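import Crest.Agent.R320.JoinA_272
import Crest.Agent.R320.GridG_19
import Crest.Agent.R320.Thin_963
import Crest.Agent.R320.ExactR_237
import Crest.Agent.R320.LWallAll_922
import Crest.Agent.R320.Univ_188

/-!
# Row 320: all constants chosen, height three for every finite monoid (helper272)
-/

set_option autoImplicit false

namespace Crest.Agent.R320.Fin_272

open Crest.RegLang Crest.Agent.R320.Hk_851 Crest.Agent.R320.Inst_272
  Crest.Agent.R320.BddReg_746 Crest.Agent.R320.GridG_19

theorem sum_pow {Γ : ℕ} (h : 2 ≤ Γ) (i : ℕ) : ∑ j ∈ Finset.range (i + 1), Γ ^ j ≤ 2 * Γ ^ i := by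
  induction i with
  | zero => simp
  | succ i ih =>
    rw [Finset.sum_range_succ]
    have : Γ ^ (i + 1) = Γ ^ i * Γ := pow_succ _ _
    nlinarith [Nat.one_le_pow i Γ (by omega)]

theorem am_le {G : ℕ → ℕ} {M A0 m k : ℕ} (hk : k < m) : Am G M A0 (k + 1) ≤ Am G M A0 m :=
  Am_mono G M A0 hk

theorem fin (α : Type) [Finite α] (S : Type) [Monoid S] [Finite S] (φ : α → S) (s : S) :
    HL 3 ({w | (w.map φ).prod = s} : Language α) := by
  classical
  obtain ⟨act, hadd, hone, hmul, hfaith⟩ := Blk467.exists_module S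
  haveI : Fintype S := Fintype.ofFinite S
  let V : Type := S → ZMod 2
  haveI : Fintype V := Pi.instFintype
  obtain ⟨m, r, hgrid⟩ := grid S V act
  let r0 : ℕ := r + m
  let Rr : ℕ := 2 + 2 * r0
  obtain ⟨K, hexact⟩ := ExactR_237.exact_gadget α S V φ act Rr
  obtain ⟨Ms, hcard, hprime, hgrid⟩ := hgrid (2 ^ (K + 1))
  set M : ℕ := ∏ q ∈ Ms, q with hM
  have hMpos : 0 < M := Finset.prod_pos fun q hq => (hprime q hq).1.pos
  let Γ : ℕ := 2 ^ (K + 5 + M)
  have hΓ2 : 2 ≤ Γ := by
    calc 2 = 2 ^ 1 := by norm_num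
      _ ≤ 2 ^ (K + 5 + M) := Nat.pow_le_pow_right (by norm_num) (by omega)
  have hΓ : 2 ^ (K + 5) * M ≤ Γ := by
    show 2 ^ (K + 5) * M ≤ 2 ^ (K + 5 + M)
    rw [pow_add 2 (K + 5) M]
    exact Nat.mul_le_mul_left _ (Nat.lt_two_pow_self).le
  let G : ℕ → ℕ := fun k => Γ ^ k
  have hGpos : ∀ k, 0 < G k := fun k => Nat.pow_pos (by omega)
  have hGdvd : ∀ a b, a ≤ b → G a ∣ G b := fun a b hab => pow_dvd_pow Γ hab
  have hodd : ∀ q ∈ Ms, Nat.Coprime q 2 := by
    intro q hq
    obtain ⟨h1, h2⟩ := hprime q hq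
    rw [Nat.coprime_primes h1 Nat.prime_two]
    have : 2 ^ 1 ≤ 2 ^ (K + 1) := Nat.pow_le_pow_right (by norm_num) (by omega)
    omega
  have hcopq : ∀ q ∈ Ms, ∀ k, Nat.Coprime q (G k) := by
    intro q hq k
    show Nat.Coprime q ((2 ^ (K + 5 + M)) ^ k)
    rw [← pow_mul]
    exact Nat.Coprime.pow_right _ (hodd q hq)
  have hcop : ∀ k, Nat.Coprime M (G k) := fun k =>
    Nat.Coprime.prod_left fun q hq => hcopq q hq k
  let pφ : List α → S := fun w => (w.map φ).prod
  have hpφ : ∀ u v, pφ (u ++ v) = pφ u * pφ v := fun u v => by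
    simp only [pφ, List.map_append, List.prod_append]
  obtain ⟨lam1, rho1, nu1, u1, u2, u3, u4, u5⟩ := hgrid G 0 hGpos hGdvd hcop α pφ hpφ
  -- sizes
  set am : ℕ := Am G M 0 m with ham
  let N1 : ℕ := 2 * am + M + 1
  -- the ruler
  have hthin := Thin963.thin K m Ms (fun i => (G i : ℤ)) (fun i => (M : ℤ) * (G i : ℤ))
    (fun i => (Am G M 0 i : ℤ)) (fun q hq => ⟨(hprime q hq).1, (hprime q hq).2.le⟩)
    (fun q hq => Nat.isCoprime_iff_coprime.2 (hcopq q hq m)) (by exact_mod_cast hGpos m)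
    (fun i j hij => Int.natCast_dvd_natCast.2 (hGdvd i j hij))
    (fun i => by have := hGpos i; positivity)
    (fun i => Dvd.intro_left _ rfl)
    (by
      intro i _
      have h1 : ∑ j ∈ Finset.range (i + 1), (M : ℤ) * ((G j : ℕ) : ℤ)
          = ((M * ∑ j ∈ Finset.range (i + 1), Γ ^ j : ℕ) : ℤ) := by
        push_cast
        rw [Finset.mul_sum]
        simp only [G]
        push_cast
        rfl
      rw [h1]
      have h2 : 2 ^ (K + 4) * (M * ∑ j ∈ Finset.range (i + 1), Γ ^ j) ≤ Γ ^ (i + 1) := by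
        calc 2 ^ (K + 4) * (M * ∑ j ∈ Finset.range (i + 1), Γ ^ j)
            ≤ 2 ^ (K + 4) * (M * (2 * Γ ^ i)) :=
              Nat.mul_le_mul_left _ (Nat.mul_le_mul_left _ (sum_pow hΓ2 i))
          _ = (2 ^ (K + 5) * M) * Γ ^ i := by rw [show K + 5 = (K + 4) + 1 from rfl, pow_succ]; ring
          _ ≤ Γ * Γ ^ i := Nat.mul_le_mul_right _ hΓ
          _ = Γ ^ (i + 1) := by rw [pow_succ]; ring
      exact_mod_cast h2)
    ((2 * N1 + 1 : ℕ) : ℤ)
  obtain ⟨X, hX1, hX2, hX3⟩ := hthin
  obtain ⟨x, rfl⟩ : ∃ x : ℕ, X = (x : ℤ) := ⟨X.toNat, (Int.toNat_of_nonneg hX2.le).symm⟩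
  have hx1 : 2 * N1 + 1 ≤ x := by exact_mod_cast hX1
  have hx0 : 0 < x := by omega
  let c : ℕ → ℕ := fun j => x * 2 ^ j
  have hcinc : ∀ i j, i < j → c i < c j := fun i j hij =>
    Nat.mul_lt_mul_of_pos_left (Nat.pow_lt_pow_right (by norm_num) hij) hx0
  obtain ⟨lam2, rho2, nu2, g1, g2⟩ := hexact c (fun i j hij _ => hcinc i j hij)
  let p0 : ℕ := c K
  obtain ⟨n, _, B', Wo, hLW, hgap, _, _, hfree⟩ := LWallAll_922.walls_all_left α
    (2 * p0 + 2 * N1 + 1) (by omega)
  let BadT : ℕ → Prop := fun t => am ≤ t ∧ ((∃ q ∈ Ms, q ∣ t) ∨ BadG G M 0 m t)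
  let D : Data α V S :=
    { φ := pφ, act := act, Wo := Wo, n := n, W := 2 * p0 + 2 * N1 + 1
      z := p0 + N1 + p0 + n + 1, p0 := p0, N1 := N1, BadT := BadT, LU := lam1, RU := rho1
      nu1 := nu1, K := K, Rr := Rr, r0 := r0, Lam := p0, c := c, lam := lam2
      rho := fun k Q => rho2 k Q 1, nu2 := fun P => nu2 P 1 }
  have hcK : ∀ k < K, c k < p0 := fun k hk => hcinc k K hk
  have hD : D.Ok :=
    { phi_nil := rfl
      phi_app := hpφ
      act_mul := fun v s t => (hmul v s t).symm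
      act_add := hadd
      w_loc := hLW.app
      w_len := hLW.len
      w_gap := by
        intro u v hu huv hv
        have hl : 0 < v.length := List.length_pos_iff.2 hv
        have := hgap (u ++ v) u.length (u ++ v).length (by rw [List.length_append]; omega) le_rfl
          (by rw [List.take_left' rfl]; exact hu) (by rw [List.take_length]; exact huv)
        rw [List.length_append, Nat.add_sub_cancel_left] at this
        exact this
      hz := by show p0 + N1 + p0 + n < p0 + N1 + p0 + n + 1; omega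
      hW := by show 2 * p0 + 2 * N1 ≤ 2 * p0 + 2 * N1 + 1; omega
      u_sound := u1
      u_len := by
        intro P v hP
        have := (u2 P v hP).2
        show P.length < 2 * am + M + 1
        omega
      u_complete := by
        intro Y hY hb v
        have hY' : 2 * am + M + 1 ≤ Y.length := hY
        have hb' : ¬ (am ≤ Y.length ∧ ((∃ q ∈ Ms, q ∣ Y.length) ∨ BadG G M 0 m Y.length)) := hb
        have h1 : ¬ ((∃ q ∈ Ms, q ∣ Y.length) ∨ BadG G M 0 m Y.length) :=
          fun h => hb' ⟨by omega, h⟩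
        push Not at h1
        obtain ⟨P, Q, e, e1, e2⟩ := u4 Y (by omega) (by omega) (fun q hq => h1.1 q hq) h1.2 v
        exact ⟨P, Q, e.symm, e1, e2⟩
      hK := fun k hk => ⟨(hcK k hk).le, hcK k hk⟩
      g_sound := by
        intro k hk P Q v b hP _ h1 h2
        have := g1 k hk P Q 1 v b hP h1 h2
        rw [mul_one] at this
        exact this
      g_complete := by
        intro Y hY J hJ v
        obtain ⟨I, hI, hI2⟩ := g2 Y 1 v (fun k hk => by
          have h1 := hcK k hk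
          have h2 : Y.length = p0 := hY
          omega)
        obtain ⟨k, hkI, hkJ⟩ := Finset.exists_mem_notMem_of_card_lt_card
          (show J.card < I.card from lt_of_lt_of_le hJ hI)
        obtain ⟨h1, h2, h3⟩ := hI2 k hkI
        exact ⟨k, h1, hkJ, h2, h3⟩
      hR := by show 1 + 2 * r0 < 2 + 2 * r0; omega
      c_inj := by
        intro j k _ _ hjk
        rcases Nat.lt_trichotomy j k with h | h | h
        · exact absurd hjk (hcinc j k h).ne
        · exact h
        · exact absurd hjk (hcinc k j h).ne'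
      c_sp := by
        intro k j k' j' _ _ _ _ hjk hjk' h1 h2
        have h1' : x * 2 ^ k + x * 2 ^ j' ≤ x * 2 ^ k' + x * 2 ^ j + 2 * N1 := h1
        have h2' : x * 2 ^ k' + x * 2 ^ j ≤ x * 2 ^ k + x * 2 ^ j' + 2 * N1 := h2
        have e1 : (x : ℤ) * (((2:ℤ) ^ k - 2 ^ j) - (2 ^ k' - 2 ^ j')) ≤ 2 * (N1 : ℤ) := by
          zify at h1'
          linarith
        have e2 : -(2 * (N1 : ℤ)) ≤ (x : ℤ) * (((2:ℤ) ^ k - 2 ^ j) - (2 ^ k' - 2 ^ j')) := by
          zify at h2'
          linarith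
        have hxN : 2 * (N1 : ℤ) < (x : ℤ) := by exact_mod_cast (by omega : 2 * N1 < x)
        have e3 : ((2:ℤ) ^ k - 2 ^ j) - (2 ^ k' - 2 ^ j') = 0 := by
          by_contra hne
          rcases lt_or_gt_of_ne hne with hlt | hgt
          · have : ((2:ℤ) ^ k - 2 ^ j) - (2 ^ k' - 2 ^ j') ≤ -1 := by omega
            nlinarith
          · have : 1 ≤ ((2:ℤ) ^ k - 2 ^ j) - (2 ^ k' - 2 ^ j') := by omega
            nlinarith
        exact (G369.pow_diff (Ne.symm hjk) (Ne.symm hjk') (by linarith)).1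
      c_bad := by
        intro t J hJ
        have hcnt := hX3 (t : ℤ)
        have hsub : J ⊆ (((Finset.range K) ×ˢ (Finset.range K)).filter (fun p => p.1 ≠ p.2 ∧
            Thin963.BadT Ms m (fun i => (G i : ℤ)) (fun i => (M : ℤ) * (G i : ℤ))
              (fun i => (Am G M 0 i : ℤ)) ((t : ℤ) + (x : ℤ) * 2^p.1 - (x : ℤ) * 2^p.2))).image
              Prod.snd := by
          intro k hk
          obtain ⟨hkK, j, hj, hjk, l, hl, hb⟩ := hJ k hk
          have hkK' : k < K := hkK
          have hj' : j < K := hj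
          refine Finset.mem_image.2 ⟨(j, k), Finset.mem_filter.2 ⟨Finset.mem_product.2
            ⟨Finset.mem_range.2 hj', Finset.mem_range.2 hkK'⟩, hjk, ?_⟩, rfl⟩
          have hl' : l + x * 2 ^ k = t + x * 2 ^ j := hl
          have hlz : (t : ℤ) + (x : ℤ) * 2^j - (x : ℤ) * 2^k = (l : ℤ) := by
            zify at hl'
            linarith
          show Thin963.BadT Ms m (fun i => (G i : ℤ)) (fun i => (M : ℤ) * (G i : ℤ))
              (fun i => (Am G M 0 i : ℤ)) ((t : ℤ) + (x : ℤ) * 2^j - (x : ℤ) * 2^k)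
          rw [hlz]
          obtain ⟨b1, b2 | ⟨i, hi, b3⟩⟩ := hb
          · obtain ⟨q, hq, hd⟩ := b2
            exact Or.inl ⟨q, hq, Int.natCast_dvd_natCast.2 hd⟩
          · refine Or.inr ⟨i, hi, ?_⟩
            have hle : Am G M 0 (i + 1) ≤ l := (am_le hi).trans b1
            set y := l - Am G M 0 (i + 1) with hy
            have hyl : (l : ℤ) - (Am G M 0 (i + 1) : ℤ) = (y : ℤ) := by
              rw [hy]; push_cast [hle]; ring
            have hdm := Nat.div_add_mod y (G (i + 1))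
            set ρ := y % G (i + 1) with hρ
            have hρlt : ρ < G (i + 1) := Nat.mod_lt _ (hGpos _)
            rcases b3 with b3 | b3
            · refine ⟨-(ρ : ℤ), ?_, ?_⟩
              · rw [abs_neg, Nat.abs_cast]
                show (ρ : ℤ) ≤ (M : ℤ) * (G i : ℤ)
                exact_mod_cast b3.le
              · show ((G (i + 1) : ℕ) : ℤ) ∣ (l : ℤ) - (Am G M 0 (i + 1) : ℤ) + -(ρ : ℤ)
                rw [hyl]
                refine ⟨((y / G (i + 1) : ℕ) : ℤ), ?_⟩
                zify at hdm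
                push_cast
                linarith
            · refine ⟨(G (i + 1) : ℤ) - (ρ : ℤ), ?_, ?_⟩
              · rw [abs_of_nonneg (by
                  have : (ρ : ℤ) < (G (i + 1) : ℤ) := by exact_mod_cast hρlt
                  linarith)]
                show (G (i + 1) : ℤ) - (ρ : ℤ) ≤ (M : ℤ) * (G i : ℤ)
                have : ((G (i + 1) : ℕ) : ℤ) ≤ (ρ : ℤ) + (M : ℤ) * (G i : ℤ) := by exact_mod_cast b3
                linarith
              · show ((G (i + 1) : ℕ) : ℤ) ∣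
                  (l : ℤ) - (Am G M 0 (i + 1) : ℤ) + ((G (i + 1) : ℤ) - (ρ : ℤ))
                rw [hyl]
                refine ⟨((y / G (i + 1) : ℕ) : ℤ) + 1, ?_⟩
                zify at hdm
                push_cast
                linarith
        calc J.card ≤ _ := Finset.card_le_card hsub
          _ ≤ _ := Finset.card_image_le
          _ ≤ Ms.card + m := by
            refine le_trans (le_of_eq ?_) hcnt
            congr
          _ ≤ r + m := by omega }
  refine JoinA_272.row D hD φ (fun w => rfl) hone hfaith (B := max B' (2 * p0 + 2 * N1 + 1))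
    (R := 2) ?_ (Ac G M 0 m + am) (M * G m) (Nat.mul_pos hMpos (hGpos m)) ?_ ?_ s
  · intro u hu
    obtain ⟨a, y, b, k, h1, h2, h3, rfl⟩ := hfree u hu
    refine Language.mem_mul.2 ⟨a ++ pw y k, ⟨a, y, k, h1.trans (le_max_left _ _),
      h2.trans (le_max_right _ _), rfl⟩, b, ?_, by simp [pw]⟩
    refine Language.mem_mul.2 ⟨b, ⟨b, [], 0, h3.trans (le_max_left _ _), by simp, by simp [pw]⟩,
      [], rfl, by simp⟩
  · intro Y Y' h1 h2 h3 h4 h5
    have h3' := congrArg (List.take (Ac G M 0 m)) h3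
    rw [List.take_take, List.take_take, Nat.min_eq_left (by omega)] at h3'
    exact u5 Y Y' (by omega) (by omega) h3' h4 h5
  · intro t t' h1 h2 h3
    have hmod : t ≡ t' [MOD M * G m] := h3
    have hq : ∀ q ∈ Ms, (q ∣ t ↔ q ∣ t') := by
      intro q hq
      have hqM : q ∣ M * G m := dvd_mul_of_dvd_left (Finset.dvd_prod_of_mem _ hq) _
      exact (hmod.of_dvd hqM).dvd_iff dvd_rfl
    have hg : BadG G M 0 m t ↔ BadG G M 0 m t' := by
      unfold BadG
      refine exists_congr fun k => and_congr_right fun hk => ?_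
      have hle : Am G M 0 (k + 1) ≤ am := am_le hk
      have e : (t - Am G M 0 (k + 1)) % G (k + 1) = (t' - Am G M 0 (k + 1)) % G (k + 1) := by
        have hGm : G (k + 1) ∣ M * G m := dvd_mul_of_dvd_right (hGdvd _ _ hk) _
        have a1 : (t - Am G M 0 (k + 1)) + Am G M 0 (k + 1) ≡
            (t' - Am G M 0 (k + 1)) + Am G M 0 (k + 1) [MOD G (k + 1)] := by
          rw [Nat.sub_add_cancel (by omega), Nat.sub_add_cancel (by omega)]
          exact hmod.of_dvd hGm
        exact Nat.ModEq.add_right_cancel' _ a1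
      rw [e]
    show (am ≤ t ∧ ((∃ q ∈ Ms, q ∣ t) ∨ BadG G M 0 m t)) ↔
      (am ≤ t' ∧ ((∃ q ∈ Ms, q ∣ t') ∨ BadG G M 0 m t'))
    rw [hg]
    constructor
    · rintro ⟨_, ⟨q, hq1, hq2⟩ | hb⟩
      · exact ⟨by omega, Or.inl ⟨q, hq1, (hq q hq1).1 hq2⟩⟩
      · exact ⟨by omega, Or.inr hb⟩
    · rintro ⟨_, ⟨q, hq1, hq2⟩ | hb⟩
      · exact ⟨by omega, Or.inl ⟨q, hq1, (hq q hq1).2 hq2⟩⟩
      · exact ⟨by omega, Or.inr hb⟩

end Crest.Agent.R320.Fin_272
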