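import Crest.Agent.R320.GadA_277
import Crest.Agent.R320.Fin_211
import Crest.Agent.R320.Univ_582
import Crest.Agent.R320.Two_621

/-!
# Row 320: the row from `Fin_211.fin` and the grid gadget (helper277)
-/

set_option autoImplicit false

namespace Crest.Agent.R320.Fin_277

open Crest.Agent.R320.GadA_277 Crest.RegLang

theorem gad {α S V : Type} [Monoid S] [Finite S] [AddCommGroup V] [Finite V] (act : V → S → V)
    (f : α → S) : Fin_211.Gad act f := by
  obtain ⟨R0, h⟩ := gadget S V act
  refine ⟨R0, fun K => ?_⟩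
  obtain ⟨N1, T0, A, M, BadT, c, hM, hc, hres, hsp, hg⟩ := h K
  obtain ⟨lam, rho, nu, g1, g2, g3, -, g5⟩ := hg α (ExactR_237.pr f)
    (fun u v => by simp [ExactR_237.pr])
  refine ⟨N1, T0, A, M, BadT, c, lam, rho, nu, ?_, g2, g3, hM, ?_, ?_, ?_, ?_⟩
  · intro P Q v r h1 h2
    exact (g1 P Q v r h1 h2).symm
  · intro Y Y' _ _ h1 h2 h3
    exact g5 Y Y' h1 h2 h3
  · intro i j hij _
    exact hc hij
  · intro i i' j j' _ _ _ _ h1 h2 h3 h4
    exact hres i' i j' j h1 h2 (by omega) (by omega)
  · intro T hT I hI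
    exact hsp T hT I hI

theorem row {α : Type*} [Finite α] (L : Language α) (hL : L.IsRegular) :
    ∃ e : GRegExp α, e.height ≤ 3 ∧ e.lang = L :=
  Univ_582.final (fun β _ S _ _ φ s =>
    Fin_211.fin (V := Two_621.Tok S) Two_621.act Two_621.act_add Two_621.act_one
      (fun v s t => (Two_621.act_mul v s t).symm)
      (fun s t h => Two_621.act_faithful h) φ (gad _ φ) s) α L hL

end Crest.Agent.R320.Fin_277
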