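import Crest.Agent.R320.SemTop_727
import Crest.Agent.R320.SemJ_832
import Crest.Agent.R320.G1_852
import Crest.Agent.R320.Sp_21
import Crest.Agent.R320.ExactR_237
import Crest.Agent.R320.P4_440
import Crest.Agent.R320.Univ_234

set_option autoImplicit false

/-!
# Row 320: final composition (helper279)

727's semantic top, 832's concrete side, 852's gadget, 21's ruler, 237's exact gadget,
228's walls, 440's `HL 1` facts, 234's change of universe.
-/

namespace Crest.Agent.R320.Fin_279

open Crest.RegLang Crest.Agent.R320.Hk_851 Crest.Agent.R320.Blk467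

variable {α S V : Type}

/-- product of a word -/
def ph [Monoid S] (f : α → S) (w : List α) : S := (w.map f).prod

theorem ph_append [Monoid S] (f : α → S) (u v : List α) :
    ph f (u ++ v) = ph f u * ph f v := by
  simp [ph]

/-- all data of the two schemes exist -/
theorem exists_dat [Finite α] [Monoid S] [Finite S] [AddCommGroup V] [Finite V] (f : α → S)
    (act : V → S → V) :
    ∃ (D : SemJ_832.Dat α S V) (S' : Set (List α)) (P0 : ℕ),
      D.phi = ph f ∧ D.act = act ∧ D.Wo = WallU_228.Wo D.n S' ∧ 0 < P0 ∧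
      (∀ (L : Language α), L.IsRegular → ∀ r,
        HL 1 ({w | w ∈ L ∧ FewWalls_228.nw D.n S' w ≤ r} : Language α)) ∧
      (∀ Q Q' : List α, Q.take D.N = Q'.take D.N → ph f (Q.drop D.N) = ph f (Q'.drop D.N) →
        Q.length % P0 = Q'.length % P0 → D.nu1 Q = D.nu1 Q') := by
  classical
  cases nonempty_fintype S
  cases nonempty_fintype V
  obtain ⟨m, r, hG⟩ := G1_852.gadget act
  obtain ⟨K, hE⟩ := ExactR_237.exact_gadget α S V f act (2 * (r + m) + 2)
  obtain ⟨Ms, M, hcard, hMs, hM, hG2⟩ := hG (2 ^ (K + 1))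
  obtain ⟨b, hb⟩ : ∃ b, b = (2 ^ (K + 4) + 2) * M + 1 := ⟨_, rfl⟩
  have hcop : Nat.Coprime b M := by
    rw [hb, Nat.coprime_mul_right_add_left]
    exact Nat.coprime_one_left M
  have hb0 : 0 < b := by omega
  obtain ⟨lam, rho, nu, g1, g2, g3, g4⟩ := hG2 b hb0 hcop α f
  obtain ⟨N, hN⟩ : ∃ N, N = b ^ m := ⟨_, rfl⟩
  obtain ⟨c, c1, c2, c3⟩ := Sp_21.spoil K N m M b Ms hM
    (fun k hk => ⟨(hMs k hk).2.2, (hMs k hk).1.le⟩) hcop (by omega)
  obtain ⟨lam2, rho2, nu2, e1, e2⟩ := hE c (fun i j hij _ => by have := c1 i j hij; omega)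
  obtain ⟨n, cc, P, S', hn, hP, w1, w2, w3, w4, w5⟩ :=
    WallU_228.walls_full (α := α) (2 * c K + 2 * N)
  rw [← hN] at g1 g4
  refine ⟨{ phi := ph f, act := act, Wo := WallU_228.Wo n S', n := n, W := 2 * c K + 2 * N,
            z := c K + n + 2 * N + 2 * c K + 1, p0 := c K, N := N, K := K, C0 := r + m,
            Lam := c K, BadT := Sp_21.Bad m M b Ms, lam := lam, rho := rho, nu1 := nu, c := c,
            lam2 := lam2, rho2 := fun k Q => rho2 k Q 1, nu2 := fun w => nu2 w 1,
            hloc := w1, hgap := ?_, g_len := fun p v h => (g1 p v h).le,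
            g_sound := fun p q v r h h' => g2 p q v r h h', g_comp := ?_, e_sound := ?_,
            e_comp := fun u v hu => e2 u 1 v hu, c_le := ?_, rulerE := ?_, rulerB := ?_,
            h_p0 := le_rfl, z_pos := by omega, h_z := by omega, h_W := le_rfl },
    S', M * N, rfl, rfl, rfl, ?_, w5, fun Q Q' h1 h2 h3 => (g4 Q Q' h1 h2 h3).2⟩
  · intro X t t' h1 h2 h3 h4
    by_contra hc
    refine w2 (X.take t') (t' - t) h4 (by omega) (by omega) ?_
    rw [List.length_take, Nat.min_eq_left h2, List.take_take, Nat.min_eq_left (by omega)]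
    have e : t' - (t' - t) = t := by omega
    rw [e]
    exact h3
  · intro u _ hB v
    obtain ⟨P1, Q1, e, h1, v', h2⟩ := g3 u (fun k hk hd => hB (Or.inl ⟨k, hk, hd⟩)) (by
      intro j hj
      by_contra hc
      exact hB (Or.inr ⟨j, hj, fun h => hc ⟨h.1, by have := h.2; omega⟩⟩)) v
    exact ⟨P1, Q1, e.symm, h1, by rw [h2]; rfl⟩
  · intro k hk P1 Q1 v b' hPl h1 h2
    have := e1 k hk P1 Q1 1 v b' hPl h1 h2
    rw [mul_one] at this
    exact this
  · intro k hk
    have := c1 k K hk
    omega
  · intro i _ j _ i' _ j' _ hij hij' h1 h2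
    by_contra hc
    rcases c2 i j i' j' hij hij' (fun h => hc (by simpa using h)) with h | h <;> omega
  · intro T _ hT
    refine le_trans ?_ (Nat.add_le_add_right hcard m)
    rw [← Finset.card_image_of_injective _ Prod.swap_injective]
    refine c3 T (fun i hi => le_trans (by have := c1 i K hi; omega) hT) _ ?_
    intro p hp
    rw [Finset.mem_image] at hp
    obtain ⟨q, hq, rfl⟩ := hp
    rw [Finset.mem_filter, Finset.mem_product, Finset.mem_range, Finset.mem_range] at hq
    exact ⟨hq.1.2, hq.1.1, fun h => hq.2.1 h.symm, hq.2.2⟩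
  · rw [hN]
    positivity

section

variable [Monoid S] (f : α → S)

theorem ph_drop {w : List α} {a B : ℕ} (ha : a ≤ B) (hw : B ≤ w.length) :
    ph f (w.drop a) = ph f ((w.take B).drop a) * ph f (w.drop B) := by
  rw [← ph_append]
  congr 1
  conv_lhs => rw [← List.take_append_drop B w]
  rw [List.drop_append_of_le_length (by rw [List.length_take]; omega)]

theorem ph_drop_congr {w w' : List α} {a B : ℕ} (ha : a ≤ B) (hw : B ≤ w.length)
    (hw' : B ≤ w'.length) (ht : w.take B = w'.take B)
    (hd : ph f (w.drop B) = ph f (w'.drop B)) : ph f (w.drop a) = ph f (w'.drop a) := by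
  rw [ph_drop f ha hw, ph_drop f ha hw', ht, hd]

end

theorem take_congr {w w' : List α} {a B : ℕ} (ha : a ≤ B) (ht : w.take B = w'.take B) :
    w.take a = w'.take a := by
  have h := congrArg (List.take a) ht
  rwa [List.take_take, List.take_take, Nat.min_eq_left ha] at h

theorem drop_take_congr {w w' : List α} {a N B : ℕ} (ha : a + N ≤ B)
    (ht : w.take B = w'.take B) : (w.drop a).take N = (w'.drop a).take N := by
  have h := take_congr ha ht
  rw [List.take_drop, List.take_drop, h]

theorem fin_top [Finite α] [Monoid S] [Finite S] [AddCommGroup V] [Finite V] (f : α → S)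
    (act : V → S → V) (hadd : ∀ a b s, act (a + b) s = act a s + act b s)
    (hone : ∀ v, act v 1 = v) (hmul : ∀ v s t, act v (s * t) = act (act v s) t)
    (hfaith : ∀ s t, (∀ v, act v s = act v t) → s = t) (s : S) :
    HL 3 ({w | (w.map f).prod = s} : Language α) := by
  classical
  obtain ⟨D, S', P0, hphi, hact, hWo, hP0, hfew, hnu⟩ := exists_dat (V := V) f act
  have hz := D.h_z
  have hp := D.h_p0
  have hZ : D.Z = P4_440.XX D.n S' D.z := by
    show SemJ_832.XX D.Wo D.z = _
    rw [hWo]
    rfl
  have hTT : ∀ v X, D.T v X = act (act v (ph f (X.take D.p0)) + D.nu2 (X.take D.p0))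
      (ph f (X.drop D.p0)) + D.nu1 (X.drop D.p0) := by
    intro v X
    show D.act (D.act v (D.phi (X.take D.p0)) + D.nu2 (X.take D.p0)) (D.phi (X.drop D.p0))
      + D.nu1 (X.drop D.p0) = _
    rw [hphi, hact]
  refine SemTop_727.top (k := 1) act hadd hone hmul hfaith f
    (fun X => act (D.nu2 (X.take D.p0)) (ph f (X.drop D.p0)) + D.nu1 (X.drop D.p0))
    ⟨D.Z, D.T, D.L1, D.L2⟩ ?_ ?_ ?_ ?_ ?_ ?_ ?_ s
  · intro v X
    show D.T v X = _
    rw [hTT, hadd, ← hmul, ← ph_append, List.take_append_drop, add_assoc]
    rfl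
  · refine ⟨?_, ?_⟩
    · intro h
      have h1 : D.z ≤ ([] : List α).length := h.1
      have h2 := D.z_pos
      simp at h1
      omega
    · rintro X hX Y hY ⟨w, rfl⟩
      rcases Nat.eq_zero_or_pos w.length with h0 | h0
      · have : w = [] := List.length_eq_zero_iff.1 h0
        rw [this, List.append_nil]
      · exfalso
        apply hY.2.2 X.length hX.1 (by rw [List.length_append]; omega)
        rw [List.take_left]
        exact hX.2.1
  · intro x y
    have hR : P4_440.Resp (ph f) D.z P0 (fun X => D.T x X = y) := by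
      intro w w' h1 h2 h3 h4 h5
      have e : D.T x w = D.T x w' := by
        rw [hTT, hTT, take_congr (by omega) h3, ph_drop_congr f (by omega) h1 h2 h3 h4]
        congr 1
        refine hnu _ _ (drop_take_congr (by omega) h3) ?_ ?_
        · rw [List.drop_drop, List.drop_drop]
          exact ph_drop_congr f (by omega) h1 h2 h3 h4
        · rw [List.length_drop, List.length_drop]
          have h6 : (w.length - D.p0) + D.p0 ≡ (w'.length - D.p0) + D.p0 [MOD P0] := by
            rw [Nat.sub_add_cancel (by omega), Nat.sub_add_cancel (by omega)]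
            exact h5
          exact Nat.ModEq.add_right_cancel' _ h6
      show D.T x w = y ↔ D.T x w' = y
      rw [e]
    have h := P4_440.HL_block (φ := ph f) (n := D.n) (S := S') (z := D.z) (B := D.z) (P := P0)
      (ph_append f) (by omega) le_rfl hP0 hfew hR
    rw [← hZ] at h
    exact h
  · intro x
    refine (List.finite_length_le α (D.p0 + D.N)).subset ?_
    rintro Q ⟨h1, h2⟩
    have := D.g_len _ _ h2
    rw [List.length_drop] at this
    show Q.length ≤ _
    omega
  · intro x
    refine (List.finite_length_le α D.Lam).subset ?_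
    rintro Q ⟨k, hk, h1, h2⟩
    have := D.c_le k hk
    show Q.length ≤ _
    omega
  · intro X1 h1 X2 h2 x
    exact D.hC2 h1 h2 x
  · intro s
    have hR : P4_440.Resp (ph f) D.z P0 (fun X => ph f X = s) := by
      intro w w' h1 h2 h3 h4 h5
      have e : ph f w = ph f w' := by
        have := ph_drop_congr f (Nat.zero_le D.z) h1 h2 h3 h4
        simpa using this
      show ph f w = s ↔ ph f w' = s
      rw [e]
    have h := P4_440.HL_rest (φ := ph f) (n := D.n) (S := S') (z := D.z) (B := D.z) (P := P0)
      (ph_append f) (by omega) le_rfl hP0 hfew hR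
    rw [← hZ] at h
    exact h.mono (by omega)

/-- **every fibre of a finite monoid has star height at most three** -/
theorem fibre [Finite α] [Monoid S] [Finite S] (f : α → S) (s : S) :
    HL 3 ({w | (w.map f).prod = s} : Language α) := by
  classical
  refine fin_top (V := S → ZMod 2) f (fun v s u => v (s * u)) ?_ ?_ ?_ ?_ s
  · intro a b s; rfl
  · intro v; funext u; simp
  · intro v s t; funext u; simp [mul_assoc]
  · intro s t h
    have h1 := congrFun (h (fun x => if x = s then 1 else 0)) 1
    simp only [mul_one, if_true] at h1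
    by_contra hc
    rw [if_neg (fun e => hc e.symm)] at h1
    exact one_ne_zero h1

/-- **row 320** -/
theorem row {α : Type*} [Finite α] (L : Language α) (hL : L.IsRegular) :
    ∃ e : GRegExp α, e.height ≤ 3 ∧ e.lang = L :=
  Univ_234.of_fin_monoid (fun _ _ _ _ φ s => fibre φ s) L hL

end Crest.Agent.R320.Fin_279
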