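import Mathlib

/-!
# Row 320: the concrete side in the block calculus with the natural chain rule (helper879)

Blocks `XX` = words of length `≥ z` ending in a wall (left looking walls), no earlier wall at a place
`≥ z`.  Gadget 1 on the tail `X.drop p0` (693: bad lengths `BT`, no small walls), gadget 2 (exact,
ruler places `c k`) on the head `X.take p0`.  Labels on the right are semantic (727).
`good` : not bad ⇒ good block; `hC2` : scheme 2 is complete.
-/

set_option autoImplicit false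

namespace Crest.Agent.R320.Inst_879

open Finset

variable {α V : Type*}

structure Walls (n W : ℕ) (Wo : List α → Prop) : Prop where
  loc : ∀ P Q : List α, n ≤ Q.length → (Wo (P ++ Q) ↔ Wo Q)
  gap : ∀ P D : List α, Wo P → Wo (P ++ D) → D ≠ [] → W < D.length

def XX (z : ℕ) (Wo : List α → Prop) : Set (List α) :=
  {X | z ≤ X.length ∧ Wo X ∧ ∀ t, z ≤ t → t < X.length → ¬ Wo (X.take t)}

theorem XX_code {z : ℕ} {Wo : List α → Prop} {X Y : List α} (hX : X ∈ XX z Wo)
    (hXY : X ++ Y ∈ XX z Wo) : Y = [] := by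
  by_contra h
  have hl : 0 < Y.length := List.length_pos_iff.2 h
  refine hXY.2.2 X.length hX.1 (by rw [List.length_append]; omega) ?_
  rw [List.take_left]; exact hX.2.1

theorem take_add (P Q : List α) (s : ℕ) : (P ++ Q).take (P.length + s) = P ++ Q.take s := by
  rw [List.take_append, List.take_of_length_le (by omega)]
  congr 2
  omega

theorem shift {n W : ℕ} {Wo : List α → Prop} (h : Walls n W Wo) (P P' Q : List α) {s : ℕ}
    (hn : n ≤ s) (hs : s ≤ Q.length) :
    Wo ((P ++ Q).take (P.length + s)) ↔ Wo ((P' ++ Q).take (P'.length + s)) := by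
  rw [take_add, take_add]
  have hl : n ≤ (Q.take s).length := by rw [List.length_take]; omega
  rw [h.loc P _ hl, h.loc P' _ hl]

/-- two walls of one text -/
theorem gap' {n W : ℕ} {Wo : List α → Prop} (h : Walls n W Wo) (U : List α) {s t : ℕ}
    (hs : s < t) (ht : t ≤ U.length) (h1 : Wo (U.take s)) (h2 : Wo (U.take t)) : W < t - s := by
  have e : U.take t = U.take s ++ (U.drop s).take (t - s) := by
    have h3 : U.take t = U.take (s + (t - s)) := by congr 1; omega
    rw [h3, List.take_add]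
  rw [e] at h2
  have hl : ((U.drop s).take (t - s)).length = t - s := by
    rw [List.length_take, List.length_drop]; omega
  have h3 := h.gap _ _ h1 h2 (fun h4 => by rw [h4] at hl; simp at hl; omega)
  rwa [hl] at h3

structure Dat (α V : Type*) where
  n : ℕ
  W : ℕ
  Wo : List α → Prop
  z : ℕ
  p0 : ℕ
  N1 : ℕ
  N0 : ℕ
  BT : ℕ → Prop
  M0 : List α → V → V
  M1 : List α → V → V
  lam1 : V → Set (List α)
  rho1 : V → Set (List α)
  K : ℕ
  c : ℕ → ℕ
  lam2 : ℕ → V → Set (List α)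
  rho2 : ℕ → V → Set (List α)
  Lam : ℕ
  C1 : ℕ
  R : ℕ

namespace Dat

variable (D : Dat α V)

/-- zone map -/
def T (v : V) (X : List α) : V := D.M1 (X.drop D.p0) (D.M0 (X.take D.p0) v)

def L1 (x : V) : Set (List α) :=
  {P | D.p0 ≤ P.length ∧ P.drop D.p0 ∈ D.lam1 (D.M0 (P.take D.p0) x)}

def L2 (x : V) : Set (List α) := {P | ∃ k < D.K, P.length = D.c k ∧ P ∈ D.lam2 k x}

def R1 (y : V) : Set (List α) :=
  {Q | ∀ x, ∀ P ∈ D.L1 x, P ++ Q ∈ XX D.z D.Wo ∧ D.T x (P ++ Q) = y}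

def G : Set (List α) :=
  {X | X ∈ XX D.z D.Wo ∧ ∀ x, ∃ P ∈ D.L1 x, ∃ Q ∈ D.R1 (D.T x X), P ++ Q = X}

def B : Set (List α) := {X | X ∈ XX D.z D.Wo ∧ X ∉ D.G}

def R2 (y : V) : Set (List α) :=
  {Q | ∀ x, ∀ P ∈ D.L2 x,
    (∃ X1 ∈ D.B, ∃ X2 ∈ D.B, P ++ Q = X1 ++ X2 ∧ D.T (D.T x X1) X2 = y) ∨
    (∃ X ∈ D.G, X <+: P ++ Q) ∨ (∃ X1 ∈ D.B, ∃ X2 ∈ D.G, X1 ++ X2 <+: P ++ Q)}

/-- bad blocks: wall in the band or bad length -/
def E (X : List α) : Prop :=
  ∃ s, D.z ≤ s + D.N1 ∧ s < D.z + D.N1 ∧ s ≤ X.length ∧ D.Wo (X.take s)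

def Bad (X : List α) : Prop := D.E X ∨ D.BT (X.length - D.p0)

structure Ok : Prop where
  walls : Walls D.n D.W D.Wo
  g1s : ∀ P Q v b, P ∈ D.lam1 v → Q ∈ D.rho1 b → D.M1 (P ++ Q) v = b
  g1l : ∀ P v, P ∈ D.lam1 v → P.length ≤ D.N1
  g1c : ∀ u v, D.N0 ≤ u.length → ¬ D.BT u.length →
    ∃ P Q, P ++ Q = u ∧ P ∈ D.lam1 v ∧ Q ∈ D.rho1 (D.M1 u v)
  hc : ∀ k < D.K, D.c k ≤ D.Lam
  hLam : D.Lam ≤ D.p0
  g2s : ∀ k < D.K, ∀ P Q v b, P.length = D.c k → (P ++ Q).length = D.p0 →
    P ∈ D.lam2 k v → Q ∈ D.rho2 k b → D.M0 (P ++ Q) v = b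
  g2c : ∀ u v, u.length = D.p0 → ∃ I : Finset ℕ, D.R ≤ I.card ∧
    ∀ k ∈ I, k < D.K ∧ u.take (D.c k) ∈ D.lam2 k v ∧ u.drop (D.c k) ∈ D.rho2 k (D.M0 u v)
  hz : D.p0 + D.N1 + D.n ≤ D.z
  hz0 : D.p0 + D.N0 ≤ D.z
  hz2 : D.p0 + 2 * D.Lam ≤ D.z
  hW : 2 * D.N1 + 2 * D.Lam ≤ D.W
  rul1 : ∀ a b a' b', a < D.K → b < D.K → a' < D.K → b' < D.K → a ≠ b → a' ≠ b' →
    D.c a + D.c b' < D.c a' + D.c b + 2 * D.N1 → D.c a' + D.c b < D.c a + D.c b' + 2 * D.N1 →
    a = a' ∧ b = b'
  rul2 : ∀ T, D.Lam ≤ T → ∀ F : Finset (ℕ × ℕ),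
    (∀ ab ∈ F, ab.1 < D.K ∧ ab.2 < D.K ∧ ab.1 ≠ ab.2 ∧ D.BT (T + D.c ab.1 - D.c ab.2)) →
    F.card ≤ D.C1
  hR : 2 * D.C1 + 1 < D.R

variable {D}

/-- **scheme 1 is complete on blocks which are not bad** -/
theorem good (h : D.Ok) {X : List α} (hX : X ∈ XX D.z D.Wo) (hB : ¬ D.Bad X) : X ∈ D.G := by
  refine ⟨hX, fun x => ?_⟩
  obtain ⟨h1, h2, h3⟩ := hX
  have hE : ¬ D.E X := fun h' => hB (Or.inl h')
  have hT : ¬ D.BT (X.length - D.p0) := fun h' => hB (Or.inr h')
  have a1 := h.hz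
  have a2 := h.hz0
  have hlen : D.z + D.N1 ≤ X.length := by
    by_contra hlt
    exact hE ⟨X.length, by omega, by omega, le_rfl, by rw [List.take_length]; exact h2⟩
  have hY : (X.drop D.p0).length = X.length - D.p0 := List.length_drop
  have hX0 : (X.take D.p0).length = D.p0 := by rw [List.length_take]; omega
  obtain ⟨P', Q, hPQ, hP, hQ⟩ := h.g1c (X.drop D.p0) (D.M0 (X.take D.p0) x) (by omega)
    (by rw [hY]; exact hT)
  have hPl := h.g1l P' _ hP
  have hsum : P'.length + Q.length = X.length - D.p0 := by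
    rw [← hY, ← hPQ, List.length_append]
  have hXe : (X.take D.p0 ++ P') ++ Q = X := by
    rw [List.append_assoc, hPQ, List.take_append_drop]
  refine ⟨X.take D.p0 ++ P', ⟨by rw [List.length_append]; omega, ?_⟩, Q, ?_, hXe⟩
  · rw [List.drop_left' hX0, List.take_left' hX0]; exact hP
  · intro x' P2 hP2
    obtain ⟨hP2l, hP2m⟩ := hP2
    have hP2' := h.g1l _ _ hP2m
    rw [List.length_drop] at hP2'
    constructor
    · refine ⟨by rw [List.length_append]; omega, ?_, ?_⟩
      · have h4 : D.Wo ((X.take D.p0 ++ P') ++ Q) := by rw [hXe]; exact h2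
        rw [h.walls.loc _ _ (by omega)] at h4 ⊢
        exact h4
      · intro t ht1 ht2 hw
        rw [List.length_append] at ht2
        obtain ⟨s, rfl⟩ : ∃ s, t = P2.length + s := ⟨t - P2.length, by omega⟩
        have h5 := (shift h.walls P2 (X.take D.p0 ++ P') Q (s := s) (by omega) (by omega)).1 hw
        rw [hXe, List.length_append, hX0] at h5
        by_cases h6 : D.z ≤ D.p0 + P'.length + s
        · exact h3 _ h6 (by omega) h5
        · exact hE ⟨_, by omega, by omega, by omega, h5⟩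
    · have e1 : (P2 ++ Q).drop D.p0 = P2.drop D.p0 ++ Q := by
        rw [List.drop_append_of_le_length hP2l]
      have e2 : (P2 ++ Q).take D.p0 = P2.take D.p0 := by
        rw [List.take_append_of_le_length hP2l]
      unfold T
      rw [e1, e2]
      exact h.g1s _ _ _ _ hP2m hQ

/-- the first block of a text which contains a wall at a place `≥ z` -/
theorem exists_block {z : ℕ} {Wo : List α → Prop} {U : List α} (hz : z ≤ U.length)
    (hU : Wo U) : ∃ Z ∈ XX z Wo, Z <+: U := by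
  classical
  have hex : ∃ t, z ≤ t ∧ t ≤ U.length ∧ Wo (U.take t) :=
    ⟨U.length, hz, le_rfl, by rw [List.take_length]; exact hU⟩
  obtain ⟨h1, h2, h3⟩ := Nat.find_spec hex
  refine ⟨U.take (Nat.find hex), ⟨?_, h3, ?_⟩, List.take_prefix _ _⟩
  · rw [List.length_take]; omega
  · intro t ht1 ht2 ht3
    rw [List.length_take] at ht2
    rw [List.take_take, min_eq_left (by omega)] at ht3
    exact Nat.find_min hex (by omega) ⟨ht1, by omega, ht3⟩

/-- place `k` is spoiled in the text `U` -/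
def Spoiled (D : Dat α V) (U : List α) (k : ℕ) : Prop :=
  ∃ k' < D.K, k' ≠ k ∧ ∃ P' Z : List α, P'.length = D.c k' ∧ Z ∈ XX D.z D.Wo ∧
    Z <+: P' ++ U.drop (D.c k) ∧ D.Bad Z

theorem prefix_take {Z U : List α} (h : Z <+: U) {s : ℕ} (hs : s ≤ Z.length) :
    Z.take s = U.take s := by
  obtain ⟨R, rfl⟩ := h
  rw [List.take_append_of_le_length hs]

/-- reading a wall of the shifted text in `U` -/
theorem wall_iff (h : D.Ok) {U P' : List α} {k k' s : ℕ} (hk : k < D.K) (hk' : k' < D.K)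
    (hP : P'.length = D.c k') (hU : D.c k ≤ U.length) (hs : D.p0 + D.n ≤ s)
    (hs2 : s ≤ (P' ++ U.drop (D.c k)).length) :
    D.Wo ((P' ++ U.drop (D.c k)).take s) ↔ D.Wo (U.take (s + D.c k - D.c k')) := by
  have h1 := h.hc k hk
  have h2 := h.hc k' hk'
  have h3 := h.hLam
  rw [List.length_append, List.length_drop] at hs2
  obtain ⟨r, rfl⟩ : ∃ r, s = P'.length + r := ⟨s - P'.length, by omega⟩
  have h4 := shift h.walls P' (U.take (D.c k)) (U.drop (D.c k)) (s := r) (by omega)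
    (by rw [List.length_drop]; omega)
  rw [h4, List.take_append_drop, List.length_take, min_eq_left hU]
  have : D.c k + r = P'.length + r + D.c k - D.c k' := by omega
  rw [this]

theorem spoiled_card (h : D.Ok) {U : List α} (hUl : D.z ≤ U.length) (F : Finset ℕ)
    (hF : ∀ k ∈ F, k < D.K ∧ D.Spoiled U k) : F.card ≤ 2 * D.C1 + 1 := by
  classical
  have a1 := h.hz
  have a2 := h.hz2
  have a3 := h.hLam
  have a4 := h.hW
  -- walls of `U`
  let wp : ℕ → Prop := fun t => t ≤ U.length ∧ D.Wo (U.take t)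
  have hgap : ∀ s t, wp s → wp t → s < t → D.W < t - s := fun s t hs ht hst =>
    gap' h.walls U hst ht.1 hs.2 ht.2
  have huniq : ∀ s t, wp s → wp t → s ≤ t + D.W → t ≤ s + D.W → s = t := by
    intro s t hs ht h1 h2
    rcases lt_trichotomy s t with h3 | h3 | h3
    · have := hgap s t hs ht h3; omega
    · exact h3
    · have := hgap t s ht hs h3; omega
  -- the two kinds
  let PE : ℕ → ℕ → Prop := fun k k' => k' < D.K ∧ k' ≠ k ∧
    ∃ s, D.z ≤ s + D.N1 ∧ s < D.z + D.N1 ∧ wp (s + D.c k - D.c k')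
  let PT : ℕ → ℕ → ℕ → Prop := fun k k' l => k' < D.K ∧ k' ≠ k ∧ D.z ≤ l ∧
    wp (l + D.c k - D.c k') ∧ (∀ s, D.z ≤ s → s < l → ¬ wp (s + D.c k - D.c k')) ∧
    D.BT (l - D.p0)
  have hkind : ∀ k ∈ F, (∃ k', PE k k') ∨ ∃ k' l, PT k k' l := by
    intro k hk
    obtain ⟨hk1, k', hk', hne, P', Z, hP', hZ, hpre, hbad⟩ := hF k hk
    obtain ⟨z1, z2, z3⟩ := hZ
    have b1 := h.hc k hk1
    have b2 := h.hc k' hk'
    have hlen : Z.length ≤ (P' ++ U.drop (D.c k)).length := hpre.length_le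
    have hlen' : Z.length ≤ D.c k' + (U.length - D.c k) := by
      rw [List.length_append, List.length_drop, hP'] at hlen; exact hlen
    have key : ∀ s, D.p0 + D.n ≤ s → s ≤ Z.length →
        (D.Wo (Z.take s) ↔ wp (s + D.c k - D.c k')) := by
      intro s hs1 hs2
      rw [prefix_take hpre hs2, wall_iff h hk1 hk' hP' (by omega) hs1 (by omega)]
      constructor
      · intro h1; exact ⟨by omega, h1⟩
      · intro h1; exact h1.2
    rcases hbad with ⟨s, s1, s2, s3, s4⟩ | hT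
    · left
      exact ⟨k', hk', hne, s, s1, s2, (key s (by omega) s3).1 s4⟩
    · right
      refine ⟨k', Z.length, hk', hne, z1, (key _ (by omega) le_rfl).1 (by
        rw [List.take_length]; exact z2), fun s hs1 hs2 hw => ?_, hT⟩
      exact z3 s hs1 hs2 ((key s (by omega) (by omega)).2 hw)
  -- kind E
  let FE : Finset ℕ := F.filter fun k => ∃ k', PE k k'
  have hFE : FE.card ≤ 1 := by
    rw [Finset.card_le_one]
    intro a ha b hb
    rw [Finset.mem_filter] at ha hb
    obtain ⟨haF, a', ha', hane, s, s1, s2, s3⟩ := ha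
    obtain ⟨hbF, b', hb', hbne, t, t1, t2, t3⟩ := hb
    have c1 := h.hc a (hF a haF).1
    have c2 := h.hc a' ha'
    have c3 := h.hc b (hF b hbF).1
    have c4 := h.hc b' hb'
    have e := huniq _ _ s3 t3 (by omega) (by omega)
    exact (h.rul1 a a' b b' (hF a haF).1 ha' (hF b hbF).1 hb' hane.symm hbne.symm
      (by omega) (by omega)).1
  -- kind T
  let ft : ℕ → Finset ℕ := fun t => ((Finset.range D.K ×ˢ Finset.range D.K).filter
    fun ab => ab.1 ≠ ab.2 ∧ D.Lam ≤ t - D.p0 ∧ D.BT (t - D.p0 + D.c ab.1 - D.c ab.2)).image Prod.snd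
  have hft : ∀ t, (ft t).card ≤ D.C1 := by
    intro t
    refine Finset.card_image_le.trans ?_
    by_cases ht : D.Lam ≤ t - D.p0
    · refine h.rul2 (t - D.p0) ht _ fun ab hab => ?_
      rw [Finset.mem_filter, Finset.mem_product, Finset.mem_range, Finset.mem_range] at hab
      exact ⟨hab.1.1, hab.1.2, hab.2.1, hab.2.2.2⟩
    · rw [Finset.filter_false_of_mem (fun ab _ hab => ht hab.2.1)]
      simp
  obtain ⟨t0, ht0⟩ : ∃ t0, ∀ t, wp t → D.z ≤ t + D.Lam → t ≤ D.z + D.Lam → t = t0 := by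
    by_cases hex : ∃ t, wp t ∧ D.z ≤ t + D.Lam ∧ t ≤ D.z + D.Lam
    · obtain ⟨t0, u1, u2, u3⟩ := hex
      exact ⟨t0, fun t v1 v2 v3 => huniq _ _ v1 u1 (by omega) (by omega)⟩
    · exact ⟨0, fun t v1 v2 v3 => (hex ⟨t, v1, v2, v3⟩).elim⟩
  obtain ⟨t1, ht1⟩ : ∃ t1, ∀ t, wp t → D.z + D.Lam < t →
      (∀ s, D.z + D.Lam < s → s < t → ¬ wp s) → t = t1 := by
    by_cases hex : ∃ t, wp t ∧ D.z + D.Lam < t ∧ (∀ s, D.z + D.Lam < s → s < t → ¬ wp s)
    · obtain ⟨t1, u1, u2, u3⟩ := hex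
      refine ⟨t1, fun t v1 v2 v3 => ?_⟩
      rcases lt_trichotomy t t1 with h3 | h3 | h3
      · exact (u3 t v2 h3 v1).elim
      · exact h3
      · exact (v3 t1 u2 h3 u1).elim
    · exact ⟨0, fun t v1 v2 v3 => (hex ⟨t, v1, v2, v3⟩).elim⟩
  have hsub : F ⊆ FE ∪ (ft t0 ∪ ft t1) := by
    intro k hk
    rcases hkind k hk with h1 | ⟨k', l, b1, b2, b3, b4, b5, b6⟩
    · exact Finset.mem_union_left _ (Finset.mem_filter.2 ⟨hk, h1⟩)
    · apply Finset.mem_union_right
      have c1 := h.hc k (hF k hk).1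
      have c2 := h.hc k' b1
      have hmem : ∀ t, l + D.c k - D.c k' = t → k ∈ ft t := by
        intro t e
        refine Finset.mem_image.2 ⟨(k', k), Finset.mem_filter.2
          ⟨Finset.mem_product.2 ⟨Finset.mem_range.2 b1, Finset.mem_range.2 (hF k hk).1⟩,
            b2, by omega, ?_⟩, rfl⟩
        have : t - D.p0 + D.c k' - D.c k = l - D.p0 := by omega
        change D.BT (t - D.p0 + D.c k' - D.c k)
        rw [this]; exact b6
      by_cases hcase : l + D.c k - D.c k' ≤ D.z + D.Lam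
      · exact Finset.mem_union_left _ (hmem _ (ht0 _ b4 (by omega) hcase))
      · refine Finset.mem_union_right _ (hmem _ (ht1 _ b4 (by omega) fun s hs1 hs2 hw => ?_))
        refine b5 (s + D.c k' - D.c k) (by omega) (by omega) ?_
        have : s + D.c k' - D.c k + D.c k - D.c k' = s := by omega
        rw [this]; exact hw
  calc F.card ≤ (FE ∪ (ft t0 ∪ ft t1)).card := Finset.card_le_card hsub
    _ ≤ FE.card + (ft t0 ∪ ft t1).card := Finset.card_union_le _ _
    _ ≤ FE.card + ((ft t0).card + (ft t1).card) := by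
        have := Finset.card_union_le (ft t0) (ft t1); omega
    _ ≤ 2 * D.C1 + 1 := by
        have e1 := hft t0
        have e2 := hft t1
        omega

/-- **scheme 2 is complete** -/
theorem hC2 (h : D.Ok) {X1 X2 : List α} (hX1 : X1 ∈ XX D.z D.Wo) (hX2 : X2 ∈ XX D.z D.Wo)
    (x : V) : ∃ P ∈ D.L2 x, ∃ Q ∈ D.R2 (D.T (D.T x X1) X2), P ++ Q = X1 ++ X2 := by
  classical
  have a1 := h.hz
  have a2 := h.hz2
  have a3 := h.hLam
  have a4 := h.hR
  have l1 := hX1.1
  have l2 := hX2.1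
  have hX0 : (X1.take D.p0).length = D.p0 := by rw [List.length_take]; omega
  obtain ⟨I, hI, hI2⟩ := h.g2c (X1.take D.p0) x hX0
  have hUl : D.z ≤ (X1 ++ X2).length := by rw [List.length_append]; omega
  obtain ⟨k, hkI, hkS⟩ : ∃ k ∈ I, ¬ D.Spoiled (X1 ++ X2) k := by
    by_contra hcon
    push Not at hcon
    have := spoiled_card h hUl I fun k hk => ⟨(hI2 k hk).1, hcon k hk⟩
    omega
  obtain ⟨hk, hlam, hrho⟩ := hI2 k hkI
  have hck := h.hc k hk
  have e0 : (X1 ++ X2).take (D.c k) = (X1.take D.p0).take (D.c k) := by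
    rw [List.take_take, min_eq_left (by omega), List.take_append_of_le_length (by omega)]
  refine ⟨(X1 ++ X2).take (D.c k), ⟨k, hk, by rw [List.length_take]; omega, by
    rw [e0]; exact hlam⟩, (X1 ++ X2).drop (D.c k), ?_, List.take_append_drop _ _⟩
  intro x' P' hP'
  obtain ⟨k', hk', hPl, hPm⟩ := hP'
  have hck' := h.hc k' hk'
  have hWU : D.Wo (P' ++ (X1 ++ X2).drop (D.c k)) := by
    rw [List.drop_append_of_le_length (by omega), ← List.append_assoc,
      h.walls.loc _ _ (by omega)]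
    exact hX2.2.1
  by_cases hkk : k' = k
  · subst hkk
    have e1 : (X1 ++ X2).drop (D.c k') = X1.drop (D.c k') ++ X2 := by
      rw [List.drop_append_of_le_length (by omega)]
    have hX1' : P' ++ X1.drop (D.c k') ∈ XX D.z D.Wo := by
      refine ⟨by rw [List.length_append, List.length_drop]; omega, ?_, ?_⟩
      · have h5 := hX1.2.1
        rw [← List.take_append_drop (D.c k') X1] at h5
        rw [h.walls.loc _ _ (by rw [List.length_drop]; omega)] at h5 ⊢
        exact h5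
      · intro t ht1 ht2 hw
        rw [List.length_append, List.length_drop] at ht2
        have h6 := (wall_iff h hk' hk' hPl (by omega) (by omega) (by
          rw [List.length_append, List.length_drop]; omega)).1 hw
        rw [Nat.add_sub_cancel] at h6
        exact hX1.2.2 t ht1 (by omega) h6
    have hTT : D.T x' (P' ++ X1.drop (D.c k')) = D.T x X1 := by
      have e2 : (P' ++ X1.drop (D.c k')).drop D.p0 = X1.drop D.p0 := by
        rw [List.drop_append, List.drop_of_length_le (by omega), List.nil_append, List.drop_drop]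
        congr 1; omega
      have e3 : (P' ++ X1.drop (D.c k')).take D.p0 = P' ++ (X1.take D.p0).drop (D.c k') := by
        rw [List.take_append, List.take_of_length_le (by omega), List.drop_take]
        congr 2; omega
      unfold T
      rw [e2, e3]
      congr 1
      refine h.g2s k' hk' _ _ _ _ hPl ?_ hPm hrho
      rw [List.length_append, List.length_drop, hX0]; omega
    have e4 : P' ++ (X1 ++ X2).drop (D.c k') = (P' ++ X1.drop (D.c k')) ++ X2 := by
      rw [e1, List.append_assoc]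
    by_cases g1 : P' ++ X1.drop (D.c k') ∈ D.G
    · exact Or.inr (Or.inl ⟨_, g1, by rw [e4]; exact List.prefix_append _ _⟩)
    · by_cases g2 : X2 ∈ D.G
      · exact Or.inr (Or.inr ⟨_, ⟨hX1', g1⟩, _, g2, by rw [e4]⟩)
      · exact Or.inl ⟨_, ⟨hX1', g1⟩, _, ⟨hX2, g2⟩, e4, by rw [hTT]⟩
  · right; left
    obtain ⟨Z, hZ, hpre⟩ := exists_block (z := D.z) (U := P' ++ (X1 ++ X2).drop (D.c k)) (by
      rw [List.length_append, List.length_drop, List.length_append]; omega) hWU
    refine ⟨Z, good h hZ fun hb => ?_, hpre⟩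
    exact hkS ⟨k', hk', hkk, P', Z, hPl, hZ, hpre, hb⟩

end Dat

end Crest.Agent.R320.Inst_879
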