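import Crest.Agent.R320.SemTop_727
import Crest.Agent.R320.Inst_879
import Crest.Agent.R320.Last_749
import Crest.Agent.R320.Thin_963
import Crest.Agent.R320.ExactR_237
import Crest.Agent.R320.WallU_228
import Crest.Agent.R320.Grid_287
import Crest.Agent.R320.Generic_219
import Crest.Agent.R320.Bridge_975

/-!
# Row 320: the join (helper287)

Every fibre of a morphism into a finite monoid has generalized star height at most three.
Top = SemTop_727, both schemes = Inst_879, gadget 1 = Grid_899 (+ finite-state clause), ruler =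
Thin_963, gadget 2 = ExactR_237, walls = WallU_228, height one = Last_749.
-/

set_option autoImplicit false

namespace Crest.Agent.R320.Fin_287

open Crest.RegLang Crest.Agent.R320 Crest.Agent.R320.Hk_851 Crest.Agent.R320.WallU_228
  Crest.Agent.R320.Blk467

/-- distinct large primes -/
theorem primes (k B : ℕ) : ∃ q : Fin k → ℕ, (∀ j, (q j).Prime) ∧ (∀ j, B ≤ q j) ∧
    Function.Injective q := by
  refine ⟨fun j => Nat.nth Nat.Prime (B + j), fun j => Nat.prime_nth_prime _, fun j => ?_, ?_⟩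
  · have := Nat.add_two_le_nth_prime (B + j)
    show B ≤ Nat.nth Nat.Prime (B + j)
    omega
  · intro i j h
    have h' : B + (i : ℕ) = B + j := Nat.nth_injective Nat.infinite_setOf_prime h
    exact Fin.ext (by omega)

/-- growth of the grids -/
theorem growth (K Ms m : ℕ) (hMs : 0 < Ms) : ∃ κ : ℕ, ∀ i < m,
    (2 : ℤ) ^ (K + 4) * ∑ j ∈ Finset.range (i + 1), ((Ms * Grid_899.G κ j : ℕ) : ℤ) ≤
      (Grid_899.G κ (i + 1) : ℕ) := by
  refine ⟨K + 4 + Ms + m, fun i hi => ?_⟩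
  set κ := K + 4 + Ms + m with hκ
  have h1 : ∑ j ∈ Finset.range (i + 1), (Ms * Grid_899.G κ j) ≤
      (i + 1) * (Ms * Grid_899.G κ i) := by
    have := Finset.sum_le_card_nsmul (Finset.range (i + 1)) (fun j => Ms * Grid_899.G κ j)
      (Ms * Grid_899.G κ i) (fun j hj => Nat.mul_le_mul_left _ (Nat.le_of_dvd
        (Grid_899.G_pos i) (Grid_899.G_dvd (by have := Finset.mem_range.1 hj; omega))))
    simpa using this
  have h2 : Grid_899.G κ (i + 1) = 2 ^ κ * Grid_899.G κ i := by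
    unfold Grid_899.G
    rw [← pow_add]
    congr 1
    ring
  have h3 : 2 ^ (K + 4) * ((i + 1) * Ms) ≤ 2 ^ κ := by
    have a1 : i + 1 ≤ 2 ^ m := le_trans (by omega) Nat.lt_two_pow_self.le
    have a2 : Ms ≤ 2 ^ Ms := Nat.lt_two_pow_self.le
    calc 2 ^ (K + 4) * ((i + 1) * Ms) ≤ 2 ^ (K + 4) * (2 ^ m * 2 ^ Ms) :=
          Nat.mul_le_mul_left _ (Nat.mul_le_mul a1 a2)
      _ = 2 ^ κ := by rw [hκ]; ring
  have h4 : 2 ^ (K + 4) * ∑ j ∈ Finset.range (i + 1), (Ms * Grid_899.G κ j) ≤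
      Grid_899.G κ (i + 1) := by
    calc 2 ^ (K + 4) * ∑ j ∈ Finset.range (i + 1), (Ms * Grid_899.G κ j)
        ≤ 2 ^ (K + 4) * ((i + 1) * (Ms * Grid_899.G κ i)) := Nat.mul_le_mul_left _ h1
      _ = (2 ^ (K + 4) * ((i + 1) * Ms)) * Grid_899.G κ i := by ring
      _ ≤ 2 ^ κ * Grid_899.G κ i := Nat.mul_le_mul_right _ h3
      _ = _ := h2.symm
  exact_mod_cast h4

/-- a clean total -/
theorem clean {Ms κ m : ℕ} (qs : Finset ℕ) (T : ℕ) (hT : Grid_899.Am Ms κ (m + 1) ≤ T)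
    (h : ¬ Thin963.BadT qs m (fun i => ((Grid_899.G κ i : ℕ) : ℤ))
      (fun i => ((Ms * Grid_899.G κ i : ℕ) : ℤ)) (fun i => ((Grid_899.Am Ms κ i : ℕ) : ℤ)) (T : ℤ)) :
    (∀ p ∈ qs, ¬ p ∣ T) ∧ ∀ j, 1 ≤ j → j ≤ m →
      Ms * Grid_899.G κ (j - 1) ≤ (T - Grid_899.Am Ms κ j) % Grid_899.G κ j ∧
      (T - Grid_899.Am Ms κ j) % Grid_899.G κ j + Ms * Grid_899.G κ (j - 1) ≤ Grid_899.G κ j := by
  refine ⟨fun p hp hd => h (Or.inl ⟨p, hp, Int.natCast_dvd_natCast.2 hd⟩), fun j hj1 hj2 => ?_⟩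
  obtain ⟨i, rfl⟩ := Nat.exists_eq_add_of_le' hj1
  have hA : Grid_899.Am Ms κ (i + 1) ≤ Grid_899.Am Ms κ (m + 1) := Grid_899.Am_mono (by omega)
  rw [Nat.add_sub_cancel]
  set Gj := Grid_899.G κ (i + 1) with hGj
  set A := Grid_899.Am Ms κ (i + 1) with hAdef
  set C := Ms * Grid_899.G κ i with hC
  have hG0 : 0 < Gj := Grid_899.G_pos _
  have hdm := Nat.div_add_mod (T - A) Gj
  have hlt := Nat.mod_lt (T - A) hG0
  set r := (T - A) % Gj with hr
  set d := (T - A) / Gj with hd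
  have hTA : (T : ℤ) = A + (Gj * d + r) := by
    have : T = A + (Gj * d + r) := by omega
    exact_mod_cast this
  constructor
  · by_contra hc
    refine h (Or.inr ⟨i, by omega, -(r : ℤ), ?_, ?_⟩)
    · rw [abs_neg, abs_of_nonneg (by positivity)]
      have : r ≤ C := by omega
      show (r : ℤ) ≤ (C : ℤ)
      exact_mod_cast this
    · refine ⟨(d : ℤ), ?_⟩
      show (T : ℤ) - (A : ℤ) + -(r : ℤ) = (Gj : ℤ) * d
      rw [hTA]; ring
  · by_contra hc
    refine h (Or.inr ⟨i, by omega, (Gj : ℤ) - r, ?_, ?_⟩)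
    · rw [abs_of_nonneg (by have : (r : ℤ) < Gj := by exact_mod_cast hlt
                            linarith)]
      have : Gj ≤ C + r := by omega
      have h2 : (Gj : ℤ) ≤ C + r := by exact_mod_cast this
      show (Gj : ℤ) - r ≤ (C : ℤ)
      linarith
    · refine ⟨(d : ℤ) + 1, ?_⟩
      show (T : ℤ) - (A : ℤ) + ((Gj : ℤ) - r) = (Gj : ℤ) * (d + 1)
      rw [hTA]; ring


/-- the ruler `x * 2 ^ j` -/
theorem ruler {x N1 : ℕ} (hx1 : 2 * N1 + 1 ≤ x) {a b a' b' : ℕ} (hab : a ≠ b) (hab' : a' ≠ b')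
    (h1' : x * 2 ^ a + x * 2 ^ b' < x * 2 ^ a' + x * 2 ^ b + 2 * N1)
    (h2' : x * 2 ^ a' + x * 2 ^ b < x * 2 ^ a + x * 2 ^ b' + 2 * N1) : a = a' ∧ b = b' := by
  refine Crest.Agent.R320.Generic.two_pow_sidon a b a' b' hab hab' ?_
  have h5 : (2 * N1 : ℤ) < x := by exact_mod_cast (by omega : 2 * N1 < x)
  have h3 : (x : ℤ) * ((2 ^ a - 2 ^ b) - (2 ^ a' - 2 ^ b')) < x := by
    have : ((x * 2 ^ a + x * 2 ^ b' : ℕ) : ℤ) < ((x * 2 ^ a' + x * 2 ^ b + 2 * N1 : ℕ) : ℤ) := by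
      exact_mod_cast h1'
    push_cast at this
    nlinarith
  have h4 : -(x : ℤ) < (x : ℤ) * ((2 ^ a - 2 ^ b) - (2 ^ a' - 2 ^ b')) := by
    have : ((x * 2 ^ a' + x * 2 ^ b : ℕ) : ℤ) < ((x * 2 ^ a + x * 2 ^ b' + 2 * N1 : ℕ) : ℤ) := by
      exact_mod_cast h2'
    push_cast at this
    nlinarith
  have hxp : (0 : ℤ) < x := by exact_mod_cast (by omega : 0 < x)
  have h6 : ((2 : ℤ) ^ a - 2 ^ b) - (2 ^ a' - 2 ^ b') < 1 := by
    by_contra hc
    have h7 := mul_le_mul_of_nonneg_left (not_lt.1 hc) hxp.le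
    linarith
  have h7 : -1 < ((2 : ℤ) ^ a - 2 ^ b) - (2 ^ a' - 2 ^ b') := by
    by_contra hc
    have h8 := mul_le_mul_of_nonneg_left (not_lt.1 hc) hxp.le
    linarith
  linarith [Int.lt_add_one_iff.1 (show ((2 : ℤ) ^ a - 2 ^ b) - (2 ^ a' - 2 ^ b') < 0 + 1 by linarith),
    Int.add_one_le_iff.2 h7]

/-- everything but the constants -/
theorem core (α : Type) [Finite α] (S : Type) [Monoid S] [Finite S] (φ : α → S) (s : S)
    (V : Type) [AddCommGroup V] [Finite V] (act : V → S → V)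
    (hadd : ∀ a b s, act (a + b) s = act a s + act b s)
    (hone : ∀ v, act v 1 = v) (hmul : ∀ v s t, act v (s * t) = act (act v s) t)
    (hfaith : ∀ s t, (∀ v, act v s = act v t) → s = t)
    (N1 C1 K p0 : ℕ) (BT : ℕ → Prop) (lam rho : List α → Option V) (nu1 : List α → V)
    (glen : ∀ P v, lam P = some v → P.length ≤ N1)
    (gs : ∀ P Q v b, lam P = some v → rho Q = some b →
      b = act v ((P ++ Q).map φ).prod + nu1 (P ++ Q))
    (gc : ∀ u : List α, 2 * N1 ≤ u.length → ¬ BT u.length → ∀ v, ∃ P Q, u = P ++ Q ∧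
      lam P = some v ∧ (rho Q).isSome)
    (hν1 : ∀ v, Language.IsRegular ({Y | nu1 Y = v} : Language α))
    (c : ℕ → ℕ) (hcle : ∀ k < K, c k ≤ p0)
    (lam2 : ℕ → List α → Option V) (rho2 : ℕ → List α → Option V) (nu2 : List α → V)
    (es : ∀ k < K, ∀ (P Q : List α) (v b : V), P.length = c k → lam2 k P = some v →
      rho2 k Q = some b → b = act v ((P ++ Q).map φ).prod + nu2 (P ++ Q))
    (ec : ∀ (u : List α) (v : V), (∀ k < K, c k ≤ u.length) → ∃ I : Finset ℕ,
      2 * C1 + 2 ≤ I.card ∧ ∀ k ∈ I, k < K ∧ lam2 k (u.take (c k)) = some v ∧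
        (rho2 k (u.drop (c k))).isSome)
    (rul1 : ∀ a b a' b', a < K → b < K → a' < K → b' < K → a ≠ b → a' ≠ b' →
      c a + c b' < c a' + c b + 2 * N1 → c a' + c b < c a + c b' + 2 * N1 → a = a' ∧ b = b')
    (rul2 : ∀ T, p0 ≤ T → ∀ F : Finset (ℕ × ℕ),
      (∀ ab ∈ F, ab.1 < K ∧ ab.2 < K ∧ ab.1 ≠ ab.2 ∧ BT (T + c ab.1 - c ab.2)) → F.card ≤ C1) :
    HL 3 ({w | (w.map φ).prod = s} : Language α) := by
  classical
  obtain ⟨n, c', P', S0, hn, hP', hloc, hgap, -, -, hfew⟩ := walls_full (α := α) (2 * N1 + 2 * p0)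
  obtain ⟨z, hz⟩ : ∃ z, z = 3 * p0 + 2 * N1 + N1 + n + 1 := ⟨_, rfl⟩
  let D : Inst_879.Dat α V :=
    { n := n, W := 2 * N1 + 2 * p0, Wo := Wo n S0, z := z, p0 := p0, N1 := N1, N0 := 2 * N1
      BT := BT
      M0 := fun u v => act v (u.map φ).prod + nu2 u
      M1 := fun u v => act v (u.map φ).prod + nu1 u
      lam1 := fun v => {P | lam P = some v}
      rho1 := fun b => {Q | rho Q = some b}
      K := K, c := c
      lam2 := fun k v => {P | lam2 k P = some v}
      rho2 := fun k b => {Q | rho2 k Q = some b}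
      Lam := p0, C1 := C1, R := 2 * C1 + 2 }
  have hOk : D.Ok :=
    { walls := ⟨hloc, fun P E h1 h2 h3 => by
        by_contra hlt
        have hlt' : ¬ (2 * N1 + 2 * p0 < E.length) := hlt
        have hE : 0 < E.length := List.length_pos_iff.2 h3
        refine hgap (P ++ E) E.length h2 hE (by omega) ?_
        have e : (P ++ E).length - E.length = P.length := by rw [List.length_append]; omega
        rw [e, List.take_left]
        exact h1⟩
      g1s := fun P Q v b h1 h2 => (gs P Q v b h1 h2).symm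
      g1l := fun P v h => glen P v h
      g1c := fun u v hu hb => by
        obtain ⟨P, Q, h1, h2, h3⟩ := gc u hu hb v
        obtain ⟨b, hb⟩ := Option.isSome_iff_exists.1 h3
        refine ⟨P, Q, h1.symm, h2, ?_⟩
        have h4 := gs P Q v b h2 hb
        show rho Q = some (act v (u.map φ).prod + nu1 u)
        rw [hb, h4, ← h1]
      hc := hcle
      hLam := le_rfl
      g2s := fun k hk P Q v b h1 _ h3 h4 => (es k hk P Q v b h1 h3 h4).symm
      g2c := fun u v hu => by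
        have hu' : u.length = p0 := hu
        obtain ⟨I, hI, hI2⟩ := ec u v (fun k hk => by
          have := hcle k hk
          omega)
        refine ⟨I, hI, fun k hk => ?_⟩
        obtain ⟨h1, h2, h3⟩ := hI2 k hk
        obtain ⟨b, hb⟩ := Option.isSome_iff_exists.1 h3
        refine ⟨h1, h2, ?_⟩
        have hl : (u.take (c k)).length = c k := by
          have := hcle k h1
          rw [List.length_take]; omega
        have h4 := es k h1 (u.take (c k)) (u.drop (c k)) v b hl h2 hb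
        rw [List.take_append_drop] at h4
        show rho2 k (u.drop (c k)) = some (act v (u.map φ).prod + nu2 u)
        rw [hb, h4]
      hz := by show p0 + N1 + n ≤ z; omega
      hz0 := by show p0 + 2 * N1 ≤ z; omega
      hz2 := by show p0 + 2 * p0 ≤ z; omega
      hW := le_rfl
      rul1 := rul1
      rul2 := rul2
      hR := by show 2 * C1 + 1 < 2 * C1 + 2; omega }
  let D' : SemTop_727.Sch α V :=
    { XX := Inst_879.XX z (Wo n S0), T := D.T, L1 := D.L1, L2 := D.L2 }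
  let ν : List α → V := fun X =>
    act (nu2 (X.take p0)) ((X.drop p0).map φ).prod + nu1 (X.drop p0)
  have hT : ∀ v X, D'.T v X = act v (X.map φ).prod + ν X := by
    intro v X
    show act (act v ((X.take p0).map φ).prod + nu2 (X.take p0)) ((X.drop p0).map φ).prod +
      nu1 (X.drop p0) = act v (X.map φ).prod + (act (nu2 (X.take p0))
        ((X.drop p0).map φ).prod + nu1 (X.drop p0))
    have e : (X.map φ).prod = ((X.take p0).map φ).prod * ((X.drop p0).map φ).prod := by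
      conv_lhs => rw [← List.take_append_drop p0 X]
      rw [List.map_append, List.prod_append]
    rw [hadd, ← hmul, ← e, add_assoc]
  have hν : ∀ v, Language.IsRegular ({X | ν X = v} : Language α) :=
    Last_749.reg_nu act φ p0 nu2 nu1 hν1
  have hz0 : 0 < z := by omega
  refine SemTop_727.top (k := 1) act hadd hone hmul hfaith φ ν D' hT (Last_749.pcode hz0)
    ?_ ?_ ?_ ?_ ?_ s
  · intro a b
    refine (Last_749.hfib hfew z act φ ν hν a b).congr fun w => ?_
    constructor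
    · rintro ⟨h1, h2⟩
      refine ⟨h1, ?_⟩
      rw [hT] at h2
      exact h2
    · rintro ⟨h1, h2⟩
      refine ⟨h1, ?_⟩
      rw [hT]
      exact h2
  · intro a
    refine (List.finite_length_le α (p0 + N1)).subset ?_
    rintro P ⟨h1, h2⟩
    have h3 := hOk.g1l _ _ h2
    have h4 : (P.drop p0).length ≤ N1 := h3
    rw [List.length_drop] at h4
    show P.length ≤ p0 + N1
    omega
  · intro a
    refine (List.finite_length_le α p0).subset ?_
    rintro P ⟨j, hj, h1, _⟩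
    have h2 : P.length = c j := h1
    show P.length ≤ p0
    rw [h2]
    exact hcle j hj
  · intro X1 hX1 X2 hX2 a
    exact Inst_879.Dat.hC2 hOk hX1.1 hX2.1 a
  · intro t
    exact (Last_749.HL_rest hfew z φ t).mono (by omega)

theorem fin (α : Type) [Finite α] (S : Type) [Monoid S] [Finite S] (φ : α → S) (s : S) :
    HL 3 ({w | (w.map φ).prod = s} : Language α) := by
  classical
  have := Fintype.ofFinite S
  obtain ⟨act, hadd, hone, hmul, hfaith⟩ := exists_module S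
  obtain ⟨k, m, HG⟩ := Grid_287.grid_nu S (S → ZMod 2) act
  obtain ⟨K, HK⟩ := ExactR_237.exact_gadget α S (S → ZMod 2) φ act (2 * (k + m) + 2)
  obtain ⟨q, hqp, hqB, hqi⟩ := primes k (2 ^ (K + 1) + 3)
  have hq3 : ∀ j, 3 ≤ q j := fun j => le_trans (Nat.le_add_left _ _) (hqB j)
  have hodd : ∀ j, Odd (q j) := fun j => (hqp j).odd_of_ne_two (by have := hq3 j; omega)
  have hcop : Pairwise (fun i j => Nat.Coprime (q i) (q j)) := fun i j hij =>
    (Nat.coprime_primes (hqp i) (hqp j)).2 (fun h => hij (hqi h))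
  have HG1 := HG q hodd hcop
  have hMM0 : 0 < ∏ j, q j := Finset.prod_pos fun j _ => (hqp j).pos
  generalize hMM : ∏ j, q j = MM at HG1 hMM0
  obtain ⟨κ, hκ⟩ := growth K MM m hMM0
  obtain ⟨lam, rho, nu1, glen, grlen, gs, gc, -, gnu⟩ :=
    HG1 κ α (fun w => (w.map φ).prod) (fun u v => by rw [List.map_append, List.prod_append])
  have hqcard : (Finset.univ.image q).card ≤ k := by
    refine Finset.card_image_le.trans ?_
    simp
  obtain ⟨X, hX1, hX0, hthin⟩ := Thin963.thin K m (Finset.univ.image q)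
    (fun i => ((Grid_899.G κ i : ℕ) : ℤ))
    (fun i => ((MM * Grid_899.G κ i : ℕ) : ℤ)) (fun i => ((Grid_899.Am MM κ i : ℕ) : ℤ))
    (by
      intro p hp
      obtain ⟨j, _, rfl⟩ := Finset.mem_image.1 hp
      exact ⟨hqp j, le_trans (Nat.le_add_right _ _) (hqB j)⟩)
    (by
      intro p hp
      obtain ⟨j, _, rfl⟩ := Finset.mem_image.1 hp
      rw [Nat.isCoprime_iff_coprime]
      exact Nat.Coprime.pow_right _ ((Nat.coprime_two_left).2 (hodd j)).symm)
    (by exact_mod_cast Grid_899.G_pos m)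
    (fun i j hij => Int.natCast_dvd_natCast.2 (Grid_899.G_dvd hij))
    (fun i => by exact_mod_cast Nat.mul_pos hMM0 (Grid_899.G_pos i))
    (fun i => Int.natCast_dvd_natCast.2 (Nat.dvd_mul_left _ _))
    hκ ((2 * Grid_899.Am MM κ (m + 1) + 1 : ℕ) : ℤ)
  obtain ⟨x, rfl⟩ : ∃ x : ℕ, X = x := ⟨X.toNat, by omega⟩
  have hx1 : 2 * Grid_899.Am MM κ (m + 1) + 1 ≤ x := by exact_mod_cast hX1
  have hx0 : 0 < x := by omega
  obtain ⟨BT, hcl, hth⟩ : ∃ BT : ℕ → Prop,
      (∀ T, Grid_899.Am MM κ (m + 1) ≤ T → ¬ BT T → (∀ p ∈ Finset.univ.image q, ¬ p ∣ T) ∧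
        ∀ j, 1 ≤ j → j ≤ m →
        MM * Grid_899.G κ (j - 1) ≤ (T - Grid_899.Am MM κ j) % Grid_899.G κ j ∧
        (T - Grid_899.Am MM κ j) % Grid_899.G κ j + MM * Grid_899.G κ (j - 1) ≤ Grid_899.G κ j) ∧
      (∀ T, x * 2 ^ K ≤ T → ∀ F : Finset (ℕ × ℕ), (∀ ab ∈ F, ab.1 < K ∧ ab.2 < K ∧ ab.1 ≠ ab.2 ∧
        BT (T + x * 2 ^ ab.1 - x * 2 ^ ab.2)) → F.card ≤ k + m) := by
    refine ⟨fun T => Thin963.BadT (Finset.univ.image q) m (fun i => ((Grid_899.G κ i : ℕ) : ℤ))
        (fun i => ((MM * Grid_899.G κ i : ℕ) : ℤ)) (fun i => ((Grid_899.Am MM κ i : ℕ) : ℤ)) (T : ℤ),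
      fun T hT hb => clean _ T hT hb, ?_⟩
    intro T hT F hF
    refine le_trans (Finset.card_le_card ?_) ((hthin (T : ℤ)).trans (Nat.add_le_add_right hqcard m))
    intro ab hab
    obtain ⟨h1, h2, h3, h4⟩ := hF ab hab
    rw [Finset.mem_filter, Finset.mem_product, Finset.mem_range, Finset.mem_range]
    refine ⟨⟨h1, h2⟩, h3, ?_⟩
    have hb : x * 2 ^ ab.2 ≤ x * 2 ^ K :=
      Nat.mul_le_mul_left _ (Nat.pow_le_pow_right (by norm_num) h2.le)
    have e : ((T + x * 2 ^ ab.1 - x * 2 ^ ab.2 : ℕ) : ℤ) =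
        (T : ℤ) + (x : ℤ) * 2 ^ ab.1 - (x : ℤ) * 2 ^ ab.2 := by
      rw [Nat.cast_sub (by omega)]
      push_cast
      ring
    rw [e] at h4
    exact h4
  obtain ⟨lam2, rho2, nu2, es, ec⟩ := HK (fun j => x * 2 ^ j) (fun i j hij _ =>
    Nat.mul_lt_mul_of_pos_left (Nat.pow_lt_pow_right (by norm_num) hij) hx0)
  refine core α S φ s (S → ZMod 2) act hadd hone hmul hfaith (Grid_899.Am MM κ (m + 1)) (k + m) K
    (x * 2 ^ K) BT lam rho nu1 ?_ gs ?_ ?_ (fun j => x * 2 ^ j) ?_ lam2 (fun k Q => rho2 k Q 1)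
    (fun u => nu2 u 1) ?_ ?_ ?_ hth
  · intro P v h
    have h1 := (glen P v h).1
    have h2 : Grid_899.Am MM κ m ≤ Grid_899.Am MM κ (m + 1) := Grid_899.Am_mono (by omega)
    omega
  · intro u hu hb v
    obtain ⟨c1, c2⟩ := hcl u.length (by omega) hb
    exact gc u hu (fun j => c1 _ (Finset.mem_image.2 ⟨j, Finset.mem_univ _, rfl⟩)) c2 v
  · intro v
    refine Bridge_975.reg_of_local φ (Grid_899.Am MM κ (m + 1)) (MM * Grid_899.G κ m)
      (Nat.mul_pos hMM0 (Grid_899.G_pos m)) (fun Y => nu1 Y = v) ?_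
    intro Q Q' h1 h2 h3 h4 h5
    rw [gnu Q Q' h1 h2 h3 h5 h4]
  · intro j hj
    exact Nat.mul_le_mul_left _ (Nat.pow_le_pow_right (by norm_num) hj.le)
  · intro j hj P Q v b h1 h3 h4
    have h5 := es j hj P Q 1 v b h1 h3 h4
    rw [mul_one] at h5
    exact h5
  · intro u v hu
    exact ec u 1 v hu
  · intro a b a' b' _ _ _ _ hab hab' h1 h2
    exact ruler hx1 hab hab' h1 h2

end Crest.Agent.R320.Fin_287
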