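import Mathlib
import Crest.Agent.R320.Exact_808
import Crest.Agent.R320.Names_755

/-!
Row 320 (helper596): the zone gadget of 852 (levels = positional digits of the length, names by CRT),
for all words; copy of the leaf `g1`.
-/

set_option autoImplicit false

namespace Crest.Agent.R320.G1_596

open Finset

/-- segment -/
def seg {A : Type} (X : List A) (a c : ℕ) : List A := (X.drop a).take (c - a)

theorem drop_right {A : Type} {P Q : List A} {a : ℕ} :
    (P ++ Q).drop (P.length + a) = Q.drop a := by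
  rw [← List.drop_drop, List.drop_left]

theorem seg_left {A : Type} {P Q : List A} {a c : ℕ} (hac : a ≤ c) (hc : c ≤ P.length) :
    seg (P ++ Q) a c = seg P a c := by
  unfold seg
  rw [List.drop_append_of_le_length (by omega),
    List.take_append_of_le_length (by rw [List.length_drop]; omega)]

theorem seg_right {A : Type} {P Q : List A} {a c : ℕ} :
    seg (P ++ Q) (P.length + a) (P.length + c) = seg Q a c := by
  unfold seg
  rw [drop_right, Nat.add_sub_add_left]

theorem seg_split {A : Type} (X : List A) {a c : ℕ} (hac : a ≤ c) :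
    X = X.take a ++ (seg X a c ++ X.drop c) := by
  have h1 : X.drop c = (X.drop a).drop (c - a) := by
    rw [List.drop_drop]; congr 1; omega
  unfold seg
  rw [h1, List.take_append_drop, List.take_append_drop]

theorem seg_take {A : Type} {X : List A} {a c B : ℕ} (hc : c ≤ B) :
    seg (X.take B) a c = seg X a c := by
  unfold seg
  rw [List.drop_take, List.take_take, Nat.min_eq_left (by omega)]

theorem low {b i j o o' : ℕ} (h3 : b ^ i ∣ o') (hj : j ≤ i) : (o + o') % b ^ j = o % b ^ j := by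
  obtain ⟨q, rfl⟩ := (pow_dvd_pow b hj).trans h3
  exact Nat.add_mul_mod_self_left _ _ _

theorem mono_pos {b n i j : ℕ} (h : i ≤ j) : n % b ^ i ≤ n % b ^ j := by
  rw [← Nat.mod_mod_of_dvd n (pow_dvd_pow b h)]
  exact Nat.mod_le _ _

theorem carry0 {b i o o' : ℕ} (hb : 0 < b) (h2 : 2 * (o / b ^ i) < b)
    (h3 : b ^ i ∣ o') (h4 : 2 * ((o' / b ^ i) % b) < b) : o + o' % b ^ (i + 1) < b ^ (i + 1) := by
  obtain ⟨q, rfl⟩ := h3
  have hp : 0 < b ^ i := pow_pos hb i
  rw [Nat.mul_div_cancel_left _ hp] at h4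
  rw [pow_succ, Nat.mul_mod_mul_left]
  have h5 : o < b ^ i * (o / b ^ i + 1) := Nat.lt_mul_div_succ o hp
  calc o + b ^ i * (q % b) < b ^ i * (o / b ^ i + 1) + b ^ i * (q % b) := by omega
    _ = b ^ i * (o / b ^ i + 1 + q % b) := by ring
    _ ≤ b ^ i * b := Nat.mul_le_mul_left _ (by omega)

theorem carry {b i o o' : ℕ} (hb : 0 < b) (h2 : 2 * (o / b ^ i) < b)
    (h3 : b ^ i ∣ o') (h4 : 2 * ((o' / b ^ i) % b) < b) {j : ℕ} (hj : i < j) :
    (o + o') % b ^ j = o + o' % b ^ j := by
  have h0 := carry0 hb h2 h3 h4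
  have hlt : o + o' % b ^ j < b ^ j := by
    set y := o' % b ^ j with hy
    have hyj : y < b ^ j := Nat.mod_lt _ (pow_pos hb j)
    have hym : y % b ^ (i + 1) = o' % b ^ (i + 1) :=
      Nat.mod_mod_of_dvd _ (pow_dvd_pow b hj)
    have hbj : b ^ j = b ^ (i + 1) * b ^ (j - (i + 1)) := by
      rw [← pow_add]; congr 1; omega
    have h6 : y / b ^ (i + 1) < b ^ (j - (i + 1)) := by
      rw [Nat.div_lt_iff_lt_mul (pow_pos hb _), mul_comm, ← hbj]; exact hyj
    have h7 : b ^ (i + 1) * (y / b ^ (i + 1)) + b ^ (i + 1) ≤ b ^ j := by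
      rw [hbj]
      calc b ^ (i + 1) * (y / b ^ (i + 1)) + b ^ (i + 1)
          = b ^ (i + 1) * (y / b ^ (i + 1) + 1) := by ring
        _ ≤ _ := Nat.mul_le_mul_left _ h6
    have h8 := Nat.div_add_mod y (b ^ (i + 1))
    rw [hym] at h8
    omega
  rw [← Nat.add_mod_mod, Nat.mod_eq_of_lt hlt]

/-- solving a congruence in a window. -/
theorem solve {M u : ℕ} (hM : 0 < M) (hu : Nat.Coprime u M) (a t y0 : ℕ) :
    ∃ y, y0 ≤ y ∧ y < y0 + M ∧ a + u * y ≡ t [MOD M] := by
  have : NeZero M := ⟨by omega⟩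
  let U := ZMod.unitOfCoprime u hu
  let z : ZMod M := ((U⁻¹ : (ZMod M)ˣ) : ZMod M) * ((t : ZMod M) - a)
  refine ⟨y0 + (z - (y0 : ZMod M)).val, Nat.le_add_right _ _, ?_, ?_⟩
  · exact Nat.add_lt_add_left (ZMod.val_lt _) _
  · rw [← ZMod.natCast_eq_natCast_iff]
    push_cast
    rw [ZMod.natCast_zmod_val]
    have hUu : (u : ZMod M) = (U : ZMod M) := (ZMod.coe_unitOfCoprime u hu).symm
    have : (u : ZMod M) * z = (t : ZMod M) - a := by
      rw [hUu]
      simp only [z]
      rw [← mul_assoc, Units.mul_inv, one_mul]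
    rw [add_sub_cancel, this]
    ring

theorem g1 (S V : Type) [Monoid S] [Finite S] [AddCommGroup V] [Finite V] (act : V → S → V) :
    ∃ m r : ℕ, ∀ Bd : ℕ, ∃ (Ms : Finset ℕ) (M : ℕ), Ms.card ≤ r ∧
      (∀ k ∈ Ms, Bd < k ∧ k.Prime ∧ k ∣ M) ∧ 0 < M ∧
      ∀ b : ℕ, 4 * M + 4 < b → Nat.Coprime b M → ∀ (A : Type) (f : A → S),
      ∃ (lam rho : List A → Option V) (nu : List A → V),
        (∀ P v, lam P = some v → P.length < b ^ m) ∧
        (∀ P Q v v', lam P = some v → rho Q = some v' →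
          v' = act v ((P ++ Q).map f).prod + nu (P ++ Q)) ∧
        (∀ X, (∀ k ∈ Ms, ¬ k ∣ X.length) →
          (∀ j < m, M ≤ X.length / b ^ j % b ∧ X.length / b ^ j % b + M + 1 ≤ b) →
          ∀ v, ∃ P Q, P ++ Q = X ∧ lam P = some v ∧ (rho Q).isSome) ∧
        (∀ Q Q', b ^ m ≤ Q.length → b ^ m ≤ Q'.length → Q.take (b ^ m) = Q'.take (b ^ m) →
          Q.length % (M * b ^ m) = Q'.length % (M * b ^ m) →
          ((Q.drop (b ^ m)).map f).prod = ((Q'.drop (b ^ m)).map f).prod →
          rho Q = rho Q' ∧ nu Q = nu Q') := by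
  classical
  have := Fintype.ofFinite S
  have := Fintype.ofFinite V
  obtain ⟨m, Nn, e, hNn, hFall⟩ := Crest.Agent.R320.Exact808.exists_noise_unif S V
  obtain ⟨F, hF⟩ := hFall act
  have : NeZero Nn := ⟨by omega⟩
  let W := ZMod Nn × ZMod Nn
  let Ctx := Fin m × (S × W) × (S × W) × V
  let val : Ctx → S → V := fun c z =>
    F (c.2.1.1 * z * c.2.2.1.1) (c.2.1.2 + e c.1 z + c.2.2.1.2) +
      act c.2.2.2 (c.2.1.1 * z * c.2.2.1.1)
  let Nm := {c : Ctx // ∀ z, val c z = val c 1}
  let col : Nm → V × V := fun c => (c.1.2.2.2, val c.1 1)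
  obtain ⟨r, hr⟩ := Crest.Agent.R320.Names755.names Nm (V × V) col
  refine ⟨m, r, fun Bd => ?_⟩
  obtain ⟨Ms, M, nmL, nmR, hcard, hMs, hM, hperL, hperR, hsame, hcompl, hbad⟩ := hr Bd
  refine ⟨Ms, M, hcard, hMs, hM, ?_⟩
  intro b hb hcop A f
  have hb0 : 0 < b := by omega
  have hPL : ∀ t, nmL (t % M) = nmL t := Function.Periodic.map_mod_nat hperL
  have hPR : ∀ t, nmR (t % M) = nmR t := Function.Periodic.map_mod_nat hperR
  let ph : List A → S := fun w => (w.map f).prod
  have hph : ∀ u v, ph (u ++ v) = ph u * ph v := by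
    intro u v; simp only [ph, List.map_append, List.prod_append]
  let wj : List A → ℕ → W := fun X j => e j (ph (seg X (X.length % b ^ j) (X.length % b ^ (j + 1))))
  let ww : List A → W := fun X => ∑ j ∈ range m, wj X j
  let LC : Ctx → List A → Prop := fun c P =>
    P.length < b ^ ((c.1 : ℕ) + 1) ∧ 2 * (P.length / b ^ (c.1 : ℕ)) < b ∧
    ph (P.take (P.length % b ^ (c.1 : ℕ))) = c.2.1.1 ∧ ∑ j ∈ range (c.1 : ℕ), wj P j = c.2.1.2
  let RC : Ctx → List A → Prop := fun c Q =>
    b ^ (c.1 : ℕ) ∣ Q.length ∧ 2 * ((Q.length / b ^ (c.1 : ℕ)) % b) < b ∧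
    ph (Q.drop (Q.length % b ^ ((c.1 : ℕ) + 1))) = c.2.2.1.1 ∧
    ∑ j ∈ Ico ((c.1 : ℕ) + 1) m, wj Q j = c.2.2.1.2
  let lam : List A → Option V := fun P =>
    if h : ∃ c : Nm, nmL P.length = some c ∧ LC c.1 P then some h.choose.1.2.2.2 else none
  let rho : List A → Option V := fun Q =>
    if h : ∃ c : Nm, nmR Q.length = some c ∧ RC c.1 Q then some (val h.choose.1 1) else none
  have hlam1 : ∀ P v, lam P = some v → ∃ c : Nm, nmL P.length = some c ∧ LC c.1 P ∧
      c.1.2.2.2 = v := by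
    intro P v h
    simp only [lam] at h
    split_ifs at h with h1
    exact ⟨h1.choose, h1.choose_spec.1, h1.choose_spec.2, Option.some.inj h⟩
  have hlam2 : ∀ P (c : Nm), nmL P.length = some c → LC c.1 P → lam P = some c.1.2.2.2 := by
    intro P c h1 h2
    have h : ∃ c : Nm, nmL P.length = some c ∧ LC c.1 P := ⟨c, h1, h2⟩
    have h3 : h.choose = c := Option.some.inj (h.choose_spec.1.symm.trans h1)
    simp only [lam]
    rw [dif_pos h, h3]
  have hrho1 : ∀ Q v, rho Q = some v → ∃ c : Nm, nmR Q.length = some c ∧ RC c.1 Q ∧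
      val c.1 1 = v := by
    intro P v h
    simp only [rho] at h
    split_ifs at h with h1
    exact ⟨h1.choose, h1.choose_spec.1, h1.choose_spec.2, Option.some.inj h⟩
  have hrho2 : ∀ Q (c : Nm), nmR Q.length = some c → RC c.1 Q → rho Q = some (val c.1 1) := by
    intro P c h1 h2
    have h : ∃ c : Nm, nmR P.length = some c ∧ RC c.1 P := ⟨c, h1, h2⟩
    have h3 : h.choose = c := Option.some.inj (h.choose_spec.1.symm.trans h1)
    simp only [rho]
    rw [dif_pos h, h3]
  -- reading
  have read : ∀ (P Q : List A) (i : ℕ), i < m → P.length < b ^ (i + 1) →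
      2 * (P.length / b ^ i) < b → b ^ i ∣ Q.length → 2 * ((Q.length / b ^ i) % b) < b →
      ph (P ++ Q) = ph (P.take (P.length % b ^ i)) *
        ph (seg (P ++ Q) ((P ++ Q).length % b ^ i) ((P ++ Q).length % b ^ (i + 1))) *
        ph (Q.drop (Q.length % b ^ (i + 1))) ∧
      ww (P ++ Q) = ∑ j ∈ range i, wj P j +
        e i (ph (seg (P ++ Q) ((P ++ Q).length % b ^ i) ((P ++ Q).length % b ^ (i + 1)))) +
        ∑ j ∈ Ico (i + 1) m, wj Q j := by
    intro P Q i him hl1 hl2 hr1 hr2
    have hlow : ∀ j, j ≤ i → (P ++ Q).length % b ^ j = P.length % b ^ j := by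
      intro j hj; rw [List.length_append]; exact low hr1 hj
    have hhigh : ∀ j, i < j → (P ++ Q).length % b ^ j = P.length + Q.length % b ^ j := by
      intro j hj; rw [List.length_append]; exact carry hb0 hl2 hr1 hr2 hj
    constructor
    · have h1 : (P ++ Q).length % b ^ i ≤ (P ++ Q).length % b ^ (i + 1) :=
        mono_pos (Nat.le_succ i)
      conv_lhs => rw [seg_split (P ++ Q) h1]
      rw [hph, hph, ← mul_assoc]
      congr 2
      · congr 1
        rw [hlow i le_rfl, List.take_append_of_le_length (Nat.mod_le _ _)]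
      · rw [hhigh (i + 1) (Nat.lt_succ_self i), drop_right]
    · simp only [ww]
      rw [← Finset.sum_range_add_sum_Ico _ (show i + 1 ≤ m from him), Finset.sum_range_succ]
      congr 1
      · congr 1
        refine Finset.sum_congr rfl (fun j hj => ?_)
        rw [Finset.mem_range] at hj
        simp only [wj]
        rw [hlow j hj.le, hlow (j + 1) hj, seg_left (mono_pos (Nat.le_succ j)) (Nat.mod_le _ _)]
      · refine Finset.sum_congr rfl (fun j hj => ?_)
        rw [Finset.mem_Ico] at hj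
        simp only [wj]
        rw [hhigh j hj.1, hhigh (j + 1) (by omega), seg_right]
  -- the noise at bad totals
  have hbd : ∀ q : ℕ, ∃ v0 b0 : V, (∃ k ∈ Ms, k ∣ q) → ∀ o o' (c c' : Nm), nmL o = some c →
      nmR o' = some c' → (o + o') % M = q % M → (col c).1 = v0 ∧ (col c').2 = b0 := by
    intro q
    by_cases h : ∃ o o' : ℕ, ∃ c c' : Nm, nmL o = some c ∧ nmR o' = some c' ∧ (o + o') % M = q % M
    · obtain ⟨o1, o1', c1, c1', h1, h1', hs1⟩ := h
      refine ⟨(col c1).1, (col c1').2, ?_⟩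
      rintro ⟨k, hk, hkq⟩ o o' c c' h2 h2' hs2
      have e1 := Nat.div_add_mod (o1 + o1') M
      have e2 := Nat.div_add_mod (o + o') M
      have hL1 : nmL (o1 + M * ((o + o') / M)) = some c1 := by
        rw [← hPL, Nat.add_mul_mod_self_left, hPL]; exact h1
      have hL2 : nmL (o + M * ((o1 + o1') / M)) = some c := by
        rw [← hPL, Nat.add_mul_mod_self_left, hPL]; exact h2
      have hkM : k ∣ M := (hMs k hk).2.2
      have hsum : o1 + M * ((o + o') / M) + o1' = o + M * ((o1 + o1') / M) + o' := by omega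
      have hkd : k ∣ o1 + M * ((o + o') / M) + o1' := by
        have hmod : (o1 + M * ((o + o') / M) + o1') % M = q % M := by
          rw [← hs1]
          have : o1 + M * ((o + o') / M) + o1' = (o1 + o1') + M * ((o + o') / M) := by ring
          rw [this, Nat.add_mul_mod_self_left]
        have h9 : (o1 + M * ((o + o') / M) + o1') % k = q % k := by
          rw [← Nat.mod_mod_of_dvd _ hkM, hmod, Nat.mod_mod_of_dvd _ hkM]
        exact Nat.dvd_of_mod_eq_zero (h9.trans (Nat.mod_eq_zero_of_dvd hkq))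
      have := hbad _ _ _ _ _ _ _ _ hL1 h1' hL2 h2' hsum ⟨k, hk, hkd⟩
      exact ⟨congrArg Prod.fst this.1.symm, congrArg Prod.snd this.2.symm⟩
    · refine ⟨0, 0, ?_⟩
      intro _ o o' c c' h2 h2' hs2
      exact absurd ⟨o, o', c, c', h2, h2', hs2⟩ h
  choose v0 b0 hvb using hbd
  let nu : List A → V := fun X =>
    if ∀ k ∈ Ms, ¬ k ∣ X.length then F (ph X) (ww X) else
      b0 (X.length % M) - act (v0 (X.length % M)) (ph X)
  have hkmod : ∀ n k, k ∈ Ms → (k ∣ n % M ↔ k ∣ n) := by
    intro n k hk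
    exact (Nat.dvd_mod_iff (hMs k hk).2.2)
  refine ⟨lam, rho, nu, ?_, ?_, ?_, ?_⟩
  · intro P v h
    obtain ⟨c, -, hc, -⟩ := hlam1 P v h
    exact lt_of_lt_of_le hc.1 (Nat.pow_le_pow_right hb0 c.1.1.2)
  · intro P Q v v' hP hQ
    obtain ⟨c, hc1, hc2, hc3⟩ := hlam1 P v hP
    obtain ⟨c', hc1', hc2', hc3'⟩ := hrho1 Q v' hQ
    show v' = act v (ph (P ++ Q)) + nu (P ++ Q)
    by_cases hg : ∀ k ∈ Ms, ¬ k ∣ (P ++ Q).length
    · simp only [nu]
      rw [if_pos hg]
      have hcc : c = c' := hsame _ _ _ _ hc1 hc1' (by rwa [List.length_append] at hg)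
      subst hcc
      obtain ⟨l1, l2, l3, l4⟩ := hc2
      obtain ⟨r1, r2, r3, r4⟩ := hc2'
      obtain ⟨e1, e2⟩ := read P Q c.1.1 c.1.1.2 l1 l2 r1 r2
      have := c.2 (ph (seg (P ++ Q) ((P ++ Q).length % b ^ (c.1.1 : ℕ))
        ((P ++ Q).length % b ^ ((c.1.1 : ℕ) + 1))))
      rw [← hc3', ← this, ← hc3]
      simp only [val]
      rw [← l3, ← r3, ← l4, ← r4, ← e1, ← e2, add_comm]
    · simp only [nu]
      rw [if_neg hg]
      push Not at hg
      obtain ⟨k, hk, hkd⟩ := hg
      obtain ⟨q1, q2⟩ := hvb ((P ++ Q).length % M) ⟨k, hk, (hkmod _ _ hk).2 hkd⟩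
        P.length Q.length c c' hc1 hc1' (by rw [List.length_append, Nat.mod_mod])
      simp only [col] at q1 q2
      rw [← q1, ← q2, hc3, hc3']
      abel
  · intro X hX hdig v
    set n := X.length with hn
    obtain ⟨i, him, hi⟩ := hF (ph X) (ww X) v
    obtain ⟨hd1, hd2⟩ := hdig i him
    set d := n / b ^ i % b with hd
    have hbi : 0 < b ^ i := pow_pos hb0 i
    set z := ph (seg X (n % b ^ i) (n % b ^ (i + 1))) with hz
    let c : Ctx := (⟨i, him⟩, (ph (X.take (n % b ^ i)), ∑ j ∈ range i, wj X j),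
      (ph (X.drop (n % b ^ (i + 1))), ∑ j ∈ Ico (i + 1) m, wj X j), v)
    have hwX : ww X = ∑ j ∈ range i, wj X j + e i z + ∑ j ∈ Ico (i + 1) m, wj X j := by
      simp only [ww]
      rw [← Finset.sum_range_add_sum_Ico _ (show i + 1 ≤ m from him), Finset.sum_range_succ]
    have hsX : ph (X.take (n % b ^ i)) * z * ph (X.drop (n % b ^ (i + 1))) = ph X := by
      conv_rhs => rw [seg_split X (mono_pos (b := b) (n := n) (Nat.le_succ i))]
      rw [hph, hph, ← mul_assoc]
    have hval : ∀ z', val c z' = F (ph X) (ww X) + act v (ph X) := by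
      intro z'
      have := hi _ z _ hsX z'
      simp only [val, c]
      rw [← this, hwX]
      congr 2
      abel
    have hgood : ∀ z', val c z' = val c 1 := fun z' => by rw [hval, hval]
    obtain ⟨t, ht, hnL, hnR⟩ := hcompl n hX ⟨c, hgood⟩
    obtain ⟨y, hy1, hy2, hy3⟩ := solve hM (Nat.Coprime.pow_left i hcop) (n % b ^ i) t
      (d - (b - 1) / 2)
    -- the cut
    have hyd : y ≤ d := by omega
    have h2y : 2 * y < b := by omega
    have h2dy : 2 * (d - y) < b := by omega
    have hddiv : d ≤ n / b ^ i := Nat.mod_le _ _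
    set o := n % b ^ i + b ^ i * y with ho
    have hon : o ≤ n := by
      have h5 := Nat.div_add_mod n (b ^ i)
      have h6 : b ^ i * y ≤ b ^ i * (n / b ^ i) := Nat.mul_le_mul_left _ (hyd.trans hddiv)
      omega
    have ho' : n - o = b ^ i * (n / b ^ i - y) := by
      have h5 := Nat.div_add_mod n (b ^ i)
      rw [Nat.mul_sub]
      have h6 : b ^ i * y ≤ b ^ i * (n / b ^ i) := Nat.mul_le_mul_left _ (hyd.trans hddiv)
      omega
    set P := X.take o with hP
    set Q := X.drop o with hQ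
    have hPQ : P ++ Q = X := List.take_append_drop _ _
    have hPl : P.length = o := by rw [hP, List.length_take]; omega
    have hQl : Q.length = n - o := by rw [hQ, List.length_drop]
    have hoi : o / b ^ i = y := by
      rw [ho, Nat.add_mul_div_left _ _ hbi, Nat.div_eq_of_lt (Nat.mod_lt _ hbi), zero_add]
    have hlt : o < b ^ (i + 1) := by
      rw [pow_succ]
      calc o < b ^ i * (y + 1) := by
            have := Nat.mod_lt n hbi
            rw [mul_add, mul_one]; omega
        _ ≤ b ^ i * b := Nat.mul_le_mul_left _ (by omega)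
    have hR1 : b ^ i ∣ Q.length := by rw [hQl, ho']; exact dvd_mul_right _ _
    have hR2 : 2 * ((Q.length / b ^ i) % b) < b := by
      rw [hQl, ho', Nat.mul_div_cancel_left _ hbi]
      have : (n / b ^ i - y) % b = d - y := by
        have h5 := Nat.div_add_mod (n / b ^ i) b
        rw [← hd] at h5
        have h6 : n / b ^ i - y = (d - y) + b * (n / b ^ i / b) := by omega
        rw [h6, Nat.add_mul_mod_self_left, Nat.mod_eq_of_lt (by omega)]
      rw [this]; exact h2dy
    obtain ⟨e1, e2⟩ := read P Q i him (by rw [hPl]; exact hlt) (by rw [hPl, hoi]; exact h2y) hR1 hR2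
    have hlow : ∀ j, j ≤ i → n % b ^ j = P.length % b ^ j := by
      intro j hj
      have := low (o := P.length) hR1 hj
      rw [← List.length_append, hPQ] at this
      exact this
    have hhigh : ∀ j, i < j → n % b ^ j = P.length + Q.length % b ^ j := by
      intro j hj
      have := carry (o := P.length) hb0 (by rw [hPl, hoi]; exact h2y) hR1 hR2 hj
      rw [← List.length_append, hPQ] at this
      exact this
    have hLC : LC c P := by
      refine ⟨by rw [hPl]; exact hlt, by show 2 * (P.length / b ^ i) < b; rw [hPl, hoi]; exact h2y,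
        ?_, ?_⟩
      · show ph (P.take (P.length % b ^ i)) = ph (X.take (n % b ^ i))
        rw [hlow i le_rfl, ← hPQ, List.take_append_of_le_length (Nat.mod_le _ _)]
      · show ∑ j ∈ range i, wj P j = ∑ j ∈ range i, wj X j
        refine Finset.sum_congr rfl (fun j hj => ?_)
        rw [Finset.mem_range] at hj
        simp only [wj]
        rw [← hn, hlow j hj.le, hlow (j + 1) hj, ← hPQ,
          seg_left (mono_pos (Nat.le_succ j)) (Nat.mod_le _ _)]
    have hRC : RC c Q := by
      refine ⟨hR1, hR2, ?_, ?_⟩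
      · show ph (Q.drop (Q.length % b ^ (i + 1))) = ph (X.drop (n % b ^ (i + 1)))
        rw [hhigh (i + 1) (Nat.lt_succ_self i), ← hPQ, drop_right]
      · show ∑ j ∈ Ico (i + 1) m, wj Q j = ∑ j ∈ Ico (i + 1) m, wj X j
        refine Finset.sum_congr rfl (fun j hj => ?_)
        rw [Finset.mem_Ico] at hj
        simp only [wj]
        rw [← hn, hhigh j hj.1, hhigh (j + 1) (by omega), ← hPQ, seg_right]
    have hnP : nmL P.length = some ⟨c, hgood⟩ := by
      rw [hPl, ← hPL, show o % M = t % M from hy3, hPL]; exact hnL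
    have hnQ : nmR Q.length = some ⟨c, hgood⟩ := by
      apply hnR
      have h7 : t + Q.length ≡ o + Q.length [MOD M] := Nat.ModEq.add_right _ hy3.symm
      rw [hQl, Nat.add_sub_cancel' hon] at h7
      rw [hQl]; exact h7
    refine ⟨P, Q, hPQ, hlam2 P ⟨c, hgood⟩ hnP hLC, ?_⟩
    rw [hrho2 Q ⟨c, hgood⟩ hnQ hRC]
    rfl
  · intro Q Q' hQ hQ' ht hl hd
    have hlM : Q.length % M = Q'.length % M := by
      rw [← Nat.mod_mod_of_dvd Q.length (dvd_mul_right M (b ^ m)), hl,
        Nat.mod_mod_of_dvd _ (dvd_mul_right M (b ^ m))]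
    have hlb : ∀ j, j ≤ m → Q.length % b ^ j = Q'.length % b ^ j := by
      intro j hj
      have h1 : b ^ j ∣ M * b ^ m := (pow_dvd_pow b hj).trans (dvd_mul_left _ _)
      rw [← Nat.mod_mod_of_dvd Q.length h1, hl, Nat.mod_mod_of_dvd _ h1]
    have hbm : ∀ (X : List A) j, j ≤ m → X.length % b ^ j ≤ b ^ m := by
      intro X j hj
      exact (Nat.mod_lt _ (pow_pos hb0 j)).le.trans (Nat.pow_le_pow_right hb0 hj)
    have hwj : ∀ j, j < m → wj Q j = wj Q' j := by
      intro j hj
      simp only [wj]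
      rw [← seg_take (hbm Q (j + 1) hj), ← seg_take (X := Q') (hbm Q' (j + 1) hj), ht,
        hlb j hj.le, hlb (j + 1) hj]
    have hdrop : ∀ p, p ≤ b ^ m → ph (Q.drop p) = ph (Q'.drop p) := by
      intro p hp
      have key : ∀ X : List A, X.drop p = (X.take (b ^ m)).drop p ++ X.drop (b ^ m) := by
        intro X
        conv_lhs => rw [← List.take_append_drop (b ^ m) X]
        by_cases hX : b ^ m ≤ X.length
        · rw [List.drop_append_of_le_length (by rw [List.length_take]; omega)]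
        · rw [List.drop_of_length_le (l := X) (i := b ^ m) (by omega), List.append_nil,
            List.append_nil]
      rw [key Q, key Q', hph, hph, ht]
      congr 1
    have hRC : ∀ c : Ctx, RC c Q ↔ RC c Q' := by
      intro c
      have hc : (c.1 : ℕ) < m := c.1.2
      have h1 : (b ^ (c.1 : ℕ) ∣ Q.length ↔ b ^ (c.1 : ℕ) ∣ Q'.length) := by
        rw [Nat.dvd_iff_mod_eq_zero, Nat.dvd_iff_mod_eq_zero, hlb _ hc.le]
      have h2 : (Q.length / b ^ (c.1 : ℕ)) % b = (Q'.length / b ^ (c.1 : ℕ)) % b := by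
        rw [← Nat.mod_mul_right_div_self, ← Nat.mod_mul_right_div_self, ← pow_succ,
          hlb _ hc]
      have h3 : ph (Q.drop (Q.length % b ^ ((c.1 : ℕ) + 1))) =
          ph (Q'.drop (Q'.length % b ^ ((c.1 : ℕ) + 1))) := by
        rw [hlb _ hc]; exact hdrop _ (hbm Q' _ hc)
      have h4 : ∑ j ∈ Ico ((c.1 : ℕ) + 1) m, wj Q j = ∑ j ∈ Ico ((c.1 : ℕ) + 1) m, wj Q' j := by
        refine Finset.sum_congr rfl (fun j hj => ?_)
        rw [Finset.mem_Ico] at hj
        exact hwj j hj.2
      simp only [RC]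
      rw [h1, h2, h3, h4]
    have hnm : nmR Q.length = nmR Q'.length := by rw [← hPR, hlM, hPR]
    constructor
    · by_cases h : ∃ c : Nm, nmR Q.length = some c ∧ RC c.1 Q
      · obtain ⟨c, hc1, hc2⟩ := h
        rw [hrho2 Q c hc1 hc2, hrho2 Q' c (by rw [← hnm]; exact hc1) ((hRC _).1 hc2)]
      · have h' : ¬ ∃ c : Nm, nmR Q'.length = some c ∧ RC c.1 Q' := by
          rintro ⟨c, hc1, hc2⟩
          exact h ⟨c, by rw [hnm]; exact hc1, (hRC _).2 hc2⟩
        simp only [rho]
        rw [dif_neg h, dif_neg h']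
    · have hphQ : ph Q = ph Q' := by
        have := hdrop 0 (Nat.zero_le _)
        simpa using this
      have hwQ : ww Q = ww Q' := Finset.sum_congr rfl (fun j hj => hwj j (Finset.mem_range.1 hj))
      have hgood : (∀ k ∈ Ms, ¬ k ∣ Q.length) ↔ (∀ k ∈ Ms, ¬ k ∣ Q'.length) := by
        have : ∀ k ∈ Ms, (k ∣ Q.length ↔ k ∣ Q'.length) := by
          intro k hk
          rw [← hkmod _ _ hk, hlM, hkmod _ _ hk]
        constructor
        · intro h k hk; rw [← this k hk]; exact h k hk
        · intro h k hk; rw [this k hk]; exact h k hk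
      simp only [nu]
      rw [hphQ, hwQ, hlM]
      by_cases h : ∀ k ∈ Ms, ¬ k ∣ Q.length
      · rw [if_pos h, if_pos (hgood.1 h)]
      · rw [if_neg h, if_neg (fun h' => h (hgood.2 h'))]

end Crest.Agent.R320.G1_596
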