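import Crest.Agent.R320.H14_82
import Crest.Agent.R320.Con_504
import Crest.Agent.R320.G1_596
import Crest.Agent.R320.Sp_945
import Crest.Agent.R320.Univ_188
import Crest.Agent.R320.Block_467
import Crest.Agent.R320.Hk2_851

/-!
# Row 320: constants and join (helper289)

top = `Top5_110.top_sem`, heights = `H14_82.main`, both schemes = `Con_504.C1`, `Con_504.C2`,
gadget 1 = `G1_596.g1`, ruler = `Sp_945.spoil`, gadget 2 = `ExactR_237.exact_gadget` at `y = 1`,
walls = `WallU_228.walls_full`.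
-/

set_option autoImplicit false

namespace Crest.Agent.R320.Fin_289

open Crest.RegLang Crest.Agent.R320.Hk_851 Crest.Agent.R320.ExactR_237

/-- periodicity of the bad lengths -/
theorem bad_per (Ms : Finset ℕ) (M m b : ℕ) (hb : 0 < b) (hMs : ∀ k ∈ Ms, k ∣ M) (T : ℕ) :
    Sp_945.Bad Ms M m b (T + M * b ^ m) ↔ Sp_945.Bad Ms M m b T := by
  have h1 : ∀ k ∈ Ms, (k ∣ T + M * b ^ m ↔ k ∣ T) := by
    intro k hk
    exact (Nat.dvd_add_left ((hMs k hk).mul_right _))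
  have h2 : ∀ j < m, (T + M * b ^ m) / b ^ j % b = T / b ^ j % b := by
    intro j hj
    obtain ⟨i, rfl⟩ : ∃ i, m = j + 1 + i := ⟨m - (j + 1), by omega⟩
    have e : M * b ^ (j + 1 + i) = b ^ j * (b * (M * b ^ i)) := by ring
    rw [e, Nat.add_mul_div_left _ _ (pow_pos hb j), Nat.add_mul_mod_self_left]
  unfold Sp_945.Bad
  constructor
  · rintro (⟨k, hk, h⟩ | ⟨j, hj, h⟩)
    · exact Or.inl ⟨k, hk, (h1 k hk).1 h⟩
    · refine Or.inr ⟨j, hj, ?_⟩
      rw [h2 j hj] at h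
      exact h
  · rintro (⟨k, hk, h⟩ | ⟨j, hj, h⟩)
    · exact Or.inl ⟨k, hk, (h1 k hk).2 h⟩
    · refine Or.inr ⟨j, hj, ?_⟩
      rw [h2 j hj]
      exact h

theorem fin (α : Type) [Finite α] (S : Type) [Monoid S] [Finite S] (f : α → S) (s : S) :
    HL 3 ({w | (w.map f).prod = s} : Language α) := by
  classical
  haveI : Fintype S := Fintype.ofFinite S
  obtain ⟨act, hadd, hone, hmul, hfaith⟩ := Crest.Agent.R320.Blk467.exists_module S
  haveI : Fintype (S → ZMod 2) := Fintype.ofFinite _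
  -- gadget 1
  obtain ⟨m, r, hg⟩ := G1_596.g1 S (S → ZMod 2) act
  obtain ⟨K, hK⟩ := exact_gadget α S (S → ZMod 2) f act (2 + 2 * (r + m))
  obtain ⟨Ms, M, hcard, hMs, hM, hg⟩ := hg (2 ^ (K + 1))
  obtain ⟨b, hb⟩ : ∃ b, b = (2 ^ (K + 6) * M + 8) * M + 1 := ⟨_, rfl⟩
  have hpow : 1 ≤ 2 ^ (K + 6) := Nat.one_le_two_pow
  have hb1 : 4 * M + 4 < b := by
    have e : (2 ^ (K + 6) * M + 8) * M + 1 = 2 ^ (K + 6) * M * M + (8 * M + 1) := by ring
    rw [hb, e]
    exact lt_of_lt_of_le (by omega : 4 * M + 4 < 8 * M + 1) (Nat.le_add_left _ _)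
  have hb2 : 2 ^ (K + 6) * M < b := by rw [hb]; nlinarith
  have hcop : Nat.Coprime b M := by
    rw [hb, Nat.add_comm]
    exact (Nat.coprime_add_mul_right_left 1 M _).2 (Nat.coprime_one_left M)
  have hb0 : 0 < b := by omega
  obtain ⟨lam, rho, nu1, hlen, hsound, hcompl, hfs⟩ := hg b hb1 hcop α f
  obtain ⟨N1, hN1⟩ : ∃ N1, N1 = b ^ m := ⟨_, rfl⟩
  obtain ⟨c, hc1, hc2, hc3, hc4, hc5⟩ := Sp_945.spoil K m M Ms hM
    (fun k hk => ⟨(hMs k hk).1.le, (hMs k hk).2.2⟩) b hb2 hcop (4 * N1)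
  obtain ⟨p0, hp0⟩ : ∃ p0, p0 = c K := ⟨_, rfl⟩
  have hcp : ∀ k < K, c k ≤ p0 := fun k hk => by rw [hp0]; exact (hc1 k K hk).le
  obtain ⟨lam2, rho2, nu2, hex, hex2⟩ := hK c (fun i j hij _ => hc1 i j hij)
  -- walls
  obtain ⟨n, cc, P, Sw, hn, hP, hloc, hgap, -, -, hfew⟩ :=
    WallU_228.walls_full (α := α) (2 * p0 + 2 * N1)
  obtain ⟨La, hLa⟩ : ∃ La, La = p0 + N1 := ⟨_, rfl⟩
  obtain ⟨z, hz⟩ : ∃ z, z = 2 * p0 + N1 + n + N1 + La + 1 := ⟨_, rfl⟩
  let BadT : ℕ → Prop := Sp_945.Bad Ms M m b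
  have hMsM : ∀ k ∈ Ms, k ∣ M := fun k hk => (hMs k hk).2.2
  have hper : ∀ T, N1 ≤ T → (BadT (T + M * b ^ m) ↔ BadT T) := fun T _ =>
    bad_per Ms M m b hb0 hMsM T
  obtain ⟨H1, H2, H3, H4⟩ := H14_82.main (f := f) (n := n) (Sw := Sw) (z := z) (N := N1)
    (p0 := p0) (A1 := N1) (m := M * b ^ m) (by positivity) hfew BadT hper nu1
    (fun X => nu2 X 1) act (fun Y Y' h1 h2 h3 h4 h5 => by
      rw [hN1] at h1 h2 h3 h5
      exact (hfs Y Y' h1 h2 h3 h4 h5).2)
  have eXX : H14_82.XX n Sw z = Con_504.XX (WallU_228.Wo n Sw) z := by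
    ext X
    constructor
    · rintro ⟨h1, h2, h3⟩
      exact ⟨h1, h2, fun t ht ht' => h3 t ht' ht⟩
    · rintro ⟨h1, h2, h3⟩
      exact ⟨h1, h2, fun t ht ht' => h3 t ht' ht⟩
  have eBad : H14_82.Bad n Sw z N1 p0 BadT = Con_504.Bad (WallU_228.Wo n Sw) z N1 p0 BadT := by
    ext X
    constructor
    · rintro ⟨h1, h2⟩
      exact ⟨eXX ▸ h1, h2⟩
    · rintro ⟨h1, h2⟩
      exact ⟨eXX.symm ▸ h1, h2⟩
  rw [eXX] at H1
  rw [eBad] at H2
  rw [eXX] at H3
  rw [eXX] at H4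
  have hsub : ∀ v w t, act (v - w) t = act v t - act w t := by
    intro v w t
    have h := hadd (v - w) w t
    rw [sub_add_cancel] at h
    rw [h, add_sub_cancel_right]
  refine Top5_110.top_sem (φ := pr f) (act := act) (XX := Con_504.XX (WallU_228.Wo n Sw) z)
    (Bad := Con_504.Bad (WallU_228.Wo n Sw) z N1 p0 BadT)
    (T := Con_504.TT f act p0 (fun X => nu2 X 1) nu1) (by simp [pr]) (by intro u w; simp [pr])
    hone hmul hfaith (Con_504.XX_pc (by omega)) (fun u hu => hu.1) ?_ H1 H2 H3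
    (fun t => (H4 t).mono (by norm_num)) (N1 := 0) (N2 := 1)
    (L1 := Con_504.L1 f act p0 N1 (fun X => nu2 X 1) lam) (L2 := Con_504.L2 K c lam2)
    ?_ ?_ ?_ ?_ s
  · intro u _ v v'
    unfold Con_504.TT
    have hpr : pr f u = pr f (u.take p0) * pr f (u.drop p0) := by
      conv_lhs => rw [← List.take_append_drop p0 u]
      simp [pr]
    rw [hpr, hmul, hsub v v', hsub, hadd, hadd]
    abel
  · intro v
    refine (List.finite_length_le α (p0 + N1)).subset ?_
    rintro p ⟨-, h, -⟩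
    exact h
  · intro v
    refine (List.finite_length_le α p0).subset ?_
    rintro p ⟨k, hk, h, -⟩
    show p.length ≤ p0
    rw [h]; exact hcp k hk
  · intro u hu hb x t ht
    exact Con_504.C1 (n := n) hloc f act p0 N1 La z (fun X => nu2 X 1) nu1 lam rho BadT
      (fun p v h => by rw [hN1]; exact (hlen p v h).le)
      (fun p q v r' h1 h2 _ => hsound p q v r' h1 h2)
      (fun u _ hu v => by
        have hu' : (∀ k ∈ Ms, ¬ k ∣ u.length) ∧
            ∀ j < m, M ≤ u.length / b ^ j % b ∧ u.length / b ^ j % b + M + 1 ≤ b := by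
          constructor
          · intro k hk hd
            exact hu (Or.inl ⟨k, hk, hd⟩)
          · intro j hj
            by_contra hcon
            exact hu (Or.inr ⟨j, hj, hcon⟩)
        exact hcompl u hu'.1 hu'.2 v)
      (by omega) u hu hb x t ht
  · intro u hu x t ht
    refine Con_504.C2 (n := n) (W := 2 * p0 + 2 * N1) hloc hgap f act p0 N1 La z K (r + m) nu1 c
      BadT hcp ?_ ?_ lam2 rho2 (fun X => nu2 X 1) ?_ ?_ (by omega) le_rfl u hu x t ht
    · intro i _ j _ k _ l _ h1 h2 h3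
      exact hc4 i j k l h1 h2 h3
    · intro T hT J hJ
      have h5 := hc5 T (fun a ha => (hcp a ha).trans (by omega))
      refine le_trans (Finset.card_le_card ?_) (h5.trans (by omega))
      intro q hq
      obtain ⟨q1, q2, q3, q4⟩ := hJ q hq
      exact Finset.mem_filter.2 ⟨Finset.mem_product.2 ⟨Finset.mem_range.2 q1,
        Finset.mem_range.2 q2⟩, q3, q4⟩
    · intro k hk P Q v b' h1 h2 h3
      have := hex k hk P Q 1 v b' h1 h2 h3
      rw [mul_one] at this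
      exact this
    · intro u v hu
      exact hex2 u 1 v (fun k hk => by rw [hu]; exact hcp k hk)

theorem row (α : Type*) [Finite α] (L : Language α) (hL : L.IsRegular) :
    ∃ e : GRegExp α, e.height ≤ 3 ∧ e.lang = L :=
  Univ_188.of_type0 3 (fun α _ L hL => of_monoid (fun S _ _ φ s => fin α S φ s) L hL) α L hL

end Crest.Agent.R320.Fin_289
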