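import Crest.Agent.R320.Asm_295
import Crest.Agent.R320.G1_852
import Crest.Agent.R320.ExactR_237
import Crest.Agent.R320.Sp_314
import Crest.Agent.R320.Top5_120
import Crest.Agent.R320.P4_933
import Crest.Agent.R320.LWallAll_922

/-!
Row 320, JOIN (helper295): for every finite monoid the fibres of the evaluation have height `≤ 3`.
-/

set_option autoImplicit false
set_option linter.unusedSectionVars false

namespace Crest.Agent.R320.Fin_295

open Crest.RegLang Crest.Agent.R320.Hk_851 Crest.Agent.R320.Asm_295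

theorem isRegular_foldl {α : Type} {σ : Type*} [Finite σ] (step : σ → α → σ) (s0 : σ)
    (acc : Set σ) : Language.IsRegular ({w | w.foldl step s0 ∈ acc} : Language α) := by
  classical
  haveI := Fintype.ofFinite σ
  exact Language.isRegular_iff.2 ⟨σ, inferInstance, ⟨step, s0, acc⟩, rfl⟩

theorem take_snoc {α : Type} (K : ℕ) (w : List α) (a : α) :
    (w.take K ++ [a]).take K = (w ++ [a]).take K := by
  rw [List.take_append, List.take_append, List.take_take, Nat.min_self, List.length_take]
  congr 2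
  omega

theorem isRegular_key {α : Type} [Finite α] {M : Type} [Monoid M] [Finite M] (φ : α → M)
    (K Mo : ℕ) (hMo : 0 < Mo) (Pd : List α → ℕ → M → Prop) :
    Language.IsRegular
      ({w | Pd (w.take K) (w.length % Mo) ((w.drop K).map φ).prod} : Language α) := by
  classical
  let B := {b : List α // b.length ≤ K}
  haveI : Finite B := (List.finite_length_le α K).to_subtype
  let step : B × Fin Mo × M → α → B × Fin Mo × M := fun q a =>
    (⟨(q.1.1 ++ [a]).take K, by rw [List.length_take]; omega⟩,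
      ⟨(q.2.1.1 + 1) % Mo, Nat.mod_lt _ hMo⟩,
      if q.1.1.length < K then q.2.2 else q.2.2 * φ a)
  let s0 : B × Fin Mo × M := (⟨[], Nat.zero_le _⟩, ⟨0 % Mo, Nat.mod_lt _ hMo⟩, 1)
  have key : ∀ w : List α, w.foldl step s0 =
      (⟨w.take K, by rw [List.length_take]; omega⟩, ⟨w.length % Mo, Nat.mod_lt _ hMo⟩,
        ((w.drop K).map φ).prod) := by
    intro w
    induction w using List.reverseRecOn with
    | nil => simp [s0]
    | append_singleton w a ih =>
      rw [List.foldl_append, ih]
      simp only [List.foldl_cons, List.foldl_nil, step]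
      refine Prod.ext ?_ (Prod.ext ?_ ?_)
      · exact Subtype.ext (take_snoc K w a)
      · apply Fin.ext
        simp [Nat.add_mod]
      · simp only
        by_cases h : w.length < K
        · rw [if_pos (by rw [List.length_take]; omega), List.drop_of_length_le (by omega),
            List.drop_of_length_le (by rw [List.length_append, List.length_singleton]; omega)]
        · rw [if_neg (by rw [List.length_take]; omega),
            List.drop_append_of_le_length (by omega)]
          simp
  have h := isRegular_foldl step s0 {q | Pd q.1.1 q.2.1.1 q.2.2}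
  have e : ({w | w.foldl step s0 ∈ {q : B × Fin Mo × M | Pd q.1.1 q.2.1.1 q.2.2}} : Language α) =
      ({w | Pd (w.take K) (w.length % Mo) ((w.drop K).map φ).prod} : Language α) := by
    ext w
    show Pd (w.foldl step s0).1.1 (w.foldl step s0).2.1.1 (w.foldl step s0).2.2 ↔ _
    rw [key w]
    exact Iff.rfl
  rw [← e]
  exact h

theorem bad_mod {Ms : Finset ℕ} {M m b x y : ℕ} (hMs : ∀ k ∈ Ms, k ∣ M)
    (h : x % (M * b ^ m) = y % (M * b ^ m)) (hx : Sp314.Bad Ms M m b x) : Sp314.Bad Ms M m b y := by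
  rcases hx with ⟨k, hk, hd⟩ | ⟨j, hj, hd⟩
  · left
    refine ⟨k, hk, ?_⟩
    have h1 : k ∣ M * b ^ m := (hMs k hk).mul_right _
    have h2 : x ≡ y [MOD k] := Nat.ModEq.of_dvd h1 h
    exact (Nat.modEq_zero_iff_dvd.1 (h2.symm.trans (Nat.modEq_zero_iff_dvd.2 hd)))
  · right
    refine ⟨j, hj, ?_⟩
    have h1 : b ^ j * b ∣ M * b ^ m := by
      rw [← pow_succ]
      exact (pow_dvd_pow b hj).mul_left _
    have h2 : x % (b ^ j * b) = y % (b ^ j * b) := Nat.ModEq.of_dvd h1 h
    have h3 : x / b ^ j % b = y / b ^ j % b := by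
      rw [← Nat.mod_mul_right_div_self, ← Nat.mod_mul_right_div_self, h2]
    rw [← h3]
    exact hd

/-- **JOIN** -/
theorem fin (α : Type) [Finite α] (S : Type) [Monoid S] [Finite S] (f : α → S) (s : S) :
    HL 3 ({w | (w.map f).prod = s} : Language α) := by
  classical
  obtain ⟨act, hadd, hone, hmul, hfaith⟩ := Crest.Agent.R320.Blk467.exists_module S
  haveI : Fintype S := Fintype.ofFinite S
  obtain ⟨m, r, H1⟩ := G1_852.gadget (S := S) (V := S → ZMod 2) act
  obtain ⟨K, H2⟩ := ExactR_237.exact_gadget α S (S → ZMod 2) f act (2 * (r + m) + 2)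
  obtain ⟨Ms, M, hcard, hMs, hM, H3⟩ := H1 (2 ^ (K + 1))
  obtain ⟨b, hb⟩ : ∃ b, b = M * 2 ^ (K + 5) + 1 := ⟨_, rfl⟩
  have hb0 : 0 < b := by omega
  have hcop : Nat.Coprime b M := by
    rw [hb, Nat.coprime_comm]
    exact (Nat.coprime_mul_right_add_right M 1 (2 ^ (K + 5))).2 (Nat.coprime_one_right M) |> fun h => by
      simpa [Nat.add_comm, Nat.mul_comm] using h
  obtain ⟨lam1, rho1, nu1, g1, g2, g3, g4⟩ := H3 b hb0 hcop α f
  obtain ⟨c, hc1, hc2, hc3, hc4, hc5, hc6, hc7⟩ := Sp314.spoil K (b ^ m) m M b Ms hM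
    (fun k hk => ⟨(hMs k hk).1, (hMs k hk).2.2⟩) hcop (by rw [hb, Nat.mul_comm]; omega)
  obtain ⟨lam2, rho2, nu2, e1, e2⟩ := H2 c (fun i j hij _ => hc1 hij)
  obtain ⟨p0, hp0⟩ : ∃ p0, p0 = c K := ⟨_, rfl⟩
  obtain ⟨N1, hN1⟩ : ∃ N1, N1 = b ^ m := ⟨_, rfl⟩
  obtain ⟨n, Gw, B, Wo, hLW, hgap, -, -, hfree⟩ :=
    LWallAll_922.walls_all_left α (2 * (p0 + N1) + 1) (by omega)
  obtain ⟨z, hz⟩ : ∃ z, z = p0 + N1 + (n + 1) := ⟨_, rfl⟩
  let d : Dat α S (S → ZMod 2) :=
    { φ := fun w => (w.map f).prod, act := act, Wo := Wo, n := n + 1, W := 2 * (p0 + N1) + 1,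
      N1 := N1, Lf := lam1, Rf := rho1, nu1 := nu1,
      BadT := fun t => ∃ k : ℕ, (k : ℤ) = t ∧ Sp314.Bad Ms M m b k,
      K := K, c := c, p0 := p0, lam := lam2, rho := fun k Q => rho2 k Q 1,
      nu2 := fun X => nu2 X 1, z := z, Csp := r + m }
  have hck : ∀ k, k < K → c k ≤ p0 := fun k hk => by rw [hp0]; exact (hc1 hk).le
  have hok : Ok d :=
    { φ_app := fun u v => by simp [d]
      act_add := hadd
      act_mul := fun v s t => (hmul v s t).symm
      Wloc := fun P Q h => hLW.app P Q (Nat.le_of_succ_le h)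
      Wgap := fun X s t h1 h2 h3 h4 => by
        have := hgap X s t h2 h1 h3 h4
        show s + (2 * (p0 + N1) + 1) < t
        omega
      n_pos := Nat.succ_pos n
      g_sound := fun P Q v b' h1 h2 => g2 P Q v b' h1 h2
      g_left := fun P v h => by
        have := g1 P v h
        show P.length ≤ N1
        rw [hN1]; exact this.le
      g_comp := by
        intro Y hY hbad v
        have hnb : ¬ Sp314.Bad Ms M m b Y.length := fun h => hbad ⟨Y.length, rfl, h⟩
        unfold Sp314.Bad at hnb
        push Not at hnb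
        obtain ⟨a1, a2⟩ := hnb
        obtain ⟨P, Q, q1, q2, v', q3⟩ := g3 Y a1 (fun j hj => ⟨(a2 j hj).1, by
          have := (a2 j hj).2; omega⟩) v
        exact ⟨P, Q, q1.symm, q2, by show (rho1 Q).isSome; rw [q3]; rfl⟩
      c_le := hck
      e_sound := by
        intro k hk P Q v y hP hQ h1 h2
        have := e1 k hk P Q 1 v y hP h1 h2
        rw [mul_one] at this
        exact this
      hz := by show p0 + N1 + (n + 1) ≤ z; omega
      hW := by show 2 * (p0 + N1) ≤ 2 * (p0 + N1) + 1; omega }
  have hok2 : Ok2 d :=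
    { e_comp := by
        intro X hX v
        obtain ⟨I, hI1, hI2⟩ := e2 X 1 v (fun k hk => by
          have : X.length = p0 := hX
          rw [this]; exact hck k hk)
        have hsub : (I : Set ℕ) ⊆ {k : ℕ | k < d.K ∧ d.lam k (X.take (d.c k)) = some v ∧
            (d.rho k (X.drop (d.c k))).isSome} := by
          intro k hk
          exact hI2 k (Finset.mem_coe.1 hk)
        have hfin : {k : ℕ | k < d.K ∧ d.lam k (X.take (d.c k)) = some v ∧
            (d.rho k (X.drop (d.c k))).isSome}.Finite :=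
          (Set.finite_Iio d.K).subset fun k hk => hk.1
        have := Set.ncard_le_ncard hsub hfin
        rw [Set.ncard_coe_finset] at this
        show 1 + 2 * (r + m) < _
        omega
      spoil := by
        intro t
        obtain ⟨P, hP1, hP2⟩ := hc6 t
        have hsub : {p : ℕ × ℕ | p.1 < d.K ∧ p.2 < d.K ∧ p.1 ≠ p.2 ∧
            d.BadT (t + d.c p.1 - d.c p.2)} ⊆ ((P.image Prod.swap : Finset (ℕ × ℕ)) : Set (ℕ × ℕ)) := by
          rintro ⟨i, j⟩ ⟨hi, hj, hij, k, hk, hbk⟩
          rw [Finset.coe_image]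
          refine ⟨(j, i), hP2 j i k hj hi (Ne.symm hij) ?_ hbk, rfl⟩
          simp only at hk
          rw [hk]
          show t + (c i : ℤ) - c j = t - ((c j : ℤ) - c i)
          ring
        have := Set.ncard_le_ncard hsub (Finset.finite_toSet _)
        rw [Set.ncard_coe_finset] at this
        have h3 := Finset.card_image_le (s := P) (f := Prod.swap)
        show _ ≤ r + m
        omega
      spaced := by
        intro a b' a' b'' _ _ _ _ hab h
        refine hc5 a b' a' b'' hab (h.trans ?_)
        show (2 * (N1 : ℤ)) ≤ 4 * ((b ^ m : ℕ) : ℤ)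
        rw [← hN1]
        have : (0 : ℤ) ≤ N1 := Int.natCast_nonneg _
        linarith }
  -- locality
  obtain ⟨A, hA⟩ : ∃ A, A = z + N1 := ⟨_, rfl⟩
  have hM0 : 0 < M * b ^ m := Nat.mul_pos hM (Nat.pow_pos hb0)
  have hloc : ∀ X X' : List α, z ≤ X.length → z ≤ X'.length → X.take A = X'.take A →
      X.length % (M * b ^ m) = X'.length % (M * b ^ m) →
      ((X.drop A).map f).prod = ((X'.drop A).map f).prod →
      (∀ x, T d x X = T d x X') ∧ (Bad d X → Bad d X') := by
    intro X X' hX hX' h1 h2 h3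
    have hlen : (X.take A).length = (X'.take A).length := by rw [h1]
    rw [List.length_take, List.length_take] at hlen
    have htk : ∀ j, j ≤ A → X.take j = X'.take j := by
      intro j hj
      have q1 : X.take j = (X.take A).take j := by rw [List.take_take, min_eq_left hj]
      have q2 : X'.take j = (X'.take A).take j := by rw [List.take_take, min_eq_left hj]
      rw [q1, q2, h1]
    have hdr : ∀ j, j ≤ A → j ≤ z → ((X.drop j).map f).prod = ((X'.drop j).map f).prod := by
      intro j hj hjz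
      have q1 : X.drop j = (X.take A).drop j ++ X.drop A := by
        conv_lhs => rw [← List.take_append_drop A X]
        rw [List.drop_append_of_le_length (by rw [List.length_take]; omega)]
      have q2 : X'.drop j = (X'.take A).drop j ++ X'.drop A := by
        conv_lhs => rw [← List.take_append_drop A X']
        rw [List.drop_append_of_le_length (by rw [List.length_take]; omega)]
      rw [q1, q2, List.map_append, List.map_append, List.prod_append, List.prod_append, h1, h3]
    have hmod : (X.length - p0) % (M * b ^ m) = (X'.length - p0) % (M * b ^ m) := by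
      have : (X.length - p0) + p0 ≡ (X'.length - p0) + p0 [MOD M * b ^ m] := by
        rw [Nat.sub_add_cancel (by omega), Nat.sub_add_cancel (by omega)]
        exact h2
      exact Nat.ModEq.add_right_cancel' p0 this
    constructor
    · intro x
      have t1 : X.take p0 = X'.take p0 := htk p0 (by omega)
      have t2 : ((X.drop p0).map f).prod = ((X'.drop p0).map f).prod := hdr p0 (by omega) (by omega)
      have t3 : nu1 (X.drop p0) = nu1 (X'.drop p0) := by
        refine (g4 (X.drop p0) (X'.drop p0) ?_ ?_ ?_).2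
        · rw [← hN1]
          have q1 : (X.drop p0).take N1 = (X.take (p0 + N1)).drop p0 := by
            rw [List.drop_take]; congr 1; omega
          have q2 : (X'.drop p0).take N1 = (X'.take (p0 + N1)).drop p0 := by
            rw [List.drop_take]; congr 1; omega
          rw [q1, q2, htk _ (by omega)]
        · rw [← hN1, List.drop_drop, List.drop_drop]
          exact hdr _ (by omega) (by omega)
        · rw [List.length_drop, List.length_drop]; exact hmod
      show act (act x ((X.take p0).map f).prod + nu2 (X.take p0) 1) ((X.drop p0).map f).prod +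
          nu1 (X.drop p0) =
        act (act x ((X'.take p0).map f).prod + nu2 (X'.take p0) 1) ((X'.drop p0).map f).prod +
          nu1 (X'.drop p0)
      rw [t1, t2, t3]
    · rintro (⟨t, b1, b2, b3, b4⟩ | ⟨k, hk, hbk⟩)
      · left
        have b4' : t < z + N1 := b4
        exact ⟨t, by omega, by rw [← htk t (by omega)]; exact b2, b3, b4⟩
      · right
        have hk' : (k : ℤ) = (X.length : ℤ) - p0 := hk
        have hkk : k = X.length - p0 := by omega
        refine ⟨X'.length - p0, ?_, bad_mod (fun q hq => (hMs q hq).2.2) ?_ hbk⟩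
        · show ((X'.length - p0 : ℕ) : ℤ) = (X'.length : ℤ) - p0
          omega
        · rw [hkk]; exact hmod
  have hpn : ∀ u : List α, (∀ t < u.length, ¬ Wo (u.take t)) →
      u ∈ (BddReg_746.PN (max B (2 * (p0 + N1) + 1)) 2 : Language α) := by
    intro u hu
    obtain ⟨u0, x, v0, k, q1, q2, q3, rfl⟩ := hfree u hu
    refine Language.mem_mul.2 ⟨u0 ++ (List.replicate k x).flatten, ⟨u0, x, k,
      q1.trans (le_max_left _ _), q2.trans (le_max_right _ _), rfl⟩, v0, ?_, rfl⟩
    refine Language.mem_mul.2 ⟨v0, ⟨v0, [], 0, q3.trans (le_max_left _ _), by simp, by simp⟩, [],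
      rfl, by simp⟩
  have hXXe : ∀ X, X ∈ XX d ↔ P4_933.XX Wo z X := fun X => Iff.rfl
  have hreg : ∀ (Bd : List α → Prop) (x y : S → ZMod 2),
      (∀ X X' : List α, X ∈ XX d → X' ∈ XX d → X.take A = X'.take A →
        X.length % (M * b ^ m) = X'.length % (M * b ^ m) →
        ((X.drop A).map f).prod = ((X'.drop A).map f).prod → Bd X → Bd X') →
      HL 1 ({X | (X ∈ XX d ∧ Bd X) ∧ act x (X.map f).prod + nuX d X = y} : Language α) := by
    intro Bd x y hBd
    have hr := isRegular_key f A (M * b ^ m) hM0 (fun p l g => ∃ X' ∈ XX d, X'.take A = p ∧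
      X'.length % (M * b ^ m) = l ∧ ((X'.drop A).map f).prod = g ∧ Bd X' ∧ T d x X' = y)
    have h1 := P4_933.hl_XX (Wo := Wo) (n := n) (z := z) hLW.app hLW.len
      (B := max B (2 * (p0 + N1) + 1)) (R := 2) hpn hr
    refine h1.congr fun X => ?_
    constructor
    · rintro ⟨⟨hX, hb1⟩, hT⟩
      refine ⟨hX, X, hX, rfl, rfl, rfl, hb1, ?_⟩
      rw [T_eq hok]; exact hT
    · rintro ⟨hX, X', hX', q1, q2, q3, q4, q5⟩
      refine ⟨⟨hX, hBd X' X hX' hX q1 q2 q3 q4⟩, ?_⟩
      have := (hloc X' X hX'.2.1 hX.2.1 q1 q2 q3).1 x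
      rw [q5, T_eq hok] at this
      exact this.symm
  refine Top5_120.top5 act hadd hone hmul hfaith f (nuX d) (XX d) {X | X ∈ XX d ∧ Bad d X}
    ⟨XX_ne hok, fun X hX Y hY h => XX_inj hX hY h⟩ (fun X hX => hX.1)
    (fun v => {P | LP1 d P v}) (fun v => {P | LP2 d P v}) ?_ ?_ ?_ ?_ ?_ ?_ ?_ s
  · intro v
    refine (List.finite_length_le α (p0 + N1)).subset ?_
    rintro P ⟨h1, h2⟩
    have h3 := hok.g_left _ _ h2
    rw [List.length_drop] at h3
    have h3' : P.length - p0 ≤ N1 := h3
    show P.length ≤ p0 + N1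
    omega
  · intro v
    refine (List.finite_length_le α (p0 + N1)).subset ?_
    rintro P ⟨k, h1, h2, _⟩
    have := hck k h1
    have h2' : P.length = c k := h2
    show P.length ≤ p0 + N1
    omega
  · intro x y
    refine (hreg (fun _ => True) x y (fun _ _ _ _ _ _ _ _ => trivial)).congr fun X => ?_
    constructor
    · rintro ⟨h1, h2⟩; exact ⟨⟨h1, trivial⟩, h2⟩
    · rintro ⟨⟨h1, _⟩, h2⟩; exact ⟨h1, h2⟩
  · intro x y
    refine hreg (fun X => Bad d X) x y (fun X X' hX hX' q1 q2 q3 hB => ?_)
    exact (hloc X X' hX.2.1 hX'.2.1 q1 q2 q3).2 hB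
  · intro s'
    have hr := isRegular_key f 0 1 Nat.one_pos (fun _ _ g => g = s')
    have h1 := P4_933.hl_NB (Wo := Wo) (n := n) (z := z) hLW.app hLW.len
      (B := max B (2 * (p0 + N1) + 1)) (R := 2) hpn hr
    refine h1.congr fun w => ?_
    constructor
    · rintro ⟨h2, h3⟩
      refine ⟨(P4_933.NB_iff Wo z w).2 fun P hP hX => h2 P hX hP, ?_⟩
      simpa using h3
    · rintro ⟨h2, h3⟩
      refine ⟨fun X hX hP => (P4_933.NB_iff Wo z w).1 h2 X hP hX, ?_⟩
      simpa using h3
  · intro X hX hb v
    obtain ⟨P, Q, q1, q2, q3⟩ := hcc1 hok hX (fun h => hb ⟨hX, h⟩) v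
    refine ⟨P, Q, q1, q2, fun x P' hP' => ?_⟩
    obtain ⟨r1, r2⟩ := q3 x P' hP'
    refine ⟨r1, ?_⟩
    rw [T_eq hok, T_eq hok] at r2
    exact r2
  · intro X hX Y hY v
    obtain ⟨P, Q, q1, q2, q3⟩ := hcc2 hok hok2 hX.1 hX.2 hY.1 v
    refine ⟨P, Q, q1, q2, fun x P' hP' => ?_⟩
    rcases q3 x P' hP' with ⟨X', m1, m2, Y', m3, m4, m5⟩ | ⟨X', m1, m2, m3⟩
    · left
      refine ⟨X', ⟨m1, m2⟩, Y', m3, m4, ?_⟩
      rw [T_eq hok, T_eq hok, T_eq hok, T_eq hok] at m5
      exact m5
    · right
      exact ⟨X', m1, fun h => m2 h.2, m3⟩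

end Crest.Agent.R320.Fin_295
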