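import Crest.Agent.R320.Spoil_421

/-! Row 320, SPOIL LEAF of #13673 (ruler for the digit gadget) and the wall form of #13721. -/

namespace Crest.Agent.R320.Sp_421

open Crest.Agent.R320.Spoil_421

/-- a number is bad: a modulus divides it, or one of its base `b` digits is within `M` of the ends -/
def BadD (Ms : Finset ℕ) (M m b n : ℕ) : Prop :=
  (∃ k ∈ Ms, k ∣ n) ∨ ∃ j < m, ¬ (M ≤ n / b^j % b ∧ n / b^j % b + M + 1 ≤ b)

theorem key2 {K : ℕ} {S A B Mo w T : ℤ} (hS : S = A + Mo * B) (hA : 0 < A) (hw0 : 0 ≤ w)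
    (hw : 2 * w < A) (hM : 2^(K+1) * A + 2*w < Mo)
    {a b c d : ℕ} (ha : a < K) (hb : b < K) (hc : c < K) (hd : d < K) (hab : a ≠ b)
    {j1 j2 : ℤ} (h1 : |T + 2^a*S - 2^b*S - Mo*j1| ≤ w)
    (h2 : |T + 2^c*S - 2^d*S - Mo*j2| ≤ w) : a = c ∧ b = d := by
  obtain ⟨D, hDdef⟩ : ∃ D : ℤ, D = 2^a - 2^b - 2^c + 2^d := ⟨_, rfl⟩
  have hD : |D| ≤ 2^(K+1) := hDdef ▸ absD ha hb hc hd
  obtain ⟨j, hj⟩ : ∃ j : ℤ, j = D*B - j1 + j2 := ⟨_, rfl⟩
  have e : D*A + Mo*j = (T + 2^a*S - 2^b*S - Mo*j1) - (T + 2^c*S - 2^d*S - Mo*j2) := by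
    rw [hj, hDdef, hS]; ring
  have h3 : |D*A + Mo*j| ≤ 2*w := by
    rw [e]
    refine (abs_sub _ _).trans ?_
    linarith
  have hp : (0:ℤ) < 2^(K+1) := by positivity
  have hMo : 0 < Mo := by nlinarith
  have h5 : |D*A| = |D| * A := by
    rw [abs_mul, abs_of_pos hA]
  have h6 : |D*A| ≤ 2^(K+1)*A := by
    rw [h5]
    exact mul_le_mul_of_nonneg_right hD hA.le
  have hj0 : j = 0 := by
    by_contra hjne
    have h1j : 1 ≤ |j| := Int.one_le_abs hjne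
    have h8 : |Mo*j| ≤ |D*A + Mo*j| + |D*A| := by
      have := abs_sub (D*A + Mo*j) (D*A)
      have e2 : D*A + Mo*j - D*A = Mo*j := by ring
      rwa [e2] at this
    rw [abs_mul, abs_of_pos hMo] at h8
    nlinarith
  rw [hj0, mul_zero, add_zero, h5] at h3
  have hD0 : D = 0 := by
    by_contra hne
    have h1D : 1 ≤ |D| := Int.one_le_abs hne
    nlinarith
  have h9 : (2:ℕ)^a + 2^d = 2^b + 2^c := by
    have : (2:ℤ)^a + 2^d = 2^b + 2^c := by linarith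
    exact_mod_cast this
  rcases sid a b c d h9 with ⟨e1, _⟩ | ⟨e1, e2⟩
  · exact absurd e1 hab
  · exact ⟨e1, e2.symm⟩

theorem xdiff2 {K S a b T : ℕ} (hT : 2^K*S ≤ T) (hb : b < K) :
    ((T + 2^a*S - 2^b*S : ℕ):ℤ) = T + 2^a*(S:ℤ) - 2^b*(S:ℤ) := by
  have h1 : 2^b*S ≤ T := by
    refine le_trans ?_ hT
    exact Nat.mul_le_mul_right _ (Nat.pow_le_pow_right (by norm_num) hb.le)
  have h2 : 2^b*S ≤ T + 2^a*S := by omega
  rw [Nat.cast_sub h2]; push_cast; ring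

/-- at most one pair satisfies a thin condition. -/
theorem one2 {K Mo S w T : ℕ} {A B : ℤ} (hS : (S:ℤ) = A + Mo * B) (hA : 0 < A) (hw : 2 * (w:ℤ) < A)
    (hM : 2^(K+1) * A + 2*(w:ℤ) < Mo) (hT : 2^K*S ≤ T) (p : ℕ → Prop)
    (hp : ∀ y, p y → ∃ j : ℤ, |(y:ℤ) - (Mo:ℤ) * j| ≤ (w:ℤ)) (s : Finset (ℕ × ℕ))
    (hs : ∀ ab ∈ s, ab.1 < K ∧ ab.2 < K ∧ ab.1 ≠ ab.2 ∧ p (T + 2^ab.2*S - 2^ab.1*S)) :
    s.card ≤ 1 := by
  rw [Finset.card_le_one]
  rintro ⟨b, a⟩ h1 ⟨d, c⟩ h2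
  obtain ⟨hb, ha, hab, q1⟩ := hs _ h1
  obtain ⟨hd, hc, hcd, q2⟩ := hs _ h2
  obtain ⟨j1, r1⟩ := hp _ q1
  obtain ⟨j2, r2⟩ := hp _ q2
  rw [xdiff2 hT hb] at r1
  rw [xdiff2 hT hd] at r2
  have := key2 (K := K) (S := S) (A := A) (B := B) (Mo := Mo) (w := w) (T := T) hS hA
    (by positivity) hw hM ha hb hc hd (Ne.symm hab) r1 r2
  exact Prod.ext this.2 this.1

theorem digwin {P b M y : ℕ} (hP : 0 < P) (hb : 0 < b)
    (h : ¬ (M ≤ (y / P) % b ∧ (y / P) % b + M + 1 ≤ b)) :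
    ∃ j : ℤ, |(y:ℤ) - ((P * b : ℕ) : ℤ) * j| ≤ ((P * M : ℕ) : ℤ) := by
  have h' : (y / P) % (b*1) < M ∨ b*1 ≤ (y / P) % (b*1) + M := by
    rw [mul_one]; omega
  -- `win` with `R * M` replaced by `b`
  have e1 := Nat.div_add_mod y P
  have e2 := Nat.div_add_mod (y/P) b
  have l1 := Nat.mod_lt y hP
  have l2 := Nat.mod_lt (y/P) hb
  rw [mul_one] at h'
  set r := (y/P) % b with hr
  set q := (y/P) / b with hq
  set s := y % P with hs
  have ey : y = P * b * q + P * r + s := by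
    rw [← e1, ← e2]; ring
  rcases h' with h | h
  · refine ⟨q, ?_⟩
    have e3 : (y:ℤ) - ((P * b : ℕ) : ℤ) * q = ((P * r + s : ℕ) : ℤ) := by
      rw [ey]; push_cast; ring
    rw [e3, abs_of_nonneg (by positivity)]
    have : P * r + s ≤ P * M := by nlinarith
    exact_mod_cast this
  · refine ⟨q + 1, ?_⟩
    obtain ⟨t, ht⟩ := Nat.exists_eq_add_of_lt l2
    have e3 : (y:ℤ) - ((P * b : ℕ) : ℤ) * (q+1) = (s:ℤ) - ((P * (t+1) : ℕ) : ℤ) := by
      have e4 : ((b : ℕ) : ℤ) = r + t + 1 := by exact_mod_cast ht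
      have e5 : ((P * b : ℕ) : ℤ) = P * (r + t + 1) := by rw [Nat.cast_mul, e4]
      have e6 : (y : ℤ) = ((P * b : ℕ) : ℤ) * q + P * r + s := by exact_mod_cast ey
      rw [e6, e5]; push_cast; ring
    rw [e3, abs_le]
    have h1 : t + 1 ≤ M := by omega
    have h2 : P * (t+1) ≤ P * M := Nat.mul_le_mul_left _ h1
    have h3 : s ≤ P * (t+1) := by nlinarith
    have h2' : ((P * (t+1) : ℕ) : ℤ) ≤ ((P * M : ℕ) : ℤ) := by exact_mod_cast h2
    have h3' : (s : ℤ) ≤ ((P * (t+1) : ℕ) : ℤ) := by exact_mod_cast h3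
    have h4' : (0:ℤ) ≤ s := by positivity
    have h5' : (0:ℤ) ≤ ((P * M : ℕ) : ℤ) := by positivity
    constructor <;> linarith

/-- repunit times `4 M` -/
def rep (M b : ℕ) (j : ℕ) : ℕ := 4 * M * ∑ i ∈ Finset.range j, b^i

theorem rep_succ (M b j : ℕ) : rep M b (j+1) = rep M b j + 4 * M * b^j := by
  unfold rep; rw [Finset.sum_range_succ]; ring

theorem rep_le {M b : ℕ} (hb : 2 ≤ b) : ∀ j, rep M b j ≤ 4 * M * b^j
  | 0 => by simp [rep]
  | j+1 => by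
      have ih := rep_le (M := M) hb j
      rw [rep_succ]
      have : 2 * (4 * M * b^j) ≤ b * (4 * M * b^j) := Nat.mul_le_mul_right _ hb
      have e : 4 * M * b^(j+1) = b * (4 * M * b^j) := by rw [pow_succ]; ring
      rw [e]; omega

theorem rep_add (M b j : ℕ) : ∀ n, ∃ B, rep M b (j + n) = rep M b j + b^j * B
  | 0 => ⟨0, by simp⟩
  | n+1 => by
      obtain ⟨B, hB⟩ := rep_add M b j n
      refine ⟨B + 4 * M * b^n, ?_⟩
      rw [← add_assoc, rep_succ, hB, pow_add]; ring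

/-- the scale of the ruler -/
theorem exists_scale (m M b N : ℕ) (hM : 0 < M) (hb : 0 < b) (hcop : Nat.Coprime b M) :
    ∃ S : ℕ, N < S ∧ S ≡ 1 [MOD M] ∧ S ≡ rep M b m [MOD b^m] := by
  have hco : Nat.Coprime M (b^m) := (Nat.Coprime.pow_left m hcop).symm
  obtain ⟨k, hk1, hk2⟩ := Nat.chineseRemainder hco 1 (rep M b m)
  refine ⟨k + M * b^m * (N + 1), ?_, ?_, ?_⟩
  · have : 0 < M * b^m := by positivity
    nlinarith
  · have e : k + M * b^m * (N + 1) = k + M * (b^m * (N+1)) := by ring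
    rw [e]
    exact (Nat.modEq_iff_dvd.2 ⟨-((b^m * (N+1) : ℕ):ℤ), by push_cast; ring⟩).symm.symm.trans hk1
  · have e : k + M * b^m * (N + 1) = k + b^m * (M * (N+1)) := by ring
    rw [e]
    exact (Nat.modEq_iff_dvd.2 ⟨-((M * (N+1) : ℕ):ℤ), by push_cast; ring⟩).trans hk2

open Classical in
set_option maxHeartbeats 1000000 in
/-- SPOIL LEAF: the pair count for the ruler `2^l * S`. -/
theorem pair_count {K r m M b S : ℕ} {Ms : Finset ℕ} (hM : 0 < M) (hb : 2^(K+6) * M < b)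
    (hMs : ∀ k ∈ Ms, 2^(K+2) < k ∧ k ∣ M) (hc : Ms.card ≤ r)
    (hS1 : S ≡ 1 [MOD M]) (hS2 : S ≡ rep M b m [MOD b^m]) (T : ℕ) (hT : 2^K * S ≤ T) :
    ((Finset.range K ×ˢ Finset.range K).filter (fun ij => ij.1 ≠ ij.2 ∧
      BadD Ms M m b (T + 2^ij.2*S - 2^ij.1*S))).card ≤ r + m := by
  have hK : 64 ≤ 2^(K+6) := by
    rw [pow_add]; have := Nat.one_le_two_pow (n := K); omega
  have hb2 : 2 ≤ b := by nlinarith
  set U := (Finset.range K ×ˢ Finset.range K).filter (fun ab => ab.1 ≠ ab.2) with hU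
  set y : ℕ × ℕ → ℕ := fun ab => T + 2^ab.2*S - 2^ab.1*S with hy
  have hUm : ∀ ab ∈ U, ab.1 < K ∧ ab.2 < K ∧ ab.1 ≠ ab.2 := by
    intro ab hab
    rw [hU, Finset.mem_filter, Finset.mem_product, Finset.mem_range, Finset.mem_range] at hab
    exact ⟨hab.1.1, hab.1.2, hab.2⟩
  set F1 : ℕ → Finset (ℕ × ℕ) := fun k => U.filter (fun ab => k ∣ y ab) with hF1
  set F2 : ℕ → Finset (ℕ × ℕ) := fun j => U.filter (fun ab =>
    ¬ (M ≤ y ab / b^j % b ∧ y ab / b^j % b + M + 1 ≤ b)) with hF2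
  have hsub : ((Finset.range K ×ˢ Finset.range K).filter (fun ij => ij.1 ≠ ij.2 ∧
      BadD Ms M m b (T + 2^ij.2*S - 2^ij.1*S))) ⊆
      (Ms.biUnion F1) ∪ (Finset.range m).biUnion F2 := by
    intro ab hab
    rw [Finset.mem_filter] at hab
    obtain ⟨h1', h2', h3'⟩ := hab
    have hUab : ab ∈ U := Finset.mem_filter.2 ⟨h1', h2'⟩
    rw [Finset.mem_union, Finset.mem_biUnion, Finset.mem_biUnion]
    rcases h3' with ⟨k, hk, hkd⟩ | ⟨j, hj, h⟩
    · exact Or.inl ⟨k, hk, Finset.mem_filter.2 ⟨hUab, hkd⟩⟩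
    · exact Or.inr ⟨j, Finset.mem_range.2 hj, Finset.mem_filter.2 ⟨hUab, h⟩⟩
  have c1 : ∀ k ∈ Ms, (F1 k).card ≤ 1 := by
    intro k hk
    obtain ⟨hk1, hkM⟩ := hMs k hk
    have hSk : S ≡ 1 [MOD k] := hS1.of_dvd hkM
    obtain ⟨B, hB⟩ := (Nat.modEq_iff_dvd.1 hSk.symm)
    refine one2 (K := K) (A := 1) (B := B) (Mo := k) (S := S)
      (w := 0) (T := T) ?_ (by norm_num) (by norm_num) ?_ hT
      (fun y => k ∣ y) ?_ (F1 k) ?_
    · push_cast at hB; linarith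
    · have e : 2^(K+2) = 2 * 2^(K+1) := by rw [pow_succ]; ring
      have h1 : 2^(K+1) < k := by
        have := Nat.two_pow_pos (K+1); omega
      have h2 : ((2^(K+1) : ℕ) : ℤ) < (k:ℤ) := by exact_mod_cast h1
      push_cast at h2 ⊢
      linarith
    · rintro y ⟨q, rfl⟩
      exact ⟨q, by push_cast; simp⟩
    · intro ab hab
      rw [hF1, Finset.mem_filter] at hab
      obtain ⟨q1, q2, q3⟩ := hUm _ hab.1
      exact ⟨q1, q2, q3, hab.2⟩
  have c2 : ∀ j ∈ Finset.range m, (F2 j).card ≤ 1 := by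
    intro j hj
    have hj' := Finset.mem_range.1 hj
    obtain ⟨B1, hB1⟩ := rep_add M b (j+1) (m - (j+1))
    have e1 : j + 1 + (m - (j+1)) = m := by omega
    rw [e1] at hB1
    have hSj : S ≡ rep M b (j+1) [MOD b^(j+1)] := by
      have h1 : S ≡ rep M b m [MOD b^(j+1)] := hS2.of_dvd (pow_dvd_pow b (by omega))
      rw [hB1] at h1
      exact h1.trans (Nat.modEq_iff_dvd.2 ⟨-(B1:ℤ), by push_cast; ring⟩)
    obtain ⟨B, hB⟩ := (Nat.modEq_iff_dvd.1 hSj.symm)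
    have hPpos : 0 < b^j := by positivity
    have hle := rep_le (M := M) hb2 j
    have hs := rep_succ M b j
    have a0 : 0 < M * b^j := by positivity
    have e2 : b^(j+1) = b^j * b := pow_succ _ _
    refine one2 (K := K) (A := rep M b (j+1)) (B := B) (Mo := b^(j+1)) (S := S)
      (w := b^j * M) (T := T) ?_ ?_ ?_ ?_ hT
      (fun y => ¬ (M ≤ y / b^j % b ∧ y / b^j % b + M + 1 ≤ b)) ?_ (F2 j) ?_
    · linarith
    · have : 0 < rep M b (j+1) := by rw [hs]; nlinarith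
      exact_mod_cast this
    · have : 2 * (b^j * M) < rep M b (j+1) := by rw [hs]; nlinarith
      exact_mod_cast this
    · have a1 : rep M b (j+1) ≤ 8 * (M * b^j) := by rw [hs]; nlinarith
      have a2 : 2^(K+1) * rep M b (j+1) ≤ 2^(K+1) * (8 * (M * b^j)) := Nat.mul_le_mul_left _ a1
      have a3 : (2^(K+6) * M) * b^j < b * b^j := Nat.mul_lt_mul_of_pos_right hb hPpos
      have a4 : 2^(K+6) = 32 * 2^(K+1) := by rw [pow_add, pow_add]; ring
      have a5 := Nat.two_pow_pos (K+1)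
      have a6 : 2^(K+1) * rep M b (j+1) + 2 * (b^j * M) < b^(j+1) := by
        rw [e2]; rw [a4] at a3
        have a7 : M * b^j ≤ 2^(K+1) * (M * b^j) := Nat.le_mul_of_pos_left _ a5
        nlinarith
      exact_mod_cast a6
    · intro y hy'
      obtain ⟨j0, hj0⟩ := digwin hPpos (by omega : 0 < b) hy'
      refine ⟨j0, ?_⟩
      rw [e2]; exact hj0
    · intro ab hab
      rw [hF2, Finset.mem_filter] at hab
      obtain ⟨q1, q2, q3⟩ := hUm _ hab.1
      exact ⟨q1, q2, q3, hab.2⟩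
  refine (Finset.card_le_card hsub).trans ?_
  refine (Finset.card_union_le _ _).trans ?_
  have b1 : (Ms.biUnion F1).card ≤ Ms.card * 1 := Finset.card_biUnion_le_card_mul _ _ _ c1
  have b2 : ((Finset.range m).biUnion F2).card ≤ (Finset.range m).card * 1 :=
    Finset.card_biUnion_le_card_mul _ _ _ c2
  rw [Finset.card_range] at b2
  omega


theorem wide {K S N1 : ℕ} (hS : 4 * N1 < S) (i j k l : ℕ) (hi : i < K) (hj : j < K) (hk : k < K)
    (hl : l < K) (hij : i ≠ j)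
    (h : |(((2^i*S : ℕ):ℤ) - ((2^j*S : ℕ):ℤ)) - (((2^k*S : ℕ):ℤ) - ((2^l*S : ℕ):ℤ))| ≤ 4*(N1:ℤ)) :
    i = k ∧ j = l := by
  obtain ⟨D, hDdef⟩ : ∃ D : ℤ, D = 2^i - 2^j - 2^k + 2^l := ⟨_, rfl⟩
  have e1 : (((2^i*S : ℕ):ℤ) - ((2^j*S : ℕ):ℤ)) - (((2^k*S : ℕ):ℤ) - ((2^l*S : ℕ):ℤ)) = D * S := by
    rw [hDdef]; push_cast; ring
  have hS' : 4*(N1:ℤ) < S := by exact_mod_cast hS
  have hN0 : (0:ℤ) ≤ N1 := by positivity
  rw [e1, abs_mul, abs_of_nonneg (by positivity : (0:ℤ) ≤ (S:ℤ))] at h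
  have hD0 : D = 0 := by
    by_contra hne
    have h1D : 1 ≤ |D| := Int.one_le_abs hne
    nlinarith
  have h9 : (2:ℕ)^i + 2^l = 2^j + 2^k := by
    have : (2:ℤ)^i + 2^l = 2^j + 2^k := by linarith
    exact_mod_cast this
  rcases sid i j k l h9 with ⟨e1, _⟩ | ⟨e1, e2⟩
  · exact absurd e1 hij
  · exact ⟨e1, e2.symm⟩

open Classical in
/-- **SPOIL LEAF** of #13673. -/
theorem sp (K N1 r m M b : ℕ) (Ms : Finset ℕ) (hM : 0 < M) (hb : 2^(K+6) * M < b)
    (hcop : Nat.Coprime b M) (hMs : ∀ k ∈ Ms, 2^(K+2) < k ∧ k ∣ M) (hc : Ms.card ≤ r) :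
    ∃ (c : ℕ → ℕ) (T0 : ℕ), (∀ i < K, c i ≤ T0) ∧ (∀ i j, i < j → c i + 4*N1 < c j) ∧
      (∀ i j k l, i < K → j < K → k < K → l < K → i ≠ j →
        |((c i:ℤ) - c j) - (c k - c l)| ≤ 4*(N1:ℤ) → i = k ∧ j = l) ∧
      ∀ T, T0 ≤ T → ((Finset.range K ×ˢ Finset.range K).filter (fun ij => ij.1 ≠ ij.2 ∧
        BadD Ms M m b (T + c ij.2 - c ij.1))).card ≤ r + m := by
  have hb0 : 0 < b := by omega
  obtain ⟨S, hS, hS1, hS2⟩ := exists_scale m M b (4*N1) hM hb0 hcop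
  refine ⟨fun l => 2^l*S, 2^K*S, ?_, ?_, ?_, ?_⟩
  · intro i hi
    exact Nat.mul_le_mul_right _ (Nat.pow_le_pow_right (by norm_num) hi.le)
  · intro i j hij
    have h1 : 2^(i+1) ≤ 2^j := Nat.pow_le_pow_right (by norm_num) hij
    have h2 : 2^(i+1) * S ≤ 2^j * S := Nat.mul_le_mul_right _ h1
    have h3 : 2^(i+1) * S = 2^i * S + 2^i * S := by rw [pow_succ]; ring
    have h4 : S ≤ 2^i * S := Nat.le_mul_of_pos_left _ (Nat.two_pow_pos i)
    show 2^i*S + 4*N1 < 2^j*S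
    omega
  · intro i j k l hi hj hk hl hij h
    exact wide hS i j k l hi hj hk hl hij h
  · intro T hT
    exact pair_count hM hb hMs hc hS1 hS2 T hT

open Classical in
/-- **746's wall form (#13721)**: the number of spoiled ruler places. -/
theorem walls {K N1 T0 C W z p : ℕ} {c : ℕ → ℕ} {BadN : ℕ → Prop} {Wl : ℕ → Prop}
    (hcT : ∀ i < K, c i ≤ T0)
    (hgol : ∀ i j k l, i < K → j < K → k < K → l < K → i ≠ j →
        |((c i:ℤ) - c j) - (c k - c l)| ≤ 4*(N1:ℤ) → i = k ∧ j = l)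
    (hcount : ∀ T, T0 ≤ T → ((Finset.range K ×ˢ Finset.range K).filter (fun ij => ij.1 ≠ ij.2 ∧
        BadN (T + c ij.2 - c ij.1))).card ≤ C)
    (hsp : ∀ s t, Wl s → Wl t → s < t → s + W < t) (hW : 2*T0 + 2*N1 ≤ W)
    (hz : p + 2*T0 ≤ z) :
    ((Finset.range K).filter (fun k => ∃ j < K, j ≠ k ∧
      ((∃ t, Wl t ∧ t + c j ≤ z + c k + N1 ∧ z + c k ≤ t + c j + N1) ∨
       (∃ t, Wl t ∧ z + c k ≤ t + c j ∧ (∀ s, Wl s → z + c k ≤ s + c j → t ≤ s) ∧
          BadN (t + c j - c k - p))))).card ≤ 1 + 2*C := by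
  obtain ⟨t1, t2, ht1, ht2, htt⟩ : ∃ t1 t2 : ℕ, p + T0 ≤ t1 ∧ p + T0 ≤ t2 ∧
      ∀ k j t, k < K → j < K → Wl t → z + c k ≤ t + c j →
        (∀ s, Wl s → z + c k ≤ s + c j → t ≤ s) → t = t1 ∨ t = t2 := by
    by_cases h1 : ∃ t, Wl t ∧ z ≤ t + T0
    · have f1 := Nat.find_spec h1
      by_cases h2 : ∃ t, Wl t ∧ Nat.find h1 < t
      · have f2 := Nat.find_spec h2
        refine ⟨Nat.find h1, Nat.find h2, by omega, by omega, ?_⟩
        intro k j t hk hj hWt h3 h4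
        have ck := hcT k hk
        have cj := hcT j hj
        have g1 : Nat.find h1 ≤ t := Nat.find_min' h1 ⟨hWt, by omega⟩
        rcases Nat.eq_or_lt_of_le g1 with g | g
        · exact Or.inl g.symm
        · right
          have g2 : Nat.find h2 ≤ t := Nat.find_min' h2 ⟨hWt, g⟩
          have g3 := hsp _ _ f1.1 f2.1 f2.2
          have g4 := h4 _ f2.1 (by omega)
          omega
      · refine ⟨Nat.find h1, Nat.find h1, by omega, by omega, ?_⟩
        intro k j t hk hj hWt h3 h4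
        have ck := hcT k hk
        have cj := hcT j hj
        have g1 : Nat.find h1 ≤ t := Nat.find_min' h1 ⟨hWt, by omega⟩
        rcases Nat.eq_or_lt_of_le g1 with g | g
        · exact Or.inl g.symm
        · exact absurd ⟨t, hWt, g⟩ h2
    · refine ⟨p + T0, p + T0, le_refl _, le_refl _, ?_⟩
      intro k j t hk hj hWt h3 h4
      have cj := hcT j hj
      exact absurd ⟨t, hWt, by omega⟩ h1
  set PE := (Finset.range K ×ˢ Finset.range K).filter (fun kj : ℕ × ℕ => kj.1 ≠ kj.2 ∧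
    ∃ t, Wl t ∧ t + c kj.2 ≤ z + c kj.1 + N1 ∧ z + c kj.1 ≤ t + c kj.2 + N1) with hPE
  set PB : ℕ → Finset (ℕ × ℕ) := fun t => (Finset.range K ×ˢ Finset.range K).filter
    (fun kj : ℕ × ℕ => kj.1 ≠ kj.2 ∧ BadN (t - p + c kj.2 - c kj.1)) with hPB
  have hsub : ((Finset.range K).filter (fun k => ∃ j < K, j ≠ k ∧
      ((∃ t, Wl t ∧ t + c j ≤ z + c k + N1 ∧ z + c k ≤ t + c j + N1) ∨
       (∃ t, Wl t ∧ z + c k ≤ t + c j ∧ (∀ s, Wl s → z + c k ≤ s + c j → t ≤ s) ∧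
          BadN (t + c j - c k - p))))) ⊆ ((PE ∪ PB t1) ∪ PB t2).image Prod.fst := by
    intro k hk
    rw [Finset.mem_filter, Finset.mem_range] at hk
    obtain ⟨hkK, j, hjK, hjk, h | ⟨t, hWt, h1, h2, h3⟩⟩ := hk
    · refine Finset.mem_image.2 ⟨(k, j), ?_, rfl⟩
      refine Finset.mem_union_left _ (Finset.mem_union_left _ ?_)
      exact Finset.mem_filter.2 ⟨Finset.mem_product.2
        ⟨Finset.mem_range.2 hkK, Finset.mem_range.2 hjK⟩, Ne.symm hjk, h⟩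
    · refine Finset.mem_image.2 ⟨(k, j), ?_, rfl⟩
      have ck := hcT k hkK
      have cj := hcT j hjK
      have e : t + c j - c k - p = t - p + c j - c k := by
        rcases htt k j t hkK hjK hWt h1 h2 with g | g <;> omega
      rw [e] at h3
      have hmem : (k, j) ∈ PB t := Finset.mem_filter.2 ⟨Finset.mem_product.2
        ⟨Finset.mem_range.2 hkK, Finset.mem_range.2 hjK⟩, Ne.symm hjk, h3⟩
      rcases htt k j t hkK hjK hWt h1 h2 with g | g
      · rw [g] at hmem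
        exact Finset.mem_union_left _ (Finset.mem_union_right _ hmem)
      · rw [g] at hmem
        exact Finset.mem_union_right _ hmem
  have cE : PE.card ≤ 1 := by
    rw [Finset.card_le_one]
    rintro ⟨k, j⟩ h1 ⟨k', j'⟩ h2
    rw [hPE, Finset.mem_filter, Finset.mem_product, Finset.mem_range, Finset.mem_range] at h1 h2
    obtain ⟨⟨hk, hj⟩, hkj, t, ht, u1, u2⟩ := h1
    obtain ⟨⟨hk', hj'⟩, hkj', t', ht', u1', u2'⟩ := h2
    simp only at hk hj hkj u1 u2 hk' hj' hkj' u1' u2'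
    have ck := hcT k hk
    have cj := hcT j hj
    have ck' := hcT k' hk'
    have cj' := hcT j' hj'
    have ett : t = t' := by
      rcases Nat.lt_trichotomy t t' with g | g | g
      · have := hsp _ _ ht ht' g; omega
      · exact g
      · have := hsp _ _ ht' ht g; omega
    have := hgol k j k' j' hk hj hk' hj' hkj (by rw [abs_le]; constructor <;> omega)
    exact Prod.ext this.1 this.2
  have cB1 : (PB t1).card ≤ C := hcount _ (by omega)
  have cB2 : (PB t2).card ≤ C := hcount _ (by omega)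
  refine (Finset.card_le_card hsub).trans ?_
  refine Finset.card_image_le.trans ?_
  refine (Finset.card_union_le _ _).trans ?_
  have := Finset.card_union_le PE (PB t1)
  omega

end Crest.Agent.R320.Sp_421
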