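import Crest.Agent.R320.SemTop_727
import Crest.Agent.R320.SemJ_832
import Crest.Agent.R320.G1_424
import Crest.Agent.R320.Sp_421
import Crest.Agent.R320.ExactR_237
import Crest.Agent.R320.OutRule_480
import Crest.Agent.R320.P4_933
import Crest.Agent.R320.RegCongr_253
import Crest.Agent.R320.Fin_869

/-!
# Row 320: end-to-end assembly (helper297)

`SemTop_727.top` + `SemJ_832` + `G1_424.G1` + `Sp_421.sp` + `ExactR_237.exact_gadget` +
`OutRule_480` + `P4_933` + `RegCongr_253` + `Fin_869.template`.
-/

set_option autoImplicit false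

namespace Crest.Agent.R320.Fin_297

open Crest.RegLang Crest.Agent.R320.Hk_851 Crest.Agent.R320.Sp_421

/-- words of the module -/
def actV {S : Type} [Monoid S] (v : S → ZMod 2) (s : S) : S → ZMod 2 := fun x => v (s * x)

theorem actV_faith {S : Type} [Monoid S] (s t : S) (h : ∀ v, actV v s = actV v t) : s = t := by
  classical
  have h1 := congrFun (h (fun x => if x = s then 1 else 0)) 1
  simp only [actV, mul_one, if_pos] at h1
  by_contra hne
  rw [if_neg (fun e => hne e.symm)] at h1
  exact one_ne_zero h1

open Classical in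
/-- the data -/
theorem exists_dat (n0 : ℕ) (S V : Type) [Monoid S] [Finite S] [AddCommGroup V] [Finite V]
    (act : V → S → V) (f : Fin n0 → S) :
    ∃ (D : SemJ_832.Dat (Fin n0) S V) (b M m : ℕ), 0 < M * b ^ m ∧
      D.phi = (fun w => (w.map f).prod) ∧ D.act = act ∧
      (∀ P, D.Wo P → D.n ≤ P.length) ∧
      (∀ (r : ℕ) (L : Language (Fin n0)), L.IsRegular →
        (∀ w ∈ L, ∀ F : Finset ℕ, (∀ x ∈ F, x ≤ w.length ∧ D.Wo (w.take x)) → F.card ≤ r) →
        HL 1 L) ∧
      (∀ X Y : List (Fin n0), b ^ m ≤ X.length → b ^ m ≤ Y.length →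
        X.take (b ^ m) = Y.take (b ^ m) →
        X.length % (M * b ^ m) = Y.length % (M * b ^ m) →
        ((X.drop (b ^ m)).map f).prod = ((Y.drop (b ^ m)).map f).prod → D.nu1 X = D.nu1 Y) ∧
      (∀ X Y : List (Fin n0), X.take D.p0 = Y.take D.p0 →
        D.nu2 (X.take D.p0) = D.nu2 (Y.take D.p0)) := by
  haveI : Fintype S := Fintype.ofFinite S
  haveI : Fintype V := Fintype.ofFinite V
  obtain ⟨m, r, hG⟩ := Crest.Agent.R320.G1_424.G1 S V act
  obtain ⟨K, hE⟩ := Crest.Agent.R320.ExactR_237.exact_gadget (Fin n0) S V f act (2 * (r + m) + 2)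
  obtain ⟨Ms, M, hcard, hMs, hM, hG2⟩ := hG (2 ^ (K + 2))
  set b : ℕ := 2 ^ (K + 6) * M + 1 with hb
  have hb0 : 0 < b := by omega
  have hcop : Nat.Coprime b M := by
    rw [hb]
    have : Nat.Coprime (1 + 2 ^ (K + 6) * M) M := by
      rw [Nat.coprime_add_mul_right_left]; exact Nat.coprime_one_left M
    rwa [Nat.add_comm] at this
  obtain ⟨lam, rho, nu, hlen, hsound, hcompl, hlocal⟩ :=
    hG2 b hb0 hcop (Fin n0) (fun w => (w.map f).prod) (by intro u v; simp)
  obtain ⟨c, T0, hc1, hc2, hc3, hc4⟩ := sp K (b ^ m) r m M b Ms hM (by omega) hcop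
    (fun k hk => ⟨(hMs k hk).1, (hMs k hk).2.2⟩) hcard
  obtain ⟨lam2, rho2, nu2, hs2, hcm2⟩ := hE c (fun i j hij _ => by have := hc2 i j hij; omega)
  obtain ⟨n, Wo, hn, hWlen, hWloc, hWgap, hWHL⟩ :=
    OutRule_480.outer_rule_left (α := Fin n0) (2 * T0 + 2 * b ^ m + 1)
  refine ⟨{ phi := fun w => (w.map f).prod
            act := act
            Wo := Wo
            n := n
            W := 2 * T0 + 2 * b ^ m
            z := T0 + n + 2 * b ^ m + 2 * T0 + 1
            p0 := T0
            N := b ^ m
            K := K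
            C0 := r + m
            Lam := T0
            BadT := BadD Ms M m b
            lam := lam
            rho := rho
            nu1 := nu
            c := c
            lam2 := lam2
            rho2 := fun k Q => rho2 k Q 1
            nu2 := fun u => nu2 u 1
            hloc := hWloc
            hgap := ?_
            g_len := fun p v h => (hlen p v h).le
            g_sound := fun p q v r h1 h2 => hsound p q v r h1 h2
            g_comp := ?_
            e_sound := ?_
            e_comp := ?_
            c_le := hc1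
            rulerE := ?_
            rulerB := ?_
            h_p0 := le_rfl
            z_pos := by omega
            h_z := by omega
            h_W := by omega }, b, M, m, by positivity, rfl, rfl, hWlen, hWHL, ?_, ?_⟩
  · intro X t t' htt ht' h1 h2
    have h3 := hWgap (X.take t') (t' - t) h2 (by omega) (by rw [List.length_take]; omega)
      (by
        rw [List.length_take, Nat.min_eq_left ht', List.take_take]
        rw [show min (t' - (t' - t)) t' = t by omega]
        exact h1)
    omega
  · intro u hu hB v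
    have hB1 : ∀ k ∈ Ms, ¬ k ∣ u.length := fun k hk hd => hB (Or.inl ⟨k, hk, hd⟩)
    have hB2 : ∀ i < m, M ≤ (u.length / b ^ i) % b ∧ (u.length / b ^ i) % b + M + 1 ≤ b := by
      intro i hi
      by_contra h
      exact hB (Or.inr ⟨i, hi, h⟩)
    exact hcompl u hB1 hB2 v
  · intro k hk P Q v b' hP h1 h2
    have := hs2 k hk P Q 1 v b' hP h1 h2
    rw [mul_one] at this
    exact this
  · intro u v hu
    obtain ⟨I, hI1, hI2⟩ := hcm2 u 1 v hu
    exact ⟨I, hI1, hI2⟩
  · intro i hi j hj i' hi' j' hj' hij hij' h1 h2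
    refine hc3 i j i' j' hi hj hi' hj' hij ?_
    generalize b ^ m = N1 at h1 h2 ⊢
    rw [abs_le]
    constructor <;> omega
  · intro T hT1 hT2
    refine le_trans (Finset.card_le_card_of_injOn Prod.swap ?_ ?_) (hc4 T hT2)
    · intro ab hab
      simp only [Finset.coe_filter, Finset.mem_product, Finset.mem_range, Set.mem_setOf_eq] at hab ⊢
      exact ⟨⟨hab.1.2, hab.1.1⟩, fun e => hab.2.1 e.symm, hab.2.2⟩
    · exact Prod.swap_injective.injOn
  · intro X Y h1 h2 h3 h4 h5
    exact (hlocal X Y h1 h2 h3 h4 h5).1
  · intro X Y h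
    rw [h]

theorem values (n0 : ℕ) (S : Type) [Monoid S] [Finite S] (f : Fin n0 → S) (s : S) :
    HL 3 ({w | (w.map f).prod = s} : Language (Fin n0)) := by
  classical
  obtain ⟨D, b, M, m, hpos, hphi, hact, hlen, hHL, hnu1, -⟩ :=
    exists_dat n0 S (S → ZMod 2) actV f
  have hz0 := D.z_pos
  have hXXreg : Language.IsRegular ({X | X ∈ SemJ_832.XX D.Wo D.z} : Language (Fin n0)) := by
    have h1 : HL 1 ({X | P4_933.XX D.Wo D.z X} : Language (Fin n0)) :=
      P4_933.hl_XX0 D.hloc hlen
    have h2 := Crest.Agent.R320.Reg_852.HL.isRegular h1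
    have e : ({X | X ∈ SemJ_832.XX D.Wo D.z} : Language (Fin n0)) =
        ({X | P4_933.XX D.Wo D.z X} : Language (Fin n0)) := by
      ext X
      constructor
      · rintro ⟨h3, h4, h5⟩
        exact ⟨h4, h3, fun t ht hz => h5 t hz ht⟩
      · rintro ⟨h3, h4, h5⟩
        exact ⟨h4, h3, fun t hz ht => h5 t ht hz⟩
    rw [e]; exact h2
  have hNBreg : Language.IsRegular ({w | ∀ X ∈ SemJ_832.XX D.Wo D.z, ¬ X <+: w} :
      Language (Fin n0)) := by
    have h1 : HL 1 ({u | P4_933.NB D.Wo D.z u} : Language (Fin n0)) :=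
      P4_933.hl_NB0 D.hloc hlen
    have h2 := Crest.Agent.R320.Reg_852.HL.isRegular h1
    have e : ({w | ∀ X ∈ SemJ_832.XX D.Wo D.z, ¬ X <+: w} : Language (Fin n0)) =
        ({u | P4_933.NB D.Wo D.z u} : Language (Fin n0)) := by
      ext w
      have h3 := P4_933.NB_iff D.Wo D.z w
      constructor
      · intro h4
        refine h3.2 fun P hP hX => h4 P ⟨hX.2.1, hX.1, fun t hz ht => hX.2.2 t ht hz⟩ hP
      · intro h4 X hX hp
        exact h3.1 h4 X hp ⟨hX.2.1, hX.1, fun t ht hz => hX.2.2 t hz ht⟩
    rw [e]; exact h2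
  have hTreg : ∀ x y : S → ZMod 2, Language.IsRegular ({X | D.T x X = y} : Language (Fin n0)) := by
    intro x y
    refine RegCongr_253.regular_of_congr f (D.p0 + b ^ m) (M * b ^ m) hpos _ ?_
    intro q q' h1 h2 h3 h4 h5 h6
    have e1 : q.take D.p0 = q'.take D.p0 := by
      have := congrArg (List.take D.p0) h3
      rwa [List.take_take, List.take_take, Nat.min_eq_left (by omega)] at this
    have e2 : (q.drop D.p0).take (b ^ m) = (q'.drop D.p0).take (b ^ m) := by
      have := congrArg (List.drop D.p0) h3
      rw [List.drop_take, List.drop_take] at this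
      simpa using this
    have e3 : ((q.drop D.p0).drop (b ^ m)) = q.drop (D.p0 + b ^ m) := by rw [List.drop_drop]
    have e3' : ((q'.drop D.p0).drop (b ^ m)) = q'.drop (D.p0 + b ^ m) := by rw [List.drop_drop]
    have e4 : ((q.drop D.p0).map f).prod = ((q'.drop D.p0).map f).prod := by
      rw [← List.take_append_drop (b ^ m) (q.drop D.p0),
        ← List.take_append_drop (b ^ m) (q'.drop D.p0), List.map_append, List.map_append,
        List.prod_append, List.prod_append, e2, e3, e3', h5]
    have e5 : (q.drop D.p0).length % (M * b ^ m) = (q'.drop D.p0).length % (M * b ^ m) := by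
      rw [List.length_drop, List.length_drop]
      have h7 : q.length ≡ q'.length [MOD (M * b ^ m)] := h4
      have h8 : (q.length - D.p0) + D.p0 ≡ (q'.length - D.p0) + D.p0 [MOD (M * b ^ m)] := by
        rw [Nat.sub_add_cancel (by omega), Nat.sub_add_cancel (by omega)]; exact h7
      exact Nat.ModEq.add_right_cancel' _ h8
    have e6 : D.nu1 (q.drop D.p0) = D.nu1 (q'.drop D.p0) := by
      refine hnu1 _ _ (by rw [List.length_drop]; omega) (by rw [List.length_drop]; omega) e2 e5 ?_
      rw [e3, e3', h5]
    have e7 : D.T x q = D.T x q' := by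
      unfold SemJ_832.Dat.T
      rw [e1, e6, hphi]
      simp only
      rw [e4]
    have h6' : D.T x q = y := h6
    change D.T x q' = y
    rw [← e7]; exact h6'
  let Sc : SemTop_727.Sch (Fin n0) (S → ZMod 2) :=
    { XX := D.Z, T := D.T, L1 := D.L1, L2 := D.L2 }
  have key := SemTop_727.top (k := 1) (α := Fin n0) (S := S) (V := S → ZMod 2) actV
    (fun a b s => by funext x; simp [actV]) (fun v => by funext x; simp [actV])
    (fun v s t => by funext x; simp [actV, mul_assoc]) (fun s t h => actV_faith s t h) f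
    (fun X => actV (D.nu2 (X.take D.p0)) ((X.drop D.p0).map f).prod + D.nu1 (X.drop D.p0))
    Sc ?_ ?_ ?_ ?_ ?_ ?_ ?_ s
  · exact key
  · -- hT
    intro v X
    show D.T v X = _
    unfold SemJ_832.Dat.T
    rw [hphi, hact]
    simp only
    have e : (X.map f).prod = ((X.take D.p0).map f).prod * ((X.drop D.p0).map f).prod := by
      rw [← List.prod_append, ← List.map_append, List.take_append_drop]
    rw [e]
    funext x
    simp only [actV, Pi.add_apply, mul_assoc]
    ring
  · -- PCode
    refine ⟨fun h => ?_, fun X hX Y hY hp => ?_⟩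
    · have h1 : D.z ≤ ([] : List (Fin n0)).length := h.1
      simp at h1; omega
    · obtain ⟨R, rfl⟩ := hp
      by_contra hne
      have hR : R ≠ [] := by
        rintro rfl
        exact hne (by simp)
      have hRl : 0 < R.length := List.length_pos_iff.2 hR
      refine hY.2.2 X.length hX.1 (by rw [List.length_append]; omega) ?_
      rw [List.take_left]; exact hX.2.1
  · -- hfib
    intro x y
    refine hHL (D.z + 1) _ ?_ ?_
    · have h1 := hXXreg.inf (hTreg x y)
      exact h1
    · intro w hw F hF
      have hw1 : w ∈ SemJ_832.XX D.Wo D.z := hw.1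
      have hsub : F ⊆ insert w.length (Finset.range D.z) := by
        intro t ht
        obtain ⟨h1, h2⟩ := hF t ht
        rw [Finset.mem_insert, Finset.mem_range]
        by_contra hcon
        push Not at hcon
        exact hw1.2.2 t hcon.2 (by omega) h2
      refine (Finset.card_le_card hsub).trans ((Finset.card_insert_le _ _).trans ?_)
      rw [Finset.card_range]
  · -- L1 finite
    intro x
    refine (List.finite_length_le (Fin n0) (D.p0 + D.N)).subset ?_
    rintro P ⟨h1, h2⟩
    have h3 := D.g_len _ _ h2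
    rw [List.length_drop] at h3
    show P.length ≤ _
    omega
  · -- L2 finite
    intro x
    refine (List.finite_length_le (Fin n0) D.Lam).subset ?_
    rintro P ⟨k, hk, h1, h2⟩
    show P.length ≤ _
    rw [h1]; exact D.c_le k hk
  · -- hC2
    intro X1 h1 X2 h2 x
    exact D.hC2 (X1 := X1) (X2 := X2) h1 h2 x
  · -- tail
    intro s'
    have h1 : HL 1 ({w | (∀ X ∈ D.Z, ¬ X <+: w) ∧ (w.map f).prod = s'} : Language (Fin n0)) := by
      refine hHL D.z _ ?_ ?_
      · have h2 : Language.IsRegular ({w | (w.map f).prod = s'} : Language (Fin n0)) :=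
          Crest.Agent.R320.Reg_852.isRegular_prod f s'
        exact hNBreg.inf h2
      · intro w hw F hF
        have hw1 : ∀ X ∈ SemJ_832.XX D.Wo D.z, ¬ X <+: w := hw.1
        have h3 : P4_933.NB D.Wo D.z w :=
          (P4_933.NB_iff D.Wo D.z w).2 fun P hP hX =>
            hw1 P ⟨hX.2.1, hX.1, fun t hz ht => hX.2.2 t ht hz⟩ hP
        have hsub : F ⊆ Finset.range D.z := by
          intro t ht
          obtain ⟨h1, h2⟩ := hF t ht
          rw [Finset.mem_range]
          by_contra hcon
          push Not at hcon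
          exact h3 t h1 hcon h2
        refine (Finset.card_le_card hsub).trans ?_
        rw [Finset.card_range]
    exact h1.mono (by norm_num)

theorem result (α : Type*) [Finite α] (L : Language α) (hL : L.IsRegular) :
    ∃ e : Crest.RegLang.GRegExp α, e.height ≤ 3 ∧ e.lang = L :=
  Fin_869.template (fun n S _ _ f s => values n S f s) α L hL

end Crest.Agent.R320.Fin_297
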