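import Crest.Agent.R320.Join_3
import Crest.Agent.R320.Grid_899
import Crest.Agent.R320.Thin_963
import Crest.Agent.R320.ExactR_237

/-!
# Row 320: constants (helper3): every fibre of a morphism into a finite monoid has height ≤ 3
-/

set_option autoImplicit false

namespace Crest.Agent.R320.Fin_3

open Crest.RegLang Crest.Agent.R320.Hk_851 Crest.Agent.R320.Join_3
open Crest.Agent.R320.Grid_899 (G Am)

theorem exists_primes (k B : ℕ) : ∃ q : Fin k → ℕ, (∀ j, (q j).Prime ∧ B ≤ q j) ∧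
    Function.Injective q := by
  refine ⟨fun j => Nat.nth Nat.Prime (B + j), fun j => ⟨?_, ?_⟩, ?_⟩
  · exact Nat.nth_mem_of_infinite Nat.infinite_setOfPred_prime _
  · have h := (Nat.nth_strictMono Nat.infinite_setOfPred_prime).le_apply (x := B + (j : ℕ))
    exact le_trans (Nat.le_add_right _ _) h
  · intro i j h
    have := (Nat.nth_strictMono Nat.infinite_setOfPred_prime).injective h
    exact Fin.ext (by omega)

theorem sum_G (κ i : ℕ) (hκ : 1 ≤ κ) : ∑ j ∈ Finset.range (i + 1), 2 ^ (κ * j) ≤ 2 * 2 ^ (κ * i) := by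
  induction i with
  | zero => simp
  | succ i ih =>
    rw [Finset.sum_range_succ]
    have h1 : 2 * 2 ^ (κ * i) ≤ 2 ^ (κ * (i + 1)) := by
      rw [Nat.mul_add, Nat.mul_one, pow_add, Nat.mul_comm]
      refine Nat.mul_le_mul_left _ ?_
      calc 2 = 2 ^ 1 := by norm_num
        _ ≤ 2 ^ κ := Nat.pow_le_pow_right (by norm_num) hκ
    omega

theorem growth (K Ms κ i : ℕ) (hκ : K + 5 + Ms ≤ κ) :
    2 ^ (K + 4) * ∑ j ∈ Finset.range (i + 1), Ms * 2 ^ (κ * j) ≤ 2 ^ (κ * (i + 1)) := by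
  rw [← Finset.mul_sum]
  have h1 := sum_G κ i (by omega)
  calc 2 ^ (K + 4) * (Ms * ∑ j ∈ Finset.range (i + 1), 2 ^ (κ * j))
      ≤ 2 ^ (K + 4) * (2 ^ Ms * (2 * 2 ^ (κ * i))) := by
        refine Nat.mul_le_mul_left _ (Nat.mul_le_mul ?_ h1)
        exact Nat.lt_two_pow_self.le
    _ = 2 ^ (K + 5 + Ms) * 2 ^ (κ * i) := by ring
    _ ≤ 2 ^ κ * 2 ^ (κ * i) := Nat.mul_le_mul_right _ (Nat.pow_le_pow_right (by norm_num) hκ)
    _ = 2 ^ (κ * (i + 1)) := by rw [← pow_add]; congr 1; ring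

theorem fin (α : Type) [Finite α] (S : Type) [Monoid S] [Finite S] (φ : α → S) (s : S) :
    HL 3 ({w | (w.map φ).prod = s} : Language α) := by
  classical
  haveI : Fintype S := Fintype.ofFinite S
  let V : Type := S → ZMod 2
  let act : V → S → V := fun v t => fun x => v (t * x)
  obtain ⟨k, m, HG⟩ := Grid_899.grid_gadget_reg S V act
  set C0 : ℕ := k + m with hC0
  obtain ⟨K, HE⟩ := ExactR_237.exact_gadget α S V φ act (2 * C0 + 2)
  obtain ⟨q, hq, hqi⟩ := exists_primes k (2 ^ (K + 1) + 3)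
  set Ms : ℕ := ∏ j, q j with hMs
  have hMs0 : 0 < Ms := Finset.prod_pos fun j _ => (hq j).1.pos
  set κ : ℕ := K + 5 + Ms with hκ
  have hodd : ∀ j, Odd (q j) := fun j => (hq j).1.odd_of_ne_two (by
    have h0 : 3 ≤ q j := le_trans (Nat.le_add_left _ _) (hq j).2
    omega)
  have hcopq : Pairwise (fun i j => Nat.Coprime (q i) (q j)) := by
    intro i j hij
    exact (Nat.coprime_primes (hq i).1 (hq j).1).2 fun h => hij (hqi h)
  have HG' := HG q hodd hcopq κ α (ph φ) (ph_append φ)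
  simp only [← hMs] at HG'
  obtain ⟨lam, rho, nu, h1, h2, h3, h4, h5⟩ := HG'
  set Mp : ℕ := Ms * G κ m with hMp
  have hMp0 : 0 < Mp := Nat.mul_pos hMs0 (Grid_899.G_pos m)
  let MsF : Finset ℕ := Finset.univ.image q
  have hMsF : MsF.card ≤ k := le_trans Finset.card_image_le (by simp)
  let GZ : ℕ → ℤ := fun i => (G κ i : ℤ)
  let cZ : ℕ → ℤ := fun i => ((Ms * G κ i : ℕ) : ℤ)
  let AZ : ℕ → ℤ := fun i => (Am Ms κ i : ℤ)
  let BadT : ℕ → Prop := fun T => Thin963.BadT MsF m GZ cZ AZ (T : ℤ)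
  have hmemF : ∀ p ∈ MsF, ∃ j, q j = p := fun p hp => by
    obtain ⟨j, -, hj⟩ := Finset.mem_image.1 hp; exact ⟨j, hj⟩
  set N1 : ℕ := Am Ms κ m + 1 with hN1
  obtain ⟨X, hX1, hX2, hX3⟩ := Thin963.thin K m MsF GZ cZ AZ
    (by
      intro p hp
      obtain ⟨j, rfl⟩ := hmemF p hp
      exact ⟨(hq j).1, le_trans (Nat.le_add_right _ _) (hq j).2⟩)
    (by
      intro p hp
      obtain ⟨j, rfl⟩ := hmemF p hp
      change IsCoprime ((q j : ℕ) : ℤ) ((2 ^ (κ * m) : ℕ) : ℤ)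
      rw [Nat.isCoprime_iff_coprime]
      exact Nat.Coprime.pow_right _ (Nat.coprime_two_right.2 (hodd j)))
    (Int.natCast_pos.2 (Grid_899.G_pos (κ := κ) m))
    (fun i j hij => Int.natCast_dvd_natCast.2 (Grid_899.G_dvd (κ := κ) hij))
    (fun i => Int.natCast_pos.2 (Nat.mul_pos hMs0 (Grid_899.G_pos (κ := κ) i)))
    (fun i => Int.natCast_dvd_natCast.2 (Dvd.intro_left Ms rfl))
    (by
      intro i hi
      have h0 := growth K Ms κ i le_rfl
      change (2 : ℤ) ^ (K + 4) * ∑ j ∈ Finset.range (i + 1), ((Ms * 2 ^ (κ * j) : ℕ) : ℤ)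
        ≤ ((2 ^ (κ * (i + 1)) : ℕ) : ℤ)
      exact_mod_cast h0)
    (2 * N1 + 1)
  obtain ⟨Xn, rfl⟩ : ∃ Xn : ℕ, X = (Xn : ℤ) := ⟨X.toNat, (Int.toNat_of_nonneg hX2.le).symm⟩
  have hXn : 2 * N1 + 1 ≤ Xn := by exact_mod_cast hX1
  let c : ℕ → ℕ := fun j => Xn * 2 ^ j
  have hcmono : ∀ i j, i < j → c i < c j := fun i j hij =>
    Nat.mul_lt_mul_of_pos_left (Nat.pow_lt_pow_right (by norm_num) hij) (by omega)
  obtain ⟨lam2, rho2, nu2, h6, h7⟩ := HE c (fun i j hij _ => hcmono i j hij)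
  let Rel : List α → V → V → Prop := fun w v b => ∃ P Q, w = P ++ Q ∧ lam P = some v ∧ rho Q = some b
  let nu1 : List α → V := fun w => if (∃ v b, Rel w v b) then nu w else 0
  have hnu : ∀ w v b, Rel w v b → nu w = b - act v (ph φ w) := by
    rintro w v b ⟨P, Q, rfl, hP, hQ⟩
    rw [h3 P Q v b hP hQ]; abel
  have hRel : ∀ X Y : List α, Eqv φ (Am Ms κ m + Am Ms κ (m + 1)) Mp X Y → ∀ v b, Rel X v b →
      Rel Y v b := by
    rintro X Y h v b ⟨P, Q, rfl, hP, hQ⟩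
    have hPl := (h1 P v hP).1
    have e1 : P = Y.take P.length := by
      rw [← h.take (t := P.length) (by omega), List.take_left]
    have e2 := h.dropE (A := Am Ms κ (m + 1)) (p := P.length) (by omega)
    rw [List.drop_left] at e2
    refine ⟨P, Y.drop P.length, ?_, hP, ?_⟩
    · have h0 := List.take_append_drop P.length Y
      rw [← e1] at h0
      exact h0.symm
    · rw [← hQ]
      exact (h5 Q (Y.drop P.length) e2.1 e2.2.1 e2.2.2.1 e2.2.2.2.2 e2.2.2.2.1).symm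
  have hEsymm : ∀ {A Mp : ℕ} {X Y : List α}, Eqv φ A Mp X Y → Eqv φ A Mp Y X := fun h =>
    ⟨h.2.1, h.1, h.2.2.1.symm, h.2.2.2.1.symm, h.2.2.2.2.symm⟩
  refine join (α := α) (S := S) (V := V) (φ := φ) act (fun a b s => rfl) ?_ ?_ ?_
    K C0 N1 (2 * Am Ms κ (m + 1)) (Am Ms κ m + Am Ms κ (m + 1)) Mp (by omega) hMp0 BadT ?_
    lam rho nu1 ?_ ?_ ?_ ?_ c (Xn * 2 ^ K) ?_ lam2 (fun k Q => rho2 k Q 1) (fun w => nu2 w 1)
    ?_ ?_ ?_ ?_ s
  · intro v
    funext x
    change v (1 * x) = v x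
    rw [one_mul]
  · intro v a b
    funext x
    change v (a * b * x) = v (a * (b * x))
    rw [mul_assoc]
  · intro a b h
    have h8 := congrFun (h (Pi.single a 1)) 1
    change (Pi.single a (1 : ZMod 2) : S → ZMod 2) (a * 1)
      = (Pi.single a (1 : ZMod 2) : S → ZMod 2) (b * 1) at h8
    rw [mul_one, mul_one, Pi.single_eq_same] at h8
    by_contra hne
    rw [Pi.single_eq_of_ne (Ne.symm hne)] at h8
    exact one_ne_zero h8
  · -- periodicity
    have key : ∀ T T' : ℕ, T % Mp = T' % Mp → BadT T → BadT T' := by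
      intro T T' h hb
      have hd : (Mp : ℤ) ∣ (T' : ℤ) - T := (Nat.modEq_iff_dvd).1 h
      rcases hb with ⟨p, hp, hpT⟩ | ⟨i, hi, e, he, hdv⟩
      · left
        refine ⟨p, hp, ?_⟩
        obtain ⟨j, rfl⟩ := hmemF p hp
        have h9 : ((q j : ℕ) : ℤ) ∣ (Mp : ℤ) := by
          have : q j ∣ Mp := Dvd.dvd.mul_right (Finset.dvd_prod_of_mem q (Finset.mem_univ j)) _
          exact_mod_cast this
        have := dvd_add (h9.trans hd) hpT
        rwa [sub_add_cancel] at this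
      · right
        refine ⟨i, hi, e, he, ?_⟩
        have h9 : GZ (i + 1) ∣ (Mp : ℤ) := by
          have : G κ (i + 1) ∣ Mp := Dvd.dvd.mul_left (Grid_899.G_dvd (by omega)) _
          exact Int.natCast_dvd_natCast.2 this
        have := dvd_add (h9.trans hd) hdv
        have e0 : (T' : ℤ) - T + (T - AZ (i + 1) + e) = T' - AZ (i + 1) + e := by ring
        rwa [e0] at this
    intro T T' _ _ h
    exact ⟨key T T' h, key T' T h.symm⟩
  · intro P v h
    have := (h1 P v h).1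
    omega
  · intro P Q v b hP hQ
    have : nu1 (P ++ Q) = nu (P ++ Q) := if_pos ⟨v, b, P, Q, rfl, hP, hQ⟩
    rw [this]
    exact h3 P Q v b hP hQ
  · -- completeness of gadget 1
    intro w hw hb v
    refine h4 w hw ?_ ?_ v
    · intro j hj
      exact hb (Or.inl ⟨q j, Finset.mem_image_of_mem q (Finset.mem_univ j), by exact_mod_cast hj⟩)
    · intro j hj1 hjm
      obtain ⟨i, rfl⟩ : ∃ i, j = i + 1 := ⟨j - 1, by omega⟩
      have hAle : Am Ms κ (i + 1) ≤ w.length :=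
        le_trans (Grid_899.Am_mono (by omega : i + 1 ≤ m + 1)) (by omega)
      set r : ℕ := (w.length - Am Ms κ (i + 1)) % G κ (i + 1) with hr
      have hrlt : r < G κ (i + 1) := Nat.mod_lt _ (Grid_899.G_pos _)
      have hdm := Nat.div_add_mod (w.length - Am Ms κ (i + 1)) (G κ (i + 1))
      rw [← hr] at hdm
      set t : ℕ := (w.length - Am Ms κ (i + 1)) / G κ (i + 1) with ht
      have hZ : (w.length : ℤ) - AZ (i + 1) = GZ (i + 1) * t + r := by
        have : ((w.length - Am Ms κ (i + 1) : ℕ) : ℤ) = (G κ (i + 1) : ℤ) * t + r := by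
          exact_mod_cast hdm.symm
        rw [Nat.cast_sub hAle] at this
        exact this
      simp only [Nat.add_sub_cancel]
      constructor
      · by_contra hlt
        push Not at hlt
        apply hb
        refine Or.inr ⟨i, by omega, -(r : ℤ), ?_, ?_⟩
        · rw [abs_neg, abs_of_nonneg (by positivity)]
          change (r : ℤ) ≤ ((Ms * G κ i : ℕ) : ℤ)
          exact_mod_cast hlt.le
        · rw [hZ]
          exact ⟨t, by ring⟩
      · by_contra hlt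
        push Not at hlt
        apply hb
        refine Or.inr ⟨i, by omega, (G κ (i + 1) : ℤ) - r, ?_, ?_⟩
        · rw [abs_of_nonneg (by
            have : (r : ℤ) < (G κ (i + 1) : ℤ) := by exact_mod_cast hrlt
            omega)]
          change (G κ (i + 1) : ℤ) - r ≤ ((Ms * G κ i : ℕ) : ℤ)
          have : (G κ (i + 1) : ℤ) < (r : ℤ) + ((Ms * G κ i : ℕ) : ℤ) := by exact_mod_cast hlt
          omega
        · rw [hZ]
          exact ⟨t + 1, by change GZ (i + 1) * t + r + (GZ (i + 1) - r) = GZ (i + 1) * (t + 1); ring⟩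
  · -- finite state noise
    intro X Y h
    by_cases hX : ∃ v b, Rel X v b
    · obtain ⟨v, b, hv⟩ := hX
      have hY := hRel X Y h v b hv
      change (if (∃ v b, Rel X v b) then nu X else 0) = (if (∃ v b, Rel Y v b) then nu Y else 0)
      rw [if_pos ⟨v, b, hv⟩, if_pos ⟨v, b, hY⟩, hnu X v b hv, hnu Y v b hY, h.all]
    · have hY : ¬ ∃ v b, Rel Y v b := fun ⟨v, b, hv⟩ => hX ⟨v, b, hRel Y X (hEsymm h) v b hv⟩
      change (if (∃ v b, Rel X v b) then nu X else 0) = (if (∃ v b, Rel Y v b) then nu Y else 0)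
      rw [if_neg hX, if_neg hY]
  · intro j hj
    exact Nat.mul_le_mul_left _ (Nat.pow_le_pow_right (by norm_num) hj.le)
  · intro j hj P Q v b hP hl hr
    have := h6 j hj P Q 1 v b hP hl hr
    rw [mul_one] at this
    exact this
  · intro w v hw
    obtain ⟨I, hI, h8⟩ := h7 w 1 v (fun j hj => le_trans
      (Nat.mul_le_mul_left _ (Nat.pow_le_pow_right (by norm_num) hj.le)) hw)
    exact ⟨I, hI, h8⟩
  · -- ruler
    intro a a' l l' _ _ _ _ ha hl e1 e2
    have e3 : 2 ^ a + 2 ^ l' = 2 ^ l + 2 ^ a' := by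
      by_contra hne
      rcases Nat.lt_or_gt_of_ne hne with h | h
      · have h8 : Xn * (2 ^ a + 2 ^ l' + 1) ≤ Xn * (2 ^ l + 2 ^ a') := Nat.mul_le_mul_left _ h
        have e2' : Xn * 2 ^ l + Xn * 2 ^ a' < Xn * 2 ^ a + Xn * 2 ^ l' + 2 * N1 := e2
        nlinarith
      · have h8 : Xn * (2 ^ l + 2 ^ a' + 1) ≤ Xn * (2 ^ a + 2 ^ l') := Nat.mul_le_mul_left _ h
        have e1' : Xn * 2 ^ a + Xn * 2 ^ l' < Xn * 2 ^ l + Xn * 2 ^ a' + 2 * N1 := e1
        nlinarith
    have e4 : (2 : ℤ) ^ a - 2 ^ a' = 2 ^ l - 2 ^ l' := by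
      have : (2 : ℤ) ^ a + 2 ^ l' = 2 ^ l + 2 ^ a' := by exact_mod_cast e3
      linarith
    exact (G369.pow_diff (Ne.symm ha) (Ne.symm hl) e4).1
  · -- thinness
    intro τ hτ J hJ
    have h8 := hX3 ((τ : ℤ) - (Xn * 2 ^ K : ℕ))
    refine le_trans (le_trans (Finset.card_le_card (t := (((Finset.range K) ×ˢ (Finset.range K)).filter
      (fun p => p.1 ≠ p.2 ∧ Thin963.BadT MsF m GZ cZ AZ
        (((τ : ℤ) - (Xn * 2 ^ K : ℕ)) + Xn * 2^p.1 - Xn * 2^p.2))).image Prod.snd) ?_)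
      Finset.card_image_le) (le_trans h8 (by omega))
    intro a ha
    obtain ⟨haK, a', ha'K, hne, hb⟩ := hJ a ha
    rw [Finset.mem_image]
    refine ⟨(a', a), ?_, rfl⟩
    rw [Finset.mem_filter, Finset.mem_product, Finset.mem_range, Finset.mem_range]
    refine ⟨⟨ha'K, haK⟩, hne, ?_⟩
    have hca : c a ≤ Xn * 2 ^ K := Nat.mul_le_mul_left _ (Nat.pow_le_pow_right (by norm_num) haK.le)
    have e0 : ((τ + c a' - c a - Xn * 2 ^ K : ℕ) : ℤ)
        = ((τ : ℤ) - (Xn * 2 ^ K : ℕ)) + Xn * 2 ^ a' - Xn * 2 ^ a := by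
      have e1 : c a + Xn * 2 ^ K ≤ τ + c a' := by omega
      rw [Nat.sub_sub, Nat.cast_sub e1]
      change (((τ + Xn * 2 ^ a' : ℕ) : ℤ) - ((Xn * 2 ^ a + Xn * 2 ^ K : ℕ) : ℤ)) = _
      push_cast
      ring
    change Thin963.BadT MsF m GZ cZ AZ
      (((τ : ℤ) - (Xn * 2 ^ K : ℕ)) + Xn * 2 ^ a' - Xn * 2 ^ a)
    rw [← e0]
    exact hb

end Crest.Agent.R320.Fin_3

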