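import Crest.Agent.R320.P4_933

/-!
# Row 320, join (helper318), part A: finite-state classes of words
-/

set_option autoImplicit false

namespace Crest.Agent.R320.JoinA_318

open Crest.RegLang Crest.Agent.R320.Hk_851 Crest.Agent.R320.P4_933

universe u

variable {α : Type u}

/-- same class: equal prefixes of length `A`, equal values of the rest, lengths congruent -/
def Cl {S : Type*} [Monoid S] (φ : α → S) (A M0 : ℕ) (u u' : List α) : Prop :=
  A ≤ u.length ∧ A ≤ u'.length ∧ u.take A = u'.take A ∧ u.length % M0 = u'.length % M0 ∧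
    ((u.drop A).map φ).prod = ((u'.drop A).map φ).prod

section

variable {S : Type*} [Monoid S] {φ : α → S} {A M0 : ℕ} {u u' : List α}

theorem Cl.symm (h : Cl φ A M0 u u') : Cl φ A M0 u' u :=
  ⟨h.2.1, h.1, h.2.2.1.symm, h.2.2.2.1.symm, h.2.2.2.2.symm⟩

theorem Cl.prod (h : Cl φ A M0 u u') : (u.map φ).prod = (u'.map φ).prod := by
  obtain ⟨-, -, h3, -, h5⟩ := h
  rw [← List.take_append_drop A u, ← List.take_append_drop A u', List.map_append,
    List.map_append, List.prod_append, List.prod_append, h3, h5]

theorem Cl.take {c : ℕ} (h : Cl φ A M0 u u') (hc : c ≤ A) : u.take c = u'.take c := by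
  have := congrArg (fun l => l.take c) h.2.2.1
  simp only [List.take_take, min_eq_left hc] at this
  exact this

theorem Cl.mod {c : ℕ} (h : Cl φ A M0 u u') (hc : c ≤ A) :
    (u.length - c) % M0 = (u'.length - c) % M0 := by
  obtain ⟨h1, h2, -, h4, -⟩ := h
  have h6 : (u.length - c) + c ≡ (u'.length - c) + c [MOD M0] := by
    rw [Nat.sub_add_cancel (by omega), Nat.sub_add_cancel (by omega)]
    exact h4
  exact Nat.ModEq.add_right_cancel' c h6

theorem Cl.drop {c : ℕ} (h : Cl φ A M0 u u') (hc : c ≤ A) :
    Cl φ (A - c) M0 (u.drop c) (u'.drop c) := by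
  have hm := h.mod hc
  obtain ⟨h1, h2, h3, h4, h5⟩ := h
  refine ⟨?_, ?_, ?_, ?_, ?_⟩
  · rw [List.length_drop]; omega
  · rw [List.length_drop]; omega
  · rw [← List.drop_take, ← List.drop_take, h3]
  · rw [List.length_drop, List.length_drop]; exact hm
  · rw [List.drop_drop, List.drop_drop, Nat.add_sub_cancel' hc]
    exact h5

theorem drop_split (w : List α) {a b : ℕ} (hab : a ≤ b) (hb : b ≤ w.length) :
    w.drop a = (w.take b).drop a ++ w.drop b := by
  conv_lhs => rw [← List.take_append_drop b w]
  rw [List.drop_append_of_le_length]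
  rw [List.length_take]; omega

theorem Cl.mono {B : ℕ} (h : Cl φ B M0 u u') (hAB : A ≤ B) : Cl φ A M0 u u' := by
  have ht := h.take hAB
  obtain ⟨h1, h2, h3, h4, h5⟩ := h
  refine ⟨by omega, by omega, ht, h4, ?_⟩
  rw [drop_split u hAB h1, drop_split u' hAB h2, h3, List.map_append, List.map_append,
    List.prod_append, List.prod_append, h5]

end

theorem drop_snoc (A : ℕ) (u : List α) (a : α) :
    (u ++ [a]).drop A = if u.length < A then [] else u.drop A ++ [a] := by
  split_ifs with h
  · rw [List.drop_of_length_le]; simp; omega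
  · rw [List.drop_append_of_le_length (by omega)]

theorem regular_of_class2 [Finite α] {S : Type*} [Monoid S] [Finite S] (φ : α → S) (A M0 : ℕ)
    (hM : 0 < M0) (f : List α → Prop)
    (hf : ∀ u u' : List α, Cl φ A M0 u u' → (f u ↔ f u')) :
    Language.IsRegular ({u | f u} : Language α) := by
  classical
  haveI : NeZero M0 := ⟨by omega⟩
  have hfin : Finite {l : List α // l.length ≤ A} := List.finite_length_le α A
  let σ := {l : List α // l.length ≤ A} × ZMod M0 × S
  haveI : Fintype σ := Fintype.ofFinite σ
  let st : List α → σ := fun u =>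
    (⟨u.take A, by rw [List.length_take]; omega⟩, (u.length : ZMod M0), ((u.drop A).map φ).prod)
  let M : DFA α σ :=
    { step := fun q a =>
        (if h : q.1.1.length < A then ⟨q.1.1 ++ [a], by simp; omega⟩ else q.1,
          q.2.1 + 1, if q.1.1.length < A then q.2.2 else q.2.2 * φ a)
      start := st []
      accept := {q | ∃ u, f u ∧ st u = q} }
  have hst0 : ∀ u : List α, st u = (⟨u.take A, by rw [List.length_take]; omega⟩,
    (u.length : ZMod M0), ((u.drop A).map φ).prod) := fun u => rfl
  have hev : ∀ u, M.eval u = st u := by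
    intro u
    induction u using List.reverseRecOn with
    | nil => rfl
    | append_singleton u a ih =>
      rw [DFA.eval_append_singleton, ih]
      refine Prod.ext ?_ (Prod.ext ?_ ?_)
      · apply Subtype.ext
        show (if h : (u.take A).length < A then (⟨u.take A ++ [a], by simp at h ⊢; omega⟩ :
          {l : List α // l.length ≤ A}) else ⟨u.take A, by rw [List.length_take]; omega⟩).1
          = (u ++ [a]).take A
        rw [take_snoc]
        split_ifs <;> rfl
      · show (u.length : ZMod M0) + 1 = (((u ++ [a]).length : ℕ) : ZMod M0)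
        simp
      · show (if (u.take A).length < A then ((u.drop A).map φ).prod
          else ((u.drop A).map φ).prod * φ a) = (((u ++ [a]).drop A).map φ).prod
        rw [drop_snoc]
        by_cases h : u.length < A
        · have h1 : (u.take A).length < A := by rw [List.length_take]; omega
          rw [if_pos h1, if_pos h, List.drop_of_length_le (by omega)]
        · have h1 : ¬ (u.take A).length < A := by rw [List.length_take]; omega
          rw [if_neg h1, if_neg h]
          simp
  refine Language.isRegular_iff.2 ⟨σ, inferInstance, M, ?_⟩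
  ext u
  rw [DFA.mem_accepts, hev]
  constructor
  · rintro ⟨u', h1, h2⟩
    have e1 : u'.take A = u.take A := congrArg (fun q : σ => q.1.1) h2
    have e2 : (u'.length : ZMod M0) = (u.length : ZMod M0) := congrArg (fun q : σ => q.2.1) h2
    have e3 : ((u'.drop A).map φ).prod = ((u.drop A).map φ).prod :=
      congrArg (fun q : σ => q.2.2) h2
    have e2' : u'.length % M0 = u.length % M0 := (ZMod.natCast_eq_natCast_iff' _ _ _).1 e2
    have e4 := congrArg List.length e1
    rw [List.length_take, List.length_take] at e4
    by_cases h : u.length < A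
    · rw [List.take_of_length_le (by omega), List.take_of_length_le (by omega)] at e1
      rw [← e1]; exact h1
    · exact (hf u' u ⟨by omega, by omega, e1, e2', e3⟩).1 h1
  · intro h
    exact ⟨u, h, rfl⟩

theorem clean_nu {S V : Type*} [Monoid S] [AddCommGroup V] (act : V → S → V) (φ : α → S)
    (N A M0 : ℕ) (lam rho : List α → Option V) (nu : List α → V)
    (hlen : ∀ P v, lam P = some v → P.length ≤ N)
    (hs : ∀ P Q v b, lam P = some v → rho Q = some b →
      b = act v (((P ++ Q).map φ).prod) + nu (P ++ Q))
    (hreg : ∀ Q Q' : List α, Cl φ A M0 Q Q' → rho Q = rho Q') :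
    ∃ nu' : List α → V,
      (∀ P Q v b, lam P = some v → rho Q = some b →
        b = act v (((P ++ Q).map φ).prod) + nu' (P ++ Q)) ∧
      (∀ u u' : List α, Cl φ (N + A) M0 u u' → nu' u = nu' u') := by
  classical
  let D : List α → Prop := fun u => ∃ P Q v b, u = P ++ Q ∧ lam P = some v ∧ rho Q = some b
  have key : ∀ u u' : List α, Cl φ (N + A) M0 u u' → D u → D u' ∧ nu u' = nu u := by
    rintro u u' hcl ⟨P, Q, v, b, hu, hP, hQ⟩
    have hPl := hlen P v hP
    have hpr := hcl.prod
    have e1 : u'.take P.length = P := by
      rw [← hcl.take (show P.length ≤ N + A by omega), hu, List.take_left]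
    have e2 : P ++ u'.drop P.length = u' := by
      conv_rhs => rw [← List.take_append_drop P.length u', e1]
    have e3 : u.drop P.length = Q := by rw [hu, List.drop_left]
    have h1 := (hcl.drop (show P.length ≤ N + A by omega)).mono
      (show A ≤ N + A - P.length by omega)
    rw [e3] at h1
    have h2 := hreg _ _ h1
    rw [hQ] at h2
    refine ⟨⟨P, u'.drop P.length, v, b, e2.symm, hP, h2.symm⟩, ?_⟩
    have h3 := hs P Q v b hP hQ
    have h4 := hs P (u'.drop P.length) v b hP h2.symm
    rw [e2, ← hpr] at h4
    rw [← hu] at h3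
    exact add_left_cancel (h4.symm.trans h3)
  refine ⟨fun u => if D u then nu u else 0, ?_, ?_⟩
  · intro P Q v b h1 h2
    have : D (P ++ Q) := ⟨P, Q, v, b, rfl, h1, h2⟩
    simp only [if_pos this]
    exact hs P Q v b h1 h2
  · intro u u' h
    by_cases hD : D u
    · obtain ⟨h1, h2⟩ := key u u' h hD
      simp only [if_pos hD, if_pos h1, h2]
    · have hD' : ¬ D u' := fun h' => hD (key u' u h.symm h').1
      simp only [if_neg hD, if_neg hD']

end Crest.Agent.R320.JoinA_318
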