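import Crest.Agent.R320.Thin_963
import Crest.Agent.R320.Grid_899

/-!
# Row 320, join (helper318), part B: the constants (moduli, exponent, ruler)
-/

set_option autoImplicit false

namespace Crest.Agent.R320.JoinB_318

open Crest.Agent.R320.Grid_899 Crest.Agent.R320.Thin963

/-- `k` distinct odd primes above a bound -/
theorem exists_primes (k N : ℕ) : ∃ q : Fin k → ℕ, (∀ j, (q j).Prime) ∧ (∀ j, Odd (q j)) ∧
    (∀ j, N ≤ q j) ∧ Pairwise (fun i j => Nat.Coprime (q i) (q j)) := by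
  have hmono : StrictMono (Nat.nth Nat.Prime) := Nat.nth_strictMono Nat.infinite_setOfPred_prime
  have hge : ∀ n, n ≤ Nat.nth Nat.Prime n := fun n => hmono.le_apply
  have hp : ∀ n, (Nat.nth Nat.Prime n).Prime := fun n => Nat.prime_nth_prime n
  refine ⟨fun j => Nat.nth Nat.Prime (N + 3 + j), fun j => hp _, fun j => ?_, fun j => ?_, ?_⟩
  · refine (hp _).odd_of_ne_two ?_
    have := hge (N + 3 + (j : ℕ))
    omega
  · have := hge (N + 3 + (j : ℕ))
    show N ≤ Nat.nth Nat.Prime (N + 3 + (j : ℕ))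
    omega
  · intro i j hij
    rw [Nat.coprime_primes (hp _) (hp _)]
    intro h
    apply hij
    have := hmono.injective h
    apply Fin.ext
    omega

/-- bad total -/
def Bd (k m κ : ℕ) (q : Fin k → ℕ) (T : ℤ) : Prop :=
  BadT (Finset.univ.image q) m (fun i => (G κ i : ℤ)) (fun i => ((∏ j, q j) * G κ i : ℕ))
    (fun i => (Am (∏ j, q j) κ i : ℤ)) T

theorem clean_of_not_bad {k m κ : ℕ} {q : Fin k → ℕ} {n : ℕ}
    (hn : Am (∏ j, q j) κ (m + 1) ≤ n) (h : ¬ Bd k m κ q (n : ℤ)) :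
    (∀ j, ¬ q j ∣ n) ∧ (∀ j, 1 ≤ j → j ≤ m →
      (∏ j, q j) * G κ (j - 1) ≤ (n - Am (∏ j, q j) κ j) % G κ j ∧
      (n - Am (∏ j, q j) κ j) % G κ j + (∏ j, q j) * G κ (j - 1) ≤ G κ j) := by
  constructor
  · intro j hj
    apply h
    left
    exact ⟨q j, Finset.mem_image_of_mem _ (Finset.mem_univ j), Int.natCast_dvd_natCast.2 hj⟩
  · intro j hj1 hjm
    obtain ⟨i, rfl⟩ : ∃ i, j = i + 1 := ⟨j - 1, by omega⟩
    have hAm : Am (∏ j, q j) κ (i + 1) ≤ n := (Am_mono (by omega)).trans hn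
    have hsub : ((n - Am (∏ j, q j) κ (i + 1) : ℕ) : ℤ) = (n : ℤ) - Am (∏ j, q j) κ (i + 1) := by
      push_cast [Nat.cast_sub hAm]; ring
    set r := (n - Am (∏ j, q j) κ (i + 1)) % G κ (i + 1) with hr
    have hrG : r < G κ (i + 1) := Nat.mod_lt _ (G_pos (i + 1))
    have hdvd : (G κ (i + 1) : ℤ) ∣ (n : ℤ) - Am (∏ j, q j) κ (i + 1) - r := by
      rw [← hsub, hr]
      have h1 := Nat.dvd_sub_mod (n := G κ (i + 1)) (n - Am (∏ j, q j) κ (i + 1))
      have h2 : ((n - Am (∏ j, q j) κ (i + 1)) % G κ (i + 1)) ≤ n - Am (∏ j, q j) κ (i + 1) :=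
        Nat.mod_le _ _
      have h3 := Int.natCast_dvd_natCast.2 h1
      rw [Nat.cast_sub h2] at h3
      exact h3
    rw [show i + 1 - 1 = i from rfl]
    constructor
    · by_contra hlt
      push Not at hlt
      apply h
      right
      refine ⟨i, by omega, -(r : ℤ), ?_, ?_⟩
      · rw [abs_neg, Nat.abs_cast]
        show (r : ℤ) ≤ (((∏ j, q j) * G κ i : ℕ) : ℤ)
        exact Int.ofNat_le.2 hlt.le
      · rw [← sub_eq_add_neg]; exact hdvd
    · by_contra hlt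
      push Not at hlt
      apply h
      right
      refine ⟨i, by omega, (G κ (i + 1) : ℤ) - r, ?_, ?_⟩
      · have h1 : (0 : ℤ) ≤ (G κ (i + 1) : ℤ) - r := by
          have : (r : ℤ) < G κ (i + 1) := by exact_mod_cast hrG
          linarith
        rw [abs_of_nonneg h1]
        have h2 : (G κ (i + 1) : ℤ) < r + ((∏ j, q j) * G κ i : ℕ) := by exact_mod_cast hlt
        show (G κ (i + 1) : ℤ) - r ≤ ((∏ j, q j) * G κ i : ℕ)
        linarith
      · have h3 := dvd_add hdvd (dvd_refl (G κ (i + 1) : ℤ))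
        have e : (n : ℤ) - Am (∏ j, q j) κ (i + 1) - r + G κ (i + 1) =
          (n : ℤ) - Am (∏ j, q j) κ (i + 1) + ((G κ (i + 1) : ℤ) - r) := by ring
        rw [e] at h3
        exact h3

/-- bad totals are periodic -/
theorem bd_periodic {k m κ : ℕ} {q : Fin k → ℕ} {T T' : ℤ}
    (h : (((∏ j, q j) * G κ m : ℕ) : ℤ) ∣ T - T') : Bd k m κ q T → Bd k m κ q T' := by
  rintro (⟨p, hp, hd⟩ | ⟨i, hi, e, he, hd⟩)
  · left
    refine ⟨p, hp, ?_⟩
    obtain ⟨j, -, rfl⟩ := Finset.mem_image.1 hp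
    have h1 : ((q j : ℕ) : ℤ) ∣ T - T' := by
      refine dvd_trans ?_ h
      exact Int.natCast_dvd_natCast.2 (dvd_trans (Finset.dvd_prod_of_mem q (Finset.mem_univ j))
        (Nat.dvd_mul_right _ _))
    have := dvd_sub hd h1
    rwa [sub_sub_cancel] at this
  · right
    refine ⟨i, hi, e, he, ?_⟩
    have h1 : ((G κ (i + 1) : ℕ) : ℤ) ∣ T - T' := by
      refine dvd_trans ?_ h
      exact Int.natCast_dvd_natCast.2 (dvd_trans (G_dvd (by omega)) (Nat.dvd_mul_left _ _))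
    have := dvd_sub hd h1
    have e' : T - Am (∏ j, q j) κ (i + 1) + e - (T - T') = T' - Am (∏ j, q j) κ (i + 1) + e := by
      ring
    rw [e'] at this
    exact this

theorem sum_bound (Ms κ : ℕ) (hκ : 1 ≤ κ) (i : ℕ) :
    ∑ j ∈ Finset.range (i + 1), (Ms * G κ j) ≤ 2 * Ms * G κ i := by
  induction i with
  | zero =>
    rw [Finset.sum_range_one]
    nlinarith [Nat.zero_le (Ms * G κ 0)]
  | succ i ih =>
    rw [Finset.sum_range_succ]
    have h1 : 2 * G κ i ≤ G κ (i + 1) := by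
      unfold G
      rw [Nat.mul_add, pow_add, Nat.mul_one, Nat.mul_comm]
      refine Nat.mul_le_mul_left _ ?_
      calc 2 = 2 ^ 1 := rfl
        _ ≤ 2 ^ κ := Nat.pow_le_pow_right (by norm_num) hκ
    have h2 : Ms * (2 * G κ i) ≤ Ms * G κ (i + 1) := Nat.mul_le_mul_left _ h1
    nlinarith

/-- **all the constants** -/
theorem constants (k m K : ℕ) : ∃ (q : Fin k → ℕ) (κ : ℕ), (∀ j, Odd (q j)) ∧
    Pairwise (fun i j => Nat.Coprime (q i) (q j)) ∧ (0 < ∏ j, q j) ∧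
    ∀ N0 : ℕ, ∃ X : ℕ, N0 ≤ X ∧ 0 < X ∧ ∀ (T : ℤ) (J : Finset ℕ),
      (∀ a ∈ J, a < K ∧ ∃ b, b < K ∧ b ≠ a ∧ Bd k m κ q (T + X * 2 ^ b - X * 2 ^ a)) →
      J.card ≤ k + m := by
  classical
  obtain ⟨q, hp, hodd, hge, hcop⟩ := exists_primes k (2 ^ (K + 1))
  set Ms := ∏ j, q j with hMs
  have hMpos : 0 < Ms := Finset.prod_pos fun j _ => (hp j).pos
  refine ⟨q, K + 5 + Ms, hodd, hcop, hMpos, fun N0 => ?_⟩
  set κ := K + 5 + Ms with hκ
  obtain ⟨X, hX1, hX2, hX3⟩ := thin K m (Finset.univ.image q) (fun i => (G κ i : ℤ))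
    (fun i => ((Ms * G κ i : ℕ) : ℤ)) (fun i => (Am Ms κ i : ℤ))
    (by
      intro p hpm
      obtain ⟨j, -, rfl⟩ := Finset.mem_image.1 hpm
      exact ⟨hp j, hge j⟩)
    (by
      intro p hpm
      obtain ⟨j, -, rfl⟩ := Finset.mem_image.1 hpm
      have h1 : Nat.Coprime (q j) (G κ m) := by
        unfold G
        refine Nat.Coprime.pow_right _ ?_
        exact (Nat.coprime_two_right).2 (hodd j)
      exact Nat.isCoprime_iff_coprime.2 h1)
    (by exact_mod_cast G_pos m)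
    (by intro i j hij; exact Int.natCast_dvd_natCast.2 (G_dvd hij))
    (by intro i; exact_mod_cast Nat.mul_pos hMpos (G_pos i))
    (by intro i; exact Int.natCast_dvd_natCast.2 (Nat.dvd_mul_left _ _))
    (by
      intro i _
      have h1 := sum_bound Ms κ (by omega) i
      have h2 : 2 ^ (K + 4) * (2 * Ms * G κ i) ≤ G κ (i + 1) := by
        unfold G
        rw [Nat.mul_add, pow_add _ (κ * i), Nat.mul_one]
        have h3 : Ms ≤ 2 ^ Ms := Nat.lt_two_pow_self.le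
        have h4 : 2 ^ κ = 2 ^ (K + 4) * 2 * 2 ^ Ms := by
          rw [hκ, pow_add, show K + 5 = K + 4 + 1 from rfl, pow_succ]
        rw [h4]
        have h5 : 2 ^ (K + 4) * 2 * Ms ≤ 2 ^ (K + 4) * 2 * 2 ^ Ms := Nat.mul_le_mul_left _ h3
        calc 2 ^ (K + 4) * (2 * Ms * 2 ^ (κ * i)) = 2 ^ (κ * i) * (2 ^ (K + 4) * 2 * Ms) := by ring
          _ ≤ 2 ^ (κ * i) * (2 ^ (K + 4) * 2 * 2 ^ Ms) := Nat.mul_le_mul_left _ h5
      have h3 : 2 ^ (K + 4) * ∑ j ∈ Finset.range (i + 1), (Ms * G κ j) ≤ G κ (i + 1) :=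
        (Nat.mul_le_mul_left _ h1).trans h2
      exact_mod_cast h3)
    (N0 : ℤ)
  lift X to ℕ using hX2.le
  refine ⟨X, by exact_mod_cast hX1, by exact_mod_cast hX2, fun T J hJ => ?_⟩
  have h1 := hX3 T
  have hcard : (Finset.univ.image q).card ≤ k := by
    refine Finset.card_image_le.trans ?_
    simp
  choose! b hb using fun a (ha : a ∈ J) => (hJ a ha).2
  have hinj : Set.InjOn (fun a => (b a, a)) (J : Set ℕ) := by
    intro a _ a' _ h
    exact congrArg Prod.snd h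
  rw [← Finset.card_image_of_injOn hinj]
  refine le_trans (Finset.card_le_card ?_) (h1.trans (Nat.add_le_add_right hcard m))
  intro p hpm
  obtain ⟨a, ha, rfl⟩ := Finset.mem_image.1 hpm
  obtain ⟨h2, h3, h4⟩ := hb a ha
  rw [Finset.mem_filter, Finset.mem_product, Finset.mem_range, Finset.mem_range]
  exact ⟨⟨h2, (hJ a ha).1⟩, h3, h4⟩

end Crest.Agent.R320.JoinB_318
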