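import Crest.Agent.R320.Top5_120
import Crest.Agent.R320.Sc2n_937
import Crest.Agent.R320.ExactR_237
import Crest.Agent.R320.LWallAll_922
import Crest.Agent.R320.JoinA_318
import Crest.Agent.R320.JoinB_318
import Crest.Agent.R320.Univ_480

/-!
# Row 320, join (helper318): fibres of finite monoids have height at most three
-/

set_option autoImplicit false

namespace Crest.Agent.R320.Fin_318

open Crest.RegLang Crest.Agent.R320.Hk_851 Crest.Agent.R320.JoinA_318
open Crest.Agent.R320.JoinB_318 Crest.Agent.R320.BddReg_746 Crest.Agent.R320.Blk467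
open Crest.Agent.R320.Sc2n_937

theorem ruler_sp {X N1 K : ℕ} (hX : 2 * N1 + 1 ≤ X) {k k' l l' : ℕ} (hk : k' ≠ k) (hl : l' ≠ l)
    (h1 : X * 2 ^ k + X * 2 ^ l' < X * 2 ^ l + X * 2 ^ k' + 2 * N1)
    (h2 : X * 2 ^ l + X * 2 ^ k' < X * 2 ^ k + X * 2 ^ l' + 2 * N1) : k = l := by
  have h1' : (X : ℤ) * 2 ^ k + X * 2 ^ l' < X * 2 ^ l + X * 2 ^ k' + 2 * N1 := by exact_mod_cast h1
  have h2' : (X : ℤ) * 2 ^ l + X * 2 ^ k' < X * 2 ^ k + X * 2 ^ l' + 2 * N1 := by exact_mod_cast h2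
  have hX' : 2 * (N1 : ℤ) + 1 ≤ X := by exact_mod_cast hX
  have hX0 : (0 : ℤ) < X := by have : (0 : ℤ) ≤ N1 := Int.natCast_nonneg _; linarith
  set d : ℤ := 2 ^ k - 2 ^ k' - (2 ^ l - 2 ^ l') with hd
  have e : (X : ℤ) * d = X * 2 ^ k + X * 2 ^ l' - (X * 2 ^ l + X * 2 ^ k') := by rw [hd]; ring
  have hd0 : d = 0 := by
    rcases lt_trichotomy d 0 with h | h | h
    · exfalso
      have : (X : ℤ) * d ≤ X * (-1) := mul_le_mul_of_nonneg_left (by omega) hX0.le
      linarith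
    · exact h
    · exfalso
      have : (X : ℤ) * 1 ≤ X * d := mul_le_mul_of_nonneg_left (by omega) hX0.le
      linarith
  have h3 : (2 : ℤ) ^ k - 2 ^ k' = 2 ^ l - 2 ^ l' := by rw [hd] at hd0; linarith
  exact (Crest.Agent.R320.G369.pow_diff (Ne.symm hk) (Ne.symm hl) h3).1

theorem core (α S V : Type) [Finite α] [Monoid S] [Finite S] [AddCommGroup V] [Finite V]
    (act : V → S → V)
    (hadd : ∀ a b s, act (a + b) s = act a s + act b s)
    (hone : ∀ v, act v 1 = v) (hmul : ∀ v s t, act v (s * t) = act (act v s) t)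
    (hfaith : ∀ s t, (∀ v, act v s = act v t) → s = t)
    (φ : α → S) (s : S) : HL 3 ({w | (w.map φ).prod = s} : Language α) := by
  classical
  haveI := Fintype.ofFinite S
  haveI := Fintype.ofFinite V
  obtain ⟨k, m, Hgrid⟩ := Grid_899.grid_gadget_reg S V act
  obtain ⟨C0, hC0⟩ : ∃ C0, C0 = k + m := ⟨_, rfl⟩
  obtain ⟨K, HK⟩ := ExactR_237.exact_gadget α S V φ act (2 * C0 + 2)
  obtain ⟨q, κ, hodd, hcop, hMpos, Hruler⟩ := constants k m K
  have hphi : ∀ u v : List α, ((u ++ v).map φ).prod = (u.map φ).prod * (v.map φ).prod := by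
    intro u v; simp
  obtain ⟨lam, rho, nu0, hl, hr, hs, hc, hreg⟩ :=
    Hgrid q hodd hcop κ α (fun w => (w.map φ).prod) hphi
  have hAm : Grid_899.Am (∏ j, q j) κ m ≤ Grid_899.Am (∏ j, q j) κ (m + 1) :=
    Grid_899.Am_mono (Nat.le_succ m)
  obtain ⟨A1, hA1⟩ : ∃ A1, A1 = Grid_899.Am (∏ j, q j) κ (m + 1) := ⟨_, rfl⟩
  obtain ⟨M0, hM0⟩ : ∃ M0, M0 = (∏ j, q j) * Grid_899.G κ m := ⟨_, rfl⟩
  have hM0pos : 0 < M0 := by rw [hM0]; exact Nat.mul_pos hMpos (Grid_899.G_pos m)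
  rw [← hA1] at hr hc hreg hAm
  rw [← hM0] at hreg
  obtain ⟨N1, hN1⟩ : ∃ N1, N1 = A1 + 1 := ⟨_, rfl⟩
  have hlen : ∀ P v, lam P = some v → P.length ≤ N1 := by
    intro P v h
    have := (hl P v h).1
    omega
  obtain ⟨nu1, hs1, hn1⟩ := clean_nu act φ N1 A1 M0 lam rho nu0 hlen
    (fun P Q v b h1 h2 => hs P Q v b h1 h2)
    (fun Q Q' h => hreg Q Q' h.1 h.2.1 h.2.2.1 h.2.2.2.2 h.2.2.2.1)
  obtain ⟨X0, hX1, hX2, hX3⟩ := Hruler (2 * N1 + 1)
  obtain ⟨c, hcdef⟩ : ∃ c : ℕ → ℕ, ∀ j, c j = X0 * 2 ^ j := ⟨_, fun _ => rfl⟩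
  have hcm : StrictMono c := by
    intro i j hij
    rw [hcdef, hcdef]
    exact Nat.mul_lt_mul_of_pos_left (Nat.pow_lt_pow_right (by norm_num) hij) hX2
  obtain ⟨p0, hp0⟩ : ∃ p0, p0 = c K := ⟨_, rfl⟩
  have hcp : ∀ k, k < K → c k ≤ p0 := fun k hk => by rw [hp0]; exact hcm.monotone hk.le
  obtain ⟨lam2, rho2, nu2, h21, h22⟩ := HK c (fun i j hij _ => hcm hij)
  obtain ⟨n, G', B, Wo, hLW, hgap, -, -, hfree⟩ :=
    LWallAll_922.walls_all_left α (2 * p0 + 2 * N1) (by omega)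
  obtain ⟨g, rfl, rfl, hgz, hgp0, hgq0, hgN1⟩ : ∃ g : Geo α, g.Wo = Wo ∧ g.n = n ∧
      g.z = p0 + N1 + (n + p0 * 2 + 2 * A1) ∧ g.p0 = p0 ∧ g.q0 = n + p0 * 2 + 2 * A1 ∧
      g.N1 = N1 :=
    ⟨{ Wo := Wo, n := n, z := p0 + N1 + (n + p0 * 2 + 2 * A1), p0 := p0,
       q0 := n + p0 * 2 + 2 * A1, N1 := N1, loc := hLW.app, hz := rfl, hq := by omega,
       hN := by omega, hqp := by omega }, rfl, rfl, rfl, rfl, rfl, rfl⟩
  have hlenW : ∀ P, g.Wo P → g.n ≤ P.length := hLW.len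
  -- the two schemes
  let pre : List α → V → V := fun u v => act v (u.map φ).prod + nu2 u 1
  let post : V → List α → V := fun v u => act v (u.map φ).prod + nu1 u
  let BT : ℕ → Prop := fun n => Bd k m κ q (n : ℤ)
  let nu : List α → V := fun X =>
    act (nu2 (X.take g.p0) 1) ((X.drop g.p0).map φ).prod + nu1 (X.drop g.p0)
  have hT : ∀ (v : V) (X : List α), g.T pre post v X = act v (X.map φ).prod + nu X := by
    intro v X
    show act (act v ((X.take g.p0).map φ).prod + nu2 (X.take g.p0) 1)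
      ((X.drop g.p0).map φ).prod + nu1 (X.drop g.p0) = act v (X.map φ).prod +
        (act (nu2 (X.take g.p0) 1) ((X.drop g.p0).map φ).prod + nu1 (X.drop g.p0))
    rw [hadd, ← hmul, ← hphi, List.take_append_drop, add_assoc]
  have hlen' : ∀ P v, lam P = some v → P.length ≤ g.N1 := by rw [hgN1]; exact hlen
  have hex1 : ∀ P Q u b, lam P = some u → rho Q = some b → b = post u (P ++ Q) :=
    fun P Q u b h1 h2 => hs1 P Q u b h1 h2
  have hcg : ∀ k, k < K → c k ≤ g.p0 := by rw [hgp0]; exact hcp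
  have hex2 : ∀ k, k < K → ∀ P Q v u, P.length = c k → Q.length = g.p0 - c k →
      lam2 k P = some v → (fun k Q => rho2 k Q 1) k Q = some u → u = pre (P ++ Q) v := by
    intro k hk P Q v u hP _ h1 h2
    have := h21 k hk P Q 1 v u hP h1 h2
    rw [mul_one] at this
    exact this
  have hsp : ∀ k k' l l', k < K → k' < K → l < K → l' < K → k' ≠ k → l' ≠ l →
      c k + c l' < c l + c k' + 2 * g.N1 → c l + c k' < c k + c l' + 2 * g.N1 → k = l := by
    intro k k' l l' _ _ _ _ h1 h2 h3 h4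
    simp only [hcdef, hgN1] at h3 h4
    exact ruler_sp (K := K) hX1 h1 h2 h3 h4
  have hthin : ∀ τ, g.z ≤ τ + g.p0 → ∀ J : Finset ℕ, (∀ k ∈ J, k < K ∧
      ∃ k', k' < K ∧ k' ≠ k ∧ BT (τ + c k' - c k - g.p0)) → J.card ≤ C0 := by
    intro τ hτ J hJ
    rw [hC0]
    refine hX3 ((τ : ℤ) - p0) J (fun a ha => ?_)
    obtain ⟨h1, b, h2, h3, h4⟩ := hJ a ha
    refine ⟨h1, b, h2, h3, ?_⟩
    have h5 := hcp a h1
    have e : ((τ + c b - c a - g.p0 : ℕ) : ℤ) = (τ : ℤ) - p0 + X0 * 2 ^ b - X0 * 2 ^ a := by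
      rw [Nat.cast_sub (by omega), Nat.cast_sub (by omega), hgp0, hcdef, hcdef]
      push_cast
      ring
    rw [← e]
    exact h4
  have hgapg : ∀ P Q : List α, g.Wo P → g.Wo (P ++ Q) → Q ≠ [] →
      2 * g.p0 + 2 * g.N1 < Q.length := by
    intro P Q h1 h2 h3
    have h4 : 0 < Q.length := List.length_pos_iff.2 h3
    have := hgap (P ++ Q) P.length (P.length + Q.length) (by omega) (by simp)
      (by rw [List.take_left]; exact h1) (by rw [← List.length_append, List.take_length]; exact h2)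
    omega
  have free : ∀ u : List α, (∀ t < u.length, ¬ g.Wo (u.take t)) →
      u ∈ (PN (max B (2 * p0 + 2 * N1)) 2 : Language α) := by
    intro u hu
    obtain ⟨a, x, v, j, h1, h2, h3, h4⟩ := hfree u hu
    refine Language.mem_mul.2 ⟨a ++ pw x j, ⟨a, x, j, le_trans h1 (le_max_left _ _),
      le_trans h2 (le_max_right _ _), rfl⟩, v, Language.mem_mul.2 ⟨v, ⟨v, [], 0,
      le_trans h3 (le_max_left _ _), by simp, by simp⟩, [], rfl, by simp⟩, h4.symm⟩
  -- finite-state properties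
  obtain ⟨BB, hBB⟩ : ∃ BB, BB = g.z + g.N1 + p0 + N1 + A1 := ⟨_, rfl⟩
  have nu_inv : ∀ u u' : List α, Cl φ BB M0 u u' → nu u = nu u' := by
    intro u u' h
    have hp : g.p0 ≤ BB := by omega
    have h1 := h.drop hp
    have h2 := hn1 _ _ (h1.mono (show N1 + A1 ≤ BB - g.p0 by omega))
    show act (nu2 (u.take g.p0) 1) ((u.drop g.p0).map φ).prod + nu1 (u.drop g.p0) =
      act (nu2 (u'.take g.p0) 1) ((u'.drop g.p0).map φ).prod + nu1 (u'.drop g.p0)
    rw [h.take hp, h1.prod, h2]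
  have E_inv : ∀ u u' : List α, Cl φ BB M0 u u' → g.E u → g.E u' := by
    rintro u u' h ⟨t, h1, h2, h3, h4⟩
    have h5 := h.2.1
    refine ⟨t, by omega, ?_, h3, h4⟩
    rw [← h.take (show t ≤ BB by omega)]
    exact h2
  have BT_inv : ∀ u u' : List α, Cl φ BB M0 u u' → BT (u.length - g.p0) →
      BT (u'.length - g.p0) := by
    intro u u' h hb
    have h1 := h.mod (show g.p0 ≤ BB by omega)
    refine bd_periodic ?_ hb
    rw [← hM0]
    have h2 : ((u'.length - g.p0 : ℕ) : ℤ) ≡ ((u.length - g.p0 : ℕ) : ℤ) [ZMOD (M0 : ℤ)] :=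
      Int.natCast_modEq_iff.2 h1.symm
    exact h2.dvd
  have Bad_inv : ∀ u u' : List α, Cl φ BB M0 u u' → (g.BadX BT u ↔ g.BadX BT u') := by
    intro u u' h
    constructor
    · rintro (h1 | h1)
      · exact Or.inl (E_inv _ _ h h1)
      · exact Or.inr (BT_inv _ _ h h1)
    · rintro (h1 | h1)
      · exact Or.inl (E_inv _ _ h.symm h1)
      · exact Or.inr (BT_inv _ _ h.symm h1)
  have T_inv : ∀ (x y : V) (u u' : List α), Cl φ BB M0 u u' →
      (act x (u.map φ).prod + nu u = y ↔ act x (u'.map φ).prod + nu u' = y) := by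
    intro x y u u' h
    rw [h.prod, nu_inv u u' h]
  -- the codes
  let C : Set (List α) := {X | g.XX X}
  let Bad : Set (List α) := {X | g.XX X ∧ g.BadX BT X}
  have hzpos : 0 < g.z := by omega
  have hC : PCode C := by
    refine ⟨fun h => ?_, ?_⟩
    · have := h.1
      simp at this
      omega
    · rintro X hX Y hY ⟨t, rfl⟩
      exact g.prefix_code (R := t) (R' := []) hX hY (by simp)
  have hBC : Bad ⊆ C := fun X h => h.1
  have hf1 : ∀ v, ({P | g.LP1 pre lam v P} : Set (List α)).Finite := by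
    intro v
    refine (List.finite_length_le α (g.p0 + g.N1)).subset ?_
    rintro P ⟨h1, h2⟩
    have := hlen' _ _ h2
    rw [List.length_drop] at this
    show P.length ≤ g.p0 + g.N1
    omega
  have hf2 : ∀ v, ({P | Geo.LP2 K c lam2 v P} : Set (List α)).Finite := by
    intro v
    refine (List.finite_length_le α p0).subset ?_
    rintro P ⟨j, h1, h2, -⟩
    show P.length ≤ p0
    rw [h2]
    exact hcp j h1
  refine Top5_120.top5 act hadd hone hmul hfaith φ nu C Bad hC hBC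
    (fun v => {P | g.LP1 pre lam v P}) (fun v => {P | Geo.LP2 K c lam2 v P}) hf1 hf2
    ?_ ?_ ?_ ?_ ?_ s
  · -- blocks with a value
    intro x y
    refine (P4_933.hl_XX (Wo := g.Wo) (n := g.n) (z := g.z) g.loc hlenW free
      (regular_of_class2 φ BB M0 hM0pos (fun X => act x (X.map φ).prod + nu X = y)
        (T_inv x y))).congr fun w => ?_
    constructor
    · rintro ⟨⟨h1, h2, h3⟩, h4⟩
      exact ⟨⟨h2, h1, fun t ht hz => h3 t hz ht⟩, h4⟩
    · rintro ⟨⟨h1, h2, h3⟩, h4⟩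
      exact ⟨⟨h2, h1, fun t ht hz => h3 t hz ht⟩, h4⟩
  · -- bad blocks with a value
    intro x y
    refine (P4_933.hl_XX (Wo := g.Wo) (n := g.n) (z := g.z) g.loc hlenW free
      (regular_of_class2 φ BB M0 hM0pos
        (fun X => g.BadX BT X ∧ act x (X.map φ).prod + nu X = y)
        (fun u u' h => and_congr (Bad_inv u u' h) (T_inv x y u u' h)))).congr fun w => ?_
    constructor
    · rintro ⟨⟨⟨h1, h2, h3⟩, h5⟩, h4⟩
      exact ⟨⟨h2, h1, fun t ht hz => h3 t hz ht⟩, h5, h4⟩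
    · rintro ⟨⟨h1, h2, h3⟩, h5, h4⟩
      exact ⟨⟨⟨h2, h1, fun t ht hz => h3 t hz ht⟩, h5⟩, h4⟩
  · -- rests
    intro s'
    refine (P4_933.hl_NB (Wo := g.Wo) (n := g.n) (z := g.z) g.loc hlenW free
      (regular_of_class2 φ BB M0 hM0pos (fun X => (X.map φ).prod = s')
        (fun u u' h => by rw [h.prod]))).congr fun w => ?_
    constructor
    · rintro ⟨h1, h2⟩
      refine ⟨(P4_933.NB_iff _ _ _).2 ?_, h2⟩
      rintro P hP ⟨h3, h4, h5⟩
      exact h1 P ⟨h4, h3, fun t ht hz => h5 t hz ht⟩ hP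
    · rintro ⟨h1, h2⟩
      refine ⟨?_, h2⟩
      rintro P ⟨h3, h4, h5⟩ hP
      exact (P4_933.NB_iff _ _ _).1 h1 P hP ⟨h4, h3, fun t ht hz => h5 t hz ht⟩
  · -- scheme 1
    intro X hX hXb v
    have hE : ¬ g.E X := fun h => hXb ⟨hX, Or.inl h⟩
    have hBT' : ¬ BT (X.length - g.p0) := fun h => hXb ⟨hX, Or.inr h⟩
    have hXz : g.z ≤ X.length := hX.1
    have hcu : ∀ u : V, ∃ P Q, X.drop g.p0 = P ++ Q ∧ lam P = some u ∧ (rho Q).isSome := by
      intro u
      have h1 : 2 * A1 ≤ (X.drop g.p0).length := by rw [List.length_drop]; omega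
      have h2 := clean_of_not_bad (k := k) (m := m) (κ := κ) (q := q)
        (n := (X.drop g.p0).length) (by rw [← hA1]; omega)
        (by rw [List.length_drop]; exact hBT')
      exact hc (X.drop g.p0) h1 h2.1 h2.2 u
    obtain ⟨P, Q, b, he, hP, hQ⟩ := g.complete1 pre hlen' hX hE hcu v
    refine ⟨P, Q, he.symm, hP, fun x P' hP' => ?_⟩
    obtain ⟨h1, h2⟩ := g.sound1 pre post hlen' hex1 hP' hQ
    obtain ⟨h3, h4⟩ := g.sound1 pre post hlen' hex1 hP hQ
    refine ⟨h1, ?_⟩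
    rw [← hT, ← hT, h2, he, h4]
  · -- scheme 2
    intro X hX Y hY v
    have hI : ∃ I : Finset ℕ, 2 * C0 + 2 ≤ I.card ∧ ∀ k ∈ I, k < K ∧
        lam2 k (X.take (c k)) = some v ∧
          ((fun k Q => rho2 k Q 1) k ((X.take g.p0).drop (c k))).isSome := by
      have hXz : g.z ≤ X.length := hX.1.1
      obtain ⟨I, hIc, hI⟩ := h22 (X.take g.p0) 1 v (by
        intro k hk
        have := hcg k hk
        rw [List.length_take]
        omega)
      refine ⟨I, hIc, fun k hk => ?_⟩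
      obtain ⟨h1, h2, h3⟩ := hI k hk
      refine ⟨h1, ?_, h3⟩
      rw [List.take_take, min_eq_left (hcg k h1)] at h2
      exact h2
    obtain ⟨P, Q, b, he, hP, hQ⟩ := g.complete2 pre post (C0 := C0) (BadT := BT)
      (rho2 := fun k Q => rho2 k Q 1) hcg hgapg hsp hthin hX.1 hY.1 v hI
    refine ⟨P, Q, he, hP, fun x P' hP' => ?_⟩
    have hb : g.T pre post (g.T pre post v X) Y = b := by
      obtain ⟨X2, h1, h2, h3⟩ := g.sound2 pre post (rho2 := fun k Q => rho2 k Q 1) hcg hex2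
        hX.1 hX.2 hP hQ (R := []) (R' := Y) (by rw [List.append_nil]; exact he)
      have : Y = X2 := List.append_cancel_left (he.symm.trans h2)
      rw [this]; exact h3
    obtain ⟨k0, hk0, hPl, hl0⟩ := hP'
    have hend : ∃ l, g.CEnd Q P'.length l := by
      obtain ⟨k1, hk1, l, h1, h2, -⟩ := hQ
      by_cases h : k0 = k1
      · exact ⟨l, by rw [hPl, h]; exact h1⟩
      · obtain ⟨l', h3, -⟩ := h2 k0 hk0 h
        exact ⟨l', by rw [hPl]; exact h3⟩
    obtain ⟨l, hle⟩ := hend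
    have hXX := g.xx_of_cend (P := P') (by rw [hPl]; exact hcg k0 hk0) hle
    by_cases hbad : g.BadX BT (P' ++ Q.take l)
    · left
      obtain ⟨X2, h1, h2, h3⟩ := g.sound2 pre post (rho2 := fun k Q => rho2 k Q 1) hcg hex2
        hXX hbad (⟨k0, hk0, hPl, hl0⟩ : Geo.LP2 K c lam2 x P') hQ (R := []) (R' := Q.drop l)
        (by rw [List.append_nil, List.append_assoc, List.take_append_drop])
      refine ⟨P' ++ Q.take l, ⟨hXX, hbad⟩, X2, h1, h2.symm, ?_⟩
      rw [← hT, ← hT, ← hT, ← hT, h3, hb]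
    · right
      exact ⟨P' ++ Q.take l, hXX, fun h => hbad h.2,
        ⟨Q.drop l, by rw [List.append_assoc, List.take_append_drop]⟩⟩

/-- **fibres of finite monoids have height at most three** -/
theorem fin (α : Type) [Finite α] (S : Type) [Monoid S] [Finite S] (φ : α → S) (s : S) :
    HL 3 ({w | (w.map φ).prod = s} : Language α) := by
  obtain ⟨act, hadd, hone, hmul, hfaith⟩ := exists_module S
  exact core α S (S → ZMod 2) act hadd hone hmul hfaith φ s

theorem row {α : Type*} [Finite α] (L : Language α) (hL : L.IsRegular) :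
    ∃ e : GRegExp α, e.height ≤ 3 ∧ e.lang = L :=
  Univ_480.row_of_small_alphabet (fun A _ S _ _ f s => fin A S f s) L hL

end Crest.Agent.R320.Fin_318
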