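import Crest.Agent.R320.Join_326
import Crest.Agent.R320.G1_604
import Crest.Agent.R320.Sp_69
import Crest.Agent.R320.ExactR_237
import Crest.Agent.R320.RegCongr_253
import Crest.Agent.R320.LetMap_922

/-!
# Row 320 from the landed parts (helper326)
-/

set_option autoImplicit false

namespace Crest.Agent.R320.Fin_326

open Crest.RegLang Crest.Agent.R320.Hk_851 Crest.Agent.R320.Sc2n_937 Crest.Agent.R320.Sp_69

/-- right action on functions -/
def act {S : Type} [Monoid S] (v : S → ZMod 2) (s : S) : S → ZMod 2 := fun t => v (s * t)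

theorem fibre {α : Type} [Finite α] {S : Type} [Monoid S] [Finite S] (φ : α → S) (s : S) :
    HL 3 ({w | (w.map φ).prod = s} : Language α) := by
  classical
  haveI : Fintype S := Fintype.ofFinite S
  obtain ⟨m, r, hg1⟩ := G1_604.g1 S (S → ZMod 2) act
  obtain ⟨K, hK⟩ := ExactR_237.exact_gadget α S (S → ZMod 2) φ act (2 * (r + m) + 2)
  obtain ⟨Ms, M, hcard, hMs, hM, hg⟩ := hg1 (2 * 4 ^ K)
  have h4K : 1 ≤ 4 ^ K := Nat.one_le_pow _ _ (by norm_num)
  set b : ℕ := M * (18 * 4 ^ K + 5) + 1 with hb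
  have hb1 : 4 * M + 4 < b := by rw [hb]; nlinarith
  have hb2 : 18 * 4 ^ K * M ≤ b := by rw [hb]; nlinarith
  have hcop : Nat.Coprime b M := by
    rw [hb, Nat.coprime_comm]
    have : Nat.Coprime M (M * (18 * 4 ^ K + 5) + 1) := by
      rw [Nat.coprime_mul_left_add_right]
      exact Nat.coprime_one_right M
    exact this
  obtain ⟨lam, rho, nu1, hlam, hsound, hcomplete, hfs⟩ := hg b hb1 hcop α φ
  set N1 : ℕ := b ^ m with hN1
  have hN1pos : 0 < N1 := by rw [hN1]; exact Nat.pow_pos (by omega)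
  obtain ⟨c, hc1, hc2, -, -, hc5⟩ := Sp_69.spoil Ms M m b K N1 hM
    (fun k hk => ⟨(hMs k hk).2.2, (hMs k hk).1⟩) hb2 hcop
  obtain ⟨lam2, rho2, nu2, hs2, hcm2⟩ := hK c (fun i j hij _ => by have := hc1 i j hij; omega)
  set p0 : ℕ := c K with hp0
  have hcp : ∀ k, k < K → c k ≤ p0 := fun k hk => by have := hc1 k K hk; omega
  obtain ⟨n, Wo, hn, hWlen, hWloc, hWgap, hWHL⟩ :=
    OutRule_480.outer_rule_left (α := α) (2 * p0 + 2 * N1 + 1)
  let g : Geo α :=
    { Wo := Wo, n := n, z := p0 + N1 + (2 * p0 + n), p0 := p0, q0 := 2 * p0 + n, N1 := N1,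
      loc := hWloc, hz := rfl, hq := by omega, hN := hN1pos, hqp := by omega }
  refine Join_326.join (act := act) (φ := φ) (g := g) (nu1 := nu1) (nu2 := fun X => nu2 X 1)
    (lam := lam) (rho := rho) (K := K) (c := c) (lam2 := lam2)
    (rho2 := fun k Q => rho2 k Q 1) (BadT := fun t => BadN Ms M m b t) (T0 := 0) (C0 := r + m)
    ?_ ?_ ?_ ?_ hWlen hWHL ?_ ?_ ?_ ?_ hcp ?_ ?_ ?_ ?_ ?_ ?_ s
  · intro a b s; rfl
  · intro v; funext t; show v (1 * t) = v t; rw [one_mul]
  · intro v s t; funext x; show v (s * t * x) = v (s * (t * x)); rw [mul_assoc]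
  · intro s t h
    have := congrFun (h (fun x => if x = s then 1 else 0)) 1
    have h2 : (if s * 1 = s then (1 : ZMod 2) else 0) = if t * 1 = s then 1 else 0 := this
    rw [mul_one, mul_one, if_pos rfl] at h2
    by_contra hne
    rw [if_neg (fun h => hne h.symm)] at h2
    exact one_ne_zero h2
  · intro P v h
    exact (hlam P v h).le
  · intro P Q u b' h1 h2
    exact hsound P Q u b' h1 h2
  · intro Y _ hnb u
    have hnb' : ¬ BadN Ms M m b Y.length := hnb
    unfold BadN at hnb'
    push Not at hnb'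
    obtain ⟨P, Q, e, h1, h2⟩ := hcomplete Y (fun k hk => hnb'.1 k hk) (fun j hj => by
      have := hnb'.2 j hj
      exact this) u
    exact ⟨P, Q, e.symm, h1, h2⟩
  · show 0 + p0 ≤ p0 + N1 + (2 * p0 + n)
    omega
  · intro k hk P Q v u hP hQ h1 h2
    have := hs2 k hk P Q 1 v u hP h1 h2
    rw [mul_one] at this
    exact this
  · intro P Q h1 h2 hne
    have hl : 0 < Q.length := List.length_pos_iff.2 hne
    have := hWgap (P ++ Q) Q.length h2 hl (by rw [List.length_append]; omega) (by
      rw [List.length_append, Nat.add_sub_cancel, List.take_left]; exact h1)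
    show 2 * p0 + 2 * N1 < Q.length
    omega
  · intro k k' l l' hk hk' hl hl' hkk hll h1 h2
    by_contra hne
    have h1' : c k + c l' < c l + c k' + 2 * N1 := h1
    have h2' : c l + c k' < c k + c l' + 2 * N1 := h2
    rcases hc2 k k' l l' (fun h => hkk h.symm) (fun h => hll h.symm) (fun h => hne (by
      exact congrArg Prod.fst h)) with h | h
    · omega
    · omega
  · intro τ hτ J hJ
    have hτ' : p0 + N1 + (2 * p0 + n) ≤ τ + p0 := hτ
    have hT : ∀ k < K, c k ≤ τ - p0 := fun k hk => by have := hcp k hk; omega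
    have h5 := hc5 (τ - p0) hT
    have hsub : J ⊆ ((Finset.range K ×ˢ Finset.range K).filter
        (fun ab => ab.1 ≠ ab.2 ∧ BadN Ms M m b (τ - p0 + c ab.2 - c ab.1))).image Prod.fst := by
      intro k hk
      obtain ⟨h1, k', h2, h3, h4⟩ := hJ k hk
      rw [Finset.mem_image]
      refine ⟨(k, k'), ?_, rfl⟩
      rw [Finset.mem_filter, Finset.mem_product, Finset.mem_range, Finset.mem_range]
      refine ⟨⟨h1, h2⟩, fun h => h3 h.symm, ?_⟩
      have e : τ + c k' - c k - p0 = τ - p0 + c k' - c k := by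
        have := hT k h1
        omega
      have h4' : BadN Ms M m b (τ + c k' - c k - p0) := h4
      rw [e] at h4'
      exact h4'
    exact ((Finset.card_le_card hsub).trans Finset.card_image_le).trans (h5.trans (by omega))
  · intro X0 v hX0
    have hX0' : X0.length = p0 := hX0
    obtain ⟨I, hI1, hI2⟩ := hcm2 X0 1 v (fun k hk => by rw [hX0']; exact hcp k hk)
    exact ⟨I, hI1, fun k hk => hI2 k hk⟩
  · intro y
    refine RegCongr_253.regular_of_congr φ N1 (M * N1) (Nat.mul_pos hM hN1pos) _ ?_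
    intro q q' h1 h2 h3 h4 h5 h6
    have := (hfs q q' h1 h2 h3 h4 h5).2
    have h6' : nu1 q = y := h6
    show nu1 q' = y
    rw [← this]; exact h6'

theorem result (α : Type*) [Finite α] (L : Language α) (hL : L.IsRegular) :
    ∃ e : GRegExp α, e.height ≤ 3 ∧ e.lang = L :=
  Crest.Agent.R320.LetMap_922.of_fin_result
    (fun n L hL => Hk_851.of_monoid (fun S _ _ φ s => fibre φ s) L hL) α L hL

end Crest.Agent.R320.Fin_326
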