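import Crest.Agent.R320.JoinA_329
import Crest.Agent.R320.Grid_899
import Crest.Agent.R320.Thin_963
import Crest.Agent.R320.ExactR_237
import Crest.Agent.R320.LWallAll_922

/-! Row 320: the fibres of every finite monoid have height at most 3 (helper329, join of the
team's files). -/

set_option autoImplicit false

namespace Crest.Agent.R320.Fin_329

open Crest.RegLang Crest.Agent.R320.Hk_851 Crest.Agent.R320.JoinA_329 Crest.Agent.R320.BddReg_746
open Crest.Agent.R320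

/-- regularized `nu` -/
theorem reg_nu {α S V : Type} [Monoid S] [AddCommGroup V] (act : V → S → V) (φ : α → S)
    (A1 M0 : ℕ) (lam rho : List α → Option V) (nu : List α → V)
    (h1 : ∀ P v, lam P = some v → P.length < A1)
    (h2 : ∀ P Q v b, lam P = some v → rho Q = some b →
      b = act v ((P ++ Q).map φ).prod + nu (P ++ Q))
    (h3 : ∀ Q Q', Cls φ A1 M0 Q Q' → rho Q = rho Q') :
    ∃ nu' : List α → V,
      (∀ P Q v b, lam P = some v → rho Q = some b →
        b = act v ((P ++ Q).map φ).prod + nu' (P ++ Q)) ∧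
      ∀ Y Y', Cls φ (2 * A1) M0 Y Y' → nu' Y = nu' Y' := by
  classical
  let lg : List α → Prop := fun Y => ∃ P Q v b, Y = P ++ Q ∧ lam P = some v ∧ rho Q = some b
  refine ⟨fun Y => if lg Y then nu Y else 0, ?_, ?_⟩
  · intro P Q v b hP hQ
    have : lg (P ++ Q) := ⟨P, Q, v, b, rfl, hP, hQ⟩
    simp only [if_pos this]
    exact h2 P Q v b hP hQ
  · have key : ∀ Y Y', Cls φ (2 * A1) M0 Y Y' → lg Y → lg Y' ∧ nu Y = nu Y' := by
      rintro Y Y' h ⟨P, Q, v, b, e, hP, hQ⟩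
      have hl := h1 P v hP
      have eP : Y.take P.length = P := by rw [e, List.take_left]
      have eQ : Y.drop P.length = Q := by rw [e, List.drop_left]
      have eP' : Y'.take P.length = P := by
        rw [← take_eq_of (A := 2 * A1) (by omega) h.2.2.1, eP]
      have hQ' : rho (Y'.drop P.length) = some b := by
        rw [← h3 (Y.drop P.length) (Y'.drop P.length) (h.drop (by omega)), eQ, hQ]
      have e' : Y' = P ++ Y'.drop P.length := by
        have := List.take_append_drop P.length Y'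
        rw [eP'] at this
        exact this.symm
      refine ⟨⟨P, _, v, b, e', hP, hQ'⟩, ?_⟩
      have a1 := h2 P Q v b hP hQ
      have a2 := h2 P _ v b hP hQ'
      rw [← e] at a1
      rw [← e'] at a2
      have a3 : (Y.map φ).prod = (Y'.map φ).prod := by
        have := drop_prod h (j := 0) (by omega)
        simpa using this
      rw [a3] at a1
      rw [a1] at a2
      exact add_left_cancel a2
    intro Y Y' h
    by_cases hY : lg Y
    · obtain ⟨hY', e⟩ := key Y Y' h hY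
      simp only [if_pos hY, if_pos hY', e]
    · have hY' : ¬ lg Y' := fun h' => hY (key Y' Y h.symm h').1
      simp only [if_neg hY, if_neg hY']

theorem grow (Ms m K : ℕ) : ∃ κ : ℕ, ∀ i < m,
    2 ^ (K + 4) * ∑ j ∈ Finset.range (i + 1), (Ms * Grid_899.G κ j) ≤ Grid_899.G κ (i + 1) := by
  refine ⟨2 ^ (K + 4) * (m * Ms), fun i hi => ?_⟩
  set κ := 2 ^ (K + 4) * (m * Ms) with hκ
  have h1 : ∑ j ∈ Finset.range (i + 1), (Ms * Grid_899.G κ j) ≤
      (i + 1) * (Ms * Grid_899.G κ i) := by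
    have := Finset.sum_le_card_nsmul (Finset.range (i + 1)) (fun j => Ms * Grid_899.G κ j)
      (Ms * Grid_899.G κ i) (by
        intro j hj
        have hj' : j ≤ i := by
          have := Finset.mem_range.1 hj
          omega
        exact Nat.mul_le_mul_left _ (Nat.pow_le_pow_right (by norm_num)
          (Nat.mul_le_mul_left _ hj')))
    simpa using this
  have h2 : κ < 2 ^ κ := Nat.lt_two_pow_self
  calc 2 ^ (K + 4) * ∑ j ∈ Finset.range (i + 1), (Ms * Grid_899.G κ j)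
      ≤ 2 ^ (K + 4) * ((i + 1) * (Ms * Grid_899.G κ i)) := Nat.mul_le_mul_left _ h1
    _ ≤ 2 ^ (K + 4) * (m * (Ms * Grid_899.G κ i)) :=
        Nat.mul_le_mul_left _ (Nat.mul_le_mul_right _ hi)
    _ = κ * Grid_899.G κ i := by rw [hκ]; ring
    _ ≤ 2 ^ κ * Grid_899.G κ i := Nat.mul_le_mul_right _ h2.le
    _ = Grid_899.G κ (i + 1) := by
        unfold Grid_899.G
        rw [← pow_add]
        congr 1
        ring

theorem sp {x N : ℕ} (hx : 2 * N + 1 ≤ x) (k k' l l' : ℕ) (h1 : k' ≠ k) (h2 : l' ≠ l)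
    (h3 : x * 2 ^ k + x * 2 ^ l' < x * 2 ^ l + x * 2 ^ k' + 2 * N)
    (h4 : x * 2 ^ l + x * 2 ^ k' < x * 2 ^ k + x * 2 ^ l' + 2 * N) : k = l := by
  have h5 : (2 : ℤ) ^ k - 2 ^ k' = 2 ^ l - 2 ^ l' := by
    by_contra hne
    have h6 : (1 : ℤ) ≤ |((2 : ℤ) ^ k + 2 ^ l') - (2 ^ l + 2 ^ k')| :=
      Int.one_le_abs (by intro h; apply hne; linarith)
    have h7 : |(x : ℤ) * (((2 : ℤ) ^ k + 2 ^ l') - (2 ^ l + 2 ^ k'))| < 2 * N := by
      have h3' : ((x * 2 ^ k + x * 2 ^ l' : ℕ) : ℤ) <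
          ((x * 2 ^ l + x * 2 ^ k' + 2 * N : ℕ) : ℤ) := by exact_mod_cast h3
      have h4' : ((x * 2 ^ l + x * 2 ^ k' : ℕ) : ℤ) <
          ((x * 2 ^ k + x * 2 ^ l' + 2 * N : ℕ) : ℤ) := by exact_mod_cast h4
      push_cast at h3' h4'
      rw [abs_lt]
      constructor <;> nlinarith
    rw [abs_mul, abs_of_nonneg (by positivity : (0 : ℤ) ≤ x)] at h7
    have h8 : (x : ℤ) * 1 ≤ x * |((2 : ℤ) ^ k + 2 ^ l') - (2 ^ l + 2 ^ k')| :=
      mul_le_mul_of_nonneg_left h6 (by positivity)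
    have h9 : (2 * N + 1 : ℤ) ≤ x := by exact_mod_cast hx
    linarith
  exact (G369.pow_diff h1.symm h2.symm h5).1

theorem primes (k b : ℕ) : ∃ q : Fin k → ℕ, (∀ j, (q j).Prime ∧ b ≤ q j) ∧
    Function.Injective q := by
  refine ⟨fun j => Nat.nth Nat.Prime (b + j), fun j => ⟨Nat.prime_nth_prime _, ?_⟩, ?_⟩
  · have := (Nat.nth_strictMono Nat.infinite_setOf_prime).le_apply (x := b + (j : ℕ))
    show b ≤ Nat.nth Nat.Prime (b + (j : ℕ))
    exact le_trans (Nat.le_add_right _ _) this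
  · intro i j h
    have := (Nat.nth_strictMono Nat.infinite_setOf_prime).injective h
    ext
    omega

/-- the bad totals -/
def BT (k : ℕ) (q : Fin k → ℕ) (κ m : ℕ) (n : ℕ) : Prop :=
  Thin963.BadT (Finset.univ.image q) m (fun i => (Grid_899.G κ i : ℤ))
    (fun i => (((∏ j, q j) * Grid_899.G κ i : ℕ) : ℤ))
    (fun i => (Grid_899.Am (∏ j, q j) κ i : ℤ)) (n : ℤ)

theorem BT_per {k : ℕ} {q : Fin k → ℕ} {κ m n n' : ℕ}
    (h : n % ((∏ j, q j) * Grid_899.G κ m) = n' % ((∏ j, q j) * Grid_899.G κ m))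
    (hb : BT k q κ m n) : BT k q κ m n' := by
  have hd : (((∏ j, q j) * Grid_899.G κ m : ℕ) : ℤ) ∣ (n' : ℤ) - n := Nat.modEq_iff_dvd.1 h
  rcases hb with ⟨a, ha, h1⟩ | ⟨i, hi, e, he, h1⟩
  · left
    refine ⟨a, ha, ?_⟩
    obtain ⟨j, -, rfl⟩ := Finset.mem_image.1 ha
    have h2 : (q j : ℤ) ∣ (((∏ j, q j) * Grid_899.G κ m : ℕ) : ℤ) :=
      Int.natCast_dvd_natCast.2 (dvd_trans (Finset.dvd_prod_of_mem q (Finset.mem_univ j))
        (Nat.dvd_mul_right _ _))
    have h3 := dvd_add h1 (h2.trans hd)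
    have e1 : (n : ℤ) + (n' - n) = n' := by ring
    rw [e1] at h3
    exact h3
  · right
    refine ⟨i, hi, e, he, ?_⟩
    have h2 : (Grid_899.G κ (i + 1) : ℤ) ∣ (((∏ j, q j) * Grid_899.G κ m : ℕ) : ℤ) :=
      Int.natCast_dvd_natCast.2 (dvd_trans (Grid_899.G_dvd (by omega)) (Nat.dvd_mul_left _ _))
    have h3 := dvd_add h1 (h2.trans hd)
    have e1 : (n : ℤ) - (Grid_899.Am (∏ j, q j) κ (i + 1) : ℤ) + e + (n' - n) =
      n' - (Grid_899.Am (∏ j, q j) κ (i + 1) : ℤ) + e := by ring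
    rw [e1] at h3
    exact h3

theorem BT_clean {k : ℕ} {q : Fin k → ℕ} {κ m T : ℕ}
    (hT : 2 * Grid_899.Am (∏ j, q j) κ (m + 1) ≤ T) (hb : ¬ BT k q κ m T) :
    (∀ j, ¬ q j ∣ T) ∧ (∀ j, 1 ≤ j → j ≤ m →
      (∏ j, q j) * Grid_899.G κ (j - 1) ≤ (T - Grid_899.Am (∏ j, q j) κ j) % Grid_899.G κ j ∧
      (T - Grid_899.Am (∏ j, q j) κ j) % Grid_899.G κ j + (∏ j, q j) * Grid_899.G κ (j - 1) ≤
        Grid_899.G κ j) := by
  constructor
  · intro j hj
    exact hb (Or.inl ⟨q j, Finset.mem_image.2 ⟨j, Finset.mem_univ j, rfl⟩,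
      Int.natCast_dvd_natCast.2 hj⟩)
  · intro j hj1 hjm
    have hA : Grid_899.Am (∏ j, q j) κ j ≤ Grid_899.Am (∏ j, q j) κ (m + 1) :=
      Grid_899.Am_mono (by omega)
    obtain ⟨i, rfl⟩ : ∃ i, j = i + 1 := ⟨j - 1, by omega⟩
    simp only [Nat.add_sub_cancel]
    set A := Grid_899.Am (∏ j, q j) κ (i + 1) with hAd
    set G := Grid_899.G κ (i + 1) with hG
    set c := (∏ j, q j) * Grid_899.G κ i with hc
    have hdm := Nat.div_add_mod (T - A) G
    have hlt : (T - A) % G < G := Nat.mod_lt _ (Grid_899.G_pos _)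
    have hTA : ((T - A : ℕ) : ℤ) = (T : ℤ) - A := by
      rw [Nat.cast_sub (by omega)]
    have hdm' : (G : ℤ) * (((T - A) / G : ℕ) : ℤ) + (((T - A) % G : ℕ) : ℤ) = (T : ℤ) - A := by
      rw [← hTA]
      exact_mod_cast hdm
    constructor
    · by_contra hcon
      apply hb
      right
      refine ⟨i, by omega, -(((T - A) % G : ℕ) : ℤ), ?_, ?_⟩
      · rw [abs_neg, abs_of_nonneg (by positivity)]
        have : (T - A) % G ≤ c := by omega
        show (((T - A) % G : ℕ) : ℤ) ≤ (c : ℤ)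
        exact_mod_cast this
      · show (G : ℤ) ∣ (T : ℤ) - A + -(((T - A) % G : ℕ) : ℤ)
        exact ⟨(((T - A) / G : ℕ) : ℤ), by rw [← hdm']; ring⟩
    · by_contra hcon
      apply hb
      right
      refine ⟨i, by omega, (G : ℤ) - (((T - A) % G : ℕ) : ℤ), ?_, ?_⟩
      · have h1 : (((T - A) % G : ℕ) : ℤ) < G := by exact_mod_cast hlt
        have h2 : (G : ℤ) < (((T - A) % G + c : ℕ) : ℤ) := by
          have : G < (T - A) % G + c := by omega
          exact_mod_cast this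
        push_cast at h2
        rw [abs_of_nonneg (by linarith)]
        show (G : ℤ) - (((T - A) % G : ℕ) : ℤ) ≤ (c : ℤ)
        push_cast
        linarith
      · show (G : ℤ) ∣ (T : ℤ) - A + ((G : ℤ) - (((T - A) % G : ℕ) : ℤ))
        exact ⟨(((T - A) / G : ℕ) : ℤ) + 1, by rw [← hdm']; ring⟩

theorem fin (α : Type) [Finite α] (S : Type) [Monoid S] [Finite S] (φ : α → S) (s : S) :
    HL 3 ({w | (w.map φ).prod = s} : Language α) := by
  classical
  obtain ⟨act, hadd, hone, hmul, hfaith⟩ := Blk467.exists_module S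
  obtain ⟨k, m, Hg⟩ := Grid_899.grid_gadget_reg S (S → ZMod 2) act
  letI : Fintype S := Fintype.ofFinite S
  obtain ⟨K, HK⟩ := ExactR_237.exact_gadget α S (S → ZMod 2) φ act (2 * (k + m) + 2)
  obtain ⟨q, hq, hqinj⟩ := primes k (2 ^ (K + 1) + 1)
  have hK2 : 2 ≤ 2 ^ (K + 1) := by
    rw [pow_succ]
    have : 1 ≤ 2 ^ K := Nat.one_le_two_pow
    omega
  have hodd : ∀ j, Odd (q j) := fun j =>
    (hq j).1.eq_two_or_odd'.resolve_left (by have := (hq j).2; omega)
  have hcop : Pairwise (fun i j => Nat.Coprime (q i) (q j)) := fun i j hij =>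
    (Nat.coprime_primes (hq i).1 (hq j).1).2 (fun h => hij (hqinj h))
  have hMspos : 0 < ∏ j, q j := Finset.prod_pos (fun j _ => (hq j).1.pos)
  obtain ⟨κ, hκ⟩ := grow (∏ j, q j) m K
  obtain ⟨lam, rho, nu, g1, g2, g3, g4, g5⟩ := Hg q hodd hcop κ α (fun u => (u.map φ).prod)
    (fun u v => by simp)
  set A1 := Grid_899.Am (∏ j, q j) κ (m + 1) with hA1
  set M0 := (∏ j, q j) * Grid_899.G κ m with hM0
  have hM0pos : 0 < M0 := Nat.mul_pos hMspos (Grid_899.G_pos _)
  have hg1 : ∀ P v, lam P = some v → P.length < A1 := fun P v h =>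
    lt_of_lt_of_le (g1 P v h).1 (Grid_899.Am_mono (Nat.le_succ m))
  obtain ⟨nu1, n1, n2⟩ := reg_nu act φ A1 M0 lam rho nu hg1 g3
    (fun Q Q' h => by
      have h5 := g5 Q Q' h.1 h.2.1 h.2.2.1 h.2.2.2.2 h.2.2.2.1
      first
        | exact h5
        | exact h5.1)
  obtain ⟨X, hX1, hX2, hX3⟩ := Thin963.thin K m (Finset.univ.image q)
    (fun i => (Grid_899.G κ i : ℤ)) (fun i => (((∏ j, q j) * Grid_899.G κ i : ℕ) : ℤ))
    (fun i => (Grid_899.Am (∏ j, q j) κ i : ℤ))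
    (by
      intro a ha
      obtain ⟨j, -, rfl⟩ := Finset.mem_image.1 ha
      have := (hq j).2
      exact ⟨(hq j).1, by omega⟩)
    (by
      intro a ha
      obtain ⟨j, -, rfl⟩ := Finset.mem_image.1 ha
      exact (Nat.isCoprime_iff_coprime).2
        (Nat.Coprime.pow_right _ ((Nat.coprime_two_right).2 (hodd j))))
    (by exact_mod_cast Grid_899.G_pos m)
    (fun i j hij => Int.natCast_dvd_natCast.2 (Grid_899.G_dvd hij))
    (fun i => by exact_mod_cast Nat.mul_pos hMspos (Grid_899.G_pos i))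
    (fun i => Int.natCast_dvd_natCast.2 (Nat.dvd_mul_left _ _))
    (by
      intro i hi
      have := hκ i hi
      exact_mod_cast this)
    ((2 * (A1 + 1) + 1 : ℕ) : ℤ)
  obtain ⟨x, rfl⟩ := Int.eq_ofNat_of_zero_le hX2.le
  have hx : 2 * (A1 + 1) + 1 ≤ x := by exact_mod_cast hX1
  have hcstrict : ∀ i j, i < j → j < K → x * 2 ^ i < x * 2 ^ j := fun i j hij _ =>
    Nat.mul_lt_mul_of_pos_left (Nat.pow_lt_pow_right (by norm_num) hij) (by omega)
  obtain ⟨lam2, rho2, nu2, e1, e2⟩ := HK (fun j => x * 2 ^ j) hcstrict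
  have hcK : ∀ k, k < K → x * 2 ^ k ≤ x * 2 ^ K := fun k hk =>
    Nat.mul_le_mul_left _ (Nat.pow_le_pow_right (by norm_num) hk.le)
  obtain ⟨n, G', B, Wo, hLW, hgap, -, -, hfree⟩ :=
    LWallAll_922.walls_all_left α (2 * (x * 2 ^ K) + 2 * (A1 + 1) + 1) (by omega)
  let g : Sc2n_937.Geo α :=
    { Wo := Wo
      n := n
      z := x * 2 ^ K + (A1 + 1) + (n + 2 * (x * 2 ^ K) + 2 * A1)
      p0 := x * 2 ^ K
      q0 := n + 2 * (x * 2 ^ K) + 2 * A1
      N1 := A1 + 1
      loc := hLW.app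
      hz := rfl
      hq := by omega
      hN := by omega
      hqp := by omega }
  refine join act hadd hone hmul hfaith φ g hLW.len ?_
    (B := max B (2 * (x * 2 ^ K) + 2 * (A1 + 1) + 1)) (R := 2) ?_ nu1 (fun u => nu2 u 1)
    lam rho lam2 (fun k Q => rho2 k Q 1) K (fun j => x * 2 ^ j) (k + m) (BT k q κ m)
    ?_ n1 ?_ hcK ?_ ?_ ?_ ?_ (2 * A1) M0 hM0pos n2 (fun n n' h hb => BT_per h hb) s
  · -- gap
    intro P Q hP hPQ hQ
    have hQl : 0 < Q.length := List.length_pos_iff.2 hQ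
    have := hgap (P ++ Q) P.length (P ++ Q).length (by rw [List.length_append]; omega) le_rfl
      (by rw [List.take_left]; exact hP) (by rw [List.take_length]; exact hPQ)
    rw [List.length_append] at this
    show 2 * (x * 2 ^ K) + 2 * (A1 + 1) < Q.length
    omega
  · -- free words
    intro u hu
    obtain ⟨f, y, v, r, h1, h2, h3, h4⟩ := hfree u hu
    refine Language.mem_mul.2 ⟨f ++ pw y r, ⟨f, y, r, le_trans h1 (le_max_left _ _),
      le_trans h2 (le_max_right _ _), rfl⟩, v, ?_, by rw [h4]; rfl⟩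
    exact Language.mem_mul.2 ⟨v, ⟨v, [], 0, le_trans h3 (le_max_left _ _), by simp, by simp⟩,
      [], rfl, by simp⟩
  · intro P v h
    have := hg1 P v h
    show P.length ≤ A1 + 1
    omega
  · intro u hu hb v
    have hu' : n + 2 * (x * 2 ^ K) + 2 * A1 ≤ u.length := hu
    have hu2 : 2 * A1 ≤ u.length := by omega
    obtain ⟨c1, c2⟩ := BT_clean hu2 hb
    exact g4 u hu2 c1 c2 v
  · intro k hk P Q v u hP hQ h1 h2
    exact e1 k hk P Q 1 v u hP h1 h2 |>.trans (by rw [mul_one]; rfl)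
  · intro u v hu
    have hu' : u.length = x * 2 ^ K := hu
    obtain ⟨I, hI, h⟩ := e2 u 1 v (fun k hk => by rw [hu']; exact hcK k hk)
    exact ⟨I, hI, h⟩
  · intro k k' l l' _ _ _ _ h1 h2 h3 h4
    exact sp hx k k' l l' h1 h2 h3 h4
  · intro τ hτ J hJ
    have hτ' : x * 2 ^ K + (A1 + 1) + (n + 2 * (x * 2 ^ K) + 2 * A1) ≤ τ + x * 2 ^ K := hτ
    have hcard : (Finset.univ.image q).card ≤ k := by
      refine le_trans Finset.card_image_le ?_
      simp
    refine le_trans (Finset.card_le_card (t := Finset.image Prod.snd _) ?_)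
      (le_trans Finset.card_image_le (le_trans (hX3 ((τ : ℤ) - ((x * 2 ^ K : ℕ) : ℤ)))
        (Nat.add_le_add_right hcard m)))
    intro a ha
    obtain ⟨haK, a', ha'K, hne, hb⟩ := hJ a ha
    have h1 := hcK a haK
    refine Finset.mem_image.2 ⟨(a', a), ?_, rfl⟩
    refine Finset.mem_filter.2 ⟨Finset.mem_product.2 ⟨Finset.mem_range.2 ha'K,
      Finset.mem_range.2 haK⟩, hne, ?_⟩
    have hb' : BT k q κ m (τ + x * 2 ^ a' - x * 2 ^ a - x * 2 ^ K) := hb
    have hcast : ((τ + x * 2 ^ a' - x * 2 ^ a - x * 2 ^ K : ℕ) : ℤ) =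
        (τ : ℤ) - ((x * 2 ^ K : ℕ) : ℤ) + (x : ℤ) * 2 ^ a' - (x : ℤ) * 2 ^ a := by
      rw [Nat.cast_sub (by omega), Nat.cast_sub (by omega)]
      push_cast
      ring
    unfold BT at hb'
    rw [hcast] at hb'
    exact hb'

end Crest.Agent.R320.Fin_329
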