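import Crest.Agent.R320.Top5_120
import Crest.Agent.R320.Sc2n_937
import Crest.Agent.R320.G1_852
import Crest.Agent.R320.ExactR_237
import Crest.Agent.R320.Thin_963
import Crest.Agent.R320.P4_933
import Crest.Agent.R320.AsmG1_588

/-!
# Row 320: the join (helper33)
-/

set_option autoImplicit false
set_option linter.unusedSectionVars false

namespace Crest.Agent.R320.Fin_33

open Crest.RegLang Crest.Agent.R320.Hk_851 Crest.Agent.R320.BddReg_746 Crest.Agent.R320.Blk467

/-- finite-state properties are regular -/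
theorem reg_class {α : Type} [Finite α] {S : Type} [Monoid S] [Finite S] (φ : α → S) (A M0 : ℕ)
    (hM : 0 < M0) (f : List α → Prop)
    (hf : ∀ u0 u u' : List α, u0.length = A → u.length % M0 = u'.length % M0 →
      (u.map φ).prod = (u'.map φ).prod → (f (u0 ++ u) ↔ f (u0 ++ u'))) :
    Language.IsRegular ({u | f u} : Language α) := by
  apply Language.IsRegular.of_finite_range_leftQuotient
  have hfin : (Set.range fun u : List α =>
      ((⟨u.take A, (List.length_take_le _ _)⟩ : {l : List α // l.length ≤ A}),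
        ((⟨u.length % M0, Nat.mod_lt _ hM⟩ : Fin M0), ((u.drop A).map φ).prod))).Finite := by
    have : Finite {l : List α // l.length ≤ A} := (List.finite_length_le α A).to_subtype
    exact Set.toFinite _
  refine Set.Finite.subset (hfin.image fun t => ({w | ∃ u : List α,
      u.take A = t.1.1 ∧ u.length % M0 = t.2.1.1 ∧ ((u.drop A).map φ).prod = t.2.2 ∧
        f (u ++ w)} : Language α)) ?_
  rintro _ ⟨u, rfl⟩
  refine ⟨_, ⟨u, rfl⟩, ?_⟩
  ext w
  constructor
  · rintro ⟨u', h1, h2, h3, h4⟩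
    change f (u ++ w)
    simp only at h1 h2 h3
    by_cases hl : A ≤ u.length
    · have hl' : A ≤ u'.length := by
        have := congrArg List.length h1
        rw [List.length_take, List.length_take] at this
        omega
      have e1 : u ++ w = u.take A ++ (u.drop A ++ w) := by
        rw [← List.append_assoc, List.take_append_drop]
      have e2 : u' ++ w = u'.take A ++ (u'.drop A ++ w) := by
        rw [← List.append_assoc, List.take_append_drop]
      rw [e1]
      rw [e2, h1] at h4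
      refine (hf (u.take A) _ _ ?_ ?_ ?_).1 h4
      · rw [List.length_take]; omega
      · rw [List.length_append, List.length_append, List.length_drop, List.length_drop]
        have q1 : u'.length = A + (u'.length - A) := by omega
        have q2 : u.length = A + (u.length - A) := by omega
        have q3 : (u'.length - A) ≡ (u.length - A) [MOD M0] := by
          apply Nat.ModEq.add_left_cancel' A
          rw [← q1, ← q2]
          exact h2
        exact Nat.ModEq.add_right _ q3
      · rw [List.map_append, List.map_append, List.prod_append, List.prod_append, h3]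
    · have e1 : u.take A = u := List.take_of_length_le (by omega)
      have e2 : u'.take A = u' := by
        apply List.take_of_length_le
        have := congrArg List.length h1
        rw [List.length_take, List.length_take] at this
        omega
      rw [e1, e2] at h1
      rw [← h1]
      exact h4
  · intro h
    exact ⟨u, rfl, rfl, rfl, h⟩

variable {α S V : Type} [Finite α] [Monoid S] [Finite S] [AddCommGroup V] [Finite V]

theorem exists_block (g : Sc2n_937.Geo α) (w : List α) (hw : g.Wo w) (hz : g.z ≤ w.length) :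
    ∃ X, g.XX X ∧ X <+: w := by
  classical
  have hex : ∃ t, g.z ≤ t ∧ t ≤ w.length ∧ g.Wo (w.take t) :=
    ⟨w.length, hz, le_rfl, by rw [List.take_length]; exact hw⟩
  obtain ⟨h1, h2, h3⟩ := Nat.find_spec hex
  have hl : (w.take (Nat.find hex)).length = Nat.find hex := by
    rw [List.length_take]; omega
  refine ⟨w.take (Nat.find hex), ⟨by rw [hl]; exact h1, h3, ?_⟩, List.take_prefix _ _⟩
  intro t ht1 ht2 ht3
  rw [hl] at ht2
  rw [List.take_take, min_eq_left ht2.le] at ht3
  exact Nat.find_min hex ht2 ⟨ht1, by omega, ht3⟩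

theorem join (act : V → S → V)
    (hadd : ∀ a b s, act (a + b) s = act a s + act b s)
    (hone : ∀ v, act v 1 = v) (hmul : ∀ v s t, act v (s * t) = act (act v s) t)
    (hfaith : ∀ s t, (∀ v, act v s = act v t) → s = t)
    (φ : α → S) (g : Sc2n_937.Geo α) (hlenW : ∀ P, g.Wo P → g.n ≤ P.length) {B : ℕ}
    (free : ∀ u : List α, (∀ t < u.length, ¬ g.Wo (u.take t)) → u ∈ (PN B 2 : Language α))
    (hgap : ∀ P Q : List α, g.Wo P → g.Wo (P ++ Q) → Q ≠ [] → 2 * g.p0 + 2 * g.N1 < Q.length)
    (lam rho : List α → Option V) (nu1 : List α → V) (Mq A : ℕ) (hMq : 0 < Mq)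
    (h1 : ∀ P v, lam P = some v → P.length ≤ g.N1)
    (ex1 : ∀ P Q v v', lam P = some v → rho Q = some v' →
      v' = act v ((P ++ Q).map φ).prod + nu1 (P ++ Q))
    (BadT : ℕ → Prop)
    (cp1 : ∀ X : List α, ¬ BadT X.length → ∀ v, ∃ P Q, X = P ++ Q ∧ lam P = some v ∧
      (rho Q).isSome)
    (fs : ∀ Q Q' : List α, Q.take A = Q'.take A →
      ((Q.drop A).map φ).prod = ((Q'.drop A).map φ).prod → Q.length % Mq = Q'.length % Mq →
      nu1 Q = nu1 Q')
    (hBT : ∀ T T' : ℕ, T % Mq = T' % Mq → (BadT T ↔ BadT T'))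
    (K : ℕ) (c : ℕ → ℕ) (hc : ∀ k, k < K → c k ≤ g.p0)
    (lam2 rho2 : ℕ → List α → Option V) (nu2 : List α → V)
    (ex2 : ∀ k, k < K → ∀ (P Q : List α) (v b : V), P.length = c k → lam2 k P = some v →
      rho2 k Q = some b → b = act v ((P ++ Q).map φ).prod + nu2 (P ++ Q))
    (C0 : ℕ)
    (cp2 : ∀ (u : List α) (v : V), u.length = g.p0 → ∃ I : Finset ℕ, 2 * C0 + 2 ≤ I.card ∧
      ∀ k ∈ I, k < K ∧ lam2 k (u.take (c k)) = some v ∧ (rho2 k (u.drop (c k))).isSome)
    (hsp : ∀ k k' l l', k < K → k' < K → l < K → l' < K → k' ≠ k → l' ≠ l →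
      c k + c l' < c l + c k' + 2 * g.N1 → c l + c k' < c k + c l' + 2 * g.N1 → k = l)
    (hthin : ∀ τ, g.z ≤ τ + g.p0 → ∀ J : Finset ℕ, (∀ k ∈ J, k < K ∧
      ∃ k', k' < K ∧ k' ≠ k ∧ BadT (τ + c k' - c k - g.p0)) → J.card ≤ C0)
    (s : S) : HL 3 ({w | (w.map φ).prod = s} : Language α) := by
  classical
  set pre : List α → V → V := fun P v => act v (P.map φ).prod + nu2 P with hpre
  set post : V → List α → V := fun u Y => act u (Y.map φ).prod + nu1 Y with hpost
  set nu : List α → V := fun X =>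
    act (nu2 (X.take g.p0)) ((X.drop g.p0).map φ).prod + nu1 (X.drop g.p0) with hnu
  have hT : ∀ v X, g.T pre post v X = act v (X.map φ).prod + nu X := by
    intro v X
    have e : (X.map φ).prod = ((X.take g.p0).map φ).prod * ((X.drop g.p0).map φ).prod := by
      rw [← List.prod_append, ← List.map_append, List.take_append_drop]
    simp only [Sc2n_937.Geo.T, hpre, hpost, hnu]
    rw [e, hmul, hadd, add_assoc]
  have hz := g.hz
  have hq := g.hq
  have hN := g.hN
  have hXXiff : ∀ X, P4_933.XX g.Wo g.z X ↔ g.XX X := by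
    intro X
    constructor
    · rintro ⟨a, b, c⟩; exact ⟨b, a, fun t h1 h2 => c t h2 h1⟩
    · rintro ⟨a, b, c⟩; exact ⟨b, a, fun t h1 h2 => c t h2 h1⟩
  -- regularity
  have key : ∀ (u0 u u' : List α), u0.length = g.z + g.N1 + g.p0 + A →
      u.length % Mq = u'.length % Mq → (u.map φ).prod = (u'.map φ).prod →
      nu (u0 ++ u) = nu (u0 ++ u') := by
    intro u0 u u' h0 hl hp
    simp only [hnu]
    have t1 : ∀ y : List α, (u0 ++ y).take g.p0 = u0.take g.p0 := fun y =>
      List.take_append_of_le_length (by omega)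
    have t2 : ∀ y : List α, (u0 ++ y).drop g.p0 = u0.drop g.p0 ++ y := fun y =>
      List.drop_append_of_le_length (by omega)
    have hd : (u0.drop g.p0).length = g.z + g.N1 + A := by rw [List.length_drop]; omega
    rw [t1, t1, t2, t2]
    have e1 : ((u0.drop g.p0 ++ u).map φ).prod = ((u0.drop g.p0 ++ u').map φ).prod := by
      rw [List.map_append, List.map_append, List.prod_append, List.prod_append, hp]
    rw [e1]
    congr 1
    apply fs
    · rw [List.take_append_of_le_length (by omega), List.take_append_of_le_length (by omega)]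
    · rw [List.drop_append_of_le_length (by omega), List.drop_append_of_le_length (by omega),
        List.map_append, List.map_append, List.prod_append, List.prod_append, hp]
    · rw [List.length_append, List.length_append]
      exact Nat.ModEq.add_left _ hl
  have keyv : ∀ (x y : V) (u0 u u' : List α), u0.length = g.z + g.N1 + g.p0 + A →
      u.length % Mq = u'.length % Mq → (u.map φ).prod = (u'.map φ).prod →
      (act x ((u0 ++ u).map φ).prod + nu (u0 ++ u) = y ↔
        act x ((u0 ++ u').map φ).prod + nu (u0 ++ u') = y) := by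
    intro x y u0 u u' h0 hl hp
    rw [key u0 u u' h0 hl hp, List.map_append, List.map_append, List.prod_append,
      List.prod_append, hp]
  have keyb : ∀ (u0 u u' : List α), u0.length = g.z + g.N1 + g.p0 + A →
      u.length % Mq = u'.length % Mq → (g.BadX BadT (u0 ++ u) ↔ g.BadX BadT (u0 ++ u')) := by
    intro u0 u u' h0 hl
    have hE : ∀ y y' : List α, g.E (u0 ++ y) → g.E (u0 ++ y') := by
      rintro y y' ⟨t, a1, a2, a3, a4⟩
      refine ⟨t, by rw [List.length_append]; omega, ?_, a3, a4⟩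
      rw [List.take_append_of_le_length (by omega)] at a2 ⊢
      exact a2
    have hB : BadT ((u0 ++ u).length - g.p0) ↔ BadT ((u0 ++ u').length - g.p0) := by
      apply hBT
      rw [List.length_append, List.length_append,
        show u0.length + u.length - g.p0 = (u0.length - g.p0) + u.length by omega,
        show u0.length + u'.length - g.p0 = (u0.length - g.p0) + u'.length by omega]
      exact Nat.ModEq.add_left _ hl
    unfold Sc2n_937.Geo.BadX
    rw [hB]
    exact or_congr ⟨hE _ _, hE _ _⟩ Iff.rfl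
  have hCT : ∀ x y, HL 1 ({X | X ∈ {X | g.XX X} ∧ act x (X.map φ).prod + nu X = y} :
      Language α) := by
    intro x y
    have hr := reg_class φ (g.z + g.N1 + g.p0 + A) Mq hMq
      (fun X => act x (X.map φ).prod + nu X = y) (fun u0 u u' a b c => keyv x y u0 u u' a b c)
    refine (P4_933.hl_XX (z := g.z) g.loc hlenW free hr).congr fun X => ?_
    exact and_congr (hXXiff X).symm Iff.rfl
  have hBTl : ∀ x y, HL 1 ({X | X ∈ {X | g.XX X ∧ g.BadX BadT X} ∧
      act x (X.map φ).prod + nu X = y} : Language α) := by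
    intro x y
    have hr := reg_class φ (g.z + g.N1 + g.p0 + A) Mq hMq
      (fun X => g.BadX BadT X ∧ act x (X.map φ).prod + nu X = y)
      (fun u0 u u' a b c => and_congr (keyb u0 u u' a b) (keyv x y u0 u u' a b c))
    refine (P4_933.hl_XX (z := g.z) g.loc hlenW free hr).congr fun X => ?_
    constructor
    · rintro ⟨⟨a, b⟩, c⟩; exact ⟨(hXXiff X).2 a, b, c⟩
    · rintro ⟨a, b, c⟩; exact ⟨⟨(hXXiff X).1 a, b⟩, c⟩
  have htail : ∀ s, HL 1 ({w | (∀ X ∈ {X | g.XX X}, ¬ X <+: w) ∧ (w.map φ).prod = s} :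
      Language α) := by
    intro s
    have hr := reg_class φ 0 1 one_pos (fun w => (w.map φ).prod = s)
      (fun u0 u u' a _ c => by
        rw [List.map_append, List.map_append, List.prod_append, List.prod_append, c])
    refine (P4_933.hl_NB (z := g.z) g.loc hlenW free hr).congr fun w => ?_
    refine and_congr ?_ Iff.rfl
    rw [P4_933.NB_iff]
    constructor
    · intro h X hp hX; exact h X ((hXXiff X).1 hX) hp
    · intro h X hX hp; exact h X hp ((hXXiff X).2 hX)
  have hex1 : ∀ P Q u b, lam P = some u → rho Q = some b → b = post u (P ++ Q) :=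
    fun P Q u b a1 a2 => ex1 P Q u b a1 a2
  have hex2 : ∀ k, k < K → ∀ P Q v u, P.length = c k → Q.length = g.p0 - c k →
      lam2 k P = some v → rho2 k Q = some u → u = pre (P ++ Q) v :=
    fun k hk P Q v u a1 _ a3 a4 => ex2 k hk P Q v u a1 a3 a4
  refine Top5_120.top5 act hadd hone hmul hfaith φ nu {X | g.XX X}
    {X | g.XX X ∧ g.BadX BadT X} ?_ (fun X hX => hX.1)
    (fun v => {P | g.LP1 pre lam v P}) (fun v => {P | Sc2n_937.Geo.LP2 K c lam2 v P})
    ?_ ?_ hCT hBTl htail ?_ ?_ s
  · refine ⟨?_, ?_⟩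
    · intro h
      have := h.1
      simp only [List.length_nil] at this
      omega
    · rintro X hX Y hY ⟨R, hR⟩
      exact g.prefix_code (R := R) (R' := []) hX hY (by rw [hR, List.append_nil])
  · intro v
    refine (List.finite_length_le α (g.p0 + g.N1)).subset ?_
    rintro P ⟨a1, a2⟩
    have := h1 _ _ a2
    rw [List.length_drop] at this
    change P.length ≤ _
    omega
  · intro v
    refine (List.finite_length_le α g.p0).subset ?_
    rintro P ⟨k, a1, a2, -⟩
    change P.length ≤ _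
    rw [a2]
    exact hc k a1
  · intro X hX hXB v
    have hE : ¬ g.E X := fun h => hXB ⟨hX, Or.inl h⟩
    have hB : ¬ BadT (X.drop g.p0).length := by
      rw [List.length_drop]
      exact fun h => hXB ⟨hX, Or.inr h⟩
    obtain ⟨P, Q, b, a1, a2, a3⟩ := g.complete1 pre h1 hX hE (fun u => cp1 _ hB u) v
    refine ⟨P, Q, a1.symm, a2, fun x P' hP' => ?_⟩
    obtain ⟨b1, b2⟩ := g.sound1 pre post h1 hex1 hP' a3
    obtain ⟨b3, b4⟩ := g.sound1 pre post h1 hex1 a2 a3
    refine ⟨b1, ?_⟩
    rw [← hT, ← hT, b2, a1, b4]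
  · rintro X ⟨hX, hXB⟩ Y ⟨hY, hYB⟩ v
    obtain ⟨P, Q, b, a1, a2, a3⟩ := g.complete2 pre post hc hgap hsp hthin hX hY v (by
      have hl : (X.take g.p0).length = g.p0 := by
        rw [List.length_take]
        have := hX.1
        omega
      obtain ⟨I, i1, i2⟩ := cp2 (X.take g.p0) v hl
      refine ⟨I, i1, fun k hk => ?_⟩
      obtain ⟨j1, j2, j3⟩ := i2 k hk
      refine ⟨j1, ?_, j3⟩
      rw [List.take_take, min_eq_left (hc k j1)] at j2
      exact j2)
    obtain ⟨X2, c1, c2, c3⟩ := g.sound2 pre post hc hex2 hX hXB a2 a3 (R := []) (R' := Y)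
      (by rw [List.append_nil]; exact a1)
    have hX2 : X2 = Y := by
      rw [a1] at c2
      exact (List.append_cancel_left c2).symm
    subst hX2
    refine ⟨P, Q, a1, a2, fun x P' hP' => ?_⟩
    have hWQ : g.Wo (P' ++ Q) ∧ g.z ≤ (P' ++ Q).length := by
      obtain ⟨k, _, l, hend, _, hXX, _⟩ := a3
      have d1 := hXX.1
      have d2 := hXX.2.1
      rw [List.length_drop] at d1
      rw [← g.loc (P' ++ Q.take l) (Q.drop l) (by rw [List.length_drop]; omega),
        List.append_assoc, List.take_append_drop] at d2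
      exact ⟨d2, by rw [List.length_append]; omega⟩
    obtain ⟨X', e1, e2⟩ := exists_block g _ hWQ.1 hWQ.2
    by_cases hb : g.BadX BadT X'
    · left
      obtain ⟨R', hR'⟩ := e2
      obtain ⟨Y', f1, f2, f3⟩ := g.sound2 pre post hc hex2 e1 hb hP' a3 (R := []) (R' := R')
        (by rw [List.append_nil]; exact hR'.symm)
      refine ⟨X', ⟨e1, hb⟩, Y', f1, f2.symm, ?_⟩
      rw [← hT, ← hT, ← hT, ← hT, f3, c3]
    · right
      exact ⟨X', e1, fun h => hb h.2, e2⟩

/-- badness of a length -/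
def BadN (Ms : Finset ℕ) (m M b : ℕ) (T : ℕ) : Prop :=
  Thin963.BadT Ms m (fun i => (b : ℤ) ^ i) (fun i => (M : ℤ) * (b : ℤ) ^ i) (fun _ => 0) (T : ℤ)

theorem badN_mod {Ms : Finset ℕ} {m M b : ℕ} (hMs : ∀ k ∈ Ms, k ∣ M) {T T' : ℕ}
    (h : T % (M * b ^ m) = T' % (M * b ^ m)) : BadN Ms m M b T ↔ BadN Ms m M b T' := by
  have key : ∀ {T T' : ℕ}, T % (M * b ^ m) = T' % (M * b ^ m) → BadN Ms m M b T →
      BadN Ms m M b T' := by
    intro T T' h hb
    have hd : ((M * b ^ m : ℕ) : ℤ) ∣ (T' : ℤ) - T := (Nat.modEq_iff_dvd).1 h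
    rcases hb with ⟨q, hq, hqT⟩ | ⟨i, hi, e, he, hd'⟩
    · left
      refine ⟨q, hq, ?_⟩
      have h1 : (q : ℤ) ∣ (T' : ℤ) - T :=
        (Int.natCast_dvd_natCast.2 ((hMs q hq).trans (Dvd.intro _ rfl))).trans hd
      have := dvd_add h1 hqT
      simpa using this
    · right
      refine ⟨i, hi, e, he, ?_⟩
      have h1 : (b : ℤ) ^ (i + 1) ∣ (T' : ℤ) - T := by
        refine Dvd.dvd.trans ?_ hd
        push_cast
        exact Dvd.dvd.mul_left (pow_dvd_pow _ (by omega)) _
      have := dvd_add h1 hd'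
      have e2 : (T' : ℤ) - T + ((T : ℤ) - 0 + e) = (T' : ℤ) - 0 + e := by ring
      simp only at this ⊢
      rwa [e2] at this
  exact ⟨key h, key h.symm⟩

theorem good_digits {Ms : Finset ℕ} {m M b n : ℕ} (hb : 0 < b) (h : ¬ BadN Ms m M b n) :
    (∀ k ∈ Ms, ¬ k ∣ n) ∧ ∀ j < m, M ≤ n / b ^ j % b ∧ n / b ^ j % b + M < b := by
  unfold BadN Thin963.BadT at h
  push Not at h
  obtain ⟨h1, h2⟩ := h
  refine ⟨fun k hk hd => h1 k hk (Int.natCast_dvd_natCast.2 hd), fun j hj => ?_⟩
  have hpow : 0 < b ^ j := Nat.pow_pos hb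
  have hmod : n % b ^ (j + 1) = n % b ^ j + b ^ j * (n / b ^ j % b) := by
    rw [pow_succ, Nat.mod_mul]
  have hlt : n % b ^ j < b ^ j := Nat.mod_lt _ hpow
  have hlt2 : n / b ^ j % b < b := Nat.mod_lt _ hb
  have hdvd : (b : ℤ) ^ (j + 1) ∣ (n : ℤ) - ((n % b ^ (j + 1) : ℕ) : ℤ) := by
    have : ((b ^ (j + 1) : ℕ) : ℤ) ∣ (n : ℤ) - ((n % b ^ (j + 1) : ℕ) : ℤ) :=
      (Nat.modEq_iff_dvd).1 (Nat.mod_modEq n _)
    simpa using this
  set d := n / b ^ j % b with hd
  set r := n % b ^ (j + 1) with hr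
  constructor
  · by_contra hc
    push Not at hc
    refine h2 j hj (-(r : ℤ)) ?_ ?_
    · rw [abs_neg, abs_of_nonneg (by positivity)]
      have : r ≤ M * b ^ j := by
        rw [hmod]
        have : (d + 1) * b ^ j ≤ M * b ^ j := Nat.mul_le_mul_right _ hc
        nlinarith
      exact_mod_cast this
    · have e2 : (n : ℤ) - 0 + -(r : ℤ) = (n : ℤ) - (r : ℤ) := by ring
      rw [e2]; exact hdvd
  · by_contra hc
    push Not at hc
    refine h2 j hj ((b : ℤ) ^ (j + 1) - (r : ℤ)) ?_ ?_
    · have hrb : r < b ^ (j + 1) := Nat.mod_lt _ (Nat.pow_pos hb)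
      have h3 : b ^ (j + 1) ≤ r + M * b ^ j := by
        have t1 : b * b ^ j ≤ (d + M) * b ^ j := Nat.mul_le_mul_right _ hc
        calc b ^ (j + 1) = b * b ^ j := by rw [pow_succ, mul_comm]
          _ ≤ (d + M) * b ^ j := t1
          _ = b ^ j * d + M * b ^ j := by ring
          _ ≤ r + M * b ^ j := by
            rw [hmod]; exact Nat.add_le_add_right (Nat.le_add_left _ _) _
      have h3' : (b : ℤ) ^ (j + 1) ≤ r + M * (b : ℤ) ^ j := by exact_mod_cast h3
      have hrb' : (r : ℤ) < (b : ℤ) ^ (j + 1) := by exact_mod_cast hrb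
      rw [abs_of_nonneg (by linarith)]
      linarith
    · have e2 : (n : ℤ) - 0 + ((b : ℤ) ^ (j + 1) - (r : ℤ)) =
          ((n : ℤ) - (r : ℤ)) + (b : ℤ) ^ (j + 1) := by ring
      rw [e2]
      exact dvd_add hdvd dvd_rfl

theorem geom_bound {b : ℤ} (hb : 2 ≤ b) (i : ℕ) :
    ∑ j ∈ Finset.range (i + 1), b ^ j ≤ 2 * b ^ i := by
  induction i with
  | zero => simp
  | succ i ih =>
    rw [Finset.sum_range_succ]
    have hp : 0 < b ^ i := by positivity
    have : 2 * b ^ i ≤ b ^ (i + 1) := by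
      rw [pow_succ]
      nlinarith
    linarith

/-- **the join with all constants** -/
theorem fin (α : Type) [Finite α] (S : Type) [Monoid S] [Finite S] (φ : α → S) (s : S) :
    HL 3 ({w | (w.map φ).prod = s} : Language α) := by
  classical
  obtain ⟨act, hadd, hone, hmul, hfaith⟩ := exists_module S
  have : Fintype S := Fintype.ofFinite S
  have : Finite (S → ZMod 2) := Pi.finite
  have : Fintype (S → ZMod 2) := Fintype.ofFinite _
  obtain ⟨m, r, hG⟩ := G1_852.gadget (S := S) (V := S → ZMod 2) act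
  obtain ⟨K, hK⟩ := ExactR_237.exact_gadget α S (S → ZMod 2) φ act (2 * (r + m) + 2)
  obtain ⟨Ms, M, hcard, hMs, hM, hG2⟩ := hG (2 ^ (K + 1))
  set b : ℕ := 2 ^ (K + 5) * M + 1 with hbdef
  have hb0 : 0 < b := by omega
  have hcopb : Nat.Coprime b M := by
    rw [hbdef, Nat.coprime_mul_right_add_left]
    exact Nat.coprime_one_left M
  have hb2 : (2 : ℤ) ≤ (b : ℤ) := by
    have h2 : 1 ≤ 2 ^ (K + 5) * M := Nat.mul_pos (by positivity) hM
    have : 2 ≤ b := by omega
    exact_mod_cast this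
  obtain ⟨lam, rho, nu1, g1, g2, g3, g4⟩ := hG2 b hb0 hcopb α φ
  set N1 : ℕ := b ^ m with hN1
  have hN1pos : 0 < N1 := Nat.pow_pos hb0
  -- ruler
  obtain ⟨X0, hX0a, hX0b, hX0c⟩ := Thin963.thin K m Ms (fun i => (b : ℤ) ^ i)
    (fun i => (M : ℤ) * (b : ℤ) ^ i) (fun _ => 0)
    (fun q hq => ⟨(hMs q hq).2.1, by
      have := (hMs q hq).1
      exact_mod_cast this.le⟩)
    (fun q hq => by
      have h1 : Nat.Coprime q (b ^ m) :=
        (Nat.Coprime.coprime_dvd_right (hMs q hq).2.2 hcopb).symm.pow_right m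
      have := Nat.isCoprime_iff_coprime.2 h1
      simpa using this)
    (by positivity) (fun i j hij => pow_dvd_pow _ hij)
    (fun i => by positivity) (fun i => Dvd.intro_left _ rfl)
    (fun i _ => by
      rw [← Finset.mul_sum]
      have h1 := geom_bound hb2 i
      have h2 : (2 : ℤ) ^ (K + 4) * ((M : ℤ) * ∑ j ∈ Finset.range (i + 1), (b : ℤ) ^ j) ≤
          (2 : ℤ) ^ (K + 4) * ((M : ℤ) * (2 * (b : ℤ) ^ i)) := by
        apply mul_le_mul_of_nonneg_left _ (by positivity)
        exact mul_le_mul_of_nonneg_left h1 (by positivity)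
      refine h2.trans ?_
      have h3 : (b : ℤ) = 2 ^ (K + 5) * M + 1 := by rw [hbdef]; push_cast; ring
      have h4 : (b : ℤ) ^ (i + 1) = (b : ℤ) ^ i * (2 ^ (K + 5) * M + 1) := by
        rw [pow_succ]; rw [← h3]
      rw [h4]
      have h5 : (0 : ℤ) ≤ (b : ℤ) ^ i := by positivity
      have h6 : (2 : ℤ) ^ (K + 4) * ((M : ℤ) * (2 * (b : ℤ) ^ i)) =
          (b : ℤ) ^ i * (2 ^ (K + 5) * M) := by ring
      rw [h6]
      nlinarith)
    (2 * (N1 : ℤ) + 1)
  obtain ⟨X, rfl⟩ : ∃ X : ℕ, X0 = (X : ℤ) := ⟨X0.toNat, by rw [Int.toNat_of_nonneg hX0b.le]⟩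
  have hXN : 2 * N1 + 1 ≤ X := by exact_mod_cast hX0a
  set c : ℕ → ℕ := fun j => X * 2 ^ j with hc
  have hcmono : ∀ i j, i < j → j < K → c i < c j := by
    intro i j hij _
    have h1 : (2 : ℕ) ^ i < 2 ^ j := Nat.pow_lt_pow_right (by norm_num) hij
    exact Nat.mul_lt_mul_of_pos_left h1 (by omega)
  obtain ⟨lam2, rho2, nu2, e1, e2⟩ := hK c hcmono
  set p0 : ℕ := X * 2 ^ K with hp0
  have hcp : ∀ k, k < K → c k ≤ p0 := by
    intro k hk
    exact Nat.mul_le_mul_left _ (Nat.pow_le_pow_right (by norm_num) hk.le)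
  obtain ⟨n, B, Wo, hW, hfree⟩ := AsmG588.exists_LW α (2 * p0 + 2 * N1) (by omega)
  let g : Sc2n_937.Geo α :=
    { n := n, Wo := Wo, z := p0 + N1 + (n + 2 * p0), p0 := p0, q0 := n + 2 * p0, N1 := N1,
      loc := hW.loc, hz := rfl, hq := by omega, hN := hN1pos, hqp := by omega }
  have hdig : ∀ T : ℕ, ¬ BadN Ms m M b T → _ := fun T hT => good_digits hb0 hT
  refine join act hadd hone hmul hfaith φ g hW.len hfree
    (fun P Q a1 a2 a3 => hW.gap P Q a1 a2 a3) lam rho nu1 (M * b ^ m) (b ^ m)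
    (Nat.mul_pos hM hN1pos) (fun P v h => (g1 P v h).le) g2 (BadN Ms m M b) ?_ ?_ ?_
    K c hcp lam2 (fun k Q => rho2 k Q 1) (fun u => nu2 u 1) ?_ (r + m) ?_ ?_ ?_ s
  · intro Y hY v
    obtain ⟨d1, d2⟩ := good_digits hb0 hY
    obtain ⟨P, Q, f1, f2, v', f3⟩ := g3 Y d1 d2 v
    exact ⟨P, Q, f1, f2, by rw [f3]; rfl⟩
  · intro Q Q' a1 a2 a3
    exact (g4 Q Q' a1 a2 a3).2
  · intro T T' h
    exact badN_mod (fun k hk => (hMs k hk).2.2) h
  · intro k hk P Q v b' a1 a2 a3
    have := e1 k hk P Q 1 v b' a1 a2 a3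
    rw [mul_one] at this
    exact this
  · intro u v hu
    obtain ⟨I, i1, i2⟩ := e2 u 1 v (fun k hk => by rw [hu]; exact hcp k hk)
    exact ⟨I, i1, i2⟩
  · intro k k' l l' hk hk' hl hl' hne hne' h1 h2
    have hd : (2 : ℤ) ^ k - 2 ^ k' = 2 ^ l - 2 ^ l' := by
      simp only [hc] at h1 h2
      change X * 2 ^ k + X * 2 ^ l' < X * 2 ^ l + X * 2 ^ k' + 2 * N1 at h1
      change X * 2 ^ l + X * 2 ^ k' < X * 2 ^ k + X * 2 ^ l' + 2 * N1 at h2
      have h1' : (X : ℤ) * 2 ^ k + X * 2 ^ l' < X * 2 ^ l + X * 2 ^ k' + 2 * N1 := by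
        exact_mod_cast h1
      have h2' : (X : ℤ) * 2 ^ l + X * 2 ^ k' < X * 2 ^ k + X * 2 ^ l' + 2 * N1 := by
        exact_mod_cast h2
      have hXN' : 2 * (N1 : ℤ) + 1 ≤ X := by exact_mod_cast hXN
      set y : ℤ := (2 : ℤ) ^ k - 2 ^ k' - (2 ^ l - 2 ^ l') with hy
      have h3 : (X : ℤ) * y < X := by rw [hy]; linarith
      have h4 : -(X : ℤ) < X * y := by rw [hy]; linarith
      have hXp : (0 : ℤ) < X := by omega
      have h5 : y < 1 := by nlinarith
      have h6 : -1 < y := by nlinarith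
      have : y = 0 := by omega
      rw [hy] at this
      linarith
    exact (G369.pow_diff (Ne.symm hne) (Ne.symm hne') hd).1
  · intro τ hτ J hJ
    have hz : g.z = p0 + N1 + (n + 2 * p0) := rfl
    have hp : g.p0 = p0 := rfl
    rw [hz, hp] at hτ
    have hch : ∀ k : ℕ, ∃ k' : ℕ, k ∈ J → k' < K ∧ k' ≠ k ∧
        BadN Ms m M b (τ + c k' - c k - p0) := by
      intro k
      by_cases hk : k ∈ J
      · obtain ⟨-, k', a, b', c'⟩ := hJ k hk
        exact ⟨k', fun _ => ⟨a, b', c'⟩⟩
      · exact ⟨0, fun h => absurd h hk⟩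
    choose F hF using hch
    refine le_trans ?_ (le_trans (hX0c ((τ : ℤ) - p0)) (by omega))
    refine Finset.card_le_card_of_injOn (fun k => (F k, k)) ?_ ?_
    · intro k hk
      have hk' : k ∈ J := hk
      obtain ⟨a1, a2, a3⟩ := hF k hk'
      have hkK := (hJ k hk').1
      simp only [Finset.coe_filter, Finset.mem_product, Finset.mem_range, Set.mem_ofPred_eq]
      refine ⟨⟨a1, hkK⟩, a2, ?_⟩
      have hck := hcp k hkK
      have e3 : ((τ + c (F k) - c k - p0 : ℕ) : ℤ) =
          (τ : ℤ) - p0 + X * 2 ^ (F k) - X * 2 ^ k := by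
        have h7 : c k ≤ τ + c (F k) := by omega
        have h8 : p0 ≤ τ + c (F k) - c k := by omega
        rw [Nat.cast_sub h8, Nat.cast_sub h7]
        simp only [hc]
        push_cast
        ring
      unfold BadN at a3
      rw [e3] at a3
      exact a3
    · intro k _ k' _ h
      exact (Prod.mk.inj h).2

end Crest.Agent.R320.Fin_33
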