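import Crest.Agent.R320.Asm_331
import Crest.Agent.R320.G1_691
import Crest.Agent.R320.RegDep_10
import Crest.Agent.R320.LWallAll_922
import Crest.Agent.R320.LetMap_922
import Crest.Agent.R320.ExactR_237
import Crest.Agent.R320.Hk2_851
import Crest.Agent.R320.Sp_21

set_option autoImplicit false

/-! Row 320: end of the assembly (helper331). -/

namespace Crest.Agent.R320.Fin_331

open Crest.RegLang Crest.Agent.R320.Hk_851 Crest.Agent.R320.Blk467
open Crest.Agent.R320.SemTop_727 Crest.Agent.R320.Sc2n_937 Crest.Agent.R320.Asm_331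
open Crest.Agent.R320.Core1_922

/-- faithful token module -/
def tact {S : Type} [Monoid S] (v : S → ZMod 2) (s : S) : S → ZMod 2 := fun t => v (s * t)

theorem tact_faith {S : Type} [Monoid S] (s t : S) (h : ∀ v, tact v s = tact v t) : s = t := by
  classical
  have h1 := congrFun (h (fun u => if u = s then 1 else 0)) 1
  simp only [tact, mul_one, if_true] at h1
  by_contra hne
  rw [if_neg (fun e => hne e.symm)] at h1
  exact one_ne_zero h1

theorem fibre (α : Type) [Finite α] (S : Type) [Monoid S] [Finite S] (f : α → S) (s : S) :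
    HL 3 ({w | (w.map f).prod = s} : Language α) := by
  classical
  haveI := Fintype.ofFinite S
  let V := S → ZMod 2
  let act : V → S → V := tact
  have hadd : ∀ a b : V, ∀ s, act (a + b) s = act a s + act b s := fun a b s => rfl
  have hone : ∀ v : V, act v 1 = v := fun v => by
    funext t; show v (1 * t) = v t; rw [one_mul]
  have hmul : ∀ (v : V) s t, act v (s * t) = act (act v s) t := fun v s t => by
    funext u; show v (s * t * u) = v (s * (t * u)); rw [mul_assoc]
  obtain ⟨m, r, hm, hG⟩ := G1_691.gadget S V act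
  obtain ⟨K, hK⟩ := ExactR_237.exact_gadget α S V f act (2 * (r + m) + 2)
  obtain ⟨Ms, M, hcard, hMs, hM, hG2⟩ := hG (2 ^ (K + 1))
  let b : ℕ := M * (2 ^ (K + 4) + 3) + 1
  have hcop : Nat.Coprime b M := by
    show Nat.Coprime (M * (2 ^ (K + 4) + 3) + 1) M
    simp
  have hpos : 0 < 2 ^ (K + 4) := by positivity
  have hMb : M ≤ b := by
    show M ≤ M * (2 ^ (K + 4) + 3) + 1
    nlinarith
  have hbig : (2 ^ (K + 4) + 2) * M < b := by
    show (2 ^ (K + 4) + 2) * M < M * (2 ^ (K + 4) + 3) + 1
    nlinarith
  obtain ⟨lam, rho, nu1, hlen, hsound, hcomp, hdep⟩ := hG2 b hcop hMb α f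
  let N1 := b ^ m
  have hN1 : 0 < N1 := by
    show 0 < b ^ m
    have : 0 < b := Nat.succ_pos _
    positivity
  obtain ⟨c, hc1, hc2, hc3⟩ := Sp_21.spoil K N1 m M b Ms hM
    (fun k hk => ⟨(hMs k hk).2.2, (hMs k hk).1.le⟩) hcop hbig
  have hcm : ∀ i j, i < j → c i < c j := fun i j h => by have := hc1 i j h; omega
  obtain ⟨lam2, rho2, nu2, he1, he2⟩ := hK c (fun i j h _ => hcm i j h)
  let p0 := c K + 1
  obtain ⟨n, G, B, Wo, hLW, hgap, -, -, hfree⟩ :=
    LWallAll_922.walls_all_left α (2 * p0 + 2 * N1) (by omega)
  let q0 := n + 4 * p0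
  let z := p0 + N1 + q0
  have hck : ∀ k, k < K → c k ≤ p0 := fun k hk => by
    have := hcm k K hk
    show c k ≤ c K + 1
    omega
  let BT : ℕ → Prop := Sp_21.Bad m M b Ms
  let D : Dat α V :=
    { Wo := Wo, n := n, z := z, p0 := p0, q0 := q0, N1 := N1
      loc := fun P Q h => hLW.1 P Q h
      hz := rfl
      hq := by show n ≤ n + 4 * p0; omega
      hN := hN1
      hqp := by show p0 ≤ n + 4 * p0 + N1; omega
      pre := fun X v => act v (X.map f).prod + nu2 X 1
      post := fun v Y => act v (Y.map f).prod + nu1 Y
      BadT := BT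
      lam := lam
      rho := rho
      K := K
      c := c
      lam2 := lam2
      rho2 := fun k Q => rho2 k Q 1
      C0 := r + m
      hlen := fun P v h => (hlen P v h).le
      hex := fun P Q u b' h1 h2 => hsound P Q u b' h1 h2
      hcomp := by
        intro Y _ hB u
        obtain ⟨P, Q, e, h1, h2⟩ := hcomp Y (by
          rintro (h | ⟨j, hj, h⟩)
          · exact hB (Or.inl h)
          · exact hB (Or.inr ⟨j, hj, by omega⟩)) u
        exact ⟨P, Q, e.symm, h1, h2⟩
      hc := hck
      hex2 := by
        intro k hk P Q v u hP _ h1 h2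
        have := he1 k hk P Q 1 v u hP h1 h2
        rw [mul_one] at this
        exact this
      hgap := by
        intro P Q h1 h2 h3
        have hl : 0 < Q.length := List.length_pos_iff.2 h3
        have := hgap (P ++ Q) P.length (P ++ Q).length
          (by rw [List.length_append]; omega) le_rfl
          (by rw [List.take_left]; exact h1) (by rw [List.take_length]; exact h2)
        rw [List.length_append] at this
        omega
      hsp := by
        intro k k' l l' _ _ _ _ h1 h2 h3 h4
        by_contra hne
        have := hc2 k k' l l' (Ne.symm h1) (Ne.symm h2) (by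
          intro e
          exact hne (Prod.mk.inj e).1)
        omega
      hthin := by
        intro τ hτ J hJ
        have hτ' : p0 + N1 + (n + 4 * p0) ≤ τ + p0 := hτ
        choose! g hg using fun k hk => (hJ k hk).2
        have hJK : ∀ k ∈ J, k < K := fun k hk => (hJ k hk).1
        have := hc3 (τ - p0) (by
            intro i hi
            have := hck i hi
            omega) (J.image fun k => (k, g k)) (by
            intro p hp
            obtain ⟨k, hk, rfl⟩ := Finset.mem_image.1 hp
            have h1 := hg k hk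
            refine ⟨hJK k hk, h1.1, fun e => h1.2.1 e.symm, ?_⟩
            have h2 := h1.2.2
            have h3 := hck k (hJK k hk)
            show Sp_21.Bad m M b Ms (τ - p0 + c (g k) - c k)
            have e : τ - p0 + c (g k) - c k = τ + c (g k) - c k - p0 := by omega
            rw [e]
            exact h2)
        rw [Finset.card_image_of_injective _ (fun a b h => (Prod.mk.inj h).1)] at this
        omega
      hcomp2 := by
        intro X hX v
        obtain ⟨I, h1, h2⟩ := he2 X 1 v (fun k hk => by rw [hX]; exact hck k hk)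
        exact ⟨I, h1, h2⟩ }
  have hWU : Fib_298.WallU Wo n (B + (2 * p0 + 2 * N1)) :=
    { loc := fun P Q h => hLW.1 P Q h
      len := fun Q h => hLW.2 Q h
      free := by
        intro X hX
        obtain ⟨u, x, v, k, h1, h2, h3, h4⟩ := hfree X hX
        exact ⟨u, x, v, k, h4, by omega, by omega, by omega⟩ }
  have hb0 : 0 < M * b ^ m := Nat.mul_pos hM hN1
  have hnu : ∀ y, Language.IsRegular ({Y | nu1 Y = y} : Language α) :=
    RegDep_10.regular_fibre (fun w : List α => (w.map f).prod) (by simp)
      (fun u v => by simp) (b ^ m) (M * b ^ m) hb0 nu1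
      (fun u u' a1 a2 a3 a4 a5 => (hdep u u' a1 a2 a3 a5 a4).2)
  have hnz : n ≤ z := by show n ≤ p0 + N1 + (n + 4 * p0); omega
  have hpz : p0 ≤ z := by show p0 ≤ p0 + N1 + (n + 4 * p0); omega
  refine SemTop_727.top (k := 1) act hadd hone hmul tact_faith f
    (fun X => act (nu2 (X.take p0) 1) ((X.drop p0).map f).prod + nu1 (X.drop p0)) D.sch
    ?_ ?_ ?_ ?_ ?_ D.hC2 ?_ s
  · intro v X
    show act (act v ((X.take p0).map f).prod + nu2 (X.take p0) 1) ((X.drop p0).map f).prod +
      nu1 (X.drop p0) = _
    rw [hadd, ← hmul, ← List.prod_append, ← List.map_append, List.take_append_drop, add_assoc]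
  · exact Fib_298.pcode_XX (Wo := Wo) (z := z) (by show 0 < c K + 1 + N1 + q0; omega)
  · intro x y
    exact Fib_298.hfib hWU hnz act f p0 hpz (fun v X0 => act v (X0.map f).prod + nu2 X0 1)
      nu1 hnu x y
  · intro v
    refine (List.finite_length_le α (p0 + N1)).subset ?_
    rintro P ⟨h1, h2⟩
    have h3 := (hlen _ _ h2).le
    rw [List.length_drop] at h3
    show P.length ≤ p0 + N1
    change P.length - p0 ≤ N1 at h3
    omega
  · intro v
    refine (List.finite_length_le α p0).subset ?_
    rintro P ⟨k, hk, h1, _⟩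
    show P.length ≤ p0
    rw [h1]; exact hck k hk
  · intro s'
    exact (Fib_298.rest hWU hnz f s').mono (by omega)

end Crest.Agent.R320.Fin_331
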