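import Mathlib

/-!
Row 320, leaf U4 of helper638 (post 13273): a ruler which is Golomb modulo every clock of the
U-gadget; every total is spoiled by a bounded number of pairs.
-/

set_option autoImplicit false

namespace Crest.Agent.R320.Spoil336

def PP (R M0 M1 l : ℕ) : ℕ := (R * M0) * (R * M1) ^ l

def Bad (R M0 M1 m rho : ℕ) (Ms Ms1 : Finset ℕ) (n : ℕ) : Prop :=
  (n % (R * M0) < M0 ∨ R * M0 ≤ n % (R * M0) + M0) ∨ (∃ k ∈ Ms, k ∣ n) ∨
  ∃ l < m, ((n / PP R M0 M1 l) % (R * M1) < M1 ∨ R * M1 ≤ (n / PP R M0 M1 l) % (R * M1) + M1) ∨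
    rho ≤ (Ms1.filter (· ∣ n / PP R M0 M1 l)).card

/-- powers of two form a Sidon set -/
theorem pow_sidon : ∀ a b c d : ℕ, 2 ^ a + 2 ^ d = 2 ^ b + 2 ^ c →
    (a = b ∧ d = c) ∨ (a = c ∧ d = b) := by
  intro a
  induction a with
  | zero =>
    intro b c d h
    rcases d with _ | d <;> rcases b with _ | b <;> rcases c with _ | c
    · simp
    · exfalso
      have := Nat.one_le_two_pow (n := c)
      simp only [pow_succ, pow_zero] at h
      omega
    · exfalso
      have := Nat.one_le_two_pow (n := b)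
      simp only [pow_succ, pow_zero] at h
      omega
    · exfalso
      have := Nat.one_le_two_pow (n := b)
      have := Nat.one_le_two_pow (n := c)
      simp only [pow_succ, pow_zero] at h
      omega
    · exfalso
      have := Nat.one_le_two_pow (n := d)
      simp only [pow_succ, pow_zero] at h
      omega
    · left
      refine ⟨rfl, ?_⟩
      have h2 : 2 ^ (d + 1) = 2 ^ (c + 1) := by
        simp only [pow_zero] at h ⊢
        omega
      exact Nat.pow_right_injective (le_refl 2) h2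
    · right
      refine ⟨rfl, ?_⟩
      have h2 : 2 ^ (d + 1) = 2 ^ (b + 1) := by
        simp only [pow_zero] at h ⊢
        omega
      exact Nat.pow_right_injective (le_refl 2) h2
    · exfalso
      simp only [pow_succ, pow_zero] at h
      omega
  | succ a ih =>
    intro b c d h
    rcases d with _ | d <;> rcases b with _ | b <;> rcases c with _ | c
    · exfalso
      have := Nat.one_le_two_pow (n := a)
      simp only [pow_succ, pow_zero] at h
      omega
    · right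
      refine ⟨?_, rfl⟩
      have h2 : 2 ^ (a + 1) = 2 ^ (c + 1) := by
        simp only [pow_zero] at h ⊢
        omega
      exact Nat.pow_right_injective (le_refl 2) h2
    · left
      refine ⟨?_, rfl⟩
      have h2 : 2 ^ (a + 1) = 2 ^ (b + 1) := by
        simp only [pow_zero] at h ⊢
        omega
      exact Nat.pow_right_injective (le_refl 2) h2
    · exfalso
      simp only [pow_succ, pow_zero] at h
      omega
    · exfalso
      have := Nat.one_le_two_pow (n := a)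
      have := Nat.one_le_two_pow (n := d)
      simp only [pow_succ, pow_zero] at h
      omega
    · exfalso
      simp only [pow_succ, pow_zero] at h
      omega
    · exfalso
      simp only [pow_succ, pow_zero] at h
      omega
    · have h2 : 2 ^ a + 2 ^ d = 2 ^ b + 2 ^ c := by
        simp only [pow_succ] at h
        omega
      rcases ih b c d h2 with ⟨h1, h2⟩ | ⟨h1, h2⟩
      · left; omega
      · right; omega

theorem pow_sidon_int {a b c d : ℕ} (h : (2:ℤ) ^ a - 2 ^ b = 2 ^ c - 2 ^ d) :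
    (a = c ∧ b = d) ∨ (a = b ∧ c = d) := by
  have h2 : (2:ℤ) ^ a + 2 ^ d = 2 ^ b + 2 ^ c := by linarith
  have h3 : 2 ^ a + 2 ^ d = 2 ^ b + 2 ^ c := by exact_mod_cast h2
  rcases pow_sidon a b c d h3 with ⟨h1, h2⟩ | ⟨h1, h2⟩
  · right; exact ⟨h1, h2.symm⟩
  · left; exact ⟨h1, h2.symm⟩

def Near (Q len T : ℤ) : Prop := ∃ q : ℤ, -len ≤ T - q * Q ∧ T - q * Q < len

theorem pow_bound {K a b c d : ℕ} (ha : a < K) (hb : b < K) (hc : c < K) (hd : d < K) :
    ((2:ℤ) ^ a - 2 ^ b) - (2 ^ c - 2 ^ d) ≤ 2 * 2 ^ K ∧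
    -(2 * (2:ℤ) ^ K) ≤ ((2:ℤ) ^ a - 2 ^ b) - (2 ^ c - 2 ^ d) := by
  have h1 : ∀ t, t < K → (2:ℤ) ^ t ≤ 2 ^ K := fun t ht =>
    pow_le_pow_right₀ (by norm_num) ht.le
  have h0 : ∀ t : ℕ, (0:ℤ) < 2 ^ t := fun t => by positivity
  have := h1 a ha; have := h1 b hb; have := h1 c hc; have := h1 d hd
  have := h0 a; have := h0 b; have := h0 c; have := h0 d
  constructor <;> linarith

theorem near_inj (K : ℕ) (Q len Sl Sc : ℤ) (hlen : len ≤ 8 * Sl) (hQ : 64 * 2 ^ K * Sl ≤ Q)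
    (hS : 0 < Sl) (hdiv : Q ∣ Sc - Sl) (T : ℤ) {a b c d : ℕ}
    (ha : a < K) (hb : b < K) (hc : c < K) (hd : d < K)
    (h1 : Near Q len (T + 16 * 2 ^ a * Sc - 16 * 2 ^ b * Sc))
    (h2 : Near Q len (T + 16 * 2 ^ c * Sc - 16 * 2 ^ d * Sc)) :
    (2:ℤ) ^ a - 2 ^ b = 2 ^ c - 2 ^ d := by
  obtain ⟨q1, h11, h12⟩ := h1
  obtain ⟨q2, h21, h22⟩ := h2
  obtain ⟨t, ht⟩ := hdiv
  obtain ⟨hb1, hb2⟩ := pow_bound ha hb hc hd
  set e : ℤ := ((2:ℤ) ^ a - 2 ^ b) - (2 ^ c - 2 ^ d) with he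
  have hP : (1:ℤ) ≤ 2 ^ K := one_le_pow₀ (by norm_num)
  set P : ℤ := (2:ℤ) ^ K with hPdef
  have hSc : Sc = Sl + Q * t := by linarith
  set k : ℤ := q1 - q2 - 16 * e * t with hk
  have key : 16 * e * Sl - k * Q =
      (T + 16 * 2 ^ a * Sc - 16 * 2 ^ b * Sc - q1 * Q) -
      (T + 16 * 2 ^ c * Sc - 16 * 2 ^ d * Sc - q2 * Q) := by
    rw [hk, he, hSc]; ring
  have k1 : 16 * e * Sl - k * Q < 16 * Sl := by rw [key]; linarith
  have k2 : -(16 * Sl) < 16 * e * Sl - k * Q := by rw [key]; linarith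
  have heS1 : e * Sl ≤ 2 * P * Sl := mul_le_mul_of_nonneg_right hb1 hS.le
  have heS2 : -(2 * P) * Sl ≤ e * Sl := mul_le_mul_of_nonneg_right hb2 hS.le
  have hPS : 1 * Sl ≤ P * Sl := mul_le_mul_of_nonneg_right hP hS.le
  have hQpos : 0 < Q := by linarith
  have hk0 : k = 0 := by
    rcases lt_trichotomy k 0 with h | h | h
    · exfalso
      have : k * Q ≤ (-1) * Q := mul_le_mul_of_nonneg_right (by omega) hQpos.le
      linarith
    · exact h
    · exfalso
      have : 1 * Q ≤ k * Q := mul_le_mul_of_nonneg_right (by omega) hQpos.le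
      linarith
  rw [hk0] at k1 k2
  have he1 : e < 1 := by
    by_contra hcon
    have hcon' : 1 ≤ e := not_lt.mp hcon
    have : 1 * Sl ≤ e * Sl := mul_le_mul_of_nonneg_right hcon' hS.le
    linarith
  have he2 : -1 < e := by
    by_contra hcon
    have hcon' : e ≤ -1 := not_lt.mp hcon
    have : e * Sl ≤ (-1) * Sl := mul_le_mul_of_nonneg_right hcon' hS.le
    linarith
  have : e = 0 := by omega
  rw [he] at this
  linarith

theorem near_of_digit {T' U RM M : ℕ} (hU : 0 < U) (hRM : 0 < RM)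
    (h : (T' / U) % RM < M ∨ RM ≤ (T' / U) % RM + M) :
    Near ((U * RM : ℕ) : ℤ) ((M * U : ℕ) : ℤ) (T' : ℤ) := by
  have e1 : T' = U * (T' / U) + T' % U := (Nat.div_add_mod T' U).symm
  have e2 : T' / U = RM * (T' / U / RM) + (T' / U) % RM := (Nat.div_add_mod _ RM).symm
  have hτ : T' % U < U := Nat.mod_lt _ hU
  set τ := T' % U with hτd
  set ρ := (T' / U) % RM with hρd
  set q := T' / U / RM with hqd
  have e3 : (T' : ℤ) = (U:ℤ) * ((RM:ℤ) * q + ρ) + τ := by
    have : T' = U * (RM * q + ρ) + τ := by rw [← e2]; exact e1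
    exact_mod_cast this
  have hτ' : (τ:ℤ) < U := by exact_mod_cast hτ
  have hτ0 : (0:ℤ) ≤ τ := by positivity
  have hU' : (0:ℤ) < U := by exact_mod_cast hU
  have hρ0 : (0:ℤ) ≤ ρ := by positivity
  rcases h with h | h
  · refine ⟨(q:ℤ), ?_, ?_⟩
    · push_cast
      rw [e3]
      have hM0 : (0:ℤ) ≤ M := by positivity
      nlinarith [mul_nonneg hU'.le hρ0, mul_nonneg hM0 hU'.le]
    · push_cast
      rw [e3]
      have h' : (ρ:ℤ) + 1 ≤ M := by exact_mod_cast h
      nlinarith [mul_le_mul_of_nonneg_left h' hU'.le]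
  · have hρlt : ρ < RM := Nat.mod_lt _ hRM
    refine ⟨(q:ℤ) + 1, ?_, ?_⟩
    · push_cast
      rw [e3]
      have h' : (RM:ℤ) ≤ ρ + M := by exact_mod_cast h
      nlinarith [mul_le_mul_of_nonneg_left h' hU'.le]
    · push_cast
      rw [e3]
      have h' : (ρ:ℤ) + 1 ≤ RM := by exact_mod_cast hρlt
      have hM0 : (0:ℤ) ≤ M := by positivity
      nlinarith [mul_le_mul_of_nonneg_left h' hU'.le, mul_nonneg hM0 hU'.le]


theorem near_of_dvd {T' U k : ℕ} (hU : 0 < U) (h : k ∣ T' / U) :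
    Near ((U * k : ℕ) : ℤ) ((U : ℕ) : ℤ) (T' : ℤ) := by
  obtain ⟨q, hq⟩ := h
  have e1 : T' = U * (T' / U) + T' % U := (Nat.div_add_mod T' U).symm
  have hτ : T' % U < U := Nat.mod_lt _ hU
  set τ := T' % U with hτd
  have e3 : (T' : ℤ) = (U:ℤ) * ((k:ℤ) * q) + τ := by
    have : T' = U * (k * q) + τ := by rw [← hq]; exact e1
    exact_mod_cast this
  have hτ' : (τ:ℤ) < U := by exact_mod_cast hτ
  have hτ0 : (0:ℤ) ≤ τ := by positivity
  have hU' : (0:ℤ) < U := by exact_mod_cast hU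
  refine ⟨(q:ℤ), ?_, ?_⟩
  · push_cast
    rw [e3]
    nlinarith
  · push_cast
    rw [e3]
    nlinarith

def low (Mp R M0 M1 : ℕ) : ℕ → ℕ
  | 0 => 1 + Mp + Mp * M0
  | l + 1 => low Mp R M0 M1 l + Mp * PP R M0 M1 l + Mp * PP R M0 M1 l * M1

theorem PP_succ (R M0 M1 l : ℕ) : PP R M0 M1 (l + 1) = PP R M0 M1 l * (R * M1) := by
  unfold PP; rw [pow_succ]; ring

theorem low_bound {K Mp R M0 M1 : ℕ} (hMp : 2 ^ (K + 10) ≤ Mp) (hR : 2 ^ (K + 10) ≤ R)
    (h0 : 2 ^ (K + 10) ≤ M0) (h1 : 2 ^ (K + 10) ≤ M1) (l : ℕ) :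
    2 ^ (K + 9) * low Mp R M0 M1 l ≤ Mp * PP R M0 M1 l := by
  have hP : 1 ≤ 2 ^ K := Nat.one_le_two_pow
  have e10 : 2 ^ (K + 10) = 1024 * 2 ^ K := by rw [pow_add]; norm_num; ring
  have e9 : 2 ^ (K + 9) = 512 * 2 ^ K := by rw [pow_add]; norm_num; ring
  rw [e10] at hMp hR h0 h1
  rw [e9]
  induction l with
  | zero =>
    have hM0 : 2 ≤ M0 := by omega
    have a1 : 1 + Mp ≤ Mp * M0 := by nlinarith
    have a2 : low Mp R M0 M1 0 ≤ 2 * (Mp * M0) := by
      show 1 + Mp + Mp * M0 ≤ _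
      omega
    calc 512 * 2 ^ K * low Mp R M0 M1 0 ≤ 512 * 2 ^ K * (2 * (Mp * M0)) :=
          Nat.mul_le_mul_left _ a2
      _ = (1024 * 2 ^ K) * (Mp * M0) := by ring
      _ ≤ R * (Mp * M0) := Nat.mul_le_mul_right _ hR
      _ = Mp * PP R M0 M1 0 := by unfold PP; ring
  | succ l ih =>
    have hM1 : 2 ≤ M1 := by omega
    have b1 : low Mp R M0 M1 l ≤ Mp * PP R M0 M1 l := by
      refine le_trans ?_ ih
      calc low Mp R M0 M1 l = 1 * low Mp R M0 M1 l := by ring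
        _ ≤ 512 * 2 ^ K * low Mp R M0 M1 l := Nat.mul_le_mul_right _ (by omega)
    set A := Mp * PP R M0 M1 l with hA
    have b2 : 2 * A ≤ A * M1 := by rw [mul_comm]; exact Nat.mul_le_mul_left _ hM1
    have b3 : low Mp R M0 M1 (l + 1) ≤ 2 * (A * M1) := by
      show low Mp R M0 M1 l + A + A * M1 ≤ _
      omega
    calc 512 * 2 ^ K * low Mp R M0 M1 (l + 1) ≤ 512 * 2 ^ K * (2 * (A * M1)) :=
          Nat.mul_le_mul_left _ b3
      _ = (1024 * 2 ^ K) * (A * M1) := by ring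
      _ ≤ R * (A * M1) := Nat.mul_le_mul_right _ hR
      _ = Mp * PP R M0 M1 (l + 1) := by rw [PP_succ, hA]; ring

theorem low_dvd {Mp R M0 M1 : ℕ} (Q : ℕ) (i j : ℕ) (hij : i ≤ j)
    (h : ∀ t, i ≤ t → t < j → Q ∣ Mp * PP R M0 M1 t) :
    (Q : ℤ) ∣ (low Mp R M0 M1 j : ℤ) - (low Mp R M0 M1 i : ℤ) := by
  induction j with
  | zero =>
    obtain rfl : i = 0 := by omega
    simp
  | succ j ih =>
    rcases Nat.eq_or_lt_of_le hij with h1 | h1
    · subst h1; simp
    · have h2 := ih (by omega) (fun t ht htj => h t ht (by omega))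
      have h3 := h j (by omega) (by omega)
      have e : (low Mp R M0 M1 (j + 1) : ℤ) - (low Mp R M0 M1 i : ℤ) =
          ((low Mp R M0 M1 j : ℤ) - (low Mp R M0 M1 i : ℤ)) +
          ((Mp * PP R M0 M1 j : ℕ) : ℤ) * (1 + M1) := by
        show ((low Mp R M0 M1 j + Mp * PP R M0 M1 j + Mp * PP R M0 M1 j * M1 : ℕ) : ℤ) - _ = _
        push_cast; ring
      rw [e]
      exact dvd_add h2 (Dvd.dvd.mul_right (by exact_mod_cast h3) _)

theorem PP_dvd (R M0 M1 : ℕ) {i j : ℕ} (h : i ≤ j) : PP R M0 M1 i ∣ PP R M0 M1 j := by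
  unfold PP
  exact Nat.mul_dvd_mul_left _ (pow_dvd_pow _ h)


def xx (Mp R M0 M1 m a : ℕ) : ℕ := 16 * 2 ^ a * low Mp R M0 M1 m

theorem xx_le {K Mp R M0 M1 m a : ℕ} (ha : a < K) :
    xx Mp R M0 M1 m a ≤ 16 * 2 ^ K * low Mp R M0 M1 m := by
  unfold xx
  exact Nat.mul_le_mul_right _ (Nat.mul_le_mul_left _ (Nat.pow_le_pow_right (by norm_num) ha.le))

theorem cast_f {K Mp R M0 M1 m a b T : ℕ} (hb : b < K)
    (hT : 16 * 2 ^ K * low Mp R M0 M1 m ≤ T) :
    ((T + xx Mp R M0 M1 m a - xx Mp R M0 M1 m b : ℕ) : ℤ) =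
      (T : ℤ) + 16 * 2 ^ a * (low Mp R M0 M1 m : ℤ) - 16 * 2 ^ b * (low Mp R M0 M1 m : ℤ) := by
  have h := xx_le (Mp := Mp) (R := R) (M0 := M0) (M1 := M1) (m := m) hb
  rw [Nat.cast_sub (by omega)]
  unfold xx
  push_cast
  ring

theorem unique_pair {K Mp R M0 M1 m : ℕ} (Q len Sl : ℕ) (hlen : len ≤ 8 * Sl)
    (hQ : 64 * 2 ^ K * Sl ≤ Q) (hS : 0 < Sl)
    (hdiv : (Q : ℤ) ∣ (low Mp R M0 M1 m : ℤ) - (Sl : ℤ)) {T : ℕ}
    (hT : 16 * 2 ^ K * low Mp R M0 M1 m ≤ T) {a b c d : ℕ}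
    (ha : a < K) (hb : b < K) (hc : c < K) (hd : d < K) (hab : a ≠ b)
    (h1 : Near (Q : ℤ) (len : ℤ) ((T + xx Mp R M0 M1 m a - xx Mp R M0 M1 m b : ℕ) : ℤ))
    (h2 : Near (Q : ℤ) (len : ℤ) ((T + xx Mp R M0 M1 m c - xx Mp R M0 M1 m d : ℕ) : ℤ)) :
    a = c ∧ b = d := by
  rw [cast_f hb hT] at h1
  rw [cast_f hd hT] at h2
  have h := near_inj K (Q : ℤ) (len : ℤ) (Sl : ℤ) (low Mp R M0 M1 m : ℤ)
    (by exact_mod_cast hlen) (by exact_mod_cast hQ) (by exact_mod_cast hS) hdiv (T : ℤ)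
    ha hb hc hd h1 h2
  rcases pow_sidon_int h with h | h
  · exact h
  · exact absurd h.1 hab

theorem low_pos (Mp R M0 M1 : ℕ) (l : ℕ) : 0 < low Mp R M0 M1 l := by
  induction l with
  | zero => show 0 < 1 + Mp + Mp * M0; omega
  | succ l ih => show 0 < low Mp R M0 M1 l + _ + _; omega

open Classical in
theorem spoil' (m r K Mp R M0 M1 rho : ℕ) (Ms Ms1 : Finset ℕ) (hMp : 2 ^ (K + 10) ≤ Mp)
    (hR : 2 ^ (K + 10) ≤ R) (h0 : 2 ^ (K + 10) ≤ M0) (h1 : 2 ^ (K + 10) ≤ M1)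
    (hMs : ∀ k ∈ Ms, 2 ^ (K + 10) ≤ k ∧ k ∣ M0) (hMs1 : ∀ k ∈ Ms1, 2 ^ (K + 10) ≤ k ∧ k ∣ M1)
    (hc : Ms.card ≤ r) (hc1 : Ms1.card ≤ 32 * rho) (hrho : 0 < rho) :
    ∃ (x : ℕ → ℕ) (T0 : ℕ), (∀ a < K, x a ≤ T0) ∧
      (∀ a b c d, a < K → b < K → c < K → d < K →
        (Mp : ℤ) ∣ ((x a : ℤ) - x b) - (x c - x d) → (a = c ∧ b = d) ∨ (a = b ∧ c = d)) ∧
      ∀ T, T0 ≤ T → (((Finset.range K ×ˢ Finset.range K).filter (fun ab => ab.1 ≠ ab.2 ∧
        Bad R M0 M1 m rho Ms Ms1 ((T + x ab.1 - x ab.2) / Mp))).card ≤ 2 + r + 34 * m) := by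
  have hP : 1 ≤ 2 ^ K := Nat.one_le_two_pow
  have e10 : 2 ^ (K + 10) = 1024 * 2 ^ K := by rw [pow_add]; norm_num; ring
  have e9 : 2 ^ (K + 9) = 512 * 2 ^ K := by rw [pow_add]; norm_num; ring
  have lb := fun l => low_bound hMp hR h0 h1 l
  rw [e10] at hMp hR h0 h1
  simp only [e9] at lb
  simp only [e10] at hMs hMs1
  have hMp0 : 0 < Mp := by omega
  have hR0 : 0 < R := by omega
  have hM00 : 0 < M0 := by omega
  have hM10 : 0 < M1 := by omega
  have hPP0 : ∀ l, 0 < PP R M0 M1 l := fun l => by unfold PP; positivity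
  refine ⟨xx Mp R M0 M1 m, 16 * 2 ^ K * low Mp R M0 M1 m, fun a ha => xx_le ha, ?_, ?_⟩
  · intro a b c d ha hb hc' hd hdvd
    apply pow_sidon_int
    obtain ⟨hb1, hb2⟩ := pow_bound ha hb hc' hd
    set e : ℤ := ((2:ℤ) ^ a - 2 ^ b) - (2 ^ c - 2 ^ d) with he
    have hl1 : (Mp : ℤ) ∣ (low Mp R M0 M1 m : ℤ) - 1 := by
      have h2 := low_dvd (R := R) (M0 := M0) (M1 := M1) Mp 0 m (Nat.zero_le _)
        (fun t _ _ => Dvd.intro _ rfl)
      have h3 : (low Mp R M0 M1 m : ℤ) - 1 =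
          ((low Mp R M0 M1 m : ℤ) - (low Mp R M0 M1 0 : ℤ)) + (Mp : ℤ) * (1 + M0) := by
        show _ = _ - ((1 + Mp + Mp * M0 : ℕ) : ℤ) + _
        push_cast; ring
      rw [h3]
      exact dvd_add h2 (Dvd.intro _ rfl)
    have hD : ((xx Mp R M0 M1 m a : ℤ) - xx Mp R M0 M1 m b) -
        (xx Mp R M0 M1 m c - xx Mp R M0 M1 m d) = 16 * e + 16 * e * ((low Mp R M0 M1 m : ℤ) - 1) := by
      unfold xx
      push_cast
      rw [he]; ring
    rw [hD] at hdvd
    have h16 : (Mp : ℤ) ∣ 16 * e := (dvd_add_left (Dvd.dvd.mul_left hl1 _)).mp hdvd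
    obtain ⟨t, ht⟩ := h16
    have hMpZ : (1024 : ℤ) * 2 ^ K ≤ Mp := by exact_mod_cast hMp
    have hPZ : (1 : ℤ) ≤ 2 ^ K := one_le_pow₀ (by norm_num)
    have hMpZ0 : (0 : ℤ) ≤ Mp := by positivity
    have ht0 : t = 0 := by
      rcases lt_trichotomy t 0 with h | h | h
      · exfalso
        have : (Mp : ℤ) * t ≤ (Mp : ℤ) * (-1) := mul_le_mul_of_nonneg_left (by omega) hMpZ0
        linarith
      · exact h
      · exfalso
        have : (Mp : ℤ) * 1 ≤ (Mp : ℤ) * t := mul_le_mul_of_nonneg_left (by omega) hMpZ0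
        linarith
    rw [ht0, mul_zero] at ht
    have he0 : e = 0 := by omega
    rw [he] at he0
    linarith
  · intro T hT
    set P := (Finset.range K ×ˢ Finset.range K).filter (fun ab : ℕ × ℕ => ab.1 ≠ ab.2) with hPdef
    set f : ℕ × ℕ → ℕ := fun ab => T + xx Mp R M0 M1 m ab.1 - xx Mp R M0 M1 m ab.2 with hf
    have memP : ∀ ab ∈ P, ab.1 < K ∧ ab.2 < K ∧ ab.1 ≠ ab.2 := by
      intro ab hab
      rw [hPdef, Finset.mem_filter, Finset.mem_product, Finset.mem_range, Finset.mem_range] at hab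
      exact ⟨hab.1.1, hab.1.2, hab.2⟩
    have uniq : ∀ (Q len Sl : ℕ), len ≤ 8 * Sl → 64 * 2 ^ K * Sl ≤ Q → 0 < Sl →
        (Q : ℤ) ∣ (low Mp R M0 M1 m : ℤ) - (Sl : ℤ) → ∀ {C : ℕ × ℕ → Prop} {inst : DecidablePred C},
        (∀ ab, C ab → Near (Q : ℤ) (len : ℤ) ((f ab : ℕ) : ℤ)) →
        (@Finset.filter _ C inst P).card ≤ 1 := by
      intro Q len Sl hlen hQ hS hdiv C inst hC
      rw [Finset.card_le_one]
      intro p hp q hq
      rw [Finset.mem_filter] at hp hq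
      obtain ⟨p1, p2, p3⟩ := memP p hp.1
      obtain ⟨q1, q2, _⟩ := memP q hq.1
      have := unique_pair Q len Sl hlen hQ hS hdiv hT p1 p2 q1 q2 p3 (hC p hp.2) (hC q hq.2)
      exact Prod.ext this.1 this.2
    -- star digit
    have hA0 : (P.filter (fun ab => (f ab / Mp) % (R * M0) < M0 ∨
        R * M0 ≤ (f ab / Mp) % (R * M0) + M0)).card ≤ 1 := by
      apply uniq (Mp * (R * M0)) (M0 * Mp) (low Mp R M0 M1 0)
      · show M0 * Mp ≤ 8 * (1 + Mp + Mp * M0)
        rw [mul_comm M0 Mp]; omega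
      · have h := lb 0
        have e : Mp * PP R M0 M1 0 = Mp * (R * M0) := by unfold PP; ring
        rw [e] at h
        refine le_trans (Nat.mul_le_mul_right _ ?_) h
        omega
      · exact low_pos _ _ _ _ _
      · apply low_dvd _ 0 m (Nat.zero_le _)
        intro t _ _
        refine Nat.mul_dvd_mul_left _ ?_
        unfold PP
        exact Dvd.intro _ rfl
      · intro ab h
        exact near_of_digit hMp0 (by positivity) h
    have hA1 : ∀ k ∈ Ms, (P.filter (fun ab => k ∣ f ab / Mp)).card ≤ 1 := by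
      intro k hk
      obtain ⟨hk1, hk2⟩ := hMs k hk
      apply uniq (Mp * k) Mp (1 + Mp)
      · omega
      · calc 64 * 2 ^ K * (1 + Mp) ≤ 64 * 2 ^ K * (2 * Mp) :=
              Nat.mul_le_mul_left _ (by omega)
          _ = Mp * (128 * 2 ^ K) := by ring
          _ ≤ Mp * k := Nat.mul_le_mul_left _ (by omega)
      · omega
      · have h2 := low_dvd (R := R) (M0 := M0) (M1 := M1) (Mp * k) 0 m (Nat.zero_le _)
          (fun t _ _ => Nat.mul_dvd_mul_left _ (by
            unfold PP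
            exact Dvd.dvd.mul_right (Dvd.dvd.mul_left hk2 _) _))
        have h3 : (low Mp R M0 M1 m : ℤ) - ((1 + Mp : ℕ) : ℤ) =
            ((low Mp R M0 M1 m : ℤ) - (low Mp R M0 M1 0 : ℤ)) + ((Mp * M0 : ℕ) : ℤ) := by
          show _ = _ - ((1 + Mp + Mp * M0 : ℕ) : ℤ) + _
          push_cast; ring
        rw [h3]
        refine dvd_add h2 ?_
        exact_mod_cast Nat.mul_dvd_mul_left Mp hk2
      · intro ab h
        exact near_of_dvd hMp0 h
    have hA2 : ∀ l < m, (P.filter (fun ab => (f ab / Mp / PP R M0 M1 l) % (R * M1) < M1 ∨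
        R * M1 ≤ (f ab / Mp / PP R M0 M1 l) % (R * M1) + M1)).card ≤ 1 := by
      intro l hl
      apply uniq (Mp * PP R M0 M1 l * (R * M1)) (M1 * (Mp * PP R M0 M1 l))
        (low Mp R M0 M1 (l + 1))
      · show M1 * (Mp * PP R M0 M1 l) ≤ 8 * (low Mp R M0 M1 l + Mp * PP R M0 M1 l +
          Mp * PP R M0 M1 l * M1)
        rw [mul_comm M1]; omega
      · have h := lb (l + 1)
        rw [PP_succ, ← mul_assoc] at h
        refine le_trans (Nat.mul_le_mul_right _ ?_) h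
        omega
      · exact low_pos _ _ _ _ _
      · apply low_dvd _ (l + 1) m (by omega)
        intro t ht _
        have := PP_dvd R M0 M1 ht
        rw [PP_succ] at this
        rw [mul_assoc]
        exact Nat.mul_dvd_mul_left _ this
      · intro ab h
        rw [Nat.div_div_eq_div_mul] at h
        exact near_of_digit (Nat.mul_pos hMp0 (hPP0 l)) (by positivity) h
    have hB3 : ∀ l < m, ∀ k ∈ Ms1,
        (P.filter (fun ab => k ∣ f ab / Mp / PP R M0 M1 l)).card ≤ 1 := by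
      intro l hl k hk
      obtain ⟨hk1, hk2⟩ := hMs1 k hk
      set A := Mp * PP R M0 M1 l with hA
      have hlA : low Mp R M0 M1 l ≤ A := by
        refine le_trans ?_ (lb l)
        calc low Mp R M0 M1 l = 1 * low Mp R M0 M1 l := by ring
          _ ≤ 512 * 2 ^ K * low Mp R M0 M1 l := Nat.mul_le_mul_right _ (by omega)
      have hA0 : 0 < A := Nat.mul_pos hMp0 (hPP0 l)
      apply uniq (A * k) A (low Mp R M0 M1 l + A)
      · omega
      · calc 64 * 2 ^ K * (low Mp R M0 M1 l + A) ≤ 64 * 2 ^ K * (2 * A) :=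
              Nat.mul_le_mul_left _ (by omega)
          _ = A * (128 * 2 ^ K) := by ring
          _ ≤ A * k := Nat.mul_le_mul_left _ (by omega)
      · omega
      · have h2 := low_dvd (Mp := Mp) (R := R) (M0 := M0) (M1 := M1) (A * k) (l + 1) m (by omega)
          (fun t ht _ => by
            have h5 := PP_dvd R M0 M1 ht
            rw [PP_succ] at h5
            have h6 : A * k ∣ Mp * (PP R M0 M1 l * (R * M1)) := by
              rw [hA, mul_assoc]
              exact Nat.mul_dvd_mul_left _ (Nat.mul_dvd_mul_left _ (Dvd.dvd.mul_left hk2 _))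
            exact h6.trans (Nat.mul_dvd_mul_left _ h5))
        have h3 : (low Mp R M0 M1 m : ℤ) - ((low Mp R M0 M1 l + A : ℕ) : ℤ) =
            ((low Mp R M0 M1 m : ℤ) - (low Mp R M0 M1 (l + 1) : ℤ)) + ((A * M1 : ℕ) : ℤ) := by
          show _ = _ - ((low Mp R M0 M1 l + A + A * M1 : ℕ) : ℤ) + _
          push_cast; ring
        rw [h3]
        refine dvd_add h2 ?_
        exact_mod_cast Nat.mul_dvd_mul_left A hk2
      · intro ab h
        rw [Nat.div_div_eq_div_mul] at h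
        exact near_of_dvd hA0 h
    have hA3 : ∀ l < m, (P.filter (fun ab => rho ≤
        (Ms1.filter (· ∣ f ab / Mp / PP R M0 M1 l)).card)).card ≤ 32 := by
      intro l hl
      set A3 := P.filter (fun ab => rho ≤
        (Ms1.filter (· ∣ f ab / Mp / PP R M0 M1 l)).card) with hA3def
      have hsum := Finset.sum_card_bipartiteAbove_eq_sum_card_bipartiteBelow (s := A3) (t := Ms1)
        (fun (ab : ℕ × ℕ) (k : ℕ) => k ∣ f ab / Mp / PP R M0 M1 l)
      have h5 : A3.card * rho ≤ ∑ a ∈ A3, (Finset.bipartiteAbove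
          (fun (ab : ℕ × ℕ) (k : ℕ) => k ∣ f ab / Mp / PP R M0 M1 l) Ms1 a).card := by
        rw [← smul_eq_mul]
        apply Finset.card_nsmul_le_sum
        intro ab hab
        exact (Finset.mem_filter.mp hab).2
      have h6 : ∑ b ∈ Ms1, (Finset.bipartiteBelow
          (fun (ab : ℕ × ℕ) (k : ℕ) => k ∣ f ab / Mp / PP R M0 M1 l) A3 b).card ≤ Ms1.card := by
        calc _ ≤ ∑ _b ∈ Ms1, 1 := by
              apply Finset.sum_le_sum
              intro k hk
              refine le_trans (Finset.card_le_card ?_) (hB3 l hl k hk)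
              intro ab hab
              unfold Finset.bipartiteBelow at hab
              rw [Finset.mem_filter] at hab ⊢
              exact ⟨(Finset.mem_filter.mp hab.1).1, hab.2⟩
          _ = Ms1.card := by simp
      rw [hsum] at h5
      have h7 : A3.card * rho ≤ 32 * rho := le_trans h5 (le_trans h6 hc1)
      exact Nat.le_of_mul_le_mul_right h7 hrho
    have hsub : (Finset.range K ×ˢ Finset.range K).filter (fun ab => ab.1 ≠ ab.2 ∧
        Bad R M0 M1 m rho Ms Ms1 ((T + xx Mp R M0 M1 m ab.1 - xx Mp R M0 M1 m ab.2) / Mp)) ⊆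
        (P.filter (fun ab => (f ab / Mp) % (R * M0) < M0 ∨
          R * M0 ≤ (f ab / Mp) % (R * M0) + M0)) ∪
        ((Ms.biUnion (fun k => P.filter (fun ab => k ∣ f ab / Mp))) ∪
        ((Finset.range m).biUnion (fun l =>
          (P.filter (fun ab => (f ab / Mp / PP R M0 M1 l) % (R * M1) < M1 ∨
            R * M1 ≤ (f ab / Mp / PP R M0 M1 l) % (R * M1) + M1)) ∪
          (P.filter (fun ab => rho ≤
            (Ms1.filter (· ∣ f ab / Mp / PP R M0 M1 l)).card))))) := by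
      intro ab hab
      rw [Finset.mem_filter] at hab
      obtain ⟨hm, hne, hbad⟩ := hab
      have hPm : ab ∈ P := by
        rw [hPdef, Finset.mem_filter]; exact ⟨hm, hne⟩
      rw [Finset.mem_union, Finset.mem_union]
      rcases hbad with h | ⟨k, hk, h⟩ | ⟨l, hl, h⟩
      · left; rw [Finset.mem_filter]; exact ⟨hPm, h⟩
      · right; left
        rw [Finset.mem_biUnion]
        exact ⟨k, hk, by rw [Finset.mem_filter]; exact ⟨hPm, h⟩⟩
      · right; right
        rw [Finset.mem_biUnion]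
        refine ⟨l, Finset.mem_range.mpr hl, ?_⟩
        rw [Finset.mem_union]
        rcases h with h | h
        · left; rw [Finset.mem_filter]; exact ⟨hPm, h⟩
        · right; rw [Finset.mem_filter]; exact ⟨hPm, h⟩
    refine le_trans (Finset.card_le_card hsub) ?_
    refine le_trans (Finset.card_union_le _ _) ?_
    have g1 : (Ms.biUnion (fun k => P.filter (fun ab => k ∣ f ab / Mp))).card ≤ r := by
      refine le_trans Finset.card_biUnion_le ?_
      refine le_trans (Finset.sum_le_sum hA1) ?_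
      simpa using hc
    have g2 : ((Finset.range m).biUnion (fun l =>
          (P.filter (fun ab => (f ab / Mp / PP R M0 M1 l) % (R * M1) < M1 ∨
            R * M1 ≤ (f ab / Mp / PP R M0 M1 l) % (R * M1) + M1)) ∪
          (P.filter (fun ab => rho ≤
            (Ms1.filter (· ∣ f ab / Mp / PP R M0 M1 l)).card)))).card ≤ m * 33 := by
      refine le_trans Finset.card_biUnion_le ?_
      have : ∀ l ∈ Finset.range m, ((P.filter (fun ab =>
            (f ab / Mp / PP R M0 M1 l) % (R * M1) < M1 ∨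
            R * M1 ≤ (f ab / Mp / PP R M0 M1 l) % (R * M1) + M1)) ∪
          (P.filter (fun ab => rho ≤
            (Ms1.filter (· ∣ f ab / Mp / PP R M0 M1 l)).card))).card ≤ 33 := by
        intro l hl
        rw [Finset.mem_range] at hl
        refine le_trans (Finset.card_union_le _ _) ?_
        have := hA2 l hl
        have := hA3 l hl
        omega
      refine le_trans (Finset.sum_le_sum this) ?_
      simp
    have g3 := Finset.card_union_le (Ms.biUnion (fun k => P.filter (fun ab => k ∣ f ab / Mp)))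
      ((Finset.range m).biUnion (fun l =>
          (P.filter (fun ab => (f ab / Mp / PP R M0 M1 l) % (R * M1) < M1 ∨
            R * M1 ≤ (f ab / Mp / PP R M0 M1 l) % (R * M1) + M1)) ∪
          (P.filter (fun ab => rho ≤
            (Ms1.filter (· ∣ f ab / Mp / PP R M0 M1 l)).card))))
    omega

open Classical in
/-- LEAF U4 of 638 #13273, literal. -/
theorem spoil (m r K Mp R M0 M1 rho : ℕ) (Ms Ms1 : Finset ℕ) (hMp : 2 ^ (K + 10) ≤ Mp)
    (hR : 2 ^ (K + 10) ≤ R) (h0 : 2 ^ (K + 10) ≤ M0) (h1 : 2 ^ (K + 10) ≤ M1)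
    (hMs : ∀ k ∈ Ms, 2 ^ (K + 10) ≤ k ∧ k ∣ M0) (hMs1 : ∀ k ∈ Ms1, 2 ^ (K + 10) ≤ k ∧ k ∣ M1)
    (hc : Ms.card ≤ r) (hc1 : Ms1.card ≤ 32 * rho) (hrho : 0 < rho) :
    ∃ (x : ℕ → ℕ) (T0 : ℕ),
      (∀ a b c d, a < K → b < K → c < K → d < K →
        (Mp : ℤ) ∣ ((x a : ℤ) - x b) - (x c - x d) → (a = c ∧ b = d) ∨ (a = b ∧ c = d)) ∧
      ∀ T, T0 ≤ T → (((Finset.range K ×ˢ Finset.range K).filter (fun ab => ab.1 ≠ ab.2 ∧
        Bad R M0 M1 m rho Ms Ms1 ((T + x ab.1 - x ab.2) / Mp))).card ≤ 2 + r + 34 * m) := by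
  obtain ⟨x, T0, _, h3, h4⟩ := spoil' m r K Mp R M0 M1 rho Ms Ms1 hMp hR h0 h1 hMs hMs1 hc hc1 hrho
  exact ⟨x, T0, h3, h4⟩

end Crest.Agent.R320.Spoil336
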