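import Crest.Agent.R320.FinB_336
import Crest.Agent.R320.Top5_120
import Crest.Agent.R320.Sc2n_937
import Crest.Agent.R320.ExactR_237
import Crest.Agent.R320.Spoil_336

/-! Row 320: the final assembly (helper336). -/

set_option autoImplicit false

namespace Crest.Agent.R320.Fin336

open Crest.RegLang Crest.Agent.R320.Hk_851 Crest.Agent.R320.BddReg_746
open Crest.Agent.R320.Grid_899 Crest.Agent.R320.FinA336 Crest.Agent.R320.FinB336
open Crest.Agent.R320.Sc2n_937 Crest.Agent.R320.Blk467

theorem drop_split {α : Type} (u : List α) {a A : ℕ} (h : a ≤ A) (hA : A ≤ u.length) :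
    u.drop a = (u.take A).drop a ++ u.drop A := by
  conv_lhs => rw [← List.take_append_drop A u]
  rw [List.drop_append_of_le_length (by rw [List.length_take]; omega)]

set_option maxHeartbeats 1000000 in
theorem fin (α : Type) [Finite α] (S : Type) [Monoid S] [Finite S] (φ : α → S) (s : S) :
    HL 3 ({w | (w.map φ).prod = s} : Language α) := by
  classical
  haveI : Fintype S := Fintype.ofFinite S
  obtain ⟨act, hadd, hone, hmul, hfaith⟩ := exists_module S
  obtain ⟨k, m, H1⟩ := grid_gadget_reg S (S → ZMod 2) act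
  obtain ⟨K, H2⟩ := Crest.Agent.R320.ExactR_237.exact_gadget α S (S → ZMod 2) φ act
    (2 * (k + m) + 2)
  obtain ⟨q, κ, hodd, hcop, hM0, HX⟩ := numbers k m K
  obtain ⟨lam, rho, nu1, hlam, hrho, hsnd, hcmp, hfs⟩ := H1 q hodd hcop κ α
    (fun l => (l.map φ).prod) (by intro u v; simp)
  obtain ⟨Nm, hNm⟩ : ∃ x, x = Am (∏ j, q j) κ (m + 1) := ⟨_, rfl⟩
  obtain ⟨N0, hN0⟩ : ∃ x, x = Am (∏ j, q j) κ m := ⟨_, rfl⟩
  obtain ⟨M0, hM0'⟩ : ∃ x, x = (∏ j, q j) * G κ m := ⟨_, rfl⟩
  have hN0m : N0 ≤ Nm := by rw [hN0, hNm]; exact Am_mono' _ _ (Nat.le_succ m)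
  simp only [← hNm, ← hN0, ← hM0'] at hlam hrho hcmp hfs hM0 HX
  obtain ⟨N1, hN1⟩ : ∃ x, x = N0 + 1 := ⟨_, rfl⟩
  obtain ⟨X0, hX0, hX1, hXthin⟩ := HX (2 * N1 + 2)
  let c : ℕ → ℕ := fun j => X0 * 2 ^ j
  have hcm : ∀ i j, i < j → j < K → c i < c j := fun i j hij _ =>
    Nat.mul_lt_mul_of_pos_left (Nat.pow_lt_pow_right (by norm_num) hij) hX1
  obtain ⟨lam2, rho2, nu2, hs2, hc2⟩ := H2 c hcm
  obtain ⟨p0, hp0⟩ : ∃ x, x = X0 * 2 ^ K := ⟨_, rfl⟩
  have hcle : ∀ i, i < K → c i ≤ p0 := fun i hi => by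
    rw [hp0]; exact Nat.mul_le_mul_left _ (Nat.pow_le_pow_right (by norm_num) hi.le)
  rw [← hp0] at hXthin
  obtain ⟨n, Gw, Bw, Wo, hLW, hgapw, -, -, hfreew⟩ :=
    Crest.Agent.R320.LWallAll_922.walls_all_left α (2 * p0 + 2 * N1 + 1) (by omega)
  obtain ⟨q0, hq0⟩ : ∃ x, x = n + 2 * p0 + 2 * Nm + 1 := ⟨_, rfl⟩
  let g : Geo α :=
    { Wo := Wo, n := n, z := p0 + N1 + q0, p0 := p0, q0 := q0, N1 := N1, loc := hLW.app
      hz := rfl, hq := by omega, hN := by omega, hqp := by omega }
  let pre : List α → (S → ZMod 2) → (S → ZMod 2) :=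
    fun P v => act v ((P.map φ).prod * 1) + nu2 P 1
  let post : (S → ZMod 2) → List α → (S → ZMod 2) := fun v Q => act v (Q.map φ).prod + nu1 Q
  let BadT : ℕ → Prop := BadN m q κ
  let nu : List α → (S → ZMod 2) :=
    fun X => act (nu2 (X.take p0) 1) ((X.drop p0).map φ).prod + nu1 (X.drop p0)
  have hT : ∀ v X, act v (X.map φ).prod + nu X = g.T pre post v X := by
    intro v X
    show _ = act (act v (((X.take p0).map φ).prod * 1) + nu2 (X.take p0) 1)
      (((X.drop p0).map φ).prod) + nu1 (X.drop p0)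
    rw [hadd, mul_one, ← hmul, ← List.prod_append, ← List.map_append, List.take_append_drop,
      add_assoc]
  have hlen : ∀ P v, lam P = some v → P.length ≤ g.N1 := by
    intro P v h
    have := (hlam P v h).1
    show P.length ≤ N1
    omega
  have hex : ∀ P Q u b, lam P = some u → rho Q = some b → b = post u (P ++ Q) := by
    intro P Q u b h1 h2
    exact hsnd P Q u b h1 h2
  have hex2 : ∀ k, k < K → ∀ P Q v u, P.length = c k → Q.length = g.p0 - c k →
      lam2 k P = some v → rho2 k Q 1 = some u → u = pre (P ++ Q) v := by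
    intro k hk P Q v u hP _ h1 h2
    exact hs2 k hk P Q 1 v u hP h1 h2
  have hfree : ∀ u : List α, (∀ t < u.length, ¬ Wo (u.take t)) →
      u ∈ (PN (max Bw (2 * p0 + 2 * N1 + 1)) 2 : Language α) := by
    intro X hXf
    obtain ⟨u, x, v, k, h1, h2, h3, rfl⟩ := hfreew X hXf
    refine Language.mem_mul.2 ⟨u ++ pw x k, ⟨u, x, k, le_trans h1 (le_max_left _ _),
      le_trans h2 (le_max_right _ _), rfl⟩, v, Language.mem_mul.2 ⟨v, ⟨v, [], 0,
      le_trans h3 (le_max_left _ _), by simp, by simp⟩, [], rfl, by simp⟩, rfl⟩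
  -- the classes
  obtain ⟨A, hA⟩ : ∃ x, x = g.z + N1 + Nm + p0 := ⟨_, rfl⟩
  have hgz : g.z = p0 + N1 + q0 := rfl
  have cls : ∀ u u' : List α, A ≤ u.length → A ≤ u'.length → u.take A = u'.take A →
      u.length % M0 = u'.length % M0 → ((u.drop A).map φ).prod = ((u'.drop A).map φ).prod →
      (u.map φ).prod = (u'.map φ).prod ∧ nu u = nu u' ∧
        (g.BadX BadT u → g.BadX BadT u') := by
    intro u u' hu hu' ht hl hd
    have tk : ∀ a, a ≤ A → u.take a = u'.take a := by
      intro a ha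
      have h1 := congrArg (fun l => l.take a) ht
      simp only [List.take_take, min_eq_left ha] at h1
      exact h1
    have dr : ∀ a, a ≤ A → ((u.drop a).map φ).prod = ((u'.drop a).map φ).prod := by
      intro a ha
      rw [drop_split u ha hu, drop_split u' ha hu', List.map_append, List.prod_append,
        List.map_append, List.prod_append, ht, hd]
    have hmod : (u.length - p0) % M0 = (u'.length - p0) % M0 :=
      mod_sub dvd_rfl (by omega) (by omega) hl
    refine ⟨?_, ?_, ?_⟩
    · have := dr 0 (Nat.zero_le _)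
      simpa using this
    · have h1 : nu1 (u.drop p0) = nu1 (u'.drop p0) := by
        refine (hfs (u.drop p0) (u'.drop p0) ?_ ?_ ?_ ?_ ?_).2
        · rw [List.length_drop]; omega
        · rw [List.length_drop]; omega
        · have e : ∀ w : List α, (w.drop p0).take Nm = (w.take (p0 + Nm)).drop p0 := by
            intro w
            rw [List.drop_take, Nat.add_sub_cancel_left]
          rw [e, e, tk _ (by omega)]
        · show (((u.drop p0).drop Nm).map φ).prod = (((u'.drop p0).drop Nm).map φ).prod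
          rw [List.drop_drop, List.drop_drop]
          exact dr _ (by omega)
        · rw [List.length_drop, List.length_drop]
          exact hmod
      show act (nu2 (u.take p0) 1) ((u.drop p0).map φ).prod + nu1 (u.drop p0) =
        act (nu2 (u'.take p0) 1) ((u'.drop p0).map φ).prod + nu1 (u'.drop p0)
      rw [tk p0 (by omega), dr p0 (by omega), h1]
    · rintro (⟨t, h1, h2, h3, h4⟩ | h)
      · left
        have h4' : t < g.z + N1 := h4
        refine ⟨t, by omega, ?_, h3, h4⟩
        rw [← tk t (by omega)]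
        exact h2
      · right
        exact BadN_per (by rw [← hN0]; show N0 ≤ u.length - p0; omega)
          (by rw [← hN0]; show N0 ≤ u'.length - p0; omega) (by rw [← hM0']; exact hmod) h
  have hPC : PCode ({X | g.XX X} : Set (List α)) := by
    constructor
    · intro h
      have h1 : g.z ≤ ([] : List α).length := h.1
      simp only [List.length_nil] at h1
      omega
    · intro X hX Y hY hXY
      obtain ⟨R, hR⟩ := hXY
      exact g.prefix_code (R := R) (R' := []) hX hY (by rw [hR, List.append_nil])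
  have xx_iff : ∀ X, g.XX X ↔ Crest.Agent.R320.P4_933.XX Wo g.z X := by
    intro X
    constructor
    · rintro ⟨h1, h2, h3⟩
      exact ⟨h2, h1, fun t ht hz => h3 t hz ht⟩
    · rintro ⟨h1, h2, h3⟩
      exact ⟨h2, h1, fun t hz ht => h3 t ht hz⟩
  have hreg : ∀ f : List α → Prop, (∀ u u' : List α, A ≤ u.length → A ≤ u'.length →
      u.take A = u'.take A → u.length % M0 = u'.length % M0 →
      ((u.drop A).map φ).prod = ((u'.drop A).map φ).prod → (f u → f u')) →
      Language.IsRegular ({u | f u} : Language α) := by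
    intro f hf
    exact reg2 φ A M0 hM0 f (fun u u' h1 h2 h3 h4 h5 =>
      ⟨hf u u' h1 h2 h3 h4 h5, hf u' u h2 h1 h3.symm h4.symm h5.symm⟩)
  refine Crest.Agent.R320.Top5_120.top5 act hadd hone hmul hfaith φ nu {X | g.XX X}
    {X | g.XX X ∧ g.BadX BadT X} hPC (fun X h => h.1)
    (fun v => {P | g.LP1 pre lam v P}) (fun v => {P | Geo.LP2 K c lam2 v P})
    ?_ ?_ ?_ ?_ ?_ ?_ ?_ s
  · intro v
    refine (List.finite_length_le α (p0 + N1)).subset ?_
    rintro P ⟨h1, h2⟩
    have h3 := hlen _ _ h2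
    rw [List.length_drop] at h3
    have h4 : g.p0 = p0 := rfl
    have h5 : g.N1 = N1 := rfl
    show P.length ≤ p0 + N1
    omega
  · intro v
    refine (List.finite_length_le α p0).subset ?_
    rintro P ⟨i, h1, h2, _⟩
    show P.length ≤ p0
    rw [h2]; exact hcle i h1
  · intro x y
    refine (Crest.Agent.R320.P4_933.hl_XX (z := g.z) hLW.app hLW.len hfree
      (f := fun X => act x (X.map φ).prod + nu X = y) (hreg _ ?_)).congr fun w => ?_
    · intro u u' h1 h2 h3 h4 h5 h6
      obtain ⟨c1, c2, _⟩ := cls u u' h1 h2 h3 h4 h5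
      show act x (u'.map φ).prod + nu u' = y
      rw [← c1, ← c2]; exact h6
    · constructor
      · rintro ⟨h1, h2⟩; exact ⟨(xx_iff w).1 h1, h2⟩
      · rintro ⟨h1, h2⟩; exact ⟨(xx_iff w).2 h1, h2⟩
  · intro x y
    refine (Crest.Agent.R320.P4_933.hl_XX (z := g.z) hLW.app hLW.len hfree
      (f := fun X => g.BadX BadT X ∧ act x (X.map φ).prod + nu X = y) (hreg _ ?_)).congr
      fun w => ?_
    · intro u u' h1 h2 h3 h4 h5 h6
      obtain ⟨c1, c2, c3⟩ := cls u u' h1 h2 h3 h4 h5
      refine ⟨c3 h6.1, ?_⟩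
      show act x (u'.map φ).prod + nu u' = y
      rw [← c1, ← c2]; exact h6.2
    · constructor
      · rintro ⟨⟨h1, h2⟩, h3⟩; exact ⟨(xx_iff w).1 h1, h2, h3⟩
      · rintro ⟨h1, h2, h3⟩; exact ⟨⟨(xx_iff w).2 h1, h2⟩, h3⟩
  · intro s'
    refine (Crest.Agent.R320.P4_933.hl_NB (z := g.z) hLW.app hLW.len hfree
      (f := fun X => (X.map φ).prod = s') (hreg _ ?_)).congr fun w => ?_
    · intro u u' h1 h2 h3 h4 h5 h6
      obtain ⟨c1, _, _⟩ := cls u u' h1 h2 h3 h4 h5
      show (u'.map φ).prod = s'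
      rw [← c1]; exact h6
    · constructor
      · rintro ⟨h1, h2⟩
        refine ⟨(Crest.Agent.R320.P4_933.NB_iff Wo g.z w).2 ?_, h2⟩
        intro P hP hXX
        exact h1 P ((xx_iff P).2 hXX) hP
      · rintro ⟨h1, h2⟩
        refine ⟨?_, h2⟩
        intro X hX hXw
        exact (Crest.Agent.R320.P4_933.NB_iff Wo g.z w).1 h1 X hXw ((xx_iff X).1 hX)
  · intro X hX hXb v
    have hXX : g.XX X := hX
    have hnb : ¬ g.BadX BadT X := fun h => hXb ⟨hX, h⟩
    have hE : ¬ g.E X := fun h => hnb (Or.inl h)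
    have hBT : ¬ BadN m q κ (X.length - p0) := fun h => hnb (Or.inr h)
    have hXl := hXX.1
    obtain ⟨P, Q, b, e, hP, hQ⟩ := g.complete1 pre hlen hXX hE (by
      intro u
      refine hcmp (X.drop p0) ?_ ?_ ?_ u
      · rw [List.length_drop]; omega
      · intro j hj
        rw [List.length_drop] at hj
        exact hBT (Or.inl ⟨j, hj⟩)
      · intro j h1 h2
        rw [List.length_drop]
        by_contra h3
        exact hBT (Or.inr ⟨j, h1, h2, h3⟩)) v
    have s1 := g.sound1 pre post hlen hex hP hQ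
    refine ⟨P, Q, e.symm, hP, fun x P' hP' => ?_⟩
    have s2 := g.sound1 pre post hlen hex hP' hQ
    refine ⟨s2.1, ?_⟩
    rw [hT, hT, s2.2, e, s1.2]
  · intro X hX Y hY v
    have hXl := hX.1.1
    obtain ⟨P, Q, b, e, hP, hQ⟩ := g.complete2 pre post (BadT := BadT) (K := K) (c := c)
      (lam2 := lam2) (rho2 := fun k Q => rho2 k Q 1) (C0 := k + m) hcle
      (by
        intro P Q h1 h2 h3
        have h4 := hgapw (P ++ Q) P.length (P ++ Q).length
          (by
            have := List.length_pos_of_ne_nil h3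
            rw [List.length_append]; omega) le_rfl
          (by rw [List.take_left]; exact h1) (by rw [List.take_length]; exact h2)
        rw [List.length_append] at h4
        show 2 * p0 + 2 * N1 < Q.length
        omega)
      (by
        intro k k' l l' _ _ _ _ hne hne' h1 h2
        have h1' : X0 * 2 ^ k + X0 * 2 ^ l' < X0 * 2 ^ l + X0 * 2 ^ k' + 2 * N1 := h1
        have h2' : X0 * 2 ^ l + X0 * 2 ^ k' < X0 * 2 ^ k + X0 * 2 ^ l' + 2 * N1 := h2
        have h3 : X0 * (2 ^ k + 2 ^ l') < X0 * (2 ^ l + 2 ^ k' + 1) := by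
          rw [mul_add, mul_add, mul_add, mul_one]; omega
        have h4 : X0 * (2 ^ l + 2 ^ k') < X0 * (2 ^ k + 2 ^ l' + 1) := by
          rw [mul_add, mul_add, mul_add, mul_one]; omega
        have h5 := Nat.lt_of_mul_lt_mul_left h3
        have h6 := Nat.lt_of_mul_lt_mul_left h4
        have h7 : 2 ^ k + 2 ^ l' = 2 ^ l + 2 ^ k' := by omega
        rcases Crest.Agent.R320.Spoil336.pow_sidon k l k' l' h7 with h | h
        · exact h.1
        · exact absurd h.1.symm hne)
      (by
        intro τ hτ J hJ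
        have hτ' : g.z ≤ τ + p0 := hτ
        refine hXthin (τ - p0) (by omega) J (fun i hi => ?_)
        obtain ⟨h1, i', h2, h3, h4⟩ := hJ i hi
        refine ⟨h1, i', h2, h3, ?_⟩
        have h5 : BadN m q κ (τ + X0 * 2 ^ i' - X0 * 2 ^ i - p0) := h4
        have h6 : τ - p0 + X0 * 2 ^ i' - X0 * 2 ^ i = τ + X0 * 2 ^ i' - X0 * 2 ^ i - p0 := by
          omega
        rw [h6]; exact h5)
      hX.1 hY.1 v
      (by
        obtain ⟨I, hI1, hI2⟩ := hc2 (X.take p0) 1 v (by
          intro i hi
          rw [List.length_take]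
          have := hcle i hi
          omega)
        refine ⟨I, hI1, fun i hi => ⟨(hI2 i hi).1, ?_, (hI2 i hi).2.2⟩⟩
        have h1 := (hI2 i hi).2.1
        rw [List.take_take, min_eq_left (hcle i (hI2 i hi).1)] at h1
        exact h1)
    have main : g.T pre post (g.T pre post v X) Y = b := by
      obtain ⟨X2, h1, h2, h3⟩ := g.sound2 pre post hcle hex2 hX.1 hX.2 hP hQ
        (R := []) (R' := Y) (by rw [List.append_nil]; exact e)
      have h4 : X2 = Y := by
        rw [e] at h2
        exact (List.append_cancel_left h2).symm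
      rw [← h4]; exact h3
    refine ⟨P, Q, e, hP, fun x P' hP' => ?_⟩
    obtain ⟨k1, hk1, l, hend, hgood, -⟩ := id hQ
    obtain ⟨k0, hk0, hPl, hl⟩ := id hP'
    have hex' : ∃ l', g.CEnd Q (c k0) l' := by
      by_cases h : k0 = k1
      · rw [h]; exact ⟨l, hend⟩
      · obtain ⟨l', h1, _⟩ := hgood k0 hk0 h
        exact ⟨l', h1⟩
    obtain ⟨l', hend'⟩ := hex'
    have hXX := g.xx_of_cend (P := P') (Q := Q) (l := l') (by rw [hPl]; exact hcle k0 hk0)
      (by rw [hPl]; exact hend')
    by_cases hb : g.BadX BadT (P' ++ Q.take l')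
    · left
      obtain ⟨X2, h1, h2, h3⟩ := g.sound2 pre post hcle hex2 hXX hb hP' hQ
        (R := []) (R' := Q.drop l')
        (by rw [List.append_nil, List.append_assoc, List.take_append_drop])
      refine ⟨P' ++ Q.take l', ⟨hXX, hb⟩, X2, h1, h2.symm, ?_⟩
      rw [hT, hT, hT, hT, h3, main]
    · right
      refine ⟨P' ++ Q.take l', hXX, fun h => hb h.2, Q.drop l', ?_⟩
      rw [List.append_assoc, List.take_append_drop]

end Crest.Agent.R320.Fin336
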