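import Crest.Agent.R320.C12_790
import Crest.Agent.R320.HZ_847
import Crest.Agent.R320.G1_604
import Crest.Agent.R320.Sp_273
import Crest.Agent.R320.ExactR_237
import Crest.Agent.R320.RegCongr_253
import Crest.Agent.R320.Fin_869
import Crest.Agent.R320.Two_621

/-!
# Row 320: the final join (helper34)

110's `top_sem` with 847's height facts, 790's completeness statements, the gadget `g1` (852's
design, typed by 604), 273's ruler, 237's exact gadget, 228's walls.
-/

set_option autoImplicit false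

namespace Crest.Agent.R320.Fin_34

open Crest.Agent.R320.Hk_851 Crest.Agent.R320.Code110 Crest.RegLang

theorem badN_period (Ms : Finset ℕ) (M m b : ℕ) (hb : 0 < b) (hMs : ∀ k ∈ Ms, k ∣ M) (t : ℕ) :
    Sp_273.BadN Ms M m b (t + M * b ^ m) ↔ Sp_273.BadN Ms M m b t := by
  unfold Sp_273.BadN
  have h1 : (∃ k ∈ Ms, k ∣ t + M * b ^ m) ↔ (∃ k ∈ Ms, k ∣ t) := by
    constructor
    · rintro ⟨k, hk, h⟩
      exact ⟨k, hk, (Nat.dvd_add_left (Dvd.dvd.mul_right (hMs k hk) _)).1 h⟩
    · rintro ⟨k, hk, h⟩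
      exact ⟨k, hk, (Nat.dvd_add_left (Dvd.dvd.mul_right (hMs k hk) _)).2 h⟩
  have h2 : ∀ j < m, (t + M * b ^ m) / b ^ j % b = t / b ^ j % b := by
    intro j hj
    obtain ⟨d, rfl⟩ : ∃ d, m = j + 1 + d := ⟨m - (j + 1), by omega⟩
    have e : M * b ^ (j + 1 + d) = b ^ j * (b * (M * b ^ d)) := by
      rw [pow_add, pow_succ]; ring
    rw [e, Nat.add_mul_div_left _ _ (pow_pos hb j), Nat.add_mul_mod_self_left]
  rw [h1]
  refine or_congr Iff.rfl ?_
  constructor
  · rintro ⟨j, hj, h⟩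
    rw [h2 j hj] at h
    exact ⟨j, hj, h⟩
  · rintro ⟨j, hj, h⟩
    refine ⟨j, hj, ?_⟩
    rw [h2 j hj]
    exact h

theorem fin (α : Type) [Finite α] (S : Type) [Monoid S] [Finite S] (f : α → S) (s : S) :
    HL 3 ({w | (w.map f).prod = s} : Language α) := by
  classical
  have := Fintype.ofFinite S
  let V : Type := Two_621.Tok S
  have : Finite V := inferInstanceAs (Finite (S → ZMod 2))
  have : Fintype V := Fintype.ofFinite V
  let act : V → S → V := Two_621.act
  have hact1 : ∀ v : V, act v 1 = v := fun v => Two_621.act_one v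
  have hactm : ∀ (v : V) (s t : S), act v (s * t) = act (act v s) t := fun v s t =>
    (Two_621.act_mul v s t).symm
  have hadd : ∀ (v w : V) (s : S), act (v + w) s = act v s + act w s := fun v w s =>
    Two_621.act_add v w s
  have hfaith : ∀ s t : S, (∀ v, act v s = act v t) → s = t := fun s t h =>
    Two_621.act_faithful h
  let φ : List α → S := ExactR_237.pr f
  have hφ0 : φ [] = 1 := by simp [φ, ExactR_237.pr]
  have hφ : ∀ u w, φ (u ++ w) = φ u * φ w := fun u w => ExactR_237.pr_append f u w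
  -- gadget 1, first part
  obtain ⟨m, r, hg1⟩ := G1_604.g1 S V act
  -- gadget 2, number of places
  obtain ⟨K, hK⟩ := ExactR_237.exact_gadget α S V f act (2 + 2 * (r + m))
  -- the names
  obtain ⟨Ms, M, hcard, hMs, hM, hg⟩ := hg1 (2 ^ (K + 1))
  -- the base
  let b : ℕ := M * (4 * 2 ^ (K + 1) + 8) + 1
  have hpow : 1 ≤ 2 ^ (K + 1) := Nat.one_le_two_pow
  have hb0 : 0 < b := Nat.succ_pos _
  have hbe : b = 4 * M * 2 ^ (K + 1) + 8 * M + 1 := by
    show M * (4 * 2 ^ (K + 1) + 8) + 1 = _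
    ring
  have hMp : M ≤ M * 2 ^ (K + 1) := Nat.le_mul_of_pos_right _ hpow
  have hMp' : 4 * M * 2 ^ (K + 1) = 4 * (M * 2 ^ (K + 1)) := by ring
  have hb4 : 4 * M + 4 < b := by
    rw [hbe, hMp']; omega
  have hb5 : 4 * M * 2 ^ (K + 1) + 3 * M < b := by
    rw [hbe]; omega
  have hco : Nat.Coprime b M := by
    show Nat.Coprime (M * (4 * 2 ^ (K + 1) + 8) + 1) M
    simp
  obtain ⟨lam, rho, nu1, g1len, g1sound, g1compl, g1dep⟩ := hg b hb4 hco α f
  let N1 : ℕ := b ^ m
  -- the ruler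
  obtain ⟨K0, c, hK0, hc, hmono, hsp, hwide, hthin⟩ := Sp_273.spoil K N1 m r M b Ms hcard
    (fun k hk => ⟨(hMs k hk).1.le, (hMs k hk).2.2⟩) hM hb5 hco
  let p0 : ℕ := c K
  have hcp : ∀ k < K, c k ≤ p0 := fun k hk => (hmono hk).le
  -- gadget 2
  obtain ⟨lam2, rho2, nu2', hex, hcp2⟩ := hK c (fun i j hij _ => hmono hij)
  let nu2 : List α → V := fun X => nu2' X 1
  -- the walls
  obtain ⟨n, cc, P, Sx, hn, hP, hloc, hgap, -, -, hfew⟩ :=
    WallU_228.walls_full (α := α) (2 * p0 + 2 * N1)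
  have hw : C12_790.Walls (WallU_228.Wo n Sx) n (2 * p0 + 2 * N1) := by
    refine ⟨hloc, ?_⟩
    intro w s t hst ht h1 h2
    by_contra hcon
    have h3 := hgap (w.take t) (t - s) h2 (by omega) (by omega)
    have hl : (w.take t).length = t := by rw [List.length_take]; omega
    rw [hl, List.take_take] at h3
    have e : min (t - (t - s)) t = s := by omega
    rw [e] at h3
    exact h3 h1
  let z : ℕ := 2 * p0 + 2 * N1 + n + p0 + 1
  let BadT : ℕ → Prop := Sp_273.BadN Ms M m b
  -- the bad blocks of 790 and of 847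
  have hXX : C12_790.XX (WallU_228.Wo n Sx) z = HZ847.XX n Sx z := rfl
  have hBad : ∀ u, u ∈ HZ847.Bad n Sx z p0 N1 BadT ↔
      u ∈ C12_790.Bad (WallU_228.Wo n Sx) z N1 p0 BadT := by
    intro u
    constructor
    · rintro ⟨h1, h2⟩
      refine ⟨h1, ?_⟩
      rcases h2 with ⟨t, h3, h4, h5, h6⟩ | h2
      · left
        by_cases hz : t < z
        · exact Or.inr ⟨t, h3, hz, h6⟩
        · left
          have h7 : ¬ t < u.length := fun h => h1.2.2 t (by omega) h h6
          omega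
      · exact Or.inr h2
    · rintro ⟨h1, h2⟩
      refine ⟨h1, ?_⟩
      rcases h2 with (h2 | ⟨t, h3, h4, h5⟩) | h2
      · left
        refine ⟨u.length, ?_, h2, le_rfl, ?_⟩
        · have := h1.1; omega
        · rw [List.take_length]; exact h1.2.1
      · left
        have h6 := h1.1
        exact ⟨t, h3, by omega, by omega, h5⟩
      · exact Or.inr h2
  have H1 : HL 1 (C12_790.XX (WallU_228.Wo n Sx) z) :=
    (HZ847.hl_XX (n := n) (S := Sx) z).mono (Nat.zero_le 1)
  have hPm : 0 < M * b ^ m := Nat.mul_pos hM (pow_pos hb0 m)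
  have H2 : HL 1 (C12_790.Bad (WallU_228.Wo n Sx) z N1 p0 BadT) :=
    (HZ847.H2 (n := n) (S := Sx) hfew (z := z) (p0 := p0) (N1 := N1) (La := 0) hPm
      (BadT := BadT) (fun t _ => badN_period Ms M m b hb0 (fun k hk => (hMs k hk).2.2) t)).congr (fun u => (hBad u).symm)
  have hnu : ∀ c, Language.IsRegular ({w | nu1 w = c} : Language α) := by
    intro d
    refine RegCongr_253.regular_of_congr f (b ^ m) (M * b ^ m) hPm _ ?_
    intro q q' h1 h2 h3 h4 h5 h6
    have := (g1dep q q' h1 h2 h3 h4 h5).2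
    show nu1 q' = d
    rw [← this]
    exact h6
  have H3 : ∀ x y, HL 1 (ZT (C12_790.XX (WallU_228.Wo n Sx) z)
      (C12_790.TM φ act nu2 nu1 p0) x y) := fun x y =>
    HZ847.H3 (n := n) (S := Sx) hfew (φ := φ) (act := act) (nu1 := nu1) (nu2 := nu2) (z := z)
      (p0 := p0) hφ0 hφ (by omega) hnu x y
  have H4 : ∀ s, HL 3 ({w | (∀ u ∈ C12_790.XX (WallU_228.Wo n Sx) z, ¬ u <+: w) ∧ φ w = s} :
      Language α) := fun s =>
    (HZ847.H4 (n := n) (S := Sx) hfew (φ := φ) (z := z) hφ0 hφ s).mono (by norm_num)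
  have g1 : ∀ (P : List α) (v : V), lam P = some v → P.length ≤ N1 := fun P v h =>
    (g1len P v h).le
  have C1 := C12_790.c1 (φ := φ) (act := act) (nu1 := nu1) (nu2 := nu2) (lam := lam) (rho := rho)
    (BadT := BadT) (N0 := 0) (p0 := p0) (N1 := N1) (z := z) hw (by omega) g1
    (fun P Q v b h1 h2 => g1sound P Q v b h1 h2)
    (fun u _ hu v => by
      have hu' : ¬ Sp_273.BadN Ms M m b u.length := hu
      unfold Sp_273.BadN at hu'
      push Not at hu'
      obtain ⟨P, Q, h1, h2, h3⟩ := g1compl u hu'.1 hu'.2 v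
      exact ⟨P, Q, h1.symm, h2, h3⟩)
  have C2 := C12_790.c2 (φ := φ) (act := act) (nu1 := nu1) (nu2 := nu2) (c := c) (K := K)
    (C0 := r + m) (lam2 := lam2) (rho2 := fun k Q => rho2 k Q 1)
    (BadT := BadT) (p0 := p0) (N1 := N1) (z := z) (Tm := p0) hw (by omega) (by omega) le_rfl hcp
    (fun k _ k' _ h => hmono.injective h)
    (by
      intro a b' d e _ _ _ _ hab hde h1 h2
      by_contra hne
      have := hwide a b' d e hab hne
      have h3 : |((c a : ℤ) - c b') - ((c d : ℤ) - c e)| ≤ 2 * (N1 : ℤ) := by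
        rw [abs_le]
        constructor <;> omega
      have h4 : (0 : ℤ) ≤ N1 := Int.natCast_nonneg _
      omega)
    (by
      intro T hT F hF
      refine le_trans (Finset.card_le_card ?_) (hthin (T : ℤ))
      intro q hq
      obtain ⟨q1, q2, q3, q4⟩ := hF q hq
      rw [Finset.mem_filter, Finset.mem_product, Finset.mem_range, Finset.mem_range]
      refine ⟨⟨q1, q2⟩, q3, ?_⟩
      have hle : c q.1 ≤ T + c q.2 := by
        have := hcp q.1 q1
        omega
      have e : ((T : ℤ) + c q.2 - c q.1) = ((T + c q.2 - c q.1 : ℕ) : ℤ) := by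
        push_cast [Nat.cast_sub hle]
        ring
      rw [e, Sp_273.badZ_cast]
      exact q4)
    (by
      intro k hk P Q v b' hP1 h1 h2
      have := hex k hk P Q 1 v b' hP1 h1 h2
      rw [mul_one] at this
      exact this)
    (by
      intro u v hu
      obtain ⟨I, hI, hI2⟩ := hcp2 u 1 v (fun k hk => by rw [hu]; exact hcp k hk)
      exact ⟨I, by omega, hI2⟩)
  have key := Top5_110.top_sem (φ := φ) (act := act) (XX := C12_790.XX (WallU_228.Wo n Sx) z)
    (Bad := C12_790.Bad (WallU_228.Wo n Sx) z N1 p0 BadT)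
    (T := C12_790.TM φ act nu2 nu1 p0) hφ0 hφ hact1 hactm hfaith
    (C12_790.pc (by omega)) (fun u hu => hu.1)
    (fun u _ v v' => C12_790.hT hφ hactm hadd u v v') H1 H2 H3 H4
    (C12_790.f1 g1) (C12_790.f2 hcp) C1 C2 s
  exact key

end Crest.Agent.R320.Fin_34
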