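import Crest.Agent.R320.Top5_110
import Crest.Agent.R320.Fib_298
import Crest.Agent.R320.LWallAll_922
import Crest.Agent.R320.ExactR_237
import Crest.Agent.R320.Uni_366
import Crest.Agent.R320.Bridge_975
import Crest.Agent.R320.Two_621

/-!
# Row 320: the whole assembly from `UGI` (helper346)

One token system, natural chain rule on all words, semantic right labels (`Top5_110.top_sem`).
-/

set_option autoImplicit false

namespace Crest.Agent.R320.Fin_346

open Crest.Agent.R320.Hk_851 Crest.Agent.R320.Code110 Crest.Agent.R320.Fib_298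

variable {α S V : Type} [Monoid S] [AddCommGroup V]

section Walls

variable {Wo : List α → Prop} {n : ℕ}

theorem wsh (loc : ∀ P Q : List α, n ≤ Q.length → (Wo (P ++ Q) ↔ Wo Q)) (P Q : List α) {s : ℕ}
    (hQ : n ≤ Q.length) (hs : n ≤ s) :
    Wo ((P ++ Q).take (P.length + s)) ↔ Wo (Q.take s) := by
  rw [List.take_length_add_append]
  apply loc
  rw [List.length_take]
  omega

/-- walls only depend on the common right part -/
theorem wsh2 (loc : ∀ P Q : List α, n ≤ Q.length → (Wo (P ++ Q) ↔ Wo Q)) (P P' Q : List α)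
    {s s' : ℕ} (hQ : n ≤ Q.length) (hs : P.length + n ≤ s) (hs' : s + P'.length = s' + P.length) :
    Wo ((P ++ Q).take s) ↔ Wo ((P' ++ Q).take s') := by
  have e1 : s = P.length + (s - P.length) := by omega
  have e2 : s' = P'.length + (s - P.length) := by omega
  rw [e1, e2, wsh loc P Q hQ (by omega), wsh loc P' Q hQ (by omega)]

end Walls

/-- everything -/
structure Env (α S V : Type) [Monoid S] [AddCommGroup V] where
  f : α → S
  act : V → S → V
  Wo : List α → Prop
  n : ℕ
  loc : ∀ P Q : List α, n ≤ Q.length → (Wo (P ++ Q) ↔ Wo Q)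
  W : ℕ
  gap : ∀ (X : List α) (s t : ℕ), s < t → t ≤ X.length → Wo (X.take s) → Wo (X.take t) → W < t - s
  z : ℕ
  p0 : ℕ
  N1 : ℕ
  La : ℕ
  hW : 2 * (p0 + N1) ≤ W
  hz : z = 3 * p0 + 2 * N1 + n + La + 1
  BadT : ℕ → Prop
  lam : List α → Option V
  rho : List α → Option V
  nu1 : List α → V
  len1 : ∀ p v, lam p = some v → p.length ≤ N1
  sound1 : ∀ p q v r, lam p = some v → rho q = some r → La ≤ q.length →
    r = act v ((p ++ q).map f).prod + nu1 (p ++ q)
  comp1 : ∀ w : List α, La ≤ w.length → ¬ BadT w.length → ∀ v, ∃ p q, p ++ q = w ∧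
    lam p = some v ∧ (rho q).isSome
  K : ℕ
  c : ℕ → ℕ
  hc : ∀ k < K, c k ≤ p0
  lam2 : ℕ → List α → Option V
  rho2 : ℕ → List α → S → Option V
  nuX : List α → S → V
  sound2 : ∀ k < K, ∀ (P Q : List α) (y : S) (v b : V), P.length = c k →
    lam2 k P = some v → rho2 k Q y = some b →
      b = act v (ExactR_237.pr f (P ++ Q) * y) + nuX (P ++ Q) y
  C0 : ℕ
  comp2 : ∀ (u : List α) (y : S) (v : V), (∀ k < K, c k ≤ u.length) →
    ∃ I : Finset ℕ, 2 + 2 * C0 ≤ I.card ∧ ∀ k ∈ I, k < K ∧ lam2 k (u.take (c k)) = some v ∧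
      (rho2 k (u.drop (c k)) y).isSome
  golomb : ∀ i j k l, i < K → j < K → k < K → l < K → i ≠ j → (i, j) ≠ (k, l) →
      c i + c l + 4 * N1 < c k + c j ∨ c k + c j + 4 * N1 < c i + c l
  thin : ∀ T, La ≤ T → ∃ F : Finset (ℕ × ℕ), F.card ≤ C0 ∧ ∀ k < K, ∀ k' < K, k ≠ k' →
    BadT (T + c k' - c k) → (k, k') ∈ F

namespace Env

variable (E : Env α S V)

/-- the token before the gadget of scheme 1 -/
def pre (x : V) (X0 : List α) : V := E.act x (X0.map E.f).prod + E.nuX X0 1

/-- the zone map -/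
def T (X : List α) (x : V) : V := Fib_298.TT E.act E.f E.p0 E.pre E.nu1 x X

/-- bad blocks -/
def badp (X : List α) : Prop :=
  (∃ r, r ≤ X.length ∧ E.Wo (X.take r) ∧ E.z ≤ r + E.N1 ∧ r < E.z + E.N1) ∨
    E.BadT (X.length - E.p0)

def ZZ : Language α := {X | X ∈ XX E.Wo E.z}

def Bad : Language α := {X | X ∈ XX E.Wo E.z ∧ E.badp X}

def L1 (x : V) : Language α :=
  {p | E.p0 ≤ p.length ∧ p.length ≤ E.p0 + E.N1 ∧
    E.lam (p.drop E.p0) = some (E.pre x (p.take E.p0))}

def L2 (x : V) : Language α := {p | ∃ k < E.K, p.length = E.c k ∧ E.lam2 k p = some x}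

variable {E}

theorem T_of_L1 {x : V} {p q : List α} {r : V} (hp : p ∈ E.L1 x) (hr : E.rho q = some r)
    (hq : E.La ≤ q.length) : E.T (p ++ q) x = r := by
  obtain ⟨h1, h2, h3⟩ := hp
  have h4 := E.sound1 _ _ _ _ h3 hr hq
  unfold T Fib_298.TT
  rw [List.take_append_of_le_length h1, List.drop_append_of_le_length h1]
  exact h4.symm

theorem C1 (u : List α) (hu : u ∈ E.ZZ) (hb : u ∉ E.Bad) (x : V) (t : List α)
    (ht : t ∈ E.ZZ ^ 0) : ∃ p q y, u ++ t = p ++ q ∧ p ∈ E.L1 x ∧
      q ∈ Rsem E.ZZ E.ZZ E.T 0 E.L1 y := by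
  have hz := E.hz
  have ht' : t = [] := by simpa using ht
  subst ht'
  obtain ⟨hu1, hu2, hu3⟩ := hu
  have hnb : ¬ E.badp u := fun h => hb ⟨⟨hu1, hu2, hu3⟩, h⟩
  have hulen : E.z + E.N1 ≤ u.length := by
    by_contra hc
    exact hnb (Or.inl ⟨u.length, le_rfl, by rw [List.take_length]; exact hu2, by omega, by omega⟩)
  obtain ⟨p1, q, hpq, hlam, hrho⟩ := E.comp1 (u.drop E.p0) (by rw [List.length_drop]; omega)
    (by rw [List.length_drop]; exact fun h => hnb (Or.inr h)) (E.pre x (u.take E.p0))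
  obtain ⟨r, hr⟩ := Option.isSome_iff_exists.1 hrho
  have hl1 := E.len1 _ _ hlam
  have hX1 : (u.take E.p0).length = E.p0 := by rw [List.length_take]; omega
  have hu' : u = (u.take E.p0 ++ p1) ++ q := by
    rw [List.append_assoc, hpq, List.take_append_drop]
  have hqlen : q.length = u.length - E.p0 - p1.length := by
    have := congrArg List.length hpq
    rw [List.length_append, List.length_drop] at this
    omega
  have hpL : (u.take E.p0 ++ p1) ∈ E.L1 x := by
    refine ⟨by rw [List.length_append]; omega, by rw [List.length_append]; omega, ?_⟩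
    rw [List.drop_left' hX1, List.take_left' hX1]
    exact hlam
  refine ⟨u.take E.p0 ++ p1, q, r, by rw [List.append_nil]; exact hu', hpL, ?_⟩
  intro x' p' hp'
  left
  have hp'1 := hp'.1
  have hp'2 := hp'.2.1
  have hv : E.T (p' ++ q) x' = r := T_of_L1 hp' hr (by omega)
  refine ⟨r, Language.mem_mul.2 ⟨p' ++ q, ⟨?_, hv⟩, [], ⟨rfl, rfl⟩, List.append_nil _⟩⟩
  have hpl : (u.take E.p0 ++ p1).length = E.p0 + p1.length := by
    rw [List.length_append, hX1]
  refine ⟨by rw [List.length_append]; omega, ?_, ?_⟩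
  · rw [E.loc _ _ (by omega)]
    rw [hu', E.loc _ _ (by omega)] at hu2
    exact hu2
  · intro s hs1 hs2 hs3
    rw [List.length_append] at hs2
    rw [wsh2 (s' := s + p1.length + E.p0 - p'.length) E.loc p' (u.take E.p0 ++ p1) q (by omega)
      (by omega) (by rw [hpl]; omega), ← hu'] at hs3
    by_cases hc : E.z ≤ s + p1.length + E.p0 - p'.length
    · exact hu3 _ hc (by omega) hs3
    · exact hnb (Or.inl ⟨_, by omega, hs3, by omega, by omega⟩)

theorem spoil (E : Env α S V) (w : List α) (hw : E.z ≤ w.length) (hend : E.Wo w) :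
    ∃ J : Finset ℕ, J.card ≤ 1 + 2 * E.C0 ∧ ∀ k < E.K, k ∉ J → ∀ k' < E.K, k' ≠ k →
      ∀ b ≤ w.length, E.Wo (w.take b) → E.z + E.c k ≤ b + E.c k' →
      (∀ b' < b, E.z + E.c k ≤ b' + E.c k' → ¬ E.Wo (w.take b')) →
      ¬ E.BadT (b - E.p0 + E.c k' - E.c k) ∧ ∀ r ≤ w.length, E.Wo (w.take r) →
        E.z + E.c k ≤ r + E.c k' + E.N1 → r + E.c k' < E.z + E.c k + E.N1 → False := by
  classical
  have hz := E.hz
  have hW := E.hW
  -- the first two walls
  have hex : ∃ b, E.z - E.p0 ≤ b ∧ b ≤ w.length ∧ E.Wo (w.take b) :=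
    ⟨w.length, by omega, le_rfl, by rw [List.take_length]; exact hend⟩
  set b0 := Nat.find hex with hb0
  have hb0s := Nat.find_spec hex
  rw [← hb0] at hb0s
  have hb0m : ∀ b < b0, E.z - E.p0 ≤ b → b ≤ w.length → ¬ E.Wo (w.take b) := by
    intro b hb h1 h2 h3
    exact Nat.find_min hex (by rw [← hb0]; exact hb) ⟨h1, h2, h3⟩
  obtain ⟨b1, hb1g, hb1⟩ : ∃ b1, E.z - E.p0 ≤ b1 ∧ ∀ b, b0 < b → b ≤ w.length →
      E.Wo (w.take b) → (∀ b', b0 < b' → b' < b → ¬ E.Wo (w.take b')) → b = b1 := by
    by_cases h : ∃ b, b0 < b ∧ b ≤ w.length ∧ E.Wo (w.take b)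
    · refine ⟨Nat.find h, ?_, ?_⟩
      · have := Nat.find_spec h; omega
      · intro b h1 h2 h3 h4
        apply le_antisymm
        · by_contra hc
          have h5 := Nat.find_spec h
          exact h4 (Nat.find h) h5.1 (by omega) h5.2.2
        · exact Nat.find_min' h ⟨h1, h2, h3⟩
    · exact ⟨b0, hb0s.1, fun b h1 h2 h3 _ => absurd ⟨b, h1, h2, h3⟩ h⟩
  obtain ⟨F0, hF0, hF0'⟩ := E.thin (b0 - E.p0) (by omega)
  obtain ⟨F1, hF1, hF1'⟩ := E.thin (b1 - E.p0) (by omega)
  let Ep : ℕ × ℕ → Prop := fun p => p.1 ≠ p.2 ∧ ∃ r ≤ w.length, E.Wo (w.take r) ∧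
    E.z + E.c p.1 ≤ r + E.c p.2 + E.N1 ∧ r + E.c p.2 < E.z + E.c p.1 + E.N1
  let FE := (Finset.range E.K ×ˢ Finset.range E.K).filter Ep
  have hFE : FE.card ≤ 1 := by
    rw [Finset.card_le_one]
    rintro ⟨k, k'⟩ h1 ⟨l, l'⟩ h2
    simp only [FE, Ep, Finset.mem_filter, Finset.mem_product, Finset.mem_range] at h1 h2
    obtain ⟨⟨hk, hk'⟩, hne, r, hr1, hr2, hr3, hr4⟩ := h1
    obtain ⟨⟨hl, hl'⟩, hne', r', hr1', hr2', hr3', hr4'⟩ := h2
    have a1 := E.hc k hk
    have a2 := E.hc k' hk'
    have a3 := E.hc l hl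
    have a4 := E.hc l' hl'
    have hrr : r = r' := by
      rcases lt_trichotomy r r' with h | h | h
      · have := E.gap w r r' h hr1' hr2 hr2'; omega
      · exact h
      · have := E.gap w r' r h hr1 hr2' hr2; omega
    subst hrr
    by_contra hcon
    have := E.golomb k k' l l' hk hk' hl hl' hne hcon
    omega
  refine ⟨(FE ∪ F0 ∪ F1).image Prod.fst, ?_, ?_⟩
  · refine Finset.card_image_le.trans ?_
    have h1 := Finset.card_union_le (FE ∪ F0) F1
    have h2 := Finset.card_union_le FE F0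
    omega
  · intro k hk hkJ k' hk' hne b hb hbw hbz hbm
    have hnot : ∀ p ∈ FE ∪ F0 ∪ F1, p.1 ≠ k := by
      intro p hp hpk
      exact hkJ (Finset.mem_image.2 ⟨p, hp, hpk⟩)
    have a1 := E.hc k hk
    have a2 := E.hc k' hk'
    constructor
    · intro hbad
      have hb01 : b = b0 ∨ b = b1 := by
        by_cases h : E.z + E.c k ≤ b0 + E.c k'
        · left
          apply le_antisymm
          · by_contra hc
            exact hbm b0 (by omega) h hb0s.2.2
          · by_contra hc
            exact hb0m b (by omega) (by omega) hb hbw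
        · right
          have hlt : b0 < b := by omega
          refine hb1 b hlt hb hbw ?_
          intro b' h1 h2 h3
          have h4 := E.gap w b0 b' h1 (by omega) hb0s.2.2 h3
          exact hbm b' h2 (by omega) h3
      rcases hb01 with h | h
      · rw [h] at hbad
        exact hnot _ (Finset.mem_union_left _ (Finset.mem_union_right _
          (hF0' k hk k' hk' (Ne.symm hne) hbad))) rfl
      · rw [h] at hbad
        exact hnot _ (Finset.mem_union_right _ (hF1' k hk k' hk' (Ne.symm hne) hbad)) rfl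
    · intro r hr1 hr2 hr3 hr4
      refine hnot (k, k') (Finset.mem_union_left _ (Finset.mem_union_left _ ?_)) rfl
      simp only [FE, Ep, Finset.mem_filter, Finset.mem_product, Finset.mem_range]
      exact ⟨⟨hk, hk'⟩, Ne.symm hne, r, hr1, hr2, hr3, hr4⟩

/-- same-length prefixes: blocks and bad blocks are kept -/
theorem same {P P' Q : List α} (hl : P.length = P'.length) (hP : P.length ≤ E.p0)
    (h : P ++ Q ∈ E.ZZ) : P' ++ Q ∈ E.ZZ ∧ (E.badp (P ++ Q) → E.badp (P' ++ Q)) := by
  have hz := E.hz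
  obtain ⟨h1, h2, h3⟩ := h
  have hlen : (P' ++ Q).length = (P ++ Q).length := by
    rw [List.length_append, List.length_append, hl]
  have hQ : E.z ≤ E.p0 + Q.length := by rw [List.length_append] at h1; omega
  have key : ∀ s, E.p0 + E.n ≤ s → (E.Wo ((P' ++ Q).take s) ↔ E.Wo ((P ++ Q).take s)) := by
    intro s hs
    exact wsh2 E.loc P' P Q (by omega) (by omega) (by omega)
  refine ⟨⟨by rw [hlen]; exact h1, ?_, ?_⟩, ?_⟩
  · rw [E.loc _ _ (by omega)]
    rw [E.loc _ _ (by omega)] at h2
    exact h2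
  · intro s hs1 hs2 hs3
    rw [hlen] at hs2
    exact h3 s hs1 hs2 ((key s (by omega)).1 hs3)
  · rintro (⟨r, hr1, hr2, hr3, hr4⟩ | h)
    · exact Or.inl ⟨r, by rw [hlen]; exact hr1, (key r (by omega)).2 hr2, hr3, hr4⟩
    · right
      rw [hlen]
      exact h

theorem val2 {k : ℕ} (hk : k < E.K) {x : V} {P Q : List α} (hP : P.length = E.c k)
    (_hQ : E.p0 ≤ P.length + Q.length) (hl : E.lam2 k P = some x) {b : V}
    (hr : E.rho2 k (Q.take (E.p0 - E.c k)) 1 = some b) :
    E.T (P ++ Q) x = E.act b ((Q.drop (E.p0 - E.c k)).map E.f).prod +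
      E.nu1 (Q.drop (E.p0 - E.c k)) := by
  have hc := E.hc k hk
  have h1 := E.sound2 k hk P _ 1 x b hP hl hr
  unfold T Fib_298.TT
  have e1 : (P ++ Q).take E.p0 = P ++ Q.take (E.p0 - E.c k) := by
    have : E.p0 = P.length + (E.p0 - E.c k) := by omega
    conv_lhs => rw [this]
    rw [List.take_length_add_append]
  have e2 : (P ++ Q).drop E.p0 = Q.drop (E.p0 - E.c k) := by
    have : E.p0 = P.length + (E.p0 - E.c k) := by omega
    conv_lhs => rw [this]
    rw [List.drop_length_add_append]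
  rw [e1, e2]
  have e3 : E.pre x (P ++ Q.take (E.p0 - E.c k)) = b := by
    rw [h1, mul_one]
    rfl
  rw [e3]

theorem C2 (u : List α) (hu : u ∈ E.Bad) (x : V) (t : List α) (ht : t ∈ E.Bad ^ 1) :
    ∃ p q y, u ++ t = p ++ q ∧ p ∈ E.L2 x ∧ q ∈ Rsem E.ZZ E.Bad E.T 1 E.L2 y := by
  classical
  have hz := E.hz
  rw [pow_one] at ht
  obtain ⟨hu0, hub⟩ := hu
  have hu' := hu0
  obtain ⟨hu1, hu2, hu3⟩ := hu0
  obtain ⟨ht0, htb⟩ := id ht
  obtain ⟨ht1, ht2, ht3⟩ := ht0
  have hwend : E.Wo (u ++ t) := (E.loc _ _ (by omega)).2 ht2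
  have hwlen : (u ++ t).length = u.length + t.length := List.length_append
  obtain ⟨J, hJ, hJs⟩ := spoil E (u ++ t) (by omega) hwend
  have hX1 : (u.take E.p0).length = E.p0 := by rw [List.length_take]; omega
  obtain ⟨I, hI, hIs⟩ := E.comp2 (u.take E.p0) 1 x (fun k hk => by rw [hX1]; exact E.hc k hk)
  obtain ⟨k, hkI, hkJ⟩ : ∃ k ∈ I, k ∉ J := by
    by_contra hcon
    push Not at hcon
    have := Finset.card_le_card (fun k hk => hcon k hk : I ⊆ J)
    omega
  obtain ⟨hk, hlam, hrho⟩ := hIs k hkI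
  obtain ⟨b, hb⟩ := Option.isSome_iff_exists.1 hrho
  have hck := E.hc k hk
  have e1 : (u.take E.p0).take (E.c k) = u.take (E.c k) := by
    rw [List.take_take, min_eq_left hck]
  have e2 : (u.take E.p0).drop (E.c k) = (u.drop (E.c k)).take (E.p0 - E.c k) := by
    rw [List.drop_take]
  rw [e1] at hlam
  rw [e2] at hb
  have hPl : (u.take (E.c k)).length = E.c k := by rw [List.length_take]; omega
  have hQl : (u.drop (E.c k)).length = u.length - E.c k := List.length_drop
  have husplit : u = u.take (E.c k) ++ u.drop (E.c k) := (List.take_append_drop _ _).symm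
  refine ⟨u.take (E.c k), u.drop (E.c k) ++ t, E.T t (E.T u x), ?_, ⟨k, hk, hPl, hlam⟩, ?_⟩
  · rw [← List.append_assoc, List.take_append_drop]
  intro x' p' hp'
  obtain ⟨k', hk', hp'l, hp'lam⟩ := hp'
  have hck' := E.hc k' hk'
  by_cases hkk : k' = k
  · subst hkk
    left
    have hs := same (E := E) (P := u.take (E.c k')) (P' := p') (Q := u.drop (E.c k'))
      (by omega) (by omega) (by rw [← husplit]; exact hu')
    have hval : E.T (p' ++ u.drop (E.c k')) x' = E.T u x := by
      rw [val2 hk' hp'l (by omega) hp'lam hb]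
      conv_rhs => rw [husplit]
      rw [val2 hk' hPl (by omega) hlam hb]
    refine ⟨E.T u x, Language.mem_mul.2 ⟨p' ++ u.drop (E.c k'), ⟨⟨hs.1, hs.2 ?_⟩, hval⟩, t, ?_,
      by rw [List.append_assoc]⟩⟩
    · rw [← husplit]; exact hub
    · exact ⟨_, Language.mem_mul.2 ⟨t, ⟨ht, rfl⟩, [], ⟨rfl, rfl⟩, List.append_nil _⟩⟩
  · right
    left
    set q := u.drop (E.c k) ++ t with hq
    have hql : q.length = u.length - E.c k + t.length := by
      rw [hq, List.length_append, hQl]
    have hw : u ++ t = u.take (E.c k) ++ q := by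
      rw [hq, ← List.append_assoc, List.take_append_drop]
    have hpql : (p' ++ q).length = E.c k' + q.length := by rw [List.length_append, hp'l]
    -- transfer of walls
    have tr : ∀ s s', E.p0 + E.n ≤ s → s + E.c k = s' + E.c k' →
        (E.Wo ((p' ++ q).take s) ↔ E.Wo ((u ++ t).take s')) := by
      intro s s' h1 h2
      rw [hw]
      exact wsh2 E.loc p' (u.take (E.c k)) q (by omega) (by omega) (by omega)
    have hex : ∃ s, E.z ≤ s ∧ s ≤ (p' ++ q).length ∧ E.Wo ((p' ++ q).take s) := by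
      refine ⟨(p' ++ q).length, by omega, le_rfl, ?_⟩
      rw [tr _ (u ++ t).length (by omega) (by omega), List.take_length]
      exact hwend
    obtain ⟨hs1, hs2, hs3⟩ := Nat.find_spec hex
    have hmin : ∀ s, s < Nat.find hex → E.z ≤ s → ¬ E.Wo ((p' ++ q).take s) := by
      intro s h1 h2 h3
      exact Nat.find_min hex h1 ⟨h2, by omega, h3⟩
    generalize Nat.find hex = s0 at hs1 hs2 hs3 hmin
    have hlen : ((p' ++ q).take s0).length = s0 := by rw [List.length_take]; omega
    refine ⟨(p' ++ q).take s0, ⟨by rw [hlen]; exact hs1, hs3, ?_⟩, ?_, List.take_prefix _ _⟩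
    · intro s h1 h2 h3
      rw [hlen] at h2
      rw [List.take_take, min_eq_left h2.le] at h3
      exact hmin s h2 h1 h3
    · rintro ⟨-, hbad⟩
      obtain ⟨hA, hB⟩ := hJs k hk hkJ k' hk' hkk (s0 + E.c k - E.c k') (by omega)
        ((tr s0 _ (by omega) (by omega)).1 hs3) (by omega) (by
          intro b' h1 h2 h3
          refine hmin (b' + E.c k' - E.c k) (by omega) (by omega) ?_
          exact (tr _ b' (by omega) (by omega)).2 h3)
      rcases hbad with ⟨r, hr1, hr2, hr3, hr4⟩ | hbad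
      · rw [hlen] at hr1
        rw [List.take_take, min_eq_left hr1] at hr2
        exact hB (r + E.c k - E.c k') (by omega) ((tr r _ (by omega) (by omega)).1 hr2)
          (by omega) (by omega)
      · rw [hlen] at hbad
        apply hA
        have : s0 + E.c k - E.c k' - E.p0 + E.c k' - E.c k = s0 - E.p0 := by omega
        rw [this]
        exact hbad

end Env

section Final

open Crest.Agent.R320.Two_621 Crest.Agent.R320.Bridge_975

theorem bad_mod {Bad : ℕ → Prop} {Pm : ℕ} (h : ∀ T, Bad (T + Pm) ↔ Bad T) {a b : ℕ}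
    (hab : a ≡ b [MOD Pm]) : Bad a ↔ Bad b := by
  have key : ∀ T, Bad T ↔ Bad (T % Pm) := by
    intro T
    conv_lhs => rw [← Nat.mod_add_div T Pm, Nat.mul_comm Pm]
    exact bad_add h _ _
  rw [key a, key b, hab]

theorem of_env [Finite α] [Finite S] (E : Env α S (Tok S)) (hact : E.act = Two_621.act)
    {B : ℕ} (hWU : WallU E.Wo E.n B) {Pm : ℕ} (hPm : 0 < Pm)
    (hper : ∀ T, E.BadT (T + Pm) ↔ E.BadT T)
    (hnu : ∀ y, Language.IsRegular ({Y | E.nu1 Y = y} : Language α)) (s : S) :
    HL 3 ({w | (w.map E.f).prod = s} : Language α) := by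
  have hz := E.hz
  have hnz : E.n ≤ E.z := by omega
  have hBad : HL 1 E.Bad := by
    refine HL_blocks hWU hnz ?_ (fun w hw => hw.1)
    have h1 : Language.IsRegular ({q | E.badp q} : Language α) := by
      refine reg_of_local E.f (E.z + E.N1 + E.p0) Pm hPm E.badp ?_
      intro q q2 h1 h2 h3 h4 _
      have e : ∀ r, r ≤ E.z + E.N1 + E.p0 → q.take r = q2.take r := by
        intro r hr
        have := congrArg (List.take r) h3
        rwa [List.take_take, List.take_take, min_eq_left hr] at this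
      have e2 : E.BadT (q.length - E.p0) ↔ E.BadT (q2.length - E.p0) := by
        apply bad_mod hper
        have e3 : q.length - E.p0 + E.p0 = q.length := by omega
        have e4 : q2.length - E.p0 + E.p0 = q2.length := by omega
        apply Nat.ModEq.add_right_cancel' E.p0
        rw [e3, e4]
        exact h4
      unfold Env.badp
      rw [e2]
      constructor
      · rintro (⟨r, a1, a2, a3, a4⟩ | h)
        · exact Or.inl ⟨r, by omega, by rw [← e r (by omega)]; exact a2, a3, a4⟩
        · exact Or.inr h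
      · rintro (⟨r, a1, a2, a3, a4⟩ | h)
        · exact Or.inl ⟨r, by omega, by rw [e r (by omega)]; exact a2, a3, a4⟩
        · exact Or.inr h
    exact (Reg_236.HL.isRegular (HL_XX (k := 0) hWU E.z)).inf h1
  have hPC : PC E.ZZ := by
    have := pcode_XX (Wo := E.Wo) (z := E.z) (by omega)
    exact ⟨this.1, fun u hu v hv h => this.2 u hu v hv h⟩
  refine Top5_110.top_sem (φ := fun w => (w.map E.f).prod) (act := E.act) (XX := E.ZZ)
    (Bad := E.Bad) (T := E.T) (N1 := 0) (N2 := 1) (L1 := E.L1) (L2 := E.L2)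
    (by simp) (by intro u w; simp) (by rw [hact]; intro v; exact act_one v)
    (by rw [hact]; intro v s t; exact (act_mul v s t).symm)
    (by rw [hact]; intro s t h; exact act_faithful h) hPC (fun u hu => hu.1) ?_
    (HL_XX hWU E.z) hBad
    (fun x y => hfib hWU hnz E.act E.f E.p0 (by omega) E.pre E.nu1 hnu x y)
    (fun s => (Fib_298.rest hWU hnz E.f s).mono (by norm_num)) ?_ ?_
    (fun u hu hb x t ht => Env.C1 u hu hb x t ht) (fun u hu x t ht => Env.C2 u hu x t ht) s
  · intro u hu v v'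
    have hsplit : (u.map E.f).prod = ((u.take E.p0).map E.f).prod * ((u.drop E.p0).map E.f).prod := by
      rw [← List.prod_append, ← List.map_append, List.take_append_drop]
    rw [hsplit]
    unfold Env.T Fib_298.TT Env.pre
    rw [hact]
    ext x
    simp only [Two_621.act, Pi.sub_apply, Pi.add_apply, mul_assoc]
    ring
  · intro v
    refine (List.finite_length_le α (E.p0 + E.N1)).subset ?_
    intro p hp
    exact hp.2.1
  · intro v
    refine (List.finite_length_le α E.p0).subset ?_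
    rintro p ⟨k, hk, hl, -⟩
    have := E.hc k hk
    show p.length ≤ E.p0
    omega

theorem of_UGI [Finite α] [Finite S] (f : α → S)
    (hU : UGI (Two_621.act : Tok S → S → Tok S)) (s : S) :
    HL 3 ({w | (w.map f).prod = s} : Language α) := by
  classical
  have : Fintype S := Fintype.ofFinite S
  have : Fintype (Tok S) := Fintype.ofFinite _
  obtain ⟨C0, hU⟩ := hU
  obtain ⟨K, hg⟩ := ExactR_237.exact_gadget α S (Tok S) f Two_621.act (2 + 2 * C0)
  obtain ⟨N1, Pm, La, c, BadT, hPm, hc, hgol, hper, hthin, hwords⟩ := hU K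
  obtain ⟨lam, rho, nu1, hlen, hsound, hcomp, hloc⟩ := hwords α f
  obtain ⟨lam2, rho2, nuX, hs2, hc2⟩ := hg c hc
  let p0 := (Finset.range K).sum c
  have hcp : ∀ k < K, c k ≤ p0 := fun k hk =>
    Finset.single_le_sum (f := c) (fun i _ => Nat.zero_le _) (Finset.mem_range.2 hk)
  obtain ⟨n, G, B, Wo, hLW, hgap, -, -, hfree⟩ :=
    LWallAll_922.walls_all_left α (2 * (p0 + N1) + 1) (by omega)
  have hWU : WallU Wo n (max B (2 * (p0 + N1) + 1)) := by
    refine ⟨hLW.app, hLW.len, fun X hX => ?_⟩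
    obtain ⟨u, x, v, k, h1, h2, h3, h4⟩ := hfree X hX
    exact ⟨u, x, v, k, h4, h1.trans (le_max_left _ _), h2.trans (le_max_right _ _),
      h3.trans (le_max_left _ _)⟩
  let E : Env α S (Tok S) :=
    { f := f
      act := Two_621.act
      Wo := Wo
      n := n
      loc := hLW.app
      W := 2 * (p0 + N1) + 1
      gap := hgap
      z := 3 * p0 + 2 * N1 + n + La + 1
      p0 := p0
      N1 := N1
      La := La
      hW := by omega
      hz := rfl
      BadT := BadT
      lam := lam
      rho := rho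
      nu1 := nu1
      len1 := hlen
      sound1 := hsound
      comp1 := hcomp
      K := K
      c := c
      hc := hcp
      lam2 := lam2
      rho2 := rho2
      nuX := nuX
      sound2 := hs2
      C0 := C0
      comp2 := hc2
      golomb := hgol
      thin := by
        intro T hT
        refine ⟨_, hthin T hT, ?_⟩
        intro k hk k' hk' hne hb
        simp only [Finset.mem_filter, Finset.mem_product, Finset.mem_range]
        exact ⟨⟨hk, hk'⟩, hne, hb⟩ }
  refine of_env E rfl hWU hPm hper ?_ s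
  intro y
  refine reg_of_local f La Pm hPm (fun Y => nu1 Y = y) ?_
  intro q q2 h1 h2 h3 h4 h5
  rw [(hloc q q2 h1 h2 h3 h4 h5).2]

universe u

/-- **S0495 from the closed U-gadget `UGI` for the token spaces.** -/
theorem row (hU : ∀ (S : Type) [Monoid S] [Finite S], UGI (Two_621.act : Tok S → S → Tok S))
    (α : Type u) [Finite α] (L : Language α) (hL : L.IsRegular) :
    ∃ e : Crest.RegLang.GRegExp α, e.height ≤ 3 ∧ e.lang = L :=
  Uni_366.final1 (fun _ _ S _ _ φ s => of_UGI φ (hU S) s) α L hL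

end Final

end Crest.Agent.R320.Fin_346
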