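import Mathlib

/-!
# Spoil leaf (ruler) of plan #13673 for row 320

`c l = 2 ^ l * K0` with `K0 = 1` mod `M` and `K0 = 4 M (1 + b + .. + b ^ (m - 1))` mod `b ^ m`:
for every `T` at most `Ms.card + m` ordered pairs `(i, j)`, `i ≠ j`, `i, j < K`, make the length
`T + c j - c i` bad.
-/

namespace Crest.Agent.R320.Sp_357

open Finset

/-- bad lengths of the gadget `g1` (lead #13673) -/
def Bad (Ms : Finset ℕ) (M b m : ℕ) (n : ℕ) : Prop :=
  (∃ k ∈ Ms, k ∣ n) ∨ ∃ j < m, ¬ (M ≤ n / b ^ j % b ∧ n / b ^ j % b + M + 1 ≤ b)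

theorem pow_pair_aux {a b c d : ℕ} (hab : a ≤ b) (h : 2 ^ a + 2 ^ b = 2 ^ c + 2 ^ d) :
    ¬ b < d := by
  intro hbd
  have h1 : 2 ^ a ≤ 2 ^ b := Nat.pow_le_pow_right (by norm_num) hab
  have h2 : 2 ^ (b + 1) ≤ 2 ^ d := Nat.pow_le_pow_right (by norm_num) hbd
  have h3 : 0 < 2 ^ c := by positivity
  rw [pow_succ] at h2
  omega

theorem pow_pair {a b c d : ℕ} (h : 2 ^ a + 2 ^ b = 2 ^ c + 2 ^ d) :
    (a = c ∧ b = d) ∨ (a = d ∧ b = c) := by
  have key : ∀ a b c d : ℕ, a ≤ b → c ≤ d → 2 ^ a + 2 ^ b = 2 ^ c + 2 ^ d → a = c ∧ b = d := by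
    intro a b c d hab hcd h
    have h1 := pow_pair_aux hab h
    have h2 := pow_pair_aux hcd h.symm
    have e : b = d := by omega
    subst e
    have : 2 ^ a = 2 ^ c := by omega
    exact ⟨Nat.pow_right_injective (le_refl 2) this, rfl⟩
  rcases le_total a b with hab | hab <;> rcases le_total c d with hcd | hcd
  · exact Or.inl (key a b c d hab hcd h)
  · have := key a b d c hab hcd (by omega)
    exact Or.inr this
  · have := key b a c d hab hcd (by omega)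
    exact Or.inr ⟨this.2, this.1⟩
  · have := key b a d c hab hcd (by omega)
    exact Or.inl ⟨this.2, this.1⟩

/-- an ordered pair is determined by its difference of powers of two -/
theorem pair_unique {i j i' j' : ℕ} (h : i ≠ j)
    (e : (2 : ℤ) ^ j - 2 ^ i = 2 ^ j' - 2 ^ i') : i = i' ∧ j = j' := by
  have e' : 2 ^ j + 2 ^ i' = 2 ^ j' + 2 ^ i := by
    have : (2 : ℤ) ^ j + 2 ^ i' = 2 ^ j' + 2 ^ i := by linarith
    exact_mod_cast this
  rcases pow_pair e' with ⟨h1, h2⟩ | ⟨h1, h2⟩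
  · exact ⟨h2.symm, h1⟩
  · exact absurd h1.symm h

/-- a bad digit puts `n` near a multiple of `b ^ (e + 1)` -/
theorem near {n b M e : ℕ} (hb : 0 < b)
    (h : ¬ (M ≤ n / b ^ e % b ∧ n / b ^ e % b + M + 1 ≤ b)) :
    ∃ q s : ℤ, (n : ℤ) = (b : ℤ) * (b : ℤ) ^ e * q + s ∧ -((M : ℤ) * (b : ℤ) ^ e) ≤ s ∧
      s < (M : ℤ) * (b : ℤ) ^ e := by
  have hB : 0 < b ^ e := by positivity
  have h1 : n = b ^ e * (n / b ^ e) + n % b ^ e := (Nat.div_add_mod n (b ^ e)).symm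
  have h2 : n / b ^ e = b * (n / b ^ e / b) + n / b ^ e % b :=
    (Nat.div_add_mod (n / b ^ e) b).symm
  have h3 : n % b ^ e < b ^ e := Nat.mod_lt _ hB
  have h4 : n / b ^ e % b < b := Nat.mod_lt _ hb
  set B := b ^ e with hBdef
  set d := n / B % b with hd
  set Q := n / B / b with hQ
  set r := n % B with hr
  set N := n / B with hN
  have hBz : (0 : ℤ) < (B : ℤ) := by exact_mod_cast hB
  have hcast : (b : ℤ) ^ e = (B : ℤ) := by rw [hBdef]; push_cast; rfl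
  rw [hcast]
  have e1 : (n : ℤ) = (B : ℤ) * (N : ℤ) + (r : ℤ) := by exact_mod_cast h1
  have e2 : (N : ℤ) = (b : ℤ) * (Q : ℤ) + (d : ℤ) := by exact_mod_cast h2
  have e3 : (r : ℤ) < (B : ℤ) := by exact_mod_cast h3
  have e4 : (d : ℤ) + 1 ≤ (b : ℤ) := by exact_mod_cast h4
  have r0 : (0 : ℤ) ≤ (r : ℤ) := by positivity
  have d0 : (0 : ℤ) ≤ (d : ℤ) := by positivity
  have M0 : (0 : ℤ) ≤ (M : ℤ) := by positivity
  by_cases hM : M ≤ d
  · have hM2 : b ≤ d + M := by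
      by_contra hcon
      exact h ⟨hM, by omega⟩
    have e5 : (b : ℤ) ≤ (d : ℤ) + (M : ℤ) := by exact_mod_cast hM2
    refine ⟨(Q : ℤ) + 1, (d : ℤ) * B + r - b * B, ?_, ?_, ?_⟩
    · rw [e1, e2]; ring
    · nlinarith
    · nlinarith
  · have e5 : (d : ℤ) + 1 ≤ (M : ℤ) := by exact_mod_cast (not_le.mp hM)
    refine ⟨(Q : ℤ), (d : ℤ) * B + r, ?_, ?_, ?_⟩
    · rw [e1, e2]; ring
    · nlinarith
    · nlinarith

/-- the arithmetic heart: `D * (4 M G)` is not close to `0` modulo `b B` -/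
theorem heart {b B G M P D s q : ℤ} (hB : 0 < B) (hM : 0 < M) (hP : 1 ≤ P)
    (hG1 : B ≤ G) (hG2 : G ≤ 2 * B) (hb : 16 * P * M ≤ b)
    (hD : |D| ≤ P) (hs : |s| < 2 * (M * B)) (hq : D * (4 * M * G) = b * B * q + s) : D = 0 := by
  rcases abs_lt.mp hs with ⟨hs1, hs2⟩
  rcases abs_le.mp hD with ⟨hD1, hD2⟩
  have hMB : 0 < M * B := by positivity
  have hMG : 0 < 4 * M * G := by nlinarith
  have hMG1 : 4 * (M * B) ≤ 4 * M * G := by nlinarith
  have hMG2 : 4 * M * G ≤ 8 * (M * B) := by nlinarith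
  have hbB : 16 * P * (M * B) ≤ b * B := by nlinarith
  have hPMB : M * B ≤ P * (M * B) := by nlinarith
  have hbB0 : 0 < b * B := by nlinarith
  by_contra hne
  rcases lt_or_gt_of_ne hne with h | h
  · -- `D ≤ -1`
    have h1 : D ≤ -1 := by omega
    have x1 : D * (4 * M * G) ≤ -(4 * (M * B)) := by nlinarith
    have x2 : -(P * (8 * (M * B))) ≤ D * (4 * M * G) := by
      have : -P * (4 * M * G) ≤ D * (4 * M * G) := by nlinarith
      have : P * (4 * M * G) ≤ P * (8 * (M * B)) := by nlinarith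
      nlinarith
    have hq0 : q < 0 := by
      by_contra hcon
      have : 0 ≤ b * B * q := by
        have : 0 ≤ q := not_lt.mp hcon
        positivity
      linarith
    have hq1 : q ≤ -1 := by omega
    have : b * B * q ≤ -(b * B) := by nlinarith
    nlinarith
  · have h1 : 1 ≤ D := by omega
    have x1 : 4 * (M * B) ≤ D * (4 * M * G) := by nlinarith
    have x2 : D * (4 * M * G) ≤ P * (8 * (M * B)) := by
      have : D * (4 * M * G) ≤ P * (4 * M * G) := by nlinarith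
      have : P * (4 * M * G) ≤ P * (8 * (M * B)) := by nlinarith
      nlinarith
    have hq0 : 0 < q := by
      by_contra hcon
      have : b * B * q ≤ 0 := by
        have : q ≤ 0 := not_lt.mp hcon
        nlinarith
      linarith
    have hq1 : 1 ≤ q := by omega
    have : b * B ≤ b * B * q := by nlinarith
    nlinarith

theorem geom_bounds (b e : ℕ) (hb : 2 ≤ b) :
    b ^ e ≤ ∑ i ∈ range (e + 1), b ^ i ∧ ∑ i ∈ range (e + 1), b ^ i ≤ 2 * b ^ e := by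
  induction e with
  | zero => simp
  | succ e ih =>
    rw [sum_range_succ]
    constructor
    · exact Nat.le_add_left _ _
    · have : b ^ (e + 1) = b ^ e * b := pow_succ _ _
      have h2 : b ^ e * 2 ≤ b ^ e * b := Nat.mul_le_mul_left _ hb
      omega

theorem geom_split (b m e : ℕ) (he : e < m) :
    ∃ κ : ℕ, ∑ i ∈ range m, b ^ i = ∑ i ∈ range (e + 1), b ^ i + b * b ^ e * κ := by
  obtain ⟨t, rfl⟩ : ∃ t, m = (e + 1) + t := ⟨m - (e + 1), by omega⟩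
  refine ⟨∑ i ∈ range t, b ^ i, ?_⟩
  rw [sum_range_add, mul_sum]
  congr 1
  refine sum_congr rfl fun i _ => ?_
  rw [pow_add, pow_succ]; ring

theorem two_pow_bd {K j : ℕ} (hj : j < K) : 2 * (2 : ℤ) ^ j ≤ 2 ^ K := by
  have h : (2 : ℤ) ^ (j + 1) ≤ 2 ^ K := pow_le_pow_right₀ (by norm_num) hj
  rw [pow_succ] at h; linarith

theorem diff_bd {K i j i' j' : ℕ} (hi : i < K) (hj : j < K) (hi' : i' < K) (hj' : j' < K) :
    |((2 : ℤ) ^ j - 2 ^ i) - (2 ^ j' - 2 ^ i')| < 2 ^ K := by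
  have h1 := two_pow_bd hi
  have h2 := two_pow_bd hj
  have h3 := two_pow_bd hi'
  have h4 := two_pow_bd hj'
  have p1 : (0 : ℤ) < 2 ^ i := by positivity
  have p2 : (0 : ℤ) < 2 ^ j := by positivity
  have p3 : (0 : ℤ) < 2 ^ i' := by positivity
  have p4 : (0 : ℤ) < 2 ^ j' := by positivity
  rw [abs_lt]; constructor <;> linarith

/-- **The ruler, core form.** -/
theorem spoil_core (Ms : Finset ℕ) (M b m K K0 : ℕ) (hM : 0 < M)
    (hMs : ∀ k ∈ Ms, 2 ^ K ≤ k ∧ k ∣ M) (hb : 16 * 2 ^ K * M ≤ b)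
    (hK1 : K0 ≡ 1 [MOD M])
    (hK2 : K0 ≡ 4 * M * ∑ i ∈ range m, b ^ i [MOD b ^ m]) (T : ℕ)
    (hT : ∀ i < K, 2 ^ i * K0 ≤ T) (F : Finset (ℕ × ℕ))
    (hF : ∀ p ∈ F, p.1 < K ∧ p.2 < K ∧ p.1 ≠ p.2 ∧
      Bad Ms M b m (T + 2 ^ p.2 * K0 - 2 ^ p.1 * K0)) : F.card ≤ Ms.card + m := by
  classical
  have hbpos : 0 < b := by
    have : 0 < 16 * 2 ^ K * M := by positivity
    omega
  have hb2 : 2 ≤ b := by
    have h1 : 1 ≤ 2 ^ K := Nat.one_le_two_pow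
    have : 16 * 1 * 1 ≤ 16 * 2 ^ K * M := Nat.mul_le_mul (Nat.mul_le_mul_left 16 h1) hM
    omega
  have hcard : (Ms.disjSum (range m)).card = Ms.card + m := by
    rw [card_disjSum, card_range]
  rw [← hcard]
  have hcast : ∀ p ∈ F, ((T + 2 ^ p.2 * K0 - 2 ^ p.1 * K0 : ℕ) : ℤ)
      = (T : ℤ) + (2 ^ p.2 - 2 ^ p.1) * (K0 : ℤ) := by
    intro p hp
    have h1 := hT p.1 (hF p hp).1
    have h2 : 2 ^ p.1 * K0 ≤ T + 2 ^ p.2 * K0 := le_trans h1 (Nat.le_add_right _ _)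
    rw [Nat.cast_sub h2]; push_cast; ring
  refine Finset.card_le_card_of_forall_subsingleton
    (fun (p : ℕ × ℕ) (x : ℕ ⊕ ℕ) => Sum.elim
      (fun k => k ∣ T + 2 ^ p.2 * K0 - 2 ^ p.1 * K0)
      (fun e => ¬ (M ≤ (T + 2 ^ p.2 * K0 - 2 ^ p.1 * K0) / b ^ e % b ∧
        (T + 2 ^ p.2 * K0 - 2 ^ p.1 * K0) / b ^ e % b + M + 1 ≤ b)) x) ?_ ?_
  · intro p hp
    obtain ⟨-, -, -, hbad⟩ := hF p hp
    rcases hbad with ⟨k, hk, hdiv⟩ | ⟨e, he, hdig⟩
    · exact ⟨Sum.inl k, by simpa using hk, hdiv⟩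
    · exact ⟨Sum.inr e, by simpa using he, hdig⟩
  · intro x hx p hp p' hp'
    obtain ⟨hpF, hpx⟩ := hp
    obtain ⟨hpF', hpx'⟩ := hp'
    obtain ⟨hi, hj, hne, -⟩ := hF p hpF
    obtain ⟨hi', hj', hne', -⟩ := hF p' hpF'
    have c1 := hcast p hpF
    have c2 := hcast p' hpF'
    have hDb := diff_bd hi hj hi' hj'
    have fin : ((2 : ℤ) ^ p.2 - 2 ^ p.1) - (2 ^ p'.2 - 2 ^ p'.1) = 0 → p = p' := by
      intro h0
      obtain ⟨h1, h2⟩ := pair_unique hne (sub_eq_zero.mp h0)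
      exact Prod.ext h1 h2
    apply fin
    rcases x with k | e
    · -- a prime
      have hk : k ∈ Ms := by simpa using hx
      obtain ⟨hk1, hk2⟩ := hMs k hk
      have d1 : (k : ℤ) ∣ (T : ℤ) + (2 ^ p.2 - 2 ^ p.1) * (K0 : ℤ) := by
        rw [← c1]; exact_mod_cast (show k ∣ _ from hpx)
      have d2 : (k : ℤ) ∣ (T : ℤ) + (2 ^ p'.2 - 2 ^ p'.1) * (K0 : ℤ) := by
        rw [← c2]; exact_mod_cast (show k ∣ _ from hpx')
      have d3 : (k : ℤ) ∣ (((2 : ℤ) ^ p.2 - 2 ^ p.1) - (2 ^ p'.2 - 2 ^ p'.1)) * (K0 : ℤ) := by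
        obtain ⟨x, hx1⟩ := d1
        obtain ⟨y, hy1⟩ := d2
        exact ⟨x - y, by linear_combination hx1 - hy1⟩
      have d4 : (k : ℤ) ∣ (K0 : ℤ) - 1 := by
        have h5 : K0 ≡ 1 [MOD k] := hK1.of_dvd hk2
        have h6 := (Nat.modEq_iff_dvd.mp h5.symm)
        simpa using h6
      have d5 : (k : ℤ) ∣ (((2 : ℤ) ^ p.2 - 2 ^ p.1) - (2 ^ p'.2 - 2 ^ p'.1)) := by
        obtain ⟨x, hx1⟩ := d3
        obtain ⟨y, hy1⟩ := d4
        exact ⟨x - (((2 : ℤ) ^ p.2 - 2 ^ p.1) - (2 ^ p'.2 - 2 ^ p'.1)) * y, by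
          linear_combination
            hx1 - (((2 : ℤ) ^ p.2 - 2 ^ p.1) - (2 ^ p'.2 - 2 ^ p'.1)) * hy1⟩
      refine Int.eq_zero_of_abs_lt_dvd d5 (lt_of_lt_of_le hDb ?_)
      exact_mod_cast hk1
    · -- a digit
      have he : e < m := by simpa using hx
      obtain ⟨q1, s1, a1, a2, a3⟩ := near hbpos (show ¬ _ from hpx)
      obtain ⟨q2, s2, b1, b2, b3⟩ := near hbpos (show ¬ _ from hpx')
      obtain ⟨κ, hκ⟩ := geom_split b m e he
      obtain ⟨g1, g2⟩ := geom_bounds b e hb2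
      have hK3 : K0 ≡ 4 * M * ∑ i ∈ range m, b ^ i [MOD b ^ (e + 1)] :=
        hK2.of_dvd (pow_dvd_pow b he)
      obtain ⟨u, hu⟩ := Nat.modEq_iff_dvd.mp hK3.symm
      have hu' : (K0 : ℤ) = 4 * (M : ℤ) * ((∑ i ∈ range (e + 1), b ^ i : ℕ) : ℤ)
          + (b : ℤ) * (b : ℤ) ^ e * (u + 4 * M * κ) := by
        rw [hκ] at hu
        push_cast at hu ⊢
        rw [pow_succ] at hu
        linarith
      have hBpos : (0 : ℤ) < (b : ℤ) ^ e := by
        have : (0 : ℤ) < (b : ℤ) := by exact_mod_cast hbpos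
        positivity
      refine heart (b := (b : ℤ)) (B := (b : ℤ) ^ e)
        (G := ((∑ i ∈ range (e + 1), b ^ i : ℕ) : ℤ)) (M := (M : ℤ)) (P := (2 : ℤ) ^ K)
        (s := s1 - s2)
        (q := q1 - q2 - (((2 : ℤ) ^ p.2 - 2 ^ p.1) - (2 ^ p'.2 - 2 ^ p'.1)) * (u + 4 * M * κ))
        hBpos (by exact_mod_cast hM) (one_le_pow₀ (by norm_num)) (by exact_mod_cast g1)
        (by exact_mod_cast g2) (by exact_mod_cast hb) hDb.le ?_ ?_
      · rw [abs_lt]; constructor <;> linarith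
      · have t1 : (T : ℤ) + (2 ^ p.2 - 2 ^ p.1) * (K0 : ℤ)
            = (b : ℤ) * (b : ℤ) ^ e * q1 + s1 := by rw [← c1]; exact a1
        have t2 : (T : ℤ) + (2 ^ p'.2 - 2 ^ p'.1) * (K0 : ℤ)
            = (b : ℤ) * (b : ℤ) ^ e * q2 + s2 := by rw [← c2]; exact b1
        have t3 : (((2 : ℤ) ^ p.2 - 2 ^ p.1) - (2 ^ p'.2 - 2 ^ p'.1)) * (K0 : ℤ)
            = (b : ℤ) * (b : ℤ) ^ e * (q1 - q2) + (s1 - s2) := by linarith
        rw [hu'] at t3
        linear_combination t3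

open Classical in
/-- **SPOIL LEAF** of #13673: the ruler for the modes of `g1`. -/
theorem sp (Ms : Finset ℕ) (M b m K N1 : ℕ) (hM : 0 < M)
    (hMs : ∀ k ∈ Ms, 2 ^ K ≤ k ∧ k ∣ M) (hco : Nat.Coprime b M) (hb : 16 * 2 ^ K * M ≤ b) :
    ∃ c : ℕ → ℕ, StrictMono c ∧ (∀ i, 4 * N1 < c i) ∧ (∀ i j, i < j → c i + 4 * N1 < c j) ∧
      (∀ i j i' j', i ≠ j → (i, j) ≠ (i', j') →
        (4 * N1 : ℤ) < |((c j : ℤ) - c i) - ((c j' : ℤ) - c i')|) ∧
      (∀ T : ℕ, (∀ i < K, c i ≤ T) →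
        ((range K ×ˢ range K).filter
          (fun p => p.1 ≠ p.2 ∧ Bad Ms M b m (T + c p.2 - c p.1))).card ≤ Ms.card + m) ∧
      (∀ T : ℕ, (∀ i < K, c i ≤ T) → ∀ F : Finset (ℕ × ℕ),
        (∀ p ∈ F, p.1 < K ∧ p.2 < K ∧ p.1 ≠ p.2 ∧ Bad Ms M b m (T + c p.2 - c p.1)) →
          F.card ≤ Ms.card + m) := by
  have hbpos : 0 < b := by
    have : 0 < 16 * 2 ^ K * M := by positivity
    omega
  have hco' : Nat.Coprime M (b ^ m) := Nat.Coprime.pow_right m hco.symm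
  obtain ⟨k, hk1, hk2⟩ := Nat.chineseRemainder hco' 1 (4 * M * ∑ i ∈ range m, b ^ i)
  have hMb : 0 < M * b ^ m := by positivity
  set K0 := k + (4 * N1 + 1) * (M * b ^ m) with hK0
  have hK0big : 4 * N1 + 1 ≤ K0 := by
    have : (4 * N1 + 1) * 1 ≤ (4 * N1 + 1) * (M * b ^ m) := Nat.mul_le_mul_left _ hMb
    omega
  have hK1 : K0 ≡ 1 [MOD M] := by
    have : K0 ≡ k [MOD M] := by
      rw [hK0, show (4 * N1 + 1) * (M * b ^ m) = M * ((4 * N1 + 1) * b ^ m) by ring]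
      simp [Nat.ModEq]
    exact this.trans hk1
  have hK2 : K0 ≡ 4 * M * ∑ i ∈ range m, b ^ i [MOD b ^ m] := by
    have : K0 ≡ k [MOD b ^ m] := by
      rw [hK0, show (4 * N1 + 1) * (M * b ^ m) = b ^ m * ((4 * N1 + 1) * M) by ring]
      simp [Nat.ModEq]
    exact this.trans hk2
  have hgap : ∀ i j, i < j → 2 ^ i * K0 + 4 * N1 < 2 ^ j * K0 := by
    intro i j hij
    have h1 : 2 ^ (i + 1) ≤ 2 ^ j := Nat.pow_le_pow_right (by norm_num) hij
    have h2 : 2 ^ (i + 1) * K0 ≤ 2 ^ j * K0 := Nat.mul_le_mul_right _ h1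
    have h3 : 2 ^ (i + 1) * K0 = 2 ^ i * K0 + 2 ^ i * K0 := by rw [pow_succ]; ring
    have h4 : 1 * K0 ≤ 2 ^ i * K0 := Nat.mul_le_mul_right _ Nat.one_le_two_pow
    omega
  refine ⟨fun l => 2 ^ l * K0, ?_, ?_, hgap, ?_, ?_, ?_⟩
  · intro i j hij
    have := hgap i j hij
    show 2 ^ i * K0 < 2 ^ j * K0
    omega
  · intro i
    have h4 : 1 * K0 ≤ 2 ^ i * K0 := Nat.mul_le_mul_right _ Nat.one_le_two_pow
    show 4 * N1 < 2 ^ i * K0
    omega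
  · intro i j i' j' hij hne
    have h0 : ((2 : ℤ) ^ j - 2 ^ i) - (2 ^ j' - 2 ^ i') ≠ 0 := by
      intro h
      obtain ⟨h1, h2⟩ := pair_unique hij (sub_eq_zero.mp h)
      exact hne (Prod.ext h1 h2)
    have h1 : 1 ≤ |((2 : ℤ) ^ j - 2 ^ i) - (2 ^ j' - 2 ^ i')| := Int.one_le_abs h0
    have h2 : (((2 ^ j * K0 : ℕ) : ℤ) - ((2 ^ i * K0 : ℕ) : ℤ))
        - (((2 ^ j' * K0 : ℕ) : ℤ) - ((2 ^ i' * K0 : ℕ) : ℤ))
        = (((2 : ℤ) ^ j - 2 ^ i) - (2 ^ j' - 2 ^ i')) * (K0 : ℤ) := by push_cast; ring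
    show (4 * N1 : ℤ) < |(((2 ^ j * K0 : ℕ) : ℤ) - ((2 ^ i * K0 : ℕ) : ℤ))
        - (((2 ^ j' * K0 : ℕ) : ℤ) - ((2 ^ i' * K0 : ℕ) : ℤ))|
    rw [h2, abs_mul, abs_of_nonneg (by positivity : (0 : ℤ) ≤ (K0 : ℤ))]
    have h3 : (4 * N1 : ℤ) + 1 ≤ (K0 : ℤ) := by exact_mod_cast hK0big
    nlinarith
  · intro T hT
    refine spoil_core Ms M b m K K0 hM hMs hb hK1 hK2 T hT _ ?_
    intro p hp
    rw [mem_filter, mem_product, mem_range, mem_range] at hp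
    exact ⟨hp.1.1, hp.1.2, hp.2.1, hp.2.2⟩
  · intro T hT F hF
    exact spoil_core Ms M b m K K0 hM hMs hb hK1 hK2 T hT F hF

end Crest.Agent.R320.Sp_357
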