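import Crest.Agent.R320.End_532
import Crest.Agent.R320.P4_933
import Crest.Agent.R320.MarkAll_813
import Crest.Agent.R320.BddReg_746
import Crest.Agent.R320.G1_256
import Crest.Agent.R320.ExactR_237
import Crest.Agent.R320.Sp_357

/-!
# Row 320: the final join (constants), helper357

`fin` : for a finite alphabet and a finite monoid every fibre of a monoid map has generalized star
height at most 3.  Parts: `End_532.joint` (top + both schemes), `G1_256.g1` (gadget 1),
`Sp_357.sp` (ruler), `ExactR_237.exact_gadget` (gadget 2), `MarkAll_813` (walls), `P4_933` (HL 1).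
-/

set_option autoImplicit false

namespace Crest.Agent.R320.Fin_357

open Crest.RegLang Crest.Agent.R320.Hk_851 Crest.Agent.R320.BddReg_746

universe u

theorem drop_snoc {α : Type*} (A : ℕ) (u : List α) (a : α) :
    (u ++ [a]).drop A = if (u.take A).length < A then [] else u.drop A ++ [a] := by
  by_cases h : u.length < A
  · rw [if_pos (by rw [List.length_take]; omega), List.drop_eq_nil_of_le (by simp; omega)]
  · have h1 : (u.take A).length = A := by rw [List.length_take]; omega
    rw [if_neg (by omega), List.drop_append_of_le_length (by omega)]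

/-- finite-state properties (value of the part behind the prefix) are regular -/
theorem regular_of_class' {α : Type u} [Finite α] {S : Type*} [Monoid S] [Finite S] (φ : α → S)
    (A M0 : ℕ) (hM : 0 < M0) (f : List α → Prop)
    (hf : ∀ u u' : List α, A ≤ u.length → A ≤ u'.length → u.take A = u'.take A →
      u.length % M0 = u'.length % M0 → ((u.drop A).map φ).prod = ((u'.drop A).map φ).prod →
        (f u ↔ f u')) :
    Language.IsRegular ({u | f u} : Language α) := by
  classical
  haveI : NeZero M0 := ⟨by omega⟩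
  have hfin : Finite {l : List α // l.length ≤ A} := List.finite_length_le α A
  let σ := {l : List α // l.length ≤ A} × ZMod M0 × S
  haveI : Fintype σ := Fintype.ofFinite σ
  let st : List α → σ := fun u =>
    (⟨u.take A, by rw [List.length_take]; omega⟩, (u.length : ZMod M0), ((u.drop A).map φ).prod)
  let M : DFA α σ :=
    { step := fun q a =>
        (if h : q.1.1.length < A then ⟨q.1.1 ++ [a], by simp; omega⟩ else q.1,
          q.2.1 + 1, if q.1.1.length < A then 1 else q.2.2 * φ a)
      start := st []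
      accept := {q | ∃ u, f u ∧ st u = q} }
  have hev : ∀ u, M.eval u = st u := by
    intro u
    induction u using List.reverseRecOn with
    | nil => rfl
    | append_singleton u a ih =>
      rw [DFA.eval_append_singleton, ih]
      refine Prod.ext ?_ (Prod.ext ?_ ?_)
      · apply Subtype.ext
        show (if h : (u.take A).length < A then (⟨u.take A ++ [a], by simp at h ⊢; omega⟩ :
          {l : List α // l.length ≤ A}) else ⟨u.take A, by rw [List.length_take]; omega⟩).1
          = (u ++ [a]).take A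
        rw [P4_933.take_snoc]
        split_ifs <;> rfl
      · show (u.length : ZMod M0) + 1 = (((u ++ [a]).length : ℕ) : ZMod M0)
        simp
      · show (if (u.take A).length < A then (1 : S) else ((u.drop A).map φ).prod * φ a)
          = (((u ++ [a]).drop A).map φ).prod
        rw [drop_snoc]
        split_ifs <;> simp
  refine Language.isRegular_iff.2 ⟨σ, inferInstance, M, ?_⟩
  ext u
  rw [DFA.mem_accepts, hev]
  constructor
  · rintro ⟨u', h1, h2⟩
    have e1 : u'.take A = u.take A := congrArg (fun q : σ => q.1.1) h2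
    have e2 : (u'.length : ZMod M0) = (u.length : ZMod M0) := congrArg (fun q : σ => q.2.1) h2
    have e3 : ((u'.drop A).map φ).prod = ((u.drop A).map φ).prod :=
      congrArg (fun q : σ => q.2.2) h2
    have e2' : u'.length % M0 = u.length % M0 := (ZMod.natCast_eq_natCast_iff' _ _ _).1 e2
    have e4 := congrArg List.length e1
    rw [List.length_take, List.length_take] at e4
    by_cases h : u.length < A
    · rw [List.take_of_length_le (by omega), List.take_of_length_le (by omega)] at e1
      rw [← e1]; exact h1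
    · exact (hf u' u (by omega) (by omega) e1 e2' e3).1 h1
  · intro h
    exact ⟨u, h, rfl⟩

/-- left-looking walls on all words (813; statement and proof as in 588) -/
theorem exists_walls (α : Type u) [Finite α] (W : ℕ) (hW : 0 < W) :
    ∃ (n B : ℕ) (Wl : List α → Prop),
      (∀ P Q : List α, n ≤ Q.length → (Wl (P ++ Q) ↔ Wl Q)) ∧
      (∀ P, Wl P → n ≤ P.length) ∧
      (∀ P Q : List α, Wl P → Wl (P ++ Q) → Q ≠ [] → W < Q.length) ∧
      ∀ u : List α, (∀ t < u.length, ¬ Wl (u.take t)) → u ∈ (PN B 2 : Language α) := by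
  obtain ⟨n, B, R, h1, h2, h3, -, h5⟩ := MarkAll_813.exists_marks' α W hW
  have hne : ¬ R [] := fun h => h3 [] 1 h one_pos hW (by simpa using h)
  refine ⟨n, B + W, fun P => R P.reverse, ?_, ?_, ?_, ?_⟩
  · intro P Q hQ
    change R (P ++ Q).reverse ↔ R Q.reverse
    rw [h1 (P ++ Q).reverse, h1 Q.reverse, List.reverse_append,
      List.take_append_of_le_length (by simpa using hQ)]
  · intro P hP
    simpa using h2 _ hP
  · intro P Q hP hPQ hQ
    by_contra hlt
    have h := h3 (P ++ Q).reverse Q.length hPQ (List.length_pos_iff.2 hQ) (by omega)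
    apply h
    rw [List.reverse_append, List.drop_append_of_le_length (by simp)]
    rw [show Q.length = Q.reverse.length by simp, List.drop_length]
    simpa using hP
  · intro u hu
    obtain ⟨u1, x, v1, k, hu1, hx, hv1, he⟩ := h5 u.reverse (by
      intro i hi
      rw [List.drop_reverse]
      by_cases h0 : u.length = 0
      · have : u = [] := List.length_eq_zero_iff.1 h0
        subst this
        simpa using hne
      · exact hu _ (by omega))
    have he' : u = (v1.reverse ++ (List.replicate k x.reverse).flatten) ++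
        (u1.reverse ++ pw x 0) := by
      have := congrArg List.reverse he
      rw [List.reverse_reverse] at this
      rw [this]
      simp [List.reverse_append, List.reverse_flatten, pw]
    rw [he']
    refine Language.mem_mul.2 ⟨_, ⟨v1.reverse, x.reverse, k, ?_, ?_, rfl⟩, _,
      Language.mem_mul.2 ⟨_, ⟨u1.reverse, x, 0, ?_, ?_, rfl⟩, [], rfl, by simp⟩, rfl⟩
    all_goals (try rw [List.length_reverse])
    all_goals omega

theorem xx_iff {α : Type u} (g : Sc2n_937.Geo α) (X : List α) :
    g.XX X ↔ P4_933.XX g.Wo g.z X := by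
  constructor
  · rintro ⟨h1, h2, h3⟩
    exact ⟨h2, h1, fun t ht hz => h3 t hz ht⟩
  · rintro ⟨h1, h2, h3⟩
    exact ⟨h2, h1, fun t hz ht => h3 t ht hz⟩

/-- **THE FINAL JOIN.** -/
theorem fin (α : Type) [Finite α] (S : Type) [Monoid S] [Finite S] (φ : α → S) (s : S) :
    HL 3 ({w | (w.map φ).prod = s} : Language α) := by
  classical
  obtain ⟨act, hadd, hone, hmul, hfaith⟩ := Blk467.exists_module S
  obtain ⟨m, r, hG⟩ := G1_256.g1 S (S → ZMod 2) act
  haveI : Fintype S := Fintype.ofFinite S
  haveI : Fintype (S → ZMod 2) := Fintype.ofFinite _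
  obtain ⟨K, hK⟩ := ExactR_237.exact_gadget α S (S → ZMod 2) φ act (2 * (r + m) + 2)
  obtain ⟨Ms, M, hcard, hMs, hM, hG⟩ := hG (2 ^ K)
  have h2K : 1 ≤ 2 ^ K := Nat.one_le_two_pow
  obtain ⟨b, hb⟩ : ∃ b, b = 16 * 2 ^ K * M + 1 := ⟨_, rfl⟩
  have hb0 : 16 * M ≤ 16 * 2 ^ K * M := Nat.mul_le_mul_right M (by omega)
  have hb1 : 4 * M + 4 < b := by omega
  have hbco : Nat.Coprime b M := by
    rw [hb]
    simp [Nat.coprime_mul_left_add_left]
  have hbpos : 0 < b := by omega
  obtain ⟨lam, rho, nu1, g1, g2, g3, g4⟩ := hG b hb1 hbco α φ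
  obtain ⟨N1, hN1⟩ : ∃ N1, N1 = b ^ m := ⟨_, rfl⟩
  have hN1pos : 0 < N1 := by rw [hN1]; positivity
  obtain ⟨c, cmono, cpos, cgap, cgol, ccard, ccardF⟩ := Sp_357.sp Ms M b m K N1 hM
    (fun k hk => ⟨(hMs k hk).1.le, (hMs k hk).2.2⟩) hbco (by omega)
  obtain ⟨lam2, rho2, nu2, e1, e2⟩ := hK c (fun i j hij _ => cmono hij)
  obtain ⟨p0, hp0⟩ : ∃ p0, p0 = c K := ⟨_, rfl⟩
  have hcp : ∀ k, k < K → c k ≤ p0 := fun k hk => by rw [hp0]; exact (cmono hk).le
  obtain ⟨n, B, Wo, wloc, wlen, wgap, wfree⟩ := exists_walls α (2 * p0 + 2 * N1 + 1) (by omega)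
  obtain ⟨q0, hq0⟩ : ∃ q0, q0 = n + 2 * p0 := ⟨_, rfl⟩
  let g : Sc2n_937.Geo α :=
    { Wo := Wo, n := n, z := p0 + N1 + q0, p0 := p0, q0 := q0, N1 := N1, loc := wloc, hz := rfl
      hq := by omega, hN := hN1pos, hqp := by omega }
  have hBad : ∀ y, ¬ Sp_357.Bad Ms M b m y → (∀ k ∈ Ms, ¬ k ∣ y) ∧
      ∀ j < m, M ≤ y / b ^ j % b ∧ y / b ^ j % b + M + 1 ≤ b := by
    intro y hy
    refine ⟨fun k hk hd => hy (Or.inl ⟨k, hk, hd⟩), fun j hj => ?_⟩
    by_contra hcon
    exact hy (Or.inr ⟨j, hj, hcon⟩)
  have hnu_fs : ∀ u u' : List α, p0 + N1 ≤ u.length → p0 + N1 ≤ u'.length →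
      u.take (p0 + N1) = u'.take (p0 + N1) →
      u.length % (M * b ^ m) = u'.length % (M * b ^ m) →
      ((u.drop (p0 + N1)).map φ).prod = ((u'.drop (p0 + N1)).map φ).prod →
      nu1 (u.drop p0) = nu1 (u'.drop p0) ∧
        ((u.drop p0).map φ).prod = ((u'.drop p0).map φ).prod ∧ u.take p0 = u'.take p0 := by
    intro u u' h1 h2 h3 h4 h5
    have t1 : (u.drop p0).take N1 = (u'.drop p0).take N1 := by
      have := congrArg (List.drop p0) h3
      rw [List.drop_take, List.drop_take] at this
      simpa using this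
    have t2 : u.take p0 = u'.take p0 := by
      have := congrArg (List.take p0) h3
      rw [List.take_take, List.take_take] at this
      simpa using this
    have t3 : ((u.drop p0).drop N1) = u.drop (p0 + N1) := by rw [List.drop_drop]
    have t3' : ((u'.drop p0).drop N1) = u'.drop (p0 + N1) := by rw [List.drop_drop]
    have t4 : ((u.drop p0).map φ).prod = ((u'.drop p0).map φ).prod := by
      rw [← List.take_append_drop N1 (u.drop p0), ← List.take_append_drop N1 (u'.drop p0),
        List.map_append, List.map_append, List.prod_append, List.prod_append, t1, t3, t3', h5]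
    refine ⟨?_, t4, t2⟩
    refine (g4 (u.drop p0) (u'.drop p0) ?_ ?_ ?_ ?_ ?_).2
    · rw [List.length_drop]; omega
    · rw [List.length_drop]; omega
    · rw [← hN1]; exact t1
    · rw [List.length_drop, List.length_drop]
      have h6 : u.length ≡ u'.length [MOD M * b ^ m] := h4
      have h7 : (u.length - p0) + p0 ≡ (u'.length - p0) + p0 [MOD M * b ^ m] := by
        rw [Nat.sub_add_cancel (by omega), Nat.sub_add_cancel (by omega)]; exact h6
      exact Nat.ModEq.add_right_cancel' p0 h7
    · rw [← hN1, t3, t3']; exact h5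
  refine End_532.joint act hadd hone hmul hfaith φ g nu1 (fun X => nu2 X 1) K c lam rho lam2
    (fun k Q => rho2 k Q 1) (Sp_357.Bad Ms M b m) (r + m) ?_ ?_ ?_ hcp ?_ ?_ ?_ ?_ ?_ ?_ ?_ ?_ s
  · -- hlen
    intro P v hP
    have := g1 P v hP
    show P.length ≤ N1
    omega
  · -- hex
    intro P Q u b' h1 h2
    exact g2 P Q u b' h1 h2
  · -- hc1
    intro Y _ hY u
    obtain ⟨h1, h2⟩ := hBad _ hY
    obtain ⟨P, Q, h3, h4, h5⟩ := g3 Y h1 h2 u
    exact ⟨P, Q, h3.symm, h4, h5⟩
  · -- hex2
    intro k hk P Q v u hP _ h1 h2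
    have := e1 k hk P Q 1 v u hP h1 h2
    rw [mul_one] at this
    exact this
  · -- hgap
    intro P Q h1 h2 h3
    have := wgap P Q h1 h2 h3
    show 2 * p0 + 2 * N1 < Q.length
    omega
  · -- hsp
    intro k k' l l' _ _ _ _ hkk hll h1 h2
    by_contra hne
    have h3 := cgol k k' l l' (Ne.symm hkk) (fun h => hne (Prod.ext_iff.1 h).1)
    have h1' : (c k : ℤ) + c l' < c l + c k' + 2 * N1 := by exact_mod_cast h1
    have h2' : (c l : ℤ) + c k' < c k + c l' + 2 * N1 := by exact_mod_cast h2
    have h4 : |((c k' : ℤ) - c k) - ((c l' : ℤ) - c l)| < 2 * N1 := by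
      rw [abs_lt]; constructor <;> linarith
    have h5 : (0 : ℤ) ≤ (N1 : ℤ) := by positivity
    linarith
  · -- hthin
    intro τ hτ J hJ
    have hτ' : p0 + N1 + q0 ≤ τ + p0 := hτ
    choose! f hf using fun k (hk : k ∈ J) => (hJ k hk).2
    have hT : ∀ i < K, c i ≤ τ - p0 := fun i hi => by
      have := hcp i hi
      omega
    have hle := ccardF (τ - p0) hT (J.image fun k => (k, f k)) (by
      intro p hp
      obtain ⟨k, hk, rfl⟩ := Finset.mem_image.1 hp
      obtain ⟨h1, h2, h3⟩ := hf k hk
      refine ⟨(hJ k hk).1, h1, Ne.symm h2, ?_⟩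
      have e : τ - p0 + c (f k) - c k = τ + c (f k) - c k - p0 := by
        have := hcp k (hJ k hk).1
        omega
      show Sp_357.Bad Ms M b m (τ - p0 + c (f k) - c k)
      rw [e]; exact h3)
    rw [Finset.card_image_of_injective _ (fun a b h => (Prod.ext_iff.1 h).1)] at hle
    omega
  · -- hI
    intro X0 v hX0
    have hX0' : X0.length = p0 := hX0
    obtain ⟨I, hI1, hI2⟩ := e2 X0 1 v (fun k hk => by rw [hX0']; exact hcp k hk)
    exact ⟨I, hI1, hI2⟩
  · -- hz0
    show 0 < p0 + N1 + q0
    omega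
  · -- hfib
    intro x y
    have hreg := regular_of_class' φ (p0 + N1) (M * b ^ m) (by positivity)
      (fun X => act (act x ((X.take p0).map φ).prod + nu2 (X.take p0) 1)
        ((X.drop p0).map φ).prod + nu1 (X.drop p0) = y)
      (by
        intro u u' h1 h2 h3 h4 h5
        obtain ⟨t1, t2, t3⟩ := hnu_fs u u' h1 h2 h3 h4 h5
        rw [t1, t2, t3])
    refine (P4_933.hl_XX (z := p0 + N1 + q0) wloc wlen wfree hreg).congr fun X => Iff.symm ?_
    constructor
    · rintro ⟨h1, h2⟩
      exact ⟨(xx_iff g X).2 h1, h2⟩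
    · rintro ⟨h1, h2⟩
      exact ⟨(xx_iff g X).1 h1, h2⟩
  · -- htail
    intro t
    have hreg := regular_of_class' φ 0 1 one_pos (fun X => (X.map φ).prod = t)
      (by
        intro u u' _ _ _ _ h5
        simp only [List.drop_zero] at h5
        rw [h5])
    refine (HL.mono (by omega) (P4_933.hl_NB (z := p0 + N1 + q0) wloc wlen wfree hreg)).congr
      fun X => Iff.symm ?_
    constructor
    · rintro ⟨h1, h2⟩
      refine ⟨fun P hP hpre => ?_, h2⟩
      exact (P4_933.NB_iff _ _ _).1 h1 P hpre ((xx_iff g P).1 hP)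
    · rintro ⟨h1, h2⟩
      refine ⟨(P4_933.NB_iff _ _ _).2 fun P hpre hP => ?_, h2⟩
      exact h1 P ((xx_iff g P).2 hP) hpre

end Crest.Agent.R320.Fin_357
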