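import Crest.Agent.R320.Top_270
import Crest.Agent.R320.P3_889
import Crest.Agent.R320.Fib_298
import Crest.Agent.R320.ExactR_237
import Crest.Agent.R320.LWallAll_922
import Crest.Agent.R320.Two_621

/-!
# Row 320: the whole row from one gadget (helper364)

`UGI` = the scheme-1 gadget with a ruler and a thin count, on all words.
`main` : `UGI` for `Tok S` gives height three for every fibre, by 270's semantic top, 889's
scheme 2, 298's fibres, 922's walls and 237's exact gadget.
-/

set_option autoImplicit false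

namespace Crest.Agent.R320.Fin364

open Crest.Agent.R320.Hk_851 Crest.Agent.R320.Code110

/-- gadget 1 -/
def UGI (S V : Type) [Monoid S] [AddCommGroup V] (act : V → S → V) : Prop :=
  ∃ C0 : ℕ, ∀ K : ℕ, ∃ (N La : ℕ) (c : ℕ → ℕ) (Bad : ℕ → Prop),
    (∀ i j, i < j → j < K → c i < c j) ∧
    (∀ i j k l, i < K → j < K → k < K → l < K → i ≠ j → k ≠ l →
       |((c i : ℤ) - c j) - ((c k : ℤ) - c l)| ≤ 2 * N → i = k ∧ j = l) ∧
    (∀ (T : ℕ) (F : Finset (ℕ × ℕ)), La ≤ T → (∀ k < K, c k ≤ T) →
       (∀ p ∈ F, p.1 < K ∧ p.2 < K ∧ p.1 ≠ p.2 ∧ Bad (T + c p.1 - c p.2)) → F.card ≤ C0) ∧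
    ∀ (α : Type) [Finite α] (f : α → S), ∃ (lam rho : List α → Option V) (nu : List α → V),
      (∀ P v, lam P = some v → P.length ≤ N) ∧
      (∀ P Q v b, lam P = some v → rho Q = some b →
        b = act v ((P ++ Q).map f).prod + nu (P ++ Q)) ∧
      (∀ u : List α, La ≤ u.length → ¬ Bad u.length → ∀ v, ∃ P Q, P ++ Q = u ∧ lam P = some v ∧
        (rho Q).isSome) ∧
      (∀ y, Language.IsRegular ({u | nu u = y} : Language α))

section sem

variable {α S V K' : Type} [Monoid S] [AddCommGroup V]

/-- scheme 1 left labels -/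
def L1 (D : P3_889.Dat α S V K') (lam1 : List α → Option V) (x : V) : Language α :=
  {P | D.p0 ≤ P.length ∧
    lam1 (P.drop D.p0) = some (D.act x (D.phi (P.take D.p0)) + D.nu2 (P.take D.p0))}

theorem L1_len {D : P3_889.Dat α S V K'} {lam1 : List α → Option V}
    (hlen : ∀ P v, lam1 P = some v → P.length ≤ D.N1) {x : V} {P : List α}
    (h : P ∈ L1 D lam1 x) : D.p0 ≤ P.length ∧ P.length ≤ D.p0 + D.N1 := by
  obtain ⟨h1, h2⟩ := h
  have := hlen _ _ h2
  rw [List.length_drop] at this
  exact ⟨h1, by omega⟩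

/-- moving the left part -/
theorem shiftXX {D : P3_889.Dat α S V K'} {kappa R0 : ℕ} (h : D.Ok kappa R0) {p q p' : List α}
    (hp1 : D.p0 ≤ p.length) (hp2 : p.length ≤ D.p0 + D.N1)
    (hp1' : D.p0 ≤ p'.length) (hp2' : p'.length ≤ D.p0 + D.N1)
    (hX : D.XX (p ++ q))
    (hE : ∀ t ≤ (p ++ q).length, D.Wo ((p ++ q).take t) → ¬ (D.z ≤ t + D.N1 ∧ t ≤ D.z + D.N1)) :
    D.XX (p' ++ q) := by
  obtain ⟨hX1, hX2, hX3⟩ := hX
  have hz := h.hz
  rw [List.length_append] at hX2 hX3 hE
  have hend : ¬ (D.z ≤ p.length + q.length + D.N1 ∧ p.length + q.length ≤ D.z + D.N1) := by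
    refine hE _ le_rfl ?_
    rw [List.take_of_length_le (by rw [List.length_append])]
    exact hX1
  have hq : D.no ≤ q.length := by omega
  refine ⟨(h.loc _ _ hq).2 ((h.loc _ _ hq).1 hX1), ?_, ?_⟩
  · rw [List.length_append]; omega
  · intro t ht hzt hW
    rw [List.length_append] at ht
    have e1 : (p' ++ q).take t = p' ++ q.take (t - p'.length) := by
      rw [List.take_append, List.take_of_length_le (by omega)]
    have hl : D.no ≤ (q.take (t - p'.length)).length := by
      rw [List.length_take]; omega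
    rw [e1, h.loc _ _ hl] at hW
    have e2 : (p ++ q).take (t - p'.length + p.length) = p ++ q.take (t - p'.length) := by
      rw [List.take_append, List.take_of_length_le (by omega)]
      congr 2
      omega
    have hW2 : D.Wo ((p ++ q).take (t - p'.length + p.length)) := by
      rw [e2, h.loc _ _ hl]; exact hW
    by_cases hc : D.z ≤ t - p'.length + p.length
    · exact hX3 _ (by omega) hc hW2
    · exact hE _ (by omega) hW2 ⟨by omega, by omega⟩

/-- scheme 1 cuts every zone which is not bad -/
theorem good1 {D : P3_889.Dat α S V K'} {kappa R0 : ℕ} (h : D.Ok kappa R0)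
    {lam1 rho1 : List α → Option V}
    (hlen : ∀ P v, lam1 P = some v → P.length ≤ D.N1)
    (hsnd : ∀ P Q v b, lam1 P = some v → rho1 Q = some b →
      b = D.act v (D.phi (P ++ Q)) + D.nu1 (P ++ Q))
    (hcmp : ∀ u : List α, D.z ≤ D.p0 + u.length → ¬ D.BadT (D.p0 + u.length) → ∀ v,
      ∃ P Q, P ++ Q = u ∧ lam1 P = some v ∧ (rho1 Q).isSome)
    {u : List α} (hu : D.XX u) (hb : ¬ D.BadX u) (x : V) :
    ∃ p q y, u = p ++ q ∧ p ∈ L1 D lam1 x ∧
      q ∈ Rsem ({X | D.XX X} : Language α) ({X | D.XX X} : Language α)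
        (fun X v => D.T v X) 0 (L1 D lam1) y := by
  have hz := h.hz
  have hul : D.z ≤ u.length := hu.2.1
  have e0 : D.p0 + (u.length - D.p0) = u.length := by omega
  obtain ⟨P, Q, e, hP, hQ⟩ := hcmp (u.drop D.p0) (by rw [List.length_drop]; omega)
    (by rw [List.length_drop, e0]; exact fun hb' => hb (Or.inr hb'))
    (D.act x (D.phi (u.take D.p0)) + D.nu2 (u.take D.p0))
  obtain ⟨b, hQb⟩ := Option.isSome_iff_exists.1 hQ
  have hl0 : (u.take D.p0).length = D.p0 := by rw [List.length_take]; omega
  have hPl := hlen _ _ hP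
  have eu : u = (u.take D.p0 ++ P) ++ Q := by
    rw [List.append_assoc, e, List.take_append_drop]
  have hpL : u.take D.p0 ++ P ∈ L1 D lam1 x := by
    refine ⟨by rw [List.length_append]; omega, ?_⟩
    rw [List.drop_left' hl0, List.take_left' hl0]
    exact hP
  refine ⟨u.take D.p0 ++ P, Q, b, eu, hpL, ?_⟩
  intro x' p' hp'
  left
  have hp'' : p' ∈ L1 D lam1 x' := hp'
  obtain ⟨ha, hb'⟩ := L1_len hlen hp''
  obtain ⟨ha2, hb2⟩ := L1_len hlen hpL
  have hXX : D.XX (p' ++ Q) := by
    refine shiftXX h ha2 hb2 ha hb' (by rw [← eu]; exact hu) ?_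
    intro t ht hW hcon
    rw [← eu] at ht hW
    exact hb (Or.inl ⟨t, ht, hW, hcon.1, hcon.2⟩)
  have hT : D.T x' (p' ++ Q) = b := by
    unfold P3_889.Dat.T
    rw [List.take_append_of_le_length ha, List.drop_append_of_le_length ha]
    exact (hsnd _ _ _ _ hp''.2 hQb).symm
  exact ⟨b, Language.mem_mul.2 ⟨p' ++ Q, ⟨hXX, hT⟩, [], ⟨rfl, rfl⟩, by simp⟩⟩

/-- the completeness of scheme 2 in 270's form -/
theorem c2 {D : P3_889.Dat α S V K'} {kappa R0 : ℕ} (h : D.Ok kappa R0)
    (hA : ∀ X P Q v, D.XX X → D.BadX X → X = P ++ Q → D.LP1 P v → (D.R1 Q).isSome → False)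
    (B : Language α) (hB : ∀ u ∈ B, D.XX u ∧ D.BadX u) :
    ∀ u ∈ B, ∀ x, ∀ t ∈ B, ∃ p q y, u ++ t = p ++ q ∧
      p ∈ (fun x => ({P | D.LP2 P x} : Language α)) x ∧
      q ∈ Rsem ({X | D.XX X} : Language α) B (fun X v => D.T v X) 1
        (fun x => ({P | D.LP2 P x} : Language α)) y := by
  intro u hu x t ht
  obtain ⟨hu1, hu2⟩ := hB u hu
  obtain ⟨ht1, -⟩ := hB t ht
  rcases P3_889.Dat.cc h u t hu1 ht1 x with ⟨P, Q, e, h1, h2⟩ | ⟨P, Q, e, -, h1, h2⟩
  · exact (hA u P Q x hu1 hu2 e h1 h2).elim
  · obtain ⟨b, hb⟩ := Option.isSome_iff_exists.1 h2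
    refine ⟨P, Q, b, e, h1, ?_⟩
    intro x' p' hp'
    by_cases hall : ∀ X, D.XX X → X <+: p' ++ Q → X ∈ B
    · obtain ⟨Q1, X2, e1, -, h3, h4, h5⟩ := P3_889.Dat.s2 h p' x' Q b hp' hb (by
        intro X hX hpre P' Q' e' _ h6 h7
        exact hA X P' Q' x' hX (hB X (hall X hX hpre)).2 e' h6 h7)
      have h6 : p' ++ Q1 ∈ B := hall _ h3 ⟨X2, by rw [e1, List.append_assoc]⟩
      by_cases h7 : X2 ∈ B
      · left
        refine ⟨D.T x' (p' ++ Q1), Language.mem_mul.2 ⟨p' ++ Q1, ⟨h6, rfl⟩, X2, ?_, ?_⟩⟩
        · exact ⟨b, Language.mem_mul.2 ⟨X2, ⟨h7, h5⟩, [], ⟨rfl, rfl⟩, by simp⟩⟩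
        · rw [e1, List.append_assoc]
      · right
        right
        exact Language.mem_mul.2 ⟨p' ++ Q1, h3, X2, ⟨X2, h4, h7, List.prefix_rfl⟩,
          by rw [e1, List.append_assoc]⟩
    · right
      left
      push Not at hall
      obtain ⟨X, hX, hpre, hXB⟩ := hall
      exact ⟨X, hX, hXB, hpre⟩

end sem

open Crest.Agent.R320.Two_621 (Tok)

/-- the row for one alphabet and one monoid, from the gadget -/
theorem main (S : Type) [Monoid S] [Finite S]
    (hU : UGI S (Tok S) (fun v s => Two_621.act v s)) (α : Type) [Finite α] (f : α → S) (s : S) :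
    HL 3 ({w | (w.map f).prod = s} : Language α) := by
  classical
  haveI : Fintype S := Fintype.ofFinite S
  haveI : Fintype (Tok S) := Fintype.ofFinite _
  obtain ⟨C0, hU⟩ := hU
  obtain ⟨K, hK⟩ := ExactR_237.exact_gadget α S (Tok S) f (fun v s => Two_621.act v s) (2 * C0 + 2)
  obtain ⟨N, La, c, Bad, hc, hwide, hthin, hgad⟩ := hU K
  obtain ⟨lam1, rho1, nu1, hlen, hsnd, hcmp, hnu⟩ := hgad α f
  obtain ⟨lam2, rho2, nu2, hs2, hc2⟩ := hK c hc
  have hinj : ∀ i j, i < K → j < K → c i = c j → i = j := by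
    intro i j hi hj he
    rcases lt_trichotomy i j with h | h | h
    · have := hc i j h hj; omega
    · exact h
    · have := hc j i h hi; omega
  obtain ⟨p0, hp0⟩ : ∃ p0, ∀ k < K, c k ≤ p0 :=
    ⟨(Finset.range K).sup c, fun k hk => Finset.le_sup (f := c) (Finset.mem_range.2 hk)⟩
  obtain ⟨n, G, B, Wo, hLW, hgap, hnper, -, hfree⟩ :=
    LWallAll_922.walls_all_left α (2 * (p0 + N) + 1) (by omega)
  have hWnil : ¬ Wo [] := by
    intro h
    refine hnper [] 1 (by omega) (by omega) h ?_
    rw [List.hasPeriod_iff_getElem?]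
    intro i hi
    simp at hi
  let W : ℕ := 2 * (p0 + N) + 1
  let z : ℕ := 3 * p0 + n + N + La + 1
  let D0 : P3_889.Dat α S (Tok S) {I : Finset ℕ // 2 * C0 + 2 ≤ I.card ∧ ∀ k ∈ I, k < K} :=
    { phi := fun w => (w.map f).prod
      act := fun v s => Two_621.act v s
      Wo := Wo
      no := n
      W := W
      z := z
      p0 := p0
      N1 := N
      BadT := fun T => z ≤ T ∧ Bad (T - p0)
      lam := fun P => if h : ∃ k, k < K ∧ P.length = c k then lam2 h.choose P else none
      rho := fun Q => if h : ∃ k, k < K ∧ Q.length + c k = p0 then rho2 h.choose Q 1 else none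
      nu2 := fun X => nu2 X 1
      nu1 := nu1
      C := fun I => I.1.image c
      CC := (Finset.range K).image c
      LP1 := fun _ _ => False
      R1 := fun _ => none }
  let D : P3_889.Dat α S (Tok S) {I : Finset ℕ // 2 * C0 + 2 ≤ I.card ∧ ∀ k ∈ I, k < K} :=
    { D0 with
      LP1 := fun P _ => D0.XX P ∧ ¬ D0.BadX P
      R1 := fun Q => if Q = [] then some 0 else none }
  have hlamk : ∀ k < K, ∀ P : List α, P.length = c k → D.lam P = lam2 k P := by
    intro k hk P hP
    have hex : ∃ k, k < K ∧ P.length = c k := ⟨k, hk, hP⟩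
    show (if h : ∃ k, k < K ∧ P.length = c k then lam2 h.choose P else none) = _
    rw [dif_pos hex]
    congr 1
    exact hinj _ _ hex.choose_spec.1 hk (by rw [← hex.choose_spec.2, hP])
  have hrhok : ∀ k < K, ∀ Q : List α, Q.length + c k = p0 → D.rho Q = rho2 k Q 1 := by
    intro k hk Q hQ
    have hex : ∃ k, k < K ∧ Q.length + c k = p0 := ⟨k, hk, hQ⟩
    show (if h : ∃ k, k < K ∧ Q.length + c k = p0 then rho2 h.choose Q 1 else none) = _
    rw [dif_pos hex]
    have : hex.choose = k :=
      hinj _ _ hex.choose_spec.1 hk (by have := hex.choose_spec.2; omega)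
    rw [this]
  have hOk : D.Ok (2 * C0 + 2) C0 :=
    { loc := hLW.app
      len := hLW.len
      gap := by
        intro P d hP hd hdW hcon
        show False
        by_cases hdl : d ≤ P.length
        · have h1 := hgap P (P.length - d) P.length (by omega) le_rfl hcon
            (by rw [List.take_length]; exact hP)
          have : d ≤ 2 * (p0 + N) + 1 := hdW
          omega
        · have e : P.length - d = 0 := by omega
          rw [e, List.take_zero] at hcon
          exact hWnil hcon
      hz := by show 2 * p0 + n + N < 3 * p0 + n + N + La + 1; omega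
      hW := by show 2 * (p0 + N) < 2 * (p0 + N) + 1; omega
      sub := by
        intro k x hx
        obtain ⟨i, hi, rfl⟩ := Finset.mem_image.1 hx
        exact Finset.mem_image.2 ⟨i, Finset.mem_range.2 (k.2.2 i hi), rfl⟩
      rng := by
        intro x hx
        obtain ⟨i, hi, rfl⟩ := Finset.mem_image.1 hx
        exact hp0 i (Finset.mem_range.1 hi)
      sound := by
        intro p q v b hpq hl hr
        have hpq' : p.length + q.length = p0 := hpq
        have hl' : (if h : ∃ k, k < K ∧ p.length = c k then lam2 h.choose p else none) = some v := hl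
        split_ifs at hl' with hex
        obtain ⟨k, hk, hpk⟩ := hex
        have h1 := hlamk k hk p hpk
        have h2 := hrhok k hk q (by omega)
        rw [h1] at hl
        rw [h2] at hr
        have := hs2 k hk p q 1 v b hpk hl hr
        rw [mul_one] at this
        exact this
      complete := by
        intro X v hX
        have hX' : X.length = p0 := hX
        obtain ⟨I, hI, hI2⟩ := hc2 X 1 v (fun k hk => by rw [hX']; exact hp0 k hk)
        refine ⟨⟨I, hI, fun k hk => (hI2 k hk).1⟩, ?_⟩
        intro x hx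
        obtain ⟨i, hi, rfl⟩ := Finset.mem_image.1 hx
        obtain ⟨h1, h2, h3⟩ := hI2 i hi
        have h4 := hp0 i h1
        rw [hlamk i h1 (X.take (c i)) (by rw [List.length_take]; omega),
          hrhok i h1 (X.drop (c i)) (by rw [List.length_drop]; omega)]
        exact ⟨h2, h3⟩
      copies := by
        intro k
        show _ ≤ (k.1.image c).card
        rw [Finset.card_image_of_injOn]
        · exact k.2.1
        · intro i hi j hj he
          exact hinj i j (k.2.2 i hi) (k.2.2 j hj) he
      kap := by omega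
      rulE := by
        intro s x hx c1 hc1 x' hx' c' hc' h1 h2 h3 h4
        obtain ⟨i, hi, rfl⟩ := Finset.mem_image.1 hx
        obtain ⟨j, hj, rfl⟩ := Finset.mem_image.1 hc1
        obtain ⟨i', hi', rfl⟩ := Finset.mem_image.1 hx'
        obtain ⟨j', hj', rfl⟩ := Finset.mem_image.1 hc'
        have h3' : |s - ((c i : ℤ) - c j)| ≤ N := h3
        have h4' : |s - ((c i' : ℤ) - c j')| ≤ N := h4
        rw [abs_le] at h3' h4'
        have := hwide i j i' j' (Finset.mem_range.1 hi) (Finset.mem_range.1 hj)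
          (Finset.mem_range.1 hi') (Finset.mem_range.1 hj') (fun e => h1 (by rw [e]))
          (fun e => h2 (by rw [e])) (by rw [abs_le]; constructor <;> omega)
        rw [this.1]
      rulB := by
        intro t s hs hbad
        -- places with a candidate
        have hch : ∀ x ∈ s, ∃ a b, a < K ∧ b < K ∧ c a = x ∧ a ≠ b ∧
            z ≤ t + c b - c a ∧ Bad (t + c b - c a - p0) := by
          intro x hx
          obtain ⟨i, hi, rfl⟩ := Finset.mem_image.1 (hs hx)
          obtain ⟨y, hy, hne, hb1, hb2⟩ := hbad _ hx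
          obtain ⟨j, hj, rfl⟩ := Finset.mem_image.1 hy
          exact ⟨i, j, Finset.mem_range.1 hi, Finset.mem_range.1 hj, rfl, fun e => hne (by rw [e]),
            hb1, hb2⟩
        choose! a b ha hb hax hab hz1 hB1 using hch
        by_cases hs0 : s = ∅
        · rw [hs0]; simp
        obtain ⟨x0, hx0⟩ := Finset.nonempty_iff_ne_empty.2 hs0
        have hzt : 2 * p0 + La ≤ t := by
          have h1 := hz1 x0 hx0
          have h2 := hp0 _ (hb x0 hx0)
          have h3 : 3 * p0 + n + N + La + 1 ≤ t + c (b x0) - c (a x0) := h1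
          omega
        have hF := hthin (t - p0) (s.image fun x => (b x, a x)) (by omega)
          (fun k hk => by have := hp0 k hk; omega) ?_
        · rw [Finset.card_image_of_injOn] at hF
          · exact hF
          · intro x hx x' hx' he
            have he' : (b x, a x) = (b x', a x') := he
            rw [Prod.mk.injEq] at he'
            rw [← hax x hx, ← hax x' hx', he'.2]
        · intro p hp
          obtain ⟨x, hx, rfl⟩ := Finset.mem_image.1 hp
          refine ⟨hb x hx, ha x hx, (hab x hx).symm, ?_⟩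
          have h1 := hB1 x hx
          have h2 := hp0 _ (hb x hx)
          have h3 := hp0 _ (ha x hx)
          have e : t + c (b x) - c (a x) - p0 = t - p0 + c (b x) - c (a x) := by omega
          rw [e] at h1
          exact h1
      comp1 := by
        intro X hX hb v
        refine ⟨X, [], by simp, ?_, ⟨hX, hb⟩, ?_⟩
        swap
        · show (if ([] : List α) = [] then some (0 : Tok S) else none).isSome = true
          rw [if_pos rfl]; rfl
        have h1 : z ≤ X.length := hX.2.1
        show p0 ≤ X.length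
        have : 3 * p0 + n + N + La + 1 ≤ X.length := h1
        omega }
  have hA : ∀ X P Q v, D.XX X → D.BadX X → X = P ++ Q → D.LP1 P v → (D.R1 Q).isSome → False := by
    intro X P Q v hX hb e h1 h2
    have h2' : (if Q = [] then some (0 : Tok S) else none).isSome := h2
    split_ifs at h2' with h3
    · rw [h3, List.append_nil] at e
      rw [e] at hb
      exact h1.2 hb
    · simp at h2'
  have hWU : Fib_298.WallU Wo n (max B (2 * (p0 + N) + 1)) :=
    { loc := hLW.app
      len := hLW.len
      free := by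
        intro X hX
        obtain ⟨u, x, v, k, h1, h2, h3, e⟩ := hfree X hX
        exact ⟨u, x, v, k, e, by omega, by omega, by omega⟩ }
  have hnz : n ≤ z := by show n ≤ 3 * p0 + n + N + La + 1; omega
  have hpz : p0 ≤ z := by show p0 ≤ 3 * p0 + n + N + La + 1; omega
  have hXX : ∀ X, D.XX X ↔ X ∈ Fib_298.XX Wo z :=
    fun X => ⟨fun h => ⟨h.2.1, h.1, fun t h1 h2 => h.2.2 t h2 h1⟩,
      fun h => ⟨h.2.1, h.1, fun t h1 h2 => h.2.2 t h2 h1⟩⟩
  have hPC : PC ({X | D.XX X} : Language α) :=
    { ne := by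
        intro h
        have h1 : z ≤ ([] : List α).length := (show D.XX [] from h).2.1
        have : 3 * p0 + n + N + La + 1 ≤ 0 := h1
        omega
      pf := by
        intro u hu v hv huv
        obtain ⟨w, rfl⟩ := huv
        have hu' : D.XX u := hu
        have hv' : D.XX (u ++ w) := hv
        by_contra hne
        have hw : w ≠ [] := by
          rintro rfl
          exact hne (by simp)
        have hl : 0 < w.length := List.length_pos_iff.2 hw
        refine hv'.2.2 u.length (by rw [List.length_append]; omega) hu'.2.1 ?_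
        rw [List.take_left' rfl]
        exact hu'.1 }
  have hZ : HL 1 ({X | D.XX X} : Language α) :=
    (Fib_298.HL_XX (k := 1) hWU z).congr hXX
  have hτ : ∀ x y, HL 1 (ZT ({X | D.XX X} : Language α) (fun X v => D.T v X) x y) := by
    intro x y
    refine (Fib_298.hfib hWU hnz (fun v s => Two_621.act v s) f p0 hpz
      (fun v X0 => Two_621.act v (X0.map f).prod + nu2 X0 1) nu1 hnu x y).congr fun w => ?_
    exact ⟨fun h => ⟨(hXX w).1 h.1, h.2⟩, fun h => ⟨(hXX w).2 h.1, h.2⟩⟩
  have hNP : ∀ s : S, HL 1 ({r | (∀ X ∈ ({X | D.XX X} : Language α), ¬ X <+: r) ∧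
      (r.map f).prod = s} : Language α) := by
    intro s
    refine (Fib_298.rest hWU hnz f s).congr fun w => ?_
    exact ⟨fun h => ⟨fun X hX => h.1 X ((hXX X).2 hX), h.2⟩,
      fun h => ⟨fun X hX => h.1 X ((hXX X).1 hX), h.2⟩⟩
  have hcmp' : ∀ u : List α, D.z ≤ D.p0 + u.length → ¬ D.BadT (D.p0 + u.length) → ∀ v,
      ∃ P Q, P ++ Q = u ∧ lam1 P = some v ∧ (rho1 Q).isSome := by
    intro u hu hb v
    have hu' : 3 * p0 + n + N + La + 1 ≤ p0 + u.length := hu
    refine hcmp u (by omega) ?_ v
    intro hb'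
    apply hb
    refine ⟨hu, ?_⟩
    have e : D.p0 + u.length - p0 = u.length := by
      show p0 + u.length - p0 = u.length
      omega
    rw [e]
    exact hb'
  have hBA : ∀ u ∈ Top270.BadA ({X | D.XX X} : Language α) (fun X v => D.T v X) (L1 D lam1),
      D.XX u ∧ D.BadX u := by
    rintro u ⟨h1, x, h2⟩
    refine ⟨h1, ?_⟩
    by_contra hb
    exact h2 (good1 hOk hlen hsnd hcmp' h1 hb x)
  refine Top270.top (V := Tok S) (S := S) (fun w => (w.map f).prod) (by simp) (by simp)
    (fun v s => Two_621.act v s) (fun v w s => Two_621.act_add v w s) (fun v => Two_621.act_one v)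
    (fun v s t => (Two_621.act_mul v s t).symm) (fun s t h => Two_621.act_faithful h)
    (Zb := ({X | D.XX X} : Language α)) hPC (τ := fun X v => D.T v X)
    (fun u => Two_621.act (nu2 (u.take p0) 1) ((u.drop p0).map f).prod + nu1 (u.drop p0))
    ?_ hZ hτ hNP (L1 := L1 D lam1) (L2 := fun x => ({P | D.LP2 P x} : Language α)) ?_ ?_
    (c2 hOk hA _ hBA) s
  · intro u _ v
    show Two_621.act (Two_621.act v ((u.take p0).map f).prod + nu2 (u.take p0) 1)
      ((u.drop p0).map f).prod + nu1 (u.drop p0) = _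
    have e : (u.map f).prod = ((u.take p0).map f).prod * ((u.drop p0).map f).prod := by
      rw [← List.prod_append, ← List.map_append, List.take_append_drop]
    rw [e, ← Two_621.act_mul, Two_621.act_add, add_assoc]
  · intro x
    refine (List.finite_length_le α (p0 + N)).subset ?_
    intro P hP
    exact (L1_len hlen hP).2
  · intro x
    refine (List.finite_length_le α p0).subset ?_
    intro P hP
    have hP' : P.length ∈ (Finset.range K).image c := hP.1
    obtain ⟨i, hi, h1⟩ := Finset.mem_image.1 hP'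
    show P.length ≤ p0
    rw [← h1]
    exact hp0 i (Finset.mem_range.1 hi)

end Crest.Agent.R320.Fin364
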