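import Crest.Agent.R320.SemTop_727
import Crest.Agent.R320.JointSem_814
import Crest.Agent.R320.Spoil_814
import Crest.Agent.R320.Fib_298
import Crest.Agent.R320.G1_256
import Crest.Agent.R320.Sp_249
import Crest.Agent.R320.ExactR_237
import Crest.Agent.R320.LWallAll_922
import Crest.Agent.R320.Loc_645
import Crest.Agent.R320.Uni_366

/-!
# Row 320: final join (helper366)
-/

set_option autoImplicit false

namespace Crest.Agent.R320.Fin_366

open Crest.RegLang Crest.Agent.R320.Hk_851 Crest.Agent.R320.Blk467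

theorem XX_eq {α : Type} (Wo : List α → Prop) (z : ℕ) :
    Fib_298.XX Wo z = JointSem_814.XX Wo z := by
  ext X
  constructor
  · rintro ⟨h1, h2, h3⟩
    exact ⟨h2, h1, h3⟩
  · rintro ⟨h1, h2, h3⟩
    exact ⟨h2, h1, h3⟩

theorem base (M K : ℕ) (hM : 0 < M) :
    ∃ b, 4 * M + 4 < b ∧ 2 ^ (K + 6) * M < b ∧ Nat.Coprime b M := by
  obtain ⟨E, hE⟩ : ∃ E, E = 2 ^ (K + 6) := ⟨_, rfl⟩
  rw [← hE]
  refine ⟨M * (E + 8) + 1, ?_, ?_, ?_⟩
  · have h1 : M * (E + 8) = M * E + M * 8 := Nat.mul_add _ _ _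
    have h2 : M * E ≥ 0 := Nat.zero_le _
    omega
  · have h1 : M * (E + 8) = E * M + M * 8 := by rw [Nat.mul_add, Nat.mul_comm M E]
    omega
  · simp

theorem main (α : Type) [Finite α] (S : Type) [Monoid S] [Finite S] (f : α → S) (s : S) :
    HL 3 ({w | (w.map f).prod = s} : Language α) := by
  classical
  haveI := Fintype.ofFinite S
  obtain ⟨act, hadd, hone, hmul, hfaith⟩ := exists_module S
  obtain ⟨m, r, H1⟩ := G1_256.g1 S (S → ZMod 2) act
  obtain ⟨K, H2⟩ := ExactR_237.exact_gadget α S (S → ZMod 2) f act (2 + 2 * (r + m))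
  obtain ⟨Ms, M, hMr, hMs, hM, H1⟩ := H1 (4 ^ K)
  obtain ⟨b, hb1, hb2, hb3⟩ := base M K hM
  obtain ⟨lam, rho, nu1, hlen, hsound, hcompl, hfs⟩ := H1 b hb1 hb3 α f
  obtain ⟨N, hN⟩ : ∃ N, N = b ^ m := ⟨_, rfl⟩
  rw [← hN] at hlen hfs
  obtain ⟨c, hc1, hc2, hc3, hc4⟩ := Sp_249.spoil Ms M b m K N hM
    (fun k hk => ⟨(hMs k hk).1, (hMs k hk).2.2⟩) hb2 hb3
  obtain ⟨lam2, rho2, nu2, hex, hco⟩ := H2 c (fun i j hij _ => by
    have := hc1 i j hij
    omega)
  obtain ⟨p0, hp0⟩ : ∃ p0, p0 = c K := ⟨_, rfl⟩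
  have hcp : ∀ k < K, c k ≤ p0 := fun k hk => by
    have := hc1 k K hk
    omega
  obtain ⟨n, G, B, Wo, hLW, hgap, -, -, hfree⟩ :=
    LWallAll_922.walls_all_left α (2 * (N + p0) + 1) (by omega)
  obtain ⟨z, hz⟩ : ∃ z, z = 3 * p0 + 2 * N + n + 1 := ⟨_, rfl⟩
  have hW : JointSem_814.Walls n (2 * (N + p0) + 1) Wo :=
    ⟨hLW.app, hLW.len, fun X s t h1 h2 h3 h4 h5 => by
      have := hgap X s t h1 h3 h4 h5
      omega⟩
  have hU : Fib_298.WallU Wo n (max B (2 * (N + p0) + 1)) :=
    ⟨hLW.app, hLW.len, fun X hX => by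
      obtain ⟨u, x, v, k, h1, h2, h3, h4⟩ := hfree X hX
      exact ⟨u, x, v, k, h4, h1.trans (le_max_left _ _), h2.trans (le_max_right _ _),
        h3.trans (le_max_left _ _)⟩⟩
  have hnu : ∀ y, Language.IsRegular ({Y | nu1 Y = y} : Language α) := fun y => by
    refine Loc_645.isRegular_of_read' f N (M * N) ?_ (fun Y => nu1 Y = y) ?_
    · rw [hN]
      have : 0 < b := by omega
      positivity
    · intro q q' h1 h2 h3 h4 h5 h6
      rw [← (hfs q q' h1 h2 h3 h5 h4).2]
      exact h6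
  let D : SemTop_727.Sch α (S → ZMod 2) :=
    { XX := JointSem_814.XX Wo z
      T := JointSem_814.T p0 (fun w => (w.map f).prod) act nu1 (fun w => nu2 w 1)
      L1 := JointSem_814.L1 p0 (fun w => (w.map f).prod) act (fun w => nu2 w 1) lam
      L2 := JointSem_814.L2 K c lam2 }
  have hspoil : ∀ U : List α, 2 * z ≤ U.length → ∃ J : Finset ℕ, J.card < 2 + 2 * (r + m) ∧
      ∀ k < K, JointSem_814.Spoiled Wo z p0 N K c (Sp_249.Bad Ms M b m) U k → k ∈ J := by
    intro U _
    obtain ⟨J, hJ, hJ2⟩ := JointSem_814.spoil (n := n) (W := 2 * (N + p0) + 1) (z := z) (p0 := p0)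
      (N := N) (K := K) (C0 := r + m) (T0 := p0) hW (by omega)
      (by omega) hcp
      (fun a b a' b' _ _ _ _ hab hab' h1 h2 => by
        by_contra hne
        rcases hc2 a b a' b' hab hab' (fun h => hne (Prod.ext_iff.1 h).1) with h | h <;> omega)
      (BadT := Sp_249.Bad Ms M b m)
      (fun T hT => by
        refine ⟨((Finset.range K ×ˢ Finset.range K).filter
          (fun p => p.1 ≠ p.2 ∧ Sp_249.Bad Ms M b m (T + c p.2 - c p.1))).image Prod.fst,
          ?_, ?_⟩
        · refine Finset.card_image_le.trans ?_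
          have := hc4 T (fun l hl => (hcp l hl).trans hT)
          refine le_trans ?_ (this.trans (by omega))
          exact le_of_eq (by congr)
        · intro a ha b' hb' hab hB
          rw [Finset.mem_image]
          exact ⟨(a, b'), Finset.mem_filter.2 ⟨Finset.mem_product.2
            ⟨Finset.mem_range.2 ha, Finset.mem_range.2 hb'⟩, hab, hB⟩, rfl⟩)
      U
    exact ⟨J, by omega, hJ2⟩
  refine SemTop_727.top (k := 1) act hadd hone hmul hfaith f
    (fun X => act (nu2 (X.take p0) 1) ((X.drop p0).map f).prod + nu1 (X.drop p0)) D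
    ?_ ?_ ?_ ?_ ?_ ?_ ?_ s
  · intro v X
    show act (act v ((X.take p0).map f).prod + nu2 (X.take p0) 1) ((X.drop p0).map f).prod +
      nu1 (X.drop p0) = _
    rw [hadd, ← hmul, ← List.prod_append, ← List.map_append, List.take_append_drop, add_assoc]
  · show PCode (JointSem_814.XX Wo z)
    rw [← XX_eq]
    exact Fib_298.pcode_XX (by omega)
  · intro x y
    have := Fib_298.hfib hU (z := z) (by omega) act f p0 (by omega)
      (fun v X0 => act v (X0.map f).prod + nu2 X0 1) nu1 hnu x y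
    rw [XX_eq] at this
    exact this
  · intro x
    refine (List.finite_length_le α (p0 + N)).subset ?_
    rintro P ⟨h1, h2⟩
    have := hlen _ _ h2
    rw [List.length_drop] at this
    show P.length ≤ p0 + N
    omega
  · intro x
    refine (List.finite_length_le α p0).subset ?_
    rintro P ⟨k, hk, h1, h2⟩
    show P.length ≤ p0
    rw [h1]
    exact hcp k hk
  · intro X1 hX1 X2 hX2 x
    exact JointSem_814.compl2 (Wo := Wo) (z := z) (p0 := p0) (φ := fun w => (w.map f).prod)
      (act := act) (nu1 := nu1) (nu2 := fun w => nu2 w 1) (lam := lam)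
      (n := n) (W := 2 * (N + p0) + 1) (N := N)
      (N0 := 0) (K := K) (R := 2 + 2 * (r + m)) hW (rho := rho)
      (BadT := Sp_249.Bad Ms M b m) (by omega) (by omega)
      (fun p v h => (hlen p v h).le)
      (fun p q v r' h1 h2 => hsound p q v r' h1 h2)
      (fun u _ hB v => by
        refine hcompl u ?_ ?_ v
        · intro k hk hd
          exact hB (Or.inl ⟨k, hk, hd⟩)
        · intro j hj
          by_contra h
          exact hB (Or.inr ⟨j, hj, h⟩))
      (rho2 := fun k Q => rho2 k Q 1) hcp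
      (fun k hk P Q v b' hP h1 h2 => by
        have := hex k hk P Q 1 v b' hP h1 h2
        rw [mul_one] at this
        exact this)
      (fun u v hu => hco u 1 v hu)
      hspoil hX1.1 hX2 x
  · intro s'
    have := Fib_298.rest (z := z) hU (by omega) f s'
    rw [XX_eq] at this
    exact this.mono (by norm_num)

end Crest.Agent.R320.Fin_366
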