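import Crest.Agent.R320.Top5_120
import Crest.Agent.R320.Sc2n_937
import Crest.Agent.R320.G1_256
import Crest.Agent.R320.Sp_797
import Crest.Agent.R320.ExactR_237
import Crest.Agent.R320.LWallAll_922
import Crest.Agent.R320.P4_933

/-!
# Row 320: the join (helper37)

All words; natural chain rule (937), gadget 1 = positional digits (256), ruler (797), gadget 2 = exact
gadget (237), walls (922/813), heights (933/746), top (120/467).
-/

set_option autoImplicit false

namespace Crest.Agent.R320.Fin_37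

open Crest.RegLang Crest.Agent.R320.Hk_851 Crest.Agent.R320.Blk467

/-- finite-state properties, product after the prefix -/
theorem regular_of_class {α : Type*} [Finite α] {S : Type*} [Monoid S] [Finite S] (φ : α → S)
    (A M0 : ℕ) (hM : 0 < M0) (f : List α → Prop)
    (hf : ∀ u u' : List α, A ≤ u.length → A ≤ u'.length → u.take A = u'.take A →
      u.length % M0 = u'.length % M0 →
      ((u.drop A).map φ).prod = ((u'.drop A).map φ).prod → (f u ↔ f u')) :
    Language.IsRegular ({u | f u} : Language α) := by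
  classical
  haveI : NeZero M0 := ⟨by omega⟩
  have hfin : Finite {l : List α // l.length ≤ A} := List.finite_length_le α A
  let σ := {l : List α // l.length ≤ A} × ZMod M0 × S
  haveI : Fintype σ := Fintype.ofFinite σ
  let st : List α → σ := fun u =>
    (⟨u.take A, by rw [List.length_take]; omega⟩, (u.length : ZMod M0), ((u.drop A).map φ).prod)
  let M : DFA α σ :=
    { step := fun q a =>
        (if h : q.1.1.length < A then ⟨q.1.1 ++ [a], by simp; omega⟩ else q.1,
          q.2.1 + 1, if q.1.1.length < A then q.2.2 else q.2.2 * φ a)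
      start := st []
      accept := {q | ∃ u, f u ∧ st u = q} }
  have hev : ∀ u, M.eval u = st u := by
    intro u
    induction u using List.reverseRecOn with
    | nil => rfl
    | append_singleton u a ih =>
      rw [DFA.eval_append_singleton, ih]
      refine Prod.ext ?_ (Prod.ext ?_ ?_)
      · apply Subtype.ext
        show (if h : (u.take A).length < A then (⟨u.take A ++ [a], by simp at h ⊢; omega⟩ :
          {l : List α // l.length ≤ A}) else ⟨u.take A, by rw [List.length_take]; omega⟩).1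
          = (u ++ [a]).take A
        rw [P4_933.take_snoc]
        split_ifs <;> rfl
      · show (u.length : ZMod M0) + 1 = (((u ++ [a]).length : ℕ) : ZMod M0)
        simp
      · show (if (u.take A).length < A then ((u.drop A).map φ).prod else
          ((u.drop A).map φ).prod * φ a) = (((u ++ [a]).drop A).map φ).prod
        by_cases h : u.length < A
        · rw [if_pos (by rw [List.length_take]; omega), List.drop_of_length_le (by omega),
            List.drop_of_length_le (by simp; omega)]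
        · rw [if_neg (by rw [List.length_take]; omega), List.drop_append_of_le_length (by omega)]
          simp
  refine Language.isRegular_iff.2 ⟨σ, inferInstance, M, ?_⟩
  ext u
  rw [DFA.mem_accepts, hev]
  constructor
  · rintro ⟨u', h1, h2⟩
    have e1 : u'.take A = u.take A := congrArg (fun q : σ => q.1.1) h2
    have e2 : (u'.length : ZMod M0) = (u.length : ZMod M0) := congrArg (fun q : σ => q.2.1) h2
    have e3 : ((u'.drop A).map φ).prod = ((u.drop A).map φ).prod :=
      congrArg (fun q : σ => q.2.2) h2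
    have e2' : u'.length % M0 = u.length % M0 := (ZMod.natCast_eq_natCast_iff' _ _ _).1 e2
    have e4 := congrArg List.length e1
    rw [List.length_take, List.length_take] at e4
    by_cases h : u.length < A
    · rw [List.take_of_length_le (by omega), List.take_of_length_le (by omega)] at e1
      rw [← e1]; exact h1
    · exact (hf u' u (by omega) (by omega) e1 e2' e3).1 h1
  · intro h
    exact ⟨u, h, rfl⟩

/-- bad totals are periodic -/
theorem bad_per {Ms : Finset ℕ} {M m b : ℕ} (hMs : ∀ k ∈ Ms, k ∣ M) {n n' : ℕ}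
    (h : n % (M * b ^ m) = n' % (M * b ^ m)) (hb : Sp_797.Bad Ms M m b n) :
    Sp_797.Bad Ms M m b n' := by
  have hdig : ∀ j < m, n / b ^ j % b = n' / b ^ j % b := by
    intro j hj
    have h1 : n % (b ^ j * b) = n' % (b ^ j * b) := by
      have hd : b ^ j * b ∣ M * b ^ m := by
        rw [← pow_succ]
        exact Dvd.dvd.mul_left (pow_dvd_pow b hj) M
      exact Nat.ModEq.of_dvd hd h
    rw [← Nat.mod_mul_right_div_self, h1, Nat.mod_mul_right_div_self]
  rcases hb with ⟨k, hk, hkn⟩ | ⟨j, hj, hjn⟩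
  · left
    refine ⟨k, hk, ?_⟩
    have h1 : n ≡ n' [MOD k] := Nat.ModEq.of_dvd (Dvd.dvd.mul_right (hMs k hk) _) h
    exact (h1.dvd_iff (dvd_refl k)).1 hkn
  · right
    refine ⟨j, hj, ?_⟩
    rwa [← hdig j hj]

theorem sub_mod {a a' p M : ℕ} (h : a % M = a' % M) (h1 : p ≤ a) (h2 : p ≤ a') :
    (a - p) % M = (a' - p) % M := by
  have : (a - p) + p ≡ (a' - p) + p [MOD M] := by
    rw [Nat.sub_add_cancel h1, Nat.sub_add_cancel h2]
    exact h
  exact Nat.ModEq.add_right_cancel' p this


section join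

variable {α : Type} {S : Type} [Monoid S] {V : Type} [AddCommGroup V]

/-- the total noise -/
def nuT (act : V → S → V) (φ : α → S) (p0 : ℕ) (nu2 nu : List α → V) (X : List α) : V :=
  act (nu2 (X.take p0)) ((X.drop p0).map φ).prod + nu (X.drop p0)

theorem T_eq (act : V → S → V) (hadd : ∀ a b s, act (a + b) s = act a s + act b s)
    (hmul : ∀ v s t, act v (s * t) = act (act v s) t) (φ : α → S) (g : Sc2n_937.Geo α)
    (nu2 nu : List α → V) (v : V) (X : List α) :
    g.T (fun P v => act v (P.map φ).prod + nu2 P) (fun u Y => act u (Y.map φ).prod + nu Y) v X =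
      act v (X.map φ).prod + nuT act φ g.p0 nu2 nu X := by
  have h : (X.map φ).prod = ((X.take g.p0).map φ).prod * ((X.drop g.p0).map φ).prod := by
    conv_lhs => rw [← List.take_append_drop g.p0 X]
    rw [List.map_append, List.prod_append]
  show act (act v ((X.take g.p0).map φ).prod + nu2 (X.take g.p0)) ((X.drop g.p0).map φ).prod +
    nu (X.drop g.p0) = _
  rw [h, hmul, hadd, nuT, add_assoc]

/-- everything from the two gadgets and the walls -/
theorem join [Finite α] [Finite S] [Finite V] (act : V → S → V)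
    (hadd : ∀ a b s, act (a + b) s = act a s + act b s)
    (hone : ∀ v, act v 1 = v) (hmul : ∀ v s t, act v (s * t) = act (act v s) t)
    (hfaith : ∀ s t, (∀ v, act v s = act v t) → s = t) (φ : α → S)
    (g : Sc2n_937.Geo α) (hlen : ∀ P, g.Wo P → g.n ≤ P.length) {B R : ℕ}
    (free : ∀ u : List α, (∀ t < u.length, ¬ g.Wo (u.take t)) →
      u ∈ (BddReg_746.PN B R : Language α))
    (hgap : ∀ P Q : List α, g.Wo P → g.Wo (P ++ Q) → Q ≠ [] → 2 * g.p0 + 2 * g.N1 < Q.length)
    (hqp : 2 * g.p0 ≤ g.q0)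
    -- gadget 1
    (Ms : Finset ℕ) (M m b : ℕ) (hM : 0 < M) (hb : 0 < b) (hMs : ∀ k ∈ Ms, k ∣ M)
    (hN1 : g.N1 = b ^ m)
    (lam rho : List α → Option V) (nu : List α → V)
    (g1 : ∀ P v, lam P = some v → P.length < b ^ m)
    (g2 : ∀ P Q v v', lam P = some v → rho Q = some v' →
          v' = act v ((P ++ Q).map φ).prod + nu (P ++ Q))
    (g3 : ∀ X, (∀ k ∈ Ms, ¬ k ∣ X.length) →
          (∀ j < m, M ≤ X.length / b ^ j % b ∧ X.length / b ^ j % b + M + 1 ≤ b) →
          ∀ v, ∃ P Q, P ++ Q = X ∧ lam P = some v ∧ (rho Q).isSome)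
    (g4 : ∀ Q Q', b ^ m ≤ Q.length → b ^ m ≤ Q'.length → Q.take (b ^ m) = Q'.take (b ^ m) →
          Q.length % (M * b ^ m) = Q'.length % (M * b ^ m) →
          ((Q.drop (b ^ m)).map φ).prod = ((Q'.drop (b ^ m)).map φ).prod →
          rho Q = rho Q' ∧ nu Q = nu Q')
    -- places
    (K C0 : ℕ) (c : ℕ → ℕ) (hc : ∀ k, k < K → c k ≤ g.p0)
    (hgol : ∀ i j i' j', i ≠ j → (i, j) ≠ (i', j') →
        c i + c j' + 2 * g.N1 < c i' + c j ∨ c i' + c j + 2 * g.N1 < c i + c j')
    (hthin : ∀ (T : ℤ) (P : Finset (ℕ × ℕ)), (∀ p ∈ P, p.1 < K ∧ p.2 < K ∧ p.1 ≠ p.2 ∧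
        ∃ n : ℕ, (n : ℤ) = T + (c p.2 : ℤ) - (c p.1 : ℤ) ∧ Sp_797.Bad Ms M m b n) →
        P.card ≤ C0)
    -- gadget 2
    (lam2 rho2 : ℕ → List α → Option V) (nu2 : List α → V)
    (e1 : ∀ k < K, ∀ (P Q : List α) (v b : V), P.length = c k →
          lam2 k P = some v → rho2 k Q = some b → b = act v ((P ++ Q).map φ).prod + nu2 (P ++ Q))
    (e2 : ∀ (u : List α) (v : V), (∀ k < K, c k ≤ u.length) →
          ∃ I : Finset ℕ, 2 * C0 + 2 ≤ I.card ∧ ∀ k ∈ I, k < K ∧ lam2 k (u.take (c k)) = some v ∧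
            (rho2 k (u.drop (c k))).isSome)
    (s : S) : HL 3 ({w | (w.map φ).prod = s} : Language α) := by
  classical
  let pre : List α → V → V := fun P v => act v (P.map φ).prod + nu2 P
  let post : V → List α → V := fun u Y => act u (Y.map φ).prod + nu Y
  let BadT : ℕ → Prop := Sp_797.Bad Ms M m b
  let C : Set (List α) := {X | g.XX X}
  let Bad : Set (List α) := {X | g.XX X ∧ g.BadX BadT X}
  let L1 : V → Set (List α) := fun v => {P | g.LP1 pre lam v P}
  let L2 : V → Set (List α) := fun v => {P | Sc2n_937.Geo.LP2 K c lam2 v P}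
  have hz := g.hz
  have hq := g.hq
  have hN := g.hN
  have hT : ∀ v X, g.T pre post v X = act v (X.map φ).prod + nuT act φ g.p0 nu2 nu X :=
    fun v X => T_eq act hadd hmul φ g nu2 nu v X
  have hb0 : 0 < b ^ m := by positivity
  -- code
  have hCp : PCode C := by
    refine ⟨fun h => ?_, fun X hX Y hY hXY => ?_⟩
    · have h1 : g.XX [] := h
      have h2 := h1.1
      rw [List.length_nil] at h2
      omega
    · obtain ⟨t, ht⟩ := hXY
      exact g.prefix_code (R := t) (R' := []) hX hY (by rw [ht, List.append_nil])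
  have hXXeq : ∀ X, g.XX X ↔ P4_933.XX g.Wo g.z X := by
    intro X
    constructor
    · rintro ⟨h1, h2, h3⟩
      exact ⟨h2, h1, fun t ht hzt => h3 t hzt ht⟩
    · rintro ⟨h1, h2, h3⟩
      exact ⟨h2, h1, fun t hzt ht => h3 t ht hzt⟩
  -- finite-state clauses
  set A0 : ℕ := g.z + g.N1 + g.p0 + b ^ m with hA0
  have cT : ∀ (x y : V) (u u' : List α), A0 ≤ u.length → A0 ≤ u'.length →
      u.take A0 = u'.take A0 → u.length % (M * b ^ m) = u'.length % (M * b ^ m) →
      ((u.drop A0).map φ).prod = ((u'.drop A0).map φ).prod →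
      (act x (u.map φ).prod + nuT act φ g.p0 nu2 nu u = y →
        act x (u'.map φ).prod + nuT act φ g.p0 nu2 nu u' = y) := by
    intro x y u u' hu hu' ht hl hp hy
    have hsplit : ∀ (w : List α) (a : ℕ), a ≤ A0 → A0 ≤ w.length →
        ((w.drop a).map φ).prod = (((w.take A0).drop a).map φ).prod * ((w.drop A0).map φ).prod := by
      intro w a ha hw
      have : w.drop a = (w.take A0).drop a ++ w.drop A0 := by
        conv_lhs => rw [← List.take_append_drop A0 w]
        rw [List.drop_append_of_le_length (by rw [List.length_take]; omega)]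
      rw [this, List.map_append, List.prod_append]
    have htk : ∀ a, a ≤ A0 → u.take a = u'.take a := by
      intro a ha
      have := congrArg (fun w : List α => w.take a) ht
      simpa [List.take_take, Nat.min_eq_left ha] using this
    have hdr : ∀ a, a ≤ A0 → ((u.drop a).map φ).prod = ((u'.drop a).map φ).prod := by
      intro a ha
      rw [hsplit u a ha hu, hsplit u' a ha hu', ht, hp]
    have h0 : (u.map φ).prod = (u'.map φ).prod := by
      have := hdr 0 (Nat.zero_le _)
      simpa using this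
    have hnu : nu (u.drop g.p0) = nu (u'.drop g.p0) := by
      refine (g4 _ _ ?_ ?_ ?_ ?_ ?_).2
      · rw [List.length_drop]; omega
      · rw [List.length_drop]; omega
      · have := congrArg (fun w : List α => w.drop g.p0) (htk (g.p0 + b ^ m) (by omega))
        simpa [List.drop_take] using this
      · rw [List.length_drop, List.length_drop]
        exact sub_mod hl (by omega) (by omega)
      · rw [List.drop_drop, List.drop_drop]
        exact hdr _ (by omega)
    rw [← hy, h0, nuT, nuT, htk g.p0 (by omega), hdr g.p0 (by omega), hnu]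
  have cB : ∀ (u u' : List α), A0 ≤ u.length → A0 ≤ u'.length →
      u.take A0 = u'.take A0 → u.length % (M * b ^ m) = u'.length % (M * b ^ m) →
      (g.BadX BadT u → g.BadX BadT u') := by
    intro u u' hu hu' ht hl hbad
    rcases hbad with ⟨t, h1, h2, h3, h4⟩ | h
    · left
      refine ⟨t, by omega, ?_, h3, h4⟩
      have := congrArg (fun w : List α => w.take t) ht
      simp only [List.take_take, Nat.min_eq_left (show t ≤ A0 by omega)] at this
      rwa [← this]
    · right
      exact bad_per hMs (sub_mod hl (by omega) (by omega)) h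
  have hM0 : 0 < M * b ^ m := Nat.mul_pos hM hb0
  have hCT : ∀ x y, HL 1 ({X | X ∈ C ∧
      act x (X.map φ).prod + nuT act φ g.p0 nu2 nu X = y} : Language α) := by
    intro x y
    refine (P4_933.hl_XX (n := g.n) (z := g.z) g.loc hlen free
      (f := fun X => act x (X.map φ).prod + nuT act φ g.p0 nu2 nu X = y)
      (regular_of_class φ A0 (M * b ^ m) hM0 _ fun u u' h1 h2 h3 h4 h5 =>
        ⟨cT x y u u' h1 h2 h3 h4 h5, cT x y u' u h2 h1 h3.symm h4.symm h5.symm⟩)).congr
      fun w => ?_
    exact and_congr (hXXeq w) Iff.rfl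
  have hBT : ∀ x y, HL 1 ({X | X ∈ Bad ∧
      act x (X.map φ).prod + nuT act φ g.p0 nu2 nu X = y} : Language α) := by
    intro x y
    refine (P4_933.hl_XX (n := g.n) (z := g.z) g.loc hlen free
      (f := fun X => g.BadX BadT X ∧ act x (X.map φ).prod + nuT act φ g.p0 nu2 nu X = y)
      (regular_of_class φ A0 (M * b ^ m) hM0 _ fun u u' h1 h2 h3 h4 h5 =>
        ⟨fun h => ⟨cB u u' h1 h2 h3 h4 h.1, cT x y u u' h1 h2 h3 h4 h5 h.2⟩,
          fun h => ⟨cB u' u h2 h1 h3.symm h4.symm h.1,
            cT x y u' u h2 h1 h3.symm h4.symm h5.symm h.2⟩⟩)).congr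
      fun w => ?_
    constructor
    · rintro ⟨⟨h1, h2⟩, h3⟩; exact ⟨(hXXeq w).1 h1, h2, h3⟩
    · rintro ⟨h1, h2, h3⟩; exact ⟨⟨(hXXeq w).2 h1, h2⟩, h3⟩
  have htail : ∀ s, HL 1 ({w | (∀ X ∈ C, ¬ X <+: w) ∧ (w.map φ).prod = s} : Language α) := by
    intro s
    refine (P4_933.hl_NB (n := g.n) (z := g.z) g.loc hlen free
      (f := fun w => (w.map φ).prod = s)
      (regular_of_class φ 0 1 one_pos _ fun u u' _ _ _ _ h5 => by
        simp only [List.drop_zero] at h5
        rw [h5])).congr fun w => ?_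
    have : (∀ X ∈ C, ¬ X <+: w) ↔ P4_933.NB g.Wo g.z w := by
      rw [P4_933.NB_iff]
      constructor
      · intro h P hP hX
        exact h P ((hXXeq P).2 hX) hP
      · intro h X hX hP
        exact h X hP ((hXXeq X).1 hX)
    exact and_congr this Iff.rfl
  -- finiteness
  have hf1 : ∀ v, (L1 v).Finite := by
    intro v
    refine (List.finite_length_le α (g.p0 + b ^ m)).subset ?_
    rintro P ⟨h1, h2⟩
    have := g1 _ _ h2
    rw [List.length_drop] at this
    show P.length ≤ g.p0 + b ^ m
    omega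
  have hf2 : ∀ v, (L2 v).Finite := by
    intro v
    refine (List.finite_length_le α g.p0).subset ?_
    rintro P ⟨k, hk, h1, h2⟩
    show P.length ≤ g.p0
    rw [h1]; exact hc k hk
  -- scheme 1
  have hs1 : ∀ {v b : V} {P Q : List α}, g.LP1 pre lam v P → g.RQ1 rho b Q →
      g.XX (P ++ Q) ∧ g.T pre post v (P ++ Q) = b := by
    intro v b P Q hP hQ
    exact g.sound1 pre post (fun P v h => by have := g1 P v h; omega)
      (fun P Q u b h h' => g2 P Q u b h h') hP hQ
  have hcc1 : ∀ X ∈ C, X ∉ Bad → ∀ v, ∃ P Q, P ++ Q = X ∧ P ∈ L1 v ∧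
      ∀ x, ∀ P' ∈ L1 x, P' ++ Q ∈ C ∧
        act x ((P' ++ Q).map φ).prod + nuT act φ g.p0 nu2 nu (P' ++ Q) =
          act v (X.map φ).prod + nuT act φ g.p0 nu2 nu X := by
    intro X hX hXB v
    have hE : ¬ g.E X := fun h => hXB ⟨hX, Or.inl h⟩
    have hBT' : ¬ BadT (X.length - g.p0) := fun h => hXB ⟨hX, Or.inr h⟩
    have hcomp : ∀ u : V, ∃ P Q, X.drop g.p0 = P ++ Q ∧ lam P = some u ∧ (rho Q).isSome := by
      intro u
      have hB1 : ∀ k ∈ Ms, ¬ k ∣ (X.drop g.p0).length := by
        intro k hk hkd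
        rw [List.length_drop] at hkd
        exact hBT' (Or.inl ⟨k, hk, hkd⟩)
      have hB2 : ∀ j < m, M ≤ (X.drop g.p0).length / b ^ j % b ∧
          (X.drop g.p0).length / b ^ j % b + M + 1 ≤ b := by
        intro j hj
        by_contra hcon
        rw [List.length_drop] at hcon
        exact hBT' (Or.inr ⟨j, hj, hcon⟩)
      obtain ⟨P, Q, h1, h2, h3⟩ := g3 (X.drop g.p0) hB1 hB2 u
      exact ⟨P, Q, h1.symm, h2, h3⟩
    obtain ⟨P, Q, b', h1, h2, h3⟩ := g.complete1 pre (rho := rho)
      (fun P v h => by have := g1 P v h; omega) hX hE hcomp v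
    refine ⟨P, Q, h1.symm, h2, fun x P' hP' => ?_⟩
    obtain ⟨k1, k2⟩ := hs1 hP' h3
    obtain ⟨k3, k4⟩ := hs1 h2 h3
    refine ⟨k1, ?_⟩
    rw [← hT, ← hT, k2, h1, k4]
  -- scheme 2
  have hex : ∀ k, k < K → ∀ P Q v u, P.length = c k → Q.length = g.p0 - c k →
      lam2 k P = some v → rho2 k Q = some u → u = pre (P ++ Q) v :=
    fun k hk P Q v u hP _ h1 h2 => e1 k hk P Q v u hP h1 h2
  have hcc2 : ∀ X ∈ Bad, ∀ Y ∈ Bad, ∀ v, ∃ P Q, P ++ Q = X ++ Y ∧ P ∈ L2 v ∧
      ∀ x, ∀ P' ∈ L2 x,
        (∃ X' ∈ Bad, ∃ Y' ∈ C, X' ++ Y' = P' ++ Q ∧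
          act (act x (X'.map φ).prod + nuT act φ g.p0 nu2 nu X') (Y'.map φ).prod +
            nuT act φ g.p0 nu2 nu Y' =
            act (act v (X.map φ).prod + nuT act φ g.p0 nu2 nu X) (Y.map φ).prod +
              nuT act φ g.p0 nu2 nu Y) ∨
        (∃ X' ∈ C, X' ∉ Bad ∧ X' <+: P' ++ Q) := by
    intro X hX Y hY v
    obtain ⟨P, Q, b', h1, h2, h3⟩ := g.complete2 pre post (BadT := BadT) (K := K) (c := c)
      (lam2 := lam2) (rho2 := rho2) (C0 := C0) hc hgap
      (fun k k' l l' hk hk' hl hl' hkk hll ha hb' => by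
        by_contra hne
        have := hgol k k' l l' (Ne.symm hkk) (fun h => hne (congrArg Prod.fst h))
        omega)
      (fun τ hτ J hJ => by
        have hch : ∀ k, ∃ k', k ∈ J → k' < K ∧ k' ≠ k ∧ BadT (τ + c k' - c k - g.p0) := by
          intro k
          by_cases hk : k ∈ J
          · obtain ⟨h1, k', h2⟩ := hJ k hk
            exact ⟨k', fun _ => h2⟩
          · exact ⟨0, fun h => absurd h hk⟩
        choose f hf using hch
        have hinj : Function.Injective (fun k : ℕ => (k, f k)) := fun a b h =>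
          congrArg Prod.fst h
        have hcard : (J.image (fun k : ℕ => (k, f k))).card = J.card :=
          Finset.card_image_of_injective J hinj
        rw [← hcard]
        refine hthin ((τ : ℤ) - g.p0) _ ?_
        intro p hp
        obtain ⟨k, hk, rfl⟩ := Finset.mem_image.1 hp
        obtain ⟨k1, k2, k3⟩ := hf k hk
        obtain ⟨hkK, -⟩ := hJ k hk
        refine ⟨hkK, k1, k2.symm, _, ?_, k3⟩
        have hck := hc k hkK
        push_cast
        omega)
      hX.1 hY.1 v
      (by
        have hXl : g.z ≤ X.length := hX.1.1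
        obtain ⟨I, hI, hI2⟩ := e2 (X.take g.p0) v (fun k hk => by
          rw [List.length_take]
          have := hc k hk
          omega)
        refine ⟨I, hI, fun k hk => ?_⟩
        obtain ⟨h1, h2, h3⟩ := hI2 k hk
        rw [List.take_take, Nat.min_eq_left (hc k h1)] at h2
        exact ⟨h1, h2, h3⟩)
    have hval : g.T pre post (g.T pre post v X) Y = b' := by
      obtain ⟨X2, k1, k2, k3⟩ := g.sound2 pre post hc hex hX.1 hX.2 h2 h3 (R := []) (R' := Y)
        (by rw [List.append_nil, h1])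
      rw [h1] at k2
      rw [List.append_cancel_left k2]
      exact k3
    refine ⟨P, Q, h1, h2, fun x P' hP' => ?_⟩
    obtain ⟨k0, hk0, hPl, hl0⟩ := id hP'
    have hend : ∃ l, g.CEnd Q (c k0) l := by
      obtain ⟨k, hk, l, hend, hgood, -⟩ := id h3
      by_cases hkk : k0 = k
      · subst hkk; exact ⟨l, hend⟩
      · obtain ⟨l', he', -⟩ := hgood k0 hk0 hkk
        exact ⟨l', he'⟩
    obtain ⟨l, hl⟩ := hend
    have hXX' : g.XX (P' ++ Q.take l) :=
      g.xx_of_cend (by rw [hPl]; exact hc k0 hk0) (by rw [hPl]; exact hl)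
    have hsp : P' ++ Q = (P' ++ Q.take l) ++ Q.drop l := by
      rw [List.append_assoc, List.take_append_drop]
    by_cases hbad : g.BadX BadT (P' ++ Q.take l)
    · left
      obtain ⟨X2, k1, k2, k3⟩ := g.sound2 pre post hc hex hXX' hbad hP' h3 (R := [])
        (R' := Q.drop l) (by rw [List.append_nil]; exact hsp)
      refine ⟨_, ⟨hXX', hbad⟩, X2, k1, k2.symm, ?_⟩
      rw [← hT, ← hT, ← hT, ← hT, k3, hval]
    · right
      exact ⟨_, hXX', fun h => hbad h.2, ⟨Q.drop l, hsp.symm⟩⟩
  exact Top5_120.top5 act hadd hone hmul hfaith φ (nuT act φ g.p0 nu2 nu) C Bad hCp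
    (fun X hX => hX.1) L1 L2 hf1 hf2 hCT hBT htail hcc1 hcc2 s

end join

/-- **star height `≤ 3` of the value languages** -/
theorem fin (α : Type) [Finite α] (S : Type) [Monoid S] [Finite S] (φ : α → S) (s : S) :
    HL 3 ({w | (w.map φ).prod = s} : Language α) := by
  classical
  haveI := Fintype.ofFinite S
  obtain ⟨act, hadd, hone, hmul, hfaith⟩ := Blk467.exists_module S
  haveI : Fintype (S → ZMod 2) := Fintype.ofFinite _
  obtain ⟨m, r, hg1⟩ := G1_256.g1 S (S → ZMod 2) act
  obtain ⟨K, hK⟩ := ExactR_237.exact_gadget α S (S → ZMod 2) φ act (2 * (r + m) + 2)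
  obtain ⟨Ms, M, hMs, hMsp, hM, hg⟩ := hg1 (2 ^ (K + 1))
  set b : ℕ := (2 ^ (K + 5) + 5) * M + 1 with hb
  have hbM : 2 ^ (K + 5) * M < b := by rw [hb, add_mul]; omega
  have hb4 : 4 * M + 4 < b := by
    have h1 : 32 ≤ 2 ^ (K + 5) := by
      calc 32 = 2 ^ 5 := by norm_num
        _ ≤ 2 ^ (K + 5) := Nat.pow_le_pow_right (by norm_num) (by omega)
    have h2 : 32 * M ≤ 2 ^ (K + 5) * M := Nat.mul_le_mul_right M h1
    rw [hb, add_mul]; omega
  have hco : Nat.Coprime b M := by
    rw [hb]
    rw [mul_comm]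
    exact (Nat.coprime_mul_left_add_left 1 M (2 ^ (K + 5) + 5)).2 (Nat.coprime_one_left M)
  obtain ⟨lam, rho, nu, g1, g2, g3, g4⟩ := hg b hb4 hco α φ
  obtain ⟨c, hcm, -, -, hgol, hthin, -⟩ := Sp_797.spoil_nat Ms M m b K (2 * b ^ m) hM
    (fun k hk => ⟨(hMsp k hk).1, (hMsp k hk).2.2⟩) hbM hco
  obtain ⟨lam2, rho2, nu2, e1, e2⟩ := hK c (fun i j hij _ => hcm hij)
  have hbm : 0 < b ^ m := by positivity
  obtain ⟨n, G, B, Wo, hLW, hgap, -, -, hfree⟩ :=
    LWallAll_922.walls_all_left α (2 * c K + 2 * b ^ m) (by omega)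
  let g : Sc2n_937.Geo α :=
    { Wo := Wo
      n := n
      z := c K + b ^ m + (n + 2 * c K)
      p0 := c K
      q0 := n + 2 * c K
      N1 := b ^ m
      loc := hLW.app
      hz := rfl
      hq := by omega
      hN := hbm
      hqp := by omega }
  refine join act hadd hone hmul hfaith φ g hLW.len (B := max B (2 * c K + 2 * b ^ m)) (R := 2)
    ?_ ?_ (by show 2 * c K ≤ n + 2 * c K; omega) Ms M m b hM (by omega)
    (fun k hk => (hMsp k hk).2.2) rfl lam rho nu g1 g2 g3 g4 K (r + m) c
    (fun k hk => (hcm hk).le) hgol ?_ lam2 (fun k Q => rho2 k Q 1) (fun u => nu2 u 1) ?_ ?_ s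
  · intro u hu
    obtain ⟨u1, x, v, k, h1, h2, h3, rfl⟩ := hfree u hu
    refine Language.mem_mul.2 ⟨u1 ++ (List.replicate k x).flatten,
      ⟨u1, x, k, h1.trans (le_max_left _ _), h2.trans (le_max_right _ _), rfl⟩, v, ?_, rfl⟩
    exact Language.mem_mul.2 ⟨v, ⟨v, [], 0, h3.trans (le_max_left _ _), by simp, by simp⟩, [], rfl,
      List.append_nil v⟩
  · intro P Q hP hPQ hne
    have hQ : 0 < Q.length := List.length_pos_iff.2 hne
    have h := hgap (P ++ Q) P.length (P ++ Q).length (by rw [List.length_append]; omega) le_rfl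
      (by rw [List.take_left]; exact hP) (by rw [List.take_length]; exact hPQ)
    rw [List.length_append] at h
    show 2 * c K + 2 * b ^ m < Q.length
    omega
  · intro T P hP
    exact (hthin T P hP).trans (by omega)
  · intro k hk P Q v b' hP h1 h2
    have := e1 k hk P Q 1 v b' hP h1 h2
    rw [mul_one] at this
    exact this
  · intro u v hu
    exact e2 u 1 v hu

end Crest.Agent.R320.Fin_37
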