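import Crest.Agent.R320.NatReg_380
import Crest.Agent.R320.SemTop_727
import Crest.Agent.R320.ExactR_237
import Crest.Agent.R320.GridG_19
import Crest.Agent.R320.SpoilGrid_567
import Crest.Agent.R320.Uni_366

/-!
# Row 320: the final join (helper380)

`SemTop_727.top` + `Sc2n_937` + `GridG_19.grid` + `SpoilGrid_567` + `ExactR_237` + `FewVal_228`.
-/

set_option autoImplicit false

namespace Crest.Agent.R320.Fin_380

open Crest.RegLang Crest.Agent.R320.Hk_851 Crest.Agent.R320.FewWalls_228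
  Crest.Agent.R320.FewVal_228 Crest.Agent.R320.Sc2n_937 Crest.Agent.R320.NatReg_380
  Crest.Agent.R320.Blk467

theorem bad_of_badG {Γ M m : ℕ} (hΓ : 0 < Γ) {T : ℕ}
    (hT : ∀ j, j ≤ m → GridG_19.Am (fun k => Γ ^ k) M 0 j ≤ T)
    (h : GridG_19.BadG (fun k => Γ ^ k) M 0 m T) :
    ∃ j, 1 ≤ j ∧ j ≤ m ∧ ∃ k : ℤ,
      |(T : ℤ) - (GridG_19.Am (fun k => Γ ^ k) M 0 j : ℤ) - k * (Γ : ℤ) ^ j| ≤
        (M : ℤ) * (Γ : ℤ) ^ (j - 1) := by
  obtain ⟨k, hk, h⟩ := h
  have hA := hT (k + 1) hk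
  set A := GridG_19.Am (fun k => Γ ^ k) M 0 (k + 1) with hAdef
  refine ⟨k + 1, by omega, hk, ?_⟩
  obtain ⟨t, rfl⟩ := Nat.exists_eq_add_of_le hA
  rw [Nat.add_sub_cancel_left] at h
  have hg : 0 < Γ ^ (k + 1) := pow_pos hΓ _
  have hdm := Nat.div_add_mod t (Γ ^ (k + 1))
  have hlt := Nat.mod_lt t hg
  have hdmZ : ((Γ : ℤ) ^ (k + 1)) * ((t / Γ ^ (k + 1) : ℕ) : ℤ) + ((t % Γ ^ (k + 1) : ℕ) : ℤ) =
      (t : ℤ) := by exact_mod_cast hdm
  have hltZ : ((t % Γ ^ (k + 1) : ℕ) : ℤ) < (Γ : ℤ) ^ (k + 1) := by exact_mod_cast hlt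
  have h0 : (0 : ℤ) ≤ ((t % Γ ^ (k + 1) : ℕ) : ℤ) := Int.natCast_nonneg _
  rcases h with h | h
  · refine ⟨((t / Γ ^ (k + 1) : ℕ) : ℤ), ?_⟩
    have hZ : ((t % Γ ^ (k + 1) : ℕ) : ℤ) < (M : ℤ) * (Γ : ℤ) ^ k := by exact_mod_cast h
    have e : ((A + t : ℕ) : ℤ) - (A : ℤ) - ((t / Γ ^ (k + 1) : ℕ) : ℤ) * (Γ : ℤ) ^ (k + 1) =
        ((t % Γ ^ (k + 1) : ℕ) : ℤ) := by
      push_cast at hdmZ ⊢
      linarith
    rw [e, abs_of_nonneg h0, Nat.add_sub_cancel]
    exact hZ.le
  · refine ⟨((t / Γ ^ (k + 1) : ℕ) : ℤ) + 1, ?_⟩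
    have hZ : (Γ : ℤ) ^ (k + 1) ≤ ((t % Γ ^ (k + 1) : ℕ) : ℤ) + (M : ℤ) * (Γ : ℤ) ^ k := by
      exact_mod_cast h
    have e : ((A + t : ℕ) : ℤ) - (A : ℤ) -
        (((t / Γ ^ (k + 1) : ℕ) : ℤ) + 1) * (Γ : ℤ) ^ (k + 1) =
        -((Γ : ℤ) ^ (k + 1) - ((t % Γ ^ (k + 1) : ℕ) : ℤ)) := by
      push_cast at hdmZ ⊢
      linarith
    rw [e, abs_neg, abs_of_nonneg (by linarith), Nat.add_sub_cancel]
    linarith

/-- left words of bounded length are finitely many -/
theorem fin_len {α : Type} [Finite α] (n : ℕ) (s : Set (List α)) (h : ∀ P ∈ s, P.length ≤ n) :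
    s.Finite := (List.finite_length_le α n).subset fun P hP => h P hP

section join

variable {α V : Type} (g : Geo α) (pre : List α → V → V) (post : V → List α → V)
  (lam rho : List α → Option V) (BadT : ℕ → Prop) (K : ℕ) (c : ℕ → ℕ)
  (lam2 rho2 : ℕ → List α → Option V)

/-- the data of the semantic top -/
def sch : SemTop_727.Sch α V where
  XX := {X | g.XX X}
  T := g.T pre post
  L1 := fun v => {P | g.LP1 pre lam v P}
  L2 := fun v => {P | Geo.LP2 K c lam2 v P}

variable (hlen : ∀ P v, lam P = some v → P.length ≤ g.N1)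
  (hex : ∀ P Q u b, lam P = some u → rho Q = some b → b = post u (P ++ Q))
  (hcomp : ∀ X, g.XX X → ¬ BadT (X.length - g.p0) → g.z + g.N1 ≤ X.length →
    ∀ u : V, ∃ P Q, X.drop g.p0 = P ++ Q ∧ lam P = some u ∧ (rho Q).isSome)
include hlen hex hcomp

theorem good_of {X : List α} (hX : g.XX X) (hb : ¬ g.BadX BadT X) :
    X ∈ (sch g pre post lam K c lam2).Good := by
  unfold Geo.BadX at hb
  push Not at hb
  have hbig : g.z + g.N1 ≤ X.length := by
    by_contra hlt
    apply hb.1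
    refine ⟨X.length, le_rfl, ?_, by have := hX.1; omega, by omega⟩
    rw [List.take_length]; exact hX.2.1
  refine ⟨hX, fun x => ?_⟩
  obtain ⟨P, Q, b, h1, h2, h3⟩ := g.complete1 pre (lam := lam) (rho := rho) hlen hX hb.1
    (hcomp X hX hb.2 hbig) x
  have key : ∀ x', ∀ P', g.LP1 pre lam x' P' → g.XX (P' ++ Q) ∧ g.T pre post x' (P' ++ Q) = b :=
    fun x' P' hP' => g.sound1 pre post hlen hex hP' h3
  have hb' : g.T pre post x X = b := by rw [h1]; exact (key x P h2).2
  refine ⟨P, h2, Q, ?_, h1.symm⟩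
  intro x' P' hP'
  have := key x' P' hP'
  refine ⟨this.1, ?_⟩
  show g.T pre post x' (P' ++ Q) = g.T pre post x X
  rw [this.2, hb']

theorem hC2 (C0 : ℕ) (hc : ∀ k, k < K → c k ≤ g.p0)
    (hex2 : ∀ k, k < K → ∀ P Q v u, P.length = c k → Q.length = g.p0 - c k →
      lam2 k P = some v → rho2 k Q = some u → u = pre (P ++ Q) v)
    (hgap : ∀ P Q : List α, g.Wo P → g.Wo (P ++ Q) → Q ≠ [] → 2 * g.p0 + 2 * g.N1 < Q.length)
    (hsp : ∀ k k' l l', k < K → k' < K → l < K → l' < K → k' ≠ k → l' ≠ l →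
      c k + c l' < c l + c k' + 2 * g.N1 → c l + c k' < c k + c l' + 2 * g.N1 → k = l)
    (hthin : ∀ τ, g.z ≤ τ + g.p0 → ∀ J : Finset ℕ, (∀ k ∈ J, k < K ∧
      ∃ k', k' < K ∧ k' ≠ k ∧ BadT (τ + c k' - c k - g.p0)) → J.card ≤ C0)
    (hI : ∀ X, g.XX X → ∀ v, ∃ I : Finset ℕ, 2 * C0 + 2 ≤ I.card ∧ ∀ k ∈ I, k < K ∧
      lam2 k (X.take (c k)) = some v ∧ (rho2 k ((X.take g.p0).drop (c k))).isSome) :
    ∀ X1 ∈ (sch g pre post lam K c lam2).Bad, ∀ X2 ∈ (sch g pre post lam K c lam2).Bad, ∀ x,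
      ∃ P ∈ (sch g pre post lam K c lam2).L2 x,
      ∃ Q ∈ (sch g pre post lam K c lam2).R2
        ((sch g pre post lam K c lam2).T ((sch g pre post lam K c lam2).T x X1) X2),
      P ++ Q = X1 ++ X2 := by
  intro X1 hX1 X2 hX2 x
  have hgood : ∀ X, g.XX X → ¬ g.BadX BadT X → X ∈ (sch g pre post lam K c lam2).Good :=
    fun X h1 h2 => good_of g pre post lam rho BadT K c lam2 hlen hex hcomp h1 h2
  obtain ⟨P, Q, b, h1, h2, h3⟩ := g.complete2 pre post (BadT := BadT) (K := K) (c := c)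
    (lam2 := lam2) (rho2 := rho2) (C0 := C0) hc hgap hsp hthin hX1.1 hX2.1 x (hI X1 hX1.1 x)
  refine ⟨P, h2, Q, ?_, h1⟩
  -- every left word
  have key : ∀ x' P', Geo.LP2 K c lam2 x' P' →
      (∃ X1 ∈ (sch g pre post lam K c lam2).Bad, ∃ X2 ∈ (sch g pre post lam K c lam2).Bad,
        P' ++ Q = X1 ++ X2 ∧ g.T pre post (g.T pre post x' X1) X2 = b) ∨
      (∃ X ∈ (sch g pre post lam K c lam2).Good, X <+: P' ++ Q) ∨
      (∃ X1 ∈ (sch g pre post lam K c lam2).Bad, ∃ X2 ∈ (sch g pre post lam K c lam2).Good,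
        X1 ++ X2 <+: P' ++ Q ∧ X1 ++ X2 = P' ++ Q ∧
          g.T pre post (g.T pre post x' X1) X2 = b) := by
    intro x' P' hP'
    obtain ⟨k0, hk0, hPl, hl⟩ := id hP'
    obtain ⟨k, hk, l, hend, hgd, hX2', u, hr, hb⟩ := id h3
    -- candidate block for `k0`
    have cand : ∀ l', g.CEnd Q (c k0) l' → g.XX (P' ++ Q.take l') := fun l' h =>
      g.xx_of_cend (by rw [hPl]; exact hc k0 hk0) (by rw [hPl]; exact h)
    have pref : ∀ l', P' ++ Q.take l' <+: P' ++ Q := fun l' =>
      (List.prefix_append_right_inj P').2 (List.take_prefix _ _)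
    by_cases hkk : k0 = k
    · subst hkk
      have hXX := cand l hend
      by_cases hG1 : (P' ++ Q.take l) ∈ (sch g pre post lam K c lam2).Good
      · exact Or.inr (Or.inl ⟨_, hG1, pref l⟩)
      · have hB1 : (P' ++ Q.take l) ∈ (sch g pre post lam K c lam2).Bad := ⟨hXX, hG1⟩
        have hbad : g.BadX BadT (P' ++ Q.take l) := by
          by_contra h
          exact hG1 (hgood _ hXX h)
        have hdec : P' ++ Q = (P' ++ Q.take l) ++ Q.drop l := by
          rw [List.append_assoc, List.take_append_drop]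
        obtain ⟨Y2, hY2, hPQ, hTT⟩ := g.sound2 pre post (BadT := BadT) (K := K) (c := c)
          (lam2 := lam2) (rho2 := rho2) (R := []) (R' := Q.drop l) hc hex2 hXX hbad hP' h3
          (by rw [List.append_nil]; exact hdec)
        by_cases hG2 : Y2 ∈ (sch g pre post lam K c lam2).Good
        · exact Or.inr (Or.inr ⟨_, hB1, Y2, hG2, by rw [hPQ], hPQ.symm, hTT⟩)
        · exact Or.inl ⟨_, hB1, Y2, ⟨hY2, hG2⟩, hPQ, hTT⟩
    · obtain ⟨l', he', hg'⟩ := hgd k0 hk0 hkk
      have hXX := cand l' he'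
      refine Or.inr (Or.inl ⟨_, hgood _ hXX ?_, pref l'⟩)
      intro hbad
      apply hg'
      have := g.cbad_of_bad (BadT := BadT) (P := P') (Q := Q) (l := l')
        (by rw [hPl]; exact hc k0 hk0) (by rw [hPl]; exact he') hbad
      rw [hPl] at this
      exact this
  -- the label
  have hval : g.T pre post (g.T pre post x X1) X2 = b := by
    have hX1b : g.BadX BadT X1 := by
      by_contra h
      exact hX1.2 (hgood _ hX1.1 h)
    obtain ⟨Y2, hY2, hPQ, hTT⟩ := g.sound2 pre post (BadT := BadT) (K := K) (c := c)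
      (lam2 := lam2) (rho2 := rho2) (R := []) (R' := X2) hc hex2 hX1.1 hX1b h2 h3
      (by rw [List.append_nil]; exact h1)
    have : Y2 = X2 := by
      rw [h1] at hPQ
      exact (List.append_cancel_left hPQ).symm
    rw [← this]; exact hTT
  intro x' P' hP'
  show (∃ X1' ∈ (sch g pre post lam K c lam2).Bad, ∃ X2' ∈ (sch g pre post lam K c lam2).Bad,
        P' ++ Q = X1' ++ X2' ∧ g.T pre post (g.T pre post x' X1') X2' =
          g.T pre post (g.T pre post x X1) X2) ∨
      (∃ X ∈ (sch g pre post lam K c lam2).Good, X <+: P' ++ Q) ∨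
      (∃ X1' ∈ (sch g pre post lam K c lam2).Bad, ∃ X2' ∈ (sch g pre post lam K c lam2).Good,
        X1' ++ X2' <+: P' ++ Q)
  rw [hval]
  rcases key x' P' hP' with h | h | ⟨a, ha, b', hb', h, _, _⟩
  · exact Or.inl h
  · exact Or.inr (Or.inl h)
  · exact Or.inr (Or.inr ⟨a, ha, b', hb', h⟩)

end join


theorem coprime_succ {q M N : ℕ} (h : q ∣ M) : Nat.Coprime q (M * N + 1) := by
  obtain ⟨t, rfl⟩ := h
  have h1 : Nat.Coprime (q * t * N) (q * t * N + 1) := by
    rw [Nat.coprime_self_add_right]; exact Nat.coprime_one_right _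
  exact Nat.Coprime.coprime_dvd_left ⟨t * N, by ring⟩ h1

theorem fin (α : Type) [Finite α] (S : Type) [Monoid S] [Finite S] (φ : α → S) (s : S) :
    HL 3 ({w | (w.map φ).prod = s} : Language α) := by
  classical
  haveI := Fintype.ofFinite S
  let V : Type := S → ZMod 2
  let act : V → S → V := fun v s t => v (s * t)
  obtain ⟨m, r, hgrid⟩ := GridG_19.grid S V act
  obtain ⟨K, hexact⟩ := ExactR_237.exact_gadget α S V φ act (2 * (r + m) + 2)
  obtain ⟨Ms, hMc, hMp, hg⟩ := hgrid (4 ^ K)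
  set M := ∏ q ∈ Ms, q with hM
  have hM0 : 0 < M := Finset.prod_pos fun q hq => (hMp q hq).1.pos
  obtain ⟨Γ, hΓdef⟩ : ∃ Γ, Γ = M * (16 * (m + 1) * 4 ^ K) + 1 := ⟨_, rfl⟩
  have hΓ : 0 < Γ := by omega
  have hΓ2 : 16 * (m + 1) * M * 4 ^ K ≤ Γ := by
    rw [hΓdef]
    have : 16 * (m + 1) * M * 4 ^ K = M * (16 * (m + 1) * 4 ^ K) := by ring
    omega
  have hcopM : Nat.Coprime M Γ := by rw [hΓdef]; exact coprime_succ dvd_rfl
  have hcopq : ∀ q ∈ Ms, Nat.Coprime q Γ := fun q hq => by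
    rw [hΓdef]; exact coprime_succ (Finset.dvd_prod_of_mem _ hq)
  obtain ⟨lam, rho, nu, hex, hlam, hrho, hcomp, hnu⟩ := hg (fun k => Γ ^ k) 0
    (fun k => pow_pos hΓ k) (fun a b h => pow_dvd_pow _ h) (fun k => hcopM.pow_right k) α
    (fun w => (w.map φ).prod) (by intro u v; simp)
  obtain ⟨A, hA⟩ : ∃ A, A = GridG_19.Am (fun k => Γ ^ k) M 0 m := ⟨_, rfl⟩
  obtain ⟨A', hA'⟩ : ∃ A', A' = GridG_19.Ac (fun k => Γ ^ k) M 0 m := ⟨_, rfl⟩
  rw [← hA] at hlam hrho hcomp
  rw [← hA'] at hnu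
  obtain ⟨x, hx1, hx2, hx3⟩ := SpoilGrid_567.spoil_grid K m Ms M Γ (4 * (A + 1))
    (fun q hq => (hMp q hq).2) hcopq
    (fun q hq q' hq' hne => (Nat.coprime_primes (hMp q hq).1 (hMp q' hq').1).2 hne) hM0 hΓ2
  obtain ⟨lam2, rho2, nu2, hs2, hc2⟩ := hexact x (fun i j hij _ => by have := hx1 i j hij; omega)
  have hxK : ∀ k, k < K → x k ≤ x K := fun k hk => by have := hx1 k K hk; omega
  obtain ⟨n, cc, Pp, Sw, hn, hPp, hSlen, hsep, hper, hfew⟩ :=
    exists_walls α (2 * x K + 2 * (A + 1) + 1) (by omega)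
  let g : Geo α :=
    { Wo := Wo n Sw
      n := n
      z := x K + (A + 1) + (n + 2 * x K + 2 * A + M + A')
      p0 := x K
      q0 := n + 2 * x K + 2 * A + M + A'
      N1 := A + 1
      loc := wo_loc n Sw
      hz := rfl
      hq := by omega
      hN := by omega
      hqp := by omega }
  let pre : List α → V → V := fun X v => act v (X.map φ).prod + nu2 X 1
  let post : V → List α → V := fun u Y => act u (Y.map φ).prod + nu Y
  let BadT : ℕ → Prop := fun T => (∃ q ∈ Ms, q ∣ T) ∨ GridG_19.BadG (fun k => Γ ^ k) M 0 m T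
  have gz : g.z = x K + (A + 1) + (n + 2 * x K + 2 * A + M + A') := rfl
  have gp : g.p0 = x K := rfl
  have gN : g.N1 = A + 1 := rfl
  have gn : g.n = n := rfl
  -- the module
  have act_one : ∀ v : V, act v 1 = v := fun v => by funext t; show v (1 * t) = v t; rw [one_mul]
  have act_mul : ∀ (v : V) (a b : S), act v (a * b) = act (act v a) b := fun v a b => by
    funext t; show v (a * b * t) = v (a * (b * t)); rw [mul_assoc]
  have act_add : ∀ (a b : V) (s : S), act (a + b) s = act a s + act b s := fun a b s => rfl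
  have faith : ∀ a b : S, (∀ v : V, act v a = act v b) → a = b := fun a b h => by
    have h1 := congrFun (h (fun t => if t = a then 1 else 0)) 1
    have h2 : (if a * 1 = a then (1 : ZMod 2) else 0) = if b * 1 = a then 1 else 0 := h1
    rw [mul_one, mul_one, if_pos rfl] at h2
    by_contra hne
    rw [if_neg (fun h => hne h.symm)] at h2
    exact one_ne_zero h2
  -- facts for scheme 1
  have hlen : ∀ P v, lam P = some v → P.length ≤ g.N1 := fun P v h => by
    have := (hlam P v h).2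
    rw [gN]; omega
  have hex' : ∀ P Q u b, lam P = some u → rho Q = some b → b = post u (P ++ Q) :=
    fun P Q u b h1 h2 => hex P Q u b h1 h2
  have hcomp' : ∀ X, g.XX X → ¬ BadT (X.length - g.p0) → g.z + g.N1 ≤ X.length →
      ∀ u : V, ∃ P Q, X.drop g.p0 = P ++ Q ∧ lam P = some u ∧ (rho Q).isSome := by
    intro X hX hb hbig u
    have hb' : ¬ ((∃ q ∈ Ms, q ∣ X.length - g.p0) ∨
      GridG_19.BadG (fun k => Γ ^ k) M 0 m (X.length - g.p0)) := hb
    push Not at hb'
    have hl : (X.drop g.p0).length = X.length - g.p0 := List.length_drop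
    rw [gz] at hbig
    obtain ⟨P, Q, h1, h2, h3⟩ := hcomp (X.drop g.p0) (by rw [hl, gp]; omega)
      (by rw [hl, gp]; omega) (by rw [hl]; exact hb'.1) (by rw [hl]; exact hb'.2) u
    exact ⟨P, Q, h1.symm, h2, h3⟩
  have hC2' := hC2 g pre post lam rho BadT K x lam2 (fun k Q => rho2 k Q 1) hlen hex' hcomp' (r + m)
    (fun k hk => hxK k hk)
    (fun k hk P Q v u hP hQ h1 h2 => by
      have h3 := hs2 k hk P Q 1 v u hP h1 h2
      rw [mul_one] at h3
      exact h3)
    (by
      intro P Q h1 h2 hne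
      have hQ0 : 0 < Q.length := List.length_pos_iff.2 hne
      have e1 : Wo n Sw ((P ++ Q).take P.length) := by rw [List.take_left]; exact h1
      rw [wo_take (by rw [List.length_append]; omega)] at e1
      have e2 : Wo n Sw ((P ++ Q).take (P ++ Q).length) := by rw [List.take_length]; exact h2
      rw [wo_take le_rfl] at e2
      have e3 := hsep (P ++ Q) (P.length - n) ((P ++ Q).length - n)
        (by have := e1.1; rw [List.length_append]; omega) e1.2 e2.2
      rw [List.length_append] at e3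
      have := e1.1
      rw [gp, gN]; omega)
    (by
      intro k k' l l' hk hk' hl hl' hne hne' h1 h2
      rw [gN] at h1 h2
      refine (hx2 k k' l l' hk hk' hl hl' (Ne.symm hne) ?_).1
      rw [abs_le]
      constructor <;> push_cast <;> omega)
    (by
      intro τ hτ J hJ
      rw [gz, gp] at hτ
      have hcount := hx3 (fun j => (GridG_19.Am (fun k => Γ ^ k) M 0 j : ℤ)) ((τ : ℤ) - x K)
      choose! kk hkk using fun k (hk : k ∈ J) => (hJ k hk).2
      have hcard : J.card ≤ ((Finset.range K ×ˢ Finset.range K).filter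
          (fun ab => ab.1 ≠ ab.2 ∧ SpoilGrid_567.BadT Ms M Γ m
            (fun j => (GridG_19.Am (fun k => Γ ^ k) M 0 j : ℤ))
            ((τ : ℤ) - x K + x ab.1 - x ab.2))).card := by
        refine Finset.card_le_card_of_injOn (fun k => (kk k, k)) ?_ ?_
        · intro k hk
          have hk' : k ∈ J := hk
          have hkK := (hJ k hk').1
          obtain ⟨a1, a2, a3⟩ := hkk k hk'
          have b1 := hxK k hkK
          have b2 := hxK (kk k) a1
          simp only [Finset.coe_filter, Finset.mem_product, Finset.mem_range, Set.mem_setOf_eq]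
          refine ⟨⟨a1, hkK⟩, a2, ?_⟩
          have hcast : ((τ : ℤ) - x K + x (kk k) - x k) = ((τ + x (kk k) - x k - x K : ℕ) : ℤ) := by
            omega
          rw [hcast]
          rcases a3 with ⟨q, hq, hd⟩ | hB
          · exact Or.inl ⟨q, hq, Int.natCast_dvd_natCast.2 hd⟩
          · refine Or.inr (bad_of_badG hΓ ?_ hB)
            intro j hj
            have := GridG_19.Am_mono (fun k => Γ ^ k) M 0 hj
            rw [← hA] at this
            omega
        · intro k _ l _ h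
          exact (Prod.mk.inj h).2
      have h1 : J.card ≤ Ms.card + m := hcard.trans (by convert hcount using 3)
      omega)
    (by
      intro X hX v
      have hXz := hX.1
      rw [gz] at hXz
      have hl : (X.take g.p0).length = x K := by rw [List.length_take, gp]; omega
      obtain ⟨I, hI1, hI2⟩ := hc2 (X.take g.p0) 1 v (fun k hk => by rw [hl]; exact hxK k hk)
      refine ⟨I, hI1, fun k hk => ?_⟩
      obtain ⟨h1, h2, h3⟩ := hI2 k hk
      refine ⟨h1, ?_, h3⟩
      rw [List.take_take, gp, Nat.min_eq_left (hxK k h1)] at h2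
      exact h2)
  have hnw : ∀ w, g.XX w → nw n Sw w ≤ g.z + 1 := fun w hw => nw_le hw.2.2
  refine SemTop_727.top (k := 1) act act_add act_one act_mul faith φ
    (fun X => act (nu2 (X.take g.p0) 1) ((X.drop g.p0).map φ).prod + nu (X.drop g.p0))
    (sch g pre post lam K x lam2) ?_ ?_ ?_ ?_ ?_ hC2' ?_ s
  · intro v X
    show act (act v ((X.take g.p0).map φ).prod + nu2 (X.take g.p0) 1)
      ((X.drop g.p0).map φ).prod + nu (X.drop g.p0) = _
    have e : (X.map φ).prod = ((X.take g.p0).map φ).prod * ((X.drop g.p0).map φ).prod := by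
      rw [← List.prod_append, ← List.map_append, List.take_append_drop]
    rw [act_add, e, act_mul, add_assoc]
  · refine ⟨fun h => ?_, fun X hX Y hY hp => ?_⟩
    · have h1 := h.1
      rw [gz, List.length_nil] at h1
      omega
    · obtain ⟨R, hR⟩ := hp
      exact g.prefix_code (R := R) (R' := []) hX hY (by rw [hR, List.append_nil])
  · intro a b
    have h1 := reg_T φ g.p0 A' (M * Γ ^ m) (Nat.mul_pos hM0 (pow_pos hΓ m)) (g.T pre post) pre act
      nu (fun v X => rfl) (fun q q' h1 h2 h3 h4 h5 => hnu q q' h1 h2 h3 h4 h5) a b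
    have h2 := (reg_XX g).inf h1
    refine (hfew _ h2 (g.z + 1)).congr fun w => ?_
    constructor
    · rintro ⟨h3, h4⟩
      exact ⟨⟨h3, h4⟩, hnw w h3⟩
    · rintro ⟨⟨h3, h4⟩, _⟩
      exact ⟨h3, h4⟩
  · intro v
    refine fin_len (x K + (A + 1)) _ fun P hP => ?_
    have h1 := hlen _ _ hP.2
    rw [List.length_drop, gp, gN] at h1
    omega
  · intro v
    refine fin_len (x K) _ fun P hP => ?_
    obtain ⟨k, hk, hP, _⟩ := hP
    rw [hP]; exact hxK k hk
  · intro t
    have h2 := (reg_tail g).inf (reg_prod φ t)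
    refine HL.mono (k := 1) (by omega) ((hfew _ h2 (g.z + 1)).congr fun w => ?_)
    constructor
    · rintro ⟨h3, h4⟩
      refine ⟨⟨h3, h4⟩, nw_le fun t ht1 ht2 => ?_⟩
      exact (tail_iff g w).1 h3 t ht1 (by omega)
    · rintro ⟨⟨h3, h4⟩, _⟩
      exact ⟨h3, h4⟩

theorem s0495 {α : Type*} [Finite α] (L : Language α) (hL : L.IsRegular) :
    ∃ e : GRegExp α, e.height ≤ 3 ∧ e.lang = L :=
  Uni_366.final1 (fun α _ S _ _ φ s => fin α S φ s) α L hL

end Crest.Agent.R320.Fin_380
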