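import Crest.Agent.R320.End_532
import Crest.Agent.R320.Last_749
import Crest.Agent.R320.Grid_899
import Crest.Agent.R320.Thin_963
import Crest.Agent.R320.ExactR_237
import Crest.Agent.R320.WallU_228
import Crest.Agent.R320.P4_911
import Crest.Agent.R320.Block_467
import Crest.Agent.R320.Ruler_265

/-!
# Row 320: join (helper382)

Over `End_532.joint` (727's semantic top, 937's natural block scheme), 899's grid gadget, 963's
thinness of the ruler, 237's exact gadget, 228's walls on all words, 749's height one facts.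
-/

set_option autoImplicit false

namespace Crest.Agent.R320.Fin382

open Crest.RegLang Crest.Agent.R320.Hk_851 Crest.Agent.R320.FewWalls_228
  Crest.Agent.R320.WallU_228 Crest.Agent.R320.Blk467 Crest.Agent.R320.P4_911

/-- finite-state functions are regular -/
theorem reg_of_class {α : Type} [Finite α] {S V : Type} [Monoid S] [Finite S] (φ : α → S)
    (A M0 : ℕ) (hM : 0 < M0) (nu : List α → V)
    (h : ∀ Q Q' : List α, A ≤ Q.length → A ≤ Q'.length → Q.take A = Q'.take A →
      ((Q.drop A).map φ).prod = ((Q'.drop A).map φ).prod → Q.length ≡ Q'.length [MOD M0] →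
      nu Q = nu Q') (v : V) : Language.IsRegular ({Y | nu Y = v} : Language α) := by
  classical
  have h1 : Reg (fun w : List α => A ≤ w.length) := by
    have := Crest.Agent.R320.Reg_852.HL.isRegular (HL.length_ge (α := α) (k := 0) A)
    exact this
  have h2 := Reg.cls (α := α) φ A M0 hM (fun x s r => ∃ Q : List α, A ≤ Q.length ∧ Q.take A = x ∧
    ((Q.drop A).map φ).prod = s ∧ Q.length % M0 = r ∧ nu Q = v)
  have h3 : Reg (fun w : List α => w.length < A ∧ nu w = v) := by
    have := Crest.Agent.R320.Reg_852.HL.isRegular (HL.finite (k := 0)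
      ((List.finite_length_lt α A).subset (t := {w | w.length < A ∧ nu w = v}) fun X hX => hX.1))
    exact this
  have h4 : Reg (fun w : List α => nu w = v) := by
    refine ((h1.and h2).or h3).congr fun w => ?_
    constructor
    · intro hw
      rcases Nat.lt_or_ge w.length A with hl | hl
      · exact Or.inr ⟨hl, hw⟩
      · exact Or.inl ⟨hl, w, hl, rfl, rfl, rfl, hw⟩
    · rintro (⟨hl, Q, hQ, e1, e2, e3, e4⟩ | ⟨_, hw⟩)
      · rw [← e4]
        exact h w Q hl hQ e1.symm e2.symm e3.symm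
      · exact hw
  exact h4

/-- powers of two: Sidon with resolution -/
theorem ruler_sep {X N1 k k' l l' : ℕ} (hX : 2 * N1 + 2 ≤ X) (hk : k' ≠ k) 
    (h1 : X * 2 ^ k + X * 2 ^ l' < X * 2 ^ l + X * 2 ^ k' + 2 * N1)
    (h2 : X * 2 ^ l + X * 2 ^ k' < X * 2 ^ k + X * 2 ^ l' + 2 * N1) : k = l := by
  have key : (2 : ℤ) ^ k + 2 ^ l' = 2 ^ l + 2 ^ k' := by
    have h1' : X * (2 ^ k + 2 ^ l') < X * (2 ^ l + 2 ^ k') + X := by
      rw [Nat.mul_add, Nat.mul_add]; omega
    have h2' : X * (2 ^ l + 2 ^ k') < X * (2 ^ k + 2 ^ l') + X := by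
      rw [Nat.mul_add, Nat.mul_add]; omega
    have h3 : 2 ^ k + 2 ^ l' < 2 ^ l + 2 ^ k' + 1 := by
      have : X * (2 ^ k + 2 ^ l') < X * (2 ^ l + 2 ^ k' + 1) := by rw [Nat.mul_add X (_ + _) 1]; omega
      exact Nat.lt_of_mul_lt_mul_left this
    have h4 : 2 ^ l + 2 ^ k' < 2 ^ k + 2 ^ l' + 1 := by
      have : X * (2 ^ l + 2 ^ k') < X * (2 ^ k + 2 ^ l' + 1) := by rw [Nat.mul_add X (_ + _) 1]; omega
      exact Nat.lt_of_mul_lt_mul_left this
    have h5 : 2 ^ k + 2 ^ l' = 2 ^ l + 2 ^ k' := by omega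
    exact_mod_cast h5
  exact (Crest.Agent.R320.Ruler265.pow_sidon (a := k) (b := k') (c := l) (d := l') hk.symm
    (by linarith)).1

theorem exists_primes (k B : ℕ) : ∃ q : Fin k → ℕ, (∀ j, (q j).Prime) ∧ (∀ j, B ≤ q j) ∧
    Function.Injective q := by
  refine ⟨fun j => Nat.nth Nat.Prime (B + j), fun j => Nat.prime_nth_prime _, fun j => ?_, ?_⟩
  · have h : B + (j : ℕ) ≤ Nat.nth Nat.Prime (B + j) :=
      (Nat.nth_strictMono Nat.infinite_setOf_prime).le_apply (x := B + j)
    exact le_trans (Nat.le_add_right _ _) h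
  · intro i j h
    have := (Nat.nth_injective Nat.infinite_setOf_prime) h
    apply Fin.ext; omega

theorem fin (α : Type) [Finite α] (S : Type) [Monoid S] [Finite S] (φ : α → S) (s : S) :
    HL 3 ({w | (w.map φ).prod = s} : Language α) := by
  classical
  haveI := Fintype.ofFinite S
  obtain ⟨act, hadd, hone, hmul, hfaith⟩ := exists_module S
  obtain ⟨k, m, HG⟩ := Grid_899.grid_gadget_reg S (S → ZMod 2) act
  set C0 : ℕ := k + m with hC0
  obtain ⟨K, HE⟩ := ExactR_237.exact_gadget α S (S → ZMod 2) φ act (2 * C0 + 2)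
  obtain ⟨q, hqp, hqB, hqi⟩ := exists_primes k (2 ^ (K + 1) + 3)
  have hodd : ∀ j, Odd (q j) := fun j => (hqp j).odd_of_ne_two (by
    have h1 := hqB j
    have h2 : 0 < 2 ^ (K + 1) := by positivity
    omega)
  have hcop : Pairwise (fun i j => Nat.Coprime (q i) (q j)) := fun i j hij =>
    (Nat.coprime_primes (hqp i) (hqp j)).2 (fun h => hij (hqi h))
  set Mq : ℕ := ∏ j, q j with hMq
  have hMq0 : 0 < Mq := Finset.prod_pos (fun j _ => (hqp j).pos)
  set κ : ℕ := 2 ^ (K + 4) * Mq * (m + 1) with hκ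
  have hphi : ∀ u v : List α, ((u ++ v).map φ).prod = (u.map φ).prod * (v.map φ).prod := by
    intro u v; simp
  obtain ⟨lam, rho, nu1, g1, g2, g3, g4, g5⟩ := HG q hodd hcop κ α (fun w => (w.map φ).prod) hphi
  rw [← hMq] at g1 g2 g4 g5
  set Ms : Finset ℕ := Finset.univ.image q with hMs
  have hMsc : Ms.card ≤ k := by
    have := Finset.card_image_le (s := (Finset.univ : Finset (Fin k))) (f := q)
    simpa using this
  set Gz : ℕ → ℤ := fun i => ((Grid_899.G κ i : ℕ) : ℤ) with hGz
  set cz : ℕ → ℤ := fun i => ((Mq * Grid_899.G κ i : ℕ) : ℤ) with hcz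
  set Az : ℕ → ℤ := fun i => ((Grid_899.Am Mq κ i : ℕ) : ℤ) with hAz
  have hGpos : ∀ i, 0 < Grid_899.G κ i := fun i => by unfold Grid_899.G; positivity
  set N1 : ℕ := Grid_899.Am Mq κ m + 1 with hN1
  obtain ⟨X, hX0, hXpos, hthin⟩ := Thin963.thin K m Ms Gz cz Az
    (by
      intro p hp
      obtain ⟨j, _, rfl⟩ := Finset.mem_image.1 hp
      exact ⟨hqp j, by have := hqB j; omega⟩)
    (by
      intro p hp
      obtain ⟨j, _, rfl⟩ := Finset.mem_image.1 hp
      have h1 : Nat.Coprime (q j) (Grid_899.G κ m) := by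
        unfold Grid_899.G
        exact Nat.Coprime.pow_right _ (Nat.Coprime.symm ((Nat.coprime_two_left).2 (hodd j)))
      exact Nat.isCoprime_iff_coprime.2 h1)
    (by
      show (0 : ℤ) < ((Grid_899.G κ m : ℕ) : ℤ)
      exact_mod_cast hGpos m)
    (by
      intro i j hij
      have h1 : Grid_899.G κ i ∣ Grid_899.G κ j := by
        unfold Grid_899.G
        exact pow_dvd_pow 2 (Nat.mul_le_mul_left _ hij)
      show ((Grid_899.G κ i : ℕ) : ℤ) ∣ ((Grid_899.G κ j : ℕ) : ℤ)
      exact_mod_cast h1)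
    (by
      intro i
      have := Nat.mul_pos hMq0 (hGpos i)
      show (0 : ℤ) < ((Mq * Grid_899.G κ i : ℕ) : ℤ)
      exact_mod_cast this)
    (by
      intro i
      have h1 : Grid_899.G κ i ∣ Mq * Grid_899.G κ i := Dvd.intro_left _ rfl
      show ((Grid_899.G κ i : ℕ) : ℤ) ∣ ((Mq * Grid_899.G κ i : ℕ) : ℤ)
      exact_mod_cast h1)
    (by
      intro i hi
      have h1 : ∑ j ∈ Finset.range (i + 1), Mq * Grid_899.G κ j
          ≤ (i + 1) * (Mq * Grid_899.G κ i) := by
        refine (Finset.sum_le_card_nsmul _ _ (Mq * Grid_899.G κ i) ?_).trans ?_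
        · intro j hj
          have hj' : j ≤ i := by have := Finset.mem_range.1 hj; omega
          apply Nat.mul_le_mul_left
          unfold Grid_899.G
          exact Nat.pow_le_pow_right (by norm_num) (Nat.mul_le_mul_left _ hj')
        · simp
      have h2 : κ ≤ 2 ^ κ := (Nat.lt_two_pow_self).le
      have h3 : Grid_899.G κ (i + 1) = 2 ^ κ * Grid_899.G κ i := by
        unfold Grid_899.G
        rw [← pow_add]; congr 1; ring
      have h4 : 2 ^ (K + 4) * ∑ j ∈ Finset.range (i + 1), Mq * Grid_899.G κ j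
          ≤ Grid_899.G κ (i + 1) := by
        rw [h3]
        calc 2 ^ (K + 4) * ∑ j ∈ Finset.range (i + 1), Mq * Grid_899.G κ j
            ≤ 2 ^ (K + 4) * ((i + 1) * (Mq * Grid_899.G κ i)) := Nat.mul_le_mul_left _ h1
          _ ≤ 2 ^ (K + 4) * ((m + 1) * (Mq * Grid_899.G κ i)) := by gcongr
          _ = κ * Grid_899.G κ i := by rw [hκ]; ring
          _ ≤ 2 ^ κ * Grid_899.G κ i := Nat.mul_le_mul_right _ h2
      show (2 : ℤ) ^ (K + 4) * ∑ j ∈ Finset.range (i + 1), ((Mq * Grid_899.G κ j : ℕ) : ℤ)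
        ≤ ((Grid_899.G κ (i + 1) : ℕ) : ℤ)
      exact_mod_cast h4)
    ((2 * N1 + 2 : ℕ) : ℤ)
  -- the ruler in naturals
  obtain ⟨x, rfl⟩ := Int.eq_ofNat_of_zero_le hXpos.le
  have hx0 : 2 * N1 + 2 ≤ x := by exact_mod_cast hX0
  set c : ℕ → ℕ := fun j => x * 2 ^ j with hc
  have hcm : ∀ i j, i < j → j < K → c i < c j := fun i j hij _ =>
    Nat.mul_lt_mul_of_pos_left (Nat.pow_lt_pow_right (by norm_num) hij) (by omega)
  obtain ⟨lam2, rho2, nu2, e1, e2⟩ := HE c hcm
  set p0 : ℕ := x * 2 ^ K with hp0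
  have hcp : ∀ j, j < K → c j ≤ p0 := fun j hj =>
    Nat.mul_le_mul_left _ (Nat.pow_le_pow_right (by norm_num) hj.le)
  obtain ⟨n, cc, PP, Sw, hn0, _, hloc, hsepW, _, _, hfew⟩ := walls_full (α := α)
    (2 * p0 + 2 * N1)
  set q0 : ℕ := n + 2 * p0 + 2 * Grid_899.Am Mq κ (m + 1) + Grid_899.Am Mq κ (m + 1) with hq0
  let g : Sc2n_937.Geo α :=
    { Wo := WallU_228.Wo n Sw
      n := n
      z := p0 + N1 + q0
      p0 := p0
      q0 := q0
      N1 := N1
      loc := hloc
      hz := rfl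
      hq := by omega
      hN := by omega
      hqp := by omega }
  set BadT : ℕ → Prop := fun T => Thin963.BadT Ms m Gz cz Az (T : ℤ) with hBadT
  have hAmono : ∀ i, Grid_899.Am Mq κ i ≤ Grid_899.Am Mq κ (i + 1) := by
    intro i
    show Grid_899.Am Mq κ i ≤ Grid_899.Am Mq κ i + Grid_899.G κ i + Mq * Grid_899.G κ i
    omega
  have hAm := monotone_nat_of_le_succ hAmono
  have hregnu : ∀ v, Language.IsRegular ({Y | nu1 Y = v} : Language α) := by
    intro v
    refine reg_of_class φ (Grid_899.Am Mq κ (m + 1)) (Mq * Grid_899.G κ m)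
      (Nat.mul_pos hMq0 (hGpos m)) nu1 ?_ v
    intro Q Q' h1 h2 h3 h4 h5
    exact (g5 Q Q' h1 h2 h3 h4 h5).2
  refine End_532.joint act hadd hone hmul hfaith φ g nu1 (fun u => nu2 u 1) K c lam rho lam2
    (fun k Q => rho2 k Q 1) BadT C0 ?_ ?_ ?_ hcp ?_ ?_ ?_ ?_ ?_ ?_ ?_ ?_ s
  · intro P v h
    have := (g1 P v h).1
    show P.length ≤ N1
    omega
  · intro P Q u b h1 h2
    exact g3 P Q u b h1 h2
  · -- completeness of gadget 1
    intro Y hY hbad u
    have hY' : q0 ≤ Y.length := hY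
    refine g4 Y (by omega) ?_ ?_ u
    · intro j hj
      apply hbad
      refine Or.inl ⟨q j, Finset.mem_image_of_mem _ (Finset.mem_univ j), ?_⟩
      exact_mod_cast hj
    · intro j hj1 hjm
      obtain ⟨i, rfl⟩ : ∃ i, j = i + 1 := ⟨j - 1, by omega⟩
      have hAle : Grid_899.Am Mq κ (i + 1) ≤ Y.length := by
        have := hAm (show i + 1 ≤ m + 1 by omega)
        omega
      set r := (Y.length - Grid_899.Am Mq κ (i + 1)) % Grid_899.G κ (i + 1) with hr
      have hdm := Nat.div_add_mod (Y.length - Grid_899.Am Mq κ (i + 1)) (Grid_899.G κ (i + 1))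
      have hrlt := Nat.mod_lt (Y.length - Grid_899.Am Mq κ (i + 1)) (hGpos (i + 1))
      rw [← hr] at hdm hrlt
      have hi1 : i + 1 - 1 = i := by omega
      rw [hi1]
      have hcast : ((Y.length : ℤ)) - Az (i + 1)
          = Gz (i + 1) * ((Y.length - Grid_899.Am Mq κ (i + 1)) / Grid_899.G κ (i + 1) : ℕ) + r := by
        show (Y.length : ℤ) - ((Grid_899.Am Mq κ (i + 1) : ℕ) : ℤ) = _
        rw [← Nat.cast_sub hAle]
        conv_lhs => rw [← hdm]
        push_cast
        rfl
      constructor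
      · by_contra hlt
        push Not at hlt
        apply hbad
        refine Or.inr ⟨i, by omega, -(r : ℤ), ?_, ?_⟩
        · rw [abs_neg, abs_of_nonneg (by positivity)]
          show (r : ℤ) ≤ ((Mq * Grid_899.G κ i : ℕ) : ℤ)
          exact_mod_cast hlt.le
        · rw [hcast]
          exact ⟨((Y.length - Grid_899.Am Mq κ (i + 1)) / Grid_899.G κ (i + 1) : ℕ), by ring⟩
      · by_contra hlt
        push Not at hlt
        apply hbad
        refine Or.inr ⟨i, by omega, Gz (i + 1) - r, ?_, ?_⟩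
        · have h1 : (r : ℤ) < Gz (i + 1) := by
            show (r : ℤ) < ((Grid_899.G κ (i + 1) : ℕ) : ℤ)
            exact_mod_cast hrlt
          rw [abs_of_pos (by linarith)]
          have h2 : Gz (i + 1) < (r : ℤ) + cz i := by
            show ((Grid_899.G κ (i + 1) : ℕ) : ℤ) < (r : ℤ) + ((Mq * Grid_899.G κ i : ℕ) : ℤ)
            exact_mod_cast hlt
          linarith
        · rw [hcast]
          exact ⟨((Y.length - Grid_899.Am Mq κ (i + 1)) / Grid_899.G κ (i + 1) : ℕ) + 1, by ring⟩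
  · -- exact gadget
    intro j hj P Q v u hP _ h1 h2
    have := e1 j hj P Q 1 v u hP h1 h2
    rw [this, mul_one]
    rfl
  · -- gap
    intro P Q hP hPQ hQ
    by_contra hlt
    push Not at hlt
    have hQ0 : 0 < Q.length := List.length_pos_iff.2 hQ
    have h1 := hsepW (P ++ Q) Q.length hPQ hQ0 hlt
    rw [List.length_append, Nat.add_sub_cancel, List.take_left] at h1
    exact h1 hP
  · -- ruler
    intro j j' l l' _ _ _ _ hj _ h1 h2
    exact ruler_sep (X := x) (N1 := N1) hx0 hj h1 h2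
  · -- thin
    intro τ hτ J hJ
    have hτ' : p0 + N1 + q0 ≤ τ + p0 := hτ
    have hT := hthin ((τ : ℤ) - p0)
    have hcle : (k + m : ℕ) = C0 := rfl
    refine le_trans ?_ (le_trans hT (by omega))
    have hJ' : ∀ j ∈ J, ∃ j', j' < K ∧ j' ≠ j ∧ BadT (τ + c j' - c j - p0) := fun j hj => (hJ j hj).2
    choose! w hw1 hw2 hw3 using hJ'
    refine Finset.card_le_card_of_injOn (fun j => (w j, j)) ?_ ?_
    · intro j hj
      have hjJ : j ∈ J := hj
      have hjK := (hJ j hjJ).1
      rw [Finset.mem_coe, Finset.mem_filter]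
      refine ⟨Finset.mem_product.2 ⟨Finset.mem_range.2 (hw1 j hjJ), Finset.mem_range.2 hjK⟩,
        hw2 j hjJ, ?_⟩
      have h3 := hw3 j hjJ
      have h4 : ((τ + c (w j) - c j - p0 : ℕ) : ℤ)
          = (τ : ℤ) - p0 + (x : ℤ) * 2 ^ (w j) - (x : ℤ) * 2 ^ j := by
        have h5 := hcp j hjK
        have h6 : c j ≤ τ + c (w j) := by omega
        have h7 : p0 ≤ τ + c (w j) - c j := by omega
        rw [Nat.cast_sub h7, Nat.cast_sub h6]
        simp only [hc]
        push_cast
        ring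
      have h8 : Thin963.BadT Ms m Gz cz Az ((τ + c (w j) - c j - p0 : ℕ) : ℤ) := h3
      rw [h4] at h8
      exact h8
    · intro a _ b _ hab
      exact (Prod.mk.inj hab).2
  · -- redundancy
    intro X0 v hX
    obtain ⟨I, h1, h2⟩ := e2 X0 1 v (fun j hj => by rw [hX]; exact hcp j hj)
    exact ⟨I, h1, h2⟩
  · show 0 < p0 + N1 + q0
    omega
  · -- fibres
    intro a b
    have h := Last_749.hfib (n := n) (S := Sw) hfew (p0 + N1 + q0) act φ
      (fun X => act (nu2 (X.take p0) 1) ((X.drop p0).map φ).prod + nu1 (X.drop p0))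
      (fun v => Last_749.reg_nu act φ p0 (fun u => nu2 u 1) nu1 hregnu v) a b
    refine h.congr fun w => ?_
    have hw : act (act a ((w.take p0).map φ).prod + nu2 (w.take p0) 1) ((w.drop p0).map φ).prod
          + nu1 (w.drop p0)
        = act a (w.map φ).prod + (act (nu2 (w.take p0) 1) ((w.drop p0).map φ).prod
          + nu1 (w.drop p0)) := by
      rw [hadd, ← hmul, ← List.prod_append, ← List.map_append, List.take_append_drop, add_assoc]
    constructor
    · rintro ⟨h1, h2⟩
      exact ⟨h1, by rw [← hw]; exact h2⟩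
    · rintro ⟨h1, h2⟩
      refine ⟨h1, ?_⟩
      show act (act a ((w.take p0).map φ).prod + nu2 (w.take p0) 1) ((w.drop p0).map φ).prod
          + nu1 (w.drop p0) = b
      rw [hw]; exact h2
  · -- tail
    intro t
    have h := Last_749.HL_rest (n := n) (S := Sw) hfew (p0 + N1 + q0) φ t
    exact (h.mono (by omega)).congr fun w => Iff.rfl

end Crest.Agent.R320.Fin382
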