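import Crest.Agent.R320.FinA_384
import Crest.Agent.R320.Grid_899
import Crest.Agent.R320.Thin_963
import Crest.Agent.R320.ExactR_237
import Crest.Agent.R320.LWallAll_922

/-! Row 320: constants and join (helper384): `fin`. -/

set_option autoImplicit false

namespace Crest.Agent.R320.Fin_384

open Crest.RegLang Crest.Agent.R320.Hk_851 Crest.Agent.R320.Sc2n_937
open Crest.Agent.R320.Blk467 Crest.Agent.R320.BddReg_746
open Crest.Agent.R320.Grid_899 (G Am)

theorem primes (K kk : ℕ) : ∃ q : Fin kk → ℕ,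
    (∀ j, (q j).Prime ∧ 2 ^ (K + 1) ≤ q j ∧ Odd (q j)) ∧
    Pairwise (fun i j => Nat.Coprime (q i) (q j)) := by
  have hge : ∀ n, n + 2 ≤ Nat.nth Nat.Prime n := fun n => Nat.add_two_le_nth_prime n
  have hpr : ∀ n, (Nat.nth Nat.Prime n).Prime := fun n => Nat.prime_nth_prime n
  refine ⟨fun j => Nat.nth Nat.Prime (2 ^ (K + 1) + j), fun j => ⟨hpr _, ?_, ?_⟩, ?_⟩
  · have := hge (2 ^ (K + 1) + j)
    show 2 ^ (K + 1) ≤ Nat.nth Nat.Prime (2 ^ (K + 1) + j)
    omega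
  · refine (hpr _).odd_of_ne_two ?_
    have := hge (2 ^ (K + 1) + j)
    have h2 : 0 < 2 ^ (K + 1) := by positivity
    omega
  · intro i j hij
    refine (Nat.coprime_primes (hpr _) (hpr _)).2 ?_
    intro h
    have := Nat.nth_injective Nat.infinite_setOfPred_prime h
    apply hij
    ext
    omega

theorem kappa (K M : ℕ) : ∃ κ, 0 < κ ∧ 2 ^ (K + 5) * M ≤ 2 ^ κ :=
  ⟨2 ^ (K + 5) * M + 1, Nat.succ_pos _, by
    have h := (Nat.lt_two_pow_self (n := 2 ^ (K + 5) * M + 1)).le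
    omega⟩

theorem sumG {κ : ℕ} (hκ : 0 < κ) (i : ℕ) :
    ∑ j ∈ Finset.range (i + 1), G κ j ≤ 2 * G κ i := by
  have hstep : ∀ i, 2 * G κ i ≤ G κ (i + 1) := by
    intro i
    show 2 * 2 ^ (κ * i) ≤ 2 ^ (κ * (i + 1))
    rw [Nat.mul_succ, pow_add, Nat.mul_comm]
    exact Nat.mul_le_mul_left _ (by
      calc 2 = 2 ^ 1 := rfl
        _ ≤ 2 ^ κ := Nat.pow_le_pow_right (by norm_num) hκ)
  induction i with
  | zero => simp; omega
  | succ i ih =>
    rw [Finset.sum_range_succ]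
    have := hstep i
    omega

theorem grow {K M κ : ℕ} (hκ : 0 < κ) (h : 2 ^ (K + 5) * M ≤ 2 ^ κ) (i : ℕ) :
    2 ^ (K + 4) * ∑ j ∈ Finset.range (i + 1), M * G κ j ≤ G κ (i + 1) := by
  rw [← Finset.mul_sum]
  calc 2 ^ (K + 4) * (M * ∑ j ∈ Finset.range (i + 1), G κ j)
      ≤ 2 ^ (K + 4) * (M * (2 * G κ i)) :=
        Nat.mul_le_mul_left _ (Nat.mul_le_mul_left _ (sumG hκ i))
    _ = (2 ^ (K + 5) * M) * G κ i := by ring
    _ ≤ 2 ^ κ * G κ i := Nat.mul_le_mul_right _ h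
    _ = G κ (i + 1) := by
        show 2 ^ κ * 2 ^ (κ * i) = 2 ^ (κ * (i + 1))
        rw [← pow_add]; congr 1; ring

/-- bad totals of the grid gadget -/
def Bd (Ms : Finset ℕ) (m M κ : ℕ) (T : ℤ) : Prop :=
  Thin963.BadT Ms m (fun i => (G κ i : ℤ)) (fun i => ((M * G κ i : ℕ) : ℤ))
    (fun i => (Am M κ i : ℤ)) T

theorem bd_per {Ms : Finset ℕ} {m M κ : ℕ} (hMs : ∀ q ∈ Ms, q ∣ M) {T T' : ℕ}
    (h : T ≡ T' [MOD M * G κ m]) (hb : Bd Ms m M κ T) : Bd Ms m M κ T' := by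
  have hd : ((M * G κ m : ℕ) : ℤ) ∣ (T' : ℤ) - T := (Nat.modEq_iff_dvd).1 h
  rcases hb with ⟨q, hq, h1⟩ | ⟨i, hi, e, he, h1⟩
  · left
    refine ⟨q, hq, ?_⟩
    have h2 : (q : ℤ) ∣ (T' : ℤ) - T :=
      (Int.natCast_dvd_natCast.2 ((hMs q hq).trans (dvd_mul_right _ _))).trans hd
    have := dvd_add h1 h2
    have e : (T : ℤ) + (T' - T) = T' := by ring
    rwa [e] at this
  · right
    refine ⟨i, hi, e, he, ?_⟩
    have h2 : ((G κ (i + 1) : ℕ) : ℤ) ∣ (T' : ℤ) - T := by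
      refine (Int.natCast_dvd_natCast.2 ?_).trans hd
      exact (Grid_899.G_dvd (κ := κ) (show i + 1 ≤ m by omega)).trans (dvd_mul_left _ _)
    have := dvd_add h1 h2
    have e' : (T : ℤ) - Am M κ (i + 1) + e + (T' - T) = T' - Am M κ (i + 1) + e := by ring
    rwa [e'] at this

theorem clean {kk : ℕ} {q : Fin kk → ℕ} {m M κ T : ℕ}
    (hT : 2 * Am M κ (m + 1) ≤ T)
    (hb : ¬ Bd (Finset.univ.image q) m M κ T) :
    (∀ j, ¬ q j ∣ T) ∧ ∀ j, 1 ≤ j → j ≤ m →
      M * G κ (j - 1) ≤ (T - Am M κ j) % G κ j ∧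
      (T - Am M κ j) % G κ j + M * G κ (j - 1) ≤ G κ j := by
  constructor
  · intro j hj
    exact hb (Or.inl ⟨q j, Finset.mem_image_of_mem q (Finset.mem_univ j),
      Int.natCast_dvd_natCast.2 hj⟩)
  · intro j h1 hm
    obtain ⟨i, rfl⟩ : ∃ i, j = i + 1 := ⟨j - 1, by omega⟩
    rw [Nat.add_sub_cancel]
    have hAm : Am M κ (i + 1) ≤ T := by
      have := Grid_899.Am_mono (Ms := M) (κ := κ) (show i + 1 ≤ m + 1 by omega)
      omega
    have hdm := Nat.div_add_mod (T - Am M κ (i + 1)) (G κ (i + 1))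
    have hlt := Nat.mod_lt (T - Am M κ (i + 1)) (Grid_899.G_pos (κ := κ) (i + 1))
    set r := (T - Am M κ (i + 1)) % G κ (i + 1) with hr
    set d := (T - Am M κ (i + 1)) / G κ (i + 1) with hd
    have hTe : (T : ℤ) - Am M κ (i + 1) = (G κ (i + 1) : ℤ) * d + r := by
      have : ((T - Am M κ (i + 1) : ℕ) : ℤ) = (G κ (i + 1) : ℤ) * d + r := by
        rw [← hdm]; push_cast; ring
      rw [← this]
      push_cast [Nat.cast_sub hAm]
      ring
    constructor
    · by_contra hlt1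
      push Not at hlt1
      apply hb
      right
      refine ⟨i, by omega, -(r : ℤ), ?_, ?_⟩
      · rw [abs_neg, abs_of_nonneg (by positivity)]
        show (r : ℤ) ≤ ((M * G κ i : ℕ) : ℤ)
        exact_mod_cast hlt1.le
      · show (G κ (i + 1) : ℤ) ∣ (T : ℤ) - Am M κ (i + 1) + -(r : ℤ)
        rw [hTe]
        exact ⟨d, by ring⟩
    · by_contra hlt1
      push Not at hlt1
      apply hb
      right
      refine ⟨i, by omega, (G κ (i + 1) : ℤ) - r, ?_, ?_⟩
      · rw [abs_of_nonneg (by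
          have : (r : ℤ) < G κ (i + 1) := by exact_mod_cast hlt
          linarith)]
        show (G κ (i + 1) : ℤ) - r ≤ ((M * G κ i : ℕ) : ℤ)
        have : (G κ (i + 1) : ℤ) < r + ((M * G κ i : ℕ) : ℤ) := by exact_mod_cast hlt1
        linarith
      · show (G κ (i + 1) : ℤ) ∣ (T : ℤ) - Am M κ (i + 1) + ((G κ (i + 1) : ℤ) - r)
        rw [hTe]
        exact ⟨d + 1, by ring⟩

theorem fin (α : Type) [Finite α] (S : Type) [Monoid S] [Finite S] (φ : α → S) (s : S) :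
    HL 3 ({w | (w.map φ).prod = s} : Language α) := by
  classical
  have : Fintype S := Fintype.ofFinite S
  obtain ⟨act, hadd, hone, hmul, hfaith⟩ := exists_module S
  obtain ⟨kk, m, H1⟩ := Grid_899.grid_gadget_reg S (S → ZMod 2) act
  obtain ⟨K, H2⟩ := ExactR_237.exact_gadget α S (S → ZMod 2) φ act (2 * (kk + m) + 2)
  obtain ⟨q, hq, hcop⟩ := primes K kk
  set M : ℕ := ∏ j, q j with hMdef
  have hMpos : 0 < M := Finset.prod_pos fun j _ => (hq j).1.pos
  obtain ⟨κ, hκ, hκM⟩ := kappa K M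
  obtain ⟨lam, rho, nu1, hlam, hrho, hsound, hcomp, hreg⟩ := H1 q (fun j => (hq j).2.2) hcop κ α
    (fun u => (u.map φ).prod) (fun u v => mp_append φ u v)
  let Ms : Finset ℕ := Finset.univ.image q
  have hMsM : ∀ x ∈ Ms, x ∣ M := by
    intro x hx
    obtain ⟨j, -, rfl⟩ := Finset.mem_image.1 hx
    exact Finset.dvd_prod_of_mem q (Finset.mem_univ j)
  have hMscard : Ms.card ≤ kk := by
    refine Finset.card_image_le.trans ?_
    simp
  set N1 : ℕ := Am M κ (m + 1) + 1 with hN1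
  obtain ⟨X, hX0, hXpos, hX⟩ := Thin963.thin K m Ms (fun i => (G κ i : ℤ))
    (fun i => ((M * G κ i : ℕ) : ℤ)) (fun i => (Am M κ i : ℤ))
    (by
      intro x hx
      obtain ⟨j, -, rfl⟩ := Finset.mem_image.1 hx
      exact ⟨(hq j).1, (hq j).2.1⟩)
    (by
      intro x hx
      obtain ⟨j, -, rfl⟩ := Finset.mem_image.1 hx
      refine Nat.isCoprime_iff_coprime.2 ?_
      show Nat.Coprime (q j) (2 ^ (κ * m))
      exact (Nat.Coprime.pow_right _ ((hq j).2.2.coprime_two_right)))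
    (by exact_mod_cast Grid_899.G_pos (κ := κ) m)
    (fun i j hij => by exact_mod_cast Grid_899.G_dvd (κ := κ) hij)
    (fun i => by
      have := Nat.mul_pos hMpos (Grid_899.G_pos (κ := κ) i)
      exact_mod_cast this)
    (fun i => by
      show (G κ i : ℤ) ∣ ((M * G κ i : ℕ) : ℤ)
      exact Int.natCast_dvd_natCast.2 (dvd_mul_left _ _))
    (fun i _ => by
      have := grow (K := K) hκ hκM i
      exact_mod_cast this)
    (2 * N1 + 1)
  obtain ⟨X, rfl⟩ := Int.eq_ofNat_of_zero_le hXpos.le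
  have hX0' : 2 * N1 + 1 ≤ X := by
    have : (2 * (N1 : ℤ) + 1) ≤ (X : ℤ) := hX0
    exact_mod_cast this
  let c : ℕ → ℕ := fun j => X * 2 ^ j
  have hcmono : ∀ i j, i < j → c i < c j := by
    intro i j hij
    exact Nat.mul_lt_mul_of_pos_left (Nat.pow_lt_pow_right (by norm_num) hij) (by omega)
  obtain ⟨lam2, rho2, nu2, h2s, h2c⟩ := H2 c (fun i j hij _ => hcmono i j hij)
  set p0 : ℕ := c K with hp0
  have hc : ∀ k, k < K → c k ≤ p0 := fun k hk => (hcmono k K hk).le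
  obtain ⟨n, G', B, Wo, hLW, hgap, -, -, hfree⟩ :=
    LWallAll_922.walls_all_left α (2 * p0 + 2 * N1 + 1) (by omega)
  let g : Geo α :=
    { Wo := Wo, n := n, z := p0 + N1 + (n + 2 * p0 + 2 * Am M κ (m + 1)), p0 := p0,
      q0 := n + 2 * p0 + 2 * Am M κ (m + 1), N1 := N1, loc := hLW.app, hz := rfl,
      hq := by omega, hN := by omega, hqp := by omega }
  have hAm : Am M κ m ≤ Am M κ (m + 1) := Grid_899.Am_mono (Nat.le_succ m)
  refine join act hadd hone hmul hfaith φ g hLW.len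
    (max B (2 * p0 + 2 * N1 + 1)) 2 ?_ lam rho nu1 (fun u => nu2 u 1)
    (fun T => Bd Ms m M κ T) (M * G κ m) (Am M κ (m + 1))
    (Nat.mul_pos hMpos (Grid_899.G_pos m))
    (fun T T' h => ⟨bd_per hMsM h, bd_per hMsM h.symm⟩)
    (fun u u' h1 h2 h3 h4 h5 => (hreg u u' h1 h2 h3 h5 h4).2)
    (fun P v h => by
      have h1 : P.length < Am M κ m := (hlam P v h).1
      show P.length ≤ N1
      omega)
    hsound ?_ K (kk + m) c lam2 (fun k Q => rho2 k Q 1) hc ?_ ?_ ?_ ?_ ?_ s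
  · -- walls
    intro u hu
    obtain ⟨a, x, b, k, ha, hx, hb, rfl⟩ := hfree u hu
    refine Language.mem_mul.2 ⟨a ++ pw x k, ⟨a, x, k, by omega, by omega, rfl⟩, b, ?_, rfl⟩
    refine Language.mem_mul.2 ⟨b, ⟨b, [], 0, by omega, by simp, by simp⟩, [], ?_, by simp⟩
    exact (Language.mem_one _).2 rfl
  · -- completeness
    intro u hu hb v
    have hul : 2 * Am M κ (m + 1) ≤ u.length := by
      have : p0 + N1 + (n + 2 * p0 + 2 * Am M κ (m + 1)) ≤ u.length + p0 := hu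
      omega
    obtain ⟨c1, c2⟩ := clean (q := q) hul hb
    exact hcomp u hul c1 c2 v
  · -- gap
    intro P Q hP hPQ hQ
    have hQl : 0 < Q.length := List.length_pos_of_ne_nil hQ
    have := hgap (P ++ Q) P.length (P ++ Q).length (by rw [List.length_append]; omega) le_rfl
      (by rw [List.take_left]; exact hP) (by rw [List.take_length]; exact hPQ)
    rw [List.length_append] at this
    show 2 * p0 + 2 * N1 < Q.length
    omega
  · -- spacing
    intro k k' l l' hk hk' hl hl' hkk hll h1 h2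
    have h1' : X * 2 ^ k + X * 2 ^ l' < X * 2 ^ l + X * 2 ^ k' + 2 * N1 := h1
    have h2' : X * 2 ^ l + X * 2 ^ k' < X * 2 ^ k + X * 2 ^ l' + 2 * N1 := h2
    have hz : (2:ℤ) ^ k - 2 ^ k' = 2 ^ l - 2 ^ l' := by
      by_contra hne
      have h1z : (X:ℤ) * 2 ^ k + X * 2 ^ l' < X * 2 ^ l + X * 2 ^ k' + 2 * N1 := by
        exact_mod_cast h1'
      have h2z : (X:ℤ) * 2 ^ l + X * 2 ^ k' < X * 2 ^ k + X * 2 ^ l' + 2 * N1 := by
        exact_mod_cast h2'
      have hXz : 2 * (N1:ℤ) + 1 ≤ X := by exact_mod_cast hX0'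
      set D : ℤ := ((2:ℤ) ^ k - 2 ^ k') - (2 ^ l - 2 ^ l') with hD
      have hD0 : D ≠ 0 := sub_ne_zero.2 hne
      have e1 : (X:ℤ) * D < 2 * N1 := by rw [hD]; linarith
      have e2 : -(2 * (N1:ℤ)) < X * D := by rw [hD]; linarith
      have hXp : (0:ℤ) < X := hXpos
      rcases lt_or_gt_of_ne hD0 with h | h
      · have : (X:ℤ) * D ≤ X * (-1) := mul_le_mul_of_nonneg_left (by linarith [Int.le_sub_one_of_lt h]) hXp.le
        linarith
      · have : (X:ℤ) * 1 ≤ X * D := mul_le_mul_of_nonneg_left (by linarith [Int.add_one_le_of_lt h]) hXp.le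
        linarith
    exact (G369.pow_diff hkk.symm hll.symm hz).1
  · -- thinness
    intro τ hτ J hJ
    have hτ' : p0 + N1 + (n + 2 * p0 + 2 * Am M κ (m + 1)) ≤ τ + p0 := hτ
    have hT := hX ((τ : ℤ) - p0)
    refine le_trans ?_ (hT.trans (Nat.add_le_add_right hMscard m))
    refine le_trans (Finset.card_le_card (t := Finset.image Prod.snd _) ?_) Finset.card_image_le
    intro k hk
    obtain ⟨hkK, k', hk'K, hne, hb⟩ := hJ k hk
    refine Finset.mem_image.2 ⟨(k', k), ?_, rfl⟩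
    refine Finset.mem_filter.2 ⟨Finset.mem_product.2 ⟨Finset.mem_range.2 hk'K,
      Finset.mem_range.2 hkK⟩, hne, ?_⟩
    have hck := hc k hkK
    have e : (((τ + c k' - c k - p0 : ℕ)) : ℤ) = (τ : ℤ) - p0 + X * 2 ^ k' - X * 2 ^ k := by
      have h1 : p0 ≤ τ + c k' - c k := by omega
      have h2 : c k ≤ τ + c k' := by omega
      rw [Nat.cast_sub h1, Nat.cast_sub h2]
      show ((τ + X * 2 ^ k' : ℕ) : ℤ) - ((X * 2 ^ k : ℕ) : ℤ) - p0 = _
      push_cast
      ring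
    have hb' : Bd Ms m M κ (((τ + c k' - c k - p0 : ℕ)) : ℤ) := hb
    rw [e] at hb'
    exact hb'
  · -- exact gadget: sound
    intro k hk P Q v u hP h1 h2
    have := h2s k hk P Q 1 v u hP h1 h2
    rw [mul_one] at this
    exact this
  · -- exact gadget: complete
    intro u v hu
    have hu' : u.length = p0 := hu
    obtain ⟨I, hI1, hI2⟩ := h2c u 1 v (fun k hk => by rw [hu']; exact hc k hk)
    exact ⟨I, hI1, hI2⟩

end Crest.Agent.R320.Fin_384
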