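import Mathlib

/-!
# Sp_509: the spoil leaf (lead #13673) for 852's digit gadget G1

ruler `c l = 2 ^ l * K0`, `K0 ≡ 1 mod M`, `K0 ≡ 4 M (1 + b + .. + b^(m-1)) mod b^m`.
At most `Ms.card + m` ordered pairs `i ≠ j` of ruler marks have `Bad (T + c j - c i)`.
-/

namespace Crest.Agent.R320.Sp_509

/-- the bad lengths of 852's gadget, on integers -/
def Bad (m M b : ℕ) (Ms : Finset ℕ) (n : ℤ) : Prop :=
  (∃ k ∈ Ms, (k : ℤ) ∣ n) ∨
    ∃ j < m, ¬ ((M : ℤ) ≤ n / (b : ℤ) ^ j % b ∧ n / (b : ℤ) ^ j % b + M + 1 ≤ b)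

/-- the bad lengths of 852's gadget, on naturals (lead's literal) -/
def BadN (m M b : ℕ) (Ms : Finset ℕ) (n : ℕ) : Prop :=
  (∃ k ∈ Ms, k ∣ n) ∨
    ∃ j < m, ¬ (M ≤ n / b ^ j % b ∧ n / b ^ j % b + M + 1 ≤ b)

theorem bad_cast (m M b : ℕ) (Ms : Finset ℕ) (n : ℕ) : Bad m M b Ms (n : ℤ) ↔ BadN m M b Ms n := by
  unfold Bad BadN
  constructor
  · rintro (⟨k, hk, h⟩ | ⟨j, hj, h⟩)
    · exact Or.inl ⟨k, hk, by exact_mod_cast h⟩
    · refine Or.inr ⟨j, hj, fun h' => h ?_⟩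
      constructor
      · exact_mod_cast h'.1
      · exact_mod_cast h'.2
  · rintro (⟨k, hk, h⟩ | ⟨j, hj, h⟩)
    · exact Or.inl ⟨k, hk, by exact_mod_cast h⟩
    · refine Or.inr ⟨j, hj, fun h' => h ?_⟩
      constructor
      · exact_mod_cast h'.1
      · exact_mod_cast h'.2

/-! ### powers of two -/

theorem pow_add_aux {a b c d : ℕ} (hab : a < b) (h : 2 ^ a + 2 ^ b = 2 ^ c + 2 ^ d) (hcd : c ≤ d) :
    a = c ∧ b = d := by
  obtain ⟨e, rfl⟩ := Nat.exists_eq_add_of_lt hab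
  have hac : a = c := by
    rcases lt_trichotomy a c with h1 | h1 | h1
    · exfalso
      obtain ⟨f, rfl⟩ := Nat.exists_eq_add_of_lt h1
      obtain ⟨g, rfl⟩ := Nat.exists_eq_add_of_le hcd
      have h2 : 2 ^ a * (1 + 2 * 2 ^ e) = 2 ^ a * (2 * (2 ^ f + 2 ^ (f + g))) := by
        have e1 : 2 ^ (a + e + 1) = 2 ^ a * (2 * 2 ^ e) := by rw [pow_succ, pow_add]; ring
        have e2 : 2 ^ (a + f + 1) = 2 ^ a * (2 * 2 ^ f) := by rw [pow_succ, pow_add]; ring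
        have e3 : 2 ^ (a + f + 1 + g) = 2 ^ a * (2 * 2 ^ (f + g)) := by
          rw [show a + f + 1 + g = a + (f + g) + 1 by ring, pow_succ, pow_add]; ring
        rw [e1, e2, e3] at h
        nlinarith [h]
      have h3 := Nat.eq_of_mul_eq_mul_left (by positivity) h2
      omega
    · exact h1
    · exfalso
      obtain ⟨f, rfl⟩ := Nat.exists_eq_add_of_lt h1
      rcases Nat.lt_or_ge c d with hd | hd
      · obtain ⟨g, rfl⟩ := Nat.exists_eq_add_of_lt hd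
        have h2 : 2 ^ c * (2 * (2 ^ f + 2 ^ (f + e + 1))) = 2 ^ c * (1 + 2 * 2 ^ g) := by
          have e1 : 2 ^ (c + f + 1) = 2 ^ c * (2 * 2 ^ f) := by rw [pow_succ, pow_add]; ring
          have e2 : 2 ^ (c + f + 1 + e + 1) = 2 ^ c * (2 * 2 ^ (f + e + 1)) := by
            rw [show c + f + 1 + e + 1 = c + (f + e + 1) + 1 by ring, pow_succ, pow_add]; ring
          have e3 : 2 ^ (c + g + 1) = 2 ^ c * (2 * 2 ^ g) := by rw [pow_succ, pow_add]; ring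
          rw [e1, e2, e3] at h
          nlinarith [h]
        have h3 := Nat.eq_of_mul_eq_mul_left (by positivity) h2
        omega
      · have : d = c := le_antisymm hd hcd
        subst this
        have h4 : 2 ^ d < 2 ^ (d + f + 1) := Nat.pow_lt_pow_right (by norm_num) (by omega)
        have h5 : 2 ^ d < 2 ^ (d + f + 1 + e + 1) := Nat.pow_lt_pow_right (by norm_num) (by omega)
        omega
  subst hac
  refine ⟨rfl, ?_⟩
  have h6 : 2 ^ (a + e + 1) = 2 ^ d := by omega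
  exact Nat.pow_right_injective (le_refl 2) h6

theorem golomb {i j i' j' : ℕ} (hij : i ≠ j) (hij' : i' ≠ j')
    (h : (2 : ℤ) ^ j - 2 ^ i = 2 ^ j' - 2 ^ i') : i = i' ∧ j = j' := by
  have h1 : 2 ^ j + 2 ^ i' = 2 ^ j' + 2 ^ i := by
    have : (2 : ℤ) ^ j + 2 ^ i' = 2 ^ j' + 2 ^ i := by linarith
    exact_mod_cast this
  rcases lt_trichotomy j i' with hji | hji | hji
  · rcases le_total j' i with hh | hh
    · obtain ⟨ha, hb⟩ := pow_add_aux hji h1 hh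
      exact ⟨hb.symm, ha⟩
    · have h2 : 2 ^ j + 2 ^ i' = 2 ^ i + 2 ^ j' := by omega
      obtain ⟨ha, hb⟩ := pow_add_aux hji h2 hh
      exact absurd ha.symm hij
  · subst hji
    rcases lt_trichotomy j' i with hh | hh | hh
    · obtain ⟨ha, hb⟩ := pow_add_aux hh h1.symm le_rfl
      exact absurd ha.symm hij'
    · subst hh
      have h3 : 2 ^ j = 2 ^ j' := by omega
      exact absurd (Nat.pow_right_injective (le_refl 2) h3) hij'
    · have h2 : 2 ^ i + 2 ^ j' = 2 ^ j + 2 ^ j := by omega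
      obtain ⟨ha, hb⟩ := pow_add_aux hh h2 le_rfl
      exact absurd ha hij
  · have h2 : 2 ^ i' + 2 ^ j = 2 ^ j' + 2 ^ i := by omega
    rcases le_total j' i with hh | hh
    · obtain ⟨ha, hb⟩ := pow_add_aux hji h2 hh
      exact absurd ha hij'
    · have h3 : 2 ^ i' + 2 ^ j = 2 ^ i + 2 ^ j' := by omega
      obtain ⟨ha, hb⟩ := pow_add_aux hji h3 hh
      exact ⟨ha.symm, hb⟩

theorem delta_bound {K i j : ℕ} (hi : i < K) (hj : j < K) :
    |(2 : ℤ) ^ j - 2 ^ i| < 2 ^ K := by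
  have h1 : (2 : ℤ) ^ i < 2 ^ K := pow_lt_pow_right₀ (by norm_num) hi
  have h2 : (2 : ℤ) ^ j < 2 ^ K := pow_lt_pow_right₀ (by norm_num) hj
  have h3 : (0 : ℤ) < 2 ^ i := by positivity
  have h4 : (0 : ℤ) < 2 ^ j := by positivity
  rw [abs_lt]; constructor <;> linarith

/-! ### digits -/

/-- a bad digit: `n` is near a multiple of `b^(j+1)`. -/
theorem near_of_bad {b M : ℕ} (hb : 0 < b) {n : ℤ} {j : ℕ}
    (h : ¬ ((M : ℤ) ≤ n / (b : ℤ) ^ j % b ∧ n / (b : ℤ) ^ j % b + M + 1 ≤ b)) :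
    ∃ H E : ℤ, n = (b : ℤ) ^ (j + 1) * H + E ∧ -(M * (b : ℤ) ^ j) ≤ E ∧ E < M * (b : ℤ) ^ j := by
  set B : ℤ := (b : ℤ) ^ j with hB
  have hB0 : 0 < B := by positivity
  have hb' : (0 : ℤ) < b := by exact_mod_cast hb
  set d := n / B with hd
  set r := n % B with hr
  have hn : n = B * d + r := by
    rw [hd, hr]; exact (Int.mul_ediv_add_emod n B).symm
  have hr0 : 0 ≤ r := Int.emod_nonneg _ hB0.ne'
  have hr1 : r < B := Int.emod_lt_of_pos _ hB0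
  set q := d % b with hq
  have hd2 : d = b * (d / b) + q := by rw [hq]; exact (Int.mul_ediv_add_emod d b).symm
  have hq0 : 0 ≤ q := Int.emod_nonneg _ hb'.ne'
  have hq1 : q < b := Int.emod_lt_of_pos _ hb'
  have hpow : (b : ℤ) ^ (j + 1) = B * b := by rw [pow_succ]
  by_cases h1 : (M : ℤ) ≤ q
  · have h2 : (b : ℤ) < q + M + 1 := by
      by_contra h3
      exact h ⟨h1, by linarith⟩
    refine ⟨d / b + 1, B * (q - b) + r, ?_, ?_, ?_⟩
    · rw [hpow]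
      calc n = B * d + r := hn
        _ = B * (b * (d / b) + q) + r := by rw [← hd2]
        _ = _ := by ring
    · nlinarith
    · have h4 : B * (q - b) + r < 0 := by
        have : q - b ≤ -1 := by linarith
        nlinarith
      have h5 : 0 ≤ (M : ℤ) * B := by positivity
      linarith
  · push Not at h1
    refine ⟨d / b, B * q + r, ?_, ?_, ?_⟩
    · rw [hpow]
      calc n = B * d + r := hn
        _ = B * (b * (d / b) + q) + r := by rw [← hd2]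
        _ = _ := by ring
    · have : 0 ≤ (M : ℤ) * B := by positivity
      nlinarith
    · have : q + 1 ≤ M := by linarith
      nlinarith

theorem geom_bound {b : ℕ} (j : ℕ) : ((b : ℤ) - 1) * ∑ i ∈ Finset.range j, (b : ℤ) ^ i
    = (b : ℤ) ^ j - 1 := by
  have := mul_geom_sum (b : ℤ) j
  exact this

/-- the core: `δ * K0` is not near a multiple of `b^(j+1)`. -/
theorem far {m M b : ℕ} {D : ℤ} (hM : 0 < M) (hD : 0 < D)
    (hb : 4 * (M : ℤ) * D + 2 * M + 2 ≤ b) {K0 : ℤ}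
    (hK : (b : ℤ) ^ m ∣ K0 - 4 * M * ∑ i ∈ Finset.range m, (b : ℤ) ^ i)
    {j : ℕ} (hj : j < m) {δ : ℤ} (hδ : δ ≠ 0) (hδD : |δ| ≤ D) {H E : ℤ}
    (h : δ * K0 = (b : ℤ) ^ (j + 1) * H + E)
    (hE : |E| < 2 * M * (b : ℤ) ^ j) : False := by
  have hM' : (0 : ℤ) < M := by exact_mod_cast hM
  have hbpos : (0 : ℤ) < b := by nlinarith
  have hBj : (0 : ℤ) < (b : ℤ) ^ j := by positivity
  -- split the geometric sum
  have hsum : (b : ℤ) ^ (j + 1) ∣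
      (∑ i ∈ Finset.range m, (b : ℤ) ^ i) - ∑ i ∈ Finset.range (j + 1), (b : ℤ) ^ i := by
    obtain ⟨t, rfl⟩ := Nat.exists_eq_add_of_le (Nat.succ_le_of_lt hj)
    rw [show j.succ + t = (j + 1) + t from rfl, Finset.sum_range_add]
    rw [add_sub_cancel_left]
    exact Finset.dvd_sum fun i _ => ⟨(b : ℤ) ^ i, by rw [pow_add]⟩
  have hKm : (b : ℤ) ^ (j + 1) ∣ K0 - 4 * M * ∑ i ∈ Finset.range m, (b : ℤ) ^ i :=
    (pow_dvd_pow _ (Nat.succ_le_of_lt hj)).trans hK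
  have h1 : (b : ℤ) ^ (j + 1) ∣ δ * (4 * M * ∑ i ∈ Finset.range (j + 1), (b : ℤ) ^ i) - E := by
    obtain ⟨x, hx⟩ := hsum
    obtain ⟨y, hy⟩ := hKm
    refine ⟨H - δ * y - δ * (4 * M) * x, ?_⟩
    have e1 : K0 = 4 * M * ∑ i ∈ Finset.range m, (b : ℤ) ^ i + (b : ℤ) ^ (j + 1) * y := by
      linarith
    have e2 : ∑ i ∈ Finset.range m, (b : ℤ) ^ i
        = ∑ i ∈ Finset.range (j + 1), (b : ℤ) ^ i + (b : ℤ) ^ (j + 1) * x := by linarith
    rw [e1, e2] at h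
    linear_combination h
  set G' : ℤ := ∑ i ∈ Finset.range j, (b : ℤ) ^ i with hG'
  have hG : ∑ i ∈ Finset.range (j + 1), (b : ℤ) ^ i = G' + (b : ℤ) ^ j := by
    rw [Finset.sum_range_succ]
  have hG0 : 0 ≤ G' := Finset.sum_nonneg fun i _ => by positivity
  have hGb : ((b : ℤ) - 1) * G' = (b : ℤ) ^ j - 1 := geom_bound j
  rw [hG] at h1
  -- absolute value of the main term
  set a : ℤ := |δ| with ha
  have ha1 : 1 ≤ a := Int.one_le_abs hδ
  have hsmall : 4 * M * a * G' < (b : ℤ) ^ j := by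
    have h2 : 4 * (M : ℤ) * a ≤ (b : ℤ) - 1 := by nlinarith
    calc 4 * M * a * G' ≤ ((b : ℤ) - 1) * G' := by nlinarith
      _ = (b : ℤ) ^ j - 1 := hGb
      _ < (b : ℤ) ^ j := by linarith
  have hmain : |δ * (4 * M * (G' + (b : ℤ) ^ j))| = 4 * M * a * G' + 4 * M * a * (b : ℤ) ^ j := by
    rw [abs_mul, abs_of_nonneg (show (0 : ℤ) ≤ 4 * M * (G' + (b : ℤ) ^ j) by positivity)]
    ring
  have hlow : 4 * M * (b : ℤ) ^ j ≤ |δ * (4 * M * (G' + (b : ℤ) ^ j))| := by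
    rw [hmain]
    have : 0 ≤ 4 * M * a * G' := by positivity
    nlinarith [mul_pos hM' hBj]
  have hhigh : |δ * (4 * M * (G' + (b : ℤ) ^ j))| + 2 * M * (b : ℤ) ^ j < (b : ℤ) ^ (j + 1) := by
    rw [hmain, pow_succ]
    have h3 : 4 * (M : ℤ) * a + 2 * M + 2 ≤ b := by nlinarith
    nlinarith
  set W := δ * (4 * M * (G' + (b : ℤ) ^ j)) with hW
  obtain ⟨z, hz⟩ := h1
  have hz0 : z ≠ 0 := by
    rintro rfl
    have : W = E := by linarith
    rw [this] at hlow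
    nlinarith [mul_pos hM' hBj]
  have habs : |W - E| < (b : ℤ) ^ (j + 1) := by
    have := abs_sub W E
    have h5 : |W - E| ≤ |W| + |E| := by
      simpa using (abs_sub W E)
    linarith
  rw [hz, abs_mul, abs_of_nonneg (show (0 : ℤ) ≤ (b : ℤ) ^ (j + 1) by positivity)] at habs
  have hz1 : 1 ≤ |z| := Int.one_le_abs hz0
  have : (0 : ℤ) < (b : ℤ) ^ (j + 1) := by positivity
  nlinarith

/-- existence of the step `K0` -/
theorem exists_K0 (m M b N : ℕ) (hM : 0 < M) (hb : 0 < b) (hco : Nat.Coprime b M) :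
    ∃ K0 : ℕ, N < K0 ∧ ((M : ℤ) ∣ (K0 : ℤ) - 1) ∧
      (b : ℤ) ^ m ∣ (K0 : ℤ) - 4 * M * ∑ i ∈ Finset.range m, (b : ℤ) ^ i := by
  have hco' : Nat.Coprime M (b ^ m) := (Nat.Coprime.pow_left m hco).symm
  obtain ⟨x, hx1, hx2⟩ := Nat.chineseRemainder hco' 1 (4 * M * ∑ i ∈ Finset.range m, b ^ i)
  refine ⟨x + M * b ^ m * (N + 1), ?_, ?_, ?_⟩
  · have : 0 < M * b ^ m := by positivity
    nlinarith
  · have h1 : (M : ℤ) ∣ (x : ℤ) - 1 := by
      have := (Nat.modEq_iff_dvd.1 hx1.symm)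
      simpa using this
    have h2 : ((x + M * b ^ m * (N + 1) : ℕ) : ℤ) - 1 = ((x : ℤ) - 1) + M * ((b : ℤ) ^ m * (N + 1)) := by
      push_cast; ring
    rw [h2]
    exact dvd_add h1 (Dvd.intro _ rfl)
  · have h1 : ((b ^ m : ℕ) : ℤ) ∣ (x : ℤ) - ((4 * M * ∑ i ∈ Finset.range m, b ^ i : ℕ) : ℤ) := by
      have := (Nat.modEq_iff_dvd.1 hx2.symm)
      exact this
    have h2 : ((x + M * b ^ m * (N + 1) : ℕ) : ℤ) - 4 * M * ∑ i ∈ Finset.range m, (b : ℤ) ^ i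
        = ((x : ℤ) - ((4 * M * ∑ i ∈ Finset.range m, b ^ i : ℕ) : ℤ)) + (b : ℤ) ^ m * (M * (N + 1)) := by
      push_cast; ring
    rw [h2]
    refine dvd_add ?_ (Dvd.intro _ rfl)
    exact_mod_cast h1

/-- **THE SPOIL LEAF.** -/
theorem spoil (m K : ℕ) (Ms : Finset ℕ) (M : ℕ) (hM : 0 < M)
    (hMs : ∀ k ∈ Ms, 4 ^ (K + 1) < k ∧ k ∣ M) (b : ℕ)
    (hb : 4 * M * 4 ^ (K + 1) + 2 * M + 2 ≤ b) (hco : Nat.Coprime b M) (N1 : ℕ) :
    ∃ c : ℕ → ℕ, StrictMono c ∧ N1 < c 0 ∧ (∀ i j, i < j → c i + 4 * N1 < c j) ∧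
      (∀ i j i' j', i ≠ j → i' ≠ j' → (i, j) ≠ (i', j') →
        4 * (N1 : ℤ) < |((c j : ℤ) - c i) - ((c j' : ℤ) - c i')|) ∧
      (∀ T : ℤ, ∀ P : Finset (ℕ × ℕ),
        (∀ p ∈ P, p.1 < K ∧ p.2 < K ∧ p.1 ≠ p.2 ∧ Bad m M b Ms (T + c p.2 - c p.1)) →
        P.card ≤ Ms.card + m) := by
  classical
  have hbpos : 0 < b := by omega
  obtain ⟨K0, hK0, hK1, hK2⟩ := exists_K0 m M b (4 * N1) hM hbpos hco
  have hK0' : (4 * (N1 : ℤ)) < K0 := by exact_mod_cast hK0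
  refine ⟨fun l => 2 ^ l * K0, ?_, ?_, ?_, ?_, ?_⟩
  · intro i j hij
    have : 2 ^ i < 2 ^ j := Nat.pow_lt_pow_right (by norm_num) hij
    exact Nat.mul_lt_mul_of_pos_right this (by omega)
  · simp; omega
  · intro i j hij
    have : 2 ^ i + 1 ≤ 2 ^ j := Nat.pow_lt_pow_right (by norm_num) hij
    have h2 : (2 ^ i + 1) * K0 ≤ 2 ^ j * K0 := Nat.mul_le_mul_right _ this
    simp only
    nlinarith
  · intro i j i' j' hij hij' hne
    have h1 : (2 : ℤ) ^ j - 2 ^ i ≠ 2 ^ j' - 2 ^ i' := by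
      intro h
      obtain ⟨ha, hb'⟩ := golomb hij hij' h
      exact hne (by rw [ha, hb'])
    have h2 : ((2 ^ j * K0 : ℕ) : ℤ) - ((2 ^ i * K0 : ℕ) : ℤ)
        - (((2 ^ j' * K0 : ℕ) : ℤ) - ((2 ^ i' * K0 : ℕ) : ℤ))
        = (((2 : ℤ) ^ j - 2 ^ i) - (2 ^ j' - 2 ^ i')) * K0 := by
      push_cast; ring
    simp only
    rw [h2, abs_mul, abs_of_nonneg (show (0 : ℤ) ≤ K0 by positivity)]
    have h3 : 1 ≤ |((2 : ℤ) ^ j - 2 ^ i) - (2 ^ j' - 2 ^ i')| := Int.one_le_abs (sub_ne_zero.2 h1)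
    nlinarith
  · intro T P hP
    -- the two kinds of badness
    have hKey : ∀ p ∈ P, (T + ((2 ^ p.2 * K0 : ℕ) : ℤ) - ((2 ^ p.1 * K0 : ℕ) : ℤ))
        = T + ((2 : ℤ) ^ p.2 - 2 ^ p.1) * K0 := by
      intro p _; push_cast; ring
    let Fk : ℕ → Finset (ℕ × ℕ) := fun k => P.filter (fun p =>
      (k : ℤ) ∣ T + ((2 : ℤ) ^ p.2 - 2 ^ p.1) * K0)
    let Fj : ℕ → Finset (ℕ × ℕ) := fun j => P.filter (fun p =>
      ¬ ((M : ℤ) ≤ (T + ((2 : ℤ) ^ p.2 - 2 ^ p.1) * K0) / (b : ℤ) ^ j % b ∧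
        (T + ((2 : ℤ) ^ p.2 - 2 ^ p.1) * K0) / (b : ℤ) ^ j % b + M + 1 ≤ b))
    have hcover : P ⊆ (Ms.biUnion Fk) ∪ ((Finset.range m).biUnion Fj) := by
      intro p hp
      obtain ⟨_, _, _, hbad⟩ := hP p hp
      simp only at hbad
      rw [hKey p hp] at hbad
      rcases hbad with ⟨k, hk, h⟩ | ⟨j, hj, h⟩
      · refine Finset.mem_union_left _ (Finset.mem_biUnion.2 ⟨k, hk, ?_⟩)
        exact Finset.mem_filter.2 ⟨hp, h⟩
      · refine Finset.mem_union_right _ (Finset.mem_biUnion.2 ⟨j, Finset.mem_range.2 hj, ?_⟩)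
        exact Finset.mem_filter.2 ⟨hp, h⟩
    have hdiff : ∀ p ∈ P, ∀ q ∈ P, p ≠ q →
        ((2 : ℤ) ^ p.2 - 2 ^ p.1) - (2 ^ q.2 - 2 ^ q.1) ≠ 0 ∧
        |((2 : ℤ) ^ p.2 - 2 ^ p.1) - (2 ^ q.2 - 2 ^ q.1)| < 4 ^ (K + 1) := by
      intro p hp q hq hpq
      obtain ⟨p1, p2, p3, _⟩ := hP p hp
      obtain ⟨q1, q2, q3, _⟩ := hP q hq
      constructor
      · intro h
        obtain ⟨ha, hb'⟩ := golomb p3 q3 (sub_eq_zero.1 h)
        exact hpq (Prod.ext ha hb')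
      · have h1 := delta_bound p1 p2
        have h2 := delta_bound q1 q2
        have h3 : |((2 : ℤ) ^ p.2 - 2 ^ p.1) - (2 ^ q.2 - 2 ^ q.1)|
            ≤ |(2 : ℤ) ^ p.2 - 2 ^ p.1| + |(2 : ℤ) ^ q.2 - 2 ^ q.1| := by
          simpa using abs_sub ((2 : ℤ) ^ p.2 - 2 ^ p.1) (2 ^ q.2 - 2 ^ q.1)
        have h4 : (2 : ℤ) ^ K + 2 ^ K ≤ 4 ^ (K + 1) := by
          have h5 : (2 : ℤ) ^ K ≤ 4 ^ K := pow_le_pow_left₀ (by norm_num) (by norm_num) K
          have h6 : (0 : ℤ) < 4 ^ K := by positivity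
          rw [pow_succ]; linarith
        linarith
    have hFk : ∀ k ∈ Ms, (Fk k).card ≤ 1 := by
      intro k hk
      rw [Finset.card_le_one]
      intro p hp q hq
      by_contra hpq
      obtain ⟨hpP, hp'⟩ := Finset.mem_filter.1 hp
      obtain ⟨hqP, hq'⟩ := Finset.mem_filter.1 hq
      obtain ⟨hd0, hd1⟩ := hdiff p hpP q hqP hpq
      set δ := ((2 : ℤ) ^ p.2 - 2 ^ p.1) - (2 ^ q.2 - 2 ^ q.1) with hδ
      have h1 : (k : ℤ) ∣ δ * K0 := by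
        have := dvd_sub hp' hq'
        have h2 : T + ((2 : ℤ) ^ p.2 - 2 ^ p.1) * K0 - (T + ((2 : ℤ) ^ q.2 - 2 ^ q.1) * K0)
            = δ * K0 := by rw [hδ]; ring
        rwa [h2] at this
      have hkM : (k : ℤ) ∣ (K0 : ℤ) - 1 :=
        (by exact_mod_cast (hMs k hk).2 : (k : ℤ) ∣ (M : ℤ)).trans hK1
      have h3 : (k : ℤ) ∣ δ := by
        have h4 : δ = δ * K0 - δ * ((K0 : ℤ) - 1) := by ring
        rw [h4]
        exact dvd_sub h1 (Dvd.dvd.mul_left hkM δ)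
      have h5 : (k : ℤ) ≤ |δ| := Int.le_of_dvd (abs_pos.2 hd0) ((dvd_abs _ _).2 h3)
      have h6 : (4 : ℤ) ^ (K + 1) < k := by exact_mod_cast (hMs k hk).1
      linarith
    have hFj : ∀ j ∈ Finset.range m, (Fj j).card ≤ 1 := by
      intro j hj
      rw [Finset.card_le_one]
      intro p hp q hq
      by_contra hpq
      obtain ⟨hpP, hp'⟩ := Finset.mem_filter.1 hp
      obtain ⟨hqP, hq'⟩ := Finset.mem_filter.1 hq
      obtain ⟨hd0, hd1⟩ := hdiff p hpP q hqP hpq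
      obtain ⟨H1, E1, e1, l1, u1⟩ := near_of_bad hbpos hp'
      obtain ⟨H2, E2, e2, l2, u2⟩ := near_of_bad hbpos hq'
      refine far (m := m) (M := M) (b := b) (D := 4 ^ (K + 1)) (K0 := K0) hM (by positivity)
        (by exact_mod_cast hb) hK2 (Finset.mem_range.1 hj) hd0 hd1.le (H := H1 - H2) (E := E1 - E2)
        ?_ ?_
      · linear_combination e1 - e2
      · rw [abs_lt]; constructor <;> linarith
    calc P.card ≤ ((Ms.biUnion Fk) ∪ ((Finset.range m).biUnion Fj)).card := Finset.card_le_card hcover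
      _ ≤ (Ms.biUnion Fk).card + ((Finset.range m).biUnion Fj).card := Finset.card_union_le _ _
      _ ≤ (∑ k ∈ Ms, (Fk k).card) + ∑ j ∈ Finset.range m, (Fj j).card :=
          add_le_add Finset.card_biUnion_le Finset.card_biUnion_le
      _ ≤ (∑ k ∈ Ms, 1) + ∑ j ∈ Finset.range m, 1 :=
          add_le_add (Finset.sum_le_sum hFk) (Finset.sum_le_sum hFj)
      _ = Ms.card + m := by simp

/-- **THE SPOIL LEAF, natural lengths** + the wall part (E). -/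
theorem spoilN (m K : ℕ) (Ms : Finset ℕ) (M : ℕ) (hM : 0 < M)
    (hMs : ∀ k ∈ Ms, 4 ^ (K + 1) < k ∧ k ∣ M) (b : ℕ)
    (hb : 4 * M * 4 ^ (K + 1) + 2 * M + 2 ≤ b) (hco : Nat.Coprime b M) (N1 : ℕ) :
    ∃ c : ℕ → ℕ, StrictMono c ∧ N1 < c 0 ∧ (∀ i j, i < j → c i + 4 * N1 < c j) ∧
      (∀ i j i' j', i ≠ j → i' ≠ j' → (i, j) ≠ (i', j') →
        4 * (N1 : ℤ) < |((c j : ℤ) - c i) - ((c j' : ℤ) - c i')|) ∧
      (∀ T : ℤ, ∀ P : Finset (ℕ × ℕ),
        (∀ p ∈ P, p.1 ≠ p.2 ∧ |T + c p.2 - c p.1| ≤ 2 * N1) → P.card ≤ 1) ∧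
      (∀ T : ℤ, ∀ P : Finset (ℕ × ℕ),
        (∀ p ∈ P, p.1 < K ∧ p.2 < K ∧ p.1 ≠ p.2 ∧
          ∃ n : ℕ, (n : ℤ) = T + c p.2 - c p.1 ∧ BadN m M b Ms n) →
        P.card ≤ Ms.card + m) := by
  obtain ⟨c, h1, h0, h2, h3, h4⟩ := spoil m K Ms M hM hMs b hb hco N1
  refine ⟨c, h1, h0, h2, h3, ?_, ?_⟩
  · intro T P hP
    rw [Finset.card_le_one]
    intro p hp q hq
    by_contra hpq
    obtain ⟨p1, p2⟩ := hP p hp
    obtain ⟨q1, q2⟩ := hP q hq
    have h := h3 p.1 p.2 q.1 q.2 p1 q1 (fun h => hpq (by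
      have e1 := congrArg Prod.fst h
      have e2 := congrArg Prod.snd h
      exact Prod.ext e1 e2))
    have e : ((c p.2 : ℤ) - c p.1) - ((c q.2 : ℤ) - c q.1)
        = (T + c p.2 - c p.1) - (T + c q.2 - c q.1) := by ring
    rw [e] at h
    have h5 : |(T + (c p.2 : ℤ) - c p.1) - (T + c q.2 - c q.1)|
        ≤ |T + (c p.2 : ℤ) - c p.1| + |T + (c q.2 : ℤ) - c q.1| := by
      simpa using abs_sub (T + (c p.2 : ℤ) - c p.1) (T + c q.2 - c q.1)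
    linarith
  · intro T P hP
    refine h4 T P fun p hp => ?_
    obtain ⟨a1, a2, a3, n, a4, a5⟩ := hP p hp
    refine ⟨a1, a2, a3, ?_⟩
    rw [← a4]
    exact (bad_cast m M b Ms n).2 a5

end Crest.Agent.R320.Sp_509
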