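import Crest.Agent.R320.Inst_385
import Crest.Agent.R320.G1_852
import Crest.Agent.R320.Sp_509
import Crest.Agent.R320.ExactR_237
import Crest.Agent.R320.WallU_228
import Crest.Agent.R320.P4N_211
import Crest.Agent.R320.Two_621
import Crest.Agent.R320.Univ_234

/-!
# Row 320: the final composition (helper385)

Inst_385 (C1, C2 over 110's top_sem) + G1_852.gadget + Sp_509.spoilN + ExactR_237.exact_gadget +
WallU_228.walls + P4N_211 (HL 1) + Univ_234.
-/

set_option autoImplicit false

namespace Crest.Agent.R320.Fin_385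

open Crest.Agent.R320.Hk_851 Crest.Agent.R320.Code110 Crest.Agent.R320.Inst_385
open Crest.Agent.R320.Two_621 (Tok act act_mul act_one act_add act_faithful)

theorem badN_congr {m M b : ℕ} {Ms : Finset ℕ} (hMs : ∀ k ∈ Ms, k ∣ M) {n n' : ℕ}
    (h : n % (M * b ^ m) = n' % (M * b ^ m)) :
    Sp_509.BadN m M b Ms n → Sp_509.BadN m M b Ms n' := by
  have hdig : ∀ j < m, n / b ^ j % b = n' / b ^ j % b := by
    intro j hj
    have hd : b ^ j * b ∣ M * b ^ m := by
      rw [← pow_succ]
      exact Dvd.dvd.mul_left (pow_dvd_pow b hj) M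
    have h1 : n % (b ^ j * b) = n' % (b ^ j * b) := by
      rw [← Nat.mod_mod_of_dvd n hd, h, Nat.mod_mod_of_dvd n' hd]
    rw [← Nat.mod_mul_right_div_self, ← Nat.mod_mul_right_div_self, h1]
  rintro (⟨k, hk, hkn⟩ | ⟨j, hj, hb⟩)
  · left
    refine ⟨k, hk, ?_⟩
    have hkM : k ∣ M * b ^ m := Dvd.dvd.mul_right (hMs k hk) _
    have h1 : n % k = n' % k := by
      rw [← Nat.mod_mod_of_dvd n hkM, h, Nat.mod_mod_of_dvd n' hkM]
    exact Nat.dvd_of_mod_eq_zero (h1 ▸ Nat.mod_eq_zero_of_dvd hkn)
  · right
    refine ⟨j, hj, ?_⟩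
    rw [← hdig j hj]
    exact hb

/-- two words with the same long prefix: equal or both long -/
theorem eq_or_long {α : Type} {K : ℕ} {X X' : List α} (h : X.take K = X'.take K) :
    X = X' ∨ (K ≤ X.length ∧ K ≤ X'.length) := by
  rcases le_or_gt K X.length with h1 | h1
  · right
    refine ⟨h1, ?_⟩
    have := congrArg List.length h
    rw [List.length_take, List.length_take] at this
    omega
  · left
    have h2 : X'.length < K := by
      have := congrArg List.length h
      rw [List.length_take, List.length_take] at this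
      omega
    rwa [List.take_of_length_le h1.le, List.take_of_length_le h2.le] at h

theorem take_le {α : Type} {K t : ℕ} {X X' : List α} (h : X.take K = X'.take K) (ht : t ≤ K) :
    X.take t = X'.take t := by
  have := congrArg (List.take t) h
  rwa [List.take_take, List.take_take, min_eq_left ht] at this

theorem row0 (α : Type) [Finite α] (S : Type) [Monoid S] [Finite S] (f : α → S) (s : S) :
    HL 3 ({w | (w.map f).prod = s} : Language α) := by
  classical
  have _ := Fintype.ofFinite S
  obtain ⟨m, r, hG⟩ := G1_852.gadget (S := S) (V := Tok S) (act (T := S))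
  obtain ⟨K, hK⟩ := ExactR_237.exact_gadget α S (Tok S) f (act (T := S)) (2 + 2 * (r + m))
  obtain ⟨Ms, M, hcard, hMs, hM, hb⟩ := hG (4 ^ (K + 1))
  obtain ⟨b, hbdef⟩ : ∃ b, b = M * (4 * 4 ^ (K + 1) + 4) + 1 := ⟨_, rfl⟩
  have hco : Nat.Coprime b M := by
    rw [hbdef]; simp
  have hb0 : 0 < b := by omega
  have hbb : 4 * M * 4 ^ (K + 1) + 2 * M + 2 ≤ b := by
    rw [hbdef]; nlinarith
  obtain ⟨lam, rho, nu, g1, g2, g3, g4⟩ := hb b hb0 hco α f
  obtain ⟨c, c1, c0, c2, c3, cE, cB⟩ := Sp_509.spoilN m K Ms M hM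
    (fun k hk => ⟨(hMs k hk).1, (hMs k hk).2.2⟩) b hbb hco (b ^ m)
  obtain ⟨n, Wo, w1, w2, w3, R, B, w4⟩ := WallU_228.walls (α := α) (2 * c K + 2 * b ^ m)
  obtain ⟨lam2, rho2, nu2, hex, hco2⟩ := hK c (fun i j hij _ => c1 hij)
  have hcK : ∀ k < K, c k ≤ c K := fun k hk => (c1 hk).le
  have hφ : ∀ u w : List α, ((u ++ w).map f).prod = (u.map f).prod * (w.map f).prod := by
    intro u w; simp
  let D : Dat α S (Tok S) :=
    { φ := fun w => (w.map f).prod
      hφ := hφ
      act := act
      hadd := act_add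
      hmul := fun v s t => (act_mul v s t).symm
      Wl := Wo
      n := n
      W := 2 * c K + 2 * b ^ m
      wloc := w1
      wgap := by
        intro P E hP hPE hE
        by_contra hlt
        push Not at hlt
        have h1 := w3 (P ++ E) E.length hPE (List.length_pos_iff.2 hE) hlt
        apply h1
        have h2 : (P ++ E).length - E.length = P.length := by rw [List.length_append]; omega
        rw [h2, List.take_left]
        exact hP
      z := 4 * c K + 2 * b ^ m + n + 1
      p0 := c K
      N1 := b ^ m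
      K := K
      c := c
      rB := r + m
      hc := hcK
      hz := le_rfl
      hW := le_rfl
      Bd := Sp_509.BadN m M b Ms
      Lam := fun v P => lam P = some v
      nu1 := nu
      nu2 := fun X => nu2 X 1
      lam := lam2
      hlen := fun v P h => g1 P v h
      hG := by
        intro Y hY hB v
        obtain ⟨P, Q, hPQ, hP, v', hQ⟩ := g3 Y (fun k hk hd => hB (Or.inl ⟨k, hk, hd⟩))
          (by
            intro j hj
            by_contra hcon
            apply hB
            right
            refine ⟨j, hj, fun hh => hcon ⟨hh.1, ?_⟩⟩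
            have := hh.2
            omega) v
        refine ⟨P, Q, hPQ, hP, ?_⟩
        intro v'' P'' hP''
        have e1 := g2 P'' Q v'' v' hP'' hQ
        have e2 := g2 P Q v v' hP hQ
        rw [← hPQ] at e2
        exact e1.symm.trans e2
      thin := by
        intro n0 hn0
        refine ⟨((Finset.range K ×ˢ Finset.range K).filter (fun p => p.1 ≠ p.2 ∧
          Sp_509.BadN m M b Ms (n0 + c p.2 - c p.1))).image Prod.fst, ?_, ?_⟩
        · refine Finset.card_image_le.trans ?_
          refine (cB (n0 : ℤ) _ ?_).trans (by omega)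
          intro p hp
          rw [Finset.mem_filter, Finset.mem_product, Finset.mem_range, Finset.mem_range] at hp
          refine ⟨hp.1.1, hp.1.2, hp.2.1, n0 + c p.2 - c p.1, ?_, hp.2.2⟩
          have := hcK _ hp.1.1
          rw [Nat.cast_sub (by omega)]
          push_cast
          ring
        · intro k hk k' hk' hne hB
          rw [Finset.mem_image]
          refine ⟨(k, k'), ?_, rfl⟩
          rw [Finset.mem_filter, Finset.mem_product, Finset.mem_range, Finset.mem_range]
          exact ⟨⟨hk, hk'⟩, hne.symm, hB⟩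
      res := by
        intro k₁ _ k₂ _ k₃ _ k₄ _ h12 h34 h
        by_contra hcon
        have h1 := c3 k₂ k₁ k₄ k₃ h12.symm h34.symm (by
          intro he
          rw [Prod.mk.injEq] at he
          exact hcon ⟨he.2, he.1⟩)
        have h2 : (0 : ℤ) ≤ ((b ^ m : ℕ) : ℤ) := Int.natCast_nonneg _
        linarith
      hE := by
        intro X v hX
        obtain ⟨I, hI, hI'⟩ := hco2 X 1 v (fun k hk => by rw [← hX]; exact hcK k hk)
        refine ⟨I, hI, ?_⟩
        intro k hk
        obtain ⟨hkK, hl, hr⟩ := hI' k hk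
        refine ⟨hkK, hl, ?_⟩
        obtain ⟨b0, hb0⟩ := Option.isSome_iff_exists.1 hr
        intro v' P' hP' hlP'
        have e1 := hex k hkK P' (X.drop (c k)) 1 v' b0 hP' hlP' hb0
        have hkl : (X.take (c k)).length = c k := by
          rw [List.length_take]
          have := hcK k hkK
          omega
        have e2 := hex k hkK (X.take (c k)) (X.drop (c k)) 1 v b0 hkl hl hb0
        rw [List.take_append_drop] at e2
        rw [mul_one] at e1 e2
        exact e1.symm.trans e2 }
  have hXXeq : ∀ X, X ∈ D.XX ↔ X ∈ P4N_211.XX Wo D.z := by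
    intro X
    constructor
    · rintro ⟨h1, h2, h3⟩
      exact ⟨h1, h2, fun t ht1 ht2 ht3 => h3 t ht1 ht2 ⟨ht2.le, ht3⟩⟩
    · rintro ⟨h1, h2, h3⟩
      exact ⟨h1, h2, fun t ht1 ht2 ht3 => h3 t ht1 ht2 ht3.2⟩
  have hMpos : 0 < M * b ^ m := Nat.mul_pos hM (pow_pos hb0 m)
  have H1 : HL 1 D.XX := by
    refine (P4N_211.hXT (z := D.z) (φ := D.φ) D.hφ w1 w2 w4 (fun _ : List α => ()) 0 1 one_pos
      (fun _ _ _ _ _ => rfl) ()).congr fun w => ?_
    rw [hXXeq]
    exact ⟨fun h => ⟨h, rfl⟩, fun h => h.1⟩
  have H2 : HL 1 D.Bad := by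
    refine (P4N_211.hXT (z := D.z) (φ := D.φ) D.hφ w1 w2 w4
      (fun X : List α => (D.Ebad X ∨ D.Bd (X.length - D.p0) : Prop)) (D.z + D.N1) (M * b ^ m) hMpos
      ?_ True).congr fun w => ?_
    · intro X X' h h' _
      rcases eq_or_long h with rfl | ⟨hl, hl'⟩
      · rfl
      have key : ∀ Y Y' : List α, Y.take (D.z + D.N1) = Y'.take (D.z + D.N1) →
          D.z + D.N1 ≤ Y.length → D.z + D.N1 ≤ Y'.length →
          Y.length % (M * b ^ m) = Y'.length % (M * b ^ m) →
          (D.Ebad Y ∨ D.Bd (Y.length - D.p0)) → (D.Ebad Y' ∨ D.Bd (Y'.length - D.p0)) := by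
        intro Y Y' e l l' hm hE
        rcases hE with ⟨t, t1, t2, t3⟩ | hB
        · left
          refine ⟨t, t1, t2, by omega, ?_⟩
          rw [← take_le e (by omega)]
          exact t3.2
        · right
          refine badN_congr (fun k hk => (hMs k hk).2.2) ?_ hB
          have hz := D.hz
          have e1 : Y.length ≡ Y'.length [MOD M * b ^ m] := hm
          have e2 : (Y.length - D.p0) + D.p0 ≡ (Y'.length - D.p0) + D.p0 [MOD M * b ^ m] := by
            rw [Nat.sub_add_cancel (by omega), Nat.sub_add_cancel (by omega)]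
            exact e1
          exact Nat.ModEq.add_right_cancel' _ e2
      exact propext ⟨key X X' h hl hl' h', key X' X h.symm hl' hl h'.symm⟩
    · constructor
      · rintro ⟨h1, h2⟩
        exact ⟨(hXXeq w).1 h1, eq_true h2⟩
      · rintro ⟨h1, h2⟩
        exact ⟨(hXXeq w).2 h1, of_eq_true h2⟩
  have H3 : ∀ x y, HL 1 (ZT D.XX D.T x y) := by
    intro x y
    refine (P4N_211.hXT' (z := D.z) (φ := D.φ) D.hφ w1 w2 w4 (fun X : List α => D.T X x)
      (D.p0 + b ^ m) (M * b ^ m) (D.p0 + b ^ m) hMpos ?_ y).congr fun w => ?_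
    · intro X X' h h' h''
      rcases eq_or_long h with rfl | ⟨hl, hl'⟩
      · rfl
      have e1 : X.take D.p0 = X'.take D.p0 := take_le h (by omega)
      have e2 : (X.drop D.p0).take (b ^ m) = (X'.drop D.p0).take (b ^ m) := by
        have := congrArg (List.drop D.p0) h
        rwa [List.drop_take, List.drop_take, Nat.add_sub_cancel_left] at this
      have e3 : (X.drop D.p0).drop (b ^ m) = X.drop (D.p0 + b ^ m) := by rw [List.drop_drop]
      have e3' : (X'.drop D.p0).drop (b ^ m) = X'.drop (D.p0 + b ^ m) := by rw [List.drop_drop]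
      have e4 : D.φ (X.drop D.p0) = D.φ (X'.drop D.p0) := by
        rw [← List.take_append_drop (b ^ m) (X.drop D.p0), D.hφ,
          ← List.take_append_drop (b ^ m) (X'.drop D.p0), D.hφ, e2, e3, e3']
        congr 1
      have e5 : D.nu1 (X.drop D.p0) = D.nu1 (X'.drop D.p0) := by
        refine (g4 _ _ e2 ?_ ?_).2
        · rw [e3, e3']; exact h''
        · rw [List.length_drop, List.length_drop]
          have e1 : X.length ≡ X'.length [MOD M * b ^ m] := h'
          have e2 : (X.length - D.p0) + D.p0 ≡ (X'.length - D.p0) + D.p0 [MOD M * b ^ m] := by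
            rw [Nat.sub_add_cancel (by omega), Nat.sub_add_cancel (by omega)]
            exact e1
          exact Nat.ModEq.add_right_cancel' _ e2
      show D.T X x = D.T X' x
      unfold Dat.T
      rw [e1, e4, e5]
    · constructor
      · rintro ⟨h1, h2⟩
        exact ⟨(hXXeq w).1 h1, h2⟩
      · rintro ⟨h1, h2⟩
        exact ⟨(hXXeq w).2 h1, h2⟩
  have H4 : ∀ s, HL 3 ({w | (∀ u ∈ D.XX, ¬ u <+: w) ∧ D.φ w = s} : Language α) := by
    intro s
    refine ((P4N_211.hNP (z := D.z) (φ := D.φ) D.hφ w1 w2 w4 s).mono (by norm_num)).congr fun w => ?_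
    constructor
    · rintro ⟨h1, h2⟩
      exact ⟨fun X hX => h1 X ((hXXeq X).2 hX), h2⟩
    · rintro ⟨h1, h2⟩
      exact ⟨fun X hX => h1 X ((hXXeq X).1 hX), h2⟩
  have F1 : ∀ v, {p | p ∈ D.L1 v}.Finite := by
    intro v
    refine (List.finite_length_le α (D.p0 + D.N1)).subset ?_
    rintro p ⟨h1, h2⟩
    have := D.hlen _ _ h2
    rw [List.length_drop] at this
    show p.length ≤ D.p0 + D.N1
    omega
  have F2 : ∀ v, {p | p ∈ D.L2 v}.Finite := by
    intro v
    refine (List.finite_length_le α D.p0).subset ?_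
    rintro p ⟨k, hk, h1, h2⟩
    show p.length ≤ D.p0
    rw [h1]
    exact D.hc k hk
  exact Top5_110.top_sem (φ := D.φ) (act := D.act) (T := D.T) (by simp [D]) D.hφ
    (fun v => act_one v) D.hmul (fun s t h => act_faithful h) D.pc D.bad_sub
    (fun u _ v v' => D.hT u v v') H1 H2 H3 H4 F1 F2 D.C1 D.C2 s

/-- **S0495** -/
theorem s0495 (α : Type*) [Finite α] (L : Language α) (hL : L.IsRegular) :
    ∃ e : Crest.RegLang.GRegExp α, e.height ≤ 3 ∧ e.lang = L :=
  Univ_234.of_type_monoid (fun A _ S _ _ φ s => row0 A S φ s) L hL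

end Crest.Agent.R320.Fin_385
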