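import Crest.Agent.R320.Top5_110
import Crest.Agent.R320.P4_933
import Crest.Agent.R320.Sc2n_937
import Crest.Agent.R320.WallU_228
import Crest.Agent.R320.ExactR_237
import Crest.Agent.R320.RegDep_10

/-!
# Row 320 (helper963): final assembly on all words from ONE gadget hypothesis `Gad1`

937 (both schemes, natural chain), 110 (`top_sem`), 933 (heights), 228 (walls), 237 (scheme 2).
-/

set_option autoImplicit false

namespace Crest.Agent.R320.Fin_963

open Crest.RegLang Crest.Agent.R320.Hk_851 Crest.Agent.R320.Code110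
  Crest.Agent.R320.BddReg_746 Crest.Agent.R320.Sc2n_937

/-- gadget 1, with its ruler -/
def Gad1 (S V : Type) [Monoid S] [AddCommGroup V] (act : V → S → V) : Prop :=
  ∃ C0 : ℕ, ∀ K : ℕ, ∃ (N1 La Per : ℕ) (c : ℕ → ℕ) (Bad : ℕ → Prop),
    0 < Per ∧ 0 < N1 ∧
    (∀ i j, i < j → j < K → c i < c j) ∧
    (∀ k k' l l', k < K → k' < K → l < K → l' < K → k' ≠ k → l' ≠ l →
      c k + c l' < c l + c k' + 2 * N1 → c l + c k' < c k + c l' + 2 * N1 → k = l) ∧
    (∀ T, (∀ k < K, c k ≤ T) → La ≤ T → ∀ F : Finset (ℕ × ℕ),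
      (∀ p ∈ F, p.1 < K ∧ p.2 < K ∧ p.1 ≠ p.2 ∧ Bad (T + c p.2 - c p.1)) → F.card ≤ C0) ∧
    (∀ T, La ≤ T → (Bad (T + Per) ↔ Bad T)) ∧
    ∀ (α : Type) (f : α → S), ∃ (lam rho : List α → Option V) (nu : List α → V),
      (∀ P Q v b, lam P = some v → rho Q = some b →
        b = act v ((P ++ Q).map f).prod + nu (P ++ Q)) ∧
      (∀ P v, lam P = some v → P.length ≤ N1) ∧
      (∀ Y, La ≤ Y.length → ¬ Bad Y.length → ∀ v, ∃ P Q, Y = P ++ Q ∧ lam P = some v ∧
        (rho Q).isSome) ∧
      (∀ u u' : List α, La ≤ u.length → La ≤ u'.length → u.take La = u'.take La →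
        ((u.drop La).map f).prod = ((u'.drop La).map f).prod →
        u.length % Per = u'.length % Per → nu u = nu u')

section

variable {α S : Type} [Monoid S]

theorem per_of {Bad : ℕ → Prop} {La Per : ℕ} (h : ∀ T, La ≤ T → (Bad (T + Per) ↔ Bad T))
    {a b : ℕ} (ha : La ≤ a) (hb : La ≤ b) (hab : a % Per = b % Per) : Bad a ↔ Bad b := by
  have key : ∀ k T, La ≤ T → (Bad (T + Per * k) ↔ Bad T) := by
    intro k
    induction k with
    | zero => intro T _; simp
    | succ k ih =>
      intro T hT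
      rw [Nat.mul_succ, ← add_assoc, h _ (by omega), ih T hT]
  have main : ∀ a b, La ≤ a → a ≤ b → a % Per = b % Per → (Bad a ↔ Bad b) := by
    intro a b ha hab' h
    have h1 : Per ∣ b - a := (Nat.modEq_iff_dvd' hab').1 h
    obtain ⟨k, hk⟩ := h1
    have : b = a + Per * k := by omega
    rw [this, key k a ha]
  rcases Nat.le_total a b with h1 | h1
  · exact main a b ha h1 hab
  · exact (main b a hb h1 hab.symm).symm

theorem pieces_mem_PN {R B : ℕ} {u : List α} (h : CompR_11.Pieces R B u) :
    u ∈ (PN B R : Language α) := by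
  obtain ⟨l, h1, h2, rfl⟩ := h
  induction R generalizing l with
  | zero =>
    have : l = [] := List.length_eq_zero_iff.1 (by omega)
    subst this
    exact rfl
  | succ R ih =>
    cases l with
    | nil => exact P4_933.nil_mem_PN B (R + 1)
    | cons t l =>
      refine Language.mem_mul.2 ⟨t.1 ++ pw t.2.1 t.2.2, ⟨t.1, t.2.1, t.2.2, ?_, ?_, rfl⟩,
        Pump_360.val l, ih l ?_ ?_, ?_⟩
      · exact (h2 t (List.mem_cons_self ..)).1
      · exact (h2 t (List.mem_cons_self ..)).2
      · simp only [List.length_cons] at h1; omega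
      · intro t' ht'
        exact h2 t' (List.mem_cons_of_mem _ ht')
      · rfl

/-! ### the concrete token space -/

def act (v : S → ZMod 2) (s : S) : S → ZMod 2 := fun x => v (s * x)

theorem act_add (a b : S → ZMod 2) (s : S) : act (a + b) s = act a s + act b s := rfl
theorem act_sub (a b : S → ZMod 2) (s : S) : act (a - b) s = act a s - act b s := rfl
theorem act_one (v : S → ZMod 2) : act v 1 = v := by funext x; simp [act]
theorem act_mul (v : S → ZMod 2) (s t : S) : act v (s * t) = act (act v s) t := by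
  funext x; simp [act, mul_assoc]
theorem act_faith (s t : S) (h : ∀ v : S → ZMod 2, act v s = act v t) : s = t := by
  classical
  have h1 := congrFun (h (fun x => if x = s then 1 else 0)) 1
  simp only [act, mul_one, if_true] at h1
  by_contra hne
  rw [if_neg (fun e => hne e.symm)] at h1
  exact one_ne_zero h1

theorem phi_app (f : α → S) (u w : List α) :
    ((u ++ w).map f).prod = (u.map f).prod * (w.map f).prod := by simp

theorem dep_take {u u' : List α} {A a : ℕ} (h : u.take A = u'.take A) (ha : a ≤ A) :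
    u.take a = u'.take a := by
  have := congrArg (fun l => l.take a) h
  simpa [List.take_take, Nat.min_eq_left ha] using this

theorem dep_drop {u u' : List α} {A a : ℕ} (h : u.take A = u'.take A) (ha : a ≤ A)
    (f : α → S) (hp : ((u.drop A).map f).prod = ((u'.drop A).map f).prod) :
    ((u.drop a).map f).prod = ((u'.drop a).map f).prod := by
  have e : ∀ w : List α, w.drop a = (w.take A).drop a ++ w.drop A := by
    intro w
    conv_lhs => rw [← List.take_append_drop A w]
    rw [List.drop_append]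
    rcases Nat.lt_or_ge w.length A with h1 | h1
    · rw [List.drop_of_length_le (l := w) (i := A) h1.le]; simp
    · have : a - (w.take A).length = 0 := by rw [List.length_take]; omega
      rw [this]; rfl
  rw [e u, e u', phi_app, phi_app, h, hp]

theorem main [Finite α] [Finite S] (f : α → S)
    (hG : Gad1 S (S → ZMod 2) act) (s : S) :
    HL 3 ({w | (w.map f).prod = s} : Language α) := by
  classical
  haveI : Fintype S := Fintype.ofFinite S
  obtain ⟨C0, hC0⟩ := hG
  obtain ⟨K, hK⟩ := ExactR_237.exact_gadget α S (S → ZMod 2) f act (2 * C0 + 2)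
  obtain ⟨N1, La, Per, c, Bad, hPer, hN1, hinc, hsid, hthin, hper, hg⟩ := hC0 K
  obtain ⟨lam, rho, nu, hs, hlen, hcomp, hnu⟩ := hg α f
  obtain ⟨lam2, rho2, nu2, hex2, hcomp2⟩ := hK c hinc
  obtain ⟨p0, hp0⟩ : ∃ p0 : ℕ, ∀ k, k < K → c k ≤ p0 :=
    ⟨∑ k ∈ Finset.range K, c k, fun k hk =>
      Finset.single_le_sum (f := c) (fun _ _ => Nat.zero_le _) (Finset.mem_range.2 hk)⟩
  obtain ⟨n, Wo, loc, len, gap, R, B, hfree⟩ := WallU_228.walls (α := α) (2 * p0 + 2 * N1)
  have hfree' : ∀ u : List α, (∀ t < u.length, ¬ Wo (u.take t)) → u ∈ (PN B R : Language α) :=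
    fun u hu => pieces_mem_PN (hfree u hu)
  obtain ⟨q0, hq0⟩ : ∃ q0, q0 = n + La + 2 * p0 := ⟨_, rfl⟩
  obtain ⟨z, hz⟩ : ∃ z, z = p0 + N1 + q0 := ⟨_, rfl⟩
  let g : Geo α := ⟨Wo, n, z, p0, q0, N1, loc, hz, by omega, hN1, by omega⟩
  let pre : List α → (S → ZMod 2) → (S → ZMod 2) := fun X v => act v (X.map f).prod + nu2 X 1
  let post : (S → ZMod 2) → List α → (S → ZMod 2) := fun v Y => act v (Y.map f).prod + nu Y
  let XX : Language α := {X | g.XX X}
  let BL : Language α := {X | g.XX X ∧ g.BadX Bad X}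
  let T : List α → (S → ZMod 2) → (S → ZMod 2) := fun X v => g.T pre post v X
  let L1 : (S → ZMod 2) → Language α := fun v => {P | g.LP1 pre lam v P}
  let L2 : (S → ZMod 2) → Language α := fun v => {P | Geo.LP2 K c lam2 v P}
  have hfinlen : ∀ N : ℕ, {P : List α | P.length ≤ N}.Finite := fun N =>
    List.finite_length_le α N
  -- heights
  have hreg : ∀ (A : ℕ) (F : List α → Prop),
      (∀ u u' : List α, A ≤ u.length → A ≤ u'.length → u.take A = u'.take A →
        ((u.drop A).map f).prod = ((u'.drop A).map f).prod →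
        u.length % Per = u'.length % Per → (F u → F u')) →
      Language.IsRegular ({u | F u} : Language α) := fun A F hF =>
    RegDep_10.regular_of_dep f A Per hPer ({u | F u} : Language α) hF
  have hXXe : ∀ X, g.XX X ↔ P4_933.XX Wo z X := fun X =>
    ⟨fun h => ⟨h.2.1, h.1, fun t h1 h2 => h.2.2 t h2 h1⟩,
      fun h => ⟨h.2.1, h.1, fun t h1 h2 => h.2.2 t h2 h1⟩⟩
  have hXf : ∀ (A : ℕ) (F : List α → Prop),
      (∀ u u' : List α, A ≤ u.length → A ≤ u'.length → u.take A = u'.take A →
        ((u.drop A).map f).prod = ((u'.drop A).map f).prod →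
        u.length % Per = u'.length % Per → (F u → F u')) →
      HL 1 ({X | g.XX X ∧ F X} : Language α) := by
    intro A F hF
    refine (P4_933.hl_XX (z := z) loc len hfree' (hreg A F hF)).congr fun w => ?_
    exact ⟨fun h => ⟨(hXXe w).1 h.1, h.2⟩, fun h => ⟨(hXXe w).2 h.1, h.2⟩⟩
  have H1 : HL 1 XX := by
    refine (hXf 0 (fun _ => True) (fun _ _ _ _ _ _ _ h => h)).congr fun w => ?_
    exact ⟨fun h => ⟨h, trivial⟩, fun h => h.1⟩
  have H2 : HL 1 BL := by
    refine hXf (z + N1 + p0 + La) (g.BadX Bad) ?_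
    intro u u' h1 h2 h3 h4 h5 h
    rcases h with ⟨t, ht, hw, a1, a2⟩ | h
    · left
      change z ≤ t + N1 at a1
      change t < z + N1 at a2
      refine ⟨t, by omega, ?_, a1, a2⟩
      rw [← dep_take h3 (a := t) (by omega)]
      exact hw
    · right
      change Bad (u.length - p0) at h
      change Bad (u'.length - p0)
      refine (per_of hper (by omega) (by omega) ?_).1 h
      have h6 : u.length ≡ u'.length [MOD Per] := h5
      have h7 : (u.length - p0) + p0 ≡ (u'.length - p0) + p0 [MOD Per] := by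
        rw [Nat.sub_add_cancel (by omega), Nat.sub_add_cancel (by omega)]
        exact h6
      exact Nat.ModEq.add_right_cancel' p0 h7
  have H3 : ∀ x y, HL 1 (ZT XX T x y) := by
    intro x y
    refine hXf (p0 + La) (fun X => T X x = y) ?_
    intro u u' h1 h2 h3 h4 h5 h
    rw [← h]
    change post (pre (u'.take p0) x) (u'.drop p0) = post (pre (u.take p0) x) (u.drop p0)
    rw [dep_take h3 (a := p0) (by omega)]
    simp only [post]
    have e1 := dep_drop h3 (a := p0) (by omega) f h4
    have e2 : nu (u.drop p0) = nu (u'.drop p0) := by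
      refine hnu _ _ ?_ ?_ ?_ ?_ ?_
      · rw [List.length_drop]; omega
      · rw [List.length_drop]; omega
      · have := congrArg (fun l => l.drop p0) h3
        simpa [List.drop_take] using this
      · rw [List.drop_drop, List.drop_drop]; exact h4
      · rw [List.length_drop, List.length_drop]
        have h6 : u.length ≡ u'.length [MOD Per] := h5
        have h7 : (u.length - p0) + p0 ≡ (u'.length - p0) + p0 [MOD Per] := by
          rw [Nat.sub_add_cancel (by omega), Nat.sub_add_cancel (by omega)]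
          exact h6
        exact Nat.ModEq.add_right_cancel' p0 h7
    rw [e1, e2]
  have H4 : ∀ s : S, HL 3 ({w | (∀ u ∈ XX, ¬ u <+: w) ∧ (w.map f).prod = s} : Language α) := by
    intro s
    have hr := hreg 0 (fun w => (w.map f).prod = s) (by
      intro u u' _ _ _ h4 _ h
      simp only [List.drop_zero] at h4
      rw [← h4]; exact h)
    refine ((P4_933.hl_NB (z := z) loc len hfree' hr).mono (by norm_num)).congr fun w => ?_
    constructor
    · rintro ⟨h1, h2⟩
      refine ⟨(P4_933.NB_iff Wo z w).2 fun P hP hX => h1 P ((hXXe P).2 hX) hP, h2⟩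
    · rintro ⟨h1, h2⟩
      exact ⟨fun P hX hP => (P4_933.NB_iff Wo z w).1 h1 P hP ((hXXe P).1 hX), h2⟩
  have hPC : PC XX := by
    refine ⟨fun h => ?_, fun u hu v hv h => ?_⟩
    · have h1 : z ≤ 0 := h.1
      omega
    · obtain ⟨t, ht⟩ := h
      exact g.prefix_code (R := t) (R' := []) hu hv (by rw [ht, List.append_nil])
  refine Top5_110.top_sem (φ := fun w : List α => (w.map f).prod) (act := act) (XX := XX)
    (Bad := BL) (T := T) (N1 := 0) (N2 := 1) (L1 := L1) (L2 := L2) (by simp)
    (fun u w => phi_app f u w) act_one act_mul act_faith hPC (fun u hu => hu.1) ?_ H1 H2 H3 H4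
    ?_ ?_ ?_ ?_ s
  · -- hT
    intro u hu v v'
    change (act (act v ((u.take p0).map f).prod + nu2 (u.take p0) 1) ((u.drop p0).map f).prod
      + nu (u.drop p0)) - (act (act v' ((u.take p0).map f).prod + nu2 (u.take p0) 1)
        ((u.drop p0).map f).prod + nu (u.drop p0)) = act (v - v') (u.map f).prod
    rw [act_add, act_add, ← act_mul, ← act_mul, ← phi_app, List.take_append_drop, act_sub]
    abel
  · -- F1
    intro v
    refine (hfinlen (p0 + N1)).subset fun P hP => ?_
    obtain ⟨h1, h2⟩ := hP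
    have := hlen _ _ h2
    rw [List.length_drop] at this
    show P.length ≤ p0 + N1
    change P.length - p0 ≤ N1 at this
    omega
  · -- F2
    intro v
    refine (hfinlen p0).subset fun P hP => ?_
    obtain ⟨k, hk, h1, h2⟩ := hP
    show P.length ≤ p0
    rw [h1]; exact hp0 k hk
  · -- C1
    intro u hu hb x t ht
    have ht0 : t = [] := ht
    subst ht0
    have hbx : ¬ g.BadX Bad u := fun h => hb ⟨hu, h⟩
    have hE : ¬ g.E u := fun h => hbx (Or.inl h)
    have hB : ¬ Bad (u.length - p0) := fun h => hbx (Or.inr h)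
    have huz : z ≤ u.length := hu.1
    obtain ⟨P, Q, b, h1, h2, h3⟩ := g.complete1 pre (lam := lam) (rho := rho) hlen hu hE
      (fun v => hcomp (u.drop p0) (by rw [List.length_drop]; omega)
        (by rw [List.length_drop]; exact hB) v) x
    refine ⟨P, Q, b, by rw [List.append_nil]; exact h1, h2, ?_⟩
    intro x' P' hP'
    left
    obtain ⟨h4, h5⟩ := g.sound1 pre post (lam := lam) (rho := rho) hlen hs hP' h3
    exact ⟨b, Language.mem_mul.2 ⟨P' ++ Q, ⟨h4, h5⟩, [], ⟨rfl, rfl⟩, by simp⟩⟩
  · -- C2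
    intro u hu x t ht
    have ht1 : t ∈ BL := by
      have : t ∈ BL ^ 1 := ht
      rwa [pow_one] at this
    obtain ⟨huX, huB⟩ := hu
    obtain ⟨htX, htB⟩ := ht1
    have huz : z ≤ u.length := huX.1
    have hI := hcomp2 (u.take p0) 1 x (fun k hk => by
      rw [List.length_take]; have := hp0 k hk; omega)
    obtain ⟨I, hI1, hI2⟩ := hI
    have hthin' : ∀ τ, g.z ≤ τ + g.p0 → ∀ J : Finset ℕ, (∀ k ∈ J, k < K ∧
        ∃ k', k' < K ∧ k' ≠ k ∧ Bad (τ + c k' - c k - g.p0)) → J.card ≤ C0 := by
      intro τ hτ J hJ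
      change z ≤ τ + p0 at hτ
      choose! k' hk' using fun k (hk : k ∈ J) => (hJ k hk).2
      have h1 := hthin (τ - p0) (fun k hk => by have := hp0 k hk; omega) (by omega)
        (J.image fun k => (k, k' k)) (by
          intro p hp
          obtain ⟨k, hk, rfl⟩ := Finset.mem_image.1 hp
          obtain ⟨a1, a2, a3⟩ := hk' k hk
          have hkK := (hJ k hk).1
          refine ⟨hkK, a1, fun e => a2 e.symm, ?_⟩
          have b1 := hp0 k hkK
          have b2 := hp0 _ a1
          change Bad (τ + c (k' k) - c k - p0) at a3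
          have : τ - p0 + c (k' k) - c k = τ + c (k' k) - c k - p0 := by omega
          show Bad (τ - p0 + c (k' k) - c k)
          rw [this]; exact a3)
      rwa [Finset.card_image_of_injective _ (fun a b h => (Prod.mk.inj h).1)] at h1
    have hgap : ∀ P Q : List α, g.Wo P → g.Wo (P ++ Q) → Q ≠ [] →
        2 * g.p0 + 2 * g.N1 < Q.length := by
      intro P Q h1 h2 h3
      by_contra h4
      have hQ : 0 < Q.length := List.length_pos_iff.2 h3
      refine gap (P ++ Q) Q.length h2 hQ (not_lt.1 h4) ?_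
      rw [List.length_append, Nat.add_sub_cancel, List.take_left]
      exact h1
    obtain ⟨P, Q, b, h1, h2, h3⟩ := g.complete2 pre post (BadT := Bad) (K := K) (c := c)
      (lam2 := lam2) (rho2 := fun k Q => rho2 k Q 1) (C0 := C0) hp0 hgap hsid hthin' huX htX x
      ⟨I, hI1, fun k hk => by
        obtain ⟨a1, a2, a3⟩ := hI2 k hk
        refine ⟨a1, ?_, a3⟩
        rw [List.take_take, Nat.min_eq_left (hp0 k a1)] at a2
        exact a2⟩
    refine ⟨P, Q, b, h1.symm, h2, ?_⟩
    intro x' P' hP'
    -- exactness of the inner gadget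
    have hex : ∀ k, k < K → ∀ P Q v u, P.length = c k → Q.length = g.p0 - c k →
        lam2 k P = some v → rho2 k Q 1 = some u → u = pre (P ++ Q) v := by
      intro k hk P Q v u h1 _ h2 h3
      have := hex2 k hk P Q 1 v u h1 h2 h3
      rw [mul_one] at this
      exact this
    -- the first block of `P' ++ Q`
    have hfirst : ∃ X R', g.XX X ∧ P' ++ Q = X ++ R' := by
      obtain ⟨k0, hk0, hPl, hl⟩ := hP'
      obtain ⟨k, hk, l, hend, hgood, -⟩ := h3
      have hck := hp0 k0 hk0
      have : ∃ l, g.CEnd Q (c k0) l := by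
        by_cases he : k0 = k
        · subst he; exact ⟨l, hend⟩
        · obtain ⟨l', h', -⟩ := hgood k0 hk0 he
          exact ⟨l', h'⟩
      obtain ⟨l', hl'⟩ := this
      refine ⟨P' ++ Q.take l', Q.drop l', ?_, ?_⟩
      · refine g.xx_of_cend ?_ ?_
        · rw [hPl]; exact hck
        · rw [hPl]; exact hl'
      · rw [List.append_assoc, List.take_append_drop]
    obtain ⟨X, R', hX, hXe⟩ := hfirst
    by_cases hXB : g.BadX Bad X
    · obtain ⟨X2, hX2, e1, e2⟩ := g.sound2 pre post (BadT := Bad) (K := K) (c := c)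
        (lam2 := lam2) (rho2 := fun k Q => rho2 k Q 1) hp0 hex hX hXB hP' h3 (R := [])
        (R' := R') (by rw [List.append_nil]; exact hXe)
      by_cases hX2B : g.BadX Bad X2
      · left
        refine ⟨T X x', Language.mem_mul.2 ⟨X, ⟨⟨hX, hXB⟩, rfl⟩, X2,
          ⟨b, Language.mem_mul.2 ⟨X2, ⟨⟨hX2, hX2B⟩, e2⟩, [], ⟨rfl, rfl⟩, by simp⟩⟩, e1.symm⟩⟩
      · right
        refine Or.inr (Language.mem_mul.2 ⟨X, hX, X2, ⟨X2, hX2, fun h => hX2B h.2,
          List.prefix_refl _⟩, e1.symm⟩)
    · right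
      exact Or.inl ⟨X, hX, fun h => hXB h.2, ⟨R', hXe.symm⟩⟩

end

end Crest.Agent.R320.Fin_963
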