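import Crest.Agent.R320.GadF_400
import Crest.Agent.R320.Fin_963
import Crest.Agent.R320.Fin_869

/-!
# Row 320: the end (helper400): 963's joint + `GadF_400.gad1` + 869's universe transfer
-/

set_option autoImplicit false

namespace Crest.Agent.R320.Fin_400

open Crest.RegLang Crest.Agent.R320.Hk_851

universe u

theorem value (α : Type) [Finite α] (S : Type) [Monoid S] [Finite S] (f : α → S) (s : S) :
    HL 3 ({w | (w.map f).prod = s} : Language α) :=
  Fin_963.main f (GadF_400.gad1 S (S → ZMod 2) _) s

theorem final (α : Type u) [Finite α] (L : Language α) (hL : L.IsRegular) :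
    ∃ e : GRegExp α, e.height ≤ 3 ∧ e.lang = L :=
  Fin_869.of_values (fun n S _ _ f s => value (Fin n) S f s) α L hL

end Crest.Agent.R320.Fin_400
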