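import Crest.Agent.R320.Grid_899
import Crest.Agent.R320.Thin_963

/-!
# Row 320: the grid gadget of scheme 1 with primes, grids, ruler and thinness chosen (helper401)

Over helper899's `grid_gadget_reg` and helper963's `thin`.  `nu` is replaced by a finite-state copy
(equal to `nu` on the words which have some legal cut, `0` elsewhere).
-/

set_option autoImplicit false

namespace Crest.Agent.R320.GadW_401

open Finset Crest.Agent.R320.Grid_899

theorem sum_G (κ : ℕ) (hκ : 1 ≤ κ) (i : ℕ) : ∑ j ∈ range (i + 1), G κ j ≤ 2 * G κ i := by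
  have h2 : ∀ j, 2 * G κ j ≤ G κ (j + 1) := by
    intro j
    unfold G
    calc 2 * 2 ^ (κ * j) = 2 ^ (κ * j + 1) := by rw [pow_succ]; ring
      _ ≤ 2 ^ (κ * (j + 1)) := Nat.pow_le_pow_right (by norm_num) (by rw [Nat.mul_succ]; omega)
  induction i with
  | zero => simp; omega
  | succ i ih =>
    rw [sum_range_succ]
    have := h2 i
    omega

theorem growth (K Ms i : ℕ) :
    2 ^ (K + 4) * ∑ j ∈ range (i + 1), Ms * G (K + 5 + Ms) j ≤ G (K + 5 + Ms) (i + 1) := by
  rw [← mul_sum]
  have h1 := sum_G (K + 5 + Ms) (by omega) i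
  have h2 : Ms ≤ 2 ^ Ms := (Nat.lt_two_pow_self).le
  calc 2 ^ (K + 4) * (Ms * ∑ j ∈ range (i + 1), G (K + 5 + Ms) j)
      ≤ 2 ^ (K + 4) * (2 ^ Ms * (2 * G (K + 5 + Ms) i)) := by gcongr
    _ = G (K + 5 + Ms) (i + 1) := by unfold G; rw [Nat.mul_succ]; ring

theorem exists_primes (k B : ℕ) : ∃ q : Fin k → ℕ, (∀ j, (q j).Prime) ∧ (∀ j, B ≤ q j) ∧
    (∀ j, Odd (q j)) ∧ Pairwise (fun i j => Nat.Coprime (q i) (q j)) := by
  have hmono := Nat.nth_strictMono Nat.infinite_setOfPred_prime
  have hle : ∀ n, n ≤ Nat.nth Nat.Prime n := fun n => hmono.le_apply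
  refine ⟨fun j => Nat.nth Nat.Prime (B + 3 + j), fun j => Nat.prime_nth_prime _, ?_, ?_, ?_⟩
  · intro j
    have := hle (B + 3 + j)
    show B ≤ Nat.nth Nat.Prime (B + 3 + j)
    omega
  · intro j
    refine (Nat.prime_nth_prime _).odd_of_ne_two ?_
    have := hle (B + 3 + j)
    omega
  · intro i j hij
    refine (Nat.coprime_primes (Nat.prime_nth_prime _) (Nat.prime_nth_prime _)).2 ?_
    intro h
    have h3 := hmono.injective h
    apply hij
    ext
    omega

theorem gad (S V : Type) [Monoid S] [Finite S] [AddCommGroup V] [Finite V] (act : V → S → V) :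
    ∃ C0 : ℕ, ∀ K : ℕ, ∃ (N1 A1 M0 X : ℕ) (BadT : ℕ → Prop), 0 < N1 ∧ 0 < M0 ∧ 2 * N1 < X ∧
      (∀ T T' : ℕ, T % M0 = T' % M0 → (BadT T ↔ BadT T')) ∧
      (∀ T : ℕ, X * 2 ^ K ≤ T → ∀ P : Finset (ℕ × ℕ), (∀ p ∈ P, p.1 < K ∧ p.2 < K ∧ p.1 ≠ p.2 ∧
        BadT (T + X * 2 ^ p.1 - X * 2 ^ p.2)) → P.card ≤ C0) ∧
      ∀ (α : Type) (phi : List α → S), (∀ u v, phi (u ++ v) = phi u * phi v) →
      ∃ (lam rho : List α → Option V) (nu : List α → V),
        (∀ P v, lam P = some v → P.length ≤ N1) ∧
        (∀ P Q v b, lam P = some v → rho Q = some b → b = act v (phi (P ++ Q)) + nu (P ++ Q)) ∧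
        (∀ u : List α, A1 ≤ u.length → ¬ BadT u.length →
          ∀ v, ∃ P Q, u = P ++ Q ∧ lam P = some v ∧ (rho Q).isSome) ∧
        (∀ u u' : List α, A1 ≤ u.length → A1 ≤ u'.length → u.take A1 = u'.take A1 →
          phi (u.drop A1) = phi (u'.drop A1) → u.length % M0 = u'.length % M0 →
          nu u = nu u') := by
  classical
  obtain ⟨k, m, H⟩ := grid_gadget_reg S V act
  refine ⟨k + m, fun K => ?_⟩
  obtain ⟨q, hqp, hqB, hqo, hqc⟩ := exists_primes k (2 ^ (K + 1))
  set Ms := ∏ j, q j with hMs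
  have hMpos : 0 < Ms := Finset.prod_pos fun j _ => (hqp j).pos
  set κ := K + 5 + Ms with hκ
  let MsF : Finset ℕ := Finset.univ.image q
  let GZ : ℕ → ℤ := fun i => (G κ i : ℤ)
  let cZ : ℕ → ℤ := fun i => ((Ms * G κ i : ℕ) : ℤ)
  let AZ : ℕ → ℤ := fun i => (Am Ms κ i : ℤ)
  have hGpos : ∀ i, 0 < G κ i := fun i => G_pos i
  have hGd : ∀ i j, i ≤ j → G κ i ∣ G κ j := fun i j h => G_dvd h
  obtain ⟨XZ, hX0, hXp, hthin⟩ := Thin963.thin K m MsF GZ cZ AZ
    (by
      intro p hp
      obtain ⟨j, -, rfl⟩ := Finset.mem_image.1 hp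
      exact ⟨hqp j, hqB j⟩)
    (by
      intro p hp
      obtain ⟨j, -, rfl⟩ := Finset.mem_image.1 hp
      refine Nat.isCoprime_iff_coprime.2 ?_
      exact Nat.Coprime.pow_right _ (Nat.coprime_two_right.2 (hqo j)))
    (by
      show (0 : ℤ) < ((G κ m : ℕ) : ℤ)
      exact_mod_cast hGpos m)
    (fun i j h => by
      show ((G κ i : ℕ) : ℤ) ∣ ((G κ j : ℕ) : ℤ)
      exact_mod_cast hGd i j h)
    (fun i => by
      have : 0 < Ms * G κ i := Nat.mul_pos hMpos (hGpos i)
      show (0 : ℤ) < ((Ms * G κ i : ℕ) : ℤ)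
      exact_mod_cast this)
    (fun i => by
      have : G κ i ∣ Ms * G κ i := Dvd.intro_left _ rfl
      show ((G κ i : ℕ) : ℤ) ∣ ((Ms * G κ i : ℕ) : ℤ)
      exact_mod_cast this)
    (fun i _ => by
      have h := growth K Ms i
      show (2 : ℤ) ^ (K + 4) * ∑ j ∈ range (i + 1), ((Ms * G κ j : ℕ) : ℤ) ≤
        ((G κ (i + 1) : ℕ) : ℤ)
      have h' : ((2 ^ (K + 4) * ∑ j ∈ range (i + 1), Ms * G κ j : ℕ) : ℤ) ≤
        ((G κ (i + 1) : ℕ) : ℤ) := by exact_mod_cast h
      refine le_trans (le_of_eq ?_) h'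
      push_cast
      rfl)
    ((2 * (Am Ms κ m + 1) + 1 : ℕ) : ℤ)
  lift XZ to ℕ using hXp.le
  let BadT : ℕ → Prop := fun T => Thin963.BadT MsF m GZ cZ AZ (T : ℤ)
  have hM0 : 0 < Ms * G κ m := Nat.mul_pos hMpos (hGpos m)
  refine ⟨Am Ms κ m + 1, 2 * Am Ms κ (m + 1), Ms * G κ m, XZ, BadT, by omega, hM0, ?_, ?_, ?_, ?_⟩
  · have : (2 * (Am Ms κ m + 1) + 1 : ℕ) ≤ XZ := by exact_mod_cast hX0
    omega
  · -- periodicity
    have key : ∀ T T' : ℕ, T % (Ms * G κ m) = T' % (Ms * G κ m) → BadT T → BadT T' := by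
      intro T T' hT hb
      have hd : ((Ms * G κ m : ℕ) : ℤ) ∣ (T' : ℤ) - T := by
        have : T ≡ T' [MOD Ms * G κ m] := hT
        exact (Nat.modEq_iff_dvd.1 this)
      rcases hb with ⟨p, hp, hpd⟩ | ⟨i, hi, e, he, hed⟩
      · refine Or.inl ⟨p, hp, ?_⟩
        obtain ⟨j, -, rfl⟩ := Finset.mem_image.1 hp
        have h1 : (q j : ℤ) ∣ ((Ms * G κ m : ℕ) : ℤ) := by
          have : q j ∣ Ms * G κ m :=
            Dvd.dvd.mul_right (Finset.dvd_prod_of_mem q (Finset.mem_univ j)) _
          exact_mod_cast this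
        have h2 := dvd_add (h1.trans hd) hpd
        simpa using h2
      · refine Or.inr ⟨i, hi, e, he, ?_⟩
        have h1 : (GZ (i + 1)) ∣ ((Ms * G κ m : ℕ) : ℤ) := by
          have : G κ (i + 1) ∣ Ms * G κ m := Dvd.dvd.mul_left (hGd _ _ (by omega)) _
          show ((G κ (i + 1) : ℕ) : ℤ) ∣ ((Ms * G κ m : ℕ) : ℤ)
          exact_mod_cast this
        have h2 := dvd_add (h1.trans hd) hed
        have e1 : (T' : ℤ) - T + (T - AZ (i + 1) + e) = T' - AZ (i + 1) + e := by ring
        rw [e1] at h2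
        exact h2
    exact fun T T' h => ⟨key T T' h, key T' T h.symm⟩
  · -- thinness
    intro T hT P hP
    refine le_trans (Finset.card_le_card ?_) (le_trans (hthin (T : ℤ)) ?_)
    · intro p hp
      obtain ⟨h1, h2, h3, h4⟩ := hP p hp
      refine Finset.mem_filter.2 ⟨Finset.mem_product.2 ⟨Finset.mem_range.2 h1,
        Finset.mem_range.2 h2⟩, h3, ?_⟩
      have h5 : XZ * 2 ^ p.2 ≤ XZ * 2 ^ K :=
        Nat.mul_le_mul_left _ (Nat.pow_le_pow_right (by norm_num) h2.le)
      have h6 : ((T + XZ * 2 ^ p.1 - XZ * 2 ^ p.2 : ℕ) : ℤ) =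
          (T : ℤ) + XZ * 2 ^ p.1 - XZ * 2 ^ p.2 := by
        rw [Nat.cast_sub (by omega)]
        push_cast
        ring
      have h7 : BadT (T + XZ * 2 ^ p.1 - XZ * 2 ^ p.2) := h4
      show Thin963.BadT MsF m GZ cZ AZ _
      rw [← h6]
      exact h7
    · have : MsF.card ≤ k := by
        refine le_trans Finset.card_image_le ?_
        simp
      omega
  · intro α phi hphi
    have HH := H q hqo hqc κ α phi hphi
    rw [← hMs] at HH
    obtain ⟨lam, rho, nu, g1, g2, g3, g4, g5⟩ := HH
    set L := Am Ms κ (m + 1) with hL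
    have hAmL : Am Ms κ m ≤ L := Am_succ_ge m
    let W : List α → Prop := fun u => ∃ P Q v b, u = P ++ Q ∧ lam P = some v ∧ rho Q = some b
    let nu' : List α → V := fun u => if W u then nu u else 0
    have hval : ∀ u P Q v b, u = P ++ Q → lam P = some v → rho Q = some b →
        nu' u = b - act v (phi u) := by
      intro u P Q v b e h1 h2
      have hw : W u := ⟨P, Q, v, b, e, h1, h2⟩
      have h3 := g3 P Q v b h1 h2
      rw [← e] at h3
      simp only [nu', if_pos hw]
      rw [h3]
      abel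
    have hsplit : ∀ u : List α, phi u = phi (u.take (2 * L)) * phi (u.drop (2 * L)) := by
      intro u
      rw [← hphi, List.take_append_drop]
    have tr : ∀ u u' : List α, 2 * L ≤ u.length → 2 * L ≤ u'.length →
        u.take (2 * L) = u'.take (2 * L) → phi (u.drop (2 * L)) = phi (u'.drop (2 * L)) →
        u.length % (Ms * G κ m) = u'.length % (Ms * G κ m) → ∀ P Q v b, u = P ++ Q →
        lam P = some v → rho Q = some b → ∃ Q', u' = P ++ Q' ∧ rho Q' = some b := by
      intro u u' h1 h2 h3 h4 h5 P Q v b e hl hr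
      have hPl := (g1 P v hl).1
      have hPu : P = u.take P.length := by rw [e, List.take_left]
      have hQu : Q = u.drop P.length := by rw [e, List.drop_left]
      have hPu' : P = u'.take P.length := by
        have : u'.take P.length = u.take P.length := by
          have h6 : ∀ x : List α, x.take P.length = (x.take (2 * L)).take P.length := by
            intro x
            rw [List.take_take, Nat.min_eq_left (by omega)]
          rw [h6 u, h6 u', h3]
        rw [this]; exact hPu
      refine ⟨u'.drop P.length, ?_, ?_⟩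
      · conv_lhs => rw [← List.take_append_drop P.length u', ← hPu']
      · rw [← hr]
        have ht : ∀ x : List α, (x.drop P.length).take L = ((x.take (2 * L)).drop P.length).take L := by
          intro x
          rw [List.drop_take, List.take_take, Nat.min_eq_left (by omega)]
        have hd : ∀ x : List α, 2 * L ≤ x.length → phi ((x.drop P.length).drop L) =
            phi ((x.take (2 * L)).drop (P.length + L)) * phi (x.drop (2 * L)) := by
          intro x hx
          rw [← hphi, List.drop_drop]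
          congr 1
          conv_lhs => rw [← List.take_append_drop (2 * L) x]
          rw [List.drop_append_of_le_length (by rw [List.length_take]; omega)]
        have a1 : L ≤ Q.length := by rw [hQu, List.length_drop]; omega
        have a2 : L ≤ (u'.drop P.length).length := by rw [List.length_drop]; omega
        have a3 : Q.take L = (u'.drop P.length).take L := by rw [hQu, ht u, ht u', h3]
        have a4 : phi (Q.drop L) = phi ((u'.drop P.length).drop L) := by
          rw [hQu, hd u h1, hd u' h2, h3, h4]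
        have a5 : Q.length ≡ (u'.drop P.length).length [MOD Ms * G κ m] := by
          have a6 : Q.length = u.length - P.length := by
            conv_lhs => rw [hQu]
            rw [List.length_drop]
          rw [a6, List.length_drop]
          have h7 : (u.length - P.length) + P.length ≡ (u'.length - P.length) + P.length
              [MOD Ms * G κ m] := by
            rw [Nat.sub_add_cancel (by omega), Nat.sub_add_cancel (by omega)]
            exact h5
          exact Nat.ModEq.add_right_cancel' _ h7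
        have h9 := g5 _ _ a1 a2 a3 a4 a5
        first
          | exact h9.1.symm
          | exact h9.symm
    refine ⟨lam, rho, nu', ?_, ?_, ?_, ?_⟩
    · intro P v h
      have := (g1 P v h).1
      omega
    · intro P Q v b h1 h2
      rw [hval (P ++ Q) P Q v b rfl h1 h2]
      abel
    · intro u hu hb v
      refine g4 u hu ?_ ?_ v
      · intro j hj
        apply hb
        refine Or.inl ⟨q j, Finset.mem_image_of_mem q (Finset.mem_univ j), ?_⟩
        exact_mod_cast hj
      · intro j hj1 hjm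
        obtain ⟨i, rfl⟩ : ∃ i, j = i + 1 := ⟨j - 1, by omega⟩
        rw [Nat.add_sub_cancel]
        have hAj : Am Ms κ (i + 1) ≤ u.length := by
          have := Am_mono (Ms := Ms) (κ := κ) (show i + 1 ≤ m + 1 by omega)
          omega
        set t := u.length - Am Ms κ (i + 1) with ht
        have htu : (u.length : ℤ) - AZ (i + 1) = (t : ℤ) := by
          rw [ht, Nat.cast_sub hAj]
        have hmod := Nat.div_add_mod t (G κ (i + 1))
        have hlt := Nat.mod_lt t (hGpos (i + 1))
        constructor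
        · by_contra hc
          push Not at hc
          apply hb
          refine Or.inr ⟨i, by omega, -((t % G κ (i + 1) : ℕ) : ℤ), ?_, ?_⟩
          · rw [abs_neg, Nat.abs_cast]
            show ((t % G κ (i + 1) : ℕ) : ℤ) ≤ ((Ms * G κ i : ℕ) : ℤ)
            exact_mod_cast hc.le
          · rw [htu]
            refine ⟨((t / G κ (i + 1) : ℕ) : ℤ), ?_⟩
            have h8 : (t : ℤ) = (G κ (i + 1) : ℤ) * ((t / G κ (i + 1) : ℕ) : ℤ) +
                ((t % G κ (i + 1) : ℕ) : ℤ) := by exact_mod_cast hmod.symm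
            show (t : ℤ) + -((t % G κ (i + 1) : ℕ) : ℤ) =
              (G κ (i + 1) : ℤ) * ((t / G κ (i + 1) : ℕ) : ℤ)
            linarith
        · by_contra hc
          push Not at hc
          apply hb
          refine Or.inr ⟨i, by omega, ((G κ (i + 1) : ℕ) : ℤ) - ((t % G κ (i + 1) : ℕ) : ℤ), ?_, ?_⟩
          · show |((G κ (i + 1) : ℕ) : ℤ) - ((t % G κ (i + 1) : ℕ) : ℤ)| ≤ ((Ms * G κ i : ℕ) : ℤ)
            have h8 : ((G κ (i + 1) : ℕ) : ℤ) < ((t % G κ (i + 1) : ℕ) : ℤ) + ((Ms * G κ i : ℕ) : ℤ) := by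
              exact_mod_cast hc
            have h9 : ((t % G κ (i + 1) : ℕ) : ℤ) < ((G κ (i + 1) : ℕ) : ℤ) := by
              exact_mod_cast hlt
            rw [abs_of_nonneg (by linarith)]
            linarith
          · rw [htu]
            refine ⟨((t / G κ (i + 1) : ℕ) : ℤ) + 1, ?_⟩
            have h8 : (t : ℤ) = (G κ (i + 1) : ℤ) * ((t / G κ (i + 1) : ℕ) : ℤ) +
                ((t % G κ (i + 1) : ℕ) : ℤ) := by exact_mod_cast hmod.symm
            show (t : ℤ) + (((G κ (i + 1) : ℕ) : ℤ) - ((t % G κ (i + 1) : ℕ) : ℤ)) =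
              (G κ (i + 1) : ℤ) * (((t / G κ (i + 1) : ℕ) : ℤ) + 1)
            linarith
    · intro u u' h1 h2 h3 h4 h5
      have hphiu : phi u = phi u' := by rw [hsplit u, hsplit u', h3, h4]
      by_cases hw : W u
      · obtain ⟨P, Q, v, b, e, hl, hr⟩ := hw
        obtain ⟨Q', e', hr'⟩ := tr u u' h1 h2 h3 h4 h5 P Q v b e hl hr
        rw [hval u P Q v b e hl hr, hval u' P Q' v b e' hl hr', hphiu]
      · have hw' : ¬ W u' := by
          rintro ⟨P, Q, v, b, e, hl, hr⟩
          obtain ⟨Q', e', hr'⟩ := tr u' u h2 h1 h3.symm h4.symm h5.symm P Q v b e hl hr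
          exact hw ⟨P, Q', v, b, e', hl, hr'⟩
        simp only [nu', if_neg hw, if_neg hw']

end Crest.Agent.R320.GadW_401
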