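import Crest.Agent.R320.Top5_120
import Crest.Agent.R320.Sc2n_937
import Crest.Agent.R320.LWallAll_922
import Crest.Agent.R320.P4_933
import Crest.Agent.R320.ExactR_237
import Crest.Agent.R320.RegDep_10
import Crest.Agent.R320.GadW_401

/-!
# Row 320: the join (helper401)

Top5_120 + Sc2n_937 + grid gadget (GadW_401) + ExactR_237 + walls on all words (LWallAll_922) + P4_933.
-/

set_option autoImplicit false

namespace Crest.Agent.R320.Fin_401

open Crest.RegLang Crest.Agent.R320.Hk_851 Crest.Agent.R320.Blk467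

/-- the walls with everything needed -/
theorem walls (A : Type) [Finite A] (W : ℕ) (hW : 0 < W) :
    ∃ (n B R : ℕ) (Wo : List A → Prop),
      (∀ P Q : List A, n ≤ Q.length → (Wo (P ++ Q) ↔ Wo Q)) ∧
      (∀ P, Wo P → n ≤ P.length) ∧
      (∀ P Q : List A, Wo P → Wo (P ++ Q) → Q ≠ [] → W < Q.length) ∧
      (∀ u : List A, (∀ t < u.length, ¬ Wo (u.take t)) →
        u ∈ (Crest.Agent.R320.BddReg_746.PN B R : Language A)) := by
  obtain ⟨n, G, B, Wo, hLW, hgap, -, -, hfree⟩ := LWallAll_922.walls_all_left A W hW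
  refine ⟨n, max B W, 2, Wo, hLW.app, hLW.len, ?_, ?_⟩
  · intro P Q hP hPQ hQ
    have h := hgap (P ++ Q) P.length (P ++ Q).length
      (by rw [List.length_append]; have := List.length_pos_of_ne_nil hQ; omega) le_rfl
      (by rw [List.take_left]; exact hP) (by rw [List.take_length]; exact hPQ)
    rw [List.length_append] at h
    omega
  · intro X hX
    obtain ⟨u, x, v, k, h1, h2, h3, rfl⟩ := hfree X hX
    refine Language.mem_mul.2 ⟨u ++ (List.replicate k x).flatten,
      ⟨u, x, k, h1.trans (le_max_left _ _), h2.trans (le_max_right _ _), rfl⟩, v, ?_, rfl⟩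
    refine Language.mem_mul.2 ⟨v, ⟨v, [], 0, h3.trans (le_max_left _ _), by simp, by simp⟩,
      [], rfl, by simp⟩

theorem fin (α : Type) [Finite α] (S : Type) [Monoid S] [Finite S] (φ : α → S) (s : S) :
    HL 3 ({w | (w.map φ).prod = s} : Language α) := by
  classical
  -- the module
  let V : Type := S → ZMod 2
  let act : V → S → V := fun v s x => v (s * x)
  have hadd : ∀ (a b : V) (s : S), act (a + b) s = act a s + act b s := fun a b s => rfl
  have hone : ∀ v : V, act v 1 = v := fun v => by
    funext x; simp only [act, one_mul]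
  have hmul : ∀ (v : V) (s t : S), act v (s * t) = act (act v s) t := fun v s t => by
    funext x; simp only [act, mul_assoc]
  have hfaith : ∀ s t : S, (∀ v : V, act v s = act v t) → s = t := by
    intro s t h
    by_contra hne
    have h1 := congrFun (h (fun x => if x = s then 1 else 0)) 1
    simp only [act, mul_one, if_true] at h1
    rw [if_neg (fun e => hne e.symm)] at h1
    exact one_ne_zero h1
  have : Fintype S := Fintype.ofFinite S
  have : Finite V := inferInstance
  have : Fintype V := Fintype.ofFinite V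
  let phi : List α → S := fun w => (w.map φ).prod
  have hphi : ∀ u v, phi (u ++ v) = phi u * phi v := fun u v => by
    simp only [phi, List.map_append, List.prod_append]
  -- the gadgets
  obtain ⟨C0, HG⟩ := GadW_401.gad S V act
  obtain ⟨K, HE⟩ := ExactR_237.exact_gadget α S V φ act (2 * C0 + 2)
  obtain ⟨N1, A1, M0, X0, BadT, hN1, hM0, hX0, hper, hthin, HG2⟩ := HG K
  obtain ⟨lam, rho, nu1, glen, gsound, gcomp, gnu⟩ := HG2 α phi hphi
  let c : ℕ → ℕ := fun j => X0 * 2 ^ j
  have hcm : ∀ i j, i < j → c i < c j := by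
    intro i j h
    exact Nat.mul_lt_mul_of_pos_left (Nat.pow_lt_pow_right (by norm_num) h) (by omega)
  obtain ⟨lam2, rho2, nu2, hes, hec⟩ := HE c (fun i j h _ => hcm i j h)
  let p0 : ℕ := c K
  have hcp : ∀ k, k < K → c k ≤ p0 := fun k hk => (hcm k K hk).le
  obtain ⟨n, B, R, Wo, hloc, hwlen, hgap, hfree⟩ := walls α (2 * p0 + 2 * N1 + 1) (by omega)
  let q0 : ℕ := n + 2 * p0 + A1
  let g : Sc2n_937.Geo α :=
    { Wo := Wo, n := n, z := p0 + N1 + q0, p0 := p0, q0 := q0, N1 := N1, loc := hloc, hz := rfl,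
      hq := by omega, hN := hN1, hqp := by omega }
  let pre : List α → V → V := fun P v => act v (phi P) + nu2 P 1
  let post : V → List α → V := fun v u => act v (phi u) + nu1 u
  let nu : List α → V := fun X => act (nu2 (X.take p0) 1) (phi (X.drop p0)) + nu1 (X.drop p0)
  have hT : ∀ (v : V) (X : List α), g.T pre post v X = act v (X.map φ).prod + nu X := by
    intro v X
    show act (act v (phi (X.take p0)) + nu2 (X.take p0) 1) (phi (X.drop p0)) + nu1 (X.drop p0) = _
    rw [hadd, ← hmul, ← hphi, List.take_append_drop, add_assoc]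
  -- code and bad blocks
  let C : Set (List α) := {X | g.XX X}
  let Bad : Set (List α) := {X | g.XX X ∧ g.BadX BadT X}
  have hz : g.z = p0 + N1 + q0 := rfl
  have hPC : PCode C := by
    refine ⟨?_, ?_⟩
    · intro h
      have h1 : g.z ≤ ([] : List α).length := h.1
      simp only [List.length_nil] at h1
      omega
    · rintro X hX Y hY ⟨R', e⟩
      exact g.prefix_code (R := R') (R' := []) hX hY (by rw [e, List.append_nil])
  have hXXeq : ∀ X, g.XX X ↔ P4_933.XX Wo g.z X := by
    intro X
    constructor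
    · rintro ⟨h1, h2, h3⟩
      exact ⟨h2, h1, fun t ht hz => h3 t hz ht⟩
    · rintro ⟨h1, h2, h3⟩
      exact ⟨h2, h1, fun t hz ht => h3 t ht hz⟩
  -- scheme 1 labels
  let L1 : V → Set (List α) := fun v => {P | g.LP1 pre lam v P}
  let L2 : V → Set (List α) := fun v => {P | Sc2n_937.Geo.LP2 K c lam2 v P}
  have hf1 : ∀ v, (L1 v).Finite := by
    intro v
    refine (List.finite_length_le α (p0 + N1)).subset ?_
    rintro P ⟨h1, h2⟩
    have h3 := glen _ _ h2
    rw [List.length_drop] at h3
    have h4 : p0 ≤ P.length := h1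
    show P.length ≤ p0 + N1
    have h5 : P.length - p0 ≤ N1 := h3
    omega
  have hf2 : ∀ v, (L2 v).Finite := by
    intro v
    refine (List.finite_length_le α p0).subset ?_
    rintro P ⟨k, hk, h2, -⟩
    show P.length ≤ p0
    rw [h2]
    exact hcp k hk
  -- finite state facts
  have hA : ∃ A, A = g.z + N1 + p0 + A1 := ⟨_, rfl⟩
  obtain ⟨A, hAe⟩ := hA
  have hcl : ∀ u u' : List α, A ≤ u.length → A ≤ u'.length → u.take A = u'.take A →
      ((u.drop A).map φ).prod = ((u'.drop A).map φ).prod → u.length % M0 = u'.length % M0 →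
      (∀ v : V, g.T pre post v u = g.T pre post v u') ∧ (g.BadX BadT u ↔ g.BadX BadT u') := by
    intro u u' h1 h2 h3 h4 h5
    have htk : ∀ t, t ≤ A → u.take t = u'.take t := by
      intro t ht
      have h6 : ∀ x : List α, x.take t = (x.take A).take t := by
        intro x
        rw [List.take_take, Nat.min_eq_left ht]
      rw [h6 u, h6 u', h3]
    have hdr : ∀ t, t ≤ A → phi (u.drop t) = phi (u'.drop t) := by
      intro t ht
      have h6 : ∀ x : List α, A ≤ x.length →
          phi (x.drop t) = phi ((x.take A).drop t) * phi (x.drop A) := by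
        intro x hx
        rw [← hphi]
        congr 1
        conv_lhs => rw [← List.take_append_drop A x]
        rw [List.drop_append_of_le_length (by rw [List.length_take]; omega)]
      rw [h6 u h1, h6 u' h2, h3]
      congr 1
    have hlm : (u.length - p0) % M0 = (u'.length - p0) % M0 := by
      have h7 : (u.length - p0) + p0 ≡ (u'.length - p0) + p0 [MOD M0] := by
        rw [Nat.sub_add_cancel (by omega), Nat.sub_add_cancel (by omega)]
        exact h5
      exact Nat.ModEq.add_right_cancel' _ h7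
    constructor
    · intro v
      show act (act v (phi (u.take p0)) + nu2 (u.take p0) 1) (phi (u.drop p0)) + nu1 (u.drop p0) =
        act (act v (phi (u'.take p0)) + nu2 (u'.take p0) 1) (phi (u'.drop p0)) + nu1 (u'.drop p0)
      rw [htk p0 (by omega), hdr p0 (by omega)]
      congr 1
      refine gnu _ _ ?_ ?_ ?_ ?_ ?_
      · rw [List.length_drop]; omega
      · rw [List.length_drop]; omega
      · have h6 : ∀ x : List α, (x.drop p0).take A1 = ((x.take (p0 + A1)).drop p0) := by
          intro x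
          rw [List.drop_take]
          congr 1
          omega
        rw [h6 u, h6 u', htk _ (by omega)]
      · rw [List.drop_drop, List.drop_drop]
        exact hdr _ (by omega)
      · rw [List.length_drop, List.length_drop]
        exact hlm
    · have hE : ∀ x y : List α, (∀ t, t ≤ A → x.take t = y.take t) → A ≤ y.length →
          g.E x → g.E y := by
        rintro x y hxy hy ⟨t, ht, hw, h8, h9⟩
        have h10 : t < g.z + N1 := h9
        refine ⟨t, by omega, ?_, h8, h9⟩
        rw [← hxy t (by omega)]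
        exact hw
      have hB := hper _ _ hlm
      constructor
      · rintro (h | h)
        · exact Or.inl (hE u u' htk h2 h)
        · exact Or.inr (hB.1 h)
      · rintro (h | h)
        · exact Or.inl (hE u' u (fun t ht => (htk t ht).symm) h1 h)
        · exact Or.inr (hB.2 h)
  have hreg1 : ∀ x y : V, Language.IsRegular ({u | g.T pre post x u = y} : Language α) := by
    intro x y
    refine RegDep_10.regular_of_dep φ A M0 hM0 _ ?_
    intro u u' h1 h2 h3 h4 h5 h6
    have h7 : g.T pre post x u = y := h6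
    show g.T pre post x u' = y
    rw [← (hcl u u' h1 h2 h3 h4 h5).1 x]
    exact h7
  have hreg2 : ∀ x y : V,
      Language.IsRegular ({u | g.BadX BadT u ∧ g.T pre post x u = y} : Language α) := by
    intro x y
    refine RegDep_10.regular_of_dep φ A M0 hM0 _ ?_
    intro u u' h1 h2 h3 h4 h5 h6
    have h7 : g.BadX BadT u ∧ g.T pre post x u = y := h6
    have h8 := hcl u u' h1 h2 h3 h4 h5
    refine ⟨h8.2.1 h7.1, ?_⟩
    rw [← h8.1 x]
    exact h7.2
  have hreg3 : ∀ s : S, Language.IsRegular ({u | (u.map φ).prod = s} : Language α) := by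
    intro s
    refine RegDep_10.regular_of_dep φ 0 1 Nat.one_pos _ ?_
    intro u u' _ _ _ h4 _ h6
    rw [List.drop_zero, List.drop_zero] at h4
    have h7 : (u.map φ).prod = s := h6
    show (u'.map φ).prod = s
    rw [← h4]
    exact h7
  refine Top5_120.top5 act hadd hone hmul hfaith φ nu C Bad hPC (fun X hX => hX.1) L1 L2 hf1 hf2
    ?_ ?_ ?_ ?_ ?_ s
  · intro x y
    refine (P4_933.hl_XX (z := g.z) hloc hwlen hfree (hreg1 x y)).congr fun w => Iff.symm ?_
    constructor
    · rintro ⟨h1, h2⟩
      exact ⟨(hXXeq w).2 h1, by rw [← hT]; exact h2⟩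
    · rintro ⟨h1, h2⟩
      exact ⟨(hXXeq w).1 h1, by rw [← hT] at h2; exact h2⟩
  · intro x y
    refine (P4_933.hl_XX (z := g.z) hloc hwlen hfree (hreg2 x y)).congr fun w => Iff.symm ?_
    constructor
    · rintro ⟨h1, h2, h3⟩
      exact ⟨⟨(hXXeq w).2 h1, h2⟩, by rw [← hT]; exact h3⟩
    · rintro ⟨⟨h1, h2⟩, h3⟩
      exact ⟨(hXXeq w).1 h1, h2, by rw [← hT] at h3; exact h3⟩
  · intro s'
    refine (P4_933.hl_NB (z := g.z) hloc hwlen hfree (hreg3 s')).congr fun w => Iff.symm ?_
    constructor
    · rintro ⟨h1, h2⟩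
      exact ⟨fun X hX hXw => (P4_933.NB_iff Wo g.z w).1 h1 X hXw ((hXXeq X).1 hX), h2⟩
    · rintro ⟨h1, h2⟩
      exact ⟨(P4_933.NB_iff Wo g.z w).2 fun P hP hX => h1 P ((hXXeq P).2 hX) hP, h2⟩
  · -- hcc1
    intro X hX hXb v
    have hE : ¬ g.E X := fun h => hXb ⟨hX, Or.inl h⟩
    have hBT : ¬ BadT (X.length - p0) := fun h => hXb ⟨hX, Or.inr h⟩
    have hXl : g.z ≤ X.length := hX.1
    obtain ⟨P, Q, b, e, hP, hQ⟩ := g.complete1 pre glen hX hE
      (fun u => gcomp (X.drop p0) (by rw [List.length_drop]; omega)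
        (by rw [List.length_drop]; exact hBT) u) v
    refine ⟨P, Q, e.symm, hP, ?_⟩
    intro x P' hP'
    have hs := fun (v : V) (P : List α) (hP : g.LP1 pre lam v P) =>
      g.sound1 pre post glen
        (fun P Q u b hl hr => gsound P Q u b hl hr) hP hQ
    have h1 := hs x P' hP'
    have h2 := hs v P hP
    refine ⟨h1.1, ?_⟩
    rw [← hT, ← hT, h1.2, e, h2.2]
  · -- hcc2
    rintro X ⟨hX, hXb⟩ Y ⟨hY, hYb⟩ v
    have hXl : g.z ≤ X.length := hX.1
    have hI : ∃ I : Finset ℕ, 2 * C0 + 2 ≤ I.card ∧ ∀ k ∈ I, k < K ∧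
        lam2 k (X.take (c k)) = some v ∧
        ((fun k Q => rho2 k Q 1) k ((X.take p0).drop (c k))).isSome := by
      obtain ⟨I, h1, h2⟩ := hec (X.take p0) 1 v (fun k hk => by
        rw [List.length_take]
        have := hcp k hk
        omega)
      refine ⟨I, h1, fun k hk => ?_⟩
      obtain ⟨h3, h4, h5⟩ := h2 k hk
      refine ⟨h3, ?_, h5⟩
      rw [List.take_take, Nat.min_eq_left (hcp k h3)] at h4
      exact h4
    have hex : ∀ k, k < K → ∀ (P Q : List α) (v u : V), P.length = c k → Q.length = g.p0 - c k →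
        lam2 k P = some v → (fun k Q => rho2 k Q 1) k Q = some u → u = pre (P ++ Q) v := by
      intro k hk P Q v u hP _ h1 h2
      have h3 := hes k hk P Q 1 v u hP h1 h2
      rw [mul_one] at h3
      exact h3
    have hsp : ∀ k k' l l', k < K → k' < K → l < K → l' < K → k' ≠ k → l' ≠ l →
        c k + c l' < c l + c k' + 2 * g.N1 → c l + c k' < c k + c l' + 2 * g.N1 → k = l := by
      intro k k' l l' _ _ _ _ h1 h2 h3 h4
      have h3' : X0 * 2 ^ k + X0 * 2 ^ l' < X0 * 2 ^ l + X0 * 2 ^ k' + 2 * N1 := h3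
      have h4' : X0 * 2 ^ l + X0 * 2 ^ k' < X0 * 2 ^ k + X0 * 2 ^ l' + 2 * N1 := h4
      have h5 : 2 ^ k + 2 ^ l' = 2 ^ l + 2 ^ k' := by
        rcases Nat.lt_trichotomy (2 ^ k + 2 ^ l') (2 ^ l + 2 ^ k') with h | h | h
        · exfalso
          have := Nat.mul_le_mul_left X0 (Nat.succ_le_of_lt h)
          rw [Nat.mul_succ, Nat.mul_add, Nat.mul_add] at this
          omega
        · exact h
        · exfalso
          have := Nat.mul_le_mul_left X0 (Nat.succ_le_of_lt h)
          rw [Nat.mul_succ, Nat.mul_add, Nat.mul_add] at this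
          omega
      have h6 : (2 : ℤ) ^ k - 2 ^ k' = 2 ^ l - 2 ^ l' := by
        have : (2 : ℤ) ^ k + 2 ^ l' = 2 ^ l + 2 ^ k' := by exact_mod_cast h5
        linarith
      exact (G369.pow_diff h1.symm h2.symm h6).1
    have hth : ∀ τ, g.z ≤ τ + g.p0 → ∀ J : Finset ℕ, (∀ k ∈ J, k < K ∧
        ∃ k', k' < K ∧ k' ≠ k ∧ BadT (τ + c k' - c k - g.p0)) → J.card ≤ C0 := by
      intro τ hτ J hJ
      have hτ' : p0 + N1 + q0 ≤ τ + p0 := hτ
      choose! f hf using fun k (hk : k ∈ J) => (hJ k hk).2
      have hinj : Set.InjOn (fun k => (f k, k)) (J : Set ℕ) := by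
        intro a _ b _ h
        exact (Prod.mk.inj h).2
      rw [← Finset.card_image_of_injOn hinj]
      refine hthin (τ - p0) ?_ _ ?_
      · show c K ≤ τ - p0
        show p0 ≤ τ - p0
        omega
      · intro p hp
        obtain ⟨k, hk, rfl⟩ := Finset.mem_image.1 hp
        obtain ⟨h1, h2, h3⟩ := hf k hk
        have hkK := (hJ k hk).1
        refine ⟨h1, hkK, h2, ?_⟩
        have h4 : τ - p0 + X0 * 2 ^ f k - X0 * 2 ^ k = τ + c (f k) - c k - p0 := by
          show τ - p0 + c (f k) - c k = τ + c (f k) - c k - p0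
          have := hcp k hkK
          omega
        show BadT (τ - p0 + X0 * 2 ^ f k - X0 * 2 ^ k)
        rw [h4]
        exact h3
    obtain ⟨P, Q, b, e, hP, hQ⟩ := g.complete2 pre post (BadT := BadT) (K := K) (c := c)
      (lam2 := lam2) (rho2 := fun k Q => rho2 k Q 1) (C0 := C0) hcp
      (fun P Q h1 h2 h3 => by
        have := hgap P Q h1 h2 h3
        show 2 * p0 + 2 * N1 < Q.length
        omega) hsp hth hX hY v hI
    have hs2 := fun (v : V) (P X R R' : List α) (hX : g.XX X) (hb : g.BadX BadT X)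
      (hP : Sc2n_937.Geo.LP2 K c lam2 v P) (hc : P ++ Q ++ R = X ++ R') =>
      g.sound2 pre post (BadT := BadT) (K := K) (c := c) (lam2 := lam2)
        (rho2 := fun k Q => rho2 k Q 1) hcp hex hX hb hP hQ hc
    have hb : g.T pre post (g.T pre post v X) Y = b := by
      obtain ⟨X2, h1, h2, h3⟩ := hs2 v P X [] Y hX hXb hP (by rw [List.append_nil, e])
      rw [e] at h2
      rw [List.append_cancel_left h2]
      exact h3
    refine ⟨P, Q, e, hP, ?_⟩
    intro x P' hP'
    have hend : ∃ l, g.CEnd Q P'.length l := by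
      obtain ⟨k', hk', hl', -⟩ := hP'
      obtain ⟨k, hk, l, he, hgood, -⟩ := hQ
      by_cases hkk : k' = k
      · subst hkk
        exact ⟨l, by rw [hl']; exact he⟩
      · obtain ⟨l', he', -⟩ := hgood k' hk' hkk
        exact ⟨l', by rw [hl']; exact he'⟩
    obtain ⟨l, hl⟩ := hend
    have hP'l : P'.length ≤ g.p0 := by
      obtain ⟨k', hk', hl', -⟩ := hP'
      rw [hl']
      exact hcp k' hk'
    have hX' : g.XX (P' ++ Q.take l) := g.xx_of_cend hP'l hl
    by_cases hbad : g.BadX BadT (P' ++ Q.take l)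
    · left
      obtain ⟨X2, h1, h2, h3⟩ := hs2 x P' (P' ++ Q.take l) [] (Q.drop l) hX' hbad hP'
        (by rw [List.append_nil, List.append_assoc, List.take_append_drop])
      refine ⟨P' ++ Q.take l, ⟨hX', hbad⟩, X2, h1, h2.symm, ?_⟩
      rw [← hT, ← hT, ← hT, ← hT, h3, hb]
    · right
      refine ⟨P' ++ Q.take l, hX', fun h => hbad h.2, ⟨Q.drop l, ?_⟩⟩
      rw [List.append_assoc, List.take_append_drop]

end Crest.Agent.R320.Fin_401
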