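import Crest.Agent.R320.Top5_120
import Crest.Agent.R320.Sc2n_937
import Crest.Agent.R320.GridG_19
import Crest.Agent.R320.GridRuler_257
import Crest.Agent.R320.ExactR_237
import Crest.Agent.R320.LWallAll_922
import Crest.Agent.R320.P4_933
import Crest.Agent.R320.Loc_354

/-!
Row 320, helper407: JOIN of the pieces: `fin`.
-/

set_option autoImplicit false
set_option linter.unusedSectionVars false

namespace Crest.Agent.R320.Fin_407

open Crest.RegLang Crest.Agent.R320.Hk_851 Crest.Agent.R320.Blk467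
open Crest.Agent.R320.ExactR_237

/-- bad totals -/
def BT (Ms : Finset ℕ) (m M : ℕ) (G : ℕ → ℕ) (T : ℕ) : Prop :=
  GridRuler_257.BadZ Ms m M G (GridG_19.Am G M 0) (T : ℤ)

theorem BT_mod {Ms : Finset ℕ} {m M : ℕ} {G : ℕ → ℕ} (hMs : ∀ k ∈ Ms, k ∣ M)
    (hG : ∀ j, G j ∣ G (j + 1)) {T T' : ℕ} (h : T % (M * G m) = T' % (M * G m)) :
    BT Ms m M G T ↔ BT Ms m M G T' := by
  have key : ∀ (T k : ℕ), BT Ms m M G (T + (M * G m) * k) ↔ BT Ms m M G T := by
    intro T k
    induction k with
    | zero => simp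
    | succ k ih =>
      rw [← ih]
      unfold BT
      have := GridRuler_257.BadZ_period (A := GridG_19.Am G M 0) (m := m) hMs hG
        ((T + (M * G m) * k : ℕ) : ℤ)
      rw [← this]
      have e : ((T + (M * G m) * (k + 1) : ℕ) : ℤ) =
          ((T + (M * G m) * k : ℕ) : ℤ) + ((M * G m : ℕ) : ℤ) := by push_cast; ring
      rw [e]
  have h1 := key (T % (M * G m)) (T / (M * G m))
  have h2 := key (T' % (M * G m)) (T' / (M * G m))
  rw [Nat.mod_add_div] at h1 h2
  rw [h1, h2, h]

/-- wall-free words are products of two pieces -/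
theorem free_PN {α : Type} {W B : ℕ} {u : List α}
    (h : ∃ (a x v : List α) (k : ℕ), a.length ≤ B ∧ x.length ≤ W ∧ v.length ≤ B ∧
      u = a ++ (List.replicate k x).flatten ++ v) :
    u ∈ (BddReg_746.PN (max B W) 2 : Language α) := by
  obtain ⟨a, x, v, k, h1, h2, h3, rfl⟩ := h
  refine Language.mem_mul.2 ⟨a ++ BddReg_746.pw x k, ⟨a, x, k, by omega, by omega, rfl⟩, v, ?_, rfl⟩
  refine Language.mem_mul.2 ⟨v, ⟨v, [], 0, by omega, by simp, by simp⟩, [], rfl, by simp⟩

section

variable {α S : Type} [Monoid S] {V : Type} [AddCommGroup V]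

/-- the noise of the zone map -/
def nuT (φ : α → S) (act : V → S → V) (p0 : ℕ) (nu1 : List α → V) (nu2 : List α → S → V)
    (X : List α) : V :=
  act (nu2 (X.take p0) 1) (((X.drop p0).map φ).prod) + nu1 (X.drop p0)

def preT (φ : α → S) (act : V → S → V) (nu2 : List α → S → V) (X : List α) (v : V) : V :=
  act v (pr φ X * 1) + nu2 X 1

def postT (φ : α → S) (act : V → S → V) (nu1 : List α → V) (u : V) (Y : List α) : V :=
  act u ((Y.map φ).prod) + nu1 Y

theorem T_eq (g : Sc2n_937.Geo α) (φ : α → S) (act : V → S → V)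
    (hadd : ∀ a b s, act (a + b) s = act a s + act b s)
    (hmul : ∀ v s t, act v (s * t) = act (act v s) t) (nu1 : List α → V) (nu2 : List α → S → V)
    (v : V) (X : List α) :
    g.T (preT φ act nu2) (postT φ act nu1) v X =
      act v (X.map φ).prod + nuT φ act g.p0 nu1 nu2 X := by
  unfold Sc2n_937.Geo.T preT postT nuT pr
  rw [mul_one, hadd, ← hmul, add_assoc]
  congr 2
  rw [← List.prod_append, ← List.map_append, List.take_append_drop]

end

theorem fin (α : Type) [Finite α] (S : Type) [Monoid S] [Finite S] (φ : α → S) (s : S) :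
    HL 3 ({w | (w.map φ).prod = s} : Language α) := by
  classical
  obtain ⟨act, hadd, hone, hmul, hfaith⟩ := exists_module S
  haveI := Fintype.ofFinite S
  haveI : Fintype (S → ZMod 2) := Fintype.ofFinite _
  obtain ⟨m, r, hg⟩ := GridG_19.grid S (S → ZMod 2) act
  obtain ⟨K, hK⟩ := exact_gadget α S (S → ZMod 2) φ act (2 * (r + m) + 2)
  obtain ⟨Ms, hMr, hMp, hg⟩ := hg (4 ^ K + 2)
  set M := ∏ q ∈ Ms, q with hMdef
  have hM : 0 < M := Finset.prod_pos fun q hq => (hMp q hq).1.pos
  set b := 2 ^ (16 * 4 ^ K * M) with hb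
  have hbbig : 16 * 4 ^ K * M ≤ b := Nat.lt_two_pow_self.le
  have hbpos : 0 < b := by positivity
  let G : ℕ → ℕ := fun k => b ^ k
  have hGpos : ∀ k, 0 < G k := fun k => by positivity
  have hGd : ∀ a b', a ≤ b' → G a ∣ G b' := fun a b' h => pow_dvd_pow _ h
  have hcop : ∀ k, Nat.Coprime M (G k) := by
    intro k
    refine Nat.Coprime.pow_right _ (Nat.Coprime.pow_right _ ?_)
    refine Nat.Coprime.prod_left fun q hq => ?_
    obtain ⟨h1, h2⟩ := hMp q hq
    have h4 : 0 < 4 ^ K := by positivity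
    exact (Nat.coprime_primes h1 Nat.prime_two).2 (by omega)
  have hMs : ∀ k ∈ Ms, k ∣ M := fun k hk => Finset.dvd_prod_of_mem _ hk
  set N1 := GridG_19.Am G M 0 m + 1 with hN1
  obtain ⟨U, hU1, hU2, hU3, hU4⟩ := GridRuler_257.ruler K m Ms M G (GridG_19.Am G M 0) N1 hM
    (fun k hk => ⟨hMs k hk, by have := (hMp k hk).2; omega⟩) (hGpos 0)
    (fun j => hGd _ _ (Nat.le_succ j))
    (fun j => by
      show 16 * 4 ^ K * (M * b ^ j) ≤ b ^ (j + 1)
      rw [pow_succ, ← mul_assoc, mul_comm (b ^ j)]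
      exact Nat.mul_le_mul_right _ hbbig) (hcop m)
  obtain ⟨lam, rho, nu1, gS, gL, gR, gC, gF⟩ := hg G 0 hGpos hGd hcop α (fun w => (w.map φ).prod)
    (fun u v => by simp)
  let c : ℕ → ℕ := fun k => U * 4 ^ k
  have hcm : ∀ i j, i < j → c i + 4 * N1 < c j := hU2
  obtain ⟨lam2, rho2, nu2, x1, x2⟩ := hK c (fun i j hij _ => by have := hcm i j hij; omega)
  set p0 := c K with hp0
  have hcp : ∀ k, k < K → c k ≤ p0 := fun k hk => by have := hcm k K hk; omega
  obtain ⟨n, Gg, Bw, Wo, hLW, hgap, -, -, hfree⟩ :=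
    LWallAll_922.walls_all_left α (2 * p0 + 2 * N1) (by omega)
  set q0 := n + 3 * p0 + 2 * N1 + M with hq0
  let g : Sc2n_937.Geo α :=
    { Wo := Wo, n := n, z := p0 + N1 + q0, p0 := p0, q0 := q0, N1 := N1, loc := hLW.app,
      hz := rfl, hq := by omega, hN := by omega, hqp := by omega }
  have hgz : g.z = p0 + N1 + q0 := rfl
  have hgp : g.p0 = p0 := rfl
  have hgN : g.N1 = N1 := rfl
  set pre : List α → (S → ZMod 2) → (S → ZMod 2) := preT φ act nu2 with hpre
  set post : (S → ZMod 2) → List α → (S → ZMod 2) := postT φ act nu1 with hpost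
  set nu : List α → (S → ZMod 2) := nuT φ act p0 nu1 nu2 with hnu
  have hT : ∀ v X, g.T pre post v X = act v (X.map φ).prod + nu X := fun v X =>
    T_eq g φ act hadd hmul nu1 nu2 v X
  let BadT : ℕ → Prop := BT Ms m M G
  let C : Set (List α) := {X | g.XX X}
  let Bad : Set (List α) := {X | g.XX X ∧ g.BadX BadT X}
  let L1 : (S → ZMod 2) → Set (List α) := fun v => {P | g.LP1 pre lam v P}
  let L2 : (S → ZMod 2) → Set (List α) := fun v => {P | Sc2n_937.Geo.LP2 K c lam2 v P}
  have hlam : ∀ P v, lam P = some v → P.length ≤ g.N1 := fun P v h => by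
    have := (gL P v h).2
    rw [hgN]; omega
  have hex : ∀ P Q u b, lam P = some u → rho Q = some b → b = post u (P ++ Q) :=
    fun P Q u b h1 h2 => gS P Q u b h1 h2
  have hC : PCode C := by
    refine ⟨fun h => ?_, fun X hX Y hY h => ?_⟩
    · have := h.1
      rw [hgz, List.length_nil] at this
      omega
    · obtain ⟨R, rfl⟩ := h
      exact g.prefix_code (R := R) (R' := []) hX hY (by simp)
  have hs1 := @Sc2n_937.Geo.sound1 α (S → ZMod 2) g pre post lam rho hlam hex
  have hfinlen : ∀ B : ℕ, {P : List α | P.length ≤ B}.Finite := fun B => List.finite_length_le α B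
  have hlx : ∀ k, k < K → ∀ P Q v u, P.length = c k → Q.length = g.p0 - c k →
      lam2 k P = some v → rho2 k Q 1 = some u → u = pre (P ++ Q) v :=
    fun k hk P Q v u hP _ h1 h2 => x1 k hk P Q 1 v u hP h1 h2
  -- finite left languages
  have hf1 : ∀ v, (L1 v).Finite := fun v => (hfinlen (p0 + N1)).subset fun P hP => by
    obtain ⟨h1, h2⟩ := hP
    have h3 := hlam _ _ h2
    rw [List.length_drop] at h3
    show P.length ≤ p0 + N1
    omega
  have hf2 : ∀ v, (L2 v).Finite := fun v => (hfinlen p0).subset fun P hP => by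
    obtain ⟨k, hk, h1, h2⟩ := hP
    have := hcp k hk
    show P.length ≤ p0
    omega
  -- completeness of scheme 1
  have hc1 : ∀ X, g.XX X → ¬ g.BadX BadT X → ∀ v, ∃ P Q b, X = P ++ Q ∧ g.LP1 pre lam v P ∧
      g.RQ1 rho b Q := by
    intro X hX hb v
    have hb' : ¬ g.E X ∧ ¬ BadT (X.length - g.p0) := by
      constructor
      · exact fun h => hb (Or.inl h)
      · exact fun h => hb (Or.inr h)
    refine g.complete1 pre hlam hX hb'.1 (fun u => ?_) v
    have hXz := hX.1
    have hAm : ∀ j ≤ m, GridG_19.Am G M 0 j ≤ GridG_19.Am G M 0 m := fun j hj =>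
      GridG_19.Am_mono G M 0 hj
    have hl : (X.drop g.p0).length = X.length - g.p0 := List.length_drop
    obtain ⟨d1, d2⟩ := GridRuler_257.clear_of_not_bad (A := GridG_19.Am G M 0) (m := m) hGpos
      (T := X.length - g.p0) (fun j h1 h2 => by
        have := hAm j h2
        omega) hb'.2
    obtain ⟨P, Q, e, h1, h2⟩ := gC (X.drop g.p0) (by rw [hl]; omega) (by rw [hl]; omega)
      (fun q hq => by rw [hl]; exact d1 q hq) (by
        rintro ⟨k, hk, hbad⟩
        rw [hl] at hbad
        obtain ⟨e1, e2⟩ := d2 (k + 1) (by omega) (by omega)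
        rw [Nat.add_sub_cancel] at e1 e2
        omega) u
    exact ⟨P, Q, e.symm, h1, h2⟩
  have hcc1 : ∀ X ∈ C, X ∉ Bad → ∀ v, ∃ P Q, P ++ Q = X ∧ P ∈ L1 v ∧
      ∀ x, ∀ P' ∈ L1 x, P' ++ Q ∈ C ∧
        act x ((P' ++ Q).map φ).prod + nu (P' ++ Q) = act v (X.map φ).prod + nu X := by
    intro X hX hXb v
    obtain ⟨P, Q, b, rfl, hP, hQ⟩ := hc1 X hX (fun h => hXb ⟨hX, h⟩) v
    obtain ⟨-, t1⟩ := hs1 hP hQ
    refine ⟨P, Q, rfl, hP, fun x P' hP' => ?_⟩
    obtain ⟨t2, t3⟩ := hs1 (v := x) hP' hQ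
    refine ⟨t2, ?_⟩
    rw [← hT, ← hT, t1, t3]
  -- scheme 2
  have hs2 := @Sc2n_937.Geo.sound2 α (S → ZMod 2) g pre post BadT K c lam2
    (fun k Q => rho2 k Q 1) hcp hlx
  have hgap' : ∀ P Q : List α, g.Wo P → g.Wo (P ++ Q) → Q ≠ [] →
      2 * g.p0 + 2 * g.N1 < Q.length := by
    intro P Q h1 h2 h3
    have hQ : 0 < Q.length := List.length_pos_iff.2 h3
    have := hgap (P ++ Q) P.length (P ++ Q).length (by rw [List.length_append]; omega) le_rfl
      (by rw [List.take_left]; exact h1) (by rw [List.take_length]; exact h2)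
    rw [List.length_append] at this
    show 2 * p0 + 2 * N1 < Q.length
    omega
  have hsp : ∀ k k' l l', k < K → k' < K → l < K → l' < K → k' ≠ k → l' ≠ l →
      c k + c l' < c l + c k' + 2 * g.N1 → c l + c k' < c k + c l' + 2 * g.N1 → k = l := by
    intro k k' l l' _ _ _ _ h1 h2 h3 h4
    rcases hU3 k k' l l' h1.symm with ⟨h, -⟩ | h
    · exact h
    · exfalso
      have h5 : |(((U * 4 ^ k : ℕ) : ℤ) - (U * 4 ^ k' : ℕ)) -
          (((U * 4 ^ l : ℕ) : ℤ) - (U * 4 ^ l' : ℕ))| ≤ 4 * N1 := by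
        have h3' : U * 4 ^ k + U * 4 ^ l' < U * 4 ^ l + U * 4 ^ k' + 2 * N1 := h3
        have h4' : U * 4 ^ l + U * 4 ^ k' < U * 4 ^ k + U * 4 ^ l' + 2 * N1 := h4
        rw [abs_le]
        constructor <;> omega
      omega
  have hthin : ∀ τ, g.z ≤ τ + g.p0 → ∀ J : Finset ℕ, (∀ k ∈ J, k < K ∧
      ∃ k', k' < K ∧ k' ≠ k ∧ BadT (τ + c k' - c k - g.p0)) → J.card ≤ r + m := by
    intro τ hτ J hJ
    choose! k1 hk1 using fun k hk => (hJ k hk).2
    have h1 := hU4 ((τ : ℤ) - p0) (J.image fun k => (k1 k, k)) (by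
      intro ab hab
      obtain ⟨k, hk, rfl⟩ := Finset.mem_image.1 hab
      obtain ⟨a1, a2, a3⟩ := hk1 k hk
      have a0 := (hJ k hk).1
      refine ⟨a1, a0, a2, ?_⟩
      have b1 := hcp k a0
      have b2 := hcp (k1 k) a1
      have e : (τ : ℤ) - p0 + ((U * 4 ^ k1 k : ℕ) : ℤ) - ((U * 4 ^ k : ℕ) : ℤ) =
          ((τ + c (k1 k) - c k - g.p0 : ℕ) : ℤ) := by
        have b1' : U * 4 ^ k ≤ p0 := b1
        have hτ' : p0 + N1 + q0 ≤ τ + p0 := hτ
        show (τ : ℤ) - p0 + ((U * 4 ^ k1 k : ℕ) : ℤ) - ((U * 4 ^ k : ℕ) : ℤ) =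
          ((τ + U * 4 ^ k1 k - U * 4 ^ k - p0 : ℕ) : ℤ)
        omega
      show GridRuler_257.BadZ Ms m M G (GridG_19.Am G M 0)
        ((τ : ℤ) - p0 + ((U * 4 ^ k1 k : ℕ) : ℤ) - ((U * 4 ^ k : ℕ) : ℤ))
      rw [e]
      exact a3)
    rw [Finset.card_image_of_injective _ (fun a b h => (Prod.ext_iff.1 h).2)] at h1
    omega
  have hcc2 : ∀ X ∈ Bad, ∀ Y ∈ Bad, ∀ v, ∃ P Q, P ++ Q = X ++ Y ∧ P ∈ L2 v ∧
      ∀ x, ∀ P' ∈ L2 x,
        (∃ X' ∈ Bad, ∃ Y' ∈ C, X' ++ Y' = P' ++ Q ∧
          act (act x (X'.map φ).prod + nu X') (Y'.map φ).prod + nu Y' =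
            act (act v (X.map φ).prod + nu X) (Y.map φ).prod + nu Y) ∨
        (∃ X' ∈ C, X' ∉ Bad ∧ X' <+: P' ++ Q) := by
    rintro X ⟨hX, hXb⟩ Y ⟨hY, -⟩ v
    have hXz := hX.1
    have ht0 : (X.take p0).length = p0 := by rw [List.length_take]; omega
    obtain ⟨I, hI1, hI2⟩ := x2 (X.take p0) 1 v (fun k hk => by rw [ht0]; exact hcp k hk)
    obtain ⟨P, Q, b, e, hP, hQ⟩ := Sc2n_937.Geo.complete2 g pre post (BadT := BadT) (K := K)
      (c := c) (lam2 := lam2) (rho2 := fun k Q => rho2 k Q 1) (C0 := r + m) hcp hgap' hsp hthin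
      hX hY v ⟨I, hI1, fun k hk => by
        obtain ⟨i1, i2, i3⟩ := hI2 k hk
        refine ⟨i1, ?_, i3⟩
        rw [List.take_take, min_eq_left (hcp k i1)] at i2
        exact i2⟩
    have hval : g.T pre post (g.T pre post v X) Y = b := by
      obtain ⟨X2, _, e1, e2⟩ := hs2 (R := []) (R' := Y) hX hXb hP hQ (by
        rw [List.append_nil]; exact e)
      have : X2 = Y := by
        rw [e] at e1
        exact (List.append_cancel_left e1).symm
      rw [← this]; exact e2
    refine ⟨P, Q, e, hP, fun x P' hP' => ?_⟩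
    -- a block inside
    obtain ⟨X', hX', R', e'⟩ : ∃ X', g.XX X' ∧ ∃ R', X' ++ R' = P' ++ Q := by
      obtain ⟨k0, hk0, hPl, hl⟩ := hP'
      obtain ⟨k, hk, l, hend, hgood, -⟩ := hQ
      by_cases hkk : k0 = k
      · subst hkk
        exact ⟨P' ++ Q.take l, g.xx_of_cend (by rw [hPl]; exact hcp k0 hk0)
          (by rw [hPl]; exact hend), Q.drop l, by
            rw [List.append_assoc, List.take_append_drop]⟩
      · obtain ⟨l', he', -⟩ := hgood k0 hk0 hkk
        exact ⟨P' ++ Q.take l', g.xx_of_cend (by rw [hPl]; exact hcp k0 hk0)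
          (by rw [hPl]; exact he'), Q.drop l', by
            rw [List.append_assoc, List.take_append_drop]⟩
    by_cases hb' : g.BadX BadT X'
    · left
      obtain ⟨X2, hX2, e1, e2⟩ := hs2 (v := x) (R := []) (R' := R') hX' hb' hP' hQ (by
        rw [List.append_nil]; exact e'.symm)
      refine ⟨X', ⟨hX', hb'⟩, X2, hX2, e1.symm, ?_⟩
      rw [← hT, ← hT, ← hT, ← hT, e2, hval]
    · right
      exact ⟨X', hX', fun h => hb' h.2, R', e'⟩
  -- heights
  have hfree' : ∀ u : List α, (∀ t < u.length, ¬ Wo (u.take t)) →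
      u ∈ (BddReg_746.PN (max Bw (2 * p0 + 2 * N1)) 2 : Language α) := fun u hu =>
    free_PN (hfree u hu)
  have hXXiff : ∀ X, g.XX X ↔ P4_933.XX Wo g.z X := by
    intro X
    constructor
    · rintro ⟨h1, h2, h3⟩
      exact ⟨h2, h1, fun t ht hz => h3 t hz ht⟩
    · rintro ⟨h1, h2, h3⟩
      exact ⟨h2, h1, fun t hz ht => h3 t ht hz⟩
  set A := p0 + GridG_19.Ac G M 0 m with hA
  have hPM : 0 < M * G m := Nat.mul_pos hM (hGpos m)
  have hregnu : ∀ (x y : S → ZMod 2) (q q2 : List α), A + (g.z + N1) ≤ q.length →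
      A + (g.z + N1) ≤ q2.length → q.take (A + (g.z + N1)) = q2.take (A + (g.z + N1)) →
      q.length % (M * G m) = q2.length % (M * G m) →
      ((q.drop (A + (g.z + N1))).map φ).prod = ((q2.drop (A + (g.z + N1))).map φ).prod →
      (act x (q.map φ).prod + nu q = y ↔ act x (q2.map φ).prod + nu q2 = y) := by
    intro x y q q2 h1 h2 h3 h4 h5
    have hdrop : ∀ a ≤ A + (g.z + N1), ((q.drop a).map φ).prod = ((q2.drop a).map φ).prod := by
      intro a ha
      have k1 : ∀ w : List α, w.drop a =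
          (w.take (A + (g.z + N1))).drop a ++ w.drop (A + (g.z + N1)) := by
        intro w
        conv_lhs => rw [← List.take_append_drop (A + (g.z + N1)) w]
        by_cases hw : A + (g.z + N1) ≤ w.length
        · rw [List.drop_append_of_le_length (by rw [List.length_take]; omega)]
        · rw [List.drop_of_length_le (show w.length ≤ A + (g.z + N1) by omega), List.append_nil,
            List.append_nil]
      rw [k1 q, k1 q2, h3, List.map_append, List.map_append, List.prod_append, List.prod_append, h5]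
    have htake : ∀ a ≤ A + (g.z + N1), q.take a = q2.take a := by
      intro a ha
      have := congrArg (fun l => l.take a) h3
      simp only [List.take_take, min_eq_left ha] at this
      exact this
    have e0 := hdrop 0 (Nat.zero_le _)
    rw [List.drop_zero, List.drop_zero] at e0
    have e1 := hdrop p0 (by omega)
    have e2 := htake p0 (by omega)
    have e3 : nu1 (q.drop p0) = nu1 (q2.drop p0) := by
      refine gF _ _ (by rw [List.length_drop]; omega) (by rw [List.length_drop]; omega) ?_ ?_ e1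
      · have := congrArg (fun l => l.drop p0) (htake A (by omega))
        simp only [List.drop_take] at this
        rw [hA, Nat.add_sub_cancel_left] at this
        exact this
      · rw [List.length_drop, List.length_drop]
        have h4' : q.length ≡ q2.length [MOD M * G m] := h4
        refine Nat.ModEq.add_right_cancel' p0 ?_
        rw [Nat.sub_add_cancel (by omega), Nat.sub_add_cancel (by omega)]
        exact h4'
    have e4 : nu q = nu q2 := by
      rw [hnu]
      unfold nuT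
      rw [e1, e2, e3]
    rw [e0, e4]
  have hCT : ∀ x y, HL 1 ({X | X ∈ C ∧ act x (X.map φ).prod + nu X = y} : Language α) := by
    intro x y
    have hreg : Language.IsRegular ({X | act x (X.map φ).prod + nu X = y} : Language α) :=
      Loc_354.regular_of_local φ (A + (g.z + N1)) (M * G m) hPM _ (fun q q2 h1 h2 h3 h4 h5 =>
        hregnu x y q q2 h1 h2 h3 h4 h5)
    refine (P4_933.hl_XX (z := g.z) hLW.app hLW.len hfree' hreg).congr fun w => ?_
    constructor
    · rintro ⟨h1, h2⟩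
      exact ⟨(hXXiff w).1 h1, h2⟩
    · rintro ⟨h1, h2⟩
      exact ⟨(hXXiff w).2 h1, h2⟩
  have hBT : ∀ x y, HL 1 ({X | X ∈ Bad ∧ act x (X.map φ).prod + nu X = y} : Language α) := by
    intro x y
    have hreg : Language.IsRegular ({X | g.BadX BadT X ∧ act x (X.map φ).prod + nu X = y} :
        Language α) := by
      refine Loc_354.regular_of_local φ (A + (g.z + N1)) (M * G m) hPM _
        (fun q q2 h1 h2 h3 h4 h5 => ?_)
      have hE : ∀ q q2 : List α, A + (g.z + N1) ≤ q2.length →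
          q.take (A + (g.z + N1)) = q2.take (A + (g.z + N1)) → g.E q → g.E q2 := by
        rintro q q2 k1 k2 ⟨t, t1, t2, t3, t4⟩
        have t4' : t < g.z + N1 := t4
        refine ⟨t, by omega, ?_, t3, t4⟩
        have := congrArg (fun l => l.take t) k2
        simp only [List.take_take, min_eq_left (show t ≤ A + (g.z + N1) by omega)] at this
        rw [← this]; exact t2
      have hB : BadT (q.length - g.p0) ↔ BadT (q2.length - g.p0) := by
        refine BT_mod hMs (fun j => hGd _ _ (Nat.le_succ j)) ?_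
        have h4' : q.length ≡ q2.length [MOD M * G m] := h4
        have : q.length - p0 ≡ q2.length - p0 [MOD M * G m] := by
          refine Nat.ModEq.add_right_cancel' p0 ?_
          rw [Nat.sub_add_cancel (by omega), Nat.sub_add_cancel (by omega)]
          exact h4'
        exact this
      have hEE : g.E q ↔ g.E q2 := ⟨hE q q2 h2 h3, hE q2 q h1 h3.symm⟩
      have hBX : g.BadX BadT q ↔ g.BadX BadT q2 := by
        unfold Sc2n_937.Geo.BadX
        rw [hEE, hB]
      show (g.BadX BadT q ∧ act x (q.map φ).prod + nu q = y) ↔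
        (g.BadX BadT q2 ∧ act x (q2.map φ).prod + nu q2 = y)
      rw [hBX, hregnu x y q q2 h1 h2 h3 h4 h5]
    refine (P4_933.hl_XX (z := g.z) hLW.app hLW.len hfree' hreg).congr fun w => ?_
    constructor
    · rintro ⟨⟨h1, h2⟩, h3⟩
      exact ⟨(hXXiff w).1 h1, h2, h3⟩
    · rintro ⟨h1, h2, h3⟩
      exact ⟨⟨(hXXiff w).2 h1, h2⟩, h3⟩
  have htail : ∀ s, HL 1 ({w | (∀ X ∈ C, ¬ X <+: w) ∧ (w.map φ).prod = s} : Language α) := by
    intro s
    have hreg : Language.IsRegular ({w | (w.map φ).prod = s} : Language α) :=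
      Loc_354.regular_of_local φ 0 1 one_pos _ (fun q q2 _ _ _ _ h5 => by
        rw [List.drop_zero, List.drop_zero] at h5
        show (q.map φ).prod = s ↔ (q2.map φ).prod = s
        rw [h5])
    refine (P4_933.hl_NB (z := g.z) hLW.app hLW.len hfree' hreg).congr fun w => ?_
    constructor
    · rintro ⟨h1, h2⟩
      exact ⟨(P4_933.NB_iff Wo g.z w).2 fun P hP hX => h1 P ((hXXiff P).2 hX) hP, h2⟩
    · rintro ⟨h1, h2⟩
      exact ⟨fun X hX hP => (P4_933.NB_iff Wo g.z w).1 h1 X hP ((hXXiff X).1 hX), h2⟩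
  exact Top5_120.top5 act hadd hone hmul hfaith φ nu C Bad hC (fun X hX => hX.1) L1 L2 hf1 hf2
    hCT hBT htail hcc1 hcc2 s

end Crest.Agent.R320.Fin_407
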