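import Crest.Agent.R320.Reg_236
import Crest.Agent.R320.Hk2_851

/-! Row 320, P4 of the final plan: the two height-one families needed by the top theorem,
for the natural chain rule and left-looking walls on ALL words. -/

set_option autoImplicit false

namespace Crest.Agent.R320.XT_176

open Crest.RegLang Crest.Agent.R320.Hk_851 Crest.Agent.R320.Reg_236

variable {α : Type*}

/-- predicate as language -/
def lg (P : List α → Prop) : Language α := {w | P w}

theorem mem_lg {P : List α → Prop} {w : List α} : w ∈ lg P ↔ P w := Iff.rfl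

theorem reg_add {L M : Language α} (hL : L.IsRegular) (hM : M.IsRegular) :
    (L + M).IsRegular := hL.add hM

theorem reg_inf {L M : Language α} (hL : L.IsRegular) (hM : M.IsRegular) :
    (L ⊓ M).IsRegular := hL.inf hM

theorem reg_iUnion {ι : Type*} [Finite ι] {L : ι → Language α} (h : ∀ i, (L i).IsRegular) :
    Language.IsRegular (lg fun w : List α => ∃ i, w ∈ L i) := by
  classical
  cases nonempty_fintype ι
  have key : ∀ s : Finset ι, Language.IsRegular (lg fun w : List α => ∃ i ∈ s, w ∈ L i) := by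
    intro s
    induction s using Finset.induction_on with
    | empty =>
      have : (lg fun w : List α => ∃ i ∈ (∅ : Finset ι), w ∈ L i) = 0 := by
        ext w
        constructor
        · rintro ⟨i, hi, -⟩; simp at hi
        · intro hw; exact absurd hw (Language.notMem_zero w)
      rw [this]; exact isRegular_zero
    | insert a s ha ih =>
      have : (lg fun w : List α => ∃ i ∈ insert a s, w ∈ L i) =
          L a + (lg fun w : List α => ∃ i ∈ s, w ∈ L i) := by
        ext w
        rw [Language.mem_add]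
        constructor
        · rintro ⟨i, hi, hw⟩
          rcases Finset.mem_insert.1 hi with rfl | hi
          · exact Or.inl hw
          · exact Or.inr ⟨i, hi, hw⟩
        · rintro (hw | ⟨i, hi, hw⟩)
          · exact ⟨a, Finset.mem_insert_self _ _, hw⟩
          · exact ⟨i, Finset.mem_insert_of_mem hi, hw⟩
      rw [this]; exact reg_add (h a) ih
  have := key Finset.univ
  have e : (lg fun w : List α => ∃ i ∈ (Finset.univ : Finset ι), w ∈ L i) =
      (lg fun w : List α => ∃ i, w ∈ L i) := by
    ext w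
    constructor
    · rintro ⟨i, -, h⟩; exact ⟨i, h⟩
    · rintro ⟨i, h⟩; exact ⟨i, Finset.mem_univ _, h⟩
  rwa [e] at this

/-- the block code -/
def XX (Wo : List α → Prop) (z : ℕ) : Set (List α) :=
  {X | z ≤ X.length ∧ Wo X ∧ ∀ t, t < X.length → z ≤ t → ¬ Wo (X.take t)}

theorem XX_pc (Wo : List α → Prop) (z : ℕ) {X Y : List α} (hX : X ∈ XX Wo z)
    (hY : Y ∈ XX Wo z) (h : X <+: Y) : X = Y := by
  rcases lt_or_eq_of_le h.length_le with hl | hl
  · exact absurd (by rw [List.prefix_iff_eq_take.1 h] at hX; exact hX.2.1)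
      (hY.2.2 X.length hl hX.1)
  · exact h.eq_of_length hl

theorem XX_nil (Wo : List α → Prop) (z : ℕ) (hz : 0 < z) : [] ∉ XX Wo z := by
  rintro ⟨h, -⟩; simp at h; omega

/-- zone map -/
def T {S V : Type*} [Monoid S] [AddCommGroup V] (f : α → S) (act : V → S → V)
    (nu1 nu2 : List α → V) (p0 : ℕ) (v : V) (X : List α) : V :=
  act (act v ((X.take p0).map f).prod + nu2 (X.take p0)) ((X.drop p0).map f).prod +
    nu1 (X.drop p0)

variable [Finite α]

theorem reg_prod {S : Type*} [Monoid S] [Finite S] (f : α → S) (s : S) :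
    Language.IsRegular (lg fun w : List α => (w.map f).prod = s) := by
  classical
  cases nonempty_fintype S
  rw [Language.isRegular_iff]
  refine ⟨S, inferInstance, ⟨fun t a => t * f a, 1, {t | t = s}⟩, ?_⟩
  ext w
  rw [DFA.mem_accepts]
  have : ∀ (w : List α) (t : S),
      DFA.evalFrom (⟨fun t a => t * f a, 1, {t | t = s}⟩ : DFA α S) t w =
        t * (w.map f).prod := by
    intro w
    induction w with
    | nil => intro t; simp
    | cons a w ih => intro t; rw [DFA.evalFrom_cons, ih]; simp [mul_assoc]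
  change DFA.evalFrom _ 1 w ∈ _ ↔ _
  rw [this w 1, one_mul]
  rfl

variable {Wo : List α → Prop} {n z : ℕ}

theorem HL_Wo (k : ℕ) (hWo : ∀ P Q : List α, n ≤ Q.length → (Wo (P ++ Q) ↔ Wo Q))
    (hWn : ∀ Q, Wo Q → n ≤ Q.length) : HL k (lg fun X : List α => Wo X) := by
  have hf : ({Q : List α | Q.length = n ∧ Wo Q}).Finite :=
    (List.finite_length_eq α n).subset fun Q hQ => hQ.1
  have h1 : HL k ((⊤ : Language α) * (lg fun Q : List α => Q.length = n ∧ Wo Q)) :=
    HL.top.mul (HL.finite hf)
  refine h1.congr fun w => ?_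
  rw [Language.mem_mul]
  constructor
  · intro hw
    have hn := hWn w hw
    refine ⟨w.take (w.length - n), trivial, w.drop (w.length - n), ⟨?_, ?_⟩,
      List.take_append_drop _ _⟩
    · rw [List.length_drop]; omega
    · rw [← hWo (w.take (w.length - n)) (w.drop (w.length - n)) (by rw [List.length_drop]; omega),
        List.take_append_drop]
      exact hw
  · rintro ⟨P, -, Q, ⟨hQ1, hQ2⟩, rfl⟩
    exact (hWo P Q hQ1.ge).2 hQ2

/-- words with no block prefix -/
def NP (Wo : List α → Prop) (z : ℕ) : Set (List α) := {r | ∀ X ∈ XX Wo z, ¬ X <+: r}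

theorem NP_iff (r : List α) : r ∈ NP Wo z ↔ ∀ t, t ≤ r.length → z ≤ t → ¬ Wo (r.take t) := by
  classical
  constructor
  · intro h t ht hz hw
    -- least such t
    have hex : ∃ t, t ≤ r.length ∧ z ≤ t ∧ Wo (r.take t) := ⟨t, ht, hz, hw⟩
    obtain ⟨h1, h2, h3⟩ := Nat.find_spec hex
    refine h (r.take (Nat.find hex)) ⟨?_, h3, ?_⟩ (List.take_prefix _ _)
    · rw [List.length_take]; omega
    · intro t' ht' hz' hw'
      rw [List.length_take] at ht'
      have ht2 : t' < Nat.find hex := by omega
      rw [List.take_take, min_eq_left ht2.le] at hw'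
      exact Nat.find_min hex ht2 ⟨by omega, hz', hw'⟩
  · rintro h X ⟨h1, h2, -⟩ hp
    have hl := hp.length_le
    rw [List.prefix_iff_eq_take.1 hp] at h2
    exact h X.length hl h1 h2

theorem HL_Ex (k : ℕ) (hWo : ∀ P Q : List α, n ≤ Q.length → (Wo (P ++ Q) ↔ Wo Q))
    (hWn : ∀ Q, Wo Q → n ≤ Q.length) :
    HL k (lg fun X : List α => ∃ t, t < X.length ∧ z ≤ t ∧ Wo (X.take t)) := by
  have h1 : HL k (((lg fun X : List α => Wo X) ⊓ (lg fun X : List α => z ≤ X.length)) *
      (lg fun X : List α => 1 ≤ X.length)) :=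
    ((HL_Wo k hWo hWn).inf (HL.length_ge z)).mul (HL.length_ge 1)
  refine h1.congr fun w => ?_
  rw [Language.mem_mul]
  constructor
  · rintro ⟨t, h1, h2, h3⟩
    refine ⟨w.take t, ⟨h3, ?_⟩, w.drop t, ?_, List.take_append_drop _ _⟩
    · change z ≤ (w.take t).length
      rw [List.length_take]; omega
    · change 1 ≤ (w.drop t).length
      rw [List.length_drop]; omega
  · rintro ⟨P, ⟨hP1, hP2⟩, Q, hQ, rfl⟩
    have hP2' : z ≤ P.length := hP2
    have hQ' : 1 ≤ Q.length := hQ
    refine ⟨P.length, by simp; omega, hP2', ?_⟩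
    rw [List.take_left]; exact hP1

theorem HL_XX (k : ℕ) (hWo : ∀ P Q : List α, n ≤ Q.length → (Wo (P ++ Q) ↔ Wo Q))
    (hWn : ∀ Q, Wo Q → n ≤ Q.length) : HL k (lg fun X => X ∈ XX Wo z) := by
  have h1 : HL k (((lg fun X : List α => Wo X) ⊓ (lg fun X : List α => z ≤ X.length)) \
      (lg fun X : List α => ∃ t, t < X.length ∧ z ≤ t ∧ Wo (X.take t))) :=
    ((HL_Wo k hWo hWn).inf (HL.length_ge z)).sdiff (HL_Ex k hWo hWn)
  refine h1.congr fun w => ?_
  constructor
  · rintro ⟨h1, h2, h3⟩
    exact ⟨⟨h2, h1⟩, fun ⟨t, h4, h5, h6⟩ => h3 t h4 h5 h6⟩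
  · rintro ⟨⟨h1, h2⟩, h3⟩
    exact ⟨h2, h1, fun t h4 h5 h6 => h3 ⟨t, h4, h5, h6⟩⟩

theorem HL_NP (k : ℕ) (hWo : ∀ P Q : List α, n ≤ Q.length → (Wo (P ++ Q) ↔ Wo Q))
    (hWn : ∀ Q, Wo Q → n ≤ Q.length) : HL k (lg fun X => X ∈ NP Wo z) := by
  have h1 : HL k (((((lg fun X : List α => Wo X) ⊓ (lg fun X : List α => z ≤ X.length)) *
      (⊤ : Language α)))ᶜ) :=
    (((HL_Wo k hWo hWn).inf (HL.length_ge z)).mul HL.top).compl
  refine h1.congr fun w => ?_
  change w ∈ NP Wo z ↔ ¬ (w ∈ (((lg fun X => Wo X) ⊓ lg fun X => z ≤ X.length) * ⊤ : Language α))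
  rw [NP_iff]
  constructor
  · intro h hw
    obtain ⟨P, ⟨hP1, hP2⟩, Q, -, rfl⟩ := Language.mem_mul.1 hw
    have hP2' : z ≤ P.length := hP2
    refine h P.length (by simp) hP2' ?_
    rw [List.take_left]; exact hP1
  · intro h t ht hz hw
    refine h (Language.mem_mul.2 ⟨w.take t, ⟨hw, ?_⟩, w.drop t, trivial, List.take_append_drop _ _⟩)
    change z ≤ (w.take t).length
    rw [List.length_take]; omega

/-- shape: a word without walls at places in `[z, |X|)` is one run between bounded words -/
theorem shape {B W : ℕ} (hWo : ∀ P Q : List α, n ≤ Q.length → (Wo (P ++ Q) ↔ Wo Q))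
    (hWn : ∀ Q, Wo Q → n ≤ Q.length)
    (hB : ∀ X : List α, (∀ t, t < X.length → ¬ Wo (X.take t)) → ∃ u x v : List α, ∃ k : ℕ,
      u.length ≤ B ∧ x.length ≤ W ∧ v.length ≤ B ∧ X = u ++ (List.replicate k x).flatten ++ v)
    (hz : n ≤ z) (X : List α) (h : ∀ t, t < X.length → z ≤ t → ¬ Wo (X.take t)) :
    ∃ l : List (List α × List α × ℕ), l.length ≤ 2 ∧
      (∀ t ∈ l, t.1.length ≤ z + B + W ∧ t.2.1.length ≤ z + B + W) ∧ X = wd l := by
  obtain ⟨u, x, v, k, hu, hx, hv, e⟩ := hB (X.drop (z - n)) (by
    intro t ht hw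
    have hn := hWn _ hw
    rw [List.length_take] at hn
    rw [List.length_drop] at ht
    refine h (z - n + t) (by omega) (by omega) ?_
    have e2 : X.take (z - n + t) = X.take (z - n) ++ (X.drop (z - n)).take t := by
      rw [List.take_add]
    rw [e2, hWo _ _ (by rw [List.length_take]; omega)]
    exact hw)
  refine ⟨[(X.take (z - n) ++ u, x, k), (v, [], 0)], by simp, ?_, ?_⟩
  · intro t ht
    simp only [List.mem_cons, List.not_mem_nil, or_false] at ht
    rcases ht with rfl | rfl
    · constructor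
      · simp only [List.length_append, List.length_take]; omega
      · simp only; omega
    · constructor
      · simp only; omega
      · simp
  · conv_lhs => rw [← List.take_append_drop (z - n) X, e]
    simp [wd, rep]

variable {S V : Type*} [Monoid S] [Finite S] [AddCommGroup V] [Finite V]

theorem hNP {B W : ℕ} (f : α → S) (hWo : ∀ P Q : List α, n ≤ Q.length → (Wo (P ++ Q) ↔ Wo Q))
    (hWn : ∀ Q, Wo Q → n ≤ Q.length)
    (hB : ∀ X : List α, (∀ t, t < X.length → ¬ Wo (X.take t)) → ∃ u x v : List α, ∃ k : ℕ,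
      u.length ≤ B ∧ x.length ≤ W ∧ v.length ≤ B ∧ X = u ++ (List.replicate k x).flatten ++ v)
    (hz : n ≤ z) (s : S) :
    HL 1 (lg fun r : List α => (∀ X ∈ XX Wo z, ¬ X <+: r) ∧ (r.map f).prod = s) := by
  refine HL_one_of_bounded (L := (lg fun r : List α => (∀ X ∈ XX Wo z, ¬ X <+: r) ∧ (r.map f).prod = s)) ?_ 2 (z + B + W) ?_
  · exact reg_inf (HL.isRegular (HL_NP 0 hWo hWn)) (reg_prod f s)
  · rintro w ⟨hw, -⟩
    exact shape hWo hWn hB hz w fun t ht hzt => (NP_iff w).1 hw t ht.le hzt

theorem reg_T (f : α → S) (act : V → S → V) (nu1 nu2 : List α → V) (p0 : ℕ)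
    (hnu : ∀ x, Language.IsRegular (lg fun Y : List α => nu1 Y = x)) (v v' : V) :
    Language.IsRegular (lg fun X : List α => p0 ≤ X.length ∧ T f act nu1 nu2 p0 v X = v') := by
  classical
  have hfin : Finite {P : List α // P.length = p0} := (List.finite_length_eq α p0).to_subtype
  let F : {P : List α // P.length = p0} × S × V → Language α := fun i =>
    if act (act v ((i.1.1).map f).prod + nu2 i.1.1) i.2.1 + i.2.2 = v' then
      ({i.1.1} : Language α) *
        ((lg fun Y : List α => (Y.map f).prod = i.2.1) ⊓ (lg fun Y : List α => nu1 Y = i.2.2))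
    else 0
  have hF : ∀ i, (F i).IsRegular := by
    intro i
    simp only [F]
    split_ifs
    · exact isRegular_mul (HL.isRegular (k := 0) (HL.word _)) (reg_inf (reg_prod f _) (hnu _))
    · exact isRegular_zero
  have := reg_iUnion hF
  have e : (lg fun w : List α => ∃ i, w ∈ F i) =
      (lg fun X : List α => p0 ≤ X.length ∧ T f act nu1 nu2 p0 v X = v') := by
    ext w
    constructor
    · rintro ⟨⟨⟨P, hP⟩, s, x⟩, hw⟩
      simp only [F] at hw
      split_ifs at hw with hc
      · obtain ⟨P', hP', Y, ⟨hY1, hY2⟩, rfl⟩ := Language.mem_mul.1 hw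
        have hPP : P' = P := hP'
        subst hPP
        have hY1' : (Y.map f).prod = s := hY1
        have hY2' : nu1 Y = x := hY2
        refine ⟨by simp [hP], ?_⟩
        unfold T
        rw [← hP, List.take_left, List.drop_left, hY1', hY2']
        exact hc
      · exact absurd hw (Language.notMem_zero w)
    · rintro ⟨h1, h2⟩
      have hl : (w.take p0).length = p0 := by rw [List.length_take]; omega
      refine ⟨⟨⟨w.take p0, hl⟩, ((w.drop p0).map f).prod, nu1 (w.drop p0)⟩, ?_⟩
      unfold T at h2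
      simp only [F]
      rw [if_pos h2]
      exact Language.mem_mul.2 ⟨w.take p0, rfl, w.drop p0, ⟨rfl, rfl⟩, List.take_append_drop _ _⟩
  rwa [e] at this

theorem hXT {B W : ℕ} (f : α → S) (act : V → S → V) (nu1 nu2 : List α → V) (p0 : ℕ)
    (hnu : ∀ x, Language.IsRegular (lg fun Y : List α => nu1 Y = x))
    (hWo : ∀ P Q : List α, n ≤ Q.length → (Wo (P ++ Q) ↔ Wo Q))
    (hWn : ∀ Q, Wo Q → n ≤ Q.length)
    (hB : ∀ X : List α, (∀ t, t < X.length → ¬ Wo (X.take t)) → ∃ u x v : List α, ∃ k : ℕ,
      u.length ≤ B ∧ x.length ≤ W ∧ v.length ≤ B ∧ X = u ++ (List.replicate k x).flatten ++ v)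
    (hz : n ≤ z) (hp : p0 ≤ z) (v v' : V) :
    HL 1 (lg fun X : List α => X ∈ XX Wo z ∧ T f act nu1 nu2 p0 v X = v') := by
  refine HL_one_of_bounded (L := (lg fun X : List α => X ∈ XX Wo z ∧ T f act nu1 nu2 p0 v X = v')) ?_ 2 (z + B + W) ?_
  · have h := reg_inf (HL.isRegular (HL_XX (z := z) 0 hWo hWn))
      (reg_T f act nu1 nu2 p0 hnu v v')
    have e : ((lg fun X => X ∈ XX Wo z) ⊓
        (lg fun X : List α => p0 ≤ X.length ∧ T f act nu1 nu2 p0 v X = v')) =
        (lg fun X : List α => X ∈ XX Wo z ∧ T f act nu1 nu2 p0 v X = v') := by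
      ext w
      constructor
      · rintro ⟨h1, -, h2⟩; exact ⟨h1, h2⟩
      · rintro ⟨h1, h2⟩
        have h3 : z ≤ w.length := h1.1
        exact ⟨h1, by omega, h2⟩
    rwa [e] at h
  · rintro w ⟨hw, -⟩
    exact shape hWo hWn hB hz w hw.2.2

/-- regularity of the noise from its locality -/
theorem regular_of_mod (f : α → S) (nu1 : List α → V) (La Pm : ℕ) (hP : 0 < Pm)
    (h : ∀ Y Y' : List α, La ≤ Y.length → La ≤ Y'.length → Y.take La = Y'.take La →
      Y.length % Pm = Y'.length % Pm → (Y.map f).prod = (Y'.map f).prod → nu1 Y = nu1 Y')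
    (x : V) : Language.IsRegular (lg fun Y : List α => nu1 Y = x) := by
  classical
  haveI : NeZero Pm := ⟨hP.ne'⟩
  have hfin : Finite {P : List α // P.length = La} := (List.finite_length_eq α La).to_subtype
  let M := S × Multiplicative (ZMod Pm)
  let g : α → M := fun a => (f a, Multiplicative.ofAdd (1 : ZMod Pm))
  haveI : Finite M := by
    haveI : Finite (Multiplicative (ZMod Pm)) := (inferInstance : Finite (ZMod Pm))
    infer_instance
  have hg : ∀ w : List α, (w.map g).prod = ((w.map f).prod,
      Multiplicative.ofAdd ((w.length : ℕ) : ZMod Pm)) := by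
    intro w
    induction w with
    | nil => simp; rfl
    | cons a w ih =>
      rw [List.map_cons, List.prod_cons, ih]
      change (f a * (w.map f).prod, Multiplicative.ofAdd (1 : ZMod Pm) *
        Multiplicative.ofAdd ((w.length : ℕ) : ZMod Pm)) = _
      rw [← ofAdd_add]
      simp only [List.map_cons, List.prod_cons, List.length_cons, Nat.cast_add, Nat.cast_one]
      rw [add_comm (1 : ZMod Pm)]
  let F : {P : List α // P.length = La} × M → Language α := fun i =>
    (lg fun w : List α => w ∈ (({i.1.1} : Language α) * (lg fun Y : List α => (Y.map g).prod = i.2)) ∧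
      ∃ R : List α, (R.map g).prod = i.2 ∧ nu1 (i.1.1 ++ R) = x)
  have hF : ∀ i, (F i).IsRegular := by
    intro i
    by_cases hc : ∃ R : List α, (R.map g).prod = i.2 ∧ nu1 (i.1.1 ++ R) = x
    · have : F i = ({i.1.1} : Language α) * (lg fun Y : List α => (Y.map g).prod = i.2) := by
        ext w
        exact ⟨fun hw => hw.1, fun hw => ⟨hw, hc⟩⟩
      rw [this]
      exact isRegular_mul (HL.isRegular (k := 0) (HL.word _)) (reg_prod g _)
    · have : F i = 0 := by
        ext w
        exact ⟨fun hw => absurd hw.2 hc, fun hw => absurd hw (Language.notMem_zero w)⟩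
      rw [this]; exact isRegular_zero
  have h1 := reg_iUnion hF
  have hshort : Language.IsRegular (lg fun Y : List α => Y.length < La ∧ nu1 Y = x) := by
    refine HL.isRegular (k := 0) (HL.finite (s := {Y | Y.length < La ∧ nu1 Y = x}) ?_)
    exact (List.finite_length_le α La).subset fun Y hY => le_of_lt hY.1
  have h2 := reg_add hshort h1
  have e : ((lg fun Y : List α => Y.length < La ∧ nu1 Y = x) + (lg fun w : List α => ∃ i, w ∈ F i)) =
      (lg fun Y : List α => nu1 Y = x) := by
    ext w
    rw [Language.mem_add]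
    constructor
    · rintro (⟨-, h3⟩ | ⟨⟨⟨P, hPl⟩, mm⟩, ⟨hw, R, hR1, hR2⟩⟩)
      · exact h3
      · obtain ⟨P', hP', Y, hY, rfl⟩ := Language.mem_mul.1 hw
        have hPP : P' = P := hP'
        subst hPP
        have hY' : (Y.map g).prod = mm := hY
        have heq : (Y.map g).prod = (R.map g).prod := by rw [hY', hR1]
        rw [hg, hg] at heq
        have e1 : (Y.map f).prod = (R.map f).prod := congrArg Prod.fst heq
        have e2 : ((Y.length : ℕ) : ZMod Pm) = ((R.length : ℕ) : ZMod Pm) := by
          have := congrArg Prod.snd heq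
          exact Multiplicative.ofAdd.injective this
        have e3 : Y.length % Pm = R.length % Pm := (ZMod.natCast_eq_natCast_iff' _ _ _).1 e2
        change nu1 (P' ++ Y) = x
        rw [← hR2]
        refine h _ _ (by simp [hPl]) (by simp [hPl]) ?_ ?_ ?_
        · change (P' ++ Y).take La = (P' ++ R).take La
          have e4 : ∀ Z : List α, (P' ++ Z).take La = P' := fun Z => by
            have : (P' ++ Z).take P'.length = P' := List.take_left
            rwa [hPl] at this
          rw [e4, e4]
        · simp only [List.length_append]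
          rw [Nat.add_mod, e3, ← Nat.add_mod]
        · simp only [List.map_append, List.prod_append, e1]
    · intro hw
      have hw' : nu1 w = x := hw
      by_cases hl : w.length < La
      · exact Or.inl ⟨hl, hw'⟩
      · right
        have hl2 : (w.take La).length = La := by rw [List.length_take]; omega
        refine ⟨⟨⟨w.take La, hl2⟩, ((w.drop La).map g).prod⟩, ?_, w.drop La, rfl, ?_⟩
        · exact Language.mem_mul.2 ⟨w.take La, rfl, w.drop La, rfl, List.take_append_drop _ _⟩
        · simp only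
          rw [List.take_append_drop]; exact hw'
  rwa [e] at h2

end Crest.Agent.R320.XT_176
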