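import Crest.Agent.R320.Sem_408
import Crest.Agent.R320.XT_176
import Crest.Agent.R320.OutRule_480
import Crest.Agent.R320.ExactR_237
import Crest.Agent.R320.G1_604
import Crest.Agent.R320.Sp_945
import Crest.Agent.R320.Loc_645
import Crest.Agent.R320.Uni_366

/-!
# Row 320: final assembly (helper408)
-/

set_option autoImplicit false

namespace Crest.Agent.R320.Fin_408

open Crest.RegLang Crest.Agent.R320.Hk_851
open Crest.Agent.R320.Sc2n_937 Crest.Agent.R320.SemTop_727 Crest.Agent.R320.Blk467
open Crest.Agent.R320.Sem_408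

theorem coprime_aux (M k : ℕ) : Nat.Coprime (M * k + 1) M := by
  rw [Nat.coprime_iff_gcd_eq_one, Nat.gcd_comm]
  simp

theorem mainV (α : Type) [Finite α] (S V : Type) [Monoid S] [Finite S] [AddCommGroup V] [Finite V]
    (act : V → S → V) (hadd : ∀ a b s, act (a + b) s = act a s + act b s)
    (hone : ∀ v, act v 1 = v) (hmul : ∀ v s t, act v (s * t) = act (act v s) t)
    (hfaith : ∀ s t, (∀ v, act v s = act v t) → s = t) (φ : α → S) (s : S) :
    HL 3 ({w | (w.map φ).prod = s} : Language α) := by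
  classical
  have := Fintype.ofFinite S
  have := Fintype.ofFinite V
  obtain ⟨m, r, hg1⟩ := G1_604.g1 S V act
  obtain ⟨K, hK⟩ := ExactR_237.exact_gadget α S V φ act (2 * (r + m) + 2)
  obtain ⟨Ms, M, hcard, hMs, hM, hg⟩ := hg1 (2 ^ (K + 1))
  set b : ℕ := M * 2 ^ (K + 7) + 1 with hbdef
  have hp7 : 2 ^ (K + 7) = 2 * 2 ^ (K + 6) := by rw [pow_succ]; ring
  have hp6 : 64 ≤ 2 ^ (K + 6) := by
    have : 2 ^ 6 ≤ 2 ^ (K + 6) := Nat.pow_le_pow_right (by norm_num) (by omega)
    simpa using this
  have hb1 : 4 * M + 4 < b := by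
    have : M * 128 ≤ M * 2 ^ (K + 7) := Nat.mul_le_mul_left _ (by omega)
    omega
  have hb2 : 2 ^ (K + 6) * M < b := by
    have : M * 2 ^ (K + 6) ≤ M * 2 ^ (K + 7) := Nat.mul_le_mul_left _ (by omega)
    rw [Nat.mul_comm]
    omega
  have hcop : Nat.Coprime b M := coprime_aux M _
  obtain ⟨lam, rho, nu, h1, h2, h3, h4⟩ := hg b hb1 hcop α φ
  obtain ⟨c, hc1, -, -, hc4, hc5⟩ := Sp_945.spoil K m M Ms hM
    (fun k hk => ⟨(hMs k hk).1.le, (hMs k hk).2.2⟩) b hb2 hcop (4 * b ^ m)
  obtain ⟨lam2, rho2, nu2, he1, he2⟩ := hK c (fun i j h _ => hc1 i j h)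
  obtain ⟨n, Wo, hn, hlenW, hloc, hgapW, hfew⟩ :=
    OutRule_480.outer_rule_left (α := α) (2 * c K + 2 * b ^ m + 1)
  have hbpos : 0 < b ^ m := Nat.pow_pos (by omega)
  let g : Geo α :=
    { Wo := Wo
      n := n
      z := c K + b ^ m + (n + 2 * c K)
      p0 := c K
      q0 := n + 2 * c K
      N1 := b ^ m
      loc := hloc
      hz := rfl
      hq := by omega
      hN := hbpos
      hqp := by omega }
  let pre : List α → V → V := fun X v => act v (X.map φ).prod + nu2 X 1
  let post : V → List α → V := fun v Y => act v (Y.map φ).prod + nu Y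
  let lam2' : ℕ → List α → Option V := lam2
  let rho2' : ℕ → List α → Option V := fun k Q => rho2 k Q 1
  let D0 : Sch α V := Sem_408.D g pre post lam K c lam2'
  have hck : ∀ k, k < K → c k ≤ c K := fun k hk => (hc1 k K hk).le
  have hlen : ∀ P v, lam P = some v → P.length ≤ g.N1 := fun P v h => (h1 P v h).le
  have hex : ∀ P Q u v, lam P = some u → rho Q = some v → v = post u (P ++ Q) :=
    fun P Q u v ha hb => h2 P Q u v ha hb
  have hcomp : ∀ Y : List α, 0 ≤ Y.length → ¬ Sp_945.Bad Ms M m b Y.length → ∀ u : V,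
      ∃ P Q, Y = P ++ Q ∧ lam P = some u ∧ (rho Q).isSome := by
    intro Y _ hB u
    unfold Sp_945.Bad at hB
    push Not at hB
    obtain ⟨hB1, hB2⟩ := hB
    obtain ⟨P, Q, e, ha, hb⟩ := h3 Y hB1 (fun j hj => hB2 j hj) u
    exact ⟨P, Q, e.symm, ha, hb⟩
  have hex2 : ∀ k, k < K → ∀ P Q v u, P.length = c k → Q.length = g.p0 - c k →
      lam2' k P = some v → rho2' k Q = some u → u = pre (P ++ Q) v := by
    intro k hk P Q v u hP _ ha hb
    have := he1 k hk P Q 1 v u hP ha hb
    rw [mul_one] at this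
    exact this
  have hgap : ∀ P Q : List α, g.Wo P → g.Wo (P ++ Q) → Q ≠ [] →
      2 * g.p0 + 2 * g.N1 < Q.length := by
    intro P Q hP hPQ hQ
    have hQl : 0 < Q.length := List.length_pos_iff.2 hQ
    have := hgapW (P ++ Q) Q.length hPQ hQl (by rw [List.length_append]; omega) (by
      have e : (P ++ Q).length - Q.length = P.length := by rw [List.length_append]; omega
      rw [e, List.take_left]
      exact hP)
    show 2 * c K + 2 * b ^ m < Q.length
    omega
  have hsp : ∀ k k' l l', k < K → k' < K → l < K → l' < K → k' ≠ k → l' ≠ l →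
      c k + c l' < c l + c k' + 2 * g.N1 → c l + c k' < c k + c l' + 2 * g.N1 → k = l := by
    intro k k' l l' _ _ _ _ hk hl ha hb
    by_contra hne
    have := hc4 k k' l l' hk.symm hl.symm (fun h => hne (Prod.mk.inj h).1)
    change c k + c l' < c l + c k' + 2 * b ^ m at ha
    change c l + c k' < c k + c l' + 2 * b ^ m at hb
    omega
  have hthin : ∀ τ, g.z ≤ τ + g.p0 → ∀ J : Finset ℕ, (∀ k ∈ J, k < K ∧
      ∃ k', k' < K ∧ k' ≠ k ∧ Sp_945.Bad Ms M m b (τ + c k' - c k - g.p0)) →
      J.card ≤ r + m := by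
    intro τ hτ J hJ
    have hτ' : c K + b ^ m + (n + 2 * c K) ≤ τ + c K := hτ
    have hT : ∀ a < K, c a ≤ τ - c K := by
      intro a ha
      have := hck a ha
      omega
    have hcount := hc5 (τ - c K) hT
    choose! f hf using fun k (hk : k ∈ J) => (hJ k hk).2
    have hle : J.card ≤ ((Finset.range K ×ˢ Finset.range K).filter (fun q => q.1 ≠ q.2 ∧
        Sp_945.Bad Ms M m b ((τ - c K) + c q.2 - c q.1))).card := by
      refine Finset.card_le_card_of_injOn (fun k => (k, f k)) ?_ ?_
      · intro k hk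
        have hk' : k ∈ J := hk
        obtain ⟨a1, a2, a3⟩ := hf k hk'
        have a0 := (hJ k hk').1
        have b1 := hck k a0
        simp only [Finset.coe_filter, Finset.mem_product, Finset.mem_range, Set.mem_ofPred_eq]
        refine ⟨⟨a0, a1⟩, a2.symm, ?_⟩
        have e : (τ - c K) + c (f k) - c k = τ + c (f k) - c k - g.p0 := by
          show (τ - c K) + c (f k) - c k = τ + c (f k) - c k - c K
          omega
        rw [e]
        exact a3
      · intro k _ l _ h
        exact (Prod.mk.inj h).1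
    omega
  have hI : ∀ (u : List α) (v : V), u.length = g.p0 → ∃ I : Finset ℕ, 2 * (r + m) + 2 ≤ I.card ∧
      ∀ k ∈ I, k < K ∧ lam2' k (u.take (c k)) = some v ∧ (rho2' k (u.drop (c k))).isSome := by
    intro u v hu
    have hu' : u.length = c K := hu
    exact he2 u 1 v (fun k hk => by rw [hu']; exact hck k hk)
  have hC2 := comp2 (g := g) (pre := pre) (post := post) (lam := lam) (rho := rho) (K := K) (c := c)
    (lam2 := lam2') (rho2 := rho2') (BadT := Sp_945.Bad Ms M m b) (C0 := r + m) (T0 := 0)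
    hlen hex (Nat.zero_le _) hcomp hck hex2 hgap hsp hthin hI
  -- regularity
  have hPm : 0 < M * b ^ m := Nat.mul_pos hM hbpos
  have hnu : ∀ x, Language.IsRegular (XT_176.lg fun Y : List α => nu Y = x) := by
    intro x
    refine Loc_645.isRegular_of_read' φ (b ^ m) (M * b ^ m) hPm (fun Y => nu Y = x) ?_
    intro q q' a1 a2 a3 a4 a5 a6
    rw [← a6]
    exact ((h4 q q' a1 a2 a3 a5 a4).2).symm
  have hfib : ∀ x y, HL 1 (D0.fib x y) := by
    intro x y
    have hreg := XT_176.reg_inf (Reg_236.HL.isRegular (XT_176.HL_XX (z := g.z) 0 hloc hlenW))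
      (XT_176.reg_T φ act nu (fun X => nu2 X 1) (c K) hnu x y)
    refine HL.congr (hfew (g.z + 1) _ hreg ?_) ?_
    · rintro w ⟨hw, -⟩ F hF
      have hw' : w ∈ XT_176.XX Wo g.z := hw
      have hsub : F ⊆ insert w.length (Finset.range g.z) := by
        intro x hx
        obtain ⟨b1, b2⟩ := hF x hx
        rw [Finset.mem_insert, Finset.mem_range]
        by_contra hno
        push Not at hno
        exact hw'.2.2 x (lt_of_le_of_ne b1 hno.1) hno.2 b2
      refine (Finset.card_le_card hsub).trans ?_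
      refine (Finset.card_insert_le _ _).trans ?_
      rw [Finset.card_range]
    · intro w
      refine Iff.symm ⟨?_, ?_⟩
      · rintro ⟨hw, hp, hT⟩
        have hw' : w ∈ XT_176.XX Wo g.z := hw
        exact ⟨⟨hw'.1, hw'.2.1, fun t ht htl => hw'.2.2 t htl ht⟩, hT⟩
      · rintro ⟨hw, hT⟩
        have hw' : g.XX w := hw
        refine ⟨⟨hw'.1, hw'.2.1, fun t ht htl => hw'.2.2 t htl ht⟩, ?_, hT⟩
        have := hw'.1
        show c K ≤ w.length
        change c K + b ^ m + (n + 2 * c K) ≤ w.length at this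
        omega
  have htail : ∀ s, HL (1 + 2) ({w | (∀ X ∈ D0.XX, ¬ X <+: w) ∧ (w.map φ).prod = s} :
      Language α) := by
    intro s
    have hreg := XT_176.reg_inf (Reg_236.HL.isRegular (XT_176.HL_NP (z := g.z) 0 hloc hlenW))
      (XT_176.reg_prod φ s)
    refine HL.mono (show 1 ≤ 1 + 2 by omega) (HL.congr (hfew g.z _ hreg ?_) ?_)
    · rintro w ⟨hw, -⟩ F hF
      have hw' : w ∈ XT_176.NP Wo g.z := hw
      rw [XT_176.NP_iff] at hw'
      have hsub : F ⊆ Finset.range g.z := by
        intro x hx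
        obtain ⟨b1, b2⟩ := hF x hx
        rw [Finset.mem_range]
        by_contra hno
        push Not at hno
        exact hw' x b1 hno b2
      refine (Finset.card_le_card hsub).trans ?_
      rw [Finset.card_range]
    · intro w
      refine Iff.symm ⟨?_, ?_⟩
      · rintro ⟨hw, hs⟩
        have hw' : w ∈ XT_176.NP Wo g.z := hw
        refine ⟨fun X hX => hw' X ?_, hs⟩
        have hX' : g.XX X := hX
        exact ⟨hX'.1, hX'.2.1, fun t ht htl => hX'.2.2 t htl ht⟩
      · rintro ⟨hw, hs⟩
        refine ⟨fun X hX => hw X ?_, hs⟩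
        have hX' : X ∈ XT_176.XX Wo g.z := hX
        show g.XX X
        exact ⟨hX'.1, hX'.2.1, fun t ht htl => hX'.2.2 t htl ht⟩
  have hTT : ∀ v X, D0.T v X = act v (X.map φ).prod +
      (act (nu2 (X.take (c K)) 1) ((X.drop (c K)).map φ).prod + nu (X.drop (c K))) := by
    intro v X
    show act (act v ((X.take (c K)).map φ).prod + nu2 (X.take (c K)) 1)
      ((X.drop (c K)).map φ).prod + nu (X.drop (c K)) = _
    rw [hadd, ← hmul, ← List.prod_append, ← List.map_append, List.take_append_drop, add_assoc]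
  exact SemTop_727.top (k := 1) act hadd hone hmul hfaith φ _ D0 hTT (pcode g) hfib
    (fun v => finite_L1 hlen v) (fun v => finite_L2 hck v) hC2 htail s

theorem main (α : Type) [Finite α] (S : Type) [Monoid S] [Finite S] (φ : α → S) (s : S) :
    HL 3 ({w | (w.map φ).prod = s} : Language α) := by
  obtain ⟨act, hadd, hone, hmul, hfaith⟩ := exists_module S
  exact mainV α S (S → ZMod 2) act hadd hone hmul hfaith φ s

universe u

theorem final (α : Type u) [Finite α] (L : Language α) (hL : L.IsRegular) :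
    ∃ e : GRegExp α, e.height ≤ 3 ∧ e.lang = L :=
  Uni_366.final1 (fun α _ S _ _ φ s => main α S φ s) α L hL

end Crest.Agent.R320.Fin_408
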