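import Crest.Agent.R320.GridI_646

/-!
Row 320, helper646: the grid gadget with the finite-state property of the noise `nu`.
-/

set_option autoImplicit false

namespace Crest.Agent.R320.GridN_646

open Finset
open Crest.Agent.R320.Grid_646
open Crest.Agent.R320.Gad1_420 (seg)

variable {α S V W : Type*} [Monoid S] [AddCommGroup V] [AddCommGroup W]

/-- representative of a length -/
def rep (M T : ℕ) : ℕ := T % M + 2 * M

/-- the noise -/
noncomputable def nuF (D : Grid S V W) (good : ℕ → Prop) [DecidablePred good] (v0 r0 : ℕ → V)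
    (φ : List α → S) (Y : List α) : V :=
  if good Y.length then D.F (φ Y) (D.ww φ Y) else
    r0 (rep D.M Y.length) - D.act (v0 (rep D.M Y.length)) (φ Y)

theorem n3rep {D : Grid S V W} {good : ℕ → Prop} (hN : Names D good) (hM : 0 < D.M)
    (hgp : ∀ T T', T % D.M = T' % D.M → (good T ↔ good T')) (v0 r0 : ℕ → V)
    (h0 : ∀ T, ¬ good T → ∀ o o' c c', o + o' = T → D.LN o c → D.RN o' c' →
      c.2.2.2.2.2 = v0 T ∧ D.bb c'.1 c'.2.1 c'.2.2.1 c'.2.2.2.1 c'.2.2.2.2.1 c'.2.2.2.2.2 = r0 T)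
    (T : ℕ) (hT : ¬ good T) (o o' : ℕ) (c c' : Fin D.m × S × W × S × W × V) (ho : o + o' = T)
    (hL : D.LN o c) (hR : D.RN o' c') :
    c.2.2.2.2.2 = v0 (rep D.M T) ∧
      D.bb c'.1 c'.2.1 c'.2.2.1 c'.2.2.2.1 c'.2.2.2.2.1 c'.2.2.2.2.2 = r0 (rep D.M T) := by
  have hr : rep D.M T % D.M = T % D.M := by
    unfold rep
    rw [Nat.add_mul_mod_self_right, Nat.mod_mod]
  have hb : ¬ good (rep D.M T) := fun h => hT ((hgp _ _ hr).1 h)
  have h1 : o % D.M < D.M := Nat.mod_lt _ hM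
  have h2 : o % D.M ≤ rep D.M T := by unfold rep; omega
  refine h0 _ hb (o % D.M) (rep D.M T - o % D.M) c c' (by omega) ?_ ?_
  · exact (per_iff (p := fun t => D.LN t c) (fun t => hN.perL t c) (Nat.mod_modEq o D.M)).2 hL
  · refine (per_iff (p := fun t => D.RN t c') (fun t => hN.perR t c') ?_).2 hR
    have e1 : rep D.M T - o % D.M + o % D.M ≡ o' + o [MOD D.M] := by
      rw [Nat.sub_add_cancel h2, add_comm o' o, ho]
      exact hr
    exact Nat.ModEq.add_right_cancel (Nat.mod_modEq o D.M) e1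

theorem bt_congr {D : Grid S V W} (hD : Geo D) {T T' j : ℕ} (h1 : D.Am j ≤ T) (h2 : D.Am j ≤ T')
    (h : T % D.G j = T' % D.G j) : D.bt T j = D.bt T' j := by
  wlog hle : T ≤ T' generalizing T T'
  · exact (this h2 h1 h.symm (by omega)).symm
  have hd : D.G j ∣ T' - T := (Nat.modEq_iff_dvd' hle).1 h
  have := bt_left hD (o := T) (o' := T' - T) (j := j) h1 hd
  rw [show T + (T' - T) = T' by omega] at this
  exact this.symm

theorem seg_congr {Y Y' : List α} {a b L : ℕ} (hb : b ≤ L) (h : Y.take L = Y'.take L) :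
    seg Y a b = seg Y' a b := by
  have key : ∀ Z : List α, seg Z a b = ((Z.take L).take b).drop a := by
    intro Z
    unfold seg
    rw [List.take_take, Nat.min_eq_left hb, List.drop_take]
  rw [key, key, h]

theorem ww_congr {D : Grid S V W} (hD : Geo D) (φ : List α → S) {Y Y' : List α}
    (h1 : D.Am D.m + D.G D.m ≤ Y.length) (h2 : D.Am D.m + D.G D.m ≤ Y'.length)
    (ht : Y.take (D.Am D.m + D.G D.m) = Y'.take (D.Am D.m + D.G D.m))
    (hm : Y.length % (D.M * D.G D.m) = Y'.length % (D.M * D.G D.m)) :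
    D.ww φ Y = D.ww φ Y' := by
  have hb : ∀ k, k ≤ D.m → D.bt Y.length k = D.bt Y'.length k ∧
      D.bt Y.length k ≤ D.Am D.m + D.G D.m := by
    intro k hk
    have h3 := hD.mono hk
    have h4 := hD.Gle hk
    have hd : D.G k ∣ D.M * D.G D.m := (hD.dvd hk).mul_left _
    have hmk : Y.length % D.G k = Y'.length % D.G k := by
      rw [← Nat.mod_mod_of_dvd Y.length hd, ← Nat.mod_mod_of_dvd Y'.length hd, hm]
    refine ⟨bt_congr hD (by omega) (by omega) hmk, ?_⟩
    have := bt_lt hD (T := Y.length) (j := k) (by omega)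
    omega
  unfold Grid.ww
  refine Finset.sum_congr rfl fun k hk => ?_
  have hk' := Finset.mem_range.1 hk
  unfold Grid.zz
  rw [(hb k hk'.le).1, (hb (k + 1) hk').1]
  congr 2
  refine seg_congr ?_ ht
  rw [← (hb (k + 1) hk').1]
  exact (hb (k + 1) hk').2

/-- **GRID GADGET**, with finite-state noise -/
theorem gadgetN (D : Grid S V W) (good : ℕ → Prop) (hD : Geo D) (hN : Names D good)
    (hgp : ∀ T T', T % D.M = T' % D.M → (good T ↔ good T'))
    (hF : ∀ s w v, ∃ i < D.m, ∀ g x h, g * x * h = s → ∀ z,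
      D.F (g * z * h) (w - D.e i x + D.e i z) + D.act v (g * z * h) = D.F s w + D.act v s)
    (φ : List α → S) (hφ : ∀ u v, φ (u ++ v) = φ u * φ v) :
    ∃ nu : List α → V,
      (∀ P Q v r, D.Lf φ P = some v → D.Rf φ Q = some r →
        r = D.act v (φ (P ++ Q)) + nu (P ++ Q)) ∧
      (∀ P v, D.Lf φ P = some v → P.length < D.Am D.m) ∧
      (∀ Q r, D.Rf φ Q = some r → D.Am D.m ≤ Q.length) ∧
      (∀ Y : List α, good Y.length → 2 * D.Am D.m ≤ Y.length →
        (∀ k, k < D.m → D.M * D.G k ≤ (Y.length - D.Am (k + 1)) % D.G (k + 1) ∧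
          (Y.length - D.Am (k + 1)) % D.G (k + 1) + D.M * D.G k ≤ D.G (k + 1)) →
        ∀ v, ∃ P Q, P ++ Q = Y ∧ D.Lf φ P = some v ∧ (D.Rf φ Q).isSome) ∧
      (∀ Y Y' : List α, D.Am D.m + D.G D.m ≤ Y.length → D.Am D.m + D.G D.m ≤ Y'.length →
        Y.take (D.Am D.m + D.G D.m) = Y'.take (D.Am D.m + D.G D.m) →
        Y.length % (D.M * D.G D.m) = Y'.length % (D.M * D.G D.m) → φ Y = φ Y' →
        nu Y = nu Y') := by
  classical
  have hn3 : ∀ T, ∃ v0 r0 : V, ¬ good T → ∀ o o' c c', o + o' = T → D.LN o c → D.RN o' c' →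
    c.2.2.2.2.2 = v0 ∧ D.bb c'.1 c'.2.1 c'.2.2.1 c'.2.2.2.1 c'.2.2.2.2.1 c'.2.2.2.2.2 = r0 := by
    intro T
    by_cases h : good T
    · exact ⟨0, 0, fun h' => absurd h h'⟩
    · obtain ⟨v0, r0, h0⟩ := hN.n3 T h
      exact ⟨v0, r0, fun _ => h0⟩
  choose v0 r0 h0 using hn3
  have h0' := n3rep hN hD.Mpos hgp v0 r0 h0
  refine ⟨nuF D good v0 r0 φ, ?_, ?_, ?_, ?_, ?_⟩
  · intro P Q v r hP hQ
    obtain ⟨i, g, wl, h, wr, hL⟩ := Lf_some hP
    obtain ⟨i', g', wl', h', wr', v', hR, hr⟩ := Rf_some hQ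
    have hcl : P.length + Q.length = (P ++ Q).length := List.length_append.symm
    unfold nuF
    by_cases hg : good (P ++ Q).length
    · rw [if_pos hg]
      have hcc := hN.n1 _ hg _ _ _ _ hcl hL.2.2.2.1 hR.2.2.2.1
      simp only [Prod.mk.injEq] at hcc
      obtain ⟨rfl, rfl, rfl, rfl, rfl, rfl⟩ := hcc
      obtain ⟨hok, ha1, ha2, -, hg1, hwl1⟩ := hL
      obtain ⟨-, hdv, hge, -, hvis, hh1, hwr1⟩ := hR
      obtain ⟨e1, e2, e3, e4, e5, e6⟩ := read hD hφ i.2 ha1 ha2 hdv hge hvis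
      have := hok (D.zz φ (P ++ Q) i)
      rw [e5, e6, e1, e2, e3, e4, ← hg1, ← hh1, ← hwl1, ← hwr1, hr, ← this, add_comm]
    · rw [if_neg hg]
      obtain ⟨q1, q2⟩ := h0' _ hg _ _ _ _ hcl hL.2.2.2.1 hR.2.2.2.1
      simp only at q1 q2
      rw [hr, q2, ← q1]
      abel
  · intro P v hP
    obtain ⟨i, g, wl, h, wr, hL⟩ := Lf_some hP
    have := hD.lt i.2
    have := hL.2.2.1
    omega
  · intro Q r hQ
    obtain ⟨i', g', wl', h', wr', v', hR, hr⟩ := Rf_some hQ
    exact hR.2.2.1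
  · intro Y hg hlen hb v
    obtain ⟨i, him, hi⟩ := hF (φ Y) (D.ww φ Y) v
    set g := φ (Y.take (D.bt Y.length i)) with hgdef
    set wl := ∑ k ∈ range i, D.e k (D.zz φ Y k) with hwldef
    set h := φ (Y.drop (D.bt Y.length (i + 1))) with hhdef
    set wr := ∑ k ∈ Ico (i + 1) D.m, D.e k (D.zz φ Y k) with hwrdef
    have h3 := hD.lt him
    obtain ⟨o, ho1, ho2, ho3, ho4, ho5⟩ := avail hD hN (T := Y.length) (i := i)
      (s := D.Am i + D.G i) hg (⟨i, him⟩, g, wl, h, wr, v) (by omega)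
    set P := Y.take o with hP
    set Q := Y.drop o with hQ
    have hPQ : P ++ Q = Y := List.take_append_drop _ _
    have hPl : P.length = o := by rw [hP, List.length_take]; omega
    have hQl : Q.length = Y.length - o := by rw [hQ, List.length_drop]
    have hv : D.Vis i Q.length := by
      rw [hQl]
      exact vis_of hD ho1 ho2 hlen him hb
    have hQge : D.Am D.m ≤ Q.length := by rw [hQl]; omega
    obtain ⟨e1, e2, e3, e4, e5, e6⟩ := read hD hφ (P := P) (Q := Q) him (by rw [hPl]; exact ho1)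
      (by rw [hPl]; exact ho2) (by rw [hQl]; exact ho3) hQge hv
    rw [hPQ] at e1 e2 e3 e4 e5 e6
    rw [← hgdef, ← hhdef] at e5
    rw [← hwldef, ← hwrdef] at e6
    have hall : ∀ z, D.F (g * z * h) (wl + D.e i z + wr) + D.act v (g * z * h) =
        D.F (φ Y) (D.ww φ Y) + D.act v (φ Y) := by
      intro z
      have := hi g (D.zz φ Y i) h e5.symm z
      rw [← this, e6]
      congr 2
      abel
    have hok : D.ok i g wl h wr v := by
      intro z
      rw [hall z]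
      exact (hall 1).symm
    have hLL : D.LL φ ⟨i, him⟩ g wl h wr v P :=
      ⟨hok, by rw [hPl]; exact ho1, by rw [hPl]; exact ho2, by rw [hPl]; exact ho4, e1, e2⟩
    have hRR : D.RR φ ⟨i, him⟩ g wl h wr v Q :=
      ⟨hok, by rw [hQl]; exact ho3, hQge, by rw [hQl]; exact ho5, hv, e3, e4⟩
    refine ⟨P, Q, hPQ, ?_, Rf_isSome hRR⟩
    obtain ⟨v', hv'⟩ := Lf_isSome hLL
    obtain ⟨i2, g2, wl2, h2, wr2, hL2⟩ := Lf_some hv'
    have hcl : P.length + Q.length = Y.length := by rw [hPl, hQl]; omega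
    have hcc := hN.n1 _ hg _ _ _ _ hcl hL2.2.2.2.1 hRR.2.2.2.1
    simp only [Prod.mk.injEq] at hcc
    rw [hv', hcc.2.2.2.2.2]
  · intro Y Y' h1 h2 ht hm hφY
    have hMd : D.M ∣ D.M * D.G D.m := Dvd.intro _ rfl
    have hmM : Y.length % D.M = Y'.length % D.M := by
      rw [← Nat.mod_mod_of_dvd Y.length hMd, ← Nat.mod_mod_of_dvd Y'.length hMd, hm]
    unfold nuF rep
    rw [ww_congr hD φ h1 h2 ht hm, hφY, hmM]
    by_cases hg : good Y.length
    · rw [if_pos hg, if_pos ((hgp _ _ hmM).1 hg)]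
    · rw [if_neg hg, if_neg (fun h => hg ((hgp _ _ hmM).2 h))]

/-- **The grid gadget, closed form.**  Labels `lam`, `rho`, noise `nu`: exact for all pairs;
complete for all long words whose length avoids the thin bad set. -/
theorem gadget {S V : Type*} [Monoid S] [Finite S] [AddCommGroup V] [Finite V]
    (act : V → S → V) :
    ∃ m r : ℕ, 0 < m ∧ ∀ B : ℕ, ∃ (Ms : Finset ℕ) (M : ℕ), Ms.card ≤ r ∧
      (∀ k ∈ Ms, k.Prime ∧ B < k) ∧ M = ∏ k ∈ Ms, k ∧
      ∀ (G Am : ℕ → ℕ), (∀ j, 0 < G j) → (∀ j, G j ∣ G (j + 1)) → (∀ j, Nat.Coprime (G j) M) →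
        (∀ j, Am j + G j + M * G j ≤ Am (j + 1)) →
        ∀ {α : Type*} (φ : List α → S), (∀ u v, φ (u ++ v) = φ u * φ v) →
          ∃ (lam rho : List α → Option V) (nu : List α → V),
            (∀ P Q v r, lam P = some v → rho Q = some r → r = act v (φ (P ++ Q)) + nu (P ++ Q)) ∧
            (∀ P v, lam P = some v → P.length < Am m) ∧
            (∀ Q r, rho Q = some r → Am m ≤ Q.length) ∧
            (∀ Y : List α, (∀ k ∈ Ms, ¬ k ∣ Y.length) → 2 * Am m ≤ Y.length →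
              (∀ k, k < m → M * G k ≤ (Y.length - Am (k + 1)) % G (k + 1) ∧
                (Y.length - Am (k + 1)) % G (k + 1) + M * G k ≤ G (k + 1)) →
              ∀ v, ∃ P Q, P ++ Q = Y ∧ lam P = some v ∧ (rho Q).isSome) ∧
            (∀ Y Y' : List α, Am m + G m ≤ Y.length → Am m + G m ≤ Y'.length →
              Y.take (Am m + G m) = Y'.take (Am m + G m) →
              Y.length % (M * G m) = Y'.length % (M * G m) → φ Y = φ Y' → nu Y = nu Y') := by
  classical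
  have := Fintype.ofFinite S
  have := Fintype.ofFinite V
  obtain ⟨m, N, e, F, hN, hF⟩ := RandF808.exists_noise S V act
  have hm : 0 < m := by
    obtain ⟨i, hi, -⟩ := hF 1 0 0
    omega
  have : NeZero N := ⟨by omega⟩
  obtain ⟨r, hr⟩ := Names_570.exists_names
    (N := Fin m × S × (ZMod N × ZMod N) × S × (ZMod N × ZMod N) × V) (C := V × V)
    (GridI_646.colour act e F)
  refine ⟨m, r, hm, fun B => ?_⟩
  obtain ⟨Ms, nmL, nmR, h1, h2, h3, h4, h5, h6, h7⟩ := hr B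
  refine ⟨Ms, ∏ k ∈ Ms, k, h1, h2, rfl, ?_⟩
  intro G Am hG1 hG2 hG3 hG4 α φ hφ
  let D : Grid S V (ZMod N × ZMod N) :=
    ⟨act, m, e, F, G, Am, ∏ k ∈ Ms, k, fun o c => nmL o = some c, fun o c => nmR o = some c⟩
  have hD : Geo D := ⟨hG1, hG2, hG3, Finset.prod_pos fun k hk => (h2 k hk).1.pos, hG4⟩
  have hNm : Names D (fun T => ∀ k ∈ Ms, ¬ k ∣ T) := by
    refine ⟨?_, ?_, ?_, ?_, ?_⟩
    · intro t c
      show nmL (t + ∏ k ∈ Ms, k) = some c ↔ nmL t = some c
      rw [h3]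
    · intro t c
      show nmR (t + ∏ k ∈ Ms, k) = some c ↔ nmR t = some c
      rw [h4]
    · intro T hT o o' c c' ho hL hR
      exact h5 o o' c c' (by rw [ho]; exact hT) hL hR
    · intro T hT c s hs
      obtain ⟨t, t1, t2, t3, t4, t5⟩ := h6 T c s hT (by exact hs.trans (Nat.le_succ _))
      exact ⟨t, t1, t2, t4, t5⟩
    · intro T hT
      have hT' : ∃ k ∈ Ms, k ∣ T := by
        by_contra hcon
        exact hT fun k hk hd => hcon ⟨k, hk, hd⟩
      by_cases hex : ∃ o o' c c', o + o' = T ∧ nmL o = some c ∧ nmR o' = some c'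
      · obtain ⟨o, o', c, c', ho, hL, hR⟩ := hex
        refine ⟨(GridI_646.colour act e F c).1, (GridI_646.colour act e F c').2, ?_⟩
        intro o2 o2' c2 c2' ho2 hL2 hR2
        rcases h7 o o' o2 o2' c c' c2 c2' (by rw [ho, ho2]) (by rw [ho]; exact hT') hL hR hL2 hR2
          with ⟨q1, q2⟩ | ⟨q1, q2, q3⟩
        · subst q1 q2
          exact ⟨rfl, rfl⟩
        · subst q1 q2
          have e1 := congrArg Prod.fst q3
          have e2 := congrArg Prod.snd q3
          exact ⟨e1.symm, e2⟩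
      · refine ⟨0, 0, ?_⟩
        intro o o' c c' ho hL hR
        exact absurd ⟨o, o', c, c', ho, hL, hR⟩ hex
  have hgp : ∀ T T', T % D.M = T' % D.M → ((∀ k ∈ Ms, ¬ k ∣ T) ↔ (∀ k ∈ Ms, ¬ k ∣ T')) := by
    intro T T' h
    have hk : ∀ k ∈ Ms, (k ∣ T ↔ k ∣ T') := by
      intro k hk
      have hd : k ∣ D.M := Finset.dvd_prod_of_mem _ hk
      rw [Nat.dvd_iff_mod_eq_zero, Nat.dvd_iff_mod_eq_zero, ← Nat.mod_mod_of_dvd T hd, h,
        Nat.mod_mod_of_dvd T' hd]
    exact forall₂_congr fun k hk' => not_congr (hk k hk')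
  obtain ⟨nu, k1, k2, k3, k4, k5⟩ := gadgetN D (fun T => ∀ k ∈ Ms, ¬ k ∣ T) hD hNm hgp hF φ hφ
  exact ⟨D.Lf φ, D.Rf φ, nu, k1, k2, k3, k4, k5⟩

end Crest.Agent.R320.GridN_646
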