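import Crest.Agent.R320.JoinA_41
import Crest.Agent.R320.GridN_646
import Crest.Agent.R320.Thin_963
import Crest.Agent.R320.ExactR_237
import Crest.Agent.R320.Two_621
import Crest.Agent.R320.Thin_243

/-!
Row 320, constants and the final statement for every finite monoid (helper41).
-/

set_option autoImplicit false

namespace Crest.Agent.R320.Fin_41

open Crest.RegLang Crest.Agent.R320.Hk_851

/-- level starts -/
def Am (M Gam : ℕ) : ℕ → ℕ
  | 0 => 0
  | j + 1 => Am M Gam j + Gam ^ j + M * Gam ^ j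

theorem Am_mono (M Gam : ℕ) {i j : ℕ} (h : i ≤ j) : Am M Gam i ≤ Am M Gam j := by
  induction j, h using Nat.le_induction with
  | base => exact le_rfl
  | succ j _ ih => rw [Am]; omega

/-- bad lengths -/
def Bd (Ms : Finset ℕ) (m M Gam : ℕ) (T : ℕ) : Prop :=
  (∃ k ∈ Ms, k ∣ T) ∨ ∃ i, i < m ∧ ¬ (M * Gam ^ i ≤ (T - Am M Gam (i + 1)) % Gam ^ (i + 1) ∧
    (T - Am M Gam (i + 1)) % Gam ^ (i + 1) + M * Gam ^ i ≤ Gam ^ (i + 1))

theorem Bd_per {Ms : Finset ℕ} {m M Gam : ℕ} (hM : ∀ k ∈ Ms, k ∣ M) {T : ℕ}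
    (hT : Am M Gam m ≤ T) : Bd Ms m M Gam (T + M * Gam ^ m) ↔ Bd Ms m M Gam T := by
  have h1 : (∃ k ∈ Ms, k ∣ T + M * Gam ^ m) ↔ (∃ k ∈ Ms, k ∣ T) := by
    constructor
    · rintro ⟨k, hk, h⟩
      exact ⟨k, hk, (Nat.dvd_add_left (Dvd.dvd.mul_right (hM k hk) _)).1 h⟩
    · rintro ⟨k, hk, h⟩
      exact ⟨k, hk, (Nat.dvd_add_left (Dvd.dvd.mul_right (hM k hk) _)).2 h⟩
  have h2 : ∀ i, i < m → (T + M * Gam ^ m - Am M Gam (i + 1)) % Gam ^ (i + 1) =
      (T - Am M Gam (i + 1)) % Gam ^ (i + 1) := by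
    intro i hi
    have h3 := Am_mono M Gam (show i + 1 ≤ m by omega)
    have h4 : T + M * Gam ^ m - Am M Gam (i + 1) = (T - Am M Gam (i + 1)) + M * Gam ^ m := by omega
    obtain ⟨c, hc⟩ : Gam ^ (i + 1) ∣ M * Gam ^ m :=
      Dvd.dvd.mul_left (pow_dvd_pow _ (by omega)) _
    rw [h4, hc, Nat.add_mul_mod_self_left]
  unfold Bd
  rw [h1]
  refine or_congr_right ?_
  constructor
  · rintro ⟨i, hi, h⟩
    rw [h2 i hi] at h
    exact ⟨i, hi, h⟩
  · rintro ⟨i, hi, h⟩
    rw [← h2 i hi] at h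
    exact ⟨i, hi, h⟩

theorem Bd_thin {Ms : Finset ℕ} {m M Gam : ℕ} {T : ℕ} (hG : 0 < Gam)
    (hT : Am M Gam m ≤ T) (h : Bd Ms m M Gam T) :
    Crest.Agent.R320.Thin963.BadT Ms m (fun i => (Gam : ℤ) ^ i) (fun i => (M : ℤ) * (Gam : ℤ) ^ i)
      (fun i => (Am M Gam i : ℤ)) (T : ℤ) := by
  rcases h with ⟨k, hk, h⟩ | ⟨i, hi, h⟩
  · left
    exact ⟨k, hk, by exact_mod_cast h⟩
  · right
    have h3 := Am_mono M Gam (show i + 1 ≤ m by omega)
    have hGp : 0 < Gam ^ (i + 1) := pow_pos hG _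
    set ρ := (T - Am M Gam (i + 1)) % Gam ^ (i + 1) with hρ
    have hlt : ρ < Gam ^ (i + 1) := Nat.mod_lt _ hGp
    have hdm := Nat.div_add_mod (T - Am M Gam (i + 1)) (Gam ^ (i + 1))
    rw [← hρ] at hdm
    set d := (T - Am M Gam (i + 1)) / Gam ^ (i + 1) with hd
    have hTT : (T : ℤ) = Am M Gam (i + 1) + ((Gam : ℤ) ^ (i + 1) * d + ρ) := by
      have : T = Am M Gam (i + 1) + (Gam ^ (i + 1) * d + ρ) := by omega
      exact_mod_cast this
    by_cases h4 : M * Gam ^ i ≤ ρ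
    · have h5 : Gam ^ (i + 1) < ρ + M * Gam ^ i := by
        by_contra h6
        exact h ⟨h4, by omega⟩
      refine ⟨i, hi, (Gam : ℤ) ^ (i + 1) - ρ, ?_, ?_⟩
      · have h6 : (ρ : ℤ) < (Gam : ℤ) ^ (i + 1) := by exact_mod_cast hlt
        have h7 : (Gam : ℤ) ^ (i + 1) < ρ + M * (Gam : ℤ) ^ i := by exact_mod_cast h5
        rw [abs_le]
        constructor
        · have : (0 : ℤ) ≤ M * (Gam : ℤ) ^ i := by positivity
          linarith
        · linarith
      · refine ⟨d + 1, ?_⟩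
        simp only
        rw [hTT]; ring
    · have h5 : ρ < M * Gam ^ i := by omega
      refine ⟨i, hi, -(ρ : ℤ), ?_, ?_⟩
      · rw [abs_neg, Nat.abs_cast]
        have h6 : (ρ : ℤ) ≤ (M : ℤ) * (Gam : ℤ) ^ i := by exact_mod_cast h5.le
        exact h6
      · refine ⟨d, ?_⟩
        simp only
        rw [hTT]; ring

theorem sum_le {M Gam : ℕ} (hG : 2 ≤ Gam) (i : ℕ) :
    ∑ j ∈ Finset.range (i + 1), (M : ℤ) * (Gam : ℤ) ^ j ≤ 2 * (M * (Gam : ℤ) ^ i) := by
  have hG' : (2 : ℤ) ≤ Gam := by exact_mod_cast hG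
  induction i with
  | zero =>
    simp
    have : (0 : ℤ) ≤ M := by positivity
    linarith
  | succ i ih =>
    rw [Finset.sum_range_succ]
    have h1 : (0 : ℤ) ≤ M * (Gam : ℤ) ^ i := by positivity
    have h2 : (M : ℤ) * (Gam : ℤ) ^ (i + 1) = (M * (Gam : ℤ) ^ i) * Gam := by ring
    rw [h2]
    nlinarith

theorem fin (α : Type) [Finite α] (S : Type) [Monoid S] [Finite S] (φ : α → S) (s : S) :
    HL 3 ({w | (w.map φ).prod = s} : Language α) := by
  classical
  haveI : Fintype S := Fintype.ofFinite S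
  let V : Type := S → ZMod 2
  haveI : Fintype V := inferInstanceAs (Fintype (S → ZMod 2))
  let act : V → S → V := fun f t => Two_621.act f t
  obtain ⟨m, r, hm, hgad⟩ := GridN_646.gadget (S := S) (V := V) act
  set C0 := r + m with hC0
  obtain ⟨K, hK⟩ := ExactR_237.exact_gadget α S V φ act (2 * C0 + 2)
  obtain ⟨Ms, M, hcard, hpr, hM, hgad⟩ := hgad (2 ^ (K + 1))
  have hMpos : 0 < M := by
    rw [hM]
    exact Finset.prod_pos fun k hk => (hpr k hk).1.pos
  have hMdvd : ∀ k ∈ Ms, k ∣ M := fun k hk => by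
    rw [hM]; exact Finset.dvd_prod_of_mem _ hk
  have hcop2 : ∀ k ∈ Ms, Nat.Coprime 2 k := by
    intro k hk
    rw [Nat.coprime_primes Nat.prime_two (hpr k hk).1]
    have h1 := (hpr k hk).2
    have h2 : 2 ^ 1 ≤ 2 ^ (K + 1) := Nat.pow_le_pow_right (by norm_num) (by omega)
    omega
  have hcopM : Nat.Coprime 2 M := by
    rw [hM]
    exact Nat.Coprime.prod_right hcop2
  -- the base
  let κ := 2 ^ (K + 5) * M
  let Gam := 2 ^ κ
  have hGam : 2 ^ (K + 5) * M ≤ Gam := (Nat.lt_two_pow_self (n := κ)).le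
  have hK5 : 2 ≤ 2 ^ (K + 5) := by
    calc 2 = 2 ^ 1 := by norm_num
      _ ≤ 2 ^ (K + 5) := Nat.pow_le_pow_right (by norm_num) (by omega)
  have hGam2 : 2 ≤ Gam := by
    have : 2 * 1 ≤ 2 ^ (K + 5) * M := Nat.mul_le_mul hK5 hMpos
    omega
  have hGpos : 0 < Gam := by omega
  have hcG : ∀ j, Nat.Coprime (Gam ^ j) M := fun j =>
    Nat.Coprime.pow_left _ (Nat.Coprime.pow_left _ hcopM)
  obtain ⟨lam, rho, nu1, g1, g2, g3, g4, g5⟩ := hgad (fun j => Gam ^ j) (Am M Gam)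
    (fun j => pow_pos hGpos _) (fun j => pow_dvd_pow _ (by omega)) hcG
    (fun j => by rw [Am]) (JoinA_41.pr φ) (JoinA_41.pr_append φ)
  set N1 := Am M Gam m + 1 with hN1
  set A1 := 2 * Am M Gam m + Gam ^ m with hA1
  -- the ruler
  obtain ⟨X, hX0, hXpos, hX⟩ := Crest.Agent.R320.Thin963.thin K m Ms (fun i => (Gam : ℤ) ^ i)
    (fun i => (M : ℤ) * (Gam : ℤ) ^ i) (fun i => (Am M Gam i : ℤ))
    (fun q hq => ⟨(hpr q hq).1, (hpr q hq).2.le⟩)
    (fun q hq => by
      have h1 : Nat.Coprime q (Gam ^ m) :=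
        ((hcG m).symm.coprime_dvd_left (hMdvd q hq))
      have h2 := Nat.isCoprime_iff_coprime.2 h1
      simpa using h2)
    (by positivity)
    (fun i j hij => pow_dvd_pow _ hij)
    (fun i => by positivity)
    (fun i => Dvd.intro_left _ rfl)
    (fun i _ => by
      have h1 := sum_le (M := M) hGam2 i
      have h2 : ((2 ^ (K + 5) * M : ℕ) : ℤ) ≤ Gam := by exact_mod_cast hGam
      push_cast at h2
      have h3 : (0 : ℤ) ≤ (Gam : ℤ) ^ i := by positivity
      calc (2 : ℤ) ^ (K + 4) * ∑ j ∈ Finset.range (i + 1), (M : ℤ) * (Gam : ℤ) ^ j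
          ≤ 2 ^ (K + 4) * (2 * (M * (Gam : ℤ) ^ i)) :=
            mul_le_mul_of_nonneg_left h1 (by positivity)
        _ = (2 ^ (K + 5) * M) * (Gam : ℤ) ^ i := by ring
        _ ≤ Gam * (Gam : ℤ) ^ i := mul_le_mul_of_nonneg_right h2 h3
        _ = (Gam : ℤ) ^ (i + 1) := by ring)
    (2 * N1)
  obtain ⟨x, rfl⟩ : ∃ x : ℕ, X = x := ⟨X.toNat, by omega⟩
  have hx0 : 2 * N1 ≤ x := by exact_mod_cast hX0
  have hxpos : 0 < x := by exact_mod_cast hXpos
  let c : ℕ → ℕ := fun k => x * 2 ^ k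
  obtain ⟨lam2, rho2, nu2, e1, e2⟩ := hK c (fun i j hij _ =>
    (Nat.mul_lt_mul_left hxpos).2 (Nat.pow_lt_pow_right (by norm_num) hij))
  have hcK : ∀ k < K, c k ≤ x * 2 ^ K := fun k hk =>
    Nat.mul_le_mul_left _ (Nat.pow_le_pow_right (by norm_num) hk.le)
  refine JoinA_41.join act (fun _ _ _ => rfl) (fun v => Two_621.act_one v)
    (fun v s t => (Two_621.act_mul v s t).symm) (fun s t h => Two_621.act_faithful h) φ
    lam rho nu1 N1 A1 (M * Gam ^ m) (Bd Ms m M Gam) (by omega) (by positivity)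
    (fun P v h => by have := g2 P v h; omega) g1 ?_ (fun T hT => Bd_per hMdvd (by omega)) ?_
    K C0 c (x * 2 ^ K) hcK ?_ ?_
    lam2 (fun k Q => rho2 k Q 1) (fun X => nu2 X 1) ?_ ?_ s
  · -- completeness of gadget 1
    intro u hu hb v
    obtain ⟨P, Q, h1, h2, h3⟩ := g4 u (fun k hk hd => hb (Or.inl ⟨k, hk, hd⟩)) (by omega)
      (fun k hk => by
        by_contra h
        exact hb (Or.inr ⟨k, hk, h⟩)) v
    exact ⟨P, Q, h1.symm, h2, h3⟩
  · -- locality of the noise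
    intro u u' hu hu' htk hmod hpr'
    have hle : Am M Gam m + Gam ^ m ≤ A1 := by omega
    refine g5 u u' (by omega) (by omega) ?_ hmod ?_
    · have h1 : ∀ w : List α, w.take (Am M Gam m + Gam ^ m) =
          (w.take A1).take (Am M Gam m + Gam ^ m) := by
        intro w
        rw [List.take_take, min_eq_left hle]
      rw [h1 u, h1 u', htk]
    · rw [← List.take_append_drop A1 u, ← List.take_append_drop A1 u', JoinA_41.pr_append,
        JoinA_41.pr_append, htk, hpr']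
  · -- spacing
    intro k k' l l' _ _ _ _ hkk hll h1 h2
    have h3 : (2 : ℤ) ^ k - 2 ^ k' = 2 ^ l - 2 ^ l' := by
      by_contra hne
      have h4 : (x : ℤ) * (2 ^ k + 2 ^ l') < x * (2 ^ l + 2 ^ k') + x := by
        have : x * 2 ^ k + x * 2 ^ l' < x * 2 ^ l + x * 2 ^ k' + x := by
          have e1 : c k = x * 2 ^ k := rfl
          have e2 : c l' = x * 2 ^ l' := rfl
          have e3 : c l = x * 2 ^ l := rfl
          have e4 : c k' = x * 2 ^ k' := rfl
          omega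
        have h5 : ((x * 2 ^ k + x * 2 ^ l' : ℕ) : ℤ) < ((x * 2 ^ l + x * 2 ^ k' + x : ℕ) : ℤ) := by
          exact_mod_cast this
        push_cast at h5
        linarith
      have h6 : (x : ℤ) * (2 ^ l + 2 ^ k') < x * (2 ^ k + 2 ^ l') + x := by
        have : x * 2 ^ l + x * 2 ^ k' < x * 2 ^ k + x * 2 ^ l' + x := by
          have e1 : c k = x * 2 ^ k := rfl
          have e2 : c l' = x * 2 ^ l' := rfl
          have e3 : c l = x * 2 ^ l := rfl
          have e4 : c k' = x * 2 ^ k' := rfl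
          omega
        have h5 : ((x * 2 ^ l + x * 2 ^ k' : ℕ) : ℤ) < ((x * 2 ^ k + x * 2 ^ l' + x : ℕ) : ℤ) := by
          exact_mod_cast this
        push_cast at h5
        linarith
      have hxz : (0 : ℤ) < x := by exact_mod_cast hxpos
      have h7 : (2 : ℤ) ^ k + 2 ^ l' < (2 ^ l + 2 ^ k') + 1 := by
        have : (x : ℤ) * (2 ^ k + 2 ^ l') < x * ((2 ^ l + 2 ^ k') + 1) := by linarith
        exact lt_of_mul_lt_mul_left this hxz.le
      have h8 : (2 : ℤ) ^ l + 2 ^ k' < (2 ^ k + 2 ^ l') + 1 := by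
        have : (x : ℤ) * (2 ^ l + 2 ^ k') < x * ((2 ^ k + 2 ^ l') + 1) := by linarith
        exact lt_of_mul_lt_mul_left this hxz.le
      apply hne
      linarith
    exact (Thin243.two_diff (fun h => hkk h.symm) h3).1
  · -- thinness
    intro T hT J hJ
    have hJ' : ∀ k ∈ J, ∃ k', k' < K ∧ k' ≠ k ∧ Bd Ms m M Gam (T + c k' - c k) :=
      fun k hk => (hJ k hk).2
    choose! f hf1 hf2 hf3 using hJ'
    refine le_trans ?_ ((hX T).trans (by omega))
    refine Finset.card_le_card_of_injOn (fun k => (f k, k)) ?_ ?_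
    · intro k hk
      have hk' : k ∈ J := hk
      have hkK := (hJ k hk').1
      simp only [Finset.coe_filter, Finset.mem_product, Finset.mem_range, Set.mem_setOf_eq]
      refine ⟨⟨hf1 k hk', hkK⟩, hf2 k hk', ?_⟩
      have h1 := hcK k hkK
      have h2 : Am M Gam m ≤ T + c (f k) - c k := by omega
      have h3 := Bd_thin hGpos h2 (hf3 k hk')
      have h4 : ((T + c (f k) - c k : ℕ) : ℤ) = (T : ℤ) + (x : ℤ) * 2 ^ (f k) - x * 2 ^ k := by
        rw [Nat.cast_sub (by omega)]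
        push_cast
        rfl
      rw [h4] at h3
      exact h3
    · intro a _ b _ hab
      exact (Prod.mk.inj hab).2
  · intro k hk P Q v b h1 h2 h3
    have h4 := e1 k hk P Q 1 v b h1 h2 h3
    rw [mul_one] at h4
    exact h4
  · intro u v hu
    exact e2 u 1 v hu

end Crest.Agent.R320.Fin_41
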