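import Crest.Agent.R320.H14_82
import Crest.Agent.R320.InstB_11
import Crest.Agent.R320.G1_596
import Crest.Agent.R320.Sp_69
import Crest.Agent.R320.ExactR_237
import Crest.Agent.R320.Hk2_851
import Crest.Agent.R320.Univ_119
import Crest.Agent.R320.Block_467

/-!
# Row 320: the join (helper416)

`Top5_110.top_sem` + `H14_82.main` (regularity facts) + `InstB_11.C1`, `InstB_11.C2` (the two
completeness statements) + `G1_596.g1` (gadget) + `Sp_69.spoil` (ruler) + `ExactR_237.exact_gadget`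
+ `WallU_228.walls_full`.
-/

set_option autoImplicit false

namespace Crest.Agent.R320.Fin_416

open Crest.RegLang Crest.Agent.R320.Hk_851 Crest.Agent.R320.FewWalls_228
  Crest.Agent.R320.WallU_228 Crest.Agent.R320.Code110

theorem XX_eq {α : Type} (n : ℕ) (Sw : Set (List α)) (z : ℕ) :
    H14_82.XX n Sw z = InstB_11.XX (Wo n Sw) z := by
  ext X
  constructor
  · rintro ⟨h1, h2, h3⟩
    exact ⟨h1, h2, fun t ht1 ht2 => h3 t ht2 ht1⟩
  · rintro ⟨h1, h2, h3⟩
    exact ⟨h1, h2, fun t ht1 ht2 => h3 t ht2 ht1⟩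

theorem Bad_eq {α : Type} (n : ℕ) (Sw : Set (List α)) (z N p0 : ℕ) (BadT : ℕ → Prop) :
    H14_82.Bad n Sw z N p0 BadT = InstB_11.BadX (Wo n Sw) z N p0 BadT := by
  unfold H14_82.Bad InstB_11.BadX
  rw [XX_eq]

theorem TT_eq {α S V : Type} [Monoid S] [AddCommGroup V] (f : α → S) (act : V → S → V) (p0 : ℕ)
    (nu2 nu1 : List α → V) :
    H14_82.TT (fun w => (w.map f).prod) act p0 nu2 nu1 = InstB_11.TT f act p0 nu2 nu1 := rfl

set_option maxHeartbeats 4000000 in
/-- **height 3 for the fibres of every map to a finite monoid** -/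
theorem fin (α : Type) [Finite α] (S : Type) [Monoid S] [Finite S] (f : α → S) (s : S) :
    HL 3 ({w | (w.map f).prod = s} : Language α) := by
  classical
  have := Fintype.ofFinite S
  obtain ⟨act, hadd, hact1, hmul, hfaith⟩ := Crest.Agent.R320.Blk467.exists_module S
  -- gadget 1
  obtain ⟨m, r, hg⟩ := Crest.Agent.R320.G1_596.g1 S (S → ZMod 2) act
  -- gadget 2
  obtain ⟨K, hK⟩ := ExactR_237.exact_gadget α S (S → ZMod 2) f act (2 + 2 * (r + m))
  obtain ⟨Ms, M, hcard, hMs, hM, hg⟩ := hg (2 * 4 ^ K)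
  have h4 : 0 < 4 ^ K := by positivity
  obtain ⟨b, hb⟩ : ∃ b, b = M * (18 * 4 ^ K + 8) + 1 := ⟨_, rfl⟩
  have hb1 : 4 * M + 4 < b := by
    rw [hb, Nat.mul_add]
    have : M * 1 ≤ M * (18 * 4 ^ K) := Nat.mul_le_mul_left _ (by omega)
    have h5 : M * 1 * 18 ≤ M * (18 * 4 ^ K) := by
      rw [Nat.mul_one]
      exact Nat.mul_le_mul_left _ (by omega)
    omega
  have hb2 : 18 * 4 ^ K * M ≤ b := by
    rw [hb, Nat.mul_add, Nat.mul_comm (18 * 4 ^ K) M]
    omega
  have hcop : Nat.Coprime b M := by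
    rw [hb]
    simp
  have hb0 : 0 < b := by omega
  obtain ⟨lam, rho, nu1, g1, g2, g3, g4⟩ := hg b hb1 hcop α f
  -- ruler
  obtain ⟨c, hc1, hc2, -, -, hc4⟩ := Sp_69.spoil Ms M m b K (b ^ m) hM
    (fun k hk => ⟨(hMs k hk).2.2, (hMs k hk).1⟩) hb2 hcop
  obtain ⟨lam2, rho2, nuE, e1, e2⟩ := hK c (fun i j hij _ => by have := hc1 i j hij; omega)
  -- walls
  set N1 := b ^ m with hN1
  set p0 := c K with hp0
  obtain ⟨n, cw, P, Sw, hn, hP, hloc, hgap, -, -, hfew⟩ := walls_full (α := α) (2 * (N1 + p0))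
  set z := p0 + p0 + N1 + n + p0 + 1 with hz
  have hWL : InstB_11.WL (Wo n Sw) n (2 * (N1 + p0)) := ⟨hloc, fun P h => h.1, hgap⟩
  have hck : ∀ k < K, c k ≤ p0 := fun k hk => by have := hc1 k K hk; omega
  -- spoil count
  have sp : ∀ T, p0 ≤ T → ∀ F : Finset (ℕ × ℕ), (∀ ij ∈ F, ij.1 < K ∧ ij.2 < K ∧ ij.1 ≠ ij.2 ∧
      Sp_69.BadN Ms M m b (T + c ij.2 - c ij.1)) → F.card ≤ r + m := by
    intro T hT F hF
    refine le_trans (Finset.card_le_card ?_)
      ((hc4 T (fun k hk => (hck k hk).trans hT)).trans (Nat.add_le_add_right hcard m))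
    intro ij hij
    obtain ⟨h1, h2, h3, h5⟩ := hF ij hij
    exact Finset.mem_filter.2 ⟨Finset.mem_product.2 ⟨Finset.mem_range.2 h1, Finset.mem_range.2 h2⟩,
      h3, h5⟩
  have hH := H14_82.main (f := f) (n := n) (Sw := Sw) (z := z) (N := N1) (p0 := p0) (A1 := N1)
    (m := M * b ^ m) (Nat.mul_pos hM (pow_pos hb0 m)) hfew (Sp_69.BadN Ms M m b)
    (fun T _ => Sp_69.badN_periodic Ms M m b (fun k hk => (hMs k hk).2.2) hb0 T)
    nu1 (fun w => nuE w 1) act
    (fun Y Y' h1 h2 h3 h4 h5 => (g4 Y Y' h1 h2 h3 h4 h5).2)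
  rw [XX_eq, Bad_eq, TT_eq] at hH
  obtain ⟨H1, H2, H3, H4⟩ := hH
  refine Top5_110.top_sem (XX := InstB_11.XX (Wo n Sw) z)
    (Bad := InstB_11.BadX (Wo n Sw) z N1 p0 (Sp_69.BadN Ms M m b))
    (φ := fun w => (w.map f).prod) (act := act)
    (T := InstB_11.TT f act p0 (fun w => nuE w 1) nu1)
    (L1 := InstB_11.L1 f act p0 (fun w => nuE w 1) lam) (L2 := InstB_11.L2 K c lam2)
    (N1 := 0) (N2 := 1)
    (by simp) (by intro u w; simp) hact1 hmul hfaith (InstB_11.pc (by omega))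
    (fun u hu => hu.1) (fun u _ v v' => H14_82.hT (f := f) (nu1 := nu1)
      (nu2 := fun w => nuE w 1) hadd hmul p0 u v v') H1 H2 H3
    (fun s => (H4 s).mono (by norm_num)) ?_ ?_ ?_ ?_ s
  · intro v
    refine (List.finite_length_le α (p0 + N1)).subset ?_
    rintro p ⟨h1, h2⟩
    have := g1 _ _ h2
    rw [List.length_drop] at this
    show p.length ≤ p0 + N1
    omega
  · intro v
    refine (List.finite_length_le α p0).subset ?_
    rintro p ⟨k, hk, h1, h2⟩
    have := hck k hk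
    show p.length ≤ p0
    omega
  · intro u hu hb x t ht
    rw [pow_zero, Language.mem_one] at ht
    subst ht
    rw [List.append_nil]
    exact InstB_11.C1 hWL f act (La := p0) (fun w => nuE w 1) nu1 lam rho (by omega)
      (fun p v h => (g1 p v h).le) (fun p q v b h1 h2 _ => g2 p q v b h1 h2)
      (fun u _ hu v => by
        unfold Sp_69.BadN at hu
        push Not at hu
        exact g3 u hu.1 (fun j hj => by
          obtain ⟨h1, h2⟩ := hu
          have := h2 j hj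
          tauto) v) u hu hb x
  · intro u hu x t ht
    rw [pow_one] at ht
    exact InstB_11.C2 hWL f act (La := p0) (C0 := r + m) (R := 2 + 2 * (r + m)) c nu1 lam2 rho2 nuE
      (by omega) (by omega) le_rfl hck
      (fun k hk P Q y v b h1 h2 h3 => e1 k hk P Q y v b h1 h2 h3) e2 (by omega)
      (fun i j k l _ _ _ _ h1 h2 h3 => hc2 i j k l h1 h2 h3) sp u t hu ht x

/-- **the row** -/
theorem row (α : Type*) [Finite α] (L : Language α) (hL : L.IsRegular) :
    ∃ e : GRegExp α, e.height ≤ 3 ∧ e.lang = L :=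
  Univ_119.bridge (fun α _ L hL => Crest.Agent.R320.Hk_851.of_monoid
    (fun S _ _ f s => fin α S f s) L hL) α L hL

end Crest.Agent.R320.Fin_416
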