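import Crest.Agent.R320.SemTop_727
import Crest.Agent.R320.SemJ_832
import Crest.Agent.R320.P4_440
import Crest.Agent.R320.G1_604
import Crest.Agent.R320.ExactR_237
import Crest.Agent.R320.Sp_21
import Crest.Agent.R320.Univ_582

/-!
# Row 320: final assembly (helper419)

727's semantic top + 832's concrete joint + 604's gadget of scheme 1 + 237's exact gadget +
21's ruler + 228 / 440's walls and `HL 1` families + 582's universe transfer.
-/

set_option autoImplicit false

namespace Crest.Agent.R320.Fin_419

open Crest.RegLang Crest.Agent.R320.Hk_851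

theorem prod_append {α S : Type} [Monoid S] (f : α → S) (u v : List α) :
    ((u ++ v).map f).prod = (u.map f).prod * (v.map f).prod := by
  rw [List.map_append, List.prod_append]

theorem exists_dat (α : Type) [Finite α] (S : Type) [Monoid S] [Finite S]
    (V : Type) [AddCommGroup V] [Finite V] (act : V → S → V) (f : α → S) :
    ∃ (D : SemJ_832.Dat α S V) (Sw : Set (List α)) (P : ℕ), 0 < P ∧
      D.phi = (fun w => (w.map f).prod) ∧ D.act = act ∧ D.Wo = WallU_228.Wo D.n Sw ∧
      (∀ (L : Language α), L.IsRegular → ∀ r,
        HL 1 ({w | w ∈ L ∧ FewWalls_228.nw D.n Sw w ≤ r} : Language α)) ∧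
      (∀ Q Q' : List α, D.N ≤ Q.length → D.N ≤ Q'.length → Q.take D.N = Q'.take D.N →
        Q.length % P = Q'.length % P →
        ((Q.drop D.N).map f).prod = ((Q'.drop D.N).map f).prod → D.nu1 Q = D.nu1 Q') := by
  classical
  letI := Fintype.ofFinite S
  letI := Fintype.ofFinite V
  obtain ⟨m, r, hg⟩ := G1_604.g1 S V act
  obtain ⟨K, hE⟩ := ExactR_237.exact_gadget α S V f act (2 * (r + m) + 2)
  obtain ⟨Ms, M, hcard, hMs, hM, hg⟩ := hg (2 ^ (K + 1))
  have hp : 0 < 2 ^ K := by positivity
  have e6 : 2 ^ (K + 6) = 64 * 2 ^ K := by ring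
  have e4 : 2 ^ (K + 4) = 16 * 2 ^ K := by ring
  obtain ⟨b, hbdef⟩ : ∃ b, b = M * 2 ^ (K + 6) + 1 := ⟨_, rfl⟩
  have hb1 : 4 * M + 4 < b := by
    have : M * 64 ≤ M * 2 ^ (K + 6) := Nat.mul_le_mul_left M (by omega)
    omega
  have hb2 : (2 ^ (K + 4) + 2) * M < b := by
    have : (2 ^ (K + 4) + 2) * M ≤ 2 ^ (K + 6) * M := Nat.mul_le_mul_right M (by omega)
    rw [hbdef, mul_comm M]
    omega
  have hco : Nat.Coprime b M := by
    rw [hbdef]
    simp [Nat.coprime_mul_right_add_left, Nat.coprime_mul_left_add_left]
  obtain ⟨lam, rho, nu1, g_len, g_sound, g_comp, g_fin⟩ := hg b hb1 hco α f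
  obtain ⟨c, hc1, hc2, hc3⟩ := Sp_21.spoil K (b ^ m) m M b Ms hM
    (fun k hk => ⟨(hMs k hk).2.2, (hMs k hk).1.le⟩) hco hb2
  obtain ⟨lam2, rho2, nu2, e_sound, e_comp⟩ := hE c
    (fun i j hij _ => by have := hc1 i j hij; omega)
  have hcK : ∀ k < K, c k ≤ c K := fun k hk => by have := hc1 k K hk; omega
  obtain ⟨n, cc, P, Sw, hn, hP, hloc, hgap, -, -, hfew⟩ :=
    WallU_228.walls_full (α := α) (2 * c K + 2 * b ^ m)
  have hb0 : 0 < b := by omega
  refine ⟨{ phi := fun w => (w.map f).prod
            act := act
            Wo := WallU_228.Wo n Sw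
            n := n
            W := 2 * c K + 2 * b ^ m
            z := c K + n + 2 * b ^ m + 2 * c K + 1
            p0 := c K
            N := b ^ m
            K := K
            C0 := r + m
            Lam := c K
            BadT := Sp_21.Bad m M b Ms
            lam := lam
            rho := rho
            nu1 := nu1
            c := c
            lam2 := lam2
            rho2 := fun k Q => rho2 k Q 1
            nu2 := fun u => nu2 u 1
            hloc := hloc
            hgap := ?_
            g_len := fun p v h => (g_len p v h).le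
            g_sound := fun p q v r h1 h2 => g_sound p q v r h1 h2
            g_comp := ?_
            e_sound := ?_
            e_comp := fun u v hu => e_comp u 1 v hu
            c_le := hcK
            rulerE := ?_
            rulerB := ?_
            h_p0 := le_rfl
            z_pos := by omega
            h_z := by omega
            h_W := le_rfl }, Sw, M * b ^ m, ?_, rfl, rfl, rfl, hfew, ?_⟩
  · intro X t t' htt ht' h1 h2
    by_contra hcon
    have h3 := hgap (X.take t') (t' - t) h2 (by omega) (by omega)
    apply h3
    have e : (X.take t').take ((X.take t').length - (t' - t)) = X.take t := by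
      rw [List.length_take, min_eq_left ht', List.take_take]
      congr 1
      omega
    rw [e]
    exact h1
  · intro u _ hbad v
    have hb' := not_or.1 hbad
    refine g_comp u ?_ ?_ v
    · intro k hk hd
      exact hb'.1 ⟨k, hk, hd⟩
    · intro j hj
      by_contra h
      exact hb'.2 ⟨j, hj, h⟩
  · intro k hk P Q v b' hP h1 h2
    have := e_sound k hk P Q 1 v b' hP h1 h2
    rw [mul_one] at this
    exact this
  · intro i _ j _ i' _ j' _ hij hij' h1 h2
    by_contra hne
    have hne' : (i, j) ≠ (i', j') := fun h => hne ⟨(Prod.mk.inj h).1, (Prod.mk.inj h).2⟩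
    rcases hc2 i j i' j' hij hij' hne' with h | h <;> omega
  · intro T _ hT
    set s := ((Finset.range K) ×ˢ (Finset.range K)).filter
      (fun ab : ℕ × ℕ => ab.1 ≠ ab.2 ∧ Sp_21.Bad m M b Ms (T + c ab.1 - c ab.2)) with hs
    have h1 := hc3 T (fun i hi => (hcK i hi).trans hT) (s.image Prod.swap) (by
      intro p hp
      obtain ⟨q, hq, rfl⟩ := Finset.mem_image.1 hp
      rw [hs, Finset.mem_filter, Finset.mem_product, Finset.mem_range, Finset.mem_range] at hq
      exact ⟨hq.1.2, hq.1.1, fun h => hq.2.1 h.symm, hq.2.2⟩)
    rw [Finset.card_image_of_injective _ Prod.swap_injective] at h1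
    exact h1.trans (by omega)
  · exact Nat.mul_pos hM (Nat.pow_pos hb0)
  · intro Q Q' h1 h2 h3 h4 h5
    exact (g_fin Q Q' h1 h2 h3 h4 h5).2

theorem fibre (α : Type) [Finite α] (S : Type) [Monoid S] [Finite S] (f : α → S) (s : S) :
    HL 3 ({w | (w.map f).prod = s} : Language α) := by
  classical
  let V := S → ZMod 2
  let act : V → S → V := fun v a t => v (a * t)
  haveI : Finite V := inferInstanceAs (Finite (S → ZMod 2))
  have hadd : ∀ a b s, act (a + b) s = act a s + act b s := fun a b s => rfl
  have hone : ∀ v, act v 1 = v := fun v => by funext t; simp [act]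
  have hmul : ∀ v s t, act v (s * t) = act (act v s) t := fun v s t => by
    funext x; simp [act, mul_assoc]
  have hfaith : ∀ s t, (∀ v, act v s = act v t) → s = t := by
    intro a b h
    have h1 := congrFun (h (fun x => if x = a then 1 else 0)) 1
    simp only [act, mul_one] at h1
    by_contra hne
    rw [if_neg (show ¬ b = a from fun h => hne h.symm)] at h1
    simp at h1
  obtain ⟨D, Sw, P, hP, hphi, hact, hWo, hfew, hfin⟩ := exists_dat α S V act f
  have hpr : ∀ u v : List α, ((u ++ v).map f).prod = (u.map f).prod * (v.map f).prod :=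
    prod_append f
  have hZ : D.Z = P4_440.XX D.n Sw D.z := by
    unfold SemJ_832.Dat.Z
    rw [hWo]
    rfl
  set B := D.p0 + D.N + D.n + D.z with hB
  refine SemTop_727.top (k := 1) act hadd hone hmul hfaith f
    (fun X => act (D.nu2 (X.take D.p0)) ((X.drop D.p0).map f).prod + D.nu1 (X.drop D.p0))
    { XX := D.Z, T := D.T, L1 := D.L1, L2 := D.L2 } ?_ ?_ ?_ ?_ ?_ ?_ ?_ s
  · -- hT
    intro v X
    show D.T v X = _
    unfold SemJ_832.Dat.T
    rw [hact, hphi]
    simp only
    rw [hadd, ← hmul, ← hpr, List.take_append_drop, add_assoc]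
  · -- PCode
    have hz := D.z_pos
    constructor
    · rintro ⟨h, -, -⟩
      simp only [List.length_nil] at h
      omega
    · rintro X ⟨h1, h2, -⟩ Y ⟨-, -, h3⟩ ⟨w, rfl⟩
      rcases Nat.eq_zero_or_pos w.length with h0 | h0
      · rw [List.length_eq_zero_iff.1 h0, List.append_nil]
      · exfalso
        apply h3 X.length h1 (by rw [List.length_append]; omega)
        rw [List.take_left]
        exact h2
  · -- fibres
    intro x y
    have hR : P4_440.Resp (fun w : List α => (w.map f).prod) B P (fun X => D.T x X = y) := by
      intro w w' hw hw' ht hd hl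
      have e : D.T x w = D.T x w' := by
        unfold SemJ_832.Dat.T
        have e1 : w.take D.p0 = w'.take D.p0 := by
          have := congrArg (List.take D.p0) ht
          rwa [List.take_take, List.take_take, min_eq_left (by omega)] at this
        have e2 : ∀ j, j ≤ B → ((w.drop j).map f).prod = ((w'.drop j).map f).prod := by
          intro j hj
          have a1 : ∀ u : List α, B ≤ u.length → u.drop j = (u.take B).drop j ++ u.drop B := by
            intro u hu
            conv_lhs => rw [← List.take_append_drop B u]
            rw [List.drop_append_of_le_length (by rw [List.length_take, min_eq_left hu]; exact hj)]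
          rw [a1 w hw, a1 w' hw', hpr, hpr, ht]
          rw [show ((w.drop B).map f).prod = ((w'.drop B).map f).prod from hd]
        have e3 : D.nu1 (w.drop D.p0) = D.nu1 (w'.drop D.p0) := by
          apply hfin
          · rw [List.length_drop]; omega
          · rw [List.length_drop]; omega
          · have := congrArg (fun u => (u.take (D.p0 + D.N)).drop D.p0) ht
            simp only [List.take_take] at this
            rw [min_eq_left (by omega)] at this
            rw [List.drop_take, List.drop_take] at this
            simpa using this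
          · rw [List.length_drop, List.length_drop]
            have a1 : w.length = (w.length - D.p0) + D.p0 := by omega
            have a2 : w'.length = (w'.length - D.p0) + D.p0 := by omega
            rw [a1, a2] at hl
            exact Nat.ModEq.add_right_cancel' D.p0 hl
          · rw [List.drop_drop, List.drop_drop]
            exact e2 _ (by omega)
        rw [hact, hphi]
        simp only
        rw [e1, e2 D.p0 (by omega), e3]
      show D.T x w = y ↔ D.T x w' = y
      rw [e]
    have := P4_440.HL_block (φ := fun w : List α => (w.map f).prod) (n := D.n) (S := Sw) (z := D.z)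
      (B := B) (P := P) hpr (by omega) (by omega) hP hfew hR
    refine this.congr fun w => ?_
    show (w ∈ D.Z ∧ D.T x w = y) ↔ (w ∈ P4_440.XX D.n Sw D.z ∧ D.T x w = y)
    rw [hZ]
    rfl
  · -- L1
    intro x
    refine (List.finite_length_le α (D.p0 + D.N)).subset ?_
    intro P hP
    have h1 := D.g_len _ _ hP.2
    rw [List.length_drop] at h1
    show P.length ≤ _
    have := hP.1
    omega
  · -- L2
    intro x
    refine (List.finite_length_le α D.Lam).subset ?_
    rintro P ⟨k, hk, h1, -⟩
    show P.length ≤ _
    have := D.c_le k hk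
    omega
  · -- C2
    intro X1 h1 X2 h2 x
    exact D.hC2 h1 h2 x
  · -- tail
    intro s
    have hR : P4_440.Resp (fun w : List α => (w.map f).prod) B P
        (fun X => (X.map f).prod = s) := by
      intro w w' hw hw' ht hd hl
      show (w.map f).prod = s ↔ (w'.map f).prod = s
      rw [← List.take_append_drop B w, ← List.take_append_drop B w', hpr, hpr, ht]
      rw [show ((w.drop B).map f).prod = ((w'.drop B).map f).prod from hd]
    have := P4_440.HL_rest (φ := fun w : List α => (w.map f).prod) (n := D.n) (S := Sw) (z := D.z)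
      (B := B) (P := P) hpr (by omega) (by omega) hP hfew hR
    refine (this.congr fun w => ?_).mono (by norm_num)
    show ((∀ X ∈ D.Z, ¬ X <+: w) ∧ _) ↔ ((∀ X ∈ P4_440.XX D.n Sw D.z, ¬ X <+: w) ∧ _)
    rw [hZ]
    rfl

/-- **Row 320.** -/
theorem final {α : Type*} [Finite α] (L : Language α) (hL : L.IsRegular) :
    ∃ e : Crest.RegLang.GRegExp α, e.height ≤ 3 ∧ e.lang = L :=
  Univ_582.final (fun β _ S _ _ φ s => fibre β S φ s) α L hL

end Crest.Agent.R320.Fin_419
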