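import Crest.Agent.R320.Top5_120
import Crest.Agent.R320.Sc2n_937
import Crest.Agent.R320.G1_852
import Crest.Agent.R320.ExactR_237
import Crest.Agent.R320.Sp_421
import Crest.Agent.R320.LWallAll_922
import Crest.Agent.R320.P4_933

/-! Row 320: constants + join (helper421). -/

set_option autoImplicit false

namespace Crest.Agent.R320.Fin_421

open Crest.RegLang Crest.Agent.R320.Hk_851 Crest.Agent.R320.Blk467
open Crest.Agent.R320.BddReg_746 Crest.Agent.R320.P4_933

/-- finite-state properties (value of the dropped part) are regular -/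
theorem regular_of_drop {α : Type*} [Finite α] {S : Type*} [Monoid S] [Finite S] (φ : α → S)
    (A M0 : ℕ) (hM : 0 < M0) (f : List α → Prop)
    (hf : ∀ u u' : List α, A ≤ u.length → A ≤ u'.length → u.take A = u'.take A →
      u.length % M0 = u'.length % M0 → ((u.drop A).map φ).prod = ((u'.drop A).map φ).prod →
      (f u ↔ f u')) :
    Language.IsRegular ({u | f u} : Language α) := by
  classical
  have : NeZero M0 := ⟨by omega⟩
  have hfin : Finite {l : List α // l.length ≤ A} := List.finite_length_le α A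
  let σ := {l : List α // l.length ≤ A} × ZMod M0 × S
  have : Fintype σ := Fintype.ofFinite σ
  let st : List α → σ := fun u =>
    (⟨u.take A, by rw [List.length_take]; omega⟩, (u.length : ZMod M0), ((u.drop A).map φ).prod)
  let M : DFA α σ :=
    { step := fun q a =>
        (if h : q.1.1.length < A then ⟨q.1.1 ++ [a], by simp; omega⟩ else q.1,
          q.2.1 + 1, if q.1.1.length < A then q.2.2 else q.2.2 * φ a)
      start := st []
      accept := {q | ∃ u, f u ∧ st u = q} }
  have hev : ∀ u, M.eval u = st u := by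
    intro u
    induction u using List.reverseRecOn with
    | nil => rfl
    | append_singleton u a ih =>
      rw [DFA.eval_append_singleton, ih]
      refine Prod.ext ?_ (Prod.ext ?_ ?_)
      · apply Subtype.ext
        show (if h : (u.take A).length < A then (⟨u.take A ++ [a], by simp at h ⊢; omega⟩ :
          {l : List α // l.length ≤ A}) else ⟨u.take A, by rw [List.length_take]; omega⟩).1
          = (u ++ [a]).take A
        rw [take_snoc]
        split_ifs <;> rfl
      · show (u.length : ZMod M0) + 1 = (((u ++ [a]).length : ℕ) : ZMod M0)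
        simp
      · show (if (u.take A).length < A then ((u.drop A).map φ).prod
          else ((u.drop A).map φ).prod * φ a) = (((u ++ [a]).drop A).map φ).prod
        by_cases h : u.length < A
        · have h1 : (u.take A).length < A := by rw [List.length_take]; omega
          rw [if_pos h1, List.drop_of_length_le (by omega),
            List.drop_of_length_le (by simp; omega)]
        · have h1 : ¬ (u.take A).length < A := by rw [List.length_take]; omega
          rw [if_neg h1, List.drop_append_of_le_length (by omega)]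
          simp
  refine Language.isRegular_iff.2 ⟨σ, inferInstance, M, ?_⟩
  ext u
  rw [DFA.mem_accepts, hev]
  constructor
  · rintro ⟨u', h1, h2⟩
    have e1 : u'.take A = u.take A := congrArg (fun q : σ => q.1.1) h2
    have e2 : (u'.length : ZMod M0) = (u.length : ZMod M0) := congrArg (fun q : σ => q.2.1) h2
    have e3 : ((u'.drop A).map φ).prod = ((u.drop A).map φ).prod :=
      congrArg (fun q : σ => q.2.2) h2
    have e2' : u'.length % M0 = u.length % M0 := (ZMod.natCast_eq_natCast_iff' _ _ _).1 e2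
    have e4 := congrArg List.length e1
    rw [List.length_take, List.length_take] at e4
    by_cases h : u.length < A
    · rw [List.take_of_length_le (by omega), List.take_of_length_le (by omega)] at e1
      rw [← e1]; exact h1
    · exact (hf u' u (by omega) (by omega) e1 e2' e3).1 h1
  · intro h
    exact ⟨u, h, rfl⟩

/-- `BadD` is periodic -/
theorem bad_mod {Ms : Finset ℕ} {M m b n n' : ℕ} (hMs : ∀ k ∈ Ms, k ∣ M)
    (h : n % (M * b^m) = n' % (M * b^m)) (hn : Sp_421.BadD Ms M m b n) :
    Sp_421.BadD Ms M m b n' := by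
  rcases hn with ⟨k, hk, hkd⟩ | ⟨j, hj, hjd⟩
  · left
    refine ⟨k, hk, ?_⟩
    have h1 : k ∣ M * b^m := (hMs k hk).mul_right _
    have h2 : n % k = n' % k := by
      rw [← Nat.mod_mod_of_dvd n h1, h, Nat.mod_mod_of_dvd n' h1]
    rw [Nat.dvd_iff_mod_eq_zero] at hkd ⊢
    rw [← h2]; exact hkd
  · right
    refine ⟨j, hj, ?_⟩
    have h1 : b^j * b ∣ M * b^m := by
      rw [← pow_succ]
      exact (pow_dvd_pow b (by omega)).mul_left _
    have h2 : n % (b^j * b) = n' % (b^j * b) := by
      rw [← Nat.mod_mod_of_dvd n h1, h, Nat.mod_mod_of_dvd n' h1]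
    have h3 : ∀ x : ℕ, x / b^j % b = x % (b^j * b) / b^j := by
      intro x
      rw [Nat.mod_mul_right_div_self]
    rw [h3, ← h2, ← h3]
    exact hjd


theorem split_drop {α S : Type*} [Monoid S] (φ : α → S) (u : List α) {A t : ℕ} (hA : A ≤ u.length)
    (ht : t ≤ A) : ((u.drop t).map φ).prod =
      (((u.take A).drop t).map φ).prod * ((u.drop A).map φ).prod := by
  have h1 : u.drop t = (u.take A).drop t ++ u.drop A := by
    conv_lhs => rw [← List.take_append_drop A u]
    rw [List.drop_append_of_le_length (by rw [List.length_take]; omega)]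
  rw [h1, List.map_append, List.prod_append]

theorem take_of_take {α : Type*} {u u' : List α} {A t : ℕ} (h : u.take A = u'.take A) (ht : t ≤ A) :
    u.take t = u'.take t := by
  have h1 := congrArg (List.take t) h
  rwa [List.take_take, List.take_take, min_eq_left ht] at h1

set_option maxHeartbeats 1000000 in
theorem fin (α : Type) [Finite α] (S : Type) [Monoid S] [Finite S] (φ : α → S) (s : S) :
    HL 3 ({w | (w.map φ).prod = s} : Language α) := by
  classical
  have : Fintype S := Fintype.ofFinite S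
  obtain ⟨act, hadd, hone, hmul, hfaith⟩ := exists_module S
  obtain ⟨m, r, hG⟩ := G1_852.gadget act
  obtain ⟨K, hK⟩ := ExactR_237.exact_gadget α S (S → ZMod 2) φ act (2*(r+m) + 2)
  obtain ⟨Ms, M, hcard, hMs, hM, hG2⟩ := hG (2^(K+2))
  obtain ⟨b, hbdef⟩ : ∃ b, b = 2^(K+6)*M + 1 := ⟨_, rfl⟩
  have hb : 2^(K+6)*M < b := by omega
  have hcop : Nat.Coprime b M := by
    rw [hbdef, mul_comm (2^(K+6)) M, Nat.coprime_mul_left_add_left]
    exact Nat.coprime_one_left M
  obtain ⟨lam, rho, nu1, hlen, hsound, hcomp, hfs⟩ := hG2 b (by omega) hcop α φ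
  obtain ⟨N1, hN1⟩ : ∃ N1, N1 = b^m := ⟨_, rfl⟩
  have hb0 : 0 < b := by omega
  have hN1pos : 0 < N1 := by rw [hN1]; positivity
  obtain ⟨c, p0, hcp, hinc, hgol, hcount⟩ := Sp_421.sp K N1 r m M b Ms hM hb hcop
    (fun k hk => ⟨(hMs k hk).1, (hMs k hk).2.2⟩) hcard
  obtain ⟨lam2, rho2', nu2', hs2, hc2⟩ := hK c (fun i j hij _ => by have := hinc i j hij; omega)
  obtain ⟨n, G, B, Wo, hLW, hgap, -, -, hfree⟩ :=
    LWallAll_922.walls_all_left α (2*p0 + 2*N1 + 1) (by omega)
  obtain ⟨g, hgW, hgn, hgz, hgp, hgq, hgN⟩ : ∃ g : Sc2n_937.Geo α, g.Wo = Wo ∧ g.n = n ∧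
      g.z = p0 + N1 + (n + 2*p0) ∧ g.p0 = p0 ∧ g.q0 = n + 2*p0 ∧ g.N1 = N1 :=
    ⟨{ Wo := Wo, n := n, z := p0 + N1 + (n + 2*p0), p0 := p0, q0 := n + 2*p0, N1 := N1,
       loc := hLW.app, hz := rfl, hq := by omega, hN := hN1pos, hqp := by omega },
      rfl, rfl, rfl, rfl, rfl, rfl⟩
  let pre : List α → (S → ZMod 2) → (S → ZMod 2) := fun X v => act v (X.map φ).prod + nu2' X 1
  let post : (S → ZMod 2) → List α → (S → ZMod 2) := fun v Y => act v (Y.map φ).prod + nu1 Y
  let nu : List α → (S → ZMod 2) := fun X =>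
    act (nu2' (X.take p0) 1) ((X.drop p0).map φ).prod + nu1 (X.drop p0)
  let BadT : ℕ → Prop := Sp_421.BadD Ms M m b
  have hT : ∀ v X, g.T pre post v X = act v (X.map φ).prod + nu X := by
    intro v X
    show act (act v ((X.take g.p0).map φ).prod + nu2' (X.take g.p0) 1)
      ((X.drop g.p0).map φ).prod + nu1 (X.drop g.p0) = _
    rw [hgp, hadd, ← hmul, ← List.prod_append, ← List.map_append, List.take_append_drop, add_assoc]
  let C : Set (List α) := {X | g.XX X}
  let Bad : Set (List α) := {X | g.XX X ∧ g.BadX BadT X}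
  let L1 : (S → ZMod 2) → Set (List α) := fun v => {P | g.LP1 pre lam v P}
  let L2 : (S → ZMod 2) → Set (List α) := fun v => {P | Sc2n_937.Geo.LP2 K c lam2 v P}
  have hlen' : ∀ P v, lam P = some v → P.length ≤ g.N1 := by
    intro P v h
    rw [hgN, hN1]; exact (hlen P v h).le
  have hex1 : ∀ P Q u b, lam P = some u → rho Q = some b → b = post u (P ++ Q) := by
    intro P Q u b h1 h2
    exact hsound P Q u b h1 h2
  have hck : ∀ k, k < K → c k ≤ g.p0 := by
    intro k hk; rw [hgp]; exact hcp k hk
  have hex2 : ∀ k, k < K → ∀ P Q v u, P.length = c k → Q.length = g.p0 - c k →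
      lam2 k P = some v → (fun k Q => rho2' k Q 1) k Q = some u → u = pre (P ++ Q) v := by
    intro k hk P Q v u hP _ h1 h2
    have := hs2 k hk P Q 1 v u hP h1 h2
    rw [mul_one] at this
    exact this
  -- finite-state data
  have hkey : ∀ u u' : List α, g.z + N1 ≤ u.length → g.z + N1 ≤ u'.length →
      u.take (g.z + N1) = u'.take (g.z + N1) → u.length % (M*b^m) = u'.length % (M*b^m) →
      ((u.drop (g.z + N1)).map φ).prod = ((u'.drop (g.z + N1)).map φ).prod →
      (u.map φ).prod = (u'.map φ).prod ∧ nu u = nu u' ∧ (g.BadX BadT u → g.BadX BadT u') := by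
    intro u u' hu hu' ht hm hp
    have q1 : p0 ≤ g.z + N1 := by omega
    have q2 : p0 + N1 ≤ g.z + N1 := by omega
    have a0 : (u.map φ).prod = (u'.map φ).prod := by
      have h1 := split_drop φ u hu (Nat.zero_le _)
      have h2 := split_drop φ u' hu' (Nat.zero_le _)
      rw [List.drop_zero, List.drop_zero] at h1 h2
      rw [h1, h2, ht, hp]
    have a1 : ((u.drop p0).map φ).prod = ((u'.drop p0).map φ).prod := by
      rw [split_drop φ u hu q1, split_drop φ u' hu' q1, ht, hp]
    have a2 : ((u.drop (p0+N1)).map φ).prod = ((u'.drop (p0+N1)).map φ).prod := by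
      rw [split_drop φ u hu q2, split_drop φ u' hu' q2, ht, hp]
    have a3 : (u.drop p0).length % (M*b^m) = (u'.drop p0).length % (M*b^m) := by
      rw [List.length_drop, List.length_drop]
      have h1 : u.length - p0 + p0 ≡ u'.length - p0 + p0 [MOD (M*b^m)] := by
        rw [Nat.sub_add_cancel (by omega), Nat.sub_add_cancel (by omega)]
        exact hm
      exact Nat.ModEq.add_right_cancel' p0 h1
    have a4 : (u.drop p0).take (b^m) = (u'.drop p0).take (b^m) := by
      have h1 := congrArg (List.drop p0) (take_of_take ht q2)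
      rw [List.drop_take, List.drop_take, Nat.add_sub_cancel_left, hN1] at h1
      exact h1
    have a5 : nu1 (u.drop p0) = nu1 (u'.drop p0) := by
      refine (hfs _ _ a4 ?_ a3).2
      show (((u.drop p0).drop (b^m)).map φ).prod = (((u'.drop p0).drop (b^m)).map φ).prod
      rw [List.drop_drop, List.drop_drop, ← hN1]
      exact a2
    refine ⟨a0, ?_, ?_⟩
    · show act (nu2' (u.take p0) 1) ((u.drop p0).map φ).prod + nu1 (u.drop p0) =
        act (nu2' (u'.take p0) 1) ((u'.drop p0).map φ).prod + nu1 (u'.drop p0)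
      rw [a1, a5, take_of_take ht q1]
    · rintro (⟨t, h1, h2, h3, h4⟩ | h)
      · left
        rw [hgN] at h4
        refine ⟨t, by omega, ?_, h3, by rw [hgN]; exact h4⟩
        rw [← take_of_take ht (by omega : t ≤ g.z + N1)]
        exact h2
      · right
        rw [hgp] at h ⊢
        rw [List.length_drop, List.length_drop] at a3
        exact bad_mod (fun k hk => (hMs k hk).2.2) a3 h
  have hMpos : 0 < M * b^m := by positivity
  have hPN : ∀ u : List α, (∀ t < u.length, ¬ Wo (u.take t)) →
      u ∈ (PN (max B (2*p0 + 2*N1 + 1)) 2 : Language α) := by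
    intro X hX
    obtain ⟨u, x, v, k, h1, h2, h3, rfl⟩ := hfree X hX
    refine Language.mem_mul.2 ⟨u ++ pw x k, ⟨u, x, k, le_trans h1 (le_max_left _ _),
      le_trans h2 (le_max_right _ _), rfl⟩, v, ?_, rfl⟩
    exact Language.mem_mul.2 ⟨v, ⟨v, [], 0, le_trans h3 (le_max_left _ _), by simp, by simp⟩,
      [], rfl, by simp⟩
  have hXXiff : ∀ X, g.XX X ↔ P4_933.XX Wo g.z X := by
    intro X
    rw [← hgW]
    constructor
    · rintro ⟨h1, h2, h3⟩
      exact ⟨h2, h1, fun t ht hz => h3 t hz ht⟩
    · rintro ⟨h1, h2, h3⟩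
      exact ⟨h2, h1, fun t hz ht => h3 t ht hz⟩
  have hPC : PCode C := by
    refine ⟨?_, ?_⟩
    · intro h
      have : g.z ≤ 0 := h.1
      omega
    · rintro X hX Y hY ⟨t, ht⟩
      refine g.prefix_code (R := t) (R' := []) hX hY ?_
      rw [ht, List.append_nil]
  refine Top5_120.top5 act hadd hone hmul hfaith φ nu C Bad hPC (fun X hX => hX.1) L1 L2
    ?_ ?_ ?_ ?_ ?_ ?_ ?_ s
  · -- L1 finite
    intro v
    refine (List.finite_length_le α (g.p0 + g.N1)).subset ?_
    rintro P ⟨h1, h2⟩
    have := hlen' _ _ h2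
    rw [List.length_drop] at this
    show P.length ≤ _
    omega
  · intro v
    refine (List.finite_length_le α g.p0).subset ?_
    rintro P ⟨k, hk, h1, -⟩
    show P.length ≤ _
    rw [h1]; exact hck k hk
  · -- hCT
    intro x y
    refine (P4_933.hl_XX (z := g.z) hLW.app hLW.len hPN
      (f := fun X => act x (X.map φ).prod + nu X = y) ?_).congr fun w => ?_
    · refine regular_of_drop φ (g.z + N1) (M*b^m) hMpos _ ?_
      intro u u' h1 h2 h3 h4 h5
      obtain ⟨e1, e2, -⟩ := hkey u u' h1 h2 h3 h4 h5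
      rw [e1, e2]
    · exact and_congr (hXXiff w) Iff.rfl
  · -- hBT
    intro x y
    refine (P4_933.hl_XX (z := g.z) hLW.app hLW.len hPN
      (f := fun X => g.BadX BadT X ∧ act x (X.map φ).prod + nu X = y) ?_).congr fun w => ?_
    · refine regular_of_drop φ (g.z + N1) (M*b^m) hMpos _ ?_
      intro u u' h1 h2 h3 h4 h5
      obtain ⟨e1, e2, e3⟩ := hkey u u' h1 h2 h3 h4 h5
      obtain ⟨-, -, e4⟩ := hkey u' u h2 h1 h3.symm h4.symm h5.symm
      rw [e1, e2]
      exact and_congr ⟨e3, e4⟩ Iff.rfl
    · constructor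
      · rintro ⟨⟨h1, h2⟩, h3⟩
        exact ⟨(hXXiff w).1 h1, h2, h3⟩
      · rintro ⟨h1, h2, h3⟩
        exact ⟨⟨(hXXiff w).2 h1, h2⟩, h3⟩
  · -- htail
    intro s
    refine (P4_933.hl_NB (z := g.z) hLW.app hLW.len hPN
      (f := fun X => (X.map φ).prod = s) ?_).congr fun w => ?_
    · refine regular_of_drop φ 0 1 Nat.one_pos _ ?_
      intro u u' h1 h2 h3 h4 h5
      rw [List.drop_zero, List.drop_zero] at h5
      rw [h5]
    · refine and_congr ?_ Iff.rfl
      rw [P4_933.NB_iff]
      constructor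
      · intro h P hP hX
        exact h P ((hXXiff P).2 hX) hP
      · intro h X hX hP
        exact h X hP ((hXXiff X).1 hX)
  · -- hcc1
    intro X hX hXb v
    have hE : ¬ g.E X := fun h => hXb ⟨hX, Or.inl h⟩
    have hB : ¬ BadT (X.length - g.p0) := fun h => hXb ⟨hX, Or.inr h⟩
    have hc1 : ∀ u : S → ZMod 2, ∃ P Q, X.drop g.p0 = P ++ Q ∧ lam P = some u ∧
        (rho Q).isSome := by
      intro u
      obtain ⟨P, Q, h1, h2, v', h3⟩ := hcomp (X.drop g.p0)
        (fun k hk hd => hB (Or.inl ⟨k, hk, by rw [List.length_drop] at hd; exact hd⟩))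
        (fun j hj => by
          by_contra hcon
          refine hB (Or.inr ⟨j, hj, fun hh => hcon ?_⟩)
          rw [List.length_drop]
          exact ⟨hh.1, by omega⟩) u
      exact ⟨P, Q, h1, h2, by rw [h3]; rfl⟩
    obtain ⟨P, Q, b', h1, h2, h3⟩ := g.complete1 pre hlen' hX hE hc1 v
    have s0 := g.sound1 pre post hlen' hex1 h2 h3
    refine ⟨P, Q, h1.symm, h2, ?_⟩
    intro x P' hP'
    have s1 := g.sound1 pre post hlen' hex1 hP' h3
    refine ⟨s1.1, ?_⟩
    rw [← hT, ← hT, s1.2, h1, s0.2]
  · -- hcc2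
    intro X hX Y hY v
    have hI : ∃ I : Finset ℕ, 2 * (r + m) + 2 ≤ I.card ∧ ∀ k ∈ I, k < K ∧
        lam2 k (X.take (c k)) = some v ∧
        ((fun k Q => rho2' k Q 1) k ((X.take g.p0).drop (c k))).isSome := by
      have hXz : g.z ≤ X.length := hX.1.1
      obtain ⟨I, hI1, hI2⟩ := hc2 (X.take g.p0) 1 v (fun k hk => by
        have := hck k hk
        rw [List.length_take]; omega)
      refine ⟨I, hI1, fun k hk => ?_⟩
      obtain ⟨h1, h2, h3⟩ := hI2 k hk
      refine ⟨h1, ?_, h3⟩
      rw [List.take_take, min_eq_left (hck k h1)] at h2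
      exact h2
    have hthin : ∀ τ, g.z ≤ τ + g.p0 → ∀ J : Finset ℕ, (∀ k ∈ J, k < K ∧
        ∃ k', k' < K ∧ k' ≠ k ∧ BadT (τ + c k' - c k - g.p0)) → J.card ≤ r + m := by
      intro τ hτ J hJ
      rw [hgz, hgp] at hτ
      have hJ2 : ∀ k ∈ J, ∃ k', k' < K ∧ k' ≠ k ∧ BadT (τ + c k' - c k - g.p0) :=
        fun k hk => (hJ k hk).2
      choose! f hf using hJ2
      refine le_trans ?_ (hcount (τ - p0) (by omega))
      refine Finset.card_le_card_of_injOn (fun k => (k, f k)) ?_ ?_
      · intro k hk
        have hk' : k ∈ J := hk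
        obtain ⟨f1, f2, f3⟩ := hf k hk'
        have hkK := (hJ k hk').1
        refine Finset.mem_coe.2 (Finset.mem_filter.2 ⟨Finset.mem_product.2
          ⟨Finset.mem_range.2 hkK, Finset.mem_range.2 f1⟩, Ne.symm f2, ?_⟩)
        have e : τ + c (f k) - c k - g.p0 = τ - p0 + c (f k) - c k := by
          have := hcp k hkK
          rw [hgp]; omega
        rw [e] at f3
        exact f3
      · intro a _ a' _ h
        exact congrArg Prod.fst h
    have hgapg : ∀ P Q : List α, g.Wo P → g.Wo (P ++ Q) → Q ≠ [] →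
        2 * g.p0 + 2 * g.N1 < Q.length := by
      intro P Q h1 h2 h3
      rw [hgW] at h1 h2
      have hQ : 0 < Q.length := List.length_pos_iff.2 h3
      have := hgap (P ++ Q) P.length (P ++ Q).length (by rw [List.length_append]; omega) le_rfl
        (by rw [List.take_left]; exact h1) (by rw [List.take_length]; exact h2)
      rw [List.length_append] at this
      rw [hgp, hgN]; omega
    have hsp : ∀ k k' l l', k < K → k' < K → l < K → l' < K → k' ≠ k → l' ≠ l →
        c k + c l' < c l + c k' + 2 * g.N1 → c l + c k' < c k + c l' + 2 * g.N1 → k = l := by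
      intro k k' l l' hk hk' hl hl' h1 _ h3 h4
      rw [hgN] at h3 h4
      exact (hgol k k' l l' hk hk' hl hl' (Ne.symm h1)
        (by rw [abs_le]; constructor <;> omega)).1
    obtain ⟨P, Q, b', h1, h2, h3⟩ := g.complete2 pre post (BadT := BadT) (K := K) (c := c)
      (lam2 := lam2) (rho2 := fun k Q => rho2' k Q 1) (C0 := r + m) hck hgapg hsp hthin
      hX.1 hY.1 v hI
    refine ⟨P, Q, h1, h2, ?_⟩
    have s0 := g.sound2 pre post hck hex2 (R := []) (R' := Y) hX.1 hX.2 h2 h3
      (by rw [List.append_nil]; exact h1)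
    obtain ⟨Y2, hY2, e1, e2⟩ := s0
    have e3 : Y2 = Y := by
      rw [h1] at e1
      exact (List.append_cancel_left e1).symm
    subst e3
    intro x P' hP'
    -- first block of `P' ++ Q`
    have hfst : ∃ l, g.CEnd Q P'.length l ∧ P'.length ≤ g.p0 := by
      obtain ⟨k0, hk0, hl0, -⟩ := hP'
      obtain ⟨k, hk, l, hend, hgood, -⟩ := h3
      by_cases hkk : k0 = k
      · subst hkk
        exact ⟨l, by rw [hl0]; exact hend, by rw [hl0]; exact hck _ hk0⟩
      · obtain ⟨l', he', -⟩ := hgood k0 hk0 hkk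
        exact ⟨l', by rw [hl0]; exact he', by rw [hl0]; exact hck _ hk0⟩
    obtain ⟨l, hl, hPl⟩ := hfst
    have hX' := g.xx_of_cend hPl hl
    have hpre : P' ++ Q.take l ++ Q.drop l = P' ++ Q := by
      rw [List.append_assoc, List.take_append_drop]
    by_cases hbad : g.BadX BadT (P' ++ Q.take l)
    · left
      obtain ⟨X2, hX2, f1, f2⟩ := g.sound2 pre post hck hex2 (R := []) (R' := Q.drop l) hX' hbad
        hP' h3 (by rw [List.append_nil, hpre])
      refine ⟨P' ++ Q.take l, ⟨hX', hbad⟩, X2, hX2, f1.symm, ?_⟩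
      rw [← hT, ← hT, ← hT, ← hT, f2, e2]
    · right
      exact ⟨P' ++ Q.take l, hX', fun h => hbad h.2, ⟨Q.drop l, hpre⟩⟩

end Crest.Agent.R320.Fin_421
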