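import Crest.Agent.R320.Inst_427
import Crest.Agent.R320.ExactR_237
import Crest.Agent.R320.Two_621
import Crest.Agent.R320.Uni_366

/-!
# Row 320: from the all-words gadget to the row (helper427)
-/

set_option autoImplicit false

namespace Crest.Agent.R320.Fin_427

open Crest.Agent.R320.Hk_851 Crest.Agent.R320.Code110 Crest.Agent.R320.Top5_110
open Crest.Agent.R320.Inst_427 Crest.RegLang

/-- the gadget on all words with its ruler -/
def Gad (S V : Type) [Monoid S] [AddCommGroup V] (act : V → S → V) : Prop :=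
  ∃ C0 : ℕ, ∀ K : ℕ, ∃ (N A M : ℕ) (x : ℕ → ℕ) (BadT : ℕ → Prop), 0 < M ∧
    (∀ T, A ≤ T → (BadT (T + M) ↔ BadT T)) ∧
    (∀ i j, i < j → j < K → x i < x j) ∧
    (∀ a b c d, a < K → b < K → c < K → d < K → a ≠ b → c ≠ d →
      x a + x d ≤ x c + x b + 2 * N → x c + x b ≤ x a + x d + 2 * N → a = c) ∧
    (∀ T : ℕ, (∀ k < K, x k ≤ T) → ∀ Sp : Finset ℕ, (∀ k ∈ Sp, k < K ∧ ∃ k' < K,
      k' ≠ k ∧ BadT (T + x k' - x k)) → Sp.card ≤ C0) ∧
    ∀ (α : Type) [Finite α] (f : α → S), ∃ (lam rho : List α → Option V) (nu : List α → V),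
      (∀ P v, lam P = some v → P.length ≤ N) ∧
      (∀ P Q v b, lam P = some v → rho Q = some b →
        b = act v ((P ++ Q).map f).prod + nu (P ++ Q)) ∧
      (∀ u : List α, A ≤ u.length → ¬ BadT u.length → ∀ v, ∃ P Q, P ++ Q = u ∧
        lam P = some v ∧ (rho Q).isSome) ∧
      (∀ q q' : List α, A ≤ q.length → A ≤ q'.length → q.take A = q'.take A →
        ((q.drop A).map f).prod = ((q'.drop A).map f).prod →
        q.length % M = q'.length % M → nu q = nu q')

theorem per {BadT : ℕ → Prop} {A M : ℕ} (h : ∀ T, A ≤ T → (BadT (T + M) ↔ BadT T)) {T T' : ℕ}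
    (hT : A ≤ T) (hT' : A ≤ T') (e : T % M = T' % M) : BadT T ↔ BadT T' := by
  have key : ∀ (k T : ℕ), A ≤ T → (BadT (T + k * M) ↔ BadT T) := by
    intro k
    induction k with
    | zero => intro T _; simp
    | succ k ih =>
      intro T hT
      rw [show T + (k + 1) * M = (T + k * M) + M by ring, h _ (by omega), ih T hT]
  rcases le_total T T' with hl | hl
  · obtain ⟨k, hk⟩ := (Nat.modEq_iff_dvd' hl).1 e
    have : T' = T + k * M := by rw [Nat.mul_comm k M]; omega
    rw [this, key k T hT]
  · obtain ⟨k, hk⟩ := (Nat.modEq_iff_dvd' hl).1 e.symm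
    have : T = T' + k * M := by rw [Nat.mul_comm k M]; omega
    rw [this, key k T' hT']

section

variable {α : Type} [Finite α] {Wo : List α → Prop} {n z W : ℕ}

theorem reg_E {BadT : ℕ → Prop} {A M N p0 : ℕ} (hM : 0 < M)
    (h : ∀ T, A ≤ T → (BadT (T + M) ↔ BadT T)) :
    Language.IsRegular ({X | (∃ t, z ≤ t + N ∧ t < z + N ∧ t ≤ X.length ∧ Wo (X.take t)) ∨
      BadT (X.length - p0)} : Language α) := by
  refine Crest.Agent.R320.Loc_645.isRegular_of_read' (S := Unit) (fun _ => ()) (z + N + A + p0) M
    hM _ ?_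
  intro q q' h1 h2 h3 _ h5 h6
  rcases h6 with ⟨t, a1, a2, a3, a4⟩ | h6
  · left
    refine ⟨t, a1, a2, by omega, ?_⟩
    have e : q'.take t = q.take t := by
      have := congrArg (fun l => l.take t) h3
      simp only [List.take_take, min_eq_left (show t ≤ z + N + A + p0 by omega)] at this
      exact this.symm
    rw [e]
    exact a4
  · right
    refine (per h (by omega) (by omega) ?_).1 h6
    have : (q.length - p0 + p0) % M = (q'.length - p0 + p0) % M := by
      rw [Nat.sub_add_cancel (by omega), Nat.sub_add_cancel (by omega)]; exact h5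
    exact Nat.ModEq.add_right_cancel' p0 this

theorem reg_T {S V : Type} [Monoid S] [Finite S] [AddCommGroup V] (f : α → S) (D : Dat α S V)
    (hφ : D.φ = fun w => (w.map f).prod) {A M : ℕ} (hM : 0 < M)
    (h : ∀ q q' : List α, A ≤ q.length → A ≤ q'.length → q.take A = q'.take A →
        ((q.drop A).map f).prod = ((q'.drop A).map f).prod →
        q.length % M = q'.length % M → D.nu q = D.nu q') (x y : V) :
    Language.IsRegular ({X | D.T X x = y} : Language α) := by
  refine Crest.Agent.R320.Loc_645.isRegular_of_read' f (D.p0 + A) M hM _ ?_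
  intro q q' h1 h2 h3 h4 h5 h6
  have e1 : q'.take D.p0 = q.take D.p0 := by
    have := congrArg (fun l => l.take D.p0) h3
    simp only [List.take_take, min_eq_left (show D.p0 ≤ D.p0 + A by omega)] at this
    exact this.symm
  have e2 : (q'.drop D.p0).take A = (q.drop D.p0).take A := by
    have := congrArg (fun l => l.drop D.p0) h3
    simp only [List.drop_take, Nat.add_sub_cancel_left] at this
    exact this.symm
  have e3 : (((q'.drop D.p0).drop A).map f).prod = (((q.drop D.p0).drop A).map f).prod := by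
    rw [List.drop_drop, List.drop_drop]
    exact h4.symm
  have e4 : D.φ (q'.drop D.p0) = D.φ (q.drop D.p0) := by
    rw [hφ]
    show ((q'.drop D.p0).map f).prod = ((q.drop D.p0).map f).prod
    conv_lhs => rw [← List.take_append_drop A (q'.drop D.p0)]
    conv_rhs => rw [← List.take_append_drop A (q.drop D.p0)]
    rw [List.map_append, List.prod_append, List.map_append, List.prod_append, e2, e3]
  have e5 : D.nu (q'.drop D.p0) = D.nu (q.drop D.p0) := by
    refine h _ _ (by rw [List.length_drop]; omega) (by rw [List.length_drop]; omega) e2 e3 ?_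
    rw [List.length_drop, List.length_drop]
    have : (q'.length - D.p0 + D.p0) % M = (q.length - D.p0 + D.p0) % M := by
      rw [Nat.sub_add_cancel (by omega), Nat.sub_add_cancel (by omega)]; exact h5.symm
    exact Nat.ModEq.add_right_cancel' D.p0 this
  show D.T q' x = y
  rw [← (show D.T q x = y from h6), Dat.T, Dat.T, e1, e4, e5]

end

theorem main (S : Type) [Monoid S] [Finite S]
    (hG : Gad S (Crest.Agent.R320.Two_621.Tok S) Crest.Agent.R320.Two_621.act)
    (α : Type) [Finite α] (f : α → S) (s : S) :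
    HL 3 ({w | (w.map f).prod = s} : Language α) := by
  classical
  have := Fintype.ofFinite S
  have : Finite (Crest.Agent.R320.Two_621.Tok S) := inferInstanceAs (Finite (S → ZMod 2))
  have := Fintype.ofFinite (Crest.Agent.R320.Two_621.Tok S)
  obtain ⟨C0, hC0⟩ := hG
  obtain ⟨K, hK⟩ := Crest.Agent.R320.ExactR_237.exact_gadget α S
    (Crest.Agent.R320.Two_621.Tok S) f Crest.Agent.R320.Two_621.act (2 + 2 * C0)
  obtain ⟨N, A, M, x, BadT, hM, hper, hx, hgol, hcnt, hg⟩ := hC0 K
  obtain ⟨lam, rho, nu, g1, g2, g3, g4⟩ := hg α f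
  obtain ⟨lam2, rho2, nu2, e1, e2⟩ := hK x hx
  let D : Dat α S (Crest.Agent.R320.Two_621.Tok S) :=
    { φ := fun w => (w.map f).prod
      act := Crest.Agent.R320.Two_621.act
      p0 := (Finset.range K).sup x
      N := N
      BadT := BadT
      lam := lam
      rho := rho
      nu := nu
      K := K
      c := x
      lam2 := lam2
      rho2 := fun k Q => rho2 k Q 1
      nu2 := fun X => nu2 X 1 }
  have hxp : ∀ k, k < K → x k ≤ D.p0 := fun k hk =>
    Finset.le_sup (f := x) (Finset.mem_range.2 hk)
  obtain ⟨n, Wo, hloc, hlen, hgap, R, B, hfree⟩ :=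
    Crest.Agent.R320.WallU_228.walls (α := α) (2 * (D.p0 + N))
  have wl : WL Wo n (2 * (D.p0 + N)) := ⟨hloc, hlen, hgap⟩
  set z : ℕ := 3 * D.p0 + 3 * N + n + A + 1 with hz
  have ok : Ok D Wo n z (2 * (D.p0 + N)) A C0 (2 + 2 * C0) :=
    { wl := wl
      lenl := g1
      snd := g2
      cmp := g3
      cle := hxp
      snd2 := by
        intro k hk P Q v b hP hl hr
        have := e1 k hk P Q 1 v b hP hl hr
        rw [mul_one] at this
        exact this
      cmp2 := by
        intro u v hu
        exact e2 u 1 v fun k hk => by rw [hu]; exact hxp k hk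
      gol := hgol
      cnt := hcnt
      hR := by omega
      hW := le_rfl
      hz := by show 3 * D.p0 + 3 * N + n + A + 1 ≤ z; omega }
  have hfib : ∀ s : S, Language.IsRegular ({w | (w.map f).prod = s} : Language α) := by
    intro s
    refine Crest.Agent.R320.Loc_645.isRegular_of_read f 0 1 (by norm_num) _ ?_
    intro q q' _ h2 _ h4
    simp only [List.drop_zero] at h2
    rw [← h2]; exact h4
  refine top_sem (φ := D.φ) (act := D.act) (XX := XX Wo z) (Bad := Bad Wo z D.p0 N BadT)
    (T := D.T) (L1 := D.L1) (L2 := D.L2) (N1 := 0) (N2 := 1) (by simp [D]) (by simp [D])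
    Crest.Agent.R320.Two_621.act_one (fun v s t => (Crest.Agent.R320.Two_621.act_mul v s t).symm)
    (fun s t h => Crest.Agent.R320.Two_621.act_faithful h) (pc_XX (by omega))
    (fun u hu => hu.1) ?_ (hl_XX wl) ?_ ?_ ?_ ?_ ?_ (C1 ok) (C2 ok) s
  · intro u _ v v'
    have h1 : (u.map f).prod = ((u.take D.p0).map f).prod * ((u.drop D.p0).map f).prod := by
      rw [← List.prod_append, ← List.map_append, List.take_append_drop]
    show (Crest.Agent.R320.Two_621.act (Crest.Agent.R320.Two_621.act v _ + _) _ + _) -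
      (Crest.Agent.R320.Two_621.act (Crest.Agent.R320.Two_621.act v' _ + _) _ + _) =
      Crest.Agent.R320.Two_621.act (v - v') (u.map f).prod
    rw [h1, ← Crest.Agent.R320.Two_621.act_mul, Crest.Agent.R320.Two_621.act_add,
      Crest.Agent.R320.Two_621.act_add]
    have h2 : ∀ (a b : Crest.Agent.R320.Two_621.Tok S) (t : S),
        Crest.Agent.R320.Two_621.act (a - b) t = Crest.Agent.R320.Two_621.act a t -
          Crest.Agent.R320.Two_621.act b t := fun a b t => rfl
    rw [h2, h2]
    abel
  · refine hl_free wl hfree (z := z) ?_ (fun w hw => hw.1.2.2)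
    exact (reg_XX wl).inf (reg_E (Wo := Wo) (z := z) (N := N) (p0 := D.p0) hM hper)
  · intro x y
    refine hl_free wl hfree (z := z) ?_ (fun w hw => hw.1.2.2)
    exact (reg_XX wl).inf (reg_T f D rfl hM g4 x y)
  · intro s
    have h1 : HL 0 ({w | ∀ u ∈ XX Wo z, ¬ u <+: w} : Language α) := by
      refine ((hl_XX (k := 0) (z := z) wl).prefix.compl).congr fun w => ?_
      constructor
      · rintro hw ⟨v, hv, hvw⟩
        exact hw v hv hvw
      · intro hw X hX hp
        exact hw ⟨X, hX, hp⟩
    have h2 := (Crest.Agent.R320.Reg_852.HL.isRegular h1).inf (hfib s)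
    refine (hl_free wl hfree (z := z) h2 ?_).mono (by norm_num)
    intro w hw t ht ht' hWt
    obtain ⟨X, hX, hXp⟩ := exists_block (Wo := Wo) (z := z) (w := w.take t) hWt
      (by rw [List.length_take]; omega)
    exact hw.1 X hX (hXp.trans (List.take_prefix _ _))
  · intro v
    refine (List.finite_length_le α (D.p0 + N)).subset ?_
    intro p hp
    exact mem_L1 ok hp
  · intro v
    refine (List.finite_length_le α D.p0).subset ?_
    rintro p ⟨k, hk, hp, -⟩
    show p.length ≤ D.p0
    rw [hp]
    exact hxp k hk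

/-- the row from the gadget -/
theorem row (hG : ∀ (S : Type) [Monoid S] [Finite S],
    Gad S (Crest.Agent.R320.Two_621.Tok S) Crest.Agent.R320.Two_621.act)
    {α : Type*} [Finite α] (L : Language α) (hL : L.IsRegular) :
    ∃ e : GRegExp α, e.height ≤ 3 ∧ e.lang = L :=
  Crest.Agent.R320.Uni_366.final1 (fun α _ S _ _ φ s => main S (hG S) α φ s) α L hL

end Crest.Agent.R320.Fin_427
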