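import Crest.Agent.R320.Top5_110
import Crest.Agent.R320.P4_440
import Crest.Agent.R320.Joint_47
import Crest.Agent.R320.Grid_390
import Crest.Agent.R320.ExactR_237
import Crest.Agent.R320.GridRuler_692
import Crest.Agent.R320.Univ_294

/-!
# Row 320, final assembly (helper428)

`Top5_110.top_sem` + `Joint_47.complete1 / complete2` + `Grid_390.grid_gadget` (scheme 1 on all words) +
`GridRuler_692.grid_ruler` + `ExactR_237.exact_gadget` (scheme 2) + `WallU_228.walls_full` + `P4_440` (HL 1).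
-/

set_option autoImplicit false

namespace Crest.Agent.R320.Fin_428

open Crest.Agent.R320 Crest.Agent.R320.Hk_851
open Finset

section tok

variable {S : Type} [Monoid S]

/-- right translation of token functions -/
def ac (v : S → ZMod 2) (s : S) : S → ZMod 2 := fun x => v (s * x)

theorem ac_one (v : S → ZMod 2) : ac v 1 = v := by funext x; simp [ac]

theorem ac_mul (v : S → ZMod 2) (s t : S) : ac v (s * t) = ac (ac v s) t := by
  funext x; simp [ac, mul_assoc]

theorem ac_add (v w : S → ZMod 2) (s : S) : ac (v + w) s = ac v s + ac w s := rfl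

theorem ac_sub (v w : S → ZMod 2) (s : S) : ac (v - w) s = ac v s - ac w s := rfl

theorem ac_faith {s t : S} (h : ∀ v, ac v s = ac v t) : s = t := by
  classical
  by_contra hne
  have h1 := congrFun (h (fun x => if x = s then 1 else 0)) 1
  simp only [ac, mul_one, if_true] at h1
  rw [if_neg (Ne.symm hne)] at h1
  exact one_ne_zero h1

end tok

/-- distinct odd primes above a bound -/
theorem exists_primes (k B : ℕ) : ∃ q : Fin k → ℕ, (∀ j, Odd (q j)) ∧
    Pairwise (fun i j => Nat.Coprime (q i) (q j)) ∧ ∀ j, B < q j := by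
  have hmono : StrictMono (Nat.nth Nat.Prime) := Nat.nth_strictMono Nat.infinite_setOfPred_prime
  have hge : ∀ n, n ≤ Nat.nth Nat.Prime n := fun n => hmono.le_apply
  have hp : ∀ n, (Nat.nth Nat.Prime n).Prime := fun n => Nat.prime_nth_prime n
  refine ⟨fun j => Nat.nth Nat.Prime (B + 3 + j), fun j => ?_, fun i j hij => ?_, fun j => ?_⟩
  · apply (hp _).odd_of_ne_two
    have := hge (B + 3 + j)
    omega
  · refine (Nat.coprime_primes (hp _) (hp _)).2 fun h => ?_
    have := hmono.injective h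
    exact hij (Fin.ext (by omega))
  · have := hge (B + 3 + j)
    show B < Nat.nth Nat.Prime (B + 3 + j)
    omega

theorem sum_G (κ : ℕ) (hκ : 1 ≤ κ) (j : ℕ) :
    ∑ i ∈ range (j + 1), Grid_390.G κ i ≤ 2 * Grid_390.G κ j := by
  induction j with
  | zero => simp [Grid_390.G]
  | succ j ih =>
    rw [Finset.sum_range_succ]
    have h1 : 2 * Grid_390.G κ j ≤ Grid_390.G κ (j + 1) := by
      unfold Grid_390.G
      have : κ * (j + 1) = κ * j + κ := by ring
      rw [this, pow_add, mul_comm]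
      exact Nat.mul_le_mul_left _ (by
        calc 2 = 2 ^ 1 := rfl
          _ ≤ 2 ^ κ := Nat.pow_le_pow_right (by norm_num) hκ)
    omega

/-- everything, `Type 0` -/
theorem value (α : Type) [Finite α] (S : Type) [Monoid S] [Finite S] (f : α → S) (s : S) :
    HL 3 ({w | (w.map f).prod = s} : Language α) := by
  classical
  haveI : Fintype S := Fintype.ofFinite S
  let V := S → ZMod 2
  haveI : Fintype V := Pi.instFintype
  let φ : List α → S := ExactR_237.pr f
  have hφ : ∀ u v, φ (u ++ v) = φ u * φ v := fun u v => ExactR_237.pr_append f u v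
  obtain ⟨k, m, hgrid⟩ := Grid_390.grid_gadget S V (ac (S := S))
  obtain ⟨K, hex⟩ := ExactR_237.exact_gadget α S V f (ac (S := S)) (2 * (k + m) + 2)
  obtain ⟨q, hodd, hcop, hbig⟩ := exists_primes k (4 * 2 ^ K)
  set M := ∏ j, q j with hM
  have hMpos : 0 < M := Finset.prod_pos fun j _ => (hodd j).pos
  set κ := 32 * 2 ^ K * M with hκ
  have hκ1 : 1 ≤ κ := by
    have : 0 < 32 * 2 ^ K * M := by positivity
    omega
  have hModd : Odd M := by
    rw [hM]
    exact Finset.prod_induction _ Odd (fun a b => Odd.mul) odd_one fun j _ => hodd j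
  have hcopG : Nat.Coprime M (Grid_390.G κ m) := by
    unfold Grid_390.G
    exact (Nat.Coprime.pow_right _ (Nat.coprime_two_right.2 hModd))
  obtain ⟨lam, rho, nu1, hlamlen, hrho, hS, hC, hloc⟩ := hgrid q hodd hcop κ α φ hφ
  let Ms : Finset ℕ := Finset.univ.image q
  have hMscard : Ms.card ≤ k := by
    have := Finset.card_image_le (s := (Finset.univ : Finset (Fin k))) (f := q)
    simpa using this
  have hMs : ∀ a ∈ Ms, a ∣ M ∧ 4 * 2 ^ K < a := by
    intro a ha
    obtain ⟨j, -, rfl⟩ := Finset.mem_image.1 ha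
    exact ⟨Finset.dvd_prod_of_mem _ (Finset.mem_univ j), hbig j⟩
  let G := Grid_390.G κ
  let Am := Grid_390.Am M κ
  let cc : ℕ → ℕ := fun i => M * G i
  have hGpos : ∀ i, 0 < G i := fun i => Grid_390.G_pos i
  have hgrow : ∀ j < m, 16 * 2 ^ K * (∑ i ∈ range (j + 1), cc i) < G (j + 1) := by
    intro j _
    have h1 : ∑ i ∈ range (j + 1), cc i = M * ∑ i ∈ range (j + 1), G i := by
      rw [Finset.mul_sum]
    have h2 := sum_G κ hκ1 j
    have h3 : G (j + 1) = 2 ^ κ * G j := by
      show Grid_390.G κ (j + 1) = 2 ^ κ * Grid_390.G κ j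
      unfold Grid_390.G
      rw [show κ * (j + 1) = κ + κ * j by ring, pow_add]
    have h4 : κ < 2 ^ κ := Nat.lt_two_pow_self
    rw [h1, h3]
    calc 16 * 2 ^ K * (M * ∑ i ∈ range (j + 1), G i)
        ≤ 16 * 2 ^ K * (M * (2 * G j)) := by
          exact Nat.mul_le_mul_left _ (Nat.mul_le_mul_left _ h2)
      _ = κ * G j := by rw [hκ]; ring
      _ < 2 ^ κ * G j := Nat.mul_lt_mul_of_pos_right h4 (hGpos j)
  set N1 := Am m with hN1
  set N0 := 2 * Am (m + 1) with hN0
  obtain ⟨x, hxinc, hxres, hxcount⟩ := GridRuler_692.grid_ruler K M m G cc Am Ms hMs hcopG hMpos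
    (hGpos m) (fun i j hij _ => Grid_390.G_dvd hij) (fun i => Dvd.intro_left _ rfl)
    (fun i => Nat.mul_pos hMpos (hGpos i)) hgrow N1
  let BadT : ℕ → Prop := fun n => GridRuler_692.BadZ Ms m G cc Am (n : ℤ)
  set p0 := x K with hp0
  have hxle : ∀ j, j < K → x j ≤ p0 := fun j hj => (hxinc j K hj).le
  obtain ⟨lam2, rho2, nu2', hS2, hC2⟩ := hex x (fun i j h _ => hxinc i j h)
  obtain ⟨n, c, P, Sw, hn, hPpos, happ, hsep, -, -, hfew⟩ :=
    WallU_228.walls_full (α := α) (2 * (N1 + p0) + 1)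
  set Wo : List α → Prop := WallU_228.Wo n Sw with hWo
  have hLW : Joint_47.LW n (2 * (N1 + p0) + 1) Wo := by
    refine ⟨fun X h => h.1, happ, ?_⟩
    intro X s t hst ht hs1 ht1
    by_contra hcon
    have hl : (X.take t).length = t := by rw [List.length_take]; omega
    refine hsep (X.take t) (t - s) ht1 (by omega) (by omega) ?_
    rw [hl, List.take_take, show min (t - (t - s)) t = s by omega]
    exact hs1
  set z := 3 * p0 + n + N1 + N0 + 1 with hz
  let XX : Language α := P4_440.XX n Sw z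
  have hXZ : ∀ X, X ∈ XX ↔ X ∈ Joint_47.Zn Wo z := fun X => Iff.rfl
  let Bad : Language α := {X | X ∈ XX ∧ Joint_47.Bad Wo z N1 p0 BadT X}
  let nu2 : List α → V := fun X => nu2' X 1
  let T : List α → V → V := fun u v => Joint_47.T f (ac (S := S)) p0 nu2 nu1 v u
  let L1 : V → Language α := fun v => {P | Joint_47.L1 f (ac (S := S)) p0 nu2 lam v P}
  let L2 : V → Language α := fun v => {P | Joint_47.L2 K x lam2 v P}
  -- hypotheses of 47
  have hSj : ∀ (P Q : List α) (v r : V), lam P = some v → rho Q = some r →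
      r = ac v (ExactR_237.pr f (P ++ Q)) + nu1 (P ++ Q) := fun P Q v r h1 h2 => hS P Q v r h1 h2
  have hLj : ∀ (P : List α) (v : V), lam P = some v → P.length ≤ N1 :=
    fun P v h => (hlamlen P v h).1.le
  have hAmono : ∀ {i j : ℕ}, i ≤ j → Am i ≤ Am j := fun h => Grid_390.Am_mono h
  have hCj : ∀ Y : List α, N0 ≤ Y.length → ¬ BadT Y.length →
      ∀ v : V, ∃ P Q, Y = P ++ Q ∧ lam P = some v ∧ (rho Q).isSome := by
    intro Y hY hb v
    have hb1 : ∀ a ∈ Ms, ¬ ((a : ℤ) ∣ (Y.length : ℤ)) := fun a ha h => hb (Or.inl ⟨a, ha, h⟩)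
    have hb2 : ∀ j < m, ((cc j : ℤ) ≤ ((Y.length : ℤ) - Am (j + 1)) % (G (j + 1) : ℤ) ∧
        ((Y.length : ℤ) - Am (j + 1)) % (G (j + 1) : ℤ) < (G (j + 1) : ℤ) - cc j) := by
      intro j hj
      by_contra h
      exact hb (Or.inr ⟨j, hj, h⟩)
    refine hC Y hY ?_ ?_ v
    · intro j hj
      refine hb1 (q j) (Finset.mem_image_of_mem _ (Finset.mem_univ j)) ?_
      exact_mod_cast hj
    · intro j hj1 hj2
      obtain ⟨i, rfl⟩ : ∃ i, j = i + 1 := ⟨j - 1, by omega⟩
      obtain ⟨h1, h2⟩ := hb2 i (by omega)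
      have hle : Am (i + 1) ≤ Y.length := by
        have := hAmono (show i + 1 ≤ m + 1 by omega)
        omega
      have e : ((Y.length : ℤ) - Am (i + 1)) % (G (i + 1) : ℤ)
          = (((Y.length - Am (i + 1)) % G (i + 1) : ℕ) : ℤ) := by
        rw [Int.natCast_mod, Nat.cast_sub hle]
      rw [e] at h1 h2
      have h1' : cc i ≤ (Y.length - Am (i + 1)) % G (i + 1) := by exact_mod_cast h1
      have h2' : (Y.length - Am (i + 1)) % G (i + 1) + cc i < G (i + 1) := by
        have : (((Y.length - Am (i + 1)) % G (i + 1) : ℕ) : ℤ) + cc i < G (i + 1) := by linarith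
        exact_mod_cast this
      rw [Nat.add_sub_cancel]
      exact ⟨h1', h2'.le⟩
  have hres : ∀ i i' j j', i < K → i' < K → j < K → j' < K → i' ≠ i → j' ≠ j →
      x i + x j' < x j + x i' + 2 * N1 → x j + x i' < x i + x j' + 2 * N1 → i = j := by
    intro i i' j j' hi hi' hj hj' h1 _ h3 h4
    refine (hxres i i' j j' hi hi' hj hj' (Ne.symm h1) ?_).1
    rw [abs_le]
    constructor
    · have : ((x j : ℤ)) + x i' < x i + x j' + 2 * N1 := by exact_mod_cast h4
      linarith
    · have : ((x i : ℤ)) + x j' < x j + x i' + 2 * N1 := by exact_mod_cast h3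
      linarith
  have hT47 : ∀ T : ℕ, (∀ k, k < K → x k ≤ T) → ∀ I : Finset ℕ,
      (∀ k ∈ I, k < K ∧ ∃ k', k' < K ∧ k' ≠ k ∧ BadT (T + x k' - x k)) → I.card ≤ k + m := by
    intro T hTx I hI
    choose! g hg using fun a (ha : a ∈ I) => (hI a ha).2
    have h1 := hxcount (T : ℤ) (I.image fun a => (a, g a)) (by
      intro p hp
      obtain ⟨a, ha, rfl⟩ := Finset.mem_image.1 hp
      obtain ⟨h2, h3, h4⟩ := hg a ha
      refine ⟨(hI a ha).1, h2, Ne.symm h3, ?_⟩
      have e : ((T : ℤ) - ((x a : ℤ) - x (g a))) = ((T + x (g a) - x a : ℕ) : ℤ) := by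
        rw [Nat.cast_sub (by have := hTx a (hI a ha).1; omega)]
        push_cast; ring
      show GridRuler_692.BadZ Ms m G cc Am ((T : ℤ) - ((x a : ℤ) - x (g a)))
      rw [e]; exact h4)
    rw [Finset.card_image_of_injective _ (fun a b h => congrArg Prod.fst h)] at h1
    omega
  -- the languages
  set B := z + N1 + Am (m + 1) + p0 with hB
  have hMG : 0 < M * G m := Nat.mul_pos hMpos (hGpos m)
  have takeB : ∀ {w w' : List α} {j : ℕ}, w.take B = w'.take B → j ≤ B → w.take j = w'.take j := by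
    intro w w' j h hj
    have := congrArg (List.take j) h
    rwa [List.take_take, List.take_take, min_eq_left hj] at this
  have dropB : ∀ {w w' : List α} {j : ℕ}, w.take B = w'.take B → B ≤ w.length → B ≤ w'.length →
      φ (w.drop B) = φ (w'.drop B) → j ≤ B → φ (w.drop j) = φ (w'.drop j) := by
    intro w w' j h hw hw' hd hj
    have key : ∀ u : List α, B ≤ u.length → φ (u.drop j) = φ ((u.take B).drop j) * φ (u.drop B) := by
      intro u hu
      rw [← hφ]
      congr 1
      conv_lhs => rw [← List.take_append_drop B u]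
      rw [List.drop_append_of_le_length (by rw [List.length_take]; omega)]
    rw [key w hw, key w' hw', h, hd]
  have hBadT : ∀ a b : ℕ, a ≡ b [MOD (M * G m)] → (BadT a ↔ BadT b) := by
    intro a b hab
    have hd : ((M * G m : ℕ) : ℤ) ∣ (a : ℤ) - b := by
      have := (Nat.modEq_iff_dvd.1 hab)
      rw [← neg_sub]; exact (dvd_neg).2 this
    have hk : ∀ {g : ℕ}, g ∣ M * G m → ((g : ℤ)) ∣ (a : ℤ) - b :=
      fun hg => dvd_trans (by exact_mod_cast hg) hd
    show GridRuler_692.BadZ Ms m G cc Am (a : ℤ) ↔ GridRuler_692.BadZ Ms m G cc Am (b : ℤ)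
    unfold GridRuler_692.BadZ
    have e1 : ∀ g ∈ Ms, ((g : ℤ) ∣ (a : ℤ) ↔ (g : ℤ) ∣ (b : ℤ)) := by
      intro g hg
      have := hk (dvd_trans (hMs g hg).1 (Dvd.intro _ rfl))
      exact dvd_iff_dvd_of_dvd_sub this
    have e2 : ∀ j < m, ((a : ℤ) - Am (j + 1)) % (G (j + 1) : ℤ) =
        ((b : ℤ) - Am (j + 1)) % (G (j + 1) : ℤ) := by
      intro j hj
      have hg : G (j + 1) ∣ M * G m :=
        dvd_trans (Grid_390.G_dvd (κ := κ) (show j + 1 ≤ m by omega)) (Dvd.intro_left _ rfl)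
      have := hk hg
      apply Int.ModEq.eq
      apply (Int.modEq_iff_dvd).2
      rw [show ((b : ℤ) - Am (j + 1) - ((a : ℤ) - Am (j + 1))) = -((a : ℤ) - b) by ring]
      exact (dvd_neg).2 this
    constructor
    · rintro (⟨g, hg, h⟩ | ⟨j, hj, h⟩)
      · exact Or.inl ⟨g, hg, (e1 g hg).1 h⟩
      · exact Or.inr ⟨j, hj, by rw [← e2 j hj]; exact h⟩
    · rintro (⟨g, hg, h⟩ | ⟨j, hj, h⟩)
      · exact Or.inl ⟨g, hg, (e1 g hg).2 h⟩
      · exact Or.inr ⟨j, hj, by rw [e2 j hj]; exact h⟩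
  have hnB : n ≤ B := by omega
  have hzB : z ≤ B := by omega
  have H1 : HL 1 XX := by
    have h := P4_440.HL_block (z := z) (n := n) (S := Sw) (φ := φ) (B := B) (P := M * G m) hφ hnB hzB
      hMG hfew (R := fun _ => True) (fun _ _ _ _ _ _ _ => Iff.rfl)
    exact h.congr fun w => ⟨fun h => ⟨h, trivial⟩, fun h => h.1⟩
  have H2 : HL 1 Bad := by
    refine P4_440.HL_block (z := z) (n := n) (S := Sw) (φ := φ) (B := B) (P := M * G m) hφ hnB hzB
      hMG hfew (R := fun X => Joint_47.Bad Wo z N1 p0 BadT X) ?_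
    intro w w' hw hw' ht hd hl
    have e1 : BadT (w.length - p0) ↔ BadT (w'.length - p0) := by
      apply hBadT
      exact Nat.ModEq.add_right_cancel' p0 (by
        rw [Nat.sub_add_cancel (by omega), Nat.sub_add_cancel (by omega)]; exact hl)
    have e2 : ∀ t, t < z + N1 → w.take t = w'.take t := fun t h => takeB ht (by omega)
    show ((∃ t, z - N1 ≤ t ∧ t < z + N1 ∧ t ≤ w.length ∧ Wo (w.take t)) ∨ BadT (w.length - p0)) ↔
      ((∃ t, z - N1 ≤ t ∧ t < z + N1 ∧ t ≤ w'.length ∧ Wo (w'.take t)) ∨ BadT (w'.length - p0))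
    rw [e1]
    refine or_congr ⟨?_, ?_⟩ Iff.rfl
    · rintro ⟨t, h1, h2, h3, h4⟩
      exact ⟨t, h1, h2, by omega, by rw [← e2 t h2]; exact h4⟩
    · rintro ⟨t, h1, h2, h3, h4⟩
      exact ⟨t, h1, h2, by omega, by rw [e2 t h2]; exact h4⟩
  have H3 : ∀ a b : V, HL 1 (Code110.ZT XX T a b) := by
    intro a b
    refine P4_440.HL_block (z := z) (n := n) (S := Sw) (φ := φ) (B := B) (P := M * G m) hφ hnB hzB
      hMG hfew (R := fun X => T X a = b) ?_
    intro w w' hw hw' ht hd hl
    have e1 : w.take p0 = w'.take p0 := takeB ht (by omega)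
    have e2 : φ (w.drop p0) = φ (w'.drop p0) := dropB ht hw hw' hd (by omega)
    have e3 : nu1 (w.drop p0) = nu1 (w'.drop p0) := by
      refine (hloc (w.drop p0) (w'.drop p0) ?_ ?_ ?_ ?_ ?_).2
      · rw [List.length_drop]; show Am (m + 1) ≤ _; omega
      · rw [List.length_drop]; show Am (m + 1) ≤ _; omega
      · show (w.drop p0).take (Am (m + 1)) = (w'.drop p0).take (Am (m + 1))
        have h5 : w.take (p0 + Am (m + 1)) = w'.take (p0 + Am (m + 1)) := takeB ht (by omega)
        have h6 := congrArg (List.drop p0) h5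
        rw [List.drop_take, List.drop_take] at h6
        rwa [Nat.add_sub_cancel_left] at h6
      · rw [List.length_drop, List.length_drop]
        show (w.length - p0) ≡ (w'.length - p0) [MOD (M * G m)]
        exact Nat.ModEq.add_right_cancel' p0 (by
          rw [Nat.sub_add_cancel (by omega), Nat.sub_add_cancel (by omega)]; exact hl)
      · show φ ((w.drop p0).drop (Am (m + 1))) = φ ((w'.drop p0).drop (Am (m + 1)))
        rw [List.drop_drop, List.drop_drop]
        exact dropB ht hw hw' hd (by omega)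
    have e4 : T w a = T w' a := by
      show Joint_47.T f (ac (S := S)) p0 nu2 nu1 a w = Joint_47.T f (ac (S := S)) p0 nu2 nu1 a w'
      unfold Joint_47.T
      have e2' : ExactR_237.pr f (w.drop p0) = ExactR_237.pr f (w'.drop p0) := e2
      rw [e1, e2', e3]
    show T w a = b ↔ T w' a = b
    rw [e4]
  have H4 : ∀ s, HL 3 ({w | (∀ u ∈ XX, ¬ u <+: w) ∧ φ w = s} : Language α) := by
    intro s
    refine (P4_440.HL_rest (z := z) (n := n) (S := Sw) (φ := φ) (B := B) (P := M * G m) hφ hnB hzB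
      hMG hfew (R := fun X => φ X = s) ?_).mono (by norm_num)
    intro w w' hw hw' ht hd hl
    have e : φ w = φ w' := by
      have := dropB (j := 0) ht hw hw' hd (Nat.zero_le _)
      simpa using this
    show φ w = s ↔ φ w' = s
    rw [e]
  have hPC : Code110.PC XX := P4_440.pc_XX (by omega)
  have hTd : ∀ u ∈ XX, ∀ v v' : V, T u v - T u v' = ac (v - v') (φ u) := by
    intro u _ v v'
    show (ac (ac v (ExactR_237.pr f (u.take p0)) + nu2 (u.take p0)) (ExactR_237.pr f (u.drop p0))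
        + nu1 (u.drop p0)) -
      (ac (ac v' (ExactR_237.pr f (u.take p0)) + nu2 (u.take p0)) (ExactR_237.pr f (u.drop p0))
        + nu1 (u.drop p0)) = ac (v - v') (φ u)
    have e : φ u = ExactR_237.pr f (u.take p0) * ExactR_237.pr f (u.drop p0) := by
      rw [← ExactR_237.pr_append, List.take_append_drop]
    rw [e, ac_mul, ac_sub, ac_add, ac_add, ac_sub]
    abel
  have F1 : ∀ v, {p | p ∈ L1 v}.Finite := by
    intro v
    refine (List.finite_length_le α (p0 + N1)).subset ?_
    rintro p ⟨h1, h2⟩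
    have := hLj _ _ h2
    rw [List.length_drop] at this
    show p.length ≤ p0 + N1
    omega
  have F2 : ∀ v, {p | p ∈ L2 v}.Finite := by
    intro v
    refine (List.finite_length_le α p0).subset ?_
    rintro p ⟨j, h1, h2, h3⟩
    have := hxle j h1
    show p.length ≤ p0
    omega
  have C1 : ∀ u ∈ XX, u ∉ Bad → ∀ a : V, ∀ t ∈ XX ^ 0, ∃ p r y, u ++ t = p ++ r ∧ p ∈ L1 a ∧
      r ∈ Code110.Rsem XX XX T 0 L1 y := by
    intro u hu hub a t ht
    have ht0 : t = [] := by rw [pow_zero] at ht; exact ht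
    subst ht0
    obtain ⟨p, r, e, hp, -, hr⟩ := Joint_47.complete1 (N0 := N0) f (ac (S := S)) p0 nu2 nu1 hLW hSj hLj
      hCj (by omega) (by omega) ((hXZ u).1 hu) (fun h => hub ⟨hu, h⟩) a
    refine ⟨p, r, T u a, by rw [List.append_nil, e], hp, ?_⟩
    intro a' p' hp'
    obtain ⟨h1, h2⟩ := hr a' p' hp'
    left
    refine ⟨T (p' ++ r) a', ?_⟩
    refine Language.mem_mul.2 ⟨p' ++ r, ⟨(hXZ _).2 h1, rfl⟩, [], ⟨rfl, h2⟩, by simp⟩
  have C2 : ∀ u ∈ Bad, ∀ a : V, ∀ t ∈ Bad ^ 1, ∃ p r y, u ++ t = p ++ r ∧ p ∈ L2 a ∧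
      r ∈ Code110.Rsem XX Bad T 1 L2 y := by
    intro u hu a t ht
    rw [pow_one] at ht
    obtain ⟨p, r, e, hp, -, hr⟩ := Joint_47.complete2 f (ac (S := S)) p0 nu1 hLW hS2 hC2
      (fun i j h _ => hxinc i j h) hxle hres hT47 (by omega) (by omega) ((hXZ u).1 hu.1)
      ((hXZ t).1 ht.1) hu.2 a
    refine ⟨p, r, T t (T u a), e, hp, ?_⟩
    intro a' p' hp'
    rcases hr a' p' hp' with ⟨b, hb1, hb2, hb3, hb4⟩ | ⟨b, hb1, hb2, hb3⟩
    · left
      refine ⟨T b a', Language.mem_mul.2 ⟨b, ⟨⟨(hXZ b).2 hb1, hb2⟩, rfl⟩, t, ?_, hb3.symm⟩⟩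
      refine ⟨T t (T b a'), Language.mem_mul.2 ⟨t, ⟨ht, rfl⟩, [], ⟨rfl, ?_⟩, by simp⟩⟩
      show T t (T b a') = T t (T u a)
      have : T b a' = T u a := hb4
      rw [this]
    · right
      left
      exact ⟨b, (hXZ b).2 hb1, fun h => hb2 h.2, hb3⟩
  exact Top5_110.top_sem (φ := φ) (act := ac (S := S)) (XX := XX) (Bad := Bad) (T := T) rfl hφ ac_one
    ac_mul (fun s t h => ac_faith h) hPC (fun u hu => hu.1) hTd H1 H2 H3 H4 F1 F2 C1 C2 s

/-- **the row** -/
theorem row (α : Type*) [Finite α] (L : Language α) (hL : L.IsRegular) :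
    ∃ e : Crest.RegLang.GRegExp α, e.height ≤ 3 ∧ e.lang = L :=
  Univ_294.s0495_of_type0 (fun n S _ _ f s => value (Fin n) S f s) α L hL

end Crest.Agent.R320.Fin_428
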