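import Crest.Agent.R320.JoinB_430
import Crest.Agent.R320.FinC_430
import Crest.Agent.R320.ExactR_237
import Crest.Agent.R320.LWallAll_922
import Crest.Agent.R320.Two_621

/-! # Row 320: every fibre of a morphism to a finite monoid has height at most 3 (helper430) -/

set_option autoImplicit false

namespace Crest.Agent.R320.Fin_430

open Crest.Agent.R320.Hk_851 Crest.Agent.R320.JoinA_430 Crest.Agent.R320.JoinB_430
  Crest.Agent.R320.FinC_430 Crest.Agent.R320.BddReg_746

theorem free_PN {α : Type} {B W : ℕ} {u : List α}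
    (h : ∃ (a x v : List α) (k : ℕ), a.length ≤ B ∧ x.length ≤ W ∧ v.length ≤ B ∧
      u = a ++ (List.replicate k x).flatten ++ v) : u ∈ (PN (max B W) 2 : Language α) := by
  obtain ⟨a, x, v, k, h1, h2, h3, rfl⟩ := h
  refine Language.mem_mul.2 ⟨a ++ pw x k, ⟨a, x, k, ?_, ?_, rfl⟩, v, ?_, rfl⟩
  · exact le_trans h1 (le_max_left _ _)
  · exact le_trans h2 (le_max_right _ _)
  · refine Language.mem_mul.2 ⟨v, ⟨v, [], 0, ?_, by simp, by simp⟩, [], rfl, by simp⟩
    exact le_trans h3 (le_max_left _ _)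

theorem fin (α : Type) [Finite α] (S : Type) [Monoid S] [Finite S] (φ : α → S) (s : S) :
    HL 3 ({w | (w.map φ).prod = s} : Language α) := by
  classical
  haveI : Fintype S := Fintype.ofFinite S
  let V : Type := Two_621.Tok S
  haveI : Fintype V := inferInstanceAs (Fintype (S → ZMod 2))
  haveI : Finite V := inferInstance
  let act : V → S → V := Two_621.act
  obtain ⟨k, m, H⟩ := Grid_899.grid_gadget_reg S V act
  obtain ⟨K, HK⟩ := ExactR_237.exact_gadget α S V φ act (2 * (k + m) + 2)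
  obtain ⟨q, hqinj, hq⟩ := exists_primes k (2 ^ (K + 1) + 1)
  have hqodd : ∀ j, Odd (q j) := by
    intro j
    refine (hq j).1.odd_of_ne_two ?_
    have h1 := (hq j).2
    have h2 : 2 ^ 1 ≤ 2 ^ (K + 1) := Nat.pow_le_pow_right (by norm_num) (by omega)
    omega
  have hqcop : Pairwise (fun i j => Nat.Coprime (q i) (q j)) := by
    intro i j hij
    exact (Nat.coprime_primes (hq i).1 (hq j).1).2 (fun h => hij (hqinj h))
  set M := ∏ j, q j with hM
  have hMpos : 0 < M := Finset.prod_pos fun j _ => (hq j).1.pos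
  set κ := K + 5 + M with hκ
  have hκ2 : 2 ^ (K + 5) * M ≤ 2 ^ κ := by
    have h1 : 2 ^ κ = 2 ^ (K + 5) * 2 ^ M := by rw [hκ, pow_add 2 (K + 5) M]
    rw [h1]
    exact Nat.mul_le_mul_left _ (Nat.lt_two_pow_self).le
  obtain ⟨lam, rho, nu, g1, g2, g3, g4, g5⟩ := H q hqodd hqcop κ α (fun w => (w.map φ).prod)
    (by intro u v; simp)
  set LA := Grid_899.Am M κ (m + 1) with hLA
  set N1 := Grid_899.Am M κ m + 1 with hN1
  obtain ⟨X, hX1, hX2, hX3⟩ := ruler K k m q hq κ hκ2 (by omega) (2 * N1 + 1)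
  set c : ℕ → ℕ := fun j => X * 2 ^ j with hc
  have hcmono : ∀ i j, i < j → j < K → c i < c j := by
    intro i j hij _
    exact Nat.mul_lt_mul_of_pos_left (Nat.pow_lt_pow_right (by norm_num) hij) hX2
  set p0 := X * 2 ^ K with hp0
  have hcle : ∀ i, i < K → c i ≤ p0 := by
    intro i hi
    exact Nat.mul_le_mul_left _ (Nat.pow_le_pow_right (by norm_num) hi.le)
  obtain ⟨lam2, rho2, nu2, e1, e2⟩ := HK c hcmono
  obtain ⟨n, G, B, Wo, hLW, hgap, -, -, hfree⟩ :=
    LWallAll_922.walls_all_left α (2 * p0 + 2 * N1 + 1) (by omega)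
  refine join φ act Two_621.act_add Two_621.act_one
    (fun v a b => (Two_621.act_mul v a b).symm) (fun a b h => Two_621.act_faithful h)
    Wo n hLW.1 hLW.2 (max B (2 * p0 + 2 * N1 + 1)) 2 (fun u hu => free_PN (hfree u hu)) p0 N1
    (by omega) ?_ LA (M * Grid_899.G κ m) (Nat.mul_pos hMpos (G_pos κ m)) lam rho nu
    (BadN k m κ q) ?_ g3 ?_ ?_ ?_ K (k + m) c hcle lam2 (fun i Q => rho2 i Q 1)
    (fun U => nu2 U 1) ?_ ?_ ?_ ?_ s
  · intro P Q h1 h2 h3
    have hl : 0 < Q.length := List.length_pos_of_ne_nil h3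
    have := hgap (P ++ Q) P.length (P ++ Q).length (by rw [List.length_append]; omega) le_rfl
      (by rw [List.take_left]; exact h1) (by rw [List.take_length]; exact h2)
    rw [List.length_append] at this
    omega
  · intro P v h
    have h1 := (g1 P v h).1
    rw [← hM] at h1
    omega
  · intro Y hY hb v
    refine g4 Y hY ?_ ?_ v
    · intro j hj
      exact hb (Or.inl ⟨j, hj⟩)
    · intro j h1 h2
      by_contra h3
      exact hb (Or.inr ⟨j, h1, h2, h3⟩)
  · intro Q Q' h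
    have h5 := g5 Q Q' h.1 h.2.1 h.2.2.1 h.2.2.2.1 h.2.2.2.2
    first
      | exact h5.1
      | exact h5
  · intro T T' h1 h2 h3 h4
    exact bad_per T T' h1 h2 h3 h4
  · intro i hi P Q v b hP h1 h2
    have := e1 i hi P Q 1 v b hP h1 h2
    rw [mul_one] at this
    exact this
  · intro u v hu
    obtain ⟨I, hI1, hI2⟩ := e2 u 1 v (fun i hi => le_trans (hcle i hi) hu)
    exact ⟨I, hI1, hI2⟩
  · intro a b a' b' ha hb ha' hb' hab hab' h1 h2
    refine pow_sidon (k := a) (k' := b) (l := a') (l' := b') ?_ hab hab'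
    simp only [hc] at h1 h2
    by_contra hne
    rcases Nat.lt_or_gt_of_ne hne with h3 | h3
    · have h4 : X * (2 ^ a + 2 ^ b' + 1) ≤ X * (2 ^ a' + 2 ^ b) := Nat.mul_le_mul_left _ h3
      have h5 : X * (2 ^ a + 2 ^ b' + 1) = X * 2 ^ a + X * 2 ^ b' + X := by ring
      have h6 : X * (2 ^ a' + 2 ^ b) = X * 2 ^ a' + X * 2 ^ b := by ring
      omega
    · have h4 : X * (2 ^ a' + 2 ^ b + 1) ≤ X * (2 ^ a + 2 ^ b') := Nat.mul_le_mul_left _ h3
      have h5 : X * (2 ^ a' + 2 ^ b + 1) = X * 2 ^ a' + X * 2 ^ b + X := by ring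
      have h6 : X * (2 ^ a + 2 ^ b') = X * 2 ^ a + X * 2 ^ b' := by ring
      omega
  · intro T hT J hJ
    refine hX3 T (by rw [← hM]; omega) J hJ

end Crest.Agent.R320.Fin_430
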