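import Crest.Agent.R320.SemTop_727
import Crest.Agent.R320.SemJ_832
import Crest.Agent.R320.Fib_854
import Crest.Agent.R320.GridG_19
import Crest.Agent.R320.GridRuler_257
import Crest.Agent.R320.ExactR_237
import Crest.Agent.R320.LWallAll_922
import Crest.Agent.R320.Univ_294

/-!
Row 320 (S0495), the whole composition (helper433):
727's semantic top + 832's schemes + 854's fibres + 19's grid gadget + 257's ruler
+ 237's exact gadget + 922's walls + 294's universe adaptor.
-/

set_option autoImplicit false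

namespace Crest.Agent.R320.Fin_433

open Finset Crest.RegLang Crest.Agent.R320.Hk_851 Crest.Agent.R320.Blk467

/-- walls on all words, positive window -/
theorem walls (A : Type) [Finite A] (W : ℕ) (hW : 0 < W) :
    ∃ (n B : ℕ) (Wo : List A → Prop), 0 < n ∧
      (∀ P Q : List A, n ≤ Q.length → (Wo (P ++ Q) ↔ Wo Q)) ∧ (∀ Q, Wo Q → n ≤ Q.length) ∧
      (∀ (X : List A) (s t : ℕ), s < t → t ≤ X.length → Wo (X.take s) → Wo (X.take t) →
        s + W < t) ∧
      (∀ X : List A, (∀ t, t < X.length → ¬ Wo (X.take t)) → ∃ (u x : List A) (k : ℕ)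
        (v : List A), u.length ≤ B ∧ x.length ≤ B ∧ v.length ≤ B ∧
        X = u ++ (List.replicate k x).flatten ++ v) := by
  obtain ⟨n, G, B, Wo, hLW, hgap, _, _, hfew⟩ := LWallAll_922.walls_all_left A W hW
  refine ⟨n + 1, B + 1 + W, fun Q => Wo Q ∧ n + 1 ≤ Q.length, by omega, ?_, ?_, ?_, ?_⟩
  · intro P Q hQ
    constructor
    · rintro ⟨h, _⟩
      exact ⟨(hLW.app P Q (by omega)).1 h, hQ⟩
    · rintro ⟨h, _⟩
      exact ⟨(hLW.app P Q (by omega)).2 h, by rw [List.length_append]; omega⟩
  · rintro Q ⟨_, h⟩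
    exact h
  · intro X s t hst ht h1 h2
    have := hgap X s t hst ht h1.1 h2.1
    omega
  · intro X hX
    cases X with
    | nil => exact ⟨[], [], 0, [], by simp, by simp, by simp, by simp⟩
    | cons a Y =>
      obtain ⟨u, x, v, k, hu, hx, hv, e⟩ := hfew Y (fun t ht hw => by
        have hn := hLW.len _ hw
        rw [List.length_take] at hn
        refine hX (t + 1) (by simpa using ht) ⟨?_, ?_⟩
        · rw [List.take_succ_cons]
          exact (hLW.app [a] (Y.take t) (by rw [List.length_take]; exact hn)).2 hw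
        · rw [List.length_take, List.length_cons]
          omega)
      refine ⟨a :: u, x, k, v, ?_, ?_, ?_, ?_⟩
      · rw [List.length_cons]; omega
      · omega
      · omega
      · rw [e]; simp

open Classical in
/-- gadget 1 with ruler -/
theorem gadget (S V : Type) [Monoid S] [Finite S] [AddCommGroup V] [Finite V] (act : V → S → V) :
    ∃ C0 : ℕ, ∀ K : ℕ, ∃ (N Lam M0 La : ℕ) (BadT : ℕ → Prop) (c : ℕ → ℕ), 0 < M0 ∧
    (∀ i j, i < j → c i < c j) ∧ (∀ k < K, c k ≤ Lam) ∧
    (∀ i < K, ∀ j < K, ∀ i' < K, ∀ j' < K, i ≠ j → i' ≠ j' →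
      c i + c j' ≤ c i' + c j + 2 * N → c i' + c j ≤ c i + c j' + 2 * N → i = i' ∧ j = j') ∧
    (∀ T, N ≤ T → Lam ≤ T → (((range K) ×ˢ (range K)).filter
      (fun ab : ℕ × ℕ => ab.1 ≠ ab.2 ∧ BadT (T + c ab.1 - c ab.2))).card ≤ C0) ∧
    ∀ (A : Type) (φ : List A → S), (∀ u v, φ (u ++ v) = φ u * φ v) →
      ∃ (lam rho : List A → Option V) (nu : List A → V),
        (∀ p v, lam p = some v → p.length ≤ N) ∧
        (∀ p q v r, lam p = some v → rho q = some r → r = act v (φ (p ++ q)) + nu (p ++ q)) ∧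
        (∀ u : List A, 2 * N ≤ u.length → ¬ BadT u.length → ∀ v, ∃ p q, p ++ q = u ∧
          lam p = some v ∧ (rho q).isSome = true) ∧
        (∀ Y Y' : List A, La ≤ Y.length → La ≤ Y'.length → Y.take La = Y'.take La →
          Y.length ≡ Y'.length [MOD M0] → φ Y = φ Y' → nu Y = nu Y') := by
  obtain ⟨m, r, hg⟩ := GridG_19.grid.{0} S V act
  refine ⟨r + m, fun K => ?_⟩
  obtain ⟨Ms, hcard, hpr, hgr⟩ := hg (4 ^ K)
  set M := ∏ q ∈ Ms, q with hMdef
  have hM : 0 < M := Finset.prod_pos fun q hq => (hpr q hq).1.pos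
  obtain ⟨g, hgdef⟩ : ∃ g, g = 16 * 4 ^ K * M + 1 := ⟨_, rfl⟩
  have hg0 : 0 < g := by omega
  let G : ℕ → ℕ := fun k => g ^ k
  have hGp : ∀ k, 0 < G k := fun k => pow_pos hg0 k
  have hGd : ∀ a b, a ≤ b → G a ∣ G b := fun a b h => pow_dvd_pow g h
  have hcop : ∀ k, Nat.Coprime M (G k) := fun k => Nat.Coprime.pow_right k (by
    rw [hgdef]
    simp)
  have hGb : ∀ j, 16 * 4 ^ K * (M * G j) ≤ G (j + 1) := by
    intro j
    show 16 * 4 ^ K * (M * g ^ j) ≤ g ^ (j + 1)
    rw [pow_succ]
    calc 16 * 4 ^ K * (M * g ^ j) = g ^ j * (16 * 4 ^ K * M) := by ring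
      _ ≤ g ^ j * g := Nat.mul_le_mul_left _ (by omega)
  obtain ⟨N, hN⟩ : ∃ N, N = GridG_19.Am G M 0 m + M := ⟨_, rfl⟩
  obtain ⟨U, hU1, hU2, hU3, hU4⟩ := GridRuler_257.ruler K m Ms M G (GridG_19.Am G M 0) N hM
    (fun k hk => ⟨Finset.dvd_prod_of_mem _ hk, (hpr k hk).2.le⟩) (hGp 0)
    (fun j => hGd j (j + 1) (by omega)) hGb (hcop m)
  refine ⟨N, U * 4 ^ K, M * G m, GridG_19.Ac G M 0 m,
    fun T => GridRuler_257.BadZ Ms m M G (GridG_19.Am G M 0) (T : ℤ),
    fun k => U * 4 ^ k, Nat.mul_pos hM (hGp m), fun i j h => by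
      have := hU2 i j h
      show U * 4 ^ i < U * 4 ^ j
      omega,
    fun k hk => Nat.mul_le_mul_left _ (Nat.pow_le_pow_right (by norm_num) hk.le), ?_, ?_, ?_⟩
  · intro i _ j _ i' _ j' _ hij hij' h1 h2
    rcases hU3 i j i' j' hij with h | h
    · exact ⟨h.1, h.2⟩
    · exfalso
      have h3 : |(((U * 4 ^ i : ℕ) : ℤ) - (U * 4 ^ j : ℕ)) -
          (((U * 4 ^ i' : ℕ) : ℤ) - (U * 4 ^ j' : ℕ))| ≤ 2 * N := by
        rw [abs_le]
        have h1' : ((U * 4 ^ i : ℕ) : ℤ) + (U * 4 ^ j' : ℕ) ≤
          (U * 4 ^ i' : ℕ) + (U * 4 ^ j : ℕ) + 2 * N := by exact_mod_cast h1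
        have h2' : ((U * 4 ^ i' : ℕ) : ℤ) + (U * 4 ^ j : ℕ) ≤
          (U * 4 ^ i : ℕ) + (U * 4 ^ j' : ℕ) + 2 * N := by exact_mod_cast h2
        constructor <;> linarith
      have h4 : (0 : ℤ) ≤ N := Int.natCast_nonneg N
      linarith
  · intro T _ hT
    refine (hU4 (T : ℤ) _ ?_).trans (Nat.add_le_add_right hcard _)
    intro ab hab
    simp only [Finset.mem_filter, Finset.mem_product, Finset.mem_range] at hab
    obtain ⟨⟨h1, h2⟩, h3, h4⟩ := hab
    refine ⟨h1, h2, h3, ?_⟩
    have h5 : U * 4 ^ ab.2 ≤ U * 4 ^ K :=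
      Nat.mul_le_mul_left _ (Nat.pow_le_pow_right (by norm_num) h2.le)
    have hle : U * 4 ^ ab.2 ≤ T + U * 4 ^ ab.1 := by omega
    have h6 : ((T + U * 4 ^ ab.1 - U * 4 ^ ab.2 : ℕ) : ℤ) =
        (T : ℤ) + (U * 4 ^ ab.1 : ℕ) - (U * 4 ^ ab.2 : ℕ) := by
      rw [Nat.cast_sub hle, Nat.cast_add]
    rw [h6] at h4
    exact h4
  · intro A φ hφ
    obtain ⟨lam, rho, nu, s1, s2, s3, s4, s5⟩ := hgr G 0 hGp hGd hcop A φ hφ
    refine ⟨lam, rho, nu, fun p v h => ?_, fun p q v b h1 h2 => s1 p q v b h1 h2, ?_, s5⟩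
    · have := (s2 p v h).2
      omega
    · intro u hu hb v
      have hA : ∀ j, 1 ≤ j → j ≤ m → GridG_19.Am G M 0 j ≤ u.length := fun j _ hj => by
        have := GridG_19.Am_mono G M 0 hj
        omega
      obtain ⟨h1, h2⟩ := GridRuler_257.clear_of_not_bad hGp hA hb
      refine s4 u (by omega) (by omega) h1 ?_ v
      rintro ⟨k, hk, h3⟩
      have h4 := h2 (k + 1) (by omega) (by omega)
      rw [Nat.add_sub_cancel] at h4
      omega

open Classical in
theorem main (A : Type) [Finite A] (S : Type) [Monoid S] [Finite S] (φ : A → S) (s : S) :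
    HL 3 ({w | (w.map φ).prod = s} : Language A) := by
  let V : Type := S → ZMod 2
  let act : V → S → V := fun v s t => v (s * t)
  haveI : Fintype S := Fintype.ofFinite S
  haveI : Finite V := inferInstanceAs (Finite (S → ZMod 2))
  haveI : Fintype V := Fintype.ofFinite V
  have hadd : ∀ a b s, act (a + b) s = act a s + act b s := fun a b s => rfl
  have hone : ∀ v, act v 1 = v := fun v => funext fun t => by
    show v (1 * t) = v t
    rw [one_mul]
  have hmul : ∀ v s t, act v (s * t) = act (act v s) t := fun v s t => funext fun u => by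
    show v (s * t * u) = v (s * (t * u))
    rw [mul_assoc]
  have hfaith : ∀ s t, (∀ v, act v s = act v t) → s = t := by
    intro s t h
    by_contra hne
    have h1 := congrFun (h (fun x => if x = s then 1 else 0)) 1
    have h2 : (if s * 1 = s then (1 : ZMod 2) else 0) = if t * 1 = s then 1 else 0 := h1
    rw [mul_one, mul_one, if_pos rfl, if_neg (fun e => hne e.symm)] at h2
    exact absurd h2 (by decide)
  obtain ⟨C0, hC0⟩ := gadget S V act
  obtain ⟨K, hK⟩ := ExactR_237.exact_gadget A S V φ act (2 * C0 + 2)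
  obtain ⟨N, Lam, M0, La, BadT, c, hM0, hc, hcL, hrE, hrB, hgad⟩ := hC0 K
  obtain ⟨lam2, rho2, nu2, he1, he2⟩ := hK c (fun i j h _ => hc i j h)
  obtain ⟨lam, rho, nu1, g1, g2, g3, g4⟩ := hgad A (fun w => (w.map φ).prod) (fun u v => by simp)
  obtain ⟨n, B, Wo, hn, hloc, hlen, hgap, hfew⟩ := walls A (2 * Lam + 2 * N + 1) (by omega)
  let D : SemJ_832.Dat A S V :=
    { phi := fun w => (w.map φ).prod
      act := act
      Wo := Wo
      n := n
      W := 2 * Lam + 2 * N + 1
      z := Lam + n + 2 * N + 2 * Lam + 1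
      p0 := Lam
      N := N
      K := K
      C0 := C0
      Lam := Lam
      BadT := BadT
      lam := lam
      rho := rho
      nu1 := nu1
      c := c
      lam2 := lam2
      rho2 := fun k q => rho2 k q 1
      nu2 := fun u => nu2 u 1
      hloc := hloc
      hgap := fun X t t' h1 h2 h3 h4 => hgap X t t' h1 h2 h3 h4
      g_len := g1
      g_sound := g2
      g_comp := g3
      e_sound := fun k hk P Q v b h1 h2 h3 => by
        have := he1 k hk P Q 1 v b h1 h2 h3
        rw [mul_one] at this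
        exact this
      e_comp := fun u v h => he2 u 1 v h
      c_le := hcL
      rulerE := hrE
      rulerB := hrB
      h_p0 := le_rfl
      z_pos := by omega
      h_z := by omega
      h_W := by omega }
  have hfin : ∀ b : ℕ, {P : List A | P.length ≤ b}.Finite := fun b => List.finite_length_le A b
  refine SemTop_727.top (k := 1) act hadd hone hmul hfaith φ
    (fun X => act (nu2 (X.take Lam) 1) ((X.drop Lam).map φ).prod + nu1 (X.drop Lam))
    ⟨D.Z, D.T, D.L1, D.L2⟩ ?_ ?_ ?_ ?_ ?_ ?_ ?_ s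
  · intro v X
    show act (act v ((X.take Lam).map φ).prod + nu2 (X.take Lam) 1) ((X.drop Lam).map φ).prod
      + nu1 (X.drop Lam) = act v (X.map φ).prod +
      (act (nu2 (X.take Lam) 1) ((X.drop Lam).map φ).prod + nu1 (X.drop Lam))
    rw [hadd, ← hmul, ← List.prod_append, ← List.map_append, List.take_append_drop, add_assoc]
  · refine ⟨fun h => ?_, fun X hX Y hY h => ?_⟩
    · have h1 : Lam + n + 2 * N + 2 * Lam + 1 ≤ ([] : List A).length := h.1
      rw [List.length_nil] at h1
      omega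
    · by_contra hne
      have hlt : X.length < Y.length := by
        rcases Nat.lt_or_ge X.length Y.length with h1 | h1
        · exact h1
        · exact absurd (h.eq_of_length_le h1) hne
      refine hY.2.2 X.length hX.1 hlt ?_
      rw [← List.prefix_iff_eq_take.1 h]
      exact hX.2.1
  · intro x y
    have hkey : Fib_854.Key (fun X : List A => D.T x X) := by
      refine ⟨Lam + La, M0, S, inferInstance, inferInstance, φ, hM0, ?_⟩
      intro X Y h1 h2 h3 h4 h5
      have e1 : X.take Lam = Y.take Lam := by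
        have := congrArg (List.take Lam) h3
        rwa [List.take_take, List.take_take, min_eq_left (Nat.le_add_right _ _)] at this
      have e2 : (X.drop Lam).take La = (Y.drop Lam).take La := by
        have := congrArg (List.drop Lam) h3
        rwa [List.drop_take, List.drop_take, Nat.add_sub_cancel_left] at this
      have e3 : ((X.drop Lam).map φ).prod = ((Y.drop Lam).map φ).prod := by
        rw [← List.take_append_drop La (X.drop Lam), ← List.take_append_drop La (Y.drop Lam),
          List.map_append, List.map_append, List.prod_append, List.prod_append, e2,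
          List.drop_drop, List.drop_drop, h5]
      have e4 : nu1 (X.drop Lam) = nu1 (Y.drop Lam) := by
        refine g4 _ _ (by rw [List.length_drop]; omega) (by rw [List.length_drop]; omega) e2 ?_ e3
        rw [List.length_drop, List.length_drop]
        have h6 : X.length - Lam + Lam ≡ Y.length - Lam + Lam [MOD M0] := by
          rw [Nat.sub_add_cancel (by omega), Nat.sub_add_cancel (by omega)]
          exact h4
        exact Nat.ModEq.add_right_cancel' Lam h6
      show act (act x ((X.take Lam).map φ).prod + nu2 (X.take Lam) 1) ((X.drop Lam).map φ).prod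
        + nu1 (X.drop Lam) = act (act x ((Y.take Lam).map φ).prod + nu2 (Y.take Lam) 1)
        ((Y.drop Lam).map φ).prod + nu1 (Y.drop Lam)
      rw [e1, e3, e4]
    exact Fib_854.fib (z := Lam + n + 2 * N + 2 * Lam + 1) hloc hlen hn (by omega) hfew _ hkey y
  · intro x
    refine (hfin (Lam + N)).subset ?_
    rintro P ⟨h1, h2⟩
    have h3 := g1 _ _ h2
    rw [List.length_drop] at h3
    show P.length ≤ Lam + N
    have h4 : Lam ≤ P.length := h1
    have h5 : P.length - Lam ≤ N := h3
    omega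
  · intro x
    refine (hfin Lam).subset ?_
    rintro P ⟨k, hk, h1, h2⟩
    show P.length ≤ Lam
    have h3 : P.length = c k := h1
    have := hcL k hk
    omega
  · intro X1 h1 X2 h2 x
    exact D.hC2 h1 h2 x
  · intro s
    exact (Fib_854.tail (z := Lam + n + 2 * N + 2 * Lam + 1) φ hloc hlen hn (by omega) hfew
      s).mono (by omega)

/-- S0495 -/
theorem row (α : Type*) [Finite α] (L : Language α) (hL : L.IsRegular) :
    ∃ e : GRegExp α, e.height ≤ 3 ∧ e.lang = L :=
  Univ_294.s0495_of_type0 (fun n S _ _ φ s => main (Fin n) S φ s) α L hL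

end Crest.Agent.R320.Fin_433

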