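import Crest.Agent.R320.Ar_436
import Crest.Agent.R320.ExactR_237
import Crest.Agent.R320.SemJ_832
import Crest.Agent.R320.SemTop_727
import Crest.Agent.R320.Last_749
import Crest.Agent.R320.Loc_645
import Crest.Agent.R320.Univ_294

/-!
# Row 320: the join (helper436)

19's grid gadget, 963's ruler, 237's exact gadget, 228's walls, 832's concrete side, 727's semantic
top, 749's last step (fibres, rest).
-/

set_option autoImplicit false

namespace Crest.Agent.R320.Fin_436

open Crest.RegLang Crest.Agent.R320.Hk_851 Crest.Agent.R320.FewWalls_228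
  Crest.Agent.R320.WallU_228 Crest.Agent.R320.Blk467 Crest.Agent.R320.GridG_19

theorem main (α : Type) [Finite α] (S : Type) [Monoid S] [Finite S] (f : α → S) (s : S) :
    HL 3 ({w | (w.map f).prod = s} : Language α) := by
  classical
  have := Fintype.ofFinite S
  obtain ⟨act, hadd, hone, hmul, hfaith⟩ := Blk467.exists_module S
  let V := S → ZMod 2
  have : Fintype V := Fintype.ofFinite V
  obtain ⟨m, r, hgrid⟩ := GridG_19.grid S V act
  obtain ⟨K, hK⟩ := ExactR_237.exact_gadget α S V f act (2 * (r + m) + 2)
  obtain ⟨Ms, hcard, hMs, hg⟩ := hgrid (2 ^ (K + 1))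
  obtain ⟨G, N, Lam, c, hG, hdiv, hcop, hN, hcs, hcL, hrE, hrB⟩ := Ar_436.consts K m Ms hMs
  have hM0 : 0 < ∏ q ∈ Ms, q := Finset.prod_pos fun q hq => (hMs q hq).1.pos
  obtain ⟨lam, rho, nu1, g1, g2, g3, g4, g5⟩ := hg G 0 hG hdiv hcop α
    (fun w => (w.map f).prod) (fun u v => by simp)
  obtain ⟨lam2, rho2', nu2', e1, e2⟩ := hK c hcs
  obtain ⟨n, cc, P0, S', hn, hP, hloc, hsep, -, -, hfew⟩ :=
    WallU_228.walls_full (α := α) (2 * Lam + 2 * N)
  let D : SemJ_832.Dat α S V :=
    { phi := fun w => (w.map f).prod
      act := act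
      Wo := Wo n S'
      n := n
      W := 2 * Lam + 2 * N
      z := Lam + n + 2 * N + 2 * Lam + 1
      p0 := Lam
      N := N
      K := K
      C0 := r + m
      Lam := Lam
      BadT := Ar_436.BT Ms G m
      lam := lam
      rho := rho
      nu1 := nu1
      c := c
      lam2 := lam2
      rho2 := fun k Q => rho2' k Q 1
      nu2 := fun X => nu2' X 1
      hloc := hloc
      hgap := by
        intro X t t' h1 h2 h3 h4
        by_contra hlt
        have := hsep (X.take t') (t' - t) h4 (by omega) (by omega)
        apply this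
        have hl : (X.take t').length = t' := by rw [List.length_take]; omega
        rw [hl, List.take_take]
        have : min (t' - (t' - t)) t' = t := by omega
        rw [this]
        exact h3
      g_len := fun p v h => by
        have := (g2 p v h).2
        omega
      g_sound := fun p q v b h1 h2 => g1 p q v b h1 h2
      g_comp := fun u hu hB v => by
        obtain ⟨P, Q, h1, h2, h3⟩ := g4 u (by omega) (by omega)
          (fun q hq hd => hB (Or.inl ⟨q, hq, hd⟩)) (fun h => hB (Or.inr h)) v
        exact ⟨P, Q, h1, h2, h3⟩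
      e_sound := fun k hk P Q v b h1 h2 h3 => by
        have := e1 k hk P Q 1 v b h1 h2 h3
        rw [mul_one] at this
        exact this
      e_comp := fun u v hu => by
        obtain ⟨I, h1, h2⟩ := e2 u 1 v hu
        exact ⟨I, h1, fun k hk => ⟨(h2 k hk).1, (h2 k hk).2.1, (h2 k hk).2.2⟩⟩
      c_le := hcL
      rulerE := hrE
      rulerB := fun T h1 h2 => (hrB T h1 h2).trans (by omega)
      h_p0 := le_rfl
      z_pos := by omega
      h_z := by omega
      h_W := le_rfl }
  let D' : SemTop_727.Sch α V := { XX := D.Z, T := D.T, L1 := D.L1, L2 := D.L2 }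
  let nu : List α → V := fun X =>
    act (nu2' (X.take Lam) 1) ((X.drop Lam).map f).prod + nu1 (X.drop Lam)
  have hT : ∀ v X, D'.T v X = act v (X.map f).prod + nu X := by
    intro v X
    show act (act v ((X.take Lam).map f).prod + nu2' (X.take Lam) 1) ((X.drop Lam).map f).prod
      + nu1 (X.drop Lam) = act v (X.map f).prod +
        (act (nu2' (X.take Lam) 1) ((X.drop Lam).map f).prod + nu1 (X.drop Lam))
    have h : (X.map f).prod = ((X.take Lam).map f).prod * ((X.drop Lam).map f).prod := by
      rw [← List.prod_append, ← List.map_append, List.take_append_drop]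
    rw [hadd, h, hmul, add_assoc]
  have hreg1 : ∀ v, Language.IsRegular ({Y | nu1 Y = v} : Language α) := by
    intro v
    refine Loc_645.isRegular_of_read' f (Ac G (∏ q ∈ Ms, q) 0 m) ((∏ q ∈ Ms, q) * G m)
      (Nat.mul_pos hM0 (hG m)) (fun Y => nu1 Y = v) ?_
    intro q q' h1 h2 h3 h4 h5 h6
    rw [← h6]
    refine (g5 q q' h1 h2 h3 h5 ?_).symm
    show (q.map f).prod = (q'.map f).prod
    rw [← List.take_append_drop (Ac G (∏ q ∈ Ms, q) 0 m) q,
      ← List.take_append_drop (Ac G (∏ q ∈ Ms, q) 0 m) q', List.map_append, List.map_append,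
      List.prod_append, List.prod_append, h3, h4]
  have hreg : ∀ v, Language.IsRegular ({X | nu X = v} : Language α) := fun v =>
    Last_749.reg_nu act f Lam (fun X => nu2' X 1) nu1 hreg1 v
  have hfib : ∀ x y, HL 1 (D'.fib x y) := by
    intro x y
    refine (Last_749.hfib (n := n) (S := S') hfew D.z act f nu hreg x y).congr fun w => ?_
    have e := hT x w
    constructor
    · rintro ⟨h1, h2⟩
      exact ⟨h1, e.symm.trans h2⟩
    · rintro ⟨h1, h2⟩
      exact ⟨h1, e.trans h2⟩
  have hL1 : ∀ x, (D'.L1 x).Finite := by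
    intro x
    refine (List.finite_length_le α (Lam + N)).subset ?_
    rintro P ⟨h1, h2⟩
    have h3 := D.g_len _ _ h2
    have h4 : (P.drop Lam).length ≤ N := h3
    rw [List.length_drop] at h4
    show P.length ≤ Lam + N
    omega
  have hL2 : ∀ x, (D'.L2 x).Finite := by
    intro x
    refine (List.finite_length_le α Lam).subset ?_
    rintro P ⟨k, hk, h1, -⟩
    show P.length ≤ Lam
    rw [h1]
    exact hcL k hk
  refine SemTop_727.top (k := 1) act hadd hone hmul hfaith f nu D' hT
    (Last_749.pcode (n := n) (S := S') D.z_pos) hfib hL1 hL2 ?_ ?_ s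
  · intro X1 h1 X2 h2 x
    exact D.hC2 h1 h2 x
  · intro t
    exact (Last_749.HL_rest (n := n) (S := S') hfew D.z f t).mono (by omega)

end Crest.Agent.R320.Fin_436
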