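import Crest.Agent.R320.SemTop_727
import Crest.Agent.R320.JointSem_814
import Crest.Agent.R320.Fib_298
import Crest.Agent.R320.LWallAll_922
import Crest.Agent.R320.Two_621
import Crest.Agent.R320.Uni_366

/-!
# Row 320: the whole assembly from ONE gadget hypothesis (helper438)

`Gad` = gadget on all words + ruler + spoil count.  `main : (∀ S V act, Gad S V act) → row`.
-/

set_option autoImplicit false

namespace Crest.Agent.R320.Fin_438

open Finset Crest.RegLang Crest.Agent.R320.Hk_851 Crest.Agent.R320.Blk467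

/-- the gadget black box -/
def Gad (S V : Type) [Monoid S] [AddCommGroup V] (act : V → S → V) : Prop :=
  ∃ C0 : ℕ, ∀ K : ℕ, ∃ (N N0 : ℕ) (c : ℕ → ℕ) (BadT : ℕ → Prop),
    (∀ i j, i < j → j < K → c i < c j) ∧
    (∀ i j k l, i < K → j < K → k < K → l < K → i ≠ j → k ≠ l → (i, j) ≠ (k, l) →
       c i + c l + 4 * N < c k + c j ∨ c k + c j + 4 * N < c i + c l) ∧
    (∀ T, N0 ≤ T → (∀ k < K, c k ≤ T) → ∀ I : Finset (ℕ × ℕ),
      (∀ ab ∈ I, ab.1 < K ∧ ab.2 < K ∧ ab.1 ≠ ab.2 ∧ BadT (T + c ab.2 - c ab.1)) →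
      I.card ≤ C0) ∧
    ∀ (A : Type) [Finite A] (f : A → S), ∃ (lam rho : List A → Option V) (nu : List A → V),
      (∀ p v, lam p = some v → p.length ≤ N) ∧
      (∀ p q v r, lam p = some v → rho q = some r →
        r = act v (((p ++ q).map f).prod) + nu (p ++ q)) ∧
      (∀ u, N0 ≤ u.length → ¬ BadT u.length → ∀ v, ∃ p q, p ++ q = u ∧ lam p = some v ∧
        (rho q).isSome) ∧
      (∀ y, Language.IsRegular ({u | nu u = y} : Language A))

/-- the spoil count of the two kinds of spoiled places -/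
theorem spoil (w : ℕ → Prop) (W z p0 N N0 K C0 cm : ℕ) (c : ℕ → ℕ) (BadT : ℕ → Prop)
    (hgap : ∀ s t, w s → w t → s < t → s + W < t) (hcm : ∀ k < K, c k ≤ cm)
    (hW : 2 * cm + 2 * N ≤ W) (hz : p0 + N0 + 2 * cm ≤ z)
    (hgol : ∀ i j k l, i < K → j < K → k < K → l < K → i ≠ j → k ≠ l → (i, j) ≠ (k, l) →
       c i + c l + 4 * N < c k + c j ∨ c k + c j + 4 * N < c i + c l)
    (hthin : ∀ T, N0 ≤ T → (∀ k < K, c k ≤ T) → ∀ I : Finset (ℕ × ℕ),
      (∀ ab ∈ I, ab.1 < K ∧ ab.2 < K ∧ ab.1 ≠ ab.2 ∧ BadT (T + c ab.2 - c ab.1)) →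
      I.card ≤ C0) :
    ∃ J : Finset ℕ, J.card < 2 * C0 + 2 ∧ ∀ k < K, (∃ k' < K, k' ≠ k ∧
      ((∃ s, w s ∧ z + c k ≤ s + c k' + N ∧ s + c k' < z + N + c k) ∨
       (∃ s, w s ∧ z + c k ≤ s + c k' ∧ (∀ t, t < s → w t → t + c k' < z + c k) ∧
          BadT (s + c k' - c k - p0)))) → k ∈ J := by
  classical
  let JE : Finset ℕ := (range K).filter fun k => ∃ k' < K, k' ≠ k ∧
    ∃ s, w s ∧ z + c k ≤ s + c k' + N ∧ s + c k' < z + N + c k
  let PB : ℕ → Finset (ℕ × ℕ) := fun s => (range K ×ˢ range K).filter fun ab =>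
    ab.1 ≠ ab.2 ∧ BadT ((s - p0) + c ab.2 - c ab.1)
  let JB : ℕ → Finset ℕ := fun s => (PB s).image Prod.fst
  have hJE : JE.card ≤ 1 := by
    refine Finset.card_le_one.2 ?_
    intro a ha b hb
    obtain ⟨haK, a', ha'K, haa, s, hs, hs1, hs2⟩ := Finset.mem_filter.1 ha
    obtain ⟨hbK, b', hb'K, hbb, t, ht, ht1, ht2⟩ := Finset.mem_filter.1 hb
    rw [Finset.mem_range] at haK hbK
    have c1 := hcm a haK
    have c2 := hcm a' ha'K
    have c3 := hcm b hbK
    have c4 := hcm b' hb'K
    have hst : s = t := by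
      rcases lt_trichotomy s t with h | h | h
      · have := hgap s t hs ht h
        omega
      · exact h
      · have := hgap t s ht hs h
        omega
    subst hst
    by_contra hne
    have h := hgol a a' b b' haK ha'K hbK hb'K (Ne.symm haa) (Ne.symm hbb)
      (fun h => hne (congrArg Prod.fst h))
    omega
  have hJB : ∀ s, w s → z ≤ s + cm → (JB s).card ≤ C0 := by
    intro s _ hs
    refine le_trans Finset.card_image_le ?_
    refine hthin (s - p0) (by omega) (fun k hk => by have := hcm k hk; omega) _ ?_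
    intro ab hab
    obtain ⟨h1, h2, h3⟩ := Finset.mem_filter.1 hab
    rw [Finset.mem_product, Finset.mem_range, Finset.mem_range] at h1
    exact ⟨h1.1, h1.2, h2, h3⟩
  have mem_JB : ∀ s k k', w s → z ≤ s + cm → k < K → k' < K → k' ≠ k → z + c k ≤ s + c k' →
      BadT (s + c k' - c k - p0) → k ∈ JB s := by
    intro s k k' _ hs hk hk' hne h1 h2
    have e : s + c k' - c k - p0 = (s - p0) + c k' - c k := by omega
    rw [e] at h2
    refine Finset.mem_image.2 ⟨(k, k'), ?_, rfl⟩
    refine Finset.mem_filter.2 ⟨?_, Ne.symm hne, h2⟩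
    rw [Finset.mem_product, Finset.mem_range, Finset.mem_range]
    exact ⟨hk, hk'⟩
  by_cases h1 : ∃ s, w s ∧ z ≤ s + cm
  · have hs1 := Nat.find_spec h1
    have hm1 := fun t (ht : t < Nat.find h1) => Nat.find_min h1 ht
    set s1 := Nat.find h1 with hs1def
    by_cases h2 : ∃ s, w s ∧ s1 < s
    · have hs2 := Nat.find_spec h2
      have hm2 := fun t (ht : t < Nat.find h2) => Nat.find_min h2 ht
      set s2 := Nat.find h2 with hs2def
      refine ⟨JE ∪ (JB s1 ∪ JB s2), ?_, ?_⟩
      · have a1 := Finset.card_union_le JE (JB s1 ∪ JB s2)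
        have a2 := Finset.card_union_le (JB s1) (JB s2)
        have a3 := hJB s1 hs1.1 hs1.2
        have a4 := hJB s2 hs2.1 (by omega)
        omega
      · rintro k hk ⟨k', hk', hne, ⟨s, hs, hE⟩ | ⟨s, hs, hB1, hB2, hB3⟩⟩
        · refine Finset.mem_union_left _ ?_
          exact Finset.mem_filter.2 ⟨Finset.mem_range.2 hk, k', hk', hne, s, hs, hE⟩
        · refine Finset.mem_union_right _ ?_
          have c1 := hcm k hk
          have c2 := hcm k' hk'
          have hle : s1 ≤ s := by
            by_contra hlt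
            exact hm1 s (by omega) ⟨hs, by omega⟩
          by_cases h3 : z + c k ≤ s1 + c k'
          · have : s = s1 := by
              by_contra hne'
              have := hB2 s1 (by omega) hs1.1
              omega
            subst this
            exact Finset.mem_union_left _ (mem_JB _ k k' hs1.1 hs1.2 hk hk' hne hB1 hB3)
          · have hlt : s1 < s := by
              rcases Nat.lt_or_ge s1 s with h | h
              · exact h
              · exfalso
                have : s = s1 := by omega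
                subst this
                omega
            have hle2 : s2 ≤ s := by
              by_contra hlt'
              exact hm2 s (by omega) ⟨hs, hlt⟩
            have hg := hgap s1 s2 hs1.1 hs2.1 hs2.2
            have : s = s2 := by
              by_contra hne'
              have := hB2 s2 (by omega) hs2.1
              omega
            subst this
            exact Finset.mem_union_right _ (mem_JB _ k k' hs2.1 (by omega) hk hk' hne hB1 hB3)
    · refine ⟨JE ∪ JB s1, ?_, ?_⟩
      · have a1 := Finset.card_union_le JE (JB s1)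
        have a3 := hJB s1 hs1.1 hs1.2
        omega
      · rintro k hk ⟨k', hk', hne, ⟨s, hs, hE⟩ | ⟨s, hs, hB1, hB2, hB3⟩⟩
        · refine Finset.mem_union_left _ ?_
          exact Finset.mem_filter.2 ⟨Finset.mem_range.2 hk, k', hk', hne, s, hs, hE⟩
        · refine Finset.mem_union_right _ ?_
          have c1 := hcm k hk
          have c2 := hcm k' hk'
          have hle : s1 ≤ s := by
            by_contra hlt
            exact hm1 s (by omega) ⟨hs, by omega⟩
          have : s = s1 := by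
            by_contra hne'
            exact h2 ⟨s, hs, by omega⟩
          subst this
          exact mem_JB _ k k' hs1.1 hs1.2 hk hk' hne hB1 hB3
  · refine ⟨JE, by omega, ?_⟩
    rintro k hk ⟨k', hk', hne, ⟨s, hs, hE⟩ | ⟨s, hs, hB1, hB2, hB3⟩⟩
    · exact Finset.mem_filter.2 ⟨Finset.mem_range.2 hk, k', hk', hne, s, hs, hE⟩
    · exfalso
      have c1 := hcm k hk
      have c2 := hcm k' hk'
      exact h1 ⟨s, hs, by omega⟩

/-- **the row from the gadget**, fibres of a finite monoid -/
theorem main (hG : ∀ (S V : Type) [Monoid S] [Finite S] [AddCommGroup V] [Finite V]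
    (act : V → S → V), Gad S V act)
    (α : Type) [Finite α] (S : Type) [Monoid S] [Finite S] (f : α → S) (s : S) :
    HL 3 ({w | (w.map f).prod = s} : Language α) := by
  classical
  haveI : Fintype S := Fintype.ofFinite S
  let V : Type := Two_621.Tok S
  haveI : Finite V := inferInstanceAs (Finite (S → ZMod 2))
  haveI : Fintype V := Fintype.ofFinite V
  haveI : Nonempty V := ⟨0⟩
  let act : V → S → V := Two_621.act
  obtain ⟨C0, hC0⟩ := hG S V act
  obtain ⟨K, hK⟩ := ExactR_237.exact_gadget α S V f act (2 * C0 + 2)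
  obtain ⟨N, N0, c, BadT, hc, hgol, hthin, hA⟩ := hC0 K
  obtain ⟨lam, rho, nu1, hlam, hsound, hcompl, hreg⟩ := hA α f
  obtain ⟨lam2, rho2, nu2, hex, hco⟩ := hK c hc
  set cm : ℕ := ∑ k ∈ range K, c k with hcmdef
  have hcm : ∀ k < K, c k ≤ cm := fun k hk =>
    Finset.single_le_sum (f := c) (fun i _ => Nat.zero_le _) (Finset.mem_range.2 hk)
  obtain ⟨n, G, B, Wo, hLW, hgap, -, -, hfree⟩ :=
    LWallAll_922.walls_all_left α (2 * cm + 2 * N + 1) (by omega)
  set W : ℕ := 2 * cm + 2 * N + 1 with hWdef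
  set p0 : ℕ := cm with hp0
  set z : ℕ := p0 + N + n + N0 + 2 * cm + 1 with hzdef
  let phi : List α → S := fun w => (w.map f).prod
  let nu2' : List α → V := fun u => nu2 u 1
  have hW1 : JointSem_814.Walls n W Wo := by
    refine ⟨hLW.app, hLW.len, ?_⟩
    intro X s t h1 h2 h3 h4 h5
    have := hgap X s t h1 h3 h4 h5
    omega
  have hW2 : Fib_298.WallU Wo n (max B W) := by
    refine ⟨hLW.app, hLW.len, ?_⟩
    intro X hX
    obtain ⟨u, x, v, j, h1, h2, h3, h4⟩ := hfree X hX
    exact ⟨u, x, v, j, h4, le_trans h1 (le_max_left _ _), le_trans h2 (le_max_right _ _),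
      le_trans h3 (le_max_left _ _)⟩
  let D : SemTop_727.Sch α V :=
    { XX := JointSem_814.XX Wo z
      T := JointSem_814.T p0 phi act nu1 nu2'
      L1 := JointSem_814.L1 p0 phi act nu2' lam
      L2 := JointSem_814.L2 K c (fun k P => lam2 k P) }
  have hXX : JointSem_814.XX Wo z = Fib_298.XX Wo z := by
    ext X
    constructor
    · rintro ⟨h1, h2, h3⟩
      exact ⟨h2, h1, h3⟩
    · rintro ⟨h1, h2, h3⟩
      exact ⟨h2, h1, h3⟩
  have hz0 : 0 < z := by omega
  have hnz : n ≤ z := by omega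
  have hpz : p0 ≤ z := by omega
  have hC : PCode D.XX := by
    show PCode (JointSem_814.XX Wo z)
    rw [hXX]
    exact Fib_298.pcode_XX hz0
  have hfib : ∀ x y, HL 1 (D.fib x y) := by
    intro x y
    have h := Fib_298.hfib hW2 hnz act f p0 hpz
      (fun v X0 => act v (X0.map f).prod + nu2' X0) nu1 hreg x y
    rw [← hXX] at h
    exact h
  have hL1 : ∀ x, (D.L1 x).Finite := by
    intro x
    refine (List.finite_length_le α (p0 + N)).subset ?_
    rintro P ⟨h1, h2⟩
    have := hlam _ _ h2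
    rw [List.length_drop] at this
    show P.length ≤ p0 + N
    omega
  have hL2 : ∀ x, (D.L2 x).Finite := by
    intro x
    refine (List.finite_length_le α cm).subset ?_
    rintro P ⟨k, hk, h1, h2⟩
    show P.length ≤ cm
    rw [h1]
    exact hcm k hk
  have hspoil : ∀ U : List α, 2 * z ≤ U.length → ∃ J : Finset ℕ, J.card < 2 * C0 + 2 ∧
      ∀ k < K, JointSem_814.Spoiled Wo z p0 N K c BadT U k → k ∈ J := by
    intro U _
    obtain ⟨J, hJ, hJk⟩ := spoil (fun s => s ≤ U.length ∧ Wo (U.take s)) W z p0 N N0 K C0 cm c BadT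
      (fun s t hs ht hst => by
        have := hgap U s t hst ht.1 hs.2 ht.2
        omega) hcm (by omega) (by omega) hgol hthin
    refine ⟨J, hJ, fun k hk hS => hJk k hk ?_⟩
    obtain ⟨k', hk', hne, ⟨s, hs1, hs2, hs3, hs4⟩ | ⟨s, hs1, hs2, hs3, hs4, hs5⟩⟩ := hS
    · exact ⟨k', hk', hne, Or.inl ⟨s, ⟨hs1, hs2⟩, hs3, hs4⟩⟩
    · exact ⟨k', hk', hne, Or.inr ⟨s, ⟨hs1, hs2⟩, hs3, fun t ht hw => hs4 t ht hw.2, hs5⟩⟩
  have hC2 : ∀ X1 ∈ D.Bad, ∀ X2 ∈ D.Bad, ∀ x, ∃ P ∈ D.L2 x, ∃ Q ∈ D.R2 (D.T (D.T x X1) X2),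
      P ++ Q = X1 ++ X2 := by
    intro X1 hX1 X2 hX2 x
    exact JointSem_814.compl2 (Wo := Wo) (z := z) (p0 := p0) (φ := phi) (act := act) (nu1 := nu1)
      (nu2 := nu2') (lam := lam) (R := 2 * C0 + 2) (rho2 := fun k Q => rho2 k Q 1) hW1 (by omega)
      (show p0 + N0 ≤ z by omega) hlam hsound hcompl hcm
      (fun k hk P Q v b h1 h2 h3 => by
        have := hex k hk P Q 1 v b h1 h2 h3
        rw [mul_one] at this
        exact this)
      (fun u v hu => by
        obtain ⟨I, hI, hIk⟩ := hco u 1 v hu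
        exact ⟨I, hI, hIk⟩) hspoil hX1.1 hX2 x
  have hLg := D.lg_XX hC hfib hL1 hL2 hC2
  refine Fib_298.final (k := 3) hW2 hnz hz0 act Two_621.act_add Two_621.act_one
    (fun v s t => (Two_621.act_mul v s t).symm) (fun s t h => Two_621.act_faithful h) f p0
    nu2' nu1 (by norm_num) ?_ s
  intro v v'
  have h := hLg v v'
  have h2 : HL 3 (Lg (Fib_298.XX Wo z) (JointSem_814.T p0 phi act nu1 nu2') v v') := by
    rw [← hXX]
    exact h
  exact h2

/-- **S0495 from the gadget.** -/
theorem row (hG : ∀ (S V : Type) [Monoid S] [Finite S] [AddCommGroup V] [Finite V]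
    (act : V → S → V), Gad S V act)
    (α : Type*) [Finite α] (L : Language α) (hL : L.IsRegular) :
    ∃ e : GRegExp α, e.height ≤ 3 ∧ e.lang = L :=
  Uni_366.final1 (fun α _ S _ _ f s => main hG α S f s) α L hL

end Crest.Agent.R320.Fin_438
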