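import Crest.Agent.R320.P4_440
import Crest.Agent.R320.Top5_110
import Crest.Agent.R320.Joint_47
import Crest.Agent.R320.Block_467

/-!
# Row 320: the join (helper440)

Top5_110.top_sem + Joint_47 (both completeness statements) + P4_440 + WallU_228 + ExactR_237,
from ONE hypothesis `GU` (the U-gadget on all words with its ruler).
-/

set_option autoImplicit false

namespace Crest.Agent.R320.Fin_440

open Crest.RegLang Crest.Agent.R320.Hk_851 Crest.Agent.R320.WallU_228
  Crest.Agent.R320.Joint_47 Crest.Agent.R320.Code110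
open Crest.Agent.R320.ExactR_237 (pr pr_append)

/-- the U-gadget on all words, with ruler and finite-state clause for the noise -/
def GU (S V : Type) [Monoid S] [AddCommGroup V] (act : V → S → V) : Prop :=
  ∃ R1 : ℕ, ∀ K : ℕ, ∃ (N1 La Pm : ℕ) (BadT : ℕ → Prop) (c : ℕ → ℕ), 0 < Pm ∧
    (∀ T T', La ≤ T → La ≤ T' → T ≡ T' [MOD Pm] → (BadT T ↔ BadT T')) ∧
    (∀ i j, i < j → j < K → c i < c j) ∧
    (∀ i i' j j', i < K → i' < K → j < K → j' < K → i' ≠ i → j' ≠ j →
      c i + c j' < c j + c i' + 2 * N1 → c j + c i' < c i + c j' + 2 * N1 → i = j) ∧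
    (∀ T : ℕ, (∀ k, k < K → c k ≤ T) → ∀ I : Finset ℕ,
      (∀ k ∈ I, k < K ∧ ∃ k', k' < K ∧ k' ≠ k ∧ BadT (T + c k' - c k)) → I.card ≤ R1) ∧
    ∀ (A : Type) (f : A → S), ∃ (lam rho : List A → Option V) (nu : List A → V),
      (∀ P Q v r, lam P = some v → rho Q = some r → r = act v (pr f (P ++ Q)) + nu (P ++ Q)) ∧
      (∀ P v, lam P = some v → P.length ≤ N1) ∧
      (∀ Y : List A, La ≤ Y.length → ¬ BadT Y.length →
        ∀ v, ∃ P Q, Y = P ++ Q ∧ lam P = some v ∧ (rho Q).isSome) ∧
      (∀ u u' : List A, La ≤ u.length → La ≤ u'.length → u.take La = u'.take La →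
        u.length ≡ u'.length [MOD Pm] → pr f (u.drop La) = pr f (u'.drop La) → nu u = nu u')

theorem act_sub' {S V : Type} [Monoid S] [AddCommGroup V] {act : V → S → V}
    (hadd : ∀ a b s, act (a + b) s = act a s + act b s) (a b : V) (s : S) :
    act (a - b) s = act a s - act b s := by
  have h : act (a - b) s + act b s = act a s := by rw [← hadd, sub_add_cancel]
  exact eq_sub_of_add_eq h

theorem fin_of (hGU : ∀ (S V : Type) [Monoid S] [Finite S] [AddCommGroup V] [Finite V]
      (act : V → S → V), GU S V act)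
    (n : ℕ) (S : Type) [Monoid S] [Finite S] (f : Fin n → S) (s : S) :
    HL 3 ({w | (w.map f).prod = s} : Language (Fin n)) := by
  classical
  haveI := Fintype.ofFinite S
  obtain ⟨act, hadd, hone, hmul, hfaith⟩ := Crest.Agent.R320.Blk467.exists_module S
  obtain ⟨R1, hG⟩ := hGU S (S → ZMod 2) act
  obtain ⟨K, hK⟩ := Crest.Agent.R320.ExactR_237.exact_gadget (Fin n) S (S → ZMod 2) f act
    (2 * R1 + 2)
  obtain ⟨N1, La, Pm, BadT, c, hPm, hBadT, hinc, hres, hT, hgad⟩ := hG K
  obtain ⟨lam2, rho2, nu2', hS2, hC2⟩ := hK c hinc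
  obtain ⟨lam, rho, nu1, hS, hL, hC, hnu⟩ := hgad (Fin n) f
  set p0 : ℕ := ∑ k ∈ Finset.range K, c k with hp0
  have hcp : ∀ k, k < K → c k ≤ p0 := fun k hk =>
    Finset.single_le_sum (f := c) (fun _ _ => Nat.zero_le _) (Finset.mem_range.2 hk)
  set W : ℕ := 2 * (N1 + p0) + 1 with hWdef
  obtain ⟨nn, cc, PP, SS, hnn, hPP, happ, hgap, -, -, hfew⟩ := walls_full (α := Fin n) W
  set z : ℕ := 3 * p0 + nn + N1 + 1 + La with hz
  have hLW : LW nn W (Wo nn SS) := by
    refine ⟨fun X h => h.1, fun P Q h => happ P Q h, ?_⟩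
    intro X s' t hst ht h1 h2
    by_contra hc
    have hl : (X.take t).length = t := by rw [List.length_take]; omega
    apply hgap (X.take t) (t - s') h2 (by omega) (by omega)
    rw [hl, List.take_take, show min (t - (t - s')) t = s' by omega]
    exact h1
  let XX : Language (Fin n) := P4_440.XX nn SS z
  let BB : List (Fin n) → Prop := Bad (Wo nn SS) z N1 p0 BadT
  let BL : Language (Fin n) := {X | X ∈ XX ∧ BB X}
  let nu2 : List (Fin n) → (S → ZMod 2) := fun X => nu2' X 1
  let TT : List (Fin n) → (S → ZMod 2) → (S → ZMod 2) := fun u v => T f act p0 nu2 nu1 v u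
  let LL1 : (S → ZMod 2) → Language (Fin n) := fun v => {P | L1 f act p0 nu2 lam v P}
  let LL2 : (S → ZMod 2) → Language (Fin n) := fun v => {P | L2 K c lam2 v P}
  have hφ : ∀ u v : List (Fin n), pr f (u ++ v) = pr f u * pr f v := pr_append f
  -- key bounds
  set B : ℕ := z + N1 + p0 + La + nn with hB
  have hRT : ∀ x y, P4_440.Resp (pr f) B Pm (fun u => TT u x = y) := by
    intro x y w w' h1 h2 h3 h4 h5
    have e1 : w.take p0 = w'.take p0 := by
      have := congrArg (List.take p0) h3
      rwa [List.take_take, List.take_take, Nat.min_eq_left (by omega)] at this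
    have e2 : pr f (w.drop p0) = pr f (w'.drop p0) := by
      have a : ∀ w : List (Fin n), w.drop p0 = (w.take B).drop p0 ++ w.drop B := by
        intro w
        conv_lhs => rw [← List.take_append_drop B w]
        by_cases hw : B ≤ w.length
        · rw [List.drop_append_of_le_length (by rw [List.length_take]; omega)]
        · rw [List.drop_eq_nil_of_le (show w.length ≤ B by omega), List.append_nil,
            List.append_nil]
      rw [a w, a w', hφ, hφ, h3, h4]
    have e3 : nu1 (w.drop p0) = nu1 (w'.drop p0) := by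
      apply hnu
      · rw [List.length_drop]; omega
      · rw [List.length_drop]; omega
      · rw [List.take_drop, List.take_drop]
        have := congrArg (List.take (p0 + La)) h3
        rw [List.take_take, List.take_take, Nat.min_eq_left (by omega)] at this
        rw [this]
      · rw [List.length_drop, List.length_drop]
        have : w.length - p0 + p0 ≡ w'.length - p0 + p0 [MOD Pm] := by
          rw [Nat.sub_add_cancel (by omega), Nat.sub_add_cancel (by omega)]
          exact h5
        exact Nat.ModEq.add_right_cancel' p0 this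
      · rw [List.drop_drop, List.drop_drop]
        have a : ∀ w : List (Fin n), B ≤ w.length →
            w.drop (p0 + La) = (w.take B).drop (p0 + La) ++ w.drop B := by
          intro w hw
          conv_lhs => rw [← List.take_append_drop B w]
          rw [List.drop_append_of_le_length (by rw [List.length_take]; omega)]
        rw [a w h1, a w' h2, hφ, hφ, h3, h4]
    show T f act p0 nu2 nu1 x w = y ↔ T f act p0 nu2 nu1 x w' = y
    unfold T
    rw [e1, e2, e3]
  have hRB : P4_440.Resp (pr f) B Pm BB := by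
    intro w w' h1 h2 h3 h4 h5
    show Bad _ _ _ _ _ _ ↔ Bad _ _ _ _ _ _
    unfold Bad
    have a1 : BadT (w.length - p0) ↔ BadT (w'.length - p0) := by
      apply hBadT _ _ (by omega) (by omega)
      have : w.length - p0 + p0 ≡ w'.length - p0 + p0 [MOD Pm] := by
        rw [Nat.sub_add_cancel (by omega), Nat.sub_add_cancel (by omega)]
        exact h5
      exact Nat.ModEq.add_right_cancel' p0 this
    rw [a1]
    have a2 : ∀ t, t < z + N1 → w.take t = w'.take t := by
      intro t ht
      have := congrArg (List.take t) h3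
      rwa [List.take_take, List.take_take, Nat.min_eq_left (by omega)] at this
    constructor
    · rintro (⟨t, b1, b2, b3, b4⟩ | h)
      · exact Or.inl ⟨t, b1, b2, by omega, by rw [← a2 t b2]; exact b4⟩
      · exact Or.inr h
    · rintro (⟨t, b1, b2, b3, b4⟩ | h)
      · exact Or.inl ⟨t, b1, b2, by omega, by rw [a2 t b2]; exact b4⟩
      · exact Or.inr h
  have hRφ : ∀ s, P4_440.Resp (pr f) B Pm (fun w => pr f w = s) := by
    intro s w w' h1 h2 h3 h4 h5
    have : pr f w = pr f w' := by
      rw [← List.take_append_drop B w, ← List.take_append_drop B w', hφ, hφ, h3, h4]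
    show pr f w = s ↔ pr f w' = s
    rw [this]
  have hX : PC XX := P4_440.pc_XX (by omega)
  have hnB : nn ≤ B := by omega
  have hzB : z ≤ B := by omega
  have key := Crest.Agent.R320.Top5_110.top_sem (α := Fin n) (S := S) (V := S → ZMod 2)
    (φ := pr f) (act := act) (XX := XX) (Bad := BL) (T := TT) (N1 := 0) (N2 := 1)
    (L1 := LL1) (L2 := LL2) rfl hφ hone hmul hfaith hX (fun u hu => hu.1)
    (by
      intro u _ v v'
      show T f act p0 nu2 nu1 v u - T f act p0 nu2 nu1 v' u = _
      unfold T
      rw [add_sub_add_right_eq_sub, ← act_sub' hadd, add_sub_add_right_eq_sub,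
        ← act_sub' hadd, ← hmul, ← hφ, List.take_append_drop])
    (by
      refine (P4_440.HL_block (P := Pm) hφ hnB hzB hPm hfew (R := fun _ => True)
        (fun _ _ _ _ _ _ _ => Iff.rfl)).congr fun w => ?_
      exact ⟨fun h => ⟨h, trivial⟩, fun h => h.1⟩)
    (P4_440.HL_block hφ hnB hzB hPm hfew hRB)
    (fun x y => P4_440.HL_block hφ hnB hzB hPm hfew (hRT x y))
    (fun s => (P4_440.HL_rest hφ hnB hzB hPm hfew (hRφ s)).mono (by norm_num))
    (by
      intro v
      refine (List.finite_length_le (Fin n) (p0 + N1)).subset ?_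
      rintro P ⟨h1, h2⟩
      have := hL _ _ h2
      rw [List.length_drop] at this
      show P.length ≤ p0 + N1
      omega)
    (by
      intro v
      refine (List.finite_length_le (Fin n) p0).subset ?_
      rintro P ⟨k, h1, h2, h3⟩
      show P.length ≤ p0
      rw [h2]; exact hcp k h1)
    (by
      intro u hu hb x t ht
      have ht0 : t = [] := by simpa using ht
      subst ht0
      have hb' : ¬ Bad (Wo nn SS) z N1 p0 BadT u := fun h => hb ⟨hu, h⟩
      obtain ⟨p, q, e, hp, -, hall⟩ := complete1 (f := f) (act := act) (p0 := p0) (nu2 := nu2)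
        (nu1 := nu1) (N0 := La) hLW hS hL hC (by omega) (by omega) (show u ∈ Zn (Wo nn SS) z from hu)
        hb' x
      refine ⟨p, q, T f act p0 nu2 nu1 x u, by rw [List.append_nil]; exact e, hp, ?_⟩
      intro x' p' hp'
      left
      obtain ⟨h1, h2⟩ := hall x' p' hp'
      refine ⟨T f act p0 nu2 nu1 x' (p' ++ q), ?_⟩
      refine Language.mem_mul.2 ⟨p' ++ q, ⟨h1, rfl⟩, [], ⟨rfl, h2⟩, by simp⟩)
    (by
      intro u hu x t ht
      have ht1 : t ∈ BL := by simpa using ht
      obtain ⟨p, q, e, hp, -, hall⟩ := complete2 (f := f) (act := act) (p0 := p0) (nu1 := nu1)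
        (BadT := BadT) hLW hS2 hC2 hinc hcp hres hT (by omega) (by omega)
        (show u ∈ Zn (Wo nn SS) z from hu.1) (show t ∈ Zn (Wo nn SS) z from ht1.1) hu.2 x
      refine ⟨p, q, TT t (TT u x), e, hp, ?_⟩
      intro x' p' hp'
      rcases hall x' p' hp' with ⟨a, h1, h2, h3, h4⟩ | ⟨a, h1, h2, h3⟩
      · left
        refine ⟨TT u x, ?_⟩
        refine Language.mem_mul.2 ⟨a, ⟨⟨h1, h2⟩, h4⟩, t, ?_, h3.symm⟩
        refine ⟨TT t (TT u x), ?_⟩
        exact Language.mem_mul.2 ⟨t, ⟨ht1, rfl⟩, [], ⟨rfl, rfl⟩, by simp⟩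
      · right
        left
        exact ⟨a, h1, fun h => h2 h.2, h3⟩)
    s
  exact key

end Crest.Agent.R320.Fin_440
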