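import Crest.Agent.R320.C12_790
import Crest.Agent.R320.HZ_847
import Crest.Agent.R320.Sp_221
import Crest.Agent.R320.ExactR_237
import Crest.Agent.R320.Block_467
import Crest.Agent.R320.FS_601
import Crest.Agent.R320.G1_444
import Crest.Agent.R320.LetMap_922

/-!
# Row 320, final join (helper444)

Top5_110.top_sem + C12_790 (both schemes) + HZ_847 (heights) + Sp_221 (ruler) + ExactR_237 +
G1_444.g1 + WallU_228.walls_full.
-/

set_option autoImplicit false

namespace Crest.Agent.R320.Fin_444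

open Crest.Agent.R320.Hk_851 Crest.Agent.R320.Code110

/-- the bad set is periodic -/
theorem bad_per (Ms : Finset ℕ) (M m b : ℕ) (hb : 0 < b) (hMs : ∀ k ∈ Ms, k ∣ M) (t : ℕ) :
    Sp_221.Bad Ms M m b (t + M * b ^ m) ↔ Sp_221.Bad Ms M m b t := by
  unfold Sp_221.Bad
  have h1 : (∃ k ∈ Ms, k ∣ t + M * b ^ m) ↔ ∃ k ∈ Ms, k ∣ t := by
    constructor
    · rintro ⟨k, hk, h⟩
      exact ⟨k, hk, (Nat.dvd_add_left ((hMs k hk).mul_right _)).1 h⟩
    · rintro ⟨k, hk, h⟩
      exact ⟨k, hk, Nat.dvd_add h ((hMs k hk).mul_right _)⟩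
  have h2 : ∀ j < m, (t + M * b ^ m) / b ^ j % b = t / b ^ j % b := by
    intro j hj
    have e : M * b ^ m = b ^ j * (b * (M * b ^ (m - j - 1))) := by
      have : b ^ m = b ^ j * (b * b ^ (m - j - 1)) := by
        rw [← pow_succ', ← pow_add]; congr 1; omega
      rw [this]; ring
    rw [e, Nat.add_mul_div_left _ _ (pow_pos hb j), Nat.add_mul_mod_self_left]
  rw [h1]
  constructor
  · rintro (h | ⟨j, hj, h⟩)
    · exact Or.inl h
    · rw [h2 j hj] at h; exact Or.inr ⟨j, hj, h⟩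
  · rintro (h | ⟨j, hj, h⟩)
    · exact Or.inl h
    · rw [← h2 j hj] at h; exact Or.inr ⟨j, hj, h⟩

theorem fin (α : Type) [Finite α] (S : Type) [Monoid S] [Finite S] (f : α → S) (s : S) :
    HL 3 ({w | (w.map f).prod = s} : Language α) := by
  classical
  have := Fintype.ofFinite S
  obtain ⟨act, hadd, hact1, hactm, hfaith⟩ := Crest.Agent.R320.Blk467.exists_module S
  obtain ⟨m, r, hg⟩ := G1_444.g1 S (S → ZMod 2) act
  obtain ⟨K, hK⟩ := Crest.Agent.R320.ExactR_237.exact_gadget α S (S → ZMod 2) f act (2 + 2 * (r + m))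
  obtain ⟨Ms, M, hMs, hk, hM, hg⟩ := hg (4 ^ K)
  obtain ⟨b, hb1, hb2, hbc⟩ : ∃ b : ℕ, 4 * M + 4 < b ∧ M * (8 * 4 ^ K + 2) < b ∧
      Nat.Coprime b M := by
    refine ⟨M * (8 * 4 ^ K + 10) + 1, ?_, ?_, ?_⟩
    · have h1 : M * 18 ≤ M * (8 * 4 ^ K + 10) := Nat.mul_le_mul_left M (by
        have : 1 ≤ 4 ^ K := Nat.one_le_pow _ _ (by norm_num)
        omega)
      omega
    · have h1 : M * (8 * 4 ^ K + 10) = M * (8 * 4 ^ K + 2) + M * 8 := by ring
      omega
    · have : Nat.Coprime (1 + M * (8 * 4 ^ K + 10)) M := by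
        rw [Nat.coprime_add_mul_left_left]
        exact Nat.coprime_one_left M
      rwa [add_comm] at this
  have hb : 0 < b := by omega
  obtain ⟨c, hc1, hc2, hc3⟩ := Sp_221.spoil Ms M m K (b ^ m) b hM
    (fun k hkm => ⟨(hk k hkm).1.le, (hk k hkm).2.2⟩) hb2 hbc
  obtain ⟨lam, rho, nu1, g1, g2, g3, g4⟩ := hg b hb1 hbc α f
  have hcmono : ∀ i j, i < j → c i < c j := fun i j h => by
    have := hc1 i j h; omega
  obtain ⟨lam2, rho2, nu2, ex2, cp2⟩ := hK c (fun i j h _ => hcmono i j h)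
  obtain ⟨n, cc, P, Sw, hn, hP, hloc, hsep, -, -, hfew⟩ :=
    WallU_228.walls_full (α := α) (2 * c K + 2 * b ^ m)
  have hck : ∀ k < K, c k ≤ c K := fun k hk => (hcmono k K hk).le
  have hw : C12_790.Walls (WallU_228.Wo n Sw) n (2 * c K + 2 * b ^ m) := by
    refine ⟨hloc, ?_⟩
    intro w s t hst htw hs ht
    by_contra hcon
    have hl : (w.take t).length = t := by rw [List.length_take]; omega
    have := hsep (w.take t) (t - s) ht (by omega) (by omega)
    rw [hl, List.take_take] at this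
    apply this
    have e : min (t - (t - s)) t = s := by omega
    rw [e]; exact hs
  obtain ⟨z, hz⟩ : ∃ z, z = 2 * c K + 2 * b ^ m + n + c K + 1 := ⟨_, rfl⟩
  let φ : List α → S := fun w => (w.map f).prod
  have hφ0 : φ [] = 1 := rfl
  have hφ : ∀ u w, φ (u ++ w) = φ u * φ w := fun u w => by simp [φ]
  have hF : HZ847.Few n Sw := hfew
  have hnu : ∀ x, Language.IsRegular ({w | nu1 w = x} : Language α) := by
    intro x
    refine Crest.Agent.R320.FS_601.regular_of_class_drop f (b ^ m) (M * b ^ m)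
      (Nat.mul_pos hM (pow_pos hb m)) (fun w => nu1 w = x) ?_
    intro u u' h1 h2 h3 h4 h5
    rw [(g4 u u' h1 h2 h3 h4 h5).2]
  have hz1 : c K ≤ z := by omega
  have H1 : HL 1 (C12_790.XX (WallU_228.Wo n Sw) z) :=
    (HZ847.hl_XX (n := n) (S := Sw) z).mono (by norm_num)
  have H2 : HL 1 (C12_790.Bad (WallU_228.Wo n Sw) z (b ^ m) (c K) (Sp_221.Bad Ms M m b)) := by
    have h := HZ847.H2 hF (z := z) (p0 := c K) (N1 := b ^ m) (La := 0) (Pm := M * b ^ m)
      (Nat.mul_pos hM (pow_pos hb m)) (BadT := Sp_221.Bad Ms M m b)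
      (fun t _ => bad_per Ms M m b hb (fun k hkm => (hk k hkm).2.2) t)
    refine h.congr fun u => Iff.symm ?_
    constructor
    · rintro ⟨hu, h⟩
      refine ⟨hu, ?_⟩
      rcases h with ⟨t, h1, h2, h3, h4⟩ | h
      · left
        by_cases htz : t < z
        · exact Or.inr ⟨t, h1, htz, h4⟩
        · left
          rcases Nat.lt_or_ge t u.length with h5 | h5
          · exact absurd h4 (hu.2.2 t (by omega) h5)
          · omega
      · exact Or.inr h
    · rintro ⟨hu, h⟩
      refine ⟨hu, ?_⟩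
      rcases h with (h | ⟨t, h1, h2, h3⟩) | h
      · left
        refine ⟨u.length, ?_, h, le_rfl, ?_⟩
        · have := hu.1; omega
        · rw [List.take_length]; exact hu.2.1
      · left
        refine ⟨t, h1, by omega, ?_, h3⟩
        have := hu.1; omega
      · exact Or.inr h
  have H3 : ∀ x y, HL 1 (ZT (C12_790.XX (WallU_228.Wo n Sw) z)
      (C12_790.TM φ act (fun u => nu2 u 1) nu1 (c K)) x y) := fun x y =>
    HZ847.H3 hF (φ := φ) (act := act) (nu1 := nu1) (nu2 := fun u => nu2 u 1) (z := z) (p0 := c K)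
      hφ0 hφ hz1 hnu x y
  have H4 : ∀ s, HL 3 ({w | (∀ u ∈ C12_790.XX (WallU_228.Wo n Sw) z, ¬ u <+: w) ∧ φ w = s} :
      Language α) := fun s =>
    (HZ847.H4 hF (φ := φ) (z := z) hφ0 hφ s).mono (by norm_num)
  have C1 := C12_790.c1 (Wo := WallU_228.Wo n Sw) (n := n) (W := 2 * c K + 2 * b ^ m) (z := z)
    (N1 := b ^ m) (p0 := c K) (N0 := 0) (BadT := Sp_221.Bad Ms M m b) (φ := φ) (act := act)
    (nu1 := nu1) (nu2 := fun u => nu2 u 1) (lam := lam) (rho := rho) hw (by omega)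
    (fun P v h => (g1 P v h).le) (fun P Q v b h h' => g2 P Q v b h h')
    (fun u _ hu v => by
      obtain ⟨P, Q, h1, h2, h3⟩ := g3 u (fun k hkm hd => hu (Or.inl ⟨k, hkm, hd⟩))
        (fun j hj => by
          by_contra hcon
          exact hu (Or.inr ⟨j, hj, hcon⟩)) v
      exact ⟨P, Q, h1.symm, h2, h3⟩)
  have C2 := C12_790.c2 (Wo := WallU_228.Wo n Sw) (n := n) (W := 2 * c K + 2 * b ^ m) (z := z)
    (N1 := b ^ m) (p0 := c K) (K := K) (C0 := r + m) (BadT := Sp_221.Bad Ms M m b) (φ := φ)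
    (act := act) (nu1 := nu1) (nu2 := fun u => nu2 u 1) (c := c) (lam2 := lam2)
    (rho2 := fun k Q => rho2 k Q 1) hw (Tm := c K) (by omega) (by omega) (by omega) hck
    (fun k hk k' hk' h => by
      rcases lt_trichotomy k k' with h1 | h1 | h1
      · have := hcmono _ _ h1; omega
      · exact h1
      · have := hcmono _ _ h1; omega)
    (fun a b' d e ha hb' hd he hab hde h1 h2 =>
      hc2 a b' d e ha hb' hd he hab hde (by
        rw [abs_le]
        generalize b ^ m = N1 at h1 h2 ⊢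
        constructor <;> omega))
    (fun T hT F hF => by
      have h1 := hc3 T (fun k hk => (hck k hk).trans hT)
      refine le_trans (Finset.card_le_card (t := ((Finset.range K ×ˢ Finset.range K).filter
          (fun ij => ij.1 ≠ ij.2 ∧ Sp_221.Bad Ms M m b (T + c ij.2 - c ij.1)))) ?_)
        (h1.trans (by omega))
      intro q hq
      obtain ⟨a1, a2, a3, a4⟩ := hF q hq
      rw [Finset.mem_filter, Finset.mem_product, Finset.mem_range, Finset.mem_range]
      exact ⟨⟨a1, a2⟩, a3, a4⟩)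
    (fun k hk P Q v b' h1 h2 h3 => by
      have := ex2 k hk P Q 1 v b' h1 h2 h3
      rw [mul_one] at this
      exact this)
    (fun u v hu => by
      obtain ⟨I, hI1, hI2⟩ := cp2 u 1 v (fun k hk => by rw [hu]; exact hck k hk)
      exact ⟨I, by omega, hI2⟩)
  exact Top5_110.top_sem (φ := φ) (act := act) hφ0 hφ hact1 hactm hfaith
    (C12_790.pc (by omega)) (fun u hu => hu.1)
    (fun u _ v v' => C12_790.hT hφ hactm hadd u v v') H1 H2 H3 H4
    (N1 := 0) (N2 := 1)
    (L1 := C12_790.L1 φ act (fun u => nu2 u 1) (c K) lam) (L2 := C12_790.L2 K c lam2)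
    (fun x => C12_790.f1 (N1 := b ^ m) (fun P v h => (g1 P v h).le) x)
    (fun x => C12_790.f2 (p0 := c K) hck x) C1 C2 s

end Crest.Agent.R320.Fin_444
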