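import Crest.Agent.R320.Top5_120
import Crest.Agent.R320.C2_449
import Crest.Agent.R320.Sp_449
import Crest.Agent.R320.G1_604
import Crest.Agent.R320.Sp_509
import Crest.Agent.R320.ExactR_237
import Crest.Agent.R320.LWallAll_922
import Crest.Agent.R320.P4_933
import Crest.Agent.R320.FS_601

/-!
# Row 320 (helper449): the whole join (Type 0)
-/

set_option autoImplicit false
set_option linter.unusedSectionVars false
set_option linter.unusedVariables false

namespace Crest.Agent.R320.Fin_449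

open Crest.RegLang Crest.Agent.R320.Hk_851 Crest.Agent.R320.Blk467 Crest.Agent.R320.S12_449
open Crest.Agent.R320.BddReg_746 Crest.Agent.R320.Core1_922

/-! ### periodicity of the bad lengths -/

theorem badN_congr {m M b : ℕ} {Ms : Finset ℕ} (hMs : ∀ k ∈ Ms, k ∣ M) {n n' : ℕ}
    (h : n % (M * b ^ m) = n' % (M * b ^ m)) :
    Sp_509.BadN m M b Ms n ↔ Sp_509.BadN m M b Ms n' := by
  have hme : n ≡ n' [MOD M * b ^ m] := h
  have h1 : ∀ k ∈ Ms, (k ∣ n ↔ k ∣ n') := fun k hk =>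
    hme.dvd_iff ((hMs k hk).trans (Dvd.intro _ rfl))
  have h2 : ∀ j < m, n / b ^ j % b = n' / b ^ j % b := by
    intro j hj
    have hd : b ^ j * b ∣ M * b ^ m := by
      rw [← pow_succ]
      exact (pow_dvd_pow b hj).trans (Dvd.intro_left _ rfl)
    have h3 : n % (b ^ j * b) = n' % (b ^ j * b) := hme.of_dvd hd
    rw [← Nat.mod_mul_right_div_self, ← Nat.mod_mul_right_div_self, h3]
  unfold Sp_509.BadN
  constructor
  · rintro (⟨k, hk, hd⟩ | ⟨j, hj, hd⟩)
    · exact Or.inl ⟨k, hk, (h1 k hk).1 hd⟩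
    · exact Or.inr ⟨j, hj, by rw [← h2 j hj]; exact hd⟩
  · rintro (⟨k, hk, hd⟩ | ⟨j, hj, hd⟩)
    · exact Or.inl ⟨k, hk, (h1 k hk).2 hd⟩
    · exact Or.inr ⟨j, hj, by rw [h2 j hj]; exact hd⟩

/-! ### finite-state data -/

section

variable {α : Type} {S : Type} [Monoid S]

/-- finite-state data -/
structure FS (f : α → S) (A M0 : ℕ) (u u' : List α) : Prop where
  l : A ≤ u.length
  l' : A ≤ u'.length
  t : u.take A = u'.take A
  m : u.length % M0 = u'.length % M0
  p : ((u.drop A).map f).prod = ((u'.drop A).map f).prod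

variable {f : α → S} {A M0 : ℕ} {u u' : List α}

theorem FS.symm (h : FS f A M0 u u') : FS f A M0 u' u :=
  ⟨h.l', h.l, h.t.symm, h.m.symm, h.p.symm⟩

theorem FS.take (h : FS f A M0 u u') {i : ℕ} (hi : i ≤ A) : u.take i = u'.take i := by
  have := congrArg (List.take i) h.t
  rwa [List.take_take, List.take_take, min_eq_left hi] at this

theorem FS.drop (h : FS f A M0 u u') {i : ℕ} (hi : i ≤ A) :
    ((u.drop i).map f).prod = ((u'.drop i).map f).prod := by
  have key : ∀ v : List α, A ≤ v.length → v.drop i = (v.take A).drop i ++ v.drop A := by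
    intro v hv
    conv_lhs => rw [← List.take_append_drop A v]
    rw [List.drop_append_of_le_length (by rw [List.length_take]; omega)]
  rw [key u h.l, key u' h.l', h.t, List.map_append, List.map_append, List.prod_append,
    List.prod_append, h.p]

theorem FS.whole (h : FS f A M0 u u') : (u.map f).prod = (u'.map f).prod := by
  have := h.drop (Nat.zero_le A)
  simpa using this

theorem FS.len_sub (h : FS f A M0 u u') {i : ℕ} (hi : i ≤ A) :
    (u.length - i) % M0 = (u'.length - i) % M0 := by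
  have h1 := h.l
  have h2 := h.l'
  have : (u.length - i) + i ≡ (u'.length - i) + i [MOD M0] := by
    rw [Nat.sub_add_cancel (by omega), Nat.sub_add_cancel (by omega)]
    exact h.m
  exact Nat.ModEq.add_right_cancel' i this

end

theorem free_PN {α : Type} {B W : ℕ} {X : List α}
    (h : ∃ (u x v : List α) (k : ℕ), u.length ≤ B ∧ x.length ≤ W ∧ v.length ≤ B ∧
      X = u ++ (List.replicate k x).flatten ++ v) : X ∈ (PN (B + W) 2 : Language α) := by
  obtain ⟨u, x, v, k, h1, h2, h3, rfl⟩ := h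
  refine Language.mem_mul.2 ⟨u ++ (List.replicate k x).flatten,
    ⟨u, x, k, by omega, by omega, rfl⟩, v, ?_, rfl⟩
  exact Language.mem_mul.2 ⟨v, ⟨v, [], 0, by omega, by simp, by simp⟩, [], rfl, by simp⟩

/-! ### the star-height side, abstract over the data -/

section

variable {α : Type} [Finite α] {S V : Type} [Monoid S] [Finite S] [AddCommGroup V]

theorem top (D : Dat α S V) (h : D.Ok) [Finite V] (f : α → S)
    (hφ : ∀ w, D.φ w = (w.map f).prod)
    (hone : ∀ v, D.act v 1 = v)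
    (hfaith : ∀ s t, (∀ v, D.act v s = D.act v t) → s = t)
    (hlen : ∀ P, D.Wo P → D.n ≤ P.length) {B Rr : ℕ}
    (free : ∀ u : List α, (∀ t < u.length, ¬ D.Wo (u.take t)) → u ∈ (PN B Rr : Language α))
    {A M0 : ℕ} (hM : 0 < M0) (hA : D.z + D.N ≤ A)
    (hν : ∀ u u', FS f A M0 u u' → D.ν u = D.ν u')
    (hBT : ∀ l l', l % M0 = l' % M0 → (D.BadT l ↔ D.BadT l')) (s : S) :
    HL 3 ({w | (w.map f).prod = s} : Language α) := by
  classical
  have hz := h.hz
  have hBad : ∀ u u', FS f A M0 u u' → D.BadX u → D.BadX u' := by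
    rintro u u' hu (⟨s, s1, s2, s3, s4⟩ | hb)
    · refine Or.inl ⟨s, by have := hu.l'; omega, s2, s3, ?_⟩
      rw [← hu.take (by omega)]
      exact s4
    · exact Or.inr ((hBT _ _ (hu.len_sub (by omega))).1 hb)
  have hXXe : ∀ X, X ∈ D.XX ↔ P4_933.XX D.Wo D.z X := fun X =>
    ⟨fun ⟨a, b, c⟩ => ⟨b, a, fun t h1 h2 => c t h2 h1⟩, fun ⟨a, b, c⟩ => ⟨b, a, fun t h1 h2 => c t h2 h1⟩⟩
  have hTe : ∀ v X, D.T v X = D.act v (X.map f).prod + D.ν X := by
    intro v X
    rw [h.T_eq, hφ]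
  refine Top5_120.top5 D.act h.hadd hone (fun v s t => (h.hmul v s t).symm) hfaith f D.ν D.XX
    {X | X ∈ D.XX ∧ D.BadX X} ?_ ?_ (fun v => {P | D.LP1 P v}) (fun v => {P | D.LP2 P v})
    ?_ ?_ ?_ ?_ ?_ ?_ ?_ s
  · refine ⟨h.nil_notMem, ?_⟩
    rintro X hX Y hY ⟨t, rfl⟩
    have := h.prefix_code X hX t hY
    rw [this, List.append_nil]
  · exact fun X hX => hX.1
  · intro v
    refine (List.finite_length_le α (D.p0 + D.N)).subset ?_
    rintro P ⟨h1, h2⟩
    have := h.u1 _ _ h2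
    rw [List.length_drop] at this
    show P.length ≤ D.p0 + D.N
    omega
  · intro v
    refine (List.finite_length_le α D.p0).subset ?_
    rintro P ⟨k, hk, h2, -⟩
    show P.length ≤ D.p0
    rw [h2]
    exact h.hc k hk
  · intro x y
    have hreg : Language.IsRegular
        ({X | D.act x (X.map f).prod + D.ν X = y} : Language α) :=
      FS_601.regular_of_class_drop f A M0 hM _ fun u u' a1 a2 a3 a4 a5 => by
        have hu : FS f A M0 u u' := ⟨a1, a2, a3, a4, a5⟩
        rw [hu.whole, hν _ _ hu]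
    refine (P4_933.hl_XX (z := D.z) h.hW hlen free hreg).congr fun w => ?_
    constructor
    · rintro ⟨h1, h2⟩
      exact ⟨(hXXe w).1 h1, h2⟩
    · rintro ⟨h1, h2⟩
      exact ⟨(hXXe w).2 h1, h2⟩
  · intro x y
    have hreg : Language.IsRegular
        ({X | D.BadX X ∧ D.act x (X.map f).prod + D.ν X = y} : Language α) :=
      FS_601.regular_of_class_drop f A M0 hM _ fun u u' a1 a2 a3 a4 a5 => by
        have hu : FS f A M0 u u' := ⟨a1, a2, a3, a4, a5⟩
        rw [hu.whole, hν _ _ hu]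
        exact and_congr_left fun _ => ⟨hBad _ _ hu, hBad _ _ hu.symm⟩
    refine (P4_933.hl_XX (z := D.z) h.hW hlen free hreg).congr fun w => ?_
    constructor
    · rintro ⟨⟨h1, h3⟩, h2⟩
      exact ⟨(hXXe w).1 h1, h3, h2⟩
    · rintro ⟨h1, h3, h2⟩
      exact ⟨⟨(hXXe w).2 h1, h3⟩, h2⟩
  · intro s
    have hreg : Language.IsRegular ({X | (X.map f).prod = s} : Language α) :=
      FS_601.regular_of_class_drop f A M0 hM _ fun u u' a1 a2 a3 a4 a5 => by
        have hu : FS f A M0 u u' := ⟨a1, a2, a3, a4, a5⟩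
        rw [hu.whole]
    refine (P4_933.hl_NB (z := D.z) h.hW hlen free hreg).congr fun w => ?_
    constructor
    · rintro ⟨h1, h2⟩
      exact ⟨(P4_933.NB_iff _ _ _).2 fun P hP hx => h1 P ((hXXe P).2 hx) hP, h2⟩
    · rintro ⟨h1, h2⟩
      exact ⟨fun X hX hp => (P4_933.NB_iff _ _ _).1 h1 X hp ((hXXe X).1 hX), h2⟩
  · intro X hX hXb v
    obtain ⟨P, Q, e, hP, hh⟩ := h.hcc1 X hX (fun hb => hXb ⟨hX, hb⟩) v
    refine ⟨P, Q, e, hP, fun x P' hP' => ?_⟩
    obtain ⟨a1, a2⟩ := hh x P' hP'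
    rw [hTe, hTe] at a2
    exact ⟨a1, a2⟩
  · rintro X ⟨hX, hb⟩ Y ⟨hY, -⟩ v
    obtain ⟨P, Q, e, hP, hh⟩ := h.hcc2 X hX hb Y hY v
    refine ⟨P, Q, e, hP, fun x P' hP' => ?_⟩
    rcases hh x P' hP' with ⟨X', h1, h2, Y', h3, h4, h5⟩ | ⟨X', h1, h2, h3⟩
    · left
      rw [hTe, hTe, hTe, hTe] at h5
      exact ⟨X', ⟨h1, h2⟩, Y', h3, h4, h5⟩
    · exact Or.inr ⟨X', h1, fun hb' => h2 hb'.2, h3⟩

end

/-! ### constants -/

theorem fin (α : Type) [Finite α] (S : Type) [Monoid S] [Finite S] (f : α → S) (s : S) :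
    HL 3 ({w | (w.map f).prod = s} : Language α) := by
  classical
  obtain ⟨act, hadd, hone, hmul, hfaith⟩ := exists_module S
  haveI : Fintype S := Fintype.ofFinite S
  haveI : Fintype (S → ZMod 2) := Fintype.ofFinite _
  obtain ⟨m, r, hg⟩ := G1_604.g1 S (S → ZMod 2) act
  obtain ⟨K, hex⟩ := ExactR_237.exact_gadget α S (S → ZMod 2) f act (2 + 2 * (r + m))
  obtain ⟨Ms, M, hcard, hMs, hM, hg⟩ := hg (4 ^ (K + 1))
  obtain ⟨b, hb1, hb2, hcop⟩ : ∃ b : ℕ, 4 * M + 4 < b ∧
      4 * M * 4 ^ (K + 1) + 2 * M + 2 ≤ b ∧ Nat.Coprime b M := by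
    refine ⟨M * (4 * 4 ^ (K + 1) + 10) + 1, ?_, ?_, ?_⟩
    · have : 0 < 4 ^ (K + 1) := by positivity
      nlinarith
    · nlinarith
    · have h1 : Nat.Coprime (1 + M * (4 * 4 ^ (K + 1) + 10)) M :=
        (Nat.coprime_add_mul_left_left 1 M _).2 (Nat.coprime_one_left M)
      rwa [Nat.add_comm] at h1
  obtain ⟨lam, rho, nu1, g1, g2, g3, g4⟩ := hg b hb1 hcop α f
  obtain ⟨c, c1, c2, c3, c4, c5, c6⟩ := Sp_509.spoilN m K Ms M hM
    (fun k hk => ⟨(hMs k hk).1, (hMs k hk).2.2⟩) b hb2 hcop (b ^ m)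
  obtain ⟨lam2, rho2, nu2, e1, e2⟩ := hex c (fun i j hij _ => c1 hij)
  have hN : 0 < b ^ m := pow_pos (by omega) m
  obtain ⟨n, G, B, Wo, hLW, hgap, -, -, hfree⟩ :=
    LWallAll_922.walls_all_left α (2 * c K + 2 * b ^ m) (by omega)
  let D : Dat α S (S → ZMod 2) :=
    { φ := fun w => (w.map f).prod
      act := act
      Wo := Wo
      n := n
      z := 3 * c K + 3 * b ^ m + n + 1
      p0 := c K
      N := b ^ m
      lam := lam
      rho := rho
      nu1 := nu1
      BadT := Sp_509.BadN m M b Ms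
      K := K
      c := c
      lam2 := lam2
      rho2 := fun k Q => rho2 k Q 1
      nu2 := fun u => nu2 u 1
      R := 2 + 2 * (r + m) }
  have hcΛ : ∀ k < K, c k ≤ c K := fun k hk => (c1 hk).le
  have hφ : ∀ u v : List α, ((u ++ v).map f).prod = (u.map f).prod * (v.map f).prod := by
    intro u v
    rw [List.map_append, List.prod_append]
  have thin : ∀ T, c K ≤ T → ∀ I : Finset ℕ,
      (∀ k ∈ I, k < K ∧ ∃ k' < K, k' ≠ k ∧ Sp_509.BadN m M b Ms (T + c k' - c k)) →
      I.card ≤ r + m := by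
    intro T hT I hI
    let P : Finset (ℕ × ℕ) := (Finset.range K ×ˢ Finset.range K).filter fun p =>
      p.1 ≠ p.2 ∧ Sp_509.BadN m M b Ms (T + c p.2 - c p.1)
    have h1 : P.card ≤ Ms.card + m := by
      refine c6 T P fun p hp => ?_
      obtain ⟨hp1, hp2, hp3⟩ := Finset.mem_filter.1 hp
      obtain ⟨hp4, hp5⟩ := Finset.mem_product.1 hp1
      have h4 := Finset.mem_range.1 hp4
      have h5 := Finset.mem_range.1 hp5
      refine ⟨h4, h5, hp2, T + c p.2 - c p.1, ?_, hp3⟩
      have := hcΛ _ h4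
      rw [Nat.cast_sub (by omega)]
      push_cast
      rfl
    have h2 : I ⊆ P.image Prod.fst := by
      intro k hk
      obtain ⟨hk1, k', hk2, hk3, hk4⟩ := hI k hk
      refine Finset.mem_image.2 ⟨(k, k'), ?_, rfl⟩
      exact Finset.mem_filter.2 ⟨Finset.mem_product.2 ⟨Finset.mem_range.2 hk1,
        Finset.mem_range.2 hk2⟩, fun h => hk3 h.symm, hk4⟩
    have h3 := (Finset.card_le_card h2).trans Finset.card_image_le
    omega
  have hrul : ∀ k₁ < K, ∀ k₁' < K, ∀ k₂ < K, ∀ k₂' < K, k₁ ≠ k₁' →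
      |((c k₁ : ℤ) - c k₁') - ((c k₂ : ℤ) - c k₂')| ≤ 2 * (b ^ m : ℕ) → k₁ = k₂ := by
    intro k₁ _ k₁' _ k₂ _ k₂' _ hne hle
    by_contra hcon
    by_cases h2 : k₂ = k₂'
    · subst h2
      rw [sub_self, sub_zero] at hle
      rcases lt_or_gt_of_ne hne with h | h
      · have := c3 _ _ h
        have h' := (abs_le.1 hle).1
        omega
      · have := c3 _ _ h
        have h' := (abs_le.1 hle).2
        omega
    · have := c4 k₁' k₁ k₂' k₂ (Ne.symm hne) (fun h => h2 h.symm)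
        (fun h => hcon (congrArg Prod.snd h))
      have hN' : (0 : ℤ) < (b ^ m : ℕ) := by exact_mod_cast hN
      linarith
  have hOk : D.Ok := by
    refine ⟨hφ, hadd, fun v s t => (hmul v s t).symm, hLW.app, ?_, hcΛ, fun p v h => (g1 p v h).le,
      fun p q v r h1 h2 => g2 p q v r h1 h2, ?_, ?_, ?_, ?_⟩
    · show c K + 3 * b ^ m + n + 1 ≤ 3 * c K + 3 * b ^ m + n + 1
      omega
    · intro u _ hb v
      have hb' : ¬ Sp_509.BadN m M b Ms u.length := hb
      unfold Sp_509.BadN at hb'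
      rw [not_or] at hb'
      obtain ⟨hb3, hb4⟩ := hb'
      refine g3 u (fun k hk hd => hb3 ⟨k, hk, hd⟩) (fun j hj => ?_) v
      by_contra hcon
      exact hb4 ⟨j, hj, hcon⟩
    · intro k hk P Q v bb hP h1 h2
      have := e1 k hk P Q 1 v bb hP h1 h2
      rw [mul_one] at this
      exact this
    · intro u v hu
      exact e2 u 1 v hu
    · intro X hX X2 hX2 _ I hI
      have h1 := spoil (D := D) hLW.app (Λ := c K) (C1 := r + m) hcΛ
        (by show c K + c K + b ^ m + n + c K + 1 ≤ 3 * c K + 3 * b ^ m + n + 1; omega)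
        (fun Q s t a1 a2 a3 a4 => hgap Q s t a1 a2 a3 a4) hrul thin (U := X ++ X2)
        (by rw [List.length_append]; exact hX.1.trans (Nat.le_add_right _ _)) I hI
      show I.card < 2 + 2 * (r + m)
      omega
  have hM0 : 0 < M * b ^ m := Nat.mul_pos hM hN
  refine top D hOk f (fun _ => rfl) hone hfaith hLW.len (fun u hu => free_PN (hfree u hu))
    (A := 3 * c K + 3 * b ^ m + n + 1 + b ^ m) (M0 := M * b ^ m) hM0 le_rfl ?_
    (fun l l' h => badN_congr (fun k hk => (hMs k hk).2.2) h) s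
  intro u u' hu
  have hp : c K ≤ 3 * c K + 3 * b ^ m + n + 1 + b ^ m := by omega
  show act (nu2 (u.take (c K)) 1) ((u.drop (c K)).map f).prod + nu1 (u.drop (c K)) =
    act (nu2 (u'.take (c K)) 1) ((u'.drop (c K)).map f).prod + nu1 (u'.drop (c K))
  have hl := hu.l
  have hl' := hu.l'
  have h1 : nu1 (u.drop (c K)) = nu1 (u'.drop (c K)) := by
    refine (g4 _ _ ?_ ?_ ?_ ?_ ?_).2
    · rw [List.length_drop]; omega
    · rw [List.length_drop]; omega
    · have h2 := congrArg (List.drop (c K)) (hu.take (i := c K + b ^ m) (by omega))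
      rw [List.drop_take, List.drop_take, Nat.add_sub_cancel_left] at h2
      exact h2
    · rw [List.length_drop, List.length_drop]
      exact hu.len_sub hp
    · rw [List.drop_drop, List.drop_drop]
      exact hu.drop (by omega)
  rw [hu.take hp, hu.drop hp, h1]

end Crest.Agent.R320.Fin_449
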