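import Crest.Agent.R320.Zn_454
import Crest.Agent.R320.SemTop_727
import Crest.Agent.R320.P4_440
import Crest.Agent.R320.Univ_234
import Crest.Agent.R320.ExactR_237

set_option autoImplicit false

namespace Crest.Agent.R320.Fin454

open Crest.RegLang Crest.Agent.R320.Hk_851 Crest.Agent.R320.Blk467 Crest.Agent.R320.Zn454

open Classical in
/-- the gadget without small walls (772's `UGI`, 440's correction) -/
def UGI (S V : Type) [Monoid S] [AddCommGroup V] (act : V → S → V) : Prop :=
  ∃ C0 : ℕ, ∀ K : ℕ, ∃ (N Pm La : ℕ) (c : ℕ → ℕ) (Bad : ℕ → Prop), 0 < Pm ∧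
    (∀ i j, i < j → j < K → c i < c j) ∧
    (∀ i j k l, i < K → j < K → k < K → l < K → i ≠ j → k ≠ l → (i, j) ≠ (k, l) →
      c i + c l + 4 * N < c k + c j ∨ c k + c j + 4 * N < c i + c l) ∧
    (∀ T, La ≤ T → ((Finset.range K ×ˢ Finset.range K).filter
      (fun ab => ab.1 ≠ ab.2 ∧ Bad (T + c ab.2 - c ab.1))).card ≤ C0) ∧
    ∀ (A : Type) (f : A → S), ∃ (lam rho : List A → Option V) (nu : List A → V),
      (∀ p v, lam p = some v → p.length ≤ N) ∧
      (∀ p q v r, lam p = some v → rho q = some r → La ≤ q.length →
        r = act v ((p ++ q).map f).prod + nu (p ++ q)) ∧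
      (∀ u : List A, La ≤ u.length → ¬ Bad u.length → ∀ v, ∃ p q, p ++ q = u ∧
        lam p = some v ∧ (rho q).isSome) ∧
      (∀ q q2 : List A, La ≤ q.length → La ≤ q2.length → q.take La = q2.take La →
        q.length ≡ q2.length [MOD Pm] → ((q.drop La).map f).prod = ((q2.drop La).map f).prod →
        rho q = rho q2 ∧ nu q = nu q2)

theorem nonempty_V (S : Type) : Nonempty (S → ZMod 2) := ⟨fun _ => 0⟩

theorem main (A S : Type) [Finite A] [Monoid S] [Finite S] (f : A → S)
    (hU : ∀ act : (S → ZMod 2) → S → (S → ZMod 2), UGI S (S → ZMod 2) act) (s : S) :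
    HL 3 ({w | (w.map f).prod = s} : Language A) := by
  classical
  haveI := Fintype.ofFinite S
  obtain ⟨act, hadd, hone, hmul, hfaith⟩ := exists_module S
  obtain ⟨C0, hC0⟩ := hU act
  obtain ⟨K, hK⟩ := Crest.Agent.R320.ExactR_237.exact_gadget A S (S → ZMod 2) f act (2 * C0 + 2)
  obtain ⟨N, Pm, La, c, Bad, hPm, hinc, hsep, hthin, hgad⟩ := hC0 K
  obtain ⟨lam1, rho1, nu1, g1, g2, g3, g4⟩ := hgad A f
  obtain ⟨lam2, rho2, nu2, e1, e2⟩ := hK c hinc
  set p0 : ℕ := ∑ i ∈ Finset.range K, c i with hp0
  have hcp : ∀ k < K, c k ≤ p0 := fun k hk =>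
    Finset.single_le_sum (f := c) (fun i _ => Nat.zero_le _) (Finset.mem_range.2 hk)
  obtain ⟨n, cc, P, SW, hn, hP, hloc, hgap, -, -, hfew⟩ :=
    Crest.Agent.R320.WallU_228.walls_full (α := A) (2 * p0 + 2 * N)
  let D : Dt A S (S → ZMod 2) :=
    { f := f
      act := act
      Wo := Crest.Agent.R320.WallU_228.Wo n SW
      n := n
      W := 2 * p0 + 2 * N
      z := 2 * p0 + 2 * N + (La + N) + n + (La + p0) + 1
      p0 := p0
      N := N
      c := c
      K := K
      C0 := C0
      T0 := La + p0
      N2 := La + N
      lam1 := lam1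
      rho1 := fun q => if La ≤ q.length then rho1 q else none
      nu1 := nu1
      lam2 := lam2
      rho2 := fun k q => rho2 k q 1
      nu2 := fun X => nu2 X 1
      BadT := Bad
      loc := hloc
      gap := by
        intro w s t hst htw hs ht
        by_contra hcon
        refine hgap (w.take t) (t - s) ht (by omega) (by omega) ?_
        rw [List.length_take, Nat.min_eq_left htw, List.take_take]
        have : min (t - (t - s)) t = s := by omega
        rw [this]; exact hs
      g1len := g1
      g1s := by
        intro P Q v b h1 h2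
        by_cases hq : La ≤ Q.length
        · simp only [if_pos hq] at h2
          exact g2 P Q v b h1 h2 hq
        · simp only [if_neg hq] at h2
          exact absurd h2 (by simp)
      g1c := by
        intro u hu hB v
        obtain ⟨p, q, hpq, h1, h2⟩ := g3 u (by omega) hB v
        refine ⟨p, q, hpq.symm, h1, ?_⟩
        have := g1 p v h1
        have hl := congrArg List.length hpq
        rw [List.length_append] at hl
        rw [if_pos (by omega)]
        exact h2
      g2s := by
        intro k hk P Q v b hP h1 h2
        have := e1 k hk P Q 1 v b hP h1 h2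
        rw [mul_one] at this
        exact this
      g2c := by
        intro u v hu
        obtain ⟨I, hI, hI2⟩ := e2 u 1 v (fun k hk => by rw [hu]; exact hcp k hk)
        exact ⟨I, hI, hI2⟩
      cle := hcp
      r2 := by
        intro a b a' b' ha hb ha' hb' hab habs
        rw [abs_le] at habs
        by_cases h' : a' = b'
        · exfalso
          subst h'
          have := hsep a b b a ha hb hb ha hab (Ne.symm hab) (fun h => hab (Prod.mk.inj h).1)
          omega
        · by_contra hcon
          have := hsep a b a' b' ha hb ha' hb' hab h'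
            (fun h => hcon ⟨(Prod.mk.inj h).1, (Prod.mk.inj h).2⟩)
          omega
      r3 := by
        intro T hT
        refine le_trans ?_ (hthin T (by omega))
        refine Finset.card_le_card_of_injOn Prod.swap ?_ (Prod.swap_injective.injOn)
        rintro ⟨a, b⟩ hab
        simp only [Finset.coe_filter, Finset.mem_product, Finset.mem_range,
          Set.mem_setOf_eq] at hab ⊢
        exact ⟨⟨hab.1.2, hab.1.1⟩, Ne.symm hab.2.1, hab.2.2⟩
      hz := le_rfl
      hW := le_rfl }
  let E : SemTop_727.Sch A (S → ZMod 2) := ⟨D.XX, D.T, D.L1, D.L2⟩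
  have hphi : ∀ u v : List A, ph f (u ++ v) = ph f u * ph f v := ph_append f
  haveI : Nonempty (S → ZMod 2) := nonempty_V S
  have hnB : n ≤ D.z + La := by
    have h1 := D.hz
    have h2 : D.n = n := rfl
    omega
  have hres : ∀ x y, HL 1 (E.fib x y) := by
    intro x y
    have := Crest.Agent.R320.P4_440.HL_block (φ := ph f) (n := n) (S := SW) (z := D.z)
      (B := D.z + La) (P := Pm) hphi hnB (by omega) hPm hfew
      (R := fun X => D.T x X = y) ?_
    · exact this
    · intro w w' h1 h2 h3 h4 h5
      have hz : D.p0 ≤ D.z := by have := D.hz; omega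
      have hlw : D.p0 + La ≤ w.length := by omega
      have hlw' : D.p0 + La ≤ w'.length := by omega
      have t1 : w.take D.p0 = w'.take D.p0 := by
        have := congrArg (List.take D.p0) h3
        rwa [List.take_take, List.take_take, Nat.min_eq_left (by omega)] at this
      have hd : ∀ m, m ≤ D.z + La → ph f (w.drop m) = ph f (w'.drop m) := by
        intro m hm
        have e : ∀ u : List A, u.drop m = (u.take (D.z + La)).drop m ++ u.drop (D.z + La) := by
          intro u
          conv_lhs => rw [← List.take_append_drop (D.z + La) u]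
          rw [List.drop_append]
          by_cases hl : D.z + La ≤ u.length
          · rw [List.length_take, Nat.min_eq_left hl, Nat.sub_eq_zero_of_le hm, List.drop_zero]
          · rw [List.drop_of_length_le (l := u) (by omega)]
            simp
        rw [e w, e w', h3, hphi, hphi, h4]
      have hnu : nu1 (w.drop D.p0) = nu1 (w'.drop D.p0) := by
        refine (g4 _ _ ?_ ?_ ?_ ?_ ?_).2
        · rw [List.length_drop]; omega
        · rw [List.length_drop]; omega
        · have := congrArg (fun u => (u.drop D.p0).take La) h3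
          simp only [List.drop_take, List.take_take] at this
          rwa [Nat.min_eq_left (by omega)] at this
        · rw [List.length_drop, List.length_drop]
          have a1 : w.length = (w.length - D.p0) + D.p0 := by omega
          have a2 : w'.length = (w'.length - D.p0) + D.p0 := by omega
          rw [a1, a2] at h5
          exact Nat.ModEq.add_right_cancel' _ h5
        · rw [List.drop_drop, List.drop_drop]
          exact hd _ (by omega)
      show (act (act x (ph f (w.take D.p0)) + nu2 (w.take D.p0) 1) (ph f (w.drop D.p0)) +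
        nu1 (w.drop D.p0) = y) ↔ (act (act x (ph f (w'.take D.p0)) + nu2 (w'.take D.p0) 1)
          (ph f (w'.drop D.p0)) + nu1 (w'.drop D.p0) = y)
      rw [t1, hd D.p0 (by omega), hnu]
  have htail : ∀ s : S, HL 3 ({w | (∀ X ∈ E.XX, ¬ X <+: w) ∧ (w.map f).prod = s} : Language A) := by
    intro s
    refine HL.mono (k := 1) (by norm_num) ?_
    have := Crest.Agent.R320.P4_440.HL_rest (φ := ph f) (n := n) (S := SW) (z := D.z)
      (B := D.z + La) (P := Pm) hphi hnB (by omega) hPm hfew
      (R := fun X => ph f X = s) ?_
    · exact this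
    · intro w w' h1 h2 h3 h4 h5
      have e : ∀ u : List A, ph f u = ph f (u.take (D.z + La)) * ph f (u.drop (D.z + La)) := by
        intro u
        rw [← hphi, List.take_append_drop]
      show ph f w = s ↔ ph f w' = s
      rw [e w, e w', h3, h4]
  refine SemTop_727.top (k := 1) act hadd hone hmul hfaith f
    (fun X => act (nu2 (X.take D.p0) 1) (ph f (X.drop D.p0)) + nu1 (X.drop D.p0)) E ?_ ?_ hres
    ?_ ?_ ?_ htail s
  · intro v X
    show act (act v (ph f (X.take D.p0)) + nu2 (X.take D.p0) 1) (ph f (X.drop D.p0)) +
      nu1 (X.drop D.p0) = act v (ph f X) + (act (nu2 (X.take D.p0) 1) (ph f (X.drop D.p0)) +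
        nu1 (X.drop D.p0))
    have e : ph f X = ph f (X.take D.p0) * ph f (X.drop D.p0) := by
      rw [← hphi, List.take_append_drop]
    rw [e, hadd, hmul, add_assoc]
  · exact ⟨D.nil_not, fun X hX Y hY h => D.code hX hY h⟩
  · intro x
    refine (List.finite_length_le A (D.p0 + N)).subset ?_
    rintro P ⟨h1, h2⟩
    have := D.g1len _ _ h2
    rw [List.length_drop] at this
    show P.length ≤ D.p0 + N
    have hN : D.N = N := rfl
    omega
  · intro x
    refine (List.finite_length_le A p0).subset ?_
    rintro P ⟨k, hk, h1, _⟩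
    show P.length ≤ p0
    rw [h1]; exact hcp k hk
  · intro X1 h1 X2 h2 x
    exact D.hC2 h1 h2 x

/-- **the statement of row 320 from the gadget** -/
theorem final (hU : ∀ (S : Type) [Monoid S] [Finite S]
    (act : (S → ZMod 2) → S → (S → ZMod 2)), UGI S (S → ZMod 2) act)
    {α : Type*} [Finite α] (L : Language α) (hL : L.IsRegular) :
    ∃ e : GRegExp α, e.height ≤ 3 ∧ e.lang = L :=
  Crest.Agent.R320.Univ_234.of_type_monoid (k := 3)
    (fun A _ S _ _ f s => main A S f (fun act => hU S act) s) L hL

end Crest.Agent.R320.Fin454
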