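import Mathlib

/-!
Row 320, spoil leaf of lead #13673 (ruler for the positional-digit gadget of 852 #13483).
-/

set_option autoImplicit false

namespace Crest.Agent.R320.Sp_461

/-- The thin set of lengths of the digit gadget. -/
def Bad (Ms : Finset ℕ) (M m b n : ℕ) : Prop :=
  (∃ k ∈ Ms, k ∣ n) ∨ ∃ j < m, ¬ (M ≤ n / b ^ j % b ∧ n / b ^ j % b + M + 1 ≤ b)

theorem pow2_sum : ∀ a b c d : ℕ, 2 ^ a + 2 ^ b = 2 ^ c + 2 ^ d →
    (a = c ∧ b = d) ∨ (a = d ∧ b = c) := by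
  have one : ∀ b c d : ℕ, 1 + 2 ^ b = 2 ^ c + 2 ^ d →
      (0 = c ∧ b = d) ∨ (0 = d ∧ b = c) := by
    intro b c d h
    rcases c with _ | c
    · left
      refine ⟨rfl, ?_⟩
      have : 2 ^ b = 2 ^ d := by simpa using h
      exact Nat.pow_right_injective (le_refl 2) this
    · rcases d with _ | d
      · right
        refine ⟨rfl, ?_⟩
        have : 2 ^ b = 2 ^ (c + 1) := by
          have h' : 1 + 2 ^ b = 2 ^ (c + 1) + 1 := by simpa using h
          omega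
        exact Nat.pow_right_injective (le_refl 2) this
      · exfalso
        rcases b with _ | b
        · have h1 : 0 < 2 ^ c := Nat.two_pow_pos c
          have h2 : 0 < 2 ^ d := Nat.two_pow_pos d
          rw [pow_succ, pow_succ] at h
          simp at h
          omega
        · rw [pow_succ, pow_succ, pow_succ] at h
          omega
  intro a
  induction a with
  | zero =>
    intro b c d h
    exact one b c d (by simpa using h)
  | succ a ih =>
    intro b c d h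
    rcases b with _ | b
    · have := one (a + 1) c d (by rw [add_comm] at h; simpa using h)
      rcases this with ⟨h1, h2⟩ | ⟨h1, h2⟩
      · right; exact ⟨h2, h1⟩
      · left; exact ⟨h2, h1⟩
    · rcases c with _ | c
      · have := one d (a + 1) (b + 1) (by rw [h]; simp)
        omega
      · rcases d with _ | d
        · have := one (c + 1) (a + 1) (b + 1) (by rw [h]; simp [add_comm])
          omega
        · have h' : 2 ^ a + 2 ^ b = 2 ^ c + 2 ^ d := by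
            rw [pow_succ, pow_succ, pow_succ, pow_succ] at h
            omega
          rcases ih b c d h' with ⟨h1, h2⟩ | ⟨h1, h2⟩
          · left; omega
          · right; omega

/-- difference of two differences of powers of two -/
def Df (i j i' j' : ℕ) : ℤ := ((2:ℤ) ^ i - 2 ^ j) - (2 ^ i' - 2 ^ j')

theorem Df_ne {i j i' j' : ℕ} (hij : i ≠ j) (h : ¬ (i = i' ∧ j = j')) : Df i j i' j' ≠ 0 := by
  intro h0
  have h1 : (2:ℤ) ^ i + 2 ^ j' = 2 ^ i' + 2 ^ j := by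
    unfold Df at h0; linarith
  have h2 : 2 ^ i + 2 ^ j' = 2 ^ i' + 2 ^ j := by exact_mod_cast h1
  rcases pow2_sum _ _ _ _ h2 with ⟨h3, h4⟩ | ⟨h3, h4⟩
  · exact h ⟨h3, h4.symm⟩
  · exact hij h3

theorem Df_abs {K i j i' j' : ℕ} (hi : i < K) (hj : j < K) (hi' : i' < K) (hj' : j' < K) :
    |Df i j i' j'| < 2 ^ (K + 1) := by
  have aux : ∀ {t : ℕ}, t < K → (1:ℤ) ≤ 2 ^ t ∧ (2:ℤ) ^ t ≤ 2 ^ K := by
    intro t ht
    refine ⟨one_le_pow₀ (by norm_num), pow_le_pow_right₀ (by norm_num) ht.le⟩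
  have h1 := aux hi
  have h2 := aux hj
  have h3 := aux hi'
  have h4 := aux hj'
  have h5 : (2:ℤ) ^ (K + 1) = 2 * 2 ^ K := by rw [pow_succ]; ring
  rw [abs_lt]
  unfold Df
  constructor <;> linarith

/-- `n` has digit number `s` near `0` mod `b`: `n` is near a multiple of `b^(s+1)`. -/
theorem near_of_bad {M b s n : ℕ} (hb : M < b)
    (h : ¬ (M ≤ n / b ^ s % b ∧ n / b ^ s % b + M + 1 ≤ b)) :
    ∃ q : ℤ, |(n:ℤ) - q * b ^ (s + 1)| ≤ M * b ^ s := by
  have hbpos : 0 < b := by omega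
  have hbs : 0 < b ^ s := pow_pos hbpos s
  -- n = b^s * (b * u + d) + e
  set t := n / b ^ s with ht
  set e := n % b ^ s with he
  have hn : n = b ^ s * t + e := (Nat.div_add_mod n (b ^ s)).symm
  have he' : e < b ^ s := Nat.mod_lt _ hbs
  set d := t % b with hd
  set u := t / b with hu
  have ht' : t = b * u + d := (Nat.div_add_mod t b).symm
  have hd' : d < b := Nat.mod_lt _ hbpos
  have hnz : (n:ℤ) = b ^ s * (b * u + d) + e := by
    rw [hn, ht']; push_cast; ring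
  have he2 : (e:ℤ) < b ^ s := by exact_mod_cast he'
  have he3 : (0:ℤ) ≤ e := by positivity
  have hbz : (0:ℤ) < b ^ s := by exact_mod_cast hbs
  by_cases h1 : d < M
  · refine ⟨u, ?_⟩
    have h2 : (n:ℤ) - u * b ^ (s + 1) = b ^ s * d + e := by
      rw [hnz, pow_succ]; ring
    rw [h2, abs_of_nonneg (by positivity)]
    have h3 : (d:ℤ) + 1 ≤ M := by exact_mod_cast h1
    nlinarith
  · have h2 : b ≤ d + M := by
      by_contra h3
      exact h ⟨by omega, by omega⟩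
    refine ⟨u + 1, ?_⟩
    have h3 : (n:ℤ) - (u + 1) * b ^ (s + 1) = -(b ^ s * (b - d) - e) := by
      rw [hnz, pow_succ]; ring
    have h4 : (b:ℤ) ≤ d + M := by exact_mod_cast h2
    have h5 : (d:ℤ) + 1 ≤ b := by exact_mod_cast hd'
    rw [h3, abs_neg, abs_of_nonneg (by nlinarith)]
    nlinarith

/-- geometric sum, as naturals -/
def geo (b s : ℕ) : ℕ := ∑ j ∈ Finset.range s, b ^ j

theorem geo_mod {b s m : ℕ} (h : s ≤ m) : ∃ q, geo b m = geo b s + q * b ^ s := by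
  obtain ⟨d, rfl⟩ := Nat.exists_eq_add_of_le h
  refine ⟨geo b d, ?_⟩
  unfold geo
  rw [Finset.sum_range_add, Finset.sum_mul]
  congr 1
  refine Finset.sum_congr rfl fun j _ => ?_
  rw [pow_add, mul_comm]

theorem geo_bounds {b : ℕ} (hb : 2 ≤ b) (s : ℕ) : b ^ s ≤ geo b (s + 1) ∧ geo b (s + 1) ≤ 2 * b ^ s := by
  induction s with
  | zero => simp [geo]
  | succ s ih =>
    have h : geo b (s + 1 + 1) = geo b (s + 1) + b ^ (s + 1) := by
      unfold geo; rw [Finset.sum_range_succ]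
    rw [h]
    have : 2 * b ^ s ≤ b ^ (s + 1) := by
      rw [pow_succ, mul_comm]; exact Nat.mul_le_mul_left _ hb
    omega

theorem abs_diff_le {a b c : ℤ} (h1 : |a| ≤ c) (h2 : |b| ≤ c) : |a - b| ≤ 2 * c := by
  rw [abs_le] at *
  constructor <;> linarith

/-- the numerical heart: `4 M geo D` is far from every multiple of `b^(s+1)` -/
theorem far {M b g bs b1 P D Q : ℤ} (hM : 0 < M) (hbs : 0 < bs) (hb1 : b1 = b * bs)
    (hP : 1 ≤ P) (hb : 32 * P * M ≤ b) (g1 : bs ≤ g) (g2 : g ≤ 2 * bs) (h0 : D ≠ 0)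
    (hab : |D| < 2 * P) (hnear : |4 * M * g * D - Q * b1| ≤ 2 * (M * bs)) : False := by
  have h3 : (1:ℤ) ≤ |D| := Int.one_le_abs h0
  have hg : 0 < g := by linarith
  have hMbs : 0 < M * bs := mul_pos hM hbs
  have hMg : M * bs ≤ M * g := mul_le_mul_of_nonneg_left g1 hM.le
  have hMg2 : M * g ≤ M * (2 * bs) := mul_le_mul_of_nonneg_left g2 hM.le
  have hMgp : 0 < M * g := mul_pos hM hg
  have hX : |4 * M * g * D| = 4 * (M * g) * |D| := by
    rw [abs_mul, abs_of_nonneg (by nlinarith : (0:ℤ) ≤ 4 * M * g)]; ring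
  have hXlow : 4 * (M * bs) ≤ |4 * M * g * D| := by
    rw [hX]
    have : 4 * (M * g) * 1 ≤ 4 * (M * g) * |D| :=
      mul_le_mul_of_nonneg_left h3 (by linarith)
    linarith
  have hXhigh : |4 * M * g * D| * 2 ≤ b1 := by
    rw [hX]
    have h4 : 4 * (M * g) * |D| ≤ 4 * (M * g) * (2 * P) :=
      mul_le_mul_of_nonneg_left hab.le (by linarith)
    have h5 : (M * g) * P ≤ (M * (2 * bs)) * P := mul_le_mul_of_nonneg_right hMg2 (by linarith)
    have h6 : (32 * P * M) * bs ≤ b * bs := mul_le_mul_of_nonneg_right hb hbs.le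
    rw [hb1]
    nlinarith
  have hb4 : 4 * (M * bs) < b1 := by
    have h6 : (32 * P * M) * bs ≤ b * bs := mul_le_mul_of_nonneg_right hb hbs.le
    have h7 : M * bs * 1 ≤ M * bs * P := mul_le_mul_of_nonneg_left hP hMbs.le
    rw [hb1]
    nlinarith
  have hb1p : 0 < b1 := by linarith
  rcases eq_or_ne Q 0 with hQ0 | hQ0
  · rw [hQ0, zero_mul, sub_zero] at hnear
    linarith
  · have h3 : (1:ℤ) ≤ |Q| := Int.one_le_abs hQ0
    have h5 : b1 ≤ |Q * b1| := by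
      rw [abs_mul, abs_of_nonneg hb1p.le]
      have := mul_le_mul_of_nonneg_right h3 hb1p.le
      linarith
    have h4 : |Q * b1| ≤ |4 * M * g * D| + 2 * (M * bs) := by
      have h8 := abs_le.1 hnear
      have h9 := neg_abs_le (4 * M * g * D)
      have h10 := le_abs_self (4 * M * g * D)
      rw [abs_le]
      constructor <;> linarith
    linarith

theorem spoil (K N1 m : ℕ) (Ms : Finset ℕ) (M b : ℕ) (hM : 0 < M)
    (hMs : ∀ k ∈ Ms, 2 ^ (K + 2) ≤ k ∧ k ∣ M) (hb : 2 ^ (K + 5) * M ≤ b)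
    (hcop : Nat.Coprime b M) :
    ∃ c : ℕ → ℕ, (∀ i j, i < j → c i + 4 * N1 < c j) ∧
      (∀ i j i' j', i ≠ j → ¬ (i = i' ∧ j = j') →
        4 * (N1:ℤ) < |((c i:ℤ) - c j) - (c i' - c j')|) ∧
      (∀ T : ℕ, (∀ i < K, c i ≤ T) →
        ∀ F : Finset (ℕ × ℕ), (∀ p ∈ F, p.1 < K ∧ p.2 < K ∧ p.1 ≠ p.2 ∧
          Bad Ms M m b (T + c p.2 - c p.1)) → F.card ≤ Ms.card + m) := by
  classical
  have hK2 : 0 < 2 ^ (K + 5) := Nat.two_pow_pos _
  have hMb : M < b := by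
    have h1 : 2 ≤ 2 ^ (K + 5) := by
      calc 2 = 2 ^ 1 := by norm_num
        _ ≤ 2 ^ (K + 5) := Nat.pow_le_pow_right (by norm_num) (by omega)
    nlinarith
  have hb2 : 2 ≤ b := by omega
  have hcop' : Nat.Coprime M (b ^ m) := (Nat.Coprime.pow_left m hcop).symm
  obtain ⟨k0, hk1, hk2⟩ := Nat.chineseRemainder hcop' 1 (4 * M * geo b m)
  -- make it large
  set K0 := k0 + M * b ^ m * (4 * N1 + 1) with hK0
  have hpos : 0 < M * b ^ m := Nat.mul_pos hM (pow_pos (by omega) m)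
  have hlarge : 4 * N1 < K0 := by
    have : 4 * N1 + 1 ≤ M * b ^ m * (4 * N1 + 1) := Nat.le_mul_of_pos_left _ hpos
    omega
  have hK0M : ∃ q : ℤ, (K0:ℤ) = 1 + q * M := by
    have h1 : (k0:ℤ) ≡ 1 [ZMOD M] := by exact_mod_cast (Int.natCast_modEq_iff.2 hk1)
    obtain ⟨q, hq⟩ := h1.symm.dvd
    refine ⟨q + b ^ m * (4 * N1 + 1), ?_⟩
    rw [hK0]; push_cast
    linarith
  have hK0b : ∃ q : ℤ, (K0:ℤ) = 4 * M * geo b m + q * b ^ m := by
    have h1 : (k0:ℤ) ≡ ((4 * M * geo b m : ℕ) : ℤ) [ZMOD ((b ^ m : ℕ) : ℤ)] :=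
      Int.natCast_modEq_iff.2 hk2
    obtain ⟨q, hq⟩ := h1.symm.dvd
    refine ⟨q + M * (4 * N1 + 1), ?_⟩
    rw [hK0]; push_cast at hq ⊢
    linarith
  refine ⟨fun l => 2 ^ l * K0, ?_, ?_, ?_⟩
  · intro i j hij
    have h1 : 2 ^ i + 1 ≤ 2 ^ j := by
      have : 2 ^ i < 2 ^ j := Nat.pow_lt_pow_right (by norm_num) hij
      omega
    have h2 : (2 ^ i + 1) * K0 ≤ 2 ^ j * K0 := Nat.mul_le_mul_right _ h1
    show 2 ^ i * K0 + 4 * N1 < 2 ^ j * K0
    have h3 : (2 ^ i + 1) * K0 = 2 ^ i * K0 + K0 := by ring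
    omega
  · intro i j i' j' hij hne
    have h0 := Df_ne hij hne
    have h1 : (1:ℤ) ≤ |Df i j i' j'| := Int.one_le_abs h0
    have h2 : (((2 ^ i * K0 : ℕ):ℤ) - ((2 ^ j * K0 : ℕ):ℤ)) -
        (((2 ^ i' * K0 : ℕ):ℤ) - ((2 ^ j' * K0 : ℕ):ℤ)) = Df i j i' j' * K0 := by
      unfold Df; push_cast; ring
    show 4 * (N1:ℤ) < |(((2 ^ i * K0 : ℕ):ℤ) - ((2 ^ j * K0 : ℕ):ℤ)) -
        (((2 ^ i' * K0 : ℕ):ℤ) - ((2 ^ j' * K0 : ℕ):ℤ))|
    rw [h2, abs_mul, abs_of_nonneg (by positivity : (0:ℤ) ≤ K0)]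
    have h3 : (4:ℤ) * N1 < K0 := by exact_mod_cast hlarge
    nlinarith
  · intro T hT F hF
    -- each condition is met by at most one pair
    have key1 : ∀ k ∈ Ms, ∀ p ∈ F, ∀ p' ∈ F, k ∣ (T + 2 ^ p.2 * K0 - 2 ^ p.1 * K0) →
        k ∣ (T + 2 ^ p'.2 * K0 - 2 ^ p'.1 * K0) → p = p' := by
      intro k hk p hp p' hp' h1 h2
      obtain ⟨a1, a2, a3, _⟩ := hF p hp
      obtain ⟨b1, b2, b3, _⟩ := hF p' hp'
      by_contra hne
      have hne' : ¬ (p.1 = p'.1 ∧ p.2 = p'.2) := fun h => hne (Prod.ext h.1 h.2)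
      have h0 := Df_ne a3 hne'
      have hab := Df_abs a1 a2 b1 b2
      have t1 : 2 ^ p.1 * K0 ≤ T := hT p.1 a1
      have t2 : 2 ^ p'.1 * K0 ≤ T := hT p'.1 b1
      have e1 : ((T + 2 ^ p.2 * K0 - 2 ^ p.1 * K0 : ℕ) : ℤ) = T + 2 ^ p.2 * K0 - 2 ^ p.1 * K0 := by
        rw [Nat.cast_sub (by omega)]; push_cast; ring
      have e2 : ((T + 2 ^ p'.2 * K0 - 2 ^ p'.1 * K0 : ℕ) : ℤ) =
          T + 2 ^ p'.2 * K0 - 2 ^ p'.1 * K0 := by
        rw [Nat.cast_sub (by omega)]; push_cast; ring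
      have d1 : (k:ℤ) ∣ T + 2 ^ p.2 * K0 - 2 ^ p.1 * K0 := by
        rw [← e1]; exact_mod_cast h1
      have d2 : (k:ℤ) ∣ T + 2 ^ p'.2 * K0 - 2 ^ p'.1 * K0 := by
        rw [← e2]; exact_mod_cast h2
      have d3 := dvd_sub d2 d1
      have e3 : ((T:ℤ) + 2 ^ p'.2 * K0 - 2 ^ p'.1 * K0) - (T + 2 ^ p.2 * K0 - 2 ^ p.1 * K0)
          = Df p.1 p.2 p'.1 p'.2 * K0 := by unfold Df; ring
      rw [e3] at d3
      obtain ⟨q, hq⟩ := hK0M
      have hkM : (k:ℤ) ∣ M := by exact_mod_cast (hMs k hk).2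
      have d4 : (k:ℤ) ∣ Df p.1 p.2 p'.1 p'.2 := by
        have e4 : Df p.1 p.2 p'.1 p'.2 = Df p.1 p.2 p'.1 p'.2 * K0 -
            (Df p.1 p.2 p'.1 p'.2 * q) * M := by rw [hq]; ring
        rw [e4]
        exact dvd_sub d3 (Dvd.dvd.mul_left hkM _)
      have h5 := Int.le_of_dvd (abs_pos.2 h0) ((dvd_abs _ _).2 d4)
      have h6 : ((2 ^ (K + 2) : ℕ):ℤ) ≤ k := by exact_mod_cast (hMs k hk).1
      have h7 : ((2 ^ (K + 2) : ℕ):ℤ) = 2 * 2 ^ (K + 1) := by push_cast; rw [pow_succ]; ring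
      have h8 : (0:ℤ) < 2 ^ (K + 1) := by positivity
      linarith
    have key2 : ∀ s < m, ∀ p ∈ F, ∀ p' ∈ F,
        ¬ (M ≤ (T + 2 ^ p.2 * K0 - 2 ^ p.1 * K0) / b ^ s % b ∧
          (T + 2 ^ p.2 * K0 - 2 ^ p.1 * K0) / b ^ s % b + M + 1 ≤ b) →
        ¬ (M ≤ (T + 2 ^ p'.2 * K0 - 2 ^ p'.1 * K0) / b ^ s % b ∧
          (T + 2 ^ p'.2 * K0 - 2 ^ p'.1 * K0) / b ^ s % b + M + 1 ≤ b) → p = p' := by
      intro s hs p hp p' hp' h1 h2
      obtain ⟨a1, a2, a3, _⟩ := hF p hp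
      obtain ⟨b1, b2, b3, _⟩ := hF p' hp'
      by_contra hne
      have hne' : ¬ (p.1 = p'.1 ∧ p.2 = p'.2) := fun h => hne (Prod.ext h.1 h.2)
      have h0 := Df_ne a3 hne'
      have hab := Df_abs a1 a2 b1 b2
      have t1 : 2 ^ p.1 * K0 ≤ T := hT p.1 a1
      have t2 : 2 ^ p'.1 * K0 ≤ T := hT p'.1 b1
      have e1 : ((T + 2 ^ p.2 * K0 - 2 ^ p.1 * K0 : ℕ) : ℤ) = T + 2 ^ p.2 * K0 - 2 ^ p.1 * K0 := by
        rw [Nat.cast_sub (by omega)]; push_cast; ring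
      have e2 : ((T + 2 ^ p'.2 * K0 - 2 ^ p'.1 * K0 : ℕ) : ℤ) =
          T + 2 ^ p'.2 * K0 - 2 ^ p'.1 * K0 := by
        rw [Nat.cast_sub (by omega)]; push_cast; ring
      obtain ⟨q1, hq1⟩ := near_of_bad hMb h1
      obtain ⟨q2, hq2⟩ := near_of_bad hMb h2
      rw [e1] at hq1
      rw [e2] at hq2
      obtain ⟨q3, hq3⟩ := hK0b
      obtain ⟨q4, hq4⟩ := geo_mod (b := b) (s := s + 1) (m := m) hs
      obtain ⟨g1, g2⟩ := geo_bounds hb2 s
      set D := Df p.1 p.2 p'.1 p'.2 with hD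
      have e3 : ((T:ℤ) + 2 ^ p'.2 * K0 - 2 ^ p'.1 * K0) - (T + 2 ^ p.2 * K0 - 2 ^ p.1 * K0)
          = D * K0 := by rw [hD]; unfold Df; ring
      -- D * K0 = 4 M geo(s+1) D + Q b^(s+1)
      obtain ⟨w, hw⟩ : ∃ w : ℤ, (b:ℤ) ^ m = b ^ (s + 1) * w := by
        obtain ⟨d, hd⟩ := Nat.exists_eq_add_of_le (show s + 1 ≤ m from hs)
        exact ⟨b ^ d, by rw [hd, pow_add]⟩
      have e4 : D * K0 = 4 * M * geo b (s + 1) * D +
          (D * (4 * M * q4) + D * q3 * w) * b ^ (s + 1) := by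
        rw [hq3, hw, hq4]; push_cast; ring
      have hBpos : (0:ℤ) < b ^ s := by positivity
      have hbz : (2:ℤ) ^ (K + 5) * M ≤ b := by exact_mod_cast hb
      have hMz : (0:ℤ) < M := by exact_mod_cast hM
      have g1z : ((b:ℤ)) ^ s ≤ geo b (s + 1) := by exact_mod_cast g1
      have g2z : ((geo b (s + 1) : ℕ) : ℤ) ≤ 2 * b ^ s := by exact_mod_cast g2
      -- X := 4 M geo D  is at distance ≤ 2 M b^s of a multiple of b^(s+1)
      set X : ℤ := 4 * M * geo b (s + 1) * D with hX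
      set Q : ℤ := q2 - q1 - (D * (4 * M * q4) + D * q3 * w) with hQ
      have hnear : |X - Q * b ^ (s + 1)| ≤ 2 * (M * b ^ s) := by
        have e5 : X - Q * b ^ (s + 1) =
            ((T + 2 ^ p'.2 * K0 - 2 ^ p'.1 * K0) - q2 * b ^ (s + 1)) -
            ((T + 2 ^ p.2 * K0 - 2 ^ p.1 * K0) - q1 * b ^ (s + 1)) := by
          rw [hQ]; linarith [e3, e4]
        rw [e5]
        exact abs_diff_le hq2 hq1
      have hb1 : (b:ℤ) ^ (s + 1) = b * b ^ s := by rw [pow_succ]; ring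
      have hPe : (2:ℤ) ^ (K + 5) = 32 * 2 ^ K := by rw [pow_add]; norm_num; ring
      have hPe2 : (2:ℤ) ^ (K + 1) = 2 * 2 ^ K := by rw [pow_succ]; ring
      have hP1 : (1:ℤ) ≤ 2 ^ K := one_le_pow₀ (by norm_num)
      exact far (M := M) (b := b) (g := geo b (s + 1)) (bs := b ^ s) (b1 := b ^ (s + 1))
        (P := 2 ^ K) (D := D) (Q := Q) hMz hBpos hb1 hP1 (by rw [← hPe]; exact hbz) g1z g2z h0
        (by rw [← hPe2]; exact hab) hnear
    -- count
    have hsub : F ⊆ (Ms.biUnion fun k => F.filter fun p => k ∣ (T + 2 ^ p.2 * K0 - 2 ^ p.1 * K0)) ∪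
        ((Finset.range m).biUnion fun s => F.filter fun p =>
          ¬ (M ≤ (T + 2 ^ p.2 * K0 - 2 ^ p.1 * K0) / b ^ s % b ∧
          (T + 2 ^ p.2 * K0 - 2 ^ p.1 * K0) / b ^ s % b + M + 1 ≤ b)) := by
      intro p hp
      obtain ⟨_, _, _, h4⟩ := hF p hp
      rcases h4 with ⟨k, hk, hkd⟩ | ⟨s, hs, hsd⟩
      · refine Finset.mem_union_left _ (Finset.mem_biUnion.2 ⟨k, hk, ?_⟩)
        exact Finset.mem_filter.2 ⟨hp, hkd⟩
      · refine Finset.mem_union_right _ (Finset.mem_biUnion.2 ⟨s, Finset.mem_range.2 hs, ?_⟩)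
        exact Finset.mem_filter.2 ⟨hp, hsd⟩
    refine (Finset.card_le_card hsub).trans ((Finset.card_union_le _ _).trans ?_)
    refine Nat.add_le_add ?_ ?_
    · refine (Finset.card_biUnion_le).trans ?_
      refine (Finset.sum_le_card_nsmul Ms _ 1 ?_).trans (by simp)
      intro k hk
      refine Finset.card_le_one.2 ?_
      intro p hp p' hp'
      exact key1 k hk p (Finset.mem_filter.1 hp).1 p' (Finset.mem_filter.1 hp').1
        (Finset.mem_filter.1 hp).2 (Finset.mem_filter.1 hp').2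
    · refine (Finset.card_biUnion_le).trans ?_
      refine (Finset.sum_le_card_nsmul (Finset.range m) _ 1 ?_).trans (by simp)
      intro s hs
      refine Finset.card_le_one.2 ?_
      intro p hp p' hp'
      exact key2 s (Finset.mem_range.1 hs) p (Finset.mem_filter.1 hp).1 p' (Finset.mem_filter.1 hp').1
        (Finset.mem_filter.1 hp).2 (Finset.mem_filter.1 hp').2

end Crest.Agent.R320.Sp_461
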