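import Crest.Agent.R320.SemTop_727
import Crest.Agent.R320.SemJ_832
import Crest.Agent.R320.Fib_81
import Crest.Agent.R320.G1_256
import Crest.Agent.R320.Sp_461
import Crest.Agent.R320.ExactR_237
import Crest.Agent.R320.Univ_294

/-!
Row 320, final joint: every fibre of a morphism into a finite monoid has generalized star
height at most three.
-/

set_option autoImplicit false

namespace Crest.Agent.R320.Fin_461

open Crest.RegLang Crest.Agent.R320.Hk_851

/-- right translation module -/
def tr {S : Type} [Monoid S] (v : S → ZMod 2) (s : S) : S → ZMod 2 := fun t => v (s * t)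

theorem fin (α S : Type) [Finite α] [Monoid S] [Finite S] (φ : α → S) (s : S) :
    HL 3 ({w | (w.map φ).prod = s} : Language α) := by
  classical
  haveI : Fintype S := Fintype.ofFinite S
  let V : Type := S → ZMod 2
  haveI : Fintype V := inferInstanceAs (Fintype (S → ZMod 2))
  let act : V → S → V := tr
  have hadd : ∀ a b s, act (a + b) s = act a s + act b s := fun a b s => rfl
  have hone : ∀ v, act v 1 = v := fun v => by funext t; show v (1 * t) = v t; rw [one_mul]
  have hmul : ∀ v s t, act v (s * t) = act (act v s) t := fun v s t => by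
    funext u; show v (s * t * u) = v (s * (t * u)); rw [mul_assoc]
  have hfaith : ∀ s t, (∀ v, act v s = act v t) → s = t := fun s t h => by
    have h1 := congrFun (h (fun u => if u = s then 1 else 0)) 1
    by_contra hne
    have h2 : ((if s * 1 = s then 1 else 0) : ZMod 2) = if t * 1 = s then 1 else 0 := h1
    rw [mul_one, mul_one, if_pos rfl, if_neg (fun h => hne h.symm)] at h2
    exact one_ne_zero h2
  obtain ⟨m, r, hg1⟩ := Crest.Agent.R320.G1_256.g1 S V act
  obtain ⟨K, hK⟩ := Crest.Agent.R320.ExactR_237.exact_gadget α S V φ act (2 * (r + m) + 2)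
  obtain ⟨Ms, M, hMs1, hMs2, hM, hg⟩ := hg1 (2 ^ (K + 2))
  obtain ⟨b, hb1, hb2, hb3⟩ : ∃ b : ℕ, 2 ^ (K + 5) * M ≤ b ∧ 4 * M + 4 < b ∧ Nat.Coprime b M := by
    refine ⟨(2 ^ (K + 5) + 8) * M + 1, by nlinarith, ?_, ?_⟩
    · have : 0 < 2 ^ (K + 5) := Nat.two_pow_pos _
      nlinarith
    · simp
  obtain ⟨lam, rho, nu1, g_len, g_sound, g_comp, g_key⟩ := hg b hb2 hb3 α φ
  obtain ⟨c, c1, c2, c3⟩ := Sp_461.spoil K (b ^ m) m Ms M b hM
    (fun k hk => ⟨(hMs2 k hk).1.le, (hMs2 k hk).2.2⟩) hb1 hb3
  have cmono : ∀ i j, i < j → c i < c j := fun i j hij => by have := c1 i j hij; omega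
  obtain ⟨lam2, rho2, nu2, e1, e2⟩ := hK c (fun i j hij _ => cmono i j hij)
  set N := b ^ m with hN
  set Lam := c K with hLam
  have cle : ∀ k < K, c k ≤ Lam := fun k hk => (cmono k K hk).le
  obtain ⟨n, G, B, Wo, hLW, hgap, -, -, hfree⟩ :=
    LWallAll_922.walls_all_left α (2 * Lam + 2 * N + 1) (by omega)
  let D : SemJ_832.Dat α S V :=
    { phi := fun w => (w.map φ).prod
      act := act
      Wo := Wo
      n := n
      W := 2 * Lam + 2 * N + 1
      z := Lam + n + 2 * N + 2 * Lam + 1
      p0 := Lam
      N := N
      K := K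
      C0 := r + m
      Lam := Lam
      BadT := Sp_461.Bad Ms M m b
      lam := lam
      rho := rho
      nu1 := nu1
      c := c
      lam2 := lam2
      rho2 := fun k Q => rho2 k Q 1
      nu2 := fun Q => nu2 Q 1
      hloc := hLW.app
      hgap := fun X t t' h1 h2 h3 h4 => by
        have := hgap X t t' h1 h2 h3 h4
        omega
      g_len := fun p v h => (g_len p v h).le
      g_sound := g_sound
      g_comp := fun u _ hB v => by
        refine g_comp u (fun k hk hd => hB (Or.inl ⟨k, hk, hd⟩)) (fun j hj => ?_) v
        by_contra h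
        exact hB (Or.inr ⟨j, hj, h⟩)
      e_sound := fun k hk P Q v b' hP h1 h2 => by
        have := e1 k hk P Q 1 v b' hP h1 h2
        rw [mul_one] at this
        exact this
      e_comp := fun u v hu => e2 u 1 v hu
      c_le := cle
      rulerE := fun i _ j _ i' _ j' _ hij hij' h1 h2 => by
        by_contra hne
        have h3 := c2 i j i' j' hij hne
        have h4 : |((c i : ℤ) - c j) - (c i' - c j')| ≤ 2 * N := by
          rw [abs_le]
          constructor <;> omega
        push_cast [hN] at h3 h4
        have h5 : (0:ℤ) ≤ (b:ℤ) ^ m := by positivity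
        linarith
      rulerB := fun T _ hT => by
        have h3 := c3 T (fun i hi => (cle i hi).trans hT)
          ((((Finset.range K) ×ˢ (Finset.range K)).filter
            (fun ab : ℕ × ℕ => ab.1 ≠ ab.2 ∧ Sp_461.Bad Ms M m b (T + c ab.1 - c ab.2))).image
              Prod.swap) (by
            intro p hp
            obtain ⟨q, hq, rfl⟩ := Finset.mem_image.1 hp
            obtain ⟨hq1, hq2, hq3⟩ := Finset.mem_filter.1 hq
            obtain ⟨hq4, hq5⟩ := Finset.mem_product.1 hq1
            exact ⟨Finset.mem_range.1 hq5, Finset.mem_range.1 hq4, fun h => hq2 h.symm, hq3⟩)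
        rw [Finset.card_image_of_injective _ Prod.swap_injective] at h3
        refine h3.trans ?_
        omega
      h_p0 := le_rfl
      z_pos := by omega
      h_z := by omega
      h_W := by omega }
  let D' : SemTop_727.Sch α V := { XX := D.Z, T := D.T, L1 := D.L1, L2 := D.L2 }
  have hphi : ∀ u v : List α, ((u ++ v).map φ).prod = (u.map φ).prod * (v.map φ).prod :=
    fun u v => by rw [List.map_append, List.prod_append]
  have hz : 0 < D.z := D.z_pos
  have hlen1 : ∀ x, ∀ P ∈ D.L1 x, P.length ≤ Lam + N := fun x P hP => by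
    have h1 := D.g_len _ _ hP.2
    rw [List.length_drop] at h1
    have h2 : P.length - Lam ≤ N := h1
    omega
  refine SemTop_727.top (k := 1) act hadd hone hmul hfaith φ
    (fun X => act (nu2 (X.take Lam) 1) ((X.drop Lam).map φ).prod + nu1 (X.drop Lam))
    D' ?_ (Fib_81.XX_pcode hz) ?_ ?_ ?_ ?_ ?_ s
  · -- zone map
    intro v X
    show act (act v ((X.take Lam).map φ).prod + nu2 (X.take Lam) 1) ((X.drop Lam).map φ).prod
      + nu1 (X.drop Lam) = _
    rw [hadd, ← hmul, ← hphi, List.take_append_drop, add_assoc]
  · -- fibres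
    intro x y
    refine Fib_81.HL_blocks (z := D.z) φ (Lam + N) (M * N) ?_ hLW hfree _ (fun X hX => hX.1) ?_
    · exact Nat.mul_pos hM (pow_pos (by omega) m)
    · intro X hX Y hY h1 h2 h3 hXL
      refine ⟨hY, ?_⟩
      have hTX : D.T x X = y := hXL.2
      have hXl : Lam + n + 2 * N + 2 * Lam + 1 ≤ X.length := hX.1
      have hYl : Lam + n + 2 * N + 2 * Lam + 1 ≤ Y.length := hY.1
      have t1 : X.take Lam = Y.take Lam := by
        have := congrArg (List.take Lam) h1
        rwa [List.take_take, List.take_take, min_eq_left (by omega)] at this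
      have t2 : (X.drop Lam).take N = (Y.drop Lam).take N := by
        have := congrArg (List.drop Lam) h1
        rwa [List.drop_take, List.drop_take, Nat.add_sub_cancel_left] at this
      have t3 : (((X.drop Lam).drop N).map φ).prod = (((Y.drop Lam).drop N).map φ).prod := by
        rw [List.drop_drop, List.drop_drop]
        exact h2
      have t4 : ((X.drop Lam).map φ).prod = ((Y.drop Lam).map φ).prod := by
        rw [← List.take_append_drop N (X.drop Lam), ← List.take_append_drop N (Y.drop Lam),
          hphi, hphi, t2, t3]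
      have t5 : (X.drop Lam).length % (M * N) = (Y.drop Lam).length % (M * N) := by
        rw [List.length_drop, List.length_drop]
        have h4 : X.length ≡ Y.length [MOD M * N] := h3
        have h5 : X.length - Lam + Lam ≡ Y.length - Lam + Lam [MOD M * N] := by
          rw [Nat.sub_add_cancel (by omega), Nat.sub_add_cancel (by omega)]; exact h4
        exact Nat.ModEq.add_right_cancel' _ h5
      have t6 : nu1 (X.drop Lam) = nu1 (Y.drop Lam) :=
        (g_key _ _ (by rw [List.length_drop]; omega) (by rw [List.length_drop]; omega)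
          t2 t5 t3).2
      show act (act x ((Y.take Lam).map φ).prod + nu2 (Y.take Lam) 1) ((Y.drop Lam).map φ).prod
        + nu1 (Y.drop Lam) = y
      rw [← t1, ← t4, ← t6]
      exact hTX
  · intro x
    exact (List.finite_length_le α (Lam + N)).subset fun P hP => hlen1 x P hP
  · intro x
    refine (List.finite_length_le α Lam).subset fun P hP => ?_
    obtain ⟨k, hk, hPk, -⟩ := hP
    show P.length ≤ Lam
    rw [hPk]; exact cle k hk
  · intro X1 h1 X2 h2 x
    exact D.hC2 h1 h2 x
  · intro s
    exact (Fib_81.HL_tail_prod (z := D.z) φ hLW hfree s).mono (by norm_num)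

theorem final (α : Type*) [Finite α] (L : Language α) (hL : L.IsRegular) :
    ∃ e : Crest.RegLang.GRegExp α, e.height ≤ 3 ∧ e.lang = L :=
  Univ_294.s0495_of_types (fun β _ S _ _ φ s => fin β S φ s) α L hL

end Crest.Agent.R320.Fin_461

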