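import Crest.Agent.R320.Top_517

/-!
# Row 320: from the block languages to the product languages (helper517)
-/

set_option autoImplicit false

namespace Crest.Agent.R320.Fin_517

open Crest.RegLang Crest.Agent.R320.Hk_851 Crest.Agent.R320.Blk_517

universe u

variable {α : Type u} {V S : Type*} {k : ℕ}

/-- parse of a word in blocks and a rest without block prefix -/
theorem exists_parse {XX : Set (List α)} (h0 : [] ∉ XX) (w : List α) :
    ∃ (Ms : List (List α)) (E : List α), (∀ X ∈ Ms, X ∈ XX) ∧ (∀ X ∈ XX, ¬ X <+: E) ∧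
      w = Ms.flatten ++ E := by
  induction hn : w.length using Nat.strong_induction_on generalizing w with
  | _ n ih =>
    by_cases h : ∃ X ∈ XX, X <+: w
    · obtain ⟨X, hX, w', rfl⟩ := h
      have hl : 0 < X.length := List.length_pos_of_ne_nil fun h => h0 (h ▸ hX)
      rw [List.length_append] at hn
      obtain ⟨Ms, E, h1, h2, h3⟩ := ih w'.length (by omega) w' rfl
      refine ⟨X :: Ms, E, ?_, h2, ?_⟩
      · intro Z hZ
        rcases List.mem_cons.1 hZ with rfl | hZ
        · exact hX
        · exact h1 Z hZ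
      · rw [List.flatten_cons, List.append_assoc, ← h3]
    · push Not at h
      exact ⟨[], w, by simp, h, by simp⟩

/-- product of a word -/
def ev [Monoid S] (φ : α → S) (w : List α) : S := (w.map φ).prod

theorem ev_append [Monoid S] (φ : α → S) (u w : List α) : ev φ (u ++ w) = ev φ u * ev φ w := by
  simp [ev]

/-- words over the blocks with value `s1` -/
def MM [Monoid S] (φ : α → S) (XX : Set (List α)) (s1 : S) : Language α :=
  {w | ∃ Ms : List (List α), (∀ X ∈ Ms, X ∈ XX) ∧ w = Ms.flatten ∧ ev φ w = s1}

/-- rests with value `s2` -/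
def RR [Monoid S] (φ : α → S) (XX : Set (List α)) (s2 : S) : Language α :=
  {E | (∀ X ∈ XX, ¬ X <+: E) ∧ ev φ E = s2}

open Classical in
theorem final_of_BL [Monoid S] [Finite S] [AddCommGroup V] [Finite V] (φ : α → S)
    (act : V → S → V) (hadd : ∀ v w s, act (v + w) s = act v s + act w s)
    (hone : ∀ v, act v 1 = v) (hmul : ∀ v s t, act (act v s) t = act v (s * t))
    (v0 : V) (hinj : Function.Injective (act v0))
    {XX : Set (List α)} (hXX : PCode XX) {T : V → List α → V} (nu : List α → V)
    (hT : ∀ v X, T v X = act v (ev φ X) + nu X)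
    (hBL : ∀ v v', HL k (BL XX T v v'))
    (hRest : ∀ s, HL k (RR φ XX s)) (s : S) :
    HL k ({w | ev φ w = s} : Language α) := by
  have hrun : ∀ (Ms : List (List α)) (v : V), runB T v Ms = act v (ev φ Ms.flatten) +
      runB T 0 Ms := by
    intro Ms
    have hact0 : ∀ s, act 0 s = 0 := fun s => by
      have := hadd 0 0 s
      rw [add_zero] at this
      exact left_eq_add.1 this
    induction Ms with
    | nil => intro v; simp [ev, hone]
    | cons X Ms ih =>
      intro v
      rw [runB_cons, runB_cons, ih (T v X), ih (T 0 X), hT, hT, hact0, zero_add, hadd, hmul,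
        List.flatten_cons, ev_append, add_assoc]
  have hM : ∀ s1, HL k (MM φ XX s1) := by
    intro s1
    refine (HL.iUnion (L := fun c : V => ({w | w ∈ BL XX T 0 c ∧
      w ∈ BL XX T v0 (act v0 s1 + c)} : Language α)) fun c =>
      (hBL 0 c).setOf_and (hBL v0 _)).congr fun w => ?_
    constructor
    · rintro ⟨Ms, h1, rfl, h3⟩
      refine ⟨runB T 0 Ms, ⟨Ms, h1, rfl, rfl⟩, ⟨Ms, h1, rfl, ?_⟩⟩
      rw [hrun Ms v0, h3]
    · rintro ⟨c, ⟨Ms, h1, h2, h3⟩, ⟨Ns, k1, k2, k3⟩⟩
      have hMN : Ms = Ns := hXX.unique Ms Ns h1 k1 (h2 ▸ k2)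
      subst hMN
      refine ⟨Ms, h1, h2, ?_⟩
      rw [hrun Ms v0, h3] at k3
      have := add_right_cancel k3
      rw [h2]
      exact hinj this
  refine (HL.iUnion (L := fun s1 : S => ({w | ∃ s2, w ∈ (if s1 * s2 = s then
    MM φ XX s1 * RR φ XX s2 else (0 : Language α))} : Language α)) fun s1 => ?_).congr
      fun w => ?_
  · refine (HL.iUnion (L := fun s2 : S => (if s1 * s2 = s then
      MM φ XX s1 * RR φ XX s2 else (0 : Language α))) fun s2 => ?_).congr fun w => Iff.rfl
    by_cases h : s1 * s2 = s
    · rw [if_pos h]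
      exact (hM s1).mul (hRest s2)
    · rw [if_neg h]
      exact HL.zero
  · constructor
    · intro hw
      obtain ⟨Ms, E, h1, h2, h3⟩ := exists_parse hXX.1 w
      refine ⟨ev φ Ms.flatten, ev φ E, ?_⟩
      have hs : ev φ Ms.flatten * ev φ E = s := by
        rw [← ev_append, ← h3]; exact hw
      rw [if_pos hs]
      exact Language.mem_mul.2 ⟨Ms.flatten, ⟨Ms, h1, rfl, rfl⟩, E, ⟨h2, rfl⟩, h3.symm⟩
    · rintro ⟨s1, s2, hw⟩
      by_cases h : s1 * s2 = s
      · rw [if_pos h] at hw
        obtain ⟨a, ⟨Ms, h1, h2, h3⟩, b, ⟨h4, h5⟩, rfl⟩ := Language.mem_mul.1 hw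
        change ev φ (a ++ b) = s
        rw [ev_append, h3, h5, h]
      · rw [if_neg h] at hw
        exact hw.elim

/-- the faithful token system: functions `S -> ZMod 2`, pushed along right multiplication -/
def pact [Monoid S] [Fintype S] [DecidableEq S] (v : S → ZMod 2) (s : S) : S → ZMod 2 :=
  fun y => ∑ x : S, if x * s = y then v x else 0

theorem pact_add [Monoid S] [Fintype S] [DecidableEq S] (v w : S → ZMod 2) (s : S) :
    pact (v + w) s = pact v s + pact w s := by
  funext y
  simp only [pact, Pi.add_apply, ← Finset.sum_add_distrib]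
  refine Finset.sum_congr rfl fun x _ => ?_
  split_ifs <;> simp

theorem pact_one [Monoid S] [Fintype S] [DecidableEq S] (v : S → ZMod 2) : pact v 1 = v := by
  funext y
  simp [pact]

theorem pact_mul [Monoid S] [Fintype S] [DecidableEq S] (v : S → ZMod 2) (s t : S) :
    pact (pact v s) t = pact v (s * t) := by
  funext y
  simp only [pact]
  have : ∀ z : S, (if z * t = y then ∑ x : S, (if x * s = z then v x else 0) else 0) =
      ∑ x : S, (if x * s = z then (if z * t = y then v x else 0) else 0) := by
    intro z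
    split_ifs with h
    · rfl
    · simp
  rw [Finset.sum_congr rfl fun z _ => this z, Finset.sum_comm]
  refine Finset.sum_congr rfl fun x _ => ?_
  rw [Finset.sum_ite_eq Finset.univ (x * s)]
  simp [mul_assoc]

theorem pact_single [Monoid S] [Fintype S] [DecidableEq S] (s : S) :
    pact (Pi.single (1 : S) (1 : ZMod 2)) s = Pi.single s 1 := by
  funext y
  simp only [pact]
  rw [Finset.sum_eq_single (1 : S)]
  · by_cases h : y = s
    · subst h; simp
    · rw [one_mul, if_neg (fun h' => h h'.symm), Pi.single_eq_of_ne h]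
  · intro x _ hx
    rw [Pi.single_eq_of_ne hx]
    simp
  · intro h; exact (h (Finset.mem_univ _)).elim

theorem pact_inj [Monoid S] [Fintype S] [DecidableEq S] :
    Function.Injective (pact (Pi.single (1 : S) (1 : ZMod 2))) := by
  intro s t h
  rw [pact_single, pact_single] at h
  by_contra hne
  have := congrFun h s
  rw [Pi.single_eq_same, Pi.single_eq_of_ne hne] at this
  exact one_ne_zero this

end Crest.Agent.R320.Fin_517
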