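import Mathlib

/-! Row 320, TEAM U leaf U4 (638 #13273): a ruler for which every thin condition is met by few pairs. -/

set_option autoImplicit false

namespace Crest.Agent.R320.Spoil_462

def PP (R M0 M1 l : ℕ) : ℕ := (R*M0) * (R*M1)^l

def Bad (R M0 M1 m rho : ℕ) (Ms Ms1 : Finset ℕ) (n : ℕ) : Prop :=
  (n % (R*M0) < M0 ∨ R*M0 ≤ n % (R*M0) + M0) ∨ (∃ k ∈ Ms, k ∣ n) ∨
  ∃ l < m, ((n / PP R M0 M1 l) % (R*M1) < M1 ∨ R*M1 ≤ (n / PP R M0 M1 l) % (R*M1) + M1) ∨
    rho ≤ (Ms1.filter (· ∣ n / PP R M0 M1 l)).card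

/-- cyclic nearness to zero -/
def Near (Q S Y : ℕ) : Prop := Y % Q < S ∨ Q ≤ Y % Q + S

theorem two_pow_pair {a b c d : ℕ} (hab : a ≠ b)
    (h : (2:ℤ)^a - 2^b - 2^c + 2^d = 0) : a = c ∧ b = d := by
  have h1 : 2^a + 2^d = 2^b + 2^c := by
    have : (2:ℤ)^a + 2^d = 2^b + 2^c := by linarith
    exact_mod_cast this
  -- {a,d} = {b,c}
  have key : ∀ p q r s : ℕ, 2^p + 2^q = 2^r + 2^s → p ≤ q → r ≤ s → p = r ∧ q = s := by
    intro p q r s hpq h1 h2
    have hlt : ∀ u v : ℕ, u ≤ v → ∀ w, w < u → ¬ (2^(w+1) ∣ 2^w) → (2^(w+1) ∣ 2^u + 2^v) := by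
      intro u v huv w hw _
      exact Dvd.dvd.add (pow_dvd_pow 2 (by omega)) (pow_dvd_pow 2 (by omega))
    have hp : ∀ p q r s : ℕ, 2^p + 2^q = 2^r + 2^s → p ≤ q → r ≤ s → ¬ p < r := by
      intro p q r s hpq h1 h2 hlt'
      rcases Nat.lt_or_ge p q with h3 | h3
      · -- 2^(p+1) divides rhs and 2^q, not 2^p
        have hr : 2^(p+1) ∣ 2^r + 2^s :=
          Dvd.dvd.add (pow_dvd_pow 2 (by omega)) (pow_dvd_pow 2 (by omega))
        have hq : 2^(p+1) ∣ 2^q := pow_dvd_pow 2 (by omega)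
        rw [← hpq] at hr
        have := (Nat.dvd_add_left hq).1 hr
        have := Nat.le_of_dvd (by positivity) this
        have : 2^p < 2^(p+1) := Nat.pow_lt_pow_right (by norm_num) (by omega)
        omega
      · have hpq' : p = q := le_antisymm h1 h3
        subst hpq'
        have e1 : 2^p + 2^p = 2^(p+1) := by ring
        have : 2^(p+1) ≤ 2^r := Nat.pow_le_pow_right (by norm_num) (by omega)
        have : 0 < 2^s := by positivity
        omega
    have h3 : p = r := by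
      have := hp p q r s hpq h1 h2
      have := hp r s p q hpq.symm h2 h1
      omega
    subst h3
    have h4 : 2^q = 2^s := by omega
    exact ⟨rfl, Nat.pow_right_injective (le_refl 2) h4⟩
  rcases Nat.le_total a d with h2 | h2
  · rcases Nat.le_total b c with h3 | h3
    · have := key a d b c h1 h2 h3
      exact absurd this.1 hab
    · have := key a d c b (by omega) h2 h3
      exact ⟨this.1, this.2.symm⟩
  · rcases Nat.le_total b c with h3 | h3
    · have := key d a b c (by omega) h2 h3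
      exact ⟨this.2, this.1.symm⟩
    · have := key d a c b (by omega) h2 h3
      exact absurd this.2 hab


theorem near_int {Q S Y : ℕ} (hQ : 0 < Q) (hS : 0 < S) (h : Near Q S Y) :
    ∃ t : ℤ, -(S:ℤ) ≤ (Y:ℤ) - Q * t ∧ (Y:ℤ) - Q * t < S := by
  have e : (Y:ℤ) = (Q:ℤ) * ((Y / Q : ℕ) : ℤ) + ((Y % Q : ℕ) : ℤ) := by
    exact_mod_cast (Nat.div_add_mod Y Q).symm
  rcases h with h | h
  · refine ⟨((Y / Q : ℕ) : ℤ), ?_, ?_⟩
    · have : (0:ℤ) ≤ ((Y % Q : ℕ) : ℤ) := by positivity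
      have : (0:ℤ) ≤ (S:ℤ) := by positivity
      linarith
    · have : ((Y % Q : ℕ) : ℤ) < S := by exact_mod_cast h
      linarith
  · refine ⟨((Y / Q : ℕ) : ℤ) + 1, ?_, ?_⟩
    · have : (Q:ℤ) ≤ ((Y % Q : ℕ) : ℤ) + S := by exact_mod_cast h
      nlinarith
    · have : ((Y % Q : ℕ) : ℤ) < Q := by exact_mod_cast Nat.mod_lt Y hQ
      have : (0:ℤ) < (S:ℤ) := by exact_mod_cast hS
      nlinarith


/-- the ruler -/
def xr (N : ℕ) (sc : ℕ → ℕ) (a : ℕ) : ℕ := 16 * 2^a * ∑ i ∈ Finset.range N, sc i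

theorem sc_dvd {sc : ℕ → ℕ} (hd : ∀ i, sc i ∣ sc (i+1)) {i j : ℕ} (h : i ≤ j) : sc i ∣ sc j := by
  induction j, h using Nat.le_induction with
  | base => exact dvd_rfl
  | succ n _ ih => exact ih.trans (hd n)

theorem sum_le {K : ℕ} {sc : ℕ → ℕ} (hg : ∀ i, 2^(K+10) * sc i ≤ sc (i+1)) (j : ℕ) :
    ∑ i ∈ Finset.range (j+1), sc i ≤ 2 * sc j := by
  induction j with
  | zero => simp; omega
  | succ n ih =>
    rw [Finset.sum_range_succ]
    have h1 := hg n
    have h2 : 2 ≤ 2^(K+10) := by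
      calc 2 = 2^1 := by norm_num
        _ ≤ 2^(K+10) := Nat.pow_le_pow_right (by norm_num) (by omega)
    have h3 : 2 * sc n ≤ 2^(K+10) * sc n := Nat.mul_le_mul_right _ h2
    omega

theorem sum_split {N j Q : ℕ} {sc : ℕ → ℕ} (hd : ∀ i, sc i ∣ sc (i+1)) (hj : j < N)
    (hQd : Q ∣ sc (j+1)) :
    ∃ B, ∑ i ∈ Finset.range N, sc i = (∑ i ∈ Finset.range (j+1), sc i) + Q * B := by
  have h1 : Q ∣ ∑ i ∈ Finset.Ico (j+1) N, sc i := by
    apply Finset.dvd_sum
    intro i hi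
    rw [Finset.mem_Ico] at hi
    exact hQd.trans (sc_dvd hd hi.1)
  obtain ⟨B, hB⟩ := h1
  refine ⟨B, ?_⟩
  rw [← hB, Finset.sum_range_add_sum_Ico _ (by omega)]

theorem arith (D A P S Q t r : ℤ) (hD : |D| ≤ 2 * P) (hA1 : S ≤ A) (hA2 : A ≤ 2 * S)
    (hS : 0 < S) (hP : 1 ≤ P) (hQ : 1024 * P * S ≤ Q) (hr : |r| < 2 * S)
    (h : 16 * D * A = Q * t + r) : D = 0 := by
  have hPS : S ≤ P * S := le_mul_of_one_le_left hS.le hP
  have hA0 : 0 ≤ A := by linarith
  have e : |16 * D * A| = 16 * (|D| * A) := by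
    rw [abs_mul, abs_mul, abs_of_nonneg (by norm_num : (0:ℤ) ≤ 16), abs_of_nonneg hA0]
    ring
  have h1 : |D| * A ≤ (2 * P) * (2 * S) := mul_le_mul hD hA2 hA0 (by linarith)
  have h16 : |16 * D * A| ≤ 64 * (P * S) := by
    rw [e]
    have : (2 * P) * (2 * S) = 4 * (P * S) := by ring
    linarith
  have h9 : 1024 * (P * S) ≤ Q := by rw [← mul_assoc]; exact hQ
  have hQ0 : 0 ≤ Q := by linarith
  have ht : t = 0 := by
    by_contra hne
    have h2 : 1 ≤ |t| := Int.one_le_abs hne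
    have h3 : |Q * t| = Q * |t| := by rw [abs_mul, abs_of_nonneg hQ0]
    have h4 : Q * t = 16 * D * A - r := by linarith
    have h5 : |Q * t| ≤ 64 * (P * S) + 2 * S := by
      rw [h4]
      calc |16 * D * A - r| ≤ |16 * D * A| + |r| := abs_sub _ _
        _ ≤ _ := by linarith
    have h6 : Q ≤ Q * |t| := le_mul_of_one_le_right hQ0 h2
    linarith
  rw [ht] at h
  have h7 : |16 * D * A| < 2 * S := by
    rw [h]; simpa using hr
  by_contra hne
  have h8 : 1 ≤ |D| := Int.one_le_abs hne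
  have h10 : A ≤ |D| * A := le_mul_of_one_le_left hA0 h8
  linarith

theorem core {K N j Q : ℕ} {sc : ℕ → ℕ} (hd : ∀ i, sc i ∣ sc (i+1))
    (hA2 : ∑ i ∈ Finset.range (j+1), sc i ≤ 2 * sc j) (hj : j < N) (hQd : Q ∣ sc (j+1))
    (hQ : 2^(K+10) * sc j ≤ Q) (hpos : 0 < sc j)
    {a b c d : ℕ} (ha : a < K) (hb : b < K) (hc : c < K) (hdd : d < K)
    (r : ℤ) (t : ℤ) (hr : |r| < 2 * sc j)
    (h : ((xr N sc a : ℤ) - xr N sc b) - (xr N sc c - xr N sc d) = Q * t + r) :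
    (2:ℤ)^a - 2^b - 2^c + 2^d = 0 := by
  obtain ⟨B, hB⟩ := sum_split (N := N) hd hj hQd
  have hA1 : sc j ≤ ∑ i ∈ Finset.range (j+1), sc i :=
    Finset.single_le_sum (f := sc) (fun _ _ => Nat.zero_le _) (Finset.mem_range.2 (by omega))
  set A := ∑ i ∈ Finset.range (j+1), sc i with hAdef
  set D : ℤ := (2:ℤ)^a - 2^b - 2^c + 2^d with hDdef
  have hx : ∀ e, (xr N sc e : ℤ) = 16 * 2^e * ((A:ℤ) + Q * B) := by
    intro e
    unfold xr
    rw [hB]
    push_cast
    ring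
  have h1 : 16 * D * (A:ℤ) = Q * (t - 16 * D * B) + r := by
    rw [hx a, hx b, hx c, hx d] at h
    have : 16 * D * ((A:ℤ) + Q * B) = Q * t + r := by
      rw [← h, hDdef]; ring
    linear_combination this
  set t' : ℤ := t - 16 * D * B with ht'
  set P : ℤ := (2:ℤ)^K with hPdef
  have hP1 : 1 ≤ P := one_le_pow₀ (by norm_num)
  have hb2 : ∀ e, e < K → (2:ℤ)^e ≤ P := fun e he => pow_le_pow_right₀ (by norm_num) he.le
  have hb0 : ∀ e : ℕ, (0:ℤ) < (2:ℤ)^e := fun e => by positivity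
  have hDabs : |D| ≤ 2 * P := by
    rw [abs_le]
    have := hb2 a ha; have := hb2 b hb; have := hb2 c hc; have := hb2 d hdd
    have := hb0 a; have := hb0 b; have := hb0 c; have := hb0 d
    constructor <;> (rw [hDdef]; linarith)
  have hS0 : (0:ℤ) < (sc j : ℤ) := by exact_mod_cast hpos
  have hA1' : (sc j : ℤ) ≤ A := by exact_mod_cast hA1
  have hA2' : (A:ℤ) ≤ 2 * sc j := by exact_mod_cast hA2
  have hQ' : 1024 * P * (sc j : ℤ) ≤ Q := by
    have : (2:ℤ)^(K+10) * sc j ≤ Q := by exact_mod_cast hQ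
    have e : (2:ℤ)^(K+10) = 1024 * P := by rw [hPdef, pow_add]; ring
    rw [e] at this; exact this
  exact arith D A P (sc j) Q t' r hDabs hA1' hA2' hS0 hP1 hQ' hr h1

theorem one_pair {K N j Q : ℕ} {sc : ℕ → ℕ} (hd : ∀ i, sc i ∣ sc (i+1))
    (hg : ∑ i ∈ Finset.range (j+1), sc i ≤ 2 * sc j) (hj : j < N) (hQd : Q ∣ sc (j+1))
    (hQ : 2^(K+10) * sc j ≤ Q) (hpos : 0 < sc j) (T : ℕ)
    (hT : ∀ e, e < K → xr N sc e ≤ T)
    {a b c d : ℕ} (ha : a < K) (hb : b < K) (hc : c < K) (hdd : d < K) (hab : a ≠ b)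
    (h1 : Near Q (sc j) (T + xr N sc a - xr N sc b))
    (h2 : Near Q (sc j) (T + xr N sc c - xr N sc d)) : a = c ∧ b = d := by
  have hQ0 : 0 < Q := lt_of_lt_of_le (Nat.mul_pos (by positivity) hpos) hQ
  obtain ⟨t1, l1, u1⟩ := near_int hQ0 hpos h1
  obtain ⟨t2, l2, u2⟩ := near_int hQ0 hpos h2
  have e1 : ((T + xr N sc a - xr N sc b : ℕ) : ℤ) = (T:ℤ) + xr N sc a - xr N sc b := by
    have := hT b hb
    rw [Nat.cast_sub (by omega)]; push_cast; ring
  have e2 : ((T + xr N sc c - xr N sc d : ℕ) : ℤ) = (T:ℤ) + xr N sc c - xr N sc d := by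
    have := hT d hdd
    rw [Nat.cast_sub (by omega)]; push_cast; ring
  rw [e1] at l1 u1
  rw [e2] at l2 u2
  apply two_pow_pair hab
  refine core hd hg hj hQd hQ hpos ha hb hc hdd
    (((T:ℤ) + xr N sc a - xr N sc b - Q * t1) - ((T:ℤ) + xr N sc c - xr N sc d - Q * t2))
    (t1 - t2) ?_ (by ring)
  rw [abs_lt]
  constructor <;> linarith


/-- ratios -/
def qq (Mp R M0 M1 : ℕ) : ℕ → ℕ
  | 0 => Mp
  | 1 => M0
  | (i+2) => if i % 2 = 0 then R else M1

def sc (Mp R M0 M1 : ℕ) : ℕ → ℕ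
  | 0 => 1
  | (i+1) => sc Mp R M0 M1 i * qq Mp R M0 M1 i

theorem sc_odd (Mp R M0 M1 l : ℕ) :
    sc Mp R M0 M1 (2*l+3) = Mp * PP R M0 M1 l ∧ sc Mp R M0 M1 (2*l+4) = Mp * PP R M0 M1 l * M1 := by
  induction l with
  | zero =>
    have e : sc Mp R M0 M1 (2*0+3) = Mp * PP R M0 M1 0 := by
      show 1 * Mp * M0 * R = _
      simp only [PP, pow_zero]; ring
    refine ⟨e, ?_⟩
    show sc Mp R M0 M1 (2*0+3) * M1 = _
    rw [e]
  | succ l ih =>
    have e1 : sc Mp R M0 M1 (2*(l+1)+3) = sc Mp R M0 M1 (2*l+4) * qq Mp R M0 M1 (2*l+4) := rfl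
    have e2 : sc Mp R M0 M1 (2*(l+1)+4) = sc Mp R M0 M1 (2*(l+1)+3) * qq Mp R M0 M1 (2*l+5) := rfl
    have q1 : qq Mp R M0 M1 (2*l+4) = R := by
      show (if (2*l+2) % 2 = 0 then R else M1) = R
      rw [if_pos (by omega)]
    have q2 : qq Mp R M0 M1 (2*l+5) = M1 := by
      show (if (2*l+3) % 2 = 0 then R else M1) = M1
      rw [if_neg (by omega)]
    have e3 : sc Mp R M0 M1 (2*(l+1)+3) = Mp * PP R M0 M1 (l+1) := by
      rw [e1, q1, ih.2]; simp only [PP, pow_succ]; ring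
    exact ⟨e3, by rw [e2, q2, e3]⟩

theorem card_le_one_pair {K : ℕ} (p : ℕ × ℕ → Prop) [DecidablePred p]
    (h : ∀ a b c d, a < K → b < K → c < K → d < K → a ≠ b → c ≠ d → p (a,b) → p (c,d) →
      a = c ∧ b = d) :
    ((Finset.range K ×ˢ Finset.range K).filter (fun ab => ab.1 ≠ ab.2 ∧ p ab)).card ≤ 1 := by
  rw [Finset.card_le_one]
  rintro ⟨a, b⟩ h1 ⟨c, d⟩ h2
  simp only [Finset.mem_filter, Finset.mem_product, Finset.mem_range] at h1 h2
  have := h a b c d h1.1.1 h1.1.2 h2.1.1 h2.1.2 h1.2.1 h2.2.1 h1.2.2 h2.2.2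
  rw [this.1, this.2]


/-- digit form (lead #13673) -/
def BadD (M b m : ℕ) (Ms : Finset ℕ) (n : ℕ) : Prop :=
  (∃ k ∈ Ms, k ∣ n) ∨ ∃ j < m, ¬ (M ≤ n / b^j % b ∧ n / b^j % b + M + 1 ≤ b)

def sd (M b m N1 : ℕ) : ℕ → ℕ
  | 0 => 1
  | (i+1) => M * b^i * (N1+1)^(i+1-m)

theorem sd_dvd (M b m N1 i : ℕ) : sd M b m N1 i ∣ sd M b m N1 (i+1) := by
  cases i with
  | zero => exact one_dvd _
  | succ i =>
    show M * b^i * (N1+1)^(i+1-m) ∣ M * b^(i+1) * (N1+1)^(i+1+1-m)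
    exact mul_dvd_mul (mul_dvd_mul_left M (pow_dvd_pow b (by omega))) (pow_dvd_pow _ (by omega))

theorem sd_pos {M b : ℕ} (hM : 0 < M) (hb : 0 < b) (m N1 i : ℕ) : 0 < sd M b m N1 i := by
  cases i with
  | zero => exact Nat.one_pos
  | succ i =>
    show 0 < M * b^i * (N1+1)^(i+1-m)
    positivity

theorem sd_sum {M b : ℕ} (hM : 0 < M) (hb : 2 ≤ b) (m N1 j : ℕ) :
    ∑ i ∈ Finset.range (j+1), sd M b m N1 i ≤ 2 * sd M b m N1 j := by
  induction j with
  | zero => simp [sd]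
  | succ j ih =>
    rw [Finset.sum_range_succ]
    cases j with
    | zero =>
      have h1 := sd_pos hM (by omega : 0 < b) m N1 1
      have h2 : ∑ i ∈ Finset.range (0+1), sd M b m N1 i = 1 := by simp [sd]
      rw [h2]
      show 1 + sd M b m N1 1 ≤ 2 * sd M b m N1 1
      omega
    | succ j =>
      have h3 : 2 * sd M b m N1 (j+1) ≤ sd M b m N1 (j+1+1) := by
        show 2 * (M * b^j * (N1+1)^(j+1-m)) ≤ M * b^(j+1) * (N1+1)^(j+1+1-m)
        have e1 : (N1+1)^(j+1-m) ≤ (N1+1)^(j+1+1-m) := Nat.pow_le_pow_right (by omega) (by omega)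
        calc 2 * (M * b^j * (N1+1)^(j+1-m)) = M * (b^j * 2) * (N1+1)^(j+1-m) := by ring
          _ ≤ M * (b^j * b) * (N1+1)^(j+1+1-m) := by gcongr
          _ = _ := by rw [pow_succ]
      omega

theorem near_digit {M b n j : ℕ} (hb : 0 < b)
    (h : ¬ (M ≤ n / b^j % b ∧ n / b^j % b + M + 1 ≤ b)) : Near (b^(j+1)) (M * b^j) n := by
  have hbj : 0 < b^j := by positivity
  have e : n % (b^j * b) = n % b^j + b^j * (n / b^j % b) := Nat.mod_mul
  have hm : n % b^j < b^j := Nat.mod_lt _ hbj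
  have hx' : n / b^j % b < b := Nat.mod_lt _ hb
  unfold Near
  rw [pow_succ, e]
  clear e
  revert h hm hx' hbj
  generalize n / b^j % b = x
  generalize n % b^j = y
  generalize b^j = B
  intro h hbj hm hx'
  by_cases h1 : M ≤ x
  · right
    have h2 : b ≤ x + M := by
      by_contra h3
      exact h ⟨h1, by omega⟩
    have : B * b ≤ B * (x + M) := Nat.mul_le_mul_left _ h2
    calc B * b ≤ B * (x + M) := this
      _ = B * x + M * B := by ring
      _ ≤ y + B * x + M * B := by omega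
  · left
    have h2 : x + 1 ≤ M := by omega
    have : B * (x + 1) ≤ B * M := Nat.mul_le_mul_left _ h2
    calc y + B * x < B + B * x := by omega
      _ = B * (x + 1) := by ring
      _ ≤ B * M := this
      _ = M * B := by ring

theorem spoil_digits (m r M K N1 b : ℕ) (Ms : Finset ℕ) (hM : 0 < M) (hc : Ms.card ≤ r)
    (hMs : ∀ k ∈ Ms, 2^(K+10) ≤ k ∧ k ∣ M) (hb : 2^(K+10) * M ≤ b) :
    ∃ c : ℕ → ℕ, (∀ i j, i < j → c i + 4 * N1 < c j) ∧
      (∀ i j k l, i < K → j < K → k < K → l < K → i ≠ j → k ≠ l → (i ≠ k ∨ j ≠ l) →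
        4 * (N1:ℤ) < |((c i : ℤ) - c j) - ((c k : ℤ) - c l)|) ∧
      ∀ T, (∀ i, i < K → c i ≤ T) →
        open Classical in
        ((Finset.range K ×ˢ Finset.range K).filter
          (fun ij => ij.1 ≠ ij.2 ∧ BadD M b m Ms (T + c ij.2 - c ij.1))).card ≤ r + m := by
  classical
  have hbig : 1024 ≤ 2^(K+10) := by
    calc 1024 = 2^10 := by norm_num
      _ ≤ 2^(K+10) := Nat.pow_le_pow_right (by norm_num) (by omega)
  have hb1024 : 1024 ≤ b := by
    calc 1024 ≤ 2^(K+10) * 1 := by omega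
      _ ≤ 2^(K+10) * M := Nat.mul_le_mul_left _ hM
      _ ≤ b := hb
  have hb0 : 0 < b := by omega
  set Sg := ∑ i ∈ Finset.range (m+2), sd M b m N1 i with hSg
  have hSg1 : N1 + 1 ≤ Sg := by
    have h1 : sd M b m N1 (m+1) ≤ Sg :=
      Finset.single_le_sum (f := sd M b m N1) (fun _ _ => Nat.zero_le _)
        (Finset.mem_range.2 (by omega))
    have h2 : N1 + 1 ≤ sd M b m N1 (m+1) := by
      show N1 + 1 ≤ M * b^m * (N1+1)^(m+1-m)
      rw [show m + 1 - m = 1 by omega, pow_one]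
      exact Nat.le_mul_of_pos_left _ (by positivity)
    omega
  have hx : ∀ a, xr (m+2) (sd M b m N1) a = 16 * 2^a * Sg := fun a => rfl
  refine ⟨xr (m+2) (sd M b m N1), ?_, ?_, ?_⟩
  · intro i j hij
    rw [hx, hx]
    have h1 : 2^(i+1) ≤ 2^j := Nat.pow_le_pow_right (by norm_num) (by omega)
    have h2 : 1 ≤ 2^i := Nat.one_le_two_pow
    calc 16 * 2^i * Sg + 4 * N1 < 16 * 2^i * Sg + 16 * 2^i * Sg := by
          have : 16 * 1 * (N1+1) ≤ 16 * 2^i * Sg := by gcongr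
          omega
      _ = 16 * 2^(i+1) * Sg := by ring
      _ ≤ 16 * 2^j * Sg := by gcongr
  · intro i j k l hi hj hk hl hij hkl hne
    rw [hx, hx, hx, hx]
    have hD : ((2:ℤ)^i - 2^j - 2^k + 2^l) ≠ 0 := by
      intro h0
      have := two_pow_pair hij h0
      rcases hne with h | h
      · exact h this.1
      · exact h this.2
    have e : (((16 * 2^i * Sg : ℕ) : ℤ) - ((16 * 2^j * Sg : ℕ) : ℤ)) -
        (((16 * 2^k * Sg : ℕ) : ℤ) - ((16 * 2^l * Sg : ℕ) : ℤ)) =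
        ((2:ℤ)^i - 2^j - 2^k + 2^l) * (16 * Sg) := by push_cast; ring
    rw [e, abs_mul]
    have h1 : 1 ≤ |((2:ℤ)^i - 2^j - 2^k + 2^l)| := Int.one_le_abs hD
    have h2 : |(16 * (Sg:ℤ))| = 16 * Sg := abs_of_nonneg (by positivity)
    rw [h2]
    have h3 : ((N1:ℤ) + 1) ≤ Sg := by exact_mod_cast hSg1
    have h4 : (0:ℤ) ≤ 16 * (Sg:ℤ) := by positivity
    have h5 : 16 * (Sg:ℤ) ≤ |((2:ℤ)^i - 2^j - 2^k + 2^l)| * (16 * Sg) :=
      le_mul_of_one_le_left h4 h1
    have h6 : (0:ℤ) ≤ N1 := by positivity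
    linarith
  · intro T hT
    set c := xr (m+2) (sd M b m N1) with hcdef
    let F : ℕ → Finset (ℕ × ℕ) := fun k => (Finset.range K ×ˢ Finset.range K).filter
      (fun ij => ij.1 ≠ ij.2 ∧ k ∣ (T + c ij.2 - c ij.1))
    let G : ℕ → Finset (ℕ × ℕ) := fun j => (Finset.range K ×ˢ Finset.range K).filter
      (fun ij => ij.1 ≠ ij.2 ∧ Near (b^(j+1)) (M * b^j) (T + c ij.2 - c ij.1))
    have hF : ∀ k ∈ Ms, (F k).card ≤ 1 := by
      intro k hk
      apply card_le_one_pair (K := K) (fun ij => k ∣ (T + c ij.2 - c ij.1))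
      intro a b' c' d ha hb' hc' hd' hab hcd h1 h2
      have hk0 : 0 < k := by have := (hMs k hk).1; omega
      have := one_pair (K := K) (N := m+2) (j := 0) (Q := k) (sc := sd M b m N1)
        (sd_dvd M b m N1) (sd_sum hM (by omega) m N1 0) (by omega)
        ((hMs k hk).2.trans (by
          show M ∣ M * b^0 * (N1+1)^(0+1-m)
          exact Dvd.dvd.mul_right (dvd_mul_right M _) _))
        (by show 2^(K+10) * 1 ≤ k; rw [mul_one]; exact (hMs k hk).1) (by show 0 < 1; norm_num)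
        T hT hb' ha hd' hc' (Ne.symm hab)
        (Or.inl (by
          show (T + c b' - c a) % k < 1
          rw [Nat.mod_eq_zero_of_dvd h1]; norm_num))
        (Or.inl (by
          show (T + c d - c c') % k < 1
          rw [Nat.mod_eq_zero_of_dvd h2]; norm_num))
      exact ⟨this.2, this.1⟩
    have hG : ∀ j ∈ Finset.range m, (G j).card ≤ 1 := by
      intro j hj
      rw [Finset.mem_range] at hj
      apply card_le_one_pair (K := K)
        (fun ij => Near (b^(j+1)) (M * b^j) (T + c ij.2 - c ij.1))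
      intro a b' c' d ha hb' hc' hd' hab hcd h1 h2
      have hs : sd M b m N1 (j+1) = M * b^j := by
        show M * b^j * (N1+1)^(j+1-m) = M * b^j
        rw [show j + 1 - m = 0 by omega, pow_zero, mul_one]
      have := one_pair (K := K) (N := m+2) (j := j+1) (Q := b^(j+1)) (sc := sd M b m N1)
        (sd_dvd M b m N1) (sd_sum hM (by omega) m N1 (j+1)) (by omega)
        (by
          show b^(j+1) ∣ M * b^(j+1) * (N1+1)^(j+1+1-m)
          exact Dvd.dvd.mul_right (Dvd.intro_left _ rfl) _)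
        (by
          rw [hs, pow_succ]
          calc 2^(K+10) * (M * b^j) = b^j * (2^(K+10) * M) := by ring
            _ ≤ b^j * b := Nat.mul_le_mul_left _ hb)
        (by rw [hs]; positivity)
        T hT hb' ha hd' hc' (Ne.symm hab) (by rw [hs]; exact h1) (by rw [hs]; exact h2)
      exact ⟨this.2, this.1⟩
    have hsub : ((Finset.range K ×ˢ Finset.range K).filter
          (fun ij => ij.1 ≠ ij.2 ∧ BadD M b m Ms (T + c ij.2 - c ij.1))) ⊆
        (Ms.biUnion F) ∪ ((Finset.range m).biUnion G) := by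
      intro ij hij
      rw [Finset.mem_filter] at hij
      rw [Finset.mem_union]
      rcases hij.2.2 with ⟨k, hk, hd⟩ | ⟨j, hj, hd⟩
      · left
        rw [Finset.mem_biUnion]
        exact ⟨k, hk, Finset.mem_filter.2 ⟨hij.1, hij.2.1, hd⟩⟩
      · right
        rw [Finset.mem_biUnion]
        exact ⟨j, Finset.mem_range.2 hj, Finset.mem_filter.2 ⟨hij.1, hij.2.1, near_digit hb0 hd⟩⟩
    calc _ ≤ ((Ms.biUnion F) ∪ ((Finset.range m).biUnion G)).card := Finset.card_le_card hsub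
      _ ≤ (Ms.biUnion F).card + ((Finset.range m).biUnion G).card := Finset.card_union_le _ _
      _ ≤ Ms.card * 1 + (Finset.range m).card * 1 :=
          Nat.add_le_add (Finset.card_biUnion_le_card_mul _ _ _ hF)
            (Finset.card_biUnion_le_card_mul _ _ _ hG)
      _ ≤ r + m := by rw [Finset.card_range]; omega

end Crest.Agent.R320.Spoil_462
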