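import Crest.Agent.R320.Jnt_974
import Crest.Agent.R320.Zones_813
import Crest.Agent.R320.G1_852
import Crest.Agent.R320.ExactR_237
import Crest.Agent.R320.Fin_517
import Crest.Agent.R320.Spoil_462
import Crest.Agent.R320.Univ_188

/-!
# Row 320: closing join (helper462)

`Jnt_974` (both schemes over `Top5_110.top_sem`) + `Zones_813` (HL 1 facts) + `G1_852.gadget` +
`Spoil_462.spoil_digits` + `ExactR_237.exact_gadget` + `WallU_228.walls` + `Univ_188.of_type0`.
-/

set_option autoImplicit false

namespace Crest.Agent.R320.Fin_462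

open Crest.Agent.R320.Hk_851 Crest.Agent.R320.Code110 Crest.Agent.R320.Jnt_974
open Crest.Agent.R320.Spoil_462 (BadD)

theorem pr_eq {α S : Type} [Monoid S] (f : α → S) (w : List α) :
    G1_852.pr f w = (w.map f).prod := rfl

theorem badD_per {M b m : ℕ} {Ms : Finset ℕ} (hb : 0 < b) (hMs : ∀ k ∈ Ms, k ∣ M) {x y : ℕ}
    (h : x % (M * b ^ m) = y % (M * b ^ m)) : BadD M b m Ms x ↔ BadD M b m Ms y := by
  have key : ∀ {x y : ℕ}, x % (M * b ^ m) = y % (M * b ^ m) → BadD M b m Ms x → BadD M b m Ms y := by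
    intro x y h hx
    rcases hx with ⟨k, hk, hd⟩ | ⟨j, hj, hd⟩
    · left
      refine ⟨k, hk, ?_⟩
      have hkM : k ∣ M * b ^ m := Dvd.dvd.mul_right (hMs k hk) _
      exact ((Nat.ModEq.dvd_iff (Nat.ModEq.of_dvd (dvd_refl _) h) hkM)).1 hd
    · right
      refine ⟨j, hj, ?_⟩
      have hdig : x / b ^ j % b = y / b ^ j % b := by
        have e : ∀ x : ℕ, x / b ^ j % b = x % b ^ (j + 1) / b ^ j := by
          intro x
          rw [pow_succ, Nat.mod_mul_right_div_self]
        rw [e, e]
        have hd : b ^ (j + 1) ∣ M * b ^ m := Dvd.dvd.mul_left (pow_dvd_pow b (by omega)) _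
        have := Nat.ModEq.of_dvd hd h
        unfold Nat.ModEq at this
        rw [this]
      rw [← hdig]
      exact hd
  exact ⟨key h, key h.symm⟩

theorem main {α S V : Type} [Finite α] [Monoid S] [Finite S] [AddCommGroup V] [Finite V]
    (act : V → S → V) (hadd : ∀ v w s, act (v + w) s = act v s + act w s)
    (h1 : ∀ v, act v 1 = v) (hm : ∀ v s t, act v (s * t) = act (act v s) t)
    (hf : ∀ s t, (∀ v, act v s = act v t) → s = t) (f : α → S) (s : S) :
    HL 3 ({w | (w.map f).prod = s} : Language α) := by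
  classical
  haveI := Fintype.ofFinite S
  haveI := Fintype.ofFinite V
  obtain ⟨m, r, hg0⟩ := G1_852.gadget (S := S) (V := V) act
  obtain ⟨K, hK⟩ := ExactR_237.exact_gadget α S V f act (2 * (r + m) + 2)
  obtain ⟨Ms, M, hcard, hMs, hM, hg1⟩ := hg0 (2 ^ (K + 10))
  obtain ⟨b, hb⟩ : ∃ b, b = 2 ^ (K + 10) * M + 1 := ⟨_, rfl⟩
  have hb0 : 0 < b := by omega
  have hcop : Nat.Coprime b M := by
    rw [hb, mul_comm (2 ^ (K + 10)) M]
    exact (Nat.coprime_mul_left_add_left 1 M (2 ^ (K + 10))).2 (Nat.coprime_one_left M)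
  obtain ⟨lam, rho, nu, g1, g2, g3, g4⟩ := hg1 b hb0 hcop α f
  obtain ⟨c, c1, c2, c3⟩ := Spoil_462.spoil_digits m r M K (b ^ m) b Ms hM hcard
    (fun k hk => ⟨(hMs k hk).1.le, (hMs k hk).2.2⟩) (by omega)
  obtain ⟨lam2, rho2, nu2, e1, e2⟩ := hK c (fun i j hij _ => by have := c1 i j hij; omega)
  obtain ⟨p0, hp0⟩ : ∃ p0, p0 = c K := ⟨_, rfl⟩
  have hc : ∀ k < K, c k ≤ p0 := fun k hk => by have := c1 k K hk; omega
  obtain ⟨n, Wo, hloc, hlen, hgap, R, B, hfree⟩ :=
    WallU_228.walls (α := α) (2 * p0 + 2 * b ^ m)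
  obtain ⟨z, hz⟩ : ∃ z, z = 3 * p0 + 2 * b ^ m + n + 1 := ⟨_, rfl⟩
  have hbm : 0 < b ^ m := by positivity
  set BT : ℕ → Prop := BadD M b m Ms with hBT
  set φ : List α → S := fun w => (w.map f).prod with hφdef
  have hφ0 : φ [] = 1 := by simp [hφdef]
  have hφ : ∀ u w, φ (u ++ w) = φ u * φ w := fun u w => by simp [hφdef]
  set nu2' : List α → V := fun u => nu2 u 1 with hnu2
  have hsub : ∀ v w s, act (v - w) s = act v s - act w s := by
    intro v w s
    have := hadd (v - w) w s
    rw [sub_add_cancel] at this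
    rw [this, add_sub_cancel_right]
  have hM0 : 0 < M * b ^ m := Nat.mul_pos hM hbm
  -- heights
  have HX : ∀ k, HL k (XX Wo z) := fun k => Zones_813.NZ_hl hloc hlen z
  have HBd : HL 1 (Bd Wo z (b ^ m) p0 BT) := by
    have hA : HL 1 ({X | X ∈ Zones_813.NZ Wo z ∧ ((∃ t, z ≤ t + b ^ m ∧ t < z ∧ Wo (X.take t)) ∨
        BT (X.length - p0))} : Language α) := by
      refine Zones_813.NZ_fs hloc hlen hfree f (z := z) (L0 := z) (M0 := M * b ^ m) le_rfl hM0 _ ?_
      intro X X' hX hX' ht hl _
      have ht' : ∀ t, t < z → X.take t = X'.take t := by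
        intro t htz
        have := congrArg (List.take t) ht
        rwa [List.take_take, List.take_take, min_eq_left htz.le] at this
      have hBB : BT (X.length - p0) ↔ BT (X'.length - p0) := by
        apply badD_per hb0 (fun k hk => (hMs k hk).2.2)
        have h3 : (X.length - p0 + p0) ≡ (X'.length - p0 + p0) [MOD (M * b ^ m)] := by
          rw [Nat.sub_add_cancel (by omega), Nat.sub_add_cancel (by omega)]
          exact hl
        exact Nat.ModEq.add_right_cancel' p0 h3
      constructor
      · rintro (⟨t, h2, h3, h4⟩ | h)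
        · exact Or.inl ⟨t, h2, h3, by rw [← ht' t h3]; exact h4⟩
        · exact Or.inr (hBB.1 h)
      · rintro (⟨t, h2, h3, h4⟩ | h)
        · exact Or.inl ⟨t, h2, h3, by rw [ht' t h3]; exact h4⟩
        · exact Or.inr (hBB.2 h)
    have hB : HL 1 ({X | X ∈ XX Wo z ∧ X.length < z + b ^ m} : Language α) :=
      HL.setOf_and (HX 1) (HL.length_lt _)
    refine (hA.add hB).congr fun X => ?_
    constructor
    · rintro ⟨hX, ⟨t, h2, h3, h4, h5⟩ | h⟩
      · by_cases htz : t < z
        · exact Or.inl ⟨hX, Or.inl ⟨t, h2, htz, h5⟩⟩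
        · right
          refine ⟨hX, ?_⟩
          rcases Nat.lt_or_ge t X.length with h6 | h6
          · exact absurd h5 (hX.2.2 t (by omega) h6)
          · show X.length < z + b ^ m
            omega
      · exact Or.inl ⟨hX, Or.inr h⟩
    · rintro (⟨hX, ⟨t, h2, h3, h4⟩ | h⟩ | ⟨hX, h⟩)
      · have := hX.1
        exact ⟨hX, Or.inl ⟨t, h2, by omega, by omega, h4⟩⟩
      · exact ⟨hX, Or.inr h⟩
      · have h' : X.length < z + b ^ m := h
        have := hX.1
        exact ⟨hX, Or.inl ⟨X.length, by omega, h', le_rfl, by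
          rw [List.take_length]; exact hX.2.1⟩⟩
  have HT : ∀ x y, HL 1 (ZT (XX Wo z) (Tm act φ p0 nu nu2') x y) := by
    intro x y
    have hA : HL 1 ({X | X ∈ Zones_813.NZ Wo z ∧ Tm act φ p0 nu nu2' X x = y} : Language α) := by
      refine Zones_813.NZ_fs hloc hlen hfree f (z := z) (L0 := p0 + b ^ m) (M0 := M * b ^ m)
        (by omega) hM0 _ ?_
      intro X X' hX hX' ht hl hpr
      have e1 : X.take p0 = X'.take p0 := by
        have := congrArg (List.take p0) ht
        rwa [List.take_take, List.take_take, min_eq_left (by omega)] at this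
      have e3 : (X.drop p0).take (b ^ m) = (X'.drop p0).take (b ^ m) := by
        have := congrArg (List.drop p0) ht
        rwa [List.drop_take, List.drop_take, Nat.add_sub_cancel_left] at this
      have e4 : (((X.drop p0).drop (b ^ m)).map f).prod =
          (((X'.drop p0).drop (b ^ m)).map f).prod := by
        rw [List.drop_drop, List.drop_drop]; exact hpr
      have e2 : φ (X.drop p0) = φ (X'.drop p0) := by
        rw [← List.take_append_drop (b ^ m) (X.drop p0),
          ← List.take_append_drop (b ^ m) (X'.drop p0), hφ, hφ, e3]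
        congr 1
      have e5 : nu (X.drop p0) = nu (X'.drop p0) := by
        refine (g4 _ _ e3 e4 ?_).2
        rw [List.length_drop, List.length_drop]
        have h3 : (X.length - p0 + p0) ≡ (X'.length - p0 + p0) [MOD (M * b ^ m)] := by
          rw [Nat.sub_add_cancel (by omega), Nat.sub_add_cancel (by omega)]
          exact hl
        exact Nat.ModEq.add_right_cancel' p0 h3
      unfold Tm
      rw [e1, e2, e5]
    exact hA.congr fun w => Iff.rfl
  have HN : ∀ s, HL 3 ({w | (∀ u ∈ XX Wo z, ¬ u <+: w) ∧ φ w = s} : Language α) := fun s =>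
    (Zones_813.NZ_tail hloc hlen hfree f z s).mono (by norm_num)
  have F1 : ∀ v, {p | p ∈ Jnt_974.L1 act φ p0 nu2' lam v}.Finite := by
    intro v
    refine (List.finite_length_le α (p0 + b ^ m)).subset ?_
    rintro P ⟨X1, p, rfl, hX1, hp⟩
    have := g1 p _ hp
    show (X1 ++ p).length ≤ p0 + b ^ m
    rw [List.length_append]; omega
  have F2 : ∀ v, {p | p ∈ Jnt_974.L2 K c lam2 v}.Finite := by
    intro v
    refine (List.finite_length_le α p0).subset ?_
    rintro P ⟨k, hk, hP, _⟩
    have := hc k hk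
    show P.length ≤ p0
    omega
  refine Top5_110.top_sem (φ := φ) (act := act) (XX := XX Wo z) (Bad := Bd Wo z (b ^ m) p0 BT)
    (T := Tm act φ p0 nu nu2') hφ0 hφ h1 hm hf (XX_pc (by omega)) Bd_sub ?_ (HX 1) HBd HT HN
    (N1 := 0) (N2 := 1) (L1 := Jnt_974.L1 act φ p0 nu2' lam) (L2 := Jnt_974.L2 K c lam2)
    F1 F2 ?_ ?_ s
  · intro u hu v v'
    unfold Tm
    rw [add_sub_add_right_eq_sub, ← hsub, add_sub_add_right_eq_sub, ← hsub, ← hm, ← hφ,
      List.take_append_drop]
  · intro u hu hb x t ht
    refine comp1 (La := 0) hloc (fun p v h => (g1 p v h).le)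
      (fun p q v r' hp hq _ => g2 p q v r' hp hq) ?_ (by omega) u hu hb x t ht
    intro u _ hu v
    have hu' : ¬ BadD M b m Ms u.length := hu
    unfold Spoil_462.BadD at hu'
    push Not at hu'
    obtain ⟨P, Q, h2, h3, v', h4⟩ := g3 u hu'.1 (fun j hj => ⟨(hu'.2 j hj).1, by
      have := (hu'.2 j hj).2; omega⟩) v
    exact ⟨P, Q, h2.symm, h3, by rw [h4]; rfl⟩
  · intro u hu x t ht
    refine comp2 (R := 2 * (r + m) + 2) (rho2 := fun k Q => rho2 k Q 1) hloc hc ?_ ?_ ?_
      (by omega) u hu x t ht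
    · intro k hk P Q v b' hP h2 h3
      have := e1 k hk P Q 1 v b' hP h2 h3
      rw [mul_one] at this
      exact this
    · intro X1 hX1 v
      exact e2 X1 1 v (fun k hk => by rw [hX1]; exact hc k hk)
    · intro X hX X' hX'
      refine Jnt_974.spoil (La := p0) (W := 2 * p0 + 2 * b ^ m) (C0 := r + m) hc ?_ ?_ le_rfl
        (by omega) (X ++ X') ?_
      · intro i j k l hi hj hk hl hij hkl hne
        have h3 := c2 i j k l hi hj hk hl hij hkl (by
          by_contra hcon
          push Not at hcon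
          exact hne (by rw [hcon.1, hcon.2]))
        rcases lt_abs.1 h3 with h4 | h4
        · right; omega
        · left; omega
      · intro T hT
        convert c3 T (fun i hi => (hc i hi).trans hT)
      · intro s t hst ht hs hwt
        by_contra hcon
        refine hgap ((X ++ X').take t) (t - s) hwt (by omega) (by omega) ?_
        rw [List.length_take, min_eq_left ht, List.take_take, min_eq_left (by omega)]
        rwa [show t - (t - s) = s by omega]

theorem fin (α S : Type) [Finite α] [Monoid S] [Finite S] (f : α → S) (s : S) :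
    HL 3 ({w | (w.map f).prod = s} : Language α) := by
  classical
  haveI := Fintype.ofFinite S
  refine main (V := S → ZMod 2) Fin_517.pact Fin_517.pact_add Fin_517.pact_one
    (fun v s t => (Fin_517.pact_mul v s t).symm) (fun s t h => Fin_517.pact_inj (h _)) f s

universe u

theorem row (α : Type u) [Finite α] (L : Language α) (hL : L.IsRegular) :
    ∃ e : Crest.RegLang.GRegExp α, e.height ≤ 3 ∧ e.lang = L :=
  Univ_188.of_type0 3 (fun α _ L hL => of_monoid (fun S _ _ f s => fin α S f s) L hL) α L hL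

end Crest.Agent.R320.Fin_462
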