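import Mathlib
import Crest.Agent.R320.NameGad_808

/-!
Row 320: the gadget of scheme 1 on words, for all contents (693's nested grids), over 808's
`unknownT_gadget`.
-/

set_option autoImplicit false
set_option linter.all false

namespace Crest.Agent.R320.Grid463

open Finset

variable {α S V X : Type*}

/-- the factor `u[a, b)` -/
def seg (u : List α) (a b : ℕ) : List α := (u.take b).drop a

def bt (Γ T j : ℕ) : ℕ := Γ ^ j + T % Γ ^ j

def pR (Γ i j n : ℕ) : ℕ := Γ ^ j + (n + 2 * Γ ^ i) % Γ ^ j - 2 * Γ ^ i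

def Wt [AddCommMonoid X] (e : ℕ → S → X) (ph : List α → S) (a : ℕ → ℕ) (I : Finset ℕ)
    (u : List α) : X := ∑ j ∈ I, e j (ph (seg u (a j) (a (j + 1))))

def Cell (M Γ i o : ℕ) : Prop := 2 * Γ ^ i ≤ o ∧ o < (M + 2) * Γ ^ i

def RL (M Γ m i n : ℕ) : Prop :=
  Γ ^ i ∣ n ∧ ∀ j, i < j → j ≤ m → (n + 2 * Γ ^ i) % Γ ^ j + M * Γ ^ i < Γ ^ j

def Bad (M Γ m T : ℕ) : Prop :=
  ∃ j, 1 ≤ j ∧ j ≤ m ∧ (T % Γ ^ j < M * Γ ^ (j - 1) ∨ Γ ^ j ≤ T % Γ ^ j + M * Γ ^ (j - 1))

theorem bt_left {M Γ m i o n : ℕ} (hR : RL M Γ m i n) {j : ℕ} (hj : j ≤ i) :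
    bt Γ (o + n) j = bt Γ o j := by
  obtain ⟨c, rfl⟩ := (pow_dvd_pow Γ hj).trans hR.1
  unfold bt
  rw [Nat.add_mul_mod_self_left]

theorem add_mod_eq {A x g : ℕ} (h : A % g + x < g) : (A + x) % g = A % g + x := by
  rw [Nat.add_mod, Nat.mod_eq_of_lt (by omega : x < g), Nat.mod_eq_of_lt h]

theorem two_pow_le {M Γ i j : ℕ} (hΓ : M + 2 ≤ Γ) (hij : i < j) : (M + 2) * Γ ^ i ≤ Γ ^ j := by
  calc (M + 2) * Γ ^ i ≤ Γ * Γ ^ i := Nat.mul_le_mul_right _ hΓ
    _ = Γ ^ (i + 1) := by rw [pow_succ]; ring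
    _ ≤ Γ ^ j := Nat.pow_le_pow_right (by omega) hij

theorem bt_right {M Γ m i o n : ℕ} (hΓ : M + 2 ≤ Γ) (hc : Cell M Γ i o) (hR : RL M Γ m i n)
    {j : ℕ} (hij : i < j) (hj : j ≤ m) : bt Γ (o + n) j = o + pR Γ i j n := by
  obtain ⟨h1, h2⟩ := hc
  have h3 := hR.2 j hij hj
  have h4 := two_pow_le hΓ hij
  have h5 : (M + 2) * Γ ^ i = M * Γ ^ i + 2 * Γ ^ i := by ring
  have h6 : o + n = (n + 2 * Γ ^ i) + (o - 2 * Γ ^ i) := by omega
  have h7 : o - 2 * Γ ^ i + 2 * Γ ^ i = o := by omega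
  unfold bt pR
  rw [h6, add_mod_eq (by omega)]
  generalize (n + 2 * Γ ^ i) % Γ ^ j = r at *
  omega

theorem bt_lt {M Γ j T : ℕ} (hΓ : M + 2 ≤ Γ) : bt Γ T j < 2 * Γ ^ j := by
  have : T % Γ ^ j < Γ ^ j := Nat.mod_lt _ (Nat.pow_pos (by omega))
  unfold bt; omega

theorem bt_mono {M Γ j T : ℕ} (hΓ : M + 2 ≤ Γ) : bt Γ T j ≤ bt Γ T (j + 1) := by
  have h1 := bt_lt (T := T) (j := j) hΓ
  have h2 := two_pow_le hΓ (Nat.lt_succ_self j)
  have h3 : (M + 2) * Γ ^ j = M * Γ ^ j + 2 * Γ ^ j := by ring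
  have h4 : Γ ^ (j + 1) ≤ bt Γ T (j + 1) := Nat.le_add_right _ _
  have h5 : 0 ≤ M * Γ ^ j := Nat.zero_le _
  simp only [Nat.succ_eq_add_one] at h2
  omega

theorem bt_le_left {M Γ i o : ℕ} (hΓ : M + 2 ≤ Γ) (hc : Cell M Γ i o) {j : ℕ} (hj : j ≤ i)
    (T : ℕ) : bt Γ T j ≤ o := by
  have h1 := bt_lt (T := T) (j := j) hΓ
  have h2 : Γ ^ j ≤ Γ ^ i := Nat.pow_le_pow_right (by omega) hj
  have := hc.1
  omega

theorem seg_left {P Q : List α} {a b : ℕ} (hb : b ≤ P.length) :
    seg (P ++ Q) a b = seg P a b := by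
  unfold seg
  rw [List.take_append_of_le_length hb]

theorem seg_right {P Q : List α} {a b : ℕ} :
    seg (P ++ Q) (P.length + a) (P.length + b) = seg Q a b := by
  unfold seg
  rw [List.take_length_add_append, List.drop_length_add_append]

theorem split_seg [Monoid S] {ph : List α → S} (hph : ∀ u v, ph (u ++ v) = ph u * ph v)
    (u : List α) {a b : ℕ} (hab : a ≤ b) :
    ph (u.take a) * ph (seg u a b) * ph (u.drop b) = ph u := by
  rw [← hph, ← hph]
  congr 1
  have : u.take a = (u.take b).take a := by rw [List.take_take, min_eq_left hab]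
  unfold seg
  rw [this, List.take_append_drop, List.take_append_drop]

theorem split [Monoid S] [AddCommMonoid X] {ph : List α → S}
    (hph : ∀ u v, ph (u ++ v) = ph u * ph v) (e : ℕ → S → X) {M Γ m i : ℕ}
    (hΓ : M + 2 ≤ Γ) {P Q : List α} (him : i < m) (hc : Cell M Γ i P.length)
    (hR : RL M Γ m i Q.length) :
    ph (P.take (bt Γ P.length i)) = ph ((P ++ Q).take (bt Γ (P ++ Q).length i)) ∧
    ph (Q.drop (pR Γ i (i + 1) Q.length)) =
      ph ((P ++ Q).drop (bt Γ (P ++ Q).length (i + 1))) ∧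
    Wt e ph (bt Γ P.length) (range i) P = Wt e ph (bt Γ (P ++ Q).length) (range i) (P ++ Q) ∧
    Wt e ph (fun j => pR Γ i j Q.length) (Ico (i + 1) m) Q =
      Wt e ph (bt Γ (P ++ Q).length) (Ico (i + 1) m) (P ++ Q) := by
  rw [List.length_append]
  refine ⟨?_, ?_, ?_, ?_⟩
  · rw [bt_left hR le_rfl, List.take_append_of_le_length (bt_le_left hΓ hc le_rfl _)]
  · rw [bt_right hΓ hc hR (Nat.lt_succ_self i) him, List.drop_length_add_append]
  · refine Finset.sum_congr rfl fun j hj => ?_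
    rw [Finset.mem_range] at hj
    rw [bt_left hR hj.le, bt_left hR (by omega : j + 1 ≤ i),
      seg_left (bt_le_left hΓ hc (by omega) _)]
  · refine Finset.sum_congr rfl fun j hj => ?_
    rw [Finset.mem_Ico] at hj
    rw [bt_right hΓ hc hR (by omega) (by omega), bt_right hΓ hc hR (by omega) (by omega),
      seg_right]

theorem total [Monoid S] [AddCommMonoid X] {ph : List α → S}
    (hph : ∀ u v, ph (u ++ v) = ph u * ph v) (e : ℕ → S → X) {M Γ m i : ℕ}
    (hΓ : M + 2 ≤ Γ) (u : List α) (him : i < m) :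
    ∃ z, ph (u.take (bt Γ u.length i)) * z * ph (u.drop (bt Γ u.length (i + 1))) = ph u ∧
      Wt e ph (bt Γ u.length) (range i) u + e i z + Wt e ph (bt Γ u.length) (Ico (i + 1) m) u =
        Wt e ph (bt Γ u.length) (range m) u := by
  refine ⟨ph (seg u (bt Γ u.length i) (bt Γ u.length (i + 1))), split_seg hph u (bt_mono hΓ), ?_⟩
  unfold Wt
  rw [add_assoc, ← Finset.sum_eq_sum_Ico_succ_bot him
    (fun j => e j (ph (seg u (bt Γ u.length j) (bt Γ u.length (j + 1))))),
    Finset.range_eq_Ico, Finset.sum_Ico_consecutive _ (Nat.zero_le _) him.le,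
    Finset.range_eq_Ico]

theorem cell_unique {M Γ i i' o : ℕ} (hΓ : M + 2 ≤ Γ) (h : Cell M Γ i o) (h' : Cell M Γ i' o) :
    i = i' := by
  rcases lt_trichotomy i i' with hlt | h1 | hlt
  · have h3 := two_pow_le hΓ hlt
    have := h.2; have := h'.1
    have : 0 < Γ ^ i' := Nat.pow_pos (by omega)
    omega
  · exact h1
  · have h3 := two_pow_le hΓ hlt
    have := h'.2; have := h.1
    have : 0 < Γ ^ i := Nat.pow_pos (by omega)
    omega

/-- right legality at the true level for a good total -/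
theorem RL_of_not_bad {M Γ m i o T : ℕ} (hΓ : M + 2 ≤ Γ) (him : i < m) (hc : Cell M Γ i o)
    (hoT : o ≤ T) (hd : Γ ^ i ∣ T - o) (hb : ¬ Bad M Γ m T) : RL M Γ m i (T - o) := by
  refine ⟨hd, fun j hij hj => ?_⟩
  unfold Bad at hb
  push Not at hb
  have h1 := hb j (by omega) hj
  obtain ⟨h2, h3⟩ := h1
  have h4 : Γ ^ i ≤ Γ ^ (j - 1) := Nat.pow_le_pow_right (by omega) (by omega)
  have h5 : M * Γ ^ i ≤ M * Γ ^ (j - 1) := Nat.mul_le_mul_left _ h4
  obtain ⟨h6, h7⟩ := hc
  have h8 : (M + 2) * Γ ^ i = M * Γ ^ i + 2 * Γ ^ i := by ring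
  have h9 : (T - o + 2 * Γ ^ i) % Γ ^ j + (o - 2 * Γ ^ i) = T % Γ ^ j := by
    have hx : T - o + 2 * Γ ^ i = T - (o - 2 * Γ ^ i) := by omega
    rw [hx]
    have hq := Nat.div_add_mod T (Γ ^ j)
    set g := Γ ^ j with hg
    have hgpos : 0 < g := Nat.pow_pos (by omega)
    have hr : T % g < g := Nat.mod_lt _ hgpos
    have hT : T - (o - 2 * Γ ^ i) = g * (T / g) + (T % g - (o - 2 * Γ ^ i)) := by omega
    rw [hT, Nat.mul_add_mod, Nat.mod_eq_of_lt (by omega)]
    omega
  omega

theorem seg_local {u v : List α} {A a b : ℕ} (h : u.take A = v.take A) (hb : b ≤ A) :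
    seg u a b = seg v a b := by
  unfold seg
  have h1 : u.take b = (u.take A).take b := by rw [List.take_take, min_eq_left hb]
  have h2 : v.take b = (v.take A).take b := by rw [List.take_take, min_eq_left hb]
  rw [h1, h2, h]

theorem drop_local [Monoid S] {ph : List α → S} (hph : ∀ u v, ph (u ++ v) = ph u * ph v)
    {u v : List α} {A a : ℕ} (h : u.take A = v.take A) (ha : a ≤ A)
    (hd : ph (u.drop A) = ph (v.drop A)) : ph (u.drop a) = ph (v.drop a) := by
  have key : ∀ w : List α, ph (w.drop a) = ph ((w.take A).drop a) * ph (w.drop A) := by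
    intro w
    rw [← hph]
    congr 1
    have h1 : w.drop A = (w.drop a).drop (A - a) := by
      rw [List.drop_drop]; congr 1; omega
    have h2 : (w.take A).drop a = (w.drop a).take (A - a) := by
      rw [List.drop_take]
    rw [h1, h2, List.take_append_drop]
  rw [key u, key v, h, hd]

theorem pR_le {Γ i j n m : ℕ} (hΓ : 0 < Γ) (hj : j ≤ m) : pR Γ i j n ≤ 2 * Γ ^ m := by
  have h1 : (n + 2 * Γ ^ i) % Γ ^ j < Γ ^ j := Nat.mod_lt _ (Nat.pow_pos hΓ)
  have h2 : Γ ^ j ≤ Γ ^ m := Nat.pow_le_pow_right hΓ hj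
  unfold pR
  generalize (n + 2 * Γ ^ i) % Γ ^ j = r at *
  omega

theorem bt_le {Γ j T m : ℕ} (hΓ : 0 < Γ) (hj : j ≤ m) : bt Γ T j ≤ 2 * Γ ^ m := by
  have h1 : T % Γ ^ j < Γ ^ j := Nat.mod_lt _ (Nat.pow_pos hΓ)
  have h2 : Γ ^ j ≤ Γ ^ m := Nat.pow_le_pow_right hΓ hj
  unfold bt
  generalize T % Γ ^ j = r at *
  omega

theorem mod_of_modEq {M Γ m n n' j : ℕ} (h : n ≡ n' [MOD M * Γ ^ m]) (hj : j ≤ m) :
    n ≡ n' [MOD Γ ^ j] :=
  h.of_dvd ((pow_dvd_pow Γ hj).trans (Dvd.intro_left _ rfl))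

theorem bt_congr {M Γ m n n' j : ℕ} (h : n ≡ n' [MOD M * Γ ^ m]) (hj : j ≤ m) :
    bt Γ n j = bt Γ n' j := by
  unfold bt; rw [mod_of_modEq h hj]

theorem pR_congr {M Γ m n n' i j : ℕ} (h : n ≡ n' [MOD M * Γ ^ m]) (hj : j ≤ m) :
    pR Γ i j n = pR Γ i j n' := by
  unfold pR; rw [(mod_of_modEq h hj).add_right (2 * Γ ^ i)]

theorem RL_congr {M Γ m n n' i : ℕ} (h : n ≡ n' [MOD M * Γ ^ m]) (hi : i ≤ m) :
    RL M Γ m i n ↔ RL M Γ m i n' := by
  unfold RL
  constructor
  · rintro ⟨h1, h2⟩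
    refine ⟨(Nat.ModEq.dvd_iff (mod_of_modEq h hi) dvd_rfl).1 h1, fun j hj hjm => ?_⟩
    rw [← (mod_of_modEq h hjm).add_right (2 * Γ ^ i)]
    exact h2 j hj hjm
  · rintro ⟨h1, h2⟩
    refine ⟨(Nat.ModEq.dvd_iff (mod_of_modEq h hi) dvd_rfl).2 h1, fun j hj hjm => ?_⟩
    rw [(mod_of_modEq h hjm).add_right (2 * Γ ^ i)]
    exact h2 j hj hjm

/-- **693's grid gadget on words, every content, every length.** -/
theorem grid (S V : Type*) [Monoid S] [Finite S] [AddCommGroup V] [Finite V]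
    (act : V → S → V) :
    ∃ m k : ℕ, ∀ B : ℕ, ∃ Ms : Finset ℕ, Ms.card ≤ k ∧ (∀ p ∈ Ms, B < p ∧ p.Prime ∧ p ≠ 2) ∧
      ∀ M, M = ∏ p ∈ Ms, p → ∀ Γ, M + 2 ≤ Γ → Nat.Coprime Γ M →
      ∀ (α : Type*) (ph : List α → S), (∀ u v, ph (u ++ v) = ph u * ph v) →
      ∃ (lam rho : List α → Option V) (nu : List α → V),
        (∀ P v, lam P = some v → P.length < (M + 2) * Γ ^ m) ∧
        (∀ P Q v b, lam P = some v → rho Q = some b →
          b = act v (ph (P ++ Q)) + nu (P ++ Q)) ∧
        (∀ u : List α, (M + 2) * Γ ^ m ≤ u.length → (∀ p ∈ Ms, ¬ p ∣ u.length) →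
          ¬ Bad M Γ m u.length → ∀ v, ∃ P Q, P ++ Q = u ∧ lam P = some v ∧
            (rho Q).isSome = true) ∧
        (∀ u u' : List α, u.take (2 * Γ ^ m) = u'.take (2 * Γ ^ m) →
          ph (u.drop (2 * Γ ^ m)) = ph (u'.drop (2 * Γ ^ m)) →
          u.length ≡ u'.length [MOD M * Γ ^ m] → ph u = ph u' → rho u = rho u' ∧ nu u = nu u') := by
  classical
  obtain ⟨m, N, k, e, hN, hg⟩ := NameGad808.unknownT_gadget S V act
  refine ⟨m, k, fun B => ?_⟩
  let q : Fin k → ℕ := fun j => Nat.nth Nat.Prime (B + 1 + j)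
  have hqp : ∀ j, (q j).Prime := fun j => Nat.prime_nth_prime _
  have hqB : ∀ j, B + 3 ≤ q j := fun j => by
    have := Nat.add_two_le_nth_prime (B + 1 + j)
    show B + 3 ≤ Nat.nth Nat.Prime (B + 1 + j)
    omega
  have hqi : Function.Injective q := by
    intro a b hab
    have := (Nat.nth_strictMono Nat.infinite_setOf_prime).injective hab
    apply Fin.ext; omega
  have hodd : ∀ j, Odd (q j) := fun j => (hqp j).odd_of_ne_two (by have := hqB j; omega)
  have hcop : Pairwise (fun i j => Nat.Coprime (q i) (q j)) := fun i j hij =>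
    (Nat.coprime_primes (hqp i) (hqp j)).2 (fun h => hij (hqi h))
  obtain ⟨L, R, lev, D, H1, H2, H3⟩ := hg q hodd
  refine ⟨Finset.univ.image q, ?_, ?_, ?_⟩
  · exact (Finset.card_image_le).trans (by simp)
  · intro p hp
    obtain ⟨j, -, rfl⟩ := Finset.mem_image.1 hp
    have := hqB j
    exact ⟨by omega, hqp j, by omega⟩
  rintro M rfl Γ hΓ hcΓ α ph hph
  have hMq : ∏ p ∈ Finset.univ.image q, p = ∏ j, q j := by
    rw [Finset.prod_image (fun a _ b _ h => hqi h)]
  rw [hMq] at hΓ hcΓ ⊢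
  set M := ∏ j, q j with hM
  have hqM : ∀ j, q j ∣ M := fun j => Finset.dvd_prod_of_mem q (Finset.mem_univ j)
  have hMpos : 0 < M := Finset.prod_pos fun j _ => (hqp j).pos
  have hΓpos : 0 < Γ := by omega
  let tt : ℕ → (∀ j, ZMod (q j)) := fun n j => (n : ZMod (q j))
  have tt_add : ∀ a b, tt a + tt b = tt (a + b) := by
    intro a b; funext j; show ((a : ZMod (q j)) + (b : ZMod (q j))) = ((a + b : ℕ) : ZMod (q j))
    push_cast; rfl
  have tt_congr : ∀ a b, a ≡ b [MOD M * Γ ^ m] → tt a = tt b := by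
    intro a b hab; funext j
    exact (ZMod.natCast_eq_natCast_iff a b (q j)).2
      (hab.of_dvd ((hqM j).trans (Dvd.intro _ rfl)))
  let lam : List α → Option V := fun P =>
    if h : ∃ i, i < m ∧ Cell M Γ i P.length then
      L h.choose (tt P.length) (ph (P.take (bt Γ P.length h.choose)))
        (Wt e ph (bt Γ P.length) (range h.choose) P)
    else none
  let rho : List α → Option V := fun Q =>
    if RL M Γ m (lev (tt Q.length)) Q.length then
      R (lev (tt Q.length)) (tt Q.length)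
        (ph (Q.drop (pR Γ (lev (tt Q.length)) (lev (tt Q.length) + 1) Q.length)))
        (Wt e ph (fun j => pR Γ (lev (tt Q.length)) j Q.length)
          (Ico (lev (tt Q.length) + 1) m) Q)
    else none
  have lam_spec : ∀ P i, i < m → Cell M Γ i P.length → lam P =
      L i (tt P.length) (ph (P.take (bt Γ P.length i)))
        (Wt e ph (bt Γ P.length) (range i) P) := by
    intro P i hi hc
    have h : ∃ i, i < m ∧ Cell M Γ i P.length := ⟨i, hi, hc⟩
    have h2 : h.choose = i := cell_unique hΓ h.choose_spec.2 hc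
    show (if h : ∃ i, i < m ∧ Cell M Γ i P.length then
      L h.choose (tt P.length) (ph (P.take (bt Γ P.length h.choose)))
        (Wt e ph (bt Γ P.length) (range h.choose) P)
      else none) = _
    rw [dif_pos h, h2]
  have lam_inv : ∀ P v, lam P = some v → ∃ i, i < m ∧ Cell M Γ i P.length ∧
      L i (tt P.length) (ph (P.take (bt Γ P.length i)))
        (Wt e ph (bt Γ P.length) (range i) P) = some v := by
    intro P v hv
    by_cases h : ∃ i, i < m ∧ Cell M Γ i P.length
    · obtain ⟨i, hi, hc⟩ := h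
      exact ⟨i, hi, hc, by rw [← lam_spec P i hi hc]; exact hv⟩
    · exfalso
      have : lam P = none := dif_neg h
      rw [this] at hv; simp at hv
  refine ⟨lam, rho, fun u => D (tt u.length) (ph u) (Wt e ph (bt Γ u.length) (range m) u),
    ?_, ?_, ?_, ?_⟩
  · intro P v hv
    obtain ⟨i, hi, hc, -⟩ := lam_inv P v hv
    exact hc.2.trans_le (Nat.mul_le_mul_left _ (Nat.pow_le_pow_right hΓpos hi.le))
  · intro P Q v b hP hQ
    obtain ⟨i, hi, hc, hL⟩ := lam_inv P v hP
    by_cases hr : RL M Γ m (lev (tt Q.length)) Q.length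
    · have hQ' : R (lev (tt Q.length)) (tt Q.length)
          (ph (Q.drop (pR Γ (lev (tt Q.length)) (lev (tt Q.length) + 1) Q.length)))
          (Wt e ph (fun j => pR Γ (lev (tt Q.length)) j Q.length)
            (Ico (lev (tt Q.length) + 1) m) Q) = some b := by
        have : rho Q = _ := if_pos hr
        rw [← this]; exact hQ
      have key := H2 i (lev (tt Q.length)) (tt P.length) (tt Q.length) _ _ (ph (P ++ Q)) _ _
        (Wt e ph (bt Γ (P ++ Q).length) (range m) (P ++ Q)) v b ?_ hL hQ'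
      · rw [key, tt_add, ← List.length_append]
      · intro hii
        rw [← hii] at hr ⊢
        obtain ⟨s1, s2, s3, s4⟩ := split hph e hΓ hi hc hr
        rw [s1, s2, s3, s4]
        exact total hph e hΓ (P ++ Q) hi
    · exfalso
      have : rho Q = none := if_neg hr
      rw [this] at hQ; simp at hQ
  · intro u hu hp hb v
    obtain ⟨i, hi, hh⟩ := H3 (tt u.length) (fun j h0 => hp (q j)
      (Finset.mem_image_of_mem q (Finset.mem_univ j))
      ((ZMod.natCast_eq_zero_iff _ _).1 h0)) (ph u)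
      (Wt e ph (bt Γ u.length) (range m) u) v
    obtain ⟨z, hz1, hz2⟩ := total hph e hΓ u hi
    obtain ⟨t, t', htt, hL, hRR⟩ := hh _ z _ _ _ hz1 hz2
    set T := u.length with hT
    set g := Γ ^ i with hgg
    have hgpos : 0 < g := Nat.pow_pos hΓpos
    obtain ⟨ω, hω1, hω2, hω3⟩ := NameGad808.crt_hit q (fun j => (hqp j).pos) hcop
      (fun j => (t j - ((T % g : ℕ) : ZMod (q j))) * ((g : ℕ) : ZMod (q j))⁻¹) 2
    have hr : T % g < g := Nat.mod_lt _ hgpos
    obtain ⟨o, ho⟩ : ∃ o, o = T % g + g * ω := ⟨_, rfl⟩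
    have hto : tt o = t := by
      funext j
      have hc : Nat.Coprime g (q j) := Nat.Coprime.pow_left _ (hcΓ.coprime_dvd_right (hqM j))
      show ((o : ℕ) : ZMod (q j)) = t j
      rw [ho]
      push_cast
      rw [hω3 j]
      have h1 := ZMod.coe_mul_inv_eq_one g hc
      calc ((T % g : ℕ) : ZMod (q j)) + (g : ZMod (q j)) *
            ((t j - ((T % g : ℕ) : ZMod (q j))) * ((g : ℕ) : ZMod (q j))⁻¹)
          = ((T % g : ℕ) : ZMod (q j)) + (t j - ((T % g : ℕ) : ZMod (q j))) *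
            ((g : ZMod (q j)) * ((g : ℕ) : ZMod (q j))⁻¹) := by ring
        _ = t j := by rw [h1]; ring
    have hcell : Cell M Γ i o := by
      constructor
      · show 2 * g ≤ o
        rw [ho]
        have : g * 2 ≤ g * ω := Nat.mul_le_mul_left _ hω1
        omega
      · show o < (M + 2) * g
        rw [ho]
        have h1 : g * ω ≤ g * (M + 1) := Nat.mul_le_mul_left _ (by omega)
        have h2 : (M + 2) * g = g * (M + 1) + g := by ring
        omega
    have hoT : o ≤ T := by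
      have h1 := hcell.2
      have h2 : (M + 2) * Γ ^ i ≤ (M + 2) * Γ ^ m :=
        Nat.mul_le_mul_left _ (Nat.pow_le_pow_right hΓpos hi.le)
      omega
    have hdvd : Γ ^ i ∣ T - o := by
      refine ⟨T / g - ω, ?_⟩
      have h1 := Nat.div_add_mod T g
      rw [Nat.mul_sub, ho]
      show T - (T % g + g * ω) = g * (T / g) - g * ω
      omega
    have hRL : RL M Γ m i (T - o) := RL_of_not_bad hΓ hi hcell hoT hdvd hb
    have hlP : (u.take o).length = o := by rw [List.length_take]; omega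
    have hlQ : (u.drop o).length = T - o := by rw [List.length_drop]
    have htQ : tt (u.drop o).length = t' := by
      have h1 : tt o + tt (T - o) = tt T := by rw [tt_add]; congr 1; omega
      rw [← htt, hto] at h1
      rw [hlQ]
      exact add_left_cancel h1
    have hPQ : u.take o ++ u.drop o = u := List.take_append_drop _ _
    obtain ⟨b, hb'⟩ := Option.isSome_iff_exists.1 hRR
    have hlev : lev t' = i := (H1 _ _ _ _ _ hb').1.symm
    have hsp := split hph e (P := u.take o) (Q := u.drop o) hΓ hi (by rw [hlP]; exact hcell)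
      (by rw [hlQ]; exact hRL)
    rw [hPQ] at hsp
    obtain ⟨s1, s2, s3, s4⟩ := hsp
    refine ⟨u.take o, u.drop o, hPQ, ?_, ?_⟩
    · rw [lam_spec (u.take o) i hi (by rw [hlP]; exact hcell), s1, s3, hlP, hto]
      exact hL
    · have h1 : rho (u.drop o) = _ := if_pos (by rw [htQ, hlev, hlQ]; exact hRL)
      rw [h1, htQ, hlev, s2, s4]
      exact hRR
  · intro u u' h1 h2 h3 h4
    have hl := tt_congr _ _ h3
    refine ⟨?_, ?_⟩
    · show (if RL M Γ m (lev (tt u.length)) u.length then _ else none) =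
        (if RL M Γ m (lev (tt u'.length)) u'.length then _ else none)
      rw [hl]
      by_cases hlm : lev (tt u'.length) < m
      · have hrl := RL_congr (i := lev (tt u'.length)) h3 hlm.le
        by_cases hr : RL M Γ m (lev (tt u'.length)) u'.length
        · rw [if_pos hr, if_pos (hrl.2 hr)]
          congr 1
          · rw [pR_congr h3 (by omega : lev (tt u'.length) + 1 ≤ m)]
            exact drop_local hph h1 (pR_le hΓpos (by omega)) h2
          · refine Finset.sum_congr rfl fun j hj => ?_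
            rw [Finset.mem_Ico] at hj
            show e j (ph (seg u (pR Γ (lev (tt u'.length)) j u.length)
              (pR Γ (lev (tt u'.length)) (j + 1) u.length))) = _
            rw [pR_congr h3 (by omega : j ≤ m), pR_congr h3 (by omega : j + 1 ≤ m),
              seg_local h1 (pR_le hΓpos (by omega))]
        · rw [if_neg hr, if_neg (fun h => hr (hrl.1 h))]
      · have hnone : ∀ h wr, R (lev (tt u'.length)) (tt u'.length) h wr = none := by
          intro h wr
          by_contra hne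
          obtain ⟨b, hb⟩ := Option.ne_none_iff_exists'.1 hne
          exact hlm (H1 _ _ _ _ _ hb).2
        rw [hnone, hnone]
        split_ifs <;> rfl
    · show D (tt u.length) (ph u) _ = D (tt u'.length) (ph u') _
      rw [hl, h4]
      congr 1
      refine Finset.sum_congr rfl fun j hj => ?_
      rw [Finset.mem_range] at hj
      rw [bt_congr h3 hj.le, bt_congr h3 (by omega : j + 1 ≤ m),
        seg_local h1 (bt_le hΓpos (by omega))]

end Crest.Agent.R320.Grid463
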