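import Crest.Agent.R320.Fin1_660
import Crest.Agent.R320.Grid_463
import Crest.Agent.R320.SpoilGrid_567
import Crest.Agent.R320.ExactR_237
import Crest.Agent.R320.LWallAll_922
import Crest.Agent.R320.FS_601

/-!
Row 320: constants and join (660's `top814`, the grid gadget, the ruler, the exact gadget, walls).
-/

set_option autoImplicit false
set_option linter.all false

namespace Crest.Agent.R320.Fin463

open Crest.Agent.R320.Hk_851 Crest.Agent.R320

/-- the bad totals of the grid gadget are bad for the ruler -/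
theorem badT_of {Ms : Finset ℕ} {M G m T : ℕ} (hG : 0 < G)
    (h : (∃ p ∈ Ms, p ∣ T) ∨ Grid463.Bad M G m T) :
    SpoilGrid_567.BadT Ms M G m (fun _ => 0) (T : ℤ) := by
  rcases h with ⟨p, hp, hd⟩ | ⟨j, h1, h2, h3⟩
  · exact Or.inl ⟨p, hp, by exact_mod_cast hd⟩
  · refine Or.inr ⟨j, h1, h2, ?_⟩
    have e := Nat.div_add_mod T (G ^ j)
    have hlt : T % G ^ j < G ^ j := Nat.mod_lt _ (Nat.pow_pos hG)
    set g := G ^ j with hg
    set r := T % g with hr
    set d := T / g with hd
    have e' : (T : ℤ) = g * d + r := by exact_mod_cast e.symm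
    have eg : ((G : ℤ) ^ j) = (g : ℤ) := by rw [hg]; push_cast; rfl
    have eb : ((M : ℤ) * (G : ℤ) ^ (j - 1)) = ((M * G ^ (j - 1) : ℕ) : ℤ) := by push_cast; rfl
    rcases h3 with h3 | h3
    · refine ⟨(d : ℤ), ?_⟩
      rw [eg, eb, e']
      have : ((g : ℤ) * d + r - 0 - d * g) = (r : ℤ) := by ring
      rw [this, abs_of_nonneg (by positivity)]
      exact_mod_cast h3.le
    · refine ⟨(d : ℤ) + 1, ?_⟩
      rw [eg, eb, e']
      have : ((g : ℤ) * d + r - 0 - (d + 1) * g) = (r : ℤ) - g := by ring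
      rw [this, abs_of_nonpos (by have : (r : ℤ) < g := by exact_mod_cast hlt
                                  linarith)]
      have : (g : ℤ) ≤ r + ((M * G ^ (j - 1) : ℕ) : ℤ) := by exact_mod_cast h3
      linarith

/-- the spoil count -/
theorem spoil {α : Type} {Wo : List α → Prop} {n W : ℕ} (hW : JointSem_814.Walls n W Wo)
    {z p0 N K C0 : ℕ} {x : ℕ → ℕ} {BadT : ℕ → Prop} {BZ : ℤ → Prop} (hBZ : ∀ T : ℕ, BadT T → BZ T)
    (hx : ∀ k < K, x k ≤ p0) (hWb : 2 * (p0 + N) + 1 ≤ W) (hz : p0 ≤ z)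
    (hsep : ∀ a b c d, a < K → b < K → c < K → d < K → a ≠ b →
        |((x a : ℤ) - x b) - (x c - x d)| ≤ (2 * N : ℕ) → a = c ∧ b = d)
    (hthin : ∀ T : ℤ, ∃ F : Finset (ℕ × ℕ), F.card ≤ C0 ∧ ∀ a b, a < K → b < K → a ≠ b →
      BZ (T + x a - x b) → (a, b) ∈ F)
    (U : List α) :
    ∃ J : Finset ℕ, J.card < 2 + 2 * C0 ∧
      ∀ k < K, JointSem_814.Spoiled Wo z p0 N K x BadT U k → k ∈ J := by
  classical
  -- events of type E
  let E : ℕ → Prop := fun k => ∃ k' < K, k' ≠ k ∧ ∃ s, s ≤ U.length ∧ Wo (U.take s) ∧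
    z + x k ≤ s + x k' + N ∧ s + x k' < z + N + x k
  let JE : Finset ℕ := (Finset.range K).filter E
  have hJE : JE.card ≤ 1 := by
    rw [Finset.card_le_one]
    intro a ha b hb
    obtain ⟨ha1, a', ha', haa, s, hs1, hs2, hs3, hs4⟩ := Finset.mem_filter.1 ha
    obtain ⟨hb1, b', hb', hbb, t, ht1, ht2, ht3, ht4⟩ := Finset.mem_filter.1 hb
    rw [Finset.mem_range] at ha1 hb1
    have := hx a ha1; have := hx a' ha'; have := hx b hb1; have := hx b' hb'
    have hst : s = t := by
      rcases lt_trichotomy s t with h | h | h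
      · exact (hW.gap U s t h (by omega) ht1 hs2 ht2).elim
      · exact h
      · exact (hW.gap U t s h (by omega) hs1 ht2 hs2).elim
    subst hst
    have key := hsep a a' b b' ha1 ha' hb1 hb' (Ne.symm haa) (by
      rw [abs_le]
      push_cast
      constructor <;> omega)
    exact key.1
  -- the two possible walls of type B
  let P0 : ℕ → Prop := fun s => s ≤ U.length ∧ Wo (U.take s) ∧ z ≤ s + p0
  obtain ⟨s0, s1, hs01⟩ : ∃ s0 s1 : ℕ, ∀ k < K, ∀ k' < K, ∀ s, s ≤ U.length → Wo (U.take s) →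
      z + x k ≤ s + x k' → (∀ t, t < s → Wo (U.take t) → t + x k' < z + x k) →
      s = s0 ∨ s = s1 := by
    by_cases h0 : ∃ s, P0 s
    · have hf0 := Nat.find_spec h0
      set s0 := Nat.find h0 with hs0
      by_cases h1 : ∃ s, s0 < s ∧ s ≤ U.length ∧ Wo (U.take s)
      · have hf1 := Nat.find_spec h1
        set s1 := Nat.find h1 with hs1
        refine ⟨s0, s1, fun k hk k' hk' s hs hw hzs hmin => ?_⟩
        have := hx k hk; have := hx k' hk'
        have hle : s0 ≤ s := by
          by_contra hlt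
          exact Nat.find_min h0 (by omega : s < Nat.find h0) ⟨hs, hw, by omega⟩
        rcases hle.eq_or_lt with he | hlt
        · exact Or.inl he.symm
        · right
          have hle1 : s1 ≤ s := by
            by_contra hlt1
            exact Nat.find_min h1 (by omega : s < Nat.find h1) ⟨hlt, hs, hw⟩
          rcases hle1.eq_or_lt with he | hlt1
          · exact he.symm
          · exfalso
            have h2 := hmin s1 hlt1 hf1.2.2
            have h3 := hf0.2.2
            exact hW.gap U s0 s1 hf1.1 (by omega) hf1.2.1 hf0.2.1 hf1.2.2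
      · refine ⟨s0, s0, fun k hk k' hk' s hs hw hzs hmin => ?_⟩
        have := hx k hk; have := hx k' hk'
        have hle : s0 ≤ s := by
          by_contra hlt
          exact Nat.find_min h0 (by omega : s < Nat.find h0) ⟨hs, hw, by omega⟩
        rcases hle.eq_or_lt with he | hlt
        · exact Or.inl he.symm
        · exact absurd ⟨s, hlt, hs, hw⟩ h1
    · refine ⟨0, 0, fun k hk k' hk' s hs hw hzs hmin => ?_⟩
      have := hx k hk; have := hx k' hk'
      exact absurd ⟨s, hs, hw, by omega⟩ h0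
  obtain ⟨F0, hF0, hF0'⟩ := hthin ((s0 : ℤ) - p0)
  obtain ⟨F1, hF1, hF1'⟩ := hthin ((s1 : ℤ) - p0)
  refine ⟨JE ∪ (F0.image Prod.snd ∪ F1.image Prod.snd), ?_, ?_⟩
  · have h1 := Finset.card_union_le JE (F0.image Prod.snd ∪ F1.image Prod.snd)
    have h2 := Finset.card_union_le (F0.image Prod.snd) (F1.image Prod.snd)
    have h3 : (F0.image Prod.snd).card ≤ F0.card := Finset.card_image_le
    have h4 : (F1.image Prod.snd).card ≤ F1.card := Finset.card_image_le
    omega
  · rintro k hk ⟨k', hk', hne, hev⟩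
    rw [Finset.mem_union]
    rcases hev with ⟨s, a1, a2, a3, a4⟩ | ⟨s, a1, a2, a3, a4, a5⟩
    · left
      exact Finset.mem_filter.2 ⟨Finset.mem_range.2 hk, k', hk', hne, s, a1, a2, a3, a4⟩
    · right
      have h6 := hBZ _ a5
      have := hx k hk; have := hx k' hk'
      have h7 : ((s + x k' - x k - p0 : ℕ) : ℤ) = ((s : ℤ) - p0) + x k' - x k := by
        by_cases hh : x k + p0 ≤ s + x k'
        · have : ((s + x k' - x k - p0 : ℕ) : ℤ) = (s : ℤ) + x k' - x k - p0 := by omega
          rw [this]; ring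
        · omega
      rw [h7] at h6
      rw [Finset.mem_union]
      rcases hs01 k hk k' hk' s a1 a2 a3 a4 with he | he
      · subst he
        exact Or.inl (Finset.mem_image.2 ⟨(k', k), hF0' k' k hk' hk hne h6, rfl⟩)
      · subst he
        exact Or.inr (Finset.mem_image.2 ⟨(k', k), hF1' k' k hk' hk hne h6, rfl⟩)

theorem fin (α : Type) [Finite α] (S : Type) [Monoid S] [Finite S] (f : α → S) (s : S) :
    HL 3 ({w | (w.map f).prod = s} : Language α) := by
  classical
  haveI := Fintype.ofFinite S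
  haveI : Finite (S → ZMod 2) := inferInstance
  let act : (S → ZMod 2) → S → (S → ZMod 2) := fun v a u => v (a * u)
  obtain ⟨m, k, hG⟩ := Grid463.grid S (S → ZMod 2) act
  obtain ⟨K, hK⟩ := ExactR_237.exact_gadget α S (S → ZMod 2) f act (2 + 2 * (k + m))
  obtain ⟨Ms, hMsc, hMsp, hG⟩ := hG (4 ^ K)
  obtain ⟨M, hM⟩ : ∃ M, M = ∏ p ∈ Ms, p := ⟨_, rfl⟩
  have hMpos : 0 < M := by
    rw [hM]; exact Finset.prod_pos fun p hp => (hMsp p hp).2.1.pos
  set Γ : ℕ := 2 ^ (M + 2 + 16 * (m + 1) * M * 4 ^ K) with hΓdef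
  have hΓbig : M + 2 + 16 * (m + 1) * M * 4 ^ K ≤ Γ := (Nat.lt_two_pow_self).le
  have hpc : ∀ p ∈ Ms, Nat.Coprime p Γ := fun p hp =>
    Nat.Coprime.pow_right _ ((Nat.coprime_primes (hMsp p hp).2.1 Nat.prime_two).2 (hMsp p hp).2.2)
  have hΓM : Nat.Coprime Γ M := by
    rw [hM]; exact Nat.Coprime.prod_right fun p hp => (hpc p hp).symm
  let ph : List α → S := fun w => (w.map f).prod
  have hph : ∀ u v, ph (u ++ v) = ph u * ph v := by
    intro u v; simp [ph]
  obtain ⟨lam, rho, nu, g1, g2, g3, g4⟩ := hG M hM Γ (by omega) hΓM α ph hph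
  set N : ℕ := (M + 2) * Γ ^ m with hN
  obtain ⟨x, hx1, hx2, hx3⟩ := SpoilGrid_567.spoil_grid K m Ms M Γ (2 * N)
    (fun q hq => (hMsp q hq).1) hpc
    (fun q hq q' hq' hne => (Nat.coprime_primes (hMsp q hq).2.1 (hMsp q' hq').2.1).2 hne)
    hMpos (by omega)
  obtain ⟨lam2, rho2, nu2, e1, e2⟩ := hK x (fun i j hij _ => by have := hx1 i j hij; omega)
  obtain ⟨p0, hp0⟩ : ∃ p0, p0 = x K := ⟨_, rfl⟩
  have hxp : ∀ k < K, x k ≤ p0 := fun k hk => by have := hx1 k K hk; omega
  obtain ⟨n, G', B, Wo, hLW, hgap, -, -, hfree⟩ :=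
    LWallAll_922.walls_all_left α (2 * (p0 + N) + 1) (by omega)
  have hWalls : JointSem_814.Walls n (2 * (p0 + N) + 1) Wo :=
    { loc := hLW.1
      len := hLW.2
      gap := fun X s t h1 h2 h3 h4 h5 => by
        have := hgap X s t h1 h3 h4 h5
        omega }
  have hWU : Fib_298.WallU Wo n (max B (2 * (p0 + N) + 1)) :=
    { loc := hLW.1
      len := hLW.2
      free := fun X hX => by
        obtain ⟨u, y, v, j, h1, h2, h3, h4⟩ := hfree X hX
        exact ⟨u, y, v, j, h4, le_max_of_le_left h1, le_max_of_le_right h2, le_max_of_le_left h3⟩ }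
  have hnu : ∀ y, Language.IsRegular ({Y | nu Y = y} : Language α) := by
    intro y
    refine FS_601.regular_of_class_drop f (2 * Γ ^ m) (M * Γ ^ m)
      (Nat.mul_pos hMpos (Nat.pow_pos (by omega))) _ ?_
    intro u u' h1 h2 h3 h4 h5
    have h6 : ph u = ph u' := by
      have a1 : ph (u.take (2 * Γ ^ m) ++ u.drop (2 * Γ ^ m)) = ph u := by
        rw [List.take_append_drop]
      have a2 : ph (u'.take (2 * Γ ^ m) ++ u'.drop (2 * Γ ^ m)) = ph u' := by
        rw [List.take_append_drop]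
      rw [← a1, ← a2, hph, hph, h3]
      congr 1
    have := (g4 u u' h3 h5 h4 h6).2
    show nu u = y ↔ nu u' = y
    rw [this]
  let BadT : ℕ → Prop := fun T => (∃ p ∈ Ms, p ∣ T) ∨ Grid463.Bad M Γ m T
  refine Fin_660.top814 (S := S) (V := S → ZMod 2) (z := 2 * p0 + 2 * N + n + 1) (p0 := p0)
    (N := N) (N0 := N) (K := K) (R := 2 + 2 * (k + m)) hWU hWalls f act ?_ ?_ ?_ ?_ nu
    (fun w => nu2 w 1) hnu (lam := lam) (rho := rho) (BadT := BadT) (by omega) (by omega)
    (by omega) ?_ ?_ ?_ (c := x) (lam2 := lam2) (rho2 := fun k Q => rho2 k Q 1) hxp ?_ ?_ ?_ s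
  · intro a b t; rfl
  · intro v; funext u; show v (1 * u) = v u; rw [one_mul]
  · intro v a b; funext u; show v (a * b * u) = v (a * (b * u)); rw [mul_assoc]
  · intro a b h
    have := congrFun (h (fun u => if u = a then 1 else 0)) 1
    change (if a * 1 = a then (1 : ZMod 2) else 0) = (if b * 1 = a then (1 : ZMod 2) else 0) at this
    rw [mul_one, mul_one, if_pos rfl] at this
    by_contra hne
    rw [if_neg (fun h => hne h.symm)] at this
    exact one_ne_zero this
  · intro p v hv; exact (g1 p v hv).le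
  · intro p q v r h1 h2; exact g2 p q v r h1 h2
  · intro u hu hb v
    have hb' : (∀ p ∈ Ms, ¬ p ∣ u.length) ∧ ¬ Grid463.Bad M Γ m u.length := by
      constructor
      · intro p hp hd; exact hb (Or.inl ⟨p, hp, hd⟩)
      · intro h; exact hb (Or.inr h)
    exact g3 u hu hb'.1 hb'.2 v
  · intro k hk P Q v b hP h1 h2
    have := e1 k hk P Q 1 v b hP h1 h2
    rw [mul_one] at this
    exact this
  · intro u v hu
    exact e2 u 1 v hu
  · intro U hU
    refine spoil hWalls (BZ := SpoilGrid_567.BadT Ms M Γ m (fun _ => 0))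
      (fun T h => badT_of (by omega) h) hxp le_rfl (by omega) hx2 (fun T => ?_) U
    refine ⟨_, (hx3 (fun _ => 0) T).trans (Nat.add_le_add_right hMsc m), fun a b ha hb hne h => ?_⟩
    exact Finset.mem_filter.2 ⟨Finset.mem_product.2 ⟨Finset.mem_range.2 ha,
      Finset.mem_range.2 hb⟩, hne, h⟩

end Crest.Agent.R320.Fin463
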