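import Crest.Agent.R320.Top5_120
import Crest.Agent.R320.Sc2n_937
import Crest.Agent.R320.G1_852
import Crest.Agent.R320.Sp_597
import Crest.Agent.R320.ExactR_237
import Crest.Agent.R320.LWallAll_922
import Crest.Agent.R320.P4_933

set_option autoImplicit false

namespace Crest.Agent.R320.Fin_470

open Crest.RegLang Crest.Agent.R320.Hk_851 Crest.Agent.R320.BddReg_746 Crest.Agent.R320.Blk467

section Reg

variable {α : Type} {S : Type}

/-- finite-state properties are regular (value of the rest) -/
theorem regular_of_class2 [Finite α] [Monoid S] [Finite S] (φ : α → S) (A M0 : ℕ)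
    (hM : 0 < M0) (f : List α → Prop)
    (hf : ∀ u u' : List α, A ≤ u.length → A ≤ u'.length → u.take A = u'.take A →
      u.length % M0 = u'.length % M0 →
      ((u.drop A).map φ).prod = ((u'.drop A).map φ).prod → (f u ↔ f u')) :
    Language.IsRegular ({u | f u} : Language α) := by
  classical
  haveI : NeZero M0 := ⟨by omega⟩
  have hfin : Finite {l : List α // l.length ≤ A} := List.finite_length_le α A
  let σ := {l : List α // l.length ≤ A} × ZMod M0 × S
  haveI : Fintype σ := Fintype.ofFinite σ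
  let st : List α → σ := fun u =>
    (⟨u.take A, by rw [List.length_take]; omega⟩, (u.length : ZMod M0), ((u.drop A).map φ).prod)
  let M : DFA α σ :=
    { step := fun q a =>
        (if h : q.1.1.length < A then (⟨q.1.1 ++ [a], by simp; omega⟩, q.2.1 + 1, q.2.2)
          else (q.1, q.2.1 + 1, q.2.2 * φ a))
      start := st []
      accept := {q | ∃ u, f u ∧ st u = q} }
  have hev : ∀ u, M.eval u = st u := by
    intro u
    induction u using List.reverseRecOn with
    | nil => rfl
    | append_singleton u a ih =>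
      rw [DFA.eval_append_singleton, ih]
      by_cases h : u.length < A
      · have h1 : (st u).1.1.length < A := by
          show (u.take A).length < A
          rw [List.length_take]; omega
        show (if h : (st u).1.1.length < A then _ else _) = _
        rw [dif_pos h1]
        have e1 : u.take A = u := List.take_of_length_le (by omega)
        have e2 : (u ++ [a]).take A = u ++ [a] := List.take_of_length_le (by simp; omega)
        have e3 : u.drop A = [] := List.drop_of_length_le (by omega)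
        have e4 : (u ++ [a]).drop A = [] := List.drop_of_length_le (by simp; omega)
        refine Prod.ext (Subtype.ext ?_) (Prod.ext ?_ ?_)
        · show u.take A ++ [a] = (u ++ [a]).take A
          rw [e1, e2]
        · show (u.length : ZMod M0) + 1 = ((u ++ [a]).length : ZMod M0)
          simp
        · show ((u.drop A).map φ).prod = (((u ++ [a]).drop A).map φ).prod
          rw [e3, e4]
      · have h1 : ¬ (st u).1.1.length < A := by
          show ¬ (u.take A).length < A
          rw [List.length_take]; omega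
        show (if h : (st u).1.1.length < A then _ else _) = _
        rw [dif_neg h1]
        refine Prod.ext (Subtype.ext ?_) (Prod.ext ?_ ?_)
        · show u.take A = (u ++ [a]).take A
          rw [List.take_append_of_le_length (by omega)]
        · show (u.length : ZMod M0) + 1 = ((u ++ [a]).length : ZMod M0)
          simp
        · show ((u.drop A).map φ).prod * φ a = (((u ++ [a]).drop A).map φ).prod
          rw [List.drop_append_of_le_length (by omega)]
          simp
  have hst : ∀ u u', st u = st u' → (f u ↔ f u') := by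
    intro u u' h
    have h1 : u.take A = u'.take A := congrArg (fun q : σ => q.1.1) h
    have h2 : (u.length : ZMod M0) = (u'.length : ZMod M0) := congrArg (fun q : σ => q.2.1) h
    have h3 : ((u.drop A).map φ).prod = ((u'.drop A).map φ).prod :=
      congrArg (fun q : σ => q.2.2) h
    have hl := congrArg List.length h1
    rw [List.length_take, List.length_take] at hl
    by_cases hA : A ≤ u.length
    · exact hf u u' hA (by omega) h1 ((ZMod.natCast_eq_natCast_iff' _ _ _).1 h2) h3
    · have e1 : u.take A = u := List.take_of_length_le (by omega)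
      have e2 : u'.take A = u' := List.take_of_length_le (by omega)
      rw [e1, e2] at h1
      rw [h1]
  refine ⟨σ, inferInstance, M, ?_⟩
  ext u
  rw [DFA.mem_accepts, hev]
  constructor
  · rintro ⟨u', h1, h2⟩
    exact (hst u' u h2).1 h1
  · intro h
    exact ⟨u, h, rfl⟩

end Reg

theorem bad_mod {Ms : Finset ℕ} {M b m : ℕ} (hMs : ∀ k ∈ Ms, k ∣ M) {T T' : ℕ}
    (h : T % (M * b ^ m) = T' % (M * b ^ m)) :
    Sp_597.Bad Ms M b m T ↔ Sp_597.Bad Ms M b m T' := by
  have key : ∀ T T' : ℕ, T % (M * b ^ m) = T' % (M * b ^ m) →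
      Sp_597.Bad Ms M b m T → Sp_597.Bad Ms M b m T' := by
    intro T T' h hb
    have h0 : T ≡ T' [MOD M * b ^ m] := h
    rcases hb with ⟨k, hk, hkT⟩ | ⟨j, hj, hn⟩
    · left
      refine ⟨k, hk, ?_⟩
      have h1 : T ≡ T' [MOD k] := h0.of_dvd (Dvd.dvd.mul_right (hMs k hk) _)
      exact (h1.dvd_iff dvd_rfl).1 hkT
    · right
      refine ⟨j, hj, ?_⟩
      have h1 : T ≡ T' [MOD b ^ j * b] := h0.of_dvd (Dvd.dvd.mul_left (by
        rw [← pow_succ]; exact pow_dvd_pow b hj) _)
      have h2 : T / b ^ j % b = T' / b ^ j % b := by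
        rw [← Nat.mod_mul_right_div_self, ← Nat.mod_mul_right_div_self]
        exact congrArg (· / b ^ j) h1
      rw [← h2]; exact hn
  exact ⟨key T T' h, key T' T h.symm⟩

theorem fin (α : Type) [Finite α] (S : Type) [Monoid S] [Finite S] (φ : α → S) (s : S) :
    HL 3 ({w | (w.map φ).prod = s} : Language α) := by
  classical
  obtain ⟨act, hadd, hone, hmul, hfaith⟩ := exists_module S
  haveI := Fintype.ofFinite S
  obtain ⟨m, r, H1⟩ := G1_852.gadget (S := S) (V := S → ZMod 2) act
  obtain ⟨K, H2⟩ := ExactR_237.exact_gadget α S (S → ZMod 2) φ act (2 * (r + m) + 2)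
  obtain ⟨Ms, M, hcard, hMs, hM, H1'⟩ := H1 (4 ^ K)
  obtain ⟨b, hb⟩ : ∃ b : ℕ, b = (4 * 2 ^ K + 6) * M + 1 := ⟨_, rfl⟩
  have hbpos : 0 < b := by omega
  have hco : Nat.Coprime b M := by
    rw [hb]
    have : Nat.Coprime 1 M := Nat.coprime_one_left M
    simpa [Nat.Coprime] using this
  obtain ⟨lam, rho, nu1, g1, g2, g3, g4⟩ := H1' b hbpos hco α φ
  have hb2 : 4 * M * 2 ^ K + 2 * M + 4 ≤ b := by
    have h1 : b = 4 * M * 2 ^ K + 2 * M + 4 * M + 1 := by rw [hb]; ring
    omega
  obtain ⟨N1, hN1⟩ : ∃ N1 : ℕ, N1 = b ^ m := ⟨_, rfl⟩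
  have hN1pos : 0 < N1 := by rw [hN1]; exact pow_pos hbpos m
  obtain ⟨c, c1, c2, c3, c4⟩ := Sp_597.spoil_nat K m Ms M b hM
    (fun k hk => ⟨(hMs k hk).1, (hMs k hk).2.2⟩) hb2 hco N1
  obtain ⟨lam2, rho2, nu2, e1, e2⟩ := H2 c (fun i j hij _ => c1 hij)
  obtain ⟨p0, hp0⟩ : ∃ p0 : ℕ, p0 = c K := ⟨_, rfl⟩
  have hck : ∀ k, k < K → c k ≤ p0 := fun k hk => by rw [hp0]; exact (c1 hk).le
  obtain ⟨n, G, B, Wo, hLW, hsep, -, -, hdec⟩ :=
    LWallAll_922.walls_all_left α (2 * p0 + 2 * N1) (by omega)
  let g : Sc2n_937.Geo α :=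
    { Wo := Wo, n := n, z := p0 + N1 + (n + 3 * p0), p0 := p0, q0 := n + 3 * p0, N1 := N1,
      loc := hLW.app, hz := rfl, hq := by omega, hN := hN1pos, hqp := by omega }
  let V := S → ZMod 2
  let pre : List α → V → V := fun X v => act v (X.map φ).prod + nu2 X 1
  let post : V → List α → V := fun u Y => act u (Y.map φ).prod + nu1 Y
  let nuT : List α → V := fun X =>
    act (nu2 (X.take p0) 1) ((X.drop p0).map φ).prod + nu1 (X.drop p0)
  have hT : ∀ v X, g.T pre post v X = act v (X.map φ).prod + nuT X := by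
    intro v X
    show act (act v ((X.take p0).map φ).prod + nu2 (X.take p0) 1) ((X.drop p0).map φ).prod +
      nu1 (X.drop p0) = act v (X.map φ).prod +
        (act (nu2 (X.take p0) 1) ((X.drop p0).map φ).prod + nu1 (X.drop p0))
    rw [hadd, ← hmul, ← List.prod_append, ← List.map_append, List.take_append_drop, add_assoc]
  let BadT : ℕ → Prop := Sp_597.Bad Ms M b m
  have hlen : ∀ P v, lam P = some v → P.length ≤ g.N1 := by
    intro P v h
    have := g1 P v h
    show P.length ≤ N1
    omega
  have hex1 : ∀ P Q u b', lam P = some u → rho Q = some b' → b' = post u (P ++ Q) :=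
    fun P Q u b' h1 h2 => g2 P Q u b' h1 h2
  have hex2 : ∀ k, k < K → ∀ P Q v u, P.length = c k → Q.length = g.p0 - c k →
      lam2 k P = some v → rho2 k Q 1 = some u → u = pre (P ++ Q) v := by
    intro k hk P Q v u h1 _ h3 h4
    have := e1 k hk P Q 1 v u h1 h3 h4
    rw [mul_one] at this
    exact this
  have hgap : ∀ P Q : List α, g.Wo P → g.Wo (P ++ Q) → Q ≠ [] →
      2 * g.p0 + 2 * g.N1 < Q.length := by
    intro P Q h1 h2 h3
    have hl : 0 < Q.length := List.length_pos_iff.2 h3
    have := hsep (P ++ Q) P.length (P ++ Q).length (by simp; omega) le_rfl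
      (by rw [List.take_left]; exact h1) (by rw [List.take_length]; exact h2)
    rw [List.length_append] at this
    show 2 * p0 + 2 * N1 < Q.length
    omega
  have hsp : ∀ k k' l l', k < K → k' < K → l < K → l' < K → k' ≠ k → l' ≠ l →
      c k + c l' < c l + c k' + 2 * g.N1 → c l + c k' < c k + c l' + 2 * g.N1 → k = l := by
    intro k k' l l' _ _ _ _ h1 h2 h3 h4
    by_contra hne
    have h5 := c3 k k' l l' h1.symm h2.symm (fun h => hne h.1)
    have h3' : c k + c l' < c l + c k' + 2 * N1 := h3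
    have h4' : c l + c k' < c k + c l' + 2 * N1 := h4
    rw [lt_abs] at h5
    rcases h5 with h5 | h5 <;> push_cast at h5 <;> omega
  have hthin : ∀ τ, g.z ≤ τ + g.p0 → ∀ J : Finset ℕ, (∀ k ∈ J, k < K ∧
      ∃ k', k' < K ∧ k' ≠ k ∧ BadT (τ + c k' - c k - g.p0)) → J.card ≤ r + m := by
    intro τ hτ J hJ
    have hτ' : p0 + N1 + (n + 3 * p0) ≤ τ + p0 := hτ
    refine le_trans ?_ (le_trans (c4 (τ - p0)) (by omega))
    have hch : ∀ k ∈ J, ∃ k', k' < K ∧ k' ≠ k ∧ BadT (τ + c k' - c k - g.p0) :=
      fun k hk => (hJ k hk).2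
    choose! f hf using hch
    refine Finset.card_le_card_of_injOn (fun k => (k, f k)) ?_ ?_
    · intro k hk
      obtain ⟨h1, h2, h3⟩ := hf k hk
      have hkK := (hJ k hk).1
      have hk1 := hck k hkK
      simp only [Finset.coe_filter, Set.mem_setOf_eq, Finset.mem_product, Finset.mem_range]
      refine ⟨⟨hkK, h1⟩, h2.symm, by omega, ?_⟩
      have e : τ + c (f k) - c k - g.p0 = τ - p0 + c (f k) - c k := by
        show τ + c (f k) - c k - p0 = τ - p0 + c (f k) - c k
        omega
      rw [e] at h3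
      exact h3
    · intro k _ k' _ h
      exact (Prod.mk.inj h).1
  have hx2 : ∀ X, g.XX X → ∀ v, ∃ I : Finset ℕ, 2 * (r + m) + 2 ≤ I.card ∧ ∀ k ∈ I, k < K ∧
      lam2 k (X.take (c k)) = some v ∧ (rho2 k ((X.take g.p0).drop (c k)) 1).isSome := by
    intro X hX v
    have hXz : p0 + N1 + (n + 3 * p0) ≤ X.length := hX.1
    have hl0 : (X.take p0).length = p0 := by rw [List.length_take]; omega
    obtain ⟨I, h1, h2⟩ := e2 (X.take p0) 1 v (fun k hk => by rw [hl0]; exact hck k hk)
    refine ⟨I, h1, fun k hk => ?_⟩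
    obtain ⟨h3, h4, h5⟩ := h2 k hk
    rw [List.take_take, Nat.min_eq_left (hck k h3)] at h4
    exact ⟨h3, h4, h5⟩
  let C : Set (List α) := {X | g.XX X}
  let Bd : Set (List α) := {X | g.XX X ∧ g.BadX BadT X}
  let L1 : V → Set (List α) := fun v => {P | g.LP1 pre lam v P}
  let L2 : V → Set (List α) := fun v => {P | Sc2n_937.Geo.LP2 K c lam2 v P}
  have hC : PCode C := by
    refine ⟨fun h => ?_, fun X hX Y hY h => ?_⟩
    · have h0 : g.XX [] := h
      have h1 : p0 + N1 + (n + 3 * p0) ≤ ([] : List α).length := h0.1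
      simp at h1
      omega
    · obtain ⟨R, hR⟩ := h
      exact g.prefix_code (R := R) (R' := []) hX hY (by simpa using hR)
  have hf1 : ∀ v, (L1 v).Finite := fun v =>
    (List.finite_length_le α (p0 + N1)).subset fun P hP => by
      have hP' : g.LP1 pre lam v P := hP
      have h2 : (P.drop p0).length ≤ N1 := hlen _ _ hP'.2
      rw [List.length_drop] at h2
      show P.length ≤ p0 + N1
      omega
  have hf2 : ∀ v, (L2 v).Finite := fun v =>
    (List.finite_length_le α p0).subset fun P hP => by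
      obtain ⟨k, hk, h, _⟩ := hP
      show P.length ≤ p0
      rw [h]; exact hck k hk
  have hfree : ∀ u : List α, (∀ t < u.length, ¬ Wo (u.take t)) →
      u ∈ (PN (max B (2 * p0 + 2 * N1)) 2 : Language α) := by
    intro u hu
    obtain ⟨a, x, v, k, h1, h2, h3, rfl⟩ := hdec u hu
    show a ++ (List.replicate k x).flatten ++ v ∈
      (Pc (max B (2 * p0 + 2 * N1)) * (Pc (max B (2 * p0 + 2 * N1)) * 1) : Language α)
    refine Language.mem_mul.2 ⟨a ++ pw x k, ⟨a, x, k, by omega, by omega, rfl⟩, v, ?_, rfl⟩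
    exact Language.mem_mul.2 ⟨v, ⟨v, [], 0, by omega, by simp, by simp⟩, [],
      (Language.mem_one _).2 rfl, by simp⟩
  obtain ⟨A, hA⟩ : ∃ A : ℕ, A = (p0 + N1 + (n + 3 * p0)) + N1 := ⟨_, rfl⟩
  have hM0 : 0 < M * b ^ m := Nat.mul_pos hM (pow_pos hbpos m)
  have hval : ∀ u u' : List α, A ≤ u.length → A ≤ u'.length → u.take A = u'.take A →
      u.length % (M * b ^ m) = u'.length % (M * b ^ m) →
      ((u.drop A).map φ).prod = ((u'.drop A).map φ).prod →
      (u.map φ).prod = (u'.map φ).prod ∧ nuT u = nuT u' ∧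
        (g.BadX BadT u ↔ g.BadX BadT u') := by
    intro u u' h1 h2 h3 h4 h5
    have hpr : ∀ j ≤ A, ((u.drop j).map φ).prod = ((u'.drop j).map φ).prod := by
      intro j hj
      have e : ∀ w : List α, A ≤ w.length → w.drop j = (w.take A).drop j ++ w.drop A := by
        intro w hw
        conv_lhs => rw [← List.take_append_drop A w]
        rw [List.drop_append_of_le_length (by rw [List.length_take]; omega)]
      rw [e u h1, e u' h2, h3, List.map_append, List.map_append, List.prod_append,
        List.prod_append, h5]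
    have htk : ∀ j ≤ A, u.take j = u'.take j := by
      intro j hj
      have e : ∀ w : List α, w.take j = (w.take A).take j := by
        intro w
        rw [List.take_take, Nat.min_eq_left hj]
      rw [e u, e u', h3]
    have hlen2 : (u.drop p0).length % (M * b ^ m) = (u'.drop p0).length % (M * b ^ m) := by
      rw [List.length_drop, List.length_drop]
      have h6 : u.length - p0 + p0 ≡ u'.length - p0 + p0 [MOD M * b ^ m] := by
        rw [Nat.sub_add_cancel (by omega), Nat.sub_add_cancel (by omega)]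
        exact h4
      exact Nat.ModEq.add_right_cancel' p0 h6
    have htd : ∀ w : List α, (w.drop p0).take (b ^ m) = (w.take (p0 + b ^ m)).drop p0 := by
      intro w
      rw [List.drop_take]
      congr 1
      omega
    have hnu : nu1 (u.drop p0) = nu1 (u'.drop p0) := by
      refine (g4 _ _ ?_ ?_ hlen2).2
      · rw [htd, htd, htk _ (by omega)]
      · have h7 := hpr (p0 + b ^ m) (by omega)
        show (((u.drop p0).drop (b ^ m)).map φ).prod = (((u'.drop p0).drop (b ^ m)).map φ).prod
        rw [List.drop_drop, List.drop_drop]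
        exact h7
    refine ⟨?_, ?_, ?_⟩
    · have := hpr 0 (Nat.zero_le _)
      simpa using this
    · show act (nu2 (u.take p0) 1) ((u.drop p0).map φ).prod + nu1 (u.drop p0) =
        act (nu2 (u'.take p0) 1) ((u'.drop p0).map φ).prod + nu1 (u'.drop p0)
      rw [hnu, htk p0 (by omega), hpr p0 (by omega)]
    · have hbad : BadT (u.length - p0) ↔ BadT (u'.length - p0) := by
        refine bad_mod (fun k hk => (hMs k hk).2.2) ?_
        rw [List.length_drop, List.length_drop] at hlen2
        exact hlen2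
      have hE : ∀ w w' : List α, A ≤ w.length → A ≤ w'.length →
          (∀ j ≤ A, w.take j = w'.take j) → g.E w → g.E w' := by
        rintro w w' hw hw' htk' ⟨t, ht, hWt, h8, h9⟩
        have h9' : t < p0 + N1 + (n + 3 * p0) + N1 := h9
        refine ⟨t, by omega, ?_, h8, h9⟩
        rw [← htk' t (by omega)]
        exact hWt
      constructor
      · rintro (h | h)
        · exact Or.inl (hE u u' h1 h2 htk h)
        · exact Or.inr (hbad.1 h)
      · rintro (h | h)
        · exact Or.inl (hE u' u h2 h1 (fun j hj => (htk j hj).symm) h)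
        · exact Or.inr (hbad.2 h)
  have hXXeq : ∀ w, P4_933.XX Wo g.z w ↔ g.XX w := by
    intro w
    constructor
    · rintro ⟨h1, h2, h3⟩
      exact ⟨h2, h1, fun t ht htl => h3 t htl ht⟩
    · rintro ⟨h1, h2, h3⟩
      exact ⟨h2, h1, fun t htl ht => h3 t ht htl⟩
  have hCT : ∀ x y, HL 1 ({X | X ∈ C ∧ act x (X.map φ).prod + nuT X = y} : Language α) := by
    intro x y
    refine (P4_933.hl_XX (z := g.z) hLW.app hLW.len hfree
      (f := fun X => act x (X.map φ).prod + nuT X = y)
      (regular_of_class2 φ A (M * b ^ m) hM0 _ fun u u' h1 h2 h3 h4 h5 => ?_)).congr fun w => ?_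
    · obtain ⟨k1, k2, _⟩ := hval u u' h1 h2 h3 h4 h5
      rw [k1, k2]
    · constructor
      · rintro ⟨h1, h2⟩
        exact ⟨(hXXeq w).2 h1, h2⟩
      · rintro ⟨h1, h2⟩
        exact ⟨(hXXeq w).1 h1, h2⟩
  have hBT : ∀ x y, HL 1 ({X | X ∈ Bd ∧ act x (X.map φ).prod + nuT X = y} : Language α) := by
    intro x y
    refine (P4_933.hl_XX (z := g.z) hLW.app hLW.len hfree
      (f := fun X => g.BadX BadT X ∧ act x (X.map φ).prod + nuT X = y)
      (regular_of_class2 φ A (M * b ^ m) hM0 _ fun u u' h1 h2 h3 h4 h5 => ?_)).congr fun w => ?_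
    · obtain ⟨k1, k2, k3⟩ := hval u u' h1 h2 h3 h4 h5
      rw [k1, k2, k3]
    · constructor
      · rintro ⟨⟨h1, h1'⟩, h2⟩
        exact ⟨(hXXeq w).2 h1, h1', h2⟩
      · rintro ⟨h1, h1', h2⟩
        exact ⟨⟨(hXXeq w).1 h1, h1'⟩, h2⟩
  have htail : ∀ s, HL 1 ({w | (∀ X ∈ C, ¬ X <+: w) ∧ (w.map φ).prod = s} : Language α) := by
    intro s
    refine (P4_933.hl_NB (z := g.z) hLW.app hLW.len hfree
      (f := fun w => (w.map φ).prod = s)
      (regular_of_class2 φ 0 1 Nat.one_pos _ fun u u' _ _ _ _ h5 => ?_)).congr fun w => ?_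
    · have h6 : (u.map φ).prod = (u'.map φ).prod := by simpa using h5
      rw [h6]
    · constructor
      · rintro ⟨h1, h2⟩
        exact ⟨(P4_933.NB_iff Wo g.z w).2 fun P hP hX => h1 P ((hXXeq P).1 hX) hP, h2⟩
      · rintro ⟨h1, h2⟩
        exact ⟨fun X hX hP => (P4_933.NB_iff Wo g.z w).1 h1 X hP ((hXXeq X).2 hX), h2⟩
  refine Top5_120.top5 act hadd hone hmul hfaith φ nuT C Bd hC (fun X hX => hX.1) L1 L2 hf1 hf2
    hCT hBT htail ?_ ?_ s
  · -- scheme 1
    intro X hX hXb v
    have hX' : g.XX X := hX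
    have hXz : p0 + N1 + (n + 3 * p0) ≤ X.length := hX'.1
    have hnE : ¬ g.E X := fun h => hXb ⟨hX', Or.inl h⟩
    have hnB : ¬ BadT (X.length - p0) := fun h => hXb ⟨hX', Or.inr h⟩
    have hc1 : ∀ u : V, ∃ P Q, X.drop g.p0 = P ++ Q ∧ lam P = some u ∧ (rho Q).isSome := by
      intro u
      obtain ⟨P, Q, h1, h2, v', h3⟩ := g3 (X.drop p0)
        (fun k hk h => hnB (Or.inl ⟨k, hk, by rw [List.length_drop] at h; exact h⟩))
        (fun j hj => by
          by_contra hcon
          refine hnB (Or.inr ⟨j, hj, fun h => hcon ?_⟩)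
          rw [List.length_drop]
          exact ⟨h.1, by have := h.2; omega⟩) u
      exact ⟨P, Q, h1, h2, by rw [h3]; rfl⟩
    obtain ⟨P, Q, b', hPQ, hP, hQ⟩ := g.complete1 pre hlen hX' hnE hc1 v
    refine ⟨P, Q, hPQ.symm, hP, fun x P' hP' => ?_⟩
    obtain ⟨h1, h2⟩ := g.sound1 pre post hlen hex1 hP' hQ
    obtain ⟨h3, h4⟩ := g.sound1 pre post hlen hex1 hP hQ
    refine ⟨h1, ?_⟩
    rw [← hT, ← hT, h2, hPQ, h4]
  · -- scheme 2
    intro X hX Y hY v
    have hX' : g.XX X := hX.1
    have hY' : g.XX Y := hY.1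
    obtain ⟨P, Q, b', hPQ, hP, hQ⟩ := g.complete2 pre post (BadT := BadT) (K := K) (c := c)
      (lam2 := lam2) (rho2 := fun k Q => rho2 k Q 1) (C0 := r + m) hck hgap hsp hthin hX' hY' v
      (hx2 X hX' v)
    refine ⟨P, Q, hPQ, hP, fun x P' hP' => ?_⟩
    -- value along X, Y
    have hval0 : g.T pre post (g.T pre post v X) Y = b' := by
      obtain ⟨X2, h1, h2, h3⟩ := g.sound2 pre post hck hex2 (R := []) (R' := Y) hX' hX.2 hP hQ
        (by rw [List.append_nil]; exact hPQ)
      have h4 : X2 = Y := List.append_cancel_left (h2.symm.trans hPQ)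
      rw [h4] at h3
      exact h3
    obtain ⟨k', hk', hPl, hl'⟩ := hP'
    obtain ⟨k, hk, l, hend, hgood, hQX, u, hu, hb'⟩ := hQ
    have hcand : ∃ l', g.CEnd Q P'.length l' := by
      by_cases hkk : k' = k
      · rw [hPl, hkk]; exact ⟨l, hend⟩
      · obtain ⟨l', h1, _⟩ := hgood k' hk' hkk
        rw [hPl]; exact ⟨l', h1⟩
    obtain ⟨l', hl⟩ := hcand
    have hxx : g.XX (P' ++ Q.take l') := g.xx_of_cend (by rw [hPl]; exact hck k' hk') hl
    have hpre : P' ++ Q.take l' ++ Q.drop l' = P' ++ Q := by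
      rw [List.append_assoc, List.take_append_drop]
    by_cases hbx : g.BadX BadT (P' ++ Q.take l')
    · left
      obtain ⟨X2, h1, h2, h3⟩ := g.sound2 pre post hck hex2 (R := []) (R' := Q.drop l') hxx hbx
        (v := x) (P := P') ⟨k', hk', hPl, hl'⟩ ⟨k, hk, l, hend, hgood, hQX, u, hu, hb'⟩
        (by rw [List.append_nil]; exact hpre.symm)
      refine ⟨P' ++ Q.take l', ⟨hxx, hbx⟩, X2, h1, h2.symm, ?_⟩
      rw [← hT, ← hT, ← hT, ← hT, h3, hval0]
    · right
      exact ⟨P' ++ Q.take l', hxx, fun h => hbx h.2, ⟨Q.drop l', hpre⟩⟩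

end Crest.Agent.R320.Fin_470
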