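import Crest.Agent.R320.TopSem_474
import Crest.Agent.R320.CC_900
import Crest.Agent.R320.P4_911
import Crest.Agent.R320.G1_852
import Crest.Agent.R320.ExactR_237
import Crest.Agent.R320.Spoil_398
import Crest.Agent.R320.Top5_163
import Crest.Agent.R320.FewVal_228
import Crest.Agent.R320.Block_467

/-!
# Row 320: final assembly (helper474)

`fibre`: `{w | (w.map f).prod = s}` has height `≤ 3`, from: walls (228), gadget 1 (852), ruler (398),
exact gadget (237), completeness (900), semantic right labels (474), top (163), height 1 (911).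
-/

set_option autoImplicit false
set_option linter.unusedSectionVars false
set_option linter.unusedVariables false

namespace Crest.Agent.R320.Fin_474

open Crest.Agent.R320.Hk_851 Crest.Agent.R320.P4_911

theorem fibre (α : Type) [Finite α] (S : Type) [Monoid S] [Finite S] (f : α → S) (s : S) :
    HL 3 ({w | (w.map f).prod = s} : Language α) := by
  classical
  obtain ⟨act, hadd, hone, hmul, hfaith⟩ := Blk467.exists_module S
  haveI hFV : Finite (S → ZMod 2) := inferInstance
  obtain ⟨m, r, hg⟩ := G1_852.gadget (S := S) (V := S → ZMod 2) act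
  set C0 : ℕ := r + (m + 1) with hC0
  haveI := Fintype.ofFinite S
  haveI : Fintype (S → ZMod 2) := Fintype.ofFinite _
  obtain ⟨K, hK⟩ := ExactR_237.exact_gadget α S (S → ZMod 2) f act (2 + 2 * C0)
  obtain ⟨Ms, M, hcard, hMs, hM, hb⟩ := hg (max (2 ^ (K + 1)) (m + 1))
  set b : ℕ := 1 + M * ((4 * M + 1) * 2 ^ (K + 4)) with hbdef
  have hb0 : 0 < b := by omega
  have hcop : Nat.Coprime b M := (Nat.coprime_add_mul_left_left 1 M _).2 (Nat.coprime_one_left _)
  obtain ⟨lam, rho, nu, hlen, hsound, hcomp, hloc⟩ := hb b hb0 hcop α f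
  set N1 : ℕ := b ^ m with hN1
  have hbig : (4 * M + 1) * 2 ^ (K + 4) < b := by
    have h1 : (4 * M + 1) * 2 ^ (K + 4) ≤ M * ((4 * M + 1) * 2 ^ (K + 4)) :=
      Nat.le_mul_of_pos_left _ hM
    omega
  obtain ⟨x, hx1, hx2, hx3, hx4⟩ := Spoil_398.exists_ruler (Ms := Ms) (K := K) (M := M) (b := b)
    (m := m + 1) hM (Nat.succ_pos m)
    (fun p hp => ⟨(hMs p hp).2.1, (hMs p hp).2.2,
      lt_of_le_of_lt (le_max_left _ _) (hMs p hp).1, lt_of_le_of_lt (le_max_right _ _) (hMs p hp).1⟩)
    ⟨((4 * M + 1) * 2 ^ (K + 4) : ℕ), by rw [hbdef]; push_cast; ring⟩ hbig (4 * N1)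
  obtain ⟨lam2, rho2, nu2, h2s, h2c⟩ := hK x (fun i j hij _ => hx1 hij)
  set p0 : ℕ := x K with hp0
  obtain ⟨n, c', P', Sw, hn, hP, hS, hgap, hper, hfew⟩ :=
    FewVal_228.exists_walls α (2 * (p0 + N1) + 1) (by omega)
  have hloc' : ∀ P Q : List α, n ≤ Q.length → (Wo n Sw (P ++ Q) ↔ Wo n Sw Q) := by
    intro P Q hQ
    unfold Wo
    have e : (P ++ Q).drop ((P ++ Q).length - n) = Q.drop (Q.length - n) := by
      rw [List.length_append, List.drop_append, List.drop_of_length_le (by omega), List.nil_append]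
      congr 1; omega
    rw [e, List.length_append]
    constructor
    · rintro ⟨_, h⟩; exact ⟨hQ, h⟩
    · rintro ⟨_, h⟩; exact ⟨by omega, h⟩
  have hsep : ∀ (P : List α) (d : ℕ), Wo n Sw P → 0 < d → d ≤ 2 * (p0 + N1) →
      ¬ Wo n Sw (P.take (P.length - d)) := by
    intro P d hPw hd hd2 hw
    have h1 := (wo_iff_wl.1 hPw)
    have hlt : (P.take (P.length - d)).length = P.length - d := by
      rw [List.length_take]; omega
    obtain ⟨h2, h3⟩ := hw
    rw [hlt] at h2 h3
    have h4 : FewWalls_228.Wl n Sw P (P.length - d - n) := by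
      refine ⟨by omega, ?_⟩
      rw [List.drop_take] at h3
      have e : P.length - d - (P.length - d - n) = n := by omega
      rw [e] at h3
      exact h3
    have := hgap P (P.length - d - n) (P.length - n) (by omega) h4 h1.2
    omega
  have hpm : ∀ k, k < K → x k ≤ p0 := fun k hk => (hx1 hk).le
  let D : CC_900.Dat α S (S → ZMod 2) :=
    { φ := fun w => (w.map f).prod
      φ_app := fun u v => by rw [List.map_append, List.prod_append]
      act := act
      Wo := Wo n Sw
      n := n
      W := 2 * (p0 + N1)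
      loc := hloc'
      sep := hsep
      z := 3 * p0 + 4 * N1 + p0 + 2 * n + 2
      p0 := p0
      N1 := N1
      La := p0
      K := K
      C0 := C0
      c := x
      Bad := fun t => Spoil_398.BadT Ms M b (m + 1) t
      lam1 := lam
      rho1 := rho
      nu1 := nu
      lam1_len := fun p v h => (hlen p v h).le
      g1 := fun p q v r' h1 h2 _ => hsound p q v r' h1 h2
      g1c := by
        intro u _ hBad v
        have hB : (∀ k ∈ Ms, ¬ k ∣ u.length) ∧
            ∀ j < m, M ≤ u.length / b ^ j % b ∧ u.length / b ^ j % b + M < b := by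
          unfold Spoil_398.BadT at hBad
          push Not at hBad
          refine ⟨hBad.1, fun j hj => ?_⟩
          have := hBad.2 j (by omega)
          exact this
        obtain ⟨P, Q, h1, h2, v', h3⟩ := hcomp u hB.1 hB.2 v
        exact ⟨P, Q, h1.symm, h2, by rw [h3]; rfl⟩
      lam2 := lam2
      rho2 := fun k Q => rho2 k Q 1
      nu2 := fun P => nu2 P 1
      g2 := by
        intro k hk P Q v b' h1 _ h2 h3
        have := h2s k hk P Q 1 v b' h1 h2 h3
        rw [mul_one] at this
        exact this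
      g2c := by
        intro X v hX
        obtain ⟨I, h1, h2⟩ := h2c X 1 v (fun k hk => by rw [hX]; exact hpm k hk)
        exact ⟨I, by omega, h2⟩
      c_le := hpm
      c_inj := fun k l _ _ h => hx1.injective h
      spoil := by
        intro T hT F hF
        have h1 := hx4 T hT
        have h2 : (F.image Prod.swap).card = F.card :=
          Finset.card_image_of_injective _ Prod.swap_injective
        have h3 : F.image Prod.swap ⊆ (Finset.range K ×ˢ Finset.range K).filter
            (fun ab => ab.1 ≠ ab.2 ∧ Spoil_398.BadT Ms M b (m + 1) (T + x ab.1 - x ab.2)) := by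
          intro ab hab
          obtain ⟨a, ha, rfl⟩ := Finset.mem_image.1 hab
          obtain ⟨h4, h5, h6, h7⟩ := hF a ha
          simp only [Finset.mem_filter, Finset.mem_product, Finset.mem_range, Prod.fst_swap,
            Prod.snd_swap]
          exact ⟨⟨h5, h4⟩, fun h => h6 h.symm, h7⟩
        have h4 := Finset.card_le_card h3
        rw [h2] at h4
        omega
      space := by
        intro i j k l _ _ _ _ hij hkl hne
        by_contra hcon
        rw [not_or, not_lt, not_lt] at hcon
        have h1 := hx3 i j k l hij (by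
          rw [abs_le]
          constructor
          · have := hcon.1
            push_cast
            omega
          · have := hcon.2
            push_cast
            omega)
        exact hne (by rw [h1.1, h1.2])
      hz := le_refl _
      hW := le_refl _ }
  have hD : D = D := rfl
  have hXX : ∀ X, X ∈ D.XX ↔ FB n Sw D.z X := fun X => Iff.rfl
  have hzpos : 0 < D.z := by
    show 0 < 3 * p0 + 4 * N1 + p0 + 2 * n + 2
    omega
  have hfewP : Few n Sw := hfew
  -- regularity of the token map
  have hnuReg : ∀ a v' : S → ZMod 2, Reg (fun Y : List α => act a ((Y.map f).prod) + nu Y = v') := by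
    intro a v'
    have hm0 : 0 < M * b ^ m := Nat.mul_pos hM (Nat.pow_pos hb0)
    refine (Reg.cls f (b ^ m) (M * b ^ m) hm0 (fun y t j => ∃ Y : List α, Y.take (b ^ m) = y ∧
      ((Y.drop (b ^ m)).map f).prod = t ∧ Y.length % (M * b ^ m) = j ∧
      act a ((Y.map f).prod) + nu Y = v')).congr fun w => ?_
    constructor
    · intro h; exact ⟨w, rfl, rfl, rfl, h⟩
    · rintro ⟨Y, h1, h2, h3, h4⟩
      have h5 := (hloc Y w h1 h2 h3).2
      have h6 : (Y.map f).prod = (w.map f).prod := by
        rw [← List.take_append_drop (b ^ m) Y, ← List.take_append_drop (b ^ m) w,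
          List.map_append, List.map_append, List.prod_append, List.prod_append, h1, h2]
      rw [← h5, ← h6]; exact h4
  have hTReg : ∀ v v' : S → ZMod 2, Reg (fun X : List α => D.T v X = v') := by
    intro v v'
    refine (Reg.ex (ι := S → ZMod 2) fun a =>
      (Reg.take p0 (fun y => act v ((y.map f).prod) + nu2 y 1 = a)).and
        (Reg.drop p0 (hnuReg a v'))).congr fun w => ?_
    constructor
    · intro h; exact ⟨_, rfl, h⟩
    · rintro ⟨a, h1, h2⟩
      show act (act v (((w.take p0).map f).prod) + nu2 (w.take p0) 1) (((w.drop p0).map f).prod) +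
        nu (w.drop p0) = v'
      rw [h1]; exact h2
  have hXT : ∀ v v', HL 1 ({X | X ∈ D.XX ∧ D.T v X = v'} : Language α) := fun v v' =>
    (HL_FB hfewP D.z (hTReg v v')).congr fun w => Iff.rfl
  have hNP : ∀ s, HL 1 ({r | (∀ X ∈ D.XX, ¬ X <+: r) ∧ (r.map f).prod = s} : Language α) := by
    intro s
    refine (HL_NX hfewP D.z (Reg.prod f s)).congr fun w => ?_
    constructor
    · rintro ⟨h1, h2⟩
      exact ⟨fun X Y e hX => h1 X hX ⟨Y, e.symm⟩, h2⟩
    · rintro ⟨h1, h2⟩
      exact ⟨fun X hX ⟨Y, e⟩ => h1 X Y e.symm hX, h2⟩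
  have hf1 : {y : List α × (S → ZMod 2) | D.LP1 y.1 y.2}.Finite := by
    refine (((List.finite_length_le α (p0 + N1))).prod
      (Set.finite_univ (α := (S → ZMod 2)))).subset ?_
    rintro ⟨P, v⟩ ⟨h1, h2⟩
    refine ⟨?_, trivial⟩
    have h3 := D.lam1_len _ _ h2
    rw [List.length_drop] at h3
    change P.length - p0 ≤ N1 at h3
    show P.length ≤ p0 + N1
    omega
  have hf2 : {y : List α × (S → ZMod 2) | D.LP2 y.1 y.2}.Finite := by
    refine (((List.finite_length_le α p0)).prod
      (Set.finite_univ (α := (S → ZMod 2)))).subset ?_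
    rintro ⟨P, v⟩ ⟨k, h1, h2, h3⟩
    refine ⟨?_, trivial⟩
    have h4 := D.c_le k h1
    change P.length ≤ p0
    rw [h2]; exact h4
  have hS1 : ∀ Q, D.Sem1 Q ↔ TopSem_474.Sem1 D.XX D.T D.LP1 Q := by
    intro Q
    constructor
    · rintro ⟨h1, b', h2⟩; exact ⟨b', h1, h2⟩
    · rintro ⟨b', h1, h2⟩; exact ⟨h1, b', h2⟩
  have hCC : TopSem_474.CC D.XX D.T D.LP1 D.LP2 := by
    intro X hX X2 hX2 v
    rcases D.cc X hX X2 hX2 v with ⟨P, Q, h1, h2, h3⟩ | ⟨P, Q, h1, h2, h3, h4, b', h5⟩
    · exact Or.inl ⟨P, Q, h1, h2, (hS1 Q).1 h3⟩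
    · refine Or.inr ⟨P, Q, h1, h2, h3, b', h4, fun P1 v1 hP1 => ?_⟩
      rcases h5 P1 v1 hP1 with ⟨X', hX', hp, P', Q', e1, e2, e3, e4⟩ | h
      · exact Or.inl ⟨X', hX', hp, P', Q', e1, e2, e3, (hS1 Q').1 e4⟩
      · exact Or.inr h
  refine Top5_163.top (V := S → ZMod 2) (fun w : List α => (w.map f).prod) rfl
    (fun u v => by rw [List.map_append, List.prod_append]) act (fun v s s' => (hmul v s s').symm)
    hadd hfaith D.XX ?_ ?_ D.T
    (fun X => act (nu2 (X.take p0) 1) (((X.drop p0).map f).prod) + nu (X.drop p0)) ?_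
    D.LP1 D.LP2 (TopSem_474.R1 D.XX D.T D.LP1) (TopSem_474.R2 D.XX D.T D.LP1 D.LP2)
    (fun Q b' h => TopSem_474.R1_ne h) (fun Q b' h => TopSem_474.R2_ne h)
    (fun P v Q b' h1 h2 => TopSem_474.s1 P v Q b' h1 h2)
    (fun P v Q b' h1 h2 h3 => TopSem_474.s2 P v Q b' h1 h2 h3)
    (TopSem_474.cc hCC) hXT hNP (fun v => TopSem_474.hl_LP hf1 v)
    (fun v => TopSem_474.hl_LP hf2 v) (fun b' => TopSem_474.hl_R1 hXT hf1 b')
    (fun b' => TopSem_474.hl_R2 hXT hf1 hf2 b') s
  · rintro ⟨h1, _⟩
    rw [List.length_nil] at h1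
    omega
  · rintro X ⟨h1, h2, h3⟩ Y ⟨h4, h5, h6⟩
    by_contra hY
    have hl : 0 < Y.length := List.length_pos_iff.2 hY
    refine h6 X.length h1 (by rw [List.length_append]; omega) ?_
    rw [List.take_left]; exact h2
  · intro X hX v
    show act (act v (((X.take p0).map f).prod) + nu2 (X.take p0) 1) (((X.drop p0).map f).prod) +
      nu (X.drop p0) = act v ((X.map f).prod) +
        (act (nu2 (X.take p0) 1) (((X.drop p0).map f).prod) + nu (X.drop p0))
    rw [hadd, ← hmul, ← List.prod_append, ← List.map_append, List.take_append_drop, add_assoc]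

end Crest.Agent.R320.Fin_474
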