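import Crest.Agent.R320.Fin1_477
import Crest.Agent.R320.P4_933
import Crest.Agent.R320.ExactR_237
import Crest.Agent.R320.Top5_120
import Crest.Agent.R320.LWallAll_922
import Crest.Agent.R320.Sc2n_937
import Crest.Agent.R320.Reg_236

/-! Row 320, helper477: constants and join. -/

set_option autoImplicit false

namespace Crest.Agent.R320.Fin_477

open Crest.Agent.R320.Hk_851

theorem reg_iUnion {α : Type*} {ι : Type*} [Finite ι] {L : ι → Language α}
    (h : ∀ i, (L i).IsRegular) : Language.IsRegular ({w | ∃ i, w ∈ L i} : Language α) := by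
  have key : ∀ s : Set ι, s.Finite →
      Language.IsRegular ({w | ∃ i ∈ s, w ∈ L i} : Language α) := by
    intro s hs
    induction s, hs using Set.Finite.induction_on with
    | empty =>
      have e : ({w | ∃ i ∈ (∅ : Set ι), w ∈ L i} : Language α) = (⊥ : Language α) := by
        ext w
        exact ⟨fun ⟨i, hi, _⟩ => hi.elim, fun hw => hw.elim⟩
      rw [e]
      exact Reg_852.HL.isRegular (HL.bot (k := 0))
    | @insert i s _ _ ih =>
      let U : Language α := {w | ∃ j ∈ s, w ∈ L j}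
      have e : ({w | ∃ j ∈ insert i s, w ∈ L j} : Language α) = L i + U := by
        ext w
        constructor
        · rintro ⟨j, hj | hj, hw⟩
          · left; rw [← hj]; exact hw
          · right; exact ⟨j, hj, hw⟩
        · rintro (hw | ⟨j, hj, hw⟩)
          · exact ⟨i, Or.inl rfl, hw⟩
          · exact ⟨j, Or.inr hj, hw⟩
      rw [e]
      exact (h i).add ih
  have h1 := key Set.univ Set.finite_univ
  have e : ({w | ∃ i ∈ (Set.univ : Set ι), w ∈ L i} : Language α) = {w | ∃ i, w ∈ L i} := by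
    ext w
    exact ⟨fun ⟨i, _, hi⟩ => ⟨i, hi⟩, fun ⟨i, hi⟩ => ⟨i, trivial, hi⟩⟩
  rwa [e] at h1

theorem fin (α : Type) [Finite α] (S : Type) [Monoid S] [Finite S] (φ : α → S) (s : S) :
    HL 3 ({w | (w.map φ).prod = s} : Language α) := by
  classical
  obtain ⟨act, hadd, hone, hmul, hfaith⟩ := Blk467.exists_module S
  haveI := Fintype.ofFinite S
  obtain ⟨C0, H1⟩ := Fin1_477.gadget1 S (S → ZMod 2) act
  obtain ⟨K, H2⟩ := ExactR_237.exact_gadget α S (S → ZMod 2) φ act (2 * C0 + 2)
  obtain ⟨N1, L0, M0, Bad, x, hM0, hN1, hNL, hx1, hx2, hthin, hper, H3⟩ := H1 K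
  obtain ⟨lam, rho, nu1, g1, g2, g3, g4⟩ := H3 α (fun w => (w.map φ).prod)
    (by intro u v; simp)
  obtain ⟨lam2, rho2, nu2, e1, e2⟩ := H2 x (fun i j hij _ => hx1 i j hij)
  obtain ⟨p0, hp0⟩ : ∃ p0, p0 = x K := ⟨_, rfl⟩
  have hxp : ∀ k, k < K → x k ≤ p0 := fun k hk => by rw [hp0]; exact (hx1 k K hk).le
  obtain ⟨n, Gp, B, Wo, hLW, hgapW, -, -, hfree⟩ :=
    LWallAll_922.walls_all_left α (2 * p0 + 2 * N1 + 1) (by omega)
  have loc : ∀ P Q : List α, n ≤ Q.length → (Wo (P ++ Q) ↔ Wo Q) := hLW.app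
  have wlen : ∀ P : List α, Wo P → n ≤ P.length := hLW.len
  obtain ⟨q0, hq0⟩ : ∃ q0, q0 = n + 2 * p0 + L0 + 1 := ⟨_, rfl⟩
  obtain ⟨z, hz⟩ : ∃ z, z = p0 + N1 + q0 := ⟨_, rfl⟩
  let g : Sc2n_937.Geo α := ⟨Wo, n, z, p0, q0, N1, loc, hz, by omega, hN1, by omega⟩
  let pre : List α → (S → ZMod 2) → (S → ZMod 2) := fun X0 v => act v (X0.map φ).prod + nu2 X0 1
  let post : (S → ZMod 2) → List α → (S → ZMod 2) := fun u Y => act u (Y.map φ).prod + nu1 Y
  let nu : List α → (S → ZMod 2) := fun X =>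
    act (nu2 (X.take p0) 1) ((X.drop p0).map φ).prod + nu1 (X.drop p0)
  have hT : ∀ v X, act v (X.map φ).prod + nu X = g.T pre post v X := by
    intro v X
    have e : (X.map φ).prod = ((X.take p0).map φ).prod * ((X.drop p0).map φ).prod := by
      rw [← List.prod_append, ← List.map_append, List.take_append_drop]
    show act v (X.map φ).prod + (act (nu2 (X.take p0) 1) ((X.drop p0).map φ).prod +
      nu1 (X.drop p0)) = act (act v ((X.take p0).map φ).prod + nu2 (X.take p0) 1)
        ((X.drop p0).map φ).prod + nu1 (X.drop p0)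
    rw [e, hadd, hmul]
    abel
  have hlen1 : ∀ P v, lam P = some v → P.length ≤ g.N1 := g2
  have hex1 : ∀ P Q u b, lam P = some u → rho Q = some b → b = post u (P ++ Q) := fun P Q u b =>
    g1 P Q u b
  let rho2' : ℕ → List α → Option (S → ZMod 2) := fun k Q => rho2 k Q 1
  have hex2 : ∀ k, k < K → ∀ P Q v u, P.length = x k → Q.length = g.p0 - x k →
      lam2 k P = some v → rho2' k Q = some u → u = pre (P ++ Q) v := by
    intro k hk P Q v u hP _ hl hr
    have := e1 k hk P Q 1 v u hP hl hr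
    rw [this]
    show act v (ExactR_237.pr φ (P ++ Q) * 1) + _ = act v ((P ++ Q).map φ).prod + _
    rw [mul_one]
    rfl
  -- the gap
  have hgap : ∀ P Q : List α, g.Wo P → g.Wo (P ++ Q) → Q ≠ [] →
      2 * g.p0 + 2 * g.N1 < Q.length := by
    intro P Q hP hQ hne
    have hl : 0 < Q.length := List.length_pos_iff.2 hne
    have := hgapW (P ++ Q) P.length (P ++ Q).length (by simp only [List.length_append]; omega)
      le_rfl (by rw [List.take_left]; exact hP) (by rw [List.take_length]; exact hQ)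
    simp only [List.length_append] at this
    show 2 * p0 + 2 * N1 < Q.length
    omega
  have hsp : ∀ k k' l l', k < K → k' < K → l < K → l' < K → k' ≠ k → l' ≠ l →
      x k + x l' < x l + x k' + 2 * g.N1 → x l + x k' < x k + x l' + 2 * g.N1 → k = l := by
    intro k k' l l' hk hk' hl hl' hne _ h1 h2
    have h1' : x k + x l' < x l + x k' + 2 * N1 := h1
    have h2' : x l + x k' < x k + x l' + 2 * N1 := h2
    refine (hx2 k k' l l' hk hk' hl hl' (Ne.symm hne) ?_).1
    rw [abs_le]
    constructor <;> omega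
  have hthin' : ∀ τ, g.z ≤ τ + g.p0 → ∀ J : Finset ℕ, (∀ k ∈ J, k < K ∧
      ∃ k', k' < K ∧ k' ≠ k ∧ Bad (τ + x k' - x k - g.p0)) → J.card ≤ C0 := by
    intro τ hτ J hJ
    have hτ' : z ≤ τ + p0 := hτ
    choose! hk kk hkk hne hbad using hJ
    have hinj : Function.Injective (fun k => (k, kk k)) := fun a b h => congrArg Prod.fst h
    rw [← Finset.card_image_of_injective J hinj]
    refine hthin ((τ : ℤ) - p0) _ fun p hp => ?_
    obtain ⟨k, hkJ, rfl⟩ := Finset.mem_image.1 hp
    have hb : Bad (τ + x (kk k) - x k - p0) := hbad k hkJ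
    have h3 := hxp k (hk k hkJ)
    refine ⟨hk k hkJ, hkk k hkJ, Ne.symm (hne k hkJ), τ + x (kk k) - x k - p0, ?_, ?_, hb⟩
    · show ((τ + x (kk k) - x k - p0 : ℕ) : ℤ) = (τ : ℤ) - p0 - ((x k : ℤ) - x (kk k))
      omega
    · omega
  -- completeness 1
  let C : Set (List α) := {X | g.XX X}
  let BadS : Set (List α) := {X | g.XX X ∧ g.BadX Bad X}
  let L1 : (S → ZMod 2) → Set (List α) := fun v => {P | g.LP1 pre lam v P}
  let L2 : (S → ZMod 2) → Set (List α) := fun v => {P | Sc2n_937.Geo.LP2 K x lam2 v P}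
  have hC : Blk467.PCode C := by
    refine ⟨?_, ?_⟩
    · intro h
      have h1 : z ≤ 0 := h.1
      omega
    · intro X hX Y hY h
      obtain ⟨R, hR⟩ := h
      exact g.prefix_code hX hY (R := R) (R' := []) (by rw [hR, List.append_nil])
  have hf1 : ∀ v, (L1 v).Finite := by
    intro v
    refine (List.finite_length_le α (p0 + N1)).subset ?_
    intro P hP
    have := g2 _ _ hP.2
    rw [List.length_drop] at this
    show P.length ≤ p0 + N1
    have h3 : P.length - p0 ≤ N1 := this
    omega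
  have hf2 : ∀ v, (L2 v).Finite := by
    intro v
    refine (List.finite_length_le α p0).subset ?_
    rintro P ⟨k, hk, hl, -⟩
    show P.length ≤ p0
    rw [hl]; exact hxp k hk
  have hcc1 : ∀ X ∈ C, X ∉ BadS → ∀ v, ∃ P Q, P ++ Q = X ∧ P ∈ L1 v ∧
      ∀ x, ∀ P' ∈ L1 x, P' ++ Q ∈ C ∧
        act x ((P' ++ Q).map φ).prod + nu (P' ++ Q) = act v (X.map φ).prod + nu X := by
    intro X hX hXb v
    have hnb : ¬ g.BadX Bad X := fun h => hXb ⟨hX, h⟩
    have hE : ¬ g.E X := fun h => hnb (Or.inl h)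
    have hB' : ¬ Bad (X.length - p0) := fun h => hnb (Or.inr h)
    have hXz : z ≤ X.length := hX.1
    obtain ⟨P, Q, b, e, hP, hQ⟩ := g.complete1 pre hlen1 hX hE (fun u => by
      have hl : (X.drop p0).length = X.length - p0 := List.length_drop
      obtain ⟨P, Q, hPQ, hl', hr⟩ := g3 (X.drop p0) (by rw [hl]; omega) (by rw [hl]; exact hB') u
      exact ⟨P, Q, hPQ.symm, hl', hr⟩) v
    refine ⟨P, Q, e.symm, hP, fun y P' hP' => ?_⟩
    have s1 := g.sound1 pre post hlen1 hex1 hP hQ
    have s2 := g.sound1 pre post hlen1 hex1 hP' hQ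
    refine ⟨s2.1, ?_⟩
    rw [hT, hT, s2.2, e, s1.2]
  have hcc2 : ∀ X ∈ BadS, ∀ Y ∈ BadS, ∀ v, ∃ P Q, P ++ Q = X ++ Y ∧ P ∈ L2 v ∧
      ∀ x, ∀ P' ∈ L2 x,
        (∃ X' ∈ BadS, ∃ Y' ∈ C, X' ++ Y' = P' ++ Q ∧
          act (act x (X'.map φ).prod + nu X') (Y'.map φ).prod + nu Y' =
            act (act v (X.map φ).prod + nu X) (Y.map φ).prod + nu Y) ∨
        (∃ X' ∈ C, X' ∉ BadS ∧ X' <+: P' ++ Q) := by
    intro X hX Y hY v
    obtain ⟨I, hI, hI'⟩ := e2 (X.take p0) 1 v (fun k hk => by
      rw [List.length_take]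
      have := hxp k hk
      have h3 : z ≤ X.length := hX.1.1
      omega)
    obtain ⟨P, Q, b, e, hP, hQ⟩ := g.complete2 pre post (BadT := Bad) (K := K) (c := x)
      (lam2 := lam2) (rho2 := rho2') (C0 := C0) hxp hgap hsp hthin' hX.1 hY.1 v
      ⟨I, hI, fun k hk => by
        obtain ⟨h1, h2, h3⟩ := hI' k hk
        refine ⟨h1, ?_, h3⟩
        rw [List.take_take, Nat.min_eq_left (hxp k h1)] at h2
        exact h2⟩
    refine ⟨P, Q, e, hP, fun y P' hP' => ?_⟩
    have hb : g.T pre post (g.T pre post v X) Y = b := by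
      obtain ⟨X2, _, h4, h5⟩ := g.sound2 pre post hxp hex2 hX.1 hX.2 hP hQ (R := []) (R' := Y)
        (by rw [List.append_nil, e])
      rw [e] at h4
      have : Y = X2 := List.append_cancel_left h4
      rw [this]; exact h5
    obtain ⟨k0, hk0, hl0, hlam0⟩ := hP'
    obtain ⟨l', hl'⟩ : ∃ l', g.CEnd Q (x k0) l' := by
      obtain ⟨k, hk, l, hend, hgood, -⟩ := hQ
      by_cases h : k0 = k
      · rw [h]; exact ⟨l, hend⟩
      · obtain ⟨l', h1, -⟩ := hgood k0 hk0 h
        exact ⟨l', h1⟩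
    have hXX : g.XX (P' ++ Q.take l') :=
      g.xx_of_cend (by rw [hl0]; exact hxp k0 hk0) (by rw [hl0]; exact hl')
    by_cases hbd : g.BadX Bad (P' ++ Q.take l')
    · left
      obtain ⟨X2, h3, h4, h5⟩ := g.sound2 pre post hxp hex2 hXX hbd
        (⟨k0, hk0, hl0, hlam0⟩ : Sc2n_937.Geo.LP2 K x lam2 y P') hQ (R := []) (R' := Q.drop l')
        (by rw [List.append_nil, List.append_assoc, List.take_append_drop])
      refine ⟨P' ++ Q.take l', ⟨hXX, hbd⟩, X2, h3, h4.symm, ?_⟩
      rw [hT, hT, hT, hT, h5, hb]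
    · right
      refine ⟨P' ++ Q.take l', hXX, fun h => hbd h.2, ⟨Q.drop l', ?_⟩⟩
      rw [List.append_assoc, List.take_append_drop]
  -- height one
  have free : ∀ u : List α, (∀ t < u.length, ¬ Wo (u.take t)) →
      u ∈ (BddReg_746.PN (max B (2 * p0 + 2 * N1 + 1)) 2 : Language α) := by
    intro u hu
    obtain ⟨a, y, v, k, h1, h2, h3, rfl⟩ := hfree u hu
    refine Language.mem_mul.2 ⟨a ++ (List.replicate k y).flatten,
      ⟨a, y, k, h1.trans (le_max_left _ _), h2.trans (le_max_right _ _), rfl⟩, v, ?_, rfl⟩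
    refine Language.mem_mul.2 ⟨v, ⟨v, [], 0, h3.trans (le_max_left _ _), by simp, by
      simp [BddReg_746.pw]⟩, [], rfl, by simp⟩
  have hXXe : ∀ X, P4_933.XX Wo z X ↔ g.XX X := fun X =>
    ⟨fun h => ⟨h.2.1, h.1, fun t h1 h2 => h.2.2 t h2 h1⟩,
      fun h => ⟨h.2.1, h.1, fun t h1 h2 => h.2.2 t h2 h1⟩⟩
  have hregT : ∀ y y', Language.IsRegular
      ({X | p0 ≤ X.length ∧ g.T pre post y X = y'} : Language α) := by
    intro y y'
    have h1 : ∀ w, Language.IsRegular ({Y | post w Y = y'} : Language α) := by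
      intro w
      refine P4_933.regular_of_class φ L0 M0 hM0 (fun Y => post w Y = y') ?_
      intro u u' hu hu' ht hl hp
      show act w (u.map φ).prod + nu1 u = y' ↔ act w (u'.map φ).prod + nu1 u' = y'
      rw [g4 u u' hu hu' ht hl hp, hp]
    haveI : Finite {l : List α // l.length = p0} := (List.finite_length_eq α p0).to_subtype
    let W1 : List α → Language α := fun u => {u}
    let W2 : List α → Language α := fun u => {Y | post (pre u y) Y = y'}
    have h2 := reg_iUnion (ι := {l : List α // l.length = p0})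
      (L := fun u => W1 u.1 * W2 u.1)
      (fun u => Reg_236.isRegular_mul (Reg_852.HL.isRegular (HL.word (k := 0) u.1)) (h1 _))
    have e : ({X | p0 ≤ X.length ∧ g.T pre post y X = y'} : Language α) =
        ({w | ∃ u : {l : List α // l.length = p0}, w ∈ W1 u.1 * W2 u.1} : Language α) := by
      ext X
      constructor
      · rintro ⟨h3, h4⟩
        refine ⟨⟨X.take p0, by rw [List.length_take]; omega⟩, Language.mem_mul.2
          ⟨X.take p0, rfl, X.drop p0, h4, List.take_append_drop _ _⟩⟩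
      · rintro ⟨⟨u, hu⟩, h3⟩
        obtain ⟨a, ha, Y, hY, rfl⟩ := Language.mem_mul.1 h3
        have ha' : a = u := ha
        subst ha'
        refine ⟨by rw [List.length_append]; omega, ?_⟩
        show post (pre ((a ++ Y).take p0) y) ((a ++ Y).drop p0) = y'
        rw [← hu, List.take_left, List.drop_left]
        exact hY
    rw [e]; exact h2
  have hregB : Language.IsRegular ({X | g.BadX Bad X} : Language α) := by
    refine P4_933.regular_of_class φ (z + N1 + p0 + L0) M0 hM0 (fun X => g.BadX Bad X) ?_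
    have half : ∀ u u' : List α, z + N1 + p0 + L0 ≤ u.length → z + N1 + p0 + L0 ≤ u'.length →
        u.take (z + N1 + p0 + L0) = u'.take (z + N1 + p0 + L0) →
        u.length % M0 = u'.length % M0 → g.BadX Bad u → g.BadX Bad u' := by
      intro u u' hu hu' ht hl hb
      rcases hb with ⟨t, h1, h2, h3, h4⟩ | hb
      · left
        have h4' : t < z + N1 := h4
        refine ⟨t, by omega, ?_, h3, h4⟩
        have e3 : ∀ w : List α, w.take t = (w.take (z + N1 + p0 + L0)).take t := by
          intro w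
          rw [List.take_take, Nat.min_eq_left (by omega)]
        rw [e3 u', ← ht, ← e3 u]; exact h2
      · right
        have hb' : Bad (u.length - p0) := hb
        show Bad (u'.length - p0)
        refine (hper _ _ (by omega) (by omega) ?_).1 hb'
        have h5 : u.length - p0 ≡ u'.length - p0 [MOD M0] := by
          refine Nat.ModEq.add_right_cancel' p0 ?_
          rw [Nat.sub_add_cancel (by omega), Nat.sub_add_cancel (by omega)]
          exact hl
        exact h5
    intro u u' hu hu' ht hl _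
    exact ⟨half u u' hu hu' ht hl, half u' u hu' hu ht.symm hl.symm⟩
  have hCT : ∀ y y', HL 1 ({X | X ∈ C ∧ act y (X.map φ).prod + nu X = y'} : Language α) := by
    intro y y'
    refine (P4_933.hl_XX (z := z) loc wlen free (hregT y y')).congr fun X => ?_
    constructor
    · rintro ⟨h1, h2⟩
      refine ⟨(hXXe X).2 h1, ?_, by rw [← hT]; exact h2⟩
      have : z ≤ X.length := h1.1
      omega
    · rintro ⟨h1, -, h2⟩
      exact ⟨(hXXe X).1 h1, by rw [hT]; exact h2⟩
  have hBT : ∀ y y', HL 1 ({X | X ∈ BadS ∧ act y (X.map φ).prod + nu X = y'} : Language α) := by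
    intro y y'
    refine (P4_933.hl_XX (z := z) loc wlen free ((hregB).inf (hregT y y'))).congr fun X => ?_
    constructor
    · rintro ⟨⟨h1, h3⟩, h2⟩
      refine ⟨(hXXe X).2 h1, h3, ?_, by rw [← hT]; exact h2⟩
      have : z ≤ X.length := h1.1
      omega
    · rintro ⟨h1, h3, -, h2⟩
      exact ⟨⟨(hXXe X).1 h1, h3⟩, by rw [hT]; exact h2⟩
  have htail : ∀ s, HL 1 ({w | (∀ X ∈ C, ¬ X <+: w) ∧ (w.map φ).prod = s} : Language α) := by
    intro s
    refine (P4_933.hl_NB (z := z) loc wlen free (f := fun w => (w.map φ).prod = s)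
      (P4_933.regular_of_class φ 0 1 one_pos _ ?_)).congr fun w => ?_
    · intro u u' _ _ _ _ h
      show (u.map φ).prod = s ↔ (u'.map φ).prod = s
      rw [h]
    · constructor
      · rintro ⟨h1, h2⟩
        exact ⟨(P4_933.NB_iff Wo z w).2 fun P hP h => h1 P ((hXXe P).1 h) hP, h2⟩
      · rintro ⟨h1, h2⟩
        exact ⟨fun X hX hp => (P4_933.NB_iff Wo z w).1 h1 X hp ((hXXe X).2 hX), h2⟩
  exact Top5_120.top5 act hadd hone hmul hfaith φ nu C BadS hC (fun X hX => hX.1) L1 L2 hf1 hf2
    hCT hBT htail hcc1 hcc2 s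

end Crest.Agent.R320.Fin_477
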