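import Crest.Agent.R320.SemTop_727
import Crest.Agent.R320.SemJ_832
import Crest.Agent.R320.G1_852
import Crest.Agent.R320.Sp_21
import Crest.Agent.R320.ExactR_237
import Crest.Agent.R320.P4_440
import Crest.Agent.R320.Univ_480

/-!
# Row 320: composition (helper480)

Pieces: top (727), both schemes on words (832), gadget (852), ruler (21), exact gadget (237), walls and
"few walls" (263, 228), heights of the blocks (440), universes (480).
-/

set_option autoImplicit false

namespace Crest.Agent.R320.Fin_480

open Crest.RegLang Crest.Agent.R320.Hk_851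

/-- the faithful module -/
def act {S : Type} [Monoid S] (v : S → ZMod 2) (s : S) : S → ZMod 2 := fun u => v (s * u)

theorem act_add {S : Type} [Monoid S] (a b : S → ZMod 2) (s : S) :
    act (a + b) s = act a s + act b s := rfl

theorem act_one {S : Type} [Monoid S] (v : S → ZMod 2) : act v (1 : S) = v := by
  funext u; simp [act]

theorem act_mul {S : Type} [Monoid S] (v : S → ZMod 2) (s t : S) :
    act v (s * t) = act (act v s) t := by
  funext u; simp [act, mul_assoc]

theorem act_faith {S : Type} [Monoid S] (s t : S) (h : ∀ v : S → ZMod 2, act v s = act v t) :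
    s = t := by
  classical
  have := congrFun (h (fun u => if u = s then 1 else 0)) 1
  simp only [act, mul_one, if_true] at this
  by_contra hne
  rw [if_neg (fun h => hne h.symm)] at this
  exact one_ne_zero this

theorem fibres (α : Type) [Finite α] (S : Type) [Monoid S] [Finite S] (f : α → S) (s : S) :
    HL 3 ({w | (w.map f).prod = s} : Language α) := by
  classical
  have : Fintype S := Fintype.ofFinite S
  let V : Type := S → ZMod 2
  obtain ⟨m, r, hG⟩ := G1_852.gadget (S := S) (V := V) act
  set C0 := r + m with hC0
  obtain ⟨K, hE⟩ := ExactR_237.exact_gadget α S V f act (2 * C0 + 2)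
  obtain ⟨Ms, M, hcard, hMs, hM, hG2⟩ := hG (2 ^ (K + 1))
  set b := (2 ^ (K + 4) + 2) * M + 1 with hb
  have hb0 : 0 < b := Nat.succ_pos _
  have hcop : Nat.Coprime b M := by
    rw [hb, Nat.coprime_mul_right_add_left]
    exact Nat.coprime_one_left M
  obtain ⟨lam, rho, nu1, hlen, hsound, hcomp, hloc⟩ := hG2 b hb0 hcop α f
  set N := b ^ m with hN
  obtain ⟨c, hc1, hc2, hc3⟩ := Sp_21.spoil K N m M b Ms hM
    (fun k hk => ⟨(hMs k hk).2.2, (hMs k hk).1.le⟩) hcop (by omega)
  obtain ⟨lam2, rho2, nu2, he1, he2⟩ := hE c (fun i j hij _ => by have := hc1 i j hij; omega)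
  set Lam := c K with hLam
  have hcle : ∀ k < K, c k ≤ Lam := fun k hk => by have := hc1 k K hk; omega
  obtain ⟨n, cc, P, Sw, hn, hP, hwloc, hwsep, -, -, hfew⟩ :=
    WallU_228.walls_full (α := α) (2 * Lam + 2 * N)
  have hgap : ∀ (X : List α) (t t' : ℕ), t < t' → t' ≤ X.length → WallU_228.Wo n Sw (X.take t) →
      WallU_228.Wo n Sw (X.take t') → t + (2 * Lam + 2 * N) < t' := by
    intro X t t' htt ht' h1 h2
    by_contra hle
    have hl : (X.take t').length = t' := by rw [List.length_take]; omega
    refine hwsep (X.take t') (t' - t) h2 (by omega) (by omega) ?_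
    rw [hl, List.take_take]
    have e : min (t' - (t' - t)) t' = t := by omega
    rw [e]; exact h1
  set z := Lam + n + 2 * N + 2 * Lam + 1 with hz
  let D : SemJ_832.Dat α S V :=
    { phi := fun w => (w.map f).prod
      act := act
      Wo := WallU_228.Wo n Sw
      n := n
      W := 2 * Lam + 2 * N
      z := z
      p0 := Lam
      N := N
      K := K
      C0 := C0
      Lam := Lam
      BadT := Sp_21.Bad m M b Ms
      lam := lam
      rho := rho
      nu1 := nu1
      c := c
      lam2 := lam2
      rho2 := fun k Q => rho2 k Q 1
      nu2 := fun u => nu2 u 1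
      hloc := hwloc
      hgap := hgap
      g_len := fun p v h => (hlen p v h).le
      g_sound := fun p q v r h1 h2 => hsound p q v r h1 h2
      g_comp := by
        intro u _ hu v
        have h1 : ∀ k ∈ Ms, ¬ k ∣ u.length := fun k hk hd => hu (Or.inl ⟨k, hk, hd⟩)
        have h2 : ∀ j < m, M ≤ u.length / b ^ j % b ∧ u.length / b ^ j % b + M < b := by
          intro j hj
          by_contra hcon
          refine hu (Or.inr ⟨j, hj, fun h3 => hcon ⟨h3.1, ?_⟩⟩)
          have := h3.2
          omega
        obtain ⟨p, q, h3, h4, v', h5⟩ := hcomp u h1 h2 v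
        exact ⟨p, q, h3.symm, h4, by rw [h5]; rfl⟩
      e_sound := by
        intro k hk P Q v b' h1 h2 h3
        have := he1 k hk P Q 1 v b' h1 h2 h3
        rw [mul_one] at this
        exact this
      e_comp := fun u v h => he2 u 1 v h
      c_le := hcle
      rulerE := by
        intro i _ j _ i' _ j' _ h1 h2 h3 h4
        by_contra hne
        have hne' : (i, j) ≠ (i', j') := by
          intro h
          exact hne ⟨congrArg Prod.fst h, congrArg Prod.snd h⟩
        rcases hc2 i j i' j' h1 h2 hne' with h | h <;> omega
      rulerB := by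
        intro T _ hT
        have h := hc3 T (fun i hi => (hcle i hi).trans hT)
          ((((Finset.range K) ×ˢ (Finset.range K)).filter
            (fun ab : ℕ × ℕ => ab.1 ≠ ab.2 ∧
              Sp_21.Bad m M b Ms (T + c ab.1 - c ab.2))).image Prod.swap) (by
            intro p hp
            rw [Finset.mem_image] at hp
            obtain ⟨q, hq, rfl⟩ := hp
            rw [Finset.mem_filter, Finset.mem_product, Finset.mem_range, Finset.mem_range] at hq
            exact ⟨hq.1.2, hq.1.1, fun e => hq.2.1 e.symm, hq.2.2⟩)
        rw [Finset.card_image_of_injective _ Prod.swap_injective] at h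
        have h' : Ms.card + m ≤ C0 := by omega
        convert h.trans h'
      h_p0 := le_rfl
      z_pos := by omega
      h_z := by omega
      h_W := le_rfl }
  let nu : List α → V := fun X =>
    act (nu2 (X.take Lam) 1) ((X.drop Lam).map f).prod + nu1 (X.drop Lam)
  let E : SemTop_727.Sch α V := { XX := D.Z, T := D.T, L1 := D.L1, L2 := D.L2 }
  have hT : ∀ v X, E.T v X = act v (X.map f).prod + nu X := by
    intro v X
    have e : (X.map f).prod = ((X.take Lam).map f).prod * ((X.drop Lam).map f).prod := by
      rw [← List.prod_append, ← List.map_append, List.take_append_drop]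
    change act (act v ((X.take Lam).map f).prod + nu2 (X.take Lam) 1)
      ((X.drop Lam).map f).prod + nu1 (X.drop Lam) = _
    rw [act_add, ← act_mul, ← e, add_assoc]
  have hPC : Blk467.PCode E.XX := by
    refine ⟨?_, ?_⟩
    · intro h
      have h1 : z ≤ ([] : List α).length := h.1
      rw [List.length_nil] at h1
      omega
    · intro X hX Y hY hXY
      by_contra hne
      have hlt : X.length < Y.length := by
        rcases lt_or_eq_of_le hXY.length_le with h | h
        · exact h
        · exact absurd (hXY.eq_of_length h) hne
      refine hY.2.2 X.length hX.1 hlt ?_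
      rw [← List.prefix_iff_eq_take.1 hXY]
      exact hX.2.1
  have hφ : ∀ u v : List α, ((u ++ v).map f).prod = (u.map f).prod * (v.map f).prod := by
    intro u v; rw [List.map_append, List.prod_append]
  have hnz : n ≤ z := by omega
  have hsplit : ∀ (w : List α) (a : ℕ), a ≤ z → z ≤ w.length →
      w.drop a = (w.take z).drop a ++ w.drop z := by
    intro w a ha hw
    conv_lhs => rw [← List.take_append_drop z w]
    rw [List.drop_append_of_le_length (by rw [List.length_take]; omega)]
  have hfib : ∀ x y, HL 1 (E.fib x y) := by
    intro x y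
    refine P4_440.HL_block (α := α) (φ := fun w => (w.map f).prod) (n := n) (S := Sw) (z := z)
      (B := z) (P := M * b ^ m) hφ hnz le_rfl (by positivity) hfew (R := fun X => E.T x X = y) ?_
    intro w w' hw hw' h1 h2 h3
    have e1 : w.take Lam = w'.take Lam := by
      have := congrArg (List.take Lam) h1
      rw [List.take_take, List.take_take, Nat.min_eq_left (by omega)] at this
      exact this
    have e2 : ((w.drop Lam).map f).prod = ((w'.drop Lam).map f).prod := by
      rw [hsplit w Lam (by omega) hw, hsplit w' Lam (by omega) hw', hφ, hφ, h1]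
      have h2' : ((w.drop z).map f).prod = ((w'.drop z).map f).prod := h2
      rw [h2']
    have e3 : nu1 (w.drop Lam) = nu1 (w'.drop Lam) := by
      refine (hloc _ _ ?_ ?_ ?_).2
      · have hh := congrArg (fun l => (List.drop Lam l).take (b ^ m)) h1
        simp only [List.drop_take, List.take_take] at hh
        rw [Nat.min_eq_left (by omega)] at hh
        exact hh
      · show G1_852.pr f _ = G1_852.pr f _
        unfold G1_852.pr
        rw [List.drop_drop, List.drop_drop, hsplit w (Lam + b ^ m) (by omega) hw,
          hsplit w' (Lam + b ^ m) (by omega) hw', hφ, hφ, h1]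
        have h2' : ((w.drop z).map f).prod = ((w'.drop z).map f).prod := h2
        rw [h2']
      · rw [List.length_drop, List.length_drop]
        have h4 : (w.length - Lam) + Lam ≡ (w'.length - Lam) + Lam [MOD M * b ^ m] := by
          rw [Nat.sub_add_cancel (by omega), Nat.sub_add_cancel (by omega)]
          exact h3
        exact Nat.ModEq.add_right_cancel' _ h4
    show E.T x w = y ↔ E.T x w' = y
    rw [hT, hT]
    have e4 : (w.map f).prod = (w'.map f).prod := by
      have a1 : (w.map f).prod = ((w.take Lam).map f).prod * ((w.drop Lam).map f).prod := by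
        rw [← hφ, List.take_append_drop]
      have a2 : (w'.map f).prod = ((w'.take Lam).map f).prod * ((w'.drop Lam).map f).prod := by
        rw [← hφ, List.take_append_drop]
      rw [a1, a2, e1, e2]
    have e5 : nu w = nu w' := by
      change act (nu2 (w.take Lam) 1) ((w.drop Lam).map f).prod + nu1 (w.drop Lam) =
        act (nu2 (w'.take Lam) 1) ((w'.drop Lam).map f).prod + nu1 (w'.drop Lam)
      rw [e1, e2, e3]
    rw [e4, e5]
  have htail : ∀ t, HL 3 ({w | (∀ X ∈ E.XX, ¬ X <+: w) ∧ (w.map f).prod = t} : Language α) := by
    intro t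
    refine HL.mono (by norm_num) (P4_440.HL_rest (α := α) (φ := fun w => (w.map f).prod) (n := n)
      (S := Sw) (z := z) (B := z) (P := 1) hφ hnz le_rfl Nat.one_pos hfew
      (R := fun X => (X.map f).prod = t) ?_)
    intro w w' hw hw' h1 h2 _
    have h2' : ((w.drop z).map f).prod = ((w'.drop z).map f).prod := h2
    have a1 : (w.map f).prod = ((w.take z).map f).prod * ((w.drop z).map f).prod := by
      rw [← hφ, List.take_append_drop]
    have a2 : (w'.map f).prod = ((w'.take z).map f).prod * ((w'.drop z).map f).prod := by
      rw [← hφ, List.take_append_drop]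
    show (w.map f).prod = t ↔ (w'.map f).prod = t
    rw [a1, a2, h1, h2']
  have hL1 : ∀ x, (E.L1 x).Finite := by
    intro x
    refine (List.finite_length_le α (Lam + N)).subset ?_
    intro p hp
    have h1 : Lam ≤ p.length := hp.1
    have h2 := hlen _ _ hp.2
    rw [List.length_drop] at h2
    change p.length ≤ Lam + N
    have h3 : p.length - Lam < b ^ m := h2
    omega
  have hL2 : ∀ x, (E.L2 x).Finite := by
    intro x
    refine (List.finite_length_le α Lam).subset ?_
    rintro p ⟨k, hk, h1, _⟩
    change p.length ≤ Lam
    have h2 : p.length = c k := h1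
    rw [h2]; exact hcle k hk
  exact SemTop_727.top (k := 1) act act_add act_one act_mul act_faith f nu E hT hPC hfib hL1 hL2
    (fun X1 h1 X2 h2 x => D.hC2 h1 h2 x) htail s

/-- S0495 -/
theorem row (α : Type*) [Finite α] (L : Language α) (hL : L.IsRegular) :
    ∃ e : GRegExp α, e.height ≤ 3 ∧ e.lang = L :=
  Univ_480.row_of_small_alphabet (fun A _ S _ _ f s => fibres A S f s) L hL

end Crest.Agent.R320.Fin_480
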