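import Crest.Agent.R320.Inst_385
import Crest.Agent.R320.P4_911
import Crest.Agent.R320.G1_852
import Crest.Agent.R320.Spoil852_495
import Crest.Agent.R320.ExactR_237
import Crest.Agent.R320.WallU_228
import Crest.Agent.R320.Univ_188
import Crest.Agent.R320.Block_467

/-!
# Row 320: final composition (helper481)

`Top5_110.top_sem` + `Inst_385` + `P4_911` + `G1_852.gadget` + `Spoil852_495.ruler` +
`ExactR_237.exact_gadget` + `WallU_228.walls_full` + `Block_467.exists_module`.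
-/

set_option autoImplicit false

namespace Crest.Agent.R320.Fin_481

open Crest.Agent.R320.Hk_851 Crest.Agent.R320.Code110 Finset
open Crest.Agent.R320.P4_911 (Reg Few FB)

section

variable {α : Type} [Finite α] {S V : Type} [Monoid S] [Finite S] [AddCommGroup V] [Finite V]

omit [Finite α] in
theorem reg_Bd (Bd : ℕ → Prop) (m0 : ℕ) (hm0 : 0 < m0) (hper : ∀ x, Bd x ↔ Bd (x % m0)) :
    Reg (fun Y : List α => Bd Y.length) := by
  have h := Reg.exLt (N := m0) (P := fun j (Y : List α) => Y.length % m0 = j ∧ Bd j)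
    fun j _ => (Reg.length_mod m0 j hm0).and (Reg.const _)
  refine h.congr fun w => ?_
  constructor
  · intro hw
    exact ⟨_, Nat.mod_lt _ hm0, rfl, (hper _).1 hw⟩
  · rintro ⟨j, _, rfl, hw⟩
    exact (hper _).2 hw

theorem reg_nu (f : α → S) (N m0 : ℕ) (hm0 : 0 < m0) (nu : List α → V)
    (hnu : ∀ Q Q' : List α, Q.take N = Q'.take N → ((Q.drop N).map f).prod =
      ((Q'.drop N).map f).prod → Q.length % m0 = Q'.length % m0 → nu Q = nu Q') (b : V) :
    Reg (fun Y : List α => nu Y = b) := by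
  refine (Reg.cls f N m0 hm0 (fun a s j => ∃ Y : List α, Y.take N = a ∧
    ((Y.drop N).map f).prod = s ∧ Y.length % m0 = j ∧ nu Y = b)).congr fun w => ?_
  constructor
  · intro h
    exact ⟨w, rfl, rfl, rfl, h⟩
  · rintro ⟨Y, h1, h2, h3, h4⟩
    rw [← h4]
    exact hnu _ _ h1.symm h2.symm h3.symm

theorem height (D : Inst_385.Dat α S V) (f : α → S) (hφ : ∀ w, D.φ w = (w.map f).prod)
    (n : ℕ) (Sw : Set (List α)) (hF : Few n Sw) (hWl : ∀ X, D.Wl X ↔ P4_911.Wo n Sw X)
    (m0 : ℕ) (hm0 : 0 < m0) (hBd : ∀ x, D.Bd x ↔ D.Bd (x % m0)) (N : ℕ)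
    (hnu : ∀ Q Q' : List α, Q.take N = Q'.take N → ((Q.drop N).map f).prod =
      ((Q'.drop N).map f).prod → Q.length % m0 = Q'.length % m0 → D.nu1 Q = D.nu1 Q')
    (hone : ∀ v, D.act v 1 = v) (hfaith : ∀ s t : S, (∀ v, D.act v s = D.act v t) → s = t)
    (s : S) : HL 3 ({w | (w.map f).prod = s} : Language α) := by
  have mem_XX : ∀ X : List α, X ∈ D.XX ↔ FB n Sw D.z X := by
    intro X
    constructor
    · rintro ⟨h1, h2, h3⟩
      exact ⟨h1, (hWl _).1 h2, fun t ht1 ht2 hw => h3 t ht1 ht2 ⟨ht2.le, (hWl _).2 hw⟩⟩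
    · rintro ⟨h1, h2, h3⟩
      exact ⟨h1, (hWl _).2 h2, fun t ht1 ht2 hw => h3 t ht1 ht2 ((hWl _).1 hw.2)⟩
  have key : ∀ A : List α → Prop, Reg A → HL 1 ({X | X ∈ D.XX ∧ A X} : Language α) := by
    intro A hA
    refine (P4_911.HL_FB hF D.z hA).congr fun w => ?_
    constructor
    · rintro ⟨h1, h2⟩
      exact ⟨(mem_XX w).1 h1, h2⟩
    · rintro ⟨h1, h2⟩
      exact ⟨(mem_XX w).2 h1, h2⟩
  have H1 : HL 1 D.XX :=
    (key (fun _ => True) (Reg.const True)).congr fun w => ⟨fun h => ⟨h, trivial⟩, fun h => h.1⟩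
  have H2 : HL 1 D.Bad := by
    have hE : Reg (fun X : List α => D.Ebad X) := by
      refine (P4_911.reg_wall_between (n := n) (S := Sw) (D.z - D.N1) (D.z + D.N1)).congr
        fun X => ?_
      constructor
      · rintro ⟨t, h1, h2, h3, h4⟩
        exact ⟨t, by omega, h2, h3, (hWl _).1 h4⟩
      · rintro ⟨t, h1, h2, h3, h4⟩
        exact ⟨t, by omega, h2, h3, (hWl _).2 h4⟩
    have hB : Reg (fun X : List α => D.Bd (X.length - D.p0)) := by
      refine (Reg.drop D.p0 (reg_Bd (α := α) D.Bd m0 hm0 hBd)).congr fun X => ?_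
      rw [List.length_drop]
    exact (key _ (hE.or hB)).congr fun w => ⟨fun h => ⟨h.1, h.2⟩, fun h => ⟨h.1, h.2⟩⟩
  have hTreg : ∀ x y, Reg (fun X : List α => D.T X x = y) := by
    intro x y
    have h := Reg.ex (ι := V) fun a => Reg.ex (ι := S) fun s' => Reg.ex (ι := V) fun b =>
      ((Reg.take D.p0 (fun w : List α => D.act x (D.φ w) + D.nu2 w = a)).and
        (Reg.drop D.p0 (Reg.prod f s'))).and
        ((Reg.drop D.p0 (reg_nu f N m0 hm0 D.nu1 hnu b)).and (Reg.const (D.act a s' + b = y)))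
    refine h.congr fun X => ?_
    constructor
    · intro hX
      refine ⟨_, _, _, ⟨rfl, rfl⟩, rfl, ?_⟩
      rw [← hφ]
      exact hX
    · rintro ⟨a, s', b, ⟨h1, h2⟩, h3, h4⟩
      unfold Inst_385.Dat.T
      rw [h1, hφ (X.drop D.p0), h2, h3, h4]
  have H3 : ∀ x y, HL 1 (ZT D.XX D.T x y) := fun x y => key _ (hTreg x y)
  have H4 : ∀ s, HL 3 ({w | (∀ u ∈ D.XX, ¬ u <+: w) ∧ D.φ w = s} : Language α) := by
    intro s
    refine (HL.mono (by norm_num) (P4_911.HL_NX hF D.z (Reg.prod f s))).congr fun w => ?_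
    constructor
    · rintro ⟨h1, h2⟩
      refine ⟨?_, by rw [← hφ]; exact h2⟩
      rintro X Y h hX
      exact h1 X ((mem_XX X).2 hX) ⟨Y, h.symm⟩
    · rintro ⟨h1, h2⟩
      refine ⟨?_, by rw [hφ]; exact h2⟩
      rintro u hu ⟨t, ht⟩
      exact h1 u t ht.symm ((mem_XX u).1 hu)
  have F1 : ∀ v, {p | p ∈ D.L1 v}.Finite := by
    intro v
    refine (List.finite_length_le α (D.p0 + D.N1)).subset ?_
    rintro P ⟨h1, h2⟩
    have h3 := D.hlen _ _ h2
    rw [List.length_drop] at h3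
    change P.length ≤ _
    omega
  have F2 : ∀ v, {p | p ∈ D.L2 v}.Finite := by
    intro v
    refine (List.finite_length_le α D.p0).subset ?_
    rintro P ⟨k, hk, h2, _⟩
    have h3 := D.hc k hk
    change P.length ≤ _
    omega
  have hφ0 : D.φ [] = 1 := by rw [hφ]; rfl
  have h := Top5_110.top_sem (φ := D.φ) (act := D.act) (XX := D.XX) (Bad := D.Bad) (T := D.T)
    hφ0 D.hφ hone D.hmul hfaith D.pc D.bad_sub (fun u _ v v' => D.hT u v v') H1 H2 H3 H4
    (N1 := 0) (N2 := 1) (L1 := D.L1) (L2 := D.L2) F1 F2 D.C1 D.C2 s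
  refine h.congr fun w => ?_
  change (w.map f).prod = s ↔ D.φ w = s
  rw [hφ]

end

theorem bad_per (Ms : Finset ℕ) (m M b : ℕ) (hMs : ∀ k ∈ Ms, k ∣ M) (x : ℕ) :
    Spoil852_495.Bad Ms m M b x ↔ Spoil852_495.Bad Ms m M b (x % (M * b ^ m)) := by
  unfold Spoil852_495.Bad
  have h1 : ∀ k ∈ Ms, (k ∣ x ↔ k ∣ x % (M * b ^ m)) := fun k hk =>
    (Nat.dvd_mod_iff ((hMs k hk).trans (dvd_mul_right _ _))).symm
  have h2 : ∀ t < m, x % (M * b ^ m) / b ^ t % b = x / b ^ t % b := by
    intro t ht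
    rw [← Nat.mod_mul_right_div_self, ← Nat.mod_mul_right_div_self, Nat.mod_mod_of_dvd]
    rw [← pow_succ]
    exact (pow_dvd_pow b ht).trans (dvd_mul_left _ _)
  constructor
  · rintro (⟨k, hk, h⟩ | ⟨t, ht, h⟩)
    · exact Or.inl ⟨k, hk, (h1 k hk).1 h⟩
    · exact Or.inr ⟨t, ht, by rw [h2 t ht]; exact h⟩
  · rintro (⟨k, hk, h⟩ | ⟨t, ht, h⟩)
    · exact Or.inl ⟨k, hk, (h1 k hk).2 h⟩
    · exact Or.inr ⟨t, ht, by rw [h2 t ht] at h; exact h⟩

set_option maxHeartbeats 4000000 in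
theorem fin (α : Type) [Finite α] (S : Type) [Monoid S] [Finite S] (f : α → S) (s : S) :
    HL 3 ({w | (w.map f).prod = s} : Language α) := by
  classical
  haveI := Fintype.ofFinite S
  obtain ⟨act, hadd, hone, hmul, hfaith⟩ := Blk467.exists_module S
  obtain ⟨m, r, hg⟩ := G1_852.gadget (S := S) (V := S → ZMod 2) act
  obtain ⟨K, hK⟩ := ExactR_237.exact_gadget α S (S → ZMod 2) f act (2 + 2 * (r + m))
  obtain ⟨Ms, M, hcard, hMs, hM, hg2⟩ := hg (2 ^ (K + 2))
  obtain ⟨b, hb⟩ : ∃ b, b = 2 ^ (K + 5) * M + 1 := ⟨_, rfl⟩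
  have hcop : Nat.Coprime b M := by
    rw [hb]
    simp
  have hb0 : 0 < b := by omega
  obtain ⟨lam1, rho1, nu1, hlen, hsound, hcomp, hfs⟩ := hg2 b hb0 hcop α f
  obtain ⟨c, hc1, hc2, hc3⟩ := Spoil852_495.ruler K m M b Ms
    (fun k hk => ⟨(hMs k hk).1.le, (hMs k hk).2.2⟩) hM hcop.symm (by omega) (2 * b ^ m)
  obtain ⟨lam2, rho2, nu2, hs2, hcp2⟩ := hK c (fun i j hij _ => hc1 i j hij)
  obtain ⟨p0, hp0⟩ : ∃ p0, ∀ k < K, c k ≤ p0 :=
    ⟨∑ k ∈ range K, c k, fun k hk =>
      Finset.single_le_sum (f := c) (fun _ _ => Nat.zero_le _) (mem_range.2 hk)⟩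
  obtain ⟨n, cc, P, Sw, hn, hP, hloc, hsep, _, _, hfew⟩ :=
    WallU_228.walls_full (α := α) (2 * p0 + 2 * b ^ m)
  let D : Inst_385.Dat α S (S → ZMod 2) :=
    { φ := fun w => (w.map f).prod
      hφ := fun u w => by rw [List.map_append, List.prod_append]
      act := act
      hadd := hadd
      hmul := hmul
      Wl := WallU_228.Wo n Sw
      n := n
      W := 2 * p0 + 2 * b ^ m
      wloc := hloc
      wgap := by
        intro P D h1 h2 h3
        by_contra h4
        refine hsep (P ++ D) D.length h2 (List.length_pos_iff.2 h3) (by omega) ?_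
        rw [List.length_append, Nat.add_sub_cancel, List.take_left]
        exact h1
      z := 4 * p0 + 2 * b ^ m + n + 1
      p0 := p0
      N1 := b ^ m
      K := K
      c := c
      rB := r + m
      hc := hp0
      hz := le_rfl
      hW := le_rfl
      Bd := Spoil852_495.Bad Ms m M b
      Lam := fun v P => lam1 P = some v
      nu1 := nu1
      nu2 := fun X => nu2 X 1
      lam := lam2
      hlen := fun v P h => hlen P v h
      hG := by
        intro Y _ hB v
        have h1 : ∀ k ∈ Ms, ¬ k ∣ Y.length := fun k hk h => hB (Or.inl ⟨k, hk, h⟩)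
        have h2 : ∀ j < m, M ≤ Y.length / b ^ j % b ∧ Y.length / b ^ j % b + M < b := by
          intro j hj
          by_contra h
          exact hB (Or.inr ⟨j, hj, fun h' => h ⟨h'.1, by omega⟩⟩)
        obtain ⟨P, Q, hY, hl, v', hr⟩ := hcomp Y h1 h2 v
        refine ⟨P, Q, hY, hl, fun v'' P' hl' => ?_⟩
        have e1 := hsound P' Q v'' v' hl' hr
        have e2 := hsound P Q v v' hl hr
        rw [hY]
        exact e1.symm.trans e2
      thin := by
        intro n0 hn0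
        refine ⟨((range K ×ˢ range K).filter
          (fun p => p.1 ≠ p.2 ∧ Spoil852_495.Bad Ms m M b (n0 + c p.2 - c p.1))).image Prod.fst,
          (Finset.card_image_le.trans (hc3 n0 fun i hi => (hp0 i hi).trans hn0)).trans (by omega),
          ?_⟩
        intro k hk k' hk' hne hBd
        refine Finset.mem_image.2 ⟨(k, k'), ?_, rfl⟩
        refine Finset.mem_filter.2 ⟨Finset.mem_product.2 ⟨mem_range.2 hk, mem_range.2 hk'⟩,
          fun h => hne h.symm, hBd⟩
      res := by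
        intro k₁ h₁ k₂ h₂ k₃ h₃ k₄ h₄ hne hne' habs
        by_contra hcon
        have hpair : (k₁, k₂) ≠ (k₃, k₄) := fun h => by
          rw [Prod.mk.injEq] at h
          exact hcon h
        rw [abs_le] at habs
        push_cast at habs
        have h := hc2 k₁ k₂ k₃ k₄ h₁ h₂ h₃ h₄ hne hpair
        have hbm : ((b ^ m : ℕ) : ℤ) = (b : ℤ) ^ m := by push_cast; rfl
        rw [← hbm] at habs
        omega
      hE := by
        intro X v hX
        obtain ⟨I, hI, hI2⟩ := hcp2 X 1 v (fun k hk => by rw [← hX]; exact hp0 k hk)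
        refine ⟨I, hI, fun k hk => ?_⟩
        obtain ⟨h1, h2, h3⟩ := hI2 k hk
        obtain ⟨b', hb'⟩ := Option.isSome_iff_exists.1 h3
        refine ⟨h1, h2, fun v' P' hP' hl' => ?_⟩
        have hck := hp0 k h1
        have e1 := hs2 k h1 P' (X.drop (c k)) 1 v' b' hP' hl' hb'
        have e2 := hs2 k h1 (X.take (c k)) (X.drop (c k)) 1 v b'
          (by rw [List.length_take]; omega) h2 hb'
        rw [List.take_append_drop] at e2
        rw [mul_one] at e1 e2
        exact e1.symm.trans e2 }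
  have hm0 : 0 < M * b ^ m := Nat.mul_pos hM (pow_pos hb0 m)
  exact height D f (fun _ => rfl) n Sw hfew (fun _ => Iff.rfl) (M * b ^ m) hm0
    (fun x => bad_per Ms m M b (fun k hk => (hMs k hk).2.2) x) (b ^ m)
    (fun Q Q' h1 h2 h3 => (hfs Q Q' h1 h2 h3).2) hone hfaith s

end Crest.Agent.R320.Fin_481
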