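import Crest.Agent.R320.SemTop_727
import Crest.Agent.R320.SemJ_832
import Crest.Agent.R320.G1_852
import Crest.Agent.R320.ExactR_237
import Crest.Agent.R320.WallU_228
import Crest.Agent.R320.P4_440
import Crest.Agent.R320.Univ_234
import Crest.Agent.R320.Sp_485

/-!
Row 320, final composition (helper485).
-/

set_option autoImplicit false

namespace Crest.Agent.R320.Fin_485

open Crest.RegLang Crest.Agent.R320.Hk_851 Finset

/-! ### the token module -/

def act {S : Type} [Monoid S] (v : S → ZMod 2) (s : S) : S → ZMod 2 := fun u => v (s * u)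

theorem act_add {S : Type} [Monoid S] (a b : S → ZMod 2) (s : S) :
    act (a + b) s = act a s + act b s := rfl

theorem act_one {S : Type} [Monoid S] (v : S → ZMod 2) : act v 1 = v := by
  funext u; simp [act]

theorem act_mul {S : Type} [Monoid S] (v : S → ZMod 2) (s t : S) :
    act v (s * t) = act (act v s) t := by
  funext u; simp [act, mul_assoc]

theorem act_faithful {S : Type} [Monoid S] (s t : S) (h : ∀ v : S → ZMod 2, act v s = act v t) :
    s = t := by
  classical
  have h1 := congrFun (h (fun u => if u = s then 1 else 0)) 1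
  simp only [act, mul_one, if_true] at h1
  by_contra hne
  rw [if_neg (Ne.symm hne)] at h1
  exact one_ne_zero h1

theorem pr_append {A S : Type} [Monoid S] (f : A → S) (u v : List A) :
    ExactR_237.pr f (u ++ v) = ExactR_237.pr f u * ExactR_237.pr f v := by
  simp [ExactR_237.pr]

theorem finite_len {A : Type} [Finite A] (N : ℕ) (L : Set (List A))
    (h : ∀ P ∈ L, P.length ≤ N) : L.Finite :=
  (List.finite_length_le A N).subset h

theorem G1_pr {A S : Type} [Monoid S] (f : A → S) (u : List A) :
    G1_852.pr f u = ExactR_237.pr f u := rfl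

open Classical in
/-- **Row 320, finite monoids and alphabets in `Type`.** -/
theorem fin (α : Type) [Finite α] (S : Type) [Monoid S] [Finite S] (φ : α → S) (s : S) :
    HL 3 ({w | (w.map φ).prod = s} : Language α) := by
  haveI : Fintype S := Fintype.ofFinite S
  obtain ⟨m, r, hG⟩ := G1_852.gadget (act (S := S))
  obtain ⟨K, hK⟩ := ExactR_237.exact_gadget α S (S → ZMod 2) φ act (2 * (r + m) + 2)
  obtain ⟨Ms, M, hcard, hMs, hM, hb⟩ := hG (2 ^ (K + 1))
  obtain ⟨b, hbdef⟩ : ∃ b : ℕ, b = (2 ^ (K + 4) + 2) * M + 1 := ⟨_, rfl⟩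
  have hb1 : 2 ^ (K + 4) * M + 2 * M ≤ b := by rw [hbdef]; nlinarith
  have hcop : Nat.Coprime b M := by
    rw [hbdef, Nat.coprime_comm]
    exact (Nat.coprime_mul_right_add_right M 1 (2 ^ (K + 4) + 2)).2 (Nat.coprime_one_right M)
  have hb0 : 0 < b := by omega
  obtain ⟨lam, rho, nu1, hlen, hsound, hcomp, hfs⟩ := hb b hb0 hcop α φ
  obtain ⟨c, hcmono, -, -, hwide, hspoil⟩ := Sp_485.spoilZ Ms M m b K (b ^ m) hM
    (fun k hk => ⟨(hMs k hk).1.le, (hMs k hk).2.2⟩) hcop hb1
  obtain ⟨lam2, rho2, nu2, he1, he2⟩ := hK c (fun i j hij _ => hcmono hij)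
  obtain ⟨n, cc, P, St, hn, hP, hloc, hgap, -, -, hfew⟩ :=
    WallU_228.walls_full (α := α) (2 * c K + 2 * b ^ m)
  let D : SemJ_832.Dat α S (S → ZMod 2) :=
    { phi := ExactR_237.pr φ
      act := act
      Wo := WallU_228.Wo n St
      n := n
      W := 2 * c K + 2 * b ^ m
      z := c K + n + 2 * b ^ m + 2 * c K + 1
      p0 := c K
      N := b ^ m
      K := K
      C0 := r + m
      Lam := c K
      BadT := Sp_485.Bad Ms M m b
      lam := lam
      rho := rho
      nu1 := nu1
      c := c
      lam2 := lam2
      rho2 := fun k Q => rho2 k Q 1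
      nu2 := fun u => nu2 u 1
      hloc := hloc
      hgap := by
        intro X t t' htt ht' h1 h2
        by_contra hcon
        refine hgap (X.take t') (t' - t) h2 (by omega) (by omega) ?_
        have e1 : (X.take t').length = t' := by rw [List.length_take]; omega
        rw [e1, List.take_take, show min (t' - (t' - t)) t' = t by omega]
        exact h1
      g_len := fun p v h => (hlen p v h).le
      g_sound := fun p q v r' h1 h2 => hsound p q v r' h1 h2
      g_comp := by
        intro u _ hbad v
        unfold Sp_485.Bad at hbad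
        push Not at hbad
        obtain ⟨p, q, h1, h2, v', h3⟩ := hcomp u hbad.1 (fun j hj => hbad.2 j hj) v
        exact ⟨p, q, h1.symm, h2, by rw [h3]; rfl⟩
      e_sound := by
        intro k hk P' Q v b' hl h1 h2
        have := he1 k hk P' Q 1 v b' hl h1 h2
        rwa [mul_one] at this
      e_comp := fun u v h => he2 u 1 v h
      c_le := fun k hk => (hcmono hk).le
      rulerE := by
        intro i _ j _ i' _ j' _ hij _ h1 h2
        by_contra hne
        have h3 := hwide i j i' j' hij hne
        have h4 : |((c j : ℤ) - c i) - ((c j' : ℤ) - c i')| ≤ 2 * (b ^ m : ℕ) := by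
          rw [abs_le]; constructor <;> (zify at h1 h2 ⊢; linarith)
        have h5 : (0 : ℤ) ≤ ((b ^ m : ℕ) : ℤ) := by positivity
        linarith
      rulerB := by
        intro T _ hT
        refine le_trans ?_ (Nat.add_le_add_right hcard m)
        let F : Finset (ℕ × ℕ) := ((range K) ×ˢ (range K)).filter
          (fun ab : ℕ × ℕ => ab.1 ≠ ab.2 ∧ Sp_485.Bad Ms M m b (T + c ab.1 - c ab.2))
        have hF : (F.image Prod.swap).card = F.card :=
          Finset.card_image_of_injective _ Prod.swap_injective
        show F.card ≤ _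
        rw [← hF]
        apply hspoil (T : ℤ)
        intro p hp
        rw [Finset.mem_image] at hp
        obtain ⟨q, hq, rfl⟩ := hp
        rw [Finset.mem_filter, Finset.mem_product, Finset.mem_range, Finset.mem_range] at hq
        obtain ⟨⟨hq1, hq2⟩, hne, hbad⟩ := hq
        refine ⟨hq2, hq1, fun h => hne h.symm, ?_⟩
        have hle : c q.2 ≤ T := le_trans (hcmono hq2).le hT
        have h6 : ((T : ℤ) + ((c q.swap.2 : ℤ) - c q.swap.1)) = ((T + c q.1 - c q.2 : ℕ) : ℤ) := by
          rw [Nat.cast_sub (by omega), Prod.snd_swap, Prod.fst_swap]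
          push_cast
          ring
        rw [h6, Sp_485.bad_iff]
        exact hbad
      h_p0 := le_rfl
      z_pos := by omega
      h_z := by omega
      h_W := by omega }
  let E : SemTop_727.Sch α (S → ZMod 2) :=
    { XX := D.Z, T := D.T, L1 := D.L1, L2 := D.L2 }
  have hφ : ∀ u v : List α, ExactR_237.pr φ (u ++ v) = ExactR_237.pr φ u * ExactR_237.pr φ v :=
    pr_append φ
  -- the constants of the key
  obtain ⟨B, hB⟩ : ∃ B : ℕ, B = c K + b ^ m + n + D.z := ⟨_, rfl⟩
  have hP0 : 0 < M * b ^ m := Nat.mul_pos hM (by positivity)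
  have hT : ∀ (v : S → ZMod 2) (X : List α), E.T v X = act v (X.map φ).prod +
      (act (nu2 (X.take (c K)) 1) (ExactR_237.pr φ (X.drop (c K))) + nu1 (X.drop (c K))) := by
    intro v X
    show act (act v (ExactR_237.pr φ (X.take (c K))) + nu2 (X.take (c K)) 1)
      (ExactR_237.pr φ (X.drop (c K))) + nu1 (X.drop (c K)) = _
    have h1 : (X.map φ).prod = ExactR_237.pr φ (X.take (c K)) * ExactR_237.pr φ (X.drop (c K)) := by
      rw [← hφ, List.take_append_drop]; rfl
    rw [act_add, ← act_mul, h1, add_assoc]
  have hC : Blk467.PCode E.XX := by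
    refine ⟨?_, ?_⟩
    · intro h0
      have h1 : D.z ≤ ([] : List α).length := h0.1
      have h2 : 0 < D.z := D.z_pos
      rw [List.length_nil] at h1
      exact absurd h2 (not_lt.2 h1)
    · rintro X hX Y hY ⟨R, rfl⟩
      by_contra hne
      have hR : R ≠ [] := by rintro rfl; simp at hne
      have hl : 0 < R.length := List.length_pos_iff.2 hR
      refine hY.2.2 X.length hX.1 (by rw [List.length_append]; omega) ?_
      rw [List.take_left]; exact hX.2.1
  have hkeyT : ∀ x y : S → ZMod 2, P4_440.Resp (ExactR_237.pr φ) B (M * b ^ m)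
      (fun X => D.T x X = y) := by
    intro x y w w' h1 h2 h3 h4 h5
    have e0 : w.take (c K) = w'.take (c K) := by
      have := congrArg (List.take (c K)) h3
      rwa [List.take_take, List.take_take, min_eq_left (by omega)] at this
    have e1 : (w.drop (c K)).take (b ^ m) = (w'.drop (c K)).take (b ^ m) := by
      have := congrArg (List.take (c K + b ^ m)) h3
      rw [List.take_take, List.take_take, min_eq_left (by omega)] at this
      have h6 := congrArg (List.drop (c K)) this
      rw [List.drop_take, List.drop_take] at h6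
      rwa [show c K + b ^ m - c K = b ^ m by omega] at h6
    have e2 : ∀ t, t ≤ B → ExactR_237.pr φ (w.drop t) = ExactR_237.pr φ (w'.drop t) := by
      intro t ht
      have h6 : ∀ u : List α, B ≤ u.length →
          u.drop t = (u.take B).drop t ++ u.drop B := by
        intro u hu
        conv_lhs => rw [← List.take_append_drop B u]
        rw [List.drop_append_of_le_length (by rw [List.length_take]; omega)]
      rw [h6 w h1, h6 w' h2, hφ, hφ, h3, h4]
    have e3 : (w.drop (c K)).length % (M * b ^ m) = (w'.drop (c K)).length % (M * b ^ m) := by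
      rw [List.length_drop, List.length_drop]
      have h6 : w.length - c K + c K ≡ w'.length - c K + c K [MOD (M * b ^ m)] := by
        rw [Nat.sub_add_cancel (by omega), Nat.sub_add_cancel (by omega)]
        exact h5
      exact Nat.ModEq.add_right_cancel' _ h6
    have e4 : nu1 (w.drop (c K)) = nu1 (w'.drop (c K)) := by
      refine (hfs _ _ e1 ?_ e3).2
      rw [G1_pr, G1_pr, List.drop_drop, List.drop_drop]
      exact e2 _ (by omega)
    show D.T x w = y ↔ D.T x w' = y
    have e5 : D.T x w = D.T x w' := by
      show act (act x (ExactR_237.pr φ (w.take (c K))) + nu2 (w.take (c K)) 1)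
        (ExactR_237.pr φ (w.drop (c K))) + nu1 (w.drop (c K)) =
        act (act x (ExactR_237.pr φ (w'.take (c K))) + nu2 (w'.take (c K)) 1)
        (ExactR_237.pr φ (w'.drop (c K))) + nu1 (w'.drop (c K))
      rw [e0, e4, e2 (c K) (by omega)]
    rw [e5]
  have hkeyφ : ∀ a : S, P4_440.Resp (ExactR_237.pr φ) B (M * b ^ m)
      (fun X => (X.map φ).prod = a) := by
    intro a w w' h1 h2 h3 h4 h5
    have h6 : ExactR_237.pr φ w = ExactR_237.pr φ w' := by
      rw [← List.take_append_drop B w, ← List.take_append_drop B w', hφ, hφ, h3, h4]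
    show ExactR_237.pr φ w = a ↔ ExactR_237.pr φ w' = a
    rw [h6]
  have hfin1 : ∀ x, (E.L1 x).Finite := by
    intro x
    refine finite_len (c K + b ^ m) _ ?_
    rintro X ⟨h1, h2⟩
    have h3 := D.g_len _ _ h2
    have h4 : D.p0 = c K := rfl
    have h5 : D.N = b ^ m := rfl
    rw [List.length_drop] at h3
    omega
  have hfin2 : ∀ x, (E.L2 x).Finite := by
    intro x
    refine finite_len (c K) _ ?_
    rintro X ⟨k, hk, h1, -⟩
    rw [h1]
    exact D.c_le k hk
  refine SemTop_727.top (k := 1) (V := S → ZMod 2) act act_add act_one act_mul act_faithful φ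
    (fun X => act (nu2 (X.take (c K)) 1) (ExactR_237.pr φ (X.drop (c K))) + nu1 (X.drop (c K)))
    E hT hC ?_ hfin1 hfin2 ?_ ?_ s
  · intro x y
    exact P4_440.HL_block (φ := ExactR_237.pr φ) (n := n) (S := St) (z := D.z) (B := B)
      (P := M * b ^ m) hφ (by omega) (by omega) hP0 hfew (hkeyT x y)
  · intro X1 h1 X2 h2 x
    exact D.hC2 h1 h2 x
  · intro a
    refine HL.mono (k := 1) (by norm_num) ?_
    exact P4_440.HL_rest (φ := ExactR_237.pr φ) (n := n) (S := St) (z := D.z) (B := B)
      (P := M * b ^ m) hφ (by omega) (by omega) hP0 hfew (hkeyφ a)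

/-- every regular language over every finite alphabet (all universes). -/
theorem row {α : Type*} [Finite α] (L : Language α) (hL : L.IsRegular) :
    ∃ e : GRegExp α, e.height ≤ 3 ∧ e.lang = L :=
  Univ_234.of_fin_monoid (fun n S _ _ φ s => fin (Fin n) S φ s) L hL

end Crest.Agent.R320.Fin_485
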