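import Crest.Agent.R320.Inst2_486
import Crest.Agent.R320.UGI_219

/-!
# Row 320: the end (helper486): 219's closed gadget in the form `UGIP`, hence S0495
-/

set_option autoImplicit false

namespace Crest.Agent.R320.Inst486

theorem ugip (S V : Type) [Monoid S] [Finite S] [AddCommGroup V] [Finite V] (act : V → S → V) :
    UGIP S V act := by
  obtain ⟨C0, h0⟩ := Crest.Agent.R320.Grid219.ugi S V act
  refine ⟨C0, fun K => ?_⟩
  obtain ⟨N1, Pm, La, c, Bad, h1, h2, h3, h4, h5, h6, h7, h8⟩ := h0 K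
  refine ⟨N1, Pm, La, c, Bad, h1, fun i j hij _ => h4 i j hij,
    fun i j k l _ _ _ _ hij hkl hne => h5 i j k l hij hkl hne, h6, ?_, ?_⟩
  · intro T hT I hI
    refine h7 (T : ℤ) I ?_
    intro q hq
    obtain ⟨g1, g2, g3, g4⟩ := hI q hq
    have := h3 q.1 g1
    refine ⟨g1, g2, g3, T + c q.2 - c q.1, ?_, g4⟩
    omega
  · intro A phi
    obtain ⟨lam, rho, nu, g1, g2, g3, g4⟩ := h8 (α := A) (fun w => (w.map phi).prod)
      (fun u v => by simp)
    refine ⟨lam, rho, nu, g1, fun p q v r a b _ => g2 p q v r a b, ?_, ?_⟩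
    · intro u hu hb v
      obtain ⟨p, q, e, a, b⟩ := g3 u hu hb v
      exact ⟨p, q, e.symm, a, b⟩
    · intro q q2 a1 a2 a3 a4 a5
      exact (g4 q q2 a1 a2 a3 a4 a5).2

/-- **row 320** -/
theorem s0495 (α : Type*) [Finite α] (L : Language α) (hL : L.IsRegular) :
    ∃ e : Crest.RegLang.GRegExp α, e.height ≤ 3 ∧ e.lang = L :=
  s0495_of (fun S V _ _ _ _ act => ugip S V act) α L hL

end Crest.Agent.R320.Inst486
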