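import Crest.Agent.R320.Sem_445
import Crest.Agent.R320.Top5_163

/-!
Row 320: 163's `top` with semantic right labels (helper445).  Only the prefix code, the zone map,
two finite left relations, `hXT`, `hNP` and ONE covering statement are needed.
-/

set_option autoImplicit false

namespace Crest.Agent.R320.SemTop_445

open Crest.RegLang Crest.Agent.R320.Hk_851 Crest.Agent.R320.Sem_445

universe u

theorem sem_top {α : Type u} {V S : Type*} [Finite V] [AddCommGroup V] [Monoid S] [Finite S]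
    (φ : List α → S) (hφ1 : φ [] = 1) (hφ : ∀ u v, φ (u ++ v) = φ u * φ v) (act : V → S → V)
    (act_mul : ∀ v s s', act (act v s) s' = act v (s * s'))
    (act_add : ∀ v w s, act (v + w) s = act v s + act w s)
    (faith : ∀ s s', (∀ v, act v s = act v s') → s = s')
    (XX : Set (List α)) (hnil : [] ∉ XX) (hPC : ∀ X ∈ XX, ∀ Y, X ++ Y ∈ XX → Y = [])
    (T : V → List α → V) (ν : List α → V) (hT : ∀ X ∈ XX, ∀ v, T v X = act v (φ X) + ν X)
    (LP1 LP2 : List α → V → Prop)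
    (hf1 : {x : List α × V | LP1 x.1 x.2}.Finite) (hf2 : {x : List α × V | LP2 x.1 x.2}.Finite)
    (hXT : ∀ v v', HL 1 {X | X ∈ XX ∧ T v X = v'})
    (hNP : ∀ s, HL 1 {r | (∀ X ∈ XX, ¬ X <+: r) ∧ φ r = s})
    (hcov : ∀ X ∈ XX, ∀ X2 ∈ XX, ∀ v,
      (∃ P Q, X = P ++ Q ∧ Q ≠ [] ∧ LP1 P v ∧ ∃ b, SR1 XX T LP1 Q b) ∨
      (∃ P Q, X ++ X2 = P ++ Q ∧ P.length < X.length ∧ LP2 P v ∧ ∃ b, SR2 XX T LP1 LP2 Q b))
    (s : S) : HL 3 {w | φ w = s} := by
  refine Crest.Agent.R320.Top5_163.top φ hφ1 hφ act act_mul act_add faith XX hnil hPC T ν hT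
    LP1 LP2 (R1 XX T LP1) (R2 XX T LP1 LP2) (fun Q b h => R1_ne h) (fun Q b h => R2_ne hPC h)
    (Sem_445.s1) (s2 hPC) (cc hPC hcov) hXT hNP (HL_LP hf1) (HL_LP hf2)
    (fun b => HL_R1 hXT hf1 b) (fun b => HL_R2 hPC hXT hf1 hf2 b) s

end Crest.Agent.R320.SemTop_445
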