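import Crest.Agent.R320.Asm_491
import Crest.Agent.R320.SemTop_445
import Crest.Agent.R320.GridG_19
import Crest.Agent.R320.GridRuler_257
import Crest.Agent.R320.ExactR_237
import Crest.Agent.R320.WallU_36
import Crest.Agent.R320.Fib_64
import Crest.Agent.R320.P4_933
import Crest.Agent.R320.Block_467

/-!
Row 320: the final join (constants), helper491.
-/

set_option autoImplicit false
set_option maxHeartbeats 1000000

namespace Crest.Agent.R320.Fin_491

open Crest.RegLang Crest.Agent.R320.Hk_851 Crest.Agent.R320 Crest.Agent.R320.Asm_491 Finset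

theorem prefix_code {α : Type} {Wo : List α → Prop} {z : ℕ} :
    ∀ X ∈ XX Wo z, ∀ Y, X ++ Y ∈ XX Wo z → Y = [] := by
  rintro X ⟨h1, h2, -⟩ Y ⟨-, -, h3⟩
  by_contra hY
  have hl : 0 < Y.length := List.length_pos_iff.2 hY
  refine h3 X.length h1 (by rw [List.length_append]; omega) ?_
  rw [List.take_left]
  exact h2

/-- semantic cover from `Ok.cc` -/
theorem cover {α S V : Type} [Monoid S] [AddCommGroup V] {D : Data α S V} (h : Ok D)
    {X X2 : List α} (hX : X ∈ XX D.Wo D.z) (hX2 : X2 ∈ XX D.Wo D.z) (v : V) :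
    ∃ P Q, X ++ X2 = P ++ Q ∧ P.length < X.length ∧ D.LP2 P v ∧
      ∃ b, Sem_445.SR2 (XX D.Wo D.z) D.T D.LP1 D.LP2 Q b := by
  obtain ⟨P, Q, e, hl, hP, -, b, hb⟩ := h.cc hX hX2 v
  refine ⟨P, Q, e, hl, hP, b, ?_⟩
  intro P' v' hP' hN
  rcases hb P' v' hP' with ⟨X', hX', hpre, P'', Q'', e', hl', hL, hne, hS⟩ | h2
  · exact absurd (⟨hne, ⟨P'', v', hL⟩, hS⟩ : Sem_445.Leg1 (XX D.Wo D.z) D.T D.LP1 Q'')
      (hN X' hX' hpre P'' Q'' e' hl' hL)
  · exact h2

theorem key {α S V : Type} [Finite α] [Monoid S] [Finite S] [Finite V] [AddCommGroup V]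
    (f : α → S) {D : Data α S V} (h : Ok D) (hφ : ∀ w, D.φ w = (w.map f).prod)
    (act_mul : ∀ v s s', D.act (D.act v s) s' = D.act v (s * s'))
    (act_add : ∀ v w s, D.act (v + w) s = D.act v s + D.act w s)
    (faith : ∀ s s', (∀ v, D.act v s = D.act v s') → s = s')
    (hlen : ∀ P, D.Wo P → D.n ≤ P.length) (B : ℕ)
    (hfree : ∀ u : List α, (∀ t < u.length, ¬ D.Wo (u.take t)) →
        ∃ (a p v : List α) (k : ℕ), u = a ++ (List.replicate k p).flatten ++ v ∧
          a.length ≤ B ∧ p.length ≤ B ∧ v.length ≤ B)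
    (hnu : ∀ b, Language.IsRegular ({Y | D.nu1 Y = b} : Language α)) (s : S) :
    HL 3 ({w | (w.map f).prod = s} : Language α) := by
  have hz := h.hz
  have hφ' : D.φ = fun w => (w.map f).prod := funext hφ
  have hT : ∀ v X, D.T v X = Fib_64.TT f D.act D.p0 D.nu1 D.nu2 v X := by
    intro v X
    unfold Data.T TT Fib_64.TT
    rw [hφ, hφ]
  have hbd : ∀ X : List α, (∀ j, j < X.length → ¬ D.Wo (X.take j)) →
      ∃ (u x v : List α) (k : ℕ), X = u ++ BddReg_746.pw x k ++ v ∧ u.length ≤ B ∧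
        x.length ≤ B ∧ v.length ≤ B := by
    intro X hX
    obtain ⟨a, p, v, k, e, h1, h2, h3⟩ := hfree X hX
    exact ⟨a, p, v, k, e, h1, h2, h3⟩
  have key := SemTop_445.sem_top (fun w : List α => (w.map f).prod) (by simp) (by simp) D.act
    act_mul act_add faith (XX D.Wo D.z)
    (fun hm => by have := hm.1; simp only [List.length_nil] at this; omega)
    prefix_code D.T
    (fun X => D.act (D.nu2 (X.take D.p0)) (((X.drop D.p0).map f).prod) + D.nu1 (X.drop D.p0))
    (by
      intro X _ v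
      unfold Data.T TT
      rw [hφ, hφ, act_add, act_mul, ← List.prod_append, ← List.map_append, List.take_append_drop,
        add_assoc])
    D.LP1 D.LP2 ?_ ?_ ?_ ?_ ?_ s
  · exact key
  · -- LP1 finite
    refine ((List.finite_length_le α (D.p0 + D.N1)).prod (Set.finite_univ (α := V))).subset ?_
    rintro ⟨P, v⟩ ⟨h1, h2⟩
    have := h.g1len _ _ h2
    simp only at h1 h2 this
    rw [List.length_drop] at this
    refine ⟨?_, trivial⟩
    change P.length ≤ D.p0 + D.N1
    omega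
  · refine ((List.finite_length_le α D.Lam).prod (Set.finite_univ (α := V))).subset ?_
    rintro ⟨P, v⟩ ⟨k, hk, h1, -⟩
    have := h.cLam k hk
    simp only at h1
    refine ⟨?_, trivial⟩
    change P.length ≤ D.Lam
    omega
  · intro v v'
    have h1 := Fib_64.hXT (n := D.n) (B := B) h.loc hlen hbd f D.act D.z D.p0 (by omega) D.nu1
      D.nu2 hnu v v'
    refine h1.congr fun X => ?_
    constructor
    · rintro ⟨a, b⟩; exact ⟨a, by rw [← hT]; exact b⟩
    · rintro ⟨a, b⟩; exact ⟨a, by rw [hT]; exact b⟩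
  · intro s
    exact Fib_64.hNP (n := D.n) (B := B) h.loc hlen hbd f D.z s
  · intro X hX X2 hX2 v
    exact Or.inr (cover h hX hX2 v)


theorem fin (α : Type) [Finite α] (S : Type) [Monoid S] [Finite S] (f : α → S) (s : S) :
    HL 3 ({w | (w.map f).prod = s} : Language α) := by
  classical
  have : Fintype S := Fintype.ofFinite S
  obtain ⟨act, hadd, hone, hmul, hfaith⟩ := _root_.Crest.Agent.R320.Blk467.exists_module S
  obtain ⟨m, r, hgrid⟩ := GridG_19.grid S (S → ZMod 2) act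
  obtain ⟨K, hK⟩ := ExactR_237.exact_gadget α S (S → ZMod 2) f act (2 + 2 * (r + m))
  obtain ⟨Ms, hcard, hpr, hg⟩ := hgrid (4 ^ K + 2)
  set M := ∏ q ∈ Ms, q with hMdef
  have hM : 0 < M := Finset.prod_pos fun q hq => (hpr q hq).1.pos
  set κ := 16 * 4 ^ K * M with hκ
  have hodd : ∀ j, Nat.Coprime M (2 ^ (κ * j)) := by
    intro j
    rw [hMdef]
    refine Nat.Coprime.prod_left fun q hq => ?_
    refine Nat.Coprime.pow_right _ ?_
    rw [Nat.coprime_primes (hpr q hq).1 Nat.prime_two]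
    have h1 := (hpr q hq).2
    have h2 : 0 < 4 ^ K := by positivity
    intro h3
    rw [h3] at h1
    omega
  have hGp : ∀ k, 0 < (fun j => 2 ^ (κ * j) : ℕ → ℕ) k := fun k => by positivity
  have hGd : ∀ a b, a ≤ b → (fun j => 2 ^ (κ * j) : ℕ → ℕ) a ∣ (fun j => 2 ^ (κ * j) : ℕ → ℕ) b :=
    fun a b h => pow_dvd_pow 2 (Nat.mul_le_mul_left κ h)
  have hGb : ∀ j, 16 * 4 ^ K * (M * (fun j => 2 ^ (κ * j) : ℕ → ℕ) j) ≤
      (fun j => 2 ^ (κ * j) : ℕ → ℕ) (j + 1) := by
    intro j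
    have h1 : κ ≤ 2 ^ κ := Nat.lt_two_pow_self.le
    have h2 : 2 ^ (κ * (j + 1)) = 2 ^ (κ * j) * 2 ^ κ := by rw [← pow_add]; ring_nf
    show 16 * 4 ^ K * (M * 2 ^ (κ * j)) ≤ 2 ^ (κ * (j + 1))
    rw [h2]
    calc 16 * 4 ^ K * (M * 2 ^ (κ * j)) = 2 ^ (κ * j) * κ := by rw [hκ]; ring
      _ ≤ 2 ^ (κ * j) * 2 ^ κ := Nat.mul_le_mul_left _ h1
  set G : ℕ → ℕ := fun j => 2 ^ (κ * j) with hG
  obtain ⟨lam, rho, nu1, g1, g2, g3, g4, g5⟩ := hg G 0 hGp hGd hodd α
    (fun w => (w.map f).prod) (by simp)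
  set N1 := GridG_19.Am G M 0 m with hN1
  obtain ⟨U, hU1, hU2, hU3, hU4⟩ := GridRuler_257.ruler K m Ms M G (GridG_19.Am G M 0) N1 hM
    (fun k hk => ⟨Finset.dvd_prod_of_mem _ hk, by have := (hpr k hk).2; omega⟩) (hGp 0)
    (fun j => hGd j (j + 1) (by omega)) hGb (hodd m)
  have hcmono : ∀ i j, i < j → U * 4 ^ i < U * 4 ^ j := fun i j h => by
    have := hU2 i j h; omega
  have hcle : ∀ i j, i ≤ j → U * 4 ^ i ≤ U * 4 ^ j := fun i j h =>
    Nat.mul_le_mul_left _ (Nat.pow_le_pow_right (by norm_num) h)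
  set Lam := U * 4 ^ K with hLam
  obtain ⟨lam2, rho2, nu2, e1, e2⟩ := hK (fun j => U * 4 ^ j) (fun i j h _ => hcmono i j h)
  obtain ⟨n, Wo, w1, w2, w3, B, w4⟩ := WallU_36.exists_lwalls_all α (2 * (N1 + Lam))
  set La := 2 * N1 + M + Lam + 1 with hLa
  have hOk : Ok (α := α) (S := S) (V := S → ZMod 2)
      { φ := fun w => (w.map f).prod, act := act, Wo := Wo, n := n, W := 2 * (N1 + Lam),
        z := Lam + n + N1 + Lam + La + 1, p0 := Lam, lam := lam, rho := rho, nu1 := nu1,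
        N1 := N1, La := La,
        Bad := fun T => (∃ q ∈ Ms, q ∣ T) ∨ GridG_19.BadG G M 0 m T,
        K := K, R := 2 + 2 * (r + m), C0 := r + m, Lam := Lam, c := fun j => U * 4 ^ j,
        lam2 := lam2, rho2 := fun k Q => rho2 k Q 1, nu2 := fun u => nu2 u 1 } := by
    refine ⟨w1, w3, ?_, ?_, ?_, ?_, ?_, ?_, ?_, ?_, ?_, ?_, le_rfl, le_rfl, le_rfl⟩
    · intro p v h
      exact (g2 p v h).2.le
    · intro p q v b h1 h2 _
      exact g1 p q v b h1 h2
    · intro u hu hb v
      have hb' : ¬ ((∃ q ∈ Ms, q ∣ u.length) ∨ GridG_19.BadG G M 0 m u.length) := hb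
      have hu' : La ≤ u.length := hu
      push Not at hb'
      exact g4 u (by omega) (by omega) hb'.1 hb'.2 v
    · intro k hk
      exact hcle k K (le_of_lt hk)
    · intro i _ j _ h
      rcases lt_trichotomy i j with h1 | h1 | h1
      · have := hcmono i j h1
        have h' : U * 4 ^ i = U * 4 ^ j := h
        omega
      · exact h1
      · have := hcmono j i h1
        have h' : U * 4 ^ i = U * 4 ^ j := h
        omega
    · intro i _ j _ k _ l _ hij _ h1 h2
      have h1' : U * 4 ^ i + U * 4 ^ l < U * 4 ^ k + U * 4 ^ j + 2 * N1 := h1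
      have h2' : U * 4 ^ k + U * 4 ^ j < U * 4 ^ i + U * 4 ^ l + 2 * N1 := h2
      rcases hU3 i j k l hij with h3 | h3
      · exact h3
      · exfalso
        rw [lt_abs] at h3
        omega
    · intro T hT
      have hT' : La ≤ T := hT
      set F := ((range K) ×ˢ (range K)).filter (fun q : ℕ × ℕ => q.1 ≠ q.2 ∧
        ((∃ k ∈ Ms, k ∣ (T + U * 4 ^ q.2 - U * 4 ^ q.1)) ∨
          GridG_19.BadG G M 0 m (T + U * 4 ^ q.2 - U * 4 ^ q.1))) with hF
      have h1 : (F.image Prod.swap).card ≤ Ms.card + m := by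
        refine hU4 (T : ℤ) _ ?_
        intro ab hab
        rw [mem_image] at hab
        obtain ⟨q, hq, rfl⟩ := hab
        rw [hF, mem_filter, mem_product, mem_range, mem_range] at hq
        obtain ⟨⟨q1, q2⟩, q3, q4⟩ := hq
        refine ⟨q2, q1, fun e => q3 e.symm, ?_⟩
        by_contra hnb
        have hle : U * 4 ^ q.1 ≤ Lam := hcle q.1 K q1.le
        have hcast : ((T + U * 4 ^ q.2 - U * 4 ^ q.1 : ℕ) : ℤ) =
            (T : ℤ) + (U * 4 ^ q.swap.1 : ℕ) - (U * 4 ^ q.swap.2 : ℕ) := by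
          simp only [Prod.fst_swap, Prod.snd_swap]
          omega
        rw [← hcast] at hnb
        obtain ⟨c1, c2⟩ := GridRuler_257.clear_of_not_bad hGp (fun j _ hj => by
          have := GridG_19.Am_mono G M 0 hj
          omega) hnb
        rcases q4 with ⟨k, hk, hd⟩ | ⟨k, hk, hd⟩
        · exact c1 k hk hd
        · have := c2 (k + 1) (by omega) (by omega)
          simp only [Nat.add_sub_cancel] at this
          omega
      rw [card_image_of_injective _ Prod.swap_injective] at h1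
      have h2 : F.card ≤ r + m := by omega
      refine (card_le_card (fun q hq => ?_)).trans h2
      have hq' := (@Finset.mem_filter _ _ (_) _ _).1 hq
      exact (@Finset.mem_filter _ _ (_) _ _).2 hq'
    · intro k hk P Q v b h1 _ h3 h4
      have := e1 k hk P Q 1 v b h1 h3 h4
      rw [mul_one] at this
      exact this
    · intro u hu v
      exact e2 u 1 v (fun k hk => by
        have hu' : u.length = Lam := hu
        rw [hu']
        exact hcle k K hk.le)
    · show 1 + 2 * (r + m) < 2 + 2 * (r + m)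
      omega
  refine key f hOk (fun _ => rfl) (fun v s s' => (hmul v s s').symm) hadd hfaith w2 B w4 ?_ s
  intro b
  refine P4_933.regular_of_class f (GridG_19.Ac G M 0 m) (M * G m) (Nat.mul_pos hM (hGp m))
    (fun Y => nu1 Y = b) ?_
  intro u u' h1 h2 h3 h4 h5
  rw [g5 u u' h1 h2 h3 h4 h5]

end Crest.Agent.R320.Fin_491
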