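import Crest.Agent.R320.Top5_120
import Crest.Agent.R320.Grid_899
import Crest.Agent.R320.Thin_963
import Crest.Agent.R320.Joint_47
import Crest.Agent.R320.LWallAll_922
import Crest.Agent.R320.Fib_854
import Crest.Agent.R320.Block_467

/-!
# Row 320: the join (helper5)
-/

set_option autoImplicit false

namespace Crest.Agent.R320.Fin_5

open Crest.RegLang Crest.Agent.R320.Hk_851
open Crest.Agent.R320.ExactR_237 (pr pr_append)
open Crest.Agent.R320.Joint_47

/-! ### 1. arithmetic -/

section arith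

theorem G_sum {κ : ℕ} (hκ : 0 < κ) (i : ℕ) :
    ∑ j ∈ Finset.range (i + 1), Grid_899.G κ j ≤ 2 * Grid_899.G κ i := by
  induction i with
  | zero => rw [Finset.sum_range_one]; omega
  | succ i ih =>
    rw [Finset.sum_range_succ]
    have h : 2 * Grid_899.G κ i ≤ Grid_899.G κ (i + 1) := by
      unfold Grid_899.G
      rw [Nat.mul_succ, pow_add]
      have : 2 ≤ 2 ^ κ := by
        calc 2 = 2 ^ 1 := by norm_num
          _ ≤ 2 ^ κ := Nat.pow_le_pow_right (by norm_num) hκ
      calc 2 * 2 ^ (κ * i) = 2 ^ (κ * i) * 2 := Nat.mul_comm _ _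
        _ ≤ _ := Nat.mul_le_mul_left _ this
    omega

/-- clean lengths -/
theorem clean {k m κ : ℕ} (q : Fin k → ℕ) {Ms : Finset ℕ} (hMs : ∀ j, q j ∈ Ms) {T : ℕ}
    (hT : Grid_899.Am (∏ j, q j) κ m ≤ T)
    (hb : ¬ Thin963.BadT Ms m (fun i => (Grid_899.G κ i : ℤ))
      (fun i => (((∏ j, q j) * Grid_899.G κ i : ℕ) : ℤ))
      (fun i => (Grid_899.Am (∏ j, q j) κ i : ℤ)) (T : ℤ)) :
    (∀ j, ¬ q j ∣ T) ∧ ∀ j, 1 ≤ j → j ≤ m →
      (∏ j, q j) * Grid_899.G κ (j - 1) ≤ (T - Grid_899.Am (∏ j, q j) κ j) % Grid_899.G κ j ∧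
      (T - Grid_899.Am (∏ j, q j) κ j) % Grid_899.G κ j + (∏ j, q j) * Grid_899.G κ (j - 1) ≤
        Grid_899.G κ j := by
  unfold Thin963.BadT at hb
  push Not at hb
  obtain ⟨h1, h2⟩ := hb
  refine ⟨fun j hj => h1 (q j) (hMs j) (by exact_mod_cast hj), fun j hj1 hjm => ?_⟩
  have hA : Grid_899.Am (∏ j, q j) κ j ≤ T := (Grid_899.Am_mono hjm).trans hT
  have hGp := Grid_899.G_pos (κ := κ) j
  have hlt := Nat.mod_lt (T - Grid_899.Am (∏ j, q j) κ j) hGp
  have hdm := Nat.div_add_mod (T - Grid_899.Am (∏ j, q j) κ j) (Grid_899.G κ j)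
  set r := (T - Grid_899.Am (∏ j, q j) κ j) % Grid_899.G κ j with hr
  set d := (T - Grid_899.Am (∏ j, q j) κ j) / Grid_899.G κ j with hd
  have hTe : (T : ℤ) = Grid_899.Am (∏ j, q j) κ j + Grid_899.G κ j * d + r := by
    have : T = Grid_899.Am (∏ j, q j) κ j + (Grid_899.G κ j * d + r) := by omega
    exact_mod_cast (by rw [← Nat.add_assoc] at this; exact this)
  have hj : j - 1 + 1 = j := by omega
  constructor
  · by_contra hlt2
    push Not at hlt2
    refine h2 (j - 1) (by omega) (-(r : ℤ)) ?_ ?_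
    · rw [abs_neg, abs_of_nonneg (by positivity)]
      exact_mod_cast hlt2.le
    · rw [hj, hTe]
      exact ⟨d, by ring⟩
  · by_contra hlt2
    push Not at hlt2
    refine h2 (j - 1) (by omega) ((Grid_899.G κ j : ℤ) - r) ?_ ?_
    · have h3 : (r : ℤ) ≤ Grid_899.G κ j := by exact_mod_cast hlt.le
      rw [abs_of_nonneg (by linarith)]
      have h4 : (Grid_899.G κ j : ℤ) < r + ((∏ j, q j) * Grid_899.G κ (j - 1) : ℕ) := by
        exact_mod_cast hlt2
      linarith
    · rw [hj, hTe]
      exact ⟨d + 1, by ring⟩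

/-- the bad lengths are periodic -/
theorem badT_congr {k m κ : ℕ} (q : Fin k → ℕ) {Ms : Finset ℕ}
    (hMs : ∀ x ∈ Ms, x ∣ (∏ j, q j) * Grid_899.G κ m) {T T' : ℕ}
    (hTT : T % ((∏ j, q j) * Grid_899.G κ m) = T' % ((∏ j, q j) * Grid_899.G κ m))
    (hb : Thin963.BadT Ms m (fun i => (Grid_899.G κ i : ℤ))
      (fun i => (((∏ j, q j) * Grid_899.G κ i : ℕ) : ℤ))
      (fun i => (Grid_899.Am (∏ j, q j) κ i : ℤ)) (T : ℤ)) :
    Thin963.BadT Ms m (fun i => (Grid_899.G κ i : ℤ))
      (fun i => (((∏ j, q j) * Grid_899.G κ i : ℕ) : ℤ))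
      (fun i => (Grid_899.Am (∏ j, q j) κ i : ℤ)) (T' : ℤ) := by
  have hd : (((∏ j, q j) * Grid_899.G κ m : ℕ) : ℤ) ∣ (T' : ℤ) - T :=
    (Nat.modEq_iff_dvd (n := (∏ j, q j) * Grid_899.G κ m) (a := T) (b := T')).1 hTT
  rcases hb with ⟨x, hx, h⟩ | ⟨i, hi, e, he, h⟩
  · left
    refine ⟨x, hx, ?_⟩
    have h1 : (x : ℤ) ∣ (T' : ℤ) - T := (Int.natCast_dvd_natCast.2 (hMs x hx)).trans hd
    have := dvd_add h1 h
    rwa [sub_add_cancel] at this
  · right
    refine ⟨i, hi, e, he, ?_⟩
    have h0 : Grid_899.G κ (i + 1) ∣ (∏ j, q j) * Grid_899.G κ m :=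
      (Grid_899.G_dvd (by omega)).trans (Dvd.intro_left _ rfl)
    have h1 : (Grid_899.G κ (i + 1) : ℤ) ∣ (T' : ℤ) - T :=
      (Int.natCast_dvd_natCast.2 h0).trans hd
    have := dvd_add h1 h
    have e1 : (T' : ℤ) - T + (T - Grid_899.Am (∏ j, q j) κ (i + 1) + e) =
        T' - Grid_899.Am (∏ j, q j) κ (i + 1) + e := by ring
    rwa [e1] at this

end arith

/-! ### 2. the gadget with a local correction word -/

section gadget

variable {A S V : Type} [Monoid S] [AddCommGroup V] (f : A → S) (act : V → S → V)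

open Classical in
/-- the correction, read from any legal split -/
noncomputable def nuL (lam rho : List A → Option V) (Y : List A) : V :=
  if h : ∃ p : List A × List A × V × V, p.1 ++ p.2.1 = Y ∧ lam p.1 = some p.2.2.1 ∧
      rho p.2.1 = some p.2.2.2 then
    h.choose.2.2.2 - act h.choose.2.2.1 (pr f Y) else 0

theorem nuL_spec {lam rho : List A → Option V} {nu : List A → V}
    (hS : ∀ P Q v r, lam P = some v → rho Q = some r → r = act v (pr f (P ++ Q)) + nu (P ++ Q))
    (P Q : List A) (v r : V) (h1 : lam P = some v) (h2 : rho Q = some r) :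
    r = act v (pr f (P ++ Q)) + nuL f act lam rho (P ++ Q) := by
  have h : ∃ p : List A × List A × V × V, p.1 ++ p.2.1 = P ++ Q ∧ lam p.1 = some p.2.2.1 ∧
      rho p.2.1 = some p.2.2.2 := ⟨(P, Q, v, r), rfl, h1, h2⟩
  unfold nuL
  rw [dif_pos h]
  obtain ⟨e1, e2, e3⟩ := h.choose_spec
  have h3 := hS _ _ _ _ e2 e3
  rw [e1] at h3
  have h4 := hS _ _ _ _ h1 h2
  rw [h3, h4]
  abel

/-- the correction is local -/
theorem nuL_congr {lam rho : List A → Option V} {nu : List A → V} {N1 B M : ℕ}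
    (hS : ∀ P Q v r, lam P = some v → rho Q = some r → r = act v (pr f (P ++ Q)) + nu (P ++ Q))
    (hL : ∀ P v, lam P = some v → P.length ≤ N1)
    (hr : ∀ Q Q' : List A, B ≤ Q.length → B ≤ Q'.length → Q.take B = Q'.take B →
      pr f (Q.drop B) = pr f (Q'.drop B) → Q.length % M = Q'.length % M → rho Q = rho Q')
    {Y Y' : List A} (h1 : N1 + B ≤ Y.length) (h1' : N1 + B ≤ Y'.length)
    (h2 : Y.take (N1 + B) = Y'.take (N1 + B)) (h3 : Y.length % M = Y'.length % M)
    (h4 : pr f (Y.drop (N1 + B)) = pr f (Y'.drop (N1 + B))) :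
    nuL f act lam rho Y = nuL f act lam rho Y' := by
  have hprY : ∀ {i} {Z Z' : List A}, i ≤ N1 + B → Z.take (N1 + B) = Z'.take (N1 + B) →
      pr f (Z.drop (N1 + B)) = pr f (Z'.drop (N1 + B)) →
      pr f (Z.drop i) = pr f (Z'.drop i) := by
    intro i Z Z' hi e1 e2
    have e : ∀ W : List A, W.drop i = (W.take (N1 + B)).drop i ++ W.drop (N1 + B) := by
      intro W
      rcases Nat.lt_or_ge W.length (N1 + B) with hl | hl
      · rw [List.drop_eq_nil_of_le (show W.length ≤ N1 + B by omega), List.append_nil,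
          List.take_of_length_le (by omega)]
      · conv_lhs => rw [← List.take_append_drop (N1 + B) W]
        rw [List.drop_append_of_le_length (by rw [List.length_take]; omega)]
    rw [e Z, e Z', pr_append, pr_append, e1, e2]
  have hsame : pr f Y = pr f Y' := by
    have := hprY (i := 0) (by omega) h2 h4
    simpa using this
  have key : ∀ Z Z' : List A, N1 + B ≤ Z.length → N1 + B ≤ Z'.length →
      Z.take (N1 + B) = Z'.take (N1 + B) → Z.length % M = Z'.length % M →
      pr f (Z.drop (N1 + B)) = pr f (Z'.drop (N1 + B)) →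
      ∀ P Q v r, P ++ Q = Z → lam P = some v → rho Q = some r →
        ∃ Q', P ++ Q' = Z' ∧ rho Q' = some r := by
    intro Z Z' g1 g1' g2 g3 g4 P Q v r e1 e2 e3
    have hP := hL _ _ e2
    have hQ : Q = Z.drop P.length := by rw [← e1, List.drop_left]
    have hP' : P = Z'.take P.length := by
      have e4 : P = Z.take P.length := by rw [← e1, List.take_left]
      have e5 : Z.take P.length = Z'.take P.length := by
        have := congrArg (List.take P.length) g2
        rwa [List.take_take, List.take_take, min_eq_left (by omega)] at this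
      rw [e5] at e4
      exact e4
    refine ⟨Z'.drop P.length, ?_, ?_⟩
    · conv_lhs => rw [hP']
      rw [List.length_take, min_eq_left (by omega), List.take_append_drop]
    · rw [← e3, hQ]
      refine (hr _ _ ?_ ?_ ?_ ?_ ?_).symm
      · rw [List.length_drop]; omega
      · rw [List.length_drop]; omega
      · rw [List.take_drop, List.take_drop]
        have := congrArg (List.take (P.length + B)) g2
        rw [List.take_take, List.take_take, min_eq_left (by omega)] at this
        rw [this]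
      · rw [List.drop_drop, List.drop_drop]
        exact hprY (by omega) g2 g4
      · rw [List.length_drop, List.length_drop]
        have hz : Z.length ≡ Z'.length [MOD M] := g3
        have : (Z.length - P.length) ≡ (Z'.length - P.length) [MOD M] := by
          refine Nat.ModEq.add_right_cancel' P.length ?_
          rw [Nat.sub_add_cancel (by omega), Nat.sub_add_cancel (by omega)]
          exact hz
        exact this
  by_cases h : ∃ p : List A × List A × V × V, p.1 ++ p.2.1 = Y ∧ lam p.1 = some p.2.2.1 ∧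
      rho p.2.1 = some p.2.2.2
  · obtain ⟨⟨P, Q, v, r⟩, e1, e2, e3⟩ := h
    obtain ⟨Q', e4, e5⟩ := key Y Y' h1 h1' h2 h3 h4 P Q v r e1 e2 e3
    have a1 := nuL_spec f act hS P Q v r e2 e3
    have a2 := nuL_spec f act hS P Q' v r e2 e5
    simp only at e1
    rw [e1] at a1
    rw [e4, ← hsame] at a2
    rw [a1] at a2
    exact add_left_cancel a2
  · have h' : ¬ ∃ p : List A × List A × V × V, p.1 ++ p.2.1 = Y' ∧ lam p.1 = some p.2.2.1 ∧
        rho p.2.1 = some p.2.2.2 := by
      rintro ⟨⟨P, Q, v, r⟩, e1, e2, e3⟩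
      obtain ⟨Q', e4, e5⟩ := key Y' Y h1' h1 h2.symm h3.symm h4.symm P Q v r e1 e2 e3
      exact h ⟨(P, Q', v, r), e4, e2, e5⟩
    unfold nuL
    rw [dif_neg h, dif_neg h']

end gadget

/-! ### 3. walls -/

theorem walls (A : Type) [Finite A] (W : ℕ) (hW : 0 < W) :
    ∃ (n B : ℕ) (Wo : List A → Prop), 0 < n ∧ LW n W Wo ∧
      ∀ X : List A, (∀ t, t < X.length → ¬ Wo (X.take t)) → ∃ (u x : List A) (k : ℕ)
        (v : List A), u.length ≤ B ∧ x.length ≤ B ∧ v.length ≤ B ∧
        X = u ++ (List.replicate k x).flatten ++ v := by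
  obtain ⟨n, G, B, Wo, ⟨happ, hlen⟩, hgap, -, -, hfew⟩ := LWallAll_922.walls_all_left A W hW
  refine ⟨n + 1, B + W + 1, fun X => Wo X ∧ n + 1 ≤ X.length, by omega, ⟨fun X h => h.2, ?_, ?_⟩,
    ?_⟩
  · intro P Q hQ
    constructor
    · rintro ⟨h1, _⟩
      exact ⟨(happ P Q (by omega)).1 h1, hQ⟩
    · rintro ⟨h1, _⟩
      exact ⟨(happ P Q (by omega)).2 h1, by rw [List.length_append]; omega⟩
  · intro X s t hst ht h1 h2
    have := hgap X s t hst ht h1.1 h2.1
    omega
  · intro X hX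
    obtain ⟨u, x, v, k, hu, hx, hv, e⟩ := hfew (X.drop 1) (by
      intro t ht hw
      rw [List.length_drop] at ht
      have h1 := hlen _ hw
      rw [List.length_take, List.length_drop] at h1
      have h2 : X.take (1 + t) = X.take 1 ++ (X.drop 1).take t := by rw [List.take_add]
      refine hX (1 + t) (by omega) ⟨?_, ?_⟩
      · rw [h2]
        exact (happ _ _ (by rw [List.length_take, List.length_drop]; omega)).2 hw
      · rw [List.length_take]; omega)
    refine ⟨X.take 1 ++ u, x, k, v, ?_, by omega, by omega, ?_⟩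
    · rw [List.length_append, List.length_take]; omega
    · conv_lhs => rw [← List.take_append_drop 1 X, e]
      simp [List.append_assoc]

/-! ### 4. constants of gadget 1 with its ruler -/

/-- the ruler `X * 2 ^ j` -/
theorem gadget1 (S V : Type) [Monoid S] [Finite S] [AddCommGroup V] [Finite V]
    (act : V → S → V) :
    ∃ R1 : ℕ, ∀ K : ℕ, ∃ (N1 N0 M : ℕ) (BadT : ℕ → Prop) (c : ℕ → ℕ), 0 < M ∧
      (∀ i j, i < j → c i < c j) ∧
      (∀ T T', T % M = T' % M → BadT T → BadT T') ∧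
      (∀ i i' j j', i < K → i' < K → j < K → j' < K → i' ≠ i → j' ≠ j →
        c i + c j' < c j + c i' + 2 * N1 → c j + c i' < c i + c j' + 2 * N1 → i = j) ∧
      (∀ T : ℕ, (∀ k, k < K → c k ≤ T) → ∀ I : Finset ℕ,
        (∀ k ∈ I, k < K ∧ ∃ k', k' < K ∧ k' ≠ k ∧ BadT (T + c k' - c k)) → I.card ≤ R1) ∧
      ∀ (A : Type) (f : A → S), ∃ (lam rho : List A → Option V) (nu : List A → V) (B : ℕ),
        (∀ P v, lam P = some v → P.length ≤ N1) ∧
        (∀ P Q v r, lam P = some v → rho Q = some r →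
          r = act v (pr f (P ++ Q)) + nu (P ++ Q)) ∧
        (∀ Y : List A, N0 ≤ Y.length → ¬ BadT Y.length →
          ∀ v, ∃ P Q, Y = P ++ Q ∧ lam P = some v ∧ (rho Q).isSome) ∧
        (∀ Y Y' : List A, B ≤ Y.length → B ≤ Y'.length → Y.take B = Y'.take B →
          Y.length % M = Y'.length % M → pr f (Y.drop B) = pr f (Y'.drop B) → nu Y = nu Y') := by
  classical
  obtain ⟨k, m, H⟩ := Grid_899.grid_gadget_reg S V act
  refine ⟨k + m, fun K => ?_⟩
  let q : Fin k → ℕ := fun j => Nat.nth Nat.Prime (2 ^ (K + 1) + j)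
  have hqp : ∀ j, (q j).Prime := fun j => Nat.prime_nth_prime _
  have hqge : ∀ j, 2 ^ (K + 1) + 2 ≤ q j := fun j => by
    have := Nat.add_two_le_nth_prime (2 ^ (K + 1) + (j : ℕ))
    show 2 ^ (K + 1) + 2 ≤ Nat.nth Nat.Prime (2 ^ (K + 1) + j)
    omega
  have hqinj : Function.Injective q := by
    intro i j hij
    have := Nat.nth_injective Nat.infinite_setOfPred_prime hij
    exact Fin.ext (by omega)
  have hqodd : ∀ j, Odd (q j) := fun j => (hqp j).odd_of_ne_two (by
    have h1 := hqge j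
    have h2 : 1 ≤ 2 ^ (K + 1) := Nat.one_le_two_pow
    omega)
  have hqc : Pairwise (fun i j => Nat.Coprime (q i) (q j)) := fun i j hij =>
    (Nat.coprime_primes (hqp i) (hqp j)).2 fun h => hij (hqinj h)
  set Mq := ∏ j, q j with hMq
  have hMqpos : 0 < Mq := Finset.prod_pos fun j _ => (hqp j).pos
  let κ : ℕ := K + 5 + Mq
  let Ms : Finset ℕ := Finset.univ.image q
  have hMsq : ∀ j, q j ∈ Ms := fun j => Finset.mem_image_of_mem _ (Finset.mem_univ j)
  have hMscard : Ms.card ≤ k := by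
    refine (Finset.card_image_le).trans ?_
    simp
  have hGpos : ∀ i, 0 < Grid_899.G κ i := fun i => Grid_899.G_pos i
  have hcopG : ∀ j, Nat.Coprime (q j) (Grid_899.G κ m) := by
    intro j
    unfold Grid_899.G
    exact Nat.Coprime.pow_right _ ((Nat.coprime_primes (hqp j) Nat.prime_two).2 (by
      have h1 := hqge j
      have h2 : 1 ≤ 2 ^ (K + 1) := Nat.one_le_two_pow
      omega))
  obtain ⟨X, hX0, hXpos, hthin⟩ := Thin963.thin K m Ms (fun i => (Grid_899.G κ i : ℤ))
    (fun i => ((Mq * Grid_899.G κ i : ℕ) : ℤ)) (fun i => (Grid_899.Am Mq κ i : ℤ))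
    (by
      intro x hx
      obtain ⟨j, -, rfl⟩ := Finset.mem_image.1 hx
      exact ⟨hqp j, by have := hqge j; omega⟩)
    (by
      intro x hx
      obtain ⟨j, -, rfl⟩ := Finset.mem_image.1 hx
      exact Nat.isCoprime_iff_coprime.2 (hcopG j))
    (by exact_mod_cast hGpos m)
    (fun i j hij => Int.natCast_dvd_natCast.2 (Grid_899.G_dvd hij))
    (fun i => by exact_mod_cast Nat.mul_pos hMqpos (hGpos i))
    (fun i => Int.natCast_dvd_natCast.2 (Dvd.intro_left _ rfl))
    (by
      intro i hi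
      have h1 : ∑ j ∈ Finset.range (i + 1), Mq * Grid_899.G κ j ≤ Mq * (2 * Grid_899.G κ i) := by
        rw [← Finset.mul_sum]
        exact Nat.mul_le_mul_left _ (G_sum (by omega) i)
      have h2 : 2 ^ (K + 4) * (Mq * (2 * Grid_899.G κ i)) ≤ Grid_899.G κ (i + 1) := by
        unfold Grid_899.G
        have h3 : Mq ≤ 2 ^ Mq := Nat.lt_two_pow_self.le
        have h4 : 2 ^ (κ * (i + 1)) = 2 ^ (K + 4) * (2 ^ Mq * (2 * 2 ^ (κ * i))) := by
          rw [Nat.mul_succ, pow_add]
          show _ * 2 ^ (K + 5 + Mq) = _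
          rw [pow_add, show K + 5 = K + 4 + 1 from rfl, pow_succ]
          ring
        rw [h4]
        gcongr
      have h3 : 2 ^ (K + 4) * ∑ j ∈ Finset.range (i + 1), Mq * Grid_899.G κ j ≤
          Grid_899.G κ (i + 1) := (Nat.mul_le_mul_left _ h1).trans h2
      exact_mod_cast h3)
    (2 * (Grid_899.Am Mq κ m : ℤ) + 1)
  set x := X.toNat with hx
  have hxX : (x : ℤ) = X := Int.toNat_of_nonneg hXpos.le
  have hxbig : 2 * Grid_899.Am Mq κ m + 1 ≤ x := by
    have : (2 * (Grid_899.Am Mq κ m : ℤ) + 1) ≤ x := by rw [hxX]; exact hX0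
    exact_mod_cast this
  let BadT : ℕ → Prop := fun T => Thin963.BadT Ms m (fun i => (Grid_899.G κ i : ℤ))
      (fun i => ((Mq * Grid_899.G κ i : ℕ) : ℤ))
      (fun i => (Grid_899.Am Mq κ i : ℤ)) (T : ℤ)
  refine ⟨Grid_899.Am Mq κ m, 2 * Grid_899.Am Mq κ (m + 1), Mq * Grid_899.G κ m, BadT,
    fun j => x * 2 ^ j, Nat.mul_pos hMqpos (hGpos m), ?_, ?_, ?_, ?_, ?_⟩
  · intro i j hij
    exact Nat.mul_lt_mul_of_pos_left (Nat.pow_lt_pow_right (by norm_num) hij) (by omega)
  · intro T T' hTT hb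
    refine badT_congr q ?_ hTT hb
    intro y hy
    obtain ⟨j, -, rfl⟩ := Finset.mem_image.1 hy
    exact (Finset.dvd_prod_of_mem q (Finset.mem_univ j)).trans (Dvd.intro _ rfl)
  · intro i i' j j' _ _ _ _ hi hj h1 h2
    have h1' : (x : ℤ) * 2 ^ i + x * 2 ^ j' < x * 2 ^ j + x * 2 ^ i' + 2 * Grid_899.Am Mq κ m := by
      exact_mod_cast h1
    have h2' : (x : ℤ) * 2 ^ j + x * 2 ^ i' < x * 2 ^ i + x * 2 ^ j' + 2 * Grid_899.Am Mq κ m := by
      exact_mod_cast h2
    have hb : (2 * Grid_899.Am Mq κ m + 1 : ℤ) ≤ x := by exact_mod_cast hxbig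
    have h0 : (2 : ℤ) ^ i - 2 ^ i' = 2 ^ j - 2 ^ j' := by
      by_contra hne
      have hne' : (2 : ℤ) ^ i + 2 ^ j' - 2 ^ j - 2 ^ i' ≠ 0 := fun h => hne (by linarith)
      set D := (2 : ℤ) ^ i + 2 ^ j' - 2 ^ j - 2 ^ i' with hD
      have e1 : (x : ℤ) * D = x * 2 ^ i + x * 2 ^ j' - x * 2 ^ j - x * 2 ^ i' := by
        rw [hD]; ring
      have hxp : (0 : ℤ) < x := by omega
      rcases lt_or_gt_of_ne hne' with h | h
      · have : (x : ℤ) * D ≤ x * (-1) := mul_le_mul_of_nonneg_left (by omega) hxp.le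
        linarith
      · have : (x : ℤ) * 1 ≤ x * D := mul_le_mul_of_nonneg_left (by omega) hxp.le
        linarith
    exact (Crest.Agent.R320.G369.pow_diff (Ne.symm hi) (Ne.symm hj) h0).1
  · intro T hT I hI
    refine le_trans ?_ ((hthin (T : ℤ)).trans (Nat.add_le_add_right hMscard m))
    choose g hg using fun (k : ℕ) (hk : k ∈ I) => (hI k hk).2
    refine Finset.card_le_card_of_injOn
      (fun k => if h : k ∈ I then (g k h, k) else (k, k)) ?_ ?_
    · intro k hk
      have hk' : k ∈ I := hk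
      simp only [dif_pos hk']
      have h1 := hg k hk'
      have h2 := (hI k hk').1
      simp only [Finset.coe_filter, Set.mem_ofPred_eq, Finset.mem_product, Finset.mem_range]
      refine ⟨⟨h1.1, h2⟩, h1.2.1, ?_⟩
      have h3 : Thin963.BadT Ms m (fun i => (Grid_899.G κ i : ℤ))
        (fun i => ((Mq * Grid_899.G κ i : ℕ) : ℤ))
        (fun i => (Grid_899.Am Mq κ i : ℤ)) ((T + x * 2 ^ (g k hk') - x * 2 ^ k : ℕ) : ℤ) :=
        h1.2.2
      have h4 : x * 2 ^ k ≤ T := hT k h2
      have h5 : ((T + x * 2 ^ (g k hk') - x * 2 ^ k : ℕ) : ℤ) =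
          (T : ℤ) + X * 2 ^ (g k hk') - X * 2 ^ k := by
        rw [Nat.cast_sub (by omega), ← hxX]
        push_cast
        ring
      rw [h5] at h3
      exact h3
    · intro k hk k' hk' e
      have hk1 : k ∈ I := hk
      have hk2 : k' ∈ I := hk'
      simp only [dif_pos hk1, dif_pos hk2, Prod.mk.injEq] at e
      exact e.2
  · intro A f
    obtain ⟨lam, rho, nu, h1, h2, h3, h4, h5⟩ := H q hqodd hqc κ A (pr f) (fun u v => pr_append f u v)
    have hL : ∀ P v, lam P = some v → P.length ≤ Grid_899.Am Mq κ m := fun P v h =>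
      (h1 P v h).1.le
    refine ⟨lam, rho, nuL f act lam rho, Grid_899.Am Mq κ m + Grid_899.Am Mq κ (m + 1), hL,
      fun P Q v r e1 e2 => nuL_spec f act h3 P Q v r e1 e2, ?_, ?_⟩
    · intro Y hY hb v
      have hA : Grid_899.Am Mq κ m ≤ Y.length := by
        have := Grid_899.Am_mono (Ms := Mq) (κ := κ) (show m ≤ m + 1 by omega)
        omega
      obtain ⟨c1, c2⟩ := clean (κ := κ) q hMsq hA hb
      exact h4 Y hY c1 c2 v
    · intro Y Y' g1 g1' g2 g3 g4
      exact nuL_congr f act h3 hL (fun Q Q' a1 a2 a3 a4 a5 => h5 Q Q' a1 a2 a3 a4 a5)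
        g1 g1' g2 g3 g4

/-! ### 5. the join -/

theorem prefix_take {α : Type*} {K t : ℕ} {X Y : List α} (h : X.take K = Y.take K) (ht : t ≤ K) :
    X.take t = Y.take t := by
  have := congrArg (List.take t) h
  rwa [List.take_take, List.take_take, min_eq_left ht] at this

theorem pr_drop_le {A S : Type} [Monoid S] (f : A → S) {i K : ℕ} {Z Z' : List A} (hi : i ≤ K)
    (e1 : Z.take K = Z'.take K) (e2 : pr f (Z.drop K) = pr f (Z'.drop K)) :
    pr f (Z.drop i) = pr f (Z'.drop i) := by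
  have e : ∀ W : List A, W.drop i = (W.take K).drop i ++ W.drop K := by
    intro W
    rcases Nat.lt_or_ge W.length K with hl | hl
    · rw [List.drop_eq_nil_of_le (show W.length ≤ K by omega), List.append_nil,
        List.take_of_length_le (by omega)]
    · conv_lhs => rw [← List.take_append_drop K W]
      rw [List.drop_append_of_le_length (by rw [List.length_take]; omega)]
  rw [e Z, e Z', pr_append, pr_append, e1, e2]

/-- **every value language has height at most three** (alphabet and monoid in `Type`) -/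
theorem values (A : Type) [Finite A] (S : Type) [Monoid S] [Finite S] (f : A → S) (s : S) :
    HL 3 ({w | (w.map f).prod = s} : Language A) := by
  classical
  have : Fintype S := Fintype.ofFinite S
  obtain ⟨act, hadd, hone, hmul, hfaith⟩ := Blk467.exists_module S
  have : Fintype (S → ZMod 2) := Fintype.ofFinite _
  obtain ⟨R1, H1⟩ := gadget1 S (S → ZMod 2) act
  obtain ⟨K, H2⟩ := ExactR_237.exact_gadget A S (S → ZMod 2) f act (2 * R1 + 2)
  obtain ⟨N1, N0, M, BadT, c, hM, hcinc, hbper, hres, hT, H1⟩ := H1 K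
  obtain ⟨lam, rho, nu1, B1, hL, hS, hC, hnu1⟩ := H1 A f
  obtain ⟨lam2, rho2, nu2, hS2, hC2⟩ := H2 c (fun i j hij _ => hcinc i j hij)
  set p0 := c K with hp0
  have hcp : ∀ k, k < K → c k ≤ p0 := fun k hk => (hcinc k K hk).le
  obtain ⟨n, B, Wo, hn, hW, hfew⟩ := walls A (2 * (N1 + p0) + 1) (by omega)
  set z := 3 * p0 + n + N1 + 1 + p0 + N0 with hz
  -- the block map
  let nu2' : List A → (S → ZMod 2) := fun X => nu2 X 1
  let nu : List A → (S → ZMod 2) := fun X =>
    act (nu2' (X.take p0)) (pr f (X.drop p0)) + nu1 (X.drop p0)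
  have hTT : ∀ v X, act v (X.map f).prod + nu X = T f act p0 nu2' nu1 v X := by
    intro v X
    have e1 : (X.map f).prod = pr f (X.take p0) * pr f (X.drop p0) := by
      rw [← pr_append, List.take_append_drop]; rfl
    show act v (X.map f).prod + (act (nu2' (X.take p0)) (pr f (X.drop p0)) + nu1 (X.drop p0)) =
      act (act v (pr f (X.take p0)) + nu2' (X.take p0)) (pr f (X.drop p0)) + nu1 (X.drop p0)
    rw [e1, hmul, hadd]
    abel
  let BB : Set (List A) := {X | X ∈ Zn Wo z ∧ Bad Wo z N1 p0 BadT X}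
  -- locality
  have hkey : ∀ v : S → ZMod 2, Fib_854.Key (fun X : List A =>
      ((Bad Wo z N1 p0 BadT X : Prop), act v (X.map f).prod + nu X)) := by
    intro v
    refine ⟨z + N1 + p0 + B1, M, S, inferInstance, inferInstance, f, hM, ?_⟩
    intro X Y hX hY h1 h2 h3
    have h3' : pr f (X.drop (z + N1 + p0 + B1)) = pr f (Y.drop (z + N1 + p0 + B1)) := h3
    have hlen : (X.length - p0) % M = (Y.length - p0) % M := by
      have hz' : X.length ≡ Y.length [MOD M] := h2
      have : (X.length - p0) ≡ (Y.length - p0) [MOD M] := by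
        refine Nat.ModEq.add_right_cancel' p0 ?_
        rw [Nat.sub_add_cancel (by omega), Nat.sub_add_cancel (by omega)]
        exact hz'
      exact this
    have hbad : ∀ X Y : List A, z + N1 + p0 + B1 ≤ X.length → z + N1 + p0 + B1 ≤ Y.length →
        X.take (z + N1 + p0 + B1) = Y.take (z + N1 + p0 + B1) →
        (X.length - p0) % M = (Y.length - p0) % M → Bad Wo z N1 p0 BadT X →
        Bad Wo z N1 p0 BadT Y := by
      intro X Y g1 g2 g3 g4 g5
      rcases g5 with ⟨t, t1, t2, t3, t4⟩ | g5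
      · left
        refine ⟨t, t1, t2, by omega, ?_⟩
        rw [← prefix_take g3 (by omega)]
        exact t4
      · exact Or.inr (hbper _ _ g4 g5)
    have e1 : X.take p0 = Y.take p0 := prefix_take h1 (by omega)
    have e2 : pr f (X.drop p0) = pr f (Y.drop p0) := pr_drop_le f (by omega) h1 h3'
    have e3 : nu1 (X.drop p0) = nu1 (Y.drop p0) := by
      refine hnu1 _ _ ?_ ?_ ?_ ?_ ?_
      · rw [List.length_drop]; omega
      · rw [List.length_drop]; omega
      · rw [List.take_drop, List.take_drop, prefix_take h1 (show p0 + B1 ≤ _ by omega)]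
      · rw [List.length_drop, List.length_drop]; exact hlen
      · rw [List.drop_drop, List.drop_drop]
        exact pr_drop_le f (by omega) h1 h3'
    have e4 : nu X = nu Y := by
      show act (nu2' (X.take p0)) (pr f (X.drop p0)) + nu1 (X.drop p0) =
        act (nu2' (Y.take p0)) (pr f (Y.drop p0)) + nu1 (Y.drop p0)
      rw [e1, e2, e3]
    have e5 : (X.map f).prod = (Y.map f).prod := by
      have := pr_drop_le f (Nat.zero_le _) h1 h3'
      rw [List.drop_zero, List.drop_zero] at this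
      exact this
    simp only
    rw [e4, e5]
    congr 1
    exact propext ⟨hbad X Y hX hY h1 hlen, hbad Y X hY hX h1.symm hlen.symm⟩
  have hXX : Zn Wo z = Fib_854.XX Wo z := rfl
  have hnz : n ≤ z := by omega
  have hfib := fun v y => Fib_854.fib (Wo := Wo) (n := n) (z := z) (B := B) hW.app hW.len hn hnz hfew
    (fun X : List A => ((Bad Wo z N1 p0 BadT X : Prop), act v (X.map f).prod + nu X)) (hkey v) y
  have hPC : Blk467.PCode (Zn Wo z) := by
    refine ⟨fun h => ?_, fun X hX Y hY h => Zn_prefix hX hY h (List.prefix_refl Y)⟩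
    have := h.1
    simp at this
    omega
  refine Top5_120.top5 act hadd hone hmul hfaith f nu (Zn Wo z) BB hPC (fun X h => h.1)
    (fun v => {P | P.length ≤ p0 + N1 ∧ L1 f act p0 nu2' lam v P})
    (fun v => {P | P.length ≤ p0 ∧ L2 K c lam2 v P})
    (fun v => (List.finite_length_le A (p0 + N1)).subset fun P h => h.1)
    (fun v => (List.finite_length_le A p0).subset fun P h => h.1) ?_ ?_ ?_ ?_ ?_ s
  · -- hCT
    intro v y
    refine ((hfib v (True, y)).setOf_or (hfib v (False, y))).congr fun w => ?_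
    constructor
    · rintro ⟨h1, h2⟩
      by_cases hb : Bad Wo z N1 p0 BadT w
      · left
        exact ⟨h1, Prod.ext (propext ⟨fun _ => trivial, fun _ => hb⟩) h2⟩
      · right
        exact ⟨h1, Prod.ext (propext ⟨fun h => hb h, fun h => h.elim⟩) h2⟩
    · rintro (⟨h1, h2⟩ | ⟨h1, h2⟩)
      · exact ⟨h1, congrArg Prod.snd h2⟩
      · exact ⟨h1, congrArg Prod.snd h2⟩
  · -- hBT
    intro v y
    refine (hfib v (True, y)).congr fun w => ?_
    constructor
    · rintro ⟨⟨h1, h3⟩, h2⟩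
      exact ⟨h1, Prod.ext (propext ⟨fun _ => trivial, fun _ => h3⟩) h2⟩
    · rintro ⟨h1, h2⟩
      have h3 : (Bad Wo z N1 p0 BadT w : Prop) = True := congrArg Prod.fst h2
      exact ⟨⟨h1, of_eq_true h3⟩, congrArg Prod.snd h2⟩
  · -- tail
    intro s
    exact Fib_854.tail f hW.app hW.len hn hnz hfew s
  · -- scheme 1
    intro X hX hXb v
    have hb : ¬ Bad Wo z N1 p0 BadT X := fun h => hXb ⟨hX, h⟩
    obtain ⟨p, q, e, hp, -, h⟩ := complete1 f act p0 nu2' nu1 hW hS hL hC (z := z) (by omega)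
      (by omega) hX hb v
    have hlen1 : ∀ {v P}, L1 f act p0 nu2' lam v P → P.length ≤ p0 + N1 := by
      intro v P hP
      have := hL _ _ hP.2
      rw [List.length_drop] at this
      omega
    refine ⟨p, q, e.symm, ⟨hlen1 hp, hp⟩, fun x p' hp' => ?_⟩
    obtain ⟨h1, h2⟩ := h x p' hp'.2
    refine ⟨h1, ?_⟩
    rw [hTT, hTT]
    exact h2
  · -- scheme 2
    intro X hX Y hY v
    obtain ⟨p, q, e, hp, -, h⟩ := complete2 f act p0 nu1 hW hS2 hC2
      (fun i j hij _ => hcinc i j hij) hcp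
      (fun i i' j j' a1 a2 a3 a4 a5 a6 a7 a8 => hres i i' j j' a1 a2 a3 a4 a5 a6 a7 a8) hT
      (by omega) (by omega) hX.1 hY.1 hX.2 v
    have hlen2 : ∀ {v P}, L2 K c lam2 v P → P.length ≤ p0 := by
      rintro v P ⟨k, hk, hk2, -⟩
      rw [hk2]; exact hcp k hk
    refine ⟨p, q, e.symm, ⟨hlen2 hp, hp⟩, fun x p' hp' => ?_⟩
    rcases h x p' hp'.2 with ⟨a, h1, h2, h3, h4⟩ | ⟨a, h1, h2, h3⟩
    · left
      refine ⟨a, ⟨h1, h2⟩, Y, hY.1, h3.symm, ?_⟩
      rw [hTT x a, hTT v X]
      have h4' : T f act p0 nu2' nu1 x a = T f act p0 nu2' nu1 v X := h4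
      rw [h4']
    · right
      exact ⟨a, h1, fun h => h2 h.2, h3⟩

end Crest.Agent.R320.Fin_5
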