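import Crest.Agent.R320.Asm_50

/-!
# Row 320 (helper50): the constants

`fin` : for every finite monoid the fibres of a morphism from words over a finite alphabet
have generalized star height at most three.
-/

set_option autoImplicit false

namespace Crest.Agent.R320.Fin_50

open Crest.RegLang Crest.Agent.R320.Hk_851 Crest.Agent.R320.Sc2n_937
open Crest.Agent.R320.Grid_899 (G Am)
open Crest.Agent.R320.Asm_50 (nuF nuF_eq nuF_cls take_drop_eq pr_drop_eq asm)

theorem exists_primes (k N : ℕ) : ∃ q : Fin k → ℕ, (∀ j, (q j).Prime ∧ N ≤ q j) ∧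
    Function.Injective q := by
  have hinf : ({p : ℕ | p.Prime} \ {p : ℕ | p < N}).Infinite :=
    Nat.infinite_setOf_prime.diff (Set.finite_lt_nat N)
  refine ⟨fun j => (hinf.natEmbedding _ (j : ℕ) : ℕ), fun j => ?_, ?_⟩
  · have h := (hinf.natEmbedding _ (j : ℕ)).2
    exact ⟨h.1, not_lt.1 h.2⟩
  · intro i j h
    have h1 := (hinf.natEmbedding _).injective (Subtype.ext h)
    exact Fin.ext h1

/-- growth of the grids -/
theorem grow (K Ms m i : ℕ) (hi : i < m) :
    2 ^ (K + 4) * ∑ j ∈ Finset.range (i + 1), Ms * G (2 ^ (K + 4) * (Ms * m)) j ≤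
      G (2 ^ (K + 4) * (Ms * m)) (i + 1) := by
  set κ := 2 ^ (K + 4) * (Ms * m) with hκ
  have h1 : ∑ j ∈ Finset.range (i + 1), Ms * G κ j ≤ m * (Ms * G κ i) := by
    calc ∑ j ∈ Finset.range (i + 1), Ms * G κ j
        ≤ ∑ _j ∈ Finset.range (i + 1), Ms * G κ i := by
          refine Finset.sum_le_sum fun j hj => ?_
          have hj' : j ≤ i := by
            have := Finset.mem_range.1 hj; omega
          exact Nat.mul_le_mul_left _ (Nat.le_of_dvd (Grid_899.G_pos i) (Grid_899.G_dvd hj'))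
      _ = (i + 1) * (Ms * G κ i) := by simp
      _ ≤ m * (Ms * G κ i) := Nat.mul_le_mul_right _ hi
  have h2 : G κ (i + 1) = 2 ^ κ * G κ i := by
    unfold G
    rw [← pow_add]
    congr 1
    ring
  calc 2 ^ (K + 4) * ∑ j ∈ Finset.range (i + 1), Ms * G κ j
      ≤ 2 ^ (K + 4) * (m * (Ms * G κ i)) := Nat.mul_le_mul_left _ h1
    _ = κ * G κ i := by rw [hκ]; ring
    _ ≤ 2 ^ κ * G κ i := Nat.mul_le_mul_right _ (Nat.lt_two_pow_self).le
    _ = G κ (i + 1) := h2.symm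

/-- bad totals -/
def BadN (k : ℕ) (q : Fin k → ℕ) (κ m : ℕ) (n : ℕ) : Prop :=
  Thin963.BadT (Finset.univ.image q) m (fun i => (G κ i : ℤ))
    (fun i => ((∏ j, q j : ℕ) : ℤ) * (G κ i : ℤ)) (fun i => (Am (∏ j, q j) κ i : ℤ)) (n : ℤ)

theorem comp_of_not_bad {k : ℕ} {q : Fin k → ℕ} {κ m n : ℕ}
    (hn : Am (∏ j, q j) κ m ≤ n) (h : ¬ BadN k q κ m n) :
    (∀ j, ¬ q j ∣ n) ∧ (∀ j, 1 ≤ j → j ≤ m →
      (∏ j, q j) * G κ (j - 1) ≤ (n - Am (∏ j, q j) κ j) % G κ j ∧
      (n - Am (∏ j, q j) κ j) % G κ j + (∏ j, q j) * G κ (j - 1) ≤ G κ j) := by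
  constructor
  · intro j hj
    exact h (Or.inl ⟨q j, Finset.mem_image_of_mem q (Finset.mem_univ j),
      by exact_mod_cast hj⟩)
  · intro j hj1 hj2
    have hAj : Am (∏ j, q j) κ j ≤ n := le_trans (Grid_899.Am_mono hj2) hn
    set Ms := ∏ j, q j with hMs
    set r := (n - Am Ms κ j) % G κ j with hr
    have hdm := Nat.div_add_mod (n - Am Ms κ j) (G κ j)
    rw [← hr] at hdm
    set d := (n - Am Ms κ j) / G κ j with hd
    have hZ : (n : ℤ) - (Am Ms κ j : ℤ) = (G κ j : ℤ) * d + r := by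
      have : (n : ℤ) = (Am Ms κ j : ℤ) + (G κ j * d + r : ℕ) := by
        rw [hdm]; push_cast [Nat.cast_sub hAj]; ring
      rw [this]; push_cast; ring
    have hrl : r < G κ j := Nat.mod_lt _ (Grid_899.G_pos j)
    have e1 : j - 1 + 1 = j := by omega
    constructor
    · by_contra hlt
      push Not at hlt
      refine h (Or.inr ⟨j - 1, by omega, -(r : ℤ), ?_, ?_⟩)
      · rw [abs_neg, abs_of_nonneg (by positivity)]
        have : (r : ℤ) ≤ ((Ms * G κ (j - 1) : ℕ) : ℤ) := by exact_mod_cast hlt.le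
        push_cast at this
        exact this
      · simp only [e1]
        refine ⟨d, ?_⟩
        linarith
    · by_contra hlt
      push Not at hlt
      refine h (Or.inr ⟨j - 1, by omega, (G κ j : ℤ) - (r : ℤ), ?_, ?_⟩)
      · have h1 : (r : ℤ) ≤ (G κ j : ℤ) := by exact_mod_cast hrl.le
        rw [abs_of_nonneg (by linarith)]
        have : ((G κ j : ℕ) : ℤ) < ((r + Ms * G κ (j - 1) : ℕ) : ℤ) := by exact_mod_cast hlt
        push_cast at this
        simp only
        linarith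
      · simp only [e1]
        refine ⟨d + 1, ?_⟩
        linarith

theorem bad_mod {k : ℕ} {q : Fin k → ℕ} {κ m a b : ℕ}
    (hab : ((∏ j, q j) * G κ m : ℕ) ∣ a ∨ True)
    (h : (((∏ j, q j) * G κ m : ℕ) : ℤ) ∣ (b : ℤ) - (a : ℤ)) (hb : BadN k q κ m a) :
    BadN k q κ m b := by
  rcases hb with ⟨p, hp, hd⟩ | ⟨i, hi, e, he, hd⟩
  · left
    refine ⟨p, hp, ?_⟩
    obtain ⟨j, -, rfl⟩ := Finset.mem_image.1 hp
    have h1 : ((q j : ℕ) : ℤ) ∣ (((∏ j, q j) * G κ m : ℕ) : ℤ) := by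
      refine Int.natCast_dvd_natCast.2 ?_
      exact Dvd.dvd.mul_right (Finset.dvd_prod_of_mem q (Finset.mem_univ j)) _
    have h2 := (h1.trans h).add hd
    rwa [sub_add_cancel] at h2
  · right
    refine ⟨i, hi, e, he, ?_⟩
    have h1 : ((G κ (i + 1) : ℕ) : ℤ) ∣ (((∏ j, q j) * G κ m : ℕ) : ℤ) := by
      refine Int.natCast_dvd_natCast.2 ?_
      exact Dvd.dvd.mul_left (Grid_899.G_dvd (by omega)) _
    have h2 := (h1.trans h).add hd
    have e1 : (b : ℤ) - a + ((a : ℤ) - (Am (∏ j, q j) κ (i + 1) : ℤ) + e) =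
      (b : ℤ) - (Am (∏ j, q j) κ (i + 1) : ℤ) + e := by ring
    rwa [e1] at h2

theorem sp_of {K N1 X : ℕ} (hX : 2 * N1 < X) {k k' l l' : ℕ} (hk : k' ≠ k) (hl : l' ≠ l)
    (h1 : X * 2 ^ k + X * 2 ^ l' < X * 2 ^ l + X * 2 ^ k' + 2 * N1)
    (h2 : X * 2 ^ l + X * 2 ^ k' < X * 2 ^ k + X * 2 ^ l' + 2 * N1) : k = l := by
  have h1' : (X : ℤ) * 2 ^ k + X * 2 ^ l' < X * 2 ^ l + X * 2 ^ k' + 2 * N1 := by
    exact_mod_cast h1
  have h2' : (X : ℤ) * 2 ^ l + X * 2 ^ k' < X * 2 ^ k + X * 2 ^ l' + 2 * N1 := by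
    exact_mod_cast h2
  have hX' : 2 * (N1 : ℤ) < X := by exact_mod_cast hX
  set D : ℤ := (2 ^ k - 2 ^ k') - (2 ^ l - 2 ^ l') with hD
  have h3 : (X : ℤ) * D < X := by rw [hD]; linarith
  have h4 : -(X : ℤ) < (X : ℤ) * D := by rw [hD]; linarith
  have hXp : (0 : ℤ) < X := by linarith [Int.natCast_nonneg N1]
  have hD1 : D < 1 := by
    by_contra hc
    push Not at hc
    nlinarith
  have hD2 : -1 < D := by
    by_contra hc
    push Not at hc
    nlinarith
  have hD0 : D = 0 := by omega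
  have h5 : (2 : ℤ) ^ k - 2 ^ k' = 2 ^ l - 2 ^ l' := by rw [hD] at hD0; linarith
  exact (G369.pow_diff (Ne.symm hk) (Ne.symm hl) h5).1

theorem thin_of {k : ℕ} {q : Fin k → ℕ} {κ m K X C0 p0 : ℕ}
    (hC0 : k + m ≤ C0)
    (H : ∀ T : ℤ, ∀ F : Finset (ℕ × ℕ), (∀ p ∈ F, p.1 < K ∧ p.2 < K ∧ p.1 ≠ p.2 ∧
      Thin963.BadT (Finset.univ.image q) m (fun i => (G κ i : ℤ))
        (fun i => ((∏ j, q j : ℕ) : ℤ) * (G κ i : ℤ)) (fun i => (Am (∏ j, q j) κ i : ℤ))
        (T + X * 2 ^ p.1 - X * 2 ^ p.2)) → F.card ≤ k + m)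
    {τ : ℕ} (hτ : 2 * p0 ≤ τ) (hp : ∀ i < K, X * 2 ^ i ≤ p0)
    {J : Finset ℕ} (hJ : ∀ i ∈ J, i < K ∧ ∃ i', i' < K ∧ i' ≠ i ∧
      BadN k q κ m (τ + X * 2 ^ i' - X * 2 ^ i - p0)) : J.card ≤ C0 := by
  classical
  choose! w hw using fun i (hi : i ∈ J) => (hJ i hi).2
  have h1 := H ((τ : ℤ) - p0) (J.image fun i => (w i, i)) (by
    intro p hp'
    obtain ⟨i, hi, rfl⟩ := Finset.mem_image.1 hp'
    obtain ⟨h2, h3, h4⟩ := hw i hi
    have h5 := (hJ i hi).1
    refine ⟨h2, h5, h3, ?_⟩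
    have h6 := hp i h5
    unfold BadN at h4
    have e : ((τ + X * 2 ^ w i - X * 2 ^ i - p0 : ℕ) : ℤ) =
        (τ : ℤ) - p0 + X * 2 ^ w i - X * 2 ^ i := by
      rw [Nat.cast_sub (by omega), Nat.cast_sub (by omega)]
      push_cast
      ring
    rw [e] at h4
    exact h4)
  rw [Finset.card_image_of_injective] at h1
  · omega
  · intro a b h
    exact (Prod.ext_iff.1 h).2

theorem fin (α : Type) [Finite α] (S : Type) [Monoid S] [Finite S] (φ : α → S) (s : S) :
    HL 3 ({w | (w.map φ).prod = s} : Language α) := by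
  classical
  haveI : Fintype S := Fintype.ofFinite S
  obtain ⟨act, hadd, hone, hmul, hfaith⟩ := Blk467.exists_module S
  obtain ⟨k, m, Hg⟩ := Grid_899.grid_gadget_reg S (S → ZMod 2) act
  obtain ⟨K, HE⟩ := ExactR_237.exact_gadget α S (S → ZMod 2) φ act (2 * (k + m) + 2)
  obtain ⟨q, hq, hqi⟩ := exists_primes k (2 ^ (K + 1) + 3)
  have hq2 : ∀ j, q j ≠ 2 := by
    intro j hj
    have h1 := (hq j).2
    have h2 : 0 < 2 ^ (K + 1) := Nat.pow_pos (by norm_num)
    rw [hj] at h1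
    omega
  have hodd : ∀ j, Odd (q j) := fun j => (hq j).1.odd_of_ne_two (hq2 j)
  have hcop : Pairwise (fun i j => Nat.Coprime (q i) (q j)) := fun i j hij =>
    (Nat.coprime_primes (hq i).1 (hq j).1).2 (fun h => hij (hqi h))
  set Ms := ∏ j, q j with hMs
  have hMs0 : 0 < Ms := Finset.prod_pos fun j _ => (hq j).1.pos
  set κ := 2 ^ (K + 4) * (Ms * m) with hκ
  obtain ⟨lam, rho, nu, hlam, hrho, hsound, hcomp, hreg⟩ := Hg q hodd hcop κ α
    (fun w => (w.map φ).prod) (fun u v => by simp)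
  rw [← hMs] at hlam hrho hcomp hreg
  set N1 := Am Ms κ (m + 1) with hN1
  have hN1pos : 0 < N1 := by
    rw [hN1]
    show 0 < Am Ms κ m + G κ m + Ms * G κ m
    have := Grid_899.G_pos (κ := κ) m
    omega
  have hlamN : ∀ P v, lam P = some v → P.length ≤ N1 := fun P v h =>
    ((hlam P v h).1.le).trans (Grid_899.Am_succ_ge m)
  -- the ruler
  obtain ⟨Xz, hXN, hXpos, hthin⟩ := Thin963.thin K m (Finset.univ.image q)
    (fun i => (G κ i : ℤ)) (fun i => ((∏ j, q j : ℕ) : ℤ) * (G κ i : ℤ))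
    (fun i => (Am (∏ j, q j) κ i : ℤ))
    (by
      intro p hp
      obtain ⟨j, -, rfl⟩ := Finset.mem_image.1 hp
      exact ⟨(hq j).1, by have := (hq j).2; omega⟩)
    (by
      intro p hp
      obtain ⟨j, -, rfl⟩ := Finset.mem_image.1 hp
      refine Nat.isCoprime_iff_coprime.2 ?_
      unfold G
      refine Nat.Coprime.pow_right _ ?_
      exact (Nat.coprime_primes (hq j).1 Nat.prime_two).2 (hq2 j))
    (by
      have := Grid_899.G_pos (κ := κ) m
      show (0 : ℤ) < (G κ m : ℤ)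
      exact_mod_cast this)
    (fun i j hij => Int.natCast_dvd_natCast.2 (Grid_899.G_dvd hij))
    (by
      intro i
      have h1 := Grid_899.G_pos (κ := κ) i
      have h2 : 0 < (∏ j, q j) * G κ i := Nat.mul_pos (by rw [← hMs]; exact hMs0) h1
      show (0 : ℤ) < ((∏ j, q j : ℕ) : ℤ) * (G κ i : ℤ)
      exact_mod_cast h2)
    (fun i => Dvd.intro_left _ rfl)
    (by
      intro i hi
      have h1 := grow K Ms m i hi
      rw [← hκ] at h1
      rw [← hMs]
      exact_mod_cast h1)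
    (2 * (N1 : ℤ) + 1)
  obtain ⟨X, rfl⟩ := Int.eq_ofNat_of_zero_le hXpos.le
  have hXN' : 2 * N1 < X := by
    have : 2 * (N1 : ℤ) + 1 ≤ (X : ℤ) := hXN
    omega
  set c : ℕ → ℕ := fun j => X * 2 ^ j with hc
  set p0 := X * 2 ^ K with hp0
  have hcmono : ∀ i j, i < j → c i < c j := fun i j hij =>
    Nat.mul_lt_mul_of_pos_left (Nat.pow_lt_pow_right (by norm_num) hij) (by omega)
  have hcp : ∀ i < K, c i ≤ p0 := fun i hi => (hcmono i K hi).le
  obtain ⟨lam2, rho2, nu2, hex2, hcomp2⟩ := HE c (fun i j hij _ => hcmono i j hij)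
  -- the walls
  obtain ⟨n, Gw, Bw, Wo, hLW, hgap, -, -, hfree⟩ :=
    LWallAll_922.walls_all_left α (2 * p0 + 2 * N1 + 1) (by omega)
  set q0 := n + 2 * p0 + 2 * N1 with hq0
  let g : Geo α :=
    { Wo := Wo, n := n, z := p0 + N1 + q0, p0 := p0, q0 := q0, N1 := N1
      loc := hLW.app, hz := rfl, hq := by omega, hN := hN1pos, hqp := by omega }
  set B := (p0 + N1 + q0) + 2 * N1 with hB
  refine asm act hadd hone hmul hfaith φ g hLW.len (max Bw (2 * p0 + 2 * N1 + 1)) 2 ?_ ?_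
    lam rho (nuF lam rho nu) (BadN k q κ m) hlamN ?_ ?_ K (k + m) c hcp
    lam2 (fun i Q => rho2 i Q 1) (fun u => nu2 u 1) ?_ ?_ ?_ ?_ B (Ms * G κ m)
    (Nat.mul_pos hMs0 (Grid_899.G_pos m)) ?_ ?_ ?_ s
  · -- free
    intro u hu
    obtain ⟨u1, x, v1, j, h1, h2, h3, rfl⟩ := hfree u hu
    refine Language.mem_mul.2 ⟨u1 ++ (List.replicate j x).flatten,
      ⟨u1, x, j, le_max_of_le_left h1, le_max_of_le_right h2, rfl⟩, v1, ?_, rfl⟩
    refine Language.mem_mul.2 ⟨v1, ⟨v1, [], 0, le_max_of_le_left h3, by simp, ?_⟩, [], rfl,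
      by simp⟩
    simp [BddReg_746.pw]
  · -- gap
    intro P Q hP hPQ hQ
    have hl : 0 < Q.length := List.length_pos_iff.2 hQ
    have h1 := hgap (P ++ Q) P.length (P ++ Q).length (by rw [List.length_append]; omega) le_rfl
      (by rw [List.take_left]; exact hP) (by rw [List.take_length]; exact hPQ)
    rw [List.length_append] at h1
    show 2 * p0 + 2 * N1 < Q.length
    omega
  · -- soundness of gadget 1
    intro P Q v b h1 h2
    rw [nuF_eq h1 h2]
    exact hsound P Q v b h1 h2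
  · -- completeness of gadget 1
    intro Y hY hbad v
    have hY' : q0 + N1 ≤ Y.length := hY
    have h0 : Am Ms κ m ≤ N1 := Grid_899.Am_succ_ge m
    obtain ⟨h1, h2⟩ := comp_of_not_bad (by rw [← hMs]; omega) hbad
    rw [← hMs] at h2
    exact hcomp Y (by omega) h1 h2 v
  · -- soundness of gadget 2
    intro i hi P Q v u h1 h2 h3
    have := hex2 i hi P Q 1 v u h1 h2 h3
    rw [mul_one] at this
    exact this
  · -- completeness of gadget 2
    intro u v hu
    have hu' : u.length = p0 := hu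
    obtain ⟨I, h1, h2⟩ := hcomp2 u 1 v (fun i hi => by rw [hu']; exact hcp i hi)
    exact ⟨I, h1, h2⟩
  · -- spacing
    intro i i' l l' _ _ _ _ h1 h2 h3 h4
    exact sp_of (K := K) hXN' h1 h2 h3 h4
  · -- thin
    intro τ hτ J hJ
    have hτ' : p0 + N1 + q0 ≤ τ + p0 := hτ
    refine thin_of (q := q) (κ := κ) (K := K) (X := X) (p0 := p0) le_rfl ?_ (by omega) hcp hJ
    intro T F hF
    refine le_trans (Finset.card_le_card (t := ((Finset.range K) ×ˢ (Finset.range K)).filter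
      (fun p => p.1 ≠ p.2 ∧ Thin963.BadT (Finset.univ.image q) m (fun i => (G κ i : ℤ))
        (fun i => ((∏ j, q j : ℕ) : ℤ) * (G κ i : ℤ)) (fun i => (Am (∏ j, q j) κ i : ℤ))
        (T + X * 2 ^ p.1 - X * 2 ^ p.2))) ?_) ((hthin T).trans ?_)
    · intro p hp
      obtain ⟨h1, h2, h3, h4⟩ := hF p hp
      simp only [Finset.mem_filter, Finset.mem_product, Finset.mem_range]
      exact ⟨⟨h1, h2⟩, h3, h4⟩
    · have := Finset.card_image_le (s := (Finset.univ : Finset (Fin k))) (f := q)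
      rw [Finset.card_univ, Fintype.card_fin] at this
      omega
  · -- B
    show p0 + N1 + q0 + N1 ≤ B
    omega
  · -- nu
    intro Y Y' h1 h2 h3 h4 h5
    have hp : g.p0 = p0 := rfl
    rw [hp]
    refine nuF_cls (act := act) (φ := φ) N1 (Ms * G κ m) hlamN hrho
      (fun P Q v b h6 h7 => hsound P Q v b h6 h7) (fun Q Q' a1 a2 a3 a4 a5 =>
        hreg Q Q' a1 a2 a3 a4 a5) ?_ ?_ ?_ ?_ ?_
    · rw [List.length_drop]; omega
    · rw [List.length_drop]; omega
    · exact take_drop_eq h3 (by omega)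
    · rw [List.length_drop, List.length_drop]
      have e1 : Y.length = p0 + (Y.length - p0) := by omega
      have e2 : Y'.length = p0 + (Y'.length - p0) := by omega
      have h4' : Y.length ≡ Y'.length [MOD (Ms * G κ m)] := h4
      rw [e1, e2] at h4'
      exact Nat.ModEq.add_left_cancel' _ h4'
    · rw [List.drop_drop, List.drop_drop]
      exact pr_drop_eq φ h3 (by omega) h1 h2 h5
  · -- bad totals are periodic
    intro a b h1 h2 h3 h4
    have hp : g.p0 = p0 := rfl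
    rw [hp] at h4 ⊢
    refine bad_mod (Or.inr trivial) ?_ h4
    rw [← hMs]
    have h5 : a ≡ b [MOD (Ms * G κ m)] := h3
    have h6 := (Nat.modEq_iff_dvd.1 h5)
    rw [Nat.cast_sub (by omega), Nat.cast_sub (by omega)]
    have e : ((b : ℤ) - p0) - ((a : ℤ) - p0) = (b : ℤ) - a := by ring
    rw [e]
    exact h6

end Crest.Agent.R320.Fin_50
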