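import Crest.Agent.R320.GridI_646

/-!
Row 320, helper943: the grid gadget of 693 / 646 with the regularity clause for the noise
(`nu` depends on a bounded prefix, the product and the length modulo a constant).
-/

set_option autoImplicit false
set_option linter.unusedSectionVars false
set_option linter.unusedVariables false

namespace Crest.Agent.R320.GridReg_943

open Finset
open Crest.Agent.R320.Gad1_420 (seg seg_left seg_right seg_split drop_app_right)
open Crest.Agent.R320.Grid_646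
open Crest.Agent.R320.GridI_646

section
variable {α S V W : Type*} [Monoid S] [AddCommGroup V] [AddCommGroup W] {D : Grid S V W}

theorem bt_congr (hD : Geo D) {T T' j : ℕ} (h : D.Am j ≤ T) (h' : D.Am j ≤ T')
    (hm : T ≡ T' [MOD D.G j]) : D.bt T j = D.bt T' j := by
  have key : ∀ T, D.Am j ≤ T → D.bt T j = D.Am j + (T - D.Am j) % D.G j := by
    intro T hT
    unfold Grid.bt
    have h1 := Nat.mod_add_div (T - D.Am j) (D.G j)
    omega
  have h2 : (T - D.Am j) ≡ (T' - D.Am j) [MOD D.G j] := by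
    have e1 : D.Am j + (T - D.Am j) ≡ D.Am j + (T' - D.Am j) [MOD D.G j] := by
      rw [Nat.add_sub_cancel' h, Nat.add_sub_cancel' h']
      exact hm
    exact Nat.ModEq.add_left_cancel' _ e1
  rw [key T h, key T' h', h2]

theorem seg_congr {u u' : List α} {a b c : ℕ} (hb : b ≤ c) (h : u.take c = u'.take c) :
    seg u a b = seg u' a b := by
  have key : ∀ w : List α, seg w a b = seg (w.take c) a b := by
    intro w
    unfold seg
    rw [List.drop_take, List.take_take]
    congr 1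
    omega
  rw [key u, key u', h]

/-- the name system, the values of the mixed pairs periodic -/
theorem n3_per {good : ℕ → Prop} (hN : Names D good) (hM : 0 < D.M)
    (hgood : ∀ T, good (T + D.M) ↔ good T) (R : ℕ) :
    ∃ v0 r0 : V, ∀ T, T % D.M = R → ¬ good T → ∀ o o' c c', o + o' = T → D.LN o c →
      D.RN o' c' →
      c.2.2.2.2.2 = v0 ∧ D.bb c'.1 c'.2.1 c'.2.2.1 c'.2.2.2.1 c'.2.2.2.2.1 c'.2.2.2.2.2 = r0 := by
  by_cases hg : good (R + D.M)
  · refine ⟨0, 0, fun T hT hnT => ?_⟩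
    exfalso
    apply hnT
    refine (per_iff (p := good) hgood ?_).1 hg
    unfold Nat.ModEq
    rw [Nat.add_mod_right, ← hT, Nat.mod_mod]
  · obtain ⟨v0, r0, h0⟩ := hN.n3 _ hg
    refine ⟨v0, r0, fun T hT hnT o o' c c' ho hL hR => ?_⟩
    have hlt := Nat.mod_lt o hM
    refine h0 (o % D.M) (R + D.M - o % D.M) c c' (by omega) ?_ ?_
    · exact (per_iff (p := fun t => D.LN t c) (fun t => hN.perL t c) (Nat.mod_modEq o D.M)).2 hL
    · refine (per_iff (p := fun t => D.RN t c') (fun t => hN.perR t c') ?_).2 hR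
      have e1 : o % D.M + (R + D.M - o % D.M) ≡ o + o' [MOD D.M] := by
        rw [Nat.add_sub_cancel' (by omega), ho]
        unfold Nat.ModEq
        rw [Nat.add_mod_right, ← hT, Nat.mod_mod]
      exact Nat.ModEq.add_left_cancel (Nat.mod_modEq o D.M) e1

theorem gadgetR (D : Grid S V W) (good : ℕ → Prop) (hD : Geo D) (hN : Names D good)
    (hgood : ∀ T, good (T + D.M) ↔ good T)
    (hF : ∀ s w v, ∃ i < D.m, ∀ g x h, g * x * h = s → ∀ z,
      D.F (g * z * h) (w - D.e i x + D.e i z) + D.act v (g * z * h) = D.F s w + D.act v s)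
    (φ : List α → S) (hφ : ∀ u v, φ (u ++ v) = φ u * φ v) :
    ∃ nu : List α → V,
      (∀ P Q v r, D.Lf φ P = some v → D.Rf φ Q = some r →
        r = D.act v (φ (P ++ Q)) + nu (P ++ Q)) ∧
      (∀ P v, D.Lf φ P = some v → P.length < D.Am D.m) ∧
      (∀ Q r, D.Rf φ Q = some r → D.Am D.m ≤ Q.length) ∧
      (∀ Y : List α, good Y.length → 2 * D.Am D.m ≤ Y.length →
        (∀ k, k < D.m → D.M * D.G k ≤ (Y.length - D.Am (k + 1)) % D.G (k + 1) ∧
          (Y.length - D.Am (k + 1)) % D.G (k + 1) + D.M * D.G k ≤ D.G (k + 1)) →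
        ∀ v, ∃ P Q, P ++ Q = Y ∧ D.Lf φ P = some v ∧ (D.Rf φ Q).isSome) ∧
      (∀ u u' : List α, D.Am D.m + D.G D.m ≤ u.length → D.Am D.m + D.G D.m ≤ u'.length →
        u.take (D.Am D.m + D.G D.m) = u'.take (D.Am D.m + D.G D.m) → φ u = φ u' →
        u.length ≡ u'.length [MOD D.M * D.G D.m] → nu u = nu u') := by
  classical
  have hn3 := n3_per hN hD.Mpos hgood
  choose v0 r0 h0 using hn3
  obtain ⟨-, -, h1, h2, h3⟩ := gadget0 D good hD hN hF φ hφ
  refine ⟨fun Y => if good Y.length then D.F (φ Y) (D.ww φ Y) else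
    r0 (Y.length % D.M) - D.act (v0 (Y.length % D.M)) (φ Y), ?_, h1, h2, h3, ?_⟩
  · intro P Q v r hP hQ
    obtain ⟨i, g, wl, h, wr, hL⟩ := Lf_some hP
    obtain ⟨i', g', wl', h', wr', v', hR, hr⟩ := Rf_some hQ
    have hcl : P.length + Q.length = (P ++ Q).length := List.length_append.symm
    beta_reduce
    by_cases hg : good (P ++ Q).length
    · rw [if_pos hg]
      have hcc := hN.n1 _ hg _ _ _ _ hcl hL.2.2.2.1 hR.2.2.2.1
      simp only [Prod.mk.injEq] at hcc
      obtain ⟨rfl, rfl, rfl, rfl, rfl, rfl⟩ := hcc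
      obtain ⟨hok, ha1, ha2, -, hg1, hwl1⟩ := hL
      obtain ⟨-, hdv, hge, -, hvis, hh1, hwr1⟩ := hR
      obtain ⟨e1, e2, e3, e4, e5, e6⟩ := read hD hφ i.2 ha1 ha2 hdv hge hvis
      have := hok (D.zz φ (P ++ Q) i)
      rw [e5, e6, e1, e2, e3, e4, ← hg1, ← hh1, ← hwl1, ← hwr1, hr, ← this, add_comm]
    · rw [if_neg hg]
      obtain ⟨q1, q2⟩ := h0 _ _ rfl hg _ _ _ _ hcl hL.2.2.2.1 hR.2.2.2.1
      simp only at q1 q2
      rw [hr, q2, ← q1]
      abel
  · intro u u' hu hu' ht hp hm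
    have hmM : u.length ≡ u'.length [MOD D.M] := hm.of_mul_right _
    have hgg : good u.length ↔ good u'.length := per_iff (p := good) hgood hmM
    have hmG : u.length ≡ u'.length [MOD D.G D.m] := hm.of_mul_left _
    have hbt : ∀ j, j ≤ D.m → D.bt u.length j = D.bt u'.length j := by
      intro j hj
      have h4 := hD.mono hj
      exact bt_congr hD (by omega) (by omega) (hmG.of_dvd (hD.dvd hj))
    have hww : D.ww φ u = D.ww φ u' := by
      unfold Grid.ww
      refine Finset.sum_congr rfl fun k hk => ?_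
      have hk' := Finset.mem_range.1 hk
      unfold Grid.zz
      have h5 := hD.mono (show k + 1 ≤ D.m from hk')
      have h6 := hD.Gle (show k + 1 ≤ D.m from hk')
      have h7 := bt_lt hD (T := u'.length) (j := k + 1) (by omega)
      rw [hbt k hk'.le, hbt (k + 1) hk', seg_congr (c := D.Am D.m + D.G D.m) (by omega) ht]
    beta_reduce
    by_cases hg : good u.length
    · rw [if_pos hg, if_pos (hgg.1 hg), hww, hp]
    · rw [if_neg hg, if_neg (fun h => hg (hgg.2 h)), hmM, hp]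

end

/-- **The grid gadget, closed form, with the regularity clause.** -/
theorem gadget {S V : Type*} [Monoid S] [Finite S] [AddCommGroup V] [Finite V]
    (act : V → S → V) :
    ∃ m r : ℕ, 0 < m ∧ ∀ B : ℕ, ∃ (Ms : Finset ℕ) (M : ℕ), Ms.card ≤ r ∧
      (∀ k ∈ Ms, k.Prime ∧ B < k) ∧ M = ∏ k ∈ Ms, k ∧
      ∀ (G Am : ℕ → ℕ), (∀ j, 0 < G j) → (∀ j, G j ∣ G (j + 1)) → (∀ j, Nat.Coprime (G j) M) →
        (∀ j, Am j + G j + M * G j ≤ Am (j + 1)) →
        ∀ {α : Type*} (φ : List α → S), (∀ u v, φ (u ++ v) = φ u * φ v) →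
          ∃ (lam rho : List α → Option V) (nu : List α → V),
            (∀ P Q v r, lam P = some v → rho Q = some r → r = act v (φ (P ++ Q)) + nu (P ++ Q)) ∧
            (∀ P v, lam P = some v → P.length < Am m) ∧
            (∀ Q r, rho Q = some r → Am m ≤ Q.length) ∧
            (∀ Y : List α, (∀ k ∈ Ms, ¬ k ∣ Y.length) → 2 * Am m ≤ Y.length →
              (∀ k, k < m → M * G k ≤ (Y.length - Am (k + 1)) % G (k + 1) ∧
                (Y.length - Am (k + 1)) % G (k + 1) + M * G k ≤ G (k + 1)) →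
              ∀ v, ∃ P Q, P ++ Q = Y ∧ lam P = some v ∧ (rho Q).isSome) ∧
            (∀ u u' : List α, Am m + G m ≤ u.length → Am m + G m ≤ u'.length →
              u.take (Am m + G m) = u'.take (Am m + G m) → φ u = φ u' →
              u.length ≡ u'.length [MOD M * G m] → nu u = nu u') := by
  classical
  have := Fintype.ofFinite S
  have := Fintype.ofFinite V
  obtain ⟨m, N, e, F, hN, hF⟩ := RandF808.exists_noise S V act
  have hm : 0 < m := by
    obtain ⟨i, hi, -⟩ := hF 1 0 0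
    omega
  have : NeZero N := ⟨by omega⟩
  obtain ⟨r, hr⟩ := Names_570.exists_names
    (N := Fin m × S × (ZMod N × ZMod N) × S × (ZMod N × ZMod N) × V) (C := V × V)
    (colour act e F)
  refine ⟨m, r, hm, fun B => ?_⟩
  obtain ⟨Ms, nmL, nmR, h1, h2, h3, h4, h5, h6, h7⟩ := hr B
  refine ⟨Ms, ∏ k ∈ Ms, k, h1, h2, rfl, ?_⟩
  intro G Am hG1 hG2 hG3 hG4 α φ hφ
  let D : Grid S V (ZMod N × ZMod N) :=
    ⟨act, m, e, F, G, Am, ∏ k ∈ Ms, k, fun o c => nmL o = some c, fun o c => nmR o = some c⟩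
  have hD : Geo D := ⟨hG1, hG2, hG3, Finset.prod_pos fun k hk => (h2 k hk).1.pos, hG4⟩
  have hNm : Names D (fun T => ∀ k ∈ Ms, ¬ k ∣ T) := by
    refine ⟨?_, ?_, ?_, ?_, ?_⟩
    · intro t c
      show nmL (t + ∏ k ∈ Ms, k) = some c ↔ nmL t = some c
      rw [h3]
    · intro t c
      show nmR (t + ∏ k ∈ Ms, k) = some c ↔ nmR t = some c
      rw [h4]
    · intro T hT o o' c c' ho hL hR
      exact h5 o o' c c' (by rw [ho]; exact hT) hL hR
    · intro T hT c s hs
      obtain ⟨t, t1, t2, t3, t4, t5⟩ := h6 T c s hT (by exact hs.trans (Nat.le_succ _))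
      exact ⟨t, t1, t2, t4, t5⟩
    · intro T hT
      have hT' : ∃ k ∈ Ms, k ∣ T := by
        by_contra hcon
        exact hT fun k hk hd => hcon ⟨k, hk, hd⟩
      by_cases hex : ∃ o o' c c', o + o' = T ∧ nmL o = some c ∧ nmR o' = some c'
      · obtain ⟨o, o', c, c', ho, hL, hR⟩ := hex
        refine ⟨(colour act e F c).1, (colour act e F c').2, ?_⟩
        intro o2 o2' c2 c2' ho2 hL2 hR2
        rcases h7 o o' o2 o2' c c' c2 c2' (by rw [ho, ho2]) (by rw [ho]; exact hT') hL hR hL2 hR2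
          with ⟨q1, q2⟩ | ⟨q1, q2, q3⟩
        · subst q1 q2
          exact ⟨rfl, rfl⟩
        · subst q1 q2
          have e1 := congrArg Prod.fst q3
          have e2 := congrArg Prod.snd q3
          exact ⟨e1.symm, e2⟩
      · refine ⟨0, 0, ?_⟩
        intro o o' c c' ho hL hR
        exact absurd ⟨o, o', c, c', ho, hL, hR⟩ hex
  have hgood : ∀ T, (∀ k ∈ Ms, ¬ k ∣ T + D.M) ↔ (∀ k ∈ Ms, ¬ k ∣ T) := by
    intro T
    refine forall₂_congr fun k hk => not_congr ?_
    exact (Nat.dvd_add_left (Finset.dvd_prod_of_mem _ hk))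
  obtain ⟨nu, k1, k2, k3, k4, k5⟩ :=
    gadgetR D (fun T => ∀ k ∈ Ms, ¬ k ∣ T) hD hNm hgood hF φ hφ
  exact ⟨D.Lf φ, D.Rf φ, nu, k1, k2, k3, k4, k5⟩

end Crest.Agent.R320.GridReg_943
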