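import Mathlib

/-!
# Row 320, SPOIL leaf (helper493): the wide ruler for the digit gadget g1 (852 #13483, lead #13673)

`Bad` = bad totals of the digit gadget.  `spoil`: for `K` given, primes `> 2^(K+2)`,
`b > 2^(K+6) * M`, there is a ruler `c` as wide as wanted (`N1` arbitrary), Golomb at resolution
`4 * N1`, such that for every total `T` at most `Ms.card + m` ordered pairs `(i, j)` have
`T + c j - c i` bad.
-/

set_option autoImplicit false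

namespace Crest.Agent.R320.Sp_493

/-- bad totals of the digit gadget -/
def Bad (Ms : Finset ℕ) (M b m : ℕ) (n : ℕ) : Prop :=
  (∃ k ∈ Ms, k ∣ n) ∨ ∃ j < m, ¬ (M ≤ n / b ^ j % b ∧ n / b ^ j % b + M + 1 ≤ b)

theorem sidon_aux {i l k j : ℕ} (h1 : i ≤ l) (h2 : k ≤ j)
    (h : 2 ^ i + 2 ^ l = 2 ^ k + 2 ^ j) : i = k ∧ l = j := by
  have a1 : 2 ^ i ≤ 2 ^ l := Nat.pow_le_pow_right (by norm_num) h1
  have a2 : 2 ^ k ≤ 2 ^ j := Nat.pow_le_pow_right (by norm_num) h2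
  have p1 : 0 < 2 ^ i := by positivity
  have p2 : 0 < 2 ^ k := by positivity
  have hlj : l = j := by
    rcases lt_trichotomy l j with hl | hl | hl
    · have : 2 ^ (l + 1) ≤ 2 ^ j := Nat.pow_le_pow_right (by norm_num) hl
      rw [pow_succ] at this
      omega
    · exact hl
    · have : 2 ^ (j + 1) ≤ 2 ^ l := Nat.pow_le_pow_right (by norm_num) hl
      rw [pow_succ] at this
      omega
  subst hlj
  have : 2 ^ i = 2 ^ k := by omega
  exact ⟨Nat.pow_right_injective (le_refl 2) this, rfl⟩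

theorem sidon {i l k j : ℕ} (h : 2 ^ i + 2 ^ l = 2 ^ k + 2 ^ j) :
    (i = k ∧ l = j) ∨ (i = j ∧ l = k) := by
  rcases le_total i l with h1 | h1 <;> rcases le_total k j with h2 | h2
  · exact Or.inl (sidon_aux h1 h2 h)
  · have := sidon_aux (i := i) (l := l) (k := j) (j := k) h1 h2 (by omega)
    exact Or.inr this
  · have := sidon_aux (i := l) (l := i) (k := k) (j := j) h1 h2 (by omega)
    exact Or.inr ⟨this.2, this.1⟩
  · have := sidon_aux (i := l) (l := i) (k := j) (j := k) h1 h2 (by omega)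
    exact Or.inl ⟨this.2, this.1⟩

/-- geometric sum -/
def R (b n : ℕ) : ℕ := ∑ i ∈ Finset.range n, b ^ i

theorem R_succ (b n : ℕ) : R b (n + 1) = R b n + b ^ n := by
  simp [R, Finset.sum_range_succ]

theorem R_le {b : ℕ} (hb : 2 ≤ b) (n : ℕ) : R b n ≤ b ^ n := by
  induction n with
  | zero => simp [R]
  | succ n ih =>
    rw [R_succ, pow_succ]
    have h1 : b ^ n * 2 ≤ b ^ n * b := Nat.mul_le_mul_left _ hb
    omega

theorem R_split (b : ℕ) {j m : ℕ} (h : j ≤ m) : ∃ t, R b m = R b j + b ^ j * t := by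
  induction m, h using Nat.le_induction with
  | base => exact ⟨0, by simp⟩
  | succ m hm ih =>
    obtain ⟨t, ht⟩ := ih
    refine ⟨t + b ^ (m - j), ?_⟩
    rw [R_succ, ht, mul_add, ← pow_add, Nat.add_sub_cancel' hm]
    ring

/-- a bad digit means: close to a multiple of `b ^ (j + 1)` -/
theorem near {M b j n : ℕ} (hb : M < b)
    (h : ¬ (M ≤ n / b ^ j % b ∧ n / b ^ j % b + M + 1 ≤ b)) :
    ∃ q e : ℤ, (n : ℤ) = q * (b ^ j * b : ℕ) + e ∧ -((M * b ^ j : ℕ) : ℤ) ≤ e ∧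
      e < ((M * b ^ j : ℕ) : ℤ) := by
  have hb0 : 0 < b := by omega
  set D := b ^ j with hD
  have hDpos : 0 < D := by positivity
  set d := n / D % b with hd
  have hdb : d < b := Nat.mod_lt _ hb0
  have e1 : n = D * (n / D) + n % D := (Nat.div_add_mod n D).symm
  have e2 : n / D = b * (n / D / b) + d := (Nat.div_add_mod (n / D) b).symm
  have e3 : n % D < D := Nat.mod_lt _ hDpos
  set q0 := n / D / b with hq0
  have e4 : (n : ℤ) = (q0 : ℤ) * ((D * b : ℕ) : ℤ) + ((d * D + n % D : ℕ) : ℤ) := by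
    have : n = q0 * (D * b) + (d * D + n % D) := by
      calc n = D * (n / D) + n % D := e1
        _ = D * (b * q0 + d) + n % D := by rw [← e2]
        _ = _ := by ring
    exact_mod_cast this
  by_cases h1 : d < M
  · refine ⟨q0, ((d * D + n % D : ℕ) : ℤ), e4, ?_, ?_⟩
    · have : (0 : ℤ) ≤ ((M * D : ℕ) : ℤ) := by positivity
      have h2 : (0 : ℤ) ≤ ((d * D + n % D : ℕ) : ℤ) := by positivity
      linarith
    · have : d * D + n % D < M * D := by nlinarith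
      exact_mod_cast this
  · have h2 : b < d + M + 1 := by
      by_contra h3
      exact h ⟨by omega, by omega⟩
    refine ⟨q0 + 1, ((d * D + n % D : ℕ) : ℤ) - ((D * b : ℕ) : ℤ), ?_, ?_, ?_⟩
    · rw [e4]; ring
    · have h3 : D * b ≤ (d * D + n % D) + M * D := by
        have h5 : b ≤ d + M := by omega
        have h6 : D * b ≤ D * (d + M) := Nat.mul_le_mul_left D h5
        have h7 : D * (d + M) = d * D + M * D := by ring
        omega
      have h4 : ((D * b : ℕ) : ℤ) ≤ ((d * D + n % D : ℕ) : ℤ) + ((M * D : ℕ) : ℤ) := by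
        exact_mod_cast h3
      linarith
    · have h3 : d * D + n % D < D * b := by
        have : d + 1 ≤ b := by omega
        nlinarith
      have h4 : ((d * D + n % D : ℕ) : ℤ) < ((D * b : ℕ) : ℤ) := by exact_mod_cast h3
      have : (0 : ℤ) ≤ ((M * D : ℕ) : ℤ) := by positivity
      linarith

theorem two_lt {K i : ℕ} (h : i < K) : 2 ^ i * 2 ≤ 2 ^ K := by
  rw [← pow_succ]
  exact Nat.pow_le_pow_right (by norm_num) h

/-- difference of two differences -/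
theorem delta_bound {K i j k l : ℕ} (hi : i < K) (hj : j < K) (hk : k < K) (hl : l < K) :
    |((2 : ℤ) ^ j - 2 ^ i) - (2 ^ l - 2 ^ k)| ≤ 2 ^ K := by
  have h1 : ((2 : ℤ) ^ i * 2 ≤ 2 ^ K) := by exact_mod_cast two_lt hi
  have h2 : ((2 : ℤ) ^ j * 2 ≤ 2 ^ K) := by exact_mod_cast two_lt hj
  have h3 : ((2 : ℤ) ^ k * 2 ≤ 2 ^ K) := by exact_mod_cast two_lt hk
  have h4 : ((2 : ℤ) ^ l * 2 ≤ 2 ^ K) := by exact_mod_cast two_lt hl
  have p1 : (0 : ℤ) < 2 ^ i := by positivity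
  have p2 : (0 : ℤ) < 2 ^ j := by positivity
  have p3 : (0 : ℤ) < 2 ^ k := by positivity
  have p4 : (0 : ℤ) < 2 ^ l := by positivity
  rw [abs_le]
  constructor <;> linarith

theorem delta_zero {i j k l : ℕ} (hij : i ≠ j)
    (h : ((2 : ℤ) ^ j - 2 ^ i) - (2 ^ l - 2 ^ k) = 0) : i = k ∧ j = l := by
  have h1 : (2 : ℤ) ^ j + 2 ^ k = 2 ^ i + 2 ^ l := by linarith
  have h2 : 2 ^ j + 2 ^ k = 2 ^ i + 2 ^ l := by exact_mod_cast h1
  rcases sidon h2 with ⟨h3, h4⟩ | ⟨h3, h4⟩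
  · exact absurd h3.symm hij
  · exact ⟨h4.symm, h3⟩

/-- primes: at most one pair -/
theorem uniq_prime {K k K0 T i j i' j' : ℕ} (hk : 2 ^ K < k) (hK0 : (k : ℤ) ∣ (K0 : ℤ) - 1)
    (hi : i < K) (hj : j < K) (hi' : i' < K) (hj' : j' < K) (hij : i ≠ j)
    (hT : 2 ^ i * K0 ≤ T) (hT' : 2 ^ i' * K0 ≤ T)
    (h : k ∣ T + 2 ^ j * K0 - 2 ^ i * K0) (h' : k ∣ T + 2 ^ j' * K0 - 2 ^ i' * K0) :
    i = i' ∧ j = j' := by
  have e1 : ((T + 2 ^ j * K0 - 2 ^ i * K0 : ℕ) : ℤ) = T + 2 ^ j * K0 - 2 ^ i * K0 := by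
    rw [Nat.cast_sub (by omega)]; push_cast; ring
  have e2 : ((T + 2 ^ j' * K0 - 2 ^ i' * K0 : ℕ) : ℤ) = T + 2 ^ j' * K0 - 2 ^ i' * K0 := by
    rw [Nat.cast_sub (by omega)]; push_cast; ring
  have d1 : (k : ℤ) ∣ T + 2 ^ j * K0 - 2 ^ i * K0 := by rw [← e1]; exact_mod_cast h
  have d2 : (k : ℤ) ∣ T + 2 ^ j' * K0 - 2 ^ i' * K0 := by rw [← e2]; exact_mod_cast h'
  have d3 := dvd_sub d1 d2
  set δ : ℤ := ((2 : ℤ) ^ j - 2 ^ i) - (2 ^ j' - 2 ^ i') with hδ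
  have d4 : (k : ℤ) ∣ δ := by
    have h5 : δ = ((T : ℤ) + 2 ^ j * K0 - 2 ^ i * K0 - (T + 2 ^ j' * K0 - 2 ^ i' * K0))
        - δ * ((K0 : ℤ) - 1) := by rw [hδ]; ring
    rw [h5]
    exact dvd_sub d3 (Dvd.dvd.mul_left hK0 _)
  have hb := delta_bound hi hj hi' hj'
  have h0 : δ = 0 := by
    apply Int.eq_zero_of_abs_lt_dvd d4
    have : ((2 : ℤ) ^ K) < k := by exact_mod_cast hk
    exact lt_of_le_of_lt hb this
  exact delta_zero hij h0

theorem num {K : ℕ} {M D Q b δ e : ℤ} (hM : 0 < M) (hD : 0 < D) (hQ1 : D ≤ Q) (hQ2 : Q ≤ 2 * D)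
    (hb : 2 ^ (K + 4) * M < b) (h1 : 1 ≤ |δ|) (h2 : |δ| ≤ 2 ^ K) (he1 : -(2 * (M * D)) < e)
    (he2 : e < 2 * (M * D)) (hd : D * b ∣ δ * (4 * M * Q) - e) : False := by
  have he : |e| < 2 * (M * D) := abs_lt.2 ⟨he1, he2⟩
  have hMD : 0 < M * D := mul_pos hM hD
  have hMQ1 : M * D ≤ M * Q := mul_le_mul_of_nonneg_left hQ1 hM.le
  have hMQ2 : M * Q ≤ M * (2 * D) := mul_le_mul_of_nonneg_left hQ2 hM.le
  have hY : 0 ≤ 4 * M * Q := by
    have : 0 ≤ M * Q := by linarith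
    linarith
  have hA : |δ * (4 * M * Q)| = |δ| * (4 * M * Q) := by
    rw [abs_mul, abs_of_nonneg hY]
  have hlow : 4 * (M * D) ≤ |δ * (4 * M * Q)| := by
    rw [hA]
    have : 1 * (4 * M * Q) ≤ |δ| * (4 * M * Q) := mul_le_mul_of_nonneg_right h1 hY
    linarith
  have hup : |δ * (4 * M * Q)| ≤ 8 * (2 ^ K * (M * D)) := by
    rw [hA]
    have s1 : |δ| * (4 * M * Q) ≤ 2 ^ K * (4 * M * Q) := mul_le_mul_of_nonneg_right h2 hY
    have s2 : (2 : ℤ) ^ K * (4 * M * Q) ≤ 2 ^ K * (8 * (M * D)) :=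
      mul_le_mul_of_nonneg_left (by linarith) (by positivity)
    have s3 : (2 : ℤ) ^ K * (8 * (M * D)) = 8 * (2 ^ K * (M * D)) := by ring
    linarith
  have hne : δ * (4 * M * Q) - e ≠ 0 := by
    intro hz
    have hz' : δ * (4 * M * Q) = e := by linarith
    rw [hz'] at hlow
    linarith
  apply hne
  apply Int.eq_zero_of_abs_lt_dvd hd
  have h9 : |δ * (4 * M * Q) - e| ≤ |δ * (4 * M * Q)| + |e| := abs_sub _ _
  have h11 : (2 : ℤ) ^ (K + 4) * M * D < b * D := mul_lt_mul_of_pos_right hb hD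
  have h12 : (2 : ℤ) ^ (K + 4) * M * D = 16 * (2 ^ K * (M * D)) := by
    rw [pow_add]; ring
  have h13 : (1 : ℤ) ≤ 2 ^ K := one_le_pow₀ (by norm_num)
  have h14 : 1 * (M * D) ≤ 2 ^ K * (M * D) := mul_le_mul_of_nonneg_right h13 hMD.le
  have h15 : D * b = b * D := mul_comm _ _
  linarith

/-- digits: at most one pair -/
theorem uniq_digit {K M b m j0 K0 T i j i' j' : ℕ} (hM : 0 < M) (hb : 2 ^ (K + 4) * M < b)
    (hj0 : j0 < m) (hK0 : ((b : ℤ) ^ m) ∣ (K0 : ℤ) - 4 * M * R b m)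
    (hi : i < K) (hj : j < K) (hi' : i' < K) (hj' : j' < K) (hij : i ≠ j)
    (hT : 2 ^ i * K0 ≤ T) (hT' : 2 ^ i' * K0 ≤ T)
    (h : ¬ (M ≤ (T + 2 ^ j * K0 - 2 ^ i * K0) / b ^ j0 % b ∧
      (T + 2 ^ j * K0 - 2 ^ i * K0) / b ^ j0 % b + M + 1 ≤ b))
    (h' : ¬ (M ≤ (T + 2 ^ j' * K0 - 2 ^ i' * K0) / b ^ j0 % b ∧
      (T + 2 ^ j' * K0 - 2 ^ i' * K0) / b ^ j0 % b + M + 1 ≤ b)) :
    i = i' ∧ j = j' := by
  have hp : 0 < 2 ^ (K + 4) := by positivity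
  have hMb : M < b := by nlinarith
  have hb2 : 2 ≤ b := by omega
  obtain ⟨q1, e1, h1, h2, h3⟩ := near hMb h
  obtain ⟨q2, e2, h1', h2', h3'⟩ := near hMb h'
  have c1 : ((T + 2 ^ j * K0 - 2 ^ i * K0 : ℕ) : ℤ) = T + 2 ^ j * K0 - 2 ^ i * K0 := by
    rw [Nat.cast_sub (by omega)]; push_cast; ring
  have c2 : ((T + 2 ^ j' * K0 - 2 ^ i' * K0 : ℕ) : ℤ) = T + 2 ^ j' * K0 - 2 ^ i' * K0 := by
    rw [Nat.cast_sub (by omega)]; push_cast; ring
  rw [c1] at h1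
  rw [c2] at h1'
  set δ : ℤ := ((2 : ℤ) ^ j - 2 ^ i) - (2 ^ j' - 2 ^ i') with hδ
  have hbd := delta_bound hi hj hi' hj'
  rw [← hδ] at hbd
  obtain ⟨t, ht⟩ := R_split b (show j0 + 1 ≤ m from hj0)
  set D := b ^ j0 with hD
  have hDpos : 0 < D := by positivity
  have hRup : R b (j0 + 1) ≤ 2 * D := by
    rw [R_succ]
    have := R_le hb2 j0
    omega
  have hRlo : D ≤ R b (j0 + 1) := by
    rw [R_succ]; omega
  set Q := R b (j0 + 1) with hQ
  have hbpow : b ^ (j0 + 1) = D * b := by rw [pow_succ]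
  have hdvd : (((D * b : ℕ) : ℤ)) ∣ (K0 : ℤ) - 4 * M * Q := by
    have a1 : ((D * b : ℕ) : ℤ) ∣ (b : ℤ) ^ m := by
      have : D * b ∣ b ^ m := by rw [← hbpow]; exact pow_dvd_pow b hj0
      exact_mod_cast this
    have a2 : (K0 : ℤ) - 4 * M * Q = ((K0 : ℤ) - 4 * M * R b m) +
        ((D * b : ℕ) : ℤ) * (4 * M * t) := by
      rw [ht, hbpow]; push_cast; ring
    rw [a2]
    exact dvd_add (a1.trans hK0) (dvd_mul_right _ _)
  have hdvd2 : ((D * b : ℕ) : ℤ) ∣ δ * (4 * M * Q) - (e1 - e2) := by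
    have a3 : δ * (4 * M * Q) - (e1 - e2) = (q1 - q2) * ((D * b : ℕ) : ℤ) -
        δ * ((K0 : ℤ) - 4 * M * Q) := by
      have : δ * (K0 : ℤ) = (q1 - q2) * ((D * b : ℕ) : ℤ) + (e1 - e2) := by
        rw [hδ]; linear_combination h1 - h1'
      linear_combination this
    rw [a3]
    exact dvd_sub (Dvd.intro_left _ rfl) (Dvd.dvd.mul_left hdvd _)
  by_cases h0 : δ = 0
  · exact delta_zero hij h0
  exfalso
  have habs : 1 ≤ |δ| := Int.one_le_abs h0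
  refine num (K := K) (M := M) (D := D) (Q := Q) (b := b) (δ := δ) (e := e1 - e2) ?_ ?_ ?_ ?_ ?_
    habs hbd ?_ ?_ ?_
  · exact_mod_cast hM
  · exact_mod_cast hDpos
  · exact_mod_cast hRlo
  · exact_mod_cast hRup
  · exact_mod_cast hb
  · push_cast at h2 h3'; linarith
  · push_cast at h3 h2'; linarith
  · have h15 : ((D * b : ℕ) : ℤ) = D * b := by push_cast; ring
    rw [← h15]; exact hdvd2

/-- **SPOIL.** -/
theorem spoil (Ms : Finset ℕ) (M m K b : ℕ) (hM : 0 < M)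
    (hMs : ∀ k ∈ Ms, 2 ^ K < k ∧ k ∣ M) (hb : 2 ^ (K + 4) * M < b) (hcop : Nat.Coprime b M)
    (N1 : ℕ) :
    ∃ c : ℕ → ℕ, StrictMono c ∧ (∀ i j, i < j → c i + 4 * N1 < c j) ∧ (∀ i, 4 * N1 < c i) ∧
      (∀ i j k l, i ≠ j → k ≠ l → (i, j) ≠ (k, l) →
        c i + c l + 4 * N1 < c k + c j ∨ c k + c j + 4 * N1 < c i + c l) ∧
      ∀ T : ℕ, (∀ i < K, c i ≤ T) → ∀ F : Finset (ℕ × ℕ),
        (∀ p ∈ F, p.1 < K ∧ p.2 < K ∧ p.1 ≠ p.2 ∧ Bad Ms M b m (T + c p.2 - c p.1)) →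
        F.card ≤ Ms.card + m := by
  classical
  have hb0 : 0 < b := by omega
  obtain ⟨x, hx1, hx2⟩ := Nat.chineseRemainder
    (Nat.Coprime.pow_right m hcop.symm : Nat.Coprime M (b ^ m)) 1 (4 * M * R b m)
  set K0 := x + (M * b ^ m) * (4 * N1 + 1) with hK0
  have hMb : 0 < M * b ^ m := by positivity
  have hK0big : 4 * N1 < K0 := by
    rw [hK0]; nlinarith
  have hK0M : (M : ℤ) ∣ (K0 : ℤ) - 1 := by
    have h1 : (x : ℤ) ≡ 1 [ZMOD M] := by exact_mod_cast (Int.natCast_modEq_iff.2 hx1)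
    have h2 : (M : ℤ) ∣ (x : ℤ) - 1 := (Int.modEq_iff_dvd.1 h1.symm)
    have h3 : (K0 : ℤ) - 1 = ((x : ℤ) - 1) + M * (b ^ m * (4 * N1 + 1)) := by
      rw [hK0]; push_cast; ring
    rw [h3]
    exact dvd_add h2 (dvd_mul_right _ _)
  have hK0b : ((b : ℤ) ^ m) ∣ (K0 : ℤ) - 4 * M * R b m := by
    have h1 : (x : ℤ) ≡ ((4 * M * R b m : ℕ) : ℤ) [ZMOD (b ^ m : ℕ)] :=
      Int.natCast_modEq_iff.2 hx2
    have h2 : ((b ^ m : ℕ) : ℤ) ∣ (x : ℤ) - ((4 * M * R b m : ℕ) : ℤ) :=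
      (Int.modEq_iff_dvd.1 h1.symm)
    have h3 : (K0 : ℤ) - 4 * M * R b m = ((x : ℤ) - ((4 * M * R b m : ℕ) : ℤ)) +
        (b : ℤ) ^ m * (M * (4 * N1 + 1)) := by
      rw [hK0]; push_cast; ring
    rw [h3]
    push_cast at h2 ⊢
    exact dvd_add h2 (dvd_mul_right _ _)
  refine ⟨fun l => 2 ^ l * K0, ?_, ?_, ?_, ?_, ?_⟩
  · intro i j hij
    have : 2 ^ i < 2 ^ j := Nat.pow_lt_pow_right (by norm_num) hij
    show 2 ^ i * K0 < 2 ^ j * K0
    exact Nat.mul_lt_mul_of_pos_right this (by omega)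
  · intro i j hij
    have : 2 ^ i + 1 ≤ 2 ^ j := Nat.pow_lt_pow_right (by norm_num) hij
    have h2 : (2 ^ i + 1) * K0 ≤ 2 ^ j * K0 := Nat.mul_le_mul_right _ this
    show 2 ^ i * K0 + 4 * N1 < 2 ^ j * K0
    nlinarith
  · intro i
    have : 1 ≤ 2 ^ i := Nat.one_le_two_pow
    have h2 : 1 * K0 ≤ 2 ^ i * K0 := Nat.mul_le_mul_right _ this
    show 4 * N1 < 2 ^ i * K0
    omega
  · intro i j k l hij hkl hne
    show 2 ^ i * K0 + 2 ^ l * K0 + 4 * N1 < 2 ^ k * K0 + 2 ^ j * K0 ∨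
      2 ^ k * K0 + 2 ^ j * K0 + 4 * N1 < 2 ^ i * K0 + 2 ^ l * K0
    have hs : 2 ^ i + 2 ^ l ≠ 2 ^ k + 2 ^ j := by
      intro h
      rcases sidon h with ⟨h1, h2⟩ | ⟨h1, h2⟩
      · exact hne (by rw [h1, h2])
      · exact hij h1
    rcases lt_or_gt_of_ne hs with h | h
    · left
      have h2 : (2 ^ i + 2 ^ l + 1) * K0 ≤ (2 ^ k + 2 ^ j) * K0 := Nat.mul_le_mul_right _ h
      nlinarith
    · right
      have h2 : (2 ^ k + 2 ^ j + 1) * K0 ≤ (2 ^ i + 2 ^ l) * K0 := Nat.mul_le_mul_right _ h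
      nlinarith
  · intro T hT F hF
    have hT' : ∀ i < K, 2 ^ i * K0 ≤ T := hT
    let P : ℕ → Finset (ℕ × ℕ) := fun k =>
      F.filter (fun p => k ∣ T + 2 ^ p.2 * K0 - 2 ^ p.1 * K0)
    let G : ℕ → Finset (ℕ × ℕ) := fun j0 =>
      F.filter (fun p => ¬ (M ≤ (T + 2 ^ p.2 * K0 - 2 ^ p.1 * K0) / b ^ j0 % b ∧
        (T + 2 ^ p.2 * K0 - 2 ^ p.1 * K0) / b ^ j0 % b + M + 1 ≤ b))
    have hsub : F ⊆ (Ms.biUnion P) ∪ ((Finset.range m).biUnion G) := by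
      intro p hp
      obtain ⟨_, _, _, hbad⟩ := hF p hp
      rcases hbad with ⟨k, hk, hd⟩ | ⟨j0, hj0, hd⟩
      · exact Finset.mem_union_left _
          (Finset.mem_biUnion.2 ⟨k, hk, Finset.mem_filter.2 ⟨hp, hd⟩⟩)
      · exact Finset.mem_union_right _
          (Finset.mem_biUnion.2 ⟨j0, Finset.mem_range.2 hj0, Finset.mem_filter.2 ⟨hp, hd⟩⟩)
    have hP : ∀ k ∈ Ms, (P k).card ≤ 1 := by
      intro k hk
      rw [Finset.card_le_one]
      intro p hp q hq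
      obtain ⟨hp1, hp2⟩ := Finset.mem_filter.1 hp
      obtain ⟨hq1, hq2⟩ := Finset.mem_filter.1 hq
      obtain ⟨a1, a2, a3, _⟩ := hF p hp1
      obtain ⟨b1, b2, b3, _⟩ := hF q hq1
      have hkM : (k : ℤ) ∣ M := by exact_mod_cast (hMs k hk).2
      have := uniq_prime (hMs k hk).1 (hkM.trans hK0M) a1 a2 b1 b2 a3 (hT' _ a1) (hT' _ b1)
        hp2 hq2
      exact Prod.ext this.1 this.2
    have hG : ∀ j0 ∈ Finset.range m, (G j0).card ≤ 1 := by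
      intro j0 hj0
      rw [Finset.card_le_one]
      intro p hp q hq
      obtain ⟨hp1, hp2⟩ := Finset.mem_filter.1 hp
      obtain ⟨hq1, hq2⟩ := Finset.mem_filter.1 hq
      obtain ⟨a1, a2, a3, _⟩ := hF p hp1
      obtain ⟨b1, b2, b3, _⟩ := hF q hq1
      have := uniq_digit hM hb (Finset.mem_range.1 hj0) hK0b a1 a2 b1 b2 a3 (hT' _ a1)
        (hT' _ b1) hp2 hq2
      exact Prod.ext this.1 this.2
    calc F.card ≤ ((Ms.biUnion P) ∪ ((Finset.range m).biUnion G)).card :=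
          Finset.card_le_card hsub
      _ ≤ (Ms.biUnion P).card + ((Finset.range m).biUnion G).card := Finset.card_union_le _ _
      _ ≤ Ms.card * 1 + (Finset.range m).card * 1 :=
          Nat.add_le_add (Finset.card_biUnion_le_card_mul _ _ _ hP)
            (Finset.card_biUnion_le_card_mul _ _ _ hG)
      _ = Ms.card + m := by simp

/-- `Bad` is periodic -/
theorem Bad_add {Ms : Finset ℕ} {M b m : ℕ} (hb : 0 < b) (hMs : ∀ k ∈ Ms, k ∣ M) (n : ℕ) :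
    Bad Ms M b m (n + M * b ^ m) ↔ Bad Ms M b m n := by
  have h1 : ∀ k ∈ Ms, (k ∣ n + M * b ^ m ↔ k ∣ n) := fun k hk =>
    (Nat.dvd_add_left ((hMs k hk).mul_right _))
  have h2 : ∀ j < m, (n + M * b ^ m) / b ^ j % b = n / b ^ j % b := by
    intro j hj
    obtain ⟨t, rfl⟩ := Nat.exists_eq_add_of_lt hj
    have e : M * b ^ (j + t + 1) = b ^ j * (b * (M * b ^ t)) := by ring
    rw [e, Nat.add_mul_div_left _ _ (by positivity), Nat.add_mul_mod_self_left]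
  unfold Bad
  constructor
  · rintro (⟨k, hk, h⟩ | ⟨j, hj, h⟩)
    · exact Or.inl ⟨k, hk, (h1 k hk).1 h⟩
    · exact Or.inr ⟨j, hj, by rwa [h2 j hj] at h⟩
  · rintro (⟨k, hk, h⟩ | ⟨j, hj, h⟩)
    · exact Or.inl ⟨k, hk, (h1 k hk).2 h⟩
    · exact Or.inr ⟨j, hj, by rwa [h2 j hj]⟩

end Crest.Agent.R320.Sp_493
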