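import Crest.Agent.R320.Con_504
import Crest.Agent.R320.H14_82
import Crest.Agent.R320.GridReg_943
import Crest.Agent.R320.Sp_493
import Crest.Agent.R320.Univ_lead

/-!
# Row 320: final assembly (helper504)
-/

set_option autoImplicit false

namespace Crest.Agent.R320.Fin_504

open Crest.RegLang Crest.Agent.R320.Hk_851 Crest.Agent.R320.Code110 Crest.Agent.R320.ExactR_237
  Crest.Agent.R320.Con_504 Crest.Agent.R320.WallU_228

/-- the faithful module -/
def act (S : Type) [Monoid S] (v : S → ZMod 2) (s : S) : S → ZMod 2 := fun x => v (s * x)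

theorem fibre_aux {α S : Type} [Finite α] [Monoid S] [Fintype S] (f : α → S) (s : S) :
    HL 3 ({w | pr f w = s} : Language α) := by
  classical
  let V : Type := S → ZMod 2
  -- the two gadgets
  obtain ⟨m, r, hm, hgad⟩ := GridReg_943.gadget (S := S) (V := V) (act S)
  obtain ⟨K, hK⟩ := exact_gadget α S V f (act S) (2 + 2 * (r + m))
  obtain ⟨Ms, M, hcard, hMs, hM, hgad⟩ := hgad (2 ^ K + 2)
  have hMpos : 0 < M := by
    rw [hM]
    exact Finset.prod_pos fun k hk => (hMs k hk).1.pos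
  have hdvd : ∀ k ∈ Ms, k ∣ M := fun k hk => by rw [hM]; exact Finset.dvd_prod_of_mem _ hk
  -- the base
  let b : ℕ := 2 ^ (K + 4 + M)
  have hbM : 2 ^ (K + 4) * M < b := by
    show 2 ^ (K + 4) * M < 2 ^ (K + 4 + M)
    rw [pow_add 2 (K + 4) M]
    exact Nat.mul_lt_mul_of_pos_left M.lt_two_pow_self (by positivity)
  have hb0 : 0 < b := by positivity
  have hcopb : Nat.Coprime b M := by
    refine Nat.Coprime.pow_left _ ?_
    rw [hM]
    refine Nat.Coprime.prod_right fun k hk => ?_
    have h1 := hMs k hk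
    have h0 : 0 < 2 ^ K := by positivity
    exact (Nat.coprime_primes Nat.prime_two h1.1).2 (by omega)
  let G : ℕ → ℕ := fun j => b ^ j
  let Am : ℕ → ℕ := fun j => j * (M + 2) * b ^ j
  obtain ⟨lam, rho, nu, g1, g2, g3, g4, g5⟩ := hgad G Am (fun j => by positivity)
    (fun j => pow_dvd_pow b (Nat.le_succ j)) (fun j => Nat.Coprime.pow_left _ hcopb)
    (fun j => by
      show j * (M + 2) * b ^ j + b ^ j + M * b ^ j ≤ (j + 1) * (M + 2) * b ^ (j + 1)
      have h1 : b ^ j ≤ b ^ (j + 1) := Nat.pow_le_pow_right hb0 (Nat.le_succ j)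
      have h2 : j * (M + 2) * b ^ j + b ^ j + M * b ^ j ≤ (j + 1) * (M + 2) * b ^ j := by
        have h3 : (j + 1) * (M + 2) * b ^ j = j * (M + 2) * b ^ j + b ^ j + M * b ^ j + b ^ j := by
          ring
        rw [h3]
        exact Nat.le_add_right _ _
      exact h2.trans (Nat.mul_le_mul_left _ h1))
    (pr f) (pr_append f)
  obtain ⟨c, hcmono, hc1, hc2, hc3, hc4⟩ := Sp_493.spoil Ms M m K b hMpos
    (fun k hk => ⟨by have := (hMs k hk).2; omega, hdvd k hk⟩) hbM hcopb (Am m)
  obtain ⟨lam2, rho2, nuE, e1, e2⟩ := hK c (fun i j hij _ => hcmono hij)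
  -- constants
  let p0 := c K
  let La := c K + 2 * Am m
  let N1 := Am m
  obtain ⟨n, cc, P, Sw, hn, hP, hloc, hgap, -, -, hfew⟩ :=
    WallU_228.walls_full (α := α) (2 * p0 + 2 * N1)
  let z := 2 * p0 + N1 + n + N1 + La + 1
  let BadT : ℕ → Prop := Sp_493.Bad Ms M b m
  let nu2 : List α → V := fun P => nuE P 1
  have hcp : ∀ k < K, c k ≤ p0 := fun k hk => (hcmono hk).le
  -- H1 - H4
  obtain ⟨H1, H2, H3, H4⟩ := H14_82.main (f := f) (n := n) (Sw := Sw) (z := z) (N := N1)
    (p0 := p0) (A1 := Am m + G m) (m := M * b ^ m) (by positivity) hfew BadT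
    (fun T _ => Sp_493.Bad_add hb0 hdvd T) nu nu2 (act S)
    (fun Y Y' h1 h2 h3 h4 h5 => by
      refine g5 Y Y' h1 h2 h3 ?_ h4
      have key : ∀ Y : List α, pr f Y = pr f (Y.take (Am m + G m)) *
          ((Y.drop (Am m + G m)).map f).prod := by
        intro Y
        conv_lhs => rw [← List.take_append_drop (Am m + G m) Y]
        rw [pr_append]
        rfl
      rw [key Y, key Y', h3, h5])
  have hXX : H14_82.XX n Sw z = XX (Wo n Sw) z := by
    ext X
    constructor
    · rintro ⟨a1, a2, a3⟩; exact ⟨a1, a2, fun t b1 b2 => a3 t b2 b1⟩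
    · rintro ⟨a1, a2, a3⟩; exact ⟨a1, a2, fun t b1 b2 => a3 t b2 b1⟩
  have hBad : H14_82.Bad n Sw z N1 p0 BadT = Bad (Wo n Sw) z N1 p0 BadT := by
    unfold H14_82.Bad Con_504.Bad
    rw [hXX]
    rfl
  have hTT : H14_82.TT (fun w : List α => (w.map f).prod) (act S) p0 nu2 nu =
      TT f (act S) p0 nu2 nu := rfl
  rw [hXX] at H1 H3 H4
  rw [hBad] at H2
  rw [hTT] at H3
  have hT : ∀ u ∈ XX (Wo n Sw) z, ∀ v v' : V, TT f (act S) p0 nu2 nu u v -
      TT f (act S) p0 nu2 nu u v' = act S (v - v') (pr f u) := by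
    intro u _ v v'
    exact H14_82.hT (f := f) (act := act S) (nu1 := nu) (nu2 := nu2) (fun a b s => rfl)
      (fun v s t => by funext x; show v (s * t * x) = v (s * (t * x)); rw [mul_assoc]) p0 u v v'
  refine Top5_110.top_sem (φ := pr f) (act := act S) (XX := XX (Wo n Sw) z)
    (Bad := Bad (Wo n Sw) z N1 p0 BadT) (T := TT f (act S) p0 nu2 nu) (by simp [pr])
    (pr_append f) (fun v => by funext x; show v (1 * x) = v x; rw [one_mul])
    (fun v s t => by funext x; show v (s * t * x) = v (s * (t * x)); rw [mul_assoc])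
    ?_ (XX_pc (by omega)) (fun u hu => hu.1) hT H1 H2 H3 (fun s => (H4 s).mono (by norm_num))
    (N1 := 0) (N2 := 1) (L1 := L1 f (act S) p0 N1 nu2 lam) (L2 := L2 K c lam2) ?_ ?_ ?_ ?_ s
  · intro s t hst
    have h := congrFun (hst (Pi.single s 1)) 1
    have h' : (Pi.single s (1 : ZMod 2) : S → ZMod 2) (s * 1) =
      (Pi.single s (1 : ZMod 2) : S → ZMod 2) (t * 1) := h
    rw [mul_one, mul_one, Pi.single_eq_same] at h'
    by_contra hne
    rw [Pi.single_eq_of_ne (Ne.symm hne)] at h'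
    exact one_ne_zero h'
  · intro v
    refine (List.finite_length_le α (p0 + N1)).subset ?_
    rintro P ⟨-, h, -⟩
    exact h
  · intro v
    refine (List.finite_length_le α p0).subset ?_
    rintro P ⟨k, hk, h, -⟩
    show P.length ≤ p0
    rw [h]
    exact hcp k hk
  · intro u hu hb x t ht
    refine C1 (n := n) hloc f (act S) p0 N1 La z nu2 nu lam rho BadT
      (fun p v h => (g2 p v h).le) (fun p q v r h1 h2 _ => g1 p q v r h1 h2) ?_ (by omega)
      u hu hb x t ht
    intro u hu hB v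
    have hB1 : ∀ k ∈ Ms, ¬ k ∣ u.length := fun k hk h => hB (Or.inl ⟨k, hk, h⟩)
    refine g4 u hB1 (by omega) ?_ v
    intro k hk
    have hB2 : M ≤ u.length / b ^ k % b ∧ u.length / b ^ k % b + M + 1 ≤ b := by
      by_contra hcon
      exact hB (Or.inr ⟨k, hk, hcon⟩)
    have hAk : Am (k + 1) ≤ Am m := by
      show (k + 1) * (M + 2) * b ^ (k + 1) ≤ m * (M + 2) * b ^ m
      exact Nat.mul_le_mul (Nat.mul_le_mul_right _ hk) (Nat.pow_le_pow_right hb0 hk)
    have hmod : (u.length - Am (k + 1)) % G (k + 1) = u.length % b ^ (k + 1) := by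
      have h1 : Am (k + 1) ≤ u.length := by omega
      obtain ⟨d, hd⟩ := Nat.exists_eq_add_of_le h1
      rw [hd, Nat.add_sub_cancel_left]
      show d % b ^ (k + 1) = ((k + 1) * (M + 2) * b ^ (k + 1) + d) % b ^ (k + 1)
      rw [Nat.mul_add_mod']
    have hdig : u.length % b ^ (k + 1) = b ^ k * (u.length / b ^ k % b) + u.length % b ^ k := by
      rw [pow_succ, Nat.mod_mul]
      ring
    rw [hmod, hdig]
    have hlt : u.length % b ^ k < b ^ k := Nat.mod_lt _ (by positivity)
    show M * b ^ k ≤ _ ∧ _ + M * b ^ k ≤ b ^ (k + 1)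
    set dg := u.length / b ^ k % b with hdg
    constructor
    · have h0 : b ^ k * M ≤ b ^ k * dg := Nat.mul_le_mul_left _ hB2.1
      rw [Nat.mul_comm M]
      exact h0.trans (Nat.le_add_right _ _)
    · have h1 : b ^ (k + 1) = b ^ k * b := pow_succ b k
      have h2 : b ^ k * (dg + M + 1) ≤ b ^ k * b := Nat.mul_le_mul_left _ hB2.2
      have h3 : b ^ k * (dg + M + 1) = b ^ k * dg + b ^ k + M * b ^ k := by ring
      rw [h1]
      rw [h3] at h2
      omega
  · intro u hu x t ht
    refine C2 (n := n) (W := 2 * p0 + 2 * N1) hloc hgap f (act S) p0 N1 La z K (r + m) nu c BadT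
      hcp ?_ ?_ lam2 rho2 nu2 ?_ ?_ (by omega) le_rfl u hu x t ht
    · intro i _ j _ k _ l _ h1 h2 h3
      exact hc3 i j k l h1 h2 h3
    · intro T hT J hJ
      refine (hc4 T (fun i hi => ?_) J hJ).trans (by omega)
      have := hcp i hi
      omega
    · intro k hk P Q v b hP h1 h2
      have := e1 k hk P Q 1 v b hP h1 h2
      rw [mul_one] at this
      exact this
    · intro u v hu
      exact e2 u 1 v (fun k hk => by rw [hu]; exact hcp k hk)

theorem fibre {α S : Type} [Finite α] [Monoid S] [Finite S] (f : α → S) (s : S) :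
    HL 3 ({w | (w.map f).prod = s} : Language α) := by
  haveI := Fintype.ofFinite S
  exact fibre_aux f s

end Crest.Agent.R320.Fin_504
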