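import Crest.Agent.R320.SemTop_727
import Crest.Agent.R320.JointSem_814
import Crest.Agent.R320.Fib_854
import Crest.Agent.R320.LWallAll_922
import Crest.Agent.R320.GridG_19
import Crest.Agent.R320.Univ_582
import Crest.Agent.R320.RulerGrid_506

/-!
# Row 320, final assembly (helper506)

Semantic top (727) + joint of the two schemes (814) + regularity (854) + left-looking walls (922)
+ grid gadget (19) + exact gadget (237) + ruler (506).
-/

set_option autoImplicit false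

namespace Crest.Agent.R320.Fin_506

open Finset Crest.Agent.R320.Hk_851

/-- bad grid totals are bad in the sense of the ruler -/
theorem badG_bad {Gam M m T : ℕ} (hG : 0 < Gam)
    (hT : GridG_19.Am (fun k => Gam ^ k) M 0 m ≤ T)
    (h : GridG_19.BadG (fun k => Gam ^ k) M 0 m T) :
    ∃ j, 1 ≤ j ∧ j ≤ m ∧ ∃ k : ℤ,
      |(T : ℤ) - ((GridG_19.Am (fun k => Gam ^ k) M 0 j : ℕ) : ℤ) - k * (Gam : ℤ) ^ j| ≤
        (M : ℤ) * (Gam : ℤ) ^ (j - 1) := by
  obtain ⟨k, hk, h⟩ := h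
  have h1 : GridG_19.Am (fun k => Gam ^ k) M 0 (k + 1) ≤ T :=
    (GridG_19.Am_mono _ _ _ (by omega)).trans hT
  refine ⟨k + 1, by omega, by omega, ?_⟩
  simp only at h
  set A := GridG_19.Am (fun k => Gam ^ k) M 0 (k + 1) with hA
  obtain ⟨D, hD⟩ := Nat.exists_eq_add_of_le h1
  have hTD : T - A = D := by omega
  rw [hTD] at h
  have hg : 0 < Gam ^ (k + 1) := pow_pos hG _
  have hmod := Nat.mod_add_div D (Gam ^ (k + 1))
  have hlt := Nat.mod_lt D hg
  have hTz : (T : ℤ) - (A : ℤ) = D := by rw [hD]; push_cast; ring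
  have hmz : ((D % Gam ^ (k + 1) : ℕ) : ℤ) + (Gam : ℤ) ^ (k + 1) * ((D / Gam ^ (k + 1) : ℕ) : ℤ) =
      (D : ℤ) := by
    exact_mod_cast hmod
  have hk1 : k + 1 - 1 = k := by omega
  rw [hk1, hTz]
  rcases h with h | h
  · refine ⟨((D / Gam ^ (k + 1) : ℕ) : ℤ), ?_⟩
    have h2 : (D : ℤ) - ((D / Gam ^ (k + 1) : ℕ) : ℤ) * (Gam : ℤ) ^ (k + 1) =
        ((D % Gam ^ (k + 1) : ℕ) : ℤ) := by linarith
    rw [h2, abs_of_nonneg (by positivity)]
    exact_mod_cast h.le
  · refine ⟨((D / Gam ^ (k + 1) : ℕ) : ℤ) + 1, ?_⟩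
    have h2 : (D : ℤ) - (((D / Gam ^ (k + 1) : ℕ) : ℤ) + 1) * (Gam : ℤ) ^ (k + 1) =
        ((D % Gam ^ (k + 1) : ℕ) : ℤ) - (Gam : ℤ) ^ (k + 1) := by linarith
    have h3 : ((D % Gam ^ (k + 1) : ℕ) : ℤ) < (Gam : ℤ) ^ (k + 1) := by exact_mod_cast hlt
    have h4 : (Gam : ℤ) ^ (k + 1) ≤ ((D % Gam ^ (k + 1) : ℕ) : ℤ) + (M : ℤ) * (Gam : ℤ) ^ k := by
      exact_mod_cast h
    rw [h2, abs_le]
    constructor <;> linarith

theorem uniq {P : ℕ → Prop} (h : ∀ s t, P s → P t → s = t) : ∃ s0, ∀ s, P s → s = s0 := by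
  by_cases hex : ∃ s, P s
  · obtain ⟨s0, h0⟩ := hex
    exact ⟨s0, fun s hs => h s s0 hs h0⟩
  · exact ⟨0, fun s hs => (hex ⟨s, hs⟩).elim⟩

/-- **the spoil count** -/
theorem spoil {α : Type} {Wo : List α → Prop} {n W z p0 N K C0 : ℕ} {c : ℕ → ℕ}
    {BadT : ℕ → Prop} (hW : JointSem_814.Walls n W Wo) (hWbig : 2 * p0 + 2 * N ≤ W)
    (hc : ∀ k < K, c k ≤ p0) (hz : p0 + N ≤ z)
    (hgol : ∀ i j k l, i < K → j < K → k < K → l < K → i ≠ j → k ≠ l → ¬ (i = k ∧ j = l) →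
        ((2 * N : ℕ) : ℤ) < |((c i : ℤ) - c j) - ((c k : ℤ) - c l)|)
    (hthin : ∀ T : ℤ, ∃ J : Finset ℕ, J.card ≤ C0 ∧ ∀ k < K, ∀ k' < K, k' ≠ k → ∀ t : ℕ,
      (t : ℤ) = T + c k' - c k → z - p0 ≤ t → BadT t → k ∈ J)
    (U : List α) :
    ∃ J : Finset ℕ, J.card ≤ 2 * C0 + 1 ∧ ∀ k < K,
      JointSem_814.Spoiled Wo z p0 N K c BadT U k → k ∈ J := by
  classical
  have same : ∀ s t, (s ≤ U.length ∧ Wo (U.take s) ∧ z ≤ s + p0 + N ∧ s < z + p0 + N) →
      (t ≤ U.length ∧ Wo (U.take t) ∧ z ≤ t + p0 + N ∧ t < z + p0 + N) → s = t := by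
    rintro s t ⟨s1, s2, s3, s4⟩ ⟨t1, t2, t3, t4⟩
    rcases Nat.lt_trichotomy s t with h | h | h
    · exact (hW.gap U s t h (by omega) t1 s2 t2).elim
    · exact h
    · exact (hW.gap U t s h (by omega) s1 t2 s2).elim
  obtain ⟨s0, hs0⟩ := uniq same
  obtain ⟨s1, hs1⟩ := uniq (P := fun s => s ≤ U.length ∧ Wo (U.take s) ∧ z + p0 + N ≤ s ∧
      ∀ t, t < s → Wo (U.take t) → t < z + p0 + N) (by
    rintro s t ⟨a1, a2, a3, a4⟩ ⟨b1, b2, b3, b4⟩
    rcases Nat.lt_trichotomy s t with h | h | h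
    · have := b4 s h a2; omega
    · exact h
    · have := a4 t h b2; omega)
  obtain ⟨J0, hJ0, hJ0'⟩ := hthin ((s0 : ℤ) - p0)
  obtain ⟨J1, hJ1, hJ1'⟩ := hthin ((s1 : ℤ) - p0)
  let JE : Finset ℕ := (range K).filter (fun k => ∃ k' < K, k' ≠ k ∧ ∃ s, s ≤ U.length ∧
    Wo (U.take s) ∧ z + c k ≤ s + c k' + N ∧ s + c k' < z + N + c k)
  have hJE : JE.card ≤ 1 := by
    rw [Finset.card_le_one]
    intro k hk l hl
    simp only [JE, Finset.mem_filter, Finset.mem_range] at hk hl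
    obtain ⟨hkK, k', hk'K, hne, s, a1, a2, a3, a4⟩ := hk
    obtain ⟨hlK, l', hl'K, hne', t, b1, b2, b3, b4⟩ := hl
    have h1 := hc k hkK
    have h2 := hc k' hk'K
    have h3 := hc l hlK
    have h4 := hc l' hl'K
    have hst : s = t := same s t ⟨a1, a2, by omega, by omega⟩ ⟨b1, b2, by omega, by omega⟩
    subst hst
    by_contra hkl
    have h5 := hgol k k' l l' hkK hk'K hlK hl'K (Ne.symm hne) (Ne.symm hne')
      (fun h => hkl h.1)
    have h6 : |((c k : ℤ) - c k') - ((c l : ℤ) - c l')| ≤ ((2 * N : ℕ) : ℤ) := by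
      rw [abs_le]
      constructor <;> omega
    omega
  refine ⟨JE ∪ (J0 ∪ J1), ?_, ?_⟩
  · have h1 := Finset.card_union_le JE (J0 ∪ J1)
    have h2 := Finset.card_union_le J0 J1
    omega
  · rintro k hk ⟨k', hk', hne, h⟩
    have h1 := hc k hk
    have h2 := hc k' hk'
    simp only [Finset.mem_union]
    rcases h with ⟨s, a1, a2, a3, a4⟩ | ⟨s, a1, a2, a3, a4, a5⟩
    · left
      simp only [JE, Finset.mem_filter, Finset.mem_range]
      exact ⟨hk, k', hk', hne, s, a1, a2, a3, a4⟩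
    · right
      rcases Nat.lt_or_ge s (z + p0 + N) with h3 | h3
      · left
        have h4 := hs0 s ⟨a1, a2, by omega, h3⟩
        subst h4
        exact hJ0' k hk k' hk' hne (s + c k' - c k - p0) (by omega) (by omega) a5
      · right
        have h4 := hs1 s ⟨a1, a2, h3, fun t ht htw => by
          have := a4 t ht htw
          omega⟩
        subst h4
        exact hJ1' k hk k' hk' hne (s + c k' - c k - p0) (by omega) (by omega) a5

theorem fibre (β : Type) [Finite β] (S : Type) [Monoid S] [Finite S] (f : β → S) (s : S) :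
    HL 3 ({w | (w.map f).prod = s} : Language β) := by
  classical
  have := Fintype.ofFinite S
  obtain ⟨act, hadd, hone, hmul, hfaith⟩ := Blk467.exists_module S
  obtain ⟨m, r, hgrid⟩ := GridG_19.grid S (S → ZMod 2) act
  obtain ⟨K, hexact⟩ := ExactR_237.exact_gadget β S (S → ZMod 2) f act (2 * (r + m) + 2)
  obtain ⟨Ms, hMc, hMp, hgrid⟩ := hgrid (8 * 4 ^ (K + 1))
  obtain ⟨M, hM⟩ : ∃ M, M = ∏ q ∈ Ms, q := ⟨_, rfl⟩
  rw [← hM] at hgrid
  have hMpos : 0 < M := by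
    rw [hM]; exact Finset.prod_pos fun q hq => (hMp q hq).1.pos
  obtain ⟨Gam, hGam⟩ : ∃ Gam, Gam = 100 * 4 ^ (K + 1) * M + 1 := ⟨_, rfl⟩
  have hGpos : 0 < Gam := by omega
  have hcop : ∀ k, Nat.Coprime M (Gam ^ k) := by
    intro k
    refine Nat.Coprime.pow_right k ?_
    rw [hGam]
    simp
  obtain ⟨lam, rho, nu1, hsound, hlamlen, hrholen, hcompl, hnufin⟩ :=
    hgrid (fun k => Gam ^ k) 0 (fun k => pow_pos hGpos k) (fun a b h => pow_dvd_pow _ h) hcop
      β (fun w => (w.map f).prod) (by intro u v; simp)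
  obtain ⟨N, hN⟩ : ∃ N, N = GridG_19.Am (fun k => Gam ^ k) M 0 m := ⟨_, rfl⟩
  obtain ⟨x, hxmono, hxgol, hxthin⟩ := RulerGrid_506.exists_ruler K m (2 * N) M Gam Ms
    (fun j => ((GridG_19.Am (fun k => Gam ^ k) M 0 j : ℕ) : ℤ)) hMpos
    (fun p hp => ⟨(hMp p hp).1, (hMp p hp).2, hM ▸ Finset.dvd_prod_of_mem _ hp⟩) (by omega)
  obtain ⟨lam2, rho2, nu2, hex2, hco2⟩ := hexact x (fun i j hij _ => hxmono hij)
  obtain ⟨p0, hp0⟩ : ∃ p0, p0 = x K := ⟨_, rfl⟩
  have hcp : ∀ k < K, x k ≤ p0 := fun k hk => by rw [hp0]; exact (hxmono hk).le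
  obtain ⟨n0, G0, B0, Wo, hLW, hgap, hper, -, hfree⟩ :=
    LWallAll_922.walls_all_left β (2 * p0 + 2 * N + 1) (by omega)
  obtain ⟨n, hn⟩ : ∃ n, n = max n0 1 := ⟨_, rfl⟩
  have hlen : ∀ Q, Wo Q → n ≤ Q.length := by
    intro Q hQ
    have h1 := hLW.2 Q hQ
    have h2 : n0 ≠ 0 := by
      rintro rfl
      refine hper Q 1 one_pos (by omega) hQ ?_
      simp
    omega
  have hloc : ∀ P Q : List β, n ≤ Q.length → (Wo (P ++ Q) ↔ Wo Q) :=
    fun P Q h => hLW.1 P Q (by omega)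
  have hWalls : JointSem_814.Walls n (2 * p0 + 2 * N) Wo :=
    ⟨hloc, hlen, fun X s t h1 h2 h3 h4 h5 => by
      have := hgap X s t h1 h3 h4 h5
      omega⟩
  obtain ⟨z, hz⟩ : ∃ z, z = p0 + (2 * N + M) + N + n + 1 := ⟨_, rfl⟩
  have hfew : ∀ X : List β, (∀ t, t < X.length → ¬ Wo (X.take t)) → ∃ (u x : List β) (k : ℕ)
      (v : List β), u.length ≤ B0 + (2 * p0 + 2 * N + 1) ∧ x.length ≤ B0 + (2 * p0 + 2 * N + 1) ∧
      v.length ≤ B0 + (2 * p0 + 2 * N + 1) ∧ X = u ++ (List.replicate k x).flatten ++ v := by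
    intro X hX
    obtain ⟨u, y, v, k, h1, h2, h3, h4⟩ := hfree X hX
    exact ⟨u, y, k, v, by omega, by omega, by omega, h4⟩
  let φ : List β → S := fun w => (w.map f).prod
  let BadT : ℕ → Prop := fun T => (∃ q ∈ Ms, q ∣ T) ∨ GridG_19.BadG (fun k => Gam ^ k) M 0 m T
  let nu2' : List β → (S → ZMod 2) := fun u => nu2 u 1
  let rho2' : ℕ → List β → Option (S → ZMod 2) := fun k Q => rho2 k Q 1
  let D : SemTop_727.Sch β (S → ZMod 2) :=
    ⟨JointSem_814.XX Wo z, JointSem_814.T p0 φ act nu1 nu2',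
      JointSem_814.L1 p0 φ act nu2' lam, JointSem_814.L2 K x lam2⟩
  have hlamN : ∀ p v, lam p = some v → p.length ≤ N := fun p v h => by
    have := (hlamlen p v h).2
    omega
  have hthin : ∀ T : ℤ, ∃ J : Finset ℕ, J.card ≤ r + m ∧ ∀ k < K, ∀ k' < K, k' ≠ k → ∀ t : ℕ,
      (t : ℤ) = T + x k' - x k → z - p0 ≤ t → BadT t → k ∈ J := by
    intro T
    refine ⟨((range K ×ˢ range K).filter fun ab : ℕ × ℕ =>
      ab.1 ≠ ab.2 ∧ RulerGrid_506.Bad Ms m M Gam
        (fun j => ((GridG_19.Am (fun k => Gam ^ k) M 0 j : ℕ) : ℤ))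
        (T + x ab.2 - x ab.1)).image Prod.fst, ?_, ?_⟩
    · have h1 := hxthin T
      have h2 := Finset.card_image_le (s := (range K ×ˢ range K).filter fun ab : ℕ × ℕ =>
        ab.1 ≠ ab.2 ∧ RulerGrid_506.Bad Ms m M Gam
        (fun j => ((GridG_19.Am (fun k => Gam ^ k) M 0 j : ℕ) : ℤ))
        (T + x ab.2 - x ab.1)) (f := Prod.fst)
      omega
    · intro k hk k' hk' hne t ht htz hb
      rw [Finset.mem_image]
      refine ⟨(k, k'), ?_, rfl⟩
      simp only [Finset.mem_filter, Finset.mem_product, Finset.mem_range]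
      refine ⟨⟨hk, hk'⟩, Ne.symm hne, ?_⟩
      rw [← ht]
      rcases hb with ⟨q, hq, hd⟩ | hb
      · exact Or.inl ⟨q, hq, by exact_mod_cast hd⟩
      · exact Or.inr (badG_bad hGpos (by omega) hb)
  have hcomp' : ∀ u : List β, 2 * N + M ≤ u.length → ¬ BadT u.length → ∀ v, ∃ p q, p ++ q = u ∧
      lam p = some v ∧ (rho q).isSome := by
    intro u hu hb v
    have h1 : ∀ q ∈ Ms, ¬ q ∣ u.length := fun q hq hd => hb (Or.inl ⟨q, hq, hd⟩)
    have h2 : ¬ GridG_19.BadG (fun k => Gam ^ k) M 0 m u.length := fun h => hb (Or.inr h)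
    exact hcompl u (by omega) (by omega) h1 h2 v
  have hkey : ∀ v, Fib_854.Key (JointSem_814.T p0 φ act nu1 nu2' v) := by
    intro v
    refine ⟨p0 + GridG_19.Ac (fun k => Gam ^ k) M 0 m, M * Gam ^ m, S, inferInstance,
      inferInstance, f, by positivity, ?_⟩
    intro X Y hX hY h1 h2 h3
    obtain ⟨A, hA⟩ : ∃ A, A = GridG_19.Ac (fun k => Gam ^ k) M 0 m := ⟨_, rfl⟩
    rw [← hA] at hX hY h1 h3 hnufin
    have e0 : X.take p0 = Y.take p0 := by
      have := congrArg (List.take p0) h1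
      rwa [List.take_take, List.take_take, Nat.min_eq_left (by omega)] at this
    have e1 : (X.drop p0).take A = (Y.drop p0).take A := by
      have := congrArg (List.drop p0) h1
      rwa [List.drop_take, List.drop_take, Nat.add_sub_cancel_left] at this
    have e2 : φ (X.drop p0) = φ (Y.drop p0) := by
      have ex : ∀ Z : List β, φ (Z.drop p0) = φ ((Z.drop p0).take A) * φ (Z.drop (p0 + A)) := by
        intro Z
        have : Z.drop p0 = (Z.drop p0).take A ++ Z.drop (p0 + A) := by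
          rw [← List.drop_drop, List.take_append_drop]
        show ((Z.drop p0).map f).prod = _
        conv_lhs => rw [this]
        rw [List.map_append, List.prod_append]
      rw [ex X, ex Y, e1]
      show _ * ((X.drop (p0 + A)).map f).prod = _ * ((Y.drop (p0 + A)).map f).prod
      rw [h3]
    have e3 : nu1 (X.drop p0) = nu1 (Y.drop p0) := by
      refine hnufin _ _ (by rw [List.length_drop]; omega) (by rw [List.length_drop]; omega) e1 ?_ e2
      rw [List.length_drop, List.length_drop]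
      have h4 : X.length ≡ Y.length [MOD M * Gam ^ m] := h2
      have h5 : (X.length - p0) + p0 ≡ (Y.length - p0) + p0 [MOD M * Gam ^ m] := by
        rw [Nat.sub_add_cancel (by omega), Nat.sub_add_cancel (by omega)]; exact h4
      exact Nat.ModEq.add_right_cancel' _ h5
    unfold JointSem_814.T
    rw [e0, e2, e3]
  have hXXe : ∀ X, X ∈ JointSem_814.XX Wo z ↔ X ∈ Fib_854.XX Wo z := fun X =>
    ⟨fun h => ⟨h.2.1, h.1, h.2.2⟩, fun h => ⟨h.2.1, h.1, h.2.2⟩⟩
  refine SemTop_727.top (k := 1) act hadd hone hmul hfaith f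
    (fun X => act (nu2' (X.take p0)) (φ (X.drop p0)) + nu1 (X.drop p0)) D ?_ ?_ ?_ ?_ ?_ ?_ ?_ s
  · intro v X
    show JointSem_814.T p0 φ act nu1 nu2' v X = _
    unfold JointSem_814.T
    rw [hadd, ← hmul]
    have : φ (X.take p0) * φ (X.drop p0) = (X.map f).prod := by
      show ((X.take p0).map f).prod * ((X.drop p0).map f).prod = _
      rw [← List.prod_append, ← List.map_append, List.take_append_drop]
    rw [this, add_assoc]
  · refine ⟨fun h => ?_, fun X hX Y hY h => JointSem_814.XX_code hX hY h⟩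
    have h1 : z ≤ ([] : List β).length := h.2.1
    simp at h1
    omega
  · intro v y
    refine (Fib_854.fib hloc hlen (by omega) (show n ≤ z by omega) hfew
      (JointSem_814.T p0 φ act nu1 nu2' v) (hkey v) y).congr fun w => ?_
    constructor
    · rintro ⟨h1, h2⟩
      exact ⟨(hXXe w).1 h1, h2⟩
    · rintro ⟨h1, h2⟩
      exact ⟨(hXXe w).2 h1, h2⟩
  · intro v
    refine (List.finite_length_le β (p0 + N)).subset ?_
    rintro P ⟨h1, h2⟩
    have := hlamN _ _ h2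
    rw [List.length_drop] at this
    show P.length ≤ p0 + N
    omega
  · intro v
    refine (List.finite_length_le β p0).subset ?_
    rintro P ⟨k, hk, h1, h2⟩
    show P.length ≤ p0
    have := hcp k hk
    omega
  · intro X1 hX1 X2 hX2 v
    refine JointSem_814.compl2 (R := 2 * (r + m) + 2) (N0 := 2 * N + M) (rho := rho)
      (BadT := BadT) (rho2 := rho2') hWalls (by omega) (by omega) hlamN
      (fun p q v r h1 h2 => hsound p q v r h1 h2) hcomp' hcp ?_ ?_ ?_ hX1.1 hX2 v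
    · intro k hk P Q v b h1 h2 h3
      have h4 := hex2 k hk P Q 1 v b h1 h2 h3
      rw [mul_one] at h4
      exact h4
    · intro u v hu
      exact hco2 u 1 v hu
    · intro U _
      obtain ⟨J, h1, h2⟩ := spoil (C0 := r + m) hWalls le_rfl hcp (show p0 + N ≤ z by omega)
        hxgol hthin U
      exact ⟨J, by omega, h2⟩
  · intro t
    refine HL.mono (by norm_num) ((Fib_854.tail f hloc hlen (by omega) (show n ≤ z by omega)
      hfew t).congr fun w => ?_)
    constructor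
    · rintro ⟨h1, h2⟩
      exact ⟨fun X hX => h1 X ((hXXe X).2 hX), h2⟩
    · rintro ⟨h1, h2⟩
      exact ⟨fun X hX => h1 X ((hXXe X).1 hX), h2⟩

universe u

/-- the row -/
theorem final (α : Type u) [Finite α] (L : Language α) (hL : L.IsRegular) :
    ∃ e : Crest.RegLang.GRegExp α, e.height ≤ 3 ∧ e.lang = L :=
  Univ_582.final (fun β _ S _ _ f s => fibre β S f s) α L hL

end Crest.Agent.R320.Fin_506
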