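import Crest.Agent.R320.SemTop_727
import Crest.Agent.R320.Joint_47
import Crest.Agent.R320.Grid_390
import Crest.Agent.R320.P4_440
import Crest.Agent.R320.RulerG_432
import Crest.Agent.R320.Univ_582

/-!
# Row 320: complete assembly (helper508)

`SemTop_727.top` (two schemes, semantic right words) + `Joint_47.complete1/complete2` (joint on all
words, natural chain) + `Grid_390.grid_gadget` (gadget 1, finite-state) + `RulerG_432.ruler` (thin
ruler) + `ExactR_237.exact_gadget` (gadget 2) + `WallU_228.walls_full` (left-looking walls) +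
`P4_440` (HL 1 facts) + `Univ_582.final` (universes).
-/

set_option autoImplicit false

namespace Crest.Agent.R320.Fin_508

open Crest.RegLang Crest.Agent.R320.Hk_851 Crest.Agent.R320.Blk467
  Crest.Agent.R320.WallU_228 Crest.Agent.R320.FewVal_228 Crest.Agent.R320.FewWalls_228
open Crest.Agent.R320.ExactR_237 (pr pr_append)
open Crest.Agent.R320.Joint_47 (LW Zn)

/-- the bad lengths of the grid gadget -/
def BadT (k m : ℕ) (q : Fin k → ℕ) (κ : ℕ) (t : ℕ) : Prop :=
  (∃ j, q j ∣ t) ∨ ∃ j, 1 ≤ j ∧ j ≤ m ∧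
    ¬ ((∏ j, q j) * Grid_390.G κ (j - 1) ≤ (t - Grid_390.Am (∏ j, q j) κ j) % Grid_390.G κ j ∧
      (t - Grid_390.Am (∏ j, q j) κ j) % Grid_390.G κ j + (∏ j, q j) * Grid_390.G κ (j - 1) ≤
        Grid_390.G κ j)

theorem badZ_of_badT {k m : ℕ} {q : Fin k → ℕ} {κ t : ℕ}
    (ht : ∀ j ≤ m, Grid_390.Am (∏ j, q j) κ j ≤ t) (h : BadT k m q κ t) :
    RulerG_432.BadZ (Finset.univ.image q) (Grid_390.G κ)
      (fun j => (Grid_390.Am (∏ j, q j) κ j : ℤ)) (∏ j, q j) m (t : ℤ) := by
  rcases h with ⟨j, hj⟩ | ⟨j, h1, h2, h3⟩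
  · left
    exact ⟨q j, Finset.mem_image.2 ⟨j, Finset.mem_univ _, rfl⟩, by exact_mod_cast hj⟩
  · right
    refine ⟨j, h1, h2, ?_⟩
    have ha := ht j h2
    obtain ⟨d, hd⟩ := Nat.exists_eq_add_of_le ha
    set A := Grid_390.Am (∏ j, q j) κ j with hA
    set G := Grid_390.G κ j with hG
    have hGpos : 0 < G := Grid_390.G_pos j
    set r := (t - A) % G with hr
    have hdm : (t - A) % G + G * ((t - A) / G) = t - A := Nat.mod_add_div _ _
    have hlt : (t - A) % G < G := Nat.mod_lt _ hGpos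
    set e := (t - A) / G with he
    have hta : (t : ℤ) - (A : ℤ) = (r : ℤ) + (G : ℤ) * (e : ℤ) := by
      have h5 : ((t - A : ℕ) : ℤ) = (t : ℤ) - (A : ℤ) := by
        rw [Nat.cast_sub ha]
      have h6 : r + G * e = t - A := hdm
      rw [← h5]
      exact_mod_cast h6.symm
    set g := Grid_390.G κ (j - 1) with hg
    set M := ∏ j, q j with hM
    by_cases h4 : M * g ≤ r
    · have h6 : G < r + M * g := by
        by_contra hcon
        exact h3 ⟨h4, by omega⟩
      refine ⟨(e : ℤ) + 1, ?_⟩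
      have h7 : (t : ℤ) - (A : ℤ) - ((e : ℤ) + 1) * (G : ℤ) = (r : ℤ) - (G : ℤ) := by
        rw [hta]; ring
      show |(t : ℤ) - (A : ℤ) - ((e : ℤ) + 1) * (G : ℤ)| ≤ (M : ℤ) * (g : ℤ)
      rw [h7, abs_le]
      have h8 : (G : ℤ) < (r : ℤ) + (M : ℤ) * (g : ℤ) := by exact_mod_cast h6
      have h9 : (r : ℤ) < (G : ℤ) := by exact_mod_cast hlt
      have h10 : (0 : ℤ) ≤ (M : ℤ) * (g : ℤ) := by positivity
      constructor <;> linarith
    · refine ⟨(e : ℤ), ?_⟩
      have h7 : (t : ℤ) - (A : ℤ) - (e : ℤ) * (G : ℤ) = (r : ℤ) := by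
        rw [hta]; ring
      show |(t : ℤ) - (A : ℤ) - (e : ℤ) * (G : ℤ)| ≤ (M : ℤ) * (g : ℤ)
      rw [h7, abs_le]
      have h8 : (r : ℤ) < (M : ℤ) * (g : ℤ) := by exact_mod_cast (not_le.1 h4)
      have h9 : (0 : ℤ) ≤ (r : ℤ) := by positivity
      constructor <;> linarith

theorem exists_q (k B : ℕ) : ∃ q : Fin k → ℕ, (∀ j, Odd (q j)) ∧
    Pairwise (fun i j => Nat.Coprime (q i) (q j)) ∧ ∀ j, B < q j := by
  have hinf : ({p : ℕ | p.Prime} \ (Set.Iic (B + 2))).Infinite :=
    Nat.infinite_setOfPred_prime.sdiff (Set.finite_Iic _)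
  let e := hinf.natEmbedding
  have hp : ∀ n, (e n : ℕ).Prime ∧ B + 2 < (e n : ℕ) := by
    intro n
    have h := (e n).2
    exact ⟨h.1, not_le.1 h.2⟩
  refine ⟨fun j => (e j : ℕ), ?_, ?_, ?_⟩
  · intro j
    have h := hp j
    exact h.1.odd_of_ne_two (by omega)
  · intro i j hij
    refine (Nat.coprime_primes (hp i).1 (hp j).1).2 ?_
    intro h
    exact hij (Fin.ext (e.injective (Subtype.ext h)))
  · intro j
    have h := (hp j).2
    show B < (e j : ℕ)
    omega

/-- the counting clause of the ruler -/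
theorem exists_ruler (k m K : ℕ) : ∃ (q : Fin k → ℕ) (κ : ℕ), (∀ j, Odd (q j)) ∧
    Pairwise (fun i j => Nat.Coprime (q i) (q j)) ∧ ∀ N : ℕ, ∃ X : ℕ, N < X ∧
    ∀ T : ℕ, (∀ a, a < K → X * 2 ^ a ≤ T) → ∀ I : Finset ℕ,
      (∀ a ∈ I, a < K ∧ ∃ b, b < K ∧ b ≠ a ∧ BadT k m q κ (T + X * 2 ^ b - X * 2 ^ a)) →
      I.card ≤ k + m := by
  classical
  obtain ⟨q, hodd, hcop, hbig⟩ := exists_q k (2 ^ (K + 2))
  set M := ∏ j, q j with hM
  have hMpos : 0 < M := Finset.prod_pos fun j _ => lt_of_le_of_lt (Nat.zero_le _) (hbig j)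
  refine ⟨q, K + 6 + M, hodd, hcop, fun N => ?_⟩
  set κ := K + 6 + M with hκ
  obtain ⟨X, hX1, hX2⟩ := RulerG_432.ruler K m M (N + Grid_390.Am M κ m) (Finset.univ.image q)
    (Grid_390.G κ) (fun j => (Grid_390.Am M κ j : ℤ)) hMpos (by
      intro p hp
      obtain ⟨j, _, rfl⟩ := Finset.mem_image.1 hp
      exact ⟨Finset.dvd_prod_of_mem q (Finset.mem_univ j), hbig j⟩) (Grid_390.G_pos 0) (by
      intro i _
      refine ⟨Grid_390.G_dvd (Nat.le_succ i), ?_⟩
      have h1 : M ≤ 2 ^ M := Nat.lt_two_pow_self.le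
      have h2 : Grid_390.G κ (i + 1) = 2 ^ κ * Grid_390.G κ i := by
        unfold Grid_390.G
        rw [← pow_add]
        congr 1
        ring
      rw [h2]
      refine Nat.mul_le_mul_right _ ?_
      calc 2 ^ (K + 6) * M ≤ 2 ^ (K + 6) * 2 ^ M := Nat.mul_le_mul_left _ h1
        _ = 2 ^ κ := by rw [← pow_add])
  refine ⟨X, by omega, ?_⟩
  intro T hT I hI
  have hmono : ∀ i j, i ≤ j → Grid_390.Am M κ i ≤ Grid_390.Am M κ j := by
    intro i j hij
    induction hij with
    | refl => exact le_rfl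
    | step _ ih => exact ih.trans (Grid_390.Am_succ_ge _)
  choose! g hg using fun a (ha : a ∈ I) => (hI a ha).2
  have hcard : (I.image (fun a => (g a, a))).card = I.card :=
    Finset.card_image_of_injective _ fun a b h => (Prod.mk.inj h).2
  rw [← hcard]
  refine (hX2 (T : ℤ) (I.image (fun a => (g a, a))) ?_).trans ?_
  · intro p hp
    obtain ⟨a, ha, rfl⟩ := Finset.mem_image.1 hp
    obtain ⟨h1, h2, h3⟩ := hg a ha
    have h4 := (hI a ha).1
    refine ⟨h1, h4, h2, ?_⟩
    have h5 := hT a h4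
    have h6 : X ≤ X * 2 ^ g a := Nat.le_mul_of_pos_right _ (by positivity)
    have h7 := badZ_of_badT (k := k) (m := m) (q := q) (κ := κ)
      (t := T + X * 2 ^ g a - X * 2 ^ a) (by
        intro j hj
        have := hmono j m hj
        show Grid_390.Am M κ j ≤ _
        omega) h3
    have h8 : ((T + X * 2 ^ g a - X * 2 ^ a : ℕ) : ℤ) =
        (T : ℤ) + (X : ℤ) * 2 ^ g a - (X : ℤ) * 2 ^ a := by
      rw [Nat.cast_sub (by omega)]
      push_cast
      ring
    rw [h8] at h7
    exact h7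
  · refine Nat.add_le_add_right ?_ _
    refine Finset.card_image_le.trans ?_
    simp

/-- transport of the finite-state key -/
theorem drop_key {A S : Type} [Monoid S] (φ : List A → S)
    (hφ : ∀ u v, φ (u ++ v) = φ u * φ v) {B i : ℕ} (hi : i ≤ B) {w w' : List A}
    (h1 : w.take B = w'.take B)
    (h2 : φ (w.drop B) = φ (w'.drop B)) : φ (w.drop i) = φ (w'.drop i) := by
  have key : ∀ u : List A, φ (u.drop i) = φ ((u.take B).drop i) * φ (u.drop B) := by
    intro u
    rw [← hφ]
    congr 1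
    conv_lhs => rw [← List.take_append_drop B u]
    by_cases hu : B ≤ u.length
    · rw [List.drop_append_of_le_length (by rw [List.length_take]; omega)]
    · rw [List.drop_eq_nil_of_le (show u.length ≤ B by omega), List.append_nil, List.append_nil]
  rw [key w, key w', h1, h2]

theorem fibre (α : Type) [Finite α] (S : Type) [Monoid S] [Finite S] (f : α → S) (s : S) :
    HL 3 ({w | (w.map f).prod = s} : Language α) := by
  classical
  haveI : Fintype S := Fintype.ofFinite S
  obtain ⟨act, hadd, hone, hmul, hfaith⟩ := exists_module S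
  haveI : Fintype (S → ZMod 2) := Fintype.ofFinite _
  obtain ⟨k, m, H⟩ := Grid_390.grid_gadget S (S → ZMod 2) act
  obtain ⟨K, HE⟩ := ExactR_237.exact_gadget α S (S → ZMod 2) f act (2 * (k + m) + 2)
  obtain ⟨q, κ, hodd, hcop, HR⟩ := exists_ruler k m K
  set M := ∏ j, q j with hM
  obtain ⟨lam1, rho1, nu1, gL, gR, gS, gC, gF⟩ :=
    H q hodd hcop κ α (pr f) (fun u v => pr_append f u v)
  set N1 := Grid_390.Am M κ m with hN1
  set N2 := Grid_390.Am M κ (m + 1) with hN2
  obtain ⟨X, hX, hT⟩ := HR (2 * N1)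
  let c : ℕ → ℕ := fun a => X * 2 ^ a
  have hXpos : 0 < X := by omega
  have hinc : ∀ i j, i < j → j < K → c i < c j := by
    intro i j hij _
    exact Nat.mul_lt_mul_of_pos_left (Nat.pow_lt_pow_right (by norm_num) hij) hXpos
  obtain ⟨lam2, rho2, nu2, hS2, hC2⟩ := HE c hinc
  set p0 := X * 2 ^ K with hp0
  have hcp : ∀ a, a < K → c a ≤ p0 := by
    intro a ha
    exact Nat.mul_le_mul_left _ (Nat.pow_le_pow_right (by norm_num) ha.le)
  obtain ⟨n, cc, P, Sw, hn, hPp, happ, hgap, hpc1, hpc2, hfew⟩ :=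
    walls_full (α := α) (2 * (N1 + p0) + 1)
  have hW : LW n (2 * (N1 + p0) + 1) (Wo n Sw) := by
    refine ⟨fun X h => h.1, happ, ?_⟩
    intro Y s t hst ht h1 h2
    by_contra hcon
    have hlen : (Y.take t).length = t := by rw [List.length_take]; omega
    refine hgap (Y.take t) (t - s) h2 (by omega) (by omega) ?_
    rw [hlen, List.take_take]
    have : min (t - (t - s)) t = s := by omega
    rw [this]
    exact h1
  set z := 3 * p0 + n + N1 + 1 + 2 * N2 with hz
  let D : SemTop_727.Sch α (S → ZMod 2) :=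
    { XX := Zn (Wo n Sw) z
      T := Joint_47.T f act p0 (fun X => nu2 X 1) nu1
      L1 := fun v => {P | Joint_47.L1 f act p0 (fun X => nu2 X 1) lam1 v P}
      L2 := fun v => {P | Joint_47.L2 K c lam2 v P} }
  have hC : PCode D.XX := by
    have h := P4_440.pc_XX (n := n) (S := Sw) (z := z) (by omega)
    exact ⟨h.ne, fun X hX Y hY hXY => h.pf X hX Y hY hXY⟩
  have hL1 : ∀ x, (D.L1 x).Finite := by
    intro x
    refine (List.finite_length_le α (p0 + N1)).subset ?_
    rintro P ⟨h1, h2⟩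
    have h3 := (gL _ _ h2).1
    rw [List.length_drop] at h3
    show P.length ≤ p0 + N1
    omega
  have hL2 : ∀ x, (D.L2 x).Finite := by
    intro x
    refine (List.finite_length_le α p0).subset ?_
    rintro P ⟨a, h1, h2, h3⟩
    show P.length ≤ p0
    rw [h2]
    exact hcp a h1
  -- completeness of scheme 1
  have comp1 : ∀ Y ∈ Zn (Wo n Sw) z, ¬ Joint_47.Bad (Wo n Sw) z N1 p0 (BadT k m q κ) Y →
      Y ∈ D.Good := by
    intro Y hY hb
    refine ⟨hY, fun x => ?_⟩
    obtain ⟨p, r, e, h1, h2, h3⟩ := Joint_47.complete1 (N0 := 2 * N2) f act p0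
      (fun X => nu2 X 1) nu1 hW gS (fun P v h => (gL P v h).1.le) (by
        intro Y' hY' hb' v
        refine gC Y' hY' ?_ ?_ v
        · intro j hj
          exact hb' (Or.inl ⟨j, hj⟩)
        · intro j h1 h2
          by_contra hcon
          exact hb' (Or.inr ⟨j, h1, h2, hcon⟩)) (by omega) (by omega) hY hb x
    exact ⟨p, h1, r, fun x' p' hp' => h3 x' p' hp', e.symm⟩
  have hbad : ∀ Y ∈ D.Bad, Joint_47.Bad (Wo n Sw) z N1 p0 (BadT k m q κ) Y := by
    intro Y hY
    by_contra hcon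
    exact hY.2 (comp1 Y hY.1 hcon)
  have hC2' : ∀ X1 ∈ D.Bad, ∀ X2 ∈ D.Bad, ∀ x, ∃ P ∈ D.L2 x, ∃ Q ∈ D.R2 (D.T (D.T x X1) X2),
      P ++ Q = X1 ++ X2 := by
    intro X1 h1 X2 h2 x
    obtain ⟨p, r, e, g1, g2, g3⟩ := Joint_47.complete2 (R1 := k + m) f act p0 nu1 hW hS2 hC2 hinc
      hcp (by
        intro i i' j j' hi hi' hj hj' hii hjj e1 e2
        have e3 : |(((X : ℤ) * 2 ^ i) - (X : ℤ) * 2 ^ i') - ((X : ℤ) * 2 ^ j - (X : ℤ) * 2 ^ j')|
            < X := by
          have f1 : (X : ℤ) * 2 ^ i + (X : ℤ) * 2 ^ j' <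
              (X : ℤ) * 2 ^ j + (X : ℤ) * 2 ^ i' + 2 * N1 := by exact_mod_cast e1
          have f2 : (X : ℤ) * 2 ^ j + (X : ℤ) * 2 ^ i' <
              (X : ℤ) * 2 ^ i + (X : ℤ) * 2 ^ j' + 2 * N1 := by exact_mod_cast e2
          have f3 : (2 * N1 : ℤ) < X := by exact_mod_cast hX
          rw [abs_lt]
          constructor <;> linarith
        exact (RulerG_432.spaced (Ne.symm hii) e3).1) hT (by omega) (by omega) h1.1 h2.1
      (hbad X1 h1) x
    refine ⟨p, g1, r, ?_, e.symm⟩
    intro x' p' hp'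
    rcases g3 x' p' hp' with ⟨a, a1, a2, a3, a4⟩ | ⟨a, a1, a2, a3⟩
    · by_cases ha : a ∈ D.Good
      · right; left
        exact ⟨a, ha, by rw [a3]; exact List.prefix_append _ _⟩
      · left
        refine ⟨a, ⟨a1, ha⟩, X2, h2, a3, ?_⟩
        show D.T (D.T x' a) X2 = D.T (D.T x X1) X2
        have : D.T x' a = D.T x X1 := a4
        rw [this]
    · right; left
      exact ⟨a, comp1 a a1 a2, a3⟩
  -- regularity
  have hMpos : 0 < M := Finset.prod_pos fun j _ => (hodd j).pos
  have hPP : 0 < M * Grid_390.G κ m := Nat.mul_pos hMpos (Grid_390.G_pos m)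
  set B := z + p0 + N2 + n with hB
  have hresp : ∀ x y, P4_440.Resp (pr f) B (M * Grid_390.G κ m) (fun Y => D.T x Y = y) := by
    intro x y w w' hw hw' ht hd hl
    have e1 : w.take p0 = w'.take p0 := by
      have := congrArg (List.take p0) ht
      rwa [List.take_take, List.take_take, min_eq_left (by omega)] at this
    have e2 : pr f (w.drop p0) = pr f (w'.drop p0) :=
      drop_key (pr f) (fun u v => pr_append f u v) (by omega) ht hd
    have e3 : nu1 (w.drop p0) = nu1 (w'.drop p0) := by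
      refine (gF (w.drop p0) (w'.drop p0) ?_ ?_ ?_ ?_ ?_).2
      · rw [List.length_drop]; omega
      · rw [List.length_drop]; omega
      · have := congrArg (fun u => (List.drop p0 u).take N2) ht
        simp only [List.drop_take, List.take_take] at this
        rwa [min_eq_left (by omega)] at this
      · rw [List.length_drop, List.length_drop]
        have h5 : (w.length - p0) + p0 ≡ (w'.length - p0) + p0 [MOD M * Grid_390.G κ m] := by
          rw [Nat.sub_add_cancel (by omega), Nat.sub_add_cancel (by omega)]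
          exact hl
        exact Nat.ModEq.add_right_cancel' p0 h5
      · rw [List.drop_drop, List.drop_drop]
        exact drop_key (pr f) (fun u v => pr_append f u v) (by omega) ht hd
    show D.T x w = y ↔ D.T x w' = y
    have e4 : D.T x w = D.T x w' := by
      show Joint_47.T f act p0 (fun X => nu2 X 1) nu1 x w =
        Joint_47.T f act p0 (fun X => nu2 X 1) nu1 x w'
      unfold Joint_47.T
      rw [e1, e2, e3]
    rw [e4]
  have hfib : ∀ x y, HL 1 (D.fib x y) := fun x y =>
    P4_440.HL_block (fun u v => pr_append f u v) (by omega) (by omega) hPP hfew (hresp x y)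
  have htail : ∀ s, HL (1 + 2) ({w | (∀ X ∈ D.XX, ¬ X <+: w) ∧ (w.map f).prod = s} :
      Language α) := by
    intro s
    refine HL.mono (by omega) (P4_440.HL_rest (φ := pr f) (n := n) (S := Sw) (z := z)
      (B := B) (P := M * Grid_390.G κ m) (R := fun w => pr f w = s)
      (fun u v => pr_append f u v) (by omega) (by omega) hPP hfew ?_)
    intro w w' hw hw' ht hd hl
    have := drop_key (pr f) (fun u v => pr_append f u v) (i := 0) (by omega) ht hd
    rw [List.drop_zero, List.drop_zero] at this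
    show pr f w = s ↔ pr f w' = s
    rw [this]
  exact SemTop_727.top (k := 1) act hadd hone hmul hfaith f
    (fun X => act (nu2 (X.take p0) 1) (pr f (X.drop p0)) + nu1 (X.drop p0)) D (by
      intro v X
      show act (act v (pr f (X.take p0)) + nu2 (X.take p0) 1) (pr f (X.drop p0)) +
        nu1 (X.drop p0) = _
      rw [hadd, ← hmul, ← pr_append, List.take_append_drop, add_assoc]
      rfl) hC hfib hL1 hL2 hC2' htail s

/-- **Row 320.** -/
theorem row {α : Type*} [Finite α] (L : Language α) (hL : L.IsRegular) :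
    ∃ e : Crest.RegLang.GRegExp α, e.height ≤ 3 ∧ e.lang = L :=
  Univ_582.final (k := 3) (fun β _ S _ _ φ s => fibre β S φ s) α L hL

end Crest.Agent.R320.Fin_508
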