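import Crest.Agent.R320.SemTop_727
import Crest.Agent.R320.Fin_528
import Crest.Agent.R320.G1_852
import Crest.Agent.R320.ExactR_237
import Crest.Agent.R320.LWallAll_922
import Crest.Agent.R320.P4b_933
import Crest.Agent.R320.Sp_509
import Crest.Agent.R320.Fin_869

/-!
# Row 320: final join (helper509)

727's semantic top + 528's joint + 852's digit gadget + 237's exact gadget + 922's walls +
933's one-zone languages + ruler `Sp_509` + 869's last step.
-/

set_option autoImplicit false

namespace Crest.Agent.R320.Fin_509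

open Crest.RegLang Crest.Agent.R320.Hk_851

theorem final (A S : Type) [Finite A] [Monoid S] [Finite S] (f : A → S) (s : S) :
    HL 3 ({w | (w.map f).prod = s} : Language A) := by
  classical
  obtain ⟨act, hadd, hone, hmul, hfaith⟩ := Crest.Agent.R320.Blk467.exists_module S
  have : Fintype S := Fintype.ofFinite S
  obtain ⟨m, r, h852⟩ := G1_852.gadget (S := S) (V := S → ZMod 2) act
  obtain ⟨K, h237⟩ := ExactR_237.exact_gadget A S (S → ZMod 2) f act (2 + 2 * (r + m))
  obtain ⟨Ms, M, hMr, hMs, hM0, h852⟩ := h852 (4 ^ (K + 1))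
  obtain ⟨b, hbM, hb⟩ : ∃ b : ℕ, Nat.Coprime b M ∧ 4 * M * 4 ^ (K + 1) + 2 * M + 2 ≤ b := by
    refine ⟨(4 * M * 4 ^ (K + 1) + 2 * M + 2) * M + 1, ?_, ?_⟩
    · simp
    · exact Nat.le_succ_of_le (Nat.le_mul_of_pos_right _ hM0)
  obtain ⟨lam, rho, nu1, g1, g2, g3, g4⟩ := h852 b (by omega) hbM A f
  obtain ⟨c, cmono, c0, cgap, cwide, cE, cB⟩ := Sp_509.spoilN m K Ms M hM0
    (fun k hk => ⟨(hMs k hk).1, (hMs k hk).2.2⟩) b hb hbM (b ^ m)
  obtain ⟨lam2, rho2, nu2, x1, x2⟩ := h237 c (fun i j hij _ => cmono hij)
  obtain ⟨n, G, B, Wo, hLW, hgap, -, -, hfree⟩ :=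
    LWallAll_922.walls_all_left A (2 * c K + 2 * b ^ m + 1) (by omega)
  have hbpos : 0 < b := by omega
  have hbm : 0 < b ^ m := by positivity
  let D : Fin_528.Dat A (S → ZMod 2) S :=
    { f := f
      act := act
      n := n
      W := 2 * c K + 2 * b ^ m + 1
      Wo := Wo
      z := 3 * c K + b ^ m + n + 1
      p0 := c K
      N1 := b ^ m
      Nc := 0
      lam := lam
      rho := rho
      nu1 := nu1
      BadT := Sp_509.BadN m M b Ms
      K := K
      R := 2 + 2 * (r + m)
      C0 := r + m
      c := c
      lam2 := lam2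
      rho2 := fun k Q => rho2 k Q 1
      nu2 := fun X => nu2 X 1 }
  have hck : ∀ k < K, c k ≤ c K := fun k hk => (cmono hk).le
  have hOk : D.Ok :=
    { hadd := hadd
      hmul := hmul
      W1 := hLW.app
      gap := hgap
      lamlen := fun P v h => (g1 P v h).le
      sound := fun P Q v b h1 h2 => g2 P Q v b h1 h2
      comp := by
        intro u _ hB v
        obtain ⟨P, Q, e, h1, v', h2⟩ := g3 u (fun k hk hd => hB (Or.inl ⟨k, hk, hd⟩))
          (fun j hj => by
            by_contra hc
            exact hB (Or.inr ⟨j, hj, fun h' => hc ⟨h'.1, by omega⟩⟩)) v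
        exact ⟨P, Q, e.symm, h1, v', h2⟩
      ck := hck
      hz := by show 3 * c K + b ^ m + 0 + n < 3 * c K + b ^ m + n + 1; omega
      hW := by show 2 * c K + 2 * b ^ m ≤ 2 * c K + 2 * b ^ m + 1; omega
      sep := by
        intro k k' l l' _ _ _ _ h1 h2 h3 h4
        by_contra hne
        have h5 := cwide k k' l l' h1 h2 (fun h => hne (congrArg Prod.fst h))
        change c k' + c l ≤ c k + c l' + 2 * b ^ m at h3
        change c k + c l' ≤ c k' + c l + 2 * b ^ m at h4
        have h3' : (c k' : ℤ) + c l ≤ c k + c l' + 2 * ((b ^ m : ℕ) : ℤ) := by exact_mod_cast h3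
        have h4' : (c k : ℤ) + c l' ≤ c k' + c l + 2 * ((b ^ m : ℕ) : ℤ) := by exact_mod_cast h4
        have h6 : (0 : ℤ) < ((b ^ m : ℕ) : ℤ) := by exact_mod_cast hbm
        rw [lt_abs] at h5
        rcases h5 with h5 | h5 <;> linarith
      spoil := by
        intro T hT I hI
        change c K ≤ T at hT
        have hI2 : ∀ k, ∃ k', k ∈ I → k' < K ∧ k' ≠ k ∧ Sp_509.BadN m M b Ms (T + c k' - c k) := by
          intro k
          by_cases hk : k ∈ I
          · obtain ⟨_, k', h⟩ := hI k hk
            exact ⟨k', fun _ => h⟩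
          · exact ⟨0, fun h => absurd h hk⟩
        choose g hg using hI2
        have hcard : (I.image fun k => (k, g k)).card = I.card :=
          Finset.card_image_of_injOn fun a _ b' _ h => congrArg Prod.fst h
        have h1 := cB (T : ℤ) (I.image fun k => (k, g k)) (by
          intro p hp
          obtain ⟨k, hk, rfl⟩ := Finset.mem_image.1 hp
          obtain ⟨a1, a2, a3⟩ := hg k hk
          have a0 : k < K := (hI k hk).1
          refine ⟨a0, a1, fun h => a2 h.symm, T + c (g k) - c k, ?_, a3⟩
          have := hck k a0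
          simp only
          omega)
        show I.card ≤ r + m
        omega
      hR := by show 1 + 2 * (r + m) < 2 + 2 * (r + m); omega
      sound2 := by
        intro k hk P Q v b' hP h1 h2
        have h3 := x1 k hk P Q 1 v b' hP h1 h2
        rw [mul_one] at h3
        exact h3
      comp2 := by
        intro u v hu
        obtain ⟨I, h1, h2⟩ := x2 u 1 v hu
        exact ⟨I, h1, fun k hk => ⟨(h2 k hk).1, (h2 k hk).2.1,
          Option.isSome_iff_exists.1 (h2 k hk).2.2⟩⟩ }
  -- wall-free words
  have hlen : ∀ P, Wo P → n ≤ P.length := hLW.len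
  have free : ∀ u : List A, (∀ t < u.length, ¬ Wo (u.take t)) →
      u ∈ (BddReg_746.PN (max B (2 * c K + 2 * b ^ m + 1)) 2 : Language A) := by
    intro u hu
    obtain ⟨a, x, v, k, h1, h2, h3, h4⟩ := hfree u hu
    rw [h4]
    refine Language.mem_mul.2 ⟨a ++ (List.replicate k x).flatten,
      ⟨a, x, k, h1.trans (le_max_left _ _), h2.trans (le_max_right _ _), ?_⟩, v, ?_, rfl⟩
    · rfl
    · refine Language.mem_mul.2 ⟨v, ⟨v, [], 0, h3.trans (le_max_left _ _), by simp, ?_⟩, [], rfl,
        by simp⟩
      simp [BddReg_746.pw]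
  have hXX : ∀ X : List A, X ∈ D.XX ↔ P4_933.XX Wo D.z X := by
    intro X
    constructor
    · rintro ⟨h1, h2, h3⟩
      exact ⟨h2, h1, fun t h4 h5 => h3 t h5 h4⟩
    · rintro ⟨h1, h2, h3⟩
      exact ⟨h2, h1, fun t h4 h5 => h3 t h5 h4⟩
  let Sc : SemTop_727.Sch A (S → ZMod 2) := ⟨D.XX, D.T, D.L1, D.L2⟩
  refine SemTop_727.top (k := 1) act hadd hone hmul hfaith f D.nu Sc (fun v X => rfl) ?_ ?_ ?_ ?_
    ?_ ?_ s
  · -- prefix code
    refine ⟨?_, ?_⟩
    · rintro ⟨h1, -, -⟩
      have h2 : 3 * c K + b ^ m + n + 1 ≤ 0 := h1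
      omega
    · rintro X ⟨h1, h2, h3⟩ Y ⟨h4, h5, h6⟩ hXY
      obtain ⟨E, rfl⟩ := hXY
      by_contra hne
      have hE : E ≠ [] := by
        rintro rfl
        exact hne (by simp)
      have hl : 0 < E.length := List.length_pos_iff.2 hE
      have := h6 X.length h1 (by rw [List.length_append]; omega)
      rw [List.take_left] at this
      exact this h2
  · -- fibres
    intro x y
    have hreg : Language.IsRegular ({X | D.T x X = y} : Language A) := by
      refine P4_933.regular_of_class' f (c K + b ^ m) (M * b ^ m) (by positivity)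
        (fun X => D.T x X = y) ?_
      intro u u' hu hu' htake hmod hprod
      have hdl : (u.drop (c K)).length = u.length - c K := List.length_drop
      have hdl' : (u'.drop (c K)).length = u'.length - c K := List.length_drop
      have e1 : u.take (c K) = u'.take (c K) := by
        have := congrArg (List.take (c K)) htake
        rwa [List.take_take, List.take_take, min_eq_left (by omega)] at this
      have e2 : (u.drop (c K)).take (b ^ m) = (u'.drop (c K)).take (b ^ m) := by
        have := congrArg (List.drop (c K)) htake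
        rwa [List.drop_take, List.drop_take, Nat.add_sub_cancel_left] at this
      have e3 : (((u.drop (c K)).drop (b ^ m)).map f).prod =
          (((u'.drop (c K)).drop (b ^ m)).map f).prod := by
        rw [List.drop_drop, List.drop_drop]
        exact hprod
      have e4 : (u.drop (c K)).length % (M * b ^ m) = (u'.drop (c K)).length % (M * b ^ m) := by
        rw [hdl, hdl']
        have h1 : u.length ≡ u'.length [MOD (M * b ^ m)] := hmod
        have h2 : (u.length - c K) + c K ≡ (u'.length - c K) + c K [MOD (M * b ^ m)] := by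
          rwa [Nat.sub_add_cancel (by omega), Nat.sub_add_cancel (by omega)]
        exact Nat.ModEq.add_right_cancel' _ h2
      have e5 : nu1 (u.drop (c K)) = nu1 (u'.drop (c K)) := (g4 _ _ e2 e3 e4).2
      have e6 : ((u.drop (c K)).map f).prod = ((u'.drop (c K)).map f).prod := by
        rw [← List.take_append_drop (b ^ m) (u.drop (c K)),
          ← List.take_append_drop (b ^ m) (u'.drop (c K)), List.map_append, List.map_append,
          List.prod_append, List.prod_append, e3, e2]
      have e7 : (u.map f).prod = (u'.map f).prod := by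
        rw [← List.take_append_drop (c K) u, ← List.take_append_drop (c K) u', List.map_append,
          List.map_append, List.prod_append, List.prod_append, e6, e1]
      have e8 : D.T x u = D.T x u' := by
        show act x ((u.map f).prod) + (act (nu2 (u.take (c K)) 1) ((u.drop (c K)).map f).prod +
            nu1 (u.drop (c K))) =
          act x ((u'.map f).prod) + (act (nu2 (u'.take (c K)) 1) ((u'.drop (c K)).map f).prod +
            nu1 (u'.drop (c K)))
        rw [e7, e6, e5, e1]
      simp only [e8]
    refine (P4_933.hl_XX (z := D.z) hLW.app hlen free hreg).congr fun w => ?_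
    constructor
    · rintro ⟨h1, h2⟩
      exact ⟨(hXX w).1 h1, h2⟩
    · rintro ⟨h1, h2⟩
      exact ⟨(hXX w).2 h1, h2⟩
  · -- L1 finite
    intro x
    refine (List.finite_length_le A (c K + b ^ m)).subset ?_
    rintro P ⟨h1, h2⟩
    have h3 := g1 _ _ h2
    rw [List.length_drop] at h3
    have h4 : c K ≤ P.length := h1
    have h5 : P.length - c K < b ^ m := h3
    show P.length ≤ c K + b ^ m
    omega
  · -- L2 finite
    intro x
    refine (List.finite_length_le A (c K)).subset ?_
    rintro P ⟨k, hk, h1, h2⟩
    show P.length ≤ c K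
    have := hck k hk
    have h1' : P.length = c k := h1
    omega
  · -- completeness
    intro X1 h1 X2 h2 x
    exact Fin_528.Dat.compl2 hOk h1 h2 x
  · -- tails
    intro s'
    have hreg : Language.IsRegular ({X | (X.map f).prod = s'} : Language A) := by
      refine P4_933.regular_of_class' f 0 1 one_pos (fun X => (X.map f).prod = s') ?_
      intro u u' _ _ _ _ h
      simp only [List.drop_zero] at h
      rw [h]
    refine HL.mono (show 1 ≤ 1 + 2 by omega)
      ((P4_933.hl_NB (z := D.z) hLW.app hlen free hreg).congr fun w => ?_)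
    constructor
    · rintro ⟨h1, h2⟩
      refine ⟨(P4_933.NB_iff Wo D.z w).2 fun P hP hX => h1 P ((hXX P).2 hX) hP, h2⟩
    · rintro ⟨h1, h2⟩
      exact ⟨fun X hX hp => (P4_933.NB_iff Wo D.z w).1 h1 X hp ((hXX X).1 hX), h2⟩

end Crest.Agent.R320.Fin_509
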