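import Crest.Agent.R320.Fin_211
import Crest.Agent.R320.G1_76
import Crest.Agent.R320.Sp_21
import Crest.Agent.R320.Univ_188
import Crest.Agent.R320.Two_621
import Crest.Agent.R320.Hk2_851

/-!
# Row 320: the last join (helper513): gadget 1 with its ruler, then the row
-/

set_option autoImplicit false

namespace Crest.Agent.R320.Fin_513

open Crest.Agent.R320.Hk_851 Crest.RegLang
open Crest.Agent.R320

theorem gad {α S V : Type} [Monoid S] [Finite S] [AddCommGroup V] [Finite V]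
    (act : V → S → V) (f : α → S) : Fin_211.Gad act f := by
  classical
  obtain ⟨m, r, hg⟩ := G1_76.g1 S V act
  refine ⟨r + m, fun K => ?_⟩
  obtain ⟨Ms, M, hcard, hMs, hM, hg⟩ := hg (2 ^ (K + 1))
  obtain ⟨b, hb⟩ : ∃ b, b = M * (2 ^ (K + 4) + 8) + 1 := ⟨_, rfl⟩
  have hpw : 0 < 2 ^ (K + 4) := by positivity
  have hMp : M ≤ M * 2 ^ (K + 4) := Nat.le_mul_of_pos_right M hpw
  have hbe : b = M * 2 ^ (K + 4) + 8 * M + 1 := by rw [hb]; ring
  have hpw16 : 16 ≤ 2 ^ (K + 4) := by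
    calc 16 = 2 ^ 4 := by norm_num
      _ ≤ 2 ^ (K + 4) := Nat.pow_le_pow_right (by norm_num) (by omega)
  have hM16 : 16 ≤ M * 2 ^ (K + 4) := by
    calc 16 ≤ 2 ^ (K + 4) := hpw16
      _ ≤ M * 2 ^ (K + 4) := Nat.le_mul_of_pos_left _ hM
  have hb1 : 4 * M + 4 < b := by omega
  have hcop : Nat.Coprime b M := by
    rw [hb]
    have h0 : Nat.Coprime 1 M := Nat.coprime_one_left M
    first
      | exact (Nat.coprime_mul_left_add_left _ _ _).2 h0
      | exact (Nat.coprime_mul_right_add_left _ _ _).2 h0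
      | simpa using h0
  have hb2 : (2 ^ (K + 4) + 2) * M < b := by
    have : (2 ^ (K + 4) + 2) * M = M * 2 ^ (K + 4) + 2 * M := by ring
    omega
  obtain ⟨lam, rho, nu, hL, hS, hC, hfs⟩ := hg b hb1 hcop α f
  obtain ⟨c, hinc, hsep, hcount⟩ := Sp_21.spoil K (b ^ m) m M b Ms hM
    (fun k hk => ⟨(hMs k hk).2.2, (hMs k hk).1.le⟩) hcop hb2
  have hbpos : 0 < b := by omega
  refine ⟨b ^ m, b ^ m, b ^ m, M * b ^ m, Sp_21.Bad m M b Ms, c, lam, rho, nu,
    ?_, ?_, ?_, ?_, ?_, ?_, ?_, ?_⟩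
  · intro P Q v r h1 h2
    exact hS P Q v r h1 h2
  · intro P v h
    exact (hL P v h).le
  · intro Y _ hB v
    have hB1 : ∀ k ∈ Ms, ¬ k ∣ Y.length := fun k hk hd => hB (Or.inl ⟨k, hk, hd⟩)
    have hB2 : ∀ j < m, M ≤ Y.length / b ^ j % b ∧ Y.length / b ^ j % b + M + 1 ≤ b := by
      intro j hj
      by_contra hn
      exact hB (Or.inr ⟨j, hj, hn⟩)
    obtain ⟨P, Q, h1, h2, h3⟩ := hC Y hB1 hB2 v
    exact ⟨P, Q, h1.symm, h2, h3⟩
  · positivity
  · intro Y Y' h1 h2 h3 h4 h5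
    exact (hfs Y Y' h1 h2 h3 h4 h5).2
  · intro i j hij _
    have := hinc i j hij
    omega
  · intro i i' j j' _ _ _ _ hi hj h1 h2
    by_contra hne
    rcases hsep i i' j j' (Ne.symm hi) (Ne.symm hj) (fun e => hne (Prod.mk.inj e).1) with h | h <;>
      omega
  · intro T hT I hI
    choose! g hg1 hg2 using fun k (hk : k ∈ I) => (hI k hk).2
    have hcard2 : (I.image (fun k => (k, g k))).card = I.card := by
      refine Finset.card_image_of_injective _ ?_
      intro x y hxy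
      exact (Prod.mk.inj hxy).1
    have := hcount T hT (I.image (fun k => (k, g k))) (by
      intro p hp
      obtain ⟨k, hk, rfl⟩ := Finset.mem_image.1 hp
      exact ⟨(hI k hk).1, hg1 k hk, (hg2 k hk).1.symm, (hg2 k hk).2⟩)
    omega

theorem fin {α S : Type} [Finite α] [Monoid S] [Finite S] (f : α → S) (s : S) :
    HL 3 ({w | (w.map f).prod = s} : Language α) :=
  Fin_211.fin (V := Two_621.Tok S) Two_621.act (fun a b t => Two_621.act_add a b t)
    (fun v => Two_621.act_one v) (fun v a b => (Two_621.act_mul v a b).symm)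
    (fun _ _ h => Two_621.act_faithful h) f (gad Two_621.act f) s

theorem row0 (α : Type) [Finite α] (L : Language α) (hL : L.IsRegular) :
    ∃ e : GRegExp α, e.height ≤ 3 ∧ e.lang = L :=
  of_monoid (fun S _ _ f s => fin f s) L hL

theorem row (α : Type*) [Finite α] (L : Language α) (hL : L.IsRegular) :
    ∃ e : GRegExp α, e.height ≤ 3 ∧ e.lang = L :=
  Univ_188.of_type0 3 (fun α _ L hL => row0 α L hL) α L hL

end Crest.Agent.R320.Fin_513
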