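import Crest.Agent.R320.InstH_516
import Crest.Agent.R320.Top5_163
import Crest.Agent.R320.GridG_19
import Crest.Agent.R320.GridRuler_257
import Crest.Agent.R320.ExactR_237
import Crest.Agent.R320.Univ_234
import Crest.Agent.R320.Two_621

/-!
# Row 320: constants and final assembly (helper516)
-/

set_option autoImplicit false

namespace Crest.Agent.R320.Fin_516

open Finset Crest.Agent.R320.Hk_851 Crest.Agent.R320.Inst5_516

theorem exact2 (A S V : Type) [Monoid S] [Finite S] [Finite V] [AddCommGroup V] (f : A → S)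
    (act : V → S → V) (R : ℕ) :
    ∃ K : ℕ, ∀ (c : ℕ → ℕ) (p0 : ℕ), (∀ i j, i < j → j < K → c i < c j) →
      (∀ k < K, c k < p0) →
      ∃ (lam2 rho2 : ℕ → List A → Option V) (nu2 : List A → V),
        (∀ k, k < K → ∀ P Q v y, P.length = c k → P.length + Q.length = p0 →
          lam2 k P = some v → rho2 k Q = some y →
          act v ((P ++ Q).map f).prod + nu2 (P ++ Q) = y) ∧
        (∀ X : List A, X.length = p0 → ∀ v, ∀ B : Finset ℕ, B.card ≤ R →
          ∃ k, k < K ∧ k ∉ B ∧ lam2 k (X.take (c k)) = some v ∧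
            ∃ y, rho2 k (X.drop (c k)) = some y) := by
  classical
  haveI := Fintype.ofFinite S
  haveI := Fintype.ofFinite V
  obtain ⟨K, hK⟩ := ExactR_237.exact_gadget A S V f act (R + 1)
  refine ⟨K, fun c p0 hc hcp => ?_⟩
  obtain ⟨lam, rho, nu, h1, h2⟩ := hK c hc
  refine ⟨lam, fun k Q => rho k Q 1, fun X => nu X 1, ?_, ?_⟩
  · intro k hk P Q v y hP _ hl hr
    have := h1 k hk P Q 1 v y hP hl hr
    rw [mul_one] at this
    exact this.symm
  · intro X hX v B hB
    obtain ⟨I, hI, hI2⟩ := h2 X 1 v (fun k hk => by rw [hX]; exact (hcp k hk).le)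
    obtain ⟨k, hkI, hkB⟩ : ∃ k ∈ I, k ∉ B := by
      by_contra hno
      push Not at hno
      have := card_le_card (show I ⊆ B from hno)
      omega
    obtain ⟨a1, a2, a3⟩ := hI2 k hkI
    exact ⟨k, a1, hkB, a2, Option.isSome_iff_exists.1 a3⟩

open Classical in
theorem grid2 (S V : Type) [Monoid S] [Finite S] [AddCommGroup V] [Finite V]
    (act : V → S → V) :
    ∃ C0 : ℕ, ∀ K : ℕ, ∃ (N1 L P La : ℕ) (c : ℕ → ℕ) (BadT : ℕ → Prop), 0 < P ∧
      (∀ i j, i < j → c i < c j) ∧ (∀ k < K, c k ≤ L) ∧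
      (∀ T, L ≤ T → ((range K ×ˢ range K).filter
        (fun ab => ab.1 ≠ ab.2 ∧ BadT (T + c ab.1 - c ab.2))).card ≤ C0) ∧
      (∀ x y : ℕ, ((range K ×ˢ range K).filter
        (fun ab => ab.1 ≠ ab.2 ∧ x + c ab.1 < y + c ab.2 + N1 ∧
          y + c ab.2 < x + c ab.1 + N1)).card ≤ C0) ∧
      ∀ (A : Type) (φ : List A → S), (∀ u v, φ (u ++ v) = φ u * φ v) →
        ∃ (lam rho : List A → Option V) (nu : List A → V),
          (∀ P v, lam P = some v → P.length < N1) ∧
          (∀ P v Q b, lam P = some v → rho Q = some b →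
            act v (φ (P ++ Q)) + nu (P ++ Q) = b) ∧
          (∀ u : List A, N1 ≤ u.length → ¬ BadT u.length → ∀ v, ∃ P Q, u = P ++ Q ∧
            lam P = some v ∧ ∃ b, rho Q = some b) ∧
          (∀ Y Y' : List A, La ≤ Y.length → La ≤ Y'.length → Y.take La = Y'.take La →
            Y.length ≡ Y'.length [MOD P] → φ Y = φ Y' → nu Y = nu Y') := by
  obtain ⟨m, r, hg⟩ := GridG_19.grid S V act
  refine ⟨r + m + 1, fun K => ?_⟩
  obtain ⟨Ms, hcard, hp, hG⟩ := hg (4 ^ K + 2)
  set M : ℕ := ∏ q ∈ Ms, q with hMdef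
  have hM : 0 < M := Finset.prod_pos fun q hq => (hp q hq).1.pos
  set e : ℕ := 16 * 4 ^ K * M with he
  have hΓ : 16 * 4 ^ K * M ≤ 2 ^ e := by
    rw [← he]; exact Nat.lt_two_pow_self.le
  let G : ℕ → ℕ := fun j => (2 ^ e) ^ j
  have hGpos : ∀ k, 0 < G k := fun k => pow_pos (pow_pos (by norm_num) _) _
  have hGdvd : ∀ a b, a ≤ b → G a ∣ G b := fun a b hab => pow_dvd_pow _ hab
  have hcop : ∀ k, Nat.Coprime M (G k) := by
    intro k
    refine Nat.Coprime.pow_right _ (Nat.Coprime.pow_right _ ?_)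
    refine Nat.Coprime.prod_left fun q hq => ?_
    have h1 := hp q hq
    refine (Nat.coprime_primes h1.1 Nat.prime_two).2 ?_
    have : 0 < 4 ^ K := pow_pos (by norm_num) _
    omega
  have hgad := hG G 0 hGpos hGdvd hcop
  let Am : ℕ → ℕ := GridG_19.Am G M 0
  let N1 : ℕ := 2 * Am m + M + 1
  obtain ⟨U, hU1, hU2, hU3, hU4⟩ := GridRuler_257.ruler K m Ms M G Am N1 hM
    (fun k hk => ⟨Finset.dvd_prod_of_mem (fun q => q) hk, by have := (hp k hk).2; omega⟩)
    (hGpos 0) (fun j => hGdvd _ _ (Nat.le_succ j))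
    (fun j => by
      show 16 * 4 ^ K * (M * (2 ^ e) ^ j) ≤ (2 ^ e) ^ (j + 1)
      calc 16 * 4 ^ K * (M * (2 ^ e) ^ j) = (16 * 4 ^ K * M) * (2 ^ e) ^ j := by ring
        _ ≤ 2 ^ e * (2 ^ e) ^ j := Nat.mul_le_mul_right _ hΓ
        _ = (2 ^ e) ^ (j + 1) := by ring) (hcop m)
  have hU0 : 0 < U := by omega
  let c : ℕ → ℕ := fun k => U * 4 ^ k
  have hcmono : ∀ i j, i < j → c i < c j := fun i j hij =>
    Nat.mul_lt_mul_of_pos_left (Nat.pow_lt_pow_right (by norm_num) hij) hU0
  have hcL : ∀ k < K, c k ≤ U * 4 ^ K := fun k hk => (hcmono k K hk).le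
  refine ⟨N1, U * 4 ^ K, M * G m, GridG_19.Ac G M 0 m, c,
    fun T => GridRuler_257.BadZ Ms m M G Am (T : ℤ), Nat.mul_pos hM (hGpos m), hcmono, hcL,
    ?_, ?_, ?_⟩
  · intro T hT
    refine (hU4 (T : ℤ) _ ?_).trans (by omega)
    intro ab hab
    obtain ⟨h1, h2, h3⟩ := mem_filter.1 hab
    obtain ⟨h4, h5⟩ := mem_product.1 h1
    refine ⟨mem_range.1 h4, mem_range.1 h5, h2, ?_⟩
    have h6 := hcL ab.2 (mem_range.1 h5)
    have h7 : ((T + c ab.1 - c ab.2 : ℕ) : ℤ) =
        (T : ℤ) + (U * 4 ^ ab.1 : ℕ) - (U * 4 ^ ab.2 : ℕ) := by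
      rw [Nat.cast_sub (by omega), Nat.cast_add]
    rw [← h7]
    exact h3
  · intro x y
    refine le_trans (card_le_one.2 ?_) (by omega)
    rintro ⟨a, b⟩ hab ⟨a', b'⟩ hab'
    obtain ⟨-, h2, h3, h4⟩ := mem_filter.1 hab
    obtain ⟨-, h2', h3', h4'⟩ := mem_filter.1 hab'
    rcases hU3 a b a' b' h2 with ⟨h5, h6⟩ | h5
    · rw [h5, h6]
    · exfalso
      simp only [c] at h3 h4 h3' h4'
      rw [lt_abs] at h5
      generalize U * 4 ^ a = xa at *
      generalize U * 4 ^ b = xb at *
      generalize U * 4 ^ a' = xa' at *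
      generalize U * 4 ^ b' = xb' at *
      omega
  · intro A φ hφ
    obtain ⟨lam, rho, nu, h1, h2, h3, h4, h5⟩ := hgad A φ hφ
    refine ⟨lam, rho, nu, ?_, ?_, ?_, h5⟩
    · intro P v hP
      have := (h2 P v hP).2
      show P.length < 2 * GridG_19.Am G M 0 m + M + 1
      omega
    · intro P v Q b hP hQ
      exact (h1 P Q v b hP hQ).symm
    · intro u hu hB v
      have hu' : 2 * GridG_19.Am G M 0 m + M + 1 ≤ u.length := hu
      obtain ⟨c1, c2⟩ := GridRuler_257.clear_of_not_bad (T := u.length) hGpos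
        (fun j _ hj => by
          have := GridG_19.Am_mono G M 0 hj
          show GridG_19.Am G M 0 j ≤ _
          omega) hB
      obtain ⟨P, Q, e1, e2, e3⟩ := h4 u (by omega) (by omega) c1 (by
        rintro ⟨k, hk, hk'⟩
        have := c2 (k + 1) (by omega) (by omega)
        simp only [Nat.add_sub_cancel] at this
        simp only [Am] at this
        omega) v
      exact ⟨P, Q, e1.symm, e2, Option.isSome_iff_exists.1 e3⟩

theorem main (A : Type) [Finite A] (S : Type) [Monoid S] [Finite S] (f : A → S) (s : S) :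
    HL 3 ({w | (w.map f).prod = s} : Language A) := by
  classical
  have hφ : ∀ u v : List A, ((u ++ v).map f).prod = (u.map f).prod * (v.map f).prod := by
    intro u v; simp
  obtain ⟨C0, hgrid⟩ := grid2 S (Two_621.Tok S) Two_621.act
  obtain ⟨K, hK⟩ := exact2 A S (Two_621.Tok S) f Two_621.act (4 * C0)
  obtain ⟨N1, L, P, La, c, BadT, hP, hcm, hcL, ruB, ruE, hgad⟩ := hgrid K
  obtain ⟨lam, rho, nu, lamlen, snd, cpl, hnu⟩ := hgad A (fun w => (w.map f).prod) hφ
  obtain ⟨lam2, rho2, nu2, snd2, cpl2⟩ := hK c (L + 1) (fun i j h _ => hcm i j h)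
    (fun k hk => by have := hcL k hk; omega)
  obtain ⟨n, cc0, PP, SS, hn, hPP, hloc, hgap, -, -, hfew⟩ :=
    WallU_228.walls_full (α := A) (2 * (L + N1))
  let D : GD A S (Two_621.Tok S) :=
    { φ := fun w => (w.map f).prod
      act := Two_621.act
      Wo := WallU_228.Wo n SS
      n := n
      W := 2 * (L + N1)
      N1 := N1
      lam := lam
      rho := rho
      nu := nu
      BadT := BadT
      K := K
      c := c
      p0 := L + 1
      z := L + 1 + N1 + n + 2 * L + La + 1
      L := L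
      nu2 := nu2
      lam2 := lam2
      rho2 := rho2
      R := 4 * C0
      C0 := C0 }
  have hOk : Ok D :=
    { hφ := hφ
      amul := fun v s s' => Two_621.act_mul v s s'
      aadd := fun v w s => Two_621.act_add v w s
      loc := hloc
      gap := by
        intro X hX t ht hwt
        by_contra hlt
        have hlt' : ¬ (t + 2 * (L + N1) < X.length) := hlt
        refine hgap X (X.length - t) hX (by omega) (by omega) ?_
        rw [show X.length - (X.length - t) = t by omega]
        exact hwt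
      lamlen := lamlen
      snd := snd
      cpl := cpl
      cp := fun k hk => by
        have := hcL k hk
        show c k < L + 1
        omega
      cL := hcL
      snd2 := snd2
      cpl2 := cpl2
      hz := by
        show L + 1 + N1 + n + 2 * L < L + 1 + N1 + n + 2 * L + La + 1
        omega
      hW := le_rfl
      ruB := by
        intro T hT
        convert ruB T hT
      ruE := by
        intro x y
        convert ruE x y
      hR := le_rfl }
  have hfib : ∀ v v', HL 1 ({X | X ∈ D.XX ∧ D.T v X = v'} : Language A) := by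
    intro v v'
    have key : ∀ X X' : List A, D.z ≤ X.length → D.z ≤ X'.length → X.take D.z = X'.take D.z →
        ((X.drop D.z).map f).prod = ((X'.drop D.z).map f).prod →
        X.length % P = X'.length % P → D.T v X = D.T v X' := by
      intro X X' hX hX' h1 h2 h3
      have hzz : D.z = L + 1 + N1 + n + 2 * L + La + 1 := rfl
      have hp0 : D.p0 = L + 1 := rfl
      have e1 : ∀ Z : List A, Z.take D.p0 = (Z.take D.z).take D.p0 := by
        intro Z; rw [List.take_take, min_eq_left (by omega)]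
      have e2 : ∀ Z : List A, D.z ≤ Z.length →
          Z.drop D.p0 = (Z.take D.z).drop D.p0 ++ Z.drop D.z := by
        intro Z hZ
        conv_lhs => rw [← List.take_append_drop D.z Z]
        rw [List.drop_append_of_le_length]
        rw [List.length_take]; omega
      have e3 : X.take D.p0 = X'.take D.p0 := by rw [e1 X, e1 X', h1]
      have e4 : ((X.drop D.p0).map f).prod = ((X'.drop D.p0).map f).prod := by
        rw [e2 X hX, e2 X' hX', hφ, hφ, h1, h2]
      have e5 : nu (X.drop D.p0) = nu (X'.drop D.p0) := by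
        refine hnu _ _ (by rw [List.length_drop]; omega) (by rw [List.length_drop]; omega) ?_ ?_ e4
        · rw [e2 X hX, e2 X' hX', h1, List.take_append_of_le_length,
            List.take_append_of_le_length]
          · rw [List.length_drop, List.length_take]; omega
          · rw [List.length_drop, List.length_take]; omega
        · rw [List.length_drop, List.length_drop]
          refine Nat.ModEq.add_right_cancel' D.p0 ?_
          rw [Nat.sub_add_cancel (by omega), Nat.sub_add_cancel (by omega)]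
          exact h3
      show Two_621.act (Two_621.act v ((X.take D.p0).map f).prod + nu2 (X.take D.p0))
          ((X.drop D.p0).map f).prod + nu (X.drop D.p0) =
        Two_621.act (Two_621.act v ((X'.take D.p0).map f).prod + nu2 (X'.take D.p0))
          ((X'.drop D.p0).map f).prod + nu (X'.drop D.p0)
      rw [e3, e4, e5]
    refine (P4_167.HL1_XX' hfew D.z P hP f (fun u t r => ∃ X : List A, D.z ≤ X.length ∧
      X.take D.z = u ∧ ((X.drop D.z).map f).prod = t ∧ X.length % P = r ∧
        D.T v X = v')).congr fun X => ?_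
    constructor
    · rintro ⟨h1, h2⟩
      exact ⟨h1, X, h1.1, rfl, rfl, rfl, h2⟩
    · rintro ⟨h1, X', h2, h3, h4, h5, h6⟩
      refine ⟨h1, ?_⟩
      show D.T v X = v'
      rw [← h6]
      exact (key X' X h2 h1.1 h3 h4 h5).symm
  have hz0 : D.p0 ≤ D.z := by
    show L + 1 ≤ L + 1 + N1 + n + 2 * L + La + 1
    omega
  have hz1 : D.p0 + D.N1 < D.z := by
    show L + 1 + N1 < L + 1 + N1 + n + 2 * L + La + 1
    omega
  refine Top5_163.top (V := Two_621.Tok S) (fun w : List A => (w.map f).prod) (by simp) hφ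
    Two_621.act (fun v s s' => Two_621.act_mul v s s') (fun v w s => Two_621.act_add v w s)
    (fun s s' h => Two_621.act_faithful h) D.XX ?_ code D.T D.noise
    (fun X hX v => hT hOk X v (hz0.trans hX.1)) D.LP1 D.LP2 D.R1 D.R2 ?_ ?_ s1 s2 (cc hOk)
    hfib ?_ (fun v => hL1 hOk 1 v) (fun v => hL2 hOk 1 v) (fun b => hQ1 hfib hOk b)
    (fun b => hQ2 hfib hOk b) s
  · intro h
    have := h.1
    simp only [List.length_nil, Nat.le_zero] at this
    omega
  · intro Q b hQ hne
    subst hne
    obtain ⟨⟨P', v, hP'⟩, h2⟩ := (R1_iff _ _).1 hQ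
    have h3 := (h2 P' v hP').1.1
    have h4 := hOk.lamlen _ _ hP'.2
    rw [List.append_nil] at h3
    rw [List.length_drop] at h4
    omega
  · intro Q b hQ hne
    subst hne
    obtain ⟨⟨P', v, hP', hN⟩, h2⟩ := (R2_iff _ _).1 hQ
    obtain ⟨Q1, X2, e, hne, -⟩ := h2 P' v hP' hN
    exact hne (List.append_eq_nil_iff.1 e.symm).1
  · intro s
    refine (P4_167.HL1_rest hfew D.z f (fun t => t = s)).congr fun w => ?_
    exact Iff.rfl

end Crest.Agent.R320.Fin_516
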