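import Mathlib
import Crest.Agent.R320.Names_570
import Crest.Agent.R320.RandF_808

set_option autoImplicit false
set_option maxHeartbeats 1000000

namespace Crest.Agent.R320.G1_168

section seg

variable {A : Type*}

def seg (X : List A) (x y : ℕ) : List A := (X.drop x).take (y - x)

theorem seg_left (P Q : List A) {x y : ℕ} (h : y ≤ P.length) : seg (P ++ Q) x y = seg P x y := by
  unfold seg
  rcases le_total x y with hxy | hxy
  · rw [List.drop_append_of_le_length (by omega),
      List.take_append_of_le_length (by rw [List.length_drop]; omega)]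
  · have : y - x = 0 := by omega
    simp [this]

theorem seg_right (P Q : List A) (x y : ℕ) :
    seg (P ++ Q) (P.length + x) (P.length + y) = seg Q x y := by
  unfold seg
  have h1 : (P ++ Q).drop (P.length + x) = Q.drop x := by simp [List.drop_append]
  have h2 : P.length + y - (P.length + x) = y - x := by omega
  rw [h1, h2]

theorem split3 (X : List A) {x y : ℕ} (h : x ≤ y) : X.take x ++ seg X x y ++ X.drop y = X := by
  unfold seg
  have h1 : X.drop y = (X.drop x).drop (y - x) := by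
    rw [List.drop_drop]; congr 1; omega
  rw [h1, List.append_assoc, List.take_append_drop, List.take_append_drop]

end seg

theorem modA {b o o' i j : ℕ} (hj : j ≤ i) (hd : b ^ i ∣ o') : (o + o') % b ^ j = o % b ^ j := by
  obtain ⟨k, rfl⟩ := (pow_dvd_pow b hj).trans hd
  simp [Nat.add_mul_mod_self_left]

theorem modB {b o o' i j : ℕ} (hb : 0 < b) (h1 : 2 * (o / b ^ i) < b)
    (hd : b ^ i ∣ o') (h2 : 2 * (o' / b ^ i % b) < b) (hj : i < j) :
    (o + o') % b ^ j = o + o' % b ^ j := by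
  obtain ⟨t, rfl⟩ : ∃ t, j = i + 1 + t := ⟨j - i - 1, by omega⟩
  obtain ⟨k, rfl⟩ := hd
  have hbi : 0 < b ^ i := pow_pos hb i
  have hk : b ^ i * k / b ^ i = k := Nat.mul_div_cancel_left k hbi
  rw [hk] at h2
  have hpow : b ^ (i + 1 + t) = b ^ i * (b * b ^ t) := by rw [pow_add, pow_succ]; ring
  have hm1 : (b ^ i * k) % b ^ (i + 1 + t) = b ^ i * (k % b + b * (k / b % b ^ t)) := by
    rw [hpow, Nat.mul_mod_mul_left, Nat.mod_mul]
  have hq : k / b % b ^ t < b ^ t := Nat.mod_lt _ (pow_pos hb t)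
  have hlt : o + (b ^ i * k) % b ^ (i + 1 + t) < b ^ (i + 1 + t) := by
    rw [hm1, hpow]
    have e1 : o < b ^ i * (o / b ^ i + 1) := Nat.lt_mul_div_succ o hbi
    have e2 : o / b ^ i + 1 + (k % b + b * (k / b % b ^ t)) ≤ b * b ^ t := by
      have e3 : o / b ^ i + 1 + k % b ≤ b := by omega
      have e4 : b * (k / b % b ^ t) + b ≤ b * b ^ t := by
        have := Nat.mul_le_mul_left b (Nat.succ_le_of_lt hq)
        rw [Nat.mul_succ] at this
        exact this
      omega
    have e5 := Nat.mul_le_mul_left (b ^ i) e2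
    rw [Nat.mul_add] at e5
    omega
  rw [← Nat.add_mod_mod, Nat.mod_eq_of_lt hlt]

section data

variable {A S V W : Type} [Monoid S] [AddCommGroup W]

def ph (f : A → S) (X : List A) : S := (X.map f).prod

theorem ph_append (f : A → S) (P Q : List A) : ph f (P ++ Q) = ph f P * ph f Q := by
  simp [ph]

/-- digit segment -/
def dz (f : A → S) (b : ℕ) (X : List A) (j : ℕ) : S :=
  ph f (seg X (X.length % b ^ j) (X.length % b ^ (j + 1)))

def wL (f : A → S) (e : ℕ → S → W) (b i : ℕ) (P : List A) : W :=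
  ∑ j ∈ Finset.range i, e j (dz f b P j)

def wR (f : A → S) (e : ℕ → S → W) (b i m : ℕ) (Q : List A) : W :=
  ∑ j ∈ Finset.Ico (i + 1) m, e j (dz f b Q j)

/-- left conditions at level `i` (without the name) -/
def CL (b i o : ℕ) : Prop := o < b ^ (i + 1) ∧ 2 * (o / b ^ i) < b

def CR (b i o' : ℕ) : Prop := b ^ i ∣ o' ∧ 2 * (o' / b ^ i % b) < b

theorem dz_left {f : A → S} {b i j : ℕ} {P Q : List A} (hR : CR b i Q.length) (hj : j < i) :
    dz f b (P ++ Q) j = dz f b P j := by
  unfold dz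
  rw [List.length_append, modA (by omega : j ≤ i) hR.1, modA (by omega : j + 1 ≤ i) hR.1,
    seg_left P Q (Nat.mod_le _ _)]

theorem dz_right {f : A → S} {b i j : ℕ} {P Q : List A} (hb : 0 < b) (hL : CL b i P.length)
    (hR : CR b i Q.length) (hj : i < j) :
    dz f b (P ++ Q) j = dz f b Q j := by
  unfold dz
  rw [List.length_append, modB hb hL.2 hR.1 hR.2 hj, modB hb hL.2 hR.1 hR.2 (by omega : i < j + 1),
    seg_right P Q]

theorem wsum {f : A → S} {e : ℕ → S → W} {b i m : ℕ} {P Q : List A} (hb : 0 < b) (hi : i < m)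
    (hL : CL b i P.length) (hR : CR b i Q.length) :
    wL f e b m (P ++ Q) = wL f e b i P + e i (dz f b (P ++ Q) i) + wR f e b i m Q := by
  unfold wL wR
  rw [Finset.range_eq_Ico, ← Finset.sum_Ico_consecutive _ (Nat.zero_le i) hi.le,
    Finset.sum_eq_sum_Ico_succ_bot hi, ← add_assoc]
  congr 1
  · congr 1
    rw [Finset.range_eq_Ico]
    refine Finset.sum_congr rfl fun j hj => ?_
    rw [dz_left hR (Finset.mem_Ico.1 hj).2]
  · refine Finset.sum_congr rfl fun j hj => ?_
    rw [dz_right hb hL hR (by have := (Finset.mem_Ico.1 hj).1; omega)]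

theorem phsplit {f : A → S} {b i : ℕ} {P Q : List A} (hb : 0 < b)
    (hL : CL b i P.length) (hR : CR b i Q.length) :
    ph f (P ++ Q) = ph f (P.take (P.length % b ^ i)) * dz f b (P ++ Q) i *
      ph f (Q.drop (Q.length % b ^ (i + 1))) := by
  have h1 : (P ++ Q).length % b ^ i = P.length % b ^ i := by
    rw [List.length_append, modA le_rfl hR.1]
  have h2 : (P ++ Q).length % b ^ (i + 1) = P.length + Q.length % b ^ (i + 1) := by
    rw [List.length_append, modB hb hL.2 hR.1 hR.2 (by omega)]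
  have h3 := split3 (P ++ Q) (x := P.length % b ^ i) (y := P.length + Q.length % b ^ (i + 1))
    ((Nat.mod_le _ _).trans (Nat.le_add_right _ _))
  have h4 : (P ++ Q).take (P.length % b ^ i) = P.take (P.length % b ^ i) :=
    List.take_append_of_le_length (Nat.mod_le _ _)
  have h5 : (P ++ Q).drop (P.length + Q.length % b ^ (i + 1)) = Q.drop (Q.length % b ^ (i + 1)) := by
    simp [List.drop_append]
  unfold dz
  rw [h1, h2, ← h4, ← h5, ← ph_append, ← ph_append, h3]

end data

section clause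

variable {A S W : Type} [Monoid S] [AddCommGroup W]

theorem seg_of_take {X X' : List A} {K x y : ℕ} (h : X.take K = X'.take K) (hy : y ≤ K) :
    seg X x y = seg X' x y := by
  have e : ∀ Z : List A, (Z.drop x).take (y - x) = ((Z.take K).drop x).take (y - x) := by
    intro Z
    rw [List.drop_take, List.take_take]
    congr 1
    omega
  unfold seg
  rw [e X, e X', h]

theorem ph_drop_of {f : A → S} {X X' : List A} {K x : ℕ} (h : X.take K = X'.take K)
    (h2 : ph f (X.drop K) = ph f (X'.drop K)) (hx : x ≤ K) (hK : K ≤ X.length)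
    (hK' : K ≤ X'.length) : ph f (X.drop x) = ph f (X'.drop x) := by
  have e : ∀ Z : List A, K ≤ Z.length → Z.drop x = (Z.take K).drop x ++ Z.drop K := by
    intro Z hZ
    conv_lhs => rw [← List.take_append_drop K Z]
    rw [List.drop_append_of_le_length (by rw [List.length_take]; omega)]
  rw [e X hK, e X' hK', ph_append, ph_append, h, h2]

theorem dz_of {f : A → S} {b m j : ℕ} {X X' : List A} (hb : 0 < b) (hj : j < m)
    (h : X.take (b ^ m) = X'.take (b ^ m)) (hl : X.length % b ^ m = X'.length % b ^ m) :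
    dz f b X j = dz f b X' j := by
  have e : ∀ i ≤ m, X.length % b ^ i = X'.length % b ^ i := by
    intro i hi
    have hd : b ^ i ∣ b ^ m := pow_dvd_pow b hi
    rw [← Nat.mod_mod_of_dvd X.length hd, ← Nat.mod_mod_of_dvd X'.length hd, hl]
  unfold dz
  rw [e j hj.le, e (j + 1) hj]
  congr 1
  refine seg_of_take h ?_
  exact ((Nat.mod_lt _ (pow_pos hb _)).le).trans (Nat.pow_le_pow_right hb (by omega))

end clause

section main

variable {S V W : Type} [Monoid S] [AddCommGroup V] [AddCommGroup W]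

abbrev Nm (m : ℕ) (S W V : Type) := Fin m × S × W × S × W × V

def RR {m : ℕ} (e : ℕ → S → W) (F : S → W → V) (act : V → S → V) (c : Nm m S W V) : V :=
  F (c.2.1 * 1 * c.2.2.2.1) (c.2.2.1 + e c.1 1 + c.2.2.2.2.1) +
    act c.2.2.2.2.2 (c.2.1 * 1 * c.2.2.2.1)

def good {m : ℕ} (e : ℕ → S → W) (F : S → W → V) (act : V → S → V) (c : Nm m S W V) : Prop :=
  ∀ z, F (c.2.1 * z * c.2.2.2.1) (c.2.2.1 + e c.1 z + c.2.2.2.2.1) +
    act c.2.2.2.2.2 (c.2.1 * z * c.2.2.2.1) = RR e F act c

def LC {A : Type} {m : ℕ} (f : A → S) (e : ℕ → S → W) (F : S → W → V) (act : V → S → V) (b : ℕ)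
    (c : Nm m S W V) (P : List A) : Prop :=
  good e F act c ∧ CL b c.1 P.length ∧ ph f (P.take (P.length % b ^ (c.1 : ℕ))) = c.2.1 ∧
    wL f e b c.1 P = c.2.2.1

def RC {A : Type} {m : ℕ} (f : A → S) (e : ℕ → S → W) (F : S → W → V) (act : V → S → V) (b : ℕ)
    (c : Nm m S W V) (Q : List A) : Prop :=
  good e F act c ∧ CR b c.1 Q.length ∧ ph f (Q.drop (Q.length % b ^ ((c.1 : ℕ) + 1))) = c.2.2.2.1 ∧
    wR f e b c.1 m Q = c.2.2.2.2.1

theorem sound_core {A : Type} {m b : ℕ} (hb : 0 < b) {f : A → S} {e : ℕ → S → W} {F : S → W → V}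
    {act : V → S → V} {c : Nm m S W V} {P Q : List A} (hP : LC f e F act b c P)
    (hQ : RC f e F act b c Q) :
    RR e F act c = act c.2.2.2.2.2 (ph f (P ++ Q)) + F (ph f (P ++ Q)) (wL f e b m (P ++ Q)) := by
  obtain ⟨hg, hL, h1, h2⟩ := hP
  obtain ⟨_, hR, h3, h4⟩ := hQ
  have e1 := phsplit (f := f) hb hL hR
  have e2 := wsum (f := f) (e := e) (m := m) hb c.1.2 hL hR
  rw [h1, h3] at e1
  rw [h2, h4] at e2
  rw [e1, e2, ← hg (dz f b (P ++ Q) c.1)]
  abel

/-- periodic names -/
theorem per {N : Type} {M : ℕ} {nm : ℕ → Option N} (h : ∀ t, nm (t + M) = nm t) {t t' : ℕ}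
    (ht : t % M = t' % M) : nm t = nm t' := by
  have h2 : ∀ k t, nm (t + M * k) = nm t := by
    intro k
    induction k with
    | zero => intro t; simp
    | succ k ih => intro t; rw [Nat.mul_succ, ← add_assoc, h, ih]
  rw [← Nat.mod_add_div t M, ← Nat.mod_add_div t' M, h2, h2, ht]

theorem exists_o {M b n i t0 : ℕ} (hM : 0 < M) (hb : 4 * M + 4 < b) (hc : Nat.Coprime b M)
    (h1 : M ≤ n / b ^ i % b) (h2 : n / b ^ i % b + M + 1 ≤ b) (ht : t0 ≤ n) :
    ∃ o, o ≤ n ∧ n % b ^ i ≤ o ∧ CL b i o ∧ CR b i (n - o) ∧ o % M = t0 % M ∧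
      (n - o) % M = (n - t0) % M := by
  haveI : NeZero M := ⟨hM.ne'⟩
  set D := n / b ^ i % b with hD
  set y0 := if 2 * D < b then 0 else D - (b - 1) / 2 with hy0
  have hbi : 0 < b ^ i := pow_pos (by omega) i
  set a : ZMod M := ((t0 : ZMod M) - ((n % b ^ i + b ^ i * y0 : ℕ) : ZMod M)) *
    ((b ^ i : ℕ) : ZMod M)⁻¹ with ha
  set d := a.val with hd
  have hdM : d < M := ZMod.val_lt a
  set y := y0 + d with hy
  have hyD : y ≤ D := by
    rw [hy, hy0]; split_ifs <;> omega
  have hy2 : 2 * y < b := by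
    rw [hy, hy0]; split_ifs <;> omega
  have hyD2 : 2 * (D - y) < b := by
    rw [hy, hy0]; split_ifs <;> omega
  have hn : n % b ^ i + b ^ i * (n / b ^ i) = n := Nat.mod_add_div n _
  have hyq : y ≤ n / b ^ i := hyD.trans (Nat.mod_le _ _)
  have hβ : n % b ^ i < b ^ i := Nat.mod_lt _ hbi
  have hle : n % b ^ i + b ^ i * y ≤ n := by
    have := Nat.mul_le_mul_left (b ^ i) hyq
    omega
  have hsub : n - (n % b ^ i + b ^ i * y) = b ^ i * (n / b ^ i - y) := by
    rw [Nat.mul_sub]; omega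
  have hcast : ((n % b ^ i + b ^ i * y : ℕ) : ZMod M) = (t0 : ZMod M) := by
    have hinv : ((b ^ i : ℕ) : ZMod M) * ((b ^ i : ℕ) : ZMod M)⁻¹ = 1 :=
      ZMod.coe_mul_inv_eq_one _ (Nat.Coprime.pow_left i hc)
    have hda : ((d : ℕ) : ZMod M) = a := by rw [hd]; exact ZMod.natCast_zmod_val a
    have : ((n % b ^ i + b ^ i * y : ℕ) : ZMod M) =
        ((n % b ^ i + b ^ i * y0 : ℕ) : ZMod M) + ((b ^ i : ℕ) : ZMod M) * a := by
      rw [hy, ← hda]; push_cast; ring
    rw [this, ha]
    have e : ((b ^ i : ℕ) : ZMod M) * (((t0 : ZMod M) - ((n % b ^ i + b ^ i * y0 : ℕ) : ZMod M)) *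
        ((b ^ i : ℕ) : ZMod M)⁻¹) = (t0 : ZMod M) - ((n % b ^ i + b ^ i * y0 : ℕ) : ZMod M) := by
      rw [mul_comm ((t0 : ZMod M) - _), ← mul_assoc, hinv, one_mul]
    rw [e]; abel
  refine ⟨n % b ^ i + b ^ i * y, hle, Nat.le_add_right _ _, ⟨?_, ?_⟩, ⟨?_, ?_⟩, ?_, ?_⟩
  · have e1 : b ^ i * (y + 1) ≤ b ^ i * b := Nat.mul_le_mul_left _ (by omega)
    rw [pow_succ]
    rw [Nat.mul_add] at e1
    omega
  · rw [Nat.add_mul_div_left _ _ hbi, Nat.div_eq_of_lt hβ, zero_add]
    exact hy2
  · rw [hsub]; exact dvd_mul_right _ _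
  · rw [hsub, Nat.mul_div_cancel_left _ hbi]
    have e3 : (n / b ^ i - y) % b = D - y := by
      have e4 : n / b ^ i = D + b * (n / b ^ i / b) := (Nat.mod_add_div _ b).symm
      have e5 : n / b ^ i - y = (D - y) + b * (n / b ^ i / b) := by omega
      rw [e5, Nat.add_mul_mod_self_left, Nat.mod_eq_of_lt]
      have : D < b := Nat.mod_lt _ (by omega)
      omega
    rw [e3]
    exact hyD2
  · exact (ZMod.natCast_eq_natCast_iff' _ _ _).1 hcast
  · refine (ZMod.natCast_eq_natCast_iff' _ _ _).1 ?_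
    rw [Nat.cast_sub hle, Nat.cast_sub ht, hcast]

end main

open Classical in
theorem g1 (S V : Type) [Monoid S] [Finite S] [AddCommGroup V] [Finite V] (act : V → S → V) :
    ∃ m r : ℕ, ∀ Bd : ℕ, ∃ (Ms : Finset ℕ) (M : ℕ), Ms.card ≤ r ∧
      (∀ k ∈ Ms, Bd < k ∧ k.Prime ∧ k ∣ M) ∧ 0 < M ∧
      ∀ b : ℕ, 4 * M + 4 < b → Nat.Coprime b M → ∀ (A : Type) (f : A → S),
        ∃ (lam rho : List A → Option V) (nu : List A → V),
          (∀ P v, lam P = some v → P.length < b ^ m) ∧
          (∀ P Q v v', lam P = some v → rho Q = some v' →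
            v' = act v ((P ++ Q).map f).prod + nu (P ++ Q)) ∧
          (∀ X, (∀ k ∈ Ms, ¬ k ∣ X.length) →
            (∀ j < m, M ≤ X.length / b ^ j % b ∧ X.length / b ^ j % b + M + 1 ≤ b) →
            ∀ v, ∃ P Q, P ++ Q = X ∧ lam P = some v ∧ (rho Q).isSome) ∧
          (∀ Q Q', b ^ m ≤ Q.length → b ^ m ≤ Q'.length → Q.take (b ^ m) = Q'.take (b ^ m) →
            Q.length % (M * b ^ m) = Q'.length % (M * b ^ m) →
            ((Q.drop (b ^ m)).map f).prod = ((Q'.drop (b ^ m)).map f).prod →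
            rho Q = rho Q' ∧ nu Q = nu Q') := by
  haveI := Fintype.ofFinite S
  haveI := Fintype.ofFinite V
  obtain ⟨m, N, e, F, hN, hF⟩ := Crest.Agent.R320.RandF808.exists_noise S V act
  haveI : NeZero N := ⟨hN.ne'⟩
  obtain ⟨r, hr⟩ := Crest.Agent.R320.Names_570.exists_names (N := Nm m S (ZMod N × ZMod N) V) (C := V × V)
    (fun c => (c.2.2.2.2.2, RR e F act c))
  refine ⟨m, r, fun Bd => ?_⟩
  obtain ⟨Ms, nmL, nmR, hcard, hMs, hpL, hpR, hsame, hav, hswap⟩ := hr Bd
  have hdM : ∀ k ∈ Ms, k ∣ ∏ m ∈ Ms, m := fun k hk => Finset.dvd_prod_of_mem (fun x => x) hk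
  have hMpos : 0 < ∏ m ∈ Ms, m := Finset.prod_pos fun k hk => (hMs k hk).1.pos
  refine ⟨Ms, ∏ m ∈ Ms, m, hcard, fun k hk => ⟨(hMs k hk).2, (hMs k hk).1, hdM k hk⟩, hMpos, ?_⟩
  generalize hMdef : (∏ m ∈ Ms, m) = M at *
  intro b hb hcop A f
  have hb0 : 0 < b := by omega
  -- the pair predicate
  let Pr : ℕ → Nm m S (ZMod N × ZMod N) V × Nm m S (ZMod N × ZMod N) V → Prop := fun n cc =>
    ∃ t t', (t + t') % M = n % M ∧ nmL t = some cc.1 ∧ nmR t' = some cc.2
  have hcons : ∀ n, (∃ k ∈ Ms, k ∣ n) → ∀ cc dd, Pr n cc → Pr n dd →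
      (cc.1 = dd.1 ∧ cc.2 = dd.2) ∨ (cc.1 = dd.2 ∧ cc.2 = dd.1 ∧
        (cc.1.2.2.2.2.2, RR e F act cc.1) = (cc.2.2.2.2.2.2, RR e F act cc.2)) := by
    rintro n ⟨k, hk, hkn⟩ cc dd ⟨t1, t1', hs1, hl1, hr1⟩ ⟨t2, t2', hs2, hl2, hr2⟩
    have hkd : ∀ s, s % M = n % M → k ∣ s := by
      intro s hs
      rw [← Nat.dvd_mod_iff (hdM k hk), hs, Nat.dvd_mod_iff (hdM k hk)]
      exact hkn
    rcases le_total (t1 + t1') (t2 + t2') with h | h
    · obtain ⟨q, hq⟩ : M ∣ (t2 + t2') - (t1 + t1') :=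
        (Nat.modEq_iff_dvd' h).1 (by rw [Nat.ModEq, hs1, hs2])
      exact hswap (t1 + M * q) t1' t2 t2' cc.1 cc.2 dd.1 dd.2 (by omega)
        ⟨k, hk, hkd _ (by rw [show t1 + M * q + t1' = t2 + t2' by omega, hs2])⟩
        (by rw [← hl1]; exact per hpL (by simp)) hr1 hl2 hr2
    · obtain ⟨q, hq⟩ : M ∣ (t1 + t1') - (t2 + t2') :=
        (Nat.modEq_iff_dvd' h).1 (by rw [Nat.ModEq, hs1, hs2])
      exact hswap t1 t1' (t2 + M * q) t2' cc.1 cc.2 dd.1 dd.2 (by omega)
        ⟨k, hk, hkd _ hs1⟩ hl1 hr1 (by rw [← hl2]; exact per hpL (by simp)) hr2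
  let lam : List A → Option V := fun P => (nmL P.length).bind fun c =>
    if LC f e F act b c P then some c.2.2.2.2.2 else none
  let rho : List A → Option V := fun Q => (nmR Q.length).bind fun c =>
    if RC f e F act b c Q then some (RR e F act c) else none
  let nu : List A → V := fun X => if ∃ k ∈ Ms, k ∣ X.length then
    (if h : ∃ cc, Pr X.length cc then RR e F act (Classical.choose h).2 -
      act (Classical.choose h).1.2.2.2.2.2 (ph f X) else 0) else F (ph f X) (wL f e b m X)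
  have hlam : ∀ P v, lam P = some v → ∃ c, nmL P.length = some c ∧ LC f e F act b c P ∧
      c.2.2.2.2.2 = v := by
    intro P v h
    obtain ⟨c, hc1, hc2⟩ := Option.bind_eq_some_iff.1 h
    split_ifs at hc2 with hc
    exact ⟨c, hc1, hc, by simpa using hc2⟩
  have hrho : ∀ Q v, rho Q = some v → ∃ c, nmR Q.length = some c ∧ RC f e F act b c Q ∧
      RR e F act c = v := by
    intro P v h
    obtain ⟨c, hc1, hc2⟩ := Option.bind_eq_some_iff.1 h
    split_ifs at hc2 with hc
    exact ⟨c, hc1, hc, by simpa using hc2⟩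
  refine ⟨lam, rho, nu, ?_, ?_, ?_, ?_⟩
  · intro P v h
    obtain ⟨c, _, ⟨_, hL, _⟩, _⟩ := hlam P v h
    exact hL.1.trans_le (Nat.pow_le_pow_right hb0 c.1.2)
  · intro P Q v v' hP hQ
    obtain ⟨c, hc, hLC, rfl⟩ := hlam P v hP
    obtain ⟨c', hc', hRC, rfl⟩ := hrho Q v' hQ
    change RR e F act c' = act c.2.2.2.2.2 (ph f (P ++ Q)) + nu (P ++ Q)
    by_cases hk : ∃ k ∈ Ms, k ∣ (P ++ Q).length
    · have hpr : Pr (P ++ Q).length (c, c') :=
        ⟨P.length, Q.length, by rw [List.length_append], hc, hc'⟩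
      have hex : ∃ cc, Pr (P ++ Q).length cc := ⟨_, hpr⟩
      have hnu : nu (P ++ Q) = RR e F act (Classical.choose hex).2 -
          act (Classical.choose hex).1.2.2.2.2.2 (ph f (P ++ Q)) := by
        simp only [nu, if_pos hk, dif_pos hex]
      rw [hnu]
      rcases hcons _ hk _ _ hpr (Classical.choose_spec hex) with ⟨h1, h2⟩ | ⟨h1, h2, h3⟩
      · simp only at h1 h2
        rw [← h1, ← h2]; abel
      · simp only [Prod.mk.injEq] at h1 h2 h3
        rw [← h1, ← h2, ← h3.1, h3.2]; abel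
    · have hnd : ∀ k ∈ Ms, ¬ k ∣ P.length + Q.length := by
        intro k hk1 hk2
        exact hk ⟨k, hk1, by rwa [List.length_append]⟩
      have hcc := hsame _ _ _ _ hnd hc hc'
      subst hcc
      have hnu : nu (P ++ Q) = F (ph f (P ++ Q)) (wL f e b m (P ++ Q)) := by
        simp only [nu, if_neg hk]
      rw [hnu]
      exact sound_core hb0 hLC hRC
  · intro X hkX hdig v
    obtain ⟨i, hi, hgood⟩ := hF (ph f X) (wL f e b m X) v
    let c : Nm m S (ZMod N × ZMod N) V := (⟨i, hi⟩, ph f (X.take (X.length % b ^ i)),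
      wL f e b i X, ph f (X.drop (X.length % b ^ (i + 1))), wR f e b i m X, v)
    have hmn : X.length % b ^ i ≤ X.length % b ^ (i + 1) := by
      rw [← Nat.mod_mod_of_dvd X.length (pow_dvd_pow b (Nat.le_succ i))]
      exact Nat.mod_le _ _
    have hphX : ph f (X.take (X.length % b ^ i)) * dz f b X i *
        ph f (X.drop (X.length % b ^ (i + 1))) = ph f X := by
      unfold dz
      rw [← ph_append, ← ph_append, split3 X hmn]
    have hwX : wL f e b m X = wL f e b i X + e i (dz f b X i) + wR f e b i m X := by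
      unfold wL wR
      rw [Finset.range_eq_Ico, ← Finset.sum_Ico_consecutive _ (Nat.zero_le i) hi.le,
        Finset.sum_eq_sum_Ico_succ_bot hi, ← add_assoc, Finset.range_eq_Ico]
    have hgz : ∀ z, F (c.2.1 * z * c.2.2.2.1) (c.2.2.1 + e c.1 z + c.2.2.2.2.1) +
        act c.2.2.2.2.2 (c.2.1 * z * c.2.2.2.1) = F (ph f X) (wL f e b m X) + act v (ph f X) := by
      intro z
      rw [← hgood _ _ _ hphX z, hwX]
      congr 2
      change wL f e b i X + e i z + wR f e b i m X = _
      abel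
    have hg : good e F act c := by
      intro z
      rw [hgz z]
      exact (hgz 1).symm
    have hnM : M ≤ X.length := by
      have := (hdig 0 (by omega)).1
      rw [pow_zero, Nat.div_one] at this
      exact this.trans (Nat.mod_le _ _)
    obtain ⟨t0, _, _, ht0, hl0, hr0⟩ := hav X.length c 0 hkX (by omega)
    obtain ⟨o, hon, hbo, hCL, hCR, ho1, ho2⟩ := exists_o (t0 := t0) hMpos hb hcop
      (hdig i hi).1 (hdig i hi).2 ht0
    have hPl : (X.take o).length = o := by rw [List.length_take]; omega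
    have hQl : (X.drop o).length = X.length - o := List.length_drop
    have hPQ : X.take o ++ X.drop o = X := List.take_append_drop o X
    have hCL' : CL b i (X.take o).length := by rw [hPl]; exact hCL
    have hCR' : CR b i (X.drop o).length := by rw [hQl]; exact hCR
    have hlP : nmL (X.take o).length = some c := by rw [hPl, ← hl0]; exact per hpL ho1
    have hrQ : nmR (X.drop o).length = some c := by rw [hQl, ← hr0]; exact per hpR ho2
    have hm1 : X.length % b ^ i = (X.take o).length % b ^ i := by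
      conv_lhs => rw [← hPQ, List.length_append]
      exact modA le_rfl hCR'.1
    have hm2 : X.length % b ^ (i + 1) = (X.take o).length + (X.drop o).length % b ^ (i + 1) := by
      conv_lhs => rw [← hPQ, List.length_append]
      exact modB hb0 hCL'.2 hCR'.1 hCR'.2 (by omega)
    have hLC : LC f e F act b c (X.take o) := by
      refine ⟨hg, hCL', ?_, ?_⟩
      · change ph f ((X.take o).take ((X.take o).length % b ^ i)) = ph f (X.take (X.length % b ^ i))
        rw [← hm1, List.take_take, min_eq_left hbo]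
      · change wL f e b i (X.take o) = wL f e b i X
        unfold wL
        refine Finset.sum_congr rfl fun j hj => ?_
        rw [← dz_left (Q := X.drop o) hCR' (Finset.mem_range.1 hj), hPQ]
    have hRC : RC f e F act b c (X.drop o) := by
      refine ⟨hg, hCR', ?_, ?_⟩
      · change ph f ((X.drop o).drop ((X.drop o).length % b ^ (i + 1))) =
          ph f (X.drop (X.length % b ^ (i + 1)))
        rw [hm2, List.drop_drop, hPl]
      · change wR f e b i m (X.drop o) = wR f e b i m X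
        unfold wR
        refine Finset.sum_congr rfl fun j hj => ?_
        rw [← dz_right (P := X.take o) hb0 hCL' hCR' (by have := (Finset.mem_Ico.1 hj).1; omega), hPQ]
    refine ⟨X.take o, X.drop o, hPQ, ?_, ?_⟩
    · simp only [lam, hlP, Option.bind_some, if_pos hLC]
      rfl
    · simp only [rho, hrQ, Option.bind_some, if_pos hRC, Option.isSome_some]
  · intro Q Q' hQ hQ' htake hlen hdrop
    have hlM : Q.length % M = Q'.length % M := by
      rw [← Nat.mod_mod_of_dvd Q.length (dvd_mul_right M (b ^ m)),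
        ← Nat.mod_mod_of_dvd Q'.length (dvd_mul_right M (b ^ m)), hlen]
    have hlb : Q.length % b ^ m = Q'.length % b ^ m := by
      rw [← Nat.mod_mod_of_dvd Q.length (dvd_mul_left (b ^ m) M),
        ← Nat.mod_mod_of_dvd Q'.length (dvd_mul_left (b ^ m) M), hlen]
    have hli : ∀ i ≤ m, Q.length % b ^ i = Q'.length % b ^ i := by
      intro i hi
      rw [← Nat.mod_mod_of_dvd Q.length (pow_dvd_pow b hi),
        ← Nat.mod_mod_of_dvd Q'.length (pow_dvd_pow b hi), hlb]
    have hdz : ∀ j < m, dz f b Q j = dz f b Q' j := fun j hj => dz_of hb0 hj htake hlb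
    have hph : ∀ x ≤ b ^ m, ph f (Q.drop x) = ph f (Q'.drop x) := fun x hx =>
      ph_drop_of htake hdrop hx hQ hQ'
    have hphQ : ph f Q = ph f Q' := by simpa using hph 0 (Nat.zero_le _)
    have hCRe : ∀ i < m, (CR b i Q.length ↔ CR b i Q'.length) := by
      intro i hi
      have e1 : (b ^ i ∣ Q.length ↔ b ^ i ∣ Q'.length) := by
        rw [Nat.dvd_iff_mod_eq_zero, Nat.dvd_iff_mod_eq_zero, hli i hi.le]
      have e2 : Q.length / b ^ i % b = Q'.length / b ^ i % b := by
        rw [← Nat.mod_mul_right_div_self, ← Nat.mod_mul_right_div_self, ← pow_succ, hli (i + 1) hi]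
      unfold CR
      rw [e1, e2]
    have hRCe : ∀ c : Nm m S (ZMod N × ZMod N) V, (RC f e F act b c Q ↔ RC f e F act b c Q') := by
      intro c
      have e1 : ph f (Q.drop (Q.length % b ^ ((c.1 : ℕ) + 1))) =
          ph f (Q'.drop (Q'.length % b ^ ((c.1 : ℕ) + 1))) := by
        rw [← hli _ c.1.2]
        exact hph _ (((Nat.mod_lt _ (pow_pos hb0 _)).le).trans (Nat.pow_le_pow_right hb0 c.1.2))
      have e2 : wR f e b c.1 m Q = wR f e b c.1 m Q' := by
        unfold wR
        refine Finset.sum_congr rfl fun j hj => ?_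
        rw [hdz j (Finset.mem_Ico.1 hj).2]
      unfold RC
      rw [hCRe _ c.1.2, e1, e2]
    refine ⟨?_, ?_⟩
    · have e1 : nmR Q.length = nmR Q'.length := per hpR hlM
      simp only [rho, e1, hRCe]
    · have e1 : (∃ k ∈ Ms, k ∣ Q.length) ↔ (∃ k ∈ Ms, k ∣ Q'.length) := by
        refine exists_congr fun k => and_congr_right fun hk => ?_
        rw [← Nat.dvd_mod_iff (hdM k hk), hlM, Nat.dvd_mod_iff (hdM k hk)]
      have e2 : Pr Q.length = Pr Q'.length := by
        funext cc
        simp only [Pr, hlM]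
      have e3 : wL f e b m Q = wL f e b m Q' := by
        unfold wL
        exact Finset.sum_congr rfl fun j hj => by rw [hdz j (Finset.mem_range.1 hj)]
      simp only [nu, e1, e2, e3, hphQ]

end Crest.Agent.R320.G1_168
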