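import Crest.Agent.R320.Inst_518
import Crest.Agent.R320.Fib_81
import Crest.Agent.R320.G1_168
import Crest.Agent.R320.Sp_21
import Crest.Agent.R320.Univ_188

/-!
# Row 320: final assembly (helper518)

`top_sem` (110) + `Inst_518` + walls (922) + `g1` (168) + ruler (21) + exact gadget (237) + heights (81).
-/

set_option autoImplicit false

namespace Crest.Agent.R320.Fin_518

open Crest.RegLang Crest.Agent.R320.Hk_851 Crest.Agent.R320.Code110 Crest.Agent.R320.Inst_518

/-- the bad lengths are periodic -/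
theorem bad_per {m M b : ℕ} {Ms : Finset ℕ} (hb : 0 < b) (hk : ∀ k ∈ Ms, k ∣ M) {n n' : ℕ}
    (h : n % (M * b ^ m) = n' % (M * b ^ m)) (hB : Sp_21.Bad m M b Ms n) :
    Sp_21.Bad m M b Ms n' := by
  have hm : n ≡ n' [MOD M * b ^ m] := h
  rcases hB with ⟨k, hk1, hk2⟩ | ⟨j, hj, hj2⟩
  · left
    refine ⟨k, hk1, ?_⟩
    exact ((hm.of_dvd ((hk k hk1).trans (Dvd.intro _ rfl))).dvd_iff (dvd_refl k)).1 hk2
  · right
    refine ⟨j, hj, ?_⟩
    have h1 : n ≡ n' [MOD b ^ j * b] := hm.of_dvd (by
      rw [← pow_succ]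
      exact (pow_dvd_pow b (by omega)).trans (Dvd.intro_left _ rfl))
    have h2 : n / b ^ j % b = n' / b ^ j % b := by
      rw [← Nat.mod_mul_right_div_self, ← Nat.mod_mul_right_div_self, h1]
    rw [← h2]
    exact hj2

section key
variable {α S : Type} [Monoid S] {f : α → S}

theorem drop_prod {X Y : List α} {K j : ℕ} (hX : K ≤ X.length) (hY : K ≤ Y.length) (hj : j ≤ K)
    (h1 : X.take K = Y.take K) (h2 : ((X.drop K).map f).prod = ((Y.drop K).map f).prod) :
    ((X.drop j).map f).prod = ((Y.drop j).map f).prod := by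
  have key : ∀ Z : List α, K ≤ Z.length → Z.drop j = (Z.take K).drop j ++ Z.drop K := by
    intro Z hZ
    conv_lhs => rw [← List.take_append_drop K Z]
    rw [List.drop_append, List.length_take, min_eq_left hZ, Nat.sub_eq_zero_of_le hj,
      List.drop_zero]
  rw [key X hX, key Y hY, List.map_append, List.map_append, List.prod_append, List.prod_append,
    h1, h2]

theorem eq_of_short {X Y : List α} {K : ℕ} (hX : X.length < K) (h1 : X.take K = Y.take K) :
    Y = X := by
  rw [List.take_of_length_le hX.le] at h1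
  have hl : (Y.take K).length = X.length := by rw [← h1]
  rw [List.length_take] at hl
  rw [h1, List.take_of_length_le (by omega)]

theorem long_of {X Y : List α} {K : ℕ} (hX : K ≤ X.length) (h1 : X.take K = Y.take K) :
    K ≤ Y.length := by
  have hl : (Y.take K).length = (X.take K).length := by rw [← h1]
  rw [List.length_take, List.length_take] at hl
  omega

theorem take_eq {X Y : List α} {K j : ℕ} (hj : j ≤ K) (h1 : X.take K = Y.take K) :
    X.take j = Y.take j := by
  have := congrArg (List.take j) h1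
  rwa [List.take_take, List.take_take, min_eq_left hj] at this

end key

theorem fibre (α S : Type) [Finite α] [Monoid S] [Finite S] (f : α → S) (s : S) :
    HL 3 ({w | (w.map f).prod = s} : Language α) := by
  classical
  haveI := Fintype.ofFinite S
  let V : Type := S → ZMod 2
  let act : V → S → V := fun v t x => v (t * x)
  let φ : List α → S := fun w => (w.map f).prod
  have hφ0 : φ [] = 1 := by simp [φ]
  have hφ : ∀ u w, φ (u ++ w) = φ u * φ w := by intro u w; simp [φ]
  have hact1 : ∀ v, act v 1 = v := by intro v; funext x; simp [act]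
  have hactm : ∀ v a b, act v (a * b) = act (act v a) b := by
    intro v a b; funext x; simp [act, mul_assoc]
  have hacta : ∀ v w a, act (v + w) a = act v a + act w a := by intro v w a; rfl
  have hacts : ∀ v w a, act v a - act w a = act (v - w) a := by intro v w a; rfl
  have hfaith : ∀ a b : S, (∀ v, act v a = act v b) → a = b := by
    intro a b h
    have h1 := congrFun (h (fun x => if x = b then 1 else 0)) 1
    simp only [act, mul_one, if_true] at h1
    by_contra hne
    rw [if_neg hne] at h1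
    exact absurd h1 (by decide)
  obtain ⟨m, r, hg⟩ := G1_168.g1 S V act
  obtain ⟨K, hK⟩ := Crest.Agent.R320.ExactR_237.exact_gadget α S V f act (2 * (r + m) + 2)
  obtain ⟨Ms, M, hcard, hMs, hM, hg⟩ := hg (2 ^ (K + 1))
  set b : ℕ := M * (2 ^ (K + 4) + 10) + 1 with hbdef
  have h2K : 0 < 2 ^ (K + 4) := by positivity
  have hb1 : 4 * M + 4 < b := by rw [hbdef]; nlinarith
  have hb2 : Nat.Coprime b M := by
    rw [hbdef]; simp
  have hb3 : (2 ^ (K + 4) + 2) * M < b := by rw [hbdef]; nlinarith
  have hb0 : 0 < b := by omega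
  obtain ⟨lam, rho, nu, hlen, hsound, hcomp, hfs⟩ := hg b hb1 hb2 α f
  obtain ⟨c, hc1, hc2, hc3⟩ := Sp_21.spoil K (b ^ m) m M b Ms hM
    (fun k hk => ⟨(hMs k hk).2.2, (hMs k hk).1.le⟩) hb2 hb3
  obtain ⟨lam2, rho2, nu2, hs2, hcp2⟩ := hK c (fun i j hij _ => by have := hc1 i j hij; omega)
  have hcK : ∀ k < K, c k ≤ c K := fun k hk => by have := hc1 k K hk; omega
  obtain ⟨n, G, B, Wo, hLW, hgap, -, -, hB⟩ :=
    LWallAll_922.walls_all_left α (2 * c K + 2 * b ^ m + 1) (by omega)
  set z0 : ℕ := c K + b ^ m + n + 0 + 2 * c K + 1 with hz0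
  have hbm : 0 < b ^ m := by positivity
  have key : ∀ X ∈ Inst_518.XX Wo z0, X ∈ Fib_81.XX Wo z0 := fun X h => ⟨h.2.1, h.1, h.2.2⟩
  have key' : ∀ X ∈ Fib_81.XX Wo z0, X ∈ Inst_518.XX Wo z0 := fun X h => ⟨h.2.1, h.1, h.2.2⟩
  have H1 : HL 1 (Inst_518.XX Wo z0) :=
    ((Fib_81.XX_HL hLW z0).mono (Nat.zero_le 1)).congr fun w => ⟨key w, key' w⟩
  have hMe : 0 < M * b ^ m := Nat.mul_pos hM hbm
  -- the window
  set Kw : ℕ := z0 + b ^ m + c K + 1 with hKw
  have hmodlen : ∀ X Y : List α, c K ≤ X.length → c K ≤ Y.length →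
      X.length % (M * b ^ m) = Y.length % (M * b ^ m) →
      (X.length - c K) % (M * b ^ m) = (Y.length - c K) % (M * b ^ m) := by
    intro X Y hX hY h
    have h' : (X.length - c K) + c K ≡ (Y.length - c K) + c K [MOD M * b ^ m] := by
      rw [Nat.sub_add_cancel hX, Nat.sub_add_cancel hY]; exact h
    exact Nat.ModEq.add_right_cancel' _ h'
  have H2 : HL 1 (Bd Wo z0 (c K) (b ^ m) (Sp_21.Bad m M b Ms)) := by
    refine Fib_81.HL_blocks (z := z0) f Kw (M * b ^ m) hMe hLW hB _ (fun X hX => key X hX.1) ?_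
    intro X hX Y hY h1 h2 h3 hXL
    rcases Nat.lt_or_ge X.length Kw with hl | hl
    · rw [eq_of_short hl h1]; exact hXL
    · have hl' := long_of hl h1
      refine ⟨key' Y hY, ?_⟩
      rcases hXL.2 with ⟨t, ht1, ht2, ht3, ht4⟩ | hbad
      · left
        refine ⟨t, by omega, ?_, ht3, ht4⟩
        rw [← take_eq (K := Kw) (by omega) h1]; exact ht2
      · right
        exact bad_per hb0 (fun k hk => (hMs k hk).2.2) (hmodlen X Y (by omega) (by omega) h3) hbad
  have H3 : ∀ x y, HL 1 (ZT (Inst_518.XX Wo z0)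
      (TT φ act (c K) nu (fun X => nu2 X 1)) x y) := by
    intro x y
    refine Fib_81.HL_blocks (z := z0) f Kw (M * b ^ m) hMe hLW hB _ (fun X hX => key X hX.1) ?_
    intro X hX Y hY h1 h2 h3 hXL
    rcases Nat.lt_or_ge X.length Kw with hl | hl
    · rw [eq_of_short hl h1]; exact hXL
    · have hl' := long_of hl h1
      refine ⟨key' Y hY, ?_⟩
      rw [← hXL.2]
      have e1 : X.take (c K) = Y.take (c K) := take_eq (K := Kw) (by omega) h1
      have e2 : φ (X.drop (c K)) = φ (Y.drop (c K)) :=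
        drop_prod (f := f) hl hl' (by omega) h1 h2
      have e3 : nu (X.drop (c K)) = nu (Y.drop (c K)) := by
        refine (hfs _ _ ?_ ?_ ?_ ?_ ?_).2
        · rw [List.length_drop]; omega
        · rw [List.length_drop]; omega
        · have := congrArg (List.drop (c K)) (take_eq (K := Kw) (j := c K + b ^ m) (by omega) h1)
          rwa [List.drop_take, List.drop_take, Nat.add_sub_cancel_left] at this
        · rw [List.length_drop, List.length_drop]
          exact hmodlen X Y (by omega) (by omega) h3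
        · rw [List.drop_drop, List.drop_drop]
          exact drop_prod (f := f) hl hl' (by omega) h1 h2
      unfold Inst_518.TT
      rw [e1, e2, e3]
  have H4 : ∀ s, HL 3 ({w | (∀ u ∈ Inst_518.XX Wo z0, ¬ u <+: w) ∧ φ w = s} : Language α) := by
    intro s
    refine ((Fib_81.HL_tail_prod (z := z0) f hLW hB s).mono (by norm_num)).congr fun w => ?_
    exact ⟨fun h => ⟨fun X hX => h.1 X (key' X hX), h.2⟩,
      fun h => ⟨fun X hX => h.1 X (key X hX), h.2⟩⟩
  have F1 : ∀ v, {p | p ∈ L1 φ act (c K) (b ^ m) (fun X => nu2 X 1) lam v}.Finite := fun v =>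
    (List.finite_length_le α (c K + b ^ m)).subset fun p hp => hp.2.1
  have F2 : ∀ v, {p | p ∈ L2 K c lam2 v}.Finite := fun v =>
    (List.finite_length_le α (c K)).subset fun p hp => by
      obtain ⟨k, hk, hl, -⟩ := hp
      have := hcK k hk
      show p.length ≤ c K
      omega
  have C1 := Inst_518.c1 (Wo := Wo) (n := n) (z0 := z0) (p0 := c K) (N1 := b ^ m) (La := 0)
    (BadT := Sp_21.Bad m M b Ms) (φ := φ) (act := act) (nu1 := nu) (nu2 := fun X => nu2 X 1)
    (lam1 := lam) (rho1 := rho) hLW.app (by omega) (fun P v h => (hlen P v h).le)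
    (fun P Q v r h1 h2 _ => hsound P Q v r h1 h2)
    (fun Y _ hY v => hcomp Y (fun k hk hd => hY (Or.inl ⟨k, hk, hd⟩))
      (fun j hj => by
        by_contra hcon
        exact hY (Or.inr ⟨j, hj, hcon⟩)) v)
  have C2 := Inst_518.c2 (Wo := Wo) (n := n) (z0 := z0) (p0 := c K) (N1 := b ^ m) (La := 0)
    (BadT := Sp_21.Bad m M b Ms) (φ := φ) (act := act) (nu1 := nu) (nu2 := fun X => nu2 X 1)
    (K := K) (c := c) (lam2 := lam2) (rho2 := fun k Q => rho2 k Q 1)
    (W := 2 * c K + 2 * b ^ m + 1) hLW.app hgap (D := c K) (C0 := r + m)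
    (R := 2 * (r + m) + 2) hcK le_rfl (by omega) (by omega)
    (fun i j k l _ _ _ _ h1 h2 h3 => hc2 i j k l h1 h2 h3)
    (fun T hT => by
      have := hc3 T (fun i hi => by have := hcK i hi; omega)
        ((Finset.range K ×ˢ Finset.range K).filter (fun p =>
          p.1 ≠ p.2 ∧ Sp_21.Bad m M b Ms (T + c p.2 - c p.1)))
        (fun p hp => by
          rw [Finset.mem_filter, Finset.mem_product, Finset.mem_range, Finset.mem_range] at hp
          exact ⟨hp.1.1, hp.1.2, hp.2.1, hp.2.2⟩)
      omega)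
    (fun k hk P Q v b' h1 h2 h3 => by
      have := hs2 k hk P Q 1 v b' h1 h2 h3
      rw [mul_one] at this
      exact this)
    (fun u v hu => hcp2 u 1 v hu) le_rfl
  exact Top5_110.top_sem (φ := φ) (act := act) (XX := Inst_518.XX Wo z0)
    (Bad := Bd Wo z0 (c K) (b ^ m) (Sp_21.Bad m M b Ms))
    (T := TT φ act (c K) nu (fun X => nu2 X 1)) hφ0 hφ hact1 hactm hfaith
    (pcXX (by omega)) Bd_sub
    (fun u _ v v' => by
      unfold Inst_518.TT
      rw [add_sub_add_right_eq_sub, hacts, add_sub_add_right_eq_sub, hacts, ← hactm, ← hφ,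
        List.take_append_drop])
    H1 H2 H3 H4 F1 F2 C1 C2 s

/-- **the theorem** -/
theorem final.{u} (α : Type u) [Finite α] (L : Language α) (hL : L.IsRegular) :
    ∃ e : GRegExp α, e.height ≤ 3 ∧ e.lang = L :=
  Univ_188.of_type0 3 (fun α _ L hL => of_monoid (fun S _ _ f s => fibre α S f s) L hL) α L hL

end Crest.Agent.R320.Fin_518
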