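import Crest.Agent.R320.SemTop_727
import Crest.Agent.R320.Sc2n_937
import Crest.Agent.R320.ExactR_237
import Crest.Agent.R320.FewVal_228
import Crest.Agent.R320.Reg_852

/-!
# Row 320 (helper52): the row from one arithmetic gadget

All words at once: 727's semantic top, 937's block form of the two schemes (natural chain rule),
237's exact gadget, 228's walls on all words.  The only hypothesis is the gadget `UH`.
-/

set_option autoImplicit false

namespace Crest.Agent.R320.Fin_52

open Crest.RegLang Crest.Agent.R320.Hk_851 Crest.Agent.R320.Blk467 Crest.Agent.R320.FewVal_228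
open Crest.Agent.R320.Sc2n_937 Crest.Agent.R320.SemTop_727 Crest.Agent.R320.ExactR_237

/-- the gadget of scheme 1 on all words, with its ruler -/
def UH (S V : Type) [Monoid S] [AddCommGroup V] (act : V → S → V) : Prop :=
  ∃ C0 : ℕ, ∀ K : ℕ, ∃ (N1 Pm La : ℕ) (c : ℕ → ℕ) (BadT : ℕ → Prop), 0 < N1 ∧ 0 < Pm ∧
    (∀ i j, i < j → j < K → c i < c j) ∧
    (∀ k k' l l', k < K → k' < K → l < K → l' < K → k' ≠ k → l' ≠ l →
      c k + c l' < c l + c k' + 2 * N1 → c l + c k' < c k + c l' + 2 * N1 → k = l) ∧
    (∀ T, La ≤ T → ∀ J : Finset ℕ, (∀ k ∈ J, k < K ∧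
      ∃ k', k' < K ∧ k' ≠ k ∧ BadT (T + c k' - c k)) → J.card ≤ C0) ∧
    ∀ (A : Type) (f : A → S), ∃ (lam rho : List A → Option V) (nu : List A → V),
      (∀ P v, lam P = some v → P.length ≤ N1) ∧
      (∀ P Q u b, lam P = some u → rho Q = some b →
        b = act u ((P ++ Q).map f).prod + nu (P ++ Q)) ∧
      (∀ X, La ≤ X.length → ¬ BadT X.length → ∀ v, ∃ P Q, X = P ++ Q ∧ lam P = some v ∧
        (rho Q).isSome) ∧
      (∀ Q Q', La ≤ Q.length → La ≤ Q'.length → Q.take La = Q'.take La →
        Q.length % Pm = Q'.length % Pm →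
        ((Q.drop La).map f).prod = ((Q'.drop La).map f).prod → nu Q = nu Q')

universe u

section Reg

variable {α : Type u}

/-- words with a property, as a language -/
def lg (p : List α → Prop) : Language α := {w | p w}

theorem mem_lg {p : List α → Prop} {w : List α} : w ∈ lg p ↔ p w := Iff.rfl

/-- fibres of a finite monoid are regular -/
theorem reg_fibre {M : Type} [Monoid M] [Finite M] (f : α → M) (p : M → Prop) :
    (lg fun w => p (w.map f).prod).IsRegular := by
  refine Language.IsRegular.of_finite_range_leftQuotient ?_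
  refine (Set.finite_range (fun m : M => (lg fun w => p (m * (w.map f).prod)))).subset ?_
  rintro _ ⟨u, rfl⟩
  refine ⟨(u.map f).prod, ?_⟩
  ext w
  rw [Language.mem_leftQuotient]
  show p ((u.map f).prod * (w.map f).prod) ↔ p ((u ++ w).map f).prod
  rw [List.map_append, List.prod_append]

/-- class by prefix, length and value -/
theorem reg_class {M : Type} [Monoid M] [Finite M] (f : α → M) (Pm : ℕ) (hPm : 0 < Pm)
    (r : ℕ) (s : M) :
    (lg fun w => w.length % Pm = r ∧ (w.map f).prod = s).IsRegular := by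
  haveI : NeZero Pm := ⟨hPm.ne'⟩
  have h := reg_fibre (fun a : α => ((f a, Multiplicative.ofAdd (1 : ZMod Pm)) :
    M × Multiplicative (ZMod Pm)))
    (fun x => (Multiplicative.toAdd x.2).val = r ∧ x.1 = s)
  have e : ∀ w : List α, (w.map (fun a : α => ((f a, Multiplicative.ofAdd (1 : ZMod Pm)) :
      M × Multiplicative (ZMod Pm)))).prod =
      ((w.map f).prod, Multiplicative.ofAdd ((w.length : ℕ) : ZMod Pm)) := by
    intro w
    induction w with
    | nil => simp; rfl
    | cons a w ih =>
      rw [List.map_cons, List.prod_cons, ih, List.map_cons, List.prod_cons, Prod.mk_mul_mk,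
        ← ofAdd_add, List.length_cons]
      congr 2
      push_cast
      ring
  have e2 : (lg fun w : List α => w.length % Pm = r ∧ (w.map f).prod = s) =
      (lg fun w : List α => (fun x : M × Multiplicative (ZMod Pm) =>
        (Multiplicative.toAdd x.2).val = r ∧ x.1 = s) (w.map (fun a : α =>
          ((f a, Multiplicative.ofAdd (1 : ZMod Pm)) :
    M × Multiplicative (ZMod Pm)))).prod) := by
    ext w
    rw [mem_lg, mem_lg, e]
    simp only [toAdd_ofAdd, ZMod.val_natCast]
  rw [e2]
  exact h

theorem reg_iUnion {ι : Type*} [Finite ι] {L : ι → Language α} (h : ∀ i, (L i).IsRegular) :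
    (lg fun w => ∃ i, w ∈ L i).IsRegular := by
  classical
  haveI := Fintype.ofFinite ι
  have key : ∀ s : Finset ι, (lg fun w => ∃ i ∈ s, w ∈ L i).IsRegular := by
    intro s
    induction s using Finset.induction_on with
    | empty =>
      have : (lg fun w => ∃ i ∈ (∅ : Finset ι), w ∈ L i) = 0 := by
        ext w; constructor
        · rintro ⟨i, hi, _⟩; simp at hi
        · intro hh; exact absurd hh (Language.notMem_zero w)
      rw [this]; exact Crest.Agent.R320.Reg_852.isRegular_zero
    | insert a s ha ih =>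
      have : (lg fun w => ∃ i ∈ insert a s, w ∈ L i) =
          L a + (lg fun w => ∃ i ∈ s, w ∈ L i) := by
        ext w
        rw [Language.mem_add]
        constructor
        · rintro ⟨i, hi, hw⟩
          rcases Finset.mem_insert.1 hi with rfl | hi
          · exact Or.inl hw
          · exact Or.inr ⟨i, hi, hw⟩
        · rintro (hw | ⟨i, hi, hw⟩)
          · exact ⟨a, Finset.mem_insert_self _ _, hw⟩
          · exact ⟨i, Finset.mem_insert_of_mem hi, hw⟩
      rw [this]; exact (h a).add ih
  have := key Finset.univ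
  have e : (lg fun w => ∃ i ∈ (Finset.univ : Finset ι), w ∈ L i) =
      (lg fun w => ∃ i, w ∈ L i) := by
    ext w; constructor
    · rintro ⟨i, _, hw⟩; exact ⟨i, hw⟩
    · rintro ⟨i, hw⟩; exact ⟨i, Finset.mem_univ _, hw⟩
  rwa [e] at this

/-- a word function which depends on the first `La` letters, the length mod `Pm` and the value of
the rest has regular fibres on long words -/
theorem reg_fs [Finite α] {M : Type} [Monoid M] [Finite M] (f : α → M) (Pm La : ℕ)
    (hPm : 0 < Pm) (p : List α → Prop)
    (hp : ∀ Q Q' : List α, La ≤ Q.length → La ≤ Q'.length → Q.take La = Q'.take La →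
        Q.length % Pm = Q'.length % Pm →
        ((Q.drop La).map f).prod = ((Q'.drop La).map f).prod → (p Q ↔ p Q')) :
    (lg fun w => La ≤ w.length ∧ p w).IsRegular := by
  haveI : Finite {a : List α // a.length = La} := (List.finite_length_eq α La).to_subtype
  have h1 : ∀ i : {a : List α // a.length = La} × Fin Pm × M,
      (lg fun w => (∃ Q, Q.take La = i.1.1 ∧ La ≤ Q.length ∧ Q.length % Pm =
        (La + i.2.1.1) % Pm ∧ ((Q.drop La).map f).prod = i.2.2 ∧ p Q) ∧
        w ∈ ({i.1.1} : Language α) *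
          (lg fun w => w.length % Pm = i.2.1.1 ∧ (w.map f).prod = i.2.2)).IsRegular := by
    intro i
    by_cases h : (∃ Q, Q.take La = i.1.1 ∧ La ≤ Q.length ∧ Q.length % Pm =
        (La + i.2.1.1) % Pm ∧ ((Q.drop La).map f).prod = i.2.2 ∧ p Q)
    · have e : (lg fun w => (∃ Q, Q.take La = i.1.1 ∧ La ≤ Q.length ∧ Q.length % Pm =
        (La + i.2.1.1) % Pm ∧ ((Q.drop La).map f).prod = i.2.2 ∧ p Q) ∧
        w ∈ ({i.1.1} : Language α) *
          (lg fun w => w.length % Pm = i.2.1.1 ∧ (w.map f).prod = i.2.2)) =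
          ({i.1.1} : Language α) *
          (lg fun w => w.length % Pm = i.2.1.1 ∧ (w.map f).prod = i.2.2) := by
        ext w
        exact ⟨fun hh => hh.2, fun hh => ⟨h, hh⟩⟩
      rw [e]
      refine Crest.Agent.R320.Reg_852.IsRegular.mul ?_ (reg_class f Pm hPm _ _)
      exact Crest.Agent.R320.Reg_852.HL.isRegular (HL.word (k := 0) i.1.1)
    · have e : (lg fun w => (∃ Q, Q.take La = i.1.1 ∧ La ≤ Q.length ∧ Q.length % Pm =
        (La + i.2.1.1) % Pm ∧ ((Q.drop La).map f).prod = i.2.2 ∧ p Q) ∧
        w ∈ ({i.1.1} : Language α) *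
          (lg fun w => w.length % Pm = i.2.1.1 ∧ (w.map f).prod = i.2.2)) = 0 := by
        ext w
        exact ⟨fun hh => absurd hh.1 h, fun hh => absurd hh (Language.notMem_zero w)⟩
      rw [e]
      exact Crest.Agent.R320.Reg_852.isRegular_zero
  have h2 := reg_iUnion h1
  refine h2 |> fun h2 => ?_
  have e : (lg fun w => La ≤ w.length ∧ p w) = (lg fun w => ∃ i, w ∈ (fun i :
      {a : List α // a.length = La} × Fin Pm × M =>
      (lg fun w => (∃ Q, Q.take La = i.1.1 ∧ La ≤ Q.length ∧ Q.length % Pm =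
        (La + i.2.1.1) % Pm ∧ ((Q.drop La).map f).prod = i.2.2 ∧ p Q) ∧
        w ∈ ({i.1.1} : Language α) *
          (lg fun w => w.length % Pm = i.2.1.1 ∧ (w.map f).prod = i.2.2))) i) := by
    ext w
    constructor
    · rintro ⟨hw, hpw⟩
      have hl : (w.take La).length = La := by rw [List.length_take]; omega
      have hl2 : (w.drop La).length = w.length - La := List.length_drop
      refine ⟨(⟨w.take La, hl⟩, ⟨(w.drop La).length % Pm, Nat.mod_lt _ hPm⟩,
        ((w.drop La).map f).prod), ⟨w, rfl, hw, ?_, rfl, hpw⟩, ?_⟩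
      · show w.length % Pm = (La + (w.drop La).length % Pm) % Pm
        rw [Nat.add_mod_mod, hl2]
        congr 1; omega
      · exact Language.mem_mul.2 ⟨w.take La, rfl, w.drop La, ⟨rfl, rfl⟩, List.take_append_drop _ _⟩
    · rintro ⟨⟨⟨a, ha⟩, r, s⟩, ⟨Q, hQ1, hQ2, hQ3, hQ4, hQ5⟩, hw⟩
      obtain ⟨a', ha', b, ⟨hb1, hb2⟩, rfl⟩ := Language.mem_mul.1 hw
      have ha'' : a' = a := ha'
      subst ha''
      simp only at hQ1 hQ3 hQ4 hb1 hb2
      refine ⟨by rw [List.length_append]; omega, ?_⟩
      refine (hp Q (a' ++ b) hQ2 (by rw [List.length_append]; omega) ?_ ?_ ?_).1 hQ5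
      · rw [hQ1, ← ha, List.take_left]
      · rw [hQ3, List.length_append, ← hb1, Nat.add_mod_mod, ha]
      · rw [hQ4, ← ha, List.drop_left, hb2]
  rw [e]
  exact h2

end Reg

end Crest.Agent.R320.Fin_52
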