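import Mathlib

/-!
Row 320, SPOIL LEAF for the digit gadget `g1` (helper852 13483, lead 13673): the wide ruler
`c l = 2 ^ l * K0`, `K0 = 1` mod `M`, `K0 = 4 M (1 + b + .. + b ^ (m-1))` mod `b ^ m`.
For every `T` at most `Ms.card + m` ordered pairs `(i, j)`, `i ≠ j`, have a bad total `T + c j - c i`.
-/

set_option autoImplicit false

namespace Crest.Agent.R320.Sp_537

/-- Bad totals of the digit gadget. -/
def Bad (Ms : Finset ℕ) (M b m n : ℕ) : Prop :=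
  (∃ k ∈ Ms, k ∣ n) ∨ ∃ j < m, ¬ (M ≤ n / b ^ j % b ∧ n / b ^ j % b + M + 1 ≤ b)

theorem two_le {a b : ℕ} (h : a < b) : 2 * 2 ^ a ≤ 2 ^ b := by
  calc 2 * 2 ^ a = 2 ^ (a + 1) := by rw [pow_succ]; ring
    _ ≤ 2 ^ b := Nat.pow_le_pow_right (by norm_num) h

theorem pow_golomb {i j k l : ℕ} (hij : i ≠ j) (hkl : k ≠ l)
    (h : 2 ^ j + 2 ^ k = 2 ^ l + 2 ^ i) : i = k ∧ j = l := by
  have pi : 0 < 2 ^ i := by positivity
  have pj : 0 < 2 ^ j := by positivity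
  have pk : 0 < 2 ^ k := by positivity
  have pl : 0 < 2 ^ l := by positivity
  rcases lt_trichotomy j l with h1 | h1 | h1
  · exfalso
    have f1 := two_le h1
    rcases lt_or_gt_of_ne hkl with h2 | h2
    · have f2 := two_le h2
      omega
    · have f2 := two_le h2
      rcases lt_trichotomy i k with h3 | h3 | h3
      · have f3 := two_le h3
        omega
      · subst h3
        omega
      · have f3 := two_le h3
        omega
  · subst h1
    refine ⟨?_, rfl⟩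
    have : 2 ^ k = 2 ^ i := by omega
    exact (Nat.pow_right_injective (le_refl 2) this).symm
  · exfalso
    have f1 := two_le h1
    rcases lt_or_gt_of_ne hij with h2 | h2
    · have f2 := two_le h2
      omega
    · have f2 := two_le h2
      rcases lt_trichotomy i k with h3 | h3 | h3
      · have f3 := two_le h3
        omega
      · subst h3
        omega
      · have f3 := two_le h3
        omega

theorem diff_ne {i j k l : ℕ} (hij : i ≠ j) (hkl : k ≠ l) (hne : ¬ (i = k ∧ j = l)) :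
    ((2 : ℤ) ^ j - 2 ^ i) - ((2 : ℤ) ^ l - 2 ^ k) ≠ 0 := by
  intro h
  apply hne
  apply pow_golomb hij hkl
  have : (2 : ℤ) ^ j + 2 ^ k = 2 ^ l + 2 ^ i := by linarith
  exact_mod_cast this

theorem diff_lt {K i j k l : ℕ} (hi : i < K) (hj : j < K) (hk : k < K) (hl : l < K) :
    |((2 : ℤ) ^ j - 2 ^ i) - ((2 : ℤ) ^ l - 2 ^ k)| ≤ 2 ^ (K + 1) := by
  have e : (2 : ℤ) ^ (K + 1) = 2 * 2 ^ K := by rw [pow_succ]; ring
  have f : ∀ a : ℕ, a < K → (2 : ℤ) * 2 ^ a ≤ 2 ^ K := by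
    intro a ha
    exact_mod_cast two_le ha
  have p : ∀ a : ℕ, (0 : ℤ) < 2 ^ a := fun a => by positivity
  have fi := f i hi
  have fj := f j hj
  have fk := f k hk
  have fl := f l hl
  have qi := p i
  have qj := p j
  have qk := p k
  have ql := p l
  rw [abs_le]
  constructor <;> linarith

theorem digit_band {n b M j : ℕ} (h : ¬ (M ≤ n / b ^ j % b ∧ n / b ^ j % b + M + 1 ≤ b))
    (hb : 0 < b) :
    ∃ q : ℤ, |(n : ℤ) - q * (b : ℤ) ^ (j + 1)| ≤ (M : ℤ) * (b : ℤ) ^ j := by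
  set d := n / b ^ j % b with hd
  set e := n / b ^ j / b with he
  set r := n % b ^ j with hr
  have hB : 0 < b ^ j := by positivity
  have hrlt : r < b ^ j := Nat.mod_lt _ hB
  have hdlt : d < b := Nat.mod_lt _ hb
  have h1 : b ^ j * (n / b ^ j) + r = n := Nat.div_add_mod n (b ^ j)
  have h2 : b * e + d = n / b ^ j := Nat.div_add_mod _ b
  have hn : (n : ℤ) = (b : ℤ) ^ j * ((b : ℤ) * e + d) + r := by
    have : n = b ^ j * (b * e + d) + r := by rw [h2, h1]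
    exact_mod_cast this
  have hB' : (0 : ℤ) < (b : ℤ) ^ j := by exact_mod_cast hB
  have hr0 : (0 : ℤ) ≤ (r : ℤ) := by positivity
  have hr1 : (r : ℤ) < (b : ℤ) ^ j := by exact_mod_cast hrlt
  have hd0 : (0 : ℤ) ≤ (d : ℤ) := by positivity
  have hd1 : (d : ℤ) + 1 ≤ (b : ℤ) := by exact_mod_cast hdlt
  by_cases hc : M ≤ d
  · have hc2 : b < d + M + 1 := by
      by_contra hh
      exact h ⟨hc, by omega⟩
    have hc3 : (b : ℤ) ≤ (d : ℤ) + M := by exact_mod_cast (by omega : b ≤ d + M)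
    refine ⟨(e : ℤ) + 1, ?_⟩
    have e1 : (n : ℤ) - ((e : ℤ) + 1) * (b : ℤ) ^ (j + 1) = ((d : ℤ) - b) * (b : ℤ) ^ j + r := by
      rw [hn, pow_succ]; ring
    rw [e1, abs_le]
    constructor
    · nlinarith
    · nlinarith [mul_nonneg (show (0 : ℤ) ≤ M by positivity) hB'.le]
  · have hc' : (d : ℤ) + 1 ≤ M := by exact_mod_cast (by omega : d + 1 ≤ M)
    refine ⟨(e : ℤ), ?_⟩
    have e1 : (n : ℤ) - (e : ℤ) * (b : ℤ) ^ (j + 1) = (d : ℤ) * (b : ℤ) ^ j + r := by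
      rw [hn, pow_succ]; ring
    rw [e1, abs_le]
    constructor
    · nlinarith [mul_nonneg (show (0 : ℤ) ≤ M by positivity) hB'.le]
    · nlinarith

/-- geometric sum -/
theorem geom (b : ℤ) (j : ℕ) : (b - 1) * (∑ i ∈ Finset.range j, b ^ i) = b ^ j - 1 := by
  rw [mul_comm]; exact geom_sum_mul b j

theorem digit_gap_pos {b M γ Q : ℤ} {j : ℕ} (hM : 0 < M) (hγ : 0 < γ)
    (hh : 4 * M * γ + 1 + 2 * M < b)
    (h : |4 * M * γ * (∑ i ∈ Finset.range (j + 1), b ^ i) - Q * b ^ (j + 1)| ≤ 2 * M * b ^ j) :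
    False := by
  have hb : 1 < b := by nlinarith [mul_pos hM hγ]
  have hB : (0 : ℤ) < b ^ j := by positivity
  have hg := geom b j
  set G := ∑ i ∈ Finset.range j, b ^ i with hG
  have hG0 : 0 ≤ G := Finset.sum_nonneg fun i _ => by positivity
  rw [Finset.sum_range_succ, ← hG, pow_succ] at h
  have hx : 0 < 4 * M * γ := by positivity
  set x := 4 * M * γ with hxd
  have hxM : 4 * M ≤ x := by nlinarith
  have hxG : x * G < b ^ j := by
    have : x * G ≤ (b - 1) * G := by nlinarith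
    linarith
  have hxG0 : 0 ≤ x * G := by positivity
  obtain ⟨h1, h2⟩ := abs_le.mp h
  rcases le_or_gt Q 0 with hQ | hQ
  · have : Q * (b ^ j * b) ≤ 0 := by
      have : 0 < b ^ j * b := by positivity
      nlinarith
    nlinarith
  · have hQ1 : 1 ≤ Q := hQ
    have h3 : b ^ j * b ≤ Q * (b ^ j * b) := by
      have : 0 < b ^ j * b := by positivity
      nlinarith
    nlinarith

theorem digit_gap {b M γ Q : ℤ} {j : ℕ} (hM : 0 < M) (hγ : γ ≠ 0)
    (hh : 4 * M * |γ| + 1 + 2 * M < b)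
    (h : |4 * M * γ * (∑ i ∈ Finset.range (j + 1), b ^ i) - Q * b ^ (j + 1)| ≤ 2 * M * b ^ j) :
    False := by
  rcases lt_or_gt_of_ne hγ with h1 | h1
  · rw [abs_of_neg h1] at hh
    refine digit_gap_pos (γ := -γ) (Q := -Q) (j := j) hM (by linarith) hh ?_
    have e : 4 * M * -γ * (∑ i ∈ Finset.range (j + 1), b ^ i) - -Q * b ^ (j + 1)
        = -(4 * M * γ * (∑ i ∈ Finset.range (j + 1), b ^ i) - Q * b ^ (j + 1)) := by ring
    rw [e, abs_neg]
    exact h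
  · rw [abs_of_pos h1] at hh
    exact digit_gap_pos hM h1 hh h

/-- The constant `K0`. -/
theorem exists_K0 (M b m N1 : ℕ) (hM : 0 < M) (hb : 0 < b) (hcop : Nat.Coprime b M) :
    ∃ K0 : ℕ, 4 * N1 < K0 ∧ K0 ≡ 1 [MOD M] ∧
      K0 ≡ 4 * M * (∑ i ∈ Finset.range m, b ^ i) [MOD b ^ m] := by
  obtain ⟨k, h1, h2⟩ := Nat.chineseRemainder (Nat.Coprime.pow_left m hcop)
    (4 * M * (∑ i ∈ Finset.range m, b ^ i)) 1
  refine ⟨k + M * b ^ m * (4 * N1 + 1), ?_, ?_, ?_⟩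
  · have : 1 ≤ M * b ^ m := Nat.one_le_iff_ne_zero.2 (by positivity)
    nlinarith
  · have : k + M * b ^ m * (4 * N1 + 1) ≡ k [MOD M] := by
      have e : k + M * b ^ m * (4 * N1 + 1) = k + M * (b ^ m * (4 * N1 + 1)) := by ring
      rw [e]
      exact Nat.add_mul_mod_self_left k M _
    exact this.trans h2
  · have : k + M * b ^ m * (4 * N1 + 1) ≡ k [MOD b ^ m] := by
      have e : k + M * b ^ m * (4 * N1 + 1) = k + b ^ m * (M * (4 * N1 + 1)) := by ring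
      rw [e]
      exact Nat.add_mul_mod_self_left k (b ^ m) _
    exact this.trans h1

/-- Two bad pairs for one prime are equal. -/
theorem prime_unique {M K0 k K i j i' j' : ℕ} {T : ℤ} (hK0 : K0 ≡ 1 [MOD M]) (hkM : k ∣ M)
    (hk : 2 ^ (K + 1) < k) (hi : i < K) (hj : j < K) (hi' : i' < K) (hj' : j' < K)
    (hij : i ≠ j) (hij' : i' ≠ j')
    (h : (k : ℤ) ∣ T + 2 ^ j * K0 - 2 ^ i * K0) (h' : (k : ℤ) ∣ T + 2 ^ j' * K0 - 2 ^ i' * K0) :
    i = i' ∧ j = j' := by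
  by_contra hne
  have hγ := diff_ne hij hij' hne
  have hlt := diff_lt hi hj hi' hj'
  set γ := ((2 : ℤ) ^ j - 2 ^ i) - ((2 : ℤ) ^ j' - 2 ^ i') with hγd
  have h1 : (k : ℤ) ∣ K0 * γ := by
    have := dvd_sub h h'
    have e : (T + 2 ^ j * (K0 : ℤ) - 2 ^ i * K0) - (T + 2 ^ j' * K0 - 2 ^ i' * K0) = K0 * γ := by
      rw [hγd]; ring
    rwa [e] at this
  have h2 : (k : ℤ) ∣ (K0 : ℤ) - 1 := by
    have : (M : ℤ) ∣ (K0 : ℤ) - 1 := by
      have := (Nat.modEq_iff_dvd.1 hK0.symm)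
      simpa using this
    exact dvd_trans (by exact_mod_cast hkM) this
  have h3 : (k : ℤ) ∣ γ := by
    have e : γ = K0 * γ - ((K0 : ℤ) - 1) * γ := by ring
    rw [e]
    exact dvd_sub h1 (Dvd.dvd.mul_right h2 _)
  have h4 := Int.le_of_dvd (abs_pos.2 hγ) ((dvd_abs _ _).2 h3)
  have h5 : ((2 : ℤ) ^ (K + 1)) < k := by exact_mod_cast hk
  linarith

/-- Two bad pairs for one digit are equal. -/
theorem digit_unique {M b m K0 K d i j i' j' : ℕ} {T q q' : ℤ} (hM : 0 < M)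
    (hK0 : K0 ≡ 4 * M * (∑ i ∈ Finset.range m, b ^ i) [MOD b ^ m])
    (hb : M * 2 ^ (K + 4) < b) (hd : d < m)
    (hi : i < K) (hj : j < K) (hi' : i' < K) (hj' : j' < K)
    (hij : i ≠ j) (hij' : i' ≠ j')
    (h : |(T + 2 ^ j * K0 - 2 ^ i * K0) - q * (b : ℤ) ^ (d + 1)| ≤ M * (b : ℤ) ^ d)
    (h' : |(T + 2 ^ j' * K0 - 2 ^ i' * K0) - q' * (b : ℤ) ^ (d + 1)| ≤ M * (b : ℤ) ^ d) :
    i = i' ∧ j = j' := by
  by_contra hne
  have hγ := diff_ne hij hij' hne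
  have hlt := diff_lt hi hj hi' hj'
  set γ := ((2 : ℤ) ^ j - 2 ^ i) - ((2 : ℤ) ^ j' - 2 ^ i') with hγd
  have hM' : (0 : ℤ) < M := by exact_mod_cast hM
  -- K0 mod b ^ (d+1)
  obtain ⟨s, hs⟩ : ∃ s : ℤ, (K0 : ℤ) =
      4 * M * (∑ i ∈ Finset.range (d + 1), (b : ℤ) ^ i) + s * (b : ℤ) ^ (d + 1) := by
    have h1 : ((b : ℤ) ^ m) ∣ (K0 : ℤ) - 4 * M * (∑ i ∈ Finset.range m, (b : ℤ) ^ i) := by
      have := Nat.modEq_iff_dvd.1 hK0.symm
      push_cast at this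
      exact this
    have h2 : (b : ℤ) ^ (d + 1) ∣ (b : ℤ) ^ m := pow_dvd_pow _ hd
    obtain ⟨u, hu⟩ := dvd_trans h2 h1
    obtain ⟨r, hr⟩ := Nat.exists_eq_add_of_le (show d + 1 ≤ m from hd)
    have h3 : (∑ i ∈ Finset.range m, (b : ℤ) ^ i) =
        (∑ i ∈ Finset.range (d + 1), (b : ℤ) ^ i) +
          (b : ℤ) ^ (d + 1) * (∑ i ∈ Finset.range r, (b : ℤ) ^ i) := by
      rw [hr, Finset.sum_range_add, Finset.mul_sum]
      congr 1
      apply Finset.sum_congr rfl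
      intro x _
      rw [pow_add]
    refine ⟨u + 4 * M * (∑ i ∈ Finset.range r, (b : ℤ) ^ i), ?_⟩
    have h4 : (K0 : ℤ) = 4 * M * (∑ i ∈ Finset.range m, (b : ℤ) ^ i) + (b : ℤ) ^ (d + 1) * u := by
      linarith
    rw [h4, h3]; ring
  refine digit_gap (b := (b : ℤ)) (M := (M : ℤ)) (γ := γ) (Q := q - q' - s * γ) (j := d) hM' hγ ?_ ?_
  · have h1 : ((M : ℤ) * 2 ^ (K + 4)) < b := by exact_mod_cast hb
    have e1 : (2 : ℤ) ^ (K + 4) = 8 * 2 ^ (K + 1) := by rw [pow_add, pow_add]; ring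
    have h2 : (1 : ℤ) ≤ 2 ^ (K + 1) := one_le_pow₀ (by norm_num)
    rw [e1] at h1
    have h3 : (M : ℤ) * |γ| ≤ M * 2 ^ (K + 1) := by
      exact mul_le_mul_of_nonneg_left hlt hM'.le
    have h4 : (M : ℤ) ≤ M * 2 ^ (K + 1) := by nlinarith
    nlinarith
  · have e : 4 * (M : ℤ) * γ * (∑ i ∈ Finset.range (d + 1), (b : ℤ) ^ i)
        - (q - q' - s * γ) * (b : ℤ) ^ (d + 1)
        = ((T + 2 ^ j * K0 - 2 ^ i * K0) - q * (b : ℤ) ^ (d + 1))
          - ((T + 2 ^ j' * K0 - 2 ^ i' * K0) - q' * (b : ℤ) ^ (d + 1)) := by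
      rw [hγd, hs]; ring
    rw [e]
    have := abs_sub ((T + 2 ^ j * (K0 : ℤ) - 2 ^ i * K0) - q * (b : ℤ) ^ (d + 1))
      ((T + 2 ^ j' * (K0 : ℤ) - 2 ^ i' * K0) - q' * (b : ℤ) ^ (d + 1))
    linarith

open Classical in
/-- **Spoil leaf.** -/
theorem spoil (K M m b N1 : ℕ) (Ms : Finset ℕ) (hM : 0 < M)
    (hMs : ∀ k ∈ Ms, 2 ^ (K + 1) < k ∧ k ∣ M) (hb : M * 2 ^ (K + 4) < b)
    (hcop : Nat.Coprime b M) :
    ∃ c : ℕ → ℕ, (∀ i j, i < j → c i + 4 * N1 < c j) ∧ (∀ i, 4 * N1 < c i) ∧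
      (∀ i j k l, i < K → j < K → k < K → l < K → i ≠ j → k ≠ l →
        |((c j : ℤ) - c i) - ((c l : ℤ) - c k)| ≤ 4 * N1 → i = k ∧ j = l) ∧
      ∀ T : ℕ, (∀ i < K, c i ≤ T) →
        ((Finset.range K ×ˢ Finset.range K).filter
          (fun p => p.1 ≠ p.2 ∧ Bad Ms M b m (T + c p.2 - c p.1))).card ≤ Ms.card + m := by
  have hb0 : 0 < b := by omega
  obtain ⟨K0, hK1, hK2, hK3⟩ := exists_K0 M b m N1 hM hb0 hcop
  refine ⟨fun l => 2 ^ l * K0, ?_, ?_, ?_, ?_⟩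
  · intro i j hij
    have h1 := two_le hij
    have h2 : 1 ≤ 2 ^ i := Nat.one_le_two_pow
    show 2 ^ i * K0 + 4 * N1 < 2 ^ j * K0
    calc 2 ^ i * K0 + 4 * N1 < 2 ^ i * K0 + K0 := by omega
      _ ≤ 2 ^ i * K0 + 2 ^ i * K0 := by
          have : 1 * K0 ≤ 2 ^ i * K0 := Nat.mul_le_mul_right K0 h2
          omega
      _ = (2 * 2 ^ i) * K0 := by ring
      _ ≤ 2 ^ j * K0 := Nat.mul_le_mul_right K0 h1
  · intro i
    have h2 : 1 ≤ 2 ^ i := Nat.one_le_two_pow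
    have : 1 * K0 ≤ 2 ^ i * K0 := Nat.mul_le_mul_right K0 h2
    show 4 * N1 < 2 ^ i * K0
    omega
  · intro i j k l hi hj hk hl hij hkl h
    by_contra hne
    have hγ := diff_ne hij hkl hne
    push_cast at h
    have e : ((2 : ℤ) ^ j * K0 - 2 ^ i * K0) - (2 ^ l * K0 - 2 ^ k * K0)
        = K0 * (((2 : ℤ) ^ j - 2 ^ i) - ((2 : ℤ) ^ l - 2 ^ k)) := by ring
    rw [e, abs_mul] at h
    have h1 : (1 : ℤ) ≤ |((2 : ℤ) ^ j - 2 ^ i) - ((2 : ℤ) ^ l - 2 ^ k)| := Int.one_le_abs hγ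
    have h2 : (4 * (N1 : ℤ)) < K0 := by exact_mod_cast hK1
    have h3 : |(K0 : ℤ)| = K0 := abs_of_nonneg (by positivity)
    rw [h3] at h
    nlinarith
  · intro T hT
    have hsub : ((Finset.range K ×ˢ Finset.range K).filter
          (fun p => p.1 ≠ p.2 ∧ Bad Ms M b m (T + 2 ^ p.2 * K0 - 2 ^ p.1 * K0))) ⊆
        (Ms.biUnion fun k => (Finset.range K ×ˢ Finset.range K).filter
          (fun p => p.1 ≠ p.2 ∧ k ∣ T + 2 ^ p.2 * K0 - 2 ^ p.1 * K0)) ∪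
        ((Finset.range m).biUnion fun d => (Finset.range K ×ˢ Finset.range K).filter
          (fun p => p.1 ≠ p.2 ∧ ¬ (M ≤ (T + 2 ^ p.2 * K0 - 2 ^ p.1 * K0) / b ^ d % b ∧
            (T + 2 ^ p.2 * K0 - 2 ^ p.1 * K0) / b ^ d % b + M + 1 ≤ b))) := by
      intro p hp
      rw [Finset.mem_filter] at hp
      obtain ⟨hp1, hp2, hp3⟩ := hp
      rw [Finset.mem_union]
      rcases hp3 with ⟨k, hk, hkd⟩ | ⟨d, hd, hdd⟩
      · left
        rw [Finset.mem_biUnion]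
        exact ⟨k, hk, Finset.mem_filter.2 ⟨hp1, hp2, hkd⟩⟩
      · right
        rw [Finset.mem_biUnion]
        exact ⟨d, Finset.mem_range.2 hd, Finset.mem_filter.2 ⟨hp1, hp2, hdd⟩⟩
    have cast : ∀ p : ℕ × ℕ, p.1 < K →
        ((T + 2 ^ p.2 * K0 - 2 ^ p.1 * K0 : ℕ) : ℤ) = (T : ℤ) + 2 ^ p.2 * K0 - 2 ^ p.1 * K0 := by
      intro p hp
      have h0 : 2 ^ p.1 * K0 ≤ T := hT p.1 hp
      rw [Nat.cast_sub (le_trans h0 (Nat.le_add_right _ _))]
      push_cast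
      ring
    refine le_trans (Finset.card_le_card hsub) ?_
    refine le_trans (Finset.card_union_le _ _) ?_
    apply Nat.add_le_add
    · have := Finset.card_biUnion_le_card_mul Ms (fun k => (Finset.range K ×ˢ Finset.range K).filter
          (fun p => p.1 ≠ p.2 ∧ k ∣ T + 2 ^ p.2 * K0 - 2 ^ p.1 * K0)) 1 ?_
      · simpa using this
      · intro k hk
        rw [Finset.card_le_one]
        intro p hp p' hp'
        rw [Finset.mem_filter, Finset.mem_product, Finset.mem_range, Finset.mem_range] at hp hp'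
        obtain ⟨⟨a1, a2⟩, a3, a4⟩ := hp
        obtain ⟨⟨b1, b2⟩, b3, b4⟩ := hp'
        have c1 : (k : ℤ) ∣ (T : ℤ) + 2 ^ p.2 * K0 - 2 ^ p.1 * K0 := by
          rw [← cast p a1]; exact_mod_cast a4
        have c2 : (k : ℤ) ∣ (T : ℤ) + 2 ^ p'.2 * K0 - 2 ^ p'.1 * K0 := by
          rw [← cast p' b1]; exact_mod_cast b4
        have := prime_unique hK2 (hMs k hk).2 (hMs k hk).1 a1 a2 b1 b2 a3 b3 c1 c2
        exact Prod.ext this.1 this.2
    · have := Finset.card_biUnion_le_card_mul (Finset.range m)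
          (fun d => (Finset.range K ×ˢ Finset.range K).filter
          (fun p => p.1 ≠ p.2 ∧ ¬ (M ≤ (T + 2 ^ p.2 * K0 - 2 ^ p.1 * K0) / b ^ d % b ∧
            (T + 2 ^ p.2 * K0 - 2 ^ p.1 * K0) / b ^ d % b + M + 1 ≤ b))) 1 ?_
      · simpa using this
      · intro d hd
        rw [Finset.card_le_one]
        intro p hp p' hp'
        rw [Finset.mem_filter, Finset.mem_product, Finset.mem_range, Finset.mem_range] at hp hp'
        obtain ⟨⟨a1, a2⟩, a3, a4⟩ := hp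
        obtain ⟨⟨b1, b2⟩, b3, b4⟩ := hp'
        obtain ⟨q, hq⟩ := digit_band a4 hb0
        obtain ⟨q', hq'⟩ := digit_band b4 hb0
        rw [cast p a1] at hq
        rw [cast p' b1] at hq'
        have := digit_unique hM hK3 hb (Finset.mem_range.1 hd) a1 a2 b1 b2 a3 b3 hq hq'
        exact Prod.ext this.1 this.2

end Crest.Agent.R320.Sp_537
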