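import Crest.Agent.R320.Top_270
import Crest.Agent.R320.Sc2n_937
import Crest.Agent.R320.G1_604
import Crest.Agent.R320.Sp_537
import Crest.Agent.R320.ExactR_237
import Crest.Agent.R320.WallU_228
import Crest.Agent.R320.P4_933
import Crest.Agent.R320.Uni_366
import Crest.Agent.R320.Loc_645
import Crest.Agent.R320.Two_621

/-!
Row 320, final assembly (helper537): top of helper270 / helper110, both schemes of helper937,
gadget 1 of helper852 / helper604, spoil count Sp_537, exact gadget of helper237, walls of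
helper228, heights of helper933.
-/

set_option autoImplicit false

namespace Crest.Agent.R320.Fin_537

open Crest.RegLang Crest.Agent.R320.Hk_851 Crest.Agent.R320.Code110

section joint

open Crest.Agent.R320.Sc2n_937 Crest.Agent.R320.Top270

variable {α V : Type} {g : Geo α} {pre : List α → V → V} {post : V → List α → V}

theorem xx_pc (hz : 0 < g.z) : PC ({X | g.XX X} : Language α) where
  ne := fun h => by
    have h1 : g.XX [] := h
    have := h1.1
    simp at this
    omega
  pf := by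
    rintro u hu v hv ⟨r, rfl⟩
    exact g.prefix_code (R := r) (R' := []) hu hv (by simp)

/-- semantically bad blocks are structurally bad -/
theorem bad_of_badA {BadT : ℕ → Prop} {lam rho : List α → Option V}
    (hlen : ∀ P v, lam P = some v → P.length ≤ g.N1)
    (hex : ∀ P Q u b, lam P = some u → rho Q = some b → b = post u (P ++ Q))
    (hc : ∀ X, g.XX X → ¬ BadT (X.length - g.p0) →
      ∀ u : V, ∃ P Q, X.drop g.p0 = P ++ Q ∧ lam P = some u ∧ (rho Q).isSome)
    {X : List α} (hX : X ∈ BadA ({X | g.XX X} : Language α) (fun X v => g.T pre post v X)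
      (fun v => {P | g.LP1 pre lam v P})) : g.BadX BadT X := by
  by_contra hb
  obtain ⟨hXX, x, hx⟩ := hX
  have hXX' : g.XX X := hXX
  have hE : ¬ g.E X := fun h => hb (Or.inl h)
  have hB : ¬ BadT (X.length - g.p0) := fun h => hb (Or.inr h)
  obtain ⟨P, Q, b, e, hP, hQ⟩ := g.complete1 pre hlen hXX' hE (hc X hXX' hB) x
  refine hx ⟨P, Q, b, e, hP, ?_⟩
  intro x' p' hp'
  left
  obtain ⟨h1, h2⟩ := g.sound1 pre post hlen hex hp' hQ
  refine ⟨b, Language.mem_mul.2 ⟨p' ++ Q, ⟨h1, h2⟩, [], ⟨rfl, rfl⟩, by simp⟩⟩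

theorem joint_c2 {BadT : ℕ → Prop} {lam rho : List α → Option V}
    (hlen : ∀ P v, lam P = some v → P.length ≤ g.N1)
    (hex1 : ∀ P Q u b, lam P = some u → rho Q = some b → b = post u (P ++ Q))
    (hcomp : ∀ X, g.XX X → ¬ BadT (X.length - g.p0) →
      ∀ u : V, ∃ P Q, X.drop g.p0 = P ++ Q ∧ lam P = some u ∧ (rho Q).isSome)
    {K : ℕ} {c : ℕ → ℕ} {lam2 rho2 : ℕ → List α → Option V} {C0 : ℕ}
    (hc : ∀ k, k < K → c k ≤ g.p0)
    (hex : ∀ k, k < K → ∀ P Q v u, P.length = c k → Q.length = g.p0 - c k →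
      lam2 k P = some v → rho2 k Q = some u → u = pre (P ++ Q) v)
    (hgap : ∀ P Q : List α, g.Wo P → g.Wo (P ++ Q) → Q ≠ [] → 2 * g.p0 + 2 * g.N1 < Q.length)
    (hsp : ∀ k k' l l', k < K → k' < K → l < K → l' < K → k' ≠ k → l' ≠ l →
      c k + c l' < c l + c k' + 2 * g.N1 → c l + c k' < c k + c l' + 2 * g.N1 → k = l)
    (hthin : ∀ τ, g.z ≤ τ + g.p0 → ∀ J : Finset ℕ, (∀ k ∈ J, k < K ∧
      ∃ k', k' < K ∧ k' ≠ k ∧ BadT (τ + c k' - c k - g.p0)) → J.card ≤ C0)
    (hI : ∀ X, g.XX X → ∀ v, ∃ I : Finset ℕ, 2 * C0 + 2 ≤ I.card ∧ ∀ k ∈ I, k < K ∧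
      lam2 k (X.take (c k)) = some v ∧ (rho2 k ((X.take g.p0).drop (c k))).isSome) :
    ∀ u ∈ BadA ({X | g.XX X} : Language α) (fun X v => g.T pre post v X)
      (fun v => {P | g.LP1 pre lam v P}), ∀ x, ∀ t ∈ BadA ({X | g.XX X} : Language α)
      (fun X v => g.T pre post v X) (fun v => {P | g.LP1 pre lam v P}),
      ∃ p q y, u ++ t = p ++ q ∧ p ∈ ({P | Geo.LP2 K c lam2 x P} : Language α) ∧
      q ∈ Rsem ({X | g.XX X} : Language α) (BadA ({X | g.XX X} : Language α)
        (fun X v => g.T pre post v X) (fun v => {P | g.LP1 pre lam v P}))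
        (fun X v => g.T pre post v X) 1 (fun v => {P | Geo.LP2 K c lam2 v P}) y := by
  intro u hu x t ht
  have hu' : g.XX u := hu.1
  have ht' : g.XX t := ht.1
  obtain ⟨P, Q, b, e, hP, hQ⟩ := g.complete2 pre post (BadT := BadT) hc hgap hsp hthin hu' ht' x
    (hI u hu' x)
  refine ⟨P, Q, b, e.symm, hP, ?_⟩
  intro x' p' hp'
  have hp'' : Geo.LP2 K c lam2 x' p' := hp'
  have hQ' := hQ
  obtain ⟨k0, hk0, hPl, hl⟩ := hp'
  obtain ⟨k, hk, l, hend, hgood, hX2, w0, hr, hb⟩ := hQ
  -- a candidate end of `k0`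
  by_cases hkk : k0 = k
  · subst hkk
    have h1 : g.XX (p' ++ Q.take l) :=
      g.xx_of_cend (by rw [hPl]; exact hc k0 hk0) (by rw [hPl]; exact hend)
    have e1 : p' ++ Q = (p' ++ Q.take l) ++ Q.drop l := by
      rw [List.append_assoc, List.take_append_drop]
    by_cases hA : (p' ++ Q.take l) ∈ BadA ({X | g.XX X} : Language α)
        (fun X v => g.T pre post v X) (fun v => {P | g.LP1 pre lam v P})
    · by_cases hA2 : Q.drop l ∈ BadA ({X | g.XX X} : Language α)
        (fun X v => g.T pre post v X) (fun v => {P | g.LP1 pre lam v P})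
      · left
        have hbad := bad_of_badA (BadT := BadT) hlen hex1 hcomp hA
        obtain ⟨X2, hX2', e2, hv⟩ := g.sound2 pre post (BadT := BadT) (K := K) (c := c)
          (lam2 := lam2) (rho2 := rho2) (R := []) (R' := Q.drop l) hc hex h1 hbad hp'' hQ'
          (by rw [List.append_nil, e1])
        have e3 : X2 = Q.drop l := by
          rw [e1] at e2
          exact (List.append_cancel_left e2).symm
        subst e3
        refine ⟨g.T pre post x' (p' ++ Q.take l), Language.mem_mul.2 ⟨p' ++ Q.take l,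
          ⟨hA, rfl⟩, Q.drop l, ?_, e1.symm⟩⟩
        refine ⟨b, Language.mem_mul.2 ⟨Q.drop l, ⟨hA2, hv⟩, [], ⟨rfl, rfl⟩, by simp⟩⟩
      · right
        right
        exact Language.mem_mul.2 ⟨p' ++ Q.take l, h1, Q.drop l,
          ⟨Q.drop l, hX2, hA2, List.prefix_refl _⟩, e1.symm⟩
    · right
      left
      exact ⟨p' ++ Q.take l, h1, hA, ⟨Q.drop l, e1.symm⟩⟩
  · obtain ⟨l', he', hg'⟩ := hgood k0 hk0 hkk
    have h1 : g.XX (p' ++ Q.take l') :=
      g.xx_of_cend (by rw [hPl]; exact hc k0 hk0) (by rw [hPl]; exact he')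
    have e1 : p' ++ Q = (p' ++ Q.take l') ++ Q.drop l' := by
      rw [List.append_assoc, List.take_append_drop]
    right
    left
    refine ⟨p' ++ Q.take l', h1, fun hA => hg' ?_, ⟨Q.drop l', e1.symm⟩⟩
    have hbad := bad_of_badA (BadT := BadT) hlen hex1 hcomp hA
    have := g.cbad_of_bad (BadT := BadT) (P := p') (Q := Q) (l := l')
      (by rw [hPl]; exact hc k0 hk0) (by rw [hPl]; exact he') hbad
    rw [hPl] at this
    exact this

end joint

/-- pieces of 11 = pieces of 746 -/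
theorem pieces_pn {α : Type} {B R : ℕ} {u : List α}
    (h : Crest.Agent.R320.CompR_11.Pieces R B u) :
    u ∈ (Crest.Agent.R320.BddReg_746.PN B R : Language α) := by
  obtain ⟨l, hl, hb, rfl⟩ := h
  induction R generalizing l with
  | zero =>
    have : l = [] := List.length_eq_zero_iff.1 (by omega)
    subst this
    exact (Language.mem_one _).2 rfl
  | succ R ih =>
    cases l with
    | nil =>
      refine Language.mem_mul.2 ⟨[], Crest.Agent.R320.BddReg_746.nil_mem_Pc B, [], ?_, rfl⟩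
      exact ih [] (by simp) (by simp)
    | cons t l =>
      have h1 := hb t (by simp)
      refine Language.mem_mul.2 ⟨t.1 ++ Crest.Agent.R320.Pump_360.pw t.2.1 t.2.2,
        ⟨t.1, t.2.1, t.2.2, h1.1, h1.2, rfl⟩, Crest.Agent.R320.Pump_360.val l, ?_, ?_⟩
      · refine ih l (by simp at hl; omega) (fun t' ht' => hb t' (by simp [ht']))
      · simp [Crest.Agent.R320.Pump_360.val]

section main

open Crest.Agent.R320.Sc2n_937 Crest.Agent.R320.Top270

open Classical in
theorem card_spoiled {K C p0 z : ℕ} {c : ℕ → ℕ} {Bad : ℕ → Prop}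
    (hs : ∀ T : ℕ, (∀ i < K, c i ≤ T) → ((Finset.range K ×ˢ Finset.range K).filter
      (fun p => p.1 ≠ p.2 ∧ Bad (T + c p.2 - c p.1))).card ≤ C)
    (hz : ∀ i < K, c i + 2 * p0 ≤ z) {τ : ℕ} (hτ : z ≤ τ + p0) (J : Finset ℕ)
    (hJ : ∀ k ∈ J, k < K ∧ ∃ k', k' < K ∧ k' ≠ k ∧ Bad (τ + c k' - c k - p0)) :
    J.card ≤ C := by
  have h1 : ∀ k ∈ J, ∃ k', k' < K ∧ k' ≠ k ∧ Bad (τ + c k' - c k - p0) := fun k hk => (hJ k hk).2
  choose! f hf using h1
  have hT : ∀ i < K, c i ≤ τ - p0 := by
    intro i hi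
    have := hz i hi
    omega
  refine le_trans (Finset.card_le_card_of_injOn (fun k => (k, f k)) ?_ ?_) (hs (τ - p0) hT)
  · intro k hk
    have hk' : k ∈ J := hk
    obtain ⟨a1, a2, a3⟩ := hf k hk'
    have a0 := (hJ k hk').1
    have hck := hT k a0
    have e : τ + c (f k) - c k - p0 = τ - p0 + c (f k) - c k := by
      have := hz k a0
      omega
    rw [e] at a3
    simp only [Finset.coe_filter, Set.mem_ofPred_eq, Finset.mem_product, Finset.mem_range]
    exact ⟨⟨a0, a1⟩, fun h => a2 h.symm, a3⟩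
  · intro k _ k' _ h
    exact (Prod.ext_iff.1 h).1

theorem reg_T {α S V : Type} [Finite α] [Monoid S] [Finite S] [Add V] (φ : α → S)
    (act : V → S → V) (nu1 nu2 : List α → V) {g : Geo α} {N Mo : ℕ} (hMo : 0 < Mo)
    (h4 : ∀ Q Q' : List α, N ≤ Q.length → N ≤ Q'.length → Q.take N = Q'.take N →
      Q.length % Mo = Q'.length % Mo →
      ((Q.drop N).map φ).prod = ((Q'.drop N).map φ).prod → nu1 Q = nu1 Q')
    (x y : V) :
    Language.IsRegular ({X | g.T (fun X0 v => act v (X0.map φ).prod + nu2 X0)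
      (fun u Y => act u (Y.map φ).prod + nu1 Y) x X = y} : Language α) := by
  refine Crest.Agent.R320.Loc_645.isRegular_of_read' φ (g.p0 + N) Mo hMo
    (fun X => g.T (fun X0 v => act v (X0.map φ).prod + nu2 X0)
      (fun u Y => act u (Y.map φ).prod + nu1 Y) x X = y) ?_
  intro q q' hq hq' ht hd hl h
  have t1 : q.take g.p0 = q'.take g.p0 := by
    have := congrArg (fun l => l.take g.p0) ht
    simpa [List.take_take] using this
  have d1 : (q.drop g.p0).take N = (q'.drop g.p0).take N := by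
    have := congrArg (fun l => l.drop g.p0) ht
    simpa [List.drop_take] using this
  have d2 : ∀ l : List α, (l.drop g.p0).drop N = l.drop (g.p0 + N) := by
    intro l; rw [List.drop_drop]
  have hd' : (((q.drop g.p0).drop N).map φ).prod = (((q'.drop g.p0).drop N).map φ).prod := by
    rw [d2, d2]; exact hd
  have hm : (q.drop g.p0).length % Mo = (q'.drop g.p0).length % Mo := by
    rw [List.length_drop, List.length_drop]
    have e : (q.length - g.p0) + g.p0 ≡ (q'.length - g.p0) + g.p0 [MOD Mo] := by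
      rw [Nat.sub_add_cancel (by omega), Nat.sub_add_cancel (by omega)]
      exact hl
    exact Nat.ModEq.add_right_cancel' g.p0 e
  have hn : nu1 (q.drop g.p0) = nu1 (q'.drop g.p0) :=
    h4 _ _ (by rw [List.length_drop]; omega) (by rw [List.length_drop]; omega) d1 hm hd'
  have hp : ((q.drop g.p0).map φ).prod = ((q'.drop g.p0).map φ).prod := by
    rw [← List.take_append_drop N (q.drop g.p0), ← List.take_append_drop N (q'.drop g.p0),
      List.map_append, List.map_append, List.prod_append, List.prod_append, d1, hd']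
  rw [← h]
  unfold Geo.T
  simp only
  rw [t1, hp, hn]

theorem fin_len {α : Type} [Finite α] {N : ℕ} {L : Language α} (h : ∀ w ∈ L, w.length ≤ N) :
    {p | p ∈ L}.Finite :=
  (List.finite_length_le α N).subset fun w hw => h w hw

theorem main (α : Type) [Finite α] (S : Type) [Monoid S] [Finite S] (φ : α → S) (s : S) :
    HL 3 ({w | (w.map φ).prod = s} : Language α) := by
  classical
  have : Fintype S := Fintype.ofFinite S
  have : Fintype (Crest.Agent.R320.Two_621.Tok S) := Fintype.ofFinite _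
  have act_add : ∀ (v w : Crest.Agent.R320.Two_621.Tok S) (t : S),
      Crest.Agent.R320.Two_621.act (v + w) t = Crest.Agent.R320.Two_621.act v t +
        Crest.Agent.R320.Two_621.act w t := fun v w t => rfl
  obtain ⟨m, r, hg⟩ := Crest.Agent.R320.G1_604.g1 S (Crest.Agent.R320.Two_621.Tok S)
    Crest.Agent.R320.Two_621.act
  obtain ⟨K, hK⟩ := Crest.Agent.R320.ExactR_237.exact_gadget α S
    (Crest.Agent.R320.Two_621.Tok S) φ Crest.Agent.R320.Two_621.act (2 * (r + m) + 2)
  obtain ⟨Ms, M, hcard, hMs, hM, hb⟩ := hg (2 ^ (K + 1))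
  obtain ⟨b, hbdef⟩ : ∃ b, b = M * 2 ^ (K + 4) + 1 := ⟨_, rfl⟩
  have hbb : M * 2 ^ (K + 4) < b := by omega
  have h16 : 16 ≤ 2 ^ (K + 4) := by
    calc 16 = 2 ^ 4 := by norm_num
      _ ≤ 2 ^ (K + 4) := Nat.pow_le_pow_right (by norm_num) (by omega)
  have hb4 : 4 * M + 4 < b := by
    have : M * 16 ≤ M * 2 ^ (K + 4) := Nat.mul_le_mul_left M h16
    omega
  have hcop : Nat.Coprime b M := by
    rw [hbdef]
    simp
  have hbpos : 0 < b := by omega
  have hN1 : 0 < b ^ m := Nat.pow_pos hbpos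
  obtain ⟨lam, rho, nu1, h1, h2, h3, h4⟩ := hb b hb4 hcop α φ
  obtain ⟨c, hc1, hc2, hc3, hc4⟩ := Crest.Agent.R320.Sp_537.spoil K M m b (b ^ m) Ms hM
    (fun k hk => ⟨(hMs k hk).1, (hMs k hk).2.2⟩) hbb hcop
  obtain ⟨lam2, rho2, nu2, e1, e2⟩ := hK c (fun i j hij _ => by
    have := hc1 i j hij
    omega)
  obtain ⟨n, Wo, loc, len, gap, R, B, free⟩ :=
    Crest.Agent.R320.WallU_228.walls (α := α) (2 * c K + 2 * b ^ m)
  let g : Geo α :=
    { Wo := Wo
      n := n
      z := c K + b ^ m + (n + 3 * c K)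
      p0 := c K
      q0 := n + 3 * c K
      N1 := b ^ m
      loc := loc
      hz := rfl
      hq := by omega
      hN := hN1
      hqp := by omega }
  have hcK : ∀ k, k < K → c k ≤ c K := fun k hk => by
    have := hc1 k K hk
    omega
  have free' : ∀ u : List α, (∀ t < u.length, ¬ Wo (u.take t)) →
      u ∈ (Crest.Agent.R320.BddReg_746.PN B R : Language α) := fun u hu => pieces_pn (free u hu)
  have hiff : ∀ X : List α, g.XX X ↔ Crest.Agent.R320.P4_933.XX Wo g.z X := fun X =>
    ⟨fun h => ⟨h.2.1, h.1, fun t ht hz => h.2.2 t hz ht⟩,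
      fun h => ⟨h.2.1, h.1, fun t hz ht => h.2.2 t ht hz⟩⟩
  have hlen : ∀ P v, lam P = some v → P.length ≤ g.N1 := fun P v h => (h1 P v h).le
  have hex1 : ∀ P Q u b', lam P = some u → rho Q = some b' →
      b' = (fun u Y => Crest.Agent.R320.Two_621.act u (Y.map φ).prod + nu1 Y) u (P ++ Q) :=
    fun P Q u b' hP hQ => h2 P Q u b' hP hQ
  have hcomp : ∀ X, g.XX X → ¬ Crest.Agent.R320.Sp_537.Bad Ms M b m (X.length - g.p0) →
      ∀ u, ∃ P Q, X.drop g.p0 = P ++ Q ∧ lam P = some u ∧ (rho Q).isSome := by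
    intro X _ hB u
    have hB1 : ∀ k ∈ Ms, ¬ k ∣ (X.drop g.p0).length := by
      intro k hk hd
      rw [List.length_drop] at hd
      exact hB (Or.inl ⟨k, hk, hd⟩)
    have hB2 : ∀ j < m, M ≤ (X.drop g.p0).length / b ^ j % b ∧
        (X.drop g.p0).length / b ^ j % b + M + 1 ≤ b := by
      intro j hj
      rw [List.length_drop]
      by_contra hcon
      exact hB (Or.inr ⟨j, hj, hcon⟩)
    obtain ⟨P, Q, a1, a2, a3⟩ := h3 (X.drop g.p0) hB1 hB2 u
    exact ⟨P, Q, a1.symm, a2, a3⟩
  have hex : ∀ k, k < K → ∀ P Q v u, P.length = c k → Q.length = g.p0 - c k →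
      lam2 k P = some v → (fun k Q => rho2 k Q 1) k Q = some u →
      u = (fun X0 v => Crest.Agent.R320.Two_621.act v (X0.map φ).prod + nu2 X0 1) (P ++ Q) v := by
    intro k hk P Q v u hP _ hl hr
    have := e1 k hk P Q 1 v u hP hl hr
    rw [mul_one] at this
    exact this
  have hgap : ∀ P Q : List α, g.Wo P → g.Wo (P ++ Q) → Q ≠ [] →
      2 * g.p0 + 2 * g.N1 < Q.length := by
    intro P Q hP hPQ hQ
    by_contra hcon
    have hl : 0 < Q.length := List.length_pos_iff.2 hQ
    refine gap (P ++ Q) Q.length hPQ hl (by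
      have : ¬ 2 * c K + 2 * b ^ m < Q.length := hcon
      omega) ?_
    rw [List.length_append, Nat.add_sub_cancel, List.take_left]
    exact hP
  have hsp : ∀ k k' l l', k < K → k' < K → l < K → l' < K → k' ≠ k → l' ≠ l →
      c k + c l' < c l + c k' + 2 * g.N1 → c l + c k' < c k + c l' + 2 * g.N1 → k = l := by
    intro k k' l l' hk hk' hl hl' hne hne' a1 a2
    have a1' : c k + c l' < c l + c k' + 2 * b ^ m := a1
    have a2' : c l + c k' < c k + c l' + 2 * b ^ m := a2
    refine (hc3 k' k l' l hk' hk hl' hl hne hne' ?_).2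
    have b1 : ((c k : ℤ) + c l') < c l + c k' + 2 * ((b ^ m : ℕ) : ℤ) := by exact_mod_cast a1'
    have b2 : ((c l : ℤ) + c k') < c k + c l' + 2 * ((b ^ m : ℕ) : ℤ) := by exact_mod_cast a2'
    have b3 : (0 : ℤ) ≤ ((b ^ m : ℕ) : ℤ) := by positivity
    rw [abs_le]
    constructor <;> linarith
  have hthin : ∀ τ, g.z ≤ τ + g.p0 → ∀ J : Finset ℕ, (∀ k ∈ J, k < K ∧
      ∃ k', k' < K ∧ k' ≠ k ∧
        Crest.Agent.R320.Sp_537.Bad Ms M b m (τ + c k' - c k - g.p0)) → J.card ≤ r + m := by
    intro τ hτ J hJ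
    refine le_trans (card_spoiled (C := Ms.card + m) (z := g.z) (p0 := g.p0) hc4 ?_ hτ J hJ)
      (by omega)
    intro i hi
    have := hcK i hi
    show c i + 2 * c K ≤ c K + b ^ m + (n + 3 * c K)
    omega
  have hI : ∀ X, g.XX X → ∀ v, ∃ I : Finset ℕ, 2 * (r + m) + 2 ≤ I.card ∧ ∀ k ∈ I, k < K ∧
      lam2 k (X.take (c k)) = some v ∧
        ((fun k Q => rho2 k Q 1) k ((X.take g.p0).drop (c k))).isSome := by
    intro X hX v
    have hXl : c K ≤ X.length := by
      have := hX.1
      have h' : c K + b ^ m + (n + 3 * c K) ≤ X.length := this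
      omega
    obtain ⟨I, hI1, hI2⟩ := e2 (X.take (c K)) 1 v (fun k hk => by
      rw [List.length_take]
      have := hcK k hk
      omega)
    refine ⟨I, hI1, fun k hk => ?_⟩
    obtain ⟨a1, a2, a3⟩ := hI2 k hk
    refine ⟨a1, ?_, a3⟩
    rw [List.take_take, Nat.min_eq_left (hcK k a1)] at a2
    exact a2
  refine Crest.Agent.R320.Top270.top (V := Crest.Agent.R320.Two_621.Tok S)
    (fun w : List α => (w.map φ).prod) (by simp) (by intro u v; simp)
    Crest.Agent.R320.Two_621.act act_add Crest.Agent.R320.Two_621.act_one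
    (fun v s t => (Crest.Agent.R320.Two_621.act_mul v s t).symm)
    (fun s t h => Crest.Agent.R320.Two_621.act_faithful h)
    (xx_pc (g := g) (by show 0 < c K + b ^ m + (n + 3 * c K); omega))
    (fun X => Crest.Agent.R320.Two_621.act (nu2 (X.take (c K)) 1) ((X.drop (c K)).map φ).prod
      + nu1 (X.drop (c K))) ?_ ?_ ?_ ?_ ?_ ?_
    (joint_c2 (g := g) (BadT := Crest.Agent.R320.Sp_537.Bad Ms M b m)
      (pre := fun X0 v => Crest.Agent.R320.Two_621.act v (X0.map φ).prod + nu2 X0 1)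
      (post := fun u Y => Crest.Agent.R320.Two_621.act u (Y.map φ).prod + nu1 Y)
      (lam2 := lam2) (rho2 := fun k Q => rho2 k Q 1)
      hlen hex1 hcomp hcK hex hgap hsp hthin hI) s
  · intro X _ v
    have e : (X.map φ).prod = ((X.take (c K)).map φ).prod * ((X.drop (c K)).map φ).prod := by
      rw [← List.prod_append, ← List.map_append, List.take_append_drop]
    show Crest.Agent.R320.Two_621.act (Crest.Agent.R320.Two_621.act v
      ((X.take (c K)).map φ).prod + nu2 (X.take (c K)) 1) ((X.drop (c K)).map φ).prod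
      + nu1 (X.drop (c K)) = _
    rw [act_add, Crest.Agent.R320.Two_621.act_mul, ← e, add_assoc]
  · refine (Crest.Agent.R320.P4_933.hl_XX0 (Wo := Wo) (z := g.z) (k := 1) loc len).congr
      fun X => ?_
    exact hiff X
  · intro x y
    refine (Crest.Agent.R320.P4_933.hl_XX (z := g.z) loc len free'
      (reg_T φ Crest.Agent.R320.Two_621.act nu1 (fun X => nu2 X 1) (g := g) (N := b ^ m)
        (Mo := M * b ^ m) (Nat.mul_pos hM hN1)
        (fun Q Q' a1 a2 a3 a4 a5 => (h4 Q Q' a1 a2 a3 a4 a5).2) x y)).congr fun X => ?_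
    exact ⟨fun h => ⟨(hiff X).1 h.1, h.2⟩, fun h => ⟨(hiff X).2 h.1, h.2⟩⟩
  · intro s
    have hreg : Language.IsRegular ({q | (q.map φ).prod = s} : Language α) := by
      refine Crest.Agent.R320.Loc_645.isRegular_of_read' φ 0 1 one_pos
        (fun q => (q.map φ).prod = s) ?_
      intro q q' _ _ _ hd _ h
      rw [List.drop_zero, List.drop_zero] at hd
      rw [← hd]; exact h
    refine (Crest.Agent.R320.P4_933.hl_NB (z := g.z) loc len free' hreg).congr fun X => ?_
    constructor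
    · rintro ⟨a1, a2⟩
      exact ⟨(Crest.Agent.R320.P4_933.NB_iff Wo g.z X).2 fun P hp hP =>
        a1 P ((hiff P).2 hP) hp, a2⟩
    · rintro ⟨a1, a2⟩
      exact ⟨fun P hP hp => (Crest.Agent.R320.P4_933.NB_iff Wo g.z X).1 a1 P hp
        ((hiff P).1 hP), a2⟩
  · intro x
    refine fin_len (N := c K + b ^ m) ?_
    rintro P ⟨hP1, hP2⟩
    have := h1 _ _ hP2
    rw [List.length_drop] at this
    have h' : P.length - c K < b ^ m := this
    omega
  · intro x
    refine fin_len (N := c K) ?_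
    rintro P ⟨k, hk, hP, -⟩
    rw [hP]; exact hcK k hk

/-- **S0495's statement.** -/
theorem row (α : Type*) [Finite α] (L : Language α) (hL : L.IsRegular) :
    ∃ e : GRegExp α, e.height ≤ 3 ∧ e.lang = L :=
  Crest.Agent.R320.Uni_366.final1 (fun a _ S _ _ φ s => main a S φ s) α L hL

end main

end Crest.Agent.R320.Fin_537
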