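import Crest.Agent.R320.Reg_236
import Crest.Agent.R320.Hk2_851

/-! Row 320, P4 for the NATURAL block code (first left-looking wall at a place `≥ z`), all words:
the block code is star free; every regular set of blocks, of block-prefix-free words, of products of
boundedly many words which are wall free behind a bounded prefix has height at most one. -/

set_option autoImplicit false

namespace Crest.Agent.R320.P4n_36

open Crest.RegLang Crest.Agent.R320.Hk_851 Crest.Agent.R320.Reg_236

universe u v

variable {α : Type u}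

/-- the language of a predicate -/
def lg (P : List α → Prop) : Language α := {w | P w}

theorem mem_lg {P : List α → Prop} {w : List α} : w ∈ lg P ↔ P w := Iff.rfl

/-- left-looking walls on all words -/
structure LW (n B : ℕ) (Wo : List α → Prop) : Prop where
  app : ∀ P Q, n ≤ Q.length → (Wo (P ++ Q) ↔ Wo Q)
  len : ∀ P, Wo P → n ≤ P.length
  dec : ∀ u : List α, (∀ t < u.length, ¬ Wo (u.take t)) →
    ∃ (a p v : List α) (k : ℕ), u = a ++ (List.replicate k p).flatten ++ v ∧
      a.length ≤ B ∧ p.length ≤ B ∧ v.length ≤ B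

/-- the natural block code -/
def XX (Wo : List α → Prop) (z : ℕ) : Set (List α) :=
  {X | z ≤ X.length ∧ Wo X ∧ ∀ t, z ≤ t → t < X.length → ¬ Wo (X.take t)}

/-- the natural block code as a language -/
def XL (Wo : List α → Prop) (z : ℕ) : Language α := XX Wo z

/-- no wall at the places `t ∈ [z, |w|)` -/
def Free (Wo : List α → Prop) (z : ℕ) (w : List α) : Prop :=
  ∀ t, z ≤ t → t < w.length → ¬ Wo (w.take t)

theorem XX_free {Wo : List α → Prop} {z : ℕ} {X : List α} (h : X ∈ XX Wo z) : Free Wo z X := h.2.2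

theorem XX_prefix {Wo : List α → Prop} {z : ℕ} {X Y : List α} (hX : X ∈ XX Wo z)
    (hY : X ++ Y ∈ XX Wo z) : Y = [] := by
  by_contra hne
  have h1 : X.length < (X ++ Y).length := by
    rw [List.length_append]
    have := List.length_pos_iff.2 hne
    omega
  have h2 := hY.2.2 X.length hX.1 h1
  rw [List.take_left] at h2
  exact h2 hX.2.1

theorem free_of_tail {Wo : List α → Prop} {z : ℕ} {r : List α}
    (h : ∀ X ∈ XX Wo z, ¬ X <+: r) : Free Wo z r := by
  classical
  intro t h1 h2 h3
  have hex : ∃ t, z ≤ t ∧ t < r.length ∧ Wo (r.take t) := ⟨t, h1, h2, h3⟩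
  obtain ⟨a, b, c⟩ := Nat.find_spec hex
  refine h (r.take (Nat.find hex)) ⟨?_, c, ?_⟩ (List.take_prefix _ _)
  · rw [List.length_take]; omega
  · intro s hs1 hs2 hs3
    rw [List.length_take] at hs2
    rw [List.take_take, min_eq_left (by omega)] at hs3
    exact Nat.find_min hex (by omega) ⟨hs1, by omega, hs3⟩

theorem wd_append (l l' : List (List α × List α × ℕ)) : wd (l ++ l') = wd l ++ wd l' := by
  simp [wd]

/-- bounded words with at most `r` runs -/
def Pcs (r B : ℕ) (w : List α) : Prop :=
  ∃ l : List (List α × List α × ℕ), l.length ≤ r ∧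
    (∀ t ∈ l, t.1.length ≤ B ∧ t.2.1.length ≤ B) ∧ w = wd l

theorem Pcs.append {r r' B B' : ℕ} {w w' : List α} (h : Pcs r B w) (h' : Pcs r' B' w') :
    Pcs (r + r') (max B B') (w ++ w') := by
  obtain ⟨l, h1, h2, rfl⟩ := h
  obtain ⟨l', h1', h2', rfl⟩ := h'
  refine ⟨l ++ l', by rw [List.length_append]; omega, ?_, (wd_append _ _).symm⟩
  intro t ht
  rcases List.mem_append.1 ht with ht | ht
  · have := h2 t ht; omega
  · have := h2' t ht; omega

theorem pcs_of_free {n B z : ℕ} {Wo : List α → Prop} (hW : LW n B Wo) {w : List α}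
    (h : Free Wo z w) : Pcs 2 (z + B) w := by
  rcases le_or_gt w.length z with hz | hz
  · exact ⟨[(w, [], 0)], by simp, by
      intro t ht
      simp only [List.mem_singleton] at ht
      subst ht
      exact ⟨by show w.length ≤ _; omega, by simp⟩, by simp [wd, rep]⟩
  · have hu : ∀ t < (w.drop z).length, ¬ Wo ((w.drop z).take t) := by
      intro t ht hw
      rw [List.length_drop] at ht
      have hn := hW.len _ hw
      have h1 := (hW.app (w.take z) _ hn).2 hw
      have h2 : w.take z ++ (w.drop z).take t = w.take (z + t) := by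
        rw [List.take_add]
      rw [h2] at h1
      exact h (z + t) (by omega) (by omega) h1
    obtain ⟨a, p, v, k, h1, h2, h3, h4⟩ := hW.dec _ hu
    refine ⟨[(w.take z ++ a, p, k), (v, [], 0)], by simp, ?_, ?_⟩
    · intro t ht
      simp only [List.mem_cons, List.not_mem_nil, or_false] at ht
      rcases ht with rfl | rfl
      · refine ⟨?_, ?_⟩
        · show (w.take z ++ a).length ≤ _
          rw [List.length_append, List.length_take]; omega
        · show p.length ≤ _
          omega
      · refine ⟨?_, by simp⟩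
        show v.length ≤ _
        omega
    · have h5 : w = w.take z ++ w.drop z := (List.take_append_drop z w).symm
      have h6 : wd [(w.take z ++ a, p, k), (v, [], 0)] =
          w.take z ++ (a ++ (List.replicate k p).flatten ++ v) := by
        simp [wd, rep, List.append_assoc]
      rw [h6, ← h1]
      exact h5

/-- walls are star free -/
theorem HL_wall [Finite α] {k n B : ℕ} {Wo : List α → Prop} (hW : LW n B Wo) :
    HL k {w : List α | Wo w} := by
  have h1 : HL k ((⊤ : Language α) * (lg fun Q => Q.length = n ∧ Wo Q)) := by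
    refine HL.top.mul (HL.finite ?_)
    exact (List.finite_length_eq α n).subset fun Q h => h.1
  refine h1.congr fun w => ?_
  rw [Language.mem_mul]
  constructor
  · intro h
    have hn := hW.len _ h
    refine ⟨w.take (w.length - n), trivial, w.drop (w.length - n), ⟨?_, ?_⟩,
      List.take_append_drop _ _⟩
    · rw [List.length_drop]; omega
    · rw [← hW.app (w.take (w.length - n))]
      · rw [List.take_append_drop]; exact h
      · rw [List.length_drop]; omega
  · rintro ⟨P, -, Q, ⟨h1, h2⟩, rfl⟩
    exact (hW.app P Q h1.ge).2 h2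

/-- the natural block code is star free -/
theorem HL_XX [Finite α] {k n B z : ℕ} {Wo : List α → Prop} (hW : LW n B Wo) :
    HL k (XL Wo z) := by
  have h1 : HL k (lg fun X : List α => z ≤ X.length ∧ Wo X) :=
    (HL.length_ge z).setOf_and (HL_wall hW)
  have h1' : HL k (lg fun R : List α => 1 ≤ R.length) := HL.length_ge 1
  have h2 : HL k ((lg fun X : List α => z ≤ X.length ∧ Wo X) *
      (lg fun R : List α => 1 ≤ R.length)) := h1.mul h1'
  refine (h1.inf h2.compl).congr fun w => ?_
  constructor
  · rintro ⟨a, b, c⟩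
    refine ⟨⟨a, b⟩, ?_⟩
    intro hm
    obtain ⟨X, ⟨hX1, hX2⟩, R, hR, rfl⟩ := Language.mem_mul.1 hm
    have hR' : 1 ≤ R.length := hR
    have := c X.length hX1 (by rw [List.length_append]; omega)
    rw [List.take_left] at this
    exact this hX2
  · rintro ⟨⟨a, b⟩, c⟩
    refine ⟨a, b, fun t h1 h2 h3 => c ?_⟩
    refine Language.mem_mul.2 ⟨w.take t, ⟨?_, h3⟩, w.drop t, ?_, List.take_append_drop _ _⟩
    · rw [List.length_take]; omega
    · show 1 ≤ (w.drop t).length
      rw [List.length_drop]; omega

theorem HL_of_pcs [Finite α] {L : Language α} (hL : L.IsRegular) {r B : ℕ}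
    (h : ∀ w ∈ L, Pcs r B w) : HL 1 L := HL_one_of_bounded hL r B h

/-- **a regular set of words which are wall free behind `z`: height one** -/
theorem HL_free [Finite α] {n B z : ℕ} {Wo : List α → Prop} (hW : LW n B Wo) {L : Language α}
    (hL : L.IsRegular) (h : ∀ w ∈ L, Free Wo z w) : HL 1 L :=
  HL_of_pcs hL fun w hw => pcs_of_free hW (h w hw)

/-- **regular sets of blocks have height one** -/
theorem HL_block [Finite α] {n B z : ℕ} {Wo : List α → Prop} (hW : LW n B Wo) {L : Language α}
    (hL : L.IsRegular) : HL 1 (lg fun X => X ∈ XX Wo z ∧ X ∈ L) := by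
  have h1 : ((XL Wo z) ⊓ L).IsRegular :=
    (HL.isRegular (HL_XX (k := 0) hW)).inf hL
  exact HL_free hW h1 fun w hw => XX_free hw.1

/-- **regular sets of words without a block prefix have height one** -/
theorem HL_tail [Finite α] {n B z : ℕ} {Wo : List α → Prop} (hW : LW n B Wo) {L : Language α}
    (hL : L.IsRegular) :
    HL 1 (lg fun r => (∀ X ∈ XX Wo z, ¬ X <+: r) ∧ r ∈ L) := by
  have h0 : HL 0 ((XL Wo z) * ⊤) := (HL_XX hW).mul HL.top
  have h1 : (((XL Wo z) * ⊤)ᶜ ⊓ L).IsRegular := (HL.isRegular h0.compl).inf hL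
  have e : (lg fun r => (∀ X ∈ XX Wo z, ¬ X <+: r) ∧ r ∈ L) =
      ((XL Wo z) * ⊤)ᶜ ⊓ L := by
    ext r
    constructor
    · rintro ⟨a, b⟩
      refine ⟨fun hm => ?_, b⟩
      obtain ⟨X, hX, R, -, rfl⟩ := Language.mem_mul.1 hm
      exact a X hX ⟨R, rfl⟩
    · rintro ⟨a, b⟩
      refine ⟨fun X hX hp => a ?_, b⟩
      obtain ⟨R, rfl⟩ := hp
      exact Language.mem_mul.2 ⟨X, hX, R, trivial, rfl⟩
  rw [e]
  refine HL_free (z := z) hW h1 fun w hw => free_of_tail ?_
  intro X hX hp
  obtain ⟨R, rfl⟩ := hp
  exact hw.1 (Language.mem_mul.2 ⟨X, hX, R, trivial, rfl⟩)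

/-- **regular sets of products of two words which are wall free behind `z`, `z'`** -/
theorem HL_free2 [Finite α] {n B z z' : ℕ} {Wo : List α → Prop} (hW : LW n B Wo) {L : Language α}
    (hL : L.IsRegular) (h : ∀ w ∈ L, ∃ x y, w = x ++ y ∧ Free Wo z x ∧ Free Wo z' y) : HL 1 L := by
  refine HL_of_pcs (r := 2 + 2) (B := max (z + B) (z' + B)) hL fun w hw => ?_
  obtain ⟨x, y, rfl, hx, hy⟩ := h w hw
  exact (pcs_of_free hW hx).append (pcs_of_free hW hy)

/-- fibres of a multiplicative map to a finite monoid are regular -/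
theorem regular_fibre {S : Type v} [Monoid S] [Finite S] (φ : List α → S)
    (hφ : ∀ u v, φ (u ++ v) = φ u * φ v) (s : S) : (lg fun w => φ w = s).IsRegular := by
  have := Fintype.ofFinite S
  let M : DFA α S := { step := fun s a => s * φ [a], start := φ [], accept := {s} }
  refine Language.isRegular_iff.{u, v}.2 ⟨S, inferInstance, M, ?_⟩
  have key : ∀ (w : List α) (u : List α), M.evalFrom (φ u) w = φ (u ++ w) := by
    intro w
    induction w with
    | nil => intro u; rw [List.append_nil]; rfl
    | cons a w ih =>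
      intro u
      have h1 : M.evalFrom (φ u) (a :: w) = M.evalFrom (φ u * φ [a]) w := rfl
      rw [h1, ← hφ, ih, List.append_assoc, List.singleton_append]
  ext w
  rw [DFA.mem_accepts]
  show M.evalFrom (φ []) w ∈ ({s} : Set S) ↔ φ w = s
  rw [key]
  simp

/-- a regular set with a bounded prefix read by an arbitrary function -/
theorem regular_prefix [Finite α] (p0 : ℕ) {ι : Type*} [Finite ι] (f : List α → ι)
    (K : ι → Language α) (hK : ∀ i, (K i).IsRegular) (E : Set (List α)) :
    (lg fun X => (X.length < p0 ∧ X ∈ E) ∨ (p0 ≤ X.length ∧ X.drop p0 ∈ K (f (X.take p0)))).IsRegular := by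
  have h1 : (lg fun X => X.length < p0 ∧ X ∈ E).IsRegular := by
    refine HL.isRegular (k := 0) (HL.finite ?_)
    exact (List.finite_length_lt α p0).subset fun Q h => h.1
  have h2 : ∀ i, ((lg fun X => X.length = p0 ∧ f X = i) * K i).IsRegular := by
    intro i
    refine isRegular_mul (HL.isRegular (k := 0) (HL.finite ?_)) (hK i)
    exact (List.finite_length_eq α p0).subset fun Q h => h.1
  have h3 : ∀ s : Set ι, s.Finite →
      (lg fun w => ∃ i ∈ s, w ∈ (lg fun X => X.length = p0 ∧ f X = i) * K i).IsRegular := by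
    intro s hs
    induction s, hs using Set.Finite.induction_on with
    | empty =>
      have e : (lg fun w => ∃ i ∈ (∅ : Set ι), w ∈ (lg fun X => X.length = p0 ∧ f X = i) * K i) = 0 := by
        ext w; simp; exact id
      rw [e]; exact isRegular_zero
    | @insert i s _ _ ih =>
      have e : (lg fun w => ∃ j ∈ insert i s, w ∈ (lg fun X => X.length = p0 ∧ f X = j) * K j) = ((lg fun X => X.length = p0 ∧ f X = i) * K i) +
          (lg fun w => ∃ i ∈ s, w ∈ (lg fun X => X.length = p0 ∧ f X = i) * K i) := by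
        ext w
        constructor
        · rintro ⟨j, hj, hw⟩
          rcases hj with rfl | hj
          · exact Or.inl hw
          · exact Or.inr ⟨j, hj, hw⟩
        · rintro (hw | ⟨j, hj, hw⟩)
          · exact ⟨i, Or.inl rfl, hw⟩
          · exact ⟨j, Or.inr hj, hw⟩
      rw [e]
      exact (h2 i).add ih
  have e : (lg fun X => (X.length < p0 ∧ X ∈ E) ∨ (p0 ≤ X.length ∧ X.drop p0 ∈ K (f (X.take p0)))) = (lg fun X => X.length < p0 ∧ X ∈ E) +
      (lg fun w => ∃ i ∈ (Set.univ : Set ι), w ∈ (lg fun X => X.length = p0 ∧ f X = i) * K i) := by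
    ext w
    constructor
    · rintro (hw | ⟨h4, h5⟩)
      · exact Or.inl hw
      · refine Or.inr ⟨f (w.take p0), trivial, Language.mem_mul.2
          ⟨w.take p0, ⟨?_, rfl⟩, w.drop p0, h5, List.take_append_drop _ _⟩⟩
        rw [List.length_take]; omega
    · rintro (hw | ⟨i, -, hw⟩)
      · exact Or.inl hw
      · obtain ⟨X, ⟨h4, h5⟩, Y, hY, rfl⟩ := Language.mem_mul.1 hw
        refine Or.inr ⟨by rw [List.length_append]; omega, ?_⟩
        rw [← h4, List.drop_left, List.take_left, h5]
        exact hY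
  rw [e]
  exact h1.add (h3 _ Set.finite_univ)

/-- **the zone map of the two-scheme block is regular** (118's one token system) -/
theorem regular_T [Finite α] {S : Type v} {V : Type*} [Monoid S] [Finite S] [Finite V]
    [AddCommGroup V] (φ : List α → S) (hφ : ∀ u v, φ (u ++ v) = φ u * φ v) (act : V → S → V)
    (p0 : ℕ) (nu1 nu2 : List α → V) (h1 : ∀ y, (lg fun Y => nu1 Y = y).IsRegular)
    (v v' : V) :
    (lg fun X => act (act v (φ (X.take p0)) + nu2 (X.take p0)) (φ (X.drop p0)) + nu1 (X.drop p0) = v').IsRegular := by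
  have hK : ∀ a : V, (lg fun Y => act a (φ Y) + nu1 Y = v').IsRegular := by
    intro a
    have h3 : ∀ s : Set (S × V), s.Finite →
        (lg fun w => ∃ i ∈ s, φ w = i.1 ∧ nu1 w = i.2).IsRegular := by
      intro s hs
      induction s, hs using Set.Finite.induction_on with
      | empty =>
        have e : (lg fun w => ∃ i ∈ (∅ : Set (S × V)), φ w = i.1 ∧ nu1 w = i.2) = 0 := by
          ext w; simp; exact id
        rw [e]; exact isRegular_zero
      | @insert i s _ _ ih =>
        have e : (lg fun w => ∃ j ∈ insert i s, φ w = j.1 ∧ nu1 w = j.2) =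
            ((lg fun w => φ w = i.1) ⊓ (lg fun w => nu1 w = i.2)) +
              (lg fun w => ∃ i ∈ s, φ w = i.1 ∧ nu1 w = i.2) := by
          ext w
          constructor
          · rintro ⟨j, hj, hw⟩
            rcases hj with rfl | hj
            · exact Or.inl hw
            · exact Or.inr ⟨j, hj, hw⟩
          · rintro (hw | ⟨j, hj, hw⟩)
            · exact ⟨i, Or.inl rfl, hw⟩
            · exact ⟨j, Or.inr hj, hw⟩
        rw [e]
        exact ((regular_fibre φ hφ i.1).inf (h1 i.2)).add ih
    have e : (lg fun Y => act a (φ Y) + nu1 Y = v') =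
        (lg fun w => ∃ i ∈ {i : S × V | act a i.1 + i.2 = v'}, φ w = i.1 ∧ nu1 w = i.2) := by
      ext w
      constructor
      · intro h
        exact ⟨(φ w, nu1 w), h, rfl, rfl⟩
      · rintro ⟨i, hi, h4, h5⟩
        show act a (φ w) + nu1 w = v'
        rw [h4, h5]; exact hi
    rw [e]
    exact h3 _ (Set.toFinite _)
  have h := regular_prefix p0 (fun X0 => act v (φ X0) + nu2 X0)
    (fun a => (lg fun Y => act a (φ Y) + nu1 Y = v')) hK
    {X | act (act v (φ (X.take p0)) + nu2 (X.take p0)) (φ (X.drop p0)) + nu1 (X.drop p0) = v'}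
  convert h using 1
  ext X
  constructor
  · intro hX
    rcases lt_or_ge X.length p0 with hl | hl
    · exact Or.inl ⟨hl, hX⟩
    · exact Or.inr ⟨hl, hX⟩
  · rintro (⟨-, hX⟩ | ⟨-, hX⟩)
    · exact hX
    · exact hX

/-- P4 for 163's / 474's `top`: hXT -/
theorem hXT [Finite α] {n B z : ℕ} {Wo : List α → Prop} (hW : LW n B Wo) {S : Type v} {V : Type*}
    [Monoid S] [Finite S] [Finite V] [AddCommGroup V] (φ : List α → S)
    (hφ : ∀ u v, φ (u ++ v) = φ u * φ v) (act : V → S → V) (p0 : ℕ) (nu1 nu2 : List α → V)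
    (h1 : ∀ y, (lg fun Y => nu1 Y = y).IsRegular) (v v' : V) :
    HL 1 (lg fun X => X ∈ XX Wo z ∧ act (act v (φ (X.take p0)) + nu2 (X.take p0)) (φ (X.drop p0)) +
      nu1 (X.drop p0) = v') :=
  HL_block hW (regular_T φ hφ act p0 nu1 nu2 h1 v v')

/-- P4 for 163's / 474's `top`: hNP -/
theorem hNP [Finite α] {n B z : ℕ} {Wo : List α → Prop} (hW : LW n B Wo) {S : Type v}
    [Monoid S] [Finite S] (φ : List α → S) (hφ : ∀ u v, φ (u ++ v) = φ u * φ v) (s : S) :
    HL 1 (lg fun r => (∀ X ∈ XX Wo z, ¬ X <+: r) ∧ φ r = s) :=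
  HL_tail hW (regular_fibre φ hφ s)

end Crest.Agent.R320.P4n_36
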