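import Crest.Agent.R320.Top5_120
import Crest.Agent.R320.Sc2n_937
import Crest.Agent.R320.Grid_390
import Crest.Agent.R320.Thin_963
import Crest.Agent.R320.ExactR_237
import Crest.Agent.R320.LWallAll_922
import Crest.Agent.R320.P4n_36
import Crest.Agent.R320.P4_933
import Crest.Agent.R320.Univ_234

set_option autoImplicit false

namespace Crest.Agent.R320.Fin_538

open Crest.RegLang Crest.Agent.R320.Hk_851 Crest.Agent.R320.Sc2n_937 Crest.Agent.R320.P4n_36

theorem two_pow_pair : ∀ a b c d : ℕ, 2 ^ a + 2 ^ b = 2 ^ c + 2 ^ d →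
    (a = c ∧ b = d) ∨ (a = d ∧ b = c)
  | 0, b, 0, d, h => by
    left; refine ⟨rfl, Nat.pow_right_injective (le_refl 2) ?_⟩
    show 2 ^ b = 2 ^ d
    omega
  | 0, b, c, 0, h => by
    right; refine ⟨rfl, Nat.pow_right_injective (le_refl 2) ?_⟩
    show 2 ^ b = 2 ^ c
    omega
  | a, 0, 0, d, h => by
    right; refine ⟨Nat.pow_right_injective (le_refl 2) ?_, rfl⟩
    show 2 ^ a = 2 ^ d
    omega
  | a, 0, c, 0, h => by
    left; refine ⟨Nat.pow_right_injective (le_refl 2) ?_, rfl⟩
    show 2 ^ a = 2 ^ c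
    omega
  | 0, 0, c + 1, d + 1, h => by
    exfalso
    have h1 : 1 ≤ 2 ^ c := Nat.one_le_two_pow
    have h2 : 1 ≤ 2 ^ d := Nat.one_le_two_pow
    rw [pow_succ, pow_succ] at h
    omega
  | a + 1, b + 1, 0, 0, h => by
    exfalso
    have h1 : 1 ≤ 2 ^ a := Nat.one_le_two_pow
    have h2 : 1 ≤ 2 ^ b := Nat.one_le_two_pow
    rw [pow_succ, pow_succ] at h
    omega
  | 0, b + 1, c + 1, d + 1, h => by
    exfalso
    rw [pow_succ, pow_succ, pow_succ] at h
    omega
  | a + 1, 0, c + 1, d + 1, h => by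
    exfalso
    rw [pow_succ, pow_succ, pow_succ] at h
    omega
  | a + 1, b + 1, 0, d + 1, h => by
    exfalso
    rw [pow_succ, pow_succ, pow_succ] at h
    omega
  | a + 1, b + 1, c + 1, 0, h => by
    exfalso
    rw [pow_succ, pow_succ, pow_succ] at h
    omega
  | a + 1, b + 1, c + 1, d + 1, h => by
    rw [pow_succ, pow_succ, pow_succ, pow_succ] at h
    rcases two_pow_pair a b c d (by omega) with ⟨rfl, rfl⟩ | ⟨rfl, rfl⟩
    · exact Or.inl ⟨rfl, rfl⟩
    · exact Or.inr ⟨rfl, rfl⟩

/-- `nu1` regular from the finite-state clause -/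
theorem nu_regular {α S V : Type} [Finite α] [Monoid S] [Finite S] [Finite V] (φ : α → S)
    (A M0 : ℕ) (hM : 0 < M0) (nu : List α → V)
    (h : ∀ u u' : List α, A ≤ u.length → A ≤ u'.length → u.take A = u'.take A →
      u.length % M0 = u'.length % M0 → ((u.drop A).map φ).prod = ((u'.drop A).map φ).prod →
      nu u = nu u') (y : V) : (lg fun Y => nu Y = y).IsRegular := by
  classical
  have hfin : Finite {l : List α // l.length ≤ A} := List.finite_length_le α A
  let f : List α → {l : List α // l.length ≤ A} := fun X => ⟨X.take A, by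
    rw [List.length_take]; omega⟩
  let Kf : {l : List α // l.length ≤ A} → Language α := fun i =>
    ({Z | i.1.length = A ∧ nu (i.1 ++ Z) = y} : Language α)
  have hK : ∀ i, (Kf i).IsRegular := by
    intro i
    refine P4_933.regular_of_class φ 0 M0 hM (fun Z => i.1.length = A ∧ nu (i.1 ++ Z) = y) ?_
    intro u u' _ _ _ h2 h3
    refine and_congr_right fun hi => ?_
    rw [h (i.1 ++ u) (i.1 ++ u') (by rw [List.length_append]; omega)
      (by rw [List.length_append]; omega) ?_ ?_ ?_]
    · rw [List.take_left' hi, List.take_left' hi]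
    · rw [List.length_append, List.length_append, Nat.add_mod, h2, ← Nat.add_mod]
    · rw [List.drop_left' hi, List.drop_left' hi]; exact h3
  have := regular_prefix A f Kf hK {Y | nu Y = y}
  refine (show (lg fun Y => nu Y = y) = _ from ?_) ▸ this
  ext Y
  constructor
  · intro hY
    have hY : nu Y = y := hY
    rcases Nat.lt_or_ge Y.length A with h1 | h1
    · exact Or.inl ⟨h1, hY⟩
    · refine Or.inr ⟨h1, ?_, ?_⟩
      · show ((Y.take A).take A).length = A
        rw [List.take_take, min_self, List.length_take]; omega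
      · show nu ((Y.take A).take A ++ Y.drop A) = y
        rw [List.take_take, min_self, List.take_append_drop]; exact hY
  · rintro (⟨-, hY⟩ | ⟨-, -, hY⟩)
    · exact hY
    · have hY : nu ((Y.take A).take A ++ Y.drop A) = y := hY
      rw [List.take_take, min_self, List.take_append_drop] at hY; exact hY

theorem Am_mono' (Ms κ : ℕ) {i j : ℕ} (h : i ≤ j) : Grid_390.Am Ms κ i ≤ Grid_390.Am Ms κ j := by
  induction j, h using Nat.le_induction with
  | base => exact le_rfl
  | succ j _ ih => exact ih.trans (by simp only [Grid_390.Am]; omega)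

set_option maxHeartbeats 1000000 in
theorem fin (α : Type) [Finite α] (S : Type) [Monoid S] [Finite S] (φ : α → S) (s : S) :
    HL 3 ({w | (w.map φ).prod = s} : Language α) := by
  classical
  haveI := Fintype.ofFinite S
  obtain ⟨act, hadd, hone, hmul, hfaith⟩ := Blk467.exists_module S
  have hpr : ∀ u v : List α, ((u ++ v).map φ).prod = (u.map φ).prod * (v.map φ).prod := by
    intro u v; rw [List.map_append, List.prod_append]
  obtain ⟨k, m, Hg⟩ := Grid_390.grid_gadget S (S → ZMod 2) act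
  obtain ⟨K, HK⟩ := ExactR_237.exact_gadget α S (S → ZMod 2) φ act (2 * (k + m) + 2)
  -- primes
  let q : Fin k → ℕ := fun j => Nat.nth Nat.Prime (2 ^ (K + 1) + 3 + j)
  have hqp : ∀ j, (q j).Prime := fun j => Nat.prime_nth_prime _
  have hqb : ∀ j, 2 ^ (K + 1) + 3 ≤ q j := fun j => by
    have := Nat.add_two_le_nth_prime (2 ^ (K + 1) + 3 + j)
    show _ ≤ Nat.nth Nat.Prime (2 ^ (K + 1) + 3 + j)
    omega
  have hqodd : ∀ j, Odd (q j) := fun j =>
    (hqp j).odd_of_ne_two (by have := hqb j; have h1 : 0 < 2 ^ (K + 1) := by positivity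
                              omega)
  have hqinj : ∀ i j, q i = q j → i = j := by
    intro i j h
    have := (Nat.nth_strictMono Nat.infinite_setOfPred_prime).injective h
    exact Fin.ext (by omega)
  have hqcop : Pairwise (fun i j => Nat.Coprime (q i) (q j)) := by
    intro i j hij
    exact (Nat.coprime_primes (hqp i) (hqp j)).2 fun h => hij (hqinj i j h)
  set Ms : ℕ := ∏ j, q j with hMs
  have hMspos : 0 < Ms := Finset.prod_pos fun j _ => (hqp j).pos
  let κ : ℕ := K + 4 + m + Ms
  obtain ⟨lam, rho, nu1, hlen, hrho, hex, hcomp, hcls⟩ :=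
    Hg q hqodd hqcop κ α (fun w => (w.map φ).prod) hpr
  rw [← hMs] at hlen hrho hcomp hcls
  set Ae : ℕ := Grid_390.Am Ms κ (m + 1) with hAe
  let N1 : ℕ := Grid_390.Am Ms κ m + 1
  -- ruler
  let P : Finset ℕ := Finset.univ.image q
  have hPcard : P.card ≤ k := by
    refine Finset.card_image_le.trans ?_
    simp
  have hPmem : ∀ a ∈ P, ∃ j, q j = a := by
    intro a ha
    obtain ⟨j, -, hj⟩ := Finset.mem_image.1 ha
    exact ⟨j, hj⟩
  let GG : ℕ → ℤ := fun i => (Grid_390.G κ i : ℤ)
  let cc : ℕ → ℤ := fun i => (Ms : ℤ) * (Grid_390.G κ i : ℤ)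
  let AA : ℕ → ℤ := fun i => (Grid_390.Am Ms κ i : ℤ)
  have hGpos : ∀ i, 0 < Grid_390.G κ i := fun i => Grid_390.G_pos i
  have hGdvd : ∀ i j, i ≤ j → Grid_390.G κ i ∣ Grid_390.G κ j := fun i j h =>
    Nat.pow_dvd_pow 2 (Nat.mul_le_mul_left κ h)
  obtain ⟨X, hX0, hXpos, hthin⟩ := Thin963.thin K m P GG cc AA
    (by
      intro a ha
      obtain ⟨j, rfl⟩ := hPmem a ha
      exact ⟨hqp j, by have := hqb j; omega⟩)
    (by
      intro a ha
      obtain ⟨j, rfl⟩ := hPmem a ha
      refine Nat.isCoprime_iff_coprime.2 ?_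
      exact Nat.Coprime.pow_right _ ((hqodd j).coprime_two_right))
    (by show (0:ℤ) < (Grid_390.G κ m : ℤ); exact_mod_cast hGpos m)
    (fun i j h => by
      show (Grid_390.G κ i : ℤ) ∣ (Grid_390.G κ j : ℤ)
      exact_mod_cast hGdvd i j h)
    (fun i => by
      show (0:ℤ) < (Ms : ℤ) * (Grid_390.G κ i : ℤ)
      exact_mod_cast Nat.mul_pos hMspos (hGpos i))
    (fun i => Dvd.intro_left (Ms : ℤ) rfl)
    (by
      intro i hi
      have h1 : ∑ j ∈ Finset.range (i + 1), cc j ≤ (i + 1 : ℕ) * ((Ms : ℤ) * (Grid_390.G κ i : ℤ)) := by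
        have := Finset.sum_le_card_nsmul (Finset.range (i + 1)) cc
          ((Ms : ℤ) * (Grid_390.G κ i : ℤ)) (by
            intro j hj
            rw [Finset.mem_range] at hj
            have h2 : Grid_390.G κ j ≤ Grid_390.G κ i :=
              Nat.le_of_dvd (hGpos i) (hGdvd j i (by omega))
            show (Ms : ℤ) * (Grid_390.G κ j : ℤ) ≤ (Ms : ℤ) * (Grid_390.G κ i : ℤ)
            exact_mod_cast Nat.mul_le_mul_left Ms h2)
        rw [Finset.card_range, nsmul_eq_mul] at this
        exact this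
      have h2 : ((i + 1 : ℕ) : ℤ) * ((Ms : ℤ) * (Grid_390.G κ i : ℤ)) ≤
          (m : ℤ) * ((Ms : ℤ) * (Grid_390.G κ i : ℤ)) := by
        refine mul_le_mul_of_nonneg_right (by exact_mod_cast hi) (by positivity)
      have h3 : 2 ^ (K + 4) * (m * (Ms * Grid_390.G κ i)) ≤ Grid_390.G κ (i + 1) := by
        have e1 : Grid_390.G κ (i + 1) = 2 ^ κ * Grid_390.G κ i := by
          simp only [Grid_390.G]; rw [Nat.mul_add, Nat.mul_one, pow_add, mul_comm]
        have e2 : 2 ^ κ = 2 ^ (K + 4) * (2 ^ m * 2 ^ Ms) := by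
          simp only [κ]; rw [pow_add, pow_add]; ring
        rw [e1, e2]
        have h4 : m * Ms ≤ 2 ^ m * 2 ^ Ms :=
          Nat.mul_le_mul (Nat.lt_two_pow_self).le (Nat.lt_two_pow_self).le
        calc 2 ^ (K + 4) * (m * (Ms * Grid_390.G κ i))
            = 2 ^ (K + 4) * (m * Ms) * Grid_390.G κ i := by ring
          _ ≤ 2 ^ (K + 4) * (2 ^ m * 2 ^ Ms) * Grid_390.G κ i :=
              Nat.mul_le_mul_right _ (Nat.mul_le_mul_left _ h4)
      calc (2:ℤ) ^ (K + 4) * ∑ j ∈ Finset.range (i + 1), cc j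
          ≤ (2:ℤ) ^ (K + 4) * ((m : ℤ) * ((Ms : ℤ) * (Grid_390.G κ i : ℤ))) :=
            mul_le_mul_of_nonneg_left (h1.trans h2) (by positivity)
        _ ≤ (Grid_390.G κ (i + 1) : ℤ) := by exact_mod_cast h3)
    (2 * (N1 : ℤ) + 1)
  obtain ⟨Xn, rfl⟩ : ∃ Xn : ℕ, X = (Xn : ℤ) := ⟨X.toNat, by omega⟩
  have hXn : 2 * N1 + 1 ≤ Xn := by exact_mod_cast hX0
  let c : ℕ → ℕ := fun j => Xn * 2 ^ j
  have hcmono : ∀ i j, i < j → c i < c j := fun i j h =>
    Nat.mul_lt_mul_of_pos_left (Nat.pow_lt_pow_right (by norm_num) h) (by omega)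
  obtain ⟨lam2, rho2, nu2, hs2, hc2⟩ := HK c (fun i j h _ => hcmono i j h)
  let p0 : ℕ := Xn * 2 ^ K
  have hcp : ∀ j, j < K → c j ≤ p0 := fun j h => (hcmono j K h).le
  obtain ⟨n, G', B, Wo, hLW, hgapW, -, -, hdec⟩ :=
    LWallAll_922.walls_all_left α (2 * p0 + 2 * N1 + 1) (by omega)
  let BadN : ℕ → Prop := fun T => Thin963.BadT P m GG cc AA (T : ℤ)
  let g : Geo α :=
    { Wo := Wo
      n := n
      z := p0 + N1 + (n + 2 * p0 + 2 * Ae + 1)
      p0 := p0
      q0 := n + 2 * p0 + 2 * Ae + 1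
      N1 := N1
      loc := fun P Q h => hLW.app P Q h
      hz := rfl
      hq := by omega
      hN := by omega
      hqp := by omega }
  have hgz : g.z = p0 + N1 + (n + 2 * p0 + 2 * Ae + 1) := rfl
  have hgp : g.p0 = p0 := rfl
  have hgN : g.N1 = N1 := rfl
  let pre : List α → (S → ZMod 2) → (S → ZMod 2) := fun X0 v => act v (X0.map φ).prod + nu2 X0 1
  let post : (S → ZMod 2) → List α → (S → ZMod 2) := fun v Y => act v (Y.map φ).prod + nu1 Y
  let nu : List α → (S → ZMod 2) := fun X =>
    act (nu2 (X.take p0) 1) ((X.drop p0).map φ).prod + nu1 (X.drop p0)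
  have hT : ∀ v X, g.T pre post v X = act v (X.map φ).prod + nu X := by
    intro v X
    show act (act v ((X.take p0).map φ).prod + nu2 (X.take p0) 1) ((X.drop p0).map φ).prod +
      nu1 (X.drop p0) = act v (X.map φ).prod + (act (nu2 (X.take p0) 1) ((X.drop p0).map φ).prod +
        nu1 (X.drop p0))
    rw [hadd, ← hmul, ← hpr, List.take_append_drop, add_assoc]
  have hlen' : ∀ P v, lam P = some v → P.length ≤ g.N1 := by
    intro P v h
    have := (hlen P v h).1
    show P.length ≤ Grid_390.Am Ms κ m + 1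
    omega
  have hex' : ∀ P Q u b, lam P = some u → rho Q = some b → b = post u (P ++ Q) :=
    fun P Q u b h1 h2 => hex P Q u b h1 h2
  let rho2' : ℕ → List α → Option (S → ZMod 2) := fun k Q => rho2 k Q 1
  have hex2 : ∀ k, k < K → ∀ P Q v u, P.length = c k → Q.length = g.p0 - c k →
      lam2 k P = some v → rho2' k Q = some u → u = pre (P ++ Q) v := by
    intro k hk P Q v u h1 _ h2 h3
    have := hs2 k hk P Q 1 v u h1 h2 h3
    rw [mul_one] at this
    exact this
  have hCode : Blk467.PCode ({X | g.XX X} : Set (List α)) := by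
    refine ⟨?_, ?_⟩
    · intro h
      have h1 : g.z ≤ ([] : List α).length := h.1
      rw [hgz] at h1
      simp at h1
    · rintro X hX Y hY ⟨R, hR⟩
      exact g.prefix_code (R := R) (R' := []) hX hY (by rw [hR, List.append_nil])
  have hLW' : LW n (max B (2 * p0 + 2 * N1 + 1)) Wo := by
    refine ⟨hLW.app, hLW.len, ?_⟩
    intro u hu
    obtain ⟨a, x, v, kk, h1, h2, h3, h4⟩ := hdec u hu
    exact ⟨a, x, v, kk, h4, h1.trans (le_max_left _ _), h2.trans (le_max_right _ _),
      h3.trans (le_max_left _ _)⟩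
  have hM0 : 0 < Ms * Grid_390.G κ m := Nat.mul_pos hMspos (hGpos m)
  have hnu1 : ∀ y, (lg fun Y => nu1 Y = y).IsRegular := fun y =>
    nu_regular φ Ae (Ms * Grid_390.G κ m) hM0 nu1
      (fun u u' h1 h2 h3 h4 h5 => (hcls u u' h1 h2 h3 h4 h5).2) y
  have hTreg : ∀ x y, (lg fun X => act x (X.map φ).prod + nu X = y).IsRegular := by
    intro x y
    have := regular_T (fun w => (w.map φ).prod) hpr act p0 nu1 (fun X => nu2 X 1) hnu1 x y
    refine (show (lg fun X => act x (X.map φ).prod + nu X = y) = _ from ?_) ▸ this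
    ext X
    show act x (X.map φ).prod + nu X = y ↔ _
    rw [← hT]
    exact Iff.rfl
  -- periodicity of the modes
  have hBper : ∀ T T' : ℕ, T % (Ms * Grid_390.G κ m) = T' % (Ms * Grid_390.G κ m) →
      BadN T → BadN T' := by
    intro T T' h hb
    have hd : ((Ms * Grid_390.G κ m : ℕ) : ℤ) ∣ (T' : ℤ) - T :=
      (Nat.modEq_iff_dvd (n := Ms * Grid_390.G κ m)).1 h
    rcases hb with ⟨a, ha, h1⟩ | ⟨i, hi, e, he, h1⟩
    · left
      refine ⟨a, ha, ?_⟩
      obtain ⟨j, rfl⟩ := hPmem a ha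
      have h2 : ((q j : ℕ) : ℤ) ∣ ((Ms * Grid_390.G κ m : ℕ) : ℤ) := by
        exact_mod_cast (Finset.dvd_prod_of_mem q (Finset.mem_univ j)).mul_right _
      have h3 := dvd_add (h2.trans hd) h1
      rwa [sub_add_cancel] at h3
    · right
      refine ⟨i, hi, e, he, ?_⟩
      have h2 : GG (i + 1) ∣ ((Ms * Grid_390.G κ m : ℕ) : ℤ) := by
        show ((Grid_390.G κ (i + 1) : ℕ) : ℤ) ∣ _
        exact_mod_cast (hGdvd (i + 1) m hi).mul_left _
      have h3 := dvd_add (h2.trans hd) h1
      have e1 : ((T' : ℤ) - T) + ((T : ℤ) - AA (i + 1) + e) = (T' : ℤ) - AA (i + 1) + e := by ring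
      rwa [e1] at h3
  have hBadreg : (lg fun X => g.BadX BadN X).IsRegular := by
    refine P4_933.regular_of_class φ (g.z + g.N1 + p0) (Ms * Grid_390.G κ m) hM0
      (fun X => g.BadX BadN X) ?_
    intro u u' hu hu' ht hl _
    have hEE : ∀ w w' : List α, g.z + g.N1 + p0 ≤ w.length → g.z + g.N1 + p0 ≤ w'.length →
        w.take (g.z + g.N1 + p0) = w'.take (g.z + g.N1 + p0) → g.E w → g.E w' := by
      rintro w w' h1 h2 h3 ⟨t, h4, h5, h6, h7⟩
      refine ⟨t, by omega, ?_, h6, h7⟩
      have h8 := congrArg (List.take t) h3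
      rw [List.take_take, List.take_take, min_eq_left (by omega)] at h8
      rw [← h8]; exact h5
    have hBB : ∀ w w' : List α, g.z + g.N1 + p0 ≤ w.length → g.z + g.N1 + p0 ≤ w'.length →
        w.length % (Ms * Grid_390.G κ m) = w'.length % (Ms * Grid_390.G κ m) →
        BadN (w.length - g.p0) → BadN (w'.length - g.p0) := by
      intro w w' h1 h2 h3 h4
      refine hBper _ _ ?_ h4
      have h5 : (w.length - g.p0) + g.p0 ≡ (w'.length - g.p0) + g.p0 [MOD Ms * Grid_390.G κ m] := by
        rw [Nat.sub_add_cancel (by rw [hgp]; omega), Nat.sub_add_cancel (by rw [hgp]; omega)]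
        exact h3
      exact Nat.ModEq.add_right_cancel' _ h5
    constructor
    · rintro (h | h)
      · exact Or.inl (hEE u u' hu hu' ht h)
      · exact Or.inr (hBB u u' hu hu' hl h)
    · rintro (h | h)
      · exact Or.inl (hEE u' u hu' hu ht.symm h)
      · exact Or.inr (hBB u' u hu' hu hl.symm h)
  refine Top5_120.top5 act hadd hone hmul hfaith φ nu {X | g.XX X} {X | g.XX X ∧ g.BadX BadN X}
    hCode (fun X h => h.1) (fun v => {P | g.LP1 pre lam v P})
    (fun v => {P | Geo.LP2 K c lam2 v P}) ?_ ?_ ?_ ?_ ?_ ?_ ?_ s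
  · intro v
    refine (List.finite_length_le α (p0 + N1)).subset ?_
    rintro P ⟨h1, h2⟩
    have h3 := hlen' _ _ h2
    rw [List.length_drop] at h3
    show P.length ≤ p0 + N1
    rw [hgp] at h3
    rw [hgN] at h3
    omega
  · intro v
    refine (List.finite_length_le α p0).subset ?_
    rintro P ⟨kk, h1, h2, -⟩
    show P.length ≤ p0
    rw [h2]; exact hcp kk h1
  · intro x y
    exact HL_block hLW' (z := g.z) (hTreg x y)
  · intro x y
    refine (HL_block hLW' (z := g.z) (hBadreg.inf (hTreg x y))).congr fun X => ?_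
    constructor
    · rintro ⟨⟨h1, h2⟩, h3⟩
      exact ⟨h1, h2, h3⟩
    · rintro ⟨h1, h2, h3⟩
      exact ⟨⟨h1, h2⟩, h3⟩
  · intro s'
    exact hNP hLW' (z := g.z) (fun w => (w.map φ).prod) hpr s'
  · -- scheme 1
    intro X hX hXb v
    have hXz : g.z ≤ X.length := hX.1
    have hE : ¬ g.E X := fun h => hXb ⟨hX, Or.inl h⟩
    have hB : ¬ BadN (X.length - p0) := fun h => hXb ⟨hX, Or.inr h⟩
    have hc : ∀ u, ∃ P Q, X.drop g.p0 = P ++ Q ∧ lam P = some u ∧ (rho Q).isSome := by
      intro u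
      refine hcomp (X.drop p0) ?_ ?_ ?_ u
      · rw [List.length_drop]; omega
      · intro j hj
        rw [List.length_drop] at hj
        refine hB (Or.inl ⟨q j, Finset.mem_image_of_mem q (Finset.mem_univ j), ?_⟩)
        exact_mod_cast hj
      · intro j hj1 hjm
        rw [List.length_drop]
        set T := X.length - p0 with hTdef
        have hAj : Grid_390.Am Ms κ j ≤ Ae := Am_mono' Ms κ (by omega)
        have hTA : Grid_390.Am Ms κ j ≤ T := by omega
        obtain ⟨i, rfl⟩ : ∃ i, j = i + 1 := ⟨j - 1, by omega⟩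
        rw [Nat.add_sub_cancel]
        have hGp := hGpos (i + 1)
        set r := (T - Grid_390.Am Ms κ (i + 1)) % Grid_390.G κ (i + 1) with hr
        have hrlt : r < Grid_390.G κ (i + 1) := Nat.mod_lt _ hGp
        have hdm := Nat.div_add_mod (T - Grid_390.Am Ms κ (i + 1)) (Grid_390.G κ (i + 1))
        rw [← hr] at hdm
        set qq := (T - Grid_390.Am Ms κ (i + 1)) / Grid_390.G κ (i + 1) with hqq
        have hTe : (T : ℤ) - AA (i + 1) = GG (i + 1) * (qq : ℤ) + (r : ℤ) := by
          show (T : ℤ) - (Grid_390.Am Ms κ (i + 1) : ℤ) = (Grid_390.G κ (i + 1) : ℤ) * (qq : ℤ) + r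
          rw [← Nat.cast_sub hTA]
          exact_mod_cast hdm.symm
        constructor
        · by_contra hlt
          refine hB (Or.inr ⟨i, by omega, -(r : ℤ), ?_, ?_⟩)
          · rw [abs_neg, abs_of_nonneg (by positivity)]
            show (r : ℤ) ≤ (Ms : ℤ) * (Grid_390.G κ i : ℤ)
            exact_mod_cast (not_le.1 hlt).le
          · rw [hTe]
            exact ⟨qq, by ring⟩
        · by_contra hlt
          refine hB (Or.inr ⟨i, by omega, (Grid_390.G κ (i + 1) : ℤ) - r, ?_, ?_⟩)
          · rw [abs_of_nonneg (by have : (r : ℤ) < Grid_390.G κ (i + 1) := by exact_mod_cast hrlt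
                                  linarith)]
            show (Grid_390.G κ (i + 1) : ℤ) - r ≤ (Ms : ℤ) * (Grid_390.G κ i : ℤ)
            have : (Grid_390.G κ (i + 1) : ℤ) < (r : ℤ) + (Ms : ℤ) * (Grid_390.G κ i : ℤ) := by
              exact_mod_cast (not_le.1 hlt)
            linarith
          · rw [hTe]
            refine ⟨(qq : ℤ) + 1, ?_⟩
            show (Grid_390.G κ (i + 1) : ℤ) * (qq : ℤ) + (r : ℤ) + ((Grid_390.G κ (i + 1) : ℤ) - r) =
              (Grid_390.G κ (i + 1) : ℤ) * ((qq : ℤ) + 1)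
            ring
    obtain ⟨P1, Q1, b, hPQ, hP1, hQ1⟩ := g.complete1 pre hlen' hX hE hc v
    refine ⟨P1, Q1, hPQ.symm, hP1, ?_⟩
    intro x P' hP'
    obtain ⟨h1, h2⟩ := g.sound1 pre post hlen' hex' hP' hQ1
    obtain ⟨h3, h4⟩ := g.sound1 pre post hlen' hex' hP1 hQ1
    refine ⟨h1, ?_⟩
    rw [← hT, ← hT, h2, hPQ, h4]
  · -- scheme 2
    rintro X ⟨hX, hXb⟩ Y ⟨hY, hYb⟩ v
    have hXz : g.z ≤ X.length := hX.1
    obtain ⟨P1, Q1, b, hPQ, hP1, hQ1⟩ := g.complete2 pre post (BadT := BadN) (K := K) (c := c)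
      (lam2 := lam2) (rho2 := rho2') (C0 := k + m) hcp
      (by
        intro P Q h1 h2 h3
        have h4 : 0 < Q.length := List.length_pos_iff.2 h3
        have := hgapW (P ++ Q) P.length (P ++ Q).length (by rw [List.length_append]; omega) le_rfl
          (by rw [List.take_left]; exact h1) (by rw [List.take_length]; exact h2)
        rw [List.length_append] at this
        rw [hgp, hgN]
        omega)
      (by
        intro a a' l l' ha ha' hl hl' h1 h2 h3 h4
        by_contra hne
        rw [hgN] at h3 h4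
        have h5 : 2 ^ a + 2 ^ l' = 2 ^ l + 2 ^ a' := by
          have e1 : c a + c l' = Xn * (2 ^ a + 2 ^ l') := by show Xn * 2 ^ a + Xn * 2 ^ l' = _; ring
          have e2 : c l + c a' = Xn * (2 ^ l + 2 ^ a') := by show Xn * 2 ^ l + Xn * 2 ^ a' = _; ring
          rw [e1, e2] at h3 h4
          rcases Nat.lt_trichotomy (2 ^ a + 2 ^ l') (2 ^ l + 2 ^ a') with h | h | h
          · exfalso
            have : Xn * (2 ^ a + 2 ^ l') + Xn ≤ Xn * (2 ^ l + 2 ^ a') := by
              rw [← Nat.mul_succ]; exact Nat.mul_le_mul_left _ h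
            omega
          · exact h
          · exfalso
            have : Xn * (2 ^ l + 2 ^ a') + Xn ≤ Xn * (2 ^ a + 2 ^ l') := by
              rw [← Nat.mul_succ]; exact Nat.mul_le_mul_left _ h
            omega
        rcases two_pow_pair a l' l a' h5 with ⟨h6, -⟩ | ⟨h6, -⟩
        · exact hne h6
        · exact h1 h6.symm)
      (by
        intro τ hτ J hJ
        have h1 : J ⊆ (((Finset.range K) ×ˢ (Finset.range K)).filter (fun p => p.1 ≠ p.2 ∧
            Thin963.BadT P m GG cc AA (((τ : ℤ) - p0) + (Xn : ℤ) * 2 ^ p.1 -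
              (Xn : ℤ) * 2 ^ p.2))).image Prod.snd := by
          intro a ha
          obtain ⟨ha1, a', ha2, ha3, ha4⟩ := hJ a ha
          refine Finset.mem_image.2 ⟨(a', a), Finset.mem_filter.2 ⟨Finset.mem_product.2
            ⟨Finset.mem_range.2 ha2, Finset.mem_range.2 ha1⟩, ha3, ?_⟩, rfl⟩
          have h5 := hcp a ha1
          have h6 : g.z ≤ τ + p0 := hτ
          rw [hgz] at h6
          have h7 : ((τ + c a' - c a - g.p0 : ℕ) : ℤ) =
              ((τ : ℤ) - p0) + (Xn : ℤ) * 2 ^ a' - (Xn : ℤ) * 2 ^ a := by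
            rw [hgp, Nat.cast_sub (by omega), Nat.cast_sub (by omega)]
            simp only [c]
            push_cast
            ring
          have h8 : Thin963.BadT P m GG cc AA ((τ + c a' - c a - g.p0 : ℕ) : ℤ) := ha4
          rw [h7] at h8
          exact h8
        have h2 := Finset.card_le_card h1
        have h3 := h2.trans Finset.card_image_le
        have h4 := hthin ((τ : ℤ) - p0)
        exact h3.trans (h4.trans (by omega)))
      hX hY v
      (by
        obtain ⟨I, hI1, hI2⟩ := hc2 (X.take p0) 1 v (by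
          intro a ha
          rw [List.length_take, min_eq_left (by omega)]
          exact hcp a ha)
        refine ⟨I, hI1, fun a ha => ?_⟩
        obtain ⟨h1, h2, h3⟩ := hI2 a ha
        refine ⟨h1, ?_, h3⟩
        rw [List.take_take, min_eq_left (hcp a h1)] at h2
        exact h2)
    refine ⟨P1, Q1, hPQ, hP1, ?_⟩
    -- the value
    have hval : g.T pre post (g.T pre post v X) Y = b := by
      obtain ⟨X2, h1, h2, h3⟩ := g.sound2 pre post (BadT := BadN) hcp hex2 hX hXb hP1 hQ1
        (R := []) (R' := Y) (by rw [List.append_nil, hPQ])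
      rw [hPQ] at h2
      rw [List.append_cancel_left h2]
      exact h3
    intro x P' hP'
    obtain ⟨k0, hk0, hk0l, hk0v⟩ := hP'
    obtain ⟨k1, hk1, l, hend, hgood, hrest⟩ := id hQ1
    by_cases hkk : k0 = k1
    · subst hkk
      have hXX : g.XX (P' ++ Q1.take l) :=
        g.xx_of_cend (by rw [hk0l]; exact hcp k0 hk0) (by rw [hk0l]; exact hend)
      by_cases hbad : g.BadX BadN (P' ++ Q1.take l)
      · left
        obtain ⟨X2, h1, h2, h3⟩ := g.sound2 pre post (BadT := BadN) hcp hex2 hXX hbad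
          ⟨k0, hk0, hk0l, hk0v⟩ hQ1 (R := []) (R' := Q1.drop l)
          (by rw [List.append_nil, List.append_assoc, List.take_append_drop])
        refine ⟨P' ++ Q1.take l, ⟨hXX, hbad⟩, X2, h1, h2.symm, ?_⟩
        rw [← hT, ← hT, ← hT, ← hT, h3, hval]
      · right
        exact ⟨P' ++ Q1.take l, hXX, fun h => hbad h.2, Q1.drop l, by
          rw [List.append_assoc, List.take_append_drop]⟩
    · right
      obtain ⟨l', he', hg'⟩ := hgood k0 hk0 hkk
      have hXX : g.XX (P' ++ Q1.take l') :=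
        g.xx_of_cend (by rw [hk0l]; exact hcp k0 hk0) (by rw [hk0l]; exact he')
      refine ⟨P' ++ Q1.take l', hXX, fun h => hg' ?_, Q1.drop l', by
          rw [List.append_assoc, List.take_append_drop]⟩
      have := g.cbad_of_bad (BadT := BadN) (P := P') (Q := Q1) (l := l')
        (by rw [hk0l]; exact hcp k0 hk0) (by rw [hk0l]; exact he') h.2
      rw [hk0l] at this
      exact this

theorem result_538 {α : Type*} [Finite α] (L : Language α) (hL : L.IsRegular) :
    ∃ e : GRegExp α, e.height ≤ 3 ∧ e.lang = L :=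
  Univ_234.of_type_monoid (k := 3) (fun A _ S _ _ φ s => fin A S φ s) L hL

end Crest.Agent.R320.Fin_538
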