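import Crest.Agent.R320.Blk2_539
import Crest.Agent.R320.G1_852
import Crest.Agent.R320.Sp_21
import Crest.Agent.R320.SemTop_445
import Crest.Agent.R320.P4_111
import Crest.Agent.R320.Bridge_975
import Crest.Agent.R320.Block_467
import Crest.Agent.R320.Univ_480

/-!
# Row 320: constants and join (helper539)

TOP = SemTop_445 (over 163), blocks = Blk163_539 / Blk2_539, gadget 1 = G1_852, ruler = Sp_21,
gadget 2 = ExactR_237, walls and HL 1 = P4_111, regularity = Bridge_975, module = Block_467,
universes = Univ_480.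
-/

set_option autoImplicit false

namespace Crest.Agent.R320.Fin539

open Crest.RegLang Crest.Agent.R320.Hk_851 Crest.Agent.R320.Blk163539

/-- regularity of the fibres of the zone map -/
theorem key_T {α S V : Type} [Monoid S] [AddCommGroup V] (f : α → S) (act : V → S → V)
    (p0 N M : ℕ) (nu1 nu2 : List α → V)
    (h4 : ∀ Q Q' : List α, Q.take N = Q'.take N →
      ((Q.drop N).map f).prod = ((Q'.drop N).map f).prod →
      Q.length % M = Q'.length % M → nu1 Q = nu1 Q')
    {X Y : List α} (hX : p0 + N ≤ X.length) (hY : p0 + N ≤ Y.length)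
    (h1 : X.take (p0 + N) = Y.take (p0 + N)) (h2 : X.length % M = Y.length % M)
    (h3 : ((X.drop (p0 + N)).map f).prod = ((Y.drop (p0 + N)).map f).prod) (v : V) :
    act v (X.map f).prod + (act (nu2 (X.take p0)) ((X.drop p0).map f).prod + nu1 (X.drop p0)) =
    act v (Y.map f).prod + (act (nu2 (Y.take p0)) ((Y.drop p0).map f).prod + nu1 (Y.drop p0)) := by
  have eX : ∀ Z : List α, (Z.map f).prod =
      ((Z.take (p0 + N)).map f).prod * ((Z.drop (p0 + N)).map f).prod := by
    intro Z
    rw [← List.prod_append, ← List.map_append, List.take_append_drop]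
  have e0 : (X.map f).prod = (Y.map f).prod := by rw [eX X, eX Y, h1, h3]
  have e1 : X.take p0 = Y.take p0 := by
    have := congrArg (List.take p0) h1
    rw [List.take_take, List.take_take, min_eq_left (by omega)] at this
    exact this
  have e2 : ∀ Z : List α, (Z.drop p0).take N = (Z.take (p0 + N)).drop p0 := by
    intro Z
    rw [List.drop_take]
    congr 1
    omega
  have e3 : ∀ Z : List α, ((Z.drop p0).map f).prod =
      (((Z.drop p0).take N).map f).prod * ((Z.drop (p0 + N)).map f).prod := by
    intro Z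
    rw [← List.drop_drop, ← List.prod_append, ← List.map_append, List.take_append_drop]
  have e4 : ((X.drop p0).map f).prod = ((Y.drop p0).map f).prod := by
    rw [e3 X, e3 Y, e2 X, e2 Y, h1, h3]
  have e5 : nu1 (X.drop p0) = nu1 (Y.drop p0) := by
    apply h4
    · rw [e2 X, e2 Y, h1]
    · rw [List.drop_drop, List.drop_drop, h3]
    · rw [List.length_drop, List.length_drop]
      have a : (X.length - p0) + p0 ≡ (Y.length - p0) + p0 [MOD M] := by
        rw [Nat.sub_add_cancel (by omega), Nat.sub_add_cancel (by omega)]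
        exact h2
      exact Nat.ModEq.add_right_cancel' p0 a
  rw [e0, e1, e4, e5]

theorem fin_aux {α S V : Type} [Finite α] [Monoid S] [Fintype S] [Fintype V] [AddCommGroup V]
    (act : V → S → V) (hadd : ∀ a b s, act (a + b) s = act a s + act b s)
    (hmul : ∀ v s t, act v (s * t) = act (act v s) t)
    (hfaith : ∀ s t, (∀ v, act v s = act v t) → s = t)
    (f : α → S) (s : S) : HL 3 ({w | (w.map f).prod = s} : Language α) := by
  classical
  obtain ⟨m, r, hG⟩ := G1_852.gadget (S := S) (V := V) act
  obtain ⟨K, hK⟩ := ExactR_237.exact_gadget α S V f act (2 + 2 * (r + m))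
  obtain ⟨Ms, M, hcard, hMs, hM, hG⟩ := hG (2 ^ (K + 1))
  set b : ℕ := (2 ^ (K + 4) + 2) * M + 1 with hb
  have hb0 : 0 < b := by omega
  have hcop : Nat.Coprime b M := by
    rw [hb, Nat.coprime_mul_right_add_left]
    exact Nat.coprime_one_left M
  obtain ⟨lam, rho, nu1, g1, g2, g3, g4⟩ := hG b hb0 hcop α f
  obtain ⟨c, hc1, hc2, hc3⟩ := Sp_21.spoil K (b ^ m) m M b Ms hM
    (fun k hk => ⟨(hMs k hk).2.2, (hMs k hk).1.le⟩) hcop (by omega)
  set p0 := c K with hp0
  have hcp : ∀ k < K, c k ≤ p0 := fun k hk => by have := hc1 k K hk; omega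
  obtain ⟨lam2, rho2, nuE, e1, e2⟩ := hK c (fun i j hij _ => by have := hc1 i j hij; omega)
  obtain ⟨n, SS, hn, hSS, hgap, hHL, -⟩ := P4_111.p4.{0, 0} α (2 * (p0 + b ^ m) + 1) (by omega)
  let L : LRule α := ⟨n, P4_111.Wo n SS, fun P Q h => P4_111.Wo.app P Q h⟩
  let φ : List α → S := fun w => (w.map f).prod
  have hφ : ∀ u v, φ (u ++ v) = φ u * φ v := fun u v => by
    show ((u ++ v).map f).prod = (u.map f).prod * (v.map f).prod
    rw [List.map_append, List.prod_append]
  let g : G1 φ act :=
    { N1 := b ^ m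
      T0 := 0
      lam := lam
      rho := rho
      nu := nu1
      BadT := Sp_21.Bad m M b Ms
      len := fun P v h => (g1 P v h).le
      sound := fun P Q v v' h h' => g2 P Q v v' h h'
      comp := by
        intro Y _ hB v
        unfold Sp_21.Bad at hB
        push Not at hB
        obtain ⟨P, Q, a1, a2, v', a3⟩ := g3 Y (fun k hk => hB.1 k hk) (fun j hj => by
          have := hB.2 j hj
          omega) v
        exact ⟨P, Q, a1, a2, by rw [a3]; rfl⟩ }
  let nu2 : List α → V := fun X => nuE X 1
  let rho2' : ℕ → List α → Option V := fun k Q => rho2 k Q 1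
  set z : ℕ := 3 * p0 + b ^ m + n + 1 with hz
  have act_mul : ∀ v s s', act (act v s) s' = act v (s * s') := fun v s s' => (hmul v s s').symm
  have hgN : g.N1 = b ^ m := rfl
  have hgT : g.T0 = 0 := rfl
  have hLn : L.n = n := rfl
  have hs1 := fun P v Q b h1 h2 => s1 (L := L) (z := z) (p0 := p0) (g := g) (nu2 := nu2) hφ
    act_mul hadd (by omega) P v Q b h1 h2
  have hs2 := fun P v Q b h1 h2 h3 => s2 (L := L) (z := z) (p0 := p0) (g := g) (nu2 := nu2)
    (K := K) (c := c) (lam2 := lam2) (rho2 := rho2') hφ act_mul hadd (by omega) (by omega)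
    (by omega) hcp (by
      intro k hk P Q v b hP h1 h2
      have := e1 k hk P Q 1 v b hP h1 h2
      rw [mul_one] at this
      exact this) P v Q b h1 h2 h3
  refine SemTop_445.sem_top φ rfl hφ act act_mul hadd hfaith (XX L z) (XX_nil L (by omega))
    (fun X hX Y hXY => XX_prefix L hX Y hXY) (TT p0 φ act g nu2) (nuX p0 φ act g nu2)
    (fun X _ v => rfl) (LP1 p0 φ act g nu2) (LP2 K c lam2) ?_ ?_ ?_ ?_ ?_ s
  · -- LP1 finite
    refine ((List.finite_length_le α (p0 + b ^ m)).prod (Set.finite_univ (α := V))).subset ?_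
    rintro ⟨P, v⟩ ⟨h1, h2⟩
    have h3 : (P.drop p0).length < b ^ m := g1 _ _ h2
    have h4 : p0 ≤ P.length := h1
    rw [List.length_drop] at h3
    refine ⟨?_, trivial⟩
    show P.length ≤ p0 + b ^ m
    omega
  · refine ((List.finite_length_le α p0).prod (Set.finite_univ (α := V))).subset ?_
    rintro ⟨P, v⟩ ⟨k, hk, h1, h2⟩
    refine ⟨?_, trivial⟩
    show P.length ≤ p0
    rw [h1]
    exact hcp k hk
  · intro v v'
    have hreg : Language.IsRegular ({X | TT p0 φ act g nu2 v X = v'} : Language α) := by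
      refine Bridge_975.reg_of_local f (p0 + b ^ m) (M * b ^ m) (by positivity) _ ?_
      intro X Y hX hY h1 h2 h3
      have hkey := key_T f act p0 (b ^ m) (M * b ^ m) nu1 nu2
        (fun Q Q' a1 a2 a3 => (g4 Q Q' a1 a2 a3).2) hX hY h1 h2 h3 v
      have e1 : TT p0 φ act g nu2 v X = TT p0 φ act g nu2 v Y := hkey
      rw [e1]
    exact (hHL z _ hreg).1
  · intro s
    have hreg : Language.IsRegular ({X | φ X = s} : Language α) := by
      refine Bridge_975.reg_of_local f 0 1 one_pos _ ?_
      intro X Y _ _ _ _ h3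
      have e1 : φ X = φ Y := h3
      rw [e1]
    exact (hHL z _ hreg).2
  · intro X hX X2 hX2 v
    have hXz := hX.1
    have hcc := cc (L := L) (z := z) (p0 := p0) (g := g) (nu2 := nu2)
      (K := K) (c := c) (lam2 := lam2) (rho2 := rho2') (by omega) (by omega) (by omega) hcp
      (1 + 2 * (r + m)) (by
        intro u v hu
        obtain ⟨I, hI, hIk⟩ := e2 u 1 v (fun k hk => by rw [hu]; exact hcp k hk)
        exact ⟨I, by omega, hIk⟩) X hX X2 hX2 (by
        intro J hJ
        refine Blk2539.spoil_of_thin (L := L) (z := z) (p0 := p0) (g := g) (K := K) (c := c)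
          (by omega) hcp ?_ ?_ (r + m) ?_ (X ++ X2) (by rw [List.length_append]; omega) J hJ
        · rintro Z u u' _ ⟨_, hW⟩ ⟨hu', hW'⟩ hlt
          have := hgap Z u u' hlt hu' hW hW'
          omega
        · intro a b' a' b'' ha hb1 ha' hb2 hne hne' h1 h2
          by_contra hcon
          have := hc2 a b' a' b'' hne hne' (by
            intro h
            exact hcon (Prod.ext_iff.1 h).1)
          rw [hgN] at h1 h2
          omega
        · intro T hT J hJ
          choose! q hq using fun k hk => (hJ k hk).2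
          have := hc3 T hT (J.image fun k => (k, q k)) (by
            intro p hp
            obtain ⟨k, hk, rfl⟩ := Finset.mem_image.1 hp
            obtain ⟨q1, q2, q3⟩ := hq k hk
            exact ⟨(hJ k hk).1, q1, q2.symm, q3⟩)
          rw [Finset.card_image_of_injective _ (fun a b h => (Prod.ext_iff.1 h).1)] at this
          omega) v
    rcases hcc with ⟨P, Q, a1, a2, a3⟩ | ⟨P, Q, a1, a2, a3, a4⟩
    · left
      obtain ⟨bb, hbb⟩ := Option.isSome_iff_exists.1 a3
      refine ⟨P, Q, a1, ?_, a2, bb, fun P' v' h => hs1 P' v' Q bb h hbb⟩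
      rintro rfl
      unfold R1 at hbb
      split_ifs at hbb with hleg
      have := hleg.1
      simp at this
      omega
    · right
      obtain ⟨bb, hbb⟩ := Option.isSome_iff_exists.1 a4
      refine ⟨P, Q, a1, a2, a3, bb, fun P' v' h hnc => ?_⟩
      refine hs2 P' v' Q bb h hbb ?_
      intro X' hX' hpre P1 Q1 hXe hle hL1 hR1
      obtain ⟨b1, hb1⟩ := Option.isSome_iff_exists.1 hR1
      refine hnc X' hX' hpre P1 Q1 hXe hle hL1 ⟨?_, ⟨P1, v', hL1⟩, b1,
        fun P2 v2 h2 => hs1 P2 v2 Q1 b1 h2 hb1⟩
      rintro rfl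
      unfold R1 at hb1
      split_ifs at hb1 with hleg
      have := hleg.1
      simp at this
      omega

theorem fin (α : Type) [Finite α] (S : Type) [Monoid S] [Finite S] (f : α → S) (s : S) :
    HL 3 ({w | (w.map f).prod = s} : Language α) := by
  classical
  obtain ⟨act, hadd, _, hmul, hfaith⟩ := Crest.Agent.R320.Blk467.exists_module S
  haveI := Fintype.ofFinite S
  exact fin_aux (V := S → ZMod 2) act hadd hmul hfaith f s

end Crest.Agent.R320.Fin539
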