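import Crest.Agent.R320.FinC_542

/-! Row 320: the final theorem on `Type` (helper542). -/

set_option autoImplicit false

namespace Crest.Agent.R320.Fin_542

open Crest.Agent.R320.Hk_851 Crest.Agent.R320.Sc2n_937

theorem fin (α : Type) [Finite α] (S : Type) [Monoid S] [Finite S] (φ : α → S) (s : S) :
    HL 3 ({w | (w.map φ).prod = s} : Language α) := by
  classical
  haveI : Fintype S := Fintype.ofFinite S
  obtain ⟨act, hadd, hone, hmul, hfaith⟩ := Crest.Agent.R320.Blk467.exists_module S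
  obtain ⟨k, m, Hgrid⟩ := Grid_899.grid_gadget_reg S (S → ZMod 2) act
  obtain ⟨K, Hex⟩ := ExactR_237.exact_gadget α S (S → ZMod 2) φ act (2 * (k + m) + 2)
  obtain ⟨q, hq, hqi⟩ := exists_primes k (2 ^ (K + 1) + 1)
  have hq2 : ∀ j, 2 < q j := by
    intro j
    have h1 := (hq j).2
    have h2 : 2 ≤ 2 ^ (K + 1) := by
      calc 2 = 2 ^ 1 := rfl
        _ ≤ 2 ^ (K + 1) := Nat.pow_le_pow_right (by norm_num) (by omega)
    omega
  have hodd : ∀ j, Odd (q j) := fun j => (hq j).1.odd_of_ne_two (by have := hq2 j; omega)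
  have hcop : Pairwise (fun i j => Nat.Coprime (q i) (q j)) := by
    intro i j hij
    exact (Nat.coprime_primes (hq i).1 (hq j).1).2 (fun h => hij (hqi h))
  obtain ⟨Ms, hMs⟩ : ∃ Ms, Ms = ∏ j, q j := ⟨_, rfl⟩
  obtain ⟨κ, hκ⟩ : ∃ κ, κ = K + 5 + Ms := ⟨_, rfl⟩
  have hMspos : 0 < Ms := by
    rw [hMs]; exact Finset.prod_pos fun j _ => (hq j).1.pos
  obtain ⟨lam, rho, nu, g1, g2, g3, g4, g5⟩ := Hgrid q hodd hcop κ α
    (fun w => (w.map φ).prod) (by intro u v; simp)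
  rw [← hMs] at g1 g2 g4 g5
  obtain ⟨nu1, n1, n2⟩ := sem_nu act φ lam rho nu (Grid_899.Am Ms κ m) (Grid_899.Am Ms κ (m + 1))
    (Ms * Grid_899.G κ m) (fun P v h => (g1 P v h).1) g2 g3 g5
  obtain ⟨N1, hN1⟩ : ∃ N1, N1 = Grid_899.Am Ms κ m + 1 := ⟨_, rfl⟩
  obtain ⟨Msf, hMsf⟩ : ∃ Msf : Finset ℕ, Msf = Finset.univ.image q := ⟨_, rfl⟩
  have hMsfc : Msf.card ≤ k := by
    rw [hMsf]
    refine Finset.card_image_le.trans ?_
    simp
  have hmemf : ∀ p ∈ Msf, ∃ j, p = q j := by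
    intro p hp
    rw [hMsf] at hp
    obtain ⟨j, _, rfl⟩ := Finset.mem_image.1 hp
    exact ⟨j, rfl⟩
  have hdvdM : ∀ p ∈ Msf, p ∣ Ms := by
    intro p hp
    obtain ⟨j, rfl⟩ := hmemf p hp
    rw [hMs]
    exact Finset.dvd_prod_of_mem q (Finset.mem_univ j)
  obtain ⟨X, hX0, hXp, hX⟩ := Thin963.thin K m Msf (fun i => ((Grid_899.G κ i : ℕ) : ℤ))
    (fun i => ((Ms * Grid_899.G κ i : ℕ) : ℤ)) (fun i => ((Grid_899.Am Ms κ i : ℕ) : ℤ))
    (by
      intro p hp
      obtain ⟨j, rfl⟩ := hmemf p hp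
      exact ⟨(hq j).1, by have := (hq j).2; omega⟩)
    (by
      intro p hp
      obtain ⟨j, rfl⟩ := hmemf p hp
      rw [Nat.isCoprime_iff_coprime]
      unfold Grid_899.G
      exact Nat.Coprime.pow_right _ (Nat.coprime_two_right.2 (hodd j)))
    (by exact_mod_cast Grid_899.G_pos (κ := κ) m)
    (by
      intro i j hij
      exact_mod_cast Grid_899.G_dvd (κ := κ) hij)
    (by
      intro i
      exact_mod_cast Nat.mul_pos hMspos (Grid_899.G_pos (κ := κ) i))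
    (by
      intro i
      exact_mod_cast Dvd.intro_left Ms rfl)
    (by
      intro i _
      exact growth K m Ms κ hκ.ge i)
    (2 * (N1 : ℤ) + 1)
  obtain ⟨Xn, hXn⟩ : ∃ Xn : ℕ, (Xn : ℤ) = X := ⟨X.toNat, Int.toNat_of_nonneg hXp.le⟩
  have hXnpos : 0 < Xn := by omega
  obtain ⟨c, hc⟩ : ∃ c : ℕ → ℕ, c = fun j => Xn * 2 ^ j := ⟨_, rfl⟩
  have hcz : ∀ j, ((c j : ℕ) : ℤ) = X * 2 ^ j := by
    intro j; rw [hc, ← hXn]; push_cast; ring
  have hcmono : ∀ i j, i < j → c i < c j := by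
    intro i j hij
    rw [hc]
    exact Nat.mul_lt_mul_of_pos_left (Nat.pow_lt_pow_right (by norm_num) hij) hXnpos
  obtain ⟨p0, hp0⟩ : ∃ p0, p0 = c K := ⟨_, rfl⟩
  have hcp : ∀ i, i < K → c i ≤ p0 := fun i hi => by rw [hp0]; exact (hcmono i K hi).le
  obtain ⟨n, G', B', Wo, hLW, hgapW, _, _, hfree⟩ :=
    LWallAll_922.walls_all_left α (2 * p0 + 2 * N1 + 1) (by omega)
  obtain ⟨A2, hA2⟩ : ∃ A2, A2 = Grid_899.Am Ms κ (m + 1) := ⟨_, rfl⟩
  obtain ⟨q0, hq0⟩ : ∃ q0, q0 = n + 2 * p0 + 2 * A2 := ⟨_, rfl⟩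
  let g : Geo α :=
    { Wo := Wo
      n := n
      z := p0 + N1 + q0
      p0 := p0
      q0 := q0
      N1 := N1
      loc := hLW.app
      hz := rfl
      hq := by omega
      hN := by omega
      hqp := by omega }
  obtain ⟨lam2, rhoX, nuX, e1, e2⟩ := Hex c (fun i j hij _ => hcmono i j hij)
  let BadT : ℕ → Prop := fun T => Thin963.BadT Msf m (fun i => ((Grid_899.G κ i : ℕ) : ℤ))
    (fun i => ((Ms * Grid_899.G κ i : ℕ) : ℤ)) (fun i => ((Grid_899.Am Ms κ i : ℕ) : ℤ)) (T : ℤ)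
  have hg2 : ∀ j, j ≤ m → Grid_899.G κ j ∣ Ms * Grid_899.G κ m := fun j hj =>
    Dvd.dvd.mul_left (Grid_899.G_dvd (κ := κ) hj) _
  refine joinA act hadd hone hmul hfaith φ g hLW.len (max B' (2 * p0 + 2 * N1 + 1)) 2
    (free_PN Wo B' _ hfree) lam rho nu1 BadT ?_ n1 ?_
    (Grid_899.Am Ms κ m + Grid_899.Am Ms κ (m + 1)) (Ms * Grid_899.G κ m)
    (Nat.mul_pos hMspos (Grid_899.G_pos (κ := κ) m)) n2 ?_
    K (k + m) c lam2 (fun i Q => rhoX i Q 1) (fun X1 => nuX X1 1) hcp ?_ ?_ ?_ ?_ ?_ s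
  · -- hlen
    intro P v h
    have := (g1 P v h).1
    show P.length ≤ N1
    omega
  · -- hcompl
    intro Y hY hb u
    have hYz : p0 + N1 + q0 ≤ Y.length := hY.1
    have hYl : (Y.drop p0).length = Y.length - p0 := List.length_drop
    refine g4 (Y.drop p0) (by rw [hYl, ← hA2]; omega) ?_ ?_ u
    · intro j hj
      apply hb
      right
      left
      refine ⟨q j, ?_, ?_⟩
      · rw [hMsf]; exact Finset.mem_image_of_mem q (Finset.mem_univ j)
      · rw [hYl] at hj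
        exact_mod_cast hj
    · intro j hj1 hj2
      by_contra hcl
      apply hb
      right
      right
      rw [hYl] at hcl
      refine bad_of_unclean Ms κ m (Y.length - p0) j hj1 hj2 ?_ hcl
      have : Grid_899.Am Ms κ j ≤ Grid_899.Am Ms κ (m + 1) := Grid_899.Am_mono (by omega)
      omega
  · -- hBadT periodic
    intro T T' _ _ hTT
    have hz : (T : ℤ) ≡ (T' : ℤ) [ZMOD ((Ms * Grid_899.G κ m : ℕ) : ℤ)] := by
      exact_mod_cast (Int.natCast_modEq_iff.2 hTT)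
    have key : ∀ T T' : ℤ, T ≡ T' [ZMOD ((Ms * Grid_899.G κ m : ℕ) : ℤ)] →
        Thin963.BadT Msf m (fun i => ((Grid_899.G κ i : ℕ) : ℤ))
          (fun i => ((Ms * Grid_899.G κ i : ℕ) : ℤ)) (fun i => ((Grid_899.Am Ms κ i : ℕ) : ℤ)) T →
        Thin963.BadT Msf m (fun i => ((Grid_899.G κ i : ℕ) : ℤ))
          (fun i => ((Ms * Grid_899.G κ i : ℕ) : ℤ)) (fun i => ((Grid_899.Am Ms κ i : ℕ) : ℤ)) T' := by
      intro T T' h hb
      have hd : ((Ms * Grid_899.G κ m : ℕ) : ℤ) ∣ T' - T := h.dvd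
      rcases hb with ⟨p, hp, hpd⟩ | ⟨i, hi, e, he, hd2⟩
      · left
        refine ⟨p, hp, ?_⟩
        have h1 : (p : ℤ) ∣ ((Ms * Grid_899.G κ m : ℕ) : ℤ) := by
          exact_mod_cast Dvd.dvd.mul_right (hdvdM p hp) _
        have h2 := dvd_add (h1.trans hd) hpd
        rwa [sub_add_cancel] at h2
      · right
        refine ⟨i, hi, e, he, ?_⟩
        have h1 : ((Grid_899.G κ (i + 1) : ℕ) : ℤ) ∣ ((Ms * Grid_899.G κ m : ℕ) : ℤ) := by
          exact_mod_cast hg2 (i + 1) (by omega)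
        have h2 := dvd_add (h1.trans hd) hd2
        have e3 : T' - T + (T - ((Grid_899.Am Ms κ (i + 1) : ℕ) : ℤ) + e) =
          T' - ((Grid_899.Am Ms κ (i + 1) : ℕ) : ℤ) + e := by ring
        rw [e3] at h2
        exact h2
    exact ⟨key _ _ hz, key _ _ hz.symm⟩
  · -- hex2
    intro i hi P Q v u hP hQ h1 h2
    have := e1 i hi P Q 1 v u hP h1 h2
    rw [mul_one] at this
    exact this
  · -- hgap
    intro P Q hP hPQ hQ
    have hQl : 0 < Q.length := List.length_pos_iff.2 hQ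
    have h1 := hgapW (P ++ Q) P.length (P ++ Q).length (by rw [List.length_append]; omega) le_rfl
      (by rw [List.take_left]; exact hP) (by rw [List.take_length]; exact hPQ)
    rw [List.length_append] at h1
    show 2 * p0 + 2 * N1 < Q.length
    omega
  · -- hsp
    intro a a' l l' _ _ _ _ h1 h2 h3 h4
    have h3' : (c a : ℤ) + c l' < c l + c a' + 2 * N1 := by exact_mod_cast h3
    have h4' : (c l : ℤ) + c a' < c a + c l' + 2 * N1 := by exact_mod_cast h4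
    rw [hcz, hcz, hcz, hcz] at h3' h4'
    exact spaced X N1 hX0 a a' l l' h1 h2 h3' h4'
  · -- hthin
    intro τ hτ J hJ
    have hτ' : p0 + N1 + q0 ≤ τ + p0 := hτ
    have hT := hX ((τ : ℤ) - p0)
    refine le_trans ?_ (hT.trans (Nat.add_le_add_right hMsfc m))
    choose! f hf using fun a (ha : a ∈ J) => (hJ a ha).2
    refine Finset.card_le_card_of_injOn (fun a => (f a, a)) ?_ ?_
    · intro a ha
      obtain ⟨h1, h2, h3⟩ := hf a ha
      have h4 := (hJ a ha).1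
      refine Finset.mem_coe.2 (Finset.mem_filter.2 ⟨Finset.mem_product.2
        ⟨Finset.mem_range.2 h1, Finset.mem_range.2 h4⟩, h2, ?_⟩)
      have h5 := hcp a h4
      have e3 : ((τ + c (f a) - c a - p0 : ℕ) : ℤ) = (τ : ℤ) - p0 + X * 2 ^ (f a) - X * 2 ^ a := by
        rw [← hcz, ← hcz]
        have h6 : c a + p0 ≤ τ + c (f a) := by omega
        omega
      have h7 : Thin963.BadT Msf m (fun i => ((Grid_899.G κ i : ℕ) : ℤ))
        (fun i => ((Ms * Grid_899.G κ i : ℕ) : ℤ)) (fun i => ((Grid_899.Am Ms κ i : ℕ) : ℤ))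
        ((τ + c (f a) - c a - p0 : ℕ) : ℤ) := h3
      rw [e3] at h7
      exact h7
    · intro a _ b _ hab
      exact (Prod.mk.inj hab).2
  · -- hI
    intro Y hY v
    have hY' : p0 ≤ Y.length := hY
    have hl : (Y.take p0).length = p0 := by rw [List.length_take]; omega
    obtain ⟨I, hI1, hI2⟩ := e2 (Y.take p0) 1 v (fun i hi => by rw [hl]; exact hcp i hi)
    refine ⟨I, hI1, fun i hi => ?_⟩
    obtain ⟨h1, h2, h3⟩ := hI2 i hi
    refine ⟨h1, ?_, h3⟩
    rw [List.take_take, Nat.min_eq_left (hcp i h1)] at h2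
    exact h2

end Crest.Agent.R320.Fin_542
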