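import Crest.Agent.R320.Thin_243

/-!
# Row 320: the spoil leaf for the digit form of the gadget (852 #13483, lead #13673) (helper243)
-/

set_option autoImplicit false

namespace Crest.Agent.R320.Spoil243

open Finset Crest.Agent.R320.Thin243

theorem thinD (K D : ℕ) (Ms : Finset ℕ) (M Gam m : ℕ) (hp : ∀ p ∈ Ms, p.Prime)
    (hbig : ∀ p ∈ Ms, 2 ^ (K + 2) < p) (hcop : Nat.Coprime Gam (∏ p ∈ Ms, p)) (hG2 : M * 2 ^ (K + 6) < Gam)
    (hM : 0 < M) :
    ∃ c : ℕ → ℕ, StrictMono c ∧ (∀ i, D < c i) ∧ (∀ i j, i < j → c i + D < c j) ∧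
      (∀ i j i' j', i ≠ j → i' ≠ j' → (i, j) ≠ (i', j') →
        (D : ℤ) < |((c i : ℤ) - c j) - (c i' - c j')|) ∧
      ∀ (Am : ℕ → ℤ) (T : ℤ), by
        classical
        exact ((range K ×ˢ range K).filter
          (fun q => q.1 ≠ q.2 ∧ BadG Ms M Gam m Am (T + c q.1 - c q.2))).card ≤ Ms.card + m := by
  classical
  have hGam0 : 0 < Gam := by
    have : 0 < M * 2 ^ (K + 6) := by positivity
    omega
  set P : ℕ := ∏ p ∈ Ms, p with hP
  have hPpos : 0 < P := Finset.prod_pos fun p h => (hp p h).pos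
  replace hcop : Nat.Coprime (Gam ^ m) P := hcop.pow_left m
  obtain ⟨X₀, hX₁, hX₂⟩ := Nat.chineseRemainder hcop (4 * sm M Gam m) 1
  set X : ℕ := X₀ + (D + 1) * (Gam ^ m * P) with hX
  have hGmpos : 0 < Gam ^ m := by positivity
  have hXD : D < X := by
    have : 1 ≤ Gam ^ m * P := Nat.mul_pos hGmpos hPpos
    have h2 : D + 1 ≤ (D + 1) * (Gam ^ m * P) := Nat.le_mul_of_pos_right _ this
    omega
  have hXp : ∀ p ∈ Ms, (p : ℤ) ∣ (X : ℤ) - 1 := by
    intro p h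
    have hpP : (p : ℤ) ∣ (P : ℤ) := by exact_mod_cast Finset.dvd_prod_of_mem _ h
    have h1 : (P : ℤ) ∣ (1 : ℕ) - (X₀ : ℤ) := (Nat.modEq_iff_dvd.1 hX₂)
    have e : (X : ℤ) - 1 = -(((1 : ℕ) : ℤ) - X₀) + (D + 1) * (Gam ^ m) * P := by
      rw [hX]; push_cast; ring
    rw [e]
    exact dvd_add ((dvd_neg).2 (hpP.trans h1)) (Dvd.dvd.mul_left hpP _)
  have hXG : ∀ j, j ≤ m → ((Gam : ℤ) ^ j) ∣ (X : ℤ) - 4 * sm M Gam j := by
    intro j hj
    have h1 : ((Gam ^ m : ℕ) : ℤ) ∣ ((4 * sm M Gam m : ℕ) : ℤ) - (X₀ : ℤ) :=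
      Nat.modEq_iff_dvd.1 hX₁
    have h2 : ((Gam : ℤ) ^ j) ∣ ((Gam ^ m : ℕ) : ℤ) := by
      push_cast
      exact pow_dvd_pow _ hj
    have h3 := sm_dvd M Gam hj
    have e : (X : ℤ) - 4 * sm M Gam j
        = -(((4 * sm M Gam m : ℕ) : ℤ) - X₀) + 4 * ((sm M Gam m : ℤ) - sm M Gam j)
          + ((D + 1) * P) * ((Gam ^ m : ℕ) : ℤ) := by
      rw [hX]; push_cast; ring
    rw [e]
    exact dvd_add (dvd_add ((dvd_neg).2 (h2.trans h1)) (Dvd.dvd.mul_left h3 _))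
      (Dvd.dvd.mul_left h2 _)
  refine ⟨fun i => X * 2 ^ i, ?_, ?_, ?_, ?_, ?_⟩
  · intro i j hij
    have : 2 ^ i < 2 ^ j := Nat.pow_lt_pow_right (by norm_num) hij
    have hX0 : 0 < X := by omega
    exact Nat.mul_lt_mul_of_pos_left this hX0
  · intro i
    have : 1 ≤ 2 ^ i := Nat.one_le_two_pow
    show D < X * 2 ^ i
    nlinarith
  · intro i j hij
    have h1 : 2 ^ i + 1 ≤ 2 ^ j := Nat.pow_lt_pow_right (by norm_num) hij
    show X * 2 ^ i + D < X * 2 ^ j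
    have : X * (2 ^ i + 1) ≤ X * 2 ^ j := Nat.mul_le_mul_left _ h1
    nlinarith
  · intro i j i' j' hij hij' hne
    have hδ : ((2 : ℤ) ^ i - 2 ^ j) - (2 ^ i' - 2 ^ j') ≠ 0 := by
      intro h0
      have := two_diff hij (by linarith : (2 : ℤ) ^ i - 2 ^ j = 2 ^ i' - 2 ^ j')
      exact hne (by rw [this.1, this.2])
    have h1 := Int.one_le_abs hδ
    have e : (((X * 2 ^ i : ℕ) : ℤ) - (X * 2 ^ j : ℕ)) - (((X * 2 ^ i' : ℕ) : ℤ) - (X * 2 ^ j' : ℕ))
        = X * (((2 : ℤ) ^ i - 2 ^ j) - (2 ^ i' - 2 ^ j')) := by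
      push_cast; ring
    show (D : ℤ) < |(((X * 2 ^ i : ℕ) : ℤ) - (X * 2 ^ j : ℕ)) -
      (((X * 2 ^ i' : ℕ) : ℤ) - (X * 2 ^ j' : ℕ))|
    rw [e, abs_mul, abs_of_nonneg (by positivity : (0 : ℤ) ≤ (X : ℤ))]
    have hXD' : (D : ℤ) < X := by exact_mod_cast hXD
    nlinarith
  · intro Am T
    have hsub : (range K ×ˢ range K).filter
          (fun q => q.1 ≠ q.2 ∧ BadG Ms M Gam m Am (T + ((X * 2 ^ q.1 : ℕ) : ℤ) - ((X * 2 ^ q.2 : ℕ) : ℤ)))
        ⊆ (Ms.biUnion fun p => (range K ×ˢ range K).filter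
              (fun q => q.1 ≠ q.2 ∧ (p : ℤ) ∣ T + X * 2 ^ q.1 - X * 2 ^ q.2)) ∪
          ((range m).biUnion fun j => (range K ×ˢ range K).filter
              (fun q => q.1 ≠ q.2 ∧ ∃ n : ℤ,
                |T + X * 2 ^ q.1 - X * 2 ^ q.2 - Am (j + 1) - n * ((Gam : ℤ)) ^ (j + 1)|
                  ≤ (M : ℤ) * (Gam : ℤ) ^ j)) := by
      intro q hq
      rw [mem_filter] at hq
      obtain ⟨hq1, hq2, hq3⟩ := hq
      rw [mem_union, mem_biUnion, mem_biUnion]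
      rcases hq3 with ⟨p, hpm, hd⟩ | ⟨j, hj1, hj2, n, hn⟩
      · left
        refine ⟨p, hpm, mem_filter.2 ⟨hq1, hq2, ?_⟩⟩
        have e : T + ((X * 2 ^ q.1 : ℕ) : ℤ) - ((X * 2 ^ q.2 : ℕ) : ℤ)
            = T + X * 2 ^ q.1 - X * 2 ^ q.2 := by push_cast; ring
        rwa [e] at hd
      · right
        obtain ⟨j, rfl⟩ : ∃ j', j = j' + 1 := ⟨j - 1, by omega⟩
        refine ⟨j, mem_range.2 (by omega), mem_filter.2 ⟨hq1, hq2, n, ?_⟩⟩
        have e : T + ((X * 2 ^ q.1 : ℕ) : ℤ) - ((X * 2 ^ q.2 : ℕ) : ℤ)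
            = T + X * 2 ^ q.1 - X * 2 ^ q.2 := by push_cast; ring
        rw [e, Nat.add_sub_cancel] at hn
        exact hn
    refine (card_le_card hsub).trans ((card_union_le _ _).trans ?_)
    have c1 : (Ms.biUnion fun p => (range K ×ˢ range K).filter
              (fun q => q.1 ≠ q.2 ∧ (p : ℤ) ∣ T + X * 2 ^ q.1 - X * 2 ^ q.2)).card ≤ Ms.card * 1 := by
      refine card_biUnion_le_card_mul _ _ _ fun p h => ?_
      rw [card_le_one]
      intro a ha b hb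
      rw [mem_filter, mem_product, mem_range, mem_range] at ha hb
      have := one_mod (hbig p h) (hXp p h) ha.1.1 ha.1.2 hb.1.1 hb.1.2 ha.2.1 ha.2.2 hb.2.2
      exact Prod.ext this.1 this.2
    have c2 : ((range m).biUnion fun j => (range K ×ˢ range K).filter
              (fun q => q.1 ≠ q.2 ∧ ∃ n : ℤ,
                |T + X * 2 ^ q.1 - X * 2 ^ q.2 - Am (j + 1) - n * ((Gam : ℤ)) ^ (j + 1)|
                  ≤ (M : ℤ) * (Gam : ℤ) ^ j)).card ≤ (range m).card * 1 := by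
      refine card_biUnion_le_card_mul _ _ _ fun j h => ?_
      rw [mem_range] at h
      rw [card_le_one]
      intro a ha b hb
      rw [mem_filter, mem_product, mem_range, mem_range] at ha hb
      obtain ⟨⟨ha1, ha2⟩, ha3, n, ha4⟩ := ha
      obtain ⟨⟨hb1, hb2⟩, hb3, n', hb4⟩ := hb
      have := one_grid hM hG2 (hXG (j + 1) (by omega)) ha1 ha2 hb1 hb2 ha3 ha4 hb4
      exact Prod.ext this.1 this.2
    rw [card_range] at c2
    omega


/-- bad totals in digit form (integers) -/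
def BadD (Ms : Finset ℕ) (M b m : ℕ) (n : ℤ) : Prop :=
  (∃ k ∈ Ms, (k : ℤ) ∣ n) ∨
    ∃ j, j < m ∧ ¬ ((M : ℤ) ≤ n / (b : ℤ) ^ j % b ∧ n / (b : ℤ) ^ j % b + M + 1 ≤ b)

/-- bad totals in digit form (natural numbers), literally as in 852's gadget -/
def BadN (Ms : Finset ℕ) (M b m : ℕ) (n : ℕ) : Prop :=
  (∃ k ∈ Ms, k ∣ n) ∨ ∃ j, j < m ∧ ¬ (M ≤ n / b ^ j % b ∧ n / b ^ j % b + M + 1 ≤ b)

theorem badD_of_badN {Ms : Finset ℕ} {M b m n : ℕ} (h : BadN Ms M b m n) :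
    BadD Ms M b m (n : ℤ) := by
  rcases h with ⟨k, hk, hd⟩ | ⟨j, hj, hn⟩
  · exact Or.inl ⟨k, hk, by exact_mod_cast hd⟩
  · refine Or.inr ⟨j, hj, fun h => hn ?_⟩
    obtain ⟨h1, h2⟩ := h
    exact ⟨by exact_mod_cast h1, by exact_mod_cast h2⟩

theorem badG_of_badD {Ms : Finset ℕ} {M b m : ℕ} {n : ℤ} (hb : 0 < b) (h : BadD Ms M b m n) :
    BadG Ms M b m (fun _ => 0) n := by
  rcases h with h | ⟨j, hj, hn⟩
  · exact Or.inl h
  · refine Or.inr ⟨j + 1, by omega, by omega, ?_⟩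
    rw [Nat.add_sub_cancel]
    have hb' : (0 : ℤ) < b := by exact_mod_cast hb
    set B : ℤ := (b : ℤ) ^ j with hB
    have hBpos : 0 < B := by positivity
    set q : ℤ := n / B with hq
    have e1 : B * q + n % B = n := by rw [hq]; exact Int.mul_ediv_add_emod n B
    have e2 : (b : ℤ) * (q / b) + q % b = q := Int.mul_ediv_add_emod q b
    have r1 := Int.emod_nonneg n hBpos.ne'
    have r2 := Int.emod_lt_of_pos n hBpos
    have r3 := Int.emod_nonneg q hb'.ne'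
    have r4 := Int.emod_lt_of_pos q hb'
    set d : ℤ := q % b with hd
    set u : ℤ := q / b with hu
    have en : n = u * (b : ℤ) ^ (j + 1) + d * B + n % B := by
      rw [pow_succ, ← hB]
      calc n = B * q + n % B := e1.symm
        _ = B * ((b : ℤ) * u + d) + n % B := by rw [e2]
        _ = _ := by ring
    by_cases h1 : (M : ℤ) ≤ d
    · have h2 : (b : ℤ) < d + M + 1 := by
        by_contra h3
        exact hn ⟨h1, by linarith⟩
      refine ⟨u + 1, ?_⟩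
      have e3 : n - 0 - (u + 1) * (b : ℤ) ^ (j + 1) = (d - b) * B + n % B := by
        have : (b : ℤ) ^ (j + 1) = B * b := by rw [pow_succ]
        rw [this] at en ⊢
        linear_combination en
      rw [e3, abs_le]
      constructor
      · have : (-(M : ℤ)) * B ≤ (d - b) * B := mul_le_mul_of_nonneg_right (by linarith) hBpos.le
        linarith
      · have : (d - b) * B ≤ (-1) * B := mul_le_mul_of_nonneg_right (by linarith) hBpos.le
        have h0 : (0 : ℤ) ≤ (M : ℤ) * B := by positivity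
        linarith
    · refine ⟨u, ?_⟩
      have e3 : n - 0 - u * (b : ℤ) ^ (j + 1) = d * B + n % B := by linear_combination en
      rw [e3, abs_le]
      have h4 : d + 1 ≤ M := by
        push Not at h1
        exact h1
      have h5 : (d + 1) * B ≤ M * B := mul_le_mul_of_nonneg_right h4 hBpos.le
      have h6 : 0 ≤ d * B := mul_nonneg r3 hBpos.le
      constructor
      · have h0 : (0 : ℤ) ≤ (M : ℤ) * B := by positivity
        linarith
      · linarith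

/-- **SPOIL LEAF** (lead #13673): wide ruler for the digit gadget. -/
theorem spoil (K D : ℕ) (Ms : Finset ℕ) (M b m : ℕ) (hp : ∀ p ∈ Ms, p.Prime)
    (hbig : ∀ p ∈ Ms, 2 ^ (K + 2) < p) (hdvd : ∀ p ∈ Ms, p ∣ M) (hcop : Nat.Coprime b M)
    (hb : M * 2 ^ (K + 6) < b) (hM : 0 < M) :
    ∃ c : ℕ → ℕ, StrictMono c ∧ (∀ i, D < c i) ∧ (∀ i j, i < j → c i + D < c j) ∧
      (∀ i j i' j', i ≠ j → i' ≠ j' → (i, j) ≠ (i', j') →
        (D : ℤ) < |((c i : ℤ) - c j) - (c i' - c j')|) ∧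
      ∀ (T : ℤ), by
        classical
        exact ((range K ×ˢ range K).filter
          (fun q => q.1 ≠ q.2 ∧ BadD Ms M b m (T + c q.1 - c q.2))).card ≤ Ms.card + m := by
  classical
  have hcop' : Nat.Coprime b (∏ p ∈ Ms, p) :=
    Nat.Coprime.prod_right fun p h => hcop.coprime_dvd_right (hdvd p h)
  obtain ⟨c, h1, h2, h3, h4, h5⟩ := thinD K D Ms M b m hp hbig hcop' hb hM
  refine ⟨c, h1, h2, h3, h4, fun T => ?_⟩
  refine le_trans (card_le_card ?_) (h5 (fun _ => 0) T)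
  intro q hq
  rw [mem_filter] at hq ⊢
  have hb0 : 0 < b := by
    have : 0 < M * 2 ^ (K + 6) := by positivity
    omega
  exact ⟨hq.1, hq.2.1, badG_of_badD hb0 hq.2.2⟩

end Crest.Agent.R320.Spoil243
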