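import Crest.Agent.R320.SemTop_727
import Crest.Agent.R320.SemJ_832
import Crest.Agent.R320.Fib_81
import Crest.Agent.R320.G1_852
import Crest.Agent.R320.Spoil_243
import Crest.Agent.R320.ExactR_237
import Crest.Agent.R320.Univ_188

/-!
Row 320: final join (helper552): SemTop_727 + SemJ_832 + Fib_81 + G1_852 + Spoil_243 + ExactR_237
+ LWallAll_922 + Univ_188.
-/

set_option autoImplicit false

namespace Crest.Agent.R320.Fin_552

open Crest.RegLang Crest.Agent.R320.Hk_851 Crest.Agent.R320.Blk467 Finset

/-- a Dat of SemJ_832 (with key-determined `nu1`) gives all fibres. -/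
theorem of_dat {α S V : Type} [Finite α] [Monoid S] [Finite S] [AddCommGroup V] [Finite V]
    (φ : α → S) (D : SemJ_832.Dat α S V) (hphi : D.phi = fun w => (w.map φ).prod)
    (hadd : ∀ a b s, D.act (a + b) s = D.act a s + D.act b s)
    (hone : ∀ v, D.act v 1 = v) (hmul : ∀ v s t, D.act v (s * t) = D.act (D.act v s) t)
    (hfaith : ∀ s t, (∀ v, D.act v s = D.act v t) → s = t)
    {n B W : ℕ} (hLW : Core1_922.LW n D.Wo)
    (hB : ∀ X : List α, (∀ t < X.length, ¬ D.Wo (X.take t)) →
        ∃ (u x v : List α) (k : ℕ), u.length ≤ B ∧ x.length ≤ W ∧ v.length ≤ B ∧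
          X = u ++ (List.replicate k x).flatten ++ v)
    (L M : ℕ) (hM : 0 < M)
    (hnu : ∀ Q Q' : List α, Q.take L = Q'.take L →
      ((Q.drop L).map φ).prod = ((Q'.drop L).map φ).prod →
      Q.length % M = Q'.length % M → D.nu1 Q = D.nu1 Q')
    (s : S) : HL 3 ({w | (w.map φ).prod = s} : Language α) := by
  let Sc : SemTop_727.Sch α V := ⟨D.Z, D.T, D.L1, D.L2⟩
  have hz : 0 < D.z := D.z_pos
  have hL1 : ∀ x, (Sc.L1 x).Finite := by
    intro x
    refine (List.finite_length_le α (D.p0 + D.N)).subset ?_
    rintro P ⟨h1, h2⟩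
    have := D.g_len _ _ h2
    rw [List.length_drop] at this
    show P.length ≤ D.p0 + D.N
    omega
  have hL2 : ∀ x, (Sc.L2 x).Finite := by
    intro x
    refine (List.finite_length_le α D.Lam).subset ?_
    rintro P ⟨k, hk, h1, h2⟩
    show P.length ≤ D.Lam
    have := D.c_le k hk
    omega
  refine SemTop_727.top (k := 1) D.act hadd hone hmul hfaith φ
    (fun X => D.act (D.nu2 (X.take D.p0)) ((X.drop D.p0).map φ).prod + D.nu1 (X.drop D.p0)) Sc
    ?_ (Fib_81.XX_pcode hz) ?_ hL1 hL2 ?_ ?_ s
  · intro v X
    show D.act (D.act v (D.phi (X.take D.p0)) + D.nu2 (X.take D.p0)) (D.phi (X.drop D.p0))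
      + D.nu1 (X.drop D.p0) = _
    rw [hphi]
    have h : (X.map φ).prod = ((X.take D.p0).map φ).prod * ((X.drop D.p0).map φ).prod := by
      rw [← List.prod_append, ← List.map_append, List.take_append_drop]
    rw [h, hmul, hadd]
    abel
  · intro x y
    refine Fib_81.HL_blocks (z := D.z) φ (D.p0 + L) M hM hLW hB _ (fun X hX => hX.1) ?_
    intro X hX Y hY h1 h2 h3 hXL
    refine ⟨hY, ?_⟩
    have hT : D.T x X = y := hXL.2
    show D.T x Y = y
    rw [← hT]
    have hXz : D.z ≤ X.length := hX.1
    have hYz : D.z ≤ Y.length := hY.1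
    have hpz : D.p0 ≤ D.z := by
      have := D.h_z
      omega
    have e1 : X.take D.p0 = Y.take D.p0 := by
      have := congrArg (fun l => l.take D.p0) h1
      simp only [List.take_take] at this
      rwa [min_eq_left (by omega)] at this
    have e2 : (X.drop D.p0).take L = (Y.drop D.p0).take L := by
      have := congrArg (fun l => l.drop D.p0) h1
      simp only [List.drop_take] at this
      rwa [Nat.add_sub_cancel_left] at this
    have e3 : (((X.drop D.p0).drop L).map φ).prod = (((Y.drop D.p0).drop L).map φ).prod := by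
      rw [List.drop_drop, List.drop_drop]; exact h2
    have e4 : (X.drop D.p0).length % M = (Y.drop D.p0).length % M := by
      rw [List.length_drop, List.length_drop]
      have a1 : X.length = (X.length - D.p0) + D.p0 := by omega
      have a2 : Y.length = (Y.length - D.p0) + D.p0 := by omega
      rw [a1, a2] at h3
      exact Nat.ModEq.add_right_cancel' D.p0 h3
    have e5 : ((X.drop D.p0).map φ).prod = ((Y.drop D.p0).map φ).prod := by
      rw [← List.take_append_drop L (X.drop D.p0), ← List.take_append_drop L (Y.drop D.p0),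
        List.map_append, List.map_append, List.prod_append, List.prod_append, e2, e3]
    show D.act (D.act x (D.phi (Y.take D.p0)) + D.nu2 (Y.take D.p0)) (D.phi (Y.drop D.p0))
      + D.nu1 (Y.drop D.p0) = D.act (D.act x (D.phi (X.take D.p0)) + D.nu2 (X.take D.p0))
        (D.phi (X.drop D.p0)) + D.nu1 (X.drop D.p0)
    rw [hphi]
    show D.act (D.act x ((Y.take D.p0).map φ).prod + D.nu2 (Y.take D.p0))
        ((Y.drop D.p0).map φ).prod + D.nu1 (Y.drop D.p0) =
      D.act (D.act x ((X.take D.p0).map φ).prod + D.nu2 (X.take D.p0))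
        ((X.drop D.p0).map φ).prod + D.nu1 (X.drop D.p0)
    rw [hnu _ _ e2 e3 e4, e1, e5]
  · intro X1 h1 X2 h2 x
    exact D.hC2 h1 h2 x
  · intro s
    exact (Fib_81.HL_tail_prod (z := D.z) φ hLW hB s).mono (by norm_num)

/-- all fibres of a finite monoid have height three. -/
theorem fin (α : Type) [Finite α] (S : Type) [Monoid S] [Finite S] (φ : α → S) (s : S) :
    HL 3 ({w | (w.map φ).prod = s} : Language α) := by
  classical
  obtain ⟨act, hadd, hone, hmul, hfaith⟩ := exists_module S
  haveI := Fintype.ofFinite S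
  haveI : Fintype (S → ZMod 2) := inferInstance
  obtain ⟨m, r, hG⟩ := G1_852.gadget act
  obtain ⟨K, hK⟩ := ExactR_237.exact_gadget α S (S → ZMod 2) φ act (2 * (r + m) + 2)
  obtain ⟨Ms, M, hcard, hMs, hM, hG⟩ := hG (2 ^ (K + 2))
  set b : ℕ := M * 2 ^ (K + 6) + 1 with hb
  have hcop : Nat.Coprime b M := by
    rw [hb]
    have : Nat.Coprime (M * 2 ^ (K + 6) + 1) M := by
      rw [Nat.coprime_comm]
      simp
    exact this
  obtain ⟨lam, rho, nu1, hlen, hsound, hcomp, hfs⟩ := hG b (by omega) hcop α φ
  set N : ℕ := b ^ m with hN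
  have hNpos : 0 < N := by rw [hN]; positivity
  obtain ⟨c, hcm, hc0, hcD, hcg, hcs⟩ := Spoil243.spoil K (2 * N) Ms M b m
    (fun p hp => (hMs p hp).2.1) (fun p hp => (hMs p hp).1) (fun p hp => (hMs p hp).2.2) hcop
    (by omega) hM
  obtain ⟨lam2, rho2, nu2, hs2, hc2⟩ := hK c (fun i j hij _ => hcm hij)
  set Lam : ℕ := c K with hLam
  obtain ⟨n, G, B, Wo, hLW, hgap, -, -, hB⟩ :=
    LWallAll_922.walls_all_left α (2 * Lam + 2 * N) (by omega)
  let D : SemJ_832.Dat α S (S → ZMod 2) :=
    { phi := fun w => (w.map φ).prod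
      act := act
      Wo := Wo
      n := n
      W := 2 * Lam + 2 * N
      z := Lam + n + 2 * N + 2 * Lam + 1
      p0 := Lam
      N := N
      K := K
      C0 := r + m
      Lam := Lam
      BadT := Spoil243.BadN Ms M b m
      lam := lam
      rho := rho
      nu1 := nu1
      c := c
      lam2 := lam2
      rho2 := fun k Q => rho2 k Q 1
      nu2 := fun X => nu2 X 1
      hloc := hLW.app
      hgap := by
        intro X t t' h1 h2 h3 h4
        have := hgap X t t' h1 h2 h3 h4
        omega
      g_len := fun p v h => (hlen p v h).le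
      g_sound := fun p q v r h1 h2 => hsound p q v r h1 h2
      g_comp := by
        intro u _ hu v
        have hu1 : ∀ k ∈ Ms, ¬ k ∣ u.length := fun k hk h => hu (Or.inl ⟨k, hk, h⟩)
        have hu2 : ∀ j < m, M ≤ u.length / b ^ j % b ∧ u.length / b ^ j % b + M < b := by
          intro j hj
          by_contra hcon
          refine hu (Or.inr ⟨j, hj, fun h => hcon ⟨h.1, by have := h.2; omega⟩⟩)
        obtain ⟨P, Q, e, h1, v', h2⟩ := hcomp u hu1 hu2 v
        exact ⟨P, Q, e.symm, h1, by rw [h2]; rfl⟩
      e_sound := by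
        intro k hk P Q v b h1 h2 h3
        have := hs2 k hk P Q 1 v b h1 h2 h3
        rw [mul_one] at this
        exact this
      e_comp := by
        intro u v hu
        obtain ⟨I, h1, h2⟩ := hc2 u 1 v hu
        exact ⟨I, h1, h2⟩
      c_le := fun k hk => hcm.monotone hk.le
      rulerE := by
        intro i _ j _ i' _ j' _ hij hij' h1 h2
        by_contra hne
        have h3 := hcg i j i' j' hij hij' (fun h => hne (by
          rw [Prod.mk.injEq] at h; exact h))
        have h4 : |((c i : ℤ) - c j) - (c i' - c j')| ≤ ((2 * N : ℕ) : ℤ) := by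
          rw [abs_le]
          push_cast
          constructor
          · have : (c i' : ℤ) + c j ≤ c i + c j' + 2 * N := by exact_mod_cast h2
            linarith
          · have : (c i : ℤ) + c j' ≤ c i' + c j + 2 * N := by exact_mod_cast h1
            linarith
        exact absurd h3 (not_lt.2 h4)
      rulerB := by
        intro T _ hT
        refine le_trans (Finset.card_le_card ?_) ((hcs (T : ℤ)).trans (by omega))
        intro ab hab
        rw [Finset.mem_filter] at hab ⊢
        obtain ⟨h1, h2, h3⟩ := hab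
        refine ⟨h1, h2, ?_⟩
        have h4 := Spoil243.badD_of_badN h3
        have h5 : c ab.2 ≤ Lam := by
          rw [Finset.mem_product, Finset.mem_range, Finset.mem_range] at h1
          exact hcm.monotone h1.2.le
        rw [Nat.cast_sub (by omega)] at h4
        push_cast at h4
        exact h4
      h_p0 := le_rfl
      z_pos := by omega
      h_z := by omega
      h_W := le_rfl }
  exact of_dat φ D rfl hadd hone hmul hfaith hLW hB N (M * N) (Nat.mul_pos hM hNpos)
    (fun Q Q' h1 h2 h3 => (hfs Q Q' h1 h2 h3).2) s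

/-- `S0495`. -/
theorem height_three (α : Type*) [Finite α] (L : Language α) (hL : L.IsRegular) :
    ∃ e : GRegExp α, e.height ≤ 3 ∧ e.lang = L :=
  Univ_188.of_type0 3 (fun α _ L hL => of_monoid (k := 3) (fun S _ _ φ s => fin α S φ s) L hL)
    α L hL

end Crest.Agent.R320.Fin_552
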