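import Mathlib

/-!
Row 320 (helper939): concrete instance of the semantic top (727 #13375) for a gadget with two thin
failure modes (693 #13203): natural chain rule, no comb, no small walls.

* `good_of`  : a block with no wall within `N1` of `z` and not `BadT` is cut by scheme 1.
* `hC2`      : two consecutive bad blocks are cut by scheme 2 (ruler + exact gadget).
-/

set_option autoImplicit false

namespace Crest.Agent.R320.SemInst_939

universe u v w

variable {α : Type u} {V : Type v} {S : Type w}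

/-- blocks -/
def XX (Wo : List α → Prop) (z : ℕ) : Set (List α) :=
  {X | z ≤ X.length ∧ Wo X ∧ ∀ t, z ≤ t → t < X.length → ¬ Wo (X.take t)}

/-- zone map -/
def Tm [Add V] (φ : List α → S) (act : V → S → V) (nu2 nu1 : List α → V) (p0 : ℕ) (x : V)
    (X : List α) : V :=
  act (act x (φ (X.take p0)) + nu2 (X.take p0)) (φ (X.drop p0)) + nu1 (X.drop p0)

/-- left words of scheme 1 -/
def L1 [Add V] (φ : List α → S) (act : V → S → V) (nu2 : List α → V) (p0 : ℕ)
    (lam : List α → Option V) (x : V) : Set (List α) :=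
  {P | p0 ≤ P.length ∧ lam (P.drop p0) = some (act x (φ (P.take p0)) + nu2 (P.take p0))}

/-- right words, semantic form -/
def R1 (X : Set (List α)) (T : V → List α → V) (L : V → Set (List α)) (y : V) : Set (List α) :=
  {Q | ∀ x, ∀ P ∈ L x, P ++ Q ∈ X ∧ T x (P ++ Q) = y}

def Good (X : Set (List α)) (T : V → List α → V) (L : V → Set (List α)) : Set (List α) :=
  {Z | Z ∈ X ∧ ∀ x, ∃ P ∈ L x, ∃ Q ∈ R1 X T L (T x Z), P ++ Q = Z}

def Bad (X : Set (List α)) (T : V → List α → V) (L : V → Set (List α)) : Set (List α) :=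
  {Z | Z ∈ X ∧ Z ∉ Good X T L}

def R2 (X : Set (List α)) (T : V → List α → V) (L L' : V → Set (List α)) (y : V) :
    Set (List α) :=
  {Q | ∀ x, ∀ P ∈ L' x,
    (∃ X1 ∈ Bad X T L, ∃ X2 ∈ Bad X T L, P ++ Q = X1 ++ X2 ∧ T (T x X1) X2 = y) ∨
    (∃ Z ∈ Good X T L, Z <+: P ++ Q) ∨
    (∃ X1 ∈ Bad X T L, ∃ X2 ∈ Good X T L, X1 ++ X2 <+: P ++ Q)}

theorem take_shift (P Q : List α) (j : ℕ) : (P ++ Q).take (P.length + j) = P ++ Q.take j := by
  rw [List.take_append, List.take_of_length_le (by omega)]
  congr 2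
  omega

theorem wall_shift {Wo : List α → Prop} {n : ℕ}
    (loc : ∀ P Q : List α, n ≤ Q.length → (Wo (P ++ Q) ↔ Wo Q)) (P P' Q : List α) (j : ℕ)
    (hj : n ≤ j) (hjQ : j ≤ Q.length) :
    Wo ((P ++ Q).take (P.length + j)) ↔ Wo ((P' ++ Q).take (P'.length + j)) := by
  rw [take_shift, take_shift, loc P _ (by rw [List.length_take]; omega),
    loc P' _ (by rw [List.length_take]; omega)]

section one

variable [AddCommGroup V] (φ : List α → S) (act : V → S → V) (nu2 nu1 : List α → V)
  (p0 n N1 T0 z : ℕ) (Wo : List α → Prop) (BadT : ℕ → Prop) (lam rho : List α → Option V)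

theorem good_of
    (loc : ∀ P Q : List α, n ≤ Q.length → (Wo (P ++ Q) ↔ Wo Q))
    (hz : p0 + N1 + N1 + n ≤ z)
    (sound : ∀ P Q v b, lam P = some v → rho Q = some b → b = act v (φ (P ++ Q)) + nu1 (P ++ Q))
    (lamlen : ∀ P v, lam P = some v → P.length ≤ N1)
    (compl : ∀ u : List α, T0 ≤ u.length → ¬ BadT u.length → ∀ v, ∃ P Q, P ++ Q = u ∧
      lam P = some v ∧ (rho Q).isSome = true)
    (X : List α) (hX : X ∈ XX Wo z)
    (hE : ∀ t, n ≤ t → t ≤ X.length → Wo (X.take t) → ¬ (z ≤ t + N1 ∧ t ≤ z + N1))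
    (hT0 : T0 + p0 ≤ X.length) (hB : ¬ BadT (X.length - p0)) :
    X ∈ Good (XX Wo z) (Tm φ act nu2 nu1 p0) (L1 φ act nu2 p0 lam) := by
  refine ⟨hX, fun x => ?_⟩
  obtain ⟨hXz, hXW, hXn⟩ := hX
  have hlY : (X.drop p0).length = X.length - p0 := List.length_drop
  obtain ⟨P1, Q, hPQ, hlP, hrQ⟩ := compl (X.drop p0) (by omega) (by rw [hlY]; exact hB)
    (act x (φ (X.take p0)) + nu2 (X.take p0))
  obtain ⟨b, hb⟩ := Option.isSome_iff_exists.1 hrQ
  have hP1 := lamlen _ _ hlP
  have hX0 : (X.take p0).length = p0 := by rw [List.length_take]; omega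
  have hXeq : (X.take p0 ++ P1) ++ Q = X := by
    rw [List.append_assoc, hPQ, List.take_append_drop]
  have hlen : p0 + P1.length + Q.length = X.length := by
    have := congrArg List.length hXeq
    simp only [List.length_append, hX0] at this
    exact this
  have hend : z + N1 < X.length := by
    by_contra hcon
    exact hE X.length (by omega) le_rfl (by rw [List.take_length]; exact hXW)
      ⟨by omega, by omega⟩
  have hTX : Tm φ act nu2 nu1 p0 x X = b := by
    unfold Tm
    rw [← hPQ]
    exact (sound P1 Q _ b hlP hb).symm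
  refine ⟨X.take p0 ++ P1, ⟨by simp only [List.length_append, hX0]; omega, ?_⟩, Q, ?_, hXeq⟩
  · rw [List.drop_append_of_le_length (by omega), List.take_append_of_le_length (by omega)]
    rw [List.drop_of_length_le (by omega), List.nil_append, List.take_take, min_self]
    exact hlP
  · intro x' P' hP'
    obtain ⟨hP'0, hP'l⟩ := hP'
    have hP'1 := lamlen _ _ hP'l
    rw [List.length_drop] at hP'1
    constructor
    · refine ⟨by rw [List.length_append]; omega, ?_, ?_⟩
      · rw [loc P' Q (by omega), ← loc (X.take p0 ++ P1) Q (by omega), hXeq]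
        exact hXW
      · intro t ht1 ht2 hw
        rw [List.length_append] at ht2
        obtain ⟨j, rfl⟩ : ∃ j, t = P'.length + j := ⟨t - P'.length, by omega⟩
        have h1 := (wall_shift loc P' (X.take p0 ++ P1) Q j (by omega) (by omega)).1 hw
        rw [hXeq] at h1
        have hPl : (X.take p0 ++ P1).length = p0 + P1.length := by
          rw [List.length_append, hX0]
        rw [hPl] at h1
        rcases Nat.lt_or_ge (p0 + P1.length + j) z with h2 | h2
        · exact hE (p0 + P1.length + j) (by omega) (by omega) h1 ⟨by omega, by omega⟩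
        · exact hXn _ h2 (by omega) h1
    · rw [hTX]
      unfold Tm
      have e1 : (P' ++ Q).take p0 = P'.take p0 := List.take_append_of_le_length hP'0
      have e2 : (P' ++ Q).drop p0 = P'.drop p0 ++ Q := List.drop_append_of_le_length hP'0
      rw [e1, e2]
      exact (sound (P'.drop p0) Q _ b hP'l hb).symm

end one

section two

variable [AddCommGroup V] (φ : List α → S) (act : V → S → V) (nu2 nu1 : List α → V)
  (p0 n N1 T0 z : ℕ) (Wo : List α → Prop) (BadT : ℕ → Prop) (lam rho : List α → Option V)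

open Finset in
theorem hC2
    (loc : ∀ P Q : List α, n ≤ Q.length → (Wo (P ++ Q) ↔ Wo Q))
    (W Λ K R0 : ℕ) (c : ℕ → ℕ)
    (sep : ∀ P D : List α, n ≤ P.length → Wo P → Wo (P ++ D) → D ≠ [] → W < D.length)
    (hcΛ : ∀ k, k < K → c k ≤ Λ) (hΛ : Λ ≤ p0)
    (hz : p0 + N1 + N1 + n + 2 * Λ + T0 + 1 ≤ z) (hW : 2 * Λ + 2 * N1 + 1 ≤ W)
    (sound : ∀ P Q v b, lam P = some v → rho Q = some b → b = act v (φ (P ++ Q)) + nu1 (P ++ Q))
    (lamlen : ∀ P v, lam P = some v → P.length ≤ N1)
    (compl : ∀ u : List α, T0 ≤ u.length → ¬ BadT u.length → ∀ v, ∃ P Q, P ++ Q = u ∧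
      lam P = some v ∧ (rho Q).isSome = true)
    (res : ∀ k l k' l', k < K → l < K → k' < K → l' < K → k ≠ l → k' ≠ l' →
      c k + c l' ≤ c k' + c l + 2 * N1 → c k' + c l ≤ c k + c l' + 2 * N1 → k = k')
    (spoil : ∀ T, T0 + Λ ≤ T → ∀ A : Finset ℕ, (∀ k ∈ A, k < K ∧ ∃ l, l < K ∧ k ≠ l ∧
      BadT (T + c l - c k)) → A.card ≤ R0)
    (lam2 rho2 : List α → Option V)
    (h2len : ∀ P v, lam2 P = some v → ∃ j, j < K ∧ P.length = c j)
    (ex : ∀ P Q v b, P.length + Q.length = p0 → lam2 P = some v → rho2 Q = some b →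
      b = act v (φ (P ++ Q)) + nu2 (P ++ Q))
    (cm : ∀ (u : List α) (v : V), u.length = p0 → ∃ J : Finset ℕ, 1 + (R0 + R0) < J.card ∧
      ∀ j ∈ J, j < K ∧ lam2 (u.take (c j)) = some v ∧ (rho2 (u.drop (c j))).isSome = true)
    (X1 : List α) (hX1 : X1 ∈ Bad (XX Wo z) (Tm φ act nu2 nu1 p0) (L1 φ act nu2 p0 lam))
    (X2 : List α) (hX2 : X2 ∈ Bad (XX Wo z) (Tm φ act nu2 nu1 p0) (L1 φ act nu2 p0 lam))
    (x : V) :
    ∃ P, lam2 P = some x ∧ ∃ Q ∈ R2 (XX Wo z) (Tm φ act nu2 nu1 p0) (L1 φ act nu2 p0 lam)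
      (fun x => {P | lam2 P = some x})
      (Tm φ act nu2 nu1 p0 (Tm φ act nu2 nu1 p0 x X1) X2), P ++ Q = X1 ++ X2 := by
  classical
  obtain ⟨⟨hz1, hw1, hn1⟩, hb1⟩ := id hX1
  obtain ⟨⟨hz2, hw2, hn2⟩, hb2⟩ := id hX2
  set wd : List α := X1 ++ X2 with hwd
  have hlw : wd.length = X1.length + X2.length := by rw [hwd, List.length_append]
  let Wl : ℕ → Prop := fun t => n ≤ t ∧ t ≤ wd.length ∧ Wo (wd.take t)
  have hWX1 : Wl X1.length := ⟨by omega, by omega, by
    rw [hwd, List.take_append_of_le_length le_rfl, List.take_length]; exact hw1⟩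
  have hWow : Wo wd := by rw [hwd, loc X1 X2 (by omega)]; exact hw2
  have hWlw : Wl wd.length := ⟨by omega, le_rfl, by rw [List.take_length]; exact hWow⟩
  have hsep : ∀ s t, Wl s → Wl t → s < t → W < t - s := by
    intro s t hs ht hst
    have e : wd.take s ++ (wd.take t).drop s = wd.take t := by
      have : wd.take s = (wd.take t).take s := by
        rw [List.take_take, min_eq_left hst.le]
      rw [this, List.take_append_drop]
    have hl : ((wd.take t).drop s).length = t - s := by
      rw [List.length_drop, List.length_take, min_eq_left ht.2.1]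
    have := sep (wd.take s) ((wd.take t).drop s)
      (by rw [List.length_take, min_eq_left hs.2.1]; exact hs.1) hs.2.2
      (by rw [e]; exact ht.2.2) (by
        intro h0
        rw [h0] at hl
        simp at hl
        omega)
    rw [hl] at this
    exact this
  have hex1 : ∃ t, Wl t ∧ z ≤ t + Λ := ⟨X1.length, hWX1, by omega⟩
  obtain ⟨t1, ht1, ht1z, ht1min⟩ : ∃ t1, Wl t1 ∧ z ≤ t1 + Λ ∧ ∀ t, Wl t → z ≤ t + Λ → t1 ≤ t :=
    ⟨Nat.find hex1, (Nat.find_spec hex1).1, (Nat.find_spec hex1).2,
      fun t h h' => Nat.find_min' hex1 ⟨h, h'⟩⟩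
  have ht1X : t1 ≤ X1.length := ht1min _ hWX1 (by omega)
  have hex2 : ∃ t, Wl t ∧ t1 < t := ⟨wd.length, hWlw, by omega⟩
  obtain ⟨t2, ht2, ht2z, ht2min⟩ : ∃ t2, Wl t2 ∧ t1 < t2 ∧ ∀ t, Wl t → t1 < t → t2 ≤ t :=
    ⟨Nat.find hex2, (Nat.find_spec hex2).1, (Nat.find_spec hex2).2,
      fun t h h' => Nat.find_min' hex2 ⟨h, h'⟩⟩
  -- spoiled places
  let SE : Finset ℕ := (range K).filter (fun k => ∃ l, l < K ∧ k ≠ l ∧ ∃ t, Wl t ∧
    z + c k ≤ t + c l + N1 ∧ t + c l ≤ z + c k + N1)
  let ST : ℕ → Finset ℕ := fun t => (range K).filter (fun k => ∃ l, l < K ∧ k ≠ l ∧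
    BadT (t - p0 + c l - c k))
  have hSE : SE.card ≤ 1 := by
    rw [Finset.card_le_one]
    intro k hk k' hk'
    simp only [SE, mem_filter, mem_range] at hk hk'
    obtain ⟨hkK, l, hl, hkl, t, ht, h1, h2⟩ := hk
    obtain ⟨hkK', l', hl', hkl', t', ht', h1', h2'⟩ := hk'
    have a1 := hcΛ k hkK
    have a2 := hcΛ l hl
    have a3 := hcΛ k' hkK'
    have a4 := hcΛ l' hl'
    have htt : t = t' := by
      rcases lt_trichotomy t t' with h | h | h
      · have := hsep t t' ht ht' h
        omega
      · exact h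
      · have := hsep t' t ht' ht h
        omega
    subst htt
    exact res k l k' l' hkK hl hkK' hl' hkl hkl' (by omega) (by omega)
  have hST : ∀ t, z ≤ t + Λ → (ST t).card ≤ R0 := by
    intro t ht
    refine spoil (t - p0) (by omega) (ST t) ?_
    intro k hk
    simp only [ST, mem_filter, mem_range] at hk
    exact hk
  have hu : (X1.take p0).length = p0 := by rw [List.length_take]; omega
  obtain ⟨J, hJ, hJk⟩ := cm (X1.take p0) x hu
  obtain ⟨k, hkJ, hkS⟩ : ∃ k ∈ J, k ∉ SE ∪ (ST t1 ∪ ST t2) := by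
    apply Finset.exists_mem_notMem_of_card_lt_card
    have h1 := hST t1 ht1z
    have h2 := hST t2 (by omega)
    have h3 := Finset.card_union_le SE (ST t1 ∪ ST t2)
    have h4 := Finset.card_union_le (ST t1) (ST t2)
    omega
  obtain ⟨hkK, hlk, hrk⟩ := hJk k hkJ
  simp only [mem_union, not_or] at hkS
  obtain ⟨hkSE, hkS1, hkS2⟩ := hkS
  have hckΛ := hcΛ k hkK
  have htk : (X1.take p0).take (c k) = wd.take (c k) := by
    rw [List.take_take, min_eq_left (by omega), hwd, List.take_append_of_le_length (by omega)]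
  obtain ⟨b, hb⟩ := Option.isSome_iff_exists.1 hrk
  have hPlen : (wd.take (c k)).length = c k := by rw [List.length_take]; omega
  have hQlen : (wd.drop (c k)).length = wd.length - c k := List.length_drop
  have hPQ : wd.take (c k) ++ wd.drop (c k) = wd := List.take_append_drop _ _
  refine ⟨wd.take (c k), by rw [← htk]; exact hlk, wd.drop (c k), ?_, hPQ⟩
  intro x' P' hP'
  obtain ⟨l, hlK, hPl⟩ := h2len P' x' hP'
  have hclΛ := hcΛ l hlK
  have shift : ∀ j, n ≤ j → j ≤ (wd.drop (c k)).length →
      (Wo ((P' ++ wd.drop (c k)).take (c l + j)) ↔ Wo (wd.take (c k + j))) := by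
    intro j h1 h2
    have := wall_shift loc P' (wd.take (c k)) (wd.drop (c k)) j h1 h2
    rw [hPQ, hPl, hPlen] at this
    exact this
  by_cases hkl : k = l
  · subst hkl
    have hdrop : wd.drop (c k) = X1.drop (c k) ++ X2 := by
      rw [hwd, List.drop_append_of_le_length (by omega)]
    have hX1' : P' ++ X1.drop (c k) ∈ XX Wo z := by
      have hdl : (X1.drop (c k)).length = X1.length - c k := List.length_drop
      refine ⟨by rw [List.length_append, hdl]; omega, ?_, ?_⟩
      · rw [loc P' _ (by omega), ← loc (X1.take (c k)) _ (by omega), List.take_append_drop]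
        exact hw1
      · intro t h1 h2 h3
        rw [List.length_append, hdl] at h2
        obtain ⟨j, rfl⟩ : ∃ j, t = P'.length + j := ⟨t - P'.length, by omega⟩
        have h4 := (wall_shift loc P' (X1.take (c k)) (X1.drop (c k)) j (by omega)
          (by omega)).1 h3
        rw [List.take_append_drop, List.length_take, min_eq_left (by omega)] at h4
        exact hn1 _ (by omega) (by omega) h4
    have hcat : P' ++ wd.drop (c k) = (P' ++ X1.drop (c k)) ++ X2 := by
      rw [hdrop, List.append_assoc]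
    by_cases hg : P' ++ X1.drop (c k) ∈
        Good (XX Wo z) (Tm φ act nu2 nu1 p0) (L1 φ act nu2 p0 lam)
    · right; left
      exact ⟨_, hg, by rw [hcat]; exact List.prefix_append _ _⟩
    · left
      refine ⟨P' ++ X1.drop (c k), ⟨hX1', hg⟩, X2, hX2, hcat, ?_⟩
      congr 1
      unfold Tm
      have e1 : (P' ++ X1.drop (c k)).take p0 = P' ++ (X1.take p0).drop (c k) := by
        rw [List.drop_take]
        obtain ⟨j, hj⟩ : ∃ j, p0 = P'.length + j := ⟨p0 - P'.length, by omega⟩
        have hj' : p0 - c k = j := by omega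
        rw [hj', hj, take_shift]
      have e2 : (P' ++ X1.drop (c k)).drop p0 = X1.drop p0 := by
        rw [List.drop_append, List.drop_of_length_le (by omega), List.nil_append, List.drop_drop]
        congr 1
        omega
      rw [e1, e2]
      have g1 := ex P' ((X1.take p0).drop (c k)) x' b
        (by rw [List.length_drop, hu]; omega) hP' hb
      have g2 := ex ((X1.take p0).take (c k)) ((X1.take p0).drop (c k)) x b
        (by rw [List.length_drop, List.length_take, hu]; omega) hlk hb
      rw [List.take_append_drop] at g2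
      rw [← g1, ← g2]
  · right; left
    have hWw' : Wo (P' ++ wd.drop (c k)) := by
      rw [loc P' _ (by omega), ← loc (wd.take (c k)) _ (by omega), hPQ]
      exact hWow
    have hlw' : (P' ++ wd.drop (c k)).length = c l + (wd.length - c k) := by
      rw [List.length_append, hPl, hQlen]
    set w' := P' ++ wd.drop (c k) with hw'
    have hex : ∃ t, z ≤ t ∧ t ≤ w'.length ∧ Wo (w'.take t) :=
      ⟨w'.length, by omega, le_rfl, by rw [List.take_length]; exact hWw'⟩
    obtain ⟨ts, ⟨hts1, hts2, hts3⟩, htsmin⟩ : ∃ ts, (z ≤ ts ∧ ts ≤ w'.length ∧ Wo (w'.take ts)) ∧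
        ∀ t, (z ≤ t ∧ t ≤ w'.length ∧ Wo (w'.take t)) → ts ≤ t :=
      ⟨Nat.find hex, Nat.find_spec hex, fun t h => Nat.find_min' hex h⟩
    have hXl : (w'.take ts).length = ts := by rw [List.length_take, min_eq_left hts2]
    have htt : ∀ t, t ≤ ts → (w'.take ts).take t = w'.take t := fun t h => by
      rw [List.take_take, min_eq_left h]
    have hXX : w'.take ts ∈ XX Wo z := by
      refine ⟨by rw [hXl]; exact hts1, hts3, ?_⟩
      intro t h1 h2 h3
      rw [hXl] at h2
      rw [htt t h2.le] at h3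
      have := htsmin t ⟨h1, by omega, h3⟩
      omega
    have toW : ∀ t, c l + n ≤ t → t ≤ w'.length → Wo (w'.take t) → Wl (t - c l + c k) := by
      intro t h1 h2 h3
      obtain ⟨j, rfl⟩ : ∃ j, t = c l + j := ⟨t - c l, by omega⟩
      have := (shift j (by omega) (by omega)).1 h3
      have e : c l + j - c l + c k = c k + j := by omega
      rw [e]
      exact ⟨by omega, by omega, this⟩
    have ofW : ∀ t, Wl t → c k + n ≤ t → Wo (w'.take (t - c k + c l)) := by
      intro t h1 h2
      obtain ⟨j, rfl⟩ : ∃ j, t = c k + j := ⟨t - c k, by omega⟩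
      have h3 := h1.2.1
      have := (shift j (by omega) (by omega)).2 h1.2.2
      have e : c k + j - c k + c l = c l + j := by omega
      rw [e]
      exact this
    refine ⟨w'.take ts, good_of φ act nu2 nu1 p0 n N1 T0 z Wo BadT lam rho loc (by omega) sound
      lamlen compl _ hXX ?_ (by omega) ?_, List.take_prefix _ _⟩
    · intro t h1 h2 h3 h4
      rw [hXl] at h2
      rw [htt t h2] at h3
      have h5 := toW t (by omega) (by omega) h3
      apply hkSE
      simp only [SE, mem_filter, mem_range]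
      exact ⟨hkK, l, hlK, hkl, _, h5, by omega, by omega⟩
    · rw [hXl]
      intro hbad
      have h5 := toW ts (by omega) hts2 hts3
      set tt := ts - c l + c k with htt'
      have h6 : t1 ≤ tt := ht1min _ h5 (by omega)
      rcases Nat.eq_or_lt_of_le h6 with h7 | h7
      · apply hkS1
        simp only [ST, mem_filter, mem_range]
        refine ⟨hkK, l, hlK, hkl, ?_⟩
        have e : t1 - p0 + c l - c k = ts - p0 := by omega
        rw [e]; exact hbad
      · have h8 : t2 ≤ tt := ht2min _ h5 h7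
        have h9 : t1 + c l < z + c k := by
          by_contra hcon
          have h10 := ofW t1 ht1 (by omega)
          have h11 := ht1.2.1
          have := htsmin (t1 - c k + c l) ⟨by omega, by omega, h10⟩
          omega
        have h12 := hsep t1 t2 ht1 ht2 ht2z
        have h13 := ofW t2 ht2 (by omega)
        have h14 := ht2.2.1
        have h15 := htsmin (t2 - c k + c l) ⟨by omega, by omega, h13⟩
        apply hkS2
        simp only [ST, mem_filter, mem_range]
        refine ⟨hkK, l, hlK, hkl, ?_⟩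
        have e : t2 - p0 + c l - c k = ts - p0 := by omega
        rw [e]; exact hbad

end two

end Crest.Agent.R320.SemInst_939
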