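import Crest.Agent.R320.SemTop_727
import Crest.Agent.R320.SemInst_939
import Crest.Agent.R320.HZ_847
import Crest.Agent.R320.G1_852
import Crest.Agent.R320.Sp_125
import Crest.Agent.R320.ExactR_237
import Crest.Agent.R320.WallU_228
import Crest.Agent.R320.RegCongr_253
import Crest.Agent.R320.Two_621

/-!
# Row 320: final assembly (helper558)

`SemTop_727.top` + `SemInst_939` (both completeness statements) + `HZ_847` (heights) +
`G1_852.gadget` + `Sp_125.spoil` + `ExactR_237.exact_gadget` + `WallU_228.walls_full`.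
-/

set_option autoImplicit false

namespace Crest.Agent.R320.Fin_558

open Crest.RegLang Crest.Agent.R320.Hk_851 Crest.Agent.R320.FewWalls_228
  Crest.Agent.R320.WallU_228

/-- product of the letters -/
def pr {A S : Type} [Monoid S] (f : A → S) (w : List A) : S := (w.map f).prod

theorem pr_app {A S : Type} [Monoid S] (f : A → S) (u v : List A) :
    pr f (u ++ v) = pr f u * pr f v := by simp [pr]

open Finset in
open Classical in
theorem fst_card {K : ℕ} (B : ℕ → ℕ → Prop) (A : Finset ℕ)
    (h : ∀ k ∈ A, k < K ∧ ∃ l, l < K ∧ k ≠ l ∧ B k l) :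
    A.card ≤ ((range K ×ˢ range K).filter (fun p => p.1 ≠ p.2 ∧ B p.1 p.2)).card := by
  refine (card_le_card (t := ((range K ×ˢ range K).filter
    (fun p => p.1 ≠ p.2 ∧ B p.1 p.2)).image Prod.fst) fun k hk => ?_).trans card_image_le
  obtain ⟨h1, l, h2, h3, h4⟩ := h k hk
  rw [mem_image]
  refine ⟨(k, l), ?_, rfl⟩
  rw [mem_filter, mem_product, mem_range, mem_range]
  exact ⟨⟨h1, h2⟩, h3, h4⟩

theorem fin (α : Type) [Finite α] (S : Type) [Monoid S] [Finite S] (φ : α → S) (s : S) :
    HL 3 ({w | (w.map φ).prod = s} : Language α) := by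
  classical
  haveI : Fintype S := Fintype.ofFinite S
  let V : Type := Two_621.Tok S
  haveI : Finite V := inferInstanceAs (Finite (S → ZMod 2))
  haveI : Fintype V := Fintype.ofFinite V
  let act : V → S → V := Two_621.act
  have hadd : ∀ a b s, act (a + b) s = act a s + act b s := fun a b s => Two_621.act_add a b s
  have hone : ∀ v, act v 1 = v := fun v => Two_621.act_one v
  have hmul : ∀ v s t, act v (s * t) = act (act v s) t := fun v s t => (Two_621.act_mul v s t).symm
  have hfaith : ∀ s t, (∀ v, act v s = act v t) → s = t := fun s t h => Two_621.act_faithful h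
  obtain ⟨m, r, hg⟩ := G1_852.gadget act
  obtain ⟨K, hK⟩ := ExactR_237.exact_gadget α S V φ act (2 + ((r + m) + (r + m)))
  obtain ⟨Ms, M, hcard, hMs, hM, hg2⟩ := hg (4 ^ K)
  let b : ℕ := M * (2 ^ (K + 3) + 2) + 1
  have hb0 : 0 < b := Nat.succ_pos _
  have hbM : Nat.Coprime b M := by
    show Nat.Coprime (M * (2 ^ (K + 3) + 2) + 1) M
    simp
  obtain ⟨lam, rho, nu1, hlen, hsound, hcompl, hfs⟩ := hg2 b hb0 hbM α φ
  obtain ⟨c, hc1, hc2, hc3⟩ := Sp_125.spoil Ms M m b K (b ^ m) hM
    (fun k hk => ⟨(hMs k hk).1, (hMs k hk).2.2⟩) (by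
      show 2 ^ (K + 3) * M + 2 * M < M * (2 ^ (K + 3) + 2) + 1
      nlinarith) hbM
  have hcmono : ∀ i j, i < j → c i < c j := fun i j h => by
    have := hc1 i j h
    omega
  have hcK : ∀ k, k < K → c k ≤ c K := fun k hk => (hcmono k K hk).le
  have hcinj : ∀ i j, c i = c j → i = j := by
    intro i j h
    rcases lt_trichotomy i j with h1 | h1 | h1
    · have := hcmono _ _ h1; omega
    · exact h1
    · have := hcmono _ _ h1; omega
  obtain ⟨lam2, rho2, nu2, he1, he2⟩ := hK c (fun i j h _ => hcmono i j h)
  obtain ⟨n, c', P', S', hn, hP', hloc, hsep, -, -, hfew⟩ :=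
    walls_full (α := α) (2 * c K + 2 * b ^ m + 2)
  let z : ℕ := c K + b ^ m + b ^ m + n + 2 * c K + 0 + 1
  let L2f : List α → Option V := fun P => if h : ∃ k, k < K ∧ P.length = c k then
    lam2 h.choose P else none
  let R2f : List α → Option V := fun Q => if h : ∃ k, k < K ∧ Q.length + c k = c K then
    rho2 h.choose Q 1 else none
  let nuf : List α → V := fun X => nu2 X 1
  have hL2 : ∀ k, k < K → ∀ P : List α, P.length = c k → L2f P = lam2 k P := by
    intro k hk P hP
    have h : ∃ k, k < K ∧ P.length = c k := ⟨k, hk, hP⟩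
    have e : h.choose = k := hcinj _ _ (h.choose_spec.2.symm.trans hP)
    show (if h : ∃ k, k < K ∧ P.length = c k then lam2 h.choose P else none) = _
    rw [dif_pos h, e]
  have hR2 : ∀ k, k < K → ∀ Q : List α, Q.length + c k = c K → R2f Q = rho2 k Q 1 := by
    intro k hk Q hQ
    have h : ∃ k, k < K ∧ Q.length + c k = c K := ⟨k, hk, hQ⟩
    have e : h.choose = k := hcinj _ _ (by have := h.choose_spec.2; omega)
    show (if h : ∃ k, k < K ∧ Q.length + c k = c K then rho2 h.choose Q 1 else none) = _
    rw [dif_pos h, e]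
  have hL2len : ∀ P v, L2f P = some v → ∃ j, j < K ∧ P.length = c j := by
    intro P v h
    by_contra hc
    have : L2f P = none := dif_neg hc
    rw [this] at h
    cases h
  let D : SemTop_727.Sch α V := ⟨SemInst_939.XX (Wo n S') z,
    SemInst_939.Tm (pr φ) act nuf nu1 (c K), SemInst_939.L1 (pr φ) act nuf (c K) lam,
    fun x => {P | L2f P = some x}⟩
  have hnureg : ∀ c, Language.IsRegular ({w | nu1 w = c} : Language α) := by
    intro c0
    refine RegCongr_253.regular_of_congr φ (b ^ m) (M * b ^ m)
      (Nat.mul_pos hM (Nat.pow_pos hb0)) _ ?_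
    intro q q' _ _ h1 h2 h3 h4
    have h5 := (hfs q q' h1 h3 h2).2
    show nu1 q' = c0
    rw [← h5]
    exact h4
  have hF : HZ847.Few n S' := hfew
  refine HL.mono (k := 3) le_rfl (SemTop_727.top (k := 1) act hadd hone hmul hfaith φ
    (fun X => act (nuf (X.take (c K))) (pr φ (X.drop (c K))) + nu1 (X.drop (c K))) D ?_ ?_ ?_ ?_ ?_
    ?_ ?_ s)
  · -- hT
    intro v X
    show act (act v (pr φ (X.take (c K))) + nuf (X.take (c K))) (pr φ (X.drop (c K))) +
      nu1 (X.drop (c K)) = _
    rw [hadd, ← hmul, ← pr_app, List.take_append_drop, add_assoc]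
    rfl
  · -- prefix code
    refine ⟨fun h => ?_, fun X hX Y hY h => ?_⟩
    · have h1 : z ≤ ([] : List α).length := h.1
      rw [List.length_nil] at h1
      omega
    · obtain ⟨t, rfl⟩ := h
      cases t with
      | nil => simp
      | cons a t =>
        exfalso
        refine hY.2.2 X.length hX.1 (by simp) ?_
        rw [List.take_left]
        exact hX.2.1
  · -- fibres
    intro x y
    have := HZ847.H3 (n := n) (S := S') hF (φ := pr φ) (act := act) (nu1 := nu1) (nu2 := nuf)
      (z := z) (p0 := c K) (by simp [pr]) (pr_app φ) (by omega) hnureg x y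
    exact this.congr fun w => Iff.rfl
  · -- L1 finite
    intro x
    refine (List.finite_length_le α (c K + b ^ m)).subset fun P hP => ?_
    have h1 := hlen _ _ hP.2
    rw [List.length_drop] at h1
    show P.length ≤ c K + b ^ m
    omega
  · -- L2 finite
    intro x
    refine (List.finite_length_le α (c K)).subset fun P hP => ?_
    obtain ⟨j, hj, h1⟩ := hL2len _ _ hP
    have := hcK j hj
    show P.length ≤ c K
    omega
  · -- completeness
    intro X1 hX1 X2 hX2 x
    obtain ⟨P, hP, Q, hQ, hPQ⟩ := SemInst_939.hC2 (pr φ) act nuf nu1 (c K) n (b ^ m) 0 z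
      (Wo n S') (Sp_125.Bad Ms M m b) lam rho hloc (2 * c K + 2 * b ^ m + 2) (c K) K (r + m) c
      (by
        intro P E _ hP hPE hE
        by_contra hcon
        have hl : 0 < E.length := List.length_pos_iff.2 hE
        have := hsep (P ++ E) E.length hPE hl (by omega)
        rw [List.length_append, Nat.add_sub_cancel, List.take_left] at this
        exact this hP)
      hcK le_rfl (by omega) (by omega) hsound
      (fun P v h => (hlen P v h).le)
      (by
        intro u _ hu v
        have h1 : (∀ k ∈ Ms, ¬ k ∣ u.length) := fun k hk hd => hu (Or.inl ⟨k, hk, hd⟩)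
        have h2 : (∀ j < m, M ≤ u.length / b ^ j % b ∧ u.length / b ^ j % b + M < b) := by
          intro j hj
          by_contra hcon
          exact hu (Or.inr ⟨j, hj, fun h => hcon ⟨h.1, by have := h.2; omega⟩⟩)
        obtain ⟨P, Q, hPQ, hP, v', hv'⟩ := hcompl u h1 h2 v
        exact ⟨P, Q, hPQ.symm, hP, by rw [hv']; rfl⟩)
      (by
        intro k l k' l' _ _ _ _ h1 h2 h3 h4
        by_contra hne
        rcases hc2 k l k' l' h1 h2 (fun h => hne (congrArg Prod.fst h)) with h5 | h5 <;> omega)
      (by
        intro T hT A hA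
        have h1 := hc3 T (fun l hl => by have := hcK l hl; omega)
        have h2 := fst_card (fun k l => Sp_125.Bad Ms M m b (T + c l - c k)) A hA
        have h3 : Ms.card + m ≤ r + m := by omega
        refine le_trans ?_ (h1.trans h3)
        convert h2 using 2)
      L2f R2f hL2len
      (by
        intro P Q v b' hPQ hP hQ
        obtain ⟨k, hk, hPl⟩ := hL2len P v hP
        rw [hL2 k hk P hPl] at hP
        rw [hR2 k hk Q (by omega)] at hQ
        have := he1 k hk P Q 1 v b' hPl hP hQ
        rw [mul_one] at this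
        exact this)
      (by
        intro u v hu
        obtain ⟨I, hI1, hI2⟩ := he2 u 1 v (fun k hk => by rw [hu]; exact hcK k hk)
        refine ⟨I, by omega, fun j hj => ?_⟩
        obtain ⟨h1, h2, h3⟩ := hI2 j hj
        have hcj := hcK j h1
        refine ⟨h1, ?_, ?_⟩
        · rw [hL2 j h1 _ (by rw [List.length_take]; omega)]
          exact h2
        · rw [hR2 j h1 _ (by rw [List.length_drop]; omega)]
          exact h3)
      X1 hX1 X2 hX2 x
    exact ⟨P, hP, Q, hQ, hPQ⟩
  · -- tail
    intro s'
    have := HZ847.H4 (n := n) (S := S') hF (φ := pr φ) (z := z) (by simp [pr]) (pr_app φ) s'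
    exact HL.mono (k := 1) (by norm_num) (this.congr fun w => Iff.rfl)

end Crest.Agent.R320.Fin_558
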