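import Crest.Agent.R320.Read_561

/-!
# Row 320: top of the proof in automaton form (helper561)

`CutGoal k`: for every finite additive group `V` and every action of words on `V` there are a finite
automaton `Om`, starting states `init v`, a token reading `tok`, a noise `D` with
`tok (run (init v) w) = act w v + D w`, such that all run languages have height `≤ k`.
`CutGoal 3` implies statement S0495.
-/

set_option autoImplicit false

namespace Crest.Agent.R320.Fin_561

open Crest.RegLang Crest.Agent.R320.Hk_851 Crest.Agent.R320.Read_561

universe u

/-- the automaton goal: tokens with noise, run languages of height `≤ k` -/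
def CutGoal (α : Type u) (k : ℕ) : Prop :=
  ∀ (V : Type) [AddCommGroup V] [Finite V] (act : List α → V →+ V),
    (∀ x, act [] x = x) → (∀ u w x, act (u ++ w) x = act w (act u x)) →
    ∃ (Om : Type) (_ : Finite Om) (step : Om → α → Om) (init : V → Om) (tok : Om → V)
      (D : List α → V),
      (∀ w v, tok (w.foldl step (init v)) = act w v + D w) ∧
      ∀ v q, HL k {w | w.foldl step (init v) = q}

theorem top {α : Type u} {k : ℕ} (h : CutGoal α k) (L : Language α) (hL : L.IsRegular) :
    ∃ e : GRegExp α, e.height ≤ k ∧ e.lang = L := by
  obtain ⟨V, iV, fV, act, Acc, h0, h1, rfl⟩ := regular_eq_act L hL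
  obtain ⟨Om, fO, step, init, tok, D, hD, hR⟩ := h V act h0 h1
  let T : V → V → Language α := fun v v' =>
    {w | ∃ q ∈ {q : Om | tok q = v'}, w ∈ ({w | w.foldl step (init v) = q} : Language α)}
  have hT : ∀ v v', HL k (T v v') := fun v v' =>
    HL.biUnion (Set.toFinite {q : Om | tok q = v'}) fun q _ => hR v q
  have key := readoff_set act D (⊤ : Language α) T HL.top hT
    (by
      rintro w - v v' ⟨q, hq, hw⟩
      rw [← hD w v, show w.foldl step (init v) = q from hw]
      exact hq.symm)
    (by
      intro w _ v
      exact ⟨_, _, rfl, rfl⟩) Acc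
  exact key.congr fun w => ⟨fun hw => ⟨trivial, hw⟩, fun hw => hw.2⟩

end Crest.Agent.R320.Fin_561
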