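import Crest.Agent.R320.SemTop_727
import Crest.Agent.R320.Inst_879
import Crest.Agent.R320.GridG_19
import Crest.Agent.R320.GridRuler_257
import Crest.Agent.R320.ExactR_237
import Crest.Agent.R320.Fib_81
import Crest.Agent.R320.LWallAll_922
import Crest.Agent.R320.Univ_582

/-!
# Row 320: end-to-end assembly (helper568)

727's semantic top + 879's concrete side + 19's grid gadget + 257's ruler + 237's exact gadget
+ 922's walls + 81's height-one languages.
-/

set_option autoImplicit false

namespace Crest.Agent.R320.Fin_568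

open Crest.RegLang Crest.Agent.R320.Hk_851 Crest.Agent.R320

section act

variable {S : Type} [Monoid S]

/-- the action on functions -/
def act (v : S → ZMod 2) (s : S) : S → ZMod 2 := fun t => v (s * t)

theorem act_one (v : S → ZMod 2) : act v 1 = v := by
  funext t; simp [act]

theorem act_mul (v : S → ZMod 2) (s t : S) : act v (s * t) = act (act v s) t := by
  funext x; simp [act, mul_assoc]

theorem act_add (a b : S → ZMod 2) (s : S) : act (a + b) s = act a s + act b s := by
  funext t; simp [act]

theorem act_faith (s t : S) (h : ∀ v : S → ZMod 2, act v s = act v t) : s = t := by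
  classical
  by_contra hne
  have h1 := congrFun (h (fun x => if x = s then 1 else 0)) 1
  simp only [act, mul_one, if_true] at h1
  rw [if_neg (fun h2 => hne h2.symm)] at h1
  exact one_ne_zero h1

end act

theorem main (α : Type) [Finite α] (S : Type) [Monoid S] [Finite S] (φ : α → S) (s : S) :
    HL 3 ({w | (w.map φ).prod = s} : Language α) := by
  classical
  haveI : Fintype S := Fintype.ofFinite S
  obtain ⟨m, r, hgrid⟩ := GridG_19.grid.{0} S (S → ZMod 2) act
  obtain ⟨K, hex⟩ := ExactR_237.exact_gadget α S (S → ZMod 2) φ act (2 * (r + m) + 2)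
  obtain ⟨Ms, hcard, hMs, hg⟩ := hgrid (4 ^ K + 2)
  obtain ⟨M, hM⟩ : ∃ M, M = ∏ q ∈ Ms, q := ⟨_, rfl⟩
  rw [← hM] at hg
  have hMpos : 0 < M := by rw [hM]; exact Finset.prod_pos fun q hq => (hMs q hq).1.pos
  obtain ⟨kap, hkap⟩ : ∃ kap : ℕ, 16 * 4 ^ K * M ≤ 2 ^ kap :=
    ⟨16 * 4 ^ K * M, Nat.lt_two_pow_self.le⟩
  obtain ⟨G, hGdef⟩ : ∃ G : ℕ → ℕ, ∀ k, G k = (2 ^ kap) ^ k := ⟨_, fun _ => rfl⟩
  have hG0 : ∀ k, 0 < G k := fun k => by rw [hGdef]; positivity
  have hGd : ∀ a b, a ≤ b → G a ∣ G b := fun a b h => by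
    rw [hGdef, hGdef]; exact pow_dvd_pow _ h
  have hGb : ∀ j, 16 * 4 ^ K * (M * G j) ≤ G (j + 1) := fun j => by
    rw [hGdef, hGdef, pow_succ, ← mul_assoc, mul_comm ((2 ^ kap) ^ j)]
    exact Nat.mul_le_mul_right _ hkap
  have hcop2 : Nat.Coprime M 2 := by
    rw [hM]
    refine Nat.Coprime.prod_left fun q hq => ?_
    refine (Nat.coprime_primes (hMs q hq).1 Nat.prime_two).2 ?_
    have h1 := (hMs q hq).2
    have h2 : 0 < 4 ^ K := by positivity
    intro h3
    rw [h3] at h1
    omega
  have hcop : ∀ k, Nat.Coprime M (G k) := fun k => by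
    rw [hGdef]
    exact Nat.Coprime.pow_right _ (Nat.Coprime.pow_right _ hcop2)
  obtain ⟨lam1, rho1, nu1, h1s, h1l, h1r, h1c, h1f⟩ := hg G 0 hG0 hGd hcop α
    (fun w => (w.map φ).prod) (fun u v => by simp)
  obtain ⟨N1, hN1⟩ : ∃ N1, N1 = GridG_19.Am G M 0 m := ⟨_, rfl⟩
  rw [← hN1] at h1l h1r h1c
  obtain ⟨U, hU, hUs, hU3, hU4⟩ := GridRuler_257.ruler K m Ms M G (GridG_19.Am G M 0) N1 hMpos
    (fun k hk => ⟨by rw [hM]; exact Finset.dvd_prod_of_mem _ hk, by
      have := (hMs k hk).2; omega⟩) (hG0 0) (fun j => hGd _ _ (by omega)) hGb (hcop m)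
  obtain ⟨lam2, rho2, nu2, h2s, h2c⟩ := hex (fun k => U * 4 ^ k) (fun i j hij _ => by
    have := hUs i j hij
    omega)
  obtain ⟨Lam, hLam⟩ : ∃ Lam, Lam = U * 4 ^ K := ⟨_, rfl⟩
  have hcL : ∀ k < K, U * 4 ^ k ≤ Lam := fun k hk => by
    rw [hLam]
    exact Nat.mul_le_mul_left _ (Nat.pow_le_pow_right (by norm_num) hk.le)
  obtain ⟨n, Gw, B, Wo, hLW, hgap, -, -, hB⟩ :=
    LWallAll_922.walls_all_left α (2 * N1 + 2 * Lam + 1) (by omega)
  obtain ⟨N0, hN0⟩ : ∃ N0, N0 = 2 * N1 + M := ⟨_, rfl⟩
  obtain ⟨A, hA⟩ : ∃ A, A = GridG_19.Ac G M 0 m := ⟨_, rfl⟩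
  rw [← hA] at h1f
  obtain ⟨z, hz⟩ : ∃ z, z = 3 * Lam + N1 + n + N0 + A + 1 := ⟨_, rfl⟩
  let BT : ℕ → Prop := fun T => GridRuler_257.BadZ Ms m M G (GridG_19.Am G M 0) (T : ℤ)
  let D : Inst_879.Dat α (S → ZMod 2) :=
    { n := n
      W := 2 * N1 + 2 * Lam
      Wo := Wo
      z := z
      p0 := Lam
      N1 := N1
      N0 := N0
      BT := BT
      M0 := fun u v => act v (u.map φ).prod + nu2 u 1
      M1 := fun u v => act v (u.map φ).prod + nu1 u
      lam1 := fun v => {P | lam1 P = some v}
      rho1 := fun b => {Q | rho1 Q = some b}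
      K := K
      c := fun k => U * 4 ^ k
      lam2 := fun k v => {P | lam2 k P = some v}
      rho2 := fun k b => {Q | rho2 k Q 1 = some b}
      Lam := Lam
      C1 := r + m
      R := 2 * (r + m) + 2 }
  have hAm : ∀ j ≤ m, GridG_19.Am G M 0 j ≤ N1 := fun j hj => by
    rw [hN1]; exact GridG_19.Am_mono G M 0 hj
  have hOk : D.Ok :=
    { walls :=
        { loc := hLW.app
          gap := by
            intro P E h1 h2 hne
            have hl : 0 < E.length := List.length_pos_iff.2 hne
            have h3 := hgap (P ++ E) P.length (P ++ E).length (by simp; omega) le_rfl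
              (by rw [List.take_left]; exact h1) (by rw [List.take_length]; exact h2)
            rw [List.length_append] at h3
            show 2 * N1 + 2 * Lam < E.length
            omega }
      g1s := by
        intro P Q v b hP hQ
        exact (h1s P Q v b hP hQ).symm
      g1l := by
        intro P v hP
        have := (h1l P v hP).2
        exact this.le
      g1c := by
        intro u v hu hb
        have hu' : N0 ≤ u.length := hu
        have hb' : ¬ GridRuler_257.BadZ Ms m M G (GridG_19.Am G M 0) (u.length : ℤ) := hb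
        obtain ⟨c1, c2⟩ := GridRuler_257.clear_of_not_bad hG0 (T := u.length)
          (fun j _ hj => by have := hAm j hj; omega) hb'
        obtain ⟨P, Q, e1, e2, e3⟩ := h1c u (by omega) (by omega) c1 (by
          rintro ⟨k, hk, h | h⟩
          · have := (c2 (k + 1) (by omega) (by omega)).1
            simp only [Nat.add_sub_cancel] at this
            omega
          · have := (c2 (k + 1) (by omega) (by omega)).2
            simp only [Nat.add_sub_cancel] at this
            omega) v
        refine ⟨P, Q, e1, e2, ?_⟩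
        obtain ⟨b, hb1⟩ := Option.isSome_iff_exists.1 e3
        have h3 := h1s P Q v b e2 hb1
        rw [e1] at h3
        show rho1 Q = some _
        rw [hb1, h3]
      hc := hcL
      hLam := le_rfl
      g2s := by
        intro k hk P Q v b hPl _ hP hQ
        have := h2s k hk P Q 1 v b hPl hP hQ
        rw [mul_one] at this
        exact this.symm
      g2c := by
        intro u v hu
        have hu' : u.length = Lam := hu
        obtain ⟨I, hI, hIk⟩ := h2c u 1 v (fun k hk => by rw [hu']; exact hcL k hk)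
        refine ⟨I, hI, fun k hk => ?_⟩
        obtain ⟨a1, a2, a3⟩ := hIk k hk
        refine ⟨a1, a2, ?_⟩
        obtain ⟨b, hb1⟩ := Option.isSome_iff_exists.1 a3
        have hlk : (u.take (U * 4 ^ k)).length = U * 4 ^ k := by
          rw [List.length_take, hu']
          exact min_eq_left (hcL k a1)
        have h3 := h2s k a1 _ _ 1 v b hlk a2 hb1
        rw [mul_one, List.take_append_drop] at h3
        show rho2 k (u.drop (U * 4 ^ k)) 1 = some _
        rw [hb1, h3]
        rfl
      hz := by show Lam + N1 + n ≤ z; omega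
      hz0 := by show Lam + N0 ≤ z; omega
      hz2 := by show Lam + 2 * Lam ≤ z; omega
      hW := le_rfl
      rul1 := by
        intro a b a' b' _ _ _ _ hab _ h1 h2
        rcases hU3 a b a' b' hab with h | h
        · exact h
        · exfalso
          have h1' : U * 4 ^ a + U * 4 ^ b' < U * 4 ^ a' + U * 4 ^ b + 2 * N1 := h1
          have h2' : U * 4 ^ a' + U * 4 ^ b < U * 4 ^ a + U * 4 ^ b' + 2 * N1 := h2
          have h3 : |(((U * 4 ^ a : ℕ) : ℤ) - (U * 4 ^ b : ℕ)) -
              (((U * 4 ^ a' : ℕ) : ℤ) - (U * 4 ^ b' : ℕ))| ≤ 2 * N1 := by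
            rw [abs_le]
            constructor <;> omega
          have : (4 * N1 : ℤ) < 2 * N1 := lt_of_lt_of_le h h3
          omega
      rul2 := by
        intro T hT F hF
        refine le_trans (hU4 (T : ℤ) F fun ab hab => ?_) (Nat.add_le_add_right hcard _)
        obtain ⟨a1, a2, a3, a4⟩ := hF ab hab
        refine ⟨a1, a2, a3, ?_⟩
        have hb' : GridRuler_257.BadZ Ms m M G (GridG_19.Am G M 0)
          ((T + U * 4 ^ ab.1 - U * 4 ^ ab.2 : ℕ) : ℤ) := a4
        have hle : U * 4 ^ ab.2 ≤ T + U * 4 ^ ab.1 := by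
          have h1 := hcL _ a2
          have hT' : Lam ≤ T := hT
          omega
        rw [Nat.cast_sub hle, Nat.cast_add] at hb'
        exact hb'
      hR := by show 2 * (r + m) + 1 < 2 * (r + m) + 2; omega }
  -- the schemes
  let E : SemTop_727.Sch α (S → ZMod 2) := ⟨Fib_81.XX Wo z, D.T, D.L1, D.L2⟩
  refine SemTop_727.top (k := 1) act act_add act_one act_mul act_faith φ
    (fun X => act (nu2 (X.take Lam) 1) ((X.drop Lam).map φ).prod + nu1 (X.drop Lam)) E ?_ ?_ ?_ ?_
    ?_ ?_ ?_ s
  · intro v X
    show act (act v ((X.take Lam).map φ).prod + nu2 (X.take Lam) 1) ((X.drop Lam).map φ).prod +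
      nu1 (X.drop Lam) = _
    have e : (X.map φ).prod = ((X.take Lam).map φ).prod * ((X.drop Lam).map φ).prod := by
      rw [← List.prod_append, ← List.map_append, List.take_append_drop]
    rw [e, act_mul, act_add]
    abel
  · exact Fib_81.XX_pcode (by omega)
  · intro x y
    refine Fib_81.HL_blocks φ (Lam + A) (M * G m) (Nat.mul_pos hMpos (hG0 m)) hLW hB _
      (fun X hX => hX.1) ?_
    intro X hX Y hY ht hp hl hXL
    refine ⟨hY, ?_⟩
    rw [← hXL.2]
    have hXl : z ≤ X.length := hX.1
    have hYl : z ≤ Y.length := hY.1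
    have t1 : X.take Lam = Y.take Lam := by
      have := congrArg (List.take Lam) ht
      rwa [List.take_take, List.take_take, Nat.min_eq_left (by omega)] at this
    have t2 : (X.drop Lam).take A = (Y.drop Lam).take A := by
      have := congrArg (List.drop Lam) ht
      rw [List.drop_take, List.drop_take] at this
      rwa [Nat.add_sub_cancel_left] at this
    have t3 : ∀ Z : List α, ((Z.drop Lam).map φ).prod =
        (((Z.drop Lam).take A).map φ).prod * ((Z.drop (Lam + A)).map φ).prod := by
      intro Z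
      rw [← List.drop_drop, ← List.prod_append, ← List.map_append, List.take_append_drop]
    have t4 : ((X.drop Lam).map φ).prod = ((Y.drop Lam).map φ).prod := by
      rw [t3 X, t3 Y, t2, hp]
    have t5 : nu1 (X.drop Lam) = nu1 (Y.drop Lam) := by
      refine h1f _ _ (by rw [List.length_drop]; omega) (by rw [List.length_drop]; omega) t2 ?_ t4
      rw [List.length_drop, List.length_drop]
      refine Nat.ModEq.add_right_cancel' Lam ?_
      rw [Nat.sub_add_cancel (by omega), Nat.sub_add_cancel (by omega)]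
      exact hl
    show act (act x ((Y.take Lam).map φ).prod + nu2 (Y.take Lam) 1) ((Y.drop Lam).map φ).prod +
      nu1 (Y.drop Lam) = act (act x ((X.take Lam).map φ).prod + nu2 (X.take Lam) 1)
      ((X.drop Lam).map φ).prod + nu1 (X.drop Lam)
    rw [t1, t4, t5]
  · intro x
    refine (List.finite_length_le α (Lam + N1)).subset ?_
    intro P hP
    obtain ⟨h1, h2⟩ := hP
    have h3 := (h1l _ _ h2).2
    rw [List.length_drop] at h3
    show P.length ≤ Lam + N1
    have h1' : Lam ≤ P.length := h1
    have h3' : P.length - Lam < N1 := h3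
    omega
  · intro x
    refine (List.finite_length_le α Lam).subset ?_
    rintro P ⟨k, hk, hl, -⟩
    show P.length ≤ Lam
    rw [hl]; exact hcL k hk
  · intro X1 hX1 X2 hX2 x
    exact Inst_879.Dat.hC2 hOk hX1.1 hX2.1 x
  · intro t
    exact (Fib_81.HL_tail_prod (z := z) φ hLW hB t).mono (by omega)

universe u

/-- **generalized star height `≤ 3`** -/
theorem row (α : Type u) [Finite α] (L : Language α) (hL : L.IsRegular) :
    ∃ e : Crest.RegLang.GRegExp α, e.height ≤ 3 ∧ e.lang = L :=
  Univ_582.final (k := 3) (fun β _ S _ _ φ s => main β S φ s) α L hL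

end Crest.Agent.R320.Fin_568
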