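import Crest.Agent.R320.CompR_11
import Crest.Agent.R320.Reg_143

/-!
# Row 320: height one of the threshold block code, all words (helper148)

Left-looking walls `Wo` on ALL words (window `n`, wall-free words are `Pieces R B`), thresholds
`thr`.  Block code `Z`: words which end at the first qualifying wall.

* `reg_of_key`  : a language is regular if membership of long words depends only on the first `K`
  letters, the length modulo `M0` and the product of the rest;
* `Z_reg`, `HL_Z`, `HL_tail` : `Z` is regular; regular part of `Z`, and the regular part of the words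
  without prefix in `Z`, have height one;
* `hfib`, `htail` : the fibres of the zone map `T` on `Z`, and of the product on the tails.
-/

set_option autoImplicit false

namespace Crest.Agent.R320.HfibU_148

open Crest.RegLang Crest.Agent.R320.Hk_851 Crest.Agent.R320.Pump_360
open Crest.R320.Reg_143 Crest.Agent.R320.CompR_11 Crest.Agent.R320.RegBd_11

universe u

variable {α : Type u}

/-! ### regular closure -/

theorem reg_not {P : List α → Prop} (h : (lg P).IsRegular) : (lg fun w => ¬ P w).IsRegular := by
  refine isRegular_congr h.compl fun w => ?_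
  rfl

theorem reg_and {P Q : List α → Prop} (h : (lg P).IsRegular) (h' : (lg Q).IsRegular) :
    (lg fun w => P w ∧ Q w).IsRegular := by
  refine isRegular_congr (Language.IsRegular.inf h h') fun w => ?_
  rfl

/-- state of the key automaton -/
def st {S : Type*} [Monoid S] (f : α → S) (K M0 : ℕ) (w : List α) :
    {l : List α // l.length ≤ K} × ZMod M0 × S :=
  (⟨w.take K, by simp⟩, (w.length : ZMod M0), ((w.drop K).map f).prod)

open Classical in
theorem reg_of_key [Finite α] {S : Type*} [Monoid S] [Finite S] (f : α → S) (K M0 : ℕ)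
    (hM : 0 < M0) (P : List α → Prop)
    (h : ∀ X Y : List α, K ≤ X.length → K ≤ Y.length → X.take K = Y.take K →
      X.length % M0 = Y.length % M0 → ((X.drop K).map f).prod = ((Y.drop K).map f).prod →
      (P X ↔ P Y)) : (lg P).IsRegular := by
  have : NeZero M0 := ⟨by omega⟩
  have hfin : Finite {l : List α // l.length ≤ K} := (List.finite_length_le α K).to_subtype
  have hfin2 : Finite (ZMod M0) := inferInstance
  let step : {l : List α // l.length ≤ K} × ZMod M0 × S → α →
      {l : List α // l.length ≤ K} × ZMod M0 × S := fun q a =>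
    if hl : q.1.1.length < K then (⟨q.1.1 ++ [a], by simp; omega⟩, q.2.1 + 1, q.2.2)
    else (q.1, q.2.1 + 1, q.2.2 * f a)
  have hstep : ∀ (w : List α) (a : α), st f K M0 (w ++ [a]) = step (st f K M0 w) a := by
    intro w a
    by_cases hw : w.length < K
    · have h1 : (st f K M0 w).1.1.length < K := by
        simp only [st, List.length_take]; omega
      simp only [step, dif_pos h1]
      simp only [st]
      refine Prod.ext ?_ (Prod.ext ?_ ?_)
      · apply Subtype.ext
        simp only
        rw [List.take_of_length_le (by simp; omega), List.take_of_length_le (by omega)]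
      · simp
      · simp only
        rw [List.drop_eq_nil_of_le (by simp; omega), List.drop_eq_nil_of_le (by omega)]
    · have h1 : ¬ (st f K M0 w).1.1.length < K := by
        simp only [st, List.length_take]; omega
      simp only [step, dif_neg h1]
      simp only [st]
      refine Prod.ext ?_ (Prod.ext ?_ ?_)
      · apply Subtype.ext
        simp only
        rw [List.take_append_of_le_length (by omega)]
      · simp
      · simp only
        rw [List.drop_append_of_le_length (by omega)]
        simp
  have hfold : ∀ w : List α, w.foldl step (st f K M0 []) = st f K M0 w := by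
    intro w
    induction w using List.reverseRecOn with
    | nil => rfl
    | append_singleton w a ih => rw [List.foldl_append, List.foldl_cons, List.foldl_nil, ih, hstep]
  refine isRegular_congr (isRegular_fold step (st f K M0 []) fun q => ∃ Y, st f K M0 Y = q ∧ P Y)
    fun w => ?_
  rw [mem_lg, hfold]
  constructor
  · rintro ⟨Y, h1, h2⟩
    have e1 : Y.take K = w.take K := congrArg Subtype.val (congrArg Prod.fst h1)
    have e2 : (Y.length : ZMod M0) = (w.length : ZMod M0) :=
      congrArg Prod.fst (congrArg Prod.snd h1)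
    have e3 : ((Y.drop K).map f).prod = ((w.drop K).map f).prod :=
      congrArg Prod.snd (congrArg Prod.snd h1)
    have el : min K Y.length = min K w.length := by
      have := congrArg List.length e1
      simpa [List.length_take] using this
    by_cases hw : w.length < K
    · have : Y = w := by
        rw [List.take_of_length_le (by omega), List.take_of_length_le (by omega)] at e1
        exact e1
      exact this ▸ h2
    · exact (h Y w (by omega) (by omega) e1 ((ZMod.natCast_eq_natCast_iff' _ _ _).1 e2) e3).1 h2
  · intro hw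
    exact ⟨w, rfl, hw⟩

/-! ### walls and blocks -/

section blocks

variable (Wo : List α → Prop) (thr : ℕ → ℕ) (Mp : ℕ)

/-- the word ends at a qualifying wall -/
def Adm (z : List α) : Prop := Wo z ∧ thr (z.length % Mp) ≤ z.length

/-- the block code -/
def Z : Set (List α) :=
  {z | Wo z ∧ thr (z.length % Mp) ≤ z.length ∧
    ∀ t < z.length, Wo (z.take t) → ¬ thr (t % Mp) ≤ t}

variable {Wo thr Mp}

theorem mem_Z_iff (z : List α) : z ∈ Z Wo thr Mp ↔
    Adm Wo thr Mp z ∧ ¬ ∃ u v, u ++ v = z ∧ Adm Wo thr Mp u ∧ v ≠ [] := by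
  constructor
  · rintro ⟨h1, h2, h3⟩
    refine ⟨⟨h1, h2⟩, ?_⟩
    rintro ⟨u, v, rfl, ⟨h4, h5⟩, h6⟩
    have hv : 0 < v.length := List.length_pos_of_ne_nil h6
    refine h3 u.length (by simp; omega) (by simpa using h4) h5
  · rintro ⟨⟨h1, h2⟩, h3⟩
    refine ⟨h1, h2, fun t ht hw hq => h3 ⟨z.take t, z.drop t, List.take_append_drop t z, ?_, ?_⟩⟩
    · refine ⟨hw, ?_⟩
      rw [List.length_take, min_eq_left (by omega)]
      exact hq
    · intro h0
      have := congrArg List.length h0
      simp at this
      omega

variable {n : ℕ} (loc : ∀ P Q : List α, n ≤ Q.length → (Wo (P ++ Q) ↔ Wo Q))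
  (len : ∀ P, Wo P → n ≤ P.length)

include loc len

theorem reg_wall [Finite α] : (lg Wo).IsRegular := by
  have h1 : (lg fun w : List α => (w.take (n + 1)).length = n ∧ Wo (w.take (n + 1))).IsRegular :=
    isRegular_take (n + 1) (fun x : List α => x.length = n ∧ Wo x)
  have h2 : (lg fun w : List α => w.length = n ∧ Wo w).IsRegular := by
    refine isRegular_congr h1 fun w => ?_
    rw [mem_lg]
    constructor
    · rintro ⟨h3, h4⟩
      rw [List.length_take] at h3
      have : w.take (n + 1) = w := List.take_of_length_le (by omega)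
      rw [this] at h4
      exact ⟨by omega, h4⟩
    · rintro ⟨h3, h4⟩
      have : w.take (n + 1) = w := List.take_of_length_le (by omega)
      rw [this]
      exact ⟨h3, h4⟩
  refine isRegular_congr (isRegular_cat (isRegular_true (β := α)) h2) fun w => ?_
  rw [mem_lg]
  constructor
  · rintro ⟨u, v, rfl, -, h3, h4⟩
    exact (loc u v (by omega)).2 h4
  · intro hw
    have hl := len w hw
    refine ⟨w.take (w.length - n), w.drop (w.length - n), List.take_append_drop _ _, trivial, ?_, ?_⟩
    · rw [List.length_drop]; omega
    · rw [← List.take_append_drop (w.length - n) w] at hw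
      exact (loc _ _ (by rw [List.length_drop]; omega)).1 hw

variable {Zm : ℕ} (hMp : 0 < Mp) (hthr : ∀ r < Mp, thr r ≤ Zm)

include hMp hthr

theorem reg_Adm [Finite α] : (lg (Adm Wo thr Mp)).IsRegular := by
  refine reg_and (reg_wall loc len) (isRegular_length (fun k => thr (k % Mp) ≤ k) Zm 1 one_pos ?_)
  intro k hk
  have h1 := hthr _ (Nat.mod_lt k hMp)
  have h2 := hthr _ (Nat.mod_lt (k + 1) hMp)
  constructor
  · intro _; omega
  · intro _; omega

theorem Z_reg [Finite α] : (lg (· ∈ Z Wo thr Mp)).IsRegular := by
  have hne : (lg fun v : List α => v ≠ []).IsRegular := by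
    refine isRegular_congr (isRegular_length (β := α) (fun k => 0 < k) 1 1 one_pos ?_) fun w => ?_
    · intro k hk
      constructor
      · intro _; omega
      · intro _; omega
    · exact List.length_pos_iff
  have h := reg_and (reg_Adm loc len hMp hthr)
    (reg_not (isRegular_cat (reg_Adm loc len hMp hthr) hne))
  exact isRegular_congr h fun z => (mem_Z_iff z).symm

/-- a word has no prefix in `Z` iff it has no admissible prefix -/
theorem no_prefix {r : List α} (h : ∀ X ∈ Z Wo thr Mp, ¬ X <+: r) (t : ℕ) (ht : t ≤ r.length) :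
    ¬ Adm Wo thr Mp (r.take t) := by
  classical
  intro hA
  have hex : ∃ t, t ≤ r.length ∧ Adm Wo thr Mp (r.take t) := ⟨t, ht, hA⟩
  obtain ⟨h1, h2⟩ := Nat.find_spec hex
  set m := Nat.find hex with hm
  refine h (r.take m) ⟨h2.1, h2.2, ?_⟩ (List.take_prefix _ _)
  intro s hs hw hq
  rw [List.length_take] at hs
  refine Nat.find_min hex (m := s) (by omega) ⟨by omega, ?_, ?_⟩
  · rw [List.take_take, min_eq_left (by omega)] at hw
    exact hw
  · rw [List.length_take, min_eq_left (by omega)]
    exact hq

omit hMp hthr in
/-- a word without walls at the places `[Zm, |z|)` is a product of few pieces -/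
theorem pieces {R B : ℕ} (hp : ∀ u : List α, (∀ t < u.length, ¬ Wo (u.take t)) → Pieces R B u)
    (z : List α) (hz : ∀ t, Zm ≤ t → t < z.length → ¬ Wo (z.take t)) :
    Pieces (R + 1) (max B Zm) z := by
  obtain ⟨l, h1, h2, h3⟩ := hp (z.drop Zm) fun t ht hw => by
    have hn := len _ hw
    refine hz (Zm + t) (by omega) (by rw [List.length_drop] at ht; omega) ?_
    rw [List.take_add]
    exact (loc _ _ hn).2 hw
  refine ⟨(z.take Zm, [], 0) :: l, by simp; omega, ?_, ?_⟩
  · intro t ht
    rw [List.mem_cons] at ht
    rcases ht with rfl | ht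
    · simp only [List.length_take, List.length_nil]
      omega
    · have := h2 t ht
      omega
  · rw [val_cons, ← h3, pw_zero]
    simp

theorem Z_pieces {R B : ℕ} (hp : ∀ u : List α, (∀ t < u.length, ¬ Wo (u.take t)) → Pieces R B u)
    {z : List α} (hz : z ∈ Z Wo thr Mp) : Pieces (R + 1) (max B Zm) z := by
  refine pieces loc len hp z fun t h1 h2 hw => hz.2.2 t h2 hw ?_
  exact (hthr _ (Nat.mod_lt _ hMp)).trans h1

theorem tail_pieces {R B : ℕ} (hp : ∀ u : List α, (∀ t < u.length, ¬ Wo (u.take t)) → Pieces R B u)
    {r : List α} (hr : ∀ X ∈ Z Wo thr Mp, ¬ X <+: r) : Pieces (R + 1) (max B Zm) r := by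
  refine pieces loc len hp r fun t h1 h2 hw => no_prefix loc len hMp hthr hr t h2.le ⟨hw, ?_⟩
  rw [List.length_take, min_eq_left h2.le]
  exact (hthr _ (Nat.mod_lt _ hMp)).trans h1

/-- regular parts of the block code have height one -/
theorem HL_Z [Finite α] {R B : ℕ}
    (hp : ∀ u : List α, (∀ t < u.length, ¬ Wo (u.take t)) → Pieces R B u)
    {P : List α → Prop} (hP : (lg P).IsRegular) :
    HL 1 ({X | X ∈ Z Wo thr Mp ∧ P X} : Language α) :=
  reg_pieces (reg_and (Z_reg loc len hMp hthr) hP) (R + 1) (max B Zm)
    fun _ hw => Z_pieces loc len hMp hthr hp hw.1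

theorem tail_reg [Finite α] : (lg fun r => ∀ X ∈ Z Wo thr Mp, ¬ X <+: r).IsRegular := by
  have h := reg_not (isRegular_cat (Z_reg loc len hMp hthr) (isRegular_true (β := α)))
  refine isRegular_congr h fun w => ?_
  rw [mem_lg]
  constructor
  · rintro h1 X hX ⟨v, rfl⟩
    exact h1 ⟨X, v, rfl, hX, trivial⟩
  · rintro h1 ⟨u, v, rfl, hu, -⟩
    exact h1 u hu (List.prefix_append u v)

/-- regular parts of the tails have height one -/
theorem HL_tail [Finite α] {R B : ℕ}
    (hp : ∀ u : List α, (∀ t < u.length, ¬ Wo (u.take t)) → Pieces R B u)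
    {P : List α → Prop} (hP : (lg P).IsRegular) :
    HL 1 ({r | (∀ X ∈ Z Wo thr Mp, ¬ X <+: r) ∧ P r} : Language α) :=
  reg_pieces (reg_and (tail_reg loc len hMp hthr) hP) (R + 1) (max B Zm)
    fun _ hw => tail_pieces loc len hMp hthr hp hw.1

/-- tails with a given product -/
theorem htail [Finite α] {R B : ℕ}
    (hp : ∀ u : List α, (∀ t < u.length, ¬ Wo (u.take t)) → Pieces R B u)
    {S : Type*} [Monoid S] [Finite S] (f : α → S) (s : S) :
    HL 1 ({r | (∀ X ∈ Z Wo thr Mp, ¬ X <+: r) ∧ (r.map f).prod = s} : Language α) :=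
  HL_tail loc len hMp hthr hp (isRegular_monoid f (fun x => x = s))

end blocks

/-! ### the zone map -/

/-- the zone map has regular fibres -/
theorem reg_T [Finite α] {S V : Type*} [Monoid S] [Finite S] [Add V] (f : α → S) (act : V → S → V)
    (nu2 nu : List α → V) (p0 N2 M0 : ℕ) (hM : 0 < M0)
    (hnu : ∀ u u' : List α, N2 ≤ u.length → N2 ≤ u'.length → u.take N2 = u'.take N2 →
      u.length % M0 = u'.length % M0 → (u.map f).prod = (u'.map f).prod → nu u = nu u') (v v' : V) :
    (lg fun X : List α => act (act v ((X.take p0).map f).prod + nu2 (X.take p0))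
      ((X.drop p0).map f).prod + nu (X.drop p0) = v').IsRegular := by
  refine reg_of_key f (p0 + N2) M0 hM _ fun X Y hX hY h1 h2 h3 => ?_
  have e1 : X.take p0 = Y.take p0 := by
    have := congrArg (List.take p0) h1
    rwa [List.take_take, List.take_take, min_eq_left (by omega)] at this
  have e2 : (X.drop p0).take N2 = (Y.drop p0).take N2 := by
    have := congrArg (List.drop p0) h1
    rwa [List.drop_take, List.drop_take, show p0 + N2 - p0 = N2 by omega] at this
  have e3 : ∀ U : List α, ((U.drop p0).map f).prod =
      (((U.drop p0).take N2).map f).prod * ((U.drop (p0 + N2)).map f).prod := by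
    intro U
    rw [← List.drop_drop, ← List.prod_append, ← List.map_append, List.take_append_drop]
  have e4 : ((X.drop p0).map f).prod = ((Y.drop p0).map f).prod := by
    rw [e3 X, e3 Y, e2, h3]
  have e5 : nu (X.drop p0) = nu (Y.drop p0) := by
    refine hnu _ _ (by rw [List.length_drop]; omega) (by rw [List.length_drop]; omega) e2 ?_ e4
    rw [List.length_drop, List.length_drop]
    have a : X.length ≡ Y.length [MOD M0] := h2
    have b : (X.length - p0) + p0 ≡ (Y.length - p0) + p0 [MOD M0] := by
      rw [Nat.sub_add_cancel (by omega), Nat.sub_add_cancel (by omega)]; exact a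
    exact Nat.ModEq.add_right_cancel' p0 b
  rw [e1, e4, e5]

/-- **fibres of the zone map on the threshold block code have height one** -/
theorem hfib [Finite α] {Wo : List α → Prop} {thr : ℕ → ℕ} {Mp n Zm R B : ℕ}
    (loc : ∀ P Q : List α, n ≤ Q.length → (Wo (P ++ Q) ↔ Wo Q)) (len : ∀ P, Wo P → n ≤ P.length)
    (hMp : 0 < Mp) (hthr : ∀ r < Mp, thr r ≤ Zm)
    (hp : ∀ u : List α, (∀ t < u.length, ¬ Wo (u.take t)) → Pieces R B u)
    {S V : Type*} [Monoid S] [Finite S] [Add V] (f : α → S) (act : V → S → V)
    (nu2 nu : List α → V) (p0 N2 M0 : ℕ) (hM : 0 < M0)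
    (hnu : ∀ u u' : List α, N2 ≤ u.length → N2 ≤ u'.length → u.take N2 = u'.take N2 →
      u.length % M0 = u'.length % M0 → (u.map f).prod = (u'.map f).prod → nu u = nu u') (v v' : V) :
    HL 1 ({X | X ∈ Z Wo thr Mp ∧ act (act v ((X.take p0).map f).prod + nu2 (X.take p0))
      ((X.drop p0).map f).prod + nu (X.drop p0) = v'} : Language α) :=
  HL_Z loc len hMp hthr hp (reg_T f act nu2 nu p0 N2 M0 hM hnu v v')

end Crest.Agent.R320.HfibU_148
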