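import Crest.Agent.R320.Geo_573
import Crest.Agent.R320.SemTop_445
import Crest.Agent.R320.GridG_19
import Crest.Agent.R320.GridRuler_257
import Crest.Agent.R320.ExactR_237
import Crest.Agent.R320.HfibU_148
import Crest.Agent.R320.WallU_228
import Crest.Agent.R320.Univ_480

/-!
# Row 320: final assembly (helper573)

`Geo_573` (zone geometry) + `SemTop_445` (top) + `GridG_19` (gadget) + `GridRuler_257` (ruler) +
`ExactR_237` (exact gadget) + `WallU_228` (walls) + `HfibU_148` (height one).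
-/

set_option autoImplicit false

namespace Crest.Agent.R320.Fin_573

open Crest.RegLang Crest.Agent.R320.Hk_851 Crest.Agent.R320.Geo_573 Crest.Agent.R320.Sem_445

/-- badness of a length -/
def BadT (Ms : Finset ℕ) (m M : ℕ) (G : ℕ → ℕ) (n : ℕ) : Prop :=
  (∃ q ∈ Ms, q ∣ n) ∨ GridG_19.BadG G M 0 m n

theorem badZ_of {Ms : Finset ℕ} {m M : ℕ} {G : ℕ → ℕ} (hG : ∀ k, 0 < G k) {n : ℕ}
    (hA : GridG_19.Am G M 0 m ≤ n) (h : BadT Ms m M G n) :
    GridRuler_257.BadZ Ms m M G (GridG_19.Am G M 0) (n : ℤ) := by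
  rcases h with ⟨q, hq, h⟩ | ⟨k, hk, h⟩
  · exact Or.inl ⟨q, hq, Int.natCast_dvd_natCast.2 h⟩
  · right
    have hAk : GridG_19.Am G M 0 (k + 1) ≤ n :=
      (GridG_19.Am_mono G M 0 (by omega)).trans hA
    refine ⟨k + 1, by omega, by omega, ?_⟩
    rw [Nat.add_sub_cancel]
    have hdm := Nat.div_add_mod (n - GridG_19.Am G M 0 (k + 1)) (G (k + 1))
    have hlt := Nat.mod_lt (n - GridG_19.Am G M 0 (k + 1)) (hG (k + 1))
    generalize hq : (n - GridG_19.Am G M 0 (k + 1)) / G (k + 1) = q at *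
    generalize hρ : (n - GridG_19.Am G M 0 (k + 1)) % G (k + 1) = ρ at *
    generalize GridG_19.Am G M 0 (k + 1) = a at *
    generalize G (k + 1) = g at *
    generalize M * G k = w at *
    have h2 : n = a + g * q + ρ := by omega
    have h3 : (n : ℤ) = a + g * q + ρ := by exact_mod_cast h2
    rcases h with h | h
    · refine ⟨(ρ : ℤ), ?_, ⟨(q : ℤ), by rw [h3]; ring⟩⟩
      rw [abs_of_nonneg (by positivity)]
      exact_mod_cast h.le
    · refine ⟨(ρ : ℤ) - g, ?_, ⟨(q : ℤ) + 1, by rw [h3]; ring⟩⟩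
      rw [abs_le]
      constructor <;> [skip; skip] <;> push_cast <;> omega

theorem hcov {α V S : Type} [Monoid S] [AddCommGroup V] {D : Dat α V S} (hD : D.Ok)
    (X : List α) (hX : X ∈ {X | D.XX X}) (X2 : List α) (hX2 : X2 ∈ {X | D.XX X}) (v : V) :
    (∃ P Q, X = P ++ Q ∧ Q ≠ [] ∧ D.LP1 P v ∧ ∃ b, SR1 {X | D.XX X} D.T D.LP1 Q b) ∨
      (∃ P Q, X ++ X2 = P ++ Q ∧ P.length < X.length ∧ D.LP2 P v ∧
        ∃ b, SR2 {X | D.XX X} D.T D.LP1 D.LP2 Q b) := by
  have hne : ∀ Q, (D.R1 Q).isSome → Q ≠ [] := by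
    rintro Q hQ rfl
    unfold Dat.R1 at hQ
    split at hQ
    · rename_i h
      have := hD.hz
      have := h.1
      simp at this
      omega
    · cases hQ
  have hSR : ∀ Q b, D.R1 Q = some b → SR1 {X | D.XX X} D.T D.LP1 Q b :=
    fun Q b h P v hP => Dat.s1 hD P v Q b hP h
  rcases Dat.cc hD X hX X2 hX2 v with ⟨P, Q, e, h1, h2⟩ | ⟨P, Q, e, h0, h1, h2⟩
  · left
    obtain ⟨b, hb⟩ := Option.isSome_iff_exists.1 h2
    exact ⟨P, Q, e, hne Q h2, h1, b, hSR Q b hb⟩
  · right
    obtain ⟨b, hb⟩ := Option.isSome_iff_exists.1 h2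
    refine ⟨P, Q, e, h0, h1, b, ?_⟩
    intro P' v' hP' hNC
    refine Dat.s2 hD P' v' Q b hP' hb ?_
    intro X' hX' hpre P'' Q'' e'' hl hLP hR
    refine hNC X' hX' hpre P'' Q'' e'' hl hLP ?_
    obtain ⟨b', hb'⟩ := Option.isSome_iff_exists.1 hR
    exact ⟨hne Q'' hR, ⟨P'', v', hLP⟩, b', hSR Q'' b' hb'⟩

theorem core (A : Type) [Finite A] (S V : Type) [Monoid S] [Fintype S] [AddCommGroup V]
    [Fintype V] (f : A → S) (act : V → S → V)
    (act_mul : ∀ v s s', act (act v s) s' = act v (s * s'))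
    (act_add : ∀ v w s, act (v + w) s = act v s + act w s)
    (faith : ∀ s s', (∀ v, act v s = act v s') → s = s') (s : S) :
    HL 3 ({w | (w.map f).prod = s} : Language A) := by
  classical
  obtain ⟨m, r, hgrid⟩ := GridG_19.grid S V act
  obtain ⟨K, hex⟩ := ExactR_237.exact_gadget A S V f act (2 * (r + m) + 2)
  obtain ⟨Ms, hcard, hpr, hg⟩ := hgrid (4 ^ K)
  generalize hM : ∏ q ∈ Ms, q = M at hg
  have hM0 : 0 < M := by
    rw [← hM]; exact Finset.prod_pos fun q hq => (hpr q hq).1.pos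
  have hMs : ∀ k ∈ Ms, k ∣ M ∧ 4 ^ K ≤ k := fun k hk =>
    ⟨hM ▸ Finset.dvd_prod_of_mem _ hk, (hpr k hk).2.le⟩
  obtain ⟨b, hb⟩ : ∃ b, b = 16 * 4 ^ K * M + 1 := ⟨_, rfl⟩
  have hb0 : 0 < b := by omega
  have hcb : Nat.Coprime M b := by
    rw [hb, mul_comm (16 * 4 ^ K) M, Nat.coprime_mul_left_add_right]
    exact Nat.coprime_one_right M
  obtain ⟨G, hGdef⟩ : ∃ G : ℕ → ℕ, G = fun k => b ^ k := ⟨_, rfl⟩
  have hG : ∀ k, 0 < G k := fun k => by rw [hGdef]; exact pow_pos hb0 k
  have hdiv : ∀ a c, a ≤ c → G a ∣ G c := fun a c h => by rw [hGdef]; exact pow_dvd_pow b h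
  have hcop : ∀ k, Nat.Coprime M (G k) := fun k => by rw [hGdef]; exact hcb.pow_right k
  have hGb : ∀ j, 16 * 4 ^ K * (M * G j) ≤ G (j + 1) := fun j => by
    rw [hGdef]
    show 16 * 4 ^ K * (M * b ^ j) ≤ b ^ (j + 1)
    rw [pow_succ, mul_comm (b ^ j) b, ← mul_assoc]
    exact Nat.mul_le_mul_right _ (by omega)
  obtain ⟨lam, rho, nu, g1, g2, g3, g4, g5⟩ := hg G 0 hG hdiv hcop A
    (fun u => (u.map f).prod) (fun u v => by simp)
  obtain ⟨N1, hN1⟩ : ∃ N1, N1 = GridG_19.Am G M 0 m := ⟨_, rfl⟩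
  obtain ⟨U, r1, r2, r3, r4⟩ := GridRuler_257.ruler K m Ms M G (GridG_19.Am G M 0) N1 hM0 hMs
    (hG 0) (fun j => hdiv _ _ (Nat.le_succ j)) hGb (hcop m)
  obtain ⟨c, hc⟩ : ∃ c : ℕ → ℕ, c = fun k => U * 4 ^ k := ⟨_, rfl⟩
  obtain ⟨lam2, rho2, nu2, e1, e2⟩ := hex c (fun i j h _ => by
    have := r2 i j h
    rw [hc]
    show U * 4 ^ i < U * 4 ^ j
    omega)
  obtain ⟨p0, hp0⟩ : ∃ p0, p0 = U * 4 ^ K + N1 := ⟨_, rfl⟩
  obtain ⟨l0, hl0⟩ : ∃ l0, l0 = 2 * N1 + M := ⟨_, rfl⟩
  obtain ⟨n, Wo, loc, len, gap, RR, BB, hp⟩ := WallU_228.walls (α := A) (2 * (p0 + N1))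
  have hcle : ∀ k < K, c k + N1 ≤ p0 := by
    intro k hk
    have h4 : 4 ^ k ≤ 4 ^ K := Nat.pow_le_pow_right (by omega) hk.le
    have := Nat.mul_le_mul_left U h4
    rw [hc, hp0]
    show U * 4 ^ k + N1 ≤ U * 4 ^ K + N1
    omega
  let D : Dat A V S :=
    { φ := fun u => (u.map f).prod
      act := act
      Wl := Wo
      n := n
      g := 2 * (p0 + N1)
      p0 := p0
      N1 := N1
      z := 3 * p0 + N1 + n + l0 + 1
      lam := lam
      rho := rho
      nu := nu
      BadT := BadT Ms m M G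
      l0 := l0
      K := K
      c := c
      lam2 := lam2
      rho2 := fun k Q => rho2 k Q 1
      nu2 := fun u => nu2 u 1
      KB := r + m
      R := 2 * (r + m) + 2 }
  have hD : D.Ok :=
    { hφ1 := by simp [D]
      hφ := fun u v => by simp [D]
      act_mul := act_mul
      act_add := act_add
      loc := loc
      gap := by
        intro P E h1 h2 h3 h4
        have := gap (P ++ E) E.length h2 h3 h4
        rw [List.length_append, Nat.add_sub_cancel, List.take_left] at this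
        exact this h1
      hg := le_rfl
      hz := le_rfl
      sound := g1
      compl := by
        intro Y hY hB v
        have hB' : ¬ BadT Ms m M G Y.length := hB
        unfold BadT at hB'
        rw [not_or] at hB'
        have hY' : l0 ≤ Y.length := hY
        obtain ⟨P, Q, e, h1, h2⟩ := g4 Y (by omega) (by omega)
          (fun q hq hd => hB'.1 ⟨q, hq, hd⟩) hB'.2 v
        have h3 := (g2 P v h1).2
        exact ⟨P, Q, e.symm, by show P.length ≤ N1; omega, h1, h2⟩
      hc := fun k hk => by have := hcle k hk; show c k ≤ p0; omega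
      ex2 := by
        intro k hk P Q v b hP _ h1 h2
        have := e1 k hk P Q 1 v b hP h1 h2
        rw [mul_one] at this
        exact this
      cp2 := by
        intro X v hX
        have hX' : X.length = p0 := hX
        exact e2 X 1 v (fun k hk => by have := hcle k hk; omega)
      rul := by
        intro a b' a' b'' ha hb ha' hb' hab hab' h1 h2
        rcases r3 a b' a' b'' hab with h | h
        · exact h
        · exfalso
          have h1' : ((c a : ℤ) - c b') - (c a' - c b'') < 2 * N1 := h1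
          have h2' : ((c a' : ℤ) - c b'') - (c a - c b') < 2 * N1 := h2
          rw [hc] at h1' h2'
          simp only [] at h1' h2'
          rcases lt_abs.1 h with h | h <;> omega
      thin := by
        intro T hT F hF
        have hT' : p0 ≤ T := hT
        refine (r4 T F ?_).trans (Nat.add_le_add_right hcard m)
        intro x hx
        obtain ⟨h1, h2, h3, h4⟩ := hF x hx
        have hc1 := hcle x.1 h1
        have hc2 := hcle x.2 h2
        have h4' : BadT Ms m M G (T + c x.1 - c x.2) := h4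
        refine ⟨h1, h2, h3, ?_⟩
        have h5 := badZ_of hG (by omega) h4'
        have e : ((T + c x.1 - c x.2 : ℕ) : ℤ) =
            (T : ℤ) + (U * 4 ^ x.1 : ℕ) - (U * 4 ^ x.2 : ℕ) := by
          have e1 : c x.1 = U * 4 ^ x.1 := by rw [hc]
          have e2 : c x.2 = U * 4 ^ x.2 := by rw [hc]
          rw [← e1, ← e2]
          omega
        rw [e] at h5
        exact h5
      hR := by show 1 + 2 * (r + m) < 2 * (r + m) + 2; omega }
  have hZ : ∀ X, D.XX X ↔ X ∈ HfibU_148.Z Wo (fun _ => 3 * p0 + N1 + n + l0 + 1) 1 := by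
    intro X
    constructor
    · rintro ⟨h1, -, h2, h3⟩
      rw [List.take_length] at h2
      exact ⟨h2, h1, fun t ht hw hz => h3 t hz ht hw⟩
    · rintro ⟨h1, h2, h3⟩
      refine ⟨h2, le_rfl, ?_, fun t ht ht' hw => h3 t ht' hw ht⟩
      rw [List.take_length]; exact h1
  have hfinL : ∀ N : ℕ, {x : List A × V | x.1.length ≤ N}.Finite := by
    intro N
    refine ((List.finite_length_le A N).prod (Set.finite_univ (α := V))).subset ?_
    rintro ⟨P, v⟩ h
    exact ⟨h, trivial⟩
  refine SemTop_445.sem_top (fun u => (u.map f).prod) (by simp) (fun u v => by simp) act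
    act_mul act_add faith {X | D.XX X} (Dat.nil_not_mem hD)
    (fun X hX Y hXY => Dat.prefix_code hX hXY) D.T
    (fun X => act (nu2 (X.take p0) 1) (((X.drop p0).map f).prod) + nu (X.drop p0))
    (fun X _ v => Dat.T_eq hD X v) D.LP1 D.LP2 ?_ ?_ ?_ ?_ (hcov hD) s
  · refine (hfinL (p0 + N1)).subset ?_
    rintro ⟨P, v⟩ h
    exact h.2.1
  · refine (hfinL p0).subset ?_
    rintro ⟨P, v⟩ ⟨k, hk, h, -⟩
    show P.length ≤ p0
    have := hcle k hk
    have h' : P.length = c k := h
    omega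
  · intro v v'
    refine (HfibU_148.hfib (thr := fun _ => 3 * p0 + N1 + n + l0 + 1) (Mp := 1)
      (Zm := 3 * p0 + N1 + n + l0 + 1) loc len one_pos (fun _ _ => le_rfl) hp f act
      (fun u => nu2 u 1) nu p0 (GridG_19.Ac G M 0 m) (M * G m)
      (Nat.mul_pos hM0 (hG m)) (fun u u' h1 h2 h3 h4 h5 => g5 u u' h1 h2 h3 h4 h5) v v').congr ?_
    intro X
    exact and_congr_left fun _ => (hZ X)
  · intro s'
    refine (HfibU_148.htail (thr := fun _ => 3 * p0 + N1 + n + l0 + 1) (Mp := 1)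
      (Zm := 3 * p0 + N1 + n + l0 + 1) loc len one_pos (fun _ _ => le_rfl) hp f s').congr ?_
    intro X
    refine and_congr_left fun _ => ?_
    exact forall_congr' fun Y => imp_congr_left (hZ Y)

theorem fibre (A : Type) [Finite A] (S : Type) [Monoid S] [Finite S] (f : A → S) (s : S) :
    HL 3 ({w | (w.map f).prod = s} : Language A) := by
  classical
  haveI := Fintype.ofFinite S
  refine core A S (S → ZMod 2) f (fun v s x => v (s * x)) ?_ ?_ ?_ s
  · intro v s s'
    funext x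
    simp [mul_assoc]
  · intro v w s
    rfl
  · intro s s' h
    by_contra hne
    have h1 := congrFun (h (Pi.single s 1)) 1
    simp only [mul_one, Pi.single_eq_same] at h1
    rw [Pi.single_eq_of_ne (fun h => hne h.symm)] at h1
    exact one_ne_zero h1

universe u

theorem row {α : Type u} [Finite α] (L : Language α) (hL : L.IsRegular) :
    ∃ e : GRegExp α, e.height ≤ 3 ∧ e.lang = L :=
  Univ_480.row_of_small_alphabet (fun A _ S _ _ f s => fibre A S f s) L hL

end Crest.Agent.R320.Fin_573
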