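import Crest.Agent.R320.SemJ_832
import Crest.Agent.R320.SemTop_727
import Crest.Agent.R320.Last_749
import Crest.Agent.R320.Thin_243
import Crest.Agent.R320.ExactR_237
import Crest.Agent.R320.WallU_228
import Crest.Agent.R320.GridG_19
import Crest.Agent.R320.P4_933
import Crest.Agent.R320.Univ_480

/-!
# Row 320: constants and join (helper574)

Top = SemTop_727.Sch.lg_XX + Last_749.final, both schemes = SemJ_832.Dat, gadget 1 = GridG_19.grid,
gadget 2 = ExactR_237.exact_gadget, ruler = Thin_243.thin, walls = WallU_228.walls_full.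
-/

set_option autoImplicit false

namespace Crest.Agent.R320.Fin_574

open Crest.RegLang Crest.Agent.R320.Hk_851

/-- thinness: the natural-number bad set of `GridG_19` lies in the integer bad set of `Thin_243` -/
theorem bad_imp {Ms : Finset ℕ} {Gam m n : ℕ} (hG : 0 < Gam)
    (hn : GridG_19.Am (fun k => Gam ^ k) (∏ q ∈ Ms, q) 0 m ≤ n)
    (hmono : ∀ a b, a ≤ b → GridG_19.Am (fun k => Gam ^ k) (∏ q ∈ Ms, q) 0 a ≤
      GridG_19.Am (fun k => Gam ^ k) (∏ q ∈ Ms, q) 0 b)
    (h : (∃ q ∈ Ms, q ∣ n) ∨ GridG_19.BadG (fun k => Gam ^ k) (∏ q ∈ Ms, q) 0 m n) :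
    Thin243.BadG Ms (∏ q ∈ Ms, q) Gam m
      (fun j => (GridG_19.Am (fun k => Gam ^ k) (∏ q ∈ Ms, q) 0 j : ℤ)) (n : ℤ) := by
  rcases h with ⟨q, hq, h⟩ | ⟨k, hk, h⟩
  · exact Or.inl ⟨q, hq, by exact_mod_cast h⟩
  · right
    set M := ∏ q ∈ Ms, q with hM
    set A := GridG_19.Am (fun k => Gam ^ k) M 0 (k + 1) with hA
    have hle : A ≤ n := (hmono _ _ (by omega)).trans hn
    have hpos : 0 < Gam ^ (k + 1) := pow_pos hG _
    refine ⟨k + 1, by omega, by omega, ?_⟩
    have hdm := Nat.div_add_mod (n - A) (Gam ^ (k + 1))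
    have hlt := Nat.mod_lt (n - A) hpos
    have e0 : ((n - A : ℕ) : ℤ) = (n : ℤ) - A := by push_cast [Nat.cast_sub hle]; ring
    have e1 : ((n : ℤ) - A) = (Gam : ℤ) ^ (k + 1) * (((n - A) / Gam ^ (k + 1) : ℕ) : ℤ) +
        (((n - A) % Gam ^ (k + 1) : ℕ) : ℤ) := by
      rw [← e0]
      exact_mod_cast hdm.symm
    have hk1 : k + 1 - 1 = k := by omega
    simp only at h
    rcases h with h | h
    · refine ⟨(((n - A) / Gam ^ (k + 1) : ℕ) : ℤ), ?_⟩
      rw [hk1, e1]
      have h' : ((((n - A) % Gam ^ (k + 1) : ℕ) : ℤ)) < (M : ℤ) * (Gam : ℤ) ^ k := by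
        exact_mod_cast h
      have h0 : (0 : ℤ) ≤ (((n - A) % Gam ^ (k + 1) : ℕ) : ℤ) := Int.natCast_nonneg _
      rw [abs_le]
      constructor <;> nlinarith
    · refine ⟨(((n - A) / Gam ^ (k + 1) : ℕ) : ℤ) + 1, ?_⟩
      rw [hk1, e1]
      have h' : (Gam : ℤ) ^ (k + 1) ≤ ((((n - A) % Gam ^ (k + 1) : ℕ) : ℤ)) +
          (M : ℤ) * (Gam : ℤ) ^ k := by
        exact_mod_cast h
      have h0 : (((n - A) % Gam ^ (k + 1) : ℕ) : ℤ) < (Gam : ℤ) ^ (k + 1) := by
        exact_mod_cast hlt
      rw [abs_le]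
      constructor <;> nlinarith


theorem fin (α : Type) [Finite α] (S : Type) [Monoid S] [Finite S] (f : α → S) (s : S) :
    HL 3 ({w | (w.map f).prod = s} : Language α) := by
  classical
  have := Fintype.ofFinite S
  obtain ⟨act, hadd, hone, hmul, hfaith⟩ := Blk467.exists_module S
  obtain ⟨m, r, hgrid⟩ := GridG_19.grid S (S → ZMod 2) act
  obtain ⟨K, hK⟩ := ExactR_237.exact_gadget α S (S → ZMod 2) f act (2 * (r + m) + 2)
  obtain ⟨Ms, hcard, hprime, hgrid⟩ := hgrid (2 ^ (K + 2))
  have hM0 : 0 < ∏ q ∈ Ms, q := Finset.prod_pos fun q hq => (hprime q hq).1.pos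
  set M := ∏ q ∈ Ms, q with hM
  obtain ⟨kap, hkap⟩ : ∃ kap, M * 2 ^ (K + 6) < 2 ^ kap := ⟨M * 2 ^ (K + 6), Nat.lt_two_pow_self⟩
  have hGpos : 0 < 2 ^ kap := by positivity
  have hcop : ∀ k, Nat.Coprime M ((2 ^ kap) ^ k) := by
    intro k
    refine Nat.Coprime.pow_right _ (Nat.Coprime.pow_right _ ?_)
    refine Nat.Coprime.prod_left fun q hq => ?_
    have h1 := hprime q hq
    have h2 : 2 ≤ 2 ^ (K + 2) := by
      calc 2 = 2 ^ 1 := rfl
        _ ≤ 2 ^ (K + 2) := Nat.pow_le_pow_right (by norm_num) (by omega)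
    exact (Nat.coprime_primes h1.1 Nat.prime_two).2 (by omega)
  obtain ⟨lam, rho, nu1, hsound, hlen, -, hcomp, hfs⟩ := hgrid (fun k => (2 ^ kap) ^ k) 0
    (fun k => pow_pos hGpos k) (fun a b h => pow_dvd_pow _ h) hcop α (fun w => (w.map f).prod)
    (fun u v => by simp)
  set A : ℕ → ℕ := GridG_19.Am (fun k => (2 ^ kap) ^ k) M 0 with hA
  set N := A m + M with hN
  obtain ⟨c, hcm, hcD, -, hcdiff, hthin⟩ := Thin243.thin K (2 * N) Ms M (2 ^ kap) m
    (fun p hp => (hprime p hp).1) (fun p hp => (hprime p hp).2) ⟨kap, rfl⟩ hkap hM0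
  obtain ⟨lam2, rho2, nu2, hs2, hc2⟩ := hK c (fun i j hij _ => hcm hij)
  set Lam := c K with hLam
  have hcle : ∀ k < K, c k ≤ Lam := fun k hk => (hcm hk).le
  obtain ⟨n, cc, P, Sw, hn, hP, hloc, hsep, -, -, hfew⟩ :=
    WallU_228.walls_full (α := α) (2 * Lam + 2 * N)
  set z := Lam + n + 2 * N + 2 * Lam + 1 with hz
  let D : SemJ_832.Dat α S (S → ZMod 2) :=
    { phi := fun w => (w.map f).prod
      act := act
      Wo := WallU_228.Wo n Sw
      n := n
      W := 2 * Lam + 2 * N
      z := z
      p0 := Lam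
      N := N
      K := K
      C0 := r + m
      Lam := Lam
      BadT := fun T => (∃ q ∈ Ms, q ∣ T) ∨ GridG_19.BadG (fun k => (2 ^ kap) ^ k) M 0 m T
      lam := lam
      rho := rho
      nu1 := nu1
      c := c
      lam2 := lam2
      rho2 := fun k Q => rho2 k Q 1
      nu2 := fun u => nu2 u 1
      hloc := hloc
      hgap := by
        intro X t t' htt ht' h1 h2
        by_contra hcon
        have hd := hsep (X.take t') (t' - t) h2 (by omega) (by omega)
        apply hd
        have hl : (X.take t').length = t' := by rw [List.length_take]; omega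
        rw [hl, List.take_take]
        have e : min (t' - (t' - t)) t' = t := by omega
        rw [e]
        exact h1
      g_len := fun p v h => by
        have := (hlen p v h).2
        omega
      g_sound := fun p q v b h1 h2 => hsound p q v b h1 h2
      g_comp := by
        intro u hu hB v
        rw [not_or] at hB
        exact hcomp u (by omega) (by omega) (fun q hq hd => hB.1 ⟨q, hq, hd⟩) hB.2 v
      e_sound := by
        intro k hk P Q v b hP h1 h2
        have := hs2 k hk P Q 1 v b hP h1 h2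
        rw [mul_one] at this
        exact this
      e_comp := fun u v hu => hc2 u 1 v hu
      c_le := hcle
      rulerE := by
        intro i hi j hj i' hi' j' hj' hij hij' h1 h2
        by_contra hcon
        have := hcdiff i j i' j' hij hij' (fun h => hcon (by
          rw [Prod.mk.injEq] at h; exact h))
        have h3 : |((c i : ℤ) - c j) - (c i' - c j')| ≤ ((2 * N : ℕ) : ℤ) := by
          rw [abs_le]
          constructor
          · have : ((c i' + c j : ℕ) : ℤ) ≤ ((c i + c j' + 2 * N : ℕ) : ℤ) := by exact_mod_cast h2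
            push_cast at this ⊢
            linarith
          · have : ((c i + c j' : ℕ) : ℤ) ≤ ((c i' + c j + 2 * N : ℕ) : ℤ) := by exact_mod_cast h1
            push_cast at this ⊢
            linarith
        exact absurd this (not_lt.2 h3)
      rulerB := by
        intro T hT1 hT2
        have h1 := hthin (fun j => (A j : ℤ)) (T : ℤ)
        refine le_trans (Finset.card_le_card ?_) (le_trans h1 (by omega))
        intro ab hab0
        have hab := (@Finset.mem_filter _ _ (_) _ _).1 hab0
        refine (@Finset.mem_filter _ _ (_) _ _).2 ⟨hab.1, hab.2.1, ?_⟩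
        have hb : ab.2 < K := by
          have := Finset.mem_product.1 hab.1
          exact Finset.mem_range.1 this.2
        have hle : c ab.2 ≤ T := (hcle _ hb).trans hT2
        have hbig : A m ≤ T + c ab.1 - c ab.2 := by
          have := hcD ab.1
          omega
        have := bad_imp (m := m) hGpos hbig (fun a b hab => GridG_19.Am_mono _ _ _ hab) hab.2.2
        have e : ((T + c ab.1 - c ab.2 : ℕ) : ℤ) = (T : ℤ) + c ab.1 - c ab.2 := by
          rw [Nat.cast_sub (by omega)]
          push_cast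
          ring
        rw [e] at this
        exact this
      h_p0 := le_rfl
      z_pos := by omega
      h_z := by omega
      h_W := le_rfl }
  set nu : List α → (S → ZMod 2) := fun X =>
    act (nu2 (X.take Lam) 1) ((X.drop Lam).map f).prod + nu1 (X.drop Lam) with hnu
  have hT : D.T = fun v X => act v (X.map f).prod + nu X := by
    funext v X
    show act (act v ((X.take Lam).map f).prod + nu2 (X.take Lam) 1) ((X.drop Lam).map f).prod
      + nu1 (X.drop Lam) = act v (X.map f).prod +
        (act (nu2 (X.take Lam) 1) ((X.drop Lam).map f).prod + nu1 (X.drop Lam))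
    have e : (X.map f).prod = ((X.take Lam).map f).prod * ((X.drop Lam).map f).prod := by
      rw [← List.prod_append, ← List.map_append, List.take_append_drop]
    rw [e, hadd, hmul, add_assoc]
  have hreg1 : ∀ v, Language.IsRegular ({Y | nu1 Y = v} : Language α) := by
    intro v
    refine P4_933.regular_of_class f (GridG_19.Ac (fun k => (2 ^ kap) ^ k) M 0 m)
      (M * (2 ^ kap) ^ m) (Nat.mul_pos hM0 (pow_pos hGpos m)) (fun Y => nu1 Y = v) ?_
    intro u u' h1 h2 h3 h4 h5
    rw [hfs u u' h1 h2 h3 h4 h5]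
  have hreg : ∀ v, Language.IsRegular ({X | nu X = v} : Language α) :=
    fun v => Last_749.reg_nu act f Lam (fun u => nu2 u 1) nu1 hreg1 v
  have hzp : 0 < z := by omega
  let E : SemTop_727.Sch α (S → ZMod 2) := ⟨D.Z, D.T, D.L1, D.L2⟩
  have hC : Blk467.PCode E.XX := Last_749.pcode (n := n) (S := Sw) hzp
  have hfib : ∀ x y, HL 1 (E.fib x y) := by
    intro x y
    refine (Last_749.hfib hfew z act f nu hreg x y).congr fun w => ?_
    show (w ∈ D.Z ∧ D.T x w = y) ↔ (w ∈ Last_749.XX n Sw z ∧ act x (w.map f).prod + nu w = y)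
    rw [hT]
    exact Iff.rfl
  have hL1 : ∀ x, (E.L1 x).Finite := by
    intro x
    refine (List.finite_length_le α (Lam + N)).subset ?_
    rintro P ⟨h1, h2⟩
    have := D.g_len _ _ h2
    rw [List.length_drop] at this
    show P.length ≤ Lam + N
    have h3 : P.length - Lam ≤ N := this
    omega
  have hL2 : ∀ x, (E.L2 x).Finite := by
    intro x
    refine (List.finite_length_le α Lam).subset ?_
    rintro P ⟨k, hk, h1, h2⟩
    show P.length ≤ Lam
    rw [h1]
    exact hcle k hk
  have hmain : ∀ x y, HL 3 (Blk467.Lg E.XX E.T x y) := fun x y =>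
    SemTop_727.Sch.lg_XX E hC hfib hL1 hL2 (fun X1 h1 X2 h2 x => D.hC2 h1 h2 x) x y
  refine Last_749.final (k := 2) hfew hzp act hadd hone hmul hfaith f nu ?_ s
  intro x y
  have h := hmain x y
  rw [show E.T = fun v X => act v (X.map f).prod + nu X from hT] at h
  exact h

theorem row {α : Type*} [Finite α] (L : Language α) (hL : L.IsRegular) :
    ∃ e : Crest.RegLang.GRegExp α, e.height ≤ 3 ∧ e.lang = L :=
  Univ_480.row_of_small_alphabet (fun A _ S _ _ f s => fin A S f s) L hL

end Crest.Agent.R320.Fin_574
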