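import Crest.Agent.R320.FullH_575
import Crest.Agent.R320.GridG_19
import Crest.Agent.R320.SpoilGrid_567

/-!
# Row 320: the join (helper575)
-/

set_option autoImplicit false

namespace Crest.Agent.R320.Fin_575

open Crest.RegLang Crest.Agent.R320.Hk_851 Crest.Agent.R320.FewWalls_228 Finset

/-- 19's band condition implies 567's -/
theorem bad_conv {Ms : Finset ℕ} {M Gam m T : ℕ} (hGam : 0 < Gam)
    (hT : GridG_19.Am (fun k => Gam ^ k) M 0 m ≤ T)
    (h : (∃ q ∈ Ms, q ∣ T) ∨ GridG_19.BadG (fun k => Gam ^ k) M 0 m T) :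
    SpoilGrid_567.BadT Ms M Gam m
      (fun j => ((GridG_19.Am (fun k => Gam ^ k) M 0 j : ℕ) : ℤ)) (T : ℤ) := by
  rcases h with ⟨q, hq, hd⟩ | ⟨k, hk, h⟩
  · left
    exact ⟨q, hq, by exact_mod_cast hd⟩
  · right
    have hAm : GridG_19.Am (fun k => Gam ^ k) M 0 (k + 1) ≤ T :=
      (GridG_19.Am_mono _ _ _ (by omega)).trans hT
    simp only at h
    obtain ⟨U, hU⟩ : ∃ U, T = GridG_19.Am (fun k => Gam ^ k) M 0 (k + 1) + U :=
      ⟨T - GridG_19.Am (fun k => Gam ^ k) M 0 (k + 1), by omega⟩
    rw [hU, Nat.add_sub_cancel_left] at h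
    have hG : 0 < Gam ^ (k + 1) := Nat.pow_pos hGam
    have hdm := Nat.div_add_mod U (Gam ^ (k + 1))
    have hlt := Nat.mod_lt U hG
    refine ⟨k + 1, by omega, by omega, ?_⟩
    rw [Nat.add_sub_cancel]
    have hcast : (T : ℤ) - ((GridG_19.Am (fun k => Gam ^ k) M 0 (k + 1) : ℕ) : ℤ) = (U : ℤ) := by
      rw [hU]; push_cast; ring
    have hdm' : (U : ℤ) = ((Gam : ℤ) ^ (k + 1)) * ((U / Gam ^ (k + 1) : ℕ) : ℤ) +
        ((U % Gam ^ (k + 1) : ℕ) : ℤ) := by
      have : ((Gam ^ (k + 1) * (U / Gam ^ (k + 1)) + U % Gam ^ (k + 1) : ℕ) : ℤ) = (U : ℤ) := by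
        exact_mod_cast hdm
      rw [← this]; push_cast; ring
    rcases h with h | h
    · refine ⟨((U / Gam ^ (k + 1) : ℕ) : ℤ), ?_⟩
      rw [hcast]
      have e : (U : ℤ) - ((U / Gam ^ (k + 1) : ℕ) : ℤ) * (Gam : ℤ) ^ (k + 1) =
          ((U % Gam ^ (k + 1) : ℕ) : ℤ) := by
        linear_combination hdm'
      rw [e, abs_of_nonneg (by positivity)]
      have : ((U % Gam ^ (k + 1) : ℕ) : ℤ) < ((M * Gam ^ k : ℕ) : ℤ) := by exact_mod_cast h
      push_cast at this ⊢
      linarith
    · refine ⟨((U / Gam ^ (k + 1) : ℕ) : ℤ) + 1, ?_⟩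
      rw [hcast]
      have e : (U : ℤ) - (((U / Gam ^ (k + 1) : ℕ) : ℤ) + 1) * (Gam : ℤ) ^ (k + 1) =
          ((U % Gam ^ (k + 1) : ℕ) : ℤ) - (Gam : ℤ) ^ (k + 1) := by
        linear_combination hdm'
      rw [e]
      have h1 : ((U % Gam ^ (k + 1) : ℕ) : ℤ) < ((Gam ^ (k + 1) : ℕ) : ℤ) := by
        exact_mod_cast hlt
      have h2 : ((Gam ^ (k + 1) : ℕ) : ℤ) ≤ ((U % Gam ^ (k + 1) + M * Gam ^ k : ℕ) : ℤ) := by
        exact_mod_cast h
      rw [abs_le]
      push_cast at h1 h2 ⊢
      constructor <;> linarith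

theorem fin (α : Type) [Finite α] (S : Type) [Monoid S] [Finite S] (f : α → S) (s : S) :
    HL 3 ({w | (w.map f).prod = s} : Language α) := by
  classical
  haveI := Fintype.ofFinite S
  obtain ⟨act, hadd, hone, hmul, hfaith⟩ := Blk467.exists_module S
  obtain ⟨m, r, hgrid⟩ := GridG_19.grid S (S → ZMod 2) act
  obtain ⟨K, hE⟩ := ExactR_237.exact_gadget α S (S → ZMod 2) f act (2 + 2 * (r + m))
  obtain ⟨Ms, hcard, hMs, hgrid2⟩ := hgrid (4 ^ K)
  set M : ℕ := ∏ q ∈ Ms, q with hM
  have hMpos : 0 < M := Finset.prod_pos fun q hq => (hMs q hq).1.pos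
  set Gam : ℕ := 16 * (m + 1) * M * 4 ^ K + 1 with hGam
  have hGpos : 0 < Gam := by omega
  have hMG : Nat.Coprime M Gam := by
    have h1 : Gam = 1 + M * (16 * (m + 1) * 4 ^ K) := by rw [hGam]; ring
    rw [h1]
    exact (Nat.coprime_add_mul_left_right M 1 _).2 (Nat.coprime_one_right M)
  have hqG : ∀ q ∈ Ms, Nat.Coprime q Gam := fun q hq =>
    Nat.Coprime.coprime_dvd_left (Finset.dvd_prod_of_mem _ hq) hMG
  obtain ⟨lam, rho, nu1, g1, g2, g3, g4, g5⟩ := hgrid2 (fun k => Gam ^ k) 0
    (fun k => Nat.pow_pos hGpos) (fun a b hab => pow_dvd_pow _ hab)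
    (fun k => Nat.Coprime.pow_right k hMG) α (fun w => (w.map f).prod) (by intro u v; simp)
  set N : ℕ := GridG_19.Am (fun k => Gam ^ k) M 0 m with hN
  set Nc : ℕ := GridG_19.Ac (fun k => Gam ^ k) M 0 m with hNc
  obtain ⟨x, hx1, hx2, hx3⟩ := SpoilGrid_567.spoil_grid K m Ms M Gam (2 * N)
    (fun q hq => (hMs q hq).2) hqG
    (fun q hq q' hq' hne => (Nat.coprime_primes (hMs q hq).1 (hMs q' hq').1).2 hne) hMpos
    (by omega)
  obtain ⟨lamE, rhoE, nuE, hE1, hE2⟩ := hE x (fun i j hij _ => by have := hx1 i j hij; omega)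
  set p0 : ℕ := x K with hp0
  obtain ⟨n, c, P, Sw, hn, hP, hSl, hsep, hper, hfew⟩ :=
    FewVal_228.exists_walls α (2 * (N + p0) + 1) (by omega)
  have hwl : ∀ (X : List α) (t : ℕ), t ≤ X.length →
      (n ≤ (X.take t).length ∧ (X.take t).drop ((X.take t).length - n) ∈ Sw) →
      n ≤ t ∧ Wl n Sw X (t - n) := by
    intro X t ht h
    have hl : (X.take t).length = t := by rw [List.length_take]; omega
    rw [hl] at h
    refine ⟨h.1, by omega, ?_⟩
    have e : (X.drop (t - n)).take n = (X.take t).drop (t - n) := by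
      rw [List.drop_take]
      congr 1
      omega
    rw [e]
    exact h.2
  let D : Full_575.Dt α S (S → ZMod 2) :=
    { f := f
      act := act
      hadd := hadd
      hone := hone
      hmul := hmul
      Wo := fun X => n ≤ X.length ∧ X.drop (X.length - n) ∈ Sw
      n := n
      loc := by
        intro P Q hQ
        have e : (P ++ Q).drop ((P ++ Q).length - n) = Q.drop (Q.length - n) := by
          rw [List.length_append, show P.length + Q.length - n = P.length + (Q.length - n) by omega,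
            ← List.drop_drop, List.drop_left]
        rw [e, List.length_append]
        constructor
        · rintro ⟨_, h⟩; exact ⟨hQ, h⟩
        · rintro ⟨_, h⟩; exact ⟨by omega, h⟩
      len := fun Q h => h.1
      K := K
      x := x
      p0 := p0
      N := N
      N0 := 2 * N + M + Nc
      z := 2 * p0 + N + (2 * N + M + Nc) + n + 1
      C1 := r + m
      hx := by
        intro k hk
        have := hx1 k K hk
        omega
      hz := le_rfl
      sep := by
        intro X s t hst htl hs ht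
        obtain ⟨a1, a2⟩ := hwl X s (by omega) hs
        obtain ⟨b1, b2⟩ := hwl X t htl ht
        have := hsep X (s - n) (t - n) (by omega) a2 b2
        omega
      BadT := fun T => 2 * N + M + Nc ≤ T ∧
        ((∃ q ∈ Ms, q ∣ T) ∨ GridG_19.BadG (fun k => Gam ^ k) M 0 m T)
      res := by
        intro a ha b hb a2 ha2 b2 hb2 hab _ h
        refine hx2 a b a2 b2 ha hb ha2 hb2 hab ?_
        push_cast
        exact h
      thin := by
        intro T t ht
        have h3 := hx3 (fun j => ((GridG_19.Am (fun k => Gam ^ k) M 0 j : ℕ) : ℤ)) T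
        have hinj : (t.image Prod.swap).card = t.card :=
          Finset.card_image_of_injective _ Prod.swap_injective
        rw [← hinj]
        refine le_trans (Finset.card_le_card ?_) (h3.trans (by omega))
        intro p hp
        obtain ⟨⟨a, b⟩, hab, rfl⟩ := Finset.mem_image.1 hp
        obtain ⟨h1, h2, h4, mm, h5, h6, h7⟩ := ht (a, b) hab
        simp only at h1 h2 h4 h5
        rw [Finset.mem_filter, Finset.mem_product, Finset.mem_range, Finset.mem_range]
        refine ⟨⟨h2, h1⟩, fun h => h4 h.symm, ?_⟩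
        have h8 := bad_conv (Ms := Ms) (M := M) (Gam := Gam) (m := m) (T := mm) hGpos
          (by omega) h7
        have e : (T + ((x (Prod.swap (a, b)).1 : ℕ) : ℤ) - ((x (Prod.swap (a, b)).2 : ℕ) : ℤ)) =
            (mm : ℤ) := by
          simp only [Prod.swap]
          rw [h5]; ring
        rw [e]
        exact h8
      lam := lam
      rho := rho
      nu1 := nu1
      lam_len := fun P v h => (g2 P v h).2.le
      snd1 := g1
      cmp1 := by
        intro u hu hb v
        obtain ⟨P, Q, e, h1, h2⟩ := g4 u (by omega) (by omega)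
          (fun q hq hd => hb ⟨hu, Or.inl ⟨q, hq, hd⟩⟩)
          (fun h => hb ⟨hu, Or.inr h⟩) v
        exact ⟨P, Q, e.symm, h1, h2⟩
      lamE := lamE
      rhoE := fun k Q => rhoE k Q 1
      nu2 := fun u => nuE u 1
      snd2 := by
        intro k hk P Q v b hP h1 h2
        have := hE1 k hk P Q 1 v b hP h1 h2
        rw [mul_one] at this
        exact this
      cmp2 := by
        intro u v hu
        obtain ⟨I, hI, h⟩ := hE2 u 1 v hu
        exact ⟨I, hI, h⟩ }
  refine Full_575.Dt.main D Sw hSl (fun X => Iff.rfl) hfew (M * Gam ^ m)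
    (Nat.mul_pos hMpos (Nat.pow_pos hGpos)) ?_ hfaith s
  intro u u' hu hu' h1 h2 h3
  have hu1 : 2 * N + M + Nc ≤ u.length := hu
  have hu1' : 2 * N + M + Nc ≤ u'.length := hu'
  have h1' : u.take (2 * N + M + Nc) = u'.take (2 * N + M + Nc) := h1
  refine g5 u u' (by omega) (by omega) ?_ h3 ?_
  · have := congrArg (List.take Nc) h1'
    rwa [List.take_take, List.take_take, min_eq_left (by omega)] at this
  · have e1 : (u.map f).prod = ((u.take (2 * N + M + Nc)).map f).prod *
        ((u.drop (2 * N + M + Nc)).map f).prod := by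
      rw [← List.prod_append, ← List.map_append, List.take_append_drop]
    have e2 : (u'.map f).prod = ((u'.take (2 * N + M + Nc)).map f).prod *
        ((u'.drop (2 * N + M + Nc)).map f).prod := by
      rw [← List.prod_append, ← List.map_append, List.take_append_drop]
    change (u.map f).prod = (u'.map f).prod
    rw [e1, e2, h1']
    congr 1

end Crest.Agent.R320.Fin_575
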