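import Crest.Agent.R320.SemTop_727
import Crest.Agent.R320.Fin_528
import Crest.Agent.R320.GridG_19
import Crest.Agent.R320.P4n_36
import Crest.Agent.R320.P4_933
import Crest.Agent.R320.ExactR_237
import Crest.Agent.R320.LWallAll_922
import Crest.Agent.R320.SpoilGrid_567
import Crest.Agent.R320.Univ_188

/-! Row 320: the final join (helper577). -/

set_option autoImplicit false

namespace Crest.Agent.R320.Fin_577

open Crest.RegLang Crest.Agent.R320.Hk_851

theorem badG_int {Gb M A0 m n : ℕ} (hG : 0 < Gb)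
    (hn : GridG_19.Am (fun k => Gb ^ k) M A0 m ≤ n)
    (h : GridG_19.BadG (fun k => Gb ^ k) M A0 m n) :
    ∃ j, 1 ≤ j ∧ j ≤ m ∧ ∃ k : ℤ,
      |(n : ℤ) - ((GridG_19.Am (fun k => Gb ^ k) M A0 j : ℕ) : ℤ) - k * (Gb : ℤ) ^ j| ≤
        (M : ℤ) * (Gb : ℤ) ^ (j - 1) := by
  obtain ⟨k, hk, h⟩ := h
  have hle : GridG_19.Am (fun k => Gb ^ k) M A0 (k + 1) ≤ n :=
    (GridG_19.Am_mono _ M A0 hk).trans hn
  refine ⟨k + 1, by omega, hk, ?_⟩
  generalize GridG_19.Am (fun k => Gb ^ k) M A0 (k + 1) = a at hle h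
  obtain ⟨t, rfl⟩ := Nat.exists_eq_add_of_le hle
  rw [Nat.add_sub_cancel_left] at h
  have hGk : 0 < Gb ^ (k + 1) := pow_pos hG _
  have h1 : t = Gb ^ (k + 1) * (t / Gb ^ (k + 1)) + t % Gb ^ (k + 1) :=
    (Nat.div_add_mod t _).symm
  have h2 : t % Gb ^ (k + 1) < Gb ^ (k + 1) := Nat.mod_lt _ hGk
  generalize t / Gb ^ (k + 1) = e at h1
  generalize t % Gb ^ (k + 1) = ρ at h1 h2 h
  have h1z : (t : ℤ) = (Gb : ℤ) ^ (k + 1) * e + ρ := by exact_mod_cast h1
  have h2z : (ρ : ℤ) < (Gb : ℤ) ^ (k + 1) := by exact_mod_cast h2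
  have hρ : (0 : ℤ) ≤ ρ := by positivity
  have hk1 : k + 1 - 1 = k := by omega
  rw [hk1]
  rcases h with h | h
  · have hz : (ρ : ℤ) < (M : ℤ) * (Gb : ℤ) ^ k := by exact_mod_cast h
    refine ⟨e, ?_⟩
    push_cast
    rw [h1z, show (a : ℤ) + ((Gb : ℤ) ^ (k + 1) * e + ρ) - a - e * (Gb : ℤ) ^ (k + 1) = ρ by ring,
      abs_of_nonneg hρ]
    exact hz.le
  · have hz : (Gb : ℤ) ^ (k + 1) ≤ ρ + (M : ℤ) * (Gb : ℤ) ^ k := by exact_mod_cast h
    refine ⟨e + 1, ?_⟩
    push_cast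
    rw [h1z, show (a : ℤ) + ((Gb : ℤ) ^ (k + 1) * e + ρ) - a - (e + 1) * (Gb : ℤ) ^ (k + 1) =
      ρ - (Gb : ℤ) ^ (k + 1) by ring, abs_le]
    constructor <;> linarith

theorem fin (α : Type) [Finite α] (S : Type) [Monoid S] [Finite S] (φ : α → S) (s : S) :
    HL 3 ({w | (w.map φ).prod = s} : Language α) := by
  classical
  haveI := Fintype.ofFinite S
  obtain ⟨act, hadd, hone, hmul, hfaith⟩ := Blk467.exists_module S
  obtain ⟨m, r, hgrid⟩ := GridG_19.grid.{0} S (S → ZMod 2) act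
  obtain ⟨K, hK⟩ := ExactR_237.exact_gadget α S (S → ZMod 2) φ act (2 * (r + m) + 2)
  obtain ⟨Ms, hcard, hpr, hG1⟩ := hgrid (4 ^ K + 2)
  obtain ⟨M, hMdef⟩ : ∃ M, M = ∏ q ∈ Ms, q := ⟨_, rfl⟩
  rw [← hMdef] at hG1
  have hM : 0 < M := hMdef ▸ Finset.prod_pos fun q hq => (hpr q hq).1.pos
  obtain ⟨Gb, hGb1, hGb2⟩ : ∃ Gb : ℕ, 16 * (m + 1) * M * 4 ^ K ≤ Gb ∧ ∃ g, Gb = 2 ^ g :=
    ⟨2 ^ (16 * (m + 1) * M * 4 ^ K), Nat.lt_two_pow_self.le, _, rfl⟩
  have hGb0 : 0 < Gb := by obtain ⟨g, rfl⟩ := hGb2; positivity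
  have hcopq : ∀ q ∈ Ms, Nat.Coprime q Gb := by
    intro q hq
    obtain ⟨g, rfl⟩ := hGb2
    refine Nat.Coprime.pow_right g ?_
    refine (Nat.coprime_primes (hpr q hq).1 Nat.prime_two).2 ?_
    have := (hpr q hq).2
    have h4 : 0 < 4 ^ K := by positivity
    omega
  have hcopM : ∀ k, Nat.Coprime M (Gb ^ k) := fun k => by
    rw [hMdef]
    exact Nat.Coprime.prod_left fun q hq => (hcopq q hq).pow_right k
  obtain ⟨lam, rho, nu1, hs, hl, hrr, hc, hfs⟩ := hG1 (fun k => Gb ^ k) 0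
    (fun k => pow_pos hGb0 k) (fun a b hab => pow_dvd_pow _ hab) hcopM α
    (fun w => (w.map φ).prod) (fun u v => by simp)
  obtain ⟨N1, hN1⟩ : ∃ N1, N1 = GridG_19.Am (fun k => Gb ^ k) M 0 m := ⟨_, rfl⟩
  obtain ⟨x, hx1, hx2, hx3⟩ := SpoilGrid_567.spoil_grid K m Ms M Gb (2 * N1)
    (fun q hq => by have := (hpr q hq).2; omega) hcopq
    (fun q hq q' hq' hne => (Nat.coprime_primes (hpr q hq).1 (hpr q' hq').1).2 hne) hM hGb1
  obtain ⟨p0, hp0⟩ : ∃ p0, p0 = x K + N1 := ⟨_, rfl⟩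
  have hmono : ∀ i j, i < j → x i < x j := fun i j hij => by have := hx1 i j hij; omega
  obtain ⟨lam2, rho2, nu2, hs2, hc2⟩ := hK x (fun i j hij _ => hmono i j hij)
  obtain ⟨n, Gw, B, Wo, hLW, hgap, -, -, hdec⟩ :=
    LWallAll_922.walls_all_left α (2 * p0 + 2 * N1 + 1) (by omega)
  let D : Fin_528.Dat α (S → ZMod 2) S :=
    { f := φ, act := act, n := n, W := 2 * p0 + 2 * N1 + 1, Wo := Wo
      z := 3 * p0 + N1 + (2 * N1 + M) + n + 1
      p0 := p0, N1 := N1, Nc := 2 * N1 + M, lam := lam, rho := rho, nu1 := nu1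
      BadT := fun T => (∃ q ∈ Ms, q ∣ T) ∨ GridG_19.BadG (fun k => Gb ^ k) M 0 m T
      K := K, R := 2 * (r + m) + 2, C0 := r + m, c := x
      lam2 := lam2, rho2 := fun k Q => rho2 k Q 1, nu2 := fun P => nu2 P 1 }
  have hprf : ∀ X : List α, ExactR_237.pr φ X = (X.map φ).prod := fun X => rfl
  have hOk : D.Ok := by
    refine ⟨hadd, hmul, hLW.app, ?_, ?_, ?_, ?_, ?_, ?_, ?_, ?_, ?_, ?_, ?_, ?_⟩
    · intro X s t h1 h2 h3 h4
      exact hgap X s t h1 h2 h3 h4
    · intro P v h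
      have := (hl P v h).2
      show P.length ≤ N1
      omega
    · intro P Q v b h1 h2
      exact hs P Q v b h1 h2
    · intro u hu hb v
      have hu' : 2 * N1 + M ≤ u.length := hu
      have hb' : ¬ ((∃ q ∈ Ms, q ∣ u.length) ∨
        GridG_19.BadG (fun k => Gb ^ k) M 0 m u.length) := hb
      rw [not_or] at hb'
      obtain ⟨P, Q, e, h1, h2⟩ := hc u (by omega) (by omega)
        (fun q hq hqd => hb'.1 ⟨q, hq, hqd⟩) hb'.2 v
      exact ⟨P, Q, e, h1, Option.isSome_iff_exists.1 h2⟩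
    · intro k hk
      have := hmono k K hk
      show x k ≤ p0
      omega
    · show 3 * p0 + N1 + (2 * N1 + M) + n < 3 * p0 + N1 + (2 * N1 + M) + n + 1
      omega
    · show 2 * p0 + 2 * N1 ≤ 2 * p0 + 2 * N1 + 1
      omega
    · intro k k' l l' hk hk' hl1 hl' hne hne' h1 h2
      refine (hx2 k k' l l' hk hk' hl1 hl' hne ?_).1
      have h1' : x k' + x l ≤ x k + x l' + 2 * N1 := h1
      have h2' : x k + x l' ≤ x k' + x l + 2 * N1 := h2
      push_cast
      rw [abs_le]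
      constructor <;> omega
    · intro T hT I hI
      have hT' : p0 ≤ T := hT
      have hI' : ∀ k, ∃ k', k ∈ I → k < K ∧ k' < K ∧ k' ≠ k ∧
          ((∃ q ∈ Ms, q ∣ (T + x k' - x k)) ∨
            GridG_19.BadG (fun k => Gb ^ k) M 0 m (T + x k' - x k)) := by
        intro k
        by_cases hk : k ∈ I
        · obtain ⟨h1, k', h2, h3, h4⟩ := hI k hk
          exact ⟨k', fun _ => ⟨h1, h2, h3, h4⟩⟩
        · exact ⟨0, fun h => absurd h hk⟩
      choose pk hpk using hI'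
      have hcount := hx3 (fun j => ((GridG_19.Am (fun k => Gb ^ k) M 0 j : ℕ) : ℤ)) (T : ℤ)
      refine le_trans ?_ (hcount.trans (Nat.add_le_add_right hcard m))
      refine Finset.card_le_card_of_injOn (fun k => (pk k, k)) ?_ ?_
      · intro k hk
        have hkI : k ∈ I := hk
        obtain ⟨h1, h2, h3, h4⟩ := hpk k hkI
        have hxk := hmono k K h1
        have hcast : (T : ℤ) + x (pk k) - x k = ((T + x (pk k) - x k : ℕ) : ℤ) := by
          rw [Nat.cast_sub (by omega)]; push_cast; ring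
        simp only [Finset.coe_filter, Finset.mem_product, Finset.mem_range, Set.mem_setOf_eq]
        refine ⟨⟨h2, h1⟩, h3, ?_⟩
        rw [hcast]
        rcases h4 with ⟨q, hq, hqd⟩ | h4
        · exact Or.inl ⟨q, hq, by exact_mod_cast hqd⟩
        · exact Or.inr (badG_int hGb0 (by omega) h4)
      · intro a _ b _ hab
        exact (Prod.mk.inj hab).2
    · show 1 + 2 * (r + m) < 2 * (r + m) + 2
      omega
    · intro k hk P Q v b hP h1 h2
      have := hs2 k hk P Q 1 v b hP h1 h2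
      rw [mul_one] at this
      exact this
    · intro u v hu
      obtain ⟨I, h1, h2⟩ := hc2 u 1 v hu
      exact ⟨I, h1, fun k hk => ⟨(h2 k hk).1, (h2 k hk).2.1,
        Option.isSome_iff_exists.1 (h2 k hk).2.2⟩⟩
  -- the walls in the format of P4n_36
  have hW36 : P4n_36.LW n (max B (2 * p0 + 2 * N1 + 1)) Wo := by
    refine ⟨hLW.app, hLW.len, ?_⟩
    intro u hu
    obtain ⟨a, y, v, k, h1, h2, h3, h4⟩ := hdec u hu
    exact ⟨a, y, v, k, h4, by omega, by omega, by omega⟩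
  have hnu1 : ∀ y, (P4n_36.lg fun Y : List α => nu1 Y = y).IsRegular := by
    intro y
    refine P4_933.regular_of_class φ (GridG_19.Ac (fun k => Gb ^ k) M 0 m) (M * Gb ^ m)
      (by positivity) (fun Y => nu1 Y = y) ?_
    intro u u' h1 h2 h3 h4 h5
    rw [hfs u u' h1 h2 h3 h4 h5]
  let E : SemTop_727.Sch α (S → ZMod 2) := ⟨D.XX, D.T, D.L1, D.L2⟩
  refine SemTop_727.top (k := 1) act hadd hone hmul hfaith φ D.nu E (fun v X => rfl) ?_ ?_ ?_ ?_
    ?_ ?_ s
  · refine ⟨?_, ?_⟩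
    · rintro ⟨h1, -⟩
      have : 3 * p0 + N1 + (2 * N1 + M) + n + 1 ≤ ([] : List α).length := h1
      simp at this
    · rintro X hX Y hY ⟨t, rfl⟩
      have hX' : X ∈ P4n_36.XX Wo D.z := hX
      have hY' : X ++ t ∈ P4n_36.XX Wo D.z := hY
      rw [P4n_36.XX_prefix hX' hY', List.append_nil]
  · intro v v'
    refine (P4n_36.hXT (z := D.z) hW36 (fun w : List α => (w.map φ).prod) (fun u v => by simp)
      act p0 nu1 (fun P => nu2 P 1) hnu1 v v').congr fun X => ?_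
    constructor
    · rintro ⟨h1, h2⟩
      refine ⟨h1, ?_⟩
      have h2' : D.T v X = v' := h2
      rw [Fin_528.Dat.T_eq hOk] at h2'
      exact h2'
    · rintro ⟨h1, h2⟩
      refine ⟨h1, ?_⟩
      show D.T v X = v'
      rw [Fin_528.Dat.T_eq hOk]
      exact h2
  · intro v
    refine (List.finite_length_le α (p0 + N1)).subset ?_
    rintro P ⟨h1, h2⟩
    have h3 := (hl _ _ h2).2
    have h3' : (P.drop p0).length < GridG_19.Am (fun k => Gb ^ k) M 0 m := h3
    rw [List.length_drop] at h3'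
    show P.length ≤ p0 + N1
    omega
  · intro v
    refine (List.finite_length_le α p0).subset ?_
    rintro P ⟨k, hk, h1, h2⟩
    have := hmono k K hk
    have h1' : P.length = x k := h1
    show P.length ≤ p0
    omega
  · intro X1 hX1 X2 hX2 v
    exact Fin_528.Dat.compl2 hOk hX1 hX2 v
  · intro s
    exact (P4n_36.hNP (z := D.z) hW36 (fun w : List α => (w.map φ).prod)
      (fun u v => by simp) s).mono (by omega)

/-- the row for every finite alphabet in `Type`. -/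
theorem row0 (α : Type) [Finite α] (L : Language α) (hL : L.IsRegular) :
    ∃ e : GRegExp α, e.height ≤ 3 ∧ e.lang = L :=
  of_monoid (fun S _ _ f s => fin α S f s) L hL

/-- the row -/
theorem row {α : Type*} [Finite α] (L : Language α) (hL : L.IsRegular) :
    ∃ e : GRegExp α, e.height ≤ 3 ∧ e.lang = L :=
  Univ_188.of_type0 3 (fun α _ L hL => row0 α L hL) α L hL

end Crest.Agent.R320.Fin_577
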