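import Crest.Agent.R320.Level2_297
import Crest.Agent.R320.ExactR_237

/-!
# Row 320: instance of `two_schemes` for left-looking walls and two-wall blocks (helper58)
-/

set_option autoImplicit false

namespace Crest.Agent.R320.Fin_58

open Crest.RegLang Crest.Agent.R320.Hk_851 Crest.Agent.R320.Level_297 Crest.Agent.R320.ExactR_237

/-! ## rule of a prefix code -/

section code

variable {α V : Type}

/-- prefix code -/
structure Code (XX : Set (List α)) : Prop where
  ne : [] ∉ XX
  pf : ∀ x y, x ∈ XX → x ++ y ∈ XX → y = []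

theorem Code.uniq {XX : Set (List α)} (h : Code XX) {Q : List α} {l l' : ℕ}
    (hl : l ≤ Q.length) (h1 : Q.take l ∈ XX) (hl' : l' ≤ Q.length) (h1' : Q.take l' ∈ XX) :
    l = l' := by
  have key : ∀ a b : ℕ, a ≤ b → b ≤ Q.length → Q.take a ∈ XX → Q.take b ∈ XX → a = b := by
    intro a b hab hb ha hb'
    have e : Q.take b = Q.take a ++ (Q.take b).drop a := by
      have h2 := (List.take_append_drop a (Q.take b)).symm
      rwa [List.take_take, min_eq_left hab] at h2
    rw [e] at hb'
    have h3 := h.pf _ _ ha hb'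
    have h4 := congrArg List.length h3
    rw [List.length_drop, List.length_take] at h4
    simp only [List.length_nil] at h4
    omega
  rcases le_total l l' with h2 | h2
  · exact key l l' h2 hl' h1 h1'
  · exact (key l' l h2 hl h1' h1).symm

open Classical in
/-- next-zone function of a prefix code -/
noncomputable def nxOf (XX : Set (List α)) (T : List α → V → V) (Q : List α) :
    Option (ℕ × (V → V)) :=
  if h : ∃ l, l ≤ Q.length ∧ Q.take l ∈ XX then some (h.choose, T (Q.take h.choose)) else none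

theorem nxOf_iff {XX : Set (List α)} (h : Code XX) (T : List α → V → V) {Q : List α} {l : ℕ}
    {F : V → V} : nxOf XX T Q = some (l, F) ↔ l ≤ Q.length ∧ Q.take l ∈ XX ∧ F = T (Q.take l) := by
  classical
  unfold nxOf
  constructor
  · intro h1
    by_cases hex : ∃ l, l ≤ Q.length ∧ Q.take l ∈ XX
    · rw [dif_pos hex] at h1
      simp only [Option.some.injEq, Prod.mk.injEq] at h1
      obtain ⟨e1, e2⟩ := h1
      have h2 := hex.choose_spec
      rw [e1] at h2
      refine ⟨h2.1, h2.2, ?_⟩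
      rw [← e2, e1]
    · rw [dif_neg hex] at h1
      cases h1
  · rintro ⟨h1, h2, h3⟩
    have hex : ∃ l, l ≤ Q.length ∧ Q.take l ∈ XX := ⟨l, h1, h2⟩
    rw [dif_pos hex]
    have h4 := h.uniq hex.choose_spec.1 hex.choose_spec.2 h1 h2
    rw [h4, h3]

theorem nxOf_none {XX : Set (List α)} (T : List α → V → V) {Q : List α} :
    nxOf XX T Q = none ↔ ∀ l, l ≤ Q.length → Q.take l ∉ XX := by
  classical
  unfold nxOf
  constructor
  · intro h1 l hl hx
    rw [dif_pos ⟨l, hl, hx⟩] at h1
    cases h1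
  · intro h1
    rw [dif_neg]
    rintro ⟨l, hl, hx⟩
    exact h1 l hl hx

/-- the rule -/
noncomputable def ruleOf (XX : Set (List α)) (h : Code XX) (T : List α → V → V) :
    Rule α V 0 where
  nx := nxOf XX T
  pos := by
    intro Q l F h1
    obtain ⟨_, h2, _⟩ := (nxOf_iff h T).1 h1
    rcases Nat.eq_zero_or_pos l with h0 | h0
    · subst h0
      rw [List.take_zero] at h2
      exact absurd h2 h.ne
    · exact h0
  vis := by
    intro Q l F h1
    exact ((nxOf_iff h T).1 h1).1
  ext := by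
    intro Q s l F h1
    obtain ⟨h2, h3, h4⟩ := (nxOf_iff h T).1 h1
    refine (nxOf_iff h T).2 ⟨by rw [List.length_append]; omega, ?_, ?_⟩
    · rw [List.take_append_of_le_length h2]; exact h3
    · rw [List.take_append_of_le_length h2]; exact h4
  cut := by
    intro Q s l F h1 hl
    obtain ⟨h2, h3, h4⟩ := (nxOf_iff h T).1 h1
    have hl' : l ≤ Q.length := hl
    rw [List.take_append_of_le_length hl'] at h3 h4
    exact (nxOf_iff h T).2 ⟨hl', h3, h4⟩

end code

/-! ## data -/

/-- all data -/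
structure Dat (α M V : Type) [Monoid M] [AddCommGroup V] where
  f : α → M
  act : V → M → V
  hadd : ∀ v w s, act (v + w) s = act v s + act w s
  hmul : ∀ v s t, act v (s * t) = act (act v s) t
  Wo : List α → Prop
  n : ℕ
  W : ℕ
  loc : ∀ P Q : List α, n ≤ Q.length → (Wo (P ++ Q) ↔ Wo Q)
  gap : ∀ (P : List α) (d : ℕ), Wo P → 0 < d → d ≤ W → ¬ Wo (P.take (P.length - d))
  p0 : ℕ
  z : ℕ
  N1 : ℕ
  hz : 3 * p0 + N1 + n < z
  hW : p0 + N1 ≤ W
  Bad : ℕ → Prop
  lam : List α → Option V
  rho : List α → Option V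
  nu1 : List α → V
  lamlen : ∀ P v, lam P = some v → P.length < N1
  exact1 : ∀ P Q v b, lam P = some v → rho Q = some b → b = act v (pr f (P ++ Q)) + nu1 (P ++ Q)
  comp1 : ∀ X : List α, ¬ Bad X.length → z ≤ X.length + p0 → ∀ v, ∃ P Q, P ++ Q = X ∧
    lam P = some v ∧ (rho Q).isSome
  K : ℕ
  c : ℕ → ℕ
  hcp : ∀ i < K, c i ≤ p0
  R : ℕ
  lam2 : ℕ → List α → Option V
  rho2 : ℕ → List α → Option V
  nu2 : List α → V
  exact2 : ∀ k < K, ∀ P Q v b, P.length = c k → lam2 k P = some v → rho2 k Q = some b →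
    b = act v (pr f (P ++ Q)) + nu2 (P ++ Q)
  comp2 : ∀ (u : List α) (v : V), u.length = p0 → ∃ I : Finset ℕ, R ≤ I.card ∧ ∀ k ∈ I, k < K ∧
    lam2 k (u.take (c k)) = some v ∧ (rho2 k (u.drop (c k))).isSome
  gol : ∀ i j k l, i < K → j < K → k < K → l < K → i ≠ j → k ≠ l → (i ≠ k ∨ j ≠ l) →
    (c i + c l + 4 * N1 < c k + c j ∨ c k + c j + 4 * N1 < c i + c l)
  C0 : ℕ
  thin : ∀ T, p0 ≤ T → ∃ E : Finset (ℕ × ℕ), E.card ≤ C0 ∧ ∀ i j, i < K → j < K → i ≠ j →
    Bad (T + c j - c i) → (i, j) ∈ E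
  hR : 3 * (1 + C0) < R

namespace Dat

variable {α M V : Type} [Monoid M] [AddCommGroup V] (D : Dat α M V)

/-- `Q` = remainder of a block whose anchor is `δ` to the left, first wall at `t` -/
def Blk (δ t : ℕ) (Q : List α) : Prop :=
  D.z ≤ t + δ ∧ t < Q.length ∧ D.Wo (Q.take t) ∧ D.Wo Q ∧
    ∀ i, D.z ≤ i + δ → i < Q.length → i ≠ t → ¬ D.Wo (Q.take i)

/-- first wall -/
def First (δ t : ℕ) (Q : List α) : Prop :=
  D.z ≤ t + δ ∧ t ≤ Q.length ∧ D.Wo (Q.take t) ∧ ∀ i, D.z ≤ i + δ → i < t → ¬ D.Wo (Q.take i)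

/-- good position -/
def GoodT (δ t : ℕ) (Q : List α) : Prop :=
  D.z + D.N1 ≤ t + δ ∧ (∀ i, D.z ≤ i + δ + D.N1 → i + δ < D.z → ¬ D.Wo (Q.take i)) ∧
    ¬ D.Bad (t + δ - D.p0)

def Good (δ : ℕ) (Q : List α) : Prop := ∃ t, D.First δ t Q ∧ D.GoodT δ t Q

theorem wo_shift {P Q : List α} {i : ℕ} (h1 : D.n ≤ i) (h2 : i ≤ Q.length) :
    D.Wo ((P ++ Q).take (P.length + i)) ↔ D.Wo (Q.take i) := by
  rw [List.take_length_add_append]
  exact D.loc _ _ (by rw [List.length_take]; omega)

theorem First.uniq {δ t t' : ℕ} {Q : List α} (h : D.First δ t Q) (h' : D.First δ t' Q) :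
    t = t' := by
  rcases lt_trichotomy t t' with hlt | heq | hgt
  · exact absurd h.2.2.1 (h'.2.2.2 t h.1 hlt)
  · exact heq
  · exact absurd h'.2.2.1 (h.2.2.2 t' h'.1 hgt)

theorem Blk.first {δ t : ℕ} {Q : List α} (h : D.Blk δ t Q) : D.First δ t Q :=
  ⟨h.1, h.2.1.le, h.2.2.1, fun i hi hit => h.2.2.2.2 i hi (by have := h.2.1; omega) (by omega)⟩

/-- first wall does not change when the text is prolonged -/
theorem First.ext {δ t : ℕ} {Q : List α} (h : D.First δ t Q) (s : List α) :
    D.First δ t (Q ++ s) := by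
  obtain ⟨h1, h2, h3, h4⟩ := h
  refine ⟨h1, by rw [List.length_append]; omega, ?_, ?_⟩
  · rw [List.take_append_of_le_length h2]; exact h3
  · intro i hi hit
    rw [List.take_append_of_le_length (by omega)]
    exact h4 i hi hit

theorem GoodT.ext {δ t : ℕ} {Q : List α} (h0 : D.First δ t Q) (h : D.GoodT δ t Q) (s : List α) :
    D.GoodT δ t (Q ++ s) := by
  obtain ⟨h1, h2, h3⟩ := h
  refine ⟨h1, fun i hi hi' => ?_, h3⟩
  have := h0.2.1
  rw [List.take_append_of_le_length (by omega)]
  exact h2 i hi hi'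

theorem Good.ext {δ : ℕ} {Q : List α} (h : D.Good δ Q) (s : List α) : D.Good δ (Q ++ s) := by
  obtain ⟨t, h1, h2⟩ := h
  exact ⟨t, h1.ext D s, h2.ext D h1 s⟩

/-- shift of `First` -/
theorem First.shift {P Q : List α} {t : ℕ} (hP : P.length ≤ 2 * D.p0 + D.N1)
    (h : D.First P.length t Q) : D.First 0 (P.length + t) (P ++ Q) := by
  have hz := D.hz
  obtain ⟨h1, h2, h3, h4⟩ := h
  refine ⟨by omega, by rw [List.length_append]; omega, ?_, ?_⟩
  · rw [D.wo_shift (by omega) h2]; exact h3
  · intro i hi hit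
    obtain ⟨i', rfl⟩ : ∃ i', i = P.length + i' := ⟨i - P.length, by omega⟩
    rw [D.wo_shift (by omega) (by omega)]
    exact h4 i' (by omega) (by omega)

theorem GoodT.shift {P Q : List α} {t : ℕ} (hP : P.length ≤ 2 * D.p0)
    (h0 : D.First P.length t Q) (h : D.GoodT P.length t Q) :
    D.GoodT 0 (P.length + t) (P ++ Q) := by
  have hz := D.hz
  obtain ⟨h1, h2, h3⟩ := h
  refine ⟨by omega, ?_, ?_⟩
  · intro i hi hi'
    obtain ⟨i', rfl⟩ : ∃ i', i = P.length + i' := ⟨i - P.length, by omega⟩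
    rw [D.wo_shift (by omega) (by have := h0.2.1; omega)]
    exact h2 i' (by omega) (by omega)
  · intro hb
    apply h3
    have e : P.length + t + 0 - D.p0 = t + P.length - D.p0 := by omega
    rwa [e] at hb

theorem Blk.shift {P Q : List α} {t : ℕ} (hP : P.length ≤ 2 * D.p0 + D.N1)
    (h : D.Blk P.length t Q) : D.Blk 0 (P.length + t) (P ++ Q) := by
  have hz := D.hz
  obtain ⟨h1, h2, h3, h4, h5⟩ := h
  refine ⟨by omega, by rw [List.length_append]; omega, ?_, ?_, ?_⟩
  · rw [D.wo_shift (by omega) h2.le]; exact h3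
  · rw [D.loc _ _ (by omega)]; exact h4
  · intro i hi hi' hne
    rw [List.length_append] at hi'
    obtain ⟨i', rfl⟩ : ∃ i', i = P.length + i' := ⟨i - P.length, by omega⟩
    rw [D.wo_shift (by omega) (by omega)]
    exact h5 i' (by omega) (by omega) (by omega)

/-- the block code -/
def XX : Set (List α) := {X | ∃ t, D.Blk 0 t X}

/-- bad blocks -/
def XB : Set (List α) := {X | X ∈ D.XX ∧ ¬ D.Good 0 X}

theorem codeXX : Code D.XX where
  ne := by
    rintro ⟨t, h⟩
    have := h.2.1
    simp at this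
  pf := by
    rintro x y ⟨t, h1, h2, h3, h4, h5⟩ ⟨t', g1, g2, g3, g4, g5⟩
    by_contra hy
    have hl : 0 < y.length := List.length_pos_iff.2 hy
    rw [List.length_append] at g2
    have e1 : x.length = t' := by
      by_contra hne
      refine g5 x.length (by omega) (by rw [List.length_append]; omega) hne ?_
      rw [List.take_left]; exact h4
    refine g5 t (by omega) (by rw [List.length_append]; omega) (by omega) ?_
    rw [List.take_append_of_le_length (by omega)]
    exact h3

theorem codeXB : Code D.XB where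
  ne := fun h => D.codeXX.ne h.1
  pf := fun x y h1 h2 => D.codeXX.pf x y h1.1 h2.1

open Classical in
/-- place of the first wall -/
noncomputable def tt (X : List α) : ℕ := if h : ∃ t, D.First 0 t X then h.choose else 0

theorem tt_eq {t : ℕ} {X : List α} (h : D.First 0 t X) : D.tt X = t := by
  classical
  have hex : ∃ t, D.First 0 t X := ⟨t, h⟩
  unfold tt
  rw [dif_pos hex]
  exact hex.choose_spec.uniq D h

/-- the zone map -/
noncomputable def T (X : List α) (v : V) : V :=
  D.act (D.act (D.act v (pr D.f (X.take D.p0)) + D.nu2 (X.take D.p0))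
    (pr D.f ((X.take (D.tt X)).drop D.p0)) + D.nu1 ((X.take (D.tt X)).drop D.p0))
    (pr D.f (X.drop (D.tt X)))

noncomputable def rule : Rule α V 0 := ruleOf D.XX D.codeXX D.T
noncomputable def ruleB : Rule α V 0 := ruleOf D.XB D.codeXB D.T

/-! ### scheme 1 -/

def LL1 (P : List α) (v : V) : Prop :=
  ∃ X0 P', P = X0 ++ P' ∧ X0.length = D.p0 ∧ D.lam P' = some (D.act v (pr D.f X0) + D.nu2 X0)

def RR1 (Q : List α) (b : V) : Prop :=
  ∃ t, D.z ≤ t + D.p0 ∧ t < Q.length ∧ D.Wo (Q.take t) ∧ D.Wo Q ∧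
    (∀ i, D.z ≤ i + D.p0 + D.N1 → i < Q.length → i ≠ t → ¬ D.Wo (Q.take i)) ∧
    ∃ b', D.rho (Q.take t) = some b' ∧ b = D.act b' (pr D.f (Q.drop t))

theorem exact_one {P Q : List α} {v b : V} (hL : D.LL1 P v) (hR : D.RR1 Q b) :
    P ++ Q ∈ D.XX ∧ D.T (P ++ Q) v = b := by
  obtain ⟨X0, P', rfl, hX0, hlam⟩ := hL
  obtain ⟨t, h1, h2, h3, h4, h5, b', hb', rfl⟩ := hR
  have hlen := D.lamlen _ _ hlam
  have hz := D.hz
  have hPl : (X0 ++ P').length = D.p0 + P'.length := by rw [List.length_append, hX0]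
  have hB : D.Blk (X0 ++ P').length t Q := by
    refine ⟨by omega, h2, h3, h4, ?_⟩
    intro i hi hi' hne
    exact h5 i (by omega) hi' hne
  have hB' := hB.shift D (by omega)
  refine ⟨⟨_, hB'⟩, ?_⟩
  have ht := D.tt_eq (hB'.first D)
  unfold T
  rw [ht, List.take_length_add_append, List.append_assoc, List.append_assoc,
    List.take_append_of_le_length (by omega), List.take_of_length_le (by omega)]
  have e1 : (X0 ++ (P' ++ Q.take t)).drop D.p0 = P' ++ Q.take t := by
    rw [← hX0, List.drop_left]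
  have e2 : (X0 ++ (P' ++ Q)).drop ((X0 ++ P').length + t) = Q.drop t := by
    rw [← List.append_assoc, List.drop_length_add_append]
  rw [e1, e2, ← D.exact1 _ _ _ _ hlam hb']

theorem complete_one {X : List α} (hX : X ∈ D.XX) (hg : D.Good 0 X) (v : V) :
    ∃ P Q b, X = P ++ Q ∧ D.LL1 P v ∧ D.RR1 Q b := by
  obtain ⟨t, hB⟩ := hX
  obtain ⟨t', hF, hG⟩ := hg
  have e := hF.uniq D (hB.first D)
  subst e
  have hz := D.hz
  obtain ⟨h1, h2, h3, h4, h5⟩ := hB
  obtain ⟨g1, g2, g3⟩ := hG
  have hYl : ((X.take t').drop D.p0).length = t' - D.p0 := by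
    rw [List.length_drop, List.length_take]; omega
  obtain ⟨P', Q', hPQ, hlam, hrho⟩ := D.comp1 ((X.take t').drop D.p0) (by
    rw [hYl]; exact g3) (by rw [hYl]; omega)
    (D.act v (pr D.f (X.take D.p0)) + D.nu2 (X.take D.p0))
  obtain ⟨b', hb'⟩ := Option.isSome_iff_exists.1 hrho
  have hlen := D.lamlen _ _ hlam
  have hX0 : (X.take D.p0).length = D.p0 := by rw [List.length_take]; omega
  have hsum : P'.length + Q'.length = t' - D.p0 := by
    rw [← hYl, ← hPQ, List.length_append]
  have hsplit : X = (X.take D.p0 ++ P') ++ (Q' ++ X.drop t') := by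
    have e1 : X = X.take t' ++ X.drop t' := (List.take_append_drop _ _).symm
    have e2 : X.take t' = (X.take t').take D.p0 ++ (X.take t').drop D.p0 :=
      (List.take_append_drop _ _).symm
    have e3 : (X.take t').take D.p0 = X.take D.p0 := by
      rw [List.take_take, min_eq_left (by omega)]
    rw [← hPQ, e3] at e2
    calc X = X.take t' ++ X.drop t' := e1
      _ = (X.take D.p0 ++ (P' ++ Q')) ++ X.drop t' := by rw [← e2]
      _ = _ := by simp only [List.append_assoc]
  have hPl : (X.take D.p0 ++ P').length = D.p0 + P'.length := by rw [List.length_append, hX0]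
  set P := X.take D.p0 ++ P' with hPdef
  set Q := Q' ++ X.drop t' with hQdef
  have hQl : Q.length = Q'.length + (X.length - t') := by
    rw [hQdef, List.length_append, List.length_drop]
  have hXl : X.length = P.length + Q.length := by
    rw [← List.length_append, ← hsplit]
  have htk : ∀ i, D.n ≤ i → i ≤ Q.length → (D.Wo (Q.take i) ↔ D.Wo (X.take (P.length + i))) := by
    intro i hi hi'
    rw [hsplit]
    exact (D.wo_shift hi hi').symm
  refine ⟨P, Q, _, hsplit, ⟨X.take D.p0, P', rfl, hX0, hlam⟩, Q'.length, by omega, by omega, ?_, ?_,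
    ?_, b', ?_, rfl⟩
  · rw [htk _ (by omega) (by omega)]
    have : P.length + Q'.length = t' := by omega
    rw [this]; exact h3
  · have := htk Q.length (by omega) le_rfl
    rw [List.take_length] at this
    rw [this, ← hXl, List.take_length]
    exact h4
  · intro i hi hi' hne
    rw [htk _ (by omega) (by omega)]
    by_cases hlt : P.length + i < D.z
    · exact g2 _ (by omega) (by omega)
    · exact h5 _ (by omega) (by omega) (by omega)
  · rw [hQdef, List.take_left]; exact hb'

end Dat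

end Crest.Agent.R320.Fin_58
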