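import Crest.Agent.R320.SpW_580
import Crest.Agent.R320.SemTop_445
import Crest.Agent.R320.G1_852
import Crest.Agent.R320.Bridge_975
import Crest.Agent.R320.Sp_597
import Crest.Agent.R320.P4_111
import Crest.Agent.R320.Univ_480
import Crest.Agent.R320.ExactT_580

/-! Row 320: the whole assembly (helper580). -/

set_option autoImplicit false

namespace Crest.Agent.R320.Fin_580

open Crest.RegLang Crest.Agent.R320.Hk_851 Crest.Agent.R320.Two_580

/-- a faithful finite module -/
def act0 (S : Type) [Monoid S] (v : S → ZMod 2) (s : S) : S → ZMod 2 := fun t => v (s * t)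

theorem fin {A : Type} [Finite A] {S : Type} [Monoid S] [Finite S] (f : A → S) (s : S) :
    HL 3 ({w | (w.map f).prod = s} : Language A) := by
  classical
  have : Fintype S := Fintype.ofFinite S
  let V := S → ZMod 2
  let act : V → S → V := act0 S
  obtain ⟨m, r, hG⟩ := Crest.Agent.R320.G1_852.gadget (S := S) (V := V) act
  obtain ⟨K, hK⟩ := Crest.Agent.R320.ExactT_580.exact_gadget_tail A S Unit V f
    (fun v g _ => act v g) (2 * (r + m) + 2)
  obtain ⟨Ms, M, hcard, hMs, hM, hG⟩ := hG (4 ^ K)
  set b := M * (4 * 2 ^ K + 2 + 4) + 1 with hb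
  have hb0 : 0 < b := by omega
  have hbM : 4 * M * 2 ^ K + 2 * M + 4 ≤ b := by
    have : b = 4 * M * 2 ^ K + 2 * M + 4 * M + 1 := by rw [hb]; ring
    omega
  have hco : Nat.Coprime b M := by
    rw [hb, Nat.mul_comm M]
    exact (Nat.coprime_mul_right_add_left _ _ _).2 (Nat.coprime_one_left _)
  obtain ⟨lam, rho, nu, hlen, hsound, hcomp, hfs⟩ := hG b hb0 hco A f
  set N1 := b ^ m with hN1
  obtain ⟨c, hc1, hc2, hc3, hc4⟩ := Crest.Agent.R320.Sp_597.spoil_nat K m Ms M b hM
    (fun k hk => ⟨(hMs k hk).1, (hMs k hk).2.2⟩) hbM hco N1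
  obtain ⟨lam2, rho2, nu2, hs2, hg2⟩ := hK c (fun i j hij _ => hc1 hij)
  set Cm := c K with hCm
  obtain ⟨n, Sw, hn, hSw, hgap, hreg, hkey⟩ :=
    Crest.Agent.R320.P4_111.p4.{0, 0} A (2 * Cm + 2 * N1 + 1) (by omega)
  let D : Dt A S V :=
    { Wl := Crest.Agent.R320.P4_111.Wo n Sw, n := n, p0 := Cm, q := n + Cm, N1 := N1,
      φ := fun w => (w.map f).prod, act := act, lam := lam, rho := rho, nu1 := nu,
      BadN := Crest.Agent.R320.Sp_597.Bad Ms M b m, K := K, R := 2 * (r + m) + 2, c := c,
      lam2 := lam2, rho2 := fun k Q => rho2 k Q (), nu2 := fun u => nu2 u () }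
  have hcm : ∀ k < K, c k ≤ Cm := fun k hk => (hc1 hk).le
  have hzD : D.z = Cm + (n + Cm) + N1 := rfl
  have loc : ∀ U Q : List A, D.n ≤ Q.length → (D.Wl (U ++ Q) ↔ D.Wl Q) :=
    fun U Q h => Crest.Agent.R320.P4_111.Wo.app U Q h
  have hok : D.Ok := by
    refine ⟨loc, Nat.le_add_right _ _, ?_, ?_, ?_, ?_, ?_, hcm, ?_, ?_, ?_, ?_⟩
    · show 0 < n + Cm
      omega
    · intro u v
      show ((u ++ v).map f).prod = (u.map f).prod * (v.map f).prod
      simp
    · intro P Q v x h1 h2
      exact hsound P Q v x h1 h2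
    · intro P v h
      exact (hlen P v h).le
    · intro Y _ hB v
      have hB' : ¬ Crest.Agent.R320.Sp_597.Bad Ms M b m Y.length := hB
      unfold Crest.Agent.R320.Sp_597.Bad at hB'
      push Not at hB'
      obtain ⟨P, Q, h1, h2, v', h3⟩ := hcomp Y hB'.1 (fun j hj => by
        have := hB'.2 j hj
        exact ⟨this.1, by omega⟩) v
      refine ⟨P, Q, h1, h2, ?_⟩
      show (rho Q).isSome
      rw [h3]
      rfl
    · intro k hk l hl h
      exact hc1.injective h
    · intro k hk P Q v x h1 h2 h3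
      exact hs2 k hk P Q () v x h1 h2 h3
    · intro U hU v
      obtain ⟨I, hI1, hI2⟩ := hg2 U () v (fun k hk => by
        have : U.length = Cm := hU
        rw [this]; exact hcm k hk)
      exact ⟨I, hI1, hI2⟩
    · intro X hX X2 hX2 I hI
      have := Crest.Agent.R320.SpW_580.spoil_of D Cm (2 * Cm + 2 * N1 + 1) (r + m) loc hgap
        (Nat.le_add_right _ _) (Nat.le_add_left _ _) le_rfl hcm le_rfl
        (fun i _ j _ i' _ j' _ h1 h2 h3 => hc3 i j i' j' h1 h2 h3) ?_ (X ++ X2) ?_ I hI
      · show I.card < 2 * (r + m) + 2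
        omega
      · intro T s L hs
        refine le_trans ?_ ((hc4 T).trans (Nat.add_le_add_right hcard m))
        refine Finset.card_le_card_of_injOn (fun k => (k, L k)) ?_ ?_
        · intro k hk
          obtain ⟨a1, a2, a3, a4, a5⟩ := hs k hk
          simp only [Finset.coe_filter, Finset.mem_product, Finset.mem_range, Set.mem_setOf_eq]
          exact ⟨⟨a1, a2⟩, a3, a4, a5⟩
        · intro k _ k' _ h
          exact (Prod.mk.inj h).1
      · rw [List.length_append]
        have := hX.1
        omega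
  have hact_mul : ∀ (v : V) s s', act (act v s) s' = act v (s * s') := by
    intro v s s'
    funext t
    show v (s * (s' * t)) = v (s * s' * t)
    rw [mul_assoc]
  have hact_add : ∀ (v w : V) s, act (v + w) s = act v s + act w s := fun v w s => rfl
  have hXXeq : ∀ X, X ∈ D.XX ↔ X ∈ Crest.Agent.R320.P4_111.XX n Sw D.z := fun X => Iff.rfl
  refine Crest.Agent.R320.SemTop_445.sem_top (V := V) (fun w => (w.map f).prod) (by simp)
    (fun u v => by simp) act hact_mul hact_add ?_ D.XX ?_ ?_ D.T
    (fun X => act (nu2 (X.take Cm) ()) ((X.drop Cm).map f).prod + nu (X.drop Cm)) ?_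
    D.LP1 D.LP2 ?_ ?_ ?_ ?_ ?_ s
  · -- faithful
    intro s s' h
    have := congrFun (h (Pi.single s 1)) 1
    have h2 : (Pi.single s (1 : ZMod 2) : S → ZMod 2) (s * 1) =
      (Pi.single s (1 : ZMod 2) : S → ZMod 2) (s' * 1) := this
    rw [mul_one, mul_one, Pi.single_eq_same] at h2
    by_contra hne
    rw [Pi.single_eq_of_ne (Ne.symm hne)] at h2
    exact one_ne_zero h2
  · intro h
    have h1 : D.z ≤ ([] : List A).length := h.1
    rw [hzD] at h1
    simp at h1
    omega
  · intro X hX Y hXY
    exact Crest.Agent.R320.P4_111.XX.code hX hXY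
  · intro X _ v
    show act (act v ((X.take Cm).map f).prod + nu2 (X.take Cm) ()) ((X.drop Cm).map f).prod +
      nu (X.drop Cm) = _
    rw [hact_add, hact_mul, ← List.prod_append, ← List.map_append, List.take_append_drop, add_assoc]
  · refine ((List.finite_length_le A (Cm + N1)).prod (Set.finite_univ (α := V))).subset ?_
    rintro ⟨P, v⟩ ⟨h1, h2⟩
    refine ⟨?_, trivial⟩
    have := hlen _ _ h2
    have h3 : (P.drop Cm).length < b ^ m := this
    rw [List.length_drop] at h3
    show P.length ≤ Cm + N1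
    omega
  · refine ((List.finite_length_le A Cm).prod (Set.finite_univ (α := V))).subset ?_
    rintro ⟨P, v⟩ ⟨k, hk, h1, h2⟩
    refine ⟨?_, trivial⟩
    have := hcm k hk
    have h3 : P.length = c k := h1
    show P.length ≤ Cm
    omega
  · intro v v'
    refine (hreg D.z ({X | D.T v X = v'} : Language A) ?_).1
    refine Crest.Agent.R320.Bridge_975.reg_of_local f (Cm + N1) (M * b ^ m)
      (Nat.mul_pos hM (Nat.pow_pos hb0)) _ ?_
    intro q q2 h1 h2 h3 h4 h5
    have e1 : q.take Cm = q2.take Cm := by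
      have := congrArg (List.take Cm) h3
      rwa [List.take_take, List.take_take, Nat.min_eq_left (by omega)] at this
    have e2 : (q.drop Cm).take N1 = (q2.drop Cm).take N1 := by
      have := congrArg (List.drop Cm) h3
      rwa [List.drop_take, List.drop_take, Nat.add_sub_cancel_left] at this
    have e3 : (((q.drop Cm).drop N1).map f).prod = (((q2.drop Cm).drop N1).map f).prod := by
      rw [List.drop_drop, List.drop_drop]
      exact h5
    have e4 : ((q.drop Cm).map f).prod = ((q2.drop Cm).map f).prod := by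
      rw [← List.take_append_drop N1 (q.drop Cm), ← List.take_append_drop N1 (q2.drop Cm),
        List.map_append, List.map_append, List.prod_append, List.prod_append, e2, e3]
    have e5 : (q.drop Cm).length % (M * b ^ m) = (q2.drop Cm).length % (M * b ^ m) := by
      rw [List.length_drop, List.length_drop]
      have h6 : (q.length - Cm) + Cm ≡ (q2.length - Cm) + Cm [MOD (M * b ^ m)] := by
        rw [Nat.sub_add_cancel (by omega), Nat.sub_add_cancel (by omega)]
        exact h4
      exact Nat.ModEq.add_right_cancel' Cm h6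
    have e6 : nu (q.drop Cm) = nu (q2.drop Cm) := (hfs _ _ e2 e3 e5).2
    have e7 : D.T v q = D.T v q2 := by
      show act (act v ((q.take Cm).map f).prod + nu2 (q.take Cm) ()) ((q.drop Cm).map f).prod +
        nu (q.drop Cm) = act (act v ((q2.take Cm).map f).prod + nu2 (q2.take Cm) ())
        ((q2.drop Cm).map f).prod + nu (q2.drop Cm)
      rw [e1, e4, e6]
    rw [e7]
  · intro s
    exact (hkey D.z S f 0 1 one_pos (fun _ _ x => x = s)).2
  · intro X hX X2 hX2 v
    rcases Dt.cc hok X hX X2 hX2 v with ⟨P, Q, h1, h2, h3⟩ | ⟨P, Q, h1, h2, h3, h4⟩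
    · left
      obtain ⟨x, hx⟩ := Option.isSome_iff_exists.1 h3
      refine ⟨P, Q, h1, ?_, h2, x, ?_⟩
      · rintro rfl
        have := (Dt.R1_some hx).1.1
        simp only [List.length_nil] at this
        have : n + Cm + N1 ≤ 0 := this
        omega
      · intro P' v' hP'
        exact Dt.s1 hok P' v' Q x hP' hx
    · right
      obtain ⟨x, hx⟩ := Option.isSome_iff_exists.1 h4
      refine ⟨P, Q, h1, h2, h3, x, ?_⟩
      intro P' v' hP' hNC
      refine Dt.s2 hok P' v' Q x hP' hx ?_
      intro Y hY hpre P'' Q'' hYe hle hL1 hR1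
      refine hNC Y hY hpre P'' Q'' hYe hle hL1 ?_
      obtain ⟨y, hy⟩ := Option.isSome_iff_exists.1 hR1
      refine ⟨?_, ⟨P'', v', hL1⟩, y, fun P3 v3 h3 => Dt.s1 hok P3 v3 Q'' y h3 hy⟩
      rintro rfl
      have := (Dt.R1_some hy).1.1
      simp only [List.length_nil] at this
      have : n + Cm + N1 ≤ 0 := this
      omega

theorem row {α : Type*} [Finite α] (L : Language α) (hL : L.IsRegular) :
    ∃ e : GRegExp α, e.height ≤ 3 ∧ e.lang = L :=
  Crest.Agent.R320.Univ_480.row_of_small_alphabet (fun A _ S _ _ f s => fin f s) L hL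

end Crest.Agent.R320.Fin_580
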