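import Crest.Agent.R320.FinC_590

set_option autoImplicit false
set_option linter.unusedSectionVars false

namespace Crest.Agent.R320.Fin_590

open Crest.RegLang Crest.Agent.R320.Hk_851 Crest.Agent.R320.Sc2n_937
open Crest.Agent.R320.BddReg_746 Crest.Agent.R320.FinA_590 Crest.Agent.R320.FinC_590
open Crest.Agent.R320.Grid_899 (G Am G_pos G_dvd Am_mono)

/-- **every fibre of a morphism to a finite monoid has generalized star height at most 3.** -/
theorem fin (α : Type) [Finite α] (S : Type) [Monoid S] [Finite S] (φ : α → S) (s : S) :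
    HL 3 ({w | (w.map φ).prod = s} : Language α) := by
  classical
  obtain ⟨act, hadd, hone, hmul, hfaith⟩ := Crest.Agent.R320.Blk467.exists_module S
  obtain ⟨kk, m, HG⟩ := Crest.Agent.R320.Grid_899.grid_gadget_reg S (S → ZMod 2) act
  letI : Fintype S := Fintype.ofFinite S
  obtain ⟨K, HE⟩ := Crest.Agent.R320.ExactR_237.exact_gadget α S (S → ZMod 2) φ act
    (2 * (kk + m) + 2)
  obtain ⟨q, hqp, hqb, hqo, hqi, hqc⟩ := exists_primes kk (2 ^ (K + 1))
  set Ms := ∏ j, q j with hMs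
  set κ := K + 5 + Ms with hκ
  have hMspos : 0 < Ms := Finset.prod_pos fun j _ => (hqp j).pos
  obtain ⟨lam, rho, nu1, g1, g2, g3, g4, g5⟩ := HG q hqo hqc κ α
    (fun w => (w.map φ).prod) (fun u v => by rw [List.map_append, List.prod_append])
  rw [← hMs] at g1 g2 g4 g5
  set A1 := Am Ms κ (m + 1) with hA1
  have hAm : Am Ms κ m ≤ A1 := Am_mono (by omega)
  set N1 := Am Ms κ m + 1 with hN1
  obtain ⟨X, hX0, hXpos, hXthin⟩ := Crest.Agent.R320.Thin963.thin K m (Finset.univ.image q)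
    (fun i => (G κ i : ℤ)) (fun i => ((Ms * G κ i : ℕ) : ℤ)) (fun i => (Am Ms κ i : ℤ))
    (by
      intro p hp
      obtain ⟨j, -, rfl⟩ := Finset.mem_image.1 hp
      exact ⟨hqp j, hqb j⟩)
    (by
      intro p hp
      obtain ⟨j, -, rfl⟩ := Finset.mem_image.1 hp
      exact Nat.isCoprime_iff_coprime.2 (Nat.Coprime.pow_right _ (hqo j).coprime_two_right))
    (by exact_mod_cast G_pos (κ := κ) m)
    (fun i j hij => by exact_mod_cast (G_dvd (κ := κ) hij))
    (fun i => by exact_mod_cast Nat.mul_pos hMspos (G_pos (κ := κ) i))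
    (fun i => by exact_mod_cast (Dvd.intro_left Ms rfl : G κ i ∣ Ms * G κ i))
    (by
      intro i _
      have := grow (Ms := Ms) (κ := κ) (K := K) (i := i) hκ
      exact_mod_cast this)
    ((2 * N1 + 1 : ℕ) : ℤ)
  obtain ⟨x0, rfl⟩ : ∃ x0 : ℕ, X = (x0 : ℤ) := ⟨X.toNat, (Int.toNat_of_nonneg hXpos.le).symm⟩
  have hx0 : 2 * N1 + 1 ≤ x0 := by exact_mod_cast hX0
  set c : ℕ → ℕ := fun k => x0 * 2 ^ k with hc
  have hcmono : ∀ i j, i ≤ j → c i ≤ c j := fun i j hij =>
    Nat.mul_le_mul_left _ (Nat.pow_le_pow_right (by norm_num) hij)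
  obtain ⟨lam2, rho2, nu2, e1, e2⟩ := HE c (fun i j hij _ =>
    Nat.mul_lt_mul_of_pos_left (Nat.pow_lt_pow_right (by norm_num) hij) (by omega))
  set p0 := c K with hp0
  obtain ⟨n, G', B, Wo, hLW, hgap, -, -, hfree⟩ :=
    Crest.Agent.R320.LWallAll_922.walls_all_left α (2 * p0 + 2 * N1 + 1) (by omega)
  set q0 := n + 2 * p0 + 2 * A1 with hq0
  have hcard : (Finset.univ.image q).card ≤ kk := by
    refine Finset.card_image_le.trans ?_
    simp
  refine Crest.Agent.R320.FinB_590.core φ act hadd hone hmul hfaith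
    (⟨Wo, n, p0 + N1 + q0, p0, q0, N1, hLW.app, rfl, by omega, by omega, by omega⟩ : Geo α)
    hLW.len (max B (2 * p0 + 2 * N1 + 1)) 2 ?_ lam rho nu1 ?_ g3 (BT q κ m) ?_ ?_ K c
    lam2 (fun k Q => rho2 k Q 1) (fun X => nu2 X 1) (fun k hk => hcmono k K hk.le) ?_
    (kk + m) ?_ ?_ ?_ ?_ A1 (Ms * G κ m) (Nat.mul_pos hMspos (G_pos m)) ?_ s
  · -- free
    intro u hu
    obtain ⟨a, x, v, k, h1, h2, h3, rfl⟩ := hfree u hu
    refine Language.mem_mul.2 ⟨a ++ (List.replicate k x).flatten,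
      ⟨a, x, k, h1.trans (le_max_left _ _), h2.trans (le_max_right _ _), rfl⟩, v, ?_, rfl⟩
    refine Language.mem_mul.2 ⟨v, ⟨v, [], 0, h3.trans (le_max_left _ _), by simp, by simp [pw]⟩,
      [], rfl, by simp⟩
  · intro P v h
    have := (g1 P v h).1
    show P.length ≤ N1
    omega
  · -- complete 1
    intro Y hY hB v
    have hY' : q0 ≤ Y.length := hY
    have hB' : ¬ BT q κ m Y.length := hB
    unfold BT at hB'
    push Not at hB'
    obtain ⟨hb1, hb2⟩ := hB'
    exact g4 Y (by omega) hb1 hb2 v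
  · -- rho regular
    intro b
    refine Crest.Agent.R320.Bridge_975.reg_of_local φ A1 (Ms * G κ m)
      (Nat.mul_pos hMspos (G_pos m)) _ ?_
    intro Q Q2 h1 h2 h3 h4 h5
    first
      | rw [(g5 Q Q2 h1 h2 h3 h5 h4).1]
      | rw [g5 Q Q2 h1 h2 h3 h5 h4]
  · -- exact 2
    intro k hk P Q v u hP _ h1 h2
    have := e1 k hk P Q 1 v u hP h1 h2
    rw [mul_one] at this
    exact this
  · -- complete 2
    intro u hu v
    have hu' : u.length = p0 := hu
    exact e2 u 1 v (fun k hk => by rw [hu']; exact hcmono k K hk.le)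
  · -- gap
    intro P Q h1 h2 hne
    have hQ : 0 < Q.length := List.length_pos_of_ne_nil hne
    have := hgap (P ++ Q) P.length (P ++ Q).length (by rw [List.length_append]; omega) le_rfl
      (by rw [List.take_left]; exact h1) (by rw [List.take_length]; exact h2)
    rw [List.length_append] at this
    show 2 * p0 + 2 * N1 < Q.length
    omega
  · -- spaced ruler
    intro k k' l l' hk hk' hl hl' hkk hll h1 h2
    have h1' : x0 * 2 ^ k + x0 * 2 ^ l' < x0 * 2 ^ l + x0 * 2 ^ k' + 2 * N1 := h1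
    have h2' : x0 * 2 ^ l + x0 * 2 ^ k' < x0 * 2 ^ k + x0 * 2 ^ l' + 2 * N1 := h2
    have h3 : ((2 : ℤ) ^ k - 2 ^ k') - (2 ^ l - 2 ^ l') = 0 := by
      by_contra hne
      set e : ℤ := ((2 : ℤ) ^ k - 2 ^ k') - (2 ^ l - 2 ^ l') with he
      have h1z : (x0 : ℤ) * e < 2 * N1 := by
        have : (x0 : ℤ) * 2 ^ k + x0 * 2 ^ l' < x0 * 2 ^ l + x0 * 2 ^ k' + 2 * N1 := by
          exact_mod_cast h1'
        rw [he]; linarith
      have h2z : -((x0 : ℤ) * e) < 2 * N1 := by
        have : (x0 : ℤ) * 2 ^ l + x0 * 2 ^ k' < x0 * 2 ^ k + x0 * 2 ^ l' + 2 * N1 := by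
          exact_mod_cast h2'
        rw [he]; linarith
      have hxz : (2 * N1 + 1 : ℤ) ≤ x0 := by exact_mod_cast hx0
      rcases lt_or_gt_of_ne hne with h | h
      · have : e ≤ -1 := by omega
        nlinarith
      · have : 1 ≤ e := by omega
        nlinarith
    exact (Crest.Agent.R320.G369.pow_diff (Ne.symm hkk) (Ne.symm hll) (by linarith)).1
  · -- thin
    intro τ hτ J hJ
    have hτ' : p0 + N1 + q0 ≤ τ + p0 := hτ
    have hex : ∀ k, ∃ k', k ∈ J → (k < K ∧ k' < K ∧ k' ≠ k ∧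
        BT q κ m (τ + c k' - c k - p0)) := by
      intro k
      by_cases hk : k ∈ J
      · obtain ⟨h1, k', h2, h3, h4⟩ := hJ k hk
        exact ⟨k', fun _ => ⟨h1, h2, h3, h4⟩⟩
      · exact ⟨0, fun h => absurd h hk⟩
    choose h hh using hex
    have hinj : Set.InjOn (fun k => (h k, k)) (J : Set ℕ) := by
      intro a _ b _ hab
      exact (Prod.mk.injEq _ _ _ _ ▸ hab : h a = h b ∧ a = b).2
    rw [← Finset.card_image_of_injOn hinj]
    refine (Finset.card_le_card ?_).trans ((hXthin ((τ : ℤ) - p0)).trans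
      (Nat.add_le_add_right hcard m))
    intro p hp
    obtain ⟨k, hk, rfl⟩ := Finset.mem_image.1 hp
    obtain ⟨h1, h2, h3, h4⟩ := hh k hk
    refine Finset.mem_filter.2 ⟨Finset.mem_product.2 ⟨Finset.mem_range.2 h2,
      Finset.mem_range.2 h1⟩, h3, ?_⟩
    have hck : c k ≤ p0 := hcmono k K h1.le
    have hbig : A1 ≤ τ + c (h k) - c k - p0 := by omega
    have h5 := BT_int q κ m _ hbig h4
    have h6 : ((τ + c (h k) - c k - p0 : ℕ) : ℤ) =
        ((τ : ℤ) - p0) + (x0 : ℤ) * 2 ^ (h k) - (x0 : ℤ) * 2 ^ k := by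
      rw [Nat.cast_sub (by omega), Nat.cast_sub (by omega)]
      have e3 : ((c (h k) : ℕ) : ℤ) = (x0 : ℤ) * 2 ^ (h k) := by simp [hc]
      have e4 : ((c k : ℕ) : ℤ) = (x0 : ℤ) * 2 ^ k := by simp [hc]
      rw [Nat.cast_add, e3, e4]
      ring
    rw [h6] at h5
    exact h5
  · exact fun a b ha hb hab => BT_per q κ m a b ha hb hab

end Crest.Agent.R320.Fin_590
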