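import Mathlib

/-!
# Row 320: glue between the gadgets and 163's top (posts 13363, 13545)

Natural chain rule (`next anchor = first wall ≥ z`), left-looking walls, block code `XX`.
Scheme 1 = an abstract zone gadget read after `p0` letters, scheme 2 = exact gadget at the places
`c k ≤ p0`.  Results: `s1`, `s2`, `cc` in the form of helper163's top theorem.
-/

set_option autoImplicit false
set_option linter.unusedSectionVars false

namespace Crest.Agent.R320.Glue_593

variable {A S V : Type}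

/-- left-looking walls -/
structure Walls (Wo : List A → Prop) (n W : ℕ) : Prop where
  loc : ∀ P Q : List A, n ≤ Q.length → (Wo (P ++ Q) ↔ Wo Q)
  len : ∀ P : List A, Wo P → n ≤ P.length
  gap : ∀ (X : List A) (s t : ℕ), s < t → t ≤ s + W → t ≤ X.length →
    Wo (X.take s) → Wo (X.take t) → False

structure Dat (A S V : Type) where
  Wo : List A → Prop
  n : ℕ
  z : ℕ
  p0 : ℕ
  N : ℕ
  BadT : ℕ → Prop
  φ : List A → S
  act : V → S → V
  lam1 : List A → Option V
  rho1 : List A → Option V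
  nu1 : List A → V
  K : ℕ
  c : ℕ → ℕ
  lam2 : ℕ → List A → Option V
  rho2 : ℕ → List A → Option V
  nu2 : List A → V

namespace Dat

variable [Add V] (D : Dat A S V)

/-- the block code -/
def XX : Set (List A) :=
  {X | D.z ≤ X.length ∧ D.Wo X ∧ ∀ t, D.z ≤ t → t < X.length → ¬ D.Wo (X.take t)}

/-- the value at the place `p0` of the block -/
def M0 (v : V) (U : List A) : V := D.act v (D.φ U) + D.nu2 U

/-- the value at the end of the block, from the value at `p0` -/
def M1 (v : V) (Y : List A) : V := D.act v (D.φ Y) + D.nu1 Y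

/-- the zone map -/
def T (v : V) (X : List A) : V := D.M1 (D.M0 v (X.take D.p0)) (X.drop D.p0)

def LP1 (P : List A) (v : V) : Prop :=
  D.p0 ≤ P.length ∧ D.lam1 (P.drop D.p0) = some (D.M0 v (P.take D.p0))

/-- right-legal for scheme 1 -/
def RL (Q : List A) : Prop :=
  D.z ≤ D.p0 + Q.length ∧ D.Wo Q ∧
    ∀ t, D.z ≤ D.p0 + D.N + t → t < Q.length → ¬ D.Wo (Q.take t)

open Classical in
noncomputable def R1 (Q : List A) : Option V := if D.RL Q then D.rho1 Q else none

/-- the block has one of the two failure modes -/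
def BadX (X : List A) : Prop :=
  (∃ t, D.z ≤ t + D.N ∧ t < D.z ∧ D.Wo (X.take t)) ∨ X.length < D.z + D.N ∨
    D.BadT (X.length - D.p0)

/-- the block of the anchor `s` letters before `Q` ends at the place `d` of `Q` -/
def EndAt (s : ℕ) (Q : List A) (d : ℕ) : Prop :=
  d ≤ Q.length ∧ D.z ≤ s + d ∧ D.Wo (Q.take d) ∧
    ∀ t, D.z ≤ s + t → t < d → ¬ D.Wo (Q.take t)

/-- the block of the anchor `s` letters before `Q` has a failure mode -/
def BadAt (s : ℕ) (Q : List A) : Prop :=
  ∃ d, D.EndAt s Q d ∧ ((∃ t, D.z ≤ s + t + D.N ∧ s + t < D.z ∧ D.Wo (Q.take t)) ∨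
    s + d < D.z + D.N ∨ D.BadT (s + d - D.p0))

def LP2 (P : List A) (v : V) : Prop := ∃ k < D.K, P.length = D.c k ∧ D.lam2 k P = some v

/-- the value `b` read by a right word of scheme 2 -/
def R2r (Q : List A) (b : V) : Prop :=
  ∃ k < D.K, D.BadAt (D.c k) Q ∧ (∀ k' < D.K, D.BadAt (D.c k') Q → k' = k) ∧
    ∃ d r, D.EndAt (D.c k) Q d ∧ D.rho2 k (Q.take (D.p0 - D.c k)) = some r ∧ Q.drop d ∈ D.XX ∧
      b = D.T (D.M1 r ((Q.take d).drop (D.p0 - D.c k))) (Q.drop d)

open Classical in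
noncomputable def R2 (Q : List A) : Option V :=
  if h : ∃ b, D.R2r Q b then some h.choose else none

end Dat

section

variable [Add V] {D : Dat A S V} {W : ℕ}

theorem take_wo (hW : Walls D.Wo D.n W) {P Q : List A} {t : ℕ} (hn : D.n ≤ t)
    (ht : t ≤ Q.length) : D.Wo ((P ++ Q).take (P.length + t)) ↔ D.Wo (Q.take t) := by
  have h1 : (P ++ Q).take (P.length + t) = P ++ Q.take t := by
    simp [List.take_append]
  rw [h1]
  exact hW.loc _ _ (by rw [List.length_take]; omega)

theorem take_wo' (hW : Walls D.Wo D.n W) {U : List A} {s t : ℕ} (hs : s ≤ U.length)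
    (hn : D.n ≤ t) (ht : s + t ≤ U.length) :
    D.Wo (U.take (s + t)) ↔ D.Wo ((U.drop s).take t) := by
  have h := take_wo hW (P := U.take s) (Q := U.drop s) hn (by rw [List.length_drop]; omega)
  rw [List.take_append_drop, List.length_take, min_eq_left hs] at h
  exact h

theorem EndAt.unique {s : ℕ} {Q : List A} {d d' : ℕ} (h : D.EndAt s Q d) (h' : D.EndAt s Q d') :
    d = d' := by
  rcases lt_trichotomy d d' with h1 | h1 | h1
  · exact absurd h.2.2.1 (h'.2.2.2 d h.2.1 h1)
  · exact h1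
  · exact absurd h'.2.2.1 (h.2.2.2 d' h'.2.1 h1)

theorem EndAt.exists {s : ℕ} {Q : List A} {d1 : ℕ} (h1 : d1 ≤ Q.length) (h2 : D.z ≤ s + d1)
    (h3 : D.Wo (Q.take d1)) : ∃ d, d ≤ d1 ∧ D.EndAt s Q d := by
  classical
  have hex : ∃ d, D.z ≤ s + d ∧ D.Wo (Q.take d) := ⟨d1, h2, h3⟩
  have hle : Nat.find hex ≤ d1 := Nat.find_le ⟨h2, h3⟩
  refine ⟨Nat.find hex, hle, hle.trans h1, (Nat.find_spec hex).1, (Nat.find_spec hex).2, ?_⟩
  intro t ht1 ht2 hw
  exact Nat.find_min hex ht2 ⟨ht1, hw⟩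

theorem endAt_iff (hW : Walls D.Wo D.n W) {P Q : List A} {d : ℕ} (hP : P.length + D.n ≤ D.z) :
    D.EndAt P.length Q d ↔ d ≤ Q.length ∧ P ++ Q.take d ∈ D.XX := by
  constructor
  · rintro ⟨h1, h2, h3, h4⟩
    refine ⟨h1, ?_, ?_, ?_⟩
    · rw [List.length_append, List.length_take]; omega
    · exact (hW.loc _ _ (by rw [List.length_take]; omega)).2 h3
    · intro t ht1 ht2
      rw [List.length_append, List.length_take, min_eq_left h1] at ht2
      obtain ⟨t', rfl⟩ : ∃ t', t = P.length + t' := ⟨t - P.length, by omega⟩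
      rw [take_wo hW (by omega) (by rw [List.length_take]; omega), List.take_take,
        min_eq_left (by omega)]
      exact h4 t' ht1 (by omega)
  · rintro ⟨h1, h2, h3, h4⟩
    rw [List.length_append, List.length_take, min_eq_left h1] at h2 h4
    refine ⟨h1, h2, (hW.loc _ _ (by rw [List.length_take]; omega)).1 h3, ?_⟩
    intro t ht1 ht2 hw
    refine h4 (P.length + t) ht1 (by omega) ?_
    rw [take_wo hW (by omega) (by rw [List.length_take]; omega), List.take_take,
      min_eq_left (by omega)]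
    exact hw

/-- prefix code -/
theorem XX_code {X Y : List A} (hX : X ∈ D.XX) (hXY : X ++ Y ∈ D.XX) : Y = [] := by
  by_contra hY
  have hl : 0 < Y.length := List.length_pos_iff.2 hY
  refine hXY.2.2 X.length hX.1 (by rw [List.length_append]; omega) ?_
  rw [List.take_left]
  exact hX.2.1

theorem XX_nil (hz : 0 < D.z) : ([] : List A) ∉ D.XX := fun h => by
  have := h.1
  simp at this
  omega

/-- what the gadget of scheme 1 gives -/
structure G1 (D : Dat A S V) (N' : ℕ) : Prop where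
  len : ∀ p v, D.lam1 p = some v → p.length ≤ D.N
  ex : ∀ p q v r, D.lam1 p = some v → D.rho1 q = some r → r = D.M1 v (p ++ q)
  cp : ∀ u : List A, N' ≤ u.length → ¬ D.BadT u.length → ∀ v, ∃ p q, p ++ q = u ∧
    D.lam1 p = some v ∧ (D.rho1 q).isSome

/-- soundness of scheme 1, form of 163's top -/
theorem s1 {N' : ℕ} (hW : Walls D.Wo D.n W) (hG : G1 D N') (hz : D.p0 + D.N + D.n ≤ D.z)
    (P : List A) (v : V) (Q : List A) (b : V) (hP : D.LP1 P v) (hQ : D.R1 Q = some b) :
    P ++ Q ∈ D.XX ∧ D.T v (P ++ Q) = b := by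
  obtain ⟨hP1, hP2⟩ := hP
  have hlen := hG.len _ _ hP2
  rw [List.length_drop] at hlen
  unfold Dat.R1 at hQ
  split_ifs at hQ with hR
  obtain ⟨hR1, hR2, hR3⟩ := hR
  have hnQ := hW.len _ hR2
  refine ⟨⟨?_, (hW.loc _ _ hnQ).2 hR2, ?_⟩, ?_⟩
  · rw [List.length_append]; omega
  · intro t ht1 ht2
    rw [List.length_append] at ht2
    obtain ⟨t', rfl⟩ : ∃ t', t = P.length + t' := ⟨t - P.length, by omega⟩
    rw [take_wo hW (by omega) (by omega)]
    exact hR3 t' (by omega) (by omega)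
  · have h1 : (P ++ Q).take D.p0 = P.take D.p0 := List.take_append_of_le_length hP1
    have h2 : (P ++ Q).drop D.p0 = P.drop D.p0 ++ Q := List.drop_append_of_le_length hP1
    unfold Dat.T
    rw [h1, h2]
    exact (hG.ex _ _ _ _ hP2 hQ).symm

/-- completeness of scheme 1 off the failure modes -/
theorem cc1 {N' : ℕ} (hW : Walls D.Wo D.n W) (hG : G1 D N') (hz : D.p0 + D.N + D.n ≤ D.z)
    (hz' : N' + D.p0 ≤ D.z) (X : List A) (hX : X ∈ D.XX) (hb : ¬ D.BadX X) (v : V) :
    ∃ P Q, X = P ++ Q ∧ D.p0 ≤ P.length ∧ D.LP1 P v ∧ (D.R1 Q).isSome := by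
  have hb1 : ∀ t, D.z ≤ t + D.N → t < D.z → ¬ D.Wo (X.take t) :=
    fun t h1 h2 h3 => hb (Or.inl ⟨t, h1, h2, h3⟩)
  have hb2 : D.z + D.N ≤ X.length := by
    by_contra h
    exact hb (Or.inr (Or.inl (by omega)))
  have hb3 : ¬ D.BadT (X.length - D.p0) := fun h => hb (Or.inr (Or.inr h))
  have hXz := hX.1
  have hdl : (X.drop D.p0).length = X.length - D.p0 := List.length_drop
  obtain ⟨p, q, hpq, hp, hq⟩ := hG.cp (X.drop D.p0) (by rw [hdl]; omega) (by rw [hdl]; exact hb3)
    (D.M0 v (X.take D.p0))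
  have hlp := hG.len _ _ hp
  have hlq : p.length + q.length = X.length - D.p0 := by
    rw [← hdl, ← hpq, List.length_append]
  have hX0 : (X.take D.p0).length = D.p0 := by rw [List.length_take]; omega
  have hXe : X = (X.take D.p0 ++ p) ++ q := by
    rw [List.append_assoc, hpq, List.take_append_drop]
  have hPl : (X.take D.p0 ++ p).length = D.p0 + p.length := by rw [List.length_append, hX0]
  refine ⟨X.take D.p0 ++ p, q, hXe, by omega, ⟨by omega, ?_⟩, ?_⟩
  · have h1 : (X.take D.p0 ++ p).drop D.p0 = p := by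
      conv_lhs => rw [← hX0]
      rw [hX0]
      rw [List.drop_append_of_le_length (by omega)]
      have : (X.take D.p0).drop D.p0 = [] := List.drop_eq_nil_of_le (by omega)
      rw [this, List.nil_append]
    have h2 : (X.take D.p0 ++ p).take D.p0 = X.take D.p0 := by
      rw [List.take_append_of_le_length (by omega), List.take_take, min_self]
    rw [h1, h2]
    exact hp
  · have hRL : D.RL q := by
      refine ⟨by omega, ?_, ?_⟩
      · have := hX.2.1
        rw [hXe] at this
        exact (hW.loc _ _ (by omega)).1 this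
      · intro t ht1 ht2 hw
        have hw' : D.Wo (X.take ((X.take D.p0 ++ p).length + t)) := by
          have h3 := (take_wo hW (P := X.take D.p0 ++ p) (Q := q) (t := t) (by omega)
            (by omega)).2 hw
          generalize hL : (X.take D.p0 ++ p).length + t = L at h3 ⊢
          rw [hXe]
          exact h3
        rcases Nat.lt_or_ge ((X.take D.p0 ++ p).length + t) D.z with h | h
        · exact hb1 _ (by omega) h hw'
        · exact hX.2.2 _ h (by omega) hw'
    unfold Dat.R1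
    rw [if_pos hRL]
    exact hq

/-- what the exact gadget of scheme 2 gives -/
structure G2 (D : Dat A S V) (R : ℕ) : Prop where
  ex : ∀ k < D.K, ∀ (P Q : List A) (v r : V), P.length = D.c k → D.lam2 k P = some v →
    D.rho2 k Q = some r → r = D.M0 v (P ++ Q)
  cp : ∀ (u : List A) (v : V), (∀ k < D.K, D.c k ≤ u.length) → ∃ I : Finset ℕ, R ≤ I.card ∧
    ∀ k ∈ I, k < D.K ∧ D.lam2 k (u.take (D.c k)) = some v ∧ (D.rho2 k (u.drop (D.c k))).isSome

/-- badness of a block read from a place inside -/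
theorem badAt_iff (hW : Walls D.Wo D.n W) {P Q : List A} {d : ℕ} 
    (hP : P.length + D.N + D.n ≤ D.z) (hd : D.EndAt P.length Q d)
    (hX : D.BadX (P ++ Q.take d)) : D.BadAt P.length Q := by
  refine ⟨d, hd, ?_⟩
  have hl : (P ++ Q.take d).length = P.length + d := by
    rw [List.length_append, List.length_take, min_eq_left hd.1]
  rcases hX with ⟨t, h1, h2, h3⟩ | h | h
  · left
    have h4 := hd.2.1
    refine ⟨t - P.length, by omega, by omega, ?_⟩
    obtain ⟨t', rfl⟩ : ∃ t', t = P.length + t' := ⟨t - P.length, by omega⟩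
    rw [Nat.add_sub_cancel_left]
    rw [take_wo hW (by omega) (by rw [List.length_take, min_eq_left hd.1]; omega),
      List.take_take, min_eq_left (by omega)] at h3
    exact h3
  · right; left
    omega
  · right; right
    rw [hl] at h
    exact h

/-- soundness of scheme 2, form of 163's top -/
theorem s2 {N' R : ℕ} (hW : Walls D.Wo D.n W) (hG : G1 D N') (hG2 : G2 D R)
    (hz : D.p0 + D.N + D.n ≤ D.z) (hz' : N' + D.p0 ≤ D.z) (hz0 : 0 < D.z - D.p0)
    (hc : ∀ k < D.K, D.c k ≤ D.p0)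
    (P : List A) (v : V) (Q : List A) (b : V) (hP : D.LP2 P v) (hQ : D.R2 Q = some b)
    (hun : ∀ X ∈ D.XX, X <+: P ++ Q → ∀ P' Q', X = P' ++ Q' → P.length ≤ P'.length →
      D.LP1 P' v → (D.R1 Q').isSome → False) :
    ∃ Q1 X2, Q = Q1 ++ X2 ∧ Q1 ≠ [] ∧ P ++ Q1 ∈ D.XX ∧ X2 ∈ D.XX ∧
      D.T (D.T v (P ++ Q1)) X2 = b := by
  obtain ⟨k0, hk0, hPk, hlam⟩ := hP
  have hck := hc k0 hk0
  unfold Dat.R2 at hQ
  split_ifs at hQ with hex
  have hb := hex.choose_spec
  rw [Option.some.inj hQ] at hb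
  obtain ⟨k, hk, hbad, huniq, d, r, hd, hrho, hX2, hb'⟩ := hb
  -- the true block ends inside `Q`
  have hQl : (Q.drop d).length = Q.length - d := List.length_drop
  have hX2z := hX2.1
  have hXl := hd.2.1
  have hdle := hd.1
  rw [hQl] at hX2z
  have hWQ : D.Wo (Q.take Q.length) := by
    rw [List.take_length]
    have := hX2.2.1
    have h5 : Q = Q.take d ++ Q.drop d := (List.take_append_drop d Q).symm
    rw [h5]
    exact (hW.loc _ _ (by rw [hQl]; omega)).2 this
  obtain ⟨d0, hd0le, hd0⟩ := EndAt.exists (D := D) (s := P.length) (le_refl Q.length) (by omega) hWQ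
  have hX0 := ((endAt_iff hW (P := P) (Q := Q) (d := d0) (by omega)).1 hd0).2
  have hbX : D.BadX (P ++ Q.take d0) := by
    by_contra hnb
    obtain ⟨P', Q', h1, h2, h3, h4⟩ := cc1 hW hG hz hz' _ hX0 hnb v
    refine hun _ hX0 ?_ P' Q' h1 (by omega) h3 h4
    exact (List.prefix_append_right_inj P).2 (List.take_prefix d0 Q)
  have hbA := badAt_iff hW (by omega) hd0 hbX
  rw [hPk] at hbA hd0
  have hkk : k0 = k := huniq k0 hk0 hbA
  subst hkk
  have hdd : d0 = d := EndAt.unique hd0 hd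
  subst hdd
  refine ⟨Q.take d0, Q.drop d0, (List.take_append_drop d0 Q).symm, ?_, hX0, hX2, ?_⟩
  · intro h0
    have : (Q.take d0).length = 0 := by rw [h0]; rfl
    rw [List.length_take] at this
    omega
  · have hr := hG2.ex k0 hk0 P (Q.take (D.p0 - D.c k0)) v r hPk hlam hrho
    have e1 : (P ++ Q.take d0).take D.p0 = P ++ Q.take (D.p0 - D.c k0) := by
      rw [List.take_append, List.take_of_length_le (by omega), List.take_take, hPk,
        min_eq_left (by omega)]
    have e2 : (P ++ Q.take d0).drop D.p0 = (Q.take d0).drop (D.p0 - D.c k0) := by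
      rw [List.drop_append, List.drop_eq_nil_of_le (by omega), List.nil_append, hPk]
    have e3 : D.T v (P ++ Q.take d0) = D.M1 r ((Q.take d0).drop (D.p0 - D.c k0)) := by
      unfold Dat.T
      rw [e1, e2, ← hr]
    rw [e3, hb']

/-- first wall `≥ m` of `U` -/
def FW (D : Dat A S V) (U : List A) (m t : ℕ) : Prop :=
  t ≤ U.length ∧ m ≤ t ∧ D.Wo (U.take t) ∧ ∀ t', m ≤ t' → t' < t → ¬ D.Wo (U.take t')

/-- the ruler of scheme 2 -/
structure Ruler1 (D : Dat A S V) (N' C0 : ℕ) : Prop where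
  res : ∀ a b c d, a < D.K → b < D.K → c < D.K → d < D.K → a ≠ b → c ≠ d →
    D.c a + D.c d ≤ D.c c + D.c b + 2 * D.N → D.c c + D.c b ≤ D.c a + D.c d + 2 * D.N →
    a = c ∧ b = d
  spoil : ∀ T, N' ≤ T → ∀ I : Finset (ℕ × ℕ), (∀ ab ∈ I, ab.1 < D.K ∧ ab.2 < D.K ∧
    ab.1 ≠ ab.2 ∧ D.BadT (T + D.c ab.1 - D.c ab.2)) → I.card ≤ C0

theorem wall_eq (hW : Walls D.Wo D.n W) {U : List A} {s t : ℕ} (hs : D.Wo (U.take s))
    (ht : D.Wo (U.take t)) (hs' : s ≤ U.length) (ht' : t ≤ U.length) (h1 : s ≤ t + W)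
    (h2 : t ≤ s + W) : s = t := by
  rcases lt_trichotomy s t with h | h | h
  · exact (hW.gap U s t h h2 ht' hs ht).elim
  · exact h
  · exact (hW.gap U t s h h1 hs' ht hs).elim

theorem badAt_conv (hW : Walls D.Wo D.n W) (hz : D.p0 + D.N + D.n ≤ D.z) (hz2 : 2 * D.p0 ≤ D.z)
    (hc : ∀ k < D.K, D.c k ≤ D.p0) {U : List A} {k k' : ℕ} (hk : k < D.K) (hk' : k' < D.K)
    (hU : D.c k ≤ U.length) (h : D.BadAt (D.c k') (U.drop (D.c k))) :
    (∃ w, w ≤ U.length ∧ D.z + D.c k ≤ D.c k' + w + D.N ∧ D.c k' + w ≤ D.z + D.c k + D.N ∧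
      D.Wo (U.take w)) ∨
    ∃ t, FW D U (D.z + D.c k - D.c k') t ∧ D.BadT ((t - D.p0) + D.c k' - D.c k) := by
  obtain ⟨d, hd, hor⟩ := h
  obtain ⟨hd1, hd2, hd3, hd4⟩ := hd
  have hck := hc k hk
  have hck' := hc k' hk'
  rw [List.length_drop] at hd1
  have hw : D.Wo (U.take (D.c k + d)) :=
    (take_wo' hW (U := U) (s := D.c k) (t := d) hU (by omega) (by omega)).2 hd3
  rcases hor with ⟨t, h1, h2, h3⟩ | h | h
  · left
    refine ⟨D.c k + t, by omega, by omega, by omega, ?_⟩
    exact (take_wo' hW (U := U) (s := D.c k) (t := t) hU (by omega) (by omega)).2 h3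
  · left
    exact ⟨D.c k + d, by omega, by omega, by omega, hw⟩
  · right
    refine ⟨D.c k + d, ⟨by omega, by omega, hw, ?_⟩, ?_⟩
    · intro t' ht1 ht2 hw'
      obtain ⟨t'', rfl⟩ : ∃ t'', t' = D.c k + t'' := ⟨t' - D.c k, by omega⟩
      exact hd4 t'' (by omega) (by omega)
        ((take_wo' hW (U := U) (s := D.c k) (t := t'') hU (by omega) (by omega)).1 hw')
    · have e : (D.c k + d - D.p0) + D.c k' - D.c k = D.c k' + d - D.p0 := by omega
      rw [e]
      exact h

/-- the spoiling count -/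
theorem spoiled {N' C0 : ℕ} (hW : Walls D.Wo D.n W) (hz : D.p0 + D.N + D.n ≤ D.z)
    (hz' : N' + 2 * D.p0 ≤ D.z) (hWW : 2 * (D.p0 + D.N) ≤ W)
    (hc : ∀ k < D.K, D.c k ≤ D.p0) (hR : Ruler1 D N' C0) (U : List A) (hU : D.p0 ≤ U.length)
    (I : Finset ℕ) (hI : ∀ k ∈ I, k < D.K ∧ ∃ k' < D.K, k' ≠ k ∧
      D.BadAt (D.c k') (U.drop (D.c k))) : I.card ≤ 1 + 2 * C0 := by
  classical
  have hch : ∀ k, ∃ k', k ∈ I → k < D.K ∧ k' < D.K ∧ k' ≠ k ∧
      D.BadAt (D.c k') (U.drop (D.c k)) := by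
    intro k
    by_cases hk : k ∈ I
    · obtain ⟨h1, k', h2, h3, h4⟩ := hI k hk
      exact ⟨k', fun _ => ⟨h1, h2, h3, h4⟩⟩
    · exact ⟨0, fun h => absurd h hk⟩
  choose g hg using hch
  let PE : ℕ → Prop := fun k => ∃ w, w ≤ U.length ∧ D.z + D.c k ≤ D.c (g k) + w + D.N ∧
    D.c (g k) + w ≤ D.z + D.c k + D.N ∧ D.Wo (U.take w)
  let PB1 : ℕ → Prop := fun k => ∃ t, FW D U (D.z + D.c k - D.c (g k)) t ∧
    t ≤ D.z + D.p0 + D.N ∧ D.BadT ((t - D.p0) + D.c (g k) - D.c k)
  let PB2 : ℕ → Prop := fun k => ∃ t, FW D U (D.z + D.c k - D.c (g k)) t ∧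
    D.z + D.p0 + D.N < t ∧ D.BadT ((t - D.p0) + D.c (g k) - D.c k)
  have hcov : I ⊆ I.filter PE ∪ I.filter PB1 ∪ I.filter PB2 := by
    intro k hk
    obtain ⟨h1, h2, h3, h4⟩ := hg k hk
    have hck := hc k h1
    simp only [Finset.mem_union, Finset.mem_filter]
    rcases badAt_conv hW hz (by omega) hc h1 h2 (by omega) h4 with h | ⟨t, ht1, ht2⟩
    · exact Or.inl (Or.inl ⟨hk, h⟩)
    · rcases Nat.lt_or_ge (D.z + D.p0 + D.N) t with h | h
      · exact Or.inr ⟨hk, t, ht1, h, ht2⟩
      · exact Or.inl (Or.inr ⟨hk, t, ht1, h, ht2⟩)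
  have hE : (I.filter PE).card ≤ 1 := by
    rw [Finset.card_le_one]
    intro a ha b hb
    obtain ⟨ha1, w1, hw1, h11, h12, h13⟩ := Finset.mem_filter.1 ha
    obtain ⟨hb1, w2, hw2, h21, h22, h23⟩ := Finset.mem_filter.1 hb
    obtain ⟨a1, a2, a3, -⟩ := hg a ha1
    obtain ⟨b1, b2, b3, -⟩ := hg b hb1
    have ca := hc a a1
    have ca' := hc _ a2
    have cb := hc b b1
    have cb' := hc _ b2
    have hww : w1 = w2 := wall_eq hW h13 h23 hw1 hw2 (by omega) (by omega)
    subst hww
    exact (hR.res a (g a) b (g b) a1 a2 b1 b2 a3.symm b3.symm (by omega) (by omega)).1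
  have key : ∀ J : Finset ℕ, J ⊆ I → ∀ T, N' ≤ T →
      (∀ k ∈ J, D.BadT (T + D.c (g k) - D.c k)) → J.card ≤ C0 := by
    intro J hJ T hT hb
    have h1 : (J.image fun k => (g k, k)).card = J.card := by
      apply Finset.card_image_of_injective
      intro a b hab
      exact (Prod.mk.inj hab).2
    rw [← h1]
    apply hR.spoil T hT
    intro ab hab
    obtain ⟨k, hk, rfl⟩ := Finset.mem_image.1 hab
    obtain ⟨a1, a2, a3, -⟩ := hg k (hJ hk)
    exact ⟨a2, a1, a3, hb k hk⟩
  have hB1 : (I.filter PB1).card ≤ C0 := by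
    rcases (I.filter PB1).eq_empty_or_nonempty with h0 | ⟨k1, hk1⟩
    · rw [h0]; simp
    · obtain ⟨hk1I, t1, ht1, ht1', -⟩ := Finset.mem_filter.1 hk1
      obtain ⟨a1, a2, a3, -⟩ := hg k1 hk1I
      have ca := hc k1 a1
      have ca' := hc _ a2
      have hm1 := ht1.2.1
      refine key _ (Finset.filter_subset _ _) (t1 - D.p0) (by omega) ?_
      intro k hk
      obtain ⟨hkI, t, ht, ht', hbt⟩ := Finset.mem_filter.1 hk
      obtain ⟨b1, b2, b3, -⟩ := hg k hkI
      have cb := hc k b1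
      have cb' := hc _ b2
      have hm := ht.2.1
      have : t1 = t := wall_eq hW ht1.2.2.1 ht.2.2.1 ht1.1 ht.1 (by omega) (by omega)
      rw [this]
      exact hbt
  have hB2 : (I.filter PB2).card ≤ C0 := by
    rcases (I.filter PB2).eq_empty_or_nonempty with h0 | ⟨k1, hk1⟩
    · rw [h0]; simp
    · obtain ⟨hk1I, t1, ht1, ht1', -⟩ := Finset.mem_filter.1 hk1
      obtain ⟨a1, a2, a3, -⟩ := hg k1 hk1I
      have ca := hc k1 a1
      have ca' := hc _ a2
      refine key _ (Finset.filter_subset _ _) (t1 - D.p0) (by omega) ?_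
      intro k hk
      obtain ⟨hkI, t, ht, ht', hbt⟩ := Finset.mem_filter.1 hk
      obtain ⟨b1, b2, b3, -⟩ := hg k hkI
      have cb := hc k b1
      have cb' := hc _ b2
      have : t1 = t := by
        rcases lt_trichotomy t1 t with h | h | h
        · exact (ht.2.2.2 t1 (by omega) h ht1.2.2.1).elim
        · exact h
        · exact (ht1.2.2.2 t (by omega) h ht.2.2.1).elim
      rw [this]
      exact hbt
  have h1 := Finset.card_le_card hcov
  have h2 := Finset.card_union_le (I.filter PE ∪ I.filter PB1) (I.filter PB2)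
  have h3 := Finset.card_union_le (I.filter PE) (I.filter PB1)
  omega

/-- completeness of the two schemes, form of 163's top -/
theorem cc {N' C0 : ℕ} (hW : Walls D.Wo D.n W) (hG : G1 D N') (hG2 : G2 D (2 + 2 * C0))
    (hz : D.p0 + D.N + D.n ≤ D.z) (hz' : N' + 2 * D.p0 ≤ D.z) (hz0 : D.p0 < D.z)
    (hWW : 2 * (D.p0 + D.N) ≤ W) (hc : ∀ k < D.K, D.c k ≤ D.p0) (hR : Ruler1 D N' C0)
    (X : List A) (hX : X ∈ D.XX) (X2 : List A) (hX2 : X2 ∈ D.XX) (v : V) :
    (∃ P Q, X = P ++ Q ∧ D.LP1 P v ∧ (D.R1 Q).isSome) ∨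
    (∃ P Q, X ++ X2 = P ++ Q ∧ P.length < X.length ∧ D.LP2 P v ∧ (D.R2 Q).isSome) := by
  classical
  by_cases hb : D.BadX X
  swap
  · left
    obtain ⟨P, Q, h1, -, h3, h4⟩ := cc1 hW hG hz (by omega) X hX hb v
    exact ⟨P, Q, h1, h3, h4⟩
  right
  have hXz := hX.1
  have hX0 : (X.take D.p0).length = D.p0 := by rw [List.length_take]; omega
  obtain ⟨I, hIc, hI⟩ := hG2.cp (X.take D.p0) v (fun k hk => by rw [hX0]; exact hc k hk)
  -- an unspoiled place
  obtain ⟨k, hkI, hkn⟩ : ∃ k ∈ I, ¬ ∃ k' < D.K, k' ≠ k ∧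
      D.BadAt (D.c k') ((X ++ X2).drop (D.c k)) := by
    by_contra hcon
    push Not at hcon
    have := spoiled hW hz hz' hWW hc hR (X ++ X2) (by rw [List.length_append]; omega) I
      (fun k hk => ⟨(hI k hk).1, hcon k hk⟩)
    omega
  obtain ⟨hk, hlam, hrho⟩ := hI k hkI
  have hck := hc k hk
  have hlk : (X.take (D.c k)).length = D.c k := by rw [List.length_take]; omega
  have hXe : X ++ X2 = X.take (D.c k) ++ (X.drop (D.c k) ++ X2) := by
    rw [← List.append_assoc, List.take_append_drop]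
  have hdr : (X ++ X2).drop (D.c k) = X.drop (D.c k) ++ X2 :=
    List.drop_append_of_le_length (by omega)
  have hdl : (X.drop (D.c k)).length = X.length - D.c k := List.length_drop
  rw [hdr] at hkn
  refine ⟨X.take (D.c k), X.drop (D.c k) ++ X2, hXe, by omega, ⟨k, hk, hlk, ?_⟩, ?_⟩
  · rw [List.take_take, min_eq_left hck] at hlam
    exact hlam
  · -- the block ends at `X.length - c k`
    have hE : D.EndAt (D.c k) (X.drop (D.c k) ++ X2) (X.length - D.c k) := by
      have h := (endAt_iff hW (P := X.take (D.c k)) (Q := X.drop (D.c k) ++ X2)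
        (d := X.length - D.c k) (by omega)).2 ⟨by rw [List.length_append]; omega, by
          rw [List.take_append_of_le_length (by omega), ← hdl, List.take_length,
            List.take_append_drop]
          exact hX⟩
      rw [hlk] at h
      exact h
    have hbA : D.BadAt (D.c k) (X.drop (D.c k) ++ X2) := by
      have h := badAt_iff hW (P := X.take (D.c k)) (Q := X.drop (D.c k) ++ X2)
        (d := X.length - D.c k) (by omega) (by rw [hlk]; exact hE) (by
          rw [List.take_append_of_le_length (by omega), ← hdl, List.take_length,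
            List.take_append_drop]
          exact hb)
      rw [hlk] at h
      exact h
    obtain ⟨r, hr⟩ := Option.isSome_iff_exists.1 hrho
    have hex : ∃ b, D.R2r (X.drop (D.c k) ++ X2) b := by
      refine ⟨_, k, hk, hbA, ?_, X.length - D.c k, r, hE, ?_, ?_, rfl⟩
      · intro k' hk' hb'
        by_contra hne
        exact hkn ⟨k', hk', hne, hb'⟩
      · rw [List.take_append_of_le_length (by omega)]
        rw [List.drop_take] at hr
        exact hr
      · rw [List.drop_append, List.drop_eq_nil_of_le (by omega), List.nil_append, hdl,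
          Nat.sub_self, List.drop_zero]
        exact hX2
    unfold Dat.R2
    rw [dif_pos hex]
    rfl

end

end Crest.Agent.R320.Glue_593
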