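import Crest.Agent.R320.Top5_163
import Crest.Agent.R320.Glue_593
import Crest.Agent.R320.G1_852
import Crest.Agent.R320.Spoil_398
import Crest.Agent.R320.ExactR_237
import Crest.Agent.R320.WallU_228
import Crest.Agent.R320.P4_911
import Crest.Agent.R320.Block_467

/-!
# Row 320: the join (helper593)

163's top + 593's glue + 852's gadget + 398's ruler + 237's exact gadget + 228's walls + 911's
regularity calculus.
-/

set_option autoImplicit false
set_option linter.unusedSectionVars false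

namespace Crest.Agent.R320.Fin_593

open Crest.RegLang Crest.Agent.R320.Hk_851 Crest.Agent.R320.P4_911 Crest.Agent.R320.Glue_593

section RegLemmas

variable {A S : Type} [Finite A]

theorem reg_fs [Monoid S] [Finite S] {β : Type} (g : List A → β) (c m : ℕ) (hm : 0 < m) (f : A → S)
    (h : ∀ Q Q' : List A, Q.take c = Q'.take c →
      ((Q.drop c).map f).prod = ((Q'.drop c).map f).prod →
      Q.length % m = Q'.length % m → g Q = g Q') (b : β) :
    Reg (fun Q => g Q = b) := by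
  refine (Reg.cls f c m hm (fun τ s j => ∃ Q' : List A, Q'.take c = τ ∧
    ((Q'.drop c).map f).prod = s ∧ Q'.length % m = j ∧ g Q' = b)).congr fun Q => ?_
  constructor
  · intro h1
    exact ⟨Q, rfl, rfl, rfl, h1⟩
  · rintro ⟨Q', h1, h2, h3, h4⟩
    rw [← h4]
    exact h Q Q' h1.symm h2.symm h3.symm

theorem reg_len {m : ℕ} (hm : 0 < m) {P : ℕ → Prop} (hP : ∀ n, P (n % m) ↔ P n) (s p : ℕ) :
    Reg (fun w : List A => P (s + w.length - p)) := by
  have h1 : Reg (fun w : List A => P (s + w.length)) := by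
    refine (Reg.exLt (N := m) (P := fun j (w : List A) => w.length % m = j ∧ P (s + j))
      fun j _ => (Reg.length_mod m j hm).and (Reg.const _)).congr fun w => ?_
    have key : P (s + w.length) ↔ P (s + w.length % m) := by
      rw [← hP (s + w.length), ← hP (s + w.length % m), Nat.add_mod_mod]
    constructor
    · intro h
      exact ⟨_, Nat.mod_lt _ hm, rfl, key.1 h⟩
    · rintro ⟨j, _, rfl, h⟩
      exact key.2 h
  have h2 : Reg (fun w : List A => w.length < p ∧ P (s + w.length - p)) :=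
    Reg.of_HL (k := 0) (HL.finite
      ((List.finite_length_lt A p).subset fun w (hw : w.length < p ∧ _) => hw.1))
  refine (h2.or ((Reg.length_ge p).and (Reg.drop p h1))).congr fun w => ?_
  have e : p ≤ w.length → s + (w.drop p).length = s + w.length - p := by
    intro h
    rw [List.length_drop]; omega
  constructor
  · intro h
    rcases Nat.lt_or_ge w.length p with h3 | h3
    · exact Or.inl ⟨h3, h⟩
    · right
      refine ⟨h3, ?_⟩
      rw [e h3]; exact h
  · rintro (⟨_, h⟩ | ⟨h3, h⟩)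
    · exact h
    · rw [e h3] at h; exact h

end RegLemmas

theorem badT_mod {Ms : Finset ℕ} {M b m : ℕ} (hMs : ∀ k ∈ Ms, k ∣ M) (n : ℕ) :
    Spoil_398.BadT Ms M b m (n % (M * b ^ m)) ↔ Spoil_398.BadT Ms M b m n := by
  unfold Spoil_398.BadT
  have h1 : ∀ k ∈ Ms, (k ∣ n % (M * b ^ m) ↔ k ∣ n) := by
    intro k hk
    exact Nat.dvd_mod_iff ((hMs k hk).trans (dvd_mul_right _ _))
  have h2 : ∀ j < m, (n % (M * b ^ m)) / b ^ j % b = n / b ^ j % b := by
    intro j hj
    have hd : b ^ j * b ∣ M * b ^ m := by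
      rw [← pow_succ]
      exact (pow_dvd_pow b hj).trans (dvd_mul_left _ _)
    rw [← Nat.mod_mul_right_div_self, ← Nat.mod_mul_right_div_self,
      Nat.mod_mod_of_dvd _ hd]
  constructor
  · rintro (⟨k, hk, h⟩ | ⟨j, hj, h⟩)
    · exact Or.inl ⟨k, hk, (h1 k hk).1 h⟩
    · rw [h2 j hj] at h
      exact Or.inr ⟨j, hj, h⟩
  · rintro (⟨k, hk, h⟩ | ⟨j, hj, h⟩)
    · exact Or.inl ⟨k, hk, (h1 k hk).2 h⟩
    · refine Or.inr ⟨j, hj, ?_⟩
      rw [h2 j hj]
      exact h

section Langs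

variable {A S V : Type} [Finite A] [Monoid S] [Finite S] [AddCommGroup V] [Finite V]
  {D : Dat A S V} {SS : Set (List A)}

theorem reg_M1 {f : A → S} (hφ : ∀ w, D.φ w = (w.map f).prod)
    (hnu : ∀ a, Reg (fun Y => D.nu1 Y = a)) (u v' : V) : Reg (fun Y => D.M1 u Y = v') := by
  have h := Reg.ex (ι := S) fun s => Reg.ex (ι := V) fun a =>
    ((Reg.prod f s).and (hnu a)).and (Reg.const (D.act u s + a = v'))
  refine h.congr fun Y => ?_
  unfold Dat.M1
  rw [hφ]
  constructor
  · intro h; exact ⟨_, _, ⟨rfl, rfl⟩, h⟩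
  · rintro ⟨s, a, ⟨rfl, rfl⟩, h⟩; exact h

theorem reg_T {f : A → S} (hφ : ∀ w, D.φ w = (w.map f).prod)
    (hnu : ∀ a, Reg (fun Y => D.nu1 Y = a)) (v v' : V) : Reg (fun X => D.T v X = v') := by
  have h := Reg.ex (ι := V) fun u =>
    (Reg.take D.p0 (fun P => D.M0 v P = u)).and (Reg.drop D.p0 (reg_M1 hφ hnu u v'))
  refine h.congr fun X => ?_
  unfold Dat.T
  constructor
  · intro h; exact ⟨_, rfl, h⟩
  · rintro ⟨u, rfl, h⟩; exact h

theorem mem_XX (hWo : D.Wo = P4_911.Wo D.n SS) (X : List A) : X ∈ D.XX ↔ FB D.n SS D.z X := by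
  unfold Dat.XX FB
  rw [hWo]
  exact Iff.rfl

theorem endAt_FB (hWo : D.Wo = P4_911.Wo D.n SS) {s : ℕ} {Q : List A} {d : ℕ} :
    D.EndAt s Q d ↔ d ≤ Q.length ∧ FB D.n SS (D.z - s) (Q.take d) := by
  unfold Dat.EndAt FB
  rw [hWo]
  constructor
  · rintro ⟨h1, h2, h3, h4⟩
    have hl : (Q.take d).length = d := by rw [List.length_take]; omega
    rw [hl]
    refine ⟨h1, by omega, h3, fun t ht1 ht2 => ?_⟩
    rw [List.take_take, min_eq_left (by omega)]
    exact h4 t (by omega) ht2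
  · rintro ⟨h1, h2, h3, h4⟩
    have hl : (Q.take d).length = d := by rw [List.length_take]; omega
    rw [hl] at h2 h4
    refine ⟨h1, by omega, h3, fun t ht1 ht2 => ?_⟩
    have := h4 t (by omega) ht2
    rw [List.take_take, min_eq_left (by omega)] at this
    exact this

theorem reg_BadAt (hWo : D.Wo = P4_911.Wo D.n SS)
    (hB : ∀ s, Reg (fun w : List A => D.BadT (s + w.length - D.p0))) (s : ℕ) :
    Reg (fun Q => D.BadAt s Q) := by
  have h1 : Reg (fun Q1 : List A => ∃ t < D.z, (D.z ≤ s + t + D.N ∧ s + t < D.z) ∧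
      D.Wo (Q1.take t)) :=
    Reg.exLt fun t _ => (Reg.const _).and (Reg.take t D.Wo)
  have h2 : Reg (fun Q1 : List A => s + Q1.length < D.z + D.N) := by
    refine ((Reg.length_lt (D.z + D.N - s)).and (Reg.const (s < D.z + D.N))).congr fun w => ?_
    constructor
    · intro h; exact ⟨by omega, by omega⟩
    · rintro ⟨h, h'⟩; omega
  refine (reg_Dl (n := D.n) (S := SS) (D.z - s) (h1.or (h2.or (hB s)))).congr fun Q => ?_
  constructor
  · rintro ⟨d, hd, h⟩
    have hd' := (endAt_FB hWo).1 hd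
    have hl : (Q.take d).length = d := by rw [List.length_take]; omega
    have hzd := hd.2.1
    refine ⟨Q.take d, Q.drop d, (List.take_append_drop _ _).symm, hd'.2, ?_⟩
    rcases h with ⟨t, h3, h4, h5⟩ | h | h
    · left
      refine ⟨t, by omega, ⟨h3, h4⟩, ?_⟩
      rw [List.take_take, min_eq_left (by omega)]
      exact h5
    · right; left
      rw [hl]; exact h
    · right; right
      rw [hl]; exact h
  · rintro ⟨Q1, Q2, rfl, hF, h⟩
    have hd : D.EndAt s (Q1 ++ Q2) Q1.length := by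
      rw [endAt_FB hWo]
      refine ⟨by rw [List.length_append]; omega, ?_⟩
      rw [List.take_left]
      exact hF
    have hzd := hd.2.1
    refine ⟨Q1.length, hd, ?_⟩
    rcases h with ⟨t, _, ⟨h3, h4⟩, h5⟩ | h | h
    · left
      refine ⟨t, h3, h4, ?_⟩
      rw [List.take_append_of_le_length (by omega)]
      exact h5
    · exact Or.inr (Or.inl h)
    · exact Or.inr (Or.inr h)

theorem R2r_unique {Q : List A} {b b' : V} (h : D.R2r Q b) (h' : D.R2r Q b') : b = b' := by
  obtain ⟨k, hk, hbad, hun, d, r, hd, hr, hX, hb⟩ := h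
  obtain ⟨k', hk', hbad', hun', d', r', hd', hr', hX', hb'⟩ := h'
  have e1 : k' = k := hun k' hk' hbad'
  subst e1
  have e2 : d = d' := EndAt.unique hd hd'
  subst e2
  rw [hr] at hr'
  have e3 := Option.some.inj hr'
  subst e3
  rw [hb, hb']

theorem R2_iff {Q : List A} {b : V} : D.R2 Q = some b ↔ D.R2r Q b := by
  unfold Dat.R2
  constructor
  · intro h
    split_ifs at h with hex
    rw [← Option.some.inj h]
    exact hex.choose_spec
  · intro h
    have hex : ∃ b, D.R2r Q b := ⟨b, h⟩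
    rw [dif_pos hex]
    exact congrArg some (R2r_unique hex.choose_spec h)

theorem HL_XT (hWo : D.Wo = P4_911.Wo D.n SS) (hF : Few D.n SS) {f : A → S}
    (hφ : ∀ w, D.φ w = (w.map f).prod)
    (hnu : ∀ a, Reg (fun Y => D.nu1 Y = a)) (v v' : V) :
    HL 1 ({X | X ∈ D.XX ∧ D.T v X = v'} : Language A) :=
  (HL_FB hF D.z (reg_T hφ hnu v v')).congr fun X =>
    ⟨fun h => ⟨(mem_XX hWo X).1 h.1, h.2⟩, fun h => ⟨(mem_XX hWo X).2 h.1, h.2⟩⟩

theorem HL_NP (hWo : D.Wo = P4_911.Wo D.n SS) (hF : Few D.n SS) {f : A → S}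
    (hφ : ∀ w, D.φ w = (w.map f).prod) (s : S) :
    HL 1 ({r | (∀ X ∈ D.XX, ¬ X <+: r) ∧ D.φ r = s} : Language A) := by
  refine (HL_NX hF D.z (Reg.prod f s)).congr fun r => ?_
  constructor
  · rintro ⟨h1, h2⟩
    refine ⟨?_, by rw [← hφ]; exact h2⟩
    rintro X Y rfl hX
    exact h1 X ((mem_XX hWo X).2 hX) (List.prefix_append X Y)
  · rintro ⟨h1, h2⟩
    refine ⟨?_, by rw [hφ]; exact h2⟩
    rintro X hX ⟨Y, rfl⟩
    exact h1 X Y rfl ((mem_XX hWo X).1 hX)

theorem HL_L1 (hlen : ∀ p v, D.lam1 p = some v → p.length ≤ D.N) (v : V) :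
    HL 1 ({P | D.LP1 P v} : Language A) := by
  refine HL_left (D.p0 + D.N) fun P hP => ?_
  have := hlen _ _ hP.2
  rw [List.length_drop] at this
  omega

theorem HL_L2 (hc : ∀ k < D.K, D.c k ≤ D.p0) (v : V) :
    HL 1 ({P | D.LP2 P v} : Language A) := by
  refine HL_left D.p0 fun P hP => ?_
  obtain ⟨k, hk, h, _⟩ := hP
  rw [h]
  exact hc k hk

theorem HL_R1 (hWo : D.Wo = P4_911.Wo D.n SS) (hF : Few D.n SS)
    (hrho : ∀ a, Reg (fun Y => D.rho1 Y = a)) (b : V) :
    HL 1 ({Q | D.R1 Q = some b} : Language A) := by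
  refine (HL_FB hF (D.z - D.p0 - D.N) ((Reg.length_ge (D.z - D.p0)).and
    (hrho (some b)))).congr fun Q => ?_
  have e : D.RL Q ↔ FB D.n SS (D.z - D.p0 - D.N) Q ∧ D.z - D.p0 ≤ Q.length := by
    unfold Dat.RL FB
    rw [hWo]
    constructor
    · rintro ⟨h1, h2, h3⟩
      exact ⟨⟨by omega, h2, fun t h4 h5 => h3 t (by omega) h5⟩, by omega⟩
    · rintro ⟨⟨h1, h2, h3⟩, h4⟩
      exact ⟨by omega, h2, fun t h5 h6 => h3 t (by omega) h6⟩
  constructor
  · intro h
    change D.R1 Q = some b at h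
    unfold Dat.R1 at h
    split_ifs at h with hR
    exact ⟨(e.1 hR).1, (e.1 hR).2, h⟩
  · rintro ⟨h1, h2, h3⟩
    change D.R1 Q = some b
    unfold Dat.R1
    rw [if_pos (e.2 ⟨h1, h2⟩)]
    exact h3

theorem HL_exLt {N : ℕ} {P : ℕ → List A → Prop} (h : ∀ i < N, HL 1 ({w | P i w} : Language A)) :
    HL 1 ({w | ∃ i < N, P i w} : Language A) := by
  induction N with
  | zero =>
    refine (HL.const (k := 1) False).congr fun w => ?_
    constructor
    · rintro ⟨i, hi, _⟩; omega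
    · exact False.elim
  | succ N ih =>
    refine (HL.sup (ih fun i hi => h i (by omega)) (h N (by omega))).congr fun w => ?_
    constructor
    · rintro ⟨i, hi, hw⟩
      rcases Nat.lt_succ_iff_lt_or_eq.1 hi with h1 | rfl
      · exact Or.inl ⟨i, h1, hw⟩
      · exact Or.inr hw
    · rintro (⟨i, hi, hw⟩ | hw)
      · exact ⟨i, by omega, hw⟩
      · exact ⟨N, by omega, hw⟩

theorem exV {ι : Type} [Finite ι] {L : ι → Language A} (h : ∀ i, HL 1 (L i)) :
    HL 1 ({w | ∃ i, w ∈ L i} : Language A) :=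
  Hgt1_903.H.exists_fintype L h

theorem HL_R2 (hWo : D.Wo = P4_911.Wo D.n SS) (hF : Few D.n SS) {f : A → S}
    (hφ : ∀ w, D.φ w = (w.map f).prod) (hnu : ∀ a, Reg (fun Y => D.nu1 Y = a))
    (hB : ∀ s, Reg (fun w : List A => D.BadT (s + w.length - D.p0)))
    (hc : ∀ k < D.K, D.c k ≤ D.p0) (hz : D.p0 < D.z) (b : V) :
    HL 1 ({Q | D.R2 Q = some b} : Language A) := by
  have hall : ∀ k, Reg (fun Q => ∀ k' < D.K, D.BadAt (D.c k') Q → k' = k) := fun k =>
    Reg.allLt fun k' _ => (reg_BadAt hWo hB (D.c k')).imp (Reg.const _)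
  have key : HL 1 ({Q | ∃ k < D.K, Q ∈ ({Q | ∃ r : V, Q ∈ ({Q | ∃ u : V, Q ∈
      ({Q | (∃ Q1 X2, Q = Q1 ++ X2 ∧
        (FB D.n SS (D.z - D.c k) Q1 ∧ D.M1 r (Q1.drop (D.p0 - D.c k)) = u) ∧
        (FB D.n SS D.z X2 ∧ D.T u X2 = b)) ∧
      (D.BadAt (D.c k) Q ∧ (∀ k' < D.K, D.BadAt (D.c k') Q → k' = k)) ∧
        D.rho2 k (Q.take (D.p0 - D.c k)) = some r} : Language A)} : Language A)} :
        Language A)} : Language A) := by
    refine HL_exLt fun k _ => ?_
    refine exV fun r => exV fun u => ?_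
    exact HL_El hF (D.z - D.c k) D.z (Reg.drop _ (reg_M1 hφ hnu r u)) (reg_T hφ hnu u b)
      (((reg_BadAt hWo hB (D.c k)).and (hall k)).and
        (Reg.take (D.p0 - D.c k) fun x => D.rho2 k x = some r))
  refine key.congr fun Q => ?_
  constructor
  · intro h
    obtain ⟨k, hk, hbad, hun, d, r, hd, hr, hX, hb⟩ := R2_iff.1 h
    have hd' := (endAt_FB hWo).1 hd
    exact ⟨k, hk, r, _, ⟨Q.take d, Q.drop d, (List.take_append_drop _ _).symm, ⟨hd'.2, rfl⟩,
      (mem_XX hWo _).1 hX, hb.symm⟩, ⟨hbad, hun⟩, hr⟩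
  · rintro ⟨k, hk, r, u, ⟨Q1, X2, rfl, ⟨h1, h2⟩, h3, h4⟩, ⟨h5, h6⟩, h7⟩
    refine R2_iff.2 ⟨k, hk, h5, h6, Q1.length, r, ?_, h7, ?_, ?_⟩
    · rw [endAt_FB hWo]
      refine ⟨by rw [List.length_append]; omega, ?_⟩
      rw [List.take_left]
      exact h1
    · rw [List.drop_left]
      exact (mem_XX hWo _).2 h3
    · rw [List.take_left, List.drop_left, h2]
      exact h4.symm

end Langs

theorem fin0 (A : Type) [Finite A] (S : Type) [Monoid S] [Finite S] (f : A → S) (s : S) :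
    HL 3 ({w | (w.map f).prod = s} : Language A) := by
  classical
  have := Fintype.ofFinite S
  obtain ⟨act, act_add, act_one, act_mul, faith⟩ := Blk467.exists_module S
  have : Fintype (S → ZMod 2) := Fintype.ofFinite _
  obtain ⟨m, r, hG⟩ := G1_852.gadget act
  obtain ⟨K, hK⟩ := ExactR_237.exact_gadget A S (S → ZMod 2) f act (2 + 2 * (r + (m + 1)))
  obtain ⟨Ms, M, hMsc, hMs, hM, hG⟩ := hG (2 ^ (K + 1) + m + 1)
  obtain ⟨b, hbdef⟩ : ∃ b, b = M * ((4 * M + 1) * 2 ^ (K + 4)) + 1 := ⟨_, rfl⟩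
  have hbpos : 0 < b := by omega
  have hcop : Nat.Coprime b M := by
    rw [hbdef]
    simp
  obtain ⟨lam, rho, nu, hlam, hsound, hcomp, hfs⟩ := hG b hbpos hcop A f
  obtain ⟨N, hN⟩ : ∃ N, N = b ^ m := ⟨_, rfl⟩
  have hb1 : (M : ℤ) ∣ (b : ℤ) - 1 := by
    rw [hbdef]
    exact ⟨((4 * M + 1) * 2 ^ (K + 4) : ℕ), by push_cast; ring⟩
  have hb2 : (4 * M + 1) * 2 ^ (K + 4) < b := by
    rw [hbdef]
    have : (4 * M + 1) * 2 ^ (K + 4) ≤ M * ((4 * M + 1) * 2 ^ (K + 4)) :=
      Nat.le_mul_of_pos_left _ hM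
    omega
  obtain ⟨x, hx, hx1, hx2, hx3⟩ := Spoil_398.exists_ruler (Ms := Ms) (M := M) (b := b)
    (m := m + 1) (K := K) hM (by omega)
    (fun p hp => ⟨(hMs p hp).2.1, (hMs p hp).2.2, by have := (hMs p hp).1; omega,
      by
        have := (hMs p hp).1
        have h2 : 0 < 2 ^ (K + 1) := by positivity
        omega⟩) hb1 hb2 (2 * N)
  obtain ⟨lam2, rho2, nu2, hex2, hcp2⟩ := hK x (fun i j hij _ => hx hij)
  obtain ⟨n, c, P, SS, hn, hP, hW1, hW2, -, -, hFew⟩ :=
    WallU_228.walls_full (α := A) (2 * (x K + N))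
  let D : Dat A S (S → ZMod 2) :=
    { Wo := P4_911.Wo n SS
      n := n
      z := 4 * x K + N + n + 1
      p0 := x K
      N := N
      BadT := Spoil_398.BadT Ms M b (m + 1)
      φ := fun w => (w.map f).prod
      act := act
      lam1 := lam
      rho1 := rho
      nu1 := nu
      K := K
      c := x
      lam2 := lam2
      rho2 := fun k Q => rho2 k Q 1
      nu2 := fun Q => nu2 Q 1 }
  have hWo : D.Wo = P4_911.Wo D.n SS := rfl
  have hWalls : Walls D.Wo D.n (2 * (x K + N)) := by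
    refine ⟨fun P Q h => hW1 P Q h, fun P h => h.1, ?_⟩
    intro X s t hst hts hX h1 h2
    have hl : (X.take t).length = t := by rw [List.length_take]; omega
    refine hW2 (X.take t) (t - s) h2 (by omega) (by omega) ?_
    rw [hl, List.take_take, min_eq_left (by omega)]
    have : t - (t - s) = s := by omega
    rw [this]
    exact h1
  have hG1 : G1 D (x K) := by
    refine ⟨fun p v h => ?_, fun p q v r h1 h2 => hsound p q v r h1 h2, ?_⟩
    · have := hlam p v h
      show p.length ≤ N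
      omega
    · intro u _ hb v
      have hb' : ¬ Spoil_398.BadT Ms M b (m + 1) u.length := hb
      unfold Spoil_398.BadT at hb'
      push Not at hb'
      obtain ⟨p, q, e, h1, v', h2⟩ := hcomp u (fun k hk => hb'.1 k hk)
        (fun j hj => hb'.2 j (by omega)) v
      exact ⟨p, q, e.symm, h1, by rw [show D.rho1 q = rho q from rfl, h2]; rfl⟩
  have hG2 : G2 D (2 + 2 * (r + (m + 1))) := by
    refine ⟨?_, ?_⟩
    · intro k hk P Q v r hP h1 h2
      have := hex2 k hk P Q 1 v r hP h1 h2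
      rw [mul_one] at this
      exact this
    · intro u v hu
      exact hcp2 u 1 v hu
  have hc : ∀ k < D.K, D.c k ≤ D.p0 := fun k hk => (hx hk).le
  have hRul : Ruler1 D (x K) (r + (m + 1)) := by
    refine ⟨?_, ?_⟩
    · intro a b' c' d _ _ _ _ hab _ h1 h2
      refine hx2 a b' c' d hab (abs_le.2 ⟨?_, ?_⟩)
      · have h1' : x a + x d ≤ x c' + x b' + 2 * N := h1
        have h2' : x c' + x b' ≤ x a + x d + 2 * N := h2
        push_cast
        omega
      · have h1' : x a + x d ≤ x c' + x b' + 2 * N := h1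
        have h2' : x c' + x b' ≤ x a + x d + 2 * N := h2
        push_cast
        omega
    · intro T hT I hI
      refine (Finset.card_le_card (fun ab hab => ?_)).trans ((hx3 T hT).trans ?_)
      · obtain ⟨h1, h2, h3, h4⟩ := hI ab hab
        simp only [Finset.mem_filter, Finset.mem_product, Finset.mem_range]
        exact ⟨⟨h1, h2⟩, h3, h4⟩
      · omega
  have hz : D.p0 + D.N + D.n ≤ D.z := by
    show x K + N + n ≤ 4 * x K + N + n + 1
    omega
  have hz2 : x K + 2 * D.p0 ≤ D.z := by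
    show x K + 2 * x K ≤ 4 * x K + N + n + 1
    omega
  have hz3 : D.p0 < D.z := by
    show x K < 4 * x K + N + n + 1
    omega
  have hφ : ∀ w, D.φ w = (w.map f).prod := fun _ => rfl
  have hMb : 0 < M * b ^ m := Nat.mul_pos hM (Nat.pow_pos hbpos)
  have hMb' : 0 < M * b ^ (m + 1) := Nat.mul_pos hM (Nat.pow_pos hbpos)
  have hnu : ∀ a, Reg (fun Y => D.nu1 Y = a) := fun a =>
    reg_fs nu (b ^ m) (M * b ^ m) hMb f (fun Q Q' h1 h2 h3 => (hfs Q Q' h1 h2 h3).2) a
  have hrho : ∀ a, Reg (fun Y => D.rho1 Y = a) := fun a =>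
    reg_fs rho (b ^ m) (M * b ^ m) hMb f (fun Q Q' h1 h2 h3 => (hfs Q Q' h1 h2 h3).1) a
  have hB : ∀ s, Reg (fun w : List A => D.BadT (s + w.length - D.p0)) := fun s =>
    reg_len hMb' (fun n => badT_mod (fun k hk => (hMs k hk).2.2) n) s (x K)
  have hFew' : Few D.n SS := hFew
  have htop := Top5_163.top (α := A) (V := S → ZMod 2) (S := S) D.φ (by simp [hφ])
    (fun u v => by simp [hφ]) act (fun v s s' => (act_mul v s s').symm)
    (fun v w s => act_add v w s) faith D.XX (XX_nil (by omega)) (fun X hX Y hXY => XX_code hX hXY)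
    D.T (fun X => act (D.nu2 (X.take D.p0)) (D.φ (X.drop D.p0)) + D.nu1 (X.drop D.p0))
    (by
      intro X _ v
      show act (act v (D.φ (X.take D.p0)) + D.nu2 (X.take D.p0)) (D.φ (X.drop D.p0)) +
        D.nu1 (X.drop D.p0) = _
      rw [act_add, ← act_mul, add_assoc]
      congr 2
      rw [hφ, hφ, hφ, ← List.prod_append, ← List.map_append, List.take_append_drop])
    D.LP1 D.LP2 D.R1 D.R2
    (by
      rintro Q b' h rfl
      unfold Dat.R1 at h
      split_ifs at h with hR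
      have := hR.1
      simp at this
      omega)
    (by
      rintro Q b' h rfl
      obtain ⟨k, hk, -, -, d, r', hd, -⟩ := R2_iff.1 h
      have h1 := hd.1
      have h2 := hd.2.1
      have h3 := hc k hk
      simp at h1
      omega)
    (fun P v Q b' h1 h2 => s1 hWalls hG1 hz P v Q b' h1 h2)
    (fun P v Q b' h1 h2 h3 => s2 hWalls hG1 hG2 hz (by omega) (by omega) hc P v Q b' h1 h2 h3)
    (fun X hX X2 hX2 v => cc hWalls hG1 hG2 hz hz2 hz3 (le_refl _) hc hRul X hX X2 hX2 v)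
    (fun v v' => HL_XT hWo hFew' hφ hnu v v')
    (fun s => HL_NP hWo hFew' hφ s)
    (fun v => HL_L1 hG1.len v)
    (fun v => HL_L2 hc v)
    (fun b' => HL_R1 hWo hFew' hrho b')
    (fun b' => HL_R2 hWo hFew' hφ hnu hB hc hz3 b') s
  exact htop

end Crest.Agent.R320.Fin_593
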