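import Crest.Agent.R320.G1_424
import Crest.Agent.R320.Sp_509

/-! # `Gad1` (963, post #14331) from `G1_424.G1` and `Sp_509.spoilN` -/

namespace Crest.Agent.R320.Gad_595

theorem badN_period (m M b : ℕ) (Ms : Finset ℕ) (hb : 0 < b) (hMs : ∀ k ∈ Ms, k ∣ M) (T : ℕ) :
    Sp_509.BadN m M b Ms (T + M * b ^ m) ↔ Sp_509.BadN m M b Ms T := by
  unfold Sp_509.BadN
  have h1 : ∀ k ∈ Ms, (k ∣ T + M * b ^ m ↔ k ∣ T) := fun k hk =>
    (Nat.dvd_add_iff_left (Dvd.dvd.mul_right (hMs k hk) _)).symm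
  have h2 : ∀ j < m, (T + M * b ^ m) / b ^ j % b = T / b ^ j % b := by
    intro j hj
    obtain ⟨d, rfl⟩ := Nat.exists_eq_add_of_lt hj
    have e : T + M * b ^ (j + d + 1) = T + b ^ j * (b * (M * b ^ d)) := by
      rw [pow_succ, pow_add]; ring
    rw [e, Nat.add_mul_div_left _ _ (pow_pos hb j), Nat.add_mul_mod_self_left]
  constructor
  · rintro (⟨k, hk, h⟩ | ⟨j, hj, h⟩)
    · exact Or.inl ⟨k, hk, (h1 k hk).1 h⟩
    · exact Or.inr ⟨j, hj, by rwa [h2 j hj] at h⟩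
  · rintro (⟨k, hk, h⟩ | ⟨j, hj, h⟩)
    · exact Or.inl ⟨k, hk, (h1 k hk).2 h⟩
    · exact Or.inr ⟨j, hj, by rwa [h2 j hj]⟩

theorem gad (S V : Type) [Monoid S] [Finite S] [AddCommGroup V] [Finite V] (act : V → S → V) :
    ∃ C0 : ℕ, ∀ K : ℕ, ∃ (N1 La Per : ℕ) (c : ℕ → ℕ) (Bad : ℕ → Prop), 0 < Per ∧ 0 < N1 ∧
      (∀ i j, i < j → j < K → c i < c j) ∧
      (∀ k k' l l', k < K → k' < K → l < K → l' < K → k' ≠ k → l' ≠ l →
        c k + c l' < c l + c k' + 2 * N1 → c l + c k' < c k + c l' + 2 * N1 → k = l) ∧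
      (∀ T, (∀ k < K, c k ≤ T) → La ≤ T → ∀ F : Finset (ℕ × ℕ),
        (∀ p ∈ F, p.1 < K ∧ p.2 < K ∧ p.1 ≠ p.2 ∧ Bad (T + c p.2 - c p.1)) → F.card ≤ C0) ∧
      (∀ T, La ≤ T → (Bad (T + Per) ↔ Bad T)) ∧
      ∀ (α : Type) (f : α → S), ∃ (lam rho : List α → Option V) (nu : List α → V),
        (∀ P Q v b, lam P = some v → rho Q = some b →
          b = act v ((P ++ Q).map f).prod + nu (P ++ Q)) ∧
        (∀ P v, lam P = some v → P.length ≤ N1) ∧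
        (∀ Y, La ≤ Y.length → ¬ Bad Y.length → ∀ v, ∃ P Q, Y = P ++ Q ∧ lam P = some v ∧
          (rho Q).isSome) ∧
        (∀ u u', La ≤ u.length → La ≤ u'.length → u.take La = u'.take La →
          ((u.drop La).map f).prod = ((u'.drop La).map f).prod →
          u.length % Per = u'.length % Per → nu u = nu u') := by
  obtain ⟨m, r, h⟩ := G1_424.G1 S V act
  refine ⟨r + m, fun K => ?_⟩
  obtain ⟨Ms, M, hcard, hMs, hM, hb⟩ := h (4 ^ (K + 1))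
  set b : ℕ := M * (4 * 4 ^ (K + 1) + 4) + 1 with hbdef
  have hb0 : 0 < b := by omega
  have hco : Nat.Coprime b M := by
    rw [hbdef]
    simp
  have hbl : 4 * M * 4 ^ (K + 1) + 2 * M + 2 ≤ b := by
    rw [hbdef]; nlinarith
  obtain ⟨c, c1, c0, c2, c3, c4, c5⟩ :=
    Sp_509.spoilN m K Ms M hM (fun k hk => ⟨(hMs k hk).1, (hMs k hk).2.2⟩) b hbl hco (b ^ m)
  refine ⟨b ^ m, b ^ m, M * b ^ m, c, Sp_509.BadN m M b Ms, Nat.mul_pos hM (pow_pos hb0 m),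
    pow_pos hb0 m, fun i j hij _ => c1 hij, ?_, ?_, ?_, ?_⟩
  · intro k k' l l' _ _ _ _ hk hl h1 h2
    by_contra hne
    have h3 := c3 k k' l l' (Ne.symm hk) (Ne.symm hl) (fun e => hne (congrArg Prod.fst e))
    have h4 : |((c k' : ℤ) - c k) - ((c l' : ℤ) - c l)| ≤ 4 * ((b ^ m : ℕ) : ℤ) := by
      rw [abs_le]
      constructor <;> omega
    omega
  · intro T hT _ F hF
    refine (c5 (T : ℤ) F ?_).trans (Nat.add_le_add_right hcard m)
    intro p hp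
    obtain ⟨p1, p2, p3, p4⟩ := hF p hp
    refine ⟨p1, p2, p3, _, ?_, p4⟩
    have := hT p.1 p1
    omega
  · intro T _
    exact badN_period m M b Ms hb0 (fun k hk => (hMs k hk).2.2) T
  · intro α f
    obtain ⟨lam, rho, nu, g1, g2, g3, g4⟩ := hb b hb0 hco α (fun w => (w.map f).prod)
      (fun u v => by simp)
    refine ⟨lam, rho, nu, g2 , fun P v hv => (g1 P v hv).le, ?_, ?_⟩
    · intro Y _ hY v
      have hY1 : ∀ k ∈ Ms, ¬ k ∣ Y.length := fun k hk hd => hY (Or.inl ⟨k, hk, hd⟩)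
      have hY2 : ∀ i < m, M ≤ (Y.length / b ^ i) % b ∧ (Y.length / b ^ i) % b + M + 1 ≤ b := by
        intro i hi
        by_contra hc
        exact hY (Or.inr ⟨i, hi, hc⟩)
      obtain ⟨P, Q, e, hP, hQ⟩ := g3 Y hY1 hY2 v
      exact ⟨P, Q, e.symm, hP, hQ⟩
    · intro u u' hu hu' ht hp hl
      exact (g4 u u' hu hu' ht hl hp).1

end Crest.Agent.R320.Gad_595
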