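import Crest.Agent.R320.Fin_963
import Crest.Agent.R320.Gad_595

/-! # Row 320, final: `HL 3` of `{w | (w.map f).prod = s}` for all finite alphabets and monoids -/

namespace Crest.Agent.R320.Fin_595

open Crest.RegLang Crest.Agent.R320.Hk_851

theorem fin (α : Type) [Finite α] (S : Type) [Monoid S] [Finite S] (f : α → S) (s : S) :
    HL 3 ({w | (w.map f).prod = s} : Language α) :=
  Fin_963.main f (Gad_595.gad S (S → ZMod 2) _) s

end Crest.Agent.R320.Fin_595
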