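import Crest.Agent.R320.InstE_598
import Crest.Agent.R320.GridG_19
import Crest.Agent.R320.SpoilGrid_567
import Crest.Agent.R320.ExactR_237

set_option autoImplicit false

namespace Crest.Agent.R320.Inst_598

open Crest.RegLang Crest.Agent.R320.Hk_851 Crest.Agent.R320.Pump_360 Crest.Agent.R320.Blk467
open Finset

theorem pf_of_reg {α : Type} {S V : Type} [Monoid S] [Finite S] (φ : α → S) (nu1 : List α → V)
    (A Pm : ℕ) (hPm : 0 < Pm)
    (h : ∀ Y Y' : List α, A ≤ Y.length → A ≤ Y'.length → Y.take A = Y'.take A →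
      Y.length ≡ Y'.length [MOD Pm] → (Y.map φ).prod = (Y'.map φ).prod → nu1 Y = nu1 Y') :
    PF nu1 := by
  have h1 := ((PF.take (α := α) A).comp2 (PF.prod (α := α) φ) (fun a b => (a, b))).comp2
    (PF.lenmod (α := α) Pm hPm) (fun a b => (a, b))
  obtain ⟨E, M, hM, h1⟩ := h1
  refine ⟨max E A, M, hM, fun u x v k hk => ?_⟩
  by_cases hx : x = []
  · subst hx; simp [pw_nil]
  have hx1 : 1 ≤ x.length := List.length_pos_iff.2 hx
  have hk1 : E ≤ k := (le_max_left _ _).trans hk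
  have hk2 : A ≤ k := (le_max_right _ _).trans hk
  have l1 : k ≤ k * x.length := Nat.le_mul_of_pos_right k hx1
  have l2 : k + M ≤ (k + M) * x.length := Nat.le_mul_of_pos_right _ hx1
  have e := h1 u x v k hk1
  simp only [Prod.mk.injEq] at e
  refine h _ _ ?_ ?_ e.1.1 e.2 e.1.2
  · simp only [List.length_append, pw_length]; omega
  · simp only [List.length_append, pw_length]; omega

theorem bz_per (Ms : Finset ℕ) (M G m : ℕ) (hM : ∀ q ∈ Ms, q ∣ M) (Am : ℕ → ℤ) (T : ℤ) :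
    (SpoilGrid_567.BadT Ms M G m Am (T + (M * G ^ m : ℕ)) ↔ SpoilGrid_567.BadT Ms M G m Am T) := by
  unfold SpoilGrid_567.BadT
  constructor
  · rintro (⟨q, hq, h⟩ | ⟨j, h1, h2, k, h⟩)
    · left
      refine ⟨q, hq, ?_⟩
      have h3 : (q : ℤ) ∣ ((M * G ^ m : ℕ) : ℤ) := by
        exact_mod_cast (hM q hq).mul_right _
      exact (Int.dvd_add_left h3).1 h
    · right
      obtain ⟨t, ht⟩ : ∃ t, m = j + t := ⟨m - j, by omega⟩
      refine ⟨j, h1, h2, k - M * G ^ t, ?_⟩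
      have e : T - Am j - (k - M * G ^ t) * (G : ℤ) ^ j
          = T + ((M * G ^ m : ℕ) : ℤ) - Am j - k * (G : ℤ) ^ j := by
        rw [ht]; push_cast; ring
      rw [e]; exact h
  · rintro (⟨q, hq, h⟩ | ⟨j, h1, h2, k, h⟩)
    · left
      refine ⟨q, hq, ?_⟩
      have h3 : (q : ℤ) ∣ ((M * G ^ m : ℕ) : ℤ) := by
        exact_mod_cast (hM q hq).mul_right _
      exact (Int.dvd_add_left h3).2 h
    · right
      obtain ⟨t, ht⟩ : ∃ t, m = j + t := ⟨m - j, by omega⟩
      refine ⟨j, h1, h2, k + M * G ^ t, ?_⟩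
      have e : T + ((M * G ^ m : ℕ) : ℤ) - Am j - (k + M * G ^ t) * (G : ℤ) ^ j
          = T - Am j - k * (G : ℤ) ^ j := by
        rw [ht]; push_cast; ring
      rw [e]; exact h

theorem badG_bz (Ms : Finset ℕ) (M G0 m : ℕ) (hG0 : 0 < G0) (T : ℕ)
    (hT : GridG_19.Am (fun k => G0 ^ k) M 0 m ≤ T)
    (h : GridG_19.BadG (fun k => G0 ^ k) M 0 m T) :
    SpoilGrid_567.BadT Ms M G0 m (fun j => ((GridG_19.Am (fun k => G0 ^ k) M 0 j : ℕ) : ℤ)) T := by
  obtain ⟨k, hk, h⟩ := h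
  right
  have hmono := GridG_19.Am_mono (fun k => G0 ^ k) M 0 (show k + 1 ≤ m by omega)
  set a := GridG_19.Am (fun k => G0 ^ k) M 0 (k + 1) with ha
  have hG : 0 < G0 ^ (k + 1) := by positivity
  have hdm := Nat.mod_add_div (T - a) (G0 ^ (k + 1))
  have hlt := Nat.mod_lt (T - a) hG
  set ρ := (T - a) % G0 ^ (k + 1) with hρ
  set d := (T - a) / G0 ^ (k + 1) with hd
  have hTa : (T : ℤ) - a = ρ + (G0 : ℤ) ^ (k + 1) * d := by
    have : T = a + (ρ + G0 ^ (k + 1) * d) := by omega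
    rw [this]; push_cast; ring
  rcases h with h | h
  · refine ⟨k + 1, by omega, by omega, d, ?_⟩
    rw [show (T : ℤ) - (a : ℤ) - d * (G0 : ℤ) ^ (k + 1) = ρ by rw [hTa]; ring]
    rw [Nat.add_sub_cancel, abs_of_nonneg (by positivity)]
    exact_mod_cast h.le
  · refine ⟨k + 1, by omega, by omega, d + 1, ?_⟩
    have h' : ((G0 : ℤ)) ^ (k + 1) ≤ ρ + M * (G0 : ℤ) ^ k := by exact_mod_cast h
    have h'' : (ρ : ℤ) < (G0 : ℤ) ^ (k + 1) := by exact_mod_cast hlt
    rw [show (T : ℤ) - (a : ℤ) - (d + 1) * (G0 : ℤ) ^ (k + 1) = ρ - (G0 : ℤ) ^ (k + 1) by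
      rw [hTa]; ring]
    rw [Nat.add_sub_cancel, abs_le]
    constructor
    · linarith
    · have : (0 : ℤ) ≤ M * (G0 : ℤ) ^ k := by positivity
      linarith

theorem fin (α : Type) [Finite α] (S : Type) [Monoid S] [Finite S] (φ : α → S) (s : S) :
    HL 3 ({w | (w.map φ).prod = s} : Language α) := by
  classical
  haveI := Fintype.ofFinite S
  obtain ⟨act, hadd, hone, hmul, hfaith⟩ := exists_module S
  obtain ⟨m, r, hgrid⟩ := GridG_19.grid S (S → ZMod 2) act
  obtain ⟨K, hK⟩ := ExactR_237.exact_gadget α S (S → ZMod 2) φ act (2 * (r + m) + 2)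
  obtain ⟨Ms, hcard, hprime, hg⟩ := hgrid (4 ^ K)
  have hMpos : 0 < ∏ q ∈ Ms, q := Finset.prod_pos fun q hq => (hprime q hq).1.pos
  have hMdvd : ∀ q ∈ Ms, q ∣ ∏ q ∈ Ms, q := fun q hq => Finset.dvd_prod_of_mem _ hq
  generalize hMdef : ∏ q ∈ Ms, q = M at hg hMpos hMdvd
  obtain ⟨G0, hG0def⟩ : ∃ G0, G0 = 16 * (m + 1) * M * 4 ^ K + 1 := ⟨_, rfl⟩
  have hG0 : 0 < G0 := by omega
  have hcop : Nat.Coprime M G0 := by
    rw [hG0def]
    have : 16 * (m + 1) * M * 4 ^ K + 1 = M * (16 * (m + 1) * 4 ^ K) + 1 := by ring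
    rw [this]
    simp
  obtain ⟨lam, rho, nu1, h1, h2, h3, h4, h5⟩ := hg (fun k => G0 ^ k) 0 (fun k => by positivity)
    (fun a b hab => pow_dvd_pow _ hab) (fun k => Nat.Coprime.pow_right k hcop) α
    (fun w => (w.map φ).prod) (fun u v => by rw [List.map_append, List.prod_append])
  obtain ⟨N1, hN1⟩ : ∃ N1, N1 = GridG_19.Am (fun k => G0 ^ k) M 0 m := ⟨_, rfl⟩
  obtain ⟨x, hx1, hx2, hx3⟩ := SpoilGrid_567.spoil_grid K m Ms M G0 (2 * N1)
    (fun q hq => (hprime q hq).2)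
    (fun q hq => Nat.Coprime.coprime_dvd_left (hMdvd q hq) hcop)
    (fun q hq q' hq' hne => (Nat.coprime_primes (hprime q hq).1 (hprime q' hq').1).2 hne)
    hMpos (by omega)
  have hxmono : ∀ a b, a < b → x a < x b := fun a b hab => by have := hx1 a b hab; omega
  obtain ⟨lam2, rho2, nu2, k1, k2⟩ := hK x (fun i j hij _ => hxmono i j hij)
  obtain ⟨p0, hp0⟩ : ∃ p0, p0 = x K := ⟨_, rfl⟩
  obtain ⟨n, Wo, hW⟩ := exists_walls α (2 * p0 + 2 * N1 + 1) (by omega)
  let Am : ℕ → ℤ := fun j => ((GridG_19.Am (fun k => G0 ^ k) M 0 j : ℕ) : ℤ)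
  let D : Dat α S (S → ZMod 2) n (2 * p0 + 2 * N1 + 1) Wo :=
    { φ := φ, act := act, z := 2 * p0 + n + 2 * N1 + M + 1, p0 := p0, N1 := N1,
      A := GridG_19.Ac (fun k => G0 ^ k) M 0 m, Pm := M * G0 ^ m,
      BadT := fun T => SpoilGrid_567.BadT Ms M G0 m Am (T : ℤ),
      lam := lam, rho := rho, nu1 := nu1, nu2 := fun X => nu2 X 1, K := K, c := x, lam2 := lam2 }
  have hxle : ∀ k < K, x k ≤ p0 := fun k hk => by rw [hp0]; exact (hxmono k K hk).le
  have hOK : D.OK := by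
    refine
      { hW := hW, hadd := hadd, hone := hone, hmul := hmul, hfaith := hfaith, hz := ?_,
        lamlen := ?_, sound1 := ?_, compl1 := ?_, pfnu := ?_, hPm := ?_, badper := ?_,
        hc := hxle, compl2 := ?_ }
    · change p0 + N1 + n + 1 ≤ 2 * p0 + n + 2 * N1 + M + 1
      omega
    · intro P v hP
      have := (h2 P v hP).2
      change P.length ≤ N1
      rw [hN1]; exact this.le
    · intro P Q v b hP hQ
      exact (h1 P Q v b hP hQ).symm
    · intro Y v hY hB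
      have hY' : 2 * p0 + n + 2 * N1 + M + 1 + N1 ≤ Y.length + p0 := hY
      have hB' : ¬ SpoilGrid_567.BadT Ms M G0 m Am (Y.length : ℤ) := hB
      obtain ⟨P, Q, e, g1, g2⟩ := h4 Y (by rw [← hN1]; omega) (by omega)
        (fun q hq hdiv => hB' (Or.inl ⟨q, hq, by exact_mod_cast hdiv⟩))
        (fun hbad => hB' (badG_bz Ms M G0 m hG0 Y.length (by rw [← hN1]; omega) hbad)) v
      exact ⟨P, Q, e, g1, Option.isSome_iff_exists.1 g2⟩
    · exact pf_of_reg φ nu1 (GridG_19.Ac (fun k => G0 ^ k) M 0 m) (M * G0 ^ m) (by positivity) h5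
    · change 0 < M * G0 ^ m
      positivity
    · intro T
      change SpoilGrid_567.BadT Ms M G0 m Am ((T + M * G0 ^ m : ℕ) : ℤ) ↔ _
      rw [Nat.cast_add]
      exact bz_per Ms M G0 m hMdvd Am T
    · intro X X' hX hX' v
      have hXz : 2 * p0 + n + 2 * N1 + M + 1 ≤ X.length := hX.1.1
      have hXz' : 2 * p0 + n + 2 * N1 + M + 1 ≤ X'.length := hX'.1.1
      obtain ⟨J, hJ, hspoil⟩ := spoil D hW (r + m)
        (SpoilGrid_567.BadT Ms M G0 m Am) (fun m => Iff.rfl) hxle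
        (by change 2 * p0 + 2 * N1 + 1 ≤ 2 * p0 + 2 * N1 + 1; exact le_rfl)
        (by change 2 * p0 + n + N1 + 1 ≤ 2 * p0 + n + 2 * N1 + M + 1; omega)
        (fun a b c d ha hb hc hd hab h => hx2 a b c d ha hb hc hd hab h)
        (fun T => (hx3 Am T).trans (by omega))
        (X ++ X') ((hW.loc X X' (by omega)).2 hX'.1.2.1)
        (by
          change 2 * p0 + n + 2 * N1 + M + 1 + p0 ≤ (X ++ X').length
          rw [List.length_append]; omega)
      have hul : (X.take p0).length = p0 := by rw [List.length_take]; omega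
      obtain ⟨I, hI, hIk⟩ := k2 (X.take p0) 1 v (fun k hk => by rw [hul]; exact hxle k hk)
      obtain ⟨k, hkI, hkJ⟩ : ∃ k ∈ I, k ∉ J := by
        by_contra hcon
        push Not at hcon
        have := Finset.card_le_card (show I ⊆ J from hcon)
        omega
      obtain ⟨hk, g1, g2⟩ := hIk k hkI
      have hkp := hxle k hk
      have htt : (X.take p0).take (x k) = X.take (x k) := by
        rw [List.take_take, min_eq_left hkp]
      obtain ⟨b, hb⟩ := Option.isSome_iff_exists.1 g2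
      refine ⟨k, hk, ?_, ?_, hspoil k hk hkJ⟩
      · change lam2 k (X.take (x k)) = some v
        rw [← htt]; exact g1
      · intro P' v' hP' hv'
        have e1 := k1 k hk P' ((X.take p0).drop (x k)) 1 v' b hP' hv' hb
        have e2 := k1 k hk ((X.take p0).take (x k)) ((X.take p0).drop (x k)) 1 v b
          (by rw [List.length_take, hul]; omega) g1 hb
        rw [mul_one] at e1 e2
        rw [List.take_append_drop] at e2
        exact e1.symm.trans e2
  exact Dat.main hOK s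

end Crest.Agent.R320.Inst_598
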