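import Crest.Agent.R320.Top5_120
import Crest.Agent.R320.Joint_47
import Crest.Agent.R320.P4N_211
import Crest.Agent.R320.WallU_228
import Crest.Agent.R320.ExactR_237
import Crest.Agent.R320.Univ_294

/-!
# Row 320: from ONE black box gadget to S0495 (helper6)

120's semantic top, 47's two completeness statements, 211's HL 1 families, 228's walls,
237's exact gadget.
-/

set_option autoImplicit false

namespace Crest.Agent.R320.Fin_6

open Crest.RegLang Crest.Agent.R320.Hk_851
open Crest.Agent.R320.ExactR_237 (pr pr_append)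

/-- black box gadget of scheme 1 with its ruler -/
def Gad (S V : Type) [Monoid S] [AddCommGroup V] (act : V → S → V) : Prop :=
  ∃ R1 : ℕ, ∀ K : ℕ, ∃ (N1 N0 M : ℕ) (c : ℕ → ℕ) (BadT : ℕ → Prop), 0 < M ∧
    (∀ i j, i < j → j < K → c i < c j) ∧
    (∀ i i' j j', i < K → i' < K → j < K → j' < K → i' ≠ i → j' ≠ j →
      c i + c j' < c j + c i' + 2 * N1 → c j + c i' < c i + c j' + 2 * N1 → i = j) ∧
    (∀ T : ℕ, (∀ k, k < K → c k ≤ T) → ∀ I : Finset ℕ,
      (∀ k ∈ I, k < K ∧ ∃ k', k' < K ∧ k' ≠ k ∧ BadT (T + c k' - c k)) → I.card ≤ R1) ∧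
    (∀ T, N0 ≤ T → (BadT (T + M) ↔ BadT T)) ∧
    ∀ (A : Type) (f : A → S), ∃ (lam rho : List A → Option V) (nu : List A → V),
      (∀ P v, lam P = some v → P.length ≤ N1) ∧
      (∀ P Q v r, lam P = some v → rho Q = some r → r = act v (pr f (P ++ Q)) + nu (P ++ Q)) ∧
      (∀ Y : List A, N0 ≤ Y.length → ¬ BadT Y.length →
        ∀ v, ∃ P Q, Y = P ++ Q ∧ lam P = some v ∧ (rho Q).isSome) ∧
      (∀ u u' : List A, N0 ≤ u.length → N0 ≤ u'.length → u.take N0 = u'.take N0 →
        u.length % M = u'.length % M → pr f (u.drop N0) = pr f (u'.drop N0) → nu u = nu u')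

/-- the token action -/
def act0 (S : Type) [Monoid S] (v : S → ZMod 2) (s : S) : S → ZMod 2 := fun u => v (s * u)

theorem per_iter {BadT : ℕ → Prop} {N0 M : ℕ} (hper : ∀ T, N0 ≤ T → (BadT (T + M) ↔ BadT T))
    (T : ℕ) (hT : N0 ≤ T) (k : ℕ) : BadT (T + k * M) ↔ BadT T := by
  induction k with
  | zero => simp
  | succ k ih =>
    rw [← ih, show T + (k + 1) * M = (T + k * M) + M by ring]
    exact hper _ (by omega)

theorem per_mod {BadT : ℕ → Prop} {N0 M : ℕ} (hper : ∀ T, N0 ≤ T → (BadT (T + M) ↔ BadT T))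
    {T T' : ℕ} (hT : N0 ≤ T) (hT' : N0 ≤ T') (h : T % M = T' % M) : BadT T ↔ BadT T' := by
  rcases le_total T T' with hle | hle
  · obtain ⟨k, hk⟩ := (Nat.modEq_iff_dvd' hle).1 h
    have e : T' = T + k * M := by rw [mul_comm]; omega
    rw [e]; exact (per_iter hper T hT k).symm
  · obtain ⟨k, hk⟩ := (Nat.modEq_iff_dvd' hle).1 h.symm
    have e : T = T' + k * M := by rw [mul_comm]; omega
    rw [e]; exact per_iter hper T' hT' k

theorem sub_mod {a b p M : ℕ} (ha : p ≤ a) (hb : p ≤ b) (h : a % M = b % M) :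
    (a - p) % M = (b - p) % M := by
  have h1 : (a - p) + p ≡ (b - p) + p [MOD M] := by
    rw [Nat.sub_add_cancel ha, Nat.sub_add_cancel hb]; exact h
  exact Nat.ModEq.add_right_cancel' p h1

theorem eq_of_take {A : Type} {K : ℕ} {X X' : List A} (h : X.take K = X'.take K)
    (hX : X.length < K) : X = X' := by
  have h1 : X.take K = X := List.take_of_length_le hX.le
  have h2 : (X'.take K).length = X.length := by rw [← h, h1]
  have h3 : X'.length = X.length := by
    rw [List.length_take] at h2; omega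
  rw [List.take_of_length_le (by omega), List.take_of_length_le (by omega)] at h
  exact h

theorem take_of_take {A : Type} {K k : ℕ} {X X' : List A} (h : X.take K = X'.take K)
    (hk : k ≤ K) : X.take k = X'.take k := by
  have := congrArg (List.take k) h
  rwa [List.take_take, List.take_take, min_eq_left hk] at this

theorem main (n : ℕ) (S : Type) [Monoid S] [Finite S] (φ : Fin n → S)
    (h : Gad S (S → ZMod 2) (act0 S)) (s : S) :
    HL 3 ({w | (w.map φ).prod = s} : Language (Fin n)) := by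
  classical
  haveI : Fintype S := Fintype.ofFinite S
  have hadd : ∀ a b s, act0 S (a + b) s = act0 S a s + act0 S b s := fun a b s => rfl
  have hone : ∀ v, act0 S v 1 = v := fun v => by funext u; simp [act0]
  have hmul : ∀ v s t, act0 S v (s * t) = act0 S (act0 S v s) t := fun v s t => by
    funext u; simp [act0, mul_assoc]
  have hfaith : ∀ s t, (∀ v, act0 S v s = act0 S v t) → s = t := fun s t hst => by
    have h1 : (if s * 1 = s then (1 : ZMod 2) else 0) = (if t * 1 = s then 1 else 0) :=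
      congrFun (hst (fun x => if x = s then 1 else 0)) 1
    by_contra hne
    rw [mul_one, mul_one, if_pos rfl, if_neg (fun h => hne h.symm)] at h1
    exact one_ne_zero h1
  obtain ⟨R1, hR⟩ := h
  obtain ⟨K, hK⟩ := ExactR_237.exact_gadget (Fin n) S (S → ZMod 2) φ (act0 S) (2 * R1 + 2)
  obtain ⟨N1, N0, M, c, BadT, hM, hinc, hres, hT, hper, hg⟩ := hR K
  obtain ⟨lam, rho, nu1, hL, hS, hC, hkey⟩ := hg (Fin n) φ
  obtain ⟨lam2, rho2, nu2', hS2, hC2⟩ := hK c hinc
  obtain ⟨p0, hcp⟩ : ∃ p0, ∀ k, k < K → c k ≤ p0 :=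
    ⟨(Finset.range K).sup c, fun k hk => Finset.le_sup (f := c) (Finset.mem_range.2 hk)⟩
  obtain ⟨n', Wo, loc, len, gap, R, B, pcs⟩ := WallU_228.walls (α := Fin n) (2 * (N1 + p0) + 1)
  have hW : Joint_47.LW n' (2 * (N1 + p0) + 1) Wo :=
    { len := len
      app := loc
      gap := by
        intro X a b hab hb ha hbw
        by_contra hlt
        have hl : (X.take b).length = b := by rw [List.length_take]; omega
        refine gap (X.take b) (b - a) hbw (by omega) (by omega) ?_
        rw [hl, show b - (b - a) = a by omega, List.take_take, min_eq_left hab.le]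
        exact ha }
  obtain ⟨z, hz⟩ : ∃ z, z = 3 * p0 + n' + N1 + N0 + 1 := ⟨_, rfl⟩
  set nu2 : List (Fin n) → (S → ZMod 2) := fun X => nu2' X 1 with hnu2
  set nu : List (Fin n) → (S → ZMod 2) := fun X =>
    act0 S (nu2 (X.take p0)) (pr φ (X.drop p0)) + nu1 (X.drop p0) with hnu
  have TT : ∀ x X, act0 S x (X.map φ).prod + nu X =
      Joint_47.T φ (act0 S) p0 nu2 nu1 x X := by
    intro x X
    have e : (X.map φ).prod = pr φ (X.take p0) * pr φ (X.drop p0) := by
      rw [← pr_append, List.take_append_drop]; rfl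
    simp only [hnu, Joint_47.T]
    rw [hadd, e, hmul, add_assoc]
  have hφ : ∀ u v : List (Fin n), pr φ (u ++ v) = pr φ u * pr φ v := fun u v => pr_append φ u v
  have hTkey : ∀ x, ∀ X X' : List (Fin n), X.take (p0 + N0) = X'.take (p0 + N0) →
      X.length % M = X'.length % M → pr φ (X.drop (p0 + N0)) = pr φ (X'.drop (p0 + N0)) →
      act0 S x (X.map φ).prod + nu X = act0 S x (X'.map φ).prod + nu X' := by
    intro x X X' h1 h2 h3
    by_cases hX : X.length < p0 + N0
    · rw [eq_of_take h1 hX]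
    by_cases hX' : X'.length < p0 + N0
    · rw [eq_of_take h1.symm hX']
    have e0 : X.take p0 = X'.take p0 := take_of_take h1 (by omega)
    have e1 : (X.drop p0).take N0 = (X'.drop p0).take N0 := by
      have := congrArg (List.drop p0) h1
      rwa [List.drop_take, List.drop_take, show p0 + N0 - p0 = N0 by omega] at this
    have e2 : pr φ ((X.drop p0).drop N0) = pr φ ((X'.drop p0).drop N0) := by
      rw [List.drop_drop, List.drop_drop]; exact h3
    have e3 : pr φ (X.drop p0) = pr φ (X'.drop p0) := by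
      rw [← List.take_append_drop N0 (X.drop p0), hφ, e1, e2, ← hφ, List.take_append_drop]
    have e4 : nu1 (X.drop p0) = nu1 (X'.drop p0) := by
      refine hkey _ _ (by rw [List.length_drop]; omega) (by rw [List.length_drop]; omega) e1 ?_ e2
      rw [List.length_drop, List.length_drop]
      exact sub_mod (by omega) (by omega) h2
    rw [TT, TT]
    simp only [Joint_47.T]
    rw [e0, e3, e4]
  refine Top5_120.top5 (act0 S) hadd hone hmul hfaith φ nu (Joint_47.Zn Wo z)
    {X | X ∈ Joint_47.Zn Wo z ∧ Joint_47.Bad Wo z N1 p0 BadT X} ?_ (fun X hX => hX.1)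
    (fun v => {P | Joint_47.L1 φ (act0 S) p0 nu2 lam v P})
    (fun v => {P | Joint_47.L2 K c lam2 v P}) ?_ ?_ ?_ ?_ ?_ ?_ ?_ s
  · refine ⟨?_, ?_⟩
    · rintro ⟨h0, -⟩
      simp at h0
      omega
    · intro X hX Y hY hXY
      exact Joint_47.Zn_prefix hX hY hXY (List.prefix_refl Y)
  · intro v
    refine (List.finite_length_le (Fin n) (p0 + N1)).subset ?_
    rintro P ⟨h1, h2⟩
    have := hL _ _ h2
    rw [List.length_drop] at this
    show P.length ≤ p0 + N1
    omega
  · intro v
    refine (List.finite_length_le (Fin n) p0).subset ?_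
    rintro P ⟨k, hk, h1, -⟩
    show P.length ≤ p0
    rw [h1]; exact hcp k hk
  · intro x y
    exact P4N_211.hXT' (z := z) hφ loc len pcs
      (fun X => act0 S x (X.map φ).prod + nu X) (p0 + N0) M (p0 + N0) hM (hTkey x) y
  · intro x y
    have key2 : ∀ X X' : List (Fin n), X.take (p0 + N0 + z + N1) = X'.take (p0 + N0 + z + N1) →
        X.length % M = X'.length % M →
        pr φ (X.drop (p0 + N0)) = pr φ (X'.drop (p0 + N0)) →
        ((Joint_47.Bad Wo z N1 p0 BadT X : Prop), act0 S x (X.map φ).prod + nu X) =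
        ((Joint_47.Bad Wo z N1 p0 BadT X' : Prop), act0 S x (X'.map φ).prod + nu X') := by
      intro X X' h1 h2 h3
      have hk := hTkey x X X' (take_of_take h1 (by omega)) h2 h3
      rw [Prod.mk.injEq]
      refine ⟨?_, hk⟩
      by_cases hX : X.length < p0 + N0 + z + N1
      · rw [eq_of_take h1 hX]
      by_cases hX' : X'.length < p0 + N0 + z + N1
      · rw [eq_of_take h1.symm hX']
      apply propext
      unfold Joint_47.Bad
      have hB : BadT (X.length - p0) ↔ BadT (X'.length - p0) :=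
        per_mod hper (by omega) (by omega) (sub_mod (by omega) (by omega) h2)
      rw [hB]
      refine or_congr_left ?_
      constructor
      · rintro ⟨t, a1, a2, a3, a4⟩
        refine ⟨t, a1, a2, by omega, ?_⟩
        rwa [← take_of_take h1 (by omega)]
      · rintro ⟨t, a1, a2, a3, a4⟩
        refine ⟨t, a1, a2, by omega, ?_⟩
        rwa [take_of_take h1 (by omega)]
    have h4 := P4N_211.hXT' (z := z) hφ loc len pcs
      (fun X => ((Joint_47.Bad Wo z N1 p0 BadT X : Prop), act0 S x (X.map φ).prod + nu X))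
      (p0 + N0 + z + N1) M (p0 + N0) hM key2 (True, y)
    have e : ({X | X ∈ {X | X ∈ Joint_47.Zn Wo z ∧ Joint_47.Bad Wo z N1 p0 BadT X} ∧
        act0 S x (X.map φ).prod + nu X = y} : Language (Fin n)) =
        {X | X ∈ P4N_211.XX Wo z ∧
          ((Joint_47.Bad Wo z N1 p0 BadT X : Prop), act0 S x (X.map φ).prod + nu X) = (True, y)} := by
      ext X
      constructor
      · rintro ⟨⟨a1, a2⟩, a3⟩
        exact ⟨a1, Prod.ext (eq_true a2) a3⟩
      · rintro ⟨a1, a2⟩
        rw [Prod.mk.injEq] at a2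
        exact ⟨⟨a1, of_eq_true a2.1⟩, a2.2⟩
    rw [e]
    exact h4
  · intro s'
    exact P4N_211.hNP (z := z) hφ loc len pcs s'
  · intro X hX hXb v
    obtain ⟨p, q, e, h1, h2, h3⟩ := Joint_47.complete1 (f := φ) (act := act0 S) (p0 := p0)
      (nu2 := nu2) (nu1 := nu1) (N0 := N0) hW hS hL hC (z := z) (by omega) (by omega) hX
      (fun hb => hXb ⟨hX, hb⟩) v
    refine ⟨p, q, e.symm, h1, fun x P' hP' => ?_⟩
    obtain ⟨h4, h5⟩ := h3 x P' hP'
    refine ⟨h4, ?_⟩
    rw [TT, TT]; exact h5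
  · intro X hX Y hY v
    obtain ⟨p, q, e, h1, h2, h3⟩ := Joint_47.complete2 (f := φ) (act := act0 S) (p0 := p0)
      (nu1 := nu1) (nu2' := nu2') (N1 := N1) (z := z) (K := K) (R1 := R1) (BadT := BadT) hW hS2 hC2
      hinc hcp hres hT (by omega) (by omega) hX.1 hY.1 hX.2 v
    refine ⟨p, q, e.symm, h1, fun x P' hP' => ?_⟩
    rcases h3 x P' hP' with ⟨a, ha, hab, e2, h5⟩ | ⟨a, ha, hab, h5⟩
    · left
      refine ⟨a, ⟨ha, hab⟩, Y, hY.1, e2.symm, ?_⟩
      rw [TT, TT, TT, TT, h5]
    · right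
      exact ⟨a, ha, fun hb => hab hb.2, h5⟩

/-- **S0495 from the black box gadget** -/
theorem row (h : ∀ (S : Type) [Monoid S] [Finite S], Gad S (S → ZMod 2) (act0 S))
    (α : Type*) [Finite α] (L : Language α) (hL : L.IsRegular) :
    ∃ e : Crest.RegLang.GRegExp α, e.height ≤ 3 ∧ e.lang = L :=
  Univ_294.s0495_of_type0 (fun n S _ _ φ s => main n S φ (h S) s) α L hL

/-- it is enough to have the black box gadget for every action -/
theorem row' (h : ∀ (S V : Type) [Monoid S] [Finite S] [AddCommGroup V] [Finite V]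
      (act : V → S → V), Gad S V act)
    (α : Type*) [Finite α] (L : Language α) (hL : L.IsRegular) :
    ∃ e : Crest.RegLang.GRegExp α, e.height ≤ 3 ∧ e.lang = L :=
  row (fun S _ _ => h S (S → ZMod 2) (act0 S)) α L hL

/-- the spoil count and the completeness are only needed for large lengths -/
def GadW (S V : Type) [Monoid S] [AddCommGroup V] (act : V → S → V) : Prop :=
  ∃ R1 : ℕ, ∀ K : ℕ, ∃ (N1 N0 M : ℕ) (c : ℕ → ℕ) (BadT : ℕ → Prop), 0 < M ∧
    (∀ i j, i < j → j < K → c i < c j) ∧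
    (∀ i i' j j', i < K → i' < K → j < K → j' < K → i' ≠ i → j' ≠ j →
      c i + c j' < c j + c i' + 2 * N1 → c j + c i' < c i + c j' + 2 * N1 → i = j) ∧
    (∀ T : ℕ, N0 ≤ T → (∀ k, k < K → c k ≤ T) → ∀ I : Finset ℕ,
      (∀ k ∈ I, k < K ∧ ∃ k', k' < K ∧ k' ≠ k ∧ BadT (T + c k' - c k)) → I.card ≤ R1) ∧
    (∀ T, N0 ≤ T → (BadT (T + M) ↔ BadT T)) ∧
    ∀ (A : Type) (f : A → S), ∃ (lam rho : List A → Option V) (nu : List A → V),
      (∀ P v, lam P = some v → P.length ≤ N1) ∧
      (∀ P Q v r, lam P = some v → rho Q = some r → r = act v (pr f (P ++ Q)) + nu (P ++ Q)) ∧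
      (∀ Y : List A, N0 ≤ Y.length → ¬ BadT Y.length →
        ∀ v, ∃ P Q, Y = P ++ Q ∧ lam P = some v ∧ (rho Q).isSome) ∧
      (∀ u u' : List A, N0 ≤ u.length → N0 ≤ u'.length → u.take N0 = u'.take N0 →
        u.length % M = u'.length % M → pr f (u.drop N0) = pr f (u'.drop N0) → nu u = nu u')

theorem GadW.gad {S V : Type} [Monoid S] [AddCommGroup V] {act : V → S → V}
    (h : GadW S V act) : Gad S V act := by
  obtain ⟨R1, h⟩ := h
  refine ⟨R1, fun K => ?_⟩
  obtain ⟨N1, N0, M, c, BadT, hM, hinc, hres, hT, hper, hg⟩ := h K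
  obtain ⟨p0, hcp⟩ : ∃ p0, ∀ k, k < K → c k ≤ p0 :=
    ⟨(Finset.range K).sup c, fun k hk => Finset.le_sup (f := c) (Finset.mem_range.2 hk)⟩
  refine ⟨N1, N0 + p0, M, c, fun n => N0 + p0 ≤ n ∧ BadT n, hM, hinc, hres, ?_, ?_, ?_⟩
  · intro T hT1 I hI
    rcases Finset.eq_empty_or_nonempty I with he | ⟨k, hk⟩
    · rw [he]; simp
    · obtain ⟨h1, k', h2, h3, h4, h5⟩ := hI k hk
      have := hcp k' h2
      refine hT T (by omega) hT1 I fun k hk => ?_
      obtain ⟨h1, k', h2, h3, h4, h5⟩ := hI k hk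
      exact ⟨h1, k', h2, h3, h5⟩
  · intro T hT1
    have := hper T (by omega)
    constructor
    · rintro ⟨-, h1⟩; exact ⟨hT1, this.1 h1⟩
    · rintro ⟨-, h1⟩; exact ⟨by omega, this.2 h1⟩
  · intro A f
    obtain ⟨lam, rho, nu, h1, h2, h3, h4⟩ := hg A f
    refine ⟨lam, rho, nu, h1, h2, ?_, ?_⟩
    · intro Y hY hb v
      exact h3 Y (by omega) (fun hb' => hb ⟨hY, hb'⟩) v
    · intro u u' hu hu' e1 e2 e3
      refine h4 u u' (by omega) (by omega) (take_of_take e1 (by omega)) e2 ?_
      rw [← List.take_append_drop p0 (u.drop N0), ← List.take_append_drop p0 (u'.drop N0),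
        pr_append, pr_append, List.drop_drop, List.drop_drop, e3]
      congr 2
      have := congrArg (List.drop N0) e1
      rwa [List.drop_take, List.drop_take, show N0 + p0 - N0 = p0 by omega] at this

end Crest.Agent.R320.Fin_6
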