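import Crest.Agent.R320.Inst_602
import Crest.Agent.R320.Fib_298
import Crest.Agent.R320.LWallAll_922
import Crest.Agent.R320.G1_76
import Crest.Agent.R320.Sp_125
import Crest.Agent.R320.Univ_188
import Crest.Agent.R320.RegDep_10

/-!
# Row 320: the join (helper602)
-/

set_option autoImplicit false

namespace Crest.Agent.R320.Fin_602

open Crest.RegLang Crest.Agent.R320.Hk_851 Crest.Agent.R320.Blk467 Crest.Agent.R320.SemTop_727
open Crest.Agent.R320.ExactR_237

theorem fin (α : Type) [Finite α] (S : Type) [Monoid S] [Finite S] (f : α → S) (s : S) :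
    HL 3 ({w | (w.map f).prod = s} : Language α) := by
  classical
  haveI := Fintype.ofFinite S
  obtain ⟨act, hadd, hone, hmul, hfaith⟩ := exists_module S
  obtain ⟨m, r, hg1⟩ := G1_76.g1 S (S → ZMod 2) act
  obtain ⟨K, hK⟩ := exact_gadget α S (S → ZMod 2) f act (2 * (r + m) + 2)
  obtain ⟨Ms, M, hMs, hMs2, hM, hg⟩ := hg1 (4 ^ K)
  set b := M * (2 ^ (K + 3) + 10) + 1 with hb
  have hpow : 1 ≤ 2 ^ (K + 3) := Nat.one_le_two_pow
  have hb1 : 4 * M + 4 < b := by
    have : M * 11 ≤ M * (2 ^ (K + 3) + 10) := Nat.mul_le_mul_left _ (by omega)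
    omega
  have hb2 : 2 ^ (K + 3) * M + 2 * M < b := by
    have : M * (2 ^ (K + 3) + 10) = 2 ^ (K + 3) * M + 10 * M := by ring
    omega
  have hcop : Nat.Coprime b M := by
    rw [hb, Nat.coprime_mul_left_add_left]
    exact Nat.coprime_one_left M
  obtain ⟨lam, rho, nu1, g1, g2, g3, g4⟩ := hg b hb1 hcop α f
  obtain ⟨c, c1, c2, c3⟩ := Sp_125.spoil Ms M m b K (b ^ m) hM
    (fun k hk => ⟨(hMs2 k hk).1, (hMs2 k hk).2.2⟩) hb2 hcop
  obtain ⟨lam2, rho2, nu2, e1, e2⟩ := hK c (fun i j hij _ => by have := c1 i j hij; omega)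
  obtain ⟨n, _, B, Wo, hLW, hgap, _, _, hfree⟩ :=
    LWallAll_922.walls_all_left α (2 * c K + 2 * b ^ m + 1) (by omega)
  have hcle : ∀ k < K, c k ≤ c K := fun k hk => by have := c1 k K hk; omega
  let G : Inst_602.Cfg α S (S → ZMod 2) :=
    { f := f
      act := act
      Wo := Wo
      n := n
      W := 2 * c K + 2 * b ^ m + 1
      loc := hLW.app
      gap := hgap
      N1 := b ^ m
      T0 := c K
      p0 := c K
      z := 2 * c K + b ^ m + b ^ m + n + c K + 1
      K := K
      C0 := r + m
      c := c
      cle := hcle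
      hz := le_rfl
      hW := by omega
      BadT := Sp_125.Bad Ms M m b
      gol := by
        intro i j k l hi hj hk hl hij hkl habs
        by_contra hne
        have hne' : (i, j) ≠ (k, l) := fun h => hne ⟨congrArg Prod.fst h, congrArg Prod.snd h⟩
        have h := c2 i j k l hij hkl hne'
        rw [abs_le] at habs
        push_cast at habs
        have hN : (0 : ℤ) ≤ (b : ℤ) ^ m := by positivity
        rcases h with h | h
        · have h' : (c i : ℤ) + c l + 4 * (b : ℤ) ^ m < c k + c j := by exact_mod_cast h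
          linarith [habs.1, habs.2]
        · have h' : (c k : ℤ) + c j + 4 * (b : ℤ) ^ m < c i + c l := by exact_mod_cast h
          linarith [habs.1, habs.2]
      spoil := by
        intro T hT F hF
        refine le_trans (Finset.card_le_card ?_) ((c3 T fun l hl => (hcle l hl).trans hT).trans
          (by omega : Ms.card + m ≤ r + m))
        intro p hp
        obtain ⟨h1, h2, h3, h4⟩ := hF p hp
        rw [Finset.mem_filter, Finset.mem_product, Finset.mem_range, Finset.mem_range]
        exact ⟨⟨h1, h2⟩, h3, h4⟩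
      lam := lam
      rho := rho
      nu1 := nu1
      lamle := fun P v h => (g1 P v h).le
      sound1 := fun P Q v b' h1 h2 => g2 P Q v b' h1 h2
      compl1 := by
        intro Y _ hB v
        have hB' := hB
        unfold Sp_125.Bad at hB'
        push Not at hB'
        obtain ⟨P, Q, h1, h2, h3⟩ := g3 Y hB'.1 (fun j hj => hB'.2 j hj) v
        exact ⟨P, Q, h1.symm, h2, h3⟩
      lam2 := lam2
      rho2 := fun k Q => rho2 k Q 1
      nu2 := fun X => nu2 X 1
      sound2 := by
        intro k hk P Q v b' hP h1 h2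
        have := e1 k hk P Q 1 v b' hP h1 h2
        rwa [mul_one] at this
      compl2 := by
        intro u v hu
        exact e2 u 1 v (fun k hk => by rw [hu]; exact hcle k hk) }
  have hWU : Fib_298.WallU Wo n (B + (2 * c K + 2 * b ^ m + 1)) :=
    { loc := hLW.app
      len := hLW.len
      free := by
        intro X hX
        obtain ⟨u, x, v, k, h1, h2, h3, h4⟩ := hfree X hX
        exact ⟨u, x, v, k, h4, by omega, by omega, by omega⟩ }
  have hnu : ∀ y, Language.IsRegular ({Y | nu1 Y = y} : Language α) := fun y =>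
    RegDep_10.regular_fibre (fun w => (w.map f).prod) (by simp) (by intro u v; simp)
      (b ^ m) (M * b ^ m) (by positivity) nu1
      (fun u u' a1 a2 a3 a4 a5 => (g4 u u' a1 a2 a3 a5 a4).2) y
  have hz0 : 0 < G.z := by show 0 < 2 * c K + b ^ m + b ^ m + n + c K + 1; omega
  have hzn : n ≤ G.z := by show n ≤ 2 * c K + b ^ m + b ^ m + n + c K + 1; omega
  refine SemTop_727.top (k := 1) act hadd hone hmul hfaith f
    (fun X => act (nu2 (X.take (c K)) 1) ((X.drop (c K)).map f).prod + nu1 (X.drop (c K)))
    G.D ?_ ?_ ?_ ?_ ?_ G.hC2 ?_ s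
  · intro v X
    show act (act v ((X.take (c K)).map f).prod + nu2 (X.take (c K)) 1)
      ((X.drop (c K)).map f).prod + nu1 (X.drop (c K)) = _
    rw [hadd, ← hmul, ← List.prod_append, ← List.map_append, List.take_append_drop, add_assoc]
  · exact Fib_298.pcode_XX hz0
  · intro x y
    exact Fib_298.hfib hWU hzn act f (c K)
      (by show c K ≤ 2 * c K + b ^ m + b ^ m + n + c K + 1; omega)
      (fun v X0 => act v ((X0.map f).prod) + nu2 X0 1) nu1 hnu x y
  · intro x
    refine (List.finite_length_le α (c K + b ^ m)).subset ?_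
    rintro P ⟨h1, h2⟩
    have := g1 _ _ h2
    rw [List.length_drop] at this
    show P.length ≤ c K + b ^ m
    have h1' : c K ≤ P.length := h1
    change P.length - c K < b ^ m at this
    omega
  · intro x
    refine (List.finite_length_le α (c K)).subset ?_
    rintro P ⟨k, hk, h1, h2⟩
    show P.length ≤ c K
    rw [h1]
    exact hcle k hk
  · intro t
    exact (Fib_298.rest hWU hzn f t).mono (by omega)

theorem main (α : Type*) [Finite α] (L : Language α) (hL : L.IsRegular) :
    ∃ e : GRegExp α, e.height ≤ 3 ∧ e.lang = L :=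
  Univ_188.of_type0 3 (fun β _ L' hL' =>
    of_monoid (k := 3) (fun S _ _ φ s => fin β S φ s) L' hL') α L hL

end Crest.Agent.R320.Fin_602
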