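import Mathlib

/-! Row 320: SPOIL LEAF of lead #13673 (852's base-`b` digits of `T` and CRT names): the wide Golomb
ruler `c l = 2^l * K0` spoils at most `r + m` pairs. -/

namespace Crest.Agent.R320.Sp_625

def Bad (Ms : Finset ℕ) (M m b n : ℕ) : Prop :=
  (∃ k ∈ Ms, k ∣ n) ∨ ∃ j < m, ¬ (M ≤ n / b^j % b ∧ n / b^j % b + M + 1 ≤ b)

theorem sid : ∀ a b c d : ℕ, 2^a + 2^d = 2^b + 2^c → (a = c ∧ b = d) ∨ (a = b ∧ c = d) := by
  have inj : ∀ x y : ℕ, 2^x = 2^y → x = y := fun x y h => Nat.pow_right_injective (le_refl 2) h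
  have pos : ∀ x : ℕ, 0 < 2^x := fun x => Nat.pos_of_ne_zero (by positivity)
  intro a
  induction a with
  | zero =>
    intro b c d h
    rcases b with _ | b <;> rcases c with _ | c <;> rcases d with _ | d <;>
      simp only [pow_succ, pow_zero] at h
    · right; exact ⟨rfl, rfl⟩
    · omega
    · have := pos c; omega
    · have : 2^d = 2^c := by omega
      have := inj _ _ this
      right; exact ⟨rfl, by omega⟩
    · have := pos b; omega
    · have : 2^d = 2^b := by omega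
      have := inj _ _ this
      left; exact ⟨rfl, by omega⟩
    · have := pos b; have := pos c; omega
    · omega
  | succ a ih =>
    intro b c d h
    rcases b with _ | b <;> rcases c with _ | c <;> rcases d with _ | d <;>
      simp only [pow_succ, pow_zero] at h
    · omega
    · have := pos a; have := pos d; omega
    · have : 2^a = 2^c := by omega
      have := inj _ _ this
      left; exact ⟨by omega, rfl⟩
    · omega
    · have : 2^a = 2^b := by omega
      have := inj _ _ this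
      right; exact ⟨by omega, rfl⟩
    · omega
    · omega
    · have h' : 2^a + 2^d = 2^b + 2^c := by omega
      rcases ih b c d h' with ⟨h1, h2⟩ | ⟨h1, h2⟩
      · left; omega
      · right; omega

theorem quo (W s S u T N : ℕ) (δ : ℤ) (hW : 0 < W) (hS : S = s + W*u) (hs : |δ| * s < W)
    (hN : (N:ℤ) = T + δ * S) :
    ∃ ε : ℤ, |ε| ≤ 1 ∧ ((N / W : ℕ) : ℤ) = ((T / W : ℕ) : ℤ) + ε + δ * u := by
  have hW' : (0:ℤ) < W := by exact_mod_cast hW
  have e1 : (N:ℤ) = (T + δ * s) + W * (δ * u) := by rw [hN, hS]; push_cast; ring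
  have e2 : ((N / W : ℕ) : ℤ) = (T + δ * s) / W + δ * u := by
    rw [Int.natCast_div, e1, Int.add_mul_ediv_left _ _ hW'.ne']
  have hab : |δ * s| < W := by rw [abs_mul]; simpa using hs
  obtain ⟨h1, h2⟩ := abs_lt.mp hab
  have hT1 : (W:ℤ) * ((T:ℤ) / W) ≤ T := Int.mul_ediv_self_le hW'.ne'
  have hT2 : (T:ℤ) < W * ((T:ℤ) / W) + W := by
    have := Int.lt_mul_ediv_self_add (x := (T:ℤ)) hW'
    linarith
  have l1 : (T:ℤ) / W - 1 ≤ (T + δ * s) / W := by
    rw [Int.le_ediv_iff_mul_le hW']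
    nlinarith
  have l2 : (T + δ * s) / W < (T:ℤ) / W + 2 := by
    rw [Int.ediv_lt_iff_lt_mul hW']
    nlinarith
  refine ⟨(T + δ * s) / W - (T:ℤ) / W, ?_, ?_⟩
  · rw [abs_le]; constructor <;> linarith
  · rw [e2, Int.natCast_div]; ring

theorem near (D RM M : ℕ) (h : D % RM < M ∨ RM ≤ D % RM + M) (hM : 0 < RM) :
    ∃ z : ℤ, |(D:ℤ) - z * RM| ≤ M := by
  have e : (RM:ℤ) * ((D / RM : ℕ) : ℤ) + ((D % RM : ℕ) : ℤ) = D := by exact_mod_cast Nat.div_add_mod D RM
  have hlt : ((D % RM : ℕ) : ℤ) < RM := by exact_mod_cast Nat.mod_lt _ hM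
  have h0 : (0:ℤ) ≤ ((D % RM : ℕ) : ℤ) := by positivity
  rcases h with h | h
  · refine ⟨((D / RM : ℕ) : ℤ), ?_⟩
    have h' : ((D % RM : ℕ) : ℤ) < M := by exact_mod_cast h
    rw [abs_le]; constructor <;> nlinarith
  · refine ⟨((D / RM : ℕ) : ℤ) + 1, ?_⟩
    have h' : (RM:ℤ) ≤ ((D % RM : ℕ) : ℤ) + M := by exact_mod_cast h
    rw [abs_le]; constructor <;> nlinarith

def dl (ab : ℕ × ℕ) : ℤ := 2^ab.2 - 2^ab.1

theorem dl_abs (K : ℕ) (ab : ℕ × ℕ) (h1 : ab.1 < K) (h2 : ab.2 < K) :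
    |dl ab| ≤ ((2^K : ℕ) : ℤ) := by
  have p1 : (2:ℤ)^ab.1 ≤ 2^K := pow_le_pow_right₀ (by norm_num) h1.le
  have p2 : (2:ℤ)^ab.2 ≤ 2^K := pow_le_pow_right₀ (by norm_num) h2.le
  have q1 : (0:ℤ) < 2^ab.1 := by positivity
  have q2 : (0:ℤ) < 2^ab.2 := by positivity
  unfold dl
  push_cast
  rw [abs_le]; constructor <;> linarith

theorem dl_ne (ab cd : ℕ × ℕ) (hab : ab.1 ≠ ab.2) (hne : ab ≠ cd) : dl ab - dl cd ≠ 0 := by
  intro h
  unfold dl at h
  have h' : (2:ℤ)^ab.1 + 2^cd.2 = 2^ab.2 + 2^cd.1 := by linarith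
  have h'' : 2^ab.1 + 2^cd.2 = 2^ab.2 + 2^cd.1 := by exact_mod_cast h'
  rcases sid _ _ _ _ h'' with ⟨x, y⟩ | ⟨x, y⟩
  · exact hne (Prod.ext x y)
  · exact hab x

theorem band (E b M w : ℕ) (Q : ℤ) (D D' : ℕ) (ε ε' δ δ' : ℤ) (hE : 0 < E)
    (hM : 1 < M) (hb : 64 * E * M < b) (he : |ε| ≤ 1) (he' : |ε'| ≤ 1)
    (hD : (D:ℤ) = Q + ε + δ * ((4*M + b*w : ℕ) : ℤ))
    (hD' : (D':ℤ) = Q + ε' + δ' * ((4*M + b*w : ℕ) : ℤ))
    (h16 : δ - δ' ≠ 0) (h32 : |δ - δ'| ≤ 2 * E)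
    (hc : D % b < M ∨ b ≤ D % b + M) (hc' : D' % b < M ∨ b ≤ D' % b + M) :
    False := by
  have hbpos : 0 < b := by omega
  obtain ⟨z, hz⟩ := near D b M hc hbpos
  obtain ⟨z', hz'⟩ := near D' b M hc' hbpos
  obtain ⟨z1, z2⟩ := abs_le.mp hz
  obtain ⟨z1', z2'⟩ := abs_le.mp hz'
  obtain ⟨e1, e2⟩ := abs_le.mp he
  obtain ⟨e1', e2'⟩ := abs_le.mp he'
  obtain ⟨d1, d2⟩ := abs_le.mp h32
  set t : ℤ := z - z' - (δ - δ') * w with ht
  have key : (D:ℤ) - z * b - (D' - z' * b) = (ε - ε') + 4 * (M * (δ - δ')) - t * b := by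
    rw [hD, hD', ht]; push_cast; ring
  have hM' : (2:ℤ) ≤ M := by exact_mod_cast hM
  have hb' : (64:ℤ) * E * M < b := by exact_mod_cast hb
  have hE' : (1:ℤ) ≤ E := by exact_mod_cast hE
  have m1 : (M:ℤ) * (δ - δ') ≤ M * (2 * E) := mul_le_mul_of_nonneg_left d2 (by positivity)
  have m2 : (M:ℤ) * (-(2 * E)) ≤ M * (δ - δ') := mul_le_mul_of_nonneg_left d1 (by positivity)
  have m3 : (M:ℤ) * 1 ≤ M * E := mul_le_mul_of_nonneg_left hE' (by positivity)
  have eEM : (64:ℤ) * E * M = 64 * (M * E) := by ring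
  have eEM2 : (M:ℤ) * (2 * E) = 2 * (M * E) := by ring
  have eEM3 : (M:ℤ) * (-(2 * E)) = - (2 * (M * E)) := by ring
  rcases lt_trichotomy t 0 with h | h | h
  · have : t * b ≤ -1 * (b:ℤ) := by
      apply mul_le_mul_of_nonneg_right (by omega) (by positivity)
    linarith
  · rw [h] at key
    rcases lt_or_gt_of_ne h16 with h' | h'
    · have : (M:ℤ) * (δ - δ') ≤ M * (-1) := mul_le_mul_of_nonneg_left (by omega) (by positivity)
      linarith
    · have : (M:ℤ) * 1 ≤ M * (δ - δ') := mul_le_mul_of_nonneg_left (by omega) (by positivity)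
      linarith
  · have : 1 * (b:ℤ) ≤ t * b := by
      apply mul_le_mul_of_nonneg_right (by omega) (by positivity)
    linarith

theorem card_le_one_of {β : Type*} [DecidableEq β] (F : Finset β) (p : β → Prop) [DecidablePred p]
    (h : ∀ a ∈ F, ∀ b ∈ F, a ≠ b → ¬ (p a ∧ p b)) : (F.filter p).card ≤ 1 := by
  rw [Finset.card_le_one]
  intro a ha b hb
  rw [Finset.mem_filter] at ha hb
  by_contra hne
  exact h a ha.1 b hb.1 hne ⟨ha.2, hb.2⟩

/-- `4 M (1 + b + .. + b^(m-1))` -/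
def sg (M b : ℕ) : ℕ → ℕ
  | 0 => 0
  | j+1 => sg M b j + 4 * M * b^j

theorem sg_up (M b l : ℕ) : ∀ j, ∃ w, sg M b (l+1+j) = sg M b l + b^l * (4*M + b*w) := by
  intro j
  induction j with
  | zero => exact ⟨0, by show sg M b l + 4 * M * b^l = _; ring⟩
  | succ j ih =>
    obtain ⟨w, hw⟩ := ih
    refine ⟨w + 4 * M * b^j, ?_⟩
    show sg M b (l+1+j) + 4 * M * b^(l+1+j) = _
    rw [hw, pow_add, pow_succ]; ring

theorem sg_bound (E M b : ℕ) (hE : 0 < E) (hb : 64 * E * M < b) (l : ℕ) :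
    4 * E * sg M b l < b^l := by
  have hbpos : 0 < b := by omega
  induction l with
  | zero => simp [sg]
  | succ l ih =>
    show 4 * E * (sg M b l + 4 * M * b^l) < b^(l+1)
    have h1 : 1 ≤ b^l := Nat.one_le_iff_ne_zero.mpr (by positivity)
    have h2 : (64 * E * M + 1) * b^l ≤ b * b^l := Nat.mul_le_mul_right _ hb
    have h3 : 4 * E * (sg M b l + 4 * M * b^l) = 4 * E * sg M b l + 16 * E * M * b^l := by ring
    have h4 : (64 * E * M + 1) * b^l = 64 * E * M * b^l + b^l := by ring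
    have h5 : 16 * E * M * b^l ≤ 64 * E * M * b^l := Nat.mul_le_mul_right _ (by nlinarith)
    rw [h3, pow_succ, mul_comm (b^l) b]
    omega

open Classical in
/-- **SPOIL LEAF** -/
theorem spoil (Ms : Finset ℕ) (M m K N1 b : ℕ) (hM : 1 < M)
    (hMs : ∀ k ∈ Ms, 2^(K+2) < k ∧ k ∣ M) (hb : 2^(K+6) * M < b) (hcop : Nat.Coprime b M) :
    ∃ c : ℕ → ℕ, (∀ i j, i < j → c i + 4 * N1 < c j) ∧
      (∀ i j k l, i < K → j < K → k < K → l < K → i ≠ j → k ≠ l → (i,j) ≠ (k,l) →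
        c i + c l + 4*N1 < c k + c j ∨ c k + c j + 4*N1 < c i + c l) ∧
      ∀ T, (∀ i < K, c i ≤ T) → ((Finset.range K ×ˢ Finset.range K).filter
        (fun p => p.1 ≠ p.2 ∧ Bad Ms M m b (T + c p.2 - c p.1))).card ≤ Ms.card + m := by
  set E := 2^K with hE
  have hEpos : 0 < E := by rw [hE]; positivity
  have hb' : 64 * E * M < b := by
    have : 2^(K+6) * M = 64 * E * M := by rw [pow_add, hE]; ring
    omega
  have hbpos : 0 < b := by omega
  have hcop' : Nat.Coprime (b^m) M := Nat.Coprime.pow_left m hcop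
  obtain ⟨x0, hx1, hx2⟩ := Nat.chineseRemainder hcop' (sg M b m) 1
  set K0 := x0 + (4 * N1 + 1 + sg M b m) * (M * b^m) with hK0
  have hMb : 1 ≤ M * b^m := Nat.one_le_iff_ne_zero.mpr (by positivity)
  have hK0big : 4 * N1 + 1 + sg M b m ≤ K0 := by
    rw [hK0]
    have := Nat.mul_le_mul_left (4 * N1 + 1 + sg M b m) hMb
    omega
  have hK0b : K0 ≡ sg M b m [MOD b^m] := by
    rw [hK0]
    have : (4 * N1 + 1 + sg M b m) * (M * b^m) ≡ 0 [MOD b^m] :=
      (Nat.modEq_zero_iff_dvd).mpr (Dvd.intro_left ((4 * N1 + 1 + sg M b m) * M) (by ring))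
    simpa using hx1.add this
  have hK0M : K0 ≡ 1 [MOD M] := by
    rw [hK0]
    have : (4 * N1 + 1 + sg M b m) * (M * b^m) ≡ 0 [MOD M] :=
      (Nat.modEq_zero_iff_dvd).mpr (Dvd.intro_left ((4 * N1 + 1 + sg M b m) * b^m) (by ring))
    simpa using hx2.add this
  obtain ⟨q, hq⟩ : ∃ q, K0 = sg M b m + b^m * q := by
    have h1 : b^m ∣ K0 - sg M b m := (Nat.modEq_iff_dvd' (by omega)).mp hK0b.symm
    obtain ⟨q, hq⟩ := h1
    exact ⟨q, by omega⟩
  have hlow : ∀ l < m, ∃ w, K0 = sg M b l + b^l * (4*M + b*w) := by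
    intro l hl
    obtain ⟨w, hw⟩ := sg_up M b l (m - (l+1))
    have hml : l + 1 + (m - (l+1)) = m := by omega
    rw [hml] at hw
    refine ⟨w + b^(m-(l+1)) * q, ?_⟩
    have hp : b^m = b^l * b * b^(m-(l+1)) := by rw [← pow_succ, ← pow_add, hml]
    rw [hq, hw, hp]; ring
  have hcmod : ∀ k ∈ Ms, (k:ℤ) ∣ (K0:ℤ) - 1 := by
    intro k hk
    have h1 : K0 ≡ 1 [MOD k] := hK0M.of_dvd (hMs k hk).2
    have h2 := (Nat.modEq_iff_dvd).mp h1.symm
    simpa using h2
  refine ⟨fun l => 2^l * K0, ?_, ?_, ?_⟩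
  · intro i j hij
    have h1 : 2^(i+1) ≤ 2^j := Nat.pow_le_pow_right (by norm_num) hij
    have h2 : 2^(i+1) * K0 ≤ 2^j * K0 := Nat.mul_le_mul_right _ h1
    have h3 : 2^(i+1) * K0 = 2^i * K0 + 2^i * K0 := by rw [pow_succ]; ring
    have h4 : 1 * K0 ≤ 2^i * K0 := Nat.mul_le_mul_right _ Nat.one_le_two_pow
    show 2^i * K0 + 4 * N1 < 2^j * K0
    omega
  · intro i j k l hi hj hk hl hij hkl hne
    show 2^i * K0 + 2^l * K0 + 4*N1 < 2^k * K0 + 2^j * K0 ∨ 2^k * K0 + 2^j * K0 + 4*N1 < 2^i * K0 + 2^l * K0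
    have hne' : 2^i + 2^l ≠ 2^j + 2^k := by
      intro h
      rcases sid i j k l h with ⟨x, y⟩ | ⟨x, y⟩
      · exact hne (by rw [x, y])
      · exact hij x
    have e1 : 2^i * K0 + 2^l * K0 = (2^i + 2^l) * K0 := by ring
    have e2 : 2^k * K0 + 2^j * K0 = (2^j + 2^k) * K0 := by ring
    rw [e1, e2]
    rcases Nat.lt_or_gt_of_ne hne' with h | h
    · left
      have := Nat.mul_le_mul_right K0 (Nat.succ_le_of_lt h)
      rw [Nat.succ_mul] at this
      omega
    · right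
      have := Nat.mul_le_mul_right K0 (Nat.succ_le_of_lt h)
      rw [Nat.succ_mul] at this
      omega
  · intro T hT
    set c : ℕ → ℕ := fun l => 2^l * K0 with hcdef
    set F := (Finset.range K ×ˢ Finset.range K).filter (fun p : ℕ × ℕ => p.1 ≠ p.2) with hF
    have hFm : ∀ p ∈ F, p.1 < K ∧ p.2 < K ∧ p.1 ≠ p.2 := by
      intro p hp
      rw [hF, Finset.mem_filter, Finset.mem_product, Finset.mem_range, Finset.mem_range] at hp
      exact ⟨hp.1.1, hp.1.2, hp.2⟩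
    have cast : ∀ p : ℕ × ℕ, p.1 < K → ((T + c p.2 - c p.1 : ℕ) : ℤ) = T + dl p * K0 := by
      intro p hp1
      have : c p.1 ≤ T := hT _ hp1
      rw [Nat.cast_sub (by omega)]
      simp only [hcdef]
      unfold dl; push_cast; ring
    have ddiff : ∀ p q : ℕ × ℕ, p.1 < K → p.2 < K → q.1 < K → q.2 < K →
        |dl p - dl q| ≤ 2 * (E:ℤ) := by
      intro p q h1 h2 h3 h4
      have a := dl_abs K p h1 h2
      have b' := dl_abs K q h3 h4
      rw [← hE] at a b'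
      have := abs_sub (dl p) (dl q)
      linarith
    have A2 : ∀ k ∈ Ms, (F.filter (fun p => k ∣ (T + c p.2 - c p.1))).card ≤ 1 := by
      intro k hk
      apply card_le_one_of
      rintro p hp q hq' hne ⟨hd1, hd2⟩
      obtain ⟨u1, u2, u3⟩ := hFm p hp
      obtain ⟨v1, v2, v3⟩ := hFm q hq'
      have c1 := cast p u1
      have c2 := cast q v1
      have g1 : (k:ℤ) ∣ ((T + c p.2 - c p.1 : ℕ) : ℤ) - ((T + c q.2 - c q.1 : ℕ) : ℤ) :=
        dvd_sub (by exact_mod_cast hd1) (by exact_mod_cast hd2)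
      rw [c1, c2] at g1
      have g2 : (k:ℤ) ∣ ((K0:ℤ) - 1) * (dl p - dl q) := Dvd.dvd.mul_right (hcmod k hk) _
      have g3 : (k:ℤ) ∣ dl p - dl q := by
        have e : dl p - dl q = ((T + dl p * K0) - (T + dl q * K0)) - ((K0:ℤ) - 1) * (dl p - dl q) := by ring
        rw [e]; exact dvd_sub g1 g2
      have hk' : (4:ℤ) * E < k := by
        have h1 := (hMs k hk).1
        have h2 : 2^(K+2) = 4 * E := by rw [pow_add, hE]; ring
        rw [h2] at h1
        exact_mod_cast h1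
      have hE' : (1:ℤ) ≤ E := by exact_mod_cast hEpos
      have g4 : dl p - dl q = 0 := by
        apply Int.eq_zero_of_abs_lt_dvd g3
        have := ddiff p q u1 u2 v1 v2
        linarith
      exact dl_ne p q u3 hne g4
    have B1 : ∀ l < m, (F.filter (fun p => ¬ (M ≤ (T + c p.2 - c p.1) / b^l % b ∧
        (T + c p.2 - c p.1) / b^l % b + M + 1 ≤ b))).card ≤ 1 := by
      intro l hl
      apply card_le_one_of
      rintro p hp q hq' hne ⟨hd1, hd2⟩
      obtain ⟨u1, u2, u3⟩ := hFm p hp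
      obtain ⟨v1, v2, v3⟩ := hFm q hq'
      obtain ⟨w, hw⟩ := hlow l hl
      have hbl : 0 < b^l := by positivity
      have small : ∀ p : ℕ × ℕ, p.1 < K → p.2 < K → |dl p| * ((sg M b l : ℕ) : ℤ) < ((b^l : ℕ) : ℤ) := by
        intro p hp1 hp2
        have a := dl_abs K p hp1 hp2
        rw [← hE] at a
        have a' : |dl p| * ((sg M b l : ℕ) : ℤ) ≤ E * ((sg M b l : ℕ) : ℤ) :=
          mul_le_mul_of_nonneg_right a (by positivity)
        have h2 := sg_bound E M b hEpos hb' l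
        have h3 : E * sg M b l ≤ 4 * E * sg M b l := by nlinarith [Nat.zero_le (E * sg M b l)]
        have h4 : E * sg M b l < b^l := lt_of_le_of_lt h3 h2
        have h5 : (E:ℤ) * ((sg M b l : ℕ) : ℤ) < ((b^l : ℕ) : ℤ) := by exact_mod_cast h4
        linarith
      obtain ⟨ε, he, hD⟩ := quo (b^l) (sg M b l) K0 (4*M + b*w) T (T + c p.2 - c p.1) (dl p) hbl hw
        (small p u1 u2) (cast p u1)
      obtain ⟨ε', he', hD'⟩ := quo (b^l) (sg M b l) K0 (4*M + b*w) T (T + c q.2 - c q.1) (dl q) hbl hw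
        (small q v1 v2) (cast q v1)
      refine band E b M w _ _ _ ε ε' _ _ hEpos hM hb' he he' hD hD' (dl_ne p q u3 hne)
        (ddiff p q u1 u2 v1 v2) ?_ ?_
      · by_contra hcon
        push Not at hcon
        exact hd1 ⟨hcon.1, by omega⟩
      · by_contra hcon
        push Not at hcon
        exact hd2 ⟨hcon.1, by omega⟩
    have sub : (Finset.range K ×ˢ Finset.range K).filter
        (fun p => p.1 ≠ p.2 ∧ Bad Ms M m b (T + c p.2 - c p.1)) ⊆
        (Ms.biUnion (fun k => F.filter (fun p => k ∣ (T + c p.2 - c p.1)))) ∪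
        ((Finset.range m).biUnion (fun l => F.filter (fun p => ¬ (M ≤ (T + c p.2 - c p.1) / b^l % b ∧
          (T + c p.2 - c p.1) / b^l % b + M + 1 ≤ b)))) := by
      intro p hp
      rw [Finset.mem_filter] at hp
      obtain ⟨hp1, hp2, hp3⟩ := hp
      have hpF : p ∈ F := by rw [hF, Finset.mem_filter]; exact ⟨hp1, hp2⟩
      rcases hp3 with ⟨k, hk, hkd⟩ | ⟨l, hl, h⟩
      · exact Finset.mem_union.mpr (Or.inl (Finset.mem_biUnion.mpr ⟨k, hk, Finset.mem_filter.mpr ⟨hpF, hkd⟩⟩))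
      · exact Finset.mem_union.mpr (Or.inr (Finset.mem_biUnion.mpr
          ⟨l, Finset.mem_range.mpr hl, Finset.mem_filter.mpr ⟨hpF, h⟩⟩))
    refine (Finset.card_le_card sub).trans ?_
    refine (Finset.card_union_le _ _).trans ?_
    have c2 : (Ms.biUnion (fun k => F.filter (fun p => k ∣ (T + c p.2 - c p.1)))).card ≤ Ms.card * 1 :=
      Finset.card_biUnion_le_card_mul _ _ _ (fun k hk => A2 k hk)
    have c3 : ((Finset.range m).biUnion (fun l => F.filter (fun p => ¬ (M ≤ (T + c p.2 - c p.1) / b^l % b ∧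
          (T + c p.2 - c p.1) / b^l % b + M + 1 ≤ b)))).card ≤ (Finset.range m).card * 1 :=
      Finset.card_biUnion_le_card_mul _ _ _ (fun l hl => B1 l (Finset.mem_range.mp hl))
    rw [Finset.card_range] at c3
    omega

end Crest.Agent.R320.Sp_625
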