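import Crest.Agent.R320.G1_604
import Crest.Agent.R320.SemTop_727
import Crest.Agent.R320.SemInst_939
import Crest.Agent.R320.Sp_625
import Crest.Agent.R320.LWallAll_922
import Crest.Agent.R320.RegCongr_253
import Crest.Agent.R320.Fib_298
import Crest.Agent.R320.ExactR_237

/-!
Row 320: the join.  G1_604 (gadget 1), ExactR_237 (gadget 2), Sp_625 (ruler), LWallAll_922 (walls),
SemInst_939 (both schemes), Fib_298 (height one families), SemTop_727 (top).
-/

set_option autoImplicit false

namespace Crest.Agent.R320.Fin_604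

open Crest.RegLang Crest.Agent.R320.Hk_851 Crest.Agent.R320.Blk467

theorem fin (α : Type) [Finite α] (S : Type) [Monoid S] [Finite S] (φ : α → S) (s : S) :
    HL 3 ({w | (w.map φ).prod = s} : Language α) := by
  classical
  have := Fintype.ofFinite S
  obtain ⟨act, hadd, hone, hmul, hfaith⟩ := exists_module S
  obtain ⟨m, r, hg1⟩ := G1_604.g1 S (S → ZMod 2) act
  obtain ⟨K, hK⟩ := ExactR_237.exact_gadget α S (S → ZMod 2) φ act (2 * (r + m) + 2)
  obtain ⟨Ms, M, hcard, hMs, hM, hg⟩ := hg1 (2 ^ (K + 2))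
  set b : ℕ := 2 ^ (K + 6) * (2 * M) + 1 with hbdef
  have h64 : 64 ≤ 2 ^ (K + 6) := by
    have : 2 ^ 6 ≤ 2 ^ (K + 6) := Nat.pow_le_pow_right (by norm_num) (by omega)
    simpa using this
  have hbig : 64 * (2 * M) ≤ 2 ^ (K + 6) * (2 * M) := Nat.mul_le_mul_right _ h64
  have hb1 : 4 * M + 4 < b := by omega
  have hb0 : 0 < b := by omega
  have hcop2 : Nat.Coprime b (2 * M) := by
    rw [hbdef]
    simp [Nat.coprime_mul_right_add_left]
  have hcop : Nat.Coprime b M := Nat.Coprime.coprime_mul_left_right hcop2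
  obtain ⟨lam, rho, nu1, hlen, hsound, hcomp, hfs⟩ := hg b hb1 hcop α φ
  set N1 : ℕ := b ^ m with hN1
  have hN1pos : 0 < N1 := Nat.pow_pos hb0
  obtain ⟨c, hc1, hc2, hc3⟩ := Sp_625.spoil Ms (2 * M) m K N1 b (by omega)
    (fun k hk => ⟨(hMs k hk).1, Dvd.dvd.mul_left (hMs k hk).2.2 2⟩) (by omega) hcop2
  have hcmono : ∀ i j, i < j → c i < c j := fun i j hij => by
    have := hc1 i j hij
    omega
  obtain ⟨lamK, rhoK, nuK, hex, hcm⟩ := hK c (fun i j hij _ => hcmono i j hij)
  set p0 : ℕ := c K with hp0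
  have hcp : ∀ k, k < K → c k ≤ p0 := fun k hk => (hcmono k K hk).le
  have hinj : ∀ i j, c i = c j → i = j := by
    intro i j h
    rcases lt_trichotomy i j with h1 | h1 | h1
    · have := hcmono i j h1; omega
    · exact h1
    · have := hcmono j i h1; omega
  obtain ⟨n, G, B, Wo, hLW, hgap, -, -, hfree⟩ :=
    LWallAll_922.walls_all_left α (2 * p0 + 2 * N1 + 1) (by omega)
  set W : ℕ := 2 * p0 + 2 * N1 + 1 with hW
  set z : ℕ := p0 + N1 + N1 + n + 2 * p0 + 0 + 1 with hz
  have hWU : Fib_298.WallU Wo n (B + W) := by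
    refine ⟨hLW.app, hLW.len, ?_⟩
    intro X hX
    obtain ⟨u, x, v, k, h1, h2, h3, h4⟩ := hfree X hX
    exact ⟨u, x, v, k, h4, by omega, by omega, by omega⟩
  have hsep : ∀ P D : List α, n ≤ P.length → Wo P → Wo (P ++ D) → D ≠ [] → W < D.length := by
    intro P D _ hP hPD hD
    have hl : 0 < D.length := List.length_pos_iff.2 hD
    have := hgap (P ++ D) P.length (P ++ D).length (by rw [List.length_append]; omega) le_rfl
      (by rwa [List.take_left]) (by rwa [List.take_length])
    rw [List.length_append] at this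
    omega
  let φ' : List α → S := fun w => (w.map φ).prod
  let nu2 : List α → (S → ZMod 2) := fun u => nuK u 1
  let lam2 : List α → Option (S → ZMod 2) := fun P =>
    if h : ∃ j, j < K ∧ P.length = c j then lamK h.choose P else none
  let rho2 : List α → Option (S → ZMod 2) := fun Q =>
    if h : ∃ j, j < K ∧ Q.length + c j = p0 then rhoK h.choose Q 1 else none
  have hlam2 : ∀ j, j < K → ∀ P : List α, P.length = c j → lam2 P = lamK j P := by
    intro j hj P hP
    have h : ∃ j, j < K ∧ P.length = c j := ⟨j, hj, hP⟩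
    have e : h.choose = j := hinj _ _ (h.choose_spec.2.symm.trans hP)
    show (if h : ∃ j, j < K ∧ P.length = c j then lamK h.choose P else none) = _
    rw [dif_pos h, e]
  have hrho2 : ∀ j, j < K → ∀ Q : List α, Q.length + c j = p0 → rho2 Q = rhoK j Q 1 := by
    intro j hj Q hQ
    have h : ∃ j, j < K ∧ Q.length + c j = p0 := ⟨j, hj, hQ⟩
    have e : h.choose = j := hinj _ _ (by have := h.choose_spec.2; omega)
    show (if h : ∃ j, j < K ∧ Q.length + c j = p0 then rhoK h.choose Q 1 else none) = _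
    rw [dif_pos h, e]
  have h2len : ∀ P v, lam2 P = some v → ∃ j, j < K ∧ P.length = c j := by
    intro P v h
    by_contra hc
    have : lam2 P = none := by
      show (if h : ∃ j, j < K ∧ P.length = c j then lamK h.choose P else none) = _
      rw [dif_neg hc]
    rw [this] at h
    exact absurd h (by simp)
  have hex2 : ∀ P Q v b, P.length + Q.length = p0 → lam2 P = some v → rho2 Q = some b →
      b = act v (φ' (P ++ Q)) + nu2 (P ++ Q) := by
    intro P Q v b hl hP hQ
    obtain ⟨j, hj, hPj⟩ := h2len P v hP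
    rw [hlam2 j hj P hPj] at hP
    rw [hrho2 j hj Q (by omega)] at hQ
    have := hex j hj P Q 1 v b hPj hP hQ
    rw [mul_one] at this
    exact this
  have hcm2 : ∀ (u : List α) (v : S → ZMod 2), u.length = p0 → ∃ J : Finset ℕ,
      1 + ((r + m) + (r + m)) < J.card ∧
      ∀ j ∈ J, j < K ∧ lam2 (u.take (c j)) = some v ∧ (rho2 (u.drop (c j))).isSome = true := by
    intro u v hu
    obtain ⟨I, hI, hIk⟩ := hcm u 1 v (fun k hk => by rw [hu]; exact hcp k hk)
    refine ⟨I, by omega, fun j hj => ?_⟩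
    obtain ⟨h1, h2, h3⟩ := hIk j hj
    have := hcp j h1
    refine ⟨h1, ?_, ?_⟩
    · rw [hlam2 j h1 _ (by rw [List.length_take]; omega)]; exact h2
    · rw [hrho2 j h1 _ (by rw [List.length_drop]; omega)]; exact h3
  have hsound' : ∀ P Q v b, lam P = some v → rho Q = some b →
      b = act v (φ' (P ++ Q)) + nu1 (P ++ Q) := fun P Q v b h1 h2 => hsound P Q v b h1 h2
  have hlamlen : ∀ P v, lam P = some v → P.length ≤ N1 := fun P v h => (hlen P v h).le
  have hcomp' : ∀ u : List α, 0 ≤ u.length → ¬ Sp_625.Bad Ms (2 * M) m b u.length →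
      ∀ v, ∃ P Q, P ++ Q = u ∧ lam P = some v ∧ (rho Q).isSome = true := by
    intro u _ hB v
    unfold Sp_625.Bad at hB
    push Not at hB
    refine hcomp u (fun k hk => hB.1 k hk) (fun j hj => ?_) v
    obtain ⟨h1, h2⟩ := hB.2 j hj
    exact ⟨by omega, by omega⟩
  have hres : ∀ k l k' l', k < K → l < K → k' < K → l' < K → k ≠ l → k' ≠ l' →
      c k + c l' ≤ c k' + c l + 2 * N1 → c k' + c l ≤ c k + c l' + 2 * N1 → k = k' := by
    intro k l k' l' hk hl hk' hl' hne hne' h1 h2
    by_contra hkk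
    rcases hc2 k l k' l' hk hl hk' hl' hne hne' (fun h => hkk (congrArg Prod.fst h)) with h | h
    · omega
    · omega
  have hspoil : ∀ T, 0 + p0 ≤ T → ∀ A : Finset ℕ, (∀ k ∈ A, k < K ∧ ∃ l, l < K ∧ k ≠ l ∧
      Sp_625.Bad Ms (2 * M) m b (T + c l - c k)) → A.card ≤ r + m := by
    intro T hT A hA
    have h3 := hc3 T (fun i hi => by have := hcp i hi; omega)
    refine le_trans ?_ (h3.trans (by omega))
    have hsub : A ⊆ (((Finset.range K ×ˢ Finset.range K).filter
        (fun p => p.1 ≠ p.2 ∧ Sp_625.Bad Ms (2 * M) m b (T + c p.2 - c p.1))).image Prod.fst) := by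
      intro k hk
      obtain ⟨h1, l, hl, hne, hb⟩ := hA k hk
      rw [Finset.mem_image]
      refine ⟨(k, l), ?_, rfl⟩
      rw [Finset.mem_filter, Finset.mem_product, Finset.mem_range, Finset.mem_range]
      exact ⟨⟨h1, hl⟩, hne, hb⟩
    exact (Finset.card_le_card hsub).trans Finset.card_image_le
  let D : SemTop_727.Sch α (S → ZMod 2) :=
    ⟨Fib_298.XX Wo z, SemInst_939.Tm φ' act nu2 nu1 p0, SemInst_939.L1 φ' act nu2 p0 lam,
      fun x => {P | lam2 P = some x}⟩
  have hnureg : ∀ y, Language.IsRegular ({Y | nu1 Y = y} : Language α) := by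
    intro y
    refine RegCongr_253.regular_of_congr φ (b ^ m) (M * b ^ m)
      (Nat.mul_pos hM (Nat.pow_pos hb0)) _ ?_
    intro q q' h1 h2 h3 h4 h5 hq
    have := (hfs q q' h1 h2 h3 h4 h5).2
    show nu1 q' = y
    rw [← this]
    exact hq
  refine SemTop_727.top (k := 1) act hadd hone hmul hfaith φ
    (fun X => act (nu2 (X.take p0)) (φ' (X.drop p0)) + nu1 (X.drop p0)) D ?_
    (Fib_298.pcode_XX (by omega)) ?_ ?_ ?_ ?_ ?_ s
  · intro v X
    show act (act v (φ' (X.take p0)) + nu2 (X.take p0)) (φ' (X.drop p0)) + nu1 (X.drop p0) = _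
    have e : φ' (X.take p0) * φ' (X.drop p0) = (X.map φ).prod := by
      show ((X.take p0).map φ).prod * ((X.drop p0).map φ).prod = _
      rw [← List.prod_append, ← List.map_append, List.take_append_drop]
    rw [hadd, ← hmul, e, add_assoc]
  · intro x y
    exact Fib_298.hfib hWU (by omega) act φ p0 (by omega)
      (fun v X0 => act v (X0.map φ).prod + nu2 X0) nu1 hnureg x y
  · intro x
    refine (List.finite_length_le α (p0 + N1)).subset ?_
    rintro P ⟨h1, h2⟩
    have := hlamlen _ _ h2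
    rw [List.length_drop] at this
    show P.length ≤ p0 + N1
    omega
  · intro x
    refine (List.finite_length_le α p0).subset ?_
    intro P hP
    obtain ⟨j, hj, hPj⟩ := h2len P x hP
    show P.length ≤ p0
    rw [hPj]
    exact hcp j hj
  · intro X1 hX1 X2 hX2 x
    obtain ⟨P, hP, Q, hQ, e⟩ := SemInst_939.hC2 φ' act nu2 nu1 p0 n N1 0 z Wo
      (Sp_625.Bad Ms (2 * M) m b) lam rho hLW.app W p0 K (r + m) c hsep hcp le_rfl (by omega)
      (by omega) hsound' hlamlen hcomp' hres hspoil lam2 rho2 h2len hex2 hcm2 X1 hX1 X2 hX2 x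
    exact ⟨P, hP, Q, hQ, e⟩
  · intro s'
    exact (Fib_298.rest hWU (by omega) φ s').mono (by norm_num)

end Crest.Agent.R320.Fin_604
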