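import Crest.Agent.R320.UG_605
import Crest.Agent.R320.RandF_808
import Crest.Agent.R320.Thin_963

/-!
Row 320: closed form of the grid gadget (693 #13203), with the thin ruler (963).
-/

set_option autoImplicit false

namespace Crest.Agent.R320.UG2_605

open Finset Crest.Agent.R320.GridA_605 Crest.Agent.R320.Zone132_898 Crest.Agent.R320.UG_605

theorem sum_G (p : P) (hQ : 2 ≤ p.Q) (i : ℕ) : ∑ j ∈ range (i + 1), p.G j ≤ 2 * p.G i := by
  induction i with
  | zero => simp; omega
  | succ i ih =>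
    rw [Finset.sum_range_succ]
    have h1 := p.G_succ i
    have h2 : 2 * p.G i ≤ p.Q * p.G i := Nat.mul_le_mul_right _ hQ
    omega

theorem thin_nat (p : P) (K : ℕ) (Ms : Finset ℕ) (hMs : ∀ q ∈ Ms, q.Prime ∧ 2 ^ (K + 1) ≤ q ∧ q ∣ p.M)
    (hQ : 2 ^ (K + 5) * p.M ≤ p.Q) (N0 : ℕ) :
    ∃ X : ℕ, N0 ≤ X ∧ 0 < X ∧ ∀ (τ p0 : ℕ), p0 + X * 2 ^ K ≤ τ → ∀ J : Finset ℕ,
        (∀ k ∈ J, k < K ∧ ∃ k', k' < K ∧ k' ≠ k ∧
          ((∃ q ∈ Ms, q ∣ (τ + X * 2 ^ k' - X * 2 ^ k - p0)) ∨
            p.Band (τ + X * 2 ^ k' - X * 2 ^ k - p0))) →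
        J.card ≤ Ms.card + p.m := by
  classical
  have hM := p.hM
  have hQ2 : 2 ≤ p.Q := by
    have h1 : 2 ≤ 2 ^ (K + 5) := by
      calc 2 = 2 ^ 1 := rfl
        _ ≤ 2 ^ (K + 5) := Nat.pow_le_pow_right (by norm_num) (by omega)
    calc 2 ≤ 2 ^ (K + 5) := h1
      _ ≤ 2 ^ (K + 5) * p.M := Nat.le_mul_of_pos_right _ hM
      _ ≤ _ := hQ
  obtain ⟨X, hX0, hXpos, hX⟩ := Thin963.thin K p.m Ms (fun i => (p.G i : ℤ))
    (fun i => (p.M * p.G i : ℤ)) (fun _ => 0)
    (fun q hq => ⟨(hMs q hq).1, (hMs q hq).2.1⟩)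
    (fun q hq => by
      have h1 : Nat.Coprime p.Q q := Nat.Coprime.coprime_dvd_right (hMs q hq).2.2 p.hc
      have h2 : Nat.Coprime (p.G p.m) q := Nat.Coprime.pow_left _ h1
      exact (Nat.isCoprime_iff_coprime.2 h2).symm)
    (by exact_mod_cast p.G_pos p.m)
    (fun i j hij => by exact_mod_cast p.G_dvd hij)
    (fun i => by
      have h1 := p.G_pos i
      have : 0 < p.M * p.G i := Nat.mul_pos hM h1
      exact_mod_cast this)
    (fun i => Dvd.intro_left _ rfl)
    (fun i _ => by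
      have h1 := sum_G p hQ2 i
      have h2 := p.G_succ i
      have h3 : 2 ^ (K + 4) * ∑ j ∈ range (i + 1), p.M * p.G j ≤ p.G (i + 1) := by
        rw [← Finset.mul_sum, h2]
        calc 2 ^ (K + 4) * (p.M * ∑ j ∈ range (i + 1), p.G j)
            ≤ 2 ^ (K + 4) * (p.M * (2 * p.G i)) :=
              Nat.mul_le_mul_left _ (Nat.mul_le_mul_left _ h1)
          _ = (2 ^ (K + 5) * p.M) * p.G i := by ring
          _ ≤ _ := Nat.mul_le_mul_right _ hQ
      exact_mod_cast h3)
    (N0 : ℤ)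
  obtain ⟨Y, rfl⟩ := Int.eq_ofNat_of_zero_le hXpos.le
  refine ⟨Y, by exact_mod_cast hX0, by exact_mod_cast hXpos, ?_⟩
  intro τ p0 hτ J hJ
  have h0 := hX ((τ : ℤ) - p0)
  refine le_trans ?_ h0
  choose! f hf using fun k (hk : k ∈ J) => (hJ k hk).2
  refine Finset.card_le_card_of_injOn (fun k => (f k, k)) ?_ ?_
  · intro k hk
    have hk' : k ∈ J := hk
    obtain ⟨h1, h2, h3⟩ := hf k hk'
    have hkK := (hJ k hk').1
    have hpk : Y * 2 ^ k ≤ Y * 2 ^ K :=
      Nat.mul_le_mul_left _ (Nat.pow_le_pow_right (by norm_num) hkK.le)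
    have hcast : ((τ + Y * 2 ^ f k - Y * 2 ^ k - p0 : ℕ) : ℤ) =
        ((τ : ℤ) - p0) + (Y : ℤ) * 2 ^ f k - (Y : ℤ) * 2 ^ k := by
      rw [Nat.cast_sub (by omega), Nat.cast_sub (by omega)]
      push_cast
      ring
    simp only [Finset.coe_filter, Finset.mem_product, Finset.mem_range, Set.mem_setOf_eq]
    refine ⟨⟨h1, hkK⟩, h2, ?_⟩
    change Thin963.BadT Ms p.m (fun i => (p.G i : ℤ)) (fun i => (p.M * p.G i : ℤ)) (fun _ => 0)
      (((τ : ℤ) - p0) + (Y : ℤ) * 2 ^ f k - (Y : ℤ) * 2 ^ k)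
    rw [← hcast]
    set n := τ + Y * 2 ^ f k - Y * 2 ^ k - p0 with hn
    rcases h3 with ⟨q, hq, hd⟩ | ⟨l, hl1, hl2, hb⟩
    · exact Or.inl ⟨q, hq, by exact_mod_cast hd⟩
    · right
      obtain ⟨i, rfl⟩ : ∃ i, l = i + 1 := ⟨l - 1, by omega⟩
      simp only [Nat.add_sub_cancel] at hb
      have hdm := Nat.div_add_mod n (p.G (i + 1))
      have hlt := Nat.mod_lt n (p.G_pos (i + 1))
      rcases hb with hb | hb
      · refine ⟨i, by omega, -((n % p.G (i + 1) : ℕ) : ℤ), ?_, ?_⟩
        · rw [abs_neg, abs_of_nonneg (by positivity)]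
          change ((n % p.G (i + 1) : ℕ) : ℤ) ≤ ((p.M * p.G i : ℕ) : ℤ)
          exact_mod_cast hb.le
        · refine ⟨((n / p.G (i + 1) : ℕ) : ℤ), ?_⟩
          have : (n : ℤ) = (p.G (i + 1) : ℤ) * ((n / p.G (i + 1) : ℕ) : ℤ) +
              ((n % p.G (i + 1) : ℕ) : ℤ) := by exact_mod_cast hdm.symm
          simp only
          linarith
      · refine ⟨i, by omega, ((p.G (i + 1) - n % p.G (i + 1) : ℕ) : ℤ), ?_, ?_⟩
        · rw [abs_of_nonneg (by positivity)]
          have : p.G (i + 1) - n % p.G (i + 1) ≤ p.M * p.G i := by omega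
          change ((p.G (i + 1) - n % p.G (i + 1) : ℕ) : ℤ) ≤ ((p.M * p.G i : ℕ) : ℤ)
          exact_mod_cast this
        · refine ⟨((n / p.G (i + 1) : ℕ) : ℤ) + 1, ?_⟩
          have h5 : (n : ℤ) = (p.G (i + 1) : ℤ) * ((n / p.G (i + 1) : ℕ) : ℤ) +
              ((n % p.G (i + 1) : ℕ) : ℤ) := by exact_mod_cast hdm.symm
          rw [Nat.cast_sub hlt.le]
          simp only
          linarith
  · intro a _ b _ hab
    simpa using congrArg Prod.snd hab

theorem zt_congr {α S : Type} (phi : List α → S) {u u' : List α} {N a b : ℕ} (h : u.take N = u'.take N)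
    (hb : b ≤ N) (hN : N ≤ u.length) (hN' : N ≤ u'.length) : zt phi u a b = zt phi u' a b := by
  have e : ∀ w : List α, N ≤ w.length → zt phi (w.take N) a b = zt phi w a b := by
    intro w hw
    have h1 := zt_left phi (P := w.take N) (Q := w.drop N) (a := a) (b := b)
      (by rw [List.length_take]; omega)
    rw [List.take_append_drop] at h1
    exact h1.symm
  rw [← e u hN, ← e u' hN', h]

theorem ug (S V : Type) [Monoid S] [Finite S] [AddCommGroup V] [Finite V] (act : V → S → V) :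
    ∃ C0 : ℕ, ∀ K : ℕ, ∃ (N1 N2 Pm : ℕ) (BadT : ℕ → Prop), 0 < Pm ∧ 0 < N1 ∧
      (∀ n n', n % Pm = n' % Pm → (BadT n ↔ BadT n')) ∧
      (∀ N0 : ℕ, ∃ X : ℕ, N0 ≤ X ∧ 0 < X ∧ ∀ (τ p0 : ℕ), p0 + X * 2 ^ K ≤ τ → ∀ J : Finset ℕ,
        (∀ k ∈ J, k < K ∧ ∃ k', k' < K ∧ k' ≠ k ∧ BadT (τ + X * 2 ^ k' - X * 2 ^ k - p0)) →
        J.card ≤ C0) ∧
      ∀ (α : Type) (phi : List α → S), (∀ u v, phi (u ++ v) = phi u * phi v) →
        ∃ (lam rho : List α → Option V) (nu : List α → V),
          (∀ P v, lam P = some v → P.length ≤ N1) ∧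
          (∀ P Q v b, lam P = some v → rho Q = some b → b = act v (phi (P ++ Q)) + nu (P ++ Q)) ∧
          (∀ u, N2 ≤ u.length → ¬ BadT u.length → ∀ v, ∃ P Q, u = P ++ Q ∧ lam P = some v ∧
            (rho Q).isSome) ∧
          (∀ u u' : List α, N2 ≤ u.length → N2 ≤ u'.length → u.take N2 = u'.take N2 →
            phi (u.drop N2) = phi (u'.drop N2) → u.length % Pm = u'.length % Pm →
            nu u = nu u') := by
  classical
  haveI := Fintype.ofFinite S
  haveI := Fintype.ofFinite V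
  obtain ⟨m, N, e, F, hN, hF⟩ := Crest.Agent.R320.RandF808.exists_noise S V act
  haveI : NeZero N := ⟨hN.ne'⟩
  let W := ZMod N × ZMod N
  let vl : Cx m S V W → S → V := fun c z =>
    F (c.2.1 * z * c.2.2.2.1) (c.2.2.1 + e c.1 z + c.2.2.2.2.1) +
      act c.2.2.2.2.2 (c.2.1 * z * c.2.2.2.1)
  let Nm := {c : Cx m S V W // ∀ z, vl c z = vl c 1}
  obtain ⟨r, hr⟩ := Crest.Agent.R320.Names755.names Nm (V × V) (fun c => (c.1.2.2.2.2.2, vl c.1 1))
  refine ⟨r + m, fun K => ?_⟩
  obtain ⟨Ms, M, nmL, nmR, hcard, hMs, hM, hpL, hpR, hsame, hcomp, hpair⟩ := hr (2 ^ (K + 1))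
  have hQpos : 0 < M * 2 ^ (K + 5) := by positivity
  let p : P := ⟨m, M, M * 2 ^ (K + 5) + 1, hM, by omega, by
      have h1 : Nat.Coprime (1 + M * 2 ^ (K + 5)) M := by
        rw [Nat.coprime_add_mul_left_left]
        exact Nat.coprime_one_left M
      rwa [add_comm] at h1⟩
  have hper : ∀ n k, nmR (n + M * k) = nmR n := by
    intro n k
    induction k with
    | zero => simp
    | succ k ih => rw [Nat.mul_succ, ← Nat.add_assoc, hpR, ih]
  have hperL : ∀ n k, nmL (n + M * k) = nmL n := by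
    intro n k
    induction k with
    | zero => simp
    | succ k ih => rw [Nat.mul_succ, ← Nat.add_assoc, hpL, ih]
  have hmodL : ∀ n n', n ≡ n' [MOD M] → nmL n = nmL n' := by
    intro n n' h
    rw [← Nat.mod_add_div n M, ← Nat.mod_add_div n' M, hperL, hperL, h]
  let BadT : ℕ → Prop := fun n => (∃ q ∈ Ms, q ∣ n) ∨ p.Band n
  have hMd : ∀ q ∈ Ms, q ∣ M * p.G m := fun q hq => ((hMs q hq).2.2).mul_right _
  have hGm : 0 < p.G m := p.G_pos m
  have hmodG : ∀ n n', n % (M * p.G m) = n' % (M * p.G m) → n ≡ n' [MOD p.G m] := by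
    intro n n' h
    exact Nat.ModEq.of_dvd (Dvd.intro_left _ rfl) h
  have hband : ∀ n n', n % (M * p.G m) = n' % (M * p.G m) → (p.Band n ↔ p.Band n') := by
    intro n n' h
    have h1 : n % p.G m = n' % p.G m := hmodG n n' h
    rw [← Nat.mod_add_div n (p.G m), ← Nat.mod_add_div n' (p.G m), h1]
    exact (p.Band_add _ _).trans (p.Band_add _ _).symm
  have hdv : ∀ n n', n % (M * p.G m) = n' % (M * p.G m) → ∀ q ∈ Ms, (q ∣ n ↔ q ∣ n') := by
    intro n n' h q hq
    have h1 : n ≡ n' [MOD q] := Nat.ModEq.of_dvd (hMd q hq) h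
    exact h1.dvd_iff dvd_rfl
  have hbeta : ∀ n n', n % (M * p.G m) = n' % (M * p.G m) → ∀ l ≤ m, p.beta n l = p.beta n' l := by
    intro n n' h l hl
    have h1 : n % p.G m = n' % p.G m := hmodG n n' h
    rw [← Nat.mod_add_div n (p.G m), ← Nat.mod_add_div n' (p.G m), h1]
    exact (P.beta_add p hl).trans (P.beta_add p hl).symm
  have htop : 0 < p.top := by
    unfold P.top
    rw [p.lo_succ]
    have : 0 < (p.M + 1) * p.G p.m := by positivity
    omega
  refine ⟨p.top, 2 * p.top, M * p.G m, BadT, by positivity, htop, ?_, ?_, ?_⟩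
  · intro n n' h
    change ((∃ q ∈ Ms, q ∣ n) ∨ p.Band n) ↔ ((∃ q ∈ Ms, q ∣ n') ∨ p.Band n')
    rw [hband n n' h]
    have : (∃ q ∈ Ms, q ∣ n) ↔ (∃ q ∈ Ms, q ∣ n') := by
      constructor
      · rintro ⟨q, hq, hd⟩; exact ⟨q, hq, (hdv n n' h q hq).1 hd⟩
      · rintro ⟨q, hq, hd⟩; exact ⟨q, hq, (hdv n n' h q hq).2 hd⟩
    rw [this]
  · intro N0
    obtain ⟨X, h1, h2, h3⟩ := thin_nat p K Ms
      (fun q hq => ⟨(hMs q hq).2.1, (hMs q hq).1.le, (hMs q hq).2.2⟩)
      (by change 2 ^ (K + 5) * M ≤ M * 2 ^ (K + 5) + 1; rw [Nat.mul_comm]; omega) N0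
    refine ⟨X, h1, h2, fun τ p0 hτ J hJ => ?_⟩
    have := h3 τ p0 hτ J hJ
    have h4 : p.m = m := rfl
    omega
  · intro α phi hphi
    let D : Dt α S V W :=
      { p := p, phi := phi, hphi := hphi, act := act, e := e, F := F, Mp := 1, hMp := one_pos
        nmL := fun t => (nmL t).map Subtype.val
        nmR := fun t => (nmR t).map Subtype.val
        Gd := fun n => ∀ k ∈ Ms, ¬ k ∣ n }
    have ok : D.Ok := by
      refine ⟨?_, ?_, ?_⟩
      · intro t t' c c' h h' hg
        obtain ⟨a, ha, rfl⟩ := Option.map_eq_some_iff.1 h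
        obtain ⟨b, hb, rfl⟩ := Option.map_eq_some_iff.1 h'
        rw [hsame t t' a b ha hb hg]
      · rintro n pr pr' hg ⟨t, t', c, c', h1, h2, h3, rfl⟩ ⟨s, s', d, d', g1, g2, g3, rfl⟩
        obtain ⟨a, ha, rfl⟩ := Option.map_eq_some_iff.1 h2
        obtain ⟨b, hb, rfl⟩ := Option.map_eq_some_iff.1 h3
        obtain ⟨a', ha', rfl⟩ := Option.map_eq_some_iff.1 g2
        obtain ⟨b', hb', rfl⟩ := Option.map_eq_some_iff.1 g3
        have hmod : t + t' ≡ s + s' [MOD M] := h1.trans g1.symm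
        have hgn : ∃ k ∈ Ms, k ∣ t + t' := by
          change ¬ ∀ k ∈ Ms, ¬ k ∣ n at hg
          push Not at hg
          obtain ⟨k, hk, hd⟩ := hg
          refine ⟨k, hk, ?_⟩
          have h5 : t + t' ≡ n [MOD k] := Nat.ModEq.of_dvd (hMs k hk).2.2 h1
          exact (h5.dvd_iff dvd_rfl).2 hd
        obtain ⟨x, y, hxy⟩ : ∃ x y, t + t' + M * x = s + s' + M * y := by
          refine ⟨(s + s') / M, (t + t') / M, ?_⟩
          have e1 := Nat.mod_add_div (t + t') M
          have e2 := Nat.mod_add_div (s + s') M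
          have e3 : (t + t') % M = (s + s') % M := hmod
          omega
        have hgn' : ∃ k ∈ Ms, k ∣ t + (t' + M * x) := by
          obtain ⟨k, hk, hd⟩ := hgn
          refine ⟨k, hk, ?_⟩
          rw [← Nat.add_assoc]
          exact dvd_add hd (((hMs k hk).2.2).mul_right _)
        obtain ⟨r1, r2⟩ := hpair t (t' + M * x) s (s' + M * y) a b a' b' ha
          (by rw [hper]; exact hb) ha' (by rw [hper]; exact hb') (by omega) hgn'
        have r1' : a.1.2.2.2.2.2 = a'.1.2.2.2.2.2 := congrArg Prod.fst r1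
        have r2' : vl b.1 1 = vl b'.1 1 := congrArg Prod.snd r2
        exact Prod.ext r1' r2'
      · intro t c h
        obtain ⟨a, ha, rfl⟩ := Option.map_eq_some_iff.1 h
        exact a.2
    let lam : List α → Option V := fun P => if h : ∃ v, D.LL P v then some h.choose else none
    let rho : List α → Option V := fun Q => if h : ∃ v, D.RR Q v then some h.choose else none
    have hlam : ∀ P v, lam P = some v ↔ D.LL P v := by
      intro P v
      constructor
      · intro h
        simp only [lam] at h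
        split_ifs at h with h1
        have h2 : h1.choose = v := by simpa using h
        rw [← h2]; exact h1.choose_spec
      · intro h
        have h1 : ∃ v, D.LL P v := ⟨v, h⟩
        simp only [lam]
        rw [dif_pos h1, D.LL_uniq h1.choose_spec h]
    have hrho : ∀ P v, rho P = some v ↔ D.RR P v := by
      intro P v
      constructor
      · intro h
        simp only [rho] at h
        split_ifs at h with h1
        have h2 : h1.choose = v := by simpa using h
        rw [← h2]; exact h1.choose_spec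
      · intro h
        have h1 : ∃ v, D.RR P v := ⟨v, h⟩
        simp only [rho]
        rw [dif_pos h1, D.RR_uniq h1.choose_spec h]
    refine ⟨lam, rho, D.nu, ?_, ?_, ?_, ?_⟩
    · intro P v h
      have := (D.LL_len ((hlam P v).1 h)).2
      have e1 : D.Mp = 1 := rfl
      rw [e1, one_mul] at this
      exact this.le
    · intro P Q v b h1 h2
      exact D.sound ok ((hlam P v).1 h1) ((hrho Q b).1 h2)
    · intro u hu hb v
      have hb' : ¬ ((∃ q ∈ Ms, q ∣ u.length) ∨ p.Band u.length) := hb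
      push Not at hb'
      have hNN : ∀ n, D.Gd n → ∀ c, D.Good c → ∃ t₀, ∀ t, t ≡ t₀ [MOD D.p.M] → D.nmL t = some c ∧
          ∀ t', t + t' = n → D.nmR t' = some c := by
        intro n hg c hc
        obtain ⟨t, -, ht, ht'⟩ := hcomp n hg ⟨c, hc⟩
        refine ⟨t, fun s hs => ⟨?_, fun s' hs' => ?_⟩⟩
        · change (nmL s).map Subtype.val = some c
          rw [hmodL s t hs, ht]; rfl
        · change (nmR s').map Subtype.val = some c
          rw [ht' s' (by
            have h5 : t + s' ≡ s + s' [MOD M] := Nat.ModEq.add_right _ hs.symm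
            rw [hs'] at h5
            exact h5)]
          rfl
      have e1 : D.Mp = 1 := rfl
      obtain ⟨P, Q, h1, h2, b, h3⟩ := D.complete hF hNN (u := u) (by rw [e1, one_mul]; exact hu)
        (by rw [e1, Nat.div_one]; exact hb'.1) (by rw [e1, Nat.div_one]; exact hb'.2) v
      exact ⟨P, Q, h1.symm, (hlam P v).2 h2, by rw [(hrho Q b).2 h3]; rfl⟩
    · intro u u' h1 h2 h3 h4 h5
      have hphiu : D.phi u = D.phi u' := by
        change phi u = phi u'
        rw [← List.take_append_drop (2 * p.top) u, ← List.take_append_drop (2 * p.top) u', hphi, hphi,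
          h3, h4]
      have hgd : D.Gd (u.length / D.Mp) ↔ D.Gd (u'.length / D.Mp) := by
        have e1 : D.Mp = 1 := rfl
        rw [e1, Nat.div_one, Nat.div_one]
        change (∀ k ∈ Ms, ¬ k ∣ u.length) ↔ (∀ k ∈ Ms, ¬ k ∣ u'.length)
        constructor
        · intro h k hk hd; exact h k hk ((hdv _ _ h5 k hk).2 hd)
        · intro h k hk hd; exact h k hk ((hdv _ _ h5 k hk).1 hd)
      have htot : D.tot u = D.tot u' := by
        unfold Dt.tot
        have e1 : D.Mp = 1 := rfl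
        apply Finset.sum_congr rfl
        intro l hl
        rw [Finset.mem_range] at hl
        have hlm : l < m := hl
        rw [e1, Nat.div_one, Nat.div_one, one_mul, one_mul, one_mul, one_mul]
        change D.e l (zt phi u (p.beta u.length l) (p.beta u.length (l + 1))) =
          D.e l (zt phi u' (p.beta u'.length l) (p.beta u'.length (l + 1)))
        rw [hbeta _ _ h5 l (by omega), hbeta _ _ h5 (l + 1) (by omega)]
        congr 1
        refine zt_congr phi h3 ?_ h1 h2
        have h6 := p.beta_lt u'.length (l + 1)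
        have h7 := p.lo_mono (show l + 1 ≤ p.m from hlm)
        have h8 := p.G_le (show l + 1 ≤ p.m from hlm)
        have h9 : p.lo p.m + p.G p.m ≤ p.top := by
          unfold P.top
          rw [p.lo_succ]
          have : 1 * p.G p.m ≤ (p.M + 1) * p.G p.m := Nat.mul_le_mul_right _ (by omega)
          omega
        omega
      have hpr : ∀ pr, D.Pair (u.length / D.Mp) pr ↔ D.Pair (u'.length / D.Mp) pr := by
        intro pr
        have e1 : D.Mp = 1 := rfl
        rw [e1, Nat.div_one, Nat.div_one]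
        have h6 : u.length ≡ u'.length [MOD M] := Nat.ModEq.of_dvd (Dvd.intro _ rfl) h5
        constructor
        · rintro ⟨t, t', c, c', g1, g2, g3, g4⟩
          exact ⟨t, t', c, c', Nat.ModEq.trans g1 h6, g2, g3, g4⟩
        · rintro ⟨t, t', c, c', g1, g2, g3, g4⟩
          exact ⟨t, t', c, c', Nat.ModEq.trans g1 h6.symm, g2, g3, g4⟩
      unfold Dt.nu
      by_cases hg : D.Gd (u.length / D.Mp)
      · rw [if_pos hg, if_pos (hgd.1 hg), htot, hphiu]
      · have hg' : ¬ D.Gd (u'.length / D.Mp) := fun h => hg (hgd.2 h)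
        rw [if_neg hg, if_neg hg']
        by_cases hx : ∃ pr, D.Pair (u.length / D.Mp) pr
        · have hx' : ∃ pr, D.Pair (u'.length / D.Mp) pr := ⟨_, (hpr _).1 hx.choose_spec⟩
          rw [dif_pos hx, dif_pos hx', hphiu,
            ok.pair _ _ _ hg' ((hpr _).1 hx.choose_spec) hx'.choose_spec]
        · have hx' : ¬ ∃ pr, D.Pair (u'.length / D.Mp) pr := fun ⟨pr, h⟩ => hx ⟨pr, (hpr _).2 h⟩
          rw [dif_neg hx, dif_neg hx']

end Crest.Agent.R320.UG2_605
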