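import Crest.Agent.R320.Top5_120
import Crest.Agent.R320.Sc2n_937
import Crest.Agent.R320.UG2_605
import Crest.Agent.R320.ExactR_237
import Crest.Agent.R320.LWallAll_922
import Crest.Agent.R320.P4_933
import Crest.Agent.R320.RegDep_10

/-!
Row 320: the join.
-/

set_option autoImplicit false

namespace Crest.Agent.R320.Fin_605

open Crest.RegLang Crest.Agent.R320.Hk_851 Crest.Agent.R320.Blk467
open Crest.Agent.R320.Sc2n_937

theorem drop_split {α : Type} (u : List α) {a A : ℕ} (ha : a ≤ A) (hA : A ≤ u.length) :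
    u.drop a = (u.take A).drop a ++ u.drop A := by
  conv_lhs => rw [← List.take_append_drop A u]
  rw [List.drop_append_of_le_length (by rw [List.length_take]; omega)]

/-- both schemes in one block map, abstract -/
theorem join {α : Type} [Finite α] {S : Type} [Monoid S] [Finite S] {V : Type} [AddCommGroup V]
    [Finite V] (act : V → S → V)
    (hadd : ∀ a b s, act (a + b) s = act a s + act b s)
    (hone : ∀ v, act v 1 = v) (hmul : ∀ v s t, act v (s * t) = act (act v s) t)
    (hfaith : ∀ s t, (∀ v, act v s = act v t) → s = t)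
    (φ : α → S) (g : Geo α) (lenW : ∀ P, g.Wo P → g.n ≤ P.length)
    {B R : ℕ} (free : ∀ u : List α, (∀ t < u.length, ¬ g.Wo (u.take t)) →
      u ∈ (BddReg_746.PN B R : Language α))
    (hgap : ∀ P Q : List α, g.Wo P → g.Wo (P ++ Q) → Q ≠ [] → 2 * g.p0 + 2 * g.N1 < Q.length)
    -- gadget 1
    {C0 N2 Pm : ℕ} {BadT : ℕ → Prop} (hPm : 0 < Pm)
    (hper : ∀ n n', n % Pm = n' % Pm → (BadT n ↔ BadT n'))
    (hN2 : g.p0 + N2 ≤ g.z)
    {lam rho : List α → Option V} {nu1 : List α → V}
    (hg1 : ∀ P v, lam P = some v → P.length ≤ g.N1)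
    (hg2 : ∀ P Q v b, lam P = some v → rho Q = some b →
      b = act v (((P ++ Q).map φ).prod) + nu1 (P ++ Q))
    (hg3 : ∀ u : List α, N2 ≤ u.length → ¬ BadT u.length → ∀ v, ∃ P Q, u = P ++ Q ∧
      lam P = some v ∧ (rho Q).isSome)
    (hg4 : ∀ u u' : List α, N2 ≤ u.length → N2 ≤ u'.length → u.take N2 = u'.take N2 →
      ((u.drop N2).map φ).prod = ((u'.drop N2).map φ).prod → u.length % Pm = u'.length % Pm →
      nu1 u = nu1 u')
    -- ruler
    {K : ℕ} {c : ℕ → ℕ} (hc : ∀ k, k < K → c k ≤ g.p0)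
    (hsp : ∀ k k' l l', k < K → k' < K → l < K → l' < K → k' ≠ k → l' ≠ l →
      c k + c l' < c l + c k' + 2 * g.N1 → c l + c k' < c k + c l' + 2 * g.N1 → k = l)
    (hthin : ∀ τ, g.z ≤ τ + g.p0 → ∀ J : Finset ℕ, (∀ k ∈ J, k < K ∧
      ∃ k', k' < K ∧ k' ≠ k ∧ BadT (τ + c k' - c k - g.p0)) → J.card ≤ C0)
    -- gadget 2
    {lam2 rho2 : ℕ → List α → Option V} {nu2 : List α → V}
    (he1 : ∀ k < K, ∀ (P Q : List α) (v b : V), P.length = c k →
      lam2 k P = some v → rho2 k Q = some b → b = act v (((P ++ Q).map φ).prod) + nu2 (P ++ Q))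
    (he2 : ∀ (u : List α) (v : V), u.length = g.p0 →
      ∃ I : Finset ℕ, 2 * C0 + 2 ≤ I.card ∧ ∀ k ∈ I, k < K ∧ lam2 k (u.take (c k)) = some v ∧
        (rho2 k (u.drop (c k))).isSome)
    (s : S) : HL 3 ({w | (w.map φ).prod = s} : Language α) := by
  classical
  let ph : List α → S := fun w => (w.map φ).prod
  have hphm : ∀ u v, ph (u ++ v) = ph u * ph v := by
    intro u v; simp only [ph, List.map_append, List.prod_append]
  have hph1 : ph [] = 1 := rfl
  let pre : List α → V → V := fun X0 v => act v (ph X0) + nu2 X0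
  let post : V → List α → V := fun v Y => act v (ph Y) + nu1 Y
  let nuX : List α → V := fun X => act (nu2 (X.take g.p0)) (ph (X.drop g.p0)) +
    nu1 (X.drop g.p0)
  have hT : ∀ v X, g.T pre post v X = act v (ph X) + nuX X := by
    intro v X
    change act (act v (ph (X.take g.p0)) + nu2 (X.take g.p0)) (ph (X.drop g.p0)) +
      nu1 (X.drop g.p0) = _
    rw [hadd, ← hmul, ← hphm, List.take_append_drop, add_assoc]
  have hz := g.hz
  have hq := g.hq
  let C : Set (List α) := {X | g.XX X}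
  let Bad : Set (List α) := {X | g.XX X ∧ g.BadX BadT X}
  have hN := g.hN
  have hC : PCode C := by
    refine ⟨fun h => ?_, fun X hX Y hY ⟨t, ht⟩ => ?_⟩
    · have h1 : g.z ≤ ([] : List α).length := h.1
      rw [List.length_nil] at h1
      omega
    · exact g.prefix_code (R := t) (R' := []) hX hY (by rw [ht, List.append_nil])
  have hg2' : ∀ P Q u b, lam P = some u → rho Q = some b → b = post u (P ++ Q) := hg2
  have hex2 : ∀ k, k < K → ∀ P Q v u, P.length = c k → Q.length = g.p0 - c k →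
      lam2 k P = some v → rho2 k Q = some u → u = pre (P ++ Q) v := by
    intro k hk P Q v u hP _ h1 h2
    exact he1 k hk P Q v u hP h1 h2
  -- congruence of the noise
  have key : ∀ A, g.p0 + N2 ≤ A → ∀ u u' : List α, A ≤ u.length → A ≤ u'.length →
      u.take A = u'.take A → ph (u.drop A) = ph (u'.drop A) → u.length % Pm = u'.length % Pm →
      (∀ a ≤ A, ph (u.drop a) = ph (u'.drop a)) ∧ (∀ a ≤ A, u.take a = u'.take a) ∧
      (u.length - g.p0) % Pm = (u'.length - g.p0) % Pm ∧ nuX u = nuX u' := by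
    intro A hA u u' h1 h2 h3 h4 h5
    have k1 : ∀ a ≤ A, ph (u.drop a) = ph (u'.drop a) := by
      intro a ha
      rw [drop_split u ha h1, drop_split u' ha h2, hphm, hphm, h3, h4]
    have k2 : ∀ a ≤ A, u.take a = u'.take a := by
      intro a ha
      have e1 : u.take a = (u.take A).take a := by rw [List.take_take, Nat.min_eq_left ha]
      have e2 : u'.take a = (u'.take A).take a := by rw [List.take_take, Nat.min_eq_left ha]
      rw [e1, e2, h3]
    have k3 : (u.length - g.p0) % Pm = (u'.length - g.p0) % Pm := by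
      have h6 : (u.length - g.p0) + g.p0 ≡ (u'.length - g.p0) + g.p0 [MOD Pm] := by
        rw [Nat.sub_add_cancel (by omega), Nat.sub_add_cancel (by omega)]
        exact h5
      exact Nat.ModEq.add_right_cancel' _ h6
    refine ⟨k1, k2, k3, ?_⟩
    change act (nu2 (u.take g.p0)) (ph (u.drop g.p0)) + nu1 (u.drop g.p0) =
      act (nu2 (u'.take g.p0)) (ph (u'.drop g.p0)) + nu1 (u'.drop g.p0)
    rw [k2 g.p0 (by omega), k1 g.p0 (by omega)]
    congr 1
    refine hg4 _ _ ?_ ?_ ?_ ?_ ?_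
    · rw [List.length_drop]; omega
    · rw [List.length_drop]; omega
    · have e : ∀ w : List α, (w.drop g.p0).take N2 = (w.take (g.p0 + N2)).drop g.p0 := by
        intro w
        rw [List.drop_take]
        congr 1
        omega
      rw [e, e, k2 _ hA]
    · rw [List.drop_drop, List.drop_drop]
      exact k1 _ hA
    · rw [List.length_drop, List.length_drop]
      exact k3
  have hXXiff : ∀ X, P4_933.XX g.Wo g.z X ↔ g.XX X := by
    intro X
    constructor
    · rintro ⟨h1, h2, h3⟩; exact ⟨h2, h1, fun t ht htl => h3 t htl ht⟩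
    · rintro ⟨h1, h2, h3⟩; exact ⟨h2, h1, fun t htl ht => h3 t ht htl⟩
  have hCT : ∀ x y, HL 1 ({X | X ∈ C ∧ act x (X.map φ).prod + nuX X = y} : Language α) := by
    intro x y
    have hreg : Language.IsRegular ({X | act x (ph X) + nuX X = y} : Language α) :=
      RegDep_10.regular_fibre ph hph1 hphm g.z Pm hPm (fun X => act x (ph X) + nuX X)
        (fun u u' h1 h2 h3 h4 h5 => by
          obtain ⟨k1, -, -, k4⟩ := key g.z hN2 u u' h1 h2 h3 h4 h5
          have := k1 0 (Nat.zero_le _)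
          simp only [List.drop_zero] at this
          simp only [this, k4]) y
    refine (P4_933.hl_XX (z := g.z) g.loc lenW free hreg).congr fun w => ?_
    constructor
    · rintro ⟨h1, h2⟩; exact ⟨(hXXiff w).2 h1, h2⟩
    · rintro ⟨h1, h2⟩; exact ⟨(hXXiff w).1 h1, h2⟩
  have hBT : ∀ x y, HL 1 ({X | X ∈ Bad ∧ act x (X.map φ).prod + nuX X = y} : Language α) := by
    intro x y
    have hreg : Language.IsRegular
        ({X | g.BadX BadT X ∧ act x (ph X) + nuX X = y} : Language α) := by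
      refine RegDep_10.regular_of_dep' ph hph1 hphm (g.z + g.N1) Pm hPm _ ?_
      rintro u u' h1 h2 h3 h4 h5 ⟨h6, h7⟩
      obtain ⟨k1, k2, k3, k4⟩ := key (g.z + g.N1) (by omega) u u' h1 h2 h3 h4 h5
      have k0 := k1 0 (Nat.zero_le _)
      simp only [List.drop_zero] at k0
      refine ⟨?_, ?_⟩
      · rcases h6 with ⟨t, ht, hw, ha, hb⟩ | h6
        · left
          refine ⟨t, by omega, ?_, ha, hb⟩
          rw [← k2 t (by omega)]; exact hw
        · right
          exact (hper _ _ k3).1 h6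
      · rw [← k0, ← k4]; exact h7
    refine (P4_933.hl_XX (z := g.z) g.loc lenW free hreg).congr fun w => ?_
    constructor
    · rintro ⟨⟨h1, h2⟩, h3⟩; exact ⟨(hXXiff w).2 h1, h2, h3⟩
    · rintro ⟨h1, h2, h3⟩; exact ⟨⟨(hXXiff w).1 h1, h2⟩, h3⟩
  have htail : ∀ s, HL 1 ({w | (∀ X ∈ C, ¬ X <+: w) ∧ (w.map φ).prod = s} : Language α) := by
    intro s
    have hreg : Language.IsRegular ({w | ph w = s} : Language α) :=
      RegDep_10.regular_fibre ph hph1 hphm 0 1 one_pos ph
        (fun u u' _ _ _ h4 _ => by simpa using h4) s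
    refine (P4_933.hl_NB (z := g.z) g.loc lenW free hreg).congr fun w => ?_
    constructor
    · rintro ⟨h1, h2⟩
      refine ⟨(P4_933.NB_iff _ _ _).2 fun P hP hXP => ?_, h2⟩
      exact h1 P ((hXXiff P).1 hXP) hP
    · rintro ⟨h1, h2⟩
      refine ⟨fun X hX hp => ?_, h2⟩
      exact (P4_933.NB_iff _ _ _).1 h1 X hp ((hXXiff X).2 hX)
  refine Top5_120.top5 act hadd hone hmul hfaith φ nuX C Bad hC (fun X hX => hX.1)
    (fun v => {P | g.LP1 pre lam v P}) (fun v => {P | Geo.LP2 K c lam2 v P}) ?_ ?_ hCT hBT htail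
    ?_ ?_ s
  · intro v
    refine (List.finite_length_le α (g.p0 + g.N1)).subset ?_
    rintro P ⟨h1, h2⟩
    have := hg1 _ _ h2
    rw [List.length_drop] at this
    change P.length ≤ g.p0 + g.N1
    omega
  · intro v
    refine (List.finite_length_le α g.p0).subset ?_
    rintro P ⟨k, hk, h1, -⟩
    change P.length ≤ g.p0
    rw [h1]; exact hc k hk
  · intro X hX hXb v
    have hnb : ¬ g.BadX BadT X := fun h => hXb ⟨hX, h⟩
    have hE : ¬ g.E X := fun h => hnb (Or.inl h)
    have hB : ¬ BadT (X.length - g.p0) := fun h => hnb (Or.inr h)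
    have hXz : g.z ≤ X.length := hX.1
    obtain ⟨P, Q, b, e, hP, hQ⟩ := g.complete1 pre hg1 (rho := rho) hX hE
      (hg3 (X.drop g.p0) (by rw [List.length_drop]; omega) (by rw [List.length_drop]; exact hB)) v
    refine ⟨P, Q, e.symm, hP, fun x P' hP' => ?_⟩
    obtain ⟨h1, h2⟩ := g.sound1 pre post hg1 hg2' hP hQ
    obtain ⟨h3, h4⟩ := g.sound1 pre post hg1 hg2' hP' hQ
    refine ⟨h3, ?_⟩
    have e1 := hT x (P' ++ Q)
    have e2 := hT v X
    rw [← e] at h2
    change act x (ph (P' ++ Q)) + nuX (P' ++ Q) = act v (ph X) + nuX X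
    rw [← e1, ← e2, h4, h2]
  · intro X hX Y hY v
    have hXz : g.z ≤ X.length := hX.1.1
    obtain ⟨P, Q, b, e, hP, hQ⟩ := g.complete2 pre post (lam2 := lam2) (rho2 := rho2) hc hgap hsp
      hthin hX.1 hY.1 v (by
        obtain ⟨I, hI1, hI2⟩ := he2 (X.take g.p0) v (by rw [List.length_take]; omega)
        refine ⟨I, hI1, fun k hk => ?_⟩
        obtain ⟨h1, h2, h3⟩ := hI2 k hk
        refine ⟨h1, ?_, h3⟩
        rw [List.take_take, Nat.min_eq_left (hc k h1)] at h2
        exact h2)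
    have hb : g.T pre post (g.T pre post v X) Y = b := by
      obtain ⟨X2, h1, h2, h3⟩ := g.sound2 pre post hc hex2 hX.1 hX.2 hP hQ (R := []) (R' := Y)
        (by rw [List.append_nil]; exact e)
      have h4 : X2 = Y := by
        have h5 : X ++ X2 = X ++ Y := by rw [← h2, e]
        exact List.append_cancel_left h5
      rw [h4] at h3; exact h3
    refine ⟨P, Q, e, hP, fun x P' hP' => ?_⟩
    have hP'2 : Geo.LP2 K c lam2 x P' := hP'
    have hQ2 := hQ
    obtain ⟨k0, hk0, hPl, hl⟩ := hP'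
    obtain ⟨k, hk, l, hend, hgood, -, -⟩ := hQ
    by_cases hkk : k0 = k
    · subst hkk
      have hXX' : g.XX (P' ++ Q.take l) :=
        g.xx_of_cend (by rw [hPl]; exact hc k0 hk0) (by rw [hPl]; exact hend)
      by_cases hbad : g.BadX BadT (P' ++ Q.take l)
      · left
        obtain ⟨X2, h1, h2, h3⟩ := g.sound2 pre post hc hex2 hXX' hbad hP'2 hQ2
          (R := []) (R' := Q.drop l)
          (by rw [List.append_nil, List.append_assoc, List.take_append_drop])
        refine ⟨P' ++ Q.take l, ⟨hXX', hbad⟩, X2, h1, h2.symm, ?_⟩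
        have e1 := hT x (P' ++ Q.take l)
        have e2 := hT (g.T pre post x (P' ++ Q.take l)) X2
        have e3 := hT v X
        have e4 := hT (g.T pre post v X) Y
        rw [h3, e1] at e2
        rw [hb, e3] at e4
        exact e2.symm.trans e4
      · right
        refine ⟨P' ++ Q.take l, hXX', fun h => hbad h.2, ⟨Q.drop l, ?_⟩⟩
        rw [List.append_assoc, List.take_append_drop]
    · right
      obtain ⟨l', hend', hnb⟩ := hgood k0 hk0 hkk
      have hXX' : g.XX (P' ++ Q.take l') :=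
        g.xx_of_cend (by rw [hPl]; exact hc k0 hk0) (by rw [hPl]; exact hend')
      refine ⟨P' ++ Q.take l', hXX', fun h => hnb ?_, ⟨Q.drop l', ?_⟩⟩
      · have := g.cbad_of_bad (BadT := BadT) (P := P') (Q := Q) (l := l')
          (by rw [hPl]; exact hc k0 hk0) (by rw [hPl]; exact hend') h.2
        rw [hPl] at this
        exact this
      · rw [List.append_assoc, List.take_append_drop]

theorem fin (α : Type) [Finite α] (S : Type) [Monoid S] [Finite S] (φ : α → S) (s : S) :
    HL 3 ({w | (w.map φ).prod = s} : Language α) := by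
  classical
  obtain ⟨act, hadd, hone, hmul, hfaith⟩ := exists_module S
  haveI : Fintype S := Fintype.ofFinite S
  haveI : Finite (S → ZMod 2) := inferInstance
  haveI : Fintype (S → ZMod 2) := Fintype.ofFinite _
  obtain ⟨C0, hug⟩ := UG2_605.ug S (S → ZMod 2) act
  obtain ⟨K, hK⟩ := ExactR_237.exact_gadget α S (S → ZMod 2) φ act (2 * C0 + 2)
  obtain ⟨N1, N2, Pm, BadT, hPm, hN1, hper, hruler, hgad⟩ := hug K
  obtain ⟨X, hX0, hXpos, hthin⟩ := hruler (2 * N1 + 1)
  obtain ⟨lam, rho, nu1, hg1, hg2, hg3, hg4⟩ := hgad α (fun w => (w.map φ).prod)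
    (fun u v => by simp only [List.map_append, List.prod_append])
  have hcmono : ∀ i j, i < j → X * 2 ^ i < X * 2 ^ j := fun i j hij =>
    Nat.mul_lt_mul_of_pos_left (Nat.pow_lt_pow_right (by norm_num) hij) hXpos
  obtain ⟨lam2, rho2, nu2, he1, he2⟩ := hK (fun j => X * 2 ^ j) (fun i j hij _ => hcmono i j hij)
  have hp0 : 0 < X * 2 ^ K := by positivity
  obtain ⟨n, G, B, Wo, hLW, hgap, -, -, hfree⟩ :=
    LWallAll_922.walls_all_left α (2 * (X * 2 ^ K) + 2 * N1) (by omega)
  let g : Geo α :=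
    { Wo := Wo, n := n, z := X * 2 ^ K + N1 + (n + 2 * (X * 2 ^ K) + N2), p0 := X * 2 ^ K
      q0 := n + 2 * (X * 2 ^ K) + N2, N1 := N1, loc := hLW.app, hz := rfl, hq := by omega
      hN := hN1, hqp := by omega }
  have hcle : ∀ k, k < K → X * 2 ^ k ≤ X * 2 ^ K := fun k hk => (hcmono k K hk).le
  refine join act hadd hone hmul hfaith φ g hLW.len (B := max B (2 * (X * 2 ^ K) + 2 * N1))
    (R := 2) ?_ ?_ hPm hper ?_ hg1 hg2 hg3 hg4 (K := K) (c := fun j => X * 2 ^ j) (C0 := C0)
    hcle ?_ ?_ (lam2 := lam2) (rho2 := fun k Q => rho2 k Q 1) (nu2 := fun u => nu2 u 1) ?_ ?_ s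
  · intro u hu
    obtain ⟨u0, x, v, k, h1, h2, h3, rfl⟩ := hfree u hu
    refine Language.mem_mul.2 ⟨u0 ++ (List.replicate k x).flatten, ⟨u0, x, k,
      h1.trans (le_max_left _ _), h2.trans (le_max_right _ _), rfl⟩, v, ?_, rfl⟩
    exact Language.mem_mul.2 ⟨v, ⟨v, [], 0, h3.trans (le_max_left _ _), by simp, by
      simp [BddReg_746.pw]⟩, [], rfl, by simp⟩
  · intro P Q hP hPQ hQ
    have h1 : 0 < Q.length := List.length_pos_of_ne_nil hQ
    have := hgap (P ++ Q) P.length (P ++ Q).length (by rw [List.length_append]; omega) le_rfl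
      (by rw [List.take_left]; exact hP) (by rw [List.take_length]; exact hPQ)
    rw [List.length_append] at this
    change 2 * (X * 2 ^ K) + 2 * N1 < Q.length
    omega
  · change X * 2 ^ K + N2 ≤ X * 2 ^ K + N1 + (n + 2 * (X * 2 ^ K) + N2)
    omega
  · intro k k' l l' _ _ _ _ hne hne' h1 h2
    have h1' : X * 2 ^ k + X * 2 ^ l' < X * 2 ^ l + X * 2 ^ k' + 2 * N1 := h1
    have h2' : X * 2 ^ l + X * 2 ^ k' < X * 2 ^ k + X * 2 ^ l' + 2 * N1 := h2
    have h3 : ((X : ℤ) * (((2:ℤ) ^ k - 2 ^ k') - (2 ^ l - 2 ^ l'))) < 2 * N1 := by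
      have : (X : ℤ) * 2 ^ k + X * 2 ^ l' < X * 2 ^ l + X * 2 ^ k' + 2 * N1 := by exact_mod_cast h1'
      linarith
    have h4 : -(2 * (N1 : ℤ)) < ((X : ℤ) * (((2:ℤ) ^ k - 2 ^ k') - (2 ^ l - 2 ^ l'))) := by
      have : (X : ℤ) * 2 ^ l + X * 2 ^ k' < X * 2 ^ k + X * 2 ^ l' + 2 * N1 := by exact_mod_cast h2'
      linarith
    have h5 : ((2:ℤ) ^ k - 2 ^ k') - (2 ^ l - 2 ^ l') = 0 := by
      have h6 : ((X : ℤ) ∣ (X : ℤ) * (((2:ℤ) ^ k - 2 ^ k') - (2 ^ l - 2 ^ l'))) :=
        Dvd.intro _ rfl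
      have h7 : |(X : ℤ) * (((2:ℤ) ^ k - 2 ^ k') - (2 ^ l - 2 ^ l'))| < X := by
        rw [abs_lt]
        have : (2 * (N1 : ℤ) + 1) ≤ X := by exact_mod_cast hX0
        constructor <;> linarith
      have h8 := Int.eq_zero_of_abs_lt_dvd h6 h7
      have hXne : (X : ℤ) ≠ 0 := by exact_mod_cast hXpos.ne'
      exact (mul_eq_zero.1 h8).resolve_left hXne
    exact (G369.pow_diff hne.symm hne'.symm (by linarith)).1
  · intro τ hτ J hJ
    refine hthin τ (X * 2 ^ K) ?_ J hJ
    change X * 2 ^ K + N1 + (n + 2 * (X * 2 ^ K) + N2) ≤ τ + X * 2 ^ K at hτ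
    omega
  · intro k hk P Q v b hP h1 h2
    have := he1 k hk P Q 1 v b hP h1 h2
    rw [mul_one] at this
    exact this
  · intro u v hu
    exact he2 u 1 v (fun k hk => by
      have h1 : u.length = X * 2 ^ K := hu
      rw [h1]
      exact hcle k hk)

end Crest.Agent.R320.Fin_605
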