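import Crest.Agent.R320.End_532
import Crest.Agent.R320.GridG_19
import Crest.Agent.R320.GridRuler_257
import Crest.Agent.R320.ExactR_237
import Crest.Agent.R320.WallU_228
import Crest.Agent.R320.P4_933
import Crest.Agent.R320.Block_467
import Crest.Agent.R320.Bridge_975
import Crest.Agent.R320.Univ_188

/-!
Row 320, helper609: the join (constants) over End_532.joint, GridG_19.grid, GridRuler_257.ruler,
ExactR_237.exact_gadget, WallU_228.walls, P4_933, Block_467.exists_module.
-/

set_option autoImplicit false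

namespace Crest.Agent.R320.Fin_609

open Crest.RegLang Crest.Agent.R320.Hk_851 Crest.Agent.R320.Sc2n_937

/-- pieces are products of pieces -/
theorem pieces_PN {α : Type} (B : ℕ) : ∀ (R : ℕ) (w : List α), CompR_11.Pieces R B w →
    w ∈ (BddReg_746.PN B R : Language α) := by
  intro R
  induction R with
  | zero =>
    rintro w ⟨l, h1, h2, rfl⟩
    have : l = [] := List.length_eq_zero_iff.1 (Nat.le_zero.1 h1)
    subst this
    exact rfl
  | succ R ih =>
    rintro w ⟨l, h1, h2, rfl⟩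
    cases l with
    | nil => exact P4_933.nil_mem_PN B (R + 1)
    | cons t l =>
      refine Language.mem_mul.2 ⟨t.1 ++ BddReg_746.pw t.2.1 t.2.2, ⟨t.1, t.2.1, t.2.2,
        (h2 t (by simp)).1, (h2 t (by simp)).2, rfl⟩, _,
        ih _ ⟨l, by simpa using h1, fun s hs => h2 s (by simp [hs]), rfl⟩, ?_⟩
      rfl

/-- the rests have height one -/
theorem nb_iff {α : Type} (g : Geo α) (w : List α) :
    (∀ X, g.XX X → ¬ X <+: w) ↔ P4_933.NB g.Wo g.z w := by
  rw [P4_933.NB_iff]
  constructor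
  · rintro h P hP ⟨h1, h2, h3⟩
    exact h P ⟨h2, h1, fun t h4 h5 => h3 t h5 h4⟩ hP
  · rintro h P ⟨h1, h2, h3⟩ hP
    exact h P hP ⟨h2, h1, fun t h4 h5 => h3 t h5 h4⟩

theorem xx_iff {α : Type} (g : Geo α) (X : List α) :
    g.XX X ↔ P4_933.XX g.Wo g.z X := by
  constructor
  · rintro ⟨h1, h2, h3⟩
    exact ⟨h2, h1, fun t h4 h5 => h3 t h5 h4⟩
  · rintro ⟨h1, h2, h3⟩
    exact ⟨h2, h1, fun t h4 h5 => h3 t h5 h4⟩


/-- the bad lengths -/
def BadT (Ms : Finset ℕ) (G : ℕ → ℕ) (M m T : ℕ) : Prop :=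
  (∃ q ∈ Ms, q ∣ T) ∨ GridG_19.BadG G M 0 m T

theorem badZ_of (Ms : Finset ℕ) (G : ℕ → ℕ) (M m T : ℕ) (hG : ∀ k, 0 < G k)
    (hT : GridG_19.Am G M 0 m ≤ T) (h : BadT Ms G M m T) :
    GridRuler_257.BadZ Ms m M G (GridG_19.Am G M 0) (T : ℤ) := by
  rcases h with ⟨q, hq, hd⟩ | ⟨k, hk, h⟩
  · exact Or.inl ⟨q, hq, by exact_mod_cast hd⟩
  · right
    have hA : GridG_19.Am G M 0 (k + 1) ≤ T := (GridG_19.Am_mono G M 0 hk).trans hT
    refine ⟨k + 1, by omega, by omega, ?_⟩
    simp only [Nat.add_sub_cancel]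
    generalize GridG_19.Am G M 0 (k + 1) = a at h hA ⊢
    have e : ((T : ℤ) - a) = (((T - a : ℕ)) : ℤ) := by omega
    have hdm := Nat.div_add_mod (T - a) (G (k + 1))
    have hlt := Nat.mod_lt (T - a) (hG (k + 1))
    generalize hρ : (T - a) % G (k + 1) = ρ at h hdm hlt
    generalize hd : (T - a) / G (k + 1) = d at hdm
    rcases h with h | h
    · refine ⟨(ρ : ℤ), ?_, ?_⟩
      · rw [abs_of_nonneg (by omega)]; exact_mod_cast h.le
      · rw [e, ← hdm]; push_cast
        exact ⟨d, by ring⟩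
    · refine ⟨(ρ : ℤ) - G (k + 1), ?_, ?_⟩
      · rw [abs_of_nonpos (by have : (ρ : ℤ) < G (k + 1) := by exact_mod_cast hlt
                              linarith)]
        have : (G (k + 1) : ℤ) ≤ ρ + (M * G k : ℕ) := by exact_mod_cast h
        linarith
      · rw [e, ← hdm]; push_cast
        exact ⟨d + 1, by ring⟩

theorem fin (α : Type) [Finite α] (S : Type) [Monoid S] [Finite S] (φ : α → S) (s : S) :
    HL 3 ({w | (w.map φ).prod = s} : Language α) := by
  classical
  have := Fintype.ofFinite S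
  have : Fintype (S → ZMod 2) := Fintype.ofFinite _
  obtain ⟨act, hadd, hone, hmul, hfaith⟩ := Crest.Agent.R320.Blk467.exists_module S
  obtain ⟨m, r, hgrid⟩ := GridG_19.grid S (S → ZMod 2) act
  obtain ⟨K, hK⟩ := ExactR_237.exact_gadget α S (S → ZMod 2) φ act (2 * (r + m) + 2)
  obtain ⟨Ms, hMc, hMs, hG⟩ := hgrid (4 ^ (K + 1))
  have hMpos : 0 < ∏ q ∈ Ms, q := Finset.prod_pos fun q hq => (hMs q hq).1.pos
  have hMdvd : ∀ k ∈ Ms, k ∣ ∏ q ∈ Ms, q := fun k hk => Finset.dvd_prod_of_mem _ hk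
  have hMcop : Nat.Coprime (∏ q ∈ Ms, q) 2 := by
    refine Nat.Coprime.prod_left fun q hq => ?_
    refine (Nat.coprime_primes (hMs q hq).1 Nat.prime_two).2 ?_
    have := (hMs q hq).2
    have h4 : 4 ^ 1 ≤ 4 ^ (K + 1) := Nat.pow_le_pow_right (by norm_num) (by omega)
    omega
  generalize hM : ∏ q ∈ Ms, q = M at hG hMpos hMdvd hMcop
  set G : ℕ → ℕ := fun j => (2 ^ (M + 2 * K + 4)) ^ j with hGdef
  have hGpos : ∀ k, 0 < G k := fun k => by positivity
  have hGd : ∀ a b, a ≤ b → G a ∣ G b := fun a b h => pow_dvd_pow _ h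
  have hGcop : ∀ k, Nat.Coprime M (G k) := fun k =>
    Nat.Coprime.pow_right _ (Nat.Coprime.pow_right _ hMcop)
  obtain ⟨lam, rho, nu1, hsound, hlen, hrho, hcomp, hfs⟩ :=
    hG G 0 hGpos hGd hGcop α (fun w => (w.map φ).prod) (fun u v => by simp)
  have hGb : ∀ j, 16 * 4 ^ K * (M * G j) ≤ G (j + 1) := by
    intro j
    have h1 : M ≤ 2 ^ M := Nat.lt_two_pow_self.le
    have h2 : (4 : ℕ) ^ K = 2 ^ (2 * K) := by rw [pow_mul]; norm_num
    have e : G (j + 1) = 2 ^ (M + 2 * K + 4) * G j := by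
      show (2 ^ (M + 2 * K + 4)) ^ (j + 1) = 2 ^ (M + 2 * K + 4) * (2 ^ (M + 2 * K + 4)) ^ j
      rw [pow_succ]; ring
    rw [e, pow_add, pow_add, ← h2]
    calc 16 * 4 ^ K * (M * G j) = (M * 4 ^ K * 16) * G j := by ring
      _ ≤ (2 ^ M * 4 ^ K * 2 ^ 4) * G j := by
        apply Nat.mul_le_mul_right
        have : M * 4 ^ K ≤ 2 ^ M * 4 ^ K := Nat.mul_le_mul_right _ h1
        calc M * 4 ^ K * 16 ≤ 2 ^ M * 4 ^ K * 16 := Nat.mul_le_mul_right _ this
          _ = 2 ^ M * 4 ^ K * 2 ^ 4 := by norm_num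
  obtain ⟨U, hU1, hU2, hU3, hU4⟩ := GridRuler_257.ruler K m Ms M G (GridG_19.Am G M 0)
    (GridG_19.Am G M 0 m + 1) hMpos (fun k hk => ⟨hMdvd k hk, by
      have h1 := (hMs k hk).2
      have h2 : 4 ^ K ≤ 4 ^ (K + 1) := Nat.pow_le_pow_right (by norm_num) (by omega)
      omega⟩) (hGpos 0) (fun j => hGd _ _ (by omega)) hGb (hGcop m)
  set A : ℕ := GridG_19.Am G M 0 m with hA
  set c : ℕ → ℕ := fun i => U * 4 ^ i with hc
  have hcmono : ∀ i j, i < j → c i < c j := fun i j h => by
    have := hU2 i j h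
    show U * 4 ^ i < U * 4 ^ j
    omega
  obtain ⟨lam2, rho2, nu2, h2s, h2c⟩ := hK c (fun i j h _ => hcmono i j h)
  obtain ⟨n, Wo, loc, len, gap, R, B, free⟩ := WallU_228.walls (α := α)
    (2 * c K + 2 * (A + 1))
  let g : Geo α := ⟨Wo, n, c K + (A + 1) + (n + 2 * c K + 2 * A + M), c K,
    n + 2 * c K + 2 * A + M, A + 1, loc, rfl, by omega, by omega, by omega⟩
  have hcK : ∀ k, k < K → c k ≤ c K := fun k hk => (hcmono k K hk).le
  refine End_532.joint act hadd hone hmul hfaith φ g nu1 (fun X => nu2 X 1) K c lam rho lam2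
    (fun k Q => rho2 k Q 1) (BadT Ms G M m) (r + m) ?_ ?_ ?_ ?_ ?_ ?_ ?_ ?_ ?_ ?_ ?_ ?_ s
  · intro P v h
    have := (hlen P v h).2
    show P.length ≤ A + 1
    omega
  · intro P Q u b h1 h2
    exact hsound P Q u b h1 h2
  · intro Y hY hB u
    have hY' : n + 2 * c K + 2 * A + M ≤ Y.length := hY
    obtain ⟨P, Q, h1, h2, h3⟩ := hcomp Y (by omega) (by omega)
      (fun q hq hd => hB (Or.inl ⟨q, hq, hd⟩)) (fun h => hB (Or.inr h)) u
    exact ⟨P, Q, h1.symm, h2, h3⟩
  · exact hcK
  · intro k hk P Q v u hP hQ h1 h2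
    have := h2s k hk P Q 1 v u hP h1 h2
    rw [mul_one] at this
    exact this
  · intro P Q hP hPQ hQ
    by_contra hlt
    have hlt' : Q.length ≤ 2 * c K + 2 * (A + 1) := not_lt.1 hlt
    have := gap (P ++ Q) Q.length hPQ (List.length_pos_iff.2 hQ) hlt'
    rw [List.length_append, Nat.add_sub_cancel, List.take_left] at this
    exact this hP
  · intro k k' l l' hk hk' hl hl' h1 h2 h3 h4
    rcases hU3 k k' l l' (Ne.symm h1) with h | h
    · exact h.1
    · exfalso
      have h3' : U * 4 ^ k + U * 4 ^ l' < U * 4 ^ l + U * 4 ^ k' + 2 * (A + 1) := h3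
      have h4' : U * 4 ^ l + U * 4 ^ k' < U * 4 ^ k + U * 4 ^ l' + 2 * (A + 1) := h4
      rw [lt_abs] at h
      push_cast at h
      zify at h3' h4'
      rcases h with h | h <;> linarith
  · intro τ hτ J hJ
    have hτ' : c K + (A + 1) + (n + 2 * c K + 2 * A + M) ≤ τ + c K := hτ
    choose f hf using fun k (hk : k ∈ J) => (hJ k hk).2
    let s : Finset (ℕ × ℕ) := J.attach.image fun k => (f k.1 k.2, k.1)
    have hs : s.card = J.card := by
      rw [Finset.card_image_of_injective, Finset.card_attach]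
      intro a b hab
      exact Subtype.ext (congrArg Prod.snd hab)
    rw [← hs]
    refine (hU4 ((τ : ℤ) - c K) s ?_).trans (by omega)
    rintro ab hab
    obtain ⟨⟨k, hk⟩, -, rfl⟩ := Finset.mem_image.1 hab
    obtain ⟨g1, g2, g3⟩ := hf k hk
    have hkK := (hJ k hk).1
    refine ⟨g1, hkK, g2, ?_⟩
    have hck := hcK k hkK
    have hb := badZ_of Ms G M m _ hGpos (by
      show A ≤ τ + c (f k hk) - c k - c K
      omega) g3
    have e : ((τ + c (f k hk) - c k - g.p0 : ℕ) : ℤ) =
        (τ : ℤ) - c K + (U * 4 ^ (f k hk) : ℕ) - (U * 4 ^ k : ℕ) := by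
      show ((τ + c (f k hk) - c k - c K : ℕ) : ℤ) =
        (τ : ℤ) - c K + (c (f k hk) : ℕ) - (c k : ℕ)
      omega
    rw [e] at hb
    exact hb
  · intro X0 v hX0
    have hX0' : X0.length = c K := hX0
    exact h2c X0 1 v fun k hk => by rw [hX0']; exact hcK k hk
  · show 0 < c K + (A + 1) + (n + 2 * c K + 2 * A + M)
    omega
  · intro x y
    have hreg : Language.IsRegular ({X : List α |
        act (act x ((X.take (c K)).map φ).prod + nu2 (X.take (c K)) 1)
          ((X.drop (c K)).map φ).prod + nu1 (X.drop (c K)) = y} : Language α) := by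
      refine Bridge_975.reg_of_local φ (c K + GridG_19.Ac G M 0 m) (M * G m)
        (Nat.mul_pos hMpos (hGpos m)) _ ?_
      intro q q2 hq hq2 ht hmod hpr
      have e1 : q.take (c K) = q2.take (c K) := by
        have := congrArg (List.take (c K)) ht
        rwa [List.take_take, List.take_take, min_eq_left (by omega)] at this
      have e2 : (q.drop (c K)).take (GridG_19.Ac G M 0 m) =
          (q2.drop (c K)).take (GridG_19.Ac G M 0 m) := by
        have := congrArg (List.drop (c K)) ht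
        rwa [List.drop_take, List.drop_take, Nat.add_sub_cancel_left] at this
      have e3 : ∀ q : List α, (q.drop (c K)) = (q.drop (c K)).take (GridG_19.Ac G M 0 m) ++
          q.drop (c K + GridG_19.Ac G M 0 m) := by
        intro q
        conv_lhs => rw [← List.take_append_drop (GridG_19.Ac G M 0 m) (q.drop (c K))]
        rw [List.drop_drop]
      have e4 : ((q.drop (c K)).map φ).prod = ((q2.drop (c K)).map φ).prod := by
        rw [e3 q, e3 q2, List.map_append, List.map_append, List.prod_append, List.prod_append,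
          e2, hpr]
      have e5 : nu1 (q.drop (c K)) = nu1 (q2.drop (c K)) := by
        refine hfs _ _ (by rw [List.length_drop]; omega) (by rw [List.length_drop]; omega) e2 ?_ e4
        rw [List.length_drop, List.length_drop]
        refine Nat.ModEq.add_right_cancel' (c K) ?_
        rw [Nat.sub_add_cancel (by omega), Nat.sub_add_cancel (by omega)]
        exact hmod
      rw [e1, e4, e5]
    have h := P4_933.hl_XX (z := g.z) loc len (B := B) (R := R)
      (fun u hu => pieces_PN B R u (free u hu)) hreg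
    refine h.congr fun X => ?_
    constructor
    · rintro ⟨h1, h2⟩
      exact ⟨(xx_iff g X).1 h1, h2⟩
    · rintro ⟨h1, h2⟩
      exact ⟨(xx_iff g X).2 h1, h2⟩
  · intro s
    have hreg : Language.IsRegular ({u : List α | (u.map φ).prod = s} : Language α) := by
      refine P4_933.regular_of_class φ 0 1 one_pos _ ?_
      intro u u' _ _ _ _ h
      rw [h]
    have h := P4_933.hl_NB (z := g.z) loc len (B := B) (R := R)
      (fun u hu => pieces_PN B R u (free u hu)) hreg
    refine (h.mono (by omega : 1 ≤ 3)).congr fun w => ?_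
    constructor
    · rintro ⟨h1, h2⟩
      exact ⟨(nb_iff g w).1 h1, h2⟩
    · rintro ⟨h1, h2⟩
      exact ⟨(nb_iff g w).2 h1, h2⟩

theorem fin_lang (α : Type) [Finite α] (L : Language α) (hL : L.IsRegular) :
    ∃ e : GRegExp α, e.height ≤ 3 ∧ e.lang = L :=
  of_monoid (fun S _ _ φ s => fin α S φ s) L hL

universe u

/-- **S0495, every universe.** -/
theorem final (α : Type u) [Finite α] (L : Language α) (hL : L.IsRegular) :
    ∃ e : GRegExp α, e.height ≤ 3 ∧ e.lang = L :=
  Univ_188.of_type0 3 (fun α _ L hL => fin_lang α L hL) α L hL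

end Crest.Agent.R320.Fin_609
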