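import Mathlib

set_option autoImplicit false

namespace Crest.Agent.R320.JointS_764

open Classical in
/-- arithmetic spoil count: natural chain rule, two modes only. -/
theorem pair_count (w BadT : ℕ → Prop) (K z N L W C1 p0 b1 b2 : ℕ) (c : ℕ → ℕ)
    (hsep : ∀ s t, w s → w t → s < t → s + W < t)
    (hW : 2 * (N + L) ≤ W)
    (hL : ∀ i < K, ∀ j < K, c j ≤ c i + L)
    (hrul : ∀ i < K, ∀ j < K, ∀ k < K, ∀ l < K, i ≠ j → k ≠ l →
      c j + c k < c l + c i + 2 * N → c l + c i < c j + c k + 2 * N → i = k ∧ j = l)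
    (hb1 : w b1) (hb2 : w b2) (hzb : z ≤ b1) (hbb : b1 < b2) (hzL : L + p0 ≤ z)
    (hsp : ∀ T0, z ≤ T0 + L + p0 →
      (((Finset.range K) ×ˢ (Finset.range K)).filter
        (fun q => q.1 ≠ q.2 ∧ BadT (T0 + c q.2 - c q.1))).card ≤ C1) :
    (((Finset.range K) ×ˢ (Finset.range K)).filter
      (fun q => q.1 ≠ q.2 ∧
        ((∃ t, w t ∧ z + c q.1 ≤ t + c q.2 + N ∧ t + c q.2 < z + c q.1 + N) ∨
         (∃ t, w t ∧ z + c q.1 ≤ t + c q.2 ∧ (∀ t' < t, z + c q.1 ≤ t' + c q.2 → ¬ w t') ∧
            BadT (t + c q.2 - c q.1 - p0))))).card ≤ 1 + (C1 + C1) := by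
  classical
  -- first wall after z - L, and next wall
  have hex1 : ∃ t, z ≤ t + L ∧ w t := ⟨b1, by omega, hb1⟩
  have hex2 : ∃ t, Nat.find hex1 < t ∧ w t := ⟨b2, by
    have := Nat.find_min' hex1 (⟨by omega, hb1⟩ : z ≤ b1 + L ∧ w b1)
    omega, hb2⟩
  set t1 := Nat.find hex1 with ht1
  have h1 := Nat.find_spec hex1
  rw [← ht1] at h1
  set t2 := Nat.find hex2 with ht2
  have h2 := Nat.find_spec hex2
  rw [← ht2] at h2
  have h12 := hsep t1 t2 h1.2 h2.2 h2.1
  set A := ((Finset.range K) ×ˢ (Finset.range K)).filter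
      (fun q => q.1 ≠ q.2 ∧
        (∃ t, w t ∧ z + c q.1 ≤ t + c q.2 + N ∧ t + c q.2 < z + c q.1 + N)) with hA
  set B1 := ((Finset.range K) ×ˢ (Finset.range K)).filter
        (fun q => q.1 ≠ q.2 ∧ BadT ((t1 - p0) + c q.2 - c q.1)) with hB1
  set B2 := ((Finset.range K) ×ˢ (Finset.range K)).filter
        (fun q => q.1 ≠ q.2 ∧ BadT ((t2 - p0) + c q.2 - c q.1)) with hB2
  have hAc : A.card ≤ 1 := by
    rw [Finset.card_le_one]
    rintro ⟨i, j⟩ hq ⟨k, l⟩ hq'
    simp only [hA, Finset.mem_filter, Finset.mem_product, Finset.mem_range] at hq hq'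
    obtain ⟨⟨hi, hj⟩, hij, t, hwt, ha, hb⟩ := hq
    obtain ⟨⟨hk, hl⟩, hkl, t', hwt', ha', hb'⟩ := hq'
    have e1 := hL i hi j hj
    have e2 := hL j hj i hi
    have e3 := hL k hk l hl
    have e4 := hL l hl k hk
    have htt : t = t' := by
      rcases lt_trichotomy t t' with h | h | h
      · have := hsep t t' hwt hwt' h; omega
      · exact h
      · have := hsep t' t hwt' hwt h; omega
    subst htt
    have := hrul i hi j hj k hk l hl hij hkl (by omega) (by omega)
    rw [this.1, this.2]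
  have hB1c : B1.card ≤ C1 := hsp (t1 - p0) (by omega)
  have hB2c : B2.card ≤ C1 := hsp (t2 - p0) (by omega)
  have hsub : (((Finset.range K) ×ˢ (Finset.range K)).filter
      (fun q => q.1 ≠ q.2 ∧
        ((∃ t, w t ∧ z + c q.1 ≤ t + c q.2 + N ∧ t + c q.2 < z + c q.1 + N) ∨
         (∃ t, w t ∧ z + c q.1 ≤ t + c q.2 ∧ (∀ t' < t, z + c q.1 ≤ t' + c q.2 → ¬ w t') ∧
            BadT (t + c q.2 - c q.1 - p0))))) ⊆ A ∪ (B1 ∪ B2) := by
    rintro ⟨i, j⟩ hq
    simp only [hA, hB1, hB2, Finset.mem_union, Finset.mem_filter, Finset.mem_product,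
      Finset.mem_range] at hq ⊢
    obtain ⟨⟨hi, hj⟩, hij, hq⟩ := hq
    have e1 := hL i hi j hj
    have e2 := hL j hj i hi
    rcases hq with hq | ⟨t, hwt, hzt, hmin, hbad⟩
    · exact Or.inl ⟨⟨hi, hj⟩, hij, hq⟩
    · right
      have ht1t : t1 ≤ t := Nat.find_min' hex1 ⟨by omega, hwt⟩
      by_cases hcase : z + c i ≤ t1 + c j
      · left
        have : t = t1 := by
          by_contra hne
          exact hmin t1 (by omega) hcase h1.2
        refine ⟨⟨hi, hj⟩, hij, ?_⟩
        have he : t1 - p0 + c j - c i = t + c j - c i - p0 := by omega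
        rw [he]; exact hbad
      · right
        have hne : t ≠ t1 := by
          rintro rfl
          exact hcase hzt
        have ht2t : t2 ≤ t := Nat.find_min' hex2 ⟨by omega, hwt⟩
        have : t = t2 := by
          by_contra hne'
          exact hmin t2 (by omega) (by omega) h2.2
        refine ⟨⟨hi, hj⟩, hij, ?_⟩
        have he : t2 - p0 + c j - c i = t + c j - c i - p0 := by omega
        rw [he]; exact hbad
  calc _ ≤ (A ∪ (B1 ∪ B2)).card := Finset.card_le_card hsub
    _ ≤ A.card + (B1 ∪ B2).card := Finset.card_union_le _ _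
    _ ≤ A.card + (B1.card + B2.card) := by
        have := Finset.card_union_le B1 B2; omega
    _ ≤ 1 + (C1 + C1) := by omega

structure Dat (α S V : Type*) where
  φ : List α → S
  act : V → S → V
  Wo : List α → Prop
  n : ℕ
  W : ℕ
  z : ℕ
  p0 : ℕ
  N : ℕ
  N' : ℕ
  K : ℕ
  L : ℕ
  C1 : ℕ
  R : ℕ
  c : ℕ → ℕ
  lam1 : List α → Option V
  rho1 : List α → Option V
  nu1 : List α → V
  BadT : ℕ → Prop
  lam2 : ℕ → List α → Option V
  rho2 : ℕ → List α → Option V
  nu2 : List α → V

variable {α S V : Type*} [AddCommGroup V]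

namespace Dat

variable (D : Dat α S V)

/-- zone code: first wall at distance at least `z`. -/
def XX : Set (List α) :=
  {X | D.Wo X ∧ D.z ≤ X.length ∧ ∀ t, D.z ≤ t → t < X.length → ¬ D.Wo (X.take t)}

/-- zone map (one token system). -/
def T (v : V) (X : List α) : V :=
  D.act (D.act v (D.φ (X.take D.p0)) + D.nu2 (X.take D.p0)) (D.φ (X.drop D.p0)) +
    D.nu1 (X.drop D.p0)

def LP1 (P : List α) (v : V) : Prop :=
  D.p0 ≤ P.length ∧
    D.lam1 (P.drop D.p0) = some (D.act v (D.φ (P.take D.p0)) + D.nu2 (P.take D.p0))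

def LP2 (P : List α) (v : V) : Prop :=
  ∃ k < D.K, P.length = D.c k ∧ D.lam2 k P = some v

def E (X : List α) : Prop :=
  X.length < D.z + D.N ∨ ∃ t, t < X.length ∧ D.z ≤ t + D.N ∧ D.Wo (X.take t)

def Bad (X : List α) : Prop := D.E X ∨ D.BadT (X.length - D.p0)

def Sem1 (Q : List α) : Prop :=
  Q ≠ [] ∧ ∃ b, ∀ P v, D.LP1 P v → P ++ Q ∈ D.XX ∧ D.T v (P ++ Q) = b

def Sem2 (Q : List α) : Prop :=
  Q ≠ [] ∧ ∃ b, ∀ P v, D.LP2 P v →
    (∃ X ∈ D.XX, X <+: P ++ Q ∧ ∃ P' Q', X = P' ++ Q' ∧ P.length ≤ P'.length ∧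
        D.LP1 P' v ∧ D.Sem1 Q') ∨
    (∃ Q1 X2, Q = Q1 ++ X2 ∧ Q1 ≠ [] ∧ P ++ Q1 ∈ D.XX ∧ X2 ∈ D.XX ∧
        D.T (D.T v (P ++ Q1)) X2 = b)

open Classical in
structure Ok : Prop where
  loc : ∀ P Q, D.n ≤ Q.length → (D.Wo (P ++ Q) ↔ D.Wo Q)
  sep : ∀ P Q, D.Wo P → D.Wo (P ++ Q) → Q ≠ [] → D.W < Q.length
  s1 : ∀ P Q v b, D.lam1 P = some v → D.rho1 Q = some b →
    b = D.act v (D.φ (P ++ Q)) + D.nu1 (P ++ Q)
  l1 : ∀ P v, D.lam1 P = some v → P.length ≤ D.N
  c1 : ∀ Y, D.N' ≤ Y.length → ¬ D.BadT Y.length → ∀ v, ∃ P Q, Y = P ++ Q ∧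
    D.lam1 P = some v ∧ ∃ b, D.rho1 Q = some b
  s2 : ∀ k < D.K, ∀ P Q v b, P.length = D.c k → (P ++ Q).length = D.p0 →
    D.lam2 k P = some v → D.rho2 k Q = some b →
    b = D.act v (D.φ (P ++ Q)) + D.nu2 (P ++ Q)
  c2 : ∀ X0 : List α, X0.length = D.p0 → ∀ v, ∃ I : Finset ℕ, D.R < I.card ∧
    ∀ k ∈ I, k < D.K ∧ D.lam2 k (X0.take (D.c k)) = some v ∧
      ∃ b, D.rho2 k (X0.drop (D.c k)) = some b
  ck : ∀ k < D.K, D.c k ≤ D.p0
  hL : ∀ i < D.K, ∀ j < D.K, D.c j ≤ D.c i + D.L
  hrul : ∀ i < D.K, ∀ j < D.K, ∀ k < D.K, ∀ l < D.K, i ≠ j → k ≠ l →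
      D.c j + D.c k < D.c l + D.c i + 2 * D.N → D.c l + D.c i < D.c j + D.c k + 2 * D.N →
      i = k ∧ j = l
  hsp : ∀ T0, D.z ≤ T0 + D.L + D.p0 →
      (((Finset.range D.K) ×ˢ (Finset.range D.K)).filter
        (fun q => q.1 ≠ q.2 ∧ D.BadT (T0 + D.c q.2 - D.c q.1))).card ≤ D.C1
  hR : 1 + (D.C1 + D.C1) ≤ D.R
  hW : 2 * (D.N + D.L) ≤ D.W
  hz : D.p0 + D.N + D.n + D.L + D.N' + 1 ≤ D.z

variable {D}

theorem prefix_code (_h : D.Ok) : ∀ X ∈ D.XX, ∀ Y, X ++ Y ∈ D.XX → Y = [] := by
  intro X hX Y hXY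
  by_contra hne
  have hl : 0 < Y.length := List.length_pos_of_ne_nil hne
  have := hXY.2.2 X.length hX.2.1 (by simp; omega)
  rw [List.take_left' rfl] at this
  exact this hX.1

theorem nil_notMem (h : D.Ok) : [] ∉ D.XX := by
  intro hX
  have := hX.2.1
  have := h.hz
  simp at *
  omega

/-- walls are read far from the left end -/
theorem wo_iff (h : D.Ok) (P P' Q : List α) (s : ℕ) (hs : D.n ≤ s) (hsQ : s ≤ Q.length) :
    D.Wo (P ++ Q.take s) ↔ D.Wo (P' ++ Q.take s) := by
  rw [h.loc P (Q.take s) (by simp; omega), h.loc P' (Q.take s) (by simp; omega)]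

/-- completeness of scheme 1, with semantic right words -/
theorem cut1 (h : D.Ok) (X : List α) (hX : X ∈ D.XX) (hB : ¬ D.Bad X) (v : V) :
    ∃ P Q, X = P ++ Q ∧ D.LP1 P v ∧ D.Sem1 Q := by
  have hz := h.hz
  obtain ⟨hW, hzX, hmin⟩ := hX
  have hE : ¬ D.E X := fun e => hB (Or.inl e)
  have hBT : ¬ D.BadT (X.length - D.p0) := fun e => hB (Or.inr e)
  have hXl : D.z + D.N ≤ X.length := by
    by_contra hh
    exact hE (Or.inl (by omega))
  have hnw : ∀ t, t < X.length → D.z ≤ t + D.N → ¬ D.Wo (X.take t) := by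
    intro t ht hzt hw
    exact hE (Or.inr ⟨t, ht, hzt, hw⟩)
  have hYl : (X.drop D.p0).length = X.length - D.p0 := by simp
  obtain ⟨P1, Q, hY, hlam, b, hrho⟩ := h.c1 (X.drop D.p0) (by rw [hYl]; omega)
    (by rw [hYl]; exact hBT) (D.act v (D.φ (X.take D.p0)) + D.nu2 (X.take D.p0))
  have hP1 := h.l1 _ _ hlam
  have hXe : X = (X.take D.p0 ++ P1) ++ Q := by
    rw [List.append_assoc, ← hY, List.take_append_drop]
  have htl : (X.take D.p0).length = D.p0 := by simp; omega
  have hQl : Q.length + P1.length + D.p0 = X.length := by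
    have := congrArg List.length hY
    simp at this
    omega
  refine ⟨X.take D.p0 ++ P1, Q, hXe, ⟨by simp; omega, ?_⟩, ?_, b, ?_⟩
  · rw [List.drop_left' htl, List.take_left' htl]
    exact hlam
  · intro hq
    rw [hq] at hQl
    simp at hQl
    omega
  · intro P v' hP
    obtain ⟨hPl, hPlam⟩ := hP
    have hPN := h.l1 _ _ hPlam
    have hPN' : P.length ≤ D.p0 + D.N := by
      simp at hPN; omega
    have hPt : (P.take D.p0).length = D.p0 := by simp; omega
    constructor
    · refine ⟨?_, by simp; omega, ?_⟩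
      · rw [h.loc P Q (by omega)]
        rw [hXe, h.loc _ Q (by omega)] at hW
        exact hW
      · intro t hzt htl' hw
        have ht : P.length ≤ t := by omega
        rw [List.take_append, List.take_of_length_le ht] at hw
        have hlt : t - P.length < Q.length := by simp at htl'; omega
        have := (wo_iff h P (X.take D.p0 ++ P1) Q (t - P.length) (by omega) (by omega)).1 hw
        have he : ∀ A : List α, X = A ++ Q → A ++ Q.take (t - P.length) =
            X.take (A.length + (t - P.length)) := by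
          intro A hA
          rw [hA, List.take_length_add_append]
        rw [he _ hXe] at this
        exact hnw _ (by simp; omega) (by simp; omega) this
    · have e1 : (P ++ Q).take D.p0 = P.take D.p0 := by
        rw [List.take_append_of_le_length hPl]
      have e2 : (P ++ Q).drop D.p0 = P.drop D.p0 ++ Q := by
        rw [List.drop_append_of_le_length hPl]
      unfold T
      rw [e1, e2]
      exact (h.s1 _ _ _ _ hPlam hrho).symm

/-- completeness of scheme 2 with semantic right words -/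
theorem cut2 (h : D.Ok) (X : List α) (hX : X ∈ D.XX) (_hB : D.Bad X) (X2 : List α)
    (hX2 : X2 ∈ D.XX) (v : V) :
    ∃ P Q, X ++ X2 = P ++ Q ∧ P.length < X.length ∧ D.LP2 P v ∧ D.Sem2 Q := by
  classical
  have hz := h.hz
  have hX2l := hX2.2.1
  have hXc := hX
  obtain ⟨hW, hzX, hmin⟩ := hX
  obtain ⟨U, hU⟩ : ∃ U, U = X ++ X2 := ⟨_, rfl⟩
  have hUl : U.length = X.length + X2.length := by rw [hU]; simp
  let w : ℕ → Prop := fun t => t ≤ U.length ∧ D.Wo (U.take t)
  have hw1 : w X.length := ⟨by omega, by rw [hU, List.take_left' rfl]; exact hW⟩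
  have hw2 : w U.length := ⟨le_rfl, by
    rw [List.take_length, hU]; exact (h.loc X X2 (by omega)).2 hX2.1⟩
  have hsep : ∀ s t, w s → w t → s < t → s + D.W < t := by
    intro s t hs ht hst
    have e : U.take t = U.take s ++ (U.take t).drop s := by
      conv_lhs => rw [← List.take_append_drop s (U.take t)]
      rw [List.take_take, min_eq_left hst.le]
    have ht1 := ht.1
    have hl : ((U.take t).drop s).length = t - s := by
      rw [List.length_drop, List.length_take, min_eq_left ht1]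
    have := h.sep (U.take s) ((U.take t).drop s) hs.2 (by rw [← e]; exact ht.2) (by
      intro hnil
      rw [hnil] at hl
      simp at hl
      omega)
    omega
  have hcount := pair_count w D.BadT D.K D.z D.N D.L D.W D.C1 D.p0 X.length U.length D.c
    hsep h.hW h.hL h.hrul hw1 hw2 hzX (by omega) (by omega) h.hsp
  obtain ⟨SP, hSP⟩ : ∃ SP, SP = ((Finset.range D.K) ×ˢ (Finset.range D.K)).filter
      (fun q => q.1 ≠ q.2 ∧
        ((∃ t, w t ∧ D.z + D.c q.1 ≤ t + D.c q.2 + D.N ∧ t + D.c q.2 < D.z + D.c q.1 + D.N) ∨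
         (∃ t, w t ∧ D.z + D.c q.1 ≤ t + D.c q.2 ∧
            (∀ t' < t, D.z + D.c q.1 ≤ t' + D.c q.2 → ¬ w t') ∧
            D.BadT (t + D.c q.2 - D.c q.1 - D.p0)))) := ⟨_, rfl⟩
  rw [← hSP] at hcount
  obtain ⟨I, hI, hIk⟩ := h.c2 (X.take D.p0) (by simp; omega) v
  obtain ⟨k, hkI, hkS⟩ : ∃ k ∈ I, k ∉ (SP.image Prod.fst) := by
    by_contra hcon
    push Not at hcon
    have h1 : I ⊆ SP.image Prod.fst := fun k hk => hcon k hk
    have h2 := Finset.card_le_card h1
    have h3 := Finset.card_image_le (s := SP) (f := Prod.fst)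
    have := h.hR
    omega
  obtain ⟨hkK, hlam, b0, hrho⟩ := hIk k hkI
  have hck := h.ck k hkK
  rw [List.take_take, min_eq_left hck] at hlam
  obtain ⟨Q, hQ⟩ : ∃ Q, Q = X.drop (D.c k) ++ X2 := ⟨_, rfl⟩
  have hQl : Q.length = X.length - D.c k + X2.length := by rw [hQ]; simp
  have hPl : (X.take (D.c k)).length = D.c k := by simp; omega
  have hUe : U = X.take (D.c k) ++ Q := by
    rw [hU, hQ, ← List.append_assoc, List.take_append_drop]
  refine ⟨X.take (D.c k), Q, by rw [← hU, hUe], by rw [hPl]; omega,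
    ⟨k, hkK, hPl, hlam⟩, ?_, D.T (D.T v X) X2, ?_⟩
  · intro hq; rw [hq] at hQl; simp at hQl; omega
  rintro P' v' ⟨k', hk'K, hP'l, hlam'⟩
  have hck' := h.ck k' hk'K
  -- walls seen from the candidate
  have hA : ∀ t, D.c k + D.n ≤ t → t ≤ U.length →
      (D.Wo (P' ++ Q.take (t - D.c k)) ↔ D.Wo (U.take t)) := by
    intro t h1 h2
    have e : U.take t = X.take (D.c k) ++ Q.take (t - D.c k) := by
      rw [hUe]
      have : t = (X.take (D.c k)).length + (t - D.c k) := by omega
      conv_lhs => rw [this]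
      rw [List.take_length_add_append]
    rw [e]
    exact wo_iff h _ _ _ _ (by omega) (by omega)
  by_cases hkk : k' = k
  · right
    subst hkk
    have hQ1l : (X.drop (D.c k')).length = X.length - D.c k' := by simp
    have hQ0 : (X.take D.p0).drop (D.c k') = (X.drop (D.c k')).take (D.p0 - D.c k') := by
      rw [List.drop_take]
    have hmem : P' ++ X.drop (D.c k') ∈ D.XX := by
      refine ⟨?_, by simp; omega, ?_⟩
      · rw [h.loc P' _ (by omega), ← h.loc (X.take (D.c k')) _ (by omega),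
          List.take_append_drop]
        exact hW
      · intro t hzt htl hw
        have htl2 : t < X.length := by simp at htl; omega
        rw [List.take_append, List.take_of_length_le (by omega)] at hw
        have := (wo_iff h P' (X.take (D.c k')) (X.drop (D.c k')) (t - P'.length)
          (by omega) (by omega)).1 hw
        have he : X.take (D.c k') ++ (X.drop (D.c k')).take (t - P'.length) = X.take t := by
          have e2 : t = (X.take (D.c k')).length + (t - P'.length) := by omega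
          conv_rhs => rw [← List.take_append_drop (D.c k') X]
          conv_rhs => rw [e2]
          rw [List.take_length_add_append]
        rw [he] at this
        exact hmin t hzt htl2 this
    have hTe : D.T v' (P' ++ X.drop (D.c k')) = D.T v X := by
      have e1 : (P' ++ X.drop (D.c k')).take D.p0 = P' ++ (X.take D.p0).drop (D.c k') := by
        rw [List.take_append, List.take_of_length_le (by omega), hP'l, hQ0]
      have e2 : (P' ++ X.drop (D.c k')).drop D.p0 = X.drop D.p0 := by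
        rw [List.drop_append, List.drop_eq_nil_of_le (by omega : P'.length ≤ D.p0),
          List.nil_append, List.drop_drop]
        congr 1
        omega
      have f1 := h.s2 k' hkK P' ((X.take D.p0).drop (D.c k')) v' b0 hP'l
        (by simp; omega) hlam' hrho
      have f2 := h.s2 k' hkK (X.take (D.c k')) ((X.take D.p0).drop (D.c k')) v b0 hPl
        (by simp; omega) hlam hrho
      have e3 : X.take (D.c k') ++ (X.take D.p0).drop (D.c k') = X.take D.p0 := by
        conv_rhs => rw [← List.take_append_drop (D.c k') (X.take D.p0)]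
        rw [List.take_take, min_eq_left hck']
      rw [e3] at f2
      unfold T
      rw [e1, e2, ← f1, ← f2]
    refine ⟨X.drop (D.c k'), X2, hQ, ?_, hmem, hX2, ?_⟩
    · intro hq; rw [hq] at hQ1l; simp at hQ1l; omega
    · rw [hTe]
  · left
    have hns : (k, k') ∉ SP := fun hh => hkS (Finset.mem_image.2 ⟨(k, k'), hh, rfl⟩)
    rw [hSP] at hns
    simp only [Finset.mem_filter, Finset.mem_product, Finset.mem_range, not_and] at hns
    have hns' := hns ⟨hkK, hk'K⟩ (fun e => hkk e.symm)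
    push Not at hns'
    obtain ⟨hnE, hnB⟩ := hns'
    have hex : ∃ t, w t ∧ D.z + D.c k ≤ t + D.c k' := ⟨U.length, hw2, by omega⟩
    obtain ⟨t', ht'⟩ : ∃ t', t' = Nat.find hex := ⟨_, rfl⟩
    have hspec := Nat.find_spec hex
    rw [← ht'] at hspec
    have hminT : ∀ t < t', D.z + D.c k ≤ t + D.c k' → ¬ w t := by
      intro t ht hzt hwt
      have := Nat.find_min' hex ⟨hwt, hzt⟩
      omega
    have htU := hspec.1.1
    obtain ⟨X', hX'⟩ : ∃ X', X' = P' ++ Q.take (t' - D.c k) := ⟨_, rfl⟩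
    have hX'l : X'.length = D.c k' + (t' - D.c k) := by
      rw [hX']; simp; omega
    have htake : ∀ t, D.c k' ≤ t → t ≤ X'.length → X'.take t = P' ++ Q.take (t - D.c k') := by
      intro t h1 h2
      rw [hX', List.take_append, List.take_of_length_le (by omega), List.take_take, hP'l,
        min_eq_left (by omega)]
    have hX'mem : X' ∈ D.XX := by
      refine ⟨?_, by omega, ?_⟩
      · rw [hX']
        exact (hA t' (by omega) htU).2 hspec.1.2
      · intro t hzt htl hw
        rw [htake t (by omega) htl.le] at hw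
        have e : t - D.c k' = (t - D.c k' + D.c k) - D.c k := by omega
        rw [e] at hw
        have := (hA (t - D.c k' + D.c k) (by omega) (by omega)).1 hw
        exact hminT (t - D.c k' + D.c k) (by omega) (by omega) ⟨by omega, this⟩
    have hX'B : ¬ D.Bad X' := by
      rintro ((hlt | ⟨t, htl, hzt, hw⟩) | hbt)
      · have := hnE t' hspec.1 (by omega)
        omega
      · have htz : t < D.z := by
          by_contra hh
          exact hX'mem.2.2 t (by omega) htl hw
        rw [htake t (by omega) htl.le] at hw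
        have e : t - D.c k' = (t - D.c k' + D.c k) - D.c k := by omega
        rw [e] at hw
        have := (hA (t - D.c k' + D.c k) (by omega) (by omega)).1 hw
        have := hnE (t - D.c k' + D.c k) ⟨by omega, this⟩ (by omega)
        omega
      · refine hnB t' hspec.1 hspec.2 hminT ?_
        have e : t' + D.c k' - D.c k - D.p0 = X'.length - D.p0 := by omega
        rw [e]; exact hbt
    obtain ⟨P'', Q'', hXe, hLP, hSem⟩ := cut1 h X' hX'mem hX'B v'
    refine ⟨X', hX'mem, ?_, P'', Q'', hXe, ?_, hLP, hSem⟩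
    · rw [hX']
      exact (List.prefix_append_right_inj P').2 (List.take_prefix _ _)
    · have := hLP.1
      omega

/-- the completeness statement of 474's semantic top -/
theorem cc (h : D.Ok) : ∀ X ∈ D.XX, ∀ X2 ∈ D.XX, ∀ v,
    (∃ P Q, X = P ++ Q ∧ D.LP1 P v ∧ D.Sem1 Q) ∨
    (∃ P Q, X ++ X2 = P ++ Q ∧ P.length < X.length ∧ D.LP2 P v ∧ D.Sem2 Q) := by
  intro X hX X2 hX2 v
  by_cases hB : D.Bad X
  · exact Or.inr (cut2 h X hX hB X2 hX2 v)
  · exact Or.inl (cut1 h X hX hB v)

theorem LP1_len (h : D.Ok) {P : List α} {v : V} (hP : D.LP1 P v) :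
    P.length ≤ D.p0 + D.N := by
  have := h.l1 _ _ hP.2
  simp at this
  omega

theorem LP2_len (h : D.Ok) {P : List α} {v : V} (hP : D.LP2 P v) :
    P.length ≤ D.p0 := by
  obtain ⟨k, hk, hl, -⟩ := hP
  have := h.ck k hk
  omega

end Dat

end Crest.Agent.R320.JointS_764
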