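import Crest.Agent.R320.Top5_163
import Crest.Agent.R320.TopSem_474
import Crest.Agent.R320.JointS_764
import Crest.Agent.R320.Fib_298
import Crest.Agent.R320.LWallAll_922
import Crest.Agent.R320.GridG_19
import Crest.Agent.R320.GridRuler_257
import Crest.Agent.R320.ExactR_237
import Crest.Agent.R320.Loc_645
import Crest.Agent.R320.Two_621
import Crest.Agent.R320.Univ_188

/-!
# Row 320: the join (helper615): constants and assembly of the landed pieces

Top: 163 + 474; both wall schemes: 764; heights of the blocks: 298; walls on all words: 922 (813);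
gadget 1: 19 (grid gadget of 693); ruler: 257; gadget 2: 237; regularity from locality: 645.
-/

set_option autoImplicit false

namespace Crest.Agent.R320.Fin_615

open Crest.Agent.R320 Crest.Agent.R320.Hk_851

/-- **all fibres have height at most three** -/
theorem fin (α : Type) [Finite α] (S : Type) [Monoid S] [Finite S] (f : α → S) (s : S) :
    HL 3 ({w | (w.map f).prod = s} : Language α) := by
  classical
  haveI : Fintype S := Fintype.ofFinite S
  let V : Type := S → ZMod 2
  haveI : Fintype V := inferInstanceAs (Fintype (S → ZMod 2))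
  let act : V → S → V := fun v t => Two_621.act v t
  have act_mul : ∀ v s s', act (act v s) s' = act v (s * s') := fun v s s' =>
    Two_621.act_mul v s s'
  have act_add : ∀ v w s, act (v + w) s = act v s + act w s := fun v w s =>
    Two_621.act_add v w s
  have faith : ∀ s s' : S, (∀ v, act v s = act v s') → s = s' := fun s s' h =>
    Two_621.act_faithful h
  let φ : List α → S := fun w => (w.map f).prod
  have hφ1 : φ [] = 1 := by simp [φ]
  have hφ : ∀ u v, φ (u ++ v) = φ u * φ v := by intro u v; simp [φ]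
  -- constants
  obtain ⟨m, r, hgrid⟩ := GridG_19.grid S V act
  let C1 : ℕ := r + m
  let R : ℕ := 1 + (C1 + C1)
  obtain ⟨K, hK⟩ := ExactR_237.exact_gadget α S V f act (R + 1)
  obtain ⟨Ms, hcard, hprime, hgrid⟩ := hgrid (4 ^ K)
  set M : ℕ := ∏ q ∈ Ms, q with hM
  have hM0 : 0 < M := Finset.prod_pos fun q hq => (hprime q hq).1.pos
  let b : ℕ := 16 * 4 ^ K * M + 1
  let G : ℕ → ℕ := fun j => b ^ j
  have hb : Nat.Coprime M b := by
    have : Nat.Coprime M (16 * 4 ^ K * M + 1) := by
      rw [Nat.coprime_mul_right_add_right]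
      exact Nat.coprime_one_right M
    exact this
  have hG0 : ∀ k, 0 < G k := fun k => Nat.pow_pos (Nat.succ_pos _)
  obtain ⟨lam1, rho1, nu1, g1, g2, -, g4, g5⟩ := hgrid G 0 hG0
    (fun a c h => pow_dvd_pow b h) (fun k => Nat.Coprime.pow_right k hb) α φ hφ
  set Am : ℕ → ℕ := GridG_19.Am G M 0 with hAm
  let N : ℕ := Am m
  let N' : ℕ := 2 * Am m + M
  obtain ⟨U, hU0, hU1, hU2, hU3⟩ := GridRuler_257.ruler K m Ms M G Am N hM0
    (fun k hk => ⟨Finset.dvd_prod_of_mem _ hk, (hprime k hk).2.le⟩) (hG0 0)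
    (fun j => pow_dvd_pow b (Nat.le_succ j))
    (fun j => by
      show 16 * 4 ^ K * (M * b ^ j) ≤ b ^ (j + 1)
      calc 16 * 4 ^ K * (M * b ^ j) = (16 * 4 ^ K * M) * b ^ j := by ring
        _ ≤ b * b ^ j := Nat.mul_le_mul_right _ (Nat.le_succ _)
        _ = b ^ (j + 1) := by ring)
    (Nat.Coprime.pow_right m hb)
  let c : ℕ → ℕ := fun k => U * 4 ^ k
  let L : ℕ := U * 4 ^ K
  have hcK : ∀ k < K, c k ≤ L := fun k hk =>
    Nat.mul_le_mul_left _ (Nat.pow_le_pow_right (by norm_num) hk.le)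
  let p0 : ℕ := L
  obtain ⟨lam2, rho2, nu2, e1, e2⟩ := hK c (fun i j hij _ => by
    have := hU1 i j hij
    show U * 4 ^ i < U * 4 ^ j
    omega)
  let W : ℕ := 2 * (N + L) + 1
  obtain ⟨n, Gw, Bw, Wo, hLW, hgap, -, -, hfree⟩ := LWallAll_922.walls_all_left α W (by
    show 0 < 2 * (N + L) + 1
    omega)
  let z : ℕ := p0 + N + n + L + N' + 1 + L
  let BadT : ℕ → Prop := fun T => GridRuler_257.BadZ Ms m M G Am (T : ℤ)
  let D : JointS_764.Dat α S V :=
    { φ := φ, act := act, Wo := Wo, n := n, W := W, z := z, p0 := p0, N := N, N' := N', K := K,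
      L := L, C1 := C1, R := R, c := c, lam1 := lam1, rho1 := rho1, nu1 := nu1, BadT := BadT,
      lam2 := lam2, rho2 := fun k Q => rho2 k Q 1, nu2 := fun X => nu2 X 1 }
  have hAmle : ∀ j, j ≤ m → Am j ≤ Am m := fun j hj => GridG_19.Am_mono G M 0 hj
  have hD : D.Ok := by
    refine ⟨?_, ?_, ?_, ?_, ?_, ?_, ?_, ?_, ?_, ?_, ?_, ?_, ?_, ?_⟩
    · exact fun P Q h => hLW.app P Q h
    · intro P Q h1 h2 h3
      have hl : 0 < Q.length := List.length_pos_of_ne_nil h3
      have := hgap (P ++ Q) P.length (P ++ Q).length (by rw [List.length_append]; omega) le_rfl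
        (by rw [List.take_left' rfl]; exact h1) (by rw [List.take_length]; exact h2)
      rw [List.length_append] at this
      show W < Q.length
      omega
    · exact fun P Q v x h1 h2 => g1 P Q v x h1 h2
    · exact fun P v h => (g2 P v h).2.le
    · intro Y hY hB v
      have hY' : 2 * Am m + M ≤ Y.length := hY
      have hcl := GridRuler_257.clear_of_not_bad (Ms := Ms) (m := m) (M := M) (G := G) (A := Am)
        hG0 (T := Y.length) (fun j _ hj => by have := hAmle j hj; omega) hB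
      obtain ⟨P, Q, h1, h2, h3⟩ := g4 Y (by omega) (by omega) hcl.1 (by
        rintro ⟨k, hk, hk'⟩
        have h2 : M * G k < (Y.length - Am (k + 1)) % G (k + 1) ∧
            (Y.length - Am (k + 1)) % G (k + 1) + M * G k < G (k + 1) :=
          hcl.2 (k + 1) (by omega) (by omega)
        have h3 : (Y.length - Am (k + 1)) % G (k + 1) < M * G k ∨
            G (k + 1) ≤ (Y.length - Am (k + 1)) % G (k + 1) + M * G k := hk'
        rcases h3 with h3 | h3
        · exact absurd h2.1 (not_lt.2 h3.le)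
        · exact absurd h2.2 (not_lt.2 h3)) v
      exact ⟨P, Q, h1.symm, h2, Option.isSome_iff_exists.1 h3⟩
    · intro k hk P Q v x hP hPQ h1 h2
      have := e1 k hk P Q 1 v x hP h1 h2
      rw [mul_one] at this
      exact this
    · intro X0 hX0 v
      obtain ⟨I, hI, hI'⟩ := e2 X0 1 v (fun k hk => by
        have := hcK k hk
        have h : X0.length = p0 := hX0
        rw [h]
        exact this)
      refine ⟨I, hI, fun k hk => ?_⟩
      obtain ⟨h1, h2, h3⟩ := hI' k hk
      exact ⟨h1, h2, Option.isSome_iff_exists.1 h3⟩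
    · exact hcK
    · intro i hi j hj
      have := hcK j hj
      show c j ≤ c i + L
      omega
    · intro i _ j _ k _ l _ hij _ h1 h2
      have h1' : c j + c k < c l + c i + 2 * N := h1
      have h2' : c l + c i < c j + c k + 2 * N := h2
      rcases hU2 i j k l hij with h | h
      · exact h
      · exfalso
        have e1 : (((U * 4 ^ i : ℕ) : ℤ) - (U * 4 ^ j : ℕ)) -
          (((U * 4 ^ k : ℕ) : ℤ) - (U * 4 ^ l : ℕ)) = ((c i : ℤ) + c l) - (c j + c k) := by
            show (((c i : ℕ) : ℤ) - (c j : ℕ)) - (((c k : ℕ) : ℤ) - (c l : ℕ)) = _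
            ring
        rw [e1] at h
        rcases lt_abs.1 h with h | h <;> omega
    · intro T0 hT0
      have hT0' : z ≤ T0 + L + p0 := hT0
      have hTL : L ≤ T0 := by
        have : z = p0 + N + n + L + N' + 1 + L := rfl
        omega
      have hs := hU3 (T0 : ℤ) ((((Finset.range K) ×ˢ (Finset.range K)).filter
        (fun q => q.1 ≠ q.2 ∧ BadT (T0 + c q.2 - c q.1))).image Prod.swap) (by
          rintro ⟨x, y⟩ hxy
          rw [Finset.mem_image] at hxy
          obtain ⟨⟨i, j⟩, hij, hsw⟩ := hxy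
          rw [Prod.swap_prod_mk, Prod.mk.injEq] at hsw
          obtain ⟨rfl, rfl⟩ := hsw
          simp only [Finset.mem_filter, Finset.mem_product, Finset.mem_range] at hij
          obtain ⟨⟨hi, hj⟩, hne, hbad⟩ := hij
          refine ⟨hj, hi, fun h => hne h.symm, ?_⟩
          have hci := hcK i hi
          have e : ((T0 + c j - c i : ℕ) : ℤ) = (T0 : ℤ) + (U * 4 ^ j : ℕ) - (U * 4 ^ i : ℕ) := by
            show ((T0 + c j - c i : ℕ) : ℤ) = (T0 : ℤ) + (c j : ℕ) - (c i : ℕ)
            omega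
          have hbad' : GridRuler_257.BadZ Ms m M G Am ((T0 + c j - c i : ℕ) : ℤ) := hbad
          rw [e] at hbad'
          exact hbad')
      rw [Finset.card_image_of_injective _ Prod.swap_injective] at hs
      show _ ≤ r + m
      refine le_trans ?_ (hs.trans (Nat.add_le_add_right hcard m))
      apply Finset.card_le_card
      intro q hq
      simpa using hq
    · exact le_rfl
    · show 2 * (N + L) ≤ 2 * (N + L) + 1
      omega
    · show p0 + N + n + L + N' + 1 ≤ p0 + N + n + L + N' + 1 + L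
      omega
  -- regularity of the noise
  have hnu : ∀ y, Language.IsRegular ({Y | nu1 Y = y} : Language α) := by
    intro y
    refine Loc_645.isRegular_of_read' f (GridG_19.Ac G M 0 m) (M * G m)
      (Nat.mul_pos hM0 (hG0 m)) (fun Y => nu1 Y = y) ?_
    intro q q' h1 h2 h3 h4 h5 h6
    rw [← h6]
    symm
    refine g5 q q' h1 h2 h3 h5 ?_
    show (q.map f).prod = (q'.map f).prod
    have e : ∀ u : List α, (u.map f).prod = ((u.take (GridG_19.Ac G M 0 m)).map f).prod *
        ((u.drop (GridG_19.Ac G M 0 m)).map f).prod := by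
      intro u
      rw [← List.prod_append, ← List.map_append, List.take_append_drop]
    rw [e q, e q', h3, h4]
  -- the walls in 298's form
  have hWU : Fib_298.WallU Wo n (Bw + W) := by
    refine ⟨fun P Q h => hLW.app P Q h, fun Q h => hLW.len Q h, ?_⟩
    intro X hX
    obtain ⟨u, x, v, k, h1, h2, h3, h4⟩ := hfree X hX
    exact ⟨u, x, v, k, h4, by omega, by omega, by omega⟩
  have hnz : n ≤ z := by
    show n ≤ p0 + N + n + L + N' + 1 + L
    omega
  have hp0z : p0 ≤ z := by
    show p0 ≤ p0 + N + n + L + N' + 1 + L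
    omega
  have hXX : ∀ X, X ∈ D.XX ↔ X ∈ Fib_298.XX Wo z := by
    intro X
    constructor
    · rintro ⟨h1, h2, h3⟩; exact ⟨h2, h1, h3⟩
    · rintro ⟨h1, h2, h3⟩; exact ⟨h2, h1, h3⟩
  have hXT : ∀ v v', HL 1 ({X | X ∈ D.XX ∧ D.T v X = v'} : Language α) := by
    intro v v'
    refine (Fib_298.hfib hWU hnz act f p0 hp0z
      (fun v X0 => act v (X0.map f).prod + nu2 X0 1) nu1 hnu v v').congr fun X => ?_
    constructor
    · rintro ⟨h1, h2⟩; exact ⟨(hXX X).1 h1, h2⟩
    · rintro ⟨h1, h2⟩; exact ⟨(hXX X).2 h1, h2⟩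
  have hNP : ∀ s, HL 1 ({r | (∀ X ∈ D.XX, ¬ X <+: r) ∧ φ r = s} : Language α) := by
    intro s
    refine (Fib_298.rest hWU hnz f s).congr fun w => ?_
    constructor
    · rintro ⟨h1, h2⟩; exact ⟨fun X hX => h1 X ((hXX X).2 hX), h2⟩
    · rintro ⟨h1, h2⟩; exact ⟨fun X hX => h1 X ((hXX X).1 hX), h2⟩
  -- finiteness of the left relations
  have hfin : ∀ (LP : List α → V → Prop) (B : ℕ), (∀ P v, LP P v → P.length ≤ B) →
      {x : List α × V | LP x.1 x.2}.Finite := by
    intro LP B h
    refine ((List.finite_length_le α B).prod (Set.finite_univ : (Set.univ : Set V).Finite)).subset ?_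
    rintro ⟨P, v⟩ hP
    exact ⟨h P v hP, Set.mem_univ _⟩
  have hf1 : {x : List α × V | D.LP1 x.1 x.2}.Finite :=
    hfin D.LP1 _ fun P v h => JointS_764.Dat.LP1_len hD h
  have hf2 : {x : List α × V | D.LP2 x.1 x.2}.Finite :=
    hfin D.LP2 _ fun P v h => JointS_764.Dat.LP2_len hD h
  haveI : Nonempty V := ⟨0⟩
  have hsem1 : ∀ Q, D.Sem1 Q ↔ TopSem_474.Sem1 D.XX D.T D.LP1 Q := by
    intro Q
    constructor
    · rintro ⟨h1, x, h2⟩; exact ⟨x, h1, h2⟩
    · rintro ⟨x, h1, h2⟩; exact ⟨h1, x, h2⟩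
  have hCC : TopSem_474.CC D.XX D.T D.LP1 D.LP2 := by
    intro X hX X2 hX2 v
    rcases JointS_764.Dat.cc hD X hX X2 hX2 v with ⟨P, Q, h1, h2, h3⟩ | ⟨P, Q, h1, h2, h3, h4⟩
    · exact Or.inl ⟨P, Q, h1, h2, (hsem1 Q).1 h3⟩
    · refine Or.inr ⟨P, Q, h1, h2, h3, ?_⟩
      obtain ⟨h5, x, h6⟩ := h4
      refine ⟨x, h5, fun P' v' hP' => ?_⟩
      rcases h6 P' v' hP' with ⟨Y, hY, a1, P'', Q'', a2, a3, a4, a5⟩ | ⟨Q1, Y2, a1, a2, a3, a4, a5⟩
      · exact Or.inl ⟨Y, hY, a1, P'', Q'', a2, a3, a4, (hsem1 Q'').1 a5⟩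
      · exact Or.inr ⟨Q1, Y2, a1, a2, a3, a4, a5⟩
  refine Top5_163.top φ hφ1 hφ act act_mul act_add faith D.XX
    (JointS_764.Dat.nil_notMem hD) (JointS_764.Dat.prefix_code hD) D.T
    (fun X => act (nu2 (X.take p0) 1) (φ (X.drop p0)) + nu1 (X.drop p0)) ?_ D.LP1 D.LP2
    (TopSem_474.R1 D.XX D.T D.LP1) (TopSem_474.R2 D.XX D.T D.LP1 D.LP2)
    (fun Q x h => TopSem_474.R1_ne h) (fun Q x h => TopSem_474.R2_ne h)
    TopSem_474.s1 TopSem_474.s2 (TopSem_474.cc hCC) hXT hNP
    (TopSem_474.hl_LP hf1) (TopSem_474.hl_LP hf2)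
    (TopSem_474.hl_R1 hXT hf1) (TopSem_474.hl_R2 hXT hf1 hf2) s
  intro X _ v
  show act (act v (φ (X.take p0)) + nu2 (X.take p0) 1) (φ (X.drop p0)) + nu1 (X.drop p0) = _
  rw [act_add, act_mul, ← hφ, List.take_append_drop, add_assoc]

/-- S0495. -/
theorem row (α : Type*) [Finite α] (L : Language α) (hL : L.IsRegular) :
    ∃ e : Crest.RegLang.GRegExp α, e.height ≤ 3 ∧ e.lang = L :=
  Univ_188.of_type0 3 (fun β _ L hL => of_monoid (k := 3) (fun S _ _ g s => fin β S g s) L hL) α L hL

end Crest.Agent.R320.Fin_615
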