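import Crest.Agent.R320.Joint_47
import Crest.Agent.R320.Top5_120
import Crest.Agent.R320.GridG_19
import Crest.Agent.R320.GridRuler_896
import Crest.Agent.R320.Fib_854
import Crest.Agent.R320.Fib_835

/-!
# Row 320: constants and join (helper620)
-/

set_option autoImplicit false

namespace Crest.Agent.R320.Fin_620

open Crest.RegLang Crest.Agent.R320.Hk_851 Crest.Agent.R320.ExactR_237

/-- the thin set is periodic -/
theorem badZ_periodic {Ms : Finset ℕ} {M G m : ℕ} {Am : ℕ → ℤ} (hdvd : ∀ p ∈ Ms, p ∣ M)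
    {T T' : ℤ} (h : ∃ u : ℤ, T' = T + (M : ℤ) * (G : ℤ) ^ m * u)
    (hb : GridRuler_896.BadZ Ms M G m Am T) : GridRuler_896.BadZ Ms M G m Am T' := by
  obtain ⟨u, rfl⟩ := h
  rcases hb with ⟨p, hp, hpT⟩ | ⟨j, h1, h2, q, hq⟩
  · left
    refine ⟨p, hp, dvd_add hpT ?_⟩
    have : (p : ℤ) ∣ (M : ℤ) := by exact_mod_cast hdvd p hp
    exact Dvd.dvd.mul_right (Dvd.dvd.mul_right this _) _
  · right
    refine ⟨j, h1, h2, q + (M : ℤ) * (G : ℤ) ^ (m - j) * u, ?_⟩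
    have e : (G : ℤ) ^ m = (G : ℤ) ^ (m - j) * (G : ℤ) ^ j := by
      rw [← pow_add]; congr 1; omega
    have e2 : T + (M : ℤ) * (G : ℤ) ^ m * u - Am j -
        (q + (M : ℤ) * (G : ℤ) ^ (m - j) * u) * (G : ℤ) ^ j = T - Am j - q * (G : ℤ) ^ j := by
      rw [e]; ring
    rw [e2]; exact hq

theorem badZ_iff {Ms : Finset ℕ} {M G m : ℕ} {Am : ℕ → ℤ} (hdvd : ∀ p ∈ Ms, p ∣ M)
    {a b : ℕ} (h : a ≡ b [MOD M * G ^ m]) :
    GridRuler_896.BadZ Ms M G m Am (a : ℤ) ↔ GridRuler_896.BadZ Ms M G m Am (b : ℤ) := by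
  have h1 : ((M * G ^ m : ℕ) : ℤ) ∣ (b : ℤ) - (a : ℤ) := (Nat.modEq_iff_dvd).1 h
  obtain ⟨u, hu⟩ := h1
  push_cast at hu
  constructor
  · exact badZ_periodic hdvd ⟨u, by linarith⟩
  · exact badZ_periodic hdvd ⟨-u, by linarith⟩

/-- the bad bands of the grid gadget are in the thin set -/
theorem badG_badZ {Ms : Finset ℕ} {M G m : ℕ} (hG : 0 < G) {T : ℕ}
    (hT : GridG_19.Am (fun j => G ^ j) M 0 m ≤ T)
    (h : GridG_19.BadG (fun j => G ^ j) M 0 m T) :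
    GridRuler_896.BadZ Ms M G m (fun j => (GridG_19.Am (fun j => G ^ j) M 0 j : ℤ)) (T : ℤ) := by
  right
  obtain ⟨k, hk, h⟩ := h
  have hle : GridG_19.Am (fun j => G ^ j) M 0 (k + 1) ≤ T :=
    le_trans (GridG_19.Am_mono _ _ _ (by omega)) hT
  simp only at h
  obtain ⟨x, hx⟩ : ∃ x, x = T - GridG_19.Am (fun j => G ^ j) M 0 (k + 1) := ⟨_, rfl⟩
  rw [← hx] at h
  have hTx : (T : ℤ) - (GridG_19.Am (fun j => G ^ j) M 0 (k + 1) : ℤ) = (x : ℤ) := by
    rw [hx]; omega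
  have hd := Nat.div_add_mod x (G ^ (k + 1))
  have hdz : ((G : ℤ) ^ (k + 1)) * ((x / G ^ (k + 1) : ℕ) : ℤ) + ((x % G ^ (k + 1) : ℕ) : ℤ) =
      (x : ℤ) := by exact_mod_cast hd
  refine ⟨k + 1, by omega, by omega, ?_⟩
  rcases h with h | h
  · refine ⟨((x / G ^ (k + 1) : ℕ) : ℤ), ?_⟩
    have e : (T : ℤ) - (GridG_19.Am (fun j => G ^ j) M 0 (k + 1) : ℤ) -
        ((x / G ^ (k + 1) : ℕ) : ℤ) * (G : ℤ) ^ (k + 1) = ((x % G ^ (k + 1) : ℕ) : ℤ) := by
      rw [hTx]; linarith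
    rw [e, abs_of_nonneg (by positivity), Nat.add_sub_cancel]
    exact_mod_cast h.le
  · refine ⟨((x / G ^ (k + 1) : ℕ) : ℤ) + 1, ?_⟩
    have e : (T : ℤ) - (GridG_19.Am (fun j => G ^ j) M 0 (k + 1) : ℤ) -
        (((x / G ^ (k + 1) : ℕ) : ℤ) + 1) * (G : ℤ) ^ (k + 1) =
        ((x % G ^ (k + 1) : ℕ) : ℤ) - (G : ℤ) ^ (k + 1) := by
      rw [hTx]; linarith
    have h' : (G : ℤ) ^ (k + 1) ≤ ((x % G ^ (k + 1) : ℕ) : ℤ) + (M : ℤ) * (G : ℤ) ^ k := by
      exact_mod_cast h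
    rw [e, Nat.add_sub_cancel]
    have h3 : ((x % G ^ (k + 1) : ℕ) : ℤ) ≤ (G : ℤ) ^ (k + 1) := by
      exact_mod_cast (Nat.mod_lt x (pow_pos hG (k + 1))).le
    rw [abs_le]
    constructor
    · linarith
    · have : (0 : ℤ) ≤ (M : ℤ) * (G : ℤ) ^ k := by positivity
      linarith

/-- the value noise -/
def nuF {α S V : Type} [Monoid S] [AddCommGroup V] (φ : α → S) (act : V → S → V) (p0 : ℕ)
    (nu2 nu1 : List α → V) (X : List α) : V :=
  act (nu2 (X.take p0)) ((X.drop p0).map φ).prod + nu1 (X.drop p0)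

theorem T_eq {α S V : Type} [Monoid S] [AddCommGroup V] (φ : α → S) (act : V → S → V)
    (hadd : ∀ a b s, act (a + b) s = act a s + act b s)
    (hmul : ∀ v s t, act v (s * t) = act (act v s) t) (p0 : ℕ)
    (nu2 nu1 : List α → V) (v : V) (X : List α) :
    Joint_47.T φ act p0 nu2 nu1 v X = act v (X.map φ).prod + nuF φ act p0 nu2 nu1 X := by
  unfold Joint_47.T nuF pr
  have e : (X.map φ).prod = ((X.take p0).map φ).prod * ((X.drop p0).map φ).prod := by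
    rw [← List.prod_append, ← List.map_append, List.take_append_drop]
  rw [e, hmul, hadd, add_assoc]

theorem key_lists {α S : Type} [Monoid S] (φ : α → S) {K0 c : ℕ} (hc : c ≤ K0) {X Y : List α}
    (h1 : X.take K0 = Y.take K0) (h2 : ((X.drop K0).map φ).prod = ((Y.drop K0).map φ).prod) :
    X.take c = Y.take c ∧ ((X.drop c).map φ).prod = ((Y.drop c).map φ).prod := by
  have e : ∀ Z : List α, Z.drop c = (Z.take K0).drop c ++ Z.drop K0 := by
    intro Z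
    conv_lhs => rw [← List.take_append_drop K0 Z]
    by_cases hl : K0 ≤ Z.length
    · rw [List.drop_append_of_le_length (by rw [List.length_take]; omega)]
    · have h3 : Z.drop K0 = [] := List.drop_eq_nil_of_le (by omega)
      rw [h3, List.append_nil, List.append_nil]
  constructor
  · have := congrArg (List.take c) h1
    rwa [List.take_take, List.take_take, min_eq_left hc] at this
  · rw [e X, e Y, h1, List.map_append, List.map_append, List.prod_append, List.prod_append, h2]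

theorem fin (α : Type) [Finite α] (S : Type) [Monoid S] [Finite S] (φ : α → S) (s : S) :
    HL 3 ({w | (w.map φ).prod = s} : Language α) := by
  classical
  haveI := Fintype.ofFinite S
  obtain ⟨act, hadd, hone, hmul, hfaith⟩ := Blk467.exists_module S
  obtain ⟨m, r, hgrid⟩ := GridG_19.grid S (S → ZMod 2) act
  obtain ⟨K, hK⟩ := exact_gadget α S (S → ZMod 2) φ act (2 * (r + m) + 2)
  obtain ⟨Ms, hcard, hMs, hg⟩ := hgrid (2 ^ (K + 1))
  obtain ⟨M, hM⟩ : ∃ M, M = ∏ q ∈ Ms, q := ⟨_, rfl⟩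
  have hM0 : 0 < M := by rw [hM]; exact Finset.prod_pos fun q hq => (hMs q hq).1.pos
  have hdvd : ∀ p ∈ Ms, p ∣ M := fun p hp => by rw [hM]; exact Finset.dvd_prod_of_mem _ hp
  obtain ⟨k, hk⟩ : ∃ k, 2 ^ (K + 6) * M ≤ 2 ^ k := by
    refine ⟨K + 6 + M, ?_⟩
    rw [pow_add 2 (K + 6) M]
    exact Nat.mul_le_mul_left _ (Nat.lt_two_pow_self).le
  have hGpos : 0 < 2 ^ k := pow_pos (by norm_num) _
  have hcop : ∀ j, Nat.Coprime M ((2 ^ k) ^ j) := by
    intro j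
    rw [← pow_mul, hM]
    refine Nat.Coprime.pow_right _ (Nat.Coprime.prod_left fun q hq => ?_)
    rw [Nat.coprime_comm]
    refine (Nat.coprime_primes Nat.prime_two (hMs q hq).1).2 ?_
    have := (hMs q hq).2
    have h2 : 2 ≤ 2 ^ (K + 1) := by
      calc 2 = 2 ^ 1 := rfl
        _ ≤ 2 ^ (K + 1) := Nat.pow_le_pow_right (by norm_num) (by omega)
    omega
  obtain ⟨lam, rho, nu1, hsound, hlam, hrho, hcomp, hfs⟩ := hg (fun j => (2 ^ k) ^ j) 0
    (fun j => pow_pos hGpos j) (fun a b hab => pow_dvd_pow _ hab)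
    (by rw [← hM]; exact hcop) α (fun w => (w.map φ).prod)
    (fun u v => by simp)
  rw [← hM] at hlam hrho hcomp hfs
  obtain ⟨N1, hN1⟩ : ∃ N1, N1 = GridG_19.Am (fun j => (2 ^ k) ^ j) M 0 m := ⟨_, rfl⟩
  obtain ⟨Ac, hAc⟩ : ∃ Ac, Ac = GridG_19.Ac (fun j => (2 ^ k) ^ j) M 0 m := ⟨_, rfl⟩
  rw [← hN1] at hlam hrho hcomp
  rw [← hAc] at hfs
  obtain ⟨X, hX, hruler⟩ := GridRuler_896.exists_ruler K m Ms hMs M hM0 hdvd k hk (2 * N1 + 1)
  have hX0 : 0 < X := by omega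
  have hinc : ∀ i j, i < j → j < K → X * 2 ^ i < X * 2 ^ j := by
    intro i j hij _
    exact Nat.mul_lt_mul_of_pos_left (Nat.pow_lt_pow_right (by norm_num) hij) hX0
  obtain ⟨lam2, rho2, nu2, hS2, hC2⟩ := hK (fun j => X * 2 ^ j) hinc
  obtain ⟨p0, hp0⟩ : ∃ p0, p0 = X * 2 ^ K := ⟨_, rfl⟩
  have hcp : ∀ j, j < K → X * 2 ^ j ≤ p0 := by
    intro j hj
    rw [hp0]
    exact Nat.mul_le_mul_left _ (Nat.pow_le_pow_right (by norm_num) hj.le)
  obtain ⟨Wo, n, B, hn, hWalls⟩ := Fib_835.exists_walls α (2 * (N1 + p0) + 1) (by omega)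
  have hLW : Joint_47.LW n (2 * (N1 + p0) + 1) Wo := by
    refine ⟨hWalls.len, hWalls.loc, ?_⟩
    intro Z a b hab hb hwa hwb
    by_contra hcon
    exact hWalls.gap Z a b hab (by omega) hb hwa hwb
  obtain ⟨z, hz⟩ : ∃ z, z = 3 * p0 + n + N1 + 1 + 2 * N1 + M + p0 := ⟨_, rfl⟩
  obtain ⟨BadT, hBadT⟩ : ∃ BadT : ℕ → Prop, BadT = fun T : ℕ => GridRuler_896.BadZ Ms M (2 ^ k) m
      (fun j => (GridG_19.Am (fun j => (2 ^ k) ^ j) M 0 j : ℤ)) (T : ℤ) := ⟨_, rfl⟩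
  -- completeness of gadget 1
  have hC1 : ∀ Y : List α, 2 * N1 + M ≤ Y.length → ¬ BadT Y.length →
      ∀ v, ∃ P Q, Y = P ++ Q ∧ lam P = some v ∧ (rho Q).isSome := by
    intro Y hY hb v
    rw [hBadT] at hb
    obtain ⟨P, Q, h1, h2, h3⟩ := hcomp Y (by omega) (by omega)
      (fun q hq hd => hb (Or.inl ⟨q, hq, by exact_mod_cast hd⟩))
      (fun hbg => hb (badG_badZ hGpos (by rw [← hN1]; omega) hbg)) v
    exact ⟨P, Q, h1.symm, h2, h3⟩
  -- thin
  have hT : ∀ T : ℕ, (∀ j, j < K → X * 2 ^ j ≤ T) → ∀ I : Finset ℕ,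
      (∀ j ∈ I, j < K ∧ ∃ j', j' < K ∧ j' ≠ j ∧ BadT (T + X * 2 ^ j' - X * 2 ^ j)) →
      I.card ≤ r + m := by
    intro T hTl I hI
    obtain ⟨hfin, hle⟩ := hruler
      (fun j => (GridG_19.Am (fun j => (2 ^ k) ^ j) M 0 j : ℤ)) (T : ℤ)
    have hI' : ∀ j : ℕ, ∃ j', j ∈ I → j' < K ∧ j' ≠ j ∧ BadT (T + X * 2 ^ j' - X * 2 ^ j) := by
      intro j
      by_cases hj : j ∈ I
      · obtain ⟨_, j', h⟩ := hI j hj
        exact ⟨j', fun _ => h⟩
      · exact ⟨0, fun h => absurd h hj⟩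
    choose g hg' using hI'
    have hsub : (((I.image fun j => (g j, j)) : Finset (ℕ × ℕ)) : Set (ℕ × ℕ)) ⊆
        {ab : ℕ × ℕ | ab.1 < K ∧ ab.2 < K ∧ ab.1 ≠ ab.2 ∧
        GridRuler_896.BadZ Ms M (2 ^ k) m
          (fun j => (GridG_19.Am (fun j => (2 ^ k) ^ j) M 0 j : ℤ))
          ((T : ℤ) + X * 2 ^ ab.1 - X * 2 ^ ab.2)} := by
      intro ab hab
      rw [Finset.mem_coe, Finset.mem_image] at hab
      obtain ⟨j, hj, rfl⟩ := hab
      obtain ⟨h1, h2, h3⟩ := hg' j hj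
      refine ⟨h1, (hI j hj).1, h2, ?_⟩
      rw [hBadT] at h3
      have h4 : X * 2 ^ j ≤ T := hTl j (hI j hj).1
      have h5 : ((T + X * 2 ^ (g j) - X * 2 ^ j : ℕ) : ℤ) =
          (T : ℤ) + X * 2 ^ (g j) - X * 2 ^ j := by
        rw [Nat.cast_sub (by omega)]; push_cast; ring
      rw [h5] at h3
      exact h3
    have h1 := Set.ncard_le_ncard hsub hfin
    rw [Set.ncard_coe_finset, Finset.card_image_of_injective _
      (fun a b h => (Prod.ext_iff.1 h).2)] at h1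
    omega
  have hres : ∀ i i' j j', i < K → i' < K → j < K → j' < K → i' ≠ i → j' ≠ j →
      X * 2 ^ i + X * 2 ^ j' < X * 2 ^ j + X * 2 ^ i' + 2 * N1 →
      X * 2 ^ j + X * 2 ^ i' < X * 2 ^ i + X * 2 ^ j' + 2 * N1 → i = j := by
    intro i i' j j' _ _ _ _ hii hjj h1 h2
    by_contra hne
    have h3 := GridRuler_896.spaced (X := X) (N1 := 2 * N1 + 1) hX (a := i) (b := i') (c := j)
      (d := j') (Ne.symm hii) (Ne.symm hjj) (fun h => hne (Prod.ext_iff.1 h).1)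
    omega
  have hBadTper : ∀ a b : ℕ, a ≡ b [MOD M * (2 ^ k) ^ m] → (BadT a ↔ BadT b) := by
    intro a b hab
    rw [hBadT]
    exact badZ_iff hdvd hab
  obtain ⟨nu, hnu⟩ : ∃ nu, nu = nuF φ act p0 (fun X => nu2 X 1) nu1 := ⟨_, rfl⟩
  have hTT : ∀ v X, Joint_47.T φ act p0 (fun X => nu2 X 1) nu1 v X =
      act v (X.map φ).prod + nu X := by
    intro v X
    rw [hnu]
    exact T_eq φ act hadd hmul p0 _ _ v X
  -- finite information
  obtain ⟨K0, hK0⟩ : ∃ K0, K0 = z + N1 + p0 + Ac + 1 := ⟨_, rfl⟩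
  have hinfo : ∀ X Y : List α, K0 ≤ X.length → K0 ≤ Y.length → X.take K0 = Y.take K0 →
      X.length % (M * (2 ^ k) ^ m) = Y.length % (M * (2 ^ k) ^ m) →
      ((X.drop K0).map φ).prod = ((Y.drop K0).map φ).prod →
      (X.map φ).prod = (Y.map φ).prod ∧ nu X = nu Y ∧
        (Joint_47.Bad Wo z N1 p0 BadT X → Joint_47.Bad Wo z N1 p0 BadT Y) := by
    intro X Y h1 h2 h3 h4 h5
    have e0 := key_lists φ (c := 0) (Nat.zero_le _) h3 h5
    simp only [List.drop_zero] at e0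
    have ep := key_lists φ (c := p0) (by omega) h3 h5
    have epA := key_lists φ (c := p0 + Ac) (by omega) h3 h5
    refine ⟨e0.2, ?_, ?_⟩
    · rw [hnu]
      unfold nuF
      rw [ep.1, ep.2]
      congr 1
      refine hfs _ _ (by rw [List.length_drop]; omega) (by rw [List.length_drop]; omega) ?_ ?_ ep.2
      · have e1 : ∀ Z : List α, (Z.drop p0).take Ac = (Z.take (p0 + Ac)).drop p0 := by
          intro Z
          rw [List.drop_take]; congr 1; omega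
        rw [e1, e1, epA.1]
      · rw [List.length_drop, List.length_drop]
        exact Nat.ModEq.sub (by omega) (by omega) h4 (Nat.ModEq.refl _)
    · rintro (⟨t, t1, t2, t3, t4⟩ | hb)
      · left
        refine ⟨t, t1, t2, by omega, ?_⟩
        have et := key_lists φ (c := t) (by omega) h3 h5
        rwa [et.1] at t4
      · right
        refine (hBadTper _ _ ?_).1 hb
        exact Nat.ModEq.sub (by omega) (by omega) h4 (Nat.ModEq.refl _)
  have hMG : 0 < M * (2 ^ k) ^ m := Nat.mul_pos hM0 (pow_pos hGpos _)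
  have hfew : ∀ X : List α, (∀ t, t < X.length → ¬ Wo (X.take t)) →
      ∃ (u x : List α) (k : ℕ) (v : List α), u.length ≤ max B (2 * (N1 + p0) + 1) ∧
        x.length ≤ max B (2 * (N1 + p0) + 1) ∧ v.length ≤ max B (2 * (N1 + p0) + 1) ∧
        X = u ++ (List.replicate k x).flatten ++ v := by
    intro X hX
    obtain ⟨u, x, v, k, h1, h2, h3, h4⟩ := hWalls.free X hX
    exact ⟨u, x, k, v, le_max_of_le_left h1, le_max_of_le_right h2, le_max_of_le_left h3, h4⟩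
  have hnz : n ≤ z := by omega
  -- the two left families
  refine Top5_120.top5 act hadd hone hmul hfaith φ nu (Joint_47.Zn Wo z)
    {X | X ∈ Joint_47.Zn Wo z ∧ Joint_47.Bad Wo z N1 p0 BadT X} ?_ (fun X hX => hX.1)
    (fun v => {P | Joint_47.L1 φ act p0 (fun X => nu2 X 1) lam v P})
    (fun v => {P | Joint_47.L2 K (fun j => X * 2 ^ j) lam2 v P}) ?_ ?_ ?_ ?_ ?_ ?_ ?_ s
  · -- prefix code
    refine ⟨?_, ?_⟩
    · rintro ⟨h, -⟩
      simp at h
      omega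
    · intro a ha b hb hab
      exact Joint_47.Zn_prefix ha hb hab (List.prefix_refl b)
  · intro v
    refine (List.finite_length_le α (p0 + N1)).subset ?_
    rintro P ⟨h1, h2⟩
    have := (hlam _ _ h2).2
    rw [List.length_drop] at this
    show P.length ≤ p0 + N1
    omega
  · intro v
    refine (List.finite_length_le α p0).subset ?_
    rintro P ⟨j, hj, h1, -⟩
    show P.length ≤ p0
    rw [h1]
    exact hcp j hj
  · intro x y
    refine Fib_854.fib hWalls.loc hWalls.len hn hnz hfew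
      (fun X => act x (X.map φ).prod + nu X)
      ⟨K0, M * (2 ^ k) ^ m, S, inferInstance, inferInstance, φ, hMG, ?_⟩ y
    intro X Y h1 h2 h3 h4 h5
    obtain ⟨a1, a2, -⟩ := hinfo X Y h1 h2 h3 h4 h5
    simp only [a1, a2]
  · intro x y
    refine (Fib_854.fib hWalls.loc hWalls.len hn hnz hfew
      (fun X => (Joint_47.Bad Wo z N1 p0 BadT X, act x (X.map φ).prod + nu X))
      ⟨K0, M * (2 ^ k) ^ m, S, inferInstance, inferInstance, φ, hMG, ?_⟩ (True, y)).congr ?_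
    · intro X Y h1 h2 h3 h4 h5
      obtain ⟨a1, a2, a3⟩ := hinfo X Y h1 h2 h3 h4 h5
      obtain ⟨-, -, b3⟩ := hinfo Y X h2 h1 h3.symm h4.symm h5.symm
      simp only [a1, a2, Prod.mk.injEq, and_true]
      exact propext ⟨a3, b3⟩
    · intro X
      constructor
      · rintro ⟨⟨h1, h3⟩, h4⟩
        exact ⟨h1, Prod.ext (eq_true h3) h4⟩
      · rintro ⟨h1, h2⟩
        obtain ⟨h3, h4⟩ := Prod.ext_iff.1 h2
        exact ⟨⟨h1, of_eq_true h3⟩, h4⟩
  · intro t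
    exact Fib_854.tail φ hWalls.loc hWalls.len hn hnz hfew t
  · -- scheme 1
    intro X1 hX1 hXb v
    obtain ⟨P, Q, h1, h2, -, h4⟩ := Joint_47.complete1 φ act p0 (fun X => nu2 X 1) nu1 hLW
      (N1 := N1) (N0 := 2 * N1 + M) (BadT := BadT)
      (fun P Q v r h1 h2 => hsound P Q v r h1 h2) (fun P v h => (hlam P v h).2.le) hC1
      (by omega) (by omega) hX1 (fun h => hXb ⟨hX1, h⟩) v
    refine ⟨P, Q, h1.symm, h2, fun x P' hP' => ?_⟩
    obtain ⟨h5, h6⟩ := h4 x P' hP'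
    refine ⟨h5, ?_⟩
    rw [hTT, hTT] at h6
    exact h6
  · -- scheme 2
    intro X1 hX1 Y1 hY1 v
    obtain ⟨P, Q, h1, h2, -, h4⟩ := Joint_47.complete2 φ act p0 nu1 hLW
      (N1 := N1) (z := z) (K := K) (R1 := r + m) (BadT := BadT) (c := fun j => X * 2 ^ j)
      hS2 (fun u y v hu => hC2 u y v hu) hinc hcp hres hT (by omega) (by omega) hX1.1 hY1.1
      hX1.2 v
    refine ⟨P, Q, h1.symm, h2, fun x P' hP' => ?_⟩
    rcases h4 x P' hP' with ⟨a, a1, a2, a3, a4⟩ | ⟨a, a1, a2, a3⟩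
    · left
      refine ⟨a, ⟨a1, a2⟩, Y1, hY1.1, a3.symm, ?_⟩
      rw [hTT, hTT] at a4
      rw [a4]
    · right
      exact ⟨a, a1, fun h => a2 h.2, a3⟩

end Crest.Agent.R320.Fin_620
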