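import Crest.Prelude.Def_GRegExp

/-! Height calculus: `H n L` = `L` has a generalized regular expression of star height at most `n`. -/

set_option autoImplicit false

namespace Crest.Agent.R320.Hgt1_903

open Crest.RegLang

variable {α : Type*}

/-- `L` has a generalized regular expression of star height `≤ n`. -/
def H (n : ℕ) (L : Language α) : Prop := ∃ e : GRegExp α, e.height ≤ n ∧ e.lang = L

theorem H.mono {m n : ℕ} (h : m ≤ n) {L : Language α} (hL : H m L) : H n L := by
  obtain ⟨e, he, rfl⟩ := hL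
  exact ⟨e, he.trans h, rfl⟩

theorem H.empty (n : ℕ) : H n (0 : Language α) := ⟨.zero, Nat.zero_le _, rfl⟩

theorem H.eps (n : ℕ) : H n (1 : Language α) := ⟨.eps, Nat.zero_le _, rfl⟩

theorem H.char (n : ℕ) (a : α) : H n ({[a]} : Language α) := ⟨.char a, Nat.zero_le _, rfl⟩

theorem H.add {n : ℕ} {L M : Language α} (hL : H n L) (hM : H n M) : H n (L + M) := by
  obtain ⟨e, he, rfl⟩ := hL
  obtain ⟨f, hf, rfl⟩ := hM
  exact ⟨.union e f, max_le he hf, rfl⟩

theorem H.mul {n : ℕ} {L M : Language α} (hL : H n L) (hM : H n M) : H n (L * M) := by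
  obtain ⟨e, he, rfl⟩ := hL
  obtain ⟨f, hf, rfl⟩ := hM
  exact ⟨.cat e f, max_le he hf, rfl⟩

theorem H.compl {n : ℕ} {L : Language α} (hL : H n L) : H n (Lᶜ : Language α) := by
  obtain ⟨e, he, rfl⟩ := hL
  exact ⟨.not e, he, rfl⟩

theorem H.star {n : ℕ} {L : Language α} (hL : H n L) : H (n + 1) (KStar.kstar L) := by
  obtain ⟨e, he, rfl⟩ := hL
  exact ⟨.star e, Nat.succ_le_succ he, rfl⟩

theorem H.congr {n : ℕ} {L M : Language α} (hL : H n L) (h : ∀ w, w ∈ L ↔ w ∈ M) : H n M := by
  have : L = M := Set.ext h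
  exact this ▸ hL

theorem H.univ (n : ℕ) : H n (⊤ : Language α) := by
  refine H.congr (H.compl (H.empty n)) fun w => ?_
  constructor
  · intro _; exact trivial
  · intro _ h; exact h

theorem H.union {n : ℕ} {L M : Language α} (hL : H n L) (hM : H n M) :
    H n ({w | w ∈ L ∨ w ∈ M} : Language α) :=
  H.congr (hL.add hM) fun _ => Iff.rfl

theorem H.inter {n : ℕ} {L M : Language α} (hL : H n L) (hM : H n M) :
    H n ({w | w ∈ L ∧ w ∈ M} : Language α) := by
  refine H.congr (H.compl (H.add (H.compl hL) (H.compl hM))) fun w => ?_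
  change ¬ (¬ w ∈ L ∨ ¬ w ∈ M) ↔ (w ∈ L ∧ w ∈ M)
  tauto

theorem H.not {n : ℕ} {L : Language α} (hL : H n L) : H n ({w | ¬ w ∈ L} : Language α) :=
  H.congr hL.compl fun _ => Iff.rfl

theorem H.imp {n : ℕ} {L M : Language α} (hL : H n L) (hM : H n M) :
    H n ({w | w ∈ L → w ∈ M} : Language α) := by
  refine H.congr (H.union hL.not hM) fun w => ?_
  change (¬ w ∈ L ∨ w ∈ M) ↔ (w ∈ L → w ∈ M)
  tauto

theorem H.iff {n : ℕ} {L M : Language α} (hL : H n L) (hM : H n M) :
    H n ({w | w ∈ L ↔ w ∈ M} : Language α) := by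
  refine H.congr (H.inter (H.imp hL hM) (H.imp hM hL)) fun w => ?_
  change ((w ∈ L → w ∈ M) ∧ (w ∈ M → w ∈ L)) ↔ (w ∈ L ↔ w ∈ M)
  tauto

/-- A constant proposition. -/
theorem H.const (n : ℕ) (p : Prop) : H n ({_w | p} : Language α) := by
  by_cases hp : p
  · exact H.congr (H.univ n) fun w => ⟨fun _ => hp, fun _ => trivial⟩
  · exact H.congr (H.empty n) fun w => ⟨fun h => h.elim, fun h => (hp h).elim⟩

theorem H.exists_finset {n : ℕ} {ι : Type*} (s : Finset ι) (f : ι → Language α)
    (h : ∀ i ∈ s, H n (f i)) : H n ({w | ∃ i ∈ s, w ∈ f i} : Language α) := by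
  classical
  induction s using Finset.induction_on with
  | empty =>
    refine H.congr (H.empty n) fun w => ?_
    constructor
    · intro h; exact h.elim
    · rintro ⟨i, hi, -⟩; simp at hi
  | insert a s ha ih =>
    refine H.congr (H.union (h a (Finset.mem_insert_self a s))
      (ih fun i hi => h i (Finset.mem_insert_of_mem hi))) fun w => ?_
    change (w ∈ f a ∨ ∃ i ∈ s, w ∈ f i) ↔ ∃ i ∈ insert a s, w ∈ f i
    simp

theorem H.exists_fintype {n : ℕ} {ι : Type*} [Finite ι] (f : ι → Language α)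
    (h : ∀ i, H n (f i)) : H n ({w | ∃ i, w ∈ f i} : Language α) := by
  classical
  haveI := Fintype.ofFinite ι
  refine H.congr (H.exists_finset Finset.univ f fun i _ => h i) fun w => ?_
  change (∃ i ∈ Finset.univ, w ∈ f i) ↔ ∃ i, w ∈ f i
  simp

theorem H.forall_fintype {n : ℕ} {ι : Type*} [Finite ι] (f : ι → Language α)
    (h : ∀ i, H n (f i)) : H n ({w | ∀ i, w ∈ f i} : Language α) := by
  refine H.congr (H.not (H.exists_fintype (fun i => ({w | ¬ w ∈ f i} : Language α))
    fun i => (h i).not)) fun w => ?_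
  change (¬ ∃ i, ¬ w ∈ f i) ↔ ∀ i, w ∈ f i
  push_neg
  rfl

/-- One word. -/
theorem H.word (n : ℕ) (w : List α) : H n ({w} : Language α) := by
  induction w with
  | nil => exact H.congr (H.eps n) fun u => Iff.rfl
  | cons a w ih =>
    refine H.congr ((H.char n a).mul ih) fun u => ?_
    rw [Language.mem_mul]
    constructor
    · rintro ⟨x, hx, y, hy, rfl⟩
      rw [Set.mem_singleton_iff.1 hx, Set.mem_singleton_iff.1 hy]
      exact Set.mem_singleton_iff.2 rfl
    · intro h
      exact ⟨[a], rfl, w, rfl, (Set.mem_singleton_iff.1 h).symm⟩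

/-- A finite set of words. -/
theorem H.finite (n : ℕ) {L : Language α} (hL : Set.Finite (L : Set (List α))) : H n L := by
  classical
  refine H.congr (H.exists_finset hL.toFinset (fun w => ({w} : Language α))
    fun w _ => H.word n w) fun w => ?_
  change (∃ i ∈ hL.toFinset, w ∈ ({i} : Set (List α))) ↔ w ∈ L
  constructor
  · rintro ⟨i, hi, h⟩
    rw [Set.mem_singleton_iff.1 h]
    exact hL.mem_toFinset.1 hi
  · intro h
    exact ⟨w, hL.mem_toFinset.2 h, rfl⟩

/-- Words of length `≤ k` over a finite alphabet: any set of them. -/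
theorem H.bounded [Finite α] (n k : ℕ) {L : Language α} (hL : ∀ w ∈ L, w.length ≤ k) : H n L := by
  apply H.finite
  exact (List.finite_length_le α k).subset hL

/-- `{u ++ v | u ∈ L, v ∈ M}` in set-builder form. -/
theorem H.cat {n : ℕ} {L M : Language α} (hL : H n L) (hM : H n M) :
    H n ({w | ∃ u v, u ++ v = w ∧ u ∈ L ∧ v ∈ M} : Language α) := by
  refine H.congr (hL.mul hM) fun w => ?_
  rw [Language.mem_mul]
  constructor
  · rintro ⟨u, hu, v, hv, rfl⟩; exact ⟨u, v, rfl, hu, hv⟩
  · rintro ⟨u, v, rfl, hu, hv⟩; exact ⟨u, hu, v, hv, rfl⟩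

/-- every factorisation `w = u ++ v` satisfies `u ∈ L → v ∈ M`. -/
theorem H.catAll {n : ℕ} {L M : Language α} (hL : H n L) (hM : H n M) :
    H n ({w | ∀ u v, u ++ v = w → u ∈ L → v ∈ M} : Language α) := by
  refine H.congr (H.not (H.cat hL hM.not)) fun w => ?_
  change (¬ ∃ u v, u ++ v = w ∧ u ∈ L ∧ ¬ v ∈ M) ↔ ∀ u v, u ++ v = w → u ∈ L → v ∈ M
  push_neg
  rfl

/-- some factor in `M`, with left context in `L` and right context in `R`. -/
theorem H.factor {n : ℕ} {L M R : Language α} (hL : H n L) (hM : H n M) (hR : H n R) :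
    H n ({w | ∃ u v t, u ++ v ++ t = w ∧ u ∈ L ∧ v ∈ M ∧ t ∈ R} : Language α) := by
  refine H.congr (H.cat (H.cat hL hM) hR) fun w => ?_
  constructor
  · rintro ⟨_, t, rfl, ⟨u, v, rfl, hu, hv⟩, ht⟩; exact ⟨u, v, t, rfl, hu, hv, ht⟩
  · rintro ⟨u, v, t, rfl, hu, hv, ht⟩; exact ⟨u ++ v, t, rfl, ⟨u, v, rfl, hu, hv⟩, ht⟩

/-- no factor in `M`. -/
theorem H.noFactor {n : ℕ} {M : Language α} (hM : H n M) :
    H n ({w | ∀ u v t, u ++ v ++ t = w → ¬ v ∈ M} : Language α) := by
  refine H.congr (H.not (H.factor (H.univ n) hM (H.univ n))) fun w => ?_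
  constructor
  · intro h u v t e hv; exact h ⟨u, v, t, e, trivial, hv, trivial⟩
  · rintro h ⟨u, v, t, e, -, hv, -⟩; exact h u v t e hv

/-- the last at most `k` letters of the word (the whole word when it is shorter) in a given set. -/
theorem H.suffixWindow [Finite α] (n k : ℕ) (P : List α → Prop) :
    H n ({w | P (w.drop (w.length - k))} : Language α) := by
  refine H.congr (H.union
    (H.bounded (α := α) n k (L := {w | w.length ≤ k ∧ P w}) fun w hw => hw.1)
    (H.cat (H.univ n) (H.bounded (α := α) n k (L := {w | w.length = k ∧ P w})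
      fun w hw => hw.1.le))) fun w => ?_
  change ((w.length ≤ k ∧ P w) ∨ ∃ u v, u ++ v = w ∧ u ∈ (⊤ : Language α) ∧
    (v.length = k ∧ P v)) ↔ P (w.drop (w.length - k))
  constructor
  · rintro (⟨h, hp⟩ | ⟨u, v, rfl, -, hv, hp⟩)
    · rwa [Nat.sub_eq_zero_of_le h, List.drop_zero]
    · have : (u ++ v).length - k = u.length := by rw [List.length_append]; omega
      rw [this, List.drop_left]
      exact hp
  · intro hp
    by_cases h : w.length ≤ k
    · left
      refine ⟨h, ?_⟩
      rwa [Nat.sub_eq_zero_of_le h, List.drop_zero] at hp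
    · right
      refine ⟨w.take (w.length - k), w.drop (w.length - k), List.take_append_drop _ _, trivial, ?_, hp⟩
      rw [List.length_drop]; omega

/-- the first at most `k` letters of the word in a given set. -/
theorem H.prefixWindow [Finite α] (n k : ℕ) (P : List α → Prop) :
    H n ({w | P (w.take k)} : Language α) := by
  refine H.congr (H.union
    (H.bounded (α := α) n k (L := {w | w.length ≤ k ∧ P w}) fun w hw => hw.1)
    (H.cat (H.bounded (α := α) n k (L := {w | w.length = k ∧ P w})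
      fun w hw => hw.1.le) (H.univ n))) fun w => ?_
  change ((w.length ≤ k ∧ P w) ∨ ∃ u v, u ++ v = w ∧ (u.length = k ∧ P u) ∧
    v ∈ (⊤ : Language α)) ↔ P (w.take k)
  constructor
  · rintro (⟨h, hp⟩ | ⟨u, v, rfl, ⟨hu, hp⟩, -⟩)
    · rwa [List.take_of_length_le h]
    · rw [← hu, List.take_left]
      exact hp
  · intro hp
    by_cases h : w.length ≤ k
    · left
      refine ⟨h, ?_⟩
      rwa [List.take_of_length_le h] at hp
    · right
      refine ⟨w.take k, w.drop k, List.take_append_drop _ _, ⟨?_, hp⟩, trivial⟩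
      rw [List.length_take]; omega

end Crest.Agent.R320.Hgt1_903
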