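import Crest.Agent.R320.Asm_624
import Crest.Agent.R320.P4_167
import Crest.Agent.R320.Hgt1_903

/-! Row 320: heights (≤ 1) of the languages of `Asm_624` (natural chain, walls of `WallU_228`). -/

set_option autoImplicit false
set_option linter.unusedSectionVars false

namespace Crest.Agent.R320.RegF_624

open Crest.RegLang Crest.Agent.R320.Hgt1_903 Crest.Agent.R320.FewWalls_228 Crest.Agent.R320.WallU_228
open Crest.Agent.R320.Asm_624

variable {α S V : Type} [Finite α] [Monoid S] [Finite S] [AddCommGroup V] [Finite V]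

/-- `G` is a function of `take N1`, the product of the rest and the length modulo `N` -/
def Inv {β : Type} (f : α → S) (N1 N : ℕ) (G : List α → β) : Prop :=
  ∀ Q Q' : List α, Q.take N1 = Q'.take N1 → ((Q.drop N1).map f).prod = ((Q'.drop N1).map f).prod →
    Q.length % N = Q'.length % N → G Q = G Q'

/-- similarity of two words at scale `z` -/
def Sim (f : α → S) (z N : ℕ) (X Y : List α) : Prop :=
  z ≤ X.length ∧ z ≤ Y.length ∧ X.take z = Y.take z ∧
    ((X.drop z).map f).prod = ((Y.drop z).map f).prod ∧ X.length % N = Y.length % N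

theorem mod_sub {a b o N : ℕ} (ha : o ≤ a) (hb : o ≤ b) (h : a % N = b % N) :
    (a - o) % N = (b - o) % N := by
  have : (a - o) + o ≡ (b - o) + o [MOD N] := by
    rw [Nat.sub_add_cancel ha, Nat.sub_add_cancel hb]; exact h
  exact Nat.ModEq.add_right_cancel' o this

theorem Sim.take {f : α → S} {z N : ℕ} {X Y : List α} (h : Sim f z N X Y) {t : ℕ} (ht : t ≤ z) :
    X.take t = Y.take t := by
  obtain ⟨-, -, e, -, -⟩ := h
  have : (X.take z).take t = (Y.take z).take t := by rw [e]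
  rwa [List.take_take, List.take_take, min_eq_left ht] at this

theorem Sim.dropt {f : α → S} {z N : ℕ} {X Y : List α} (h : Sim f z N X Y) {o t : ℕ}
    (ht : o + t ≤ z) : (X.drop o).take t = (Y.drop o).take t := by
  rw [List.take_drop, List.take_drop, h.take ht]

theorem Sim.prod {f : α → S} {z N : ℕ} {X Y : List α} (h : Sim f z N X Y) {o : ℕ}
    (ht : o ≤ z) : ((X.drop o).map f).prod = ((Y.drop o).map f).prod := by
  obtain ⟨h1, h2, e, e2, -⟩ := h
  have key : ∀ X : List α, z ≤ X.length → X.drop o = (X.take z).drop o ++ X.drop z := by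
    intro X hX
    conv_lhs => rw [← List.take_append_drop z X]
    rw [List.drop_append_of_le_length (by rw [List.length_take]; omega)]
  rw [key X h1, key Y h2, List.map_append, List.map_append, List.prod_append, List.prod_append,
    e, e2]

theorem Sim.inv {β : Type} {f : α → S} {z N N1 : ℕ} {X Y : List α} (h : Sim f z N X Y)
    {G : List α → β} (hG : Inv f N1 N G) {o : ℕ} (ho : o + N1 ≤ z) :
    G (X.drop o) = G (Y.drop o) := by
  have h1 := h.1
  have h2 := h.2.1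
  refine hG _ _ (h.dropt ho) ?_ ?_
  · rw [List.drop_drop, List.drop_drop]
    exact h.prod ho
  · rw [List.length_drop, List.length_drop]
    exact mod_sub (by omega) (by omega) h.2.2.2.2

section fam

variable {n : ℕ} {Sw : Set (List α)}
  (hfew : ∀ (L : Language α), L.IsRegular → ∀ r, Hk_851.HL 1 ({w | w ∈ L ∧ nw n Sw w ≤ r} : Language α))

include hfew

theorem HX (z N : ℕ) (hN : 0 < N) (f : α → S) (Pr : List α → Prop)
    (hinv : ∀ X Y : List α, Sim f z N X Y → (Pr X ↔ Pr Y)) :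
    H 1 ({X | X ∈ P4_167.XX n Sw z ∧ Pr X} : Language α) := by
  refine H.congr (show H 1 _ from P4_167.HL1_XX' hfew z N hN f (fun U s r => ∃ Y : List α,
    z ≤ Y.length ∧ Y.take z = U ∧ ((Y.drop z).map f).prod = s ∧ Y.length % N = r ∧ Pr Y))
    fun X => ?_
  constructor
  · rintro ⟨h1, Y, hY, e1, e2, e3, hp⟩
    exact ⟨h1, (hinv X Y ⟨h1.1, hY, e1.symm, e2.symm, e3.symm⟩).2 hp⟩
  · rintro ⟨h1, hp⟩
    exact ⟨h1, X, h1.1, rfl, rfl, rfl, hp⟩

variable {D : D α V S} {W r1 : ℕ} (hD : D.Ok W r1) {f : α → S}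
  (hφ : D.φ = fun w => (w.map f).prod) (hWo : D.Wo = Wo n Sw) (hn : D.n = n)
  {N : ℕ} (hN : 0 < N) (hrho : Inv f D.N1 N D.rho1) (hnu : Inv f D.N1 N D.nu1)
  (hBd : ∀ a b : ℕ, a % N = b % N → (D.Bd (a : ℤ) ↔ D.Bd (b : ℤ)))
  (hz : 4 * (D.p0 + D.N1) ≤ D.z)

include hφ hWo hN

theorem hXX (X : List α) : X ∈ D.XX ↔ X ∈ P4_167.XX n Sw D.z := by
  constructor
  · rintro ⟨h1, h2, h3⟩
    rw [hWo] at h1 h3
    exact ⟨h2, h1, fun t ht ht2 => h3 t ht2 ht⟩
  · rintro ⟨h1, h2, h3⟩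
    refine ⟨by rw [hWo]; exact h2, h1, fun t ht ht2 => by rw [hWo]; exact h3 t ht2 ht⟩

include hnu hz in
theorem hXT (v v' : V) : H 1 ({X | X ∈ D.XX ∧ D.T v X = v'} : Language α) := by
  refine H.congr (HX hfew D.z N hN f (fun X => D.T v X = v') ?_) fun X => ?_
  · intro X Y h
    unfold Asm_624.D.T
    rw [h.take (t := D.p0) (by omega), h.inv hnu (o := D.p0) (by omega), hφ]
    simp only
    rw [h.prod (o := D.p0) (by omega)]
  · show (X ∈ P4_167.XX n Sw D.z ∧ _) ↔ (X ∈ D.XX ∧ _)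
    rw [hXX hfew hφ hWo hN]

theorem hNP (s : S) : H 1 ({r | (∀ X ∈ D.XX, ¬ X <+: r) ∧ D.φ r = s} : Language α) := by
  refine H.congr (show H 1 _ from P4_167.HL1_rest hfew D.z f (fun x => x = s)) fun w => ?_
  show ((∀ X ∈ P4_167.XX n Sw D.z, ¬ X <+: w) ∧ (w.map f).prod = s) ↔
    ((∀ X ∈ D.XX, ¬ X <+: w) ∧ D.φ w = s)
  rw [hφ]
  simp only [hXX hfew hφ hWo hN]

include hrho hz hD in
theorem hQ1 (b : V) : H 1 ({Q | D.R1 Q = some b} : Language α) := by
  have hzb := hD.z_big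
  have h1 := HX hfew (D.z - D.p0 - D.N1) N hN f (fun X => D.rho1 X = some b) (by
    intro X Y h
    have := h.inv hrho (o := 0) (by omega)
    rw [List.drop_zero, List.drop_zero] at this
    rw [this])
  have h2 : H 1 ({w : List α | D.z - D.p0 ≤ w.length} : Language α) :=
    show H 1 _ from Hk_851.HL.length_ge (k := 1) (D.z - D.p0)
  refine H.congr (H.inter h1 h2) fun Q => ?_
  show ((Q ∈ P4_167.XX n Sw (D.z - D.p0 - D.N1) ∧ D.rho1 Q = some b) ∧ D.z - D.p0 ≤ Q.length) ↔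
    D.R1 Q = some b
  have key : D.Leg1 Q ↔ (Q ∈ P4_167.XX n Sw (D.z - D.p0 - D.N1) ∧ D.z - D.p0 ≤ Q.length) := by
    unfold Asm_624.D.Leg1
    rw [hWo]
    constructor
    · rintro ⟨g1, g2, g3⟩
      refine ⟨⟨by omega, g1, fun t ht ht2 hw => ?_⟩, by omega⟩
      have := g3 t ht2 hw
      omega
    · rintro ⟨⟨g1, g2, g3⟩, g4⟩
      refine ⟨g2, by omega, fun t ht hw => ?_⟩
      by_contra hcon
      exact g3 t (by omega) ht hw
  unfold Asm_624.D.R1
  by_cases hl : D.Leg1 Q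
  · rw [if_pos hl]
    have := key.1 hl
    tauto
  · rw [if_neg hl]
    constructor
    · rintro ⟨⟨g1, g2⟩, g3⟩
      exact absurd (key.2 ⟨g1, g3⟩) hl
    · intro h; exact absurd h (by simp)

omit hfew hφ hWo hN in
theorem RR2_unique {Q : List α} {b b' : V} (h : D.RR2 Q b) (h' : D.RR2 Q b') : b = b' := by
  obtain ⟨k, hk, hb, hu, t, hF, hX, r, hr, e⟩ := h
  obtain ⟨k', hk', hb', hu', t', hF', hX', r', hr', e'⟩ := h'
  have hkk : k' = k := hu k' hk' hb'
  subst hkk
  have htt : t = t' := D.Fs_unique hF hF'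
  subst htt
  rw [hr] at hr'
  injection hr' with hrr
  subst hrr
  rw [e, e']

omit hfew hφ hWo hN in
theorem R2_iff {Q : List α} {b : V} : D.R2 Q = some b ↔ D.RR2 Q b := by
  classical
  constructor
  · exact D.R2_spec
  · intro h
    have hex : ∃ b, D.RR2 Q b := ⟨b, h⟩
    unfold Asm_624.D.R2
    rw [dif_pos hex, Option.some.injEq]
    exact RR2_unique hex.choose_spec h

/-- the block of the candidate is bad -/
def cond (E : Asm_624.D α V S) (k : ℕ) (u : List α) : Prop :=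
  E.Bd ((E.c k : ℤ) + u.length - E.p0) ∨ E.c k + u.length < E.z + E.N1 ∨
    ∃ t' < u.length, E.Wo (u.take t') ∧ E.z ≤ E.c k + t' + E.N1

omit hfew hφ hN in
theorem fs_iff {k : ℕ} {Q : List α} {t : ℕ} (ht : t ≤ Q.length) (hz0 : D.c k ≤ D.z) :
    D.Fs k Q t ↔ Q.take t ∈ P4_167.XX n Sw (D.z - D.c k) := by
  have hlt : (Q.take t).length = t := by rw [List.length_take]; omega
  constructor
  · rintro ⟨f1, f2, f3, f4⟩
    rw [hWo] at f3 f4
    refine ⟨by omega, f3, fun t' ht' ht2 hw => ?_⟩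
    rw [hlt] at ht2
    rw [List.take_take, min_eq_left ht2.le] at hw
    exact f4 t' ht2 (by omega) hw
  · rintro ⟨f1, f2, f3⟩
    refine ⟨by omega, ht, by rw [hWo]; exact f2, fun t' ht' hz' hw => ?_⟩
    rw [hWo] at hw
    refine f3 t' (by omega) (by omega) ?_
    rw [List.take_take, min_eq_left ht'.le]
    exact hw

omit hfew hφ hN in
theorem badC_iff {k : ℕ} {Q : List α} (hz0 : D.c k ≤ D.z) :
    D.BadC k Q ↔ ∃ u v, u ++ v = Q ∧ (u ∈ P4_167.XX n Sw (D.z - D.c k) ∧ cond D k u) ∧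
      v ∈ (⊤ : Language α) := by
  constructor
  · rintro ⟨t, hF, hb⟩
    have ht := hF.2.1
    have hlt : (Q.take t).length = t := by rw [List.length_take]; omega
    refine ⟨Q.take t, Q.drop t, List.take_append_drop _ _, ⟨(fs_iff hWo ht hz0).1 hF, ?_⟩, trivial⟩
    unfold cond
    rw [hlt]
    rcases hb with hb | hb | ⟨t', h1, h2, h3⟩
    · exact Or.inl hb
    · exact Or.inr (Or.inl hb)
    · refine Or.inr (Or.inr ⟨t', h1, ?_, h3⟩)
      rw [List.take_take, min_eq_left h1.le]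
      exact h2
  · rintro ⟨u, v, rfl, ⟨hu, hc⟩, -⟩
    have hl : (u ++ v).take u.length = u := List.take_left
    refine ⟨u.length, (fs_iff hWo (by rw [List.length_append]; omega) hz0).2
      (by rw [hl]; exact hu), ?_⟩
    rcases hc with hb | hb | ⟨t', h1, h2, h3⟩
    · exact Or.inl hb
    · exact Or.inr (Or.inl hb)
    · refine Or.inr (Or.inr ⟨t', h1, ?_, h3⟩)
      rw [List.take_append_of_le_length h1.le]
      exact h2

omit hφ in
include hBd hz in
theorem hBadC {k : ℕ} (hk : D.c k ≤ D.p0) : H 1 ({Q | D.BadC k Q} : Language α) := by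
  have h1 := HX hfew (D.z - D.c k) N hN (fun _ : α => (1 : S))
    (fun X => D.Bd ((D.c k : ℤ) + X.length - D.p0)) (by
    intro X Y h
    have hX := h.1
    have hY := h.2.1
    have e : ∀ X : List α, D.z - D.c k ≤ X.length →
        ((D.c k : ℤ) + X.length - D.p0) = ((D.c k + X.length - D.p0 : ℕ) : ℤ) := by
      intro X hX
      rw [Nat.cast_sub (by omega)]
      push_cast
      ring
    rw [e X hX, e Y hY]
    apply hBd
    refine mod_sub (by omega) (by omega) ?_
    exact Nat.ModEq.add_left _ h.2.2.2.2)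
  have h2 : H 1 ({X | X.length ≤ D.z + D.N1 ∧ (X ∈ P4_167.XX n Sw (D.z - D.c k) ∧
      D.c k + X.length < D.z + D.N1)} : Language α) :=
    H.bounded 1 (D.z + D.N1) fun w hw => hw.1
  have h3 := HX hfew (D.z - D.c k) N hN (fun _ : α => (1 : S))
    (fun X => ∃ t' < D.z - D.c k, D.Wo (X.take t') ∧ D.z ≤ D.c k + t' + D.N1) (by
    intro X Y h
    constructor
    · rintro ⟨t', ht', hw, hh⟩
      exact ⟨t', ht', by rw [← h.take ht'.le]; exact hw, hh⟩
    · rintro ⟨t', ht', hw, hh⟩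
      exact ⟨t', ht', by rw [h.take ht'.le]; exact hw, hh⟩)
  have h4 : H 1 ({u | u ∈ P4_167.XX n Sw (D.z - D.c k) ∧ cond D k u} : Language α) := by
    refine H.congr (H.union h1 (H.union h2 h3)) fun X => ?_
    show ((X ∈ P4_167.XX n Sw (D.z - D.c k) ∧ D.Bd ((D.c k : ℤ) + X.length - D.p0)) ∨
      ((X.length ≤ D.z + D.N1 ∧ (X ∈ P4_167.XX n Sw (D.z - D.c k) ∧
        D.c k + X.length < D.z + D.N1)) ∨
      (X ∈ P4_167.XX n Sw (D.z - D.c k) ∧
        ∃ t' < D.z - D.c k, D.Wo (X.take t') ∧ D.z ≤ D.c k + t' + D.N1))) ↔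
      (X ∈ P4_167.XX n Sw (D.z - D.c k) ∧ cond D k X)
    constructor
    · rintro (⟨h, h'⟩ | ⟨-, h, h'⟩ | ⟨h, t', g1, g2, g3⟩)
      · exact ⟨h, Or.inl h'⟩
      · exact ⟨h, Or.inr (Or.inl h')⟩
      · have := h.1
        exact ⟨h, Or.inr (Or.inr ⟨t', by omega, g2, g3⟩)⟩
    · rintro ⟨h, h' | h' | ⟨t', g1, g2, g3⟩⟩
      · exact Or.inl ⟨h, h'⟩
      · exact Or.inr (Or.inl ⟨by omega, h, h'⟩)
      · refine Or.inr (Or.inr ⟨h, t', ?_, g2, g3⟩)
        by_contra hcon
        exact h.2.2 t' (by omega) g1 (by rw [← hWo]; exact g2)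
  refine H.congr (H.cat h4 (H.univ 1)) fun Q => ?_
  exact (badC_iff hWo (by omega)).symm

include hBd hz hD hnu in
theorem hQ2 (b : V) : H 1 ({Q | D.R2 Q = some b} : Language α) := by
  have hA : ∀ k < D.K, ∀ v' : V, H 1 ({u | u ∈ P4_167.XX n Sw (D.z - D.c k) ∧
      ∃ r, D.rho2 k (u.take (D.p0 - D.c k)) = some r ∧
        v' = D.act r (D.φ (u.drop (D.p0 - D.c k))) + D.nu1 (u.drop (D.p0 - D.c k))} :
      Language α) := by
    intro k hk v'
    have hck := hD.c_le k hk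
    refine HX hfew (D.z - D.c k) N hN f _ ?_
    intro X Y h
    rw [h.take (t := D.p0 - D.c k) (by omega), h.inv hnu (o := D.p0 - D.c k) (by omega), hφ]
    simp only
    rw [h.prod (o := D.p0 - D.c k) (by omega)]
  have hB := hXT hfew hφ hWo hN hnu hz
  have hmain : H 1 ({Q | ∃ k : Fin D.K, Q ∈ ({Q | D.BadC k Q ∧ ((∀ k' : Fin D.K,
      Q ∈ ({Q | Q ∈ ({Q | D.BadC k' Q} : Language α) → Q ∈ ({_w | k' = k} : Language α)} :
        Language α)) ∧
      ∃ v' : V, Q ∈ ({Q | ∃ u w, u ++ w = Q ∧ (u ∈ P4_167.XX n Sw (D.z - D.c k) ∧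
      ∃ r, D.rho2 k (u.take (D.p0 - D.c k)) = some r ∧
        v' = D.act r (D.φ (u.drop (D.p0 - D.c k))) + D.nu1 (u.drop (D.p0 - D.c k))) ∧
        (w ∈ D.XX ∧ D.T v' w = b)} : Language α))} : Language α)} : Language α) := by
    refine H.exists_fintype _ fun k => ?_
    refine H.inter (hBadC hfew hWo hN hBd hz (hD.c_le k k.2)) (H.inter
      (H.forall_fintype _ fun k' => H.imp (hBadC hfew hWo hN hBd hz (hD.c_le k' k'.2))
        (H.const 1 (k' = k))) ?_)
    refine H.exists_fintype _ fun v' => ?_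
    exact H.cat (hA k k.2 v') (hB v' b)
  refine H.congr hmain fun Q => ?_
  show (∃ k : Fin D.K, D.BadC k Q ∧ ((∀ k' : Fin D.K, D.BadC k' Q → k' = k) ∧
      ∃ v' : V, ∃ u w, u ++ w = Q ∧ (u ∈ P4_167.XX n Sw (D.z - D.c k) ∧
      ∃ r, D.rho2 k (u.take (D.p0 - D.c k)) = some r ∧
        v' = D.act r (D.φ (u.drop (D.p0 - D.c k))) + D.nu1 (u.drop (D.p0 - D.c k))) ∧
        (w ∈ D.XX ∧ D.T v' w = b))) ↔ D.R2 Q = some b
  rw [R2_iff]
  constructor
  · rintro ⟨k, hb, hu, v', u, w, rfl, ⟨hu1, r, hr, hv'⟩, hw1, hw2⟩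
    have hck := hD.c_le k k.2
    have hzl := hu1.1
    have hl : (u ++ w).take u.length = u := List.take_left
    refine ⟨k, k.2, hb, fun k' hk' hb' => congrArg Fin.val (hu ⟨k', hk'⟩ hb'), u.length,
      (fs_iff hWo (by rw [List.length_append]; omega) (by omega)).2 (by rw [hl]; exact hu1),
      by rw [List.drop_left]; exact hw1, r, ?_, ?_⟩
    · rw [List.take_append_of_le_length (by omega)]; exact hr
    · rw [hl, List.drop_left, ← hv', hw2]
  · rintro ⟨k, hk, hb, hu, t, hF, hX, r, hr, e⟩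
    have hck := hD.c_le k hk
    have ht := hF.2.1
    have hz1 := hF.1
    refine ⟨⟨k, hk⟩, hb, fun k' hb' => Fin.ext (hu k' k'.2 hb'), _, Q.take t, Q.drop t,
      List.take_append_drop _ _, ⟨(fs_iff hWo ht (show D.c k ≤ D.z by omega)).1 hF, r, ?_, rfl⟩, hX, e.symm⟩
    rw [List.take_take, min_eq_left (by show D.p0 - D.c k ≤ t; omega)]
    exact hr

end fam

end Crest.Agent.R320.RegF_624
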