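import Crest.Agent.R320.Asm_624
import Crest.Agent.R320.RegF_624
import Crest.Agent.R320.Top5_163
import Crest.Agent.R320.G1_852
import Crest.Agent.R320.Sp_597
import Crest.Agent.R320.ExactR_237
import Crest.Agent.R320.LetMap_922
import Crest.Agent.R320.BddReg_746

/-! Row 320: final assembly (helper624). -/

set_option autoImplicit false
set_option linter.unusedSectionVars false

namespace Crest.Agent.R320.Fin_624

open Crest.RegLang Crest.Agent.R320.Hgt1_903 Crest.Agent.R320.FewWalls_228 Crest.Agent.R320.WallU_228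
open Crest.Agent.R320.Asm_624 Crest.Agent.R320.RegF_624

theorem badZ_congr (Ms : Finset ℕ) (M b m : ℕ) (hMs : ∀ k ∈ Ms, k ∣ M) (hb : 0 < b) (x y : ℕ)
    (h : x % (M * b ^ m) = y % (M * b ^ m)) :
    Sp_597.BadZ Ms M b m (x : ℤ) ↔ Sp_597.BadZ Ms M b m (y : ℤ) := by
  have hdiv : ∀ d : ℕ, d ∣ M * b ^ m → x % d = y % d := by
    intro d hd
    have h1 : x ≡ y [MOD (M * b ^ m)] := h
    exact h1.of_dvd hd
  unfold Sp_597.BadZ
  refine or_congr ?_ ?_
  · refine exists_congr fun k => and_congr_right fun hk => ?_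
    have hk' := hdiv k (Dvd.dvd.mul_right (hMs k hk) _)
    rw [Int.natCast_dvd_natCast, Int.natCast_dvd_natCast, Nat.dvd_iff_mod_eq_zero,
      Nat.dvd_iff_mod_eq_zero, hk']
  · refine exists_congr fun j => and_congr_right fun hj => ?_
    have key : (x / b ^ j) % b = (y / b ^ j) % b := by
      have h1 := hdiv (b ^ (j + 1)) (Dvd.dvd.mul_left (pow_dvd_pow b hj) _)
      have h2 : ∀ x : ℕ, (x / b ^ j) % b = (x % b ^ (j + 1)) / b ^ j := by
        intro x
        rw [pow_succ]
        rw [Nat.mod_mul_right_div_self]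
      rw [h2, h2, h1]
    have e : ∀ x : ℕ, ((x : ℤ) / (b : ℤ) ^ j % b) = (((x / b ^ j) % b : ℕ) : ℤ) := by
      intro x
      push_cast
      rfl
    rw [e, e, key]

theorem core (α S : Type) [Finite α] [Monoid S] [Finite S] (f : α → S) (s : S) :
    H 3 ({w | (w.map f).prod = s} : Language α) := by
  classical
  haveI : Fintype S := Fintype.ofFinite S
  let V := S → ZMod 2
  haveI : Fintype V := inferInstance
  let act : V → S → V := fun v s x => v (s * x)
  obtain ⟨m, r, hG⟩ := G1_852.gadget act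
  obtain ⟨K, hK⟩ := ExactR_237.exact_gadget α S V f act (2 + 2 * (r + m))
  obtain ⟨Ms, M, hMr, hMs, hM, hG⟩ := hG (4 ^ K)
  obtain ⟨b, hb⟩ : ∃ b, b = M * (4 * 2 ^ K + 6) + 1 := ⟨_, rfl⟩
  have hbM : Nat.Coprime b M := by
    rw [hb]
    rw [Nat.coprime_mul_left_add_left]
    exact Nat.coprime_one_left M
  have hb0 : 0 < b := by omega
  have hb1 : 4 * M * 2 ^ K + 2 * M + 4 ≤ b := by
    rw [hb]
    have : M * (4 * 2 ^ K + 6) = 4 * M * 2 ^ K + 6 * M := by ring
    omega
  obtain ⟨lam1, rho1, nu1, g1, g2, g3, g4⟩ := hG b hb0 hbM α f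
  obtain ⟨c, hc, hcs, hcd, hct⟩ := Sp_597.spoil K m Ms M b hM
    (fun k hk => ⟨(hMs k hk).1, (hMs k hk).2.2⟩) hb1 hbM (b ^ m)
  obtain ⟨lam2, rho2, nu2, e1, e2⟩ := hK c (fun i j hij _ => hc hij)
  have hN1 : 0 < b ^ m := pow_pos hb0 m
  obtain ⟨n, cc, P, Sw, hn, hP, hW1, hW2, -, -, hfew⟩ :=
    WallU_228.walls_full (α := α) (2 * c K + 2 * b ^ m + 2)
  let D : Asm_624.D α V S :=
    { φ := fun w => (w.map f).prod
      act := act
      Wo := Wo n Sw
      n := n
      z := 4 * (c K + b ^ m) + n + 2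
      p0 := c K
      N1 := b ^ m
      K := K
      c := c
      lam1 := lam1
      rho1 := rho1
      nu1 := nu1
      lam2 := lam2
      rho2 := fun k Q => rho2 k Q 1
      nu2 := fun X => nu2 X 1
      Bd := Sp_597.BadZ Ms M b m }
  have hprm : ∀ u : List α, ExactR_237.pr f u = (u.map f).prod := fun u => rfl
  have hpr1 : ∀ u : List α, G1_852.pr f u = (u.map f).prod := fun u => rfl
  have hD : D.Ok (2 * c K + 2 * b ^ m + 2) (r + m) := by
    refine ⟨?_, ?_, ?_, ?_, ?_, ?_, ?_, ?_, ?_, ?_, ?_, ?_, ?_, ?_⟩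
    · intro u v
      show ((u ++ v).map f).prod = (u.map f).prod * (v.map f).prod
      rw [List.map_append, List.prod_append]
    · intro P Q hQ; exact hW1 P Q hQ
    · intro Q hQ; exact hQ.1
    · intro X s t hst ht hs htw
      by_contra hcon
      push Not at hcon
      have hlt : (X.take t).length = t := by rw [List.length_take]; omega
      refine hW2 (X.take t) (t - s) htw (by omega) (by omega) ?_
      rw [hlt, List.take_take]
      have : min (t - (t - s)) t = s := by omega
      rw [this]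
      exact hs
    · show 2 * c K + 2 * b ^ m + n + 2 ≤ 4 * (c K + b ^ m) + n + 2
      omega
    · intro k hk; exact (hc hk).le
    · show 2 * c K + 2 * b ^ m + 2 ≤ 2 * c K + 2 * b ^ m + 2
      exact le_rfl
    · intro P Q v b' h1 h2
      exact g2 P Q v b' h1 h2
    · intro P v h; exact (g1 P v h).le
    · intro Y hY hbad v
      have hbad' : ¬ Sp_597.BadZ Ms M b m (Y.length : ℤ) := hbad
      unfold Sp_597.BadZ at hbad'
      push Not at hbad'
      obtain ⟨q1, q2⟩ := hbad'
      have q1' : ∀ k ∈ Ms, ¬ k ∣ Y.length := by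
        intro k hk hd
        exact q1 k hk (Int.natCast_dvd_natCast.2 hd)
      have q2' : ∀ j < m, M ≤ Y.length / b ^ j % b ∧ Y.length / b ^ j % b + M < b := by
        intro j hj
        obtain ⟨w1, w2⟩ := q2 j hj
        have e : ((Y.length : ℤ) / (b : ℤ) ^ j % b) = (((Y.length / b ^ j) % b : ℕ) : ℤ) := by
          push_cast
          rfl
        rw [e] at w1 w2
        exact ⟨by exact_mod_cast w1, by have : (Y.length / b ^ j % b + M + 1 ≤ b) := by
                                           exact_mod_cast w2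
                                        omega⟩
      obtain ⟨P, Q, he, hl, v', hr⟩ := g3 Y q1' q2' v
      exact ⟨P, Q, he, hl, Option.isSome_iff_exists.2 ⟨v', hr⟩⟩
    · intro k hk P Q v b' hP hPQ h1 h2
      have := e1 k hk P Q 1 v b' hP h1 h2
      rw [mul_one] at this
      exact this
    · intro X v hX
      obtain ⟨I, hI, hI'⟩ := e2 X 1 v (fun k hk => by
        rw [show X.length = c K from hX]; exact (hc hk).le)
      exact ⟨I, hI, hI'⟩
    · intro τ
      refine ⟨(((Finset.range K) ×ˢ (Finset.range K)).filter (fun p =>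
        p.1 ≠ p.2 ∧ Sp_597.BadZ Ms M b m (τ + c p.2 - c p.1))).image Prod.fst,
        le_trans Finset.card_image_le (le_trans (hct τ) (by omega)), ?_⟩
      intro k hk k' hk' hne hbad
      rw [Finset.mem_image]
      refine ⟨(k, k'), ?_, rfl⟩
      rw [Finset.mem_filter]
      refine ⟨Finset.mem_product.2 ⟨Finset.mem_range.2 hk, Finset.mem_range.2 hk'⟩,
        fun h => hne h.symm, ?_⟩
      have e : (τ + (c k' : ℤ) - c k) = τ - ((c k : ℤ) - c k') := by ring
      show Sp_597.BadZ Ms M b m (τ + (c k' : ℤ) - c k)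
      rw [e]
      exact hbad
    · intro τ
      refine ⟨(Finset.range K).filter (fun k => ∃ k' < K, k' ≠ k ∧
        τ < (c k : ℤ) - c k' + (b ^ m : ℕ) ∧ (c k : ℤ) - c k' ≤ τ + (b ^ m : ℕ)), ?_, ?_⟩
      · rw [Finset.card_le_one]
        intro k1 h1 k2 h2
        rw [Finset.mem_filter] at h1 h2
        obtain ⟨-, k1', -, n1, a1, b1⟩ := h1
        obtain ⟨-, k2', -, n2, a2, b2⟩ := h2
        by_contra hne
        have := hcd k1' k1 k2' k2 n1 n2 (fun h => hne h.2)
        have h4 : |((c k1 : ℤ) - c k1') - ((c k2 : ℤ) - c k2')| ≤ ((4 * b ^ m : ℕ) : ℤ) := by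
          rw [abs_le]
          push_cast at a1 b1 a2 b2 ⊢
          constructor <;> nlinarith
        exact absurd this (not_lt.2 h4)
      · intro k hk k' hk' hne ha hb'
        rw [Finset.mem_filter]
        exact ⟨Finset.mem_range.2 hk, k', hk', hne, ha, hb'⟩
  have hNN : 0 < M * b ^ m := Nat.mul_pos hM hN1
  have hrho : Inv f D.N1 (M * b ^ m) D.rho1 := fun Q Q' h1 h2 h3 => (g4 Q Q' h1 h2 h3).1
  have hnu : Inv f D.N1 (M * b ^ m) D.nu1 := fun Q Q' h1 h2 h3 => (g4 Q Q' h1 h2 h3).2
  have hBd : ∀ x y : ℕ, x % (M * b ^ m) = y % (M * b ^ m) → (D.Bd (x : ℤ) ↔ D.Bd (y : ℤ)) :=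
    fun x y h => badZ_congr Ms M b m (fun k hk => (hMs k hk).2.2) hb0 x y h
  have hz : 4 * (D.p0 + D.N1) ≤ D.z := by
    show 4 * (c K + b ^ m) ≤ 4 * (c K + b ^ m) + n + 2
    omega
  have hz0 : 0 < D.z := by
    show 0 < 4 * (c K + b ^ m) + n + 2
    omega
  have act_mul : ∀ v s s', act (act v s) s' = act v (s * s') := by
    intro v s s'
    funext x
    show v (s * (s' * x)) = v (s * s' * x)
    rw [mul_assoc]
  have act_add : ∀ v w s, act (v + w) s = act v s + act w s := fun v w s => rfl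
  have faith : ∀ s s', (∀ v, act v s = act v s') → s = s' := by
    intro s s' h
    by_contra hne
    have hne' : s' ≠ s := fun h => hne h.symm
    have h1 : (if s * 1 = s then (1 : ZMod 2) else 0) = (if s' * 1 = s then (1 : ZMod 2) else 0) :=
      congrFun (h (fun x => if x = s then 1 else 0)) 1
    rw [mul_one, mul_one, if_pos rfl, if_neg hne'] at h1
    exact absurd h1 (by decide)
  have hφ1 : D.φ [] = 1 := by
    show (([] : List α).map f).prod = 1
    simp
  refine Top5_163.top (V := V) D.φ hφ1 hD.φ_app act act_mul act_add faith D.XX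
    (D.nil_notMem hD) (fun X hX Y hXY => D.prefix_code hX hXY) D.T
    (fun X => act (D.nu2 (X.take D.p0)) (D.φ (X.drop D.p0)) + D.nu1 (X.drop D.p0)) ?_
    D.LP1 D.LP2 D.R1 D.R2 ?_ ?_ (fun P v Q b h1 h2 => hD.s1 h1 h2)
    (fun P v Q b h1 h2 h3 => hD.s2 h1 h2 h3) (fun X hX X2 hX2 v => hD.cc hX hX2 v)
    (fun v v' => RegF_624.hXT hfew rfl rfl hNN hnu hz v v')
    (fun s => RegF_624.hNP hfew rfl rfl hNN s) ?_ ?_
    (fun b => RegF_624.hQ1 hfew hD rfl rfl hNN hrho hz b)
    (fun b => RegF_624.hQ2 hfew hD rfl rfl hNN hnu hBd hz b) s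
  · intro X hX v
    show act (act v (D.φ (X.take D.p0)) + D.nu2 (X.take D.p0)) (D.φ (X.drop D.p0))
      + D.nu1 (X.drop D.p0) = act v (D.φ X) + _
    rw [act_add, act_mul, ← hD.φ_app, List.take_append_drop, add_assoc]
  · intro Q b' h hQ
    subst hQ
    unfold Asm_624.D.R1 at h
    split_ifs at h with hl
    have := hl.2.1
    have h2 : D.z ≤ D.p0 + 0 := this
    omega
  · intro Q b' h hQ
    subst hQ
    obtain ⟨k, hk, -, -, t, -, hX, -⟩ := D.R2_spec h
    have := hX.2.1
    simp at this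
  · intro v
    exact H.bounded 1 (D.p0 + D.N1) fun w hw => hw.2.1
  · intro v
    refine H.bounded 1 D.p0 fun w hw => ?_
    obtain ⟨k, hk, hl, -⟩ := hw
    rw [hl]
    exact hD.c_le k hk

theorem fin_type {n : ℕ} (L : Language (Fin n)) (hL : L.IsRegular) :
    ∃ e : GRegExp (Fin n), e.height ≤ 3 ∧ e.lang = L := by
  classical
  obtain ⟨S, _, _, φ, F, hF⟩ := BddReg_746.exists_monoid hL
  have h1 : H 3 ({w | ∃ s : {s : S // s ∈ F}, w ∈ ({w | (w.map φ).prod = (s : S)} :
      Language (Fin n))} : Language (Fin n)) := H.exists_fintype _ fun s => core (Fin n) S φ s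
  have h2 : H 3 L := by
    refine H.congr h1 fun w => ?_
    rw [hF]
    constructor
    · rintro ⟨s, hs⟩
      have : (w.map φ).prod = (s : S) := hs
      rw [this]; exact s.2
    · intro h
      exact ⟨⟨_, h⟩, rfl⟩
  exact h2

theorem main (α : Type*) [Finite α] (L : Language α) (hL : L.IsRegular) :
    ∃ e : GRegExp α, e.height ≤ 3 ∧ e.lang = L :=
  LetMap_922.of_fin_result (m := 3) (fun n L hL => fin_type L hL) α L hL

end Crest.Agent.R320.Fin_624
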