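import Crest.Agent.R320.TopSem_442
import Crest.Agent.R320.Joint_47
import Crest.Agent.R320.Fib_298
import Crest.Agent.R320.LWallAll_922
import Crest.Agent.R320.RegCongr_253
import Crest.Agent.R320.Univ_294

/-!
# Row 320: final assembly from the grid gadget in closed form (helper627)
-/

set_option autoImplicit false

namespace Crest.Agent.R320.Fin_627

open Crest.RegLang Crest.Agent.R320.Hk_851 Crest.Agent.R320.Blk467 Crest.Agent.R320.TopSem_442
open Crest.Agent.R320.Joint_47 Crest.Agent.R320.ExactR_237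

/-- the total-length gadget in closed form -/
def GAD : Prop :=
  ∀ (S V : Type) [Monoid S] [Finite S] [AddCommGroup V] [Finite V] (act : V → S → V),
    ∃ R1 : ℕ, ∀ K : ℕ, ∃ (N1 N0 Mo : ℕ) (c : ℕ → ℕ) (BadT : ℕ → Prop), 0 < Mo ∧
      (∀ T, N0 ≤ T → (BadT (T + Mo) ↔ BadT T)) ∧
      (∀ i j, i < j → j < K → c i < c j) ∧
      (∀ i i' j j', i < K → i' < K → j < K → j' < K → i' ≠ i → j' ≠ j →
        c i + c j' < c j + c i' + 2 * N1 → c j + c i' < c i + c j' + 2 * N1 → i = j) ∧
      (∀ T : ℕ, (∀ k, k < K → c k ≤ T) → ∀ I : Finset ℕ,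
        (∀ k ∈ I, k < K ∧ ∃ k', k' < K ∧ k' ≠ k ∧ BadT (T + c k' - c k)) → I.card ≤ R1) ∧
      ∀ (A : Type) (f : A → S), ∃ (lam rho : List A → Option V) (nu : List A → V),
        (∀ P v, lam P = some v → P.length ≤ N1) ∧
        (∀ P Q v r, lam P = some v → rho Q = some r → r = act v (pr f (P ++ Q)) + nu (P ++ Q)) ∧
        (∀ Y : List A, N0 ≤ Y.length → ¬ BadT Y.length →
          ∀ v, ∃ P Q, Y = P ++ Q ∧ lam P = some v ∧ (rho Q).isSome) ∧
        (∀ q q' : List A, N0 ≤ q.length → N0 ≤ q'.length → q.take N0 = q'.take N0 →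
          q.length % Mo = q'.length % Mo →
          ((q.drop N0).map f).prod = ((q'.drop N0).map f).prod → nu q = nu q')

/-- regular right module -/
def act0 (S : Type) [Monoid S] (v : S → ZMod 2) (s : S) : S → ZMod 2 := fun x => v (s * x)

theorem act0_faith (S : Type) [Monoid S] (s t : S)
    (h : ∀ v : S → ZMod 2, act0 S v s = act0 S v t) : s = t := by
  classical
  have := congrFun (h (fun x => if x = s then 1 else 0)) 1
  unfold act0 at this
  simp only [mul_one, if_true] at this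
  by_contra hne
  rw [if_neg (fun e => hne e.symm)] at this
  exact one_ne_zero this

theorem hasBad_reg {A : Type} [Finite A] {Wo : List A → Prop} {z N1 p0 N0 Mo : ℕ}
    {BadT : ℕ → Prop} (hMo : 0 < Mo) (hper : ∀ T, N0 ≤ T → (BadT (T + Mo) ↔ BadT T)) :
    Language.IsRegular ({X | Bad Wo z N1 p0 BadT X} : Language A) := by
  have hperk : ∀ k T, N0 ≤ T → (BadT (T + k * Mo) ↔ BadT T) := by
    intro k
    induction k with
    | zero => intro T _; simp
    | succ k ih =>
      intro T hT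
      have e : T + (k + 1) * Mo = T + k * Mo + Mo := by ring
      rw [e, hper _ (by omega), ih T hT]
  have hcong : ∀ T T', N0 ≤ T → N0 ≤ T' → T % Mo = T' % Mo → (BadT T → BadT T') := by
    intro T T' h1 h2 h3 h4
    rcases le_total T T' with h | h
    · obtain ⟨k, hk⟩ : Mo ∣ T' - T := (Nat.modEq_iff_dvd' h).1 h3
      have : T' = T + k * Mo := by rw [mul_comm]; omega
      rw [this, hperk k T h1]; exact h4
    · obtain ⟨k, hk⟩ : Mo ∣ T - T' := (Nat.modEq_iff_dvd' h).1 h3.symm
      have : T = T' + k * Mo := by rw [mul_comm]; omega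
      rw [this, hperk k T' h2] at h4; exact h4
  refine Crest.Agent.R320.RegCongr_253.regular_of_congr (S := Unit) (fun _ => ())
    (z + N1 + p0 + N0) Mo hMo _ ?_
  intro q q' h1 h2 h3 h4 _ h5
  rcases h5 with ⟨t, a1, a2, a3, a4⟩ | h5
  · refine Or.inl ⟨t, a1, a2, by omega, ?_⟩
    have e : q.take t = q'.take t := by
      have := congrArg (List.take t) h3
      rw [List.take_take, List.take_take, min_eq_left (by omega)] at this
      exact this
    rw [← e]; exact a4
  · refine Or.inr (hcong _ _ (by omega) (by omega) ?_ h5)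
    have e1 : q.length = (q.length - p0) + p0 := by omega
    have e2 : q'.length = (q'.length - p0) + p0 := by omega
    rw [e1, e2] at h4
    exact Nat.ModEq.add_right_cancel' p0 h4

theorem main (hG : GAD) (A : Type) [Finite A] (S : Type) [Monoid S] [Finite S] (f : A → S)
    (s : S) : HL 3 ({w | (w.map f).prod = s} : Language A) := by
  classical
  haveI : Fintype S := Fintype.ofFinite S
  let V : Type := S → ZMod 2
  haveI : Finite V := inferInstanceAs (Finite (S → ZMod 2))
  haveI : Fintype V := Fintype.ofFinite V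
  let act : V → S → V := act0 S
  have hadd : ∀ a b s, act (a + b) s = act a s + act b s := fun a b s => rfl
  have hone : ∀ v, act v 1 = v := fun v => by
    show (fun x => v (1 * x)) = v
    funext x; rw [one_mul]
  have hmul : ∀ v s t, act v (s * t) = act (act v s) t := fun v s t => by
    show (fun x => v (s * t * x)) = fun x => v (s * (t * x))
    funext x; rw [mul_assoc]
  have hfaith : ∀ s t, (∀ v, act v s = act v t) → s = t := fun s t h => act0_faith S s t h
  obtain ⟨R1, hR1⟩ := hG S V act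
  obtain ⟨K, hK⟩ := exact_gadget A S V f act (2 * R1 + 2)
  obtain ⟨N1, N0, Mo, c, BadT, hMo, hper, hinc, hres, hT, hgad⟩ := hR1 K
  obtain ⟨lam, rho, nu1, hL, hS, hC, hfs⟩ := hgad A f
  obtain ⟨lam2, rho2, nu2', hS2, hC2⟩ := hK c hinc
  set p0 : ℕ := ∑ k ∈ Finset.range K, c k with hp0
  have hcp : ∀ k, k < K → c k ≤ p0 := fun k hk =>
    Finset.single_le_sum (f := c) (fun _ _ => Nat.zero_le _) (Finset.mem_range.2 hk)
  obtain ⟨n, G, B, Wo, hLW, hgap, -, -, hfree⟩ :=
    Crest.Agent.R320.LWallAll_922.walls_all_left A (2 * (N1 + p0) + 1) (by omega)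
  have hLW1 : Joint_47.LW n (2 * (N1 + p0) + 1) Wo := by
    refine ⟨?_, ?_, ?_⟩
    · exact hLW.len
    · exact hLW.app
    · intro X s t h1 h2 h3 h4
      have := hgap X s t h1 h2 h3 h4
      omega
  have hWU : Crest.Agent.R320.Fib_298.WallU Wo n (max B (2 * (N1 + p0) + 1)) := by
    refine ⟨hLW.app, hLW.len, ?_⟩
    intro X hX
    obtain ⟨u, x, v, j, h1, h2, h3, h4⟩ := hfree X hX
    exact ⟨u, x, v, j, h4, h1.trans (le_max_left _ _), h2.trans (le_max_right _ _),
      h3.trans (le_max_left _ _)⟩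
  set z : ℕ := 3 * p0 + n + N1 + N0 + 1 with hz
  set nu2 : List A → V := fun X => nu2' X 1 with hnu2
  have hnureg : ∀ y, Language.IsRegular ({Y | nu1 Y = y} : Language A) := by
    intro y
    refine Crest.Agent.R320.RegCongr_253.regular_of_congr f N0 Mo hMo _ ?_
    intro q q' h1 h2 h3 h4 h5 h6
    show nu1 q' = y
    rw [← hfs q q' h1 h2 h3 h4 h5]; exact h6
  have hX : ∀ v v' : V, HL 1 ({X | X ∈ Zn Wo z ∧ T f act p0 nu2 nu1 v X = v'} : Language A) :=
    fun v v' => Crest.Agent.R320.Fib_298.hfib hWU (by omega) act f p0 (by omega)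
      (fun v X0 => act v (X0.map f).prod + nu2 X0) nu1 hnureg v v'
  have hB : ∀ v v' : V, HL 1 ({X | X ∈ ({X | X ∈ Zn Wo z ∧ Bad Wo z N1 p0 BadT X} : Set (List A)) ∧
      T f act p0 nu2 nu1 v X = v'} : Language A) := by
    intro v v'
    refine Crest.Agent.R320.Fib_298.HL_blocks hWU (z := z) (by omega) ?_ (fun w hw => hw.1.1)
    have h1 := (Crest.Agent.R320.Reg_236.HL.isRegular (hX v v')).inf (hasBad_reg (A := A) (Wo := Wo) (z := z) (N1 := N1)
      (p0 := p0) hMo hper)
    have e : ({X | X ∈ ({X | X ∈ Zn Wo z ∧ Bad Wo z N1 p0 BadT X} : Set (List A)) ∧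
      T f act p0 nu2 nu1 v X = v'} : Language A) =
      (({X | X ∈ Zn Wo z ∧ T f act p0 nu2 nu1 v X = v'} : Language A) ⊓
        ({X | Bad Wo z N1 p0 BadT X} : Language A) : Language A) := by
      ext w
      constructor
      · rintro ⟨⟨a, b⟩, c⟩; exact ⟨⟨a, c⟩, b⟩
      · rintro ⟨⟨a, c⟩, b⟩; exact ⟨⟨a, b⟩, c⟩
    rw [e]
    exact h1
  refine top_sem (S := S) (V := V) f act hadd hone hmul hfaith
    (fun X => act (nu2 (X.take p0)) ((X.drop p0).map f).prod + nu1 (X.drop p0))
    (T f act p0 nu2 nu1) ?_ (Zn Wo z) {X | X ∈ Zn Wo z ∧ Bad Wo z N1 p0 BadT X} ?_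
    (fun X h => h.1) (fun v => {P | L1 f act p0 nu2 lam v P}) (fun v => {P | L2 K c lam2 v P})
    ?_ ?_ hX hB ?_ ?_ ?_ s
  · intro v X
    show act (act v (pr f (X.take p0)) + nu2 (X.take p0)) (pr f (X.drop p0)) + nu1 (X.drop p0) = _
    have e : (X.map f).prod = ((X.take p0).map f).prod * ((X.drop p0).map f).prod := by
      rw [← List.prod_append, ← List.map_append, List.take_append_drop]
    rw [e, hmul, hadd, add_assoc]
    rfl
  · exact Crest.Agent.R320.Fib_298.pcode_XX (by omega)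
  · intro v
    refine (List.finite_length_le A (p0 + N1)).subset ?_
    rintro P ⟨h1, h2⟩
    have := hL _ _ h2
    rw [List.length_drop] at this
    show P.length ≤ p0 + N1
    omega
  · intro v
    refine (List.finite_length_le A p0).subset ?_
    rintro P ⟨k, hk, h1, h2⟩
    show P.length ≤ p0
    rw [h1]; exact hcp k hk
  · intro t
    exact (Crest.Agent.R320.Fib_298.rest hWU (by omega) f t).mono (by omega)
  · intro X hX1 hXb v
    obtain ⟨p, q, e, hp, -, h⟩ := complete1 f act p0 nu2 nu1 hLW1 hS hL hC (N0 := N0) (z := z)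
      (by omega) (by omega) hX1 (fun hb => hXb ⟨hX1, hb⟩) v
    exact ⟨p, q, e.symm, hp, fun v' P' hP' => h v' P' hP'⟩
  · intro X hX1 X' hX' v
    obtain ⟨p, q, e, hp, -, h⟩ := complete2 f act p0 nu1 (N0 := N0) hLW1 hS2 hC2 hinc hcp hres (fun T _ h => hT T h)
      (by omega) (z := z) (by omega) hX1.1 hX'.1 hX1.2 v
    refine ⟨p, q, e.symm, hp, fun v' P' hP' => ?_⟩
    rcases h v' P' hP' with ⟨a, ha, hab, hae, haT⟩ | ⟨a, ha, hab, hpre⟩
    · exact Or.inl ⟨a, ⟨ha, hab⟩, X', hX', hae, by rw [haT]⟩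
    · exact Or.inr (Or.inl ⟨a, ha, fun hb => hab hb.2, hpre⟩)

/-- the statement of row 320 from the closed gadget -/
theorem row (hG : GAD) (α : Type*) [Finite α] (L : Language α) (hL : L.IsRegular) :
    ∃ e : Crest.RegLang.GRegExp α, e.height ≤ 3 ∧ e.lang = L :=
  Crest.Agent.R320.Univ_294.s0495_of_types (fun β _ S _ _ φ s => main hG β S φ s) α L hL

end Crest.Agent.R320.Fin_627
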