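import Crest.Agent.R320.SemTop_727
import Crest.Agent.R320.SemJ_832
import Crest.Agent.R320.GridG_19
import Crest.Agent.R320.GridRuler_257
import Crest.Agent.R320.ExactR_237
import Crest.Agent.R320.LWallAll_922
import Crest.Agent.R320.Fib_298
import Crest.Agent.R320.P4N_211
import Crest.Agent.R320.Univ_234

/-!
Row 320, helper629: final assembly.  `SemTop_727.top` (semantic top) + `SemJ_832` (concrete side) +
`GridG_19.grid` (gadget) + `GridRuler_257.ruler` + `ExactR_237.exact_gadget` +
`LWallAll_922.walls_all_left` + `Fib_298` (height one fibres).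
-/

set_option autoImplicit false

namespace Crest.Agent.R320.Fin_629

open Finset Crest.RegLang Crest.Agent.R320.Hk_851 Crest.Agent.R320.Blk467

/-- finite-state functions have regular fibres -/
theorem reg_nu {α S V : Type} [Finite α] [Monoid S] [Finite S] (φ : List α → S)
    (hφ : ∀ u v, φ (u ++ v) = φ u * φ v) (nu : List α → V) (K M : ℕ) (hM : 0 < M)
    (key : ∀ Y Y' : List α, K ≤ Y.length → K ≤ Y'.length → Y.take K = Y'.take K →
      Y.length ≡ Y'.length [MOD M] → φ Y = φ Y' → nu Y = nu Y') (y : V) :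
    Language.IsRegular ({Y | nu Y = y} : Language α) := by
  have hle : ∀ w : List α, (w.take K).length ≤ K := fun w => by
    rw [List.length_take]; exact min_le_left _ _
  let σ : List α → P4N_211.Le α K × Fin M × S := fun w =>
    (⟨w.take K, hle w⟩, ⟨w.length % M, Nat.mod_lt _ hM⟩, φ w)
  have hσe : ∀ w w', σ w = σ w' ↔ w.take K = w'.take K ∧ w.length % M = w'.length % M ∧ φ w = φ w' := by
    intro w w'
    constructor
    · intro h
      have h1 := congrArg Prod.fst h
      have h2 := congrArg (fun p => p.2.1) h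
      have h3 := congrArg (fun p => p.2.2) h
      exact ⟨congrArg Subtype.val h1, congrArg Fin.val h2, h3⟩
    · rintro ⟨h1, h2, h3⟩
      exact Prod.ext (Subtype.ext h1) (Prod.ext (Fin.ext h2) h3)
  refine P4N_211.reg_of_cong σ ?_ _ ?_
  · intro w w' a h
    rw [hσe] at h ⊢
    obtain ⟨h1, h2, h3⟩ := h
    refine ⟨?_, ?_, ?_⟩
    · rw [P4N_211.take_app, P4N_211.take_app K w', h1]
    · rw [List.length_append, List.length_append, Nat.add_mod, h2, ← Nat.add_mod]
    · rw [hφ, hφ, h3]
  · intro w w' h hw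
    rw [hσe] at h
    obtain ⟨h1, h2, h3⟩ := h
    have hl := congrArg List.length h1
    rw [List.length_take, List.length_take] at hl
    have hw' : nu w = y := hw
    show nu w' = y
    by_cases hK : K ≤ w.length
    · rw [← hw']
      exact (key w w' hK (by omega) h1 h2 h3).symm
    · have e1 : w.take K = w := List.take_of_length_le (by omega)
      have e2 : w'.take K = w' := List.take_of_length_le (by omega)
      rw [e1, e2] at h1
      rw [← h1]
      exact hw'

/-- `BadG` (natural numbers, large totals) implies `BadZ` (integers). -/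
theorem badG_badZ {G : ℕ → ℕ} {Ms : Finset ℕ} {M A0 m T : ℕ} (hG : ∀ k, 0 < G k)
    (hT : GridG_19.Am G M A0 m ≤ T) (h : GridG_19.BadG G M A0 m T) :
    GridRuler_257.BadZ Ms m M G (GridG_19.Am G M A0) (T : ℤ) := by
  obtain ⟨k, hk, h⟩ := h
  right
  refine ⟨k + 1, by omega, by omega, ?_⟩
  have hA : GridG_19.Am G M A0 (k + 1) ≤ T := (GridG_19.Am_mono G M A0 (by omega)).trans hT
  set t := T - GridG_19.Am G M A0 (k + 1) with ht
  have hTt : T = GridG_19.Am G M A0 (k + 1) + t := by omega
  have hdm := Nat.div_add_mod t (G (k + 1))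
  have hlt := Nat.mod_lt t (hG (k + 1))
  have e0 : ((T : ℤ) - (GridG_19.Am G M A0 (k + 1) : ℕ)) = (t : ℤ) := by
    rw [hTt]; push_cast; ring
  rcases h with h | h
  · refine ⟨((t % G (k + 1) : ℕ) : ℤ), ?_, ?_⟩
    · rw [abs_of_nonneg (Int.natCast_nonneg _)]
      have : k + 1 - 1 = k := by omega
      rw [this]
      exact_mod_cast h.le
    · rw [e0]
      refine ⟨((t / G (k + 1) : ℕ) : ℤ), ?_⟩
      have : (t : ℤ) = (G (k + 1) : ℤ) * ((t / G (k + 1) : ℕ) : ℤ) + ((t % G (k + 1) : ℕ) : ℤ) := by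
        exact_mod_cast hdm.symm
      linarith
  · refine ⟨((t % G (k + 1) : ℕ) : ℤ) - (G (k + 1) : ℕ), ?_, ?_⟩
    · have : k + 1 - 1 = k := by omega
      rw [this, abs_of_nonpos (by push_cast at *; omega)]
      have h' : (G (k + 1) : ℤ) ≤ ((t % G (k + 1) : ℕ) : ℤ) + ((M * G k : ℕ) : ℤ) := by
        exact_mod_cast h
      linarith
    · rw [e0]
      refine ⟨((t / G (k + 1) : ℕ) : ℤ) + 1, ?_⟩
      have : (t : ℤ) = (G (k + 1) : ℤ) * ((t / G (k + 1) : ℕ) : ℤ) + ((t % G (k + 1) : ℕ) : ℤ) := by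
        exact_mod_cast hdm.symm
      linarith

theorem main (A S V : Type) [Finite A] [Monoid S] [Finite S] [AddCommGroup V] [Finite V]
    (f : A → S) (act : V → S → V) (hadd : ∀ a b s, act (a + b) s = act a s + act b s)
    (hone : ∀ v, act v 1 = v) (hmul : ∀ v s t, act v (s * t) = act (act v s) t)
    (hfaith : ∀ s t, (∀ v, act v s = act v t) → s = t) (s : S) :
    HL 3 ({w | (w.map f).prod = s} : Language A) := by
  classical
  haveI := Fintype.ofFinite S
  haveI := Fintype.ofFinite V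
  let φ : List A → S := fun w => (w.map f).prod
  have hφ : ∀ u v, φ (u ++ v) = φ u * φ v := fun u v => by
    show ((u ++ v).map f).prod = _
    rw [List.map_append, List.prod_append]
  obtain ⟨m, r, hgrid⟩ := GridG_19.grid.{0} S V act
  set C0 := r + m with hC0
  obtain ⟨K, hK⟩ := ExactR_237.exact_gadget A S V f act (2 * C0 + 2)
  obtain ⟨Ms, hMc, hMs, hgad⟩ := hgrid (4 ^ K + 2)
  set M := ∏ q ∈ Ms, q with hMdef
  have hM : 0 < M := Finset.prod_pos fun q hq => (hMs q hq).1.pos
  set e := 4 + 2 * K + M with he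
  let G : ℕ → ℕ := fun k => 2 ^ (e * k)
  have hGp : ∀ k, 0 < G k := fun k => by positivity
  have hGd : ∀ a b, a ≤ b → G a ∣ G b := fun a b h => pow_dvd_pow 2 (Nat.mul_le_mul_left e h)
  have hcop2 : Nat.Coprime M 2 := by
    rw [hMdef]
    refine Nat.Coprime.prod_left fun q hq => ?_
    refine (Nat.coprime_primes (hMs q hq).1 Nat.prime_two).2 ?_
    have := (hMs q hq).2
    have h4 : 0 < 4 ^ K := by positivity
    omega
  have hcop : ∀ k, Nat.Coprime M (G k) := fun k => Nat.Coprime.pow_right _ hcop2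
  have hGb : ∀ j, 16 * 4 ^ K * (M * G j) ≤ G (j + 1) := by
    intro j
    have h1 : G (j + 1) = 2 ^ e * G j := by
      show 2 ^ (e * (j + 1)) = 2 ^ e * 2 ^ (e * j)
      rw [← pow_add]; congr 1; ring
    rw [h1]
    have h2 : 16 * 4 ^ K * M ≤ 2 ^ e := by
      have h3 : (2 : ℕ) ^ e = 16 * 4 ^ K * 2 ^ M := by
        rw [he, pow_add, pow_add, pow_mul]; norm_num
      rw [h3]
      exact Nat.mul_le_mul_left _ (Nat.lt_two_pow_self).le
    calc 16 * 4 ^ K * (M * G j) = (16 * 4 ^ K * M) * G j := by ring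
      _ ≤ 2 ^ e * G j := Nat.mul_le_mul_right _ h2
  obtain ⟨lam, rho, nu1, g1, g2, g3, g4, g5⟩ := hgad G 0 hGp hGd hcop A φ hφ
  set Amm := GridG_19.Am G M 0 m with hAmm
  set N := Amm + M with hN
  obtain ⟨U, hU1, hU2, hU3, hU4⟩ := GridRuler_257.ruler K m Ms M G (GridG_19.Am G M 0) N hM
    (fun k hk => ⟨Finset.dvd_prod_of_mem _ hk, by have := (hMs k hk).2; omega⟩) (hGp 0)
    (fun j => hGd j (j + 1) (by omega)) hGb (hcop m)
  let c : ℕ → ℕ := fun k => U * 4 ^ k
  obtain ⟨lam2, rho2, nu2', x1, x2⟩ := hK c (fun i j hij _ => by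
    have := hU2 i j hij
    show U * 4 ^ i < U * 4 ^ j
    omega)
  set Lam := U * 4 ^ K + N with hLam
  set W := 2 * Lam + 2 * N + 1 with hW
  obtain ⟨n, _, B, Wo, hLW, hgap, _, _, hfree⟩ := LWallAll_922.walls_all_left A W (by omega)
  set z := Lam + n + 2 * N + 2 * Lam + 1 with hz
  obtain ⟨BadT, hBT⟩ : ∃ F : ℕ → Prop, ∀ T, F T ↔
      ((∃ q ∈ Ms, q ∣ T) ∨ GridG_19.BadG G M 0 m T) := ⟨_, fun _ => Iff.rfl⟩
  have hcle : ∀ k < K, c k ≤ U * 4 ^ K := fun k hk =>
    Nat.mul_le_mul_left _ (Nat.pow_le_pow_right (by norm_num) hk.le)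
  let D : SemJ_832.Dat A S V :=
    { phi := φ
      act := act
      Wo := Wo
      n := n
      W := W
      z := z
      p0 := Lam
      N := N
      K := K
      C0 := C0
      Lam := Lam
      BadT := BadT
      lam := lam
      rho := rho
      nu1 := nu1
      c := c
      lam2 := lam2
      rho2 := fun k Q => rho2 k Q 1
      nu2 := fun u => nu2' u 1
      hloc := hLW.app
      hgap := fun X t t' h1 h2 h3 h4 => by
        have := hgap X t t' h1 h2 h3 h4
        omega
      g_len := fun p v h => by have := (g2 p v h).2; omega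
      g_sound := fun p q v b h1 h2 => g1 p q v b h1 h2
      g_comp := fun u h1 h2 => g4 u (by omega) (by omega)
        (fun q hq hd => h2 ((hBT _).2 (Or.inl ⟨q, hq, hd⟩))) (fun hb => h2 ((hBT _).2 (Or.inr hb)))
      e_sound := fun k hk P Q v b h1 h2 h3 => by
        have := x1 k hk P Q 1 v b h1 h2 h3
        rw [mul_one] at this
        exact this
      e_comp := fun u v h => x2 u 1 v h
      c_le := fun k hk => (hcle k hk).trans (by omega)
      rulerE := fun i hi j hj i' hi' j' hj' h1 h2 h3 h4 => by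
        rcases hU3 i j i' j' h1 with h | h
        · exact h
        · exfalso
          have h3' : ((U * 4 ^ i : ℕ) : ℤ) + ((U * 4 ^ j' : ℕ) : ℤ) ≤
              ((U * 4 ^ i' : ℕ) : ℤ) + ((U * 4 ^ j : ℕ) : ℤ) + 2 * N := by exact_mod_cast h3
          have h4' : ((U * 4 ^ i' : ℕ) : ℤ) + ((U * 4 ^ j : ℕ) : ℤ) ≤
              ((U * 4 ^ i : ℕ) : ℤ) + ((U * 4 ^ j' : ℕ) : ℤ) + 2 * N := by exact_mod_cast h4
          have hN0 : (0 : ℤ) ≤ N := Int.natCast_nonneg _
          have : |(((U * 4 ^ i : ℕ) : ℤ) - (U * 4 ^ j : ℕ)) -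
              (((U * 4 ^ i' : ℕ) : ℤ) - (U * 4 ^ j' : ℕ))| ≤ 2 * N := by
            rw [abs_le]
            constructor <;> linarith
          linarith
      rulerB := fun T h1 h2 => by
        refine (hU4 (T : ℤ) _ ?_).trans (by omega)
        intro ab hab
        rw [Finset.mem_filter, Finset.mem_product, Finset.mem_range, Finset.mem_range] at hab
        obtain ⟨⟨ha, hb⟩, hne, hbad⟩ := hab
        refine ⟨ha, hb, hne, ?_⟩
        have hb' := hcle _ hb
        have hcb : c ab.2 ≤ T := by omega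
        have hcast : ((T + c ab.1 - c ab.2 : ℕ) : ℤ) =
            (T : ℤ) + (U * 4 ^ ab.1 : ℕ) - (U * 4 ^ ab.2 : ℕ) := by
          rw [Nat.cast_sub (by omega)]
          push_cast
          rfl
        rw [← hcast]
        rcases (hBT _).1 hbad with ⟨q, hq, hd⟩ | hbad
        · exact Or.inl ⟨q, hq, Int.natCast_dvd_natCast.2 hd⟩
        · exact badG_badZ hGp (by omega) hbad
      h_p0 := le_rfl
      z_pos := by omega
      h_z := by omega
      h_W := by omega }
  have hz0 : 0 < z := by omega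
  have hnz : n ≤ z := by omega
  have hLz : Lam ≤ z := by omega
  have hWU : Fib_298.WallU Wo n (max B W) := by
    refine ⟨hLW.app, hLW.len, fun X hX => ?_⟩
    obtain ⟨u, x, v, k, h1, h2, h3, h4⟩ := hfree X hX
    exact ⟨u, x, v, k, h4, h1.trans (le_max_left _ _), h2.trans (le_max_right _ _),
      h3.trans (le_max_left _ _)⟩
  have hreg : ∀ y, Language.IsRegular ({Y | nu1 Y = y} : Language A) :=
    fun y => reg_nu φ hφ nu1 (GridG_19.Ac G M 0 m) (M * G m) (Nat.mul_pos hM (hGp m))
      (fun Y Y' h1 h2 h3 h4 h5 => g5 Y Y' h1 h2 h3 h4 h5) y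
  let D' : SemTop_727.Sch A V := ⟨D.Z, D.T, D.L1, D.L2⟩
  have hTT : ∀ v X, D.T v X = Fib_298.TT act f Lam
      (fun v X0 => act v (X0.map f).prod + nu2' X0 1) nu1 v X := fun v X => rfl
  refine SemTop_727.top (k := 1) act hadd hone hmul hfaith f
    (fun X => act (nu2' (X.take Lam) 1) ((X.drop Lam).map f).prod + nu1 (X.drop Lam)) D' ?_ ?_ ?_
    ?_ ?_ ?_ ?_ s
  · intro v X
    show D.T v X = _
    rw [hTT]
    unfold Fib_298.TT
    rw [hadd, ← hmul, ← List.prod_append, ← List.map_append, List.take_append_drop, add_assoc]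
  · exact Fib_298.pcode_XX (Wo := Wo) (z := z) hz0
  · intro x y
    exact Fib_298.hfib (z := z) hWU hnz act f Lam hLz
      (fun v X0 => act v (X0.map f).prod + nu2' X0 1) nu1 hreg x y
  · intro x
    refine (List.finite_length_le A (Lam + N)).subset ?_
    rintro P ⟨hP1, hP2⟩
    have this : (P.drop Lam).length < Amm := (g2 _ _ hP2).2
    rw [List.length_drop] at this
    show P.length ≤ Lam + N
    have hP1' : Lam ≤ P.length := hP1
    omega
  · intro x
    refine (List.finite_length_le A Lam).subset ?_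
    rintro P ⟨k, hk, hP1, hP2⟩
    have := D.c_le k hk
    show P.length ≤ Lam
    rw [hP1]
    exact this
  · intro X1 h1 X2 h2 x
    exact D.hC2 h1 h2 x
  · intro s
    exact HL.mono (by norm_num) (Fib_298.rest (z := z) hWU hnz f s)

theorem fibres (A : Type) [Finite A] (S : Type) [Monoid S] [Finite S] (φ : A → S) (s : S) :
    HL 3 ({w | (w.map φ).prod = s} : Language A) := by
  obtain ⟨act, hadd, hone, hmul, hfaith⟩ := exists_module S
  exact main A S (S → ZMod 2) φ act hadd hone hmul hfaith s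

theorem final.{u} (α : Type u) [Finite α] (L : Language α) (hL : L.IsRegular) :
    ∃ e : GRegExp α, e.height ≤ 3 ∧ e.lang = L :=
  Univ_234.of_type_monoid (fun A _ S _ _ φ s => fibres A S φ s) L hL

end Crest.Agent.R320.Fin_629
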