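import Crest.Agent.R320.Fin_774
import Crest.Agent.R320.HZ_847
import Crest.Agent.R320.G1_852
import Crest.Agent.R320.Sp_249
import Crest.Agent.R320.P4b_933
import Crest.Agent.R320.Univ_582
import Crest.Agent.R320.Block_467
import Crest.Agent.R320.ExactR_237
import Crest.Agent.R320.WallU_228

/-!
# Row 320: the join (helper632)

top = Top5_110.top_sem, completeness = Fin_774, heights = HZ_847, gadget 1 = G1_852, ruler = Sp_249,
gadget 2 = ExactR_237, walls = WallU_228, module = Block_467, regular classes = P4b_933,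
universes = Univ_582.
-/

set_option autoImplicit false

namespace Crest.Agent.R320.Fin_632

open Crest.RegLang Crest.Agent.R320.Hk_851 Crest.Agent.R320.Code110

theorem fin (α : Type) [Finite α] (S : Type) [Monoid S] [Finite S] (φ : α → S) (s : S) :
    HL 3 ({w | (w.map φ).prod = s} : Language α) := by
  classical
  have := Fintype.ofFinite S
  obtain ⟨act, hadd, hone, hmul, hfaith⟩ := Crest.Agent.R320.Blk467.exists_module S
  obtain ⟨m, r, hg⟩ := Crest.Agent.R320.G1_852.gadget (S := S) (V := S → ZMod 2) act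
  obtain ⟨K, hK⟩ := Crest.Agent.R320.ExactR_237.exact_gadget α S (S → ZMod 2) φ act
    (2 + 2 * (r + m))
  obtain ⟨Ms, M, hcard, hMs, hM, hg⟩ := hg (4 ^ K)
  obtain ⟨b, hb⟩ : ∃ b, b = M * 2 ^ (K + 6) + 1 := ⟨_, rfl⟩
  have hb1 : 2 ^ (K + 6) * M < b := by rw [hb, Nat.mul_comm]; omega
  have hb0 : 0 < b := by omega
  have hco : Nat.Coprime b M := by
    rw [hb]
    have : Nat.Coprime (1 + M * 2 ^ (K + 6)) M := by
      rw [Nat.coprime_add_mul_left_left]; exact Nat.coprime_one_left M
    rwa [Nat.add_comm] at this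
  obtain ⟨lam, rho, nu1, g1, g2, g3, g4⟩ := hg b hb0 hco α φ
  obtain ⟨c, c1, c2, -, c4⟩ := Crest.Agent.R320.Sp_249.spoil Ms M b m K (b ^ m) hM
    (fun k hk => ⟨(hMs k hk).1, (hMs k hk).2.2⟩) hb1 hco
  obtain ⟨lam2, rho2, nu2, e1, e2⟩ := hK c (fun i j hij _ => by have := c1 i j hij; omega)
  obtain ⟨N, hN⟩ : ∃ N, N = b ^ m := ⟨_, rfl⟩
  obtain ⟨p0, hp0⟩ : ∃ p0, p0 = c K := ⟨_, rfl⟩
  obtain ⟨n, _, _, Sw, hn, _, wloc, wgap, _, _, few⟩ :=
    Crest.Agent.R320.WallU_228.walls_full (α := α) (2 * (p0 + N) + 2)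
  obtain ⟨z, hz⟩ : ∃ z, z = 4 * p0 + 2 * N + n := ⟨_, rfl⟩
  have hcle : ∀ k < K, c k ≤ p0 := fun k hk => by have := c1 k K hk; omega
  let d : Crest.Agent.R320.Fin_774.Dat α S (S → ZMod 2) :=
    { f := φ, act := act, Wo := Crest.Agent.R320.WallU_228.Wo n Sw, n := n
      W := 2 * (p0 + N) + 2, z := z, p0 := p0, N := N, La := 0, C0 := r + m
      BadT := Crest.Agent.R320.Sp_249.Bad Ms M b m
      lam := lam, rho := rho, nu1 := nu1, K := K, c := c
      lam2 := lam2, rho2 := fun k Q => rho2 k Q 1, nu2 := fun u => nu2 u 1 }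
  have hd : d.Ok :=
    { loc := wloc
      sep := wgap
      zbig := by show 4 * p0 + 2 * N + n + 0 ≤ z; omega
      npos := hn
      Wbig := le_rfl
      g1 := fun p v h => by have := g1 p v h; show p.length ≤ N; omega
      g2 := fun p q v r h1 h2 _ => g2 p q v r h1 h2
      g3 := by
        intro u _ hB v
        have hB' : ¬ Crest.Agent.R320.Sp_249.Bad Ms M b m u.length := hB
        unfold Crest.Agent.R320.Sp_249.Bad at hB'
        push Not at hB'
        obtain ⟨h1, h2⟩ := hB'
        obtain ⟨P, Q, h3, h4, v', h5⟩ := g3 u h1 (fun j hj => by have := h2 j hj; omega) v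
        refine ⟨P, Q, h3.symm, h4, ?_⟩
        show (rho Q).isSome
        rw [h5]; rfl
      cle := hcle
      cinj := by
        intro k _ l _ h
        have h' : c k = c l := h
        rcases lt_trichotomy k l with h1 | h1 | h1
        · have := c1 k l h1; omega
        · exact h1
        · have := c1 l k h1; omega
      e2 := by
        intro k hk P Q v b' hP _ h1 h2
        have := e1 k hk P Q 1 v b' hP h1 h2
        rw [mul_one] at this
        exact this
      e3 := by
        intro u v hu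
        have hu' : u.length = p0 := hu
        exact e2 u 1 v (fun k hk => by rw [hu']; exact hcle k hk)
      res := by
        intro i _ j _ k _ l _ hij hkl hne
        have := c2 i j k l hij hkl (fun h => hne (by simpa using h))
        show c i + c l + 2 * N < c k + c j ∨ c k + c j + 2 * N < c i + c l
        omega
      thin := by
        intro T _ hT
        have hT' : p0 ≤ T := hT
        have h1 := c4 T (fun l hl => (hcle l hl).trans hT')
        have h2 : Ms.card + m ≤ r + m := by omega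
        refine le_trans (le_of_eq ?_) (h1.trans h2)
        congr }
  have h0 : d.ph [] = 1 := by show (List.map φ []).prod = 1; simp
  have hφ : ∀ u w, d.ph (u ++ w) = d.ph u * d.ph w := fun u w => d.ph_append u w
  have hsub : ∀ v w s, act v s - act w s = act (v - w) s := by
    intro v w s
    have := hadd (v - w) w s
    rw [sub_add_cancel] at this
    rw [this, add_sub_cancel_right]
  have hPm : 0 < M * b ^ m := Nat.mul_pos hM (pow_pos hb0 m)
  have hfew : Crest.Agent.R320.HZ847.Few n Sw := few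
  have hper : ∀ t, 0 ≤ t → (Crest.Agent.R320.Sp_249.Bad Ms M b m (t + M * b ^ m) ↔
      Crest.Agent.R320.Sp_249.Bad Ms M b m t) := by
    intro t _
    unfold Crest.Agent.R320.Sp_249.Bad
    have h1 : ∀ k ∈ Ms, (k ∣ t + M * b ^ m ↔ k ∣ t) := fun k hk =>
      Nat.dvd_add_left (Dvd.dvd.mul_right (hMs k hk).2.2 _)
    have h2 : ∀ j < m, (t + M * b ^ m) / b ^ j % b = t / b ^ j % b := by
      intro j hj
      obtain ⟨i, rfl⟩ := Nat.exists_eq_add_of_lt hj
      have e : M * b ^ (j + i + 1) = b ^ j * (b * (M * b ^ i)) := by ring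
      rw [e, Nat.add_mul_div_left _ _ (pow_pos hb0 j), Nat.add_mul_mod_self_left]
    constructor
    · rintro (⟨k, hk, h⟩ | ⟨j, hj, h⟩)
      · exact Or.inl ⟨k, hk, (h1 k hk).1 h⟩
      · rw [h2 j hj] at h; exact Or.inr ⟨j, hj, h⟩
    · rintro (⟨k, hk, h⟩ | ⟨j, hj, h⟩)
      · exact Or.inl ⟨k, hk, (h1 k hk).2 h⟩
      · rw [← h2 j hj] at h; exact Or.inr ⟨j, hj, h⟩
  have hnu : ∀ x, Language.IsRegular ({w | nu1 w = x} : Language α) := by
    intro x
    refine Crest.Agent.R320.P4_933.regular_of_class' φ (b ^ m) (M * b ^ m) hPm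
      (fun w => nu1 w = x) ?_
    intro u u' _ _ h1 h2 h3
    rw [(g4 u u' h1 h3 h2).2]
  have HXX : HL 0 d.XX := Crest.Agent.R320.HZ847.hl_XX (n := n) (S := Sw) z
  have HBad : HL 1 d.Bad := by
    refine (Crest.Agent.R320.HZ847.H2 (z := z) (p0 := p0) (N1 := N) hfew hPm hper).congr
      fun u => ?_
    constructor
    · rintro ⟨hX, (⟨t, h1, h2, h3⟩ | h) | hB⟩
      · have hl : z ≤ u.length := hX.1
        have h1' : z ≤ t + N := h1
        have h2' : t < z := h2
        exact ⟨hX, Or.inl ⟨t, h1, by omega, by omega, h3⟩⟩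
      · have hl : z ≤ u.length := hX.1
        exact ⟨hX, Or.inl ⟨u.length, by omega, h, le_rfl, by
          rw [List.take_length]; exact hX.2.1⟩⟩
      · exact ⟨hX, Or.inr hB⟩
    · rintro ⟨hX, ⟨t, h1, h2, h3, h4⟩ | hB⟩
      · by_cases h5 : t < z
        · exact ⟨hX, Or.inl (Or.inl ⟨t, h1, h5, h4⟩)⟩
        · have h6 : t = u.length := by
            by_contra h7
            exact hX.2.2 t (by omega) (by omega) h4
          refine ⟨hX, Or.inl (Or.inr ?_)⟩
          show u.length < z + N
          omega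
      · exact ⟨hX, Or.inr hB⟩
  have hz0 : p0 ≤ z := by omega
  exact Crest.Agent.R320.Top5_110.top_sem (φ := d.ph) (act := act) (XX := d.XX) (Bad := d.Bad)
    (T := d.T) h0 hφ hone hmul hfaith (Crest.Agent.R320.Fin_774.pc hd) (fun u hu => hu.1)
    (fun u _ v v' => Crest.Agent.R320.HZ847.hT hφ hone hmul hsub u v v')
    (HXX.mono (by norm_num)) HBad
    (fun x y => Crest.Agent.R320.HZ847.H3 hfew h0 hφ hz0 hnu x y)
    (fun s => (Crest.Agent.R320.HZ847.H4 (n := n) (S := Sw) (z := z) hfew h0 hφ s).mono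
      (by norm_num))
    (N1 := 0) (N2 := 1) (L1 := d.L1) (L2 := d.L2)
    (fun v => (List.finite_length_le α (p0 + N)).subset fun p hp => hp.2.1)
    (fun v => (List.finite_length_le α p0).subset fun p hp => by
      obtain ⟨k, hk, h1, -⟩ := hp
      show p.length ≤ p0
      rw [h1]; exact hcle k hk)
    (fun u hu hub x t ht => Crest.Agent.R320.Fin_774.c1 hd u hu hub x t ht)
    (fun u hu x t ht => Crest.Agent.R320.Fin_774.c2 hd u hu x t ht) s

/-- the statement of S0495 -/
theorem row.{u} (α : Type u) [Finite α] (L : Language α) (hL : L.IsRegular) :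
    ∃ e : Crest.RegLang.GRegExp α, e.height ≤ 3 ∧ e.lang = L :=
  Crest.Agent.R320.Univ_582.final (fun β _ S _ _ φ s => fin β S φ s) α L hL

end Crest.Agent.R320.Fin_632

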