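import Crest.Agent.R320.H14_82
import Crest.Agent.R320.InstB_11
import Crest.Agent.R320.G1_76
import Crest.Agent.R320.Sp_493

/-!
# Row 320: join (helper638)

`fin` = Top5_110.top_sem (110) + InstB_11.C1 / C2 (11) + H14_82.main (82) + G1_76.g1 (76)
+ Sp_493.spoil (493) + ExactR_237.exact_gadget (237) + WallU_228.walls_full (228).
-/

set_option autoImplicit false

namespace Crest.Agent.R320.Fin_638

open Crest.Agent.R320.Hk_851 Crest.Agent.R320.Code110 Crest.Agent.R320.FewWalls_228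
  Crest.Agent.R320.WallU_228

/-- the module -/
def act {S : Type} [Monoid S] (v : S → ZMod 2) (s : S) : S → ZMod 2 := fun u => v (s * u)

theorem bad_per (Ms : Finset ℕ) (M m b : ℕ) (hb : 0 < b) (hMs : ∀ k ∈ Ms, k ∣ M) (T : ℕ) :
    Sp_493.Bad Ms M b m (T + M * b ^ m) ↔ Sp_493.Bad Ms M b m T := by
  unfold Sp_493.Bad
  have h1 : ∀ k ∈ Ms, (k ∣ T + M * b ^ m ↔ k ∣ T) := fun k hk =>
    (Nat.dvd_add_iff_left ((hMs k hk).mul_right _)).symm
  have h2 : ∀ j < m, (T + M * b ^ m) / b ^ j % b = T / b ^ j % b := by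
    intro j hj
    have e : M * b ^ m = b ^ j * (b * (M * b ^ (m - 1 - j))) := by
      have : b ^ m = b ^ j * (b * b ^ (m - 1 - j)) := by
        rw [← pow_succ', ← pow_add]
        congr 1
        omega
      rw [this]; ring
    rw [e, Nat.add_mul_div_left _ _ (pow_pos hb j), Nat.add_mul_mod_self_left]
  refine or_congr ?_ ?_
  · exact exists_congr fun k => and_congr_right fun hk => h1 k hk
  · refine exists_congr fun j => and_congr_right fun hj => ?_
    rw [h2 j hj]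

theorem fin (α : Type) [Finite α] (S : Type) [Monoid S] [Finite S] (φ : α → S) (s : S) :
    HL 3 ({w | (w.map φ).prod = s} : Language α) := by
  classical
  haveI := Fintype.ofFinite S
  obtain ⟨m, r, hg⟩ := G1_76.g1 S (S → ZMod 2) act
  obtain ⟨K, hK⟩ := ExactR_237.exact_gadget α S (S → ZMod 2) φ act (2 + 2 * (r + m))
  obtain ⟨Ms, M, hcard, hMs, hM, hg⟩ := hg (2 ^ K)
  obtain ⟨b, hbdef⟩ : ∃ b, b = M * (2 ^ (K + 4) + 8) + 1 := ⟨_, rfl⟩
  have hb0 : 0 < b := by omega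
  have hb1 : 4 * M + 4 < b := by
    have : 16 ≤ 2 ^ (K + 4) := by
      calc 16 = 2 ^ 4 := by norm_num
        _ ≤ 2 ^ (K + 4) := Nat.pow_le_pow_right (by norm_num) (by omega)
    nlinarith
  have hb2 : 2 ^ (K + 4) * M < b := by nlinarith
  have hcop : Nat.Coprime b M := by
    rw [hbdef]
    simp [Nat.coprime_mul_right_add_left]
  obtain ⟨lam, rho, nu1, g1, g2, g3, g4⟩ := hg b hb1 hcop α φ
  obtain ⟨N1, hN1⟩ : ∃ N1, N1 = b ^ m := ⟨_, rfl⟩
  obtain ⟨c, hmono, -, -, gol, sp⟩ := Sp_493.spoil Ms M m K b hM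
    (fun k hk => ⟨(hMs k hk).1, (hMs k hk).2.2⟩) hb2 hcop N1
  obtain ⟨lam2, rho2, nuE, e1, e2⟩ := hK c (fun i j hij _ => hmono hij)
  obtain ⟨p0, hp0⟩ : ∃ p0, p0 = c K := ⟨_, rfl⟩
  have hcp : ∀ k < K, c k ≤ p0 := fun k hk => by rw [hp0]; exact (hmono hk).le
  obtain ⟨n, cc, P, Sw, hn, hP, hloc, hgap, -, -, hfew⟩ :=
    WallU_228.walls_full (α := α) (2 * (N1 + p0))
  obtain ⟨z, hz⟩ : ∃ z, z = p0 + p0 + N1 + n + (p0 + N1) + 1 := ⟨_, rfl⟩
  have hWL : InstB_11.WL (Wo n Sw) n (2 * (N1 + p0)) := ⟨hloc, fun P h => h.1, hgap⟩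
  let BadT : ℕ → Prop := Sp_493.Bad Ms M b m
  let nu2 : List α → (S → ZMod 2) := fun w => nuE w 1
  have hXX : InstB_11.XX (Wo n Sw) z = H14_82.XX n Sw z := by
    ext X
    exact ⟨fun h => ⟨h.1, h.2.1, fun t h1 h2 => h.2.2 t h2 h1⟩,
      fun h => ⟨h.1, h.2.1, fun t h1 h2 => h.2.2 t h2 h1⟩⟩
  have hBad : InstB_11.BadX (Wo n Sw) z N1 p0 BadT = H14_82.Bad n Sw z N1 p0 BadT := by
    ext X
    constructor
    · rintro ⟨h1, h2⟩
      exact ⟨by rw [← hXX]; exact h1, h2⟩
    · rintro ⟨h1, h2⟩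
      exact ⟨by rw [hXX]; exact h1, h2⟩
  have hTT : InstB_11.TT φ act p0 nu2 nu1 =
      H14_82.TT (fun w => (w.map φ).prod) act p0 nu2 nu1 := rfl
  have hmM : 0 < M * b ^ m := by positivity
  obtain ⟨H1, H2, H3, H4⟩ := H14_82.main (f := φ) (n := n) (Sw := Sw) (z := z) (N := N1) (p0 := p0)
    (A1 := b ^ m) (m := M * b ^ m) hmM hfew BadT
    (fun T _ => bad_per Ms M m b hb0 (fun k hk => (hMs k hk).2.2) T) nu1 nu2 act
    (fun Y Y' h1 h2 h3 h4 h5 => (g4 Y Y' h1 h2 h3 h4 h5).2)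
  rw [← hXX] at H1
  rw [← hBad] at H2
  rw [← hXX, ← hTT] at H3
  rw [← hXX] at H4
  have hadd : ∀ (a b : S → ZMod 2) (s : S), act (a + b) s = act a s + act b s := fun a b s => rfl
  have hone : ∀ v : S → ZMod 2, act v 1 = v := fun v => by funext u; simp [act]
  have hmul : ∀ (v : S → ZMod 2) (s t : S), act v (s * t) = act (act v s) t := fun v s t => by
    funext u; simp [act, mul_assoc]
  have hfaith : ∀ s t : S, (∀ v : S → ZMod 2, act v s = act v t) → s = t := by
    intro s t h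
    have h1 := congrFun (h (fun u => if u = s then 1 else 0)) 1
    simp only [act, mul_one, if_true] at h1
    by_contra hne
    rw [if_neg (fun h => hne h.symm)] at h1
    exact one_ne_zero h1
  refine Top5_110.top_sem (φ := fun w : List α => (w.map φ).prod) (act := act)
    (XX := InstB_11.XX (Wo n Sw) z) (Bad := InstB_11.BadX (Wo n Sw) z N1 p0 BadT)
    (T := InstB_11.TT φ act p0 nu2 nu1) (N1 := 0) (N2 := 1)
    (L1 := InstB_11.L1 φ act p0 nu2 lam) (L2 := InstB_11.L2 K c lam2)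
    (by simp) (fun u w => by simp) hone hmul hfaith (InstB_11.pc (by omega)) (fun u hu => hu.1)
    (fun u _ v v' => H14_82.hT hadd hmul p0 u v v') H1 H2 H3
    (fun s => (H4 s).mono (by norm_num)) ?_ ?_ ?_ ?_ s
  · intro v
    refine (List.finite_length_le α (p0 + N1)).subset ?_
    rintro p ⟨h1, h2⟩
    have h3 := g1 _ _ h2
    rw [List.length_drop] at h3
    show p.length ≤ p0 + N1
    omega
  · intro v
    refine (List.finite_length_le α p0).subset ?_
    rintro p ⟨k, hk, h1, -⟩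
    show p.length ≤ p0
    rw [h1]; exact hcp k hk
  · intro u hu hb x t ht
    have ht' : t = [] := by simpa using ht
    subst ht'
    obtain ⟨p, q, y, h1, h2, h3⟩ := InstB_11.C1 hWL φ act (La := p0 + N1) (BadT := BadT) nu2 nu1 lam rho
      (by omega) (fun p v h => by rw [hN1]; exact (g1 p v h).le)
      (fun p q v b h1 h2 _ => g2 p q v b h1 h2)
      (fun u _ hu v => by
        refine g3 u (fun k hk hd => hu (Or.inl ⟨k, hk, hd⟩)) (fun j hj => ?_) v
        by_contra hcon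
        exact hu (Or.inr ⟨j, hj, hcon⟩)) u hu hb x
    exact ⟨p, q, y, by rw [List.append_nil]; exact h1, h2, h3⟩
  · intro u hu x t ht
    have ht' : t ∈ InstB_11.BadX (Wo n Sw) z N1 p0 BadT := by simpa using ht
    exact InstB_11.C2 hWL φ act (La := p0 + N1) (C0 := r + m) (R := 2 + 2 * (r + m)) (BadT := BadT) c nu1
      lam2 rho2 nuE (by omega) (by omega) (by omega) hcp
      (fun k hk P Q y v b h1 h2 h3 => e1 k hk P Q y v b h1 h2 h3)
      e2 (by omega) (fun i j k l _ _ _ _ h1 h2 h3 => gol i j k l h1 h2 h3)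
      (fun T hT F hF => (sp T (fun i hi => (hcp i hi).trans (by omega)) F
        (fun p hp => hF p hp)).trans (by omega)) u t hu ht' x

end Crest.Agent.R320.Fin_638
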