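import Crest.Agent.R320.Inst_64
import Crest.Agent.R320.LWallAll_922

/-!
# Row 320: all words, height 3, from the unit gadget

`GadHyp` (scheme 1's gadget with a ruler against its thin set of lengths) gives: for every finite
monoid `S` and `f : α → S`, every language `{w | (w.map f).prod = s}` has height `≤ 3`.
-/

set_option autoImplicit false

namespace Crest.Agent.R320.Fin_64

open Crest.RegLang Crest.Agent.R320.Hk_851 Crest.Agent.R320.Blk467 Crest.Agent.R320.SemTop_727
open Crest.Agent.R320.Fib_64 Crest.Agent.R320.Inst_64 Crest.Agent.R320.BddReg_746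

/-- the unit gadget for every finite monoid, with rulers of every size -/
def GadHyp : Prop :=
  ∀ (S V : Type) [Monoid S] [Finite S] [AddCommGroup V] [Finite V] (act : V → S → V),
    ∃ C0 : ℕ, ∀ K : ℕ, ∃ (N1 : ℕ) (BadT : ℕ → Prop) (c : ℕ → ℕ), Ruler K C0 N1 c BadT ∧
      ∀ (α : Type) [Finite α] (f : α → S), ∃ g : Gad f act N1 BadT,
        ∀ r, Language.IsRegular ({Q | g.rho Q = some r} : Language α)

section

variable {α S V : Type} [Monoid S] [AddCommGroup V] {f : α → S} {act : V → S → V} {N1 : ℕ}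
  {BadT : ℕ → Prop}

/-- `u` has a legal split -/
def Leg (g : Gad f act N1 BadT) (u : List α) : Prop :=
  ∃ P Q v b, P ++ Q = u ∧ N1 ≤ Q.length ∧ g.lam P = some v ∧ g.rho Q = some b

open Classical in
/-- the same gadget with the noise set to `0` on words without a legal split -/
noncomputable def norm (g : Gad f act N1 BadT) : Gad f act N1 BadT where
  lam := g.lam
  rho := g.rho
  nu := fun u => if Leg g u then g.nu u else 0
  lamlen := g.lamlen
  sound := by
    intro P Q v b h1 h2 h3
    have h : Leg g (P ++ Q) := ⟨P, Q, v, b, rfl, h1, h2, h3⟩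
    rw [if_pos h]
    exact g.sound P Q v b h1 h2 h3
  compl := g.compl

theorem norm_nu_of (g : Gad f act N1 BadT) {u : List α} (h : Leg g u) :
    (norm g).nu u = g.nu u := by
  classical
  exact if_pos h

theorem norm_nu_of_not (g : Gad f act N1 BadT) {u : List α} (h : ¬ Leg g u) :
    (norm g).nu u = 0 := by
  classical
  exact if_neg h

theorem reg_nu [Finite α] [Finite S] [Finite V] (g : Gad f act N1 BadT)
    (hr : ∀ r, Language.IsRegular ({Q | g.rho Q = some r} : Language α)) (b0 : V) :
    Language.IsRegular ({u | (norm g).nu u = b0} : Language α) := by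
  classical
  have hlong : Language.IsRegular (mk fun Q : List α => N1 ≤ Q.length) :=
    isReg (HL.length_ge (α := α) (k := 0) N1)
  have hQ : ∀ b, Language.IsRegular (mk fun Q : List α => N1 ≤ Q.length ∧ g.rho Q = some b) :=
    fun b => reg_and hlong (hr b)
  -- legal words
  have hfinP : ({P : List α | P.length < N1}).Finite := List.finite_length_lt α N1
  have hLeg : Language.IsRegular (mk fun u => Leg g u) := by
    have h := reg_biUnion
      (s := {i : List α × V × V | i.1.length < N1 ∧ g.lam i.1 = some i.2.1})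
      (((hfinP.prod (Set.finite_univ (α := V × V)))).subset fun i hi => ⟨hi.1, trivial⟩)
      (L := fun i => (({i.1} : Language α) *
        (mk fun Q : List α => N1 ≤ Q.length ∧ g.rho Q = some i.2.2)))
      (fun i _ => Reg_236.isRegular_mul (isReg (HL.word (k := 0) i.1)) (hQ i.2.2))
    refine reg_congr h fun u => ?_
    constructor
    · rintro ⟨⟨P, v, b⟩, ⟨_, hP2⟩, hm⟩
      obtain ⟨A, hA, Q, ⟨hQ1, hQ2⟩, rfl⟩ := Language.mem_mul.1 hm
      have hA' : A = P := hA
      subst hA'
      exact ⟨A, Q, v, b, rfl, hQ1, hP2, hQ2⟩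
    · rintro ⟨P, Q, v, b, rfl, h1, h2, h3⟩
      exact ⟨(P, v, b), ⟨g.lamlen P v h2, h2⟩, Language.mem_mul.2 ⟨P, rfl, Q, ⟨h1, h3⟩, rfl⟩⟩
  have hmain : Language.IsRegular (mk fun u => Leg g u ∧ g.nu u = b0) := by
    have h := reg_biUnion
      (s := {i : List α × V × V × S | i.1.length < N1 ∧ g.lam i.1 = some i.2.1 ∧
        i.2.2.1 = act i.2.1 i.2.2.2 + b0})
      (((hfinP.prod (Set.finite_univ (α := V × V × S)))).subset fun i hi => ⟨hi.1, trivial⟩)
      (L := fun i => (mk fun u => u ∈ (({i.1} : Language α) *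
        (mk fun Q : List α => N1 ≤ Q.length ∧ g.rho Q = some i.2.2.1)) ∧
          (u.map f).prod = i.2.2.2))
      (fun i _ => reg_and (Reg_236.isRegular_mul (isReg (HL.word (k := 0) i.1)) (hQ i.2.2.1))
        (reg_value f i.2.2.2))
    refine reg_congr h fun u => ?_
    constructor
    · rintro ⟨⟨P, v, b, s⟩, ⟨_, hP2, hb⟩, hm, hs⟩
      obtain ⟨A, hA, Q, ⟨hQ1, hQ2⟩, rfl⟩ := Language.mem_mul.1 hm
      have hA' : A = P := hA
      subst hA'
      refine ⟨⟨A, Q, v, b, rfl, hQ1, hP2, hQ2⟩, ?_⟩
      have h1 := g.sound A Q v b hQ1 hP2 hQ2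
      have hs' : ((A ++ Q).map f).prod = s := hs
      have hb' : b = act v s + b0 := hb
      rw [hs', hb'] at h1
      exact (add_left_cancel h1).symm
    · rintro ⟨⟨P, Q, v, b, rfl, h1, h2, h3⟩, h4⟩
      refine ⟨(P, v, b, ((P ++ Q).map f).prod), ⟨g.lamlen P v h2, h2, ?_⟩,
        Language.mem_mul.2 ⟨P, rfl, Q, ⟨h1, h3⟩, rfl⟩, rfl⟩
      change b = act v (((P ++ Q).map f).prod) + b0
      rw [← h4]
      exact g.sound P Q v b h1 h2 h3
  have hzero : Language.IsRegular (mk fun _ : List α => (0 : V) = b0) :=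
    isReg (HL.const (α := α) (k := 0) ((0 : V) = b0))
  have hnot : Language.IsRegular (mk fun u => ¬ Leg g u) := hLeg.compl
  refine reg_congr (reg_or hmain (reg_and hnot hzero)) fun u => ?_
  constructor
  · rintro (⟨h1, h2⟩ | ⟨h1, h2⟩)
    · change (norm g).nu u = b0
      rw [norm_nu_of g h1]; exact h2
    · change (norm g).nu u = b0
      rw [norm_nu_of_not g h1]; exact h2
  · intro h
    have h' : (norm g).nu u = b0 := h
    by_cases hl : Leg g u
    · rw [norm_nu_of g hl] at h'
      exact Or.inl ⟨hl, h'⟩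
    · rw [norm_nu_of_not g hl] at h'
      exact Or.inr ⟨hl, h'⟩

end

/-- **all words, height 3** -/
theorem all_words (H : GadHyp) {α : Type} [Finite α] {S : Type} [Monoid S] [Finite S]
    (f : α → S) (s : S) : HL 3 ({w | (w.map f).prod = s} : Language α) := by
  classical
  have _ := Fintype.ofFinite S
  let V : Type := S → ZMod 2
  let act : V → S → V := fun v t x => v (t * x)
  obtain ⟨C0, hC0⟩ := H S V act
  obtain ⟨K, hK⟩ := ExactR_237.exact_gadget α S V f act (2 * C0 + 2)
  obtain ⟨N1, BadT, c, hR, hg⟩ := hC0 K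
  obtain ⟨g0, hreg⟩ := hg α f
  obtain ⟨lam2, rho2, nuE, hsound, hcompl⟩ := hK c hR.inc
  set g := norm g0 with hgdef
  let p0 : ℕ := (Finset.range K).sup c
  have hc : ∀ a, a < K → c a ≤ p0 := fun a ha => Finset.le_sup (Finset.mem_range.2 ha)
  obtain ⟨n, G, B, Wo, hLW, hgap, -, -, hbd⟩ :=
    LWallAll_922.walls_all_left α (2 * (p0 + N1) + 1) (by omega)
  have hbd' : ∀ X : List α, (∀ j, j < X.length → ¬ Wo (X.take j)) →
      ∃ (u x v : List α) (k : ℕ), X = u ++ pw x k ++ v ∧
        u.length ≤ max B (2 * (p0 + N1) + 1) ∧ x.length ≤ max B (2 * (p0 + N1) + 1) ∧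
        v.length ≤ max B (2 * (p0 + N1) + 1) := by
    intro X hX
    obtain ⟨u, x, v, k, h1, h2, h3, h4⟩ := hbd X (fun t ht => hX t ht)
    exact ⟨u, x, v, k, h4, h1.trans (le_max_left _ _), h2.trans (le_max_right _ _),
      h3.trans (le_max_left _ _)⟩
  have hW : Walls n (2 * (p0 + N1) + 1) Wo := ⟨hLW.app, hLW.len, hgap⟩
  let z : ℕ := 4 * p0 + 4 * N1 + n + 1
  let E := D g Wo z p0 K c lam2 fun X => nuE X 1
  have hadd : ∀ (a b : V) (t : S), act (a + b) t = act a t + act b t := fun a b t => rfl
  have hone : ∀ v : V, act v 1 = v := fun v => by funext x; simp [act]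
  have hmul : ∀ (v : V) (t t' : S), act v (t * t') = act (act v t) t' := fun v t t' => by
    funext x; simp [act, mul_assoc]
  have hfaith : ∀ t t' : S, (∀ v, act v t = act v t') → t = t' := by
    intro t t' h
    have h1 : (if t * 1 = t then (1 : ZMod 2) else 0) = if t' * 1 = t then (1 : ZMod 2) else 0 :=
      congrFun (h (fun x => if x = t then 1 else 0)) 1
    rw [mul_one, mul_one, if_pos rfl] at h1
    by_contra hne
    rw [if_neg (fun e => hne e.symm)] at h1
    exact absurd h1 (by decide)
  have key := top (k := 1) act hadd hone hmul hfaith f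
    (fun X => act (nuE (X.take p0) 1) (((X.drop p0).map f).prod) + g.nu (X.drop p0)) E
    (by
      intro v X
      change act (act v ((X.take p0).map f).prod + nuE (X.take p0) 1) ((X.drop p0).map f).prod +
        g.nu (X.drop p0) = _
      rw [hadd, ← hmul, ← List.prod_append, ← List.map_append, List.take_append_drop, add_assoc])
    ⟨nil_notMem (by omega), by
      rintro X hX Y hY ⟨R, rfl⟩
      have := prefix_code hX hY
      subst this
      simp⟩
    (fun x y => hXT hLW.app hLW.len hbd' f act z p0 (by omega) g.nu (fun X => nuE X 1)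
      (reg_nu g0 hreg) x y)
    (fun x => (List.finite_length_lt α (p0 + N1)).subset (by
      rintro P ⟨h1, h2⟩
      have := g.lamlen _ _ h2
      rw [List.length_drop] at this
      change P.length < p0 + N1
      omega))
    (fun x => (List.finite_length_le α p0).subset (by
      rintro P ⟨k, hk, hl, -⟩
      change P.length ≤ p0
      rw [hl]
      exact hc k hk))
    (fun X1 h1 X2 h2 x => hC2 g hW hR hc (by omega) (by omega) lam2 rho2 nuE hsound hcompl
      X1 X2 x h1 h2)
    (fun t => (hNP hLW.app hLW.len hbd' f z t).mono (by omega)) s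
  exact key

end Crest.Agent.R320.Fin_64
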