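import Mathlib

/-!
Row 320 (S0495), FINAL JOINT in 727's semantic form (110 #13081): natural chain rule (block = up to the
first wall at a place `>= z`), left-looking walls, ANY gadget for scheme 1 (lam1, rho1, nu1, BadT), exact
gadget with redundancy for scheme 2 (lam2, rho2, nu2).  `good_of_not_bad` = completeness of scheme 1,
`complete2` = completeness of scheme 2 on two consecutive bad blocks (literally `hC2` of 727 #13375).
-/

set_option autoImplicit false

namespace Crest.Agent.R320.JointC_649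

variable {A S V : Type*} [Monoid S] [AddCommGroup V]

/-- product of a word -/
def ph (f : A → S) (w : List A) : S := (w.map f).prod

theorem ph_append (f : A → S) (u w : List A) : ph f (u ++ w) = ph f u * ph f w := by
  simp [ph]

/-- All data and hypotheses. -/
structure Dat (f : A → S) (act : V → S → V) where
  (n G z p0 N1 Lam K R0 : ℕ)
  /-- left-looking wall at the end of the word -/
  Wo : List A → Prop
  (lam1 rho1 : List A → Option V)
  nu1 : List A → V
  BadT : ℕ → Prop
  c : ℕ → ℕ
  (lam2 rho2 : ℕ → List A → Option V)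
  nu2 : List A → V
  loc : ∀ P Q, n ≤ Q.length → (Wo (P ++ Q) ↔ Wo Q)
  gap : ∀ P Q, Wo P → Wo (P ++ Q) → Q ≠ [] → G < Q.length
  hG : 2 * Lam + 2 * N1 ≤ G
  hz : p0 + 3 * N1 + n + 2 * Lam + 1 ≤ z
  cp0 : ∀ k < K, c k ≤ p0
  cLam : ∀ k < K, c k ≤ Lam
  ruler : ∀ a < K, ∀ a' < K, ∀ b < K, ∀ b' < K, a ≠ a' → b ≠ b' →
    |((c a' : ℤ) - c a) - ((c b' : ℤ) - c b)| ≤ 2 * N1 → a = b
  spoil : ∀ T : ℕ, Lam ≤ T → ∀ J : Finset ℕ, (∀ k ∈ J, k < K ∧ ∃ k' < K, k' ≠ k ∧
    BadT (T + c k' - c k)) → J.card ≤ R0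
  snd1 : ∀ P Q v r, lam1 P = some v → rho1 Q = some r → r = act v (ph f (P ++ Q)) + nu1 (P ++ Q)
  len1 : ∀ P v, lam1 P = some v → P.length ≤ N1
  cmp1 : ∀ Y, z ≤ Y.length + p0 → ¬ BadT Y.length → ∀ v, ∃ P Q r, Y = P ++ Q ∧ lam1 P = some v ∧
    rho1 Q = some r
  snd2 : ∀ k < K, ∀ P Q v r, P.length = c k → lam2 k P = some v → rho2 k Q = some r →
    r = act v (ph f (P ++ Q)) + nu2 (P ++ Q)
  cmp2 : ∀ (u : List A) (v : V), u.length = p0 → ∃ I : Finset ℕ, 2 * R0 + 2 ≤ I.card ∧ ∀ k ∈ I, k < K ∧
    lam2 k (u.take (c k)) = some v ∧ (rho2 k (u.drop (c k))).isSome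

variable {f : A → S} {act : V → S → V} (D : Dat f act)

/-- blocks -/
def XX : Set (List A) :=
  {X | D.z ≤ X.length ∧ D.Wo X ∧ ∀ t, D.z ≤ t → t < X.length → ¬ D.Wo (X.take t)}

/-- zone map -/
def T (x : V) (X : List A) : V :=
  act (act x (ph f (X.take D.p0)) + D.nu2 (X.take D.p0)) (ph f (X.drop D.p0)) + D.nu1 (X.drop D.p0)

def L1 (x : V) : Set (List A) :=
  {P | D.p0 ≤ P.length ∧
    D.lam1 (P.drop D.p0) = some (act x (ph f (P.take D.p0)) + D.nu2 (P.take D.p0))}

def L2 (x : V) : Set (List A) := {P | ∃ k < D.K, P.length = D.c k ∧ D.lam2 k P = some x}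

def R1 (y : V) : Set (List A) :=
  {Q | ∀ x, ∀ P ∈ L1 D x, P ++ Q ∈ XX D ∧ T D x (P ++ Q) = y}

def Good : Set (List A) :=
  {X | X ∈ XX D ∧ ∀ x, ∃ P ∈ L1 D x, ∃ Q ∈ R1 D (T D x X), P ++ Q = X}

def Bad : Set (List A) := {X | X ∈ XX D ∧ X ∉ Good D}

def R2 (y : V) : Set (List A) :=
  {Q | ∀ x, ∀ P ∈ L2 D x, (∃ X1 ∈ Bad D, ∃ X2 ∈ Bad D, P ++ Q = X1 ++ X2 ∧
      T D (T D x X1) X2 = y) ∨ (∃ X ∈ Good D, X <+: P ++ Q) ∨
      (∃ X1 ∈ Bad D, ∃ X2 ∈ Good D, X1 ++ X2 <+: P ++ Q)}

/-- the wall band -/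
def E (X : List A) : Prop :=
  X.length < D.z + D.N1 ∨ ∃ t, D.z ≤ t + D.N1 ∧ t < D.z ∧ D.Wo (X.take t)

/-- **completeness of scheme 1** -/
theorem good_of_not_bad (X : List A) (hX : X ∈ XX D) (hE : ¬ E D X)
    (hB : ¬ D.BadT (X.length - D.p0)) : X ∈ Good D := by
  obtain ⟨hXz, hXw, hXn⟩ := hX
  unfold E at hE
  push Not at hE
  obtain ⟨hE1, hE2⟩ := hE
  have hz := D.hz
  refine ⟨⟨hXz, hXw, hXn⟩, fun x => ?_⟩
  have hl : (X.drop D.p0).length = X.length - D.p0 := List.length_drop
  obtain ⟨P, Q, r, hY, hP, hQ⟩ := D.cmp1 (X.drop D.p0) (by rw [hl]; omega) (by rw [hl]; exact hB)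
    (act x (ph f (X.take D.p0)) + D.nu2 (X.take D.p0))
  have ht : (X.take D.p0).length = D.p0 := by rw [List.length_take]; omega
  have hPl := D.len1 _ _ hP
  have hlen : P.length + Q.length = X.length - D.p0 := by
    rw [← hl, hY, List.length_append]
  have hdrop : ∀ Y : List A, (X.take D.p0 ++ Y).drop D.p0 = Y := fun Y => by
    rw [List.drop_append, List.drop_eq_nil_of_le (le_of_eq ht), ht, Nat.sub_self, List.drop_zero,
      List.nil_append]
  have htake : ∀ Y : List A, (X.take D.p0 ++ Y).take D.p0 = X.take D.p0 := fun Y => by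
    rw [List.take_append, ht, Nat.sub_self, List.take_zero, List.append_nil,
      List.take_of_length_le (le_of_eq ht)]
  have hXe : (X.take D.p0 ++ P) ++ Q = X := by
    rw [List.append_assoc, ← hY, List.take_append_drop]
  have hTX : T D x X = r := by
    unfold T
    rw [hY]
    exact (D.snd1 _ _ _ _ hP hQ).symm
  refine ⟨X.take D.p0 ++ P, ⟨by rw [List.length_append, ht]; omega, ?_⟩, Q, ?_, hXe⟩
  · rw [hdrop, htake]; exact hP
  · intro x' P' hP'
    obtain ⟨hp0, hlam⟩ := hP'
    have hl' := D.len1 _ _ hlam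
    rw [List.length_drop] at hl'
    refine ⟨⟨?_, ?_, ?_⟩, ?_⟩
    · rw [List.length_append]; omega
    · rw [D.loc P' Q (by omega)]
      rw [← hXe, D.loc _ Q (by omega)] at hXw
      exact hXw
    · intro t h1 h2 h3
      rw [List.length_append] at h2
      have e1 : (P' ++ Q).take t = P' ++ Q.take (t - P'.length) := by
        rw [List.take_append, List.take_of_length_le (by omega)]
      have hn : D.n ≤ (Q.take (t - P'.length)).length := by rw [List.length_take]; omega
      rw [e1, D.loc _ _ hn, ← D.loc (X.take D.p0 ++ P) _ hn] at h3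
      have e2 : (X.take D.p0 ++ P) ++ Q.take (t - P'.length) =
          X.take (t - P'.length + (D.p0 + P.length)) := by
        have h9 : X.take (t - P'.length + (D.p0 + P.length)) =
            ((X.take D.p0 ++ P) ++ Q).take (t - P'.length + (D.p0 + P.length)) := by rw [hXe]
        have h10 : (X.take D.p0 ++ P).length = D.p0 + P.length := by
          rw [List.length_append, ht]
        rw [h9]
        generalize X.take D.p0 ++ P = M0 at h10 ⊢
        rw [List.take_append, List.take_of_length_le (l := M0) (by omega), h10]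
        congr 2
        omega
      rw [e2] at h3
      by_cases h4 : D.z ≤ t - P'.length + (D.p0 + P.length)
      · exact hXn _ h4 (by omega) h3
      · exact hE2 _ (by omega) (by omega) h3
    · have e3 : (P' ++ Q).take D.p0 = P'.take D.p0 := by
        rw [List.take_append_of_le_length hp0]
      have e4 : (P' ++ Q).drop D.p0 = P'.drop D.p0 ++ Q := by
        rw [List.drop_append_of_le_length hp0]
      unfold T
      rw [e3, e4, ← D.snd1 _ _ _ _ hlam hQ]
      exact hTX.symm

/-- positions of walls of `W` -/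
def wl (W : List A) (s : ℕ) : Prop := s ≤ W.length ∧ D.Wo (W.take s)

theorem wl_gap (W : List A) (s t : ℕ) (hs : wl D W s) (ht : wl D W t) (h : s < t) :
    D.G < t - s := by
  have e : W.take t = W.take s ++ (W.take t).drop s := by
    have h1 : (W.take t).take s = W.take s := by rw [List.take_take, Nat.min_eq_left h.le]
    conv_lhs => rw [← List.take_append_drop s (W.take t), h1]
  have hl : ((W.take t).drop s).length = t - s := by
    rw [List.length_drop, List.length_take, Nat.min_eq_left ht.1]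
  have := D.gap (W.take s) ((W.take t).drop s) hs.2 (by rw [← e]; exact ht.2)
    (by intro h0; rw [h0] at hl; simp at hl; omega)
  omega

/-- walls of `P' ++ W.drop k` are shifted walls of `W` -/
theorem wl_shift (W P' : List A) (k s : ℕ) (hk : k ≤ W.length) (hs : k + D.n ≤ s)
    (hs' : s ≤ W.length) :
    wl D (P' ++ W.drop k) (s - k + P'.length) ↔ wl D W s := by
  have e1 : (P' ++ W.drop k).take (s - k + P'.length) = P' ++ (W.drop k).take (s - k) := by
    rw [List.take_append, List.take_of_length_le (by omega)]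
    congr 2
    omega
  have e2 : W.take s = W.take k ++ (W.drop k).take (s - k) := by
    have h1 : (W.take s).take k = W.take k := by rw [List.take_take, Nat.min_eq_left (by omega)]
    have h2 : (W.take s).drop k = (W.drop k).take (s - k) := by rw [List.drop_take]
    conv_lhs => rw [← List.take_append_drop k (W.take s), h1, h2]
  have hn : D.n ≤ ((W.drop k).take (s - k)).length := by
    rw [List.length_take, List.length_drop]; omega
  unfold wl
  rw [e1, e2, D.loc _ _ hn, D.loc _ _ hn]
  constructor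
  · rintro ⟨-, h⟩; exact ⟨hs', h⟩
  · rintro ⟨-, h⟩; exact ⟨by rw [List.length_append, List.length_drop]; omega, h⟩

/-- spoiled places -/
def Sp (W : List A) (ta tb k : ℕ) : Prop := ∃ k' < D.K, k' ≠ k ∧
  ((∃ s, wl D W s ∧ |(s : ℤ) + D.c k' - D.c k - D.z| ≤ D.N1) ∨
    D.BadT (ta - D.p0 + D.c k' - D.c k) ∨ D.BadT (tb - D.p0 + D.c k' - D.c k))

theorem card_Sp (W : List A) (ta tb : ℕ) (hta : D.Lam ≤ ta - D.p0) (htb : D.Lam ≤ tb - D.p0)
    (J : Finset ℕ) (hJ : ∀ k ∈ J, k < D.K ∧ Sp D W ta tb k) : J.card ≤ 2 * D.R0 + 1 := by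
  classical
  let pE : ℕ → Prop := fun k => ∃ k' < D.K, k' ≠ k ∧
    ∃ s, wl D W s ∧ |(s : ℤ) + D.c k' - D.c k - D.z| ≤ D.N1
  let pa : ℕ → Prop := fun k => ∃ k' < D.K, k' ≠ k ∧ D.BadT (ta - D.p0 + D.c k' - D.c k)
  let pb : ℕ → Prop := fun k => ∃ k' < D.K, k' ≠ k ∧ D.BadT (tb - D.p0 + D.c k' - D.c k)
  have hsub : J ⊆ J.filter pE ∪ (J.filter pa ∪ J.filter pb) := by
    intro k hk
    obtain ⟨-, k', hk', hne, h | h | h⟩ := hJ k hk
    · exact Finset.mem_union_left _ (Finset.mem_filter.2 ⟨hk, k', hk', hne, h⟩)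
    · exact Finset.mem_union_right _ (Finset.mem_union_left _
        (Finset.mem_filter.2 ⟨hk, k', hk', hne, h⟩))
    · exact Finset.mem_union_right _ (Finset.mem_union_right _
        (Finset.mem_filter.2 ⟨hk, k', hk', hne, h⟩))
  have h1 : (J.filter pE).card ≤ 1 := by
    rw [Finset.card_le_one]
    intro k hk l hl
    rw [Finset.mem_filter] at hk hl
    obtain ⟨hkJ, k', hk', hkne, s, hs, hsE⟩ := hk
    obtain ⟨hlJ, l', hl', hlne, t, ht, htE⟩ := hl
    have hkK := (hJ k hkJ).1
    have hlK := (hJ l hlJ).1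
    have a1 := D.cLam k hkK
    have a2 := D.cLam l hlK
    have a3 := D.cLam k' hk'
    have a4 := D.cLam l' hl'
    have hG := D.hG
    rw [abs_le] at hsE htE
    have hst : s = t := by
      rcases lt_trichotomy s t with h | h | h
      · have := wl_gap D W s t hs ht h; omega
      · exact h
      · have := wl_gap D W t s ht hs h; omega
    subst hst
    refine D.ruler k hkK k' hk' l hlK l' hl' (Ne.symm hkne) (Ne.symm hlne) ?_
    rw [abs_le]
    constructor <;> omega
  have h2 : (J.filter pa).card ≤ D.R0 := D.spoil (ta - D.p0) hta _ fun k hk => by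
    rw [Finset.mem_filter] at hk
    exact ⟨(hJ k hk.1).1, hk.2⟩
  have h3 : (J.filter pb).card ≤ D.R0 := D.spoil (tb - D.p0) htb _ fun k hk => by
    rw [Finset.mem_filter] at hk
    exact ⟨(hJ k hk.1).1, hk.2⟩
  have h4 := Finset.card_le_card hsub
  have h5 := Finset.card_union_le (J.filter pE) (J.filter pa ∪ J.filter pb)
  have h6 := Finset.card_union_le (J.filter pa) (J.filter pb)
  omega

/-- **completeness of scheme 2** (`hC2` of 727 #13375) -/
theorem complete2 (X1 X2 : List A) (h1 : X1 ∈ Bad D) (h2 : X2 ∈ Bad D) (x : V) :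
    ∃ P ∈ L2 D x, ∃ Q ∈ R2 D (T D (T D x X1) X2), P ++ Q = X1 ++ X2 := by
  classical
  obtain ⟨⟨h1z, h1w, h1n⟩, -⟩ := id h1
  obtain ⟨⟨h2z, h2w, h2n⟩, -⟩ := id h2
  have hz := D.hz
  have hG := D.hG
  set W : List A := X1 ++ X2 with hW
  have hWl : W.length = X1.length + X2.length := by rw [hW, List.length_append]
  have w1 : wl D W X1.length := ⟨by omega, by rw [hW, List.take_left' rfl]; exact h1w⟩
  have w2 : wl D W W.length := by
    refine ⟨le_refl _, ?_⟩
    rw [List.take_length, hW, D.loc _ _ (by omega)]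
    exact h2w
  -- the two candidate walls
  have exa : ∃ s, D.z - D.Lam ≤ s ∧ wl D W s := ⟨X1.length, by omega, w1⟩
  set ta := Nat.find exa with hta
  obtain ⟨ta1, ta2⟩ := Nat.find_spec exa
  rw [← hta] at ta1 ta2
  have tale : ta ≤ X1.length := Nat.find_min' exa ⟨by omega, w1⟩
  have exb : ∃ s, ta < s ∧ wl D W s := ⟨W.length, by omega, w2⟩
  set tb := Nat.find exb with htb
  obtain ⟨tb1, tb2⟩ := Nat.find_spec exb
  rw [← htb] at tb1 tb2
  have tagap := wl_gap D W ta tb ta2 tb2 tb1
  -- the exact gadget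
  have hu : (X1.take D.p0).length = D.p0 := by rw [List.length_take]; omega
  obtain ⟨I, hI, hIk⟩ := D.cmp2 (X1.take D.p0) x hu
  obtain ⟨k, hkI, hkS⟩ : ∃ k ∈ I, ¬ Sp D W ta tb k := by
    by_contra hcon
    push Not at hcon
    have := card_Sp D W ta tb (by omega) (by omega) I fun k hk => ⟨(hIk k hk).1, hcon k hk⟩
    omega
  obtain ⟨hkK, hlam, hrho⟩ := hIk k hkI
  obtain ⟨r, hr⟩ := Option.isSome_iff_exists.1 hrho
  have hck := D.cp0 k hkK
  have e0 : (X1.take D.p0).take (D.c k) = X1.take (D.c k) := by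
    rw [List.take_take, Nat.min_eq_left hck]
  rw [e0] at hlam
  have hPl : (X1.take (D.c k)).length = D.c k := by rw [List.length_take]; omega
  have hQe : W.drop (D.c k) = X1.drop (D.c k) ++ X2 := by
    rw [hW, List.drop_append_of_le_length (by omega)]
  refine ⟨X1.take (D.c k), ⟨k, hkK, hPl, hlam⟩, W.drop (D.c k), ?_, ?_⟩
  swap
  · rw [hQe, ← List.append_assoc, List.take_append_drop]
  intro x' P' hP'
  obtain ⟨k', hk'K, hP'l, hlam'⟩ := hP'
  have hck' := D.cp0 k' hk'K
  by_cases hkk : k' = k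
  · -- the same place: the first block has the same length
    subst hkk
    have hX1' : P' ++ X1.drop (D.c k') ∈ XX D := by
      refine ⟨by rw [List.length_append, List.length_drop]; omega, ?_, ?_⟩
      · rw [D.loc _ _ (by rw [List.length_drop]; omega)]
        have e1 := h1w
        rw [← List.take_append_drop (D.c k') X1,
          D.loc _ _ (by rw [List.length_drop]; omega)] at e1
        exact e1
      · intro t ht1 ht2 ht3
        rw [List.length_append, List.length_drop] at ht2
        have h5 := (wl_shift D X1 P' (D.c k') t (by omega) (by omega) (by omega)).1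
          ⟨by rw [List.length_append, List.length_drop]; omega, by
            have : t - D.c k' + P'.length = t := by omega
            rw [this]; exact ht3⟩
        exact h1n t ht1 (by omega) h5.2
    have hT : T D x' (P' ++ X1.drop (D.c k')) = T D x X1 := by
      have e1 : (P' ++ X1.drop (D.c k')).take D.p0 = P' ++ (X1.take D.p0).drop (D.c k') := by
        rw [List.take_append, List.take_of_length_le (by omega), List.drop_take, hP'l]
      have e2 : (P' ++ X1.drop (D.c k')).drop D.p0 = X1.drop D.p0 := by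
        rw [List.drop_append, List.drop_eq_nil_of_le (by omega), List.nil_append, List.drop_drop]
        congr 1
        omega
      have e3 : X1.take D.p0 = X1.take (D.c k') ++ (X1.take D.p0).drop (D.c k') := by
        conv_lhs => rw [← List.take_append_drop (D.c k') (X1.take D.p0), e0]
      unfold T
      rw [e1, e2, ← D.snd2 k' hk'K P' _ x' r hP'l hlam' hr]
      have e4 := D.snd2 k' hk'K (X1.take (D.c k')) _ x r hPl hlam hr
      rw [← e3] at e4
      rw [← e4]
    by_cases hg : P' ++ X1.drop (D.c k') ∈ Good D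
    · right; left
      refine ⟨_, hg, X2, ?_⟩
      rw [hQe, List.append_assoc]
    · left
      refine ⟨_, ⟨hX1', hg⟩, X2, h2, ?_, ?_⟩
      · rw [hQe, List.append_assoc]
      · rw [hT]
  · -- another place: the first block of `P' ++ Q` is good
    right; left
    have hns : ∀ s, wl D W s → ¬ |(s : ℤ) + D.c k' - D.c k - D.z| ≤ D.N1 := fun s hs h =>
      hkS ⟨k', hk'K, hkk, Or.inl ⟨s, hs, h⟩⟩
    have hna : ¬ D.BadT (ta - D.p0 + D.c k' - D.c k) := fun h =>
      hkS ⟨k', hk'K, hkk, Or.inr (Or.inl h)⟩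
    have hnb : ¬ D.BadT (tb - D.p0 + D.c k' - D.c k) := fun h =>
      hkS ⟨k', hk'K, hkk, Or.inr (Or.inr h)⟩
    have b1 := D.cLam k hkK
    have b2 := D.cLam k' hk'K
    set W' : List A := P' ++ W.drop (D.c k) with hW'
    have hW'l : W'.length = D.c k' + (W.length - D.c k) := by
      rw [hW', List.length_append, List.length_drop, hP'l]
    -- shifted walls
    have hsh : ∀ s t, t + D.c k = s + D.c k' → D.c k + D.n ≤ s → s ≤ W.length →
        (wl D W' t ↔ wl D W s) := by
      intro s t e hs hs'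
      have h6 := wl_shift D W P' (D.c k) s (by omega) hs hs'
      have : s - D.c k + P'.length = t := by omega
      rw [this] at h6
      exact h6
    -- the first wall of `W'` behind `z`
    have key : ∃ s, (s = ta ∨ s = tb) ∧ D.z + D.c k ≤ s + D.c k' ∧
        ∀ s', D.c k + D.n ≤ s' → s' < s → D.z + D.c k ≤ s' + D.c k' → ¬ wl D W s' := by
      by_cases hc : D.z + D.c k ≤ ta + D.c k'
      · refine ⟨ta, Or.inl rfl, hc, fun s' _ h7 h8 h9 => ?_⟩
        exact Nat.find_min exa h7 ⟨by omega, h9⟩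
      · refine ⟨tb, Or.inr rfl, by omega, fun s' _ h7 h8 h9 => ?_⟩
        exact Nat.find_min exb h7 ⟨by omega, h9⟩
    obtain ⟨s, hs, hsz, hsmin⟩ := key
    have hsW : wl D W s := by rcases hs with rfl | rfl <;> assumption
    have hsge : D.z - D.Lam ≤ s := by rcases hs with h | h <;> omega
    obtain ⟨t, ht⟩ : ∃ t, t + D.c k = s + D.c k' := ⟨s + D.c k' - D.c k, by omega⟩
    have htW : wl D W' t := (hsh s t ht (by omega) hsW.1).2 hsW
    have hXl : (W'.take t).length = t := by rw [List.length_take, Nat.min_eq_left htW.1]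
    refine ⟨W'.take t, good_of_not_bad D (W'.take t) ⟨by omega, htW.2, ?_⟩ ?_ ?_,
      List.take_prefix _ _⟩
    · intro u hu1 hu2 hu3
      rw [hXl] at hu2
      rw [List.take_take, Nat.min_eq_left hu2.le] at hu3
      have hu4 : wl D W' u := ⟨by have := htW.1; omega, hu3⟩
      have h7 := (hsh (u + D.c k - D.c k') u (by omega) (by omega) (by have := hsW.1; omega)).1 hu4
      exact hsmin _ (by omega) (by omega) (by omega) h7
    · rintro (h7 | ⟨u, hu1, hu2, hu3⟩)
      · rw [hXl] at h7
        refine hns s hsW ?_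
        rw [abs_le]
        constructor <;> omega
      · rw [List.take_take, Nat.min_eq_left (by omega)] at hu3
        have hu4 : wl D W' u := ⟨by have := htW.1; omega, hu3⟩
        have h7 := (hsh (u + D.c k - D.c k') u (by omega) (by omega)
          (by have := hsW.1; omega)).1 hu4
        refine hns _ h7 ?_
        rw [abs_le]
        constructor <;> omega
    · rw [hXl]
      rcases hs with h | h
      · have e5 : t - D.p0 = ta - D.p0 + D.c k' - D.c k := by omega
        rw [e5]
        exact hna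
      · have e5 : t - D.p0 = tb - D.p0 + D.c k' - D.c k := by omega
        rw [e5]
        exact hnb

end Crest.Agent.R320.JointC_649
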