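import Crest.Agent.R320.GridG_19
import Crest.Agent.R320.SemTop_727
import Crest.Agent.R320.Fib_298
import Crest.Agent.R320.Thin_963
import Crest.Agent.R320.ExactR_237
import Crest.Agent.R320.LWallAll_922
import Crest.Agent.R320.RegCongr_253
import Crest.Agent.R320.Fin_869
import Crest.Agent.R320.JointC_649

/-!
Row 320 (S0495): the whole joint (helper649), over landed files.
-/

set_option autoImplicit false

namespace Crest.Agent.R320.Fin_649

open Crest.RegLang Crest.Agent.R320.Hk_851 Crest.Agent.R320.Blk467 Crest.Agent.R320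

/-- from the joint to the fibres -/
theorem fibre_of_dat {α S V : Type} [Finite α] [Monoid S] [Finite S] [AddCommGroup V] [Finite V]
    (act : V → S → V) (hadd : ∀ a b s, act (a + b) s = act a s + act b s)
    (hone : ∀ v, act v 1 = v) (hmul : ∀ v s t, act v (s * t) = act (act v s) t)
    (hfaith : ∀ s t, (∀ v, act v s = act v t) → s = t) (f : α → S)
    (D : JointC_649.Dat f act) (B : ℕ) (hW : Fib_298.WallU D.Wo D.n B)
    (hnu : ∀ y, Language.IsRegular ({Y | D.nu1 Y = y} : Language α)) (s : S) :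
    HL 3 ({w | (w.map f).prod = s} : Language α) := by
  have hz := D.hz
  refine SemTop_727.top (k := 1) act hadd hone hmul hfaith f
    (fun X => act (D.nu2 (X.take D.p0)) ((X.drop D.p0).map f).prod + D.nu1 (X.drop D.p0))
    (⟨JointC_649.XX D, JointC_649.T D, JointC_649.L1 D, JointC_649.L2 D⟩ : SemTop_727.Sch α V)
    ?_ ?_ ?_ ?_ ?_ ?_ ?_ s
  · intro v X
    have h : (X.map f).prod = JointC_649.ph f (X.take D.p0) * JointC_649.ph f (X.drop D.p0) := by
      rw [← JointC_649.ph_append, List.take_append_drop]; rfl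
    change act (act v (JointC_649.ph f (X.take D.p0)) + D.nu2 (X.take D.p0))
      (JointC_649.ph f (X.drop D.p0)) + D.nu1 (X.drop D.p0) =
      act v (X.map f).prod + (act (D.nu2 (X.take D.p0)) (JointC_649.ph f (X.drop D.p0)) +
        D.nu1 (X.drop D.p0))
    rw [h, hmul, hadd, add_assoc]
  · exact Fib_298.pcode_XX (Wo := D.Wo) (z := D.z) (by omega)
  · intro x y
    exact Fib_298.hfib hW (z := D.z) (by omega) act f D.p0 (by omega)
      (fun v X0 => act v (X0.map f).prod + D.nu2 X0) D.nu1 hnu x y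
  · intro x
    refine (List.finite_length_le α (D.p0 + D.N1)).subset ?_
    rintro P ⟨hP1, hP2⟩
    have h := D.len1 _ _ hP2
    rw [List.length_drop] at h
    change P.length ≤ _
    omega
  · intro x
    refine (List.finite_length_le α D.p0).subset ?_
    rintro P ⟨k, hk, hP1, hP2⟩
    change P.length ≤ _
    rw [hP1]
    exact D.cp0 k hk
  · intro X1 h1 X2 h2 x
    exact JointC_649.complete2 D X1 X2 h1 h2 x
  · intro t
    exact HL.mono (by omega) (Fib_298.rest hW (z := D.z) (by omega) f t)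

/-! ### arithmetic -/

theorem sum_pow (κ : ℕ) (hκ : 0 < κ) (i : ℕ) :
    ∑ j ∈ Finset.range (i + 1), 2 ^ (κ * j) ≤ 2 * 2 ^ (κ * i) := by
  induction i with
  | zero => simp
  | succ i ih =>
    rw [Finset.sum_range_succ]
    have h1 : 2 * 2 ^ (κ * i) ≤ 2 ^ (κ * (i + 1)) := by
      rw [← pow_succ']
      exact Nat.pow_le_pow_right (by norm_num) (by rw [Nat.mul_succ]; omega)
    omega

theorem grow (K M i : ℕ) :
    2 ^ (K + 4) * ∑ j ∈ Finset.range (i + 1), M * 2 ^ ((K + 5 + M) * j) ≤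
      2 ^ ((K + 5 + M) * (i + 1)) := by
  rw [← Finset.mul_sum]
  have h1 := sum_pow (K + 5 + M) (by omega) i
  have h2 : M ≤ 2 ^ M := Nat.lt_two_pow_self.le
  have h3 : 2 ^ ((K + 5 + M) * (i + 1)) = 2 ^ (K + 4) * (2 ^ M * (2 * 2 ^ ((K + 5 + M) * i))) := by
    rw [Nat.mul_succ, pow_add, pow_add, pow_add]
    ring
  rw [h3]
  exact Nat.mul_le_mul_left _ (Nat.mul_le_mul h2 h1)

/-- the set of spoiled candidates is small -/
theorem spoil_card {K : ℕ} (Bd : ℤ → Prop) (X : ℤ) (C : ℕ) (T : ℤ)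
    (h : ∀ (_ : DecidablePred fun p : ℕ × ℕ => p.1 ≠ p.2 ∧ Bd (T + X * 2 ^ p.1 - X * 2 ^ p.2)),
      (((Finset.range K) ×ˢ (Finset.range K)).filter (fun p => p.1 ≠ p.2 ∧
        Bd (T + X * 2 ^ p.1 - X * 2 ^ p.2))).card ≤ C)
    (J : Finset ℕ) (hJ : ∀ k ∈ J, k < K ∧ ∃ k' < K, k' ≠ k ∧ Bd (T + X * 2 ^ k' - X * 2 ^ k)) :
    J.card ≤ C := by
  classical
  have h2 : ∀ k ∈ J, ∃ k' < K, k' ≠ k ∧ Bd (T + X * 2 ^ k' - X * 2 ^ k) := fun k hk => (hJ k hk).2
  choose! g hg1 hg2 hg3 using h2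
  refine le_trans ?_ (h (fun _ => Classical.dec _))
  refine Finset.card_le_card_of_injOn (fun k => (g k, k)) ?_ ?_
  · intro k hk
    simp only [Finset.coe_filter, Set.mem_ofPred_eq, Finset.mem_product, Finset.mem_range]
    exact ⟨⟨hg1 k hk, (hJ k hk).1⟩, hg2 k hk, hg3 k hk⟩
  · intro a _ b _ hab
    exact (Prod.ext_iff.1 hab).2

/-- the ruler differences -/
theorem ruler_ok (X N1 : ℤ) (hX : 2 * N1 < X) (hN : 0 ≤ N1) (a a' b b' : ℕ) (h1 : a ≠ a')
    (h2 : b ≠ b')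
    (h : |(X * 2 ^ a' - X * 2 ^ a) - (X * 2 ^ b' - X * 2 ^ b)| ≤ 2 * N1) : a = b := by
  have e : (X * 2 ^ a' - X * 2 ^ a) - (X * 2 ^ b' - X * 2 ^ b) =
    X * (((2:ℤ) ^ a' - 2 ^ a) - (2 ^ b' - 2 ^ b)) := by ring
  rw [e, abs_mul] at h
  have h0 : ((2:ℤ) ^ a' - 2 ^ a) - (2 ^ b' - 2 ^ b) = 0 := by
    by_contra hne
    have h3 : 1 ≤ |((2:ℤ) ^ a' - 2 ^ a) - (2 ^ b' - 2 ^ b)| := Int.one_le_abs hne
    have h4 : |X| = X := abs_of_pos (by linarith)
    rw [h4] at h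
    nlinarith
  exact (G369.pow_diff (Ne.symm h1) (Ne.symm h2) (sub_eq_zero.1 h0)).2

/-- the grid -/
def Gr (κ : ℕ) (i : ℕ) : ℕ := 2 ^ (κ * i)

theorem Gr_pos (κ i : ℕ) : 0 < Gr κ i := by unfold Gr; positivity

theorem bad_conv (κ M m : ℕ) (Ms : Finset ℕ) (T : ℕ)
    (hT : GridG_19.Am (Gr κ) M 0 m ≤ T)
    (h : (∃ q ∈ Ms, q ∣ T) ∨ GridG_19.BadG (Gr κ) M 0 m T) :
    Thin963.BadT Ms m (fun i => (Gr κ i : ℤ)) (fun i => ((M * Gr κ i : ℕ) : ℤ))
      (fun i => (GridG_19.Am (Gr κ) M 0 i : ℤ)) (T : ℤ) := by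
  rcases h with ⟨q, hq, hd⟩ | ⟨k, hk, h⟩
  · exact Or.inl ⟨q, hq, Int.natCast_dvd_natCast.2 hd⟩
  · right
    have hAm : GridG_19.Am (Gr κ) M 0 (k + 1) ≤ T :=
      (GridG_19.Am_mono (Gr κ) M 0 (by omega : k + 1 ≤ m)).trans hT
    refine ⟨k, hk, ?_⟩
    change ∃ e : ℤ, |e| ≤ ((M * Gr κ k : ℕ) : ℤ) ∧
      (Gr κ (k + 1) : ℤ) ∣ (T : ℤ) - (GridG_19.Am (Gr κ) M 0 (k + 1) : ℤ) + e
    generalize GridG_19.Am (Gr κ) M 0 (k + 1) = A at hAm h ⊢
    have hdm := Nat.div_add_mod (T - A) (Gr κ (k + 1))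
    have hlt := Nat.mod_lt (T - A) (Gr_pos κ (k + 1))
    generalize (T - A) % Gr κ (k + 1) = ρ at h hdm hlt
    generalize (T - A) / Gr κ (k + 1) = d at hdm
    generalize M * Gr κ k = C at h ⊢
    generalize Gr κ (k + 1) = g at h hdm hlt ⊢
    have hTA : (T : ℤ) - A = g * d + ρ := by
      rw [← Nat.cast_sub hAm, ← hdm]; push_cast; ring
    rcases h with h | h
    · refine ⟨-(ρ : ℤ), ?_, ⟨(d : ℤ), ?_⟩⟩
      · rw [abs_neg, Nat.abs_cast]; exact_mod_cast h.le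
      · rw [hTA]; ring
    · refine ⟨(g : ℤ) - ρ, ?_, ⟨(d : ℤ) + 1, ?_⟩⟩
      · rw [abs_le]
        constructor <;> omega
      · rw [hTA]; ring

theorem fin (n0 : ℕ) (S : Type) [Monoid S] [Finite S] (f : Fin n0 → S) (s : S) :
    HL 3 ({w | (w.map f).prod = s} : Language (Fin n0)) := by
  classical
  haveI := Fintype.ofFinite S
  obtain ⟨act, hadd, hone, hmul, hfaith⟩ := exists_module S
  obtain ⟨m, r, hgrid⟩ := GridG_19.grid.{0} S (S → ZMod 2) act
  obtain ⟨K, hK⟩ := ExactR_237.exact_gadget (Fin n0) S (S → ZMod 2) f act (2 * (r + m) + 2)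
  obtain ⟨Ms, hcard, hMs, hg⟩ := hgrid (2 ^ (K + 1))
  obtain ⟨M, hM⟩ : ∃ M, M = ∏ q ∈ Ms, q := ⟨_, rfl⟩
  simp only [← hM] at hg
  have hM0 : 0 < M := by rw [hM]; exact Finset.prod_pos fun q hq => (hMs q hq).1.pos
  have h2K : 2 ≤ 2 ^ (K + 1) := by
    calc 2 = 2 ^ 1 := rfl
      _ ≤ 2 ^ (K + 1) := Nat.pow_le_pow_right (by norm_num) (by omega)
  have hodd : ∀ q ∈ Ms, Nat.Coprime q 2 := fun q hq =>
    (Nat.coprime_primes (hMs q hq).1 Nat.prime_two).2 (by have := (hMs q hq).2; omega)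
  obtain ⟨κ, hκ⟩ : ∃ κ, κ = K + 5 + M := ⟨_, rfl⟩
  have hcopG : ∀ k, Nat.Coprime M (Gr κ k) := fun k => by
    rw [hM]
    exact Nat.Coprime.pow_right _ (Nat.Coprime.prod_left fun q hq => hodd q hq)
  have hdvd : ∀ a b, a ≤ b → Gr κ a ∣ Gr κ b := fun a b hab =>
    pow_dvd_pow _ (Nat.mul_le_mul_left _ hab)
  obtain ⟨lam1, rho1, nu1, g1, g2, g3, g4, g5⟩ := hg (Gr κ) 0 (Gr_pos κ) hdvd hcopG (Fin n0)
    (JointC_649.ph f) (JointC_649.ph_append f)
  obtain ⟨A, hA⟩ : ∃ A, A = GridG_19.Am (Gr κ) M 0 m := ⟨_, rfl⟩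
  rw [← hA] at g2 g3 g4
  obtain ⟨N1, hN1⟩ : ∃ N1, N1 = 2 * A + M := ⟨_, rfl⟩
  obtain ⟨X, hX0, hXpos, hthin⟩ := Thin963.thin K m Ms (fun i => (Gr κ i : ℤ))
    (fun i => ((M * Gr κ i : ℕ) : ℤ)) (fun i => (GridG_19.Am (Gr κ) M 0 i : ℤ))
    (fun q hq => ⟨(hMs q hq).1, (hMs q hq).2.le⟩)
    (fun q hq => Nat.isCoprime_iff_coprime.2 (Nat.Coprime.pow_right _ (hodd q hq)))
    (by exact_mod_cast Gr_pos κ m)
    (fun i j hij => Int.natCast_dvd_natCast.2 (hdvd i j hij))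
    (fun i => by exact_mod_cast Nat.mul_pos hM0 (Gr_pos κ i))
    (fun i => Int.natCast_dvd_natCast.2 (Dvd.intro_left _ rfl))
    (fun i _ => by
      have := grow K M i
      rw [← hκ] at this
      exact_mod_cast this) (2 * N1 + 1)
  obtain ⟨X', rfl⟩ := Int.eq_ofNat_of_zero_le hXpos.le
  have hX1 : 2 * N1 + 1 ≤ X' := by exact_mod_cast hX0
  have hmono : ∀ i j, i < j → X' * 2 ^ i < X' * 2 ^ j := fun i j hij =>
    Nat.mul_lt_mul_of_pos_left (Nat.pow_lt_pow_right (by norm_num) hij) (by omega)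
  obtain ⟨lam2, rho2, nu2, e1, e2⟩ := hK (fun j => X' * 2 ^ j) (fun i j hij _ => hmono i j hij)
  obtain ⟨p0, hp0⟩ : ∃ p0, p0 = X' * 2 ^ K := ⟨_, rfl⟩
  have hcp : ∀ k < K, X' * 2 ^ k ≤ p0 := fun k hk => by rw [hp0]; exact (hmono k K hk).le
  have hXle : ∀ k, X' ≤ X' * 2 ^ k := fun k => Nat.le_mul_of_pos_right _ (by positivity)
  obtain ⟨n, G', B, Wo, hLW, hgap, -, -, hfree⟩ :=
    LWallAll_922.walls_all_left (Fin n0) (2 * p0 + 2 * N1 + 1) (by omega)
  let D : JointC_649.Dat f act :=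
    { n := n, G := 2 * p0 + 2 * N1, z := p0 + 3 * N1 + n + 2 * p0 + 1, p0 := p0, N1 := N1
      Lam := p0, K := K, R0 := r + m, Wo := Wo, lam1 := lam1, rho1 := rho1, nu1 := nu1
      BadT := fun T => (∃ q ∈ Ms, q ∣ T) ∨ GridG_19.BadG (Gr κ) M 0 m T
      c := fun j => X' * 2 ^ j, lam2 := lam2, rho2 := fun k Q => rho2 k Q 1
      nu2 := fun w => nu2 w 1
      loc := hLW.app
      gap := fun P Q h1 h2 h3 => by
        have h4 : 0 < Q.length := List.length_pos_iff.2 h3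
        have h5 := hgap (P ++ Q) P.length (P ++ Q).length (by rw [List.length_append]; omega)
          le_rfl (by rw [List.take_left]; exact h1) (by rw [List.take_length]; exact h2)
        rw [List.length_append] at h5
        omega
      hG := le_rfl
      hz := by omega
      cp0 := hcp
      cLam := hcp
      ruler := fun a _ a' _ b _ b' _ h1 h2 h3 => by
        refine ruler_ok (X' : ℤ) (N1 : ℤ) (by omega) (by omega) a a' b b' h1 h2 ?_
        push_cast at h3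
        exact h3
      spoil := fun T hT J hJ => by
        have hsp := spoil_card (K := K) (Thin963.BadT Ms m (fun i => (Gr κ i : ℤ))
          (fun i => ((M * Gr κ i : ℕ) : ℤ)) (fun i => (GridG_19.Am (Gr κ) M 0 i : ℤ))) (X' : ℤ)
          (Ms.card + m) (T : ℤ) (by intro dec; convert hthin T) J
        refine (hsp ?_).trans (by omega)
        · intro k hk
          obtain ⟨h1, k', h2, h3, h4⟩ := hJ k hk
          refine ⟨h1, k', h2, h3, ?_⟩
          have h5 := hcp k h1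
          have h6 := hXle k'
          have h7 := bad_conv κ M m Ms _ (by rw [← hA]; omega) h4
          have h8 : ((T + X' * 2 ^ k' - X' * 2 ^ k : ℕ) : ℤ) =
              (T : ℤ) + X' * 2 ^ k' - X' * 2 ^ k := by
            rw [Nat.cast_sub (by omega)]
            push_cast
            ring
          rw [h8] at h7
          exact h7
      snd1 := fun P Q v r' h1 h2 => g1 P Q v r' h1 h2
      len1 := fun P v h => by have := (g2 P v h).2; omega
      cmp1 := fun Y h1 h2 v => by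
        rw [not_or] at h2
        obtain ⟨P, Q, h3, h4, h5⟩ := g4 Y (by omega) (by omega)
          (fun q hq hd => h2.1 ⟨q, hq, hd⟩) h2.2 v
        obtain ⟨r', h6⟩ := Option.isSome_iff_exists.1 h5
        exact ⟨P, Q, r', h3.symm, h4, h6⟩
      snd2 := fun k hk P Q v r' h1 h2 h3 => by
        have h4 := e1 k hk P Q 1 v r' h1 h2 h3
        rw [mul_one] at h4
        exact h4
      cmp2 := fun u v hu => by
        obtain ⟨I, h1, h2⟩ := e2 u 1 v (fun k hk => by rw [hu]; exact hcp k hk)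
        exact ⟨I, h1, h2⟩ }
  refine fibre_of_dat act hadd hone hmul hfaith f D (B + (2 * p0 + 2 * N1 + 1))
    ⟨hLW.app, hLW.len, fun Y hY => ?_⟩ (fun y => ?_) s
  · obtain ⟨u, x, v, k, h1, h2, h3, h4⟩ := hfree Y hY
    exact ⟨u, x, v, k, h4, by omega, by omega, by omega⟩
  · refine RegCongr_253.regular_of_congr f (GridG_19.Ac (Gr κ) M 0 m) (M * Gr κ m)
      (Nat.mul_pos hM0 (Gr_pos κ m)) _ ?_
    intro q q' h1 h2 h3 h4 h5 h6
    have h7 : JointC_649.ph f q = JointC_649.ph f q' := by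
      rw [← List.take_append_drop (GridG_19.Ac (Gr κ) M 0 m) q,
        ← List.take_append_drop (GridG_19.Ac (Gr κ) M 0 m) q', JointC_649.ph_append,
        JointC_649.ph_append, h3]
      exact congrArg _ h5
    exact (g5 q q' h1 h2 h3 h4 h7).symm.trans h6

end Crest.Agent.R320.Fin_649
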