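import Crest.Agent.R320.Cnt_656
import Crest.Agent.R320.Grid2_656

/-!
Row 320: the instance of helper110's `top_sem` (helper656): all words, natural chain rule,
scheme 1 = helper899's grid gadget, scheme 2 = helper943's promise ruler.
-/

set_option autoImplicit false

namespace Crest.Agent.R320.Fin_656

open Crest.RegLang Crest.Agent.R320.Hk_851 Crest.Agent.R320.Code110 Crest.Agent.R320.Reg_656
  Crest.Agent.R320.P3_943 Crest.Agent.R320.Cnt_656 Crest.Agent.R320.Grid_899

variable {α : Type} {S : Type} [Monoid S]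

/-- the module -/
def act (v : S → ZMod 2) (s : S) : S → ZMod 2 := fun t => v (s * t)

theorem act_mul (v : S → ZMod 2) (s t : S) : act v (s * t) = act (act v s) t := by
  funext x; simp [act, mul_assoc]

theorem act_one (v : S → ZMod 2) : act v (1 : S) = v := by funext x; simp [act]

theorem act_sub (v v' : S → ZMod 2) (s : S) : act (v - v') s = act v s - act v' s := rfl

theorem act_faithful (s t : S) (h : ∀ v : S → ZMod 2, act v s = act v t) : s = t := by
  classical
  by_contra hne
  have h1 := congrFun (h (fun r => if r = s then 1 else 0)) 1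
  have h2 : (if s * 1 = s then (1 : ZMod 2) else 0) = if t * 1 = s then 1 else 0 := h1
  rw [mul_one, mul_one, if_pos rfl, if_neg (Ne.symm hne)] at h2
  exact one_ne_zero h2

theorem main [Finite α] [Finite S] (φ : List α → S) (h0 : φ [] = 1)
    (hφ : ∀ u v, φ (u ++ v) = φ u * φ v) (s : S) : HL 3 ({w | φ w = s} : Language α) := by
  classical
  haveI : Fintype S := Fintype.ofFinite S
  -- parameters
  obtain ⟨k, m, hgrid⟩ := Crest.Agent.R320.Grid2_656.grid_gadget S (S → ZMod 2) act
  obtain ⟨K, hP3⟩ := scheme2 (V := S → ZMod 2) φ h0 hφ act (2 * (k + m) + 2)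
  obtain ⟨q, hq, hcop, κ, hrul⟩ := Crest.Agent.R320.Rul_656.params k m K
  obtain ⟨lam, rho, nu, hloc, hlam, hrho, hsound, hcomp⟩ := hgrid q hq hcop κ α φ hφ
  set Ms := ∏ j, q j with hMs
  have hMpos : 0 < Ms := Finset.prod_pos fun j _ => (hq j).pos
  set N1 := Am Ms κ (m + 1) with hN1
  have hAmm : Am Ms κ m ≤ N1 := Am_mono (Nat.le_succ m)
  obtain ⟨x, hx1, hx2, hx3⟩ := hrul N1
  obtain ⟨nu2, lam2, hP3'⟩ := hP3 x (fun i j hij _ => hx1 i j hij)
  set p0 := x K with hp0
  have hxp : ∀ i < K, x i ≤ p0 := fun i hi => (hx1 i K hi).le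
  set W := 2 * p0 + 2 * N1 with hWdef
  obtain ⟨n, Wo, hwloc, hwlen, hwsep, RR, BB, hwP⟩ := Crest.Agent.R320.WallU_228.walls (α := α) W
  have hLW : LW n Wo := ⟨hwloc, hwlen⟩
  have hsep : ∀ (w : List α) (s t : ℕ), s < t → t ≤ w.length → Wo (w.take s) →
      Wo (w.take t) → W < t - s := by
    intro w s t hst ht hs htt
    by_contra hc
    have hl : (w.take t).length = t := by rw [List.length_take]; omega
    have := hwsep (w.take t) (t - s) htt (by omega) (by omega)
    rw [hl, List.take_take, min_eq_left (by omega)] at this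
    have e : t - (t - s) = s := by omega
    rw [e] at this
    exact this hs
  set z := 2 * p0 + n + 4 * N1 + 1 with hz
  let Bd : ℕ := z + n + 2 * N1 + 1
  let M : ℕ := Ms * G κ m
  have hM : 0 < M := Nat.mul_pos hMpos (G_pos m)
  let T : List α → (S → ZMod 2) → (S → ZMod 2) := fun X v => TT φ act nu2 nu p0 v X
  let Bad : Language α := {X | X ∈ XX z Wo ∧ ¬ GoodX q κ m z N1 p0 Wo X}
  -- invariance
  have emod : ∀ w w' : List α, EE z Wo φ Bd M p0 w w' →
      (w.length - p0) ≡ (w'.length - p0) [MOD M] := by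
    intro w w' h
    have h1 : Bd ≤ w.length := h.l1
    have h2 : Bd ≤ w'.length := h.l2
    apply Nat.ModEq.add_right_cancel' p0
    have hb : p0 ≤ Bd := by show p0 ≤ z + n + 2 * N1 + 1; omega
    rw [Nat.sub_add_cancel (by omega), Nat.sub_add_cancel (by omega)]
    exact h.md
  have etake : ∀ w w' : List α, EE z Wo φ Bd M p0 w w' → ∀ t, t ≤ Bd → w.take t = w'.take t := by
    intro w w' h t ht
    have := congrArg (List.take t) h.tk
    rw [List.take_take, List.take_take, min_eq_left ht] at this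
    exact this
  have hBz : z ≤ Bd := by show z ≤ z + n + 2 * N1 + 1; omega
  have hBn : n ≤ Bd := by show n ≤ z + n + 2 * N1 + 1; omega
  have hBp : p0 ≤ Bd := by omega
  have invXX : ∀ w w' : List α, EE z Wo φ Bd M p0 w w' → (w ∈ XX z Wo ↔ w' ∈ XX z Wo) := by
    intro w w' h
    have h1 := h.l1
    have h2 := h.l2
    show (z ≤ w.length ∧ Wo w ∧ NW z Wo w) ↔ (z ≤ w'.length ∧ Wo w' ∧ NW z Wo w')
    rw [h.wo, h.nw]
    constructor
    · rintro ⟨_, a⟩; exact ⟨by omega, a⟩
    · rintro ⟨_, a⟩; exact ⟨by omega, a⟩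
  have invT : ∀ w w' : List α, EE z Wo φ Bd M p0 w w' → ∀ v, T w v = T w' v := by
    intro w w' h v
    show TT φ act nu2 nu p0 v w = TT φ act nu2 nu p0 v w'
    have h1 := h.l1
    have h2 := h.l2
    have hm1 := emod w w' h
    unfold Crest.Agent.R320.P3_943.TT
    rw [etake w w' h p0 hBp, h.vl]
    congr 1
    refine hloc _ _ ?_ ?_ ?_ ?_ ?_ h.vl
    · rw [List.length_drop]; omega
    · rw [List.length_drop]; omega
    · rw [List.length_drop, List.length_drop]
      exact Nat.ModEq.of_dvd (Dvd.intro_left _ rfl) hm1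
    · rw [List.length_drop, List.length_drop]
      exact Nat.ModEq.of_dvd (Dvd.intro _ rfl) hm1
    · have e1 : ∀ u : List α, (u.drop p0).take (Am Ms κ (m + 1)) =
          (u.take (p0 + Am Ms κ (m + 1))).drop p0 := by
        intro u
        rw [List.drop_take]
        congr 1
        omega
      rw [e1, e1, etake w w' h _ (by omega)]
  have goodT_congr : ∀ T T' : ℕ, N1 ≤ T → N1 ≤ T' → T ≡ T' [MOD M] →
      (GoodT q κ m T → GoodT q κ m T') := by
    intro T T' h1 h2 h3 ⟨g1, g2⟩
    refine ⟨fun j hj => g1 j ?_, fun j hj1 hj2 => ?_⟩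
    · have hd : q j ∣ M := dvd_trans (Finset.dvd_prod_of_mem q (Finset.mem_univ j)) (Dvd.intro _ rfl)
      exact ((Nat.ModEq.of_dvd hd h3).dvd_iff dvd_rfl).2 hj
    · have hA : Am Ms κ j ≤ Am Ms κ (m + 1) := Am_mono (by omega)
      have hd : G κ j ∣ M := dvd_trans (G_dvd hj2) (Dvd.intro_left _ rfl)
      have h4 : (T - Am Ms κ j) ≡ (T' - Am Ms κ j) [MOD G κ j] := by
        apply Nat.ModEq.add_right_cancel' (Am Ms κ j)
        rw [Nat.sub_add_cancel (by omega), Nat.sub_add_cancel (by omega)]
        exact Nat.ModEq.of_dvd hd h3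
      have h5 : (T' - Am Ms κ j) % G κ j = (T - Am Ms κ j) % G κ j := h4.symm
      have h6 := g2 j hj1 hj2
      rw [← hMs] at h6 ⊢
      rw [h5]
      exact h6
  have invGood : ∀ w w' : List α, EE z Wo φ Bd M p0 w w' →
      (GoodX q κ m z N1 p0 Wo w → GoodX q κ m z N1 p0 Wo w') := by
    intro w w' h ⟨g1, g2, g3⟩
    have h1 := h.l1
    have h2 := h.l2
    refine ⟨by omega, fun t ht1 ht2 => ?_, ?_⟩
    · rw [← etake w w' h t (by omega)]
      exact g2 t ht1 ht2
    · exact goodT_congr _ _ (by omega) (by omega) (emod w w' h) g3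
  have esymm : ∀ w w' : List α, EE z Wo φ Bd M p0 w w' → EE z Wo φ Bd M p0 w' w := fun w w' h =>
    ⟨h.l2, h.l1, h.tk.symm, h.wo.symm, h.nw.symm, h.md.symm, h.vl.symm⟩
  have invBad : ∀ w w' : List α, EE z Wo φ Bd M p0 w w' → (w ∈ Bad ↔ w' ∈ Bad) := by
    intro w w' h
    show (w ∈ XX z Wo ∧ ¬ GoodX q κ m z N1 p0 Wo w) ↔ (w' ∈ XX z Wo ∧ ¬ GoodX q κ m z N1 p0 Wo w')
    rw [invXX w w' h]
    have a := invGood w w' h
    have b := invGood w' w (esymm w w' h)
    constructor
    · rintro ⟨c, d⟩; exact ⟨c, fun e => d (b e)⟩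
    · rintro ⟨c, d⟩; exact ⟨c, fun e => d (a e)⟩
  have hl : ∀ Inv : List α → Prop, (∀ w w', EE z Wo φ Bd M p0 w w' → (Inv w ↔ Inv w')) →
      (∀ w, Inv w → NW z Wo w) → HL 1 ({w | Inv w} : Language α) := fun Inv hI hN =>
    hl_inv φ hφ hLW hwP hM hBz hBn hBp Inv hI hN
  have H1 : HL 1 (XX z Wo) := hl (fun w => w ∈ XX z Wo) invXX (fun w hw => hw.2.2)
  have H2 : HL 1 Bad := hl (fun w => w ∈ Bad) invBad (fun w hw => hw.1.2.2)
  have H3 : ∀ a b, HL 1 (ZT (XX z Wo) T a b) := fun a b =>
    hl (fun w => w ∈ XX z Wo ∧ T w a = b)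
      (fun w w' h => by rw [invXX w w' h, invT w w' h]) (fun w hw => hw.1.2.2)
  have H4 : ∀ s, HL 3 ({w | (∀ u ∈ XX z Wo, ¬ u <+: w) ∧ φ w = s} : Language α) := by
    intro s
    refine (hl (fun w => (∀ u ∈ XX z Wo, ¬ u <+: w) ∧ φ w = s) ?_ ?_).mono (by norm_num)
    · intro w w' h
      have h1 := h.l1
      have h2 := h.l2
      rw [noBlock_iff, noBlock_iff, h.wo, h.nw]
      have e : φ w = φ w' := by
        have k1 : w = w.take p0 ++ w.drop p0 := by simp
        have k2 : w' = w'.take p0 ++ w'.drop p0 := by simp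
        rw [k1, k2, hφ, hφ, etake w w' h p0 hBp, h.vl]
      rw [e]
      constructor
      · rintro ⟨⟨a, b⟩, c⟩; exact ⟨⟨a, fun d => b ⟨by omega, d.2⟩⟩, c⟩
      · rintro ⟨⟨a, b⟩, c⟩; exact ⟨⟨a, fun d => b ⟨by omega, d.2⟩⟩, c⟩
    · intro w hw
      exact ((noBlock_iff w).1 hw.1).1
  -- left words
  let L1 : (S → ZMod 2) → Language α := fun v => {P | ∃ X1 p, P = X1 ++ p ∧ X1.length = p0 ∧
    lam p = some (act v (φ X1) + nu2 X1)}
  let L2 : (S → ZMod 2) → Language α := fun v => {P | ∃ i < K, P.length = x i ∧ lam2 i P = some v}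
  have F1 : ∀ v, {p | p ∈ L1 v}.Finite := by
    intro v
    refine (List.finite_length_le α (p0 + N1)).subset ?_
    rintro P ⟨X1, p, rfl, h1, h2⟩
    have := (hlam _ _ h2).1
    show (X1 ++ p).length ≤ p0 + N1
    rw [List.length_append]
    omega
  have F2 : ∀ v, {p | p ∈ L2 v}.Finite := by
    intro v
    refine (List.finite_length_le α p0).subset ?_
    rintro P ⟨i, hi, h1, -⟩
    show P.length ≤ p0
    rw [h1]
    exact hxp i hi
  have hzpos : 0 < z := by omega
  refine Crest.Agent.R320.Top5_110.top_sem (φ := φ) (act := act) (XX := XX z Wo) (Bad := Bad)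
    (T := T) h0 hφ act_one act_mul act_faithful (XX_pc hzpos) (fun u hu => hu.1) ?_ H1 H2 H3 H4
    (N1 := 0) (N2 := 1) F1 F2 ?_ ?_ s
  · -- affine
    intro u _ v v'
    show TT φ act nu2 nu p0 v u - TT φ act nu2 nu p0 v' u = _
    unfold Crest.Agent.R320.P3_943.TT
    have e : φ u = φ (u.take p0) * φ (u.drop p0) := by rw [← hφ, List.take_append_drop]
    rw [e, act_mul, act_sub, act_sub]
    have k : ∀ a b c : S → ZMod 2, act (a + b) (φ (u.drop p0)) + c =
        act a (φ (u.drop p0)) + act b (φ (u.drop p0)) + c := fun a b c => rfl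
    rw [k, k]
    abel
  · -- scheme 1
    intro u hu hnb v t ht
    have ht' : t = [] := by
      rw [pow_zero] at ht
      exact ht
    subst ht'
    have hgood : GoodX q κ m z N1 p0 Wo u := by
      by_contra hc
      exact hnb ⟨hu, hc⟩
    obtain ⟨g1, g2, g3⟩ := hgood
    obtain ⟨h1, h2, h3⟩ := hu
    have hYl : (u.drop p0).length = u.length - p0 := List.length_drop
    obtain ⟨P, Q, e1, e2, e3⟩ := hcomp (u.drop p0) (by rw [hYl]; omega)
      (by rw [hYl]; exact g3.1) (by rw [hYl]; exact g3.2) (act v (φ (u.take p0)) + nu2 (u.take p0))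
    obtain ⟨b, hb⟩ := Option.isSome_iff_exists.1 e3
    have hPl := (hlam P _ e2).1
    have hX1 : (u.take p0).length = p0 := by rw [List.length_take]; omega
    have hue : u = (u.take p0 ++ P) ++ Q := by
      rw [List.append_assoc, ← e1, List.take_append_drop]
    have hul : u.length = p0 + P.length + Q.length := by
      have := congrArg List.length hue
      rw [List.length_append, List.length_append, hX1] at this
      exact this
    refine ⟨u.take p0 ++ P, Q, b, by rw [List.append_nil]; exact hue,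
      ⟨_, P, rfl, hX1, e2⟩, ?_⟩
    intro v' p' hp'
    obtain ⟨X1, P', rfl, hX1', hl'⟩ := hp'
    left
    have hP'l := (hlam P' _ hl').1
    have hwoQ : Wo Q := by
      rw [hue] at h2
      exact (hLW.loc _ Q (by omega)).1 h2
    have hblk : (X1 ++ P') ++ Q ∈ XX z Wo := by
      refine ⟨?_, ?_, ?_⟩
      · rw [List.length_append, List.length_append]; omega
      · exact (hLW.loc _ Q (by omega)).2 hwoQ
      · intro t ht1 ht2 ht3
        rw [List.length_append, List.length_append] at ht2
        obtain ⟨r, rfl⟩ : ∃ r, t = (X1 ++ P').length + r :=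
          ⟨t - (X1 ++ P').length, by rw [List.length_append]; omega⟩
        rw [List.length_append] at ht1 ht2
        rw [List.take_length_add_append] at ht3
        have hwr : Wo (Q.take r) :=
          (hLW.loc _ _ (by rw [List.length_take]; omega)).1 ht3
        have hur : Wo (u.take (p0 + P.length + r)) := by
          have e5 : u.take (p0 + P.length + r) = (u.take p0 ++ P) ++ Q.take r := by
            have e6 : p0 + P.length + r = (u.take p0 ++ P).length + r := by
              rw [List.length_append, hX1]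
            conv_lhs => rw [hue]
            rw [e6, List.take_length_add_append]
          rw [e5]
          exact (hLW.loc _ _ (by rw [List.length_take]; omega)).2 hwr
        by_cases hh : p0 + P.length + r < z
        · exact g2 _ (by omega) hh hur
        · exact h3 _ (by omega) (by omega) hur
    refine ⟨b, Language.mem_mul.2 ⟨(X1 ++ P') ++ Q, ⟨hblk, ?_⟩, [], ⟨rfl, rfl⟩, by simp⟩⟩
    show TT φ act nu2 nu p0 v' ((X1 ++ P') ++ Q) = b
    unfold Crest.Agent.R320.P3_943.TT
    have e7 : ((X1 ++ P') ++ Q).take p0 = X1 := by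
      rw [List.append_assoc, ← hX1', List.take_left]
    have e8 : ((X1 ++ P') ++ Q).drop p0 = P' ++ Q := by
      rw [List.append_assoc, ← hX1', List.drop_left]
    rw [e7, e8]
    exact (hsound P' Q _ b hl' hb).symm
  · -- scheme 2
    intro u hu v t ht
    have ht' : t ∈ Bad := by rw [pow_one] at ht; exact ht
    obtain ⟨R2, -, hs2, hc2⟩ := hP3' p0 (XX z Wo) (fun X => ¬ GoodX q κ m z N1 p0 Wo X) nu hxp
      (fun X hX => by have := hX.1; omega)
      (fun X hX Y hXY => by
        have := XX_pf X hX (X ++ Y) hXY (List.prefix_append X Y)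
        simpa using this.symm)
      (by
        intro u u' Q hlu hup hQ
        obtain ⟨a, b, c⟩ := hQ
        rw [List.length_append] at a
        refine ⟨by rw [List.length_append]; omega, ?_, ?_⟩
        · exact (hLW.loc _ Q (by omega)).2 ((hLW.loc _ Q (by omega)).1 b)
        · intro t ht1 ht2 ht3
          rw [List.length_append] at ht2
          obtain ⟨r, rfl⟩ : ∃ r, t = u'.length + r := ⟨t - u'.length, by omega⟩
          rw [List.take_length_add_append] at ht3
          have h5 : Wo (u ++ Q.take r) := (hLW.loc _ _ (by rw [List.length_take]; omega)).2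
            ((hLW.loc _ _ (by rw [List.length_take]; omega)).1 ht3)
          refine c (u.length + r) (by omega) (by rw [List.length_append]; omega) ?_
          rw [List.take_length_add_append]
          exact h5)
      (by
        intro i hi j hj u u' Q1 X2 h1 h2 h3 h4
        refine exists_block (u ++ (Q1 ++ X2)) ?_ ?_
        · have := h4.1
          rw [List.length_append, List.length_append]; omega
        · rw [← List.append_assoc]
          have := h4.1
          exact (hLW.loc _ X2 (by omega)).2 h4.2.1)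
      (by
        intro X hX X2 hX2 _ I hI hR
        exact count q x hxp hx2 hx3 hLW hsep (le_of_eq rfl) (by rw [← hMs]; omega) hzpos X X2 hX hX2 I hI hR)
    obtain ⟨P, Q, e1, -, e2, e3⟩ := hc2 u hu.1 t ht'.1 hu.2 v
    obtain ⟨b, hb⟩ := Option.isSome_iff_exists.1 e3
    refine ⟨P, Q, b, e1, e2, ?_⟩
    intro v' p' hp'
    show p' ++ Q ∈ Exactly Bad T (1 + 1) v' b ∨ p' ++ Q ∈ Off (XX z Wo) Bad 1
    by_cases hall : ∀ X ∈ XX z Wo, X <+: p' ++ Q → ¬ GoodX q κ m z N1 p0 Wo X
    · obtain ⟨Q1, X2, rfl, -, h1, h2, h3⟩ := hs2 p' v' Q b hp' hb hall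
      have hB1 : p' ++ Q1 ∈ Bad := ⟨h1, hall _ h1 ⟨X2, by simp⟩⟩
      by_cases hB2 : X2 ∈ Bad
      · left
        refine ⟨T (p' ++ Q1) v', Language.mem_mul.2 ⟨p' ++ Q1, ⟨hB1, rfl⟩, X2, ?_, by simp⟩⟩
        exact ⟨b, Language.mem_mul.2 ⟨X2, ⟨hB2, h3⟩, [], ⟨rfl, rfl⟩, by simp⟩⟩
      · right
        right
        refine Language.mem_mul.2 ⟨p' ++ Q1, h1, X2, ⟨X2, h2, hB2, List.prefix_rfl⟩, by simp⟩
    · push Not at hall
      obtain ⟨X, hX, hp, hg⟩ := hall
      right
      left
      exact ⟨X, hX, fun hB => hB.2 hg, hp⟩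

/-- all regular languages over a finite alphabet in `Type` have height at most three -/
theorem regular_hl3 [Finite α] (L : Language α) (hL : L.IsRegular) : HL 3 L :=
  of_monoid (fun S _ _ f s => main (fun w : List α => (w.map f).prod) (by simp)
    (fun a b => by simp) s) L hL

end Crest.Agent.R320.Fin_656
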