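import Crest.Agent.R320.SemTop_727
import Crest.Agent.R320.Sc2n_937
import Crest.Agent.R320.OutRule_480
import Crest.Agent.R320.ExactR_237
import Crest.Agent.R320.Reg_236

/-!
# Row 320: the row from one gadget on words (helper666)

Assembly of 727's semantic top, 937's block form of the two schemes, 480's outer walls and 237's
exact gadget: everything except the pure gadget on words with a ruler (`Gad`).
-/

set_option autoImplicit false

namespace Crest.Agent.R320.Fin_666

open Crest.RegLang Crest.Agent.R320.Hk_851 Crest.Agent.R320.SemTop_727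
  Crest.Agent.R320.Sc2n_937 Crest.Agent.R320.Reg_236

variable {α S V : Type} [Monoid S] [AddCommGroup V]

/-- regular -/
abbrev Rg (L : Language α) : Prop := L.IsRegular

/-- product of a word -/
abbrev pr (f : α → S) (w : List α) : S := (w.map f).prod

/-- the gadget on words together with a ruler of `K` places -/
structure Gad (act : V → S → V) (f : α → S) (C0 K : ℕ) where
  N1 : ℕ
  T0 : ℕ
  c : ℕ → ℕ
  BadT : ℕ → Prop
  lam : List α → Option V
  rho : List α → Option V
  nu : List α → V
  hN1 : 0 < N1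
  mono : ∀ i j, i < j → j < K → c i < c j
  sp : ∀ k k' l l', k < K → k' < K → l < K → l' < K → k' ≠ k → l' ≠ l →
      c k + c l' < c l + c k' + 2 * N1 → c l + c k' < c k + c l' + 2 * N1 → k = l
  thin : ∀ T, T0 ≤ T → (∀ k, k < K → c k ≤ T) → ∀ J : Finset ℕ,
      (∀ k ∈ J, k < K ∧ ∃ k', k' < K ∧ k' ≠ k ∧ BadT (T + c k' - c k)) → J.card ≤ C0
  len : ∀ P v, lam P = some v → P.length ≤ N1
  sound : ∀ P Q v b, lam P = some v → rho Q = some b →
      b = act v (pr f (P ++ Q)) + nu (P ++ Q)
  complete : ∀ Y, T0 ≤ Y.length → ¬ BadT Y.length → ∀ v,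
      ∃ P Q, Y = P ++ Q ∧ lam P = some v ∧ (rho Q).isSome
  reg : ∀ v, Rg ({Y | nu Y = v} : Language α)

/-! ### regular languages -/

theorem reg_congr {L M : Language α} (h : Rg L) (e : ∀ w, w ∈ L ↔ w ∈ M) :
    Rg M := by
  have : L = M := by ext w; exact e w
  rw [← this]; exact h

theorem reg_iUnion {ι : Type} [Finite ι] {L : ι → Language α} (h : ∀ i, Rg (L i)) :
    Rg ({w | ∃ i, w ∈ L i} : Language α) := by
  classical
  have key : ∀ s : Finset ι, Rg ({w | ∃ i ∈ s, w ∈ L i} : Language α) := by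
    intro s
    induction s using Finset.induction_on with
    | empty =>
      refine reg_congr (isRegular_zero (α := α)) fun w => ?_
      constructor
      · intro h; exact absurd h (Language.notMem_zero w)
      · rintro ⟨i, hi, _⟩; exact absurd hi (Finset.notMem_empty i)
    | @insert i s _ ih =>
      refine reg_congr ((h i).add ih) fun w => ?_
      constructor
      · rintro (h | ⟨j, hj, h⟩)
        · exact ⟨i, Finset.mem_insert_self i s, h⟩
        · exact ⟨j, Finset.mem_insert_of_mem hj, h⟩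
      · rintro ⟨j, hj, h⟩
        rcases Finset.mem_insert.1 hj with rfl | hj
        · exact Or.inl h
        · exact Or.inr ⟨j, hj, h⟩
  haveI := Fintype.ofFinite ι
  refine reg_congr (key Finset.univ) fun w => ?_
  constructor
  · rintro ⟨i, _, h⟩; exact ⟨i, h⟩
  · rintro ⟨i, h⟩; exact ⟨i, Finset.mem_univ i, h⟩

theorem reg_pr [Finite S] (f : α → S) (s : S) :
    Rg ({w | pr f w = s} : Language α) := by
  classical
  have := Fintype.ofFinite S
  refine Language.isRegular_iff.2 ⟨S, inferInstance, ⟨fun s a => s * f a, 1, {s}⟩, ?_⟩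
  have key : ∀ (w : List α) (t : S),
      (⟨fun s a => s * f a, 1, {s}⟩ : DFA α S).evalFrom t w = t * (w.map f).prod := by
    intro w
    induction w with
    | nil => intro t; simp [DFA.evalFrom]
    | cons a w ih =>
      intro t
      rw [List.map_cons, List.prod_cons, ← mul_assoc]
      exact ih (t * f a)
  ext w
  change (⟨fun s a => s * f a, 1, {s}⟩ : DFA α S).evalFrom 1 w ∈ ({s} : Set S) ↔ pr f w = s
  rw [key, one_mul]
  exact Iff.rfl

/-! ### the blocks -/

theorem hl_Wo [Finite α] {n : ℕ} {Wo : List α → Prop} (hlen : ∀ P, Wo P → n ≤ P.length)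
    (hloc : ∀ P Q : List α, n ≤ Q.length → (Wo (P ++ Q) ↔ Wo Q)) :
    HL 0 ({w | Wo w} : Language α) := by
  have hfin : ({Q : List α | Q.length = n ∧ Wo Q}).Finite :=
    (List.finite_length_eq α n).subset fun w h => h.1
  refine ((HL.top (k := 0) (α := α)).mul (HL.finite hfin)).congr fun w => Iff.symm ?_
  constructor
  · intro h
    obtain ⟨P, _, Q, ⟨h1, h2⟩, rfl⟩ := Language.mem_mul.1 h
    exact (hloc P Q h1.ge).2 h2
  · intro h
    have h' : Wo w := h
    have hl := hlen w h'
    have hdl : (w.drop (w.length - n)).length = n := by rw [List.length_drop]; omega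
    refine Language.mem_mul.2 ⟨w.take (w.length - n), trivial, w.drop (w.length - n), ⟨hdl, ?_⟩,
      List.take_append_drop _ _⟩
    rw [← hloc (w.take (w.length - n)) _ hdl.ge, List.take_append_drop]
    exact h'

theorem hl_XX [Finite α] (g : Geo α) (hlen : ∀ P, g.Wo P → g.n ≤ P.length) :
    HL 0 ({X | g.XX X} : Language α) := by
  have hW := hl_Wo hlen g.loc
  have hz : HL 0 ({w : List α | g.z ≤ w.length} : Language α) := HL.length_ge g.z
  have hne : HL 0 ((1 : Language α)ᶜ) := HL.one.compl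
  have hB : HL 0 (({w : List α | g.z ≤ w.length} ⊓ {w | g.Wo w} : Language α) *
      (1 : Language α)ᶜ) := (hz.inf hW).mul hne
  refine ((hz.inf hW).inf hB.compl).congr fun w => Iff.symm ?_
  constructor
  · rintro ⟨⟨h1, h2⟩, h3⟩
    refine ⟨h1, h2, fun t ht htl hw => h3 ?_⟩
    refine Language.mem_mul.2 ⟨w.take t, ⟨?_, hw⟩, w.drop t, ?_, List.take_append_drop _ _⟩
    · change g.z ≤ (w.take t).length
      rw [List.length_take]; omega
    · intro h
      have h' : w.drop t = [] := h
      have := congrArg List.length h'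
      rw [List.length_drop] at this
      simp at this
      omega
  · rintro ⟨h1, h2, h3⟩
    refine ⟨⟨h1, h2⟩, fun h => ?_⟩
    obtain ⟨P, ⟨hP1, hP2⟩, Q, hQ, rfl⟩ := Language.mem_mul.1 h
    have hP1' : g.z ≤ P.length := hP1
    have hP2' : g.Wo P := hP2
    have hQne : Q ≠ [] := fun e => hQ e
    have hQl : 0 < Q.length := List.length_pos_iff.2 hQne
    refine h3 P.length hP1' (by rw [List.length_append]; omega) ?_
    rw [List.take_left]
    exact hP2'

/-! ### the assembly -/

theorem of_gad [Finite α] [Finite S] [Finite V] (act : V → S → V)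
    (hadd : ∀ a b s, act (a + b) s = act a s + act b s)
    (hone : ∀ v, act v 1 = v) (hmul : ∀ v s t, act v (s * t) = act (act v s) t)
    (hfaith : ∀ s t, (∀ v, act v s = act v t) → s = t) (f : α → S)
    (hG : ∃ C0, ∀ K, Nonempty (Gad act f C0 K)) (s : S) :
    HL 3 ({w | (w.map f).prod = s} : Language α) := by
  classical
  haveI := Fintype.ofFinite S
  haveI := Fintype.ofFinite V
  obtain ⟨C0, hG⟩ := hG
  obtain ⟨K, hK⟩ := ExactR_237.exact_gadget α S V f act (2 * C0 + 2)
  obtain ⟨G⟩ := hG K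
  obtain ⟨lam2, rho2, nu2, hs2, hc2⟩ := hK G.c G.mono
  obtain ⟨p0, hcp⟩ : ∃ p0 : ℕ, ∀ k, k < K → G.c k ≤ p0 :=
    ⟨(Finset.range K).sup G.c, fun k hk => Finset.le_sup (f := G.c) (Finset.mem_range.2 hk)⟩
  obtain ⟨n, Wo, hn, hWlen, hWloc, hWgap, hWHL⟩ :=
    OutRule_480.outer_rule_left (α := α) (2 * p0 + 2 * G.N1 + 1)
  obtain ⟨q0, hq0⟩ : ∃ q0 : ℕ, q0 = n + 2 * p0 + G.T0 := ⟨_, rfl⟩
  obtain ⟨g, hg1, hg2, hg3, hg4, hg5, hg6⟩ : ∃ g : Geo α, g.Wo = Wo ∧ g.n = n ∧
      g.z = p0 + G.N1 + q0 ∧ g.p0 = p0 ∧ g.q0 = q0 ∧ g.N1 = G.N1 :=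
    ⟨{ Wo := Wo, n := n, z := p0 + G.N1 + q0, p0 := p0, q0 := q0, N1 := G.N1
       loc := hWloc, hz := rfl, hq := by omega, hN := G.hN1, hqp := by omega },
      rfl, rfl, rfl, rfl, rfl, rfl⟩
  let pre : List α → V → V := fun X v => act v (pr f X) + nu2 X 1
  let post : V → List α → V := fun u Y => act u (pr f Y) + G.nu Y
  let D : Sch α V :=
    { XX := {X | g.XX X}
      T := g.T pre post
      L1 := fun v => {P | g.LP1 pre G.lam v P}
      L2 := fun v => {P | Geo.LP2 K G.c lam2 v P} }
  have hlen1 : ∀ P v, G.lam P = some v → P.length ≤ g.N1 := by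
    intro P v h
    rw [hg6]
    exact G.len P v h
  have hex1 : ∀ P Q u b, G.lam P = some u → G.rho Q = some b → b = post u (P ++ Q) :=
    fun P Q u b h1 h2 => G.sound P Q u b h1 h2
  -- good blocks
  have hgood : ∀ X, g.XX X → ¬ g.BadX G.BadT X → X ∈ D.Good := by
    intro X hX hB
    refine ⟨hX, fun x => ?_⟩
    have hz := hX.1
    obtain ⟨P, Q, b, e, hP, hQ⟩ := g.complete1 pre (lam := G.lam) (rho := G.rho) hlen1 hX
      (fun h => hB (Or.inl h)) (fun u => G.complete (X.drop g.p0)
        (by rw [List.length_drop]; omega)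
        (by rw [List.length_drop]; exact fun h => hB (Or.inr h)) u) x
    refine ⟨P, hP, Q, ?_, e.symm⟩
    intro x' P' hP'
    have h1 := g.sound1 pre post hlen1 hex1 hP' hQ
    have h2 := g.sound1 pre post hlen1 hex1 hP hQ
    refine ⟨h1.1, ?_⟩
    change g.T pre post x' (P' ++ Q) = g.T pre post x X
    rw [h1.2, e, h2.2]
  have hbad : ∀ X, X ∈ D.Bad → g.XX X ∧ g.BadX G.BadT X := by
    intro X hX
    refine ⟨hX.1, ?_⟩
    by_contra h
    exact hX.2 (hgood X hX.1 h)
  have hcp' : ∀ k, k < K → G.c k ≤ g.p0 := by rw [hg4]; exact hcp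
  have hex2 : ∀ k, k < K → ∀ P Q v u, P.length = G.c k → Q.length = g.p0 - G.c k →
      lam2 k P = some v → (fun k Q => rho2 k Q 1) k Q = some u → u = pre (P ++ Q) v := by
    intro k hk P Q v u hP _ h1 h2
    have := hs2 k hk P Q 1 v u hP h1 h2
    rw [mul_one] at this
    exact this
  have hgap : ∀ P Q : List α, g.Wo P → g.Wo (P ++ Q) → Q ≠ [] →
      2 * g.p0 + 2 * g.N1 < Q.length := by
    intro P Q h1 h2 h3
    rw [hg1] at h1 h2
    have h4 := hWgap (P ++ Q) Q.length h2 (List.length_pos_iff.2 h3)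
      (by rw [List.length_append]; omega) (by
        rw [List.length_append, Nat.add_sub_cancel, List.take_left]; exact h1)
    rw [hg4, hg6]
    omega
  have hthin : ∀ τ, g.z ≤ τ + g.p0 → ∀ J : Finset ℕ, (∀ k ∈ J, k < K ∧
      ∃ k', k' < K ∧ k' ≠ k ∧ G.BadT (τ + G.c k' - G.c k - g.p0)) → J.card ≤ C0 := by
    intro τ hτ J hJ
    rw [hg3, hg4] at hτ
    refine G.thin (τ - p0) (by omega) (fun k hk => by have := hcp k hk; omega) J ?_
    intro k hk
    obtain ⟨h1, k', h2, h3, h4⟩ := hJ k hk
    refine ⟨h1, k', h2, h3, ?_⟩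
    have := hcp k h1
    rw [hg4] at h4
    have e : τ - p0 + G.c k' - G.c k = τ + G.c k' - G.c k - p0 := by omega
    rw [e]; exact h4
  have hsp : ∀ k k' l l', k < K → k' < K → l < K → l' < K → k' ≠ k → l' ≠ l →
      G.c k + G.c l' < G.c l + G.c k' + 2 * g.N1 → G.c l + G.c k' < G.c k + G.c l' + 2 * g.N1 →
      k = l := by
    rw [hg6]; exact G.sp
  -- completeness of scheme 2
  have hC2 : ∀ X1 ∈ D.Bad, ∀ X2 ∈ D.Bad, ∀ x, ∃ P ∈ D.L2 x, ∃ Q ∈ D.R2 (D.T (D.T x X1) X2),
      P ++ Q = X1 ++ X2 := by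
    intro X1 h1 X2 h2 x
    obtain ⟨hX1, hB1⟩ := hbad X1 h1
    obtain ⟨hX2, hB2⟩ := hbad X2 h2
    have hzX := hX1.1
    have hI : ∃ I : Finset ℕ, 2 * C0 + 2 ≤ I.card ∧ ∀ k ∈ I, k < K ∧
        lam2 k (X1.take (G.c k)) = some x ∧
        ((fun k Q => rho2 k Q 1) k ((X1.take g.p0).drop (G.c k))).isSome := by
      obtain ⟨I, hI, hIk⟩ := hc2 (X1.take g.p0) 1 x (fun k hk => by
        have := hcp' k hk
        rw [List.length_take]; omega)
      refine ⟨I, hI, fun k hk => ?_⟩
      obtain ⟨h3, h4, h5⟩ := hIk k hk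
      refine ⟨h3, ?_, h5⟩
      rw [List.take_take, Nat.min_eq_left (hcp' k h3)] at h4
      exact h4
    obtain ⟨P, Q, b, e, hP, hQ⟩ := g.complete2 pre post (lam2 := lam2)
      (rho2 := fun k Q => rho2 k Q 1) hcp' hgap hsp hthin hX1 hX2 x hI
    refine ⟨P, hP, Q, ?_, e⟩
    have hb : g.T pre post (g.T pre post x X1) X2 = b := by
      obtain ⟨X2', _, h4, h5⟩ := g.sound2 pre post (R := []) (R' := X2) hcp' hex2 hX1 hB1 hP hQ
        (by rw [List.append_nil]; exact e)
      rw [e] at h4
      have : X2 = X2' := List.append_cancel_left h4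
      rw [this]; exact h5
    change Q ∈ D.R2 (g.T pre post (g.T pre post x X1) X2)
    rw [hb]
    intro x' P' hP'
    have hP'0 := hP'
    obtain ⟨k0, hk0, hPl, hl⟩ := hP'
    have hQ0 := hQ
    obtain ⟨k, hk, l, hend, hgd, hXl, u, hr, hbb⟩ := hQ
    by_cases hkk : k0 = k
    · subst hkk
      have hX' : g.XX (P' ++ Q.take l) := g.xx_of_cend (by rw [hPl]; exact hcp' k0 hk0)
        (by rw [hPl]; exact hend)
      have hcat : P' ++ Q = P' ++ Q.take l ++ Q.drop l := by
        rw [List.append_assoc, List.take_append_drop]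
      by_cases hG1 : (P' ++ Q.take l) ∈ D.Good
      · exact Or.inr (Or.inl ⟨_, hG1, by rw [hcat]; exact List.prefix_append _ _⟩)
      · by_cases hG2 : Q.drop l ∈ D.Good
        · exact Or.inr (Or.inr ⟨_, ⟨hX', hG1⟩, _, hG2, by rw [← hcat]⟩)
        · obtain ⟨X2', _, h4, h5⟩ := g.sound2 pre post (R := []) (R' := Q.drop l) hcp' hex2 hX'
            (hbad _ ⟨hX', hG1⟩).2 hP'0 hQ0 (by rw [List.append_nil]; exact hcat)
          rw [hcat] at h4
          have : Q.drop l = X2' := List.append_cancel_left h4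
          refine Or.inl ⟨_, ⟨hX', hG1⟩, _, ⟨hXl, hG2⟩, hcat, ?_⟩
          rw [this]; exact h5
    · obtain ⟨l', he', hg'⟩ := hgd k0 hk0 hkk
      have hX' : g.XX (P' ++ Q.take l') := g.xx_of_cend (by rw [hPl]; exact hcp' k0 hk0)
        (by rw [hPl]; exact he')
      have hnb : ¬ g.BadX G.BadT (P' ++ Q.take l') := by
        intro hb'
        have := g.cbad_of_bad (BadT := G.BadT) (P := P') (Q := Q) (l := l')
          (by rw [hPl]; exact hcp' k0 hk0) (by rw [hPl]; exact he') hb'
        rw [hPl] at this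
        exact hg' this
      refine Or.inr (Or.inl ⟨_, hgood _ hX' hnb, ?_⟩)
      refine ⟨Q.drop l', ?_⟩
      rw [List.append_assoc, List.take_append_drop]
  -- heights
  have hXXlen : ∀ P, g.Wo P → g.n ≤ P.length := by rw [hg1, hg2]; exact hWlen
  have hXX0 : HL 0 ({X | g.XX X} : Language α) := hl_XX g hXXlen
  have hpost : ∀ u y : V, Rg ({Y | post u Y = y} : Language α) := by
    intro u y
    refine reg_congr (reg_iUnion (ι := {p : S × V // act u p.1 + p.2 = y})
      (L := fun p => ({Y | pr f Y = p.1.1} ⊓ {Y | G.nu Y = p.1.2} : Language α))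
      (fun p => (reg_pr f p.1.1).inf (G.reg p.1.2))) fun w => ?_
    constructor
    · rintro ⟨⟨p, hp⟩, h1, h2⟩
      have h1' : pr f w = p.1 := h1
      have h2' : G.nu w = p.2 := h2
      change act u (pr f w) + G.nu w = y
      rw [h1', h2']; exact hp
    · intro h
      exact ⟨⟨(pr f w, G.nu w), h⟩, rfl, rfl⟩
  have hfibreg : ∀ x y, Rg (D.fib x y) := by
    intro x y
    haveI : Finite {X0 : List α // X0.length = g.p0} :=
      (List.finite_length_eq α g.p0).to_subtype
    have h2 := reg_iUnion (ι := {X0 : List α // X0.length = g.p0})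
      (L := fun X0 => (toL {X0.1}) * (toL {Y | post (pre X0.1 x) Y = y}))
      (fun X0 => isRegular_mul (HL.isRegular (HL.word (k := 0) X0.1)) (hpost _ _))
    refine reg_congr ((HL.isRegular hXX0).inf h2) fun w => ?_
    constructor
    · rintro ⟨h1, X0, h3⟩
      refine ⟨h1, ?_⟩
      obtain ⟨P, hP, Y, hY, e⟩ := Language.mem_mul.1 h3
      have hP' : P = X0.1 := hP
      subst hP'
      have hl0 := X0.2
      change post (pre (w.take g.p0) x) (w.drop g.p0) = y
      rw [← e, List.take_left' hl0, List.drop_left' hl0]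
      exact hY
    · rintro ⟨h1, h3⟩
      have h1' : g.XX w := h1
      have hz := h1'.1
      have hlt : (w.take g.p0).length = g.p0 := by rw [List.length_take]; omega
      refine ⟨h1, ⟨w.take g.p0, hlt⟩, ?_⟩
      exact Language.mem_mul.2 ⟨w.take g.p0, rfl, w.drop g.p0, h3, List.take_append_drop _ _⟩
  have hfib : ∀ x y, HL 1 (D.fib x y) := by
    intro x y
    refine hWHL (g.z + 1) _ (hfibreg x y) ?_
    intro w hw F hF
    have hX : g.XX w := hw.1
    have hsub : F ⊆ insert w.length (Finset.range g.z) := by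
      intro t ht
      obtain ⟨h1, h2⟩ := hF t ht
      rw [Finset.mem_insert, Finset.mem_range]
      by_contra hcon
      push Not at hcon
      refine hX.2.2 t hcon.2 (by omega) ?_
      rw [hg1]; exact h2
    have h3 := Finset.card_le_card hsub
    have h4 := Finset.card_insert_le w.length (Finset.range g.z)
    rw [Finset.card_range] at h4
    omega
  have htail : ∀ s, HL (1 + 2) ({w | (∀ X ∈ D.XX, ¬ X <+: w) ∧ (w.map f).prod = s} :
      Language α) := by
    intro s
    refine HL.mono (by omega) (hWHL g.z _ ?_ ?_)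
    · have h1 : HL 0 ({w | ∃ v ∈ ({X | g.XX X} : Language α), v <+: w} : Language α)ᶜ :=
        (HL.prefix hXX0).compl
      refine reg_congr ((HL.isRegular h1).inf (reg_pr f s)) fun w => ?_
      constructor
      · rintro ⟨h2, h3⟩
        exact ⟨fun X hX hp => h2 ⟨X, hX, hp⟩, h3⟩
      · rintro ⟨h2, h3⟩
        exact ⟨fun ⟨X, hX, hp⟩ => h2 X hX hp, h3⟩
    · intro w hw F hF
      have hsub : F ⊆ Finset.range g.z := by
        intro t ht
        rw [Finset.mem_range]
        by_contra hcon
        push Not at hcon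
        obtain ⟨h1, h2⟩ := hF t ht
        have hex : ∃ t, g.z ≤ t ∧ t ≤ w.length ∧ g.Wo (w.take t) :=
          ⟨t, hcon, h1, by rw [hg1]; exact h2⟩
        have hsp1 := Nat.find_spec hex
        have hmin : ∀ m, m < Nat.find hex → ¬ (g.z ≤ m ∧ m ≤ w.length ∧ g.Wo (w.take m)) :=
          fun m hm => Nat.find_min hex hm
        refine hw.1 (w.take (Nat.find hex)) ?_ (List.take_prefix _ _)
        refine ⟨?_, hsp1.2.2, ?_⟩
        · rw [List.length_take]
          exact le_min hsp1.1 (hsp1.1.trans hsp1.2.1)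
        · intro m hm1 hm2 hm3
          rw [List.length_take] at hm2
          have hm2' : m < Nat.find hex := lt_of_lt_of_le hm2 (min_le_left _ _)
          rw [List.take_take, Nat.min_eq_left hm2'.le] at hm3
          exact hmin m hm2' ⟨hm1, by omega, hm3⟩
      have h3 := Finset.card_le_card hsub
      rwa [Finset.card_range] at h3
  have hL1 : ∀ x, (D.L1 x).Finite := by
    intro x
    refine (List.finite_length_le α (g.p0 + g.N1)).subset fun P hP => ?_
    obtain ⟨h1, h2⟩ := hP
    have h3 := hlen1 _ _ h2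
    rw [List.length_drop] at h3
    change P.length ≤ g.p0 + g.N1
    omega
  have hL2 : ∀ x, (D.L2 x).Finite := by
    intro x
    refine (List.finite_length_le α g.p0).subset fun P hP => ?_
    obtain ⟨k, h1, h2, _⟩ := hP
    have := hcp' k h1
    change P.length ≤ g.p0
    omega
  have hPC : Blk467.PCode D.XX := by
    refine ⟨?_, ?_⟩
    · intro h
      have h' : g.XX [] := h
      have h1 := h'.1
      have h2 := G.hN1
      simp only [List.length_nil] at h1
      omega
    · rintro X hX Y hY ⟨R, hR⟩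
      exact g.prefix_code (R := R) (R' := []) hX hY (by rw [hR, List.append_nil])
  exact top act hadd hone hmul hfaith f
    (fun X => act (nu2 (X.take g.p0) 1) (pr f (X.drop g.p0)) + G.nu (X.drop g.p0)) D
    (by
      intro v X
      change act (act v (pr f (X.take g.p0)) + nu2 (X.take g.p0) 1) (pr f (X.drop g.p0)) +
        G.nu (X.drop g.p0) = _
      rw [hadd, ← hmul, ← List.prod_append, ← List.map_append, List.take_append_drop, add_assoc])
    hPC hfib hL1 hL2 hC2 htail s

end Crest.Agent.R320.Fin_666
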