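import Crest.Agent.R320.Asm_667
import Crest.Agent.R320.GridG_19
import Crest.Agent.R320.P4N_211
import Crest.Agent.R320.GridRuler_896
import Crest.Agent.R320.Univ_294

/-!
# Row 320: constants and join (helper667)
-/

set_option autoImplicit false
set_option linter.unusedSectionVars false

namespace Crest.Agent.R320.Fin_667

open Crest.RegLang Crest.Agent.R320.Hk_851 Crest.Agent.R320.Blk467 Crest.Agent.R320.Asm_667

theorem take_cases {α : Type} {K : ℕ} {X X' : List α} (h : X.take K = X'.take K) :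
    X = X' ∨ (K ≤ X.length ∧ K ≤ X'.length) := by
  have h1 := congrArg List.length h
  rw [List.length_take, List.length_take] at h1
  by_cases hX : X.length < K
  · left
    have hX' : X'.length < K := by omega
    rwa [List.take_of_length_le (by omega), List.take_of_length_le (by omega)] at h
  · right
    omega

theorem take_le {α : Type} {K t : ℕ} {X X' : List α} (h : X.take K = X'.take K) (ht : t ≤ K) :
    X.take t = X'.take t := by
  have := congrArg (List.take t) h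
  rwa [List.take_take, List.take_take, Nat.min_eq_left ht] at this

section heights

variable {α S V : Type} [Finite α] [Monoid S] [Finite S] [AddCommGroup V] [Finite V]
variable (φ : α → S) (act : V → S → V) (Wo : List α → Prop)
  (n z N1 p0 K : ℕ) (c : ℕ → ℕ) (Bad : ℕ → Prop)
  (lam1 : List α → Option V) (nu1 nu2 : List α → V)
  (lam2 : ℕ → List α → Option V)

/-- blocks with given status and value -/
theorem h_all (hloc : ∀ P Q : List α, n ≤ Q.length → (Wo (P ++ Q) ↔ Wo Q))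
    (hlen : ∀ P : List α, Wo P → n ≤ P.length) {R B : ℕ}
    (pcs : ∀ u : List α, (∀ t < u.length, ¬ Wo (u.take t)) → CompR_11.Pieces R B u)
    (A Mm : ℕ) (hMm : 0 < Mm)
    (hBadp : ∀ T T', A ≤ T → A ≤ T' → T % Mm = T' % Mm → (Bad T ↔ Bad T'))
    (hnu : ∀ Y Y' : List α, A ≤ Y.length → A ≤ Y'.length → Y.take A = Y'.take A →
      Y.length % Mm = Y'.length % Mm → ph φ Y = ph φ Y' → nu1 Y = nu1 Y')
    (v : V) (q : Prop × V) :
    HL 1 ({X | X ∈ XXn Wo z ∧
      ((EB Wo z N1 X ∨ Bad (X.length - p0) : Prop), TT φ act p0 nu1 nu2 v X) = q} :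
      Language α) := by
  refine P4N_211.hXT' (φ := ph φ) (ph_append φ) hloc hlen pcs
    (fun X => ((EB Wo z N1 X ∨ Bad (X.length - p0) : Prop), TT φ act p0 nu1 nu2 v X))
    (z + N1 + p0 + A + 1) Mm p0 hMm ?_ q
  intro X X' h1 h2 h3
  rcases take_cases h1 with rfl | ⟨hX, hX'⟩
  · rfl
  have hd : X.take p0 = X'.take p0 := take_le h1 (by omega)
  have hEB : ∀ Y Y' : List α, Y.take (z + N1 + p0 + A + 1) = Y'.take (z + N1 + p0 + A + 1) →
      z + N1 + p0 + A + 1 ≤ Y'.length → EB Wo z N1 Y → EB Wo z N1 Y' := by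
    rintro Y Y' h hY' ⟨t, e1, e2, e3, e4⟩
    exact ⟨t, e1, e2, by omega, by rw [← take_le h (by omega)]; exact e4⟩
  have hmod : (X.length - p0) % Mm = (X'.length - p0) % Mm := by
    have h4 : (X.length - p0) + p0 ≡ (X'.length - p0) + p0 [MOD Mm] := by
      rw [Nat.sub_add_cancel (by omega), Nat.sub_add_cancel (by omega)]
      exact h2
    exact Nat.ModEq.add_right_cancel' _ h4
  have hb : (EB Wo z N1 X ∨ Bad (X.length - p0)) ↔ (EB Wo z N1 X' ∨ Bad (X'.length - p0)) := by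
    have e1 : EB Wo z N1 X ↔ EB Wo z N1 X' := ⟨hEB X X' h1 hX', hEB X' X h1.symm hX⟩
    have e2 : Bad (X.length - p0) ↔ Bad (X'.length - p0) :=
      hBadp _ _ (by omega) (by omega) hmod
    rw [e1, e2]
  have hn : nu1 (X.drop p0) = nu1 (X'.drop p0) := by
    refine hnu _ _ (by rw [List.length_drop]; omega) (by rw [List.length_drop]; omega) ?_
      (by rw [List.length_drop, List.length_drop]; exact hmod) h3
    have := congrArg (List.drop p0) (take_le h1 (show p0 + A ≤ z + N1 + p0 + A + 1 by omega))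
    rw [List.drop_take, List.drop_take, Nat.add_sub_cancel_left] at this
    exact this
  have hp : ph φ X = ph φ X' := by
    rw [← List.take_append_drop p0 X, ← List.take_append_drop p0 X', ph_append, ph_append, hd, h3]
  have ht : TT φ act p0 nu1 nu2 v X = TT φ act p0 nu1 nu2 v X' := by
    unfold TT nuT
    rw [hp, hd, h3, hn]
  exact Prod.ext (propext hb) ht

variable {φ act Wo z N1 p0 Bad nu1 nu2}

theorem h_xx (H : ∀ (v : V) (q : Prop × V), HL 1 ({X | X ∈ XXn Wo z ∧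
      ((EB Wo z N1 X ∨ Bad (X.length - p0) : Prop), TT φ act p0 nu1 nu2 v X) = q} :
      Language α)) (v v' : V) :
    HL 1 ({X | X ∈ XXn Wo z ∧ TT φ act p0 nu1 nu2 v X = v'} : Language α) := by
  refine ((H v (True, v')).sup (H v (False, v'))).congr fun X => ?_
  constructor
  · rintro ⟨h1, h2⟩
    by_cases hb : (EB Wo z N1 X ∨ Bad (X.length - p0))
    · exact Or.inl ⟨h1, Prod.ext (eq_true hb) h2⟩
    · exact Or.inr ⟨h1, Prod.ext (eq_false hb) h2⟩
  · rintro (⟨h1, h2⟩ | ⟨h1, h2⟩)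
    · exact ⟨h1, congrArg Prod.snd h2⟩
    · exact ⟨h1, congrArg Prod.snd h2⟩

theorem h_bd (H : ∀ (v : V) (q : Prop × V), HL 1 ({X | X ∈ XXn Wo z ∧
      ((EB Wo z N1 X ∨ Bad (X.length - p0) : Prop), TT φ act p0 nu1 nu2 v X) = q} :
      Language α)) (v v' : V) :
    HL 1 ({X | X ∈ Bd Wo z N1 p0 Bad ∧ TT φ act p0 nu1 nu2 v X = v'} : Language α) := by
  refine (H v (True, v')).congr fun X => ?_
  constructor
  · rintro ⟨⟨h1, hb⟩, h2⟩
    exact ⟨h1, Prod.ext (eq_true hb) h2⟩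
  · rintro ⟨h1, h2⟩
    have h3 : (EB Wo z N1 X ∨ Bad (X.length - p0)) = True := congrArg Prod.fst h2
    exact ⟨⟨h1, of_eq_true h3⟩, congrArg Prod.snd h2⟩

theorem h_gd (H : ∀ (v : V) (q : Prop × V), HL 1 ({X | X ∈ XXn Wo z ∧
      ((EB Wo z N1 X ∨ Bad (X.length - p0) : Prop), TT φ act p0 nu1 nu2 v X) = q} :
      Language α)) :
    HL 1 ({X | X ∈ XXn Wo z ∧ X ∉ Bd Wo z N1 p0 Bad} : Language α) := by
  refine (HL.iUnion (k := 1) (L := fun v' : V => ({X | X ∈ XXn Wo z ∧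
      ((EB Wo z N1 X ∨ Bad (X.length - p0) : Prop), TT φ act p0 nu1 nu2 0 X) = (False, v')} :
      Language α)) (fun v' => H 0 (False, v'))).congr fun X => ?_
  constructor
  · rintro ⟨h1, h2⟩
    refine ⟨TT φ act p0 nu1 nu2 0 X, h1, Prod.ext (eq_false fun hb => h2 ⟨h1, hb⟩) rfl⟩
  · rintro ⟨v', h1, h2⟩
    have h3 : (EB Wo z N1 X ∨ Bad (X.length - p0)) = False := congrArg Prod.fst h2
    exact ⟨h1, fun hb => of_eq_false h3 hb.2⟩

theorem h_bdall (H : ∀ (v : V) (q : Prop × V), HL 1 ({X | X ∈ XXn Wo z ∧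
      ((EB Wo z N1 X ∨ Bad (X.length - p0) : Prop), TT φ act p0 nu1 nu2 v X) = q} :
      Language α)) :
    HL 1 (Bd Wo z N1 p0 Bad : Language α) := by
  refine (HL.iUnion (k := 1) (L := fun v' : V => ({X | X ∈ Bd Wo z N1 p0 Bad ∧
      TT φ act p0 nu1 nu2 0 X = v'} : Language α)) (fun v' => h_bd H 0 v')).congr fun X => ?_
  constructor
  · intro h
    exact ⟨_, h, rfl⟩
  · rintro ⟨v', h1, _⟩
    exact h1

/-- finitely many left words -/
theorem h_quot {F : V → Set (List α)} {N : ℕ} (hF : ∀ v P, P ∈ F v → P.length ≤ N) {k : ℕ}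
    {L : V → Language α} (hL : ∀ v, HL k (L v)) :
    HL k ({Q | ∀ (v : V) (P : List α), P ∈ F v → P ++ Q ∈ L v} : Language α) := by
  have hfin : Set.Finite {p : V × List α | p.2 ∈ F p.1} := by
    have h1 : Set.Finite {l : List α | l.length ≤ N} := List.finite_length_le α N
    refine (Set.Finite.prod (Set.toFinite (Set.univ : Set V)) h1).subset ?_
    rintro ⟨v, P⟩ hP
    exact ⟨Set.mem_univ _, hF v P hP⟩
  refine (HL.biInter hfin (L := fun p => ({Q | p.2 ++ Q ∈ L p.1} : Language α))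
    (fun p _ => (hL p.1).lquot p.2)).congr fun Q => ?_
  constructor
  · intro h p hp
    exact h p.1 p.2 hp
  · intro h v P hP
    exact h (v, P) hP

end heights

section gadget

open GridG_19 (Am Ac BadG grid)

/-- the bad totals are periodic -/
theorem badG_per {G : ℕ → ℕ} {M m : ℕ} (hd : ∀ a b, a ≤ b → G a ∣ G b) {T T' : ℕ}
    (h1 : Am G M 0 m ≤ T) (h2 : Am G M 0 m ≤ T') (h : T % (M * G m) = T' % (M * G m)) :
    BadG G M 0 m T → BadG G M 0 m T' := by
  rintro ⟨k, hk, hb⟩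
  refine ⟨k, hk, ?_⟩
  have h3 : Am G M 0 (k + 1) ≤ Am G M 0 m := GridG_19.Am_mono G M 0 hk
  have h4 : T ≡ T' [MOD G (k + 1)] :=
    Nat.ModEq.of_dvd ((hd (k + 1) m hk).trans (Dvd.intro_left _ rfl)) h
  have h5 : (T - Am G M 0 (k + 1)) + Am G M 0 (k + 1) ≡
      (T' - Am G M 0 (k + 1)) + Am G M 0 (k + 1) [MOD G (k + 1)] := by
    rw [Nat.sub_add_cancel (by omega), Nat.sub_add_cancel (by omega)]
    exact h4
  have h6 : (T - Am G M 0 (k + 1)) % G (k + 1) = (T' - Am G M 0 (k + 1)) % G (k + 1) :=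
    Nat.ModEq.add_right_cancel' _ h5
  rwa [h6] at hb

/-- `BadG` is contained in `BadZ` -/
theorem badG_badZ {κ M m : ℕ} {Ms : Finset ℕ} {T : ℕ}
    (hT : Am (fun j => (2 ^ κ) ^ j) M 0 m ≤ T)
    (h : (∃ q ∈ Ms, q ∣ T) ∨ BadG (fun j => (2 ^ κ) ^ j) M 0 m T) :
    GridRuler_896.BadZ Ms M (2 ^ κ) m (fun j => (Am (fun j => (2 ^ κ) ^ j) M 0 j : ℤ)) (T : ℤ) := by
  rcases h with ⟨q, hq, hd⟩ | ⟨k, hk, hb⟩
  · exact Or.inl ⟨q, hq, by exact_mod_cast hd⟩
  · right
    have h3 : Am (fun j => (2 ^ κ) ^ j) M 0 (k + 1) ≤ Am (fun j => (2 ^ κ) ^ j) M 0 m :=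
      GridG_19.Am_mono _ M 0 hk
    set D := T - Am (fun j => (2 ^ κ) ^ j) M 0 (k + 1) with hD
    set g := (2 ^ κ) ^ (k + 1) with hg
    have hgp : 0 < g := Nat.pow_pos (Nat.pow_pos (by norm_num))
    have hDz : (T : ℤ) - (Am (fun j => (2 ^ κ) ^ j) M 0 (k + 1) : ℤ) = (D : ℤ) := by
      rw [hD]; push_cast [Nat.cast_sub (show Am (fun j => (2 ^ κ) ^ j) M 0 (k + 1) ≤ T by omega)]
      ring
    have hdm := Nat.div_add_mod D g
    have hdz : (D : ℤ) = (g : ℤ) * ((D / g : ℕ) : ℤ) + ((D % g : ℕ) : ℤ) := by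
      exact_mod_cast hdm.symm
    have hlt := Nat.mod_lt D hgp
    refine ⟨k + 1, by omega, by omega, ?_⟩
    have hsub : k + 1 - 1 = k := by omega
    rw [hsub]
    have hgz : (((2 ^ κ : ℕ) : ℤ)) ^ (k + 1) = (g : ℤ) := by rw [hg]; push_cast; ring
    have hkz : (((2 ^ κ : ℕ) : ℤ)) ^ k = (((2 ^ κ) ^ k : ℕ) : ℤ) := by push_cast; ring
    have hb' : D % g < M * (2 ^ κ) ^ k ∨ g ≤ D % g + M * (2 ^ κ) ^ k := hb
    rw [hgz, hkz]
    have hMk : (M : ℤ) * (((2 ^ κ) ^ k : ℕ) : ℤ) = ((M * (2 ^ κ) ^ k : ℕ) : ℤ) := by push_cast; ring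
    rw [hMk]
    set E := M * (2 ^ κ) ^ k with hE
    rcases hb' with h | h
    · refine ⟨((D / g : ℕ) : ℤ), ?_⟩
      show |(T : ℤ) - (Am (fun j => (2 ^ κ) ^ j) M 0 (k + 1) : ℤ) - ((D / g : ℕ) : ℤ) * (g : ℤ)| ≤ _
      rw [hDz, hdz, abs_le]
      constructor
      · have : (0 : ℤ) ≤ ((D % g : ℕ) : ℤ) := by positivity
        have h8 : (0 : ℤ) ≤ (E : ℤ) := by positivity
        nlinarith
      · have : ((D % g : ℕ) : ℤ) < (E : ℤ) := by exact_mod_cast h
        nlinarith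
    · refine ⟨((D / g : ℕ) : ℤ) + 1, ?_⟩
      show |(T : ℤ) - (Am (fun j => (2 ^ κ) ^ j) M 0 (k + 1) : ℤ) -
        (((D / g : ℕ) : ℤ) + 1) * (g : ℤ)| ≤ _
      rw [hDz, hdz, abs_le]
      constructor
      · have : (g : ℤ) ≤ ((D % g : ℕ) : ℤ) + (E : ℤ) := by exact_mod_cast h
        nlinarith
      · have : ((D % g : ℕ) : ℤ) < (g : ℤ) := by exact_mod_cast hlt
        have h8 : (0 : ℤ) ≤ (E : ℤ) := by positivity
        nlinarith

end gadget

open Classical in
/-- **Row 320 for alphabets and monoids in `Type`**, any faithful module. -/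
theorem fin_aux (α : Type) [Finite α] (S : Type) [Monoid S] [Fintype S] (φ : α → S)
    (V : Type) [AddCommGroup V] [Fintype V] (act : V → S → V)
    (hadd : ∀ a b s, act (a + b) s = act a s + act b s)
    (hone : ∀ v, act v 1 = v) (hmul : ∀ v s t, act v (s * t) = act (act v s) t)
    (hfaith : ∀ s t, (∀ v, act v s = act v t) → s = t) (s : S) :
    HL 3 ({w | (w.map φ).prod = s} : Language α) := by
  -- gadget 1
  obtain ⟨m, r, hgrid⟩ := GridG_19.grid S V act
  obtain ⟨K, hex⟩ := ExactR_237.exact_gadget α S V φ act (2 * (r + m) + 2)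
  obtain ⟨Ms, hMs, hMsp, hgrid⟩ := hgrid (2 ^ (K + 1))
  set M := ∏ q ∈ Ms, q with hM
  have hMpos : 0 < M := Finset.prod_pos fun q hq => (hMsp q hq).1.pos
  set κ := 2 ^ (K + 6) * M with hκ
  have hκ2 : 2 ^ (K + 6) * M ≤ 2 ^ κ := Nat.lt_two_pow_self.le
  set G : ℕ → ℕ := fun j => (2 ^ κ) ^ j with hG
  have hGpos : ∀ k, 0 < G k := fun k => Nat.pow_pos (Nat.pow_pos (by norm_num))
  have hGd : ∀ a b, a ≤ b → G a ∣ G b := fun a b h => Nat.pow_dvd_pow _ h
  have hcop : ∀ k, Nat.Coprime M (G k) := by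
    intro k
    refine Nat.Coprime.pow_right _ (Nat.Coprime.pow_right _ ?_)
    rw [hM]
    refine Nat.Coprime.prod_left fun q hq => ?_
    obtain ⟨h1, h2⟩ := hMsp q hq
    rw [Nat.coprime_comm]
    refine (Nat.Prime.coprime_iff_not_dvd Nat.prime_two).2 fun h3 => ?_
    have h4 : q = 2 := ((Nat.prime_dvd_prime_iff_eq Nat.prime_two h1).1 h3).symm
    have h5 : 2 ^ 1 ≤ 2 ^ (K + 1) := Nat.pow_le_pow_right (by norm_num) (by omega)
    omega
  obtain ⟨lam1, rho1, nu1, hs1, hl1, hr1, hc1, hn1⟩ := hgrid G 0 hGpos hGd hcop α (ph φ)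
    (ph_append φ)
  set N1 := GridG_19.Am G M 0 m with hN1
  -- ruler
  obtain ⟨X0, hX0, hthin⟩ := GridRuler_896.exists_ruler K m Ms hMsp M hMpos
    (fun p hp => Finset.dvd_prod_of_mem _ hp) κ hκ2 (4 * N1)
  set c : ℕ → ℕ := fun j => X0 * 2 ^ j with hc
  have hcm : ∀ i j, i < j → j < K → c i < c j := by
    intro i j hij _
    have : (2 : ℕ) ^ i < 2 ^ j := Nat.pow_lt_pow_right (by norm_num) hij
    exact Nat.mul_lt_mul_of_pos_left this (by omega)
  obtain ⟨lam2, rho2, nu2', hg1, hg2⟩ := hex c hcm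
  set p0 := X0 * 2 ^ K with hp0
  have hcp : ∀ k < K, c k ≤ p0 := fun k hk =>
    Nat.mul_le_mul_left _ (Nat.pow_le_pow_right (by norm_num) hk.le)
  let nu2 : List α → V := fun u => nu2' u 1
  let Bad : ℕ → Prop := fun T => (∃ q ∈ Ms, q ∣ T) ∨ GridG_19.BadG G M 0 m T
  -- walls
  obtain ⟨n, Wo, hloc, hlen, hgap, R, B, pcs⟩ := WallU_228.walls (α := α) (2 * p0 + 2 * N1)
  set La := 2 * N1 + M + p0 with hLa
  set z := 3 * p0 + 2 * N1 + n + La + 1 with hz
  have hzpos : 0 < z := by omega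
  have hAc : GridG_19.Ac G M 0 m = N1 + G m := rfl
  have H : ∀ (v : V) (q : Prop × V), HL 1 ({X | X ∈ XXn Wo z ∧
      ((EB Wo z N1 X ∨ Bad (X.length - p0) : Prop), TT φ act p0 nu1 nu2 v X) = q} :
      Language α) := by
    intro v q
    refine h_all φ act Wo n z N1 p0 Bad nu1 nu2 hloc hlen pcs (N1 + G m) (M * G m)
      (Nat.mul_pos hMpos (hGpos m)) ?_ ?_ v q
    · intro T T' hT hT' hTT
      have h1 : ∀ q ∈ Ms, (q ∣ T ↔ q ∣ T') := fun q hq =>
        ((show T ≡ T' [MOD M * G m] from hTT).of_dvd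
          ((Finset.dvd_prod_of_mem _ hq).trans (Dvd.intro _ rfl))).dvd_iff (dvd_refl q)
      constructor
      · rintro (⟨q, hq, h⟩ | h)
        · exact Or.inl ⟨q, hq, (h1 q hq).1 h⟩
        · exact Or.inr (badG_per hGd (by omega) (by omega) hTT h)
      · rintro (⟨q, hq, h⟩ | h)
        · exact Or.inl ⟨q, hq, (h1 q hq).2 h⟩
        · exact Or.inr (badG_per hGd (by omega) (by omega) hTT.symm h)
    · intro Y Y' h1 h2 h3 h4 h5
      exact hn1 Y Y' h1 h2 h3 h4 h5
  have hXT := h_xx H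
  have hBT := h_bd H
  have hL1len : ∀ (v : V) (P : List α), P ∈ LP1 φ act p0 lam1 nu2 v → P.length ≤ p0 + N1 := by
    rintro v P ⟨h1, h2⟩
    have := (hl1 _ _ h2).2
    rw [List.length_drop] at this
    omega
  have hL2len : ∀ (v : V) (P : List α), P ∈ LP2 K c lam2 v → P.length ≤ p0 + N1 := by
    rintro v P ⟨k, hk, h1, h2⟩
    have := hcp k hk
    omega
  have hfin1 : ∀ v : V, Set.Finite {P | P ∈ LP1 φ act p0 lam1 nu2 v} := fun v =>
    (List.finite_length_le α (p0 + N1)).subset fun P hP => hL1len v P hP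
  have hfin2 : ∀ v : V, Set.Finite {P | P ∈ LP2 K c lam2 v} := fun v =>
    (List.finite_length_le α (p0 + N1)).subset fun P hP => hL2len v P hP
  have hcount : ∀ T, La ≤ T → ((Finset.range K ×ˢ Finset.range K).filter
      (fun p => p.1 ≠ p.2 ∧ Bad (T + c p.2 - c p.1))).card ≤ r + m := by
    intro T hT
    obtain ⟨hf, hcard⟩ := hthin (fun j => (GridG_19.Am G M 0 j : ℤ)) (T : ℤ)
    refine le_trans ?_ (hcard.trans (by omega))
    rw [← Set.ncard_coe_finset]
    refine Set.ncard_le_ncard_of_injOn (fun p : ℕ × ℕ => (p.2, p.1)) ?_ ?_ hf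
    · intro p hp
      rw [Finset.mem_coe, Finset.mem_filter, Finset.mem_product, Finset.mem_range,
        Finset.mem_range] at hp
      obtain ⟨⟨h1, h2⟩, h3, h4⟩ := hp
      refine ⟨h2, h1, fun h => h3 h.symm, ?_⟩
      have h5 := hcp _ h1
      have h6 := hcp _ h2
      have h7 := badG_badZ (κ := κ) (M := M) (m := m) (Ms := Ms)
        (T := T + c p.2 - c p.1) (by
          show GridG_19.Am G M 0 m ≤ _
          omega) h4
      have h8 : ((T + c p.2 - c p.1 : ℕ) : ℤ) = (T : ℤ) + X0 * 2 ^ p.2 - X0 * 2 ^ p.1 := by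
        rw [Nat.cast_sub (by omega)]
        simp only [hc]
        push_cast
        ring
      rw [h8] at h7
      exact h7
    · intro p _ q _ h
      simp only [Prod.mk.injEq] at h
      exact Prod.ext h.2 h.1
  have hgood := h_gd H
  refine Top5_467.top5 φ act hadd hone hmul hfaith (nuT φ act p0 nu1 nu2) (XXn Wo z)
    (Bd Wo z N1 p0 Bad) (xx_pcode hzpos) (fun X hX => hX.1)
    (LP1 φ act p0 lam1 nu2) (RQ1 φ act Wo z p0 lam1 nu1 nu2) (LP2 K c lam2)
    (RQ2 φ act Wo z N1 p0 K c Bad nu1 nu2 lam2) ?_ ?_ ?_ ?_ ?_ ?_ ?_ ?_ ?_ ?_ ?_ s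
  · -- s1
    intro v b P Q hP hQ
    exact hQ v P hP
  · -- c1
    intro X hX hXb v
    exact c1_ok φ act Wo n z N1 p0 Bad lam1 rho1 nu1 nu2 hadd hmul hloc La (by omega)
      (fun p v h => (hl1 p v h).2.le) (fun p q v r h1 h2 _ => hs1 p q v r h1 h2)
      (fun u hu hb v => hc1 u (by omega) (by omega)
        (fun q hq h => hb (Or.inl ⟨q, hq, h⟩)) (fun h => hb (Or.inr h)) v) X hX hXb v
  · -- s2
    intro v b P Q r hP hQ h
    exact s2_ok φ act Wo z N1 p0 K c Bad nu1 nu2 lam2 hzpos v b P Q r hP hQ h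
  · -- c2
    intro X hX X' hX' v
    exact c2_ok φ act Wo n z N1 p0 K c Bad nu1 nu2 lam2 (fun k Q => rho2 k Q 1) hadd hmul hloc
      (2 * p0 + 2 * N1) hgap le_rfl (r + m) La (2 * (r + m) + 2) le_rfl (by omega) hcp
      (fun i j k l _ _ _ _ hij hkl hne => GridRuler_896.spaced hX0 hij hkl hne)
      (fun T hT => by convert hcount T hT)
      (fun k hk P Q v b hP h1 h2 => by
        have := hg1 k hk P Q 1 v b hP h1 h2
        rw [mul_one] at this
        exact this)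
      (fun u v hu => hg2 u 1 v hu) X hX X' hX' v
  · exact h_bdall H
  · exact fun v => HL.finite (hfin2 v)
  · -- right words of scheme 2
    intro b
    have hLv : ∀ v : V, HL 1 ({w | (∃ X, X ∈ XXn Wo z ∧ X ∉ Bd Wo z N1 p0 Bad ∧ X <+: w) ∨
        (∃ X ∈ Bd Wo z N1 p0 Bad, ∃ X' ∈ Bd Wo z N1 p0 Bad, w = X ++ X' ∧
          TT φ act p0 nu1 nu2 (TT φ act p0 nu1 nu2 v X) X' = b)} : Language α) := by
      intro v
      refine HL.setOf_or ?_ ?_
      · refine (HL.prefix hgood).congr fun w => ?_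
        constructor
        · rintro ⟨X, h1, h2, h3⟩
          exact ⟨X, ⟨h1, h2⟩, h3⟩
        · rintro ⟨X, ⟨h1, h2⟩, h3⟩
          exact ⟨X, h1, h2, h3⟩
      · let A : V → V → Language α := fun v u =>
          {X | X ∈ Bd Wo z N1 p0 Bad ∧ TT φ act p0 nu1 nu2 v X = u}
        refine (HL.iUnion (k := 1) (L := fun u : V => A v u * A u b)
          (fun u => HL.mul (L := A v u) (M := A u b) (hBT v u) (hBT u b))).congr fun w => ?_
        constructor
        · rintro ⟨X, h1, X', h2, rfl, h3⟩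
          exact ⟨_, Language.mem_mul.2 ⟨X, ⟨h1, rfl⟩, X', ⟨h2, h3⟩, rfl⟩⟩
        · rintro ⟨u, h⟩
          obtain ⟨X, ⟨h1, rfl⟩, X', ⟨h2, h3⟩, rfl⟩ := Language.mem_mul.1 h
          exact ⟨X, h1, X', h2, rfl, h3⟩
    exact (h_quot (F := fun v => LP2 K c lam2 v) hL2len hLv).congr fun Q => Iff.rfl
  · exact fun v => HL.finite (hfin1 v)
  · -- right words of scheme 1
    intro b
    exact ((h_quot (F := fun v => LP1 φ act p0 lam1 nu2 v) hL1len
      (fun v => hXT v b)).mono (by norm_num)).congr fun Q => Iff.rfl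
  · intro v v'
    exact (hBT v v').mono (by norm_num)
  · intro s
    exact (P4N_211.hNP (φ := ph φ) (z := z) (ph_append φ) hloc hlen pcs s).mono (by norm_num)

/-- **Row 320 for alphabets and monoids in `Type`.** -/
theorem fin (α : Type) [Finite α] (S : Type) [Monoid S] [Finite S] (φ : α → S) (s : S) :
    HL 3 ({w | (w.map φ).prod = s} : Language α) := by
  classical
  haveI := Fintype.ofFinite S
  obtain ⟨act, hadd, hone, hmul, hfaith⟩ := exists_module S
  haveI : Fintype (S → ZMod 2) := Fintype.ofFinite _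
  exact fin_aux α S φ (S → ZMod 2) act hadd hone hmul hfaith s

/-- the row, in any universe -/
theorem s0495 (α : Type*) [Finite α] (L : Language α) (hL : L.IsRegular) :
    ∃ e : Crest.RegLang.GRegExp α, e.height ≤ 3 ∧ e.lang = L :=
  Univ_294.s0495_of_type0 (fun n S _ _ φ s => fin (Fin n) S φ s) α L hL

end Crest.Agent.R320.Fin_667
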