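import Crest.Agent.R320.FinA_670
import Crest.Agent.R320.Grid_899
import Crest.Agent.R320.Thin_963
import Crest.Agent.R320.ExactR_237
import Crest.Agent.R320.LWallAll_922
import Crest.Agent.R320.Two_621

/-!
# Row 320: the JOIN, part B = constants (helper670)

`fin` : every fibre of a map from words to a finite monoid has height `≤ 3`.
-/

set_option autoImplicit false

namespace Crest.Agent.R320.Fin_670

open Crest.RegLang Crest.Agent.R320.Hk_851 Crest.Agent.R320.Sc2n_937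
open Crest.Agent.R320.BddReg_746 Crest.Agent.R320.Grid_899

/-- the bad totals of the grid gadget -/
def BadN (k m κ : ℕ) (q : Fin k → ℕ) (T : ℕ) : Prop :=
  (∃ j, q j ∣ T) ∨ ∃ j, 1 ≤ j ∧ j ≤ m ∧
    ¬ ((∏ j, q j) * G κ (j - 1) ≤ (T - Am (∏ j, q j) κ j) % G κ j ∧
      (T - Am (∏ j, q j) κ j) % G κ j + (∏ j, q j) * G κ (j - 1) ≤ G κ j)

theorem G_dvd {κ i j : ℕ} (h : i ≤ j) : G κ i ∣ G κ j :=
  pow_dvd_pow 2 (Nat.mul_le_mul_left κ h)

theorem badN_per {k m κ : ℕ} {q : Fin k → ℕ} {n n' : ℕ}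
    (h1 : Am (∏ j, q j) κ (m + 1) ≤ n) (h2 : Am (∏ j, q j) κ (m + 1) ≤ n')
    (h : n ≡ n' [MOD (∏ j, q j) * G κ m]) : BadN k m κ q n ↔ BadN k m κ q n' := by
  refine or_congr (exists_congr fun j => ?_) (exists_congr fun j => ?_)
  · have hd : q j ∣ (∏ j, q j) * G κ m :=
      dvd_trans (Finset.dvd_prod_of_mem q (Finset.mem_univ j)) (Nat.dvd_mul_right _ _)
    exact (h.of_dvd hd).dvd_iff (dvd_refl _)
  · constructor
    all_goals
      rintro ⟨hj1, hj2, hj⟩
      have hA : Am (∏ j, q j) κ j ≤ Am (∏ j, q j) κ (m + 1) := Am_mono (by omega)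
      have h5 : G κ j ∣ (∏ j, q j) * G κ m := dvd_mul_of_dvd_right (G_dvd hj2) _
      have h6 : n ≡ n' [MOD G κ j] := h.of_dvd h5
      have h7 : (n - Am (∏ j, q j) κ j) + Am (∏ j, q j) κ j ≡
          (n' - Am (∏ j, q j) κ j) + Am (∏ j, q j) κ j [MOD G κ j] := by
        rw [Nat.sub_add_cancel (by omega), Nat.sub_add_cancel (by omega)]; exact h6
      have h8 : (n - Am (∏ j, q j) κ j) % G κ j = (n' - Am (∏ j, q j) κ j) % G κ j :=
        Nat.ModEq.add_right_cancel' _ h7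
      refine ⟨hj1, hj2, ?_⟩
    · rw [← h8]; exact hj
    · rw [h8]; exact hj

/-- the bad totals over the integers -/
theorem badN_int {k m κ : ℕ} {q : Fin k → ℕ} {n : ℕ}
    (h1 : Am (∏ j, q j) κ (m + 1) ≤ n) (h : BadN k m κ q n) :
    Thin963.BadT (Finset.univ.image q) m (fun i => (G κ i : ℤ))
      (fun i => (((∏ j, q j) * G κ i : ℕ) : ℤ)) (fun i => (Am (∏ j, q j) κ i : ℤ)) (n : ℤ) := by
  rcases h with ⟨j, hj⟩ | ⟨j, hj1, hj2, hj⟩
  · left
    exact ⟨q j, Finset.mem_image_of_mem q (Finset.mem_univ j), by exact_mod_cast hj⟩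
  · right
    have hA : Am (∏ j, q j) κ j ≤ Am (∏ j, q j) κ (m + 1) := Am_mono (by omega)
    obtain ⟨i, rfl⟩ : ∃ i, j = i + 1 := ⟨j - 1, by omega⟩
    rw [Nat.add_sub_cancel] at hj
    refine ⟨i, by omega, ?_⟩
    set N := n - Am (∏ j, q j) κ (i + 1) with hN
    have hNz : (N : ℤ) = (n : ℤ) - (Am (∏ j, q j) κ (i + 1) : ℤ) := by
      rw [hN, Nat.cast_sub (by omega)]
    have hdm := Nat.div_add_mod N (G κ (i + 1))
    have hml : N % G κ (i + 1) < G κ (i + 1) := Nat.mod_lt _ (by unfold G; positivity)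
    have hdz : (N : ℤ) = (G κ (i + 1) : ℤ) * ((N / G κ (i + 1) : ℕ) : ℤ) +
        ((N % G κ (i + 1) : ℕ) : ℤ) := by exact_mod_cast hdm.symm
    by_cases hlow : (∏ j, q j) * G κ i ≤ N % G κ (i + 1)
    · have hup : G κ (i + 1) < N % G κ (i + 1) + (∏ j, q j) * G κ i := by
        by_contra h9
        exact hj ⟨hlow, by omega⟩
      refine ⟨(G κ (i + 1) : ℤ) - ((N % G κ (i + 1) : ℕ) : ℤ), ?_, ?_⟩
      · rw [abs_of_nonneg (by
          have : ((N % G κ (i + 1) : ℕ) : ℤ) < (G κ (i + 1) : ℤ) := by exact_mod_cast hml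
          linarith)]
        have : (G κ (i + 1) : ℤ) < ((N % G κ (i + 1) : ℕ) : ℤ) + (((∏ j, q j) * G κ i : ℕ) : ℤ) := by
          exact_mod_cast hup
        linarith
      · refine ⟨((N / G κ (i + 1) : ℕ) : ℤ) + 1, ?_⟩
        rw [← hNz, hdz]; ring
    · refine ⟨-((N % G κ (i + 1) : ℕ) : ℤ), ?_, ?_⟩
      · rw [abs_neg, abs_of_nonneg (by positivity)]
        have : N % G κ (i + 1) ≤ (∏ j, q j) * G κ i := by omega
        show ((N % G κ (i + 1) : ℕ) : ℤ) ≤ (((∏ j, q j) * G κ i : ℕ) : ℤ)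
        exact Int.ofNat_le.2 this
      · refine ⟨((N / G κ (i + 1) : ℕ) : ℤ), ?_⟩
        rw [← hNz]; linarith

theorem growth (K m Ms κ : ℕ) (hκ : K + 4 + m + Ms ≤ κ) (i : ℕ) (hi : i < m) :
    2 ^ (K + 4) * ∑ j ∈ Finset.range (i + 1), Ms * G κ j ≤ G κ (i + 1) := by
  have h1 : ∑ j ∈ Finset.range (i + 1), Ms * G κ j ≤ (i + 1) * (Ms * G κ i) := by
    have := Finset.sum_le_card_nsmul (Finset.range (i + 1)) (fun j => Ms * G κ j) (Ms * G κ i)
      (fun j hj => Nat.mul_le_mul_left _ (Nat.le_of_dvd (by unfold G; positivity)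
        (G_dvd (by rw [Finset.mem_range] at hj; omega))))
    simpa using this
  have h2 : i + 1 ≤ 2 ^ m := le_trans hi (Nat.lt_two_pow_self).le
  have h3 : Ms ≤ 2 ^ Ms := (Nat.lt_two_pow_self).le
  calc 2 ^ (K + 4) * ∑ j ∈ Finset.range (i + 1), Ms * G κ j
      ≤ 2 ^ (K + 4) * (2 ^ m * (2 ^ Ms * G κ i)) := by
        refine Nat.mul_le_mul_left _ (h1.trans ?_)
        exact Nat.mul_le_mul h2 (Nat.mul_le_mul_right _ h3)
    _ = 2 ^ (K + 4 + m + Ms) * G κ i := by rw [pow_add, pow_add]; ring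
    _ ≤ 2 ^ κ * G κ i := Nat.mul_le_mul_right _ (Nat.pow_le_pow_right (by norm_num) hκ)
    _ = G κ (i + 1) := by unfold G; rw [← pow_add]; congr 1; ring

theorem exists_primes (k N : ℕ) (hN : 2 ≤ N) : ∃ q : Fin k → ℕ, (∀ j, (q j).Prime ∧ N ≤ q j) ∧
    Function.Injective q := by
  refine ⟨fun j => Nat.nth Nat.Prime (j + N), fun j => ⟨Nat.prime_nth_prime _, ?_⟩, ?_⟩
  · have := Nat.add_two_le_nth_prime (j + N)
    show N ≤ Nat.nth Nat.Prime (j + N)
    omega
  · intro a b h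
    have := (Nat.nth_strictMono Nat.infinite_setOf_prime).injective h
    exact Fin.ext (by omega)

theorem fin (α : Type) [Finite α] (S : Type) [Monoid S] [Finite S] (φ : α → S) (s : S) :
    HL 3 ({w | (w.map φ).prod = s} : Language α) := by
  classical
  haveI : Fintype S := Fintype.ofFinite S
  let V := Two_621.Tok S
  haveI : Finite V := inferInstanceAs (Finite (S → ZMod 2))
  letI : AddCommGroup V := inferInstanceAs (AddCommGroup (S → ZMod 2))
  haveI : Fintype V := Fintype.ofFinite V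
  let act : V → S → V := Two_621.act
  obtain ⟨k, m, H⟩ := grid_gadget_reg S V act
  set C0 := k + m with hC0
  obtain ⟨K, HK⟩ := ExactR_237.exact_gadget α S V φ act (2 * C0 + 2)
  have h2K : 2 ≤ 2 ^ (K + 1) := by
    calc 2 = 2 ^ 1 := by norm_num
      _ ≤ 2 ^ (K + 1) := Nat.pow_le_pow_right (by norm_num) (by omega)
  obtain ⟨q, hq, hqi⟩ := exists_primes k (2 ^ (K + 1) + 1) (by omega)
  have hqodd : ∀ j, Odd (q j) := fun j => (hq j).1.odd_of_ne_two (by
    have := (hq j).2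
    omega)
  have hqcop : Pairwise (fun i j => Nat.Coprime (q i) (q j)) := fun i j hij =>
    (Nat.coprime_primes (hq i).1 (hq j).1).2 fun h => hij (hqi h)
  set Ms := ∏ j, q j with hMs
  have hMspos : 0 < Ms := Finset.prod_pos fun j _ => (hq j).1.pos
  set κ := K + 4 + m + Ms with hκ
  obtain ⟨lam, rho, nu1, g1, g2, g3, g4, g5⟩ := H q hqodd hqcop κ α (fun u => (u.map φ).prod)
    (fun u v => by simp)
  set N1 := Am Ms κ m + 1 with hN1
  have hGpos : ∀ i, 0 < G κ i := fun i => by unfold G; positivity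
  -- the ruler
  obtain ⟨X, hX1, hX2, hX3⟩ := Thin963.thin K m (Finset.univ.image q) (fun i => (G κ i : ℤ))
    (fun i => ((Ms * G κ i : ℕ) : ℤ)) (fun i => (Am Ms κ i : ℤ))
    (by
      intro p hp
      obtain ⟨j, -, rfl⟩ := Finset.mem_image.1 hp
      exact ⟨(hq j).1, by have := (hq j).2; omega⟩)
    (by
      intro p hp
      obtain ⟨j, -, rfl⟩ := Finset.mem_image.1 hp
      rw [Nat.isCoprime_iff_coprime]
      exact Nat.Coprime.pow_right _ ((Nat.coprime_two_right).2 (hqodd j)))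
    (by exact_mod_cast hGpos m)
    (fun i j hij => by exact_mod_cast G_dvd hij)
    (fun i => by
      have := Nat.mul_pos hMspos (hGpos i)
      exact_mod_cast this)
    (fun i => by
      have : G κ i ∣ Ms * G κ i := Dvd.intro_left _ rfl
      exact_mod_cast this)
    (fun i hi => by
      have := growth K m Ms κ le_rfl i hi
      exact_mod_cast this)
    (2 * (N1 : ℤ) + 1)
  obtain ⟨x, hx⟩ := Int.eq_ofNat_of_zero_le hX2.le
  subst hx
  have hxN : 2 * N1 + 1 ≤ x := by exact_mod_cast hX1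
  have hxpos : 0 < x := by omega
  set c : ℕ → ℕ := fun j => x * 2 ^ j with hcdef
  have hcmono : ∀ i j, i < j → c i < c j := fun i j hij =>
    Nat.mul_lt_mul_of_pos_left (Nat.pow_lt_pow_right (by norm_num) hij) hxpos
  obtain ⟨lam2, rho2, nu2, e1, e2⟩ := HK c (fun i j hij _ => hcmono i j hij)
  set p0 := c K with hp0
  have hcK : ∀ j, j < K → c j ≤ p0 := fun j hj => (hcmono j K hj).le
  -- the walls
  obtain ⟨n, _, B, Wo, hLW, hgap, -, -, hfree⟩ :=
    LWallAll_922.walls_all_left α (2 * p0 + 2 * N1 + 1) (by omega)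
  set A1 := Am Ms κ (m + 1) with hA1
  have hAm : Am Ms κ m ≤ A1 := Am_mono (by omega)
  let g : Geo α :=
    { Wo := Wo, n := n, z := p0 + N1 + (n + 4 * p0 + 2 * A1), p0 := p0, q0 := n + 4 * p0 + 2 * A1,
      N1 := N1, loc := hLW.app, hz := rfl, hq := by omega, hN := by omega, hqp := by omega }
  refine FinA_670.finA (B := max B (2 * p0 + 2 * N1 + 1)) (R := 2) act
    (fun a b s => Two_621.act_add a b s) (fun v => Two_621.act_one v)
    (fun v s t => (Two_621.act_mul v s t).symm) (fun s t h => Two_621.act_faithful h) φ g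
    hLW.len ?_ ?_ lam rho nu1 (BadN k m κ q) A1 (Ms * G κ m) (Nat.mul_pos hMspos (hGpos m)) ?_
    (fun P v h => ?_) g3 ?_ (fun Q Q' h1 h2 h3 h4 h5 => (g5 Q Q' h1 h2 h3 h4 h5).2)
    (fun n n' h1 h2 h => badN_per h1 h2 h) K C0 c (fun k P => lam2 k P) (fun k Q => rho2 k Q 1)
    (fun u => nu2 u 1) hcK ?_ ?_ ?_ ?_ s
  · -- free
    intro u hu
    obtain ⟨a, y, b, j, h1, h2, h3, rfl⟩ := hfree u hu
    refine Language.mem_mul.2 ⟨a ++ pw y j, ⟨a, y, j, h1.trans (le_max_left _ _),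
      h2.trans (le_max_right _ _), rfl⟩, b, ?_, rfl⟩
    refine Language.mem_mul.2 ⟨b, ⟨b, [], 0, h3.trans (le_max_left _ _), by simp, by simp⟩, [],
      rfl, by simp⟩
  · -- gap
    intro P Q hP hPQ hQ
    have hQl : 0 < Q.length := List.length_pos_iff.2 hQ
    have := hgap (P ++ Q) P.length (P ++ Q).length (by rw [List.length_append]; omega) le_rfl
      (by rw [List.take_left]; exact hP) (by rw [List.take_length]; exact hPQ)
    rw [List.length_append] at this
    show 2 * p0 + 2 * N1 < Q.length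
    omega
  · show p0 + A1 ≤ p0 + N1 + (n + 4 * p0 + 2 * A1)
    omega
  · have h0 : P.length < Am Ms κ m := (g1 P v h).1
    show P.length ≤ N1
    omega
  · -- complete
    intro u hu hb v
    have hu' : p0 + N1 + (n + 4 * p0 + 2 * A1) ≤ u.length + p0 := hu
    refine g4 u (by omega) (fun j hj => hb (Or.inl ⟨j, hj⟩)) (fun j hj1 hj2 => ?_) v
    by_contra hcon
    exact hb (Or.inr ⟨j, hj1, hj2, hcon⟩)
  · -- exact gadget, sound
    intro j hj P Q v b h1 h2 h3
    have := e1 j hj P Q 1 v b h1 h2 h3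
    rw [mul_one] at this
    exact this
  · -- exact gadget, complete
    intro u hu v
    have hu' : u.length = p0 := hu
    obtain ⟨I, h1, h2⟩ := e2 u 1 v (fun j hj => by rw [hu']; exact hcK j hj)
    exact ⟨I, h1, h2⟩
  · -- ruler, spread
    intro a a' l l' ha ha' hl hl' hne hne' h1 h2
    have h1' : (x:ℤ) * 2 ^ a + x * 2 ^ l' < x * 2 ^ l + x * 2 ^ a' + 2 * N1 := by exact_mod_cast h1
    have h2' : (x:ℤ) * 2 ^ l + x * 2 ^ a' < x * 2 ^ a + x * 2 ^ l' + 2 * N1 := by exact_mod_cast h2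
    have hxz : (2:ℤ) * N1 + 1 ≤ x := by exact_mod_cast hxN
    set d : ℤ := ((2:ℤ) ^ a - 2 ^ a') - (2 ^ l - 2 ^ l') with hd
    have hxd : |(x:ℤ) * d| < x := by
      rw [abs_lt]
      constructor <;> rw [hd] <;> nlinarith
    have hd0 : d = 0 := by
      by_contra h0
      have h3 : 1 ≤ |d| := Int.one_le_abs h0
      rw [abs_mul, abs_of_nonneg (by positivity : (0:ℤ) ≤ x)] at hxd
      nlinarith
    have h4 : (2:ℤ) ^ a - 2 ^ a' = 2 ^ l - 2 ^ l' := by linarith
    exact (G369.pow_diff (fun h => hne h.symm) (fun h => hne' h.symm) h4).1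
  · -- ruler, thin
    intro τ hτ J hJ
    have hτ' : p0 + N1 + (n + 4 * p0 + 2 * A1) ≤ τ + p0 := hτ
    choose! f hf using fun k hk => (hJ k hk).2
    have hsub : J.image (fun k => (f k, k)) ⊆ ((Finset.range K) ×ˢ (Finset.range K)).filter
        (fun p => p.1 ≠ p.2 ∧ Thin963.BadT (Finset.univ.image q) m (fun i => (G κ i : ℤ))
          (fun i => ((Ms * G κ i : ℕ) : ℤ)) (fun i => (Am Ms κ i : ℤ))
          (((τ:ℤ) - p0) + (x:ℤ) * 2 ^ p.1 - x * 2 ^ p.2)) := by
      intro p hp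
      obtain ⟨j, hj, rfl⟩ := Finset.mem_image.1 hp
      obtain ⟨f1, f2, f3⟩ := hf j hj
      have hj1 := (hJ j hj).1
      have hcj := hcK j hj1
      rw [Finset.mem_filter, Finset.mem_product, Finset.mem_range, Finset.mem_range]
      refine ⟨⟨f1, hj1⟩, f2, ?_⟩
      have h5 := badN_int (n := τ + c (f j) - c j - p0) (by
        show A1 ≤ _
        omega) f3
      have h6 : ((τ + c (f j) - c j - p0 : ℕ) : ℤ) =
          ((τ:ℤ) - p0) + (x:ℤ) * 2 ^ (f j) - x * 2 ^ j := by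
        rw [Nat.cast_sub (by omega), Nat.cast_sub (by omega)]
        simp only [hcdef]
        push_cast
        ring
      rw [h6] at h5
      exact h5
    have h1 := Finset.card_le_card hsub
    rw [Finset.card_image_of_injective _ (fun a b h => (Prod.ext_iff.1 h).2)] at h1
    have h2 := hX3 ((τ:ℤ) - p0)
    have h3 : (Finset.univ.image q).card ≤ k := by
      simpa using Finset.card_image_le (s := (Finset.univ : Finset (Fin k))) (f := q)
    have h4 : J.card ≤ (Finset.univ.image q).card + m := by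
      refine h1.trans (le_trans (le_of_eq ?_) h2)
      congr 1
    omega

end Crest.Agent.R320.Fin_670
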