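import Crest.Agent.R320.End_710
import Crest.Agent.R320.UGI_157

/-!
# Row 320: `End_710.G1` from the closed gadget `UGI_157.ugi`, and the frozen statement
-/

set_option autoImplicit false

namespace Crest.Agent.R320.Fin_672

open Crest.Agent.R320.ExactR_237 (pr pr_append)
open Crest.Agent.R320.Two_621 (Tok)
open Finset

theorem g1 (S V : Type) [Monoid S] [Finite S] [AddCommGroup V] [Finite V] (act : V → S → V) :
    End_710.G1 S V act := by
  classical
  obtain ⟨C0, h⟩ := UGI_157.ugi S V act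
  refine ⟨C0, fun K => ?_⟩
  obtain ⟨N1, Pm, La, c, Bad, hPm, hNLa, hinc, hsp, hres, hper, hthin, hg⟩ := h K 0
  refine ⟨N1, La, La, Pm, c K, c, Bad, hPm, fun i j hij _ => hinc i j hij,
    fun k hk => (hinc k K hk).le, ?_, ?_, fun t _ => hper t, ?_⟩
  · intro i i' j j' hi hi' hj hj' hii hjj h1 h2
    by_contra hne
    have h3 := hres i i' j j' (Ne.symm hii) (Ne.symm hjj) (fun h => hne (congrArg Prod.fst h))
    rw [lt_abs] at h3
    push_cast at h3
    omega
  · intro T hT I hI
    have hsub : I ⊆ ((range K ×ˢ range K).filter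
        (fun p => p.1 ≠ p.2 ∧ Bad (T + c p.1 - c p.2))).image Prod.snd := by
      intro k hk
      obtain ⟨hkK, k', hk', hne, hb⟩ := hI k hk
      refine Finset.mem_image.2 ⟨(k', k), Finset.mem_filter.2 ⟨?_, hne, hb⟩, rfl⟩
      exact Finset.mem_product.2 ⟨Finset.mem_range.2 hk', Finset.mem_range.2 hkK⟩
    calc I.card ≤ _ := Finset.card_le_card hsub
      _ ≤ _ := Finset.card_image_le
      _ ≤ C0 := by convert hthin T hT
  · intro A _ f
    obtain ⟨lam, rho, nu, g1, g2, g3, g4, g5⟩ := hg (A := A) (pr f) (fun u v => pr_append f u v)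
    refine ⟨lam, rho, nu, fun P Q v r => g3 P Q v r, g1, ?_, ?_⟩
    · intro Y hY hB v
      obtain ⟨P, Q, h1, h2, h3⟩ := g4 Y hY hB v
      exact ⟨P, Q, h1.symm, h2, h3⟩
    · intro Y Y' h1 h2 h3
      rcases lt_or_ge Y.length La with hl | hl
      · rw [End_710.eq_of_take h1 hl]
      · exact (g5 Y Y' hl (End_710.len_of_take h1 hl) h1 h2 h3).2

/-- **the frozen statement S0495** -/
theorem fin (α : Type*) [Finite α] (L : Language α) (hL : L.IsRegular) :
    ∃ e : Crest.RegLang.GRegExp α, e.height ≤ 3 ∧ e.lang = L :=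
  End_710.of_G1 (fun S _ _ => by
    have : Finite (Tok S) := by unfold Tok; infer_instance
    exact g1 S (Tok S) Two_621.act) α L hL

end Crest.Agent.R320.Fin_672
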