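import Crest.Agent.R320.Top5_120
import Crest.Agent.R320.Sc2n_937
import Crest.Agent.R320.GridG_19
import Crest.Agent.R320.Thin_963
import Crest.Agent.R320.ExactR_237
import Crest.Agent.R320.LWallAll_922
import Crest.Agent.R320.Fib_81

/-!
Row 320, helper679: the join (constants) of the two wall schemes.
-/

set_option autoImplicit false
set_option linter.unusedSectionVars false
set_option linter.unusedVariables false

namespace Crest.Agent.R320.Fin_679

open Crest.RegLang Crest.Agent.R320.Hk_851 Crest.Agent.R320.GridG_19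
open Crest.Agent.R320.Sc2n_937 (Geo)

/-! ### arithmetic -/

theorem badG_congr {G : ℕ → ℕ} {M A0 m T T' : ℕ} (hdiv : ∀ a b, a ≤ b → G a ∣ G b)
    (hT : Am G M A0 m ≤ T) (hT' : Am G M A0 m ≤ T') (h : T ≡ T' [MOD G m])
    (hb : BadG G M A0 m T) : BadG G M A0 m T' := by
  obtain ⟨k, hk, hk2⟩ := hb
  refine ⟨k, hk, ?_⟩
  have h1 : Am G M A0 (k + 1) ≤ Am G M A0 m := Am_mono _ _ _ hk
  have h2 : T ≡ T' [MOD G (k + 1)] := h.of_dvd (hdiv _ _ hk)
  have h3 : (T - Am G M A0 (k + 1)) + Am G M A0 (k + 1) ≡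
      (T' - Am G M A0 (k + 1)) + Am G M A0 (k + 1) [MOD G (k + 1)] := by
    rw [Nat.sub_add_cancel (by omega), Nat.sub_add_cancel (by omega)]; exact h2
  have h4 := Nat.ModEq.add_right_cancel' _ h3
  have h5 : (T - Am G M A0 (k + 1)) % G (k + 1) = (T' - Am G M A0 (k + 1)) % G (k + 1) := h4
  rw [← h5]
  exact hk2

theorem badG_thin {G : ℕ → ℕ} {M A0 m T : ℕ} (hG : ∀ k, 0 < G k)
    (hT : Am G M A0 m ≤ T) (hb : BadG G M A0 m T) :
    ∃ i < m, ∃ e : ℤ, |e| ≤ ((M * G i : ℕ) : ℤ) ∧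
      ((G (i + 1) : ℕ) : ℤ) ∣ (T : ℤ) - ((Am G M A0 (i + 1) : ℕ) : ℤ) + e := by
  obtain ⟨k, hk, hk2⟩ := hb
  refine ⟨k, hk, ?_⟩
  have h1 : Am G M A0 (k + 1) ≤ T := (Am_mono _ _ _ hk).trans hT
  obtain ⟨x, hx⟩ := Nat.exists_eq_add_of_le h1
  have hx' : T - Am G M A0 (k + 1) = x := by omega
  rw [hx'] at hk2
  have hx2 : (T : ℤ) - ((Am G M A0 (k + 1) : ℕ) : ℤ) = x := by rw [hx]; push_cast; ring
  rw [hx2]
  have hdm := Nat.div_add_mod x (G (k + 1))
  have hlt := Nat.mod_lt x (hG (k + 1))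
  have hz : (x : ℤ) = (G (k + 1) : ℤ) * ((x / G (k + 1) : ℕ) : ℤ) + ((x % G (k + 1) : ℕ) : ℤ) := by
    exact_mod_cast hdm.symm
  rcases hk2 with h | h
  · refine ⟨-((x % G (k + 1) : ℕ) : ℤ), ?_, ?_⟩
    · rw [abs_neg, abs_of_nonneg (by positivity)]
      exact_mod_cast h.le
    · refine ⟨((x / G (k + 1) : ℕ) : ℤ), ?_⟩
      linarith
  · refine ⟨(G (k + 1) : ℤ) - ((x % G (k + 1) : ℕ) : ℤ), ?_, ?_⟩
    · have h2 : ((x % G (k + 1) : ℕ) : ℤ) < (G (k + 1) : ℤ) := by exact_mod_cast hlt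
      rw [abs_of_nonneg (by linarith)]
      have h3 : (G (k + 1) : ℤ) ≤ ((x % G (k + 1) : ℕ) : ℤ) + ((M * G k : ℕ) : ℤ) := by
        exact_mod_cast h
      linarith
    · refine ⟨((x / G (k + 1) : ℕ) : ℤ) + 1, ?_⟩
      linarith

/-- bad totals -/
def BT (Ms : Finset ℕ) (G : ℕ → ℕ) (M A0 m : ℕ) (T : ℕ) : Prop :=
  (∃ q ∈ Ms, q ∣ T) ∨ BadG G M A0 m T

theorem growth {b M K : ℕ} (hM : 0 < M) (hb : b = 2 ^ (K + 5) * M + 1) (i : ℕ) :
    2 ^ (K + 4) * ∑ j ∈ Finset.range (i + 1), M * b ^ j ≤ b ^ (i + 1) := by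
  have hb2 : 2 ≤ b := by
    have : 1 ≤ 2 ^ (K + 5) * M := Nat.mul_pos (by positivity) hM
    omega
  have hs : ∀ i, ∑ j ∈ Finset.range (i + 1), M * b ^ j ≤ 2 * (M * b ^ i) := by
    intro i
    induction i with
    | zero => simp; omega
    | succ i ih =>
      rw [Finset.sum_range_succ]
      have : 2 * (M * b ^ i) ≤ M * b ^ (i + 1) := by
        rw [pow_succ]
        nlinarith [Nat.mul_le_mul_left (M * b ^ i) hb2]
      omega
  calc 2 ^ (K + 4) * ∑ j ∈ Finset.range (i + 1), M * b ^ j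
      ≤ 2 ^ (K + 4) * (2 * (M * b ^ i)) := Nat.mul_le_mul_left _ (hs i)
    _ = (2 ^ (K + 5) * M) * b ^ i := by ring
    _ ≤ b * b ^ i := Nat.mul_le_mul_right _ (by omega)
    _ = b ^ (i + 1) := by ring

/-- the ruler -/
theorem ruler (K m : ℕ) (Ms : Finset ℕ) (hMs : ∀ q ∈ Ms, q.Prime ∧ 2 ^ (K + 1) < q)
    (b : ℕ) (hb : b = 2 ^ (K + 5) * (∏ q ∈ Ms, q) + 1) (A0 N0 : ℕ) :
    ∃ X : ℕ, N0 ≤ X ∧ 0 < X ∧
      ∀ t : ℤ, ∀ J : Finset ℕ, (∀ k ∈ J, k < K ∧ ∃ k', k' < K ∧ k' ≠ k ∧ ∃ T : ℕ,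
        (T : ℤ) = t + X * 2 ^ k' - X * 2 ^ k ∧ Am (fun k => b ^ k) (∏ q ∈ Ms, q) A0 m ≤ T ∧
        BT Ms (fun k => b ^ k) (∏ q ∈ Ms, q) A0 m T) → J.card ≤ Ms.card + m := by
  classical
  set M := ∏ q ∈ Ms, q with hM
  have hMpos : 0 < M := Finset.prod_pos fun q hq => (hMs q hq).1.pos
  have hbpos : 0 < b := by omega
  have hcopb : Nat.Coprime M b := by
    rw [hb]
    simp
  obtain ⟨X, hX1, hX2, hX⟩ := Thin963.thin K m Ms (fun k => ((b ^ k : ℕ) : ℤ))
    (fun k => ((M * b ^ k : ℕ) : ℤ)) (fun k => ((Am (fun k => b ^ k) M A0 k : ℕ) : ℤ))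
    (fun q hq => ⟨(hMs q hq).1, (hMs q hq).2.le⟩)
    (fun q hq => by
      have h1 : Nat.Coprime q (b ^ m) := by
        apply Nat.Coprime.pow_right
        exact Nat.Coprime.coprime_dvd_left (Finset.dvd_prod_of_mem _ hq) hcopb
      exact_mod_cast Nat.isCoprime_iff_coprime.2 h1)
    (by have : 0 < b ^ m := by positivity
        exact_mod_cast this)
    (fun i j hij => by
      have : b ^ i ∣ b ^ j := pow_dvd_pow _ hij
      exact_mod_cast this)
    (fun i => by
      have : 0 < M * b ^ i := by positivity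
      exact_mod_cast this)
    (fun i => by
      have : b ^ i ∣ M * b ^ i := Dvd.intro_left _ rfl
      exact_mod_cast this)
    (fun i _ => by
      have := growth (b := b) (M := M) (K := K) hMpos hb i
      exact_mod_cast this) N0
  obtain ⟨X', rfl⟩ := Int.eq_ofNat_of_zero_le hX2.le
  refine ⟨X', by exact_mod_cast hX1, by exact_mod_cast hX2, fun t J hJ => ?_⟩
  refine le_trans ?_ (hX t)
  choose! k' hk' using fun k hk => (hJ k hk).2
  refine Finset.card_le_card_of_injOn (fun k => (k' k, k)) ?_ ?_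
  · intro k hk
    obtain ⟨h1, h2, T, hT1, hT2, hT3⟩ := hk' k hk
    have hkK := (hJ k hk).1
    simp only [Finset.coe_filter, Finset.mem_product, Finset.mem_range, Set.mem_ofPred_eq]
    refine ⟨⟨h1, hkK⟩, h2, ?_⟩
    have hT1' : t + (X' : ℤ) * 2 ^ (k' k) - (X' : ℤ) * 2 ^ k = (T : ℤ) := hT1.symm
    rcases hT3 with ⟨q, hq, hqT⟩ | hB
    · left
      refine ⟨q, hq, ?_⟩
      rw [hT1']
      exact_mod_cast hqT
    · right
      obtain ⟨i, hi, e, he1, he2⟩ := badG_thin (fun k => by positivity) hT2 hB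
      refine ⟨i, hi, e, he1, ?_⟩
      rw [hT1']
      exact he2
  · intro a _ b' _ hab
    exact (Prod.mk.inj hab).2

/-- spacing -/
theorem spacing {X N1 : ℕ} (hX : 2 * N1 ≤ X) (hX0 : 0 < X) {k k' l l' : ℕ} (hk : k' ≠ k)
    (hl : l' ≠ l) (h1 : X * 2 ^ k + X * 2 ^ l' < X * 2 ^ l + X * 2 ^ k' + 2 * N1)
    (h2 : X * 2 ^ l + X * 2 ^ k' < X * 2 ^ k + X * 2 ^ l' + 2 * N1) : k = l := by
  have h3 : (2 : ℤ) ^ k - 2 ^ k' = 2 ^ l - 2 ^ l' := by
    by_contra hne
    have hx : (0 : ℤ) < X := by exact_mod_cast hX0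
    have e1 : ((X : ℤ) * 2 ^ k + X * 2 ^ l') < X * 2 ^ l + X * 2 ^ k' + 2 * N1 := by
      exact_mod_cast h1
    have e2 : ((X : ℤ) * 2 ^ l + X * 2 ^ k') < X * 2 ^ k + X * 2 ^ l' + 2 * N1 := by
      exact_mod_cast h2
    have e3 : (2 * N1 : ℤ) ≤ X := by exact_mod_cast hX
    rcases lt_or_gt_of_ne hne with h | h
    · have : (2 : ℤ) ^ k - 2 ^ k' + 1 ≤ 2 ^ l - 2 ^ l' := h
      nlinarith
    · have : (2 : ℤ) ^ l - 2 ^ l' + 1 ≤ 2 ^ k - 2 ^ k' := h
      nlinarith
  exact (Crest.Agent.R320.G369.pow_diff (Ne.symm hk) (Ne.symm hl) h3).1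


/-! ### the join -/

theorem fin (α : Type) [Finite α] (S : Type) [Monoid S] [Finite S] (φ : α → S) (s : S) :
    HL 3 ({w | (w.map φ).prod = s} : Language α) := by
  classical
  have := Fintype.ofFinite S
  obtain ⟨act, hadd, hone, hmul, hfaith⟩ := Crest.Agent.R320.Blk467.exists_module S
  obtain ⟨m, r, hgrid⟩ := grid S (S → ZMod 2) act
  obtain ⟨K, hK⟩ := ExactR_237.exact_gadget α S (S → ZMod 2) φ act (2 * (r + m) + 2)
  obtain ⟨Ms, hMc, hMp, hg2⟩ := hgrid (2 ^ (K + 1))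
  set M := ∏ q ∈ Ms, q with hM
  have hMpos : 0 < M := Finset.prod_pos fun q hq => (hMp q hq).1.pos
  set b : ℕ := 2 ^ (K + 5) * M + 1 with hb
  have hbpos : 0 < b := by omega
  set G : ℕ → ℕ := fun k => b ^ k with hG
  have hGpos : ∀ k, 0 < G k := fun k => by rw [hG]; positivity
  have hGdiv : ∀ a c, a ≤ c → G a ∣ G c := fun a c h => pow_dvd_pow _ h
  have hcopb : Nat.Coprime M b := by rw [hb]; simp
  obtain ⟨lam, rho, nu1, hex1, hlam, hrho, hcomp, hnu⟩ := hg2 G 1 hGpos hGdiv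
    (fun k => Nat.Coprime.pow_right _ hcopb) α (fun w => (w.map φ).prod)
    (fun u v => by simp)
  set N1 := Am G M 1 m with hN1
  have hN1pos : 0 < N1 := by
    have := Am_mono G M 1 (Nat.zero_le m)
    have h0 : Am G M 1 0 = 1 := rfl
    omega
  obtain ⟨X, hX1, hX0, hthin⟩ := ruler K m Ms hMp b hb 1 (2 * N1)
  set c : ℕ → ℕ := fun j => X * 2 ^ j with hc
  have hcinc : ∀ i j, i < j → c i < c j := fun i j hij =>
    Nat.mul_lt_mul_of_pos_left (Nat.pow_lt_pow_right (by norm_num) hij) hX0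
  set p0 := c K with hp0
  have hcp : ∀ k, k < K → c k ≤ p0 := fun k hk => (hcinc k K hk).le
  obtain ⟨lam2, rho2', nuE, hex2, hcomp2⟩ := hK c (fun i j hij _ => hcinc i j hij)
  -- walls
  obtain ⟨n, Gw, Bw, Wo, hLW, hgap, -, -, hfree⟩ :=
    LWallAll_922.walls_all_left α (2 * p0 + 2 * N1 + 1) (by omega)
  set q0 := n + 2 * p0 + 2 * N1 + M + Ac G M 1 m + 1 with hq0
  let g : Geo α :=
    { Wo := Wo, n := n, z := p0 + N1 + q0, p0 := p0, q0 := q0, N1 := N1
      loc := hLW.app, hz := rfl, hq := by omega, hN := hN1pos, hqp := by omega }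
  have gz : g.z = p0 + N1 + q0 := rfl
  have gp0 : g.p0 = p0 := rfl
  have gN1 : g.N1 = N1 := rfl
  let pre : List α → (S → ZMod 2) → (S → ZMod 2) := fun X0 v =>
    act v (X0.map φ).prod + nuE X0 1
  let post : (S → ZMod 2) → List α → (S → ZMod 2) := fun v Y => act v (Y.map φ).prod + nu1 Y
  let nu : List α → (S → ZMod 2) := fun X =>
    act (nuE (X.take p0) 1) ((X.drop p0).map φ).prod + nu1 (X.drop p0)
  have hT : ∀ v Z, g.T pre post v Z = act v (Z.map φ).prod + nu Z := by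
    intro v Z
    show act (act v ((Z.take p0).map φ).prod + nuE (Z.take p0) 1) ((Z.drop p0).map φ).prod +
      nu1 (Z.drop p0) = _
    rw [hadd, ← hmul, ← List.prod_append, ← List.map_append, List.take_append_drop, add_assoc]
  let BadT : ℕ → Prop := BT Ms G M 1 m
  let rho2 : ℕ → List α → Option (S → ZMod 2) := fun k Q => rho2' k Q 1
  have hexS : ∀ P Q u v, lam P = some u → rho Q = some v → v = post u (P ++ Q) :=
    fun P Q u v h1 h2 => hex1 P Q u v h1 h2
  have hlenS : ∀ P v, lam P = some v → P.length ≤ g.N1 := fun P v h => (hlam P v h).2.le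
  have hex2S : ∀ k, k < K → ∀ P Q v u, P.length = c k → Q.length = g.p0 - c k →
      lam2 k P = some v → rho2 k Q = some u → u = pre (P ++ Q) v := by
    intro k hk P Q v u h1 h2 h3 h4
    have := hex2 k hk P Q 1 v u h1 h3 h4
    rw [this, mul_one]
    rfl
  have hgapS : ∀ P Q : List α, g.Wo P → g.Wo (P ++ Q) → Q ≠ [] →
      2 * g.p0 + 2 * g.N1 < Q.length := by
    intro P Q h1 h2 h3
    have hl : 0 < Q.length := List.length_pos_iff.2 h3
    have := hgap (P ++ Q) P.length (P ++ Q).length (by rw [List.length_append]; omega) le_rfl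
      (by rw [List.take_left]; exact h1) (by rw [List.take_length]; exact h2)
    rw [List.length_append] at this
    show 2 * p0 + 2 * N1 < Q.length
    omega
  have hspS : ∀ k k' l l', k < K → k' < K → l < K → l' < K → k' ≠ k → l' ≠ l →
      c k + c l' < c l + c k' + 2 * g.N1 → c l + c k' < c k + c l' + 2 * g.N1 → k = l :=
    fun k k' l l' _ _ _ _ h1 h2 h3 h4 => spacing hX1 hX0 h1 h2 h3 h4
  have hthinS : ∀ τ, g.z ≤ τ + g.p0 → ∀ J : Finset ℕ, (∀ k ∈ J, k < K ∧
      ∃ k', k' < K ∧ k' ≠ k ∧ BadT (τ + c k' - c k - g.p0)) → J.card ≤ r + m := by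
    intro τ hτ J hJ
    refine (hthin ((τ : ℤ) - p0) J fun k hk => ?_).trans (by omega)
    obtain ⟨h1, k', h2, h3, h4⟩ := hJ k hk
    have hck := hcp k h1
    rw [gz, gp0] at hτ
    refine ⟨h1, k', h2, h3, τ + c k' - c k - g.p0, ?_, ?_, h4⟩
    · rw [gp0]
      have e1 : ((τ + c k' - c k - p0 : ℕ) : ℤ) = (τ : ℤ) + (c k' : ℤ) - (c k : ℤ) - p0 := by
        omega
      rw [e1, hc]
      push_cast
      ring
    · rw [gp0]
      show N1 ≤ _
      omega
  -- the code
  have hlenX : ∀ Z, g.XX Z → p0 + N1 + q0 ≤ Z.length := fun Z h => h.1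
  have hC : Crest.Agent.R320.Blk467.PCode ({Z | g.XX Z} : Set (List α)) := by
    refine ⟨fun h => ?_, fun Z hZ Y hY hZY => ?_⟩
    · have := hlenX _ h
      simp only [List.length_nil] at this
      omega
    · obtain ⟨R, hR⟩ := hZY
      exact g.prefix_code (R := R) (R' := []) hZ hY (by rw [hR, List.append_nil])
  have hnuKey : ∀ Z Y : List α, p0 + Ac G M 1 m ≤ Z.length → p0 + Ac G M 1 m ≤ Y.length →
      Z.take (p0 + Ac G M 1 m) = Y.take (p0 + Ac G M 1 m) →
      ((Z.drop (p0 + Ac G M 1 m)).map φ).prod = ((Y.drop (p0 + Ac G M 1 m)).map φ).prod →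
      Z.length ≡ Y.length [MOD M * G m] →
      (Z.map φ).prod = (Y.map φ).prod ∧ nu Z = nu Y := by
    intro Z Y h1 h2 h3 h4 h5
    have e0 : Z.take p0 = Y.take p0 := by
      have := congrArg (List.take p0) h3
      rwa [List.take_take, List.take_take, Nat.min_eq_left (by omega)] at this
    have e1 : (Z.drop p0).take (Ac G M 1 m) = (Y.drop p0).take (Ac G M 1 m) := by
      have := congrArg (List.drop p0) h3
      rwa [List.drop_take, List.drop_take, Nat.add_sub_cancel_left] at this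
    have e2 : ((Z.drop p0).map φ).prod = ((Y.drop p0).map φ).prod := by
      rw [← List.take_append_drop (Ac G M 1 m) (Z.drop p0),
        ← List.take_append_drop (Ac G M 1 m) (Y.drop p0), e1, List.map_append, List.map_append,
        List.prod_append, List.prod_append, List.drop_drop, List.drop_drop, h4]
    have e3 : (Z.map φ).prod = (Y.map φ).prod := by
      rw [← List.take_append_drop p0 Z, ← List.take_append_drop p0 Y, List.map_append,
        List.map_append, List.prod_append, List.prod_append, e0, e2]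
    refine ⟨e3, ?_⟩
    have e4 : (Z.drop p0).length ≡ (Y.drop p0).length [MOD M * G m] := by
      rw [List.length_drop, List.length_drop]
      have h6 : (Z.length - p0) + p0 ≡ (Y.length - p0) + p0 [MOD M * G m] := by
        rw [Nat.sub_add_cancel (by omega), Nat.sub_add_cancel (by omega)]; exact h5
      exact Nat.ModEq.add_right_cancel' _ h6
    have e5 : nu1 (Z.drop p0) = nu1 (Y.drop p0) :=
      hnu _ _ (by rw [List.length_drop]; omega) (by rw [List.length_drop]; omega) e1 e4 e2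
    show act (nuE (Z.take p0) 1) ((Z.drop p0).map φ).prod + nu1 (Z.drop p0) =
      act (nuE (Y.take p0) 1) ((Y.drop p0).map φ).prod + nu1 (Y.drop p0)
    rw [e0, e2, e5]
  -- the key length
  set KK := p0 + Ac G M 1 m + (p0 + N1 + q0) + N1 with hKK
  have hAcm : Am G M 1 m ≤ Ac G M 1 m := Nat.le_add_right _ _
  have hepos : 0 < M * G m := Nat.mul_pos hMpos (hGpos m)
  have key : ∀ Z Y, g.XX Z → g.XX Y → Z.take KK = Y.take KK →
      ((Z.drop KK).map φ).prod = ((Y.drop KK).map φ).prod →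
      Z.length % (M * G m) = Y.length % (M * G m) →
      (Z.map φ).prod = (Y.map φ).prod ∧ nu Z = nu Y ∧ (g.BadX BadT Z → g.BadX BadT Y) := by
    intro Z Y hZ hY h1 h2 h3
    have hZl := hlenX _ hZ
    have hYl := hlenX _ hY
    have hm : Z.length ≡ Y.length [MOD M * G m] := h3
    have d : ∀ U : List α, p0 + N1 + q0 ≤ U.length → U.drop (p0 + Ac G M 1 m) =
        (U.take KK).drop (p0 + Ac G M 1 m) ++ U.drop KK := by
      intro U hU
      conv_lhs => rw [← List.take_append_drop KK U]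
      rw [List.drop_append_of_le_length (by rw [List.length_take]; omega)]
    have e1 : Z.take (p0 + Ac G M 1 m) = Y.take (p0 + Ac G M 1 m) := by
      have := congrArg (List.take (p0 + Ac G M 1 m)) h1
      rwa [List.take_take, List.take_take, Nat.min_eq_left (by omega)] at this
    have e2 : ((Z.drop (p0 + Ac G M 1 m)).map φ).prod =
        ((Y.drop (p0 + Ac G M 1 m)).map φ).prod := by
      rw [d Z hZl, d Y hYl, List.map_append, List.map_append, List.prod_append,
        List.prod_append, h1, h2]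
    obtain ⟨e3, e4⟩ := hnuKey Z Y (by omega) (by omega) e1 e2 hm
    refine ⟨e3, e4, ?_⟩
    have hm' : Z.length - p0 ≡ Y.length - p0 [MOD M * G m] := by
      have h6 : (Z.length - p0) + p0 ≡ (Y.length - p0) + p0 [MOD M * G m] := by
        rw [Nat.sub_add_cancel (by omega), Nat.sub_add_cancel (by omega)]; exact hm
      exact Nat.ModEq.add_right_cancel' _ h6
    rintro (⟨t, ht1, ht2, ht3, ht4⟩ | ⟨q, hq, hqd⟩ | hbg)
    · left
      have htK : t ≤ KK := by
        have : t < p0 + N1 + q0 + N1 := ht4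
        omega
      have hlenT : (Z.take KK).length = (Y.take KK).length := by rw [h1]
      rw [List.length_take, List.length_take] at hlenT
      refine ⟨t, by omega, ?_, ht3, ht4⟩
      have : Y.take t = Z.take t := by
        have := congrArg (List.take t) h1
        rw [List.take_take, List.take_take, Nat.min_eq_left htK] at this
        exact this.symm
      rw [this]
      exact ht2
    · right; left
      refine ⟨q, hq, ?_⟩
      exact (hm'.dvd_iff ((Finset.dvd_prod_of_mem _ hq).trans (Dvd.intro _ rfl))).1 hqd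
    · right; right
      exact badG_congr hGdiv (by show N1 ≤ Z.length - p0; omega)
        (by show N1 ≤ Y.length - p0; omega) (hm'.of_dvd (Dvd.intro_left _ rfl)) hbg
  have hlCT : ∀ L : Language α, (∀ Z ∈ L, g.XX Z) → (∀ Z Y, g.XX Z → g.XX Y →
      ((Z.map φ).prod = (Y.map φ).prod ∧ nu Z = nu Y ∧ (g.BadX BadT Z → g.BadX BadT Y)) →
      Z ∈ L → Y ∈ L) → HL 1 L := by
    intro L hL1 hL2
    exact Crest.Agent.R320.Fib_81.HL_blocks (z := g.z) φ KK (M * G m) hepos hLW hfree L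
      (fun Z hZ => hL1 Z hZ) (fun Z hZ Y hY h1 h2 h3 h4 => hL2 Z Y hZ hY (key Z Y hZ hY h1 h2 h3) h4)
  refine Crest.Agent.R320.Top5_120.top5 act hadd hone hmul hfaith φ nu {Z | g.XX Z}
    {Z | g.XX Z ∧ g.BadX BadT Z} hC (fun Z h => h.1)
    (fun v => {P | g.LP1 pre lam v P}) (fun v => {P | Geo.LP2 K c lam2 v P})
    ?_ ?_ ?_ ?_ ?_ ?_ ?_ s
  · intro v
    refine (List.finite_length_le α (p0 + N1)).subset fun P hP => ?_
    obtain ⟨h1, h2⟩ := hP
    have := hlenS _ _ h2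
    rw [List.length_drop, gp0, gN1] at this
    show P.length ≤ p0 + N1
    omega
  · intro v
    refine (List.finite_length_le α p0).subset fun P hP => ?_
    obtain ⟨k, hk, h1, -⟩ := hP
    show P.length ≤ p0
    rw [h1]
    exact hcp k hk
  · intro x y
    refine hlCT _ (fun Z hZ => hZ.1) ?_
    rintro Z Y hZ hY ⟨h1, h2, -⟩ ⟨-, h4⟩
    refine ⟨hY, ?_⟩
    rw [← h1, ← h2]
    exact h4
  · intro x y
    refine hlCT _ (fun Z hZ => hZ.1.1) ?_
    rintro Z Y hZ hY ⟨h1, h2, h3⟩ ⟨⟨-, h5⟩, h4⟩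
    refine ⟨⟨hY, h3 h5⟩, ?_⟩
    rw [← h1, ← h2]
    exact h4
  · intro s'
    exact Crest.Agent.R320.Fib_81.HL_tail_prod (z := g.z) φ hLW hfree s'
  · intro Z hZ hZb v
    have hZ' : g.XX Z := hZ
    have hnb : ¬ g.BadX BadT Z := fun h => hZb ⟨hZ, h⟩
    have hZl := hlenX _ hZ'
    obtain ⟨P, Q, bb, hPQ, hP, hQ⟩ := g.complete1 pre hlenS hZ' (fun h => hnb (Or.inl h))
      (fun u => by
        obtain ⟨P, Q, h1, h2, h3⟩ := hcomp (Z.drop p0)
          (by rw [List.length_drop]; show 2 * N1 ≤ _; omega)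
          (by rw [List.length_drop]; omega)
          (fun q hq hd => hnb (Or.inr (Or.inl ⟨q, hq, by
            rw [List.length_drop] at hd; exact hd⟩)))
          (fun h => hnb (Or.inr (Or.inr (by
            rw [List.length_drop] at h; exact h)))) u
        exact ⟨P, Q, h1.symm, h2, h3⟩) v
    obtain ⟨s1, s2⟩ := g.sound1 pre post hlenS hexS hP hQ
    refine ⟨P, Q, hPQ.symm, hP, fun x P' hP' => ?_⟩
    obtain ⟨s3, s4⟩ := g.sound1 pre post hlenS hexS hP' hQ
    refine ⟨s3, ?_⟩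
    rw [← hT, ← hT, s4, hPQ, s2]
  · intro Z hZ Y hY v
    obtain ⟨hZ1, hZ2⟩ := hZ
    obtain ⟨hY1, hY2⟩ := hY
    have hZl := hlenX _ hZ1
    obtain ⟨P, Q, bb, hPQ, hP, hQ⟩ := g.complete2 pre post (lam2 := lam2) (rho2 := rho2)
      (C0 := r + m) hcp hgapS hspS hthinS hZ1 hY1 v (by
        have hl0 : (Z.take p0).length = p0 := by rw [List.length_take]; omega
        obtain ⟨I, hI1, hI2⟩ := hcomp2 (Z.take p0) 1 v (fun k hk => by rw [hl0]; exact hcp k hk)
        refine ⟨I, hI1, fun k hk => ?_⟩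
        obtain ⟨h1, h2, h3⟩ := hI2 k hk
        refine ⟨h1, ?_, h3⟩
        rwa [List.take_take, Nat.min_eq_left (hcp k h1)] at h2)
    obtain ⟨X2, hX2, e2, e3⟩ := g.sound2 pre post hcp hex2S hZ1 hZ2 hP hQ (R := []) (R' := Y)
      (by rw [List.append_nil]; exact hPQ)
    have hXY : X2 = Y := by
      rw [hPQ] at e2
      exact (List.append_cancel_left e2).symm
    subst hXY
    refine ⟨P, Q, hPQ, hP, fun x P' hP' => ?_⟩
    have hP'0 := hP'
    obtain ⟨k0, hk0, hP'l, hl0⟩ := hP'0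
    have hQ0 := hQ
    obtain ⟨k, hk, l, hend, hgood, hXQ, u, hu, hbb⟩ := hQ0
    have hP'p : P'.length ≤ g.p0 := by rw [hP'l]; exact hcp k0 hk0
    by_cases hkk : k0 = k
    · subst hkk
      have hx : g.XX (P' ++ Q.take l) := g.xx_of_cend hP'p (by rw [hP'l]; exact hend)
      by_cases hbx : g.BadX BadT (P' ++ Q.take l)
      · left
        obtain ⟨X2', hX2', e4, e5⟩ := g.sound2 pre post hcp hex2S hx hbx hP' hQ (R := [])
          (R' := Q.drop l) (by
            rw [List.append_nil, List.append_assoc, List.take_append_drop])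
        refine ⟨P' ++ Q.take l, ⟨hx, hbx⟩, X2', hX2', e4.symm, ?_⟩
        rw [← hT, ← hT, ← hT, ← hT, e5, e3]
      · right
        refine ⟨P' ++ Q.take l, hx, fun h => hbx h.2, ?_⟩
        exact (List.prefix_append_right_inj _).2 (List.take_prefix _ _)
    · right
      obtain ⟨l', h1, h2⟩ := hgood k0 hk0 hkk
      have hx : g.XX (P' ++ Q.take l') := g.xx_of_cend hP'p (by rw [hP'l]; exact h1)
      refine ⟨P' ++ Q.take l', hx, fun h => h2 ?_, ?_⟩
      · have := g.cbad_of_bad (BadT := BadT) hP'p (by rw [hP'l]; exact h1) h.2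
        rwa [hP'l] at this
      · exact (List.prefix_append_right_inj _).2 (List.take_prefix _ _)

end Crest.Agent.R320.Fin_679
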