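import Crest.Agent.R320.Joint_68
import Crest.Agent.R320.G1_604
import Crest.Agent.R320.Sp_69
import Crest.Agent.R320.ExactR_237
import Crest.Agent.R320.WallU_228
import Crest.Agent.R320.Top5_120
import Crest.Agent.R320.P4_440
import Crest.Agent.R320.Univ_582

/-!
# Row 320: the join (helper68)
-/

set_option autoImplicit false

namespace Crest.Agent.R320.Fin_68

open Crest.RegLang Crest.Agent.R320.Hk_851 Crest.Agent.R320.Blk467 Crest.Agent.R320.Joint_68

/-- the bad totals are periodic -/
theorem badN_period (Ms : Finset ℕ) (M m b : ℕ) (hMs : ∀ k ∈ Ms, k ∣ M) (x y : ℕ)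
    (h : x ≡ y [MOD M * b ^ m]) : Sp_69.BadN Ms M m b x ↔ Sp_69.BadN Ms M m b y := by
  have h1 : ∀ k ∈ Ms, (k ∣ x ↔ k ∣ y) := fun k hk =>
    (h.of_mul_right _).dvd_iff (hMs k hk)
  have h2 : ∀ j < m, x / b ^ j % b = y / b ^ j % b := by
    intro j hj
    have h3 : x ≡ y [MOD b ^ j * b] := by
      refine (h.of_mul_left _).of_dvd ?_
      rw [← pow_succ]
      exact pow_dvd_pow b hj
    rw [← Nat.mod_mul_right_div_self, ← Nat.mod_mul_right_div_self, h3]
  unfold Sp_69.BadN
  constructor
  · rintro (⟨k, hk, hd⟩ | ⟨j, hj, hd⟩)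
    · exact Or.inl ⟨k, hk, (h1 k hk).1 hd⟩
    · exact Or.inr ⟨j, hj, by rwa [← h2 j hj]⟩
  · rintro (⟨k, hk, hd⟩ | ⟨j, hj, hd⟩)
    · exact Or.inl ⟨k, hk, (h1 k hk).2 hd⟩
    · exact Or.inr ⟨j, hj, by rwa [h2 j hj]⟩

theorem pr_split {α S : Type} [Monoid S] (φ : α → S) (w : List α) (a B : ℕ) (h : a ≤ B) :
    ((w.drop a).map φ).prod = (((w.take B).drop a).map φ).prod * ((w.drop B).map φ).prod := by
  rw [← List.prod_append, ← List.map_append]
  congr 2
  by_cases hB : B ≤ w.length
  · conv_lhs => rw [← List.take_append_drop B w]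
    rw [List.drop_append_of_le_length (by rw [List.length_take]; omega)]
  · rw [List.take_of_length_le (by omega), List.drop_of_length_le (l := w) (i := B) (by omega),
      List.append_nil]

theorem dt_take {α : Type} (w w' : List α) (a k B : ℕ) (h : a + k ≤ B)
    (hw : w.take B = w'.take B) : (w.drop a).take k = (w'.drop a).take k := by
  have key : ∀ u : List α, (u.drop a).take k = ((u.take B).drop a).take k := by
    intro u
    rw [List.drop_take, List.take_take, min_eq_left (by omega)]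
  rw [key w, key w', hw]

theorem fin (α : Type) [Finite α] (S : Type) [Monoid S] [Finite S] (φ : α → S) (s : S) :
    HL 3 ({w | (w.map φ).prod = s} : Language α) := by
  classical
  have := Fintype.ofFinite S
  obtain ⟨act, hadd, hone, hmul, hfaith⟩ := exists_module S
  obtain ⟨m, r, hg⟩ := G1_604.g1 S (S → ZMod 2) act
  obtain ⟨K, hK⟩ := ExactR_237.exact_gadget α S (S → ZMod 2) φ act (2 * (r + m) + 2)
  obtain ⟨Ms, M, hcard, hMs, hM, hb⟩ := hg (2 * 4 ^ K)
  obtain ⟨b, hbdef⟩ : ∃ b, b = (18 * 4 ^ K + 8) * M + 1 := ⟨_, rfl⟩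
  have h4K : 1 ≤ 4 ^ K := Nat.one_le_pow _ _ (by norm_num)
  have hb1 : 4 * M + 4 < b := by rw [hbdef]; nlinarith
  have hb2 : 18 * 4 ^ K * M ≤ b := by rw [hbdef]; nlinarith
  have hcop : Nat.Coprime b M := by
    rw [hbdef]
    simp
  have hb0 : 0 < b := by omega
  obtain ⟨lam, rho, nu, hlam, hsound, hcomp, hfs⟩ := hb b hb1 hcop α φ
  obtain ⟨N1, hN1⟩ : ∃ N1, N1 = b ^ m := ⟨_, rfl⟩
  have hN1p : 0 < N1 := by rw [hN1]; positivity
  obtain ⟨c0, hc1, hc2, -, -, hc3⟩ := Sp_69.spoil Ms M m b K N1 hM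
    (fun k hk => ⟨(hMs k hk).2.2, (hMs k hk).1⟩) hb2 hcop
  obtain ⟨c, hcdef⟩ : ∃ c : ℕ → ℕ, c = fun i => c0 i + 1 := ⟨_, rfl⟩
  have hcap : ∀ i, c i = c0 i + 1 := fun i => by rw [hcdef]
  have hcmono : ∀ i j, i < j → c i < c j := by
    intro i j hij
    have := hc1 i j hij
    rw [hcap, hcap]
    omega
  obtain ⟨lam2, rho2, nu2, hs2, hc2'⟩ := hK c (fun i j h _ => hcmono i j h)
  obtain ⟨p0, hp0⟩ : ∃ p0, p0 = c K := ⟨_, rfl⟩
  have hcp : ∀ k < K, c k ≤ p0 := fun k hk => by rw [hp0]; exact (hcmono k K hk).le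
  obtain ⟨n, c', P, Sw, hn, hP, hloc, hgap, -, -, hfew⟩ :=
    WallU_228.walls_full (α := α) (4 * p0 + 4 * N1 + 4)
  obtain ⟨z, hz⟩ : ∃ z, z = 3 * p0 + 3 * N1 + n + p0 := ⟨_, rfl⟩
  let D : Dat α S (S → ZMod 2) :=
    { f := φ, act := act, Wo := WallU_228.Wo n Sw, n := n, W := 4 * p0 + 4 * N1 + 4
      loc := hloc
      len := fun P h => h.1
      gap := hgap
      K := K, N1 := N1, La := p0, p0 := p0, z := z, C0 := r + m, R := 2 * (r + m) + 2
      c := c, BadT := Sp_69.BadN Ms M m b
      hc := fun i j h _ => hcmono i j h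
      hsep := by
        intro i j k l _ _ _ _ h5 h6 h7
        rw [hcap, hcap, hcap, hcap]
        rcases hc2 i j k l h5 h6 h7 with h | h
        · left; omega
        · right; omega
      hspoil := by
        intro T hT t ht
        have h1 := hc3 T (fun k hk => by have := hcp k hk; rw [hcap] at this; omega)
        refine le_trans (le_trans (Finset.card_le_card fun x hx => ?_) h1) (by omega)
        obtain ⟨a1, a2, a3, a4⟩ := ht x hx
        refine Finset.mem_filter.2 ⟨Finset.mem_product.2 ⟨Finset.mem_range.2 a1,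
          Finset.mem_range.2 a2⟩, a3, ?_⟩
        rw [hcap, hcap] at a4
        rwa [show T + (c0 x.2 + 1) - (c0 x.1 + 1) = T + c0 x.2 - c0 x.1 by omega] at a4
      lam := lam, rho := rho, nu := nu
      hlam := fun p v h => by rw [hN1]; exact (hlam p v h).le
      hs1 := fun p q v r h1 h2 _ => hsound p q v r h1 h2
      hc1 := by
        intro u _ hu v
        refine hcomp u (fun k hk hd => hu (Or.inl ⟨k, hk, hd⟩)) (fun j hj => ?_) v
        by_contra hcon
        exact hu (Or.inr ⟨j, hj, hcon⟩)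
      lam2 := lam2
      rho2 := fun k Q => rho2 k Q 1
      nu2 := fun X => nu2 X 1
      hs2 := by
        intro k hk P Q v b h1 h2 h3
        have := hs2 k hk P Q 1 v b h1 h2 h3
        rw [mul_one] at this
        exact this
      hc2 := fun u v h => hc2' u 1 v h
      hR := by omega
      hcp := hcp
      hcn := fun k _ => by rw [hcap]; omega
      hN0 := hN1p
      hz := by rw [hz]
      hW := le_rfl }
  -- affine form of the zone action
  let nuT : List α → (S → ZMod 2) := fun X =>
    act (nu2 (X.take p0) 1) ((X.drop p0).map φ).prod + nu (X.drop p0)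
  have he : ∀ (X : List α) (v : S → ZMod 2), D.e X v = act v (X.map φ).prod + nuT X := by
    intro X v
    show act (act v ((X.take p0).map φ).prod + nu2 (X.take p0) 1) ((X.drop p0).map φ).prod
      + nu (X.drop p0) = _
    rw [hadd, ← hmul, ← List.prod_append, ← List.map_append, List.take_append_drop]
    show _ = act v (X.map φ).prod + (act (nu2 (X.take p0) 1) ((X.drop p0).map φ).prod
      + nu (X.drop p0))
    rw [add_assoc]
  obtain ⟨B, hB⟩ : ∃ B, B = z + N1 + N1 + p0 := ⟨_, rfl⟩
  have hφ : ∀ u v : List α, ((u ++ v).map φ).prod = (u.map φ).prod * (v.map φ).prod := by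
    intro u v
    rw [List.map_append, List.prod_append]
  have hPer : 0 < M * b ^ m := by positivity
  -- the finite key decides the value
  have hprod : ∀ w w' : List α, w.take B = w'.take B →
      ((w.drop B).map φ).prod = ((w'.drop B).map φ).prod → ∀ a ≤ B,
      ((w.drop a).map φ).prod = ((w'.drop a).map φ).prod := by
    intro w w' h1 h2 a ha
    rw [pr_split φ w a B ha, pr_split φ w' a B ha, h1, h2]
  have hkey : ∀ w w' : List α, B ≤ w.length → B ≤ w'.length → w.take B = w'.take B →
      ((w.drop B).map φ).prod = ((w'.drop B).map φ).prod →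
      w.length ≡ w'.length [MOD M * b ^ m] →
      (w.map φ).prod = (w'.map φ).prod ∧ nuT w = nuT w' ∧
        (w.length - p0) ≡ (w'.length - p0) [MOD M * b ^ m] := by
    intro w w' l1 l2 h1 h2 h3
    have hmod : (w.length - p0) ≡ (w'.length - p0) [MOD M * b ^ m] := by
      apply Nat.ModEq.add_right_cancel' p0
      rwa [Nat.sub_add_cancel (by omega), Nat.sub_add_cancel (by omega)]
    refine ⟨?_, ?_, hmod⟩
    · have := hprod w w' h1 h2 0 (Nat.zero_le _)
      simpa using this
    · have e1 : w.take p0 = w'.take p0 := by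
        have := dt_take w w' 0 p0 B (by omega) h1
        simpa using this
      have e2 := hprod w w' h1 h2 p0 (by omega)
      have e3 : nu (w.drop p0) = nu (w'.drop p0) := by
        refine (hfs (w.drop p0) (w'.drop p0) ?_ ?_ ?_ ?_ ?_).2
        · rw [List.length_drop, ← hN1]; omega
        · rw [List.length_drop, ← hN1]; omega
        · rw [← hN1]
          exact dt_take w w' p0 N1 B (by omega) h1
        · rw [List.length_drop, List.length_drop]
          exact hmod
        · rw [List.drop_drop, List.drop_drop, ← hN1]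
          exact hprod w w' h1 h2 _ (by omega)
      show act (nu2 (w.take p0) 1) ((w.drop p0).map φ).prod + nu (w.drop p0) =
        act (nu2 (w'.take p0) 1) ((w'.drop p0).map φ).prod + nu (w'.drop p0)
      rw [e1, e2, e3]
  have hBadkey : ∀ w w' : List α, B ≤ w.length → B ≤ w'.length → w.take B = w'.take B →
      (w.length - p0) ≡ (w'.length - p0) [MOD M * b ^ m] → w ∈ D.Bad → w' ∈ D.Bad := by
    rintro w w' l1 l2 h1 h2 (⟨t, t1, t2, t3, t4⟩ | h)
    · left
      refine ⟨t, t1, t2, ?_, ?_⟩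
      · have t2' : t < z + N1 := t2
        omega
      · have t2' : t < z + N1 := t2
        have : w'.take t = w.take t := by
          have := dt_take w' w 0 t B (by omega) h1.symm
          simpa using this
        rw [this]
        exact t4
    · right
      exact (badN_period Ms M m b (fun k hk => (hMs k hk).2.2) _ _ h2).1 h
  have hpc : PCode D.Z := by
    refine ⟨?_, fun X hX Y hY h => Dat.pcode hX hY h⟩
    rintro ⟨h1, -⟩
    have h2 : 0 < z := by omega
    have h1' : z ≤ 0 := h1
    omega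
  refine Top5_120.top5 act hadd hone hmul hfaith φ nuT D.Z {X | X ∈ D.Z ∧ X ∈ D.Bad} hpc
    (fun X h => h.1) D.P1 D.P2 ?_ ?_ ?_ ?_ ?_ ?_ ?_ s
  · intro v
    refine (List.finite_length_le α (p0 + N1)).subset ?_
    rintro p ⟨h1, h2⟩
    have h3 := D.hlam _ _ h2
    have h3' : (p.drop p0).length ≤ N1 := h3
    rw [List.length_drop] at h3'
    show p.length ≤ p0 + N1
    omega
  · intro v
    refine (List.finite_length_le α p0).subset ?_
    rintro p ⟨k, hk, h1, -⟩
    have := hcp k hk
    have h1' : p.length = c k := h1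
    show p.length ≤ p0
    omega
  · intro x y
    exact P4_440.HL_block (φ := fun w : List α => (w.map φ).prod) (n := n) (S := Sw) (z := z)
      (B := B) (P := M * b ^ m) hφ (by omega) (by omega) hPer hfew
      (R := fun X => act x (X.map φ).prod + nuT X = y) (by
        intro w w' l1 l2 h1 h2 h3
        obtain ⟨k1, k2, -⟩ := hkey w w' l1 l2 h1 h2 h3
        show (act x (w.map φ).prod + nuT w = y) ↔ (act x (w'.map φ).prod + nuT w' = y)
        rw [k1, k2])
  · intro x y
    refine (P4_440.HL_block (φ := fun w : List α => (w.map φ).prod) (n := n) (S := Sw) (z := z)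
      (B := B) (P := M * b ^ m) hφ (by omega) (by omega) hPer hfew
      (R := fun X => X ∈ D.Bad ∧ act x (X.map φ).prod + nuT X = y) (by
        intro w w' l1 l2 h1 h2 h3
        obtain ⟨k1, k2, k3⟩ := hkey w w' l1 l2 h1 h2 h3
        show (w ∈ D.Bad ∧ act x (w.map φ).prod + nuT w = y) ↔
          (w' ∈ D.Bad ∧ act x (w'.map φ).prod + nuT w' = y)
        rw [k1, k2]
        exact and_congr_left fun _ => ⟨hBadkey w w' l1 l2 h1 k3, hBadkey w' w l2 l1 h1.symm k3.symm⟩)
      ).congr fun w => ?_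
    constructor
    · rintro ⟨⟨a1, a2⟩, a3⟩
      exact ⟨a1, a2, a3⟩
    · rintro ⟨a1, a2, a3⟩
      exact ⟨⟨a1, a2⟩, a3⟩
  · intro t
    exact P4_440.HL_rest (φ := fun w : List α => (w.map φ).prod) (n := n) (S := Sw) (z := z)
      (B := B) (P := M * b ^ m) hφ (by omega) (by omega) hPer hfew
      (R := fun X => (X.map φ).prod = t) (by
        intro w w' l1 l2 h1 h2 h3
        obtain ⟨k1, k2, -⟩ := hkey w w' l1 l2 h1 h2 h3
        show ((w.map φ).prod = t) ↔ ((w'.map φ).prod = t)
        rw [k1])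
  · intro X hX hXb v
    obtain ⟨p, q, h1, h2, h3⟩ := Dat.compl1 X hX (fun h => hXb ⟨hX, h⟩) v
    refine ⟨p, q, h1.symm, h2, fun x P' hP' => ?_⟩
    obtain ⟨h4, h5⟩ := h3 x P' hP'
    refine ⟨h4, ?_⟩
    rw [he, he] at h5
    exact h5
  · intro X hX Y hY v
    obtain ⟨p, q, h1, h2, h3⟩ := Dat.compl2s X hX.1 Y hY.1 v
    refine ⟨p, q ++ Y, by rw [← List.append_assoc, ← h1], h2, fun x P' hP' => ?_⟩
    rcases h3 x P' hP' with ⟨u1, hu1, u2, hu2, h4, h5⟩ | ⟨x2, h4, h5, h6⟩
    · by_cases hb : u1 ∈ D.Bad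
      · left
        refine ⟨u1, ⟨hu1, hb⟩, u2, hu2, h4.symm, ?_⟩
        rw [he, he, he, he] at h5
        exact h5
      · right
        exact ⟨u1, hu1, fun h => hb h.2, h4 ▸ List.prefix_append _ _⟩
    · right
      exact ⟨x2, h4, fun h => h5 h.2, h6⟩

/-- **S0495 for every alphabet** -/
theorem result {α : Type*} [Finite α] (L : Language α) (hL : L.IsRegular) :
    ∃ e : GRegExp α, e.height ≤ 3 ∧ e.lang = L :=
  Univ_582.final (fun β _ S _ _ φ s => fin β S φ s) α L hL

end Crest.Agent.R320.Fin_68
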