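import Crest.Agent.R320.End_684
import Crest.Agent.R320.GridG_19
import Crest.Agent.R320.SpoilGrid_567

/-!
# Row 320: the gadget `Gad` from GridG_19.grid and SpoilGrid_567.spoil_grid (helper684)
-/

set_option autoImplicit false

namespace Crest.Agent.R320.Fin_684

open Crest.Agent.R320.Two_621 (Tok)
open Crest.Agent.R320.End_684
open Crest.Agent.R320.GridG_19 (Am Ac BadG Am_mono)

theorem gad {A S : Type} [Monoid S] [Finite S] (f : A → S) : Gad f := by
  classical
  obtain ⟨m, r, hgrid⟩ := GridG_19.grid.{0} S (Tok S) Two_621.act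
  refine ⟨r + m, fun K => ?_⟩
  obtain ⟨Ms, hcard, hpr, hgr⟩ := hgrid (4 ^ K + 2)
  set M : ℕ := ∏ q ∈ Ms, q with hMdef
  have hM : 0 < M := Finset.prod_pos fun q hq => (hpr q hq).1.pos
  set G0 : ℕ := 2 ^ (16 * (m + 1) * M * 4 ^ K) with hG0
  have hG0pos : 0 < G0 := by rw [hG0]; positivity
  have hG0big : 16 * (m + 1) * M * 4 ^ K ≤ G0 := (Nat.lt_two_pow_self).le
  have hcopq : ∀ q ∈ Ms, Nat.Coprime q G0 := by
    intro q hq
    obtain ⟨h1, h2⟩ := hpr q hq
    rw [hG0]
    refine Nat.Coprime.pow_right _ ?_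
    rw [Nat.coprime_primes h1 Nat.prime_two]
    have : 0 < 4 ^ K := by positivity
    omega
  let G : ℕ → ℕ := fun k => G0 ^ k
  have hGpos : ∀ k, 0 < G k := fun k => pow_pos hG0pos k
  have hGd : ∀ a b, a ≤ b → G a ∣ G b := fun a b h => pow_dvd_pow _ h
  have hcopG : ∀ k, Nat.Coprime M (G k) := fun k =>
    Nat.Coprime.pow_right _ (Nat.Coprime.prod_left hcopq)
  obtain ⟨lam, rho, nu, hS, hL, -, hC, hnu⟩ := hgr G 0 hGpos hGd hcopG A
    (fun w => (w.map f).prod) (prod_app f)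
  set N1 : ℕ := Am G M 0 m with hN1
  obtain ⟨x, hx1, hx2, hx3⟩ := SpoilGrid_567.spoil_grid K m Ms M G0 (2 * N1)
    (fun q hq => by have := (hpr q hq).2; omega) hcopq
    (fun q hq q' hq' hne => (Nat.coprime_primes (hpr q hq).1 (hpr q' hq').1).2 hne) hM hG0big
  have hAmono : ∀ j, j ≤ m → Am G M 0 j ≤ N1 := fun j hj => Am_mono G M 0 hj
  -- bad totals
  let BT : ℕ → Prop := fun T => (∃ q ∈ Ms, q ∣ T) ∨ BadG G M 0 m T
  have hBT : ∀ T : ℕ, N1 ≤ T → BT T →
      SpoilGrid_567.BadT Ms M G0 m (fun j => (Am G M 0 j : ℤ)) (T : ℤ) := by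
    rintro T hT (⟨q, hq, hd⟩ | ⟨k, hk, hb⟩)
    · exact Or.inl ⟨q, hq, by exact_mod_cast hd⟩
    · right
      refine ⟨k + 1, by omega, by omega, ?_⟩
      have hle : Am G M 0 (k + 1) ≤ T := (hAmono (k + 1) (by omega)).trans hT
      set D := T - Am G M 0 (k + 1) with hD
      have hDc : (D : ℤ) = (T : ℤ) - (Am G M 0 (k + 1) : ℤ) := by rw [hD]; push_cast [hle]; ring
      have hdm := Nat.div_add_mod D (G (k + 1))
      have hlt := Nat.mod_lt D (hGpos (k + 1))
      have hdmz : (G (k + 1) : ℤ) * ((D / G (k + 1) : ℕ) : ℤ) + ((D % G (k + 1) : ℕ) : ℤ) = (D : ℤ) := by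
        exact_mod_cast hdm
      have hGz : ((G (k + 1) : ℕ) : ℤ) = (G0 : ℤ) ^ (k + 1) := by
        show ((G0 ^ (k + 1) : ℕ) : ℤ) = _
        push_cast; ring
      have hGz' : ((G k : ℕ) : ℤ) = (G0 : ℤ) ^ (k + 1 - 1) := by
        show ((G0 ^ k : ℕ) : ℤ) = _
        rw [Nat.add_sub_cancel]; push_cast; ring
      rcases hb with hb | hb
      · refine ⟨((D / G (k + 1) : ℕ) : ℤ), ?_⟩
        rw [← hDc, ← hGz, ← hGz']
        have e : (D : ℤ) - ((D / G (k + 1) : ℕ) : ℤ) * (G (k + 1) : ℤ) = ((D % G (k + 1) : ℕ) : ℤ) := by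
          rw [← hdmz]; ring
        rw [e, abs_of_nonneg (by positivity)]
        exact_mod_cast hb.le
      · refine ⟨((D / G (k + 1) : ℕ) : ℤ) + 1, ?_⟩
        rw [← hDc, ← hGz, ← hGz']
        have e : (D : ℤ) - (((D / G (k + 1) : ℕ) : ℤ) + 1) * (G (k + 1) : ℤ) =
            -((G (k + 1) : ℤ) - ((D % G (k + 1) : ℕ) : ℤ)) := by
          rw [← hdmz]; ring
        have hltz : ((D % G (k + 1) : ℕ) : ℤ) < (G (k + 1) : ℤ) := by exact_mod_cast hlt
        have hbz : (G (k + 1) : ℤ) ≤ ((D % G (k + 1) : ℕ) : ℤ) + (M : ℤ) * (G k : ℤ) := by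
          exact_mod_cast hb
        rw [e, abs_neg, abs_of_nonneg (by linarith)]
        linarith
  refine ⟨N1, 2 * N1 + M, M * G m, Ac G M 0 m, fun k => x k + N1, BT, lam, rho, nu,
    Nat.mul_pos hM (hGpos m), ?_, ?_, ?_, ?_, ?_, ?_, ?_, ?_⟩
  · intro i j hij _
    have := hx1 i j hij
    show x i + N1 < x j + N1
    omega
  · intro i i' j j' hi hi' hj hj' hii hjj h1 h2
    change x i + N1 + (x j' + N1) < x j + N1 + (x i' + N1) + 2 * N1 at h1
    change x j + N1 + (x i' + N1) < x i + N1 + (x j' + N1) + 2 * N1 at h2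
    refine (hx2 i i' j j' hi hi' hj hj' (Ne.symm hii) ?_).1
    rw [abs_le]
    push_cast
    constructor <;> omega
  · intro T hT I hI
    have hle : I.card ≤ (((Finset.range K ×ˢ Finset.range K).filter
          (fun ab => ab.1 ≠ ab.2 ∧ SpoilGrid_567.BadT Ms M G0 m (fun j => (Am G M 0 j : ℤ))
            ((T : ℤ) + x ab.1 - x ab.2)))).card := by
      have hch : ∀ k ∈ I, ∃ k', k' < K ∧ k' ≠ k ∧ BT (T + (x k' + N1) - (x k + N1)) :=
        fun k hk => (hI k hk).2
      choose! g hg1 hg2 hg3 using hch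
      refine Finset.card_le_card_of_injOn (fun k => (g k, k)) ?_ ?_
      · intro k hk
        have hkI : k ∈ I := hk
        have hkK := (hI k hkI).1
        have hTk : x k + N1 ≤ T := hT k hkK
        rw [Finset.mem_coe, Finset.mem_filter, Finset.mem_product, Finset.mem_range, Finset.mem_range]
        refine ⟨⟨hg1 k hkI, hkK⟩, hg2 k hkI, ?_⟩
        have h1 := hBT (T + (x (g k) + N1) - (x k + N1)) (by omega) (hg3 k hkI)
        have e : ((T + (x (g k) + N1) - (x k + N1) : ℕ) : ℤ) = (T : ℤ) + x (g k) - x k := by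
          omega
        rw [e] at h1
        exact h1
      · intro a _ b _ h
        exact congrArg Prod.snd h
    have h2 := hx3 (fun j => (Am G M 0 j : ℤ)) (T : ℤ)
    have h3 : I.card ≤ Ms.card + m := by
      refine hle.trans (le_trans (le_of_eq ?_) h2)
      congr
    omega
  · intro P Q v b h1 h2
    exact hS P Q v b h1 h2
  · intro P v h
    exact (hL P v h).2.le
  · intro Y hY hb v
    obtain ⟨P, Q, h1, h2, h3⟩ := hC Y (by omega) (by omega)
      (fun q hq hd => hb (Or.inl ⟨q, hq, hd⟩)) (fun h => hb (Or.inr h)) v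
    exact ⟨P, Q, h1.symm, h2, h3⟩
  · intro Y Y' h1 h2 h3 h4 h5
    exact hnu Y Y' h1 h2 h3 h4 h5
  · rintro T T' hT hT' hmod (⟨q, hq, hd⟩ | ⟨k, hk, hb⟩)
    · left
      refine ⟨q, hq, ?_⟩
      have hqM : q ∣ M * G m := (Finset.dvd_prod_of_mem _ hq).trans (Dvd.intro _ rfl)
      have : T ≡ T' [MOD q] := Nat.ModEq.of_dvd hqM hmod
      exact (this.dvd_iff (dvd_refl q)).1 hd
    · right
      refine ⟨k, hk, ?_⟩
      have hd : G (k + 1) ∣ M * G m := (hGd (k + 1) m (by omega)).trans (Dvd.intro_left _ rfl)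
      have h1 : T % G (k + 1) = T' % G (k + 1) := Nat.ModEq.of_dvd hd hmod
      have hAc : Am G M 0 (k + 1) ≤ Ac G M 0 m := by
        have := hAmono (k + 1) (by omega)
        unfold Ac
        omega
      have h2 := mod_sub h1 (hAc.trans hT) (hAc.trans hT')
      rw [← h2]
      exact hb

/-- **the fibres of a morphism have generalized star height at most three** -/
theorem fin (α : Type) [Finite α] (S : Type) [Monoid S] [Finite S] (φ : α → S) (s : S) :
    Hk_851.HL 3 ({w | (w.map φ).prod = s} : Language α) :=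
  all_monoids φ (gad φ) s

/-- **the row** -/
theorem row {α : Type*} [Finite α] (L : Language α) (hL : L.IsRegular) :
    ∃ e : Crest.RegLang.GRegExp α, e.height ≤ 3 ∧ e.lang = L :=
  End_684.row (fun β _ S _ _ f => gad f) L hL

end Crest.Agent.R320.Fin_684
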