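import Mathlib

/-!
# Row 320: SPOIL leaf (wide ruler for the digit gadget `g1`), helper313

`Bad Ms M m b n`: the length `n` is bad for the gadget `g1` (a modulus divides it or one of its
`m` lowest digits in base `b` lies in one of the two end bands).
`spoil`: a wide Golomb ruler `c l = 2 ^ l * K0` such that at most `Ms.card + m` pairs of different
marks move a given length to a bad length.
-/

set_option autoImplicit false

namespace Crest.Agent.R320.Sp_313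

/-- bad length for the gadget `g1`, literally -/
def Bad (Ms : Finset ℕ) (M m b n : ℕ) : Prop :=
  (∃ k ∈ Ms, k ∣ n) ∨ ∃ j < m, ¬ (M ≤ n / b ^ j % b ∧ n / b ^ j % b + M + 1 ≤ b)

/-- the integer form, weaker than `Bad` on natural numbers -/
def BadZ (Ms : Finset ℕ) (M m b : ℕ) (n : ℤ) : Prop :=
  (∃ k ∈ Ms, (k : ℤ) ∣ n) ∨
    ∃ j < m, ∃ e : ℤ, (b : ℤ) ^ (j + 1) ∣ n - e ∧ |e| ≤ (M : ℤ) * (b : ℤ) ^ j

theorem Bad.toZ {Ms : Finset ℕ} {M m b n : ℕ} (hb : 0 < b) (h : Bad Ms M m b n) :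
    BadZ Ms M m b (n : ℤ) := by
  rcases h with ⟨k, hk, hd⟩ | ⟨j, hj, hn⟩
  · exact Or.inl ⟨k, hk, by exact_mod_cast hd⟩
  · refine Or.inr ⟨j, hj, ?_⟩
    have hbj : 0 < b ^ j := pow_pos hb j
    have e1 : n = b ^ j * (n / b ^ j) + n % b ^ j := (Nat.div_add_mod n (b ^ j)).symm
    have e2 : n / b ^ j = b * (n / b ^ j / b) + n / b ^ j % b :=
      (Nat.div_add_mod (n / b ^ j) b).symm
    have h3 : n % b ^ j < b ^ j := Nat.mod_lt _ hbj
    have h4 : n / b ^ j % b < b := Nat.mod_lt _ hb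
    set d := n / b ^ j % b with hd
    set q := n / b ^ j / b with hq
    set s := n % b ^ j with hs
    have e3 : (n : ℤ) = (b : ℤ) ^ (j + 1) * q + (b : ℤ) ^ j * d + s := by
      have : n = b ^ (j + 1) * q + b ^ j * d + s := by
        rw [e2] at e1
        rw [e1]; ring
      exact_mod_cast this
    have hbjZ : (0 : ℤ) < (b : ℤ) ^ j := by exact_mod_cast hbj
    have h3Z : (s : ℤ) < (b : ℤ) ^ j := by exact_mod_cast h3
    have h0s : (0 : ℤ) ≤ (s : ℤ) := Int.natCast_nonneg _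
    rw [not_and_or] at hn
    rcases hn with hn | hn
    · refine ⟨(b : ℤ) ^ j * d + s, ⟨q, by rw [e3]; ring⟩, ?_⟩
      have h5 : (d : ℤ) + 1 ≤ M := by
        have : d + 1 ≤ M := by omega
        exact_mod_cast this
      have h6 : (0 : ℤ) ≤ (d : ℤ) := Int.natCast_nonneg _
      rw [abs_le]
      constructor
      · nlinarith
      · nlinarith
    · refine ⟨(b : ℤ) ^ j * d + s - (b : ℤ) ^ (j + 1), ⟨q + 1, by rw [e3]; ring⟩, ?_⟩
      have h5 : (b : ℤ) ≤ (d : ℤ) + M := by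
        have : b ≤ d + M := by omega
        exact_mod_cast this
      have h6 : (d : ℤ) + 1 ≤ b := by
        have : d + 1 ≤ b := by omega
        exact_mod_cast this
      have h7 : (b : ℤ) ^ (j + 1) = (b : ℤ) ^ j * b := by ring
      have h8 : (0 : ℤ) ≤ (M : ℤ) := Int.natCast_nonneg _
      rw [abs_le, h7]
      constructor
      · nlinarith
      · nlinarith

/-- Golomb property of the powers of two -/
theorem pow_two_pair {i j k l : ℕ} (h : (2 : ℤ) ^ j - 2 ^ i = 2 ^ l - 2 ^ k) (hij : i ≠ j) :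
    i = k ∧ j = l := by
  have h' : 2 ^ j + 2 ^ k = 2 ^ l + 2 ^ i := by
    have : (2 : ℤ) ^ j + 2 ^ k = 2 ^ l + 2 ^ i := by linarith
    exact_mod_cast this
  clear h
  induction i generalizing j k l with
  | zero =>
    cases j with
    | zero => exact absurd rfl hij
    | succ j =>
      cases k with
      | zero =>
        refine ⟨rfl, ?_⟩
        have : 2 ^ (j + 1) = 2 ^ l := by omega
        exact Nat.pow_right_injective (le_refl 2) this
      | succ k =>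
        exfalso
        have h1 : 2 ^ (j + 1) = 2 * 2 ^ j := pow_succ' 2 j
        have h2 : 2 ^ (k + 1) = 2 * 2 ^ k := pow_succ' 2 k
        have hj0 : 0 < 2 ^ j := by positivity
        have hk0 : 0 < 2 ^ k := by positivity
        cases l with
        | zero => omega
        | succ l =>
          have h3 : 2 ^ (l + 1) = 2 * 2 ^ l := pow_succ' 2 l
          omega
  | succ i ih =>
    cases j with
    | zero =>
      have h1 : 2 ^ (i + 1) = 2 * 2 ^ i := pow_succ' 2 i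
      have hi0 : 0 < 2 ^ i := by positivity
      cases l with
      | zero =>
        refine ⟨?_, rfl⟩
        have : 2 ^ (i + 1) = 2 ^ k := by omega
        exact Nat.pow_right_injective (le_refl 2) this
      | succ l =>
        exfalso
        have h3 : 2 ^ (l + 1) = 2 * 2 ^ l := pow_succ' 2 l
        have hl0 : 0 < 2 ^ l := by positivity
        cases k with
        | zero => omega
        | succ k =>
          have h2 : 2 ^ (k + 1) = 2 * 2 ^ k := pow_succ' 2 k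
          omega
    | succ j =>
      have h1 : 2 ^ (i + 1) = 2 * 2 ^ i := pow_succ' 2 i
      have h2 : 2 ^ (j + 1) = 2 * 2 ^ j := pow_succ' 2 j
      have hi0 : 0 < 2 ^ i := by positivity
      have hj0 : 0 < 2 ^ j := by positivity
      cases k with
      | zero =>
        cases l with
        | zero =>
          exfalso
          have : 2 ^ (j + 1) = 2 ^ (i + 1) := by omega
          exact hij (Nat.pow_right_injective (le_refl 2) this).symm
        | succ l =>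
          exfalso
          have h3 : 2 ^ (l + 1) = 2 * 2 ^ l := pow_succ' 2 l
          omega
      | succ k =>
        have h4 : 2 ^ (k + 1) = 2 * 2 ^ k := pow_succ' 2 k
        cases l with
        | zero => exfalso; omega
        | succ l =>
          have h3 : 2 ^ (l + 1) = 2 * 2 ^ l := pow_succ' 2 l
          have := ih (j := j) (k := k) (l := l) (by omega) (by omega)
          exact ⟨by omega, by omega⟩

theorem abs_pair_lt {K i j k l : ℕ} (hi : i < K) (hj : j < K) (hk : k < K) (hl : l < K) :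
    |((2 : ℤ) ^ j - 2 ^ i) - (2 ^ l - 2 ^ k)| < 2 ^ K := by
  obtain ⟨K, rfl⟩ : ∃ K', K = K' + 1 := ⟨K - 1, by omega⟩
  have hh : ∀ x, x < K + 1 → (2 : ℤ) ^ x ≤ 2 ^ K ∧ (0 : ℤ) < 2 ^ x := fun x hx =>
    ⟨pow_le_pow_right₀ (by norm_num) (by omega), by positivity⟩
  obtain ⟨a1, a2⟩ := hh i hi
  obtain ⟨b1, b2⟩ := hh j hj
  obtain ⟨c1, c2⟩ := hh k hk
  obtain ⟨d1, d2⟩ := hh l hl
  have e : (2 : ℤ) ^ (K + 1) = 2 * 2 ^ K := pow_succ' 2 K
  rw [abs_lt, e]
  constructor <;> linarith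

/-- `1 + b + ... + b ^ j` -/
def geo (b : ℤ) (j : ℕ) : ℤ := ∑ t ∈ Finset.range (j + 1), b ^ t

theorem geo_bounds {b : ℤ} (hb : 2 ≤ b) (j : ℕ) : b ^ j ≤ geo b j ∧ geo b j + 1 ≤ 2 * b ^ j := by
  unfold geo
  induction j with
  | zero => simp
  | succ j ih =>
    obtain ⟨h1, h2⟩ := ih
    rw [Finset.sum_range_succ]
    have h0 : (0 : ℤ) < b ^ j := by positivity
    have h3 : b ^ (j + 1) = b ^ j * b := pow_succ b j
    constructor
    · linarith
    · nlinarith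

/-- arithmetic core for the digits -/
theorem digit_core {b M D x : ℤ} {j : ℕ} (hM : 0 < M) (hD : D ≠ 0) (hb : 2 ≤ b)
    (hbig : 8 * M * |D| + 2 * M ≤ b) (hx : |x| ≤ 2 * M * b ^ j)
    (hdvd : b ^ (j + 1) ∣ D * (4 * M * geo b j) - x) : False := by
  obtain ⟨h1, h2⟩ := geo_bounds hb j
  have h0 : (0 : ℤ) < b ^ j := by positivity
  have hD1 : 1 ≤ |D| := Int.one_le_abs hD
  set y := D * (4 * M * geo b j) - x with hy
  have hg : 0 < geo b j := lt_of_lt_of_le h0 h1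
  have hA : |D * (4 * M * geo b j)| = |D| * (4 * M * geo b j) := by
    rw [abs_mul, abs_of_pos (a := 4 * M * geo b j) (by positivity)]
  have hlow : 4 * M * b ^ j ≤ |D * (4 * M * geo b j)| := by
    rw [hA]
    have : 4 * M * b ^ j ≤ 4 * M * geo b j := by nlinarith
    nlinarith [mul_pos (by positivity : (0:ℤ) < 4 * M) hg]
  have hup : |D * (4 * M * geo b j)| + 2 * M * b ^ j < b ^ (j + 1) := by
    rw [hA, pow_succ]
    have e1 : |D| * (4 * M * geo b j) < |D| * (4 * M * (2 * b ^ j)) := by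
      have : geo b j < 2 * b ^ j := by linarith
      have h4 : 0 < |D| * (4 * M) := by positivity
      nlinarith
    nlinarith
  have hyne : y ≠ 0 := by
    intro e
    have : D * (4 * M * geo b j) = x := by rw [hy] at e; linarith
    rw [this] at hlow
    have : 4 * M * b ^ j ≤ 2 * M * b ^ j := hlow.trans hx
    nlinarith
  have h5 : b ^ (j + 1) ≤ |y| := Int.le_of_dvd (abs_pos.2 hyne) ((dvd_abs _ _).2 hdvd)
  have h6 : |y| ≤ |D * (4 * M * geo b j)| + |x| := abs_sub _ _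
  linarith

/-- the constant `K0` -/
theorem exists_K0 (M m b N : ℕ) (hM : 0 < M) (hb : 0 < b) (hc : Nat.Coprime b M) :
    ∃ K0 : ℕ, N < K0 ∧ (M : ℤ) ∣ (K0 : ℤ) - 1 ∧
      ∀ j < m, (b : ℤ) ^ (j + 1) ∣ (K0 : ℤ) - 4 * M * geo b j := by
  have hc' : Nat.Coprime M (b ^ m) := (Nat.Coprime.pow_left m hc).symm
  obtain ⟨x, hx1, hx2⟩ := Nat.chineseRemainder hc' 1
    (4 * M * ∑ t ∈ Finset.range m, b ^ t)
  have hpos : 0 < M * b ^ m := by positivity
  refine ⟨x + (N + 1) * (M * b ^ m), ?_, ?_, ?_⟩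
  · have : N + 1 ≤ (N + 1) * (M * b ^ m) := Nat.le_mul_of_pos_right _ hpos
    omega
  · have h1 : (M : ℤ) ∣ (x : ℤ) - 1 := by
      have := (Nat.modEq_iff_dvd.1 hx1.symm)
      simpa using this
    push_cast
    have : (x : ℤ) + ((N : ℤ) + 1) * (M * (b : ℤ) ^ m) - 1
        = (x - 1) + M * (((N : ℤ) + 1) * (b : ℤ) ^ m) := by ring
    rw [this]
    exact dvd_add h1 (dvd_mul_right _ _)
  · intro j hj
    have h2 : ((b ^ m : ℕ) : ℤ) ∣ (x : ℤ) - ((4 * M * ∑ t ∈ Finset.range m, b ^ t : ℕ) : ℤ) :=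
      Nat.modEq_iff_dvd.1 hx2.symm
    push_cast at h2
    obtain ⟨d, rfl⟩ : ∃ d, m = (j + 1) + d := ⟨m - (j + 1), by omega⟩
    have e1 : (∑ t ∈ Finset.range (j + 1 + d), (b : ℤ) ^ t)
        = geo b j + (b : ℤ) ^ (j + 1) * ∑ t ∈ Finset.range d, (b : ℤ) ^ t := by
      unfold geo
      rw [Finset.sum_range_add, Finset.mul_sum]
      congr 1
      refine Finset.sum_congr rfl fun t _ => ?_
      rw [pow_add]
    have e2 : (b : ℤ) ^ (j + 1) ∣ (b : ℤ) ^ (j + 1 + d) := pow_dvd_pow _ (by omega)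
    have h3 := e2.trans h2
    rw [e1] at h3
    have e3 : ((x + (N + 1) * (M * b ^ (j + 1 + d)) : ℕ) : ℤ) - 4 * M * geo b j
        = ((x : ℤ) - 4 * M * (geo b j + (b : ℤ) ^ (j + 1) * ∑ t ∈ Finset.range d, (b : ℤ) ^ t))
          + (b : ℤ) ^ (j + 1) * (4 * M * ∑ t ∈ Finset.range d, (b : ℤ) ^ t)
          + (b : ℤ) ^ (j + 1 + d) * ((N + 1) * M) := by
      push_cast; ring
    rw [e3]
    exact dvd_add (dvd_add h3 (dvd_mul_right _ _)) (e2.trans (dvd_mul_right _ _))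

open Classical in
/-- **SPOIL leaf.** -/
theorem spoil (K m M b N1 : ℕ) (Ms : Finset ℕ) (hM : 0 < M)
    (hMs : ∀ k ∈ Ms, 2 ^ K < k ∧ k ∣ M) (hb : M * 2 ^ (K + 4) < b) (hc : Nat.Coprime b M) :
    ∃ c : ℕ → ℕ, StrictMono c ∧ (∀ i j, i < j → c i + 4 * N1 < c j) ∧
      (∀ i j k l, i < K → j < K → k < K → l < K → i ≠ j → k ≠ l → (i, j) ≠ (k, l) →
        4 * (N1 : ℤ) < |((c j : ℤ) - c i) - ((c l : ℤ) - c k)|) ∧
      (∀ T : ℤ, (((Finset.range K ×ˢ Finset.range K).filter fun p =>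
        p.1 ≠ p.2 ∧ BadZ Ms M m b (T + c p.2 - c p.1)).card ≤ Ms.card + m)) ∧
      (∀ T : ℕ, (∀ i < K, c i ≤ T) →
        (((Finset.range K ×ˢ Finset.range K).filter fun p =>
          p.1 ≠ p.2 ∧ Bad Ms M m b (T + c p.2 - c p.1)).card ≤ Ms.card + m)) := by
  have hb0 : 0 < b := by omega
  have hb2 : 2 ≤ b := by
    have h1 : 1 ≤ M * 2 ^ (K + 4) := Nat.one_le_iff_ne_zero.2 (by positivity)
    omega
  obtain ⟨K0, hK1, hK2, hK3⟩ := exists_K0 M m b (4 * N1) hM hb0 hc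
  have hstep : ∀ i j, i < j → 2 ^ i * K0 + 4 * N1 < 2 ^ j * K0 := by
    intro i j hij
    have h1 : 2 ^ i + 1 ≤ 2 ^ j := Nat.pow_lt_pow_right (by norm_num) hij
    have h2 : (2 ^ i + 1) * K0 ≤ 2 ^ j * K0 := Nat.mul_le_mul_right _ h1
    have h3 : (2 ^ i + 1) * K0 = 2 ^ i * K0 + K0 := by ring
    omega
  have hZ : ∀ T : ℤ, (((Finset.range K ×ˢ Finset.range K).filter fun p =>
        p.1 ≠ p.2 ∧ BadZ Ms M m b (T + ((2 ^ p.2 * K0 : ℕ) : ℤ) - ((2 ^ p.1 * K0 : ℕ) : ℤ))).card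
          ≤ Ms.card + m) := by
    intro T
    let Pk : ℕ → Finset (ℕ × ℕ) := fun k =>
      (Finset.range K ×ˢ Finset.range K).filter fun p =>
        p.1 ≠ p.2 ∧ (k : ℤ) ∣ (T + ((2 ^ p.2 * K0 : ℕ) : ℤ) - ((2 ^ p.1 * K0 : ℕ) : ℤ))
    let Pj : ℕ → Finset (ℕ × ℕ) := fun j =>
      (Finset.range K ×ˢ Finset.range K).filter fun p =>
        p.1 ≠ p.2 ∧ ∃ e : ℤ, (b : ℤ) ^ (j + 1) ∣
          (T + ((2 ^ p.2 * K0 : ℕ) : ℤ) - ((2 ^ p.1 * K0 : ℕ) : ℤ)) - e ∧
            |e| ≤ (M : ℤ) * (b : ℤ) ^ j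
    have hsub : ((Finset.range K ×ˢ Finset.range K).filter fun p =>
        p.1 ≠ p.2 ∧ BadZ Ms M m b (T + ((2 ^ p.2 * K0 : ℕ) : ℤ) - ((2 ^ p.1 * K0 : ℕ) : ℤ)))
        ⊆ Ms.biUnion Pk ∪ (Finset.range m).biUnion Pj := by
      intro p hp
      rw [Finset.mem_filter] at hp
      obtain ⟨hp1, hp2, hp3⟩ := hp
      rw [Finset.mem_union, Finset.mem_biUnion, Finset.mem_biUnion]
      rcases hp3 with ⟨k, hk, hd⟩ | ⟨j, hj, he⟩
      · exact Or.inl ⟨k, hk, Finset.mem_filter.2 ⟨hp1, hp2, hd⟩⟩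
      · exact Or.inr ⟨j, Finset.mem_range.2 hj, Finset.mem_filter.2 ⟨hp1, hp2, he⟩⟩
    have hk1 : ∀ k ∈ Ms, (Pk k).card ≤ 1 := by
      intro k hk
      obtain ⟨hkb, hkM⟩ := hMs k hk
      rw [Finset.card_le_one]
      intro p hp q hq
      rw [Finset.mem_filter, Finset.mem_product, Finset.mem_range, Finset.mem_range] at hp hq
      obtain ⟨⟨p1, p2⟩, p3, p4⟩ := hp
      obtain ⟨⟨q1, q2⟩, q3, q4⟩ := hq
      have h1 : (k : ℤ) ∣ (((2 : ℤ) ^ p.2 - 2 ^ p.1) - (2 ^ q.2 - 2 ^ q.1)) * K0 := by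
        have := dvd_sub p4 q4
        have e : (T + ((2 ^ p.2 * K0 : ℕ) : ℤ) - ((2 ^ p.1 * K0 : ℕ) : ℤ))
            - (T + ((2 ^ q.2 * K0 : ℕ) : ℤ) - ((2 ^ q.1 * K0 : ℕ) : ℤ))
            = (((2 : ℤ) ^ p.2 - 2 ^ p.1) - (2 ^ q.2 - 2 ^ q.1)) * K0 := by push_cast; ring
        rwa [e] at this
      have hkMZ : (k : ℤ) ∣ (M : ℤ) := by exact_mod_cast hkM
      have h2 : (k : ℤ) ∣ (((2 : ℤ) ^ p.2 - 2 ^ p.1) - (2 ^ q.2 - 2 ^ q.1)) := by
        have h3 : (k : ℤ) ∣ (((2 : ℤ) ^ p.2 - 2 ^ p.1) - (2 ^ q.2 - 2 ^ q.1)) * (K0 - 1) :=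
          (hkMZ.trans hK2).mul_left _
        have := dvd_sub h1 h3
        have e : (((2 : ℤ) ^ p.2 - 2 ^ p.1) - (2 ^ q.2 - 2 ^ q.1)) * K0
            - (((2 : ℤ) ^ p.2 - 2 ^ p.1) - (2 ^ q.2 - 2 ^ q.1)) * (K0 - 1)
            = (((2 : ℤ) ^ p.2 - 2 ^ p.1) - (2 ^ q.2 - 2 ^ q.1)) := by ring
        rwa [e] at this
      have h4 : (((2 : ℤ) ^ p.2 - 2 ^ p.1) - (2 ^ q.2 - 2 ^ q.1)) = 0 := by
        refine Int.eq_zero_of_abs_lt_dvd h2 (lt_trans (abs_pair_lt p1 p2 q1 q2) ?_)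
        exact_mod_cast hkb
      obtain ⟨e1, e2⟩ := pow_two_pair (i := p.1) (j := p.2) (k := q.1) (l := q.2)
        (by linarith) p3
      exact Prod.ext e1 e2
    have hj1 : ∀ j ∈ Finset.range m, (Pj j).card ≤ 1 := by
      intro j hj
      rw [Finset.mem_range] at hj
      rw [Finset.card_le_one]
      intro p hp q hq
      rw [Finset.mem_filter, Finset.mem_product, Finset.mem_range, Finset.mem_range] at hp hq
      obtain ⟨⟨p1, p2⟩, p3, e, p4, p5⟩ := hp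
      obtain ⟨⟨q1, q2⟩, q3, e', q4, q5⟩ := hq
      by_contra hne
      set D : ℤ := ((2 : ℤ) ^ p.2 - 2 ^ p.1) - (2 ^ q.2 - 2 ^ q.1) with hD
      have hD0 : D ≠ 0 := by
        intro h0
        obtain ⟨e1, e2⟩ := pow_two_pair (i := p.1) (j := p.2) (k := q.1) (l := q.2)
          (by rw [hD] at h0; linarith) p3
        exact hne (Prod.ext e1 e2)
      have hDlt : |D| < 2 ^ K := abs_pair_lt p1 p2 q1 q2
      have hMZ : (0 : ℤ) < (M : ℤ) := by exact_mod_cast hM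
      refine digit_core (b := (b : ℤ)) (M := (M : ℤ)) (D := D) (x := e - e') (j := j) hMZ hD0
        (by exact_mod_cast hb2) ?_ ?_ ?_
      · have h1 : (M : ℤ) * 2 ^ (K + 4) < b := by exact_mod_cast hb
        have h2 : (2 : ℤ) ^ (K + 4) = 16 * 2 ^ K := by rw [pow_add]; ring
        have h3 : (1 : ℤ) ≤ 2 ^ K := one_le_pow₀ (by norm_num)
        have h4 : (M : ℤ) * |D| ≤ M * 2 ^ K := by nlinarith
        have h5 : (M : ℤ) * 1 ≤ M * 2 ^ K := by nlinarith
        rw [h2] at h1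
        nlinarith
      · have : |e - e'| ≤ |e| + |e'| := abs_sub _ _
        linarith
      · have h1 := dvd_sub p4 q4
        have h2 := (hK3 j hj).mul_left D
        have e1 : D * (4 * M * geo b j) - (e - e')
            = ((T + ((2 ^ p.2 * K0 : ℕ) : ℤ) - ((2 ^ p.1 * K0 : ℕ) : ℤ) - e)
            - (T + ((2 ^ q.2 * K0 : ℕ) : ℤ) - ((2 ^ q.1 * K0 : ℕ) : ℤ) - e'))
              - D * ((K0 : ℤ) - 4 * M * geo b j) := by
          rw [hD]; push_cast; ring
        rw [e1]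
        exact dvd_sub h1 h2
    calc _ ≤ (Ms.biUnion Pk ∪ (Finset.range m).biUnion Pj).card := Finset.card_le_card hsub
      _ ≤ (Ms.biUnion Pk).card + ((Finset.range m).biUnion Pj).card := Finset.card_union_le _ _
      _ ≤ Ms.card * 1 + (Finset.range m).card * 1 := Nat.add_le_add
          (Finset.card_biUnion_le_card_mul _ _ _ hk1) (Finset.card_biUnion_le_card_mul _ _ _ hj1)
      _ = Ms.card + m := by simp
  refine ⟨fun l => 2 ^ l * K0, ?_, hstep, ?_, ?_, ?_⟩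
  · intro i j hij
    have := hstep i j hij
    show 2 ^ i * K0 < 2 ^ j * K0
    omega
  · intro i j k l hi hj hk hl hij hkl hne
    have e : (((2 ^ j * K0 : ℕ) : ℤ) - ((2 ^ i * K0 : ℕ) : ℤ))
        - (((2 ^ l * K0 : ℕ) : ℤ) - ((2 ^ k * K0 : ℕ) : ℤ))
        = (((2 : ℤ) ^ j - 2 ^ i) - (2 ^ l - 2 ^ k)) * K0 := by push_cast; ring
    show 4 * (N1 : ℤ) < |(((2 ^ j * K0 : ℕ) : ℤ) - ((2 ^ i * K0 : ℕ) : ℤ))
        - (((2 ^ l * K0 : ℕ) : ℤ) - ((2 ^ k * K0 : ℕ) : ℤ))|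
    rw [e, abs_mul]
    have hD0 : (((2 : ℤ) ^ j - 2 ^ i) - (2 ^ l - 2 ^ k)) ≠ 0 := by
      intro h0
      obtain ⟨e1, e2⟩ := pow_two_pair (i := i) (j := j) (k := k) (l := l) (by linarith) hij
      exact hne (by rw [e1, e2])
    have h1 : 1 ≤ |((2 : ℤ) ^ j - 2 ^ i) - (2 ^ l - 2 ^ k)| := Int.one_le_abs hD0
    have h2 : (4 * (N1 : ℤ)) < K0 := by exact_mod_cast hK1
    have h3 : |(K0 : ℤ)| = K0 := abs_of_nonneg (Int.natCast_nonneg _)
    rw [h3]
    nlinarith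
  · exact hZ
  · intro T hT
    refine le_trans (Finset.card_le_card ?_) (hZ T)
    intro p hp
    rw [Finset.mem_filter, Finset.mem_product, Finset.mem_range, Finset.mem_range] at hp
    obtain ⟨⟨p1, p2⟩, p3, p4⟩ := hp
    refine Finset.mem_filter.2 ⟨Finset.mem_product.2 ⟨Finset.mem_range.2 p1,
      Finset.mem_range.2 p2⟩, p3, ?_⟩
    have h1 := Bad.toZ hb0 p4
    have h2 : 2 ^ p.1 * K0 ≤ T := hT p.1 p1
    have e : ((T + 2 ^ p.2 * K0 - 2 ^ p.1 * K0 : ℕ) : ℤ)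
        = (T : ℤ) + ((2 ^ p.2 * K0 : ℕ) : ℤ) - ((2 ^ p.1 * K0 : ℕ) : ℤ) := by
      rw [Nat.cast_sub (by omega), Nat.cast_add]
    rw [e] at h1
    exact h1

end Crest.Agent.R320.Sp_313
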