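import Crest.Agent.R320.LWallAll_922
import Crest.Agent.R320.SemTop_727
import Crest.Agent.R320.Spoil_814
import Crest.Agent.R320.Fib_298
import Crest.Agent.R320.G1_852
import Crest.Agent.R320.Sp_313
import Crest.Agent.R320.XT_176
import Crest.Agent.R320.Univ_582

/-!
# Row 320: the join (helper686)

`fin` : every fibre of a monoid product has generalized star height at most three.
`final` : the statement of S0495.
-/

set_option autoImplicit false

namespace Crest.Agent.R320.Fin_686

open Crest.RegLang Crest.Agent.R320.Hk_851 Crest.Agent.R320.Blk467 Crest.Agent.R320.Reg_236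
open Crest.Agent.R320.XT_176 (lg reg_add reg_iUnion reg_prod)

/-- regularity of the noise from its locality -/
theorem regular_of_rest {α S V : Type} [Finite α] [Monoid S] [Finite S] (f : α → S)
    (nu1 : List α → V) (La Pm : ℕ) (hP : 0 < Pm)
    (h : ∀ Y Y' : List α, Y.take La = Y'.take La →
      ((Y.drop La).map f).prod = ((Y'.drop La).map f).prod →
      Y.length % Pm = Y'.length % Pm → nu1 Y = nu1 Y')
    (x : V) : Language.IsRegular (lg fun Y : List α => nu1 Y = x) := by
  classical
  haveI : NeZero Pm := ⟨hP.ne'⟩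
  have hfin : Finite {P : List α // P.length = La} := (List.finite_length_eq α La).to_subtype
  let M := S × Multiplicative (ZMod Pm)
  let g : α → M := fun a => (f a, Multiplicative.ofAdd (1 : ZMod Pm))
  haveI : Finite M := by
    haveI : Finite (Multiplicative (ZMod Pm)) := (inferInstance : Finite (ZMod Pm))
    infer_instance
  have hg : ∀ w : List α, (w.map g).prod = ((w.map f).prod,
      Multiplicative.ofAdd ((w.length : ℕ) : ZMod Pm)) := by
    intro w
    induction w with
    | nil => simp; rfl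
    | cons a w ih =>
      rw [List.map_cons, List.prod_cons, ih]
      change (f a * (w.map f).prod, Multiplicative.ofAdd (1 : ZMod Pm) *
        Multiplicative.ofAdd ((w.length : ℕ) : ZMod Pm)) = _
      rw [← ofAdd_add]
      simp only [List.map_cons, List.prod_cons, List.length_cons, Nat.cast_add, Nat.cast_one]
      rw [add_comm (1 : ZMod Pm)]
  let F : {P : List α // P.length = La} × M → Language α := fun i =>
    (lg fun w : List α => w ∈ (({i.1.1} : Language α) * (lg fun Y : List α => (Y.map g).prod = i.2)) ∧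
      ∃ R : List α, (R.map g).prod = i.2 ∧ nu1 (i.1.1 ++ R) = x)
  have hF : ∀ i, (F i).IsRegular := by
    intro i
    by_cases hc : ∃ R : List α, (R.map g).prod = i.2 ∧ nu1 (i.1.1 ++ R) = x
    · have : F i = ({i.1.1} : Language α) * (lg fun Y : List α => (Y.map g).prod = i.2) := by
        ext w
        exact ⟨fun hw => hw.1, fun hw => ⟨hw, hc⟩⟩
      rw [this]
      exact isRegular_mul (HL.isRegular (k := 0) (HL.word _)) (reg_prod g _)
    · have : F i = 0 := by
        ext w
        exact ⟨fun hw => absurd hw.2 hc, fun hw => absurd hw (Language.notMem_zero w)⟩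
      rw [this]; exact isRegular_zero
  have h1 := reg_iUnion hF
  have hshort : Language.IsRegular (lg fun Y : List α => Y.length < La ∧ nu1 Y = x) := by
    refine HL.isRegular (k := 0) (HL.finite (s := {Y | Y.length < La ∧ nu1 Y = x}) ?_)
    exact (List.finite_length_le α La).subset fun Y hY => le_of_lt hY.1
  have h2 := reg_add hshort h1
  have e : ((lg fun Y : List α => Y.length < La ∧ nu1 Y = x) + (lg fun w : List α => ∃ i, w ∈ F i)) =
      (lg fun Y : List α => nu1 Y = x) := by
    ext w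
    rw [Language.mem_add]
    constructor
    · rintro (⟨-, h3⟩ | ⟨⟨⟨P, hPl⟩, mm⟩, ⟨hw, R, hR1, hR2⟩⟩)
      · exact h3
      · obtain ⟨P', hP', Y, hY, rfl⟩ := Language.mem_mul.1 hw
        have hPP : P' = P := hP'
        subst hPP
        have hY' : (Y.map g).prod = mm := hY
        have heq : (Y.map g).prod = (R.map g).prod := by rw [hY', hR1]
        rw [hg, hg] at heq
        have e1 : (Y.map f).prod = (R.map f).prod := congrArg Prod.fst heq
        have e2 : ((Y.length : ℕ) : ZMod Pm) = ((R.length : ℕ) : ZMod Pm) := by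
          have := congrArg Prod.snd heq
          exact Multiplicative.ofAdd.injective this
        have e3 : Y.length % Pm = R.length % Pm := (ZMod.natCast_eq_natCast_iff' _ _ _).1 e2
        change nu1 (P' ++ Y) = x
        rw [← hR2]
        refine h _ _ ?_ ?_ ?_
        · change (P' ++ Y).take La = (P' ++ R).take La
          have e4 : ∀ Z : List α, (P' ++ Z).take La = P' := fun Z => by
            have : (P' ++ Z).take P'.length = P' := List.take_left
            rwa [hPl] at this
          rw [e4, e4]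
        · change (((P' ++ Y).drop La).map f).prod = (((P' ++ R).drop La).map f).prod
          have e4 : ∀ Z : List α, (P' ++ Z).drop La = Z := fun Z => by
            have : (P' ++ Z).drop P'.length = Z := List.drop_left
            rwa [hPl] at this
          rw [e4, e4, e1]
        · simp only [List.length_append]
          rw [Nat.add_mod, e3, ← Nat.add_mod]
    · intro hw
      have hw' : nu1 w = x := hw
      by_cases hl : w.length < La
      · exact Or.inl ⟨hl, hw'⟩
      · right
        have hl2 : (w.take La).length = La := by rw [List.length_take]; omega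
        refine ⟨⟨⟨w.take La, hl2⟩, ((w.drop La).map g).prod⟩, ?_, w.drop La, rfl, ?_⟩
        · exact Language.mem_mul.2 ⟨w.take La, rfl, w.drop La, rfl, List.take_append_drop _ _⟩
        · simp only
          rw [List.take_append_drop]; exact hw'
  rwa [e] at h2

set_option maxHeartbeats 2000000 in
theorem fin (α : Type) [Finite α] (S : Type) [Monoid S] [Finite S] (φ : α → S) (s : S) :
    HL 3 ({w | (w.map φ).prod = s} : Language α) := by
  classical
  haveI := Fintype.ofFinite S
  obtain ⟨act, hadd, hone, hmul, hfaith⟩ := exists_module S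
  obtain ⟨m, r, hG⟩ := G1_852.gadget (S := S) (V := S → ZMod 2) act
  obtain ⟨K, hK⟩ := ExactR_237.exact_gadget α S (S → ZMod 2) φ act (2 + 2 * (r + m))
  obtain ⟨Ms, M, hcard, hMs, hM, hG2⟩ := hG (2 ^ K)
  obtain ⟨b, hb⟩ : ∃ b, b = M * 2 ^ (K + 4) + 1 := ⟨_, rfl⟩
  have hcop : Nat.Coprime b M := by
    rw [hb]
    simp
  obtain ⟨lam, rho, nu1, g1, g2, g3, g4⟩ := hG2 b (by omega) hcop α φ
  obtain ⟨N, hN⟩ : ∃ N, N = b ^ m := ⟨_, rfl⟩
  obtain ⟨c, hc1, hc2, hc3, -, hc5⟩ := Sp_313.spoil K m M b N Ms hM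
    (fun k hk => ⟨(hMs k hk).1, (hMs k hk).2.2⟩) (by omega) hcop
  obtain ⟨lam2, rho2, nu2, h1, h2⟩ := hK c (fun i j hij _ => hc1 hij)
  obtain ⟨p0, hp0⟩ : ∃ p0, p0 = c K := ⟨_, rfl⟩
  have hcp : ∀ k < K, c k ≤ p0 := fun k hk => by rw [hp0]; exact (hc1 hk).le
  obtain ⟨n, G, B0, Wo, hLW, hgap, -, -, hfree⟩ :=
    LWallAll_922.walls_all_left α (2 * (N + p0) + 1) (by omega)
  obtain ⟨B, hB⟩ : ∃ B, B = B0 + (2 * (N + p0) + 1) := ⟨_, rfl⟩
  obtain ⟨z, hz⟩ : ∃ z, z = 2 * p0 + p0 + N + n + 1 := ⟨_, rfl⟩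
  have hWalls : JointSem_814.Walls n (2 * (N + p0)) Wo :=
    ⟨hLW.app, hLW.len, fun X s t h1 h2 h3 h4 h5 => by
      have := hgap X s t h1 h3 h4 h5
      omega⟩
  have hWU : Fib_298.WallU Wo n B :=
    ⟨hLW.app, hLW.len, fun X hX => by
      obtain ⟨u, x, v, k, e1, e2, e3, e4⟩ := hfree X hX
      exact ⟨u, x, v, k, e4, by omega, by omega, by omega⟩⟩
  have hlam : ∀ p v, lam p = some v → p.length ≤ N := fun p v h => by
    have := g1 p v h
    rw [hN]
    exact this.le
  have hsound : ∀ p q v r, lam p = some v → rho q = some r →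
      r = act v ((fun w : List α => (w.map φ).prod) (p ++ q)) + nu1 (p ++ q) :=
    fun p q v r e1 e2 => g2 p q v r e1 e2
  have hcompl : ∀ u : List α, 0 ≤ u.length → ¬ Sp_313.Bad Ms M m b u.length → ∀ v,
      ∃ p q, p ++ q = u ∧ lam p = some v ∧ (rho q).isSome := by
    intro u _ hu v
    obtain ⟨P, Q, e1, e2, v', e3⟩ := g3 u (fun k hk hd => hu (Or.inl ⟨k, hk, hd⟩))
      (fun j hj => by
        by_contra hcon
        exact hu (Or.inr ⟨j, hj, fun h => hcon ⟨h.1, by omega⟩⟩)) v
    exact ⟨P, Q, e1.symm, e2, by rw [e3]; rfl⟩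
  have hBT : ∀ T, p0 ≤ T → ∃ J : Finset ℕ, J.card ≤ r + m ∧ ∀ a < K, ∀ b' < K, a ≠ b' →
      Sp_313.Bad Ms M m b (T + c b' - c a) → a ∈ J := by
    intro T hT
    have key : ∃ F : Finset (ℕ × ℕ), F.card ≤ Ms.card + m ∧
        ∀ p ∈ Finset.range K ×ˢ Finset.range K, p.1 ≠ p.2 →
          Sp_313.Bad Ms M m b (T + c p.2 - c p.1) → p ∈ F :=
      ⟨_, hc5 T (fun i hi => (hcp i hi).trans hT), fun p hp e1 e2 => Finset.mem_filter.2 ⟨hp, e1, e2⟩⟩
    obtain ⟨F, hF1, hF2⟩ := key
    refine ⟨F.image Prod.fst, Finset.card_image_le.trans (by omega), ?_⟩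
    intro a ha b' hb' hne hbad
    exact Finset.mem_image.2 ⟨(a, b'), hF2 (a, b') (Finset.mem_product.2
      ⟨Finset.mem_range.2 ha, Finset.mem_range.2 hb'⟩) hne hbad, rfl⟩
  have hrul : ∀ a b a' b', a < K → b < K → a' < K → b' < K → a ≠ b → a' ≠ b' →
      c a + c b' ≤ c a' + c b + 2 * N → c a' + c b ≤ c a + c b' + 2 * N → a = a' := by
    intro a b1 a' b1' ha hb1 ha' hb1' hne hne' e1 e2
    by_contra hc
    have h5 := hc3 a b1 a' b1' ha hb1 ha' hb1' hne hne' (fun h => hc (congrArg Prod.fst h))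
    have h6 : |((c b1 : ℤ) - c a) - ((c b1' : ℤ) - c a')| ≤ 2 * (N : ℤ) := by
      rw [abs_le]
      constructor <;> omega
    omega
  have hspoil : ∀ U : List α, 2 * z ≤ U.length → ∃ J : Finset ℕ, J.card < 2 + 2 * (r + m) ∧
      ∀ k < K, JointSem_814.Spoiled Wo z p0 N K c (Sp_313.Bad Ms M m b) U k → k ∈ J := by
    intro U _
    obtain ⟨J, hJ1, hJ2⟩ := JointSem_814.spoil (T0 := p0) (C0 := r + m) hWalls le_rfl
      (by omega : 2 * p0 + p0 + N ≤ z) hcp hrul hBT U
    exact ⟨J, by omega, hJ2⟩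
  have hex : ∀ k < K, ∀ (P Q : List α) (v b : S → ZMod 2), P.length = c k → lam2 k P = some v →
      rho2 k Q 1 = some b →
      b = act v ((fun w : List α => (w.map φ).prod) (P ++ Q)) + nu2 (P ++ Q) 1 := by
    intro k hk P Q v b' e1 e2 e3
    have := h1 k hk P Q 1 v b' e1 e2 e3
    rw [mul_one] at this
    exact this
  have hco : ∀ (u : List α) (v : S → ZMod 2), (∀ k < K, c k ≤ u.length) →
      ∃ I : Finset ℕ, 2 + 2 * (r + m) ≤ I.card ∧ ∀ k ∈ I, k < K ∧
        lam2 k (u.take (c k)) = some v ∧ (rho2 k (u.drop (c k)) 1).isSome :=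
    fun u v hu => h2 u 1 v hu
  have hXX : ∀ w, w ∈ JointSem_814.XX Wo z ↔ w ∈ Fib_298.XX Wo z := fun w =>
    ⟨fun h => ⟨h.2.1, h.1, h.2.2⟩, fun h => ⟨h.2.1, h.1, h.2.2⟩⟩
  have hXX' : JointSem_814.XX Wo z = Fib_298.XX Wo z := Set.ext hXX
  have hnu : ∀ y, Language.IsRegular ({Y | nu1 Y = y} : Language α) := fun y =>
    regular_of_rest φ nu1 (b ^ m) (M * b ^ m) (by
      have : 0 < b := by omega
      positivity) (fun Y Y' e1 e2 e3 => (g4 Y Y' e1 e2 e3).2) y
  let D : SemTop_727.Sch α (S → ZMod 2) :=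
    ⟨JointSem_814.XX Wo z,
     JointSem_814.T p0 (fun w : List α => (w.map φ).prod) act nu1 (fun u => nu2 u 1),
     JointSem_814.L1 p0 (fun w : List α => (w.map φ).prod) act (fun u => nu2 u 1) lam,
     JointSem_814.L2 K c lam2⟩
  refine SemTop_727.top (k := 1) act hadd hone hmul hfaith φ
    (fun X => act (nu2 (X.take p0) 1) ((X.drop p0).map φ).prod + nu1 (X.drop p0)) D
    ?_ ?_ ?_ ?_ ?_ ?_ ?_ s
  · intro v X
    change act (act v ((X.take p0).map φ).prod + nu2 (X.take p0) 1) ((X.drop p0).map φ).prod +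
      nu1 (X.drop p0) = _
    rw [hadd, ← hmul, ← List.prod_append, ← List.map_append, List.take_append_drop, add_assoc]
  · change PCode (JointSem_814.XX Wo z)
    rw [hXX']
    exact Fib_298.pcode_XX (by omega)
  · intro x y
    refine (Fib_298.hfib hWU (by omega : n ≤ z) act φ p0 (by omega : p0 ≤ z)
      (fun v X0 => act v (X0.map φ).prod + nu2 X0 1) nu1 hnu x y).congr fun w => ?_
    exact ⟨fun hw => ⟨(hXX w).1 hw.1, hw.2⟩, fun hw => ⟨(hXX w).2 hw.1, hw.2⟩⟩
  · intro x
    refine (List.finite_length_le α (p0 + N)).subset ?_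
    rintro P ⟨hP1, hP2⟩
    have := hlam _ _ hP2
    rw [List.length_drop] at this
    change P.length ≤ p0 + N
    omega
  · intro x
    refine (List.finite_length_le α p0).subset ?_
    rintro P ⟨k, hk, hP1, hP2⟩
    have := hcp k hk
    change P.length ≤ p0
    omega
  · intro X1 hX1 X2 hX2 x
    have hX1' : X1 ∈ JointSem_814.XX Wo z := hX1.1
    have hX2' : X2 ∈ JointSem_814.Bad Wo z
      (JointSem_814.T p0 (fun w : List α => (w.map φ).prod) act nu1 (fun u => nu2 u 1))
      (JointSem_814.L1 p0 (fun w : List α => (w.map φ).prod) act (fun u => nu2 u 1) lam) := hX2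
    have hfin := JointSem_814.compl2 (R := 2 + 2 * (r + m)) (N0 := 0) (K := K) (c := c)
      (φ := fun w : List α => (w.map φ).prod) (act := act) (nu1 := nu1)
      (nu2 := fun u => nu2 u 1) (lam := lam) (rho := rho) (lam2 := lam2)
      (rho2 := fun k Q => rho2 k Q 1) (BadT := Sp_313.Bad Ms M m b) hWalls
      (by omega) (by omega) hlam hsound hcompl hcp hex hco hspoil hX1' hX2' x
    exact hfin
  · intro s'
    refine HL.mono (by omega : 1 ≤ 1 + 2) ((Fib_298.rest hWU (by omega : n ≤ z) φ s').congr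
      fun w => ?_)
    exact ⟨fun hw => ⟨fun X hX => hw.1 X ((hXX X).2 hX), hw.2⟩,
      fun hw => ⟨fun X hX => hw.1 X ((hXX X).1 hX), hw.2⟩⟩

universe u

theorem final (α : Type u) [Finite α] (L : Language α) (hL : L.IsRegular) :
    ∃ e : Crest.RegLang.GRegExp α, e.height ≤ 3 ∧ e.lang = L :=
  Univ_582.final (fun β _ S _ _ φ s => fin β S φ s) α L hL

end Crest.Agent.R320.Fin_686

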