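import Crest.Agent.R320.Top_550
import Crest.Agent.R320.Joint_47
import Crest.Agent.R320.G1_852
import Crest.Agent.R320.Sp_597
import Crest.Agent.R320.LWallAll_922

/-!
# Row 320: the join (helper701)

`Top_550.top` + `Joint_47.complete1/complete2` + `G1_852.gadget` + `Sp_597.spoil` +
`ExactR_237.exact_gadget` + `LWallAll_922.walls_all_left`.
-/

set_option autoImplicit false

namespace Crest.Agent.R320.Fin_701

open Crest.Agent.R320.Hk_851 Crest.Agent.R320.Code110 Crest.Agent.R320.Pump_360
open Crest.Agent.R320.Top_550 (pr pr_append)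

variable {α : Type}

theorem isRegular_of_code {L : Language α} {F : Type} [Finite F] (κ : List α → F)
    (h : ∀ u v y : List α, κ u = κ v → u ++ y ∈ L → v ++ y ∈ L) : L.IsRegular := by
  refine Language.IsRegular.of_finite_range_leftQuotient ?_
  let g : Set.range κ → Language α := fun k => L.leftQuotient k.2.choose
  refine (Set.finite_range g).subset ?_
  rintro _ ⟨x, rfl⟩
  have hx : κ x ∈ Set.range κ := ⟨x, rfl⟩
  refine ⟨⟨κ x, hx⟩, ?_⟩
  have hk : κ hx.choose = κ x := hx.choose_spec
  ext y
  exact ⟨h _ _ y hk, h _ _ y hk.symm⟩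

/-- a short prefix determines the word when the word is short -/
theorem eq_of_take {B : ℕ} {u v : List α} (h : u.take B = v.take B) (hl : u.length < B) :
    u = v := by
  have h1 := congrArg List.length h
  rw [List.length_take, List.length_take] at h1
  rw [List.take_of_length_le (by omega), List.take_of_length_le (by omega)] at h
  exact h

theorem reg_sat [Finite α] {S : Type} [Monoid S] [Finite S] (f : α → S) (B P : ℕ) (hP : 0 < P)
    {L : Language α}
    (h : ∀ Q Q' : List α, Q.take B = Q'.take B → pr f (Q.drop B) = pr f (Q'.drop B) →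
      Q.length % P = Q'.length % P → Q ∈ L → Q' ∈ L) : L.IsRegular := by
  classical
  haveI : Finite {w : List α // w.length ≤ B} := (List.finite_length_le α B).to_subtype
  let κ : List α → {w : List α // w.length ≤ B} × S × Fin P := fun Q =>
    (⟨Q.take B, by rw [List.length_take]; omega⟩, pr f (Q.drop B),
      ⟨Q.length % P, Nat.mod_lt _ hP⟩)
  refine isRegular_of_code κ fun u v y huv hu => ?_
  have h1 : u.take B = v.take B := congrArg (fun p => p.1.1) huv
  have h2 : pr f (u.drop B) = pr f (v.drop B) := congrArg (fun p => p.2.1) huv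
  have h3 : u.length % P = v.length % P := congrArg (fun p => p.2.2.1) huv
  by_cases hl : u.length < B
  · have := eq_of_take h1 hl
    subst this
    exact hu
  · have hu' : B ≤ u.length := by omega
    have hv' : B ≤ v.length := by
      have e := congrArg List.length h1
      rw [List.length_take, List.length_take] at e
      omega
    refine h (u ++ y) (v ++ y) ?_ ?_ ?_ hu
    · rw [List.take_append_of_le_length hu', List.take_append_of_le_length hv', h1]
    · rw [List.drop_append_of_le_length hu', List.drop_append_of_le_length hv', pr_append,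
        pr_append, h2]
    · rw [List.length_append, List.length_append, Nat.add_mod, h3, ← Nat.add_mod]

theorem bad_congr {Ms : Finset ℕ} {M b m A A' : ℕ} (hk : ∀ k ∈ Ms, k ∣ M)
    (h : A ≡ A' [MOD M * b ^ m]) (hA : Sp_597.Bad Ms M b m A) : Sp_597.Bad Ms M b m A' := by
  rcases hA with ⟨k, hkM, hd⟩ | ⟨j, hj, hd⟩
  · exact Or.inl ⟨k, hkM, (h.dvd_iff ((hk k hkM).trans (Dvd.intro _ rfl))).1 hd⟩
  · refine Or.inr ⟨j, hj, ?_⟩
    have h1 : b ^ j * b ∣ M * b ^ m := by
      rw [← pow_succ]
      exact (pow_dvd_pow b hj).trans (Dvd.intro_left _ rfl)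
    have h2 : A / b ^ j % b = A' / b ^ j % b := by
      rw [← Nat.mod_mul_right_div_self, ← Nat.mod_mul_right_div_self]
      have := h.of_dvd h1
      rw [Nat.ModEq] at this
      rw [this]
    rwa [← h2]

theorem row [Finite α] {S V : Type} [Monoid S] [Finite S] [AddCommGroup V] [Finite V]
    (f : α → S) (act : V → S → V)
    (hadd : ∀ u v s, act (u + v) s = act u s + act v s) (hone : ∀ v, act v 1 = v)
    (hmul : ∀ v s t, act (act v s) t = act v (s * t))
    (hfaith : ∀ s t, (∀ v, act v s = act v t) → s = t) (s : S) :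
    HL 3 ({w | pr f w = s} : Language α) := by
  classical
  have := Fintype.ofFinite S
  have := Fintype.ofFinite V
  obtain ⟨m, r, hg⟩ := G1_852.gadget (S := S) (V := V) act
  obtain ⟨K, hK⟩ := ExactR_237.exact_gadget α S V f act (2 * (r + m) + 2)
  obtain ⟨Ms, M, hcard, hMs, hM, hg⟩ := hg (4 ^ K)
  obtain ⟨b, hb⟩ : ∃ b, b = M * (4 * 2 ^ K + 6) + 1 := ⟨_, rfl⟩
  have hb0 : 0 < b := by omega
  have hcop : Nat.Coprime b M := by
    rw [hb]; simp
  have hbig : 4 * M * 2 ^ K + 2 * M + 4 ≤ b := by
    rw [hb]; nlinarith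
  obtain ⟨lam, rho, nu1, hL, hS, hC, hF⟩ := hg b hb0 hcop α f
  obtain ⟨N1, hN1⟩ : ∃ N1, N1 = b ^ m := ⟨_, rfl⟩
  rw [← hN1] at hL
  obtain ⟨c, hc1, hc2, hc3, hc4⟩ := Sp_597.spoil K m Ms M b hM
    (fun k hk => ⟨(hMs k hk).1, (hMs k hk).2.2⟩) hbig hcop N1
  obtain ⟨lam2, rho2, nu2', hS2, hC2⟩ := hK c (fun i j hij _ => hc1 hij)
  obtain ⟨p0, hp0⟩ : ∃ p0, p0 = c K := ⟨_, rfl⟩
  have hcp : ∀ k, k < K → c k ≤ p0 := fun k hk => by rw [hp0]; exact (hc1 hk).le
  obtain ⟨n, G, B, Wo, hLW, hgap, _, _, hpc⟩ :=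
    LWallAll_922.walls_all_left α (2 * (N1 + p0) + 1) (by omega)
  obtain ⟨z, hz⟩ : ∃ z, z = 3 * p0 + n + N1 + 1 := ⟨_, rfl⟩
  have hW47 : Joint_47.LW n (2 * (N1 + p0) + 1) Wo :=
    ⟨hLW.len, hLW.app, fun X s t h1 h2 h3 h4 => by
      have := hgap X s t h1 h2 h3 h4; omega⟩
  have hPpos : 0 < M * b ^ m := by positivity
  have hkM : ∀ k ∈ Ms, k ∣ M := fun k hk => (hMs k hk).2.2
  let BadT : ℕ → Prop := Sp_597.Bad Ms M b m
  have hZ : ∀ X, X ∈ Top_550.Zn Wo z ↔ X ∈ Joint_47.Zn Wo z := fun X =>
    ⟨fun h => ⟨h.2.1, h.1, h.2.2⟩, fun h => ⟨h.2.1, h.1, h.2.2⟩⟩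
  refine Top_550.top f act hadd hone hmul hfaith Wo n z p0 hLW.app hLW.len (by omega) (by omega)
    ?_ (fun X => nu2' X 1) nu1 ?_ (Joint_47.Bad Wo z N1 p0 BadT) ?_
    (fun v => {P | Joint_47.L1 f act p0 (fun X => nu2' X 1) lam v P})
    (fun v => {P | Joint_47.L2 K c lam2 v P}) ?_ ?_ ?_ ?_ s
  · refine ⟨2, max B (2 * (N1 + p0) + 1), fun u hu => ?_⟩
    obtain ⟨a, x, v, k, h1, h2, h3, h4⟩ := hpc u hu
    refine ⟨[(a, x, k), (v, [], 0)], by simp, ?_, ?_⟩
    · intro t ht
      simp only [List.mem_cons, List.not_mem_nil, or_false] at ht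
      rcases ht with rfl | rfl
      · exact ⟨h1.trans (le_max_left _ _), h2.trans (le_max_right _ _)⟩
      · exact ⟨h3.trans (le_max_left _ _), by simp⟩
    · rw [h4, val_cons, val_cons, val_nil]
      simp [pw]
  · intro x
    refine reg_sat f (b ^ m) (M * b ^ m) hPpos fun Q Q' h1 h2 h3 h4 => ?_
    have h5 := (hF Q Q' h1 h2 h3).2
    change nu1 Q' = x
    rw [← h5]
    exact h4
  · refine reg_sat f (z + N1) (M * b ^ m) hPpos fun Q Q' h1 _ h3 h4 => ?_
    by_cases hl : Q.length < z + N1
    · have := eq_of_take h1 hl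
      subst this
      exact h4
    · have hl' : z + N1 ≤ Q'.length := by
        have e := congrArg List.length h1
        rw [List.length_take, List.length_take] at e
        omega
      rcases h4 with ⟨t, ht1, ht2, ht3, ht4⟩ | h4
      · refine Or.inl ⟨t, ht1, ht2, by omega, ?_⟩
        have e : Q'.take t = Q.take t := by
          have := congrArg (List.take t) h1
          rw [List.take_take, List.take_take, min_eq_left (by omega)] at this
          exact this.symm
        rw [e]; exact ht4
      · refine Or.inr (bad_congr hkM ?_ h4)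
        have h5 : Q.length ≡ Q'.length [MOD M * b ^ m] := h3
        have e1 : p0 + (Q.length - p0) = Q.length := by omega
        have e2 : p0 + (Q'.length - p0) = Q'.length := by omega
        rw [← e1, ← e2] at h5
        exact Nat.ModEq.add_left_cancel' _ h5
  · intro x
    refine (List.finite_length_le α (p0 + N1)).subset ?_
    rintro P ⟨h1, h2⟩
    have h3 := hL _ _ h2
    rw [List.length_drop] at h3
    change P.length ≤ p0 + N1
    omega
  · intro x
    refine (List.finite_length_le α p0).subset ?_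
    rintro P ⟨k, h1, h2, _⟩
    have h3 := hcp k h1
    change P.length ≤ p0
    omega
  · intro u hu hub x
    obtain ⟨p, q, h1, h2, _, h4⟩ := Joint_47.complete1 f act p0 (fun X => nu2' X 1) nu1
      (N0 := 0) hW47 (lam := lam) (rho := rho)
      (fun P Q v r h h' => hS P Q v r h h')
      (fun P v h => (hL P v h).le)
      (fun Y _ hY v => by
        obtain ⟨P, Q, e, k1, v', k2⟩ := hC Y (fun k hk hd => hY (Or.inl ⟨k, hk, hd⟩))
          (fun j hj => by
            by_contra hcon
            refine hY (Or.inr ⟨j, hj, fun h => hcon ⟨h.1, by have := h.2; omega⟩⟩)) v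
        exact ⟨P, Q, e, k1, by rw [k2]; rfl⟩)
      (z := z) (by omega) (by omega) ((hZ u).1 hu) hub x
    refine ⟨p, q, Joint_47.T f act p0 (fun X => nu2' X 1) nu1 x u, h1, h2,
      fun x' p' hp' => Or.inl ?_⟩
    obtain ⟨h5, h6⟩ := h4 x' p' hp'
    exact ⟨_, Language.mem_mul.2 ⟨p' ++ q, ⟨(hZ _).2 h5, h6⟩, [], ⟨rfl, rfl⟩,
      List.append_nil _⟩⟩
  · intro u hu x t ht
    obtain ⟨p, q, h1, h2, _, h4⟩ := Joint_47.complete2 f act p0 nu1 (R1 := r + m) hW47
      (lam2 := lam2) (rho2 := rho2) (nu2' := nu2') (c := c) (K := K) (z := z) (N1 := N1)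
      (BadT := BadT) (fun k hk P Q y v b h h' h'' => hS2 k hk P Q y v b h h' h'')
      (fun w y v h => hC2 w y v h)
      (fun i j hij _ => hc1 hij) hcp
      (fun i i' j j' hi hi' hj hj' h1 h2 h3 h4 => by
        by_contra hij
        have h5 := hc3 i i' j j' (Ne.symm h1) (Ne.symm h2) (fun h => hij h.1)
        rw [lt_abs] at h5
        push_cast at h5
        omega)
      (fun T hT I hI => by
        have h5 := hc4 (T : ℤ)
        refine le_trans ?_ (le_trans (Finset.card_image_le (f := Prod.fst))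
          (h5.trans (by omega)))
        refine Finset.card_le_card fun k hk => ?_
        obtain ⟨k1, k', k2, k3, k4⟩ := hI k hk
        refine Finset.mem_image.2 ⟨(k, k'), Finset.mem_filter.2 ⟨?_, ?_, ?_⟩, rfl⟩
        · exact Finset.mem_product.2 ⟨Finset.mem_range.2 k1, Finset.mem_range.2 k2⟩
        · exact Ne.symm k3
        · have hle : c k ≤ T + c k' := (hT k k1).trans (Nat.le_add_right _ _)
          have e : (T : ℤ) + c k' - c k = ((T + c k' - c k : ℕ) : ℤ) := by
            rw [Nat.cast_sub hle]; push_cast; ring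
          change Sp_597.BadZ Ms M b m ((T : ℤ) + c k' - c k)
          rw [e, Sp_597.badZ_cast]
          exact k4)
      (by omega) (by omega) ((hZ u).1 hu.1) ((hZ t).1 ht.1) hu.2 x
    refine ⟨p, q, Top_550.tau f act p0 (fun X => nu2' X 1) nu1 t
      (Top_550.tau f act p0 (fun X => nu2' X 1) nu1 u x), h1, h2, fun x' p' hp' => ?_⟩
    rcases h4 x' p' hp' with ⟨a, ha1, ha2, ha3, ha4⟩ | ⟨a, ha1, ha2, ha3⟩
    · left
      refine ⟨_, Language.mem_mul.2 ⟨a, ⟨⟨(hZ _).2 ha1, ha2⟩, ha4⟩, t, ?_, ha3.symm⟩⟩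
      exact ⟨_, Language.mem_mul.2 ⟨t, ⟨ht, rfl⟩, [], ⟨rfl, rfl⟩, List.append_nil _⟩⟩
    · right
      exact Or.inl ⟨a, (hZ _).2 ha1, fun h => ha2 h.2, ha3⟩

/-- the join -/
theorem fin (α : Type) [Finite α] (S : Type) [Monoid S] [Finite S] (φ : α → S) (s : S) :
    HL 3 ({w | (w.map φ).prod = s} : Language α) := by
  classical
  haveI := Fintype.ofFinite S
  obtain ⟨act, h1, h2, h3, h4⟩ : ∃ (act : (S → ZMod 2) → S → (S → ZMod 2)),
      (∀ a b s, act (a + b) s = act a s + act b s) ∧ (∀ v, act v 1 = v) ∧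
      (∀ v s t, act v (s * t) = act (act v s) t) ∧
      (∀ s t, (∀ v, act v s = act v t) → s = t) := by
    refine ⟨fun v s t => ∑ x : S, if x * s = t then v x else 0, ?_, ?_, ?_, ?_⟩
    · intro a b s
      funext t
      simp only [Pi.add_apply]
      rw [← Finset.sum_add_distrib]
      refine Finset.sum_congr rfl fun x _ => ?_
      split_ifs <;> simp
    · intro v
      funext t
      simp
    · intro v s t
      funext r
      simp only
      have h1 : ∀ y : S, (if y * t = r then ∑ x : S, (if x * s = y then v x else 0) else 0) =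
          ∑ x : S, (if x * s = y ∧ y * t = r then v x else 0) := by
        intro y
        by_cases h : y * t = r
        · simp [h]
        · simp [h]
      simp only [h1]
      rw [Finset.sum_comm]
      refine Finset.sum_congr rfl fun x _ => ?_
      rw [Finset.sum_eq_single (x * s)]
      · simp [mul_assoc]
      · intro y _ hy
        rw [if_neg]
        rintro ⟨h, _⟩
        exact hy h.symm
      · simp
    · intro s t h
      have h1 := congrFun (h (fun x => if x = 1 then 1 else 0)) s
      simp only at h1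
      rw [Finset.sum_eq_single (1 : S), Finset.sum_eq_single (1 : S)] at h1
      · by_contra hne
        simp only [one_mul, if_true] at h1
        rw [if_neg (fun e => hne e.symm)] at h1
        exact one_ne_zero h1
      · intro y _ hy
        simp [hy]
      · simp
      · intro y _ hy
        simp [hy]
      · simp
  exact row φ act h1 h2 (fun v s t => (h3 v s t).symm) h4 s

end Crest.Agent.R320.Fin_701
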