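import Crest.Agent.R320.P4_720
import Crest.Agent.R320.Top5_163
import Crest.Agent.R320.G1_852
import Crest.Agent.R320.Sp_597
import Crest.Agent.R320.ExactR_237
import Crest.Agent.R320.RegCongr_253

/-!
# Row 320: the final assembly (helper720)
-/

set_option autoImplicit false
set_option linter.unusedSectionVars false

namespace Crest.Agent.R320.Fin_720

open Crest.Agent.R320.Hk_851 Crest.Agent.R320.P5_841 Crest.Agent.R320.P4_720
open Crest.Agent.R320.FewVal_228 Crest.Agent.R320.WallU_228

/-! ### number of walls -/

section nw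
variable {α : Type}

theorem nw_le {n : ℕ} {S : Set (List α)} (w : List α) (F : Finset ℕ)
    (h : ∀ t ≤ w.length, Wo n S (w.take t) → t ∈ F) : FewWalls_228.nw n S w ≤ F.card := by
  classical
  unfold FewWalls_228.nw
  refine Finset.card_le_card_of_injOn (fun x => x + n) ?_ ?_
  · intro x hx
    have hx2 := (Finset.mem_filter.1 hx).2
    obtain ⟨h1, h2⟩ := wo_take.1 hx2
    exact h _ h1 h2
  · intro x _ y _ hxy
    simpa using hxy

end nw

section main
variable {α S V : Type} [Monoid S] [AddCommGroup V] {D : Dt α S V} {n : ℕ} {SS : Set (List α)}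

theorem nw_XX (hn : D.Wo = Wo n SS) {w : List α}
    (hw : ∀ t < w.length, D.z ≤ t → ¬ D.Wo (w.take t)) :
    FewWalls_228.nw n SS w ≤ 2 * D.z + 3 := by
  refine (nw_le w (insert w.length (Finset.range D.z)) ?_).trans ?_
  · intro t ht hW
    rw [← hn] at hW
    rw [Finset.mem_insert, Finset.mem_range]
    by_contra hc
    push Not at hc
    exact hw t (by omega) hc.2 hW
  · refine (Finset.card_insert_le _ _).trans ?_
    rw [Finset.card_range]; omega

theorem nw_R2 (ho : Ok D) (hn : D.Wo = Wo n SS) {w : List α} {b : V} (hw : R2 D w = some b) :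
    FewWalls_228.nw n SS w ≤ 2 * D.z + 3 := by
  obtain ⟨k, hk, hc, huniq, hex, hX2, r, hr, hb⟩ := R2_rel hw
  have hz := ho.hz
  obtain ⟨a1, a2, a3⟩ := NN_spec hex
  set N := NN D k w with hN
  refine (nw_le w (insert w.length (insert N (Finset.range D.z ∪
    (Finset.range D.z).image (fun y => N + y)))) ?_).trans ?_
  · intro t ht hW
    rw [← hn] at hW
    simp only [Finset.mem_insert, Finset.mem_union, Finset.mem_range, Finset.mem_image]
    by_contra hcon
    push Not at hcon
    obtain ⟨c1, c2, c3, c4⟩ := hcon
    rcases lt_trichotomy t N with h1 | h1 | h1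
    · have := NN_le (D := D) (k := k) (by omega) ht hW
      omega
    · exact c2 h1
    · obtain ⟨y, rfl⟩ := Nat.exists_eq_add_of_le h1.le
      have hy : D.z ≤ y := by
        by_contra hy
        exact c4 y (by omega) rfl
      have e : w.take (N + y) = w.take N ++ (w.drop N).take y := by
        rw [List.take_add]
      rw [e, ho.loc _ _ (by rw [List.length_take, List.length_drop]; omega)] at hW
      exact hX2.2.2 y (by rw [List.length_drop]; omega) hy hW
  · refine (Finset.card_insert_le _ _).trans ?_
    have h1 := Finset.card_insert_le N (Finset.range D.z ∪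
      (Finset.range D.z).image (fun y => N + y))
    have h2 := Finset.card_union_le (Finset.range D.z) ((Finset.range D.z).image (fun y => N + y))
    have h3 := Finset.card_image_le (s := Finset.range D.z) (f := fun y => N + y)
    rw [Finset.card_range] at h2 h3
    omega

theorem np_iff (hz : 0 < D.z) {w : List α} (h : ∀ X ∈ XX D, ¬ X <+: w) :
    ∀ t, D.z ≤ t → t ≤ w.length → ¬ D.Wo (w.take t) := by
  intro t
  induction t using Nat.strong_induction_on with
  | _ t ih =>
    intro h1 h2 h3
    refine h (w.take t) ⟨h3, by rw [List.length_take]; omega, ?_⟩ (List.take_prefix _ _)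
    intro s hs1 hs2 hs3
    rw [List.length_take] at hs1
    rw [List.take_take, min_eq_left (by omega)] at hs3
    exact ih s (by omega) hs2 (by omega) hs3

/-- all height one facts and the top -/
theorem row_of_ok [Finite α] [Finite S] [Finite V] (f : α → S) (ho : Ok D) (hr : Rg D)
    (hphi : D.φ = fun w => (w.map f).prod) (hn : D.Wo = Wo n SS)
    (hone : ∀ L : Language α, L.IsRegular → ∀ r,
      HL 1 ({w | w ∈ L ∧ FewWalls_228.nw n SS w ≤ r} : Language α))
    (faith : ∀ s s', (∀ v, D.act v s = D.act v s') → s = s') (s : S) :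
    HL 3 ({w | (w.map f).prod = s} : Language α) := by
  have hz := ho.hz
  have key : ∀ p : List α → Prop, Language.IsRegular ({w | p w} : Language α) →
      (∀ w, p w → FewWalls_228.nw n SS w ≤ 2 * D.z + 3) → HL 1 ({w | p w} : Language α) := by
    intro p hp hw
    refine (hone _ hp (2 * D.z + 3)).congr fun w => ?_
    constructor
    · intro h; exact ⟨h, hw w h⟩
    · rintro ⟨h, -⟩; exact h
  have h := Top5_163.top D.φ (by rw [hphi]; rfl) ho.φ_app D.act ho.act_mul ho.act_add faith
    (XX D) (nil_XX ho) (PC) (T D) (nu D) (fun X _ v => rfl)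
    (LP1 D) (LP2 D) (R1 D) (R2 D) ?_ ?_ (s1 ho) (s2 ho) (cc ho) ?_ ?_ ?_ ?_ ?_ ?_ s
  · rw [hphi] at h
    exact h
  · intro Q b hQ hnil
    subst hnil
    unfold R1 at hQ
    split_ifs at hQ with hc
    have := hc.2.1
    simp at this
    omega
  · intro Q b hQ hnil
    subst hnil
    obtain ⟨k, hk, -, -, hex, -⟩ := R2_rel hQ
    have hcp := ho.cp0 k hk
    obtain ⟨y, h1, h2, -⟩ := hex
    simp at h2
    omega
  · intro v v'
    exact key _ (r_T hr ho v v') (fun w hw => nw_XX hn hw.1.2.2)
  · intro s
    refine key (fun r => (∀ X ∈ XX D, ¬ X <+: r) ∧ D.φ r = s) ?_ ?_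
    · refine r_and ?_ (hr.ph s)
      refine r_congr (r_not (r_cat (r_XX hr) (r_const (α := α) True))) fun w => ?_
      constructor
      · rintro h ⟨u, v, rfl, hu, -⟩
        exact h u hu (List.prefix_append u v)
      · rintro h X hX ⟨v, rfl⟩
        exact h ⟨X, v, rfl, hX, trivial⟩
    · rintro w ⟨hw, -⟩
      exact nw_XX hn (fun t ht hzt => np_iff (by omega) hw t hzt ht.le)
  · intro v
    refine HL.finite ((List.finite_length_le α (D.p0 + D.N1)).subset ?_)
    intro P hP
    have h1 := ho.g1l _ _ hP.2
    rw [List.length_drop] at h1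
    show P.length ≤ _
    omega
  · intro v
    refine HL.finite ((List.finite_length_le α D.p0).subset ?_)
    rintro P ⟨k, hk, h1, -⟩
    have := ho.cp0 k hk
    show P.length ≤ _
    omega
  · intro b
    refine key _ (r_R1 hr b) (fun w hw => ?_)
    unfold R1 at hw
    split_ifs at hw with hc
    exact nw_XX hn (fun t ht hzt => hc.2.2 t ht (by omega))
  · intro b
    exact key _ (r_R2 hr ho b) (fun w hw => nw_R2 ho hn hw)

end main

end Crest.Agent.R320.Fin_720
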