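import Mathlib

set_option autoImplicit false

namespace Crest.Agent.R320.Zn454

variable {α S V : Type} [Monoid S] [AddCommGroup V]

def ph (f : α → S) (w : List α) : S := (w.map f).prod

theorem ph_append (f : α → S) (u v : List α) : ph f (u ++ v) = ph f u * ph f v := by
  simp [ph]

open Classical in
/-- all data and hypotheses of the two schemes (natural chain rule). -/
structure Dt (α S V : Type) [Monoid S] [AddCommGroup V] where
  f : α → S
  act : V → S → V
  Wo : List α → Prop
  n : ℕ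
  W : ℕ
  z : ℕ
  p0 : ℕ
  N : ℕ
  c : ℕ → ℕ
  K : ℕ
  C0 : ℕ
  T0 : ℕ
  N2 : ℕ
  lam1 : List α → Option V
  rho1 : List α → Option V
  nu1 : List α → V
  lam2 : ℕ → List α → Option V
  rho2 : ℕ → List α → Option V
  nu2 : List α → V
  BadT : ℕ → Prop
  loc : ∀ P Q : List α, n ≤ Q.length → (Wo (P ++ Q) ↔ Wo Q)
  gap : ∀ (w : List α) (s t : ℕ), s < t → t ≤ w.length → Wo (w.take s) → Wo (w.take t) → s + W < t
  g1len : ∀ P v, lam1 P = some v → P.length ≤ N
  g1s : ∀ P Q v b, lam1 P = some v → rho1 Q = some b → b = act v (ph f (P ++ Q)) + nu1 (P ++ Q)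
  g1c : ∀ u : List α, N2 ≤ u.length → ¬ BadT u.length → ∀ v, ∃ P Q, u = P ++ Q ∧
    lam1 P = some v ∧ (rho1 Q).isSome
  g2s : ∀ k < K, ∀ P Q v b, P.length = c k → lam2 k P = some v → rho2 k Q = some b →
    b = act v (ph f (P ++ Q)) + nu2 (P ++ Q)
  g2c : ∀ (u : List α) v, u.length = p0 → ∃ I : Finset ℕ, 2 * C0 + 2 ≤ I.card ∧ ∀ k ∈ I, k < K ∧
    lam2 k (u.take (c k)) = some v ∧ (rho2 k (u.drop (c k))).isSome
  cle : ∀ k < K, c k ≤ p0
  r2 : ∀ a b a' b', a < K → b < K → a' < K → b' < K → a ≠ b →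
    |((c a : ℤ) - c b) - ((c a' : ℤ) - c b')| ≤ 2 * N → a = a' ∧ b = b'
  r3 : ∀ T, T0 ≤ T → ((Finset.range K ×ˢ Finset.range K).filter
    (fun ab => ab.1 ≠ ab.2 ∧ BadT (T + c ab.1 - c ab.2))).card ≤ C0
  hz : 2 * p0 + 2 * N + N2 + n + T0 + 1 ≤ z
  hW : 2 * p0 + 2 * N ≤ W

namespace Dt

variable (D : Dt α S V)

def XX : Set (List α) :=
  {X | D.z ≤ X.length ∧ D.Wo X ∧ ∀ t, D.z ≤ t → t < X.length → ¬ D.Wo (X.take t)}

def pre (v : V) (X : List α) : V := D.act v (ph D.f X) + D.nu2 X

def T (v : V) (X : List α) : V :=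
  D.act (D.pre v (X.take D.p0)) (ph D.f (X.drop D.p0)) + D.nu1 (X.drop D.p0)

def L1 (v : V) : Set (List α) :=
  {P | D.p0 ≤ P.length ∧ D.lam1 (P.drop D.p0) = some (D.pre v (P.take D.p0))}

def L2 (v : V) : Set (List α) :=
  {P | ∃ k < D.K, P.length = D.c k ∧ D.lam2 k P = some v}

def R1 (y : V) : Set (List α) :=
  {Q | ∀ x, ∀ P ∈ D.L1 x, P ++ Q ∈ D.XX ∧ D.T x (P ++ Q) = y}

def Good : Set (List α) :=
  {X | X ∈ D.XX ∧ ∀ x, ∃ P ∈ D.L1 x, ∃ Q ∈ D.R1 (D.T x X), P ++ Q = X}

def Bad : Set (List α) := {X | X ∈ D.XX ∧ X ∉ D.Good}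

def R2 (y : V) : Set (List α) :=
  {Q | ∀ x, ∀ P ∈ D.L2 x,
    (∃ X1 ∈ D.Bad, ∃ X2 ∈ D.Bad, P ++ Q = X1 ++ X2 ∧ D.T (D.T x X1) X2 = y) ∨
    (∃ X ∈ D.Good, X <+: P ++ Q) ∨
    (∃ X1 ∈ D.Bad, ∃ X2 ∈ D.Good, X1 ++ X2 <+: P ++ Q)}

theorem code {X Y : List α} (hX : X ∈ D.XX) (hY : Y ∈ D.XX) (h : X <+: Y) : X = Y := by
  obtain ⟨h1, h2, h3⟩ := hX
  obtain ⟨g1, g2, g3⟩ := hY
  rcases Nat.lt_or_ge X.length Y.length with hl | hl
  · exfalso
    refine g3 X.length h1 hl ?_
    rw [← List.prefix_iff_eq_take.1 h]; exact h2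
  · exact h.eq_of_length_le hl

theorem nil_not : [] ∉ D.XX := by
  intro h
  have h1 := h.1
  have := D.hz
  simp at h1
  omega

/-- the wall rule at a place, in the remaining text -/
theorem wo_take (P Q : List α) (t : ℕ) (h : P.length + D.n ≤ t) (ht : t ≤ (P ++ Q).length) :
    D.Wo ((P ++ Q).take t) ↔ D.Wo (Q.take (t - P.length)) := by
  have e : (P ++ Q).take t = P ++ Q.take (t - P.length) := by
    rw [List.take_append, List.take_of_length_le (by omega)]
  rw [e, D.loc]
  rw [List.length_take]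
  rw [List.length_append] at ht
  omega

/-- C1 -/
theorem good_of {X : List α} (hX : X ∈ D.XX) (hE : ∀ t, D.z ≤ t + D.N → t < D.z + D.N →
    t ≤ X.length → ¬ D.Wo (X.take t)) (hB : ¬ D.BadT (X.length - D.p0)) : X ∈ D.Good := by
  refine ⟨hX, fun x => ?_⟩
  obtain ⟨h1, h2, h3⟩ := hX
  have hz := D.hz
  have hlen : D.z + D.N ≤ X.length := by
    by_contra hcon
    refine hE X.length (by omega) (by omega) le_rfl ?_
    rw [List.take_length]; exact h2
  have hYl : (X.drop D.p0).length = X.length - D.p0 := by simp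
  obtain ⟨P, Q, hPQ, hl, hr⟩ := D.g1c (X.drop D.p0) (by rw [hYl]; omega) (by rw [hYl]; exact hB)
    (D.pre x (X.take D.p0))
  obtain ⟨b, hb⟩ := Option.isSome_iff_exists.1 hr
  have hPN := D.g1len _ _ hl
  have hlX : (X.take D.p0).length = D.p0 := by rw [List.length_take]; omega
  have hXe : X = (X.take D.p0 ++ P) ++ Q := by
    rw [List.append_assoc, ← hPQ, List.take_append_drop]
  have hQl : Q.length + P.length + D.p0 = X.length := by
    have := congrArg List.length hXe
    simp only [List.length_append, hlX] at this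
    omega
  refine ⟨X.take D.p0 ++ P, ⟨?_, ?_⟩, Q, ?_, hXe.symm⟩
  · rw [List.length_append, hlX]; omega
  · rw [List.drop_append, List.take_append]
    simp only [hlX, Nat.sub_self, List.drop_zero, List.take_zero, List.append_nil]
    rw [List.drop_of_length_le (by omega), List.nil_append, List.take_take, Nat.min_self]
    exact hl
  · intro x' P' hP'
    obtain ⟨q1, q2⟩ := hP'
    have hP'N := D.g1len _ _ q2
    rw [List.length_drop] at hP'N
    have hval : D.T x' (P' ++ Q) = b := by
      unfold T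
      have e1 : (P' ++ Q).take D.p0 = P'.take D.p0 := by
        rw [List.take_append, Nat.sub_eq_zero_of_le q1, List.take_zero, List.append_nil]
      have e2 : (P' ++ Q).drop D.p0 = P'.drop D.p0 ++ Q := by
        rw [List.drop_append, Nat.sub_eq_zero_of_le q1, List.drop_zero]
      rw [e1, e2]
      exact (D.g1s _ _ _ _ q2 hb).symm
    have hvalX : D.T x X = b := by
      unfold T
      rw [hPQ]
      exact (D.g1s _ _ _ _ hl hb).symm
    refine ⟨⟨?_, ?_, ?_⟩, by rw [hval, hvalX]⟩
    · rw [List.length_append]; omega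
    · rw [D.loc _ _ (by omega)]
      rw [hXe, D.loc _ _ (by omega)] at h2
      exact h2
    · intro t ht1 ht2 hcon
      rw [List.length_append] at ht2
      rw [D.wo_take _ _ _ (by omega) (by rw [List.length_append]; omega)] at hcon
      -- place in X
      have hplace : D.Wo (X.take (t - P'.length + (D.p0 + P.length))) := by
        rw [hXe, D.wo_take _ _ _ (by rw [List.length_append, hlX]; omega)
          (by rw [List.length_append, List.length_append, hlX]; omega)]
        have : t - P'.length + (D.p0 + P.length) - (X.take D.p0 ++ P).length = t - P'.length := by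
          rw [List.length_append, hlX]; omega
        rw [this]; exact hcon
      by_cases hc : t - P'.length + (D.p0 + P.length) < D.z + D.N
      · exact hE _ (by omega) hc (by omega) hplace
      · exact h3 _ (by omega) (by omega) hplace

theorem first_of {p : ℕ → Prop} (m : ℕ) (h : ∃ t, m ≤ t ∧ p t) :
    ∃ t, m ≤ t ∧ p t ∧ ∀ s, m ≤ s → s < t → ¬ p s := by
  classical
  refine ⟨Nat.find h, (Nat.find_spec h).1, (Nat.find_spec h).2, fun s h1 h2 h3 => ?_⟩
  exact Nat.find_min h h2 ⟨h1, h3⟩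

/-- wall places of a word -/
def Pl (w : List α) (t : ℕ) : Prop := t ≤ w.length ∧ D.Wo (w.take t)

theorem Pl_eq {w : List α} {s t : ℕ} (hs : D.Pl w s) (ht : D.Pl w t) (h1 : s ≤ t + D.W)
    (h2 : t ≤ s + D.W) : s = t := by
  rcases Nat.lt_trichotomy s t with h | h | h
  · have := D.gap w s t h ht.1 hs.2 ht.2
    omega
  · exact h
  · have := D.gap w t s h hs.1 ht.2 hs.2
    omega

/-- places of two texts with the same rest -/
theorem wo_shift {P P' Q : List α} {t t' : ℕ} (h : P.length + D.n ≤ t) (e : t + P'.length = t' + P.length)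
    (ht : t ≤ (P ++ Q).length) : D.Wo ((P ++ Q).take t) ↔ D.Wo ((P' ++ Q).take t') := by
  rw [List.length_append] at ht
  rw [D.wo_take _ _ _ h (by rw [List.length_append]; omega),
    D.wo_take _ _ _ (by omega) (by rw [List.length_append]; omega)]
  have : t - P.length = t' - P'.length := by omega
  rw [this]

theorem unspoiled {w : List α} {k j : ℕ} (hk : k < D.K) (hj : j < D.K) (tau : ℕ)
    (htau : D.Pl w tau) (h1 : D.z + D.c k ≤ tau + D.c j)
    (hmin : ∀ s, D.z + D.c k ≤ s + D.c j → s < tau → ¬ D.Pl w s)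
    (hE : ∀ t, D.Pl w t → ¬ (D.z + D.c k ≤ t + D.c j + D.N ∧ t + D.c j ≤ D.z + D.c k + D.N))
    (hB : ¬ D.BadT (tau - D.p0 + D.c j - D.c k))
    (P' : List α) (hP' : P'.length = D.c j) :
    ∃ X ∈ D.Good, X <+: P' ++ w.drop (D.c k) := by
  have hz := D.hz
  have hck := D.cle k hk
  have hcj := D.cle j hj
  set Q := w.drop (D.c k) with hQ
  have hwl := htau.1
  have hw : w = w.take (D.c k) ++ Q := (List.take_append_drop _ _).symm
  have hPl : (w.take (D.c k)).length = D.c k := by rw [List.length_take]; omega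
  have hQl : Q.length = w.length - D.c k := by rw [hQ, List.length_drop]
  have hlen : (P' ++ Q).length = D.c j + (w.length - D.c k) := by
    rw [List.length_append, hP', hQl]
  have key : ∀ t', D.z ≤ t' + D.N → t' ≤ (P' ++ Q).length →
      D.Wo ((P' ++ Q).take t') → D.Pl w (t' + D.c k - D.c j) := by
    intro t' h1' h2' h3'
    rw [hlen] at h2'
    refine ⟨by omega, ?_⟩
    rw [hw]
    refine (D.wo_shift (P := w.take (D.c k)) (P' := P') (t := t' + D.c k - D.c j) (t' := t')
      (by rw [hPl]; omega) (by rw [hPl, hP']; omega)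
      (by rw [List.length_append, hPl, hQl]; omega)).2 h3'
  have htl : tau + D.c j - D.c k ≤ (P' ++ Q).length := by rw [hlen]; omega
  have hXl : ((P' ++ Q).take (tau + D.c j - D.c k)).length = tau + D.c j - D.c k := by
    rw [List.length_take]; omega
  have htt : ∀ t, t ≤ tau + D.c j - D.c k →
      ((P' ++ Q).take (tau + D.c j - D.c k)).take t = (P' ++ Q).take t := by
    intro t ht
    rw [List.take_take, Nat.min_eq_left ht]
  refine ⟨(P' ++ Q).take (tau + D.c j - D.c k), D.good_of ⟨?_, ?_, ?_⟩ ?_ ?_,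
    List.take_prefix _ _⟩
  · rw [hXl]; omega
  · have h := htau.2
    rw [hw] at h
    exact (D.wo_shift (P := w.take (D.c k)) (P' := P') (t := tau) (t' := tau + D.c j - D.c k)
      (by rw [hPl]; omega) (by rw [hPl, hP']; omega)
      (by rw [List.length_append, hPl, hQl]; omega)).1 h
  · intro t ht1 ht2 hcon
    rw [hXl] at ht2
    rw [htt t (by omega)] at hcon
    exact hmin _ (by omega) (by omega) (key t (by omega) (by omega) hcon)
  · intro t ht1 ht2 ht3 hcon
    rw [hXl] at ht3
    rw [htt t (by omega)] at hcon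
    exact hE _ (key t (by omega) (by omega) hcon) ⟨by omega, by omega⟩
  · rw [hXl]
    have : tau + D.c j - D.c k - D.p0 = tau - D.p0 + D.c j - D.c k := by omega
    rw [this]; exact hB

theorem hC2 {X1 X2 : List α} (h1 : X1 ∈ D.Bad) (h2 : X2 ∈ D.Bad) (x : V) :
    ∃ P ∈ D.L2 x, ∃ Q ∈ D.R2 (D.T (D.T x X1) X2), P ++ Q = X1 ++ X2 := by
  classical
  have hz := D.hz
  have hW := D.hW
  have hX1 := h1.1
  have hX2 := h2.1
  have hl1 := hX1.1
  have hl2 := hX2.1
  set w := X1 ++ X2 with hw
  have hwl : w.length = X1.length + X2.length := by rw [hw, List.length_append]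
  have hu : (X1.take D.p0).length = D.p0 := by rw [List.length_take]; omega
  obtain ⟨I, hIc, hI⟩ := D.g2c (X1.take D.p0) x hu
  have hPl1 : D.Pl w X1.length := by
    refine ⟨by omega, ?_⟩
    rw [hw, List.take_left]; exact hX1.2.1
  have hPl2 : D.Pl w w.length := by
    refine ⟨le_rfl, ?_⟩
    rw [List.take_length, hw, D.loc _ _ (by omega)]
    exact hX2.2.1
  obtain ⟨t1, ht1, hp1, hm1⟩ := first_of (p := D.Pl w) (D.z - D.p0) ⟨X1.length, by omega, hPl1⟩
  obtain ⟨t2, ht2, hp2, hm2⟩ := first_of (p := D.Pl w) (D.z + D.p0) ⟨w.length, by omega, hPl2⟩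
  let B1 : Finset (ℕ × ℕ) := (Finset.range D.K ×ˢ Finset.range D.K).filter
    (fun ab => ab.1 ≠ ab.2 ∧ ∃ t, D.Pl w t ∧ (D.z + D.c ab.2 ≤ t + D.c ab.1 + D.N ∧
      t + D.c ab.1 ≤ D.z + D.c ab.2 + D.N))
  let B2 : Finset (ℕ × ℕ) := (Finset.range D.K ×ˢ Finset.range D.K).filter
    (fun ab => ab.1 ≠ ab.2 ∧ D.BadT (t1 - D.p0 + D.c ab.1 - D.c ab.2))
  let B3 : Finset (ℕ × ℕ) := (Finset.range D.K ×ˢ Finset.range D.K).filter
    (fun ab => ab.1 ≠ ab.2 ∧ D.BadT (t2 - D.p0 + D.c ab.1 - D.c ab.2))
  have hB1 : B1.card ≤ 1 := by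
    rw [Finset.card_le_one]
    rintro ⟨a, b⟩ hab ⟨a', b'⟩ hab'
    simp only [B1, Finset.mem_filter, Finset.mem_product, Finset.mem_range] at hab hab'
    obtain ⟨⟨ha, hb⟩, hne, t, ht, e1, e2⟩ := hab
    obtain ⟨⟨ha', hb'⟩, hne', t', ht', e1', e2'⟩ := hab'
    have q1 := D.cle a ha
    have q2 := D.cle b hb
    have q3 := D.cle a' ha'
    have q4 := D.cle b' hb'
    have htt : t = t' := D.Pl_eq ht ht' (by omega) (by omega)
    subst htt
    have := D.r2 b a b' a' hb ha hb' ha' (Ne.symm hne) (by rw [abs_le]; constructor <;> omega)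
    rw [this.1, this.2]
  have hB2 : B2.card ≤ D.C0 := D.r3 _ (by omega)
  have hB3 : B3.card ≤ D.C0 := D.r3 _ (by omega)
  obtain ⟨k, hkI, hk⟩ : ∃ k ∈ I, k ∉ (B1 ∪ B2 ∪ B3).image Prod.snd := by
    by_contra hcon
    push Not at hcon
    have hsub : I ⊆ (B1 ∪ B2 ∪ B3).image Prod.snd := fun k hk => hcon k hk
    have c1 := Finset.card_le_card hsub
    have c2 := Finset.card_image_le (s := B1 ∪ B2 ∪ B3) (f := Prod.snd)
    have c3 := Finset.card_union_le (B1 ∪ B2) B3
    have c4 := Finset.card_union_le B1 B2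
    omega
  obtain ⟨hkK, hlam, hrho⟩ := hI k hkI
  obtain ⟨b0, hb0⟩ := Option.isSome_iff_exists.1 hrho
  have hck := D.cle k hkK
  have hPe : w.take (D.c k) = (X1.take D.p0).take (D.c k) := by
    rw [List.take_take, Nat.min_eq_left hck, hw, List.take_append_of_le_length (by omega)]
  have hQe : w.drop (D.c k) = X1.drop (D.c k) ++ X2 := by
    rw [hw, List.drop_append_of_le_length (by omega)]
  refine ⟨w.take (D.c k), ⟨k, hkK, ?_, ?_⟩, w.drop (D.c k), ?_, List.take_append_drop _ _⟩
  · rw [List.length_take]; omega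
  · rw [hPe]; exact hlam
  rintro x' P' ⟨j, hj, hP'l, hlam'⟩
  have hcj := D.cle j hj
  by_cases hjk : j = k
  · subst hjk
    have hX1' : P' ++ X1.drop (D.c j) ∈ D.XX := by
      refine ⟨?_, ?_, ?_⟩
      · rw [List.length_append, List.length_drop]; omega
      · have h := hX1.2.1
        rw [← List.take_append_drop (D.c j) X1, D.loc _ _ (by rw [List.length_drop]; omega)] at h
        rw [D.loc _ _ (by rw [List.length_drop]; omega)]
        exact h
      · intro t ht1 ht2 hcon
        rw [List.length_append, List.length_drop] at ht2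
        refine hX1.2.2 t ht1 (by omega) ?_
        rw [← List.take_append_drop (D.c j) X1]
        have hl : (X1.take (D.c j)).length = D.c j := by rw [List.length_take]; omega
        exact (D.wo_shift (P := X1.take (D.c j)) (P' := P') (by rw [hl]; omega)
          (by rw [hl]; omega) (by rw [List.length_append, hl, List.length_drop]; omega)).2 hcon
    by_cases hg : P' ++ X1.drop (D.c j) ∈ D.Good
    · right; left
      refine ⟨_, hg, ?_⟩
      rw [hQe, ← List.append_assoc]
      exact List.prefix_append _ _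
    · left
      refine ⟨P' ++ X1.drop (D.c j), ⟨hX1', hg⟩, X2, h2, by rw [hQe, List.append_assoc], ?_⟩
      congr 1
      unfold T
      have e1 : (P' ++ X1.drop (D.c j)).drop D.p0 = X1.drop D.p0 := by
        rw [List.drop_append, List.drop_of_length_le (by omega), List.nil_append, List.drop_drop]
        congr 1; omega
      have e2 : (P' ++ X1.drop (D.c j)).take D.p0 = P' ++ (X1.take D.p0).drop (D.c j) := by
        rw [List.take_append, List.take_of_length_le (by omega), List.drop_take, hP'l]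
      rw [e1, e2]
      congr 2
      have r1 : D.pre x' (P' ++ (X1.take D.p0).drop (D.c j)) = b0 :=
        (D.g2s j hj _ _ _ _ hP'l hlam' hb0).symm
      have r2 : D.pre x (X1.take D.p0) = b0 := by
        have := D.g2s j hj ((X1.take D.p0).take (D.c j)) ((X1.take D.p0).drop (D.c j)) x b0
          (by rw [List.length_take]; omega) hlam hb0
        rw [List.take_append_drop] at this
        exact this.symm
      rw [r1, r2]
  · right; left
    have hnot : (j, k) ∉ B1 ∪ B2 ∪ B3 := fun hm => hk (Finset.mem_image.2 ⟨(j, k), hm, rfl⟩)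
    simp only [Finset.mem_union, not_or] at hnot
    obtain ⟨⟨n1, n2⟩, n3⟩ := hnot
    simp only [B1, B2, B3, Finset.mem_filter, Finset.mem_product, Finset.mem_range, hj, hkK,
      ne_eq, hjk, not_false_eq_true, true_and, and_self] at n1 n2 n3
    obtain ⟨tau, g1, g2, g3⟩ := first_of (p := D.Pl w) (D.z + D.c k - D.c j)
      ⟨t2, by omega, hp2⟩
    have htau2 : tau ≤ t2 := by
      by_contra hcon
      exact g3 t2 (by omega) (by omega) hp2
    refine D.unspoiled hkK hj tau g2 (by omega) (fun s hs => g3 s (by omega)) ?_ ?_ P' hP'l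
    · intro t ht hcon
      exact n1 ⟨t, ht, hcon⟩
    · by_cases hlt : tau < D.z + D.p0
      · have : tau = t1 := by
          have ht1tau : t1 ≤ tau := by
            by_contra hcon
            exact hm1 tau (by omega) (by omega) g2
          exact D.Pl_eq g2 hp1 (by omega) (by omega)
        rw [this]; exact n2
      · have : tau = t2 := by
          have : t2 ≤ tau := by
            by_contra hcon
            exact hm2 tau (by omega) (by omega) g2
          omega
        rw [this]; exact n3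

end Dt

end Crest.Agent.R320.Zn454
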