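import Crest.Agent.R320.SemTop_727
import Crest.Agent.R320.Zn_454
import Crest.Agent.R320.Fib_298
import Crest.Agent.R320.LWallAll_922
import Crest.Agent.R320.Sp_597
import Crest.Agent.R320.ExactR_237
import Crest.Agent.R320.G1_852
import Crest.Agent.R320.RegCongr_253

set_option autoImplicit false

/-!
# Row 320: the join (helper727)

`SemTop_727.lg_XX` (top, semantic right words) + `Zn_454` (both schemes on words) + `G1_852`
(gadget 1) + `Sp_597` (ruler) + `ExactR_237` (gadget 2) + `LWallAll_922` (walls on all words) +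
`Fib_298` (height one of the fibres, tail, read-off).
-/

namespace Crest.Agent.R320.Fin_727

open Crest.RegLang Crest.Agent.R320.Hk_851 Crest.Agent.R320.Blk467

theorem fin (α : Type) [Finite α] (S : Type) [Monoid S] [Finite S] (φ : α → S) (s : S) :
    HL 3 ({w | (w.map φ).prod = s} : Language α) := by
  classical
  haveI := Fintype.ofFinite S
  obtain ⟨act, hadd, hone, hmul, hfaith⟩ := exists_module S
  obtain ⟨m, r, hg⟩ := G1_852.gadget (S := S) (V := S → ZMod 2) act
  obtain ⟨K, hK⟩ := ExactR_237.exact_gadget α S (S → ZMod 2) φ act (2 * (r + m) + 2)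
  obtain ⟨Ms, M, hcard, hMs, hM, hg⟩ := hg (4 ^ K)
  obtain ⟨b, hb⟩ : ∃ b, b = M * (4 * 2 ^ K + 6) + 1 := ⟨_, rfl⟩
  have hco : Nat.Coprime b M := by
    rw [hb]
    simp
  have hb2 : 4 * M * 2 ^ K + 2 * M + 4 ≤ b := by
    rw [hb]; nlinarith [Nat.one_le_two_pow (n := K)]
  have hbpos : 0 < b := by omega
  obtain ⟨lam1, rho1, nu1, g1, g2, g3, g4⟩ := hg b hbpos hco α φ
  obtain ⟨N, hN⟩ : ∃ N, N = b ^ m := ⟨_, rfl⟩
  obtain ⟨c, c1, c2, c3, c4⟩ := Sp_597.spoil K m Ms M b hM (fun k hk => ⟨(hMs k hk).1, (hMs k hk).2.2⟩)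
    hb2 hco N
  obtain ⟨lam2, rho2, nu2, e1, e2⟩ := hK c (fun i j hij _ => c1 hij)
  obtain ⟨p0, hp0⟩ : ∃ p0, p0 = c K := ⟨_, rfl⟩
  have hcp : ∀ k, k < K → c k ≤ p0 := fun k hk => by rw [hp0]; exact (c1 hk).le
  obtain ⟨n, _, B, Wo, hLW, hgap, -, -, hfree⟩ :=
    LWallAll_922.walls_all_left α (2 * p0 + 2 * N + 1) (by omega)
  obtain ⟨z, hz⟩ : ∃ z, z = 2 * p0 + 2 * N + n + p0 + 1 := ⟨_, rfl⟩
  let D : Zn454.Dt α S (S → ZMod 2) :=
    { f := φ
      act := act
      Wo := Wo
      n := n
      W := 2 * p0 + 2 * N + 1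
      z := z
      p0 := p0
      N := N
      c := c
      K := K
      C0 := r + m
      T0 := p0
      lam1 := lam1
      rho1 := rho1
      nu1 := nu1
      lam2 := lam2
      rho2 := fun k Q => rho2 k Q 1
      nu2 := fun u => nu2 u 1
      BadT := Sp_597.Bad Ms M b m
      loc := hLW.app
      gap := fun w s t h1 h2 h3 h4 => by
        have := hgap w s t h1 h2 h3 h4
        omega
      g1len := fun P v h => by
        have := g1 P v h
        omega
      g1s := fun P Q v b' h1 h2 => g2 P Q v b' h1 h2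
      g1c := fun u _ hbad v => by
        have h1 : ∀ k ∈ Ms, ¬ k ∣ u.length := fun k hk hd => hbad (Or.inl ⟨k, hk, hd⟩)
        have h2 : ∀ j < m, M ≤ u.length / b ^ j % b ∧ u.length / b ^ j % b + M < b := by
          intro j hj
          by_contra hcon
          refine hbad (Or.inr ⟨j, hj, fun hh => hcon ⟨hh.1, ?_⟩⟩)
          have := hh.2
          omega
        obtain ⟨P, Q, h3, h4, v', h5⟩ := g3 u h1 h2 v
        exact ⟨P, Q, h3, h4, by rw [h5]; rfl⟩
      g2s := fun k hk P Q v b' h1 h2 h3 => by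
        have := e1 k hk P Q 1 v b' h1 h2 h3
        rw [mul_one] at this
        exact this
      g2c := fun u v hu => e2 u 1 v (fun k hk => by rw [hu]; exact hcp k hk)
      cle := hcp
      r2 := by
        intro a b' a' b'' ha hb' ha' hb'' hne hle
        by_contra hcon
        by_cases h : a' = b''
        · subst h
          rcases lt_or_gt_of_ne hne with hlt | hlt
          · have h1 := c2 a b' hlt
            have h2 : ((c a : ℤ) - c b') - ((c a' : ℤ) - c a') = (c a : ℤ) - c b' := by ring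
            rw [h2, abs_le] at hle
            omega
          · have h1 := c2 b' a hlt
            have h2 : ((c a : ℤ) - c b') - ((c a' : ℤ) - c a') = (c a : ℤ) - c b' := by ring
            rw [h2, abs_le] at hle
            omega
        · have h1 := c3 b' a b'' a' (Ne.symm hne) (Ne.symm h) (fun hh => hcon ⟨hh.2, hh.1⟩)
          have h2 : (2 * N : ℤ) ≤ ((4 * N : ℕ) : ℤ) := by push_cast; omega
          have h3 : ((2 : ℤ) * (N : ℤ)) ≤ ((4 * N : ℕ) : ℤ) := h2
          linarith
      r3 := by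
        intro T hT
        refine le_trans ?_ ((c4 (T : ℤ)).trans (Nat.add_le_add_right hcard m))
        refine Finset.card_le_card_of_injOn Prod.swap ?_ (Prod.swap_injective.injOn)
        intro p hp
        have hp' := Finset.mem_filter.1 (Finset.mem_coe.1 hp)
        obtain ⟨hp1, hp2, hp3⟩ := hp'
        rw [Finset.mem_product] at hp1
        refine Finset.mem_coe.2 (Finset.mem_filter.2 ⟨Finset.mem_product.2 ⟨hp1.2, hp1.1⟩,
          Ne.symm hp2, ?_⟩)
        have hle : c p.2 ≤ T + c p.1 := by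
          have := hcp p.2 (Finset.mem_range.1 hp1.2)
          omega
        have e : (T : ℤ) + c p.1 - c p.2 = ((T + c p.1 - c p.2 : ℕ) : ℤ) := by
          rw [Nat.cast_sub hle]; push_cast; ring
        show Sp_597.BadZ Ms M b m ((T : ℤ) + c p.1 - c p.2)
        rw [e, Sp_597.badZ_cast]
        exact hp3
      hz := by omega
      hW := by omega }
  have hU : Fib_298.WallU Wo n (max B (2 * p0 + 2 * N + 1)) :=
    { loc := hLW.app
      len := hLW.len
      free := fun X hX => by
        obtain ⟨u, x, v, k, h1, h2, h3, h4⟩ := hfree X hX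
        exact ⟨u, x, v, k, h4, le_max_of_le_left h1, le_max_of_le_right h2,
          le_max_of_le_left h3⟩ }
  have hbm : 0 < b ^ m := Nat.pow_pos hbpos
  have hnu : ∀ y, Language.IsRegular ({Y | nu1 Y = y} : Language α) := fun y =>
    RegCongr_253.regular_of_congr φ (b ^ m) (M * b ^ m) (Nat.mul_pos hM hbm) _
      (fun q q' _ _ h1 h2 h3 (h4 : nu1 q = y) => by
        show nu1 q' = y
        rw [← (g4 q q' h1 h3 h2).2]
        exact h4)
  let E : SemTop_727.Sch α (S → ZMod 2) := ⟨D.XX, D.T, D.L1, D.L2⟩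
  have hL1 : ∀ x, (D.L1 x).Finite := fun x => by
    refine (List.finite_length_le α (p0 + N)).subset ?_
    rintro P ⟨h1, h2⟩
    have h3 := g1 _ _ h2
    rw [List.length_drop] at h3
    have h4 : D.p0 = p0 := rfl
    show P.length ≤ p0 + N
    omega
  have hL2 : ∀ x, (D.L2 x).Finite := fun x => by
    refine (List.finite_length_le α p0).subset ?_
    rintro P ⟨k, hk, h1, -⟩
    show P.length ≤ p0
    rw [h1]
    exact hcp k hk
  have hz0 : 0 < z := by omega
  have hnz : n ≤ z := by omega
  have hpz : p0 ≤ z := by omega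
  have hC : PCode E.XX := Fib_298.pcode_XX (z := z) hz0
  have hfib : ∀ x y, HL 1 (E.fib x y) := fun x y =>
    Fib_298.hfib (z := z) hU hnz act φ p0 hpz
      (fun v X0 => act v (X0.map φ).prod + nu2 X0 1) nu1 hnu x y
  have hLg : ∀ v v', HL 3 (Lg (Fib_298.XX Wo z)
      (Fib_298.TT act φ p0 (fun v X0 => act v (X0.map φ).prod + nu2 X0 1) nu1) v v') :=
    fun v v' => SemTop_727.Sch.lg_XX E hC hfib hL1 hL2
      (fun X1 h1 X2 h2 x => D.hC2 h1 h2 x) v v'
  exact Fib_298.final (z := z) hU hnz hz0 act hadd hone hmul hfaith φ p0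
    (fun X0 => nu2 X0 1) nu1 (by norm_num) hLg s

end Crest.Agent.R320.Fin_727
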