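import Crest.Agent.R320.FinB_743

/-!
Row 320 (helper743): choice of constants and the final theorem on alphabets in `Type`.
-/

set_option autoImplicit false

namespace Crest.Agent.R320.Fin_743

open Crest.RegLang Crest.Agent.R320.Hk_851
open Crest.Agent.R320.FinA_743 Crest.Agent.R320.FinB_743 Crest.Agent.R320.Sc2n_937
open Crest.Agent.R320.Grid_899

theorem exists_primes (k B : ℕ) : ∃ q : Fin k → ℕ, (∀ j, (q j).Prime ∧ B < q j) ∧
    Function.Injective q := by
  refine ⟨fun j => Nat.nth Nat.Prime (B + 1 + j), fun j => ⟨Nat.prime_nth_prime _, ?_⟩, ?_⟩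
  · have h := (Nat.nth_strictMono Nat.infinite_setOfPred_prime).le_apply (x := B + 1 + (j : ℕ))
    exact lt_of_lt_of_le (by omega) h
  · intro i j h
    have := (Nat.nth_strictMono Nat.infinite_setOfPred_prime).injective h
    exact Fin.ext (by omega)

theorem sum_G (κ i : ℕ) (hκ : 1 ≤ κ) : ∑ j ∈ Finset.range (i + 1), G κ j ≤ 2 * G κ i := by
  induction i with
  | zero => simp [G]
  | succ i ih =>
    rw [Finset.sum_range_succ]
    have h : 2 * G κ i ≤ G κ (i + 1) := by
      unfold G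
      have : κ * (i + 1) = κ * i + κ := by ring
      rw [this, pow_add]
      have h1 : 2 ^ 1 ≤ 2 ^ κ := Nat.pow_le_pow_right (by norm_num) hκ
      have h2 : 0 < 2 ^ (κ * i) := by positivity
      nlinarith
    omega

theorem growth (K Ms m : ℕ) (i : ℕ) :
    2 ^ (K + 4) * ∑ j ∈ Finset.range (i + 1), Ms * G (K + 5 + Ms) j ≤ G (K + 5 + Ms) (i + 1) := by
  rw [← Finset.mul_sum]
  set κ := K + 5 + Ms with hκ
  have h1 := sum_G κ i (by omega)
  have h2 : G κ (i + 1) = 2 ^ κ * G κ i := by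
    unfold G
    rw [← pow_add]; congr 1; ring
  have h3 : Ms ≤ 2 ^ Ms := Nat.lt_two_pow_self.le
  have h4 : 2 ^ κ = 2 ^ (K + 4) * 2 * 2 ^ Ms := by
    rw [hκ, ← pow_succ, ← pow_add]
  rw [h2, h4]
  calc 2 ^ (K + 4) * (Ms * ∑ j ∈ Finset.range (i + 1), G κ j)
      ≤ 2 ^ (K + 4) * (2 ^ Ms * (2 * G κ i)) :=
        Nat.mul_le_mul_left _ (Nat.mul_le_mul h3 h1)
    _ = 2 ^ (K + 4) * 2 * 2 ^ Ms * G κ i := by ring

theorem fin (α : Type) [Finite α] (S : Type) [Monoid S] [Finite S] (φ : α → S) (s : S) :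
    HL 3 ({w | (w.map φ).prod = s} : Language α) := by
  classical
  haveI : Fintype S := Fintype.ofFinite S
  let V := Two_621.Tok S
  haveI : Fintype V := Fintype.ofFinite V
  let act : V → S → V := Two_621.act
  obtain ⟨k, m, H⟩ := grid_gadget_reg S V act
  set C0 := k + m with hC0
  obtain ⟨K, HE⟩ := ExactR_237.exact_gadget α S V φ act (2 * C0 + 2)
  obtain ⟨q, hq, hqi⟩ := exists_primes k (2 ^ (K + 1))
  have h2K : 2 ≤ 2 ^ (K + 1) := by
    rw [pow_succ]
    have : 0 < 2 ^ K := by positivity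
    omega
  have hodd : ∀ j, Odd (q j) := fun j => (hq j).1.odd_of_ne_two (by have := (hq j).2; omega)
  have hcop : Pairwise (fun i j => Nat.Coprime (q i) (q j)) := fun i j hij =>
    (Nat.coprime_primes (hq i).1 (hq j).1).2 fun h => hij (hqi h)
  set Ms := ∏ j, q j with hMs
  have hMs0 : 0 < Ms := Finset.prod_pos fun j _ => (hq j).1.pos
  set κ := K + 5 + Ms with hκ
  obtain ⟨lam, rho, nu0, hlam, hrhol, hsnd, hcmp, hloc⟩ :=
    H q hodd hcop κ α (ph φ) (ph_append φ)
  -- the ruler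
  set A1 := Am Ms κ (m + 1) with hA1
  have hAmA1 : Am Ms κ m ≤ A1 := Am_mono (Nat.le_succ m)
  set N1 := A1 + 1 with hN1
  obtain ⟨X, hX1, hX0, hX⟩ := Thin963.thin K m (Finset.univ.image q) (fun i => (G κ i : ℤ))
    (fun i => (Ms : ℤ) * (G κ i : ℤ)) (fun i => (Am Ms κ i : ℤ))
    (by
      intro p hp
      obtain ⟨j, -, rfl⟩ := Finset.mem_image.1 hp
      exact ⟨(hq j).1, (hq j).2.le⟩)
    (by
      intro p hp
      obtain ⟨j, -, rfl⟩ := Finset.mem_image.1 hp
      rw [Nat.isCoprime_iff_coprime]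
      exact (Nat.Coprime.pow_right _ ((Nat.coprime_primes (hq j).1 Nat.prime_two).2
        (by have := (hq j).2; omega))))
    (by exact_mod_cast G_pos (κ := κ) m)
    (fun i j hij => by exact_mod_cast G_dvd (κ := κ) hij)
    (fun i => by
      have h1 : 0 < Ms * G κ i := Nat.mul_pos hMs0 (G_pos i)
      exact_mod_cast h1)
    (fun i => Dvd.intro_left _ rfl)
    (fun i _ => by
      have := growth K Ms m i
      exact_mod_cast this)
    (2 * N1 : ℕ)
  obtain ⟨x, rfl⟩ : ∃ x : ℕ, X = x := ⟨X.toNat, (Int.toNat_of_nonneg hX0.le).symm⟩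
  have hx1 : 2 * N1 ≤ x := by exact_mod_cast hX1
  have hx0 : 0 < x := by exact_mod_cast hX0
  let c : ℕ → ℕ := fun j => x * 2 ^ j
  have hcs : ∀ i j, i < j → j < K → c i < c j := fun i j hij _ =>
    Nat.mul_lt_mul_of_pos_left (Nat.pow_lt_pow_right (by norm_num) hij) hx0
  obtain ⟨lam2, rho2, nu2, hs2, hc2⟩ := HE c hcs
  set p0 := c K with hp0
  have hcp : ∀ j, j < K → c j ≤ p0 := fun j hj =>
    Nat.mul_le_mul_left _ (Nat.pow_le_pow_right (by norm_num) hj.le)
  -- the walls
  set W := 2 * p0 + 2 * N1 + 1 with hW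
  obtain ⟨n0, _, B0, Wo, hLW, hsep, hper, _, hfew⟩ :=
    LWallAll_922.walls_all_left α W (by omega)
  set n1 := max n0 1 with hn1
  have hn01 : n0 ≤ n1 := le_max_left _ _
  have hWlen : ∀ Q, Wo Q → n1 ≤ Q.length := by
    intro Q hQ
    have h1 := hLW.len Q hQ
    rcases Nat.eq_zero_or_pos n0 with h0 | h0
    · exfalso
      refine hper Q 1 one_pos (by omega) hQ ?_
      rw [h0, Nat.sub_zero, List.drop_length]
      simp [List.hasPeriod_iff_getElem?]
    · omega
  set q0 := n1 + 3 * p0 + 2 * A1 + 1 with hq0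
  let g : Geo α :=
    { Wo := Wo, n := n1, z := p0 + N1 + q0, p0 := p0, q0 := q0, N1 := N1
      loc := fun P Q h => hLW.app P Q (by omega)
      hz := rfl
      hq := by omega
      hN := by omega
      hqp := by omega }
  have hlen1 : ∀ P v, lam P = some v → P.length ≤ Am Ms κ m := fun P v h => (hlam P v h).1.le
  refine asm act (fun a b s => Two_621.act_add a b s) (fun v => Two_621.act_one v)
    (fun v s t => (Two_621.act_mul v s t).symm) (fun s t h => Two_621.act_faithful h) φ g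
    (max B0 W) hWlen (by change 0 < n1; omega) ?_ lam rho (nu1 act φ lam rho) (fun u => nu2 u 1)
    (BadN q κ m) ?_ (nu1_sound hsnd) ?_ K C0 c lam2 (fun k Q => rho2 k Q 1) hcp ?_ ?_ ?_ ?_ ?_ ?_ s
  · intro X hX
    obtain ⟨u, x, v, k, h1, h2, h3, h4⟩ := hfew X hX
    exact ⟨u, x, k, v, by omega, by omega, by omega, h4⟩
  · intro P v h
    have := hlen1 P v h
    change P.length ≤ N1
    omega
  · intro Y hY hb u
    have hY' : p0 + N1 + q0 ≤ Y.length + p0 := hY
    refine hcmp Y (by omega) ?_ ?_ u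
    · intro j hj
      exact hb (Or.inl ⟨j, hj⟩)
    · intro j h1 h2
      constructor
      · by_contra hcon
        exact hb (Or.inr ⟨j, h1, h2, Or.inl (not_le.1 hcon)⟩)
      · by_contra hcon
        exact hb (Or.inr ⟨j, h1, h2, Or.inr (not_le.1 hcon)⟩)
  · intro k hk P Q v u hP _ h1 h2
    have := hs2 k hk P Q 1 v u hP h1 h2
    rw [mul_one] at this
    exact this
  · intro u v hu
    have hu' : u.length = p0 := hu
    obtain ⟨I, h1, h2⟩ := hc2 u 1 v (fun k hk => by rw [hu']; exact hcp k hk)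
    exact ⟨I, h1, h2⟩
  · intro P Q h1 h2 h3
    have h4 := hsep (P ++ Q) P.length (P ++ Q).length
      (by rw [List.length_append]; have := List.length_pos_iff.2 h3; omega) le_rfl
      (by rw [List.take_left]; exact h1) (by rw [List.take_length]; exact h2)
    rw [List.length_append] at h4
    change 2 * p0 + 2 * N1 < Q.length
    omega
  · intro k k' l l' _ _ _ _ hk hl h1 h2
    have h1' : x * 2 ^ k + x * 2 ^ l' < x * 2 ^ l + x * 2 ^ k' + 2 * N1 := h1
    have h2' : x * 2 ^ l + x * 2 ^ k' < x * 2 ^ k + x * 2 ^ l' + 2 * N1 := h2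
    rw [← Nat.mul_add, ← Nat.mul_add] at h1' h2'
    have h3 : 2 ^ k + 2 ^ l' = 2 ^ l + 2 ^ k' := by
      rcases Nat.lt_trichotomy (2 ^ k + 2 ^ l') (2 ^ l + 2 ^ k') with h | h | h
      · exfalso
        have := Nat.mul_le_mul_left x (Nat.succ_le_of_lt h)
        rw [Nat.succ_eq_add_one, Nat.mul_add, mul_one] at this
        omega
      · exact h
      · exfalso
        have := Nat.mul_le_mul_left x (Nat.succ_le_of_lt h)
        rw [Nat.succ_eq_add_one, Nat.mul_add, mul_one] at this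
        omega
    rcases Golomb314.two_pow_add_two_pow h3 with ⟨h4, _⟩ | ⟨h4, _⟩
    · exact h4
    · exact absurd h4.symm hk
  · intro τ hτ J hJ
    have hτ' : p0 + N1 + q0 ≤ τ + p0 := hτ
    have hJ' : ∀ k ∈ J, ∃ k', k < K ∧ k' < K ∧ k' ≠ k ∧ BadN q κ m (τ + c k' - c k - p0) := by
      intro k hk
      obtain ⟨h1, k', h2, h3, h4⟩ := hJ k hk
      exact ⟨k', h1, h2, h3, h4⟩
    choose! f hf using hJ'
    have hcard := hX ((τ : ℤ) - p0)
    refine le_trans (Finset.card_le_card_of_injOn (fun k => (f k, k)) ?_ ?_)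
      (hcard.trans ?_)
    · intro k hk
      obtain ⟨h1, h2, h3, h4⟩ := hf k hk
      have hck := hcp k h1
      have hck' := hcp (f k) h2
      simp only [Finset.coe_filter, Finset.mem_product, Finset.mem_range, Set.mem_ofPred_eq]
      refine ⟨⟨h2, h1⟩, h3, ?_⟩
      have h5 := badN_thin q κ m (n := τ + c (f k) - c k - p0)
        (by change Am Ms κ m ≤ τ + c (f k) - c k - p0; omega) h4
      have e : ((τ + c (f k) - c k - p0 : ℕ) : ℤ) = (τ : ℤ) - p0 + x * 2 ^ f k - x * 2 ^ k := by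
        have e1 : ((c (f k) : ℕ) : ℤ) = x * 2 ^ f k := by simp [c]
        have e2 : ((c k : ℕ) : ℤ) = x * 2 ^ k := by simp [c]
        rw [← e1, ← e2]
        omega
      rw [e] at h5
      exact h5
    · intro a _ b _ h
      exact congrArg Prod.snd h
    · have h1 : (Finset.univ.image q).card ≤ k := by
        refine Finset.card_image_le.trans ?_
        simp
      omega
  · intro x0
    refine key_of (A := Am Ms κ m) (N := A1) (M := Ms * G κ m)
      (Nat.mul_pos hMs0 (G_pos m)) hlen1 ?_ _ g (BadN q κ m) (Am Ms κ m) ?_ x0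
    · intro Q Q' h1 h2 h3 h4 h5
      exact hloc Q Q' h1 h2 h3 h4 h5
    · intro n n' h1 h2 h3 h4
      exact badN_mod q κ m h1 h2 h3 h4

end Crest.Agent.R320.Fin_743
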