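import Mathlib

/-!
# Row 320: the SPOIL LEAF (wide ruler for the digit gadget of 852 #13483), helper577

`c l = 2 ^ l * K0`, `K0 ≡ 1 mod M`, `K0 ≡ 4 M (1 + b + .. + b^(m-1)) mod b^m`, `K0` large.
-/

set_option autoImplicit false

namespace Crest.Agent.R320.Sp_577

open Finset

/-- the bad lengths of the digit gadget -/
def Bad (Ms : Finset ℕ) (M m b n : ℕ) : Prop :=
  (∃ k ∈ Ms, k ∣ n) ∨ ∃ j < m, ¬ (M ≤ n / b ^ j % b ∧ n / b ^ j % b + M + 1 ≤ b)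

theorem two_pow_aux {a b c d : ℕ} (hab : a ≤ b) (hcd : c ≤ d)
    (h : 2 ^ a + 2 ^ b = 2 ^ c + 2 ^ d) : ¬ a < c := by
  intro hac
  obtain ⟨x, rfl⟩ := Nat.exists_eq_add_of_le hab
  obtain ⟨y, rfl⟩ := Nat.exists_eq_add_of_lt hac
  obtain ⟨z, rfl⟩ := Nat.exists_eq_add_of_le hcd
  have h2 : 2 ^ a * (1 + 2 ^ x) = 2 ^ a * (2 * 2 ^ y + 2 * (2 ^ y * 2 ^ z)) := by
    calc 2 ^ a * (1 + 2 ^ x) = 2 ^ a + 2 ^ (a + x) := by rw [pow_add]; ring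
      _ = 2 ^ (a + y + 1) + 2 ^ (a + y + 1 + z) := h
      _ = 2 ^ a * (2 * 2 ^ y + 2 * (2 ^ y * 2 ^ z)) := by
        rw [pow_add, pow_add, pow_add, pow_add]; ring
  have h3 : 1 + 2 ^ x = 2 * 2 ^ y + 2 * (2 ^ y * 2 ^ z) :=
    Nat.eq_of_mul_eq_mul_left (by positivity) h2
  have hy : 0 < 2 ^ y := by positivity
  have hz : 0 < 2 ^ y * 2 ^ z := by positivity
  rcases x with _ | x
  · rw [pow_zero] at h3
    omega
  · rw [pow_succ] at h3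
    omega

theorem two_pow_le {a b c d : ℕ} (hab : a ≤ b) (hcd : c ≤ d)
    (h : 2 ^ a + 2 ^ b = 2 ^ c + 2 ^ d) : a = c ∧ b = d := by
  have h1 := two_pow_aux hab hcd h
  have h2 := two_pow_aux hcd hab h.symm
  have h3 : a = c := by omega
  subst h3
  have h4 : 2 ^ b = 2 ^ d := by omega
  exact ⟨rfl, Nat.pow_right_injective (le_refl 2) h4⟩

theorem two_pow_add {a b c d : ℕ} (h : 2 ^ a + 2 ^ b = 2 ^ c + 2 ^ d) :
    (a = c ∧ b = d) ∨ (a = d ∧ b = c) := by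
  rcases le_total a b with hab | hab <;> rcases le_total c d with hcd | hcd
  · exact Or.inl (two_pow_le hab hcd h)
  · obtain ⟨h1, h2⟩ := two_pow_le hab hcd (by omega)
    exact Or.inr ⟨h1, h2⟩
  · obtain ⟨h1, h2⟩ := two_pow_le hab hcd (by omega)
    exact Or.inr ⟨h2, h1⟩
  · obtain ⟨h1, h2⟩ := two_pow_le hab hcd (by omega)
    exact Or.inl ⟨h2, h1⟩

/-- differences of different powers of two determine the pair -/
theorem diff_inj {i j i' j' : ℕ} (hij : i ≠ j)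
    (h : (2 : ℤ) ^ j - 2 ^ i = 2 ^ j' - 2 ^ i') : i = i' ∧ j = j' := by
  have h1 : (2 : ℕ) ^ j + 2 ^ i' = 2 ^ j' + 2 ^ i := by
    have : (2 : ℤ) ^ j + 2 ^ i' = 2 ^ j' + 2 ^ i := by linarith
    exact_mod_cast this
  rcases two_pow_add h1 with ⟨h2, h3⟩ | ⟨h2, h3⟩
  · exact ⟨h3.symm, h2⟩
  · exact absurd h2.symm hij

theorem diff_lt {i j K : ℕ} (hi : i < K) (hj : j < K) : |(2 : ℤ) ^ j - 2 ^ i| < 2 ^ K := by
  have h1 : (2 : ℤ) ^ i < 2 ^ K := pow_lt_pow_right₀ (by norm_num) hi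
  have h2 : (2 : ℤ) ^ j < 2 ^ K := pow_lt_pow_right₀ (by norm_num) hj
  have h3 : (0 : ℤ) < 2 ^ i := by positivity
  have h4 : (0 : ℤ) < 2 ^ j := by positivity
  rw [abs_lt]; constructor <;> linarith

theorem diff_lt2 {i j i' j' K : ℕ} (hi : i < K) (hj : j < K) (hi' : i' < K) (hj' : j' < K) :
    |((2 : ℤ) ^ j - 2 ^ i) - (2 ^ j' - 2 ^ i')| < 2 ^ (K + 1) := by
  have h1 := abs_lt.1 (diff_lt hi hj)
  have h2 := abs_lt.1 (diff_lt hi' hj')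
  rw [abs_lt, pow_succ]; constructor <;> linarith

/-- the repunit `4 M (1 + b + .. + b^l)` -/
def Rp (M b l : ℕ) : ℕ := 4 * M * ∑ i ∈ range (l + 1), b ^ i

theorem geo_le {b : ℕ} (hb : 2 ≤ b) (l : ℕ) : ∑ i ∈ range (l + 1), b ^ i ≤ 2 * b ^ l := by
  induction l with
  | zero => simp
  | succ l ih =>
    rw [sum_range_succ]
    have : 2 * b ^ l ≤ b ^ (l + 1) := by
      rw [pow_succ]; nlinarith [Nat.zero_le (b ^ l)]
    omega

theorem le_geo (b l : ℕ) : b ^ l ≤ ∑ i ∈ range (l + 1), b ^ i := by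
  rw [sum_range_succ]; omega

theorem Rp_mod (M b l m : ℕ) (hl : l < m) :
    (4 * M * ∑ i ∈ range m, b ^ i) ≡ Rp M b l [MOD b ^ (l + 1)] := by
  obtain ⟨x, rfl⟩ := Nat.exists_eq_add_of_le (show l + 1 ≤ m from hl)
  unfold Rp
  rw [sum_range_add]
  have h1 : b ^ (l + 1) ∣ ∑ i ∈ range x, b ^ (l + 1 + i) :=
    Finset.dvd_sum fun i _ => pow_dvd_pow b (Nat.le_add_right (l + 1) i)
  rw [mul_add]
  have h2 : 4 * M * ∑ i ∈ range x, b ^ (l + 1 + i) ≡ 0 [MOD b ^ (l + 1)] :=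
    (Nat.modEq_zero_iff_dvd.2 (h1.mul_left _))
  simpa using (Nat.ModEq.refl (4 * M * ∑ i ∈ range (l + 1), b ^ i)).add h2

/-- existence of the scale `K0` -/
theorem exists_K0 (M m b N : ℕ) (hM : 0 < M) (hb : 0 < b) (hcop : Nat.Coprime b M) :
    ∃ K0 : ℕ, N < K0 ∧ K0 ≡ 1 [MOD M] ∧ ∀ l < m, K0 ≡ Rp M b l [MOD b ^ (l + 1)] := by
  have hc : Nat.Coprime M (b ^ m) := (Nat.Coprime.pow_left m hcop).symm
  obtain ⟨k, h1, h2⟩ := Nat.chineseRemainder hc 1 (4 * M * ∑ i ∈ range m, b ^ i)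
  have hpos : 0 < M * b ^ m := Nat.mul_pos hM (pow_pos hb _)
  refine ⟨k + M * b ^ m * (N + 1), ?_, ?_, ?_⟩
  · nlinarith
  · have : k + M * b ^ m * (N + 1) ≡ k + 0 [MOD M] := by
      refine (Nat.ModEq.refl k).add (Nat.modEq_zero_iff_dvd.2 ?_)
      exact ((dvd_mul_right M (b ^ m)).mul_right _)
    exact this.trans (by simpa using h1)
  · intro l hl
    have hd : b ^ (l + 1) ∣ b ^ m := pow_dvd_pow b hl
    have : k + M * b ^ m * (N + 1) ≡ k + 0 [MOD b ^ (l + 1)] := by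
      refine (Nat.ModEq.refl k).add (Nat.modEq_zero_iff_dvd.2 ?_)
      exact ((hd.mul_left M).mul_right _)
    exact this.trans ((by simpa using h2.of_dvd hd : k + 0 ≡ _ [MOD b ^ (l + 1)]).trans
      (Rp_mod M b l m hl))

/-- a bad digit puts the number near a multiple of `b ^ (l + 1)` -/
theorem near {M b l n : ℕ} (hb : 0 < b)
    (h : ¬ (M ≤ n / b ^ l % b ∧ n / b ^ l % b + M + 1 ≤ b)) :
    ∃ e s : ℤ, (n : ℤ) = e * (b : ℤ) ^ (l + 1) + s ∧ |s| ≤ M * (b : ℤ) ^ l := by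
  have hbl : 0 < b ^ l := pow_pos hb _
  obtain ⟨d, hd⟩ : ∃ d, d = n / b ^ l % b := ⟨_, rfl⟩
  have hd1 : d < b := hd ▸ Nat.mod_lt _ hb
  obtain ⟨t, ρ, h1, h3⟩ : ∃ t ρ, n = b ^ l * (b * t + d) + ρ ∧ ρ < b ^ l :=
    ⟨n / b ^ l / b, n % b ^ l, by
      rw [hd, Nat.div_add_mod (n / b ^ l) b, Nat.div_add_mod n (b ^ l)], Nat.mod_lt _ hbl⟩
  rw [← hd] at h
  have hn : (n : ℤ) = (b : ℤ) ^ l * ((b : ℤ) * (t : ℤ) + (d : ℤ)) + (ρ : ℤ) := by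
    exact_mod_cast h1
  have hr0 : (0 : ℤ) ≤ (ρ : ℤ) := by positivity
  have hr1 : (ρ : ℤ) < (b : ℤ) ^ l := by exact_mod_cast h3
  have hbz : (0 : ℤ) < (b : ℤ) ^ l := by exact_mod_cast hbl
  by_cases hlo : d < M
  · refine ⟨(t : ℤ), (b : ℤ) ^ l * d + (ρ : ℤ), ?_, ?_⟩
    · rw [hn, pow_succ]; ring
    · have hdz : (d : ℤ) + 1 ≤ M := by exact_mod_cast hlo
      have hd0 : (0 : ℤ) ≤ d := by positivity
      rw [abs_le]
      constructor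
      · nlinarith
      · nlinarith
  · have hhi : b ≤ d + M := by
      by_contra hc
      exact h ⟨by omega, by omega⟩
    refine ⟨(t : ℤ) + 1, (b : ℤ) ^ l * ((d : ℤ) - b) + (ρ : ℤ), ?_, ?_⟩
    · rw [hn, pow_succ]; ring
    · have hz : (b : ℤ) ≤ d + M := by exact_mod_cast hhi
      have hz2 : (d : ℤ) + 1 ≤ b := by exact_mod_cast hd1
      rw [abs_le]
      constructor
      · nlinarith
      · nlinarith

/-- at most one pair per digit -/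
theorem digit_unique {M b l K K0 : ℕ} (hM : 0 < M) (hb : 2 ^ (K + 5) * M < b)
    (hK0 : K0 ≡ Rp M b l [MOD b ^ (l + 1)]) {T : ℤ} {i j i' j' n n' : ℕ}
    (hi : i < K) (hj : j < K) (hi' : i' < K) (hj' : j' < K) (hij : i ≠ j)
    (hn : (n : ℤ) = T + (2 ^ j * K0 : ℕ) - (2 ^ i * K0 : ℕ))
    (hn' : (n' : ℤ) = T + (2 ^ j' * K0 : ℕ) - (2 ^ i' * K0 : ℕ))
    (h : ¬ (M ≤ n / b ^ l % b ∧ n / b ^ l % b + M + 1 ≤ b))
    (h' : ¬ (M ≤ n' / b ^ l % b ∧ n' / b ^ l % b + M + 1 ≤ b)) : i = i' ∧ j = j' := by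
  have hKM : 32 ≤ 2 ^ (K + 5) * M := by
    have h1 : 1 ≤ 2 ^ K := Nat.one_le_two_pow
    have : 2 ^ (K + 5) = 2 ^ K * 32 := by rw [pow_add]; norm_num
    rw [this]; nlinarith
  have hb0 : 0 < b := by omega
  have hb2 : 2 ≤ b := by omega
  obtain ⟨e, s, h1, h2⟩ := near hb0 h
  obtain ⟨e', s', h1', h2'⟩ := near hb0 h'
  set δ : ℤ := ((2 : ℤ) ^ j - 2 ^ i) - (2 ^ j' - 2 ^ i') with hδ
  have hδK : (n : ℤ) - n' = δ * K0 := by
    rw [hn, hn', hδ]; push_cast; ring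
  have hmod : ((b : ℤ) ^ (l + 1)) ∣ (K0 : ℤ) - (Rp M b l : ℕ) := by
    have := (Nat.modEq_iff_dvd.1 hK0.symm)
    exact_mod_cast this
  have hdvd : ((b : ℤ) ^ (l + 1)) ∣ δ * (Rp M b l : ℕ) - (s - s') := by
    obtain ⟨x, hx⟩ := hmod
    refine ⟨e - e' - δ * x, ?_⟩
    have h3 : δ * (K0 : ℤ) = (e - e') * (b : ℤ) ^ (l + 1) + (s - s') := by
      rw [← hδK, h1, h1']; ring
    have h4 : (Rp M b l : ℤ) = K0 - (b : ℤ) ^ (l + 1) * x := by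
      rw [← hx]; ring
    rw [show ((Rp M b l : ℕ) : ℤ) = K0 - (b : ℤ) ^ (l + 1) * x from h4]
    linear_combination h3
  have hRlo : 4 * M * b ^ l ≤ Rp M b l := by
    unfold Rp; exact Nat.mul_le_mul_left _ (le_geo b l)
  have hRhi : Rp M b l ≤ 8 * M * b ^ l := by
    unfold Rp
    calc 4 * M * ∑ i ∈ range (l + 1), b ^ i ≤ 4 * M * (2 * b ^ l) :=
          Nat.mul_le_mul_left _ (geo_le hb2 l)
      _ = 8 * M * b ^ l := by ring
  have hRloz : 4 * (M : ℤ) * (b : ℤ) ^ l ≤ (Rp M b l : ℕ) := by exact_mod_cast hRlo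
  have hRhiz : ((Rp M b l : ℕ) : ℤ) ≤ 8 * (M : ℤ) * (b : ℤ) ^ l := by exact_mod_cast hRhi
  have hδlt : |δ| < 2 ^ (K + 1) := diff_lt2 hi hj hi' hj'
  have hδ2 := abs_lt.1 hδlt
  have hs := abs_le.1 h2
  have hs' := abs_le.1 h2'
  have hbl : (0 : ℤ) < (b : ℤ) ^ l := by positivity
  have hMz : (0 : ℤ) < M := by exact_mod_cast hM
  have hMb : (0 : ℤ) < (M : ℤ) * (b : ℤ) ^ l := by positivity
  have hbz : (2 : ℤ) ^ (K + 5) * M < b := by exact_mod_cast hb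
  have hbound : |δ * (Rp M b l : ℕ) - (s - s')| < (b : ℤ) ^ (l + 1) := by
    have hA : |δ * (Rp M b l : ℕ)| ≤ 2 ^ (K + 1) * (8 * (M : ℤ) * (b : ℤ) ^ l) := by
      rw [abs_mul]
      have : |((Rp M b l : ℕ) : ℤ)| = ((Rp M b l : ℕ) : ℤ) := abs_of_nonneg (by positivity)
      rw [this]
      exact mul_le_mul hδlt.le hRhiz (by positivity) (by positivity)
    have hB : |s - s'| ≤ 2 * (M * (b : ℤ) ^ l) := by
      rw [abs_le]; constructor <;> linarith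
    have hC : |δ * (Rp M b l : ℕ) - (s - s')| ≤ |δ * (Rp M b l : ℕ)| + |s - s'| := abs_sub _ _
    have hD : (2 : ℤ) ^ (K + 1) * (8 * (M : ℤ) * (b : ℤ) ^ l) + 2 * (M * (b : ℤ) ^ l)
        < (b : ℤ) ^ (l + 1) := by
      have hE : (b : ℤ) ^ (l + 1) = b * (b : ℤ) ^ l := by rw [pow_succ]; ring
      have hF : (2 : ℤ) ^ (K + 5) * M * (b : ℤ) ^ l < b * (b : ℤ) ^ l :=
        mul_lt_mul_of_pos_right hbz hbl
      have hG : (2 : ℤ) ^ (K + 5) = 2 ^ (K + 1) * 16 := by rw [pow_add, pow_add]; norm_num; ring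
      have hH : (2 : ℤ) ≤ 2 ^ (K + 1) := by
        rw [pow_succ]
        have : (1 : ℤ) ≤ 2 ^ K := one_le_pow₀ (by norm_num)
        linarith
      have hXY : 2 * ((M : ℤ) * (b : ℤ) ^ l) ≤ 2 ^ (K + 1) * ((M : ℤ) * (b : ℤ) ^ l) :=
        mul_le_mul_of_nonneg_right hH hMb.le
      have e1 : (2 : ℤ) ^ (K + 1) * (8 * (M : ℤ) * (b : ℤ) ^ l)
          = 8 * (2 ^ (K + 1) * ((M : ℤ) * (b : ℤ) ^ l)) := by ring
      have e2 : (2 : ℤ) ^ (K + 1) * 16 * M * (b : ℤ) ^ l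
          = 16 * (2 ^ (K + 1) * ((M : ℤ) * (b : ℤ) ^ l)) := by ring
      rw [hE, e1]
      rw [hG, e2] at hF
      linarith
    linarith
  have hz := Int.eq_zero_of_abs_lt_dvd hdvd hbound
  have hδ0 : δ = 0 := by
    by_contra hne
    have hab : 1 ≤ |δ| := Int.one_le_abs hne
    have h5 : δ * (Rp M b l : ℕ) = s - s' := by linarith
    have h6 : |δ * (Rp M b l : ℕ)| = |s - s'| := by rw [h5]
    rw [abs_mul, abs_of_nonneg (show (0 : ℤ) ≤ ((Rp M b l : ℕ) : ℤ) by positivity)] at h6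
    have h7 : |s - s'| ≤ 2 * (M * (b : ℤ) ^ l) := by
      rw [abs_le]; constructor <;> linarith
    have h8 : ((Rp M b l : ℕ) : ℤ) ≤ |δ| * ((Rp M b l : ℕ) : ℤ) := by
      have h9 : (0 : ℤ) ≤ ((Rp M b l : ℕ) : ℤ) := by positivity
      have h10 := mul_le_mul_of_nonneg_right hab h9
      linarith
    have e3 : 4 * (M : ℤ) * (b : ℤ) ^ l = 4 * ((M : ℤ) * (b : ℤ) ^ l) := by ring
    rw [e3] at hRloz
    linarith
  exact diff_inj hij (by rw [hδ] at hδ0; linarith)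

/-- at most one pair per modulus -/
theorem mod_unique {k K K0 : ℕ} (hk : 2 ^ (K + 2) < k) (hK0 : K0 ≡ 1 [MOD k]) {T : ℤ}
    {i j i' j' n n' : ℕ} (hi : i < K) (hj : j < K) (hi' : i' < K) (hj' : j' < K) (hij : i ≠ j)
    (hn : (n : ℤ) = T + (2 ^ j * K0 : ℕ) - (2 ^ i * K0 : ℕ))
    (hn' : (n' : ℤ) = T + (2 ^ j' * K0 : ℕ) - (2 ^ i' * K0 : ℕ))
    (h : k ∣ n) (h' : k ∣ n') : i = i' ∧ j = j' := by
  set δ : ℤ := ((2 : ℤ) ^ j - 2 ^ i) - (2 ^ j' - 2 ^ i') with hδ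
  have hδK : (n : ℤ) - n' = δ * K0 := by
    rw [hn, hn', hδ]; push_cast; ring
  have h1 : (k : ℤ) ∣ n := by exact_mod_cast h
  have h2 : (k : ℤ) ∣ n' := by exact_mod_cast h'
  have h3 : (k : ℤ) ∣ δ * K0 := hδK ▸ dvd_sub h1 h2
  have h4 : (k : ℤ) ∣ (K0 : ℤ) - 1 := by
    have := (Nat.modEq_iff_dvd.1 hK0.symm)
    exact_mod_cast this
  have h5 : (k : ℤ) ∣ δ := by
    have : δ = δ * K0 - δ * (K0 - 1) := by ring
    rw [this]
    exact dvd_sub h3 (h4.mul_left _)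
  have h6 : |δ| < 2 ^ (K + 1) := diff_lt2 hi hj hi' hj'
  have h7 : (2 : ℤ) ^ (K + 2) < k := by exact_mod_cast hk
  have h8 : (2 : ℤ) ^ (K + 1) ≤ 2 ^ (K + 2) := pow_le_pow_right₀ (by norm_num) (by omega)
  have hδ0 := Int.eq_zero_of_abs_lt_dvd h5 (by linarith)
  exact diff_inj hij (by rw [hδ] at hδ0; linarith)

/-- **SPOIL**, general form: `T` may be any integer. -/
theorem spoil_int (Ms : Finset ℕ) (M m b r K N1 : ℕ) (hr : Ms.card ≤ r)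
    (hk : ∀ k ∈ Ms, 2 ^ (K + 2) < k ∧ k ∣ M) (hM : 0 < M) (hb : 2 ^ (K + 5) * M < b)
    (hcop : Nat.Coprime b M) : ∃ c : ℕ → ℕ, N1 < c 0 ∧
      (∀ i j, i < j → c i + 4 * N1 < c j) ∧
      (∀ i j i' j', i ≠ j → (i ≠ i' ∨ j ≠ j') →
        4 * (N1 : ℤ) < |((c j : ℤ) - c i) - ((c j' : ℤ) - c i')|) ∧
      ∀ (T : ℤ) (P : Finset (ℕ × ℕ)),
        (∀ p ∈ P, p.1 < K ∧ p.2 < K ∧ p.1 ≠ p.2 ∧
          ∃ n : ℕ, (n : ℤ) = T + c p.2 - c p.1 ∧ Bad Ms M m b n) → P.card ≤ r + m := by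
  classical
  have hb0 : 0 < b := by omega
  obtain ⟨K0, h1, h2, h3⟩ := exists_K0 M m b (4 * N1) hM hb0 hcop
  have hK0 : 0 < K0 := by omega
  refine ⟨fun l => 2 ^ l * K0, ?_, ?_, ?_, ?_⟩
  · simp only [pow_zero, one_mul]; omega
  · intro i j hij
    have h4 : 2 ^ (i + 1) ≤ 2 ^ j := Nat.pow_le_pow_right (by norm_num) hij
    have h5 : 2 ^ (i + 1) * K0 ≤ 2 ^ j * K0 := Nat.mul_le_mul_right _ h4
    have h6 : 1 ≤ 2 ^ i := Nat.one_le_two_pow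
    have h7 : 2 ^ (i + 1) * K0 = 2 ^ i * K0 + 2 ^ i * K0 := by rw [pow_succ]; ring
    have h8 : K0 ≤ 2 ^ i * K0 := Nat.le_mul_of_pos_left _ (by omega)
    show 2 ^ i * K0 + 4 * N1 < 2 ^ j * K0
    omega
  · intro i j i' j' hij hne
    have hδ : ((2 : ℤ) ^ j - 2 ^ i) - (2 ^ j' - 2 ^ i') ≠ 0 := by
      intro h0
      have := diff_inj hij (by linarith : (2 : ℤ) ^ j - 2 ^ i = 2 ^ j' - 2 ^ i')
      tauto
    have h4 : (((2 ^ j * K0 : ℕ) : ℤ) - (2 ^ i * K0 : ℕ)) - (((2 ^ j' * K0 : ℕ) : ℤ) - (2 ^ i' * K0 : ℕ))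
        = (((2 : ℤ) ^ j - 2 ^ i) - (2 ^ j' - 2 ^ i')) * K0 := by push_cast; ring
    rw [h4, abs_mul, abs_of_nonneg (show (0 : ℤ) ≤ (K0 : ℤ) by positivity)]
    have h5 : 1 ≤ |((2 : ℤ) ^ j - 2 ^ i) - (2 ^ j' - 2 ^ i')| := Int.one_le_abs hδ
    have h6 : (4 * (N1 : ℤ)) < K0 := by exact_mod_cast h1
    nlinarith
  · intro T P hP
    let A : ℕ → Finset (ℕ × ℕ) := fun k => P.filter fun p =>
      ∃ n : ℕ, (n : ℤ) = T + (2 ^ p.2 * K0 : ℕ) - (2 ^ p.1 * K0 : ℕ) ∧ k ∣ n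
    let B : ℕ → Finset (ℕ × ℕ) := fun l => P.filter fun p =>
      ∃ n : ℕ, (n : ℤ) = T + (2 ^ p.2 * K0 : ℕ) - (2 ^ p.1 * K0 : ℕ) ∧
        ¬ (M ≤ n / b ^ l % b ∧ n / b ^ l % b + M + 1 ≤ b)
    have hsub : P ⊆ Ms.biUnion A ∪ (range m).biUnion B := by
      intro p hp
      obtain ⟨-, -, -, n, hn, hbad⟩ := hP p hp
      rw [mem_union, mem_biUnion, mem_biUnion]
      rcases hbad with ⟨k, hk, hkn⟩ | ⟨l, hl, hln⟩
      · exact Or.inl ⟨k, hk, mem_filter.2 ⟨hp, n, hn, hkn⟩⟩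
      · exact Or.inr ⟨l, mem_range.2 hl, mem_filter.2 ⟨hp, n, hn, hln⟩⟩
    have hA : ∀ k ∈ Ms, (A k).card ≤ 1 := by
      intro k hkM
      rw [card_le_one]
      intro p hp q hq
      obtain ⟨hp1, n, hn, hkn⟩ := mem_filter.1 hp
      obtain ⟨hq1, n', hn', hkn'⟩ := mem_filter.1 hq
      obtain ⟨a1, a2, a3, -⟩ := hP p hp1
      obtain ⟨b1, b2, -, -⟩ := hP q hq1
      have := mod_unique (hk k hkM).1 (h2.of_dvd (hk k hkM).2) a1 a2 b1 b2 a3 hn hn' hkn hkn'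
      exact Prod.ext this.1 this.2
    have hB : ∀ l ∈ range m, (B l).card ≤ 1 := by
      intro l hl
      rw [card_le_one]
      intro p hp q hq
      obtain ⟨hp1, n, hn, hkn⟩ := mem_filter.1 hp
      obtain ⟨hq1, n', hn', hkn'⟩ := mem_filter.1 hq
      obtain ⟨a1, a2, a3, -⟩ := hP p hp1
      obtain ⟨b1, b2, -, -⟩ := hP q hq1
      have := digit_unique hM hb (h3 l (mem_range.1 hl)) a1 a2 b1 b2 a3 hn hn' hkn hkn'
      exact Prod.ext this.1 this.2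
    calc P.card ≤ (Ms.biUnion A ∪ (range m).biUnion B).card := card_le_card hsub
      _ ≤ (Ms.biUnion A).card + ((range m).biUnion B).card := card_union_le _ _
      _ ≤ Ms.card * 1 + (range m).card * 1 :=
          Nat.add_le_add (card_biUnion_le_card_mul _ _ _ hA) (card_biUnion_le_card_mul _ _ _ hB)
      _ ≤ r + m := by rw [card_range]; omega

open Classical in
/-- **SPOIL**, literal form of the lead (#13673): natural `T`. -/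
theorem spoil (Ms : Finset ℕ) (M m b r K N1 : ℕ) (hr : Ms.card ≤ r)
    (hk : ∀ k ∈ Ms, 2 ^ (K + 2) < k ∧ k ∣ M) (hM : 0 < M) (hb : 2 ^ (K + 5) * M < b)
    (hcop : Nat.Coprime b M) : ∃ c : ℕ → ℕ, N1 < c 0 ∧
      (∀ i j, i < j → c i + 4 * N1 < c j) ∧
      (∀ i j i' j', i ≠ j → (i ≠ i' ∨ j ≠ j') →
        4 * (N1 : ℤ) < |((c j : ℤ) - c i) - ((c j' : ℤ) - c i')|) ∧
      (∀ T : ℕ, (∀ i < K, c i ≤ T) →
        (((range K) ×ˢ (range K)).filter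
          (fun p => p.1 ≠ p.2 ∧ Bad Ms M m b (T + c p.2 - c p.1))).card ≤ r + m) ∧
      (∀ T : ℤ, (((range K) ×ˢ (range K)).filter
          (fun p => p.1 ≠ p.2 ∧ ∃ n : ℕ, (n : ℤ) = T + c p.2 - c p.1 ∧
            Bad Ms M m b n)).card ≤ r + m) := by
  obtain ⟨c, h0, h1, h2, h3⟩ := spoil_int Ms M m b r K N1 hr hk hM hb hcop
  refine ⟨c, h0, h1, h2, ?_, ?_⟩
  · intro T hT
    refine h3 T _ fun p hp => ?_
    rw [mem_filter, mem_product, mem_range, mem_range] at hp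
    obtain ⟨⟨a1, a2⟩, a3, a4⟩ := hp
    refine ⟨a1, a2, a3, _, ?_, a4⟩
    have := hT p.1 a1
    omega
  · intro T
    refine h3 T _ fun p hp => ?_
    rw [mem_filter, mem_product, mem_range, mem_range] at hp
    obtain ⟨⟨a1, a2⟩, a3, a4⟩ := hp
    exact ⟨a1, a2, a3, a4⟩

end Crest.Agent.R320.Sp_577
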