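import Crest.Agent.R320.Fin_774
import Crest.Agent.R320.HZ_847
import Crest.Agent.R320.G1_604
import Crest.Agent.R320.Sp_577
import Crest.Agent.R320.Loc_354
import Crest.Agent.R320.ExactR_237
import Crest.Agent.R320.Block_467

/-!
# Row 320: constants and join (helper744)

`Top5_110.top_sem` (top), `Fin_774` (C1, C2), `HZ_847` (H1 - H4), `G1_604.g1` (gadget 1),
`ExactR_237.exact_gadget` (gadget 2), `Sp_577.spoil` (ruler), `WallU_228.walls_full` (walls).
-/

set_option autoImplicit false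

namespace Crest.Agent.R320.Fin_744

open Crest.RegLang Crest.Agent.R320.Hk_851 Crest.Agent.R320.Code110

theorem bad_period (Ms : Finset ℕ) (M m b t : ℕ) (hb : 0 < b) (hMs : ∀ k ∈ Ms, k ∣ M) :
    Sp_577.Bad Ms M m b (t + M * b ^ m) ↔ Sp_577.Bad Ms M m b t := by
  unfold Sp_577.Bad
  have h1 : ∀ k ∈ Ms, (k ∣ t + M * b ^ m ↔ k ∣ t) := fun k hk =>
    (Nat.dvd_add_left ((hMs k hk).mul_right _))
  have h2 : ∀ j < m, (t + M * b ^ m) / b ^ j % b = t / b ^ j % b := by
    intro j hj
    have e : M * b ^ m = b ^ j * (b * (M * b ^ (m - j - 1))) := by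
      have : b ^ m = b ^ j * (b * b ^ (m - j - 1)) := by
        rw [← pow_succ', ← pow_add]; congr 1; omega
      rw [this]; ring
    rw [e, Nat.add_mul_div_left _ _ (Nat.pow_pos hb), Nat.add_mul_mod_self_left]
  constructor
  · rintro (⟨k, hk, h⟩ | ⟨j, hj, h⟩)
    · exact Or.inl ⟨k, hk, (h1 k hk).1 h⟩
    · rw [h2 j hj] at h; exact Or.inr ⟨j, hj, h⟩
  · rintro (⟨k, hk, h⟩ | ⟨j, hj, h⟩)
    · exact Or.inl ⟨k, hk, (h1 k hk).2 h⟩
    · exact Or.inr ⟨j, hj, by rw [h2 j hj]; exact h⟩

/-- every value language of a finite monoid has height `≤ 3` -/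
theorem fin (α : Type) [Finite α] (S : Type) [Monoid S] [Finite S] (f : α → S) (s : S) :
    HL 3 ({w | (w.map f).prod = s} : Language α) := by
  classical
  have := Fintype.ofFinite S
  obtain ⟨act, hadd, hone, hmul, hfaith⟩ := Blk467.exists_module S
  obtain ⟨m, r, hg⟩ := G1_604.g1 S (S → ZMod 2) act
  obtain ⟨K, hK⟩ := ExactR_237.exact_gadget α S (S → ZMod 2) f act (2 + 2 * (r + m))
  obtain ⟨Ms, M, hcard, hMs, hM, hg⟩ := hg (2 ^ (K + 2))
  obtain ⟨b, hbdef⟩ : ∃ b : ℕ, b = M * (2 ^ (K + 5) + 4) + 1 := ⟨_, rfl⟩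
  have hpw : 32 ≤ 2 ^ (K + 5) := by
    calc 32 = 2 ^ 5 := by norm_num
      _ ≤ 2 ^ (K + 5) := Nat.pow_le_pow_right (by norm_num) (by omega)
  have hb1 : 2 ^ (K + 5) * M < b := by
    rw [hbdef]; nlinarith
  have hb2 : 4 * M + 4 < b := by
    rw [hbdef]; nlinarith
  have hb0 : 0 < b := by omega
  have hcop : Nat.Coprime b M := by
    rw [hbdef]
    rw [Nat.coprime_iff_gcd_eq_one]
    rw [Nat.gcd_comm]
    have : M * (2 ^ (K + 5) + 4) + 1 = 1 + M * (2 ^ (K + 5) + 4) := by omega
    rw [this, Nat.gcd_add_mul_left_right]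
    exact Nat.gcd_one_right M
  obtain ⟨lam, rho, nu, g1, g2, g3, g4⟩ := hg b hb2 hcop α f
  obtain ⟨c, hc0, hc1, hc2, hc3, -⟩ := Sp_577.spoil Ms M m b r K (b ^ m) hcard
    (fun k hk => ⟨(hMs k hk).1, (hMs k hk).2.2⟩) hM hb1 hcop
  obtain ⟨lam2, rho2, nu2, e2, e3⟩ := hK c (fun i j hij _ => by have := hc1 i j hij; omega)
  obtain ⟨N, hN⟩ : ∃ N : ℕ, N = b ^ m := ⟨_, rfl⟩
  obtain ⟨p0, hp0⟩ : ∃ p0 : ℕ, p0 = c K := ⟨_, rfl⟩
  obtain ⟨n, cc, P, Sw, hn, hP, hloc, hsep, -, -, hfew⟩ :=
    WallU_228.walls_full (α := α) (2 * (p0 + N) + 2)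
  obtain ⟨z, hz⟩ : ∃ z : ℕ, z = 4 * p0 + 2 * N + n := ⟨_, rfl⟩
  have hcle : ∀ k < K, c k ≤ p0 := fun k hk => by
    have := hc1 k K hk; omega
  let d : Fin_774.Dat α S (S → ZMod 2) :=
    { f := f, act := act, Wo := WallU_228.Wo n Sw, n := n, W := 2 * (p0 + N) + 2, z := z,
      p0 := p0, N := N, La := 0, C0 := r + m, BadT := Sp_577.Bad Ms M m b, lam := lam,
      rho := rho, nu1 := nu, K := K, c := c, lam2 := lam2, rho2 := fun k q => rho2 k q 1,
      nu2 := fun u => nu2 u 1 }
  have hd : d.Ok := by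
    refine
      { loc := hloc, sep := hsep, zbig := ?_, npos := hn, Wbig := ?_, g1 := ?_, g2 := ?_,
        g3 := ?_, cle := hcle, cinj := ?_, e2 := ?_, e3 := ?_, res := ?_, thin := ?_ }
    · show 4 * p0 + 2 * N + n + 0 ≤ z
      omega
    · exact le_refl _
    · intro p v h
      show p.length ≤ N
      have := g1 p v h
      omega
    · intro p q v r h1 h2 _
      exact g2 p q v r h1 h2
    · intro u _ hu v
      refine g3 u ?_ ?_ v
      · intro k hk hd
        exact hu (Or.inl ⟨k, hk, hd⟩)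
      · intro j hj
        by_contra hh
        exact hu (Or.inr ⟨j, hj, hh⟩)
    · intro k hk l hl h
      rcases lt_trichotomy k l with h1 | h1 | h1
      · have h2 := hc1 k l h1
        change c k = c l at h
        omega
      · exact h1
      · have h2 := hc1 l k h1
        change c k = c l at h
        omega
    · intro k hk P Q v b' h1 _ h3 h4
      have h5 := e2 k hk P Q 1 v b' h1 h3 h4
      rw [mul_one] at h5
      exact h5
    · intro u v hu
      change u.length = p0 at hu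
      exact e3 u 1 v (fun k hk => by have := hcle k hk; omega)
    · intro i _ j _ k _ l _ h1 h2 h3
      have h4 := hc2 i j k l h1 (by
        by_contra hh
        push Not at hh
        exact h3 hh)
      show c i + c l + 2 * N < c k + c j ∨ c k + c j + 2 * N < c i + c l
      have h5 := lt_abs.1 h4
      have h6 : ((b ^ m : ℕ) : ℤ) = (N : ℤ) := by rw [hN]
      rw [h6] at h5
      omega
    · intro T _ hT
      change p0 ≤ T at hT
      have h1 := hc3 T (fun i hi => (hcle i hi).trans hT)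
      convert h1
  have hph : ∀ u w : List α, d.ph (u ++ w) = d.ph u * d.ph w := d.ph_append
  have hph0 : d.ph [] = 1 := by simp [Fin_774.Dat.ph]
  have hacts : ∀ (v w : S → ZMod 2) (s : S), act v s - act w s = act (v - w) s := by
    intro v w s
    have := hadd (v - w) w s
    rw [sub_add_cancel] at this
    rw [this, add_sub_cancel_right]
  have hPm : 0 < M * b ^ m := Nat.mul_pos hM (Nat.pow_pos hb0)
  have hnu : ∀ c, Language.IsRegular ({w | nu w = c} : Language α) := by
    intro c'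
    refine Loc_354.regular_of_local f (b ^ m) (M * b ^ m) hPm _ ?_
    intro q q2 h1 h2 h3 h4 h5
    have h6 := (g4 q q2 h1 h2 h3 h4 h5).2
    show nu q = c' ↔ nu q2 = c'
    rw [h6]
  have hXX : d.XX = HZ847.XX n Sw z := rfl
  have hT : d.T = HZ847.T d.ph act nu (fun u => nu2 u 1) p0 := rfl
  have hBad : ∀ w, w ∈ HZ847.Bad n Sw z p0 N (Sp_577.Bad Ms M m b) ↔ w ∈ d.Bad := by
    intro w
    constructor
    · rintro ⟨h1, h2 | h2⟩
      · refine ⟨h1, Or.inl ?_⟩
        obtain ⟨t, h3, h4, h5, h6⟩ := h2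
        by_cases h7 : t < z
        · exact Or.inl ⟨t, h3, h7, h6⟩
        · right
          show w.length < z + N
          by_cases h8 : t < w.length
          · exact absurd h6 (h1.2.2 t (by omega) h8)
          · omega
      · exact ⟨h1, Or.inr h2⟩
    · rintro ⟨h1, (⟨t, h3, h4, h5⟩ | h2) | h2⟩
      · have h6 : z ≤ w.length := h1.1
        change z ≤ t + N at h3
        change t < z at h4
        exact ⟨h1, Or.inl ⟨t, h3, by omega, by omega, h5⟩⟩
      · have h6 : z ≤ w.length := h1.1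
        change w.length < z + N at h2
        refine ⟨h1, Or.inl ⟨w.length, by omega, h2, le_refl _, ?_⟩⟩
        rw [List.take_length]
        exact h1.2.1
      · exact ⟨h1, Or.inr h2⟩
  have hfin : ∀ k : ℕ, {p : List α | p.length ≤ k}.Finite := fun k => List.finite_length_le α k
  have key := Top5_110.top_sem (φ := d.ph) (act := act) (XX := d.XX) (Bad := d.Bad) (T := d.T)
    hph0 hph hone hmul hfaith (Fin_774.pc hd) (fun u hu => hu.1)
    (fun u _ v v' => HZ847.hT hph hone hmul hacts u v v')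
    ((HZ847.hl_XX z).mono (by norm_num))
    ((HZ847.H2 hfew hPm (La := 0)
      (fun t _ => bad_period Ms M m b t hb0 (fun k hk => (hMs k hk).2.2))).congr
        (fun w => (hBad w).symm))
    (fun x y => HZ847.H3 hfew hph0 hph (show p0 ≤ z by omega) hnu x y)
    (fun s => (HZ847.H4 hfew hph0 hph s).mono (by norm_num))
    (N1 := 0) (N2 := 1) (L1 := d.L1) (L2 := d.L2)
    (fun v => (hfin (p0 + N)).subset fun p hp => hp.2.1)
    (fun v => (hfin p0).subset fun p hp => by
      obtain ⟨k, hk, h1, -⟩ := hp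
      have := hcle k hk
      show p.length ≤ p0
      change p.length = c k at h1
      omega)
    (fun u hu hub x t ht => Fin_774.c1 hd u hu hub x t ht)
    (fun u hu x t ht => Fin_774.c2 hd u hu x t ht) s
  exact key

end Crest.Agent.R320.Fin_744
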