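import Crest.Agent.R320.End_747
import Crest.Agent.R320.G1_852
import Crest.Agent.R320.Sp_21

/-!
# Row 320: the row (helper747)

`gad` : `End_747.Gad` from 852's digit gadget and 21's ruler; `fin` : height 3 for every finite
monoid; `row` : the statement S0495.
-/

set_option autoImplicit false

namespace Crest.Agent.R320.Fin_747

open Crest.Agent.R320.Hk_851

theorem bad_periodic {m M b : ℕ} {Ms : Finset ℕ} (hb : 0 < b) (hMs : ∀ k ∈ Ms, k ∣ M) (T : ℕ) :
    Sp_21.Bad m M b Ms (T + M * b ^ m) ↔ Sp_21.Bad m M b Ms T := by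
  have h1 : ∀ k ∈ Ms, (k ∣ T + M * b ^ m ↔ k ∣ T) := by
    intro k hk
    exact (Nat.dvd_add_left (Dvd.dvd.mul_right (hMs k hk) _))
  have h2 : ∀ j < m, (T + M * b ^ m) / b ^ j % b = T / b ^ j % b := by
    intro j hj
    obtain ⟨i, rfl⟩ : ∃ i, m = j + 1 + i := ⟨m - (j + 1), by omega⟩
    have e : M * b ^ (j + 1 + i) = b ^ j * (b * (M * b ^ i)) := by
      rw [pow_add, pow_add, pow_one]; ring
    rw [e, Nat.add_mul_div_left _ _ (pow_pos hb j), Nat.add_mul_mod_self_left]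
  unfold Sp_21.Bad
  constructor
  · rintro (⟨k, hk, hd⟩ | ⟨j, hj, hd⟩)
    · exact Or.inl ⟨k, hk, (h1 k hk).1 hd⟩
    · exact Or.inr ⟨j, hj, by rw [h2 j hj] at hd; exact hd⟩
  · rintro (⟨k, hk, hd⟩ | ⟨j, hj, hd⟩)
    · exact Or.inl ⟨k, hk, (h1 k hk).2 hd⟩
    · exact Or.inr ⟨j, hj, by rw [h2 j hj]; exact hd⟩

theorem gad (S V : Type) [Monoid S] [Finite S] [AddCommGroup V] [Finite V]
    (act : V → S → V) : End_747.Gad S V act := by
  classical
  obtain ⟨m, r, hG⟩ := G1_852.gadget act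
  refine ⟨m + r, fun K => ?_⟩
  obtain ⟨Ms, M, hcard, hMs, hM, hb⟩ := hG (2 ^ (K + 1))
  let b : ℕ := M * (2 ^ (K + 4) + 3) + 1
  have hb0 : 0 < b := Nat.succ_pos _
  have hcop : Nat.Coprime b M := by
    have : Nat.Coprime (M * (2 ^ (K + 4) + 3) + 1) M := by
      have h1 : Nat.gcd (M * (2 ^ (K + 4) + 3) + 1) M ∣ 1 :=
        (Nat.dvd_add_right (Dvd.dvd.mul_right (Nat.gcd_dvd_right _ _) _)).1
          (Nat.gcd_dvd_left _ _)
      exact Nat.dvd_one.1 h1
    exact this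
  have hbig : (2 ^ (K + 4) + 2) * M < b := by
    show (2 ^ (K + 4) + 2) * M < M * (2 ^ (K + 4) + 3) + 1
    nlinarith
  obtain ⟨c, hc1, hc2, hc3⟩ := Sp_21.spoil K (b ^ m) m M b Ms hM
    (fun k hk => ⟨(hMs k hk).2.2, (hMs k hk).1.le⟩) hcop hbig
  refine ⟨b ^ m, b ^ m, M * b ^ m, c, Sp_21.Bad m M b Ms, Nat.mul_pos hM (pow_pos hb0 m),
    fun i j hij _ => by have := hc1 i j hij; omega, ?_,
    fun T _ => bad_periodic hb0 (fun k hk => (hMs k hk).2.2) T, ?_, ?_⟩
  · intro i i' j j' _ _ _ _ h1 h2 h3 h4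
    by_contra hne
    rcases hc2 i i' j j' (Ne.symm h1) (Ne.symm h2) (fun h => hne (Prod.ext_iff.1 h).1) with h | h
    · omega
    · omega
  · intro T _ hT I hI
    have hI' : ∀ k, ∃ k', k ∈ I → k' < K ∧ k' ≠ k ∧ Sp_21.Bad m M b Ms (T + c k' - c k) := by
      intro k
      by_cases hk : k ∈ I
      · obtain ⟨_, k', h⟩ := hI k hk
        exact ⟨k', fun _ => h⟩
      · exact ⟨0, fun h => absurd h hk⟩
    choose g hg using hI'
    have hcardI : (I.image fun k => (k, g k)).card = I.card := by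
      apply Finset.card_image_of_injective
      intro x y h
      exact (Prod.ext_iff.1 h).1
    rw [← hcardI]
    refine (hc3 T (fun i hi => hT i hi) _ ?_).trans (by omega)
    intro p hp
    obtain ⟨k, hk, rfl⟩ := Finset.mem_image.1 hp
    obtain ⟨h1, h2, h3⟩ := hg k hk
    exact ⟨(hI k hk).1, h1, Ne.symm h2, h3⟩
  · intro A _ f
    obtain ⟨lam, rho, nu, g1, g2, g3, g4⟩ := hb b hb0 hcop A f
    refine ⟨lam, rho, nu, fun p v h => (g1 p v h).le, fun p q v s h1 h2 _ => g2 p q v s h1 h2,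
      ?_, ?_⟩
    · intro u _ hbad v
      obtain ⟨P, Q, h1, h2, v', h3⟩ := g3 u (fun k hk hd => hbad (Or.inl ⟨k, hk, hd⟩))
        (fun j hj => by
          by_contra hcon
          refine hbad (Or.inr ⟨j, hj, fun h => hcon ⟨h.1, by omega⟩⟩)) v
      exact ⟨P, Q, h1, h2, by rw [h3]; rfl⟩
    · intro q q' _ _ h1 h2 h3
      exact (g4 q q' h1 h3 h2).2

/-- **height 3 for every finite monoid** -/
theorem fin (A : Type) [Finite A] (S : Type) [Monoid S] [Finite S] (f : A → S) (s : S) :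
    HL 3 ({w | (w.map f).prod = s} : Language A) :=
  End_747.main (fun S V _ _ _ _ act => gad S V act) A S f s

/-- **the row** -/
theorem row (α : Type*) [Finite α] (L : Language α) (hL : L.IsRegular) :
    ∃ e : Crest.RegLang.GRegExp α, e.height ≤ 3 ∧ e.lang = L :=
  Univ_294.s0495_of_types (fun β _ S _ _ φ s => fin β S φ s) α L hL

end Crest.Agent.R320.Fin_747
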