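import Crest.Agent.R320.Inst_374
import Crest.Agent.R320.Top5_120
import Crest.Agent.R320.Sp_797
import Crest.Agent.R320.G1_604
import Crest.Agent.R320.ExactR_237
import Crest.Agent.R320.LWallAll_922
import Crest.Agent.R320.P4_933
import Crest.Agent.R320.Block_467
import Crest.Agent.R320.Loc_354

/-!
# Row 320 : the join (own copy of helper748)
-/

set_option autoImplicit false

namespace Crest.Agent.R320.Fin_748

open Crest.RegLang Crest.Agent.R320.Hk_851 Crest.Agent.R320.Inst_374 Finset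
open Crest.Agent.R320.BddReg_746

/-- the spoil count -/
theorem hsp {α : Type} {S V : Type} [Monoid S] [AddCommGroup V] (D : Dat α S V) (C0 : ℕ)
    (hR : D.R = 2 * C0 + 2)
    (gap : ∀ (X : List α) (s t : ℕ), s < t → t ≤ X.length → D.Wo (X.take s) → D.Wo (X.take t) →
      2 * D.p0 + 2 * D.N1 < t - s)
    (hz : 3 * D.p0 + D.N1 ≤ D.z)
    (sparse : ∀ i j i' j', i ≠ j → (i, j) ≠ (i', j') →
        D.c i + D.c j' + 4 * D.N1 < D.c i' + D.c j ∨ D.c i' + D.c j + 4 * D.N1 < D.c i + D.c j')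
    (cnt : ∀ (T : ℤ) (P : Finset (ℕ × ℕ)), (∀ p ∈ P, p.1 < D.K ∧ p.2 < D.K ∧ p.1 ≠ p.2 ∧
        ∃ n : ℕ, (n : ℤ) = T + (D.c p.2 : ℤ) - (D.c p.1 : ℤ) ∧ D.BadT n) → P.card ≤ C0) :
    ∀ X ∈ D.C, ∀ Y ∈ D.C, ∃ Sp : Finset ℕ, Sp.card < D.R ∧
      ∀ k < D.K, ∀ k' < D.K, k' ≠ k → D.BadC (D.wl (X ++ Y)) k k' → k ∈ Sp := by
  classical
  intro X _ Y _
  have far : ∀ s t, D.wl (X ++ Y) s → D.wl (X ++ Y) t → s < t → 2 * D.p0 + 2 * D.N1 < t - s :=
    fun s t hs ht h => gap (X ++ Y) s t h ht.2.1 hs.2.2 ht.2.2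
  have hcp := D.hcp
  let At : ℕ → Finset ℕ := fun t => (Finset.range D.K).filter
    (fun k => ∃ k', k' < D.K ∧ k' ≠ k ∧ D.z + D.c k ≤ t + D.N1 + D.c k' ∧
      t + D.c k' < D.z + D.N1 + D.c k)
  let Bt : ℕ → Finset ℕ := fun t => (Finset.range D.K).filter
    (fun k => D.z ≤ t + D.p0 ∧ ∃ k', k' < D.K ∧ k' ≠ k ∧ D.BadT (t + D.c k' - D.c k - D.p0))
  have cA : ∀ t, (At t).card ≤ 1 := by
    intro t
    refine Finset.card_le_one.2 fun a ha b hb => ?_
    obtain ⟨-, a', ha1, ha2, ha3, ha4⟩ := Finset.mem_filter.1 ha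
    obtain ⟨-, b', hb1, hb2, hb3, hb4⟩ := Finset.mem_filter.1 hb
    by_contra hab
    have := sparse a a' b b' (fun h => ha2 h.symm) (fun h => hab (Prod.ext_iff.1 h).1)
    omega
  have cB : ∀ t, (Bt t).card ≤ C0 := by
    intro t
    by_cases ht : D.z ≤ t + D.p0
    · let P : Finset (ℕ × ℕ) := ((Finset.range D.K) ×ˢ (Finset.range D.K)).filter
        (fun p => p.1 ≠ p.2 ∧ D.BadT (t + D.c p.2 - D.c p.1 - D.p0))
      have hP : P.card ≤ C0 := by
        refine cnt ((t : ℤ) - D.p0) P fun p hp => ?_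
        obtain ⟨h1, h2, h3⟩ := Finset.mem_filter.1 hp
        obtain ⟨h4, h5⟩ := Finset.mem_product.1 h1
        have h6 := Finset.mem_range.1 h4
        have h7 := Finset.mem_range.1 h5
        refine ⟨h6, h7, h2, _, ?_, h3⟩
        have := hcp _ h6
        omega
      refine le_trans (le_trans (Finset.card_le_card ?_) (Finset.card_image_le (f := Prod.fst))) hP
      intro k hk
      obtain ⟨h1, -, k', h2, h3, h4⟩ := Finset.mem_filter.1 hk
      exact Finset.mem_image.2 ⟨(k, k'), Finset.mem_filter.2 ⟨Finset.mem_product.2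
        ⟨h1, Finset.mem_range.2 h2⟩, fun h => h3 h.symm, h4⟩, rfl⟩
    · have : Bt t = ∅ := by
        refine Finset.filter_eq_empty_iff.2 fun k _ h => ht h.1
      rw [this]; simp
  obtain ⟨τ, hτ⟩ : ∃ τ, ∀ t, D.wl (X ++ Y) t → D.z ≤ t + D.p0 + D.N1 →
      t < D.z + D.p0 + D.N1 → t = τ := by
    by_cases h : ∃ τ, D.wl (X ++ Y) τ ∧ D.z ≤ τ + D.p0 + D.N1 ∧ τ < D.z + D.p0 + D.N1
    · obtain ⟨τ, h1, h2, h3⟩ := h
      refine ⟨τ, fun t h4 h5 h6 => ?_⟩
      rcases Nat.lt_trichotomy t τ with h | h | h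
      · have := far t τ h4 h1 h
        omega
      · exact h
      · have := far τ t h1 h4 h
        omega
    · exact ⟨0, fun t h4 h5 h6 => absurd ⟨t, h4, h5, h6⟩ h⟩
  obtain ⟨τ1, hτ1⟩ : ∃ τ1, ∀ t, D.wl (X ++ Y) t → D.z + D.p0 ≤ t →
      (∀ t1 < t, D.wl (X ++ Y) t1 → t1 < D.z + D.p0) → t = τ1 := by
    by_cases h : ∃ τ, D.wl (X ++ Y) τ ∧ D.z + D.p0 ≤ τ ∧
      (∀ t1 < τ, D.wl (X ++ Y) t1 → t1 < D.z + D.p0)
    · obtain ⟨τ, h1, h2, h3⟩ := h
      refine ⟨τ, fun t h4 h5 h6 => ?_⟩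
      rcases Nat.lt_trichotomy t τ with h | h | h
      · have := h3 t h h4
        omega
      · exact h
      · have := h6 τ h h1
        omega
    · exact ⟨0, fun t h4 h5 h6 => absurd ⟨t, h4, h5, h6⟩ h⟩
  refine ⟨At τ ∪ (Bt τ ∪ Bt τ1), ?_, ?_⟩
  · have h1 := Finset.card_union_le (At τ) (Bt τ ∪ Bt τ1)
    have h2 := Finset.card_union_le (Bt τ) (Bt τ1)
    have h3 := cA τ
    have h4 := cB τ
    have h5 := cB τ1
    omega
  · intro k hk k' hk' hne hbad
    have e1 := hcp k hk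
    have e2 := hcp k' hk'
    rcases hbad with ⟨t, h1, h2, h3⟩ | ⟨t, h1, h2, h3, h4⟩
    · have ht : t = τ := hτ t h1 (by omega) (by omega)
      subst ht
      exact Finset.mem_union_left _ (Finset.mem_filter.2 ⟨Finset.mem_range.2 hk, k', hk', hne,
        h2, h3⟩)
    · refine Finset.mem_union_right _ ?_
      by_cases hlt : t < D.z + D.p0
      · have ht : t = τ := hτ t h1 (by omega) (by omega)
        subst ht
        exact Finset.mem_union_left _ (Finset.mem_filter.2 ⟨Finset.mem_range.2 hk, by omega,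
          k', hk', hne, h4⟩)
      · have ht : t = τ1 := hτ1 t h1 (by omega) (fun t1 g1 g2 => by
          have := h3 t1 g1 g2
          omega)
        subst ht
        exact Finset.mem_union_right _ (Finset.mem_filter.2 ⟨Finset.mem_range.2 hk, by omega,
          k', hk', hne, h4⟩)

/-- bad lengths are periodic -/
theorem bad_periodic (Ms : Finset ℕ) (M m b : ℕ) (hMs : ∀ k ∈ Ms, k ∣ M) (n n' : ℕ)
    (h : n % (M * b ^ m) = n' % (M * b ^ m)) :
    Sp_797.Bad Ms M m b n ↔ Sp_797.Bad Ms M m b n' := by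
  have h' : n ≡ n' [MOD M * b ^ m] := h
  have h1 : ∀ k ∈ Ms, (k ∣ n ↔ k ∣ n') := fun k hk =>
    (h'.of_dvd ((hMs k hk).trans (Dvd.intro _ rfl))).dvd_iff dvd_rfl
  have h2 : ∀ j < m, n / b ^ j % b = n' / b ^ j % b := by
    intro j hj
    rw [← Nat.mod_mul_right_div_self, ← Nat.mod_mul_right_div_self]
    have h3 : b ^ j * b ∣ M * b ^ m := by
      rw [← pow_succ]
      exact (pow_dvd_pow b hj).trans (Dvd.intro_left _ rfl)
    have h4 : n % (b ^ j * b) = n' % (b ^ j * b) := h'.of_dvd h3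
    rw [h4]
  unfold Sp_797.Bad
  constructor
  · rintro (⟨k, hk, h⟩ | ⟨j, hj, h⟩)
    · exact Or.inl ⟨k, hk, (h1 k hk).1 h⟩
    · exact Or.inr ⟨j, hj, by rw [← h2 j hj]; exact h⟩
  · rintro (⟨k, hk, h⟩ | ⟨j, hj, h⟩)
    · exact Or.inl ⟨k, hk, (h1 k hk).2 h⟩
    · exact Or.inr ⟨j, hj, by rw [h2 j hj]; exact h⟩

theorem fin_of_dat {α : Type} [Finite α] {S V : Type} [Monoid S] [Finite S] [AddCommGroup V]
    [Finite V] (D : Dat α S V) (hone : ∀ v, D.act v 1 = v)
    (hfaith : ∀ s t, (∀ v, D.act v s = D.act v t) → s = t) (C0 : ℕ)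
    (hR : D.R = 2 * C0 + 2)
    (gap : ∀ (X : List α) (s t : ℕ), s < t → t ≤ X.length → D.Wo (X.take s) → D.Wo (X.take t) →
      2 * D.p0 + 2 * D.N1 < t - s)
    (hz : 3 * D.p0 + D.N1 ≤ D.z)
    (sparse : ∀ i j i' j', i ≠ j → (i, j) ≠ (i', j') →
        D.c i + D.c j' + 4 * D.N1 < D.c i' + D.c j ∨ D.c i' + D.c j + 4 * D.N1 < D.c i + D.c j')
    (cnt : ∀ (T : ℤ) (P : Finset (ℕ × ℕ)), (∀ p ∈ P, p.1 < D.K ∧ p.2 < D.K ∧ p.1 ≠ p.2 ∧
        ∃ n : ℕ, (n : ℤ) = T + (D.c p.2 : ℤ) - (D.c p.1 : ℤ) ∧ D.BadT n) → P.card ≤ C0)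
    (len : ∀ P, D.Wo P → D.n ≤ P.length) (B R : ℕ)
    (free : ∀ u : List α, (∀ t < u.length, ¬ D.Wo (u.take t)) → u ∈ (PN B R : Language α))
    (per : ℕ) (hper : 0 < per)
    (fs : ∀ Q Q' : List α, D.N1 ≤ Q.length → D.N1 ≤ Q'.length → Q.take D.N1 = Q'.take D.N1 →
      Q.length % per = Q'.length % per →
      ((Q.drop D.N1).map D.φ).prod = ((Q'.drop D.N1).map D.φ).prod → D.nu1 Q = D.nu1 Q')
    (bper : ∀ n n', n % per = n' % per → (D.BadT n ↔ D.BadT n')) (s : S) :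
    HL 3 ({w | (w.map D.φ).prod = s} : Language α) := by
  classical
  have hzz := D.hz
  -- regularity
  let La : ℕ := D.z + D.p0 + 2 * D.N1
  have key : ∀ q q2 : List α, La ≤ q.length → La ≤ q2.length → q.take La = q2.take La →
      q.length % per = q2.length % per →
      ((q.drop La).map D.φ).prod = ((q2.drop La).map D.φ).prod →
      (q.map D.φ).prod = (q2.map D.φ).prod ∧ D.nu q = D.nu q2 ∧
      ((∃ t ≤ q.length, D.z ≤ t + D.N1 ∧ t < D.z + D.N1 ∧ D.Wo (q.take t)) ↔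
        (∃ t ≤ q2.length, D.z ≤ t + D.N1 ∧ t < D.z + D.N1 ∧ D.Wo (q2.take t))) ∧
      (D.BadT (q.length - D.p0) ↔ D.BadT (q2.length - D.p0)) := by
    intro q q2 h1 h2 h3 h4 h5
    have tk : ∀ j ≤ La, q.take j = q2.take j := by
      intro j hj
      have := congrArg (List.take j) h3
      rwa [List.take_take, List.take_take, min_eq_left hj] at this
    have dr : ∀ (u : List α) (j : ℕ), j ≤ La → La ≤ u.length →
        u.drop j = (u.take La).drop j ++ u.drop La := by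
      intro u j hj hu
      conv_lhs => rw [← List.take_append_drop La u]
      rw [List.drop_append_of_le_length (by rw [List.length_take]; omega)]
    have sg : ∀ j ≤ La, ((q.drop j).map D.φ).prod = ((q2.drop j).map D.φ).prod := by
      intro j hj
      rw [dr q j hj h1, dr q2 j hj h2, List.map_append, List.map_append, List.prod_append,
        List.prod_append, h3, h5]
    have hmod : (q.length - D.p0) % per = (q2.length - D.p0) % per := by
      have h6 : (q.length - D.p0) + D.p0 ≡ (q2.length - D.p0) + D.p0 [MOD per] := by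
        have e1 : (q.length - D.p0) + D.p0 = q.length := by omega
        have e2 : (q2.length - D.p0) + D.p0 = q2.length := by omega
        rw [e1, e2]
        exact h4
      exact Nat.ModEq.add_right_cancel' D.p0 h6
    have hnu1 : D.nu1 (q.drop D.p0) = D.nu1 (q2.drop D.p0) := by
      refine fs _ _ (by rw [List.length_drop]; omega) (by rw [List.length_drop]; omega) ?_ ?_ ?_
      · rw [List.take_drop, List.take_drop, tk _ (by omega)]
      · rw [List.length_drop, List.length_drop]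
        exact hmod
      · rw [List.drop_drop, List.drop_drop]
        exact sg _ (by omega)
    refine ⟨?_, ?_, ?_, bper _ _ hmod⟩
    · have := sg 0 (Nat.zero_le _)
      simpa using this
    · unfold Dat.nu
      rw [tk D.p0 (by omega), sg D.p0 (by omega), hnu1]
    · constructor
      · rintro ⟨t, g1, g2, g3, g4⟩
        exact ⟨t, by omega, g2, g3, by rw [← tk t (by omega)]; exact g4⟩
      · rintro ⟨t, g1, g2, g3, g4⟩
        exact ⟨t, by omega, g2, g3, by rw [tk t (by omega)]; exact g4⟩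
  have hCXX : ∀ X, X ∈ D.C ↔ P4_933.XX D.Wo D.z X := by
    intro X
    constructor
    · rintro ⟨g1, g2, g3⟩
      exact ⟨g2, g1, fun t h1 h2 => g3 t h2 h1⟩
    · rintro ⟨g1, g2, g3⟩
      exact ⟨g2, g1, fun t h1 h2 => g3 t h2 h1⟩
  refine Top5_120.top5 D.act D.hadd hone D.hmul hfaith D.φ D.nu D.C D.Bad ⟨?_, ?_⟩
    (fun X hX => hX.1) D.L1 D.L2 ?_ ?_ ?_ ?_ ?_ D.hcc1
    (D.hcc2 (hsp D C0 hR gap hz sparse cnt)) s
  · rintro ⟨h1, -⟩
    have := D.zpos
    simp at h1
    omega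
  · rintro X hX Y hY ⟨R, rfl⟩
    by_contra hne
    have hR : 0 < R.length := by
      rcases R with _ | ⟨a, R⟩
      · simp at hne
      · simp
    have := hY.2.2 X.length hX.1 (by rw [List.length_append]; omega)
    rw [List.take_left'  rfl] at this
    exact this hX.2.1
  · intro v
    refine (List.finite_length_le α (D.p0 + D.N1)).subset ?_
    rintro P ⟨h1, h2⟩
    have := D.lamlen _ _ h2
    rw [List.length_drop] at this
    show P.length ≤ _
    omega
  · intro v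
    refine (List.finite_length_le α D.p0).subset ?_
    rintro P ⟨k, h1, h2, -⟩
    have := D.hcp k h1
    show P.length ≤ _
    omega
  · intro x y
    refine (P4_933.hl_XX (z := D.z) D.wloc len free
      (f := fun X => D.act x (X.map D.φ).prod + D.nu X = y) ?_).congr fun w => ?_
    · refine Loc_354.regular_of_local D.φ La per hper _ fun q q2 h1 h2 h3 h4 h5 => ?_
      obtain ⟨k1, k2, -, -⟩ := key q q2 h1 h2 h3 h4 h5
      show (D.act x (q.map D.φ).prod + D.nu q = y) ↔ (D.act x (q2.map D.φ).prod + D.nu q2 = y)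
      rw [k1, k2]
    · show (w ∈ D.C ∧ _) ↔ (P4_933.XX D.Wo D.z w ∧ _)
      rw [hCXX]
  · intro x y
    refine (P4_933.hl_XX (z := D.z) D.wloc len free
      (f := fun X => ((∃ t ≤ X.length, D.z ≤ t + D.N1 ∧ t < D.z + D.N1 ∧ D.Wo (X.take t)) ∨
        D.BadT (X.length - D.p0)) ∧ D.act x (X.map D.φ).prod + D.nu X = y) ?_).congr fun w => ?_
    · refine Loc_354.regular_of_local D.φ La per hper _ fun q q2 h1 h2 h3 h4 h5 => ?_
      obtain ⟨k1, k2, k3, k4⟩ := key q q2 h1 h2 h3 h4 h5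
      show (((∃ t ≤ q.length, D.z ≤ t + D.N1 ∧ t < D.z + D.N1 ∧ D.Wo (q.take t)) ∨
        D.BadT (q.length - D.p0)) ∧ D.act x (q.map D.φ).prod + D.nu q = y) ↔
        (((∃ t ≤ q2.length, D.z ≤ t + D.N1 ∧ t < D.z + D.N1 ∧ D.Wo (q2.take t)) ∨
        D.BadT (q2.length - D.p0)) ∧ D.act x (q2.map D.φ).prod + D.nu q2 = y)
      rw [k1, k2, k3, k4]
    · show ((w ∈ D.C ∧ _) ∧ _) ↔ (P4_933.XX D.Wo D.z w ∧ (_ ∧ _))
      rw [hCXX, and_assoc]
  · intro a
    refine (P4_933.hl_NB (z := D.z) D.wloc len free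
      (f := fun X => (X.map D.φ).prod = a) ?_).congr fun w => ?_
    · refine Loc_354.regular_of_local D.φ La per hper _ fun q q2 h1 h2 h3 h4 h5 => ?_
      obtain ⟨k1, k2, -, -⟩ := key q q2 h1 h2 h3 h4 h5
      show ((q.map D.φ).prod = a) ↔ ((q2.map D.φ).prod = a)
      rw [k1]
    · show ((∀ X ∈ D.C, ¬ X <+: w) ∧ _) ↔ (P4_933.NB D.Wo D.z w ∧ _)
      rw [P4_933.NB_iff]
      constructor
      · rintro ⟨h1, h2⟩
        exact ⟨fun X hp hX => h1 X ((hCXX X).2 hX) hp, h2⟩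
      · rintro ⟨h1, h2⟩
        exact ⟨fun X hX hp => h1 X hp ((hCXX X).1 hX), h2⟩

/-- **fibres of finite monoids have generalised height at most 3** -/
theorem fin (α : Type) [Finite α] (S : Type) [Monoid S] [Finite S] (φ : α → S) (s : S) :
    HL 3 ({w | (w.map φ).prod = s} : Language α) := by
  classical
  haveI := Fintype.ofFinite S
  obtain ⟨act, hadd, hone, hmul, hfaith⟩ := Blk467.exists_module S
  obtain ⟨m, r, hg⟩ := G1_604.g1 S (S → ZMod 2) act
  obtain ⟨K, hK⟩ := ExactR_237.exact_gadget α S (S → ZMod 2) φ act (2 * (r + m) + 2)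
  obtain ⟨Ms, M, hcard, hMs, hM, hg2⟩ := hg (2 ^ (K + 1))
  obtain ⟨b, hbdef⟩ : ∃ b, b = (2 ^ (K + 5) + 8) * M + 1 := ⟨_, rfl⟩
  have hp : 0 < 2 ^ (K + 5) := by positivity
  have hbK : 2 ^ (K + 5) * M < b := by rw [hbdef, add_mul]; omega
  have hb4 : 4 * M + 4 < b := by
    have : 1 * M ≤ 2 ^ (K + 5) * M := Nat.mul_le_mul_right _ hp
    rw [hbdef, add_mul]; omega
  have hbc : Nat.Coprime b M := by
    rw [hbdef]
    simp [Nat.coprime_mul_left_add_left]
  obtain ⟨lam, rho, nu1, g1, g2, g3, g4⟩ := hg2 b hb4 hbc α φ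
  obtain ⟨c, c1, c2, c3, c4, c5, -⟩ := Sp_797.spoil_nat Ms M m b K (4 * b ^ m) hM
    (fun k hk => ⟨(hMs k hk).1, (hMs k hk).2.2⟩) hbK hbc
  obtain ⟨lam2, rho2, nu2, e1, e2⟩ := hK c (fun i j hij _ => c1 hij)
  obtain ⟨n, G, B, Wo, hLW, hgap, -, -, hfree⟩ :=
    LWallAll_922.walls_all_left α (2 * c K + 2 * b ^ m + 1) (by omega)
  let D : Dat α S (S → ZMod 2) :=
    { act := act
      hadd := hadd
      hmul := hmul
      φ := φ
      Wo := Wo
      n := n
      z := 4 * c K + 2 * b ^ m + n + 1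
      p0 := c K
      N1 := b ^ m
      wloc := hLW.app
      lam := lam
      rho := rho
      nu1 := nu1
      BadT := Sp_797.Bad Ms M m b
      lamlen := g1
      gs := g2
      gc := fun X hX v => g3 X (fun k hk h => hX (Or.inl ⟨k, hk, h⟩))
        (fun j hj => by
          by_contra h
          exact hX (Or.inr ⟨j, hj, h⟩)) v
      K := K
      R := 2 * (r + m) + 2
      c := c
      hcp := fun k hk => (c1 hk).le
      lam2 := lam2
      rho2 := fun k Q => rho2 k Q 1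
      nu2 := fun u => nu2 u 1
      es := fun k hk P Q v b hP h1 h2 => by
        have := e1 k hk P Q 1 v b hP h1 h2
        rw [mul_one] at this
        exact this
      ec := fun u v hu => e2 u 1 v (fun k hk => by rw [hu]; exact (c1 hk).le)
      hz := by omega
      zpos := by omega }
  refine fin_of_dat D hone hfaith (r + m) rfl ?_ ?_ ?_ ?_ hLW.len
    (max B (2 * c K + 2 * b ^ m + 1)) 2 ?_ (M * b ^ m) ?_ ?_ ?_ s
  · intro X s t h1 h2 h3 h4
    have := hgap X s t h1 h2 h3 h4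
    show 2 * c K + 2 * b ^ m < t - s
    omega
  · show 3 * c K + b ^ m ≤ 4 * c K + 2 * b ^ m + n + 1
    omega
  · exact c4
  · intro T P h
    have := c5 T P h
    omega
  · intro u hu
    obtain ⟨u1, x, v, k, h1, h2, h3, h4⟩ := hfree u hu
    refine Language.mem_mul.2 ⟨u1 ++ (List.replicate k x).flatten, ?_, v, ?_, h4.symm⟩
    · exact ⟨u1, x, k, h1.trans (le_max_left _ _), h2.trans (le_max_right _ _), rfl⟩
    · refine Language.mem_mul.2 ⟨v, ?_, [], rfl, by simp⟩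
      exact ⟨v, [], 0, h3.trans (le_max_left _ _), by simp, by simp [pw]⟩
  · exact Nat.mul_pos hM (pow_pos (by omega) _)
  · intro Q Q' h1 h2 h3 h4 h5
    exact (g4 Q Q' h1 h2 h3 h4 h5).2
  · intro n n' h
    exact bad_periodic Ms M m b (fun k hk => (hMs k hk).2.2) n n' h

end Crest.Agent.R320.Fin_748
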