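import Crest.Agent.R320.Asm_749
import Crest.Agent.R320.GridG_19
import Crest.Agent.R320.Thin_963
import Crest.Agent.R320.RegDep_10
import Crest.Agent.R320.Uni_366

/-!
# Row 320: the constants and the final theorem (helper749)
-/

set_option autoImplicit false

namespace Crest.Agent.R320.Fin_749

open Crest.RegLang Crest.Agent.R320.Hk_851 Crest.Agent.R320.FewWalls_228
  Crest.Agent.R320.WallU_228 Crest.Agent.R320.Blk467 Crest.Agent.R320.GridG_19
open Crest.Agent.R320.ExactR_237 (pr pr_append)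

universe u

/-- bad lengths -/
def BT (Ms : Finset ℕ) (G : ℕ → ℕ) (M m : ℕ) (T : ℕ) : Prop :=
  (∃ q ∈ Ms, q ∣ T) ∨ (Am G M 0 m ≤ T ∧ BadG G M 0 m T)

theorem bt_thin {Ms : Finset ℕ} {G : ℕ → ℕ} {M m T : ℕ} (hG : ∀ k, 0 < G k)
    (h : BT Ms G M m T) :
    Thin963.BadT Ms m (fun i => (G i : ℤ)) (fun i => ((M * G i : ℕ) : ℤ))
      (fun i => (Am G M 0 i : ℤ)) (T : ℤ) := by
  rcases h with ⟨q, hq, h⟩ | ⟨hT, k, hk, h⟩
  · exact Or.inl ⟨q, hq, by exact_mod_cast h⟩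
  · right
    have hA : Am G M 0 (k + 1) ≤ T := (Am_mono G M 0 hk).trans hT
    have hdm := Nat.div_add_mod (T - Am G M 0 (k + 1)) (G (k + 1))
    have hlt := Nat.mod_lt (T - Am G M 0 (k + 1)) (hG (k + 1))
    set ρ := (T - Am G M 0 (k + 1)) % G (k + 1) with hρ
    set d := (T - Am G M 0 (k + 1)) / G (k + 1) with hd
    have hTz : (T : ℤ) - (Am G M 0 (k + 1) : ℤ) = (G (k + 1) : ℤ) * d + ρ := by
      have : T = Am G M 0 (k + 1) + (G (k + 1) * d + ρ) := by omega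
      rw [this]; push_cast; ring
    rcases h with h | h
    · refine ⟨k, hk, -(ρ : ℤ), ?_, ?_⟩
      · rw [abs_neg, abs_of_nonneg (by positivity)]
        show (ρ : ℤ) ≤ ((M * G k : ℕ) : ℤ)
        exact_mod_cast h.le
      · show (G (k + 1) : ℤ) ∣ (T : ℤ) - (Am G M 0 (k + 1) : ℤ) + -(ρ : ℤ)
        rw [hTz]
        exact ⟨d, by ring⟩
    · refine ⟨k, hk, (G (k + 1) : ℤ) - ρ, ?_, ?_⟩
      · rw [abs_of_nonneg (by
          have : (ρ : ℤ) < G (k + 1) := by exact_mod_cast hlt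
          linarith)]
        have : (G (k + 1) : ℤ) ≤ ρ + ((M * G k : ℕ) : ℤ) := by exact_mod_cast h
        show (G (k + 1) : ℤ) - (ρ : ℤ) ≤ ((M * G k : ℕ) : ℤ)
        linarith
      · show (G (k + 1) : ℤ) ∣ (T : ℤ) - (Am G M 0 (k + 1) : ℤ) + ((G (k + 1) : ℤ) - ρ)
        rw [hTz]
        exact ⟨d + 1, by ring⟩

open Classical in
/-- the ruler `X * 2 ^ k` has few spoiled places -/
theorem spoil {Ms : Finset ℕ} {G : ℕ → ℕ} {M m K X : ℕ} (hG : ∀ k, 0 < G k)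
    (h : ∀ T : ℤ, (((Finset.range K) ×ˢ (Finset.range K)).filter (fun p => p.1 ≠ p.2 ∧
        Thin963.BadT Ms m (fun i => (G i : ℤ)) (fun i => ((M * G i : ℕ) : ℤ))
          (fun i => (Am G M 0 i : ℤ)) (T + (X : ℤ) * 2 ^ p.1 - (X : ℤ) * 2 ^ p.2))).card ≤
        Ms.card + m)
    (T : ℕ) (hT : ∀ k, k < K → X * 2 ^ k ≤ T) (I : Finset ℕ)
    (hI : ∀ k ∈ I, k < K ∧ ∃ k', k' < K ∧ k' ≠ k ∧ BT Ms G M m (T + X * 2 ^ k' - X * 2 ^ k)) :
    I.card ≤ Ms.card + m := by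
  classical
  have hI' : ∀ k : ℕ, ∃ k' : ℕ, k ∈ I → (k' < K ∧ k' ≠ k ∧
      BT Ms G M m (T + X * 2 ^ k' - X * 2 ^ k)) := by
    intro k
    by_cases hk : k ∈ I
    · obtain ⟨_, k', h1, h2, h3⟩ := hI k hk
      exact ⟨k', fun _ => ⟨h1, h2, h3⟩⟩
    · exact ⟨0, fun h => (hk h).elim⟩
  choose g hg using hI'
  refine le_trans ?_ (h T)
  refine Finset.card_le_card_of_injOn (fun k => (g k, k)) ?_ ?_
  · intro k hk
    have hk' : k ∈ I := hk
    obtain ⟨h1, h2, h3⟩ := hg k hk'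
    have h4 := (hI k hk').1
    simp only [Finset.coe_filter, Set.mem_ofPred_eq, Finset.mem_product, Finset.mem_range]
    refine ⟨⟨h1, h4⟩, h2, ?_⟩
    have h5 := bt_thin hG h3
    have h6 : ((T + X * 2 ^ g k - X * 2 ^ k : ℕ) : ℤ) =
        (T : ℤ) + (X : ℤ) * 2 ^ g k - (X : ℤ) * 2 ^ k := by
      have := hT k h4
      rw [Nat.cast_sub (by omega)]
      push_cast
      ring
    rw [h6] at h5
    exact h5
  · intro a _ b _ hab
    exact (Prod.mk.inj hab).2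

theorem resolve {X N1 i i' j j' : ℕ} (hX : 2 * N1 < X) (hi : i' ≠ i) (hj : j' ≠ j)
    (h1 : X * 2 ^ i + X * 2 ^ j' < X * 2 ^ j + X * 2 ^ i' + 2 * N1)
    (h2 : X * 2 ^ j + X * 2 ^ i' < X * 2 ^ i + X * 2 ^ j' + 2 * N1) : i = j := by
  have e1 : 2 ^ i + 2 ^ j' < 2 ^ j + 2 ^ i' + 1 := by
    by_contra hc
    have : X * (2 ^ j + 2 ^ i' + 1) ≤ X * (2 ^ i + 2 ^ j') := Nat.mul_le_mul_left _ (by omega)
    have e : X * (2 ^ j + 2 ^ i' + 1) = X * 2 ^ j + X * 2 ^ i' + X := by ring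
    have e' : X * (2 ^ i + 2 ^ j') = X * 2 ^ i + X * 2 ^ j' := by ring
    omega
  have e2 : 2 ^ j + 2 ^ i' < 2 ^ i + 2 ^ j' + 1 := by
    by_contra hc
    have : X * (2 ^ i + 2 ^ j' + 1) ≤ X * (2 ^ j + 2 ^ i') := Nat.mul_le_mul_left _ (by omega)
    have e : X * (2 ^ i + 2 ^ j' + 1) = X * 2 ^ i + X * 2 ^ j' + X := by ring
    have e' : X * (2 ^ j + 2 ^ i') = X * 2 ^ j + X * 2 ^ i' := by ring
    omega
  have e3 : 2 ^ i + 2 ^ j' = 2 ^ j + 2 ^ i' := by omega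
  have e4 : (2 : ℤ) ^ i - 2 ^ i' = 2 ^ j - 2 ^ j' := by
    have : ((2 ^ i + 2 ^ j' : ℕ) : ℤ) = ((2 ^ j + 2 ^ i' : ℕ) : ℤ) := by rw [e3]
    push_cast at this
    linarith
  exact (Crest.Agent.R320.G369.pow_diff (Ne.symm hi) (Ne.symm hj) e4).1

theorem geom_le (M Γ i : ℕ) (hΓ : 2 ≤ Γ) :
    ∑ j ∈ Finset.range (i + 1), M * Γ ^ j ≤ 2 * (M * Γ ^ i) := by
  induction i with
  | zero => simp; omega
  | succ i ih =>
    rw [Finset.sum_range_succ]
    have h1 : 2 * (M * Γ ^ i) ≤ M * Γ ^ (i + 1) := by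
      have : M * Γ ^ (i + 1) = Γ * (M * Γ ^ i) := by rw [pow_succ]; ring
      rw [this]
      exact Nat.mul_le_mul_right _ hΓ
    omega

/-- **the fibres of every finite monoid have height three** -/
theorem fibre (A S : Type) [Finite A] [Monoid S] [Finite S] (f : A → S) (s : S) :
    HL 3 ({w | (w.map f).prod = s} : Language A) := by
  classical
  have := Fintype.ofFinite S
  obtain ⟨act, hadd, hone, hmul, hfaith⟩ := exists_module S
  obtain ⟨m, r, hgrid⟩ := GridG_19.grid S (S → ZMod 2) act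
  obtain ⟨K, hex⟩ := ExactR_237.exact_gadget A S (S → ZMod 2) f act (2 * (r + m) + 2)
  obtain ⟨Ms, hcard, hpr, hg⟩ := hgrid (2 ^ (K + 1))
  set M := ∏ q ∈ Ms, q with hMdef
  have hM : 0 < M := Finset.prod_pos fun q hq => (hpr q hq).1.pos
  set κ := 2 ^ (K + 5) * M with hκ
  set Γ := 2 ^ κ with hΓ
  have hΓge : 2 ^ (K + 5) * M ≤ Γ := by
    rw [hΓ, ← hκ]
    exact (Nat.lt_two_pow_self).le
  have hΓ2 : 2 ≤ Γ := by
    have h1 : 2 ^ (K + 5) * 1 ≤ 2 ^ (K + 5) * M := Nat.mul_le_mul_left _ hM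
    have h2 : 2 ≤ 2 ^ (K + 5) := by
      calc 2 = 2 ^ 1 := by norm_num
        _ ≤ 2 ^ (K + 5) := Nat.pow_le_pow_right (by norm_num) (by omega)
    omega
  have hΓ0 : 0 < Γ := by omega
  let G : ℕ → ℕ := fun k => Γ ^ k
  have hG0 : ∀ k, 0 < G k := fun k => Nat.pow_pos hΓ0
  have hGd : ∀ a b, a ≤ b → G a ∣ G b := fun a b h => Nat.pow_dvd_pow _ h
  have hodd : ∀ q ∈ Ms, Nat.Coprime q 2 := by
    intro q hq
    obtain ⟨h1, h2⟩ := hpr q hq
    rw [Nat.coprime_primes h1 Nat.prime_two]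
    have : 2 ≤ 2 ^ (K + 1) := by
      calc 2 = 2 ^ 1 := by norm_num
        _ ≤ 2 ^ (K + 1) := Nat.pow_le_pow_right (by norm_num) (by omega)
    omega
  have hqG : ∀ q ∈ Ms, ∀ k, Nat.Coprime q (G k) := by
    intro q hq k
    exact Nat.Coprime.pow_right _ (Nat.Coprime.pow_right _ (hodd q hq))
  have hcop : ∀ k, Nat.Coprime M (G k) := fun k =>
    Nat.Coprime.prod_left fun q hq => hqG q hq k
  obtain ⟨lam, rho, nu1, hS, hL, _, hC, hfs⟩ := hg G 0 hG0 hGd hcop A (pr f) (pr_append f)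
  -- constants
  set N1 := Am G M 0 m with hN1
  obtain ⟨Xz, hX1, hX2, hthin⟩ := Thin963.thin K m Ms (fun i => (G i : ℤ))
    (fun i => ((M * G i : ℕ) : ℤ)) (fun i => (Am G M 0 i : ℤ))
    (fun q hq => ⟨(hpr q hq).1, (hpr q hq).2.le⟩)
    (fun q hq => by
      show IsCoprime (q : ℤ) ((G m : ℕ) : ℤ)
      exact Nat.isCoprime_iff_coprime.2 (hqG q hq m))
    (by exact_mod_cast hG0 m)
    (fun i j h => by exact_mod_cast hGd i j h)
    (fun i => by
      show (0 : ℤ) < ((M * G i : ℕ) : ℤ)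
      exact_mod_cast Nat.mul_pos hM (hG0 i))
    (fun i => by
      show (G i : ℤ) ∣ ((M * G i : ℕ) : ℤ)
      exact_mod_cast Dvd.intro_left M rfl)
    (fun i hi => by
      show (2 : ℤ) ^ (K + 4) * ∑ j ∈ Finset.range (i + 1), ((M * G j : ℕ) : ℤ) ≤ ((G (i + 1) : ℕ) : ℤ)
      have h1 := geom_le M Γ i hΓ2
      have h2 : 2 ^ (K + 4) * ∑ j ∈ Finset.range (i + 1), M * G j ≤ G (i + 1) := by
        calc 2 ^ (K + 4) * ∑ j ∈ Finset.range (i + 1), M * G j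
            ≤ 2 ^ (K + 4) * (2 * (M * Γ ^ i)) := Nat.mul_le_mul_left _ h1
          _ = (2 ^ (K + 5) * M) * Γ ^ i := by rw [pow_succ 2 (K + 4)]; ring
          _ ≤ Γ * Γ ^ i := Nat.mul_le_mul_right _ hΓge
          _ = G (i + 1) := by show _ = Γ ^ (i + 1); rw [pow_succ]; ring
      exact_mod_cast h2)
    (2 * (N1 : ℤ) + 1)
  obtain ⟨X, rfl⟩ : ∃ X : ℕ, Xz = (X : ℤ) := ⟨Xz.toNat, (Int.toNat_of_nonneg hX2.le).symm⟩
  have hXN : 2 * N1 < X := by
    have : 2 * (N1 : ℤ) + 1 ≤ X := hX1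
    omega
  let c : ℕ → ℕ := fun k => X * 2 ^ k
  have hX0 : 0 < X := by omega
  have hinc : ∀ i j, i < j → j < K → c i < c j := fun i j h _ =>
    Nat.mul_lt_mul_of_pos_left (Nat.pow_lt_pow_right (by norm_num) h) hX0
  obtain ⟨lam2, rho2, nu2, hS2, hC2⟩ := hex c hinc
  set p0 := X * 2 ^ K with hp0
  have hcp : ∀ k, k < K → c k ≤ p0 := fun k hk =>
    Nat.mul_le_mul_left _ (Nat.pow_le_pow_right (by norm_num) hk.le)
  obtain ⟨n, cw, P, St, hn, hP, happ, hsep, -, -, hfew⟩ :=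
    WallU_228.walls_full (α := A) (2 * (N1 + p0) + 1)
  have hW : Joint_47.LW n (2 * (N1 + p0) + 1) (Wo n St) := by
    refine ⟨fun X h => h.1, happ, fun Y a b hab hb ha hb' => ?_⟩
    by_contra hc
    have hl : (Y.take b).length = b := by rw [List.length_take]; omega
    refine hsep (Y.take b) (b - a) hb' (by omega) (by omega) ?_
    rw [hl, List.take_take]
    have : min (b - (b - a)) b = a := by omega
    rw [this]
    exact ha
  refine Asm_749.assemble act hadd hone hmul hfaith f (R1 := r + m) (N1 := N1)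
    (N0 := 2 * N1 + M + 1) (z := 3 * p0 + n + 3 * N1 + M + 2) (BadT := BT Ms G M m)
    (c := c) hfew hW (lam := lam) (rho := rho) (nu1 := nu1)
    (fun P Q v r h1 h2 => hS P Q v r h1 h2) (fun P v h => (hL P v h).2.le) ?_ ?_
    hS2 (fun u y v h => hC2 u y v h) hinc hcp ?_ ?_ (by omega) (by omega) (by omega) s
  · intro Y hY hb v
    obtain ⟨P, Q, h1, h2, h3⟩ := hC Y (by omega) (by omega)
      (fun q hq h => hb (Or.inl ⟨q, hq, h⟩)) (fun h => hb (Or.inr ⟨by omega, h⟩)) v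
    exact ⟨P, Q, h1.symm, h2, h3⟩
  · intro v
    refine Crest.Agent.R320.RegDep_10.regular_of_dep f (Ac G M 0 m) (M * G m)
      (Nat.mul_pos hM (hG0 m)) _ ?_
    intro u u' h1 h2 h3 h4 h5 h6
    have h7 : pr f u = pr f u' := by
      rw [← List.take_append_drop (Ac G M 0 m) u, ← List.take_append_drop (Ac G M 0 m) u',
        pr_append, pr_append, h3]
      congr 1
    have h8 := hfs u u' h1 h2 h3 h5 h7
    show nu1 u' = v
    rw [← h8]
    exact h6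
  · intro i i' j j' _ _ _ _ hi hj h1 h2
    exact resolve hXN hi hj h1 h2
  · intro T hT I hI
    exact (spoil hG0 hthin T hT I hI).trans (by omega)

end Crest.Agent.R320.Fin_749
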