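import Crest.Agent.R320.Top5_120
import Crest.Agent.R320.InstA_425
import Crest.Agent.R320.Last_749
import Crest.Agent.R320.GridG_19
import Crest.Agent.R320.GridRuler_257
import Crest.Agent.R320.ExactR_237
import Crest.Agent.R320.Two_621
import Crest.Agent.R320.P4_933

/-!
# Row 320: constants and join (helper754)

Top = Top5_120.top5, instance = InstA_425 (c1, c2), regularity / height one = Last_749 over
WallU_228.walls_full, gadget 1 = GridG_19.grid, ruler = GridRuler_257.ruler, gadget 2 =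
ExactR_237.exact_gadget, module = Two_621.act.
-/

set_option autoImplicit false

namespace Crest.Agent.R320.Fin_754

open Crest.RegLang Crest.Agent.R320.Hk_851 Crest.Agent.R320.FewWalls_228
  Crest.Agent.R320.WallU_228 Crest.Agent.R320.Blk467

/-- bad totals -/
def BT (Ms : Finset ℕ) (G : ℕ → ℕ) (M m : ℕ) (T : ℕ) : Prop :=
  (∃ q ∈ Ms, q ∣ T) ∨ GridG_19.BadG G M 0 m T

theorem BT_badZ {Ms : Finset ℕ} {G : ℕ → ℕ} {M m : ℕ} (hG : ∀ j, 0 < G j) {T : ℕ}
    (hT : GridG_19.Am G M 0 m ≤ T) (h : BT Ms G M m T) :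
    GridRuler_257.BadZ Ms m M G (GridG_19.Am G M 0) (T : ℤ) := by
  by_contra hb
  have hm : ∀ j, 1 ≤ j → j ≤ m → GridG_19.Am G M 0 j ≤ T := fun j _ hj =>
    (GridG_19.Am_mono G M 0 hj).trans hT
  obtain ⟨h1, h2⟩ := GridRuler_257.clear_of_not_bad hG hm hb
  rcases h with ⟨q, hq, hd⟩ | ⟨k, hk, h⟩
  · exact h1 q hq hd
  · obtain ⟨a, b⟩ := h2 (k + 1) (by omega) (by omega)
    rw [Nat.add_sub_cancel] at a b
    omega

theorem BT_per {Ms : Finset ℕ} {G : ℕ → ℕ} {M m : ℕ} (hMs : ∀ q ∈ Ms, q ∣ M)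
    (hd : ∀ a b, a ≤ b → G a ∣ G b) {T T' : ℕ}
    (hT : GridG_19.Am G M 0 m ≤ T) (hT' : GridG_19.Am G M 0 m ≤ T')
    (h : T ≡ T' [MOD M * G m]) : BT Ms G M m T → BT Ms G M m T' := by
  rintro (⟨q, hq, h1⟩ | ⟨k, hk, h1⟩)
  · exact Or.inl ⟨q, hq, ((h.of_dvd (Dvd.dvd.mul_right (hMs q hq) _)).dvd_iff (dvd_refl q)).1 h1⟩
  · refine Or.inr ⟨k, hk, ?_⟩
    have h2 : T ≡ T' [MOD G (k + 1)] :=
      h.of_dvd (Dvd.dvd.mul_left (hd _ _ (by omega)) _)
    have hm := GridG_19.Am_mono G M 0 (show k + 1 ≤ m by omega)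
    have h3 : T - GridG_19.Am G M 0 (k + 1) ≡ T' - GridG_19.Am G M 0 (k + 1) [MOD G (k + 1)] := by
      apply Nat.ModEq.add_right_cancel' (GridG_19.Am G M 0 (k + 1))
      rw [Nat.sub_add_cancel (by omega), Nat.sub_add_cancel (by omega)]
      exact h2
    have h4 : (T - GridG_19.Am G M 0 (k + 1)) % G (k + 1) =
      (T' - GridG_19.Am G M 0 (k + 1)) % G (k + 1) := h3
    rw [h4] at h1
    exact h1

theorem sub_mod {a b c n : ℕ} (ha : c ≤ a) (hb : c ≤ b) (h : a ≡ b [MOD n]) :
    a - c ≡ b - c [MOD n] := by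
  apply Nat.ModEq.add_right_cancel' c
  rw [Nat.sub_add_cancel ha, Nat.sub_add_cancel hb]
  exact h

theorem finite_of_len {α : Type} [Finite α] {N : ℕ} {s : Set (List α)}
    (h : ∀ P ∈ s, P.length < N) : s.Finite :=
  (List.finite_length_lt α N).subset h

theorem fin (α : Type) [Finite α] (S : Type) [Monoid S] [Finite S] (φ : α → S) (s : S) :
    HL 3 ({w | (w.map φ).prod = s} : Language α) := by
  classical
  haveI : Fintype S := Fintype.ofFinite S
  haveI : Finite (Two_621.Tok S) := inferInstanceAs (Finite (S → ZMod 2))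
  haveI : Fintype (Two_621.Tok S) := Fintype.ofFinite _
  obtain ⟨m, r, hgrid⟩ := GridG_19.grid.{0} S (Two_621.Tok S) Two_621.act
  obtain ⟨K, hK⟩ := ExactR_237.exact_gadget α S (Two_621.Tok S) φ Two_621.act (2 * (r + m) + 2)
  obtain ⟨Ms, hcard, hMs, hgrid⟩ := hgrid (max (4 ^ K) 2)
  obtain ⟨M, hMdef⟩ : ∃ M, M = ∏ q ∈ Ms, q := ⟨_, rfl⟩
  rw [← hMdef] at hgrid
  have hM : 0 < M := by rw [hMdef]; exact Finset.prod_pos fun q hq => (hMs q hq).1.pos
  have hMd : ∀ q ∈ Ms, q ∣ M := fun q hq => by rw [hMdef]; exact Finset.dvd_prod_of_mem _ hq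
  obtain ⟨e, he⟩ : ∃ e, e = 16 * 4 ^ K * M := ⟨_, rfl⟩
  obtain ⟨G, hGdef⟩ : ∃ G : ℕ → ℕ, G = fun j => (2 ^ e) ^ j := ⟨_, rfl⟩
  have hGp : ∀ k, 0 < G k := fun k => by rw [hGdef]; positivity
  have hGd : ∀ a b, a ≤ b → G a ∣ G b := fun a b h => by rw [hGdef]; exact pow_dvd_pow _ h
  have hGb : ∀ j, 16 * 4 ^ K * (M * G j) ≤ G (j + 1) := by
    intro j
    rw [hGdef]
    show 16 * 4 ^ K * (M * (2 ^ e) ^ j) ≤ (2 ^ e) ^ (j + 1)
    rw [← mul_assoc, ← he, pow_succ, mul_comm ((2 ^ e) ^ j)]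
    exact Nat.mul_le_mul_right _ (Nat.lt_two_pow_self).le
  have hcop : ∀ k, Nat.Coprime M (G k) := by
    intro k
    rw [hGdef, hMdef]
    show Nat.Coprime _ ((2 ^ e) ^ k)
    apply Nat.Coprime.pow_right
    apply Nat.Coprime.pow_right
    apply Nat.Coprime.prod_left
    intro q hq
    rw [Nat.coprime_primes (hMs q hq).1 Nat.prime_two]
    have := (hMs q hq).2
    omega
  obtain ⟨lam, rho, nu, hs1, hlen, -, hc1, hfin⟩ := hgrid G 0 hGp hGd hcop α
    (fun w => (w.map φ).prod) (fun u v => by simp)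
  obtain ⟨N, hN⟩ : ∃ N, N = GridG_19.Am G M 0 m + M + 1 := ⟨_, rfl⟩
  obtain ⟨U, hU1, hU2, hU3, hU4⟩ := GridRuler_257.ruler K m Ms M G (GridG_19.Am G M 0) N hM
    (fun k hk => ⟨hMd k hk, (le_max_left _ _).trans (hMs k hk).2.le⟩) (hGp 0)
    (fun j => hGd _ _ (Nat.le_succ j)) hGb (hcop m)
  obtain ⟨x, hx⟩ : ∃ x : ℕ → ℕ, x = fun a => U * 4 ^ a := ⟨_, rfl⟩
  have hxlt : ∀ i j, i < j → x i + 4 * N < x j := fun i j h => by rw [hx]; exact hU2 i j h
  obtain ⟨lam2, rho2, nu2, he1, he2⟩ := hK x (fun i j h _ => by have := hxlt i j h; omega)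
  obtain ⟨n, c, P, Sx, hn, hP, hloc, hgap, hpc, hpc2, hfew⟩ :=
    walls_full (α := α) (2 * x K + 2 * N + 1)
  let D : InstA_425.Dat α S (Two_621.Tok S) :=
    { φ := φ, act := Two_621.act, W := Wo n Sx, n := n, g := 2 * x K + 2 * N + 1,
      z := 3 * x K + 3 * N + n + 1, p0 := x K, N := N, K := K, C0 := r + m, x := x,
      BT := BT Ms G M m, lam := lam, rho := rho, nu := nu, lam2 := lam2,
      rho2 := fun k Q => rho2 k Q 1, nu2 := fun u => nu2 u 1 }
  have hOk : D.Ok := by
    refine ⟨fun a b s => Two_621.act_add a b s, fun v s t => (Two_621.act_mul v s t).symm,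
      hloc, ?_, ?_, ?_, ?_, ?_, ?_, ?_, ?_, ?_, ?_, ?_⟩
    · intro X s t _ hst ht hws hwt
      by_contra hle
      have h1 := hgap (X.take t) (t - s) hwt (by omega) (by
        have : t ≤ s + (2 * x K + 2 * N + 1) := not_lt.1 hle
        omega)
      apply h1
      have e1 : (X.take t).take ((X.take t).length - (t - s)) = X.take s := by
        rw [List.length_take, List.take_take]
        congr 1
        omega
      rw [e1]
      exact hws
    · show 2 * x K + 2 * N < 2 * x K + 2 * N + 1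
      omega
    · show 3 * x K + 3 * N + n < 3 * x K + 3 * N + n + 1
      omega
    · intro k hk
      have := hxlt k K hk
      show x k ≤ x K
      omega
    · intro a b c d _ _ _ _ hab h1 h2
      have h1' : x a + x d < x b + x c + 4 * N := h1
      have h2' : x b + x c < x a + x d + 4 * N := h2
      rcases hU3 a b c d hab with h | h
      · exact h
      · exfalso
        have ea : U * 4 ^ a = x a := by rw [hx]
        have eb : U * 4 ^ b = x b := by rw [hx]
        have ec : U * 4 ^ c = x c := by rw [hx]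
        have ed : U * 4 ^ d = x d := by rw [hx]
        rw [ea, eb, ec, ed] at h
        rw [lt_abs] at h
        rcases h with h | h <;> omega
    · intro T hT
      have hT' : x K ≤ T := hT
      refine ⟨((Finset.range K) ×ˢ (Finset.range K)).filter (fun ab => ab.1 ≠ ab.2 ∧
        GridRuler_257.BadZ Ms m M G (GridG_19.Am G M 0)
          ((T : ℤ) + (U * 4 ^ ab.1 : ℕ) - (U * 4 ^ ab.2 : ℕ))), ?_, ?_⟩
      · refine (hU4 T _ ?_).trans (Nat.add_le_add_right hcard m)
        intro ab hab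
        rw [Finset.mem_filter, Finset.mem_product, Finset.mem_range, Finset.mem_range] at hab
        exact ⟨hab.1.1, hab.1.2, hab.2.1, hab.2.2⟩
      · intro a b ha hb hab hbt
        rw [Finset.mem_filter, Finset.mem_product, Finset.mem_range, Finset.mem_range]
        refine ⟨⟨ha, hb⟩, hab, ?_⟩
        have hbt' : BT Ms G M m (T + x a - x b) := hbt
        have h1 := hxlt b K hb
        have h2 := BT_badZ hGp (T := T + x a - x b) (by omega) hbt'
        have ea : U * 4 ^ a = x a := by rw [hx]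
        have eb : U * 4 ^ b = x b := by rw [hx]
        show GridRuler_257.BadZ Ms m M G (GridG_19.Am G M 0)
          ((T : ℤ) + (U * 4 ^ a : ℕ) - (U * 4 ^ b : ℕ))
        rw [ea, eb]
        have e3 : ((T + x a - x b : ℕ) : ℤ) = (T : ℤ) + (x a : ℕ) - (x b : ℕ) := by omega
        rw [e3] at h2
        exact h2
    · intro p v hp
      have := (hlen p v hp).2
      show p.length < N
      omega
    · intro p q v r hl hr
      exact hs1 p q v r hl hr
    · intro u hu hb v
      have hu' : 2 * N ≤ u.length := hu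
      have hb' : ¬ BT Ms G M m u.length := hb
      obtain ⟨P, Q, h1, h2, h3⟩ := hc1 u (by omega) (by omega)
        (fun q hq hd => hb' (Or.inl ⟨q, hq, hd⟩)) (fun h => hb' (Or.inr h)) v
      exact ⟨P, Q, h1, h2, Option.isSome_iff_exists.1 h3⟩
    · intro k hk P Q v b hPl h1 h2
      have := he1 k hk P Q 1 v b hPl h1 h2
      rw [mul_one] at this
      exact this
    · intro u v hu
      have hu' : u.length = x K := hu
      obtain ⟨I, h1, h2⟩ := he2 u 1 v (fun k hk => by have := hxlt k K hk; omega)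
      exact ⟨I, h1, fun k hk => ⟨(h2 k hk).1, (h2 k hk).2.1,
        Option.isSome_iff_exists.1 (h2 k hk).2.2⟩⟩
  -- regularity
  have hMG : 0 < M * G m := Nat.mul_pos hM (hGp m)
  have hreg1 : ∀ v, Language.IsRegular ({Y | nu Y = v} : Language α) := by
    intro v
    refine P4_933.regular_of_class φ (GridG_19.Ac G M 0 m) (M * G m) hMG (fun Y => nu Y = v) ?_
    intro u u' h1 h2 h3 h4 h5
    have := hfin u u' h1 h2 h3 h4 h5
    simp only [this]
  have hregn : ∀ v, Language.IsRegular ({X | D.ν X = v} : Language α) := fun v =>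
    Last_749.reg_nu Two_621.act φ (x K) (fun u => nu2 u 1) nu hreg1 v
  have hCT : ∀ a b, HL 1 ({X | X ∈ D.XX ∧ Two_621.act a (X.map φ).prod + D.ν X = b} :
      Language α) := fun a b => Last_749.hfib hfew D.z Two_621.act φ D.ν hregn a b
  have hregE : Language.IsRegular ({X | D.E X ∨ BT Ms G M m (X.length - x K)} : Language α) := by
    refine P4_933.regular_of_class φ (D.z + N + x K + GridG_19.Am G M 0 m) (M * G m) hMG
      (fun X => D.E X ∨ BT Ms G M m (X.length - x K)) ?_
    have key : ∀ u u' : List α, D.z + N + x K + GridG_19.Am G M 0 m ≤ u.length →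
        D.z + N + x K + GridG_19.Am G M 0 m ≤ u'.length →
        u.take (D.z + N + x K + GridG_19.Am G M 0 m) =
          u'.take (D.z + N + x K + GridG_19.Am G M 0 m) →
        u.length % (M * G m) = u'.length % (M * G m) →
        (D.E u ∨ BT Ms G M m (u.length - x K)) → (D.E u' ∨ BT Ms G M m (u'.length - x K)) := by
      intro u u' h1 h2 h3 h4 h
      rcases h with ⟨t, t1, t2, t3, t4⟩ | h
      · refine Or.inl ⟨t, t1, t2, ?_, ?_⟩
        · have t2' : t < D.z + N := t2
          omega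
        · have t2' : t < D.z + N := t2
          have e1 : u'.take t = u.take t := by
            have := congrArg (fun l => l.take t) h3
            simp only [List.take_take] at this
            rw [min_eq_left (by omega)] at this
            exact this.symm
          rw [e1]
          exact t4
      · exact Or.inr (BT_per hMd hGd (by omega) (by omega) (sub_mod (by omega) (by omega) h4) h)
    intro u u' h1 h2 h3 h4 _
    exact ⟨key u u' h1 h2 h3 h4, key u' u h2 h1 h3.symm h4.symm⟩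
  have hBT : ∀ a b, HL 1 ({X | X ∈ D.Bad ∧ Two_621.act a (X.map φ).prod + D.ν X = b} :
      Language α) := by
    intro a b
    have h1 : Language.IsRegular ((Last_749.XX n Sx D.z : Language α) ⊓
        (({X | D.E X ∨ BT Ms G M m (X.length - x K)} : Language α) ⊓
        ({X | Two_621.act a (X.map φ).prod + D.ν X = b} : Language α))) :=
      (Reg_852.HL.isRegular (Last_749.HL_XX (k := 0) n Sx D.z)).inf
        (hregE.inf (Last_749.reg_T Two_621.act φ D.ν hregn a b))
    refine (hfew _ h1 (D.z + 1)).congr fun w => ?_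
    constructor
    · rintro ⟨⟨g1, g2⟩, g3⟩
      exact ⟨⟨g1, g2, g3⟩, Last_749.nw_XX g1⟩
    · rintro ⟨⟨g1, g2, g3⟩, _⟩
      exact ⟨⟨g1, g2⟩, g3⟩
  have hz : 0 < D.z := by
    show 0 < 3 * x K + 3 * N + n + 1
    omega
  have htail : ∀ s, HL 1 ({w | (∀ X ∈ D.XX, ¬ X <+: w) ∧ (w.map φ).prod = s} : Language α) :=
    fun s => Last_749.HL_rest hfew D.z φ s
  refine Top5_120.top5 Two_621.act (fun a b s => Two_621.act_add a b s)
    (fun v => Two_621.act_one v) (fun v s t => (Two_621.act_mul v s t).symm)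
    (fun s t h => Two_621.act_faithful h) φ D.ν D.XX D.Bad (Last_749.pcode hz)
    (fun X hX => hX.1) D.LP1 D.LP2 ?_ ?_ hCT hBT htail ?_ ?_ s
  · intro v
    refine finite_of_len (N := x K + N) ?_
    rintro P ⟨X0, p, rfl, h1, h2⟩
    have h3 := (hlen _ _ h2).2
    have h1' : X0.length = x K := h1
    rw [List.length_append]
    omega
  · intro v
    refine finite_of_len (N := x K + 1) ?_
    rintro P ⟨k, hk, h1, h2⟩
    have := hxlt k K hk
    have h1' : P.length = x k := h1
    omega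
  · intro X hX hXb v
    obtain ⟨P, Q, h1, h2, h3⟩ := InstA_425.c1 hOk X hX hXb v
    refine ⟨P, Q, h1, h2, fun a P' hP' => ?_⟩
    exact h3 a P' hP'
  · intro X hX Y hY v
    obtain ⟨P, Q, h1, h2, h3⟩ := InstA_425.c2 hOk X hX Y hY v
    refine ⟨P, Q, h1, h2, fun a P' hP' => ?_⟩
    rcases h3.2 a P' hP' with ⟨X', g1, g2, g3⟩ | ⟨X1, g1, X2, g2, g3, g4⟩
    · exact Or.inr ⟨X', g1, g2, g3⟩
    · exact Or.inl ⟨X1, g1, X2, g2.1, g3.symm, g4⟩

end Crest.Agent.R320.Fin_754
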