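import Crest.Agent.R320.End_532
import Crest.Agent.R320.GridG_19
import Crest.Agent.R320.ExactR_237
import Crest.Agent.R320.LWallAll_922
import Crest.Agent.R320.P4_933
import Crest.Agent.R320.Block_467
import Crest.Agent.R320.Bridge_975
import Crest.Agent.R320.FinR_755

/-! Row 320, helper755: the join. -/

set_option autoImplicit false

namespace Crest.Agent.R320.Fin_755

open Crest.RegLang Crest.Agent.R320.Hk_851

theorem free_PN {α : Type*} {Wo : List α → Prop} {B W : ℕ}
    (h : ∀ X : List α, (∀ t < X.length, ¬ Wo (X.take t)) →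
      ∃ (u x v : List α) (k : ℕ), u.length ≤ B ∧ x.length ≤ W ∧ v.length ≤ B ∧
        X = u ++ (List.replicate k x).flatten ++ v) (u : List α)
    (hu : ∀ t < u.length, ¬ Wo (u.take t)) :
    u ∈ (Crest.Agent.R320.BddReg_746.PN (max B W) 2 : Language α) := by
  obtain ⟨a, x, v, k, h1, h2, h3, rfl⟩ := h u hu
  refine Language.mem_mul.2 ⟨a ++ (List.replicate k x).flatten,
    ⟨a, x, k, by omega, by omega, rfl⟩, v, ?_, rfl⟩
  exact Language.mem_mul.2 ⟨v, ⟨v, [], 0, by omega, by simp, by simp [Crest.Agent.R320.BddReg_746.pw]⟩, [], rfl,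
    by simp⟩

theorem fin_of (α : Type) [Finite α] (S : Type) [Monoid S] [Finite S] (V : Type)
    [AddCommGroup V] [Finite V] (act : V → S → V)
    (hadd : ∀ a b s, act (a + b) s = act a s + act b s)
    (hone : ∀ v, act v 1 = v) (hmul : ∀ v s t, act v (s * t) = act (act v s) t)
    (hfaith : ∀ s t, (∀ v, act v s = act v t) → s = t) (φ : α → S) (s : S) :
    HL 3 ({w | (w.map φ).prod = s} : Language α) := by
  classical
  have := Fintype.ofFinite S
  have := Fintype.ofFinite V
  obtain ⟨m, r, hgrid⟩ := GridG_19.grid S V act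
  set C0 := r + m with hC0
  obtain ⟨K, hexact⟩ := Crest.Agent.R320.ExactR_237.exact_gadget α S V φ act (2 * C0 + 2)
  obtain ⟨Ms, hcard, hMs, hgrid⟩ := hgrid (2 ^ (K + 1))
  obtain ⟨G, hG, hGd, hGc, hrul⟩ := ruler K m r Ms hcard hMs
  obtain ⟨lam, rho, nu1, hsound, hlam, hrho, hcompl, hnu⟩ :=
    hgrid G 0 hG hGd hGc α (fun w => (w.map φ).prod) (fun u v => by simp)
  set M := ∏ q ∈ Ms, q with hM
  have hMpos : 0 < M := Finset.prod_pos fun q hq => (hMs q hq).1.pos
  set A := GridG_19.Am G M 0 m with hA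
  obtain ⟨c, hcm, hsp, hthin⟩ := hrul (A + 1) 0
  obtain ⟨lam2, rho2, nu2, hex2, hI⟩ := hexact c (fun i j h _ => hcm i j h)
  set p0 := c K with hp0
  obtain ⟨n, -, B, Wo, hLW, hgap, -, -, hfree⟩ :=
    LWallAll_922.walls_all_left α (2 * p0 + 2 * (A + 1) + 1) (by omega)
  let g : Sc2n_937.Geo α :=
    { Wo := Wo, n := n, p0 := p0, N1 := A + 1, q0 := n + 2 * p0 + 2 * A + M
      z := p0 + (A + 1) + (n + 2 * p0 + 2 * A + M)
      loc := hLW.app, hz := rfl, hq := by omega, hN := by omega, hqp := by omega }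
  have hcK : ∀ k, k < K → c k ≤ p0 := fun k h => (hcm k K h).le
  have hXXiff : ∀ X : List α, g.XX X ↔ P4_933.XX Wo g.z X := by
    intro X
    constructor
    · rintro ⟨h1, h2, h3⟩; exact ⟨h2, h1, fun t ht hz => h3 t hz ht⟩
    · rintro ⟨h1, h2, h3⟩; exact ⟨h2, h1, fun t hz ht => h3 t ht hz⟩
  refine End_532.joint act hadd hone hmul hfaith φ g nu1 (fun u => nu2 u 1) K c lam rho lam2
    (fun k Q => rho2 k Q 1) (fun Y => (∃ q ∈ Ms, q ∣ Y) ∨ GridG_19.BadG G M 0 m Y) C0
    ?_ ?_ ?_ hcK ?_ ?_ hsp ?_ ?_ ?_ ?_ ?_ s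
  · intro P v h
    have := (hlam P v h).2
    show P.length ≤ A + 1
    omega
  · intro P Q u b h1 h2
    exact hsound P Q u b h1 h2
  · intro Y h1 h2 u
    have h1' : n + 2 * p0 + 2 * A + M ≤ Y.length := h1
    obtain ⟨P, Q, e, h3, h4⟩ := hcompl Y (by omega) (by omega)
      (fun q hq hd => h2 (Or.inl ⟨q, hq, hd⟩)) (fun h => h2 (Or.inr h)) u
    exact ⟨P, Q, e.symm, h3, h4⟩
  · intro k hk P Q v u h1 h2 h3 h4
    have := hex2 k hk P Q 1 v u h1 h3 h4
    rw [mul_one] at this
    exact this
  · intro P Q h1 h2 hne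
    have hlen : 0 < Q.length := List.length_pos_iff.2 hne
    have := hgap (P ++ Q) P.length (P ++ Q).length (by rw [List.length_append]; omega) le_rfl
      (by rw [List.take_left]; exact h1) (by rw [List.take_length]; exact h2)
    rw [List.length_append] at this
    show 2 * p0 + 2 * (A + 1) < Q.length
    omega
  · intro τ hτ J hJ
    have hτ' : p0 + (A + 1) + (n + 2 * p0 + 2 * A + M) ≤ τ + p0 := hτ
    refine hthin (τ - p0) (by omega) J fun k hk => ?_
    obtain ⟨hk1, k', h1, h2, h3⟩ := hJ k hk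
    refine ⟨hk1, k', h1, h2, ?_⟩
    have hck := hcK k hk1
    have e : τ + c k' - c k - g.p0 = τ - p0 + c k' - c k := by
      show τ + c k' - c k - p0 = τ - p0 + c k' - c k
      omega
    rw [e] at h3
    exact h3
  · intro X0 v hX0
    obtain ⟨I, h1, h2⟩ := hI X0 1 v (fun k hk => by
      have := hcK k hk
      have h' : X0.length = p0 := hX0
      omega)
    exact ⟨I, h1, h2⟩
  · show 0 < p0 + (A + 1) + (n + 2 * p0 + 2 * A + M)
    omega
  · intro x y
    have hreg : Language.IsRegular ({X | act (act x ((X.take p0).map φ).prod + nu2 (X.take p0) 1)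
        ((X.drop p0).map φ).prod + nu1 (X.drop p0) = y} : Language α) := by
      refine Crest.Agent.R320.Bridge_975.reg_of_local φ (p0 + GridG_19.Ac G M 0 m) (M * G m)
        (Nat.mul_pos hMpos (hG m)) _ ?_
      intro q q' h1 h2 h3 h4 h5
      have e1 : q.take p0 = q'.take p0 := by
        have := congrArg (fun l => l.take p0) h3
        simp only [List.take_take, min_eq_left (Nat.le_add_right p0 (GridG_19.Ac G M 0 m))] at this
        exact this
      have e2 : ((q.drop p0).map φ).prod = ((q'.drop p0).map φ).prod := by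
        have k1 : ∀ w : List α, w.drop p0 = (w.take (p0 + GridG_19.Ac G M 0 m)).drop p0 ++
            w.drop (p0 + GridG_19.Ac G M 0 m) := by
          intro w
          rw [← List.take_drop, ← List.drop_drop, List.take_append_drop]
        rw [k1 q, k1 q', List.map_append, List.prod_append, List.map_append, List.prod_append,
          h3, h5]
      have e3 : nu1 (q.drop p0) = nu1 (q'.drop p0) := by
        refine hnu _ _ (by rw [List.length_drop]; omega) (by rw [List.length_drop]; omega) ?_ ?_ e2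
        · rw [List.take_drop, List.take_drop, h3]
        · rw [List.length_drop, List.length_drop]
          have a1 : q.length = (q.length - p0) + p0 := by omega
          have a2 : q'.length = (q'.length - p0) + p0 := by omega
          rw [a1, a2] at h4
          exact Nat.ModEq.add_right_cancel' _ h4
      rw [e1, e2, e3]
    refine (P4_933.hl_XX (z := g.z) (fun P Q h => hLW.app P Q h) hLW.len
      (B := max B (2 * p0 + 2 * (A + 1) + 1)) (R := 2) (free_PN hfree) hreg).congr fun w => ?_
    constructor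
    · rintro ⟨h1, h2⟩
      exact ⟨(hXXiff w).1 h1, h2⟩
    · rintro ⟨h1, h2⟩
      exact ⟨(hXXiff w).2 h1, h2⟩
  · intro s
    have hreg : Language.IsRegular ({w | (w.map φ).prod = s} : Language α) := by
      refine Crest.Agent.R320.Bridge_975.reg_of_local φ 0 1 Nat.one_pos _ ?_
      intro q q' _ _ _ _ h
      simp only [List.drop_zero] at h
      rw [h]
    refine ((P4_933.hl_NB (z := g.z) (fun P Q h => hLW.app P Q h) hLW.len
      (B := max B (2 * p0 + 2 * (A + 1) + 1)) (R := 2) (free_PN hfree) hreg).mono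
      (by norm_num)).congr fun w => ?_
    constructor
    · rintro ⟨h1, h2⟩
      exact ⟨(P4_933.NB_iff Wo g.z w).2 fun P hp hX => h1 P ((hXXiff P).2 hX) hp, h2⟩
    · rintro ⟨h1, h2⟩
      exact ⟨fun X hX hp => (P4_933.NB_iff Wo g.z w).1 h1 X hp ((hXXiff X).1 hX), h2⟩

/-- **the fibres of every finite monoid have height at most 3** -/
theorem fin (α : Type) [Finite α] (S : Type) [Monoid S] [Finite S] (φ : α → S) (s : S) :
    HL 3 ({w | (w.map φ).prod = s} : Language α) := by
  have hf := Fintype.ofFinite S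
  obtain ⟨act, hadd, hone, hmul, hfaith⟩ := Crest.Agent.R320.Blk467.exists_module S
  exact fin_of α S (S → ZMod 2) act hadd hone hmul hfaith φ s

end Crest.Agent.R320.Fin_755
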