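import Crest.Agent.R320.Inst_385
import Crest.Agent.R320.HZ_847
import Crest.Agent.R320.XT_176
import Crest.Agent.R320.Sp_273
import Crest.Agent.R320.ExactR_237
import Crest.Agent.R320.Univ_582
import Crest.Agent.R320.WallU_228
import Crest.Agent.R320.G1b_76

/-! Row 320: final composition (helper76) from landed leaves only:
`Top5_110.top_sem`, `Inst_385`, `HZ_847`, `G1b_76.g1b`, `Sp_273.spoil`, `ExactR_237.exact_gadget`,
`WallU_228.walls_full`, `XT_176.regular_of_mod`, `Univ_582.final`. -/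

set_option autoImplicit false

namespace Crest.Agent.R320.Fin_76

open Crest.Agent.R320.Hk_851 Crest.Agent.R320.Code110 Finset

/-- the faithful module -/
def act (S : Type) [Monoid S] (v : S → ZMod 2) (s : S) : S → ZMod 2 := fun u => v (s * u)

theorem badN_per {Ms : Finset ℕ} {M m b : ℕ} (hMs : ∀ k ∈ Ms, k ∣ M) (t : ℕ) :
    Sp_273.BadN Ms M m b (t + M * b ^ m) ↔ Sp_273.BadN Ms M m b t := by
  unfold Sp_273.BadN
  refine or_congr ?_ ?_
  · constructor
    · rintro ⟨k, hk, h⟩
      exact ⟨k, hk, (Nat.dvd_add_left (Dvd.dvd.mul_right (hMs k hk) _)).1 h⟩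
    · rintro ⟨k, hk, h⟩
      exact ⟨k, hk, (Nat.dvd_add_left (Dvd.dvd.mul_right (hMs k hk) _)).2 h⟩
  · have key : ∀ j < m, (t + M * b ^ m) / b ^ j % b = t / b ^ j % b := by
      intro j hj
      rw [← Nat.mod_mul_right_div_self, ← Nat.mod_mul_right_div_self, ← pow_succ]
      congr 1
      obtain ⟨c, hc⟩ : b ^ (j + 1) ∣ M * b ^ m := Dvd.dvd.mul_left (pow_dvd_pow b hj) _
      rw [hc, Nat.add_mul_mod_self_left]
    constructor
    · rintro ⟨j, hj, h⟩
      refine ⟨j, hj, ?_⟩
      rw [key j hj] at h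
      exact h
    · rintro ⟨j, hj, h⟩
      refine ⟨j, hj, ?_⟩
      rw [key j hj]
      exact h

theorem row_type (β : Type) [Finite β] (S : Type) [Monoid S] [Finite S] (f : β → S) (s : S) :
    HL 3 ({w | (w.map f).prod = s} : Language β) := by
  classical
  haveI : Fintype S := Fintype.ofFinite S
  obtain ⟨m, r, h1⟩ := G1b_76.g1b S (S → ZMod 2) (act S)
  obtain ⟨K, h2⟩ := ExactR_237.exact_gadget β S (S → ZMod 2) f (act S) (2 + 2 * (r + m))
  obtain ⟨Ms, M, hcard, hMs, hM, h3⟩ := h1 (2 ^ (K + 1))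
  -- the base
  set b : ℕ := 1 + M * (4 * 2 ^ (K + 1) + 8) with hb
  have hb1 : 4 * M + 4 < b := by
    have : M * 4 * 1 ≤ M * 4 * 2 ^ (K + 1) := Nat.mul_le_mul_left _ Nat.one_le_two_pow
    rw [hb, mul_add]
    have e : M * (4 * 2 ^ (K + 1)) = M * 4 * 2 ^ (K + 1) := by ring
    omega
  have hb2 : 4 * M * 2 ^ (K + 1) + 3 * M < b := by
    rw [hb, mul_add]
    have e : M * (4 * 2 ^ (K + 1)) = 4 * M * 2 ^ (K + 1) := by ring
    omega
  have hbc : Nat.Coprime b M := by
    rw [hb, Nat.coprime_add_mul_left_left]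
    exact Nat.coprime_one_left M
  have hb0 : 0 < b := by omega
  obtain ⟨lam, rho, nu, g1, g2, g3, g4⟩ := h3 b hb1 hbc β f
  set N1 : ℕ := b ^ m with hN1
  obtain ⟨K0, c, -, -, cmono, cgap, cgol, cspoil⟩ := Sp_273.spoil K N1 m r M b Ms hcard
    (fun k hk => ⟨(hMs k hk).1.le, (hMs k hk).2.2⟩) hM hb2 hbc
  obtain ⟨lam2, rho2, nu2, e1, e2⟩ := h2 c (fun i j hij _ => cmono hij)
  obtain ⟨n, c', P', S', hn, hP', wloc, wgap, -, -, hfew⟩ :=
    WallU_228.walls_full (α := β) (2 * c K + 2 * N1)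
  have hpr : ∀ u w : List β, ((u ++ w).map f).prod = (u.map f).prod * (w.map f).prod := by
    intro u w; simp
  let D : Inst_385.Dat β S (S → ZMod 2) :=
    { φ := fun u => (u.map f).prod
      hφ := hpr
      act := act S
      hadd := fun v w s => rfl
      hmul := fun v s t => by funext u; show v (s * t * u) = v (s * (t * u)); rw [mul_assoc]
      Wl := WallU_228.Wo n S'
      n := n
      W := 2 * c K + 2 * N1
      wloc := wloc
      wgap := by
        intro P D h1 h2 h3
        by_contra hlt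
        have h4 := wgap (P ++ D) D.length h2 (List.length_pos_iff.2 h3) (by omega)
        apply h4
        have : (P ++ D).length - D.length = P.length := by rw [List.length_append]; omega
        rw [this, List.take_left]
        exact h1
      z := 4 * c K + 2 * N1 + n + 1
      p0 := c K
      N1 := N1
      K := K
      c := c
      rB := r + m
      hc := fun k hk => (cmono hk).le
      hz := le_rfl
      hW := le_rfl
      Bd := Sp_273.BadN Ms M m b
      Lam := fun v P => lam P = some v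
      nu1 := nu
      nu2 := fun X => nu2 X 1
      lam := lam2
      hlen := fun v P h => g1 P v h
      hG := by
        intro Y _ hB v
        have hk : ∀ k ∈ Ms, ¬ k ∣ Y.length := fun k hk h => hB (Or.inl ⟨k, hk, h⟩)
        have hd : ∀ j < m, M ≤ Y.length / b ^ j % b ∧ Y.length / b ^ j % b + M + 1 ≤ b := by
          intro j hj
          by_contra h
          exact hB (Or.inr ⟨j, hj, h⟩)
        obtain ⟨P, Q, hPQ, hP, hQ⟩ := g3 Y hk hd v
        obtain ⟨x, hx⟩ := Option.isSome_iff_exists.1 hQ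
        refine ⟨P, Q, hPQ.symm, hP, ?_⟩
        intro v' P' hP'
        have a1 := g2 P Q v x hP hx
        have a2 := g2 P' Q v' x hP' hx
        rw [hPQ] at a1
        exact a2.symm.trans a1
      thin := by
        intro n0 hn0
        refine ⟨((range K ×ˢ range K).filter (fun p : ℕ × ℕ => p.1 ≠ p.2 ∧
          Sp_273.BadZ Ms M m b ((n0 : ℤ) + c p.2 - c p.1))).image Prod.fst, ?_, ?_⟩
        · exact le_trans card_image_le (cspoil n0)
        · intro k hk k' hk' hne hbad
          rw [mem_image]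
          refine ⟨(k, k'), ?_, rfl⟩
          rw [mem_filter, mem_product, mem_range, mem_range]
          refine ⟨⟨hk, hk'⟩, hne.symm, ?_⟩
          rw [← Sp_273.badZ_cast] at hbad
          have hle : c k ≤ n0 + c k' := by
            have := (cmono hk).le
            omega
          push_cast [Nat.cast_sub hle] at hbad
          exact hbad
      res := by
        intro k₁ _ k₂ _ k₃ _ k₄ _ h12 _ h
        by_contra hne
        have := cgol k₁ k₂ k₃ k₄ h12 hne
        have hp : (0 : ℤ) ≤ N1 := Int.natCast_nonneg _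
        omega
      hE := by
        intro X v hX
        obtain ⟨I, hI, hIk⟩ := e2 X 1 v (fun k hk => hX ▸ (cmono hk).le)
        refine ⟨I, hI, ?_⟩
        intro k hk
        obtain ⟨hkK, hl, hr⟩ := hIk k hk
        refine ⟨hkK, hl, ?_⟩
        intro v' P' hP' hv'
        obtain ⟨x, hx⟩ := Option.isSome_iff_exists.1 hr
        have hck : c k ≤ X.length := hX ▸ (cmono hkK).le
        have a1 := e1 k hkK (X.take (c k)) (X.drop (c k)) 1 v x
          (by rw [List.length_take]; exact min_eq_left hck) hl hx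
        have a2 := e1 k hkK P' (X.drop (c k)) 1 v' x hP' hv' hx
        rw [List.take_append_drop, mul_one] at a1
        rw [mul_one] at a2
        exact a2.symm.trans a1 }
  -- heights
  have hXX : ∀ u : List β, u ∈ HZ847.XX n S' D.z ↔ u ∈ D.XX := by
    intro u
    constructor
    · rintro ⟨a1, a2, a3⟩
      exact ⟨a1, a2, fun t ht1 ht2 h => a3 t ht1 ht2 h.2⟩
    · rintro ⟨a1, a2, a3⟩
      exact ⟨a1, a2, fun t ht1 ht2 h => a3 t ht1 ht2 ⟨ht2.le, h⟩⟩
  have hBad : ∀ u : List β, u ∈ HZ847.Bad n S' D.z D.p0 D.N1 D.Bd ↔ u ∈ D.Bad := by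
    intro u
    constructor
    · rintro ⟨a1, a2⟩
      refine ⟨(hXX u).1 a1, ?_⟩
      rcases a2 with ⟨t, b1, b2, b3, b4⟩ | a2
      · exact Or.inl ⟨t, b1, b2, b3, b4⟩
      · exact Or.inr a2
    · rintro ⟨a1, a2⟩
      refine ⟨(hXX u).2 a1, ?_⟩
      rcases a2 with ⟨t, b1, b2, b3, b4⟩ | a2
      · exact Or.inl ⟨t, b1, b2, b3, b4⟩
      · exact Or.inr a2
  have hPm : 0 < M * b ^ m := Nat.mul_pos hM (pow_pos hb0 m)
  have hreg : ∀ x, Language.IsRegular ({w | nu w = x} : Language β) := fun x =>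
    XT_176.regular_of_mod f nu (b ^ m) (M * b ^ m) hPm (fun Y Y' => g4 Y Y') x
  have hzz : D.z = 4 * c K + 2 * N1 + n + 1 := rfl
  have hp0 : D.p0 = c K := rfl
  have H1 : HL 1 D.XX := ((HZ847.hl_XX (n := n) (S := S') D.z).mono (by norm_num)).congr fun u => (hXX u).symm
  have H2 : HL 1 D.Bad := (HZ847.H2 (n := n) (S := S') hfew (z := D.z) (p0 := D.p0) (N1 := D.N1)
    (La := 0) hPm (BadT := D.Bd)
    (fun t _ => badN_per (fun k hk => (hMs k hk).2.2) t)).congr fun u => (hBad u).symm
  have H3 : ∀ x y, HL 1 (ZT D.XX D.T x y) := by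
    intro x y
    refine (HZ847.H3 (n := n) (S := S') hfew (φ := D.φ) (act := D.act) (nu1 := D.nu1)
      (nu2 := D.nu2) (z := D.z) (p0 := D.p0) (by simp [D]) D.hφ (by rw [hzz, hp0]; omega)
      hreg x y).congr ?_
    intro u
    exact ⟨fun h => ⟨(hXX u).2 h.1, h.2⟩, fun h => ⟨(hXX u).1 h.1, h.2⟩⟩
  have H4 : ∀ s, HL 3 ({w | (∀ u ∈ D.XX, ¬ u <+: w) ∧ D.φ w = s} : Language β) := by
    intro s
    refine ((HZ847.H4 (n := n) (S := S') hfew (φ := D.φ) (z := D.z) (by simp [D]) D.hφ s).mono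
      (by norm_num)).congr ?_
    intro w
    exact ⟨fun h => ⟨fun u hu => h.1 u ((hXX u).1 hu), h.2⟩,
      fun h => ⟨fun u hu => h.1 u ((hXX u).2 hu), h.2⟩⟩
  refine Top5_110.top_sem (φ := D.φ) (act := D.act) (XX := D.XX) (Bad := D.Bad) (T := D.T)
    (by simp [D]) D.hφ ?_ D.hmul ?_ D.pc D.bad_sub ?_ H1 H2 H3 H4
    (N1 := 0) (N2 := 1) (L1 := D.L1) (L2 := D.L2) ?_ ?_ D.C1 D.C2 s
  · intro v
    funext u
    show v (1 * u) = v u
    rw [one_mul]
  · intro s t h
    by_contra hne
    have h1 := congrFun (h (Pi.single s 1)) 1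
    change (Pi.single s (1 : ZMod 2) : S → ZMod 2) (s * 1)
      = (Pi.single s (1 : ZMod 2) : S → ZMod 2) (t * 1) at h1
    rw [mul_one, mul_one, Pi.single_eq_same, Pi.single_eq_of_ne (Ne.symm hne)] at h1
    exact one_ne_zero h1
  · intro u _ v v'
    exact D.hT u v v'
  · intro v
    refine (List.finite_length_le β (D.p0 + D.N1)).subset ?_
    rintro P ⟨hP1, hP2⟩
    have h := D.hlen _ _ hP2
    rw [List.length_drop] at h
    show P.length ≤ _
    omega
  · intro v
    refine (List.finite_length_le β D.p0).subset ?_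
    rintro P ⟨k, hk, hP1, hP2⟩
    show P.length ≤ _
    rw [hP1]
    exact D.hc k hk

end Crest.Agent.R320.Fin_76
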