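import Crest.Agent.R320.Nest3_151

/-!
# Row 320: two schemes on one chain give height two (helper151)
-/

set_option autoImplicit false

namespace Crest.Agent.R320.Nest_151

open Crest.RegLang Crest.Agent.R320.Hk_851

universe u

variable {α : Type u} {σ : Type}

/-- push forward of a function under right multiplication by `s` -/
noncomputable def pushM {S : Type} [Monoid S] [Fintype S] (s : S) (v : S → ZMod 2) : S → ZMod 2 :=
  open Classical in fun y => ∑ x, if x * s = y then v x else 0

section push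

variable {S : Type} [Monoid S] [Fintype S]

theorem pushM_sub (s : S) (v w : S → ZMod 2) : pushM s (v - w) = pushM s v - pushM s w := by
  funext y
  simp only [pushM, Pi.sub_apply]
  rw [← Finset.sum_sub_distrib]
  refine Finset.sum_congr rfl fun x _ => ?_
  split_ifs <;> simp

theorem pushM_mul (s s' : S) (v : S → ZMod 2) : pushM s' (pushM s v) = pushM (s * s') v := by
  classical
  funext y
  simp only [pushM]
  have h1 : ∀ z : S, (if z * s' = y then ∑ x, (if x * s = z then v x else 0) else 0) =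
      ∑ x, (if x * s = z then (if z * s' = y then v x else 0) else 0) := by
    intro z
    by_cases h : z * s' = y
    · simp only [h, if_true]
    · simp only [h, if_false, ite_self, Finset.sum_const_zero]
  simp only [h1]
  rw [Finset.sum_comm]
  refine Finset.sum_congr rfl fun x _ => ?_
  rw [Finset.sum_ite_eq]
  simp only [Finset.mem_univ, if_true, mul_assoc]

/-- token map of a step: action of `μ t` and noise `ν t` -/
noncomputable def TT (μ : σ → S) (ν : σ → S → ZMod 2) (t : σ) (v : S → ZMod 2) : S → ZMod 2 :=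
  pushM (μ t) v + ν t

theorem pushM_one (v : S → ZMod 2) : pushM (1 : S) v = v := by
  classical
  funext y
  simp [pushM]

theorem act_TT (μ : σ → S) (ν : σ → S → ZMod 2) (ts : List σ) (v w : S → ZMod 2) :
    act (TT μ ν) ts v - act (TT μ ν) ts w = pushM (ts.map μ).prod (v - w) := by
  induction ts generalizing v w with
  | nil => rw [act_nil, act_nil, List.map_nil, List.prod_nil, pushM_one]
  | cons t ts ih =>
    rw [act_cons, act_cons, ih, List.map_cons, List.prod_cons, ← pushM_mul]
    congr 1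
    rw [pushM_sub]
    simp only [TT]
    abel

noncomputable def dlt (s : S) : S → ZMod 2 := open Classical in fun y => if s = y then 1 else 0

theorem pushM_dlt (s x : S) : pushM s (dlt x) = dlt (x * s) := by
  classical
  funext y
  simp only [pushM, dlt]
  rw [Finset.sum_eq_single x]
  · simp
  · intro b _ hb
    rw [if_neg (Ne.symm hb), ite_self]
  · intro h
    exact absurd (Finset.mem_univ x) h

theorem dlt_inj {s s' : S} (h : dlt s = dlt s') : s = s' := by
  classical
  have h1 := congrFun h s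
  simp only [dlt, if_true] at h1
  by_contra hne
  rw [if_neg (Ne.symm hne)] at h1
  exact one_ne_zero h1

theorem exists_dec (μ : σ → S) (ν : σ → S → ZMod 2) :
    ∃ dec : ((S → ZMod 2) → (S → ZMod 2)) → S,
      ∀ ts : List σ, dec (act (TT μ ν) ts) = (ts.map μ).prod := by
  classical
  refine ⟨fun f => if h : ∃ s, f (dlt 1) - f 0 = dlt s then h.choose else 1, fun ts => ?_⟩
  have h1 : act (TT μ ν) ts (dlt 1) - act (TT μ ν) ts 0 = dlt (ts.map μ).prod := by
    rw [act_TT, sub_zero, pushM_dlt, one_mul]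
  have h2 : ∃ s, act (TT μ ν) ts (dlt 1) - act (TT μ ν) ts 0 = dlt s := ⟨_, h1⟩
  simp only [dif_pos h2]
  apply dlt_inj
  rw [← h2.choose_spec, h1]

end push

/-- languages without steps -/
theorem base_HL {S : Type} [Monoid S] {nxt : List α → Option (ℕ × σ)} {X : Set (List α)} {k : ℕ}
    (μ : σ → S) (s : S) (R : List α) : HL k (Lng nxt X (∅ : Set σ) μ s R) := by
  refine HL.finite ((Set.finite_singleton R).subset ?_)
  rintro Q ⟨-, ts, hW, hD, -⟩
  cases hW with
  | nil _ => rfl
  | @cons _ c t ts' _ h _ => exact absurd (hD t (by simp)) (by simp)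

/-- product along a walk -/
theorem walk_prod {S : Type} [Monoid S] {nxt : List α → Option (ℕ × σ)} (φ : α → S) (μ : σ → S)
    (hμ : ∀ {Q c t}, nxt Q = some (c, t) → μ t = ((Q.take c).map φ).prod)
    {Q : List α} {ts : List σ} {R : List α} (h : Walk nxt Q ts R) :
    (Q.map φ).prod = (ts.map μ).prod * (R.map φ).prod := by
  induction h with
  | nil _ => simp
  | @cons Q c t ts R h _ ih =>
    rw [List.map_cons, List.prod_cons, mul_assoc, ← ih, hμ h, ← List.prod_append, ← List.map_append,
      List.take_append_drop]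

/-- **the concrete target**: one chain, two schemes -/
def TwoSch {S : Type} [Monoid S] [Fintype S] (φ : α → S) (X : Set (List α)) : Prop :=
  ∃ (σ : Type) (nxt : List α → Option (ℕ × σ)) (n B : ℕ) (μ : σ → S) (Bad : Set σ),
    ChainOK nxt n B X ∧
    (∀ {Q c t}, nxt Q = some (c, t) → μ t = ((Q.take c).map φ).prod) ∧
    ∃ (ν1 : σ → S → ZMod 2) (l1 : List α → Option (S → ZMod 2))
      (r1 : List α → Option (ℕ × (S → ZMod 2))) (B1 : ℕ),
      SchemeOK nxt n B X (TT μ ν1) l1 r1 Set.univ Badᶜ B1 ∧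
      ∃ (V2 : Type) (_ : Finite V2) (_ : Nonempty V2) (T2 : σ → V2 → V2)
        (l2 : List α → Option V2) (r2 : List α → Option (ℕ × V2)) (B2 : ℕ)
        (dec : (V2 → V2) → (Function.End (S → ZMod 2))ᵐᵒᵖ),
        SchemeOK nxt n B X T2 l2 r2 Bad Bad B2 ∧
        (∀ ts : List σ, (∀ t ∈ ts, t ∈ Bad) → dec (act T2 ts) = (ts.map (muT (TT μ ν1))).prod)

/-- **HALF 1 from two schemes.** -/
theorem half1_of_two [Finite α] {S : Type} [Monoid S] [Fintype S] (φ : α → S) {X : Set (List α)}
    (hX : HL 0 (X : Language α)) (h : TwoSch φ X) (s : S) :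
    HL 2 ({w | w ∈ X ∧ (w.map φ).prod = s} : Language α) := by
  obtain ⟨σ, nxt, n, B, μ, Bad, hc, hμ, ν1, l1, r1, B1, hs1, V2, hf2, hn2, T2, l2, r2, B2, dec2,
    hs2, hd2⟩ := h
  have hX1 : HL 1 (X : Language α) := hX.mono (Nat.zero_le 1)
  have h1 : ∀ (s' : (Function.End (S → ZMod 2))ᵐᵒᵖ) (R : List α),
      HL 1 (Lng nxt X Bad (muT (TT μ ν1)) s' R) := fun s' R =>
    nest_step (k := 0) (D := (∅ : Set σ)) (muT (TT μ ν1)) hc hX hs2 (Set.empty_subset _)
      (fun t ht _ => ht) (fun s'' R' => base_HL _ _ _) dec2 hd2 s' R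
  obtain ⟨dec1, hd1⟩ := exists_dec μ ν1
  have h2 : ∀ (s' : S) (R : List α), HL 2 (Lng nxt X Set.univ μ s' R) := fun s' R =>
    nest_step (k := 1) (D := Bad) μ hc hX1 hs1 (Set.subset_univ _) (fun t _ ht => ht) h1 dec1
      (fun ts _ => hd1 ts) s' R
  have h3 := HL.biUnion (k := 2) (List.finite_length_le α B)
    (L := fun R => {Q | ∃ s' : S, (s' * (R.map φ).prod = s) ∧ Q ∈ Lng nxt X Set.univ μ s' R})
    (fun R _ => HL.iUnion fun s' => (HL.const _).setOf_and (h2 s' R))
  refine h3.congr fun w => ?_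
  constructor
  · rintro ⟨hw, hp⟩
    obtain ⟨ts, R, hW⟩ := Walk.total hc w
    have h4 := walk_prod φ μ hμ hW
    obtain ⟨Z, hZ⟩ := hW.path.suffix
    have h7 : R ∈ X := hc.suf (u := Z) (by rw [← hZ]; exact hw)
    exact ⟨R, (hc.none_lt h7 hW.end_none).le, (ts.map μ).prod, by rw [← h4]; exact hp, hw, ts, hW,
      fun _ _ => trivial, rfl⟩
  · rintro ⟨R, -, s', hs', hw, ts, hW, -, hp⟩
    refine ⟨hw, ?_⟩
    rw [walk_prod φ μ hμ hW, hp]
    exact hs'

end Crest.Agent.R320.Nest_151
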