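import Crest.Agent.R320.JointS_764
import Crest.Agent.R320.SemTop_445
import Crest.Agent.R320.GridG_19
import Crest.Agent.R320.GridRuler_257
import Crest.Agent.R320.Fib_81
import Crest.Agent.R320.ExactR_237
import Crest.Agent.R320.Univ_234
import Crest.Agent.R320.Nest4_151

set_option autoImplicit false

namespace Crest.Agent.R320.Fin_764

open Crest.RegLang Crest.Agent.R320.Hk_851 Crest.Agent.R320.GridG_19
open Crest.Agent.R320.JointS_764

noncomputable def pact {S : Type} [Monoid S] [Fintype S] (v : S → ZMod 2) (s : S) : S → ZMod 2 :=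
  Nest_151.pushM s v

section pact
variable {S : Type} [Monoid S] [Fintype S]

theorem pact_mul (v : S → ZMod 2) (s t : S) : pact (pact v s) t = pact v (s * t) :=
  Nest_151.pushM_mul s t v

theorem pact_zero (s : S) : pact (0 : S → ZMod 2) s = 0 := by
  have := Nest_151.pushM_sub s (0 : S → ZMod 2) 0
  simpa [pact] using this

theorem pact_add (v w : S → ZMod 2) (s : S) : pact (v + w) s = pact v s + pact w s := by
  have h1 := Nest_151.pushM_sub s (v + w) w
  rw [add_sub_cancel_right] at h1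
  show Nest_151.pushM s (v + w) = Nest_151.pushM s v + Nest_151.pushM s w
  rw [h1]; abel

theorem pact_faith (s t : S) (h : ∀ v : S → ZMod 2, pact v s = pact v t) : s = t := by
  classical
  have h1 := h (Nest_151.dlt 1)
  unfold pact at h1
  rw [Nest_151.pushM_dlt, Nest_151.pushM_dlt, one_mul, one_mul] at h1
  have h2 := congrFun h1 s
  by_contra hne
  have h3 : Nest_151.dlt s s = (1 : ZMod 2) := by simp [Nest_151.dlt]
  have h4 : Nest_151.dlt t s = (0 : ZMod 2) := by simp [Nest_151.dlt, Ne.symm hne]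
  rw [h3, h4] at h2
  exact absurd h2 (by decide)

end pact

theorem fibres (A : Type) [Finite A] (S : Type) [Monoid S] [Finite S] (f : A → S) (s : S) :
    HL 3 ({w | (w.map f).prod = s} : Language A) := by
  classical
  haveI := Fintype.ofFinite S
  obtain ⟨m, r, hgrid⟩ := grid S (S → ZMod 2) pact
  obtain ⟨K, hex⟩ := ExactR_237.exact_gadget A S (S → ZMod 2) f pact (2 + ((r + m) + (r + m)))
  obtain ⟨Ms, hMsc, hMs, hgrid⟩ := hgrid (4 ^ (K + 1))
  obtain ⟨M, hMdef⟩ : ∃ M, M = ∏ q ∈ Ms, q := ⟨_, rfl⟩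
  rw [← hMdef] at hgrid
  have hM : 0 < M := by
    rw [hMdef]; exact Finset.prod_pos fun q hq => (hMs q hq).1.pos
  obtain ⟨κ, hκ⟩ : ∃ κ, κ = 16 * 4 ^ K * M := ⟨_, rfl⟩
  obtain ⟨G, hG⟩ : ∃ G : ℕ → ℕ, ∀ k, G k = (2 ^ κ) ^ k := ⟨_, fun _ => rfl⟩
  have hGpos : ∀ k, 0 < G k := fun k => by rw [hG]; positivity
  have hGdvd : ∀ a b, a ≤ b → G a ∣ G b := fun a b hab => by
    rw [hG, hG]; exact pow_dvd_pow _ hab
  have hcop : ∀ k, Nat.Coprime M (G k) := by
    intro k
    rw [hMdef, hG]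
    refine Nat.Coprime.pow_right _ (Nat.Coprime.pow_right _ ?_)
    refine Nat.Coprime.prod_left fun q hq => ?_
    have h1 := (hMs q hq).2
    have h2 : 4 ≤ 4 ^ (K + 1) := by
      calc 4 = 4 ^ 1 := by norm_num
        _ ≤ 4 ^ (K + 1) := Nat.pow_le_pow_right (by norm_num) (by omega)
    exact (Nat.coprime_primes (hMs q hq).1 Nat.prime_two).2 (by omega)
  have hgrow : ∀ j, 16 * 4 ^ K * (M * G j) ≤ G (j + 1) := by
    intro j
    have h1 : κ < 2 ^ κ := Nat.lt_two_pow_self
    rw [hG (j + 1), pow_succ, ← hG j]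
    calc 16 * 4 ^ K * (M * G j) = G j * (16 * 4 ^ K * M) := by ring
      _ = G j * κ := by rw [hκ]
      _ ≤ G j * 2 ^ κ := Nat.mul_le_mul_left _ h1.le
  obtain ⟨N, hN⟩ : ∃ N, N = Am G M 0 m := ⟨_, rfl⟩
  obtain ⟨U, hU1, hU2, hU3, hU4⟩ := GridRuler_257.ruler K m Ms M G (Am G M 0) N hM
    (fun k hk => ⟨by rw [hMdef]; exact Finset.dvd_prod_of_mem _ hk, by
      have h1 := (hMs k hk).2
      have h2 : 4 ^ K ≤ 4 ^ (K + 1) := Nat.pow_le_pow_right (by norm_num) (by omega)
      omega⟩)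
    (hGpos 0) (fun j => hGdvd _ _ (Nat.le_succ j)) hgrow (hcop m)
  obtain ⟨L, hL⟩ : ∃ L, L = U * 4 ^ K := ⟨_, rfl⟩
  obtain ⟨W, hW⟩ : ∃ W, W = 2 * (N + L) + 1 := ⟨_, rfl⟩
  obtain ⟨n, Gg, B, Wo, hLW, hgap, -, -, hB⟩ := LWallAll_922.walls_all_left A W (by omega)
  have hcL : ∀ i < K, U * 4 ^ i ≤ L := by
    intro i hi
    rw [hL]
    exact Nat.mul_le_mul_left _ (Nat.pow_le_pow_right (by norm_num) hi.le)
  obtain ⟨lam2, rho2, nu2, hs2, hc2⟩ := hex (fun i => U * 4 ^ i) (fun i j hij _ => by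
    have := hU2 i j hij
    show U * 4 ^ i < U * 4 ^ j
    omega)
  obtain ⟨lam1, rho1, nu1, hs1, hl1, hr1, hc1, hfin⟩ := hgrid G 0 hGpos hGdvd hcop A
    (fun w => (w.map f).prod) (by intro u v; simp)
  obtain ⟨z, hz⟩ : ∃ z, z = L + N + n + 3 * L + (2 * N + M) + 1 + N + Ac G M 0 m := ⟨_, rfl⟩
  let D : Dat A S (S → ZMod 2) :=
    { φ := fun w => (w.map f).prod, act := pact, Wo := Wo, n := n, W := W, z := z, p0 := L,
      N := N, N' := 2 * N + M, K := K, L := L, C1 := r + m, R := 1 + ((r + m) + (r + m)),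
      c := fun i => U * 4 ^ i, lam1 := lam1, rho1 := rho1, nu1 := nu1,
      BadT := fun T => (∃ q ∈ Ms, q ∣ T) ∨ BadG G M 0 m T,
      lam2 := lam2, rho2 := fun k Q => rho2 k Q 1, nu2 := fun X => nu2 X 1 }
  have hOk : D.Ok := by
    refine
      { loc := fun P Q hQ => hLW.app P Q hQ
        sep := ?_
        s1 := fun P Q v b h1 h2 => hs1 P Q v b h1 h2
        l1 := ?_
        c1 := ?_
        s2 := ?_
        c2 := ?_
        ck := fun k hk => hcL k hk
        hL := ?_
        hrul := ?_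
        hsp := ?_
        hR := le_rfl
        hW := by show 2 * (N + L) ≤ W; omega
        hz := by show L + N + n + L + (2 * N + M) + 1 ≤ z; omega }
    · intro P Q hP hPQ hne
      have hl : 0 < Q.length := List.length_pos_of_ne_nil hne
      have := hgap (P ++ Q) P.length (P ++ Q).length (by simp; omega) le_rfl
        (by rw [List.take_left' rfl]; exact hP) (by rw [List.take_length]; exact hPQ)
      simpa using this
    · intro P v hP
      have := (hl1 P v hP).2
      show P.length ≤ N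
      omega
    · intro Y hY hbad v
      have hY' : 2 * N + M ≤ Y.length := hY
      have h1 : ∀ q ∈ Ms, ¬ q ∣ Y.length := fun q hq hd => hbad (Or.inl ⟨q, hq, hd⟩)
      obtain ⟨P, Q, h2, h3, h4⟩ := hc1 Y (by omega) (by omega) h1 (fun h => hbad (Or.inr h)) v
      obtain ⟨b, hb⟩ := Option.isSome_iff_exists.1 h4
      exact ⟨P, Q, h2.symm, h3, b, hb⟩
    · intro k hk P Q v b hPl hPQl h1 h2
      have := hs2 k hk P Q 1 v b hPl h1 h2
      rw [mul_one] at this
      exact this
    · intro X0 hX0 v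
      have hX0' : X0.length = L := hX0
      obtain ⟨I, hI, hIk⟩ := hc2 X0 1 v (fun k hk => by rw [hX0']; exact hcL k hk)
      refine ⟨I, by show 1 + ((r + m) + (r + m)) < I.card; omega, fun k hk => ?_⟩
      obtain ⟨h1, h2, h3⟩ := hIk k hk
      exact ⟨h1, h2, Option.isSome_iff_exists.1 h3⟩
    · intro i hi j hj
      have := hcL j hj
      show U * 4 ^ j ≤ U * 4 ^ i + L
      omega
    · intro i hi j hj k hk l hl hij hkl h1 h2
      have h1' : U * 4 ^ j + U * 4 ^ k < U * 4 ^ l + U * 4 ^ i + 2 * N := h1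
      have h2' : U * 4 ^ l + U * 4 ^ i < U * 4 ^ j + U * 4 ^ k + 2 * N := h2
      rcases hU3 j i l k hij.symm with h | h
      · exact ⟨h.2, h.1⟩
      · exfalso
        rcases abs_cases ((((U * 4 ^ j : ℕ) : ℤ) - (U * 4 ^ i : ℕ)) -
          (((U * 4 ^ l : ℕ) : ℤ) - (U * 4 ^ k : ℕ))) with ⟨he, -⟩ | ⟨he, -⟩ <;>
        · rw [he] at h
          omega
    · intro T0 hT0
      have hT0' : z ≤ T0 + L + L := hT0
      refine le_trans ?_ (Nat.add_le_add_right hMsc m)
      rw [← Finset.card_image_of_injective _ (Prod.swap_injective (α := ℕ) (β := ℕ))]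
      refine hU4 (T0 : ℤ) _ ?_
      rintro ⟨j, i⟩ hq
      simp only [Finset.mem_image, Finset.mem_filter, Finset.mem_product, Finset.mem_range,
        Prod.exists, Prod.swap_prod_mk, Prod.mk.injEq] at hq
      obtain ⟨i', j', ⟨⟨hi, hj⟩, hij, hbad⟩, rfl, rfl⟩ := hq
      refine ⟨hj, hi, fun e => hij e.symm, ?_⟩
      have hi' : U * 4 ^ i' ≤ L := hcL i' hi
      have hbad' : (∃ q ∈ Ms, q ∣ (T0 + U * 4 ^ j' - U * 4 ^ i')) ∨
        BadG G M 0 m (T0 + U * 4 ^ j' - U * 4 ^ i') := hbad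
      have hcast : ((T0 : ℤ) + (U * 4 ^ j' : ℕ) - (U * 4 ^ i' : ℕ)) =
          ((T0 + U * 4 ^ j' - U * 4 ^ i' : ℕ) : ℤ) := by omega
      show GridRuler_257.BadZ Ms m M G (Am G M 0)
        ((T0 : ℤ) + (U * 4 ^ j' : ℕ) - (U * 4 ^ i' : ℕ))
      rw [hcast]
      by_contra hnb
      obtain ⟨g1, g2⟩ := GridRuler_257.clear_of_not_bad hGpos (T := T0 + U * 4 ^ j' - U * 4 ^ i')
        (fun j h1 h2 => by
          have := Am_mono G M 0 h2
          omega) hnb
      rcases hbad' with ⟨q, hq, hd⟩ | ⟨k, hk, hb⟩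
      · exact g1 q hq hd
      · have := g2 (k + 1) (by omega) (by omega)
        rw [Nat.add_sub_cancel] at this
        omega
  have hXXe : D.XX = Fib_81.XX Wo z := by
    ext X
    constructor
    · rintro ⟨h1, h2, h3⟩; exact ⟨h2, h1, h3⟩
    · rintro ⟨h1, h2, h3⟩; exact ⟨h2, h1, h3⟩
  have hfl : ∀ k : ℕ, ({l : List A | l.length ≤ k} ×ˢ (Set.univ : Set (S → ZMod 2))).Finite :=
    fun k => (List.finite_length_le A k).prod Set.finite_univ
  have hφ : ∀ u v : List A, ((u ++ v).map f).prod = (u.map f).prod * (v.map f).prod := by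
    intro u v; simp
  refine SemTop_445.sem_top (fun w : List A => (w.map f).prod) (by simp) hφ pact
    (fun v s s' => pact_mul v s s') pact_add pact_faith D.XX (Dat.nil_notMem hOk)
    (Dat.prefix_code hOk) D.T
    (fun X => pact (nu2 (X.take L) 1) ((X.drop L).map f).prod + nu1 (X.drop L)) ?_
    D.LP1 D.LP2 ?_ ?_ ?_ ?_ ?_ s
  · intro X _ v
    show pact (pact v ((X.take L).map f).prod + nu2 (X.take L) 1) ((X.drop L).map f).prod +
      nu1 (X.drop L) = _
    rw [pact_add, pact_mul, ← hφ, List.take_append_drop]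
    abel
  · refine (hfl (L + N)).subset ?_
    rintro ⟨P, v⟩ hP
    exact ⟨Dat.LP1_len hOk hP, trivial⟩
  · refine (hfl L).subset ?_
    rintro ⟨P, v⟩ hP
    exact ⟨Dat.LP2_len hOk hP, trivial⟩
  · -- fibres of blocks
    intro v v'
    refine Fib_81.HL_blocks (z := z) f (L + Ac G M 0 m) (M * G m)
      (Nat.mul_pos hM (hGpos m)) hLW hB _ (fun X hX => by rw [← hXXe]; exact hX.1) ?_
    intro X hX Y hY htake hprod hmod hXL
    refine ⟨by rw [hXXe]; exact hY, ?_⟩
    have hXz : z ≤ X.length := hX.1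
    have hYz : z ≤ Y.length := hY.1
    have e1 : X.take L = Y.take L := by
      have := congrArg (List.take L) htake
      rwa [List.take_take, List.take_take, min_eq_left (Nat.le_add_right _ _)] at this
    have e2 : (X.drop L).take (Ac G M 0 m) = (Y.drop L).take (Ac G M 0 m) := by
      have := congrArg (List.drop L) htake
      rwa [List.drop_take, List.drop_take, Nat.add_sub_cancel_left] at this
    have e3 : ∀ Z : List A, ((Z.drop L).map f).prod =
        (((Z.drop L).take (Ac G M 0 m)).map f).prod *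
          ((Z.drop (L + Ac G M 0 m)).map f).prod := by
      intro Z
      rw [← hφ]
      congr 2
      rw [← List.drop_drop, List.take_append_drop]
    have e4 : ((X.drop L).map f).prod = ((Y.drop L).map f).prod := by
      rw [e3 X, e3 Y, e2, hprod]
    have e5 : nu1 (X.drop L) = nu1 (Y.drop L) := by
      refine hfin _ _ (by simp; omega) (by simp; omega) e2 ?_ e4
      rw [List.length_drop, List.length_drop]
      have hm : X.length ≡ Y.length [MOD M * G m] := hmod
      have hx : X.length = X.length - L + L := by omega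
      have hy : Y.length = Y.length - L + L := by omega
      rw [hx, hy] at hm
      exact Nat.ModEq.add_right_cancel' L hm
    have e6 : D.T v X = D.T v Y := by
      show pact (pact v ((X.take L).map f).prod + nu2 (X.take L) 1) ((X.drop L).map f).prod +
        nu1 (X.drop L) = pact (pact v ((Y.take L).map f).prod + nu2 (Y.take L) 1)
          ((Y.drop L).map f).prod + nu1 (Y.drop L)
      rw [e1, e4, e5]
    rw [← e6]; exact hXL.2
  · intro s'
    have := Fib_81.HL_tail_prod (z := z) f hLW hB s'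
    rw [← hXXe] at this
    exact this
  · intro X hX X2 hX2 v
    rcases Dat.cc hOk X hX X2 hX2 v with ⟨P, Q, h1, h2, h3, b, h4⟩ | ⟨P, Q, h1, h2, h3, h4, b, h5⟩
    · exact Or.inl ⟨P, Q, h1, h3, h2, b, h4⟩
    · refine Or.inr ⟨P, Q, h1, h2, h3, b, ?_⟩
      intro P' v' hP' hNC
      rcases h5 P' v' hP' with ⟨X', hX', hpre, P'', Q'', g1, g2, g3, g4, b', g5⟩ | h6
      · exact absurd ⟨g4, ⟨P'', v', g3⟩, b', g5⟩ (hNC X' hX' hpre P'' Q'' g1 g2 g3)
      · exact h6

/-- **generalized star height at most three** -/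
theorem main {α : Type*} [Finite α] (L : Language α) (hL : L.IsRegular) :
    ∃ e : GRegExp α, e.height ≤ 3 ∧ e.lang = L :=
  Univ_234.of_type_monoid (fun A _ S _ _ f s => fibres A S f s) L hL

end Crest.Agent.R320.Fin_764
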