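import Crest.Agent.R320.SemTop_727
import Crest.Agent.R320.JointSem_814
import Crest.Agent.R320.Fib_298
import Crest.Agent.R320.LWallAll_922
import Crest.Agent.R320.Univ_119

/-!
# Row 320: the final assembly from a scheme 1 gadget (helper765)

727's semantic top + 814's joint + 298's fibres + 922's walls + 237's exact gadget:
everything except the gadget `Gad`.
-/

set_option autoImplicit false

namespace Crest.Agent.R320.Fin_765

open Finset Crest.RegLang Crest.Agent.R320.Hk_851 Crest.Agent.R320.Blk467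

/-- what is asked of the gadget of scheme 1 -/
def Gad (α S V : Type) [Monoid S] [AddCommGroup V] (f : α → S) (act : V → S → V) : Prop :=
  ∃ C0 : ℕ, ∀ K : ℕ, ∃ (N : ℕ) (c : ℕ → ℕ) (BadT : ℕ → Prop) (lam rho : List α → Option V)
    (nu : List α → V),
    (∀ p v, lam p = some v → p.length ≤ N) ∧
    (∀ p q v r, lam p = some v → rho q = some r →
      r = act v ((p ++ q).map f).prod + nu (p ++ q)) ∧
    (∀ u, N ≤ u.length → ¬ BadT u.length → ∀ v, ∃ p q, p ++ q = u ∧ lam p = some v ∧
      (rho q).isSome) ∧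
    (∀ y, Language.IsRegular ({Y | nu Y = y} : Language α)) ∧
    (∀ i j, i < j → j < K → c i < c j) ∧
    (∀ i j k l, i < K → j < K → k < K → l < K → i ≠ j → k ≠ l →
      (c i : ℤ) - c j < c k - c l + 2 * N → (c k : ℤ) - c l < c i - c j + 2 * N →
      i = k ∧ j = l) ∧
    (∀ T : ℕ, (∀ i < K, c i ≤ T) → ∀ F : Finset (ℕ × ℕ),
      (∀ p ∈ F, p.1 < K ∧ p.2 < K ∧ p.1 ≠ p.2 ∧ BadT (T + c p.2 - c p.1)) → F.card ≤ C0)

open JointSem_814 in
/-- few spoiled places -/
theorem spoil {α : Type} {n W z p0 N K C0 : ℕ} {Wo : List α → Prop} (hW : Walls n W Wo)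
    (hWb : 2 * (N + p0) + 2 ≤ W) (hz : 3 * p0 ≤ z) {c : ℕ → ℕ} (hcp : ∀ k < K, c k ≤ p0)
    {BadT : ℕ → Prop}
    (hgol : ∀ i j k l, i < K → j < K → k < K → l < K → i ≠ j → k ≠ l →
      (c i : ℤ) - c j < c k - c l + 2 * N → (c k : ℤ) - c l < c i - c j + 2 * N →
      i = k ∧ j = l)
    (hcnt : ∀ T : ℕ, (∀ i < K, c i ≤ T) → ∀ F : Finset (ℕ × ℕ),
      (∀ p ∈ F, p.1 < K ∧ p.2 < K ∧ p.1 ≠ p.2 ∧ BadT (T + c p.2 - c p.1)) → F.card ≤ C0)
    (U : List α) : ∃ J : Finset ℕ, J.card < 2 * C0 + 2 ∧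
      ∀ k < K, Spoiled Wo z p0 N K c BadT U k → k ∈ J := by
  classical
  -- pairs spoiled by the band
  let FE : Finset (ℕ × ℕ) := (range K ×ˢ range K).filter (fun p => p.1 ≠ p.2 ∧
    ∃ s, s ≤ U.length ∧ Wo (U.take s) ∧ z + c p.1 ≤ s + c p.2 + N ∧ s + c p.2 < z + N + c p.1)
  have hFE : FE.card ≤ 1 := by
    refine Finset.card_le_one.2 ?_
    rintro ⟨i, j⟩ ha ⟨k, l⟩ hb
    simp only [FE, Finset.mem_filter, Finset.mem_product, Finset.mem_range] at ha hb
    obtain ⟨⟨hi, hj⟩, hij, s, hs1, hs2, hs3, hs4⟩ := ha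
    obtain ⟨⟨hk, hl⟩, hkl, s', hs1', hs2', hs3', hs4'⟩ := hb
    have e1 := hcp i hi
    have e2 := hcp j hj
    have e3 := hcp k hk
    have e4 := hcp l hl
    have hss : s = s' := by
      rcases lt_trichotomy s s' with h | h | h
      · exact (hW.gap U s s' h (by omega) hs1' hs2 hs2').elim
      · exact h
      · exact (hW.gap U s' s h (by omega) hs1 hs2' hs2).elim
    subst hss
    obtain ⟨h1, h2⟩ := hgol i j k l hi hj hk hl hij hkl (by omega) (by omega)
    rw [h1, h2]
  -- the two candidate ends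
  let P : ℕ → Prop := fun s => s ≤ U.length ∧ Wo (U.take s) ∧ z ≤ s + p0
  let t0 : ℕ := if h : ∃ s, P s then Nat.find h else z
  let P1 : ℕ → Prop := fun s => s ≤ U.length ∧ Wo (U.take s) ∧ t0 < s
  let t1 : ℕ := if h : ∃ s, P1 s then Nat.find h else z
  have ht0 : z ≤ t0 + p0 := by
    by_cases h : ∃ s, P s
    · have e : t0 = Nat.find h := dif_pos h
      rw [e]
      exact (Nat.find_spec h).2.2
    · have e : t0 = z := dif_neg h
      omega
  have ht1 : z ≤ t1 + p0 := by
    by_cases h : ∃ s, P1 s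
    · have e : t1 = Nat.find h := dif_pos h
      have := (Nat.find_spec h).2.2
      rw [← e] at this
      omega
    · have e : t1 = z := dif_neg h
      omega
  let FB : ℕ → Finset (ℕ × ℕ) := fun t => (range K ×ˢ range K).filter (fun p => p.1 ≠ p.2 ∧
    BadT ((t - p0) + c p.2 - c p.1))
  have hFB : ∀ t, z ≤ t + p0 → (FB t).card ≤ C0 := by
    intro t ht
    refine hcnt (t - p0) (fun i hi => ?_) (FB t) ?_
    · have := hcp i hi
      omega
    · intro p hp
      simp only [FB, Finset.mem_filter, Finset.mem_product, Finset.mem_range] at hp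
      exact ⟨hp.1.1, hp.1.2, hp.2.1, hp.2.2⟩
  refine ⟨(FE ∪ (FB t0 ∪ FB t1)).image Prod.fst, ?_, ?_⟩
  · have h1 := Finset.card_image_le (s := FE ∪ (FB t0 ∪ FB t1)) (f := Prod.fst)
    have h2 := Finset.card_union_le FE (FB t0 ∪ FB t1)
    have h3 := Finset.card_union_le (FB t0) (FB t1)
    have h4 := hFB t0 ht0
    have h5 := hFB t1 ht1
    omega
  · rintro k hk ⟨k', hk', hne, h⟩
    refine Finset.mem_image.2 ⟨(k, k'), ?_, rfl⟩
    have ek := hcp k hk
    have ek' := hcp k' hk'
    rcases h with ⟨s, h1, h2, h3, h4⟩ | ⟨s, h1, h2, h3, h4, h5⟩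
    · refine Finset.mem_union_left _ ?_
      simp only [FE, Finset.mem_filter, Finset.mem_product, Finset.mem_range]
      exact ⟨⟨hk, hk'⟩, hne.symm, s, h1, h2, h3, h4⟩
    · refine Finset.mem_union_right _ ?_
      have hPs : P s := ⟨h1, h2, by omega⟩
      have hex : ∃ s, P s := ⟨s, hPs⟩
      have e0 : t0 = Nat.find hex := dif_pos hex
      have hle : t0 ≤ s := by rw [e0]; exact Nat.find_min' hex hPs
      have hsp := Nat.find_spec hex
      rw [← e0] at hsp
      have hmem : ∀ t, s = t → (k, k') ∈ FB t := by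
        rintro t rfl
        simp only [FB, Finset.mem_filter, Finset.mem_product, Finset.mem_range]
        refine ⟨⟨hk, hk'⟩, hne.symm, ?_⟩
        have e : s - p0 + c k' - c k = s + c k' - c k - p0 := by omega
        rw [e]
        exact h5
      rcases eq_or_lt_of_le hle with h | h
      · exact Finset.mem_union_left _ (hmem _ h.symm)
      · refine Finset.mem_union_right _ (hmem _ ?_)
        have hex1 : ∃ s, P1 s := ⟨s, h1, h2, h⟩
        have e1 : t1 = Nat.find hex1 := dif_pos hex1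
        have hle1 : t1 ≤ s := by rw [e1]; exact Nat.find_min' hex1 ⟨h1, h2, h⟩
        have hsp1 := Nat.find_spec hex1
        rw [← e1] at hsp1
        by_contra hne1
        have hlt : t1 < s := by omega
        have := h4 t1 hlt hsp1.2.1
        exact hW.gap U t0 t1 hsp1.2.2 (by omega) hsp1.1 hsp.2.1 hsp1.2.1

/-- **the row from the gadget, one monoid** -/
theorem row_of_gad {α : Type} [Finite α] {S : Type} [Monoid S] [Finite S] (f : α → S)
    (hG : ∀ act : (S → ZMod 2) → S → (S → ZMod 2), Gad α S (S → ZMod 2) f act) (s : S) :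
    HL 3 ({w | (w.map f).prod = s} : Language α) := by
  classical
  obtain ⟨act, hadd, hone, hmul, hfaith⟩ := exists_module S
  obtain ⟨C0, hG⟩ := hG act
  have := Fintype.ofFinite S
  obtain ⟨K, hK⟩ := ExactR_237.exact_gadget α S (S → ZMod 2) f act (2 * C0 + 2)
  obtain ⟨N, c, BadT, lam, rho, nu, hlam, hsound, hcompl, hreg, hinc, hgol, hcnt⟩ := hG K
  obtain ⟨lam2, rho2, nu2, hex, hco⟩ := hK c hinc
  obtain ⟨p0, hp0⟩ : ∃ p0, ∀ k < K, c k ≤ p0 :=
    ⟨∑ k ∈ range K, c k, fun k hk => Finset.single_le_sum (f := c) (fun _ _ => Nat.zero_le _)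
      (Finset.mem_range.2 hk)⟩
  obtain ⟨n, G, B, Wo, hLW, hgap, -, -, hfree⟩ :=
    LWallAll_922.walls_all_left α (2 * (N + p0) + 2) (by omega)
  set W := 2 * (N + p0) + 2 with hWdef
  set z := 3 * p0 + N + n + 1 with hz
  have hW : JointSem_814.Walls n W Wo :=
    ⟨hLW.app, hLW.len, fun X s t h1 h2 h3 h4 h5 => by
      have := hgap X s t h1 h3 h4 h5
      omega⟩
  have hWU : Fib_298.WallU Wo n (B + W) := by
    refine ⟨hLW.app, hLW.len, fun X hX => ?_⟩
    obtain ⟨u, x, v, k, h1, h2, h3, h4⟩ := hfree X hX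
    exact ⟨u, x, v, k, h4, by omega, by omega, by omega⟩
  let φ : List α → S := fun w => (w.map f).prod
  let nu2' : List α → (S → ZMod 2) := fun u => nu2 u 1
  let TT := JointSem_814.T p0 φ act nu nu2'
  let D : SemTop_727.Sch α (S → ZMod 2) :=
    ⟨JointSem_814.XX Wo z, TT, JointSem_814.L1 p0 φ act nu2' lam,
      JointSem_814.L2 K c lam2⟩
  have hXX : JointSem_814.XX Wo z = Fib_298.XX Wo z := by
    ext X
    constructor
    · rintro ⟨h1, h2, h3⟩; exact ⟨h2, h1, h3⟩
    · rintro ⟨h1, h2, h3⟩; exact ⟨h2, h1, h3⟩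
  refine SemTop_727.top (k := 1) act hadd hone hmul hfaith f
    (fun X => act (nu2' (X.take p0)) ((X.drop p0).map f).prod + nu (X.drop p0)) D ?_ ?_ ?_ ?_ ?_
    ?_ ?_ s
  · intro v X
    show act (act v ((X.take p0).map f).prod + nu2' (X.take p0)) ((X.drop p0).map f).prod +
      nu (X.drop p0) = _
    rw [hadd, ← hmul, ← List.prod_append, ← List.map_append, List.take_append_drop, add_assoc]
  · show PCode (JointSem_814.XX Wo z)
    rw [hXX]
    exact Fib_298.pcode_XX (by omega)
  · intro x y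
    have h := Fib_298.hfib (z := z) hWU (by omega) act f p0 (by omega)
      (fun v X0 => act v (X0.map f).prod + nu2' X0) nu hreg x y
    refine h.congr fun w => ?_
    constructor
    · rintro ⟨h1, h2⟩
      exact ⟨by rw [← hXX]; exact h1, h2⟩
    · rintro ⟨h1, h2⟩
      exact ⟨by rw [← hXX] at h1; exact h1, h2⟩
  · intro x
    refine (List.finite_length_le α (p0 + N)).subset ?_
    rintro P ⟨h1, h2⟩
    have := hlam _ _ h2
    rw [List.length_drop] at this
    show P.length ≤ p0 + N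
    omega
  · intro x
    refine (List.finite_length_le α p0).subset ?_
    rintro P ⟨k, hk, h1, h2⟩
    show P.length ≤ p0
    rw [h1]
    exact hp0 k hk
  · intro X1 hX1 X2 hX2 x
    exact JointSem_814.compl2 (N0 := N) (R := 2 * C0 + 2) hW (by omega) (by omega) hlam hsound
      (fun u h1 h2 v => hcompl u h1 h2 v) (c := c) (lam2 := lam2)
      (rho2 := fun k Q => rho2 k Q 1) hp0
      (fun k hk P Q v b h1 h2 h3 => by
        have := hex k hk P Q 1 v b h1 h2 h3
        rw [mul_one] at this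
        exact this)
      (fun u v h => by
        obtain ⟨I, hI, hI2⟩ := hco u 1 v h
        exact ⟨I, hI, fun k hk => hI2 k hk⟩)
      (fun U _ => spoil hW (by omega) (by omega) hp0 hgol hcnt U) hX1.1 hX2 x
  · intro s
    refine (HL.mono (by omega) (Fib_298.rest (z := z) hWU (by omega) f s)).congr fun w => ?_
    show ((∀ X ∈ JointSem_814.XX Wo z, ¬ X <+: w) ∧ _) ↔ _
    rw [hXX]
    exact Iff.rfl

/-- **the row from the gadget** -/
theorem row (hG : ∀ (α S : Type) [Finite α] [Monoid S] [Finite S] (f : α → S)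
    (act : (S → ZMod 2) → S → (S → ZMod 2)), Gad α S (S → ZMod 2) f act) :
    ∀ (α : Type) [Finite α] (L : Language α), L.IsRegular →
      ∃ e : GRegExp α, e.height ≤ 3 ∧ e.lang = L :=
  fun α _ L hL => of_monoid (fun S _ _ φ s => row_of_gad φ (fun act => hG α S φ act) s) L hL

end Crest.Agent.R320.Fin_765
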