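import Crest.Agent.R320.End_532
import Crest.Agent.R320.G1_256
import Crest.Agent.R320.Sp_21
import Crest.Agent.R320.ExactR_237
import Crest.Agent.R320.P4_167
import Crest.Agent.R320.Univ_234

/-! Row 320: choice of constants, all words. -/

set_option autoImplicit false

namespace Crest.Agent.R320.Fin_770

open Crest.RegLang Crest.Agent.R320.Hk_851 Crest.Agent.R320.Sc2n_937


theorem fin (α : Type) [Finite α] (S : Type) [Monoid S] [Finite S] (φ : α → S) (s : S) :
    HL 3 ({w | (w.map φ).prod = s} : Language α) := by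
  classical
  obtain ⟨act, hadd, hone, hmul, hfaith⟩ := Blk467.exists_module S
  haveI : Fintype S := Fintype.ofFinite S
  obtain ⟨m, r, hG1⟩ := G1_256.g1 S (S → ZMod 2) act
  set C0 : ℕ := r + m with hC0
  obtain ⟨K, hEx⟩ := ExactR_237.exact_gadget α S (S → ZMod 2) φ act (2 * C0 + 2)
  obtain ⟨Ms, M, hMr, hMs, hM, hG2⟩ := hG1 (2 ^ (K + 1))
  obtain ⟨b, hb1, hb2, hb3⟩ : ∃ b : ℕ, 4 * M + 4 < b ∧ (2 ^ (K + 4) + 2) * M < b ∧
      Nat.Coprime b M := by
    refine ⟨(2 ^ (K + 4) + 10) * M + 1, ?_, ?_, ?_⟩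
    · have : 1 ≤ 2 ^ (K + 4) := Nat.one_le_two_pow
      nlinarith
    · nlinarith
    · rw [Nat.coprime_mul_right_add_left]
      exact Nat.coprime_one_left M
  obtain ⟨lam, rho, nu1, hlen, hsnd, hcpl, hfs⟩ := hG2 b hb1 hb3 α φ
  set N1 : ℕ := b ^ m with hN1
  have hN1pos : 0 < N1 := by rw [hN1]; exact Nat.pow_pos (by omega)
  obtain ⟨c, hc1, hc2, hc3⟩ := Sp_21.spoil K N1 m M b Ms hM
    (fun k hk => ⟨(hMs k hk).2.2, (hMs k hk).1.le⟩) hb3 hb2
  set p0 : ℕ := c K with hp0
  have hcp : ∀ k, k < K → c k < p0 := fun k hk => by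
    have := hc1 k K hk; omega
  obtain ⟨lam2, rho2, nu2, hex2, hI⟩ := hEx c (fun i j hij _ => by have := hc1 i j hij; omega)
  obtain ⟨n, cc, Pp, Sw, hn, hPp, hloc, hgap, -, -, hfew⟩ :=
    WallU_228.walls_full (α := α) (2 * p0 + 2 * N1 + 1)
  set q0 : ℕ := n + 2 * p0 with hq0
  let g : Geo α :=
    { Wo := WallU_228.Wo n Sw
      n := n
      z := p0 + N1 + q0
      p0 := p0
      q0 := q0
      N1 := N1
      loc := hloc
      hz := rfl
      hq := by omega
      hN := hN1pos
      hqp := by omega }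
  have hMb : 0 < M * b ^ m := Nat.mul_pos hM hN1pos
  refine End_532.joint act hadd hone hmul hfaith φ g nu1 (fun u => nu2 u 1) K c lam rho lam2
    (fun k Q => rho2 k Q 1) (Sp_21.Bad m M b Ms) C0 ?_ ?_ ?_ ?_ ?_ ?_ ?_ ?_ ?_ ?_ ?_ ?_ s
  · intro P v h
    exact (hlen P v h).le
  · intro P Q u b' h1 h2
    exact hsnd P Q u b' h1 h2
  · intro Y _ hB u
    have hB' : ¬ Sp_21.Bad m M b Ms Y.length := hB
    unfold Sp_21.Bad at hB'
    push Not at hB'
    obtain ⟨P, Q, e, h1, h2⟩ := hcpl Y hB'.1 hB'.2 u
    exact ⟨P, Q, e.symm, h1, h2⟩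
  · intro k hk
    exact (hcp k hk).le
  · intro k hk P Q v u hP _ h1 h2
    have := hex2 k hk P Q 1 v u hP h1 h2
    rw [mul_one] at this
    exact this
  · intro P Q hP hPQ hQ
    show 2 * p0 + 2 * N1 < Q.length
    by_contra hlt
    have hpos : 0 < Q.length := List.length_pos_of_ne_nil hQ
    have h := hgap (P ++ Q) Q.length hPQ hpos (by omega)
    rw [List.length_append, Nat.add_sub_cancel, List.take_left] at h
    exact h hP
  · intro k k' l l' _ _ _ _ h1 h2 h3 h4
    by_contra hne
    have h3' : c k + c l' < c l + c k' + 2 * N1 := h3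
    have h4' : c l + c k' < c k + c l' + 2 * N1 := h4
    rcases hc2 k k' l l' (Ne.symm h1) (Ne.symm h2) (fun h => hne (congrArg Prod.fst h)) with h | h
    · omega
    · omega
  · intro τ hτ J hJ
    have hτ' : p0 + N1 + q0 ≤ τ + p0 := hτ
    have hJ' : ∀ k ∈ J, k < K ∧ ∃ k', k' < K ∧ k' ≠ k ∧
        Sp_21.Bad m M b Ms (τ + c k' - c k - p0) := hJ
    choose! fk hfk1 hfk2 using fun k (hk : k ∈ J) => (hJ' k hk).2
    have hcard : (J.image (fun k => (k, fk k))).card = J.card :=
      Finset.card_image_of_injOn fun a _ b _ h => congrArg Prod.fst h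
    rw [← hcard]
    refine (hc3 (τ - p0) (fun i hi => ?_) _ fun p hp => ?_).trans (by omega)
    · have := hcp i hi
      omega
    · obtain ⟨k, hk, rfl⟩ := Finset.mem_image.1 hp
      have hkK := (hJ' k hk).1
      obtain ⟨h1, h2⟩ := hfk2 k hk
      refine ⟨hkK, hfk1 k hk, Ne.symm h1, ?_⟩
      have e : τ + c (fk k) - c k - p0 = τ - p0 + c (fk k) - c k := by
        have := hcp k hkK
        omega
      rw [← e]
      exact h2
  · intro X0 v hX0
    have hX0' : X0.length = p0 := hX0
    obtain ⟨I, hI1, hI2⟩ := hI X0 1 v (fun k hk => by rw [hX0']; exact (hcp k hk).le)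
    exact ⟨I, hI1, hI2⟩
  · show 0 < p0 + N1 + q0
    omega
  · intro x y
    -- the property only depends on finite data
    let Pr : List α → Prop := fun X =>
      act (act x ((X.take p0).map φ).prod + nu2 (X.take p0) 1) ((X.drop p0).map φ).prod
        + nu1 (X.drop p0) = y
    have hinv : ∀ X X' : List α, p0 + N1 + q0 ≤ X.length → p0 + N1 + q0 ≤ X'.length →
        X.take (p0 + N1 + q0) = X'.take (p0 + N1 + q0) →
        ((X.drop (p0 + N1 + q0)).map φ).prod = ((X'.drop (p0 + N1 + q0)).map φ).prod →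
        X.length % (M * b ^ m) = X'.length % (M * b ^ m) → Pr X → Pr X' := by
      intro X X' hX hX' h1 h2 h3 hPr
      have e1 : X.take p0 = X'.take p0 := by
        have := congrArg (fun l => l.take p0) h1
        simpa [List.take_take, min_eq_left (show p0 ≤ p0 + N1 + q0 by omega)] using this
      have hsplit : ∀ (Y : List α) (a : ℕ), a ≤ p0 + N1 + q0 → 
          Y.drop a = (Y.take (p0 + N1 + q0)).drop a ++ Y.drop (p0 + N1 + q0) := by
        intro Y a ha
        conv_lhs => rw [← List.take_append_drop (p0 + N1 + q0) Y]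
        by_cases hY : p0 + N1 + q0 ≤ Y.length
        · rw [List.drop_append_of_le_length (by rw [List.length_take]; omega)]
        · rw [List.drop_of_length_le (l := Y) (i := p0 + N1 + q0) (by omega), List.append_nil,
            List.append_nil]
      have hprod : ∀ a, a ≤ p0 + N1 + q0 → ((X.drop a).map φ).prod = ((X'.drop a).map φ).prod := by
        intro a ha
        rw [hsplit X a ha, hsplit X' a ha, List.map_append, List.map_append, List.prod_append,
          List.prod_append, h1, h2]
      have e2 : ((X.drop p0).map φ).prod = ((X'.drop p0).map φ).prod := hprod p0 (by omega)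
      have e3 : nu1 (X.drop p0) = nu1 (X'.drop p0) := by
        refine (hfs (X.drop p0) (X'.drop p0) ?_ ?_ ?_ ?_ ?_).2
        · rw [List.length_drop]; omega
        · rw [List.length_drop]; omega
        · rw [hsplit X p0 (by omega), hsplit X' p0 (by omega), h1]
          rw [List.take_append_of_le_length, List.take_append_of_le_length]
          · rw [List.length_drop, List.length_take]; omega
          · rw [List.length_drop, List.length_take]; omega
        · rw [List.length_drop, List.length_drop]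
          have h3' : X.length ≡ X'.length [MOD M * b ^ m] := h3
          have h4 : p0 + (X.length - p0) ≡ p0 + (X'.length - p0) [MOD M * b ^ m] := by
            rw [Nat.add_sub_of_le (by omega), Nat.add_sub_of_le (by omega)]
            exact h3'
          exact Nat.ModEq.add_left_cancel' p0 h4
        · rw [List.drop_drop, List.drop_drop]
          exact hprod (p0 + b ^ m) (by omega)
      show act (act x ((X'.take p0).map φ).prod + nu2 (X'.take p0) 1) ((X'.drop p0).map φ).prod
        + nu1 (X'.drop p0) = y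
      rw [← e1, ← e2, ← e3]
      exact hPr
    let F : List α → S → ℕ → Prop := fun l t r' => ∃ X : List α, p0 + N1 + q0 ≤ X.length ∧
      X.take (p0 + N1 + q0) = l ∧ ((X.drop (p0 + N1 + q0)).map φ).prod = t ∧
      X.length % (M * b ^ m) = r' ∧ Pr X
    refine (P4_167.HL1_XX' hfew (p0 + N1 + q0) (M * b ^ m) hMb φ F).congr fun X => ?_
    constructor
    · rintro ⟨hX, h5⟩
      exact ⟨hX, X, hX.1, rfl, rfl, rfl, h5⟩
    · rintro ⟨hX, X', h1, h2, h3, h4, h5⟩
      refine ⟨hX, ?_⟩
      exact hinv X' X h1 hX.1 h2 h3 h4 h5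
  · intro t
    refine ((P4_167.HL1_rest hfew (p0 + N1 + q0) φ (fun a => a = t)).mono (by norm_num)).congr
      fun w => ?_
    exact Iff.rfl

theorem row {α : Type*} [Finite α] (L : Language α) (hL : L.IsRegular) :
    ∃ e : GRegExp α, e.height ≤ 3 ∧ e.lang = L :=
  Univ_234.of_type_monoid (fun A _ S _ _ φ s => fin A S φ s) L hL

end Crest.Agent.R320.Fin_770
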