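import Crest.Agent.R320.Top5_110

/-!
# Row 320: the two completeness statements of `Top5_110.top_sem` for the natural block code (helper774)

Blocks `XX` : first wall at a place `≥ z` (left-looking walls), one token system, gadget 1 (unknown
total) right of the place `p0`, gadget 2 (exact gadget) on the first `p0` letters.
-/

set_option autoImplicit false

namespace Crest.Agent.R320.Fin_774

open Crest.Agent.R320.Hk_851 Crest.Agent.R320.Code110

/-- the data -/
structure Dat (α S V : Type) [Monoid S] [AddCommGroup V] where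
  f : α → S
  act : V → S → V
  Wo : List α → Prop
  n : ℕ
  W : ℕ
  z : ℕ
  p0 : ℕ
  N : ℕ
  La : ℕ
  C0 : ℕ
  BadT : ℕ → Prop
  lam : List α → Option V
  rho : List α → Option V
  nu1 : List α → V
  K : ℕ
  c : ℕ → ℕ
  lam2 : ℕ → List α → Option V
  rho2 : ℕ → List α → Option V
  nu2 : List α → V

variable {α S V : Type} [Monoid S] [AddCommGroup V]

namespace Dat

variable (d : Dat α S V)

def ph (w : List α) : S := (w.map d.f).prod

theorem ph_append (u w : List α) : d.ph (u ++ w) = d.ph u * d.ph w := by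
  simp [ph]

/-- blocks -/
def XX : Language α :=
  {X | d.z ≤ X.length ∧ d.Wo X ∧ ∀ t, d.z ≤ t → t < X.length → ¬ d.Wo (X.take t)}

/-- the end band -/
def BE (X : List α) : Prop :=
  (∃ t, d.z ≤ t + d.N ∧ t < d.z ∧ d.Wo (X.take t)) ∨ X.length < d.z + d.N

/-- bad blocks -/
def Bad : Language α := {X | X ∈ d.XX ∧ (d.BE X ∨ d.BadT (X.length - d.p0))}

/-- zone map -/
def T (X : List α) (v : V) : V :=
  d.act (d.act v (d.ph (X.take d.p0)) + d.nu2 (X.take d.p0)) (d.ph (X.drop d.p0)) + d.nu1 (X.drop d.p0)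

/-- left labels of scheme 1 -/
def L1 (v : V) : Language α :=
  {P | d.p0 ≤ P.length ∧ P.length ≤ d.p0 + d.N ∧
    d.lam (P.drop d.p0) = some (d.act v (d.ph (P.take d.p0)) + d.nu2 (P.take d.p0))}

/-- left labels of scheme 2 -/
def L2 (v : V) : Language α := {P | ∃ k < d.K, P.length = d.c k ∧ d.lam2 k P = some v}

open Classical in
/-- the hypotheses -/
structure Ok : Prop where
  loc : ∀ P Q : List α, d.n ≤ Q.length → (d.Wo (P ++ Q) ↔ d.Wo Q)
  sep : ∀ (P : List α) (j : ℕ), d.Wo P → 0 < j → j ≤ d.W → ¬ d.Wo (P.take (P.length - j))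
  zbig : 4 * d.p0 + 2 * d.N + d.n + d.La ≤ d.z
  npos : 0 < d.n
  Wbig : 2 * (d.p0 + d.N) + 2 ≤ d.W
  g1 : ∀ p v, d.lam p = some v → p.length ≤ d.N
  g2 : ∀ p q v r, d.lam p = some v → d.rho q = some r → d.La ≤ q.length →
    r = d.act v (d.ph (p ++ q)) + d.nu1 (p ++ q)
  g3 : ∀ u : List α, d.La ≤ u.length → ¬ d.BadT u.length → ∀ v, ∃ p q, p ++ q = u ∧
    d.lam p = some v ∧ (d.rho q).isSome
  cle : ∀ k < d.K, d.c k ≤ d.p0
  cinj : ∀ k < d.K, ∀ l < d.K, d.c k = d.c l → k = l
  e2 : ∀ k < d.K, ∀ (P Q : List α) (v b : V), P.length = d.c k → (P ++ Q).length = d.p0 →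
    d.lam2 k P = some v → d.rho2 k Q = some b → b = d.act v (d.ph (P ++ Q)) + d.nu2 (P ++ Q)
  e3 : ∀ (u : List α) (v : V), u.length = d.p0 → ∃ I : Finset ℕ, 2 + 2 * d.C0 ≤ I.card ∧
    ∀ k ∈ I, k < d.K ∧ d.lam2 k (u.take (d.c k)) = some v ∧ (d.rho2 k (u.drop (d.c k))).isSome
  res : ∀ i < d.K, ∀ j < d.K, ∀ k < d.K, ∀ l < d.K, i ≠ j → k ≠ l → ¬ (i = k ∧ j = l) →
    d.c i + d.c l + 2 * d.N < d.c k + d.c j ∨ d.c k + d.c j + 2 * d.N < d.c i + d.c l
  thin : ∀ T, d.La ≤ T → d.p0 ≤ T → (((Finset.range d.K) ×ˢ (Finset.range d.K)).filter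
    (fun ab : ℕ × ℕ => ab.1 ≠ ab.2 ∧ d.BadT (T + d.c ab.2 - d.c ab.1))).card ≤ d.C0

end Dat

open Dat

variable {d : Dat α S V}

theorem wo_take_iff (hd : d.Ok) {P Q : List α} {t : ℕ} (ht : P.length + d.n ≤ t)
    (htQ : t ≤ P.length + Q.length) :
    d.Wo ((P ++ Q).take t) ↔ d.Wo (Q.take (t - P.length)) := by
  rw [List.take_append, List.take_of_length_le (by omega)]
  exact hd.loc _ _ (by rw [List.length_take]; omega)

/-- the same wall read behind two left parts -/
theorem wo_move (hd : d.Ok) {P P' Q : List α} {s : ℕ} (hs : d.n ≤ s) (hsQ : s ≤ Q.length) :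
    d.Wo ((P ++ Q).take (P.length + s)) ↔ d.Wo ((P' ++ Q).take (P'.length + s)) := by
  rw [wo_take_iff hd (by omega) (by omega), wo_take_iff hd (by omega) (by omega)]
  simp

theorem wo_full (hd : d.Ok) {P P' Q : List α} (hQ : d.n ≤ Q.length) :
    d.Wo (P ++ Q) ↔ d.Wo (P' ++ Q) := by
  rw [hd.loc _ _ hQ, hd.loc _ _ hQ]

theorem pc (hd : d.Ok) : PC d.XX where
  ne := by
    rintro ⟨h, -, -⟩
    have := hd.zbig; have := hd.npos
    simp at h; omega
  pf := by
    rintro u ⟨hu1, hu2, hu3⟩ v ⟨hv1, hv2, hv3⟩ ⟨r, rfl⟩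
    by_contra hne
    have hr : 0 < r.length := by
      rcases r with _ | ⟨a, r⟩
      · simp at hne
      · simp
    refine hv3 u.length hu1 (by simp; omega) ?_
    rw [List.take_left]
    exact hu2

/-- moving the left part of a block, outside the end band -/
theorem move1 (hd : d.Ok) {P P' Q : List α} (h : P ++ Q ∈ d.XX) (hE : ¬ d.BE (P ++ Q))
    (h1 : d.p0 ≤ P.length) (h2 : P.length ≤ d.p0 + d.N) (h1' : d.p0 ≤ P'.length)
    (h2' : P'.length ≤ d.p0 + d.N) : P' ++ Q ∈ d.XX := by
  obtain ⟨hz, hw, hn⟩ := h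
  have hzb := hd.zbig
  have hE2 : d.z + d.N ≤ (P ++ Q).length := by
    by_contra hh; exact hE (Or.inr (by omega))
  have hE1 : ∀ t, d.z ≤ t + d.N → t < d.z → ¬ d.Wo ((P ++ Q).take t) := fun t a b c =>
    hE (Or.inl ⟨t, a, b, c⟩)
  rw [List.length_append] at hE2 hz
  refine ⟨by rw [List.length_append]; omega, (wo_full hd (by omega)).1 hw, ?_⟩
  intro t ht1 ht2 hwt
  rw [List.length_append] at ht2
  have e : t = P'.length + (t - P'.length) := by omega
  rw [e] at hwt
  have h3 := (wo_move hd (P := P) (by omega) (by omega)).2 hwt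
  by_cases h4 : d.z ≤ P.length + (t - P'.length)
  · exact hn _ h4 (by rw [List.length_append]; omega) h3
  · exact hE1 _ (by omega) (by omega) h3

/-- scheme 1 is complete at good blocks -/
theorem c1 (hd : d.Ok) (u : List α) (hu : u ∈ d.XX) (hub : u ∉ d.Bad) (x : V) (t : List α)
    (ht : t ∈ d.XX ^ 0) : ∃ p q y, u ++ t = p ++ q ∧ p ∈ d.L1 x ∧
      q ∈ Rsem d.XX d.XX d.T 0 d.L1 y := by
  have ht0 : t = [] := by simpa using ht
  subst ht0
  have hE : ¬ d.BE u := fun h => hub ⟨hu, Or.inl h⟩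
  have hB : ¬ d.BadT (u.length - d.p0) := fun h => hub ⟨hu, Or.inr h⟩
  have hzb := hd.zbig
  have hul : d.z ≤ u.length := hu.1
  obtain ⟨p, q, e, hp, hq⟩ := hd.g3 (u.drop d.p0) (by rw [List.length_drop]; omega)
    (by rw [List.length_drop]; exact hB) (d.act x (d.ph (u.take d.p0)) + d.nu2 (u.take d.p0))
  obtain ⟨r, hr⟩ := Option.isSome_iff_exists.1 hq
  have hpN := hd.g1 p _ hp
  have hl0 : (u.take d.p0).length = d.p0 := by rw [List.length_take]; omega
  have hu' : u = (u.take d.p0 ++ p) ++ q := by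
    rw [List.append_assoc, e, List.take_append_drop]
  have hlq : u.length = d.p0 + p.length + q.length := by
    conv_lhs => rw [hu']
    rw [List.length_append, List.length_append, hl0]
  refine ⟨u.take d.p0 ++ p, q, r, by rw [List.append_nil]; exact hu', ?_, ?_⟩
  · refine ⟨by rw [List.length_append]; omega, by rw [List.length_append]; omega, ?_⟩
    have e1 : (u.take d.p0 ++ p).drop d.p0 = p := by
      rw [List.drop_append_of_le_length (by omega), List.drop_of_length_le (by omega)]; simp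
    have e2 : (u.take d.p0 ++ p).take d.p0 = u.take d.p0 := by
      rw [List.take_append_of_le_length (by omega), List.take_of_length_le (by omega)]
    rw [e1, e2]; exact hp
  · intro x' p' hp'
    obtain ⟨h1, h2, h3⟩ := hp'
    left
    have hX : p' ++ q ∈ d.XX := by
      refine move1 hd (P := u.take d.p0 ++ p) (by rw [← hu']; exact hu) (by rw [← hu']; exact hE)
        ?_ ?_ h1 h2
      · rw [List.length_append]; omega
      · rw [List.length_append]; omega
    refine ⟨r, Language.mem_mul.2 ⟨p' ++ q, ⟨hX, ?_⟩, [], ⟨rfl, rfl⟩, by simp⟩⟩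
    have e1 : (p' ++ q).take d.p0 = p'.take d.p0 := List.take_append_of_le_length h1
    have e2 : (p' ++ q).drop d.p0 = p'.drop d.p0 ++ q := List.drop_append_of_le_length h1
    have := hd.g2 _ q _ r h3 hr (by omega)
    rw [this]
    unfold Dat.T
    rw [e1, e2]


theorem move2 (hd : d.Ok) {P P' Q : List α} (hl : P.length = P'.length) (hp : P.length ≤ d.p0)
    (h : P ++ Q ∈ d.XX) : P' ++ Q ∈ d.XX := by
  obtain ⟨hz, hw, hn⟩ := h
  have hzb := hd.zbig
  rw [List.length_append] at hz
  refine ⟨by rw [List.length_append]; omega, (wo_full hd (by omega)).1 hw, ?_⟩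
  intro t ht1 ht2 hwt
  rw [List.length_append] at ht2
  have e : t = P'.length + (t - P'.length) := by omega
  rw [e] at hwt
  have h3 := (wo_move hd (P := P) (by omega) (by omega)).2 hwt
  exact hn _ (by omega) (by rw [List.length_append]; omega) h3

theorem move2E (hd : d.Ok) {P P' Q : List α} (hl : P.length = P'.length) (hp : P.length ≤ d.p0)
    (hQ : d.z ≤ (P ++ Q).length)
    (h : d.BE (P ++ Q)) : d.BE (P' ++ Q) := by
  have hzb := hd.zbig
  rw [List.length_append] at hQ
  rcases h with ⟨t, h1, h2, h3⟩ | h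
  · left
    refine ⟨t, h1, h2, ?_⟩
    have e : t = P.length + (t - P.length) := by omega
    rw [e] at h3
    have h4 := (wo_move hd (P' := P') (by omega) (by omega)).1 h3
    have e2 : P'.length + (t - P.length) = t := by omega
    rw [e2] at h4
    exact h4
  · right
    rw [List.length_append] at h ⊢
    omega

theorem move2B (hd : d.Ok) {P P' Q : List α} (hl : P.length = P'.length) (hp : P.length ≤ d.p0)
    (h : P ++ Q ∈ d.Bad) : P' ++ Q ∈ d.Bad := by
  obtain ⟨h1, h2⟩ := h
  refine ⟨move2 hd hl hp h1, ?_⟩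
  rcases h2 with h2 | h2
  · left; exact move2E hd hl hp h1.1 h2
  · right
    rw [List.length_append] at h2 ⊢
    rw [← hl]; exact h2

/-- a word with a late wall at its end has a block prefix -/
theorem visible {w : List α} (hz : d.z ≤ w.length) (hw : d.Wo w) :
    ∃ U, U ∈ d.XX ∧ U <+: w := by
  classical
  have h : ∃ t, d.z ≤ t ∧ t ≤ w.length ∧ d.Wo (w.take t) :=
    ⟨w.length, hz, le_rfl, by rw [List.take_length]; exact hw⟩
  obtain ⟨h1, h2, h3⟩ := Nat.find_spec h
  refine ⟨w.take (Nat.find h), ⟨?_, h3, ?_⟩, List.take_prefix _ _⟩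
  · rw [List.length_take]; omega
  · intro t ht1 ht2 hwt
    rw [List.length_take] at ht2
    rw [List.take_take, min_eq_left (by omega)] at hwt
    exact Nat.find_min h (m := t) (by omega) ⟨ht1, by omega, hwt⟩

/-- facts about the block seen from a shifted anchor -/
theorem facts (hd : d.Ok) {w p' U : List α} {k k' : ℕ} (hk : k < d.K) (hk' : k' < d.K)
    (hw : 2 * d.z ≤ w.length + d.p0)
    (hp : p'.length = d.c k') (hU : U ∈ d.XX) (hpre : U <+: p' ++ w.drop (d.c k))
    (hb : U ∈ d.Bad) :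
    (∃ s, s ≤ w.length ∧ d.Wo (w.take s) ∧ d.z + d.c k ≤ s + d.c k' + d.N ∧
      s + d.c k' < d.z + d.N + d.c k) ∨
    (∃ s, s ≤ w.length ∧ d.Wo (w.take s) ∧ d.z + d.c k ≤ s + d.c k' ∧
      (∀ r, r ≤ w.length → d.z + d.c k ≤ r + d.c k' → r < s → ¬ d.Wo (w.take r)) ∧
      d.BadT ((s - d.p0) + d.c k' - d.c k)) := by
  have hzb := hd.zbig
  have hc := hd.cle k hk
  have hc' := hd.cle k' hk'
  obtain ⟨hz, hwo, hno⟩ := hU
  have hUle : U.length ≤ p'.length + (w.length - d.c k) := by
    have := hpre.length_le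
    rw [List.length_append, List.length_drop] at this; exact this
  have hUt : U = (p' ++ w.drop (d.c k)).take U.length := List.prefix_iff_eq_take.1 hpre
  have hlk : (w.take (d.c k)).length = d.c k := by rw [List.length_take]; omega
  -- transfer of walls
  have tr : ∀ t, d.p0 + d.n ≤ t → t ≤ U.length → (d.Wo (U.take t) ↔ d.Wo (w.take (t + d.c k - d.c k'))) := by
    intro t ht1 ht2
    have e1 : U.take t = (p' ++ w.drop (d.c k)).take (p'.length + (t - p'.length)) := by
      rw [hUt, List.take_take, min_eq_left ht2]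
      congr 1; omega
    have e2 : w.take (t + d.c k - d.c k') =
        (w.take (d.c k) ++ w.drop (d.c k)).take ((w.take (d.c k)).length + (t - p'.length)) := by
      rw [List.take_append_drop, hlk]
      congr 1; omega
    rw [e1, e2]
    exact wo_move hd (by omega) (by rw [List.length_drop]; omega)
  have hend : d.Wo (w.take (U.length + d.c k - d.c k')) := by
    rw [← tr U.length (by omega) le_rfl, List.take_length]; exact hwo
  rcases hb.2 with hE | hB
  · left
    rcases hE with ⟨t, h1, h2, h3⟩ | h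
    · refine ⟨t + d.c k - d.c k', by omega, (tr t (by omega) (by omega)).1 h3, by omega, by omega⟩
    · refine ⟨U.length + d.c k - d.c k', by omega, hend, by omega, by omega⟩
  · right
    refine ⟨U.length + d.c k - d.c k', by omega, hend, by omega, ?_, ?_⟩
    · intro r hr1 hr2 hr3 hr4
      have e : r = (r + d.c k' - d.c k) + d.c k - d.c k' := by omega
      rw [e] at hr4
      exact hno (r + d.c k' - d.c k) (by omega) (by omega) ((tr _ (by omega) (by omega)).2 hr4)
    · have e : (U.length + d.c k - d.c k' - d.p0) + d.c k' - d.c k = U.length - d.p0 := by omega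
      rw [e]; exact hB

/-- two walls of a word are far apart -/
theorem far (hd : d.Ok) {w : List α} {s r : ℕ} (hs : s ≤ w.length) (hr : r ≤ w.length)
    (h1 : d.Wo (w.take s)) (h2 : d.Wo (w.take r)) (hlt : s < r) : s + d.W < r := by
  by_contra hh
  have := hd.sep (w.take r) (r - s) h2 (by omega) (by omega)
  rw [List.length_take, List.take_take] at this
  apply this
  have e : min (min r w.length - (r - s)) r = s := by omega
  rw [e]; exact h1

/-- the end wall of the shifted block is one of two walls -/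
theorem two_ends (hd : d.Ok) (w : List α) : ∃ s1 s2, d.z ≤ s1 + d.p0 ∧ d.z ≤ s2 + d.p0 ∧
    ∀ k < d.K, ∀ k' < d.K, ∀ s, s ≤ w.length → d.Wo (w.take s) → d.z + d.c k ≤ s + d.c k' →
      (∀ r, r ≤ w.length → d.z + d.c k ≤ r + d.c k' → r < s → ¬ d.Wo (w.take r)) →
      s = s1 ∨ s = s2 := by
  classical
  have hzb := hd.zbig
  have hW := hd.Wbig
  by_cases h1 : ∃ s, s ≤ w.length ∧ d.Wo (w.take s) ∧ d.z ≤ s + d.p0
  · obtain ⟨a1, a2, a3⟩ := Nat.find_spec h1
    set s1 := Nat.find h1 with hs1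
    by_cases h2 : ∃ s, s ≤ w.length ∧ d.Wo (w.take s) ∧ s1 < s
    · obtain ⟨b1, b2, b3⟩ := Nat.find_spec h2
      set s2 := Nat.find h2 with hs2
      refine ⟨s1, s2, a3, by omega, ?_⟩
      intro k hk k' hk' s hs hws hz hmin
      have hc := hd.cle k hk
      have hc' := hd.cle k' hk'
      have h3 : s1 ≤ s := Nat.find_min' h1 ⟨hs, hws, by omega⟩
      rcases Nat.lt_or_eq_of_le h3 with h3 | h3
      · right
        have h4 : s2 ≤ s := Nat.find_min' h2 ⟨hs, hws, h3⟩
        rcases Nat.lt_or_eq_of_le h4 with h4 | h4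
        · exfalso
          have h5 : ¬ (d.z + d.c k ≤ s2 + d.c k') := fun h => hmin s2 b1 h h4 b2
          have := far hd a1 b1 a2 b2 b3
          omega
        · exact h4.symm
      · left; exact h3.symm
    · refine ⟨s1, s1, a3, a3, ?_⟩
      intro k hk k' hk' s hs hws hz hmin
      have hc' := hd.cle k' hk'
      have h3 : s1 ≤ s := Nat.find_min' h1 ⟨hs, hws, by omega⟩
      rcases Nat.lt_or_eq_of_le h3 with h3 | h3
      · exact (h2 ⟨s, hs, hws, h3⟩).elim
      · left; exact h3.symm
  · refine ⟨d.z, d.z, by omega, by omega, ?_⟩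
    intro k hk k' hk' s hs hws hz hmin
    have hc' := hd.cle k' hk'
    exact (h1 ⟨s, hs, hws, by omega⟩).elim

/-- spoiled places -/
def Spo (d : Dat α S V) (w : List α) (k : ℕ) : Prop :=
  k < d.K ∧ ∃ k' < d.K, k' ≠ k ∧ ∃ p' U : List α, p'.length = d.c k' ∧ U ∈ d.XX ∧
    U <+: p' ++ w.drop (d.c k) ∧ U ∈ d.Bad

open Classical in
theorem spoil_card (hd : d.Ok) (w : List α) (hw : 2 * d.z ≤ w.length + d.p0) :
    ((Finset.range d.K).filter (fun k => Spo d w k)).card ≤ 1 + 2 * d.C0 := by
  have hzb := hd.zbig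
  have hW := hd.Wbig
  obtain ⟨s1, s2, hs1, hs2, hends⟩ := two_ends hd w
  set SE : Finset ℕ := (Finset.range d.K).filter (fun k => ∃ k' < d.K, k' ≠ k ∧
    ∃ s, s ≤ w.length ∧ d.Wo (w.take s) ∧ d.z + d.c k ≤ s + d.c k' + d.N ∧
      s + d.c k' < d.z + d.N + d.c k) with hSE
  set F : ℕ → Finset ℕ := fun T => (((Finset.range d.K) ×ˢ (Finset.range d.K)).filter
    (fun ab : ℕ × ℕ => ab.1 ≠ ab.2 ∧ d.BadT (T + d.c ab.2 - d.c ab.1))).image Prod.fst with hF
  have hF1 : ∀ T, d.La ≤ T → d.p0 ≤ T → (F T).card ≤ d.C0 := fun T h1 h2 =>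
    (Finset.card_image_le).trans (hd.thin T h1 h2)
  have hsub : (Finset.range d.K).filter (fun k => Spo d w k) ⊆
      SE ∪ (F (s1 - d.p0) ∪ F (s2 - d.p0)) := by
    intro k hk
    rw [Finset.mem_filter] at hk
    obtain ⟨-, hkK, k', hk', hne, p', U, hp, hU, hpre, hb⟩ := hk
    rw [Finset.mem_union, Finset.mem_union]
    rcases facts hd hkK hk' hw hp hU hpre hb with hE | ⟨s, a1, a2, a3, a4, a5⟩
    · left
      exact Finset.mem_filter.2 ⟨Finset.mem_range.2 hkK, k', hk', hne, hE⟩
    · right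
      have hmem : ∀ s0, s = s0 → k ∈ F (s0 - d.p0) := by
        intro s0 h0
        subst h0
        refine Finset.mem_image.2 ⟨(k, k'), Finset.mem_filter.2 ⟨Finset.mem_product.2
          ⟨Finset.mem_range.2 hkK, Finset.mem_range.2 hk'⟩, fun h => hne h.symm, a5⟩, rfl⟩
      rcases hends k hkK k' hk' s a1 a2 a3 a4 with h | h
      · left; exact hmem s1 h
      · right; exact hmem s2 h
  have hSE1 : SE.card ≤ 1 := by
    rw [Finset.card_le_one]
    intro k hk l hl
    rw [hSE, Finset.mem_filter, Finset.mem_range] at hk hl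
    obtain ⟨hk, k', hk', hne, s, a1, a2, a3, a4⟩ := hk
    obtain ⟨hl, l', hl', hne2, r, b1, b2, b3, b4⟩ := hl
    have c1 := hd.cle k hk
    have c2 := hd.cle k' hk'
    have c3 := hd.cle l hl
    have c4 := hd.cle l' hl'
    have hsr : s = r := by
      rcases lt_trichotomy s r with h | h | h
      · have := far hd a1 b1 a2 b2 h; omega
      · exact h
      · have := far hd b1 a1 b2 a2 h; omega
    subst hsr
    by_contra hkl
    rcases hd.res k hk k' hk' l hl l' hl' (fun h => hne h.symm) (fun h => hne2 h.symm)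
      (fun h => hkl h.1) with h | h
    · omega
    · omega
  calc _ ≤ (SE ∪ (F (s1 - d.p0) ∪ F (s2 - d.p0))).card := Finset.card_le_card hsub
    _ ≤ SE.card + (F (s1 - d.p0) ∪ F (s2 - d.p0)).card := Finset.card_union_le _ _
    _ ≤ SE.card + ((F (s1 - d.p0)).card + (F (s2 - d.p0)).card) :=
        Nat.add_le_add_left (Finset.card_union_le _ _) _
    _ ≤ 1 + 2 * d.C0 := by
        have := hF1 (s1 - d.p0) (by omega) (by omega)
        have := hF1 (s2 - d.p0) (by omega) (by omega)
        omega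

/-- scheme 2 is complete at bad blocks -/
theorem c2 (hd : d.Ok) (u : List α) (hu : u ∈ d.Bad) (x : V) (t : List α)
    (ht : t ∈ d.Bad ^ 1) : ∃ p q y, u ++ t = p ++ q ∧ p ∈ d.L2 x ∧
      q ∈ Rsem d.XX d.Bad d.T 1 d.L2 y := by
  classical
  rw [pow_one] at ht
  have hzb := hd.zbig
  have hul : d.z ≤ u.length := hu.1.1
  have htl : d.z ≤ t.length := ht.1.1
  have hl0 : (u.take d.p0).length = d.p0 := by rw [List.length_take]; omega
  obtain ⟨I, hI, hI2⟩ := hd.e3 (u.take d.p0) x hl0
  have hsp := spoil_card hd (u ++ t) (by rw [List.length_append]; omega)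
  obtain ⟨k, hkI, hkS⟩ : ∃ k ∈ I, ¬ Spo d (u ++ t) k := by
    by_contra hh
    push Not at hh
    have : I ⊆ (Finset.range d.K).filter (fun k => Spo d (u ++ t) k) := fun k hk =>
      Finset.mem_filter.2 ⟨Finset.mem_range.2 (hI2 k hk).1, hh k hk⟩
    have := Finset.card_le_card this
    omega
  obtain ⟨hkK, hlam, hrho⟩ := hI2 k hkI
  obtain ⟨r, hr⟩ := Option.isSome_iff_exists.1 hrho
  have hck := hd.cle k hkK
  have hlk : (u.take (d.c k)).length = d.c k := by rw [List.length_take]; omega
  have et : (u.take d.p0).take (d.c k) = u.take (d.c k) := by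
    rw [List.take_take, min_eq_left hck]
  rw [et] at hlam
  have edrop : (u ++ t).drop (d.c k) = u.drop (d.c k) ++ t :=
    List.drop_append_of_le_length (by omega)
  refine ⟨u.take (d.c k), u.drop (d.c k) ++ t,
    d.T t (d.act r (d.ph (u.drop d.p0)) + d.nu1 (u.drop d.p0)), ?_, ⟨k, hkK, hlk, hlam⟩, ?_⟩
  · rw [← List.append_assoc, List.take_append_drop]
  · rintro x' p' ⟨k', hk', hp', hlam'⟩
    by_cases hkk : k' = k
    · subst hkk
      left
      have hb : p' ++ u.drop (d.c k') ∈ d.Bad := by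
        refine move2B hd (P := u.take (d.c k')) (by omega) (by omega) ?_
        rw [List.take_append_drop]; exact hu
      have hval : d.T (p' ++ u.drop (d.c k')) x' =
          d.act r (d.ph (u.drop d.p0)) + d.nu1 (u.drop d.p0) := by
        have e1 : (p' ++ u.drop (d.c k')).take d.p0 = p' ++ (u.take d.p0).drop (d.c k') := by
          rw [List.take_append, List.take_of_length_le (by omega), List.drop_take, hp']
        have e2 : (p' ++ u.drop (d.c k')).drop d.p0 = u.drop d.p0 := by
          rw [List.drop_append, List.drop_of_length_le (by omega), List.nil_append,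
            List.drop_drop, hp']
          congr 1; omega
        unfold Dat.T
        rw [e1, e2]
        have := hd.e2 k' hk' p' ((u.take d.p0).drop (d.c k')) x' r hp'
          (by rw [List.length_append, List.length_drop, hl0]; omega) hlam' hr
        rw [this]
      refine ⟨_, Language.mem_mul.2 ⟨p' ++ u.drop (d.c k'), ⟨hb, hval⟩, t, ?_,
        by rw [List.append_assoc]⟩⟩
      exact ⟨_, Language.mem_mul.2 ⟨t, ⟨ht, rfl⟩, [], ⟨rfl, rfl⟩, by simp⟩⟩
    · right
      left
      have hck' := hd.cle k' hk'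
      have hvis : ∃ U, U ∈ d.XX ∧ U <+: p' ++ (u.drop (d.c k) ++ t) := by
        refine visible ?_ ?_
        · rw [List.length_append, List.length_append, List.length_drop]; omega
        · rw [← List.append_assoc]
          exact (hd.loc _ _ (by omega)).2 ht.1.2.1
      obtain ⟨U, hU, hpre⟩ := hvis
      refine ⟨U, hU, ?_, hpre⟩
      intro hUb
      exact hkS ⟨hkK, k', hk', hkk, p', U, hp', hU, by rw [edrop]; exact hpre, hUb⟩

end Crest.Agent.R320.Fin_774
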