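import Crest.Agent.R320.Avail_775
import Crest.Agent.R320.SemTop_727
import Crest.Agent.R320.Fib_298
import Crest.Agent.R320.GridG_19
import Crest.Agent.R320.RulerGrid_506
import Crest.Agent.R320.ExactR_237
import Crest.Agent.R320.LWallAll_922
import Crest.Agent.R320.P4_933

/-!
Row 320: final join (helper775).
-/

set_option autoImplicit false

namespace Crest.Agent.R320.Fin_775

open Crest.RegLang Crest.Agent.R320.Hk_851 Crest.Agent.R320.Blk467 Crest.Agent.R320.Conc_775

/-- bad totals of 19's grid gadget are bad integers of 506 -/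
theorem bad_int {Ms : Finset ℕ} {M Γ m T : ℕ} (hΓ : 0 < Γ)
    (hT : Crest.Agent.R320.GridG_19.Am (fun k => Γ ^ k) M 0 m ≤ T)
    (h : (∃ q ∈ Ms, q ∣ T) ∨ Crest.Agent.R320.GridG_19.BadG (fun k => Γ ^ k) M 0 m T) :
    Crest.Agent.R320.RulerGrid_506.Bad Ms m M Γ
      (fun j => ((Crest.Agent.R320.GridG_19.Am (fun k => Γ ^ k) M 0 j : ℕ) : ℤ)) (T : ℤ) := by
  rcases h with ⟨q, hq, hd⟩ | ⟨k, hk, hb⟩
  · exact Or.inl ⟨q, hq, Int.natCast_dvd_natCast.2 hd⟩
  · right
    refine ⟨k + 1, by omega, by omega, ?_⟩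
    rw [Nat.add_sub_cancel]
    beta_reduce
    have hA : Crest.Agent.R320.GridG_19.Am (fun k => Γ ^ k) M 0 (k + 1) ≤ T :=
      (Crest.Agent.R320.GridG_19.Am_mono (fun k => Γ ^ k) M 0 (by omega)).trans hT
    clear hT
    generalize Crest.Agent.R320.GridG_19.Am (fun k => Γ ^ k) M 0 (k + 1) = A at *
    obtain ⟨y, rfl⟩ : ∃ y, T = A + y := ⟨T - A, by omega⟩
    have e1 : A + y - A = y := by omega
    simp only [e1] at hb
    have hpos : 0 < Γ ^ (k + 1) := by positivity
    have hdm := Nat.div_add_mod y (Γ ^ (k + 1))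
    have hlt := Nat.mod_lt y hpos
    generalize y / Γ ^ (k + 1) = q at *
    generalize y % Γ ^ (k + 1) = ρ at *
    subst hdm
    rcases hb with hb | hb
    · refine ⟨(q : ℤ), ?_⟩
      have hbz : (ρ : ℤ) < (M : ℤ) * (Γ : ℤ) ^ k := by exact_mod_cast hb
      have h0 : (0 : ℤ) ≤ (ρ : ℤ) := by positivity
      have e : ((A + (Γ ^ (k + 1) * q + ρ) : ℕ) : ℤ) - (A : ℤ) - (q : ℤ) * (Γ : ℤ) ^ (k + 1) =
          (ρ : ℤ) := by
        push_cast
        ring
      rw [e, abs_le]
      constructor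
      · linarith
      · linarith
    · refine ⟨(q : ℤ) + 1, ?_⟩
      have hbz : (Γ : ℤ) ^ (k + 1) ≤ (ρ : ℤ) + (M : ℤ) * (Γ : ℤ) ^ k := by exact_mod_cast hb
      have hltz : (ρ : ℤ) < (Γ : ℤ) ^ (k + 1) := by exact_mod_cast hlt
      have h0 : (0 : ℤ) ≤ (M : ℤ) * (Γ : ℤ) ^ k := by positivity
      have e : ((A + (Γ ^ (k + 1) * q + ρ) : ℕ) : ℤ) - (A : ℤ) -
          ((q : ℤ) + 1) * (Γ : ℤ) ^ (k + 1) = (ρ : ℤ) - (Γ : ℤ) ^ (k + 1) := by
        push_cast
        ring
      rw [e, abs_le]
      constructor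
      · linarith
      · linarith

theorem fin (α : Type) [Finite α] (S : Type) [Monoid S] [Finite S] (f : α → S) (s : S) :
    HL 3 ({w | (w.map f).prod = s} : Language α) := by
  classical
  rcases isEmpty_or_nonempty α with hα | hα
  · exact HL.finite (Set.toFinite _)
  have := Fintype.ofFinite S
  obtain ⟨act, hadd, hone, hmul, hfaith⟩ := exists_module S
  have : Finite (S → ZMod 2) := inferInstance
  have := Fintype.ofFinite (S → ZMod 2)
  obtain ⟨m, r, hgrid⟩ := Crest.Agent.R320.GridG_19.grid S (S → ZMod 2) act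
  obtain ⟨K, hK⟩ := Crest.Agent.R320.ExactR_237.exact_gadget α S (S → ZMod 2) f act
    (2 * (r + m) + 2)
  obtain ⟨Ms, hcard, hpr, hgrid⟩ := hgrid (8 * 4 ^ (K + 1))
  have hMpos : 0 < ∏ q ∈ Ms, q := Finset.prod_pos fun q hq => (hpr q hq).1.pos
  set M := ∏ q ∈ Ms, q with hM
  obtain ⟨Γ, hΓdef⟩ : ∃ Γ, Γ = (100 * 4 ^ (K + 1)) * M + 1 := ⟨_, rfl⟩
  have hΓ : 0 < Γ := by omega
  have hcopM : Nat.Coprime M Γ := by
    have e : Γ = 1 + (100 * 4 ^ (K + 1)) * M := by rw [hΓdef]; ring
    rw [e]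
    exact (Nat.coprime_add_mul_right_right M 1 _).2 (Nat.coprime_one_right M)
  obtain ⟨lam, rho, nu, g1, g2, g3, g4, g5⟩ := hgrid (fun k => Γ ^ k) 0
    (fun k => by positivity) (fun a b h => pow_dvd_pow _ h)
    (fun k => Nat.Coprime.pow_right k hcopM) α (fun u => pr f u) (fun u v => pr_append f u v)
  set Am := Crest.Agent.R320.GridG_19.Am (fun k => Γ ^ k) M 0 m with hAm
  obtain ⟨N, hN⟩ : ∃ N, N = 2 * Am + M := ⟨_, rfl⟩
  obtain ⟨BT, hBT⟩ : ∃ BT : ℕ → Prop, ∀ T, BT T ↔ ((∃ q ∈ Ms, q ∣ T) ∨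
    Crest.Agent.R320.GridG_19.BadG (fun k => Γ ^ k) M 0 m T) := ⟨_, fun _ => Iff.rfl⟩
  obtain ⟨x, x1, x2, x3⟩ := Crest.Agent.R320.RulerGrid_506.exists_ruler K m (2 * N) M Γ Ms
    (fun j => ((Crest.Agent.R320.GridG_19.Am (fun k => Γ ^ k) M 0 j : ℕ) : ℤ)) hMpos
    (fun q hq => ⟨(hpr q hq).1, (hpr q hq).2, Finset.dvd_prod_of_mem _ hq⟩) (by omega)
  obtain ⟨lamE, rhoE, nuE, e1, e2⟩ := hK x (fun i j hij _ => x1 hij)
  obtain ⟨p0, hp0⟩ : ∃ p0, p0 = x K + Am := ⟨_, rfl⟩
  have hxp : ∀ k < K, x k ≤ p0 := fun k hk => by have := x1 hk; omega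
  obtain ⟨n, Gw, B, Wo, hLW, hgap, -, -, hfree⟩ :=
    Crest.Agent.R320.LWallAll_922.walls_all_left α (2 * p0 + 2 * N + 1) (by omega)
  obtain ⟨z, hz⟩ : ∃ z, z = 3 * p0 + N + n + 1 := ⟨_, rfl⟩
  let D : Dat α S (S → ZMod 2) := ⟨f, act, Wo, n, z, p0, N, K, x, BT, lam, rho, nu,
    lamE, fun k Q => rhoE k Q 1, fun u => nuE u 1⟩
  have hOk : Ok D := by
    refine ⟨hLW.app, ?_, ?_, ?_, ?_, hxp, ?_⟩
    · show p0 + N + n < z
      omega
    · intro p v h
      have := (g2 p v h).2
      show p.length ≤ N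
      omega
    · intro p q v b h1 h2
      exact g1 p q v b h1 h2
    · intro u h1 h2 v
      have h1' : N ≤ u.length := h1
      have h2' : ¬ BT u.length := h2
      rw [hBT] at h2'
      push Not at h2'
      exact g4 u (by omega) (by omega) h2'.1 h2'.2 v
    · intro k hk P Q v b hP h1 h2
      have := e1 k hk P Q 1 v b hP h1 h2
      rw [mul_one] at this
      exact this
  have hAv : Avail D := by
    refine avail D (2 * p0 + 2 * N + 1) (r + m) (2 * (r + m) + 2) ?_ ?_ ?_ hxp ?_ ?_ le_rfl ?_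
    · intro P d h1 h2 h3 h4
      have h4' : Wo (P.take (P.length - d)) := h4
      have h1' : Wo P := h1
      rcases Nat.lt_or_ge P.length d with hlt | hge
      · have hl := hLW.len P h1'
        have h0 : P.length - d = 0 := by omega
        rw [h0] at h4'
        by_cases hP0 : P.length = 0
        · -- the empty word is a wall: impossible
          exfalso
          have hPe : P = [] := List.length_eq_zero_iff.1 hP0
          subst hPe
          -- n = 0, every word is a wall
          have hn0 : n = 0 := by simpa using hl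
          have hall : ∀ X : List α, Wo X := fun X => by
            have := (hLW.app X [] (by rw [hn0]; exact Nat.zero_le _)).2 h1'
            simpa using this
          obtain ⟨a⟩ := hα
          have := hgap [a] 0 1 (by omega) (by simp) (hall _) (hall _)
          omega
        · have := hgap P 0 P.length (by omega) le_rfl (by simpa using h4') (by
            rw [List.take_length]; exact h1')
          omega
      · have := hgap P (P.length - d) P.length (by omega) le_rfl h4' (by
          rw [List.take_length]; exact h1')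
        omega
    · show 2 * p0 + 2 * N ≤ 2 * p0 + 2 * N + 1
      omega
    · show 3 * p0 + N + n < z
      omega
    · intro a ha b hb a' ha' b' hb' hab hab' h1 h2
      have h1' : x a + x b' < x a' + x b + 2 * N := h1
      have h2' : x a' + x b < x a + x b' + 2 * N := h2
      by_contra hne
      have h3 := x2 a b a' b' ha hb ha' hb' hab hab' hne
      rw [lt_abs] at h3
      push_cast at h3
      omega
    · intro T hT
      have hT' : p0 ≤ T := hT
      refine le_trans ?_ ((x3 (T : ℤ)).trans (Nat.add_le_add_right hcard m))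
      refine Finset.card_le_card ?_
      rintro ⟨a, b⟩ hab
      rw [Finset.mem_filter, Finset.mem_product, Finset.mem_range, Finset.mem_range] at hab ⊢
      obtain ⟨⟨ha, hb⟩, hne, hbad⟩ := hab
      refine ⟨⟨ha, hb⟩, hne, ?_⟩
      have hxa := x1 ha
      have hxa' : x a < x K := hxa
      have hbad' : BT (T + x b - x a) := hbad
      rw [hBT] at hbad'
      have h5 := bad_int (Ms := Ms) (M := M) (Γ := Γ) (m := m) (T := T + x b - x a) hΓ
        (by rw [← hAm]; omega) hbad'
      have e : ((T + x b - x a : ℕ) : ℤ) = (T : ℤ) + x b - x a := by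
        have : x a ≤ T + x b := by omega
        push_cast [Nat.cast_sub this]
        ring
      rw [e] at h5
      exact h5
    · intro u hu v
      obtain ⟨I, hI, hIk⟩ := e2 u 1 v (fun k hk => by
        have hu' : u.length = p0 := hu
        rw [hu']; exact hxp k hk)
      exact ⟨I, hI, hIk⟩
  -- walls
  have hWU : Crest.Agent.R320.Fib_298.WallU Wo n (B + (2 * p0 + 2 * N + 1)) := by
    refine ⟨hLW.app, hLW.len, ?_⟩
    intro X hX
    obtain ⟨u, y, v, k, h1, h2, h3, h4⟩ := hfree X hX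
    exact ⟨u, y, v, k, h4, by omega, by omega, by omega⟩
  -- regularity of the noise
  have hnu : ∀ y, Language.IsRegular ({Y | nu Y = y} : Language α) := by
    intro y
    refine Crest.Agent.R320.P4_933.regular_of_class f
      (Crest.Agent.R320.GridG_19.Ac (fun k => Γ ^ k) M 0 m) (M * Γ ^ m) (by positivity)
      (fun Y => nu Y = y) ?_
    intro u u' h1 h2 h3 h4 h5
    rw [g5 u u' h1 h2 h3 h4 h5]
  let E : Crest.Agent.R320.SemTop_727.Sch α (S → ZMod 2) :=
    ⟨XX Wo z, TT D, Conc_775.L1 D, Conc_775.L2 D⟩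
  refine Crest.Agent.R320.SemTop_727.top (k := 1) act hadd hone hmul hfaith f
    (fun X => act (nuE (X.take p0) 1) (pr f (X.drop p0)) + nu (X.drop p0)) E ?_ ?_ ?_ ?_ ?_ ?_ ?_ s
  · intro v X
    show act (act v (pr f (X.take p0)) + nuE (X.take p0) 1) (pr f (X.drop p0)) + nu (X.drop p0) = _
    rw [hadd, ← hmul, ← pr_append, List.take_append_drop, add_assoc]
    rfl
  · exact pcode (by omega)
  · intro v y
    exact Crest.Agent.R320.Fib_298.hfib hWU (by omega) act f p0 (by omega)
      (fun v X0 => act v (X0.map f).prod + nuE X0 1) nu hnu v y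
  · intro v
    refine (List.finite_length_le α (p0 + N)).subset ?_
    rintro P ⟨_, h, _⟩
    exact h
  · intro v
    refine (List.finite_length_le α p0).subset ?_
    rintro P ⟨k, hk, h, _⟩
    have := hxp k hk
    have h' : P.length = x k := h
    show P.length ≤ p0
    omega
  · exact compl2 D hOk hAv
  · intro t
    exact (Crest.Agent.R320.Fib_298.rest hWU (by omega) f t).mono (by omega)

end Crest.Agent.R320.Fin_775
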