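import Crest.Agent.R320.Top5_120
import Crest.Agent.R320.Sc2n_937
import Crest.Agent.R320.G1_852
import Crest.Agent.R320.Sp_314
import Crest.Agent.R320.LWallAll_922
import Crest.Agent.R320.P4_933
import Crest.Agent.R320.P4b_933
import Crest.Agent.R320.ExactR_237
import Crest.Agent.R320.Block_467

set_option autoImplicit false

namespace Crest.Agent.R320.Fin_779

open Crest.RegLang Crest.Agent.R320.Hk_851 Crest.Agent.R320.Blk467 Crest.Agent.R320.BddReg_746
open Crest.Agent.R320.Sc2n_937

theorem bad_congr {Ms : Finset ℕ} {M m b : ℕ} (hk : ∀ k ∈ Ms, k ∣ M) {n n' : ℕ}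
    (h : n % (M * b ^ m) = n' % (M * b ^ m)) (hb : Sp314.Bad Ms M m b n) :
    Sp314.Bad Ms M m b n' := by
  have h' : n ≡ n' [MOD M * b ^ m] := h
  rcases hb with ⟨k, hk1, hk2⟩ | ⟨j, hj, hd⟩
  · left
    refine ⟨k, hk1, ?_⟩
    have h1 : n ≡ n' [MOD k] := h'.of_dvd ((hk k hk1).mul_right _)
    exact (h1.dvd_iff dvd_rfl).1 hk2
  · right
    refine ⟨j, hj, ?_⟩
    have h1 : n ≡ n' [MOD b ^ j * b] := by
      rw [← pow_succ]
      exact h'.of_dvd ((pow_dvd_pow b (by omega : j + 1 ≤ m)).mul_left _)
    have h2 : n / b ^ j % b = n' / b ^ j % b := by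
      rw [← Nat.mod_mul_right_div_self, ← Nat.mod_mul_right_div_self, h1]
    rw [← h2]
    exact hd

theorem mod_sub {a b c M : ℕ} (ha : c ≤ a) (hb : c ≤ b) (h : a % M = b % M) :
    (a - c) % M = (b - c) % M := by
  have h1 : a ≡ b [MOD M] := h
  have h2 : (a - c) + c ≡ (b - c) + c [MOD M] := by
    rw [Nat.sub_add_cancel ha, Nat.sub_add_cancel hb]; exact h1
  exact Nat.ModEq.add_right_cancel' c h2

/-- **row 320, all words** -/
theorem fin (α : Type) [Finite α] (S : Type) [Monoid S] [Finite S] (φ : α → S) (s : S) :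
    HL 3 ({w | (w.map φ).prod = s} : Language α) := by
  classical
  obtain ⟨act, hadd, hone, hmul, hfaith⟩ := exists_module S
  let V := S → ZMod 2
  have : Finite V := inferInstance
  have : Fintype S := Fintype.ofFinite S
  have : Fintype V := Fintype.ofFinite V
  obtain ⟨m, r, H1⟩ := G1_852.gadget act
  set C0 := r + m with hC0
  obtain ⟨K, H2⟩ := ExactR_237.exact_gadget α S V φ act (2 * C0 + 2)
  obtain ⟨Ms, M, hcard, hMs, hM, H1⟩ := H1 (2 ^ (K + 1))
  set b := M * 2 ^ (K + 5) + 1 with hb
  have hcop : Nat.Coprime b M := by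
    rw [hb]
    simp
  have hb0 : 0 < b := by omega
  obtain ⟨lam, rho, nu1, g1, g2, g3, g4⟩ := H1 b hb0 hcop α φ
  obtain ⟨c, hmono, -, hc4, -, hsid, -, hspoil⟩ := Sp314.spoil K (b ^ m) m M b Ms hM
    (fun k hk => ⟨(hMs k hk).1, (hMs k hk).2.2⟩) hcop (by rw [hb, mul_comm]; omega)
  obtain ⟨lam2, rho2, nu2, e1, e2⟩ := H2 c (fun i j hij _ => hmono hij)
  set N1 := b ^ m with hN1
  have hN1p : 0 < N1 := Nat.pow_pos hb0
  set p0 := c K with hp0
  have hcp : ∀ k, k < K → c k ≤ p0 := fun k hk => (hmono hk).le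
  obtain ⟨n, G, B, Wo, hLW, hgap, -, -, hfree⟩ :=
    LWallAll_922.walls_all_left α (2 * p0 + 2 * N1) (by omega)
  let q0 := n + 2 * p0
  let g : Geo α :=
    { Wo := Wo, n := n, z := p0 + N1 + q0, p0 := p0, q0 := q0, N1 := N1
      loc := hLW.app, hz := rfl, hq := by omega, hN := hN1p, hqp := by omega }
  let BadT : ℕ → Prop := Sp314.Bad Ms M m b
  let pre : List α → V → V := fun X v => act v (X.map φ).prod + nu2 X 1
  let post : V → List α → V := fun v X => act v (X.map φ).prod + nu1 X
  let nu : List α → V := fun X =>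
    act (nu2 (X.take p0) 1) ((X.drop p0).map φ).prod + nu1 (X.drop p0)
  have hT : ∀ v X, g.T pre post v X = act v (X.map φ).prod + nu X := by
    intro v X
    show act (act v ((X.take p0).map φ).prod + nu2 (X.take p0) 1) ((X.drop p0).map φ).prod +
      nu1 (X.drop p0) = _
    have : (X.map φ).prod = ((X.take p0).map φ).prod * ((X.drop p0).map φ).prod := by
      rw [← List.prod_append, ← List.map_append, List.take_append_drop]
    rw [this, hmul, hadd, add_assoc]
  let C : Set (List α) := {X | g.XX X}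
  let Bad : Set (List α) := {X | g.XX X ∧ g.BadX BadT X}
  let L1 : V → Set (List α) := fun v => {P | g.LP1 pre lam v P}
  let L2 : V → Set (List α) := fun v => {P | Geo.LP2 K c lam2 v P}
  have hlen : ∀ P v, lam P = some v → P.length ≤ g.N1 := fun P v h => (g1 P v h).le
  have hex1 : ∀ P Q u b, lam P = some u → rho Q = some b → b = post u (P ++ Q) :=
    fun P Q u b h1 h2 => g2 P Q u b h1 h2
  have hex2 : ∀ k, k < K → ∀ P Q v u, P.length = c k → Q.length = g.p0 - c k →
      lam2 k P = some v → (fun k Q => rho2 k Q 1) k Q = some u → u = pre (P ++ Q) v := by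
    intro k hk P Q v u hP _ h1 h2
    have := e1 k hk P Q 1 v u hP h1 h2
    rw [mul_one] at this
    exact this
  have hPC : PCode C := by
    refine ⟨?_, ?_⟩
    · intro h
      have h1 : g.z ≤ ([] : List α).length := h.1
      have h2 : g.z = p0 + N1 + q0 := rfl
      simp only [List.length_nil] at h1
      omega
    · rintro X hX Y hY ⟨R, hR⟩
      exact g.prefix_code (R := R) (R' := []) hX hY (by rw [hR, List.append_nil])
  have hfree' : ∀ u : List α, (∀ t < u.length, ¬ Wo (u.take t)) →
      u ∈ (PN (max B (2 * p0 + 2 * N1)) 2 : Language α) := by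
    intro u hu
    obtain ⟨u1, x, v1, k, h1, h2, h3, rfl⟩ := hfree u hu
    refine Language.mem_mul.2 ⟨u1 ++ (List.replicate k x).flatten,
      ⟨u1, x, k, h1.trans (le_max_left _ _), h2.trans (le_max_right _ _), rfl⟩, v1, ?_, rfl⟩
    exact Language.mem_mul.2 ⟨v1, ⟨v1, [], 0, h3.trans (le_max_left _ _), by simp, by simp⟩,
      [], rfl, by simp⟩
  have hXX : ∀ X, P4_933.XX Wo g.z X ↔ g.XX X := by
    intro X
    constructor
    · rintro ⟨h1, h2, h3⟩; exact ⟨h2, h1, fun t ht ht2 => h3 t ht2 ht⟩
    · rintro ⟨h1, h2, h3⟩; exact ⟨h2, h1, fun t ht ht2 => h3 t ht2 ht⟩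
  have hM0 : 0 < M * b ^ m := Nat.mul_pos hM hN1p
  -- finite-state properties
  have key : ∀ u u' : List α, g.z + N1 ≤ u.length → g.z + N1 ≤ u'.length →
      u.take (g.z + N1) = u'.take (g.z + N1) → u.length % (M * b ^ m) = u'.length % (M * b ^ m) →
      ((u.drop (g.z + N1)).map φ).prod = ((u'.drop (g.z + N1)).map φ).prod →
      (u.map φ).prod = (u'.map φ).prod ∧ nu u = nu u' ∧ (g.BadX BadT u → g.BadX BadT u') := by
    intro u u' h1 h2 h3 h4 h5
    have hz : g.z = p0 + N1 + q0 := rfl
    have hprod : ∀ w : List α, ∀ k, (w.map φ).prod = ((w.take k).map φ).prod * ((w.drop k).map φ).prod := by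
      intro w k
      rw [← List.prod_append, ← List.map_append, List.take_append_drop]
    have f1 : (u.map φ).prod = (u'.map φ).prod := by
      rw [hprod u (g.z + N1), hprod u' (g.z + N1), h3, h5]
    have f2 : ∀ t, t ≤ g.z + N1 → u.take t = u'.take t := by
      intro t ht
      have := congrArg (List.take t) h3
      rwa [List.take_take, List.take_take, Nat.min_eq_left ht] at this
    have f3 : ∀ t, t ≤ g.z + N1 → ((u.drop t).map φ).prod = ((u'.drop t).map φ).prod := by
      intro t ht
      have e : ∀ w : List α, w.drop t = (w.take (g.z + N1)).drop t ++ w.drop (g.z + N1) := by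
        intro w
        rcases le_total t w.length with hl | hl
        · conv_lhs => rw [← List.take_append_drop (g.z + N1) w]
          rw [List.drop_append]
          by_cases hw : g.z + N1 ≤ w.length
          · have : (w.take (g.z + N1)).length = g.z + N1 := by rw [List.length_take]; omega
            rw [this, Nat.sub_eq_zero_of_le ht]; rfl
          · rw [List.drop_of_length_le (i := g.z + N1) (by omega)]; simp
        · rw [List.drop_of_length_le hl, List.drop_of_length_le (i := g.z + N1) (by omega),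
            List.drop_of_length_le (by rw [List.length_take]; omega)]
          rfl
      rw [e u, e u', h3, List.map_append, List.map_append, List.prod_append, List.prod_append, h5]
    have f4 : (u.length - p0) % (M * b ^ m) = (u'.length - p0) % (M * b ^ m) :=
      mod_sub (by omega) (by omega) h4
    have f5 : nu1 (u.drop p0) = nu1 (u'.drop p0) := by
      refine (g4 _ _ ?_ ?_ ?_).2
      · have := congrArg (List.drop p0) (f2 (p0 + N1) (by omega))
        rwa [List.drop_take, List.drop_take, Nat.add_sub_cancel_left] at this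
      · rw [List.drop_drop, List.drop_drop]
        exact f3 _ (by omega)
      · rw [List.length_drop, List.length_drop]
        exact f4
    refine ⟨f1, ?_, ?_⟩
    · show act (nu2 (u.take p0) 1) ((u.drop p0).map φ).prod + nu1 (u.drop p0) =
        act (nu2 (u'.take p0) 1) ((u'.drop p0).map φ).prod + nu1 (u'.drop p0)
      rw [f2 p0 (by omega), f3 p0 (by omega), f5]
    · rintro (⟨t, ht1, ht2, ht3, ht4⟩ | hB)
      · left
        have ht4' : t < g.z + N1 := ht4
        refine ⟨t, by omega, ?_, ht3, ht4⟩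
        rw [← f2 t ht4'.le]; exact ht2
      · right
        exact bad_congr (fun k hk => (hMs k hk).2.2) f4 hB
  have hCT : ∀ x y, HL 1 ({X | X ∈ C ∧ act x (X.map φ).prod + nu X = y} : Language α) := by
    intro x y
    refine (P4_933.hl_XX (z := g.z) (f := fun X => act x (X.map φ).prod + nu X = y)
      hLW.app hLW.len hfree' ?_).congr fun w => ?_
    · refine P4_933.regular_of_class' φ (g.z + N1) (M * b ^ m) hM0 _ ?_
      intro u u' h1 h2 h3 h4 h5
      obtain ⟨k1, k2, -⟩ := key u u' h1 h2 h3 h4 h5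
      rw [k1, k2]
    · exact and_congr (hXX w).symm Iff.rfl
  have hBT : ∀ x y, HL 1 ({X | X ∈ Bad ∧ act x (X.map φ).prod + nu X = y} : Language α) := by
    intro x y
    refine (P4_933.hl_XX (z := g.z)
      (f := fun X => g.BadX BadT X ∧ act x (X.map φ).prod + nu X = y)
      hLW.app hLW.len hfree' ?_).congr fun w => ?_
    · refine P4_933.regular_of_class' φ (g.z + N1) (M * b ^ m) hM0 _ ?_
      intro u u' h1 h2 h3 h4 h5
      obtain ⟨k1, k2, k3⟩ := key u u' h1 h2 h3 h4 h5
      obtain ⟨-, -, k4⟩ := key u' u h2 h1 h3.symm h4.symm h5.symm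
      rw [k1, k2]
      exact and_congr ⟨k3, k4⟩ Iff.rfl
    · show ((g.XX w ∧ g.BadX BadT w) ∧ _) ↔ (P4_933.XX Wo g.z w ∧ g.BadX BadT w ∧ _)
      rw [hXX w, and_assoc]
  have htail : ∀ s, HL 1 ({w | (∀ X ∈ C, ¬ X <+: w) ∧ (w.map φ).prod = s} : Language α) := by
    intro s
    refine (P4_933.hl_NB (z := g.z) (f := fun X => (X.map φ).prod = s)
      hLW.app hLW.len hfree' ?_).congr fun w => ?_
    · refine P4_933.regular_of_class' φ 0 1 one_pos _ ?_
      intro u u' _ _ _ _ h5
      rw [List.drop_zero, List.drop_zero] at h5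
      rw [h5]
    · refine and_congr ?_ Iff.rfl
      rw [P4_933.NB_iff]
      constructor
      · intro h P hP hX; exact h P ((hXX P).1 hX) hP
      · intro h P hP hX; exact h P hX ((hXX P).2 hP)
  have hf1 : ∀ v, (L1 v).Finite := by
    intro v
    refine (List.finite_length_le α (p0 + N1)).subset ?_
    rintro P ⟨h1, h2⟩
    have h3 := hlen _ _ h2
    have h4 : (P.drop p0).length ≤ N1 := h3
    have h5 : p0 ≤ P.length := h1
    rw [List.length_drop] at h4
    show P.length ≤ p0 + N1
    omega
  have hf2 : ∀ v, (L2 v).Finite := by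
    intro v
    refine (List.finite_length_le α p0).subset ?_
    rintro P ⟨k, hk, h1, -⟩
    show P.length ≤ p0
    rw [h1]
    exact hcp k hk
  refine Top5_120.top5 act hadd hone hmul hfaith φ nu C Bad hPC (fun X hX => hX.1) L1 L2 hf1 hf2
    hCT hBT htail ?_ ?_ s
  · intro X hX hnB v
    have hXg : g.XX X := hX
    have hnb : ¬ g.BadX BadT X := fun h => hnB ⟨hX, h⟩
    have hz : g.z = p0 + N1 + q0 := rfl
    obtain ⟨P, Q, bb, hXe, hP, hQ⟩ := g.complete1 (lam := lam) (rho := rho) pre hlen hXg (fun h => hnb (Or.inl h)) (by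
      intro u
      have hl : (X.drop g.p0).length = X.length - p0 := List.length_drop
      have hnt : ¬ BadT (X.length - p0) := fun h => hnb (Or.inr h)
      obtain ⟨P, Q, h1, h2, v', h3⟩ := g3 (X.drop g.p0) (fun k hk hd => hnt (Or.inl ⟨k, hk, by
          rwa [hl] at hd⟩)) (fun j hj => by
          by_contra hcon
          refine hnt (Or.inr ⟨j, hj, ?_⟩)
          rw [hl] at hcon
          omega) u
      exact ⟨P, Q, h1, h2, by rw [h3]; rfl⟩) v
    refine ⟨P, Q, hXe.symm, hP, fun x P' hP' => ?_⟩
    obtain ⟨k1, k2⟩ := g.sound1 pre post hlen hex1 hP' hQ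
    obtain ⟨k3, k4⟩ := g.sound1 pre post hlen hex1 hP hQ
    refine ⟨k1, ?_⟩
    rw [← hT, ← hT, k2, hXe, k4]
  · rintro X ⟨hX, hXb⟩ Y ⟨hY, -⟩ v
    have hz : g.z = p0 + N1 + q0 := rfl
    have hXz := hX.1
    obtain ⟨P, Q, bb, hPQ, hP, hQ⟩ := g.complete2 pre post (BadT := BadT) (K := K) (c := c)
      (lam2 := lam2) (rho2 := fun k Q => rho2 k Q 1) (C0 := C0) hcp
      (by
        intro P Q h1 h2 h3
        have h4 : 0 < Q.length := List.length_pos_iff.2 h3
        have := hgap (P ++ Q) P.length (P ++ Q).length (by rw [List.length_append]; omega) le_rfl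
          (by rw [List.take_left]; exact h1) (by rw [List.take_length]; exact h2)
        rw [List.length_append] at this
        show 2 * p0 + 2 * N1 < Q.length
        omega)
      (by
        intro k k' l l' hk hk' hl hl' hne hne' h1 h2
        have h1' : c k + c l' < c l + c k' + 2 * N1 := h1
        have h2' : c l + c k' < c k + c l' + 2 * N1 := h2
        refine (hsid k k' l l' hne.symm ?_).1
        rw [abs_le]
        constructor <;> omega)
      (by
        intro τ hτ J hJ
        have hτ' : g.z ≤ τ + p0 := hτ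
        obtain ⟨PP, hPc, hPm⟩ := hspoil (τ - p0) (fun i hi => by have := hcp i hi; omega)
        have hsub : J ⊆ PP.image Prod.fst := by
          intro k hk
          obtain ⟨hkK, k', hk', hne, hb'⟩ := hJ k hk
          have := hcp k hkK
          have hb'' : Sp314.Bad Ms M m b (τ + c k' - c k - p0) := hb'
          have e : τ + c k' - c k - p0 = τ - p0 + c k' - c k := by omega
          rw [e] at hb''
          exact Finset.mem_image.2 ⟨(k, k'), hPm k hkK k' hk' hne.symm hb'', rfl⟩
        have h1 := Finset.card_le_card hsub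
        have h2 := Finset.card_image_le (s := PP) (f := Prod.fst)
        omega)
      hX hY v
      (by
        obtain ⟨I, hI1, hI2⟩ := e2 (X.take p0) 1 v (fun k hk => by
          rw [List.length_take]
          have := hcp k hk
          omega)
        refine ⟨I, hI1, fun k hk => ?_⟩
        obtain ⟨h1, h2, h3⟩ := hI2 k hk
        refine ⟨h1, ?_, h3⟩
        rw [List.take_take, Nat.min_eq_left (hcp k h1)] at h2
        exact h2)
    refine ⟨P, Q, hPQ, hP, fun x P' hP' => ?_⟩
    -- value of the true junction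
    obtain ⟨X2, hX2, hX2e, hval⟩ := g.sound2 pre post (BadT := BadT) (K := K) (c := c)
      (lam2 := lam2) (rho2 := fun k Q => rho2 k Q 1) (R := []) (R' := Y) hcp hex2 hX hXb hP hQ
      (by rw [List.append_nil]; exact hPQ)
    have hX2Y : X2 = Y := List.append_cancel_left (hX2e.symm.trans hPQ)
    subst hX2Y
    -- first block of `P' ++ Q`
    obtain ⟨k0, hk0, hPl, hl0⟩ := hP'
    obtain ⟨k1, hk1, l1, hend1, hgood, -⟩ := id hQ
    have hcend : ∃ l, g.CEnd Q (c k0) l := by
      by_cases hk : k0 = k1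
      · subst hk; exact ⟨l1, hend1⟩
      · obtain ⟨l, hl, -⟩ := hgood k0 hk0 hk
        exact ⟨l, hl⟩
    obtain ⟨l, hl⟩ := hcend
    have hblk : g.XX (P' ++ Q.take l) :=
      g.xx_of_cend (by rw [hPl]; exact hcp k0 hk0) (by rw [hPl]; exact hl)
    by_cases hbad : g.BadX BadT (P' ++ Q.take l)
    · left
      obtain ⟨X3, hX3, hX3e, hval3⟩ := g.sound2 pre post (BadT := BadT) (K := K) (c := c)
        (lam2 := lam2) (rho2 := fun k Q => rho2 k Q 1) (R := []) (R' := Q.drop l) hcp hex2 hblk
        hbad (v := x) (P := P') ⟨k0, hk0, hPl, hl0⟩ hQ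
        (by rw [List.append_nil, List.append_assoc, List.take_append_drop])
      refine ⟨P' ++ Q.take l, ⟨hblk, hbad⟩, X3, hX3, hX3e.symm, ?_⟩
      rw [← hT, ← hT, ← hT, ← hT, hval3, hval]
    · right
      refine ⟨P' ++ Q.take l, hblk, fun h => hbad h.2, ?_⟩
      exact (List.prefix_append_right_inj P').2 (List.take_prefix l Q)

end Crest.Agent.R320.Fin_779
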