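import Crest.Agent.R320.Top5_120
import Crest.Agent.R320.Sc2n_937
import Crest.Agent.R320.G1_852
import Crest.Agent.R320.Spoil_243
import Crest.Agent.R320.ExactR_237
import Crest.Agent.R320.LWallAll_922
import Crest.Agent.R320.P4_933
import Crest.Agent.R320.RegCongr_253

/-!
# Row 320: the join (helper78)
-/

set_option autoImplicit false

namespace Crest.Agent.R320.Fin_78

open Crest.Agent.R320.Hk_851 Crest.Agent.R320.Blk467 Crest.Agent.R320.Sc2n_937

/-! ### periodicity of the bad totals -/

theorem badN_congr {Ms : Finset ℕ} {M b m n n' : ℕ} (hMs : ∀ k ∈ Ms, k ∣ M) (hb : 0 < b)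
    (h : n % (M * b ^ m) = n' % (M * b ^ m)) (hn : Spoil243.BadN Ms M b m n) :
    Spoil243.BadN Ms M b m n' := by
  have hmod : n ≡ n' [MOD M * b ^ m] := h
  rcases hn with ⟨k, hk, hd⟩ | ⟨j, hj, hd⟩
  · left
    refine ⟨k, hk, ?_⟩
    have h1 : n ≡ n' [MOD k] := hmod.of_dvd (dvd_mul_of_dvd_left (hMs k hk) _)
    exact (Nat.modEq_zero_iff_dvd).1 (h1.symm.trans ((Nat.modEq_zero_iff_dvd).2 hd))
  · right
    refine ⟨j, hj, ?_⟩
    have h2 : b ^ j * b ∣ M * b ^ m := by
      rw [← pow_succ]
      exact dvd_mul_of_dvd_right (pow_dvd_pow b (by omega)) _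
    have h1 : n % (b ^ j * b) = n' % (b ^ j * b) := hmod.of_dvd h2
    have e : ∀ x : ℕ, x / b ^ j % b = x % (b ^ j * b) / b ^ j := fun x =>
      (Nat.mod_mul_right_div_self x (b ^ j) b).symm
    rw [e n', ← h1, ← e n]
    exact hd

/-! ### first block -/

theorem first_block {A : Type*} (g : Geo A) {w : List A} (hz : g.z ≤ w.length) (hw : g.Wo w) :
    ∃ X R, X ++ R = w ∧ g.XX X := by
  classical
  have hex : ∃ t, g.z ≤ t ∧ t ≤ w.length ∧ g.Wo (w.take t) :=
    ⟨w.length, hz, le_rfl, by rw [List.take_length]; exact hw⟩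
  obtain ⟨h1, h2, h3⟩ := Nat.find_spec hex
  refine ⟨w.take (Nat.find hex), w.drop (Nat.find hex), List.take_append_drop _ _, ?_, h3, ?_⟩
  · rw [List.length_take]; omega
  · intro t ht htl hWt
    rw [List.length_take] at htl
    rw [List.take_take, Nat.min_eq_left (by omega)] at hWt
    exact Nat.find_min hex (m := t) (by omega) ⟨ht, by omega, hWt⟩

theorem drop_split {A : Type*} {B j : ℕ} (w : List A) (hj : j ≤ B) (hB : B ≤ w.length) :
    w.drop j = (w.take B).drop j ++ w.drop B := by
  conv_lhs => rw [← List.take_append_drop B w]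
  rw [List.drop_append_of_le_length]
  rw [List.length_take]; omega

theorem prod_drop {A S : Type*} [Monoid S] (f : A → S) {B j : ℕ} {w w' : List A} (hj : j ≤ B)
    (h1 : B ≤ w.length) (h2 : B ≤ w'.length) (h : w.take B = w'.take B)
    (hd : ((w.drop B).map f).prod = ((w'.drop B).map f).prod) :
    ((w.drop j).map f).prod = ((w'.drop j).map f).prod := by
  rw [drop_split w hj h1, drop_split w' hj h2, List.map_append, List.map_append,
    List.prod_append, List.prod_append, h, hd]

theorem take_of_take {A : Type*} {B j : ℕ} {w w' : List A} (hj : j ≤ B)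
    (h : w.take B = w'.take B) : w.take j = w'.take j := by
  have := congrArg (fun l => List.take j l) h
  simpa [List.take_take, Nat.min_eq_left hj] using this

theorem mod_sub {P x y c : ℕ} (hx : c ≤ x) (hy : c ≤ y) (h : x % P = y % P) :
    (x - c) % P = (y - c) % P := by
  have h1 : (x - c) + c ≡ (y - c) + c [MOD P] := by
    rw [Nat.sub_add_cancel hx, Nat.sub_add_cancel hy]; exact h
  exact Nat.ModEq.add_right_cancel' c h1

theorem fin (α : Type) [Finite α] (S : Type) [Monoid S] [Finite S] (φ : α → S) (s : S) :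
    HL 3 ({w | (w.map φ).prod = s} : Language α) := by
  classical
  have _ := Fintype.ofFinite S
  obtain ⟨act, hadd, hone, hmul, hfaith⟩ := exists_module S
  obtain ⟨m, r, hG⟩ := G1_852.gadget act
  obtain ⟨K, hE⟩ := ExactR_237.exact_gadget α S (S → ZMod 2) φ act (2 * (r + m) + 2)
  obtain ⟨Ms, M, hcard, hMs, hM, hG1⟩ := hG (2 ^ (K + 2))
  obtain ⟨b, hb⟩ : ∃ b, b = M * 2 ^ (K + 6) + 1 := ⟨_, rfl⟩
  have hb0 : 0 < b := by omega
  have hbM : Nat.Coprime b M := by
    rw [hb]
    exact ((Nat.coprime_mul_left_add_right M 1 (2 ^ (K + 6))).2 (Nat.coprime_one_right M)).symm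
  obtain ⟨lam, rho, nu1, hlen, hsnd, hcmp, hper⟩ := hG1 b hb0 hbM α φ
  obtain ⟨N1, hN1⟩ : ∃ N1, N1 = b ^ m := ⟨_, rfl⟩
  have hN1p : 0 < N1 := by rw [hN1]; positivity
  obtain ⟨c, hcm, hcD, hcg, hcs, hcT⟩ := Spoil243.spoil K (2 * N1) Ms M b m
    (fun p hp => (hMs p hp).2.1) (fun p hp => (hMs p hp).1) (fun p hp => (hMs p hp).2.2) hbM
    (by omega) hM
  obtain ⟨lam2, rho2, nu2, h2s, h2c⟩ := hE c (fun i j hij _ => hcm hij)
  obtain ⟨p0, hp0⟩ : ∃ p0, p0 = c K := ⟨_, rfl⟩
  obtain ⟨n, G, B, Wo, hLW, hgapW, -, -, hform⟩ :=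
    LWallAll_922.walls_all_left α (2 * p0 + 2 * N1) (by omega)
  let g : Geo α :=
    { Wo := Wo, n := n, z := p0 + N1 + (n + 2 * p0), p0 := p0, q0 := n + 2 * p0, N1 := N1
      loc := hLW.app, hz := rfl, hq := by omega, hN := hN1p, hqp := by omega }
  have hgz : g.z = p0 + N1 + (n + 2 * p0) := rfl
  have hck : ∀ k, k < K → c k ≤ p0 := fun k hk => by rw [hp0]; exact (hcm hk).le
  let pre : List α → (S → ZMod 2) → (S → ZMod 2) := fun X v => act v (X.map φ).prod + nu2 X 1
  let post : (S → ZMod 2) → List α → (S → ZMod 2) := fun u Y => act u (Y.map φ).prod + nu1 Y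
  let nu : List α → (S → ZMod 2) := fun X =>
    act (nu2 (X.take p0) 1) ((X.drop p0).map φ).prod + nu1 (X.drop p0)
  let BT : ℕ → Prop := Spoil243.BadN Ms M b m
  have hT : ∀ v X, g.T pre post v X = act v (X.map φ).prod + nu X := by
    intro v X
    show act (act v ((X.take p0).map φ).prod + nu2 (X.take p0) 1) ((X.drop p0).map φ).prod
      + nu1 (X.drop p0) = _
    rw [hadd, ← hmul, ← List.prod_append, ← List.map_append, List.take_append_drop]
    simp only [nu]
    rw [add_assoc]
  have hlenN : ∀ P v, lam P = some v → P.length ≤ g.N1 := fun P v h => by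
    have := hlen P v h
    show P.length ≤ N1
    omega
  have hex1 : ∀ (P Q : List α) (u b : S → ZMod 2), lam P = some u → rho Q = some b →
      b = post u (P ++ Q) := fun P Q u b h1 h2 => hsnd P Q u b h1 h2
  have hex2 : ∀ k, k < K → ∀ (P Q : List α) (v u : S → ZMod 2), P.length = c k →
      Q.length = g.p0 - c k → lam2 k P = some v → rho2 k Q 1 = some u →
      u = pre (P ++ Q) v := by
    intro k hk P Q v u hP _ h1 h2
    have := h2s k hk P Q 1 v u hP h1 h2
    rw [mul_one] at this
    exact this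
  let C : Set (List α) := {X | g.XX X}
  let Bad : Set (List α) := {X | g.XX X ∧ g.BadX BT X}
  let L1 : (S → ZMod 2) → Set (List α) := fun v => {P | g.LP1 pre lam v P}
  let L2 : (S → ZMod 2) → Set (List α) := fun v => {P | Geo.LP2 K c lam2 v P}
  have hgapg : ∀ P Q : List α, g.Wo P → g.Wo (P ++ Q) → Q ≠ [] →
      2 * g.p0 + 2 * g.N1 < Q.length := by
    intro P Q h1 h2 h3
    have hl : 0 < Q.length := List.length_pos_of_ne_nil h3
    have := hgapW (P ++ Q) P.length (P ++ Q).length (by rw [List.length_append]; omega) le_rfl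
      (by rw [List.take_left]; exact h1) (by rw [List.take_length]; exact h2)
    rw [List.length_append] at this
    show 2 * p0 + 2 * N1 < Q.length
    omega
  have hfree : ∀ u : List α, (∀ t < u.length, ¬ Wo (u.take t)) →
      u ∈ (BddReg_746.PN (max B (2 * p0 + 2 * N1)) 2 : Language α) := by
    intro u hu
    obtain ⟨a, x, v, k, h1, h2, h3, rfl⟩ := hform u hu
    refine Language.mem_mul.2 ⟨a ++ (List.replicate k x).flatten,
      ⟨a, x, k, h1.trans (le_max_left _ _), h2.trans (le_max_right _ _), rfl⟩, v, ?_, rfl⟩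
    refine Language.mem_mul.2 ⟨v, ⟨v, [], 0, h3.trans (le_max_left _ _), by simp, by simp⟩,
      [], rfl, by simp⟩
  -- one regularity lemma
  have hreg : ∀ f : List α → Prop, (∀ u u' : List α, g.z + N1 + p0 + b ^ m ≤ u.length →
      g.z + N1 + p0 + b ^ m ≤ u'.length →
      u.take (g.z + N1 + p0 + b ^ m) = u'.take (g.z + N1 + p0 + b ^ m) →
      u.length % (M * b ^ m) = u'.length % (M * b ^ m) →
      ((u.drop (g.z + N1 + p0 + b ^ m)).map φ).prod =
        ((u'.drop (g.z + N1 + p0 + b ^ m)).map φ).prod → f u → f u') →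
      Language.IsRegular ({u | f u} : Language α) := fun f hf =>
    RegCongr_253.regular_of_congr φ _ _ (by positivity) _ hf
  have hnu : ∀ u u' : List α, g.z + N1 + p0 + b ^ m ≤ u.length →
      g.z + N1 + p0 + b ^ m ≤ u'.length →
      u.take (g.z + N1 + p0 + b ^ m) = u'.take (g.z + N1 + p0 + b ^ m) →
      u.length % (M * b ^ m) = u'.length % (M * b ^ m) →
      ((u.drop (g.z + N1 + p0 + b ^ m)).map φ).prod =
        ((u'.drop (g.z + N1 + p0 + b ^ m)).map φ).prod →
      (u.map φ).prod = (u'.map φ).prod ∧ nu u = nu u' := by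
    intro u u' h1 h2 h3 h4 h5
    refine ⟨?_, ?_⟩
    · have := prod_drop φ (j := 0) (Nat.zero_le _) h1 h2 h3 h5
      simpa using this
    · have e1 : u.take p0 = u'.take p0 := take_of_take (by omega) h3
      have e2 : ((u.drop p0).map φ).prod = ((u'.drop p0).map φ).prod :=
        prod_drop φ (by omega) h1 h2 h3 h5
      have e3 : nu1 (u.drop p0) = nu1 (u'.drop p0) := by
        refine (hper _ _ ?_ ?_ ?_).2
        · have := take_of_take (j := p0 + b ^ m) (by omega) h3
          have := congrArg (List.drop p0) this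
          rw [List.drop_take, List.drop_take, Nat.add_sub_cancel_left] at this
          exact this
        · show (((u.drop p0).drop (b ^ m)).map φ).prod = (((u'.drop p0).drop (b ^ m)).map φ).prod
          rw [List.drop_drop, List.drop_drop]
          exact prod_drop φ (by omega) h1 h2 h3 h5
        · rw [List.length_drop, List.length_drop]
          exact mod_sub (by omega) (by omega) h4
      simp only [nu]
      rw [e1, e2, e3]
  have hbadreg : ∀ u u' : List α, g.z + N1 + p0 + b ^ m ≤ u.length →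
      g.z + N1 + p0 + b ^ m ≤ u'.length →
      u.take (g.z + N1 + p0 + b ^ m) = u'.take (g.z + N1 + p0 + b ^ m) →
      u.length % (M * b ^ m) = u'.length % (M * b ^ m) → g.BadX BT u → g.BadX BT u' := by
    intro u u' h1 h2 h3 h4 h
    rcases h with ⟨t, ht, hw, h5, h6⟩ | h
    · left
      have h6' : t < g.z + N1 := h6
      refine ⟨t, by omega, ?_, h5, h6⟩
      rw [← take_of_take (j := t) (by omega) h3]
      exact hw
    · right
      exact badN_congr (fun k hk => (hMs k hk).2.2) hb0
        (mod_sub (by show p0 ≤ _; omega) (by show p0 ≤ _; omega) h4) h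
  refine Top5_120.top5 act hadd hone hmul hfaith φ nu C Bad ?_ (fun X hX => hX.1) L1 L2
    ?_ ?_ ?_ ?_ ?_ ?_ ?_ s
  · -- prefix code
    refine ⟨fun h => ?_, fun X hX Y hY h => ?_⟩
    · have h1 : g.z ≤ ([] : List α).length := h.1
      simp only [List.length_nil] at h1
      omega
    · obtain ⟨R, rfl⟩ := h
      exact g.prefix_code (R := R) (R' := []) hX hY (by simp)
  · intro v
    refine (List.finite_length_le α (p0 + N1)).subset fun P hP => ?_
    have h1 := hlenN _ _ hP.2
    rw [List.length_drop] at h1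
    show P.length ≤ p0 + N1
    have h2 : P.length - p0 ≤ N1 := h1
    omega
  · intro v
    refine (List.finite_length_le α p0).subset fun P hP => ?_
    obtain ⟨k, hk, h1, -⟩ := hP
    show P.length ≤ p0
    rw [h1]; exact hck k hk
  · intro x y
    refine (P4_933.hl_XX (z := g.z) hLW.app hLW.len hfree
      (f := fun X => act x (X.map φ).prod + nu X = y) (hreg _ ?_)).congr fun w => ?_
    · intro u u' h1 h2 h3 h4 h5 h
      obtain ⟨e1, e2⟩ := hnu u u' h1 h2 h3 h4 h5
      show act x (u'.map φ).prod + nu u' = y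
      rw [← e1, ← e2]; exact h
    · constructor
      · rintro ⟨⟨h1, h2, h3⟩, h4⟩
        exact ⟨⟨h2, h1, fun t h5 h6 => h3 t h6 h5⟩, h4⟩
      · rintro ⟨⟨h1, h2, h3⟩, h4⟩
        exact ⟨⟨h2, h1, fun t h5 h6 => h3 t h6 h5⟩, h4⟩
  · intro x y
    refine (P4_933.hl_XX (z := g.z) hLW.app hLW.len hfree
      (f := fun X => g.BadX BT X ∧ act x (X.map φ).prod + nu X = y) (hreg _ ?_)).congr fun w => ?_
    · intro u u' h1 h2 h3 h4 h5 h
      obtain ⟨e1, e2⟩ := hnu u u' h1 h2 h3 h4 h5
      refine ⟨hbadreg u u' h1 h2 h3 h4 h.1, ?_⟩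
      show act x (u'.map φ).prod + nu u' = y
      rw [← e1, ← e2]; exact h.2
    · constructor
      · rintro ⟨⟨⟨h1, h2, h3⟩, h4⟩, h5⟩
        exact ⟨⟨h2, h1, fun t h5 h6 => h3 t h6 h5⟩, h4, h5⟩
      · rintro ⟨⟨h1, h2, h3⟩, h4, h5⟩
        exact ⟨⟨⟨h2, h1, fun t h5 h6 => h3 t h6 h5⟩, h4⟩, h5⟩
  · intro s'
    refine (P4_933.hl_NB (z := g.z) hLW.app hLW.len hfree
      (f := fun X => (X.map φ).prod = s') (hreg _ ?_)).congr fun w => ?_
    · intro u u' h1 h2 h3 h4 h5 h
      obtain ⟨e1, e2⟩ := hnu u u' h1 h2 h3 h4 h5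
      show (u'.map φ).prod = s'
      rw [← e1]; exact h
    · constructor
      · rintro ⟨h1, h2⟩
        refine ⟨(P4_933.NB_iff Wo g.z w).2 fun X hp hX => ?_, h2⟩
        exact h1 X ⟨hX.2.1, hX.1, fun t h3 h4 => hX.2.2 t h4 h3⟩ hp
      · rintro ⟨h1, h2⟩
        refine ⟨fun X hX hp => ?_, h2⟩
        exact (P4_933.NB_iff Wo g.z w).1 h1 X hp ⟨hX.2.1, hX.1, fun t h3 h4 => hX.2.2 t h4 h3⟩
  · -- hcc1
    intro X hX hXb v
    have hE' : ¬ g.E X := fun h => hXb ⟨hX, Or.inl h⟩
    have hB' : ¬ BT (X.length - p0) := fun h => hXb ⟨hX, Or.inr h⟩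
    obtain ⟨P, Q, b0, hPQ, hP, hQ⟩ := g.complete1 pre hlenN hX hE' (rho := rho)
      (fun u => by
        have hl : (X.drop p0).length = X.length - p0 := List.length_drop
        obtain ⟨P, Q, h1, h2, v', h3⟩ := hcmp (X.drop p0)
          (fun k hk hd => hB' (Or.inl ⟨k, hk, by rw [← hl]; exact hd⟩))
          (fun j hj => by
            by_contra hcon
            refine hB' (Or.inr ⟨j, hj, fun h => hcon ?_⟩)
            rw [hl]
            exact ⟨h.1, by omega⟩) u
        exact ⟨P, Q, h1, h2, by rw [h3]; rfl⟩) v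
    refine ⟨P, Q, hPQ.symm, hP, fun x P' hP' => ?_⟩
    obtain ⟨h1, h2⟩ := g.sound1 pre post hlenN hex1 hP' hQ
    obtain ⟨h3, h4⟩ := g.sound1 pre post hlenN hex1 hP hQ
    refine ⟨h1, ?_⟩
    rw [← hT, ← hT, h2, hPQ, h4]
  · -- hcc2
    intro X hX Y hY v
    obtain ⟨P, Q, b0, hPQ, hP, hQ⟩ := g.complete2 pre post (BadT := BT) (K := K) (c := c)
      (lam2 := lam2) (rho2 := fun k Q => rho2 k Q 1) (C0 := r + m) hck hgapg
      (by
        intro k k' l l' hk hk' hl hl' hne hne' h1 h2
        by_contra hkl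
        have h3 := hcs k k' l l' hne.symm hne'.symm (fun h => hkl (by
          have := congrArg Prod.fst h
          exact this))
        have h1' : c k + c l' < c l + c k' + 2 * N1 := h1
        have h2' : c l + c k' < c k + c l' + 2 * N1 := h2
        rw [lt_abs] at h3
        push_cast at h3
        omega)
      (by
        intro τ hτ J hJ
        have hτ' : p0 + N1 + (n + 2 * p0) ≤ τ + p0 := hτ
        have hsp := hcT ((τ : ℤ) - p0)
        have hch : ∀ k ∈ J, ∃ k', k' < K ∧ k' ≠ k ∧ BT (τ + c k' - c k - p0) := fun k hk =>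
          (hJ k hk).2
        choose! f hf using hch
        refine le_trans (le_trans ?_ hsp) (by omega)
        refine Finset.card_le_card_of_injOn (fun k => (f k, k)) ?_ ?_
        · intro k hk
          have hk' : k ∈ J := hk
          obtain ⟨h1, h2, h3⟩ := hf k hk'
          have hkK := (hJ k hk').1
          have hckk := hck k hkK
          simp only [Finset.coe_filter, Set.mem_setOf_eq, Finset.mem_product, Finset.mem_range]
          refine ⟨⟨h1, hkK⟩, h2, ?_⟩
          have h4 := Spoil243.badD_of_badN h3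
          have e : ((τ + c (f k) - c k - p0 : ℕ) : ℤ) = (τ : ℤ) - p0 + c (f k) - c k := by
            omega
          rw [e] at h4
          exact h4
        · intro a _ b' _ hab
          have := congrArg Prod.snd hab
          exact this)
      hX.1 hY.1 v
      (by
        have hXl : p0 ≤ X.length := by
          have : p0 + N1 + (n + 2 * p0) ≤ X.length := hX.1.1
          omega
        have hl : (X.take p0).length = p0 := by rw [List.length_take]; omega
        obtain ⟨I, hI1, hI2⟩ := h2c (X.take p0) 1 v (fun k hk => by rw [hl]; exact hck k hk)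
        refine ⟨I, hI1, fun k hk => ?_⟩
        obtain ⟨h1, h2, h3⟩ := hI2 k hk
        refine ⟨h1, ?_, h3⟩
        rw [List.take_take, Nat.min_eq_left (hck k h1)] at h2
        exact h2)
    refine ⟨P, Q, hPQ, hP, fun x P' hP' => ?_⟩
    -- the true value
    obtain ⟨Y', hY', e1, e2⟩ := g.sound2 pre post (BadT := BT) hck hex2 hX.1 hX.2 hP hQ
      (R := []) (R' := Y) (by rw [List.append_nil]; exact hPQ)
    have hYY : Y' = Y := by
      rw [hPQ] at e1
      exact (List.append_cancel_left e1).symm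
    subst hYY
    -- first block of P' ++ Q
    have hQ' := hQ
    obtain ⟨k, hk, l, hend, hgood, hX2, -⟩ := hQ'
    have hw : g.Wo (P' ++ Q) := by
      have h1 : Q = Q.take l ++ Q.drop l := (List.take_append_drop l Q).symm
      have h2 := hX2.1
      have h3 : n ≤ (Q.drop l).length := by
        have : p0 + N1 + (n + 2 * p0) ≤ (Q.drop l).length := h2
        omega
      rw [h1, ← List.append_assoc]
      exact (g.loc _ _ h3).2 hX2.2.1
    have hz' : g.z ≤ (P' ++ Q).length := by
      have h2 := hX2.1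
      rw [List.length_drop] at h2
      rw [List.length_append]
      omega
    obtain ⟨X', R', hXR, hX'⟩ := first_block g hz' hw
    by_cases hb' : g.BadX BT X'
    · left
      obtain ⟨Z, hZ, e3, e4⟩ := g.sound2 pre post (BadT := BT) hck hex2 hX' hb' hP' hQ
        (R := []) (R' := R') (by rw [List.append_nil]; exact hXR.symm)
      refine ⟨X', ⟨hX', hb'⟩, Z, hZ, e3.symm, ?_⟩
      rw [← hT, ← hT, ← hT, ← hT, e4, e2]
    · right
      exact ⟨X', hX', fun h => hb' h.2, ⟨R', hXR⟩⟩

end Crest.Agent.R320.Fin_78
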