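import Mathlib

/-! Row 320, spoil leaf of lead #13673 (852's digit gadget): the ruler `c l = 2 ^ l * K0`.
`K0 = 1 mod M`, `K0 = 4M(1 + b + .. + b^(m-1)) mod b^m`, `K0 > 4 N1`. -/

namespace Crest.Agent.R320.Sp_781

/-- the bad distances of the digit gadget -/
def Bad (Ms : Finset ℕ) (M b m n : ℕ) : Prop :=
  (∃ k ∈ Ms, k ∣ n) ∨ ∃ j < m, ¬ (M ≤ n / b ^ j % b ∧ n / b ^ j % b + M + 1 ≤ b)

theorem pow_lt_of_lt {i K : ℕ} (h : i < K) : (2:ℤ) ^ i < 2 ^ K :=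
  pow_lt_pow_right₀ (by norm_num) h

theorem diff_lt {i j K : ℕ} (hi : i < K) (hj : j < K) : |(2:ℤ) ^ j - 2 ^ i| < 2 ^ K := by
  have h1 := pow_lt_of_lt hi
  have h2 := pow_lt_of_lt hj
  have h3 : (0:ℤ) < 2 ^ i := by positivity
  have h4 : (0:ℤ) < 2 ^ j := by positivity
  rw [abs_lt]; constructor <;> linarith

/-- the numbers `2^j - 2^i`, `i ≠ j`, are pairwise different -/
theorem diff_inj {i j k l : ℕ} (hij : i ≠ j) (h : (2:ℤ) ^ j - 2 ^ i = 2 ^ l - 2 ^ k) :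
    i = k ∧ j = l := by
  have key : ∀ a b c d : ℕ, a < b → c < d → (2:ℤ) ^ b - 2 ^ a = 2 ^ d - 2 ^ c → a = c ∧ b = d := by
    intro a b c d hab hcd h
    have hb1 : (2:ℤ) ^ a * 2 ≤ 2 ^ b := by
      rw [← pow_succ]; exact pow_le_pow_right₀ (by norm_num) hab
    have hd1 : (2:ℤ) ^ c * 2 ≤ 2 ^ d := by
      rw [← pow_succ]; exact pow_le_pow_right₀ (by norm_num) hcd
    have pa : (0:ℤ) < 2 ^ a := by positivity
    have pc : (0:ℤ) < 2 ^ c := by positivity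
    have hbd : b = d := by
      rcases lt_trichotomy b d with h1 | h1 | h1
      · exfalso
        have h2 : (2:ℤ) ^ b * 2 ≤ 2 ^ d := by
          rw [← pow_succ]; exact pow_le_pow_right₀ (by norm_num) h1
        linarith
      · exact h1
      · exfalso
        have h2 : (2:ℤ) ^ d * 2 ≤ 2 ^ b := by
          rw [← pow_succ]; exact pow_le_pow_right₀ (by norm_num) h1
        linarith
    subst hbd
    have : (2:ℤ) ^ a = 2 ^ c := by linarith
    exact ⟨pow_right_injective₀ (by norm_num) (by norm_num) this, rfl⟩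
  rcases lt_or_gt_of_ne hij with h1 | h1
  · rcases lt_trichotomy k l with h2 | h2 | h2
    · exact key i j k l h1 h2 h
    · exfalso
      have := pow_lt_of_lt h1
      subst h2
      linarith
    · exfalso
      have := pow_lt_of_lt h1
      have := pow_lt_of_lt h2
      linarith
  · rcases lt_trichotomy k l with h2 | h2 | h2
    · exfalso
      have := pow_lt_of_lt h1
      have := pow_lt_of_lt h2
      linarith
    · exfalso
      have := pow_lt_of_lt h1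
      subst h2
      linarith
    · obtain ⟨h3, h4⟩ := key j i l k h1 h2 (by linarith)
      exact ⟨h4, h3⟩

theorem digit_bad {M b n j : ℕ} (hb : 0 < b)
    (h : ¬ (M ≤ n / b ^ j % b ∧ n / b ^ j % b + M + 1 ≤ b)) :
    ∃ q : ℤ, -((M:ℤ) * b ^ j) ≤ n - q * b ^ (j + 1) ∧ (n:ℤ) - q * b ^ (j + 1) < M * b ^ j := by
  have e1 : b ^ j * (n / b ^ j) + n % b ^ j = n := Nat.div_add_mod n (b ^ j)
  have e2 : b * (n / b ^ j / b) + n / b ^ j % b = n / b ^ j := Nat.div_add_mod _ b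
  have e3 : n % b ^ j < b ^ j := Nat.mod_lt _ (pow_pos hb _)
  have e4 : n / b ^ j % b < b := Nat.mod_lt _ hb
  set q := n / b ^ j / b
  set d := n / b ^ j % b
  set r := n % b ^ j
  rw [← e2] at e1
  have e5 : (n:ℤ) = b ^ j * (b * q + d) + r := by exact_mod_cast e1.symm
  have hB : (0:ℤ) < (b:ℤ) ^ j := by positivity
  have hr : (r:ℤ) < (b:ℤ) ^ j := by exact_mod_cast e3
  have hr0 : (0:ℤ) ≤ r := by positivity
  have hd0 : (0:ℤ) ≤ d := by positivity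
  by_cases hc : M ≤ d
  · have hd : b ≤ d + M := by
      by_contra h'
      exact h ⟨hc, by omega⟩
    refine ⟨q + 1, ?_, ?_⟩
    · have e6 : (n:ℤ) - (q + 1) * b ^ (j + 1) = (d - b) * b ^ j + r := by
        rw [e5, pow_succ]; ring
      rw [e6]
      have : (0:ℤ) ≤ (d + M - b) := by
        have : (b:ℤ) ≤ d + M := by exact_mod_cast hd
        linarith
      nlinarith
    · have e6 : (n:ℤ) - (q + 1) * b ^ (j + 1) = (d - b) * b ^ j + r := by
        rw [e5, pow_succ]; ring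
      rw [e6]
      have : (d:ℤ) + 1 ≤ b := by exact_mod_cast e4
      have hM : (0:ℤ) ≤ M := by positivity
      nlinarith
  · refine ⟨q, ?_, ?_⟩
    · have e6 : (n:ℤ) - q * b ^ (j + 1) = d * b ^ j + r := by
        rw [e5, pow_succ]; ring
      rw [e6]
      have hM : (0:ℤ) ≤ M := by positivity
      nlinarith [mul_nonneg hM hB.le, mul_nonneg hd0 hB.le]
    · have e6 : (n:ℤ) - q * b ^ (j + 1) = d * b ^ j + r := by
        rw [e5, pow_succ]; ring
      rw [e6]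
      have : (d:ℤ) + 1 ≤ M := by exact_mod_cast (not_le.1 hc)
      nlinarith

/-- the residue `4 M (1 + b + .. + b^j)` -/
def R (M b j : ℕ) : ℕ := 4 * M * ∑ i ∈ Finset.range (j + 1), b ^ i

theorem R_ge (M b j : ℕ) : 4 * M * b ^ j ≤ R M b j := by
  unfold R
  refine Nat.mul_le_mul_left _ ?_
  exact Finset.single_le_sum (f := fun i => b ^ i) (fun _ _ => Nat.zero_le _)
    (Finset.mem_range.2 (Nat.lt_succ_self j))

theorem R_le {b : ℕ} (hb : 2 ≤ b) (M j : ℕ) : R M b j ≤ 8 * M * b ^ j := by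
  have h : ∀ j, ∑ i ∈ Finset.range (j + 1), b ^ i ≤ 2 * b ^ j := by
    intro j
    induction j with
    | zero => simp
    | succ j ih =>
      rw [Finset.sum_range_succ]
      have : 2 * b ^ j ≤ b ^ (j + 1) := by
        rw [pow_succ, mul_comm]; exact Nat.mul_le_mul_left _ hb
      omega
  unfold R
  calc _ ≤ 4 * M * (2 * b ^ j) := Nat.mul_le_mul_left _ (h j)
    _ = _ := by ring

theorem R_mod (M b : ℕ) {j m : ℕ} (hj : j < m) :
    ∃ t : ℕ, 4 * M * ∑ i ∈ Finset.range m, b ^ i = R M b j + t * b ^ (j + 1) := by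
  obtain ⟨e, rfl⟩ : ∃ e, m = (j + 1) + e := ⟨m - (j + 1), by omega⟩
  refine ⟨4 * M * ∑ i ∈ Finset.range e, b ^ i, ?_⟩
  unfold R
  rw [Finset.sum_range_add]
  simp_rw [pow_add b (j + 1)]
  rw [← Finset.mul_sum]
  ring

theorem exists_K0 (M b m N1 : ℕ) (hM : 0 < M) (hb : 0 < b) (hco : Nat.Coprime b M) :
    ∃ K0 : ℕ, 4 * N1 < K0 ∧ (M:ℤ) ∣ K0 - 1 ∧
      ∀ j < m, ∃ t : ℤ, (K0:ℤ) = R M b j + t * b ^ (j + 1) := by
  have hco' : Nat.Coprime M (b ^ m) := (Nat.Coprime.pow_left m hco).symm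
  obtain ⟨k, hk1, hk2⟩ := Nat.chineseRemainder hco' 1 (4 * M * ∑ i ∈ Finset.range m, b ^ i)
  refine ⟨k + M * b ^ m * (4 * N1 + 1), ?_, ?_, ?_⟩
  · have : 0 < M * b ^ m := Nat.mul_pos hM (pow_pos hb m)
    nlinarith
  · have h1 : (M:ℤ) ∣ k - 1 := by
      have := (Nat.modEq_iff_dvd.1 hk1)
      have h2 := (dvd_neg.2 this)
      simpa using h2
    have h3 : (M:ℤ) ∣ ((M * b ^ m * (4 * N1 + 1) : ℕ) : ℤ) := by
      push_cast
      exact ⟨(b:ℤ) ^ m * (4 * N1 + 1), by ring⟩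
    have h4 := dvd_add h1 h3
    have e : ((k:ℤ) - 1) + ((M * b ^ m * (4 * N1 + 1) : ℕ) : ℤ)
        = ((k + M * b ^ m * (4 * N1 + 1) : ℕ) : ℤ) - 1 := by push_cast; ring
    rwa [e] at h4
  · intro j hj
    obtain ⟨t, ht⟩ := R_mod M b hj
    obtain ⟨s, hs⟩ := (Nat.modEq_iff_dvd.1 hk2)
    obtain ⟨e, rfl⟩ : ∃ e, m = (j + 1) + e := ⟨m - (j + 1), by omega⟩
    refine ⟨t - s * b ^ e + M * b ^ e * (4 * N1 + 1), ?_⟩
    rw [ht] at hs
    push_cast at hs ⊢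
    rw [pow_add (b:ℤ) (j + 1) e] at hs ⊢
    linear_combination -hs

/-- the arithmetic core: a multiple `z * Rj`, `0 < |z| < 2 ^ (K+1)`, is far from `b^(j+1) ℤ` -/
theorem core {K : ℕ} {M B b z Rj w ε : ℤ} (hM : 0 < M) (hB : 0 < B) (hz : |z| < 2 ^ (K + 1))
    (r1 : 4 * M * B ≤ Rj) (r2 : Rj ≤ 8 * M * B) (hb : 2 ^ (K + 5) * M ≤ b)
    (he : |ε| < 2 * M * B) (e : z * Rj = w * (b * B) + ε) : z = 0 := by
  have hMB : 0 < M * B := mul_pos hM hB
  have hRpos : 0 < Rj := by nlinarith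
  by_contra hne
  have hone : 1 ≤ |z| := Int.one_le_abs hne
  have habs : |z * Rj| = |z| * Rj := by rw [abs_mul, abs_of_pos hRpos]
  have hlow : 4 * M * B ≤ |z * Rj| := by
    rw [habs]
    have : 1 * Rj ≤ |z| * Rj := mul_le_mul_of_nonneg_right hone hRpos.le
    linarith
  have hupp : |z * Rj| ≤ 2 ^ (K + 1) * (8 * M * B) := by
    rw [habs]
    exact mul_le_mul hz.le r2 hRpos.le (by positivity)
  by_cases hw0 : w = 0
  · rw [hw0, zero_mul, zero_add] at e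
    rw [e] at hlow
    linarith
  · have hw1 : 1 ≤ |w| := Int.one_le_abs hw0
    have hbpos : 0 < b := lt_of_lt_of_le (by positivity) hb
    have hbB : 0 < b * B := mul_pos hbpos hB
    have e2 : w * (b * B) = z * Rj - ε := by rw [e]; ring
    have e3 : |w| * (b * B) ≤ |z * Rj| + |ε| := by
      have : |w * (b * B)| = |w| * (b * B) := by rw [abs_mul, abs_of_pos hbB]
      rw [← this, e2]
      exact abs_sub _ _
    have e4 : 1 * (b * B) ≤ |w| * (b * B) := mul_le_mul_of_nonneg_right hw1 hbB.le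
    have e6 : 2 ^ (K + 5) * M * B ≤ b * B := mul_le_mul_of_nonneg_right hb hB.le
    have e7 : (2:ℤ) ^ (K + 5) = 2 ^ (K + 1) * 16 := by
      rw [show K + 5 = (K + 1) + 4 by ring, pow_add]; norm_num
    rw [e7] at e6
    have e8 : (2:ℤ) ≤ 2 ^ (K + 1) := by
      calc (2:ℤ) = 2 ^ 1 := by norm_num
        _ ≤ 2 ^ (K + 1) := pow_le_pow_right₀ (by norm_num) (by omega)
    have e9 : 2 * (M * B) ≤ 2 ^ (K + 1) * (M * B) := mul_le_mul_of_nonneg_right e8 hMB.le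
    have e10 : (2:ℤ) ^ (K + 1) * 16 * M * B = 16 * (2 ^ (K + 1) * (M * B)) := by ring
    have e11 : (2:ℤ) ^ (K + 1) * (8 * M * B) = 8 * (2 ^ (K + 1) * (M * B)) := by ring
    rw [e10] at e6
    rw [e11] at hupp
    have e12 : 0 < 2 ^ (K + 1) * (M * B) := by positivity
    linarith

/-- **the count for one digit / one prime** -/
theorem card_le_one_of {K : ℕ} (P : ℕ × ℕ → Prop) [DecidablePred P]
    (h : ∀ p q : ℕ × ℕ, p.1 < K → p.2 < K → q.1 < K → q.2 < K → p.1 ≠ p.2 → q.1 ≠ q.2 →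
      P p → P q → p = q) :
    ((Finset.range K ×ˢ Finset.range K).filter fun p => p.1 ≠ p.2 ∧ P p).card ≤ 1 := by
  rw [Finset.card_le_one]
  intro p hp q hq
  simp only [Finset.mem_filter, Finset.mem_product, Finset.mem_range] at hp hq
  exact h p q hp.1.1 hp.1.2 hq.1.1 hq.1.2 hp.2.1 hq.2.1 hp.2.2 hq.2.2

open Classical in
theorem spoilZ (K m M b N1 : ℕ) (Ms : Finset ℕ) (hM : 0 < M)
    (hMs : ∀ k ∈ Ms, 2 ^ (K + 1) ≤ k ∧ k ∣ M) (hb : 2 ^ (K + 5) * M ≤ b)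
    (hco : Nat.Coprime b M) :
    ∃ c : ℕ → ℕ, StrictMono c ∧ (∀ i j, i < j → c i + 4 * N1 < c j) ∧
      (∀ i j k l : ℕ, i ≠ j → (i, j) ≠ (k, l) →
        (4 * N1 : ℤ) < |((c j : ℤ) - c i) - ((c l : ℤ) - c k)|) ∧
      (∀ i, 4 * N1 < c i) ∧
      ∀ T : ℤ, ((Finset.range K ×ˢ Finset.range K).filter fun p => p.1 ≠ p.2 ∧
        ∃ n : ℕ, (n : ℤ) = T + c p.2 - c p.1 ∧ Bad Ms M b m n).card ≤ Ms.card + m := by
  have hb0 : 0 < b := lt_of_lt_of_le (by positivity) hb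
  have hb2 : 2 ≤ b := by
    refine le_trans ?_ hb
    calc 2 = 2 ^ 1 * 1 := by norm_num
      _ ≤ 2 ^ (K + 5) * M := Nat.mul_le_mul (Nat.pow_le_pow_right (by norm_num) (by omega)) hM
  obtain ⟨K0, hK1, hK2, hK3⟩ := exists_K0 M b m N1 hM hb0 hco
  have hKpos : 0 < K0 := by omega
  have hwide : ∀ i j, i < j → 2 ^ i * K0 + 4 * N1 < 2 ^ j * K0 := by
    intro i j hij
    have h1 : 2 ^ i * 2 ≤ 2 ^ j := by
      rw [← pow_succ]; exact Nat.pow_le_pow_right (by norm_num) hij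
    have h2 : 1 ≤ 2 ^ i := Nat.one_le_two_pow
    have h3 : 2 ^ i * K0 + 1 * K0 ≤ 2 ^ j * K0 := by
      rw [← add_mul]; exact Nat.mul_le_mul_right _ (by omega)
    omega
  have hcK : ∀ p : ℕ × ℕ, (((2 ^ p.2 * K0 : ℕ) : ℤ)) - ((2 ^ p.1 * K0 : ℕ) : ℤ)
      = ((2:ℤ) ^ p.2 - 2 ^ p.1) * K0 := by
    intro p; push_cast; ring
  refine ⟨fun l => 2 ^ l * K0, ?_, hwide, ?_, ?_, ?_⟩
  · intro i j hij
    have := hwide i j hij
    show 2 ^ i * K0 < 2 ^ j * K0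
    omega
  · intro i j k l hij hne
    have e : ((((2 ^ j * K0 : ℕ) : ℤ)) - ((2 ^ i * K0 : ℕ) : ℤ)) -
        ((((2 ^ l * K0 : ℕ) : ℤ)) - ((2 ^ k * K0 : ℕ) : ℤ))
        = (((2:ℤ) ^ j - 2 ^ i) - (2 ^ l - 2 ^ k)) * K0 := by push_cast; ring
    show (4 * N1 : ℤ) < |((((2 ^ j * K0 : ℕ) : ℤ)) - ((2 ^ i * K0 : ℕ) : ℤ)) -
        ((((2 ^ l * K0 : ℕ) : ℤ)) - ((2 ^ k * K0 : ℕ) : ℤ))|
    rw [e, abs_mul]
    have h1 : ((2:ℤ) ^ j - 2 ^ i) - (2 ^ l - 2 ^ k) ≠ 0 := by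
      intro h0
      obtain ⟨h3, h4⟩ := diff_inj hij (sub_eq_zero.1 h0)
      exact hne (by rw [h3, h4])
    have h2 : 1 ≤ |((2:ℤ) ^ j - 2 ^ i) - (2 ^ l - 2 ^ k)| := Int.one_le_abs h1
    have h3 : |(K0:ℤ)| = K0 := abs_of_nonneg (by positivity)
    rw [h3]
    have h4 : (4 * N1 : ℤ) < K0 := by exact_mod_cast hK1
    nlinarith
  · intro i
    have : 1 ≤ 2 ^ i := Nat.one_le_two_pow
    show 4 * N1 < 2 ^ i * K0
    nlinarith
  · intro T
    have hprime : ∀ k ∈ Ms, ((Finset.range K ×ˢ Finset.range K).filter fun p => p.1 ≠ p.2 ∧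
        (k : ℤ) ∣ T + ((2:ℤ) ^ p.2 - 2 ^ p.1) * K0).card ≤ 1 := by
      intro k hk
      refine card_le_one_of _ ?_
      intro p q hp1 hp2 hq1 hq2 hp hq h1 h2
      have h3 := dvd_sub h1 h2
      have h4 : (k:ℤ) ∣ (K0:ℤ) - 1 :=
        (Int.natCast_dvd_natCast.2 (hMs k hk).2).trans hK2
      set x := ((2:ℤ) ^ p.2 - 2 ^ p.1) with hx
      set y := ((2:ℤ) ^ q.2 - 2 ^ q.1) with hy
      have h5 : (k:ℤ) ∣ x - y := by
        have h6 : (x - y) = ((T + x * K0) - (T + y * K0)) - (x - y) * (K0 - 1) := by ring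
        rw [h6]
        exact dvd_sub h3 (Dvd.dvd.mul_left h4 _)
      have h7 : x - y = 0 := by
        apply Int.eq_zero_of_abs_lt_dvd h5
        have a1 := diff_lt hp1 hp2
        have a2 := diff_lt hq1 hq2
        rw [← hx] at a1
        rw [← hy] at a2
        have a3 : |x - y| ≤ |x| + |y| := abs_sub x y
        have a4 : (2:ℤ) ^ (K + 1) ≤ k := by exact_mod_cast (hMs k hk).1
        rw [pow_succ] at a4
        linarith
      obtain ⟨h8, h9⟩ := diff_inj hp (sub_eq_zero.1 h7)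
      exact Prod.ext h8 h9
    have hdig : ∀ j ∈ Finset.range m, ((Finset.range K ×ˢ Finset.range K).filter fun p =>
        p.1 ≠ p.2 ∧ ∃ n : ℕ, (n:ℤ) = T + ((2:ℤ) ^ p.2 - 2 ^ p.1) * K0 ∧
        ¬ (M ≤ n / b ^ j % b ∧ n / b ^ j % b + M + 1 ≤ b)).card ≤ 1 := by
      intro j hj
      have hj' := Finset.mem_range.1 hj
      refine card_le_one_of _ ?_
      rintro p q hp1 hp2 hq1 hq2 hp hq ⟨n, hn, hbn⟩ ⟨n', hn', hbn'⟩
      obtain ⟨u, hu1, hu2⟩ := digit_bad hb0 hbn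
      obtain ⟨v, hv1, hv2⟩ := digit_bad hb0 hbn'
      obtain ⟨t, ht⟩ := hK3 j hj'
      set x := ((2:ℤ) ^ p.2 - 2 ^ p.1) with hx
      set y := ((2:ℤ) ^ q.2 - 2 ^ q.1) with hy
      have a1 := diff_lt hp1 hp2
      have a2 := diff_lt hq1 hq2
      rw [← hx] at a1
      rw [← hy] at a2
      have a3 : |x - y| ≤ |x| + |y| := abs_sub x y
      have a4 : |x - y| < 2 ^ (K + 1) := by rw [pow_succ]; linarith
      have hBpos : (0:ℤ) < (b:ℤ) ^ j := by positivity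
      have hMpos : (0:ℤ) < M := by exact_mod_cast hM
      have r1 : 4 * (M:ℤ) * b ^ j ≤ R M b j := by exact_mod_cast R_ge M b j
      have r2 : (R M b j : ℤ) ≤ 8 * M * b ^ j := by exact_mod_cast R_le hb2 M j
      set Rj : ℤ := (R M b j : ℤ) with hRj
      set w := u - v - (x - y) * t with hw
      have e : (x - y) * Rj = w * b ^ (j + 1) +
          ((n - u * b ^ (j + 1)) - (n' - v * b ^ (j + 1))) := by
        have e1 : (n:ℤ) - n' = (x - y) * K0 := by rw [hn, hn']; ring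
        rw [ht] at e1
        have : (x - y) * Rj = ((n:ℤ) - n') - (x - y) * (t * b ^ (j + 1)) := by rw [e1]; ring
        rw [this, hw]; ring
      set ε := ((n:ℤ) - u * b ^ (j + 1)) - (n' - v * b ^ (j + 1)) with hε
      have he1 : |ε| < 2 * M * b ^ j := by
        rw [abs_lt]; constructor <;> linarith
      have hxy : x - y = 0 := by
        refine core (K := K) (M := (M:ℤ)) (B := (b:ℤ) ^ j) (b := (b:ℤ)) (Rj := Rj) (w := w) (ε := ε)
          hMpos hBpos a4 r1 r2 (by exact_mod_cast hb) he1 ?_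
        rw [e, pow_succ]; ring
      obtain ⟨h8, h9⟩ := diff_inj hp (sub_eq_zero.1 hxy)
      exact Prod.ext h8 h9
    have hsub : ((Finset.range K ×ˢ Finset.range K).filter fun p => p.1 ≠ p.2 ∧
        ∃ n : ℕ, (n : ℤ) = T + ((2 ^ p.2 * K0 : ℕ) : ℤ) - ((2 ^ p.1 * K0 : ℕ) : ℤ) ∧
          Bad Ms M b m n) ⊆
        (Ms.biUnion fun k => (Finset.range K ×ˢ Finset.range K).filter fun p => p.1 ≠ p.2 ∧
        (k : ℤ) ∣ T + ((2:ℤ) ^ p.2 - 2 ^ p.1) * K0) ∪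
        ((Finset.range m).biUnion fun j => (Finset.range K ×ˢ Finset.range K).filter fun p =>
        p.1 ≠ p.2 ∧ ∃ n : ℕ, (n:ℤ) = T + ((2:ℤ) ^ p.2 - 2 ^ p.1) * K0 ∧
        ¬ (M ≤ n / b ^ j % b ∧ n / b ^ j % b + M + 1 ≤ b)) := by
      intro p hp
      simp only [Finset.mem_filter] at hp
      obtain ⟨hpm, hpne, n, hn, hbad⟩ := hp
      have hn' : (n:ℤ) = T + ((2:ℤ) ^ p.2 - 2 ^ p.1) * K0 := by rw [hn]; push_cast; ring
      rw [Finset.mem_union]
      rcases hbad with ⟨k, hk, hkn⟩ | ⟨j, hj, hjn⟩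
      · left
        rw [Finset.mem_biUnion]
        refine ⟨k, hk, Finset.mem_filter.2 ⟨hpm, hpne, ?_⟩⟩
        rw [← hn']
        exact_mod_cast hkn
      · right
        rw [Finset.mem_biUnion]
        exact ⟨j, Finset.mem_range.2 hj, Finset.mem_filter.2 ⟨hpm, hpne, n, hn', hjn⟩⟩
    refine (Finset.card_le_card hsub).trans ((Finset.card_union_le _ _).trans ?_)
    refine Nat.add_le_add ?_ ?_
    · refine (Finset.card_biUnion_le_card_mul _ _ 1 hprime).trans (by simp)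
    · refine (Finset.card_biUnion_le_card_mul _ _ 1 hdig).trans (by simp)

open Classical in
/-- natural number form -/
theorem spoil (K m M b N1 : ℕ) (Ms : Finset ℕ) (hM : 0 < M)
    (hMs : ∀ k ∈ Ms, 2 ^ (K + 1) ≤ k ∧ k ∣ M) (hb : 2 ^ (K + 5) * M ≤ b)
    (hco : Nat.Coprime b M) :
    ∃ c : ℕ → ℕ, StrictMono c ∧ (∀ i j, i < j → c i + 4 * N1 < c j) ∧
      (∀ i j k l : ℕ, i ≠ j → (i, j) ≠ (k, l) →
        (4 * N1 : ℤ) < |((c j : ℤ) - c i) - ((c l : ℤ) - c k)|) ∧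
      (∀ i, 4 * N1 < c i) ∧
      ∀ T : ℕ, (∀ i < K, c i ≤ T) →
        ((Finset.range K ×ˢ Finset.range K).filter fun p => p.1 ≠ p.2 ∧
          Bad Ms M b m (T + c p.2 - c p.1)).card ≤ Ms.card + m := by
  obtain ⟨c, h1, h2, h3, h4, h5⟩ := spoilZ K m M b N1 Ms hM hMs hb hco
  refine ⟨c, h1, h2, h3, h4, fun T hT => le_trans (Finset.card_le_card ?_) (h5 T)⟩
  intro p hp
  simp only [Finset.mem_filter, Finset.mem_product, Finset.mem_range] at hp ⊢
  refine ⟨hp.1, hp.2.1, T + c p.2 - c p.1, ?_, hp.2.2⟩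
  have := hT p.1 hp.1.1
  rw [Nat.cast_sub (by omega)]
  push_cast
  ring

end Crest.Agent.R320.Sp_781
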