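import Crest.Agent.R320.Top5_120
import Crest.Agent.R320.Sc2n_937
import Crest.Agent.R320.G1_852
import Crest.Agent.R320.ExactR_237
import Crest.Agent.R320.LWallAll_922
import Crest.Agent.R320.P4_933
import Crest.Agent.R320.Sp_781
import Crest.Agent.R320.Loc_645

/-!
# Row 320: the join (helper781)

`fin` : `HL 3 {w | (w.map φ).prod = s}` for every finite monoid `S` and every `φ : α → S`, `α` finite.
Gadget 1 = `G1_852.gadget`, ruler = `Sp_781.spoil`, gadget 2 = `ExactR_237.exact_gadget`,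
walls = `LWallAll_922.walls_all_left`, both schemes = `Sc2n_937`, heights = `P4_933`,
top = `Top5_120.top5`.
-/

set_option autoImplicit false
set_option maxHeartbeats 1000000

namespace Crest.Agent.R320.Fin_781

open Crest.Agent.R320.Hk_851 Crest.Agent.R320.Sc2n_937

/-! ### the bad distances are periodic -/

theorem dig_per {b m j n n' M : ℕ} (hb : 0 < b) (hj : j < m)
    (h : n % (M * b ^ m) = n' % (M * b ^ m)) : n / b ^ j % b = n' / b ^ j % b := by
  have h1 : n % b ^ (j + 1) = n' % b ^ (j + 1) := by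
    have hd : b ^ (j + 1) ∣ M * b ^ m :=
      (pow_dvd_pow b (by omega : j + 1 ≤ m)).trans (Dvd.intro_left M rfl)
    rw [← Nat.mod_mod_of_dvd n hd, h, Nat.mod_mod_of_dvd n' hd]
  have h2 : ∀ x : ℕ, x / b ^ j % b = x % b ^ (j + 1) / b ^ j := by
    intro x
    rw [pow_succ, Nat.mod_mul_right_div_self]
  rw [h2, h2, h1]

theorem bad_per {Ms : Finset ℕ} {M b m n n' : ℕ} (hb : 0 < b) (hMs : ∀ k ∈ Ms, k ∣ M)
    (h : n % (M * b ^ m) = n' % (M * b ^ m)) (hn : Sp_781.Bad Ms M b m n) :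
    Sp_781.Bad Ms M b m n' := by
  rcases hn with ⟨k, hk, hkn⟩ | ⟨j, hj, hjn⟩
  · left
    refine ⟨k, hk, ?_⟩
    have hd : k ∣ M * b ^ m := (hMs k hk).trans (Dvd.intro _ rfl)
    have h0 : n % k = 0 := Nat.mod_eq_zero_of_dvd hkn
    rw [← Nat.mod_mod_of_dvd n hd, h, Nat.mod_mod_of_dvd n' hd] at h0
    exact Nat.dvd_of_mod_eq_zero h0
  · right
    refine ⟨j, hj, ?_⟩
    rw [← dig_per hb hj h]
    exact hjn

/-! ### the combinatorial part -/

section comb

variable {A V : Type} (g : Geo A) (pre : List A → V → V) (post : V → List A → V)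

theorem hcc1 {lam rho : List A → Option V}
    (hlen : ∀ P v, lam P = some v → P.length ≤ g.N1)
    (hex : ∀ P Q u b, lam P = some u → rho Q = some b → b = post u (P ++ Q))
    {BadT : ℕ → Prop}
    (hcomp : ∀ Y : List A, ¬ BadT Y.length → ∀ u : V, ∃ P Q, Y = P ++ Q ∧ lam P = some u ∧
      (rho Q).isSome)
    {X : List A} (hX : g.XX X) (hB : ¬ g.BadX BadT X) (v : V) :
    ∃ P Q, P ++ Q = X ∧ g.LP1 pre lam v P ∧
      ∀ x, ∀ P', g.LP1 pre lam x P' → g.XX (P' ++ Q) ∧
        g.T pre post x (P' ++ Q) = g.T pre post v X := by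
  have hE : ¬ g.E X := fun h => hB (Or.inl h)
  have hb : ¬ BadT (X.drop g.p0).length := by
    rw [List.length_drop]
    exact fun h => hB (Or.inr h)
  obtain ⟨P, Q, b, h1, h2, h3⟩ := g.complete1 pre hlen hX hE (hcomp _ hb) v
  refine ⟨P, Q, h1.symm, h2, fun x P' hP' => ?_⟩
  obtain ⟨h4, h5⟩ := g.sound1 pre post hlen hex hP' h3
  obtain ⟨h6, h7⟩ := g.sound1 pre post hlen hex h2 h3
  exact ⟨h4, by rw [h5, h1, h7]⟩

theorem hcc2 {BadT : ℕ → Prop} {K : ℕ} {c : ℕ → ℕ} {lam2 rho2 : ℕ → List A → Option V}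
    {C0 : ℕ}
    (hc : ∀ k, k < K → c k ≤ g.p0)
    (hex : ∀ k, k < K → ∀ P Q v u, P.length = c k → Q.length = g.p0 - c k →
      lam2 k P = some v → rho2 k Q = some u → u = pre (P ++ Q) v)
    (hgap : ∀ P Q : List A, g.Wo P → g.Wo (P ++ Q) → Q ≠ [] → 2 * g.p0 + 2 * g.N1 < Q.length)
    (hsp : ∀ k k' l l', k < K → k' < K → l < K → l' < K → k' ≠ k → l' ≠ l →
      c k + c l' < c l + c k' + 2 * g.N1 → c l + c k' < c k + c l' + 2 * g.N1 → k = l)
    (hthin : ∀ τ, g.z ≤ τ + g.p0 → ∀ J : Finset ℕ, (∀ k ∈ J, k < K ∧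
      ∃ k', k' < K ∧ k' ≠ k ∧ BadT (τ + c k' - c k - g.p0)) → J.card ≤ C0)
    {X Y : List A} (hX : g.XX X) (hXb : g.BadX BadT X) (hY : g.XX Y) (v : V)
    (hI : ∃ I : Finset ℕ, 2 * C0 + 2 ≤ I.card ∧ ∀ k ∈ I, k < K ∧
      lam2 k (X.take (c k)) = some v ∧ (rho2 k ((X.take g.p0).drop (c k))).isSome) :
    ∃ P Q, P ++ Q = X ++ Y ∧ Geo.LP2 K c lam2 v P ∧
      ∀ x, ∀ P', Geo.LP2 K c lam2 x P' →
        (∃ X', (g.XX X' ∧ g.BadX BadT X') ∧ ∃ Y', g.XX Y' ∧ X' ++ Y' = P' ++ Q ∧
          g.T pre post (g.T pre post x X') Y' = g.T pre post (g.T pre post v X) Y) ∨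
        (∃ X', g.XX X' ∧ ¬ (g.XX X' ∧ g.BadX BadT X') ∧ X' <+: P' ++ Q) := by
  classical
  obtain ⟨P, Q, b, h1, h2, h3⟩ := g.complete2 pre post hc hgap hsp hthin hX hY v hI
  refine ⟨P, Q, h1, h2, fun x P' hP' => ?_⟩
  -- the value
  have hval : g.T pre post (g.T pre post v X) Y = b := by
    obtain ⟨X2, _, h5, h6⟩ := g.sound2 pre post hc hex hX hXb h2 h3 (R := []) (R' := Y)
      (by rw [List.append_nil]; exact h1)
    have : X2 = Y := List.append_cancel_left (h5.symm.trans h1)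
    rw [this] at h6
    exact h6
  obtain ⟨k0, hk0, hPl, hl⟩ := hP'
  have h3' := h3
  obtain ⟨k, hk, l, hend, hgood, hX2, u, hr, hb⟩ := h3'
  have hcand : ∃ l', g.CEnd Q (c k0) l' ∧
      (k0 = k ∨ ¬ g.CBad BadT Q (c k0) l') := by
    by_cases hkk : k0 = k
    · subst hkk; exact ⟨l, hend, Or.inl rfl⟩
    · obtain ⟨l', h4, h5⟩ := hgood k0 hk0 hkk
      exact ⟨l', h4, Or.inr h5⟩
  obtain ⟨l', hend', hor⟩ := hcand
  have hP'c : P'.length ≤ g.p0 := by rw [hPl]; exact hc k0 hk0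
  have hXX' : g.XX (P' ++ Q.take l') := g.xx_of_cend hP'c (by rw [hPl]; exact hend')
  have hsplit : P' ++ Q.take l' ++ Q.drop l' = P' ++ Q := by
    rw [List.append_assoc, List.take_append_drop]
  by_cases hbad : g.BadX BadT (P' ++ Q.take l')
  · left
    obtain ⟨X2, h5, h6, h7⟩ := g.sound2 pre post hc hex hXX' hbad ⟨k0, hk0, hPl, hl⟩ h3
      (R := []) (R' := Q.drop l') (by rw [List.append_nil]; exact hsplit.symm)
    exact ⟨P' ++ Q.take l', ⟨hXX', hbad⟩, X2, h5, h6.symm, by rw [h7, hval]⟩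
  · right
    exact ⟨P' ++ Q.take l', hXX', fun h => hbad h.2, ⟨Q.drop l', hsplit⟩⟩

end comb

/-! ### finite state -/

theorem pr_take_drop {α S : Type} [Monoid S] (f : α → S) {a A : ℕ} (h : a ≤ A) (X : List α) :
    ((X.drop a).map f).prod = (((X.take A).drop a).map f).prod * ((X.drop A).map f).prod := by
  rw [← List.prod_append, ← List.map_append]
  congr 2
  have h1 : (X.take A).drop a = (X.drop a).take (A - a) := by rw [List.drop_take]
  have h2 : X.drop A = (X.drop a).drop (A - a) := by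
    rw [List.drop_drop]; congr 1; omega
  rw [h1, h2, List.take_append_drop]

theorem sub_mod_eq {x y p M : ℕ} (hx : p ≤ x) (hy : p ≤ y) (h : x % M = y % M) :
    (x - p) % M = (y - p) % M := by
  have h1 : (x - p) + p ≡ (y - p) + p [MOD M] := by
    rw [Nat.sub_add_cancel hx, Nat.sub_add_cancel hy]; exact h
  exact Nat.ModEq.add_right_cancel' p h1

theorem E_loc {A : Type} (g : Geo A) {N : ℕ} (hN : g.z + g.N1 ≤ N) {X X' : List A}
    (h1 : N ≤ X.length) (h2 : N ≤ X'.length) (h : X.take N = X'.take N) (hE : g.E X) : g.E X' := by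
  obtain ⟨t, ht, hw, h3, h4⟩ := hE
  refine ⟨t, by omega, ?_, h3, h4⟩
  have e : X.take t = X'.take t := by
    have e1 : ∀ Z : List A, Z.take t = (Z.take N).take t := by
      intro Z; rw [List.take_take, min_eq_left (by omega)]
    rw [e1 X, e1 X', h]
  rw [← e]; exact hw

/-- **THE JOIN**: all monoid values of all words have height at most three. -/
theorem fin (α : Type) [Finite α] (S : Type) [Monoid S] [Finite S] (φ : α → S) (s : S) :
    HL 3 ({w | (w.map φ).prod = s} : Language α) := by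
  classical
  haveI : Fintype S := Fintype.ofFinite S
  obtain ⟨act, hadd, hone, hmul, hfaith⟩ := Blk467.exists_module S
  -- gadget 1
  obtain ⟨m, r, hG⟩ := G1_852.gadget (S := S) (V := S → ZMod 2) act
  -- gadget 2
  haveI : Fintype (S → ZMod 2) := Fintype.ofFinite _
  obtain ⟨K, hEx⟩ := ExactR_237.exact_gadget α S (S → ZMod 2) φ act (2 * (r + m) + 2)
  obtain ⟨Ms, M, hcard, hMs, hM, hG⟩ := hG (2 ^ (K + 1))
  set b : ℕ := 2 ^ (K + 5) * M + 1 with hbdef
  have hb0 : 0 < b := by omega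
  have hco : Nat.Coprime b M := by
    rw [hbdef, Nat.coprime_comm]
    simp
  obtain ⟨lam, rho, nu1, hlam, hsound, hcomp, hloc⟩ := hG b hb0 hco α φ
  set N1 : ℕ := b ^ m with hN1
  have hN1pos : 0 < N1 := pow_pos hb0 m
  -- ruler
  obtain ⟨c, hcm, hcgap, hcw, hcpos, hspoil⟩ := Sp_781.spoil K m M b N1 Ms hM
    (fun k hk => ⟨(hMs k hk).1.le, (hMs k hk).2.2⟩) (by omega) hco
  obtain ⟨lam2, rho2, nu2, hex2, hcomp2⟩ := hEx c (fun i j hij _ => hcm hij)
  set p0 : ℕ := c K with hp0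
  have hcp0 : ∀ k, k < K → c k ≤ p0 := fun k hk => (hcm hk).le
  -- walls
  obtain ⟨n, -, B, Wo, hLW, hgap, -, -, hfree⟩ :=
    LWallAll_922.walls_all_left α (2 * p0 + 2 * N1 + 1) (by omega)
  let q0 : ℕ := n + 2 * p0
  let g : Geo α :=
    { Wo := Wo, n := n, z := p0 + N1 + q0, p0 := p0, q0 := q0, N1 := N1, loc := hLW.app
      hz := rfl, hq := by show n ≤ n + 2 * p0; omega, hN := hN1pos
      hqp := by show p0 ≤ n + 2 * p0 + N1; omega }
  let BadT : ℕ → Prop := Sp_781.Bad Ms M b m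
  let pre : List α → (S → ZMod 2) → (S → ZMod 2) := fun X v =>
    act v (X.map φ).prod + nu2 X 1
  let post : (S → ZMod 2) → List α → (S → ZMod 2) := fun u Y =>
    act u (Y.map φ).prod + nu1 Y
  let nu : List α → (S → ZMod 2) := fun X =>
    act (nu2 (X.take p0) 1) ((X.drop p0).map φ).prod + nu1 (X.drop p0)
  have hT : ∀ v X, g.T pre post v X = act v (X.map φ).prod + nu X := by
    intro v X
    show act (act v ((X.take p0).map φ).prod + nu2 (X.take p0) 1) ((X.drop p0).map φ).prod +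
      nu1 (X.drop p0) = _
    rw [hadd, ← hmul, add_assoc]
    congr 2
    rw [← List.prod_append, ← List.map_append, List.take_append_drop]
  have hgap' : ∀ P Q : List α, g.Wo P → g.Wo (P ++ Q) → Q ≠ [] →
      2 * g.p0 + 2 * g.N1 < Q.length := by
    intro P Q h1 h2 h3
    have h4 : 0 < Q.length := List.length_pos_iff.2 h3
    have h5 := hgap (P ++ Q) P.length (P.length + Q.length) (by omega) (by simp)
      (by rw [List.take_left]; exact h1)
      (by rw [List.take_of_length_le (by simp)]; exact h2)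
    show 2 * p0 + 2 * N1 < Q.length
    omega
  have hlen1 : ∀ P v, lam P = some v → P.length ≤ g.N1 := fun P v h => (hlam P v h).le
  have hexx1 : ∀ P Q u b', lam P = some u → rho Q = some b' → b' = post u (P ++ Q) :=
    fun P Q u b' h1 h2 => hsound P Q u b' h1 h2
  have hcmp1 : ∀ Y : List α, ¬ BadT Y.length → ∀ u, ∃ P Q, Y = P ++ Q ∧ lam P = some u ∧
      (rho Q).isSome := by
    intro Y hY u
    obtain ⟨P, Q, h1, h2, v', h3⟩ := hcomp Y
      (fun k hk hd => hY (Or.inl ⟨k, hk, hd⟩))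
      (fun j hj => by
        by_contra hno
        refine hY (Or.inr ⟨j, hj, fun h => hno ⟨h.1, ?_⟩⟩)
        omega) u
    exact ⟨P, Q, h1, h2, by rw [h3]; rfl⟩
  have hexx2 : ∀ k, k < K → ∀ P Q v u, P.length = c k → Q.length = g.p0 - c k →
      lam2 k P = some v → (fun k Q => rho2 k Q (1 : S)) k Q = some u → u = pre (P ++ Q) v := by
    intro k hk P Q v u h1 _ h3 h4
    have := hex2 k hk P Q 1 v u h1 h3 h4
    rw [mul_one] at this
    exact this
  have hsp : ∀ k k' l l', k < K → k' < K → l < K → l' < K → k' ≠ k → l' ≠ l →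
      c k + c l' < c l + c k' + 2 * g.N1 → c l + c k' < c k + c l' + 2 * g.N1 → k = l := by
    intro k k' l l' _ _ _ _ h1 _ h3 h4
    by_contra hne
    have h5 := hcw k' k l' l h1 (fun h => hne (Prod.mk.inj h).2)
    have h3' : c k + c l' < c l + c k' + 2 * N1 := h3
    have h4' : c l + c k' < c k + c l' + 2 * N1 := h4
    rcases lt_abs.1 h5 with h6 | h6 <;> omega
  have hthin : ∀ τ, g.z ≤ τ + g.p0 → ∀ J : Finset ℕ, (∀ k ∈ J, k < K ∧
      ∃ k', k' < K ∧ k' ≠ k ∧ BadT (τ + c k' - c k - g.p0)) → J.card ≤ r + m := by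
    intro τ hτ J hJ
    have hτ' : p0 + N1 + (n + 2 * p0) ≤ τ + p0 := hτ
    have hex : ∀ k : ℕ, ∃ k' : ℕ, k ∈ J → k' < K ∧ k' ≠ k ∧ BadT (τ + c k' - c k - p0) := by
      intro k
      by_cases hk : k ∈ J
      · obtain ⟨_, k', h1, h2, h3⟩ := hJ k hk
        exact ⟨k', fun _ => ⟨h1, h2, h3⟩⟩
      · exact ⟨0, fun h => absurd h hk⟩
    choose f hf using hex
    refine (Finset.card_le_card_of_injOn (fun k => (k, f k)) ?_ ?_).trans
      ((hspoil (τ - p0) (fun i hi => by have := hcp0 i hi; omega)).trans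
        (Nat.add_le_add_right hcard m))
    · intro k hk
      obtain ⟨h1, h2, h3⟩ := hf k hk
      have hkK := (hJ k hk).1
      have hck := hcp0 k hkK
      simp only [Finset.coe_filter, Finset.mem_product, Finset.mem_range]
      refine ⟨⟨hkK, h1⟩, fun h => h2 h.symm, ?_⟩
      have e : τ - p0 + c (f k) - c k = τ + c (f k) - c k - p0 := by omega
      rw [e]; exact h3
    · intro k _ k' _ h
      exact (Prod.mk.inj h).1
  -- the finite-state clause
  have hp0A : p0 + N1 ≤ g.z + g.N1 := by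
    show p0 + N1 ≤ p0 + N1 + (n + 2 * p0) + N1; omega
  have hnu : ∀ X X' : List α, g.z + g.N1 ≤ X.length → g.z + g.N1 ≤ X'.length →
      X.take (g.z + g.N1) = X'.take (g.z + g.N1) →
      ((X.drop (g.z + g.N1)).map φ).prod = ((X'.drop (g.z + g.N1)).map φ).prod →
      X.length % (M * N1) = X'.length % (M * N1) → nu X = nu X' := by
    intro X X' h1 h2 h3 h4 h5
    have e0 : X.take p0 = X'.take p0 := by
      have e1 : ∀ Z : List α, Z.take p0 = (Z.take (g.z + g.N1)).take p0 := by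
        intro Z; rw [List.take_take, min_eq_left (by omega)]
      rw [e1 X, e1 X', h3]
    have e1 : ∀ a, a ≤ g.z + g.N1 → ((X.drop a).map φ).prod = ((X'.drop a).map φ).prod := by
      intro a ha
      rw [pr_take_drop φ ha X, pr_take_drop φ ha X', h3, h4]
    have e2 : nu1 (X.drop p0) = nu1 (X'.drop p0) := by
      refine (hloc _ _ ?_ ?_ ?_).2
      · have e3 : ∀ Z : List α, (Z.drop p0).take N1 = ((Z.take (g.z + g.N1)).drop p0).take N1 := by
          intro Z
          rw [List.drop_take, List.take_take, min_eq_left (by omega)]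
        rw [e3 X, e3 X', h3]
      · show (((X.drop p0).drop N1).map φ).prod = (((X'.drop p0).drop N1).map φ).prod
        rw [List.drop_drop, List.drop_drop]
        exact e1 _ (by omega)
      · rw [List.length_drop, List.length_drop]
        exact sub_mod_eq (by omega) (by omega) h5
    show act (nu2 (X.take p0) 1) ((X.drop p0).map φ).prod + nu1 (X.drop p0) =
      act (nu2 (X'.take p0) 1) ((X'.drop p0).map φ).prod + nu1 (X'.drop p0)
    rw [e0, e1 p0 (by omega), e2]
  have hMN : 0 < M * N1 := Nat.mul_pos hM hN1pos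
  have hpr : ∀ X X' : List α, X.take (g.z + g.N1) = X'.take (g.z + g.N1) →
      ((X.drop (g.z + g.N1)).map φ).prod = ((X'.drop (g.z + g.N1)).map φ).prod →
      (X.map φ).prod = (X'.map φ).prod := by
    intro X X' h3 h4
    have := pr_take_drop φ (Nat.zero_le (g.z + g.N1)) X
    have h' := pr_take_drop φ (Nat.zero_le (g.z + g.N1)) X'
    rw [List.drop_zero] at this h'
    rw [this, h', h3, h4]
  have hreg1 : ∀ x y : S → ZMod 2,
      Language.IsRegular ({X | act x (X.map φ).prod + nu X = y} : Language α) := by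
    intro x y
    refine Loc_645.isRegular_of_read' φ (g.z + g.N1) (M * N1) hMN _ ?_
    intro q q' h1 h2 h3 h4 h5 h6
    rw [← hpr q q' h3 h4, ← hnu q q' h1 h2 h3 h4 h5]
    exact h6
  have hreg2 : Language.IsRegular ({X | g.BadX BadT X} : Language α) := by
    refine Loc_645.isRegular_of_read' φ (g.z + g.N1) (M * N1) hMN _ ?_
    intro q q' h1 h2 h3 h4 h5 h6
    rcases h6 with h6 | h6
    · exact Or.inl (E_loc g le_rfl h1 h2 h3 h6)
    · refine Or.inr (bad_per hb0 (fun k hk => (hMs k hk).2.2) ?_ h6)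
      exact sub_mod_eq (p := p0) (by omega) (by omega) h5
  have hreg3 : ∀ s : S, Language.IsRegular ({X | (X.map φ).prod = s} : Language α) := by
    intro s
    refine Loc_645.isRegular_of_read' φ (g.z + g.N1) (M * N1) hMN _ ?_
    intro q q' h1 h2 h3 h4 h5 h6
    rw [← hpr q q' h3 h4]
    exact h6
  -- wall-free words
  have hfree' : ∀ u : List α, (∀ t < u.length, ¬ Wo (u.take t)) →
      u ∈ (BddReg_746.PN (max B (2 * p0 + 2 * N1 + 1)) 2 : Language α) := by
    intro u hu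
    obtain ⟨a, x, v, k, h1, h2, h3, rfl⟩ := hfree u hu
    refine Language.mem_mul.2 ⟨a ++ BddReg_746.pw x k,
      ⟨a, x, k, h1.trans (le_max_left _ _), h2.trans (le_max_right _ _), rfl⟩, v, ?_, rfl⟩
    refine Language.mem_mul.2 ⟨v, ⟨v, [], 0, h3.trans (le_max_left _ _), by simp, by simp⟩,
      [], rfl, by simp⟩
  have hXXiff : ∀ X : List α, g.XX X ↔ P4_933.XX Wo g.z X := by
    intro X
    constructor
    · rintro ⟨h1, h2, h3⟩
      exact ⟨h2, h1, fun t ht hz => h3 t hz ht⟩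
    · rintro ⟨h1, h2, h3⟩
      exact ⟨h2, h1, fun t hz ht => h3 t ht hz⟩
  refine Top5_120.top5 act hadd hone hmul hfaith φ nu {X | g.XX X}
    {X | g.XX X ∧ g.BadX BadT X} ?_ (fun X hX => hX.1)
    (fun v => {P | g.LP1 pre lam v P}) (fun v => {P | Geo.LP2 K c lam2 v P})
    ?_ ?_ ?_ ?_ ?_ ?_ ?_ s
  · -- prefix code
    refine ⟨fun h => ?_, fun X hX Y hY hXY => ?_⟩
    · have h1 : g.z ≤ 0 := h.1
      have h2 : p0 + N1 + q0 ≤ 0 := h1
      omega
    · obtain ⟨R, rfl⟩ := hXY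
      exact g.prefix_code (R := R) (R' := []) hX hY (by rw [List.append_nil])
  · intro v
    refine (List.finite_length_le α (p0 + N1)).subset fun P hP => ?_
    obtain ⟨h1, h2⟩ := hP
    have h3 := hlen1 _ _ h2
    rw [List.length_drop] at h3
    have h1' : p0 ≤ P.length := h1
    have h3' : P.length - p0 ≤ N1 := h3
    show P.length ≤ p0 + N1
    omega
  · intro v
    refine (List.finite_length_le α p0).subset fun P hP => ?_
    obtain ⟨k, hk, h1, -⟩ := hP
    show P.length ≤ p0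
    rw [h1]; exact hcp0 k hk
  · intro x y
    refine (P4_933.hl_XX (z := g.z) hLW.app hLW.len hfree' (hreg1 x y)).congr fun X => ?_
    constructor
    · rintro ⟨h1, h2⟩; exact ⟨(hXXiff X).1 h1, h2⟩
    · rintro ⟨h1, h2⟩; exact ⟨(hXXiff X).2 h1, h2⟩
  · intro x y
    refine (P4_933.hl_XX (z := g.z) hLW.app hLW.len hfree'
      (f := fun X => g.BadX BadT X ∧ act x (X.map φ).prod + nu X = y)
      (hreg2.inf (hreg1 x y))).congr fun X => ?_
    constructor
    · rintro ⟨⟨h1, h2⟩, h3⟩; exact ⟨(hXXiff X).1 h1, h2, h3⟩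
    · rintro ⟨h1, h2, h3⟩; exact ⟨⟨(hXXiff X).2 h1, h2⟩, h3⟩
  · intro s
    refine (P4_933.hl_NB (z := g.z) hLW.app hLW.len hfree' (hreg3 s)).congr fun w => ?_
    constructor
    · rintro ⟨h1, h2⟩
      exact ⟨(P4_933.NB_iff Wo g.z w).2 fun P hpre hP => h1 P ((hXXiff P).2 hP) hpre, h2⟩
    · rintro ⟨h1, h2⟩
      refine ⟨fun X hX hpre => ?_, h2⟩
      exact (P4_933.NB_iff Wo g.z w).1 h1 X hpre ((hXXiff X).1 hX)
  · -- scheme 1
    intro X hX hB v
    obtain ⟨P, Q, h1, h2, h3⟩ := hcc1 g pre post hlen1 hexx1 hcmp1 hX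
      (fun h => hB ⟨hX, h⟩) v
    refine ⟨P, Q, h1, h2, fun x P' hP' => ?_⟩
    obtain ⟨h4, h5⟩ := h3 x P' hP'
    rw [hT, hT] at h5
    exact ⟨h4, h5⟩
  · -- scheme 2
    intro X hX Y hY v
    have hI : ∃ I : Finset ℕ, 2 * (r + m) + 2 ≤ I.card ∧ ∀ k ∈ I, k < K ∧
        lam2 k (X.take (c k)) = some v ∧
        ((fun k Q => rho2 k Q (1 : S)) k ((X.take g.p0).drop (c k))).isSome := by
      have hXl : p0 ≤ X.length := by
        have h1 : p0 + N1 + q0 ≤ X.length := hX.1.1
        omega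
      obtain ⟨I, hI1, hI2⟩ := hcomp2 (X.take p0) 1 v (fun k hk => by
        rw [List.length_take, min_eq_left hXl]; exact hcp0 k hk)
      refine ⟨I, hI1, fun k hk => ?_⟩
      obtain ⟨h1, h2, h3⟩ := hI2 k hk
      refine ⟨h1, ?_, h3⟩
      rw [List.take_take, min_eq_left (hcp0 k h1)] at h2
      exact h2
    obtain ⟨P, Q, h1, h2, h3⟩ := hcc2 g pre post (BadT := BadT)
      (rho2 := fun k Q => rho2 k Q (1 : S)) hcp0 hexx2 hgap' hsp hthin
      hX.1 hX.2 hY.1 v hI
    refine ⟨P, Q, h1, h2, fun x P' hP' => ?_⟩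
    rcases h3 x P' hP' with ⟨X', h4, Y', h5, h6, h7⟩ | ⟨X', h4, h5, h6⟩
    · left
      refine ⟨X', h4, Y', h5, h6, ?_⟩
      simpa only [hT] using h7
    · right
      exact ⟨X', h4, h5, h6⟩

end Crest.Agent.R320.Fin_781
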