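import Crest.Agent.R320.SemTop_727
import Crest.Agent.R320.SemJ_832
import Crest.Agent.R320.Fib_298
import Crest.Agent.R320.G1_852
import Crest.Agent.R320.Sp_125
import Crest.Agent.R320.ExactR_237
import Crest.Agent.R320.Univ_188
import Crest.Agent.R320.LWallAll_922
import Crest.Agent.R320.RegDep_10
import Crest.Agent.R320.Two_621

/-!
# Row 320: final assembly (helper793) from landed files

top: SemTop_727; concrete scheme 2: SemJ_832; heights: Fib_298; scheme 1 gadget: G1_852; ruler:
Sp_125; exact gadget: ExactR_237; walls: LWallAll_922; universes: Univ_188.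
-/

set_option autoImplicit false

namespace Crest.Agent.R320.Fin_793

open Crest.Agent.R320 Crest.Agent.R320.Hk_851 Crest.RegLang

open Classical in
theorem exists_data {α S : Type} [Finite α] [Monoid S] [Finite S] (f : α → S) :
    ∃ (D : SemJ_832.Dat α S (S → ZMod 2)) (B : ℕ), D.phi = (fun w => (w.map f).prod) ∧
      D.act = Two_621.act ∧ Fib_298.WallU D.Wo D.n B ∧
      (∀ y, Language.IsRegular ({Y | D.nu1 Y = y} : Language α)) := by
  have := Fintype.ofFinite S
  obtain ⟨m, r, hG⟩ := G1_852.gadget (S := S) (V := S → ZMod 2) Two_621.act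
  obtain ⟨K, hK⟩ :=
    ExactR_237.exact_gadget α S (S → ZMod 2) f Two_621.act (2 * (r + m) + 2)
  obtain ⟨Ms, M, hr, hMs, hM, hG⟩ := hG (4 ^ K)
  obtain ⟨b, hb⟩ : ∃ b, b = 1 + M * (2 ^ (K + 3) + 3) := ⟨_, rfl⟩
  have hb1 : 2 ^ (K + 3) * M + 2 * M < b := by rw [hb]; nlinarith
  have hcop : Nat.Coprime b M := by rw [hb]; simp
  have hb0 : 0 < b := by omega
  obtain ⟨lam, rho, nu, h1, h2, h3, h4⟩ := hG b hb0 hcop α f
  obtain ⟨N, hN⟩ : ∃ N, N = b ^ m := ⟨_, rfl⟩
  obtain ⟨c, hc1, hc2, hc3⟩ := Sp_125.spoil Ms M m b K N hM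
    (fun k hk => ⟨(hMs k hk).1, (hMs k hk).2.2⟩) hb1 hcop
  obtain ⟨lam2, rho2, nu2, e1, e2⟩ := hK c (fun i j hij _ => by have := hc1 i j hij; omega)
  obtain ⟨n, G, B, Wo, hW, hgap, -, -, hfree⟩ :=
    LWallAll_922.walls_all_left α (2 * c K + 2 * N + 1) (by omega)
  have hcK : ∀ k < K, c k ≤ c K := fun k hk => by have := hc1 k K hk; omega
  refine ⟨{ phi := fun w => (w.map f).prod, act := Two_621.act, Wo := Wo, n := n,
            W := 2 * c K + 2 * N, z := c K + n + 2 * N + 2 * c K + 1, p0 := c K, N := N, K := K,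
            C0 := r + m, Lam := c K, BadT := Sp_125.Bad Ms M m b, lam := lam, rho := rho,
            nu1 := nu, c := c, lam2 := lam2, rho2 := fun k Q => rho2 k Q 1,
            nu2 := fun X => nu2 X 1,
            hloc := hW.app,
            hgap := ?_, g_len := ?_, g_sound := ?_, g_comp := ?_, e_sound := ?_, e_comp := ?_,
            c_le := hcK, rulerE := ?_, rulerB := ?_, h_p0 := le_rfl, z_pos := by omega,
            h_z := by omega, h_W := by omega }, max B (2 * c K + 2 * N + 1), rfl, rfl,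
            ⟨hW.app, hW.len, ?_⟩, ?_⟩
  · intro X t t' htt' ht' hw hw'
    have := hgap X t t' htt' ht' hw hw'
    omega
  · intro p v hp
    rw [hN]; exact (h1 p v hp).le
  · intro p q v r' hp hq
    exact h2 p q v r' hp hq
  · intro u hu hB v
    have hB1 : ∀ k ∈ Ms, ¬ k ∣ u.length := fun k hk hd => hB (Or.inl ⟨k, hk, hd⟩)
    have hB2 : ∀ j < m, M ≤ u.length / b ^ j % b ∧ u.length / b ^ j % b + M < b := by
      intro j hj
      by_contra hcon
      exact hB (Or.inr ⟨j, hj, fun h => hcon ⟨h.1, by omega⟩⟩)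
    obtain ⟨P, Q, hX, hP, v', hQ⟩ := h3 u hB1 hB2 v
    exact ⟨P, Q, hX.symm, hP, by rw [hQ]; rfl⟩
  · intro k hk P Q v b' hP hl hq
    have := e1 k hk P Q 1 v b' hP hl hq
    rw [mul_one] at this
    exact this
  · intro u v hu
    exact e2 u 1 v hu
  · intro i _ j _ i' _ j' _ hij hij' ha hb'
    by_contra hne
    have hne' : (i, j) ≠ (i', j') := by
      intro h
      exact hne ⟨congrArg Prod.fst h, congrArg Prod.snd h⟩
    rcases hc2 i j i' j' hij hij' hne' with h | h
    · omega
    · omega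
  · intro T hT hT'
    have := hc3 T (fun l hl => (hcK l hl).trans hT')
    refine le_trans ?_ (le_trans this (by omega))
    apply Finset.card_le_card_of_injOn Prod.swap
    · intro p hp
      simp only [Finset.coe_filter, Finset.mem_product, Finset.mem_range, Set.mem_ofPred_eq] at hp ⊢
      exact ⟨⟨hp.1.2, hp.1.1⟩, fun h => hp.2.1 h.symm, hp.2.2⟩
    · exact Prod.swap_injective.injOn
  · intro X hX
    obtain ⟨u, x, v, k, a1, a2, a3, a4⟩ := hfree X hX
    exact ⟨u, x, v, k, a4, le_trans a1 (le_max_left _ _), le_trans a2 (le_max_right _ _),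
      le_trans a3 (le_max_left _ _)⟩
  · intro y
    refine RegDep_10.regular_fibre (fun w : List α => (w.map f).prod) (by simp)
      (by intro u v; simp) (b ^ m) (M * b ^ m) (by positivity) nu ?_ y
    intro u u' _ _ a1 a2 a3
    exact (h4 u u' a1 a2 a3).2

theorem fibre {α S : Type} [Finite α] [Monoid S] [Finite S] (f : α → S) (s : S) :
    HL 3 ({w | (w.map f).prod = s} : Language α) := by
  obtain ⟨D, B, hphi, hact, hW, hnu⟩ := exists_data f
  have hz0 := D.z_pos
  have hz : D.n ≤ D.z := by have := D.h_z; omega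
  have hp : D.p0 ≤ D.z := by have := D.h_z; omega
  have hTT : ∀ x X, D.T x X = Fib_298.TT Two_621.act f D.p0
      (fun v X0 => Two_621.act v (X0.map f).prod + D.nu2 X0) D.nu1 x X := by
    intro x X
    unfold SemJ_832.Dat.T Fib_298.TT
    rw [hphi, hact]
  let E : SemTop_727.Sch α (S → ZMod 2) := ⟨D.Z, D.T, D.L1, D.L2⟩
  refine SemTop_727.top (k := 1) Two_621.act (fun a b s => Two_621.act_add a b s)
    (fun v => Two_621.act_one v) (fun v s t => (Two_621.act_mul v s t).symm)
    (fun s t h => Two_621.act_faithful h) f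
    (fun X => Two_621.act (D.nu2 (X.take D.p0)) ((X.drop D.p0).map f).prod + D.nu1 (X.drop D.p0))
    E ?_ ?_ ?_ ?_ ?_ ?_ ?_ s
  · intro v X
    show D.T v X = _
    rw [hTT]
    unfold Fib_298.TT
    rw [Two_621.act_add, Two_621.act_mul, ← List.prod_append, ← List.map_append,
      List.take_append_drop, add_assoc]
  · exact Fib_298.pcode_XX hz0
  · intro x y
    refine (Fib_298.hfib hW hz Two_621.act f D.p0 hp
      (fun v X0 => Two_621.act v (X0.map f).prod + D.nu2 X0) D.nu1 hnu x y).congr fun w => ?_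
    constructor
    · rintro ⟨hw1, hw2⟩
      exact ⟨hw1, by rw [← hTT]; exact hw2⟩
    · rintro ⟨hw1, hw2⟩
      exact ⟨hw1, by show D.T x w = y; rw [hTT]; exact hw2⟩
  · intro x
    refine (List.finite_length_le α (D.p0 + D.N)).subset ?_
    rintro P ⟨hP1, hP2⟩
    have := D.g_len _ _ hP2
    rw [List.length_drop] at this
    show P.length ≤ D.p0 + D.N
    omega
  · intro x
    refine (List.finite_length_le α D.Lam).subset ?_
    rintro P ⟨k, hk, hP, -⟩
    show P.length ≤ D.Lam
    rw [hP]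
    exact D.c_le k hk
  · intro X1 h1 X2 h2 x
    exact D.hC2 h1 h2 x
  · intro s'
    exact (Fib_298.rest hW hz f s').mono (by norm_num)

theorem type0 (α : Type) [Finite α] (L : Language α) (hL : L.IsRegular) :
    ∃ e : GRegExp α, e.height ≤ 3 ∧ e.lang = L :=
  of_monoid (fun _ _ _ f s => fibre f s) L hL

universe u

theorem main (α : Type u) [Finite α] (L : Language α) (hL : L.IsRegular) :
    ∃ e : GRegExp α, e.height ≤ 3 ∧ e.lang = L :=
  Univ_188.of_type0 3 (fun α _ L hL => type0 α L hL) α L hL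

end Crest.Agent.R320.Fin_793
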