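import Crest.Agent.R320.End_532
import Crest.Agent.R320.G1_852
import Crest.Agent.R320.Sp_797
import Crest.Agent.R320.ExactR_237
import Crest.Agent.R320.LWallAll_922
import Crest.Agent.R320.Fib_298
import Crest.Agent.R320.Loc_645

/-!
# Row 320: constants and join (helper797)

`fin`: fibres of a finite monoid are of generalized star height at most three.
-/

set_option autoImplicit false

namespace Crest.Agent.R320.Fin_797

open Crest.RegLang Crest.Agent.R320.Hk_851

theorem fin (α : Type) [Finite α] (S : Type) [Monoid S] [Finite S] (φ : α → S) (s : S) :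
    HL 3 ({w | (w.map φ).prod = s} : Language α) := by
  classical
  haveI := Fintype.ofFinite S
  obtain ⟨act, hadd, hone, hmul, hfaith⟩ := Blk467.exists_module S
  obtain ⟨m, r, hG⟩ := G1_852.gadget (S := S) (V := S → ZMod 2) act
  obtain ⟨K, hK⟩ := ExactR_237.exact_gadget α S (S → ZMod 2) φ act (2 * (r + m) + 2)
  obtain ⟨Ms, M, hcard, hMs, hM, hG⟩ := hG (2 ^ (K + 1))
  obtain ⟨b, hb⟩ : ∃ b, b = 2 ^ (K + 5) * M + 1 := ⟨_, rfl⟩
  have hb0 : 0 < b := by omega
  have hcop : Nat.Coprime b M := by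
    rw [hb]
    simp
  obtain ⟨lam, rho, nu1, hlen, hsound, hcomp, hfs⟩ := hG b hb0 hcop α φ
  obtain ⟨c, hmono, hgapc, hLc, hgol, hthin, -⟩ :=
    Sp_797.spoil_nat Ms M m b K (4 * b ^ m) hM
      (fun k hk => ⟨(hMs k hk).1, (hMs k hk).2.2⟩) (by omega) hcop
  obtain ⟨lam2, rho2, nu2, hex2, hI⟩ := hK c (fun i j hij _ => hmono hij)
  have hN1 : 0 < b ^ m := pow_pos hb0 m
  obtain ⟨n, G, B, Wo, hLW, hfar, -, -, hfree⟩ :=
    LWallAll_922.walls_all_left α (2 * c K + 2 * b ^ m + 1) (by omega)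
  let g : Sc2n_937.Geo α :=
    { Wo := Wo
      n := n
      z := c K + b ^ m + (n + 2 * c K)
      p0 := c K
      q0 := n + 2 * c K
      N1 := b ^ m
      loc := hLW.app
      hz := rfl
      hq := by omega
      hN := hN1
      hqp := by omega }
  have hWU : Fib_298.WallU Wo n (B + (2 * c K + 2 * b ^ m + 1)) := by
    refine ⟨hLW.app, hLW.len, ?_⟩
    intro X hX
    obtain ⟨u, x, v, j, h1, h2, h3, h4⟩ := hfree X hX
    exact ⟨u, x, v, j, h4, by omega, by omega, by omega⟩
  have hnu : ∀ y, Language.IsRegular ({Y | nu1 Y = y} : Language α) := by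
    intro y
    refine Loc_645.isRegular_of_read' φ (b ^ m) (M * b ^ m) (Nat.mul_pos hM hN1)
      (fun Y => nu1 Y = y) ?_
    intro q q' _ _ h1 h2 h3 h4
    exact (hfs q q' h1 h2 h3).2 ▸ h4
  refine End_532.joint act hadd hone hmul hfaith φ g nu1 (fun X => nu2 X 1) K c lam rho lam2
    (fun k Q => rho2 k Q 1) (Sp_797.Bad Ms M m b) (r + m) ?_ ?_ ?_ ?_ ?_ ?_ ?_ ?_ ?_ ?_ ?_ ?_ s
  · intro P v h
    exact (hlen P v h).le
  · intro P Q u b' h1 h2
    exact hsound P Q u b' h1 h2
  · intro Y _ hB u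
    have h1 : ∀ k ∈ Ms, ¬ k ∣ Y.length := fun k hk hd => hB (Or.inl ⟨k, hk, hd⟩)
    have h2 : ∀ j < m, M ≤ Y.length / b ^ j % b ∧ Y.length / b ^ j % b + M < b := by
      intro j hj
      by_contra hc
      apply hB
      refine Or.inr ⟨j, hj, fun h => hc ⟨h.1, ?_⟩⟩
      have := h.2
      omega
    obtain ⟨P, Q, h3, h4, v', h5⟩ := hcomp Y h1 h2 u
    exact ⟨P, Q, h3, h4, by rw [h5]; rfl⟩
  · intro k hk
    exact (hmono hk).le
  · intro k hk P Q v u hP _ h1 h2
    have := hex2 k hk P Q 1 v u hP h1 h2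
    rw [mul_one] at this
    exact this
  · intro P Q h1 h2 h3
    have hl : 0 < Q.length := List.length_pos_iff.2 h3
    have := hfar (P ++ Q) P.length (P ++ Q).length (by rw [List.length_append]; omega) le_rfl
      (by rw [List.take_left]; exact h1) (by rw [List.take_length]; exact h2)
    rw [List.length_append] at this
    show 2 * c K + 2 * b ^ m < Q.length
    omega
  · intro k k' l l' _ _ _ _ h1 h2 h3 h4
    by_contra hne
    have h3' : c k + c l' < c l + c k' + 2 * b ^ m := h3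
    have h4' : c l + c k' < c k + c l' + 2 * b ^ m := h4
    rcases hgol k k' l l' (Ne.symm h1) (fun h => hne (Prod.mk.inj h).1) with h | h
    · omega
    · omega
  · intro τ hτ J hJ
    have hτ' : c K + b ^ m + (n + 2 * c K) ≤ τ + c K := hτ
    have hJ' : ∀ k, ∃ k', k ∈ J → k < K ∧ k' < K ∧ k' ≠ k ∧
        Sp_797.Bad Ms M m b (τ + c k' - c k - c K) := by
      intro k
      by_cases hk : k ∈ J
      · obtain ⟨h1, k', h2, h3, h4⟩ := hJ k hk
        exact ⟨k', fun _ => ⟨h1, h2, h3, h4⟩⟩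
      · exact ⟨0, fun h => absurd h hk⟩
    choose f hf using hJ'
    have hinj : Function.Injective (fun k : ℕ => ((k, f k) : ℕ × ℕ)) := by
      intro x y h
      exact (Prod.mk.inj h).1
    have hcardJ : (J.image (fun k : ℕ => ((k, f k) : ℕ × ℕ))).card = J.card :=
      Finset.card_image_of_injective J hinj
    rw [← hcardJ]
    refine (hthin ((τ : ℤ) - (c K : ℤ)) _ ?_).trans (by omega)
    intro p hp
    obtain ⟨k, hk, rfl⟩ := Finset.mem_image.1 hp
    obtain ⟨h1, h2, h3, h4⟩ := hf k hk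
    refine ⟨h1, h2, Ne.symm h3, _, ?_, h4⟩
    have h5 : c k < c K := hmono h1
    show ((τ + c (f k) - c k - c K : ℕ) : ℤ) = (τ : ℤ) - (c K : ℤ) + (c (f k) : ℤ) - (c k : ℤ)
    omega
  · intro X0 v hX0
    have hX0' : X0.length = c K := hX0
    obtain ⟨I, h1, h2⟩ := hI X0 1 v (fun k hk => by rw [hX0']; exact (hmono hk).le)
    exact ⟨I, h1, h2⟩
  · show 0 < c K + b ^ m + (n + 2 * c K)
    omega
  · intro x y
    exact Fib_298.hfib hWU (z := c K + b ^ m + (n + 2 * c K)) (by omega) act φ (c K) (by omega)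
      (fun v X0 => act v (X0.map φ).prod + nu2 X0 1) nu1 hnu x y
  · intro t
    exact HL.mono (by omega) (Fib_298.rest hWU (z := c K + b ^ m + (n + 2 * c K)) (by omega) φ t)

end Crest.Agent.R320.Fin_797
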