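import Crest.Agent.R320.SemTop_727
import Crest.Agent.R320.JointSem_814
import Crest.Agent.R320.P4N_211
import Crest.Agent.R320.WallU_228
import Crest.Agent.R320.G1_604
import Crest.Agent.R320.Sp_421

/-! helper80: the join of the landed pieces of row 320 (type 0 alphabets). -/

set_option autoImplicit false

namespace Crest.Agent.R320.Fin_80

open Crest.RegLang Crest.Agent.R320.Hk_851

theorem fin (α : Type) [Finite α] (S : Type) [Monoid S] [Finite S] (f : α → S) (s : S) :
    HL 3 ({w | (w.map f).prod = s} : Language α) := by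
  classical
  haveI := Fintype.ofFinite S
  obtain ⟨act, hadd, hone, hmul, hfaith⟩ := Blk467.exists_module S
  haveI : Finite (S → ZMod 2) := inferInstance
  haveI : Fintype (S → ZMod 2) := Fintype.ofFinite _
  -- gadget 1
  obtain ⟨m, r, hg⟩ := G1_604.g1 S (S → ZMod 2) act
  obtain ⟨K, hK⟩ := ExactR_237.exact_gadget α S (S → ZMod 2) f act (2 + 2 * (r + m))
  obtain ⟨Ms, M, hMc, hMs, hM, hg⟩ := hg (2 ^ (K + 2))
  set b : ℕ := (2 ^ (K + 6) + 8) * M + 1 with hb
  have hb1 : 4 * M + 4 < b := by
    have h2 : 64 ≤ 2 ^ (K + 6) := by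
      calc 64 = 2 ^ 6 := by norm_num
        _ ≤ 2 ^ (K + 6) := Nat.pow_le_pow_right (by norm_num) (by omega)
    rw [hb]
    nlinarith
  have hb2 : 2 ^ (K + 6) * M < b := by
    rw [hb]
    nlinarith
  have hcop : Nat.Coprime b M := by
    rw [hb]
    simp [Nat.Coprime, Nat.gcd_comm]
  obtain ⟨lam, rho, nu1, hlam, hsound, hcompl, hfs⟩ := hg b hb1 hcop α f
  set N : ℕ := b ^ m with hN
  obtain ⟨c, T0, hcT, hcs, hgol, hcnt⟩ := Sp_421.sp K N r m M b Ms hM hb2 hcop
    (fun k hk => ⟨(hMs k hk).1, (hMs k hk).2.2⟩) hMc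
  obtain ⟨lam2, rho2, nu2, hs2, hc2⟩ := hK c (fun i j hij _ => by have := hcs i j hij; omega)
  obtain ⟨n, Wo, loc, len, gap, R', B', pcs⟩ := WallU_228.walls (α := α) (2 * T0 + 2 * N)
  set z : ℕ := 3 * T0 + N + n + 1 with hz
  have hW : JointSem_814.Walls n (2 * T0 + 2 * N) Wo :=
    { loc := loc
      len := len
      gap := by
        intro X s t hst htW htX hs ht
        have hl : (X.take t).length = t := by rw [List.length_take]; omega
        apply gap (X.take t) (t - s) ht (by omega) (by omega)
        rw [hl, List.take_take, show min (t - (t - s)) t = s by omega]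
        exact hs }
  let φ : List α → S := fun w => (w.map f).prod
  let nu2' : List α → (S → ZMod 2) := fun u => nu2 u 1
  let TT := JointSem_814.T T0 φ act nu1 nu2'
  let D : SemTop_727.Sch α (S → ZMod 2) :=
    { XX := JointSem_814.XX Wo z
      T := TT
      L1 := JointSem_814.L1 T0 φ act nu2' lam
      L2 := JointSem_814.L2 K c lam2 }
  have hφ : ∀ u v : List α, φ (u ++ v) = φ u * φ v := fun u v => by
    simp only [φ, List.map_append, List.prod_append]
  have hMb : 0 < M * b ^ m := Nat.mul_pos hM (pow_pos (by omega) m)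
  -- finite state
  have key : ∀ (v : S → ZMod 2) (X X' : List α), X.take (T0 + N) = X'.take (T0 + N) →
      X.length % (M * b ^ m) = X'.length % (M * b ^ m) →
      φ (X.drop (T0 + N)) = φ (X'.drop (T0 + N)) → TT v X = TT v X' := by
    intro v X X' h1 h2 h3
    rcases lt_or_ge X.length (T0 + N) with hl | hl
    · have e1 : X.take (T0 + N) = X := List.take_of_length_le hl.le
      have hl' : X'.length < T0 + N := by
        have := congrArg List.length h1
        rw [List.length_take, List.length_take] at this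
        omega
      have e2 : X'.take (T0 + N) = X' := List.take_of_length_le hl'.le
      rw [e1, e2] at h1
      rw [h1]
    · have hl' : T0 + N ≤ X'.length := by
        have := congrArg List.length h1
        rw [List.length_take, List.length_take] at this
        omega
      have t1 : X.take T0 = X'.take T0 := by
        have := congrArg (List.take T0) h1
        rwa [List.take_take, List.take_take, min_eq_left (by omega)] at this
      have t2 : (X.drop T0).take N = (X'.drop T0).take N := by
        have := congrArg (List.drop T0) h1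
        rwa [List.drop_take, List.drop_take, show T0 + N - T0 = N by omega] at this
      have d1 : ∀ Y : List α, (Y.drop T0).drop N = Y.drop (T0 + N) := fun Y => by
        rw [List.drop_drop]
      have t3 : φ (X.drop T0) = φ (X'.drop T0) := by
        rw [← List.take_append_drop N (X.drop T0), ← List.take_append_drop N (X'.drop T0), hφ, hφ,
          t2, d1, d1, h3]
      have t4 : (X.drop T0).length % (M * b ^ m) = (X'.drop T0).length % (M * b ^ m) := by
        rw [List.length_drop, List.length_drop]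
        have : (X.length - T0) + T0 ≡ (X'.length - T0) + T0 [MOD (M * b ^ m)] := by
          rw [show X.length - T0 + T0 = X.length by omega,
            show X'.length - T0 + T0 = X'.length by omega]
          exact h2
        exact Nat.ModEq.add_right_cancel' T0 this
      have t5 : nu1 (X.drop T0) = nu1 (X'.drop T0) :=
        (hfs _ _ (by rw [List.length_drop]; omega) (by rw [List.length_drop]; omega) t2 t4
          (by
            have := h3
            show φ ((X.drop T0).drop N) = φ ((X'.drop T0).drop N)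
            rw [d1, d1]; exact this)).2
      show act (act v (φ (X.take T0)) + nu2' (X.take T0)) (φ (X.drop T0)) + nu1 (X.drop T0) =
        act (act v (φ (X'.take T0)) + nu2' (X'.take T0)) (φ (X'.drop T0)) + nu1 (X'.drop T0)
      rw [t1, t3, t5]
  have hfib : ∀ x y, HL 1 (D.fib x y) := by
    intro x y
    have := P4N_211.hXT' (z := z) hφ loc len pcs (TT x) (T0 + N) (M * b ^ m) (T0 + N) hMb (key x) y
    refine this.congr fun w => ?_
    constructor
    · rintro ⟨⟨h1, h2, h3⟩, h4⟩
      exact ⟨⟨h2, h1, h3⟩, h4⟩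
    · rintro ⟨⟨h1, h2, h3⟩, h4⟩
      exact ⟨⟨h2, h1, h3⟩, h4⟩
  have hC : Blk467.PCode D.XX := by
    refine ⟨?_, fun X hX Y hY h => JointSem_814.XX_code hX hY h⟩
    rintro ⟨_, h, _⟩
    have : z ≤ 0 := h
    omega
  have hL1 : ∀ x, (D.L1 x).Finite := by
    intro x
    refine (List.finite_length_lt α (T0 + N + 1)).subset ?_
    rintro P ⟨h1, h2⟩
    have := hlam _ _ h2
    rw [List.length_drop] at this
    show P.length < T0 + N + 1
    omega
  have hL2 : ∀ x, (D.L2 x).Finite := by
    intro x
    refine (List.finite_length_lt α (T0 + 1)).subset ?_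
    rintro P ⟨k, hk, h1, h2⟩
    have := hcT k hk
    show P.length < T0 + 1
    omega
  have hspoil : ∀ U : List α, 2 * z ≤ U.length → ∃ J : Finset ℕ, J.card < 2 + 2 * (r + m) ∧
      ∀ k < K, JointSem_814.Spoiled Wo z T0 N K c (Sp_421.BadD Ms M m b) U k → k ∈ J := by
    intro U hU
    have hw := Sp_421.walls (K := K) (N1 := N) (T0 := T0) (C := r + m) (W := 2 * T0 + 2 * N)
      (z := z) (p := T0) (c := c) (BadN := Sp_421.BadD Ms M m b)
      (Wl := fun t => t ≤ U.length ∧ Wo (U.take t)) hcT hgol hcnt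
      (fun s t hs ht hst => by
        by_contra hcon
        exact hW.gap U s t hst (by omega) ht.1 hs.2 ht.2) le_rfl (by omega)
    refine ⟨_, lt_of_le_of_lt hw (by omega), ?_⟩
    rintro k hk ⟨k', hk', hne, h | h⟩
    · obtain ⟨s, h1, h2, h3, h4⟩ := h
      rw [Finset.mem_filter]
      refine ⟨Finset.mem_range.2 hk, k', hk', hne, Or.inl ⟨s, ⟨h1, h2⟩, by omega, by omega⟩⟩
    · obtain ⟨s, h1, h2, h3, h4, h5⟩ := h
      rw [Finset.mem_filter]
      refine ⟨Finset.mem_range.2 hk, k', hk', hne, Or.inr ⟨s, ⟨h1, h2⟩, h3, ?_, h5⟩⟩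
      rintro t ⟨ht1, ht2⟩ ht3
      by_contra hcon
      have := h4 t (by omega) ht2
      omega
  have hsound' : ∀ (p q : List α) (v r : S → ZMod 2), lam p = some v → rho q = some r →
      r = act v (φ (p ++ q)) + nu1 (p ++ q) := fun p q v r h1 h2 => hsound p q v r h1 h2
  have hcompl' : ∀ u : List α, 0 ≤ u.length → ¬ Sp_421.BadD Ms M m b u.length → ∀ v,
      ∃ p q, p ++ q = u ∧ lam p = some v ∧ (rho q).isSome := by
    intro u _ hbd v
    unfold Sp_421.BadD at hbd
    push Not at hbd
    exact hcompl u hbd.1 hbd.2 v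
  have hex : ∀ k < K, ∀ (P Q : List α) (v b : S → ZMod 2), P.length = c k → lam2 k P = some v →
      (fun k Q => rho2 k Q 1) k Q = some b → b = act v (φ (P ++ Q)) + nu2' (P ++ Q) := by
    intro k hk P Q v b h1 h2 h3
    have := hs2 k hk P Q 1 v b h1 h2 h3
    rw [mul_one] at this
    exact this
  have hco : ∀ (u : List α) (v : S → ZMod 2), (∀ k < K, c k ≤ u.length) →
      ∃ I : Finset ℕ, 2 + 2 * (r + m) ≤ I.card ∧ ∀ k ∈ I, k < K ∧ lam2 k (u.take (c k)) = some v ∧
        ((fun k Q => rho2 k Q 1) k (u.drop (c k))).isSome := fun u v h => hc2 u 1 v h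
  have hC2 : ∀ X1 ∈ D.Bad, ∀ X2 ∈ D.Bad, ∀ x, ∃ P ∈ D.L2 x, ∃ Q ∈ D.R2 (D.T (D.T x X1) X2),
      P ++ Q = X1 ++ X2 := by
    intro X1 hX1 X2 hX2 x
    exact JointSem_814.compl2 (N := N) (N0 := 0) (R := 2 + 2 * (r + m)) (rho := rho) hW (by omega)
      (by omega) (fun p v h => (hlam p v h).le) hsound' hcompl' hcT hex hco hspoil hX1.1 hX2 x
  refine SemTop_727.top (k := 1) act hadd hone hmul hfaith f
    (fun X => act (nu2' (X.take T0)) (φ (X.drop T0)) + nu1 (X.drop T0)) D ?_ hC hfib hL1 hL2 hC2 ?_ s
  · intro v X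
    show act (act v (φ (X.take T0)) + nu2' (X.take T0)) (φ (X.drop T0)) + nu1 (X.drop T0) = _
    rw [hadd, ← hmul, ← hφ, List.take_append_drop, add_assoc]
  · intro s
    refine (HL.mono (by norm_num : 1 ≤ 1 + 2) (P4N_211.hNP (z := z) hφ loc len pcs s)).congr fun w => ?_
    constructor
    · rintro ⟨h1, h2⟩
      exact ⟨fun X hX => h1 X ⟨hX.2.1, hX.1, hX.2.2⟩, h2⟩
    · rintro ⟨h1, h2⟩
      exact ⟨fun X hX => h1 X ⟨hX.2.1, hX.1, hX.2.2⟩, h2⟩

end Crest.Agent.R320.Fin_80
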