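import Crest.Agent.R320.Top5_120
import Crest.Agent.R320.Joint_47
import Crest.Agent.R320.Fib_298
import Crest.Agent.R320.LWallAll_922
import Crest.Agent.R320.Bridge_3
import Crest.Agent.R320.RegCongr_253

/-!
# Row 320: the join (helper801): any closed grid gadget (`Bridge_3.UGI`) gives height three.
-/

set_option autoImplicit false

namespace Crest.Agent.R320.Fin_801

open Crest.RegLang Crest.Agent.R320.Hk_851 Crest.Agent.R320.Joint_47
open Crest.Agent.R320.ExactR_237 (pr pr_append)

theorem regular_bad {A : Type} [Finite A] {BadT : ℕ → Prop} {Pm : ℕ} (hPm : 0 < Pm)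
    (hper : ∀ T, BadT (T + Pm) ↔ BadT T) (p0 : ℕ) :
    Language.IsRegular ({X | BadT (X.length - p0)} : Language A) := by
  refine Crest.Agent.R320.RegCongr_253.regular_of_congr (fun _ : A => (1 : Unit)) p0 Pm hPm _ ?_
  intro q q' h1 h2 _ h3 _ h4
  have h4' : BadT (q.length - p0) := h4
  show BadT (q'.length - p0)
  have key : ∀ m, BadT m ↔ BadT (m % Pm) := by
    intro m
    conv_lhs => rw [← Nat.mod_add_div m Pm, Nat.mul_comm]
    exact Crest.Agent.R320.Bridge_3.per_iter hper _ _
  rw [key] at h4' ⊢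
  have e : (q.length - p0) % Pm = (q'.length - p0) % Pm := by
    have h5 : (q.length - p0) ≡ (q'.length - p0) [MOD Pm] := by
      have h6 : (q.length - p0) + p0 ≡ (q'.length - p0) + p0 [MOD Pm] := by
        rw [Nat.sub_add_cancel h1, Nat.sub_add_cancel h2]; exact h3
      exact Nat.ModEq.add_right_cancel' _ h6
    exact h5
  rwa [← e]

theorem HL_take {A : Type} [Finite A] {k : ℕ} (Wo : List A → Prop) (t : ℕ) :
    HL k ({X | t ≤ X.length ∧ Wo (X.take t)} : Language A) := by
  have h1 : HL k ({u : List A | u.length = t ∧ Wo u} : Language A) :=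
    HL.finite ((List.finite_length_eq A t).subset fun v hv => hv.1)
  refine (HL.mul h1 (HL.top (α := A))).congr fun w => ?_
  constructor
  · rintro ⟨h2, h3⟩
    exact Language.mem_mul.2 ⟨w.take t, ⟨by rw [List.length_take]; omega, h3⟩, w.drop t,
      trivial, List.take_append_drop t w⟩
  · intro h
    obtain ⟨u, ⟨hu1, hu2⟩, v, -, rfl⟩ := Language.mem_mul.1 h
    refine ⟨by rw [List.length_append]; omega, ?_⟩
    rw [List.take_append_of_le_length (by omega), List.take_of_length_le (by omega)]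
    exact hu2

theorem HL_E {A : Type} [Finite A] {k : ℕ} (Wo : List A → Prop) (a b : ℕ) :
    HL k ({X | ∃ t, a ≤ t ∧ t < b ∧ t ≤ X.length ∧ Wo (X.take t)} : Language A) := by
  refine (HL.iUnion (k := k) (ι := {t : Fin b // a ≤ (t : ℕ)})
    (L := fun t => ({X | ((t.1 : ℕ)) ≤ X.length ∧ Wo (X.take (t.1 : ℕ))} : Language A))
    fun t => HL_take Wo _).congr fun w => ?_
  constructor
  · rintro ⟨t, h1, h2, h3, h4⟩
    exact ⟨⟨⟨t, h2⟩, h1⟩, h3, h4⟩
  · rintro ⟨t, h3, h4⟩
    exact ⟨t.1, t.2, t.1.2, h3, h4⟩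

theorem fin_of_ugi (A : Type) [Finite A] (S V : Type) [Monoid S] [Finite S] [AddCommGroup V]
    [Finite V] (act : V → S → V)
    (hadd : ∀ a b s, act (a + b) s = act a s + act b s)
    (hone : ∀ v, act v 1 = v) (hmul : ∀ v s t, act v (s * t) = act (act v s) t)
    (hfaith : ∀ s t, (∀ v, act v s = act v t) → s = t)
    (hG : Crest.Agent.R320.Bridge_3.UGI.{0, 0} S V act) (f : A → S) (s : S) :
    HL 3 ({w | (w.map f).prod = s} : Language A) := by
  classical
  have := Fintype.ofFinite S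
  have := Fintype.ofFinite V
  obtain ⟨C0, hG⟩ := hG
  obtain ⟨K, hK⟩ := Crest.Agent.R320.ExactR_237.exact_gadget A S V f act (2 * C0 + 2)
  obtain ⟨N1, Pm, La, c, BadT, hPm, hinc, hgol, hper, hthin, hwords⟩ := hG K
  obtain ⟨lam, rho, nu1, hL, hS, hC, hloc⟩ := hwords A f
  obtain ⟨lam2, rho2, nu2, hS2, hC2⟩ := hK c hinc
  -- constants
  obtain ⟨p0, hp0⟩ : ∃ p0 : ℕ, ∀ k, k < K → c k ≤ p0 := by
    refine ⟨(Finset.range K).sup c, fun k hk => ?_⟩
    exact Finset.le_sup (f := c) (Finset.mem_range.2 hk)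
  obtain ⟨n, G, B, Wo, hLW, hgap, -, -, hfree⟩ :=
    Crest.Agent.R320.LWallAll_922.walls_all_left A (2 * (N1 + p0) + 1) (by omega)
  set z : ℕ := 3 * p0 + n + N1 + 1 + (La + N1) + p0 with hz
  have hW : LW n (2 * (N1 + p0) + 1) Wo := by
    refine ⟨hLW.len, hLW.app, fun X s t h1 h2 h3 h4 => ?_⟩
    have := hgap X s t h1 h2 h3 h4
    omega
  have hWU : Crest.Agent.R320.Fib_298.WallU Wo n (B + (2 * (N1 + p0) + 1)) := by
    refine ⟨hLW.app, hLW.len, fun X hX => ?_⟩
    obtain ⟨u, x, v, k, h1, h2, h3, h4⟩ := hfree X hX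
    exact ⟨u, x, v, k, h4, by omega, by omega, by omega⟩
  -- gadget 1 with cut right words
  let rho' : List A → Option V := fun q => if La ≤ q.length then rho q else none
  have hS' : ∀ P Q v r, lam P = some v → rho' Q = some r →
      r = act v (pr f (P ++ Q)) + nu1 (P ++ Q) := by
    intro P Q v r h1 h2
    by_cases hq : La ≤ Q.length
    · simp only [rho', if_pos hq] at h2
      exact hS P Q v r h1 h2 hq
    · simp only [rho', if_neg hq] at h2
      cases h2
  have hC' : ∀ Y : List A, La + N1 ≤ Y.length → ¬ BadT Y.length →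
      ∀ v, ∃ P Q, Y = P ++ Q ∧ lam P = some v ∧ (rho' Q).isSome := by
    intro Y hY hb v
    obtain ⟨P, Q, h1, h2, h3⟩ := hC Y (by omega) hb v
    refine ⟨P, Q, h1.symm, h2, ?_⟩
    have h4 := hL P v h2
    have h5 : La ≤ Q.length := by
      have := congrArg List.length h1
      rw [List.length_append] at this
      omega
    simp only [rho', if_pos h5]
    exact h3
  have hres : ∀ i i' j j', i < K → i' < K → j < K → j' < K → i' ≠ i → j' ≠ j →
      c i + c j' < c j + c i' + 2 * N1 → c j + c i' < c i + c j' + 2 * N1 → i = j := by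
    intro i i' j j' hi hi' hj hj' h1 h2 h3 h4
    by_contra hne
    have := hgol i i' j j' hi hi' hj hj' (Ne.symm h1) (Ne.symm h2)
      (fun h => hne (congrArg Prod.fst h))
    rcases this with h | h <;> omega
  have hT : ∀ T : ℕ, (∀ k, k < K → c k ≤ T) → ∀ I : Finset ℕ,
      (∀ k ∈ I, k < K ∧ ∃ k', k' < K ∧ k' ≠ k ∧ BadT (T + c k' - c k)) → I.card ≤ C0 := by
    intro T hT I hI
    have h1 := Crest.Agent.R320.Bridge_3.thin_all hPm hper hthin T hT
    refine le_trans ?_ h1
    choose! g hg using fun k (hk : k ∈ I) => (hI k hk).2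
    refine Finset.card_le_card_of_injOn (fun k => (k, g k)) ?_ ?_
    · intro k hk
      have hk' : k ∈ I := hk
      have h2 := hg k hk'
      have h3 := (hI k hk').1
      simp only [Finset.coe_filter, Finset.mem_product, Finset.mem_range, Set.mem_ofPred_eq]
      exact ⟨⟨h3, h2.1⟩, Ne.symm h2.2.1, h2.2.2⟩
    · intro a _ b _ hab
      exact congrArg Prod.fst hab
  let nu2f : List A → V := fun X => nu2 X 1
  have hTT : ∀ v X, Joint_47.T f act p0 nu2f nu1 v X =
      act v (X.map f).prod + (act (nu2f (X.take p0)) ((X.drop p0).map f).prod +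
        nu1 (X.drop p0)) := by
    intro v X
    have e : (X.map f).prod = ((X.take p0).map f).prod * ((X.drop p0).map f).prod := by
      rw [← List.prod_append, ← List.map_append, List.take_append_drop]
    show act (act v ((X.take p0).map f).prod + nu2f (X.take p0)) ((X.drop p0).map f).prod +
      nu1 (X.drop p0) = _
    rw [hadd, e, hmul, add_assoc]
  have hnu : ∀ y, Language.IsRegular ({Y | nu1 Y = y} : Language A) := by
    intro y
    refine Crest.Agent.R320.RegCongr_253.regular_of_congr f La Pm hPm _ ?_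
    intro q q' h1 h2 h3 h4 h5 h6
    have := (hloc q q' h1 h2 h3 h4 h5).2
    show nu1 q' = y
    rw [← this]; exact h6
  have hfib : ∀ x y, HL 1 ({X | X ∈ Zn Wo z ∧ act x (X.map f).prod +
      (act (nu2f (X.take p0)) ((X.drop p0).map f).prod + nu1 (X.drop p0)) = y} : Language A) := by
    intro x y
    refine (Crest.Agent.R320.Fib_298.hfib hWU (z := z) (by omega) act f p0 (by omega)
      (fun v X0 => act v (X0.map f).prod + nu2f X0) nu1 hnu x y).congr fun X => ?_
    constructor
    · rintro ⟨h1, h2⟩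
      refine ⟨h1, ?_⟩
      rw [← hTT] at h2
      exact h2
    · rintro ⟨h1, h2⟩
      refine ⟨h1, ?_⟩
      rw [← hTT]
      exact h2
  refine Crest.Agent.R320.Top5_120.top5 act hadd hone hmul hfaith f
    (fun X => act (nu2f (X.take p0)) ((X.drop p0).map f).prod + nu1 (X.drop p0))
    (Zn Wo z) {X | X ∈ Zn Wo z ∧ Joint_47.Bad Wo z N1 p0 BadT X}
    (Crest.Agent.R320.Fib_298.pcode_XX (by omega)) (fun X hX => hX.1)
    (fun v => {P | L1 f act p0 nu2f lam v P}) (fun v => {P | L2 K c lam2 v P})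
    ?_ ?_ hfib ?_ ?_ ?_ ?_ s
  · intro v
    refine (List.finite_length_le A (p0 + N1)).subset fun P hP => ?_
    obtain ⟨h1, h2⟩ := hP
    have := hL _ _ h2
    rw [List.length_drop] at this
    show P.length ≤ p0 + N1
    omega
  · intro v
    refine (List.finite_length_le A p0).subset fun P hP => ?_
    obtain ⟨k, h1, h2, -⟩ := hP
    show P.length ≤ p0
    rw [h2]; exact hp0 k h1
  · intro x y
    -- Bad part
    have h1 : Language.IsRegular ({X | BadT (X.length - p0)} : Language A) :=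
      regular_bad hPm hper p0
    have h2 := Crest.Agent.R320.Reg_236.HL.isRegular (hfib x y)
    have h3 : HL 1 (({X | X ∈ Zn Wo z ∧ act x (X.map f).prod +
      (act (nu2f (X.take p0)) ((X.drop p0).map f).prod + nu1 (X.drop p0)) = y} : Language A) ⊓
      ({X | BadT (X.length - p0)} : Language A)) :=
      Crest.Agent.R320.Fib_298.HL_blocks hWU (z := z) (by omega) (h2.inf h1)
        (fun w hw => hw.1.1)
    refine (((hfib x y).inf (HL_E (k := 1) Wo (z - N1) (z + N1))).sup h3).congr fun X => ?_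
    constructor
    · rintro ⟨⟨h4, h5 | h5⟩, h6⟩
      · exact Or.inl ⟨⟨h4, h6⟩, h5⟩
      · exact Or.inr ⟨⟨h4, h6⟩, h5⟩
    · rintro (⟨⟨h4, h6⟩, h5⟩ | ⟨⟨h4, h6⟩, h5⟩)
      · exact ⟨⟨h4, Or.inl h5⟩, h6⟩
      · exact ⟨⟨h4, Or.inr h5⟩, h6⟩
  · intro s
    exact Crest.Agent.R320.Fib_298.rest hWU (z := z) (by omega) f s
  · intro X hX hXb v
    obtain ⟨p, q, h1, h2, h3, h4⟩ := complete1 f act p0 nu2f nu1 hW (N0 := La + N1)
      hS' hL hC' (z := z) (by omega) (by omega) hX
      (fun hb => hXb ⟨hX, hb⟩) v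
    refine ⟨p, q, h1.symm, h2, fun x P' hP' => ?_⟩
    obtain ⟨h5, h6⟩ := h4 x P' hP'
    refine ⟨h5, ?_⟩
    rw [← hTT, ← hTT]
    exact h6
  · intro X hX Y hY v
    obtain ⟨p, q, h1, h2, h3, h4⟩ := complete2 f act p0 nu1 hW (R1 := C0) (K := K)
      (nu2' := nu2) hS2 hC2 hinc hp0 hres hT (by omega) (z := z) (by omega) hX.1 hY.1 hX.2 v
    refine ⟨p, q, h1.symm, h2, fun x P' hP' => ?_⟩
    rcases h4 x P' hP' with ⟨a, h5, h6, h7, h8⟩ | ⟨a, h5, h6, h7⟩
    · left
      refine ⟨a, ⟨h5, h6⟩, Y, hY.1, h7.symm, ?_⟩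
      have h9 : act x (a.map f).prod +
          (act (nu2f (a.take p0)) ((a.drop p0).map f).prod + nu1 (a.drop p0)) =
          act v (X.map f).prod +
          (act (nu2f (X.take p0)) ((X.drop p0).map f).prod + nu1 (X.drop p0)) := by
        rw [← hTT, ← hTT]; exact h8
      rw [h9]
    · right
      exact ⟨a, h5, fun h => h6 h.2, h7⟩

end Crest.Agent.R320.Fin_801
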