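import Mathlib

/-!
# Row 320, piece (5): the exact scheme on critical chains with a Golomb ruler (helper853)

Pure integer form of 364 #12525 / 388 #12493 (3) / 112 #12554 (1), as used for the innermost scheme C
of 762 #12626.

`P` is the wall predicate on positions, consecutive walls are at distance at least `W`. The active
wall is `a`, cuts of the zone of `a` are at `x = a + p + j`, `j` in the ruler `J`. The right side,
which does not know `a`, looks for a pair `(j', t)`, `j' ∈ J`, `t` a wall with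
`t ∈ (x - p - j') + z + [-N, N)`; it then believes that the clock is `j'`.

* `RightLeg.unique`: the right side finds at most one pair;
* `RightLeg.of_critical`: if `a` is critical (a wall in `a + z + [-N, N)`), every `j ∈ J` is legal and
  the clock read by the right side is the true one;
* `RightLeg.wrong_unique`: for fixed `a` there is at most one legal cut with a wrong clock;
* `RightLeg.exclusive`: a right clock and a wrong clock never occur for the same `a`;
* `RightLeg.dichotomy`: all legal cuts of `a` have the right clock or there is only one legal cut;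
* `next_const`: the next wall computed by the right side is the same at all legal cuts of `a`, and it
  is the first wall `≥ a + z` when `a` is critical;
* `exists_ruler`: rulers of every size and resolution exist.
-/

set_option autoImplicit false

namespace Crest.Agent.R320.Ruler_853

/-- walls are at distance at least `W` -/
def Sep (P : ℤ → Prop) (W : ℤ) : Prop := ∀ s t, P s → P t → s < t → s + W ≤ t

/-- a Golomb ruler in `[0, S]` at resolution `R` -/
def IsRuler (J : Finset ℤ) (S R : ℤ) : Prop :=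
  (∀ j ∈ J, 0 ≤ j ∧ j ≤ S) ∧
    ∀ a ∈ J, ∀ b ∈ J, ∀ c ∈ J, ∀ d ∈ J, |(a - b) - (c - d)| ≤ R →
      (a = b ∧ c = d) ∨ (a = c ∧ b = d)

/-- the right side at `x` finds the wall `t` and believes that the clock is `j'` -/
structure RightLeg (P : ℤ → Prop) (J : Finset ℤ) (z p N x j' t : ℤ) : Prop where
  mem : j' ∈ J
  wall : P t
  lo : x - p - j' + z - N ≤ t
  hi : t < x - p - j' + z + N

variable {P : ℤ → Prop} {J : Finset ℤ} {W S z p N : ℤ}

theorem Sep.eq_of_close (hW : Sep P W) {s t : ℤ} (hs : P s) (ht : P t) (h1 : s < t + W)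
    (h2 : t < s + W) : s = t := by
  rcases lt_trichotomy s t with h | h | h
  · have := hW s t hs ht h; omega
  · exact h
  · have := hW t s ht hs h; omega

theorem IsRuler.eq_of_close (hJ : IsRuler J S (2 * N)) {a b : ℤ} (ha : a ∈ J) (hb : b ∈ J)
    (h : |a - b| ≤ 2 * N) : a = b := by
  have h' : |(a - b) - (a - a)| ≤ 2 * N := by simpa using h
  rcases hJ.2 a ha b hb a ha a ha h' with h0 | h0
  · exact h0.1
  · exact h0.2.symm

/-- the right side finds at most one pair -/
theorem RightLeg.unique (hW : Sep P W) (hJ : IsRuler J S (2 * N))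
    (hS : S + 2 * N ≤ W) {x j₁ t₁ j₂ t₂ : ℤ} (h₁ : RightLeg P J z p N x j₁ t₁)
    (h₂ : RightLeg P J z p N x j₂ t₂) : j₁ = j₂ ∧ t₁ = t₂ := by
  have b₁ := hJ.1 j₁ h₁.mem
  have b₂ := hJ.1 j₂ h₂.mem
  have e₁ := h₁.lo
  have e₂ := h₁.hi
  have e₃ := h₂.lo
  have e₄ := h₂.hi
  have ht : t₁ = t₂ := hW.eq_of_close h₁.wall h₂.wall (by omega) (by omega)
  refine ⟨hJ.eq_of_close h₁.mem h₂.mem ?_, ht⟩
  rw [abs_le]
  constructor <;> omega

/-- `a` is critical: a wall in the band `a + z + [-N, N)` -/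
def Critical (P : ℤ → Prop) (z N a : ℤ) : Prop := ∃ t, P t ∧ a + z - N ≤ t ∧ t < a + z + N

/-- on a critical zone every place of the ruler is legal, with the true clock -/
theorem RightLeg.of_critical {a t j : ℤ} (ht : P t) (h1 : a + z - N ≤ t) (h2 : t < a + z + N)
    (hj : j ∈ J) : RightLeg P J z p N (a + p + j) j t :=
  ⟨hj, ht, by omega, by omega⟩

/-- a legal cut with the true clock shows that the zone is critical -/
theorem RightLeg.critical {a t j : ℤ} (h : RightLeg P J z p N (a + p + j) j t) : Critical P z N a :=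
  ⟨t, h.wall, by have := h.lo; omega, by have := h.hi; omega⟩

/-- two legal cuts of the same zone see the same wall -/
theorem RightLeg.same_wall (hW : Sep P W) (hJ : IsRuler J S (2 * N))
    (hS : 2 * S + 2 * N ≤ W) {a j₁ k₁ t₁ j₂ k₂ t₂ : ℤ} (hj₁ : j₁ ∈ J) (hj₂ : j₂ ∈ J)
    (h₁ : RightLeg P J z p N (a + p + j₁) k₁ t₁) (h₂ : RightLeg P J z p N (a + p + j₂) k₂ t₂) :
    t₁ = t₂ := by
  have b₁ := hJ.1 j₁ hj₁
  have b₂ := hJ.1 j₂ hj₂
  have c₁ := hJ.1 k₁ h₁.mem
  have c₂ := hJ.1 k₂ h₂.mem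
  have e₁ := h₁.lo
  have e₂ := h₁.hi
  have e₃ := h₂.lo
  have e₄ := h₂.hi
  exact hW.eq_of_close h₁.wall h₂.wall (by omega) (by omega)

/-- key comparison: two legal cuts of the same zone have clock errors which agree up to `2 N` -/
theorem RightLeg.error_close (hW : Sep P W) (hJ : IsRuler J S (2 * N))
    (hS : 2 * S + 2 * N ≤ W) {a j₁ k₁ t₁ j₂ k₂ t₂ : ℤ} (hj₁ : j₁ ∈ J) (hj₂ : j₂ ∈ J)
    (h₁ : RightLeg P J z p N (a + p + j₁) k₁ t₁) (h₂ : RightLeg P J z p N (a + p + j₂) k₂ t₂) :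
    |(j₁ - k₁) - (j₂ - k₂)| ≤ 2 * N := by
  have ht := RightLeg.same_wall hW hJ hS hj₁ hj₂ h₁ h₂
  have e₁ := h₁.lo
  have e₂ := h₁.hi
  have e₃ := h₂.lo
  have e₄ := h₂.hi
  rw [abs_le]
  constructor <;> omega

/-- for a fixed active wall there is at most one legal cut with a wrong clock -/
theorem RightLeg.wrong_unique (hW : Sep P W) (hJ : IsRuler J S (2 * N))
    (hS : 2 * S + 2 * N ≤ W) {a j₁ k₁ t₁ j₂ k₂ t₂ : ℤ} (hj₁ : j₁ ∈ J) (hj₂ : j₂ ∈ J)
    (h₁ : RightLeg P J z p N (a + p + j₁) k₁ t₁) (h₂ : RightLeg P J z p N (a + p + j₂) k₂ t₂)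
    (hw : j₁ ≠ k₁) : j₁ = j₂ ∧ k₁ = k₂ ∧ t₁ = t₂ := by
  have hc := RightLeg.error_close hW hJ hS hj₁ hj₂ h₁ h₂
  rcases hJ.2 j₁ hj₁ k₁ h₁.mem j₂ hj₂ k₂ h₂.mem hc with h | h
  · exact absurd h.1 hw
  · exact ⟨h.1, h.2, RightLeg.same_wall hW hJ hS hj₁ hj₂ h₁ h₂⟩

/-- a right clock and a wrong clock never occur for the same active wall -/
theorem RightLeg.exclusive (hW : Sep P W) (hJ : IsRuler J S (2 * N))
    (hS : 2 * S + 2 * N ≤ W) {a j₁ t₁ j₂ k₂ t₂ : ℤ} (hj₁ : j₁ ∈ J) (hj₂ : j₂ ∈ J)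
    (h₁ : RightLeg P J z p N (a + p + j₁) j₁ t₁) (h₂ : RightLeg P J z p N (a + p + j₂) k₂ t₂) :
    j₂ = k₂ := by
  by_contra hne
  obtain ⟨e1, e2, -⟩ := RightLeg.wrong_unique hW hJ hS hj₂ hj₁ h₂ h₁ hne
  exact hne (e1.trans e2.symm)

/-- for a critical active wall every legal cut has the true clock -/
theorem RightLeg.true_clock (hW : Sep P W) (hJ : IsRuler J S (2 * N))
    (hS : 2 * S + 2 * N ≤ W) {a j k t : ℤ} (hj : j ∈ J) (hcrit : Critical P z N a)
    (h : RightLeg P J z p N (a + p + j) k t) : j = k := by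
  obtain ⟨t', ht', h1, h2⟩ := hcrit
  exact RightLeg.exclusive hW hJ hS hj hj (RightLeg.of_critical (p := p) ht' h1 h2 hj) h

/-- all legal cuts of an active wall have the right clock, or there is only one legal cut -/
theorem RightLeg.dichotomy (hW : Sep P W) (hJ : IsRuler J S (2 * N))
    (hS : 2 * S + 2 * N ≤ W) (a : ℤ) :
    (∀ j ∈ J, ∀ k t, RightLeg P J z p N (a + p + j) k t → j = k) ∨
      ∃ j₀ k₀ t₀, ∀ j ∈ J, ∀ k t, RightLeg P J z p N (a + p + j) k t → j = j₀ ∧ k = k₀ ∧ t = t₀ := by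
  by_cases h : ∀ j ∈ J, ∀ k t, RightLeg P J z p N (a + p + j) k t → j = k
  · exact Or.inl h
  · right
    push Not at h
    obtain ⟨j₀, hj₀, k₀, t₀, h₀, hne⟩ := h
    refine ⟨j₀, k₀, t₀, fun j hj k t hjt => ?_⟩
    obtain ⟨e1, e2, e3⟩ := RightLeg.wrong_unique hW hJ hS hj₀ hj h₀ hjt hne
    exact ⟨e1.symm, e2.symm, e3.symm⟩

/-- `b` is the first wall `≥ y` -/
def IsFirst (P : ℤ → Prop) (y b : ℤ) : Prop := P b ∧ y ≤ b ∧ ∀ s, P s → y ≤ s → b ≤ s

theorem IsFirst.unique {y b b' : ℤ} (h : IsFirst P y b) (h' : IsFirst P y b') : b = b' :=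
  le_antisymm (h.2.2 b' h'.1 h'.2.1) (h'.2.2 b h.1 h.2.1)

/-- the next wall computed by the right side (first wall `≥ x - p - k + z`, `k` the believed clock) is
the same at all legal cuts of one active wall: `b(x)` depends on `a` only, on every text -/
theorem next_const (hW : Sep P W) (hJ : IsRuler J S (2 * N))
    (hS : 2 * S + 2 * N ≤ W) {a j₁ k₁ t₁ j₂ k₂ t₂ b₁ b₂ : ℤ} (hj₁ : j₁ ∈ J) (hj₂ : j₂ ∈ J)
    (h₁ : RightLeg P J z p N (a + p + j₁) k₁ t₁) (h₂ : RightLeg P J z p N (a + p + j₂) k₂ t₂)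
    (hb₁ : IsFirst P (a + p + j₁ - p - k₁ + z) b₁) (hb₂ : IsFirst P (a + p + j₂ - p - k₂ + z) b₂) :
    b₁ = b₂ := by
  by_cases hne : j₁ = k₁
  · have h2 : j₂ = k₂ := by
      subst hne
      exact RightLeg.exclusive hW hJ hS hj₁ hj₂ h₁ h₂
    subst hne; subst h2
    refine IsFirst.unique hb₁ ?_
    convert hb₂ using 1
    omega
  · obtain ⟨e1, e2, -⟩ := RightLeg.wrong_unique hW hJ hS hj₁ hj₂ h₁ h₂ hne
    subst e1; subst e2
    exact hb₁.unique hb₂

/-- on a critical zone the next wall computed by the right side is `N(a)`, the first wall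
`≥ a + z` -/
theorem next_critical (hW : Sep P W) (hJ : IsRuler J S (2 * N))
    (hS : 2 * S + 2 * N ≤ W) {a j k t b c : ℤ} (hj : j ∈ J) (hcrit : Critical P z N a)
    (h : RightLeg P J z p N (a + p + j) k t) (hb : IsFirst P (a + p + j - p - k + z) b)
    (hc : IsFirst P (a + z) c) : b = c := by
  have e := RightLeg.true_clock hW hJ hS hj hcrit h
  subst e
  refine IsFirst.unique hb ?_
  convert hc using 1
  omega

/-- the first wall `≥ y` can be read off from the wall `t` found in the band: it is `t` if `y ≤ t` and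
the successor of `t` otherwise -/
theorem IsFirst.of_band (hW : Sep P W) {y t b : ℤ} (hNW : N ≤ W) (ht : P t) (h1 : y - N ≤ t)
    (h2 : t < y + N) (hb : IsFirst P y b) : (y ≤ t → b = t) ∧ (t < y → IsFirst P (t + 1) b) := by
  constructor
  · intro h
    have hbt := hb.2.2 t ht h
    by_contra hne
    have hlt : b < t := lt_of_le_of_ne hbt hne
    have := hW b t hb.1 ht hlt
    have := hb.2.1
    omega
  · intro h
    refine ⟨hb.1, by have := hb.2.1; omega, fun s hs hts => ?_⟩
    by_cases hys : y ≤ s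
    · exact hb.2.2 s hs hys
    · have := hW t s ht hs (by omega)
      omega

/-! ### existence of rulers -/

theorem two_pow_sum {i l k j : ℕ} (h : 2 ^ i + 2 ^ l = 2 ^ k + (2 : ℤ) ^ j) :
    (i = j ∧ l = k) ∨ (i = k ∧ l = j) := by
  have hn : 2 ^ i + 2 ^ l = 2 ^ k + (2 : ℕ) ^ j := by exact_mod_cast h
  clear h
  -- reduce to `i ≤ l`, `k ≤ j`
  have key : ∀ i l k j : ℕ, i ≤ l → k ≤ j → 2 ^ i + 2 ^ l = 2 ^ k + (2 : ℕ) ^ j → i = k ∧ l = j := by
    intro i l k j hil hkj he
    have pos : ∀ n : ℕ, 0 < 2 ^ n := fun n => pow_pos (by norm_num) n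
    have lj : l = j := by
      rcases lt_trichotomy l j with hlt | he' | hlt
      · have h1 : 2 ^ (l + 1) ≤ (2 : ℕ) ^ j := Nat.pow_le_pow_right (by norm_num) hlt
        have h2 : 2 ^ i ≤ (2 : ℕ) ^ l := Nat.pow_le_pow_right (by norm_num) hil
        have h3 := pos k
        rw [pow_succ] at h1
        omega
      · exact he'
      · have h1 : 2 ^ (j + 1) ≤ (2 : ℕ) ^ l := Nat.pow_le_pow_right (by norm_num) hlt
        have h2 : 2 ^ k ≤ (2 : ℕ) ^ j := Nat.pow_le_pow_right (by norm_num) hkj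
        have h3 := pos i
        rw [pow_succ] at h1
        omega
    subst lj
    have : 2 ^ i = (2 : ℕ) ^ k := by omega
    exact ⟨Nat.pow_right_injective le_rfl this, rfl⟩
  rcases le_total i l with h1 | h1 <;> rcases le_total k j with h2 | h2
  · exact Or.inr (key i l k j h1 h2 hn)
  · have := key i l j k h1 h2 (by rw [hn, add_comm])
    exact Or.inl this
  · have := key l i k j h1 h2 (by rw [add_comm, hn])
    exact Or.inl ⟨this.2, this.1⟩
  · have := key l i j k h1 h2 (by rw [add_comm, hn, add_comm])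
    exact Or.inr ⟨this.2, this.1⟩

/-- rulers of every size and resolution exist -/
theorem exists_ruler (m : ℕ) (R : ℤ) (hR : 0 ≤ R) :
    ∃ (J : Finset ℤ) (S : ℤ), J.card = m ∧ 0 ≤ S ∧ IsRuler J S R := by
  classical
  set f : ℕ → ℤ := fun i => (R + 1) * 2 ^ i with hf
  have hfinj : Function.Injective f := by
    intro i j hij
    simp only [hf] at hij
    have h1 : (2 : ℤ) ^ i = 2 ^ j := by
      have := mul_left_cancel₀ (by omega : (R + 1) ≠ 0) hij
      exact this
    have h2 : (2 : ℕ) ^ i = 2 ^ j := by exact_mod_cast h1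
    exact Nat.pow_right_injective le_rfl h2
  refine ⟨(Finset.range m).image f, (R + 1) * 2 ^ m, ?_, by positivity, ?_, ?_⟩
  · rw [Finset.card_image_of_injective _ hfinj, Finset.card_range]
  · intro j hj
    obtain ⟨i, hi, rfl⟩ := Finset.mem_image.mp hj
    have hi' := Finset.mem_range.mp hi
    refine ⟨by simp only [hf]; positivity, ?_⟩
    simp only [hf]
    exact mul_le_mul_of_nonneg_left (pow_le_pow_right₀ (by norm_num) hi'.le) (by omega)
  · intro a ha b hb c hc d hd h
    obtain ⟨i, -, rfl⟩ := Finset.mem_image.mp ha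
    obtain ⟨j, -, rfl⟩ := Finset.mem_image.mp hb
    obtain ⟨k, -, rfl⟩ := Finset.mem_image.mp hc
    obtain ⟨l, -, rfl⟩ := Finset.mem_image.mp hd
    have he : (2 : ℤ) ^ i - 2 ^ j - (2 ^ k - 2 ^ l) = 0 := by
      by_contra hne
      have h1 : f i - f j - (f k - f l) = (R + 1) * ((2 : ℤ) ^ i - 2 ^ j - (2 ^ k - 2 ^ l)) := by
        simp only [hf]; ring
      rw [h1, abs_mul, abs_of_nonneg (by omega : 0 ≤ R + 1)] at h
      have h2 : 1 ≤ |(2 : ℤ) ^ i - 2 ^ j - (2 ^ k - 2 ^ l)| := Int.one_le_abs hne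
      have h3 : (R + 1) * 1 ≤ (R + 1) * |(2 : ℤ) ^ i - 2 ^ j - (2 ^ k - 2 ^ l)| :=
        mul_le_mul_of_nonneg_left h2 (by omega)
      omega
    have he2 : (2 : ℤ) ^ i + 2 ^ l = 2 ^ k + 2 ^ j := by linarith
    rcases two_pow_sum he2 with ⟨h1, h2⟩ | ⟨h1, h2⟩
    · left; exact ⟨by rw [h1], by rw [h2]⟩
    · right; exact ⟨by rw [h1], by rw [h2]⟩

end Crest.Agent.R320.Ruler_853
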