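import Crest.Agent.R320.Top5_120
import Crest.Agent.R320.Sc2n_937
import Crest.Agent.R320.GridG_19
import Crest.Agent.R320.Thin_963
import Crest.Agent.R320.Fib_81
import Crest.Agent.R320.ExactR_237
import Crest.Agent.R320.Ruler_853

/-!
# Row 320, the join: constants and instance (helper805)
-/

set_option autoImplicit false

namespace Crest.Agent.R320.Fin_805

open Crest.RegLang Crest.Agent.R320.Hk_851 Crest.Agent.R320.Blk467
open Crest.Agent.R320.Core1_922 Crest.Agent.R320.Sc2n_937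

/-! ### arithmetic -/

theorem sum_geom {b : ℕ} (hb : 2 ≤ b) (i : ℕ) :
    ∑ j ∈ Finset.range (i + 1), b ^ j ≤ 2 * b ^ i := by
  induction i with
  | zero => simp
  | succ i ih =>
    rw [Finset.sum_range_succ]
    have h1 : 2 * b ^ i ≤ b ^ (i + 1) := by
      rw [pow_succ, mul_comm]
      exact Nat.mul_le_mul_left _ hb
    omega

theorem hsp_of {x N1 : ℕ} (hx : 2 * N1 < x) {k k' l l' : ℕ} (hk : k' ≠ k)
    (h1 : x * 2 ^ k + x * 2 ^ l' < x * 2 ^ l + x * 2 ^ k' + 2 * N1)
    (h2 : x * 2 ^ l + x * 2 ^ k' < x * 2 ^ k + x * 2 ^ l' + 2 * N1) : k = l := by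
  rw [← Nat.mul_add, ← Nat.mul_add] at h1 h2
  have h3 : 2 ^ k + 2 ^ l' ≤ 2 ^ l + 2 ^ k' := by
    by_contra hlt
    have h4 : 2 ^ l + 2 ^ k' + 1 ≤ 2 ^ k + 2 ^ l' := by omega
    have h5 := Nat.mul_le_mul_left x h4
    rw [Nat.mul_add x (2 ^ l + 2 ^ k') 1] at h5
    omega
  have h4 : 2 ^ l + 2 ^ k' ≤ 2 ^ k + 2 ^ l' := by
    by_contra hlt
    have h4 : 2 ^ k + 2 ^ l' + 1 ≤ 2 ^ l + 2 ^ k' := by omega
    have h5 := Nat.mul_le_mul_left x h4
    rw [Nat.mul_add x (2 ^ k + 2 ^ l') 1] at h5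
    omega
  have h5 : 2 ^ k + 2 ^ l' = 2 ^ l + 2 ^ k' := le_antisymm h3 h4
  have h6 : (2 : ℤ) ^ k + 2 ^ l' = 2 ^ l + (2 : ℤ) ^ k' := by exact_mod_cast h5
  rcases Ruler_853.two_pow_sum h6 with ⟨h7, -⟩ | ⟨h7, -⟩
  · exact absurd h7.symm hk
  · exact h7

/-- natural bad totals are integer bad totals -/
theorem badT_cast {Ms : Finset ℕ} {m M A0 n : ℕ} {G : ℕ → ℕ} (hG : ∀ k, 0 < G k)
    (hn : GridG_19.Am G M A0 m ≤ n)
    (h : (∃ q ∈ Ms, q ∣ n) ∨ GridG_19.BadG G M A0 m n) :
    Thin963.BadT Ms m (fun i => (G i : ℤ)) (fun i => ((M * G i : ℕ) : ℤ))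
      (fun i => (GridG_19.Am G M A0 i : ℤ)) (n : ℤ) := by
  rcases h with ⟨q, hq, hd⟩ | ⟨k, hk, h⟩
  · exact Or.inl ⟨q, hq, by exact_mod_cast hd⟩
  · refine Or.inr ⟨k, hk, ?_⟩
    have hA : GridG_19.Am G M A0 (k + 1) ≤ n := le_trans (GridG_19.Am_mono G M A0 (by omega)) hn
    set A := GridG_19.Am G M A0 (k + 1) with hAdef
    set g := G (k + 1) with hg
    have hgpos : 0 < g := hG _
    have hdm := Nat.div_add_mod (n - A) g
    have hml := Nat.mod_lt (n - A) hgpos
    set ρ := (n - A) % g with hρ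
    set d := (n - A) / g with hd
    have hcast : (n : ℤ) - A = g * d + ρ := by
      have : n = A + (g * d + ρ) := by omega
      rw [this]; push_cast; ring
    rcases h with h | h
    · refine ⟨-(ρ : ℤ), ?_, ?_⟩
      · rw [abs_neg, abs_of_nonneg (by positivity)]
        show (ρ : ℤ) ≤ ((M * G k : ℕ) : ℤ)
        exact_mod_cast h.le
      · show (g : ℤ) ∣ (n : ℤ) - A + -(ρ : ℤ)
        rw [hcast]
        exact ⟨d, by ring⟩
    · refine ⟨(g : ℤ) - ρ, ?_, ?_⟩
      · rw [abs_of_nonneg (by omega)]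
        have : (g : ℤ) ≤ ρ + ((M * G k : ℕ) : ℤ) := by exact_mod_cast h
        show (g : ℤ) - ρ ≤ ((M * G k : ℕ) : ℤ)
        linarith
      · show (g : ℤ) ∣ (n : ℤ) - A + ((g : ℤ) - ρ)
        rw [hcast]
        exact ⟨d + 1, by ring⟩

/-- badness of a total is periodic -/
theorem bad_congr {Ms : Finset ℕ} {m M A0 a b : ℕ} {G : ℕ → ℕ}
    (hGd : ∀ i j, i ≤ j → G i ∣ G j) (hM : ∀ q ∈ Ms, q ∣ M)
    (ha : GridG_19.Am G M A0 m ≤ a) (hb : GridG_19.Am G M A0 m ≤ b)
    (hab : a ≡ b [MOD M * G m])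
    (h : (∃ q ∈ Ms, q ∣ a) ∨ GridG_19.BadG G M A0 m a) :
    (∃ q ∈ Ms, q ∣ b) ∨ GridG_19.BadG G M A0 m b := by
  rcases h with ⟨q, hq, hd⟩ | ⟨k, hk, h⟩
  · refine Or.inl ⟨q, hq, ?_⟩
    have h1 : a ≡ b [MOD q] := hab.of_dvd (Dvd.dvd.mul_right (hM q hq) _)
    exact (h1.dvd_iff (dvd_refl q)).1 hd
  · refine Or.inr ⟨k, hk, ?_⟩
    have hA := GridG_19.Am_mono G M A0 (show k + 1 ≤ m by omega)
    have h1 : a ≡ b [MOD G (k + 1)] :=
      hab.of_dvd (Dvd.dvd.mul_left (hGd _ _ (by omega)) _)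
    have h2 : (a - GridG_19.Am G M A0 (k + 1)) ≡ (b - GridG_19.Am G M A0 (k + 1))
        [MOD G (k + 1)] := by
      apply Nat.ModEq.add_right_cancel' (GridG_19.Am G M A0 (k + 1))
      rwa [Nat.sub_add_cancel (by omega), Nat.sub_add_cancel (by omega)]
    unfold Nat.ModEq at h2
    rw [h2] at h
    exact h

/-! ### the join -/

variable {α : Type} {S : Type} [Monoid S]

theorem prod_split (φ : α → S) (X : List α) (p : ℕ) :
    (X.map φ).prod = ((X.take p).map φ).prod * ((X.drop p).map φ).prod := by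
  conv_lhs => rw [← List.take_append_drop p X]
  rw [List.map_append, List.prod_append]

theorem fin (α : Type) [Finite α] (S : Type) [Monoid S] [Finite S] (φ : α → S) (s : S) :
    HL 3 ({w | (w.map φ).prod = s} : Language α) := by
  classical
  have := Fintype.ofFinite S
  obtain ⟨act, hadd, hone, hmul, hfaith⟩ := exists_module S
  let V := S → ZMod 2
  -- gadget 1
  obtain ⟨m, r, hgrid⟩ := GridG_19.grid S V act
  -- gadget 2
  obtain ⟨K, hK⟩ := ExactR_237.exact_gadget α S V φ act (2 * (r + m) + 2)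
  obtain ⟨Ms, hcard, hpr, hg⟩ := hgrid (2 ^ (K + 1))
  set M := ∏ q ∈ Ms, q with hMdef
  have hMpos : 0 < M := Finset.prod_pos fun q hq => (hpr q hq).1.pos
  have hMd : ∀ q ∈ Ms, q ∣ M := fun q hq => Finset.dvd_prod_of_mem _ hq
  set b := 2 ^ (K + 5) * M + 1 with hb
  have hb2 : 2 ≤ b := by
    have : 0 < 2 ^ (K + 5) * M := by positivity
    omega
  let G : ℕ → ℕ := fun k => b ^ k
  have hGpos : ∀ k, 0 < G k := fun k => by
    show 0 < b ^ k
    exact pow_pos (by omega) k
  have hGd : ∀ i j, i ≤ j → G i ∣ G j := fun i j h => pow_dvd_pow b h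
  have hcopb : Nat.Coprime M b := by
    have h1 : Nat.Coprime (2 ^ (K + 5) * M) b := by
      rw [hb]
      exact (Nat.coprime_self_add_right).2 (Nat.coprime_one_right _)
    exact Nat.Coprime.coprime_mul_left h1
  have hcop : ∀ k, Nat.Coprime M (G k) := fun k => Nat.Coprime.pow_right k hcopb
  obtain ⟨lam, rho, nu1, g1, g2, g3, g4, g5⟩ := hg G 0 hGpos hGd hcop α (fun w => (w.map φ).prod)
    (fun u v => by rw [List.map_append, List.prod_append])
  set Aa := GridG_19.Am G M 0 m with hAa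
  set Acc := GridG_19.Ac G M 0 m with hAcc
  set N1 := Aa + 1 with hN1
  -- the ruler
  obtain ⟨X0, hX0, hX0pos, hthin⟩ := Thin963.thin K m Ms (fun i => (G i : ℤ))
    (fun i => ((M * G i : ℕ) : ℤ)) (fun i => (GridG_19.Am G M 0 i : ℤ))
    (fun q hq => ⟨(hpr q hq).1, (hpr q hq).2.le⟩)
    (fun q hq => by
      have h1 : Nat.Coprime q (G m) := Nat.Coprime.coprime_dvd_left (hMd q hq) (hcop m)
      exact Nat.isCoprime_iff_coprime.2 h1)
    (by exact_mod_cast hGpos m)
    (fun i j h => by exact_mod_cast hGd i j h)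
    (fun i => by
      have : 0 < M * G i := Nat.mul_pos hMpos (hGpos i)
      exact_mod_cast this)
    (fun i => by
      have : G i ∣ M * G i := Dvd.intro_left M rfl
      exact_mod_cast this)
    (fun i hi => by
      have h1 := sum_geom hb2 i
      have h2 : 2 ^ (K + 4) * ∑ j ∈ Finset.range (i + 1), (M * G j) ≤ G (i + 1) := by
        rw [← Finset.mul_sum]
        have h3 : 2 ^ (K + 4) * (M * ∑ j ∈ Finset.range (i + 1), b ^ j) ≤
            2 ^ (K + 4) * (M * (2 * b ^ i)) :=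
          Nat.mul_le_mul_left _ (Nat.mul_le_mul_left _ h1)
        refine le_trans h3 ?_
        have h4 : 2 ^ (K + 4) * (M * (2 * b ^ i)) = 2 ^ (K + 5) * M * b ^ i := by
          rw [show K + 5 = (K + 4) + 1 by omega, pow_succ]; ring
        rw [h4]
        show _ ≤ b ^ (i + 1)
        have h5 : b ^ (i + 1) = b * b ^ i := pow_succ' b i
        rw [h5]
        exact Nat.mul_le_mul_right _ (by omega)
      exact_mod_cast h2)
    ((2 * N1 + 1 : ℕ) : ℤ)
  obtain ⟨x, rfl⟩ : ∃ x : ℕ, X0 = (x : ℤ) := ⟨X0.toNat, (Int.toNat_of_nonneg hX0pos.le).symm⟩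
  have hx : 2 * N1 < x := by
    have : ((2 * N1 + 1 : ℕ) : ℤ) ≤ (x : ℤ) := hX0
    have h2 : 2 * N1 + 1 ≤ x := by exact_mod_cast this
    omega
  let c : ℕ → ℕ := fun k => x * 2 ^ k
  set p0 := x * 2 ^ K with hp0
  have hcp : ∀ k, k < K → c k ≤ p0 := fun k hk =>
    Nat.mul_le_mul_left _ (Nat.pow_le_pow_right (by norm_num) hk.le)
  obtain ⟨lam2, rho2, nu2, e1, e2⟩ := hK c (fun i j hij _ => by
    show x * 2 ^ i < x * 2 ^ j
    exact Nat.mul_lt_mul_of_pos_left (Nat.pow_lt_pow_right (by norm_num) hij) (by omega))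
  -- walls
  obtain ⟨n, Gw, Bw, Wo, hLW, hgap, -, -, hfree⟩ :=
    LWallAll_922.walls_all_left α (2 * p0 + 2 * N1) (by omega)
  set q0 := n + 2 * p0 + 2 * Aa + M + Acc with hq0
  set z := p0 + N1 + q0 with hz
  let g : Geo α := ⟨Wo, n, z, p0, q0, N1, hLW.app, hz, by omega, by omega, by omega⟩
  let pre : List α → V → V := fun X v => act v (X.map φ).prod + nu2 X 1
  let post : V → List α → V := fun v Y => act v (Y.map φ).prod + nu1 Y
  let BT : ℕ → Prop := fun T => (∃ q ∈ Ms, q ∣ T) ∨ GridG_19.BadG G M 0 m T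
  let Cc : Set (List α) := Fib_81.XX Wo z
  let Bad : Set (List α) := {X | X ∈ Cc ∧ g.BadX BT X}
  let nu : List α → V := fun X =>
    act (nu2 (X.take p0) 1) ((X.drop p0).map φ).prod + nu1 (X.drop p0)
  have hT : ∀ v X, act v (X.map φ).prod + nu X = g.T pre post v X := by
    intro v X
    show act v (X.map φ).prod + (act (nu2 (X.take p0) 1) ((X.drop p0).map φ).prod +
      nu1 (X.drop p0)) = act (act v ((X.take p0).map φ).prod + nu2 (X.take p0) 1)
        ((X.drop p0).map φ).prod + nu1 (X.drop p0)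
    rw [hadd, ← hmul, ← prod_split, add_assoc]
  have hXX : ∀ X, X ∈ Cc ↔ g.XX X := fun X => Iff.rfl
  have hlen1 : ∀ P v, lam P = some v → P.length ≤ g.N1 := fun P v h => by
    have := (g2 P v h).2
    show P.length ≤ N1
    omega
  have hex1 : ∀ P Q u b, lam P = some u → rho Q = some b → b = post u (P ++ Q) :=
    fun P Q u b h h' => g1 P Q u b h h'
  have hex2 : ∀ k, k < K → ∀ P Q v u, P.length = c k → Q.length = g.p0 - c k →
      lam2 k P = some v → (fun k Q => rho2 k Q 1) k Q = some u → u = pre (P ++ Q) v := by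
    intro k hk P Q v u h1 _ h3 h4
    have := e1 k hk P Q 1 v u h1 h3 h4
    rw [mul_one] at this
    exact this
  have hgap' : ∀ P Q : List α, g.Wo P → g.Wo (P ++ Q) → Q ≠ [] →
      2 * g.p0 + 2 * g.N1 < Q.length := by
    intro P Q hP hPQ hQ
    have hQl : 0 < Q.length := List.length_pos_of_ne_nil hQ
    have h1 := hgap (P ++ Q) P.length (P ++ Q).length (by rw [List.length_append]; omega) le_rfl
      (by rw [List.take_left]; exact hP) (by rw [List.take_length]; exact hPQ)
    rw [List.length_append] at h1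
    show 2 * p0 + 2 * N1 < Q.length
    omega
  have hsp : ∀ k k' l l', k < K → k' < K → l < K → l' < K → k' ≠ k → l' ≠ l →
      c k + c l' < c l + c k' + 2 * g.N1 → c l + c k' < c k + c l' + 2 * g.N1 → k = l := by
    intro k k' l l' _ _ _ _ hkk _ h1 h2
    exact hsp_of hx hkk h1 h2
  have hthin' : ∀ τ, g.z ≤ τ + g.p0 → ∀ J : Finset ℕ, (∀ k ∈ J, k < K ∧
      ∃ k', k' < K ∧ k' ≠ k ∧ BT (τ + c k' - c k - g.p0)) → J.card ≤ r + m := by
    intro τ hτ J hJ
    have hτ' : p0 + N1 + q0 ≤ τ + p0 := hτ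
    have h1 := hthin ((τ : ℤ) - p0)
    refine le_trans ?_ (le_trans h1 (by omega))
    refine le_trans (Finset.card_le_card ?_) (Finset.card_image_le (f := Prod.snd))
    intro k hk
    obtain ⟨hkK, k', hk'K, hne, hbad⟩ := hJ k hk
    rw [Finset.mem_image]
    refine ⟨(k', k), ?_, rfl⟩
    rw [Finset.mem_filter, Finset.mem_product, Finset.mem_range, Finset.mem_range]
    refine ⟨⟨hk'K, hkK⟩, hne, ?_⟩
    have hck := hcp k hkK
    have hck' := hcp k' hk'K
    have h2 : Aa ≤ τ + c k' - c k - p0 := by omega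
    have h3 := badT_cast hGpos h2 hbad
    have h4 : ((τ + c k' - c k - p0 : ℕ) : ℤ) = (τ : ℤ) - p0 + x * 2 ^ k' - x * 2 ^ k := by
      have h5 : ((c k' : ℕ) : ℤ) = x * 2 ^ k' := by
        show ((x * 2 ^ k' : ℕ) : ℤ) = _
        push_cast; ring
      have h6 : ((c k : ℕ) : ℤ) = x * 2 ^ k := by
        show ((x * 2 ^ k : ℕ) : ℤ) = _
        push_cast; ring
      rw [← h5, ← h6]
      omega
    rw [← h4]
    exact h3
  have hLf1 : ∀ v, {P : List α | g.LP1 pre lam v P}.Finite := by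
    intro v
    refine (List.finite_length_le α (p0 + N1)).subset ?_
    rintro P ⟨h1, h2⟩
    have h3 := hlen1 _ _ h2
    rw [List.length_drop] at h3
    have h4 : p0 ≤ P.length := h1
    have h5 : P.length - p0 ≤ N1 := h3
    show P.length ≤ p0 + N1
    omega
  have hLf2 : ∀ v, {P : List α | Geo.LP2 K c lam2 v P}.Finite := by
    intro v
    refine (List.finite_length_le α p0).subset ?_
    rintro P ⟨k, hk, h1, -⟩
    show P.length ≤ p0
    rw [h1]
    exact hcp k hk
  have hzpos : 0 < z := by omega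
  -- the key
  have hkeyT : ∀ X ∈ Cc, ∀ Y ∈ Cc, X.take (z + N1 + p0 + Acc) = Y.take (z + N1 + p0 + Acc) →
      ((X.drop (z + N1 + p0 + Acc)).map φ).prod = ((Y.drop (z + N1 + p0 + Acc)).map φ).prod →
      X.length % (M * G m) = Y.length % (M * G m) →
      (X.map φ).prod = (Y.map φ).prod ∧ nu X = nu Y ∧ (g.BadX BT X → g.BadX BT Y) := by
    intro X hX Y hY h1 h2 h3
    set K' := z + N1 + p0 + Acc with hK'
    have hXl : z ≤ X.length := hX.1
    have hYl : z ≤ Y.length := hY.1
    have e0 : (X.map φ).prod = (Y.map φ).prod := by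
      rw [prod_split φ X K', prod_split φ Y K', h1, h2]
    have e3 : X.take p0 = Y.take p0 := by
      have := congrArg (List.take p0) h1
      rwa [List.take_take, List.take_take, Nat.min_eq_left (by omega)] at this
    have e4 : ∀ Z : List α, ((Z.drop p0).map φ).prod =
        (((Z.take K').drop p0).map φ).prod * ((Z.drop K').map φ).prod := by
      intro Z
      rw [prod_split φ (Z.drop p0) (K' - p0), List.drop_take, List.drop_drop,
        show p0 + (K' - p0) = K' by omega]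
    have e5 : ((X.drop p0).map φ).prod = ((Y.drop p0).map φ).prod := by
      rw [e4 X, e4 Y, h1, h2]
    have e6 : (X.drop p0).take Acc = (Y.drop p0).take Acc := by
      have := congrArg (fun l => (l.drop p0).take Acc) h1
      simp only [List.drop_take, List.take_take] at this
      rwa [Nat.min_eq_left (by omega)] at this
    have e7 : (X.drop p0).length ≡ (Y.drop p0).length [MOD M * G m] := by
      rw [List.length_drop, List.length_drop]
      apply Nat.ModEq.add_right_cancel' p0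
      rw [Nat.sub_add_cancel (by omega), Nat.sub_add_cancel (by omega)]
      exact h3
    have e8 : nu1 (X.drop p0) = nu1 (Y.drop p0) :=
      g5 _ _ (by rw [List.length_drop]; omega) (by rw [List.length_drop]; omega) e6 e7 e5
    refine ⟨e0, ?_, ?_⟩
    · show act (nu2 (X.take p0) 1) ((X.drop p0).map φ).prod + nu1 (X.drop p0) =
        act (nu2 (Y.take p0) 1) ((Y.drop p0).map φ).prod + nu1 (Y.drop p0)
      rw [e3, e5, e8]
    · rintro (⟨t, ht, hw, h5, h6⟩ | hb)
      · left
        have h6' : t < z + N1 := h6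
        have h7 : X.take t = Y.take t := by
          have := congrArg (List.take t) h1
          rwa [List.take_take, List.take_take, Nat.min_eq_left (by omega)] at this
        have h8 := congrArg List.length h7
        rw [List.length_take, List.length_take] at h8
        refine ⟨t, by omega, ?_, h5, h6⟩
        rw [← h7]; exact hw
      · right
        have e7' : X.length - p0 ≡ Y.length - p0 [MOD M * G m] := by
          rwa [List.length_drop, List.length_drop] at e7
        exact bad_congr hGd hMd (by show Aa ≤ X.length - p0; omega)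
          (by show Aa ≤ Y.length - p0; omega) e7' hb
  have hMG : 0 < M * G m := Nat.mul_pos hMpos (hGpos m)
  refine Top5_120.top5 act hadd hone hmul hfaith φ nu Cc Bad (Fib_81.XX_pcode hzpos)
    (fun X hX => hX.1) (fun v => {P | g.LP1 pre lam v P}) (fun v => {P | Geo.LP2 K c lam2 v P})
    hLf1 hLf2 ?_ ?_ ?_ ?_ ?_ s
  · -- hCT
    intro v y
    refine Fib_81.HL_blocks (z := z) φ (z + N1 + p0 + Acc) (M * G m) hMG hLW hfree _
      (fun X hX => hX.1) ?_
    rintro X hX Y hY h1 h2 h3 ⟨-, h4⟩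
    obtain ⟨e0, e1', -⟩ := hkeyT X hX Y hY h1 h2 h3
    refine ⟨hY, ?_⟩
    rw [← e0, ← e1']
    exact h4
  · -- hBT
    intro v y
    refine Fib_81.HL_blocks (z := z) φ (z + N1 + p0 + Acc) (M * G m) hMG hLW hfree _
      (fun X hX => hX.1.1) ?_
    rintro X hX Y hY h1 h2 h3 ⟨⟨-, h5⟩, h4⟩
    obtain ⟨e0, e1', e2'⟩ := hkeyT X hX Y hY h1 h2 h3
    refine ⟨⟨hY, e2' h5⟩, ?_⟩
    rw [← e0, ← e1']
    exact h4
  · -- htail
    intro s'
    exact Fib_81.HL_tail_prod (z := z) φ hLW hfree s'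
  · -- hcc1
    intro X hX hXb v
    have hnb : ¬ g.BadX BT X := fun h => hXb ⟨hX, h⟩
    have hE : ¬ g.E X := fun h => hnb (Or.inl h)
    have hBT : ¬ BT (X.length - p0) := fun h => hnb (Or.inr h)
    have hXl : z ≤ X.length := hX.1
    obtain ⟨P, Q, b', hPQ, hP, hQ⟩ := g.complete1 pre hlen1 hX hE (fun u => by
      obtain ⟨P, Q, h1, h2, h3⟩ := g4 (X.drop p0) (by rw [List.length_drop]; omega)
        (by rw [List.length_drop]; omega)
        (fun q hq hd => hBT (Or.inl ⟨q, hq, by rwa [List.length_drop] at hd⟩))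
        (fun hd => hBT (Or.inr (by rwa [List.length_drop] at hd))) u
      exact ⟨P, Q, h1.symm, h2, h3⟩) v
    refine ⟨P, Q, hPQ.symm, hP, fun y P' hP' => ?_⟩
    obtain ⟨h1, h2⟩ := g.sound1 pre post hlen1 hex1 hP' hQ
    obtain ⟨h3, h4⟩ := g.sound1 pre post hlen1 hex1 hP hQ
    refine ⟨h1, ?_⟩
    rw [hT, hT, h2, hPQ, h4]
  · -- hcc2
    intro X hX Y hY v
    obtain ⟨hXc, hXb⟩ := hX
    obtain ⟨hYc, hYb⟩ := hY
    have hXl : z ≤ X.length := hXc.1
    have hYl : z ≤ Y.length := hYc.1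
    obtain ⟨P, Q, b', hPQ, hP, hQ⟩ := g.complete2 pre post (lam2 := lam2)
      (rho2 := fun k Q => rho2 k Q 1) (C0 := r + m) hcp hgap' hsp hthin' hXc hYc v (by
        have hl : (X.take p0).length = p0 := by rw [List.length_take]; omega
        obtain ⟨I, hI, hIs⟩ := e2 (X.take p0) 1 v (fun k hk => by rw [hl]; exact hcp k hk)
        refine ⟨I, hI, fun k hk => ?_⟩
        obtain ⟨h1, h2, h3⟩ := hIs k hk
        refine ⟨h1, ?_, h3⟩
        rwa [List.take_take, Nat.min_eq_left (hcp k h1)] at h2)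
    have hval : g.T pre post (g.T pre post v X) Y = b' := by
      obtain ⟨X2, h1, h2, h3⟩ := g.sound2 pre post hcp hex2 (R := []) (R' := Y) hXc hXb hP hQ
        (by rw [List.append_nil, hPQ])
      rw [hPQ] at h2
      rw [List.append_cancel_left h2]
      exact h3
    have hPl : P.length ≤ p0 := by
      obtain ⟨k, hk, h1, -⟩ := hP
      rw [h1]; exact hcp k hk
    have hlen := congrArg List.length hPQ
    rw [List.length_append, List.length_append] at hlen
    have hWQ : Wo Q := by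
      have h1 : Wo (X ++ Y) := (hLW.app X Y (by omega)).2 hYc.2.1
      rw [← hPQ] at h1
      exact (hLW.app P Q (by omega)).1 h1
    refine ⟨P, Q, hPQ, hP, fun y P' hP' => ?_⟩
    have hexw : ∃ t, z ≤ t ∧ t ≤ (P' ++ Q).length ∧ Wo ((P' ++ Q).take t) :=
      ⟨(P' ++ Q).length, by rw [List.length_append]; omega, le_rfl, by
        rw [List.take_length]
        exact (hLW.app P' Q (by omega)).2 hWQ⟩
    set t := Nat.find hexw with ht
    obtain ⟨ht1, ht2, ht3⟩ := Nat.find_spec hexw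
    have hX' : (P' ++ Q).take t ∈ Cc := by
      refine ⟨?_, ht3, fun t' h1 h2 h3 => ?_⟩
      · rw [List.length_take]; omega
      · rw [List.length_take] at h2
        rw [List.take_take, Nat.min_eq_left (by omega)] at h3
        exact Nat.find_min hexw (m := t') (by omega) ⟨h1, by omega, h3⟩
    by_cases hbad : g.BadX BT ((P' ++ Q).take t)
    · left
      obtain ⟨X2, h1, h2, h3⟩ := g.sound2 pre post hcp hex2 (R := []) (R' := (P' ++ Q).drop t)
        hX' hbad hP' hQ (by rw [List.append_nil, List.take_append_drop])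
      refine ⟨_, ⟨hX', hbad⟩, X2, h1, h2.symm, ?_⟩
      rw [hT, hT, hT, hT, h3, hval]
    · right
      exact ⟨_, hX', fun h => hbad h.2, List.take_prefix _ _⟩


end Crest.Agent.R320.Fin_805
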