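import Crest.Agent.R320.Top_550
import Crest.Agent.R320.Joint_47
import Crest.Agent.R320.G1_852
import Crest.Agent.R320.Spoil_243
import Crest.Agent.R320.WallU_36
import Crest.Agent.R320.Univ_234
import Crest.Agent.R320.Zone132b_898

/-!
# Row 320: final assembly (helper806)

`Top_550.top` + `Joint_47.complete1 / complete2` + `G1_852.gadget` + `Spoil243.spoil` +
`ExactR_237.exact_gadget` + `WallU_36.wall_leaf`.
-/

set_option autoImplicit false

namespace Crest.Agent.R320.Fin_806

open Crest.Agent.R320 Crest.Agent.R320.Hk_851 Crest.Agent.R320.Code110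
open Crest.Agent.R320.ExactR_237 (pr pr_append)

section reg

variable {α : Type} {S : Type} [Monoid S]

/-- a predicate which depends on a bounded prefix, the product and the length modulo `N`. -/
theorem reg_fs [Finite α] [Finite S] (f : α → S) (L0 N : ℕ) (hN : 0 < N) (Ψ : List α → Prop)
    (h : ∀ Q Q' : List α, Q.take L0 = Q'.take L0 → pr f (Q.drop L0) = pr f (Q'.drop L0) →
      Q.length % N = Q'.length % N → (Ψ Q → Ψ Q')) :
    Language.IsRegular ({Q | Ψ Q} : Language α) := by
  have h0 := Zone132b_898.isRegular_of_inv (pr f) (pr_append f) L0 N hN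
    (fun X s r => ∃ Y : List α, Y.take L0 = X ∧ pr f (Y.drop L0) = s ∧ Y.length % N = r ∧ Ψ Y)
  have e : ({Q | Ψ Q} : Language α) = ({Q | ∃ Y : List α, Y.take L0 = Q.take L0 ∧
      pr f (Y.drop L0) = pr f (Q.drop L0) ∧ Y.length % N = Q.length % N ∧ Ψ Y} : Language α) := by
    ext Q
    constructor
    · intro hQ
      exact ⟨Q, rfl, rfl, rfl, hQ⟩
    · rintro ⟨Y, h1, h2, h3, h4⟩
      exact h Y Q h1 h2 h3 h4
  rw [e]
  exact h0

end reg

section zn

variable {α : Type} {Wo : List α → Prop} {z : ℕ}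

theorem zn_iff (X : List α) : X ∈ Top_550.Zn Wo z ↔ X ∈ Joint_47.Zn Wo z :=
  ⟨fun h => ⟨h.2.1, h.1, h.2.2⟩, fun h => ⟨h.2.1, h.1, h.2.2⟩⟩

end zn

section act

variable (S : Type) [Monoid S]

/-- the token action -/
def tact (v : S → ZMod 2) (s : S) : S → ZMod 2 := fun x => v (s * x)

theorem tact_add (u v : S → ZMod 2) (s : S) :
    tact S (u + v) s = tact S u s + tact S v s := rfl

theorem tact_one (v : S → ZMod 2) : tact S v 1 = v := by
  funext x; simp [tact]

theorem tact_mul (v : S → ZMod 2) (s t : S) : tact S (tact S v s) t = tact S v (s * t) := by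
  funext x; simp [tact, mul_assoc]

theorem tact_faith (s t : S) (h : ∀ v, tact S v s = tact S v t) : s = t := by
  classical
  have h1 := congrFun (h (fun x => if x = s then 1 else 0)) 1
  simp only [tact, mul_one, if_true] at h1
  by_contra hne
  rw [if_neg (fun e => hne e.symm)] at h1
  exact one_ne_zero h1

end act

/-- periodicity of the digit condition -/
theorem badN_periodic (Ms : Finset ℕ) (M b m : ℕ) (hd : ∀ k ∈ Ms, k ∣ M) {x y : ℕ}
    (h : x % (M * b ^ m) = y % (M * b ^ m)) (hx : Spoil243.BadN Ms M b m x) :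
    Spoil243.BadN Ms M b m y := by
  have hmod : x ≡ y [MOD M * b ^ m] := h
  rcases hx with ⟨k, hk, hkx⟩ | ⟨j, hj, hn⟩
  · left
    refine ⟨k, hk, ?_⟩
    have h1 : x ≡ y [MOD k] := hmod.of_dvd ((hd k hk).trans (Dvd.intro _ rfl))
    exact (h1.dvd_iff dvd_rfl).1 hkx
  · right
    refine ⟨j, hj, ?_⟩
    have key : ∀ a : ℕ, a / b ^ j % b = a % (b ^ (j + 1)) / b ^ j := by
      intro a
      rw [pow_succ, Nat.mod_mul_right_div_self]
    have h2 : x ≡ y [MOD b ^ (j + 1)] :=
      hmod.of_dvd ((pow_dvd_pow b (by omega)).trans (Dvd.intro_left _ rfl))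
    have h3 : x / b ^ j % b = y / b ^ j % b := by
      rw [key, key, h2]
    rw [← h3]
    exact hn

theorem fin (A S : Type) [Finite A] [Monoid S] [Finite S] (f : A → S) (s : S) :
    HL 3 ({w | (w.map f).prod = s} : Language A) := by
  classical
  haveI := Fintype.ofFinite S
  let V := S → ZMod 2
  haveI : Finite V := inferInstance
  haveI := Fintype.ofFinite V
  let act : V → S → V := tact S
  obtain ⟨m, r, hG⟩ := G1_852.gadget (S := S) (V := V) act
  set R1 := r + m with hR1
  obtain ⟨K, hK⟩ := ExactR_237.exact_gadget A S V f act (2 * R1 + 2)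
  obtain ⟨Ms, M, hcard, hMs, hM, hG2⟩ := hG (2 ^ (K + 2))
  set b := M * 2 ^ (K + 6) + 1 with hb
  have hcop : Nat.Coprime b M := by
    have : Nat.Coprime (M * 2 ^ (K + 6) + 1) M := by
      rw [Nat.coprime_comm, Nat.mul_comm M]
      exact (Nat.coprime_mul_right_add_right M 1 (2 ^ (K + 6))).2 (Nat.coprime_one_right M)
    exact this
  obtain ⟨lam, rho, nu1, g1, g2, g3, g4⟩ := hG2 b (by omega) hcop A f
  obtain ⟨c, hc1, hc2, hc3, hc4, hc5⟩ := Spoil243.spoil K (2 * b ^ m) Ms M b m
    (fun p hp => (hMs p hp).2.1) (fun p hp => (hMs p hp).1) (fun p hp => (hMs p hp).2.2) hcop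
    (by omega) hM
  obtain ⟨lam2, rho2, nu2', hS2, hC2⟩ := hK c (fun i j h _ => hc1 h)
  set N1 := b ^ m with hN1
  have hN1pos : 0 < N1 := Nat.pow_pos (by omega)
  set p0 := c K with hp0
  have hcp : ∀ k, k < K → c k ≤ p0 := fun k hk => (hc1 hk).le
  obtain ⟨n, Wo, w1, w2, w3, R, B, w4⟩ := WallU_36.wall_leaf A (2 * (N1 + p0) + 1)
  set z := 3 * p0 + n + N1 + 1 with hz
  have hW : Joint_47.LW n (2 * (N1 + p0) + 1) Wo := by
    refine ⟨w2, w1, ?_⟩
    intro X i t hit ht h1 h2
    by_contra hcon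
    refine w3 (X.take t) (t - i) h2 (by omega) (by omega) ?_
    rw [List.take_take, List.length_take, min_eq_left ht]
    have : min (t - (t - i)) t = i := by omega
    rw [this]
    exact h1
  set BadT : ℕ → Prop := Spoil243.BadN Ms M b m with hBadT
  set nu2 : List A → V := fun X => nu2' X 1 with hnu2
  have hdv : ∀ k ∈ Ms, k ∣ M := fun k hk => (hMs k hk).2.2
  have hMb : 0 < M * b ^ m := Nat.mul_pos hM hN1pos
  refine Top_550.top f act (tact_add S) (tact_one S) (tact_mul S) (tact_faith S) Wo n z p0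
    w1 w2 (by omega) (by omega) ⟨R, B, w4⟩ nu2 nu1 ?_
    (Joint_47.Bad Wo z N1 p0 BadT) ?_
    (fun x => {p | Joint_47.L1 f act p0 nu2 lam x p}) (fun x => {p | Joint_47.L2 K c lam2 x p})
    ?_ ?_ ?_ ?_ s
  · -- nu1 regular
    intro x
    refine reg_fs f (b ^ m) (M * b ^ m) hMb _ ?_
    intro Q Q' h1 h2 h3 h4
    rw [← (g4 Q Q' h1 h2 h3).2]
    exact h4
  · -- Bad regular
    refine reg_fs f (z + N1) (M * b ^ m) hMb _ ?_
    intro Q Q' h1 _ h3 h4
    rcases lt_or_ge Q.length (z + N1) with hlt | hge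
    · have e1 : Q.take (z + N1) = Q := List.take_of_length_le hlt.le
      rw [e1] at h1
      have e2 : Q' = Q := by
        have e3 : (Q'.take (z + N1)).length < z + N1 := by rw [← h1]; exact hlt
        rw [List.length_take] at e3
        have e4 : Q'.take (z + N1) = Q' := List.take_of_length_le (by omega)
        rw [h1, e4]
      rw [e2]
      exact h4
    · have hge' : z + N1 ≤ Q'.length := by
        have e3 : (Q'.take (z + N1)).length = z + N1 := by
          rw [← h1, List.length_take]; omega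
        rw [List.length_take] at e3
        omega
      rcases h4 with ⟨t, t1, t2, t3, t4⟩ | h5
      · left
        refine ⟨t, t1, t2, by omega, ?_⟩
        have : Q'.take t = Q.take t := by
          have e5 := congrArg (List.take t) h1
          rw [List.take_take, List.take_take, min_eq_left (by omega)] at e5
          exact e5.symm
        rw [this]
        exact t4
      · right
        refine badN_periodic Ms M b m hdv ?_ h5
        have h6 : Q.length ≡ Q'.length [MOD M * b ^ m] := h3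
        have h7 : (Q.length - p0) + p0 ≡ (Q'.length - p0) + p0 [MOD M * b ^ m] := by
          rw [Nat.sub_add_cancel (by omega), Nat.sub_add_cancel (by omega)]
          exact h6
        exact Nat.ModEq.add_right_cancel' p0 h7
  · -- L1 finite
    intro x
    refine (List.finite_length_le A (p0 + N1)).subset ?_
    rintro p ⟨hp1, hp2⟩
    have := g1 _ _ hp2
    rw [List.length_drop] at this
    show p.length ≤ p0 + N1
    omega
  · -- L2 finite
    intro x
    refine (List.finite_length_le A p0).subset ?_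
    rintro p ⟨k, hk, hk2, _⟩
    show p.length ≤ p0
    rw [hk2]
    exact hcp k hk
  · -- scheme 1
    intro u hu hbad x
    obtain ⟨p, q, e1, e2, -, e4⟩ := Joint_47.complete1 (N0 := 0) f act p0 nu2 nu1 hW
      (lam := lam) (rho := rho)
      (fun P Q v r h1 h2 => g2 P Q v r h1 h2) (fun P v h => (g1 P v h).le)
      (fun Y _ hY v => by
        obtain ⟨P, Q, h1, h2, v', h3⟩ := g3 Y (fun k hk hd => hY (Or.inl ⟨k, hk, hd⟩))
          (fun j hj => by
            by_contra hcon
            refine hY (Or.inr ⟨j, hj, fun h => hcon ⟨h.1, by omega⟩⟩)) v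
        exact ⟨P, Q, h1, h2, by rw [h3]; rfl⟩)
      (by omega) (by omega) ((zn_iff u).1 hu) hbad x
    refine ⟨p, q, Joint_47.T f act p0 nu2 nu1 x u, e1, e2, ?_⟩
    intro x' p' hp'
    left
    obtain ⟨e5, e6⟩ := e4 x' p' hp'
    refine ⟨Joint_47.T f act p0 nu2 nu1 x u, Language.mem_mul.2 ⟨p' ++ q, ⟨(zn_iff _).2 e5, e6⟩, [],
      ⟨rfl, rfl⟩, List.append_nil _⟩⟩
  · -- scheme 2
    intro u hu x t ht
    have hT : ∀ T : ℕ, (∀ k, k < K → c k ≤ T) → ∀ I : Finset ℕ,
        (∀ k ∈ I, k < K ∧ ∃ k', k' < K ∧ k' ≠ k ∧ BadT (T + c k' - c k)) → I.card ≤ R1 := by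
      intro T hTc I hI
      have h5 := hc5 (T : ℤ)
      refine le_trans ?_ (le_trans h5 (by omega))
      choose! g hg using fun k (hk : k ∈ I) => (hI k hk).2
      refine Finset.card_le_card_of_injOn (fun k => (g k, k)) ?_ ?_
      · intro k hk
        have hk' : k ∈ I := hk
        obtain ⟨a1, a2, a3⟩ := hg k hk'
        simp only [Finset.coe_filter, Finset.mem_product, Finset.mem_range, Set.mem_ofPred_eq]
        refine ⟨⟨a1, (hI k hk').1⟩, a2, ?_⟩
        have a4 := Spoil243.badD_of_badN a3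
        have a5 := hTc k (hI k hk').1
        rw [Nat.cast_sub (by omega), Nat.cast_add] at a4
        exact a4
      · intro k _ k' _ h
        exact (Prod.mk.inj h).2
    have hres : ∀ i i' j j', i < K → i' < K → j < K → j' < K → i' ≠ i → j' ≠ j →
        c i + c j' < c j + c i' + 2 * N1 → c j + c i' < c i + c j' + 2 * N1 → i = j := by
      intro i i' j j' _ _ _ _ h1 h2 h3 h4
      by_contra hne
      have h6 := hc4 i i' j j' (Ne.symm h1) (Ne.symm h2) (fun h => hne (Prod.mk.inj h).1)
      rcases lt_abs.1 h6 with h7 | h7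
      · push_cast at h7
        omega
      · push_cast at h7
        omega
    obtain ⟨p, q, e1, e2, -, e4⟩ := Joint_47.complete2 (n := n) (N1 := N1) (N0 := 0) (z := z) (R1 := R1)
      f act p0 nu1 hW (c := c)
      (lam2 := lam2) (rho2 := rho2) (nu2' := nu2') hS2 hC2 (fun i j h _ => hc1 h) hcp hres (fun T _ => hT T)
      (by omega) (by omega) ((zn_iff u).1 hu.1) ((zn_iff t).1 ht.1) hu.2 x
    refine ⟨p, q, Joint_47.T f act p0 nu2 nu1 (Joint_47.T f act p0 nu2 nu1 x u) t, e1, e2, ?_⟩
    intro x' p' hp'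
    rcases e4 x' p' hp' with ⟨a, a1, a2, a3, a4⟩ | ⟨a, a1, a2, a3⟩
    · left
      refine ⟨Joint_47.T f act p0 nu2 nu1 x u, Language.mem_mul.2 ⟨a, ⟨⟨(zn_iff _).2 a1, a2⟩, a4⟩,
        t, ?_, a3.symm⟩⟩
      exact ⟨_, Language.mem_mul.2 ⟨t, ⟨ht, rfl⟩, [], ⟨rfl, rfl⟩, List.append_nil _⟩⟩
    · right
      exact Or.inl ⟨a, (zn_iff _).2 a1, fun h => a2 h.2, a3⟩

theorem final {α : Type*} [Finite α] (L : Language α) (hL : L.IsRegular) :
    ∃ e : Crest.RegLang.GRegExp α, e.height ≤ 3 ∧ e.lang = L :=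
  Univ_234.of_type_monoid (fun A _ S _ _ f s => fin A S f s) L hL

end Crest.Agent.R320.Fin_806
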