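import Crest.Agent.R320.Top5_120
import Crest.Agent.R320.Sc2n_937
import Crest.Agent.R320.GridG_19
import Crest.Agent.R320.ExactR_237
import Crest.Agent.R320.RulerG_799
import Crest.Agent.R320.Fib_81
import Crest.Agent.R320.Univ_188

/-!
# Row 320: the join (helper81)
-/

set_option autoImplicit false

namespace Crest.Agent.R320.Fin_81

open Crest.RegLang Crest.Agent.R320.Hk_851 Crest.Agent.R320.Sc2n_937
open Crest.Agent.R320.Fib_81

/-- bad totals -/
def BT (Ms : Finset ℕ) (Gam M m : ℕ) (A : ℕ → ℕ) (T : ℕ) : Prop :=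
  Crest.Agent.R320.RulerG_799.BadZ Ms (fun j => Gam ^ j) (fun j => M * Gam ^ j) A m (T : ℤ)

theorem bt_period {Ms : Finset ℕ} {Gam M m : ℕ} {A : ℕ → ℕ} (hq : ∀ q ∈ Ms, q ∣ M)
    {T T' : ℕ} (h : T ≡ T' [MOD M * Gam ^ m]) (hT : BT Ms Gam M m A T) :
    BT Ms Gam M m A T' := by
  have hd : ((M * Gam ^ m : ℕ) : ℤ) ∣ (T' : ℤ) - T := (Nat.modEq_iff_dvd).1 h
  obtain ⟨d, hd⟩ := hd
  push_cast at hd
  rcases hT with ⟨q, hqM, hqT⟩ | ⟨j, h1, h2, k, hk⟩
  · left
    refine ⟨q, hqM, ?_⟩
    have e : (T' : ℤ) = T + (M : ℤ) * ((Gam : ℤ) ^ m * d) := by rw [← mul_assoc, ← hd]; ring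
    rw [e]
    exact dvd_add hqT (Dvd.dvd.mul_right (Int.natCast_dvd_natCast.2 (hq q hqM)) _)
  · right
    refine ⟨j, h1, h2, k + M * Gam ^ (m - j) * d, ?_⟩
    have e : (T' : ℤ) - A j - (k + M * Gam ^ (m - j) * d) * ((Gam ^ j : ℕ) : ℤ) =
        T - A j - k * ((Gam ^ j : ℕ) : ℤ) := by
      have h3 : (Gam : ℤ) ^ m = Gam ^ (m - j) * Gam ^ j := by
        rw [← pow_add, Nat.sub_add_cancel h2]
      have h4 : (T' : ℤ) = T + M * Gam ^ m * d := by linarith
      rw [h4, h3]
      push_cast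
      ring
    rw [e]
    exact hk

theorem bt_of_badG {Ms : Finset ℕ} {Gam M m : ℕ} {T : ℕ}
    (hT : Crest.Agent.R320.GridG_19.Am (fun k => Gam ^ k) M 0 m ≤ T)
    (hG : 0 < Gam)
    (h : Crest.Agent.R320.GridG_19.BadG (fun k => Gam ^ k) M 0 m T) :
    BT Ms Gam M m (Crest.Agent.R320.GridG_19.Am (fun k => Gam ^ k) M 0) T := by
  obtain ⟨k, hk, h⟩ := h
  right
  have hA : Crest.Agent.R320.GridG_19.Am (fun k => Gam ^ k) M 0 (k + 1) ≤ T :=
    (Crest.Agent.R320.GridG_19.Am_mono _ M 0 hk).trans hT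
  set Aj := Crest.Agent.R320.GridG_19.Am (fun k => Gam ^ k) M 0 (k + 1) with hAj
  set g := Gam ^ (k + 1) with hg
  have hgpos : 0 < g := pow_pos hG _
  have e1 := Nat.div_add_mod (T - Aj) g
  have hlt := Nat.mod_lt (T - Aj) hgpos
  have e2 : (T : ℤ) - Aj = g * ((T - Aj) / g : ℕ) + ((T - Aj) % g : ℕ) := by
    have : ((T - Aj : ℕ) : ℤ) = (T : ℤ) - Aj := by push_cast [Nat.cast_sub hA]; ring
    rw [← this]
    exact_mod_cast e1.symm
  rcases h with h | h
  · refine ⟨k + 1, by omega, hk, ((T - Aj) / g : ℕ), ?_⟩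
    have h' : (T - Aj) % g < M * Gam ^ k := h
    rw [Nat.add_sub_cancel, e2, abs_le]
    constructor
    · have : (0 : ℤ) ≤ ((T - Aj) % g : ℕ) := Int.natCast_nonneg _
      have h0 : (0 : ℤ) ≤ ((M * Gam ^ k : ℕ) : ℤ) := Int.natCast_nonneg _
      nlinarith
    · have : (((T - Aj) % g : ℕ) : ℤ) < ((M * Gam ^ k : ℕ) : ℤ) := by exact_mod_cast h'
      nlinarith
  · refine ⟨k + 1, by omega, hk, ((T - Aj) / g : ℕ) + 1, ?_⟩
    have h' : g ≤ (T - Aj) % g + M * Gam ^ k := h
    rw [Nat.add_sub_cancel, e2, abs_le]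
    have h3 : ((g : ℕ) : ℤ) ≤ ((T - Aj) % g : ℕ) + ((M * Gam ^ k : ℕ) : ℤ) := by exact_mod_cast h'
    have h4 : (((T - Aj) % g : ℕ) : ℤ) < (g : ℤ) := by exact_mod_cast hlt
    have h0 : (0 : ℤ) ≤ ((M * Gam ^ k : ℕ) : ℤ) := Int.natCast_nonneg _
    constructor
    · nlinarith
    · nlinarith

theorem fin (α : Type) [Finite α] (S : Type) [Monoid S] [Finite S] (f : α → S) (s : S) :
    HL 3 ({w | (w.map f).prod = s} : Language α) := by
  classical
  have := Fintype.ofFinite S
  obtain ⟨act, hadd, hone, hmul, hfaith⟩ := Crest.Agent.R320.Blk467.exists_module S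
  obtain ⟨m, r, hgrid⟩ := Crest.Agent.R320.GridG_19.grid S (S → ZMod 2) act
  set C0 := r + m with hC0
  obtain ⟨K, hK⟩ := Crest.Agent.R320.ExactR_237.exact_gadget α S (S → ZMod 2) f act (2 * C0 + 2)
  obtain ⟨Ms, hMr, hMs, hgr⟩ := hgrid (2 ^ (K + 2))
  set M := ∏ q ∈ Ms, q with hM
  have hMpos : 0 < M := Finset.prod_pos fun q hq => (hMs q hq).1.pos
  have hqM : ∀ q ∈ Ms, q ∣ M := fun q hq => Finset.dvd_prod_of_mem _ hq
  have hMco : ∀ k, Nat.Coprime M (2 ^ k) := by
    intro k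
    refine Nat.Coprime.prod_left fun q hq => ?_
    refine Nat.Coprime.pow_right k ?_
    refine (Nat.coprime_primes (hMs q hq).1 Nat.prime_two).2 ?_
    intro h
    have h1 := (hMs q hq).2
    rw [h] at h1
    have : 2 ^ 2 ≤ 2 ^ (K + 2) := Nat.pow_le_pow_right (by norm_num) (by omega)
    omega
  set Gam := 2 ^ (K + 6 + M) with hGam
  have hGpos : 0 < Gam := by positivity
  have hGbig : 2 ^ (K + 6) * M ≤ Gam := by
    calc 2 ^ (K + 6) * M ≤ 2 ^ (K + 6) * 2 ^ M := Nat.mul_le_mul_left _ Nat.lt_two_pow_self.le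
      _ = Gam := by rw [hGam, ← pow_add]
  set φ : List α → S := fun w => (w.map f).prod with hφdef
  have hφ : ∀ u v, φ (u ++ v) = φ u * φ v := by
    intro u v; simp [hφdef]
  obtain ⟨lam, rho, nu, hsound, hlam, hrho, hcomp, hnu⟩ := hgr (fun k => Gam ^ k) 0
    (fun k => pow_pos hGpos k) (fun a b hab => pow_dvd_pow _ hab)
    (fun k => by rw [hGam, ← pow_mul]; exact hMco _) α φ hφ
  set A := Crest.Agent.R320.GridG_19.Am (fun k => Gam ^ k) M 0 with hA
  set Ac := Crest.Agent.R320.GridG_19.Ac (fun k => Gam ^ k) M 0 m with hAc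
  set N1 := A m + 1 with hN1
  obtain ⟨c, hcmono, hcN, hcg, -, -, hcthin⟩ := Crest.Agent.R320.RulerG_799.ruler_grid K M Gam m N1
    Ms A hMpos (fun q hq => ⟨hqM q hq, (hMs q hq).2.le⟩) (hMco _) hGbig
  set p0 := c K with hp0
  have hcp : ∀ k, k < K → c k ≤ p0 := fun k hk => hcmono.monotone hk.le
  obtain ⟨lam2, rho2, nu2, hex2, hco2⟩ := hK c (fun i j hij _ => hcmono hij)
  obtain ⟨n, Gp, B, Wo, hLW, hgapW, -, -, hBc⟩ :=
    Crest.Agent.R320.LWallAll_922.walls_all_left α (2 * p0 + 2 * N1) (by omega)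
  set q0 := n + 2 * p0 + 2 * A m + M + Ac with hq0
  set z := p0 + N1 + q0 with hz
  let g : Geo α := ⟨Wo, n, z, p0, q0, N1, hLW.app, rfl, by omega, by omega, by omega⟩
  let BadT : ℕ → Prop := BT Ms Gam M m A
  let pre : List α → (S → ZMod 2) → (S → ZMod 2) := fun u v => act v (φ u) + nu2 u 1
  let post : (S → ZMod 2) → List α → (S → ZMod 2) := fun v Y => act v (φ Y) + nu Y
  let ν : List α → (S → ZMod 2) := fun X =>
    act (nu2 (X.take p0) 1) (φ (X.drop p0)) + nu (X.drop p0)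
  have hT : ∀ v X, g.T pre post v X = act v ((X.map f).prod) + ν X := by
    intro v X
    change act (act v (φ (X.take p0)) + nu2 (X.take p0) 1) (φ (X.drop p0)) + nu (X.drop p0) =
      act v (φ X) + (act (nu2 (X.take p0) 1) (φ (X.drop p0)) + nu (X.drop p0))
    rw [hadd, ← hmul, ← hφ, List.take_append_drop, add_assoc]
  have hlen1 : ∀ P v, lam P = some v → P.length ≤ g.N1 := by
    intro P v h
    have := (hlam P v h).2
    change P.length ≤ N1
    omega
  have hexp : ∀ P Q u b, lam P = some u → rho Q = some b → b = post u (P ++ Q) := by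
    intro P Q u b h1 h2
    exact hsound P Q u b h1 h2
  let rho2' : ℕ → List α → Option (S → ZMod 2) := fun k Q => rho2 k Q 1
  have hex2' : ∀ k, k < K → ∀ (P Q : List α) v u, P.length = c k → Q.length = g.p0 - c k →
      lam2 k P = some v → rho2' k Q = some u → u = pre (P ++ Q) v := by
    intro k hk P Q v u hP _ h1 h2
    have := hex2 k hk P Q 1 v u hP h1 h2
    rw [mul_one] at this
    exact this
  have hgap : ∀ P Q : List α, g.Wo P → g.Wo (P ++ Q) → Q ≠ [] →
      2 * g.p0 + 2 * g.N1 < Q.length := by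
    intro P Q h1 h2 h3
    have h4 := hgapW (P ++ Q) P.length (P ++ Q).length (by
      rw [List.length_append]; have := List.length_pos_of_ne_nil h3; omega) le_rfl
      (by rw [List.take_left]; exact h1) (by rw [List.take_length]; exact h2)
    rw [List.length_append] at h4
    change 2 * p0 + 2 * N1 < Q.length
    omega
  have hsp : ∀ k k' l l', k < K → k' < K → l < K → l' < K → k' ≠ k → l' ≠ l →
      c k + c l' < c l + c k' + 2 * g.N1 → c l + c k' < c k + c l' + 2 * g.N1 → k = l := by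
    intro k k' l l' hk hk' hl hl' hne _ h1 h2
    refine (hcg k k' l l' hk hk' hl hl' (Ne.symm hne) ?_).1
    have h1' : c k + c l' < c l + c k' + 2 * N1 := h1
    have h2' : c l + c k' < c k + c l' + 2 * N1 := h2
    rw [abs_le]
    constructor <;> omega
  have hthin : ∀ τ, g.z ≤ τ + g.p0 → ∀ J : Finset ℕ, (∀ k ∈ J, k < K ∧
      ∃ k', k' < K ∧ k' ≠ k ∧ BadT (τ + c k' - c k - g.p0)) → J.card ≤ C0 := by
    intro τ hτ J hJ
    refine (Finset.card_le_card ?_).trans ((hcthin ((τ : ℤ) - p0)).trans (by omega))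
    intro k hk
    obtain ⟨h1, k', h2, h3, h4⟩ := hJ k hk
    rw [Finset.mem_filter, Finset.mem_range]
    refine ⟨h1, k', h2, h3, ?_⟩
    have h5 : z ≤ τ + p0 := hτ
    have h6 := hcp k h1
    have e : ((τ + c k' - c k - p0 : ℕ) : ℤ) = (τ : ℤ) - p0 + c k' - c k := by omega
    have h7 : BT Ms Gam M m A (τ + c k' - c k - p0) := h4
    unfold BT at h7
    rw [e] at h7
    exact h7
  have hkey : ∀ X ∈ XX Wo z, ∀ Y ∈ XX Wo z,
      X.take (z + N1 + p0 + Ac) = Y.take (z + N1 + p0 + Ac) →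
      ((X.drop (z + N1 + p0 + Ac)).map f).prod = ((Y.drop (z + N1 + p0 + Ac)).map f).prod →
      X.length % (M * Gam ^ m) = Y.length % (M * Gam ^ m) →
      (∀ x, act x ((X.map f).prod) + ν X = act x ((Y.map f).prod) + ν Y) ∧
        (g.BadX BadT X → g.BadX BadT Y) := by
    intro X hX Y hY h1 h2 h3
    have hXz : z ≤ X.length := hX.1
    have hYz : z ≤ Y.length := hY.1
    have tk : ∀ t, t ≤ z + N1 + p0 + Ac → X.take t = Y.take t := by
      intro t ht
      have e : ∀ Z : List α, Z.take t = (Z.take (z + N1 + p0 + Ac)).take t := fun Z => by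
        rw [List.take_take, min_eq_left ht]
      rw [e X, e Y, h1]
    have hfac : ∀ Z : List α, z ≤ Z.length → ∀ j, j ≤ z →
        Z.drop j = (Z.take (z + N1 + p0 + Ac)).drop j ++ Z.drop (z + N1 + p0 + Ac) := by
      intro Z hZ j hj
      conv_lhs => rw [← List.take_append_drop (z + N1 + p0 + Ac) Z]
      exact List.drop_append_of_le_length (by rw [List.length_take]; omega)
    have hφd : ∀ j, j ≤ z → φ (X.drop j) = φ (Y.drop j) := by
      intro j hj
      rw [hfac X hXz j hj, hfac Y hYz j hj, hφ, hφ, h1]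
      congr 1
    have hlen : X.length ≡ Y.length [MOD M * Gam ^ m] := h3
    have hlen' : X.length - p0 ≡ Y.length - p0 [MOD M * Gam ^ m] := by
      refine Nat.ModEq.add_right_cancel' p0 ?_
      rw [Nat.sub_add_cancel (by omega), Nat.sub_add_cancel (by omega)]
      exact hlen
    have hnuX : nu (X.drop p0) = nu (Y.drop p0) := by
      refine hnu (X.drop p0) (Y.drop p0) ?_ ?_ ?_ ?_ (hφd p0 (by omega))
      · rw [List.length_drop]; change Ac ≤ _; omega
      · rw [List.length_drop]; change Ac ≤ _; omega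
      · change (X.drop p0).take Ac = (Y.drop p0).take Ac
        rw [List.take_drop, List.take_drop, tk _ (by omega)]
      · rw [List.length_drop, List.length_drop]; exact hlen'
    refine ⟨fun x => ?_, ?_⟩
    · have e1 : (X.map f).prod = (Y.map f).prod := by
        have := hφd 0 (Nat.zero_le _)
        rwa [List.drop_zero, List.drop_zero] at this
      have e2 : ν X = ν Y := by
        change act (nu2 (X.take p0) 1) (φ (X.drop p0)) + nu (X.drop p0) =
          act (nu2 (Y.take p0) 1) (φ (Y.drop p0)) + nu (Y.drop p0)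
        rw [tk p0 (by omega), hφd p0 (by omega), hnuX]
      rw [e1, e2]
    · rintro (⟨t, ht, hW, ht1, ht2⟩ | hB)
      · left
        have ht2' : t < z + N1 := ht2
        refine ⟨t, ?_, ?_, ht1, ht2⟩
        · have h5 := congrArg List.length (tk t (by omega))
          rw [List.length_take, List.length_take] at h5
          omega
        · rw [← tk t (by omega)]; exact hW
      · right
        exact bt_period hqM hlen' hB
  refine Crest.Agent.R320.Top5_120.top5 act hadd hone hmul hfaith f ν (XX Wo z)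
    {X | X ∈ XX Wo z ∧ g.BadX BadT X} (XX_pcode (by omega)) (fun X hX => hX.1)
    (fun v => {P | g.LP1 pre lam v P}) (fun v => {P | Geo.LP2 K c lam2 v P}) ?_ ?_ ?_ ?_ ?_ ?_ ?_ s
  · intro v
    refine (List.finite_length_le α (p0 + N1)).subset ?_
    rintro P ⟨h1, h2⟩
    have h3 := hlen1 _ _ h2
    have h4 : P.length - p0 ≤ N1 := by
      have h5 : (P.drop p0).length ≤ N1 := h3
      rwa [List.length_drop] at h5
    change P.length ≤ p0 + N1
    omega
  · intro v
    refine (List.finite_length_le α p0).subset ?_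
    rintro P ⟨k, hk, hP, -⟩
    change P.length ≤ p0
    rw [hP]; exact hcp k hk
  · -- hCT
    intro x y
    refine HL_blocks f (z := z) (z + N1 + p0 + Ac) (M * Gam ^ m) (Nat.mul_pos hMpos (pow_pos hGpos m))
      hLW hBc _ (fun X hX => hX.1) ?_
    intro X hX Y hY h1 h2 h3 hXL
    exact ⟨hY, ((hkey X hX Y hY h1 h2 h3).1 x).symm.trans hXL.2⟩
  · -- hBT
    intro x y
    refine HL_blocks f (z := z) (z + N1 + p0 + Ac) (M * Gam ^ m) (Nat.mul_pos hMpos (pow_pos hGpos m))
      hLW hBc _ (fun X hX => hX.1.1) ?_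
    intro X hX Y hY h1 h2 h3 hXL
    exact ⟨⟨hY, (hkey X hX Y hY h1 h2 h3).2 hXL.1.2⟩,
      ((hkey X hX Y hY h1 h2 h3).1 x).symm.trans hXL.2⟩
  · intro t
    exact HL_tail_prod f hLW hBc t
  · -- hcc1
    intro X hX hXB v
    have hE : ¬ g.E X := fun h => hXB ⟨hX, Or.inl h⟩
    have hBT : ¬ BadT (X.length - p0) := fun h => hXB ⟨hX, Or.inr h⟩
    have hXz : z ≤ X.length := hX.1
    obtain ⟨P, Q, b, hPQ, hP, hQ⟩ := g.complete1 pre hlen1 (rho := rho) hX hE (by
      intro u
      have hY : (X.drop g.p0).length = X.length - p0 := by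
        change (X.drop p0).length = X.length - p0
        rw [List.length_drop]
      obtain ⟨P, Q, h1, h2, h3⟩ := hcomp (X.drop g.p0) (by rw [hY]; change 2 * A m ≤ _; omega)
        (by rw [hY]; change M ≤ _; omega)
        (by
          intro q hq hd
          rw [hY] at hd
          exact hBT (Or.inl ⟨q, hq, by exact_mod_cast hd⟩))
        (by
          intro hb
          rw [hY] at hb
          exact hBT (bt_of_badG (by change A m ≤ _; omega) hGpos hb)) u
      exact ⟨P, Q, h1.symm, h2, h3⟩) v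
    refine ⟨P, Q, hPQ.symm, hP, fun x P' hP' => ?_⟩
    obtain ⟨h1, h2⟩ := g.sound1 pre post hlen1 hexp hP' hQ
    obtain ⟨h3, h4⟩ := g.sound1 pre post hlen1 hexp hP hQ
    refine ⟨h1, ?_⟩
    rw [← hT, h2, ← hT, hPQ, h4]
  · -- hcc2
    intro X hX Y hY v
    have hXz : z ≤ X.length := hX.1.1
    obtain ⟨P, Q, b, hPQ, hP, hQ⟩ := g.complete2 pre post (lam2 := lam2) (rho2 := rho2') (C0 := C0)
      hcp hgap hsp hthin hX.1 hY.1 v (by
        have hl : (X.take g.p0).length = p0 := by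
          change (X.take p0).length = p0
          rw [List.length_take]; omega
        obtain ⟨I, hI, hI2⟩ := hco2 (X.take g.p0) 1 v (fun k hk => by rw [hl]; exact hcp k hk)
        refine ⟨I, hI, fun k hk => ?_⟩
        obtain ⟨h1, h2, h3⟩ := hI2 k hk
        refine ⟨h1, ?_, h3⟩
        rw [List.take_take, min_eq_left (hcp k h1)] at h2
        exact h2)
    have hb : g.T pre post (g.T pre post v X) Y = b := by
      obtain ⟨X2, h1, h2, h3⟩ := g.sound2 pre post hcp hex2' (R := []) (R' := Y) hX.1 hX.2 hP hQ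
        (by rw [List.append_nil, hPQ])
      rw [hPQ] at h2
      rw [← List.append_cancel_left h2] at h3
      exact h3
    refine ⟨P, Q, hPQ, hP, fun x P' hP' => ?_⟩
    obtain ⟨k', hk', hPl, hPv⟩ := hP'
    obtain ⟨k, hk, l, hl, hu, hxx, -⟩ := id hQ
    have hend : ∃ l', g.CEnd Q P'.length l' := by
      rw [hPl]
      by_cases hkk : k' = k
      · subst hkk; exact ⟨l, hl⟩
      · obtain ⟨l', h1, -⟩ := hu k' hk' hkk
        exact ⟨l', h1⟩
    obtain ⟨l', hl'⟩ := hend
    have hXX' : g.XX (P' ++ Q.take l') := g.xx_of_cend (by rw [hPl]; exact hcp k' hk') hl'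
    have hcat : P' ++ Q = (P' ++ Q.take l') ++ Q.drop l' := by
      rw [List.append_assoc, List.take_append_drop]
    by_cases hbad : g.BadX BadT (P' ++ Q.take l')
    · left
      obtain ⟨X2, h1, h2, h3⟩ := g.sound2 pre post hcp hex2' (R := []) (R' := Q.drop l') hXX' hbad
        ⟨k', hk', hPl, hPv⟩ hQ (by rw [List.append_nil, hcat])
      refine ⟨P' ++ Q.take l', ⟨hXX', hbad⟩, X2, h1, h2.symm, ?_⟩
      rw [← hT, ← hT, h3, ← hT, ← hT, hb]
    · right
      refine ⟨P' ++ Q.take l', hXX', fun h => hbad h.2, ?_⟩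
      rw [hcat]
      exact List.prefix_append _ _

end Crest.Agent.R320.Fin_81
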