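import Crest.Agent.R320.SemTop_727
import Crest.Agent.R320.Last_749
import Crest.Agent.R320.G1_852
import Crest.Agent.R320.Sp_125
import Crest.Agent.R320.RegCongr_253
import Crest.Agent.R320.Spoil_814

/-!
Row 320: the join (helper814): constants and assembly over `JointSem_814`, `Spoil_814`,
`SemTop_727`, `Last_749`, `G1_852`, `Sp_125`, `ExactR_237`, `WallU_228`.
-/

set_option autoImplicit false

namespace Crest.Agent.R320.Fin_814

open Crest.RegLang Crest.Agent.R320.Hk_851 Crest.Agent.R320.Blk467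
open Crest.Agent.R320.JointSem_814

theorem fin (α : Type) [Finite α] (S : Type) [Monoid S] [Finite S] (φ : α → S) (s : S) :
    HL 3 ({w | (w.map φ).prod = s} : Language α) := by
  classical
  haveI := Fintype.ofFinite S
  obtain ⟨act, hadd, hone, hmul, hfaith⟩ := exists_module S
  obtain ⟨m, r, hG⟩ := Crest.Agent.R320.G1_852.gadget (S := S) (V := S → ZMod 2) act
  obtain ⟨K, hK⟩ := Crest.Agent.R320.ExactR_237.exact_gadget α S (S → ZMod 2) φ act
    (2 * (r + m) + 2)
  obtain ⟨Ms, M, hcard, hMs, hM, hG⟩ := hG (4 ^ K)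
  obtain ⟨b, hb⟩ : ∃ b, b = M * (2 ^ (K + 3) + 3) + 1 := ⟨_, rfl⟩
  have hbc : Nat.Coprime b M := by
    rw [hb]
    simp
  have hb0 : 0 < b := by rw [hb]; omega
  have hbig : 2 ^ (K + 3) * M + 2 * M < b := by
    rw [hb]
    nlinarith [Nat.zero_le (2 ^ (K + 3))]
  obtain ⟨lam, rho, nu1, hlam, hsound, hcompl, hreg⟩ := hG b hb0 hbc α φ
  obtain ⟨N, hN⟩ : ∃ N, N = b ^ m := ⟨_, rfl⟩
  rw [← hN] at hlam hreg
  obtain ⟨c, hc1, hc2, hc3⟩ := Crest.Agent.R320.Sp_125.spoil Ms M m b K N hM
    (fun k hk => ⟨(hMs k hk).1, (hMs k hk).2.2⟩) hbig hbc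
  obtain ⟨lam2, rho2, nuS, hex, hco⟩ := hK c (fun i j hij _ => by
    have := hc1 i j hij
    omega)
  obtain ⟨p0, hp0⟩ : ∃ p0, p0 = c K := ⟨_, rfl⟩
  have hcp : ∀ k < K, c k ≤ p0 := fun k hk => by
    have := hc1 k K hk
    omega
  obtain ⟨n, cc, P, SS, hn, hP, hloc, hgap, hfree, hpieces, hfew⟩ :=
    Crest.Agent.R320.WallU_228.walls_full (α := α) (2 * (N + p0))
  have hW : Walls n (2 * (N + p0)) (Crest.Agent.R320.WallU_228.Wo n SS) := by
    refine ⟨hloc, fun Q h => h.1, ?_⟩
    intro X s t h1 h2 h3 h4 h5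
    have hl : (X.take t).length = t := by rw [List.length_take]; omega
    refine hgap (X.take t) (t - s) h5 (by omega) (by omega) ?_
    rw [hl, List.take_take]
    have e : min (t - (t - s)) t = s := by omega
    rw [e]
    exact h4
  obtain ⟨z, hz⟩ : ∃ z, z = 3 * p0 + N + n + 1 := ⟨_, rfl⟩
  have hspoil : ∀ U : List α, ∃ J : Finset ℕ, J.card ≤ 1 + 2 * (r + m) ∧
      ∀ k < K, Spoiled (Crest.Agent.R320.WallU_228.Wo n SS) z p0 N K c
        (Crest.Agent.R320.Sp_125.Bad Ms M m b) U k → k ∈ J := by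
    refine spoil hW le_rfl (T0 := p0) (by omega) hcp ?_ ?_
    · intro a b a' b' ha hb ha' hb' h1 h2 h3 h4
      by_contra hne
      rcases hc2 a b a' b' h1 h2 (fun h => hne (congrArg Prod.fst h)) with h5 | h5 <;> omega
    · intro T hT
      refine ⟨(((Finset.range K) ×ˢ (Finset.range K)).filter
          (fun p => p.1 ≠ p.2 ∧ Crest.Agent.R320.Sp_125.Bad Ms M m b (T + c p.2 - c p.1))).image
            Prod.fst, ?_, ?_⟩
      · refine Finset.card_image_le.trans ?_
        have := hc3 T (fun l hl => (hcp l hl).trans hT)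
        refine le_trans (le_of_eq ?_) (this.trans (by omega))
        congr
      · intro a ha b' hb' hne hbad
        refine Finset.mem_image.2 ⟨(a, b'), ?_, rfl⟩
        rw [Finset.mem_filter, Finset.mem_product, Finset.mem_range, Finset.mem_range]
        exact ⟨⟨ha, hb'⟩, hne, hbad⟩
  let φ' : List α → S := fun l => (l.map φ).prod
  let nu2 : List α → (S → ZMod 2) := fun u => nuS u 1
  let D : Crest.Agent.R320.SemTop_727.Sch α (S → ZMod 2) :=
    { XX := XX (Crest.Agent.R320.WallU_228.Wo n SS) z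
      T := T p0 φ' act nu1 nu2
      L1 := L1 p0 φ' act nu2 lam
      L2 := L2 K c lam2 }
  have hXX : ∀ X, X ∈ D.XX ↔ X ∈ Crest.Agent.R320.Last_749.XX n SS z := by
    intro X
    constructor
    · rintro ⟨h1, h2, h3⟩; exact ⟨h2, h1, h3⟩
    · rintro ⟨h1, h2, h3⟩; exact ⟨h2, h1, h3⟩
  have hT : ∀ v X, D.T v X = act v (X.map φ).prod +
      (act (nu2 (X.take p0)) ((X.drop p0).map φ).prod + nu1 (X.drop p0)) := by
    intro v X
    change act (act v ((X.take p0).map φ).prod + nu2 (X.take p0)) ((X.drop p0).map φ).prod +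
      nu1 (X.drop p0) = _
    rw [hadd, ← hmul, ← List.prod_append, ← List.map_append, List.take_append_drop, add_assoc]
  have hlam' : ∀ p v, lam p = some v → p.length ≤ N := fun p v h => (hlam p v h).le
  have hreg1 : ∀ v, Language.IsRegular ({Y | nu1 Y = v} : Language α) := by
    intro v
    refine Crest.Agent.R320.RegCongr_253.regular_of_congr φ N (M * N)
      (Nat.mul_pos hM (by rw [hN]; exact Nat.pow_pos hb0)) _ ?_
    intro q q' _ _ h1 h2 h3 h4
    have h5 := (hreg q q' h1 h3 h2).2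
    exact h5.symm.trans h4
  have hcode : PCode D.XX := by
    refine ⟨?_, ?_⟩
    · intro h
      have h2 := h.2.1
      simp at h2
      omega
    · intro X hX Y hY h
      exact XX_code hX hY h
  have main := Crest.Agent.R320.SemTop_727.top (k := 1) act hadd hone hmul hfaith φ
    (fun X => act (nu2 (X.take p0)) ((X.drop p0).map φ).prod + nu1 (X.drop p0)) D hT hcode
    ?_ ?_ ?_ ?_ ?_ s
  · exact main
  · -- fibres
    intro x y
    refine (Crest.Agent.R320.Last_749.hfib hfew z act φ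
      (fun X => act (nu2 (X.take p0)) ((X.drop p0).map φ).prod + nu1 (X.drop p0))
      (fun v => Crest.Agent.R320.Last_749.reg_nu act φ p0 nu2 nu1 hreg1 v) x y).congr fun w => ?_
    constructor
    · rintro ⟨h1, h2⟩
      refine ⟨(hXX w).1 h1, ?_⟩
      rw [hT] at h2
      exact h2
    · rintro ⟨h1, h2⟩
      refine ⟨(hXX w).2 h1, ?_⟩
      rw [hT]
      exact h2
  · intro x
    refine (List.finite_length_le α (p0 + N)).subset ?_
    rintro Q ⟨h1, h2⟩
    have := hlam' _ _ h2
    rw [List.length_drop] at this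
    show Q.length ≤ p0 + N
    omega
  · intro x
    refine (List.finite_length_le α p0).subset ?_
    rintro Q ⟨k, hk, h1, h2⟩
    show Q.length ≤ p0
    rw [h1]
    exact hcp k hk
  · -- completeness of scheme 2
    intro X1 hX1 X2 hX2 x
    have hX2' : X2 ∈ Bad (Crest.Agent.R320.WallU_228.Wo n SS) z (T p0 φ' act nu1 nu2)
        (L1 p0 φ' act nu2 lam) := hX2
    exact compl2 (rho := rho) (rho2 := fun k Q => rho2 k Q 1)
      (BadT := Crest.Agent.R320.Sp_125.Bad Ms M m b) (N0 := 0) (R := 2 * (r + m) + 2) hW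
      (by omega) (by omega) hlam'
      (fun p q v r' h1 h2 => hsound p q v r' h1 h2)
      (fun u _ hu v => by
        have h1 : ∀ k ∈ Ms, ¬ k ∣ u.length := fun k hk hd => hu (Or.inl ⟨k, hk, hd⟩)
        have h2 : ∀ j < m, M ≤ u.length / b ^ j % b ∧ u.length / b ^ j % b + M < b := by
          intro j hj
          by_contra h3
          apply hu
          refine Or.inr ⟨j, hj, fun h4 => h3 ⟨h4.1, by omega⟩⟩
        obtain ⟨P', Q', e, h3, v', h4⟩ := hcompl u h1 h2 v
        exact ⟨P', Q', e.symm, h3, by rw [h4]; rfl⟩)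
      hcp
      (fun k hk P' Q' v b' h1 h2 h3 => by
        have := hex k hk P' Q' 1 v b' h1 h2 h3
        rw [mul_one] at this
        exact this)
      (fun u v hu => hco u 1 v hu)
      (fun U _ => by
        obtain ⟨J, h1, h2⟩ := hspoil U
        exact ⟨J, by omega, h2⟩)
      hX1.1 hX2' x
  · -- the remainder
    intro s
    refine ((Crest.Agent.R320.Last_749.HL_rest hfew z φ s).mono (by omega)).congr fun w => ?_
    constructor
    · rintro ⟨h1, h2⟩
      exact ⟨fun X hX => h1 X ((hXX X).2 hX), h2⟩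
    · rintro ⟨h1, h2⟩
      exact ⟨fun X hX => h1 X ((hXX X).1 hX), h2⟩

end Crest.Agent.R320.Fin_814
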