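import Crest.Agent.R320.Joint_819
import Crest.Agent.R320.Grid_819
import Crest.Agent.R320.ExactR_237
import Crest.Agent.R320.GridRuler_314
import Crest.Agent.R320.LWallAll_922
import Crest.Agent.R320.Fib_854
import Crest.Agent.R320.LetMap_922

/-!
# Row 320: the closed assembly (helper819)
-/

set_option autoImplicit false
set_option linter.unusedVariables false

namespace Crest.Agent.R320.Fin_819

open Crest.Agent.R320 Crest.RegLang Crest.Agent.R320.Hk_851 Crest.Agent.R320.Core1_922 Finset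
open Crest.Agent.R320.Grid_899

/-- walls on all words with a positive window -/
theorem walls (α : Type) [Finite α] (W : ℕ) (hW : 0 < W) :
    ∃ (n B : ℕ) (Wo : List α → Prop), 0 < n ∧ LW n Wo ∧
      (∀ (X : List α) (s t : ℕ), s < t → t ≤ X.length → Wo (X.take s) → Wo (X.take t) →
        W < t - s) ∧
      (∀ X : List α, (∀ t, t < X.length → ¬ Wo (X.take t)) → ∃ (u x : List α) (k : ℕ)
        (v : List α), u.length ≤ B ∧ x.length ≤ B ∧ v.length ≤ B ∧
        X = u ++ (List.replicate k x).flatten ++ v) := by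
  obtain ⟨n, G, B, Wo, h1, h2, -, -, h5⟩ := LWallAll_922.walls_all_left α W hW
  rcases Nat.eq_zero_or_pos n with rfl | hn
  · refine ⟨1, B + W, fun _ => False, one_pos, ⟨by simp, by simp⟩, by simp, ?_⟩
    intro X _
    obtain ⟨u, x, v, k, a, b, c, d⟩ := h5 X (fun t ht hw => by
      have h0 : Wo [] := (h1.app (X.take t) [] (by simp)).1 (by simpa using hw)
      have hall : ∀ P, Wo P := fun P => by simpa using (h1.app P [] (by simp)).2 h0
      have := h2 X 0 1 (by omega) (by omega) (hall _) (hall _)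
      omega)
    exact ⟨u, x, k, v, by omega, by omega, by omega, d⟩
  · exact ⟨n, B + W, Wo, hn, h1, h2, fun X hX => by
      obtain ⟨u, x, v, k, a, b, c, d⟩ := h5 X hX
      exact ⟨u, x, k, v, by omega, by omega, by omega, d⟩⟩

theorem exists_moduli (k B : ℕ) : ∃ q : Fin k → ℕ, (∀ j, Odd (q j)) ∧
    Pairwise (fun i j => Nat.Coprime (q i) (q j)) ∧ (∀ j, B < q j) := by
  have hp : ∀ n, (Nat.nth Nat.Prime n).Prime := fun n => Nat.prime_nth_prime n
  refine ⟨fun j => Nat.nth Nat.Prime (B + 1 + j), ?_, ?_, ?_⟩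
  · intro j
    have h1 := Nat.add_two_le_nth_prime (B + 1 + j)
    exact (hp _).odd_of_ne_two (by omega)
  · intro i j hij
    refine (Nat.coprime_primes (hp _) (hp _)).2 ?_
    intro h
    have := (Nat.nth_strictMono Nat.infinite_setOf_prime).injective h
    exact hij (Fin.ext (by omega))
  · intro j
    have h1 := Nat.add_two_le_nth_prime (B + 1 + j)
    show B < Nat.nth Nat.Prime (B + 1 + j)
    omega

theorem badT_congr {Ms : Finset ℕ} {m : ℕ} {G c : ℕ → ℕ} {A : ℕ → ℤ} {M : ℕ}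
    (h1 : ∀ q ∈ Ms, q ∣ M) (h2 : ∀ i, i ≤ m → G i ∣ M) {T T' : ℕ} (h : T % M = T' % M)
    (hb : GridRuler314.BadT Ms m G c A (T : ℤ)) : GridRuler314.BadT Ms m G c A (T' : ℤ) := by
  have hd : (M : ℤ) ∣ (T' : ℤ) - T := (Nat.modEq_iff_dvd).1 h
  rcases hb with ⟨q, hq, hd1⟩ | ⟨i, a, b, t, ht⟩
  · left
    refine ⟨q, hq, ?_⟩
    have h3 : (q : ℤ) ∣ (M : ℤ) := Int.natCast_dvd_natCast.2 (h1 q hq)
    have h4 := dvd_add hd1 (h3.trans hd)
    have h5 : (T : ℤ) + (T' - T) = T' := by ring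
    rwa [h5] at h4
  · right
    obtain ⟨s, hs⟩ := (Int.natCast_dvd_natCast.2 (h2 i b)).trans hd
    refine ⟨i, a, b, t + s, ?_⟩
    have : (T' : ℤ) - A i - (t + s) * G i = T - A i - t * G i := by linarith
    rw [this]; exact ht

theorem clean_of_not {Ms : Finset ℕ} {m : ℕ} {G c A : ℕ → ℕ} {T : ℕ}
    (hb : ¬ GridRuler314.BadT Ms m G c (fun i => (A i : ℤ)) (T : ℤ)) {j : ℕ} (h1 : 1 ≤ j)
    (hj : j ≤ m) (hA : A j ≤ T) (hG : 0 < G j) :
    c (j - 1) ≤ (T - A j) % G j ∧ (T - A j) % G j + c (j - 1) ≤ G j := by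
  have hdm : G j * ((T - A j) / G j) + (T - A j) % G j = T - A j := Nat.div_add_mod _ _
  have hlt : (T - A j) % G j < G j := Nat.mod_lt _ hG
  have hcast : (T : ℤ) - A j = ((T - A j : ℕ) : ℤ) := by
    rw [Nat.cast_sub hA]
  have hdm' : (G j : ℤ) * (((T - A j) / G j : ℕ) : ℤ) + (((T - A j) % G j : ℕ) : ℤ) =
      (T : ℤ) - A j := by
    rw [hcast]; exact_mod_cast hdm
  constructor
  · by_contra hc
    push Not at hc
    apply hb
    right
    refine ⟨j, h1, hj, (((T - A j) / G j : ℕ) : ℤ), ?_⟩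
    have : (T : ℤ) - A j - (((T - A j) / G j : ℕ) : ℤ) * G j = (((T - A j) % G j : ℕ) : ℤ) := by
      linarith
    rw [this, abs_of_nonneg (by positivity)]
    exact_mod_cast hc.le
  · by_contra hc
    push Not at hc
    apply hb
    right
    refine ⟨j, h1, hj, (((T - A j) / G j : ℕ) : ℤ) + 1, ?_⟩
    have : (T : ℤ) - A j - ((((T - A j) / G j : ℕ) : ℤ) + 1) * G j =
        (((T - A j) % G j : ℕ) : ℤ) - G j := by
      linarith
    rw [this, abs_le]
    have h2 : (G j : ℤ) < (((T - A j) % G j : ℕ) : ℤ) + c (j - 1) := by exact_mod_cast hc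
    have h3 : (((T - A j) % G j : ℕ) : ℤ) < G j := by exact_mod_cast hlt
    have h4 : (0 : ℤ) ≤ c (j - 1) := by positivity
    constructor <;> linarith

theorem exists_act (S : Type) [Monoid S] [Finite S] : ∃ (V : Type) (_ : AddCommGroup V)
    (_ : Finite V) (act : V → S → V), (∀ a b s, act (a + b) s = act a s + act b s) ∧
    (∀ v, act v 1 = v) ∧ (∀ v s t, act v (s * t) = act (act v s) t) ∧
    (∀ s t, (∀ v, act v s = act v t) → s = t) := by
  classical
  refine ⟨S → ZMod 2, inferInstance, inferInstance, fun v s t => v (s * t), ?_, ?_, ?_, ?_⟩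
  · intro a b s; rfl
  · intro v; funext t; simp
  · intro v s t; funext r; simp [mul_assoc]
  · intro s t h
    have h1 := congrFun (h (fun r => if r = s then 1 else 0)) 1
    simp only [mul_one, if_true] at h1
    by_contra hne
    rw [if_neg (fun e => hne e.symm)] at h1
    exact one_ne_zero h1

theorem hbig (K m Ms : ℕ) (i : ℕ) (h1 : 1 ≤ i) (hi : i ≤ m) :
    2 ^ (K + 4) * ∑ j ∈ range i, Ms * G (2 ^ (K + 4) * m * Ms) j ≤
      G (2 ^ (K + 4) * m * Ms) i := by
  set κ := 2 ^ (K + 4) * m * Ms with hκ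
  have h2 : ∑ j ∈ range i, Ms * G κ j ≤ i * (Ms * G κ (i - 1)) := by
    have := Finset.sum_le_card_nsmul (range i) (fun j => Ms * G κ j) (Ms * G κ (i - 1))
      (fun j hj => Nat.mul_le_mul_left _ (Nat.le_of_dvd (G_pos _)
        (G_dvd (by have := Finset.mem_range.1 hj; omega))))
    simpa using this
  have h3 : κ ≤ 2 ^ κ := Nat.lt_two_pow_self.le
  have h4 : G κ i = 2 ^ κ * G κ (i - 1) := by
    unfold G
    rw [← pow_add]
    congr 1
    obtain ⟨i', rfl⟩ := Nat.exists_eq_add_of_le h1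
    simp only [Nat.add_sub_cancel_left]
    ring
  rw [h4]
  calc 2 ^ (K + 4) * ∑ j ∈ range i, Ms * G κ j ≤ 2 ^ (K + 4) * (i * (Ms * G κ (i - 1))) :=
        Nat.mul_le_mul_left _ h2
    _ ≤ 2 ^ (K + 4) * (m * (Ms * G κ (i - 1))) :=
        Nat.mul_le_mul_left _ (Nat.mul_le_mul_right _ hi)
    _ = κ * G κ (i - 1) := by rw [hκ]; ring
    _ ≤ 2 ^ κ * G κ (i - 1) := Nat.mul_le_mul_right _ h3

theorem key_comp {α : Type} {β γ : Type} {g : List α → β} (h : Fib_854.Key g) (f : β → γ) :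
    Fib_854.Key (fun X => f (g X)) := by
  obtain ⟨K, M, S, i1, i2, fm, hM, hk⟩ := h
  exact ⟨K, M, S, i1, i2, fm, hM, fun X Y a b c d e => congrArg f (hk X Y a b c d e)⟩

theorem EE_congr {α : Type} {Wo : List α → Prop} {z N1 K' : ℕ} (hK : z + N1 ≤ K') {X Y : List α}
    (hY : K' ≤ Y.length) (h : X.take K' = Y.take K') (hE : Joint_819.EE Wo z N1 X) :
    Joint_819.EE Wo z N1 Y := by
  obtain ⟨t, h1, h2, h3, h4⟩ := hE
  refine ⟨t, by omega, h2, h3, ?_⟩
  have e : ∀ Z : List α, Z.take t = (Z.take K').take t := fun Z => by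
    rw [List.take_take, min_eq_left (by omega)]
  rw [e Y, ← h, ← e X]; exact h4

theorem main (α : Type) [Finite α] (S : Type) [Monoid S] [Finite S] (φ : α → S) (s : S) :
    HL 3 ({w | (w.map φ).prod = s} : Language α) := by
  classical
  obtain ⟨V, iV, fV, act, hadd, hone, hmul, hfaith⟩ := exists_act S
  haveI := Fintype.ofFinite S
  haveI := Fintype.ofFinite V
  obtain ⟨k, m, HG⟩ := Grid_819.grid_gadget_nu S V act
  obtain ⟨C0, hC0⟩ : ∃ C0, C0 = k + m := ⟨_, rfl⟩
  obtain ⟨K, HE⟩ := ExactR_237.exact_gadget α S V φ act (2 + 2 * C0)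
  obtain ⟨q, hqo, hqc, hqB⟩ := exists_moduli k (2 ^ (K + 1))
  obtain ⟨Ms, hMs⟩ : ∃ Ms, Ms = ∏ j, q j := ⟨_, rfl⟩
  have hMs0 : 0 < Ms := by rw [hMs]; exact Finset.prod_pos (fun j _ => (hqo j).pos)
  obtain ⟨κ, hκ⟩ : ∃ κ, κ = 2 ^ (K + 4) * m * Ms := ⟨_, rfl⟩
  obtain ⟨lam, rho, nu1, g1, -, g2, g3, g5⟩ := HG q hqo hqc κ α (fun w => (w.map φ).prod)
    (by intro u v; simp)
  rw [← hMs] at g1 g3 g5
  obtain ⟨N1, hN1⟩ : ∃ N1, N1 = Am Ms κ m + 1 := ⟨_, rfl⟩
  let Msf : Finset ℕ := Finset.univ.image q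
  have hMsf : Msf.card ≤ k := le_trans Finset.card_image_le (by simp)
  have hcop : Nat.Coprime (G κ m) (∏ q ∈ Msf, q) := by
    unfold G
    refine Nat.Coprime.pow_left _ (Nat.Coprime.prod_right fun x hx => ?_)
    obtain ⟨j, -, rfl⟩ := Finset.mem_image.1 hx
    exact Nat.coprime_two_left.2 (hqo j)
  obtain ⟨X, hX1, -, -, -, hcount⟩ := GridRuler314.grid_ruler (2 * N1) K m Msf (G κ)
    (fun j => Ms * G κ j) (fun i => Nat.mul_pos hMs0 (G_pos i)) (fun i => Dvd.intro_left _ rfl)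
    (fun i => G_dvd (Nat.le_succ i)) (G_pos m)
    (fun i h1 h2 => by rw [hκ]; exact hbig K m Ms i h1 h2) hcop
    (by
      intro x hx
      obtain ⟨j, -, rfl⟩ := Finset.mem_image.1 hx
      exact hqB j)
  obtain ⟨c, hcdef⟩ : ∃ c : ℕ → ℕ, c = fun a => 2 ^ a * X := ⟨_, rfl⟩
  have hxm : ∀ a, GridRuler314.xm X a = ((c a : ℕ) : ℤ) := fun a => by
    rw [hcdef]; simp [GridRuler314.xm]
  have hX0 : 0 < X := by omega
  have hc : ∀ i j, i < j → c i < c j := fun i j h => by
    rw [hcdef]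
    exact Nat.mul_lt_mul_of_pos_right (Nat.pow_lt_pow_right (by norm_num) h) hX0
  obtain ⟨p0, hp0def⟩ : ∃ p0, p0 = c K := ⟨_, rfl⟩
  have hp0 : ∀ k < K, c k ≤ p0 := fun k hk => by rw [hp0def]; exact (hc k K hk).le
  have hinj : ∀ i j, i < K → j < K → c i = c j → i = j := by
    intro i j _ _ h
    rcases lt_trichotomy i j with h1 | h1 | h1
    · have := hc i j h1; omega
    · exact h1
    · have := hc j i h1; omega
  let BT : ℕ → Prop := fun T => GridRuler314.BadT Msf m (G κ) (fun j => Ms * G κ j)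
    (fun i => (Am Ms κ i : ℤ)) (T : ℤ)
  obtain ⟨lam2, rho2', nu2', e1', e2'⟩ := HE c (fun i j h _ => hc i j h)
  let rho2 : ℕ → List α → Option V := fun k Q => rho2' k Q 1
  let nu2 : List α → V := fun u => nu2' u 1
  obtain ⟨W, hWdef⟩ : ∃ W, W = 2 * (p0 + N1) := ⟨_, rfl⟩
  obtain ⟨n, B, Wo, hn, hLW, hsep, hfew⟩ := walls α W (by omega)
  obtain ⟨K0, hK0⟩ : ∃ K0, K0 = 2 * Am Ms κ (m + 1) := ⟨_, rfl⟩
  obtain ⟨z, hz⟩ : ∃ z, z = 3 * p0 + N1 + n + K0 + 1 := ⟨_, rfl⟩
  have hr : ∀ i j k l, i < K → j < K → k < K → l < K → i ≠ j → k ≠ l →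
      c i + c l < c k + c j + 2 * N1 → c k + c j < c i + c l + 2 * N1 → i = k ∧ j = l := by
    intro i j k l _ _ _ _ hij hkl h1 h2
    apply GridRuler314.coef_zero hij
    have h3 := GridRuler314.xm_diff X i j k l
    rw [hxm, hxm, hxm, hxm] at h3
    by_contra hne
    set co : ℤ := ((2 : ℤ) ^ i - 2 ^ j) - (2 ^ k - 2 ^ l) with hco
    have h4 : (1 : ℤ) ≤ |co| := Int.one_le_abs hne
    have h5 : |co * (X : ℤ)| = |co| * X := by rw [abs_mul, Nat.abs_cast]
    have h6 : |co * (X : ℤ)| < X := by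
      rw [← h3, abs_lt]
      have a1 : (c i : ℤ) + c l < c k + c j + 2 * N1 := by exact_mod_cast h1
      have a2 : (c k : ℤ) + c j < c i + c l + 2 * N1 := by exact_mod_cast h2
      have a3 : (2 : ℤ) * N1 < X := by exact_mod_cast hX1
      constructor <;> linarith
    rw [h5] at h6
    have h7 : (0 : ℤ) ≤ X := by positivity
    nlinarith
  have hcnt : ∀ T, p0 ≤ T → ∀ D : Finset (ℕ × ℕ), (∀ p ∈ D, p.1 < K ∧ p.2 < K ∧ p.1 ≠ p.2 ∧
      BT (T + c p.2 - c p.1)) → D.card ≤ C0 := by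
    intro T hT D hD
    obtain ⟨P, hP, hP2⟩ := hcount (fun i => (Am Ms κ i : ℤ)) (T : ℤ)
    have hDP : D ⊆ P := by
      intro p hp
      obtain ⟨a1, a2, a3, a4⟩ := hD p hp
      refine hP2 p.1 p.2 a1 a2 a3 ?_
      have h1 := hp0 _ a1
      have e : (T : ℤ) - (GridRuler314.xm X p.1 - GridRuler314.xm X p.2) =
          ((T + c p.2 - c p.1 : ℕ) : ℤ) := by
        rw [hxm, hxm, Nat.cast_sub (by omega)]
        push_cast
        ring
      rw [e]; exact a4
    have := Finset.card_le_card hDP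
    omega
  have g3' : ∀ u : List α, K0 ≤ u.length → ¬ BT u.length → ∀ v, ∃ P Q, u = P ++ Q ∧
      lam P = some v ∧ (rho Q).isSome := by
    intro u hu hb
    refine g3 u (by omega) (fun j hd => hb (Or.inl ⟨q j,
      Finset.mem_image_of_mem q (Finset.mem_univ j), ?_⟩)) (fun j h1 hj => ?_)
    · exact Int.natCast_dvd_natCast.2 hd
    · have hA' : Am Ms κ j ≤ Am Ms κ (m + 1) := Am_mono (show j ≤ m + 1 by omega)
      have hA : Am Ms κ j ≤ u.length := by omega
      exact clean_of_not hb h1 hj hA (G_pos j)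
  let nu : List α → V := fun X => act (nu2 (X.take p0)) ((X.drop p0).map φ).prod +
    nu1 (X.drop p0)
  have hTT : ∀ v X, Joint_819.TT φ act p0 nu2 nu1 v X = act v (X.map φ).prod + nu X := by
    intro v X
    have : (X.map φ).prod = ((X.take p0).map φ).prod * ((X.drop p0).map φ).prod := by
      conv_lhs => rw [← List.take_append_drop p0 X]
      rw [List.map_append, List.prod_append]
    unfold Joint_819.TT
    rw [hadd, this, hmul, add_assoc]
  have hkey : ∀ x : V, Fib_854.Key (fun X : List α =>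
      ((Joint_819.EE Wo z N1 X ∨ BT (X.length - p0) : Prop), act x (X.map φ).prod + nu X)) := by
    intro x
    obtain ⟨K', hK'⟩ : ∃ K', K' = z + N1 + p0 + K0 := ⟨_, rfl⟩
    refine ⟨K', Ms * G κ m, S, inferInstance, inferInstance, φ, Nat.mul_pos hMs0 (G_pos m), ?_⟩
    intro X Y hX hY ht hl hp
    have hmod : X.length - p0 ≡ Y.length - p0 [MOD (Ms * G κ m)] := by
      apply Nat.ModEq.add_right_cancel' p0
      rw [Nat.sub_add_cancel (by omega), Nat.sub_add_cancel (by omega)]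
      exact hl
    obtain ⟨a1, a2⟩ := Fib_854.key_le φ (show p0 ≤ K' by omega) ht hp
    obtain ⟨-, a3⟩ := Fib_854.key_le φ (show 0 ≤ K' by omega) ht hp
    rw [List.drop_zero, List.drop_zero] at a3
    have a4 : nu1 (X.drop p0) = nu1 (Y.drop p0) := by
      refine g5 _ _ (by rw [List.length_drop]; omega) (by rw [List.length_drop]; omega) ?_ ?_ a2
      · have e : ∀ Z : List α, (Z.drop p0).take (Am Ms κ (m + 1)) =
            ((Z.take K').drop p0).take (Am Ms κ (m + 1)) := fun Z => by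
          rw [List.drop_take, List.take_take, min_eq_left (by omega)]
        rw [e X, e Y, ht]
      · rw [List.length_drop, List.length_drop]; exact hmod
    have a5 : Joint_819.EE Wo z N1 X ↔ Joint_819.EE Wo z N1 Y :=
      ⟨EE_congr (by omega) hY ht, EE_congr (by omega) hX ht.symm⟩
    have hd1 : ∀ x ∈ Msf, x ∣ Ms * G κ m := by
      intro x hx
      obtain ⟨j, -, rfl⟩ := Finset.mem_image.1 hx
      rw [hMs]
      exact Dvd.dvd.mul_right (Finset.dvd_prod_of_mem q (Finset.mem_univ j)) _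
    have hd2 : ∀ i, i ≤ m → G κ i ∣ Ms * G κ m := fun i hi => Dvd.dvd.mul_left (G_dvd hi) _
    have a6 : BT (X.length - p0) ↔ BT (Y.length - p0) :=
      ⟨badT_congr hd1 hd2 hmod, badT_congr hd1 hd2 hmod.symm⟩
    refine Prod.ext (propext (or_congr a5 a6)) ?_
    show act x (X.map φ).prod + (act (nu2 (X.take p0)) ((X.drop p0).map φ).prod +
      nu1 (X.drop p0)) = act x (Y.map φ).prod + (act (nu2 (Y.take p0)) ((Y.drop p0).map φ).prod +
      nu1 (Y.drop p0))
    rw [a1, a2, a3, a4]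
  have hCT : ∀ x y, HL 1 ({X | X ∈ Joint_819.XX Wo z ∧ act x (X.map φ).prod + nu X = y} :
      Language α) := fun x y =>
    Fib_854.fib hLW.app hLW.len hn (by omega) hfew _ (key_comp (hkey x) Prod.snd) y
  have hBT : ∀ x y, HL 1 ({X | X ∈ Joint_819.BB Wo z N1 p0 BT ∧
      act x (X.map φ).prod + nu X = y} : Language α) := by
    intro x y
    refine (Fib_854.fib hLW.app hLW.len hn (show n ≤ z by omega) hfew _ (hkey x)
      (True, y)).congr fun w => ?_
    constructor
    · rintro ⟨⟨h1, h2⟩, h3⟩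
      exact ⟨h1, Prod.ext (eq_true h2) h3⟩
    · rintro ⟨h1, h2⟩
      obtain ⟨h3, h4⟩ := Prod.ext_iff.1 h2
      exact ⟨⟨h1, of_eq_true h3⟩, h4⟩
  have htail : ∀ s, HL 1 ({w | (∀ X ∈ Joint_819.XX Wo z, ¬ X <+: w) ∧ (w.map φ).prod = s} :
      Language α) := fun s => Fib_854.tail φ hLW.app hLW.len hn (by omega) hfew s
  have hf1 : ∀ v, (Joint_819.L1 φ act p0 nu2 lam v).Finite := fun v => by
    refine (List.finite_length_le α (p0 + N1)).subset ?_
    rintro P ⟨h1, h2⟩
    have := (g1 _ _ h2).1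
    rw [List.length_drop] at this
    show P.length ≤ p0 + N1
    omega
  have hf2 : ∀ v, (Joint_819.L2 K c lam2 v).Finite := fun v => by
    refine (List.finite_length_le α p0).subset ?_
    rintro P ⟨k, h1, h2, h3⟩
    have := hp0 k h1
    show P.length ≤ p0
    omega
  have hcc1 := Joint_819.hcc1 φ act hLW (z := z) (p0 := p0) (N1 := N1) (K0 := K0) (by omega)
    (by omega) BT lam rho nu1 nu2 (fun P v h => by have := (g1 P v h).1; omega) g2 g3'
  have hcc2 := Joint_819.hcc2 φ act hLW hsep (z := z) (p0 := p0) (N1 := N1) (K := K) (C0 := C0)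
    (R := 2 + 2 * C0) (by omega) (by omega) (by omega) c hp0 hinj hr BT hcnt lam2 rho2 nu1 nu2
    (fun k hk P Q v b h1 h2 h3 => by
      have := e1' k hk P Q 1 v b h1 h2 h3
      rw [mul_one] at this
      exact this)
    (fun u v hu => e2' u 1 v hu) (by omega)
  simp only [hTT] at hcc1 hcc2
  exact Top5_120.top5 act hadd hone hmul hfaith φ nu (Joint_819.XX Wo z)
    (Joint_819.BB Wo z N1 p0 BT) (Joint_819.pcode (by omega)) (fun X hX => hX.1)
    (Joint_819.L1 φ act p0 nu2 lam) (Joint_819.L2 K c lam2) hf1 hf2 hCT hBT htail hcc1 hcc2 s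

/-- every regular language has star height at most three -/
theorem row {α : Type*} [Finite α] (L : Language α) (hL : L.IsRegular) :
    ∃ e : GRegExp α, e.height ≤ 3 ∧ e.lang = L :=
  LetMap_922.of_fin (m := 3)
    (fun n L hL => of_monoid (fun S _ _ φ s => main (Fin n) S φ s) L hL) α L hL

end Crest.Agent.R320.Fin_819
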