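import Crest.Agent.R320.Top5_120
import Crest.Agent.R320.Sc2n_937
import Crest.Agent.R320.Grid_899
import Crest.Agent.R320.Thin_963
import Crest.Agent.R320.ExactR_237
import Crest.Agent.R320.LWallAll_922
import Crest.Agent.R320.Fib_854

/-!
# Row 320: the join (helper823)

top5 (120) + two schemes (937) + grid gadget (899) + ruler (963) + exact gadget (237)
+ walls (922) + fibres (854).
-/

set_option autoImplicit false

namespace Crest.Agent.R320.Fin_823

open Crest.RegLang Crest.Agent.R320.Hk_851 Crest.Agent.R320.Blk467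

/-! ## 1. the grid gadget with a finite-state noise -/

section Grid

open Grid_899

/-- cleanness of a total -/
def Clean (Ms κ m : ℕ) (q : ℕ → Prop) (T : ℕ) : Prop :=
  (∀ p, q p → ¬ p ∣ T) ∧
  (∀ j, 1 ≤ j → j ≤ m →
    Ms * G κ (j - 1) ≤ (T - Am Ms κ j) % G κ j ∧
    (T - Am Ms κ j) % G κ j + Ms * G κ (j - 1) ≤ G κ j)

theorem loc_of {α S V : Type} [Monoid S] [AddCommGroup V] (act : V → S → V)
    (phi : List α → S) (hphi : ∀ u v, phi (u ++ v) = phi u * phi v)
    (lam rho : List α → Option V) (nu : List α → V) (Am1 Am2 M0 : ℕ)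
    (hlam : ∀ P v, lam P = some v → P.length < Am1)
    (hsound : ∀ P Q v b, lam P = some v → rho Q = some b → b = act v (phi (P ++ Q)) + nu (P ++ Q))
    (hrho : ∀ Q Q' : List α, Am2 ≤ Q.length → Am2 ≤ Q'.length → Q.take Am2 = Q'.take Am2 →
      phi (Q.drop Am2) = phi (Q'.drop Am2) → Q.length ≡ Q'.length [MOD M0] → rho Q = rho Q')
    {u u' : List α} (hu : Am1 + Am2 ≤ u.length) (hu' : Am1 + Am2 ≤ u'.length)
    (ht : u.take (Am1 + Am2) = u'.take (Am1 + Am2))
    (hd : phi (u.drop (Am1 + Am2)) = phi (u'.drop (Am1 + Am2)))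
    (hm : u.length ≡ u'.length [MOD M0])
    (h : ∃ P Q v b, u = P ++ Q ∧ lam P = some v ∧ rho Q = some b) :
    (∃ P Q v b, u' = P ++ Q ∧ lam P = some v ∧ rho Q = some b) ∧ nu u = nu u' := by
  obtain ⟨P, Q, v, b, rfl, hl, hr⟩ := h
  have h1 := hlam _ _ hl
  have hphiu : phi (P ++ Q) = phi u' := by
    conv_lhs => rw [← List.take_append_drop (Am1 + Am2) (P ++ Q)]
    conv_rhs => rw [← List.take_append_drop (Am1 + Am2) u']
    rw [hphi, hphi, ht, hd]
  have hP : u'.take P.length = P := by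
    have := congrArg (List.take P.length) ht
    rw [List.take_take, List.take_take, Nat.min_eq_left (by omega), List.take_left] at this
    exact this.symm
  have hQ' : u' = P ++ u'.drop P.length := by
    conv_lhs => rw [← List.take_append_drop P.length u', hP]
  have hQd : Q = (P ++ Q).drop P.length := by simp
  have hlen : (P ++ Q).length = P.length + Q.length := by simp
  have key : ∀ w : List α, (w.drop P.length).drop Am2 =
      (w.take (Am1 + Am2)).drop (P.length + Am2) ++ w.drop (Am1 + Am2) ∨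
      w.length < Am1 + Am2 := by
    intro w
    by_cases hw : w.length < Am1 + Am2
    · exact Or.inr hw
    left
    rw [List.drop_drop]
    conv_lhs => rw [← List.take_append_drop (Am1 + Am2) w]
    rw [List.drop_append_of_le_length (by rw [List.length_take]; omega)]
  have hr' : rho (u'.drop P.length) = some b := by
    rw [← hr]
    symm
    rw [hQd]
    refine hrho _ _ ?_ ?_ ?_ ?_ ?_
    · rw [List.length_drop]; omega
    · rw [List.length_drop]; omega
    · have h5 := congrArg (fun l => (l.take (P.length + Am2)).drop P.length) ht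
      simp only [List.take_take, Nat.min_eq_left (show P.length + Am2 ≤ Am1 + Am2 by omega)] at h5
      rw [List.take_drop, List.take_drop]
      exact h5
    · rcases key (P ++ Q) with h2 | h2
      · rcases key u' with h3 | h3
        · rw [h2, h3, hphi, hphi, ht, hd]
        · omega
      · omega
    · rw [List.length_drop, List.length_drop]
      have h4 : P.length + ((P ++ Q).length - P.length) ≡ P.length + (u'.length - P.length)
          [MOD M0] := by
        rw [Nat.add_sub_cancel' (by omega), Nat.add_sub_cancel' (by omega)]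
        exact hm
      exact Nat.ModEq.add_left_cancel' _ h4
  refine ⟨⟨P, u'.drop P.length, v, b, hQ', hl, hr'⟩, ?_⟩
  have e1 := hsound _ _ _ _ hl hr
  have e2 := hsound _ _ _ _ hl hr'
  rw [← hQ'] at e2
  rw [hphiu] at e1
  have := e1.symm.trans e2
  exact add_left_cancel this

theorem grid (S V : Type) [Monoid S] [Finite S] [AddCommGroup V] [Finite V] (act : V → S → V) :
    ∃ (k m : ℕ), ∀ q : Fin k → ℕ, (∀ j, Odd (q j)) →
      Pairwise (fun i j => Nat.Coprime (q i) (q j)) → ∀ κ : ℕ,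
      ∀ (α : Type) (phi : List α → S), (∀ u v, phi (u ++ v) = phi u * phi v) →
      ∃ (lam rho : List α → Option V) (nu : List α → V),
        (∀ P v, lam P = some v → P.length < Am (∏ j, q j) κ m) ∧
        (∀ P Q v b, lam P = some v → rho Q = some b → b = act v (phi (P ++ Q)) + nu (P ++ Q)) ∧
        (∀ u : List α, 2 * Am (∏ j, q j) κ (m + 1) ≤ u.length → (∀ j, ¬ q j ∣ u.length) →
          (∀ j, 1 ≤ j → j ≤ m →
            (∏ j, q j) * G κ (j - 1) ≤ (u.length - Am (∏ j, q j) κ j) % G κ j ∧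
            (u.length - Am (∏ j, q j) κ j) % G κ j + (∏ j, q j) * G κ (j - 1) ≤ G κ j) →
          ∀ v, ∃ P Q, u = P ++ Q ∧ lam P = some v ∧ (rho Q).isSome) ∧
        (∀ u u' : List α, Am (∏ j, q j) κ m + Am (∏ j, q j) κ (m + 1) ≤ u.length →
          Am (∏ j, q j) κ m + Am (∏ j, q j) κ (m + 1) ≤ u'.length →
          u.take (Am (∏ j, q j) κ m + Am (∏ j, q j) κ (m + 1)) =
            u'.take (Am (∏ j, q j) κ m + Am (∏ j, q j) κ (m + 1)) →
          phi (u.drop (Am (∏ j, q j) κ m + Am (∏ j, q j) κ (m + 1))) =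
            phi (u'.drop (Am (∏ j, q j) κ m + Am (∏ j, q j) κ (m + 1))) →
          u.length ≡ u'.length [MOD (∏ j, q j) * G κ m] → nu u = nu u') := by
  classical
  obtain ⟨k, m, H⟩ := grid_gadget_reg S V act
  refine ⟨k, m, fun q hq hc κ α phi hphi => ?_⟩
  obtain ⟨lam, rho, nu, h1, h2, h3, h4, h5⟩ := H q hq hc κ α phi hphi
  refine ⟨lam, rho, fun u => if (∃ P Q v b, u = P ++ Q ∧ lam P = some v ∧ rho Q = some b) then
    nu u else 0, fun P v h => (h1 P v h).1, ?_, h4, ?_⟩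
  · intro P Q v b hl hr
    beta_reduce
    rw [if_pos ⟨P, Q, v, b, rfl, hl, hr⟩]
    exact h3 P Q v b hl hr
  · intro u u' hu hu' ht hd hm
    have hL := loc_of act phi hphi lam rho nu _ _ _ (fun P v h => (h1 P v h).1) h3 h5 hu hu' ht hd hm
    have hR := loc_of act phi hphi lam rho nu _ _ _ (fun P v h => (h1 P v h).1) h3 h5 hu' hu
      ht.symm hd.symm hm.symm
    by_cases hc1 : ∃ P Q v b, u = P ++ Q ∧ lam P = some v ∧ rho Q = some b
    · obtain ⟨h6, h7⟩ := hL hc1
      simp only [if_pos hc1, if_pos h6, h7]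
    · have hc2 : ¬ ∃ P Q v b, u' = P ++ Q ∧ lam P = some v ∧ rho Q = some b :=
        fun h => hc1 (hR h).1
      simp only [if_neg hc1, if_neg hc2]

end Grid

/-! ## 2. bad totals -/

section BadT

open Grid_899

/-- bad totals, from the thin theorem -/
def BT (Msf : Finset ℕ) (Ms κ m : ℕ) (T : ℕ) : Prop :=
  Thin963.BadT Msf m (fun i => (G κ i : ℤ)) (fun i => ((Ms * G κ i : ℕ) : ℤ))
    (fun i => (Am Ms κ i : ℤ)) (T : ℤ)

theorem clean_of_not_BT {Msf : Finset ℕ} {Ms κ m T : ℕ} (hT : Am Ms κ m ≤ T)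
    (h : ¬ BT Msf Ms κ m T) :
    (∀ p ∈ Msf, ¬ p ∣ T) ∧ (∀ j, 1 ≤ j → j ≤ m →
      Ms * G κ (j - 1) ≤ (T - Am Ms κ j) % G κ j ∧
      (T - Am Ms κ j) % G κ j + Ms * G κ (j - 1) ≤ G κ j) := by
  unfold BT Thin963.BadT at h
  push Not at h
  obtain ⟨h1, h2⟩ := h
  refine ⟨fun p hp hd => h1 p hp (by exact_mod_cast hd), fun j hj1 hjm => ?_⟩
  obtain ⟨i, rfl⟩ : ∃ i, j = i + 1 := ⟨j - 1, by omega⟩
  rw [Nat.add_sub_cancel]
  have hAm : Am Ms κ (i + 1) ≤ T := (Am_mono hjm).trans hT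
  set r := (T - Am Ms κ (i + 1)) % G κ (i + 1) with hr
  have hdiv : T - Am Ms κ (i + 1) = G κ (i + 1) * ((T - Am Ms κ (i + 1)) / G κ (i + 1)) + r :=
    (Nat.div_add_mod _ _).symm
  have hdivZ : (T : ℤ) - Am Ms κ (i + 1) =
      G κ (i + 1) * ((T - Am Ms κ (i + 1)) / G κ (i + 1) : ℕ) + r := by
    have : ((T - Am Ms κ (i + 1) : ℕ) : ℤ) = (T : ℤ) - Am Ms κ (i + 1) := by
      rw [Nat.cast_sub hAm]
    rw [← this]
    exact_mod_cast hdiv
  constructor
  · by_contra hlt
    push Not at hlt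
    refine h2 i (by omega) (-(r : ℤ)) ?_ ?_
    · rw [abs_neg, abs_of_nonneg (by positivity)]
      exact_mod_cast hlt.le
    · refine ⟨((T - Am Ms κ (i + 1)) / G κ (i + 1) : ℕ), ?_⟩
      linarith
  · by_contra hlt
    push Not at hlt
    have hrG : r < G κ (i + 1) := Nat.mod_lt _ (G_pos _)
    refine h2 i (by omega) ((G κ (i + 1) : ℤ) - r) ?_ ?_
    · rw [abs_of_nonneg (by have : (r : ℤ) < G κ (i + 1) := by exact_mod_cast hrG
                            linarith)]
      have : (G κ (i + 1) : ℤ) < r + ((Ms * G κ i : ℕ) : ℤ) := by exact_mod_cast hlt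
      linarith
    · refine ⟨((T - Am Ms κ (i + 1)) / G κ (i + 1) : ℕ) + 1, ?_⟩
      linarith

theorem BT_congr {Msf : Finset ℕ} {Ms κ m T T' : ℕ} (hMs : ∀ p ∈ Msf, p ∣ Ms)
    (h : T ≡ T' [MOD Ms * G κ m]) : BT Msf Ms κ m T ↔ BT Msf Ms κ m T' := by
  have key : ∀ T T' : ℕ, T ≡ T' [MOD Ms * G κ m] → BT Msf Ms κ m T → BT Msf Ms κ m T' := by
    intro T T' h hB
    have hZ : ((Ms * G κ m : ℕ) : ℤ) ∣ (T' : ℤ) - T := (Nat.modEq_iff_dvd).1 h
    rcases hB with ⟨p, hp, hd⟩ | ⟨i, hi, e, he, hd⟩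
    · left
      refine ⟨p, hp, ?_⟩
      have h1 : (p : ℤ) ∣ (T' : ℤ) - T := by
        refine dvd_trans ?_ hZ
        exact_mod_cast (hMs p hp).trans (Nat.dvd_mul_right _ _)
      have := dvd_add hd h1
      simpa using this
    · right
      refine ⟨i, hi, e, he, ?_⟩
      have h1 : ((G κ (i + 1) : ℕ) : ℤ) ∣ (T' : ℤ) - T := by
        refine dvd_trans ?_ hZ
        exact_mod_cast (G_dvd (by omega : i + 1 ≤ m)).trans (Nat.dvd_mul_left _ _)
      have h2 := dvd_add hd h1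
      have e1 : (T : ℤ) - (Am Ms κ (i + 1) : ℤ) + e + ((T' : ℤ) - T) =
        (T' : ℤ) - (Am Ms κ (i + 1) : ℤ) + e := by ring
      rw [e1] at h2
      exact h2
  exact ⟨key T T' h, key T' T h.symm⟩

/-- the ruler -/
theorem ruler (K m k : ℕ) (q : Fin k → ℕ) (hq : ∀ j, (q j).Prime) (hq2 : ∀ j, 2 ^ (K + 1) ≤ q j)
    (hodd : ∀ j, Odd (q j)) (κ : ℕ) (hκ : 2 ^ (K + 5) * (∏ j, q j) ≤ 2 ^ κ) (N0 : ℕ) :
    ∃ X : ℕ, N0 ≤ X ∧ 0 < X ∧ ∀ T : ℕ, ∀ J : Finset ℕ,
      (∀ a ∈ J, a < K ∧ X * 2 ^ a ≤ T ∧ ∃ b, b < K ∧ b ≠ a ∧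
        BT (Finset.univ.image q) (∏ j, q j) κ m (T + X * 2 ^ b - X * 2 ^ a)) → J.card ≤ k + m := by
  classical
  set Ms := ∏ j, q j with hMs
  have hMspos : 0 < Ms := Finset.prod_pos fun j _ => (hq j).pos
  obtain ⟨X, hX0, hXp, hX⟩ := Thin963.thin K m (Finset.univ.image q) (fun i => (G κ i : ℤ))
    (fun i => ((Ms * G κ i : ℕ) : ℤ)) (fun i => (Am Ms κ i : ℤ))
    (by
      intro p hp
      obtain ⟨j, -, rfl⟩ := Finset.mem_image.1 hp
      exact ⟨hq j, hq2 j⟩)
    (by
      intro p hp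
      obtain ⟨j, -, rfl⟩ := Finset.mem_image.1 hp
      rw [Nat.isCoprime_iff_coprime]
      unfold G
      exact Nat.Coprime.pow_right _ (Nat.Coprime.symm (Nat.coprime_two_left.2 (hodd j))))
    (by exact_mod_cast G_pos m)
    (by intro i j hij; exact_mod_cast G_dvd hij)
    (by intro i; exact_mod_cast Nat.mul_pos hMspos (G_pos i))
    (by intro i; exact_mod_cast Nat.dvd_mul_left _ _)
    (by
      intro i hi
      have hsum : ∀ i, ∑ j ∈ Finset.range (i + 1), Ms * G κ j ≤ 2 * (Ms * G κ i) := by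
        intro i
        induction i with
        | zero => simp only [zero_add, Finset.range_one, Finset.sum_singleton]; omega
        | succ i ih =>
          rw [Finset.sum_range_succ]
          have h1 : 2 * (Ms * G κ i) ≤ Ms * G κ (i + 1) := by
            have h2 : G κ (i + 1) = G κ i * 2 ^ κ := by
              unfold G; rw [← pow_add]; congr 1
            have h3 : 2 ≤ 2 ^ κ := by
              refine le_trans ?_ hκ
              have h4 : 2 ^ 1 ≤ 2 ^ (K + 5) := Nat.pow_le_pow_right (by norm_num) (by omega)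
              nlinarith
            rw [h2]
            nlinarith [Nat.zero_le (Ms * G κ i), Nat.mul_le_mul_left (Ms * G κ i) h3]
          omega
      have h5 : 2 ^ (K + 4) * ∑ j ∈ Finset.range (i + 1), Ms * G κ j ≤ G κ (i + 1) := by
        calc 2 ^ (K + 4) * ∑ j ∈ Finset.range (i + 1), Ms * G κ j
            ≤ 2 ^ (K + 4) * (2 * (Ms * G κ i)) := Nat.mul_le_mul_left _ (hsum i)
          _ = (2 ^ (K + 5) * Ms) * G κ i := by ring
          _ ≤ 2 ^ κ * G κ i := Nat.mul_le_mul_right _ hκ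
          _ = G κ (i + 1) := by unfold G; rw [← pow_add]; congr 1; ring
      exact_mod_cast h5)
    (N0 : ℤ)
  refine ⟨X.toNat, by omega, by omega, fun T J hJ => ?_⟩
  have hXn : ((X.toNat : ℕ) : ℤ) = X := Int.toNat_of_nonneg hXp.le
  have hJ' : ∀ a ∈ J, ∃ b, a < K ∧ X.toNat * 2 ^ a ≤ T ∧ b < K ∧ b ≠ a ∧
      BT (Finset.univ.image q) Ms κ m (T + X.toNat * 2 ^ b - X.toNat * 2 ^ a) := by
    intro a ha
    obtain ⟨h1, h2, b, h3⟩ := hJ a ha
    exact ⟨b, h1, h2, h3⟩
  choose! b hb using hJ'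
  refine le_trans (Finset.card_le_card_of_injOn (fun a => ((b a, a) : ℕ × ℕ)) ?_ ?_)
    ((hX T).trans (Nat.add_le_add_right ?_ m))
  · intro a ha
    have h := hb a ha
    obtain ⟨h1, h2, h3, h4, h5⟩ := h
    simp only [Finset.coe_filter, Set.mem_setOf_eq, Finset.mem_product, Finset.mem_range]
    refine ⟨⟨h3, h1⟩, h4, ?_⟩
    unfold BT at h5
    have e : ((T + X.toNat * 2 ^ b a - X.toNat * 2 ^ a : ℕ) : ℤ) = (T : ℤ) + X * 2 ^ b a - X * 2 ^ a := by
      rw [Nat.cast_sub (h2.trans (Nat.le_add_right _ _))]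
      push_cast
      rw [hXn]
    rw [e] at h5
    exact h5
  · intro a _ a' _ h
    exact congrArg Prod.snd h
  · refine Finset.card_image_le.trans ?_
    simp

end BadT

/-! ## 3. walls -/

theorem walls (α : Type) [Finite α] [Nonempty α] (W : ℕ) (hW : 0 < W) :
    ∃ (n B : ℕ) (Wo : List α → Prop), 0 < n ∧
      (∀ P Q : List α, n ≤ Q.length → (Wo (P ++ Q) ↔ Wo Q)) ∧ (∀ Q, Wo Q → n ≤ Q.length) ∧
      (∀ P Q : List α, Wo P → Wo (P ++ Q) → Q ≠ [] → W < Q.length) ∧
      (∀ X : List α, (∀ t, t < X.length → ¬ Wo (X.take t)) → ∃ (u x : List α) (k : ℕ)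
        (v : List α), u.length ≤ B ∧ x.length ≤ B ∧ v.length ≤ B ∧
        X = u ++ (List.replicate k x).flatten ++ v) := by
  obtain ⟨n, G, B, Wo, ⟨happ, hlen⟩, hgap, -, -, hfree⟩ := LWallAll_922.walls_all_left α W hW
  have hgap' : ∀ P Q : List α, Wo P → Wo (P ++ Q) → Q ≠ [] → W < Q.length := by
    intro P Q hP hPQ hQ
    have hl := List.length_pos_iff.2 hQ
    have := hgap (P ++ Q) P.length (P ++ Q).length (by simp; omega) le_rfl (by simpa using hP)
      (by rw [List.take_length]; exact hPQ)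
    simp only [List.length_append] at this
    omega
  have hfree' : ∀ X : List α, (∀ t, t < X.length → ¬ Wo (X.take t)) → ∃ (u x : List α) (k : ℕ)
        (v : List α), u.length ≤ B + W ∧ x.length ≤ B + W ∧ v.length ≤ B + W ∧
        X = u ++ (List.replicate k x).flatten ++ v := by
    intro X hX
    obtain ⟨u, x, v, k, h1, h2, h3, h4⟩ := hfree X hX
    exact ⟨u, x, k, v, by omega, by omega, by omega, h4⟩
  rcases Nat.eq_zero_or_pos n with rfl | hn
  · obtain ⟨a⟩ := ‹Nonempty α›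
    have hno : ¬ Wo [] := by
      intro h
      have h1 : Wo ([a] ++ []) := (happ [a] [] (by simp)).2 h
      have h2 := hgap' [] [a] h (by simpa using h1) (by simp)
      simp at h2
      omega
    have hno' : ∀ Q, ¬ Wo Q := by
      intro Q hQ
      apply hno
      have := happ Q [] (by simp)
      rw [List.append_nil] at this
      exact this.1 hQ
    exact ⟨1, B + W, Wo, one_pos, fun P Q _ => happ P Q (Nat.zero_le _),
      fun Q hQ => absurd hQ (hno' Q), hgap', hfree'⟩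
  · exact ⟨n, B + W, Wo, hn, happ, hlen, hgap', hfree'⟩

/-! ## 4. primes -/

theorem primes (k K : ℕ) : ∃ q : Fin k → ℕ, (∀ j, (q j).Prime) ∧ (∀ j, 2 ^ (K + 1) ≤ q j) ∧
    (∀ j, Odd (q j)) ∧ Pairwise (fun i j => Nat.Coprime (q i) (q j)) := by
  have hmono := Nat.nth_strictMono Nat.infinite_setOf_prime
  have hpr : ∀ j, (Nat.nth Nat.Prime j).Prime := fun j => Nat.prime_nth_prime j
  have hge : ∀ j, j ≤ Nat.nth Nat.Prime j := fun j => hmono.le_apply
  refine ⟨fun j => Nat.nth Nat.Prime (2 ^ (K + 1) + 1 + j), fun j => hpr _, fun j => ?_,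
    fun j => ?_, fun i j hij => ?_⟩
  · have := hge (2 ^ (K + 1) + 1 + j)
    show 2 ^ (K + 1) ≤ Nat.nth Nat.Prime (2 ^ (K + 1) + 1 + j)
    omega
  · have h1 := hge (2 ^ (K + 1) + 1 + j)
    have h2 : 2 ^ 1 ≤ 2 ^ (K + 1) := Nat.pow_le_pow_right (by norm_num) (by omega)
    rcases (hpr (2 ^ (K + 1) + 1 + j)).eq_two_or_odd' with h | h
    · omega
    · exact h
  · refine (Nat.coprime_primes (hpr _) (hpr _)).2 fun h => hij ?_
    have := hmono.injective h
    exact Fin.ext (by omega)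

/-! ## 5. the join -/

open Grid_899 Sc2n_937

theorem fin (α : Type) [Finite α] (S : Type) [Monoid S] [Finite S] (φ : α → S) (s : S) :
    HL 3 ({w | (w.map φ).prod = s} : Language α) := by
  classical
  rcases isEmpty_or_nonempty α with hα | hα
  · refine HL.finite ((Set.finite_singleton ([] : List α)).subset ?_)
    intro w _
    cases w with
    | nil => rfl
    | cons a _ => exact (hα.false a).elim
  obtain ⟨act, hadd, hone, hmul, hfaith⟩ := exists_module S
  haveI : Fintype S := Fintype.ofFinite S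
  haveI : Fintype (S → ZMod 2) := Fintype.ofFinite _
  let phi : List α → S := fun w => (w.map φ).prod
  have hphi : ∀ u v, phi (u ++ v) = phi u * phi v := by
    intro u v
    show ((u ++ v).map φ).prod = _
    rw [List.map_append, List.prod_append]
  obtain ⟨k, m, HG⟩ := grid S (S → ZMod 2) act
  obtain ⟨K, HE⟩ := ExactR_237.exact_gadget α S (S → ZMod 2) φ act (2 * (k + m) + 2)
  obtain ⟨q, hq, hq2, hodd, hcop⟩ := primes k K
  obtain ⟨lam1, rho1, nu1, hl1, hs1, hc1, hn1⟩ := HG q hodd hcop (K + 5 + ∏ j, q j) α phi hphi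
  have hκ : 2 ^ (K + 5) * (∏ j, q j) ≤ 2 ^ (K + 5 + ∏ j, q j) := by
    have h := Nat.mul_le_mul_left (2 ^ (K + 5)) (Nat.lt_two_pow_self (n := ∏ j, q j)).le
    rwa [← pow_add] at h
  have hMspos : 0 < ∏ j, q j := Finset.prod_pos fun j _ => (hq j).pos
  generalize hκe : (K + 5 + ∏ j, q j) = κ at *
  set Ms := ∏ j, q j with hMs
  set N1 := Am Ms κ m + 1 with hN1
  obtain ⟨X, hXN, hXp, hX⟩ := ruler K m k q hq hq2 hodd κ hκ (2 * N1 + 1)
  have hcmono : ∀ i j, i < j → X * 2 ^ i < X * 2 ^ j := fun i j hij =>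
    Nat.mul_lt_mul_of_pos_left (Nat.pow_lt_pow_right (by norm_num) hij) hXp
  obtain ⟨lam2, rho2, nu2, hs2, hc2⟩ := HE (fun j => X * 2 ^ j) (fun i j hij _ => hcmono i j hij)
  set c : ℕ → ℕ := fun j => X * 2 ^ j with hc
  set p0 := c K with hp0
  have hcp : ∀ i, i < K → c i ≤ p0 := fun i hi => (hcmono i K hi).le
  obtain ⟨n, B, Wo, hn, hloc, hlen, hgap, hfew⟩ := walls α (2 * p0 + 2 * N1) (by omega)
  set q0 := n + 2 * p0 + 2 * Am Ms κ (m + 1) with hq0
  let g : Geo α :=
    { Wo := Wo, n := n, z := p0 + N1 + q0, p0 := p0, q0 := q0, N1 := N1, loc := hloc,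
      hz := rfl, hq := by omega, hN := by omega, hqp := by omega }
  let pre : List α → (S → ZMod 2) → (S → ZMod 2) := fun P v => act v (phi P) + nu2 P 1
  let post : (S → ZMod 2) → List α → (S → ZMod 2) := fun u Y => act u (phi Y) + nu1 Y
  let BadT : ℕ → Prop := BT (Finset.univ.image q) Ms κ m
  let nu : List α → (S → ZMod 2) := fun Y =>
    act (nu2 (Y.take p0) 1) (phi (Y.drop p0)) + nu1 (Y.drop p0)
  have hT : ∀ v Y, g.T pre post v Y = act v (Y.map φ).prod + nu Y := by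
    intro v Y
    show act (act v (phi (Y.take p0)) + nu2 (Y.take p0) 1) (phi (Y.drop p0)) + nu1 (Y.drop p0) =
      act v (phi Y) + (act (nu2 (Y.take p0) 1) (phi (Y.drop p0)) + nu1 (Y.drop p0))
    rw [hadd, ← hmul, ← hphi, List.take_append_drop, add_assoc]
  have hlen1 : ∀ P v, lam1 P = some v → P.length ≤ g.N1 := fun P v h => by
    have := hl1 P v h
    show P.length ≤ N1
    omega
  have hex1 : ∀ P Q u b, lam1 P = some u → rho1 Q = some b → b = post u (P ++ Q) :=
    fun P Q u b h1 h2 => hs1 P Q u b h1 h2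
  have hex2 : ∀ i, i < K → ∀ P Q v u, P.length = c i → Q.length = g.p0 - c i →
      lam2 i P = some v → (fun i Q => rho2 i Q 1) i Q = some u → u = pre (P ++ Q) v := by
    intro i hi P Q v u hP _ h1 h2
    have := hs2 i hi P Q 1 v u hP h1 h2
    rw [mul_one] at this
    exact this
  have hgap' : ∀ P Q : List α, g.Wo P → g.Wo (P ++ Q) → Q ≠ [] →
      2 * g.p0 + 2 * g.N1 < Q.length := hgap
  have hsp : ∀ a a' l l', a < K → a' < K → l < K → l' < K → a' ≠ a → l' ≠ l →
      c a + c l' < c l + c a' + 2 * g.N1 → c l + c a' < c a + c l' + 2 * g.N1 → a = l := by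
    intro a a' l l' _ _ _ _ ha hl h1 h2
    have h3 : (2 : ℤ) ^ a - 2 ^ a' = 2 ^ l - 2 ^ l' := by
      have h1' : (X : ℤ) * 2 ^ a + X * 2 ^ l' < X * 2 ^ l + X * 2 ^ a' + 2 * N1 := by
        exact_mod_cast h1
      have h2' : (X : ℤ) * 2 ^ l + X * 2 ^ a' < X * 2 ^ a + X * 2 ^ l' + 2 * N1 := by
        exact_mod_cast h2
      have hXN' : (2 * N1 + 1 : ℤ) ≤ X := by exact_mod_cast hXN
      by_contra hne
      rcases lt_or_gt_of_ne hne with h | h
      · have h5 : (2 : ℤ) ^ a - 2 ^ a' + 1 ≤ 2 ^ l - 2 ^ l' := h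
        have h6 : (X : ℤ) * ((2 : ℤ) ^ a - 2 ^ a' + 1) ≤ X * (2 ^ l - 2 ^ l') :=
          mul_le_mul_of_nonneg_left h5 (by positivity)
        linarith
      · have h5 : (2 : ℤ) ^ l - 2 ^ l' + 1 ≤ 2 ^ a - 2 ^ a' := h
        have h6 : (X : ℤ) * ((2 : ℤ) ^ l - 2 ^ l' + 1) ≤ X * (2 ^ a - 2 ^ a') :=
          mul_le_mul_of_nonneg_left h5 (by positivity)
        linarith
    exact (G369.pow_diff ha.symm hl.symm h3).1
  have hthin : ∀ τ, g.z ≤ τ + g.p0 → ∀ J : Finset ℕ, (∀ a ∈ J, a < K ∧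
      ∃ a', a' < K ∧ a' ≠ a ∧ BadT (τ + c a' - c a - g.p0)) → J.card ≤ k + m := by
    intro τ hτ J hJ
    have hτ' : p0 + N1 + q0 ≤ τ + p0 := hτ
    refine hX (τ - p0) J fun a ha => ?_
    obtain ⟨h1, b, h2, h3, h4⟩ := hJ a ha
    have h5 := hcp a h1
    have h6 : X * 2 ^ a = c a := rfl
    have h7 : X * 2 ^ b = c b := rfl
    refine ⟨h1, by omega, b, h2, h3, ?_⟩
    have e : τ - p0 + X * 2 ^ b - X * 2 ^ a = τ + c b - c a - g.p0 := by
      show τ - p0 + X * 2 ^ b - X * 2 ^ a = τ + c b - c a - p0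
      omega
    rw [e]; exact h4
  -- keys
  set K0 := p0 + N1 + q0 + N1 + 1 + (Am Ms κ m + Am Ms κ (m + 1)) with hK0
  have hM0 : 0 < Ms * G κ m := Nat.mul_pos hMspos (G_pos m)
  have hkey : ∀ Y Z : List α, K0 ≤ Y.length → K0 ≤ Z.length → Y.take K0 = Z.take K0 →
      Y.length % (Ms * G κ m) = Z.length % (Ms * G κ m) →
      ((Y.drop K0).map φ).prod = ((Z.drop K0).map φ).prod →
      (Y.map φ).prod = (Z.map φ).prod ∧ nu Y = nu Z ∧ (g.BadX BadT Y ↔ g.BadX BadT Z) := by
    intro Y Z hY hZ ht hm hd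
    have h0 := Fib_854.key_le φ (Nat.zero_le K0) ht hd
    have h1 := Fib_854.key_le φ (show p0 ≤ K0 by omega) ht hd
    have h2 := Fib_854.key_le φ (show p0 + (Am Ms κ m + Am Ms κ (m + 1)) ≤ K0 by omega) ht hd
    have hmod : Y.length - p0 ≡ Z.length - p0 [MOD Ms * G κ m] := by
      have h4 : p0 + (Y.length - p0) ≡ p0 + (Z.length - p0) [MOD Ms * G κ m] := by
        rw [Nat.add_sub_cancel' (by omega), Nat.add_sub_cancel' (by omega)]
        exact hm
      exact Nat.ModEq.add_left_cancel' _ h4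
    refine ⟨by simpa using h0.2, ?_, ?_⟩
    · show act (nu2 (Y.take p0) 1) (phi (Y.drop p0)) + nu1 (Y.drop p0) =
        act (nu2 (Z.take p0) 1) (phi (Z.drop p0)) + nu1 (Z.drop p0)
      have e1 : phi (Y.drop p0) = phi (Z.drop p0) := h1.2
      have e2 : nu1 (Y.drop p0) = nu1 (Z.drop p0) := by
        refine hn1 _ _ ?_ ?_ ?_ ?_ ?_
        · rw [List.length_drop]; omega
        · rw [List.length_drop]; omega
        · rw [List.take_drop, List.take_drop, h2.1]
        · rw [List.drop_drop, List.drop_drop]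
          exact h2.2
        · rw [List.length_drop, List.length_drop]; exact hmod
      rw [h1.1, e1, e2]
    · have hE : ∀ Y Z : List α, K0 ≤ Y.length → K0 ≤ Z.length → Y.take K0 = Z.take K0 →
          g.E Y → g.E Z := by
        rintro Y Z hY hZ ht ⟨t, h3, h4, h5, h6⟩
        have h6' : t < p0 + N1 + q0 + N1 := h6
        refine ⟨t, by omega, ?_, h5, h6⟩
        have e : Y.take t = Z.take t := by
          have := congrArg (List.take t) ht
          rwa [List.take_take, List.take_take, Nat.min_eq_left (by omega)] at this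
        rw [← e]; exact h4
      refine or_congr ⟨hE Y Z hY hZ ht, hE Z Y hZ hY ht.symm⟩ ?_
      refine BT_congr ?_ hmod
      intro p hp
      obtain ⟨j, -, rfl⟩ := Finset.mem_image.1 hp
      exact Finset.dvd_prod_of_mem q (Finset.mem_univ j)
  refine Top5_120.top5 act hadd hone hmul hfaith φ nu {Y | g.XX Y}
    {Y | g.XX Y ∧ g.BadX BadT Y} ?_ (fun Y hY => hY.1)
    (fun v => {P | g.LP1 pre lam1 v P}) (fun v => {P | Geo.LP2 K c lam2 v P}) ?_ ?_ ?_ ?_ ?_ ?_ ?_ s
  · refine ⟨?_, ?_⟩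
    · rintro ⟨h, -⟩
      have h' : p0 + N1 + q0 ≤ 0 := h
      omega
    · rintro Y hY Z hZ ⟨R, hR⟩
      exact g.prefix_code hY hZ (R := R) (R' := []) (by rw [hR, List.append_nil])
  · intro v
    refine (List.finite_length_le α (p0 + N1)).subset ?_
    rintro P ⟨h1, h2⟩
    have h3 := hlen1 _ _ h2
    rw [List.length_drop] at h3
    have h1' : p0 ≤ P.length := h1
    have h3' : P.length - p0 ≤ N1 := h3
    show P.length ≤ p0 + N1
    omega
  · intro v
    refine (List.finite_length_le α p0).subset ?_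
    rintro P ⟨i, hi, h2, -⟩
    show P.length ≤ p0
    rw [h2]; exact hcp i hi
  · intro x y
    exact Fib_854.fib hloc hlen hn (z := p0 + N1 + q0) (by omega) hfew
      (fun Y => act x (Y.map φ).prod + nu Y)
      ⟨K0, Ms * G κ m, S, inferInstance, inferInstance, φ, hM0, fun Y Z h1 h2 h3 h4 h5 => by
        obtain ⟨h6, h7, -⟩ := hkey Y Z h1 h2 h3 h4 h5
        simp only [h6, h7]⟩ y
  · intro x y
    refine (Fib_854.fib hloc hlen hn (z := p0 + N1 + q0) (by omega) hfew
      (fun Y => (act x (Y.map φ).prod + nu Y, g.BadX BadT Y))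
      ⟨K0, Ms * G κ m, S, inferInstance, inferInstance, φ, hM0, fun Y Z h1 h2 h3 h4 h5 => by
        obtain ⟨h6, h7, h8⟩ := hkey Y Z h1 h2 h3 h4 h5
        simp only [h6, h7, h8]⟩ (y, True)).congr fun w => ?_
    constructor
    · rintro ⟨⟨h1, h2⟩, h3⟩
      exact ⟨h1, Prod.ext h3 (eq_true h2)⟩
    · rintro ⟨h1, h2⟩
      exact ⟨⟨h1, of_eq_true (congrArg Prod.snd h2)⟩, congrArg Prod.fst h2⟩
  · intro t
    exact Fib_854.tail φ hloc hlen hn (z := p0 + N1 + q0) (by omega) hfew t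
  · intro Y hY hYb v
    have hY' : g.XX Y := hY
    have hE : ¬ g.E Y := fun h => hYb ⟨hY', Or.inl h⟩
    have hB : ¬ BadT (Y.length - p0) := fun h => hYb ⟨hY', Or.inr h⟩
    have hYz : p0 + N1 + q0 ≤ Y.length := hY'.1
    have hAm := Am_mono (Ms := Ms) (κ := κ) (Nat.le_succ m)
    have hcl := clean_of_not_BT (by
      show Am Ms κ m ≤ Y.length - p0
      have : Am Ms κ m ≤ Am Ms κ (m + 1) := hAm
      omega) hB
    obtain ⟨P, Q, b, e, hP, hQ⟩ := g.complete1 pre hlen1 hY' hE (fun u => hc1 (Y.drop p0)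
      (by rw [List.length_drop]; omega)
      (fun j => by
        rw [List.length_drop]
        exact hcl.1 _ (Finset.mem_image_of_mem q (Finset.mem_univ j)))
      (fun j h1 h2 => by rw [List.length_drop]; exact hcl.2 j h1 h2) u) v
    have hsnd := fun x P' (hP' : g.LP1 pre lam1 x P') => g.sound1 pre post hlen1 hex1 hP' hQ
    refine ⟨P, Q, e.symm, hP, fun x P' hP' => ⟨(hsnd x P' hP').1, ?_⟩⟩
    have h1 := (hsnd x P' hP').2
    have h2 := (hsnd v P hP).2
    rw [← e] at h2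
    rw [← hT, ← hT, h1, h2]
  · rintro Y ⟨hY, hYb⟩ Z ⟨hZ, -⟩ v
    have hYz : p0 + N1 + q0 ≤ Y.length := hY.1
    have htk : (Y.take p0).length = p0 := by rw [List.length_take]; omega
    obtain ⟨I, hI1, hI2⟩ := hc2 (Y.take p0) 1 v (fun i hi => by rw [htk]; exact hcp i hi)
    obtain ⟨P, Q, b, e, hP, hQ⟩ := g.complete2 pre post (BadT := BadT) (K := K) (c := c)
      (lam2 := lam2) (rho2 := fun i Q => rho2 i Q 1) (C0 := k + m) hcp hgap' hsp hthin hY hZ v
      ⟨I, hI1, fun i hi => by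
        obtain ⟨h1, h2, h3⟩ := hI2 i hi
        refine ⟨h1, ?_, h3⟩
        rw [List.take_take, Nat.min_eq_left (hcp i h1)] at h2
        exact h2⟩
    have hsnd : ∀ x P', Geo.LP2 K c lam2 x P' → ∀ X1, g.XX X1 → g.BadX BadT X1 →
        X1 <+: P' ++ Q → ∃ X2, g.XX X2 ∧ P' ++ Q = X1 ++ X2 ∧
          g.T pre post (g.T pre post x X1) X2 = b := by
      rintro x P' hP' X1 h1 h2 ⟨R', hR'⟩
      exact g.sound2 pre post hcp hex2 h1 h2 hP' hQ (R := []) (R' := R')
        (by rw [List.append_nil, hR'])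
    refine ⟨P, Q, e, hP, fun x P' hP' => ?_⟩
    obtain ⟨X2, h1, h2, h3⟩ := hsnd v P hP Y hY hYb ⟨Z, e.symm⟩
    have hX2 : X2 = Z := by
      rw [e] at h2
      exact (List.append_cancel_left h2).symm
    subst hX2
    -- first block of `P' ++ Q`
    have hfirst : ∃ l, g.XX (P' ++ Q.take l) := by
      obtain ⟨i0, hi0, hPl, -⟩ := hP'
      obtain ⟨i, hi, l, hend, hgood, -⟩ := hQ
      by_cases hii : i0 = i
      · subst hii
        exact ⟨l, g.xx_of_cend (by rw [hPl]; exact hcp i0 hi0) (by rw [hPl]; exact hend)⟩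
      · obtain ⟨l', h4, -⟩ := hgood i0 hi0 hii
        exact ⟨l', g.xx_of_cend (by rw [hPl]; exact hcp i0 hi0) (by rw [hPl]; exact h4)⟩
    obtain ⟨l, hl⟩ := hfirst
    have hpre : P' ++ Q.take l <+: P' ++ Q := ⟨Q.drop l, by
      rw [List.append_assoc, List.take_append_drop]⟩
    by_cases hbad : g.BadX BadT (P' ++ Q.take l)
    · left
      obtain ⟨X3, h4, h5, h6⟩ := hsnd x P' hP' _ hl hbad hpre
      refine ⟨P' ++ Q.take l, ⟨hl, hbad⟩, X3, h4, h5.symm, ?_⟩
      rw [← hT, ← hT, ← hT, ← hT, h6, h3]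
    · right
      exact ⟨P' ++ Q.take l, hl, fun h => hbad h.2, hpre⟩

end Crest.Agent.R320.Fin_823
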