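import Mathlib

/-!
# Row 320: spoil leaf (ruler) of lead #13673 (helper825)

`Bad n` = some prime of `Ms` divides `n`, or some of the first `m` digits of `n` in base `b` is
within `M` of `0` or `b`.  Ruler `c l = 2 ^ l * K0`, `K0 = 1 mod M`,
`K0 = 4 M (1 + b + .. + b^(m-1)) mod b^m`.
-/

set_option autoImplicit false

namespace Crest.Agent.R320.Sp_825

open Finset

/-- thin set of bad lengths -/
def Bad (m M b : ℕ) (Ms : Finset ℕ) (n : ℕ) : Prop :=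
  (∃ k ∈ Ms, k ∣ n) ∨ ∃ j < m, ¬ (M ≤ n / b ^ j % b ∧ n / b ^ j % b + M + 1 ≤ b)

theorem pow2_aux {a b c d : ℕ} (hab : a ≤ b) (hcd : c ≤ d) (h : 2 ^ a + 2 ^ b = 2 ^ c + 2 ^ d)
    (hac : a < c) : False := by
  obtain ⟨b', rfl⟩ := Nat.exists_eq_add_of_le hab
  obtain ⟨c', rfl⟩ := Nat.exists_eq_add_of_lt hac
  obtain ⟨d', rfl⟩ := Nat.exists_eq_add_of_le hcd
  have h0 : 0 < 2 ^ a := by positivity
  have e : 2 ^ a * (1 + 2 ^ b') = 2 ^ a * (2 * 2 ^ c' + 2 * (2 ^ c' * 2 ^ d')) := by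
    simp only [pow_add, pow_one] at h
    linarith
  have e2 : 1 + 2 ^ b' = 2 * 2 ^ c' + 2 * (2 ^ c' * 2 ^ d') := Nat.eq_of_mul_eq_mul_left h0 e
  have h1 : 0 < 2 ^ c' := by positivity
  have h2 : 0 < 2 ^ c' * 2 ^ d' := by positivity
  rcases b' with _ | b'
  · simp only [pow_zero] at e2
    omega
  · rw [pow_succ] at e2
    omega

theorem pow2_sidon' {a b c d : ℕ} (hab : a ≤ b) (hcd : c ≤ d)
    (h : 2 ^ a + 2 ^ b = 2 ^ c + 2 ^ d) : a = c ∧ b = d := by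
  have hac : a = c := by
    rcases lt_trichotomy a c with h1 | h1 | h1
    · exact (pow2_aux hab hcd h h1).elim
    · exact h1
    · exact (pow2_aux hcd hab h.symm h1).elim
  subst hac
  refine ⟨rfl, ?_⟩
  have : 2 ^ b = 2 ^ d := by omega
  exact Nat.pow_right_injective (le_refl 2) this

theorem pow2_sidon {i j k l : ℕ} (hij : i ≠ j) (hne : (i, j) ≠ (k, l)) :
    2 ^ i + 2 ^ l ≠ 2 ^ k + 2 ^ j := by
  intro h
  rcases le_total i l with h1 | h1 <;> rcases le_total k j with h2 | h2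
  · obtain ⟨rfl, rfl⟩ := pow2_sidon' h1 h2 h
    exact hne rfl
  · obtain ⟨rfl, rfl⟩ := pow2_sidon' h1 h2 (by omega)
    exact hij rfl
  · obtain ⟨rfl, rfl⟩ := pow2_sidon' h1 h2 (by omega)
    exact hij rfl
  · obtain ⟨rfl, rfl⟩ := pow2_sidon' h1 h2 (by omega)
    exact hne rfl

/-- `1 + b + ... + b^(e-1)` -/
def Sg (b e : ℕ) : ℕ := ∑ i ∈ range e, b ^ i

theorem Sg_succ (b e : ℕ) : Sg b (e + 1) = Sg b e + b ^ e := by
  unfold Sg; rw [sum_range_succ]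

theorem Sg_le {b : ℕ} (hb : 2 ≤ b) (e : ℕ) : Sg b (e + 1) ≤ 2 * b ^ e := by
  induction e with
  | zero => simp [Sg]
  | succ e ih =>
    rw [Sg_succ]
    have : 2 * b ^ e ≤ b ^ (e + 1) := by rw [pow_succ, mul_comm]; exact Nat.mul_le_mul_left _ hb
    omega

theorem le_Sg (b e : ℕ) : b ^ e ≤ Sg b (e + 1) := by rw [Sg_succ]; omega

theorem Sg_split {b e m : ℕ} (h : e + 1 ≤ m) :
    ∃ x : ℕ, Sg b m = Sg b (e + 1) + b ^ (e + 1) * x := by
  obtain ⟨d, rfl⟩ := Nat.exists_eq_add_of_le h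
  refine ⟨Sg b d, ?_⟩
  unfold Sg
  rw [sum_range_add, mul_sum]
  congr 1
  refine sum_congr rfl fun i _ => ?_
  rw [pow_add]

theorem digit {b M e n : ℕ} (hb : 0 < b) (hM : 0 < M)
    (h : ¬ (M ≤ n / b ^ e % b ∧ n / b ^ e % b + M + 1 ≤ b)) :
    ∃ t : ℤ, -((M : ℤ) * b ^ e) ≤ n - t * b ^ (e + 1) ∧ n - t * b ^ (e + 1) < (M : ℤ) * b ^ e := by
  have hbe : 0 < b ^ e := by positivity
  set g := n / b ^ e % b with hg
  set q := n / b ^ e / b with hq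
  have e1 : n = b ^ e * (n / b ^ e) + n % b ^ e := (Nat.div_add_mod _ _).symm
  have e2 : n / b ^ e = b * q + g := (Nat.div_add_mod _ _).symm
  have hr : n % b ^ e < b ^ e := Nat.mod_lt _ hbe
  have e3 : (n : ℤ) = (b : ℤ) ^ e * (b * q + g) + (n % b ^ e : ℕ) := by
    rw [e2] at e1
    exact_mod_cast e1
  have hr0 : (0 : ℤ) ≤ ((n % b ^ e : ℕ) : ℤ) := by positivity
  have hr1 : ((n % b ^ e : ℕ) : ℤ) < (b : ℤ) ^ e := by exact_mod_cast hr
  have hbz : (0 : ℤ) < (b : ℤ) ^ e := by exact_mod_cast hbe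
  have hgb : g < b := Nat.mod_lt _ hb
  generalize ((n % b ^ e : ℕ) : ℤ) = ρ at *
  by_cases h1 : g < M
  · refine ⟨q, ?_, ?_⟩
    · rw [e3, pow_succ]
      have : (0 : ℤ) ≤ (b : ℤ) ^ e * g := by positivity
      have : (0 : ℤ) ≤ (M : ℤ) * b ^ e := by positivity
      nlinarith
    · rw [e3, pow_succ]
      have h2 : (g : ℤ) + 1 ≤ M := by exact_mod_cast h1
      have : (b : ℤ) ^ e * (g + 1) ≤ b ^ e * M := mul_le_mul_of_nonneg_left h2 hbz.le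
      nlinarith
  · have h2 : b ≤ g + M := by omega
    refine ⟨q + 1, ?_, ?_⟩
    · rw [e3, pow_succ]
      have h3 : (b : ℤ) ≤ g + M := by exact_mod_cast h2
      have : (b : ℤ) ^ e * b ≤ b ^ e * (g + M) := mul_le_mul_of_nonneg_left h3 hbz.le
      nlinarith
    · rw [e3, pow_succ]
      have h3 : (g : ℤ) + 1 ≤ b := by exact_mod_cast hgb
      have : (b : ℤ) ^ e * (g + 1) ≤ b ^ e * b := mul_le_mul_of_nonneg_left h3 hbz.le
      have : (0 : ℤ) ≤ (M : ℤ) * b ^ e := by positivity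
      have : (0 : ℤ) < (M : ℤ) := by exact_mod_cast hM
      nlinarith

/-- two different pairs never hit the same bad digit -/
theorem digit_one {b M m e K K0 n1 n2 : ℕ} {δ : ℤ} (hM : 0 < M) (hb : 2 ^ (K + 5) * M < b)
    (he : e < m) (hK0 : ((b : ℤ) ^ m) ∣ (K0 : ℤ) - (4 * M * Sg b m : ℕ))
    (hδ : δ ≠ 0) (hδ2 : |δ| ≤ 2 ^ K) (hn : (n1 : ℤ) - n2 = δ * K0)
    (h1 : ¬ (M ≤ n1 / b ^ e % b ∧ n1 / b ^ e % b + M + 1 ≤ b))
    (h2 : ¬ (M ≤ n2 / b ^ e % b ∧ n2 / b ^ e % b + M + 1 ≤ b)) : False := by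
  have hb0 : 0 < b := by omega
  have hb2 : 2 ≤ b := by
    have : 1 ≤ 2 ^ (K + 5) * M := Nat.mul_pos (by positivity) hM
    omega
  obtain ⟨t1, a1, a2⟩ := digit hb0 hM h1
  obtain ⟨t2, a3, a4⟩ := digit hb0 hM h2
  obtain ⟨s, hs⟩ := hK0
  obtain ⟨x, hx⟩ := Sg_split (b := b) (show e + 1 ≤ m from he)
  obtain ⟨y, rfl⟩ := Nat.exists_eq_add_of_le (show e + 1 ≤ m from he)
  have hB : (0 : ℤ) < (b : ℤ) ^ e := by positivity
  -- K0 = κ + B * stuff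
  have e1 : (K0 : ℤ) = 4 * M * Sg b (e + 1) + b ^ (e + 1) * (4 * M * x + b ^ y * s) := by
    have : (K0 : ℤ) = (4 * M * Sg b (e + 1 + y) : ℕ) + b ^ (e + 1 + y) * s := by linarith
    rw [this, hx, pow_add]
    push_cast
    ring
  set κ : ℤ := 4 * M * Sg b (e + 1) with hκ
  have k1 : 4 * (M * (b : ℤ) ^ e) ≤ κ := by
    have : ((b ^ e : ℕ) : ℤ) ≤ Sg b (e + 1) := by exact_mod_cast le_Sg b e
    push_cast at this
    have h := mul_le_mul_of_nonneg_left this (show (0 : ℤ) ≤ 4 * M by positivity)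
    rw [hκ]
    linarith
  have k2 : κ ≤ 8 * (M * (b : ℤ) ^ e) := by
    have : (Sg b (e + 1) : ℤ) ≤ ((2 * b ^ e : ℕ) : ℤ) := by exact_mod_cast Sg_le hb2 e
    push_cast at this
    have h := mul_le_mul_of_nonneg_left this (show (0 : ℤ) ≤ 4 * M by positivity)
    rw [hκ]
    linarith
  set t : ℤ := t1 - t2 - δ * (4 * M * x + b ^ y * s) with ht
  have e2 : δ * κ - t * b ^ (e + 1) =
      (n1 - t1 * b ^ (e + 1)) - (n2 - t2 * b ^ (e + 1)) := by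
    have : (n1 : ℤ) - n2 = δ * (κ + b ^ (e + 1) * (4 * M * x + b ^ y * s)) := by rw [hn, e1]
    rw [ht]
    linear_combination (-1 : ℤ) * this
  set E : ℤ := M * (b : ℤ) ^ e with hE
  have hE0 : 0 < E := by positivity
  have b1 : |δ * κ - t * b ^ (e + 1)| < 2 * E := by
    rw [e2, abs_lt]
    constructor <;> linarith
  have hκ0 : 0 < κ := by linarith
  have b2 : 4 * E ≤ |δ * κ| := by
    rw [abs_mul, abs_of_pos hκ0]
    have : 1 ≤ |δ| := Int.one_le_abs hδ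
    nlinarith
  have b3 : |δ * κ| ≤ 2 ^ K * (8 * E) := by
    rw [abs_mul, abs_of_pos hκ0]
    exact mul_le_mul hδ2 k2 hκ0.le (by positivity)
  have b4 : |t * b ^ (e + 1)| ≤ |δ * κ| + |δ * κ - t * b ^ (e + 1)| := by
    have h := abs_sub (δ * κ) (δ * κ - t * b ^ (e + 1))
    have e3 : δ * κ - (δ * κ - t * b ^ (e + 1)) = t * b ^ (e + 1) := by ring
    rw [e3] at h
    exact h
  have b5 : (2 : ℤ) ^ K * (8 * E) + 2 * E < b ^ (e + 1) := by
    have h3 : ((2 ^ (K + 5) * M : ℕ) : ℤ) < b := by exact_mod_cast hb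
    push_cast at h3
    rw [pow_add] at h3
    have h4 : (1 : ℤ) ≤ 2 ^ K := one_le_pow₀ (by norm_num)
    have h5 : ((2 : ℤ) ^ K * 2 ^ 5 * M) * b ^ e < b * b ^ e := mul_lt_mul_of_pos_right h3 hB
    have h6 : (2 : ℤ) ^ K * 2 ^ 5 * M * b ^ e = 32 * (2 ^ K * E) := by rw [hE]; ring
    have h7 : (b : ℤ) * b ^ e = b ^ (e + 1) := by ring
    have h8 : E ≤ 2 ^ K * E := le_mul_of_one_le_left hE0.le h4
    rw [h6, h7] at h5
    have h9 : (2 : ℤ) ^ K * (8 * E) = 8 * (2 ^ K * E) := by ring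
    rw [h9]
    clear h3 h4 h6 h7 hE b1 b2 b3 b4 e2 e1 hκ k1 k2 hs ht a1 a2 a3 a4
    linarith
  have hBB : (0 : ℤ) < b ^ (e + 1) := by positivity
  clear_value κ E t
  clear e1 e2 k1 k2 hκ hE ht hs hx hn a1 a2 a3 a4 h1 h2 hb
  generalize (b : ℤ) ^ (e + 1) = B at *
  have ht0 : t = 0 := by
    by_contra hne
    have h6 : 1 ≤ |t| := Int.one_le_abs hne
    have h7 : |t * B| = |t| * B := by rw [abs_mul, abs_of_pos hBB]
    have h8 : B ≤ |t| * B := by nlinarith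
    linarith
  rw [ht0, zero_mul, sub_zero] at b1
  linarith

/-- **SPOIL** (lead #13673): the ruler. -/
theorem spoil (m K N1 : ℕ) (Ms : Finset ℕ) (M b : ℕ) (hM : 0 < M)
    (hMs : ∀ k ∈ Ms, 2 ^ K < k ∧ k ∣ M) (hb : 2 ^ (K + 5) * M < b) (hcop : Nat.Coprime b M) :
    ∃ c : ℕ → ℕ, (∀ i j, i < j → c i + 4 * N1 < c j) ∧
      (∀ i j k l, i ≠ j → k ≠ l → (i, j) ≠ (k, l) →
        c i + c l + 4 * N1 < c k + c j ∨ c k + c j + 4 * N1 < c i + c l) ∧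
      ∀ (T : ℕ), (∀ i < K, c i ≤ T) → ∀ S : Finset (ℕ × ℕ),
        (∀ p ∈ S, p.1 < K ∧ p.2 < K ∧ p.1 ≠ p.2 ∧ Bad m M b Ms (T + c p.2 - c p.1)) →
        S.card ≤ Ms.card + m := by
  classical
  have hcop' : Nat.Coprime M (b ^ m) := (Nat.Coprime.pow_left m hcop).symm
  obtain ⟨x, hx1, hx2⟩ := Nat.chineseRemainder hcop' 1 (4 * M * Sg b m)
  have hb0 : 0 < b := by omega
  set K0 : ℕ := x + M * b ^ m * (4 * N1 + 1) with hK0
  have hMb : 0 < M * b ^ m := by positivity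
  have hpos : 4 * N1 < K0 := by nlinarith
  have m1 : (M : ℤ) ∣ (K0 : ℤ) - 1 := by
    have h := (Nat.modEq_iff_dvd.1 hx1.symm)
    obtain ⟨y, hy⟩ := h
    refine ⟨y + b ^ m * (4 * N1 + 1), ?_⟩
    rw [hK0]
    push_cast at hy ⊢
    linear_combination hy
  have m2 : ((b : ℤ) ^ m) ∣ (K0 : ℤ) - (4 * M * Sg b m : ℕ) := by
    have h := (Nat.modEq_iff_dvd.1 hx2.symm)
    obtain ⟨y, hy⟩ := h
    refine ⟨y + M * (4 * N1 + 1), ?_⟩
    rw [hK0]
    push_cast at hy ⊢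
    linear_combination hy
  refine ⟨fun l => 2 ^ l * K0, ?_, ?_, ?_⟩
  · intro i j hij
    have h1 : 2 ^ i + 1 ≤ 2 ^ j := Nat.pow_lt_pow_right (by norm_num) hij
    show 2 ^ i * K0 + 4 * N1 < 2 ^ j * K0
    nlinarith
  · intro i j k l hij hkl hne
    have h1 := pow2_sidon hij hne
    show 2 ^ i * K0 + 2 ^ l * K0 + 4 * N1 < 2 ^ k * K0 + 2 ^ j * K0 ∨
      2 ^ k * K0 + 2 ^ j * K0 + 4 * N1 < 2 ^ i * K0 + 2 ^ l * K0
    rcases Nat.lt_or_gt_of_ne h1 with h2 | h2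
    · left
      have h3 : 2 ^ i + 2 ^ l + 1 ≤ 2 ^ k + 2 ^ j := h2
      nlinarith
    · right
      have h3 : 2 ^ k + 2 ^ j + 1 ≤ 2 ^ i + 2 ^ l := h2
      nlinarith
  · intro T hT S hS
    let R : ℕ × ℕ → ℕ ⊕ ℕ → Prop := fun p r =>
      match r with
      | Sum.inl k => k ∣ T + 2 ^ p.2 * K0 - 2 ^ p.1 * K0
      | Sum.inr j => ¬ (M ≤ (T + 2 ^ p.2 * K0 - 2 ^ p.1 * K0) / b ^ j % b ∧
          (T + 2 ^ p.2 * K0 - 2 ^ p.1 * K0) / b ^ j % b + M + 1 ≤ b)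
    have hcard : (Ms.disjSum (range m)).card = Ms.card + m := by
      rw [card_disjSum, card_range]
    rw [← hcard]
    refine card_le_card_of_forall_subsingleton R ?_ ?_
    · intro p hp
      obtain ⟨h1, h2, h3, h4⟩ := hS p hp
      rcases h4 with ⟨k, hk, hd⟩ | ⟨j, hj, hd⟩
      · exact ⟨Sum.inl k, by simp [hk], hd⟩
      · exact ⟨Sum.inr j, by simp [hj], hd⟩
    · intro r hr p hp p' hp'
      obtain ⟨h1, h2, h3, -⟩ := hS p hp.1
      obtain ⟨h1', h2', h3', -⟩ := hS p' hp'.1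
      by_contra hne
      have hne2 : (p.1, p.2) ≠ (p'.1, p'.2) := hne
      have hs := pow2_sidon h3 hne2
      set δ : ℤ := (2 ^ p'.1 + 2 ^ p.2) - (2 ^ p.1 + 2 ^ p'.2) with hδ
      have hδ0 : δ ≠ 0 := by
        intro h0
        apply hs
        have : ((2 ^ p.1 + 2 ^ p'.2 : ℕ) : ℤ) = ((2 ^ p'.1 + 2 ^ p.2 : ℕ) : ℤ) := by
          push_cast
          linarith
        exact_mod_cast this
      have hbd : ∀ i < K, (1 : ℤ) ≤ 2 ^ i ∧ (2 : ℤ) * 2 ^ i ≤ 2 ^ K := by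
        intro i hi
        refine ⟨one_le_pow₀ (by norm_num), ?_⟩
        rw [← pow_succ']
        exact pow_le_pow_right₀ (by norm_num) hi
      have hδ2 : |δ| < 2 ^ K := by
        obtain ⟨a1, a2⟩ := hbd _ h1
        obtain ⟨a3, a4⟩ := hbd _ h2
        obtain ⟨a5, a6⟩ := hbd _ h1'
        obtain ⟨a7, a8⟩ := hbd _ h2'
        rw [abs_lt]
        constructor <;> linarith
      have c1 : ((T + 2 ^ p.2 * K0 - 2 ^ p.1 * K0 : ℕ) : ℤ) = T + 2 ^ p.2 * K0 - 2 ^ p.1 * K0 := by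
        have hh : 2 ^ p.1 * K0 ≤ T := hT _ h1
        rw [Nat.cast_sub (le_trans hh (Nat.le_add_right _ _))]
        push_cast
        ring
      have c2 : ((T + 2 ^ p'.2 * K0 - 2 ^ p'.1 * K0 : ℕ) : ℤ) =
          T + 2 ^ p'.2 * K0 - 2 ^ p'.1 * K0 := by
        have hh : 2 ^ p'.1 * K0 ≤ T := hT _ h1'
        rw [Nat.cast_sub (le_trans hh (Nat.le_add_right _ _))]
        push_cast
        ring
      have hn : ((T + 2 ^ p.2 * K0 - 2 ^ p.1 * K0 : ℕ) : ℤ) -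
          ((T + 2 ^ p'.2 * K0 - 2 ^ p'.1 * K0 : ℕ) : ℤ) = δ * K0 := by
        rw [c1, c2, hδ]
        ring
      rcases r with k | j
      · have hk : k ∈ Ms := by simpa using hr
        obtain ⟨hk1, hk2⟩ := hMs k hk
        have d1 : (k : ℤ) ∣ ((T + 2 ^ p.2 * K0 - 2 ^ p.1 * K0 : ℕ) : ℤ) :=
          Int.natCast_dvd_natCast.2 hp.2
        have d2 : (k : ℤ) ∣ ((T + 2 ^ p'.2 * K0 - 2 ^ p'.1 * K0 : ℕ) : ℤ) :=
          Int.natCast_dvd_natCast.2 hp'.2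
        have d3 := Int.dvd_sub d1 d2
        rw [hn] at d3
        have d4 : (k : ℤ) ∣ (K0 : ℤ) - 1 := (Int.natCast_dvd_natCast.2 hk2).trans m1
        have d5 : (k : ℤ) ∣ δ := by
          have h := Int.dvd_sub d3 (d4.mul_left δ)
          have e : δ * (K0 : ℤ) - δ * (K0 - 1) = δ := by ring
          rwa [e] at h
        have d6 := Int.le_of_dvd (abs_pos.2 hδ0) ((dvd_abs _ _).2 d5)
        have d7 : ((2 ^ K : ℕ) : ℤ) < k := by exact_mod_cast hk1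
        push_cast at d7
        linarith
      · have hj : j < m := by simpa using hr
        exact digit_one hM hb hj m2 hδ0 hδ2.le hn hp.2 hp'.2

end Crest.Agent.R320.Sp_825
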