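import Crest.Agent.R320.Top5_120
import Crest.Agent.R320.Sc2n_937
import Crest.Agent.R320.G1_852
import Crest.Agent.R320.P4_933
import Crest.Agent.R320.LWallAll_922
import Crest.Agent.R320.ExactR_237
import Crest.Agent.R320.Block_467
import Crest.Agent.R320.Sp_825
import Crest.Agent.R320.Univ_188

/-!
# Row 320: the join (helper825)
-/

set_option autoImplicit false

namespace Crest.Agent.R320.Fin_825

open Crest.RegLang Crest.Agent.R320.Hk_851 Crest.Agent.R320.BddReg_746

universe u

variable {α : Type u}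

/-- finite-state properties (prefix, length, value of the rest) are regular -/
theorem regular_of_class' [Finite α] {S : Type*} [Monoid S] [Finite S] (φ : α → S) (A M0 : ℕ)
    (hM : 0 < M0) (f : List α → Prop)
    (hf : ∀ u u' : List α, A ≤ u.length → A ≤ u'.length → u.take A = u'.take A →
      u.length % M0 = u'.length % M0 → ((u.drop A).map φ).prod = ((u'.drop A).map φ).prod →
      f u → f u') :
    Language.IsRegular ({u | f u} : Language α) := by
  classical
  haveI : NeZero M0 := ⟨by omega⟩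
  have hfin : Finite {l : List α // l.length ≤ A} := List.finite_length_le α A
  let σ := {l : List α // l.length ≤ A} × ZMod M0 × S
  haveI : Fintype σ := Fintype.ofFinite σ
  let st : List α → σ := fun u =>
    (⟨u.take A, by rw [List.length_take]; omega⟩, (u.length : ZMod M0), ((u.drop A).map φ).prod)
  let M : DFA α σ :=
    { step := fun q a =>
        (if h : q.1.1.length < A then ⟨q.1.1 ++ [a], by simp; omega⟩ else q.1,
          q.2.1 + 1, if q.1.1.length < A then q.2.2 else q.2.2 * φ a)
      start := st []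
      accept := {q | ∃ u, f u ∧ st u = q} }
  have hev : ∀ u, M.eval u = st u := by
    intro u
    induction u using List.reverseRecOn with
    | nil => rfl
    | append_singleton u a ih =>
      rw [DFA.eval_append_singleton, ih]
      refine Prod.ext ?_ (Prod.ext ?_ ?_)
      · apply Subtype.ext
        show (if h : (u.take A).length < A then (⟨u.take A ++ [a], by simp at h ⊢; omega⟩ :
          {l : List α // l.length ≤ A}) else ⟨u.take A, by rw [List.length_take]; omega⟩).1
          = (u ++ [a]).take A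
        rw [Crest.Agent.R320.P4_933.take_snoc]
        split_ifs <;> rfl
      · show (u.length : ZMod M0) + 1 = (((u ++ [a]).length : ℕ) : ZMod M0)
        simp
      · show (if (u.take A).length < A then ((u.drop A).map φ).prod else
          ((u.drop A).map φ).prod * φ a) = (((u ++ [a]).drop A).map φ).prod
        by_cases h : u.length < A
        · rw [if_pos (by rw [List.length_take]; omega), List.drop_eq_nil_of_le (by omega),
            List.drop_eq_nil_of_le (by simp; omega)]
        · rw [if_neg (by rw [List.length_take]; omega), List.drop_append_of_le_length (by omega)]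
          simp
  refine Language.isRegular_iff.2 ⟨σ, inferInstance, M, ?_⟩
  ext u
  rw [DFA.mem_accepts, hev]
  constructor
  · rintro ⟨u', h1, h2⟩
    have e1 : u'.take A = u.take A := congrArg (fun q : σ => q.1.1) h2
    have e2 : (u'.length : ZMod M0) = (u.length : ZMod M0) := congrArg (fun q : σ => q.2.1) h2
    have e3 : ((u'.drop A).map φ).prod = ((u.drop A).map φ).prod :=
      congrArg (fun q : σ => q.2.2) h2
    have e2' : u'.length % M0 = u.length % M0 := (ZMod.natCast_eq_natCast_iff' _ _ _).1 e2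
    have e4 := congrArg List.length e1
    rw [List.length_take, List.length_take] at e4
    by_cases h : u.length < A
    · rw [List.take_of_length_le (by omega), List.take_of_length_le (by omega)] at e1
      rw [← e1]; exact h1
    · exact hf u' u (by omega) (by omega) e1 e2' e3 h1
  · intro h
    exact ⟨u, h, rfl⟩

theorem prod_drop {S : Type*} [Monoid S] (φ : α → S) {a A : ℕ} (ha : a ≤ A) {u : List α}
    (hu : A ≤ u.length) :
    ((u.drop a).map φ).prod = (((u.take A).drop a).map φ).prod * ((u.drop A).map φ).prod := by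
  have e : u.drop a = (u.take A).drop a ++ u.drop A := by
    conv_lhs => rw [← List.take_append_drop A u]
    rw [List.drop_append_of_le_length (by rw [List.length_take]; omega)]
  rw [e, List.map_append, List.prod_append]

theorem take_of {a A : ℕ} (ha : a ≤ A) {u u' : List α} (h : u.take A = u'.take A) :
    u.take a = u'.take a := by
  have h1 := congrArg (fun l => l.take a) h
  simp only [List.take_take, Nat.min_eq_left ha] at h1
  exact h1

theorem mod_sub {a x y N : ℕ} (hx : a ≤ x) (hy : a ≤ y) (h : x % N = y % N) :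
    (x - a) % N = (y - a) % N := by
  have h1 : x - a + a ≡ y - a + a [MOD N] := by
    rw [Nat.sub_add_cancel hx, Nat.sub_add_cancel hy]; exact h
  exact Nat.ModEq.add_right_cancel' a h1

theorem bad_periodic {m M b : ℕ} {Ms : Finset ℕ} (hMs : ∀ k ∈ Ms, k ∣ M) {x y : ℕ}
    (h : x % (M * b ^ m) = y % (M * b ^ m)) (hx : Sp_825.Bad m M b Ms x) :
    Sp_825.Bad m M b Ms y := by
  have h' : x ≡ y [MOD M * b ^ m] := h
  rcases hx with ⟨k, hk, hd⟩ | ⟨j, hj, hd⟩
  · left
    refine ⟨k, hk, ?_⟩
    have h1 : x ≡ y [MOD k] := h'.of_dvd ((hMs k hk).trans (Dvd.intro _ rfl))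
    exact (h1.dvd_iff dvd_rfl).1 hd
  · right
    refine ⟨j, hj, ?_⟩
    have h1 : x ≡ y [MOD b ^ j * b] := h'.of_dvd (by
      rw [← pow_succ]
      exact (pow_dvd_pow b hj).trans (Dvd.intro_left _ rfl))
    have e : x / b ^ j % b = y / b ^ j % b := by
      rw [← Nat.mod_mul_right_div_self, ← Nat.mod_mul_right_div_self]
      rw [show x % (b ^ j * b) = y % (b ^ j * b) from h1]
    rwa [e] at hd

open Crest.Agent.R320.Blk467 in
theorem join {α S V : Type} [Finite α] [Monoid S] [Fintype S] [AddCommGroup V] [Fintype V]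
    (act : V → S → V)
    (hadd : ∀ a b s, act (a + b) s = act a s + act b s)
    (hone : ∀ v, act v 1 = v) (hmul : ∀ v s t, act v (s * t) = act (act v s) t)
    (hfaith : ∀ s t, (∀ v, act v s = act v t) → s = t)
    (φ : α → S) (s : S) : HL 3 ({w | (w.map φ).prod = s} : Language α) := by
  classical
  obtain ⟨m, r, hG⟩ := G1_852.gadget (S := S) (V := V) act
  obtain ⟨K, hX⟩ := ExactR_237.exact_gadget α S V φ act (2 * (r + m) + 2)
  obtain ⟨Ms, M, hMc, hMs, hM, hG⟩ := hG (2 ^ K)
  obtain ⟨b, hb, hb0, hcop⟩ : ∃ b : ℕ, 2 ^ (K + 5) * M < b ∧ 0 < b ∧ Nat.Coprime b M := by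
    refine ⟨2 ^ (K + 5) * M + 1, by omega, by omega, ?_⟩
    simp
  obtain ⟨lam, rho, nu1, h1, h2, h3, h4⟩ := hG b hb0 hcop α φ
  obtain ⟨c, hc1, hc2, hc3⟩ := Sp_825.spoil m K (b ^ m) Ms M b hM
    (fun k hk => ⟨(hMs k hk).1, (hMs k hk).2.2⟩) hb hcop
  obtain ⟨lam2, rho2, nu2, hx1, hx2⟩ := hX c (fun i j hij _ => by have := hc1 i j hij; omega)
  obtain ⟨N1, hN1⟩ : ∃ N1, N1 = b ^ m := ⟨_, rfl⟩
  obtain ⟨p0, hp0⟩ : ∃ p0, p0 = c K := ⟨_, rfl⟩
  have hN1pos : 0 < N1 := by rw [hN1]; positivity
  have hcp : ∀ k, k < K → c k ≤ p0 := fun k hk => by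
    have := hc1 k K hk
    omega
  obtain ⟨n, G, B, Wo, hLW, hsep, -, -, hfree⟩ :=
    LWallAll_922.walls_all_left α (2 * p0 + 2 * N1 + 1) (by omega)
  have hloc : ∀ P Q : List α, n ≤ Q.length → (Wo (P ++ Q) ↔ Wo Q) := hLW.1
  have hlen : ∀ P, Wo P → n ≤ P.length := hLW.2
  let g : Sc2n_937.Geo α :=
    { Wo := Wo, n := n, z := p0 + N1 + (n + 2 * p0), p0 := p0, q0 := n + 2 * p0, N1 := N1
      loc := hloc, hz := rfl, hq := by omega, hN := hN1pos, hqp := by omega }
  have hgW : g.Wo = Wo := rfl
  have hgz : g.z = p0 + N1 + (n + 2 * p0) := rfl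
  have hgp : g.p0 = p0 := rfl
  have hgq : g.q0 = n + 2 * p0 := rfl
  have hgN : g.N1 = N1 := rfl
  let pre : List α → V → V := fun P v => act v (P.map φ).prod + nu2 P 1
  let post : V → List α → V := fun u Y => act u (Y.map φ).prod + nu1 Y
  let nu : List α → V := fun X =>
    act (nu2 (X.take p0) 1) ((X.drop p0).map φ).prod + nu1 (X.drop p0)
  have hT : ∀ v X, g.T pre post v X = act v (X.map φ).prod + nu X := by
    intro v X
    have e : (X.map φ).prod = ((X.take p0).map φ).prod * ((X.drop p0).map φ).prod := by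
      rw [← List.prod_append, ← List.map_append, List.take_append_drop]
    show act (act v ((X.take p0).map φ).prod + nu2 (X.take p0) 1) ((X.drop p0).map φ).prod +
      nu1 (X.drop p0) = _
    rw [hadd, e, hmul, add_assoc]
  let BadT : ℕ → Prop := Sp_825.Bad m M b Ms
  let C : Set (List α) := {X | g.XX X}
  let Bd : Set (List α) := {X | g.XX X ∧ g.BadX BadT X}
  have hzpos : 0 < g.z := by rw [hgz]; omega
  have hC : PCode C := by
    refine ⟨fun h => ?_, fun X hX Y hY hp => ?_⟩
    · have : g.z ≤ ([] : List α).length := h.1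
      simp at this
      omega
    · obtain ⟨R, hR⟩ := hp
      exact g.prefix_code hX hY (R := R) (R' := []) (by rw [hR, List.append_nil])
  have hBC : Bd ⊆ C := fun X hX => hX.1
  have hxx : ∀ X, P4_933.XX Wo g.z X ↔ g.XX X := by
    intro X
    constructor
    · rintro ⟨a1, a2, a3⟩
      exact ⟨a2, a1, fun t ht ht2 => a3 t ht2 ht⟩
    · rintro ⟨a1, a2, a3⟩
      exact ⟨a2, a1, fun t ht ht2 => a3 t ht2 ht⟩
  have free : ∀ u : List α, (∀ t < u.length, ¬ Wo (u.take t)) →
      u ∈ (PN (max B (2 * p0 + 2 * N1 + 1)) 2 : Language α) := by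
    intro u hu
    obtain ⟨a, x, v, k, e1, e2, e3, rfl⟩ := hfree u hu
    refine Language.mem_mul.2 ⟨a ++ pw x k, ⟨a, x, k, by omega, by omega, rfl⟩, v,
      Language.mem_mul.2 ⟨v, ⟨v, [], 0, by omega, by simp, by simp⟩, [], rfl, by simp⟩, rfl⟩
  -- regularity
  have hN0 : 0 < M * b ^ m := by positivity
  have hreg : ∀ x y : V, ∀ u u' : List α, g.z + N1 ≤ u.length → g.z + N1 ≤ u'.length →
      u.take (g.z + N1) = u'.take (g.z + N1) → u.length % (M * b ^ m) = u'.length % (M * b ^ m) →
      ((u.drop (g.z + N1)).map φ).prod = ((u'.drop (g.z + N1)).map φ).prod →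
      (u.map φ).prod = (u'.map φ).prod ∧ nu u = nu u' := by
    intro x y u u' hu hu' ht hm hd
    have hd' : ∀ a, a ≤ g.z + N1 → ((u.drop a).map φ).prod = ((u'.drop a).map φ).prod := by
      intro a ha
      rw [prod_drop φ ha hu, prod_drop φ ha hu', ht, hd]
    refine ⟨by simpa using hd' 0 (by omega), ?_⟩
    have e1 : u.take p0 = u'.take p0 := take_of (by omega) ht
    have e2 := hd' p0 (by omega)
    have e3 : nu1 (u.drop p0) = nu1 (u'.drop p0) := by
      refine (h4 _ _ ?_ ?_ ?_).2
      · rw [List.take_drop, List.take_drop, take_of (by omega) ht]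
      · rw [List.drop_drop, List.drop_drop]
        exact hd' _ (by omega)
      · rw [List.length_drop, List.length_drop]
        exact mod_sub (by omega) (by omega) hm
    show act (nu2 (u.take p0) 1) ((u.drop p0).map φ).prod + nu1 (u.drop p0) =
      act (nu2 (u'.take p0) 1) ((u'.drop p0).map φ).prod + nu1 (u'.drop p0)
    rw [e1, e2, e3]
  have hCT : ∀ x y, HL 1 ({X | X ∈ C ∧ act x (X.map φ).prod + nu X = y} : Language α) := by
    intro x y
    refine (P4_933.hl_XX (z := g.z) hloc hlen free
      (f := fun X => act x (X.map φ).prod + nu X = y) ?_).congr fun w => ?_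
    · refine regular_of_class' φ (g.z + N1) (M * b ^ m) hN0 _ ?_
      intro u u' a1 a2 a3 a4 a5 a6
      obtain ⟨e1, e2⟩ := hreg x y u u' a1 a2 a3 a4 a5
      rw [← e1, ← e2]; exact a6
    · constructor
      · rintro ⟨a1, a2⟩
        exact ⟨(hxx w).2 a1, a2⟩
      · rintro ⟨a1, a2⟩
        exact ⟨(hxx w).1 a1, a2⟩
  have hBT : ∀ x y, HL 1 ({X | X ∈ Bd ∧ act x (X.map φ).prod + nu X = y} : Language α) := by
    intro x y
    refine (P4_933.hl_XX (z := g.z) hloc hlen free
      (f := fun X => g.BadX BadT X ∧ act x (X.map φ).prod + nu X = y) ?_).congr fun w => ?_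
    · refine regular_of_class' φ (g.z + N1) (M * b ^ m) hN0 _ ?_
      rintro u u' a1 a2 a3 a4 a5 ⟨a6, a7⟩
      obtain ⟨e1, e2⟩ := hreg x y u u' a1 a2 a3 a4 a5
      refine ⟨?_, by rw [← e1, ← e2]; exact a7⟩
      rcases a6 with ⟨t, b1, b2, b3, b4⟩ | a6
      · left
        refine ⟨t, by omega, ?_, b3, b4⟩
        rw [← take_of (a := t) (by omega) a3]
        exact b2
      · right
        refine bad_periodic (fun k hk => (hMs k hk).2.2) ?_ a6
        exact mod_sub (by omega) (by omega) a4
    · constructor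
      · rintro ⟨⟨a1, a2⟩, a3⟩
        exact ⟨(hxx w).2 a1, a2, a3⟩
      · rintro ⟨a1, a2, a3⟩
        exact ⟨⟨(hxx w).1 a1, a2⟩, a3⟩
  have htail : ∀ s, HL 1 ({w | (∀ X ∈ C, ¬ X <+: w) ∧ (w.map φ).prod = s} : Language α) := by
    intro s
    refine (P4_933.hl_NB (z := g.z) hloc hlen free
      (f := fun X => (X.map φ).prod = s) ?_).congr fun w => ?_
    · refine P4_933.regular_of_class φ 0 1 (by norm_num) _ ?_
      intro u u' _ _ _ _ e
      rw [e]
    · constructor
      · rintro ⟨a1, a2⟩
        refine ⟨(P4_933.NB_iff Wo g.z w).2 fun P hp hX => ?_, a2⟩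
        exact a1 P ((hxx P).1 hX) hp
      · rintro ⟨a1, a2⟩
        refine ⟨fun X hX hp => ?_, a2⟩
        exact (P4_933.NB_iff Wo g.z w).1 a1 X hp ((hxx X).2 hX)
  let L1 : V → Set (List α) := fun v => {P | g.LP1 pre lam v P}
  let L2 : V → Set (List α) := fun v => {P | Sc2n_937.Geo.LP2 K c lam2 v P}
  have hlamlen : ∀ P v, lam P = some v → P.length ≤ g.N1 := fun P v h => by
    have := h1 P v h
    rw [hgN, hN1]
    exact this.le
  have hf1 : ∀ v, (L1 v).Finite := by
    intro v
    refine (List.finite_length_le α (p0 + N1)).subset fun P hP => ?_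
    have h := hlamlen _ _ hP.2
    rw [List.length_drop] at h
    show P.length ≤ p0 + N1
    omega
  have hf2 : ∀ v, (L2 v).Finite := by
    intro v
    refine (List.finite_length_le α p0).subset fun P hP => ?_
    obtain ⟨k, hk, hl, -⟩ := hP
    show P.length ≤ p0
    rw [hl]
    exact hcp k hk
  have hs1 : ∀ {v b : V} {P Q : List α}, g.LP1 pre lam v P → g.RQ1 rho b Q →
      g.XX (P ++ Q) ∧ g.T pre post v (P ++ Q) = b := by
    intro v b P Q hP hQ
    exact g.sound1 pre post hlamlen (fun P Q u b hu hb => h2 P Q u b hu hb) hP hQ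
  have hcc1 : ∀ X ∈ C, X ∉ Bd → ∀ v, ∃ P Q, P ++ Q = X ∧ P ∈ L1 v ∧
      ∀ x, ∀ P' ∈ L1 x, P' ++ Q ∈ C ∧
        act x ((P' ++ Q).map φ).prod + nu (P' ++ Q) = act v (X.map φ).prod + nu X := by
    intro X hX hXb v
    have hE : ¬ g.E X := fun h => hXb ⟨hX, Or.inl h⟩
    have hB : ¬ BadT (X.length - g.p0) := fun h => hXb ⟨hX, Or.inr h⟩
    obtain ⟨P, Q, b', e, hP, hQ⟩ := g.complete1 pre (rho := rho) hlamlen hX hE (by
      intro u
      obtain ⟨P, Q, e1, e2, v', e3⟩ := h3 (X.drop g.p0) (by
        intro k hk hd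
        rw [List.length_drop] at hd
        exact hB (Or.inl ⟨k, hk, hd⟩)) (by
        intro j hj
        by_contra hcon
        apply hB
        right
        refine ⟨j, hj, fun hh => hcon ?_⟩
        rw [List.length_drop]
        exact ⟨hh.1, by omega⟩) u
      exact ⟨P, Q, e1, e2, by rw [e3]; rfl⟩) v
    refine ⟨P, Q, e.symm, hP, fun x P' hP' => ?_⟩
    obtain ⟨a1, a2⟩ := hs1 hP hQ
    obtain ⟨a3, a4⟩ := hs1 hP' hQ
    refine ⟨a3, ?_⟩
    rw [← hT, ← hT, a4, e, a2]
  have hcc2 : ∀ X ∈ Bd, ∀ Y ∈ Bd, ∀ v, ∃ P Q, P ++ Q = X ++ Y ∧ P ∈ L2 v ∧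
      ∀ x, ∀ P' ∈ L2 x,
        (∃ X' ∈ Bd, ∃ Y' ∈ C, X' ++ Y' = P' ++ Q ∧
          act (act x (X'.map φ).prod + nu X') (Y'.map φ).prod + nu Y' =
            act (act v (X.map φ).prod + nu X) (Y.map φ).prod + nu Y) ∨
        (∃ X' ∈ C, X' ∉ Bd ∧ X' <+: P' ++ Q) := by
    intro X hX Y hY v
    have hcg : ∀ k, k < K → c k ≤ g.p0 := hcp
    have hex : ∀ k, k < K → ∀ P Q v u, P.length = c k → Q.length = g.p0 - c k →
        lam2 k P = some v → rho2 k Q 1 = some u → u = pre (P ++ Q) v := by
      intro k hk P Q v u e1 e2 e3 e4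
      have := hx1 k hk P Q 1 v u e1 e3 e4
      rw [mul_one] at this
      exact this
    obtain ⟨P, Q, b', e, hP, hQ⟩ := g.complete2 pre post (BadT := BadT) (K := K) (c := c)
      (lam2 := lam2) (rho2 := fun k Q => rho2 k Q 1) (C0 := r + m) hcg (by
        intro P Q a1 a2 a3
        have hQl : 0 < Q.length := List.length_pos_iff.2 a3
        have := hsep (P ++ Q) P.length (P ++ Q).length (by simp; omega) le_rfl
          (by rw [List.take_left]; exact a1) (by rw [List.take_length]; exact a2)
        rw [List.length_append] at this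
        rw [hgp, hgN]
        omega) (by
        intro k k' l l' a1 a2 a3 a4 a5 a6 a7 a8
        by_contra hne
        have := hc2 k k' l l' (Ne.symm a5) (Ne.symm a6) (fun h => hne (by
          have := congrArg Prod.fst h
          exact this))
        rw [hgN] at a7 a8
        omega) (by
        intro τ hτ J hJ
        have hJ' : ∀ k : ℕ, ∃ k' : ℕ, k ∈ J → k < K ∧ k' < K ∧ k' ≠ k ∧
            BadT (τ + c k' - c k - g.p0) := by
          intro k
          by_cases hk : k ∈ J
          · obtain ⟨a1, k', a2, a3, a4⟩ := hJ k hk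
            exact ⟨k', fun _ => ⟨a1, a2, a3, a4⟩⟩
          · exact ⟨0, fun h => (hk h).elim⟩
        choose f hf using hJ'
        have hT2 : ∀ i < K, c i ≤ τ - p0 := by
          intro i hi
          have := hcp i hi
          omega
        have := hc3 (τ - p0) hT2 (J.image fun k => (k, f k)) (by
          intro p hp
          obtain ⟨k, hk, rfl⟩ := Finset.mem_image.1 hp
          obtain ⟨a1, a2, a3, a4⟩ := hf k hk
          refine ⟨a1, a2, Ne.symm a3, ?_⟩
          have e : τ - p0 + c (f k) - c k = τ + c (f k) - c k - g.p0 := by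
            rw [hgp]
            omega
          show Sp_825.Bad m M b Ms (τ - p0 + c (f k) - c k)
          rw [e]
          exact a4)
        rw [Finset.card_image_of_injective _ (fun a b h => congrArg Prod.fst h)] at this
        omega) hX.1 hY.1 v (by
        obtain ⟨I, hI, hI2⟩ := hx2 (X.take p0) 1 v (by
          intro k hk
          have hXz : g.z ≤ X.length := hX.1.1
          have := hcp k hk
          rw [List.length_take]
          omega)
        refine ⟨I, by omega, fun k hk => ?_⟩
        obtain ⟨a1, a2, a3⟩ := hI2 k hk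
        refine ⟨a1, ?_, a3⟩
        rw [List.take_take, Nat.min_eq_left (hcp k a1)] at a2
        exact a2)
    have hval : g.T pre post (g.T pre post v X) Y = b' := by
      obtain ⟨X2, _, e2, e3⟩ := g.sound2 pre post hcg hex hX.1 hX.2 hP hQ (R := []) (R' := Y)
        (by rw [List.append_nil, e])
      rw [e] at e2
      rw [List.append_cancel_left e2]
      exact e3
    refine ⟨P, Q, e, hP, fun x P' hP' => ?_⟩
    have hQ' := hQ
    have hP2 := hP'
    obtain ⟨k0, hk0, hPl, hl⟩ := hP'
    obtain ⟨k, hk, l, hend, hgood, hX2, u, hr, hb'⟩ := hQ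
    obtain ⟨l', hl'⟩ : ∃ l', g.CEnd Q (c k0) l' := by
      by_cases hkk : k0 = k
      · exact ⟨l, hkk ▸ hend⟩
      · obtain ⟨l', hl', -⟩ := hgood k0 hk0 hkk
        exact ⟨l', hl'⟩
    have hXX : g.XX (P' ++ Q.take l') :=
      g.xx_of_cend (by rw [hPl]; exact hcp k0 hk0) (by rw [hPl]; exact hl')
    by_cases hbad : g.BadX BadT (P' ++ Q.take l')
    · left
      obtain ⟨X2, e1, e2, e3⟩ := g.sound2 pre post hcg hex hXX hbad hP2 hQ' (R := [])
        (R' := Q.drop l') (by rw [List.append_nil, List.append_assoc, List.take_append_drop])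
      refine ⟨P' ++ Q.take l', ⟨hXX, hbad⟩, X2, e1, e2.symm, ?_⟩
      rw [← hT, ← hT, ← hT, ← hT, e3, hval]
    · right
      refine ⟨P' ++ Q.take l', hXX, fun h => hbad h.2, ?_⟩
      exact (List.prefix_append_right_inj _).2 (List.take_prefix _ _)
  exact Top5_120.top5 act hadd hone hmul hfaith φ nu C Bd hC hBC L1 L2 hf1 hf2 hCT hBT htail
    hcc1 hcc2 s

/-- **the row over every finite alphabet and monoid of `Type`** -/
theorem fin (α : Type) [Finite α] (S : Type) [Monoid S] [Finite S] (φ : α → S) (s : S) :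
    HL 3 ({w | (w.map φ).prod = s} : Language α) := by
  classical
  have : Fintype S := Fintype.ofFinite S
  have : Fintype (S → ZMod 2) := Fintype.ofFinite _
  obtain ⟨act, hadd, hone, hmul, hfaith⟩ := Crest.Agent.R320.Blk467.exists_module S
  exact join act hadd hone hmul hfaith φ s

theorem main0 (α : Type) [Finite α] (L : Language α) (hL : L.IsRegular) :
    ∃ e : GRegExp α, e.height ≤ 3 ∧ e.lang = L :=
  of_monoid (fun S _ _ f s => fin α S f s) L hL

/-- **S0495** -/
theorem main (α : Type u) [Finite α] (L : Language α) (hL : L.IsRegular) :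
    ∃ e : GRegExp α, e.height ≤ 3 ∧ e.lang = L :=
  Crest.Agent.R320.Univ_188.of_type0 3 main0 α L hL

end Crest.Agent.R320.Fin_825

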