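import Mathlib

/-!
# Row 320: the spoil leaf (lead #13673) for the gadget `g1` (852 #13483)

`Bad n` : some prime `k ∈ Ms` divides `n`, or some base `b` digit of `n` is outside
`[M, b - 1 - M]`.  The ruler `c l = 2 ^ l * K0` is widely Golomb and for every `T` at most
`r + m` differences are bad.
-/

set_option autoImplicit false

namespace Crest.Agent.R320.Sp_829

/-- the bad lengths of the digit gadget -/
def Bad (Ms : Finset ℕ) (M b m n : ℕ) : Prop :=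
  (∃ k ∈ Ms, k ∣ n) ∨ ∃ j < m, ¬ (M ≤ n / b ^ j % b ∧ n / b ^ j % b + M + 1 ≤ b)

theorem pow_sum_sorted {a b c d : ℕ} (hab : a ≤ b) (hcd : c ≤ d)
    (h : 2 ^ a + 2 ^ b = 2 ^ c + 2 ^ d) : a = c ∧ b = d := by
  have hbd : b = d := by
    rcases lt_trichotomy b d with h1 | h1 | h1
    · exfalso
      have h2 : 2 ^ a ≤ 2 ^ b := Nat.pow_le_pow_right (by norm_num) hab
      have h3 : 2 ^ (b + 1) ≤ 2 ^ d := Nat.pow_le_pow_right (by norm_num) h1
      have h4 : 0 < 2 ^ c := Nat.pow_pos (by norm_num)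
      rw [pow_succ] at h3
      omega
    · exact h1
    · exfalso
      have h2 : 2 ^ c ≤ 2 ^ d := Nat.pow_le_pow_right (by norm_num) hcd
      have h3 : 2 ^ (d + 1) ≤ 2 ^ b := Nat.pow_le_pow_right (by norm_num) h1
      have h4 : 0 < 2 ^ a := Nat.pow_pos (by norm_num)
      rw [pow_succ] at h3
      omega
  subst hbd
  refine ⟨?_, rfl⟩
  have : 2 ^ a = 2 ^ c := by omega
  exact Nat.pow_right_injective (le_refl 2) this

theorem pow_golomb {i j k l : ℕ} (hij : i ≠ j) (hkl : k ≠ l)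
    (h : 2 ^ i + 2 ^ l = 2 ^ k + 2 ^ j) : i = k ∧ j = l := by
  rcases le_total i l with h1 | h1 <;> rcases le_total k j with h2 | h2
  · obtain ⟨e1, e2⟩ := pow_sum_sorted h1 h2 h
    exact ⟨e1, e2.symm⟩
  · obtain ⟨e1, e2⟩ := pow_sum_sorted h1 h2 (by omega)
    exact absurd e1 hij
  · obtain ⟨e1, e2⟩ := pow_sum_sorted h1 h2 (by omega)
    exact absurd e1.symm hkl
  · obtain ⟨e1, e2⟩ := pow_sum_sorted h1 h2 (by omega)
    exact ⟨e2, e1.symm⟩

/-- the difference of differences -/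
def DD (i j k l : ℕ) : ℤ := ((2 : ℤ) ^ j - 2 ^ i) - (2 ^ l - 2 ^ k)

theorem DD_ne {i j k l : ℕ} (hij : i ≠ j) (hkl : k ≠ l) (hne : ¬ (i = k ∧ j = l)) :
    DD i j k l ≠ 0 := by
  intro h
  apply hne
  have h1 : (2 : ℤ) ^ j + 2 ^ k = 2 ^ l + 2 ^ i := by
    unfold DD at h
    linarith
  have h2 : 2 ^ j + 2 ^ k = 2 ^ l + 2 ^ i := by exact_mod_cast h1
  obtain ⟨e1, e2⟩ := pow_golomb hij.symm hkl.symm h2
  exact ⟨e2, e1⟩

theorem DD_lt {K i j k l : ℕ} (hi : i < K) (hj : j < K) (hk : k < K) (hl : l < K) :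
    |DD i j k l| < 2 ^ (K + 1) := by
  have f : ∀ x : ℕ, x < K → (0 : ℤ) < 2 ^ x ∧ (2 : ℤ) ^ x < 2 ^ K := by
    intro x hx
    exact ⟨by positivity, pow_lt_pow_right₀ (by norm_num) hx⟩
  obtain ⟨a1, a2⟩ := f i hi
  obtain ⟨b1, b2⟩ := f j hj
  obtain ⟨c1, c2⟩ := f k hk
  obtain ⟨d1, d2⟩ := f l hl
  rw [pow_succ, abs_lt]
  unfold DD
  constructor <;> linarith

/-- the geometric sum -/
def GS (b s : ℕ) : ℕ := ∑ t ∈ Finset.range s, b ^ t

theorem GS_succ (b s : ℕ) : GS b (s + 1) = GS b s + b ^ s := by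
  unfold GS
  rw [Finset.sum_range_succ]

theorem GS_le {b : ℕ} (hb : 2 ≤ b) (s : ℕ) : GS b (s + 1) ≤ 2 * b ^ s := by
  induction s with
  | zero => simp [GS]
  | succ s ih =>
    rw [GS_succ]
    have : 2 * b ^ s ≤ b ^ (s + 1) := by
      rw [pow_succ, mul_comm]
      exact Nat.mul_le_mul_left _ hb
    omega

theorem le_GS (b s : ℕ) : b ^ s ≤ GS b (s + 1) := by
  rw [GS_succ]
  omega

theorem GS_dvd (b s m : ℕ) (h : s ≤ m) : ((b : ℤ) ^ s) ∣ (GS b m : ℤ) - (GS b s : ℤ) := by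
  induction m, h using Nat.le_induction with
  | base => simp
  | succ m hm ih =>
    rw [GS_succ]
    push_cast
    have h1 : ((b : ℤ) ^ s) ∣ (b : ℤ) ^ m := pow_dvd_pow _ hm
    have h2 : (GS b m : ℤ) + (b : ℤ) ^ m - (GS b s : ℤ) =
        ((GS b m : ℤ) - (GS b s : ℤ)) + (b : ℤ) ^ m := by ring
    rw [h2]
    exact dvd_add ih h1

theorem band {M b n j : ℕ} (_hMb : M ≤ b)
    (h : ¬ (M ≤ n / b ^ j % b ∧ n / b ^ j % b + M + 1 ≤ b)) :
    ∃ q : ℤ, -((M : ℤ) * b ^ j) ≤ (n : ℤ) - q * (b ^ j * b) ∧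
      (n : ℤ) - q * (b ^ j * b) < (M : ℤ) * b ^ j ∨ (b : ℤ) = 0 := by
  by_cases hb0 : b = 0
  · exact ⟨0, Or.inr (by exact_mod_cast hb0)⟩
  have hb : 0 < b := Nat.pos_of_ne_zero hb0
  have hB : 0 < b ^ j := Nat.pow_pos hb
  set B := b ^ j with hBdef
  set e := n / B % b with he
  have e1 : n = B * (n / B) + n % B := (Nat.div_add_mod n B).symm
  have e2 : n / B = b * (n / B / b) + e := (Nat.div_add_mod (n / B) b).symm
  have e3 : n % B < B := Nat.mod_lt _ hB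
  set q := n / B / b with hq
  set ρ := n % B with hρ
  have e4 : (n : ℤ) = q * (B * b) + (B * e + ρ) := by
    have : n = q * (B * b) + (B * e + ρ) := by
      calc n = B * (n / B) + ρ := e1
        _ = B * (b * q + e) + ρ := by rw [← e2]
        _ = _ := by ring
    exact_mod_cast this
  have e5 : (ρ : ℤ) < B := by exact_mod_cast e3
  have e6 : (0 : ℤ) ≤ ρ := by positivity
  have hBz : (0 : ℤ) < B := by exact_mod_cast hB
  have e7 : e < b := Nat.mod_lt _ hb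
  have hcast : ((b : ℤ) ^ j) = (B : ℤ) := by rw [hBdef]; push_cast; rfl
  by_cases hM : M ≤ e
  · -- high digit
    have h2 : b ≤ e + M := by
      by_contra hcon
      exact h ⟨hM, by omega⟩
    refine ⟨q + 1, Or.inl ⟨?_, ?_⟩⟩
    · rw [hcast, e4]
      have h3 : (b : ℤ) ≤ e + M := by exact_mod_cast h2
      have h4 : (B : ℤ) * b ≤ B * (e + M) := mul_le_mul_of_nonneg_left h3 hBz.le
      nlinarith
    · rw [hcast, e4]
      have h3 : (e : ℤ) + 1 ≤ b := by exact_mod_cast e7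
      have h4 : (B : ℤ) * (e + 1) ≤ B * b := mul_le_mul_of_nonneg_left h3 hBz.le
      have h5 : (0 : ℤ) ≤ M * B := by positivity
      nlinarith
  · refine ⟨q, Or.inl ⟨?_, ?_⟩⟩
    · rw [hcast, e4]
      have h5 : (0 : ℤ) ≤ M * B := by positivity
      have h6 : (0 : ℤ) ≤ B * e := by positivity
      linarith
    · rw [hcast, e4]
      have h3 : (e : ℤ) + 1 ≤ M := by
        have : e + 1 ≤ M := by omega
        exact_mod_cast this
      have h4 : (B : ℤ) * (e + 1) ≤ B * M := mul_le_mul_of_nonneg_left h3 hBz.le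
      nlinarith

/-- two bad digits at the same place: the same pair -/
theorem digit_case {M b m j0 n1 n2 K0 : ℕ} {D : ℤ} {K : ℕ} (hM : 0 < M)
    (hb : 2 ^ (K + 6) * M ≤ b) (hj : j0 < m)
    (hK : ((b : ℤ) ^ m) ∣ (K0 : ℤ) - 4 * M * (GS b m : ℤ))
    (hn : (n1 : ℤ) - n2 = K0 * D) (hD : |D| < 2 ^ (K + 1))
    (h1 : ¬ (M ≤ n1 / b ^ j0 % b ∧ n1 / b ^ j0 % b + M + 1 ≤ b))
    (h2 : ¬ (M ≤ n2 / b ^ j0 % b ∧ n2 / b ^ j0 % b + M + 1 ≤ b)) : D = 0 := by
  by_contra hD0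
  have hpow : (1 : ℕ) ≤ 2 ^ K := Nat.one_le_two_pow
  have hb32 : 64 * (2 ^ K * M) ≤ b := by
    calc 64 * (2 ^ K * M) = 2 ^ (K + 6) * M := by rw [pow_add]; ring
      _ ≤ b := hb
  have hKM : 1 * M ≤ 2 ^ K * M := Nat.mul_le_mul_right _ hpow
  have hMb : M ≤ b := by omega
  have hb2 : 2 ≤ b := by omega
  obtain ⟨q1, hq1⟩ := band hMb h1
  obtain ⟨q2, hq2⟩ := band hMb h2
  have hbz : (b : ℤ) ≠ 0 := by
    have : b ≠ 0 := by omega
    exact_mod_cast this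
  rcases hq1 with hq1 | hq1
  swap
  · exact hbz hq1
  rcases hq2 with hq2 | hq2
  swap
  · exact hbz hq2
  have hdvd : ((b : ℤ) ^ (j0 + 1)) ∣ (K0 : ℤ) - 4 * M * (GS b (j0 + 1) : ℤ) := by
    have a1 : ((b : ℤ) ^ (j0 + 1)) ∣ (K0 : ℤ) - 4 * M * (GS b m : ℤ) :=
      (pow_dvd_pow _ (by omega)).trans hK
    have a2 : ((b : ℤ) ^ (j0 + 1)) ∣ 4 * M * ((GS b m : ℤ) - (GS b (j0 + 1) : ℤ)) :=
      (GS_dvd b (j0 + 1) m (by omega)).mul_left _
    have a3 : (K0 : ℤ) - 4 * M * (GS b (j0 + 1) : ℤ) = ((K0 : ℤ) - 4 * M * (GS b m : ℤ)) +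
        4 * M * ((GS b m : ℤ) - (GS b (j0 + 1) : ℤ)) := by ring
    rw [a3]
    exact dvd_add a1 a2
  obtain ⟨t, ht⟩ := hdvd
  rw [pow_succ] at ht
  set B : ℤ := (b : ℤ) ^ j0 with hB
  have hBpos : 0 < B := by
    rw [hB]
    have : (0 : ℤ) < b := by
      have : 0 < b := by omega
      exact_mod_cast this
    positivity
  set R : ℤ := (GS b (j0 + 1) : ℤ) with hR
  have hR1 : B ≤ R := by
    have := le_GS b j0
    rw [hR, hB]
    exact_mod_cast this
  have hR2 : R ≤ 2 * B := by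
    have := GS_le hb2 j0
    rw [hR, hB]
    exact_mod_cast this
  have hMz : (1 : ℤ) ≤ M := by exact_mod_cast hM
  -- the integer
  have key : |4 * M * R * D - (q1 - q2 - t * D) * (B * b)| < 2 * (M * B) := by
    have e : 4 * M * R * D - (q1 - q2 - t * D) * (B * b) =
        ((n1 : ℤ) - q1 * (B * b)) - ((n2 : ℤ) - q2 * (B * b)) := by
      have e1 : (K0 : ℤ) = 4 * M * R + B * b * t := by linarith
      have e2 : (n1 : ℤ) = n2 + K0 * D := by linarith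
      rw [e2, e1]
      ring
    rw [e, abs_lt]
    constructor <;> linarith [hq1.1, hq1.2, hq2.1, hq2.2]
  set Q : ℤ := q1 - q2 - t * D with hQ
  have hMB : 0 < M * B := by positivity
  have hDabs : 1 ≤ |D| := Int.one_le_abs hD0
  have hlow : 4 * (M * B) ≤ |4 * M * R * D| := by
    rw [abs_mul]
    have : |4 * (M : ℤ) * R| = 4 * M * R := abs_of_nonneg (by positivity)
    rw [this]
    have a1 : 4 * (M : ℤ) * B ≤ 4 * M * R := mul_le_mul_of_nonneg_left hR1 (by positivity)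
    have a2 : 4 * (M : ℤ) * R * 1 ≤ 4 * M * R * |D| :=
      mul_le_mul_of_nonneg_left hDabs (by positivity)
    linarith
  have hhigh : |4 * M * R * D| ≤ 8 * (M * B) * 2 ^ (K + 1) := by
    rw [abs_mul]
    have : |4 * (M : ℤ) * R| = 4 * M * R := abs_of_nonneg (by positivity)
    rw [this]
    have a1 : 4 * (M : ℤ) * R ≤ 4 * M * (2 * B) := mul_le_mul_of_nonneg_left hR2 (by positivity)
    calc 4 * (M : ℤ) * R * |D| ≤ (4 * M * (2 * B)) * 2 ^ (K + 1) :=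
          mul_le_mul a1 hD.le (abs_nonneg _) (by positivity)
      _ = 8 * (M * B) * 2 ^ (K + 1) := by ring
  have hQ0 : Q ≠ 0 := by
    intro h0
    rw [h0, zero_mul, sub_zero] at key
    linarith
  have hQabs : 1 ≤ |Q| := Int.one_le_abs hQ0
  have hBb : 0 < B * b := by
    have : (0 : ℤ) < b := by
      have : 0 < b := by omega
      exact_mod_cast this
    positivity
  have hQB : B * b ≤ |Q * (B * b)| := by
    rw [abs_mul, abs_of_pos hBb]
    nlinarith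
  have htri : |Q * (B * b)| ≤ |4 * M * R * D| + |4 * M * R * D - Q * (B * b)| := by
    have : Q * (B * b) = 4 * M * R * D - (4 * M * R * D - Q * (B * b)) := by ring
    calc |Q * (B * b)| = |4 * M * R * D - (4 * M * R * D - Q * (B * b))| := by rw [← this]
      _ ≤ _ := abs_sub _ _
  have hfin : B * b < B * (18 * (M * 2 ^ (K + 1))) := by
    have hp : (1 : ℤ) ≤ 2 ^ (K + 1) := one_le_pow₀ (by norm_num)
    have : 2 * (M * B) ≤ 2 * (M * B) * 2 ^ (K + 1) := le_mul_of_one_le_right (by positivity) hp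
    have h9 : B * (18 * ((M : ℤ) * 2 ^ (K + 1))) = 18 * (M * B) * 2 ^ (K + 1) := by ring
    have h10 : 0 < (M * B) * (2 : ℤ) ^ (K + 1) := by positivity
    rw [h9]
    nlinarith
  have hfin2 : (b : ℤ) < 18 * (M * 2 ^ (K + 1)) := lt_of_mul_lt_mul_left hfin hBpos.le
  have hfin3 : b < 18 * (M * 2 ^ (K + 1)) := by exact_mod_cast hfin2
  rw [pow_succ] at hfin3
  have : 18 * (M * (2 ^ K * 2)) = 36 * (2 ^ K * M) := by ring
  omega

/-- two multiples of the same prime: the same pair -/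
theorem prime_case {M k n1 n2 K0 K : ℕ} {D : ℤ} (hk : k.Prime) (hkM : k ∣ M) (h4 : 4 ^ K < k)
    (hK0 : K0 ≡ 1 [MOD M]) (hK : 0 < K) (hn : (n1 : ℤ) - n2 = K0 * D)
    (hD : |D| < 2 ^ (K + 1)) (h1 : k ∣ n1) (h2 : k ∣ n2) : D = 0 := by
  by_contra hD0
  have a1 : (k : ℤ) ∣ K0 * D := by
    rw [← hn]
    exact dvd_sub (by exact_mod_cast h1) (by exact_mod_cast h2)
  have hkz : Prime (k : ℤ) := Nat.prime_iff_prime_int.1 hk
  rcases hkz.dvd_or_dvd a1 with a2 | a2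
  · have a3 : k ∣ K0 := by exact_mod_cast a2
    have a4 : K0 ≡ 1 [MOD k] := hK0.of_dvd hkM
    have a5 : K0 % k = 0 := Nat.mod_eq_zero_of_dvd a3
    have a6 : 1 % k = 1 := Nat.mod_eq_of_lt hk.one_lt
    unfold Nat.ModEq at a4
    omega
  · have a3 : (k : ℤ) ≤ |D| := by
      have := Int.le_of_dvd (abs_pos.2 hD0) ((dvd_abs _ _).2 a2)
      exact this
    have a4 : (2 : ℤ) ^ (K + 1) ≤ 4 ^ K := by
      have : (4 : ℤ) ^ K = 2 ^ (2 * K) := by rw [pow_mul]; norm_num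
      rw [this]
      exact pow_le_pow_right₀ (by norm_num) (by omega)
    have a5 : (4 : ℤ) ^ K < k := by exact_mod_cast h4
    linarith

open Classical in
/-- **the spoil leaf** -/
theorem spoil (m r K M b N1 : ℕ) (Ms : Finset ℕ) (hM : 0 < M)
    (hMs : ∀ k ∈ Ms, 4 ^ K < k ∧ k.Prime ∧ k ∣ M) (hr : Ms.card ≤ r)
    (hb : 2 ^ (K + 6) * M ≤ b) (hco : Nat.Coprime b M) :
    ∃ c : ℕ → ℕ, (∀ i j, i < j → c i + 4 * N1 < c j) ∧ (∀ i, 4 * N1 < c i) ∧
      (∀ i j k l, i ≠ j → k ≠ l → c i + c l ≤ c k + c j + 4 * N1 →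
        c k + c j ≤ c i + c l + 4 * N1 → i = k ∧ j = l) ∧
      ∀ T, (∀ i < K, c i ≤ T) →
        ((Finset.range K ×ˢ Finset.range K).filter
          (fun p => p.1 ≠ p.2 ∧ Bad Ms M b m (T + c p.1 - c p.2))).card ≤ r + m := by
  have hpow : (1 : ℕ) ≤ 2 ^ K := Nat.one_le_two_pow
  have hb2 : 2 ≤ b := by
    have h1 : 64 * (2 ^ K * M) ≤ b := by
      calc 64 * (2 ^ K * M) = 2 ^ (K + 6) * M := by rw [pow_add]; ring
        _ ≤ b := hb
    have hKM : 1 * M ≤ 2 ^ K * M := Nat.mul_le_mul_right _ hpow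
    omega
  obtain ⟨K00, hA, hB⟩ := Nat.chineseRemainder (Nat.Coprime.pow_right m hco.symm) 1
    (4 * M * GS b m)
  set K0 := K00 + (M * b ^ m) * (4 * N1 + 1) with hK0
  have hbm : 0 < b ^ m := Nat.pow_pos (by omega)
  have hA' : K0 ≡ 1 [MOD M] := by
    have : K0 ≡ K00 [MOD M] := by
      rw [hK0, mul_assoc]
      exact (Nat.modEq_iff_dvd' (by omega)).2 (by simp) |>.symm
    exact this.trans hA
  have hB' : ((b : ℤ) ^ m) ∣ (K0 : ℤ) - 4 * M * (GS b m : ℤ) := by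
    have h1 : ((b ^ m : ℕ) : ℤ) ∣ (K00 : ℤ) - ((4 * M * GS b m : ℕ) : ℤ) :=
      (Nat.modEq_iff_dvd.1 hB.symm)
    have h2 : (K0 : ℤ) - 4 * M * (GS b m : ℤ) = ((K00 : ℤ) - ((4 * M * GS b m : ℕ) : ℤ)) +
        (b : ℤ) ^ m * (M * (4 * N1 + 1)) := by
      rw [hK0]
      push_cast
      ring
    rw [h2]
    refine dvd_add ?_ (dvd_mul_right _ _)
    have : ((b ^ m : ℕ) : ℤ) = (b : ℤ) ^ m := by push_cast; rfl
    rw [← this]
    exact h1
  have hbig : 4 * N1 < K0 := by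
    have h1 : 1 * (4 * N1 + 1) ≤ (M * b ^ m) * (4 * N1 + 1) :=
      Nat.mul_le_mul_right _ (Nat.mul_pos hM hbm)
    omega
  have hKpos : 0 < K0 := by omega
  have hcz : ∀ i j k l : ℕ, ((2 ^ j * K0 : ℕ) : ℤ) - ((2 ^ i * K0 : ℕ) : ℤ) -
      (((2 ^ l * K0 : ℕ) : ℤ) - ((2 ^ k * K0 : ℕ) : ℤ)) = K0 * DD i j k l := by
    intro i j k l
    unfold DD
    push_cast
    ring
  refine ⟨fun l => 2 ^ l * K0, ?_, ?_, ?_, ?_⟩
  · intro i j hij
    have h1 : 2 ^ (i + 1) ≤ 2 ^ j := Nat.pow_le_pow_right (by norm_num) hij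
    have h2 : 2 ^ (i + 1) * K0 ≤ 2 ^ j * K0 := Nat.mul_le_mul_right _ h1
    have h3 : 2 ^ (i + 1) * K0 = 2 ^ i * K0 + 2 ^ i * K0 := by rw [pow_succ]; ring
    have h4 : 1 * K0 ≤ 2 ^ i * K0 := Nat.mul_le_mul_right _ Nat.one_le_two_pow
    show 2 ^ i * K0 + 4 * N1 < 2 ^ j * K0
    omega
  · intro i
    have h4 : 1 * K0 ≤ 2 ^ i * K0 := Nat.mul_le_mul_right _ Nat.one_le_two_pow
    show 4 * N1 < 2 ^ i * K0
    omega
  · intro i j k l hij hkl h1 h2
    by_contra hne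
    have hD := DD_ne hij hkl hne
    have h3 := hcz i j k l
    have h4 : (K0 : ℤ) ≤ |(K0 : ℤ) * DD i j k l| := by
      rw [abs_mul, abs_of_nonneg (by positivity : (0 : ℤ) ≤ K0)]
      have := Int.one_le_abs hD
      nlinarith [(by positivity : (0 : ℤ) ≤ K0)]
    have h5 : |(K0 : ℤ) * DD i j k l| ≤ 4 * N1 := by
      rw [← h3, abs_le]
      have g1 : ((2 ^ i * K0 + 2 ^ l * K0 : ℕ) : ℤ) ≤ ((2 ^ k * K0 + 2 ^ j * K0 + 4 * N1 : ℕ) : ℤ) := by
        exact_mod_cast h1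
      have g2 : ((2 ^ k * K0 + 2 ^ j * K0 : ℕ) : ℤ) ≤ ((2 ^ i * K0 + 2 ^ l * K0 + 4 * N1 : ℕ) : ℤ) := by
        exact_mod_cast h2
      push_cast at g1 g2 ⊢
      constructor <;> linarith
    have h6 : (4 * N1 : ℤ) < K0 := by exact_mod_cast hbig
    linarith
  · intro T hT
    set F := (Finset.range K ×ˢ Finset.range K).filter
      (fun p : ℕ × ℕ => p.1 ≠ p.2 ∧ Bad Ms M b m (T + 2 ^ p.1 * K0 - 2 ^ p.2 * K0)) with hF
    let A : ℕ → Finset (ℕ × ℕ) := fun k =>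
      F.filter (fun p => k ∣ T + 2 ^ p.1 * K0 - 2 ^ p.2 * K0)
    let B : ℕ → Finset (ℕ × ℕ) := fun j =>
      F.filter (fun p => ¬ (M ≤ (T + 2 ^ p.1 * K0 - 2 ^ p.2 * K0) / b ^ j % b ∧
        (T + 2 ^ p.1 * K0 - 2 ^ p.2 * K0) / b ^ j % b + M + 1 ≤ b))
    have hcast : ∀ p ∈ F, ((T + 2 ^ p.1 * K0 - 2 ^ p.2 * K0 : ℕ) : ℤ) =
        (T : ℤ) + ((2 ^ p.1 * K0 : ℕ) : ℤ) - ((2 ^ p.2 * K0 : ℕ) : ℤ) := by
      intro p hp
      have hp' := (Finset.mem_filter.1 hp).1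
      have hp2 : p.2 < K := Finset.mem_range.1 (Finset.mem_product.1 hp').2
      have := hT p.2 hp2
      have h0 : 2 ^ p.2 * K0 ≤ T := this
      rw [Nat.cast_sub (by omega)]
      push_cast
      ring
    have hpair : ∀ p ∈ F, ∀ q ∈ F, DD p.2 p.1 q.2 q.1 = 0 → p = q := by
      intro p hp q hq h0
      by_contra hne
      have hp1 := (Finset.mem_filter.1 hp).2.1
      have hq1 := (Finset.mem_filter.1 hq).2.1
      refine DD_ne hp1.symm hq1.symm ?_ h0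
      rintro ⟨e1, e2⟩
      exact hne (Prod.ext e2 e1)
    have hdiff : ∀ p ∈ F, ∀ q ∈ F, ((T + 2 ^ p.1 * K0 - 2 ^ p.2 * K0 : ℕ) : ℤ) -
        ((T + 2 ^ q.1 * K0 - 2 ^ q.2 * K0 : ℕ) : ℤ) = K0 * DD p.2 p.1 q.2 q.1 := by
      intro p hp q hq
      rw [hcast p hp, hcast q hq, ← hcz p.2 p.1 q.2 q.1]
      ring
    have hlt : ∀ p ∈ F, ∀ q ∈ F, |DD p.2 p.1 q.2 q.1| < 2 ^ (K + 1) := by
      intro p hp q hq
      have hp' := Finset.mem_product.1 (Finset.mem_filter.1 hp).1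
      have hq' := Finset.mem_product.1 (Finset.mem_filter.1 hq).1
      exact DD_lt (Finset.mem_range.1 hp'.2) (Finset.mem_range.1 hp'.1)
        (Finset.mem_range.1 hq'.2) (Finset.mem_range.1 hq'.1)
    have hA1 : ∀ k ∈ Ms, (A k).card ≤ 1 := by
      intro k hk
      rw [Finset.card_le_one]
      intro p hp q hq
      obtain ⟨hp1, hp2⟩ := Finset.mem_filter.1 hp
      obtain ⟨hq1, hq2⟩ := Finset.mem_filter.1 hq
      have hKp : 0 < K := by
        have := Finset.mem_range.1 (Finset.mem_product.1 (Finset.mem_filter.1 hp1).1).1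
        omega
      obtain ⟨g1, g2, g3⟩ := hMs k hk
      exact hpair p hp1 q hq1 (prime_case g2 g3 g1 hA' hKp (hdiff p hp1 q hq1)
        (hlt p hp1 q hq1) hp2 hq2)
    have hB1 : ∀ j ∈ Finset.range m, (B j).card ≤ 1 := by
      intro j hj
      rw [Finset.card_le_one]
      intro p hp q hq
      obtain ⟨hp1, hp2⟩ := Finset.mem_filter.1 hp
      obtain ⟨hq1, hq2⟩ := Finset.mem_filter.1 hq
      exact hpair p hp1 q hq1 (digit_case hM hb (Finset.mem_range.1 hj) hB' (hdiff p hp1 q hq1)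
        (hlt p hp1 q hq1) hp2 hq2)
    have hsub : F ⊆ Ms.biUnion A ∪ (Finset.range m).biUnion B := by
      intro p hp
      have hbad := (Finset.mem_filter.1 hp).2.2
      rcases hbad with ⟨k, hk, hd⟩ | ⟨j, hj, hd⟩
      · exact Finset.mem_union_left _ (Finset.mem_biUnion.2 ⟨k, hk, Finset.mem_filter.2 ⟨hp, hd⟩⟩)
      · exact Finset.mem_union_right _ (Finset.mem_biUnion.2
          ⟨j, Finset.mem_range.2 hj, Finset.mem_filter.2 ⟨hp, hd⟩⟩)
    have h1 : (Ms.biUnion A).card ≤ Ms.card * 1 := Finset.card_biUnion_le_card_mul _ _ _ hA1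
    have h2 : ((Finset.range m).biUnion B).card ≤ (Finset.range m).card * 1 :=
      Finset.card_biUnion_le_card_mul _ _ _ hB1
    have h3 := Finset.card_le_card hsub
    have h4 := Finset.card_union_le (Ms.biUnion A) ((Finset.range m).biUnion B)
    rw [Finset.card_range] at h2
    show F.card ≤ r + m
    omega

end Crest.Agent.R320.Sp_829
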