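import Crest.Agent.R320.CC_247
import Crest.Agent.R320.Zones_813
import Crest.Agent.R320.G1_852
import Crest.Agent.R320.Sp_829
import Crest.Agent.R320.Block_467

/-!
# Row 320: the join (helper829)

`fin` : every value language of a finite monoid has generalized star height at most three.
Top = `Top5_110.top_sem`, both schemes = `CC_247`, zones = `Zones_813`, gadget 1 = `G1_852.gadget`,
ruler = `Sp_829.spoil`, gadget 2 = `ExactR_237.exact_gadget`, walls = `WallU_36.wall_leaf`.
-/

set_option autoImplicit false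

namespace Crest.Agent.R320.Fin_829

open Crest.Agent.R320.Hk_851 Crest.Agent.R320.Code110

theorem bad_period {Ms : Finset ℕ} {M b m n n' : ℕ} (hMs : ∀ k ∈ Ms, k ∣ M)
    (h : n % (M * b ^ m) = n' % (M * b ^ m)) :
    Sp_829.Bad Ms M b m n ↔ Sp_829.Bad Ms M b m n' := by
  have h1 : ∀ k ∈ Ms, (k ∣ n ↔ k ∣ n') := by
    intro k hk
    have hd : k ∣ M * b ^ m := (hMs k hk).mul_right _
    have e : n ≡ n' [MOD k] := (show n ≡ n' [MOD M * b ^ m] from h).of_dvd hd
    exact e.dvd_iff dvd_rfl
  have h2 : ∀ j < m, n / b ^ j % b = n' / b ^ j % b := by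
    intro j hj
    have hd : b ^ j * b ∣ M * b ^ m := by
      rw [← pow_succ]
      exact (pow_dvd_pow b hj).mul_left _
    have e : n ≡ n' [MOD b ^ j * b] := (show n ≡ n' [MOD M * b ^ m] from h).of_dvd hd
    have e1 : ∀ x : ℕ, x / b ^ j % b = x % (b ^ j * b) / b ^ j := fun x => by
      rw [Nat.mod_mul_right_div_self]
    rw [e1, e1, e]
  unfold Sp_829.Bad
  constructor
  · rintro (⟨k, hk, hd⟩ | ⟨j, hj, hd⟩)
    · exact Or.inl ⟨k, hk, (h1 k hk).1 hd⟩
    · exact Or.inr ⟨j, hj, by rw [← h2 j hj]; exact hd⟩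
  · rintro (⟨k, hk, hd⟩ | ⟨j, hj, hd⟩)
    · exact Or.inl ⟨k, hk, (h1 k hk).2 hd⟩
    · exact Or.inr ⟨j, hj, by rw [h2 j hj]; exact hd⟩

/-- a suffix of a zone depends on the zone as the zone does -/
theorem split_val {α S : Type} [Monoid S] (f : α → S) {X X' : List α} {a z : ℕ} (haz : a ≤ z)
    (h1 : X.take z = X'.take z) (h2 : ((X.drop z).map f).prod = ((X'.drop z).map f).prod) :
    ((X.drop a).map f).prod = ((X'.drop a).map f).prod := by
  have e : ∀ Y : List α, Y.drop a = (Y.take z).drop a ++ Y.drop z := by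
    intro Y
    rw [List.drop_take]
    have : z = a + (z - a) := by omega
    conv_rhs => rw [this]
    rw [← List.drop_drop]
    simp [List.take_append_drop]
  rw [e X, e X', List.map_append, List.map_append, List.prod_append, List.prod_append, h1, h2]

theorem take_of_take {α : Type} {X X' : List α} {a z : ℕ} (haz : a ≤ z)
    (h1 : X.take z = X'.take z) : X.take a = X'.take a := by
  have e : ∀ Y : List α, Y.take a = (Y.take z).take a := by
    intro Y
    rw [List.take_take, min_eq_left haz]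
  rw [e X, e X', h1]

theorem sub_mod {n n' p M : ℕ} (h : n % M = n' % M) (hp : p ≤ n) (hp' : p ≤ n') :
    (n - p) % M = (n' - p) % M := by
  have h1 : (n - p) + p ≡ (n' - p) + p [MOD M] := by
    rw [Nat.sub_add_cancel hp, Nat.sub_add_cancel hp']
    exact h
  exact Nat.ModEq.add_right_cancel' p h1

/-- **the join** -/
theorem fin (α : Type) [Finite α] (S : Type) [Monoid S] [Finite S] (φ : α → S) (s : S) :
    HL 3 ({w | (w.map φ).prod = s} : Language α) := by
  classical
  have _ : Fintype S := Fintype.ofFinite S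
  obtain ⟨act, hadd, hone, hmul, hfaith⟩ := Blk467.exists_module S
  obtain ⟨m, r, hG⟩ := G1_852.gadget (S := S) (V := S → ZMod 2) act
  obtain ⟨K, hK⟩ := ExactR_237.exact_gadget α S (S → ZMod 2) φ act (2 + 2 * (r + m))
  obtain ⟨Ms, M, hcard, hMs, hM, hg⟩ := hG (4 ^ K)
  set b : ℕ := 2 ^ (K + 6) * M + 1 with hb
  have hco : Nat.Coprime b M := by
    rw [hb]
    have : Nat.Coprime (1 + 2 ^ (K + 6) * M) M := by
      rw [Nat.coprime_add_mul_right_left]
      exact Nat.coprime_one_left M
    rwa [add_comm] at this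
  obtain ⟨lam, rho, nu1, g1, g2, g3, g4⟩ := hg b (by omega) hco α φ
  set N1 := b ^ m with hN1
  obtain ⟨c, hc1, hc2, hc3, hc4⟩ := Sp_829.spoil m r K M b N1 Ms hM hMs hcard (by omega) hco
  obtain ⟨lam2, rho2, nu2, e1, e2⟩ := hK c (fun i j hij _ => by have := hc1 i j hij; omega)
  set p0 := c K with hp0
  have hcle : ∀ k < K, c k ≤ p0 := fun k hk => by have := hc1 k K hk; omega
  obtain ⟨n, Wo, hloc, hlen, hsep, R, B, hfree⟩ := WallU_36.wall_leaf α (2 * N1 + 2 * p0)
  have hw : CC_247.LW Wo n (2 * N1 + 2 * p0) := ⟨hloc, hsep⟩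
  set z : ℕ := p0 + N1 + p0 + p0 + n + N1 + N1 + 1 with hz
  let BadT : ℕ → Prop := Sp_829.Bad Ms M b m
  have hGad : CC_247.Gad (ExactR_237.pr φ) act lam rho nu1 N1 p0 BadT := by
    refine ⟨fun P v h => (g1 P v h).le, fun P Q v b' h h' => g2 P Q v b' h h', ?_⟩
    intro Y _ hB v
    have hB1 : ∀ k ∈ Ms, ¬ k ∣ Y.length := fun k hk hd => hB (Or.inl ⟨k, hk, hd⟩)
    have hB2 : ∀ j < m, M ≤ Y.length / b ^ j % b ∧ Y.length / b ^ j % b + M < b := by
      intro j hj
      by_contra hcon
      exact hB (Or.inr ⟨j, hj, fun h => hcon ⟨h.1, by omega⟩⟩)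
    obtain ⟨P, Q, h1, h2, v', h3⟩ := g3 Y hB1 hB2 v
    exact ⟨P, Q, h1, h2, by rw [h3]; rfl⟩
  have hRul : CC_247.Rul K N1 p0 (r + m) c BadT := by
    refine ⟨fun i j hij _ => by have := hc1 i j hij; omega, ?_, ?_⟩
    · intro a b1 a' b' _ _ _ _ hab hab' h1 h2
      obtain ⟨h3, h4⟩ := hc3 a b1 a' b' hab hab' (by omega) (by omega)
      exact ⟨h3, h4⟩
    · intro T hT F hF
      have h1 := hc4 T (fun i hi => (hcle i hi).trans hT)
      refine le_trans ?_ h1
      have h2 : (F.image Prod.swap).card = F.card :=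
        Finset.card_image_of_injective _ Prod.swap_injective
      rw [← h2]
      refine Finset.card_le_card ?_
      intro q hq
      obtain ⟨p, hp, rfl⟩ := Finset.mem_image.1 hq
      obtain ⟨h5, h6, h7, h8⟩ := hF p hp
      refine Finset.mem_filter.2 ⟨Finset.mem_product.2 ⟨Finset.mem_range.2 h6,
        Finset.mem_range.2 h5⟩, ?_, ?_⟩
      · exact fun h => h7 h.symm
      · exact h8
  have hM0 : 0 < M * b ^ m := Nat.mul_pos hM (Nat.pow_pos (by omega))
  have hMs' : ∀ k ∈ Ms, k ∣ M := fun k hk => (hMs k hk).2.2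
  -- heights
  have HX : ∀ k, HL k (CC_247.XX Wo z) := fun k => Zones_813.NZ_hl hloc hlen z
  have HBad : HL 1 (CC_247.Bad Wo z N1 p0 BadT) := by
    have a1 : HL 1 ({X | X ∈ Zones_813.NZ Wo z ∧ ((∃ t, z ≤ t + N1 ∧ t < z ∧ Wo (X.take t)) ∨
        BadT (X.length - p0))} : Language α) := by
      refine Zones_813.NZ_fs hloc hlen hfree φ (z := z) (L0 := z) (M0 := M * b ^ m) le_rfl hM0 _ ?_
      intro X X' hX hX' h1 h2 _
      have a : ∀ t, t < z → X.take t = X'.take t := fun t ht => take_of_take ht.le h1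
      have c1 : BadT (X.length - p0) ↔ BadT (X'.length - p0) :=
        bad_period hMs' (sub_mod h2 (by omega) (by omega))
      constructor
      · rintro (⟨t, h3, h4, h5⟩ | h3)
        · exact Or.inl ⟨t, h3, h4, by rw [← a t h4]; exact h5⟩
        · exact Or.inr (c1.1 h3)
      · rintro (⟨t, h3, h4, h5⟩ | h3)
        · exact Or.inl ⟨t, h3, h4, by rw [a t h4]; exact h5⟩
        · exact Or.inr (c1.2 h3)
    have a2 : HL 1 ({X | X.length < z + N1} : Language α) :=
      HL.finite ((List.finite_length_le α (z + N1)).subset fun w (h : w.length < z + N1) =>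
        (le_of_lt h : w.length ≤ z + N1))
    refine (((HX 1).inf a2).add a1).congr fun w => ?_
    constructor
    · rintro ⟨h1, h2 | h2⟩
      · exact Or.inl ⟨h1, h2⟩
      · exact Or.inr ⟨h1, h2⟩
    · rintro (⟨h1, h2⟩ | ⟨h1, h2⟩)
      · exact ⟨h1, Or.inl h2⟩
      · exact ⟨h1, Or.inr h2⟩
  have HT : ∀ x y, HL 1 (ZT (CC_247.XX Wo z)
      (CC_247.TT (ExactR_237.pr φ) act nu1 (fun X => nu2 X 1) p0) x y) := by
    intro x y
    refine Zones_813.NZ_fs hloc hlen hfree φ (z := z) (L0 := z) (M0 := M * b ^ m) le_rfl hM0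
      (fun X => CC_247.TT (ExactR_237.pr φ) act nu1 (fun X => nu2 X 1) p0 X x = y) ?_
    intro X X' hX hX' h1 h2 h3
    have q1 : X.take p0 = X'.take p0 := take_of_take (by omega) h1
    have q2 : ExactR_237.pr φ (X.drop p0) = ExactR_237.pr φ (X'.drop p0) :=
      split_val φ (by omega) h1 h3
    have q3 : nu1 (X.drop p0) = nu1 (X'.drop p0) := by
      refine (g4 _ _ ?_ ?_ ?_).2
      · have e : ∀ Y : List α, (Y.drop p0).take N1 = (Y.take (p0 + N1)).drop p0 := by
          intro Y
          rw [List.drop_take, Nat.add_sub_cancel_left]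
        rw [e, e, take_of_take (z := z) (by omega) h1]
      · show (((X.drop p0).drop N1).map φ).prod = (((X'.drop p0).drop N1).map φ).prod
        rw [List.drop_drop, List.drop_drop]
        exact split_val φ (by omega) h1 h3
      · rw [List.length_drop, List.length_drop]
        exact sub_mod h2 (by omega) (by omega)
    simp only [CC_247.TT]
    rw [q1, q2, q3]
  have H4 : ∀ s, HL 3 ({w | (∀ u ∈ CC_247.XX Wo z, ¬ u <+: w) ∧ ExactR_237.pr φ w = s} :
      Language α) := fun s =>
    (Zones_813.NZ_tail hloc hlen hfree φ z s).mono (by norm_num)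
  have hsub : ∀ a b s, act (a - b) s = act a s - act b s := by
    intro a b s
    have := hadd (a - b) b s
    rw [sub_add_cancel] at this
    rw [this, add_sub_cancel_right]
  have key := Top5_110.top_sem (φ := ExactR_237.pr φ) (act := act) (XX := CC_247.XX Wo z)
    (Bad := CC_247.Bad Wo z N1 p0 BadT)
    (T := CC_247.TT (ExactR_237.pr φ) act nu1 (fun X => nu2 X 1) p0)
    (N1 := 0) (N2 := 1) (L1 := CC_247.L1 (ExactR_237.pr φ) act lam (fun X => nu2 X 1) p0)
    (L2 := CC_247.L2 lam2 c K)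
    (by simp [ExactR_237.pr]) (fun u w => by simp [ExactR_237.pr]) hone hmul hfaith
    (CC_247.XX_pc (by omega)) (fun u hu => hu.1) ?_ (HX 1) HBad HT H4
    (CC_247.F1 hGad) (CC_247.F2 hcle)
    (fun u hu hb' x t ht => CC_247.C1 hw hGad (by omega) (by omega) u hu hb' x t ht)
    (fun u hu x t ht => CC_247.C2 hw hRul hcle (by omega) (by omega) e1 e2 u hu x t ht) s
  · exact key
  · intro u hu v v'
    simp only [CC_247.TT]
    have e : ExactR_237.pr φ u = ExactR_237.pr φ (u.take p0) * ExactR_237.pr φ (u.drop p0) := by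
      unfold ExactR_237.pr
      rw [← List.prod_append, ← List.map_append, List.take_append_drop]
    rw [e, hmul, hsub, hsub, hadd, hadd]
    abel

end Crest.Agent.R320.Fin_829
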