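import Crest.Agent.R320.P4_933
import Crest.Agent.R320.Grid_899
import Crest.Agent.R320.Thin_963
import Crest.Agent.R320.ExactR_237
import Crest.Agent.R320.Reg_236

/-!
Row 320 (helper830): the two gadgets with their constants, in the form consumed by `Blocks_830`.
-/

set_option autoImplicit false

namespace Crest.Agent.R320.Gads_830

open Crest.RegLang Crest.Agent.R320.Hk_851

section Reg

variable {α : Type}

theorem reg_and {P Q : List α → Prop} (h : Language.IsRegular ({w | P w} : Language α))
    (h' : Language.IsRegular ({w | Q w} : Language α)) :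
    Language.IsRegular ({w | P w ∧ Q w} : Language α) := by
  have h2 := h.inf h'
  exact h2

theorem reg_not {P : List α → Prop} (h : Language.IsRegular ({w | P w} : Language α)) :
    Language.IsRegular ({w | ¬ P w} : Language α) := by
  have h2 := h.compl
  exact h2

theorem reg_congr {P Q : List α → Prop} (h : Language.IsRegular ({w | P w} : Language α))
    (e : ∀ w, P w ↔ Q w) : Language.IsRegular ({w | Q w} : Language α) := by
  have : ({w | P w} : Language α) = {w | Q w} := by
    apply Set.ext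
    intro w
    exact e w
  rwa [← this]

theorem reg_or {P Q : List α → Prop} (h : Language.IsRegular ({w | P w} : Language α))
    (h' : Language.IsRegular ({w | Q w} : Language α)) :
    Language.IsRegular ({w | P w ∨ Q w} : Language α) :=
  reg_congr (reg_not (reg_and (reg_not h) (reg_not h'))) fun w => by tauto

theorem reg_const (p : Prop) : Language.IsRegular ({_w | p} : Language α) :=
  Reg_236.HL.isRegular (k := 0) (HL.const p)

theorem reg_ex {ι : Type*} [Finite ι] {P : ι → List α → Prop}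
    (h : ∀ i, Language.IsRegular ({w | P i w} : Language α)) :
    Language.IsRegular ({w | ∃ i, P i w} : Language α) := by
  classical
  haveI := Fintype.ofFinite ι
  have key : ∀ s : Finset ι, Language.IsRegular ({w | ∃ i ∈ s, P i w} : Language α) := by
    intro s
    induction s using Finset.induction_on with
    | empty => exact reg_congr (reg_const False) fun w => by simp
    | insert a s _ ih =>
      exact reg_congr (reg_or (h a) ih) fun w => by simp
  exact reg_congr (key Finset.univ) fun w => by simp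

theorem reg_finite {s : Set (List α)} (hs : s.Finite) :
    Language.IsRegular ({w | w ∈ s} : Language α) := by
  have h := Reg_236.HL.isRegular (HL.finite (k := 0) hs)
  exact h

theorem reg_mul {P Q : List α → Prop} (h : Language.IsRegular ({w | P w} : Language α))
    (h' : Language.IsRegular ({w | Q w} : Language α)) :
    Language.IsRegular ({w | ∃ u v, w = u ++ v ∧ P u ∧ Q v} : Language α) := by
  obtain ⟨LP, hLP⟩ : ∃ LP : Language α, LP = {w | P w} := ⟨_, rfl⟩
  obtain ⟨LQ, hLQ⟩ : ∃ LQ : Language α, LQ = {w | Q w} := ⟨_, rfl⟩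
  rw [← hLP] at h
  rw [← hLQ] at h'
  have h2 := Reg_236.isRegular_mul h h'
  have : ({w | ∃ u v, w = u ++ v ∧ P u ∧ Q v} : Language α) = LP * LQ := by
    apply Set.ext
    intro w
    constructor
    · rintro ⟨u, v, rfl, h1, h2⟩
      exact Language.mem_mul.2 ⟨u, by rw [hLP]; exact h1, v, by rw [hLQ]; exact h2, rfl⟩
    · intro hw
      obtain ⟨u, hu, v, hv, rfl⟩ := Language.mem_mul.1 hw
      rw [hLP] at hu
      rw [hLQ] at hv
      exact ⟨u, v, rfl, hu, hv⟩
  rw [this]
  exact h2

theorem reg_split [Finite α] (A : ℕ) (g : List α → List α → Prop)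
    (hg : ∀ Q1, Q1.length = A → Language.IsRegular ({Q2 | g Q1 Q2} : Language α)) :
    Language.IsRegular ({w | A ≤ w.length ∧ g (w.take A) (w.drop A)} : Language α) := by
  have hfin : Finite {l : List α // l.length = A} := (List.finite_length_eq α A).to_subtype
  have h : Language.IsRegular ({w | ∃ Q1 : {l : List α // l.length = A}, ∃ u v, w = u ++ v ∧
      u ∈ ({Q1.1} : Set (List α)) ∧ g Q1.1 v} : Language α) :=
    reg_ex fun Q1 => reg_mul (reg_finite (Set.finite_singleton _)) (hg _ Q1.2)
  refine reg_congr h fun w => ?_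
  constructor
  · rintro ⟨⟨Q1, hQ1⟩, u, v, rfl, hu, hv⟩
    have e : u = Q1 := hu
    subst e
    refine ⟨by rw [List.length_append]; omega, ?_⟩
    rw [← hQ1, List.take_left, List.drop_left]
    exact hv
  · rintro ⟨h1, h2⟩
    exact ⟨⟨w.take A, by rw [List.length_take]; omega⟩, w.take A, w.drop A,
      (List.take_append_drop _ _).symm, rfl, h2⟩

theorem reg_prod [Finite α] {S : Type} [Monoid S] [Finite S] (φ : α → S) (P : S → Prop) :
    Language.IsRegular ({w | P (w.map φ).prod} : Language α) :=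
  P4_933.regular_of_class φ 0 1 one_pos _ fun u u' _ _ _ _ h => by rw [h]

end Reg

/-- gadget 2 -/
theorem gad2 (α S V : Type) [Monoid S] [Finite S] [AddCommGroup V] [Finite V] (f : α → S)
    (act : V → S → V) (R : ℕ) :
    ∃ K : ℕ, ∀ c : ℕ → ℕ, (∀ i j, i < j → j < K → c i < c j) → ∀ p0, (∀ k < K, c k ≤ p0) →
      ∃ (lam2 rho2 : List α → Option V) (nu2 : List α → V),
        (∀ p q v r, p.length + q.length = p0 → lam2 p = some v → rho2 q = some r →
          r = act v ((p ++ q).map f).prod + nu2 (p ++ q)) ∧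
        (∀ (u : List α) v, u.length = p0 → ∃ J : Finset ℕ, R ≤ J.card ∧
          ∀ j ∈ J, j < K ∧ lam2 (u.take (c j)) = some v ∧ (rho2 (u.drop (c j))).isSome) := by
  classical
  haveI := Fintype.ofFinite S
  haveI := Fintype.ofFinite V
  obtain ⟨K, hK⟩ := ExactR_237.exact_gadget α S V f act R
  refine ⟨K, fun c hc p0 hp0 => ?_⟩
  obtain ⟨lam, rho, nu, h1, h2⟩ := hK c hc
  have inj : ∀ i < K, ∀ j < K, c i = c j → i = j := by
    intro i hi j hj hij
    rcases lt_trichotomy i j with h | h | h
    · have := hc i j h hj; omega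
    · exact h
    · have := hc j i h hi; omega
  refine ⟨fun P => if h : ∃ k < K, P.length = c k then lam h.choose P else none,
    fun Q => if h : ∃ k < K, Q.length = p0 - c k then rho h.choose Q 1 else none,
    fun u => nu u 1, ?_, ?_⟩
  · intro p q v r hpq hl hr
    beta_reduce at hl hr ⊢
    split_ifs at hl with hA
    split_ifs at hr with hB
    obtain ⟨a1, a2⟩ := hA.choose_spec
    obtain ⟨b1, b2⟩ := hB.choose_spec
    have e : hB.choose = hA.choose := by
      apply inj _ b1 _ a1
      have := hp0 _ a1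
      have := hp0 _ b1
      omega
    rw [e] at hr
    have := h1 _ a1 p q 1 v r a2 hl hr
    rw [mul_one] at this
    exact this
  · intro u v hu
    obtain ⟨I, hI, hI2⟩ := h2 u 1 v (fun k hk => by rw [hu]; exact hp0 k hk)
    refine ⟨I, hI, fun k hk => ?_⟩
    obtain ⟨k1, k2, k3⟩ := hI2 k hk
    have hle := hp0 k k1
    have hA : ∃ k' < K, (u.take (c k)).length = c k' := ⟨k, k1, by rw [List.length_take]; omega⟩
    have hB : ∃ k' < K, (u.drop (c k)).length = p0 - c k' :=
      ⟨k, k1, by rw [List.length_drop]; omega⟩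
    have eA : hA.choose = k := by
      obtain ⟨a1, a2⟩ := hA.choose_spec
      have a3 : (u.take (c k)).length = c k := by rw [List.length_take]; omega
      exact inj _ a1 _ k1 (a2.symm.trans a3)
    have eB : hB.choose = k := by
      obtain ⟨a1, a2⟩ := hB.choose_spec
      have a3 : (u.drop (c k)).length = p0 - c k := by rw [List.length_drop]; omega
      have a4 := a2.symm.trans a3
      have := hp0 _ a1
      exact inj _ a1 _ k1 (by omega)
    refine ⟨k1, ?_, ?_⟩
    · show (if h : ∃ k' < K, (u.take (c k)).length = c k' then lam h.choose _ else none) = some v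
      rw [dif_pos hA, eA]
      exact k2
    · show (if h : ∃ k' < K, (u.drop (c k)).length = p0 - c k' then rho h.choose _ 1
        else none).isSome
      rw [dif_pos hB, eB]
      exact k3

/-- gadget 1 -/
theorem gad1 (S V : Type) [Monoid S] [Finite S] [AddCommGroup V] [Finite V] (act : V → S → V) :
    ∃ C0 : ℕ, ∀ K : ℕ, ∃ (N1 N2 M0 : ℕ) (BadT : ℕ → Prop), 0 < M0 ∧
      (∀ T T', T % M0 = T' % M0 → (BadT T → BadT T')) ∧
      (∀ N0 : ℕ, ∃ X : ℕ, N0 ≤ X ∧ 0 < X ∧ ∀ T, X * 2 ^ K ≤ T →
        ∀ [DecidablePred fun ab : ℕ × ℕ => ab.1 ≠ ab.2 ∧ BadT (T + X * 2 ^ ab.1 - X * 2 ^ ab.2)],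
        ((Finset.range K ×ˢ Finset.range K).filter (fun ab => ab.1 ≠ ab.2 ∧
          BadT (T + X * 2 ^ ab.1 - X * 2 ^ ab.2))).card ≤ C0) ∧
      ∀ (α : Type) [Finite α] (f : α → S), ∃ (lam rho : List α → Option V) (nu : List α → V),
        (∀ p v, lam p = some v → p.length ≤ N1) ∧
        (∀ p q v r, lam p = some v → rho q = some r →
          r = act v ((p ++ q).map f).prod + nu (p ++ q)) ∧
        (∀ u : List α, N2 ≤ u.length → ¬ BadT u.length → ∀ v, ∃ p q, p ++ q = u ∧
          lam p = some v ∧ (rho q).isSome) ∧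
        (∀ v, Language.IsRegular ({u | nu u = v} : Language α)) := by
  classical
  obtain ⟨k, m, H⟩ := Grid_899.grid_gadget_reg S V act
  refine ⟨k + m, fun K => ?_⟩
  -- primes
  let q : Fin k → ℕ := fun j => Nat.nth Nat.Prime (2 ^ (K + 1) + (j : ℕ) + 1)
  have hqp : ∀ j, (q j).Prime := fun j => Nat.prime_nth_prime _
  have hsm : StrictMono (Nat.nth Nat.Prime) := Nat.nth_strictMono Nat.infinite_setOfPred_prime
  have hqge : ∀ j : Fin k, 2 ^ (K + 1) + (j : ℕ) + 1 ≤ q j := fun j => hsm.id_le _
  have hqgt : ∀ j, 2 ^ (K + 1) < q j := fun j => by have := hqge j; omega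
  have h2K : 2 ≤ 2 ^ (K + 1) := by
    calc 2 = 2 ^ 1 := by norm_num
      _ ≤ 2 ^ (K + 1) := Nat.pow_le_pow_right (by norm_num) (by omega)
  have hqodd : ∀ j, Odd (q j) := fun j =>
    (hqp j).odd_of_ne_two (by have := hqgt j; omega)
  have hqinj : Function.Injective q := by
    intro i j hij
    have := hsm.injective hij
    exact Fin.ext (by omega)
  have hcop : Pairwise (fun i j => Nat.Coprime (q i) (q j)) := by
    intro i j hij
    exact (Nat.coprime_primes (hqp i) (hqp j)).2 fun h => hij (hqinj h)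
  set Mq := ∏ j, q j with hMq
  have hMq0 : 0 < Mq := Finset.prod_pos fun j _ => (hqp j).pos
  -- growth
  let κ : ℕ := 2 ^ (K + 4) * (Mq * (m + 1))
  let G : ℕ → ℤ := fun i => ((Grid_899.G κ i : ℕ) : ℤ)
  let cc : ℕ → ℤ := fun i => ((Mq * Grid_899.G κ i : ℕ) : ℤ)
  let Am : ℕ → ℤ := fun i => ((Grid_899.Am Mq κ i : ℕ) : ℤ)
  let Ms : Finset ℕ := Finset.univ.image q
  let BadT : ℕ → Prop := fun T => Thin963.BadT Ms m G cc Am (T : ℤ)
  have hGpos : ∀ i, 0 < Grid_899.G κ i := fun i => Grid_899.G_pos i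
  have hgrow : ∀ i < m, 2 ^ (K + 4) * ∑ j ∈ Finset.range (i + 1), cc j ≤ G (i + 1) := by
    intro i hi
    have h1 : ∑ j ∈ Finset.range (i + 1), cc j ≤ ∑ j ∈ Finset.range (i + 1),
        ((Mq * Grid_899.G κ i : ℕ) : ℤ) := by
      apply Finset.sum_le_sum
      intro j hj
      rw [Finset.mem_range] at hj
      have h0 : Grid_899.G κ j ≤ Grid_899.G κ i :=
        Nat.le_of_dvd (hGpos i) (Grid_899.G_dvd (by omega))
      show ((Mq * Grid_899.G κ j : ℕ) : ℤ) ≤ ((Mq * Grid_899.G κ i : ℕ) : ℤ)
      exact Int.ofNat_le.2 (Nat.mul_le_mul_left Mq h0)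
    rw [Finset.sum_const, Finset.card_range, nsmul_eq_mul] at h1
    have h2 : (2 : ℤ) ^ (K + 4) * ∑ j ∈ Finset.range (i + 1), cc j ≤
        2 ^ (K + 4) * (((i + 1 : ℕ) : ℤ) * ((Mq * Grid_899.G κ i : ℕ) : ℤ)) :=
      mul_le_mul_of_nonneg_left h1 (by positivity)
    refine h2.trans ?_
    have h3 : 2 ^ (K + 4) * ((i + 1) * (Mq * Grid_899.G κ i)) ≤ Grid_899.G κ (i + 1) := by
      have e : Grid_899.G κ (i + 1) = 2 ^ κ * Grid_899.G κ i := by
        unfold Grid_899.G
        rw [← pow_add]
        congr 1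
        ring
      rw [e]
      have h4 : 2 ^ (K + 4) * ((i + 1) * (Mq * Grid_899.G κ i)) =
          (2 ^ (K + 4) * (Mq * (i + 1))) * Grid_899.G κ i := by ring
      rw [h4]
      apply Nat.mul_le_mul_right
      calc 2 ^ (K + 4) * (Mq * (i + 1)) ≤ 2 ^ (K + 4) * (Mq * (m + 1)) := by
            apply Nat.mul_le_mul_left
            apply Nat.mul_le_mul_left
            omega
        _ = κ := rfl
        _ ≤ 2 ^ κ := Nat.lt_two_pow_self.le
    have h5 : ((2 ^ (K + 4) * ((i + 1) * (Mq * Grid_899.G κ i)) : ℕ) : ℤ) ≤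
        ((Grid_899.G κ (i + 1) : ℕ) : ℤ) := Int.ofNat_le.2 h3
    have h6 : ((2 ^ (K + 4) * ((i + 1) * (Mq * Grid_899.G κ i)) : ℕ) : ℤ) =
        (2 : ℤ) ^ (K + 4) * (((i + 1 : ℕ) : ℤ) * ((Mq * Grid_899.G κ i : ℕ) : ℤ)) := by
      push_cast
      ring
    rw [h6] at h5
    exact h5
  have hthin := Thin963.thin K m Ms G cc Am
    (by
      intro p hp
      obtain ⟨j, -, rfl⟩ := Finset.mem_image.1 hp
      exact ⟨hqp j, (hqgt j).le⟩)
    (by
      intro p hp
      obtain ⟨j, -, rfl⟩ := Finset.mem_image.1 hp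
      have h1 : Nat.Coprime (q j) (Grid_899.G κ m) := by
        unfold Grid_899.G
        exact Nat.Coprime.pow_right _ ((Nat.coprime_primes (hqp j) Nat.prime_two).2
          (by have := hqgt j; omega))
      exact Nat.isCoprime_iff_coprime.2 h1)
    (show (0 : ℤ) < ((Grid_899.G κ m : ℕ) : ℤ) from Int.natCast_pos.2 (hGpos m))
    (by
      intro i j hij
      show ((Grid_899.G κ i : ℕ) : ℤ) ∣ ((Grid_899.G κ j : ℕ) : ℤ)
      exact Int.natCast_dvd_natCast.2 (Grid_899.G_dvd hij))
    (by
      intro i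
      show (0 : ℤ) < ((Mq * Grid_899.G κ i : ℕ) : ℤ)
      exact Int.natCast_pos.2 (Nat.mul_pos hMq0 (hGpos i)))
    (by
      intro i
      show ((Grid_899.G κ i : ℕ) : ℤ) ∣ ((Mq * Grid_899.G κ i : ℕ) : ℤ)
      exact Int.natCast_dvd_natCast.2 (Dvd.intro_left Mq rfl))
    hgrow
  refine ⟨Grid_899.Am Mq κ m, 2 * Grid_899.Am Mq κ (m + 1), Mq * Grid_899.G κ m, BadT,
    Nat.mul_pos hMq0 (hGpos m), ?_, ?_, ?_⟩
  · -- periodicity
    intro T T' hTT hB
    have hd : ((Mq * Grid_899.G κ m : ℕ) : ℤ) ∣ (T' : ℤ) - T := by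
      have : T ≡ T' [MOD (Mq * Grid_899.G κ m)] := hTT
      exact (Nat.modEq_iff_dvd).1 this
    rcases hB with ⟨p, hp, hd1⟩ | ⟨i, hi, e, he, hd1⟩
    · left
      refine ⟨p, hp, ?_⟩
      obtain ⟨j, -, rfl⟩ := Finset.mem_image.1 hp
      have h1 : ((q j : ℕ) : ℤ) ∣ ((Mq * Grid_899.G κ m : ℕ) : ℤ) := by
        have : q j ∣ Mq := Finset.dvd_prod_of_mem q (Finset.mem_univ j)
        exact_mod_cast Dvd.dvd.mul_right this _
      have h2 := dvd_add hd1 (h1.trans hd)
      have e2 : (T : ℤ) + ((T' : ℤ) - T) = T' := by ring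
      rwa [e2] at h2
    · right
      refine ⟨i, hi, e, he, ?_⟩
      have h1 : G (i + 1) ∣ ((Mq * Grid_899.G κ m : ℕ) : ℤ) := by
        have h0 : Grid_899.G κ (i + 1) ∣ Mq * Grid_899.G κ m :=
          Dvd.dvd.mul_left (Grid_899.G_dvd (by omega)) _
        show ((Grid_899.G κ (i + 1) : ℕ) : ℤ) ∣ ((Mq * Grid_899.G κ m : ℕ) : ℤ)
        exact Int.natCast_dvd_natCast.2 h0
      have h2 := dvd_add hd1 (h1.trans hd)
      have e2 : (T : ℤ) - Am (i + 1) + e + ((T' : ℤ) - T) = (T' : ℤ) - Am (i + 1) + e := by ring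
      rwa [e2] at h2
  · -- ruler
    intro N0
    obtain ⟨X, hX1, hX2, hX3⟩ := hthin (N0 : ℤ)
    refine ⟨X.toNat, by omega, by omega, fun T hT _ => ?_⟩
    have hXc : ((X.toNat : ℕ) : ℤ) = X := Int.toNat_of_nonneg hX2.le
    have hcard : Ms.card ≤ k := by
      refine Finset.card_image_le.trans ?_
      simp
    have h5 := hX3 (T : ℤ)
    refine le_trans (le_trans (Finset.card_le_card ?_) h5) (by omega)
    intro ab hab
    rw [Finset.mem_filter] at hab ⊢
    refine ⟨hab.1, hab.2.1, ?_⟩
    have h6 := hab.2.2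
    have hb : ab.2 < K := Finset.mem_range.1 (Finset.mem_product.1 hab.1).2
    have h7 : X.toNat * 2 ^ ab.2 ≤ X.toNat * 2 ^ K :=
      Nat.mul_le_mul_left _ (Nat.pow_le_pow_right (by norm_num) hb.le)
    have h8 : ((T + X.toNat * 2 ^ ab.1 - X.toNat * 2 ^ ab.2 : ℕ) : ℤ) =
        (T : ℤ) + X * 2 ^ ab.1 - X * 2 ^ ab.2 := by
      rw [Nat.cast_sub (by omega)]
      push_cast
      rw [hXc]
    have h9 : Thin963.BadT Ms m G cc Am
        ((T + X.toNat * 2 ^ ab.1 - X.toNat * 2 ^ ab.2 : ℕ) : ℤ) := h6
    rwa [h8] at h9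
  · -- words
    intro α _ f
    obtain ⟨lam, rho, nu, g1, g2, g3, g4, g5⟩ := H q hqodd hcop κ α (fun w => (w.map f).prod)
      (fun u v => by simp)
    rw [← hMq] at g1 g2 g4 g5
    have hrho : ∀ b, Language.IsRegular ({Q | rho Q = some b} : Language α) := by
      intro b
      have h1 := reg_split (α := α) (Grid_899.Am Mq κ (m + 1))
        (fun Q1 Q2 => rho (Q1 ++ Q2) = some b) (by
          intro Q1 hQ1
          refine P4_933.regular_of_class f 0 (Mq * Grid_899.G κ m)
            (Nat.mul_pos hMq0 (hGpos m)) _ fun u u' _ _ _ hlen hprod => ?_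
          have h2 := g5 (Q1 ++ u) (Q1 ++ u') (by rw [List.length_append]; omega)
            (by rw [List.length_append]; omega)
            (by rw [← hQ1, List.take_left, List.take_left])
            (by rw [← hQ1, List.drop_left, List.drop_left]; exact hprod)
            (by
              rw [List.length_append, List.length_append]
              exact Nat.ModEq.add_left _ hlen)
          rw [h2.1])
      refine reg_congr h1 fun w => ?_
      rw [List.take_append_drop]
      exact ⟨fun h => h.2, fun h => ⟨g2 _ _ h, h⟩⟩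
    let Sp : V → V → List α → Prop := fun v b u =>
      ∃ P Q, u = P ++ Q ∧ lam P = some v ∧ rho Q = some b
    have hlam : ∀ v, Language.IsRegular ({P | lam P = some v} : Language α) := by
      intro v
      have hf : ({P | lam P = some v} : Set (List α)).Finite :=
        (List.finite_length_le α (Grid_899.Am Mq κ m)).subset fun P hP => (g1 P v hP).1.le
      exact reg_finite hf
    have hSp : ∀ v b, Language.IsRegular ({u | Sp v b u} : Language α) := fun v b =>
      reg_mul (hlam v) (hrho b)
    refine ⟨lam, rho, fun u => if ∃ vb : V × V, Sp vb.1 vb.2 u then nu u else 0, ?_, ?_, ?_, ?_⟩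
    · intro p v hp
      exact (g1 p v hp).1.le
    · intro p q' v r hp hq'
      have hex : ∃ vb : V × V, Sp vb.1 vb.2 (p ++ q') := ⟨(v, r), p, q', rfl, hp, hq'⟩
      show r = act v (List.map f (p ++ q')).prod +
        (if ∃ vb : V × V, Sp vb.1 vb.2 (p ++ q') then nu (p ++ q') else 0)
      rw [if_pos hex]
      exact g3 p q' v r hp hq'
    · intro u hu hB v
      obtain ⟨P, Q, h1, h2, h3⟩ := g4 u hu (by
        intro j hj
        apply hB
        left
        refine ⟨q j, Finset.mem_image_of_mem q (Finset.mem_univ j), ?_⟩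
        exact_mod_cast hj) (by
        intro j hj1 hj2
        have hAm : Grid_899.Am Mq κ j ≤ Grid_899.Am Mq κ (m + 1) := Grid_899.Am_mono (by omega)
        have hT : ((u.length - Grid_899.Am Mq κ j : ℕ) : ℤ) =
            (u.length : ℤ) - Grid_899.Am Mq κ j := by
          rw [Nat.cast_sub (by omega)]
        have hdm := Nat.div_add_mod (u.length - Grid_899.Am Mq κ j) (Grid_899.G κ j)
        have hml := Nat.mod_lt (u.length - Grid_899.Am Mq κ j) (hGpos j)
        set r := (u.length - Grid_899.Am Mq κ j) % Grid_899.G κ j with hr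
        set d := (u.length - Grid_899.Am Mq κ j) / Grid_899.G κ j with hd
        have hcast : (u.length : ℤ) - Grid_899.Am Mq κ j = (Grid_899.G κ j : ℤ) * d + r := by
          rw [← hT, ← hdm]
          push_cast
          ring
        have hj' : j - 1 + 1 = j := by omega
        constructor
        · by_contra hlt
          push Not at hlt
          apply hB
          right
          refine ⟨j - 1, by omega, -(r : ℤ), ?_, ?_⟩
          · rw [abs_neg, abs_of_nonneg (by positivity)]
            show (r : ℤ) ≤ ((Mq * Grid_899.G κ (j - 1) : ℕ) : ℤ)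
            exact_mod_cast hlt.le
          · rw [hj']
            show ((Grid_899.G κ j : ℕ) : ℤ) ∣ (u.length : ℤ) - Grid_899.Am Mq κ j + -(r : ℤ)
            rw [hcast]
            exact ⟨d, by ring⟩
        · by_contra hlt
          push Not at hlt
          apply hB
          right
          refine ⟨j - 1, by omega, (Grid_899.G κ j : ℤ) - r, ?_, ?_⟩
          · rw [abs_of_nonneg (by omega)]
            show (Grid_899.G κ j : ℤ) - r ≤ ((Mq * Grid_899.G κ (j - 1) : ℕ) : ℤ)
            omega
          · rw [hj']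
            show ((Grid_899.G κ j : ℕ) : ℤ) ∣
              (u.length : ℤ) - Grid_899.Am Mq κ j + ((Grid_899.G κ j : ℤ) - r)
            rw [hcast]
            exact ⟨d + 1, by ring⟩) v
      exact ⟨P, Q, h1.symm, h2, h3⟩
    · intro v
      have hA : Language.IsRegular ({u | ∃ vb : V × V, Sp vb.1 vb.2 u ∧
          vb.2 - act vb.1 (u.map f).prod = v} : Language α) :=
        reg_ex fun vb => reg_and (hSp vb.1 vb.2)
          (reg_prod f fun s => vb.2 - act vb.1 s = v)
      have hB : Language.IsRegular ({u | (¬ ∃ vb : V × V, Sp vb.1 vb.2 u) ∧ (0 : V) = v} :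
          Language α) :=
        reg_and (reg_not (reg_ex fun vb => hSp vb.1 vb.2)) (reg_const _)
      refine reg_congr (reg_or hA hB) fun u => ?_
      by_cases hex : ∃ vb : V × V, Sp vb.1 vb.2 u
      · show _ ↔ (if ∃ vb : V × V, Sp vb.1 vb.2 u then nu u else 0) = v
        rw [if_pos hex]
        have key : ∀ vb : V × V, Sp vb.1 vb.2 u → vb.2 - act vb.1 (u.map f).prod = nu u := by
          rintro vb ⟨P, Q, rfl, h1, h2⟩
          have := g3 P Q _ _ h1 h2
          rw [this]
          simp
        constructor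
        · rintro (⟨vb, h1, h2⟩ | ⟨h1, -⟩)
          · rw [← key vb h1]; exact h2
          · exact absurd hex h1
        · intro h
          obtain ⟨vb, h1⟩ := hex
          exact Or.inl ⟨vb, h1, by rw [key vb h1]; exact h⟩
      · show _ ↔ (if ∃ vb : V × V, Sp vb.1 vb.2 u then nu u else 0) = v
        rw [if_neg hex]
        constructor
        · rintro (⟨vb, h1, -⟩ | ⟨-, h2⟩)
          · exact absurd ⟨vb, h1⟩ hex
          · exact h2
        · intro h
          exact Or.inr ⟨hex, h⟩

end Crest.Agent.R320.Gads_830
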