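import Crest.Agent.R320.Top5_120
import Crest.Agent.R320.P4_933
import Crest.Agent.R320.LWallAll_922
import Crest.Agent.R320.Gads_830
import Crest.Agent.R320.Blocks2_830

/-!
Row 320 (helper830): the join.  Every fibre of a morphism into a finite monoid has generalized
star height at most three.
-/

set_option autoImplicit false

namespace Crest.Agent.R320.Fin_830

open Crest.RegLang Crest.Agent.R320.Hk_851 Crest.Agent.R320.BddReg_746
open Crest.Agent.R320.Gads_830 Crest.Agent.R320.Blocks_830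

theorem fin (α : Type) [Finite α] (S : Type) [Monoid S] [Finite S] (φ : α → S) (s : S) :
    HL 3 ({w | (w.map φ).prod = s} : Language α) := by
  classical
  obtain ⟨act, hadd, hone, hmul, hfaith⟩ := Blk467.exists_module S
  obtain ⟨C0, HC0⟩ := gad1 S (S → ZMod 2) act
  obtain ⟨K, HK⟩ := gad2 α S (S → ZMod 2) φ act (2 + 2 * C0)
  obtain ⟨N1, N2, M0, BadT, hM0, hper, hrul, hw⟩ := HC0 K
  obtain ⟨lam, rho, nu1, a1, a2, a3, a4⟩ := hw α φ
  obtain ⟨X, hX1, hX2, hX3⟩ := hrul (2 * N1 + 1)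
  set p0 : ℕ := X * 2 ^ K with hp0
  let c : ℕ → ℕ := fun j => X * 2 ^ j
  have hcle : ∀ j < K, c j ≤ p0 := fun j hj =>
    Nat.mul_le_mul_left _ (Nat.pow_le_pow_right (by norm_num) hj.le)
  have hclt : ∀ i j, i < j → j < K → c i < c j := fun i j hij _ =>
    Nat.mul_lt_mul_of_pos_left (Nat.pow_lt_pow_right (by norm_num) hij) hX2
  obtain ⟨lam2, rho2, nu2, b1, b2⟩ := HK c hclt p0 hcle
  obtain ⟨n, Gw, B, Wo, hLW, hgap, -, -, hfree⟩ :=
    LWallAll_922.walls_all_left α (2 * (p0 + N1) + 1) (by omega)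
  let z : ℕ := 3 * p0 + N1 + n + 1 + N2
  let D : Dat α S (S → ZMod 2) :=
    { φ := fun w => (w.map φ).prod
      act := act
      add := fun a b => a + b
      Wo := Wo
      n := n
      z := z
      p0 := p0
      N1 := N1
      K := K
      c := c
      BadT := BadT
      lam := lam
      rho := rho
      nu1 := nu1
      lam2 := lam2
      rho2 := rho2
      nu2 := nu2 }
  have hOk : D.Ok :=
    { hn := by show p0 + N1 + n + 1 ≤ 3 * p0 + N1 + n + 1 + N2; omega
      cle := hcle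
      loc := hLW.app
      gap := by
        intro U s t hst ht h1 h2
        have := hgap U s t hst ht h1 h2
        show s + 2 * (p0 + N1) < t
        omega
      lam_len := a1
      snd1 := a2
      cmp1 := by
        intro u hu hB v
        refine a3 u ?_ hB v
        have hu' : 3 * p0 + N1 + n + 1 + N2 ≤ u.length + p0 := hu
        omega
      snd2 := b1 }
  let nuX : List α → (S → ZMod 2) := fun Y =>
    act (nu2 (Y.take p0)) ((Y.drop p0).map φ).prod + nu1 (Y.drop p0)
  have hT : ∀ v Y, D.T v Y = act v (Y.map φ).prod + nuX Y := by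
    intro v Y
    show act (act v ((Y.take p0).map φ).prod + nu2 (Y.take p0)) ((Y.drop p0).map φ).prod +
      nu1 (Y.drop p0) = act v (Y.map φ).prod + (act (nu2 (Y.take p0)) ((Y.drop p0).map φ).prod +
      nu1 (Y.drop p0))
    rw [hadd, ← hmul, ← List.prod_append, ← List.map_append, List.take_append_drop, add_assoc]
  have hfr : ∀ u : List α, (∀ t < u.length, ¬ Wo (u.take t)) →
      u ∈ (PN (B + (2 * (p0 + N1) + 1)) 2 : Language α) := by
    intro u hu
    obtain ⟨a, x, b, k, h1, h2, h3, rfl⟩ := hfree u hu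
    refine Language.mem_mul.2 ⟨a ++ (List.replicate k x).flatten, ⟨a, x, k, by omega, by omega,
      rfl⟩, b, Language.mem_mul.2 ⟨b, ⟨b, [], 0, by omega, by simp, by simp⟩, [], rfl, by simp⟩, rfl⟩
  have hXXe : ∀ Y, Y ∈ D.XX ↔ P4_933.XX Wo z Y := by
    intro Y
    constructor
    · rintro ⟨h1, h2, h3⟩
      exact ⟨h2, h1, fun t ht hz => h3 t hz ht⟩
    · rintro ⟨h1, h2, h3⟩
      exact ⟨h2, h1, fun t hz ht => h3 t ht hz⟩
  -- regularity of the value of a block
  have hreg : ∀ x y, Language.IsRegular ({Y | p0 ≤ Y.length ∧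
      act x (Y.map φ).prod + nuX Y = y} : Language α) := by
    intro x y
    have h1 := reg_split (α := α) p0 (fun Q1 Q2 => act x ((Q1.map φ).prod * (Q2.map φ).prod) +
      (act (nu2 Q1) (Q2.map φ).prod + nu1 Q2) = y) (by
        intro Q1 _
        have h2 : Language.IsRegular ({Q2 | ∃ w : S → ZMod 2, nu1 Q2 = w ∧
            act x ((Q1.map φ).prod * (Q2.map φ).prod) +
              (act (nu2 Q1) (Q2.map φ).prod + w) = y} : Language α) :=
          reg_ex fun w => reg_and (a4 w) (reg_prod φ fun t =>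
            act x ((Q1.map φ).prod * t) + (act (nu2 Q1) t + w) = y)
        refine reg_congr h2 fun Q2 => ?_
        constructor
        · rintro ⟨w, rfl, h⟩; exact h
        · intro h; exact ⟨_, rfl, h⟩)
    refine reg_congr h1 fun Y => ?_
    rw [← List.prod_append, ← List.map_append, List.take_append_drop]
  have hz0 : p0 ≤ z := by show p0 ≤ 3 * p0 + N1 + n + 1 + N2; omega
  have hCT : ∀ x y, HL 1 ({Y | Y ∈ D.XX ∧ act x (Y.map φ).prod + nuX Y = y} : Language α) := by
    intro x y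
    refine (P4_933.hl_XX (z := z) hLW.app hLW.len hfr (hreg x y)).congr fun Y => ?_
    constructor
    · rintro ⟨h1, h2⟩
      have h1' := (hXXe Y).1 h1
      exact ⟨h1', hz0.trans h1'.2.1, h2⟩
    · rintro ⟨h1, -, h2⟩
      exact ⟨(hXXe Y).2 h1, h2⟩
  -- regularity of badness
  have hE : Language.IsRegular ({Y | ∃ t, t ≤ Y.length ∧ Wo (Y.take t) ∧ z ≤ t + N1 ∧
      t < z + N1} : Language α) := by
    have hf : ({P | Wo P ∧ z ≤ P.length + N1 ∧ P.length < z + N1} : Set (List α)).Finite :=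
      (List.finite_length_le α (z + N1)).subset fun P hP => hP.2.2.le
    refine reg_congr (reg_mul (reg_finite hf) (reg_const True)) fun Y => ?_
    constructor
    · rintro ⟨P, Q, rfl, ⟨h1, h2, h3⟩, -⟩
      exact ⟨P.length, by rw [List.length_append]; omega, by rw [List.take_left]; exact h1, h2, h3⟩
    · rintro ⟨t, ht, h1, h2, h3⟩
      refine ⟨Y.take t, Y.drop t, (List.take_append_drop _ _).symm, ⟨h1, ?_, ?_⟩, trivial⟩
      · rw [List.length_take]; omega
      · rw [List.length_take]; omega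
  have hBr : Language.IsRegular ({Y | p0 ≤ Y.length ∧ BadT (Y.length - p0)} : Language α) := by
    refine reg_congr (reg_split (α := α) p0 (fun _ Q2 => BadT Q2.length) (by
      intro Q1 _
      refine P4_933.regular_of_class φ 0 M0 hM0 _ fun u u' _ _ _ hl _ => ?_
      exact ⟨hper _ _ hl, hper _ _ hl.symm⟩)) fun Y => ?_
    rw [List.length_drop]
  have hBT : ∀ x y, HL 1 ({Y | Y ∈ D.Bad ∧ act x (Y.map φ).prod + nuX Y = y} : Language α) := by
    intro x y
    refine (P4_933.hl_XX (z := z) hLW.app hLW.len hfr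
      (reg_and (hreg x y) (reg_or hE hBr))).congr fun Y => ?_
    constructor
    · rintro ⟨⟨h1, h2⟩, h3⟩
      have h1' := (hXXe Y).1 h1
      have h5 : p0 ≤ Y.length := hz0.trans h1'.2.1
      refine ⟨h1', ⟨h5, h3⟩, ?_⟩
      rcases h2 with h2 | h2
      · exact Or.inl h2
      · exact Or.inr ⟨h5, h2⟩
    · rintro ⟨h1, ⟨-, h3⟩, h4⟩
      refine ⟨⟨(hXXe Y).2 h1, ?_⟩, h3⟩
      rcases h4 with h4 | h4
      · exact Or.inl h4
      · exact Or.inr h4.2
  have htail : ∀ t, HL 1 ({w | (∀ Y ∈ D.XX, ¬ Y <+: w) ∧ (w.map φ).prod = t} : Language α) := by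
    intro t
    refine (P4_933.hl_NB (z := z) hLW.app hLW.len hfr (reg_prod φ fun u => u = t)).congr fun w => ?_
    constructor
    · rintro ⟨h1, h2⟩
      refine ⟨(P4_933.NB_iff Wo z w).2 fun P hP hPX => ?_, h2⟩
      exact h1 P ((hXXe P).2 hPX) hP
    · rintro ⟨h1, h2⟩
      refine ⟨fun P hPX hP => ?_, h2⟩
      exact (P4_933.NB_iff Wo z w).1 h1 P hP ((hXXe P).1 hPX)
  have hPCode : Blk467.PCode D.XX := by
    refine ⟨Dat.hnil hOk, fun Y hY Y' hY' hp => ?_⟩
    exact Dat.prefix_unique hOk hY hY' hp (List.prefix_refl Y')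
  refine Top5_120.top5 act hadd hone hmul hfaith φ nuX D.XX D.Bad hPCode (fun Y hY => hY.1)
    (fun v => {P | D.LP1 P v}) (fun v => {P | D.LP2 P v}) ?_ ?_ hCT hBT htail ?_ ?_ s
  · intro v
    refine (List.finite_length_le α (p0 + N1)).subset fun P hP => ?_
    have h1 := hOk.lam_len _ _ hP.2
    rw [List.length_drop] at h1
    have h2 : P.length - p0 ≤ N1 := h1
    show P.length ≤ p0 + N1
    omega
  · intro v
    refine (List.finite_length_le α p0).subset fun P hP => ?_
    obtain ⟨j, hj, h1, -⟩ := hP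
    show P.length ≤ p0
    rw [h1]
    exact hcle j hj
  · intro Y hY hB v
    obtain ⟨P, Q, h1, h2, h3⟩ := Dat.hcc1 hOk Y hY hB v
    refine ⟨P, Q, h1, h2, fun x P' hP' => ?_⟩
    obtain ⟨h4, h5⟩ := h3 x P' hP'
    refine ⟨h4, ?_⟩
    rw [← hT, ← hT]
    exact h5
  · intro Y hY Y2 hY2 v
    obtain ⟨P, Q, h1, h2, h3⟩ := Dat.hcc2 hOk (by show 3 * p0 ≤ 3 * p0 + N1 + n + 1 + N2; omega)
      C0 (by
        intro i j k l _ _ _ _ hij hkl habs
        have hXz : (2 * N1 + 1 : ℤ) ≤ X := by exact_mod_cast hX1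
        have e : ((c i : ℤ) - c j) - ((c k : ℤ) - c l) =
            X * (((2 : ℤ) ^ i - 2 ^ j) - (2 ^ k - 2 ^ l)) := by
          show (((X * 2 ^ i : ℕ) : ℤ) - ((X * 2 ^ j : ℕ) : ℤ)) -
            (((X * 2 ^ k : ℕ) : ℤ) - ((X * 2 ^ l : ℕ) : ℤ)) = _
          push_cast
          ring
        have habs' : |((c i : ℤ) - c j) - ((c k : ℤ) - c l)| ≤ 2 * (N1 : ℤ) := habs
        rw [e, abs_mul, abs_of_pos (by omega)] at habs'
        have h0 : ((2 : ℤ) ^ i - 2 ^ j) - (2 ^ k - 2 ^ l) = 0 := by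
          by_contra hne
          have h1 : 1 ≤ |((2 : ℤ) ^ i - 2 ^ j) - (2 ^ k - 2 ^ l)| := Int.one_le_abs hne
          have h2 : (X : ℤ) * 1 ≤ X * |((2 : ℤ) ^ i - 2 ^ j) - (2 ^ k - 2 ^ l)| :=
            mul_le_mul_of_nonneg_left h1 (by omega)
          omega
        exact G369.pow_diff hij hkl (by linarith))
      (by
        intro T hT _
        have hT' : 3 * p0 + N1 + n + 1 + N2 ≤ T + 2 * p0 := hT
        exact hX3 T (by omega))
      (by
        intro u v hu
        obtain ⟨J, hJ, hJ2⟩ := b2 u v hu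
        exact ⟨J, by omega, hJ2⟩)
      Y hY Y2 hY2 v
    refine ⟨P, Q, h1, h2, fun x P' hP' => ?_⟩
    rcases h3 x P' hP' with ⟨X', hX', Y', hY', h4, h5⟩ | h4
    · left
      refine ⟨X', hX', Y', hY', h4, ?_⟩
      rw [hT, hT, hT, hT] at h5
      have e : ∀ a b c : S → ZMod 2, a + b = c → a + b = c := fun _ _ _ h => h
      simpa only [add_assoc] using h5
    · right
      exact h4

end Crest.Agent.R320.Fin_830
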