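import Mathlib

/-!
Row 320, spoil leaf of the lead's post #13673: digits in base `b`, wide Golomb ruler.
-/

set_option autoImplicit false

namespace Crest.Agent.R320.Sp_365

/-- the thin set of the digit gadget -/
def Bad (b m M : ℕ) (Ms : Finset ℕ) (n : ℕ) : Prop :=
  (∃ k ∈ Ms, k ∣ n) ∨ ∃ j < m, ¬ (M ≤ n / b ^ j % b ∧ n / b ^ j % b + M + 1 ≤ b)

theorem pow2_aux {a b c d : ℕ} (hab : b < a) (h : (2:ℤ)^a - 2^b = 2^c - 2^d) :
    a = c ∧ b = d := by
  have h1 : (2:ℤ)^b < 2^a := pow_lt_pow_right₀ (by norm_num) hab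
  have h2 : (2:ℤ)^d < 2^c := by linarith
  have hdc : d < c := (pow_lt_pow_iff_right₀ (by norm_num : (1:ℤ) < 2)).1 h2
  have e1 : (2:ℤ)^a = 2 * 2^(a-1) := by
    rw [← pow_succ']
    congr 1
    omega
  have e2 : (2:ℤ)^c = 2 * 2^(c-1) := by
    rw [← pow_succ']
    congr 1
    omega
  have e3 : (2:ℤ)^b ≤ 2^(a-1) := pow_le_pow_right₀ (by norm_num) (by omega)
  have e4 : (2:ℤ)^d ≤ 2^(c-1) := pow_le_pow_right₀ (by norm_num) (by omega)
  have p1 : (0:ℤ) < 2^b := by positivity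
  have p2 : (0:ℤ) < 2^d := by positivity
  have q1 : (2:ℤ)^(a-1) < 2^c := by linarith
  have q2 : (2:ℤ)^(c-1) < 2^a := by linarith
  have r1 : a - 1 < c := (pow_lt_pow_iff_right₀ (by norm_num : (1:ℤ) < 2)).1 q1
  have r2 : c - 1 < a := (pow_lt_pow_iff_right₀ (by norm_num : (1:ℤ) < 2)).1 q2
  have hac : a = c := by omega
  subst hac
  refine ⟨rfl, ?_⟩
  have : (2:ℤ)^b = 2^d := by linarith
  exact pow_right_injective₀ (by norm_num : (0:ℤ) < 2) (by norm_num) this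

theorem pow2 {a b c d : ℕ} (h : (2:ℤ)^a - 2^b = 2^c - 2^d) :
    (a = c ∧ b = d) ∨ (a = b ∧ c = d) := by
  rcases lt_trichotomy a b with hab | hab | hab
  · left
    have := pow2_aux hab (show (2:ℤ)^b - 2^a = 2^d - 2^c by linarith)
    exact ⟨this.2, this.1⟩
  · right
    subst hab
    refine ⟨rfl, ?_⟩
    have : (2:ℤ)^c = 2^d := by linarith
    exact pow_right_injective₀ (by norm_num : (0:ℤ) < 2) (by norm_num) this
  · left
    exact pow2_aux hab h

theorem pow_bound {K a b : ℕ} (ha : a < K) (hb : b < K) : |(2:ℤ)^a - 2^b| ≤ 2^K := by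
  have h1 : (2:ℤ)^a ≤ 2^K := pow_le_pow_right₀ (by norm_num) ha.le
  have h2 : (2:ℤ)^b ≤ 2^K := pow_le_pow_right₀ (by norm_num) hb.le
  have p1 : (0:ℤ) < 2^a := by positivity
  have p2 : (0:ℤ) < 2^b := by positivity
  rw [abs_le]
  constructor <;> linarith

/-- a bad digit puts the number near a multiple of `b ^ (j+1)` -/
theorem near_of_digit {b j M n : ℕ} (hb : 0 < b) (hMb : M ≤ b)
    (h : ¬ (M ≤ n / b ^ j % b ∧ n / b ^ j % b + M + 1 ≤ b)) :
    ∃ t : ℤ, -((M:ℤ) * b ^ j) ≤ (n:ℤ) - t * (b ^ j * b) ∧ (n:ℤ) - t * (b ^ j * b) < M * b ^ j := by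
  have hP : 0 < b ^ j := by positivity
  have h1 := Nat.div_add_mod n (b ^ j)
  have h2 := Nat.mod_lt n hP
  have h3 := Nat.div_add_mod (n / b ^ j) b
  have h4 := Nat.mod_lt (n / b ^ j) hb
  set ρ := n % b ^ j
  set N := n / b ^ j
  set r0 := N % b
  set q := N / b
  set P := b ^ j with hPd
  have e : (n : ℤ) = P * (b * q + r0) + ρ := by
    have : n = P * (b * q + r0) + ρ := by rw [h3, h1]
    exact_mod_cast this
  have hPc : ((b:ℤ) ^ j) = (P : ℤ) := by rw [hPd]; push_cast; rfl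
  rw [hPc]
  have hρ : (ρ : ℤ) < P := by exact_mod_cast h2
  have hρ0 : (0:ℤ) ≤ ρ := by positivity
  have hP' : (0:ℤ) < P := by exact_mod_cast hP
  have hr0 : (0:ℤ) ≤ r0 := by positivity
  have hM0 : (0:ℤ) ≤ M := by positivity
  rw [not_and_or, not_le, not_le] at h
  rcases h with h | h
  · refine ⟨q, ?_, ?_⟩
    · rw [e]
      have : (P:ℤ) * (b * q + r0) + ρ - q * (P * b) = P * r0 + ρ := by ring
      rw [this]
      have : (0:ℤ) ≤ M * P := by positivity
      nlinarith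
    · rw [e]
      have : (P:ℤ) * (b * q + r0) + ρ - q * (P * b) = P * r0 + ρ := by ring
      rw [this]
      have h' : (r0 : ℤ) + 1 ≤ M := by exact_mod_cast h
      nlinarith
  · refine ⟨q + 1, ?_, ?_⟩
    · rw [e]
      have : (P:ℤ) * (b * q + r0) + ρ - (q + 1) * (P * b) = P * (r0 - b) + ρ := by ring
      rw [this]
      have h' : (b : ℤ) ≤ r0 + M := by
        have : b ≤ r0 + M := by omega
        exact_mod_cast this
      nlinarith
    · rw [e]
      have : (P:ℤ) * (b * q + r0) + ρ - (q + 1) * (P * b) = P * (r0 - b) + ρ := by ring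
      rw [this]
      have h' : (r0 : ℤ) + 1 ≤ b := by exact_mod_cast h4
      have : (0:ℤ) ≤ M * P := by positivity
      nlinarith

/-- repunit `1 + b + ... + b^(j-1)` -/
def rep (b j : ℕ) : ℕ := ∑ i ∈ Finset.range j, b ^ i

theorem rep_succ (b j : ℕ) : rep b (j+1) = rep b j + b ^ j := by
  unfold rep; rw [Finset.sum_range_succ]

theorem rep_lt {b : ℕ} (hb : 2 ≤ b) (j : ℕ) : rep b j + 1 ≤ b ^ j := by
  induction j with
  | zero => simp [rep]
  | succ j ih =>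
    rw [rep_succ, pow_succ]
    have : b ^ j * 2 ≤ b ^ j * b := Nat.mul_le_mul_left _ hb
    omega

theorem rep_add (b : ℕ) {j m : ℕ} (h : j ≤ m) : ∃ u, rep b m = rep b j + b ^ j * u := by
  induction m, h using Nat.le_induction with
  | base => exact ⟨0, by simp⟩
  | succ m hm ih =>
    obtain ⟨u, hu⟩ := ih
    obtain ⟨w, hw⟩ := pow_dvd_pow b hm
    exact ⟨u + w, by rw [rep_succ, hu, hw]; ring⟩

/-- two bad digits at the same place: the multipliers are equal -/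
theorem digit_sep {K b j m M K0 : ℕ} (hj : j < m) (hM : 0 < M)
    (hb : 2 ^ (K + 5) * M ≤ b) (hK0 : ∃ u : ℤ, (K0 : ℤ) = 4 * M * rep b m + b ^ m * u)
    {E t : ℤ} (hE : |E| ≤ 2 ^ (K + 1))
    (ht : |E * K0 - t * (b ^ j * b)| < 2 * (M * b ^ j)) : E = 0 := by
  by_contra hne
  have hE1 : 1 ≤ |E| := Int.one_le_abs hne
  have hK : 1 ≤ 2 ^ K := Nat.one_le_two_pow
  have hpow : 2 ^ (K + 5) = 32 * 2 ^ K := by rw [pow_add]; ring
  have hb2 : 32 * 2 ^ K ≤ b := by
    rw [hpow] at hb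
    exact le_trans (Nat.le_mul_of_pos_right _ hM) hb
  obtain ⟨u, hu⟩ := hK0
  obtain ⟨v, hv⟩ := rep_add b (show j + 1 ≤ m from hj)
  obtain ⟨w, hw⟩ := pow_dvd_pow b (show j + 1 ≤ m from hj)
  have hrl := rep_lt (show 2 ≤ b by omega) j
  set P := b ^ j with hPd
  have hP : 0 < P := by rw [hPd]; exact pow_pos (by omega) j
  have hP' : (0:ℤ) < P := by exact_mod_cast hP
  have e1 : (K0 : ℤ) = 4 * M * (rep b j + P) + (P * b) * (4 * M * v + w * u) := by
    rw [hu, hv, rep_succ]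
    have : ((b:ℤ) ^ m) = P * b * w := by
      have : b ^ m = P * b * w := by rw [hw, pow_succ]
      exact_mod_cast this
    rw [this]
    push_cast
    rw [pow_succ]
    have hPc : ((b:ℤ) ^ j) = (P : ℤ) := by rw [hPd]; push_cast; rfl
    rw [hPc]
    ring
  have hPc : ((b:ℤ) ^ j) = (P : ℤ) := by rw [hPd]; push_cast; rfl
  rw [hPc] at ht
  set s := t - E * (4 * M * v + w * u) with hs
  have e2 : E * K0 - t * (P * b) = 4 * M * E * rep b j + (4 * M * E - s * b) * P := by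
    rw [e1, hs]; ring
  rw [e2] at ht
  have hM' : (1:ℤ) ≤ M := by exact_mod_cast hM
  have hrl' : (rep b j : ℤ) ≤ P := by
    have : rep b j ≤ P := by omega
    exact_mod_cast this
  have hr0 : (0:ℤ) ≤ rep b j := by positivity
  have hbz : (32:ℤ) * 2 ^ K * M ≤ b := by
    rw [hpow] at hb
    exact_mod_cast hb
  have hKz : (1:ℤ) ≤ 2 ^ K := by exact_mod_cast hK
  have hpow1 : (2:ℤ) ^ (K + 1) = 2 * 2 ^ K := by rw [pow_add]; ring
  rw [hpow1] at hE
  -- rep b j * b ≤ P * 2 roughly: use rep b j * (b - 1) < P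
  have hrepb : rep b j * b ≤ P + rep b j := by
    have : ∀ i, rep b i * b + 1 = b ^ i + rep b i := by
      intro i
      induction i with
      | zero => simp [rep]
      | succ i ih =>
        rw [rep_succ, add_mul, pow_succ]
        have := ih
        omega
    have := this j
    rw [hPd]; omega
  have hrepb' : (rep b j : ℤ) * b ≤ 2 * P := by
    have : rep b j * b ≤ 2 * P := by omega
    exact_mod_cast this
  -- |4 M E rep| ≤ P / 2 · ... : 4 M |E| rep b j ≤ 8 M 2^K rep ≤ b/4 rep ≤ P/2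
  have e3 : |4 * M * E * rep b j| ≤ P := by
    rw [abs_mul, abs_mul, abs_of_nonneg hr0, abs_of_nonneg (show (0:ℤ) ≤ 4 * M by positivity)]
    have h1 : 4 * (M:ℤ) * |E| ≤ 4 * M * (2 * 2 ^ K) :=
      mul_le_mul_of_nonneg_left hE (by positivity)
    have h2 : 4 * (M:ℤ) * |E| * 4 ≤ b := by
      have h2' : 4 * (M:ℤ) * (2 * 2 ^ K) * 4 = 32 * 2 ^ K * M := by ring
      linarith
    have h3 : 4 * (M:ℤ) * |E| * 4 * rep b j ≤ b * rep b j := mul_le_mul_of_nonneg_right h2 hr0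
    have h4 : 4 * (M:ℤ) * |E| * 4 * rep b j = 4 * (4 * (M:ℤ) * |E| * rep b j) := by ring
    have h5 : (b:ℤ) * rep b j = rep b j * b := by ring
    linarith
  have e4 : |(4 * M * E - s * b) * P| < (2 * M + 1) * P := by
    have h1 := abs_sub_abs_le_abs_sub ((4 * M * E - s * b) * P) (-(4 * M * E * rep b j))
    have h2 : (4 * M * E - s * b) * P - -(4 * M * E * rep b j)
        = 4 * M * E * rep b j + (4 * M * E - s * b) * P := by ring
    rw [h2, abs_neg] at h1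
    linarith
  rw [abs_mul, abs_of_pos hP'] at e4
  have e5 : |4 * M * E - s * b| < 2 * M + 1 := lt_of_mul_lt_mul_right e4 hP'.le
  have hM4 : (0:ℤ) ≤ 4 * M := by positivity
  have e60 : |4 * M * E| = 4 * M * |E| := by rw [abs_mul, abs_of_nonneg hM4]
  have e6 : |4 * M * E| ≤ 8 * M * 2 ^ K := by
    rw [e60]
    have h1 : 4 * (M:ℤ) * |E| ≤ 4 * M * (2 * 2 ^ K) := mul_le_mul_of_nonneg_left hE hM4
    have h2 : 4 * (M:ℤ) * (2 * 2 ^ K) = 8 * M * 2 ^ K := by ring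
    linarith
  have e7 : 4 * (M:ℤ) ≤ |4 * M * E| := by
    rw [e60]
    have h1 : 4 * (M:ℤ) * 1 ≤ 4 * M * |E| := mul_le_mul_of_nonneg_left hE1 hM4
    linarith
  by_cases hs0 : s = 0
  · rw [hs0, zero_mul, sub_zero] at e5
    linarith
  · have hs1 : 1 ≤ |s| := Int.one_le_abs hs0
    have hb0 : (0:ℤ) ≤ b := by positivity
    have e8 : (b:ℤ) ≤ |s * b| := by
      rw [abs_mul, abs_of_nonneg hb0]
      have h1 : 1 * (b:ℤ) ≤ |s| * b := mul_le_mul_of_nonneg_right hs1 hb0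
      linarith
    have h1 := abs_sub_abs_le_abs_sub (s * b) (4 * M * E)
    rw [abs_sub_comm (s * b) (4 * M * E)] at h1
    have h2 : (M:ℤ) ≤ M * 2 ^ K := by
      have : (M:ℤ) * 1 ≤ M * 2 ^ K := mul_le_mul_of_nonneg_left hKz (by positivity)
      linarith
    have h3 : (32:ℤ) * 2 ^ K * M = 32 * (M * 2 ^ K) := by ring
    have h4 : (8:ℤ) * M * 2 ^ K = 8 * (M * 2 ^ K) := by ring
    linarith

open Classical in
theorem spoil (K N1 r m M b : ℕ) (Ms : Finset ℕ) (hM : 0 < M) (hcop : Nat.Coprime b M)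
    (hMs : ∀ k ∈ Ms, 2 ^ (K + 2) < k ∧ k ∣ M) (hc : Ms.card ≤ r)
    (hb : 2 ^ (K + 5) * M ≤ b) :
    ∃ c : ℕ → ℕ, (∀ i j, i < j → c i + 4 * N1 < c j) ∧
      (∀ i j i' j', i < K → j < K → i' < K → j' < K → i ≠ j → (i ≠ i' ∨ j ≠ j') →
        4 * (N1:ℤ) < |((c i:ℤ) - c j) - (c i' - c j')|) ∧
      ∀ T : ℕ, (∀ i < K, c i ≤ T) →
        ((Finset.range K ×ˢ Finset.range K).filter
          (fun ij => ij.1 ≠ ij.2 ∧ Bad b m M Ms (T + c ij.2 - c ij.1))).card ≤ r + m := by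
  have hK : 1 ≤ 2 ^ K := Nat.one_le_two_pow
  have hpow : 2 ^ (K + 5) = 32 * 2 ^ K := by rw [pow_add]; ring
  have hb2 : 32 * 2 ^ K ≤ b := by
    rw [hpow] at hb
    exact le_trans (Nat.le_mul_of_pos_right _ hM) hb
  have hMb : M ≤ b := by
    rw [hpow] at hb
    exact le_trans (Nat.le_mul_of_pos_left _ (by positivity)) hb
  have hcop' : Nat.Coprime M (b ^ m) := (Nat.Coprime.pow_left m hcop).symm
  obtain ⟨k0, hk1, hk2⟩ := Nat.chineseRemainder hcop' 1 (4 * M * rep b m)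
  set K0 := k0 + M * b ^ m * (4 * N1 + 1) with hK0
  have hbm : 0 < b ^ m := pow_pos (by omega) m
  have hK0big : 4 * N1 < K0 := by
    have : 4 * N1 + 1 ≤ M * b ^ m * (4 * N1 + 1) :=
      Nat.le_mul_of_pos_left _ (Nat.mul_pos hM hbm)
    omega
  have hKmod1 : ∃ u : ℤ, (K0 : ℤ) = 1 + M * u := by
    have h1 : (M : ℤ) ∣ (k0 : ℤ) - 1 := by
      have := (Nat.modEq_iff_dvd.1 hk1.symm)
      simpa using this
    obtain ⟨u, hu⟩ := h1
    refine ⟨u + b ^ m * (4 * N1 + 1), ?_⟩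
    rw [hK0]
    push_cast
    linear_combination hu
  have hKmodb : ∃ u : ℤ, (K0 : ℤ) = 4 * M * rep b m + b ^ m * u := by
    have h1 : ((b ^ m : ℕ) : ℤ) ∣ (k0 : ℤ) - ((4 * M * rep b m : ℕ) : ℤ) :=
      Nat.modEq_iff_dvd.1 hk2.symm
    obtain ⟨u, hu⟩ := h1
    refine ⟨u + M * (4 * N1 + 1), ?_⟩
    rw [hK0]
    push_cast at hu ⊢
    linear_combination hu
  refine ⟨fun i => 2 ^ i * K0, ?_, ?_, ?_⟩
  · intro i j hij
    have h1 : 2 ^ i + 1 ≤ 2 ^ j := Nat.pow_lt_pow_right (by norm_num) hij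
    have h2 : (2 ^ i + 1) * K0 ≤ 2 ^ j * K0 := Nat.mul_le_mul_right _ h1
    show 2 ^ i * K0 + 4 * N1 < 2 ^ j * K0
    have h3 : (2 ^ i + 1) * K0 = 2 ^ i * K0 + K0 := by ring
    omega
  · intro i j i' j' hi hj hi' hj' hij hne
    have hE : ((2:ℤ) ^ i - 2 ^ j) - (2 ^ i' - 2 ^ j') ≠ 0 := by
      intro h0
      rcases pow2 (show (2:ℤ) ^ i - 2 ^ j = 2 ^ i' - 2 ^ j' by linarith) with h | h
      · rcases hne with hne | hne
        · exact hne h.1
        · exact hne h.2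
      · exact hij h.1
    have e : (((2 ^ i * K0 : ℕ) : ℤ) - ((2 ^ j * K0 : ℕ) : ℤ))
        - (((2 ^ i' * K0 : ℕ) : ℤ) - ((2 ^ j' * K0 : ℕ) : ℤ))
        = (((2:ℤ) ^ i - 2 ^ j) - (2 ^ i' - 2 ^ j')) * K0 := by
      push_cast; ring
    show 4 * (N1:ℤ) < |(((2 ^ i * K0 : ℕ) : ℤ) - ((2 ^ j * K0 : ℕ) : ℤ))
        - (((2 ^ i' * K0 : ℕ) : ℤ) - ((2 ^ j' * K0 : ℕ) : ℤ))|
    rw [e, abs_mul]
    have h1 := Int.one_le_abs hE
    have h2 : (0:ℤ) ≤ K0 := by positivity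
    rw [abs_of_nonneg h2]
    have h3 : 4 * (N1:ℤ) < K0 := by exact_mod_cast hK0big
    nlinarith
  · intro T hT
    set Pr := (Finset.range K ×ˢ Finset.range K).filter (fun ab => ab.1 ≠ ab.2) with hPr
    let n : ℕ × ℕ → ℕ := fun ab => T + 2 ^ ab.2 * K0 - 2 ^ ab.1 * K0
    have hcast : ∀ i j, i < K → ((n (i, j) : ℕ) : ℤ) = (T:ℤ) - ((2:ℤ) ^ i - 2 ^ j) * K0 := by
      intro i j hi
      have hle : 2 ^ i * K0 ≤ T + 2 ^ j * K0 := le_trans (hT i hi) (Nat.le_add_right _ _)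
      show (((T + 2 ^ j * K0 - 2 ^ i * K0 : ℕ)) : ℤ) = _
      rw [Nat.cast_sub hle]
      push_cast
      ring
    have fin : ∀ i j i' j', i < K → j < K → i' < K → j' < K → i ≠ j →
        ((2:ℤ) ^ i - 2 ^ j) - (2 ^ i' - 2 ^ j') = 0 → i = i' ∧ j = j' := by
      intro i j i' j' _ _ _ _ hij h0
      rcases pow2 (show (2:ℤ) ^ i - 2 ^ j = 2 ^ i' - 2 ^ j' by linarith) with h | h
      · exact h
      · exact absurd h.1 hij
    have hEb : ∀ i j i' j', i < K → j < K → i' < K → j' < K →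
        |((2:ℤ) ^ i - 2 ^ j) - (2 ^ i' - 2 ^ j')| ≤ 2 ^ (K + 1) := by
      intro i j i' j' hi hj hi' hj'
      have h3 := pow_bound hi hj
      have h4 := pow_bound hi' hj'
      have e : (2:ℤ) ^ (K+1) = 2 * 2 ^ K := by rw [pow_succ]; ring
      have h5 : |((2:ℤ) ^ i - 2 ^ j) - (2 ^ i' - 2 ^ j')| ≤ |(2:ℤ) ^ i - 2 ^ j| + |(2:ℤ) ^ i' - 2 ^ j'| :=
        abs_sub _ _
      linarith
    have card1 : ∀ (p : ℕ × ℕ → Prop) [DecidablePred p], (∀ i j i' j', i < K → j < K → i' < K → j' < K →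
        i ≠ j → i' ≠ j' → p (i, j) → p (i', j') → i = i' ∧ j = j') →
        (Pr.filter p).card ≤ 1 := by
      intro p _ h
      rw [Finset.card_le_one]
      rintro ⟨a, b'⟩ hab ⟨c, d⟩ hcd
      simp only [hPr, Finset.mem_filter, Finset.mem_product, Finset.mem_range] at hab hcd
      obtain ⟨⟨⟨ha, hb'⟩, hne⟩, hp⟩ := hab
      obtain ⟨⟨⟨hc', hd⟩, hne'⟩, hp'⟩ := hcd
      obtain ⟨h1, h2⟩ := h a b' c d ha hb' hc' hd hne hne' hp hp'
      rw [h1, h2]
    let A2 := Ms.biUnion (fun k => Pr.filter (fun ab => k ∣ n ab))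
    let A3 := (Finset.range m).biUnion (fun j => Pr.filter (fun ab =>
      ¬ (M ≤ n ab / b ^ j % b ∧ n ab / b ^ j % b + M + 1 ≤ b)))
    have c2 : A2.card ≤ r := by
      refine le_trans (Finset.card_biUnion_le) ?_
      refine le_trans (Finset.sum_le_sum (g := fun _ => 1) ?_) ?_
      · intro k hk
        apply card1
        intro i j i' j' hi hj hi' hj' hij _ h1 h2
        apply fin i j i' j' hi hj hi' hj' hij
        have z1 : (k : ℤ) ∣ (n (i, j) : ℕ) := by exact_mod_cast h1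
        have z2 : (k : ℤ) ∣ (n (i', j') : ℕ) := by exact_mod_cast h2
        rw [hcast i j hi] at z1
        rw [hcast i' j' hi'] at z2
        have z3 := dvd_sub z2 z1
        have e : ((T:ℤ) - ((2:ℤ) ^ i' - 2 ^ j') * K0) - ((T:ℤ) - ((2:ℤ) ^ i - 2 ^ j) * K0)
            = (((2:ℤ) ^ i - 2 ^ j) - (2 ^ i' - 2 ^ j')) * K0 := by ring
        rw [e] at z3
        obtain ⟨u, hu⟩ := hKmod1
        obtain ⟨hk1', w, hw⟩ := hMs k hk
        have e2 : (((2:ℤ) ^ i - 2 ^ j) - (2 ^ i' - 2 ^ j')) * K0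
            = (((2:ℤ) ^ i - 2 ^ j) - (2 ^ i' - 2 ^ j'))
              + k * ((((2:ℤ) ^ i - 2 ^ j) - (2 ^ i' - 2 ^ j')) * w * u) := by
          rw [hu, hw]; push_cast; ring
        rw [e2] at z3
        have z4 : (k:ℤ) ∣ ((2:ℤ) ^ i - 2 ^ j) - (2 ^ i' - 2 ^ j') :=
          (dvd_add_left (dvd_mul_right _ _)).1 z3
        apply Int.eq_zero_of_abs_lt_dvd z4
        refine lt_of_le_of_lt (hEb i j i' j' hi hj hi' hj') ?_
        have : 2 ^ (K + 1) < k :=
          lt_of_le_of_lt (Nat.pow_le_pow_right (by norm_num) (by omega)) hk1'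
        exact_mod_cast this
      · simpa using hc
    have c3 : A3.card ≤ m := by
      refine le_trans (Finset.card_biUnion_le) ?_
      refine le_trans (Finset.sum_le_sum (g := fun _ => 1) ?_) ?_
      · intro l hl
        apply card1
        intro i j i' j' hi hj hi' hj' hij _ h1 h2
        apply fin i j i' j' hi hj hi' hj' hij
        obtain ⟨t1, u1, v1⟩ := near_of_digit (show 0 < b by omega) hMb h1
        obtain ⟨t2, u2, v2⟩ := near_of_digit (show 0 < b by omega) hMb h2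
        rw [hcast i j hi] at u1 v1
        rw [hcast i' j' hi'] at u2 v2
        apply digit_sep (Finset.mem_range.1 hl) hM hb hKmodb (t := t2 - t1)
          (hEb i j i' j' hi hj hi' hj')
        have e : (((2:ℤ) ^ i - 2 ^ j) - (2 ^ i' - 2 ^ j')) * K0 - (t2 - t1) * (b ^ l * b)
            = ((T:ℤ) - ((2:ℤ) ^ i' - 2 ^ j') * K0 - t2 * (b ^ l * b))
              - ((T:ℤ) - ((2:ℤ) ^ i - 2 ^ j) * K0 - t1 * (b ^ l * b)) := by ring
        rw [e, abs_lt]
        constructor <;> linarith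
      · simp
    have hsub : (Finset.range K ×ˢ Finset.range K).filter
        (fun ij => ij.1 ≠ ij.2 ∧ Bad b m M Ms (T + 2 ^ ij.2 * K0 - 2 ^ ij.1 * K0))
        ⊆ A2 ∪ A3 := by
      intro ab hab
      rw [Finset.mem_filter] at hab
      obtain ⟨hm, hne, hbad⟩ := hab
      have hpr : ab ∈ Pr := by
        rw [hPr, Finset.mem_filter]; exact ⟨hm, hne⟩
      rcases hbad with ⟨k, hk, hkd⟩ | ⟨l, hl, hb'⟩
      · apply Finset.mem_union_left
        exact Finset.mem_biUnion.2 ⟨k, hk, Finset.mem_filter.2 ⟨hpr, hkd⟩⟩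
      · apply Finset.mem_union_right
        exact Finset.mem_biUnion.2 ⟨l, Finset.mem_range.2 hl, Finset.mem_filter.2 ⟨hpr, hb'⟩⟩
    refine le_trans (Finset.card_le_card hsub) ?_
    refine le_trans (Finset.card_union_le _ _) ?_
    omega

end Crest.Agent.R320.Sp_365
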