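import Crest.Agent.R320.FinA_839
import Crest.Agent.R320.G1_256
import Crest.Agent.R320.Sp_365
import Crest.Agent.R320.ExactR_237
import Crest.Agent.R320.Univ_234

/-!
# Row 320: final assembly (helper839)

Over landed files only: `SemTop_727.top`, `Inst_522.Dat` (both completeness statements),
`G1_256.g1` (gadget of scheme 1), `Sp_365.spoil` (ruler), `ExactR_237.exact_gadget` (scheme 2),
`FewVal_228.exists_walls` (walls), `Univ_234` (universes).
-/

set_option autoImplicit false

namespace Crest.Agent.R320.Fin_839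

open Crest.RegLang Crest.Agent.R320.Hk_851 Crest.Agent.R320.Geo_522
open Crest.Agent.R320.FewWalls_228 Crest.Agent.R320.FewVal_228 Crest.Agent.R320.FinA_839
open Crest.Agent.R320.Inst_522

universe u

/-- the letters of the counting monoid -/
def psi {A S : Type} (φ : A → S) (Mm : ℕ) : A → S × Multiplicative (ZMod Mm) :=
  fun a => (φ a, Multiplicative.ofAdd (1 : ZMod Mm))

theorem prod_psi {A S : Type} [Monoid S] (φ : A → S) (Mm : ℕ) (w : List A) :
    (w.map (psi φ Mm)).prod = ((w.map φ).prod, Multiplicative.ofAdd ((w.length : ZMod Mm))) := by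
  induction w with
  | nil => simp; rfl
  | cons a w ih =>
    rw [List.map_cons, List.prod_cons, ih, List.map_cons, List.prod_cons, List.length_cons]
    unfold psi
    refine Prod.ext rfl ?_
    show Multiplicative.ofAdd (1 : ZMod Mm) * Multiplicative.ofAdd ((w.length : ZMod Mm)) =
      Multiplicative.ofAdd (((w.length + 1 : ℕ) : ZMod Mm))
    rw [← ofAdd_add, Nat.cast_add, Nat.cast_one, add_comm]

/-- the zone map is a finite-state function -/
theorem reg_T {A S V : Type} [Finite A] [Monoid S] [Finite S] [AddCommGroup V]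
    (d : Dat A S V) {La Mm : ℕ} (hMm : 0 < Mm)
    (hloc : ∀ Q Q' : List A, La ≤ Q.length → La ≤ Q'.length → Q.take La = Q'.take La →
      Q.length % Mm = Q'.length % Mm →
      ((Q.drop La).map d.φ).prod = ((Q'.drop La).map d.φ).prod → d.nu1 Q = d.nu1 Q')
    (x y : V) : Language.IsRegular ({X | d.T x X = y} : Language A) := by
  haveI : NeZero Mm := ⟨hMm.ne'⟩
  haveI : Finite (Multiplicative (ZMod Mm)) := inferInstanceAs (Finite (ZMod Mm))
  refine reg_of_fs (psi d.φ Mm) (d.p0 + La) _ ?_
  intro X X' h1 h2 h3 h4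
  rw [prod_psi, prod_psi] at h4
  have h5 : ((X.drop (d.p0 + La)).map d.φ).prod = ((X'.drop (d.p0 + La)).map d.φ).prod :=
    congrArg Prod.fst h4
  have h6 : (((X.drop (d.p0 + La)).length : ℕ) : ZMod Mm) = ((X'.drop (d.p0 + La)).length : ℕ) :=
    Multiplicative.ofAdd.injective (congrArg Prod.snd h4)
  have h7 := (ZMod.natCast_eq_natCast_iff' _ _ _).1 h6
  have e1 : X.take d.p0 = X'.take d.p0 := by
    have := congrArg (List.take d.p0) h3
    rw [List.take_take, List.take_take, Nat.min_eq_left (by omega)] at this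
    exact this
  have e2 : (X.drop d.p0).take La = (X'.drop d.p0).take La := by
    have := congrArg (List.drop d.p0) h3
    rw [List.drop_take, List.drop_take, Nat.add_sub_cancel_left] at this
    exact this
  have e3 : ∀ Y : List A, (Y.drop d.p0).drop La = Y.drop (d.p0 + La) := fun Y => by
    rw [List.drop_drop]
  have e4 : (((X.drop d.p0).drop La).map d.φ).prod = (((X'.drop d.p0).drop La).map d.φ).prod := by
    rw [e3, e3]; exact h5
  have e5 : ((X.drop d.p0).map d.φ).prod = ((X'.drop d.p0).map d.φ).prod := by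
    have k1 : ∀ Y : List A, ((Y.drop d.p0).map d.φ).prod =
        (((Y.drop d.p0).take La).map d.φ).prod * (((Y.drop d.p0).drop La).map d.φ).prod := by
      intro Y
      rw [← List.prod_append, ← List.map_append, List.take_append_drop]
    rw [k1 X, k1 X', e2, e4]
  have e6 : d.nu1 (X.drop d.p0) = d.nu1 (X'.drop d.p0) := by
    refine hloc _ _ (by rw [List.length_drop]; omega) (by rw [List.length_drop]; omega) e2 ?_ e4
    rw [List.length_drop, List.length_drop] at h7
    have a1 : (X.drop d.p0).length = La + (X.length - (d.p0 + La)) := by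
      rw [List.length_drop]; omega
    have a2 : (X'.drop d.p0).length = La + (X'.length - (d.p0 + La)) := by
      rw [List.length_drop]; omega
    rw [a1, a2, Nat.add_mod, h7, ← Nat.add_mod]
  show d.T x X = y ↔ d.T x X' = y
  rw [d.T_split, d.T_split, e1, e5, e6]

theorem main (A : Type) [Finite A] (S : Type) [Monoid S] [Finite S] (φ : A → S) (s : S) :
    HL 3 ({w | (w.map φ).prod = s} : Language A) := by
  classical
  haveI := Fintype.ofFinite S
  obtain ⟨act, hadd, hone, hmul, hfaith⟩ := Crest.Agent.R320.Blk467.exists_module S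
  obtain ⟨m, r, hg1⟩ := Crest.Agent.R320.G1_256.g1 S (S → ZMod 2) act
  obtain ⟨K, hK⟩ := Crest.Agent.R320.ExactR_237.exact_gadget A S (S → ZMod 2) φ act
    (3 * (r + m + 1) + 1)
  obtain ⟨Ms, M, hMsr, hMs, hM, hg⟩ := hg1 (2 ^ (K + 2))
  obtain ⟨b, hb⟩ : ∃ b, b = 2 ^ (K + 5) * M + 1 := ⟨_, rfl⟩
  have hcop : Nat.Coprime b M := by
    rw [hb, Nat.coprime_comm]
    rw [show 2 ^ (K + 5) * M + 1 = 1 + 2 ^ (K + 5) * M by ring]
    exact (Nat.coprime_add_mul_right_right M 1 _).2 (Nat.coprime_one_right M)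
  have h32 : 32 * M ≤ 2 ^ (K + 5) * M := by
    refine Nat.mul_le_mul_right M ?_
    calc 32 = 2 ^ 5 := by norm_num
      _ ≤ 2 ^ (K + 5) := Nat.pow_le_pow_right (by norm_num) (by omega)
  obtain ⟨lam1, rho1, nu1, ha, hbb, hc, hd⟩ := hg b (by omega) hcop A φ
  obtain ⟨c, hc1, hc2, hc3⟩ := Crest.Agent.R320.Sp_365.spoil K (b ^ m) r m M b Ms hM hcop
    (fun k hk => ⟨(hMs k hk).1, (hMs k hk).2.2⟩) hMsr (by omega)
  obtain ⟨lam2, rho2, nu2, he1, he2⟩ := hK c (fun i j hij _ => by have := hc1 i j hij; omega)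
  obtain ⟨p0, hp0⟩ : ∃ p0, p0 = c K := ⟨_, rfl⟩
  have hcp : ∀ k, k < K → c k ≤ p0 := fun k hk => by have := hc1 k K hk; omega
  obtain ⟨N1, hN1⟩ : ∃ N1, N1 = b ^ m := ⟨_, rfl⟩
  rw [← hN1] at ha hc1 hc2 hd
  obtain ⟨n, cc, P, AA, hn, hP, hAl, hsep, hper, hHL⟩ :=
    exists_walls A (2 * (p0 + N1) + 2) (by omega)
  let d : Dat A S (S → ZMod 2) :=
    { φ := φ
      act := act
      hadd := hadd
      hmul := hmul
      p0 := p0
      N1 := N1
      z := 4 * (p0 + N1 + n + 1)
      n := n
      K := K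
      C0 := r + m + 1
      c := c
      hcp := hcp
      AA := AA
      hz := le_rfl
      hsep := fun w s t hst hs ht => by
        have h1 := wl_of_wa hs
        have h2 := wl_of_wa ht
        have hs1 := hs.1
        have := hsep w (s - n) (t - n) (by omega) h1 h2
        omega
      lam1 := lam1
      rho1 := rho1
      nu1 := nu1
      l1 := fun P v h => (ha P v h).le
      s1 := fun P Q v v' h h' => hbb P Q v v' h h'
      BadT := Crest.Agent.R320.Sp_365.Bad b m M Ms
      c1 := fun X hX v => hc X (fun k hk h => hX (Or.inl ⟨k, hk, h⟩))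
        (fun j hj => by_contra fun h => hX (Or.inr ⟨j, hj, h⟩)) v
      lam2 := lam2
      rho2 := fun k Q => rho2 k Q 1
      nu2 := fun w => nu2 w 1
      s2 := fun k hk P Q v b hPl h1 h2 => by
        have h3 := he1 k hk P Q 1 v b hPl h1 h2
        rw [mul_one] at h3
        exact h3
      c2 := fun w v hw => he2 w 1 v hw
      sp1 := by
        intro t F hF
        refine (Finset.card_le_one.2 ?_).trans (by omega)
        intro q hq q' hq'
        by_contra hne
        obtain ⟨a1, a2, a3, a4, a5⟩ := hF q hq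
        obtain ⟨b1, b2, b3, b4, b5⟩ := hF q' hq'
        have hor : q.1 ≠ q'.1 ∨ q.2 ≠ q'.2 := by
          by_contra hcon
          push Not at hcon
          exact hne (Prod.ext hcon.1 hcon.2)
        have h := hc2 q.1 q.2 q'.1 q'.2 a1 a2 b1 b2 a3 hor
        rw [lt_abs] at h
        rcases h with h | h <;> omega
      sp2 := by
        intro T hT F hF
        refine (Finset.card_le_card (fun q hq => ?_)).trans
          ((hc3 T (fun i hi => (hcp i hi).trans hT)).trans (by omega))
        obtain ⟨a1, a2, a3, a4⟩ := hF q hq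
        exact Finset.mem_filter.2 ⟨Finset.mem_product.2 ⟨Finset.mem_range.2 a1,
          Finset.mem_range.2 a2⟩, a3, a4⟩ }
  have hMm : 0 < M * N1 := by
    rw [hN1]
    exact Nat.mul_pos hM (Nat.pow_pos (by omega))
  have hregT : ∀ x y, Language.IsRegular ({X | d.T x X = y} : Language A) := by
    intro x y
    refine reg_T d (La := N1) (Mm := M * N1) hMm ?_ x y
    intro Q Q' g1 g2 g3 g4 g5
    exact (hd Q Q' g1 g2 g3 g4 g5).2
  have hregX := reg_XXz n AA d.z
  have hpc : Crest.Agent.R320.Blk467.PCode d.D.XX := pcode (by show 0 < 4 * (p0 + N1 + n + 1); omega)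
  refine Crest.Agent.R320.SemTop_727.top (k := 1) act hadd hone hmul hfaith φ d.nu d.D
    (fun v X => rfl) hpc ?_ d.hL1 d.hL2 d.hC2 ?_ s
  · intro x y
    refine HL_of_few hn hP hper (d.z + 1) (L := d.D.fib x y) ?_ ?_
    · exact hregX.inf (hregT x y)
    · rintro w ⟨⟨_, _, h3⟩, _⟩
      exact nw_le h3
  · intro s'
    refine HL.mono (k := 1) (by norm_num) ?_
    refine HL_of_few hn hP hper (d.z + 1) ?_ ?_
    · have e : ({w | (∀ X ∈ d.D.XX, ¬ X <+: w) ∧ (w.map φ).prod = s'} : Language A) =
          ((XXl n AA d.z * Ge A 0)ᶜ ⊓ ({w | (w.map φ).prod = s'} : Language A)) := by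
        ext w
        constructor
        · rintro ⟨h1, h2⟩
          refine ⟨fun h => ?_, h2⟩
          obtain ⟨a, ha', b', -, rfl⟩ := Language.mem_mul.1 h
          exact h1 a ha' (List.prefix_append _ _)
        · rintro ⟨h1, h2⟩
          refine ⟨fun X hX hp => ?_, h2⟩
          obtain ⟨R, rfl⟩ := hp
          exact h1 (Language.mem_mul.2 ⟨X, hX, R, Nat.zero_le _, rfl⟩)
      rw [e]
      exact (Crest.Agent.R320.Reg_852.IsRegular.mul hregX (reg_ge 0)).compl.inf
        (Crest.Agent.R320.Reg_852.isRegular_prod φ s')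
    · rintro w ⟨h1, _⟩
      refine nw_le (z := d.z) ?_
      intro t ht1 ht2 ht3
      obtain ⟨t0, g1, g2, g3⟩ := exists_first (n := n) (A := AA) (z := d.z) w ⟨t, ht1, ht3⟩
      exact h1 _ (take_mem g1 g2 g3) (List.take_prefix _ _)

theorem row {α : Type u} [Finite α] (L : Language α) (hL : L.IsRegular) :
    ∃ e : GRegExp α, e.height ≤ 3 ∧ e.lang = L :=
  Crest.Agent.R320.Univ_234.of_type_monoid (fun A _ S _ _ φ s => main A S φ s) L hL

end Crest.Agent.R320.Fin_839
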