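import Mathlib
import Crest.Agent.R320.RandF_808
import Crest.Agent.R320.Exact_808
import Crest.Agent.R320.NameGad_808

/-!
Row 320: the gadget of scheme 1 on ALL words (852 #13483): levels are positional digits of the
length, names are CRT residues.
-/

set_option autoImplicit false

namespace Crest.Agent.R320.G1_808

open Finset Crest.Agent.R320.RandF808 Crest.Agent.R320.Exact808 Crest.Agent.R320.NameGad808

/-- **Scheme 1's gadget with unknown zone length.** -/
theorem unknownT_gadget' (S V : Type*) [Monoid S] [Finite S] [AddCommGroup V] [Finite V]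
    (act : V → S → V) :
    ∃ (m N k : ℕ) (e : ℕ → S → ZMod N × ZMod N), 0 < N ∧
      ∀ q : Fin k → ℕ, (∀ j, Odd (q j)) →
      ∃ (L R : ℕ → (∀ j, ZMod (q j)) → S → ZMod N × ZMod N → Option V)
        (levL lev : (∀ j, ZMod (q j)) → ℕ)
        (D : (∀ j, ZMod (q j)) → S → ZMod N × ZMod N → V),
        (∀ i t g wl v, L i t g wl = some v → i = levL t ∧ i < m) ∧
        (∀ i t h wr b, R i t h wr = some b → i = lev t ∧ i < m) ∧
        (∀ (i i' : ℕ) (t t' : ∀ j, ZMod (q j)) (g h s : S) (wl wr w : ZMod N × ZMod N) (v b : V),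
          (i = i' → ∃ z, g * z * h = s ∧ wl + e i z + wr = w) →
          L i t g wl = some v → R i' t' h wr = some b → b = act v s + D (t + t') s w) ∧
        (∀ T : ∀ j, ZMod (q j), (∀ j, T j ≠ 0) → ∀ (s : S) (w : ZMod N × ZMod N) (v : V),
          ∃ i < m, ∀ (g z h : S) (wl wr : ZMod N × ZMod N), g * z * h = s →
            wl + e i z + wr = w → ∃ t t', t + t' = T ∧ L i t g wl = some v ∧
              (R i t' h wr).isSome = true) := by
  classical
  have := Fintype.ofFinite S
  have := Fintype.ofFinite V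
  obtain ⟨m, N, e, hN, hF⟩ := exists_noise_unif S V
  obtain ⟨F, hF⟩ := hF act
  have : NeZero N := ⟨by omega⟩
  -- contexts: level, left data, right data, token
  let X := Fin m × (S × (ZMod N × ZMod N)) × (S × (ZMod N × ZMod N)) × V
  let val : X → S → V := fun c z =>
    F (c.2.1.1 * z * c.2.2.1.1) (c.2.1.2 + e c.1 z + c.2.2.1.2) +
      act c.2.2.2 (c.2.1.1 * z * c.2.2.1.1)
  let col : X → V × V := fun c => (c.2.2.2, val c 1)
  let E : Fin (Fintype.card (Idx X (V × V))) ≃ Idx X (V × V) := (Fintype.equivFin _).symm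
  refine ⟨m, N, Fintype.card (Idx X (V × V)), e, hN, ?_⟩
  intro q0 hq0
  let q : Idx X (V × V) → ℕ := fun j => q0 (E.symm j)
  have hq : ∀ j, Odd (q j) := fun j => hq0 _
  have hqn : ∀ j, NeZero (q j) := fun j => ⟨by
    have := hq j
    intro h
    rw [h] at this
    exact absurd this (by decide)⟩
  -- transport of residue vectors
  let tr : (∀ j, ZMod (q0 j)) → (∀ j, ZMod (q j)) := fun t j => t (E.symm j)
  let rt : (∀ j, ZMod (q j)) → (∀ j, ZMod (q0 j)) := fun t j => cast (by simp [q]) (t (E j))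
  have htr_add : ∀ t t', tr (t + t') = tr t + tr t' := fun _ _ => rfl
  have htr_rt : ∀ t, tr (rt t) = t := by
    intro t
    funext j
    simp only [tr, rt]
    have : ∀ (j' : Idx X (V × V)) (h : ZMod (q j') = ZMod (q j)), j' = j → cast h (t j') = t j := by
      intro j' h hj
      subst hj
      rfl
    exact this _ _ (by simp)
  have htr_inj : Function.Injective tr := by
    intro t t' h
    funext j
    have := congrFun h (E j)
    simp only [tr] at this
    have key : ∀ j', j' = j → t j' = t' j' → t j = t' j := by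
      intro j' h1 h2
      subst h1
      exact h2
    exact key _ (by simp) this
  -- labels
  let L : ℕ → (∀ j, ZMod (q0 j)) → S → ZMod N × ZMod N → Option V := fun i t g wl =>
    if h : ∃ c : Nm X (V × V), LegL col q (tr t) c ∧ (c.1.1 : ℕ) = i ∧ c.1.2.1 = (g, wl) then
      some h.choose.1.2.2.2 else none
  let R : ℕ → (∀ j, ZMod (q0 j)) → S → ZMod N × ZMod N → Option V := fun i t hh wr =>
    if h : ∃ c : Nm X (V × V), LegR col q (tr t) c ∧ (c.1.1 : ℕ) = i ∧ c.1.2.2.1 = (hh, wr) ∧
        (∀ z z', val c.1 z = val c.1 z') then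
      some (val h.choose.1 1) else none
  let lev : (∀ j, ZMod (q0 j)) → ℕ := fun t =>
    if h : ∃ c : Nm X (V × V), LegR col q (tr t) c then (h.choose.1.1 : ℕ) else 0
  let levL : (∀ j, ZMod (q0 j)) → ℕ := fun t =>
    if h : ∃ c : Nm X (V × V), LegL col q (tr t) c then (h.choose.1.1 : ℕ) else 0
  let D : (∀ j, ZMod (q0 j)) → S → ZMod N × ZMod N → V := fun T s w =>
    if h : ∃ c d : Nm X (V × V), c ≠ d ∧ ∃ t t', t + t' = tr T ∧ LegL col q t c ∧ LegR col q t' d then
      val h.choose_spec.choose.1 1 - act h.choose.1.2.2.2 s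
    else F s w
  have hLs : ∀ i t g wl v, L i t g wl = some v ↔ ∃ c : Nm X (V × V), LegL col q (tr t) c ∧
      (c.1.1 : ℕ) = i ∧ c.1.2.1 = (g, wl) ∧ c.1.2.2.2 = v := by
    intro i t g wl v
    constructor
    · intro h
      simp only [L] at h
      split_ifs at h with hc
      exact ⟨hc.choose, hc.choose_spec.1, hc.choose_spec.2.1, hc.choose_spec.2.2, by simpa using h⟩
    · rintro ⟨c, h1, h2, h3, h4⟩
      have hc : ∃ c : Nm X (V × V), LegL col q (tr t) c ∧ (c.1.1 : ℕ) = i ∧ c.1.2.1 = (g, wl) :=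
        ⟨c, h1, h2, h3⟩
      simp only [L]
      rw [dif_pos hc]
      have := hc.choose_spec.1.unique h1
      rw [this, h4]
  have hRs : ∀ i t hh wr b, R i t hh wr = some b ↔ ∃ c : Nm X (V × V), LegR col q (tr t) c ∧
      (c.1.1 : ℕ) = i ∧ c.1.2.2.1 = (hh, wr) ∧ (∀ z z', val c.1 z = val c.1 z') ∧
        val c.1 1 = b := by
    intro i t hh wr b
    constructor
    · intro h
      simp only [R] at h
      split_ifs at h with hc
      exact ⟨hc.choose, hc.choose_spec.1, hc.choose_spec.2.1, hc.choose_spec.2.2.1,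
        hc.choose_spec.2.2.2, by simpa using h⟩
    · rintro ⟨c, h1, h2, h3, h4, h5⟩
      have hc : ∃ c : Nm X (V × V), LegR col q (tr t) c ∧ (c.1.1 : ℕ) = i ∧ c.1.2.2.1 = (hh, wr) ∧
        (∀ z z', val c.1 z = val c.1 z') := ⟨c, h1, h2, h3, h4⟩
      simp only [R]
      rw [dif_pos hc]
      have := hc.choose_spec.1.unique h1
      rw [this, h5]
  refine ⟨L, R, levL, lev, D, ?_, ?_, ?_, ?_⟩
  · intro i t g wl v hL
    obtain ⟨c, h1, h2, h3, h4⟩ := (hLs _ _ _ _ _).mp hL
    have hc : ∃ c : Nm X (V × V), LegL col q (tr t) c := ⟨c, h1⟩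
    refine ⟨?_, ?_⟩
    · simp only [levL]
      rw [dif_pos hc, hc.choose_spec.unique h1, h2]
    · rw [← h2]
      exact c.1.1.isLt
  · intro i t h wr b hR
    obtain ⟨c, h1, h2, h3, h4, h5⟩ := (hRs _ _ _ _ _).mp hR
    have hc : ∃ c : Nm X (V × V), LegR col q (tr t) c := ⟨c, h1⟩
    refine ⟨?_, ?_⟩
    · simp only [lev]
      rw [dif_pos hc, hc.choose_spec.unique h1, h2]
    · rw [← h2]
      exact c.1.1.isLt
  · intro i i' t t' g h s wl wr w v b hrel hL hR
    obtain ⟨c, c1, c2, c3, c4⟩ := (hLs _ _ _ _ _).mp hL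
    obtain ⟨d, d1, d2, d3, d4, d5⟩ := (hRs _ _ _ _ _).mp hR
    by_cases hcd : c = d
    · subst hcd
      obtain ⟨z, hz1, hz2⟩ := hrel (c2.symm.trans d2)
      have hD : D (t + t') s w = F s w := by
        simp only [D]
        rw [dif_neg]
        rintro ⟨x, y, hxy, u, u', hu, hux, huy⟩
        have h1 := (diff_name hux huy hxy).1
        rw [hu, htr_add] at h1
        exact same_name c1 d1 _ _ h1
      rw [hD, ← d5, d4 1 z]
      simp only [val]
      rw [c3, d3, c4]
      simp only
      rw [c2, hz1, hz2, add_comm]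
    · have hex : ∃ c d : Nm X (V × V), c ≠ d ∧ ∃ u u', u + u' = tr (t + t') ∧ LegL col q u c ∧
          LegR col q u' d := ⟨c, d, hcd, tr t, tr t', (htr_add _ _).symm, c1, d1⟩
      have hD : D (t + t') s w = val hex.choose_spec.choose.1 1 - act hex.choose.1.2.2.2 s := by
        simp only [D]
        rw [dif_pos hex]
      obtain ⟨x, y, hDxy, hxy, u, u', hu, hux, huy⟩ : ∃ x y : Nm X (V × V),
          D (t + t') s w = val y.1 1 - act x.1.2.2.2 s ∧ x ≠ y ∧ ∃ u u', u + u' = tr (t + t') ∧
            LegL col q u x ∧ LegR col q u' y :=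
        ⟨hex.choose, hex.choose_spec.choose, hD, hex.choose_spec.choose_spec⟩
      rw [hDxy]
      -- the two pairs agree up to order
      obtain ⟨k1, k2, k3⟩ := diff_name hux huy hxy
      obtain ⟨l1, l2, l3⟩ := diff_name c1 d1 hcd
      rw [← htr_add, ← hu] at l1 l2
      have hc' := k3 _ _ l1
      have hd' := k3 _ _ l2
      rcases hc' with hc' | hc' <;> rcases hd' with hd' | hd'
      · exact absurd (hc'.trans hd'.symm) hcd
      · rw [← hc', ← hd', c4, d5]
        abel
      · -- swapped: colours agree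
        have hcol : col x.1 = col y.1 := by
          refine swap_name hux huy (u := tr t) (u' := tr t') ?_ ?_ ?_
          · rw [← hc']; exact c1
          · rw [← hd']; exact d1
          · rw [hu, htr_add]
        have e1 : x.1.2.2.2 = y.1.2.2.2 := congrArg Prod.fst hcol
        have e2 : val x.1 1 = val y.1 1 := congrArg Prod.snd hcol
        rw [e1, ← hc', c4, hc', ← e2, ← hd', d5]
        abel
      · exact absurd (hc'.trans hd'.symm) hcd
  · intro T hT s w v
    obtain ⟨i, him, hi⟩ := hF s w v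
    refine ⟨i, him, ?_⟩
    intro g z h wl wr h1 h2
    let c : X := (⟨i, him⟩, (g, wl), (h, wr), v)
    obtain ⟨eps, t, t', htt, hl, hr⟩ := exists_split (col := col) hq (tr T) (fun j => hT _) c
    refine ⟨rt t, rt t', ?_, ?_, ?_⟩
    · apply htr_inj
      rw [htr_add, htr_rt, htr_rt, htt]
    · rw [hLs]
      exact ⟨(c, eps), by rw [htr_rt]; exact hl, rfl, rfl, rfl⟩
    · rw [Option.isSome_iff_exists]
      refine ⟨val c 1, ?_⟩
      rw [hRs]
      refine ⟨(c, eps), by rw [htr_rt]; exact hr, rfl, rfl, ?_, rfl⟩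
      have key : ∀ z', val c z' = F s w + act v s := by
        intro z'
        have := hi g z h h1 z'
        simp only [val, c]
        rw [← this, ← h2]
        congr 2
        abel
      intro z1 z2
      rw [key, key]


section Arith

variable {b : ℕ}

theorem mod_left (i j o o' : ℕ) (hj : j ≤ i) (h : b ^ i ∣ o') : (o + o') % b ^ j = o % b ^ j := by
  obtain ⟨c, rfl⟩ := (pow_dvd_pow b hj).trans h
  exact Nat.add_mul_mod_self_left _ _ _

theorem no_carry0 (hb : 0 < b) (i o o' : ℕ) (h1 : 2 * (o / b ^ i) < b) (h : b ^ i ∣ o')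
    (h2 : 2 * ((o' / b ^ i) % b) < b) : o + o' % b ^ (i + 1) < b ^ (i + 1) := by
  obtain ⟨c, rfl⟩ := h
  have hpos : 0 < b ^ i := Nat.pow_pos hb
  rw [Nat.mul_div_cancel_left _ hpos] at h2
  rw [pow_succ, Nat.mul_mod_mul_left]
  have h3 := Nat.div_add_mod o (b ^ i)
  have h4 := Nat.mod_lt o hpos
  have h5 : o / b ^ i + c % b + 1 ≤ b := by omega
  calc o + b ^ i * (c % b) = b ^ i * (o / b ^ i) + o % b ^ i + b ^ i * (c % b) := by rw [h3]
    _ < b ^ i * (o / b ^ i) + b ^ i + b ^ i * (c % b) := by omega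
    _ = b ^ i * (o / b ^ i + c % b + 1) := by ring
    _ ≤ b ^ i * b := Nat.mul_le_mul_left _ h5

theorem no_carry (hb : 0 < b) (i j o o' : ℕ) (hj : i < j) (h1 : 2 * (o / b ^ i) < b)
    (h : b ^ i ∣ o') (h2 : 2 * ((o' / b ^ i) % b) < b) : o + o' % b ^ j < b ^ j := by
  have h0 := no_carry0 hb i o o' h1 h h2
  obtain ⟨c, hc⟩ : b ^ (i + 1) ∣ b ^ j := pow_dvd_pow b hj
  have hpos : 0 < b ^ (i + 1) := Nat.pow_pos hb
  have hposj : 0 < b ^ j := Nat.pow_pos hb
  have h3 : o' % b ^ j % b ^ (i + 1) = o' % b ^ (i + 1) := Nat.mod_mod_of_dvd _ ⟨c, hc⟩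
  have h4 := Nat.div_add_mod (o' % b ^ j) (b ^ (i + 1))
  rw [h3] at h4
  have h5 : (o' % b ^ j) / b ^ (i + 1) < c := by
    rw [Nat.div_lt_iff_lt_mul hpos, mul_comm]
    rw [← hc]
    exact Nat.mod_lt _ hposj
  have h6 : b ^ (i + 1) * ((o' % b ^ j) / b ^ (i + 1) + 1) ≤ b ^ (i + 1) * c :=
    Nat.mul_le_mul_left _ h5
  rw [← hc, mul_add, mul_one] at h6
  omega

theorem mod_right (hb : 0 < b) (i j o o' : ℕ) (hj : i < j) (h1 : 2 * (o / b ^ i) < b)
    (h : b ^ i ∣ o') (h2 : 2 * ((o' / b ^ i) % b) < b) : (o + o') % b ^ j = o + o' % b ^ j := by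
  have h0 := no_carry hb i j o o' hj h1 h h2
  have h3 := Nat.div_add_mod o' (b ^ j)
  conv_lhs => rw [← h3]
  rw [show o + (b ^ j * (o' / b ^ j) + o' % b ^ j) = (o + o' % b ^ j) + b ^ j * (o' / b ^ j) by ring,
    Nat.add_mul_mod_self_left, Nat.mod_eq_of_lt h0]

end Arith

section Words

variable {α : Type*} {S : Type*} {W : Type*} [Monoid S] [AddCommGroup W]

/-- the segment `j` of a word, given by the digits of its length. -/
def seg (b : ℕ) (X : List α) (j : ℕ) : List α :=
  (X.drop (X.length % b ^ j)).take (X.length % b ^ (j + 1) - X.length % b ^ j)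

theorem seg_left (b : ℕ) (P Q : List α) (i j : ℕ) (hj : j < i) (h : b ^ i ∣ Q.length) :
    seg b P j = seg b (P ++ Q) j := by
  unfold seg
  rw [List.length_append, mod_left i j _ _ hj.le h, mod_left i (j + 1) _ _ hj h]
  have h1 : P.length % b ^ (j + 1) ≤ P.length := Nat.mod_le _ _
  have h2 : P.length % b ^ j ≤ P.length := Nat.mod_le _ _
  rw [List.drop_append_of_le_length h2, List.take_append_of_le_length]
  rw [List.length_drop]
  omega

theorem seg_right {b : ℕ} (hb : 0 < b) (P Q : List α) (i j : ℕ) (hj : i < j)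
    (h1 : 2 * (P.length / b ^ i) < b)
    (h : b ^ i ∣ Q.length) (h2 : 2 * ((Q.length / b ^ i) % b) < b) :
    seg b Q j = seg b (P ++ Q) j := by
  unfold seg
  rw [List.length_append, mod_right hb i j _ _ hj h1 h h2,
    mod_right hb i (j + 1) _ _ (by omega) h1 h h2, List.drop_append,
    List.drop_eq_nil_of_le (show P.length ≤ P.length + Q.length % b ^ j from Nat.le_add_right _ _),
    List.nil_append, Nat.add_sub_cancel_left]
  congr 1
  omega

theorem split_seg (b : ℕ) (X : List α) (i : ℕ) :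
    X = X.take (X.length % b ^ i) ++ (seg b X i ++ X.drop (X.length % b ^ (i + 1))) := by
  have h2 : X.length % b ^ i ≤ X.length % b ^ (i + 1) := by
    have : X.length % b ^ (i + 1) % b ^ i = X.length % b ^ i :=
      Nat.mod_mod_of_dvd _ (pow_dvd_pow b (Nat.le_succ i))
    rw [← this]
    exact Nat.mod_le _ _
  unfold seg
  conv_lhs => rw [← List.take_append_drop (X.length % b ^ i) X]
  congr 1
  conv_lhs => rw [← List.take_append_drop (X.length % b ^ (i + 1) - X.length % b ^ i)
    (X.drop (X.length % b ^ i))]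
  rw [List.drop_drop, show X.length % b ^ i + (X.length % b ^ (i + 1) - X.length % b ^ i) =
    X.length % b ^ (i + 1) by omega]

end Words

section Main

/-- reading lemma: at a level `i` junction both sides read the true data. -/
theorem read {α S W : Type*} [Monoid S] [AddCommGroup W] (φ : List α → S)
    (hφ : ∀ u v, φ (u ++ v) = φ u * φ v) (e : ℕ → S → W) {b : ℕ} (hb : 0 < b) (P Q : List α)
    {i m : ℕ} (him : i < m) (h1 : 2 * (P.length / b ^ i) < b) (h : b ^ i ∣ Q.length)
    (h2 : 2 * ((Q.length / b ^ i) % b) < b) :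
    φ (P.take (P.length % b ^ i)) * φ (seg b (P ++ Q) i) *
        φ (Q.drop (Q.length % b ^ (i + 1))) = φ (P ++ Q) ∧
      ∑ j ∈ range i, e j (φ (seg b P j)) + e i (φ (seg b (P ++ Q) i)) +
        ∑ j ∈ Ico (i + 1) m, e j (φ (seg b Q j)) = ∑ j ∈ range m, e j (φ (seg b (P ++ Q) j)) := by
  constructor
  · have e1 : P.take (P.length % b ^ i) = (P ++ Q).take ((P ++ Q).length % b ^ i) := by
      rw [List.length_append, mod_left i i _ _ le_rfl h,
        List.take_append_of_le_length (Nat.mod_le _ _)]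
    have e2 : Q.drop (Q.length % b ^ (i + 1)) = (P ++ Q).drop ((P ++ Q).length % b ^ (i + 1)) := by
      rw [List.length_append, mod_right hb i (i + 1) _ _ (Nat.lt_succ_self i) h1 h h2,
        List.drop_append, List.drop_eq_nil_of_le
          (show P.length ≤ P.length + Q.length % b ^ (i + 1) from Nat.le_add_right _ _),
        List.nil_append, Nat.add_sub_cancel_left]
    rw [e1, e2, mul_assoc, ← hφ, ← hφ, ← split_seg]
  · rw [sum_split (fun j => e j (φ (seg b (P ++ Q) j))) him]
    congr 1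
    · congr 1
      refine Finset.sum_congr rfl (fun j hj => ?_)
      rw [seg_left b P Q i j (mem_range.mp hj) h]
    · refine Finset.sum_congr rfl (fun j hj => ?_)
      rw [seg_right hb P Q i j (Nat.lt_of_succ_le (mem_Ico.mp hj).1) h1 h h2]

/-- **The gadget on all words** (852 #13483). -/
theorem gadget (S V : Type*) [Monoid S] [Finite S] [AddCommGroup V] [Finite V]
    (act : V → S → V) :
    ∃ m k : ℕ, ∀ q : Fin k → ℕ, (∀ j, Odd (q j)) →
      Pairwise (fun i j => Nat.Coprime (q i) (q j)) →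
      ∀ b : ℕ, 4 * (∏ j, q j) + 4 < b → (∀ j, Nat.Coprime b (q j)) →
      ∀ (α : Type*) (φ : List α → S), (∀ u v, φ (u ++ v) = φ u * φ v) →
      ∃ (lam rho : List α → Option V) (nu : List α → V),
        (∀ P v, lam P = some v → P.length < b ^ m) ∧
        (∀ P Q v v', lam P = some v → rho Q = some v' → v' = act v (φ (P ++ Q)) + nu (P ++ Q)) ∧
        (∀ X : List α, (∀ j, ¬ q j ∣ X.length) →
          (∀ j < m, ∏ j, q j ≤ (X.length / b ^ j) % b ∧
            (X.length / b ^ j) % b + ∏ j, q j < b) →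
          ∀ v, ∃ P Q, X = P ++ Q ∧ lam P = some v ∧ (rho Q).isSome = true) := by
  classical
  obtain ⟨m, N, k, e, hN, H⟩ := unknownT_gadget' S V act
  refine ⟨m, k, ?_⟩
  intro q hq hcop b hb hbq α φ hφ
  obtain ⟨L, R, levL, lev, D, hL, hR, hS, hC⟩ := H q hq
  have hqpos : ∀ j, 0 < q j := fun j => (hq j).pos
  set M := ∏ j, q j with hM
  have hMpos : 0 < M := Finset.prod_pos (fun j _ => hqpos j)
  have hb0 : 0 < b := by omega
  let res : ℕ → (∀ j, ZMod (q j)) := fun n j => (n : ZMod (q j))
  have hres : ∀ a c, res (a + c) = res a + res c := by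
    intro a c
    funext j
    simp [res]
  let lam : List α → Option V := fun P =>
    if 2 * (P.length / b ^ (levL (res P.length))) < b then
      L (levL (res P.length)) (res P.length)
        (φ (P.take (P.length % b ^ (levL (res P.length)))))
        (∑ j ∈ range (levL (res P.length)), e j (φ (seg b P j)))
    else none
  let rho : List α → Option V := fun Q =>
    if b ^ (lev (res Q.length)) ∣ Q.length ∧ 2 * ((Q.length / b ^ (lev (res Q.length))) % b) < b then
      R (lev (res Q.length)) (res Q.length)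
        (φ (Q.drop (Q.length % b ^ (lev (res Q.length) + 1))))
        (∑ j ∈ Ico (lev (res Q.length) + 1) m, e j (φ (seg b Q j)))
    else none
  let nu : List α → V := fun X =>
    D (res X.length) (φ X) (∑ j ∈ range m, e j (φ (seg b X j)))
  refine ⟨lam, rho, nu, ?_, ?_, ?_⟩
  · intro P v h
    simp only [lam] at h
    split_ifs at h with h1
    have h2 := hL _ _ _ _ _ h
    have h3 : P.length < b ^ (levL (res P.length) + 1) := by
      rw [pow_succ]
      have : P.length / b ^ (levL (res P.length)) < b := by omega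
      rw [Nat.div_lt_iff_lt_mul (Nat.pow_pos hb0)] at this
      rw [mul_comm]
      exact this
    exact lt_of_lt_of_le h3 (Nat.pow_le_pow_right hb0 h2.2)
  · intro P Q v v' h h'
    simp only [lam] at h
    simp only [rho] at h'
    split_ifs at h with h1
    split_ifs at h' with h2
    have h3 := hL _ _ _ _ _ h
    have h4 := hR _ _ _ _ _ h'
    have := hS _ _ _ _ _ _ (φ (P ++ Q)) _ _
      (∑ j ∈ range m, e j (φ (seg b (P ++ Q) j))) v v' ?_ h h'
    · simp only [nu]
      rw [List.length_append, hres]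
      exact this
    · intro hii
      rw [← hii] at h2 ⊢
      have := read φ hφ e hb0 P Q h3.2 h1 h2.1 h2.2
      exact ⟨_, this.1, this.2⟩
  · intro X hX hdig v
    have hT : ∀ j, res X.length j ≠ 0 := by
      intro j hj
      exact hX j ((ZMod.natCast_eq_zero_iff _ _).mp hj)
    obtain ⟨i, him, hi⟩ := hC (res X.length) hT (φ X) (∑ j ∈ range m, e j (φ (seg b X j))) v
    obtain ⟨hd1, hd2⟩ := hdig i him
    set n := X.length with hn
    set d := (n / b ^ i) % b with hd
    have hpos : 0 < b ^ i := Nat.pow_pos hb0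
    -- the true data
    have hs : φ (X.take (n % b ^ i)) * φ (seg b X i) * φ (X.drop (n % b ^ (i + 1))) = φ X := by
      rw [mul_assoc, ← hφ, ← hφ, ← split_seg]
    have hw : ∑ j ∈ range i, e j (φ (seg b X j)) + e i (φ (seg b X i)) +
        ∑ j ∈ Ico (i + 1) m, e j (φ (seg b X j)) = ∑ j ∈ range m, e j (φ (seg b X j)) :=
      (sum_split (fun j => e j (φ (seg b X j))) him).symm
    obtain ⟨t, t', htt, hLt, hRt⟩ := hi _ _ _ _ _ hs hw
    -- the cut place
    obtain ⟨y, hy1, hy2, hy3⟩ := crt_hit q hqpos hcop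
      (fun j => (t j - ((n % b ^ i : ℕ) : ZMod (q j))) * (((b ^ i : ℕ) : ZMod (q j)))⁻¹)
      (d - (b - 1) / 2)
    rw [← hM] at hy2
    have hyd : y ≤ d := by omega
    have hyb : 2 * y < b := by omega
    have hdy : 2 * (d - y) < b := by omega
    set o := n % b ^ i + b ^ i * y with ho
    have hdb : b ^ i * (n / b ^ i) + n % b ^ i = n := Nat.div_add_mod _ _
    have hdd : b * (n / b ^ i / b) + d = n / b ^ i := Nat.div_add_mod _ _
    have hyn : y ≤ n / b ^ i := by omega
    have hon : o ≤ n := by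
      have := Nat.mul_le_mul_left (b ^ i) hyn
      omega
    have ho' : n - o = b ^ i * (n / b ^ i - y) := by
      rw [Nat.mul_sub]
      omega
    have hrt : res o = t := by
      funext j
      have hc : Nat.Coprime (b ^ i) (q j) := Nat.Coprime.pow_left _ (hbq j)
      have h1 : (((b ^ i : ℕ) : ZMod (q j))) * (((b ^ i : ℕ) : ZMod (q j)))⁻¹ = 1 :=
        ZMod.coe_mul_inv_eq_one _ hc
      show ((n % b ^ i + b ^ i * y : ℕ) : ZMod (q j)) = t j
      rw [Nat.cast_add, Nat.cast_mul, hy3 j]
      calc ((n % b ^ i : ℕ) : ZMod (q j)) + ((b ^ i : ℕ) : ZMod (q j)) *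
            ((t j - ((n % b ^ i : ℕ) : ZMod (q j))) * (((b ^ i : ℕ) : ZMod (q j)))⁻¹)
          = ((n % b ^ i : ℕ) : ZMod (q j)) + (t j - ((n % b ^ i : ℕ) : ZMod (q j))) *
            (((b ^ i : ℕ) : ZMod (q j)) * (((b ^ i : ℕ) : ZMod (q j)))⁻¹) := by ring
        _ = t j := by rw [h1]; ring
    have hrt' : res (n - o) = t' := by
      have h1 : res o + res (n - o) = t + t' := by
        rw [← hres, htt, Nat.add_sub_cancel' hon]
      rw [hrt] at h1
      exact add_left_cancel h1
    obtain ⟨P, hP⟩ : ∃ P, P = X.take o := ⟨_, rfl⟩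
    obtain ⟨Q, hQ⟩ : ∃ Q, Q = X.drop o := ⟨_, rfl⟩
    have hPQ : X = P ++ Q := by rw [hP, hQ, List.take_append_drop]
    have hPl : P.length = o := by rw [hP, List.length_take]; omega
    have hQl : Q.length = n - o := by rw [hQ, List.length_drop]
    have hlevL : levL (res P.length) = i := by
      rw [hPl, hrt]
      exact (hL _ _ _ _ _ hLt).1.symm
    obtain ⟨b', hb'⟩ := Option.isSome_iff_exists.mp hRt
    have hlev : lev (res Q.length) = i := by
      rw [hQl, hrt']
      exact (hR _ _ _ _ _ hb').1.symm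
    have c1 : 2 * (P.length / b ^ i) < b := by
      rw [hPl, ho, Nat.add_mul_div_left _ _ hpos, Nat.div_eq_of_lt (Nat.mod_lt _ hpos), zero_add]
      exact hyb
    have c2 : b ^ i ∣ Q.length := by
      rw [hQl, ho']
      exact Dvd.intro _ rfl
    have c3 : 2 * ((Q.length / b ^ i) % b) < b := by
      rw [hQl, ho', Nat.mul_div_cancel_left _ hpos]
      have : n / b ^ i - y = (d - y) + b * (n / b ^ i / b) := by omega
      rw [this, Nat.add_mul_mod_self_left, Nat.mod_eq_of_lt (by omega)]
      exact hdy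
    -- data
    have g1 : P.take (P.length % b ^ i) = X.take (n % b ^ i) := by
      rw [hn, hPQ, List.length_append, mod_left i i _ _ le_rfl c2,
        List.take_append_of_le_length (Nat.mod_le _ _)]
    have g2 : Q.drop (Q.length % b ^ (i + 1)) = X.drop (n % b ^ (i + 1)) := by
      rw [hn, hPQ, List.length_append, mod_right hb0 i (i + 1) _ _ (Nat.lt_succ_self i) c1 c2 c3,
        List.drop_append, List.drop_eq_nil_of_le
          (show P.length ≤ P.length + Q.length % b ^ (i + 1) from Nat.le_add_right _ _),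
        List.nil_append, Nat.add_sub_cancel_left]
    have g3 : ∑ j ∈ range i, e j (φ (seg b P j)) = ∑ j ∈ range i, e j (φ (seg b X j)) := by
      refine Finset.sum_congr rfl (fun j hj => ?_)
      rw [seg_left b P Q i j (mem_range.mp hj) c2, ← hPQ]
    have g4 : ∑ j ∈ Ico (i + 1) m, e j (φ (seg b Q j)) =
        ∑ j ∈ Ico (i + 1) m, e j (φ (seg b X j)) := by
      refine Finset.sum_congr rfl (fun j hj => ?_)
      rw [seg_right hb0 P Q i j (Nat.lt_of_succ_le (mem_Ico.mp hj).1) c1 c2 c3, ← hPQ]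
    refine ⟨P, Q, hPQ, ?_, ?_⟩
    · simp only [lam]
      rw [hlevL, if_pos c1, g1, g3, hPl, hrt]
      exact hLt
    · simp only [rho]
      rw [hlev, if_pos ⟨c2, c3⟩, g2, g4, hQl, hrt']
      exact hRt

end Main

end Crest.Agent.R320.G1_808
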