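import Mathlib
import Crest.Agent.R320.G1_808

/-!
Row 320: the gadget on all words with locality of the right label and of the noise.
-/

set_option autoImplicit false

namespace Crest.Agent.R320.G1Loc_808

open Finset Crest.Agent.R320.RandF808 Crest.Agent.R320.Exact808 Crest.Agent.R320.NameGad808
  Crest.Agent.R320.G1_808

/-- **The gadget on all words** (852 #13483). -/
theorem gadget_loc (S V : Type*) [Monoid S] [Finite S] [AddCommGroup V] [Finite V]
    (act : V → S → V) :
    ∃ m k : ℕ, ∀ q : Fin k → ℕ, (∀ j, Odd (q j)) →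
      Pairwise (fun i j => Nat.Coprime (q i) (q j)) →
      ∀ b : ℕ, 4 * (∏ j, q j) + 4 < b → (∀ j, Nat.Coprime b (q j)) →
      ∀ (α : Type*) (φ : List α → S), (∀ u v, φ (u ++ v) = φ u * φ v) →
      ∃ (lam rho : List α → Option V) (nu : List α → V),
        (∀ P v, lam P = some v → P.length < b ^ m) ∧
        (∀ P Q v v', lam P = some v → rho Q = some v' → v' = act v (φ (P ++ Q)) + nu (P ++ Q)) ∧
        (∀ X : List α, (∀ j, ¬ q j ∣ X.length) →
          (∀ j < m, ∏ j, q j ≤ (X.length / b ^ j) % b ∧
            (X.length / b ^ j) % b + ∏ j, q j < b) →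
          ∀ v, ∃ P Q, X = P ++ Q ∧ lam P = some v ∧ (rho Q).isSome = true) ∧
        (∀ Q Q' : List α, Q.take (b ^ m) = Q'.take (b ^ m) →
          φ (Q.drop (b ^ m)) = φ (Q'.drop (b ^ m)) →
          Q.length % (b ^ m * ∏ j, q j) = Q'.length % (b ^ m * ∏ j, q j) →
            rho Q = rho Q' ∧ nu Q = nu Q') := by
  classical
  obtain ⟨m, N, k, e, hN, H⟩ := unknownT_gadget' S V act
  refine ⟨m, k, ?_⟩
  intro q hq hcop b hb hbq α φ hφ
  obtain ⟨L, R, levL, lev, D, hL, hR, hS, hC⟩ := H q hq
  have hqpos : ∀ j, 0 < q j := fun j => (hq j).pos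
  set M := ∏ j, q j with hM
  have hMpos : 0 < M := Finset.prod_pos (fun j _ => hqpos j)
  have hb0 : 0 < b := by omega
  let res : ℕ → (∀ j, ZMod (q j)) := fun n j => (n : ZMod (q j))
  have hres : ∀ a c, res (a + c) = res a + res c := by
    intro a c
    funext j
    simp [res]
  let lam : List α → Option V := fun P =>
    if 2 * (P.length / b ^ (levL (res P.length))) < b then
      L (levL (res P.length)) (res P.length)
        (φ (P.take (P.length % b ^ (levL (res P.length)))))
        (∑ j ∈ range (levL (res P.length)), e j (φ (seg b P j)))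
    else none
  let rho : List α → Option V := fun Q =>
    if b ^ (lev (res Q.length)) ∣ Q.length ∧ 2 * ((Q.length / b ^ (lev (res Q.length))) % b) < b then
      R (lev (res Q.length)) (res Q.length)
        (φ (Q.drop (Q.length % b ^ (lev (res Q.length) + 1))))
        (∑ j ∈ Ico (lev (res Q.length) + 1) m, e j (φ (seg b Q j)))
    else none
  let nu : List α → V := fun X =>
    D (res X.length) (φ X) (∑ j ∈ range m, e j (φ (seg b X j)))
  refine ⟨lam, rho, nu, ?_, ?_, ?_, ?_⟩
  · intro P v h
    simp only [lam] at h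
    split_ifs at h with h1
    have h2 := hL _ _ _ _ _ h
    have h3 : P.length < b ^ (levL (res P.length) + 1) := by
      rw [pow_succ]
      have : P.length / b ^ (levL (res P.length)) < b := by omega
      rw [Nat.div_lt_iff_lt_mul (Nat.pow_pos hb0)] at this
      rw [mul_comm]
      exact this
    exact lt_of_lt_of_le h3 (Nat.pow_le_pow_right hb0 h2.2)
  · intro P Q v v' h h'
    simp only [lam] at h
    simp only [rho] at h'
    split_ifs at h with h1
    split_ifs at h' with h2
    have h3 := hL _ _ _ _ _ h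
    have h4 := hR _ _ _ _ _ h'
    have := hS _ _ _ _ _ _ (φ (P ++ Q)) _ _
      (∑ j ∈ range m, e j (φ (seg b (P ++ Q) j))) v v' ?_ h h'
    · simp only [nu]
      rw [List.length_append, hres]
      exact this
    · intro hii
      rw [← hii] at h2 ⊢
      have := read φ hφ e hb0 P Q h3.2 h1 h2.1 h2.2
      exact ⟨_, this.1, this.2⟩
  · intro X hX hdig v
    have hT : ∀ j, res X.length j ≠ 0 := by
      intro j hj
      exact hX j ((ZMod.natCast_eq_zero_iff _ _).mp hj)
    obtain ⟨i, him, hi⟩ := hC (res X.length) hT (φ X) (∑ j ∈ range m, e j (φ (seg b X j))) v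
    obtain ⟨hd1, hd2⟩ := hdig i him
    set n := X.length with hn
    set d := (n / b ^ i) % b with hd
    have hpos : 0 < b ^ i := Nat.pow_pos hb0
    -- the true data
    have hs : φ (X.take (n % b ^ i)) * φ (seg b X i) * φ (X.drop (n % b ^ (i + 1))) = φ X := by
      rw [mul_assoc, ← hφ, ← hφ, ← split_seg]
    have hw : ∑ j ∈ range i, e j (φ (seg b X j)) + e i (φ (seg b X i)) +
        ∑ j ∈ Ico (i + 1) m, e j (φ (seg b X j)) = ∑ j ∈ range m, e j (φ (seg b X j)) :=
      (sum_split (fun j => e j (φ (seg b X j))) him).symm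
    obtain ⟨t, t', htt, hLt, hRt⟩ := hi _ _ _ _ _ hs hw
    -- the cut place
    obtain ⟨y, hy1, hy2, hy3⟩ := crt_hit q hqpos hcop
      (fun j => (t j - ((n % b ^ i : ℕ) : ZMod (q j))) * (((b ^ i : ℕ) : ZMod (q j)))⁻¹)
      (d - (b - 1) / 2)
    rw [← hM] at hy2
    have hyd : y ≤ d := by omega
    have hyb : 2 * y < b := by omega
    have hdy : 2 * (d - y) < b := by omega
    set o := n % b ^ i + b ^ i * y with ho
    have hdb : b ^ i * (n / b ^ i) + n % b ^ i = n := Nat.div_add_mod _ _
    have hdd : b * (n / b ^ i / b) + d = n / b ^ i := Nat.div_add_mod _ _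
    have hyn : y ≤ n / b ^ i := by omega
    have hon : o ≤ n := by
      have := Nat.mul_le_mul_left (b ^ i) hyn
      omega
    have ho' : n - o = b ^ i * (n / b ^ i - y) := by
      rw [Nat.mul_sub]
      omega
    have hrt : res o = t := by
      funext j
      have hc : Nat.Coprime (b ^ i) (q j) := Nat.Coprime.pow_left _ (hbq j)
      have h1 : (((b ^ i : ℕ) : ZMod (q j))) * (((b ^ i : ℕ) : ZMod (q j)))⁻¹ = 1 :=
        ZMod.coe_mul_inv_eq_one _ hc
      show ((n % b ^ i + b ^ i * y : ℕ) : ZMod (q j)) = t j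
      rw [Nat.cast_add, Nat.cast_mul, hy3 j]
      calc ((n % b ^ i : ℕ) : ZMod (q j)) + ((b ^ i : ℕ) : ZMod (q j)) *
            ((t j - ((n % b ^ i : ℕ) : ZMod (q j))) * (((b ^ i : ℕ) : ZMod (q j)))⁻¹)
          = ((n % b ^ i : ℕ) : ZMod (q j)) + (t j - ((n % b ^ i : ℕ) : ZMod (q j))) *
            (((b ^ i : ℕ) : ZMod (q j)) * (((b ^ i : ℕ) : ZMod (q j)))⁻¹) := by ring
        _ = t j := by rw [h1]; ring
    have hrt' : res (n - o) = t' := by
      have h1 : res o + res (n - o) = t + t' := by
        rw [← hres, htt, Nat.add_sub_cancel' hon]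
      rw [hrt] at h1
      exact add_left_cancel h1
    obtain ⟨P, hP⟩ : ∃ P, P = X.take o := ⟨_, rfl⟩
    obtain ⟨Q, hQ⟩ : ∃ Q, Q = X.drop o := ⟨_, rfl⟩
    have hPQ : X = P ++ Q := by rw [hP, hQ, List.take_append_drop]
    have hPl : P.length = o := by rw [hP, List.length_take]; omega
    have hQl : Q.length = n - o := by rw [hQ, List.length_drop]
    have hlevL : levL (res P.length) = i := by
      rw [hPl, hrt]
      exact (hL _ _ _ _ _ hLt).1.symm
    obtain ⟨b', hb'⟩ := Option.isSome_iff_exists.mp hRt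
    have hlev : lev (res Q.length) = i := by
      rw [hQl, hrt']
      exact (hR _ _ _ _ _ hb').1.symm
    have c1 : 2 * (P.length / b ^ i) < b := by
      rw [hPl, ho, Nat.add_mul_div_left _ _ hpos, Nat.div_eq_of_lt (Nat.mod_lt _ hpos), zero_add]
      exact hyb
    have c2 : b ^ i ∣ Q.length := by
      rw [hQl, ho']
      exact Dvd.intro _ rfl
    have c3 : 2 * ((Q.length / b ^ i) % b) < b := by
      rw [hQl, ho', Nat.mul_div_cancel_left _ hpos]
      have : n / b ^ i - y = (d - y) + b * (n / b ^ i / b) := by omega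
      rw [this, Nat.add_mul_mod_self_left, Nat.mod_eq_of_lt (by omega)]
      exact hdy
    -- data
    have g1 : P.take (P.length % b ^ i) = X.take (n % b ^ i) := by
      rw [hn, hPQ, List.length_append, mod_left i i _ _ le_rfl c2,
        List.take_append_of_le_length (Nat.mod_le _ _)]
    have g2 : Q.drop (Q.length % b ^ (i + 1)) = X.drop (n % b ^ (i + 1)) := by
      rw [hn, hPQ, List.length_append, mod_right hb0 i (i + 1) _ _ (Nat.lt_succ_self i) c1 c2 c3,
        List.drop_append, List.drop_eq_nil_of_le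
          (show P.length ≤ P.length + Q.length % b ^ (i + 1) from Nat.le_add_right _ _),
        List.nil_append, Nat.add_sub_cancel_left]
    have g3 : ∑ j ∈ range i, e j (φ (seg b P j)) = ∑ j ∈ range i, e j (φ (seg b X j)) := by
      refine Finset.sum_congr rfl (fun j hj => ?_)
      rw [seg_left b P Q i j (mem_range.mp hj) c2, ← hPQ]
    have g4 : ∑ j ∈ Ico (i + 1) m, e j (φ (seg b Q j)) =
        ∑ j ∈ Ico (i + 1) m, e j (φ (seg b X j)) := by
      refine Finset.sum_congr rfl (fun j hj => ?_)
      rw [seg_right hb0 P Q i j (Nat.lt_of_succ_le (mem_Ico.mp hj).1) c1 c2 c3, ← hPQ]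
    refine ⟨P, Q, hPQ, ?_, ?_⟩
    · simp only [lam]
      rw [hlevL, if_pos c1, g1, g3, hPl, hrt]
      exact hLt
    · simp only [rho]
      rw [hlev, if_pos ⟨c2, c3⟩, g2, g4, hQl, hrt']
      exact hRt

  · intro Q Q' hA hφ' hmod
    have hmodb : ∀ j ≤ m, Q.length % b ^ j = Q'.length % b ^ j := by
      intro j hj
      have h1 : b ^ j ∣ b ^ m * M := (pow_dvd_pow b hj).trans (Dvd.intro _ rfl)
      rw [← Nat.mod_mod_of_dvd Q.length h1, ← Nat.mod_mod_of_dvd Q'.length h1, hmod]
    have hresQ : res Q.length = res Q'.length := by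
      funext j
      have h1 : q j ∣ b ^ m * M := (Finset.dvd_prod_of_mem q (mem_univ j)).trans (Dvd.intro_left _ rfl)
      show ((Q.length : ℕ) : ZMod (q j)) = ((Q'.length : ℕ) : ZMod (q j))
      rw [ZMod.natCast_eq_natCast_iff]
      show Q.length % q j = Q'.length % q j
      rw [← Nat.mod_mod_of_dvd Q.length h1, ← Nat.mod_mod_of_dvd Q'.length h1, hmod]
    have hlt : ∀ (Y : List α) (j : ℕ), j ≤ m → Y.length % b ^ j ≤ b ^ m := by
      intro Y j hj
      exact (Nat.mod_lt _ (Nat.pow_pos hb0)).le.trans (Nat.pow_le_pow_right hb0 hj)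
    have hsegA : ∀ (Y : List α) (j : ℕ), j < m → seg b Y j =
        ((Y.take (b ^ m)).drop (Y.length % b ^ j)).take (Y.length % b ^ (j + 1) - Y.length % b ^ j) := by
      intro Y j hj
      unfold seg
      have h1 := hlt Y (j + 1) hj
      rw [List.drop_take, List.take_take, Nat.min_eq_left (by omega)]
    have hseg : ∀ j < m, seg b Q j = seg b Q' j := by
      intro j hj
      rw [hsegA Q j hj, hsegA Q' j hj, hA, hmodb j hj.le, hmodb (j + 1) hj]
    have hdropA : ∀ (Y : List α) (j : ℕ), j ≤ m → φ (Y.drop (Y.length % b ^ j)) =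
        φ ((Y.take (b ^ m)).drop (Y.length % b ^ j)) * φ (Y.drop (b ^ m)) := by
      intro Y j hj
      rw [← hφ]
      congr 1
      have h1 := hlt Y j hj
      conv_lhs => rw [← List.take_append_drop (b ^ m - Y.length % b ^ j) (Y.drop (Y.length % b ^ j))]
      rw [List.drop_drop, show Y.length % b ^ j + (b ^ m - Y.length % b ^ j) = b ^ m by omega,
        List.drop_take]
    have hdrop : ∀ j ≤ m, φ (Q.drop (Q.length % b ^ j)) = φ (Q'.drop (Q'.length % b ^ j)) := by
      intro j hj
      rw [hdropA Q j hj, hdropA Q' j hj, hA, hφ', hmodb j hj]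
    have hφQ : φ Q = φ Q' := by
      rw [← List.take_append_drop (b ^ m) Q, ← List.take_append_drop (b ^ m) Q', hφ, hφ, hA, hφ']
    have hdiv : ∀ i < m, (b ^ i ∣ Q.length ↔ b ^ i ∣ Q'.length) ∧
        (Q.length / b ^ i) % b = (Q'.length / b ^ i) % b := by
      intro i hi
      refine ⟨?_, ?_⟩
      · rw [Nat.dvd_iff_mod_eq_zero, Nat.dvd_iff_mod_eq_zero, hmodb i hi.le]
      · have h1 := hmodb (i + 1) hi
        rw [pow_succ] at h1
        rw [← Nat.mod_mul_right_div_self, ← Nat.mod_mul_right_div_self, h1]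
    refine ⟨?_, ?_⟩
    · by_cases hlv : lev (res Q.length) < m
      · obtain ⟨d1, d2⟩ := hdiv _ hlv
        simp only [rho]
        rw [← hresQ]
        have hsum : ∑ j ∈ Ico (lev (res Q.length) + 1) m, e j (φ (seg b Q j)) =
            ∑ j ∈ Ico (lev (res Q.length) + 1) m, e j (φ (seg b Q' j)) := by
          refine Finset.sum_congr rfl (fun j hj => ?_)
          rw [hseg j (mem_Ico.mp hj).2]
        rw [d2, hsum, hdrop _ hlv]
        by_cases hc : b ^ lev (res Q.length) ∣ Q.length ∧
          2 * (Q'.length / b ^ lev (res Q.length) % b) < b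
        · rw [if_pos hc, if_pos ⟨d1.mp hc.1, hc.2⟩]
        · rw [if_neg hc, if_neg (fun h => hc ⟨d1.mpr h.1, h.2⟩)]
      · have hnone : ∀ Y : List α, res Y.length = res Q.length → rho Y = none := by
          intro Y hY
          rcases hr : rho Y with _ | v
          · rfl
          · exfalso
            simp only [rho] at hr
            split_ifs at hr with h1
            have := (hR _ _ _ _ _ hr).2
            rw [hY] at this
            exact hlv this
        rw [hnone Q rfl, hnone Q' hresQ.symm]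
    · simp only [nu]
      rw [hresQ, hφQ]
      congr 1
      refine Finset.sum_congr rfl (fun j hj => ?_)
      rw [hseg j (mem_range.mp hj)]


end Crest.Agent.R320.G1Loc_808
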