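import Crest.Agent.R320.End_532
import Crest.Agent.R320.G1Loc_808
import Crest.Agent.R320.Spoil_398
import Crest.Agent.R320.ExactR_237
import Crest.Agent.R320.LWallAll_922
import Crest.Agent.R320.P4_933
import Crest.Agent.R320.RegKey_186
import Crest.Agent.R320.Univ_294

/-!
# Row 320: constants and join (helper840)
-/

set_option autoImplicit false

namespace Crest.Agent.R320.Fin_840

open Crest.RegLang Crest.Agent.R320.Hk_851 Crest.Agent.R320.Sc2n_937 Finset

/-- distinct odd primes above a bound -/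
theorem exists_primes (k B : ℕ) : ∃ q : Fin k → ℕ, Function.Injective q ∧
    ∀ j, (q j).Prime ∧ B < q j := by
  have hinf : {p : ℕ | p.Prime ∧ B < p}.Infinite := by
    rw [Set.infinite_iff_exists_gt]
    intro a
    obtain ⟨p, hp1, hp2⟩ := Nat.exists_infinite_primes (max a B + 1)
    exact ⟨p, ⟨hp2, by omega⟩, by omega⟩
  let e := hinf.natEmbedding
  refine ⟨fun j => (e j : ℕ), ?_, fun j => (e j).2⟩
  intro i j hij
  have : e i = e j := Subtype.ext hij
  exact Fin.ext (e.injective this)

theorem fin0 (α : Type) [Finite α] (S : Type) [Monoid S] [Finite S] (φ : α → S) (s : S) :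
    HL 3 ({w | (w.map φ).prod = s} : Language α) := by
  classical
  have := Fintype.ofFinite S
  obtain ⟨act, hadd, hone, hmul, hfaith⟩ := Crest.Agent.R320.Blk467.exists_module S
  let V := S → ZMod 2
  have : Finite V := inferInstance
  have : Fintype V := Fintype.ofFinite V
  obtain ⟨m, k, HG⟩ := G1Loc_808.gadget_loc S V act
  set C0 := k + (m + 1) with hC0
  obtain ⟨K, HE⟩ := ExactR_237.exact_gadget α S V φ act (2 * C0 + 2)
  obtain ⟨q, hqi, hq⟩ := exists_primes k (2 ^ (K + 1) + m + 3)
  have hodd : ∀ j, Odd (q j) := by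
    intro j
    refine (hq j).1.odd_of_ne_two ?_
    intro h2
    have h3 := (hq j).2
    rw [h2] at h3
    have h4 : 0 < 2 ^ (K + 1) := by positivity
    omega
  have hcop : Pairwise (fun i j => Nat.Coprime (q i) (q j)) := fun i j hij =>
    (Nat.coprime_primes (hq i).1 (hq j).1).2 fun h => hij (hqi h)
  set M := ∏ j, q j with hM
  have hMpos : 0 < M := Finset.prod_pos fun j _ => (hq j).1.pos
  set b := M * ((4 * M + 1) * 2 ^ (K + 4) + 4 * M + 4) + 1 with hb
  have hb1 : (4 * M + 1) * 2 ^ (K + 4) < b := by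
    have : (4 * M + 1) * 2 ^ (K + 4) + 4 * M + 4 ≤
      M * ((4 * M + 1) * 2 ^ (K + 4) + 4 * M + 4) := Nat.le_mul_of_pos_left _ hMpos
    omega
  have hb2 : 4 * M + 4 < b := by
    have : (4 * M + 1) * 2 ^ (K + 4) + 4 * M + 4 ≤
      M * ((4 * M + 1) * 2 ^ (K + 4) + 4 * M + 4) := Nat.le_mul_of_pos_left _ hMpos
    omega
  have hbcop : ∀ j, Nat.Coprime b (q j) := by
    intro j
    have h1 : q j ∣ M := Finset.dvd_prod_of_mem q (Finset.mem_univ j)
    have h2 : Nat.Coprime b M := by
      rw [hb]
      simp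
    exact h2.coprime_dvd_right h1
  have hph : ∀ u v : List α, ((u ++ v).map φ).prod = (u.map φ).prod * (v.map φ).prod := by
    intro u v
    rw [List.map_append, List.prod_append]
  obtain ⟨lam, rho, nu1, hlen, hsound, hcomp, hloc⟩ := HG q hodd hcop b hb2 hbcop α
    (fun w => (w.map φ).prod) hph
  have hb0 : 0 < b := by omega
  set N1 := b ^ m with hN1
  have hN1pos : 0 < N1 := Nat.pow_pos hb0
  set Ms : Finset ℕ := Finset.univ.image q with hMs
  have hMscard : Ms.card ≤ k := by
    refine Finset.card_image_le.trans ?_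
    simp
  obtain ⟨x, hxm, hxD, hxg, hxs⟩ := Spoil_398.exists_ruler (Ms := Ms) (K := K) (M := M) (b := b)
    (m := m + 1) hMpos (Nat.succ_pos m)
    (by
      intro p hp
      obtain ⟨j, -, rfl⟩ := Finset.mem_image.1 hp
      have h1 := (hq j).2
      have h2 : 0 < 2 ^ (K + 1) := by positivity
      exact ⟨(hq j).1, Finset.dvd_prod_of_mem q (Finset.mem_univ j), by omega, by omega⟩)
    (by
      rw [hb]
      push_cast
      exact ⟨((4 * M + 1) * 2 ^ (K + 4) + 4 * M + 4 : ℤ), by ring⟩)
    hb1 (2 * N1)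
  obtain ⟨lam2, rho2, nu2, h2s, h2c⟩ := HE x (fun i j hij _ => hxm hij)
  set p0 := x K with hp0
  obtain ⟨n, G, B, Wo, hLW, hgapW, -, -, hfree⟩ :=
    LWallAll_922.walls_all_left α (2 * p0 + 2 * N1) (by omega)
  let g : Geo α :=
    { Wo := Wo, n := n, z := p0 + N1 + (n + 2 * p0 + p0), p0 := p0, q0 := n + 2 * p0 + p0, N1 := N1
      loc := hLW.app, hz := rfl, hq := by omega, hN := hN1pos, hqp := by omega }
  let BadT : ℕ → Prop := Spoil_398.BadT Ms M b (m + 1)
  have hxK : ∀ i, i < K → x i ≤ p0 := fun i hi => (hxm hi).le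
  have hfree' : ∀ u : List α, (∀ t < u.length, ¬ Wo (u.take t)) →
      u ∈ (BddReg_746.PN (B + (2 * p0 + 2 * N1)) 2 : Language α) := by
    intro u hu
    obtain ⟨u1, y, v1, i, h1, h2, h3, h4⟩ := hfree u hu
    show u ∈ (BddReg_746.Pc (B + (2 * p0 + 2 * N1)) * (BddReg_746.Pc (B + (2 * p0 + 2 * N1)) *
      (1 : Language α)) : Language α)
    refine Language.mem_mul.2 ⟨u1 ++ BddReg_746.pw y i, ⟨u1, y, i, by omega, by omega, rfl⟩, v1,
      Language.mem_mul.2 ⟨v1, ⟨v1, [], 0, by omega, by simp, by simp⟩, [], rfl, by simp⟩, ?_⟩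
    rw [h4]; rfl
  refine End_532.joint act hadd hone hmul hfaith φ g nu1 (fun P => nu2 P 1) K x lam rho lam2
    (fun i Q => rho2 i Q 1) BadT C0 (fun P v h => (hlen P v h).le) hsound ?_ hxK ?_ ?_ ?_ ?_ ?_ ?_
    ?_ ?_ s
  · -- completeness of gadget 1
    intro Y _ hY u
    refine hcomp Y ?_ ?_ u
    · intro j hj
      exact hY (Or.inl ⟨q j, Finset.mem_image.2 ⟨j, Finset.mem_univ _, rfl⟩, hj⟩)
    · intro j hj
      constructor
      · by_contra h
        exact hY (Or.inr ⟨j, by omega, Or.inl (by omega)⟩)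
      · by_contra h
        exact hY (Or.inr ⟨j, by omega, Or.inr (by omega)⟩)
  · intro i hi P Q v u hP _ hl hr
    have := h2s i hi P Q 1 v u hP hl hr
    rw [mul_one] at this
    exact this
  · intro P Q hP hPQ hne
    have hQ : 0 < Q.length := List.length_pos_iff.2 hne
    have := hgapW (P ++ Q) P.length (P ++ Q).length
      (by rw [List.length_append]; omega) le_rfl (by rw [List.take_left]; exact hP)
      (by rw [List.take_length]; exact hPQ)
    rw [List.length_append] at this
    show 2 * p0 + 2 * N1 < Q.length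
    omega
  · intro i i' l l' hi hi' hl hl' hne hne' h1 h2
    have h1' : x i + x l' < x l + x i' + 2 * N1 := h1
    have h2' : x l + x i' < x i + x l' + 2 * N1 := h2
    refine (hxg i i' l l' (Ne.symm hne) ?_).1
    rw [abs_le]
    constructor <;> push_cast <;> omega
  · intro τ hτ J hJ
    have hτ' : p0 + N1 + (n + 2 * p0 + p0) ≤ τ + p0 := hτ
    choose! f hf using fun i (hi : i ∈ J) => (hJ i hi).2
    have hcard := hxs (τ - p0) (by omega)
    refine le_trans ?_ (hcard.trans (by omega))
    refine Finset.card_le_card_of_injOn (fun i => (f i, i)) ?_ ?_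
    · intro i hi
      have hi' : i ∈ J := hi
      have h1 := (hJ i hi').1
      obtain ⟨h2, h3, h4⟩ := hf i hi'
      simp only [Finset.coe_filter, Finset.mem_product, Finset.mem_range, Set.mem_setOf_eq]
      refine ⟨⟨h2, h1⟩, h3, ?_⟩
      have h5 := hxK i h1
      have e : τ - p0 + x (f i) - x i = τ + x (f i) - x i - p0 := by omega
      rw [e]
      exact h4
    · intro i _ j _ hij
      exact congrArg Prod.snd hij
  · intro X0 v hX0
    obtain ⟨I, hI1, hI2⟩ := h2c X0 1 v (fun i hi => by rw [hX0]; exact hxK i hi)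
    exact ⟨I, hI1, hI2⟩
  · show 0 < p0 + N1 + (n + 2 * p0 + p0)
    omega
  · -- fibres
    intro v y
    have hreg : Language.IsRegular ({X | act (act v ((X.take p0).map φ).prod + nu2 (X.take p0) 1)
        ((X.drop p0).map φ).prod + nu1 (X.drop p0) = y} : Language α) := by
      refine RegKey_186.isRegular_of_state φ (p0 + N1) (N1 * M) (Nat.mul_pos hN1pos hMpos) _ ?_
      intro X X' h1 h2 h3 h4 h5
      have e1 : X.take p0 = X'.take p0 := by
        have := congrArg (List.take p0) h3
        rwa [List.take_take, List.take_take, min_eq_left (by omega)] at this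
      have e2 : (X.drop p0).take N1 = (X'.drop p0).take N1 := by
        have := congrArg (List.drop p0) h3
        rwa [List.drop_take, List.drop_take, Nat.add_sub_cancel_left] at this
      have e3 : (((X.drop p0).drop N1).map φ).prod = (((X'.drop p0).drop N1).map φ).prod := by
        rw [List.drop_drop, List.drop_drop]
        exact h4
      have e4 : (X.drop p0).length % (N1 * M) = (X'.drop p0).length % (N1 * M) := by
        rw [List.length_drop, List.length_drop]
        have h6 : X.length ≡ X'.length [MOD (N1 * M)] := h5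
        have h7 : X.length - p0 + p0 ≡ X'.length - p0 + p0 [MOD (N1 * M)] := by
          rw [Nat.sub_add_cancel (by omega), Nat.sub_add_cancel (by omega)]
          exact h6
        exact Nat.ModEq.add_right_cancel' p0 h7
      have e5 := (hloc (X.drop p0) (X'.drop p0) e2 e3 e4).2
      have e6 : ((X.drop p0).map φ).prod = ((X'.drop p0).map φ).prod := by
        rw [← List.take_append_drop N1 (X.drop p0), ← List.take_append_drop N1 (X'.drop p0),
          hph, hph, e2, e3]
      show (act (act v ((X.take p0).map φ).prod + nu2 (X.take p0) 1)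
        ((X.drop p0).map φ).prod + nu1 (X.drop p0) = y) ↔
        (act (act v ((X'.take p0).map φ).prod + nu2 (X'.take p0) 1)
        ((X'.drop p0).map φ).prod + nu1 (X'.drop p0) = y)
      rw [e1, e5, e6]
    refine (P4_933.hl_XX (z := p0 + N1 + (n + 2 * p0 + p0)) hLW.app hLW.len hfree' hreg).congr
      fun X => ?_
    constructor
    · rintro ⟨⟨h1, h2, h3⟩, h4⟩
      exact ⟨⟨h2, h1, fun t ht htl => h3 t htl ht⟩, h4⟩
    · rintro ⟨⟨h1, h2, h3⟩, h4⟩
      exact ⟨⟨h2, h1, fun t ht htl => h3 t htl ht⟩, h4⟩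
  · -- tails
    intro s
    have hreg : Language.IsRegular ({X | (X.map φ).prod = s} : Language α) := by
      refine RegKey_186.isRegular_of_state φ 0 1 Nat.one_pos _ ?_
      intro X X' _ _ _ h4 _
      have h4' : (X.map φ).prod = (X'.map φ).prod := by simpa using h4
      show (X.map φ).prod = s ↔ (X'.map φ).prod = s
      rw [h4']
    refine ((P4_933.hl_NB (z := p0 + N1 + (n + 2 * p0 + p0)) hLW.app hLW.len hfree' hreg).mono
      (by norm_num)).congr fun w => ?_
    have key : P4_933.NB Wo (p0 + N1 + (n + 2 * p0 + p0)) w ↔ ∀ X, g.XX X → ¬ X <+: w := by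
      rw [P4_933.NB_iff]
      constructor
      · intro h X hX hp
        exact h X hp ⟨hX.2.1, hX.1, fun t ht hz => hX.2.2 t hz ht⟩
      · intro h X hp hX
        exact h X ⟨hX.2.1, hX.1, fun t ht hz => hX.2.2 t hz ht⟩ hp
    constructor
    · rintro ⟨h1, h2⟩
      exact ⟨key.2 h1, h2⟩
    · rintro ⟨h1, h2⟩
      exact ⟨key.1 h1, h2⟩


/-- **S0495.** -/
theorem result0 (α : Type*) [Finite α] (L : Language α) (hL : L.IsRegular) :
    ∃ e : Crest.RegLang.GRegExp α, e.height ≤ 3 ∧ e.lang = L :=
  Univ_294.s0495_of_type0 (fun n S _ _ φ s => fin0 (Fin n) S φ s) α L hL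

end Crest.Agent.R320.Fin_840
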