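import Crest.Agent.R320.End_532
import Crest.Agent.R320.GridG_19
import Crest.Agent.R320.SpoilGrid_567
import Crest.Agent.R320.ExactR_237
import Crest.Agent.R320.LWallAll_922
import Crest.Agent.R320.Fib_81
import Crest.Agent.R320.Fin_869

/-!
# Row 320: last joint (helper845)
-/

set_option autoImplicit false
set_option maxHeartbeats 1000000

namespace Crest.Agent.R320.Fin_845

open Crest.RegLang Crest.Agent.R320.Hk_851 Crest.Agent.R320.Blk467

/-- bad totals: natural form to integer form -/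
theorem badG_int {G0 M m T : ℕ} (hG0 : 0 < G0)
    (hT : ∀ j, j ≤ m → GridG_19.Am (fun k => G0 ^ k) M 0 j ≤ T) (Ms : Finset ℕ)
    (h : (∃ q ∈ Ms, q ∣ T) ∨ GridG_19.BadG (fun k => G0 ^ k) M 0 m T) :
    SpoilGrid_567.BadT Ms M G0 m (fun j => (GridG_19.Am (fun k => G0 ^ k) M 0 j : ℤ)) (T : ℤ) := by
  rcases h with ⟨q, hq, hd⟩ | ⟨k, hk, hb⟩
  · exact Or.inl ⟨q, hq, by exact_mod_cast hd⟩
  · right
    refine ⟨k + 1, by omega, by omega, ?_⟩
    have hA := hT (k + 1) (by omega)
    set a := GridG_19.Am (fun k => G0 ^ k) M 0 (k + 1) with ha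
    obtain ⟨d, hd⟩ : ∃ d, T = a + d := ⟨T - a, by omega⟩
    have e1 : T - a = d := by omega
    simp only [e1] at hb
    have h1 := Nat.div_add_mod d (G0 ^ (k + 1))
    have h2 := Nat.mod_lt d (pow_pos hG0 (k + 1))
    have hT' : (T : ℤ) - a = (G0 : ℤ) ^ (k + 1) * ((d / G0 ^ (k + 1) : ℕ) : ℤ) +
        ((d % G0 ^ (k + 1) : ℕ) : ℤ) := by
      have : (T : ℤ) - a = (d : ℤ) := by rw [hd]; push_cast; ring
      rw [this]
      exact_mod_cast h1.symm
    have h3 : k + 1 - 1 = k := by omega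
    rw [h3]
    rcases hb with hb | hb
    · refine ⟨((d / G0 ^ (k + 1) : ℕ) : ℤ), ?_⟩
      have e2 : (T : ℤ) - a - ((d / G0 ^ (k + 1) : ℕ) : ℤ) * (G0 : ℤ) ^ (k + 1) =
          ((d % G0 ^ (k + 1) : ℕ) : ℤ) := by rw [hT']; ring
      rw [e2, abs_of_nonneg (by positivity)]
      have : ((d % G0 ^ (k + 1) : ℕ) : ℤ) < ((M * G0 ^ k : ℕ) : ℤ) := by exact_mod_cast hb
      push_cast at this ⊢
      exact this.le
    · refine ⟨((d / G0 ^ (k + 1) : ℕ) : ℤ) + 1, ?_⟩
      have e2 : (T : ℤ) - a - (((d / G0 ^ (k + 1) : ℕ) : ℤ) + 1) * (G0 : ℤ) ^ (k + 1) =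
          ((d % G0 ^ (k + 1) : ℕ) : ℤ) - (G0 : ℤ) ^ (k + 1) := by rw [hT']; ring
      rw [e2]
      have g1 : ((d % G0 ^ (k + 1) : ℕ) : ℤ) < ((G0 ^ (k + 1) : ℕ) : ℤ) := by exact_mod_cast h2
      have g2 : ((G0 ^ (k + 1) : ℕ) : ℤ) ≤ ((d % G0 ^ (k + 1) : ℕ) : ℤ) + ((M * G0 ^ k : ℕ) : ℤ) := by
        exact_mod_cast hb
      push_cast at g1 g2 ⊢
      rw [abs_le]
      constructor <;> linarith

theorem fibre (A : Type) [Finite A] (S : Type) [Monoid S] [Finite S] (f : A → S) (s : S) :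
    HL 3 ({w | (w.map f).prod = s} : Language A) := by
  classical
  haveI := Fintype.ofFinite S
  obtain ⟨act, hadd, hone, hmul, hfaith⟩ := exists_module S
  obtain ⟨m, r, hgrid⟩ := GridG_19.grid.{0} S (S → ZMod 2) act
  set C0 := r + m with hC0
  obtain ⟨K, hK⟩ := ExactR_237.exact_gadget A S (S → ZMod 2) f act (2 * C0 + 2)
  obtain ⟨Ms, hcard, hprime, hG⟩ := hgrid (4 ^ K)
  set M := ∏ q ∈ Ms, q with hM
  have hM0 : 0 < M := Finset.prod_pos fun q hq => (hprime q hq).1.pos
  set G0 := 1 + M * (16 * (m + 1) * 4 ^ K) with hG0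
  have hG0pos : 0 < G0 := by omega
  have hcopM : Nat.Coprime M G0 := by
    rw [hG0]
    simp
  have hcopq : ∀ q ∈ Ms, Nat.Coprime q G0 := fun q hq =>
    Nat.Coprime.coprime_dvd_left (Finset.dvd_prod_of_mem _ hq) hcopM
  obtain ⟨lam, rho, nu1, hex, hlen, hrlen, hco, hnu⟩ := hG (fun k => G0 ^ k) 0
    (fun k => pow_pos hG0pos k) (fun a b hab => pow_dvd_pow _ hab)
    (fun k => Nat.Coprime.pow_right k hcopM) A (fun w => (w.map f).prod)
    (fun u v => by rw [List.map_append, List.prod_append])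
  set Am := GridG_19.Am (fun k => G0 ^ k) M 0 with hAm
  set Ac := GridG_19.Ac (fun k => G0 ^ k) M 0 m with hAc
  set N1 := Am m + 1 with hN1
  obtain ⟨x, hx1, hx2, hx3⟩ := SpoilGrid_567.spoil_grid K m Ms M G0 (2 * N1)
    (fun q hq => (hprime q hq).2) hcopq
    (fun q hq q' hq' hne => (Nat.coprime_primes (hprime q hq).1 (hprime q' hq').1).2 hne) hM0
    (by rw [hG0]; nlinarith [Nat.zero_le 1])
  have hxs : ∀ i j, i < j → x i < x j := fun i j h => by have := hx1 i j h; omega
  obtain ⟨lam2, rho2, nu2, hex2, hco2⟩ := hK x (fun i j h _ => hxs i j h)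
  set p0 := x K with hp0
  have hxp : ∀ k, k < K → x k ≤ p0 := fun k hk => (hxs k K hk).le
  obtain ⟨n, Gw, B, Wo, hLW, hgap, -, -, hB⟩ := LWallAll_922.walls_all_left A
    (2 * p0 + 2 * N1 + 1) (by omega)
  set q0 := n + 3 * p0 + 4 * N1 + M + Ac + 1 with hq0
  let g : Sc2n_937.Geo A :=
    { Wo := Wo, n := n, z := p0 + N1 + q0, p0 := p0, q0 := q0, N1 := N1,
      loc := hLW.app, hz := rfl, hq := by omega, hN := by omega, hqp := by omega }
  set BadT : ℕ → Prop := fun T => (∃ q ∈ Ms, q ∣ T) ∨ GridG_19.BadG (fun k => G0 ^ k) M 0 m T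
    with hBadT
  have hAmono : ∀ j, j ≤ m → Am j ≤ Am m := fun j hj => GridG_19.Am_mono _ _ _ hj
  refine End_532.joint act hadd hone hmul hfaith f g nu1 (fun u => nu2 u 1) K x lam rho lam2
    (fun k Q => rho2 k Q 1) BadT C0 ?_ ?_ ?_ ?_ ?_ ?_ ?_ ?_ ?_ ?_ ?_ ?_ s
  · intro P v h
    have := (hlen P v h).2
    show P.length ≤ N1
    omega
  · intro P Q u b h1 h2
    exact hex P Q u b h1 h2
  · intro Y hY hb u
    have hY' : q0 ≤ Y.length := hY
    obtain ⟨P, Q, e, h1, h2⟩ := hco Y (by omega) (by omega)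
      (fun q hq hd => hb (Or.inl ⟨q, hq, hd⟩)) (fun h => hb (Or.inr h)) u
    exact ⟨P, Q, e.symm, h1, h2⟩
  · exact hxp
  · intro k hk P Q v u hP hQ h1 h2
    have := hex2 k hk P Q 1 v u hP h1 h2
    rw [mul_one] at this
    exact this
  · intro P Q h1 h2 hne
    have hl := List.length_pos_iff.2 hne
    have := hgap (P ++ Q) P.length (P ++ Q).length (by rw [List.length_append]; omega) le_rfl
      (by simpa using h1) (by rw [List.take_length]; exact h2)
    rw [List.length_append] at this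
    show 2 * p0 + 2 * N1 < Q.length
    omega
  · intro k k' l l' hk hk' hl hl' hkk hll h1 h2
    have h1' : x k + x l' < x l + x k' + 2 * N1 := h1
    have h2' : x l + x k' < x k + x l' + 2 * N1 := h2
    refine (hx2 k k' l l' hk hk' hl hl' (Ne.symm hkk) ?_).1
    rw [abs_le]
    constructor <;> push_cast <;> omega
  · intro τ hτ J hJ
    have hτ' : p0 + N1 + q0 ≤ τ + p0 := hτ
    have key := hx3 (fun j => (Am j : ℤ)) ((τ : ℤ) - p0)
    refine le_trans ?_ (key.trans (by omega : Ms.card + m ≤ C0))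
    refine le_trans (Finset.card_le_card (t := ((Finset.range K ×ˢ Finset.range K).filter
          (fun ab => ab.1 ≠ ab.2 ∧ SpoilGrid_567.BadT Ms M G0 m (fun j => (Am j : ℤ))
            ((τ : ℤ) - p0 + x ab.1 - x ab.2))).image Prod.snd) ?_) Finset.card_image_le
    intro k hk
    obtain ⟨hkK, k', hk', hne, hb⟩ := hJ k hk
    refine Finset.mem_image.2 ⟨(k', k), ?_, rfl⟩
    refine Finset.mem_filter.2 ⟨Finset.mem_product.2 ⟨Finset.mem_range.2 hk',
      Finset.mem_range.2 hkK⟩, hne, ?_⟩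
    have hb' : BadT (τ + x k' - x k - p0) := hb
    have hxk := hxp k hkK
    have := badG_int hG0pos (T := τ + x k' - x k - p0) (m := m) (M := M)
      (fun j hj => by have := hAmono j hj; show Am j ≤ _; omega) Ms hb'
    have e : ((τ + x k' - x k - p0 : ℕ) : ℤ) = (τ : ℤ) - p0 + x k' - x k := by omega
    rw [e] at this
    exact this
  · intro X0 v hX0
    obtain ⟨I, h1, h2⟩ := hco2 X0 1 v (fun k hk => by rw [hX0]; exact hxp k hk)
    exact ⟨I, h1, h2⟩
  · show 0 < p0 + N1 + q0
    omega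
  · intro a b
    refine Fib_81.HL_blocks (z := p0 + N1 + q0) f (p0 + Ac) (M * G0 ^ m)
      (Nat.mul_pos hM0 (pow_pos hG0pos m)) hLW hB _ ?_ ?_
    · intro X hX
      exact hX.1
    · intro X hX Y hY h1 h2 h3 hXL
      refine ⟨hY, ?_⟩
      have hlX : p0 + N1 + q0 ≤ X.length := hX.1
      have hlY : p0 + N1 + q0 ≤ Y.length := hY.1
      have e1 : X.take p0 = Y.take p0 := by
        have := congrArg (List.take p0) h1
        rwa [List.take_take, List.take_take, min_eq_left (by omega)] at this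
      have e2 : (X.drop p0).take Ac = (Y.drop p0).take Ac := by
        have := congrArg (List.drop p0) h1
        rwa [List.drop_take, List.drop_take, Nat.add_sub_cancel_left] at this
      have e3 : ((X.drop p0).map f).prod = ((Y.drop p0).map f).prod := by
        rw [← List.take_append_drop Ac (X.drop p0), ← List.take_append_drop Ac (Y.drop p0),
          List.map_append, List.map_append, List.prod_append, List.prod_append, e2,
          List.drop_drop, List.drop_drop, h2]
      have e4 : nu1 (X.drop p0) = nu1 (Y.drop p0) := by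
        refine hnu _ _ (by rw [List.length_drop]; omega) (by rw [List.length_drop]; omega) e2 ?_ e3
        rw [List.length_drop, List.length_drop]
        have h4 : X.length ≡ Y.length [MOD M * G0 ^ m] := h3
        have h5 : (X.length - p0) + p0 ≡ (Y.length - p0) + p0 [MOD M * G0 ^ m] := by
          rw [Nat.sub_add_cancel (by omega), Nat.sub_add_cancel (by omega)]; exact h4
        exact Nat.ModEq.add_right_cancel' _ h5
      have hXv := hXL.2
      show act (act a ((Y.take p0).map f).prod + nu2 (Y.take p0) 1) ((Y.drop p0).map f).prod +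
        nu1 (Y.drop p0) = b
      rw [← e1, ← e3, ← e4]
      exact hXv
  · intro t
    exact (Fib_81.HL_tail_prod (z := p0 + N1 + q0) f hLW hB t).mono (by omega)

/-- the frozen statement -/
theorem fin (α : Type*) [Finite α] (L : Language α) (hL : L.IsRegular) :
    ∃ e : Crest.RegLang.GRegExp α, e.height ≤ 3 ∧ e.lang = L :=
  Fin_869.template (fun n S _ _ f s => fibre (Fin n) S f s) α L hL

end Crest.Agent.R320.Fin_845
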