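import Crest.Agent.R320.InstB_11
import Crest.Agent.R320.H14_82
import Crest.Agent.R320.G1_596
import Crest.Agent.R320.Sp_493
import Crest.Agent.R320.Block_467

/-!
# Row 320: the join (helper846)

110's `top_sem`, 11's `InstB_11.C1`, `C2`, 82's `H14_82.main`, 596's `g1`, 493's `spoil`, 237's
`exact_gadget`, 228's `walls_full`.
-/

set_option autoImplicit false

namespace Crest.Agent.R320.Fin_846

open Crest.Agent.R320.Hk_851 Crest.Agent.R320.Code110

theorem XX_eq {α : Type} (n : ℕ) (Sw : Set (List α)) (z : ℕ) :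
    InstB_11.XX (WallU_228.Wo n Sw) z = H14_82.XX n Sw z := by
  apply Set.ext
  intro X
  constructor
  · rintro ⟨h1, h2, h3⟩
    exact ⟨h1, h2, fun t a b => h3 t b a⟩
  · rintro ⟨h1, h2, h3⟩
    exact ⟨h1, h2, fun t a b => h3 t b a⟩

theorem Bad_eq {α : Type} (n : ℕ) (Sw : Set (List α)) (z N p0 : ℕ) (BadT : ℕ → Prop) :
    InstB_11.BadX (WallU_228.Wo n Sw) z N p0 BadT = H14_82.Bad n Sw z N p0 BadT := by
  apply Set.ext
  intro X
  constructor
  · rintro ⟨h1, h2⟩
    exact ⟨by rw [← XX_eq]; exact h1, h2⟩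
  · rintro ⟨h1, h2⟩
    exact ⟨by rw [XX_eq]; exact h1, h2⟩

theorem fin (α : Type) [Finite α] (S : Type) [Monoid S] [Finite S] (f : α → S) (s : S) :
    HL 3 ({w | (w.map f).prod = s} : Language α) := by
  classical
  have : Fintype S := Fintype.ofFinite S
  obtain ⟨act, hadd, hone, hmul, hfaith⟩ := Blk467.exists_module S
  obtain ⟨m, r, hg1⟩ := G1_596.g1 S (S → ZMod 2) act
  obtain ⟨K, hK⟩ := ExactR_237.exact_gadget α S (S → ZMod 2) f act (2 + 2 * (r + m))
  obtain ⟨Ms, M, hcard, hMs, hM, hb⟩ := hg1 (2 ^ K)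
  have h16 : 16 ≤ 2 ^ (K + 4) := by
    rw [pow_add]; have := Nat.one_le_two_pow (n := K); omega
  have hbb : 4 * M + 4 < 2 ^ (K + 4) * M + 1 := by nlinarith
  have hcop : Nat.Coprime (2 ^ (K + 4) * M + 1) M := by
    rw [Nat.coprime_mul_right_add_left]; exact Nat.coprime_one_left M
  set b := 2 ^ (K + 4) * M + 1 with hbdef
  obtain ⟨lam, rho, nu1, hlen, hsnd, hcmp, hfs⟩ := hb b hbb hcop α f
  set N1 := b ^ m with hN1
  obtain ⟨c, hcm, -, -, hgol, hsp⟩ := Sp_493.spoil Ms M m K b hM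
    (fun k hk => ⟨(hMs k hk).1, (hMs k hk).2.2⟩) (by omega) hcop N1
  obtain ⟨lam2, rho2, nuE, e1, e2⟩ := hK c (fun i j hij _ => hcm hij)
  obtain ⟨n, cc, P, Sw, hn, hP, hloc, hgap, -, -, hfew⟩ :=
    WallU_228.walls_full (α := α) (2 * (N1 + c K))
  set p0 := c K with hp0
  set z := p0 + p0 + N1 + n + p0 + 1 with hz
  have hWL : InstB_11.WL (WallU_228.Wo n Sw) n (2 * (N1 + p0)) :=
    ⟨hloc, fun P h => h.1, hgap⟩
  obtain ⟨H1, H2, H3, H4⟩ := H14_82.main (S := S) (f := f) (n := n) (Sw := Sw) (z := z) (N := N1)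
    (p0 := p0) (A1 := b ^ m) (m := M * b ^ m) (by positivity) hfew (Sp_493.Bad Ms M b m)
    (fun T _ => Sp_493.Bad_add (by omega) (fun k hk => (hMs k hk).2.2) T)
    nu1 (fun w => nuE w 1) act
    (fun Y Y' a1 a2 a3 a4 a5 => (hfs Y Y' a1 a2 a3 a4 a5).2)
  refine Top5_110.top_sem (φ := fun w : List α => (w.map f).prod) (act := act)
    (XX := H14_82.XX n Sw z) (Bad := H14_82.Bad n Sw z N1 p0 (Sp_493.Bad Ms M b m))
    (T := H14_82.TT (fun w => (w.map f).prod) act p0 (fun w => nuE w 1) nu1)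
    (N1 := 0) (N2 := 1) (L1 := InstB_11.L1 f act p0 (fun w => nuE w 1) lam)
    (L2 := InstB_11.L2 K c lam2)
    (by simp) (fun u w => by simp) hone hmul hfaith (H14_82.pc n Sw z (by omega))
    (fun u hu => hu.1) (fun u _ v v' => H14_82.hT hadd hmul p0 u v v') H1 H2 H3
    (fun s => (H4 s).mono (by norm_num)) ?_ ?_ ?_ ?_ s
  · intro v
    refine (List.finite_length_le α (p0 + N1)).subset ?_
    rintro p ⟨hp1, hp2⟩
    have := hlen _ _ hp2
    rw [List.length_drop] at this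
    show p.length ≤ p0 + N1
    omega
  · intro v
    refine (List.finite_length_le α p0).subset ?_
    rintro p ⟨k, hk, hp1, hp2⟩
    have := hcm.monotone hk.le
    show p.length ≤ p0
    omega
  · intro u hu hb' x t ht
    rw [pow_zero] at ht
    obtain rfl : t = [] := ht
    rw [← XX_eq] at hu
    rw [← Bad_eq] at hb'
    obtain ⟨p, q, y, h1, h2, h3⟩ := InstB_11.C1 hWL f act (z := z) (N1 := N1) (p0 := p0)
      (La := p0 + 1) (BadT := Sp_493.Bad Ms M b m) (fun w => nuE w 1) nu1 lam rho (by omega)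
      (fun p v h => (hlen p v h).le)
      (fun p q v b' h1 h2 _ => hsnd p q v b' h1 h2)
      (fun u hu1 hu2 v => by
        unfold Sp_493.Bad at hu2
        push Not at hu2
        exact hcmp u hu2.1 hu2.2 v) u hu hb' x
    refine ⟨p, q, y, by rw [List.append_nil]; exact h1, h2, ?_⟩
    rw [← XX_eq]
    exact h3
  · intro u hu x t ht
    rw [pow_one] at ht
    rw [← Bad_eq] at hu ht
    obtain ⟨p, q, y, h1, h2, h3⟩ := InstB_11.C2 hWL f act (z := z) (N1 := N1) (p0 := p0)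
      (La := p0 + 1) (K := K) (C0 := r + m) (R := 2 + 2 * (r + m))
      (BadT := Sp_493.Bad Ms M b m) c nu1 lam2 rho2 nuE (by omega) (by omega) (by omega)
      (fun k hk => hcm.monotone hk.le) e1 e2 (by omega)
      (fun i j k l _ _ _ _ h1 h2 h3 => hgol i j k l h1 h2 h3)
      (fun T hT F hF => (hsp T (fun i hi => by
        have := hcm.monotone hi.le
        omega) F hF).trans (by omega)) u t hu ht x
    refine ⟨p, q, y, h1, h2, ?_⟩
    rw [← XX_eq, ← Bad_eq]
    exact h3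

end Crest.Agent.R320.Fin_846
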