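import Crest.Agent.R320.Inst_522
import Crest.Agent.R320.HZ_847
import Crest.Agent.R320.G1_256
import Crest.Agent.R320.Sp_797
import Crest.Agent.R320.Loc_354
import Crest.Agent.R320.ExactR_237
import Crest.Agent.R320.Univ_188
import Crest.Agent.R320.Hk2_851

/-!
# Row 320: the final join (helper847)

Top `SemTop_727.top`, both completeness statements `Inst_522.Dat`, gadget `G1_256.g1`, ruler
`Sp_797.spoil_nat`, exact gadget `ExactR_237.exact_gadget`, walls `WallU_228.walls_full`, height one
families `HZ_847`.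
-/

set_option autoImplicit false

namespace Crest.Agent.R320.Fin847

open Crest.RegLang Crest.Agent.R320.Hk_851 Crest.Agent.R320.FewWalls_228
  Crest.Agent.R320.WallU_228

theorem wa_iff {α : Type} {n : ℕ} {A : Set (List α)} {w : List α} {t : ℕ} (ht : t ≤ w.length) :
    Geo_522.Wa n A w t ↔ Wo n A (w.take t) := by
  unfold Geo_522.Wa Wo
  have hl : (w.take t).length = t := by rw [List.length_take]; omega
  rw [hl]
  constructor
  · rintro ⟨h1, _, h3⟩
    refine ⟨h1, ?_⟩
    rw [List.drop_take, show t - (t - n) = n by omega]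
    exact h3
  · rintro ⟨h1, h3⟩
    refine ⟨h1, ht, ?_⟩
    rw [List.drop_take, show t - (t - n) = n by omega] at h3
    exact h3

theorem xx_iff {α : Type} {n : ℕ} {A : Set (List α)} {z : ℕ} (X : List α) :
    X ∈ Geo_522.XXz n A z ↔ X ∈ HZ847.XX n A z := by
  constructor
  · rintro ⟨h1, h2, h3⟩
    refine ⟨h1, ?_, fun t ht1 ht2 => ?_⟩
    · rw [wa_iff le_rfl, List.take_length] at h2
      exact h2
    · rw [← wa_iff ht2.le]
      exact h3 t ht1 ht2
  · rintro ⟨h1, h2, h3⟩
    refine ⟨h1, ?_, fun t ht1 ht2 => ?_⟩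
    · rw [wa_iff le_rfl, List.take_length]
      exact h2
    · rw [wa_iff ht2.le]
      exact h3 t ht1 ht2

theorem fin (α : Type) [Finite α] (S : Type) [Monoid S] [Finite S] (φ : α → S) (s : S) :
    HL 3 ({w | (w.map φ).prod = s} : Language α) := by
  classical
  haveI := Fintype.ofFinite S
  obtain ⟨act, hadd, hone, hmul, hfaith⟩ := Blk467.exists_module S
  obtain ⟨m, r, H⟩ := G1_256.g1 S (S → ZMod 2) act
  obtain ⟨C0, hC0⟩ : ∃ C0, C0 = r + m + 1 := ⟨_, rfl⟩
  obtain ⟨K, hK⟩ := ExactR_237.exact_gadget α S (S → ZMod 2) φ act (3 * C0 + 1)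
  obtain ⟨Ms, M, hMs, hMk, hM, H⟩ := H (2 ^ (K + 1))
  obtain ⟨b, hb⟩ : ∃ b, b = 2 ^ (K + 5) * M + 1 := ⟨_, rfl⟩
  have hp : 32 ≤ 2 ^ (K + 5) := by
    have : 2 ^ 5 ≤ 2 ^ (K + 5) := Nat.pow_le_pow_right (by norm_num) (by omega)
    simpa using this
  have hb1 : 4 * M + 4 < b := by
    have : 32 * M ≤ 2 ^ (K + 5) * M := Nat.mul_le_mul_right _ hp
    omega
  have hb2 : Nat.Coprime b M := by
    rw [hb]
    simp
  have hb3 : 2 ^ (K + 5) * M < b := by omega
  obtain ⟨lam, rho, nu1, g1, g2, g3, g4⟩ := H b hb1 hb2 α φ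
  obtain ⟨c, c1, c2, c2', c3, c4, c5⟩ := Sp_797.spoil_nat Ms M m b K (4 * b ^ m) hM
    (fun k hk => ⟨(hMk k hk).1, (hMk k hk).2.2⟩) hb3 hb2
  obtain ⟨lam2, rho2, nu2, e1, e2⟩ := hK c (fun i j hij _ => c1 hij)
  obtain ⟨N1, hN1⟩ : ∃ N1, N1 = b ^ m := ⟨_, rfl⟩
  have hN1pos : 0 < N1 := by
    rw [hN1]; exact Nat.pow_pos (by omega)
  rw [← hN1] at g1 g4 c2 c2' c3
  obtain ⟨n, cc, P, A, hn, hP, hw1, hw2, hw3, hw4, hw5⟩ :=
    walls_full (α := α) (2 * (c K + N1) + 1)
  let d : Inst_522.Dat α S (S → ZMod 2) :=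
    { φ := φ
      act := act
      hadd := hadd
      hmul := hmul
      p0 := c K
      N1 := N1
      z := 4 * (c K + N1 + n + 1)
      n := n
      K := K
      C0 := C0
      c := c
      hcp := fun k hk => (c1 hk).le
      AA := A
      hz := le_rfl
      hsep := by
        intro w s t hst hs ht
        by_contra hcon
        have ht' := (wa_iff ht.2.1).1 ht
        have h := hw2 (w.take t) (t - s) ht' (by omega) (by omega)
        have hl : (w.take t).length = t := by
          have := ht.2.1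
          rw [List.length_take]; omega
        rw [hl, List.take_take, show min (t - (t - s)) t = s by omega] at h
        exact h ((wa_iff hs.2.1).1 hs)
      lam1 := lam
      rho1 := rho
      nu1 := nu1
      l1 := fun P v h => (g1 P v h).le
      s1 := g2
      BadT := Sp_797.Bad Ms M m b
      c1 := by
        intro X hX v
        refine g3 X ?_ ?_ v
        · intro k hk hkX
          exact hX (Or.inl ⟨k, hk, hkX⟩)
        · intro j hj
          by_contra hc
          exact hX (Or.inr ⟨j, hj, hc⟩)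
      lam2 := lam2
      rho2 := fun k Q => rho2 k Q 1
      nu2 := fun u => nu2 u 1
      s2 := by
        intro k hk P Q v b' hP h1 h2
        have h := e1 k hk P Q 1 v b' hP h1 h2
        rw [mul_one] at h
        exact h
      c2 := by
        intro w v h
        exact e2 w 1 v h
      sp1 := by
        intro t F hF
        have : F.card ≤ 1 := by
          refine Finset.card_le_one.2 ?_
          rintro ⟨i, j⟩ ha ⟨i', j'⟩ hb'
          by_contra hne
          obtain ⟨_, _, q1, q2, q3⟩ := hF _ ha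
          obtain ⟨_, _, q4, q5, q6⟩ := hF _ hb'
          simp only at q1 q2 q3 q4 q5 q6
          have := c3 i j i' j' q1 hne
          omega
        omega
      sp2 := by
        intro T hT F hF
        have := c4 (T : ℤ) F (by
          intro p hp
          obtain ⟨a1, a2, a3, a4⟩ := hF p hp
          have h1 := c1 a1
          refine ⟨a1, a2, a3, _, ?_, a4⟩
          omega)
        omega }
  have hF : HZ847.Few n A := hw5
  have hnu : ∀ x, Language.IsRegular ({w | nu1 w = x} : Language α) := by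
    intro x
    refine Loc_354.regular_of_local φ N1 (M * b ^ m) (Nat.mul_pos hM (by rw [← hN1]; exact hN1pos)) _ ?_
    intro q q2 h1 h2 h3 h4 h5
    have := (g4 q q2 h1 h2 h3 (by rw [hN1]; exact h4) h5).2
    show nu1 q = x ↔ nu1 q2 = x
    rw [this]
  have h0 : (fun w : List α => (w.map φ).prod) [] = 1 := by simp
  have hφ : ∀ u w : List α, (fun w : List α => (w.map φ).prod) (u ++ w) =
      (fun w : List α => (w.map φ).prod) u * (fun w : List α => (w.map φ).prod) w := by
    intro u w
    simp
  have hfib : ∀ x y, HL 1 (d.D.fib x y) := by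
    intro x y
    refine (HZ847.H3 (φ := fun w : List α => (w.map φ).prod) (z := 4 * (c K + N1 + n + 1))
      (p0 := c K) (act := act) (nu1 := nu1)
      (nu2 := fun u => nu2 u 1) hF h0 hφ (by omega) hnu x y).congr fun w => ?_
    refine and_congr (xx_iff w) ?_
    rw [show d.D.T x w = _ from d.T_split x w]
    exact Iff.rfl
  have htail : ∀ s, HL 3 ({w | (∀ X ∈ d.D.XX, ¬ X <+: w) ∧ (w.map φ).prod = s} : Language α) := by
    intro s
    refine ((HZ847.H4 (φ := fun w : List α => (w.map φ).prod) (z := 4 * (c K + N1 + n + 1))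
      hF h0 hφ s).mono (by norm_num)).congr fun w => ?_
    refine and_congr ?_ Iff.rfl
    exact forall_congr' fun X => imp_congr (xx_iff X) Iff.rfl
  exact SemTop_727.top (k := 1) act hadd hone hmul hfaith φ d.nu d.D (fun v X => rfl)
    (Geo_522.pcode (z := 4 * (c K + N1 + n + 1)) (by omega)) hfib d.hL1 d.hL2 d.hC2 htail s

/-- **Row 320 over `Type`.** -/
theorem row0 (α : Type) [Finite α] (L : Language α) (hL : L.IsRegular) :
    ∃ e : GRegExp α, e.height ≤ 3 ∧ e.lang = L :=
  of_monoid (fun S _ _ φ s => fin α S φ s) L hL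

/-- **Row 320.** -/
theorem row {α : Type*} [Finite α] (L : Language α) (hL : L.IsRegular) :
    ∃ e : GRegExp α, e.height ≤ 3 ∧ e.lang = L :=
  Univ_188.of_type0 3 (fun α _ L hL => row0 α L hL) α L hL

end Crest.Agent.R320.Fin847

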