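import Mathlib

/-!
# R320 / Inst_374: the two completeness statements `hcc1`, `hcc2` of `Top5_120.top5`

Natural chain rule over left-looking walls on ALL words; scheme 1 = a gadget `lam rho nu1` with bad
lengths `BadT` (852 #13483 / 693 #13203), scheme 2 = exact gadget on words of length `p0` in ruler
form (ExactR_237).  Written after the plans #13253, #13406, #13673 and Top5_120.
-/

set_option autoImplicit false

namespace Crest.Agent.R320.Inst_374

open Finset

universe u

/-- all data of the two schemes -/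
structure Dat (α : Type u) (S V : Type*) [Monoid S] [AddCommGroup V] where
  act : V → S → V
  hadd : ∀ a b s, act (a + b) s = act a s + act b s
  hmul : ∀ v s t, act v (s * t) = act (act v s) t
  φ : α → S
  Wo : List α → Prop
  n : ℕ
  z : ℕ
  p0 : ℕ
  N1 : ℕ
  wloc : ∀ P Q, n ≤ Q.length → (Wo (P ++ Q) ↔ Wo Q)
  lam : List α → Option V
  rho : List α → Option V
  nu1 : List α → V
  BadT : ℕ → Prop
  lamlen : ∀ P v, lam P = some v → P.length < N1
  gs : ∀ P Q v v', lam P = some v → rho Q = some v' →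
    v' = act v ((P ++ Q).map φ).prod + nu1 (P ++ Q)
  gc : ∀ X : List α, ¬ BadT X.length → ∀ v, ∃ P Q, P ++ Q = X ∧ lam P = some v ∧ (rho Q).isSome
  K : ℕ
  R : ℕ
  c : ℕ → ℕ
  hcp : ∀ k < K, c k ≤ p0
  lam2 : ℕ → List α → Option V
  rho2 : ℕ → List α → Option V
  nu2 : List α → V
  es : ∀ k < K, ∀ P Q v b, P.length = c k → lam2 k P = some v → rho2 k Q = some b →
    b = act v ((P ++ Q).map φ).prod + nu2 (P ++ Q)
  ec : ∀ (u : List α) (v : V), u.length = p0 → ∃ I : Finset ℕ, R ≤ I.card ∧ ∀ k ∈ I, k < K ∧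
    lam2 k (u.take (c k)) = some v ∧ (rho2 k (u.drop (c k))).isSome
  hz : p0 + 2 * N1 + n ≤ z
  zpos : 0 < z

namespace Dat

variable {α : Type u} {S V : Type*} [Monoid S] [AddCommGroup V] (D : Dat α S V)

/-- the blocks -/
def C : Set (List α) :=
  {X | D.z ≤ X.length ∧ D.Wo X ∧ ∀ t, D.z ≤ t → t < X.length → ¬ D.Wo (X.take t)}

/-- the bad blocks -/
def Bad : Set (List α) :=
  {X | X ∈ D.C ∧ ((∃ t ≤ X.length, D.z ≤ t + D.N1 ∧ t < D.z + D.N1 ∧ D.Wo (X.take t)) ∨
    D.BadT (X.length - D.p0))}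

/-- the noise of a block -/
def nu (X : List α) : V :=
  D.act (D.nu2 (X.take D.p0)) ((X.drop D.p0).map D.φ).prod + D.nu1 (X.drop D.p0)

/-- the zone map -/
def T (v : V) (X : List α) : V := D.act v (X.map D.φ).prod + D.nu X

/-- left words of scheme 1 -/
def L1 (v : V) : Set (List α) :=
  {P | D.p0 ≤ P.length ∧ D.lam (P.drop D.p0) =
    some (D.act v ((P.take D.p0).map D.φ).prod + D.nu2 (P.take D.p0))}

/-- left words of scheme 2 -/
def L2 (v : V) : Set (List α) := {P | ∃ k < D.K, P.length = D.c k ∧ D.lam2 k P = some v}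

theorem T_form (v : V) (X : List α) :
    D.T v X = D.act (D.act v ((X.take D.p0).map D.φ).prod + D.nu2 (X.take D.p0))
      ((X.drop D.p0).map D.φ).prod + D.nu1 (X.drop D.p0) := by
  have h : (X.map D.φ).prod = ((X.take D.p0).map D.φ).prod * ((X.drop D.p0).map D.φ).prod := by
    rw [← List.prod_append, ← List.map_append, List.take_append_drop]
  unfold T nu
  rw [h, D.hmul, D.hadd]
  abel

theorem take_app (P Q : List α) (j : ℕ) : (P ++ Q).take (P.length + j) = P ++ Q.take j := by
  rw [List.take_append]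
  simp

/-- transfer of walls -/
theorem tl (P P' Q : List α) (j : ℕ) (h1 : D.n ≤ j) (h2 : j ≤ Q.length) :
    D.Wo ((P ++ Q).take (P.length + j)) ↔ D.Wo ((P' ++ Q).take (P'.length + j)) := by
  rw [take_app, take_app]
  have h3 : D.n ≤ (Q.take j).length := by
    rw [List.length_take]; omega
  rw [D.wloc P _ h3, D.wloc P' _ h3]

/-- one junction of scheme 1 -/
theorem sound1 (v : V) (P Q : List α) (r : V) (hP : P ∈ D.L1 v) (hQ : D.rho Q = some r) :
    D.T v (P ++ Q) = r := by
  obtain ⟨h1, h2⟩ := hP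
  have h3 := D.gs _ _ _ _ h2 hQ
  have e1 : (P ++ Q).take D.p0 = P.take D.p0 := List.take_append_of_le_length h1
  have e2 : (P ++ Q).drop D.p0 = P.drop D.p0 ++ Q := List.drop_append_of_le_length h1
  rw [T_form, e1, e2, h3]

theorem hcc1 (X : List α) (hX : X ∈ D.C) (hXb : X ∉ D.Bad) (v : V) :
    ∃ P Q, P ++ Q = X ∧ P ∈ D.L1 v ∧ ∀ x, ∀ P' ∈ D.L1 x, P' ++ Q ∈ D.C ∧
      D.T x (P' ++ Q) = D.T v X := by
  have hz := D.hz
  obtain ⟨hX1, hX2, hX3⟩ := hX
  have hE : ¬ ∃ t ≤ X.length, D.z ≤ t + D.N1 ∧ t < D.z + D.N1 ∧ D.Wo (X.take t) := fun h =>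
    hXb ⟨⟨hX1, hX2, hX3⟩, Or.inl h⟩
  have hB : ¬ D.BadT (X.length - D.p0) := fun h => hXb ⟨⟨hX1, hX2, hX3⟩, Or.inr h⟩
  obtain ⟨P1, Q, hPQ, hP1, hQ⟩ := D.gc (X.drop D.p0) (by rw [List.length_drop]; exact hB)
    (D.act v ((X.take D.p0).map D.φ).prod + D.nu2 (X.take D.p0))
  have hP1l := D.lamlen _ _ hP1
  have hXp : (X.take D.p0).length = D.p0 := by rw [List.length_take]; omega
  have hsum : P1.length + Q.length = X.length - D.p0 := by
    rw [← List.length_append, hPQ, List.length_drop]
  have hXeq : (X.take D.p0 ++ P1) ++ Q = X := by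
    rw [List.append_assoc, hPQ, List.take_append_drop]
  have hPL : X.take D.p0 ++ P1 ∈ D.L1 v := by
    refine ⟨by rw [List.length_append]; omega, ?_⟩
    have e1 : (X.take D.p0 ++ P1).take D.p0 = X.take D.p0 := by
      rw [List.take_append_of_le_length (by omega), List.take_of_length_le (by omega)]
    have e2 : (X.take D.p0 ++ P1).drop D.p0 = P1 := by
      rw [List.drop_append_of_le_length (by omega), List.drop_eq_nil_of_le (by omega),
        List.nil_append]
    rw [e1, e2]
    exact hP1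
  refine ⟨X.take D.p0 ++ P1, Q, hXeq, hPL, ?_⟩
  obtain ⟨r, hr⟩ := Option.isSome_iff_exists.1 hQ
  have hTX : D.T v X = r := by
    have := D.sound1 v (X.take D.p0 ++ P1) Q r hPL hr
    rwa [hXeq] at this
  intro x P' hP'
  have hT' := D.sound1 x P' Q r hP' hr
  refine ⟨?_, by rw [hT', hTX]⟩
  have hP'1 : D.p0 ≤ P'.length := hP'.1
  have hP'2 : (P'.drop D.p0).length < D.N1 := D.lamlen _ _ hP'.2
  rw [List.length_drop] at hP'2
  -- the last wall is far
  have hXlen : D.z + D.N1 ≤ X.length := by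
    by_contra hcon
    exact hE ⟨X.length, le_rfl, by omega, by omega, by rw [List.take_length]; exact hX2⟩
  have hPlen : (X.take D.p0 ++ P1).length = D.p0 + P1.length := by
    rw [List.length_append, hXp]
  have hXl2 : X.length = D.p0 + P1.length + Q.length := by omega
  refine ⟨by rw [List.length_append]; omega, ?_, ?_⟩
  · have h1 := D.tl (X.take D.p0 ++ P1) P' Q Q.length (by omega) le_rfl
    have e1 : ((X.take D.p0 ++ P1) ++ Q).take ((X.take D.p0 ++ P1).length + Q.length) = X := by
      rw [← List.length_append, List.take_length, hXeq]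
    have e2 : (P' ++ Q).take (P'.length + Q.length) = P' ++ Q := by
      rw [← List.length_append, List.take_length]
    rw [e1, e2] at h1
    exact h1.1 hX2
  · intro t ht1 ht2 hw
    rw [List.length_append] at ht2
    have h1 := D.tl P' (X.take D.p0 ++ P1) Q (t - P'.length) (by omega) (by omega)
    have e1 : P'.length + (t - P'.length) = t := by omega
    rw [e1, hXeq, hPlen] at h1
    have hw' := h1.1 hw
    by_cases hlt : D.p0 + P1.length + (t - P'.length) < D.z
    · exact hE ⟨D.p0 + P1.length + (t - P'.length), by omega, by omega, by omega, hw'⟩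
    · exact hX3 _ (by omega) (by omega) hw'

/-- candidate `k'` is bad when the true place is `k` (positions of the text of the true anchor) -/
def BadC (wl : ℕ → Prop) (k k' : ℕ) : Prop :=
  (∃ t, wl t ∧ D.z + D.c k ≤ t + D.N1 + D.c k' ∧ t + D.c k' < D.z + D.N1 + D.c k) ∨
  (∃ t, wl t ∧ D.z + D.c k ≤ t + D.c k' ∧ (∀ t1 < t, wl t1 → t1 + D.c k' < D.z + D.c k) ∧
    D.BadT (t + D.c k' - D.c k - D.p0))

/-- wall positions of a text -/
def wl (U : List α) (t : ℕ) : Prop := D.n ≤ t ∧ t ≤ U.length ∧ D.Wo (U.take t)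

theorem hcc2 (hsp : ∀ X ∈ D.C, ∀ Y ∈ D.C, ∃ Sp : Finset ℕ, Sp.card < D.R ∧
      ∀ k < D.K, ∀ k' < D.K, k' ≠ k → D.BadC (D.wl (X ++ Y)) k k' → k ∈ Sp)
    (X : List α) (hXb : X ∈ D.Bad) (Y : List α) (hYb : Y ∈ D.Bad) (v : V) :
    ∃ P Q, P ++ Q = X ++ Y ∧ P ∈ D.L2 v ∧ ∀ x, ∀ P' ∈ D.L2 x,
        (∃ X' ∈ D.Bad, ∃ Y' ∈ D.C, X' ++ Y' = P' ++ Q ∧ D.T (D.T x X') Y' = D.T (D.T v X) Y) ∨
        (∃ X' ∈ D.C, X' ∉ D.Bad ∧ X' <+: P' ++ Q) := by
  classical
  have hz := D.hz
  have hX := hXb.1
  have hY := hYb.1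
  obtain ⟨hX1, hX2, hX3⟩ := hXb.1
  obtain ⟨hY1, hY2, hY3⟩ := hYb.1
  have hXp : (X.take D.p0).length = D.p0 := by rw [List.length_take]; omega
  obtain ⟨I, hI1, hI2⟩ := D.ec (X.take D.p0) v hXp
  obtain ⟨Sp, hSp1, hSp2⟩ := hsp X hX Y hY
  obtain ⟨k, hkI, hkS⟩ : ∃ k ∈ I, k ∉ Sp := by
    by_contra hcon
    push Not at hcon
    have := Finset.card_le_card (show I ⊆ Sp from hcon)
    omega
  obtain ⟨hkK, hk1, hk2⟩ := hI2 k hkI
  have hcp := D.hcp k hkK
  have htk : (X.take D.p0).take (D.c k) = X.take (D.c k) := by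
    rw [List.take_take, Nat.min_eq_left hcp]
  rw [htk] at hk1
  have hPl : (X.take (D.c k)).length = D.c k := by rw [List.length_take]; omega
  refine ⟨X.take (D.c k), X.drop (D.c k) ++ Y, ?_, ⟨k, hkK, hPl, hk1⟩, ?_⟩
  · rw [← List.append_assoc, List.take_append_drop]
  intro x P' hP'
  obtain ⟨k', hk'K, hk'l, hk'v⟩ := hP'
  have hcp' := D.hcp k' hk'K
  have hXPQ : X.take (D.c k) ++ X.drop (D.c k) = X := List.take_append_drop _ _
  have hQxl : (X.drop (D.c k)).length = X.length - D.c k := List.length_drop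
  by_cases hkk : k' = k
  · left
    subst hkk
    have hX'l : (P' ++ X.drop (D.c k')).length = X.length := by
      rw [List.length_append, hk'l, hQxl]; omega
    have htr : ∀ t, D.c k' + D.n ≤ t → t ≤ X.length →
        (D.Wo (X.take t) ↔ D.Wo ((P' ++ X.drop (D.c k')).take t)) := by
      intro t h1 h2
      have h3 := D.tl (X.take (D.c k')) P' (X.drop (D.c k')) (t - D.c k') (by omega)
        (by rw [hQxl]; omega)
      rw [hXPQ, hPl, hk'l] at h3
      have e1 : D.c k' + (t - D.c k') = t := by omega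
      rwa [e1] at h3
    have hX'C : P' ++ X.drop (D.c k') ∈ D.C := by
      refine ⟨by rw [hX'l]; exact hX1, ?_, ?_⟩
      · have h1 := htr X.length (by omega) le_rfl
        rw [List.take_length] at h1
        have e2 : (P' ++ X.drop (D.c k')).take X.length = P' ++ X.drop (D.c k') := by
          rw [← hX'l, List.take_length]
        rw [e2] at h1
        exact h1.1 hX2
      · intro t h1 h2 hw
        rw [hX'l] at h2
        exact hX3 t h1 h2 ((htr t (by omega) h2.le).2 hw)
    have hX'B : P' ++ X.drop (D.c k') ∈ D.Bad := by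
      refine ⟨hX'C, ?_⟩
      rcases hXb.2 with ⟨t, h1, h2, h3, h4⟩ | h
      · left
        exact ⟨t, by rw [hX'l]; exact h1, h2, h3, (htr t (by omega) h1).1 h4⟩
      · right
        rw [hX'l]; exact h
    refine ⟨P' ++ X.drop (D.c k'), hX'B, Y, hY, by rw [List.append_assoc], ?_⟩
    congr 1
    -- the exact gadget
    obtain ⟨bb, hbb⟩ := Option.isSome_iff_exists.1 hk2
    have hq : (X.take D.p0).drop (D.c k') = (X.drop (D.c k')).take (D.p0 - D.c k') := by
      rw [List.drop_take]
    have s1 := D.es k' hkK (X.take (D.c k')) _ v bb hPl hk1 hbb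
    have s2 := D.es k' hkK P' _ x bb hk'l hk'v hbb
    have e1 : X.take (D.c k') ++ (X.take D.p0).drop (D.c k') = X.take D.p0 := by
      rw [← htk, List.take_append_drop]
    have e2 : P' ++ (X.take D.p0).drop (D.c k') = (P' ++ X.drop (D.c k')).take D.p0 := by
      have e3 : D.p0 = P'.length + (D.p0 - D.c k') := by omega
      have e4 := take_app P' (X.drop (D.c k')) (D.p0 - D.c k')
      rw [← e3] at e4
      rw [e4, hq]
    have e5 : (P' ++ X.drop (D.c k')).drop D.p0 = X.drop D.p0 := by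
      rw [List.drop_append, List.drop_eq_nil_of_le (as := P') (by omega), List.nil_append,
        List.drop_drop, hk'l]
      congr 1
      omega
    rw [e1] at s1
    rw [e2] at s2
    rw [D.T_form x, D.T_form v, e5, ← s1, ← s2]
  · right
    -- the block of the candidate
    have hU'l : (P' ++ (X.drop (D.c k) ++ Y)).length = D.c k' + (X.length - D.c k) + Y.length := by
      rw [List.length_append, List.length_append, hk'l, hQxl]; omega
    have hex : ∃ t, D.z ≤ t ∧ t ≤ (P' ++ (X.drop (D.c k) ++ Y)).length ∧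
        D.Wo ((P' ++ (X.drop (D.c k) ++ Y)).take t) := by
      refine ⟨_, by rw [hU'l]; omega, le_rfl, ?_⟩
      rw [List.take_length, ← List.append_assoc]
      exact (D.wloc _ Y (by omega)).2 hY2
    let t' := Nat.find hex
    obtain ⟨ht1, ht2, ht3⟩ := Nat.find_spec hex
    have htmin : ∀ t, D.z ≤ t → t < t' → ¬ D.Wo ((P' ++ (X.drop (D.c k) ++ Y)).take t) := by
      intro t h1 h2 h3
      exact Nat.find_min hex h2 ⟨h1, by
        have : t' ≤ _ := ht2
        omega, h3⟩
    have hX'l : ((P' ++ (X.drop (D.c k) ++ Y)).take t').length = t' := by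
      rw [List.length_take]; exact Nat.min_eq_left ht2
    have hX'C : (P' ++ (X.drop (D.c k) ++ Y)).take t' ∈ D.C := by
      refine ⟨by rw [hX'l]; exact ht1, ht3, ?_⟩
      intro t h1 h2
      rw [hX'l] at h2
      rw [List.take_take, Nat.min_eq_left h2.le]
      exact htmin t h1 h2
    refine ⟨_, hX'C, ?_, List.take_prefix _ _⟩
    intro hbad
    apply hkS
    apply hSp2 k hkK k' hk'K hkk
    -- transfer
    have hUeq : X.take (D.c k) ++ (X.drop (D.c k) ++ Y) = X ++ Y := by
      rw [← List.append_assoc, List.take_append_drop]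
    have hQl : (X.drop (D.c k) ++ Y).length = X.length - D.c k + Y.length := by
      rw [List.length_append, hQxl]
    have htr : ∀ j, D.n ≤ j → j ≤ (X.drop (D.c k) ++ Y).length →
        (D.Wo ((X ++ Y).take (D.c k + j)) ↔
          D.Wo ((P' ++ (X.drop (D.c k) ++ Y)).take (D.c k' + j))) := by
      intro j h1 h2
      have h3 := D.tl (X.take (D.c k)) P' (X.drop (D.c k) ++ Y) j h1 h2
      rwa [hUeq, hPl, hk'l] at h3
    have hUl : (X ++ Y).length = X.length + Y.length := List.length_append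
    have ht2' : t' ≤ D.c k' + (X.length - D.c k) + Y.length := by rw [← hU'l]; exact ht2
    rcases hbad.2 with ⟨t, h1, h2, h3, h4⟩ | h
    · left
      rw [hX'l] at h1
      rw [List.take_take, Nat.min_eq_left h1] at h4
      refine ⟨D.c k + (t - D.c k'), ⟨by omega, by rw [hUl]; omega, ?_⟩, by omega, by omega⟩
      apply (htr (t - D.c k') (by omega) (by rw [hQl]; omega)).2
      have e1 : D.c k' + (t - D.c k') = t := by omega
      rw [e1]; exact h4
    · right
      rw [hX'l] at h
      have ht1' : D.z ≤ t' := ht1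
      refine ⟨D.c k + (t' - D.c k'), ⟨by omega, by rw [hUl]; omega, ?_⟩, by omega, ?_, ?_⟩
      · apply (htr (t' - D.c k') (by omega) (by rw [hQl]; omega)).2
        have e1 : D.c k' + (t' - D.c k') = t' := by omega
        rw [e1]; exact ht3
      · intro t1 h5 h6
        by_contra hcon
        obtain ⟨h7, h8, h9⟩ := h6
        rw [hUl] at h8
        have h10 := (htr (t1 - D.c k) (by omega) (by rw [hQl]; omega)).1 (by
          have e1 : D.c k + (t1 - D.c k) = t1 := by omega
          rw [e1]; exact h9)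
        exact htmin (D.c k' + (t1 - D.c k)) (by omega) (by omega) h10
      · have e1 : D.c k + (t' - D.c k') + D.c k' - D.c k - D.p0 = t' - D.p0 := by omega
        rw [e1]; exact h

end Dat

end Crest.Agent.R320.Inst_374
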