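import Mathlib

/-! Row 320: spoil count for the natural chain rule (helper852). -/

set_option autoImplicit false

namespace Crest.Agent.R320.SpoilJ_852

open Finset

/-- `BadC` of Inst_374, unfolded -/
def BadC (BadT : ℕ → Prop) (z p0 N1 : ℕ) (c : ℕ → ℕ) (wl : ℕ → Prop) (k k' : ℕ) : Prop :=
  (∃ t, wl t ∧ z + c k ≤ t + N1 + c k' ∧ t + c k' < z + N1 + c k) ∨
  (∃ t, wl t ∧ z + c k ≤ t + c k' ∧ (∀ t1 < t, wl t1 → t1 + c k' < z + c k) ∧
    BadT (t + c k' - c k - p0))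

open Classical in
theorem spoil (BadT : ℕ → Prop) (z p0 N1 K C0 W : ℕ) (c : ℕ → ℕ) (wl : ℕ → Prop)
    (hgap : ∀ s t, s < t → wl s → wl t → W < t - s)
    (hW : 2 * p0 + 2 * N1 ≤ W) (hz : p0 + p0 + N1 ≤ z)
    (hc : ∀ k < K, c k ≤ p0)
    (hres : ∀ a b' a2 b2 : ℕ, a < K → b' < K → a2 < K → b2 < K → a ≠ b' →
        |((c a : ℤ) - c b') - ((c a2 : ℤ) - c b2)| ≤ 2 * (N1 : ℤ) → a = a2 ∧ b' = b2)
    (hcnt : ∀ T : ℤ, (((range K) ×ˢ (range K)).filter (fun p : ℕ × ℕ => p.1 ≠ p.2 ∧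
        ∃ n : ℕ, (n : ℤ) = T - ((c p.1 : ℤ) - c p.2) ∧ BadT n)).card ≤ C0) :
    ∃ Sp : Finset ℕ, Sp.card < 2 + 2 * C0 ∧
      ∀ k < K, ∀ k' < K, k' ≠ k → BadC BadT z p0 N1 c wl k k' → k ∈ Sp := by
  set E1 := ((range K) ×ˢ (range K)).filter (fun p : ℕ × ℕ => p.1 ≠ p.2 ∧
    ∃ t, wl t ∧ z + c p.1 ≤ t + N1 + c p.2 ∧ t + c p.2 < z + N1 + c p.1) with hE1
  let F : ℤ → Finset (ℕ × ℕ) := fun T => ((range K) ×ˢ (range K)).filter (fun p : ℕ × ℕ =>
    p.1 ≠ p.2 ∧ ∃ n : ℕ, (n : ℤ) = T - ((c p.1 : ℤ) - c p.2) ∧ BadT n)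
  set t1 := sInf {t | wl t ∧ z ≤ t + p0} with ht1
  set t2 := sInf {t | wl t ∧ t1 < t} with ht2
  have hE1c : E1.card ≤ 1 := by
    rw [Finset.card_le_one]
    rintro ⟨a, b⟩ hab ⟨a2, b2⟩ hab2
    rw [hE1, mem_filter, mem_product, mem_range, mem_range] at hab hab2
    simp only at hab hab2
    obtain ⟨⟨ha, hb⟩, hne, t, hwt, h1, h2⟩ := hab
    obtain ⟨⟨ha2, hb2⟩, hne2, t', hwt', h1', h2'⟩ := hab2
    have ca := hc a ha
    have cb := hc b hb
    have ca2 := hc a2 ha2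
    have cb2 := hc b2 hb2
    have htt : t = t' := by
      rcases lt_trichotomy t t' with h | h | h
      · have := hgap _ _ h hwt hwt'; omega
      · exact h
      · have := hgap _ _ h hwt' hwt; omega
    subst htt
    have := hres a b a2 b2 ha hb ha2 hb2 hne (by
      rw [abs_le]; constructor <;> omega)
    rw [this.1, this.2]
  refine ⟨(E1 ∪ (F ((t1 : ℤ) - p0) ∪ F ((t2 : ℤ) - p0))).image Prod.fst, ?_, ?_⟩
  · refine lt_of_le_of_lt Finset.card_image_le ?_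
    refine lt_of_le_of_lt (Finset.card_union_le _ _) ?_
    have h1 := Finset.card_union_le (F ((t1 : ℤ) - p0)) (F ((t2 : ℤ) - p0))
    have h2 := hcnt ((t1 : ℤ) - p0)
    have h3 := hcnt ((t2 : ℤ) - p0)
    have h2' : (F ((t1 : ℤ) - p0)).card ≤ C0 := h2
    have h3' : (F ((t2 : ℤ) - p0)).card ≤ C0 := h3
    omega
  · intro k hk k' hk' hne hbad
    rw [mem_image]
    refine ⟨(k, k'), ?_, rfl⟩
    have ck := hc k hk
    have ck' := hc k' hk'
    rw [mem_union, mem_union]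
    rcases hbad with ⟨t, hwt, h1, h2⟩ | ⟨t, hwt, h1, h2, h3⟩
    · left
      rw [hE1, mem_filter, mem_product, mem_range, mem_range]
      exact ⟨⟨hk, hk'⟩, Ne.symm hne, t, hwt, h1, h2⟩
    · right
      have key : t = t1 ∨ t = t2 := by
        have hmem : t ∈ {t | wl t ∧ z ≤ t + p0} := ⟨hwt, by omega⟩
        have hm1 : t1 ∈ {t | wl t ∧ z ≤ t + p0} := Nat.sInf_mem ⟨t, hmem⟩
        have hle1 : t1 ≤ t := Nat.sInf_le hmem
        by_cases he : t = t1
        · exact Or.inl he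
        · right
          have hlt : t1 < t := by omega
          have hmem2 : t ∈ {t | wl t ∧ t1 < t} := ⟨hwt, hlt⟩
          have hm2 : t2 ∈ {t | wl t ∧ t1 < t} := Nat.sInf_mem ⟨t, hmem2⟩
          have hle2 : t2 ≤ t := Nat.sInf_le hmem2
          by_contra hne2
          have hlt2 : t2 < t := by omega
          have h4 := h2 t2 hlt2 hm2.1
          have h5 := hgap t1 t2 hm2.2 hm1.1 hm2.1
          have h6 := hm1.2
          omega
      have hFt : ∀ t', t = t' → (k, k') ∈ F ((t' : ℤ) - p0) := by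
        rintro t' rfl
        simp only [F]
        rw [mem_filter, mem_product, mem_range, mem_range]
        refine ⟨⟨hk, hk'⟩, Ne.symm hne, t + c k' - c k - p0, ?_, h3⟩
        simp only
        omega
      rcases key with h | h
      · exact Or.inl (hFt t1 h)
      · exact Or.inr (hFt t2 h)

end Crest.Agent.R320.SpoilJ_852
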