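import Crest.Agent.R320.Top5_120
import Crest.Agent.R320.Inst_374
import Crest.Agent.R320.DigRuler_258
import Crest.Agent.R320.ExactR_237
import Crest.Agent.R320.Fib_81
import Crest.Agent.R320.G1_852
import Crest.Agent.R320.SpoilJ_852
import Crest.Agent.R320.BddReg_746

/-! # Row 320: the join (helper852) -/

set_option autoImplicit false

namespace Crest.Agent.R320.Fin_852

open Crest.RegLang Crest.Agent.R320.Hk_851 Crest.Agent.R320.Blk467
open Crest.Agent.R320

/-- digits and divisors only depend on the length modulo `M * b ^ m` -/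
theorem badT_congr {Ms : Finset ℕ} {M b m : ℕ} (hMs : ∀ k ∈ Ms, k ∣ M) {n n' : ℕ}
    (h : n % (M * b ^ m) = n' % (M * b ^ m)) :
    DigRuler_258.BadT Ms M b m n ↔ DigRuler_258.BadT Ms M b m n' := by
  have h1 : n ≡ n' [MOD M * b ^ m] := h
  have hM : n ≡ n' [MOD M] := Nat.ModEq.of_mul_right _ h1
  have hB : n ≡ n' [MOD b ^ m] := Nat.ModEq.of_mul_left _ h1
  have hk : ∀ k ∈ Ms, (k ∣ n ↔ k ∣ n') := by
    intro k hk
    have : n % k = n' % k := hM.of_dvd (hMs k hk)
    rw [Nat.dvd_iff_mod_eq_zero, Nat.dvd_iff_mod_eq_zero, this]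
  have hd : ∀ j < m, n / b ^ j % b = n' / b ^ j % b := by
    intro j hj
    have h3 : n % b ^ (j + 1) = n' % b ^ (j + 1) := hB.of_dvd (pow_dvd_pow b hj)
    have h4 : ∀ n : ℕ, n / b ^ j % b = n % b ^ (j + 1) / b ^ j := by
      intro n
      rw [pow_succ, Nat.mod_mul_right_div_self]
    rw [h4, h4, h3]
  unfold DigRuler_258.BadT
  constructor
  · rintro (⟨k, hkM, h⟩ | ⟨j, hj, h⟩)
    · exact Or.inl ⟨k, hkM, (hk k hkM).1 h⟩
    · exact Or.inr ⟨j, hj, by rw [← hd j hj]; exact h⟩
  · rintro (⟨k, hkM, h⟩ | ⟨j, hj, h⟩)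
    · exact Or.inl ⟨k, hkM, (hk k hkM).2 h⟩
    · exact Or.inr ⟨j, hj, by rw [hd j hj]; exact h⟩

theorem fin (α : Type) [Finite α] (S : Type) [Monoid S] [Finite S] (φ : α → S) (s : S) :
    HL 3 ({w | (w.map φ).prod = s} : Language α) := by
  classical
  have _ : Fintype S := Fintype.ofFinite S
  obtain ⟨act, hadd, hone, hmul, hfaith⟩ := exists_module S
  obtain ⟨m, r, hG⟩ := G1_852.gadget act
  obtain ⟨K, hK⟩ := ExactR_237.exact_gadget α S (S → ZMod 2) φ act (2 + 2 * (r + m))
  obtain ⟨Ms, M, hcard, hMs, hM, hG⟩ := hG (2 ^ (K + 1))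
  set b := 2 ^ (K + 5) * M + 1 with hb
  have hb0 : 0 < b := by omega
  have hcop : Nat.Coprime b M := by
    rw [hb]
    exact (Nat.coprime_mul_right_add_left 1 M (2 ^ (K + 5))).2 (Nat.coprime_one_left M)
  obtain ⟨lam, rho, nu1, hlen, hsound, hcompl, hkey⟩ := hG b hb0 hcop α φ
  set N1 := b ^ m with hN1
  obtain ⟨c, hcm, hres, hcnt⟩ := DigRuler_258.dig_ruler K m M b N1 Ms hM
    (fun k hk => ⟨(hMs k hk).1, Nat.Coprime.coprime_dvd_left (hMs k hk).2.2 hcop.symm⟩) (by omega)
  obtain ⟨lam2, rho2, nu2, he1, he2⟩ := hK c (fun i j hij _ => hcm hij)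
  set p0 := c K with hp0
  have hcp : ∀ k < K, c k ≤ p0 := fun k hk => (hcm hk).le
  obtain ⟨n, G, B, Wo, hLW, hgap, -, -, hfree⟩ :=
    LWallAll_922.walls_all_left α (2 * p0 + 2 * N1 + 1) (by omega)
  set z := 2 * p0 + 2 * N1 + n + 1 with hz
  let D : Inst_374.Dat α S (S → ZMod 2) :=
    { act := act, hadd := hadd, hmul := hmul, φ := φ, Wo := Wo, n := n, z := z, p0 := p0,
      N1 := N1, wloc := hLW.app, lam := lam, rho := rho, nu1 := nu1,
      BadT := DigRuler_258.BadT Ms M b m
      lamlen := hlen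
      gs := hsound
      gc := by
        intro X hX v
        unfold DigRuler_258.BadT at hX
        push Not at hX
        obtain ⟨P, Q, h1, h2, v', h3⟩ := hcompl X hX.1 (fun j hj => ⟨(hX.2 j hj).1, by
          have := (hX.2 j hj).2; omega⟩) v
        exact ⟨P, Q, h1.symm, h2, by rw [h3]; rfl⟩
      K := K, R := 2 + 2 * (r + m), c := c, hcp := hcp
      lam2 := lam2, rho2 := fun k Q => rho2 k Q 1, nu2 := fun u => nu2 u 1
      es := by
        intro k hk P Q v b' h1 h2 h3
        have := he1 k hk P Q 1 v b' h1 h2 h3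
        rw [mul_one] at this
        exact this
      ec := by
        intro u v hu
        exact he2 u 1 v (fun k hk => by rw [hu]; exact hcp k hk)
      hz := by omega
      zpos := by omega }
  have hDC : D.C = Fib_81.XX Wo z := rfl
  have hzpos : 0 < z := by omega
  have hPC : PCode D.C := Fib_81.XX_pcode hzpos
  have hBC : D.Bad ⊆ D.C := fun X hX => hX.1
  have hf1 : ∀ v, (D.L1 v).Finite := by
    intro v
    refine (List.finite_length_lt α (p0 + N1)).subset ?_
    rintro P ⟨h1, h2⟩
    have := hlen _ _ h2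
    rw [List.length_drop] at this
    show P.length < p0 + N1
    have h1' : p0 ≤ P.length := h1
    have h3 : P.length - p0 < N1 := this
    omega
  have hf2 : ∀ v, (D.L2 v).Finite := by
    intro v
    refine (List.finite_length_lt α (p0 + 1)).subset ?_
    rintro P ⟨k, hk, h1, h2⟩
    show P.length < p0 + 1
    have h1' : P.length = c k := h1
    have h2' := hcp k hk
    omega
  -- the key
  set KK := z + N1 + p0 with hKK
  set ee := M * b ^ m with hee
  have hee0 : 0 < ee := by positivity
  have hkeyX : ∀ X Y : List α, z ≤ X.length → z ≤ Y.length → X.take KK = Y.take KK →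
      ((X.drop KK).map φ).prod = ((Y.drop KK).map φ).prod → X.length % ee = Y.length % ee →
      (X.map φ).prod = (Y.map φ).prod ∧ D.nu X = D.nu Y ∧
        (X.length - p0) % ee = (Y.length - p0) % ee := by
    intro X Y hX hY h1 h2 h3
    have hdropt : ∀ t, t ≤ KK → ((X.drop t).map φ).prod = ((Y.drop t).map φ).prod := by
      intro t ht
      have h4 : ∀ R : List α, R.drop t = (R.take KK).drop t ++ R.drop KK := by
        intro R
        conv_lhs => rw [← List.take_append_drop KK R]
        by_cases hR : KK ≤ R.length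
        · rw [List.drop_append_of_le_length (by rw [List.length_take]; omega)]
        · have : R.drop KK = [] := List.drop_eq_nil_of_le (by omega)
          rw [this]; simp
      rw [h4 X, h4 Y, List.map_append, List.map_append, List.prod_append, List.prod_append, h1, h2]
    have hp : (X.length - p0) % ee = (Y.length - p0) % ee := by
      have h5 : (X.length - p0) + p0 ≡ (Y.length - p0) + p0 [MOD ee] := by
        have e1 : X.length - p0 + p0 = X.length := by omega
        have e2 : Y.length - p0 + p0 = Y.length := by omega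
        rw [e1, e2]; exact h3
      exact Nat.ModEq.add_right_cancel' _ h5
    refine ⟨by simpa using hdropt 0 (Nat.zero_le _), ?_, hp⟩
    have e1 : X.take p0 = Y.take p0 := by
      have := congrArg (fun l => l.take p0) h1
      simpa [List.take_take, min_eq_left (show p0 ≤ KK by omega)] using this
    have e2 : nu1 (X.drop p0) = nu1 (Y.drop p0) := by
      refine (hkey (X.drop p0) (Y.drop p0) ?_ ?_ ?_).2
      · have h6 : ∀ R : List α, (R.drop p0).take (b ^ m) = ((R.take KK).drop p0).take (b ^ m) := by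
          intro R
          rw [List.drop_take, List.take_take, min_eq_left (by omega)]
        rw [h6 X, h6 Y, h1]
      · simp only [G1_852.pr]
        rw [List.drop_drop, List.drop_drop]
        exact hdropt _ (by omega)
      · rw [List.length_drop, List.length_drop]; exact hp
    show act (nu2 (X.take p0) 1) ((X.drop p0).map φ).prod + nu1 (X.drop p0) =
      act (nu2 (Y.take p0) 1) ((Y.drop p0).map φ).prod + nu1 (Y.drop p0)
    rw [e1, e2, hdropt p0 (by omega)]
  have hCT : ∀ x y, HL 1 ({X | X ∈ D.C ∧ act x (X.map φ).prod + D.nu X = y} : Language α) := by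
    intro x y
    refine Fib_81.HL_blocks φ (W := 2 * p0 + 2 * N1 + 1) (B := B) KK ee hee0 hLW hfree _
      (fun X hX => hX.1) ?_
    intro X hX Y hY h1 h2 h3 hXL
    obtain ⟨q1, q2, -⟩ := hkeyX X Y hX.1 hY.1 h1 h2 h3
    refine ⟨hY, ?_⟩
    rw [← q1, ← q2]
    exact hXL.2
  have hBT : ∀ x y, HL 1 ({X | X ∈ D.Bad ∧ act x (X.map φ).prod + D.nu X = y} : Language α) := by
    intro x y
    refine Fib_81.HL_blocks φ (W := 2 * p0 + 2 * N1 + 1) (B := B) KK ee hee0 hLW hfree _
      (fun X hX => hX.1.1) ?_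
    intro X hX Y hY h1 h2 h3 hXL
    obtain ⟨q1, q2, q3⟩ := hkeyX X Y hX.1 hY.1 h1 h2 h3
    refine ⟨⟨hY, ?_⟩, ?_⟩
    · rcases hXL.1.2 with ⟨t, ht, h4, h5, h6⟩ | h4
      · left
        have h5' : t < z + N1 := h5
        have htk : t < KK ∨ t = KK := by omega
        have e1 : X.take t = Y.take t := by
          have := congrArg (fun l => l.take t) h1
          simpa [List.take_take, min_eq_left (show t ≤ KK by omega)] using this
        refine ⟨t, ?_, h4, h5, ?_⟩
        · have := congrArg List.length e1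
          rw [List.length_take, List.length_take] at this
          omega
        · rw [← e1]; exact h6
      · right
        exact (badT_congr (fun k hk => (hMs k hk).2.2) q3).1 h4
    · rw [← q1, ← q2]
      exact hXL.2
  refine Top5_120.top5 act hadd hone hmul hfaith φ D.nu D.C D.Bad hPC hBC D.L1 D.L2 hf1 hf2
    hCT hBT (fun s => Fib_81.HL_tail_prod φ hLW hfree s) ?_ ?_ s
  · intro X hX hXb v
    obtain ⟨P, Q, h1, h2, h3⟩ := D.hcc1 X hX hXb v
    exact ⟨P, Q, h1, h2, h3⟩
  · intro X hX Y hY v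
    refine D.hcc2 ?_ X hX Y hY v
    intro X _ Y _
    have hgapwl : ∀ s t, s < t → D.wl (X ++ Y) s → D.wl (X ++ Y) t →
        2 * p0 + 2 * N1 + 1 < t - s := by
      rintro s t hst ⟨_, _, h1⟩ ⟨_, h2, h3⟩
      exact hgap _ s t hst h2 h1 h3
    obtain ⟨Sp, h1, h2⟩ := SpoilJ_852.spoil (DigRuler_258.BadT Ms M b m) z p0 N1 K (r + m)
      (2 * p0 + 2 * N1 + 1) c (D.wl (X ++ Y)) hgapwl (by omega) (by omega) hcp hres
      (fun T => (hcnt T).trans (by omega))
    exact ⟨Sp, h1, fun k hk k' hk' hne hbad => h2 k hk k' hk' hne hbad⟩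

/-- row 320 for alphabets in `Type` -/
theorem row0 (α : Type) [Finite α] (L : Language α) (hL : L.IsRegular) :
    ∃ e : Crest.RegLang.GRegExp α, e.height ≤ 3 ∧ e.lang = L := by
  obtain ⟨S, _, _, φ, F, hF⟩ := BddReg_746.exists_monoid hL
  have h := HL.biUnion (k := 3) (Set.toFinite F)
    (L := fun s => ({w | (w.map φ).prod = s} : Language α)) (fun s _ => fin α S φ s)
  refine h.congr fun w => ?_
  rw [hF]
  exact ⟨fun h => ⟨_, h, rfl⟩, fun ⟨s, hs, hw⟩ => by
    have hw' : (w.map φ).prod = s := hw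
    rw [hw']; exact hs⟩

end Crest.Agent.R320.Fin_852
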