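import Crest.Agent.R320.Top5_120
import Crest.Agent.R320.Joint_854
import Crest.Agent.R320.Grid_390
import Crest.Agent.R320.Thin_963
import Crest.Agent.R320.LWallAll_922
import Crest.Agent.R320.Fib_854
import Crest.Agent.R320.Univ_188

/-!
# Row 320: constants and join (helper854)

`fin` : every fibre of `w ↦ ∏ φ(w_i)` (finite monoid, finite alphabet, universe 0) has star height
at most 3.
-/

set_option autoImplicit false

namespace Crest.Agent.R320.Fin_854

open Crest.RegLang Crest.Agent.R320.Hk_851 Crest.Agent.R320.Grid_390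
open Crest.Agent.R320.ExactR_237 (pr_append)

/-- bad totals of the grid gadget -/
def BT {k : ℕ} (q : Fin k → ℕ) (κ m : ℕ) (n : ℕ) : Prop :=
  ¬ ((∀ j, ¬ q j ∣ n) ∧ ∀ j, 1 ≤ j → j ≤ m →
    (∏ j, q j) * G κ (j - 1) ≤ (n - Am (∏ j, q j) κ j) % G κ j ∧
    (n - Am (∏ j, q j) κ j) % G κ j + (∏ j, q j) * G κ (j - 1) ≤ G κ j)

/-- bad totals, above the zone of the left words -/
def BT' {k : ℕ} (q : Fin k → ℕ) (κ m : ℕ) (n : ℕ) : Prop :=
  Am (∏ j, q j) κ m ≤ n ∧ BT q κ m n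

theorem BT_thin {k : ℕ} (q : Fin k → ℕ) (κ m n : ℕ) (hn : Am (∏ j, q j) κ m ≤ n)
    (h : BT q κ m n) :
    Thin963.BadT (Finset.univ.image q) m (fun i => (G κ i : ℤ))
      (fun i => ((∏ j, q j) * G κ i : ℕ)) (fun i => (Am (∏ j, q j) κ i : ℤ)) (n : ℤ) := by
  classical
  by_cases h1 : ∀ j, ¬ q j ∣ n
  · right
    have h2 : ¬ ∀ j, 1 ≤ j → j ≤ m →
      (∏ j, q j) * G κ (j - 1) ≤ (n - Am (∏ j, q j) κ j) % G κ j ∧
      (n - Am (∏ j, q j) κ j) % G κ j + (∏ j, q j) * G κ (j - 1) ≤ G κ j :=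
      fun h3 => h ⟨h1, h3⟩
    push Not at h2
    obtain ⟨j, hj1, hjm, hj⟩ := h2
    obtain ⟨i, rfl⟩ : ∃ i, j = i + 1 := ⟨j - 1, by omega⟩
    have hA : Am (∏ j, q j) κ (i + 1) ≤ n := (Am_mono hjm).trans hn
    have hGp : 0 < G κ (i + 1) := G_pos _
    set r := (n - Am (∏ j, q j) κ (i + 1)) % G κ (i + 1) with hr
    have hrlt : r < G κ (i + 1) := Nat.mod_lt _ hGp
    have hdiv : G κ (i + 1) * ((n - Am (∏ j, q j) κ (i + 1)) / G κ (i + 1)) + r =
      n - Am (∏ j, q j) κ (i + 1) := Nat.div_add_mod _ _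
    set d := (n - Am (∏ j, q j) κ (i + 1)) / G κ (i + 1) with hd
    have hz : (n : ℤ) - Am (∏ j, q j) κ (i + 1) = G κ (i + 1) * d + r := by
      have : (n : ℤ) = (Am (∏ j, q j) κ (i + 1) : ℤ) + (G κ (i + 1) * d + r : ℕ) := by
        rw [hdiv]; push_cast [hA]; ring
      rw [this]; push_cast; ring
    simp only [Nat.add_sub_cancel] at hj
    by_cases hc : (∏ j, q j) * G κ i ≤ r
    · have hj' := hj hc
      refine ⟨i, by omega, (G κ (i + 1) : ℤ) - r, ?_, ?_⟩
      · rw [abs_of_nonneg (by have : (r : ℤ) < G κ (i + 1) := by exact_mod_cast hrlt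
                              linarith)]
        have : (G κ (i + 1) : ℤ) < r + ((∏ j, q j) * G κ i : ℕ) := by exact_mod_cast hj'
        linarith
      · refine ⟨(d : ℤ) + 1, ?_⟩
        simp only
        rw [hz]; ring
    · refine ⟨i, by omega, -(r : ℤ), ?_, ?_⟩
      · rw [abs_neg, abs_of_nonneg (by positivity)]
        have : (r : ℤ) < ((∏ j, q j) * G κ i : ℕ) := by exact_mod_cast (not_le.1 hc)
        exact this.le
      · refine ⟨(d : ℤ), ?_⟩
        simp only
        rw [hz]; ring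
  · left
    push Not at h1
    obtain ⟨j, hj⟩ := h1
    exact ⟨q j, Finset.mem_image_of_mem _ (Finset.mem_univ _), by exact_mod_cast hj⟩

/-- `BT` depends only on the residue mod `(∏ q) * G m` -/
theorem BT_periodic {k : ℕ} (q : Fin k → ℕ) (κ m n n' : ℕ) (hn : Am (∏ j, q j) κ m ≤ n)
    (hn' : Am (∏ j, q j) κ m ≤ n')
    (h : n % ((∏ j, q j) * G κ m) = n' % ((∏ j, q j) * G κ m)) :
    BT q κ m n ↔ BT q κ m n' := by
  have h1 : ∀ j, (q j ∣ n ↔ q j ∣ n') := by
    intro j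
    have hd : q j ∣ (∏ j, q j) * G κ m :=
      (Finset.dvd_prod_of_mem _ (Finset.mem_univ j)).mul_right _
    exact Nat.ModEq.dvd_iff h hd
  have h2 : ∀ j, j ≤ m → (n - Am (∏ j, q j) κ j) % G κ j = (n' - Am (∏ j, q j) κ j) % G κ j := by
    intro j hj
    have hd : G κ j ∣ (∏ j, q j) * G κ m := (G_dvd hj).mul_left _
    have h3 : n ≡ n' [MOD G κ j] := Nat.ModEq.of_dvd hd h
    have ha : Am (∏ j, q j) κ j ≤ Am (∏ j, q j) κ m := Am_mono hj
    have h4 : (n - Am (∏ j, q j) κ j) + Am (∏ j, q j) κ j ≡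
      (n' - Am (∏ j, q j) κ j) + Am (∏ j, q j) κ j [MOD G κ j] := by
      rw [Nat.sub_add_cancel (ha.trans hn), Nat.sub_add_cancel (ha.trans hn')]
      exact h3
    exact Nat.ModEq.add_right_cancel' _ h4
  unfold BT
  rw [not_iff_not]
  constructor
  · rintro ⟨a, b⟩
    refine ⟨fun j hj => a j ((h1 j).2 hj), fun j hj1 hjm => ?_⟩
    rw [← h2 j hjm]; exact b j hj1 hjm
  · rintro ⟨a, b⟩
    refine ⟨fun j hj => a j ((h1 j).1 hj), fun j hj1 hjm => ?_⟩
    rw [h2 j hjm]; exact b j hj1 hjm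

/-- primes for the names -/
theorem exists_primes (k B : ℕ) : ∃ q : Fin k → ℕ, (∀ j, (q j).Prime) ∧ (∀ j, B ≤ q j) ∧
    (∀ j, Odd (q j)) ∧ Pairwise (fun i j => Nat.Coprime (q i) (q j)) := by
  have hmono : StrictMono (Nat.nth Nat.Prime) := Nat.nth_strictMono Nat.infinite_setOf_prime
  refine ⟨fun j => Nat.nth Nat.Prime (B + 3 + j), fun j => Nat.prime_nth_prime _, fun j => ?_,
    fun j => ?_, fun i j hij => ?_⟩
  · have := hmono.le_apply (x := B + 3 + (j : ℕ))
    simp only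
    omega
  · have h1 := hmono.le_apply (x := B + 3 + (j : ℕ))
    exact (Nat.prime_nth_prime _).odd_of_ne_two (by
      intro h
      have h2 : Nat.nth Nat.Prime (B + 3 + (j : ℕ)) = 2 := h
      omega)
  · refine (Nat.coprime_primes (Nat.prime_nth_prime _) (Nat.prime_nth_prime _)).2 ?_
    intro h
    have := hmono.injective h
    exact hij (Fin.ext (by omega))

theorem sum_G (κ : ℕ) (hκ : 1 ≤ κ) (i : ℕ) :
    ∑ j ∈ Finset.range (i + 1), G κ j ≤ 2 * G κ i := by
  induction i with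
  | zero => simp [G]
  | succ i ih =>
    rw [Finset.sum_range_succ]
    have : 2 * G κ i ≤ G κ (i + 1) := by
      unfold G
      rw [← pow_succ']
      exact Nat.pow_le_pow_right (by norm_num) (by rw [Nat.mul_add]; omega)
    omega

/-- thinness in the form used by `Joint_854.complete2` -/
theorem exists_ruler {k : ℕ} (q : Fin k → ℕ) (K m κ : ℕ) (hp : ∀ j, (q j).Prime)
    (hq : ∀ j, 2 ^ (K + 1) ≤ q j) (hodd : ∀ j, Odd (q j))
    (hκ : K + 5 + (∏ j, q j) ≤ κ) (N : ℕ) :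
    ∃ c : ℕ → ℕ, (∀ i j, i < j → c i < c j) ∧
      (∀ i i' j j', i' ≠ i → j' ≠ j →
        c i + c j' < c j + c i' + N → c j + c i' < c i + c j' + N → i = j) ∧
      ∀ T : ℕ, (∀ k', k' < K → c k' ≤ T) →
        ∀ I : Finset ℕ, (∀ a ∈ I, a < K ∧ ∃ b, b < K ∧ b ≠ a ∧ BT' q κ m (T + c b - c a)) →
          I.card ≤ k + m := by
  classical
  set M := ∏ j, q j with hM
  have hMpos : 0 < M := Finset.prod_pos fun j _ => (hp j).pos
  obtain ⟨X, hX1, hX0, hX⟩ := Thin963.thin K m (Finset.univ.image q) (fun i => (G κ i : ℤ))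
    (fun i => (M * G κ i : ℕ)) (fun i => (Am M κ i : ℤ))
    (by
      intro p hp'
      obtain ⟨j, -, rfl⟩ := Finset.mem_image.1 hp'
      exact ⟨hp j, hq j⟩)
    (by
      intro p hp'
      obtain ⟨j, -, rfl⟩ := Finset.mem_image.1 hp'
      rw [Nat.isCoprime_iff_coprime]
      unfold G
      exact Nat.Coprime.pow_right _ ((Nat.coprime_comm.1 (Nat.coprime_two_left.2 (hodd j)))))
    (by exact_mod_cast G_pos m)
    (by
      intro i j hij
      exact_mod_cast G_dvd hij)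
    (by
      intro i
      exact_mod_cast Nat.mul_pos hMpos (G_pos i))
    (by
      intro i
      exact_mod_cast Nat.dvd_mul_left _ _)
    (by
      intro i _
      have h1 : ∑ j ∈ Finset.range (i + 1), M * G κ j ≤ M * (2 * G κ i) := by
        rw [← Finset.mul_sum]
        exact Nat.mul_le_mul_left _ (sum_G κ (by omega) i)
      have h2 : 2 ^ (K + 4) * (M * (2 * G κ i)) ≤ G κ (i + 1) := by
        have h3 : M ≤ 2 ^ M := Nat.lt_two_pow_self.le
        calc 2 ^ (K + 4) * (M * (2 * G κ i)) = (2 ^ (K + 5) * M) * G κ i := by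
              rw [show K + 5 = (K + 4) + 1 from rfl, pow_succ]; ring
          _ ≤ (2 ^ (K + 5) * 2 ^ M) * G κ i :=
              Nat.mul_le_mul_right _ (Nat.mul_le_mul_left _ h3)
          _ = 2 ^ (K + 5 + M) * G κ i := by rw [← pow_add]
          _ ≤ 2 ^ κ * G κ i := Nat.mul_le_mul_right _ (Nat.pow_le_pow_right (by norm_num) hκ)
          _ = G κ (i + 1) := by
              unfold G; rw [← pow_add]; congr 1; ring
      have h4 := (Nat.mul_le_mul_left (2 ^ (K + 4)) h1).trans h2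
      have h5 : ((2 ^ (K + 4) * ∑ j ∈ Finset.range (i + 1), M * G κ j : ℕ) : ℤ) ≤
        (G κ (i + 1) : ℤ) := by exact_mod_cast h4
      push_cast at h5 ⊢
      exact h5)
    (N + 1 : ℤ)
  obtain ⟨x, rfl⟩ := Int.eq_ofNat_of_zero_le hX0.le
  have hx0 : 0 < x := by exact_mod_cast hX0
  have hxN : N + 1 ≤ x := by exact_mod_cast hX1
  refine ⟨fun j => x * 2 ^ j, ?_, ?_, ?_⟩
  · intro i j hij
    exact Nat.mul_lt_mul_of_pos_left (Nat.pow_lt_pow_right (by norm_num) hij) hx0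
  · intro i i' j j' hi hj h1 h2
    simp only at h1 h2
    have key : (2 : ℤ) ^ i - 2 ^ i' = 2 ^ j - 2 ^ j' := by
      by_contra hne
      have h1' : (x : ℤ) * 2 ^ i + x * 2 ^ j' < x * 2 ^ j + x * 2 ^ i' + N := by exact_mod_cast h1
      have h2' : (x : ℤ) * 2 ^ j + x * 2 ^ i' < x * 2 ^ i + x * 2 ^ j' + N := by exact_mod_cast h2
      have hxN' : (N : ℤ) + 1 ≤ x := by exact_mod_cast hxN
      have hN0 : (0 : ℤ) ≤ N := by positivity
      have hx0' : (0 : ℤ) < x := by linarith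
      rcases lt_or_gt_of_ne hne with h | h
      · have h' : (2 : ℤ) ^ i - 2 ^ i' + 1 ≤ 2 ^ j - 2 ^ j' := h
        nlinarith
      · have h' : (2 : ℤ) ^ j - 2 ^ j' + 1 ≤ 2 ^ i - 2 ^ i' := h
        nlinarith
    exact (G369.pow_diff (Ne.symm hi) (Ne.symm hj) key).1
  · intro T hT1 I hI
    have hI' : ∀ a ∈ I, ∃ b, b < K ∧ b ≠ a ∧ BT' q κ m (T + x * 2 ^ b - x * 2 ^ a) :=
      fun a ha => (hI a ha).2
    choose! g hg using hI'
    have hinj : Set.InjOn (fun a => ((g a, a) : ℕ × ℕ)) (I : Set ℕ) := by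
      intro a _ b _ hab
      exact (Prod.ext_iff.1 hab).2
    have hcard : I.card = (I.image fun a => ((g a, a) : ℕ × ℕ)).card :=
      (Finset.card_image_of_injOn hinj).symm
    rw [hcard]
    refine (Finset.card_le_card ?_).trans ((hX (T : ℤ)).trans ?_)
    · intro p hp'
      obtain ⟨a, ha, rfl⟩ := Finset.mem_image.1 hp'
      obtain ⟨hb1, hb2, hb3⟩ := hg a ha
      have haK := (hI a ha).1
      rw [Finset.mem_filter, Finset.mem_product]
      refine ⟨⟨Finset.mem_range.2 hb1, Finset.mem_range.2 haK⟩, hb2, ?_⟩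
      have hca : x * 2 ^ a ≤ T := hT1 a haK
      have := BT_thin q κ m _ hb3.1 hb3.2
      have hcast : ((T + x * 2 ^ (g a) - x * 2 ^ a : ℕ) : ℤ) =
        (T : ℤ) + x * 2 ^ (g a) - x * 2 ^ a := by
        rw [Nat.cast_sub (by omega)]; push_cast; ring
      rw [hcast] at this
      exact this
    · have : (Finset.univ.image q).card ≤ k := by
        have := Finset.card_image_le (s := (Finset.univ : Finset (Fin k))) (f := q)
        simpa using this
      omega

theorem fin_aux (α : Type) [Finite α] [Nonempty α] (S V : Type) [Monoid S] [Fintype S]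
    [AddCommGroup V] [Fintype V] (act : V → S → V)
    (hadd : ∀ a b s, act (a + b) s = act a s + act b s)
    (hone : ∀ v, act v 1 = v) (hmul : ∀ v s t, act v (s * t) = act (act v s) t)
    (hfaith : ∀ s t, (∀ v, act v s = act v t) → s = t) (φ : α → S) (s : S) :
    HL 3 ({w | (w.map φ).prod = s} : Language α) := by
  classical
  obtain ⟨k, m, Hgrid⟩ := grid_gadget S V act
  obtain ⟨K, Hex⟩ := ExactR_237.exact_gadget α S V φ act (2 * (k + m) + 2)
  obtain ⟨q, hqp, hqB, hqo, hqc⟩ := exists_primes k (2 ^ (K + 1))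
  obtain ⟨κ, hκ⟩ : ∃ κ, κ = K + 5 + (∏ j, q j) := ⟨_, rfl⟩
  obtain ⟨lam, rho, nu1, g1, g2, g3, g4, g5⟩ :=
    Hgrid q hqo hqc κ α (ExactR_237.pr φ) (fun u v => pr_append φ u v)
  obtain ⟨N1, hN1⟩ : ∃ N1, N1 = Am (∏ j, q j) κ m := ⟨_, rfl⟩
  obtain ⟨A1, hA1⟩ : ∃ A1, A1 = Am (∏ j, q j) κ (m + 1) := ⟨_, rfl⟩
  have hNA : N1 ≤ A1 := by rw [hN1, hA1]; exact Am_mono (by omega)
  obtain ⟨M, hM⟩ : ∃ M, M = (∏ j, q j) * G κ m := ⟨_, rfl⟩
  have hMpos : 0 < M := by
    rw [hM]; exact Nat.mul_pos (Finset.prod_pos fun j _ => (hqp j).pos) (G_pos m)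
  obtain ⟨c, hc1, hc2, hc3⟩ := exists_ruler q K m κ hqp hqB hqo hκ.ge (2 * N1)
  obtain ⟨lam2, rho2, nu2, e1, e2⟩ := Hex c (fun i j h _ => hc1 i j h)
  obtain ⟨p0, hp0⟩ : ∃ p0, p0 = c K := ⟨_, rfl⟩
  have hcp : ∀ i, i < K → c i ≤ p0 := fun i hi => by rw [hp0]; exact (hc1 i K hi).le
  obtain ⟨n0, -, B, Wo, hLW, hgap, -, -, hfew⟩ :=
    LWallAll_922.walls_all_left α (2 * (N1 + p0) + 1) (by omega)
  obtain ⟨n, hn⟩ : ∃ n, n = max n0 1 := ⟨_, rfl⟩
  have hlen : ∀ X, Wo X → n ≤ X.length := by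
    intro X hX
    rcases Nat.eq_zero_or_pos n0 with h0 | h0
    · exfalso
      have hnil : Wo [] := by
        have := (hLW.app X [] (by omega)).1 (by simpa using hX)
        exact this
      have hW0 : ∀ Q, Wo Q := by
        intro Q
        have := (hLW.app Q [] (by omega)).2 hnil
        simpa using this
      obtain ⟨a⟩ := ‹Nonempty α›
      have := hgap [a] 0 1 (by omega) (by simp) (hW0 _) (hW0 _)
      omega
    · have := hLW.len X hX; omega
  have happ : ∀ P Q : List α, n ≤ Q.length → (Wo (P ++ Q) ↔ Wo Q) :=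
    fun P Q h => hLW.app P Q (by omega)
  have JW : Joint_854.LW n (2 * (N1 + p0) + 1) Wo :=
    ⟨hlen, happ, fun X s t hst ht h1 h2 => by have := hgap X s t hst ht h1 h2; omega⟩
  have hn0 : 0 < n := by omega
  obtain ⟨z, hz⟩ : ∃ z, z = 3 * p0 + n + N1 + 1 + (p0 + 2 * A1) := ⟨_, rfl⟩
  have hfew' : ∀ X : List α, (∀ t, t < X.length → ¬ Wo (X.take t)) → ∃ (u x : List α) (k : ℕ)
      (v : List α), u.length ≤ B + (2 * (N1 + p0) + 1) ∧ x.length ≤ B + (2 * (N1 + p0) + 1) ∧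
      v.length ≤ B + (2 * (N1 + p0) + 1) ∧
      X = u ++ (List.replicate k x).flatten ++ v := by
    intro X hX
    obtain ⟨u, x, v, k, h1, h2, h3, h4⟩ := hfew X hX
    exact ⟨u, x, k, v, by omega, by omega, by omega, h4⟩
  let nu : List α → V := fun X =>
    act (nu2 (X.take p0) 1) (ExactR_237.pr φ (X.drop p0)) + nu1 (X.drop p0)
  have hTeq : ∀ v X, Joint_854.T φ act p0 (fun X => nu2 X 1) nu1 v X =
      act v (X.map φ).prod + nu X := by
    intro v X
    have e : (X.map φ).prod = ExactR_237.pr φ (X.take p0) * ExactR_237.pr φ (X.drop p0) := by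
      rw [← pr_append, List.take_append_drop]; rfl
    unfold Joint_854.T
    rw [hadd, e, hmul, add_assoc]
  have hdep : ∀ X Y : List α, z + N1 + p0 + A1 ≤ X.length → z + N1 + p0 + A1 ≤ Y.length →
      X.take (z + N1 + p0 + A1) = Y.take (z + N1 + p0 + A1) → X.length % M = Y.length % M →
      ((X.drop (z + N1 + p0 + A1)).map φ).prod = ((Y.drop (z + N1 + p0 + A1)).map φ).prod →
      (X.map φ).prod = (Y.map φ).prod ∧ nu X = nu Y ∧
      (Joint_854.Bad Wo z N1 p0 (BT' q κ m) X → Joint_854.Bad Wo z N1 p0 (BT' q κ m) Y) := by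
    intro X Y hX hY h1 h2 h3
    obtain ⟨a1, a2⟩ := Fib_854.key_le φ (show p0 ≤ z + N1 + p0 + A1 by omega) h1 h3
    obtain ⟨b1, b2⟩ := Fib_854.key_le φ (show p0 + A1 ≤ z + N1 + p0 + A1 by omega) h1 h3
    obtain ⟨-, d2⟩ := Fib_854.key_le φ (show 0 ≤ z + N1 + p0 + A1 by omega) h1 h3
    rw [List.drop_zero, List.drop_zero] at d2
    have hlX : (X.drop p0).length = X.length - p0 := List.length_drop
    have hlY : (Y.drop p0).length = Y.length - p0 := List.length_drop
    have hmod : (X.length - p0) % M = (Y.length - p0) % M := by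
      have h4 : (X.length - p0) + p0 ≡ (Y.length - p0) + p0 [MOD M] := by
        rw [Nat.sub_add_cancel (by omega), Nat.sub_add_cancel (by omega)]; exact h2
      exact Nat.ModEq.add_right_cancel' _ h4
    have htk : (X.drop p0).take A1 = (Y.drop p0).take A1 := by
      have t1 : ∀ Z : List α, (Z.drop p0).take A1 = (Z.take (p0 + A1)).drop p0 := by
        intro Z
        rw [List.drop_take, Nat.add_sub_cancel_left]
      rw [t1, t1, b1]
    have hnu1 : nu1 (X.drop p0) = nu1 (Y.drop p0) := by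
      refine (g5 (X.drop p0) (Y.drop p0) ?_ ?_ ?_ ?_ ?_).2
      · rw [hlX, ← hA1]; omega
      · rw [hlY, ← hA1]; omega
      · rw [← hA1]; exact htk
      · rw [hlX, hlY, ← hM]; exact hmod
      · rw [← hA1, List.drop_drop, List.drop_drop]; exact b2
    refine ⟨d2, ?_, ?_⟩
    · change act (nu2 (X.take p0) 1) (ExactR_237.pr φ (X.drop p0)) + nu1 (X.drop p0) =
        act (nu2 (Y.take p0) 1) (ExactR_237.pr φ (Y.drop p0)) + nu1 (Y.drop p0)
      have a2' : ExactR_237.pr φ (X.drop p0) = ExactR_237.pr φ (Y.drop p0) := a2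
      rw [a1, a2', hnu1]
    · rintro (⟨t, t1, t2, t3, t4⟩ | ⟨t1, t2⟩)
      · left
        refine ⟨t, t1, t2, by omega, ?_⟩
        rw [← (Fib_854.key_le φ (show t ≤ z + N1 + p0 + A1 by omega) h1 h3).1]
        exact t4
      · right
        have hYm : Am (∏ j, q j) κ m ≤ Y.length - p0 := by rw [← hN1]; omega
        exact ⟨hYm, (BT_periodic q κ m _ _ t1 hYm (by rw [← hM]; exact hmod)).1 t2⟩
  have hkey1 : ∀ x, Fib_854.Key (fun X : List α => act x (X.map φ).prod + nu X) := by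
    intro x
    refine ⟨z + N1 + p0 + A1, M, S, inferInstance, inferInstance, φ, hMpos, ?_⟩
    intro X Y hX hY h1 h2 h3
    obtain ⟨d1, d2, -⟩ := hdep X Y hX hY h1 h2 h3
    simp only
    rw [d1, d2]
  have hkey2 : ∀ x y, Fib_854.Key (fun X : List α =>
      (Joint_854.Bad Wo z N1 p0 (BT' q κ m) X ∧ act x (X.map φ).prod + nu X = y)) := by
    intro x y
    refine ⟨z + N1 + p0 + A1, M, S, inferInstance, inferInstance, φ, hMpos, ?_⟩
    intro X Y hX hY h1 h2 h3
    obtain ⟨d1, d2, d3⟩ := hdep X Y hX hY h1 h2 h3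
    obtain ⟨-, -, d4⟩ := hdep Y X hY hX h1.symm h2.symm h3.symm
    simp only
    rw [d1, d2]
    exact propext ⟨fun h => ⟨d3 h.1, h.2⟩, fun h => ⟨d4 h.1, h.2⟩⟩
  have hnz : n ≤ z := by omega
  refine Top5_120.top5 act hadd hone hmul hfaith φ nu (Joint_854.Zn Wo z)
    {X | X ∈ Joint_854.Zn Wo z ∧ Joint_854.Bad Wo z N1 p0 (BT' q κ m) X}
    ⟨fun h => ?_, fun X hX Y hY h => Joint_854.Zn_prefix hX hY h (List.prefix_refl Y)⟩
    (fun X hX => hX.1)
    (fun v => {P | Joint_854.L1 φ act p0 (fun X => nu2 X 1) lam v P})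
    (fun v => {P | Joint_854.L2 K c lam2 v P}) ?_ ?_ ?_ ?_ ?_ ?_ ?_ s
  · have := h.1
    rw [List.length_nil] at this
    omega
  · intro v
    refine (List.finite_length_le α (p0 + N1)).subset ?_
    rintro P ⟨h1, h2⟩
    have := (g1 _ _ h2).1
    rw [List.length_drop, ← hN1] at this
    change P.length ≤ p0 + N1
    omega
  · intro v
    refine (List.finite_length_le α p0).subset ?_
    rintro P ⟨i, h1, h2, -⟩
    change P.length ≤ p0
    rw [h2]; exact hcp i h1
  · intro x y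
    exact Fib_854.fib happ hlen hn0 hnz hfew' _ (hkey1 x) y
  · intro x y
    refine (Fib_854.fib happ hlen hn0 hnz hfew' _ (hkey2 x y) True).congr fun w => ?_
    constructor
    · rintro ⟨⟨h1, h2⟩, h3⟩
      exact ⟨h1, eq_true ⟨h2, h3⟩⟩
    · rintro ⟨h1, h2⟩
      have h3 := of_eq_true h2
      exact ⟨⟨h1, h3.1⟩, h3.2⟩
  · intro s
    exact Fib_854.tail φ happ hlen hn0 hnz hfew' s
  · intro X hX hXb v
    obtain ⟨p, r, e, h1, -, h2⟩ := Joint_854.complete1 φ act p0 (fun X => nu2 X 1) nu1 JW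
      (lam := lam) (rho := rho) (N1 := N1) (N0 := 2 * A1) (BadT := BT' q κ m) (z := z)
      g3 (fun P v h => by rw [hN1]; exact (g1 P v h).1.le)
      (by
        intro Y hY hb v
        have hb' : ¬ BT q κ m Y.length := fun h => hb ⟨by rw [← hN1]; omega, h⟩
        have hb2 := not_not.1 hb'
        exact g4 Y (by rw [← hA1]; exact hY) hb2.1 hb2.2 v)
      (by omega) (by omega) hX (fun h => hXb ⟨hX, h⟩) v
    refine ⟨p, r, e.symm, h1, fun x P' hP' => ?_⟩
    obtain ⟨h3, h4⟩ := h2 x P' hP'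
    refine ⟨h3, ?_⟩
    rw [← hTeq, ← hTeq]
    exact h4
  · rintro X ⟨hX, hXb⟩ Y ⟨hY, -⟩ v
    obtain ⟨p, r, e, h1, -, h2⟩ := Joint_854.complete2 φ act p0 nu1 JW (z := z) (K := K)
      (R1 := k + m) (N1 := N1) (BadT := BT' q κ m) (c := c) (lam2 := lam2) (rho2 := rho2)
      (nu2' := nu2) e1 e2 (fun i j h _ => hc1 i j h) hcp
      (fun i i' j j' _ _ _ _ a b c d => hc2 i i' j j' a b c d)
      hc3 (by omega) (by omega) hX hY hXb v
    refine ⟨p, r, e.symm, h1, fun x P' hP' => ?_⟩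
    rcases h2 x P' hP' with ⟨a, ha1, ha2, ha3, ha4⟩ | ⟨a, ha1, ha2, ha3⟩
    · left
      refine ⟨a, ⟨ha1, ha2⟩, Y, hY, ha3.symm, ?_⟩
      rw [hTeq, hTeq] at ha4
      rw [ha4]
    · right
      exact ⟨a, ha1, fun h => ha2 h.2, ha3⟩

/-- **Row 320, fibres.** -/
theorem fin (α : Type) [Finite α] (S : Type) [Monoid S] [Finite S] (φ : α → S) (s : S) :
    HL 3 ({w | (w.map φ).prod = s} : Language α) := by
  classical
  rcases isEmpty_or_nonempty α with hα | hα
  · refine HL.finite ?_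
    refine (Set.finite_singleton ([] : List α)).subset fun w _ => ?_
    cases w with
    | nil => rfl
    | cons a _ => exact (hα.false a).elim
  · have := Fintype.ofFinite S
    obtain ⟨act, hadd, hone, hmul, hfaith⟩ := Blk467.exists_module S
    have := Fintype.ofFinite (S → ZMod 2)
    exact fin_aux α S (S → ZMod 2) act hadd hone hmul hfaith φ s

/-- **Row 320**, any universe. -/
theorem row (α : Type*) [Finite α] (L : Language α) (hL : L.IsRegular) :
    ∃ e : GRegExp α, e.height ≤ 3 ∧ e.lang = L :=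
  Univ_188.of_type0 3 (fun β _ L hL => of_monoid (k := 3) (fun S _ _ φ s => fin β S φ s) L hL)
    α L hL

end Crest.Agent.R320.Fin_854
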