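import Crest.Agent.R320.Rul_859
import Crest.Agent.R320.Fib_81
import Crest.Agent.R320.Sc2n_937
import Crest.Agent.R320.ExactR_237
import Crest.Agent.R320.Top5_120

set_option autoImplicit false
set_option maxHeartbeats 1000000

namespace Crest.Agent.R320.Fin_859

open Crest.RegLang Crest.Agent.R320.Hk_851 Crest.Agent.R320.Blk467
open Crest.Agent.R320.Core1_922 Crest.Agent.R320.Grid859

section key

variable {α S : Type} [Monoid S] (f : α → S)

/-- the key of a word -/
def Key (K e : ℕ) (X Y : List α) : Prop :=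
  X = Y ∨ (K ≤ X.length ∧ K ≤ Y.length ∧ X.take K = Y.take K ∧
    ((X.drop K).map f).prod = ((Y.drop K).map f).prod ∧ X.length % e = Y.length % e)

theorem key_of {K e : ℕ} {X Y : List α} (h1 : X.take K = Y.take K)
    (h2 : ((X.drop K).map f).prod = ((Y.drop K).map f).prod)
    (h3 : X.length % e = Y.length % e) : Key f K e X Y := by
  have hl := congrArg List.length h1
  simp only [List.length_take] at hl
  rcases Nat.lt_or_ge X.length K with h | h
  · left
    rw [List.take_of_length_le h.le, List.take_of_length_le (by omega)] at h1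
    exact h1
  · right
    exact ⟨h, by omega, h1, h2, h3⟩

theorem take_eq {K c : ℕ} {X Y : List α} (h1 : X.take K = Y.take K) (hc : c ≤ K) :
    X.take c = Y.take c := by
  have := congrArg (fun l => l.take c) h1
  simpa only [List.take_take, min_eq_left hc] using this

theorem drop_prod {K c : ℕ} {X Y : List α} (hX : K ≤ X.length) (hY : K ≤ Y.length)
    (h1 : X.take K = Y.take K)
    (h2 : ((X.drop K).map f).prod = ((Y.drop K).map f).prod) (hc : c ≤ K) :
    ((X.drop c).map f).prod = ((Y.drop c).map f).prod := by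
  have hs : ∀ w : List α, K ≤ w.length → w.drop c = (w.take K).drop c ++ w.drop K := by
    intro w hw
    conv_lhs => rw [← List.take_append_drop K w]
    rw [List.drop_append]
    congr 1
    rw [List.length_take, min_eq_left hw, Nat.sub_eq_zero_of_le hc, List.drop_zero]
  rw [hs X hX, hs Y hY]
  simp only [List.map_append, List.prod_append]
  rw [h1, h2]

end key

theorem join (α : Type) [Finite α] (S : Type) [Monoid S] [Finite S] (f : α → S)
    (V : Type) [AddCommGroup V] [Finite V] (act : V → S → V)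
    (hadd : ∀ a b s, act (a + b) s = act a s + act b s)
    (hone : ∀ v, act v 1 = v) (hmul : ∀ v s t, act v (s * t) = act (act v s) t)
    (hfaith : ∀ s t, (∀ v, act v s = act v t) → s = t) (s : S) :
    HL 3 ({w | (w.map f).prod = s} : Language α) := by
  classical
  have := Fintype.ofFinite S
  have := Fintype.ofFinite V
  obtain ⟨m, r, hm, hG⟩ := gridp S V act
  obtain ⟨K, hK⟩ := ExactR_237.exact_gadget α S V f act (2 * (r + m) + 2)
  obtain ⟨Ms, hcard, hp, hG⟩ := hG (2 ^ (K + 1)) (by
    calc 2 = 2 ^ 1 := by norm_num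
      _ ≤ 2 ^ (K + 1) := Nat.pow_le_pow_right (by norm_num) (by omega))
  obtain ⟨M, hM⟩ : ∃ M, M = ∏ p ∈ Ms, p := ⟨_, rfl⟩
  rw [← hM] at hG
  have hMpos : 0 < M := hM ▸ Finset.prod_pos fun p hpm => (hp p hpm).1.pos
  obtain ⟨κ, hκe⟩ : ∃ κ, κ = K + 5 + M := ⟨_, rfl⟩
  have hκ1 : 1 ≤ κ := by omega
  have hκ : 2 ^ (K + 5) * M ≤ 2 ^ κ := by
    calc 2 ^ (K + 5) * M ≤ 2 ^ (K + 5) * 2 ^ M :=
          Nat.mul_le_mul_left _ (Nat.lt_two_pow_self (n := M)).le
      _ = 2 ^ κ := by rw [hκe, ← pow_add]
  obtain ⟨LL, rho, nu1, hLlen, hLfun, hsound, hcomp, hnu⟩ := hG κ α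
    (fun u => (u.map f).prod) (fun u v => by simp) (by simp)
  obtain ⟨N1, hN1⟩ : ∃ N1, N1 = Am κ M m := ⟨_, rfl⟩
  have hN1pos : 0 < N1 := by
    rw [hN1]
    have h1 := A_le κ M hm
    have h2 : 0 < A κ M 0 := by unfold A; have := G_pos κ 0; omega
    omega
  obtain ⟨X, hX1, hX2, hrul⟩ := ruler K m M κ Ms hp hM hκ1 hκ (2 * N1)
  obtain ⟨c, hcdef⟩ : ∃ c : ℕ → ℕ, c = fun k => X * 2 ^ k := ⟨_, rfl⟩
  obtain ⟨p0, hp0⟩ : ∃ p0, p0 = X * 2 ^ K := ⟨_, rfl⟩
  have hc : ∀ k, k < K → c k ≤ p0 := by
    intro k hk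
    rw [hcdef, hp0]
    exact Nat.mul_le_mul_left _ (Nat.pow_le_pow_right (by norm_num) hk.le)
  obtain ⟨lam2, rho2, nu2, hs2, hc2⟩ := hK c (by
    intro i j hij hj
    rw [hcdef]
    exact Nat.mul_lt_mul_of_pos_left (Nat.pow_lt_pow_right (by norm_num) hij) hX2)
  obtain ⟨n, Gg, B, Wo, hLW, hgapW, -, -, hB⟩ :=
    LWallAll_922.walls_all_left α (2 * p0 + 2 * N1 + 1) (by omega)
  obtain ⟨q0, hq0⟩ : ∃ q0, q0 = n + 3 * p0 + Am κ M m + M * G κ m + G κ m := ⟨_, rfl⟩
  let g : Sc2n_937.Geo α :=
    { Wo := Wo, n := n, z := p0 + N1 + q0, p0 := p0, q0 := q0, N1 := N1, loc := hLW.app,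
      hz := rfl, hq := by omega, hN := hN1pos, hqp := by omega }
  have gz : g.z = p0 + N1 + q0 := rfl
  have gp0 : g.p0 = p0 := rfl
  have gN1 : g.N1 = N1 := rfl
  have gWo : g.Wo = Wo := rfl
  let lam : List α → Option V := fun P => if h : ∃ v, LL P v then some h.choose else none
  have hlam : ∀ P v, lam P = some v ↔ LL P v := by
    intro P v
    constructor
    · intro h
      simp only [lam] at h
      split_ifs at h with h1
      rw [← Option.some.inj h]
      exact h1.choose_spec
    · intro h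
      have h1 : ∃ v, LL P v := ⟨v, h⟩
      simp only [lam]
      rw [dif_pos h1]
      exact congrArg some (hLfun _ _ _ h1.choose_spec h)
  let pre : List α → V → V := fun P v => act v (P.map f).prod + nu2 P 1
  let post : V → List α → V := fun v Y => act v (Y.map f).prod + nu1 Y
  let nu : List α → V := fun X => act (nu2 (X.take p0) 1) ((X.drop p0).map f).prod +
    nu1 (X.drop p0)
  have hT : ∀ v X, g.T pre post v X = act v (X.map f).prod + nu X := by
    intro v X
    change act (act v ((X.take p0).map f).prod + nu2 (X.take p0) 1) ((X.drop p0).map f).prod +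
      nu1 (X.drop p0) = _
    rw [hadd, ← hmul, ← List.prod_append, ← List.map_append, List.take_append_drop]
    simp only [nu]
    abel
  let BT : ℕ → Prop := BadT κ M m Ms
  have hlen : ∀ P v, lam P = some v → P.length ≤ g.N1 := by
    intro P v h
    obtain ⟨i, him, -, h2⟩ := hLlen P v ((hlam P v).1 h)
    have := Am_mono κ M (show i + 1 ≤ m by omega)
    rw [gN1, hN1]
    omega
  have hex1 : ∀ P Q u b, lam P = some u → rho Q = some b → b = post u (P ++ Q) := by
    intro P Q u b h1 h2
    exact hsound P Q u b ((hlam P u).1 h1) h2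
  have hex2 : ∀ k, k < K → ∀ P Q v u, P.length = c k → Q.length = g.p0 - c k →
      lam2 k P = some v → (fun k Q => rho2 k Q 1) k Q = some u → u = pre (P ++ Q) v := by
    intro k hk P Q v u h1 _ h3 h4
    have := hs2 k hk P Q 1 v u h1 h3 h4
    rw [this, mul_one]
    rfl
  have hgap : ∀ P Q : List α, g.Wo P → g.Wo (P ++ Q) → Q ≠ [] →
      2 * g.p0 + 2 * g.N1 < Q.length := by
    intro P Q h1 h2 h3
    have hQ : 0 < Q.length := List.length_pos_of_ne_nil h3
    have := hgapW (P ++ Q) P.length (P ++ Q).length (by rw [List.length_append]; omega) le_rfl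
      (by rw [List.take_left]; exact h1) (by rw [List.take_length]; exact h2)
    rw [List.length_append] at this
    rw [gp0, gN1]
    omega
  let C : Set (List α) := Fib_81.XX Wo (p0 + N1 + q0)
  let Bad : Set (List α) := {X | g.XX X ∧ g.BadX BT X}
  have hCp : PCode C := Fib_81.XX_pcode (by omega)
  -- the key
  obtain ⟨K', hK'⟩ : ∃ K', K' = p0 + N1 + q0 + N1 + p0 + A κ M m := ⟨_, rfl⟩
  have hA : A κ M m = Am κ M m + G κ m := rfl
  have hepos : 0 < M * G κ m := Nat.mul_pos hMpos (G_pos κ m)
  have hkey : ∀ X ∈ C, ∀ Y ∈ C, Key f K' (M * G κ m) X Y →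
      (X.map f).prod = (Y.map f).prod ∧ nu X = nu Y ∧ (X ∈ Bad → Y ∈ Bad) := by
    intro X hX Y hY hk
    rcases hk with rfl | ⟨h1, h2, h3, h4, h5⟩
    · exact ⟨rfl, rfl, id⟩
    · have hXz : p0 + N1 + q0 ≤ X.length := hX.1
      have hYz : p0 + N1 + q0 ≤ Y.length := hY.1
      have hmod : X.length ≡ Y.length [MOD M * G κ m] := h5
      have hmod' : (X.drop p0).length ≡ (Y.drop p0).length [MOD M * G κ m] := by
        rw [List.length_drop, List.length_drop]
        apply Nat.ModEq.add_right_cancel' p0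
        rw [Nat.sub_add_cancel (by omega), Nat.sub_add_cancel (by omega)]
        exact hmod
      refine ⟨?_, ?_, ?_⟩
      · have := drop_prod f h1 h2 h3 h4 (Nat.zero_le _)
        simpa using this
      · simp only [nu]
        rw [take_eq h3 (by omega : p0 ≤ K'), drop_prod f h1 h2 h3 h4 (by omega : p0 ≤ K')]
        congr 1
        apply hnu
        · rw [List.length_drop]; omega
        · rw [List.length_drop]; omega
        · have e1 : ∀ w : List α, (w.drop p0).take (A κ M m) =
              (w.take (p0 + A κ M m)).drop p0 := by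
            intro w
            rw [List.drop_take]
            congr 1
            omega
          rw [e1, e1, take_eq h3 (by omega : p0 + A κ M m ≤ K')]
        · simp only [List.drop_drop]
          exact drop_prod f h1 h2 h3 h4 (by omega : p0 + A κ M m ≤ K')
        · exact hmod'
      · rintro ⟨-, hb⟩
        refine ⟨hY, ?_⟩
        rcases hb with ⟨t, ht1, ht2, ht3, ht4⟩ | hb
        · left
          rw [gz, gN1] at ht4
          refine ⟨t, by omega, ?_, ht3, ht4⟩
          rw [← take_eq h3 (by omega : t ≤ K')]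
          exact ht2
        · right
          refine badT_per (T := X.length - p0) hM (by omega) (by omega) ?_ hb
          rw [List.length_drop, List.length_drop] at hmod'
          exact hmod'
  have hfib : ∀ L : Language α, (∀ X ∈ L, X ∈ C) → (∀ X ∈ C, ∀ Y ∈ C,
      (X.map f).prod = (Y.map f).prod → nu X = nu Y → (X ∈ Bad → Y ∈ Bad) → X ∈ L → Y ∈ L) →
      HL 1 L := by
    intro L hLC hL
    refine Fib_81.HL_blocks f K' (M * G κ m) hepos hLW hB L hLC ?_
    intro X hX Y hY h1 h2 h3 hXL
    obtain ⟨a1, a2, a3⟩ := hkey X hX Y hY (key_of f h1 h2 h3)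
    exact hL X hX Y hY a1 a2 a3 hXL
  refine Top5_120.top5 act hadd hone hmul hfaith f nu C Bad hCp (fun X hX => hX.1)
    (fun v => {P | g.LP1 pre lam v P}) (fun v => {P | Sc2n_937.Geo.LP2 K c lam2 v P})
    ?_ ?_ ?_ ?_ ?_ ?_ ?_ s
  · intro v
    refine (List.finite_length_le α (p0 + N1)).subset ?_
    rintro P ⟨h1, h2⟩
    have := hlen _ _ h2
    rw [List.length_drop, gp0, gN1] at this
    change P.length ≤ p0 + N1
    omega
  · intro v
    refine (List.finite_length_le α p0).subset ?_
    rintro P ⟨k, hk, h2, -⟩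
    change P.length ≤ p0
    rw [h2]; exact hc k hk
  · intro x y
    refine hfib _ (fun X hX => hX.1) ?_
    rintro X hX Y hY h1 h2 h3 ⟨-, h4⟩
    exact ⟨hY, by rw [← h1, ← h2]; exact h4⟩
  · intro x y
    refine hfib _ (fun X hX => hX.1.1) ?_
    rintro X hX Y hY h1 h2 h3 ⟨h5, h4⟩
    exact ⟨h3 h5, by rw [← h1, ← h2]; exact h4⟩
  · intro s
    exact Fib_81.HL_tail_prod f hLW hB s
  · -- hcc1
    intro X hX hXB v
    have hXX : g.XX X := hX
    have hE : ¬ g.E X := fun h => hXB ⟨hX, Or.inl h⟩
    have hnb : ¬ BT (X.length - p0) := fun h => hXB ⟨hX, Or.inr h⟩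
    have hXz : p0 + N1 + q0 ≤ X.length := hX.1
    obtain ⟨P, Q, b, e, h1, h2⟩ := g.complete1 pre (lam := lam) (rho := rho) hlen hXX hE (by
      intro u
      obtain ⟨P, Q, e, h1, b, h2⟩ := hcomp (X.drop p0) u (by rw [List.length_drop]; omega)
        (by rw [List.length_drop]; exact hnb)
      exact ⟨P, Q, e, (hlam P u).2 h1, by rw [h2]; rfl⟩) v
    refine ⟨P, Q, e.symm, h1, ?_⟩
    intro x P' hP'
    obtain ⟨a1, a2⟩ := g.sound1 pre post hlen hex1 hP' h2
    obtain ⟨b1, b2⟩ := g.sound1 pre post hlen hex1 h1 h2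
    refine ⟨a1, ?_⟩
    rw [hT] at a2 b2
    rw [a2, ← b2, ← e]
  · -- hcc2
    intro X hX Y hY v
    have hXX : g.XX X := hX.1
    have hYY : g.XX Y := hY.1
    have hXz : p0 + N1 + q0 ≤ X.length := hXX.1
    obtain ⟨P, Q, b, e, h1, h2⟩ := g.complete2 pre post (BadT := BT) (K := K) (c := c)
      (lam2 := lam2) (rho2 := fun k Q => rho2 k Q 1) (C0 := r + m) hc hgap
      (by
        intro k k' l l' _ _ _ _ h1 h2 h3 h4
        rw [hcdef] at h3 h4
        exact wide _ N1 hX1 h1 h2 h3 h4)
      (by
        intro τ hτ J hJ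
        rw [gz, gp0] at hτ
        refine (hrul τ p0 ?_ (by omega) J ?_).trans (by omega)
        · intro k hk
          have := hc k hk
          rw [hcdef] at this
          exact this
        · intro k hk
          have := hJ k hk
          rw [hcdef] at this
          exact this)
      hXX hYY v (by
        obtain ⟨I, hI1, hI2⟩ := hc2 (X.take p0) 1 v (by
          intro k hk
          rw [List.length_take]
          have := hc k hk
          omega)
        refine ⟨I, hI1, fun k hk => ?_⟩
        obtain ⟨b1, b2, b3⟩ := hI2 k hk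
        refine ⟨b1, ?_, b3⟩
        rw [List.take_take, min_eq_left (hc k b1)] at b2
        exact b2)
    refine ⟨P, Q, e, h1, ?_⟩
    have hb0 : g.T pre post (g.T pre post v X) Y = b := by
      obtain ⟨X2, c1, c2, c3⟩ := g.sound2 pre post (BadT := BT) hc hex2 (R := []) (R' := Y)
        hXX hX.2 h1 h2 (by rw [List.append_nil]; exact e)
      have : X2 = Y := by
        rw [e] at c2
        exact (List.append_cancel_left c2).symm
      rw [← this]; exact c3
    intro x P' hP'
    obtain ⟨k0, hk0, hPl, hl⟩ := hP'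
    obtain ⟨k, hk, l, hend, hgood, hX2, u, hr, hb⟩ := h2
    have hQ : g.RQ2 pre post BT K c (fun k Q => rho2 k Q 1) b Q :=
      ⟨k, hk, l, hend, hgood, hX2, u, hr, hb⟩
    by_cases hkk : k0 = k
    · subst hkk
      have hX' : g.XX (P' ++ Q.take l) :=
        g.xx_of_cend (by rw [hPl]; exact hc k0 hk0) (by rw [hPl]; exact hend)
      by_cases hbad : g.BadX BT (P' ++ Q.take l)
      · left
        obtain ⟨X2, c1, c2, c3⟩ := g.sound2 pre post (BadT := BT) hc hex2 (R := [])
          (R' := Q.drop l) (v := x) hX' hbad ⟨k0, hk0, hPl, hl⟩ hQ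
          (by rw [List.append_nil, List.append_assoc, List.take_append_drop])
        refine ⟨P' ++ Q.take l, ⟨hX', hbad⟩, X2, c1, c2.symm, ?_⟩
        rw [hT, hT] at c3 hb0
        rw [c3, hb0]
      · right
        refine ⟨P' ++ Q.take l, hX', fun h => hbad h.2, ?_⟩
        exact (List.prefix_append_right_inj P').2 (List.take_prefix l Q)
    · right
      obtain ⟨l', he', hg'⟩ := hgood k0 hk0 hkk
      have hX' : g.XX (P' ++ Q.take l') :=
        g.xx_of_cend (by rw [hPl]; exact hc k0 hk0) (by rw [hPl]; exact he')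
      refine ⟨P' ++ Q.take l', hX', fun h => ?_, ?_⟩
      · apply hg'
        have := g.cbad_of_bad (BadT := BT) (P := P') (Q := Q) (l := l')
          (by rw [hPl]; exact hc k0 hk0) (by rw [hPl]; exact he') h.2
        rw [hPl] at this
        exact this
      · exact (List.prefix_append_right_inj P').2 (List.take_prefix l' Q)

theorem fin (α : Type) [Finite α] (S : Type) [Monoid S] [Finite S] (f : α → S) (s : S) :
    HL 3 ({w | (w.map f).prod = s} : Language α) := by
  obtain ⟨act, hadd, hone, hmul, hfaith⟩ := exists_module S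
  exact join α S f (S → ZMod 2) act hadd hone hmul hfaith s

end Crest.Agent.R320.Fin_859
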