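import Crest.Agent.R320.Join_86
import Crest.Agent.R320.Grid_899
import Crest.Agent.R320.Thin_963
import Crest.Agent.R320.ExactR_237
import Crest.Agent.R320.LWallAll_922
import Crest.Agent.R320.Block_467

/-!
# Row 320: constants (helper86)
-/

set_option autoImplicit false

namespace Crest.Agent.R320.Fin_86

open Crest.RegLang Crest.Agent.R320.Hk_851 Crest.Agent.R320.Join_86
open Crest.Agent.R320.Sc2n_937 (Geo)

/-! ### similarity of words -/

/-- same prefix of length `D`, same value of the rest, same length modulo `M0` -/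
def Sim {α S : Type} [Monoid S] (φ : α → S) (D M0 : ℕ) (Y Y' : List α) : Prop :=
  D ≤ Y.length ∧ D ≤ Y'.length ∧ Y.take D = Y'.take D ∧
    ((Y.drop D).map φ).prod = ((Y'.drop D).map φ).prod ∧ Y.length % M0 = Y'.length % M0

section sim

variable {α S V : Type} [Monoid S] {φ : α → S} {A D M0 : ℕ} {Y Y' : List α}

theorem Sim.symm (h : Sim φ A M0 Y Y') : Sim φ A M0 Y' Y :=
  ⟨h.2.1, h.1, h.2.2.1.symm, h.2.2.2.1.symm, h.2.2.2.2.symm⟩

theorem Sim.tk (h : Sim φ A M0 Y Y') {i : ℕ} (hi : i ≤ A) : Y.take i = Y'.take i := by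
  have e1 : Y.take i = (Y.take A).take i := by rw [List.take_take, Nat.min_eq_left hi]
  have e2 : Y'.take i = (Y'.take A).take i := by rw [List.take_take, Nat.min_eq_left hi]
  rw [e1, e2, h.2.2.1]

theorem Sim.dr (h : Sim φ A M0 Y Y') {i : ℕ} (hi : i ≤ A) :
    ((Y.drop i).map φ).prod = ((Y'.drop i).map φ).prod := by
  obtain ⟨h1, h2, h3, h4, -⟩ := h
  have e : ∀ Z : List α, A ≤ Z.length → Z.drop i = (Z.take A).drop i ++ Z.drop A := by
    intro Z hZ
    conv_lhs => rw [← List.take_append_drop A Z]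
    rw [List.drop_append_of_le_length (by rw [List.length_take]; omega)]
  rw [e Y h1, e Y' h2, List.map_append, List.map_append, List.prod_append, List.prod_append, h3,
    h4]

theorem Sim.drop (h : Sim φ A M0 Y Y') {i : ℕ} (hi : i + D ≤ A) :
    Sim φ D M0 (Y.drop i) (Y'.drop i) := by
  have h1 := h.1
  have h2 := h.2.1
  refine ⟨by rw [List.length_drop]; omega, by rw [List.length_drop]; omega, ?_, ?_, ?_⟩
  · have e : ∀ Z : List α, (Z.drop i).take D = (Z.take (i + D)).drop i := by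
      intro Z
      rw [List.drop_take]
      congr 1
      omega
    rw [e, e, h.tk hi]
  · rw [List.drop_drop, List.drop_drop]
    exact h.dr hi
  · rw [List.length_drop, List.length_drop]
    have hx' : (Y.length - i) + i ≡ (Y'.length - i) + i [MOD M0] := by
      rw [Nat.sub_add_cancel (by omega), Nat.sub_add_cancel (by omega)]
      exact h.2.2.2.2
    exact Nat.ModEq.add_right_cancel' i hx'

variable [AddCommGroup V] (act : V → S → V)

/-- the value `x` of the noise is seen by some cut -/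
def Rel (φ : α → S) (lam rho : List α → Option V) (Y : List α) (x : V) : Prop :=
  ∃ P Q v b, Y = P ++ Q ∧ lam P = some v ∧ rho Q = some b ∧ b = act v (Y.map φ).prod + x

open Classical in
/-- the noise, made finite-state -/
noncomputable def nuS (φ : α → S) (lam rho : List α → Option V) (nu : List α → V)
    (Y : List α) : V := if ∃ x, Rel act φ lam rho Y x then nu Y else 0

variable {lam rho : List α → Option V} {nu : List α → V}

theorem nuS_sound (hs : ∀ P Q v b, lam P = some v → rho Q = some b →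
      b = act v ((P ++ Q).map φ).prod + nu (P ++ Q)) (P Q : List α) (v b : V)
    (h1 : lam P = some v) (h2 : rho Q = some b) :
    b = act v ((P ++ Q).map φ).prod + nuS act φ lam rho nu (P ++ Q) := by
  have h : ∃ x, Rel act φ lam rho (P ++ Q) x :=
    ⟨nu (P ++ Q), P, Q, v, b, rfl, h1, h2, hs P Q v b h1 h2⟩
  unfold nuS
  rw [if_pos h]
  exact hs P Q v b h1 h2

theorem Rel.sim {L D' : ℕ} (hL : ∀ P v, lam P = some v → P.length ≤ L)
    (hD : L + D' ≤ D)
    (hrho : ∀ Q Q', Sim φ D' M0 Q Q' → rho Q = rho Q')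
    (h : Sim φ D M0 Y Y') {x : V} (hx : Rel act φ lam rho Y x) : Rel act φ lam rho Y' x := by
  obtain ⟨P, Q, v, b, e, h1, h2, h3⟩ := hx
  have hP := hL P v h1
  have e1 : P = Y.take P.length := by rw [e, List.take_left]
  have e2 : Q = Y.drop P.length := by rw [e, List.drop_left]
  refine ⟨Y'.take P.length, Y'.drop P.length, v, b, (List.take_append_drop _ _).symm, ?_, ?_, ?_⟩
  · rw [← h.tk (by omega), ← e1]; exact h1
  · rw [← hrho _ _ (h.drop (D := D') (by omega)), ← e2]; exact h2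
  · have := h.dr (Nat.zero_le _)
    rw [List.drop_zero, List.drop_zero] at this
    rw [← this]; exact h3

theorem nuS_sim (hs : ∀ P Q v b, lam P = some v → rho Q = some b →
      b = act v ((P ++ Q).map φ).prod + nu (P ++ Q))
    {L D' : ℕ} (hL : ∀ P v, lam P = some v → P.length ≤ L)
    (hD : L + D' ≤ D)
    (hrho : ∀ Q Q', Sim φ D' M0 Q Q' → rho Q = rho Q')
    (h : Sim φ D M0 Y Y') : nuS act φ lam rho nu Y = nuS act φ lam rho nu Y' := by
  have huniq : ∀ (Z : List α) x, Rel act φ lam rho Z x → x = nu Z := by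
    rintro Z x ⟨P, Q, v, b, rfl, h1, h2, h3⟩
    have h4 := hs P Q v b h1 h2
    rw [h3] at h4
    exact add_left_cancel h4
  unfold nuS
  by_cases hx : ∃ x, Rel act φ lam rho Y x
  · obtain ⟨x, hx⟩ := hx
    have hx' := Rel.sim act hL hD hrho h hx
    rw [if_pos ⟨x, hx⟩, if_pos ⟨x, hx'⟩, ← huniq _ _ hx, ← huniq _ _ hx']
  · have hx' : ¬ ∃ x, Rel act φ lam rho Y' x := by
      rintro ⟨x, hx'⟩
      exact hx ⟨x, Rel.sim act hL hD hrho h.symm hx'⟩
    rw [if_neg hx, if_neg hx']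

end sim

/-! ### arithmetic -/

theorem sidon : ∀ (k l' l k' : ℕ), k ≠ k' → l ≠ l' → 2 ^ k + 2 ^ l' = 2 ^ l + 2 ^ k' → k = l := by
  intro k
  induction k with
  | zero =>
    intro l' l k' h1 h2 h
    by_contra hne
    obtain ⟨l0, rfl⟩ := Nat.exists_eq_succ_of_ne_zero (Ne.symm hne)
    obtain ⟨k0, rfl⟩ := Nat.exists_eq_succ_of_ne_zero (Ne.symm h1)
    rw [Nat.pow_succ, Nat.pow_succ] at h
    have p1 : 0 < 2 ^ l0 := by positivity
    have p2 : 0 < 2 ^ k0 := by positivity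
    cases l' with
    | zero => simp at h; omega
    | succ l' => rw [Nat.pow_succ] at h; simp at h; omega
  | succ k ih =>
    intro l' l k' h1 h2 h
    have p0 : 0 < 2 ^ k := by positivity
    cases l' with
    | zero =>
      cases l with
      | zero => exact absurd rfl h2
      | succ l =>
        cases k' with
        | zero =>
          simp only [Nat.pow_zero] at h
          have : 2 ^ (k + 1) = 2 ^ (l + 1) := by omega
          exact Nat.pow_right_injective le_rfl this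
        | succ k' =>
          simp only [Nat.pow_succ, Nat.pow_zero] at h
          omega
    | succ l' =>
      have p1 : 0 < 2 ^ l' := by positivity
      cases l with
      | zero =>
        cases k' with
        | zero => simp only [Nat.pow_succ, Nat.pow_zero] at h; omega
        | succ k' => simp only [Nat.pow_succ, Nat.pow_zero] at h; omega
      | succ l =>
        cases k' with
        | zero => simp only [Nat.pow_succ, Nat.pow_zero] at h; omega
        | succ k' =>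
          have := ih l' l k' (by omega) (by omega) (by simp only [Nat.pow_succ] at h; omega)
          omega

theorem sum_pow (κ : ℕ) (hκ : 1 ≤ κ) (i : ℕ) :
    ∑ j ∈ Finset.range (i + 1), 2 ^ (κ * j) ≤ 2 * 2 ^ (κ * i) := by
  induction i with
  | zero => simp
  | succ i ih =>
    rw [Finset.sum_range_succ]
    have h1 : 2 ^ (κ * (i + 1)) = 2 ^ (κ * i) * 2 ^ κ := by rw [Nat.mul_succ, pow_add]
    have h2 : 2 ≤ 2 ^ κ := by
      calc 2 = 2 ^ 1 := by norm_num
        _ ≤ 2 ^ κ := Nat.pow_le_pow_right (by norm_num) hκ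
    have h3 : 2 * 2 ^ (κ * i) ≤ 2 ^ (κ * (i + 1)) := by
      rw [h1]; nlinarith [Nat.zero_le (2 ^ (κ * i))]
    omega

theorem grow (K Mq i : ℕ) :
    2 ^ (K + 4) * ∑ j ∈ Finset.range (i + 1), Mq * 2 ^ ((K + 5 + Mq) * j) ≤
      2 ^ ((K + 5 + Mq) * (i + 1)) := by
  rw [← Finset.mul_sum]
  have h1 := sum_pow (K + 5 + Mq) (by omega) i
  have h2 : Mq ≤ 2 ^ Mq := Nat.lt_two_pow_self.le
  have h3 : 2 ^ ((K + 5 + Mq) * (i + 1)) =
      2 ^ (K + 4) * (2 ^ Mq * (2 * 2 ^ ((K + 5 + Mq) * i))) := by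
    have : (K + 5 + Mq) * (i + 1) = (K + 4) + (Mq + (1 + (K + 5 + Mq) * i)) := by ring
    rw [this, pow_add 2 (K + 4), pow_add 2 Mq, pow_add 2 1, pow_one]
  rw [h3]
  exact Nat.mul_le_mul_left _ (Nat.mul_le_mul h2 h1)

/-! ### the bad totals -/

section bad

open Crest.Agent.R320.Grid_899

variable {k m : ℕ} (q : Fin k → ℕ) (κ : ℕ)

/-- bad zone lengths -/
def BT (m : ℕ) (T : ℕ) : Prop :=
  T < 2 * Am (∏ j, q j) κ (m + 1) ∨ (∃ j, q j ∣ T) ∨
    ¬ (∀ j, 1 ≤ j → j ≤ m →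
      (∏ j, q j) * G κ (j - 1) ≤ (T - Am (∏ j, q j) κ j) % G κ j ∧
      (T - Am (∏ j, q j) κ j) % G κ j + (∏ j, q j) * G κ (j - 1) ≤ G κ j)

theorem BT_dep {T T' : ℕ} (h1 : 2 * Am (∏ j, q j) κ (m + 1) ≤ T)
    (h2 : 2 * Am (∏ j, q j) κ (m + 1) ≤ T')
    (h : T % ((∏ j, q j) * G κ m) = T' % ((∏ j, q j) * G κ m)) (hb : BT q κ m T) :
    BT q κ m T' := by
  have hm : T ≡ T' [MOD (∏ j, q j) * G κ m] := h
  rcases hb with hb | ⟨j, hj⟩ | hb
  · omega
  · right; left
    refine ⟨j, ?_⟩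
    have hd : q j ∣ (∏ j, q j) * G κ m :=
      (Finset.dvd_prod_of_mem q (Finset.mem_univ j)).trans (Dvd.intro _ rfl)
    exact ((hm.of_dvd hd).dvd_iff dvd_rfl).1 hj
  · right; right
    intro hall
    apply hb
    intro j hj1 hjm
    have hA : Am (∏ j, q j) κ j ≤ Am (∏ j, q j) κ (m + 1) := Am_mono (by omega)
    have hd : G κ j ∣ (∏ j, q j) * G κ m := (G_dvd hjm).trans (Dvd.intro_left _ rfl)
    have e : (T - Am (∏ j, q j) κ j) % G κ j = (T' - Am (∏ j, q j) κ j) % G κ j := by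
      have hx : (T - Am (∏ j, q j) κ j) + Am (∏ j, q j) κ j ≡
          (T' - Am (∏ j, q j) κ j) + Am (∏ j, q j) κ j [MOD G κ j] := by
        rw [Nat.sub_add_cancel (by omega), Nat.sub_add_cancel (by omega)]
        exact hm.of_dvd hd
      exact Nat.ModEq.add_right_cancel' _ hx
    rw [e]
    exact hall j hj1 hjm

theorem BT_int {T : ℕ} (h1 : 2 * Am (∏ j, q j) κ (m + 1) ≤ T) (hb : BT q κ m T) :
    Crest.Agent.R320.Thin963.BadT (Finset.univ.image q) m (fun i => (G κ i : ℤ))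
      (fun i => (((∏ j, q j) * G κ i : ℕ) : ℤ)) (fun i => (Am (∏ j, q j) κ i : ℤ)) (T : ℤ) := by
  rcases hb with hb | ⟨j, hj⟩ | hb
  · omega
  · left
    exact ⟨q j, Finset.mem_image.2 ⟨j, Finset.mem_univ j, rfl⟩, Int.natCast_dvd_natCast.2 hj⟩
  · right
    push Not at hb
    obtain ⟨j, hj1, hjm, hb⟩ := hb
    have hA : Am (∏ j, q j) κ j ≤ Am (∏ j, q j) κ (m + 1) := Am_mono (by omega)
    obtain ⟨i, rfl⟩ : ∃ i, j = i + 1 := ⟨j - 1, by omega⟩
    rw [Nat.add_sub_cancel] at hb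
    refine ⟨i, by omega, ?_⟩
    set a := Am (∏ j, q j) κ (i + 1) with ha
    set r := (T - a) % G κ (i + 1) with hr
    have hmod : r < G κ (i + 1) := Nat.mod_lt _ (G_pos _)
    have hdm : G κ (i + 1) * ((T - a) / G κ (i + 1)) + r = T - a := Nat.div_add_mod _ _
    obtain ⟨d, hd⟩ : ∃ d, d = (T - a) / G κ (i + 1) := ⟨_, rfl⟩
    rw [← hd] at hdm
    have hT : (T : ℤ) - (a : ℤ) = G κ (i + 1) * (d : ℤ) + (r : ℤ) := by
      have h2 : T = G κ (i + 1) * d + r + a := by omega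
      have h3 : (T : ℤ) = (G κ (i + 1) : ℤ) * (d : ℤ) + (r : ℤ) + (a : ℤ) := by exact_mod_cast h2
      linarith
    by_cases hc : (∏ j, q j) * G κ i ≤ r
    · have h3 := hb hc
      refine ⟨(G κ (i + 1) : ℤ) - r, ?_, ?_⟩
      · rw [abs_le]
        constructor
        · have : (r : ℤ) < G κ (i + 1) := by exact_mod_cast hmod
          have h0 : (0 : ℤ) ≤ (((∏ j, q j) * G κ i : ℕ) : ℤ) := Int.natCast_nonneg _
          linarith
        · have : (G κ (i + 1) : ℤ) < (r : ℤ) + (((∏ j, q j) * G κ i : ℕ) : ℤ) := by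
            exact_mod_cast h3
          linarith
      · show (G κ (i + 1) : ℤ) ∣ (T : ℤ) - (a : ℤ) + ((G κ (i + 1) : ℤ) - r)
        rw [hT]
        exact ⟨(d : ℤ) + 1, by ring⟩
    · refine ⟨-(r : ℤ), ?_, ?_⟩
      · rw [abs_neg, abs_of_nonneg (Int.natCast_nonneg _)]
        push Not at hc
        show (r : ℤ) ≤ (((∏ j, q j) * G κ i : ℕ) : ℤ)
        exact_mod_cast hc.le
      · show (G κ (i + 1) : ℤ) ∣ (T : ℤ) - (a : ℤ) + (-(r : ℤ))
        rw [hT]
        exact ⟨(d : ℤ), by ring⟩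

end bad

/-! ### the constants -/

theorem exists_primes (k N : ℕ) : ∃ q : Fin k → ℕ, (∀ j, (q j).Prime ∧ N ≤ q j) ∧
    (∀ j, Odd (q j)) ∧ Pairwise (fun i j => Nat.Coprime (q i) (q j)) := by
  refine ⟨fun j => Nat.nth Nat.Prime (N + 1 + j), fun j => ⟨Nat.prime_nth_prime _, ?_⟩, fun j => ?_,
    fun i j hij => ?_⟩
  · have := Nat.add_two_le_nth_prime (N + 1 + j)
    show N ≤ Nat.nth Nat.Prime (N + 1 + j)
    omega
  · have h1 := Nat.add_two_le_nth_prime (N + 1 + j)
    exact (Nat.prime_nth_prime _).odd_of_ne_two (by omega)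
  · refine (Nat.coprime_primes (Nat.prime_nth_prime _) (Nat.prime_nth_prime _)).2 ?_
    intro h
    have h1 := Nat.nth_injective Nat.infinite_setOfPred_prime h
    exact hij (Fin.ext (by omega))

open Crest.Agent.R320.Grid_899 in
/-- the bad places of the ruler -/
theorem thin_nat {k m K C0 : ℕ} (q : Fin k → ℕ) (κ x p0 : ℕ) (hC0 : k + m ≤ C0)
    (hthin : ∀ T : ℤ, ∀ s : Finset (ℕ × ℕ), (∀ p ∈ s, p.1 < K ∧ p.2 < K ∧ p.1 ≠ p.2 ∧
      Crest.Agent.R320.Thin963.BadT (Finset.univ.image q) m (fun i => (G κ i : ℤ))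
      (fun i => (((∏ j, q j) * G κ i : ℕ) : ℤ)) (fun i => (Am (∏ j, q j) κ i : ℤ))
        (T + (x : ℤ) * 2 ^ p.1 - (x : ℤ) * 2 ^ p.2)) → s.card ≤ k + m)
    (hp0 : ∀ k < K, x * 2 ^ k ≤ p0)
    (τ : ℕ) (hτ : 2 * p0 + 2 * Am (∏ j, q j) κ (m + 1) ≤ τ) (J : Finset ℕ)
    (hJ : ∀ k ∈ J, k < K ∧ ∃ k', k' < K ∧ k' ≠ k ∧
      BT q κ m (τ + x * 2 ^ k' - x * 2 ^ k - p0)) : J.card ≤ C0 := by
  classical
  choose! f hf using fun k hk => (hJ k hk).2
  have h1 : (J.image fun k => (f k, k)).card ≤ k + m := by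
    refine hthin ((τ : ℤ) - p0) _ ?_
    intro p hp
    obtain ⟨k, hk, rfl⟩ := Finset.mem_image.1 hp
    obtain ⟨h2, h3, h4⟩ := hf k hk
    refine ⟨h2, (hJ k hk).1, h3, ?_⟩
    have h5 := hp0 k (hJ k hk).1
    have h6 := BT_int q κ (T := τ + x * 2 ^ f k - x * 2 ^ k - p0) (by omega) h4
    have h7 : ((τ + x * 2 ^ f k - x * 2 ^ k - p0 : ℕ) : ℤ) =
        (τ : ℤ) - p0 + (x : ℤ) * 2 ^ f k - (x : ℤ) * 2 ^ k := by
      have h8 : τ + x * 2 ^ f k - x * 2 ^ k - p0 + p0 + x * 2 ^ k = τ + x * 2 ^ f k := by omega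
      have h9 : ((τ + x * 2 ^ f k - x * 2 ^ k - p0 : ℕ) : ℤ) + (p0 : ℤ) + (x : ℤ) * 2 ^ k =
          (τ : ℤ) + (x : ℤ) * 2 ^ f k := by exact_mod_cast h8
      linarith
    rw [h7] at h6
    exact h6
  rw [Finset.card_image_of_injective _ (fun a b h => (Prod.mk.inj h).2)] at h1
  omega

theorem ruler {x N : ℕ} (hx : 2 * N ≤ x) (k k' l l' : ℕ) (h1 : k' ≠ k) (h2 : l' ≠ l)
    (h3 : x * 2 ^ k + x * 2 ^ l' < x * 2 ^ l + x * 2 ^ k' + 2 * N)
    (h4 : x * 2 ^ l + x * 2 ^ k' < x * 2 ^ k + x * 2 ^ l' + 2 * N) : k = l := by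
  refine sidon k l' l k' h1.symm h2.symm ?_
  have e1 : x * 2 ^ k + x * 2 ^ l' = x * (2 ^ k + 2 ^ l') := by ring
  have e2 : x * 2 ^ l + x * 2 ^ k' = x * (2 ^ l + 2 ^ k') := by ring
  rw [e1, e2] at h3 h4
  by_contra hne
  rcases Nat.lt_or_gt_of_ne hne with h | h
  · have : x * (2 ^ k + 2 ^ l' + 1) ≤ x * (2 ^ l + 2 ^ k') := Nat.mul_le_mul_left _ h
    rw [Nat.mul_add, Nat.mul_one] at this
    omega
  · have : x * (2 ^ l + 2 ^ k' + 1) ≤ x * (2 ^ k + 2 ^ l') := Nat.mul_le_mul_left _ h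
    rw [Nat.mul_add, Nat.mul_one] at this
    omega

open Crest.Agent.R320.Grid_899 in
/-- **ROW 320 for one finite alphabet and one finite monoid** -/
theorem fin (α : Type) [Finite α] (S : Type) [Monoid S] [Finite S] (φ : α → S) (s : S) :
    HL 3 ({w | (w.map φ).prod = s} : Language α) := by
  classical
  haveI : Fintype S := Fintype.ofFinite S
  obtain ⟨act, hadd, hone, hmul, hfaith⟩ := Crest.Agent.R320.Blk467.exists_module S
  obtain ⟨k, m, hgrid⟩ := grid_gadget_reg S (S → ZMod 2) act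
  obtain ⟨K, hK⟩ := Crest.Agent.R320.ExactR_237.exact_gadget α S (S → ZMod 2) φ act
    (2 * (k + m) + 2)
  obtain ⟨q, hq1, hq2, hq3⟩ := exists_primes k (2 ^ (K + 1))
  obtain ⟨Mq, hMq⟩ : ∃ Mq, Mq = ∏ j, q j := ⟨_, rfl⟩
  have hMq0 : 0 < Mq := by
    rw [hMq]; exact Finset.prod_pos fun j _ => (hq1 j).1.pos
  obtain ⟨κ, hκ⟩ : ∃ κ, κ = K + 5 + Mq := ⟨_, rfl⟩
  obtain ⟨lam, rho, nu, g1, g2, g3, g4, g5⟩ := hgrid q hq2 hq3 κ α (fun w => (w.map φ).prod)
    (fun u v => by rw [List.map_append, List.prod_append])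
  obtain ⟨X, hX1, hX2, hX3⟩ := Crest.Agent.R320.Thin963.thin K m (Finset.univ.image q)
    (fun i => (G κ i : ℤ)) (fun i => (((∏ j, q j) * G κ i : ℕ) : ℤ))
    (fun i => (Am (∏ j, q j) κ i : ℤ))
    (fun p hp => by
      obtain ⟨j, -, rfl⟩ := Finset.mem_image.1 hp
      exact hq1 j)
    (fun p hp => by
      obtain ⟨j, -, rfl⟩ := Finset.mem_image.1 hp
      refine Nat.isCoprime_iff_coprime.2 ?_
      unfold G
      refine Nat.Coprime.pow_right _ ?_
      exact (Nat.coprime_two_left.2 (hq2 j)).symm)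
    (by exact_mod_cast G_pos m)
    (fun i j hij => Int.natCast_dvd_natCast.2 (G_dvd hij))
    (fun i => by
      have : 0 < (∏ j, q j) * G κ i := Nat.mul_pos (hMq ▸ hMq0) (G_pos i)
      exact_mod_cast this)
    (fun i => Int.natCast_dvd_natCast.2 (Dvd.intro_left _ rfl))
    (fun i _ => by
      have h := grow K Mq i
      rw [← hκ, hMq] at h
      have h' : 2 ^ (K + 4) * ∑ j ∈ Finset.range (i + 1), (∏ j, q j) * G κ j ≤ G κ (i + 1) := h
      exact_mod_cast h')
    (2 * (Am (∏ j, q j) κ m + 1) + 1 : ℕ)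
  obtain ⟨x, rfl⟩ : ∃ x : ℕ, X = (x : ℤ) := ⟨X.toNat, (Int.toNat_of_nonneg hX2.le).symm⟩
  have hx : 2 * (Am (∏ j, q j) κ m + 1) + 1 ≤ x := by exact_mod_cast hX1
  obtain ⟨p0, hp0⟩ : ∃ p0, p0 = x * 2 ^ K := ⟨_, rfl⟩
  have hcp : ∀ k < K, x * 2 ^ k ≤ p0 := by
    intro k hk
    rw [hp0]
    exact Nat.mul_le_mul_left _ (Nat.pow_le_pow_right (by norm_num) hk.le)
  obtain ⟨lam2, rho2, nu2, e1, e2⟩ := hK (fun j => x * 2 ^ j) (fun i j hij _ =>
    Nat.mul_lt_mul_of_pos_left (Nat.pow_lt_pow_right (by norm_num) hij) (by omega))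
  obtain ⟨N1, hN1⟩ : ∃ N1, N1 = Am (∏ j, q j) κ m + 1 := ⟨_, rfl⟩
  obtain ⟨n, G', B', Wo, hLW, hgap, -, -, hfree⟩ :=
    Crest.Agent.R320.LWallAll_922.walls_all_left α (2 * p0 + 2 * N1) (by omega)
  obtain ⟨q0, hq0⟩ : ∃ q0, q0 = n + 3 * p0 + 2 * Am (∏ j, q j) κ (m + 1) := ⟨_, rfl⟩
  let g : Geo α :=
    { Wo := Wo, n := n, z := p0 + N1 + q0, p0 := p0, q0 := q0, N1 := N1
      loc := hLW.app
      hz := rfl
      hq := by omega
      hN := by omega
      hqp := by omega }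
  have hdat : Dat act φ g (max B' (2 * p0 + 2 * N1)) 2
      (2 * Am (∏ j, q j) κ (m + 1) + Am (∏ j, q j) κ m) ((∏ j, q j) * G κ m) K (k + m)
      lam rho (nuS act φ lam rho nu) (BT q κ m) (fun j => x * 2 ^ j)
      lam2 (fun k Q => rho2 k Q 1) (fun X => nu2 X 1) := by
    refine ⟨hadd, hone, hmul, hfaith, hLW.len, ?_, ?_, ?_, ?_, ?_, ?_, ?_, ?_, ?_, ?_, ?_, ?_, ?_⟩
    · -- free
      intro u hu
      obtain ⟨a, y, b, i, h1, h2, h3, h4⟩ := hfree u hu
      refine Language.mem_mul.2 ⟨a ++ (List.replicate i y).flatten, ⟨a, y, i, by omega, by omega,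
        rfl⟩, b, Language.mem_mul.2 ⟨b, ⟨b, [], 0, by omega, by simp, ?_⟩, [], rfl, by simp⟩,
        h4.symm⟩
      exact (List.append_nil b).symm
    · intro P v h
      show P.length ≤ N1
      have := (g1 P v h).1
      omega
    · intro P Q u b h1 h2
      exact nuS_sound act g3 P Q u b h1 h2
    · intro Y hY u
      have hY' : ¬ BT q κ m Y.length := hY
      unfold BT at hY'
      push Not at hY'
      obtain ⟨h1, h2, h3⟩ := hY'
      exact g4 Y h1 h2 h3 u
    · exact Nat.mul_pos (hMq ▸ hMq0) (G_pos m)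
    · intro Y Y' h1 h2 h3 h4 h5
      refine nuS_sim (D := 2 * Am (∏ j, q j) κ (m + 1) + Am (∏ j, q j) κ m)
        (M0 := (∏ j, q j) * G κ m) act g3 (L := Am (∏ j, q j) κ m)
        (D' := Am (∏ j, q j) κ (m + 1)) (fun P v h => (g1 P v h).1.le) (by omega) ?_
        ⟨h1, h2, h3, h4, h5⟩
      rintro Q Q' ⟨a1, a2, a3, a4, a5⟩
      exact g5 Q Q' a1 a2 a3 a4 a5
    · intro T T' h1 h2 h
      exact ⟨BT_dep q κ (by omega) (by omega) h, BT_dep q κ (by omega) (by omega) h.symm⟩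
    · intro k hk
      exact hcp k hk
    · intro k hk P Q v u h1 _ h2 h3
      have := e1 k hk P Q 1 v u h1 h2 h3
      rw [mul_one] at this
      exact this
    · intro P Q h1 h2 h3
      show 2 * p0 + 2 * N1 < Q.length
      have hQ : 0 < Q.length := List.length_pos_of_ne_nil h3
      have := hgap (P ++ Q) P.length (P ++ Q).length (by rw [List.length_append]; omega) le_rfl
        (by rw [List.take_left]; exact h1) (by rw [List.take_length]; exact h2)
      rw [List.length_append] at this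
      omega
    · intro k k' l l' _ _ _ _ h1 h2 h3 h4
      exact ruler (x := x) (N := N1) (by omega) k k' l l' h1 h2 h3 h4
    · intro τ hτ J hJ
      refine thin_nat q κ x p0 le_rfl ?_ hcp τ ?_ J hJ
      · intro T s hs
        refine le_trans (Finset.card_le_card ?_) ((hX3 T).trans ?_)
        · intro p hp
          obtain ⟨a1, a2, a3, a4⟩ := hs p hp
          exact Finset.mem_filter.2 ⟨Finset.mem_product.2 ⟨Finset.mem_range.2 a1,
            Finset.mem_range.2 a2⟩, a3, a4⟩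
        · refine Nat.add_le_add_right (Finset.card_image_le.trans ?_) m
          simp
      · have : p0 + N1 + q0 ≤ τ + p0 := hτ
        omega
    · intro X hX v
      have hX' : p0 ≤ X.length := hX
      obtain ⟨I, h1, h2⟩ := e2 (X.take p0) 1 v (fun k hk => by
        rw [List.length_take]
        have := hcp k hk
        show x * 2 ^ k ≤ min p0 X.length
        omega)
      refine ⟨I, h1, fun k hk => ?_⟩
      obtain ⟨h3, h4, h5⟩ := h2 k hk
      refine ⟨h3, ?_, h5⟩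
      rw [List.take_take, Nat.min_eq_left (hcp k h3)] at h4
      exact h4
  exact join hdat (by show 0 < p0 + N1 + q0; omega) s

end Crest.Agent.R320.Fin_86

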