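import Crest.Agent.R320.Top5_120
import Crest.Agent.R320.Sc2n_937
import Crest.Agent.R320.Grid_899
import Crest.Agent.R320.Thin_963
import Crest.Agent.R320.ExactR_237
import Crest.Agent.R320.LWallAll_922
import Crest.Agent.R320.P4_933

/-!
# Row 320: constants and join (helper865)
-/

set_option autoImplicit false

namespace Crest.Agent.R320.Fin_865

open Crest.RegLang Crest.Agent.R320.Hk_851 Crest.Agent.R320.BddReg_746

theorem drop_snoc {α : Type*} (A : ℕ) (u : List α) (a : α) :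
    (u ++ [a]).drop A = if u.length < A then [] else u.drop A ++ [a] := by
  split_ifs with h
  · exact List.drop_eq_nil_of_le (by simp; omega)
  · exact List.drop_append_of_le_length (by omega)

/-- finite-state properties are regular (prefix, length, value of the rest) -/
theorem regular_of_class2 {α : Type*} [Finite α] {S : Type*} [Monoid S] [Finite S] (φ : α → S)
    (A M0 : ℕ) (hM : 0 < M0) (f : List α → Prop)
    (hf : ∀ u u' : List α, A ≤ u.length → A ≤ u'.length → u.take A = u'.take A →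
      u.length % M0 = u'.length % M0 →
      ((u.drop A).map φ).prod = ((u'.drop A).map φ).prod → (f u ↔ f u')) :
    Language.IsRegular ({u | f u} : Language α) := by
  classical
  haveI : NeZero M0 := ⟨by omega⟩
  have hfin : Finite {l : List α // l.length ≤ A} := List.finite_length_le α A
  let σ := {l : List α // l.length ≤ A} × ZMod M0 × S
  haveI : Fintype σ := Fintype.ofFinite σ
  let st : List α → σ := fun u =>
    (⟨u.take A, by rw [List.length_take]; omega⟩, (u.length : ZMod M0), ((u.drop A).map φ).prod)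
  let M : DFA α σ :=
    { step := fun q a =>
        (if h : q.1.1.length < A then ⟨q.1.1 ++ [a], by simp; omega⟩ else q.1,
          q.2.1 + 1, if q.1.1.length < A then 1 else q.2.2 * φ a)
      start := st []
      accept := {q | ∃ u, f u ∧ st u = q} }
  have hev : ∀ u, M.eval u = st u := by
    intro u
    induction u using List.reverseRecOn with
    | nil => rfl
    | append_singleton u a ih =>
      rw [DFA.eval_append_singleton, ih]
      refine Prod.ext ?_ (Prod.ext ?_ ?_)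
      · apply Subtype.ext
        show (if h : (u.take A).length < A then (⟨u.take A ++ [a], by simp at h ⊢; omega⟩ :
          {l : List α // l.length ≤ A}) else ⟨u.take A, by rw [List.length_take]; omega⟩).1
          = (u ++ [a]).take A
        rw [P4_933.take_snoc]
        split_ifs <;> rfl
      · show (u.length : ZMod M0) + 1 = (((u ++ [a]).length : ℕ) : ZMod M0)
        simp
      · show (if (u.take A).length < A then 1 else ((u.drop A).map φ).prod * φ a)
          = (((u ++ [a]).drop A).map φ).prod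
        rw [drop_snoc]
        have e : (u.take A).length < A ↔ u.length < A := by rw [List.length_take]; omega
        by_cases h : u.length < A
        · rw [if_pos (e.2 h), if_pos h]; simp
        · rw [if_neg (fun h' => h (e.1 h')), if_neg h]; simp
  refine Language.isRegular_iff.2 ⟨σ, inferInstance, M, ?_⟩
  ext u
  rw [DFA.mem_accepts, hev]
  constructor
  · rintro ⟨u', h1, h2⟩
    have e1 : u'.take A = u.take A := congrArg (fun q : σ => q.1.1) h2
    have e2 : (u'.length : ZMod M0) = (u.length : ZMod M0) := congrArg (fun q : σ => q.2.1) h2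
    have e3 : ((u'.drop A).map φ).prod = ((u.drop A).map φ).prod :=
      congrArg (fun q : σ => q.2.2) h2
    have e2' : u'.length % M0 = u.length % M0 := (ZMod.natCast_eq_natCast_iff' _ _ _).1 e2
    have e4 := congrArg List.length e1
    rw [List.length_take, List.length_take] at e4
    by_cases h : u.length < A
    · rw [List.take_of_length_le (by omega), List.take_of_length_le (by omega)] at e1
      rw [← e1]; exact h1
    · exact (hf u' u (by omega) (by omega) e1 e2' e3).1 h1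
  · intro h
    exact ⟨u, h, rfl⟩

/-- the bad totals of the grid gadget -/
def BT (MsF : Finset ℕ) (P κ m : ℕ) (n : ℤ) : Prop :=
  Thin963.BadT MsF m (fun i => (Grid_899.G κ i : ℤ)) (fun i => (P : ℤ) * (Grid_899.G κ i : ℤ))
    (fun i => (Grid_899.Am P κ i : ℤ)) n

theorem band {MsF : Finset ℕ} {P κ m n : ℕ} (h : ¬ BT MsF P κ m (n : ℤ))
    (hn : Grid_899.Am P κ (m + 1) ≤ n) :
    (∀ q ∈ MsF, ¬ q ∣ n) ∧ ∀ j, 1 ≤ j → j ≤ m →
      P * Grid_899.G κ (j - 1) ≤ (n - Grid_899.Am P κ j) % Grid_899.G κ j ∧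
      (n - Grid_899.Am P κ j) % Grid_899.G κ j + P * Grid_899.G κ (j - 1) ≤ Grid_899.G κ j := by
  constructor
  · intro q hq hd
    exact h (Or.inl ⟨q, hq, by exact_mod_cast hd⟩)
  · intro j h1 hj
    obtain ⟨i, rfl⟩ : ∃ i, j = i + 1 := ⟨j - 1, by omega⟩
    simp only [Nat.add_sub_cancel]
    have hAj : Grid_899.Am P κ (i + 1) ≤ n := le_trans (Grid_899.Am_mono (by omega)) hn
    have hg : 0 < Grid_899.G κ (i + 1) := Grid_899.G_pos _
    have hmd := Nat.mod_add_div (n - Grid_899.Am P κ (i + 1)) (Grid_899.G κ (i + 1))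
    have hlt := Nat.mod_lt (n - Grid_899.Am P κ (i + 1)) hg
    set g := Grid_899.G κ (i + 1) with hgdef
    set r := (n - Grid_899.Am P κ (i + 1)) % g with hr
    set d := (n - Grid_899.Am P κ (i + 1)) / g with hd
    have hdiv : (g : ℤ) ∣ (n : ℤ) - (Grid_899.Am P κ (i + 1) : ℤ) - r := by
      refine ⟨(d : ℤ), ?_⟩
      have h2 : ((r + g * d : ℕ) : ℤ) = (n : ℤ) - (Grid_899.Am P κ (i + 1) : ℤ) := by
        rw [hmd]; push_cast [Nat.cast_sub hAj]; ring
      push_cast at h2
      linarith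
    constructor
    · by_contra hcon
      have hcon' : r < P * Grid_899.G κ i := not_le.1 hcon
      refine h (Or.inr ⟨i, by omega, -(r : ℤ), ?_, ?_⟩)
      · rw [abs_neg, abs_of_nonneg (by positivity)]
        show (r : ℤ) ≤ (P : ℤ) * (Grid_899.G κ i : ℤ)
        exact_mod_cast hcon'.le
      · show (g : ℤ) ∣ (n : ℤ) - (Grid_899.Am P κ (i + 1) : ℤ) + -(r : ℤ)
        rw [← sub_eq_add_neg]; exact hdiv
    · by_contra hcon
      have hcon' : g < r + P * Grid_899.G κ i := not_le.1 hcon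
      refine h (Or.inr ⟨i, by omega, (g : ℤ) - (r : ℤ), ?_, ?_⟩)
      · rw [abs_of_nonneg (by have : (r : ℤ) < g := by exact_mod_cast hlt
                              linarith)]
        have : (g : ℤ) < r + P * (Grid_899.G κ i : ℤ) := by exact_mod_cast hcon'
        show (g : ℤ) - r ≤ (P : ℤ) * (Grid_899.G κ i : ℤ)
        linarith
      · show (g : ℤ) ∣ (n : ℤ) - (Grid_899.Am P κ (i + 1) : ℤ) + ((g : ℤ) - (r : ℤ))
        have e : (n : ℤ) - (Grid_899.Am P κ (i + 1) : ℤ) + ((g : ℤ) - (r : ℤ))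
            = ((n : ℤ) - (Grid_899.Am P κ (i + 1) : ℤ) - r) + g := by ring
        rw [e]; exact dvd_add hdiv (dvd_refl _)

theorem bt_per {MsF : Finset ℕ} {P κ m : ℕ} (hP : ∀ q ∈ MsF, q ∣ P) {n n' : ℤ}
    (h : ((P * Grid_899.G κ m : ℕ) : ℤ) ∣ n - n') (hb : BT MsF P κ m n) : BT MsF P κ m n' := by
  rcases hb with ⟨q, hq, hd⟩ | ⟨i, hi, e, he, hd⟩
  · left
    refine ⟨q, hq, ?_⟩
    have h1 : (q : ℤ) ∣ n - n' :=
      dvd_trans (by exact_mod_cast (dvd_mul_of_dvd_left (hP q hq) _)) h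
    have : n' = n - (n - n') := by ring
    rw [this]; exact dvd_sub hd h1
  · right
    refine ⟨i, hi, e, he, ?_⟩
    have h1 : ((Grid_899.G κ (i + 1) : ℕ) : ℤ) ∣ n - n' := by
      refine dvd_trans ?_ h
      have h2 : Grid_899.G κ (i + 1) ∣ P * Grid_899.G κ m :=
        dvd_mul_of_dvd_right (Grid_899.G_dvd (by omega)) _
      exact_mod_cast h2
    have hd' : ((Grid_899.G κ (i + 1) : ℕ) : ℤ) ∣ n - (Grid_899.Am P κ (i + 1) : ℤ) + e := hd
    show ((Grid_899.G κ (i + 1) : ℕ) : ℤ) ∣ n' - (Grid_899.Am P κ (i + 1) : ℤ) + e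
    have : n' - (Grid_899.Am P κ (i + 1) : ℤ) + e
        = (n - (Grid_899.Am P κ (i + 1) : ℤ) + e) - (n - n') := by ring
    rw [this]; exact dvd_sub hd' h1

theorem grow (K P : ℕ) : ∀ m, ∀ i < m, (2 : ℤ) ^ (K + 4) *
    ∑ j ∈ Finset.range (i + 1), ((P : ℤ) * (Grid_899.G (K + 5 + P) j : ℤ))
      ≤ (Grid_899.G (K + 5 + P) (i + 1) : ℤ) := by
  intro m i _
  set κ := K + 5 + P with hκ
  have hs : ∀ i, (∑ j ∈ Finset.range (i + 1), ((2 : ℤ) ^ κ) ^ j) ≤ 2 * ((2 : ℤ) ^ κ) ^ i := by
    intro i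
    induction i with
    | zero => simp
    | succ i ih =>
      rw [Finset.sum_range_succ]
      have h2 : (2 : ℤ) ≤ 2 ^ κ := by
        calc (2 : ℤ) = 2 ^ 1 := by norm_num
          _ ≤ 2 ^ κ := pow_le_pow_right₀ (by norm_num) (by omega)
      have h3 : 2 * ((2 : ℤ) ^ κ) ^ i ≤ (2 ^ κ) ^ (i + 1) := by
        rw [pow_succ, mul_comm]
        exact mul_le_mul_of_nonneg_left h2 (by positivity)
      linarith
  have hG : ∀ j, (Grid_899.G κ j : ℤ) = ((2 : ℤ) ^ κ) ^ j := by
    intro j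
    unfold Grid_899.G
    push_cast
    rw [pow_mul]
  simp only [hG]
  rw [← Finset.mul_sum]
  have hP : (P : ℤ) ≤ 2 ^ P := by exact_mod_cast (Nat.lt_two_pow_self (n := P)).le
  have h1 := hs i
  calc (2 : ℤ) ^ (K + 4) * ((P : ℤ) * ∑ j ∈ Finset.range (i + 1), ((2 : ℤ) ^ κ) ^ j)
      ≤ 2 ^ (K + 4) * (2 ^ P * (2 * (2 ^ κ) ^ i)) := by
        refine mul_le_mul_of_nonneg_left ?_ (by positivity)
        exact mul_le_mul hP h1 (Finset.sum_nonneg fun _ _ => by positivity) (by positivity)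
    _ = (2 ^ κ) ^ (i + 1) := by
        rw [pow_succ (2 ^ κ : ℤ) i, hκ]
        ring

/-- **the join** -/
theorem fin (α : Type) [Finite α] (S : Type) [Monoid S] [Finite S] (φ : α → S) (s : S) :
    HL 3 ({w | (w.map φ).prod = s} : Language α) := by
  classical
  haveI := Fintype.ofFinite S
  obtain ⟨act, hadd, hone, hmul, hfaith⟩ := Crest.Agent.R320.Blk467.exists_module S
  obtain ⟨k, m, H⟩ := Grid_899.grid_gadget_reg S (S → ZMod 2) act
  obtain ⟨K, HK⟩ := ExactR_237.exact_gadget α S (S → ZMod 2) φ act (2 * (k + m) + 2)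
  -- primes
  let q : Fin k → ℕ := fun j => Nat.nth Nat.Prime (2 ^ (K + 1) + 2 + j)
  have hqp : ∀ j, (q j).Prime := fun j => Nat.prime_nth_prime _
  have hmono := Nat.nth_strictMono Nat.infinite_setOfPred_prime
  have hqge : ∀ j : Fin k, 2 ^ (K + 1) + 2 + (j : ℕ) ≤ q j := fun j => hmono.le_apply
  have hK1pos : 0 < 2 ^ (K + 1) := by positivity
  have hqodd : ∀ j, Odd (q j) := fun j => (hqp j).odd_of_ne_two (by have := hqge j; omega)
  have hqinj : Function.Injective q := fun i j h => Fin.ext (by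
    have := hmono.injective h
    omega)
  have hqcop : Pairwise (fun i j => Nat.Coprime (q i) (q j)) := fun i j hij =>
    (Nat.coprime_primes (hqp i) (hqp j)).2 (fun h => hij (hqinj h))
  obtain ⟨P, hPdef⟩ : ∃ P, P = ∏ j, q j := ⟨_, rfl⟩
  have hPpos : 0 < P := by rw [hPdef]; exact Finset.prod_pos fun j _ => (hqp j).pos
  obtain ⟨lam, rho, nu1, hlam, hrho, hsnd, hcmp, hreg⟩ :=
    H q hqodd hqcop (K + 5 + P) α (fun w => (w.map φ).prod) (fun u v => by simp)
  rw [← hPdef] at hlam hrho hcmp hreg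
  obtain ⟨κ, hκ⟩ : ∃ κ, κ = K + 5 + P := ⟨_, rfl⟩
  have hgrow := grow K P m
  rw [← hκ] at hlam hrho hcmp hreg hgrow
  obtain ⟨A1, hA1⟩ : ∃ A1, A1 = Grid_899.Am P κ (m + 1) := ⟨_, rfl⟩
  have hAm : Grid_899.Am P κ m ≤ A1 := by rw [hA1]; exact Grid_899.Am_mono (by omega)
  let MsF : Finset ℕ := Finset.univ.image q
  have hMsF : MsF.card ≤ k := (Finset.card_image_le).trans (by simp)
  have hMsP : ∀ p ∈ MsF, p ∣ P := by
    intro p hp
    obtain ⟨j, -, rfl⟩ := Finset.mem_image.1 hp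
    rw [hPdef]; exact Finset.dvd_prod_of_mem q (Finset.mem_univ j)
  obtain ⟨N1, hN1⟩ : ∃ N1, N1 = 2 * A1 + 1 := ⟨_, rfl⟩
  obtain ⟨X, hX1, hX0, hX⟩ := Thin963.thin K m MsF (fun i => (Grid_899.G κ i : ℤ))
    (fun i => (P : ℤ) * (Grid_899.G κ i : ℤ)) (fun i => (Grid_899.Am P κ i : ℤ))
    (by
      intro p hp
      obtain ⟨j, -, rfl⟩ := Finset.mem_image.1 hp
      exact ⟨hqp j, by have := hqge j; omega⟩)
    (by
      intro p hp
      obtain ⟨j, -, rfl⟩ := Finset.mem_image.1 hp
      have : Nat.Coprime (q j) (Grid_899.G κ m) := by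
        unfold Grid_899.G
        exact Nat.Coprime.pow_right _ ((Nat.coprime_two_right).2 (hqodd j))
      exact Nat.isCoprime_iff_coprime.2 this)
    (by show (0 : ℤ) < (Grid_899.G κ m : ℤ); exact_mod_cast Grid_899.G_pos (κ := κ) m)
    (by
      intro i j hij
      show (Grid_899.G κ i : ℤ) ∣ (Grid_899.G κ j : ℤ)
      exact_mod_cast Grid_899.G_dvd (κ := κ) hij)
    (by
      intro i
      have h1 : 0 < Grid_899.G κ i := Grid_899.G_pos i
      show (0 : ℤ) < (P : ℤ) * (Grid_899.G κ i : ℤ)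
      positivity)
    (by intro i; exact dvd_mul_left _ _)
    (by intro i hi; exact hgrow i hi)
    (2 * (N1 : ℤ) + 1)
  obtain ⟨x, rfl⟩ : ∃ x : ℕ, X = (x : ℤ) := ⟨X.toNat, by omega⟩
  have hx : 2 * N1 + 1 ≤ x := by exact_mod_cast hX1
  have hxpos : 0 < x := by omega
  obtain ⟨cc, hcc⟩ : ∃ cc : ℕ → ℕ, cc = fun j => x * 2 ^ j := ⟨_, rfl⟩
  obtain ⟨p0, hp0⟩ : ∃ p0, p0 = x * 2 ^ K := ⟨_, rfl⟩
  have hcK : ∀ i, i < K → cc i ≤ p0 := by
    intro i hi
    rw [hcc, hp0]
    exact Nat.mul_le_mul_left _ (Nat.pow_le_pow_right (by norm_num) hi.le)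
  obtain ⟨lam2, rho2, nu2, hs2, hc2⟩ := HK cc (by
    intro i j hij _
    rw [hcc]
    exact Nat.mul_lt_mul_of_pos_left (Nat.pow_lt_pow_right (by norm_num) hij) hxpos)
  obtain ⟨n, G0, B, Wo, hLW, hgapW, -, -, hfree⟩ :=
    LWallAll_922.walls_all_left α (2 * p0 + 2 * N1 + 1) (by omega)
  let g : Sc2n_937.Geo α :=
    { Wo := Wo, n := n, z := p0 + N1 + (n + 2 * p0), p0 := p0, q0 := n + 2 * p0, N1 := N1,
      loc := hLW.app, hz := rfl, hq := by omega, hN := by omega, hqp := by omega }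
  have gz : g.z = p0 + N1 + (n + 2 * p0) := rfl
  have gp : g.p0 = p0 := rfl
  have gN : g.N1 = N1 := rfl
  have gW : g.Wo = Wo := rfl
  let pre : List α → (S → ZMod 2) → (S → ZMod 2) := fun Y v => act v (Y.map φ).prod + nu2 Y 1
  let post : (S → ZMod 2) → List α → (S → ZMod 2) := fun u Y => act u (Y.map φ).prod + nu1 Y
  let nu : List α → (S → ZMod 2) := fun Y =>
    act (nu2 (Y.take p0) 1) ((Y.drop p0).map φ).prod + nu1 (Y.drop p0)
  have hT : ∀ v Y, g.T pre post v Y = act v (Y.map φ).prod + nu Y := by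
    intro v Y
    have e : (Y.map φ).prod = ((Y.take p0).map φ).prod * ((Y.drop p0).map φ).prod := by
      rw [← List.prod_append, ← List.map_append, List.take_append_drop]
    show act (act v ((Y.take p0).map φ).prod + nu2 (Y.take p0) 1) ((Y.drop p0).map φ).prod
      + nu1 (Y.drop p0) = _
    rw [hadd, ← hmul, ← e, add_assoc]
  let BadT : ℕ → Prop := fun t => BT MsF P κ m (t : ℤ)
  have hcomp : ∀ u : List α, 2 * A1 ≤ u.length → ¬ BadT u.length → ∀ v,
      ∃ P' Q', u = P' ++ Q' ∧ lam P' = some v ∧ (rho Q').isSome := by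
    intro u hu hb
    obtain ⟨h1, h2⟩ := band hb (by rw [← hA1]; omega)
    exact hcmp u (by rw [← hA1]; exact hu)
      (fun j => h1 _ (Finset.mem_image_of_mem q (Finset.mem_univ j)))
      (fun j hj hj' => h2 j hj hj')
  have hlen : ∀ P' v, lam P' = some v → P'.length ≤ N1 := by
    intro P' v h
    have := (hlam P' v h).1
    omega
  have hex : ∀ P' Q' u b, lam P' = some u → rho Q' = some b → b = post u (P' ++ Q') :=
    fun P' Q' u b h1 h2 => hsnd P' Q' u b h1 h2
  have hex2 : ∀ i, i < K → ∀ P' Q' v u, P'.length = cc i → Q'.length = g.p0 - cc i →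
      lam2 i P' = some v → rho2 i Q' 1 = some u → u = pre (P' ++ Q') v := by
    intro i hi P' Q' v u hP' _ h1 h2
    have := hs2 i hi P' Q' 1 v u hP' h1 h2
    rw [mul_one] at this
    exact this
  -- locality
  have hsplit : ∀ (A c : ℕ) (u : List α), c ≤ A → A ≤ u.length →
      u.drop c = (u.take A).drop c ++ u.drop A := by
    intro A c u hc hu
    conv_lhs => rw [← List.take_append_drop A u]
    rw [List.drop_append_of_le_length (by rw [List.length_take]; omega)]
  have hφs : ∀ (A c : ℕ) (u u' : List α), c ≤ A → A ≤ u.length → A ≤ u'.length →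
      u.take A = u'.take A → ((u.drop A).map φ).prod = ((u'.drop A).map φ).prod →
      ((u.drop c).map φ).prod = ((u'.drop c).map φ).prod := by
    intro A c u u' hc hu hu' ht hp
    rw [hsplit A c u hc hu, hsplit A c u' hc hu', List.map_append, List.prod_append,
      List.map_append, List.prod_append, ht, hp]
  have htk : ∀ (A c : ℕ) (u u' : List α), c ≤ A → u.take A = u'.take A → u.take c = u'.take c := by
    intro A c u u' hc ht
    have h1 := congrArg (fun l => l.take c) ht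
    simpa [List.take_take, Nat.min_eq_left hc] using h1
  have htd : ∀ (A c d : ℕ) (u u' : List α), c + d ≤ A → u.take A = u'.take A →
      (u.drop c).take d = (u'.drop c).take d := by
    intro A c d u u' h ht
    have h1 := htk A (c + d) u u' h ht
    have e : ∀ w : List α, (w.drop c).take d = (w.take (c + d)).drop c := fun w => by
      rw [List.drop_take]; simp
    rw [e, e, h1]
  obtain ⟨M0, hM0⟩ : ∃ M0, M0 = P * Grid_899.G κ m := ⟨_, rfl⟩
  have hM0pos : 0 < M0 := by rw [hM0]; exact Nat.mul_pos hPpos (Grid_899.G_pos m)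
  obtain ⟨Az, hAz⟩ : ∃ Az, Az = p0 + N1 + (n + 2 * p0) + N1 := ⟨_, rfl⟩
  have hcls : ∀ u u' : List α, Az ≤ u.length → Az ≤ u'.length → u.take Az = u'.take Az →
      u.length % M0 = u'.length % M0 →
      ((u.drop Az).map φ).prod = ((u'.drop Az).map φ).prod →
      (∀ v, act v (u.map φ).prod + nu u = act v (u'.map φ).prod + nu u') ∧
      (g.BadX BadT u → g.BadX BadT u') := by
    intro u u' hu hu' ht hl hp
    have hmod : (u.length - p0) ≡ (u'.length - p0) [MOD M0] := by
      refine Nat.ModEq.add_right_cancel' p0 ?_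
      rw [Nat.sub_add_cancel (by omega), Nat.sub_add_cancel (by omega)]
      exact hl
    constructor
    · intro v
      have e0 : (u.map φ).prod = (u'.map φ).prod := by
        have := hφs Az 0 u u' (by omega) hu hu' ht hp
        simpa using this
      have e1 : nu1 (u.drop p0) = nu1 (u'.drop p0) := by
        refine (hreg (u.drop p0) (u'.drop p0) ?_ ?_ ?_ ?_ ?_).2
        · rw [← hA1, List.length_drop]; omega
        · rw [← hA1, List.length_drop]; omega
        · rw [← hA1]; exact htd Az p0 A1 u u' (by omega) ht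
        · rw [← hA1, List.drop_drop, List.drop_drop]
          exact hφs Az (p0 + A1) u u' (by omega) hu hu' ht hp
        · rw [List.length_drop, List.length_drop, ← hM0]; exact hmod
      show act v (u.map φ).prod + (act (nu2 (u.take p0) 1) ((u.drop p0).map φ).prod
          + nu1 (u.drop p0))
        = act v (u'.map φ).prod + (act (nu2 (u'.take p0) 1) ((u'.drop p0).map φ).prod
          + nu1 (u'.drop p0))
      rw [e0, e1, htk Az p0 u u' (by omega) ht, hφs Az p0 u u' (by omega) hu hu' ht hp]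
    · rintro (⟨t, ht1, hw, h1, h2⟩ | hb)
      · left
        refine ⟨t, by omega, ?_, h1, h2⟩
        rw [← htk Az t u u' (by omega) ht]
        exact hw
      · right
        refine bt_per hMsP (n := ((u.length - p0 : ℕ) : ℤ)) ?_ hb
        rw [← hM0]
        exact (Nat.modEq_iff_dvd.1 hmod.symm)
  have hcls' : ∀ u u' : List α, Az ≤ u.length → Az ≤ u'.length → u.take Az = u'.take Az →
      u.length % M0 = u'.length % M0 →
      ((u.drop Az).map φ).prod = ((u'.drop Az).map φ).prod →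
      (g.BadX BadT u ↔ g.BadX BadT u') := fun u u' h1 h2 h3 h4 h5 =>
    ⟨(hcls u u' h1 h2 h3 h4 h5).2, (hcls u' u h2 h1 h3.symm h4.symm h5.symm).2⟩
  have hfree' : ∀ u : List α, (∀ t < u.length, ¬ Wo (u.take t)) →
      u ∈ (PN (max B (2 * p0 + 2 * N1 + 1)) 2 : Language α) := by
    intro u h
    obtain ⟨a, y, v, c, h1, h2, h3, rfl⟩ := hfree u h
    refine Language.mem_mul.2 ⟨a ++ pw y c, ⟨a, y, c, le_trans h1 (le_max_left _ _),
      le_trans h2 (le_max_right _ _), rfl⟩, v, ?_, rfl⟩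
    exact Language.mem_mul.2 ⟨v, ⟨v, [], 0, le_trans h3 (le_max_left _ _), by simp, by simp⟩,
      [], rfl, by simp⟩
  have hXX : ∀ Y : List α, P4_933.XX Wo g.z Y ↔ g.XX Y := fun Y =>
    ⟨fun h => ⟨h.2.1, h.1, fun t h1 h2 => h.2.2 t h2 h1⟩,
      fun h => ⟨h.2.1, h.1, fun t h1 h2 => h.2.2 t h2 h1⟩⟩
  have hgap : ∀ P' Q' : List α, g.Wo P' → g.Wo (P' ++ Q') → Q' ≠ [] →
      2 * g.p0 + 2 * g.N1 < Q'.length := by
    intro P' Q' h1 h2 h3
    have hq' : 0 < Q'.length := List.length_pos_iff.2 h3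
    have := hgapW (P' ++ Q') P'.length (P' ++ Q').length
      (by rw [List.length_append]; omega) le_rfl
      (by rw [List.take_left]; exact h1) (by rw [List.take_length]; exact h2)
    rw [List.length_append] at this
    omega
  have hsp : ∀ a a' l l', a < K → a' < K → l < K → l' < K → a' ≠ a → l' ≠ l →
      cc a + cc l' < cc l + cc a' + 2 * g.N1 → cc l + cc a' < cc a + cc l' + 2 * g.N1 → a = l := by
    intro a a' l l' _ _ _ _ hna hnl h1 h2
    have hd : (2 : ℤ) ^ a' - 2 ^ a = 2 ^ l' - 2 ^ l := by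
      by_contra hne
      have h3 : (1 : ℤ) ≤ |((2 : ℤ) ^ a' - 2 ^ a) - (2 ^ l' - 2 ^ l)| :=
        Int.one_le_abs (sub_ne_zero.2 hne)
      have h4 : (x : ℤ) * (((2 : ℤ) ^ a' - 2 ^ a) - (2 ^ l' - 2 ^ l))
          = ((cc a' : ℤ) - cc a) - ((cc l' : ℤ) - cc l) := by
        rw [hcc]; push_cast; ring
      have h5 : |(x : ℤ) * (((2 : ℤ) ^ a' - 2 ^ a) - (2 ^ l' - 2 ^ l))| < 2 * (N1 : ℤ) := by
        rw [h4, abs_lt]
        constructor <;> omega
      rw [abs_mul, abs_of_nonneg (by positivity : (0 : ℤ) ≤ x)] at h5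
      have h6 : (x : ℤ) * 1 ≤ x * |((2 : ℤ) ^ a' - 2 ^ a) - (2 ^ l' - 2 ^ l)| :=
        mul_le_mul_of_nonneg_left h3 (by positivity)
      have h7 : (2 * (N1 : ℤ) + 1) ≤ x := by exact_mod_cast hx
      linarith
    exact (Crest.Agent.R320.G369.pow_diff hna hnl hd).2
  have hthin : ∀ τ, g.z ≤ τ + g.p0 → ∀ J : Finset ℕ, (∀ a ∈ J, a < K ∧
      ∃ a', a' < K ∧ a' ≠ a ∧ BadT (τ + cc a' - cc a - g.p0)) → J.card ≤ k + m := by
    intro τ hτ J hJ
    have key := hX ((τ : ℤ) - p0)
    refine le_trans ?_ (key.trans (by omega))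
    have h1 : ∀ a ∈ J, ∃ b, (b, a) ∈ (((Finset.range K) ×ˢ (Finset.range K)).filter
        (fun p => p.1 ≠ p.2 ∧ Thin963.BadT MsF m (fun i => (Grid_899.G κ i : ℤ))
          (fun i => (P : ℤ) * (Grid_899.G κ i : ℤ)) (fun i => (Grid_899.Am P κ i : ℤ))
          ((τ : ℤ) - p0 + (x : ℤ) * 2 ^ p.1 - (x : ℤ) * 2 ^ p.2))) := by
      intro a ha
      obtain ⟨haK, b, hbK, hba, hb⟩ := hJ a ha
      refine ⟨b, ?_⟩
      rw [Finset.mem_filter, Finset.mem_product, Finset.mem_range, Finset.mem_range]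
      refine ⟨⟨hbK, haK⟩, hba, ?_⟩
      have hca := hcK a haK
      have e1 : (cc b : ℤ) = (x : ℤ) * 2 ^ b := by rw [hcc]; push_cast; ring
      have e2 : (cc a : ℤ) = (x : ℤ) * 2 ^ a := by rw [hcc]; push_cast; ring
      have e : ((τ + cc b - cc a - p0 : ℕ) : ℤ)
          = (τ : ℤ) - p0 + (x : ℤ) * 2 ^ b - (x : ℤ) * 2 ^ a := by
        rw [← e1, ← e2]; omega
      rw [← e]
      exact hb
    choose! f hf using h1
    exact Finset.card_le_card_of_injOn (fun a => (f a, a)) (fun a ha => hf a ha)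
      (fun a _ b _ h => congrArg Prod.snd h)
  refine Crest.Agent.R320.Top5_120.top5 act hadd hone hmul hfaith φ nu
    {Y | g.XX Y} {Y | g.XX Y ∧ g.BadX BadT Y} ?_ (fun Y h => h.1)
    (fun v => {P' | g.LP1 pre lam v P'}) (fun v => {P' | Sc2n_937.Geo.LP2 K cc lam2 v P'})
    ?_ ?_ ?_ ?_ ?_ ?_ ?_ s
  · -- prefix code
    refine ⟨fun h => ?_, ?_⟩
    · have h1 : g.z ≤ ([] : List α).length := h.1
      simp at h1
      omega
    · rintro Y hY Y' hY' ⟨R, hR⟩
      exact g.prefix_code (R := R) (R' := []) hY hY' (by rw [hR]; simp)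
  · intro v
    refine (List.finite_length_le α (p0 + N1)).subset ?_
    rintro P' ⟨h1, h2⟩
    have h3 := hlen _ _ h2
    rw [List.length_drop] at h3
    show P'.length ≤ p0 + N1
    omega
  · intro v
    refine (List.finite_length_le α p0).subset ?_
    rintro P' ⟨i, hi, h1, _⟩
    show P'.length ≤ p0
    rw [h1]; exact hcK i hi
  · -- hCT
    intro a b
    refine (P4_933.hl_XX (z := g.z) hLW.app hLW.len hfree'
      (f := fun Y => act a (Y.map φ).prod + nu Y = b) ?_).congr fun w => ?_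
    · refine regular_of_class2 φ Az M0 hM0pos _ fun u u' h1 h2 h3 h4 h5 => ?_
      rw [(hcls u u' h1 h2 h3 h4 h5).1 a]
    · exact ⟨fun h => ⟨(hXX w).2 h.1, h.2⟩, fun h => ⟨(hXX w).1 h.1, h.2⟩⟩
  · -- hBT
    intro a b
    refine (P4_933.hl_XX (z := g.z) hLW.app hLW.len hfree'
      (f := fun Y => g.BadX BadT Y ∧ act a (Y.map φ).prod + nu Y = b) ?_).congr fun w => ?_
    · refine regular_of_class2 φ Az M0 hM0pos _ fun u u' h1 h2 h3 h4 h5 => ?_
      rw [(hcls u u' h1 h2 h3 h4 h5).1 a, hcls' u u' h1 h2 h3 h4 h5]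
    · exact ⟨fun h => ⟨(hXX w).2 h.1.1, h.1.2, h.2⟩, fun h => ⟨⟨(hXX w).1 h.1, h.2.1⟩, h.2.2⟩⟩
  · -- htail
    intro a
    refine (P4_933.hl_NB (z := g.z) hLW.app hLW.len hfree'
      (f := fun Y => (Y.map φ).prod = a) ?_).congr fun w => ?_
    · refine regular_of_class2 φ 0 1 one_pos _ fun u u' _ _ _ _ h5 => ?_
      simp only [List.drop_zero] at h5
      rw [h5]
    · constructor
      · rintro ⟨h1, h2⟩
        exact ⟨(P4_933.NB_iff Wo g.z w).2 fun P' hP' h => h1 P' ((hXX P').1 h) hP', h2⟩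
      · rintro ⟨h1, h2⟩
        exact ⟨fun P' hP' h => (P4_933.NB_iff Wo g.z w).1 h1 P' h ((hXX P').2 hP'), h2⟩
  · -- hcc1
    intro Xb hXb hnb v
    have hXb' : g.XX Xb := hXb
    have hE : ¬ g.E Xb := fun h => hnb ⟨hXb, Or.inl h⟩
    have hB : ¬ BadT (Xb.length - p0) := fun h => hnb ⟨hXb, Or.inr h⟩
    have hXl : g.z ≤ Xb.length := hXb'.1
    obtain ⟨P', Q', b, he, h1, h2⟩ := g.complete1 pre (rho := rho) hlen hXb' hE
      (fun u => hcomp (Xb.drop p0) (by rw [List.length_drop]; omega)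
        (by rw [List.length_drop]; exact hB) u) v
    refine ⟨P', Q', he.symm, h1, fun y P'' hP'' => ?_⟩
    have hs := g.sound1 pre post hlen hex hP'' h2
    have hs0 := g.sound1 pre post hlen hex h1 h2
    rw [← he] at hs0
    refine ⟨hs.1, ?_⟩
    rw [← hT, ← hT]
    exact hs.2.trans hs0.2.symm
  · -- hcc2
    intro Xb hXb Yb hYb v
    have hXl : g.z ≤ Xb.length := hXb.1.1
    obtain ⟨I, hI1, hI2⟩ := hc2 (Xb.take p0) 1 v (fun i hi => by
      rw [List.length_take]
      have := hcK i hi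
      omega)
    obtain ⟨P', Q', b, he, h1, h2⟩ := g.complete2 pre post (BadT := BadT) (K := K) (c := cc)
      (lam2 := lam2) (rho2 := fun i Q => rho2 i Q 1) (C0 := k + m) hcK hgap hsp hthin
      hXb.1 hYb.1 v ⟨I, hI1, fun i hi => by
        obtain ⟨h3, h4, h5⟩ := hI2 i hi
        refine ⟨h3, ?_, h5⟩
        rw [List.take_take, Nat.min_eq_left (hcK i h3)] at h4
        exact h4⟩
    obtain ⟨X2, hX2, he2, hb⟩ := g.sound2 pre post hcK hex2 hXb.1 hXb.2 h1 h2
      (R := []) (R' := Yb) (by rw [List.append_nil]; exact he)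
    have hX2Y : X2 = Yb := List.append_cancel_left (he2.symm.trans he)
    subst hX2Y
    refine ⟨P', Q', he, h1, fun y P'' hP'' => ?_⟩
    have h2' := h2
    have hP2 := hP''
    obtain ⟨k1, hk1, l, hend, hgood, hXr, u, hr, hb'⟩ := h2'
    obtain ⟨k0, hk0, hPl, hl⟩ := hP2
    by_cases hkk : k0 = k1
    · subst hkk
      have hx1 : g.XX (P'' ++ Q'.take l) :=
        g.xx_of_cend (by rw [hPl]; exact hcK _ hk0) (by rw [hPl]; exact hend)
      by_cases hbad : g.BadX BadT (P'' ++ Q'.take l)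
      · left
        obtain ⟨X3, hX3, he3, hb3⟩ := g.sound2 pre post hcK hex2 hx1 hbad hP'' h2
          (R := []) (R' := Q'.drop l)
          (by rw [List.append_nil, List.append_assoc, List.take_append_drop])
        refine ⟨_, ⟨hx1, hbad⟩, X3, hX3, he3.symm, ?_⟩
        rw [← hT y (P'' ++ Q'.take l), ← hT _ X3, ← hT v Xb, ← hT _ X2, hb3, hb]
      · right
        refine ⟨_, hx1, fun h => hbad h.2, ⟨Q'.drop l, ?_⟩⟩
        rw [List.append_assoc, List.take_append_drop]
    · right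
      obtain ⟨l', he', hg'⟩ := hgood k0 hk0 hkk
      have hx1 : g.XX (P'' ++ Q'.take l') :=
        g.xx_of_cend (by rw [hPl]; exact hcK _ hk0) (by rw [hPl]; exact he')
      refine ⟨_, hx1, fun h => hg' ?_, ⟨Q'.drop l', ?_⟩⟩
      · have h5 := g.cbad_of_bad (BadT := BadT) (P := P'') (Q := Q') (l := l')
          (by rw [hPl]; exact hcK _ hk0) (by rw [hPl]; exact he') h.2
        rw [hPl] at h5
        exact h5
      · rw [List.append_assoc, List.take_append_drop]

end Crest.Agent.R320.Fin_865
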