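import Crest.Agent.R320.Top5_163
import Crest.Agent.R320.TopSem_474
import Crest.Agent.R320.JointS_764
import Crest.Agent.R320.P4n_36
import Crest.Agent.R320.G1_852
import Crest.Agent.R320.Sp_21
import Crest.Agent.R320.ExactR_237
import Crest.Agent.R320.WallU_36
import Crest.Agent.R320.Univ_188
import Crest.Agent.R320.Loc_354
import Crest.Agent.R320.Block_467

set_option autoImplicit false

/-! # Row 320: the join (helper870)

Top: 163's `top` with 474's semantic right labels.  Concrete side: 764's `JointS`.  Gadget: 852's `G1`,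
ruler: 21's `Sp_21`, exact gadget: 237's `ExactR`, walls: 36's `WallU_36`, heights: `P4n_36`. -/

namespace Crest.Agent.R320.Fin_870

open Crest.RegLang Crest.Agent.R320.Hgt1_903

theorem row0 (α : Type) [Finite α] (S : Type) [Monoid S] [Finite S] (f : α → S) (s : S) :
    H 3 ({w | (w.map f).prod = s} : Language α) := by
  classical
  have := Fintype.ofFinite S
  obtain ⟨act, act_add, act_one, act_mul, faith⟩ := Blk467.exists_module S
  obtain ⟨m, r, hg⟩ := G1_852.gadget act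
  set C1 : ℕ := r + m with hC1
  set R : ℕ := 1 + (C1 + C1) with hR
  have : Fintype (S → ZMod 2) := Fintype.ofFinite _
  obtain ⟨K, hK⟩ := ExactR_237.exact_gadget α S (S → ZMod 2) f act (R + 1)
  obtain ⟨Ms, M, hcard, hMs, hM, hg2⟩ := hg (2 ^ (K + 1))
  set b : ℕ := (2 ^ (K + 4) + 2) * M + 1 with hb
  have hcop : Nat.Coprime b M := by
    rw [hb]
    simp
  obtain ⟨lam, rho, nu, hlen, hsound, hcompl, hinv⟩ := hg2 b (by omega) hcop α f
  obtain ⟨c, hc1, hc2, hc3⟩ := Sp_21.spoil K (b ^ m) m M b Ms hM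
    (fun k hk => ⟨(hMs k hk).2.2, (hMs k hk).1.le⟩) hcop (by omega)
  have hcm : ∀ i j, i < j → c i < c j := fun i j h => by have := hc1 i j h; omega
  obtain ⟨lam2, rho2, nu2, hs2, hcc2⟩ := hK c (fun i j hij _ => hcm i j hij)
  set N : ℕ := b ^ m with hN
  set L : ℕ := c K with hL
  set W : ℕ := 2 * (N + L) with hW
  obtain ⟨n, Wo, wapp, wlen, wgap, B, wdec⟩ := WallU_36.exists_lwalls_all α W
  set z : ℕ := L + N + n + L + 0 + 1 + L with hz
  let φ : List α → S := fun w => (w.map f).prod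
  have hφ : ∀ u v, φ (u ++ v) = φ u * φ v := fun u v => by simp [φ]
  have hφ1 : φ [] = 1 := by simp [φ]
  let D : JointS_764.Dat α S (S → ZMod 2) :=
    { φ := φ, act := act, Wo := Wo, n := n, W := W, z := z, p0 := L, N := N, N' := 0, K := K, L := L
      C1 := C1, R := R, c := c, lam1 := lam, rho1 := rho, nu1 := nu
      BadT := fun n => Sp_21.Bad m M b Ms n
      lam2 := lam2, rho2 := fun k Q => rho2 k Q 1, nu2 := fun X => nu2 X 1 }
  have hpr : ∀ w : List α, ExactR_237.pr f w = φ w := fun w => rfl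
  have ok : D.Ok := by
    refine
      { loc := wapp
        sep := ?_, s1 := ?_, l1 := ?_, c1 := ?_, s2 := ?_, c2 := ?_, ck := ?_, hL := ?_
        hrul := ?_, hsp := ?_, hR := le_rfl, hW := le_rfl, hz := ?_ }
    · intro P Q hP hPQ hQ
      by_contra hlt
      have hl : 0 < Q.length := List.length_pos_iff.2 hQ
      refine wgap (P ++ Q) Q.length hPQ hl (not_lt.1 hlt) ?_
      have e : (P ++ Q).take ((P ++ Q).length - Q.length) = P := by
        rw [List.length_append, Nat.add_sub_cancel, List.take_left]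
      rw [e]
      exact hP
    · intro P Q v b' h1 h2
      exact hsound P Q v b' h1 h2
    · intro P v h
      exact (hlen P v h).le
    · intro Y _ hB v
      have hB1 : ∀ k ∈ Ms, ¬ k ∣ Y.length := fun k hk hd => hB (Or.inl ⟨k, hk, hd⟩)
      have hB2 : ∀ j < m, M ≤ Y.length / b ^ j % b ∧ Y.length / b ^ j % b + M < b := by
        intro j hj
        by_contra hcon
        refine hB (Or.inr ⟨j, hj, fun h => hcon ⟨h.1, by omega⟩⟩)
      exact hcompl Y hB1 hB2 v
    · intro k hk P Q v b' h1 _ h3 h4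
      have := hs2 k hk P Q 1 v b' h1 h3 h4
      rw [mul_one] at this
      exact this
    · intro X0 hX0 v
      obtain ⟨I, hI1, hI2⟩ := hcc2 X0 1 v (fun k hk => by
        rw [hX0]
        exact (hcm k K hk).le)
      refine ⟨I, hI1, fun k hk => ?_⟩
      obtain ⟨h1, h2, h3⟩ := hI2 k hk
      exact ⟨h1, h2, Option.isSome_iff_exists.1 h3⟩
    · intro k hk
      exact (hcm k K hk).le
    · intro i hi j hj
      have : c j < c K := hcm j K hj
      show c j ≤ c i + c K
      omega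
    · intro i _ j _ k _ l _ hij hkl h1 h2
      by_contra hcon
      have h3 := hc2 i j k l hij hkl (fun h => hcon ⟨(Prod.mk.inj h).1, (Prod.mk.inj h).2⟩)
      have h1' : c j + c k < c l + c i + 2 * N := h1
      have h2' : c l + c i < c j + c k + 2 * N := h2
      omega
    · intro T0 hT0
      have hT0' : z ≤ T0 + L + L := hT0
      have hfin : Ms.card + m ≤ C1 := by omega
      refine (hc3 T0 (fun i hi => ?_) _ ?_).trans hfin
      · have : c i < c K := hcm i K hi
        omega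
      · intro p hp
        simp only [Finset.mem_filter, Finset.mem_product, Finset.mem_range] at hp
        exact ⟨hp.1.1, hp.1.2, hp.2.1, hp.2.2⟩
    · show L + N + n + L + 0 + 1 ≤ z
      omega
  have hLW : P4n_36.LW n B Wo := ⟨wapp, wlen, wdec⟩
  have hXeq : ∀ X, X ∈ D.XX ↔ X ∈ P4n_36.XX Wo z := by
    intro X
    constructor
    · rintro ⟨h1, h2, h3⟩; exact ⟨h2, h1, h3⟩
    · rintro ⟨h1, h2, h3⟩; exact ⟨h2, h1, h3⟩
  have hnu : ∀ y, (P4n_36.lg fun Y => nu Y = y).IsRegular := by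
    intro y
    refine Loc_354.regular_of_local f (b ^ m) (M * b ^ m) (by positivity) _ ?_
    intro q q2 _ _ h1 h2 h3
    have := (hinv q q2 h1 h3 h2).2
    show nu q = y ↔ nu q2 = y
    rw [this]
  have hXT : ∀ v v', H 1 ({X | X ∈ D.XX ∧ D.T v X = v'} : Language α) := by
    intro v v'
    refine H.congr (P4n_36.hXT (z := z) hLW φ hφ act L nu (fun X => nu2 X 1) hnu v v') fun X => ?_
    constructor
    · rintro ⟨h1, h2⟩; exact ⟨(hXeq X).2 h1, h2⟩
    · rintro ⟨h1, h2⟩; exact ⟨(hXeq X).1 h1, h2⟩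
  have hNP : ∀ s, H 1 ({r | (∀ X ∈ D.XX, ¬ X <+: r) ∧ φ r = s} : Language α) := by
    intro s
    refine H.congr (P4n_36.hNP (z := z) hLW φ hφ s) fun X => ?_
    constructor
    · rintro ⟨h1, h2⟩; exact ⟨fun Y hY => h1 Y ((hXeq Y).1 hY), h2⟩
    · rintro ⟨h1, h2⟩; exact ⟨fun Y hY => h1 Y ((hXeq Y).2 hY), h2⟩
  have hf1 : {x : List α × (S → ZMod 2) | D.LP1 x.1 x.2}.Finite := by
    refine ((List.finite_length_le α (L + N)).prod (Set.finite_univ)).subset ?_
    rintro ⟨P, v⟩ hP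
    exact ⟨JointS_764.Dat.LP1_len ok hP, trivial⟩
  have hf2 : {x : List α × (S → ZMod 2) | D.LP2 x.1 x.2}.Finite := by
    refine ((List.finite_length_le α L).prod (Set.finite_univ)).subset ?_
    rintro ⟨P, v⟩ hP
    exact ⟨JointS_764.Dat.LP2_len ok hP, trivial⟩
  have hsem1 : ∀ Q, D.Sem1 Q → TopSem_474.Sem1 D.XX D.T D.LP1 Q := by
    rintro Q ⟨h1, b', h2⟩
    exact ⟨b', h1, h2⟩
  have hCC : TopSem_474.CC D.XX D.T D.LP1 D.LP2 := by
    intro X hX X2 hX2 v
    rcases JointS_764.Dat.cc ok X hX X2 hX2 v with ⟨P, Q, h1, h2, h3⟩ | ⟨P, Q, h1, h2, h3, h4, b', h5⟩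
    · exact Or.inl ⟨P, Q, h1, h2, hsem1 Q h3⟩
    · refine Or.inr ⟨P, Q, h1, h2, h3, b', h4, ?_⟩
      intro P1 v1 hP1
      rcases h5 P1 v1 hP1 with ⟨Y, hY, hp, P', Q', e, hl, h6, h7⟩ | h
      · exact Or.inl ⟨Y, hY, hp, P', Q', e, hl, h6, hsem1 Q' h7⟩
      · exact Or.inr h
  refine Top5_163.top φ hφ1 hφ act (fun v g h => (act_mul v g h).symm) act_add faith D.XX
    (JointS_764.Dat.nil_notMem ok) (JointS_764.Dat.prefix_code ok) D.T
    (fun X => act (nu2 (X.take L) 1) (φ (X.drop L)) + nu (X.drop L)) ?_ D.LP1 D.LP2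
    (TopSem_474.R1 D.XX D.T D.LP1) (TopSem_474.R2 D.XX D.T D.LP1 D.LP2)
    (fun Q b' h => TopSem_474.R1_ne h) (fun Q b' h => TopSem_474.R2_ne h)
    (fun P v Q b' h1 h2 => TopSem_474.s1 P v Q b' h1 h2)
    (fun P v Q b' h1 h2 h3 => TopSem_474.s2 P v Q b' h1 h2 h3)
    (TopSem_474.cc hCC) hXT hNP (fun v => TopSem_474.hl_LP hf1 v) (fun v => TopSem_474.hl_LP hf2 v)
    (fun b' => TopSem_474.hl_R1 hXT hf1 b') (fun b' => TopSem_474.hl_R2 hXT hf1 hf2 b') s
  intro X _ v
  show act (act v (φ (X.take L)) + nu2 (X.take L) 1) (φ (X.drop L)) + nu (X.drop L) =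
    act v (φ X) + (act (nu2 (X.take L) 1) (φ (X.drop L)) + nu (X.drop L))
  rw [act_add, ← act_mul, ← hφ, List.take_append_drop, add_assoc]

theorem row1 (α : Type) [Finite α] (L : Language α) (hL : L.IsRegular) :
    ∃ e : GRegExp α, e.height ≤ 3 ∧ e.lang = L :=
  Hk_851.of_monoid (k := 3) (fun S _ _ f s => row0 α S f s) L hL

theorem main.{u} (α : Type u) [Finite α] (L : Language α) (hL : L.IsRegular) :
    ∃ e : GRegExp α, e.height ≤ 3 ∧ e.lang = L :=
  Univ_188.of_type0 3 (fun α _ L hL => row1 α L hL) α L hL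

end Crest.Agent.R320.Fin_870
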