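import Mathlib

/-!
Row 320, instance glue (helper882).  Right-looking wall rule `R` (format of `Wall_291`):
`R Q ↔ R (Q.take n)`, `R Q → n ≤ Q.length`.  A wall of a text `w` at `t` is `R (w.drop t)`.

* `fin R z T w v` : state (text since the current anchor, token) after reading `w` from an anchor
  at the beginning of `w` with token `v`; anchors: next anchor = first wall `≥ z` after the anchor,
  the token of a complete zone `Z` is moved by `T Z`.
* `bl R z w` : list of the blocks of `w` (same chain), the last one is the open block.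
* junction lemmas (818): what a left-legal `c` and a right-legal `y` know about `c ++ y`.
-/

set_option autoImplicit false

namespace R320.Fin882

open Classical

variable {α V : Type*}

/-- right-looking rule with window `n` -/
structure IsRule (R : List α → Prop) (n : ℕ) : Prop where
  pos : 0 < n
  take_iff : ∀ Q, R Q ↔ R (Q.take n)
  len : ∀ Q, R Q → n ≤ Q.length

theorem IsRule.append {R : List α → Prop} {n : ℕ} (h : IsRule R n) {Q : List α}
    (hQ : n ≤ Q.length) (y : List α) : R (Q ++ y) ↔ R Q := by
  rw [h.take_iff (Q ++ y), List.take_append_of_le_length hQ, ← h.take_iff]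

/-- there is a visible wall at distance `≥ z` -/
def HasW (R : List α → Prop) (z : ℕ) (w : List α) : Prop := ∃ t, z ≤ t ∧ R (w.drop t)

/-- `t` is the first wall `≥ z` -/
def FW (R : List α → Prop) (z : ℕ) (w : List α) (t : ℕ) : Prop :=
  z ≤ t ∧ R (w.drop t) ∧ ∀ s, z ≤ s → s < t → ¬ R (w.drop s)

theorem FW.hasW {R : List α → Prop} {z : ℕ} {w : List α} {t : ℕ} (h : FW R z w t) :
    HasW R z w := ⟨t, h.1, h.2.1⟩

theorem HasW.exists_fw {R : List α → Prop} {z : ℕ} {w : List α} (h : HasW R z w) :
    ∃ t, FW R z w t := by
  refine ⟨Nat.find h, (Nat.find_spec h).1, (Nat.find_spec h).2, ?_⟩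
  intro s hs hst hR
  exact Nat.find_min h hst ⟨hs, hR⟩

theorem FW.unique {R : List α → Prop} {z : ℕ} {w : List α} {t t' : ℕ} (h : FW R z w t)
    (h' : FW R z w t') : t = t' := by
  rcases lt_trichotomy t t' with hlt | heq | hlt
  · exact absurd h.2.1 (h'.2.2 t h.1 hlt)
  · exact heq
  · exact absurd h'.2.1 (h.2.2 t' h'.1 hlt)

theorem FW.lt {R : List α → Prop} {n : ℕ} (hR : IsRule R n) {z : ℕ} {w : List α} {t : ℕ}
    (h : FW R z w t) : t + n ≤ w.length := by
  have h1 := hR.len _ h.2.1
  have h2 := hR.pos
  rw [List.length_drop] at h1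
  omega

theorem drop_lt {R : List α → Prop} {n : ℕ} (hR : IsRule R n) {z : ℕ} (hz : 0 < z)
    {w : List α} {t : ℕ} (h : FW R z w t) : (w.drop t).length < w.length := by
  have h1 := h.lt hR
  have h2 := h.1
  have h3 := hR.pos
  rw [List.length_drop]
  omega

/-- a visible first wall stays the first wall when more text is read -/
theorem FW.append {R : List α → Prop} {n : ℕ} (hR : IsRule R n) {z : ℕ} {w : List α} {t : ℕ}
    (h : FW R z w t) (y : List α) : FW R z (w ++ y) t := by
  have hl := h.lt hR
  have hn := hR.pos
  refine ⟨h.1, ?_, ?_⟩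
  · rw [List.drop_append_of_le_length (by omega)]
    rw [hR.append (by rw [List.length_drop]; omega)]
    exact h.2.1
  · intro s hs hst hc
    rw [List.drop_append_of_le_length (by omega)] at hc
    rw [hR.append (by rw [List.length_drop]; omega)] at hc
    exact h.2.2 s hs hst hc

/-! ### Block lists -/

/-- blocks of the chain started at the beginning of `w` (fuel version) -/
noncomputable def blF (R : List α → Prop) (z : ℕ) : ℕ → List α → List (List α)
  | 0, w => [w]
  | k + 1, w =>
    if h : HasW R z w then
      (w.take (Classical.choose h.exists_fw)) ::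
        blF R z k (w.drop (Classical.choose h.exists_fw))
    else [w]

/-- blocks of the chain started at the beginning of `w`; the last block is the open one -/
noncomputable def bl (R : List α → Prop) (z : ℕ) (w : List α) : List (List α) :=
  blF R z w.length w

theorem blF_fw {R : List α → Prop} {z : ℕ} {w : List α} {t : ℕ} (h : FW R z w t) (k : ℕ) :
    blF R z (k + 1) w = (w.take t) :: blF R z k (w.drop t) := by
  have hh : HasW R z w := h.hasW
  have ht : Classical.choose hh.exists_fw = t :=
    (Classical.choose_spec hh.exists_fw).unique h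
  simp only [blF, dif_pos hh, ht]

theorem blF_not {R : List α → Prop} {z : ℕ} {w : List α} (h : ¬ HasW R z w) (k : ℕ) :
    blF R z k w = [w] := by
  cases k with
  | zero => rfl
  | succ k => simp only [blF, dif_neg h]

theorem blF_mono {R : List α → Prop} {n : ℕ} (hR : IsRule R n) {z : ℕ} (hz : 0 < z) :
    ∀ (k : ℕ) (w : List α), w.length ≤ k → blF R z k w = bl R z w := by
  have key : ∀ (L : ℕ) (w : List α), w.length ≤ L → ∀ k k', w.length ≤ k → w.length ≤ k' →
      blF R z k w = blF R z k' w := by
    intro L
    induction L with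
    | zero =>
      intro w hw k k' _ _
      have hn : ¬ HasW R z w := by
        intro h
        obtain ⟨t, ht⟩ := h.exists_fw
        have := ht.lt hR
        have := hR.pos
        omega
      rw [blF_not hn, blF_not hn]
    | succ L ih =>
      intro w hw k k' hk hk'
      by_cases h : HasW R z w
      · obtain ⟨t, ht⟩ := h.exists_fw
        have h1 := ht.lt hR
        have h2 := hR.pos
        have h3 := ht.1
        obtain ⟨k, rfl⟩ : ∃ a, k = a + 1 := ⟨k - 1, by omega⟩
        obtain ⟨k', rfl⟩ : ∃ a, k' = a + 1 := ⟨k' - 1, by omega⟩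
        rw [blF_fw ht, blF_fw ht]
        congr 1
        have hl : (w.drop t).length = w.length - t := List.length_drop
        exact ih _ (by omega) _ _ (by omega) (by omega)
      · rw [blF_not h, blF_not h]
  intro k w hw
  exact key w.length w le_rfl k w.length hw le_rfl

theorem bl_fw {R : List α → Prop} {n : ℕ} (hR : IsRule R n) {z : ℕ} (hz : 0 < z) {w : List α}
    {t : ℕ} (h : FW R z w t) : bl R z w = (w.take t) :: bl R z (w.drop t) := by
  have h1 := drop_lt hR hz h
  rw [← blF_mono hR hz (w.length + 1) w (by omega), blF_fw h, blF_mono hR hz _ _ (by omega)]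

theorem bl_not {R : List α → Prop} {z : ℕ} {w : List α} (h : ¬ HasW R z w) :
    bl R z w = [w] := blF_not h _

theorem bl_ne_nil {R : List α → Prop} {n : ℕ} (hR : IsRule R n) {z : ℕ} (hz : 0 < z)
    (w : List α) : bl R z w ≠ [] := by
  by_cases h : HasW R z w
  · obtain ⟨t, ht⟩ := h.exists_fw
    rw [bl_fw hR hz ht]; simp
  · rw [bl_not h]; simp

/-- the blocks concatenate to the text -/
theorem bl_flatten {R : List α → Prop} {n : ℕ} (hR : IsRule R n) {z : ℕ} (hz : 0 < z) :
    ∀ (L : ℕ) (w : List α), w.length ≤ L → (bl R z w).flatten = w := by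
  intro L
  induction L with
  | zero =>
    intro w hw
    by_cases h : HasW R z w
    · obtain ⟨t, ht⟩ := h.exists_fw
      have := ht.lt hR
      have := hR.pos
      omega
    · rw [bl_not h]; simp
  | succ L ih =>
    intro w hw
    by_cases h : HasW R z w
    · obtain ⟨t, ht⟩ := h.exists_fw
      have h1 := drop_lt hR hz ht
      rw [bl_fw hR hz ht, List.flatten_cons, ih _ (by omega), List.take_append_drop]
    · rw [bl_not h]; simp

/-- description of `bl`: closed blocks and an open block without visible wall `≥ z` -/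
theorem bl_append {R : List α → Prop} {n : ℕ} (hR : IsRule R n) {z : ℕ} (hz : 0 < z) :
    ∀ (L : ℕ) (w : List α), w.length ≤ L → ∃ (pre : List (List α)) (c : List α),
      bl R z w = pre ++ [c] ∧ ¬ HasW R z c ∧ w = pre.flatten ++ c ∧
      ∀ y, bl R z (w ++ y) = pre ++ bl R z (c ++ y) := by
  intro L
  induction L with
  | zero =>
    intro w hw
    have h : ¬ HasW R z w := by
      intro h
      obtain ⟨t, ht⟩ := h.exists_fw
      have := ht.lt hR
      have := hR.pos
      omega
    exact ⟨[], w, by rw [bl_not h]; simp, h, by simp, fun y => by simp⟩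
  | succ L ih =>
    intro w hw
    by_cases h : HasW R z w
    · obtain ⟨t, ht⟩ := h.exists_fw
      have h1 := drop_lt hR hz ht
      have hl := ht.lt hR
      obtain ⟨pre, c, e1, e2, e3, e4⟩ := ih (w.drop t) (by omega)
      refine ⟨w.take t :: pre, c, ?_, e2, ?_, ?_⟩
      · rw [bl_fw hR hz ht, e1]; simp
      · rw [List.flatten_cons, List.append_assoc, ← e3, List.take_append_drop]
      · intro y
        have ht' := ht.append hR y
        rw [bl_fw hR hz ht', List.drop_append_of_le_length (by omega), e4 y,
          List.take_append_of_le_length (by omega)]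
        simp
    · exact ⟨[], w, by rw [bl_not h]; simp, h, by simp, fun y => by simp⟩

/-! ### 818's lemma for one junction -/

/-- the open block `c` has length in `[p, p+N]`, `y` has no wall in `[q, q+N)`, `b` is the first
wall `≥ q+N` of `y`; then the first wall `≥ p+q+N` of `c ++ y` is `|c| + b` -/
theorem junction_fw {R : List α → Prop} {n : ℕ} (_hR : IsRule R n) {p q N : ℕ} (hq : 0 < q)
    {c y : List α} {b : ℕ} (h1 : p ≤ c.length) (h2 : c.length ≤ p + N)
    (h3 : ∀ s, q ≤ s → s < q + N → ¬ R (y.drop s)) (hb : FW R (q + N) y b) :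
    FW R (p + q + N) (c ++ y) (c.length + b) := by
  have hb1 := hb.1
  refine ⟨by omega, ?_, ?_⟩
  · rw [List.drop_append]
    have : List.drop (c.length + b) c = [] := List.drop_eq_nil_of_le (by omega)
    rw [this]
    simpa using hb.2.1
  · intro s hs hst hc
    rw [List.drop_append] at hc
    have h0 : List.drop s c = [] := List.drop_eq_nil_of_le (by omega)
    rw [h0, List.nil_append] at hc
    by_cases h4 : s - c.length < q + N
    · exact h3 _ (by omega) h4 hc
    · exact hb.2.2 _ (by omega) (by omega) hc

/-- if `y` has no visible wall `≥ q+N`, then `c ++ y` has no visible wall `≥ p+q+N` -/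
theorem junction_not {R : List α → Prop} {n : ℕ} (_hR : IsRule R n) {p q N : ℕ} (hq : 0 < q)
    {c y : List α} (h1 : p ≤ c.length) (h2 : c.length ≤ p + N)
    (h3 : ∀ s, q ≤ s → s < q + N → ¬ R (y.drop s)) (hb : ¬ HasW R (q + N) y) :
    ¬ HasW R (p + q + N) (c ++ y) := by
  rintro ⟨s, hs, hc⟩
  rw [List.drop_append] at hc
  have h0 : List.drop s c = [] := List.drop_eq_nil_of_le (by omega)
  rw [h0, List.nil_append] at hc
  by_cases h4 : s - c.length < q + N
  · exact h3 _ (by omega) h4 hc
  · exact hb ⟨_, by omega, hc⟩

/-- block list at a junction: the hidden block is `c ++ y.take b` -/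
theorem bl_junction {R : List α → Prop} {n : ℕ} (hR : IsRule R n) {p q N : ℕ} (hq : 0 < q)
    {w y : List α} {pre : List (List α)} {c : List α} {b : ℕ}
    (hw : ∀ y, bl R (p + q + N) (w ++ y) = pre ++ bl R (p + q + N) (c ++ y))
    (h1 : p ≤ c.length) (h2 : c.length ≤ p + N)
    (h3 : ∀ s, q ≤ s → s < q + N → ¬ R (y.drop s)) (hb : FW R (q + N) y b) :
    bl R (p + q + N) (w ++ y) =
      pre ++ (c ++ y.take b) :: bl R (p + q + N) (y.drop b) := by
  have hf := junction_fw hR hq h1 h2 h3 hb
  rw [hw, bl_fw hR (by omega) hf]
  have e1 : (c ++ y).take (c.length + b) = c ++ y.take b := by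
    rw [List.take_append]; simp
  have e2 : (c ++ y).drop (c.length + b) = y.drop b := by
    rw [List.drop_append]; simp
  rw [e1, e2]

/-- block list at a junction in the last block -/
theorem bl_junction_last {R : List α → Prop} {n : ℕ} (hR : IsRule R n) {p q N : ℕ} (hq : 0 < q)
    {w y : List α} {pre : List (List α)} {c : List α}
    (hw : ∀ y, bl R (p + q + N) (w ++ y) = pre ++ bl R (p + q + N) (c ++ y))
    (h1 : p ≤ c.length) (h2 : c.length ≤ p + N)
    (h3 : ∀ s, q ≤ s → s < q + N → ¬ R (y.drop s)) (hb : ¬ HasW R (q + N) y) :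
    bl R (p + q + N) (w ++ y) = pre ++ [c ++ y] := by
  rw [hw, bl_not (junction_not hR hq h1 h2 h3 hb)]

/-! ### Threads -/

/-- state of a thread: the open zone and the token -/
noncomputable def fin (R : List α → Prop) (z : ℕ) (T : List α → V → V) (w : List α) (v : V) :
    List α × V :=
  ((bl R z w).getLastD w, (bl R z w).dropLast.foldl (fun v Z => T Z v) v)

theorem fin_not {R : List α → Prop} {z : ℕ} {T : List α → V → V} {w : List α} {v : V}
    (h : ¬ HasW R z w) : fin R z T w v = (w, v) := by
  unfold fin; rw [bl_not h]; simp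

theorem fin_fw {R : List α → Prop} {n : ℕ} (hR : IsRule R n) {z : ℕ} (hz : 0 < z)
    {T : List α → V → V} {w : List α} {v : V} {t : ℕ} (h : FW R z w t) :
    fin R z T w v = fin R z T (w.drop t) (T (w.take t) v) := by
  unfold fin
  rw [bl_fw hR hz h]
  have hne := bl_ne_nil hR hz (w.drop t)
  obtain ⟨x, xs, hx⟩ : ∃ x xs, bl R z (w.drop t) = x :: xs := by
    cases hh : bl R z (w.drop t) with
    | nil => exact absurd hh hne
    | cons x xs => exact ⟨x, xs, rfl⟩
  rw [hx]
  simp [List.getLastD]

/-- the state forgets the past: `fin` is the run of a letter automaton -/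
theorem fin_append {R : List α → Prop} {n : ℕ} (hR : IsRule R n) {z : ℕ} (hz : 0 < z)
    {T : List α → V → V} (w y : List α) (v : V) :
    fin R z T (w ++ y) v = fin R z T ((fin R z T w v).1 ++ y) (fin R z T w v).2 := by
  obtain ⟨pre, c, e1, _, _, e4⟩ := bl_append hR hz w.length w le_rfl
  have h1 : fin R z T w v = (c, pre.foldl (fun v Z => T Z v) v) := by
    unfold fin; rw [e1]; simp
  rw [h1]
  simp only
  unfold fin
  rw [e4 y]
  have hne := bl_ne_nil hR hz (c ++ y)
  obtain ⟨xs, x, hx⟩ : ∃ xs x, bl R z (c ++ y) = xs ++ [x] :=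
    ⟨_, _, (List.dropLast_append_getLast hne).symm⟩
  rw [hx, ← List.append_assoc]
  simp [List.foldl_append]

/-- one letter -/
noncomputable def step (R : List α → Prop) (z : ℕ) (T : List α → V → V) (s : List α × V) (l : α) :
    List α × V := fin R z T (s.1 ++ [l]) s.2

theorem fin_foldl {R : List α → Prop} {n : ℕ} (hR : IsRule R n) {z : ℕ} (hz : 0 < z)
    {T : List α → V → V} (c : List α) (v : V) (hc : ¬ HasW R z c) (y : List α) :
    fin R z T (c ++ y) v = y.foldl (step R z T) (c, v) := by
  induction y using List.reverseRecOn with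
  | nil => simp [fin_not hc]
  | append_singleton y l ih =>
    rw [← List.append_assoc, fin_append hR hz, List.foldl_append, ih]
    simp [step]

/-- **JUNCTION SOUNDNESS** (818 + exactness of the gadget): a left-legal state `(c, v)` and a
right-legal reading `y` (next anchor `b`, token `r` there) are compatible. -/
theorem junction_sound {R : List α → Prop} {n : ℕ} (hR : IsRule R n) {p q N : ℕ} (hq : 0 < q)
    {T : List α → V → V} {c y : List α} {b : ℕ} {v r : V}
    (h1 : p ≤ c.length) (h2 : c.length ≤ p + N)
    (h3 : ∀ s, q ≤ s → s < q + N → ¬ R (y.drop s)) (hb : FW R (q + N) y b)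
    (hT : T (c ++ y.take b) v = r) :
    fin R (p + q + N) T (c ++ y) v = fin R (p + q + N) T (y.drop b) r := by
  have hf := junction_fw hR hq h1 h2 h3 hb
  rw [fin_fw hR (by omega) hf]
  have e1 : (c ++ y).take (c.length + b) = c ++ y.take b := by
    rw [List.take_append]; simp
  have e2 : (c ++ y).drop (c.length + b) = y.drop b := by
    rw [List.drop_append]; simp
  rw [e1, e2, hT]

end R320.Fin882
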