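import Crest.Agent.R320.SemTop_727
import Crest.Agent.R320.Zn_454
import Crest.Agent.R320.GridG_19
import Crest.Agent.R320.GridRuler_257
import Crest.Agent.R320.P4n_36
import Crest.Agent.R320.WallU_36
import Crest.Agent.R320.Univ_188
import Crest.Agent.R320.ExactR_237
import Crest.Agent.R320.Bridge_975

/-! Row 320: assembly of the all-words chain (helper884).  Only constants. -/

set_option autoImplicit false

namespace Crest.Agent.R320.Fin_884

open Crest.RegLang Crest.Agent.R320.Hk_851

/-- bad totals, natural numbers to integers -/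
theorem badG_badZ {G : ℕ → ℕ} {M m n : ℕ} {Ms : Finset ℕ} (hG : ∀ k, 0 < G k)
    (hn : GridG_19.Am G M 0 m ≤ n)
    (h : (∃ q ∈ Ms, q ∣ n) ∨ GridG_19.BadG G M 0 m n) :
    GridRuler_257.BadZ Ms m M G (GridG_19.Am G M 0) (n : ℤ) := by
  rcases h with ⟨q, hq, h⟩ | ⟨k, hk, h⟩
  · exact Or.inl ⟨q, hq, Int.natCast_dvd_natCast.2 h⟩
  · refine Or.inr ⟨k + 1, by omega, by omega, ?_⟩
    have hA : GridG_19.Am G M 0 (k + 1) ≤ n :=
      le_trans (GridG_19.Am_mono G M 0 (by omega)) hn
    set A := GridG_19.Am G M 0 (k + 1) with hAdef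
    have hmod := Nat.mod_add_div (n - A) (G (k + 1))
    set ρ := (n - A) % G (k + 1) with hρ
    set e := (n - A) / G (k + 1) with he
    have hcast : ((n : ℤ) - A) = (ρ : ℤ) + (G (k + 1) : ℤ) * e := by
      have h1 : ((n - A : ℕ) : ℤ) = (n : ℤ) - A := by
        rw [Nat.cast_sub hA]
      rw [← h1, ← hmod]
      push_cast
      ring
    have hlt : ρ < G (k + 1) := Nat.mod_lt _ (hG _)
    have hk1 : k + 1 - 1 = k := rfl
    rcases h with h | h
    · refine ⟨ρ, ?_, ?_⟩
      · rw [hk1, abs_of_nonneg (by positivity)]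
        exact_mod_cast h.le
      · rw [hcast]
        exact ⟨e, by ring⟩
    · refine ⟨(ρ : ℤ) - G (k + 1), ?_, ?_⟩
      · rw [hk1, abs_le]
        constructor
        · have : (G (k + 1) : ℤ) ≤ (ρ : ℤ) + ((M * G k : ℕ) : ℤ) := by exact_mod_cast h
          linarith
        · have h2 : (ρ : ℤ) < G (k + 1) := by exact_mod_cast hlt
          have h3 : (0 : ℤ) ≤ ((M * G k : ℕ) : ℤ) := by positivity
          linarith
      · rw [hcast]
        exact ⟨e + 1, by ring⟩

theorem fibres (α S : Type) [Finite α] [Monoid S] [Finite S] (f : α → S) (s : S) :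
    HL 3 ({w | (w.map f).prod = s} : Language α) := by
  classical
  haveI := Fintype.ofFinite S
  let V : Type := S → ZMod 2
  haveI : Fintype V := Fintype.ofFinite V
  let act : V → S → V := fun v s t => v (s * t)
  obtain ⟨m, r, hgrid⟩ := GridG_19.grid S V act
  let C0 := r + m
  obtain ⟨K, hex⟩ := ExactR_237.exact_gadget α S V f act (2 * C0 + 2)
  obtain ⟨Ms, hcard, hMs, hgrid⟩ := hgrid (4 ^ K)
  let M := ∏ q ∈ Ms, q
  have hM : 0 < M := Finset.prod_pos fun q hq => (hMs q hq).1.pos
  let Γ := 16 * 4 ^ K * M + 1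
  have hΓ : 0 < Γ := Nat.succ_pos _
  have hcopΓ : Nat.Coprime M Γ := by
    have h1 : Γ = 1 + (16 * 4 ^ K) * M := by simp only [Γ]; ring
    rw [h1]
    simp
  let G : ℕ → ℕ := fun k => Γ ^ k
  have hG : ∀ k, 0 < G k := fun k => pow_pos hΓ k
  have hGd : ∀ a b, a ≤ b → G a ∣ G b := fun a b h => pow_dvd_pow _ h
  have hcop : ∀ k, Nat.Coprime M (G k) := fun k => hcopΓ.pow_right k
  obtain ⟨lam1, rho1, nu1, gs, gl, -, gc, gnu⟩ :=
    hgrid G 0 hG hGd hcop α (Zn454.ph f) (Zn454.ph_append f)
  let Am := GridG_19.Am G M 0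
  let N := Am m + M
  obtain ⟨U, hU1, hU2, hU3, hU4⟩ := GridRuler_257.ruler K m Ms M G Am N hM
    (fun k hk => ⟨Finset.dvd_prod_of_mem _ hk, (hMs k hk).2.le⟩) (hG 0)
    (fun j => hGd _ _ (Nat.le_succ j))
    (fun j => by
      change 16 * 4 ^ K * (M * Γ ^ j) ≤ Γ ^ (j + 1)
      have h1 : 16 * 4 ^ K * M ≤ Γ := Nat.le_succ _
      calc 16 * 4 ^ K * (M * Γ ^ j) = (16 * 4 ^ K * M) * Γ ^ j := by ring
        _ ≤ Γ * Γ ^ j := Nat.mul_le_mul_right _ h1
        _ = Γ ^ (j + 1) := by ring) (hcop m)
  let c : ℕ → ℕ := fun i => U * 4 ^ i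
  have hcmono : ∀ i j, i ≤ j → c i ≤ c j := by
    intro i j h
    exact Nat.mul_le_mul_left _ (Nat.pow_le_pow_right (by norm_num) h)
  obtain ⟨lam2, rho2, nu2, es, ec⟩ := hex c (fun i j h _ => by
    have := hU2 i j h
    simp only [c]; omega)
  let p0 := c K
  let T0 := c K + Am m
  obtain ⟨n, Wo, w1, w2, w3, Bw, w4⟩ := WallU_36.exists_lwalls_all α (2 * p0 + 2 * N)
  obtain ⟨BadT, hBadT⟩ : ∃ B : ℕ → Prop, ∀ T, B T ↔
      ((∃ q ∈ Ms, q ∣ T) ∨ GridG_19.BadG G M 0 m T) := ⟨_, fun T => Iff.rfl⟩
  let D : Zn454.Dt α S V :=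
    { f := f
      act := act
      Wo := Wo
      n := n
      W := 2 * p0 + 2 * N
      z := 2 * p0 + 2 * N + n + T0 + 1
      p0 := p0
      N := N
      c := c
      K := K
      C0 := C0
      T0 := T0
      lam1 := lam1
      rho1 := rho1
      nu1 := nu1
      lam2 := lam2
      rho2 := fun k Q => rho2 k Q 1
      nu2 := fun X => nu2 X 1
      BadT := BadT
      loc := w1
      gap := by
        intro w s t h1 h2 h3 h4
        by_contra hcon
        have h5 := w3 (w.take t) (t - s) h4 (by omega) (by omega)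
        apply h5
        rw [List.length_take, min_eq_left h2, List.take_take, min_eq_left (by omega),
          show t - (t - s) = s by omega]
        exact h3
      g1len := fun P v h => by
        have := (gl P v h).2
        exact le_trans this.le (Nat.le_add_right _ _)
      g1s := gs
      g1c := by
        intro u h1 h2 v
        have h3 : Am m ≤ N := Nat.le_add_right _ _
        have h4 : M ≤ N := Nat.le_add_left _ _
        obtain ⟨P, Q, e, h5, h6⟩ := gc u (by change 2 * Am m ≤ _; omega) (by change M ≤ _; omega)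
          (fun q hq hd => h2 ((hBadT _).2 (Or.inl ⟨q, hq, hd⟩)))
          (fun hb => h2 ((hBadT _).2 (Or.inr hb))) v
        exact ⟨P, Q, e.symm, h5, h6⟩
      g2s := by
        intro k hk P Q v b h1 h2 h3
        have := es k hk P Q 1 v b h1 h2 h3
        rw [mul_one] at this
        exact this
      g2c := by
        intro u v hu
        exact ec u 1 v (fun k hk => by rw [hu]; exact hcmono _ _ hk.le)
      cle := fun k hk => hcmono _ _ hk.le
      r2 := by
        intro a b a' b' _ _ _ _ hab h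
        rcases hU3 a b a' b' hab with h1 | h1
        · exact h1
        · exfalso
          simp only [c] at h
          have h2 : (0 : ℤ) ≤ (N : ℤ) := by positivity
          linarith
      r3 := by
        intro T hT
        refine le_trans (hU4 (T : ℤ) _ ?_) (Nat.add_le_add_right hcard m)
        intro ab hab
        obtain ⟨hab1, h3, h4⟩ := Finset.mem_filter.1 hab
        have h1 := Finset.mem_range.1 (Finset.mem_product.1 hab1).1
        have h2 := Finset.mem_range.1 (Finset.mem_product.1 hab1).2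
        refine ⟨h1, h2, h3, ?_⟩
        have h5 : c ab.2 ≤ c K := hcmono _ _ h2.le
        have hT' : c K + Am m ≤ T := hT
        have h6 := badG_badZ (Ms := Ms) (n := T + c ab.1 - c ab.2) hG
          (by change Am m ≤ _; omega) ((hBadT _).1 h4)
        have h7 : ((T + c ab.1 - c ab.2 : ℕ) : ℤ) = (T : ℤ) + (U * 4 ^ ab.1 : ℕ) -
            (U * 4 ^ ab.2 : ℕ) := by
          rw [Nat.cast_sub (by omega)]
          push_cast
          rfl
        rw [h7] at h6
        exact h6
      hz := le_rfl
      hW := le_rfl }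
  have hLW : P4n_36.LW n Bw Wo := ⟨w1, w2, w4⟩
  have hreg : ∀ y, (P4n_36.lg fun Y => nu1 Y = y).IsRegular := by
    intro y
    refine Bridge_975.reg_of_local f (GridG_19.Ac G M 0 m) (M * G m) (Nat.mul_pos hM (hG m))
      (fun Y => nu1 Y = y) ?_
    intro Y Y' h1 h2 h3 h4 h5
    have h6 : nu1 Y = nu1 Y' := by
      refine gnu Y Y' h1 h2 h3 h4 ?_
      rw [← List.take_append_drop (GridG_19.Ac G M 0 m) Y,
        ← List.take_append_drop (GridG_19.Ac G M 0 m) Y', Zn454.ph_append, Zn454.ph_append, h3]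
      congr 1
    rw [h6]
  let Sc : SemTop_727.Sch α V := ⟨D.XX, D.T, D.L1, D.L2⟩
  refine SemTop_727.top (k := 1) act (fun a b s => rfl) (fun v => ?_) (fun v s t => ?_) ?_ f
    (fun X => act (nu2 (X.take p0) 1) (Zn454.ph f (X.drop p0)) + nu1 (X.drop p0)) Sc ?_
    ⟨D.nil_not, fun X hX Y hY h => D.code hX hY h⟩ ?_ ?_ ?_ ?_ ?_ s
  · funext t; simp [act]
  · funext t; simp [act, mul_assoc]
  · intro s t h
    by_contra hne
    have h1 := congrFun (h (fun x => if x = s then 1 else 0)) 1
    simp only [act, mul_one, if_true] at h1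
    rw [if_neg (fun h2 => hne h2.symm)] at h1
    exact absurd h1 (by decide)
  · intro v X
    change act (act v (Zn454.ph f (X.take p0)) + nu2 (X.take p0) 1) (Zn454.ph f (X.drop p0))
      + nu1 (X.drop p0) = _
    have h1 : (X.map f).prod = Zn454.ph f (X.take p0) * Zn454.ph f (X.drop p0) := by
      rw [← Zn454.ph_append, List.take_append_drop]; rfl
    rw [h1]
    have h2 : ∀ a b : V, ∀ s, act (a + b) s = act a s + act b s := fun a b s => rfl
    have h3 : ∀ (v : V) (s t : S), act v (s * t) = act (act v s) t := by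
      intro v s t; funext x; simp [act, mul_assoc]
    rw [h2, h3, add_assoc]
  · intro x y
    exact P4n_36.hXT hLW (Zn454.ph f) (Zn454.ph_append f) act p0 nu1 (fun X => nu2 X 1) hreg x y
  · intro x
    refine (List.finite_length_le α (p0 + N)).subset ?_
    rintro P ⟨h1, h2⟩
    have h3 := D.g1len _ _ h2
    rw [List.length_drop] at h3
    change P.length ≤ p0 + N
    have h4 : P.length - p0 ≤ N := h3
    omega
  · intro x
    refine (List.finite_length_le α p0).subset ?_
    rintro P ⟨k, h1, h2, h3⟩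
    change P.length ≤ p0
    rw [h2]
    exact hcmono _ _ (le_of_lt h1)
  · intro X1 h1 X2 h2 x
    exact D.hC2 h1 h2 x
  · intro t
    exact (P4n_36.hNP hLW (Zn454.ph f) (Zn454.ph_append f) t).mono (by norm_num)

theorem row (α : Type*) [Finite α] (L : Language α) (hL : L.IsRegular) :
    ∃ e : GRegExp α, e.height ≤ 3 ∧ e.lang = L :=
  Univ_188.of_type0 3 (fun β _ L' hL' => of_monoid (k := 3)
    (fun S _ _ φ s => fibres β S φ s) L' hL') α L hL

end Crest.Agent.R320.Fin_884
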