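import Crest.Agent.R320.FinA_892
import Crest.Agent.R320.G1_852
import Crest.Agent.R320.Thin_963
import Crest.Agent.R320.ExactR_237
import Crest.Agent.R320.LWallAll_922

/-!
# Row 320: constants and instantiation, helper892
-/

set_option autoImplicit false

namespace Crest.Agent.R320.Fin_892

open Crest.RegLang Crest.Agent.R320.Hk_851 Crest.Agent.R320.Sc2n_937

/-- bad lengths of the gadget of 852 -/
def BadN (Ms : Finset ℕ) (M b m n : ℕ) : Prop :=
  (∃ k ∈ Ms, k ∣ n) ∨ ∃ j < m, ¬ (M ≤ n / b ^ j % b ∧ n / b ^ j % b + M < b)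

theorem digit_eq {b m j n n' : ℕ} (hj : j < m) (h : n % b ^ m = n' % b ^ m) :
    n / b ^ j % b = n' / b ^ j % b := by
  rw [← Nat.mod_mul_right_div_self, ← Nat.mod_mul_right_div_self, ← pow_succ]
  have hd : b ^ (j + 1) ∣ b ^ m := pow_dvd_pow b hj
  rw [← Nat.mod_mod_of_dvd n hd, ← Nat.mod_mod_of_dvd n' hd, h]

theorem BadN_per {Ms : Finset ℕ} {M b m : ℕ} (hMs : ∀ k ∈ Ms, k ∣ M) (T T' : ℕ)
    (h : T % (M * b ^ m) = T' % (M * b ^ m)) : BadN Ms M b m T ↔ BadN Ms M b m T' := by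
  have key : ∀ T T' : ℕ, T % (M * b ^ m) = T' % (M * b ^ m) → BadN Ms M b m T →
      BadN Ms M b m T' := by
    rintro T T' h (⟨k, hk, hd⟩ | ⟨j, hj, hn⟩)
    · left
      refine ⟨k, hk, ?_⟩
      have hkd : k ∣ M * b ^ m := (hMs k hk).trans (Dvd.intro _ rfl)
      rw [Nat.dvd_iff_mod_eq_zero] at hd ⊢
      rw [← Nat.mod_mod_of_dvd _ hkd, ← h, Nat.mod_mod_of_dvd _ hkd]
      exact hd
    · right
      refine ⟨j, hj, ?_⟩
      have hb : b ^ m ∣ M * b ^ m := Dvd.intro_left _ rfl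
      have h' : T % b ^ m = T' % b ^ m := by
        rw [← Nat.mod_mod_of_dvd T hb, h, Nat.mod_mod_of_dvd _ hb]
      rw [← digit_eq hj h']
      exact hn
  exact ⟨key T T' h, key T' T h.symm⟩

theorem BadN_imp {Ms : Finset ℕ} {M b m n : ℕ} (hb : 0 < b) (h : BadN Ms M b m n) :
    Thin963.BadT Ms m (fun i => (b : ℤ) ^ i) (fun i => (M : ℤ) * (b : ℤ) ^ i) (fun _ => 0)
      (n : ℤ) := by
  rcases h with ⟨k, hk, hd⟩ | ⟨j, hj, hn⟩
  · exact Or.inl ⟨k, hk, by exact_mod_cast hd⟩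
  · right
    refine ⟨j, hj, ?_⟩
    set d := n / b ^ j % b with hd
    have hpj : 0 < b ^ j := pow_pos hb j
    have hpj1 : 0 < b ^ (j + 1) := pow_pos hb _
    have hd2 : d = n % b ^ (j + 1) / b ^ j := by
      rw [pow_succ, Nat.mod_mul_right_div_self]
    set ρ := n % b ^ (j + 1) with hρ
    have h1 : d * b ^ j ≤ ρ := by rw [hd2]; exact Nat.div_mul_le_self _ _
    have h2 : ρ < d * b ^ j + b ^ j := by
      rw [hd2]
      have := Nat.lt_div_mul_add (a := ρ) hpj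
      exact this
    have h3 : ρ < b ^ (j + 1) := Nat.mod_lt _ hpj1
    have h4 : b ^ (j + 1) * (n / b ^ (j + 1)) + ρ = n := Nat.div_add_mod n _
    have h4z : ((b : ℤ) ^ (j + 1)) * ((n / b ^ (j + 1) : ℕ) : ℤ) + (ρ : ℤ) = (n : ℤ) := by
      exact_mod_cast h4
    have h1z : (d : ℤ) * (b : ℤ) ^ j ≤ (ρ : ℤ) := by exact_mod_cast h1
    have h2z : (ρ : ℤ) < (d : ℤ) * (b : ℤ) ^ j + (b : ℤ) ^ j := by exact_mod_cast h2
    have h3z : (ρ : ℤ) < (b : ℤ) ^ (j + 1) := by exact_mod_cast h3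
    have hpz : (0 : ℤ) < (b : ℤ) ^ j := by exact_mod_cast hpj
    by_cases hM : M ≤ d
    · have h5 : b ≤ d + M := by
        by_contra hcon
        exact hn ⟨hM, by omega⟩
      have h5z : (b : ℤ) ≤ d + M := by exact_mod_cast h5
      refine ⟨(b : ℤ) ^ (j + 1) - ρ, ?_, ?_⟩
      · show |(b : ℤ) ^ (j + 1) - ρ| ≤ (M : ℤ) * (b : ℤ) ^ j
        rw [abs_of_nonneg (by linarith), pow_succ]
        nlinarith
      · show (b : ℤ) ^ (j + 1) ∣ (n : ℤ) - 0 + ((b : ℤ) ^ (j + 1) - ρ)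
        refine ⟨((n / b ^ (j + 1) : ℕ) : ℤ) + 1, ?_⟩
        linarith [h4z]
    · have h5z : (d : ℤ) + 1 ≤ M := by exact_mod_cast Nat.lt_of_not_le hM
      refine ⟨-(ρ : ℤ), ?_, ?_⟩
      · show |-(ρ : ℤ)| ≤ (M : ℤ) * (b : ℤ) ^ j
        rw [abs_neg, abs_of_nonneg (by positivity)]
        nlinarith
      · show (b : ℤ) ^ (j + 1) ∣ (n : ℤ) - 0 + -(ρ : ℤ)
        refine ⟨((n / b ^ (j + 1) : ℕ) : ℤ), ?_⟩
        linarith [h4z]

theorem geom_le (M b : ℤ) (hM : 0 ≤ M) (hb : 2 ≤ b) (i : ℕ) :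
    ∑ j ∈ Finset.range (i + 1), M * b ^ j ≤ 2 * M * b ^ i := by
  induction i with
  | zero => simp; linarith
  | succ i ih =>
    rw [Finset.sum_range_succ]
    have h1 : (0 : ℤ) ≤ M * b ^ i := by positivity
    have h2 : b ^ (i + 1) = b ^ i * b := pow_succ b i
    rw [h2]
    nlinarith

theorem fin (α : Type) [Finite α] (S : Type) [Monoid S] [Finite S] (φ : α → S) (s : S) :
    HL 3 ({w | (w.map φ).prod = s} : Language α) := by
  classical
  haveI := Fintype.ofFinite S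
  let V := S → ZMod 2
  let act : V → S → V := fun v s t => v (s * t)
  have hadd : ∀ (a b : V) (s : S), act (a + b) s = act a s + act b s := fun _ _ _ => rfl
  have hone : ∀ v : V, act v 1 = v := fun v => by
    funext t; show v (1 * t) = v t; rw [one_mul]
  have hmul : ∀ (v : V) (s t : S), act v (s * t) = act (act v s) t := fun v s t => by
    funext x; show v (s * t * x) = v (s * (t * x)); rw [mul_assoc]
  have hfaith : ∀ s t : S, (∀ v : V, act v s = act v t) → s = t := by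
    intro s t h
    by_contra hne
    have h1 := congrFun (h (fun x => if x = s then 1 else 0)) 1
    have h2 : (if s * 1 = s then (1 : ZMod 2) else 0) = if t * 1 = s then 1 else 0 := h1
    rw [mul_one, mul_one, if_pos rfl, if_neg (fun h => hne h.symm)] at h2
    exact one_ne_zero h2
  obtain ⟨m, r, hG⟩ := G1_852.gadget (S := S) (V := V) act
  obtain ⟨K, hK⟩ := ExactR_237.exact_gadget α S V φ act (2 * (r + m) + 2)
  obtain ⟨Ms, M, hMc, hMs, hM, hG⟩ := hG (2 ^ (K + 1))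
  let b : ℕ := 2 ^ (K + 5) * M + 1
  have hb0 : 0 < b := Nat.succ_pos _
  have hb2 : 2 ≤ b := by
    show 2 ≤ 2 ^ (K + 5) * M + 1
    have : 0 < 2 ^ (K + 5) * M := by positivity
    omega
  have hcop : Nat.Coprime b M := by
    show Nat.Coprime (2 ^ (K + 5) * M + 1) M
    simp
  obtain ⟨lam, rho, nu1, g1, g2, g3, g4⟩ := hG b hb0 hcop α φ
  let N1 : ℕ := b ^ m
  have hN1 : 0 < N1 := pow_pos hb0 m
  obtain ⟨X, hX1, hX2, hthin⟩ := Thin963.thin K m Ms (fun i => (b : ℤ) ^ i)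
    (fun i => (M : ℤ) * (b : ℤ) ^ i) (fun _ => 0)
    (fun q hq => ⟨(hMs q hq).2.1, (hMs q hq).1.le⟩)
    (fun q hq => by
      have h1 : Nat.Coprime q (b ^ m) :=
        Nat.Coprime.pow_right m (Nat.Coprime.coprime_dvd_left (hMs q hq).2.2 hcop.symm)
      have h2 := Nat.isCoprime_iff_coprime.2 h1
      push_cast at h2
      exact_mod_cast h2)
    (by positivity) (fun i j hij => pow_dvd_pow _ hij) (fun i => by positivity)
    (fun i => Dvd.intro_left _ rfl)
    (fun i hi => by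
      have h1 := geom_le (M : ℤ) (b : ℤ) (by positivity) (by exact_mod_cast hb2) i
      have h2 : (b : ℤ) = 2 ^ (K + 5) * M + 1 := by
        show (((2 ^ (K + 5) * M + 1 : ℕ)) : ℤ) = _
        push_cast; ring
      have h3 : (0 : ℤ) ≤ (b : ℤ) ^ i := by positivity
      calc (2 : ℤ) ^ (K + 4) * ∑ j ∈ Finset.range (i + 1), (M : ℤ) * (b : ℤ) ^ j
          ≤ 2 ^ (K + 4) * (2 * M * (b : ℤ) ^ i) := by
            exact mul_le_mul_of_nonneg_left h1 (by positivity)
        _ = (2 ^ (K + 5) * M) * (b : ℤ) ^ i := by ring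
        _ ≤ (b : ℤ) * (b : ℤ) ^ i := by
            refine mul_le_mul_of_nonneg_right ?_ h3
            linarith
        _ = (b : ℤ) ^ (i + 1) := by ring)
    (2 * (N1 : ℤ) + 1)
  obtain ⟨x, rfl⟩ := Int.eq_ofNat_of_zero_le hX2.le
  have hx1 : 2 * N1 + 1 ≤ x := by exact_mod_cast hX1
  let c : ℕ → ℕ := fun k => x * 2 ^ k
  let p0 : ℕ := x * 2 ^ K
  have hc : ∀ k, k < K → c k ≤ p0 := fun k hk =>
    Nat.mul_le_mul_left x (Nat.pow_le_pow_right (by norm_num) hk.le)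
  obtain ⟨lam2, rho2, nu2, e1, e2⟩ := hK c (fun i j hij _ =>
    Nat.mul_lt_mul_of_pos_left (Nat.pow_lt_pow_right (by norm_num) hij) (by omega))
  obtain ⟨n, Gw, Bw, Wo, hLW, hgw, -, -, hfree⟩ :=
    LWallAll_922.walls_all_left α (2 * p0 + 2 * N1) (by omega)
  let g : Geo α :=
    { Wo := Wo, n := n, z := p0 + N1 + (n + 2 * p0), p0 := p0, q0 := n + 2 * p0, N1 := N1
      loc := hLW.app, hz := rfl, hq := by omega, hN := hN1, hqp := by omega }
  refine join act hadd hone hmul hfaith φ g hLW.len (max Bw (2 * p0 + 2 * N1)) 2 ?_ ?_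
    (BadN Ms M b m) (M * b ^ m) (b ^ m) (by positivity)
    (fun T T' h => BadN_per (fun k hk => (hMs k hk).2.2) T T' h)
    lam rho nu1 (fun P v h => (g1 P v h).le) (fun P Q v b h1 h2 => g2 P Q v b h1 h2) ?_
    (fun Q Q' h1 h2 h3 => (g4 Q Q' h1 h2 h3).2) K c hc
    lam2 (fun k Q => rho2 k Q 1) (fun X => nu2 X 1) ?_ (r + m) ?_ ?_ ?_ s
  · intro u hu
    obtain ⟨a, y, v, k, h1, h2, h3, rfl⟩ := hfree u hu
    refine Language.mem_mul.2 ⟨a ++ (List.replicate k y).flatten,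
      ⟨a, y, k, h1.trans (le_max_left _ _), h2.trans (le_max_right _ _), rfl⟩, v, ?_, rfl⟩
    refine Language.mem_mul.2 ⟨v, ⟨v, [], 0, h3.trans (le_max_left _ _), by simp, by simp⟩, [],
      rfl, by simp⟩
  · intro P Q hP hPQ hQ
    have h1 : 0 < Q.length := List.length_pos_iff.2 hQ
    have h2 := hgw (P ++ Q) P.length (P ++ Q).length (by rw [List.length_append]; omega) le_rfl
      (by rw [List.take_left]; exact hP) (by rw [List.take_length]; exact hPQ)
    rw [List.length_append] at h2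
    show 2 * p0 + 2 * N1 < Q.length
    omega
  · intro Y hY v
    obtain ⟨P, Q, h1, h2, v', h3⟩ := g3 Y (fun k hk hd => hY (Or.inl ⟨k, hk, hd⟩))
      (fun j hj => by
        by_contra hcon
        exact hY (Or.inr ⟨j, hj, hcon⟩)) v
    exact ⟨P, Q, h1, h2, by rw [h3]; rfl⟩
  · intro k hk P Q v u h1 _ h3 h4
    have := e1 k hk P Q 1 v u h1 h3 h4
    rw [mul_one] at this
    rw [this]; rfl
  · intro k k' l l' _ _ _ _ hkk hll h1 h2
    have h1' : x * 2 ^ k + x * 2 ^ l' < x * 2 ^ l + x * 2 ^ k' + 2 * N1 := h1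
    have h2' : x * 2 ^ l + x * 2 ^ k' < x * 2 ^ k + x * 2 ^ l' + 2 * N1 := h2
    have z1 : (x : ℤ) * 2 ^ k + x * 2 ^ l' < x * 2 ^ l + x * 2 ^ k' + 2 * N1 := by
      exact_mod_cast h1'
    have z2 : (x : ℤ) * 2 ^ l + x * 2 ^ k' < x * 2 ^ k + x * 2 ^ l' + 2 * N1 := by
      exact_mod_cast h2'
    have zx : 2 * (N1 : ℤ) + 1 ≤ x := by exact_mod_cast hx1
    have hzero : ((2 : ℤ) ^ k - 2 ^ k') - (2 ^ l - 2 ^ l') = 0 := by
      by_contra hne
      rcases lt_or_gt_of_ne hne with h | h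
      · have : ((2 : ℤ) ^ k - 2 ^ k') - (2 ^ l - 2 ^ l') ≤ -1 := by omega
        nlinarith
      · have : 1 ≤ ((2 : ℤ) ^ k - 2 ^ k') - (2 ^ l - 2 ^ l') := by omega
        nlinarith
    have := G369.pow_diff (i := k) (j := k') (i' := l) (j' := l') hkk.symm hll.symm
      (sub_eq_zero.1 hzero)
    exact this.1
  · intro τ hτ J hJ
    have hτ' : p0 + N1 + (n + 2 * p0) ≤ τ + p0 := hτ
    choose! f hf1 hf2 hf3 using fun k (hk : k ∈ J) => (hJ k hk).2
    refine le_trans ?_ ((hthin ((τ : ℤ) - p0)).trans (Nat.add_le_add_right hMc m))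
    refine Finset.card_le_card_of_injOn (fun k => (f k, k)) ?_ ?_
    · intro k hk
      have hk' : k ∈ J := hk
      have h1 := hc k (hJ k hk').1
      have h2 := hc (f k) (hf1 k hk')
      simp only [Finset.coe_filter, Finset.mem_product, Finset.mem_range]
      refine ⟨⟨hf1 k hk', (hJ k hk').1⟩, hf2 k hk', ?_⟩
      have h3 := BadN_imp hb0 (hf3 k hk')
      have h4 : ((τ + c (f k) - c k - p0 : ℕ) : ℤ) =
          (τ : ℤ) - p0 + (x : ℤ) * 2 ^ (f k) - (x : ℤ) * 2 ^ k := by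
        have e3 : ((c (f k) : ℕ) : ℤ) = (x : ℤ) * 2 ^ (f k) := by
          show ((x * 2 ^ (f k) : ℕ) : ℤ) = _
          push_cast; ring
        have e4 : ((c k : ℕ) : ℤ) = (x : ℤ) * 2 ^ k := by
          show ((x * 2 ^ k : ℕ) : ℤ) = _
          push_cast; ring
        rw [← e3, ← e4]
        omega
      rw [h4] at h3
      exact h3
    · intro k _ k' _ h
      exact (Prod.mk.inj h).2
  · intro u v hu
    obtain ⟨I, h1, h2⟩ := e2 u 1 v (fun k hk => by rw [hu]; exact hc k hk)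
    exact ⟨I, h1, h2⟩

end Crest.Agent.R320.Fin_892
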