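import Crest.Agent.R320.Joint_894
import Crest.Agent.R320.SemTop_727
import Crest.Agent.R320.Fib_298
import Crest.Agent.R320.Sp_249
import Crest.Agent.R320.G1_256
import Crest.Agent.R320.ExactR_237
import Crest.Agent.R320.Loc_354
import Crest.Agent.R320.LWallAll_922
import Crest.Agent.R320.Univ_234

/-!
# Row 320: final assembly (helper894): every fibre of a finite monoid is of height at most three.
-/

set_option autoImplicit false

namespace Crest.Agent.R320.Fin_894

open Crest.RegLang Crest.Agent.R320.Hk_851 Crest.Agent.R320.Blk467 Crest.Agent.R320.Joint_894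

theorem fib3 (A : Type) [Finite A] (S : Type) [Monoid S] [Finite S] (φ : A → S) (s : S) :
    HL 3 ({w | (w.map φ).prod = s} : Language A) := by
  classical
  rcases isEmpty_or_nonempty A with hA | ⟨⟨a0⟩⟩
  · exact HL.finite (Set.toFinite _)
  obtain ⟨act, hadd, hone, hmul, hfaith⟩ := exists_module S
  haveI : Fintype S := Fintype.ofFinite S
  haveI : Finite (S → ZMod 2) := inferInstance
  haveI : Fintype (S → ZMod 2) := Fintype.ofFinite _
  obtain ⟨m, r, hg⟩ := G1_256.g1 S (S → ZMod 2) act
  obtain ⟨K, hK⟩ := ExactR_237.exact_gadget A S (S → ZMod 2) φ act (2 * (r + m) + 2)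
  obtain ⟨Ms, M, hMs, hMk, hM, hb⟩ := hg (4 ^ K)
  have h64 : 64 ≤ 2 ^ (K + 6) := by
    rw [pow_add]
    have : 1 ≤ 2 ^ K := Nat.one_le_two_pow
    omega
  obtain ⟨b, hbdef⟩ : ∃ b, b = 1 + (2 ^ (K + 6) + 8) * M := ⟨_, rfl⟩
  have hmulM : 72 * M ≤ (2 ^ (K + 6) + 8) * M := Nat.mul_le_mul_right _ (by omega)
  have hb1 : 4 * M + 4 < b := by omega
  have hb2 : 2 ^ (K + 6) * M < b := by
    have : 2 ^ (K + 6) * M ≤ (2 ^ (K + 6) + 8) * M := Nat.mul_le_mul_right _ (by omega)
    omega
  have hcop : Nat.Coprime b M := by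
    rw [hbdef]
    exact (Nat.coprime_add_mul_right_left 1 M _).2 (Nat.coprime_one_left _)
  obtain ⟨lam, rho, nu, g1l, g1s, g1c, g1n⟩ := hb b hb1 hcop A φ
  obtain ⟨c, hc1, hc2, hc3, hc4⟩ := Sp_249.spoil Ms M b m K (b ^ m) hM
    (fun k hk => ⟨(hMk k hk).1, (hMk k hk).2.2⟩) hb2 hcop
  obtain ⟨lam2, rho2, nu2, g2s, g2c⟩ := hK c (fun i j hij _ => by
    have := hc1 i j hij
    omega)
  have hbm : 0 < b ^ m := Nat.pow_pos (by omega)
  obtain ⟨n, G, B, Wo, hLW, hsep, -, -, hfree⟩ :=
    LWallAll_922.walls_all_left A (2 * (c K + b ^ m)) (by omega)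
  have hnil : ¬ Wo [] := by
    intro h0
    have hn : n = 0 := by
      have := hLW.len _ h0
      simpa using this
    have h1 : Wo [a0] := by
      have := (hLW.app [a0] [] (by omega)).2 h0
      simpa using this
    have := hsep [a0] 0 1 (by omega) (by simp) (by simpa using h0) (by simpa using h1)
    omega
  have hWU : Fib_298.WallU Wo n (B + 2 * (c K + b ^ m)) := by
    refine ⟨hLW.app, hLW.len, fun X hX => ?_⟩
    obtain ⟨u, x, v, k, h1, h2, h3, h4⟩ := hfree X hX
    exact ⟨u, x, v, k, h4, by omega, by omega, by omega⟩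
  let d : Joint_894.D A S (S → ZMod 2) :=
    { f := φ, act := act, n := n, z := 3 * c K + 2 * b ^ m + n + 1, p0 := c K, N1 := b ^ m,
      K := K, C0 := r + m, W := 2 * (c K + b ^ m), c := c, Wo := Wo, lam := lam, rho := rho,
      nu1 := nu, lam2 := fun k P => lam2 k P, rho2 := fun k Q => rho2 k Q 1,
      nu2 := fun u => nu2 u 1, BadT := Sp_249.Bad Ms M b m }
  have hd : Joint_894.Ok d := by
    refine
      { w1 := hLW.app
        w3 := ?_
        hW := le_rfl
        hz := ?_
        hc := ?_
        g1l := fun P v h => (g1l P v h).le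
        g1s := g1s
        g1c := ?_
        g2s := ?_
        g2c := ?_
        apart := ?_
        spoil := ?_ }
    · intro P e hP he heW hQ
      have hP0 : 0 < P.length := by
        rcases P with _ | ⟨p, P⟩
        · exact absurd hP hnil
        · simp
      have := hsep P (P.length - e) P.length (by omega) le_rfl hQ
        (by rw [List.take_length]; exact hP)
      have heW' : e ≤ 2 * (c K + b ^ m) := heW
      omega
    · show 3 * c K + 2 * b ^ m + n ≤ 3 * c K + 2 * b ^ m + n + 1
      omega
    · intro k hk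
      have := hc1 k K hk
      show c k ≤ c K
      omega
    · intro Y hY v
      have hY' : ¬ Sp_249.Bad Ms M b m Y.length := hY
      unfold Sp_249.Bad at hY'
      push Not at hY'
      exact g1c Y hY'.1 hY'.2 v
    · intro k hk P Q v b' hP h1 h2
      have := g2s k hk P Q 1 v b' hP h1 h2
      rw [mul_one] at this
      exact this
    · intro u v hu
      obtain ⟨I, hI, hI2⟩ := g2c u 1 v (fun k hk => by
        have := hc1 k K hk
        have hu' : u.length = c K := hu
        omega)
      exact ⟨I, hI, hI2⟩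
    · intro i j k l _ _ _ _ hij hkl h1 h2
      have h1' : c i + c l ≤ c j + c k + 2 * b ^ m := h1
      have h2' : c j + c k ≤ c i + c l + 2 * b ^ m := h2
      by_contra hne
      have hne' : (i, j) ≠ (k, l) := by
        intro h
        rw [Prod.mk.injEq] at h
        exact hne h
      rcases hc2 i j k l hij hkl hne' with h | h <;> omega
    · intro T hT Bs hBs
      have hT' : c K ≤ T := hT
      have := hc4 T (fun l hl => by
        have := hc1 l K hl
        omega)
      refine le_trans (Finset.card_le_card fun p hp => ?_) (this.trans (by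
        show Ms.card + m ≤ r + m
        omega))
      obtain ⟨h1, h2, h3, h4⟩ := hBs p hp
      rw [Finset.mem_filter, Finset.mem_product, Finset.mem_range, Finset.mem_range]
      exact ⟨⟨h1, h2⟩, h3, h4⟩
  have hnu : ∀ y, Language.IsRegular ({Y | nu Y = y} : Language A) := by
    intro y
    refine Loc_354.regular_of_local φ (b ^ m) (M * b ^ m) (Nat.mul_pos hM hbm) _ ?_
    intro q q2 h1 h2 h3 h4 h5
    have := (g1n q q2 h1 h2 h3 h4 h5).2
    show nu q = y ↔ nu q2 = y
    rw [this]
  let E : SemTop_727.Sch A (S → ZMod 2) := ⟨d.XX, d.T, d.L1, d.L2⟩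
  have hzz : n ≤ 3 * c K + 2 * b ^ m + n + 1 := by omega
  refine SemTop_727.top (k := 1) act hadd hone hmul hfaith φ
    (fun X => act (nu2 (X.take (c K)) 1) ((X.drop (c K)).map φ).prod + nu (X.drop (c K))) E
    ?_ ?_ ?_ ?_ ?_ ?_ ?_ s
  · intro v X
    show act (act v ((X.take (c K)).map φ).prod + nu2 (X.take (c K)) 1)
      ((X.drop (c K)).map φ).prod + nu (X.drop (c K)) = _
    rw [hadd, ← hmul, ← List.prod_append, ← List.map_append, List.take_append_drop, add_assoc]
  · exact Fib_298.pcode_XX (Wo := Wo) (z := 3 * c K + 2 * b ^ m + n + 1) (by omega)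
  · intro x y
    exact Fib_298.hfib hWU hzz act φ (c K) (by omega)
      (fun v X0 => act v (X0.map φ).prod + nu2 X0 1) nu hnu x y
  · intro x
    refine (List.finite_length_le A (c K + b ^ m)).subset ?_
    rintro P ⟨h1, h2⟩
    have h3 := (g1l _ _ h2).le
    rw [List.length_drop] at h3
    have h3' : P.length - c K ≤ b ^ m := h3
    show P.length ≤ c K + b ^ m
    omega
  · intro x
    refine (List.finite_length_le A (c K)).subset ?_
    rintro P ⟨k, h1, h2, h3⟩
    have h1' : k < K := h1
    have h2' : P.length = c k := h2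
    have := hc1 k K h1'
    show P.length ≤ c K
    omega
  · intro X1 h1 X2 h2 x
    exact Joint_894.hC2 hd X1 h1 X2 h2 x
  · intro s'
    exact (Fib_298.rest hWU hzz φ s').mono (by omega)

/-- the final theorem in every universe -/
theorem fin.{u} {α : Type u} [Finite α] (L : Language α) (hL : L.IsRegular) :
    ∃ e : Crest.RegLang.GRegExp α, e.height ≤ 3 ∧ e.lang = L :=
  Univ_234.of_type_monoid (k := 3) (fun A _ S _ _ φ s => fib3 A S φ s) L hL

end Crest.Agent.R320.Fin_894
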