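import Crest.Agent.R320.Top5_120
import Crest.Agent.R320.Last_749
import Crest.Agent.R320.InstA_425
import Crest.Agent.R320.GridG_19
import Crest.Agent.R320.GridRuler_257
import Crest.Agent.R320.ExactR_237
import Crest.Agent.R320.Bridge_975
import Crest.Agent.R320.HZ_847

/-!
# Row 320: the final join (helper896): constants and instances

Top = `Top5_120.top5`, walls = `WallU_228.walls_full`, block code and its height-one fibres =
`Last_749`, both schemes and the spoil count = `InstA_425`, scheme-1 gadget = `GridG_19.grid`,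
ruler = `GridRuler_257.ruler`, scheme-2 gadget = `ExactR_237.exact_gadget`.
-/

set_option autoImplicit false

namespace Crest.Agent.R320.Fin_896

open Crest.RegLang Crest.Agent.R320.Hk_851 Crest.Agent.R320.FewWalls_228
  Crest.Agent.R320.WallU_228 Crest.Agent.R320.Blk467
open Crest.Agent.R320.GridG_19 (Am Ac BadG)

/-- bad lengths -/
def BT (Ms : Finset ℕ) (G : ℕ → ℕ) (M m T : ℕ) : Prop :=
  Am G M 0 m ≤ T ∧ ((∃ q ∈ Ms, q ∣ T) ∨ BadG G M 0 m T)

theorem badZ_of_bt {Ms : Finset ℕ} {G : ℕ → ℕ} {M m T : ℕ} (hG : ∀ k, 0 < G k)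
    (h : BT Ms G M m T) :
    Crest.Agent.R320.GridRuler_257.BadZ Ms m M G (Am G M 0) (T : ℤ) := by
  obtain ⟨h0, h | ⟨k, hk, h⟩⟩ := h
  · obtain ⟨q, hq, hd⟩ := h
    exact Or.inl ⟨q, hq, by exact_mod_cast hd⟩
  · right
    have hA : Am G M 0 (k + 1) ≤ T := (GridG_19.Am_mono G M 0 (by omega)).trans h0
    have e1 : (k + 1 - 1) = k := by omega
    set R := (T - Am G M 0 (k + 1)) % G (k + 1) with hR
    have hdm := Nat.div_add_mod (T - Am G M 0 (k + 1)) (G (k + 1))
    rw [← hR] at hdm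
    have hz : (T : ℤ) - Am G M 0 (k + 1) =
        (G (k + 1) : ℤ) * ((T - Am G M 0 (k + 1)) / G (k + 1) : ℕ) + (R : ℤ) := by
      have h1 : ((T - Am G M 0 (k + 1) : ℕ) : ℤ) = (T : ℤ) - Am G M 0 (k + 1) :=
        Nat.cast_sub hA
      rw [← h1]
      exact_mod_cast hdm.symm
    rcases h with h | h
    · refine ⟨k + 1, by omega, by omega, (R : ℤ), ?_, ?_⟩
      · rw [e1, abs_of_nonneg (by positivity)]
        exact_mod_cast h.le
      · rw [hz]
        refine ⟨((T - Am G M 0 (k + 1)) / G (k + 1) : ℕ), by ring⟩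
    · have hlt : R < G (k + 1) := Nat.mod_lt _ (hG _)
      refine ⟨k + 1, by omega, by omega, (R : ℤ) - G (k + 1), ?_, ?_⟩
      · have h2 : (R : ℤ) < G (k + 1) := by exact_mod_cast hlt
        rw [e1, abs_of_nonpos (by linarith)]
        have h3 : (G (k + 1) : ℤ) ≤ R + (M * G k : ℕ) := by exact_mod_cast h
        linarith
      · rw [hz]
        refine ⟨((T - Am G M 0 (k + 1)) / G (k + 1) : ℕ) + 1, by ring⟩

theorem bt_period {Ms : Finset ℕ} {G : ℕ → ℕ} {M m : ℕ} (hq : ∀ q ∈ Ms, q ∣ M)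
    (hd : ∀ a b, a ≤ b → G a ∣ G b) {T : ℕ} (hT : Am G M 0 m ≤ T) :
    BT Ms G M m (T + M * G m) ↔ BT Ms G M m T := by
  have e1 : ∀ q ∈ Ms, (q ∣ T + M * G m ↔ q ∣ T) := fun q h =>
    (Nat.dvd_add_iff_left ((hq q h).trans (Dvd.intro _ rfl))).symm
  have e2 : ∀ k, k < m → (T + M * G m - Am G M 0 (k + 1)) % G (k + 1) =
      (T - Am G M 0 (k + 1)) % G (k + 1) := by
    intro k hk
    have h1 : Am G M 0 (k + 1) ≤ T := (GridG_19.Am_mono G M 0 (by omega)).trans hT
    have h2 : T + M * G m - Am G M 0 (k + 1) = (T - Am G M 0 (k + 1)) + M * G m := by omega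
    obtain ⟨c, hc⟩ := hd (k + 1) m (by omega)
    rw [h2, hc, show M * (G (k + 1) * c) = G (k + 1) * (M * c) by ring, Nat.add_mul_mod_self_left]
  constructor
  · rintro ⟨_, h | ⟨k, hk, h⟩⟩
    · obtain ⟨q, h1, h2⟩ := h
      exact ⟨hT, Or.inl ⟨q, h1, (e1 q h1).1 h2⟩⟩
    · rw [e2 k hk] at h
      exact ⟨hT, Or.inr ⟨k, hk, h⟩⟩
  · rintro ⟨_, h | ⟨k, hk, h⟩⟩
    · obtain ⟨q, h1, h2⟩ := h
      exact ⟨by omega, Or.inl ⟨q, h1, (e1 q h1).2 h2⟩⟩
    · rw [← e2 k hk] at h
      exact ⟨by omega, Or.inr ⟨k, hk, h⟩⟩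

theorem fin (α : Type) [Finite α] (S : Type) [Monoid S] [Finite S] (φ : α → S) (s : S) :
    HL 3 ({w | (w.map φ).prod = s} : Language α) := by
  classical
  have := Fintype.ofFinite S
  obtain ⟨act, hadd, hone, hmul, hfaith⟩ := Crest.Agent.R320.Blk467.exists_module S
  obtain ⟨m, r, hgrid⟩ := Crest.Agent.R320.GridG_19.grid S (S → ZMod 2) act
  -- redundancy
  obtain ⟨K, hex⟩ := Crest.Agent.R320.ExactR_237.exact_gadget α S (S → ZMod 2) φ act
    (2 * (r + m) + 2)
  obtain ⟨Ms, hcard, hpr, hgrid⟩ := hgrid (4 ^ K + 2)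
  set M := ∏ q ∈ Ms, q with hMdef
  have hM0 : 0 < M := Finset.prod_pos fun q hq => (hpr q hq).1.pos
  have hqM : ∀ q ∈ Ms, q ∣ M := fun q hq => Finset.dvd_prod_of_mem _ hq
  let κ := 16 * 4 ^ K * M
  let G : ℕ → ℕ := fun i => 2 ^ (κ * i)
  have hG : ∀ k, 0 < G k := fun k => by positivity
  have hGd : ∀ a b, a ≤ b → G a ∣ G b := fun a b h =>
    pow_dvd_pow 2 (Nat.mul_le_mul_left _ h)
  have h2M : Nat.Coprime M 2 := by
    rw [hMdef]
    refine Nat.Coprime.prod_left fun q hq => ?_
    obtain ⟨h1, h2⟩ := hpr q hq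
    refine (Nat.coprime_primes h1 Nat.prime_two).2 ?_
    intro h
    have h4 : 0 < 4 ^ K := by positivity
    omega
  have hcop : ∀ k, Nat.Coprime M (G k) := fun k => Nat.Coprime.pow_right _ h2M
  obtain ⟨lam, rho, nu, g1, g2, g3, g4, g5⟩ := hgrid G 0 hG hGd hcop α
    (fun w => (w.map φ).prod) (fun u v => by rw [List.map_append, List.prod_append])
  set A := Am G M 0 m with hA
  -- ruler
  have hGb : ∀ j, 16 * 4 ^ K * (M * G j) ≤ G (j + 1) := by
    intro j
    have h1 : G (j + 1) = 2 ^ κ * G j := by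
      show 2 ^ (κ * (j + 1)) = 2 ^ κ * 2 ^ (κ * j)
      rw [← pow_add]; congr 1; ring
    rw [h1, ← mul_assoc]
    exact Nat.mul_le_mul_right _ (Nat.lt_two_pow_self).le
  let N := A + M
  obtain ⟨U, hU1, hU2, hU3, hU4⟩ := Crest.Agent.R320.GridRuler_257.ruler K m Ms M G (Am G M 0) N
    hM0 (fun q hq => ⟨hqM q hq, by have := (hpr q hq).2; omega⟩) (hG 0)
    (fun j => hGd j (j + 1) (by omega)) hGb (hcop m)
  let x : ℕ → ℕ := fun k => U * 4 ^ k
  have hxm : ∀ i j, i < j → x i < x j := fun i j h => by have := hU2 i j h; show U * 4 ^ i < U * 4 ^ j; omega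
  let p0 := x K
  have hxp : ∀ k, k < K → x k ≤ p0 := fun k hk => (hxm k K hk).le
  obtain ⟨lam2, rho2, nu2, e1, e2⟩ := hex x (fun i j h _ => hxm i j h)
  obtain ⟨n, c, P, W, hn, hP, hloc, hgap, _, _, hfew⟩ :=
    walls_full (α := α) (2 * p0 + 2 * N + 1)
  let z := 3 * p0 + 3 * N + n + 1
  let D : Crest.Agent.R320.InstA_425.Dat α S (S → ZMod 2) :=
    { φ := φ, act := act, W := Wo n W, n := n, g := 2 * p0 + 2 * N + 1, z := z, p0 := p0, N := N,
      K := K, C0 := r + m, x := x, BT := BT Ms G M m, lam := lam, rho := rho, nu := nu,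
      lam2 := lam2, rho2 := fun k Q => rho2 k Q 1, nu2 := fun X => nu2 X 1 }
  have hOk : D.Ok := by
    refine ⟨hadd, hmul, hloc, ?_, ?_, ?_, hxp, ?_, ?_, ?_, ?_, ?_, ?_, ?_⟩
    · intro X s t _ hst ht hs hw
      show s + (2 * p0 + 2 * N + 1) < t
      by_contra hc
      have := hgap (X.take t) (t - s) hw (by omega) (by omega)
      apply this
      have hl : (X.take t).length = t := by rw [List.length_take]; omega
      rw [hl, List.take_take, show min (t - (t - s)) t = s by omega]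
      exact hs
    · show 2 * p0 + 2 * N < 2 * p0 + 2 * N + 1
      omega
    · show 3 * p0 + 3 * N + n < 3 * p0 + 3 * N + n + 1
      omega
    · intro a b c d _ _ _ _ hab h1 h2
      rcases hU3 a b c d hab with h | h
      · exact h
      · exfalso
        have h1' : x a + x d < x b + x c + 4 * N := h1
        have h2' : x b + x c < x a + x d + 4 * N := h2
        have h3 : (4 * N : ℤ) < |((x a : ℤ) - (x b : ℤ)) - ((x c : ℤ) - (x d : ℤ))| := h
        rcases lt_abs.1 h3 with h4 | h4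
        · omega
        · omega
    · intro T hT
      refine ⟨((Finset.range K) ×ˢ (Finset.range K)).filter
        (fun ab => ab.1 ≠ ab.2 ∧ BT Ms G M m (T + x ab.1 - x ab.2)), ?_, ?_⟩
      · refine (hU4 (T : ℤ) _ ?_).trans (by show Ms.card + m ≤ r + m; omega)
        intro ab hab
        rw [Finset.mem_filter, Finset.mem_product, Finset.mem_range, Finset.mem_range] at hab
        refine ⟨hab.1.1, hab.1.2, hab.2.1, ?_⟩
        have h1 := badZ_of_bt hG hab.2.2
        have h2 : x ab.2 ≤ T := (hxp ab.2 hab.1.2).trans hT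
        have h3 : ((T + x ab.1 - x ab.2 : ℕ) : ℤ) = (T : ℤ) + (x ab.1 : ℕ) - (x ab.2 : ℕ) := by
          rw [Nat.cast_sub (by omega)]; push_cast; ring
        rw [h3] at h1
        exact h1
      · intro a b ha hb hab h
        rw [Finset.mem_filter, Finset.mem_product, Finset.mem_range, Finset.mem_range]
        exact ⟨⟨ha, hb⟩, hab, h⟩
    · intro p v h
      have := (g2 p v h).2
      show p.length < A + M
      omega
    · intro p q v r h1 h2
      exact g1 p q v r h1 h2
    · intro u hu hb v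
      have hu' : 2 * (A + M) ≤ u.length := hu
      have hb' : ¬ BT Ms G M m u.length := hb
      have hAu : Am G M 0 m ≤ u.length := by omega
      obtain ⟨P, Q, h1, h2, h3⟩ := g4 u (by omega) (by omega)
        (fun q hq hd => hb' ⟨hAu, Or.inl ⟨q, hq, hd⟩⟩) (fun h => hb' ⟨hAu, Or.inr h⟩) v
      exact ⟨P, Q, h1, h2, Option.isSome_iff_exists.1 h3⟩
    · intro k hk P Q v b hP h1 h2
      have := e1 k hk P Q 1 v b hP h1 h2
      rw [mul_one] at this
      exact this
    · intro u v hu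
      obtain ⟨I, hI, hI2⟩ := e2 u 1 v (fun k hk => by
        have := hxp k hk
        have hu' : u.length = p0 := hu
        omega)
      refine ⟨I, hI, fun k hk => ?_⟩
      obtain ⟨h1, h2, h3⟩ := hI2 k hk
      exact ⟨h1, h2, Option.isSome_iff_exists.1 h3⟩
  -- regularity
  have hNu : ∀ v, Language.IsRegular ({Y | nu Y = v} : Language α) := by
    intro v
    refine Crest.Agent.R320.Bridge_975.reg_of_local φ (Ac G M 0 m) (M * G m)
      (Nat.mul_pos hM0 (hG m)) (fun Y => nu Y = v) ?_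
    intro q q2 h1 h2 h3 h4 h5
    have hpr : (q.map φ).prod = (q2.map φ).prod := by
      rw [← List.take_append_drop (Ac G M 0 m) q, ← List.take_append_drop (Ac G M 0 m) q2,
        List.map_append, List.map_append, List.prod_append, List.prod_append, h3, h5]
    rw [g5 q q2 h1 h2 h3 h4 hpr]
  have hν : ∀ v, Language.IsRegular ({X | D.ν X = v} : Language α) :=
    fun v => Crest.Agent.R320.Last_749.reg_nu act φ p0 (fun X => nu2 X 1) nu hNu v
  have hz0 : 0 < z := by show 0 < 3 * p0 + 3 * N + n + 1; omega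
  have hC : PCode (Crest.Agent.R320.Last_749.XX n W z) := Crest.Agent.R320.Last_749.pcode hz0
  have hBTreg : Language.IsRegular ({X | BT Ms G M m (X.length - p0)} : Language α) := by
    refine Crest.Agent.R320.HZ847.reg_length (La := p0 + A) (Pm := M * G m)
      (Nat.mul_pos hM0 (hG m)) (fun t => BT Ms G M m (t - p0)) ?_
    intro t ht
    have h1 : t + M * G m - p0 = (t - p0) + M * G m := by omega
    show BT Ms G M m (t + M * G m - p0) ↔ BT Ms G M m (t - p0)
    rw [h1]
    exact bt_period hqM hGd (by omega)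
  have hEreg : Language.IsRegular ({X | D.E X} : Language α) := by
    have hf : ({v | v.length ≤ z + N ∧ (z < v.length + N ∧ v.length < z + N ∧ Wo n W v)} :
        Set (List α)).Finite :=
      (List.finite_length_le α (z + N)).subset fun v hv => hv.1
    refine Crest.Agent.R320.Reg_852.HL.isRegular ((HL.prefix (HL.finite (k := 0) hf)).congr
      fun w => ?_)
    constructor
    · rintro ⟨t, h1, h2, h3, h4⟩
      have hl : (w.take t).length = t := by rw [List.length_take]; omega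
      have h1' : z < t + N := h1
      have h2' : t < z + N := h2
      exact ⟨w.take t, ⟨by omega, by omega, by omega, h4⟩, List.take_prefix _ _⟩
    · rintro ⟨v, ⟨_, h1, h2, h3⟩, ⟨u, rfl⟩⟩
      refine ⟨v.length, h1, h2, by rw [List.length_append]; omega, ?_⟩
      rw [List.take_left]
      exact h3
  have hbadreg : Language.IsRegular (Crest.Agent.R320.Last_749.lg (fun X => D.E X) +
      Crest.Agent.R320.Last_749.lg (fun X : List α => BT Ms G M m (X.length - p0))) :=
    Language.IsRegular.add hEreg hBTreg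
  refine Crest.Agent.R320.Top5_120.top5 act hadd hone hmul hfaith φ D.ν D.XX D.Bad hC
    (fun X hX => hX.1) D.LP1 D.LP2 ?_ ?_ ?_ ?_ ?_ ?_ ?_ s
  · intro v
    refine (List.finite_length_le α (p0 + N)).subset ?_
    rintro P ⟨X0, p, rfl, h1, h2⟩
    have h3 := hOk.lam_len p _ h2
    have h1' : X0.length = p0 := h1
    have h3' : p.length < N := h3
    show (X0 ++ p).length ≤ p0 + N
    rw [List.length_append]; omega
  · intro v
    refine (List.finite_length_le α p0).subset ?_
    rintro P ⟨k, h1, h2, _⟩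
    have h2' : P.length = x k := h2
    show P.length ≤ p0
    rw [h2']
    exact hxp k h1
  · intro a b
    exact Crest.Agent.R320.Last_749.hfib hfew z act φ D.ν hν a b
  · intro a b
    have hreg : Language.IsRegular (((Crest.Agent.R320.Last_749.XX n W z : Language α) ⊓
      ({X | act a (X.map φ).prod + D.ν X = b} : Language α)) ⊓
      (Crest.Agent.R320.Last_749.lg (fun X => D.E X) +
      Crest.Agent.R320.Last_749.lg (fun X : List α => BT Ms G M m (X.length - p0)))) :=
      ((Crest.Agent.R320.Reg_852.HL.isRegular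
        (Crest.Agent.R320.Last_749.HL_XX (k := 0) n W z)).inf
        (Crest.Agent.R320.Last_749.reg_T act φ D.ν hν a b)).inf hbadreg
    refine (hfew _ hreg (z + 1)).congr fun w => ?_
    constructor
    · rintro ⟨⟨h1, h2⟩, h3⟩
      refine ⟨⟨⟨h1, h3⟩, ?_⟩, Crest.Agent.R320.Last_749.nw_XX h1⟩
      exact h2
    · rintro ⟨⟨⟨h1, h3⟩, h2⟩, _⟩
      exact ⟨⟨h1, h2⟩, h3⟩
  · intro t
    exact Crest.Agent.R320.Last_749.HL_rest hfew z φ t
  · intro X hX hb v
    obtain ⟨P, Q, h1, h2, h3⟩ := Crest.Agent.R320.InstA_425.c1 hOk X hX hb v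
    exact ⟨P, Q, h1, h2, fun y P' hP' => h3 y P' hP'⟩
  · intro X hX Y hY v
    obtain ⟨P, Q, h1, h2, h3⟩ := Crest.Agent.R320.InstA_425.c2 hOk X hX Y hY v
    refine ⟨P, Q, h1, h2, fun y P' hP' => ?_⟩
    rcases h3.2 y P' hP' with ⟨X', a1, a2, a3⟩ | ⟨X1, a1, X2, a2, a3, a4⟩
    · exact Or.inr ⟨X', a1, a2, a3⟩
    · exact Or.inl ⟨X1, a1, X2, a2.1, a3.symm, a4⟩

end Crest.Agent.R320.Fin_896
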