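import Crest.Agent.R320.Top5_120
import Crest.Agent.R320.Sc2n_937
import Crest.Agent.R320.Thin_963
import Crest.Agent.R320.ExactR_237
import Crest.Agent.R320.LWallAll_922
import Crest.Agent.R320.Fib_854
import Crest.Agent.R320.Two_621
import Crest.Agent.R320.Grid_899

/-!
Row 320: JOIN of the pieces (helper899).
-/

set_option autoImplicit false

namespace Crest.Agent.R320.Fin_899

open Crest.RegLang Crest.Agent.R320.Hk_851 Crest.Agent.R320.Grid_899 Crest.Agent.R320.Sc2n_937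

/-- walls with positive window. -/
theorem walls (A : Type) [Finite A] (W : ℕ) (hW : 0 < W) :
    ∃ (n B : ℕ) (Wo : List A → Prop), 0 < n ∧
      (∀ P Q : List A, n ≤ Q.length → (Wo (P ++ Q) ↔ Wo Q)) ∧ (∀ Q, Wo Q → n ≤ Q.length) ∧
      (∀ (X : List A) (s t : ℕ), s < t → t ≤ X.length → Wo (X.take s) → Wo (X.take t) →
        W < t - s) ∧
      (∀ X : List A, (∀ t, t < X.length → ¬ Wo (X.take t)) → ∃ (u x : List A) (k : ℕ) (v : List A),
        u.length ≤ B ∧ x.length ≤ B ∧ v.length ≤ B ∧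
          X = u ++ (List.replicate k x).flatten ++ v) := by
  obtain ⟨n, _, B, Wo, hLW, hgap, _, _, hfew⟩ :=
    Crest.Agent.R320.LWallAll_922.walls_all_left A W hW
  have hfew' : ∀ X : List A, (∀ t < X.length, ¬ Wo (X.take t)) →
      ∃ (u x : List A) (k : ℕ) (v : List A),
        u.length ≤ max B W ∧ x.length ≤ max B W ∧ v.length ≤ max B W ∧
          X = u ++ (List.replicate k x).flatten ++ v := by
    intro X hX
    obtain ⟨u, x, v, k, h1, h2, h3, h4⟩ := hfew X hX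
    exact ⟨u, x, k, v, le_trans h1 (le_max_left _ _), le_trans h2 (le_max_right _ _),
      le_trans h3 (le_max_left _ _), h4⟩
  rcases Nat.eq_zero_or_pos n with hn | hn
  · subst hn
    by_cases h0 : Wo []
    · have hall : ∀ P, Wo P := fun P => by
        have := (hLW.app P [] (by simp)).2 h0
        simpa using this
      have hemp : ∀ X : List A, X = [] := by
        intro X
        rcases X with _ | ⟨a, X⟩
        · rfl
        · have := hgap [a] 0 1 (by omega) (by simp) (hall _) (hall _)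
          omega
      refine ⟨1, 0, fun _ => False, one_pos, by simp, by simp, by simp, ?_⟩
      intro X _
      exact ⟨[], [], 0, [], by simp, by simp, by simp, by simpa using hemp X⟩
    · have hno : ∀ P, ¬ Wo P := fun P h => h0 ((hLW.app P [] (by simp)).1 (by simpa using h))
      refine ⟨1, max B W, Wo, one_pos, fun P Q _ => iff_of_false (hno _) (hno _),
        fun Q h => (hno _ h).elim, hgap, fun X hX => hfew' X hX⟩
  · exact ⟨n, max B W, Wo, hn, hLW.app, hLW.len, hgap, fun X hX => hfew' X hX⟩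

/-- `k` distinct primes above a bound. -/
theorem primes (k B : ℕ) : ∃ q : Fin k → ℕ, Function.Injective q ∧ ∀ j, (q j).Prime ∧ B ≤ q j := by
  have hinf : ({p : ℕ | p.Prime ∧ B ≤ p}).Infinite := by
    rw [Set.infinite_iff_exists_gt]
    intro a
    obtain ⟨p, h1, h2⟩ := Nat.exists_infinite_primes (max (a + 1) B)
    exact ⟨p, ⟨h2, le_trans (le_max_right _ _) h1⟩,
      lt_of_lt_of_le (Nat.lt_succ_self a) (le_trans (le_max_left _ _) h1)⟩
  let emb := hinf.natEmbedding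
  refine ⟨fun j => (emb j : ℕ), ?_, fun j => (emb j).2⟩
  intro i j h
  have h1 : emb i = emb j := Subtype.ext h
  exact Fin.ext (emb.injective h1)

/-- the thin set of bad totals of the grid gadget -/
def BadT (k m : ℕ) (q : Fin k → ℕ) (κ : ℕ) (n : ℕ) : Prop :=
  (∃ j, q j ∣ n) ∨ ∃ j, 1 ≤ j ∧ j ≤ m ∧
    ¬ ((∏ j, q j) * G κ (j - 1) ≤ (n - Am (∏ j, q j) κ j) % G κ j ∧
      (n - Am (∏ j, q j) κ j) % G κ j + (∏ j, q j) * G κ (j - 1) ≤ G κ j)

theorem badT_congr {k m : ℕ} {q : Fin k → ℕ} {κ n n' : ℕ}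
    (h1 : Am (∏ j, q j) κ (m + 1) ≤ n) (h2 : Am (∏ j, q j) κ (m + 1) ≤ n')
    (h : n ≡ n' [MOD (∏ j, q j) * G κ m]) : BadT k m q κ n ↔ BadT k m q κ n' := by
  have hq : ∀ j, (q j ∣ n ↔ q j ∣ n') := fun j =>
    (h.of_dvd (dvd_trans (Finset.dvd_prod_of_mem q (Finset.mem_univ j))
      (Nat.dvd_mul_right _ _))).dvd_iff dvd_rfl
  have hb : ∀ j, j ≤ m → (n - Am (∏ j, q j) κ j) % G κ j = (n' - Am (∏ j, q j) κ j) % G κ j := by
    intro j hj
    have hA : Am (∏ j, q j) κ j ≤ Am (∏ j, q j) κ (m + 1) := Am_mono (by omega)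
    have h3 := sub_mod_congr (Ms := ∏ j, q j) (κ := κ) (j := j) (a := 0) (by omega) (by omega)
      (modG hj h)
    simpa using h3
  unfold BadT
  constructor
  · rintro (⟨j, hj⟩ | ⟨j, h3, h4, h5⟩)
    · exact Or.inl ⟨j, (hq j).1 hj⟩
    · right
      refine ⟨j, h3, h4, ?_⟩
      rw [← hb j h4]
      exact h5
  · rintro (⟨j, hj⟩ | ⟨j, h3, h4, h5⟩)
    · exact Or.inl ⟨j, (hq j).2 hj⟩
    · right
      refine ⟨j, h3, h4, ?_⟩
      rw [hb j h4]
      exact h5

/-- ruler: the thin count. -/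
theorem ruler (k m K : ℕ) (q : Fin k → ℕ) (hinj : Function.Injective q)
    (hq : ∀ j, (q j).Prime ∧ 2 ^ (K + 1) ≤ q j) (hodd : ∀ j, Odd (q j)) (κ : ℕ)
    (hκ : 2 ^ (K + 5) * (∏ j, q j) ≤ 2 ^ κ) (N0 : ℕ) :
    ∃ X : ℕ, N0 ≤ X ∧ 0 < X ∧ ∀ T : ℤ, ∀ F : Finset (ℕ × ℕ),
      (∀ p ∈ F, p.1 < K ∧ p.2 < K ∧ p.1 ≠ p.2 ∧ ∃ n : ℕ, Am (∏ j, q j) κ (m + 1) ≤ n ∧
        (n : ℤ) = T + (X : ℤ) * 2 ^ p.1 - (X : ℤ) * 2 ^ p.2 ∧ BadT k m q κ n) → F.card ≤ k + m := by
  classical
  set Ms := ∏ j, q j with hMs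
  have hMpos : 0 < Ms := Finset.prod_pos (fun j _ => (hq j).1.pos)
  have hGm : ∀ i, G κ (i + 1) = 2 ^ κ * G κ i := by
    intro i
    unfold G
    rw [← pow_add]
    congr 1
    ring
  have hgrow : ∀ i, 2 ^ (K + 4) * ∑ j ∈ Finset.range (i + 1), (Ms * G κ j) ≤ G κ (i + 1) := by
    intro i
    have hsum : ∑ j ∈ Finset.range (i + 1), (Ms * G κ j) ≤ 2 * (Ms * G κ i) := by
      induction i with
      | zero => simp; omega
      | succ i ih =>
        rw [Finset.sum_range_succ]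
        have h1 : 2 * (Ms * G κ i) ≤ Ms * G κ (i + 1) := by
          rw [hGm i]
          have h2 : 2 ≤ 2 ^ κ := by
            have h3 : 2 ^ (K + 5) * 1 ≤ 2 ^ (K + 5) * Ms := Nat.mul_le_mul_left _ hMpos
            have h4 : 2 ≤ 2 ^ (K + 5) := by
              calc 2 = 2 ^ 1 := rfl
                _ ≤ 2 ^ (K + 5) := Nat.pow_le_pow_right (by norm_num) (by omega)
            omega
          calc 2 * (Ms * G κ i) ≤ 2 ^ κ * (Ms * G κ i) := Nat.mul_le_mul_right _ h2
            _ = Ms * (2 ^ κ * G κ i) := by ring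
        omega
    calc 2 ^ (K + 4) * ∑ j ∈ Finset.range (i + 1), (Ms * G κ j)
        ≤ 2 ^ (K + 4) * (2 * (Ms * G κ i)) := Nat.mul_le_mul_left _ hsum
      _ = (2 ^ (K + 5) * Ms) * G κ i := by ring
      _ ≤ 2 ^ κ * G κ i := Nat.mul_le_mul_right _ hκ
      _ = G κ (i + 1) := (hGm i).symm
  obtain ⟨X, hX0, hXpos, hX⟩ := Crest.Agent.R320.Thin963.thin K m (Finset.univ.image q)
    (fun i => (G κ i : ℤ)) (fun i => ((Ms * G κ i : ℕ) : ℤ)) (fun i => (Am Ms κ i : ℤ))
    (by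
      intro p hp
      obtain ⟨j, _, rfl⟩ := Finset.mem_image.1 hp
      exact hq j)
    (by
      intro p hp
      obtain ⟨j, _, rfl⟩ := Finset.mem_image.1 hp
      rw [Nat.isCoprime_iff_coprime]
      exact Nat.Coprime.pow_right _ (Nat.coprime_two_right.2 (hodd j)))
    (by exact_mod_cast G_pos m)
    (by
      intro i j hij
      exact_mod_cast G_dvd hij)
    (by
      intro i
      have := Nat.mul_pos hMpos (G_pos (κ := κ) i)
      exact_mod_cast this)
    (by
      intro i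
      exact_mod_cast (Nat.dvd_mul_left (G κ i) Ms))
    (by
      intro i _
      have := hgrow i
      have h2 : ((2 ^ (K + 4) * ∑ j ∈ Finset.range (i + 1), (Ms * G κ j) : ℕ) : ℤ) ≤
        ((G κ (i + 1) : ℕ) : ℤ) := by exact_mod_cast this
      push_cast at h2 ⊢
      exact h2)
    ((N0 : ℤ))
  have hXn : ((X.toNat : ℕ) : ℤ) = X := Int.toNat_of_nonneg hXpos.le
  refine ⟨X.toNat, by omega, by omega, ?_⟩
  intro T F hF
  have hcard : (Finset.univ.image q).card = k := by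
    rw [Finset.card_image_of_injective _ hinj]; simp
  have := hX T
  rw [hcard] at this
  refine le_trans (Finset.card_le_card ?_) this
  intro p hp
  obtain ⟨h1, h2, h3, n, hn, hn2, hb⟩ := hF p hp
  rw [hXn] at hn2
  refine Finset.mem_filter.2 ⟨Finset.mem_product.2 ⟨Finset.mem_range.2 h1, Finset.mem_range.2 h2⟩,
    h3, ?_⟩
  rw [← hn2]
  rcases hb with ⟨j, hj⟩ | ⟨j, hj1, hj2, hj3⟩
  · left
    exact ⟨q j, Finset.mem_image_of_mem q (Finset.mem_univ j), by exact_mod_cast hj⟩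
  · right
    have hA : Am Ms κ j ≤ Am Ms κ (m + 1) := Am_mono (by omega)
    refine ⟨j - 1, by omega, ?_⟩
    have hj' : j - 1 + 1 = j := by omega
    rw [hj']
    set r := (n - Am Ms κ j) % G κ j with hr
    have hGj := G_pos (κ := κ) j
    have hrlt : r < G κ j := Nat.mod_lt _ hGj
    have hdm := Nat.div_add_mod (n - Am Ms κ j) (G κ j)
    set Q := (n - Am Ms κ j) / G κ j with hQ
    have hn3 : (n : ℤ) - (Am Ms κ j : ℤ) = (G κ j : ℤ) * (Q : ℤ) + (r : ℤ) := by
      have h5 : n = Am Ms κ j + (G κ j * Q + r) := by omega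
      rw [h5]
      push_cast
      ring
    by_cases hlow : Ms * G κ (j - 1) ≤ r
    · have hhigh : ¬ r + Ms * G κ (j - 1) ≤ G κ j := fun h => hj3 ⟨hlow, h⟩
      refine ⟨(G κ j : ℤ) - r, ?_, ?_⟩
      · rw [abs_le]
        constructor
        · have : (r : ℤ) < (G κ j : ℤ) := by exact_mod_cast hrlt
          have h6 : (0 : ℤ) ≤ ((Ms * G κ (j - 1) : ℕ) : ℤ) := by positivity
          linarith
        · have : (G κ j : ℤ) < (r : ℤ) + ((Ms * G κ (j - 1) : ℕ) : ℤ) := by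
            exact_mod_cast not_le.1 hhigh
          linarith
      · rw [hn3]
        exact ⟨(Q : ℤ) + 1, by ring⟩
    · refine ⟨-(r : ℤ), ?_, ?_⟩
      · rw [abs_neg, abs_of_nonneg (by positivity)]
        have : (r : ℤ) < ((Ms * G κ (j - 1) : ℕ) : ℤ) := by exact_mod_cast not_le.1 hlow
        exact this.le
      · rw [hn3]
        exact ⟨(Q : ℤ), by ring⟩

end Crest.Agent.R320.Fin_899
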