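import Crest.Agent.R320.CC_900
import Crest.Agent.R320.TopSem_474
import Crest.Agent.R320.Top5_163
import Crest.Agent.R320.P4N_211
import Crest.Agent.R320.WallU_228
import Crest.Agent.R320.GridG_19
import Crest.Agent.R320.Thin_963
import Crest.Agent.R320.ExactR_237
import Crest.Agent.R320.Block_467

/-!
# Row 320: the join (helper900)

`CC_900.Dat.cc` + semantic right labels (474) + top (163) + regularity (211) + walls (228) +
grid gadget (693 / 19) + ruler (963) + exact gadget (237).
-/

set_option autoImplicit false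

namespace Crest.Agent.R320.Fin_900

open Crest.RegLang Crest.Agent.R320 Crest.Agent.R320.Hk_851

variable {α : Type}

/-- from the data to height three -/
theorem of_dat [Finite α] {S V : Type} [Monoid S] [Finite S] [AddCommGroup V] [Finite V]
    (D : CC_900.Dat α S V) (hφ1 : D.φ [] = 1)
    (act_add : ∀ v w s, D.act (v + w) s = D.act v s + D.act w s)
    (act_mul : ∀ v s s', D.act (D.act v s) s' = D.act v (s * s'))
    (faith : ∀ s s', (∀ v, D.act v s = D.act v s') → s = s')
    (len : ∀ P : List α, D.Wo P → D.n ≤ P.length) (R B : ℕ)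
    (pcs : ∀ u : List α, (∀ t < u.length, ¬ D.Wo (u.take t)) → CompR_11.Pieces R B u)
    (K' M' : ℕ) (hM : 0 < M')
    (key : ∀ Y Y' : List α, K' ≤ Y.length → K' ≤ Y'.length → Y.take K' = Y'.take K' →
      Y.length % M' = Y'.length % M' → D.φ Y = D.φ Y' → D.nu1 Y = D.nu1 Y') (s : S) :
    HL 3 ({w | D.φ w = s} : Language α) := by
  classical
  have hf1 : {x : List α × V | D.LP1 x.1 x.2}.Finite := by
    refine ((List.finite_length_le α (D.p0 + D.N1)).prod (Set.finite_univ (α := V))).subset ?_
    rintro ⟨P, v⟩ ⟨h1, h2⟩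
    refine ⟨?_, Set.mem_univ _⟩
    have h3 : D.p0 ≤ P.length := h1
    have h4 : (P.drop D.p0).length ≤ D.N1 := D.lam1_len _ _ h2
    rw [List.length_drop] at h4
    show P.length ≤ D.p0 + D.N1
    omega
  have hf2 : {x : List α × V | D.LP2 x.1 x.2}.Finite := by
    refine ((List.finite_length_le α D.p0).prod (Set.finite_univ (α := V))).subset ?_
    rintro ⟨P, v⟩ ⟨k, hk, h1, h2⟩
    refine ⟨?_, Set.mem_univ _⟩
    have h3 := D.c_le k hk
    have h4 : P.length = D.c k := h1
    show P.length ≤ D.p0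
    omega
  have hz := D.hz
  have hXT : ∀ v v', HL 1 ({X | X ∈ D.XX ∧ D.T v X = v'} : Language α) := by
    intro v v'
    refine P4N_211.hXT' (Wo := D.Wo) (z := D.z) (n := D.n) (R := R) (B := B) (φ := D.φ) D.φ_app
      D.loc len pcs (D.T v) (D.p0 + K') M' D.p0 hM ?_ v'
    intro X X' h1 h2 h3
    by_cases hl : X.length < D.p0 + K'
    · have e1 : X.take (D.p0 + K') = X := List.take_of_length_le (by omega)
      have e2 : X'.length < D.p0 + K' := by
        have := congrArg List.length h1
        rw [List.length_take, List.length_take] at this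
        omega
      have e3 : X'.take (D.p0 + K') = X' := List.take_of_length_le (by omega)
      rw [e1, e3] at h1
      rw [h1]
    · have hl' : D.p0 + K' ≤ X'.length := by
        have := congrArg List.length h1
        rw [List.length_take, List.length_take] at this
        omega
      have e1 : X.take D.p0 = X'.take D.p0 := by
        have := congrArg (List.take D.p0) h1
        rwa [List.take_take, List.take_take, min_eq_left (by omega)] at this
      have e2 : (X.drop D.p0).take K' = (X'.drop D.p0).take K' := by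
        have := congrArg (List.drop D.p0) h1
        rw [List.drop_take, List.drop_take] at this
        have e : D.p0 + K' - D.p0 = K' := by omega
        rwa [e] at this
      have e3 : D.nu1 (X.drop D.p0) = D.nu1 (X'.drop D.p0) := by
        refine key _ _ (by rw [List.length_drop]; omega) (by rw [List.length_drop]; omega) e2 ?_ h3
        rw [List.length_drop, List.length_drop]
        have g1 : X.length = (X.length - D.p0) + D.p0 := by omega
        have g2 : X'.length = (X'.length - D.p0) + D.p0 := by omega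
        rw [g1, g2] at h2
        exact Nat.ModEq.add_right_cancel' D.p0 h2
      unfold CC_900.Dat.T
      rw [e1, h3, e3]
  have hnil : [] ∉ D.XX := P4N_211.nil_not_mem (Wo := D.Wo) (z := D.z) (by omega)
  have hPC : ∀ X ∈ D.XX, ∀ Y, X ++ Y ∈ D.XX → Y = [] :=
    P4N_211.prefix_code (Wo := D.Wo) (z := D.z)
  have hNP : ∀ s, HL 1 ({r | (∀ X ∈ D.XX, ¬ X <+: r) ∧ D.φ r = s} : Language α) := fun s =>
    P4N_211.hNP (Wo := D.Wo) (z := D.z) D.φ_app D.loc len pcs s
  haveI : Nonempty V := ⟨0⟩
  exact Top5_163.top D.φ hφ1 D.φ_app D.act act_mul act_add faith D.XX hnil hPC D.T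
    (fun X => D.act (D.nu2 (X.take D.p0)) (D.φ (X.drop D.p0)) + D.nu1 (X.drop D.p0))
    (by
      intro X hX v
      unfold CC_900.Dat.T
      rw [act_add, act_mul, ← D.φ_app, List.take_append_drop, add_assoc])
    D.LP1 D.LP2 (TopSem_474.R1 D.XX D.T D.LP1) (TopSem_474.R2 D.XX D.T D.LP1 D.LP2)
    (fun Q b h => TopSem_474.R1_ne h) (fun Q b h => TopSem_474.R2_ne h)
    (fun P v Q b hP hQ => TopSem_474.s1 P v Q b hP hQ)
    (fun P v Q b hP hQ hno => TopSem_474.s2 P v Q b hP hQ hno)
    (TopSem_474.cc (by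
      intro X hX X2 hX2 v
      rcases D.cc X hX X2 hX2 v with ⟨P, Q, h1, h2, h3⟩ | ⟨P, Q, h1, h2, h3, h4⟩
      · obtain ⟨h5, b, h6⟩ := h3
        exact Or.inl ⟨P, Q, h1, h2, b, h5, h6⟩
      · obtain ⟨h5, b, h6⟩ := h4
        refine Or.inr ⟨P, Q, h1, h2, h3, b, h5, fun P' v' hP' => ?_⟩
        rcases h6 P' v' hP' with ⟨X', hX', g1, P'', Q'', g2, g3, g4, g5, b', g6⟩ | g
        · exact Or.inl ⟨X', hX', g1, P'', Q'', g2, g3, g4, b', g5, g6⟩
        · exact Or.inr g))
    hXT hNP (fun v => TopSem_474.hl_LP hf1 v) (fun v => TopSem_474.hl_LP hf2 v)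
    (fun b => TopSem_474.hl_R1 hXT hf1 b) (fun b => TopSem_474.hl_R2 hXT hf1 hf2 b) s

theorem am_ge (G : ℕ → ℕ) (M k : ℕ) : ∀ j, k ≤ j → GridG_19.Am G M 0 k ≤ GridG_19.Am G M 0 j :=
  fun _ h => GridG_19.Am_mono G M 0 h

theorem sum_le (b i : ℕ) (hb : 2 ≤ b) : ∑ j ∈ Finset.range (i + 1), b ^ j ≤ 2 * b ^ i := by
  induction i with
  | zero => simp
  | succ i ih =>
    rw [Finset.sum_range_succ, pow_succ]
    have h1 : 2 * b ^ i ≤ b ^ i * b := by rw [Nat.mul_comm]; exact Nat.mul_le_mul_left _ hb
    omega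

/-- **the row over a finite alphabet in `Type`** -/
theorem fin (α : Type) [Finite α] (S : Type) [Monoid S] [Finite S] (f : α → S) (s : S) :
    HL 3 ({w | (w.map f).prod = s} : Language α) := by
  classical
  haveI := Fintype.ofFinite S
  obtain ⟨act, hadd, hone, hmul, hfaith⟩ := Blk467.exists_module S
  obtain ⟨m, r, hgrid⟩ := GridG_19.grid S (S → ZMod 2) act
  obtain ⟨K, hK⟩ := ExactR_237.exact_gadget α S (S → ZMod 2) f act (2 + 2 * (r + m))
  obtain ⟨Ms, hcard, hpr, hG⟩ := hgrid (2 ^ (K + 1))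
  have hM0 : 0 < ∏ q ∈ Ms, q := Finset.prod_pos fun q hq => (hpr q hq).1.pos
  have hcop2 : Nat.Coprime (∏ q ∈ Ms, q) 2 := by
    refine Nat.Coprime.prod_left fun q hq => ?_
    have h2 : 2 ^ 1 ≤ 2 ^ (K + 1) := Nat.pow_le_pow_right (by norm_num) (by omega)
    have h3 := (hpr q hq).2
    rw [Nat.Prime.coprime_iff_not_dvd (hpr q hq).1]
    intro h
    have := Nat.le_of_dvd (by norm_num) h
    omega
  set M := ∏ q ∈ Ms, q with hMdef
  set b : ℕ := 2 ^ (K + 5 + M) with hb
  have hb2 : 2 ≤ b := by
    rw [hb]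
    calc 2 = 2 ^ 1 := by norm_num
      _ ≤ _ := Nat.pow_le_pow_right (by norm_num) (by omega)
  have hbM : 2 ^ (K + 5) * M ≤ b := by
    rw [hb, pow_add 2 (K + 5) M]
    exact Nat.mul_le_mul_left _ (le_of_lt Nat.lt_two_pow_self)
  have hbpos : 0 < b := by omega
  set G : ℕ → ℕ := fun i => b ^ i with hGdef
  obtain ⟨lam, rho, nu, hsound, hlam, hrho, hcomp, hfin⟩ := hG G 0 (fun k => pow_pos hbpos k)
    (fun a c h => pow_dvd_pow b h) (fun k => (hcop2.pow_right _).pow_right _) α
    (fun w => (w.map f).prod) (fun u v => by simp)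
  set N1 := GridG_19.Am G M 0 m with hN1
  obtain ⟨X, hX0, hXpos, hthin⟩ := Thin963.thin K m Ms (fun i => (G i : ℤ))
    (fun i => ((M * G i : ℕ) : ℤ)) (fun i => (GridG_19.Am G M 0 i : ℤ))
    (fun q hq => ⟨(hpr q hq).1, le_of_lt (hpr q hq).2⟩)
    (fun q hq => by
      have h1 : Nat.Coprime q 2 := Nat.Coprime.coprime_dvd_left (Finset.dvd_prod_of_mem _ hq) hcop2
      have h2 : Nat.Coprime q (b ^ m) := (h1.pow_right _).pow_right _
      exact_mod_cast Nat.isCoprime_iff_coprime.2 h2)
    (by exact_mod_cast pow_pos hbpos m)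
    (fun i j h => by exact_mod_cast pow_dvd_pow b h)
    (fun i => by exact_mod_cast Nat.mul_pos hM0 (pow_pos hbpos i))
    (fun i => by exact_mod_cast Dvd.intro_left _ rfl)
    (fun i hi => by
      have h1 := sum_le b i hb2
      have h2 : 2 ^ (K + 4) * ∑ j ∈ Finset.range (i + 1), (M * b ^ j) ≤ b ^ (i + 1) := by
        rw [← Finset.mul_sum]
        calc 2 ^ (K + 4) * (M * ∑ j ∈ Finset.range (i + 1), b ^ j)
            ≤ 2 ^ (K + 4) * (M * (2 * b ^ i)) :=
              Nat.mul_le_mul_left _ (Nat.mul_le_mul_left _ h1)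
          _ = (2 ^ (K + 5) * M) * b ^ i := by ring
          _ ≤ b * b ^ i := Nat.mul_le_mul_right _ hbM
          _ = b ^ (i + 1) := by ring
      exact_mod_cast h2)
    (4 * N1 + 1)
  obtain ⟨x, rfl⟩ : ∃ x : ℕ, X = x := ⟨X.toNat, (Int.toNat_of_nonneg hXpos.le).symm⟩
  have hx0 : 4 * N1 + 1 ≤ x := by exact_mod_cast hX0
  have hmono : ∀ i j, i < j → x * 2 ^ i < x * 2 ^ j := fun i j h =>
    Nat.mul_lt_mul_of_pos_left (Nat.pow_lt_pow_right (by norm_num) h) (by omega)
  obtain ⟨lam2, rho2, nu2, hs2, hc2⟩ := hK (fun k => x * 2 ^ k) (fun i j h _ => hmono i j h)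
  obtain ⟨n, Wo, loc, len, sep, R, B, pcs⟩ := WallU_228.walls (α := α) (2 * (x * 2 ^ K + N1))
  have hcle : ∀ k, k < K → x * 2 ^ k ≤ x * 2 ^ K := fun k hk => (hmono k K hk).le
  let D : CC_900.Dat α S (S → ZMod 2) :=
    { φ := fun w => (w.map f).prod
      φ_app := fun u v => by simp
      act := act
      Wo := Wo
      n := n
      W := 2 * (x * 2 ^ K + N1)
      loc := loc
      sep := sep
      z := 3 * (x * 2 ^ K) + 4 * N1 + (2 * N1 + M + x * 2 ^ K + 1) + 2 * n + 2
      p0 := x * 2 ^ K
      N1 := N1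
      La := 2 * N1 + M + x * 2 ^ K + 1
      K := K
      C0 := r + m
      c := fun k => x * 2 ^ k
      Bad := fun T => (∃ q ∈ Ms, q ∣ T) ∨ GridG_19.BadG G M 0 m T
      lam1 := lam
      rho1 := rho
      nu1 := nu
      lam1_len := fun p v h => (hlam p v h).2.le
      g1 := fun p q v r' h1 h2 _ => hsound p q v r' h1 h2
      g1c := fun u h1 h2 v => hcomp u (by omega) (by omega)
        (fun q hq h3 => h2 (Or.inl ⟨q, hq, h3⟩)) (fun h3 => h2 (Or.inr h3)) v
      lam2 := lam2
      rho2 := fun k Q => rho2 k Q 1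
      nu2 := fun X => nu2 X 1
      g2 := fun k hk P Q v b' h1 _ h3 h4 => by
        have h5 := hs2 k hk P Q 1 v b' h1 h3 h4
        rw [mul_one] at h5
        exact h5
      g2c := fun X v hX => by
        obtain ⟨I, h1, h2⟩ := hc2 X 1 v (fun k hk => by rw [hX]; exact hcle k hk)
        exact ⟨I, by omega, h2⟩
      c_le := hcle
      c_inj := fun k l _ _ h => by
        rcases lt_trichotomy k l with h1 | h1 | h1
        · exact absurd h (hmono k l h1).ne
        · exact h1
        · exact absurd h (hmono l k h1).ne'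
      spoil := by
        intro T hT F hF
        have h1 : (F.image Prod.swap).card ≤ Ms.card + m := by
          refine le_trans (Finset.card_le_card ?_) (hthin (T : ℤ))
          intro a' ha'
          obtain ⟨a, ha, rfl⟩ := Finset.mem_image.1 ha'
          obtain ⟨g1, g2, g3, g4⟩ := hF a ha
          rw [Finset.mem_filter, Finset.mem_product, Finset.mem_range, Finset.mem_range]
          refine ⟨⟨g2, g1⟩, fun h => g3 h.symm, ?_⟩
          have hle := hcle a.1 g1
          have hT' : ((T + x * 2 ^ a.2 - x * 2 ^ a.1 : ℕ) : ℤ) =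
              (T : ℤ) + x * 2 ^ a.2 - x * 2 ^ a.1 := by
            rw [Nat.cast_sub (by omega)]
            push_cast
            ring
          show Thin963.BadT Ms m _ _ _ ((T : ℤ) + x * 2 ^ a.2 - x * 2 ^ a.1)
          rw [← hT']
          have hge : N1 ≤ T + x * 2 ^ a.2 - x * 2 ^ a.1 := by omega
          generalize T + x * 2 ^ a.2 - x * 2 ^ a.1 = T' at g4 hge
          rcases g4 with ⟨q, hq, hd⟩ | ⟨k, hk, h⟩
          · exact Or.inl ⟨q, hq, by exact_mod_cast hd⟩
          · right
            have hA : GridG_19.Am G M 0 (k + 1) ≤ T' := (am_ge G M (k + 1) m hk).trans hge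
            have hg : 0 < G (k + 1) := pow_pos hbpos _
            have hlt := Nat.mod_lt (T' - GridG_19.Am G M 0 (k + 1)) hg
            have hdm := Nat.div_add_mod (T' - GridG_19.Am G M 0 (k + 1)) (G (k + 1))
            set R' := (T' - GridG_19.Am G M 0 (k + 1)) % G (k + 1) with hR'
            set Q' := (T' - GridG_19.Am G M 0 (k + 1)) / G (k + 1) with hQ'
            have hdm' : (T' : ℤ) - GridG_19.Am G M 0 (k + 1) = G (k + 1) * Q' + R' := by
              rw [← Nat.cast_sub hA]
              exact_mod_cast hdm.symm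
            rcases h with h | h
            · refine ⟨k, hk, -(R' : ℤ), ?_, ?_⟩
              · rw [abs_neg, abs_of_nonneg (by positivity)]
                show (R' : ℤ) ≤ ((M * G k : ℕ) : ℤ)
                exact_mod_cast h.le
              · exact ⟨Q', by rw [hdm']; ring⟩
            · refine ⟨k, hk, (G (k + 1) : ℤ) - R', ?_, ?_⟩
              · rw [abs_of_nonneg (by have : (R' : ℤ) < G (k + 1) := by exact_mod_cast hlt
                                      linarith)]
                have : (G (k + 1) : ℤ) ≤ R' + (M * G k : ℕ) := by exact_mod_cast h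
                linarith
              · exact ⟨Q' + 1, by rw [hdm']; ring⟩
        rw [Finset.card_image_of_injective _ Prod.swap_injective] at h1
        omega
      space := by
        intro i j k l _ _ _ _ hij hkl hne
        have hd : 2 ^ i + 2 ^ l ≠ 2 ^ k + 2 ^ j := by
          intro h
          have h' : (2 : ℤ) ^ i + 2 ^ l = 2 ^ k + 2 ^ j := by exact_mod_cast h
          have := G369.pow_diff hij hkl (by linarith)
          exact hne (Prod.ext this.1 this.2)
        rcases Nat.lt_or_gt_of_ne hd with h | h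
        · left
          have h2 : x * (2 ^ i + 2 ^ l + 1) ≤ x * (2 ^ k + 2 ^ j) := Nat.mul_le_mul_left _ h
          simp only [Nat.mul_add, Nat.mul_one] at h2
          omega
        · right
          have h2 : x * (2 ^ k + 2 ^ j + 1) ≤ x * (2 ^ i + 2 ^ l) := Nat.mul_le_mul_left _ h
          simp only [Nat.mul_add, Nat.mul_one] at h2
          omega
      hz := le_rfl
      hW := le_rfl }
  exact of_dat D (by simp [D]) hadd (fun v s t => (hmul v s t).symm) hfaith len R B pcs
    (GridG_19.Ac G M 0 m) (M * G m) (Nat.mul_pos hM0 (pow_pos hbpos m))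
    (fun Y Y' h1 h2 h3 h4 h5 => hfin Y Y' h1 h2 h3 h4 h5) s

end Crest.Agent.R320.Fin_900
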