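import Crest.Agent.R320.Golomb_314

/-!
# Row 320, SPOIL leaf of lead #13673 (852 #13483 (3)): the wide ruler against the modes (B):
`k ∣ n` (`k ∈ Ms`) and "digit `j` of `n` in base `b` near `0`".
-/

set_option autoImplicit false
set_option maxHeartbeats 2000000

namespace Crest.Agent.R320.Sp_901

open Crest.Agent.R320.Golomb314

/-- the thin set of bad lengths -/
def Bad (Ms : Finset ℕ) (M m b n : ℕ) : Prop :=
  (∃ k ∈ Ms, k ∣ n) ∨ ∃ j < m, ¬ (M ≤ n / b ^ j % b ∧ n / b ^ j % b + M + 1 ≤ b)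

/-- powers of two: differences of differences do not vanish -/
theorem diff_ne {i j i' j' : ℕ} (h : i ≠ j) (hne : ¬ (i = i' ∧ j = j')) :
    ((2:ℤ) ^ j - 2 ^ i) - (2 ^ j' - 2 ^ i') ≠ 0 := by
  intro h0
  have h1 : (2:ℕ) ^ j + 2 ^ i' = 2 ^ j' + 2 ^ i := by
    have : (2:ℤ) ^ j + 2 ^ i' = 2 ^ j' + 2 ^ i := by linarith
    exact_mod_cast this
  rcases two_pow_add_two_pow h1 with ⟨e1, e2⟩ | ⟨e1, _⟩
  · exact hne ⟨e2.symm, e1⟩
  · exact h e1.symm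

theorem diff_bound {K i j i' j' : ℕ} (hi : i < K) (hj : j < K) (hi' : i' < K) (hj' : j' < K) :
    |((2:ℤ) ^ j - 2 ^ i) - (2 ^ j' - 2 ^ i')| < 2 ^ (K + 1) := by
  have hp : ∀ l < K, (0:ℤ) < 2 ^ l ∧ (2:ℤ) ^ l ≤ 2 ^ K - 2 ^ l := by
    intro l hl
    refine ⟨by positivity, ?_⟩
    have h1 : (2:ℤ) ^ (l + 1) ≤ 2 ^ K := pow_le_pow_right₀ (by norm_num) hl
    rw [pow_succ] at h1
    linarith
  have h1 := hp i hi
  have h2 := hp j hj
  have h3 := hp i' hi'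
  have h4 := hp j' hj'
  rw [pow_succ, abs_lt]
  constructor <;> linarith [h1.1, h1.2, h2.1, h2.2, h3.1, h3.2, h4.1, h4.2]

/-- a natural number whose digit `j` is bad is near a multiple of `b^(j+1)` -/
theorem near_of_digit {M b j n : ℕ} (hb : M < b)
    (h : ¬ (M ≤ n / b ^ j % b ∧ n / b ^ j % b + M + 1 ≤ b)) :
    ∃ (t δ : ℤ), (n : ℤ) = t * (b:ℤ) ^ (j + 1) + δ ∧ -((M:ℤ) * b ^ j) ≤ δ ∧ δ < (M:ℤ) * b ^ j := by
  have hb0 : 0 < b := by omega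
  set B := b ^ j with hB
  have hBpos : 0 < B := by positivity
  set d := n / B % b with hd
  have hdb : d < b := Nat.mod_lt _ hb0
  have e1 : n = B * (n / B) + n % B := (Nat.div_add_mod n B).symm
  have e2 : n / B = b * (n / B / b) + d := (Nat.div_add_mod (n / B) b).symm
  have hr : n % B < B := Nat.mod_lt _ hBpos
  set r := n % B with hrr
  set q := n / B / b with hq
  have e3 : (n:ℤ) = (B:ℤ) * ((b:ℤ) * q + d) + r := by
    have : n = B * (b * q + d) + r := by rw [← e2]; exact e1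
    exact_mod_cast this
  have hpow : (b:ℤ) ^ (j + 1) = (B:ℤ) * b := by rw [hB]; push_cast; ring
  have hBz : (b:ℤ) ^ j = (B:ℤ) := by rw [hB]; push_cast; rfl
  rw [hpow, hBz]
  have hBz0 : (0:ℤ) < B := by exact_mod_cast hBpos
  have hr' : (r:ℤ) < B := by exact_mod_cast hr
  have hr0 : (0:ℤ) ≤ r := by positivity
  by_cases h1 : d < M
  · refine ⟨q, (B:ℤ) * d + r, ?_, ?_, ?_⟩
    · rw [e3]; ring
    · have : (0:ℤ) ≤ (M:ℤ) * B := by positivity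
      have : (0:ℤ) ≤ (B:ℤ) * d := by positivity
      linarith
    · have h2 : (d:ℤ) + 1 ≤ M := by exact_mod_cast h1
      nlinarith
  · have h2 : b < d + M + 1 := by
      by_contra hc
      exact h ⟨by omega, by omega⟩
    have h3 : (b:ℤ) ≤ d + M := by exact_mod_cast (by omega : b ≤ d + M)
    have h4 : (d:ℤ) + 1 ≤ b := by exact_mod_cast hdb
    refine ⟨q + 1, (B:ℤ) * d + r - B * b, ?_, ?_, ?_⟩
    · rw [e3]; ring
    · nlinarith
    · have : (0:ℤ) ≤ (M:ℤ) * B := by positivity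
      nlinarith

/-- the geometric sum in base `b` -/
theorem geom_bound {b : ℕ} (hb : 2 ≤ b) (j : ℕ) :
    b ^ j ≤ ∑ l ∈ Finset.range (j + 1), b ^ l ∧
      ∑ l ∈ Finset.range (j + 1), b ^ l ≤ 2 * b ^ j := by
  induction j with
  | zero => simp
  | succ j ih =>
    rw [Finset.sum_range_succ]
    constructor
    · omega
    · have h1 : 2 * b ^ j ≤ b ^ (j + 1) := by
        rw [pow_succ, Nat.mul_comm]
        exact Nat.mul_le_mul_left _ hb
      omega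

/-- **SPOIL** (wide ruler).  At most one pair per mode. -/
theorem spoil (K N1 m M b : ℕ) (Ms : Finset ℕ) (hM : 0 < M)
    (hk : ∀ k ∈ Ms, k ∣ M ∧ 2 ^ (K + 1) ≤ k) (hb : 2 ^ (K + 4) * M + 2 * M < b)
    (hcop : Nat.Coprime b M) :
    ∃ K0 : ℕ, 4 * N1 < K0 ∧ ∃ c : ℕ → ℕ, (∀ l, c l = 2 ^ l * K0) ∧
      (∀ i j, i < j → c i + 4 * N1 < c j) ∧ (∀ i, 4 * N1 < c i) ∧
      (∀ i j i' j', i ≠ j → ¬ (i = i' ∧ j = j') →
        (4 * N1 : ℤ) < |((c j : ℤ) - c i) - ((c j' : ℤ) - c i')|) ∧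
      (∀ p ∈ Ms, ∀ i j i' j', i < K → j < K → i' < K → j' < K → i ≠ j → ¬ (i = i' ∧ j = j') →
        ¬ (p : ℤ) ∣ ((c j : ℤ) - c i) - ((c j' : ℤ) - c i')) ∧
      (∀ T : ℕ, (∀ i < K, c i ≤ T) → ∀ F : Finset (ℕ × ℕ),
        (∀ p ∈ F, p.1 < K ∧ p.2 < K ∧ p.1 ≠ p.2 ∧ Bad Ms M m b (T + c p.2 - c p.1)) →
        F.card ≤ Ms.card + m) := by
  classical
  have hb2 : 2 ≤ b := by
    have : 0 < 2 ^ (K + 4) * M := by positivity
    omega
  -- the residue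
  set Z := 4 * M * ∑ l ∈ Finset.range m, b ^ l with hZ
  obtain ⟨x, hx1, hx2⟩ := Nat.chineseRemainder (Nat.Coprime.pow_left m hcop) Z 1
  set K0 := x + (4 * N1 + 1) * (b ^ m * M) with hK0
  have hbM : 0 < b ^ m * M := by positivity
  have hK0M : K0 ≡ 1 [MOD M] := by
    have h1 : (4 * N1 + 1) * (b ^ m * M) ≡ 0 [MOD M] :=
      (Nat.modEq_zero_iff_dvd).2 ⟨(4 * N1 + 1) * b ^ m, by ring⟩
    simpa using hx2.add h1
  have hK0b : K0 ≡ Z [MOD b ^ m] := by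
    have h1 : (4 * N1 + 1) * (b ^ m * M) ≡ 0 [MOD b ^ m] :=
      (Nat.modEq_zero_iff_dvd).2 ⟨(4 * N1 + 1) * M, by ring⟩
    simpa using hx1.add h1
  have hK0big : 4 * N1 < K0 := by
    have : 4 * N1 + 1 ≤ (4 * N1 + 1) * (b ^ m * M) := Nat.le_mul_of_pos_right _ hbM
    omega
  have hK0pos : 0 < K0 := by omega
  -- key: multiples
  have hc : ∀ i j i' j' : ℕ, (((2 ^ j * K0 : ℕ) : ℤ) - ((2 ^ i * K0 : ℕ) : ℤ)) -
      (((2 ^ j' * K0 : ℕ) : ℤ) - ((2 ^ i' * K0 : ℕ) : ℤ)) =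
      (K0:ℤ) * (((2:ℤ) ^ j - 2 ^ i) - (2 ^ j' - 2 ^ i')) := by
    intro i j i' j'
    push_cast; ring
  have hprime : ∀ p ∈ Ms, ∀ i j i' j', i < K → j < K → i' < K → j' < K → i ≠ j →
      ¬ (i = i' ∧ j = j') →
      ¬ (p : ℤ) ∣ (((2 ^ j * K0 : ℕ) : ℤ) - ((2 ^ i * K0 : ℕ) : ℤ)) -
      (((2 ^ j' * K0 : ℕ) : ℤ) - ((2 ^ i' * K0 : ℕ) : ℤ)) := by
    intro p hp i j i' j' hi hj hi' hj' hij hne hdvd
    rw [hc] at hdvd
    set D := ((2:ℤ) ^ j - 2 ^ i) - (2 ^ j' - 2 ^ i') with hD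
    have hD0 : D ≠ 0 := diff_ne hij hne
    have hDb : |D| < 2 ^ (K + 1) := diff_bound hi hj hi' hj'
    obtain ⟨hpM, hpb⟩ := hk p hp
    have h1 : (p:ℤ) ∣ (K0:ℤ) - 1 := by
      have h2 : K0 ≡ 1 [MOD p] := hK0M.of_dvd hpM
      have h3 := (Nat.modEq_iff_dvd.1 h2.symm)
      exact_mod_cast h3
    have h2 : (p:ℤ) ∣ D := by
      have h3 : (p:ℤ) ∣ ((K0:ℤ) - 1) * D := h1.mul_right D
      have h4 := Int.dvd_sub hdvd h3
      have e : (K0:ℤ) * D - ((K0:ℤ) - 1) * D = D := by ring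
      rwa [e] at h4
    have h3 := Int.le_of_dvd (abs_pos.2 hD0) ((dvd_abs _ _).2 h2)
    have h4 : ((2:ℤ) ^ (K + 1)) ≤ p := by exact_mod_cast hpb
    linarith
  refine ⟨K0, hK0big, fun l => 2 ^ l * K0, fun _ => rfl, ?_, ?_, ?_, hprime, ?_⟩
  · intro i j hij
    have h1 : 2 ^ (i + 1) ≤ 2 ^ j := Nat.pow_le_pow_right (by norm_num) hij
    have h2 : 2 ^ (i + 1) * K0 ≤ 2 ^ j * K0 := Nat.mul_le_mul_right _ h1
    have h3 : K0 ≤ 2 ^ i * K0 := Nat.le_mul_of_pos_left _ (by positivity)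
    have h4 : 2 ^ (i + 1) * K0 = 2 ^ i * K0 + 2 ^ i * K0 := by ring
    show 2 ^ i * K0 + 4 * N1 < 2 ^ j * K0
    omega
  · intro i
    have h3 : K0 ≤ 2 ^ i * K0 := Nat.le_mul_of_pos_left _ (by positivity)
    show 4 * N1 < 2 ^ i * K0
    omega
  · intro i j i' j' hij hne
    show (4 * N1 : ℤ) < |(((2 ^ j * K0 : ℕ) : ℤ) - ((2 ^ i * K0 : ℕ) : ℤ)) -
      (((2 ^ j' * K0 : ℕ) : ℤ) - ((2 ^ i' * K0 : ℕ) : ℤ))|
    rw [hc, abs_mul]
    have h1 := Int.one_le_abs (diff_ne hij hne)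
    have h2 : |(K0:ℤ)| = K0 := abs_of_nonneg (by positivity)
    rw [h2]
    have h3 : (4 * N1 : ℤ) < K0 := by exact_mod_cast hK0big
    have h4 : (0:ℤ) ≤ K0 := by positivity
    exact lt_of_lt_of_le h3 (le_mul_of_one_le_right h4 h1)
  · intro T hT F hF
    -- events
    have hcast : ∀ p ∈ F, ((T + 2 ^ p.2 * K0 - 2 ^ p.1 * K0 : ℕ) : ℤ) =
        (T:ℤ) + (((2 ^ p.2 * K0 : ℕ) : ℤ) - ((2 ^ p.1 * K0 : ℕ) : ℤ)) := by
      intro p hp
      have h1 : 2 ^ p.1 * K0 ≤ T := hT p.1 (hF p hp).1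
      rw [Nat.cast_sub (by omega)]
      push_cast; ring
    have hsub : F ⊆ (Ms.biUnion fun k => F.filter fun p => k ∣ (T + 2 ^ p.2 * K0 - 2 ^ p.1 * K0)) ∪
        ((Finset.range m).biUnion fun j => F.filter fun p =>
          ¬ (M ≤ (T + 2 ^ p.2 * K0 - 2 ^ p.1 * K0) / b ^ j % b ∧
            (T + 2 ^ p.2 * K0 - 2 ^ p.1 * K0) / b ^ j % b + M + 1 ≤ b)) := by
      intro p hp
      rcases (hF p hp).2.2.2 with ⟨k, hk', hd⟩ | ⟨j, hj, hd⟩
      · apply Finset.mem_union_left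
        exact Finset.mem_biUnion.2 ⟨k, hk', Finset.mem_filter.2 ⟨hp, hd⟩⟩
      · apply Finset.mem_union_right
        exact Finset.mem_biUnion.2 ⟨j, Finset.mem_range.2 hj, Finset.mem_filter.2 ⟨hp, hd⟩⟩
    have hA : ∀ k ∈ Ms, (F.filter fun p => k ∣ (T + 2 ^ p.2 * K0 - 2 ^ p.1 * K0)).card ≤ 1 := by
      intro k hk'
      rw [Finset.card_le_one]
      intro p hp p' hp'
      rw [Finset.mem_filter] at hp hp'
      by_contra hne
      have hne' : ¬ (p.1 = p'.1 ∧ p.2 = p'.2) := fun h => hne (Prod.ext h.1 h.2)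
      obtain ⟨a1, a2, a3, -⟩ := hF p hp.1
      obtain ⟨b1, b2, -, -⟩ := hF p' hp'.1
      refine hprime k hk' p.1 p.2 p'.1 p'.2 a1 a2 b1 b2 a3 hne' ?_
      have h1 : (k:ℤ) ∣ ((T + 2 ^ p.2 * K0 - 2 ^ p.1 * K0 : ℕ) : ℤ) := by exact_mod_cast hp.2
      have h2 : (k:ℤ) ∣ ((T + 2 ^ p'.2 * K0 - 2 ^ p'.1 * K0 : ℕ) : ℤ) := by exact_mod_cast hp'.2
      rw [hcast p hp.1] at h1
      rw [hcast p' hp'.1] at h2
      have h3 := Int.dvd_sub h1 h2
      have e : (T:ℤ) + (((2 ^ p.2 * K0 : ℕ) : ℤ) - ((2 ^ p.1 * K0 : ℕ) : ℤ)) -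
          ((T:ℤ) + (((2 ^ p'.2 * K0 : ℕ) : ℤ) - ((2 ^ p'.1 * K0 : ℕ) : ℤ))) =
          (((2 ^ p.2 * K0 : ℕ) : ℤ) - ((2 ^ p.1 * K0 : ℕ) : ℤ)) -
          (((2 ^ p'.2 * K0 : ℕ) : ℤ) - ((2 ^ p'.1 * K0 : ℕ) : ℤ)) := by ring
      rwa [e] at h3
    have hB : ∀ j < m, (F.filter fun p =>
          ¬ (M ≤ (T + 2 ^ p.2 * K0 - 2 ^ p.1 * K0) / b ^ j % b ∧
            (T + 2 ^ p.2 * K0 - 2 ^ p.1 * K0) / b ^ j % b + M + 1 ≤ b)).card ≤ 1 := by
      intro j hj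
      rw [Finset.card_le_one]
      intro p hp p' hp'
      rw [Finset.mem_filter] at hp hp'
      by_contra hne
      have hne' : ¬ (p.1 = p'.1 ∧ p.2 = p'.2) := fun h => hne (Prod.ext h.1 h.2)
      obtain ⟨a1, a2, a3, -⟩ := hF p hp.1
      obtain ⟨b1, b2, -, -⟩ := hF p' hp'.1
      have hMb : M < b := by
        have : 0 < 2 ^ (K + 4) * M := by positivity
        omega
      obtain ⟨t, δ, e1, d1, d2⟩ := near_of_digit hMb hp.2
      obtain ⟨t', δ', e1', d1', d2'⟩ := near_of_digit hMb hp'.2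
      rw [hcast p hp.1] at e1
      rw [hcast p' hp'.1] at e1'
      set D := ((2:ℤ) ^ p.2 - 2 ^ p.1) - (2 ^ p'.2 - 2 ^ p'.1) with hD
      have hD0 : D ≠ 0 := diff_ne a3 hne'
      have hDb : |D| < 2 ^ (K + 1) := diff_bound a1 a2 b1 b2
      have hDK : (K0:ℤ) * D = (t - t') * (b:ℤ) ^ (j + 1) + (δ - δ') := by
        have := hc p.1 p.2 p'.1 p'.2
        rw [← this]
        linear_combination e1 - e1'
      -- K0 mod b^(j+1)
      set Gs := ∑ l ∈ Finset.range (j + 1), b ^ l with hGs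
      obtain ⟨g1, g2⟩ := geom_bound hb2 j
      rw [← hGs] at g1 g2
      have hZj : Z ≡ 4 * M * Gs [MOD b ^ (j + 1)] := by
        have h1 : ∑ l ∈ Finset.range m, b ^ l = Gs + ∑ l ∈ Finset.Ico (j + 1) m, b ^ l := by
          rw [hGs, Finset.sum_range_add_sum_Ico _ (by omega : j + 1 ≤ m)]
        have h2 : b ^ (j + 1) ∣ ∑ l ∈ Finset.Ico (j + 1) m, b ^ l := by
          apply Finset.dvd_sum
          intro l hl
          rw [Finset.mem_Ico] at hl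
          exact pow_dvd_pow _ hl.1
        rw [hZ, h1, Nat.mul_add]
        have h3 : 4 * M * ∑ l ∈ Finset.Ico (j + 1) m, b ^ l ≡ 0 [MOD b ^ (j + 1)] :=
          (Nat.modEq_zero_iff_dvd).2 (h2.mul_left _)
        simpa using (Nat.ModEq.refl (4 * M * Gs)).add h3
      have hK0j : K0 ≡ 4 * M * Gs [MOD b ^ (j + 1)] :=
        (hK0b.of_dvd (pow_dvd_pow _ (by omega : j + 1 ≤ m))).trans hZj
      have hdv : ((b:ℤ) ^ (j + 1)) ∣ (K0:ℤ) - 4 * M * Gs := by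
        have h3 := (Nat.modEq_iff_dvd.1 hK0j.symm)
        push_cast at h3
        exact h3
      obtain ⟨w, hw⟩ := hdv
      -- combine
      have hmain : (4 * M * Gs : ℤ) * D - (δ - δ') = (b:ℤ) ^ (j + 1) * (t - t' - w * D) := by
        linear_combination hDK - hw * D
      have hBj : (0:ℤ) < (b:ℤ) ^ j := by positivity
      have hMz : (1:ℤ) ≤ M := by exact_mod_cast hM
      have hg1 : (b:ℤ) ^ j ≤ Gs := by exact_mod_cast g1
      have hg2 : (Gs:ℤ) ≤ 2 * (b:ℤ) ^ j := by exact_mod_cast g2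
      have habs : |(δ - δ' : ℤ)| < 2 * ((M:ℤ) * (b:ℤ) ^ j) := by
        rw [abs_lt]; constructor <;> linarith
      have hD1 := Int.one_le_abs hD0
      have hMG : (0:ℤ) < 4 * M * Gs := by
        have : (0:ℤ) < Gs := by linarith
        positivity
      have hval : |(4 * M * Gs : ℤ) * D| = 4 * M * Gs * |D| := by
        rw [abs_mul, abs_of_pos hMG]
      have hlow : (4 * M * Gs : ℤ) ≤ |(4 * M * Gs : ℤ) * D| := by
        rw [hval]; exact le_mul_of_one_le_right hMG.le hD1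
      have hup : |(4 * M * Gs : ℤ) * D| ≤ 4 * M * Gs * 2 ^ (K + 1) := by
        rw [hval]
        exact mul_le_mul_of_nonneg_left hDb.le hMG.le
      have hnz : (4 * M * Gs : ℤ) * D - (δ - δ') ≠ 0 := by
        intro h0
        have h1 : (4 * M * Gs : ℤ) * D = δ - δ' := by linarith
        rw [h1] at hlow
        have h2 : (M:ℤ) * (b:ℤ) ^ j ≤ M * Gs := mul_le_mul_of_nonneg_left hg1 (by linarith)
        have h3 : (0:ℤ) < (M:ℤ) * (b:ℤ) ^ j := by positivity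
        linarith
      have hwz : (t - t' - w * D) ≠ 0 := by
        intro h0
        rw [h0, mul_zero] at hmain
        exact hnz hmain
      have hbig : (b:ℤ) ^ (j + 1) ≤ |(4 * M * Gs : ℤ) * D - (δ - δ')| := by
        rw [hmain, abs_mul]
        have h1 := Int.one_le_abs hwz
        have h2 : |(b:ℤ) ^ (j + 1)| = (b:ℤ) ^ (j + 1) := abs_of_nonneg (by positivity)
        rw [h2]
        have h3 : (0:ℤ) ≤ (b:ℤ) ^ (j + 1) := by positivity
        exact le_mul_of_one_le_right h3 h1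
      have htri : |(4 * M * Gs : ℤ) * D - (δ - δ')| ≤ |(4 * M * Gs : ℤ) * D| + |δ - δ'| :=
        abs_sub _ _
      have hbz : (2:ℤ) ^ (K + 4) * M + 2 * M < b := by exact_mod_cast hb
      have e2 : (b:ℤ) ^ (j + 1) = b ^ j * b := pow_succ _ _
      have h5 : (b:ℤ) ^ j * ((2:ℤ) ^ (K + 4) * M + 2 * M) < (b:ℤ) ^ j * b :=
        mul_lt_mul_of_pos_left hbz hBj
      have h6 : 4 * M * Gs * (2:ℤ) ^ (K + 1) ≤ 4 * M * (2 * (b:ℤ) ^ j) * (2:ℤ) ^ (K + 1) := by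
        have : (4 * M * Gs : ℤ) ≤ 4 * M * (2 * (b:ℤ) ^ j) :=
          mul_le_mul_of_nonneg_left hg2 (by linarith)
        exact mul_le_mul_of_nonneg_right this (by positivity)
      have h7 : 4 * M * (2 * (b:ℤ) ^ j) * (2:ℤ) ^ (K + 1) = (b:ℤ) ^ j * ((2:ℤ) ^ (K + 4) * M) := by
        rw [show K + 4 = (K + 1) + 3 by ring, pow_add (2:ℤ) (K + 1) 3]; ring
      have h8 : (b:ℤ) ^ j * ((2:ℤ) ^ (K + 4) * M + 2 * M)
          = (b:ℤ) ^ j * ((2:ℤ) ^ (K + 4) * M) + 2 * ((M:ℤ) * (b:ℤ) ^ j) := by ring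
      linarith
    refine (Finset.card_le_card hsub).trans ((Finset.card_union_le _ _).trans ?_)
    have c1 : (Ms.biUnion fun k => F.filter fun p =>
        k ∣ (T + 2 ^ p.2 * K0 - 2 ^ p.1 * K0)).card ≤ Ms.card := by
      refine Finset.card_biUnion_le.trans ?_
      calc _ ≤ ∑ _k ∈ Ms, 1 := Finset.sum_le_sum hA
        _ = Ms.card := by simp
    have c2 : ((Finset.range m).biUnion fun j => F.filter fun p =>
          ¬ (M ≤ (T + 2 ^ p.2 * K0 - 2 ^ p.1 * K0) / b ^ j % b ∧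
            (T + 2 ^ p.2 * K0 - 2 ^ p.1 * K0) / b ^ j % b + M + 1 ≤ b)).card ≤ m := by
      refine Finset.card_biUnion_le.trans ?_
      calc _ ≤ ∑ _j ∈ Finset.range m, 1 :=
            Finset.sum_le_sum fun j hj => hB j (Finset.mem_range.1 hj)
        _ = m := by simp
    omega

end Crest.Agent.R320.Sp_901
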