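import Crest.Agent.R320.JoinA_901
import Crest.Agent.R320.G1_852
import Crest.Agent.R320.ExactR_237
import Crest.Agent.R320.LWallAll_922
import Crest.Agent.R320.Sp_901
import Crest.Agent.R320.Two_621
import Crest.Agent.R320.Univ_188

/-!
# Row 320: constants
-/

set_option autoImplicit false

namespace Crest.Agent.R320.Fin_901

open Crest.RegLang Crest.Agent.R320.Hk_851 Crest.Agent.R320.BddReg_746
open Crest.Agent.R320.Sc2n_937 Crest.Agent.R320.Sp_901

theorem bad_congr {Ms : Finset ℕ} {M m b n n' : ℕ} (hk : ∀ k ∈ Ms, k ∣ M)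
    (h : n % (M * b ^ m) = n' % (M * b ^ m)) : Bad Ms M m b n → Bad Ms M m b n' := by
  have hmod : n ≡ n' [MOD M * b ^ m] := h
  rintro (⟨k, hk1, hk2⟩ | ⟨j, hj, hd⟩)
  · left
    refine ⟨k, hk1, ?_⟩
    have h1 : n ≡ n' [MOD k] := hmod.of_dvd ((hk k hk1).mul_right _)
    exact (Nat.modEq_zero_iff_dvd.1 (h1.symm.trans (Nat.modEq_zero_iff_dvd.2 hk2)))
  · right
    refine ⟨j, hj, ?_⟩
    have h1 : n ≡ n' [MOD b ^ j * b] := by
      rw [← pow_succ]
      exact hmod.of_dvd ((pow_dvd_pow b (by omega : j + 1 ≤ m)).mul_left _)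
    have h2 : n / b ^ j % b = n' / b ^ j % b := by
      rw [← Nat.mod_mul_right_div_self, ← Nat.mod_mul_right_div_self]
      have h3 : n % (b ^ j * b) = n' % (b ^ j * b) := h1
      rw [h3]
    rwa [← h2]

theorem fin (α : Type) [Finite α] (S : Type) [Monoid S] [Finite S] (φ : α → S) (s : S) :
    HL 3 ({w | (w.map φ).prod = s} : Language α) := by
  classical
  haveI := Fintype.ofFinite S
  haveI : Fintype (Two_621.Tok S) := Fintype.ofFinite _
  obtain ⟨m, r, hg⟩ := G1_852.gadget (S := S) (V := Two_621.Tok S) Two_621.act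
  obtain ⟨K, hK⟩ := ExactR_237.exact_gadget α S (Two_621.Tok S) φ Two_621.act (2 * (r + m) + 2)
  obtain ⟨Ms, M, hMs, hMs2, hM, hb⟩ := hg (2 ^ (K + 1))
  set b := (2 ^ (K + 4) + 2) * M + 1 with hbdef
  have hbpos : 0 < b := by omega
  have hbbig : 2 ^ (K + 4) * M + 2 * M < b := by rw [hbdef, Nat.add_mul]; omega
  have hcop : Nat.Coprime b M := by
    rw [hbdef]
    exact (Nat.coprime_mul_right_add_left 1 M _).2 (Nat.coprime_one_left M)
  obtain ⟨lam1, rho1, nu1, h1, h2, h3, h4⟩ := hb b hbpos hcop α φ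
  have hNpos : 0 < b ^ m := by positivity
  set N1 := b ^ m with hN1
  obtain ⟨K0, -, c, -, hc1, -, hwide, -, hthin⟩ := Sp_901.spoil K N1 m M b Ms hM
    (fun k hk => ⟨(hMs2 k hk).2.2, (hMs2 k hk).1.le⟩) hbbig hcop
  obtain ⟨lam2, rho2, nu2, e1, e2⟩ := hK c (fun i j hij _ => by have := hc1 i j hij; omega)
  set p0 := c K with hp0
  obtain ⟨n, G, B, Wo, hLW, hgap, -, -, hfree⟩ :=
    LWallAll_922.walls_all_left α (2 * p0 + 2 * N1 + 1) (by omega)
  have hcle : ∀ k, k < K → c k ≤ p0 := by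
    intro k hk
    have := hc1 k K hk
    omega
  let g : Geo α :=
    { Wo := Wo
      n := n
      z := p0 + N1 + (n + 2 * p0)
      p0 := p0
      q0 := n + 2 * p0
      N1 := N1
      loc := hLW.app
      hz := rfl
      hq := by omega
      hN := hNpos
      hqp := by omega }
  refine JoinA_901.join (S := S) (V := Two_621.Tok S) Two_621.act
    (fun a b s => Two_621.act_add a b s) Two_621.act_one
    (fun v s t => (Two_621.act_mul v s t).symm) (fun s t h => Two_621.act_faithful h) φ g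
    (fun P hP => hLW.len P hP) (B := max B (2 * p0 + 2 * N1 + 1)) (R := 2) ?_ ?_
    (Bad Ms M m b) lam1 rho1 nu1 (fun X => nu2 X 1) ?_ ?_ ?_ (A := N1) (M0 := M * N1) ?_ ?_ ?_
    (K := K) (c := c) hcle lam2 (fun k Q => rho2 k Q 1) ?_ (C0 := r + m) ?_ ?_ ?_ s
  · intro u hu
    obtain ⟨u1, x, v, k, hu1, hx, hv, rfl⟩ := hfree u hu
    have hm1 : u1 ++ (List.replicate k x).flatten ∈
        (Pc (max B (2 * p0 + 2 * N1 + 1)) : Language α) :=
      ⟨u1, x, k, hu1.trans (le_max_left _ _), hx.trans (le_max_right _ _), rfl⟩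
    have hm2 : v ∈ (Pc (max B (2 * p0 + 2 * N1 + 1)) : Language α) :=
      ⟨v, [], 0, hv.trans (le_max_left _ _), by simp, by simp⟩
    have hm3 : ([] : List α) ∈ (PN (max B (2 * p0 + 2 * N1 + 1)) 0 : Language α) :=
      P4_933.nil_mem_PN _ _
    have hm4 : v ∈ (PN (max B (2 * p0 + 2 * N1 + 1)) 1 : Language α) :=
      Language.mem_mul.2 ⟨v, hm2, [], hm3, by simp⟩
    exact Language.mem_mul.2 ⟨_, hm1, _, hm4, rfl⟩
  · intro P Q hP hPQ hQ
    have hQ' : 0 < Q.length := List.length_pos_iff.2 hQ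
    have := hgap (P ++ Q) P.length (P ++ Q).length (by rw [List.length_append]; omega) le_rfl
      (by rw [List.take_left]; exact hP) (by rw [List.take_length]; exact hPQ)
    rw [List.length_append] at this
    show 2 * p0 + 2 * N1 < Q.length
    omega
  · intro P v hv
    exact (h1 P v hv).le
  · intro P Q u b' hP hQ
    exact h2 P Q u b' hP hQ
  · intro Y hY u
    obtain ⟨P, Q, a1, a2, v', a3⟩ := h3 Y (fun k hk hd => hY (Or.inl ⟨k, hk, hd⟩)) (by
      intro j hj
      by_contra hcon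
      exact hY (Or.inr ⟨j, hj, fun h => hcon ⟨h.1, by omega⟩⟩)) u
    exact ⟨P, Q, a1, a2, by rw [a3]; rfl⟩
  · exact Nat.mul_pos hM hNpos
  · intro Q Q' a1 a2 a3
    exact (h4 Q Q' a1 a2 a3).2
  · intro n n' h
    exact ⟨bad_congr (fun k hk => (hMs2 k hk).2.2) h,
      bad_congr (fun k hk => (hMs2 k hk).2.2) h.symm⟩
  · intro k hk P Q v u hP _ hl hr
    have := e1 k hk P Q 1 v u hP hl hr
    rw [mul_one] at this
    exact this
  · intro k k' l l' hk hk' hl hl' hkk hll a1 a2
    by_contra hne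
    have hw := hwide k k' l l' (fun h => hkk h.symm) (fun h => hne h.1)
    have a1' : (c k : ℤ) + c l' < c l + c k' + 2 * N1 := by exact_mod_cast a1
    have a2' : (c l : ℤ) + c k' < c k + c l' + 2 * N1 := by exact_mod_cast a2
    have : |((c k' : ℤ) - c k) - ((c l' : ℤ) - c l)| < 4 * N1 := by
      rw [abs_lt]
      constructor <;> linarith
    linarith
  · intro τ hτ J hJ
    have hτ' : p0 + N1 + (n + 2 * p0) ≤ τ + p0 := hτ
    choose! kp hkp using fun k (hk : k ∈ J) => (hJ k hk).2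
    have hcard := hthin (τ - p0) (fun i hi => by have := hcle i hi; omega)
      (J.image fun k => (k, kp k)) (by
        intro p hp
        obtain ⟨k, hk, rfl⟩ := Finset.mem_image.1 hp
        obtain ⟨b1, b2, b3⟩ := hkp k hk
        refine ⟨(hJ k hk).1, b1, fun h => b2 h.symm, ?_⟩
        have hck := hcle k (hJ k hk).1
        have e : τ - p0 + c (kp k) - c k = τ + c (kp k) - c k - p0 := by omega
        show Bad Ms M m b (τ - p0 + c (kp k) - c k)
        rw [e]
        exact b3)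
    have hci : (J.image fun k => (k, kp k)).card = J.card :=
      Finset.card_image_of_injective _ (fun a b h => (Prod.ext_iff.1 h).1)
    omega
  · intro u v hu
    obtain ⟨I, i1, i2⟩ := e2 u 1 v hu
    exact ⟨I, i1, i2⟩

end Crest.Agent.R320.Fin_901
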