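import Crest.Agent.R320.SemTop_727
import Crest.Agent.R320.JointSem_814
import Crest.Agent.R320.P4N_211
import Crest.Agent.R320.WallU_228
import Crest.Agent.R320.Univ_294

/-!
Row 320: final assembly of S0495 from ONE black box (gadget + ruler, 347's literal `gad`).
-/

set_option autoImplicit false

namespace Crest.Agent.R320.Fin_902

open Crest.RegLang Crest.Agent.R320.Hk_851 Crest.Agent.R320.Blk467
open Crest.Agent.R320

/-- the gadget of scheme 1 with its ruler -/
def GadStmt : Prop :=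
  ∀ (S V : Type) [Monoid S] [Finite S] [AddCommGroup V] [Finite V] (act : V → S → V),
    ∃ C0 : ℕ, ∀ K : ℕ, ∃ (N N0 D : ℕ) (x : ℕ → ℕ) (Bad : ℕ → Prop), 0 < D ∧
      (∀ i j, i < j → j < K → x i < x j) ∧
      (∀ i j k l, i < K → j < K → k < K → l < K → i ≠ j → k ≠ l → (i ≠ k ∨ j ≠ l) →
        x i + x l + 2*N < x k + x j ∨ x k + x j + 2*N < x i + x l) ∧
      (∀ T : ℕ, (∀ k < K, x k ≤ T) →
        Set.ncard {p : ℕ × ℕ | p.1 < K ∧ p.2 < K ∧ p.1 ≠ p.2 ∧ Bad (T + x p.1 - x p.2)} ≤ C0) ∧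
      ∀ (α : Type) (phi : List α → S), phi [] = 1 → (∀ u v, phi (u ++ v) = phi u * phi v) →
        ∃ (lam rho : List α → Option V) (nu : List α → V),
          (∀ P v, lam P = some v → P.length ≤ N) ∧
          (∀ P Q v r, lam P = some v → rho Q = some r → r = act v (phi (P ++ Q)) + nu (P ++ Q)) ∧
          (∀ u, N0 ≤ u.length → ¬ Bad u.length → ∀ v, ∃ P Q, P ++ Q = u ∧ lam P = some v ∧
            (rho Q).isSome) ∧
          (∀ Q Q', N ≤ Q.length → N ≤ Q'.length → Q.take N = Q'.take N →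
            Q.length % D = Q'.length % D → phi (Q.drop N) = phi (Q'.drop N) → nu Q = nu Q')

/-- the spoiling count: at most `1 + 2 C0` spoiled places. -/
theorem spoil {α : Type} {Wo : List α → Prop} {n W z p0 N K C0 sp : ℕ} {c : ℕ → ℕ}
    {BadT : ℕ → Prop} (hW : JointSem_814.Walls n W Wo) (hWb : 2 * (sp + N) < W)
    (hsp : ∀ k < K, c k ≤ sp) (hz : p0 + 2 * sp + N ≤ z)
    (hrul : ∀ i j k l, i < K → j < K → k < K → l < K → i ≠ j → k ≠ l → (i ≠ k ∨ j ≠ l) →
        c i + c l + 2*N < c k + c j ∨ c k + c j + 2*N < c i + c l)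
    (hcnt : ∀ T : ℕ, (∀ k < K, c k ≤ T) →
        Set.ncard {p : ℕ × ℕ | p.1 < K ∧ p.2 < K ∧ p.1 ≠ p.2 ∧ BadT (T + c p.1 - c p.2)} ≤ C0)
    (U : List α) :
    ∃ J : Finset ℕ, J.card < 2 + 2 * C0 ∧
      ∀ k < K, JointSem_814.Spoiled Wo z p0 N K c BadT U k → k ∈ J := by
  classical
  -- pairs `p = (k', k)`
  let PP : Finset (ℕ × ℕ) := (Finset.range K ×ˢ Finset.range K).filter (fun p => p.1 ≠ p.2)
  let F : ℕ × ℕ → ℕ → Prop := fun p s => s ≤ U.length ∧ Wo (U.take s) ∧ z + c p.2 ≤ s + c p.1 ∧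
      (∀ t, t < s → Wo (U.take t) → t + c p.1 < z + c p.2)
  let E : Finset (ℕ × ℕ) := PP.filter (fun p => ∃ s, s ≤ U.length ∧ Wo (U.take s) ∧
      z + c p.2 ≤ s + c p.1 + N ∧ s + c p.1 < z + N + c p.2)
  let Sv : Finset ℕ := (Finset.range (U.length + 1)).filter (fun s => ∃ p ∈ PP, F p s)
  let B : ℕ → Finset (ℕ × ℕ) := fun s => PP.filter (fun p => F p s ∧ BadT (s + c p.1 - c p.2 - p0))
  have hPP : ∀ p ∈ PP, p.1 < K ∧ p.2 < K ∧ p.1 ≠ p.2 := by
    intro p hp
    have := Finset.mem_filter.1 hp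
    have h2 := Finset.mem_product.1 this.1
    exact ⟨Finset.mem_range.1 h2.1, Finset.mem_range.1 h2.2, this.2⟩
  -- E has at most one element
  have hE : E.card ≤ 1 := by
    rw [Finset.card_le_one]
    intro p hp q hq
    obtain ⟨hp1, s, hs1, hs2, hs3, hs4⟩ := Finset.mem_filter.1 hp
    obtain ⟨hq1, t, ht1, ht2, ht3, ht4⟩ := Finset.mem_filter.1 hq
    obtain ⟨a1, a2, a3⟩ := hPP p hp1
    obtain ⟨b1, b2, b3⟩ := hPP q hq1
    have := hsp _ a1
    have := hsp _ a2
    have := hsp _ b1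
    have := hsp _ b2
    have hst : s = t := by
      rcases lt_trichotomy s t with h | h | h
      · exact (hW.gap U s t h (by omega) ht1 hs2 ht2).elim
      · exact h
      · exact (hW.gap U t s h (by omega) hs1 ht2 hs2).elim
    subst hst
    by_contra hne
    have hor : p.1 ≠ q.1 ∨ p.2 ≠ q.2 := by
      by_contra h
      push Not at h
      exact hne (Prod.ext h.1 h.2)
    have := hrul p.1 p.2 q.1 q.2 a1 a2 b1 b2 a3 b3 hor
    omega
  have hSv : Sv.card ≤ 2 := by
    by_cases hem : Sv.Nonempty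
    · set m := Sv.max' hem with hm
      have hmm : m ∈ Sv := Finset.max'_mem _ _
      obtain ⟨_, p, hp, hF⟩ := Finset.mem_filter.1 hmm
      obtain ⟨a1, a2, a3⟩ := hPP p hp
      have := hsp _ a1
      have := hsp _ a2
      have h1 : (Sv.erase m).card ≤ 1 := by
        rw [Finset.card_le_one]
        intro s hs t ht
        obtain ⟨hs0, hs1⟩ := Finset.mem_erase.1 hs
        obtain ⟨ht0, ht1⟩ := Finset.mem_erase.1 ht
        have hsm : s ≤ m := Finset.le_max' _ _ hs1
        have htm : t ≤ m := Finset.le_max' _ _ ht1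
        obtain ⟨_, ps, hps, hFs⟩ := Finset.mem_filter.1 hs1
        obtain ⟨_, pt, hpt, hFt⟩ := Finset.mem_filter.1 ht1
        obtain ⟨b1, b2, b3⟩ := hPP ps hps
        obtain ⟨c1, c2, c3⟩ := hPP pt hpt
        have := hsp _ b1
        have := hsp _ b2
        have := hsp _ c1
        have := hsp _ c2
        obtain ⟨e1, e2, e3, e4⟩ := hFs
        obtain ⟨f1, f2, f3, f4⟩ := hFt
        obtain ⟨g1, g2, g3, g4⟩ := hF
        have := g4 s (by omega) e2
        have := g4 t (by omega) f2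
        rcases lt_trichotomy s t with h | h | h
        · exact (hW.gap U s t h (by omega) f1 e2 f2).elim
        · exact h
        · exact (hW.gap U t s h (by omega) e1 f2 e2).elim
      have h2 := Finset.card_erase_add_one hmm
      omega
    · rw [Finset.not_nonempty_iff_eq_empty] at hem
      rw [hem]; simp
  have hB : ∀ s ∈ Sv, (B s).card ≤ C0 := by
    intro s hs
    obtain ⟨_, p, hp, hF⟩ := Finset.mem_filter.1 hs
    obtain ⟨a1, a2, a3⟩ := hPP p hp
    have i1 := hsp _ a1
    have i2 := hsp _ a2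
    obtain ⟨g1, g2, g3, g4⟩ := hF
    have hT : ∀ k < K, c k ≤ s - p0 := by
      intro k hk
      have := hsp k hk
      omega
    have h1 := hcnt (s - p0) hT
    have hfin : {p : ℕ × ℕ | p.1 < K ∧ p.2 < K ∧ p.1 ≠ p.2 ∧
        BadT (s - p0 + c p.1 - c p.2)}.Finite := by
      refine (Finset.finite_toSet (Finset.range K ×ˢ Finset.range K)).subset ?_
      rintro q ⟨q1, q2, _⟩
      simp only [Finset.coe_product, Set.mem_prod, Finset.mem_coe, Finset.mem_range]
      exact ⟨q1, q2⟩
    have h2 : ((B s : Finset (ℕ × ℕ)) : Set (ℕ × ℕ)) ⊆ {p : ℕ × ℕ | p.1 < K ∧ p.2 < K ∧ p.1 ≠ p.2 ∧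
        BadT (s - p0 + c p.1 - c p.2)} := by
      intro q hq
      obtain ⟨hq1, hq2, hq3⟩ := Finset.mem_filter.1 (Finset.mem_coe.1 hq)
      obtain ⟨b1, b2, b3⟩ := hPP q hq1
      have j2 := hsp _ b2
      refine ⟨b1, b2, b3, ?_⟩
      have e : s - p0 + c q.1 - c q.2 = s + c q.1 - c q.2 - p0 := by omega
      rw [e]; exact hq3
    have h3 := Set.ncard_le_ncard h2 hfin
    rw [Set.ncard_coe_finset] at h3
    exact le_trans h3 h1
  refine ⟨(E ∪ Sv.biUnion B).image Prod.snd, ?_, ?_⟩
  · have h1 : (Sv.biUnion B).card ≤ Sv.card * C0 := Finset.card_biUnion_le_card_mul _ _ _ hB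
    have h2 : Sv.card * C0 ≤ 2 * C0 := Nat.mul_le_mul_right _ hSv
    have h3 := Finset.card_union_le E (Sv.biUnion B)
    have h4 : ((E ∪ Sv.biUnion B).image Prod.snd).card ≤ (E ∪ Sv.biUnion B).card :=
      Finset.card_image_le
    omega
  · rintro k hk ⟨k', hk', hne, h⟩
    rw [Finset.mem_image]
    refine ⟨(k', k), ?_, rfl⟩
    have hmem : (k', k) ∈ PP := by
      refine Finset.mem_filter.2 ⟨Finset.mem_product.2 ⟨Finset.mem_range.2 hk',
        Finset.mem_range.2 hk⟩, hne⟩
    rcases h with ⟨s, h1, h2, h3, h4⟩ | ⟨s, h1, h2, h3, h4, h5⟩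
    · exact Finset.mem_union_left _ (Finset.mem_filter.2 ⟨hmem, s, h1, h2, h3, h4⟩)
    · refine Finset.mem_union_right _ (Finset.mem_biUnion.2 ⟨s, ?_, ?_⟩)
      · exact Finset.mem_filter.2 ⟨Finset.mem_range.2 (by omega), (k', k), hmem, h1, h2, h3, h4⟩
      · exact Finset.mem_filter.2 ⟨hmem, ⟨h1, h2, h3, h4⟩, h5⟩

/-- the key condition for `P4N_211.hXT'`. -/
theorem key_cond {α S V : Type} [Monoid S] {φ : List α → S}
    (hφ : ∀ u v, φ (u ++ v) = φ u * φ v) [AddCommGroup V] {act : V → S → V} {nu1 nu2 : List α → V}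
    {p0 N D : ℕ} (hD : 0 < D)
    (hfs : ∀ Q Q', N ≤ Q.length → N ≤ Q'.length → Q.take N = Q'.take N →
      Q.length % D = Q'.length % D → φ (Q.drop N) = φ (Q'.drop N) → nu1 Q = nu1 Q')
    (x : V) (X X' : List α) (h1 : X.take (p0 + N) = X'.take (p0 + N))
    (h2 : X.length % D = X'.length % D)
    (h3 : φ (X.drop (p0 + N)) = φ (X'.drop (p0 + N))) :
    JointSem_814.T p0 φ act nu1 nu2 x X = JointSem_814.T p0 φ act nu1 nu2 x X' := by
  have t1 : X.take p0 = X'.take p0 := by
    have := congrArg (List.take p0) h1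
    rwa [List.take_take, List.take_take, min_eq_left (Nat.le_add_right _ _)] at this
  have t2 : (X.drop p0).take N = (X'.drop p0).take N := by
    have := congrArg (List.drop p0) h1
    rwa [List.drop_take, List.drop_take, Nat.add_sub_cancel_left] at this
  have t3 : φ ((X.drop p0).drop N) = φ ((X'.drop p0).drop N) := by
    rwa [List.drop_drop, List.drop_drop]
  have t4 : φ (X.drop p0) = φ (X'.drop p0) := by
    rw [← List.take_append_drop N (X.drop p0), ← List.take_append_drop N (X'.drop p0), hφ, hφ,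
      t2, t3]
  have t5 : nu1 (X.drop p0) = nu1 (X'.drop p0) := by
    by_cases hl : p0 + N ≤ X.length
    · have hl' : p0 + N ≤ X'.length := by
        have := congrArg List.length h1
        rw [List.length_take, List.length_take] at this
        omega
      refine hfs _ _ (by rw [List.length_drop]; omega) (by rw [List.length_drop]; omega) t2 ?_ t3
      rw [List.length_drop, List.length_drop]
      have e1 : (X.length - p0 + p0) % D = (X'.length - p0 + p0) % D := by
        rw [Nat.sub_add_cancel (by omega), Nat.sub_add_cancel (by omega)]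
        exact h2
      exact Nat.ModEq.add_right_cancel' p0 e1
    · have e1 : X.take (p0 + N) = X := List.take_of_length_le (by omega)
      have e2 : X'.take (p0 + N) = X' := by
        apply List.take_of_length_le
        have := congrArg List.length h1
        rw [List.length_take, List.length_take] at this
        omega
      rw [e1, e2] at h1
      rw [h1]
  unfold JointSem_814.T
  rw [t1, t4, t5]

theorem values (gad : GadStmt) (n : ℕ) (S : Type) [Monoid S] [Finite S] (f : Fin n → S) (s : S) :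
    HL 3 ({w | (w.map f).prod = s} : Language (Fin n)) := by
  classical
  obtain ⟨act, hadd, hone, hmul, hfaith⟩ := exists_module S
  haveI : Fintype S := Fintype.ofFinite S
  haveI : Finite (S → ZMod 2) := Pi.finite
  haveI : Fintype (S → ZMod 2) := Fintype.ofFinite _
  set φ : List (Fin n) → S := fun w => (w.map f).prod with hφdef
  have hφ1 : φ [] = 1 := rfl
  have hφ : ∀ u v, φ (u ++ v) = φ u * φ v := by
    intro u v
    rw [hφdef]
    simp only [List.map_append, List.prod_append]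
  obtain ⟨C0, hg⟩ := gad S (S → ZMod 2) act
  obtain ⟨K, hex⟩ := ExactR_237.exact_gadget (Fin n) S (S → ZMod 2) f act (2 + 2 * C0)
  obtain ⟨N, N0, D, c, BadT, hD, hmono, hrul, hcnt, hgad⟩ := hg K
  obtain ⟨lam, rho, nu1, hlam, hsound, hcompl, hfs⟩ := hgad (Fin n) φ hφ1 hφ
  obtain ⟨lam2, rho2, nu2', hs2, hc2⟩ := hex c hmono
  set sp : ℕ := ∑ k ∈ Finset.range K, c k with hspdef
  have hsp : ∀ k < K, c k ≤ sp := fun k hk =>
    Finset.single_le_sum (f := c) (fun _ _ => Nat.zero_le _) (Finset.mem_range.2 hk)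
  obtain ⟨n0, Wo, loc, len, gap, R, B, pcs⟩ := WallU_228.walls (α := Fin n) (2 * (sp + N) + 1)
  set z : ℕ := sp + N0 + n0 + 2 * sp + 2 * N + 1 with hzdef
  have hW : JointSem_814.Walls n0 (2 * (sp + N) + 1) Wo := by
    refine ⟨loc, len, ?_⟩
    intro X a b hab hb hbX h1 h2
    have h3 := gap (X.take b) (b - a) h2 (by omega) (by omega)
    apply h3
    rw [List.length_take, min_eq_left hbX, List.take_take, min_eq_left (by omega)]
    have : b - (b - a) = a := by omega
    rw [this]; exact h1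
  set nu2 : List (Fin n) → (S → ZMod 2) := fun X => nu2' X 1 with hnu2
  let Dt : SemTop_727.Sch (Fin n) (S → ZMod 2) :=
    { XX := JointSem_814.XX Wo z
      T := JointSem_814.T sp φ act nu1 nu2
      L1 := JointSem_814.L1 sp φ act nu2 lam
      L2 := JointSem_814.L2 K c lam2 }
  have hXXe : ∀ w, w ∈ P4N_211.XX Wo z ↔ w ∈ JointSem_814.XX Wo z := by
    intro w
    constructor
    · rintro ⟨h1, h2, h3⟩; exact ⟨h2, h1, h3⟩
    · rintro ⟨h1, h2, h3⟩; exact ⟨h2, h1, h3⟩
  refine SemTop_727.top (k := 1) act hadd hone hmul hfaith f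
    (fun X => act (nu2 (X.take sp)) (φ (X.drop sp)) + nu1 (X.drop sp)) Dt ?_ ?_ ?_ ?_ ?_ ?_ ?_ s
  · intro v X
    show act (act v (φ (X.take sp)) + nu2 (X.take sp)) (φ (X.drop sp)) + nu1 (X.drop sp) = _
    have h1 : (X.map f).prod = φ (X.take sp) * φ (X.drop sp) := by
      rw [← hφ, List.take_append_drop]
    rw [h1, hadd, hmul, add_assoc]
  · refine ⟨?_, fun X hX Y hY h => JointSem_814.XX_code hX hY h⟩
    rintro ⟨_, h, _⟩
    simp only [List.length_nil] at h
    omega
  · intro x y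
    refine (P4N_211.hXT' (z := z) hφ loc len pcs (fun X => JointSem_814.T sp φ act nu1 nu2 x X)
      (sp + N) D (sp + N) hD ?_ y).congr ?_
    · intro X X' h1 h2 h3
      exact key_cond hφ hD hfs x X X' h1 h2 h3
    · intro w
      constructor
      · rintro ⟨h1, h2⟩; exact ⟨(hXXe w).2 h1, h2⟩
      · rintro ⟨h1, h2⟩; exact ⟨(hXXe w).1 h1, h2⟩
  · intro x
    refine (List.finite_length_le (Fin n) (sp + N)).subset ?_
    rintro P ⟨h1, h2⟩
    have := hlam _ _ h2
    rw [List.length_drop] at this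
    show P.length ≤ sp + N
    omega
  · intro x
    refine (List.finite_length_le (Fin n) sp).subset ?_
    rintro P ⟨k, hk, h1, _⟩
    show P.length ≤ sp
    rw [h1]; exact hsp k hk
  · intro X1 hX1 X2 hX2 x
    exact JointSem_814.compl2 (R := 2 + 2 * C0) hW (N := N) (N0 := N0) (K := K) (by omega) (by omega)
      hlam hsound hcompl hsp
      (rho2 := fun k Q => rho2 k Q 1)
      (fun k hk P Q v b h1 h2 h3 => by
        have := hs2 k hk P Q 1 v b h1 h2 h3
        rw [mul_one] at this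
        exact this)
      (fun u v h => hc2 u 1 v h)
      (fun U _ => spoil hW (by omega) hsp (by omega) hrul hcnt U) hX1.1 hX2 x
  · intro t
    refine (HL.mono (show 1 ≤ 1 + 2 by omega)
      (P4N_211.hNP (z := z) hφ loc len pcs t)).congr ?_
    intro w
    constructor
    · rintro ⟨h1, h2⟩; exact ⟨fun X hX => h1 X ((hXXe X).1 hX), h2⟩
    · rintro ⟨h1, h2⟩; exact ⟨fun X hX => h1 X ((hXXe X).2 hX), h2⟩

/-- S0495 from the gadget. -/
theorem final (gad : GadStmt) (α : Type*) [Finite α] (L : Language α) (hL : L.IsRegular) :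
    ∃ e : GRegExp α, e.height ≤ 3 ∧ e.lang = L :=
  Univ_294.s0495_of_type0 (fun n S _ _ f s => values gad n S f s) α L hL

end Crest.Agent.R320.Fin_902
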