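import Crest.Agent.R320.Top5_903
import Crest.Agent.R320.Hk2_851
import Crest.Agent.R320.P4_933

/-!
# Row 320: regular classes (helper903)

A property of words which depends only on the first `A` letters, the length modulo `M0` and the value of
the rest in a finite monoid is regular.
-/

set_option autoImplicit false

namespace Crest.Agent.R320.RegC_903

open Crest.RegLang Crest.Agent.R320.Hk_851 Crest.Agent.R320.Top5_903

variable {α : Type}

theorem reg_const (p : Prop) : Language.IsRegular ({_w | p} : Language α) := by
  by_cases h : p
  · exact reg_congr (reg_top (α := α)) fun w => ⟨fun _ => h, fun _ => trivial⟩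
  · exact reg_congr (reg_empty (α := α)) fun w => ⟨fun h' => h'.elim, fun h' => h h'⟩

theorem prod_pair {S : Type} [Monoid S] (φ : α → S) (M0 : ℕ) (w : List α) :
    (w.map (fun a => ((φ a, Multiplicative.ofAdd (1 : ZMod M0)) :
      S × Multiplicative (ZMod M0)))).prod =
      ((w.map φ).prod, Multiplicative.ofAdd ((w.length : ℕ) : ZMod M0)) := by
  induction w with
  | nil => simp; rfl
  | cons a w ih =>
    rw [List.map_cons, List.prod_cons, ih, List.map_cons, List.prod_cons, List.length_cons,
      Prod.mk_mul_mk, ← ofAdd_add]
    push_cast
    rw [add_comm (1 : ZMod M0)]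

theorem reg_class [Finite α] {S : Type} [Monoid S] [Finite S] (φ : α → S) (A M0 : ℕ)
    (hM : 0 < M0) (f : List α → Prop)
    (hf : ∀ u u' : List α, A ≤ u.length → A ≤ u'.length → u.take A = u'.take A →
      u.length % M0 = u'.length % M0 →
      ((u.drop A).map φ).prod = ((u'.drop A).map φ).prod → f u → f u') :
    Language.IsRegular ({u | f u} : Language α) := by
  classical
  haveI : NeZero M0 := ⟨by omega⟩
  haveI : Finite {l : List α // l.length ≤ A} := List.finite_length_le α A
  set φ' : α → S × Multiplicative (ZMod M0) :=
    fun a => (φ a, Multiplicative.ofAdd (1 : ZMod M0)) with hφ'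
  have h0 : Language.IsRegular ({u | u.length ≤ A ∧ f u} : Language α) :=
    Reg_852.HL.isRegular (k := 0) (HL.finite ((List.finite_length_le α A).subset fun _ h => h.1))
  have h1 : Language.IsRegular ({u | ∃ c : {l : List α // l.length ≤ A} ×
      (S × Multiplicative (ZMod M0)), u ∈ ({u | ∃ v w, v ++ w = u ∧
        v ∈ ({v | v = c.1.1} : Language α) ∧
        w ∈ ({w | w ∈ ({w | (w.map φ').prod = c.2} : Language α) ∧
          w ∈ ({_w | c.1.1.length = A ∧ ∃ u', f u' ∧ A ≤ u'.length ∧ u'.take A = c.1.1 ∧
            ((u'.drop A).map φ').prod = c.2} : Language α)} : Language α)} : Language α)} :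
              Language α) := by
    refine reg_exists _ fun c => reg_mul ?_ (reg_and (Reg_852.isRegular_prod φ' c.2) (reg_const _))
    exact Reg_852.HL.isRegular (k := 0) (HL.finite (Set.finite_singleton c.1.1))
  refine reg_congr (reg_or h0 h1) fun u => ?_
  constructor
  · rintro (h | ⟨c, v, w, e, hv, hw, hc, u', hu', hA, ht, hp⟩)
    · exact h.2
    · have hv' : v = c.1.1 := hv
      have hw' : (w.map φ').prod = c.2 := hw
      have hp2 := hp.trans hw'.symm
      rw [hφ', prod_pair, prod_pair] at hp2
      have e1 := congrArg Prod.fst hp2
      have e2 : (((u'.drop A).length : ℕ) : ZMod M0) = ((w.length : ℕ) : ZMod M0) :=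
        Multiplicative.ofAdd.injective (congrArg Prod.snd hp2)
      have e3 : (u'.drop A).length % M0 = w.length % M0 :=
        (ZMod.natCast_eq_natCast_iff' _ _ _).1 e2
      have hvl : v.length = A := by rw [hv']; exact hc
      have hul : u.length = A + w.length := by rw [← e, List.length_append, hvl]
      refine hf u' u hA (by omega) ?_ ?_ ?_ hu'
      · rw [ht, ← e, List.take_append_of_le_length (by omega), List.take_of_length_le (by omega),
          hv']
      · rw [List.length_drop] at e3
        have : u'.length = A + (u'.length - A) := by omega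
        rw [this, hul, Nat.add_mod, e3, ← Nat.add_mod]
      · have hdv : v.drop A = [] := List.drop_of_length_le (by omega)
        rw [← e, List.drop_append_of_le_length (by omega), hdv, List.nil_append]
        exact e1
  · intro h
    have h' : f u := h
    by_cases hu : u.length ≤ A
    · exact Or.inl ⟨hu, h'⟩
    · right
      refine ⟨(⟨u.take A, by rw [List.length_take]; omega⟩, ((u.drop A).map φ').prod),
        u.take A, u.drop A, List.take_append_drop _ _, rfl, rfl, ?_, u, h', by omega, rfl, rfl⟩
      show (u.take A).length = A
      rw [List.length_take]; omega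

end Crest.Agent.R320.RegC_903
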