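import Crest.Agent.R320.G1_852
import Crest.Agent.R320.Sp_125
import Crest.Agent.R320.Univ_234
import Crest.Agent.R320.Top5_120
import Crest.Agent.R320.Sc2n_937
import Crest.Agent.R320.P4_933
import Crest.Agent.R320.LWallAll_922
import Crest.Agent.R320.ExactR_237
import Crest.Agent.R320.RegC_903

/-!
# Row 320: constants and join (helper903)

Top5_120 (semantic top), Sc2n_937 (both schemes, natural chain rule), G1_852 (gadget 1), Sp_125
(ruler), ExactR_237 (gadget 2), LWallAll_922 (walls on all words), P4_933 + RegC_903 (height 1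
languages).
-/

set_option autoImplicit false

namespace Crest.Agent.R320.Fin_903

open Crest.RegLang Crest.Agent.R320.Hk_851 Crest.Agent.R320.Blk467

variable {α : Type}

/-! ### lists -/

theorem drop_split (u : List α) {A k : ℕ} (hk : k ≤ A) (hA : A ≤ u.length) :
    u.drop k = (u.take A).drop k ++ u.drop A := by
  conv_lhs => rw [← List.take_append_drop A u]
  rw [List.drop_append_of_le_length (by rw [List.length_take]; omega)]

theorem take_drop_split (u : List α) {A k j : ℕ} (hk : k + j ≤ A) (hA : A ≤ u.length) :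
    (u.drop k).take j = ((u.take A).drop k).take j := by
  rw [drop_split u (by omega : k ≤ A) hA,
    List.take_append_of_le_length (by rw [List.length_drop, List.length_take]; omega)]

theorem take_split (u : List α) {A t : ℕ} (ht : t ≤ A) : u.take t = (u.take A).take t := by
  rw [List.take_take, min_eq_left ht]

/-- a class of words -/
def Cls {S : Type} [Monoid S] (φ : α → S) (A M0 : ℕ) (u u' : List α) : Prop :=
  A ≤ u.length ∧ A ≤ u'.length ∧ u.take A = u'.take A ∧ u.length % M0 = u'.length % M0 ∧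
    ((u.drop A).map φ).prod = ((u'.drop A).map φ).prod

section Cls

variable {S : Type} [Monoid S] {φ : α → S} {A M0 : ℕ} {u u' : List α}

theorem Cls.symm (h : Cls φ A M0 u u') : Cls φ A M0 u' u :=
  ⟨h.2.1, h.1, h.2.2.1.symm, h.2.2.2.1.symm, h.2.2.2.2.symm⟩

theorem Cls.take (h : Cls φ A M0 u u') {t : ℕ} (ht : t ≤ A) : u.take t = u'.take t := by
  rw [take_split u ht, take_split u' ht, h.2.2.1]

theorem Cls.drop (h : Cls φ A M0 u u') {k : ℕ} (hk : k ≤ A) :
    ((u.drop k).map φ).prod = ((u'.drop k).map φ).prod := by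
  rw [drop_split u hk h.1, drop_split u' hk h.2.1, h.2.2.1, List.map_append, List.map_append,
    List.prod_append, List.prod_append, h.2.2.2.2]

theorem Cls.seg (h : Cls φ A M0 u u') {k j : ℕ} (hk : k + j ≤ A) :
    (u.drop k).take j = (u'.drop k).take j := by
  rw [take_drop_split u hk h.1, take_drop_split u' hk h.2.1, h.2.2.1]

theorem Cls.len (h : Cls φ A M0 u u') {k : ℕ} (hk : k ≤ A) :
    (u.length - k) % M0 = (u'.length - k) % M0 := by
  have h1 := h.1
  have h2 := h.2.1
  have h3 : (u.length - k) + k ≡ (u'.length - k) + k [MOD M0] := by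
    rw [Nat.sub_add_cancel (by omega), Nat.sub_add_cancel (by omega)]
    exact h.2.2.2.1
  exact Nat.ModEq.add_right_cancel' k h3

theorem Cls.all (h : Cls φ A M0 u u') : (u.map φ).prod = (u'.map φ).prod := by
  have := h.drop (k := 0) (Nat.zero_le _)
  simpa using this

end Cls

theorem bad_congr {Ms : Finset ℕ} {M m b n n' : ℕ} (hMs : ∀ k ∈ Ms, k ∣ M)
    (h : n % (M * b ^ m) = n' % (M * b ^ m)) (hb : Sp_125.Bad Ms M m b n) :
    Sp_125.Bad Ms M m b n' := by
  have h0 : n ≡ n' [MOD M * b ^ m] := h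
  rcases hb with ⟨k, hk, hd⟩ | ⟨j, hj, hd⟩
  · left
    refine ⟨k, hk, ?_⟩
    have h1 : n ≡ n' [MOD k] := h0.of_dvd (Dvd.dvd.mul_right (hMs k hk) _)
    exact (h1.dvd_iff (dvd_refl k)).1 hd
  · right
    refine ⟨j, hj, ?_⟩
    have h1 : n ≡ n' [MOD b ^ j * b] := h0.of_dvd (by
      rw [← pow_succ]
      exact Dvd.dvd.mul_left (pow_dvd_pow b (by omega)) _)
    have h2 : n / b ^ j % b = n' / b ^ j % b := by
      rw [← Nat.mod_mul_right_div_self, ← Nat.mod_mul_right_div_self]
      have h3 : n % (b ^ j * b) = n' % (b ^ j * b) := h1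
      rw [h3]
    rw [← h2]; exact hd

/-- a word which ends with a wall and is long has a first block -/
theorem exists_block (g : Sc2n_937.Geo α) (w : List α) (hz : g.z ≤ w.length) (hw : g.Wo w) :
    ∃ X' R', g.XX X' ∧ X' ++ R' = w := by
  classical
  have hex : ∃ t, g.z ≤ t ∧ t ≤ w.length ∧ g.Wo (w.take t) :=
    ⟨w.length, hz, le_rfl, by rw [List.take_length]; exact hw⟩
  obtain ⟨h1, h2, h3⟩ := Nat.find_spec hex
  refine ⟨w.take (Nat.find hex), w.drop (Nat.find hex), ⟨?_, h3, ?_⟩, List.take_append_drop _ _⟩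
  · rw [List.length_take]; omega
  · intro t ht hlt hwt
    rw [List.length_take] at hlt
    have hlt' : t < Nat.find hex := by omega
    rw [List.take_take, min_eq_left hlt'.le] at hwt
    exact Nat.find_min hex hlt' ⟨ht, by omega, hwt⟩

theorem core [Finite α] (S V : Type) [Monoid S] [Finite S] [AddCommGroup V] [Finite V]
    (act : V → S → V)
    (hadd : ∀ a b s, act (a + b) s = act a s + act b s)
    (hone : ∀ v, act v 1 = v) (hmul : ∀ v s t, act v (s * t) = act (act v s) t)
    (hfaith : ∀ s t, (∀ v, act v s = act v t) → s = t) (φ : α → S) (s : S) :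
    HL 3 ({w | (w.map φ).prod = s} : Language α) := by
  classical
  have iS : Fintype S := Fintype.ofFinite S
  have iV : Fintype V := Fintype.ofFinite V
  obtain ⟨m, r, H1⟩ := G1_852.gadget act
  obtain ⟨K, H2⟩ := ExactR_237.exact_gadget α S V φ act (2 * (r + m) + 2)
  obtain ⟨Ms, M, hcard, hMs, hM, H1'⟩ := H1 (4 ^ K)
  obtain ⟨b, hb⟩ : ∃ b : ℕ, b = 1 + M * (2 ^ (K + 3) + 3) := ⟨_, rfl⟩
  have hbpos : 0 < b := by omega
  have hcop : Nat.Coprime b M := by
    rw [hb]; simp
  have hbbig : 2 ^ (K + 3) * M + 2 * M < b := by rw [hb]; nlinarith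
  obtain ⟨lam, rho, nu1, g1, g2, g3, g4⟩ := H1' b hbpos hcop α φ
  obtain ⟨N1, hN1⟩ : ∃ N1 : ℕ, N1 = b ^ m := ⟨_, rfl⟩
  have hN1pos : 0 < N1 := by rw [hN1]; exact pow_pos hbpos m
  obtain ⟨c, c1, c2, c3⟩ := Sp_125.spoil Ms M m b K N1 hM
    (fun k hk => ⟨(hMs k hk).1, (hMs k hk).2.2⟩) hbbig hcop
  obtain ⟨lam2, rho2', nu2', e1, e2⟩ := H2 c (fun i j hij _ => by have := c1 i j hij; omega)
  obtain ⟨p0, hp0⟩ : ∃ p0 : ℕ, p0 = c K := ⟨_, rfl⟩
  have hcK : ∀ k, k < K → c k < p0 := fun k hk => by have := c1 k K hk; omega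
  obtain ⟨n, G, B, Wo, hLW, hgap, -, -, hfree⟩ :=
    LWallAll_922.walls_all_left α (2 * p0 + 2 * N1 + 1) (by omega)
  let geo : Sc2n_937.Geo α :=
    { Wo := Wo, n := n, z := p0 + N1 + (n + 2 * p0), p0 := p0, q0 := n + 2 * p0, N1 := N1,
      loc := hLW.app, hz := rfl, hq := by omega, hN := hN1pos, hqp := by omega }
  obtain ⟨z, hzz⟩ : ∃ z : ℕ, z = p0 + N1 + (n + 2 * p0) := ⟨_, rfl⟩
  have gz : geo.z = z := hzz.symm
  have gp : geo.p0 = p0 := rfl
  have gN : geo.N1 = N1 := rfl
  have gW : geo.Wo = Wo := rfl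
  let pre : List α → V → V := fun X v => act v (X.map φ).prod + nu2' X 1
  let post : V → List α → V := fun u Y => act u (Y.map φ).prod + nu1 Y
  let nu : List α → V := fun X =>
    act (nu2' (X.take p0) 1) ((X.drop p0).map φ).prod + nu1 (X.drop p0)
  have hT : ∀ v X, geo.T pre post v X = act v (X.map φ).prod + nu X := by
    intro v X
    change act (act v ((X.take p0).map φ).prod + nu2' (X.take p0) 1) ((X.drop p0).map φ).prod +
      nu1 (X.drop p0) = act v (X.map φ).prod +
        (act (nu2' (X.take p0) 1) ((X.drop p0).map φ).prod + nu1 (X.drop p0))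
    rw [hadd, ← hmul, ← List.prod_append, ← List.map_append, List.take_append_drop, add_assoc]
  have hlen : ∀ P v, lam P = some v → P.length ≤ geo.N1 := fun P v h => by
    have := g1 P v h
    rw [gN, hN1]; exact this.le
  have hex : ∀ P Q u b', lam P = some u → rho Q = some b' → b' = post u (P ++ Q) :=
    fun P Q u b' h h' => g2 P Q u b' h h'
  have hex2 : ∀ k, k < K → ∀ P Q v u, P.length = c k → Q.length = geo.p0 - c k →
      lam2 k P = some v → (fun k Q => rho2' k Q 1) k Q = some u → u = pre (P ++ Q) v := by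
    intro k hk P Q v u hP _ h h'
    have := e1 k hk P Q 1 v u hP h h'
    rw [mul_one] at this
    exact this
  have hc : ∀ k, k < K → c k ≤ geo.p0 := fun k hk => (hcK k hk).le
  have hMd : ∀ k ∈ Ms, k ∣ M := fun k hk => (hMs k hk).2.2
  -- the class constants
  obtain ⟨A, hA⟩ : ∃ A : ℕ, A = z + N1 + p0 + N1 := ⟨_, rfl⟩
  have hM0 : 0 < M * b ^ m := Nat.mul_pos hM (pow_pos hbpos m)
  have hnu : ∀ u u', Cls φ A (M * b ^ m) u u' → nu u = nu u' := by
    intro u u' h
    change act (nu2' (u.take p0) 1) ((u.drop p0).map φ).prod + nu1 (u.drop p0) =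
      act (nu2' (u'.take p0) 1) ((u'.drop p0).map φ).prod + nu1 (u'.drop p0)
    rw [h.take (t := p0) (by omega), h.drop (k := p0) (by omega)]
    congr 1
    refine (g4 _ _ ?_ ?_ ?_).2
    · rw [← hN1]; exact h.seg (by omega)
    · rw [← hN1, List.drop_drop, List.drop_drop]
      exact h.drop (by omega)
    · rw [List.length_drop, List.length_drop]
      exact h.len (by omega)
  have hval : ∀ x y u u', Cls φ A (M * b ^ m) u u' → act x (u.map φ).prod + nu u = y →
      act x (u'.map φ).prod + nu u' = y := by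
    intro x y u u' h hu
    rw [← hnu u u' h, ← h.all]; exact hu
  have hbad : ∀ u u', Cls φ A (M * b ^ m) u u' → geo.BadX (Sp_125.Bad Ms M m b) u →
      geo.BadX (Sp_125.Bad Ms M m b) u' := by
    rintro u u' h (⟨t, ht, hw, h1, h2⟩ | hbt)
    · left
      have h2' : t < z + N1 := by rw [← gz, ← gN]; exact h2
      have h3 := h.2.1
      refine ⟨t, by omega, ?_, h1, h2⟩
      rw [← h.take (t := t) (by omega)]; exact hw
    · right
      exact bad_congr hMd (h.len (k := p0) (by omega)) hbt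
  have regV : ∀ x y, Language.IsRegular ({u | act x (u.map φ).prod + nu u = y} : Language α) :=
    fun x y => RegC_903.reg_class φ A (M * b ^ m) hM0 _
      (fun u u' h1 h2 h3 h4 h5 hu => hval x y u u' ⟨h1, h2, h3, h4, h5⟩ hu)
  have regB : Language.IsRegular ({u | geo.BadX (Sp_125.Bad Ms M m b) u} : Language α) :=
    RegC_903.reg_class φ A (M * b ^ m) hM0 _
      (fun u u' h1 h2 h3 h4 h5 hu => hbad u u' ⟨h1, h2, h3, h4, h5⟩ hu)
  have free : ∀ u : List α, (∀ t < u.length, ¬ Wo (u.take t)) →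
      u ∈ (BddReg_746.PN (max B (2 * p0 + 2 * N1 + 1)) 2 : Language α) := by
    intro u hu
    obtain ⟨a, x, v, k, h1, h2, h3, rfl⟩ := hfree u hu
    refine Language.mem_mul.2 ⟨a ++ (List.replicate k x).flatten,
      ⟨a, x, k, by omega, by omega, rfl⟩, v,
      Language.mem_mul.2 ⟨v, ⟨v, [], 0, by omega, by simp, by simp⟩, [], rfl,
        by simp⟩, rfl⟩
  have xx_iff : ∀ X, P4_933.XX Wo z X ↔ geo.XX X := by
    intro X
    unfold P4_933.XX Sc2n_937.Geo.XX
    rw [gz]
    constructor
    · rintro ⟨h1, h2, h3⟩; exact ⟨h2, h1, fun t ht ht' => h3 t ht' ht⟩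
    · rintro ⟨h1, h2, h3⟩; exact ⟨h2, h1, fun t ht ht' => h3 t ht' ht⟩
  have hCT : ∀ x y, HL 1 ({X | X ∈ ({X | geo.XX X} : Set (List α)) ∧
      act x (X.map φ).prod + nu X = y} : Language α) := by
    intro x y
    refine (P4_933.hl_XX hLW.app hLW.len free (regV x y) (z := z)).congr fun w => ?_
    constructor
    · rintro ⟨h1, h2⟩; exact ⟨(xx_iff w).2 h1, h2⟩
    · rintro ⟨h1, h2⟩; exact ⟨(xx_iff w).1 h1, h2⟩
  have hBT : ∀ x y, HL 1 ({X | X ∈ ({X | geo.XX X ∧ geo.BadX (Sp_125.Bad Ms M m b) X} :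
      Set (List α)) ∧ act x (X.map φ).prod + nu X = y} : Language α) := by
    intro x y
    refine (P4_933.hl_XX hLW.app hLW.len free (Top5_903.reg_and regB (regV x y))
      (z := z)).congr fun w => ?_
    constructor
    · rintro ⟨⟨h1, h2⟩, h3⟩; exact ⟨(xx_iff w).2 h1, h2, h3⟩
    · rintro ⟨h1, h2, h3⟩; exact ⟨⟨(xx_iff w).1 h1, h2⟩, h3⟩
  have htail : ∀ s, HL 1 ({w | (∀ X ∈ ({X | geo.XX X} : Set (List α)), ¬ X <+: w) ∧
      (w.map φ).prod = s} : Language α) := by
    intro s
    refine (P4_933.hl_NB hLW.app hLW.len free (Reg_852.isRegular_prod φ s)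
      (z := z)).congr fun w => ?_
    constructor
    · rintro ⟨h1, h2⟩
      exact ⟨(P4_933.NB_iff Wo z w).2 fun P hP hx => h1 P ((xx_iff P).1 hx) hP, h2⟩
    · rintro ⟨h1, h2⟩
      exact ⟨fun X hX hp => (P4_933.NB_iff Wo z w).1 h1 X hp ((xx_iff X).2 hX), h2⟩
  have hgap' : ∀ P Q : List α, geo.Wo P → geo.Wo (P ++ Q) → Q ≠ [] →
      2 * geo.p0 + 2 * geo.N1 < Q.length := by
    intro P Q h1 h2 h3
    have h4 : 0 < Q.length := List.length_pos_iff.2 h3
    have := hgap (P ++ Q) P.length (P ++ Q).length (by rw [List.length_append]; omega) le_rfl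
      (by rw [List.take_left]; exact h1) (by rw [List.take_length]; exact h2)
    rw [List.length_append] at this
    rw [gp, gN]
    omega
  have hsp : ∀ k k' l l', k < K → k' < K → l < K → l' < K → k' ≠ k → l' ≠ l →
      c k + c l' < c l + c k' + 2 * geo.N1 → c l + c k' < c k + c l' + 2 * geo.N1 → k = l := by
    intro k k' l l' _ _ _ _ hkk hll h1 h2
    rw [gN] at h1 h2
    by_contra hne
    have := c2 k k' l l' (Ne.symm hkk) (Ne.symm hll) (fun h => hne (Prod.mk.inj h).1)
    omega
  have hthin : ∀ τ, geo.z ≤ τ + geo.p0 → ∀ J : Finset ℕ, (∀ k ∈ J, k < K ∧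
      ∃ k', k' < K ∧ k' ≠ k ∧ Sp_125.Bad Ms M m b (τ + c k' - c k - geo.p0)) →
      J.card ≤ r + m := by
    intro τ hτ J hJ
    rw [gz, gp] at hτ
    refine (le_trans ?_ (c3 (τ - p0) (fun l hl => ?_))).trans (by omega)
    · refine (Finset.card_le_card (t := Finset.image Prod.fst (Finset.filter _ _)) ?_).trans
        Finset.card_image_le
      intro k hk
      obtain ⟨hkK, k', hk'K, hne, hB⟩ := hJ k hk
      refine Finset.mem_image.2 ⟨(k, k'), Finset.mem_filter.2 ⟨Finset.mem_product.2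
        ⟨Finset.mem_range.2 hkK, Finset.mem_range.2 hk'K⟩, fun h => hne h.symm, ?_⟩, rfl⟩
      have h1 := hcK k hkK
      have h2 : τ - p0 + c k' - c k = τ + c k' - c k - geo.p0 := by rw [gp]; omega
      change Sp_125.Bad Ms M m b (τ - p0 + c k' - c k)
      rw [h2]; exact hB
    · have := hcK l hl
      omega
  refine Top5_120.top5 act hadd hone hmul hfaith φ nu {X | geo.XX X}
    {X | geo.XX X ∧ geo.BadX (Sp_125.Bad Ms M m b) X} ?_ (fun X hX => hX.1)
    (fun v => {P | geo.LP1 pre lam v P}) (fun v => {P | Sc2n_937.Geo.LP2 K c lam2 v P})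
    ?_ ?_ hCT hBT htail ?_ ?_ s
  · refine ⟨?_, ?_⟩
    · intro h
      have h1 : geo.z ≤ ([] : List α).length := h.1
      rw [gz] at h1
      simp at h1
      omega
    · rintro X hX Y hY ⟨R, hR⟩
      exact geo.prefix_code (R := R) (R' := []) hX hY (by rw [List.append_nil]; exact hR)
  · intro v
    refine (List.finite_length_le α (p0 + N1)).subset ?_
    rintro P ⟨h1, h2⟩
    have := hlen _ _ h2
    rw [List.length_drop, gp, gN] at this
    change P.length ≤ p0 + N1
    omega
  · intro v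
    refine (List.finite_length_le α p0).subset ?_
    rintro P ⟨k, hk, h1, -⟩
    have := hcK k hk
    change P.length ≤ p0
    omega
  · intro X hX hXb v
    have hE : ¬ geo.E X := fun h => hXb ⟨hX, Or.inl h⟩
    have hB : ¬ Sp_125.Bad Ms M m b (X.length - p0) := fun h => hXb ⟨hX, Or.inr h⟩
    have hcomp : ∀ u : V, ∃ P Q, X.drop geo.p0 = P ++ Q ∧ lam P = some u ∧ (rho Q).isSome := by
      intro u
      obtain ⟨P, Q, h1, h2, v', h3⟩ := g3 (X.drop p0) (by
        intro k hk hd
        rw [List.length_drop] at hd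
        exact hB (Or.inl ⟨k, hk, hd⟩)) (by
        intro j hj
        rw [List.length_drop]
        by_contra hd
        exact hB (Or.inr ⟨j, hj, fun h => hd ⟨h.1, by omega⟩⟩)) u
      exact ⟨P, Q, h1, h2, by rw [h3]; rfl⟩
    obtain ⟨P, Q, b', hXe, hP, hQ⟩ := geo.complete1 pre hlen hX hE hcomp v
    refine ⟨P, Q, hXe.symm, hP, fun x P' hP' => ?_⟩
    have h1 := geo.sound1 pre post hlen hex hP' hQ
    have h2 := geo.sound1 pre post hlen hex hP hQ
    refine ⟨h1.1, ?_⟩
    rw [← hT, ← hT, h1.2, hXe, h2.2]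
  · intro X hX Y hY v
    have hX1 : geo.XX X := hX.1
    have hXz : z ≤ X.length := by rw [← gz]; exact hX1.1
    have hI : ∃ I : Finset ℕ, 2 * (r + m) + 2 ≤ I.card ∧ ∀ k ∈ I, k < K ∧
        lam2 k (X.take (c k)) = some v ∧
        ((fun k Q => rho2' k Q 1) k ((X.take geo.p0).drop (c k))).isSome := by
      obtain ⟨I, hI1, hI2⟩ := e2 (X.take p0) 1 v (fun k hk => by
        have := hcK k hk
        rw [List.length_take]; omega)
      refine ⟨I, hI1, fun k hk => ?_⟩
      obtain ⟨a1, a2, a3⟩ := hI2 k hk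
      refine ⟨a1, ?_, a3⟩
      rw [List.take_take, min_eq_left (hcK k a1).le] at a2
      exact a2
    obtain ⟨P, Q, b', e, hP, hQ⟩ := geo.complete2 pre post (C0 := r + m) (lam2 := lam2)
      (rho2 := fun k Q => rho2' k Q 1) hc hgap' hsp hthin hX1 hY.1 v hI
    refine ⟨P, Q, e, hP, fun x P' hP' => ?_⟩
    have hb' : geo.T pre post (geo.T pre post v X) Y = b' := by
      obtain ⟨X2, hX2, e3, ht⟩ := geo.sound2 pre post hc hex2 hX1 hX.2 hP hQ (R := []) (R' := Y)
        (by rw [List.append_nil]; exact e)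
      have : X2 = Y := by
        rw [e] at e3; exact (List.append_cancel_left e3).symm
      rw [this] at ht; exact ht
    have hw : geo.Wo (P' ++ Q) ∧ geo.z ≤ (P' ++ Q).length := by
      obtain ⟨k, hk, l, hend, -, hXX, -⟩ := hQ
      have h1 : geo.z ≤ (Q.drop l).length := hXX.1
      have h2 : geo.Wo (Q.drop l) := hXX.2.1
      have h3 : P' ++ Q = (P' ++ Q.take l) ++ Q.drop l := by
        rw [List.append_assoc, List.take_append_drop]
      constructor
      · rw [h3]
        refine (geo.loc _ _ ?_).2 h2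
        have : geo.n ≤ geo.z := by rw [gz]; change n ≤ z; omega
        omega
      · rw [h3, List.length_append]; omega
    obtain ⟨X', R', hX', hR'⟩ := exists_block geo (P' ++ Q) hw.2 hw.1
    by_cases hbx : geo.BadX (Sp_125.Bad Ms M m b) X'
    · left
      obtain ⟨X2, hX2, e3, ht⟩ := geo.sound2 pre post hc hex2 hX' hbx hP' hQ (R := []) (R' := R')
        (by rw [List.append_nil]; exact hR'.symm)
      refine ⟨X', ⟨hX', hbx⟩, X2, hX2, e3.symm, ?_⟩
      have a1 := hT x X'
      have a2 := hT (geo.T pre post x X') X2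
      have a3 := hT v X
      have a4 := hT (geo.T pre post v X) Y
      rw [← a1, ← a2, ← a3, ← a4, ht, hb']
    · right
      exact ⟨X', hX', fun h => hbx h.2, ⟨R', hR'⟩⟩

/-- **Every language recognised by a finite monoid has generalized star height at most three.** -/
theorem fin (α : Type) [Finite α] (S : Type) [Monoid S] [Finite S] (φ : α → S) (s : S) :
    HL 3 ({w | (w.map φ).prod = s} : Language α) := by
  obtain ⟨act, hadd, hone, hmul, hfaith⟩ := exists_module S
  exact core S (S → ZMod 2) act hadd hone hmul hfaith φ s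

theorem row {α : Type*} [Finite α] (L : Language α) (hL : L.IsRegular) :
    ∃ e : GRegExp α, e.height ≤ 3 ∧ e.lang = L :=
  Univ_234.of_type_monoid (fun A _ S _ _ φ s => fin A S φ s) L hL

end Crest.Agent.R320.Fin_903
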