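import Crest.Agent.R320.SemTop_727
import Crest.Agent.R320.JointSem_814
import Crest.Agent.R320.Spoil_814
import Crest.Agent.R320.Fib_298
import Crest.Agent.R320.G1_256
import Crest.Agent.R320.Sp_249
import Crest.Agent.R320.LWallAll_922
import Crest.Agent.R320.Loc_645
import Crest.Agent.R320.Univ_582

/-!
# Row 320: final joiner (helper922)

Top: 727 (semantic), joint of the two schemes: 814, spoil: 814 + 249, fibres: 298, gadget: 256,
exact gadget: 237, walls on all words: 813 / 922, universes: 582.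
-/

set_option autoImplicit false

namespace Crest.Agent.R320.Fin_922

open Crest.Agent.R320 Crest.Agent.R320.Hk_851

/-- the walls -/
theorem walls (α : Type) [Finite α] (W : ℕ) (hW : 0 < W) :
    ∃ (n B : ℕ) (Wo : List α → Prop), JointSem_814.Walls n W Wo ∧ Fib_298.WallU Wo n B := by
  obtain ⟨n, G, B, Wo, h1, h2, -, -, h5⟩ := LWallAll_922.walls_all_left α W hW
  refine ⟨n, max B W, Wo, ⟨h1.app, h1.len, ?_⟩, ⟨h1.app, h1.len, ?_⟩⟩
  · intro X s t hst htW ht hs hWt
    have := h2 X s t hst ht hs hWt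
    omega
  · intro X hX
    obtain ⟨u, x, v, k, hu, hx, hv, e⟩ := h5 X hX
    exact ⟨u, x, v, k, e, hu.trans (le_max_left _ _), hx.trans (le_max_right _ _),
      hv.trans (le_max_left _ _)⟩

theorem XX_eq {α : Type} (Wo : List α → Prop) (z : ℕ) :
    JointSem_814.XX Wo z = Fib_298.XX Wo z := by
  ext X
  constructor
  · rintro ⟨h1, h2, h3⟩
    exact ⟨h2, h1, h3⟩
  · rintro ⟨h1, h2, h3⟩
    exact ⟨h2, h1, h3⟩

theorem join (α : Type) [Finite α] (S : Type) [Monoid S] [Finite S] (f : α → S) (s : S) :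
    HL 3 ({w | (w.map f).prod = s} : Language α) := by
  classical
  have := Fintype.ofFinite S
  obtain ⟨act, hadd, hone, hmul, hfaith⟩ := Blk467.exists_module S
  obtain ⟨m, r, hg⟩ := G1_256.g1 S (S → ZMod 2) act
  obtain ⟨K, hK⟩ := ExactR_237.exact_gadget α S (S → ZMod 2) f act (2 + 2 * (r + m))
  obtain ⟨Ms, M, hcard, hMs, hM, hg⟩ := hg (4 ^ K)
  obtain ⟨b, hb⟩ : ∃ b, b = M * (2 ^ (K + 6) + 5) + 1 := ⟨_, rfl⟩
  have h2K : 1 ≤ 2 ^ (K + 6) := Nat.one_le_two_pow
  have hb1 : 4 * M + 4 < b := by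
    have h64 : 64 ≤ 2 ^ (K + 6) := by
      have : 2 ^ 6 ≤ 2 ^ (K + 6) := Nat.pow_le_pow_right (by norm_num) (by omega)
      simpa using this
    have : M * 69 ≤ M * (2 ^ (K + 6) + 5) := Nat.mul_le_mul_left _ (by omega)
    omega
  have hb2 : 2 ^ (K + 6) * M < b := by
    rw [hb, Nat.mul_add, Nat.mul_comm M (2 ^ (K + 6))]
    omega
  have hco : Nat.Coprime b M := by
    rw [hb]
    have : Nat.Coprime (1 + M * (2 ^ (K + 6) + 5)) M := by
      rw [Nat.coprime_add_mul_left_left]
      exact Nat.coprime_one_left M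
    rwa [add_comm] at this
  have hb0 : 0 < b := by omega
  obtain ⟨N1, hN1⟩ : ∃ N1, N1 = b ^ m := ⟨_, rfl⟩
  obtain ⟨c, hc1, hc2, -, hc4⟩ := Sp_249.spoil Ms M b m K N1 hM
    (fun k hk => ⟨(hMs k hk).1, (hMs k hk).2.2⟩) hb2 hco
  obtain ⟨lam2, rho2, nu2, he1, he2⟩ := hK c (fun i j hij _ => by
    have := hc1 i j hij
    omega)
  obtain ⟨lam, rho, nu1, g1, g2, g3, g4⟩ := hg b hb1 hco α f
  obtain ⟨p0, hp0⟩ : ∃ p0, p0 = c K := ⟨_, rfl⟩
  have hcp : ∀ k < K, c k ≤ p0 := fun k hk => by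
    have := hc1 k K hk
    omega
  obtain ⟨n, B, Wo, hW, hU⟩ := walls α (2 * (N1 + p0) + 1) (by omega)
  obtain ⟨z, hz⟩ : ∃ z, z = 3 * p0 + 2 * N1 + n + 1 := ⟨_, rfl⟩
  let BadT : ℕ → Prop := Sp_249.Bad Ms M b m
  let φ : List α → S := fun w => (w.map f).prod
  let nu2' : List α → (S → ZMod 2) := fun u => nu2 u 1
  let D : SemTop_727.Sch α (S → ZMod 2) :=
    { XX := JointSem_814.XX Wo z
      T := JointSem_814.T p0 φ act nu1 nu2'
      L1 := JointSem_814.L1 p0 φ act nu2' lam
      L2 := JointSem_814.L2 K c lam2 }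
  have hlam : ∀ p v, lam p = some v → p.length ≤ N1 := fun p v h => by
    have := g1 p v h
    omega
  have hsound : ∀ p q v r, lam p = some v → rho q = some r →
      r = act v (φ (p ++ q)) + nu1 (p ++ q) := fun p q v r h1 h2 => g2 p q v r h1 h2
  have hcompl : ∀ u, 0 ≤ u.length → ¬ BadT u.length → ∀ v, ∃ p q, p ++ q = u ∧
      lam p = some v ∧ (rho q).isSome := by
    intro u _ hu v
    refine g3 u ?_ ?_ v
    · intro k hk hd
      exact hu (Or.inl ⟨k, hk, hd⟩)
    · intro j hj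
      by_contra hcon
      exact hu (Or.inr ⟨j, hj, hcon⟩)
  have hXX : D.XX = Fib_298.XX Wo z := XX_eq Wo z
  have hnu : ∀ y, Language.IsRegular ({Y | nu1 Y = y} : Language α) := by
    intro y
    refine Loc_645.isRegular_of_read' f (b ^ m) (M * b ^ m)
      (Nat.mul_pos hM (Nat.pow_pos hb0)) (fun Y => nu1 Y = y) ?_
    intro q q' h1 h2 h3 h4 h5 h6
    rw [← (g4 q q' h1 h2 h3 h5 h4).2]
    exact h6
  refine SemTop_727.top (k := 1) act hadd hone hmul hfaith f
    (fun X => act (nu2' (X.take p0)) (φ (X.drop p0)) + nu1 (X.drop p0)) D ?_ ?_ ?_ ?_ ?_ ?_ ?_ s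
  · intro v X
    show act (act v (φ (X.take p0)) + nu2' (X.take p0)) (φ (X.drop p0)) + nu1 (X.drop p0) = _
    rw [hadd, ← hmul, add_assoc]
    congr 2
    show ((X.take p0).map f).prod * ((X.drop p0).map f).prod = _
    rw [← List.prod_append, ← List.map_append, List.take_append_drop]
  · rw [hXX]
    exact Fib_298.pcode_XX (by omega)
  · intro x y
    have h := Fib_298.hfib hU (show n ≤ z by omega) act f p0 (show p0 ≤ z by omega)
      (fun v X0 => act v (φ X0) + nu2' X0) nu1 hnu x y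
    refine h.congr fun w => ?_
    show w ∈ D.XX ∧ _ ↔ w ∈ Fib_298.XX Wo z ∧ _
    rw [hXX]
    exact Iff.rfl
  · intro x
    refine (List.finite_length_le α (p0 + N1)).subset ?_
    rintro P ⟨h1, h2⟩
    have := hlam _ _ h2
    rw [List.length_drop] at this
    show P.length ≤ p0 + N1
    omega
  · intro x
    refine (List.finite_length_le α p0).subset ?_
    rintro P ⟨k, hk, h2, -⟩
    show P.length ≤ p0
    rw [h2]
    exact hcp k hk
  · intro X1 hX1 X2 hX2 x
    refine JointSem_814.compl2 (n := n) (W := 2 * (N1 + p0) + 1) (N := N1) (N0 := 0) (K := K)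
      (R := 2 + 2 * (r + m)) hW (rho := rho) (BadT := BadT) (by omega) (by omega) hlam hsound
      hcompl (c := c) (rho2 := fun k Q => rho2 k Q 1) hcp ?_ ?_ ?_ hX1.1 hX2 x
    · intro k hk P Q v b' hP h1 h2
      have := he1 k hk P Q 1 v b' hP h1 h2
      rw [mul_one] at this
      exact this
    · intro u v hu
      exact he2 u 1 v hu
    · intro U _
      have hrul : ∀ a a1 a' b1, a < K → a1 < K → a' < K → b1 < K → a ≠ a1 → a' ≠ b1 →
          c a + c b1 ≤ c a' + c a1 + 2 * N1 → c a' + c a1 ≤ c a + c b1 + 2 * N1 → a = a' := by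
        intro a a1 a' b1 _ _ _ _ h1 h2 h3 h4
        by_contra hne
        rcases hc2 a a1 a' b1 h1 h2 (fun h => hne (Prod.ext_iff.1 h).1) with h | h
        · omega
        · omega
      have hBT : ∀ T, p0 ≤ T → ∃ J : Finset ℕ, J.card ≤ r + m ∧ ∀ a < K, ∀ b1 < K, a ≠ b1 →
          BadT (T + c b1 - c a) → a ∈ J := by
        intro T hT
        refine ⟨(((Finset.range K ×ˢ Finset.range K).filter
          (fun p => p.1 ≠ p.2 ∧ Sp_249.Bad Ms M b m (T + c p.2 - c p.1)))).image Prod.fst, ?_, ?_⟩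
        · refine Finset.card_image_le.trans ?_
          have := hc4 T (fun l hl => (hcp l hl).trans hT)
          refine le_trans ?_ (this.trans (Nat.add_le_add_right hcard m))
          apply le_of_eq
          congr
        · intro a ha b1 hb1' hab hbad
          refine Finset.mem_image.2 ⟨(a, b1), ?_, rfl⟩
          rw [Finset.mem_filter]
          exact ⟨Finset.mem_product.2 ⟨Finset.mem_range.2 ha, Finset.mem_range.2 hb1'⟩, hab, hbad⟩
      obtain ⟨J, hJ1, hJ2⟩ := JointSem_814.spoil (T0 := p0) (C0 := r + m) (z := z) (N := N1)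
        (K := K) hW (by omega) (by omega) hcp hrul (BadT := BadT) hBT U
      exact ⟨J, by omega, hJ2⟩
  · intro s'
    have h := Fib_298.rest hU (show n ≤ z by omega) f s'
    rw [hXX]
    exact h.mono (by norm_num)

theorem fin {α : Type*} [Finite α] (L : Language α) (hL : L.IsRegular) :
    ∃ e : Crest.RegLang.GRegExp α, e.height ≤ 3 ∧ e.lang = L :=
  Univ_582.final (k := 3) (fun β _ S _ _ φ s => join β S φ s) α L hL

end Crest.Agent.R320.Fin_922
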