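import Crest.Agent.R320.Top5_120
import Crest.Agent.R320.Sc2n_937
import Crest.Agent.R320.G1_852
import Crest.Agent.R320.Sp_597
import Crest.Agent.R320.ExactR_237
import Crest.Agent.R320.LWallAll_922
import Crest.Agent.R320.P4b_933

/-! Row 320: constants and join. -/

set_option autoImplicit false
set_option linter.all false

namespace Crest.Agent.R320.Fin_932

open Crest.RegLang Crest.Agent.R320.Hk_851 Crest.Agent.R320.Blk467
open Crest.Agent.R320.Sc2n_937 (Geo)

/-- product of the letters -/
abbrev pr {A S : Type} [Monoid S] (f : A → S) (l : List A) : S := (l.map f).prod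

theorem bad_congr (Ms : Finset ℕ) (M b m n n' : ℕ) (hMs : ∀ k ∈ Ms, k ∣ M)
    (h : n % (M * b ^ m) = n' % (M * b ^ m)) :
    Sp_597.Bad Ms M b m n → Sp_597.Bad Ms M b m n' := by
  have hmod : n ≡ n' [MOD (M * b ^ m)] := h
  rintro (⟨k, hk, hd⟩ | ⟨j, hj, hn⟩)
  · left
    refine ⟨k, hk, ?_⟩
    have h1 : n ≡ n' [MOD k] := hmod.of_dvd ((hMs k hk).trans (Dvd.intro _ rfl))
    exact (Nat.ModEq.dvd_iff h1 dvd_rfl).1 hd
  · right
    refine ⟨j, hj, ?_⟩
    have h1 : n ≡ n' [MOD (b ^ j * b)] := hmod.of_dvd (by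
      rw [← pow_succ]
      exact (pow_dvd_pow b (by omega)).trans (Dvd.intro_left _ rfl))
    have h2 : n / b ^ j % b = n' / b ^ j % b := by
      rw [← Nat.mod_mul_right_div_self, ← Nat.mod_mul_right_div_self]
      exact congrArg (· / b ^ j) h1
    rw [← h2]
    exact hn

theorem drop_split {A : Type} (u : List A) {p N : ℕ} (hp : p ≤ N) (hN : N ≤ u.length) :
    u.drop p = (u.take N).drop p ++ u.drop N := by
  conv_lhs => rw [← List.take_append_drop N u]
  rw [List.drop_append_of_le_length (by rw [List.length_take]; omega)]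

theorem fin (α : Type) [Finite α] (S : Type) [Monoid S] [Finite S] (φ : α → S) (s : S) :
    HL 3 ({w | (w.map φ).prod = s} : Language α) := by
  classical
  haveI := Fintype.ofFinite S
  obtain ⟨act, hadd, hone, hmul, hfaith⟩ := exists_module S
  -- constants
  obtain ⟨m, r, hgad⟩ := G1_852.gadget act
  set C0 := r + m with hC0
  obtain ⟨K, hK⟩ := ExactR_237.exact_gadget α S (S → ZMod 2) φ act (2 * C0 + 2)
  obtain ⟨Ms, M, hcard, hMs, hM, hgad⟩ := hgad (4 ^ K)
  set b := M * (4 * 2 ^ K + 6) + 1 with hb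
  have hbb : 4 * M * 2 ^ K + 2 * M + 4 ≤ b := by
    have : M * (4 * 2 ^ K + 6) = 4 * M * 2 ^ K + 6 * M := by ring
    omega
  have hb0 : 0 < b := by omega
  have hcop : Nat.Coprime b M := by
    rw [hb]
    simp [Nat.coprime_mul_left_add_left]
  obtain ⟨lam, rho, nu1, hlen, hex, hcomp, hloc⟩ := hgad b hb0 hcop α φ
  set N1 := b ^ m with hN1
  have hN1pos : 0 < N1 := by positivity
  obtain ⟨c, hcmono, hcgap, hcwide, hspoil⟩ := Sp_597.spoil_nat K m Ms M b hM
    (fun k hk => ⟨(hMs k hk).1, (hMs k hk).2.2⟩) hbb hcop N1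
  set p0 := c K with hp0
  have hcp : ∀ k, k < K → c k ≤ p0 := fun k hk => (hcmono hk).le
  obtain ⟨lam2, rho2, nu2, hex2, hcomp2⟩ := hK c (fun i j hij _ => hcmono hij)
  set W := 2 * p0 + 2 * N1 + 1 with hW
  obtain ⟨n, G, Bw, Wo, hLW, hgapW, _, _, hfree⟩ := LWallAll_922.walls_all_left α W (by omega)
  set q0 := n + 2 * p0 + N1 with hq0
  let g : Geo α :=
    { Wo := Wo, n := n, z := p0 + N1 + q0, p0 := p0, q0 := q0, N1 := N1, loc := hLW.app
      hz := rfl, hq := by omega, hN := hN1pos, hqp := by omega }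
  let pre : List α → (S → ZMod 2) → (S → ZMod 2) := fun X v => act v (pr φ X) + nu2 X 1
  let post : (S → ZMod 2) → List α → (S → ZMod 2) := fun v X => act v (pr φ X) + nu1 X
  let BadT : ℕ → Prop := Sp_597.Bad Ms M b m
  let nu : List α → (S → ZMod 2) := fun X =>
    act (nu2 (X.take p0) 1) (pr φ (X.drop p0)) + nu1 (X.drop p0)
  have hT : ∀ v X, g.T pre post v X = act v (X.map φ).prod + nu X := by
    intro v X
    show act (act v (pr φ (X.take p0)) + nu2 (X.take p0) 1) (pr φ (X.drop p0)) +
      nu1 (X.drop p0) = _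
    rw [hadd, ← hmul]
    have e : (X.map φ).prod = pr φ (X.take p0) * pr φ (X.drop p0) := by
      show (X.map φ).prod = ((X.take p0).map φ).prod * ((X.drop p0).map φ).prod
      rw [← List.prod_append, ← List.map_append, List.take_append_drop]
    rw [e, add_assoc]
  have hex' : ∀ P Q u v', lam P = some u → rho Q = some v' → v' = post u (P ++ Q) :=
    fun P Q u v' h1 h2 => hex P Q u v' h1 h2
  have hlen' : ∀ P v, lam P = some v → P.length ≤ N1 := fun P v h => (hlen P v h).le
  have hex2' : ∀ k, k < K → ∀ (P Q : List α) (v u : S → ZMod 2), P.length = c k →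
      Q.length = g.p0 - c k → lam2 k P = some v → rho2 k Q 1 = some u → u = pre (P ++ Q) v := by
    intro k hk P Q v u hP _ h1 h2
    have := hex2 k hk P Q 1 v u hP h1 h2
    rw [mul_one] at this
    exact this
  let C : Set (List α) := {X | g.XX X}
  let Bad : Set (List α) := {X | g.XX X ∧ g.BadX BadT X}
  have hC : PCode C := by
    refine ⟨?_, ?_⟩
    · intro h
      have h1 : p0 + N1 + q0 ≤ ([] : List α).length := h.1
      simp at h1
      omega
    · rintro X hX Y hY ⟨R, hR⟩
      exact g.prefix_code (R := R) (R' := []) hX hY (by rw [hR]; simp)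
  -- finite-state property
  set A := p0 + N1 + q0 + N1 with hA
  have hcls : ∀ u u' : List α, A ≤ u.length → A ≤ u'.length → u.take A = u'.take A →
      u.length % (M * b ^ m) = u'.length % (M * b ^ m) →
      ((u.drop A).map φ).prod = ((u'.drop A).map φ).prod →
      (u.map φ).prod = (u'.map φ).prod ∧ nu u = nu u' := by
    intro u u' hu hu' ht hmod hpr
    have hd : ∀ p, p ≤ A → pr φ (u.drop p) = pr φ (u'.drop p) := by
      intro p hp
      rw [drop_split u hp hu, drop_split u' hp hu', ht]
      show (((u'.take A).drop p ++ u.drop A).map φ).prod =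
        (((u'.take A).drop p ++ u'.drop A).map φ).prod
      rw [List.map_append, List.map_append, List.prod_append, List.prod_append, hpr]
    have htk : ∀ p, p ≤ A → u.take p = u'.take p := by
      intro p hp
      have := congrArg (fun l => l.take p) ht
      simp only [List.take_take, Nat.min_eq_left hp] at this
      exact this
    refine ⟨by simpa using hd 0 (by omega), ?_⟩
    have h1 : nu1 (u.drop p0) = nu1 (u'.drop p0) := by
      refine (hloc (u.drop p0) (u'.drop p0) ?_ ?_ ?_).2
      · have := congrArg (fun l => l.drop p0) (htk (p0 + b ^ m) (by omega))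
        simp only [List.drop_take, Nat.add_sub_cancel_left] at this
        exact this
      · rw [List.drop_drop, List.drop_drop]
        exact hd _ (by omega)
      · rw [List.length_drop, List.length_drop]
        have h2 : u.length = (u.length - p0) + p0 := by omega
        have h3 : u'.length = (u'.length - p0) + p0 := by omega
        have h4 : (u.length - p0) + p0 ≡ (u'.length - p0) + p0 [MOD (M * b ^ m)] := by
          rw [← h2, ← h3]; exact hmod
        exact Nat.ModEq.add_right_cancel' p0 h4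
    show act (nu2 (u.take p0) 1) (pr φ (u.drop p0)) + nu1 (u.drop p0) =
      act (nu2 (u'.take p0) 1) (pr φ (u'.drop p0)) + nu1 (u'.drop p0)
    rw [h1, hd p0 (by omega), htk p0 (by omega)]
  have hbadc : ∀ u u' : List α, A ≤ u.length → A ≤ u'.length → u.take A = u'.take A →
      u.length % (M * b ^ m) = u'.length % (M * b ^ m) → g.BadX BadT u → g.BadX BadT u' := by
    rintro u u' hu hu' ht hmod (⟨t, h1, h2, h3, h4⟩ | h)
    · left
      have h4 : t < p0 + N1 + q0 + N1 := h4
      refine ⟨t, by omega, ?_, h3, h4⟩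
      have := congrArg (fun l => l.take t) ht
      simp only [List.take_take] at this
      rw [Nat.min_eq_left (by omega)] at this
      rw [← this]
      exact h2
    · right
      refine bad_congr Ms M b m _ _ (fun k hk => (hMs k hk).2.2) ?_ h
      show (u.length - p0) % (M * b ^ m) = (u'.length - p0) % (M * b ^ m)
      have h2 : u.length = (u.length - p0) + p0 := by omega
      have h3 : u'.length = (u'.length - p0) + p0 := by omega
      have h4 : (u.length - p0) + p0 ≡ (u'.length - p0) + p0 [MOD (M * b ^ m)] := by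
        rw [← h2, ← h3]; exact hmod
      exact Nat.ModEq.add_right_cancel' p0 h4
  have hM0 : 0 < M * b ^ m := by positivity
  have hfree' : ∀ u : List α, (∀ t < u.length, ¬ Wo (u.take t)) →
      u ∈ (BddReg_746.PN (max Bw W) 2 : Language α) := by
    intro u hu
    obtain ⟨f, x, v, k, h1, h2, h3, rfl⟩ := hfree u hu
    refine Language.mem_mul.2 ⟨f ++ (List.replicate k x).flatten,
      ⟨f, x, k, h1.trans (le_max_left _ _), h2.trans (le_max_right _ _), rfl⟩, v, ?_, rfl⟩
    refine Language.mem_mul.2 ⟨v, ⟨v, [], 0, h3.trans (le_max_left _ _), by simp, by simp⟩,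
      [], rfl, by simp⟩
  refine Top5_120.top5 act hadd hone hmul hfaith φ nu C Bad hC (fun X hX => hX.1)
    (fun v => {P | g.LP1 pre lam v P}) (fun v => {P | Geo.LP2 K c (fun k P => lam2 k P) v P})
    ?_ ?_ ?_ ?_ ?_ ?_ ?_ s
  · intro v
    refine (List.finite_length_le α (p0 + N1)).subset ?_
    rintro P ⟨h1, h2⟩
    have h3 := hlen' _ _ h2
    have h1 : p0 ≤ P.length := h1
    have h3 : (P.drop p0).length ≤ N1 := h3
    rw [List.length_drop] at h3
    show P.length ≤ p0 + N1
    omega
  · intro v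
    refine (List.finite_length_le α p0).subset ?_
    rintro P ⟨k, hk, h1, _⟩
    show P.length ≤ p0
    have := hcp k hk
    omega
  · intro x y
    have h1 := P4_933.hl_XX (z := p0 + N1 + q0) hLW.app hLW.len hfree'
      (P4_933.regular_of_class' φ A (M * b ^ m) hM0
        (fun X => act x (X.map φ).prod + nu X = y) (by
          intro u u' h1 h2 h3 h4 h5
          obtain ⟨h6, h7⟩ := hcls u u' h1 h2 h3 h4 h5
          rw [h6, h7]))
    refine h1.congr ?_
    intro X
    constructor
    · rintro ⟨⟨h2, h3, h4⟩, h5⟩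
      exact ⟨⟨h3, h2, fun t ht hz => h4 t hz ht⟩, h5⟩
    · rintro ⟨⟨h2, h3, h4⟩, h5⟩
      exact ⟨⟨h3, h2, fun t hz ht => h4 t ht hz⟩, h5⟩
  · intro x y
    have h1 := P4_933.hl_XX (z := p0 + N1 + q0) hLW.app hLW.len hfree'
      (P4_933.regular_of_class' φ A (M * b ^ m) hM0
        (fun X => g.BadX BadT X ∧ act x (X.map φ).prod + nu X = y) (by
          intro u u' h1 h2 h3 h4 h5
          obtain ⟨h6, h7⟩ := hcls u u' h1 h2 h3 h4 h5
          rw [h6, h7]
          constructor
          · rintro ⟨h8, h9⟩; exact ⟨hbadc u u' h1 h2 h3 h4 h8, h9⟩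
          · rintro ⟨h8, h9⟩; exact ⟨hbadc u' u h2 h1 h3.symm h4.symm h8, h9⟩))
    refine h1.congr ?_
    intro X
    constructor
    · rintro ⟨⟨⟨h2, h3, h4⟩, hb⟩, h5⟩
      exact ⟨⟨h3, h2, fun t ht hz => h4 t hz ht⟩, hb, h5⟩
    · rintro ⟨⟨h2, h3, h4⟩, hb, h5⟩
      exact ⟨⟨⟨h3, h2, fun t hz ht => h4 t ht hz⟩, hb⟩, h5⟩
  · intro s
    have h1 := P4_933.hl_NB (z := p0 + N1 + q0) hLW.app hLW.len hfree'
      (P4_933.regular_of_class φ 0 1 one_pos (fun X => (X.map φ).prod = s) (by
          intro u u' _ _ _ _ h5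
          rw [h5]))
    refine h1.congr ?_
    intro w
    constructor
    · rintro ⟨h2, h3⟩
      refine ⟨(P4_933.NB_iff Wo _ w).2 ?_, h3⟩
      rintro P hP ⟨h4, h5, h6⟩
      exact h2 P ⟨h5, h4, fun t hz ht => h6 t ht hz⟩ hP
    · rintro ⟨h2, h3⟩
      refine ⟨?_, h3⟩
      rintro P ⟨h5, h4, h6⟩ hP
      exact (P4_933.NB_iff Wo _ w).1 h2 P hP ⟨h4, h5, fun t ht hz => h6 t hz ht⟩
  · -- hcc1
    intro X hX hXB v
    have hE : ¬ g.E X := fun h => hXB ⟨hX, Or.inl h⟩
    have hB : ¬ BadT (X.length - p0) := fun h => hXB ⟨hX, Or.inr h⟩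
    have hB1 : ¬ ((∃ k ∈ Ms, k ∣ X.length - p0) ∨ ∃ j < m, ¬ (M ≤ (X.length - p0) / b^j % b ∧
      (X.length - p0) / b^j % b + M + 1 ≤ b)) := hB
    push Not at hB1
    obtain ⟨P, Q, v', rfl, hP, hQ⟩ := g.complete1 pre (lam := lam) (rho := rho) hlen' hX hE (by
      intro u
      obtain ⟨P, Q, h1, h2, v', h3⟩ := hcomp (X.drop p0)
        (by intro k hk; rw [List.length_drop]; exact hB1.1 k hk)
        (by
          intro j hj
          rw [List.length_drop]
          have := hB1.2 j hj
          exact ⟨this.1, by omega⟩) u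
      exact ⟨P, Q, h1, h2, by rw [h3]; rfl⟩) v
    refine ⟨P, Q, rfl, hP, ?_⟩
    intro x P' hP'
    obtain ⟨h1, h2⟩ := g.sound1 pre post hlen' hex' hP' hQ
    obtain ⟨_, h4⟩ := g.sound1 pre post hlen' hex' hP hQ
    refine ⟨h1, ?_⟩
    rw [← hT, ← hT, h2, h4]
  · -- hcc2
    rintro X ⟨hX, hXb⟩ Y ⟨hY, _⟩ v
    have hXz : p0 + N1 + q0 ≤ X.length := hX.1
    obtain ⟨P, Q, v', hPQ, hP, hQ⟩ := g.complete2 pre post (BadT := BadT) (K := K) (c := c)
      (lam2 := fun k P => lam2 k P) (rho2 := fun k Q => rho2 k Q 1) (C0 := C0) hcp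
      (by
        intro P Q h1 h2 hne
        have h3 := hgapW (P ++ Q) P.length (P ++ Q).length (by
          have : 0 < Q.length := List.length_pos_iff.2 hne
          rw [List.length_append]; omega) le_rfl
          (by rw [List.take_left]; exact h1) (by rw [List.take_length]; exact h2)
        rw [List.length_append] at h3
        show 2 * p0 + 2 * N1 < Q.length
        omega)
      (by
        intro k k' l l' _ _ _ _ hkk hll h1 h2
        have h1 : c k + c l' < c l + c k' + 2 * N1 := h1
        have h2 : c l + c k' < c k + c l' + 2 * N1 := h2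
        by_contra hne
        have h3 := hcwide k k' l l' (Ne.symm hkk) (Ne.symm hll) (fun h => hne h.1)
        rw [lt_abs] at h3
        push_cast at h3
        omega)
      (by
        intro τ hτ J hJ
        have hτ : p0 + N1 + q0 ≤ τ + p0 := hτ
        have hJ' : ∀ k ∈ J, k < K ∧ ∃ k', k' < K ∧ k' ≠ k ∧ BadT (τ + c k' - c k - p0) := hJ
        have h1 := hspoil (τ - p0)
        choose! f hf using fun k (hk : k ∈ J) => (hJ' k hk).2
        refine le_trans ?_ (h1.trans (by omega))
        refine Finset.card_le_card_of_injOn (fun k => (k, f k)) ?_ ?_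
        · intro k hk
          have hk' : k ∈ J := hk
          obtain ⟨h2, h3, h4⟩ := hf k hk'
          have hkK := (hJ' k hk').1
          have hck := hcp k hkK
          simp only [Finset.coe_filter, Set.mem_setOf_eq, Finset.mem_product, Finset.mem_range]
          refine ⟨⟨hkK, h2⟩, fun h => h3 h.symm, by omega, ?_⟩
          have e : τ - p0 + c (f k) - c k = τ + c (f k) - c k - p0 := by omega
          rw [e]
          exact h4
        · intro k _ k' _ h
          exact congrArg Prod.fst h)
      hX hY v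
      (by
        obtain ⟨I, hI, hI2⟩ := hcomp2 (X.take p0) 1 v (by
          intro k hk
          rw [List.length_take]
          have := hcp k hk
          omega)
        refine ⟨I, hI, ?_⟩
        intro k hk
        obtain ⟨h1, h2, h3⟩ := hI2 k hk
        refine ⟨h1, ?_, h3⟩
        rw [List.take_take, Nat.min_eq_left (hcp k h1)] at h2
        exact h2)
    refine ⟨P, Q, hPQ, hP, ?_⟩
    intro x P' hP'
    obtain ⟨X2, hX2, e2, hv2⟩ := g.sound2 pre post (R := []) (R' := Y) hcp hex2' hX hXb hP hQ
      (by rw [List.append_nil]; exact hPQ)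
    have hYX2 : X2 = Y := by
      have : X ++ X2 = X ++ Y := by rw [← e2, hPQ]
      exact List.append_cancel_left this
    subst hYX2
    obtain ⟨k0, hk0, hPl, hl⟩ := hP'
    have hPlp : P'.length ≤ p0 := by rw [hPl]; exact hcp k0 hk0
    have hend : ∃ l', g.CEnd Q (c k0) l' := by
      obtain ⟨k, hk, l, hend, hgood, _⟩ := hQ
      by_cases h : k0 = k
      · subst h; exact ⟨l, hend⟩
      · obtain ⟨l', h1, _⟩ := hgood k0 hk0 h
        exact ⟨l', h1⟩
    obtain ⟨l', hl'⟩ := hend
    have hX' : g.XX (P' ++ Q.take l') := g.xx_of_cend hPlp (by rw [hPl]; exact hl')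
    by_cases hbad' : g.BadX BadT (P' ++ Q.take l')
    · left
      obtain ⟨X3, hX3, e3, hv3⟩ := g.sound2 pre post (R := []) (R' := Q.drop l') hcp hex2' hX'
        hbad' ⟨k0, hk0, hPl, hl⟩ hQ (by
          rw [List.append_nil, List.append_assoc, List.take_append_drop])
      refine ⟨P' ++ Q.take l', ⟨hX', hbad'⟩, X3, hX3, e3.symm, ?_⟩
      rw [← hT, ← hT, ← hT, ← hT, hv3, hv2]
    · right
      refine ⟨P' ++ Q.take l', hX', fun h => hbad' h.2, Q.drop l', ?_⟩
      rw [List.append_assoc, List.take_append_drop]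

end Crest.Agent.R320.Fin_932
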