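import Mathlib

/-!
Row 320: the two wall schemes on ONE natural chain, left-looking outer walls, all words.
Output: the hypotheses `s1`, `s2`, `cc` of 163's top theorem (#13363), from
* a left-looking wall rule `Wo` of window `n`,
* gadget 1 (`lam`, `rho`, `nu1`) acting on `Y = X.drop p0`, complete when `¬ BadT |Y|`,
* gadget 2 (`lam2 k`, `rho2 k`, `nu2`), places `c k < p0`, acting on `X.take p0`,
* the spoiling bound `hspoil`.
-/

set_option autoImplicit false

namespace Crest.R320.Inst946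

open Classical

variable {α V S : Type*} [AddCommGroup V] [Monoid S]

structure Par (α V S : Type*) where
  φ : List α → S
  act : V → S → V
  Wo : List α → Prop
  n : ℕ
  p0 : ℕ
  q : ℕ
  N1 : ℕ
  lam : List α → Option V
  rho : List α → Option V
  nu1 : List α → V
  BadT : ℕ → Prop
  K : ℕ
  c : ℕ → ℕ
  lam2 : ℕ → List α → Option V
  rho2 : ℕ → List α → Option V
  nu2 : List α → V
  K0 : ℕ

namespace Par

/-- chain step threshold -/
def z (D : Par α V S) : ℕ := D.p0 + D.q + D.N1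

/-- the blocks: from the anchor to the first wall `≥ z` -/
def XX (D : Par α V S) : Set (List α) :=
  {X | D.Wo X ∧ D.z ≤ X.length ∧ ∀ t, D.z ≤ t → t < X.length → ¬ D.Wo (X.take t)}

/-- zone map -/
def T (D : Par α V S) (v : V) (X : List α) : V :=
  D.act (D.act v (D.φ (X.take D.p0)) + D.nu2 (X.take D.p0)) (D.φ (X.drop D.p0)) +
    D.nu1 (X.drop D.p0)

def LP1 (D : Par α V S) (P : List α) (v : V) : Prop :=
  D.p0 ≤ P.length ∧ P.length ≤ D.p0 + D.N1 ∧
    D.lam (P.drop D.p0) = some (D.act v (D.φ (P.take D.p0)) + D.nu2 (P.take D.p0))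

noncomputable def R1 (D : Par α V S) (Q : List α) : Option V :=
  if D.Wo Q ∧ D.q + D.N1 ≤ Q.length ∧ (∀ t, D.q ≤ t → t < Q.length → ¬ D.Wo (Q.take t))
  then D.rho Q else none

def LP2 (D : Par α V S) (P : List α) (v : V) : Prop :=
  ∃ k, k < D.K ∧ P.length = D.c k ∧ D.lam2 k P = some v

/-- `e` is the first wall `≥ s` of `Q` -/
def FE (D : Par α V S) (s : ℕ) (Q : List α) (e : ℕ) : Prop :=
  e ≤ Q.length ∧ s ≤ e ∧ D.Wo (Q.take e) ∧ ∀ t, s ≤ t → t < e → ¬ D.Wo (Q.take t)

/-- seen from the right word `Q`, the anchor at distance `c k` to the left looks bad -/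
def cand (D : Par α V S) (k : ℕ) (Q : List α) : Prop :=
  (∃ t, D.z - D.N1 - D.c k ≤ t ∧ t < D.z + D.N1 - D.c k ∧ t ≤ Q.length ∧ D.Wo (Q.take t)) ∨
  (∃ e, D.FE (D.z - D.c k) Q e ∧ D.BadT (e + D.c k - D.p0))

/-- the block is bad for scheme 1 -/
def BadX (D : Par α V S) (X : List α) : Prop :=
  (∃ t, D.z - D.N1 ≤ t ∧ t < D.z + D.N1 ∧ t ≤ X.length ∧ D.Wo (X.take t)) ∨
  D.BadT (X.length - D.p0)

def R2rel (D : Par α V S) (Q : List α) (b : V) : Prop :=
  ∃ k e y, k < D.K ∧ D.cand k Q ∧ (∀ k', k' < D.K → D.cand k' Q → k' = k) ∧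
    D.FE (D.z - D.c k) Q e ∧ Q.drop e ∈ D.XX ∧ D.rho2 k (Q.take (D.p0 - D.c k)) = some y ∧
    b = D.T (D.act y (D.φ ((Q.take e).drop (D.p0 - D.c k))) +
      D.nu1 ((Q.take e).drop (D.p0 - D.c k))) (Q.drop e)

noncomputable def R2 (D : Par α V S) (Q : List α) : Option V :=
  if h : ∃ b, D.R2rel Q b then some (Classical.choose h) else none

end Par

/-- The hypotheses. -/
structure Ok (D : Par α V S) : Prop where
  wo : ∀ P Q, D.n ≤ Q.length → (D.Wo (P ++ Q) ↔ D.Wo Q)
  nq : D.n ≤ D.q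
  q0 : 0 < D.q
  φ_mul : ∀ u w, D.φ (u ++ w) = D.φ u * D.φ w
  act_mul : ∀ v s s', D.act (D.act v s) s' = D.act v (s * s')
  act_add : ∀ v w s, D.act (v + w) s = D.act v s + D.act w s
  ex1 : ∀ P Q v b, D.lam P = some v → D.rho Q = some b →
    D.act v (D.φ (P ++ Q)) + D.nu1 (P ++ Q) = b
  co1 : ∀ Y : List α, ¬ D.BadT Y.length → D.q + D.N1 + D.N1 ≤ Y.length → ∀ v, ∃ P Q, Y = P ++ Q ∧
    P.length ≤ D.N1 ∧ D.lam P = some v ∧ (D.rho Q).isSome
  c_lt : ∀ k, k < D.K → D.c k < D.p0
  ex2 : ∀ k, k < D.K → ∀ P Q v y, P.length = D.c k → Q.length = D.p0 - D.c k →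
    D.lam2 k P = some v → D.rho2 k Q = some y → D.act v (D.φ (P ++ Q)) + D.nu2 (P ++ Q) = y
  co2 : ∀ X1 : List α, X1.length = D.p0 → ∀ v, ∀ Sp : Finset ℕ, Sp.card ≤ D.K0 →
    ∃ k, k < D.K ∧ k ∉ Sp ∧ D.lam2 k (X1.take (D.c k)) = some v ∧
      (D.rho2 k (X1.drop (D.c k))).isSome
  spoil : ∀ X ∈ D.XX, ∀ X2 ∈ D.XX, D.BadX X →
    ((Finset.range D.K).filter (fun k => ∃ k', k' < D.K ∧ k' ≠ k ∧
      D.cand k' (X.drop (D.c k) ++ X2))).card ≤ D.K0

namespace Ok

variable {D : Par α V S}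

theorem nil_not_mem (h : Ok D) : [] ∉ D.XX := by
  rintro ⟨_, h1, _⟩
  have := h.q0
  simp only [Par.z, List.length_nil] at h1
  omega

theorem z_pos (h : Ok D) : 0 < D.z := by have := h.q0; simp only [Par.z]; omega

theorem prefix_code (h : Ok D) : ∀ X ∈ D.XX, ∀ Y, X ++ Y ∈ D.XX → Y = [] := by
  rintro X ⟨hw, hz, _⟩ Y ⟨_, _, hmin⟩
  by_contra hne
  have hY : 0 < Y.length := List.length_pos_of_ne_nil hne
  refine hmin X.length hz (by rw [List.length_append]; omega) ?_
  rw [List.take_left' rfl]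
  exact hw

/-- the affine form of the zone map -/
theorem hT (h : Ok D) (v : V) (X : List α) :
    D.T v X = D.act v (D.φ X) +
      (D.act (D.nu2 (X.take D.p0)) (D.φ (X.drop D.p0)) + D.nu1 (X.drop D.p0)) := by
  have h1 : D.φ X = D.φ (X.take D.p0) * D.φ (X.drop D.p0) := by
    rw [← h.φ_mul, List.take_append_drop]
  rw [Par.T, h.act_add, h.act_mul, h1, add_assoc]

theorem wo_take (h : Ok D) {P Q : List α} {t : ℕ} (ht : D.n ≤ t) (ht' : t ≤ Q.length) :
    D.Wo ((P ++ Q).take (P.length + t)) ↔ D.Wo (Q.take t) := by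
  have : (P ++ Q).take (P.length + t) = P ++ Q.take t := by
    rw [List.take_append]
    simp [List.take_of_length_le]
  rw [this]
  exact h.wo _ _ (by rw [List.length_take]; omega)

theorem s1 (h : Ok D) : ∀ P v Q b, D.LP1 P v → D.R1 Q = some b →
    P ++ Q ∈ D.XX ∧ D.T v (P ++ Q) = b := by
  rintro P v Q b ⟨hp, hp', hl⟩ hr
  rw [Par.R1] at hr
  split_ifs at hr with hc
  obtain ⟨hw, hlen, hno⟩ := hc
  have hnq := h.nq
  refine ⟨⟨(h.wo P Q (by omega)).2 hw, by rw [List.length_append, Par.z]; omega, ?_⟩, ?_⟩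
  · intro t ht ht' hW
    rw [Par.z] at ht
    rw [List.length_append] at ht'
    obtain ⟨s, rfl⟩ : ∃ s, t = P.length + s := ⟨t - P.length, by omega⟩
    rw [h.wo_take (by omega) (by omega)] at hW
    exact hno s (by omega) (by omega) hW
  · rw [Par.T, List.take_append_of_le_length hp, List.drop_append_of_le_length hp]
    exact h.ex1 _ _ _ _ hl hr

theorem cut1 (h : Ok D) {X : List α} (hX : X ∈ D.XX) (hb : ¬ D.BadX X) (v : V) :
    ∃ P Q, X = P ++ Q ∧ D.LP1 P v ∧ (D.R1 Q).isSome := by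
  obtain ⟨hW, hz, hmin⟩ := hX
  have hnq := h.nq
  have hlong : D.z + D.N1 ≤ X.length := by
    by_contra hlt
    exact hb (Or.inl ⟨X.length, by omega, by omega, le_rfl, by rwa [List.take_length]⟩)
  have hzd : D.z = D.p0 + D.q + D.N1 := rfl
  have hp0 : D.p0 ≤ X.length := by omega
  have hYl : (X.drop D.p0).length = X.length - D.p0 := List.length_drop
  obtain ⟨P', Q, hY, hP', hl, hr⟩ := h.co1 (X.drop D.p0)
    (by rw [hYl]; exact fun hB => hb (Or.inr hB)) (by omega)
    (D.act v (D.φ (X.take D.p0)) + D.nu2 (X.take D.p0))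
  have hPl : (X.take D.p0).length = D.p0 := by rw [List.length_take]; omega
  have hXe : X = (X.take D.p0 ++ P') ++ Q := by
    rw [List.append_assoc, ← hY, List.take_append_drop]
  have hQl : X.length = D.p0 + P'.length + Q.length := by
    conv_lhs => rw [hXe]
    simp only [List.length_append, hPl]
  refine ⟨X.take D.p0 ++ P', Q, hXe, ⟨by rw [List.length_append]; omega,
    by rw [List.length_append]; omega, ?_⟩, ?_⟩
  · rw [List.drop_left' hPl, List.take_left' hPl]
    exact hl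
  · have hcond : D.Wo Q ∧ D.q + D.N1 ≤ Q.length ∧
        (∀ t, D.q ≤ t → t < Q.length → ¬ D.Wo (Q.take t)) := by
      refine ⟨?_, by omega, ?_⟩
      · have := h.wo (X.take D.p0 ++ P') Q (by omega)
        rw [← hXe] at this
        exact this.1 hW
      · intro t ht ht' hWt
        have h2 := h.wo_take (P := X.take D.p0 ++ P') (Q := Q) (t := t) (by omega) (by omega)
        rw [← hXe, List.length_append, hPl] at h2
        have h3 := h2.2 hWt
        by_cases h4 : D.z ≤ D.p0 + P'.length + t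
        · exact hmin _ h4 (by omega) h3
        · exact hb (Or.inl ⟨_, by omega, by omega, by omega, h3⟩)
    rw [Par.R1, if_pos hcond]
    exact hr

theorem FE_unique {s : ℕ} {Q : List α} {e e' : ℕ} (he : D.FE s Q e) (he' : D.FE s Q e') :
    e = e' := by
  rcases lt_trichotomy e e' with hlt | heq | hgt
  · exact absurd he.2.2.1 (he'.2.2.2 e he.2.1 hlt)
  · exact heq
  · exact absurd he'.2.2.1 (he.2.2.2 e' he'.2.1 hgt)

/-- the block of the true anchor -/
theorem block_mem (h : Ok D) {k : ℕ} (hk : k < D.K) {P Q : List α} {e : ℕ}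
    (hP : P.length = D.c k) (he : D.FE (D.z - D.c k) Q e) : P ++ Q.take e ∈ D.XX := by
  obtain ⟨h1, h2, h3, h4⟩ := he
  have hc := h.c_lt k hk
  have hnq := h.nq
  have hzd : D.z = D.p0 + D.q + D.N1 := rfl
  have hl : (Q.take e).length = e := by rw [List.length_take]; omega
  refine ⟨(h.wo _ _ (by omega)).2 h3, by rw [List.length_append]; omega, ?_⟩
  intro t ht ht' hW
  rw [List.length_append, hl] at ht'
  obtain ⟨s, rfl⟩ : ∃ s, t = P.length + s := ⟨t - P.length, by omega⟩
  rw [h.wo_take (by omega) (by omega), List.take_take, min_eq_left (by omega)] at hW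
  exact h4 s (by omega) (by omega) hW

/-- a bad block makes the true candidate bad -/
theorem cand_of_bad (h : Ok D) {k : ℕ} (hk : k < D.K) {P Q : List α} {e : ℕ}
    (hP : P.length = D.c k) (he : D.FE (D.z - D.c k) Q e) (hb : D.BadX (P ++ Q.take e)) :
    D.cand k Q := by
  obtain ⟨h1, h2, h3, h4⟩ := he
  have hc := h.c_lt k hk
  have hnq := h.nq
  have hzd : D.z = D.p0 + D.q + D.N1 := rfl
  have hl : (Q.take e).length = e := by rw [List.length_take]; omega
  rcases hb with ⟨t, ht1, ht2, ht3, ht4⟩ | hB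
  · left
    rw [List.length_append, hl] at ht3
    obtain ⟨s, rfl⟩ : ∃ s, t = P.length + s := ⟨t - P.length, by omega⟩
    rw [h.wo_take (by omega) (by omega), List.take_take, min_eq_left (by omega)] at ht4
    exact ⟨s, by omega, by omega, by omega, ht4⟩
  · right
    refine ⟨e, ⟨h1, h2, h3, h4⟩, ?_⟩
    rw [List.length_append, hl, hP] at hB
    rwa [add_comm e]

theorem R2rel_of_R2 {Q : List α} {b : V} (hr : D.R2 Q = some b) : D.R2rel Q b := by
  rw [Par.R2] at hr
  split_ifs at hr with hh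
  have := Classical.choose_spec hh
  rw [Option.some.inj hr] at this
  exact this

theorem R2_isSome {Q : List α} {b : V} (hr : D.R2rel Q b) : (D.R2 Q).isSome := by
  rw [Par.R2, dif_pos ⟨b, hr⟩]
  rfl

theorem R2_iff {Q : List α} {b : V} : D.R2 Q = some b ↔ D.R2rel Q b := by
  refine ⟨R2rel_of_R2, fun hr => ?_⟩
  obtain ⟨b', hb'⟩ := Option.isSome_iff_exists.1 (R2_isSome hr)
  have hr' := R2rel_of_R2 hb'
  obtain ⟨k, e, y, hk, hc, hu, he, hm, hy, rfl⟩ := hr
  obtain ⟨k', e', y', hk', hc', hu', he', hm', hy', hbe⟩ := hr'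
  obtain rfl : k = k' := hu' k hk hc
  obtain rfl := FE_unique he he'
  rw [hy] at hy'
  obtain rfl := Option.some.inj hy'
  rw [hb', hbe]

theorem s2 (h : Ok D) : ∀ P v Q b, D.LP2 P v → D.R2 Q = some b →
    (∀ X ∈ D.XX, X <+: P ++ Q → ∀ P' Q', X = P' ++ Q' → P.length ≤ P'.length → D.LP1 P' v →
      (D.R1 Q').isSome → False) →
    ∃ Q1 X2, Q = Q1 ++ X2 ∧ Q1 ≠ [] ∧ P ++ Q1 ∈ D.XX ∧ X2 ∈ D.XX ∧
      D.T (D.T v (P ++ Q1)) X2 = b := by
  rintro P v Q b ⟨k, hk, hP, hl⟩ hr hun
  obtain ⟨k', e', y, hk', hc', hu', he', hm', hy, hb⟩ := R2rel_of_R2 hr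
  have hc := h.c_lt k hk
  have hcc := h.c_lt k' hk'
  have hnq := h.nq
  have hq0 := h.q0
  have hzd : D.z = D.p0 + D.q + D.N1 := rfl
  -- the whole of `Q` ends with a wall
  have hWQ : D.Wo Q := by
    have h1 := h.wo (Q.take e') (Q.drop e') (by have := hm'.2.1; omega)
    rw [List.take_append_drop] at h1
    exact h1.2 hm'.1
  have hQl : D.z ≤ Q.length := by
    have h1 := hm'.2.1
    rw [List.length_drop] at h1
    omega
  -- the first wall `≥ z - c k`
  obtain ⟨e, he⟩ : ∃ e, D.FE (D.z - D.c k) Q e := by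
    have hex : ∃ e, D.z - D.c k ≤ e ∧ D.Wo (Q.take e) :=
      ⟨Q.length, by omega, by rwa [List.take_length]⟩
    refine ⟨Nat.find hex, Nat.find_min' hex ⟨by omega, by rwa [List.take_length]⟩,
      (Nat.find_spec hex).1, (Nat.find_spec hex).2, ?_⟩
    intro t ht ht' hW
    exact Nat.find_min hex ht' ⟨ht, hW⟩
  have hmem := h.block_mem hk hP he
  have hbad : D.BadX (P ++ Q.take e) := by
    by_contra hnb
    obtain ⟨P', Q', hX, hL, hR⟩ := h.cut1 hmem hnb v
    refine hun _ hmem ?_ P' Q' hX (by have := hL.1; omega) hL hR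
    exact (List.prefix_append_right_inj P).2 (List.take_prefix e Q)
  have hkk : k = k' := hu' k hk (h.cand_of_bad hk hP he hbad)
  subst hkk
  obtain rfl := FE_unique he he'
  have he1 := he.1
  have he2 := he.2.1
  have hlt : (Q.take e).length = e := by rw [List.length_take]; omega
  refine ⟨Q.take e, Q.drop e, (List.take_append_drop e Q).symm, ?_, hmem, hm', ?_⟩
  · intro h0
    rw [h0, List.length_nil] at hlt
    omega
  · have h1 : (P ++ Q.take e).take D.p0 = P ++ Q.take (D.p0 - D.c k) := by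
      rw [List.take_append, List.take_of_length_le (by omega), List.take_take, hP,
        min_eq_left (by omega)]
    have h2 : (P ++ Q.take e).drop D.p0 = (Q.take e).drop (D.p0 - D.c k) := by
      rw [List.drop_append, List.drop_eq_nil_of_le (by omega), List.nil_append, hP]
    have h3 := h.ex2 k hk P (Q.take (D.p0 - D.c k)) v y hP
      (by rw [List.length_take]; omega) hl hy
    have h4 : D.T v (P ++ Q.take e) = D.act y (D.φ ((Q.take e).drop (D.p0 - D.c k))) +
        D.nu1 ((Q.take e).drop (D.p0 - D.c k)) := by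
      rw [Par.T, h1, h2, h3]
    rw [h4, hb]

theorem cc (h : Ok D) : ∀ X ∈ D.XX, ∀ X2 ∈ D.XX, ∀ v,
    (∃ P Q, X = P ++ Q ∧ D.LP1 P v ∧ (D.R1 Q).isSome) ∨
    (∃ P Q, X ++ X2 = P ++ Q ∧ P.length < X.length ∧ D.LP2 P v ∧ (D.R2 Q).isSome) := by
  intro X hX X2 hX2 v
  by_cases hb : D.BadX X
  · right
    have hnq := h.nq
    have hq0 := h.q0
    have hzd : D.z = D.p0 + D.q + D.N1 := rfl
    have hXl := hX.2.1
    have hX1 : (X.take D.p0).length = D.p0 := by rw [List.length_take]; omega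
    obtain ⟨k, hk, hkS, hl, hr⟩ := h.co2 (X.take D.p0) hX1 v _ (h.spoil X hX X2 hX2 hb)
    have hc := h.c_lt k hk
    have hPl : (X.take (D.c k)).length = D.c k := by rw [List.length_take]; omega
    have hDl : (X.drop (D.c k)).length = X.length - D.c k := List.length_drop
    have htk : (X.drop (D.c k) ++ X2).take (X.length - D.c k) = X.drop (D.c k) :=
      List.take_left' hDl
    have hdk : (X.drop (D.c k) ++ X2).drop (X.length - D.c k) = X2 :=
      List.drop_left' hDl
    have he : D.FE (D.z - D.c k) (X.drop (D.c k) ++ X2) (X.length - D.c k) := by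
      refine ⟨by rw [List.length_append]; omega, by omega, ?_, ?_⟩
      · rw [htk]
        have h1 := h.wo (X.take (D.c k)) (X.drop (D.c k)) (by omega)
        rw [List.take_append_drop] at h1
        exact h1.1 hX.1
      · intro t ht ht' hW
        rw [List.take_append_of_le_length (by omega)] at hW
        have h1 := h.wo_take (P := X.take (D.c k)) (Q := X.drop (D.c k)) (t := t)
          (by omega) (by omega)
        rw [List.take_append_drop, hPl] at h1
        exact hX.2.2 _ (by omega) (by omega) (h1.2 hW)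
    have hblk : X.take (D.c k) ++ (X.drop (D.c k) ++ X2).take (X.length - D.c k) = X := by
      rw [htk, List.take_append_drop]
    have hcand : D.cand k (X.drop (D.c k) ++ X2) :=
      h.cand_of_bad hk hPl he (by rw [hblk]; exact hb)
    obtain ⟨y, hy⟩ := Option.isSome_iff_exists.1 hr
    refine ⟨X.take (D.c k), X.drop (D.c k) ++ X2, ?_, by omega, ⟨k, hk, hPl, ?_⟩,
      R2_isSome ⟨k, X.length - D.c k, y, hk, hcand, ?_, he, by rw [hdk]; exact hX2, ?_, rfl⟩⟩
    · rw [← List.append_assoc, List.take_append_drop]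
    · rw [List.take_take, min_eq_left (by omega)] at hl
      exact hl
    · intro k' hk' hc'
      by_contra hne
      exact hkS (Finset.mem_filter.2 ⟨Finset.mem_range.2 hk, k', hk', hne, hc'⟩)
    · rw [List.take_append_of_le_length (by omega), ← List.drop_take]
      exact hy
  · left
    exact h.cut1 hX hb v

end Ok

end Crest.R320.Inst946
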