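import Crest.Agent.R320.NestInf_163
import Mathlib

set_option autoImplicit false

/-! # P1: top of row 320 (all words, left-looking block code, one token system, two cut levels)

`XX` = code of the zones (blocks), `T v X` = value at the end of the block `X` if the value at its start is
`v`.  Scheme 1: left words `LP1 v`, right words `rq1`, sound on every text.  Scheme 2: left words `LP2 v`,
right words `rq2` = rest of the block and one more block, sound if the text is not cut by scheme 1.
Every block (followed by one more block) is cut by one of the two.  Then every fibre of `φ` has height 3.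
-/

namespace Crest.Agent.R320.Top5_870

open Crest.RegLang Crest.Agent.R320.Hgt1_903 Crest.Agent.R320.Three_427 Crest.Agent.R320.NestInf_163

universe u

variable {α V : Type u}

/-- no prefix is a block -/
def NB (XX : List α → Prop) (w : List α) : Prop := ∀ x y, x ++ y = w → ¬ XX x

open Classical in
/-- state: (proper prefix of the current block, value at its start) -/
noncomputable def stp (XX : List α → Prop) (T : V → List α → V) (q : List α × V) (a : α) :
    List α × V :=
  if XX (q.1 ++ [a]) then ([], T q.2 (q.1 ++ [a])) else (q.1 ++ [a], q.2)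

variable {XX : List α → Prop} {T : V → List α → V}

theorem stp_hit {q : List α × V} {a : α} (h : XX (q.1 ++ [a])) :
    stp XX T q a = ([], T q.2 (q.1 ++ [a])) := by unfold stp; rw [if_pos h]

theorem stp_no {q : List α × V} {a : α} (h : ¬ XX (q.1 ++ [a])) :
    stp XX T q a = (q.1 ++ [a], q.2) := by unfold stp; rw [if_neg h]

theorem NB.pre {w z : List α} (h : NB XX (w ++ z)) : NB XX w := by
  intro x y e hx
  exact h x (y ++ z) (by rw [← List.append_assoc, e]) hx

theorem run_no (w : List α) : ∀ (u : List α) (v : V), NB XX (u ++ w) →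
    run (stp XX T) w (u, v) = (u ++ w, v) := by
  induction w with
  | nil => intro u v _; simp [run]
  | cons a w ih =>
    intro u v h
    have e : u ++ a :: w = (u ++ [a]) ++ w := by simp
    rw [e] at h ⊢
    have h1 : ¬ XX (u ++ [a]) := h _ _ rfl
    change run (stp XX T) w (stp XX T (u, v) a) = _
    rw [stp_no h1]
    exact ih _ _ h

theorem nb_of_proper (hpc : ∀ x y, XX (x ++ y) → XX x → y = []) {x y : List α} (hX : XX (x ++ y))
    (hy : y ≠ []) : NB XX x := by
  intro a b e ha
  have : b ++ y = [] := hpc a (b ++ y) (by rw [← List.append_assoc, e]; exact hX) ha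
  exact hy (List.append_eq_nil_iff.1 this).2

theorem run_blk (hpc : ∀ x y, XX (x ++ y) → XX x → y = []) {u w : List α} {v : V}
    (hX : XX (u ++ w)) (hw : w ≠ []) : run (stp XX T) w (u, v) = ([], T v (u ++ w)) := by
  rcases List.eq_nil_or_concat w with rfl | ⟨w0, a, rfl⟩
  · exact absurd rfl hw
  · simp only [List.concat_eq_append] at hX hw ⊢
    have e : u ++ (w0 ++ [a]) = (u ++ w0) ++ [a] := by rw [List.append_assoc]
    rw [e] at hX ⊢
    rw [Three_427.run_append, run_no w0 u v (nb_of_proper hpc hX (by simp))]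
    change stp XX T (u ++ w0, v) a = _
    rw [stp_hit hX]

theorem run_block (hpc : ∀ x y, XX (x ++ y) → XX x → y = []) (hne : ¬ XX []) {X : List α} {v : V}
    (hX : XX X) : run (stp XX T) X ([], v) = ([], T v X) := by
  have h1 : X ≠ [] := fun h => hne (h ▸ hX)
  have := run_blk (T := T) (u := []) (v := v) hpc (by simpa using hX) h1
  simpa using this

/-- words with at most `k` blocks -/
def Few (XX : List α → Prop) : ℕ → List α → Prop
  | 0, w => NB XX w
  | k + 1, w => NB XX w ∨ ∃ X y, X ++ y = w ∧ XX X ∧ Few XX k y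

theorem nb_nil (hne : ¬ XX []) : NB XX [] := by
  intro x y e hx
  have := (List.append_eq_nil_iff.1 e).1
  exact hne (this ▸ hx)

theorem Few.of_nb {k : ℕ} {w : List α} (h : NB XX w) : Few XX k w := by
  cases k with
  | zero => exact h
  | succ k => exact Or.inl h

theorem Few.pre (hpc : ∀ x y, XX (x ++ y) → XX x → y = []) (hne : ¬ XX []) {k : ℕ} :
    ∀ {x y : List α}, Few XX k (x ++ y) → Few XX k x := by
  induction k with
  | zero => intro x y h; exact NB.pre h
  | succ k ih =>
    intro x y h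
    rcases h with h | ⟨X, z, e, hX, hz⟩
    · exact Or.inl h.pre
    · rcases List.append_eq_append_iff.1 e with ⟨c, h1, h2⟩ | ⟨c, h1, h2⟩
      · -- x = X ++ c, z = c ++ y
        right
        subst h2
        exact ⟨X, c, h1.symm, hX, ih hz⟩
      · -- X = x ++ c
        subst h1
        rcases eq_or_ne c [] with rfl | hc
        · right
          refine ⟨x, [], by simp, by simpa using hX, Few.of_nb (nb_nil hne)⟩
        · exact Or.inl (nb_of_proper hpc hX hc)

/-- words with at most `k` blocks whose run from `([], v)` ends in `G` -/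
def W (XX : List α → Prop) (T : V → List α → V) (G : V → List α → Prop) : ℕ → V → Language α
  | 0, v => {w | NB XX w ∧ G v w}
  | k + 1, v => {w | w ∈ ({w | NB XX w ∧ G v w} : Language α) ∨
      w ∈ ({w | ∃ v1 : V, w ∈ ({w | ∃ X y, X ++ y = w ∧ X ∈ ({X | XX X ∧ T v X = v1} : Language α) ∧
        y ∈ W XX T G k v1} : Language α)} : Language α)}

theorem W_height [Finite V] (h1 : ∀ v v', H 1 ({X | XX X ∧ T v X = v'} : Language α))
    (G : V → List α → Prop) (hG : ∀ v, H 1 ({w | NB XX w ∧ G v w} : Language α)) (k : ℕ) :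
    ∀ v, H 1 (W XX T G k v) := by
  induction k with
  | zero => exact hG
  | succ k ih =>
    intro v
    exact H.union (hG v) (H.exists_fintype _ fun v1 => H.cat (h1 v v1) (ih v1))

theorem W_iff (hpc : ∀ x y, XX (x ++ y) → XX x → y = []) (hne : ¬ XX [])
    (G : V → List α → Prop) (k : ℕ) : ∀ v w, w ∈ W XX T G k v ↔
      Few XX k w ∧ G (run (stp XX T) w ([], v)).2 (run (stp XX T) w ([], v)).1 := by
  induction k with
  | zero =>
    intro v w
    constructor
    · rintro ⟨h, hg⟩
      refine ⟨h, ?_⟩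
      rw [run_no w [] v (by simpa using h)]
      exact hg
    · rintro ⟨h, hg⟩
      have h' : NB XX w := h
      rw [run_no w [] v (by simpa using h')] at hg
      exact ⟨h', hg⟩
  | succ k ih =>
    intro v w
    constructor
    · rintro (⟨h, hg⟩ | ⟨v1, X, y, e, ⟨hX, rfl⟩, hy⟩)
      · refine ⟨Or.inl h, ?_⟩
        rw [run_no w [] v (by simpa using h)]
        exact hg
      · obtain ⟨h3, h4⟩ := (ih _ y).1 hy
        refine ⟨Or.inr ⟨X, y, e, hX, h3⟩, ?_⟩
        rw [← e, Three_427.run_append, run_block hpc hne hX]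
        exact h4
    · rintro ⟨h | ⟨X, y, e, hX, hy⟩, hg⟩
      · rw [run_no w [] v (by simpa using h)] at hg
        exact Or.inl ⟨h, hg⟩
      · rw [← e, Three_427.run_append, run_block hpc hne hX] at hg
        exact Or.inr ⟨T v X, X, y, e, ⟨hX, rfl⟩, (ih _ y).2 ⟨hy, hg⟩⟩

/-- the two cut levels -/
noncomputable def lv [Inhabited V] (LP1 LP2 : V → List α → Prop) (rq1 rq2 : List α → Option V) :
    ℕ → Lvl (List α × V) α
  | 0 => ⟨fun p => LP1 p.2 p.1, fun Q => rq1 Q ≠ none, fun Q => ([], (rq1 Q).getD default)⟩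
  | _ + 1 => ⟨fun p => LP2 p.2 p.1, fun Q => rq2 Q ≠ none, fun Q => ([], (rq2 Q).getD default)⟩

theorem cR [Inhabited V] (rq : List α → Option V) (hr : ∀ b, H 1 ({Q | rq Q = some b} : Language α))
    (ω : List α × V) :
    H 1 ({Q | rq Q ≠ none ∧ (([] : List α), (rq Q).getD default) = ω} : Language α) := by
  obtain ⟨u, v⟩ := ω
  rcases eq_or_ne u [] with rfl | hu
  · refine (hr v).congr fun Q => ?_
    constructor
    · intro h
      have h' : rq Q = some v := h
      refine ⟨by rw [h']; simp, ?_⟩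
      rw [h']; rfl
    · rintro ⟨h, h2⟩
      obtain ⟨b, hb⟩ := Option.ne_none_iff_exists'.1 h
      rw [hb] at h2
      have h3 : b = v := (Prod.mk.inj h2).2
      rw [← h3]
      exact hb
  · refine (H.empty 1).congr fun Q => ?_
    constructor
    · intro h; exact absurd h (by exact id)
    · rintro ⟨_, h2⟩
      exact absurd (Prod.mk.inj h2).1.symm hu

theorem runs_height [Finite V] [Inhabited V]
    (hpc : ∀ x y, XX (x ++ y) → XX x → y = []) (hne : ¬ XX [])
    (h1 : ∀ v v', H 1 ({X | XX X ∧ T v X = v'} : Language α))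
    (LP1 LP2 : V → List α → Prop) (rq1 rq2 : List α → Option V)
    (f1 : ∀ v, {P | LP1 v P}.Finite) (f2 : ∀ v, {P | LP2 v P}.Finite)
    (n1 : ∀ v P, LP1 v P → NB XX P) (n2 : ∀ v P, LP2 v P → NB XX P)
    (r1 : ∀ b, H 1 ({Q | rq1 Q = some b} : Language α))
    (r2 : ∀ b, H 1 ({Q | rq2 Q = some b} : Language α))
    (e1 : rq1 [] = none) (e2 : rq2 [] = none)
    (s1 : ∀ v P Q b, LP1 v P → rq1 Q = some b → XX (P ++ Q) ∧ T v (P ++ Q) = b)
    (s2 : ∀ v P Q b, LP2 v P → rq2 Q = some b →
      (∀ P' Q' y, Q = P' ++ Q' ++ y → NB XX (P ++ P') → LP1 v (P ++ P') → rq1 Q' = none) →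
      ∃ X1 X2, XX X1 ∧ XX X2 ∧ P ++ Q = X1 ++ X2 ∧ T (T v X1) X2 = b)
    (cc : ∀ X1 X2 v, XX X1 → XX X2 →
      (∃ P Q, X1 = P ++ Q ∧ LP1 v P ∧ rq1 Q ≠ none) ∨
      (∃ P Q, X1 ++ X2 = P ++ Q ∧ LP2 v P ∧ rq2 Q ≠ none))
    (G0 : V → List α → Prop) (hG0 : ∀ v, H 1 ({w | NB XX w ∧ G0 v w} : Language α)) (v0 : V) :
    H 3 ({w | G0 (run (stp XX T) w ([], v0)).2 (run (stp XX T) w ([], v0)).1} : Language α) := by
  classical
  set L := lv LP1 LP2 rq1 rq2 with hL
  have hG1 : ∀ v, H 1 ({w | NB XX w ∧ LP1 v w} : Language α) := fun v =>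
    H.finite 1 ((f1 v).subset fun w hw => hw.2)
  have hG2 : ∀ v, H 1 ({w | NB XX w ∧ LP2 v w} : Language α) := fun v =>
    H.finite 1 ((f2 v).subset fun w hw => hw.2)
  have hrq : ∀ rq : List α → Option V, (∀ b, H 1 ({Q | rq Q = some b} : Language α)) →
      H 1 ({Q | rq Q ≠ none} : Language α) := by
    intro rq hr
    refine (H.exists_fintype _ hr).congr fun Q => ?_
    constructor
    · rintro ⟨b, hb⟩
      have hb' : rq Q = some b := hb
      change rq Q ≠ none
      rw [hb']; simp
    · intro h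
      obtain ⟨b, hb⟩ := Option.ne_none_iff_exists'.1 h
      exact ⟨b, hb⟩
  have key := nested_infinite (stp XX T) L 2 1 ([], v0) {p | G0 p.2 p.1} ?_ ?_ ?_ ?_ ?_
  · exact key
  · -- hne
    intro j _ Q hQ hQ0
    subst hQ0
    cases j with
    | zero => exact hQ e1
    | succ j => exact hQ e2
  · -- hfin
    intro j _
    refine (Set.finite_range fun v : V => (([] : List α), v)).subset ?_
    rintro ω ⟨Q, _, rfl⟩
    cases j with
    | zero => exact ⟨_, rfl⟩
    | succ j => exact ⟨_, rfl⟩
  · -- hR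
    intro j _ ω
    cases j with
    | zero => exact cR rq1 r1 ω
    | succ j => exact cR rq2 r2 ω
  · -- hs
    intro i hi p Q hC hQ hl
    obtain ⟨u, v⟩ := p
    have hi' : i = 0 ∨ i = 1 := by omega
    rcases hi' with rfl | rfl
    · have hC' : LP1 v u := hC
      obtain ⟨b, hb⟩ := Option.ne_none_iff_exists'.1 (show rq1 Q ≠ none from hQ)
      obtain ⟨hX, hT⟩ := s1 v u Q b hC' hb
      have hQ0 : Q ≠ [] := by rintro rfl; rw [e1] at hb; exact absurd hb (by simp)
      rw [run_blk hpc hX hQ0, hT]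
      change _ = (([] : List α), (rq1 Q).getD default)
      rw [hb]; rfl
    · have hC' : LP2 v u := hC
      obtain ⟨b, hb⟩ := Option.ne_none_iff_exists'.1 (show rq2 Q ≠ none from hQ)
      obtain ⟨X1, X2, hX1, hX2, e, hT⟩ := s2 v u Q b hC' hb (by
        intro P' Q' y eQ hnb hlp
        by_contra hcon
        refine hl 0 (by omega) P' (Q' ++ y) (by rw [eQ, List.append_assoc]) ?_
        rw [run_no P' u v hnb]
        exact ⟨hlp, Q', y, rfl, hcon⟩)
      have hnu : NB XX u := n2 v u hC'
      rcases List.append_eq_append_iff.1 e with ⟨c, h3, h4⟩ | ⟨c, h3, h4⟩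
      · -- X1 = u ++ c, Q = c ++ X2
        subst h4
        subst h3
        have hc : c ≠ [] := by
          rintro rfl
          exact hnu u [] (by simp) (by simpa using hX1)
        rw [Three_427.run_append, run_blk hpc hX1 hc, run_block hpc hne hX2, hT]
        change _ = (([] : List α), (rq2 (c ++ X2)).getD default)
        rw [hb]; rfl
      · -- u = X1 ++ c
        exact absurd hX1 (hnu X1 c h3.symm)
  · -- hbase
    intro p hp F hF
    have hp' : ∃ v, p = ([], v) := by
      rcases hp with rfl | ⟨j, _, Q, _, rfl⟩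
      · exact ⟨v0, rfl⟩
      · cases j with
        | zero => exact ⟨_, rfl⟩
        | succ j => exact ⟨_, rfl⟩
    obtain ⟨v, rfl⟩ := hp'
    have hF' : ∃ G : V → List α → Prop, (∀ v, H 1 ({w | NB XX w ∧ G v w} : Language α)) ∧
        F = {p | G p.2 p.1} := by
      rcases hF with rfl | ⟨j, hj, rfl⟩
      · exact ⟨G0, hG0, rfl⟩
      · have hj' : j = 0 ∨ j = 1 := by omega
        rcases hj' with rfl | rfl
        · exact ⟨LP1, hG1, rfl⟩
        · exact ⟨LP2, hG2, rfl⟩
    obtain ⟨G, hG, rfl⟩ := hF'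
    have hall : H 1 ({w | w ∈ W XX T G 1 v ∧ w ∈ ({w | w ∈ ({w | ¬ w ∈ ({w | ∃ x y, x ++ y = w ∧
        x ∈ W XX T LP1 1 v ∧ y ∈ ({y | ∃ Q t, Q ++ t = y ∧ Q ∈ ({Q | rq1 Q ≠ none} : Language α) ∧
          t ∈ (⊤ : Language α)} : Language α)} : Language α)} : Language α) ∧
        w ∈ ({w | ¬ w ∈ ({w | ∃ x y, x ++ y = w ∧
        x ∈ W XX T LP2 1 v ∧ y ∈ ({y | ∃ Q t, Q ++ t = y ∧ Q ∈ ({Q | rq2 Q ≠ none} : Language α) ∧
          t ∈ (⊤ : Language α)} : Language α)} : Language α)} : Language α)} : Language α)}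
        : Language α) := by
      refine H.inter (W_height h1 G hG 1 v) (H.inter (H.not (H.cat (W_height h1 LP1 hG1 1 v)
        (H.cat (hrq rq1 r1) (H.univ 1)))) (H.not (H.cat (W_height h1 LP2 hG2 1 v)
        (H.cat (hrq rq2 r2) (H.univ 1)))))
    refine hall.congr fun w => ?_
    constructor
    · rintro ⟨hw, hd1, hd2⟩
      have hw' := (W_iff hpc hne G 1 v w).1 hw
      refine ⟨?_, hw'.2⟩
      intro j hj x y e hu
      have hx : Few XX 1 x := Few.pre hpc hne (y := y) (by rw [e]; exact hw'.1)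
      have hj' : j = 0 ∨ j = 1 := by omega
      rcases hj' with rfl | rfl
      · obtain ⟨hC, Q, t, e', hR⟩ := hu
        exact hd1 ⟨x, y, e, (W_iff hpc hne LP1 1 v x).2 ⟨hx, hC⟩, Q, t, e', hR, trivial⟩
      · obtain ⟨hC, Q, t, e', hR⟩ := hu
        exact hd2 ⟨x, y, e, (W_iff hpc hne LP2 1 v x).2 ⟨hx, hC⟩, Q, t, e', hR, trivial⟩
    · rintro ⟨hl, hF⟩
      have hfew : Few XX 1 w := by
        by_cases hnb : NB XX w
        · exact Or.inl hnb
        · right
          unfold NB at hnb
          push Not at hnb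
          obtain ⟨X, y, e, hX⟩ := hnb
          refine ⟨X, y, e, hX, ?_⟩
          intro X2 y2 e2' hX2
          rcases cc X X2 v hX hX2 with ⟨P, Q, h3, h4, h5⟩ | ⟨P, Q, h3, h4, h5⟩
          · refine hl 0 (by omega) P (Q ++ y) (by rw [← List.append_assoc, ← h3, e]) ?_
            rw [run_no P [] v (by simpa using n1 v P h4)]
            exact ⟨h4, Q, y, rfl, h5⟩
          · refine hl 1 (by omega) P (Q ++ y2) (by
              rw [← List.append_assoc, ← h3, List.append_assoc, e2', e]) ?_
            rw [run_no P [] v (by simpa using n2 v P h4)]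
            exact ⟨h4, Q, y2, rfl, h5⟩
      refine ⟨(W_iff hpc hne G 1 v w).2 ⟨hfew, hF⟩, ?_, ?_⟩
      · rintro ⟨x, y, e, hx, Q, t, e', hR, _⟩
        refine hl 0 (by omega) x y e ?_
        exact ⟨((W_iff hpc hne LP1 1 v x).1 hx).2, Q, t, e', hR⟩
      · rintro ⟨x, y, e, hx, Q, t, e', hR, _⟩
        refine hl 1 (by omega) x y e ?_
        exact ⟨((W_iff hpc hne LP2 1 v x).1 hx).2, Q, t, e', hR⟩

/-! ## Read-off and the final theorem -/

section readoff

variable {S : Type u} [Monoid S]

theorem readoff [AddCommGroup V] (φ : List α → S) (hφ : ∀ x y, φ (x ++ y) = φ x * φ y)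
    (hφ1 : φ [] = 1)
    (act : V → S → V) (act_one : ∀ v, act v 1 = v) (act_mul : ∀ v g h, act v (g * h) = act (act v g) h)
    (hT : ∀ v v' X, T v X - T v' X = act (v - v') (φ X)) (w : List α) :
    ∃ w1, w1 ++ (run (stp XX T) w ([], (0 : V))).1 = w ∧
      (∀ v v', (run (stp XX T) w ([], v)).1 = (run (stp XX T) w ([], v')).1 ∧
        (run (stp XX T) w ([], v)).2 - (run (stp XX T) w ([], v')).2 = act (v - v') (φ w1)) := by
  induction w using List.reverseRecOn with
  | nil => exact ⟨[], rfl, fun v v' => ⟨rfl, by rw [hφ1, act_one]; rfl⟩⟩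
  | append_singleton w a ih =>
    obtain ⟨w1, h1, h2⟩ := ih
    simp only [Three_427.run_append]
    set r := (run (stp XX T) w ([], (0 : V))).1 with hr
    have h3 : ∀ v, run (stp XX T) w ([], v) = (r, (run (stp XX T) w ([], v)).2) := by
      intro v
      rw [hr, ← (h2 v 0).1]
    by_cases hx : XX (r ++ [a])
    · have h4 : ∀ v, run (stp XX T) [a] (run (stp XX T) w ([], v)) =
          ([], T (run (stp XX T) w ([], v)).2 (r ++ [a])) := by
        intro v
        rw [h3 v]
        exact stp_hit (q := (r, (run (stp XX T) w ([], v)).2)) hx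
      refine ⟨w1 ++ (r ++ [a]), ?_, ?_⟩
      · rw [h4, List.append_nil, ← List.append_assoc, h1]
      · intro v v'
        rw [h4, h4]
        refine ⟨rfl, ?_⟩
        change T _ _ - T _ _ = _
        rw [hT, (h2 v v').2, ← act_mul, ← hφ]
    · have h4 : ∀ v, run (stp XX T) [a] (run (stp XX T) w ([], v)) =
          (r ++ [a], (run (stp XX T) w ([], v)).2) := by
        intro v
        rw [h3 v]
        exact stp_no (q := (r, (run (stp XX T) w ([], v)).2)) hx
      refine ⟨w1, ?_, ?_⟩
      · rw [h4]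
        change w1 ++ (r ++ [a]) = _
        rw [← List.append_assoc, h1]
      · intro v v'
        rw [h4, h4]
        exact ⟨rfl, (h2 v v').2⟩

/-- **P1 TOP** -/
theorem top [Finite S] [AddCommGroup V] [Finite V]
    (φ : List α → S) (hφ : ∀ x y, φ (x ++ y) = φ x * φ y) (hφ1 : φ [] = 1)
    (act : V → S → V) (act_one : ∀ v, act v 1 = v) (act_mul : ∀ v g h, act v (g * h) = act (act v g) h)
    (faithful : ∀ g h, (∀ v, act v g = act v h) → g = h)
    (hpc : ∀ x y, XX (x ++ y) → XX x → y = []) (hne : ¬ XX [])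
    (h1 : ∀ v v', H 1 ({X | XX X ∧ T v X = v'} : Language α))
    (h2 : ∀ g, H 1 ({u | NB XX u ∧ φ u = g} : Language α))
    (hT : ∀ v v' X, T v X - T v' X = act (v - v') (φ X))
    (LP1 LP2 : V → List α → Prop) (rq1 rq2 : List α → Option V)
    (f1 : ∀ v, {P | LP1 v P}.Finite) (f2 : ∀ v, {P | LP2 v P}.Finite)
    (n1 : ∀ v P, LP1 v P → NB XX P) (n2 : ∀ v P, LP2 v P → NB XX P)
    (r1 : ∀ b, H 1 ({Q | rq1 Q = some b} : Language α))
    (r2 : ∀ b, H 1 ({Q | rq2 Q = some b} : Language α))
    (e1 : rq1 [] = none) (e2 : rq2 [] = none)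
    (s1 : ∀ v P Q b, LP1 v P → rq1 Q = some b → XX (P ++ Q) ∧ T v (P ++ Q) = b)
    (s2 : ∀ v P Q b, LP2 v P → rq2 Q = some b →
      (∀ P' Q' y, Q = P' ++ Q' ++ y → NB XX (P ++ P') → LP1 v (P ++ P') → rq1 Q' = none) →
      ∃ X1 X2, XX X1 ∧ XX X2 ∧ P ++ Q = X1 ++ X2 ∧ T (T v X1) X2 = b)
    (cc : ∀ X1 X2 v, XX X1 → XX X2 →
      (∃ P Q, X1 = P ++ Q ∧ LP1 v P ∧ rq1 Q ≠ none) ∨
      (∃ P Q, X1 ++ X2 = P ++ Q ∧ LP2 v P ∧ rq2 Q ≠ none)) (s : S) :
    H 3 ({w | φ w = s} : Language α) := by
  classical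
  let _ : Inhabited V := ⟨0⟩
  have hrun : ∀ (v v1 : V) (g : S),
      H 3 ({w | (run (stp XX T) w ([], v)).2 = v1 ∧ φ (run (stp XX T) w ([], v)).1 = g}
        : Language α) := by
    intro v v1 g
    have hG0 : ∀ v', H 1 ({w | NB XX w ∧ (v' = v1 ∧ φ w = g)} : Language α) := by
      intro v'
      refine (H.inter (H.const 1 (v' = v1)) (h2 g)).congr fun w => ?_
      constructor
      · rintro ⟨ha, hb, hc⟩; exact ⟨hb, ha, hc⟩
      · rintro ⟨hb, ha, hc⟩; exact ⟨ha, hb, hc⟩
    exact runs_height hpc hne h1 LP1 LP2 rq1 rq2 f1 f2 n1 n2 r1 r2 e1 e2 s1 s2 cc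
      (fun v' w => v' = v1 ∧ φ w = g) hG0 v
  let good : (V → V) → S → Prop := fun f g => ∀ h, (∀ v, act v h = f v - f 0) → h * g = s
  let X : (V → V) → S → Language α := fun f g =>
    ({w | good f g ∧ w ∈ ({w | ∀ v : V, w ∈ ({w | (run (stp XX T) w ([], v)).2 = f v ∧
      φ (run (stp XX T) w ([], v)).1 = g} : Language α)} : Language α)} : Language α)
  have hX : ∀ f g, H 3 (X f g) := fun f g =>
    H.inter (H.const 3 (good f g)) (H.forall_fintype _ fun v => hrun v (f v) g)
  refine (H.exists_fintype (fun g : S => ({w | ∃ f : V → V, w ∈ X f g} : Language α))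
    fun g => H.exists_fintype _ fun f => hX f g).congr fun w => ?_
  obtain ⟨w1, ha, hb⟩ := readoff (XX := XX) (T := T) φ hφ hφ1 act act_one act_mul hT w
  constructor
  · rintro ⟨g, f, hg, hf⟩
    have hf' : ∀ v : V, (run (stp XX T) w ([], v)).2 = f v ∧
      φ (run (stp XX T) w ([], v)).1 = g := fun v => hf v
    have h3 : φ w1 * g = s := by
      refine hg (φ w1) fun v => ?_
      have := (hb v 0).2
      rw [sub_zero, (hf' v).1, (hf' 0).1] at this
      exact this.symm
    change φ w = s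
    rw [← ha, hφ, (hf' 0).2]
    exact h3
  · intro hs
    have hs' : φ w = s := hs
    refine ⟨φ (run (stp XX T) w ([], (0 : V))).1, fun v => (run (stp XX T) w ([], v)).2, ?_, ?_⟩
    · intro g hg
      have : g = φ w1 := by
        refine faithful g _ fun v => ?_
        have h3 := (hb v 0).2
        rw [sub_zero] at h3
        rw [hg v, h3]
      rw [this, ← hφ, ha]
      exact hs'
    · intro v
      exact ⟨rfl, by rw [(hb v 0).1]⟩

end readoff

end Crest.Agent.R320.Top5_870
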