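import Crest.Agent.R320.P4b_933
import Crest.Agent.R320.Inst_946
import Crest.Agent.R320.Top5_870

/-!
# Row 320 (helper933): joint of `Inst946.Ok`, `Top5_870.top` and `P4_933`
-/

set_option autoImplicit false

namespace Crest.Agent.R320.Fin_933

open Crest.RegLang Crest.Agent.R320.Hk_851 Crest.Agent.R320.BddReg_746 Crest.Agent.R320.P4_933
open Crest.R320.Inst946

universe u

variable {α V S : Type u} [AddCommGroup V] [Monoid S]

/-- finite-state data of the gadget -/
structure Fs (D : Par α V S) (f : α → S) (A M0 : ℕ) : Prop where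
  M0pos : 0 < M0
  rho : ∀ Q Q' : List α, A ≤ Q.length → A ≤ Q'.length → Q.take A = Q'.take A →
    Q.length % M0 = Q'.length % M0 → ((Q.drop A).map f).prod = ((Q'.drop A).map f).prod →
    D.rho Q = D.rho Q'
  nu : ∀ Q Q' : List α, A ≤ Q.length → A ≤ Q'.length → Q.take A = Q'.take A →
    Q.length % M0 = Q'.length % M0 → ((Q.drop A).map f).prod = ((Q'.drop A).map f).prod →
    D.nu1 Q = D.nu1 Q'
  bad : ∀ n, D.BadT (n + M0) ↔ D.BadT n

section

variable {D : Par α V S} {f : α → S} {A M0 : ℕ}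

theorem Fs.bad_mul (h : Fs D f A M0) (n k : ℕ) : D.BadT (n + M0 * k) ↔ D.BadT n := by
  induction k with
  | zero => simp
  | succ k ih => rw [Nat.mul_succ, ← Nat.add_assoc, h.bad, ih]

theorem Fs.bad_mod (h : Fs D f A M0) {n n' : ℕ} (e : n % M0 = n' % M0) :
    D.BadT n ↔ D.BadT n' := by
  have h1 := h.bad_mul (n % M0) (n / M0)
  have h2 := h.bad_mul (n' % M0) (n' / M0)
  rw [Nat.mod_add_div] at h1 h2
  rw [h1, h2, e]

theorem sub_mod_eq {a b c M : ℕ} (ha : c ≤ a) (hb : c ≤ b) (h : a % M = b % M) :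
    (a - c) % M = (b - c) % M := by
  have h1 : a ≡ b [MOD M] := h
  have h2 : a - c + c ≡ b - c + c [MOD M] := by
    rw [Nat.sub_add_cancel ha, Nat.sub_add_cancel hb]; exact h1
  exact Nat.ModEq.add_right_cancel' c h2

/-- shifted equality data -/
theorem shift {B : ℕ} {u u' : List α} (h1 : B + A ≤ u.length) (h2 : B + A ≤ u'.length)
    (h3 : u.take (B + A) = u'.take (B + A)) (h4 : u.length % M0 = u'.length % M0)
    (h5 : ((u.drop (B + A)).map f).prod = ((u'.drop (B + A)).map f).prod) :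
    u.take B = u'.take B ∧ A ≤ (u.drop B).length ∧ A ≤ (u'.drop B).length ∧
      (u.drop B).take A = (u'.drop B).take A ∧
      (u.drop B).length % M0 = (u'.drop B).length % M0 ∧
      (((u.drop B).drop A).map f).prod = (((u'.drop B).drop A).map f).prod ∧
      ((u.drop B).map f).prod = ((u'.drop B).map f).prod := by
  have e1 : u.take B = u'.take B := by
    have := congrArg (List.take B) h3
    rwa [List.take_take, List.take_take, min_eq_left (by omega)] at this
  have e2 : (u.drop B).take A = (u'.drop B).take A := by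
    have := congrArg (List.drop B) h3
    rwa [List.drop_take, List.drop_take, Nat.add_sub_cancel_left] at this
  have e3 : (((u.drop B).drop A).map f).prod = (((u'.drop B).drop A).map f).prod := by
    rw [List.drop_drop, List.drop_drop]; exact h5
  refine ⟨e1, by rw [List.length_drop]; omega, by rw [List.length_drop]; omega, e2, ?_, e3, ?_⟩
  · rw [List.length_drop, List.length_drop]
    exact sub_mod_eq (by omega) (by omega) h4
  · have k1 := List.take_append_drop A (u.drop B)
    have k2 := List.take_append_drop A (u'.drop B)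
    rw [← k1, ← k2, List.map_append, List.map_append, List.prod_append, List.prod_append, e2, e3]

theorem T_eq (hfs : Fs D f A M0) (hφ : D.φ = fun w => (w.map f).prod) {v : V} {u u' : List α}
    (h1 : D.p0 + A ≤ u.length) (h2 : D.p0 + A ≤ u'.length)
    (h3 : u.take (D.p0 + A) = u'.take (D.p0 + A)) (h4 : u.length % M0 = u'.length % M0)
    (h5 : ((u.drop (D.p0 + A)).map f).prod = ((u'.drop (D.p0 + A)).map f).prod) :
    D.T v u = D.T v u' := by
  obtain ⟨a1, a2, a3, a4, a5, a6, a7⟩ := shift h1 h2 h3 h4 h5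
  have hn := hfs.nu _ _ a2 a3 a4 a5 a6
  simp only [Par.T, hφ, a1, a7, hn]

theorem reg_T [Finite α] [Finite S] (hfs : Fs D f A M0) (hφ : D.φ = fun w => (w.map f).prod)
    (v v' : V) : Language.IsRegular ({X | D.T v X = v'} : Language α) :=
  regular_of_class' f (D.p0 + A) M0 hfs.M0pos _ fun u u' h1 h2 h3 h4 h5 => by
    rw [T_eq hfs hφ h1 h2 h3 h4 h5]

theorem reg_phi [Finite α] [Finite S] (hφ : D.φ = fun w => (w.map f).prod) (g : S) :
    Language.IsRegular ({X | D.φ X = g} : Language α) :=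
  regular_of_class' f 0 1 one_pos _ fun u u' _ _ _ _ h5 => by
    rw [List.drop_zero, List.drop_zero] at h5
    simp only [hφ, h5]

/-- hypotheses on the walls -/
structure Wl (D : Par α V S) (B R : ℕ) : Prop where
  loc : ∀ P Q : List α, D.n ≤ Q.length → (D.Wo (P ++ Q) ↔ D.Wo Q)
  len : ∀ P, D.Wo P → D.n ≤ P.length
  free : ∀ u : List α, (∀ t < u.length, ¬ D.Wo (u.take t)) → u ∈ (PN B R : Language α)

variable {B R : ℕ}

theorem mem_XX (X : List α) : X ∈ D.XX ↔ P4_933.XX D.Wo D.z X := by
  constructor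
  · rintro ⟨h1, h2, h3⟩; exact ⟨h1, h2, fun t ht hz => h3 t hz ht⟩
  · rintro ⟨h1, h2, h3⟩; exact ⟨h1, h2, fun t hz ht => h3 t ht hz⟩

/-- first wall `≥ s` at the end, with a regular property -/
theorem hl_FE [Finite α] (hw : Wl D B R) (s : ℕ) {p : List α → Prop}
    (hp : Language.IsRegular ({u | p u} : Language α)) :
    HL 1 ({P | D.FE s P P.length ∧ p P} : Language α) := by
  refine (hl_XX (z := s) hw.loc hw.len hw.free hp).congr fun w => ?_
  constructor
  · rintro ⟨⟨_, h2, h3, h4⟩, h5⟩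
    rw [List.take_length] at h3
    exact ⟨⟨h3, h2, fun t ht hs => h4 t hs ht⟩, h5⟩
  · rintro ⟨⟨h1, h2, h3⟩, h5⟩
    exact ⟨⟨le_rfl, h2, by rw [List.take_length]; exact h1, fun t hs ht => h3 t ht hs⟩, h5⟩

theorem reg_len [Finite α] [Finite S] (hfs : Fs D f A M0) (c p : ℕ) :
    Language.IsRegular ({u : List α | D.BadT (u.length + c - p)} : Language α) := by
  refine regular_of_class' f p M0 hfs.M0pos _ fun u u' h1 h2 _ h4 _ => ?_
  refine hfs.bad_mod (sub_mod_eq (by omega) (by omega) ?_)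
  exact Nat.ModEq.add_right c h4

/-- a wall at a given place -/
theorem hl_at [Finite α] (t : ℕ) {k : ℕ} :
    HL k ({Q | t ≤ Q.length ∧ D.Wo (Q.take t)} : Language α) := by
  have hfin : {P : List α | P.length = t ∧ D.Wo P}.Finite :=
    (List.finite_length_eq α t).subset fun Q hQ => hQ.1
  refine ((HL.finite (k := k) hfin).mul HL.top).congr fun w => ?_
  constructor
  · rintro ⟨h1, h2⟩
    refine Language.mem_mul.2 ⟨w.take t, ⟨?_, h2⟩, w.drop t, trivial, List.take_append_drop _ _⟩
    rw [List.length_take]; omega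
  · intro h
    obtain ⟨P, ⟨h1, h2⟩, Q, -, rfl⟩ := Language.mem_mul.1 h
    refine ⟨by simp; omega, ?_⟩
    rw [← h1, List.take_left]; exact h2

theorem hl_cand [Finite α] [Finite S] (hfs : Fs D f A M0) (hw : Wl D B R) (k : ℕ) :
    HL 1 ({Q | D.cand k Q} : Language α) := by
  have h1 : HL 1 ({Q | ∃ t ∈ {t : ℕ | D.z - D.N1 - D.c k ≤ t ∧ t < D.z + D.N1 - D.c k},
      Q ∈ ({Q | t ≤ Q.length ∧ D.Wo (Q.take t)} : Language α)} : Language α) :=
    HL.biUnion ((Set.finite_lt_nat (D.z + D.N1 - D.c k)).subset fun t ht => ht.2)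
      fun t _ => hl_at t
  have h2 := (hl_FE hw (D.z - D.c k) (reg_len hfs (D.c k) D.p0)).mul (HL.top (k := 1))
  refine (h1.add h2).congr fun Q => ?_
  constructor
  · rintro (⟨t, a1, a2, a3, a4⟩ | ⟨e, ⟨a1, a2, a3, a4⟩, a5⟩)
    · exact Or.inl ⟨t, ⟨a1, a2⟩, a3, a4⟩
    · right
      have hl : (Q.take e).length = e := by rw [List.length_take]; omega
      refine Language.mem_mul.2 ⟨Q.take e, ⟨⟨le_rfl, by rw [hl]; exact a2, ?_, ?_⟩, ?_⟩, Q.drop e,
        trivial, List.take_append_drop _ _⟩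
      · rw [List.take_length]; exact a3
      · intro t ht ht'
        rw [hl] at ht'
        rw [List.take_take, min_eq_left (by omega)]
        exact a4 t ht ht'
      · show D.BadT ((Q.take e).length + D.c k - D.p0)
        rw [hl]; exact a5
  · rintro (⟨t, ⟨a1, a2⟩, a3, a4⟩ | h)
    · exact Or.inl ⟨t, a1, a2, a3, a4⟩
    · right
      obtain ⟨P, ⟨⟨-, b2, b3, b4⟩, b5⟩, Q', -, rfl⟩ := Language.mem_mul.1 h
      refine ⟨P.length, ⟨by simp, b2, ?_, ?_⟩, b5⟩
      · rw [List.take_left]; rw [List.take_length] at b3; exact b3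
      · intro t ht ht'
        rw [List.take_append_of_le_length ht'.le]
        exact b4 t ht ht'

end

end Crest.Agent.R320.Fin_933
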