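import Crest.Agent.R320.Box_94
import Crest.Agent.R320.Top5_120
import Crest.Agent.R320.Sc2n_937
import Crest.Agent.R320.ExactR_237
import Crest.Agent.R320.WallU_228
import Crest.Agent.R320.P4nat_976
import Crest.Agent.R320.P4_933
import Crest.Agent.R320.Univ_582

/-!
# Row 320: final assembly (helper94)
-/

set_option autoImplicit false

namespace Crest.Agent.R320.Fin_94

open Crest.RegLang Crest.Agent.R320.Hk_851 Crest.Agent.R320.Blk467
open Crest.Agent.R320.BddReg_746

/-- walls, with everything used below -/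
theorem walls (α : Type) [Finite α] (W : ℕ) :
    ∃ (n : ℕ) (Wo : List α → Prop),
      (∀ P Q : List α, n ≤ Q.length → (Wo (P ++ Q) ↔ Wo Q)) ∧
      (∀ P : List α, Wo P → n ≤ P.length) ∧
      (∀ P Q : List α, Wo P → Wo (P ++ Q) → Q ≠ [] → W < Q.length) ∧
      ∃ R B : ℕ, ∀ u : List α, (∀ t < u.length, ¬ Wo (u.take t)) →
        u ∈ (PN B R : Language α) := by
  obtain ⟨n, Wo, h1, h2, h3, R, B, h4⟩ := Crest.Agent.R320.WallU_228.walls (α := α) W
  refine ⟨n, Wo, h1, h2, ?_, R, B, ?_⟩
  · intro P Q hP hPQ hQ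
    by_contra hle
    have hl : 0 < Q.length := List.length_pos_iff.2 hQ
    refine h3 (P ++ Q) Q.length hPQ hl (by omega) ?_
    rw [List.length_append, Nat.add_sub_cancel, List.take_left]
    exact hP
  · intro u hu
    obtain ⟨l, a, b, e⟩ := h4 u hu
    rw [e]
    exact Crest.Agent.R320.FewVal_228.val_mem_PN B l b R a

theorem fin (α : Type) [Finite α] (S : Type) [Monoid S] [Finite S] (φ : α → S) (s : S) :
    HL 3 ({w | (w.map φ).prod = s} : Language α) := by
  classical
  haveI := Fintype.ofFinite S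
  obtain ⟨act, hadd, hone, hmul, hfaith⟩ := exists_module S
  haveI : Finite (S → ZMod 2) := inferInstance
  haveI := Fintype.ofFinite (S → ZMod 2)
  obtain ⟨C0, hbox⟩ := Crest.Agent.R320.Box_94.box S (S → ZMod 2) act
  obtain ⟨K, hK⟩ := Crest.Agent.R320.ExactR_237.exact_gadget α S (S → ZMod 2) φ act (2 * C0 + 2)
  obtain ⟨N1, La, M0, c, BadT, hN1, hM0, hcs, hsp, hper, hthin, hg⟩ := hbox K
  obtain ⟨lam, rho, nu1, g1, g2, g3, g4⟩ := hg α φ
  obtain ⟨lam2, rho2', nu2', x1, x2⟩ := hK c (fun i j h _ => hcs i j h)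
  set p0 := c K with hp0
  have hcp : ∀ k, k < K → c k ≤ p0 := fun k hk => (hcs k K hk).le
  obtain ⟨n, Wo, loc, len, gap, R, B, free⟩ := walls α (2 * p0 + 2 * N1)
  let g : Crest.Agent.R320.Sc2n_937.Geo α :=
    { Wo := Wo, n := n, z := p0 + N1 + (n + p0 + La), p0 := p0, q0 := n + p0 + La, N1 := N1,
      loc := loc, hz := rfl, hq := by omega, hN := hN1, hqp := by omega }
  set z := p0 + N1 + (n + p0 + La) with hz
  set pre : List α → (S → ZMod 2) → (S → ZMod 2) :=
    fun X v => act v (X.map φ).prod + nu2' X 1 with hpre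
  set post : (S → ZMod 2) → List α → (S → ZMod 2) :=
    fun v Y => act v (Y.map φ).prod + nu1 Y with hpost
  set nu : List α → (S → ZMod 2) :=
    fun X => act (nu2' (X.take p0) 1) ((X.drop p0).map φ).prod + nu1 (X.drop p0) with hnu
  have hT : ∀ v X, g.T pre post v X = act v (X.map φ).prod + nu X := by
    intro v X
    show act (act v ((X.take p0).map φ).prod + nu2' (X.take p0) 1) ((X.drop p0).map φ).prod +
      nu1 (X.drop p0) = _
    rw [hadd, ← hmul, ← List.prod_append, ← List.map_append, List.take_append_drop, add_assoc]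
  have hpr : ∀ w : List α, Crest.Agent.R320.ExactR_237.pr φ w = (w.map φ).prod := by
    intro w; rfl
  have hlw : Crest.Agent.R320.P4nat_976.LW Wo n := ⟨loc, len⟩
  have hfew : ∀ X : List α, (∀ t, z ≤ t → t < X.length → ¬ Wo (X.take t)) →
      X ∈ (PN (max B z) (R + 1) : Language α) := fun X hX =>
    Crest.Agent.R320.P4_933.bdd_of_free loc len free (fun t ht hzt => hX t hzt ht)
  have hXX : ∀ X, g.XX X ↔ X ∈ Crest.Agent.R320.P4nat_976.XX Wo z := fun X => Iff.rfl
  have sound : ∀ k, k < K → ∀ P Q v u, P.length = c k → Q.length = g.p0 - c k →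
      lam2 k P = some v → (fun k Q => rho2' k Q 1) k Q = some u → u = pre (P ++ Q) v := by
    intro k hk P Q v u hP hQ h1 h2
    have := x1 k hk P Q 1 v u hP h1 h2
    rw [hpr, mul_one] at this
    exact this
  have hCT : ∀ x y, HL 1 ({X | X ∈ {X | g.XX X} ∧ act x (X.map φ).prod + nu X = y} :
      Language α) := by
    intro x y
    have hreg : ∀ y, (Crest.Agent.R320.P4nat_976.lg fun Y => nu1 Y = y).IsRegular := by
      intro y
      refine Crest.Agent.R320.P4_933.regular_of_class φ La M0 hM0 (fun Y => nu1 Y = y) ?_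
      intro u u' h1 h2 h3 h4 h5
      rw [g4 u u' h1 h2 h3 h4 h5]
    have h := Crest.Agent.R320.P4nat_976.HL_T hlw (z := z) (p0 := p0) (by omega) hfew φ act
      (fun X => nu2' X 1) nu1 hreg x y
    refine h.congr fun X => ?_
    constructor
    · rintro ⟨h1, h2⟩
      exact ⟨h1, by rw [← hT] at h2; exact h2⟩
    · rintro ⟨h1, h2⟩
      exact ⟨h1, by rw [← hT]; exact h2⟩
  have hBad : HL 1 ({X | g.XX X ∧ g.BadX BadT X} : Language α) := by
    have hE : (Crest.Agent.R320.P4nat_976.lg fun X : List α => ∃ t, t ≤ X.length ∧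
        Wo (X.take t) ∧ z ≤ t + N1 ∧ t < z + N1).IsRegular := by
      have e : (Crest.Agent.R320.P4nat_976.lg fun X : List α => ∃ t, t ≤ X.length ∧
        Wo (X.take t) ∧ z ≤ t + N1 ∧ t < z + N1) =
        (Crest.Agent.R320.P4nat_976.lg fun X : List α => ∃ A B, (Wo A ∧ z ≤ A.length + N1 ∧
          A.length < z + N1) ∧ True ∧ X = A ++ B) := by
        refine Crest.Agent.R320.P4nat_976.lg_congr fun X => ?_
        constructor
        · rintro ⟨t, h1, h2, h3, h4⟩
          refine ⟨X.take t, X.drop t, ⟨h2, ?_, ?_⟩, trivial, (List.take_append_drop t X).symm⟩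
          · rw [List.length_take]; omega
          · rw [List.length_take]; omega
        · rintro ⟨A, B, ⟨h1, h2, h3⟩, -, rfl⟩
          exact ⟨A.length, by rw [List.length_append]; omega, by rw [List.take_left]; exact h1,
            h2, h3⟩
      rw [e]
      refine Crest.Agent.R320.P4nat_976.reg_mul ?_ Crest.Agent.R320.P4nat_976.reg_true
      refine Crest.Agent.R320.P4nat_976.reg_finite
        ((List.finite_length_lt α (z + N1)).subset fun w hw => hw.2.2)
    have hB : (Crest.Agent.R320.P4nat_976.lg fun X : List α => BadT (X.length - p0)).IsRegular := by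
      refine Crest.Agent.R320.P4_933.regular_of_class φ (La + p0) M0 hM0
        (fun Y => BadT (Y.length - p0)) ?_
      intro u u' h1 h2 h3 h4 h5
      refine hper _ _ (by omega) (by omega) ?_
      have h6 : u.length - p0 + p0 ≡ u'.length - p0 + p0 [MOD M0] := by
        rw [Nat.sub_add_cancel (by omega), Nat.sub_add_cancel (by omega)]
        exact h4
      exact Nat.ModEq.add_right_cancel' p0 h6
    have h := Crest.Agent.R320.P4nat_976.HL_XX hlw hfew
      (Crest.Agent.R320.P4nat_976.reg_or hE hB)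
    exact h.congr fun X => Iff.rfl
  refine Crest.Agent.R320.Top5_120.top5 act hadd hone hmul hfaith φ nu {X | g.XX X}
    {X | g.XX X ∧ g.BadX BadT X} ?_ (fun X hX => hX.1) (fun v => {P | g.LP1 pre lam v P})
    (fun v => {P | Crest.Agent.R320.Sc2n_937.Geo.LP2 K c lam2 v P}) ?_ ?_ hCT ?_ ?_ ?_ ?_ s
  · -- prefix code
    refine ⟨fun h => ?_, fun X hX Y hY hXY => ?_⟩
    · have h1 : z ≤ ([] : List α).length := h.1
      simp only [List.length_nil] at h1
      omega
    · obtain ⟨R1, hR1⟩ := hXY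
      exact g.prefix_code hX hY (R := R1) (R' := []) (by rw [hR1, List.append_nil])
  · intro v
    refine (List.finite_length_le α (p0 + N1)).subset fun P hP => ?_
    have h1 := g1 _ _ hP.2
    have h2 : (P.drop p0).length ≤ N1 := h1
    rw [List.length_drop] at h2
    show P.length ≤ p0 + N1
    omega
  · intro v
    refine (List.finite_length_le α p0).subset fun P hP => ?_
    obtain ⟨k, hk, h1, -⟩ := hP
    show P.length ≤ p0
    rw [h1]; exact hcp k hk
  · intro x y
    have h := (hCT x y).inf hBad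
    refine h.congr fun X => ?_
    constructor
    · rintro ⟨h1, h2⟩; exact ⟨⟨h1.1, h2⟩, h1⟩
    · rintro ⟨⟨h1, h2⟩, h3⟩; exact ⟨h3, h2⟩
  · intro s
    have h := Crest.Agent.R320.P4nat_976.HL_tail hlw hfew φ s
    exact h.congr fun X => Iff.rfl
  · -- scheme 1
    intro X hX hnb v
    have hE : ¬ g.E X := fun h => hnb ⟨hX, Or.inl h⟩
    have hbt : ¬ BadT (X.length - p0) := fun h => hnb ⟨hX, Or.inr h⟩
    have hzl : z ≤ X.length := hX.1
    obtain ⟨P, Q, b, e, hP, hQ⟩ := g.complete1 pre (lam := lam) (rho := rho) (fun P v h => g1 P v h)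
      hX hE (fun u => by
        refine g3 _ ?_ ?_ u
        · show La ≤ (X.drop p0).length
          rw [List.length_drop]; omega
        · show ¬ BadT (X.drop p0).length
          rw [List.length_drop]; exact hbt) v
    have hs : ∀ x, ∀ P', g.LP1 pre lam x P' → g.XX (P' ++ Q) ∧ g.T pre post x (P' ++ Q) = b :=
      fun x P' hP' => g.sound1 pre post (lam := lam) (rho := rho) (fun P v h => g1 P v h)
        (fun P Q u b h1 h2 => g2 P Q u b h1 h2) hP' hQ
    refine ⟨P, Q, e.symm, hP, fun x P' hP' => ?_⟩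
    obtain ⟨h1, h2⟩ := hs x P' hP'
    obtain ⟨-, h3⟩ := hs v P hP
    refine ⟨h1, ?_⟩
    rw [← hT, ← hT, h2, e, h3]
  · -- scheme 2
    intro X hX Y hY v
    have hXl : z ≤ X.length := hX.1.1
    obtain ⟨I, hI1, hI2⟩ := x2 (X.take p0) 1 v (fun k hk => by
      rw [List.length_take]; have := hcp k hk; omega)
    obtain ⟨P, Q, b, e, hP, hQ⟩ := g.complete2 pre post (BadT := BadT) (K := K) (c := c)
      (lam2 := lam2) (rho2 := fun k Q => rho2' k Q 1) (C0 := C0) hcp gap
      (fun k k' l l' _ _ _ _ h1 h2 h3 h4 => hsp k k' l l' h1 h2 h3 h4)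
      (fun τ hτ J hJ => by
        refine hthin (τ - p0) ?_ J fun k hk => ?_
        · have : z ≤ τ + p0 := hτ
          omega
        · obtain ⟨h1, k', h2, h3, h4⟩ := hJ k hk
          refine ⟨h1, k', h2, h3, ?_⟩
          have h5 : z ≤ τ + p0 := hτ
          have h6 : τ + c k' - c k - g.p0 = τ - p0 + c k' - c k := by
            show τ + c k' - c k - p0 = τ - p0 + c k' - c k
            have := hcp k h1
            omega
          rw [← h6]; exact h4)
      hX.1 hY.1 v ⟨I, hI1, fun k hk => by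
        obtain ⟨h1, h2, h3⟩ := hI2 k hk
        refine ⟨h1, ?_, h3⟩
        rw [List.take_take, min_eq_left (hcp k h1)] at h2
        exact h2⟩
    have hend : ∀ k, k < K → ∃ l, g.CEnd Q (c k) l := by
      intro k hk
      obtain ⟨k1, hk1, l, h1, h2, -⟩ := hQ
      by_cases hkk : k = k1
      · exact ⟨l, hkk ▸ h1⟩
      · obtain ⟨l', h3, -⟩ := h2 k hk hkk
        exact ⟨l', h3⟩
    have hb : b = act (act v (X.map φ).prod + nu X) (Y.map φ).prod + nu Y := by
      obtain ⟨X2, h1, h2, h3⟩ := g.sound2 pre post (BadT := BadT) (K := K) (c := c)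
        (lam2 := lam2) (rho2 := fun k Q => rho2' k Q 1) hcp sound (R := []) (R' := Y) hX.1 hX.2
        hP hQ (by rw [List.append_nil]; exact e)
      have h4 : X2 = Y := by
        have := h2.symm.trans e
        exact List.append_cancel_left this
      rw [← h3, h4, hT, hT]
    refine ⟨P, Q, e, hP, fun x P' hP' => ?_⟩
    obtain ⟨k0, hk0, hl0, hlam0⟩ := hP'
    obtain ⟨l, hl⟩ := hend k0 hk0
    have hx : g.XX (P' ++ Q.take l) :=
      g.xx_of_cend (by rw [hl0]; exact hcp k0 hk0) (by rw [hl0]; exact hl)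
    by_cases hbad : g.BadX BadT (P' ++ Q.take l)
    · left
      obtain ⟨X2, h1, h2, h3⟩ := g.sound2 pre post (BadT := BadT) (K := K) (c := c)
        (lam2 := lam2) (rho2 := fun k Q => rho2' k Q 1) hcp sound (R := []) (R' := Q.drop l)
        hx hbad ⟨k0, hk0, hl0, hlam0⟩ hQ (by
          rw [List.append_nil, List.append_assoc, List.take_append_drop])
      refine ⟨P' ++ Q.take l, ⟨hx, hbad⟩, X2, h1, h2.symm, ?_⟩
      rw [← hT, ← hT, h3, hb]
    · right
      refine ⟨P' ++ Q.take l, hx, fun h => hbad h.2, ?_⟩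
      exact ⟨Q.drop l, by rw [List.append_assoc, List.take_append_drop]⟩

end Crest.Agent.R320.Fin_94
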