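import Crest.Agent.R320.Joint_942
import Crest.Agent.R320.G1_852
import Crest.Agent.R320.Sp_509
import Crest.Agent.R320.P4_933
import Crest.Agent.R320.WallU_228
import Crest.Agent.R320.Univ_294
import Crest.Agent.R320.Block_467
import Crest.Agent.R320.ExactR_237

/-!
# Row 320: final assembly (helper942)
-/

set_option autoImplicit false

namespace Crest.Agent.R320.Fin942

open Crest.Agent.R320.Hk_851 Crest.Agent.R320.Joint942
open Crest.Agent.R320.Code110 hiding TT

universe u

/-- finite-state properties are regular (the suffix product is a datum) -/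
theorem reg2 {α : Type u} [Finite α] {S : Type*} [Monoid S] [Finite S] (φ : α → S) (A M0 : ℕ)
    (hM : 0 < M0) (f : List α → Prop)
    (hf : ∀ u u' : List α, A ≤ u.length → A ≤ u'.length → u.take A = u'.take A →
      u.length % M0 = u'.length % M0 →
      ((u.drop A).map φ).prod = ((u'.drop A).map φ).prod → (f u ↔ f u')) :
    Language.IsRegular ({u | f u} : Language α) := by
  classical
  haveI : NeZero M0 := ⟨by omega⟩
  have hfin : Finite {l : List α // l.length ≤ A} := List.finite_length_le α A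
  let σ := {l : List α // l.length ≤ A} × ZMod M0 × S
  haveI : Fintype σ := Fintype.ofFinite σ
  let st : List α → σ := fun u =>
    (⟨u.take A, by rw [List.length_take]; omega⟩, (u.length : ZMod M0),
      ((u.drop A).map φ).prod)
  let M : DFA α σ :=
    { step := fun q a =>
        (if h : q.1.1.length < A then ⟨q.1.1 ++ [a], by simp; omega⟩ else q.1,
          q.2.1 + 1, if q.1.1.length < A then 1 else q.2.2 * φ a)
      start := st []
      accept := {q | ∃ u, f u ∧ st u = q} }
  have hev : ∀ u, M.eval u = st u := by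
    intro u
    induction u using List.reverseRecOn with
    | nil => rfl
    | append_singleton u a ih =>
      rw [DFA.eval_append_singleton, ih]
      refine Prod.ext ?_ (Prod.ext ?_ ?_)
      · apply Subtype.ext
        show (if h : (u.take A).length < A then (⟨u.take A ++ [a], by simp at h ⊢; omega⟩ :
          {l : List α // l.length ≤ A}) else ⟨u.take A, by rw [List.length_take]; omega⟩).1
          = (u ++ [a]).take A
        rw [P4_933.take_snoc]
        split_ifs <;> rfl
      · show (u.length : ZMod M0) + 1 = (((u ++ [a]).length : ℕ) : ZMod M0)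
        simp
      · show (if (u.take A).length < A then 1 else ((u.drop A).map φ).prod * φ a) =
          (((u ++ [a]).drop A).map φ).prod
        by_cases h : u.length < A
        · have h1 : (u.take A).length < A := by rw [List.length_take]; omega
          rw [if_pos h1, List.drop_of_length_le (by simp; omega)]
          simp
        · have h1 : ¬ (u.take A).length < A := by rw [List.length_take]; omega
          rw [if_neg h1, List.drop_append_of_le_length (by omega)]
          simp
  refine Language.isRegular_iff.2 ⟨σ, inferInstance, M, ?_⟩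
  ext u
  rw [DFA.mem_accepts, hev]
  constructor
  · rintro ⟨u', h1, h2⟩
    have e1 : u'.take A = u.take A := congrArg (fun q : σ => q.1.1) h2
    have e2 : (u'.length : ZMod M0) = (u.length : ZMod M0) := congrArg (fun q : σ => q.2.1) h2
    have e3 : ((u'.drop A).map φ).prod = ((u.drop A).map φ).prod :=
      congrArg (fun q : σ => q.2.2) h2
    have e2' : u'.length % M0 = u.length % M0 := (ZMod.natCast_eq_natCast_iff' _ _ _).1 e2
    have e4 := congrArg List.length e1
    rw [List.length_take, List.length_take] at e4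
    by_cases h : u.length < A
    · rw [List.take_of_length_le (by omega), List.take_of_length_le (by omega)] at e1
      rw [← e1]; exact h1
    · exact (hf u' u (by omega) (by omega) e1 e2' e3).1 h1
  · intro h
    exact ⟨u, h, rfl⟩

theorem badN_mod {m M b : ℕ} {Ms : Finset ℕ} (hMs : ∀ k ∈ Ms, k ∣ M) {n n' : ℕ}
    (h : n % (M * b ^ m) = n' % (M * b ^ m)) : Sp_509.BadN m M b Ms n → Sp_509.BadN m M b Ms n' := by
  have hd : ∀ {d : ℕ}, d ∣ M * b ^ m → n % d = n' % d := by
    intro d hd
    rw [← Nat.mod_mod_of_dvd n hd, h, Nat.mod_mod_of_dvd n' hd]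
  rintro (⟨k, hk, hkn⟩ | ⟨j, hj, hn⟩)
  · left
    refine ⟨k, hk, ?_⟩
    have := hd ((hMs k hk).trans (Dvd.intro _ rfl))
    exact Nat.dvd_of_mod_eq_zero (by rw [← this]; exact Nat.mod_eq_zero_of_dvd hkn)
  · right
    refine ⟨j, hj, ?_⟩
    have h1 : n % (b ^ j * b) = n' % (b ^ j * b) := by
      apply hd
      rw [← pow_succ]
      exact (pow_dvd_pow b hj).trans (Dvd.intro_left _ rfl)
    have h2 : n / b ^ j % b = n' / b ^ j % b := by
      rw [← Nat.mod_mul_right_div_self, ← Nat.mod_mul_right_div_self, h1]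
    rwa [← h2]

theorem main (n0 : ℕ) (S : Type) [Monoid S] [Finite S] (f : Fin n0 → S) (s : S) :
    HL 3 ({w | (w.map f).prod = s} : Language (Fin n0)) := by
  classical
  haveI := Fintype.ofFinite S
  obtain ⟨act, hadd, hone, hmul, hfaith⟩ := Blk467.exists_module S
  obtain ⟨m, r, hG⟩ := G1_852.gadget (S := S) (V := S → ZMod 2) act
  obtain ⟨K, hK⟩ := ExactR_237.exact_gadget (Fin n0) S (S → ZMod 2) f act (2 * (r + m) + 2)
  obtain ⟨Ms, M, hcard, hMs, hM, hG2⟩ := hG (4 ^ (K + 1))
  obtain ⟨b, hbdef⟩ : ∃ b, b = M * (4 * 4 ^ (K + 1) + 4) + 1 := ⟨_, rfl⟩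
  have hb1 : 4 * M * 4 ^ (K + 1) + 2 * M + 2 ≤ b := by rw [hbdef]; nlinarith
  have hcop : Nat.Coprime b M := by
    rw [hbdef, mul_comm M, Nat.coprime_mul_right_add_left]
    exact Nat.coprime_one_left M
  obtain ⟨lam, rho, nu, g1, g2, g3, g4⟩ := hG2 b (by omega) hcop (Fin n0) f
  obtain ⟨N, hN⟩ : ∃ N, N = b ^ m := ⟨_, rfl⟩
  obtain ⟨c, hc1, hc0, hc2, hc3, hc4, hc5⟩ := Sp_509.spoilN m K Ms M hM
    (fun k hk => ⟨(hMs k hk).1, (hMs k hk).2.2⟩) b hb1 hcop N
  obtain ⟨p0, hp0⟩ : ∃ p0, p0 = c K := ⟨_, rfl⟩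
  have hcp : ∀ k < K, c k ≤ p0 := fun k hk => by rw [hp0]; exact (hc1 hk).le
  obtain ⟨lam2, rho2, nu2, hex, hco⟩ := hK c (fun i j hij _ => hc1 hij)
  obtain ⟨n, Wo, hloc, hlen, hgap, R, B, hpieces⟩ := WallU_228.walls (α := Fin n0) (2 * (p0 + N))
  obtain ⟨z, hz⟩ : ∃ z, z = 3 * p0 + 2 * N + n + p0 + 1 := ⟨_, rfl⟩
  have hfree : ∀ u : List (Fin n0), (∀ t < u.length, ¬ Wo (u.take t)) →
      u ∈ (BddReg_746.PN B R : Language (Fin n0)) := by
    intro u hu
    obtain ⟨l, h1, h2, h3⟩ := hpieces u hu
    rw [h3]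
    exact FewVal_228.val_mem_PN B l h2 R h1
  let φ : List (Fin n0) → S := fun w => (w.map f).prod
  have hφ : ∀ u w, φ (u ++ w) = φ u * φ w := fun u w => by simp [φ]
  let BT : ℕ → Prop := Sp_509.BadN m M b Ms
  let nu2' : List (Fin n0) → (S → ZMod 2) := fun X => nu2 X 1
  -- congruence of the block map
  have hTTc : ∀ u u' : List (Fin n0), p0 + N ≤ u.length → p0 + N ≤ u'.length →
      u.take (p0 + N) = u'.take (p0 + N) →
      u.length % (M * b ^ m) = u'.length % (M * b ^ m) →
      ((u.drop (p0 + N)).map f).prod = ((u'.drop (p0 + N)).map f).prod →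
      ∀ v, TT φ act p0 nu nu2' u v = TT φ act p0 nu nu2' u' v := by
    intro u u' h1 h2 h3 h4 h5 v
    have e1 : u.take p0 = u'.take p0 := by
      have := congrArg (List.take p0) h3
      rwa [List.take_take, List.take_take, min_eq_left (by omega)] at this
    have e2 : (u.drop p0).take N = (u'.drop p0).take N := by
      have := congrArg (List.drop p0) h3
      rwa [List.drop_take, List.drop_take, Nat.add_sub_cancel_left] at this
    have e3 : φ ((u.drop p0).drop N) = φ ((u'.drop p0).drop N) := by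
      rw [List.drop_drop, List.drop_drop]; exact h5
    have e4 : φ (u.drop p0) = φ (u'.drop p0) := by
      rw [← List.take_append_drop N (u.drop p0), ← List.take_append_drop N (u'.drop p0), hφ, hφ,
        e2, e3]
    have e5 : (u.drop p0).length % (M * b ^ m) = (u'.drop p0).length % (M * b ^ m) := by
      rw [List.length_drop, List.length_drop]
      have h6 : (u.length - p0) + p0 ≡ (u'.length - p0) + p0 [MOD (M * b ^ m)] := by
        have h7 : (u.length - p0) + p0 = u.length := by omega
        have h8 : (u'.length - p0) + p0 = u'.length := by omega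
        rw [h7, h8]; exact h4
      exact Nat.ModEq.add_right_cancel' p0 h6
    have e6 : nu (u.drop p0) = nu (u'.drop p0) := (g4 _ _ (hN ▸ e2) (hN ▸ e3) e5).2
    unfold TT
    rw [e1, e4, e6]
  have hL : 0 < M * b ^ m := Nat.mul_pos hM (pow_pos (by omega) _)
  have hbad_mod : ∀ a a', a % (M * b ^ m) = a' % (M * b ^ m) → (BT a ↔ BT a') := fun a a' h =>
    ⟨badN_mod (fun k hk => (hMs k hk).2.2) h, badN_mod (fun k hk => (hMs k hk).2.2) h.symm⟩
  have hsub : ∀ x y s, act (x - y) s = act x s - act y s := by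
    intro x y s
    have := hadd (x - y) y s
    rw [sub_add_cancel] at this
    rw [this, add_sub_cancel_right]
  have H1 : HL 1 (XX Wo z) := by
    have h := P4_933.hl_XX (z := z) hloc hlen hfree (f := fun _ => True)
      (reg2 f 0 1 one_pos _ (fun _ _ _ _ _ _ _ => Iff.rfl))
    exact h.congr fun w => ⟨fun ⟨a1, a2, a3⟩ => ⟨⟨a2, a1, fun t t1 t2 => a3 t t2 t1⟩, trivial⟩,
      fun ⟨⟨a1, a2, a3⟩, _⟩ => ⟨a2, a1, fun t t1 t2 => a3 t t2 t1⟩⟩
  have H2 : HL 1 (Bad Wo z N p0 BT) := by
    have h := P4_933.hl_XX (z := z) hloc hlen hfree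
      (f := fun X => EB Wo z N X ∨ BT (X.length - p0))
      (reg2 f (z + N) (M * b ^ m) hL _ (fun u u' h1 h2 h3 h4 _ => by
        have e1 : EB Wo z N u → EB Wo z N u' := by
          rintro ⟨t, t1, t2, t3, t4⟩
          refine ⟨t, t1, t2, by omega, ?_⟩
          have := congrArg (List.take t) h3
          rw [List.take_take, List.take_take, min_eq_left (by omega)] at this
          rw [← this]; exact t4
        have e2 : EB Wo z N u' → EB Wo z N u := by
          rintro ⟨t, t1, t2, t3, t4⟩
          refine ⟨t, t1, t2, by omega, ?_⟩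
          have := congrArg (List.take t) h3
          rw [List.take_take, List.take_take, min_eq_left (by omega)] at this
          rw [this]; exact t4
        have e3 : (u.length - p0) % (M * b ^ m) = (u'.length - p0) % (M * b ^ m) := by
          have h6 : (u.length - p0) + p0 ≡ (u'.length - p0) + p0 [MOD (M * b ^ m)] := by
            have h7 : (u.length - p0) + p0 = u.length := by omega
            have h8 : (u'.length - p0) + p0 = u'.length := by omega
            rw [h7, h8]; exact h4
          exact Nat.ModEq.add_right_cancel' p0 h6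
        rw [hbad_mod _ _ e3]
        exact ⟨fun h => h.imp_left e1, fun h => h.imp_left e2⟩))
    exact h.congr fun w => ⟨fun ⟨⟨a1, a2, a3⟩, a4⟩ => ⟨⟨a2, a1, fun t t1 t2 => a3 t t2 t1⟩, a4⟩,
      fun ⟨⟨a1, a2, a3⟩, a4⟩ => ⟨⟨a2, a1, fun t t1 t2 => a3 t t2 t1⟩, a4⟩⟩
  have H3 : ∀ x y, HL 1 (ZT (XX Wo z) (TT φ act p0 nu nu2') x y) := by
    intro x y
    have h := P4_933.hl_XX (z := z) hloc hlen hfree
      (f := fun X => TT φ act p0 nu nu2' X x = y)
      (reg2 f (p0 + N) (M * b ^ m) hL _ (fun u u' h1 h2 h3 h4 h5 => by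
        rw [hTTc u u' h1 h2 h3 h4 h5 x]))
    exact h.congr fun w => ⟨fun ⟨⟨a1, a2, a3⟩, a4⟩ => ⟨⟨a2, a1, fun t t1 t2 => a3 t t2 t1⟩, a4⟩,
      fun ⟨⟨a1, a2, a3⟩, a4⟩ => ⟨⟨a2, a1, fun t t1 t2 => a3 t t2 t1⟩, a4⟩⟩
  have H4 : ∀ s, HL 3 ({w | (∀ u ∈ XX Wo z, ¬ u <+: w) ∧ φ w = s} : Language (Fin n0)) := by
    intro s
    have h := (P4_933.hl_NB (z := z) hloc hlen hfree (f := fun X => φ X = s)
      (P4_933.regular_of_class f 0 1 one_pos _ (fun u u' _ _ _ _ h => by
        show φ u = s ↔ φ u' = s
        rw [show φ u = φ u' from h]))).mono (by norm_num : 1 ≤ 3)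
    refine h.congr fun w => and_congr_left fun _ => ?_
    rw [P4_933.NB_iff]
    constructor
    · intro h P hP hX
      exact h P ⟨hX.2.1, hX.1, fun t t1 t2 => hX.2.2 t t2 t1⟩ hP
    · intro h P hX hP
      exact h P hP ⟨hX.2.1, hX.1, fun t t1 t2 => hX.2.2 t t2 t1⟩
  refine Top5_110.top_sem (φ := φ) (act := act) (XX := XX Wo z) (Bad := Bad Wo z N p0 BT)
    (T := TT φ act p0 nu nu2') (N1 := 0) (N2 := 1)
    (L1 := L1 φ act p0 nu2' lam) (L2 := L2 K c lam2)
    (by simp [φ]) hφ hone hmul hfaith (pc_XX (by omega)) (fun u hu => hu.1) ?_ H1 H2 H3 H4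
    ?_ ?_ ?_ ?_ s
  · -- hT
    intro u _ v v'
    unfold TT
    rw [add_sub_add_right_eq_sub, ← hsub, add_sub_add_right_eq_sub, ← hsub, ← hmul, ← hφ,
      List.take_append_drop]
  · -- F1
    intro v
    refine (List.finite_length_le (Fin n0) (p0 + N)).subset ?_
    rintro P ⟨h1, h2⟩
    have := g1 _ _ h2
    rw [List.length_drop] at this
    show P.length ≤ p0 + N
    omega
  · -- F2
    intro v
    refine (List.finite_length_le (Fin n0) p0).subset ?_
    rintro P ⟨k, h1, h2, _⟩
    show P.length ≤ p0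
    rw [h2]; exact hcp k h1
  · -- C1
    intro X hX hB x t ht
    have ht0 : t = [] := by
      have h' : t ∈ (1 : Language (Fin n0)) := by simpa using ht
      exact h'
    subst ht0
    obtain ⟨p, q, y, h1, h2, h3⟩ := C1 (φ := φ) (act := act) (nu := nu) (nu2 := nu2') (lam := lam)
      (rho := rho) (Y0 := 0) (n := n) hloc (fun p v h => by rw [hN]; exact g1 p v h)
      (fun p q v r h h' => g2 p q v r h h')
      (fun u _ hu v => by
        obtain ⟨P, Q, e1, e2, v', e3⟩ := g3 u (fun k hk hd => hu (Or.inl ⟨k, hk, hd⟩))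
          (fun j hj => by
            by_contra hcon
            exact hu (Or.inr ⟨j, hj, fun hh => hcon ⟨hh.1, by omega⟩⟩)) v
        exact ⟨P, Q, v', e1, e2, e3⟩)
      (by omega) (by omega) X hX hB x
    exact ⟨p, q, y, by rw [List.append_nil]; exact h1, h2, h3⟩
  · -- C2
    intro X hX x t ht
    rw [pow_one] at ht
    refine C2 (φ := φ) (act := act) (nu := nu) (nu2 := nu2') (n := n) (W := 2 * (p0 + N))
      (Y0 := p0) (C0 := r + m) (rho2 := fun k Q => rho2 k Q 1) hloc hgap hcp (by omega) le_rfl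
      ?_ ?_ ?_ ?_ X hX x t ht
    · intro i j i' j' _ _ _ _ hij hij' h1 h2
      by_contra hcon
      have h3 := hc3 i j i' j' hij hij' (fun h => hcon ⟨congrArg Prod.fst h, congrArg Prod.snd h⟩)
      rw [lt_abs] at h3
      omega
    · intro T hT F hF
      refine (hc5 (T : ℤ) F ?_).trans (by omega)
      intro q hq
      obtain ⟨q1, q2, q3, q4⟩ := hF q hq
      refine ⟨q1, q2, q3, T + c q.2 - c q.1, ?_, q4⟩
      have := hcp q.1 q1
      omega
    · intro k hk P Q v b' h1 h2 h3
      have := hex k hk P Q 1 v b' h1 h2 h3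
      rw [mul_one] at this
      exact this
    · intro u v hu
      obtain ⟨I, h1, h2⟩ := hco u 1 v hu
      exact ⟨I, h1, h2⟩

end Crest.Agent.R320.Fin942
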