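import Crest.Agent.R320.Jnt_974
import Crest.Agent.R320.HZ_847
import Crest.Agent.R320.G1_604
import Crest.Agent.R320.Univ_582
import Crest.Agent.R320.RegCongr_253
import Crest.Agent.R320.ExactR_237
import Crest.Agent.R320.Sp_945

/-!
# Row 320: end-to-end glue (helper945)
-/

set_option autoImplicit false

namespace Crest.Agent.R320.Fin_945

open Crest.Agent.R320.Hk_851 Crest.Agent.R320.Code110 Crest.Agent.R320.WallU_228
  Crest.Agent.R320.FewWalls_228

/-- the module: functions on `S` -/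
def act {S : Type} [Monoid S] (v : S → ZMod 2) (s : S) : S → ZMod 2 := fun x => v (s * x)

theorem act_one {S : Type} [Monoid S] (v : S → ZMod 2) : act v 1 = v := by
  funext x; simp [act]

theorem act_mul {S : Type} [Monoid S] (v : S → ZMod 2) (s t : S) :
    act v (s * t) = act (act v s) t := by
  funext x; simp [act, mul_assoc]

theorem act_sub {S : Type} [Monoid S] (v w : S → ZMod 2) (s : S) :
    act v s - act w s = act (v - w) s := by
  funext x; simp [act]

theorem act_faith {S : Type} [Monoid S] (s t : S) (h : ∀ v : S → ZMod 2, act v s = act v t) :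
    s = t := by
  classical
  by_contra hne
  have h1 : (if s * 1 = s then (1 : ZMod 2) else 0) = (if t * 1 = s then (1 : ZMod 2) else 0) :=
    congrFun (h (fun x => if x = s then 1 else 0)) 1
  rw [mul_one, mul_one, if_pos rfl, if_neg (fun h' => hne h'.symm)] at h1
  exact one_ne_zero h1

theorem fibre (α : Type) [Finite α] (S : Type) [Monoid S] [Finite S] (f : α → S) (s : S) :
    HL 3 ({w | (w.map f).prod = s} : Language α) := by
  classical
  have := Fintype.ofFinite S
  let V : Type := S → ZMod 2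
  have hVf : Finite V := inferInstanceAs (Finite (S → ZMod 2))
  have hVF : Fintype V := Fintype.ofFinite V
  let ac : V → S → V := act
  obtain ⟨m, r, hg⟩ := Crest.Agent.R320.G1_604.g1 S V ac
  obtain ⟨K, hK⟩ := Crest.Agent.R320.ExactR_237.exact_gadget α S V f ac (2 * (r + m) + 2)
  obtain ⟨Ms, M, hcard, hMs, hM, hg⟩ := hg (2 ^ (K + 1))
  set b : ℕ := 2 ^ (K + 6) * M + 1 with hb
  have h64 : 64 * M ≤ 2 ^ (K + 6) * M := by
    have : 2 ^ 6 ≤ 2 ^ (K + 6) := Nat.pow_le_pow_right (by norm_num) (by omega)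
    exact Nat.mul_le_mul_right _ this
  have hbc : Nat.Coprime b M := by
    rw [hb]
    exact (Nat.coprime_mul_right_add_left 1 M (2 ^ (K + 6))).2 (Nat.coprime_one_left M)
  obtain ⟨lam, rho, nu1, hlam, hsd, hcp, hfs⟩ := hg b (by omega) hbc α f
  set N1 : ℕ := b ^ m with hN1
  obtain ⟨c, hc1, -, -, hc2, hc3⟩ := Crest.Agent.R320.Sp_945.spoil K m M Ms hM
    (fun k hk => ⟨(hMs k hk).1.le, (hMs k hk).2.2⟩) b (by omega) hbc (4 * N1)
  obtain ⟨lam2, rho2, nu2, hex, hcx⟩ := hK c (fun i j hij _ => hc1 i j hij)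
  set p0 : ℕ := c K with hp0
  have hcp0 : ∀ k < K, c k ≤ p0 := fun k hk => (hc1 k K hk).le
  set BT : ℕ → Prop := Crest.Agent.R320.Sp_945.Bad Ms M m b with hBT
  set La : ℕ := p0 + N1 with hLa
  obtain ⟨n, c', P', Sw, hn, hP', hloc, hgap, -, -, hfew⟩ :=
    walls_full (α := α) (2 * p0 + 2 * N1)
  set z : ℕ := 2 * p0 + 2 * N1 + n + La + 1 with hz
  have hb0 : 0 < b := by omega
  have hN1p : 0 < N1 := by positivity
  set φ : List α → S := fun w => (w.map f).prod with hφd
  have hφ0 : φ [] = 1 := by simp [hφd]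
  have hφ : ∀ u w, φ (u ++ w) = φ u * φ w := by intro u w; simp [hφd]
  have hFew : Crest.Agent.R320.HZ847.Few n Sw := hfew
  -- the length condition is periodic
  have hper : ∀ t, La ≤ t → (BT (t + M * N1) ↔ BT t) := by
    intro t _
    have h1 : ∀ k ∈ Ms, (k ∣ t + M * N1 ↔ k ∣ t) := by
      intro k hk
      have hkM : k ∣ M * N1 := Dvd.dvd.mul_right (hMs k hk).2.2 _
      exact (Nat.dvd_add_left hkM)
    have h2 : ∀ j < m, (t + M * N1) / b ^ j % b = t / b ^ j % b := by
      intro j hj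
      obtain ⟨i, hi⟩ : ∃ i, m = j + (i + 1) := ⟨m - j - 1, by omega⟩
      have e : M * N1 = b ^ j * (b * (b ^ i * M)) := by
        rw [hN1, hi, pow_add, pow_succ]; ring
      rw [e, Nat.add_mul_div_left _ _ (by positivity), Nat.add_mul_mod_self_left]
    constructor
    · rintro (⟨k, hk, h⟩ | ⟨j, hj, h⟩)
      · exact Or.inl ⟨k, hk, (h1 k hk).1 h⟩
      · refine Or.inr ⟨j, hj, ?_⟩
        rwa [h2 j hj] at h
    · rintro (⟨k, hk, h⟩ | ⟨j, hj, h⟩)
      · exact Or.inl ⟨k, hk, (h1 k hk).2 h⟩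
      · refine Or.inr ⟨j, hj, ?_⟩
        rwa [h2 j hj]
  -- `nu1` is regular
  have hnu : ∀ x : V, Language.IsRegular ({w | nu1 w = x} : Language α) := by
    intro x
    refine Crest.Agent.R320.RegCongr_253.regular_of_congr f N1 (M * N1) (by positivity) _ ?_
    intro q q' h1 h2 h3 h4 h5 h6
    have := (hfs q q' h1 h2 h3 h4 h5).2
    show nu1 q' = x
    rw [← this]
    exact h6
  have hgap' : ∀ (w : List α) (s t : ℕ), s < t → t ≤ w.length → Wo n Sw (w.take s) →
      Wo n Sw (w.take t) → 2 * p0 + 2 * N1 < t - s := by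
    intro w s t hst ht h1 h2
    by_contra hcon
    have hl : (w.take t).length = t := by rw [List.length_take]; omega
    have := hgap (w.take t) (t - s) h2 (by omega) (by omega)
    rw [hl, List.take_take, min_eq_left (by omega), show t - (t - s) = s by omega] at this
    exact this h1
  refine Crest.Agent.R320.Top5_110.top_sem (φ := φ) (act := ac)
    (XX := Crest.Agent.R320.Jnt_974.XX (Wo n Sw) z)
    (Bad := Crest.Agent.R320.Jnt_974.Bd (Wo n Sw) z N1 p0 BT)
    (T := Crest.Agent.R320.Jnt_974.Tm ac φ p0 nu1 (fun X => nu2 X 1)) (N1 := 0) (N2 := 1)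
    (L1 := Crest.Agent.R320.Jnt_974.L1 ac φ p0 (fun X => nu2 X 1) lam)
    (L2 := Crest.Agent.R320.Jnt_974.L2 K c lam2)
    hφ0 hφ act_one act_mul act_faith (Crest.Agent.R320.Jnt_974.XX_pc (by omega))
    Crest.Agent.R320.Jnt_974.Bd_sub ?_ ?_ ?_ ?_ ?_ ?_ ?_ ?_ ?_ s
  · intro u _ v v'
    exact Crest.Agent.R320.HZ847.hT (p0 := p0) (nu1 := nu1) (nu2 := fun X => nu2 X 1)
      hφ act_one act_mul act_sub u v v'
  · exact (Crest.Agent.R320.HZ847.hl_XX (n := n) (S := Sw) z).mono (by norm_num)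
  · exact Crest.Agent.R320.HZ847.H2 hFew (z := z) (p0 := p0) (N1 := N1) (La := La)
      (Pm := M * N1) (by positivity) hper
  · intro x y
    exact Crest.Agent.R320.HZ847.H3 hFew (z := z) (p0 := p0) (nu1 := nu1)
      (nu2 := fun X => nu2 X 1) (act := ac) hφ0 hφ (by omega) hnu x y
  · intro s'
    exact (Crest.Agent.R320.HZ847.H4 hFew (z := z) hφ0 hφ s').mono (by norm_num)
  · intro v
    refine (List.finite_length_le α (p0 + N1)).subset ?_
    rintro _ ⟨X1, p, rfl, h1, h2⟩
    have := hlam p _ h2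
    show (X1 ++ p).length ≤ _
    rw [List.length_append]; omega
  · intro v
    refine (List.finite_length_le α p0).subset ?_
    rintro p ⟨k, hk, h1, -⟩
    show p.length ≤ _
    rw [h1]; exact hcp0 k hk
  · intro u hu hb' x t ht
    refine Crest.Agent.R320.Jnt_974.comp1 (La := La) hloc (fun p v h => (hlam p v h).le)
      (fun p q v r' h1 h2 _ => hsd p q v r' h1 h2) ?_ (by omega) u hu hb' x t ht
    intro u' _ hBT v
    refine hcp u' (fun k hk hd => hBT (Or.inl ⟨k, hk, hd⟩)) (fun j hj => ?_) v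
    by_contra hcon
    exact hBT (Or.inr ⟨j, hj, hcon⟩)
  · intro u hu x t ht
    refine Crest.Agent.R320.Jnt_974.comp2 (R := 2 * (r + m) + 2) (n := n)
      (rho2 := fun k Q => rho2 k Q 1) hloc hcp0 ?_ ?_ ?_ (by omega) u hu x t ht
    · intro k hk P Q v b' h1 h2 h3
      have := hex k hk P Q 1 v b' h1 h2 h3
      rw [mul_one] at this
      exact this
    · intro X1 hX1 v
      obtain ⟨I, hI1, hI2⟩ := hcx X1 1 v (fun k hk => by rw [hX1]; exact hcp0 k hk)
      exact ⟨I, hI1, hI2⟩
    · intro X hX X' hX'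
      refine Crest.Agent.R320.Jnt_974.spoil (La := La) (W := 2 * p0 + 2 * N1) hcp0 ?_ ?_
        le_rfl (by omega) (X ++ X') (hgap' _)
      · intro i j k l hi hj hk hl h1 h2 h3
        exact hc2 i j k l h1 h2 h3
      · intro T hT
        exact (hc3 T (fun a ha => (hcp0 a ha).trans (by omega))).trans (by omega)

/-- **the row** -/
theorem row {α : Type*} [Finite α] (L : Language α) (hL : L.IsRegular) :
    ∃ e : Crest.RegLang.GRegExp α, e.height ≤ 3 ∧ e.lang = L :=
  Crest.Agent.R320.Univ_582.final (fun β _ S _ _ φ s => fibre β S φ s) α L hL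

end Crest.Agent.R320.Fin_945

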