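import Crest.Agent.R320.End_532
import Crest.Agent.R320.P4_933
import Crest.Agent.R320.P4_911
import Crest.Agent.R320.G1Loc_808
import Crest.Agent.R320.Sp_365
import Crest.Agent.R320.ExactR_237
import Crest.Agent.R320.WallU_228
import Crest.Agent.R320.Univ_480

/-!
# Row 320, helper946: final join

532's joint + 808's positional gadget + 365's ruler + 237's exact gadget + 228's walls + 933 / 911's
heights + 480's universe reduction.
-/

set_option autoImplicit false

namespace Crest.Agent.R320.Fin_946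

open Crest.RegLang Crest.Agent.R320.Hk_851 Crest.Agent.R320.Sc2n_937

/-- the block value -/
def F {α S V : Type} [Monoid S] [AddCommGroup V] (act : V → S → V) (φ : α → S) (p0 : ℕ)
    (nu1 nu2 : List α → V) (x : V) (X : List α) : V :=
  act (act x ((X.take p0).map φ).prod + nu2 (X.take p0)) ((X.drop p0).map φ).prod + nu1 (X.drop p0)

theorem modsub {a b M p : ℕ} (h : a % M = b % M) (ha : p ≤ a) (hb : p ≤ b) :
    (a - p) % M = (b - p) % M := by
  have h1 : (a - p) + p ≡ (b - p) + p [MOD M] := by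
    rw [Nat.sub_add_cancel ha, Nat.sub_add_cancel hb]; exact h
  exact Nat.ModEq.add_right_cancel' p h1

theorem F_cls {α S V : Type} [Monoid S] [AddCommGroup V] (act : V → S → V) (φ : α → S)
    (p0 N M0 : ℕ) (nu1 nu2 : List α → V)
    (hnu : ∀ Q Q' : List α, Q.take N = Q'.take N →
      ((Q.drop N).map φ).prod = ((Q'.drop N).map φ).prod → Q.length % M0 = Q'.length % M0 →
        nu1 Q = nu1 Q') (x : V) {X X' : List α} (hX : p0 + N ≤ X.length) (hX' : p0 + N ≤ X'.length)
    (h1 : X.take (p0 + N) = X'.take (p0 + N))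
    (h2 : ((X.drop (p0 + N)).map φ).prod = ((X'.drop (p0 + N)).map φ).prod)
    (h3 : X.length % M0 = X'.length % M0) :
    F act φ p0 nu1 nu2 x X = F act φ p0 nu1 nu2 x X' := by
  have e1 : X.take p0 = X'.take p0 := by
    have := congrArg (List.take p0) h1
    rwa [List.take_take, List.take_take, min_eq_left (by omega)] at this
  have e2 : (X.drop p0).take N = (X'.drop p0).take N := by
    have := congrArg (List.drop p0) h1
    rw [List.drop_take, List.drop_take] at this
    rwa [Nat.add_sub_cancel_left] at this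
  have e3 : (((X.drop p0).drop N).map φ).prod = (((X'.drop p0).drop N).map φ).prod := by
    rw [List.drop_drop, List.drop_drop]; exact h2
  have e4 : ((X.drop p0).map φ).prod = ((X'.drop p0).map φ).prod := by
    rw [← List.take_append_drop N (X.drop p0), ← List.take_append_drop N (X'.drop p0),
      List.map_append, List.map_append, List.prod_append, List.prod_append, e2, e3]
  have e5 : nu1 (X.drop p0) = nu1 (X'.drop p0) := by
    refine hnu _ _ e2 e3 ?_
    rw [List.length_drop, List.length_drop]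
    exact modsub h3 (by omega) (by omega)
  unfold F
  rw [e1, e4, e5]

open Crest.Agent.R320.P4_911 in
theorem hfib {α S V : Type} [Finite α] [Monoid S] [Finite S] [AddCommGroup V] (act : V → S → V)
    (φ : α → S) (p0 N M0 : ℕ) (hM0 : 0 < M0) (nu1 nu2 : List α → V)
    (hnu : ∀ Q Q' : List α, Q.take N = Q'.take N →
      ((Q.drop N).map φ).prod = ((Q'.drop N).map φ).prod → Q.length % M0 = Q'.length % M0 →
        nu1 Q = nu1 Q') {n z : ℕ} {Wo : List α → Prop} (hz : p0 + N ≤ z)
    (loc : ∀ P Q : List α, n ≤ Q.length → (Wo (P ++ Q) ↔ Wo Q))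
    (len : ∀ P, Wo P → n ≤ P.length) {B R : ℕ}
    (free : ∀ u : List α, (∀ t < u.length, ¬ Wo (u.take t)) →
      u ∈ (Crest.Agent.R320.BddReg_746.PN B R : Language α)) (x y : V) :
    HL 1 ({X | P4_933.XX Wo z X ∧ F act φ p0 nu1 nu2 x X = y} : Language α) := by
  have hreg := Reg.cls (α := α) φ (p0 + N) M0 hM0 (fun t s l => ∃ u : List α, p0 + N ≤ u.length ∧
    u.take (p0 + N) = t ∧ ((u.drop (p0 + N)).map φ).prod = s ∧ u.length % M0 = l ∧
    F act φ p0 nu1 nu2 x u = y)
  refine (P4_933.hl_XX (z := z) loc len free hreg).congr fun X => ?_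
  constructor
  · rintro ⟨h1, h2⟩
    exact ⟨h1, X, le_trans hz h1.2.1, rfl, rfl, rfl, h2⟩
  · rintro ⟨h1, u, h2, h3, h4, h5, h6⟩
    refine ⟨h1, ?_⟩
    rw [← h6]
    exact F_cls act φ p0 N M0 nu1 nu2 hnu x (le_trans hz h1.2.1) h2 h3.symm h4.symm h5.symm

/-- primes -/
theorem exists_primes (k B : ℕ) : ∃ q : Fin k → ℕ, (∀ j, (q j).Prime) ∧ (∀ j, B < q j) ∧
    Function.Injective q := by
  refine ⟨fun j => Nat.nth Nat.Prime (B + 1 + j), fun j => Nat.prime_nth_prime _, fun j => ?_, ?_⟩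
  · have h : B + 1 + (j : ℕ) ≤ Nat.nth Nat.Prime (B + 1 + (j : ℕ)) :=
      (Nat.nth_strictMono Nat.infinite_setOfPred_prime).le_apply (x := B + 1 + (j : ℕ))
    show B < Nat.nth Nat.Prime (B + 1 + (j : ℕ))
    exact lt_of_lt_of_le (by omega) h
  · intro i j hij
    have h := (Nat.nth_strictMono Nat.infinite_setOfPred_prime).injective hij
    ext
    omega

theorem fin (α : Type) [Finite α] (S : Type) [Monoid S] [Finite S] (φ : α → S) (s : S) :
    HL 3 ({w | (w.map φ).prod = s} : Language α) := by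
  classical
  haveI := Fintype.ofFinite S
  obtain ⟨act, hadd, hone, hmul, hfaith⟩ := Blk467.exists_module S
  obtain ⟨m, r, hG⟩ := G1Loc_808.gadget_loc S (S → ZMod 2) act
  obtain ⟨K, hK⟩ := ExactR_237.exact_gadget α S (S → ZMod 2) φ act (2 * (r + m) + 2)
  obtain ⟨q, hq, hqB, hqi⟩ := exists_primes r (2 ^ (K + 2))
  set M : ℕ := ∏ j, q j with hM
  have hqpos : ∀ j, 0 < q j := fun j => (hq j).pos
  have hMpos : 0 < M := Finset.prod_pos fun j _ => hqpos j
  have hdvd : ∀ j, q j ∣ M := fun j => Finset.dvd_prod_of_mem q (Finset.mem_univ j)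
  set b : ℕ := 2 ^ (K + 5) * M + 1 with hb
  have hb32 : 32 * M ≤ 2 ^ (K + 5) * M := by
    refine Nat.mul_le_mul_right M ?_
    calc 32 = 2 ^ 5 := by norm_num
      _ ≤ 2 ^ (K + 5) := Nat.pow_le_pow_right (by norm_num) (by omega)
  have hcopM : Nat.Coprime b M := by
    have h : Nat.gcd b M ∣ 1 := by
      have h1 : Nat.gcd b M ∣ b := Nat.gcd_dvd_left b M
      have h2 : Nat.gcd b M ∣ 2 ^ (K + 5) * M := Dvd.dvd.mul_left (Nat.gcd_dvd_right b M) _
      exact (Nat.dvd_add_right h2).1 h1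
    exact Nat.dvd_one.1 h
  obtain ⟨lam, rho, nu1, hlen, hsnd, hcmp, hloc⟩ := hG q
    (fun j => (hq j).odd_of_ne_two (by
      have h1 := hqB j
      have h2 : 4 ≤ 2 ^ (K + 2) := by
        calc 4 = 2 ^ 2 := by norm_num
          _ ≤ 2 ^ (K + 2) := Nat.pow_le_pow_right (by norm_num) (by omega)
      omega))
    (fun i j hij => (Nat.coprime_primes (hq i) (hq j)).2 fun h => hij (hqi h))
    b (by omega) (fun j => Nat.Coprime.coprime_dvd_right (hdvd j) hcopM)
    α (fun w => (w.map φ).prod) (fun u v => by rw [List.map_append, List.prod_append])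
  have hbpos : 0 < b := by omega
  set N1 : ℕ := b ^ m with hN1
  have hN1pos : 0 < N1 := pow_pos hbpos m
  set Ms : Finset ℕ := Finset.univ.image q with hMs
  have hMscard : Ms.card ≤ r := le_trans Finset.card_image_le (by simp)
  obtain ⟨c, hc1, hc2, hc3⟩ := Sp_365.spoil K N1 r m M b Ms hMpos hcopM
    (fun k hk => by
      obtain ⟨j, -, rfl⟩ := Finset.mem_image.1 hk
      exact ⟨hqB j, hdvd j⟩) hMscard (by omega)
  have hcmono : ∀ i j, i < j → c i < c j := fun i j h => by have := hc1 i j h; omega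
  obtain ⟨lam2, rho2, nu2, hex2, hI2⟩ := hK c (fun i j h _ => hcmono i j h)
  set p0 : ℕ := c K with hp0
  have hcle : ∀ k, k < K → c k ≤ p0 := fun k hk => (hcmono k K hk).le
  obtain ⟨n, cc, P, Sw, hn, hP, loc, gap, free, -, -⟩ :=
    WallU_228.walls_full (α := α) (2 * p0 + 2 * N1)
  have len : ∀ X, WallU_228.Wo n Sw X → n ≤ X.length := fun X h => h.1
  have free' : ∀ u : List α, (∀ t < u.length, ¬ WallU_228.Wo n Sw (u.take t)) →
      u ∈ (Crest.Agent.R320.BddReg_746.PN (2 * cc + P) 5 : Language α) := by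
    intro u hu
    obtain ⟨l, h1, h2, h3⟩ := free u hu
    rw [h3]
    exact FewVal_228.val_mem_PN _ l h2 _ h1
  let g : Geo α :=
    { Wo := WallU_228.Wo n Sw
      n := n
      z := p0 + N1 + (n + 2 * p0)
      p0 := p0
      q0 := n + 2 * p0
      N1 := N1
      loc := loc
      hz := rfl
      hq := by omega
      hN := hN1pos
      hqp := by omega }
  refine End_532.joint act hadd hone hmul hfaith φ g nu1 (fun X => nu2 X 1) K c lam rho lam2
    (fun k Q => rho2 k Q 1) (Sp_365.Bad b m M Ms) (r + m) (fun P v h => (hlen P v h).le)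
    (fun P Q u b' h1 h2 => hsnd P Q u b' h1 h2) ?_ hcle ?_ ?_ ?_ ?_ ?_ ?_ ?_ ?_ s
  · intro Y _ hB u
    have hB1 : ∀ j, ¬ q j ∣ Y.length := fun j h =>
      hB (Or.inl ⟨q j, Finset.mem_image_of_mem q (Finset.mem_univ j), h⟩)
    have hB2 : ∀ j < m, M ≤ Y.length / b ^ j % b ∧ Y.length / b ^ j % b + M < b := by
      intro j hj
      by_contra h
      refine hB (Or.inr ⟨j, hj, fun h' => h ⟨h'.1, ?_⟩⟩)
      have := h'.2
      omega
    exact hcmp Y hB1 hB2 u
  · intro k hk P Q v u hP hQ h1 h2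
    have := hex2 k hk P Q 1 v u hP h1 h2
    rw [mul_one] at this
    exact this
  · intro P Q hP hPQ hQ
    by_contra h
    push Not at h
    refine gap (P ++ Q) Q.length hPQ (List.length_pos_iff.2 hQ) h ?_
    rw [List.length_append, Nat.add_sub_cancel, List.take_left]
    exact hP
  · intro k k' l l' hk hk' hl hl' hkk hll h1 h2
    by_contra hkl
    have h3 := hc2 k k' l l' hk hk' hl hl' (fun h => hkk h.symm) (Or.inl hkl)
    have h4 : |((c k : ℤ) - c k') - (c l - c l')| < 4 * (N1 : ℤ) := by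
      rw [abs_lt]
      have h1' : c k + c l' < c l + c k' + 2 * N1 := h1
      have h2' : c l + c k' < c k + c l' + 2 * N1 := h2
      constructor <;> omega
    omega
  · intro τ hτ J hJ
    have hτ' : p0 + N1 + (n + 2 * p0) ≤ τ + p0 := hτ
    have hT := hc3 (τ - p0) (fun i hi => by have := hcle i hi; omega)
    refine le_trans ?_ hT
    have hch : ∀ k, ∃ k', k ∈ J → (k' < K ∧ k' ≠ k ∧
        Sp_365.Bad b m M Ms (τ + c k' - c k - p0)) := by
      intro k
      by_cases hk : k ∈ J
      · obtain ⟨-, k', h⟩ := hJ k hk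
        exact ⟨k', fun _ => h⟩
      · exact ⟨0, fun h => absurd h hk⟩
    choose f hf using hch
    refine Finset.card_le_card_of_injOn (fun k => (k, f k)) ?_ ?_
    · intro k hk
      have hk' : k ∈ J := hk
      obtain ⟨h1, h2, h3⟩ := hf k hk'
      have hkK := (hJ k hk').1
      refine Finset.mem_coe.2 (Finset.mem_filter.2 ⟨Finset.mem_product.2
        ⟨Finset.mem_range.2 hkK, Finset.mem_range.2 h1⟩, fun h => h2 h.symm, ?_⟩)
      have e : τ - p0 + c (f k) - c k = τ + c (f k) - c k - p0 := by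
        have := hcle k hkK
        omega
      show Sp_365.Bad b m M Ms (τ - p0 + c (f k) - c k)
      rw [e]; exact h3
    · intro k _ k' _ h
      exact (Prod.mk.inj h).1
  · intro X0 v hX0
    have hX0' : X0.length = p0 := hX0
    obtain ⟨I, h1, h2⟩ := hI2 X0 1 v (fun k hk => by rw [hX0']; exact hcle k hk)
    exact ⟨I, h1, h2⟩
  · show 0 < p0 + N1 + (n + 2 * p0)
    omega
  · intro x y
    have hnu : ∀ Q Q' : List α, Q.take N1 = Q'.take N1 →
        ((Q.drop N1).map φ).prod = ((Q'.drop N1).map φ).prod →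
          Q.length % (N1 * M) = Q'.length % (N1 * M) → nu1 Q = nu1 Q' :=
      fun Q Q' h1 h2 h3 => (hloc Q Q' h1 h2 h3).2
    refine (hfib act φ p0 N1 (N1 * M) (Nat.mul_pos hN1pos hMpos) nu1 (fun X => nu2 X 1) hnu
      (z := p0 + N1 + (n + 2 * p0)) (by omega) loc len free' x y).congr fun X => ?_
    constructor
    · rintro ⟨⟨h1, h2, h3⟩, h4⟩
      exact ⟨⟨h2, h1, fun t ht htl => h3 t htl ht⟩, h4⟩
    · rintro ⟨⟨h1, h2, h3⟩, h4⟩
      exact ⟨⟨h2, h1, fun t ht htl => h3 t htl ht⟩, h4⟩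
  · intro s'
    have hreg : Language.IsRegular ({u | (u.map φ).prod = s'} : Language α) :=
      Crest.Agent.R320.Reg_852.isRegular_prod φ s'
    refine ((P4_933.hl_NB (z := p0 + N1 + (n + 2 * p0)) loc len free' hreg).mono
      (by norm_num)).congr fun w => ?_
    constructor
    · rintro ⟨h1, h2⟩
      refine ⟨(P4_933.NB_iff _ _ w).2 fun X hXw hX => ?_, h2⟩
      exact h1 X ⟨hX.2.1, hX.1, fun t ht htl => hX.2.2 t htl ht⟩ hXw
    · rintro ⟨h1, h2⟩
      refine ⟨fun X hX hXw => ?_, h2⟩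
      exact (P4_933.NB_iff _ _ w).1 h1 X hXw ⟨hX.2.1, hX.1, fun t ht htl => hX.2.2 t htl ht⟩

/-- S0495 -/
theorem row {α : Type*} [Finite α] (L : Language α) (hL : L.IsRegular) :
    ∃ e : GRegExp α, e.height ≤ 3 ∧ e.lang = L :=
  Univ_480.row_of_small_alphabet (fun A _ S _ _ f s => fin A S f s) L hL

end Crest.Agent.R320.Fin_946
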