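import Crest.Agent.R320.FinA_953
import Crest.Agent.R320.Top5_120
import Crest.Agent.R320.Sc2n_937
import Crest.Agent.R320.ExactR_237
import Crest.Agent.R320.RegKey_186

/-! Row 320 (helper953): the final join (constants + join) of the two scheme construction. -/

set_option autoImplicit false

namespace Crest.Agent.R320.Fin_953

open Crest.RegLang Crest.Agent.R320.Hk_851 Crest.Agent.R320.Blk467 Crest.Agent.R320.FinA_953
open Crest.Agent.R320

theorem reg_UE {α : Type} [Finite α] {S : Type} [Monoid S] [Finite S] (f : α → S)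
    (N P : ℕ) (hP : 0 < P) (p : List α → Prop)
    (h : ∀ U E E' : List α, U.length = N → (E.map f).prod = (E'.map f).prod →
      E.length ≡ E'.length [MOD P] → p (U ++ E) → p (U ++ E')) :
    Language.IsRegular ({w | p w} : Language α) := by
  refine RegKey_186.isRegular_of_state f N P hP _ ?_
  intro x x' h1 h2 h3 h4 h5
  have e1 : x = x.take N ++ x.drop N := (List.take_append_drop N x).symm
  have e2 : x' = x.take N ++ x'.drop N := by rw [h3]; exact (List.take_append_drop N x').symm
  have hl : (x.take N).length = N := by rw [List.length_take]; omega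
  have hm : (x.drop N).length ≡ (x'.drop N).length [MOD P] := by
    have h6 : (x.take N).length + (x.drop N).length ≡ (x.take N).length + (x'.drop N).length
        [MOD P] := by
      rw [← List.length_append, ← List.length_append, ← e1, ← e2]
      exact h5
    exact Nat.ModEq.add_left_cancel' _ h6
  constructor
  · intro hx
    have hx' : p x := hx
    rw [e1] at hx'
    have := h _ _ _ hl h4 hm hx'
    rw [← e2] at this
    exact this
  · intro hx
    have hx' : p x' := hx
    rw [e2] at hx'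
    have := h _ _ _ hl h4.symm hm.symm hx'
    rw [← e1] at this
    exact this

theorem free_PN {α : Type} {B W : ℕ} {X : List α}
    (h : ∃ (u x v : List α) (k : ℕ), u.length ≤ B ∧ x.length ≤ W ∧ v.length ≤ B ∧
      X = u ++ (List.replicate k x).flatten ++ v) :
    X ∈ (BddReg_746.PN (max B W) 2 : Language α) := by
  obtain ⟨u, x, v, k, h1, h2, h3, rfl⟩ := h
  refine Language.mem_mul.2 ⟨u ++ (List.replicate k x).flatten,
    ⟨u, x, k, h1.trans (le_max_left _ _), h2.trans (le_max_right _ _), rfl⟩, v, ?_, rfl⟩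
  refine Language.mem_mul.2 ⟨v, ⟨v, [], 0, h3.trans (le_max_left _ _), by simp, by
    simp [BddReg_746.pw]⟩, [], rfl, by simp⟩

theorem finite_le {α : Type} [Finite α] (L : Set (List α)) (n : ℕ)
    (h : ∀ w ∈ L, w.length ≤ n) : L.Finite :=
  (List.finite_length_le α n).subset h

/-- **the join** -/
theorem fin (α : Type) [Finite α] (S : Type) [Monoid S] [Finite S] (φ : α → S) (s : S) :
    HL 3 ({w | (w.map φ).prod = s} : Language α) := by
  classical
  haveI : Fintype S := Fintype.ofFinite S
  obtain ⟨act, hadd, hone, hmul, hfaith⟩ := exists_module S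
  obtain ⟨k, m, HG⟩ := Grid_899.grid_gadget_reg S (S → ZMod 2) act
  obtain ⟨K, HK⟩ := ExactR_237.exact_gadget α S (S → ZMod 2) φ act (2 * (k + m) + 2)
  obtain ⟨q, hqp, hqB, hqo, hqc⟩ := primes k (2 ^ (K + 1))
  obtain ⟨κ, hκ⟩ : ∃ κ, κ = 2 ^ (K + 4) * (∏ j, q j) * m := ⟨_, rfl⟩
  obtain ⟨lam, rho, nu, g1, g2, g3, g4, g5⟩ := HG q hqo hqc κ α (fun w => (w.map φ).prod)
    (fun u v => by simp only [List.map_append, List.prod_append])
  obtain ⟨A, hA⟩ : ∃ A, A = Grid_899.Am (∏ j, q j) κ (m + 1) := ⟨_, rfl⟩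
  obtain ⟨N1, hN1⟩ : ∃ N1, N1 = Grid_899.Am (∏ j, q j) κ m + 1 := ⟨_, rfl⟩
  obtain ⟨X, hX1, hX0, hXt⟩ := exists_X q m K hqp hqB hqo κ hκ (2 * N1)
  obtain ⟨c, hcdef⟩ : ∃ c : ℕ → ℕ, ∀ j, c j = X * 2 ^ j := ⟨fun j => X * 2 ^ j, fun _ => rfl⟩
  obtain ⟨p0, hp0⟩ : ∃ p0, p0 = X * 2 ^ K := ⟨_, rfl⟩
  have hcp : ∀ j, j < K → c j ≤ p0 := by
    intro j hj
    rw [hcdef, hp0]
    exact Nat.mul_le_mul_left _ (Nat.pow_le_pow_right (by norm_num) hj.le)
  obtain ⟨lam2, rho2, nu2, e1, e2⟩ := HK c (by
    intro i j hij _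
    rw [hcdef, hcdef]
    exact Nat.mul_lt_mul_of_pos_left (Nat.pow_lt_pow_right (by norm_num) hij) hX0)
  obtain ⟨n, _, B, Wo, hLW, hgapW, -, -, hfree⟩ :=
    Crest.Agent.R320.LWallAll_922.walls_all_left α (2 * p0 + 2 * N1) (by omega)
  obtain ⟨q0, hq0⟩ : ∃ q0, q0 = n + 2 * p0 + 2 * A := ⟨_, rfl⟩
  let g : Sc2n_937.Geo α :=
    { Wo := Wo, n := n, z := p0 + N1 + q0, p0 := p0, q0 := q0, N1 := N1
      loc := hLW.app, hz := rfl, hq := by omega, hN := by omega, hqp := by omega }
  let BadT : ℕ → Prop := Bd q m κ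
  let pre : List α → (S → ZMod 2) → (S → ZMod 2) := fun X v => act v (X.map φ).prod + nu2 X 1
  let post : (S → ZMod 2) → List α → (S → ZMod 2) := fun u Y =>
    act u (Y.map φ).prod + nup lam rho nu Y
  let nuX : List α → (S → ZMod 2) := fun X =>
    act (nu2 (X.take p0) 1) ((X.drop p0).map φ).prod + nup lam rho nu (X.drop p0)
  have hT : ∀ v X, g.T pre post v X = act v (X.map φ).prod + nuX X := by
    intro v X
    change act (act v ((X.take p0).map φ).prod + nu2 (X.take p0) 1) ((X.drop p0).map φ).prod +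
      nup lam rho nu (X.drop p0) = _
    rw [hadd, ← hmul, ← List.prod_append, ← List.map_append, List.take_append_drop, add_assoc]
  have hex1 : ∀ P Q u b, lam P = some u → rho Q = some b → b = post u (P ++ Q) := by
    intro P Q u b h1 h2
    change b = act u ((P ++ Q).map φ).prod + nup lam rho nu (P ++ Q)
    rw [nup_eq h1 h2]
    exact g3 P Q u b h1 h2
  have hlen1 : ∀ P v, lam P = some v → P.length ≤ g.N1 := by
    intro P v h
    have := (g1 P v h).1
    change P.length ≤ N1
    omega
  have hex2 : ∀ k, k < K → ∀ P Q v u, P.length = c k → Q.length = g.p0 - c k →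
      lam2 k P = some v → rho2 k Q 1 = some u → u = pre (P ++ Q) v := by
    intro k hk P Q v u hP _ h1 h2
    have := e1 k hk P Q 1 v u hP h1 h2
    rw [mul_one] at this
    exact this
  have hA1 : Grid_899.Am (∏ j, q j) κ m ≤ A := by
    rw [hA]; exact Grid_899.Am_mono (by omega)
  have hD0 : 0 < (∏ j, q j) * Grid_899.G κ m :=
    Nat.mul_pos (Finset.prod_pos fun j _ => (hqp j).pos) (Grid_899.G_pos m)
  have hpc : ∀ {X Y : List α}, g.XX X → g.XX Y → X <+: Y → X = Y := by
    rintro X Y h1 h2 ⟨t, ht⟩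
    exact g.prefix_code (R := t) (R' := []) h1 h2 (by simpa using ht)
  -- finite-state facts
  have hnu : ∀ U E E' : List α, U.length = g.z + N1 + 2 * A →
      (E.map φ).prod = (E'.map φ).prod →
      E.length ≡ E'.length [MOD (∏ j, q j) * Grid_899.G κ m] → nuX (U ++ E) = nuX (U ++ E') := by
    intro U E E' hU hE hD
    have hU' : U.length = p0 + N1 + q0 + N1 + 2 * A := hU
    change act (nu2 ((U ++ E).take p0) 1) (((U ++ E).drop p0).map φ).prod +
        nup lam rho nu ((U ++ E).drop p0) =
      act (nu2 ((U ++ E').take p0) 1) (((U ++ E').drop p0).map φ).prod +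
        nup lam rho nu ((U ++ E').drop p0)
    rw [List.take_append_of_le_length (by omega), List.take_append_of_le_length (by omega),
      List.drop_append_of_le_length (by omega), List.drop_append_of_le_length (by omega)]
    have h1 : ((U.drop p0 ++ E).map φ).prod = ((U.drop p0 ++ E').map φ).prod := by
      simp only [List.map_append, List.prod_append]
      rw [hE]
    rw [h1]
    congr 1
    refine nup_congr (a := A) (act := act) (φ := φ) ?_ ?_ ?_ ?_ hE hD
    · intro P v h
      have := (g1 P v h).1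
      omega
    · exact g3
    · rw [hA]; exact g5
    · rw [List.length_drop]; omega
  have hprod : ∀ U E E' : List α, (E.map φ).prod = (E'.map φ).prod →
      ((U ++ E).map φ).prod = ((U ++ E').map φ).prod := by
    intro U E E' hE
    simp only [List.map_append, List.prod_append]
    rw [hE]
  have hbad : ∀ U E E' : List α, U.length = g.z + N1 + 2 * A →
      E.length ≡ E'.length [MOD (∏ j, q j) * Grid_899.G κ m] →
      g.BadX BadT (U ++ E) → g.BadX BadT (U ++ E') := by
    intro U E E' hU hD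
    have hU' : U.length = p0 + N1 + q0 + N1 + 2 * A := hU
    rintro (⟨t, ht, hw, h1, h2⟩ | hb)
    · left
      have h2' : t < p0 + N1 + q0 + N1 := h2
      refine ⟨t, ?_, ?_, h1, h2⟩
      · rw [List.length_append]; omega
      · rw [List.take_append_of_le_length (by omega)] at hw ⊢
        exact hw
    · right
      change Bd q m κ ((U ++ E).length - p0) at hb
      change Bd q m κ ((U ++ E').length - p0)
      refine Bd_per q m κ ?_ hb
      have e3 : (U ++ E).length - p0 = (U.length - p0) + E.length := by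
        rw [List.length_append]; omega
      have e4 : (U ++ E').length - p0 = (U.length - p0) + E'.length := by
        rw [List.length_append]; omega
      rw [e3, e4]
      exact hD.add_left _
  have hfree' : ∀ u : List α, (∀ t < u.length, ¬ Wo (u.take t)) →
      u ∈ (BddReg_746.PN (max B (2 * p0 + 2 * N1)) 2 : Language α) := fun u hu =>
    free_PN (hfree u hu)
  have hXXiff : ∀ w : List α, P4_933.XX Wo g.z w ↔ g.XX w := by
    intro w
    constructor
    · rintro ⟨h1, h2, h3⟩
      exact ⟨h2, h1, fun t ht htl => h3 t htl ht⟩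
    · rintro ⟨h1, h2, h3⟩
      exact ⟨h2, h1, fun t htl ht => h3 t ht htl⟩
  refine Top5_120.top5 act hadd hone hmul hfaith φ nuX {X | g.XX X}
    {X | g.XX X ∧ g.BadX BadT X} ?_ (fun X hX => hX.1)
    (fun v => {P | g.LP1 pre lam v P}) (fun v => {P | Sc2n_937.Geo.LP2 K c lam2 v P})
    ?_ ?_ ?_ ?_ ?_ ?_ ?_ s
  · -- PCode
    refine ⟨?_, fun X hX Y hY h => hpc hX hY h⟩
    rintro ⟨h1, -⟩
    have h1' : p0 + N1 + q0 ≤ 0 := h1
    omega
  · -- L1 finite
    intro v
    refine finite_le _ (p0 + N1) ?_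
    rintro w ⟨h1, h2⟩
    have := hlen1 _ _ h2
    rw [List.length_drop] at this
    have h1' : p0 ≤ w.length := h1
    have h3 : w.length - p0 ≤ N1 := this
    omega
  · -- L2 finite
    intro v
    refine finite_le _ p0 ?_
    rintro w ⟨j, hj, h1, h2⟩
    rw [h1]
    exact hcp j hj
  · -- hCT
    intro x y
    refine (P4_933.hl_XX (Wo := Wo) (n := n) (z := g.z) hLW.app hLW.len hfree'
      (f := fun X => act x (X.map φ).prod + nuX X = y) ?_).congr ?_
    · refine reg_UE φ (g.z + N1 + 2 * A) _ hD0 _ ?_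
      intro U E E' hU hE hD h
      rw [← hnu U E E' hU hE hD, ← hprod U E E' hE]
      exact h
    · intro w
      change (g.XX w ∧ _) ↔ (P4_933.XX Wo g.z w ∧ _)
      rw [hXXiff]
  · -- hBT
    intro x y
    refine (P4_933.hl_XX (Wo := Wo) (n := n) (z := g.z) hLW.app hLW.len hfree'
      (f := fun X => g.BadX BadT X ∧ act x (X.map φ).prod + nuX X = y) ?_).congr ?_
    · refine reg_UE φ (g.z + N1 + 2 * A) _ hD0 _ ?_
      rintro U E E' hU hE hD ⟨h0, h⟩
      rw [← hnu U E E' hU hE hD, ← hprod U E E' hE]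
      exact ⟨hbad U E E' hU hD h0, h⟩
    · intro w
      change ((g.XX w ∧ _) ∧ _) ↔ (P4_933.XX Wo g.z w ∧ _)
      rw [hXXiff, and_assoc]
  · -- tail
    intro s
    refine (P4_933.hl_NB (Wo := Wo) (n := n) (z := g.z) hLW.app hLW.len hfree'
      (f := fun X => (X.map φ).prod = s) ?_).congr ?_
    · refine reg_UE φ 0 1 (by omega) _ ?_
      intro U E E' hU hE hD h
      rw [← hprod U E E' hE]
      exact h
    · intro w
      change ((∀ X, g.XX X → ¬ X <+: w) ∧ _) ↔ (P4_933.NB Wo g.z w ∧ _)
      rw [P4_933.NB_iff]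
      constructor
      · rintro ⟨h1, h2⟩
        exact ⟨fun X hp hX => h1 X ((hXXiff X).1 hX) hp, h2⟩
      · rintro ⟨h1, h2⟩
        exact ⟨fun X hX hp => h1 X hp ((hXXiff X).2 hX), h2⟩
  · -- hcc1
    intro X hX hXb v
    have hXX : g.XX X := hX
    have hnb : ¬ g.BadX BadT X := fun h => hXb ⟨hXX, h⟩
    have hXz : p0 + N1 + q0 ≤ X.length := hXX.1
    have hc : ∀ u : S → ZMod 2, ∃ P Q, X.drop g.p0 = P ++ Q ∧ lam P = some u ∧
        (rho Q).isSome := by
      intro u
      have hl : (X.drop p0).length = X.length - p0 := List.length_drop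
      have hnb2 : ¬ Bd q m κ (X.drop p0).length := by
        rw [hl]
        exact fun h => hnb (Or.inr h)
      have hlen : 2 * Grid_899.Am (∏ j, q j) κ (m + 1) ≤ (X.drop p0).length := by
        rw [hl, ← hA]; omega
      obtain ⟨w1, w2⟩ := Bd_window q m κ hlen hnb2
      exact g4 (X.drop p0) hlen w1 w2 u
    obtain ⟨P, Q, b, h1, h2, h3⟩ := g.complete1 pre hlen1 hXX (fun h => hnb (Or.inl h)) hc v
    have s1 := g.sound1 pre post hlen1 hex1 h2 h3
    refine ⟨P, Q, h1.symm, h2, fun x P' hP' => ?_⟩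
    have s2 := g.sound1 pre post hlen1 hex1 hP' h3
    refine ⟨s2.1, ?_⟩
    rw [← hT, ← hT, s2.2, h1, s1.2]
  · -- hcc2
    rintro X ⟨hX, hXb⟩ Y ⟨hY, -⟩ v
    have hXz : p0 + N1 + q0 ≤ X.length := hX.1
    obtain ⟨P, Q, b, h1, h2, h3⟩ := g.complete2 pre post (BadT := BadT) (K := K) (c := c)
      (lam2 := lam2) (rho2 := fun k Q => rho2 k Q 1) (C0 := k + m) hcp
      (by
        intro P Q hP hPQ hQ
        have hQl : 0 < Q.length := List.length_pos_iff.2 hQ
        have := hgapW (P ++ Q) P.length (P ++ Q).length (by rw [List.length_append]; omega) le_rfl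
          (by rw [List.take_left]; exact hP) (by rw [List.take_length]; exact hPQ)
        rw [List.length_append] at this
        change 2 * p0 + 2 * N1 < Q.length
        omega)
      (by
        intro k k' l l' _ _ _ _ hk hl h1 h2
        rw [hcdef, hcdef, hcdef, hcdef] at h1 h2
        exact ruler_sp hX1 hk hl h1 h2)
      (by
        intro τ hτ J hJ
        have hτ' : p0 + N1 + q0 ≤ τ + p0 := hτ
        choose! f hf using fun k hk => (hJ k hk).2
        have hinj : Set.InjOn (fun k => (f k, k)) (J : Set ℕ) := by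
          intro a _ b _ hab
          exact (Prod.mk.inj hab).2
        rw [← Finset.card_image_of_injOn hinj]
        refine hXt ((τ : ℤ) - p0) _ ?_
        intro p hp
        obtain ⟨a, ha, rfl⟩ := Finset.mem_image.1 hp
        obtain ⟨b1, b2, b3⟩ := hf a ha
        have haK := (hJ a ha).1
        have c1 := hcp a haK
        refine ⟨b1, haK, b2, τ + c (f a) - c a - p0, ?_, b3⟩
        have c2 := hcdef a
        have c3 := hcdef (f a)
        have c4 : ((τ + c (f a) - c a - p0 : ℕ) : ℤ) = (τ : ℤ) + c (f a) - c a - p0 := by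
          omega
        rw [c4, c2, c3]
        push_cast
        ring)
      hX hY v
      (by
        have hl : (X.take p0).length = p0 := by rw [List.length_take]; omega
        obtain ⟨I, hI1, hI2⟩ := e2 (X.take p0) 1 v (fun k hk => by rw [hl]; exact hcp k hk)
        refine ⟨I, hI1, fun k hk => ?_⟩
        obtain ⟨i1, i2, i3⟩ := hI2 k hk
        refine ⟨i1, ?_, i3⟩
        rw [List.take_take, min_eq_left (hcp k i1)] at i2
        exact i2)
    refine ⟨P, Q, h1, h2, fun x P' hP' => ?_⟩
    have hv := g.sound2 pre post (BadT := BadT) (K := K) (c := c) (lam2 := lam2)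
      (rho2 := fun k Q => rho2 k Q 1) hcp hex2 (R := []) (R' := Y) hX hXb h2 h3
      (by rw [List.append_nil]; exact h1)
    obtain ⟨X2, v1, v2, v3⟩ := hv
    have hX2Y : X2 = Y := List.append_cancel_left (v2.symm.trans h1)
    subst hX2Y
    -- the candidate block of `P' ++ Q`
    obtain ⟨k0, hk0, hP'l, hP'2⟩ := id hP'
    obtain ⟨k1, hk1, l1, hend1, hgood1, -⟩ := id h3
    have hce : ∃ l, g.CEnd Q (c k0) l := by
      by_cases hkk : k0 = k1
      · subst hkk
        exact ⟨l1, hend1⟩
      · obtain ⟨l, hl, -⟩ := hgood1 k0 hk0 hkk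
        exact ⟨l, hl⟩
    obtain ⟨l, hl⟩ := hce
    have hX'X : g.XX (P' ++ Q.take l) :=
      g.xx_of_cend (by rw [hP'l]; exact hcp k0 hk0) (by rw [hP'l]; exact hl)
    by_cases hb' : g.BadX BadT (P' ++ Q.take l)
    · left
      have hw := g.sound2 pre post (BadT := BadT) (K := K) (c := c) (lam2 := lam2)
        (rho2 := fun k Q => rho2 k Q 1) hcp hex2 (R := []) (R' := Q.drop l) hX'X hb' hP' h3
        (by rw [List.append_nil, List.append_assoc, List.take_append_drop])
      obtain ⟨Y', w1, w2, w3⟩ := hw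
      refine ⟨P' ++ Q.take l, ⟨hX'X, hb'⟩, Y', w1, w2.symm, ?_⟩
      rw [← hT, ← hT, w3, ← hT, ← hT, v3]
    · right
      exact ⟨P' ++ Q.take l, hX'X, fun h => hb' h.2, ⟨Q.drop l, by
        rw [List.append_assoc, List.take_append_drop]⟩⟩

end Crest.Agent.R320.Fin_953
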