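import Crest.Agent.R320.SemTop_727
import Crest.Agent.R320.Last_749
import Crest.Agent.R320.JointSem_814
import Crest.Agent.R320.Grid_187
import Crest.Agent.R320.RandF_808
import Crest.Agent.R320.SpoilGrid_567
import Crest.Agent.R320.Bridge_975
import Crest.Agent.R320.Univ_582

/-!
Row 320, end-to-end assembly (helper958): 727's semantic top, 814's joint, 187's grid gadget,
567's ruler, 237's exact gadget, 228's walls, 749's joint of the fibres.
-/

set_option autoImplicit false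

namespace Crest.Agent.R320.Fin_958

open Crest.RegLang Crest.Agent.R320.Hk_851

/-- spoil count -/
theorem spoil {α : Type} {Wo : List α → Prop} {n W z p0 N K C0 : ℕ} {c : ℕ → ℕ} {BadT : ℕ → Prop}
    (hW : JointSem_814.Walls n W Wo) (hWg : 2 * (N + p0) ≤ W) (hcp : ∀ k < K, c k ≤ p0)
    (hz : p0 ≤ z)
    (hsp : ∀ a b c' d, a < K → b < K → c' < K → d < K → a ≠ b →
      |((c a : ℤ) - c b) - (c c' - c d)| ≤ ((2 * N : ℕ) : ℤ) → a = c' ∧ b = d)
    (hthin : ∀ T : ℤ, ∀ J : Finset ℕ, (∀ k ∈ J, k < K ∧ ∃ k' < K, k' ≠ k ∧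
      ∃ m : ℕ, (m : ℤ) = T + c k' - c k ∧ BadT m) → J.card ≤ C0)
    (U : List α) : ∃ J : Finset ℕ, J.card < 2 * C0 + 2 ∧
      ∀ k < K, JointSem_814.Spoiled Wo z p0 N K c BadT U k → k ∈ J := by
  classical
  let P0 : ℕ → Prop := fun s => s ≤ U.length ∧ Wo (U.take s) ∧ z ≤ s + p0 + N
  by_cases h0 : ∃ s, P0 s
  swap
  · refine ⟨∅, by simp, fun k hk hs => ?_⟩
    exfalso
    apply h0
    obtain ⟨k', hk', hne, h | h⟩ := hs
    · obtain ⟨s, h1, h2, h3, h4⟩ := h
      exact ⟨s, h1, h2, by have := hcp k' hk'; omega⟩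
    · obtain ⟨s, h1, h2, h3, h4, h5⟩ := h
      exact ⟨s, h1, h2, by have := hcp k' hk'; omega⟩
  obtain ⟨s0, hs0, hs0min⟩ : ∃ s0, P0 s0 ∧ ∀ s, P0 s → s0 ≤ s :=
    ⟨Nat.find h0, Nat.find_spec h0, fun s hs => Nat.find_min' h0 hs⟩
  obtain ⟨s1, hs1⟩ : ∃ s1, ∀ s, P0 s → s0 < s → (P0 s1 ∧ s0 < s1) ∧ s1 ≤ s := by
    by_cases h1 : ∃ s, P0 s ∧ s0 < s
    · exact ⟨Nat.find h1, fun s hs hs' => ⟨Nat.find_spec h1, Nat.find_min' h1 ⟨hs, hs'⟩⟩⟩
    · exact ⟨0, fun s hs hs' => (h1 ⟨s, hs, hs'⟩).elim⟩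
  let A : Finset ℕ := (Finset.range K).filter (fun k => ∃ k' < K, k' ≠ k ∧
    z + c k ≤ s0 + c k' + N ∧ s0 + c k' < z + N + c k)
  let B : ℕ → Finset ℕ := fun s => (Finset.range K).filter (fun k => ∃ k' < K, k' ≠ k ∧
    z + c k ≤ s + c k' ∧ BadT (s + c k' - c k - p0))
  have hA : A.card ≤ 1 := by
    rw [Finset.card_le_one]
    intro k hk l hl
    obtain ⟨hkK, k', hk', hne, a1, a2⟩ := Finset.mem_filter.1 hk
    obtain ⟨hlK, l', hl', hne', b1, b2⟩ := Finset.mem_filter.1 hl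
    refine (hsp k' k l' l hk' (Finset.mem_range.1 hkK) hl' (Finset.mem_range.1 hlK) hne ?_).2
    rw [abs_le]
    constructor <;> push_cast <;> omega
  have hB : ∀ s, (B s).card ≤ C0 := by
    intro s
    apply hthin ((s : ℤ) - p0)
    intro k hk
    obtain ⟨hkK, k', hk', hne, a1, a2⟩ := Finset.mem_filter.1 hk
    refine ⟨Finset.mem_range.1 hkK, k', hk', hne, _, ?_, a2⟩
    omega
  refine ⟨A ∪ (B s0 ∪ B s1), ?_, ?_⟩
  · have e1 := Finset.card_union_le A (B s0 ∪ B s1)
    have e2 := Finset.card_union_le (B s0) (B s1)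
    have e3 := hB s0
    have e4 := hB s1
    omega
  · rintro k hk ⟨k', hk', hne, h | h⟩
    · obtain ⟨s, h1, h2, h3, h4⟩ := h
      have hck := hcp k hk
      have hck' := hcp k' hk'
      have hP : P0 s := ⟨h1, h2, by omega⟩
      have hle := hs0min s hP
      have hs : s = s0 := by
        by_contra hns
        have h5 := hs0.2.2
        exact hW.gap U s0 s (by omega) (by omega) h1 hs0.2.1 h2
      subst hs
      exact Finset.mem_union_left _ (Finset.mem_filter.2 ⟨Finset.mem_range.2 hk,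
        k', hk', hne, h3, h4⟩)
    · obtain ⟨s, h1, h2, h3, h4, h5⟩ := h
      have hck := hcp k hk
      have hck' := hcp k' hk'
      have hP : P0 s := ⟨h1, h2, by omega⟩
      have hle := hs0min s hP
      by_cases hs : s = s0
      · subst hs
        exact Finset.mem_union_right _ (Finset.mem_union_left _ (Finset.mem_filter.2
          ⟨Finset.mem_range.2 hk, k', hk', hne, h3, h5⟩))
      · obtain ⟨⟨p1, p2⟩, p3⟩ := hs1 s hP (by omega)
        have hs' : s = s1 := by
          by_contra hns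
          have q1 := h4 s1 (by omega) p1.2.1
          have q2 := hs0.2.2
          exact hW.gap U s0 s1 p2 (by omega) p1.1 hs0.2.1 p1.2.1
        subst hs'
        exact Finset.mem_union_right _ (Finset.mem_union_right _ (Finset.mem_filter.2
          ⟨Finset.mem_range.2 hk, k', hk', hne, h3, h5⟩))


/-- **gadget of scheme 1**, instantiated -/
theorem gad (S V : Type) [Monoid S] [Finite S] [AddCommGroup V] [Finite V] (act : V → S → V) :
    ∃ (m r : ℕ), ∀ B : ℕ, ∃ (ms : Finset ℕ) (M : ℕ), ms.card ≤ r ∧ (∀ q ∈ ms, B < q) ∧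
      (∀ q ∈ ms, ∀ q' ∈ ms, q ≠ q' → Nat.Coprime q q') ∧ 0 < M ∧ (∀ q ∈ ms, q ∣ M) ∧
      ∀ Γ, M + 2 ≤ Γ → Nat.Coprime M Γ → ∀ (α : Type) (φ : List α → S),
        (∀ u v, φ (u ++ v) = φ u * φ v) →
        ∃ (lam rho : List α → Option V) (nu : List α → V),
          (∀ P Q v b, lam P = some v → rho Q = some b → b = act v (φ (P ++ Q)) + nu (P ++ Q)) ∧
          (∀ P v, lam P = some v → P.length < Γ ^ (m + 1)) ∧
          (∀ u : List α, 2 * Γ ^ (m + 1) ≤ u.length → Grid_187.Generic ms Γ M m u.length →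
            ∀ v, ∃ P Q, P ++ Q = u ∧ lam P = some v ∧ (rho Q).isSome) ∧
          (∀ X Y Y' : List α, X.length = 2 * Γ ^ (m + 1) → φ Y = φ Y' →
            Y.length % (M * Γ ^ (m + 1)) = Y'.length % (M * Γ ^ (m + 1)) →
            nu (X ++ Y) = nu (X ++ Y')) := by
  classical
  have := Fintype.ofFinite S
  have := Fintype.ofFinite V
  obtain ⟨m, N, e, F, hN, hF⟩ := RandF808.exists_noise S V act
  have : NeZero N := ⟨by omega⟩
  let Nm : Type := Fin m × S × (ZMod N × ZMod N) × S × (ZMod N × ZMod N) × V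
  have : Fintype Nm := inferInstanceAs (Fintype (Fin m × S × (ZMod N × ZMod N) × S × (ZMod N × ZMod N) × V))
  let E : Nm ≃ Fin (Fintype.card Nm) := Fintype.equivFin Nm
  obtain ⟨r, hr⟩ := Names_727.exists_names (Fintype.card Nm)
  refine ⟨m, r, fun B => ?_⟩
  obtain ⟨ms, M, LN, RN, h1, h2, h3, h4, h5, h6, h7, h8, h9, h10, h11⟩ := hr B
  refine ⟨ms, M, h1, h2, h3, h4, h5, ?_⟩
  intro Γ hΓ hcop α φ hφ
  let D : Grid_187.Dat α S V (ZMod N × ZMod N) :=
    { φ := φ
      act := act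
      m := m
      e := e
      F := F
      Γ := Γ
      M := M
      LN := fun o c => LN o (E c)
      RN := fun o c => RN o (E c) }
  have hNm : Grid_187.Names D ms := by
    refine ⟨h4, h5, ?_, ?_, ?_, ?_, ?_, ?_⟩
    · intro o c c' a b
      exact E.injective (h6 o _ _ a b)
    · intro o c
      exact h8 o _
    · intro o c
      exact h9 o _
    · intro T hT o o' c c' ho a b
      exact E.injective ((h10 T hT).1 o o' _ _ ho a b)
    · intro T hT hMT c
      obtain ⟨o, q1, q2, q3, q4, q5⟩ := (h10 T hT).2 (E c) 0 (by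
        have : D.M = M := rfl
        omega)
      exact ⟨o, q3, q4, q5⟩
    · intro T hT o o' c c' p p' d d' ho hp a b a' b'
      obtain ⟨q1, q2⟩ := h11 T hT o o' _ _ p p' _ _ ho hp a b a' b'
      exact ⟨E.injective q1, E.injective q2⟩
  obtain ⟨nu, k1, k2, k3, k4⟩ := Grid_187.gadget D ms hφ hΓ hcop hNm hF
  exact ⟨D.lam, D.rho, nu, k1, fun P v h => (k2 P v h).2, k3,
    fun X Y Y' hX hY hl => (k4 X Y Y' hX hY hl).2⟩

/-- a total which is not generic is bad for the ruler -/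
theorem bad_of_not_generic {ms : Finset ℕ} {Γ M m n : ℕ} (hΓ : 0 < Γ)
    (h : ¬ Grid_187.Generic ms Γ M m n) :
    SpoilGrid_567.BadT ms M Γ (m + 1) (fun _ => 0) (n : ℤ) := by
  unfold Grid_187.Generic at h
  rw [not_and_or] at h
  rcases h with h | h
  · push Not at h
    obtain ⟨q, hq, hd⟩ := h
    exact Or.inl ⟨q, hq, by exact_mod_cast hd⟩
  · push Not at h
    obtain ⟨j, h1, h2, h3⟩ := h
    refine Or.inr ⟨j + 1, by omega, by omega, ?_⟩
    have hG : 0 < Γ ^ (j + 1) := pow_pos hΓ _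
    have hm := Nat.mod_add_div n (Γ ^ (j + 1))
    have hlt := Nat.mod_lt n hG
    by_cases hc : M * Γ ^ j ≤ n % Γ ^ (j + 1)
    · have h4 := h3 hc
      refine ⟨(n / Γ ^ (j + 1) : ℕ) + 1, ?_⟩
      have hm' : ((n % Γ ^ (j + 1) : ℕ) : ℤ) + (Γ : ℤ) ^ (j + 1) * ((n / Γ ^ (j + 1) : ℕ) : ℤ) = n := by
        exact_mod_cast hm
      have h4' : (Γ : ℤ) ^ (j + 1) ≤ ((n % Γ ^ (j + 1) : ℕ) : ℤ) + (M : ℤ) * (Γ : ℤ) ^ j := by
        exact_mod_cast h4
      have hlt' : ((n % Γ ^ (j + 1) : ℕ) : ℤ) < (Γ : ℤ) ^ (j + 1) := by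
        exact_mod_cast hlt
      rw [show j + 1 - 1 = j from by omega, abs_le]
      constructor <;> nlinarith
    · refine ⟨(n / Γ ^ (j + 1) : ℕ), ?_⟩
      have hm' : ((n % Γ ^ (j + 1) : ℕ) : ℤ) + (Γ : ℤ) ^ (j + 1) * ((n / Γ ^ (j + 1) : ℕ) : ℤ) = n := by
        exact_mod_cast hm
      have hc' : ((n % Γ ^ (j + 1) : ℕ) : ℤ) < (M : ℤ) * (Γ : ℤ) ^ j := by
        have : n % Γ ^ (j + 1) < M * Γ ^ j := by omega
        exact_mod_cast this
      have h0 : (0 : ℤ) ≤ ((n % Γ ^ (j + 1) : ℕ) : ℤ) := Int.natCast_nonneg _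
      rw [show j + 1 - 1 = j from by omega, abs_le]
      constructor <;> nlinarith


theorem XX_eq {α : Type} (n : ℕ) (Sw : Set (List α)) (z : ℕ) :
    JointSem_814.XX (WallU_228.Wo n Sw) z = Last_749.XX n Sw z := by
  ext X
  constructor
  · rintro ⟨h1, h2, h3⟩
    exact ⟨h2, h1, h3⟩
  · rintro ⟨h1, h2, h3⟩
    exact ⟨h2, h1, h3⟩

/-- **fibres of a finite monoid have height three** -/
theorem main (α : Type) [Finite α] (S : Type) [Monoid S] [Finite S] (f : α → S) (s : S) :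
    HL 3 ({w | (w.map f).prod = s} : Language α) := by
  classical
  have := Fintype.ofFinite S
  let V : Type := S → ZMod 2
  let act : V → S → V := fun v s x => v (s * x)
  have hadd : ∀ a b s, act (a + b) s = act a s + act b s := fun _ _ _ => rfl
  have hone : ∀ v, act v 1 = v := fun v => by
    funext x
    show v (1 * x) = v x
    rw [one_mul]
  have hmul : ∀ v s t, act v (s * t) = act (act v s) t := fun v s t => by
    funext x
    show v (s * t * x) = v (s * (t * x))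
    rw [mul_assoc]
  have hfaith : ∀ s t : S, (∀ v, act v s = act v t) → s = t := by
    intro s t h
    by_contra hne
    have h1 := congrFun (h (fun x => if x = s then 1 else 0)) 1
    have h2 : (if s * 1 = s then (1 : ZMod 2) else 0) = if t * 1 = s then 1 else 0 := h1
    rw [mul_one, mul_one, if_pos rfl, if_neg (fun h => hne h.symm)] at h2
    exact absurd h2 (by decide)
  let φ : List α → S := fun w => (w.map f).prod
  have hφ : ∀ u v, φ (u ++ v) = φ u * φ v := fun u v => by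
    show ((u ++ v).map f).prod = _
    rw [List.map_append, List.prod_append]
  obtain ⟨m, r, hg⟩ := gad S V act
  let C0 : ℕ := r + (m + 1)
  obtain ⟨K, hK⟩ := ExactR_237.exact_gadget α S V f act (2 * C0 + 2)
  obtain ⟨ms, M, hcard, hbig, hpw, hM, hdvd, hgad⟩ := hg (4 ^ K)
  let Γ : ℕ := M * (16 * (m + 1 + 1) * 4 ^ K) + 1
  have h4K : 0 < 4 ^ K := by positivity
  have ht : 32 ≤ 16 * (m + 1 + 1) * 4 ^ K := by nlinarith
  have hΓM : M + 2 ≤ Γ := by
    have : M * 32 ≤ M * (16 * (m + 1 + 1) * 4 ^ K) := Nat.mul_le_mul_left _ ht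
    show M + 2 ≤ M * (16 * (m + 1 + 1) * 4 ^ K) + 1
    omega
  have hΓ0 : 0 < Γ := by omega
  have hcop : Nat.Coprime M Γ := by
    refine Nat.Coprime.symm ?_
    refine Nat.coprime_of_dvd fun k hk h1 h2 => ?_
    have h3 : k ∣ M * (16 * (m + 1 + 1) * 4 ^ K) := Dvd.dvd.mul_right h2 _
    have h4 : k ∣ 1 := (Nat.dvd_add_right h3).1 h1
    exact hk.one_lt.ne' (Nat.dvd_one.1 h4)
  obtain ⟨lam, rho, nu1, hsound, hlam, hcompl, hreg⟩ := hgad Γ hΓM hcop α φ hφ
  set N : ℕ := Γ ^ (m + 1) with hN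
  have hNpos : 0 < N := pow_pos hΓ0 _
  obtain ⟨x, hx1, hx2, hx3⟩ := SpoilGrid_567.spoil_grid K (m + 1) ms M Γ (2 * N) hbig
    (fun q hq => Nat.Coprime.coprime_dvd_left (hdvd q hq) hcop) hpw hM (by
      show 16 * (m + 1 + 1) * M * 4 ^ K ≤ M * (16 * (m + 1 + 1) * 4 ^ K) + 1
      have : 16 * (m + 1 + 1) * M * 4 ^ K = M * (16 * (m + 1 + 1) * 4 ^ K) := by ring
      omega)
  obtain ⟨lam2, rho2, nu2, hex, hco⟩ := hK x (fun i j hij _ => by have := hx1 i j hij; omega)
  let p0 : ℕ := x K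
  have hcp : ∀ k < K, x k ≤ p0 := fun k hk => by have := hx1 k K hk; show x k ≤ x K; omega
  obtain ⟨n, c, P, Sw, hn, hP, hloc, hgap, -, -, hfew⟩ :=
    WallU_228.walls_full (α := α) (2 * (N + p0))
  let z : ℕ := p0 + 2 * N + N + n + 1
  have hWalls : JointSem_814.Walls n (2 * (N + p0)) (WallU_228.Wo n Sw) := by
    refine ⟨hloc, fun Q hQ => hQ.1, ?_⟩
    intro X a b h1 h2 h3 h4 h5
    refine hgap (X.take b) (b - a) h5 (by omega) (by omega) ?_
    have hl : (X.take b).length = b := by rw [List.length_take]; omega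
    rw [hl, List.take_take, min_eq_left (by omega)]
    rwa [show b - (b - a) = a from by omega]
  let BadT : ℕ → Prop := fun n => ¬ Grid_187.Generic ms Γ M m n
  let nu2' : List α → V := fun X => nu2 X 1
  let D : SemTop_727.Sch α V :=
    { XX := JointSem_814.XX (WallU_228.Wo n Sw) z
      T := JointSem_814.T p0 φ act nu1 nu2'
      L1 := JointSem_814.L1 p0 φ act nu2' lam
      L2 := JointSem_814.L2 K x lam2 }
  let nu : List α → V := fun X => act (nu2' (X.take p0)) ((X.drop p0).map f).prod + nu1 (X.drop p0)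
  have hT : ∀ v X, D.T v X = act v (X.map f).prod + nu X := by
    intro v X
    show act (act v (φ (X.take p0)) + nu2' (X.take p0)) (φ (X.drop p0)) + nu1 (X.drop p0) = _
    rw [hadd, ← hmul, ← hφ, List.take_append_drop, add_assoc]
  have hnu1 : ∀ v, Language.IsRegular ({Y | nu1 Y = v} : Language α) := by
    intro v
    refine Bridge_975.reg_of_local f (2 * N) (M * N) (Nat.mul_pos hM hNpos) (fun Y => nu1 Y = v) ?_
    intro q q2 h1 h2 h3 h4 h5
    have e := hreg (q.take (2 * N)) (q.drop (2 * N)) (q2.drop (2 * N))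
      (by rw [List.length_take]; omega) h5 (by
        rw [List.length_drop, List.length_drop]
        have h6 : (q.length - 2 * N) + 2 * N ≡ (q2.length - 2 * N) + 2 * N [MOD M * N] := by
          rw [Nat.sub_add_cancel h1, Nat.sub_add_cancel h2]
          exact h4
        exact Nat.ModEq.add_right_cancel' _ h6)
    rw [List.take_append_drop, h3, List.take_append_drop] at e
    rw [e]
  have hnu : ∀ v, Language.IsRegular ({X | nu X = v} : Language α) :=
    fun v => Last_749.reg_nu act f p0 nu2' nu1 hnu1 v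
  have hXX : D.XX = Last_749.XX n Sw z := XX_eq n Sw z
  have hC : Blk467.PCode D.XX := by
    rw [hXX]
    exact Last_749.pcode (by omega)
  have hfib : ∀ a b, HL 1 (D.fib a b) := by
    intro a b
    refine (Last_749.hfib (n := n) (S := Sw) hfew z act f nu hnu a b).congr fun w => ?_
    show (w ∈ D.XX ∧ D.T a w = b) ↔ (w ∈ Last_749.XX n Sw z ∧ act a (w.map f).prod + nu w = b)
    rw [hXX, hT]
  have hL1 : ∀ a, (D.L1 a).Finite := by
    intro a
    refine (List.finite_length_lt α (p0 + N)).subset ?_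
    rintro P ⟨h1, h2⟩
    have h3 := hlam _ _ h2
    rw [List.length_drop] at h3
    show P.length < p0 + N
    omega
  have hL2 : ∀ a, (D.L2 a).Finite := by
    intro a
    refine (List.finite_length_lt α (p0 + 1)).subset ?_
    rintro P ⟨k, hk, h1, h2⟩
    have := hcp k hk
    show P.length < p0 + 1
    omega
  have hthin : ∀ T : ℤ, ∀ J : Finset ℕ, (∀ k ∈ J, k < K ∧ ∃ k' < K, k' ≠ k ∧
      ∃ m : ℕ, (m : ℤ) = T + x k' - x k ∧ BadT m) → J.card ≤ C0 := by
    intro T J hJ
    choose! g hg1 hg2 hg3 hg4 using fun k (hk : k ∈ J) => (hJ k hk).2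
    refine le_trans ?_ ((hx3 (fun _ => 0) T).trans (by
      show ms.card + (m + 1) ≤ r + (m + 1)
      omega))
    refine Finset.card_le_card_of_injOn (fun k => (g k, k)) ?_ ?_
    · intro k hk
      have hk' : k ∈ J := hk
      obtain ⟨q1, q2⟩ := hg4 k hk'
      refine Finset.mem_coe.2 (Finset.mem_filter.2 ⟨Finset.mem_product.2
        ⟨Finset.mem_range.2 (hg1 k hk'), Finset.mem_range.2 (hJ k hk').1⟩, hg2 k hk', ?_⟩)
      have := bad_of_not_generic hΓ0 q2
      rw [q1] at this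
      exact this
    · intro a _ b _ hab
      exact congrArg Prod.snd hab
  have hC2 : ∀ X1 ∈ D.Bad, ∀ X2 ∈ D.Bad, ∀ v, ∃ P ∈ D.L2 v, ∃ Q ∈ D.R2 (D.T (D.T v X1) X2),
      P ++ Q = X1 ++ X2 := by
    intro X1 h1 X2 h2 v
    refine JointSem_814.compl2 (N := N) (N0 := 2 * N) (R := 2 * C0 + 2) (rho := rho)
      (BadT := BadT) (rho2 := fun k Q => rho2 k Q 1) hWalls (by show _ ≤ p0 + 2 * N + N + n + 1; omega)
      (by show _ ≤ p0 + 2 * N + N + n + 1; omega) (fun p v h => (hlam p v h).le)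
      hsound (fun u hu hb v => hcompl u hu (not_not.1 hb) v) hcp ?_ ?_ ?_ h1.1 h2 v
    · intro k hk P Q v b hP h3 h4
      have := hex k hk P Q 1 v b hP h3 h4
      rw [mul_one] at this
      exact this
    · intro u v hu
      exact hco u 1 v hu
    · intro U _
      exact spoil hWalls le_rfl hcp (by show p0 ≤ p0 + 2 * N + N + n + 1; omega) hx2 hthin U
  refine SemTop_727.top (k := 1) act hadd hone hmul hfaith f nu D hT hC hfib hL1 hL2 hC2 ?_ s
  intro t
  refine ((Last_749.HL_rest (n := n) (S := Sw) hfew z f t).mono (by omega)).congr fun w => ?_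
  show ((∀ X ∈ D.XX, ¬ X <+: w) ∧ (w.map f).prod = t) ↔ _
  rw [hXX]
  rfl

/-- **S0495** -/
theorem result (α : Type*) [Finite α] (L : Language α) (hL : L.IsRegular) :
    ∃ e : Crest.RegLang.GRegExp α, e.height ≤ 3 ∧ e.lang = L :=
  Univ_582.final (fun β _ S _ _ φ s => main β S φ s) α L hL

end Crest.Agent.R320.Fin_958
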