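import Crest.Agent.R320.Jnt_974
import Crest.Agent.R320.ExactR_237

/-!
# Row 320: from the U-gadget to height three (helper974)

`UG S V act` : helper772's literal form of the scheme-1 gadget (with helper440's correction).
`main` : `UG` for all finite `S`, `V` gives height `≤ 3` for every regular language over a finite
alphabet in `Type`.
-/

set_option autoImplicit false

namespace Crest.Agent.R320.Fin_974

open Crest.RegLang Crest.Agent.R320.Hk_851 Crest.Agent.R320.Code110 Crest.Agent.R320.Jnt_974
open Crest.Agent.R320.FewWalls_228 Crest.Agent.R320.WallU_228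

open Classical in
/-- the U-gadget -/
def UG (S V : Type) [Monoid S] [AddCommGroup V] (act : V → S → V) : Prop :=
  ∃ C0 : ℕ, ∀ K : ℕ, ∃ (N1 Pm La : ℕ) (c : ℕ → ℕ) (BT : ℕ → Prop), 0 < Pm ∧
    (∀ i j, i < j → j < K → c i < c j) ∧
    (∀ i j k l, i < K → j < K → k < K → l < K → i ≠ j → k ≠ l → (i, j) ≠ (k, l) →
      c i + c l + 4 * N1 < c k + c j ∨ c k + c j + 4 * N1 < c i + c l) ∧
    (∀ T, BT (T + Pm) ↔ BT T) ∧
    (∀ T, La ≤ T → (((Finset.range K) ×ˢ (Finset.range K)).filter
      (fun ij => ij.1 ≠ ij.2 ∧ BT (T + c ij.2 - c ij.1))).card ≤ C0) ∧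
    ∀ (A : Type) (φ : A → S), ∃ (lam rho : List A → Option V) (nu : List A → V),
      (∀ p v, lam p = some v → p.length ≤ N1) ∧
      (∀ p q v r, lam p = some v → rho q = some r → La ≤ q.length →
        r = act v (((p ++ q).map φ).prod) + nu (p ++ q)) ∧
      (∀ u : List A, La ≤ u.length → ¬ BT u.length → ∀ v, ∃ p q, p ++ q = u ∧ lam p = some v ∧
        (rho q).isSome) ∧
      (∀ q q2 : List A, La ≤ q.length → La ≤ q2.length → q.take La = q2.take La →
        q.length % Pm = q2.length % Pm →
        ((q.drop La).map φ).prod = ((q2.drop La).map φ).prod → nu q = nu q2)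

theorem cg {α : Type} {k : ℕ} {L M : Language α} (h : HL k L) (e : ∀ w, w ∈ L ↔ w ∈ M) : HL k M :=
  h.congr fun w => (e w).symm

/-- words of length `m` -/
def Len (α : Type) (m : ℕ) : Language α := {w | w.length = m}

/-- words with few walls and a given value -/
def FV {α M : Type} [Monoid M] (n : ℕ) (S : Set (List α)) (r : ℕ) (ψ : α → M) (s : M) :
    Language α := {w | nw n S w ≤ r ∧ (w.map ψ).prod = s}

/-- one word -/
def Wd {α : Type} (u : List α) : Language α := {u}

section P4

variable {α : Type} [Finite α] {k : ℕ}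

/-- walls with everything that is used -/
theorem walls (α : Type) [Finite α] (W : ℕ) :
    ∃ (n : ℕ) (S : Set (List α)), 
      (∀ P Q : List α, n ≤ Q.length → (Wo n S (P ++ Q) ↔ Wo n S Q)) ∧
      (∀ (P : List α) (d : ℕ), Wo n S P → 0 < d → d ≤ W → ¬ Wo n S (P.take (P.length - d))) ∧
      (∀ (M : Type) [Monoid M] [Finite M] (ψ : α → M) (s : M) (r : ℕ),
        HL 1 ({w | nw n S w ≤ r ∧ (w.map ψ).prod = s} : Language α)) := by
  obtain ⟨n, c, P, S, hn, hP, hS, hsep, hper⟩ :=
    Crest.Agent.R320.Mk263.marker (α := α) (W + 1) (by omega)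
  refine ⟨n, S, fun P Q h => wo_append P Q h, ?_, fun M _ _ ψ s r =>
    Crest.Agent.R320.FewVal_228.HL_few_value hn hP hper r ψ s⟩
  intro Q d hQ hd hdW hT
  obtain ⟨h1, h2⟩ := hQ
  obtain ⟨h3, h4⟩ := hT
  have hl : (Q.take (Q.length - d)).length = Q.length - d := by rw [List.length_take]; omega
  rw [hl] at h3 h4
  rw [List.drop_take] at h4
  have e2 : Q.length - d - (Q.length - d - n) = n := by omega
  rw [e2] at h4
  have h5 : (Q.drop (Q.length - n)).take n ∈ S := by
    rw [List.take_of_length_le (by rw [List.length_drop]; omega)]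
    exact h2
  have := hsep Q (Q.length - d - n) (Q.length - n) (by omega) (by omega) h4 h5
  omega

variable {n : ℕ} {Sw : Set (List α)}

theorem HL_wo : HL k ({w | Wo n Sw w} : Language α) := by
  have hF : {v : List α | v.length = n ∧ v ∈ Sw}.Finite :=
    (List.finite_length_eq α n).subset fun v h => h.1
  refine cg (HL.suffix (HL.finite (k := k) hF)) fun w => ?_
  constructor
  · rintro ⟨v, ⟨h1, h2⟩, u, rfl⟩
    refine ⟨by rw [List.length_append]; omega, ?_⟩
    have : (u ++ v).length - n = u.length := by rw [List.length_append]; omega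
    rw [this, List.drop_left]
    exact h2
  · rintro ⟨h1, h2⟩
    exact ⟨w.drop (w.length - n), ⟨by rw [List.length_drop]; omega, h2⟩, List.drop_suffix _ _⟩

theorem HL_XX (z : ℕ) : HL k (XX (Wo n Sw) z) := by
  have hG : HL k ({w | z ≤ w.length ∧ Wo n Sw w} : Language α) :=
    (HL.length_ge z).setOf_and HL_wo
  have hP : HL k ({w | ∃ t, z ≤ t ∧ t < w.length ∧ Wo n Sw (w.take t)} : Language α) := by
    refine cg (hG.mul (HL.length_ge 1)) fun w => Language.mem_mul.trans ?_
    constructor
    · rintro ⟨a, ⟨h1, h2⟩, b, hb, rfl⟩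
      have hb' : 1 ≤ b.length := hb
      refine ⟨a.length, h1, by rw [List.length_append]; omega, ?_⟩
      rw [List.take_left]
      exact h2
    · rintro ⟨t, h1, h2, h3⟩
      refine ⟨w.take t, ⟨by rw [List.length_take]; omega, h3⟩, w.drop t, ?_,
        List.take_append_drop _ _⟩
      show 1 ≤ (w.drop t).length
      rw [List.length_drop]
      omega
  refine cg (hG.setOf_and hP.setOf_not) fun w => ?_
  constructor
  · rintro ⟨⟨h1, h2⟩, h3⟩
    exact ⟨h1, h2, fun t ht1 ht2 ht3 => h3 ⟨t, ht1, ht2, ht3⟩⟩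
  · rintro ⟨h1, h2, h3⟩
    exact ⟨⟨h1, h2⟩, fun ⟨t, ht1, ht2, ht3⟩ => h3 t ht1 ht2 ht3⟩

theorem HL_mod (Pm : ℕ) (hPm : 0 < Pm) (r : ℕ) :
    HL 1 ({w : List α | w.length % Pm = r} : Language α) := by
  by_cases hr : r < Pm
  swap
  · refine cg (HL.bot (k := 1)) fun w => ?_
    constructor
    · intro h; exact h.elim
    · intro h
      have h' : w.length % Pm = r := h
      have := Nat.mod_lt w.length hPm
      omega
  have h1 : HL 0 (Len α r) := HL.length_eq r
  have h2 : HL 0 (Len α Pm) := HL.length_eq Pm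
  refine cg ((h1.mono (Nat.zero_le 1)).mul h2.star) fun w => Language.mem_mul.trans ?_
  constructor
  · rintro ⟨a, ha, b, hb, rfl⟩
    have ha' : a.length = r := ha
    obtain ⟨L, rfl, hL⟩ := Language.mem_kstar.1 hb
    have : L.flatten.length % Pm = 0 := by
      clear ha ha' hb
      induction L with
      | nil => simp
      | cons x L ih =>
        have hx : x.length = Pm := hL x (by simp)
        rw [List.flatten_cons, List.length_append, hx, Nat.add_mod_left]
        exact ih fun y hy => hL y (by simp [hy])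
    show (a ++ L.flatten).length % Pm = r
    rw [List.length_append, Nat.add_mod, this, ha', Nat.add_zero, Nat.mod_mod,
      Nat.mod_eq_of_lt hr]
  · intro hw
    have hw' : w.length % Pm = r := hw
    refine ⟨w.take r, ?_, w.drop r, ?_, List.take_append_drop _ _⟩
    · show (w.take r).length = r
      rw [List.length_take]
      have := Nat.mod_le w.length Pm
      omega
    · have key : ∀ (m : ℕ) (v : List α), v.length = Pm * m →
          v ∈ KStar.kstar (Len α Pm) := by
        intro m
        induction m with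
        | zero =>
          intro v hv
          have : v = [] := List.length_eq_zero_iff.1 (by simpa using hv)
          rw [this, Language.mem_kstar]
          exact ⟨[], rfl, by simp⟩
        | succ m ih =>
          intro v hv
          rw [Nat.mul_succ] at hv
          have := ih (v.drop Pm) (by rw [List.length_drop]; omega)
          rw [Language.mem_kstar] at this ⊢
          obtain ⟨L, hL, hL'⟩ := this
          refine ⟨v.take Pm :: L, by rw [List.flatten_cons, ← hL, List.take_append_drop], ?_⟩
          intro y hy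
          rcases List.mem_cons.1 hy with h | h
          · subst h
            show (v.take Pm).length = Pm
            rw [List.length_take]; omega
          · exact hL' y h
      refine key (w.length / Pm) _ ?_
      rw [List.length_drop]
      have := Nat.div_add_mod w.length Pm
      omega

theorem per_mod {BT : ℕ → Prop} {Pm : ℕ} (hper : ∀ T, BT (T + Pm) ↔ BT T) (T : ℕ) :
    BT T ↔ BT (T % Pm) := by
  have key : ∀ m r, BT (r + Pm * m) ↔ BT r := by
    intro m
    induction m with
    | zero => intro r; simp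
    | succ m ih =>
      intro r
      rw [Nat.mul_succ, ← Nat.add_assoc, hper, ih]
  have := key (T / Pm) (T % Pm)
  rw [Nat.mod_add_div] at this
  exact this

theorem HL_BT {BT : ℕ → Prop} {Pm : ℕ} (hPm : 0 < Pm) (hper : ∀ T, BT (T + Pm) ↔ BT T) :
    HL 1 ({w : List α | BT w.length} : Language α) := by
  refine cg (HL.biUnion (s := {r | r < Pm ∧ BT r}) ((Set.finite_lt_nat Pm).subset fun r h => h.1)
    (fun r _ => HL_mod (α := α) Pm hPm r)) fun w => ?_
  constructor
  · rintro ⟨r, ⟨h1, h2⟩, h3⟩
    have h3' : w.length % Pm = r := h3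
    show BT w.length
    rw [per_mod hper, h3']
    exact h2
  · intro h
    have h' : BT w.length := h
    exact ⟨w.length % Pm, ⟨Nat.mod_lt _ hPm, (per_mod hper _).1 h'⟩, rfl⟩

theorem HL_Bd {BT : ℕ → Prop} {Pm z N1 p0 : ℕ} (hPm : 0 < Pm)
    (hper : ∀ T, BT (T + Pm) ↔ BT T) (hz : p0 ≤ z) :
    HL 1 (Bd (Wo n Sw) z N1 p0 BT) := by
  have hE : HL 1 ({X | ∃ t, z ≤ t + N1 ∧ t < z + N1 ∧ t ≤ X.length ∧ Wo n Sw (X.take t)} :
      Language α) := by
    have hF : {v : List α | z ≤ v.length + N1 ∧ v.length < z + N1 ∧ Wo n Sw v}.Finite :=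
      (List.finite_length_lt α (z + N1)).subset fun v h => h.2.1
    refine cg (HL.prefix (HL.finite (k := 1) hF)) fun w => ?_
    constructor
    · rintro ⟨v, ⟨h1, h2, h3⟩, u, rfl⟩
      refine ⟨v.length, h1, h2, by rw [List.length_append]; omega, ?_⟩
      rw [List.take_left]
      exact h3
    · rintro ⟨t, h1, h2, h3, h4⟩
      have : (w.take t).length = t := by rw [List.length_take]; omega
      exact ⟨w.take t, ⟨by rw [this]; exact h1, by rw [this]; exact h2, h4⟩, List.take_prefix _ _⟩
  have hB : HL 1 ({X : List α | p0 ≤ X.length ∧ BT (X.length - p0)} : Language α) := by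
    refine cg ((HL.length_eq p0).mul (HL_BT hPm hper)) fun w => Language.mem_mul.trans ?_
    constructor
    · rintro ⟨a, ha, b, hb, rfl⟩
      have ha' : a.length = p0 := ha
      have hb' : BT b.length := hb
      refine ⟨by rw [List.length_append]; omega, ?_⟩
      have : (a ++ b).length - p0 = b.length := by rw [List.length_append]; omega
      rw [this]
      exact hb'
    · rintro ⟨h1, h2⟩
      refine ⟨w.take p0, ?_, w.drop p0, ?_, List.take_append_drop _ _⟩
      · show (w.take p0).length = p0
        rw [List.length_take]; omega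
      · show BT (w.drop p0).length
        rw [List.length_drop]
        exact h2
  have hX : HL 1 (XX (Wo n Sw) z) := HL_XX z
  refine cg (hX.inf (hE.setOf_or hB)) fun w => ?_
  constructor
  · rintro ⟨h1, h | ⟨_, h⟩⟩
    · exact ⟨h1, Or.inl h⟩
    · exact ⟨h1, Or.inr h⟩
  · rintro ⟨h1, h | h⟩
    · exact ⟨h1, Or.inl h⟩
    · exact ⟨h1, Or.inr ⟨le_trans hz h1.1, h⟩⟩

/-- few walls -/
theorem nw_few (hloc : ∀ P Q : List α, n ≤ Q.length → (Wo n Sw (P ++ Q) ↔ Wo n Sw Q)) {z : ℕ}
    (u v : List α) (h : ∀ t, z ≤ t → t < (u ++ v).length → ¬ Wo n Sw ((u ++ v).take t)) :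
    nw n Sw v ≤ z + 1 := by
  classical
  unfold nw
  have hsub : (Finset.range (v.length + 1)).filter (fun x => Wl n Sw v x) ⊆
      Finset.range z ∪ {v.length - n} := by
    intro x hx
    rw [Finset.mem_filter, Finset.mem_range] at hx
    obtain ⟨-, hx⟩ := hx
    obtain ⟨h1, h2⟩ := wo_take.1 hx
    rw [Finset.mem_union, Finset.mem_range, Finset.mem_singleton]
    by_cases hz : x < z
    · exact Or.inl hz
    · right
      by_contra hne
      have h3 := (hloc u (v.take (x + n)) (by rw [List.length_take]; omega)).2 h2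
      rw [← take_add] at h3
      exact h (u.length + (x + n)) (by omega) (by rw [List.length_append]; omega) h3
  have h1 := Finset.card_le_card hsub
  have h2 := Finset.card_union_le (Finset.range z) {v.length - n}
  rw [Finset.card_range, Finset.card_singleton] at h2
  convert h1.trans h2

end P4

section main

variable {S V : Type} [Monoid S] [AddCommGroup V]

theorem act_sub {act : V → S → V} (hadd : ∀ a b s, act (a + b) s = act a s + act b s)
    (a b : V) (s : S) : act (a - b) s = act a s - act b s := by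
  have h := hadd (a - b) b s
  rw [sub_add_cancel] at h
  rw [h, add_sub_cancel_right]

theorem Tm_sub {α : Type} {act : V → S → V} (hadd : ∀ a b s, act (a + b) s = act a s + act b s)
    (hmul : ∀ v s t, act v (s * t) = act (act v s) t) {f : α → S} {p0 : ℕ}
    {nu1 nu2 : List α → V} (u : List α) (v v' : V) :
    Tm act (fun w => (w.map f).prod) p0 nu1 nu2 u v -
      Tm act (fun w => (w.map f).prod) p0 nu1 nu2 u v' = act (v - v') (u.map f).prod := by
  unfold Tm
  have h1 : (u.map f).prod = ((u.take p0).map f).prod * ((u.drop p0).map f).prod := by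
    rw [← List.prod_append, ← List.map_append, List.take_append_drop]
  rw [add_sub_add_right_eq_sub, ← act_sub hadd, add_sub_add_right_eq_sub, ← act_sub hadd, h1, hmul]

/-- the value languages of blocks -/
theorem HL_ZT [Finite S] {α : Type} [Finite α] {n z p0 La Pm : ℕ} {Sw : Set (List α)}
    {act : V → S → V} {f : α → S} {nu1 nu2 : List α → V} (hPm : 0 < Pm)
    (hloc : ∀ P Q : List α, n ≤ Q.length → (Wo n Sw (P ++ Q) ↔ Wo n Sw Q))
    (hval : ∀ (M : Type) [Monoid M] [Finite M] (ψ : α → M) (s : M) (r : ℕ),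
        HL 1 ({w | nw n Sw w ≤ r ∧ (w.map ψ).prod = s} : Language α))
    (hnu : ∀ q q2 : List α, La ≤ q.length → La ≤ q2.length → q.take La = q2.take La →
        q.length % Pm = q2.length % Pm →
        ((q.drop La).map f).prod = ((q2.drop La).map f).prod → nu1 q = nu1 q2)
    (hz : p0 + La ≤ z) (x y : V) :
    HL 1 (ZT (XX (Wo n Sw) z) (Tm act (fun w => (w.map f).prod) p0 nu1 nu2) x y) := by
  classical
  set T := Tm act (fun w => (w.map f).prod) p0 nu1 nu2 with hT
  set Kc := p0 + La with hKc
  -- value of the text in `S × ZMod Pm`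
  haveI : NeZero Pm := ⟨by omega⟩
  let ψ : α → S × Multiplicative (ZMod Pm) := fun a => (f a, Multiplicative.ofAdd 1)
  have hψ : ∀ w : List α, (w.map ψ).prod =
      ((w.map f).prod, Multiplicative.ofAdd ((w.length : ℕ) : ZMod Pm)) := by
    intro w
    induction w with
    | nil =>
      refine Prod.ext rfl ?_
      show (1 : Multiplicative (ZMod Pm)) = _
      rw [List.length_nil, Nat.cast_zero]
      rfl
    | cons a w ih =>
      rw [List.map_cons, List.prod_cons, ih, List.map_cons, List.prod_cons, List.length_cons]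
      refine Prod.ext rfl ?_
      show Multiplicative.ofAdd (1 : ZMod Pm) * Multiplicative.ofAdd ((w.length : ℕ) : ZMod Pm) = _
      rw [← ofAdd_add]
      congr 1
      push_cast
      ring
  have hdep : ∀ w w' : List α, Kc ≤ w.length → Kc ≤ w'.length → w.take Kc = w'.take Kc →
      ((w.drop Kc).map ψ).prod = ((w'.drop Kc).map ψ).prod → T w x = T w' x := by
    intro w w' h1 h2 h3 h4
    rw [hψ, hψ] at h4
    have h5 := (Prod.mk.inj h4).1
    have h6 := Multiplicative.ofAdd.injective (Prod.mk.inj h4).2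
    rw [ZMod.natCast_eq_natCast_iff] at h6
    have e1 : w.take p0 = w'.take p0 := by
      have := congrArg (List.take p0) h3
      rwa [List.take_take, List.take_take, min_eq_left (by omega)] at this
    have e2 : (w.drop p0).take La = (w'.drop p0).take La := by
      have := congrArg (List.drop p0) h3
      rw [List.drop_take, List.drop_take] at this
      have e : Kc - p0 = La := by omega
      rwa [e] at this
    have e3 : (w.drop p0).drop La = w.drop Kc := by rw [List.drop_drop]
    have e3' : (w'.drop p0).drop La = w'.drop Kc := by rw [List.drop_drop]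
    have e4 : ((w.drop p0).map f).prod = ((w'.drop p0).map f).prod := by
      rw [← List.take_append_drop La (w.drop p0), ← List.take_append_drop La (w'.drop p0),
        List.map_append, List.map_append, List.prod_append, List.prod_append, e2, e3, e3', h5]
    have e5 : nu1 (w.drop p0) = nu1 (w'.drop p0) := by
      refine hnu _ _ (by rw [List.length_drop]; omega) (by rw [List.length_drop]; omega) e2 ?_
        (by rw [e3, e3', h5])
      rw [List.length_drop] at h6 ⊢
      rw [List.length_drop] at h6 ⊢
      have a1 : w.length - p0 = (w.length - Kc) + La := by omega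
      have a2 : w'.length - p0 = (w'.length - Kc) + La := by omega
      rw [a1, a2]
      exact Nat.ModEq.add_right La h6
    rw [hT]
    unfold Tm
    rw [e1, e5]
    simp only [e4]
  have hfin : {u : List α | u.length = Kc}.Finite := List.finite_length_eq α Kc
  have key : HL 1 ({w | ∃ us ∈ ({us : List α × (S × Multiplicative (ZMod Pm)) |
      us.1.length = Kc ∧ ∃ w0 : List α, Kc ≤ w0.length ∧ w0.take Kc = us.1 ∧
        ((w0.drop Kc).map ψ).prod = us.2 ∧ T w0 x = y}),
      w ∈ Wd us.1 * FV n Sw (z + 1) ψ us.2} : Language α) := by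
    refine HL.biUnion ?_ fun us _ => (HL.word us.1).mul (hval _ ψ us.2 (z + 1))
    refine (hfin.prod (Set.toFinite (Set.univ : Set (S × Multiplicative (ZMod Pm))))).subset ?_
    rintro ⟨u, s⟩ ⟨h, -⟩
    exact ⟨h, trivial⟩
  have hX : HL 1 (XX (Wo n Sw) z) := HL_XX z
  refine cg (hX.inf key) fun w => ?_
  constructor
  · rintro ⟨hw, us, ⟨h1, w0, h2, h3, h4, h5⟩, hm⟩
    refine ⟨hw, ?_⟩
    obtain ⟨a, ha, b, ⟨-, hb⟩, rfl⟩ := Language.mem_mul.1 hm
    have ha' : a = us.1 := ha
    subst ha'
    rw [← h5]
    refine hdep _ _ (by rw [List.length_append]; omega) h2 ?_ ?_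
    · rw [h3, ← h1, List.take_left]
    · rw [h4, ← h1, List.drop_left, hb]
  · rintro ⟨hw, hTw⟩
    have hlw : z ≤ w.length := hw.1
    refine ⟨hw, (w.take Kc, ((w.drop Kc).map ψ).prod), ⟨by rw [List.length_take]; omega, w,
      by omega, rfl, rfl, hTw⟩, ?_⟩
    refine Language.mem_mul.2 ⟨w.take Kc, rfl, w.drop Kc, ⟨?_, rfl⟩, List.take_append_drop _ _⟩
    refine nw_few hloc (w.take Kc) (w.drop Kc) ?_
    rw [List.take_append_drop]
    exact hw.2.2

theorem HL_tail [Finite S] {α : Type} [Finite α] {n z : ℕ} {Sw : Set (List α)} {f : α → S}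
    (hloc : ∀ P Q : List α, n ≤ Q.length → (Wo n Sw (P ++ Q) ↔ Wo n Sw Q))
    (hval : ∀ (M : Type) [Monoid M] [Finite M] (ψ : α → M) (s : M) (r : ℕ),
        HL 1 ({w | nw n Sw w ≤ r ∧ (w.map ψ).prod = s} : Language α)) (s : S) :
    HL 3 ({w | (∀ u ∈ XX (Wo n Sw) z, ¬ u <+: w) ∧ (w.map f).prod = s} : Language α) := by
  have h1 : HL 1 ({w | ∃ v ∈ XX (Wo n Sw) z, v <+: w} : Language α) := HL.prefix (HL_XX z)
  refine cg ((h1.setOf_not.inf (hval S f s (z + 1))).mono (by norm_num)) fun w => ?_
  constructor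
  · rintro ⟨h2, -, h3⟩
    exact ⟨fun u hu hp => h2 ⟨u, hu, hp⟩, h3⟩
  · rintro ⟨h2, h3⟩
    refine ⟨fun ⟨u, hu, hp⟩ => h2 u hu hp, ?_, h3⟩
    refine nw_few hloc [] w ?_
    rw [List.nil_append]
    intro t ht1 ht2 ht3
    classical
    have hex : ∃ t, z ≤ t ∧ t < w.length ∧ Wo n Sw (w.take t) := ⟨t, ht1, ht2, ht3⟩
    obtain ⟨g1, g2, g3⟩ := Nat.find_spec hex
    have gmin := fun m (hm : m < Nat.find hex) => Nat.find_min hex hm
    have hl : (w.take (Nat.find hex)).length = Nat.find hex := by rw [List.length_take]; omega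
    refine h2 (w.take (Nat.find hex)) ⟨by omega, g3, ?_⟩ (List.take_prefix _ _)
    intro t h1 h2 h3
    rw [hl] at h2
    rw [List.take_take, min_eq_left (by omega)] at h3
    exact gmin t h2 ⟨h1, by omega, h3⟩

/-- **height three** -/
theorem main [Finite S] [Finite V] {act : V → S → V} (hUG : UG S V act)
    (hadd : ∀ a b s, act (a + b) s = act a s + act b s) (hone : ∀ v, act v 1 = v)
    (hmul : ∀ v s t, act v (s * t) = act (act v s) t)
    (hfaith : ∀ s t : S, (∀ v, act v s = act v t) → s = t)
    {α : Type} [Finite α] (f : α → S) (s : S) :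
    HL 3 ({w | (w.map f).prod = s} : Language α) := by
  classical
  haveI := Fintype.ofFinite S
  haveI := Fintype.ofFinite V
  obtain ⟨C0, hC0⟩ := hUG
  obtain ⟨K, hK⟩ := ExactR_237.exact_gadget α S V f act (2 * C0 + 2)
  obtain ⟨N1, Pm, La, c, BT, hPm, hcm, hres, hper, hsp, hg⟩ := hC0 K
  obtain ⟨lam2, rho2, nu2, hx1, hx2⟩ := hK c hcm
  obtain ⟨lam, rho, nu1, g1, g2, g3, g4⟩ := hg α f
  obtain ⟨p0, hp0⟩ : ∃ p0, ∀ k < K, c k ≤ p0 :=
    ⟨∑ k ∈ Finset.range K, c k, fun k hk =>
      Finset.single_le_sum (f := c) (fun _ _ => Nat.zero_le _) (Finset.mem_range.2 hk)⟩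
  obtain ⟨n, Sw, hloc, hsep, hval⟩ := walls α (2 * p0 + 2 * N1)
  obtain ⟨z, hz⟩ : ∃ z, z = 2 * p0 + 2 * N1 + n + La + 1 := ⟨_, rfl⟩
  have hgap : ∀ w : List α, ∀ s t, s < t → t ≤ w.length → Wo n Sw (w.take s) →
      Wo n Sw (w.take t) → 2 * p0 + 2 * N1 < t - s := by
    intro w s t h1 h2 h3 h4
    by_contra h
    have hl : (w.take t).length = t := by rw [List.length_take]; omega
    refine hsep (w.take t) (t - s) h4 (by omega) (by omega) ?_
    rw [hl, List.take_take]
    have : min (t - (t - s)) t = s := by omega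
    rw [this]
    exact h3
  have hφ : ∀ u w : List α, ((u ++ w).map f).prod = (u.map f).prod * (w.map f).prod := by
    intro u w
    rw [List.map_append, List.prod_append]
  refine Top5_110.top_sem (φ := fun w : List α => (w.map f).prod) (act := act)
    (XX := XX (Wo n Sw) z) (Bad := Bd (Wo n Sw) z N1 p0 BT)
    (T := Tm act (fun w => (w.map f).prod) p0 nu1 (fun X => nu2 X 1))
    (by simp) hφ hone hmul hfaith (XX_pc (by omega)) Bd_sub
    (fun u _ v v' => Tm_sub hadd hmul u v v') (HL_XX z) (HL_Bd hPm hper (by omega))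
    (fun x y => HL_ZT hPm hloc hval g4 (by omega) x y) (fun s => HL_tail hloc hval s)
    (N1 := 0) (N2 := 1)
    (L1 := L1 act (fun w : List α => (w.map f).prod) p0 (fun X => nu2 X 1) lam)
    (L2 := L2 K c lam2) ?_ ?_ ?_ ?_ s
  · intro v
    refine (List.finite_length_le α (p0 + N1)).subset ?_
    rintro P ⟨X1, p, rfl, h1, h2⟩
    have := g1 p _ h2
    show (X1 ++ p).length ≤ p0 + N1
    rw [List.length_append]
    omega
  · intro v
    refine (List.finite_length_le α p0).subset ?_
    rintro P ⟨k, hk, h1, -⟩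
    have := hp0 k hk
    show P.length ≤ p0
    omega
  · exact comp1 (n := n) (La := La) (rho := rho) hloc g1 g2 g3 (by omega)
  · refine comp2 (n := n) (R := 2 * C0 + 2) (rho2 := fun k Q => rho2 k Q 1) hloc hp0 ?_ ?_ ?_
      (by omega)
    · intro k hk P Q v b h1 h2 h3
      have := hx1 k hk P Q 1 v b h1 h2 h3
      rw [mul_one] at this
      exact this
    · intro X1 hX1 v
      exact hx2 X1 1 v (fun k hk => by rw [hX1]; exact hp0 k hk)
    · intro X hX X' hX'
      have := spoil (Wo := Wo n Sw) (z := z) (La := La) (W := 2 * p0 + 2 * N1) hp0 hres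
        (fun T hT => by convert hsp T hT) le_rfl (by omega) (X ++ X') (hgap (X ++ X'))
      convert this

end main

end Crest.Agent.R320.Fin_974
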