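import Crest.Agent.R320.Top5_120
import Crest.Agent.R320.Sc2n_937
import Crest.Agent.R320.Grid_899
import Crest.Agent.R320.Thin_963
import Crest.Agent.R320.ExactR_237
import Crest.Agent.R320.LWallAll_922
import Crest.Agent.R320.P4_933

/-!
# Row 320: the join (helper98) over Top5_120, Sc2n_937, Grid_899, Thin_963, ExactR_237,
LWallAll_922, P4_933.
-/

set_option autoImplicit false

namespace Crest.Agent.R320.Fin_98

open Crest.RegLang Crest.Agent.R320.Hk_851 Crest.Agent.R320.Blk467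
open Crest.Agent.R320.Grid_899 (G Am lo)

/-- product of a word -/
def pd {α S : Type} [Monoid S] (φ : α → S) (w : List α) : S := (w.map φ).prod

theorem pd_append {α S : Type} [Monoid S] (φ : α → S) (u w : List α) :
    pd φ (u ++ w) = pd φ u * pd φ w := by simp [pd]

/-- same finite-state class -/
structure Cls {α S : Type} [Monoid S] (φ : α → S) (A M0 : ℕ) (u u' : List α) : Prop where
  l : A ≤ u.length
  l' : A ≤ u'.length
  t : u.take A = u'.take A
  m : u.length % M0 = u'.length % M0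
  d : pd φ (u.drop A) = pd φ (u'.drop A)

section

variable {α S : Type} [Monoid S] {φ : α → S} {A A' M0 p : ℕ} {u u' : List α}

theorem Cls.symm (h : Cls φ A M0 u u') : Cls φ A M0 u' u :=
  ⟨h.l', h.l, h.t.symm, h.m.symm, h.d.symm⟩

theorem Cls.val (h : Cls φ A M0 u u') : pd φ u = pd φ u' := by
  rw [← List.take_append_drop A u, ← List.take_append_drop A u', pd_append, pd_append, h.t, h.d]

theorem Cls.drop (h : Cls φ (p + A) M0 u u') : Cls φ A M0 (u.drop p) (u'.drop p) := by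
  obtain ⟨h1, h2, h3, h4, h5⟩ := h
  refine ⟨by rw [List.length_drop]; omega, by rw [List.length_drop]; omega, ?_, ?_, ?_⟩
  · have := congrArg (fun l => l.drop p) h3
    simp only [List.drop_take] at this
    simpa using this
  · rw [List.length_drop, List.length_drop]
    refine Nat.ModEq.add_right_cancel' p ?_
    rw [Nat.sub_add_cancel (by omega), Nat.sub_add_cancel (by omega)]
    exact h4
  · rw [List.drop_drop, List.drop_drop]
    exact h5

theorem Cls.mono (hA : A ≤ A') (h : Cls φ A' M0 u u') : Cls φ A M0 u u' := by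
  obtain ⟨h1, h2, h3, h4, h5⟩ := h
  refine ⟨by omega, by omega, ?_, h4, ?_⟩
  · have := congrArg (fun l => l.take A) h3
    simpa [List.take_take, Nat.min_eq_left hA] using this
  · have e : ∀ w : List α, A' ≤ w.length →
        pd φ (w.drop A) = pd φ ((w.take A').drop A) * pd φ (w.drop A') := by
      intro w hw
      conv_lhs => rw [← List.take_append_drop A' w]
      rw [List.drop_append_of_le_length (by rw [List.length_take]; omega), pd_append]
    rw [e u h1, e u' h2, h3, h5]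

end

/-- finite-state properties are regular -/
theorem regular_of_class {α : Type} [Finite α] {S : Type} [Monoid S] [Finite S] (φ : α → S)
    (A M0 : ℕ) (hM : 0 < M0) (f : List α → Prop)
    (hf : ∀ u u' : List α, Cls φ A M0 u u' → (f u → f u')) :
    Language.IsRegular ({u | f u} : Language α) := by
  classical
  haveI : NeZero M0 := ⟨by omega⟩
  have hfin : Finite {l : List α // l.length ≤ A} := List.finite_length_le α A
  let σ := {l : List α // l.length ≤ A} × ZMod M0 × S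
  haveI : Fintype σ := Fintype.ofFinite σ
  let st : List α → σ := fun u =>
    (⟨u.take A, by rw [List.length_take]; omega⟩, (u.length : ZMod M0), pd φ (u.drop A))
  let M : DFA α σ :=
    { step := fun q a =>
        (if h : q.1.1.length < A then ⟨q.1.1 ++ [a], by simp; omega⟩ else q.1,
          q.2.1 + 1, if q.1.1.length < A then q.2.2 else q.2.2 * φ a)
      start := st []
      accept := {q | ∃ u, f u ∧ st u = q} }
  have hev : ∀ u, M.eval u = st u := by
    intro u
    induction u using List.reverseRecOn with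
    | nil => rfl
    | append_singleton u a ih =>
      rw [DFA.eval_append_singleton, ih]
      refine Prod.ext ?_ (Prod.ext ?_ ?_)
      · apply Subtype.ext
        show (if h : (u.take A).length < A then (⟨u.take A ++ [a], by simp at h ⊢; omega⟩ :
          {l : List α // l.length ≤ A}) else ⟨u.take A, by rw [List.length_take]; omega⟩).1
          = (u ++ [a]).take A
        rw [P4_933.take_snoc]
        split_ifs <;> rfl
      · show (u.length : ZMod M0) + 1 = (((u ++ [a]).length : ℕ) : ZMod M0)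
        simp
      · show (if (u.take A).length < A then pd φ (u.drop A) else pd φ (u.drop A) * φ a) =
          pd φ ((u ++ [a]).drop A)
        split_ifs with h
        · rw [List.length_take] at h
          rw [List.drop_of_length_le (by omega), List.drop_of_length_le (by simp; omega)]
        · rw [List.length_take] at h
          rw [List.drop_append_of_le_length (by omega), pd_append]
          simp [pd]
  refine Language.isRegular_iff.2 ⟨σ, inferInstance, M, ?_⟩
  ext u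
  rw [DFA.mem_accepts, hev]
  constructor
  · rintro ⟨u', h1, h2⟩
    have e1 : u'.take A = u.take A := congrArg (fun q : σ => q.1.1) h2
    have e2 : (u'.length : ZMod M0) = (u.length : ZMod M0) := congrArg (fun q : σ => q.2.1) h2
    have e3 : pd φ (u'.drop A) = pd φ (u.drop A) := congrArg (fun q : σ => q.2.2) h2
    have e2' : u'.length % M0 = u.length % M0 := (ZMod.natCast_eq_natCast_iff' _ _ _).1 e2
    have e4 := congrArg List.length e1
    rw [List.length_take, List.length_take] at e4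
    by_cases h : u.length < A
    · rw [List.take_of_length_le (by omega), List.take_of_length_le (by omega)] at e1
      rw [← e1]; exact h1
    · exact hf u' u ⟨by omega, by omega, e1, e2', e3⟩ h1
  · intro h
    exact ⟨u, h, rfl⟩

/-- gadget 1 with a finite-state potential -/
theorem gadget1 (S V : Type) [Monoid S] [Finite S] [AddCommGroup V] [Finite V]
    (act : V → S → V) :
    ∃ (k m : ℕ), ∀ q : Fin k → ℕ, (∀ j, Odd (q j)) →
      Pairwise (fun i j => Nat.Coprime (q i) (q j)) → ∀ κ : ℕ,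
      ∀ (α : Type) (φ : α → S),
      ∃ (lam rho : List α → Option V) (nu : List α → V),
        (∀ P v, lam P = some v → P.length ≤ Am (∏ j, q j) κ m) ∧
        (∀ P Q v b, lam P = some v → rho Q = some b → b = act v (pd φ (P ++ Q)) + nu (P ++ Q)) ∧
        (∀ u : List α, 2 * Am (∏ j, q j) κ (m + 1) ≤ u.length → (∀ j, ¬ q j ∣ u.length) →
          (∀ j, 1 ≤ j → j ≤ m →
            (∏ j, q j) * G κ (j - 1) ≤ (u.length - Am (∏ j, q j) κ j) % G κ j ∧
            (u.length - Am (∏ j, q j) κ j) % G κ j + (∏ j, q j) * G κ (j - 1) ≤ G κ j) →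
          ∀ v, ∃ P Q, u = P ++ Q ∧ lam P = some v ∧ (rho Q).isSome) ∧
        (∀ u u' : List α, Cls φ (Am (∏ j, q j) κ m + Am (∏ j, q j) κ (m + 1))
          ((∏ j, q j) * G κ m) u u' → nu u = nu u') := by
  classical
  obtain ⟨k, m, H⟩ := Grid_899.grid_gadget_reg S V act
  refine ⟨k, m, fun q hq hc κ α φ => ?_⟩
  obtain ⟨lam, rho, nu, h1, h2, h3, h4, h5⟩ := H q hq hc κ α (pd φ) (pd_append φ)
  set B := Am (∏ j, q j) κ m with hB
  set C := Am (∏ j, q j) κ (m + 1) with hC
  set M0 := (∏ j, q j) * G κ m with hM0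
  let nu' : List α → V := fun u =>
    if ∃ P Q v b, u = P ++ Q ∧ lam P = some v ∧ rho Q = some b then nu u else 0
  have key : ∀ u u' : List α, Cls φ (B + C) M0 u u' →
      (∃ P Q v b, u = P ++ Q ∧ lam P = some v ∧ rho Q = some b) →
      (∃ P Q v b, u' = P ++ Q ∧ lam P = some v ∧ rho Q = some b) ∧ nu u = nu u' := by
    rintro u u' hcl ⟨P, Q, v, b, rfl, hP, hQ⟩
    have hPl := (h1 P v hP).1
    have hcl' : Cls φ (P.length + C) M0 (P ++ Q) u' := hcl.mono (by omega)
    have hd : Cls φ C M0 ((P ++ Q).drop P.length) (u'.drop P.length) := hcl'.drop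
    rw [List.drop_left] at hd
    have hPt : u'.take P.length = P := by
      have ht := hcl.t
      have := congrArg (fun l => l.take P.length) ht
      simp only [List.take_take] at this
      rw [Nat.min_eq_left (by omega), List.take_left] at this
      exact this.symm
    have hu' : u' = P ++ u'.drop P.length := by
      conv_lhs => rw [← List.take_append_drop P.length u', hPt]
    have hr : rho (u'.drop P.length) = some b := by
      rw [← hQ]
      exact (h5 Q (u'.drop P.length) hd.l hd.l' hd.t hd.d hd.m).symm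
    refine ⟨⟨P, u'.drop P.length, v, b, hu', hP, hr⟩, ?_⟩
    have e1 := h3 P Q v b hP hQ
    have e2 := h3 P (u'.drop P.length) v b hP hr
    rw [← hu'] at e2
    rw [hcl.val] at e1
    rw [e1] at e2
    exact add_left_cancel e2
  refine ⟨lam, rho, nu', fun P v h => (h1 P v h).1.le, ?_, h4, ?_⟩
  · intro P Q v b hP hQ
    have : nu' (P ++ Q) = nu (P ++ Q) := if_pos ⟨P, Q, v, b, rfl, hP, hQ⟩
    rw [this]
    exact h3 P Q v b hP hQ
  · intro u u' hcl
    by_cases h : ∃ P Q v b, u = P ++ Q ∧ lam P = some v ∧ rho Q = some b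
    · obtain ⟨h', e⟩ := key u u' hcl h
      show (if _ then _ else _) = (if _ then _ else _)
      rw [if_pos h, if_pos h', e]
    · have h' : ¬ ∃ P Q v b, u' = P ++ Q ∧ lam P = some v ∧ rho Q = some b :=
        fun h' => h (key u' u hcl.symm h').1
      show (if _ then _ else _) = (if _ then _ else _)
      rw [if_neg h, if_neg h']

/-! ### bad totals -/

/-- bad totals -/
def BadT {k : ℕ} (q : Fin k → ℕ) (κ m : ℕ) (T : ℕ) : Prop :=
  (∃ j, q j ∣ T) ∨ ∃ j, 1 ≤ j ∧ j ≤ m ∧
    ¬ ((∏ j, q j) * G κ (j - 1) ≤ (T - Am (∏ j, q j) κ j) % G κ j ∧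
      (T - Am (∏ j, q j) κ j) % G κ j + (∏ j, q j) * G κ (j - 1) ≤ G κ j)

theorem badT_congr {k : ℕ} {q : Fin k → ℕ} {κ m T T' : ℕ}
    (hT : Am (∏ j, q j) κ m ≤ T) (hT' : Am (∏ j, q j) κ m ≤ T')
    (h : T % ((∏ j, q j) * G κ m) = T' % ((∏ j, q j) * G κ m)) (hb : BadT q κ m T) :
    BadT q κ m T' := by
  have h' : T ≡ T' [MOD (∏ j, q j) * G κ m] := h
  rcases hb with ⟨j, hj⟩ | ⟨j, h1, h2, h3⟩
  · left
    refine ⟨j, ?_⟩
    have hd : q j ∣ (∏ j, q j) * G κ m :=
      (Finset.dvd_prod_of_mem q (Finset.mem_univ j)).mul_right _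
    exact ((h'.of_dvd hd).dvd_iff dvd_rfl).1 hj
  · right
    refine ⟨j, h1, h2, ?_⟩
    have hA : Am (∏ j, q j) κ j ≤ Am (∏ j, q j) κ m := Grid_899.Am_mono h2
    have e : (T - Am (∏ j, q j) κ j) % G κ j = (T' - Am (∏ j, q j) κ j) % G κ j := by
      have hd : G κ j ∣ (∏ j, q j) * G κ m := (Grid_899.G_dvd h2).mul_left _
      refine Nat.ModEq.add_right_cancel' (Am (∏ j, q j) κ j) ?_
      rw [Nat.sub_add_cancel (by omega), Nat.sub_add_cancel (by omega)]
      exact h'.of_dvd hd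
    rw [← e]
    exact h3

theorem badT_int {k : ℕ} {q : Fin k → ℕ} {κ m T : ℕ} (hT : Am (∏ j, q j) κ m ≤ T)
    (hb : BadT q κ m T) :
    Thin963.BadT (Finset.univ.image q) m (fun i => ((G κ i : ℕ) : ℤ))
      (fun i => (((∏ j, q j) * G κ i : ℕ) : ℤ)) (fun i => ((Am (∏ j, q j) κ i : ℕ) : ℤ)) (T : ℤ) := by
  rcases hb with ⟨j, hj⟩ | ⟨j, h1, h2, h3⟩
  · left
    exact ⟨q j, Finset.mem_image_of_mem q (Finset.mem_univ j), Int.natCast_dvd_natCast.2 hj⟩
  · right
    obtain ⟨i, rfl⟩ : ∃ i, j = i + 1 := ⟨j - 1, by omega⟩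
    refine ⟨i, by omega, ?_⟩
    simp only [Nat.add_sub_cancel] at h3
    have hA : Am (∏ j, q j) κ (i + 1) ≤ Am (∏ j, q j) κ m := Grid_899.Am_mono h2
    set a := Am (∏ j, q j) κ (i + 1) with ha
    set g := G κ (i + 1) with hg
    set c := (∏ j, q j) * G κ i with hc
    have hgp : 0 < g := Grid_899.G_pos _
    have hr : (T - a) % g < g := Nat.mod_lt _ hgp
    have hdm := Nat.div_add_mod (T - a) g
    set r := (T - a) % g with hrr
    set d := (T - a) / g with hdd
    have hTz : (T : ℤ) - a = g * d + r := by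
      have : T = a + (g * d + r) := by omega
      rw [this]; push_cast; ring
    by_cases h4 : c ≤ r
    · have h5 : ¬ r + c ≤ g := fun h => h3 ⟨h4, h⟩
      refine ⟨(g : ℤ) - r, ?_, ?_⟩
      · show |(g : ℤ) - r| ≤ (c : ℤ)
        rw [abs_le]; constructor <;> omega
      · show (g : ℤ) ∣ (T : ℤ) - a + ((g : ℤ) - r)
        rw [hTz]
        exact ⟨(d : ℤ) + 1, by ring⟩
    · refine ⟨-(r : ℤ), ?_, ?_⟩
      · show |-(r : ℤ)| ≤ (c : ℤ)
        rw [abs_le]; constructor <;> omega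
      · show (g : ℤ) ∣ (T : ℤ) - a + (-(r : ℤ))
        rw [hTz]
        exact ⟨(d : ℤ), by ring⟩


/-- growth of the grids -/
theorem grow {K κ Ms : ℕ} (hκ : κ = K + 6 + Ms) (i : ℕ) :
    (2 : ℤ) ^ (K + 4) * ∑ j ∈ Finset.range (i + 1), ((Ms * G κ j : ℕ) : ℤ) ≤ ((G κ (i + 1) : ℕ) : ℤ) := by
  have h1 : ∀ i : ℕ, ∑ j ∈ Finset.range (i + 1), Ms * G κ j ≤ Ms * (2 * G κ i) := by
    intro i
    induction i with
    | zero => simp [G]; omega
    | succ i ih =>
      rw [Finset.sum_range_succ]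
      have h2 : G κ (i + 1) = 2 ^ κ * G κ i := by
        unfold G
        rw [← pow_add]; congr 1; ring
      have h3 : 2 ≤ 2 ^ κ := by
        calc 2 = 2 ^ 1 := rfl
          _ ≤ 2 ^ κ := Nat.pow_le_pow_right (by norm_num) (by omega)
      have h4 : Ms * (2 * G κ i) ≤ Ms * G κ (i + 1) := by
        rw [h2]
        exact Nat.mul_le_mul_left _ (Nat.mul_le_mul_right _ h3)
      calc _ ≤ Ms * (2 * G κ i) + Ms * G κ (i + 1) := by gcongr
        _ ≤ Ms * G κ (i + 1) + Ms * G κ (i + 1) := by gcongr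
        _ = Ms * (2 * G κ (i + 1)) := by ring
  have h2 : G κ (i + 1) = 2 ^ κ * G κ i := by
    unfold G
    rw [← pow_add]; congr 1; ring
  have h5 : Ms ≤ 2 ^ Ms := Nat.lt_two_pow_self.le
  have h6 : 2 ^ (K + 4) * (Ms * (2 * G κ i)) ≤ G κ (i + 1) := by
    rw [h2]
    have e : 2 ^ κ = 2 ^ (K + 4) * (4 * 2 ^ Ms) := by
      rw [hκ, show K + 6 + Ms = (K + 4) + (2 + Ms) by ring, pow_add, pow_add 2 2 Ms]; norm_num
    rw [e]
    calc 2 ^ (K + 4) * (Ms * (2 * G κ i)) = 2 ^ (K + 4) * (2 * Ms) * G κ i := by ring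
      _ ≤ 2 ^ (K + 4) * (4 * 2 ^ Ms) * G κ i := by
        apply Nat.mul_le_mul_right
        apply Nat.mul_le_mul_left
        omega
  have h7 : 2 ^ (K + 4) * ∑ j ∈ Finset.range (i + 1), Ms * G κ j ≤ G κ (i + 1) :=
    (Nat.mul_le_mul_left _ (h1 i)).trans h6
  exact_mod_cast h7

theorem two_pow_sum {a b c d : ℕ} (h : (2 : ℤ) ^ a + 2 ^ b = 2 ^ c + 2 ^ d) (hac : a ≠ d) : a = c := by
  by_contra hne
  obtain ⟨h1, h2⟩ := G369.pow_diff (i := a) (j := c) (i' := d) (j' := b) hne (by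
    rintro rfl
    have : (2 : ℤ) ^ a = 2 ^ c := by linarith
    exact hne (Nat.pow_right_injective le_rfl (by exact_mod_cast this))) (by linarith)
  exact hac h1


theorem sp {X N1 k k' l l' : ℕ} (hX : 2 * N1 < X) (hk : k' ≠ k)
    (h1 : X * 2 ^ k + X * 2 ^ l' < X * 2 ^ l + X * 2 ^ k' + 2 * N1)
    (h2 : X * 2 ^ l + X * 2 ^ k' < X * 2 ^ k + X * 2 ^ l' + 2 * N1) : k = l := by
  have e : 2 ^ k + 2 ^ l' = 2 ^ l + 2 ^ k' := by
    rcases Nat.lt_trichotomy (2 ^ k + 2 ^ l') (2 ^ l + 2 ^ k') with h | h | h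
    · have h3 : X * (2 ^ k + 2 ^ l' + 1) ≤ X * (2 ^ l + 2 ^ k') := Nat.mul_le_mul_left _ h
      rw [mul_add, mul_add, mul_add, mul_one] at h3
      omega
    · exact h
    · have h3 : X * (2 ^ l + 2 ^ k' + 1) ≤ X * (2 ^ k + 2 ^ l') := Nat.mul_le_mul_left _ h
      rw [mul_add, mul_add, mul_add, mul_one] at h3
      omega
  exact two_pow_sum (a := k) (b := l') (c := l) (d := k') (by exact_mod_cast e) (Ne.symm hk)

/-- the join with abstract constants -/
theorem join {α S V : Type} [Finite α] [Monoid S] [Finite S] [AddCommGroup V] [Finite V]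
    (act : V → S → V)
    (hadd : ∀ a b s, act (a + b) s = act a s + act b s)
    (hone : ∀ v, act v 1 = v) (hmul : ∀ v s t, act v (s * t) = act (act v s) t)
    (hfaith : ∀ s t, (∀ v, act v s = act v t) → s = t)
    (φ : α → S) (g : Sc2n_937.Geo α) (len : ∀ P, g.Wo P → g.n ≤ P.length)
    {B R : ℕ} (free : ∀ u : List α, (∀ t < u.length, ¬ g.Wo (u.take t)) →
      u ∈ (BddReg_746.PN B R : Language α))
    (lam rho : List α → Option V) (nu1 : List α → V) (A1 M0 : ℕ) (hM0 : 0 < M0)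
    (hlen : ∀ P v, lam P = some v → P.length ≤ g.N1)
    (hs1 : ∀ P Q v b, lam P = some v → rho Q = some b →
      b = act v (pd φ (P ++ Q)) + nu1 (P ++ Q))
    (hfs : ∀ u u', Cls φ A1 M0 u u' → nu1 u = nu1 u')
    (BT : ℕ → Prop) (hBT : ∀ T T', A1 ≤ T → A1 ≤ T' → T % M0 = T' % M0 → BT T → BT T')
    (hc1 : ∀ X, g.XX X → ¬ BT (X.length - g.p0) → ∀ u, ∃ P Q, X.drop g.p0 = P ++ Q ∧
      lam P = some u ∧ (rho Q).isSome)
    (K C0 : ℕ) (c : ℕ → ℕ) (lam2 rho2 : ℕ → List α → Option V) (nu2 : List α → V)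
    (hc : ∀ k, k < K → c k ≤ g.p0)
    (hs2 : ∀ k, k < K → ∀ P Q v u, P.length = c k → Q.length = g.p0 - c k →
      lam2 k P = some v → rho2 k Q = some u → u = act v (pd φ (P ++ Q)) + nu2 (P ++ Q))
    (hI : ∀ X : List α, g.p0 ≤ X.length → ∀ v, ∃ I : Finset ℕ, 2 * C0 + 2 ≤ I.card ∧
      ∀ k ∈ I, k < K ∧ lam2 k (X.take (c k)) = some v ∧
        (rho2 k ((X.take g.p0).drop (c k))).isSome)
    (hgap : ∀ P Q : List α, g.Wo P → g.Wo (P ++ Q) → Q ≠ [] →
      2 * g.p0 + 2 * g.N1 < Q.length)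
    (hsp : ∀ k k' l l', k < K → k' < K → l < K → l' < K → k' ≠ k → l' ≠ l →
      c k + c l' < c l + c k' + 2 * g.N1 → c l + c k' < c k + c l' + 2 * g.N1 → k = l)
    (hthin : ∀ τ, g.z ≤ τ + g.p0 → ∀ J : Finset ℕ, (∀ k ∈ J, k < K ∧
      ∃ k', k' < K ∧ k' ≠ k ∧ BT (τ + c k' - c k - g.p0)) → J.card ≤ C0)
    (s : S) : HL 3 ({w | (w.map φ).prod = s} : Language α) := by
  classical
  let pre : List α → V → V := fun P v => act v (pd φ P) + nu2 P
  let post : V → List α → V := fun v Q => act v (pd φ Q) + nu1 Q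
  let nu : List α → V := fun X =>
    act (nu2 (X.take g.p0)) (pd φ (X.drop g.p0)) + nu1 (X.drop g.p0)
  have hT : ∀ v X, act v (X.map φ).prod + nu X = g.T pre post v X := by
    intro v X
    show act v (pd φ X) + nu X = act (act v (pd φ (X.take g.p0)) + nu2 (X.take g.p0))
      (pd φ (X.drop g.p0)) + nu1 (X.drop g.p0)
    rw [hadd, ← hmul, ← pd_append, List.take_append_drop, add_assoc]
  have hz := g.hz
  have hN := g.hN
  have hXXe : ∀ X, P4_933.XX g.Wo g.z X ↔ g.XX X := by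
    intro X
    constructor
    · rintro ⟨h1, h2, h3⟩
      exact ⟨h2, h1, fun t h4 h5 => h3 t h5 h4⟩
    · rintro ⟨h1, h2, h3⟩
      exact ⟨h2, h1, fun t h4 h5 => h3 t h5 h4⟩
  -- regular properties
  have hreg : ∀ f : List α → Prop,
      (∀ u u', Cls φ (g.p0 + A1 + g.z + g.N1) M0 u u' → (f u → f u')) →
      HL 1 ({X | g.XX X ∧ f X} : Language α) := by
    intro f hf
    refine (P4_933.hl_XX (z := g.z) g.loc len free (regular_of_class φ _ M0 hM0 f hf)).congr
      fun w => ?_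
    show (g.XX w ∧ f w) ↔ (P4_933.XX g.Wo g.z w ∧ f w)
    rw [hXXe]
  have hTc : ∀ x u u', Cls φ (g.p0 + A1 + g.z + g.N1) M0 u u' →
      act x (u.map φ).prod + nu u = act x (u'.map φ).prod + nu u' := by
    intro x u u' h
    have h0 : Cls φ g.p0 M0 u u' := h.mono (by omega)
    have h1 : Cls φ (g.p0 + A1) M0 u u' := h.mono (by omega)
    show act x (pd φ u) + (act (nu2 (u.take g.p0)) (pd φ (u.drop g.p0)) + nu1 (u.drop g.p0)) =
      act x (pd φ u') + (act (nu2 (u'.take g.p0)) (pd φ (u'.drop g.p0)) + nu1 (u'.drop g.p0))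
    rw [h.val, h0.t, h0.d, hfs _ _ h1.drop]
  have hEc : ∀ u u', Cls φ (g.p0 + A1 + g.z + g.N1) M0 u u' → (g.E u → g.E u') := by
    rintro u u' h ⟨t, h1, h2, h3, h4⟩
    have hl := h.l
    have hl' := h.l'
    refine ⟨t, by omega, ?_, h3, h4⟩
    have h5 : Cls φ t M0 u u' := h.mono (by omega)
    rw [← h5.t]
    exact h2
  have hBc : ∀ u u', Cls φ (g.p0 + A1 + g.z + g.N1) M0 u u' → (g.BadX BT u → g.BadX BT u') := by
    rintro u u' h (h1 | h1)
    · exact Or.inl (hEc u u' h h1)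
    · right
      have hl := h.l
      have hl' := h.l'
      have h2 : Cls φ (g.p0 + A1) M0 u u' := h.mono (by omega)
      have h3 := h2.drop.m
      rw [List.length_drop, List.length_drop] at h3
      exact hBT _ _ (by omega) (by omega) h3 h1
  have hs1' : ∀ P Q u b, lam P = some u → rho Q = some b → b = post u (P ++ Q) := hs1
  have hs2' : ∀ k, k < K → ∀ P Q v u, P.length = c k → Q.length = g.p0 - c k →
      lam2 k P = some v → rho2 k Q = some u → u = pre (P ++ Q) v := hs2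
  refine Top5_120.top5 act hadd hone hmul hfaith φ nu {X | g.XX X}
    {X | g.XX X ∧ g.BadX BT X} ?_ ?_ (fun v => {P | g.LP1 pre lam v P})
    (fun v => {P | Sc2n_937.Geo.LP2 K c lam2 v P}) ?_ ?_ ?_ ?_ ?_ ?_ ?_ s
  · refine ⟨fun h => ?_, fun X hX Y hY hp => ?_⟩
    · have := h.1
      simp only [List.length_nil] at this
      omega
    · obtain ⟨R', hR'⟩ := hp
      exact g.prefix_code hX hY (R := R') (R' := []) (by rw [hR', List.append_nil])
  · rintro X ⟨h1, -⟩
    exact h1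
  · intro v
    refine (List.finite_length_le α (g.p0 + g.N1)).subset ?_
    rintro P ⟨h1, h2⟩
    have := hlen _ _ h2
    rw [List.length_drop] at this
    show P.length ≤ _
    omega
  · intro v
    refine (List.finite_length_le α g.p0).subset ?_
    rintro P ⟨k, h1, h2, -⟩
    have := hc k h1
    show P.length ≤ _
    omega
  · intro x y
    exact hreg (fun X => act x (X.map φ).prod + nu X = y) fun u u' h hu => by
      rw [← hTc x u u' h]; exact hu
  · intro x y
    refine (hreg (fun X => g.BadX BT X ∧ act x (X.map φ).prod + nu X = y) fun u u' h hu => by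
      rw [← hTc x u u' h]; exact ⟨hBc u u' h hu.1, hu.2⟩).congr fun w => ?_
    constructor
    · rintro ⟨⟨h1, h2⟩, h3⟩; exact ⟨h1, h2, h3⟩
    · rintro ⟨h1, h2, h3⟩; exact ⟨⟨h1, h2⟩, h3⟩
  · intro s
    refine (P4_933.hl_NB (z := g.z) g.loc len free (f := fun w => (w.map φ).prod = s)
      (regular_of_class φ 0 M0 hM0 _ fun u u' h hu => ?_)).congr fun w => ?_
    · have := h.val
      unfold pd at this
      rw [← this]; exact hu
    · constructor
      · rintro ⟨h1, h2⟩
        exact ⟨(P4_933.NB_iff _ _ _).2 fun X hp hX => h1 X ((hXXe X).1 hX) hp, h2⟩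
      · rintro ⟨h1, h2⟩
        exact ⟨fun X hX hp => (P4_933.NB_iff _ _ _).1 h1 X hp ((hXXe X).2 hX), h2⟩
  · intro X hX hXb v
    have hE : ¬ g.E X := fun h => hXb ⟨hX, Or.inl h⟩
    have hBTX : ¬ BT (X.length - g.p0) := fun h => hXb ⟨hX, Or.inr h⟩
    obtain ⟨P, Q, b, e, hP, hQ⟩ := g.complete1 pre (rho := rho) hlen hX hE (hc1 X hX hBTX) v
    refine ⟨P, Q, e.symm, hP, fun x P' hP' => ?_⟩
    obtain ⟨h1, h2⟩ := g.sound1 pre post hlen hs1' hP' hQ
    obtain ⟨-, h3⟩ := g.sound1 pre post hlen hs1' hP hQ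
    refine ⟨h1, ?_⟩
    rw [hT, hT, h2, e, h3]
  · rintro X ⟨hX, hXb⟩ Y ⟨hY, -⟩ v
    obtain ⟨P, Q, b, e, hP, hQ⟩ := g.complete2 pre post (lam2 := lam2) (rho2 := rho2)
      hc hgap hsp hthin hX hY v (hI X (by have := hX.1; omega) v)
    have hb : g.T pre post (g.T pre post v X) Y = b := by
      obtain ⟨X2, h1, h2, h3⟩ := g.sound2 pre post hc hs2' (R := []) (R' := Y) hX hXb hP hQ
        (by rw [List.append_nil, e])
      rw [e] at h2
      rw [List.append_cancel_left h2]
      exact h3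
    refine ⟨P, Q, e, hP, fun x P' hP' => ?_⟩
    obtain ⟨k', hk', hP'l, hP's⟩ := id hP'
    obtain ⟨l', hl'⟩ : ∃ l', g.CEnd Q (c k') l' := by
      obtain ⟨k, hk, l, hend, hgood, -⟩ := id hQ
      by_cases hkk : k' = k
      · subst hkk; exact ⟨l, hend⟩
      · obtain ⟨l', h1, -⟩ := hgood k' hk' hkk
        exact ⟨l', h1⟩
    have hX' : g.XX (P' ++ Q.take l') :=
      g.xx_of_cend (by rw [hP'l]; exact hc k' hk') (by rw [hP'l]; exact hl')
    have hcat : P' ++ Q = (P' ++ Q.take l') ++ Q.drop l' := by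
      rw [List.append_assoc, List.take_append_drop]
    by_cases hbad : g.BadX BT (P' ++ Q.take l')
    · left
      obtain ⟨X2, h1, h2, h3⟩ := g.sound2 pre post hc hs2' (R := []) (R' := Q.drop l') hX' hbad
        hP' hQ (by rw [List.append_nil]; exact hcat)
      refine ⟨P' ++ Q.take l', ⟨hX', hbad⟩, X2, h1, h2.symm, ?_⟩
      rw [hT, hT, hT, hT, h3, hb]
    · right
      exact ⟨P' ++ Q.take l', hX', fun h => hbad h.2, ⟨Q.drop l', hcat.symm⟩⟩


/-- **THE JOIN** -/
theorem fin (α : Type) [Finite α] (S : Type) [Monoid S] [Finite S] (φ : α → S) (s : S) :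
    HL 3 ({w | (w.map φ).prod = s} : Language α) := by
  classical
  haveI := Fintype.ofFinite S
  obtain ⟨act, hadd, hone, hmul, hfaith⟩ := exists_module S
  haveI : Fintype (S → ZMod 2) := Fintype.ofFinite _
  obtain ⟨k0, m, H1⟩ := gadget1 S (S → ZMod 2) act
  obtain ⟨K, H2⟩ := ExactR_237.exact_gadget α S (S → ZMod 2) φ act (2 * (k0 + m) + 2)
  -- primes
  have hinf : {p : ℕ | p.Prime ∧ 2 ^ (K + 1) < p}.Infinite := by
    intro hfin
    refine Nat.infinite_setOf_prime ((hfin.union (Set.finite_le_nat (2 ^ (K + 1)))).subset ?_)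
    intro p hp
    by_cases h : 2 ^ (K + 1) < p
    · exact Or.inl ⟨hp, h⟩
    · exact Or.inr (not_lt.1 h)
  let e := hinf.natEmbedding
  obtain ⟨q, hqp, hq2, hqi⟩ : ∃ q : Fin k0 → ℕ, (∀ j, (q j).Prime) ∧ (∀ j, 2 ^ (K + 1) < q j) ∧
      Function.Injective q :=
    ⟨fun j => (e j : ℕ), fun j => (e j).2.1, fun j => (e j).2.2,
      fun i j h => Fin.ext (e.injective (Subtype.ext h))⟩
  have h2K : 2 ≤ 2 ^ (K + 1) := by
    calc 2 = 2 ^ 1 := rfl
      _ ≤ 2 ^ (K + 1) := Nat.pow_le_pow_right (by norm_num) (by omega)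
  have hodd : ∀ j, Odd (q j) := fun j => (hqp j).odd_of_ne_two (by have := hq2 j; omega)
  have hcop : Pairwise (fun i j => Nat.Coprime (q i) (q j)) := fun i j hij =>
    (Nat.coprime_primes (hqp i) (hqp j)).2 (fun h => hij (hqi h))
  have hMs0 : 0 < ∏ j, q j := Finset.prod_pos fun j _ => (hqp j).pos
  obtain ⟨κ, hκ⟩ : ∃ κ, κ = K + 6 + ∏ j, q j := ⟨_, rfl⟩
  obtain ⟨lam, rho, nu1, hlam, hs1, hc1, hfs⟩ := H1 q hodd hcop κ α φ
  have hAm : Am (∏ j, q j) κ m ≤ Am (∏ j, q j) κ (m + 1) := Grid_899.Am_succ_ge m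
  obtain ⟨N1, hN1⟩ : ∃ N1, N1 = Am (∏ j, q j) κ (m + 1) + 1 := ⟨_, rfl⟩
  -- the ruler
  obtain ⟨Xz, hX0, hXpos, hthin⟩ := Thin963.thin K m (Finset.univ.image q)
    (fun i => ((G κ i : ℕ) : ℤ)) (fun i => (((∏ j, q j) * G κ i : ℕ) : ℤ))
    (fun i => ((Am (∏ j, q j) κ i : ℕ) : ℤ))
    (by
      intro p hp
      obtain ⟨j, -, rfl⟩ := Finset.mem_image.1 hp
      exact ⟨hqp j, (hq2 j).le⟩)
    (by
      intro p hp
      obtain ⟨j, -, rfl⟩ := Finset.mem_image.1 hp
      refine Nat.isCoprime_iff_coprime.2 ?_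
      exact Nat.Coprime.pow_right _ (Nat.Coprime.symm (Nat.coprime_two_left.2 (hodd j))))
    (by exact_mod_cast Grid_899.G_pos m)
    (by intro i j hij; exact_mod_cast Grid_899.G_dvd hij)
    (by intro i; exact_mod_cast Nat.mul_pos hMs0 (Grid_899.G_pos i))
    (by intro i; exact_mod_cast Dvd.intro_left _ rfl)
    (by intro i _; exact grow hκ i)
    (((2 * N1 + 1 : ℕ) : ℤ))
  obtain ⟨X, rfl⟩ : ∃ X : ℕ, Xz = (X : ℤ) := ⟨Xz.toNat, (Int.toNat_of_nonneg hXpos.le).symm⟩
  have hX0' : 2 * N1 + 1 ≤ X := by exact_mod_cast hX0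
  have hcinc : ∀ i j, i < j → X * 2 ^ i < X * 2 ^ j := fun i j hij =>
    Nat.mul_lt_mul_of_pos_left (Nat.pow_lt_pow_right (by norm_num) hij) (by omega)
  obtain ⟨p0, hp0⟩ : ∃ p0, p0 = X * 2 ^ K := ⟨_, rfl⟩
  have hcp : ∀ k, k < K → X * 2 ^ k ≤ p0 := fun k hk => by
    rw [hp0]; exact (hcinc k K hk).le
  obtain ⟨lam2, rho2, nu2, hs2, hc2⟩ := H2 (fun j => X * 2 ^ j) (fun i j hij _ => hcinc i j hij)
  -- the walls
  obtain ⟨n, Gw, B, Wo, hLW, hgapW, -, -, hfreeW⟩ :=
    LWallAll_922.walls_all_left α (2 * p0 + 2 * N1) (by omega)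
  obtain ⟨q0, hq0⟩ : ∃ q0, q0 = n + 2 * p0 + 2 * N1 := ⟨_, rfl⟩
  let g : Sc2n_937.Geo α :=
    { Wo := Wo, n := n, z := p0 + N1 + q0, p0 := p0, q0 := q0, N1 := N1
      loc := hLW.app
      hz := rfl
      hq := by omega
      hN := by omega
      hqp := by omega }
  refine join act hadd hone hmul hfaith φ g hLW.len (B := max B (2 * p0 + 2 * N1)) (R := 2) ?_
    lam rho nu1 (Am (∏ j, q j) κ m + Am (∏ j, q j) κ (m + 1)) ((∏ j, q j) * G κ m)
    (Nat.mul_pos hMs0 (Grid_899.G_pos m)) ?_ hs1 hfs (BadT q κ m) ?_ ?_ K (k0 + m)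
    (fun j => X * 2 ^ j) lam2 (fun k Q => rho2 k Q 1) (fun u => nu2 u 1) hcp ?_ ?_ ?_ ?_ ?_ s
  · -- free
    intro u hu
    obtain ⟨a, x, b, k, h1, h2, h3, rfl⟩ := hfreeW u hu
    refine Language.mem_mul.2 ⟨a ++ (List.replicate k x).flatten,
      ⟨a, x, k, h1.trans (le_max_left _ _), h2.trans (le_max_right _ _), rfl⟩, b, ?_, rfl⟩
    refine Language.mem_mul.2 ⟨b, ⟨b, [], 0, h3.trans (le_max_left _ _), by simp, ?_⟩, [], ?_, ?_⟩
    · simp [BddReg_746.pw]
    · exact rfl
    · simp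
  · intro P v h
    have := hlam P v h
    show P.length ≤ N1
    omega
  · intro T T' h1 h2 h3 h4
    exact badT_congr (by omega) (by omega) h3 h4
  · intro Y hY hnb u
    have hYz : p0 + N1 + q0 ≤ Y.length := hY.1
    have hnb' : ¬ BadT q κ m (Y.length - p0) := hnb
    unfold BadT at hnb'
    push Not at hnb'
    refine hc1 (Y.drop p0) (by rw [List.length_drop]; omega) ?_ ?_ u
    · intro j
      rw [List.length_drop]
      exact hnb'.1 j
    · intro j h1 h2
      rw [List.length_drop]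
      by_contra hcon
      exact hnb (Or.inr ⟨j, h1, h2, hcon⟩)
  · intro k hk P Q v u hP hQ h1 h2
    have := hs2 k hk P Q 1 v u hP h1 h2
    rw [mul_one] at this
    exact this
  · intro Y hY v
    have hY' : p0 ≤ Y.length := hY
    obtain ⟨I, h1, h2⟩ := hc2 (Y.take p0) 1 v (by
      intro k hk
      rw [List.length_take, min_eq_left hY']
      exact hcp k hk)
    refine ⟨I, h1, fun k hk => ?_⟩
    obtain ⟨h3, h4, h5⟩ := h2 k hk
    rw [List.take_take, min_eq_left (hcp k h3)] at h4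
    exact ⟨h3, h4, h5⟩
  · intro P Q h1 h2 h3
    have h4 : 0 < Q.length := List.length_pos_of_ne_nil h3
    have h5 := hgapW (P ++ Q) P.length (P.length + Q.length) (by omega)
      (by rw [List.length_append]) (by rw [List.take_left]; exact h1)
      (by rw [← List.length_append, List.take_length]; exact h2)
    show 2 * p0 + 2 * N1 < Q.length
    omega
  · intro k k' l l' _ _ _ _ h1 _ h3 h4
    exact sp (N1 := N1) (X := X) (by omega) h1 h3 h4
  · intro τ hτ J hJ
    have hτ' : p0 + N1 + q0 ≤ τ + p0 := hτ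
    have hcard : (Finset.univ.image q).card + m ≤ k0 + m := by
      have h1 := Finset.card_image_le (s := (Finset.univ : Finset (Fin k0))) (f := q)
      rw [Finset.card_univ, Fintype.card_fin] at h1
      omega
    refine le_trans ?_ ((hthin ((τ - p0 : ℕ) : ℤ)).trans hcard)
    have hch : ∀ k : ℕ, ∃ k' : ℕ, k ∈ J → k' < K ∧ k' ≠ k ∧
        BadT q κ m (τ + X * 2 ^ k' - X * 2 ^ k - p0) := by
      intro k
      by_cases hk : k ∈ J
      · obtain ⟨-, k', h⟩ := hJ k hk
        exact ⟨k', fun _ => h⟩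
      · exact ⟨0, fun h => (hk h).elim⟩
    choose f hf using hch
    refine Finset.card_le_card_of_injOn (fun k => (f k, k)) ?_ ?_
    · intro k hk
      have hk : k ∈ J := hk
      obtain ⟨h1, h2, h3⟩ := hf k hk
      have hkK := (hJ k hk).1
      have h4 := hcp k hkK
      have h5 := badT_int (by omega) h3
      refine Finset.mem_coe.2 (Finset.mem_filter.2 ⟨Finset.mem_product.2
        ⟨Finset.mem_range.2 h1, Finset.mem_range.2 hkK⟩, h2, ?_⟩)
      have e : ((τ + X * 2 ^ f k - X * 2 ^ k - p0 : ℕ) : ℤ) =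
          ((τ - p0 : ℕ) : ℤ) + (X : ℤ) * 2 ^ f k - (X : ℤ) * 2 ^ k := by
        have : τ + X * 2 ^ f k - X * 2 ^ k - p0 + X * 2 ^ k = (τ - p0) + X * 2 ^ f k := by omega
        have h6 : ((τ + X * 2 ^ f k - X * 2 ^ k - p0 : ℕ) : ℤ) + (X : ℤ) * 2 ^ k =
            ((τ - p0 : ℕ) : ℤ) + (X : ℤ) * 2 ^ f k := by exact_mod_cast this
        linarith
      rw [e] at h5
      exact h5
    · intro a _ b _ h
      exact congrArg Prod.snd h

end Crest.Agent.R320.Fin_98
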