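import Crest.Agent.R320.Top_550
import Crest.Agent.R320.Joint_47
import Crest.Agent.R320.G1_852
import Crest.Agent.R320.Sp_21
import Crest.Agent.R320.WallU_228
import Crest.Agent.R320.RegDep_10
import Crest.Agent.R320.Block_467

/-!
# Row 320: constants and join (helper985)

`Top_550.top` + `Joint_47.complete1/complete2` + `G1_852.gadget` + `Sp_21.spoil`
+ `ExactR_237.exact_gadget` + `WallU_228.walls_full` + `RegDep_10.regular_of_dep`.
-/

set_option autoImplicit false

namespace Crest.Agent.R320.Fin_985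

open Crest.Agent.R320.Hk_851 Crest.Agent.R320.Code110 Crest.Agent.R320.Pump_360
open Crest.Agent.R320.Reg_819

/-- wall gadget data: length bound -/
theorem mem_zn {α : Type} {Wo : List α → Prop} {z : ℕ} {X : List α} :
    X ∈ Top_550.Zn Wo z ↔ X ∈ Joint_47.Zn Wo z :=
  ⟨fun h => ⟨h.2.1, h.1, h.2.2⟩, fun h => ⟨h.2.1, h.1, h.2.2⟩⟩

/-- the thin set depends on the residue mod `M * b ^ m` only -/
theorem bad_congr {m M b : ℕ} {Ms : Finset ℕ} (hMs : ∀ k ∈ Ms, k ∣ M) {x y : ℕ}
    (h : x % (M * b ^ m) = y % (M * b ^ m)) (hx : Sp_21.Bad m M b Ms x) :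
    Sp_21.Bad m M b Ms y := by
  have h' : x ≡ y [MOD (M * b ^ m)] := h
  rcases hx with ⟨k, hk, hd⟩ | ⟨j, hj, hn⟩
  · refine Or.inl ⟨k, hk, ?_⟩
    have h1 : x ≡ y [MOD k] := h'.of_dvd ((hMs k hk).trans (dvd_mul_right _ _))
    exact (Nat.ModEq.dvd_iff h1 (dvd_refl k)).1 hd
  · refine Or.inr ⟨j, hj, ?_⟩
    have e : x / b ^ j % b = y / b ^ j % b := by
      have h1 : x ≡ y [MOD (b ^ j * b)] := by
        refine h'.of_dvd ?_
        rw [← pow_succ]
        exact (pow_dvd_pow b (by omega)).trans (dvd_mul_left _ _)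
      have hx1 : x / b ^ j % b = x % (b ^ j * b) / b ^ j := by
        rw [Nat.mod_mul_right_div_self]
      have hy1 : y / b ^ j % b = y % (b ^ j * b) / b ^ j := by
        rw [Nat.mod_mul_right_div_self]
      rw [hx1, hy1, h1]
    rwa [← e]

theorem fin (α : Type) [Finite α] (S : Type) [Monoid S] [Finite S] (f : α → S) (s : S) :
    HL 3 ({w | (w.map f).prod = s} : Language α) := by
  classical
  letI : Fintype S := Fintype.ofFinite S
  obtain ⟨act, hadd, hone, hmul, hfaith⟩ := Blk467.exists_module S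
  obtain ⟨m, r, hg⟩ := G1_852.gadget act
  obtain ⟨K, hex⟩ := ExactR_237.exact_gadget α S (S → ZMod 2) f act (2 * (r + m) + 2)
  obtain ⟨Ms, M, hcard, hMs, hM, hg2⟩ := hg (2 ^ (K + 1))
  obtain ⟨b, hbdef⟩ : ∃ b, b = (2 ^ (K + 4) + 2) * M + 1 := ⟨_, rfl⟩
  have hcop : Nat.Coprime b M := by
    rw [hbdef]
    have : Nat.gcd ((2 ^ (K + 4) + 2) * M + 1) M = Nat.gcd 1 M := by
      rw [Nat.add_comm, Nat.gcd_add_mul_right_left]
    rw [Nat.Coprime, this, Nat.gcd_one_left]
  have hb0 : 0 < b := by omega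
  obtain ⟨lam, rho, nu, h1, h2, h3, h4⟩ := hg2 b hb0 hcop α f
  obtain ⟨c, hc1, hc2, hc3⟩ := Sp_21.spoil K (b ^ m) m M b Ms hM
    (fun k hk => ⟨(hMs k hk).2.2, (hMs k hk).1.le⟩) hcop (by omega)
  have hcmono : ∀ i j, i < j → c i < c j := fun i j hij => by have := hc1 i j hij; omega
  obtain ⟨lam2, rho2, nu2, hS2, hC2⟩ := hex c (fun i j hij _ => hcmono i j hij)
  obtain ⟨N1, hN1⟩ : ∃ N1, N1 = b ^ m := ⟨_, rfl⟩
  obtain ⟨p0, hp0⟩ : ∃ p0, p0 = c K := ⟨_, rfl⟩
  obtain ⟨n, cc, P, Sw, hn, hP, hloc, hsep, hpc, -, -⟩ :=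
    WallU_228.walls_full (α := α) (2 * (N1 + p0) + 1)
  have hLW : Joint_47.LW n (2 * (N1 + p0) + 1) (WallU_228.Wo n Sw) := by
    refine ⟨fun X h => h.1, hloc, fun X s t hst ht hs hwt => ?_⟩
    by_contra hcon
    have hl : (X.take t).length = t := by rw [List.length_take]; omega
    refine hsep (X.take t) (t - s) hwt (by omega) (by omega) ?_
    rw [hl, List.take_take]
    have : min (t - (t - s)) t = s := by omega
    rw [this]; exact hs
  have hcp : ∀ k, k < K → c k ≤ p0 := fun k hk => by rw [hp0]; exact (hcmono k K hk).le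
  obtain ⟨z, hz⟩ : ∃ z, z = 3 * p0 + n + N1 + 1 := ⟨_, rfl⟩
  have hnureg : ∀ x, Language.IsRegular ({Y | nu Y = x} : Language α) := by
    intro x
    refine RegDep_10.regular_of_dep f (b ^ m) (M * b ^ m) (by positivity) _
      fun u u' _ _ a3 a4 a5 a6 => ?_
    exact ((h4 u u' a3 a4 a5).2).symm.trans a6
  have hBreg : Language.IsRegular
      ({X | Joint_47.Bad (WallU_228.Wo n Sw) z N1 p0 (Sp_21.Bad m M b Ms) X} : Language α) := by
    refine RegDep_10.regular_of_dep f (z + N1 + p0) (M * b ^ m) (by positivity) _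
      fun u u' a1 a2 a3 _ a5 a6 => ?_
    rcases a6 with ⟨t, t1, t2, t3, t4⟩ | h
    · left
      refine ⟨t, t1, t2, by omega, ?_⟩
      have e : u'.take t = u.take t := by
        have := congrArg (List.take t) a3
        rw [List.take_take, List.take_take] at this
        have hm : min t (z + N1 + p0) = t := by omega
        rw [hm] at this
        exact this.symm
      rw [e]; exact t4
    · right
      refine bad_congr (fun k hk => (hMs k hk).2.2) ?_ h
      have a5' : u.length ≡ u'.length [MOD (M * b ^ m)] := a5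
      have e1 : u.length = (u.length - p0) + p0 := by omega
      have e2 : u'.length = (u'.length - p0) + p0 := by omega
      rw [e1, e2] at a5'
      exact Nat.ModEq.add_right_cancel' p0 a5'
  have hT : ∀ T : ℕ, (∀ k, k < K → c k ≤ T) → ∀ I : Finset ℕ,
      (∀ k ∈ I, k < K ∧ ∃ k', k' < K ∧ k' ≠ k ∧ Sp_21.Bad m M b Ms (T + c k' - c k)) →
        I.card ≤ r + m := by
    intro T hTc I hI
    choose! g hg using fun k hk => (hI k hk).2
    have hinj : (I.image (fun k => (k, g k))).card = I.card :=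
      Finset.card_image_of_injective _ (fun a a' h => (Prod.mk.inj h).1)
    rw [← hinj]
    refine le_trans (hc3 T hTc _ fun p hp => ?_) (by omega)
    obtain ⟨k, hk, rfl⟩ := Finset.mem_image.1 hp
    obtain ⟨g1, g2, g3⟩ := hg k hk
    exact ⟨(hI k hk).1, g1, fun h => g2 h.symm, g3⟩
  refine Top_550.top f act hadd hone (fun v s t => (hmul v s t).symm) hfaith
    (WallU_228.Wo n Sw) n z p0 hloc (fun P h => h.1) (by omega) (by omega)
    ⟨5, 2 * cc + P, fun u hu => ?_⟩ (fun X => nu2 X 1) nu hnureg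
    (Joint_47.Bad (WallU_228.Wo n Sw) z N1 p0 (Sp_21.Bad m M b Ms)) hBreg
    (fun v => {p | Joint_47.L1 f act p0 (fun X => nu2 X 1) lam v p})
    (fun v => {p | Joint_47.L2 K c lam2 v p}) ?_ ?_ ?_ ?_ s
  · exact hpc u hu
  · intro x
    refine (List.finite_length_le α (p0 + N1)).subset fun p hp => ?_
    have h5 := h1 _ _ hp.2
    have h6 := hp.1
    rw [List.length_drop] at h5
    change p.length ≤ p0 + N1
    omega
  · intro x
    refine (List.finite_length_le α p0).subset fun p hp => ?_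
    obtain ⟨k, hk, hl, -⟩ := hp
    have := hcp k hk
    change p.length ≤ p0
    omega
  · intro u hu hb x
    obtain ⟨p, q, hpq, hp, -, hall⟩ := Joint_47.complete1 f act p0 (fun X => nu2 X 1) nu
      (n := n) (N1 := N1) (N0 := 0) (BadT := Sp_21.Bad m M b Ms) hLW
      (lam := lam) (rho := rho)
      (fun P Q v r' hl hr => h2 P Q v r' hl hr)
      (fun P v hl => by rw [hN1]; exact (h1 P v hl).le)
      (fun Y _ hY v => by
        obtain ⟨P, Q, e, hl, v', hr⟩ := h3 Y
          (fun k hk hd => hY (Or.inl ⟨k, hk, hd⟩))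
          (fun j hj => by
            by_contra hcon
            exact hY (Or.inr ⟨j, hj, fun h => hcon ⟨h.1, by omega⟩⟩)) v
        exact ⟨P, Q, e, hl, by rw [hr]; rfl⟩)
      (by omega) (by omega) (mem_zn.1 hu) hb x
    refine ⟨p, q, Top_550.tau f act p0 (fun X => nu2 X 1) nu u x, hpq, hp,
      fun x' p' hp' => Or.inl ?_⟩
    obtain ⟨g1, g2⟩ := hall x' p' hp'
    exact ⟨_, Language.mem_mul.2 ⟨p' ++ q, ⟨mem_zn.2 g1, g2⟩, [], ⟨rfl, rfl⟩,
      List.append_nil _⟩⟩
  · intro u hu x t ht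
    obtain ⟨p, q, hpq, hp, -, hall⟩ := Joint_47.complete2 f act p0 nu
      (n := n) (N1 := N1) (K := K) (R1 := r + m) (BadT := Sp_21.Bad m M b Ms) hLW
      (c := c) (lam2 := lam2) (rho2 := rho2) (nu2' := nu2)
      (fun k hk P Q y v b' hl h h' => hS2 k hk P Q y v b' hl h h')
      (fun u' y v hu' => hC2 u' y v hu')
      (fun i j hij _ => hcmono i j hij) hcp
      (fun i i' j j' hi hi' hj hj' hne hne' g1 g2 => by
        by_contra hij
        have := hc2 i i' j j' (fun h => hne h.symm) (fun h => hne' h.symm)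
          (fun h => hij (Prod.mk.inj h).1)
        rw [← hN1] at this
        omega)
      hT (by omega) (by omega) (mem_zn.1 hu.1) (mem_zn.1 ht.1) hu.2 x
    refine ⟨p, q, Top_550.tau f act p0 (fun X => nu2 X 1) nu t
      (Top_550.tau f act p0 (fun X => nu2 X 1) nu u x), hpq, hp, fun x' p' hp' => ?_⟩
    rcases hall x' p' hp' with ⟨a, ha, hab, hae, hTa⟩ | ⟨a, ha, hab, hap⟩
    · left
      refine ⟨Top_550.tau f act p0 (fun X => nu2 X 1) nu u x, ?_⟩
      refine Language.mem_mul.2 ⟨a, ⟨⟨mem_zn.2 ha, hab⟩, hTa⟩, t, ?_, hae.symm⟩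
      exact ⟨_, Language.mem_mul.2 ⟨t, ⟨ht, rfl⟩, [], ⟨rfl, rfl⟩, List.append_nil _⟩⟩
    · right
      exact Or.inl ⟨a, mem_zn.2 ha, fun h => hab h.2, hap⟩

end Crest.Agent.R320.Fin_985
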