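import Mathlib

/-!
Row 320.  JOINT for the gadget WITHOUT small walls (693 #13203 / 638's `UG`), pure words.

* left-looking outer walls (`LW`), natural chain rule (block = up to the first wall at a place `≥ z`);
* block = `X.take p0` (scheme 2, exact gadget with redundancy, ruler) ++ `X.drop p0` (scheme 1, `G1`);
* modes of scheme 1: (E) = outer wall in `[z - N, z + N)`, (B) = `Bad (|X| - p0)`.

Results: `s1`, `c1`, `s2`, `c2`.
-/

set_option autoImplicit false
set_option linter.unusedVariables false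

namespace Crest.Agent.R320.Joint_487

variable {α S V : Type*}

/-- left-looking wall rule -/
structure LW (Wo : List α → Prop) (n W : ℕ) : Prop where
  loc : ∀ P Q : List α, n ≤ Q.length → (Wo (P ++ Q) ↔ Wo Q)
  len : ∀ Q : List α, Wo Q → n ≤ Q.length
  gap : ∀ (Q : List α) (d : ℕ), Wo Q → 0 < d → d ≤ W → ¬ Wo (Q.take (Q.length - d))

/-- blocks -/
def XX (Wo : List α → Prop) (z : ℕ) : Set (List α) :=
  {X | Wo X ∧ z ≤ X.length ∧ ∀ t, z ≤ t → t < X.length → ¬ Wo (X.take t)}

/-- the gadget of scheme 1 (638's UG) -/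
structure G1 [AddCommGroup V] (act : V → S → V) (ph : List α → S) (N : ℕ) (Bad : ℕ → Prop)
    (lam rho : List α → Option V) (nu : List α → V) : Prop where
  lam_len : ∀ p v, lam p = some v → p.length ≤ N
  sound : ∀ p q v r, lam p = some v → rho q = some r → r = act v (ph (p ++ q)) + nu (p ++ q)
  compl : ∀ u : List α, 2 * N ≤ u.length → ¬ Bad u.length → ∀ v, ∃ p q, p ++ q = u ∧
    lam p = some v ∧ (rho q).isSome

/-- the exact gadget with redundancy `R0` (237's `exact_gadget` at `y = 1`) -/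
structure G2 [AddCommGroup V] (act : V → S → V) (ph : List α → S) (p0 K R0 : ℕ) (c : ℕ → ℕ)
    (lam2 rho2 : ℕ → List α → Option V) (nu2 : List α → V) : Prop where
  sound : ∀ k < K, ∀ (P Q : List α) (v b : V), P.length = c k → (P ++ Q).length = p0 →
    lam2 k P = some v → rho2 k Q = some b → b = act v (ph (P ++ Q)) + nu2 (P ++ Q)
  compl : ∀ u : List α, u.length = p0 → ∀ v : V, ∃ I : Finset ℕ, R0 < I.card ∧ ∀ k ∈ I, k < K ∧
    lam2 k (u.take (c k)) = some v ∧ (rho2 k (u.drop (c k))).isSome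

/-- zone map: both noises in one map -/
def T [AddCommGroup V] (act : V → S → V) (ph : List α → S) (p0 : ℕ) (nu2 nu1 : List α → V)
    (v : V) (X : List α) : V :=
  act (act v (ph (X.take p0)) + nu2 (X.take p0)) (ph (X.drop p0)) + nu1 (X.drop p0)

section walls

variable {Wo : List α → Prop} {n W : ℕ}

theorem wo_take (hW : LW Wo n W) (U : List α) (a t : ℕ) (ht : n ≤ t) (h : a + t ≤ U.length) :
    Wo ((U.drop a).take t) ↔ Wo (U.take (a + t)) := by
  rw [List.take_add]
  refine (hW.loc _ _ ?_).symm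
  rw [List.length_take, List.length_drop]
  omega

theorem wall_gap (hW : LW Wo n W) (U : List α) (s t : ℕ) (hst : s < t) (ht : t ≤ U.length)
    (h1 : Wo (U.take s)) (h2 : Wo (U.take t)) : W < t - s := by
  by_contra hle
  have hl : (U.take t).length = t := by rw [List.length_take]; omega
  have := hW.gap (U.take t) (t - s) h2 (by omega) (by omega)
  rw [hl, List.take_take] at this
  apply this
  have : min (t - (t - s)) t = s := by omega
  rw [this]; exact h1

end walls

section scheme1

variable [AddCommGroup V] {act : V → S → V} {ph : List α → S} {N : ℕ} {Bad : ℕ → Prop}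
  {lam rho : List α → Option V} {nu1 : List α → V} {Wo : List α → Prop} {n W z p0 : ℕ}
  (nu2 : List α → V)

def LP1 (act : V → S → V) (ph : List α → S) (lam : List α → Option V) (nu2 : List α → V) (p0 : ℕ)
    (v : V) (P : List α) : Prop :=
  p0 ≤ P.length ∧ lam (P.drop p0) = some (act v (ph (P.take p0)) + nu2 (P.take p0))

def RQ1 (Wo : List α → Prop) (rho : List α → Option V) (N z p0 : ℕ) (b : V) (Q : List α) : Prop :=
  Wo Q ∧ z ≤ p0 + Q.length ∧ (∀ t, z ≤ p0 + N + t → t < Q.length → ¬ Wo (Q.take t)) ∧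
    rho Q = some b

/-- exactness of scheme 1 -/
theorem s1 (hW : LW Wo n W) (hG : G1 act ph N Bad lam rho nu1) (hz : p0 + N + n ≤ z)
    (v b : V) (P Q : List α) (hP : LP1 act ph lam nu2 p0 v P) (hQ : RQ1 Wo rho N z p0 b Q) :
    P ++ Q ∈ XX Wo z ∧ T act ph p0 nu2 nu1 v (P ++ Q) = b := by
  obtain ⟨hP1, hP2⟩ := hP
  obtain ⟨hQ1, hQ2, hQ3, hQ4⟩ := hQ
  have hnQ := hW.len Q hQ1
  have hlP : P.length ≤ p0 + N := by
    have := hG.lam_len _ _ hP2
    rw [List.length_drop] at this
    omega
  refine ⟨⟨(hW.loc P Q hnQ).2 hQ1, ?_, ?_⟩, ?_⟩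
  · rw [List.length_append]; omega
  · intro t hzt ht hwt
    rw [List.length_append] at ht
    have h1 : t = P.length + (t - P.length) := by omega
    have h2 := (wo_take hW (P ++ Q) P.length (t - P.length) (by omega)
      (by rw [List.length_append]; omega))
    rw [← h1, List.drop_left] at h2
    exact hQ3 (t - P.length) (by omega) (by omega) (h2.2 hwt)
  · unfold T
    rw [List.take_append_of_le_length hP1, List.drop_append_of_le_length hP1]
    exact (hG.sound _ _ _ _ hP2 hQ4).symm

/-- mode (E) -/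
def EB (Wo : List α → Prop) (N z : ℕ) (X : List α) : Prop :=
  (∃ t, z ≤ t + N ∧ t < z ∧ Wo (X.take t)) ∨ X.length < z + N

/-- bad block -/
def BadX (Wo : List α → Prop) (Bad : ℕ → Prop) (N z p0 : ℕ) (X : List α) : Prop :=
  EB Wo N z X ∨ Bad (X.length - p0)

/-- completeness of scheme 1 -/
theorem c1 (hW : LW Wo n W) (hG : G1 act ph N Bad lam rho nu1) (hz : p0 + N + n ≤ z)
    (X : List α) (hX : X ∈ XX Wo z) (hbad : ¬ BadX Wo Bad N z p0 X) (v : V) :
    ∃ P Q, P ++ Q = X ∧ LP1 act ph lam nu2 p0 v P ∧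
      RQ1 Wo rho N z p0 (T act ph p0 nu2 nu1 v X) Q := by
  obtain ⟨hX1, hX2, hX3⟩ := hX
  have hE : ¬ EB Wo N z X := fun h => hbad (Or.inl h)
  have hB : ¬ Bad (X.length - p0) := fun h => hbad (Or.inr h)
  have hlen : z + N ≤ X.length := by
    by_contra h
    exact hE (Or.inr (by omega))
  obtain ⟨p, q, hpq, hp, hq⟩ := hG.compl (X.drop p0) (by rw [List.length_drop]; omega)
    (by rw [List.length_drop]; exact hB) (act v (ph (X.take p0)) + nu2 (X.take p0))
  obtain ⟨r, hr⟩ := Option.isSome_iff_exists.1 hq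
  have hX' : X.take p0 ++ (p ++ q) = X := by rw [hpq, List.take_append_drop]
  have hl0 : (X.take p0).length = p0 := by rw [List.length_take]; omega
  have hpN := hG.lam_len _ _ hp
  have hlX : X.length = p0 + (p.length + q.length) := by
    conv_lhs => rw [← hX']
    rw [List.length_append, List.length_append, hl0]
  have hPQ : (X.take p0 ++ p) ++ q = X := by rw [List.append_assoc, hX']
  have hlP : (X.take p0 ++ p).length = p0 + p.length := by rw [List.length_append, hl0]
  have hPL : LP1 act ph lam nu2 p0 v (X.take p0 ++ p) := by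
    refine ⟨by rw [hlP]; omega, ?_⟩
    have e1 : (X.take p0 ++ p).take p0 = X.take p0 := by
      have := List.take_left (l₁ := X.take p0) (l₂ := p)
      rwa [hl0] at this
    have e2 : (X.take p0 ++ p).drop p0 = p := by
      have := List.drop_left (l₁ := X.take p0) (l₂ := p)
      rwa [hl0] at this
    rw [e1, e2]
    exact hp
  have hQR : RQ1 Wo rho N z p0 r q := by
    refine ⟨?_, by omega, ?_, hr⟩
    · rw [← hPQ] at hX1
      exact (hW.loc _ q (by omega)).1 hX1
    · intro t hzt ht hwt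
      have h2 := (wo_take hW X (p0 + p.length) t (by omega) (by omega))
      have h3 : X.drop (p0 + p.length) = q := by
        conv_lhs => rw [← hPQ, ← hlP]
        rw [List.drop_left]
      rw [h3] at h2
      have h4 := h2.1 hwt
      by_cases h5 : z ≤ p0 + p.length + t
      · exact hX3 _ h5 (by omega) h4
      · exact hE (Or.inl ⟨p0 + p.length + t, by omega, by omega, h4⟩)
  refine ⟨X.take p0 ++ p, q, hPQ, hPL, ?_⟩
  have := (s1 nu2 hW hG hz v r _ _ hPL hQR).2
  rw [hPQ] at this
  rw [this]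
  exact hQR

end scheme1

section scheme2

/-- `t` = the end of the block of candidate `k` in the right word `Q` -/
def IsEnd (Wo : List α → Prop) (z : ℕ) (c : ℕ → ℕ) (Q : List α) (k t : ℕ) : Prop :=
  t ≤ Q.length ∧ z ≤ c k + t ∧ Wo (Q.take t) ∧ ∀ s, z ≤ c k + s → s < t → ¬ Wo (Q.take s)

theorem IsEnd.uniq {Wo : List α → Prop} {z : ℕ} {c : ℕ → ℕ} {Q : List α} {k t t' : ℕ}
    (h : IsEnd Wo z c Q k t) (h' : IsEnd Wo z c Q k t') : t = t' := by
  rcases lt_trichotomy t t' with hlt | heq | hlt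
  · exact absurd h.2.2.1 (h'.2.2.2 t h.2.1 hlt)
  · exact heq
  · exact absurd h'.2.2.1 (h.2.2.2 t' h'.2.1 hlt)

/-- candidate `k` looks bad in `Q` -/
def CB (Wo : List α → Prop) (Bad : ℕ → Prop) (N z p0 : ℕ) (c : ℕ → ℕ) (Q : List α) (k : ℕ) : Prop :=
  ∃ t, IsEnd Wo z c Q k t ∧
    ((∃ s, s ≤ Q.length ∧ z ≤ c k + s + N ∧ c k + s < z ∧ Wo (Q.take s)) ∨ c k + t < z + N ∨
      Bad (c k + t - p0))

def LP2 (K : ℕ) (c : ℕ → ℕ) (lam2 : ℕ → List α → Option V) (v : V) (P : List α) : Prop :=
  ∃ k < K, P.length = c k ∧ lam2 k P = some v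

def RQ2 [AddCommGroup V] (act : V → S → V) (ph : List α → S) (Wo : List α → Prop) (Bad : ℕ → Prop)
    (N z p0 K : ℕ) (c : ℕ → ℕ) (rho2 : ℕ → List α → Option V) (nu2 nu1 : List α → V)
    (b : V) (Q : List α) : Prop :=
  ∃ k < K, CB Wo Bad N z p0 c Q k ∧ (∀ k' < K, k' ≠ k → ¬ CB Wo Bad N z p0 c Q k') ∧
    (∀ k' < K, ∃ t, IsEnd Wo z c Q k' t) ∧
    ∃ t y, IsEnd Wo z c Q k t ∧ rho2 k (Q.take (p0 - c k)) = some y ∧ Q.drop t ∈ XX Wo z ∧
      b = T act ph p0 nu2 nu1 (act y (ph ((Q.take t).drop (p0 - c k))) +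
        nu1 ((Q.take t).drop (p0 - c k))) (Q.drop t)

variable [AddCommGroup V] {act : V → S → V} {ph : List α → S} {N : ℕ} {Bad : ℕ → Prop}
  {nu1 nu2 : List α → V} {Wo : List α → Prop} {n W z p0 K R0 : ℕ} {c : ℕ → ℕ}
  {lam2 rho2 : ℕ → List α → Option V}

/-- exactness of scheme 2 on the promise -/
theorem s2 (hW : LW Wo n W) (hG : G2 act ph p0 K R0 c lam2 rho2 nu2) (hz : p0 + N + n ≤ z)
    (hc : ∀ k < K, c k ≤ p0) (v b : V) (P Q : List α) (hP : LP2 K c lam2 v P)
    (hQ : RQ2 act ph Wo Bad N z p0 K c rho2 nu2 nu1 b Q)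
    (hprom : ∀ X Y, X ∈ XX Wo z → X ++ Y = P ++ Q → BadX Wo Bad N z p0 X) :
    ∃ X X2, X ∈ XX Wo z ∧ X2 ∈ XX Wo z ∧ P ++ Q = X ++ X2 ∧
      T act ph p0 nu2 nu1 (T act ph p0 nu2 nu1 v X) X2 = b := by
  obtain ⟨k0, hk0, hPl, hPv⟩ := hP
  obtain ⟨k, hk, hCB, huniq, hends, t, y, ht, hy, hX2, hb⟩ := hQ
  obtain ⟨t0, ht0⟩ := hends k0 hk0
  have hck := hc k0 hk0
  -- the true block
  set X : List α := P ++ Q.take t0 with hXdef
  have hlX : X.length = c k0 + t0 := by
    rw [hXdef, List.length_append, List.length_take, hPl]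
    have := ht0.1
    omega
  have htr : ∀ s, n ≤ s → s ≤ t0 → (Wo (X.take (c k0 + s)) ↔ Wo (Q.take s)) := by
    intro s hns hs
    have h1 := wo_take hW X (c k0) s hns (by omega)
    rw [← h1]
    have h2 : X.drop (c k0) = Q.take t0 := by
      rw [hXdef, ← hPl, List.drop_left]
    rw [h2, List.take_take, min_eq_left hs]
  have hXX : X ∈ XX Wo z := by
    refine ⟨?_, by rw [hlX]; exact ht0.2.1, ?_⟩
    · have h1 : X = X.take (c k0 + t0) := by rw [List.take_of_length_le (by omega)]
      rw [h1]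
      have := ht0.2.1
      exact (htr t0 (by omega) le_rfl).2 ht0.2.2.1
    · intro u hzu hu hwu
      have h1 : u = c k0 + (u - c k0) := by omega
      rw [h1] at hwu
      exact ht0.2.2.2 (u - c k0) (by omega) (by omega) ((htr _ (by omega) (by omega)).1 hwu)
  have hbad := hprom X (Q.drop t0) hXX (by
    rw [hXdef, List.append_assoc, List.take_append_drop])
  have hCB0 : CB Wo Bad N z p0 c Q k0 := by
    refine ⟨t0, ht0, ?_⟩
    rcases hbad with (⟨s, h1, h2, h3⟩ | h1) | h1
    · left
      have h0 := ht0.2.1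
      have h4 : s = c k0 + (s - c k0) := by omega
      refine ⟨s - c k0, ?_, by omega, by omega, ?_⟩
      · have := ht0.1; omega
      · rw [h4] at h3
        exact (htr _ (by omega) (by omega)).1 h3
    · right; left; omega
    · right; right; rw [hlX] at h1; exact h1
  have hkk : k0 = k := by
    by_contra hne
    exact huniq k0 hk0 hne hCB0
  subst hkk
  have htt : t0 = t := ht0.uniq ht
  subst htt
  have htz := ht0.2.1
  have htQ := ht0.1
  refine ⟨X, Q.drop t0, hXX, hX2, by rw [hXdef, List.append_assoc, List.take_append_drop], ?_⟩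
  have hXt : X.take p0 = P ++ Q.take (p0 - c k0) := by
    rw [hXdef, List.take_append, List.take_of_length_le (by omega), hPl, List.take_take,
      min_eq_left (by omega)]
  have hXd : X.drop p0 = (Q.take t0).drop (p0 - c k0) := by
    rw [hXdef, List.drop_append, List.drop_of_length_le (by omega), hPl, List.nil_append]
  have hyy := hG.sound k0 hk0 P (Q.take (p0 - c k0)) v y hPl (by
    rw [List.length_append, List.length_take, hPl]; omega) hPv hy
  have hT : T act ph p0 nu2 nu1 v X = act y (ph ((Q.take t0).drop (p0 - c k0))) +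
        nu1 ((Q.take t0).drop (p0 - c k0)) := by
    unfold T
    rw [hXt, hXd, ← hyy]
  rw [hT]
  exact hb.symm

open Classical in
/-- **completeness of scheme 2 on bad blocks** -/
theorem c2 {C0 T0 : ℕ} (hW : LW Wo n W) (hG : G2 act ph p0 K (1 + 2 * C0) c lam2 rho2 nu2)
    (hz : p0 + N + n ≤ z) (hWb : 2 * (p0 + N) ≤ W) (hT0 : T0 + 2 * p0 ≤ z)
    (hc : ∀ k < K, c k ≤ p0)
    (hgol : ∀ a b a' b', a < K → b < K → a' < K → b' < K → a ≠ b →
      |((c a : ℤ) - c b) - ((c a' : ℤ) - c b')| ≤ 2 * N → a = a' ∧ b = b')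
    (hspoil : ∀ t, T0 ≤ t → ((Finset.range K ×ˢ Finset.range K).filter
      (fun ab => ab.1 ≠ ab.2 ∧ Bad (t + c ab.1 - c ab.2))).card ≤ C0)
    (X X' : List α) (hX : X ∈ XX Wo z) (hX' : X' ∈ XX Wo z)
    (hbad : BadX Wo Bad N z p0 X) (v : V) :
    ∃ P Q, P ++ Q = X ++ X' ∧ LP2 K c lam2 v P ∧
      RQ2 act ph Wo Bad N z p0 K c rho2 nu2 nu1
        (T act ph p0 nu2 nu1 (T act ph p0 nu2 nu1 v X) X') Q := by
  classical
  obtain ⟨hX1, hX2, hX3⟩ := hX
  have hX'' := hX'
  obtain ⟨hY1, hY2, hY3⟩ := hX'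
  set U : List α := X ++ X' with hU
  have hlU : U.length = X.length + X'.length := by rw [hU, List.length_append]
  have hWU : Wo U := (hW.loc X X' (by omega)).2 hY1
  have htk : ∀ s, s ≤ X.length → U.take s = X.take s := fun s hs => by
    rw [hU, List.take_append_of_le_length hs]
  -- transfer of walls
  have htr : ∀ k < K, ∀ s, n ≤ s → c k + s ≤ U.length →
      (Wo ((U.drop (c k)).take s) ↔ Wo (U.take (c k + s))) :=
    fun k hk s hs h => wo_take hW U (c k) s hs h
  have hlQ : ∀ k < K, (U.drop (c k)).length = U.length - c k := fun k hk => by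
    rw [List.length_drop]
  -- ends exist
  have hends : ∀ k < K, ∀ k' < K, ∃ t, IsEnd Wo z c (U.drop (c k)) k' t := by
    intro k hk k' hk'
    have hck := hc k hk
    have hck' := hc k' hk'
    have hex : ∃ t, t ≤ (U.drop (c k)).length ∧ z ≤ c k' + t ∧ Wo ((U.drop (c k)).take t) := by
      refine ⟨U.length - c k, by rw [hlQ k hk], by omega, ?_⟩
      rw [htr k hk _ (by omega) (by omega)]
      rw [List.take_of_length_le (by omega)]
      exact hWU
    obtain ⟨h1, h2, h3⟩ := Nat.find_spec hex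
    refine ⟨Nat.find hex, h1, h2, h3, ?_⟩
    intro s hs1 hs2 hs3
    exact Nat.find_min hex hs2 ⟨by omega, hs1, hs3⟩
  -- the two possible ends
  have hex1 : ∃ τ, z ≤ τ + p0 ∧ τ ≤ U.length ∧ Wo (U.take τ) :=
    ⟨U.length, by omega, le_rfl, by rw [List.take_of_length_le le_rfl]; exact hWU⟩
  obtain ⟨hb1, hb2, hb3⟩ := Nat.find_spec hex1
  set β1 : ℕ := Nat.find hex1 with hβ1
  obtain ⟨β2, hβ20, hβ2⟩ : ∃ β2, z ≤ β2 + p0 ∧ ∀ τ, β1 < τ → τ ≤ U.length → Wo (U.take τ) →
      (∀ σ, β1 < σ → σ < τ → ¬ (Wo (U.take σ))) → τ = β2 := by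
    by_cases h : ∃ τ, β1 < τ ∧ τ ≤ U.length ∧ Wo (U.take τ)
    · obtain ⟨g1, g2, g3⟩ := Nat.find_spec h
      refine ⟨Nat.find h, by omega, ?_⟩
      intro τ h1 h2 h3 h4
      have hle : Nat.find h ≤ τ := Nat.find_min' h ⟨h1, h2, h3⟩
      by_contra hne
      exact h4 (Nat.find h) g1 (by omega) g3
    · exact ⟨β1, hb1, fun τ h1 h2 h3 _ => absurd ⟨τ, h1, h2, h3⟩ h⟩
  -- spoiled places
  have key : ∀ k < K, ∀ k' < K, CB Wo Bad N z p0 c (U.drop (c k)) k' →
      (∃ ω, ω ≤ U.length ∧ Wo (U.take ω) ∧ z + c k ≤ c k' + ω + N ∧ c k' + ω < z + c k + N) ∨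
      Bad (β1 - p0 + c k' - c k) ∨ Bad (β2 - p0 + c k' - c k) := by
    intro k hk k' hk' hcb
    have hck := hc k hk
    have hck' := hc k' hk'
    obtain ⟨t, ⟨ht1, ht2, ht3, ht4⟩, hcase⟩ := hcb
    rw [hlQ k hk] at ht1
    have hτw : Wo (U.take (c k + t)) := (htr k hk t (by omega) (by omega)).1 ht3
    rcases hcase with ⟨s, h1, h2, h3, h4⟩ | h1 | h1
    · left
      rw [hlQ k hk] at h1
      exact ⟨c k + s, by omega, (htr k hk s (by omega) (by omega)).1 h4, by omega, by omega⟩
    · left
      exact ⟨c k + t, by omega, hτw, by omega, by omega⟩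
    · right
      have hle : β1 ≤ c k + t := Nat.find_min' hex1 ⟨by omega, by omega, hτw⟩
      have hno : ∀ σ, z + c k ≤ c k' + σ → σ < c k + t → ¬ Wo (U.take σ) := by
        intro σ h2 h3 h4
        have h5 : σ = c k + (σ - c k) := by omega
        rw [h5] at h4
        exact ht4 (σ - c k) (by omega) (by omega) ((htr k hk _ (by omega) (by omega)).2 h4)
      rcases eq_or_lt_of_le hle with heq | hlt
      · left
        have h6 : β1 - p0 + c k' - c k = c k' + t - p0 := by omega
        rw [h6]; exact h1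
      · right
        have h7 : c k + t = β2 := by
          refine hβ2 _ hlt (by omega) hτw ?_
          intro σ h8 h9 h10
          have h11 : ¬ z + c k ≤ c k' + β1 := fun h => hno β1 h hlt hb3
          have h12 : ¬ z + c k ≤ c k' + σ := fun h => hno σ h h9 h10
          have h13 := wall_gap hW U β1 σ h8 (by omega) hb3 h10
          omega
        have h6 : β2 - p0 + c k' - c k = c k' + t - p0 := by omega
        rw [h6]; exact h1
  -- counting
  set J : Finset ℕ := (Finset.range K).filter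
    (fun k => ∃ k' < K, k' ≠ k ∧ CB Wo Bad N z p0 c (U.drop (c k)) k') with hJ
  set JE : Finset ℕ := (Finset.range K).filter
    (fun k => ∃ k' < K, k' ≠ k ∧ ∃ ω, ω ≤ U.length ∧ Wo (U.take ω) ∧
      z + c k ≤ c k' + ω + N ∧ c k' + ω < z + c k + N) with hJE
  let JB : ℕ → Finset ℕ := fun β => ((Finset.range K ×ˢ Finset.range K).filter
      (fun ab => ab.1 ≠ ab.2 ∧ Bad (β - p0 + c ab.1 - c ab.2))).image Prod.snd
  have hJsub : J ⊆ JE ∪ (JB β1 ∪ JB β2) := by
    intro k hk
    rw [hJ, Finset.mem_filter, Finset.mem_range] at hk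
    obtain ⟨hk, k', hk', hne, hcb⟩ := hk
    rw [Finset.mem_union, Finset.mem_union]
    rcases key k hk k' hk' hcb with h | h | h
    · left
      rw [hJE, Finset.mem_filter, Finset.mem_range]
      exact ⟨hk, k', hk', hne, h⟩
    · right; left
      rw [Finset.mem_image]
      refine ⟨(k', k), ?_, rfl⟩
      rw [Finset.mem_filter, Finset.mem_product, Finset.mem_range, Finset.mem_range]
      exact ⟨⟨hk', hk⟩, hne, h⟩
    · right; right
      rw [Finset.mem_image]
      refine ⟨(k', k), ?_, rfl⟩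
      rw [Finset.mem_filter, Finset.mem_product, Finset.mem_range, Finset.mem_range]
      exact ⟨⟨hk', hk⟩, hne, h⟩
  have hJE1 : JE.card ≤ 1 := by
    rw [Finset.card_le_one]
    intro a ha b hb
    rw [hJE, Finset.mem_filter, Finset.mem_range] at ha hb
    obtain ⟨haK, a', haK', hane, ω, hω1, hω2, hω3, hω4⟩ := ha
    obtain ⟨hbK, b', hbK', hbne, ω', hω1', hω2', hω3', hω4'⟩ := hb
    have ca := hc a haK
    have ca' := hc a' haK'
    have cb := hc b hbK
    have cb' := hc b' hbK'
    have hωω : ω = ω' := by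
      rcases lt_trichotomy ω ω' with hlt | heq | hlt
      · have := wall_gap hW U ω ω' hlt hω1' hω2 hω2'
        omega
      · exact heq
      · have := wall_gap hW U ω' ω hlt hω1 hω2' hω2
        omega
    refine (hgol a a' b b' haK haK' hbK hbK' (Ne.symm hane) ?_).1
    rw [abs_le]
    constructor <;> omega
  have hJB : ∀ β, z ≤ β + p0 → (JB β).card ≤ C0 := by
    intro β hβ
    refine le_trans Finset.card_image_le ?_
    exact hspoil (β - p0) (by omega)
  have hJcard : J.card ≤ 1 + 2 * C0 := by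
    refine le_trans (Finset.card_le_card hJsub) ?_
    refine le_trans (Finset.card_union_le _ _) ?_
    have h1 := Finset.card_union_le (JB β1) (JB β2)
    have h2 := hJB β1 hb1
    have h3 := hJB β2 hβ20
    omega
  -- an unspoiled place
  obtain ⟨I, hIc, hI⟩ := hG.compl (X.take p0) (by rw [List.length_take]; omega) v
  obtain ⟨k, hkI, hkJ⟩ : ∃ k ∈ I, k ∉ J := by
    by_contra hcon
    push Not at hcon
    have := Finset.card_le_card (show I ⊆ J from fun k hk => hcon k hk)
    omega
  obtain ⟨hk, hlam, hrho⟩ := hI k hkI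
  obtain ⟨y, hy⟩ := Option.isSome_iff_exists.1 hrho
  have hck := hc k hk
  have hPU : U.take (c k) = (X.take p0).take (c k) := by
    rw [htk _ (by omega), List.take_take, min_eq_left hck]
  have hlP : (U.take (c k)).length = c k := by rw [List.length_take]; omega
  have hnsp : ∀ k' < K, k' ≠ k → ¬ CB Wo Bad N z p0 c (U.drop (c k)) k' := by
    intro k' hk' hne hcb
    apply hkJ
    rw [hJ, Finset.mem_filter, Finset.mem_range]
    exact ⟨hk, k', hk', hne, hcb⟩
  have hend : IsEnd Wo z c (U.drop (c k)) k (X.length - c k) := by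
    refine ⟨by rw [hlQ k hk]; omega, by omega, ?_, ?_⟩
    · rw [htr k hk _ (by omega) (by omega)]
      have : c k + (X.length - c k) = X.length := by omega
      rw [this, htk _ le_rfl, List.take_of_length_le le_rfl]
      exact hX1
    · intro s hs1 hs2 hs3
      rw [htr k hk _ (by omega) (by omega), htk _ (by omega)] at hs3
      exact hX3 _ hs1 (by omega) hs3
  have hCBk : CB Wo Bad N z p0 c (U.drop (c k)) k := by
    refine ⟨X.length - c k, hend, ?_⟩
    rcases hbad with (⟨s, h1, h2, h3⟩ | h1) | h1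
    · left
      refine ⟨s - c k, by rw [hlQ k hk]; omega, by omega, by omega, ?_⟩
      rw [htr k hk _ (by omega) (by omega)]
      have : c k + (s - c k) = s := by omega
      rw [this, htk _ (by omega)]
      exact h3
    · right; left; omega
    · right; right
      have : c k + (X.length - c k) - p0 = X.length - p0 := by omega
      rw [this]; exact h1
  have hQt : (U.drop (c k)).take (X.length - c k) = X.drop (c k) := by
    rw [← List.drop_take, htk _ le_rfl, List.take_of_length_le le_rfl]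
  have hQd : (U.drop (c k)).drop (X.length - c k) = X' := by
    rw [List.drop_drop]
    have : c k + (X.length - c k) = X.length := by omega
    rw [this, hU, List.drop_left]
  have hQ0 : (U.drop (c k)).take (p0 - c k) = (X.take p0).drop (c k) := by
    rw [← List.drop_take, htk _ (by omega)]
  have hyv : y = act v (ph (X.take p0)) + nu2 (X.take p0) := by
    have := hG.sound k hk ((X.take p0).take (c k)) ((X.take p0).drop (c k)) v y
      (by rw [← hPU]; exact hlP) (by rw [List.take_append_drop, List.length_take]; omega) hlam hy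
    rwa [List.take_append_drop] at this
  refine ⟨U.take (c k), U.drop (c k), List.take_append_drop _ _, ⟨k, hk, hlP, ?_⟩, ?_⟩
  · rw [hPU]; exact hlam
  · refine ⟨k, hk, hCBk, hnsp, hends k hk, X.length - c k, y, hend, ?_, ?_, ?_⟩
    · rw [hQ0]; exact hy
    · rw [hQd]; exact hX''
    · rw [hQd, hQt, List.drop_drop]
      have : c k + (p0 - c k) = p0 := by omega
      rw [this, hyv]
      rfl

end scheme2

end Crest.Agent.R320.Joint_487
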