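import Crest.Agent.R320.Grid_899
import Crest.Agent.R320.GridRuler_314
import Crest.Agent.R320.Joint_487

/-!
# Row 320: the gadget of scheme 1 with its ruler, in the form of Joint_487 (helper987)
-/

set_option autoImplicit false

namespace Crest.Agent.R320.Gad_987

open Crest.Agent.R320.Joint_487

theorem gad (S V : Type) [Monoid S] [Finite S] [AddCommGroup V] [Finite V] (act : V → S → V) :
    ∃ C0 : ℕ, ∀ K : ℕ, ∃ (N T0 Pd : ℕ) (c : ℕ → ℕ) (Bad : ℕ → Prop), 0 < Pd ∧
      (∀ T T' : ℕ, T % Pd = T' % Pd → (Bad T → Bad T')) ∧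
      (∀ i j, i < j → c i < c j) ∧
      (∀ a b a' b', a < K → b < K → a' < K → b' < K → a ≠ b →
        |((c a : ℤ) - c b) - ((c a' : ℤ) - c b')| ≤ 2 * N → a = a' ∧ b = b') ∧
      (∀ t, T0 ≤ t → ∃ Q : Finset (ℕ × ℕ), Q.card ≤ C0 ∧ ∀ a b, a < K → b < K → a ≠ b →
        Bad (t + c a - c b) → (a, b) ∈ Q) ∧
      ∀ (α : Type) (phi : List α → S), (∀ u v, phi (u ++ v) = phi u * phi v) →
        ∃ (lam rho : List α → Option V) (nu : List α → V), G1 act phi N Bad lam rho nu ∧
          ∃ A M : ℕ, 0 < M ∧ ∀ Y Y' : List α, A ≤ Y.length → A ≤ Y'.length →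
            Y.take A = Y'.take A → phi (Y.drop A) = phi (Y'.drop A) →
            Y.length % M = Y'.length % M → nu Y = nu Y' := by
  classical
  obtain ⟨k, m, H⟩ := Grid_899.grid_gadget_reg S V act
  refine ⟨k + m, fun K => ?_⟩
  -- primes
  have hinf : {p : ℕ | p.Prime ∧ 2 ^ (K + 1) < p}.Infinite := by
    refine Set.infinite_of_forall_exists_gt fun n => ?_
    obtain ⟨p, hp, hpp⟩ := Nat.exists_infinite_primes (max n (2 ^ (K + 1)) + 1)
    exact ⟨p, ⟨hpp, by have := le_max_right n (2 ^ (K + 1)); omega⟩,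
      by have := le_max_left n (2 ^ (K + 1)); omega⟩
  let e := hinf.natEmbedding
  let q : Fin k → ℕ := fun j => (e (j : ℕ) : ℕ)
  have hqp : ∀ j, (q j).Prime := fun j => (e (j : ℕ)).2.1
  have hqb : ∀ j, 2 ^ (K + 1) < q j := fun j => (e (j : ℕ)).2.2
  have hqi : Function.Injective q := by
    intro i j h
    have h1 : e (i : ℕ) = e (j : ℕ) := Subtype.ext h
    exact Fin.ext (e.injective h1)
  have h2K : 2 ≤ 2 ^ (K + 1) := by
    have := Nat.one_le_two_pow (n := K)
    rw [pow_succ]; omega
  have hodd : ∀ j, Odd (q j) := fun j =>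
    (hqp j).odd_of_ne_two (by have := hqb j; omega)
  have hcop : Pairwise (fun i j => Nat.Coprime (q i) (q j)) := by
    intro i j hij
    exact (Nat.coprime_primes (hqp i) (hqp j)).2 (fun h => hij (hqi h))
  set Mq := ∏ j, q j with hMq
  have hMqpos : 0 < Mq := Finset.prod_pos fun j _ => (hqp j).pos
  set κ : ℕ := 2 ^ (K + 4) * (Mq * (m + 1)) with hκ
  have hκ2 : 2 ^ (K + 4) * (Mq * (m + 1)) ≤ 2 ^ κ := by
    rw [← hκ]; exact Nat.lt_two_pow_self.le
  have H' := H q hodd hcop κ
  set G := Grid_899.G κ with hG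
  set Am := Grid_899.Am Mq κ with hAm
  have hGpos : ∀ i, 0 < G i := fun i => Grid_899.G_pos i
  have hGd : ∀ i j, j ≤ i → G j ∣ G i := fun i j h => Grid_899.G_dvd h
  have hGs : ∀ i, G (i + 1) = 2 ^ κ * G i := by
    intro i
    simp only [hG, Grid_899.G]
    rw [← pow_add]; congr 1; ring
  have hAmm : ∀ i j, i ≤ j → Am i ≤ Am j := fun i j h => Grid_899.Am_mono h
  set N := Am (m + 1) with hN
  let Ms : Finset ℕ := Finset.univ.image q
  have hMsprod : ∏ x ∈ Ms, x = Mq := by
    rw [Finset.prod_image (fun a _ b _ h => hqi h)]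
  have hbig : ∀ i, 1 ≤ i → i ≤ m → 2 ^ (K + 4) * ∑ j ∈ Finset.range i, Mq * G j ≤ G i := by
    intro i hi him
    obtain ⟨i', rfl⟩ : ∃ i', i = i' + 1 := ⟨i - 1, by omega⟩
    have h1 : ∑ j ∈ Finset.range (i' + 1), Mq * G j ≤ ∑ j ∈ Finset.range (i' + 1), Mq * G i' := by
      refine Finset.sum_le_sum fun j hj => Nat.mul_le_mul_left _ ?_
      exact Nat.le_of_dvd (hGpos _) (hGd _ _ (by rw [Finset.mem_range] at hj; omega))
    rw [Finset.sum_const, Finset.card_range, smul_eq_mul] at h1
    calc 2 ^ (K + 4) * ∑ j ∈ Finset.range (i' + 1), Mq * G j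
        ≤ 2 ^ (K + 4) * ((i' + 1) * (Mq * G i')) := Nat.mul_le_mul_left _ h1
      _ = (2 ^ (K + 4) * (Mq * (i' + 1))) * G i' := by ring
      _ ≤ (2 ^ (K + 4) * (Mq * (m + 1))) * G i' := by
          refine Nat.mul_le_mul_right _ (Nat.mul_le_mul_left _ (Nat.mul_le_mul_left _ (by omega)))
      _ ≤ 2 ^ κ * G i' := Nat.mul_le_mul_right _ hκ2
      _ = G (i' + 1) := (hGs i').symm
  have hcopG : Nat.Coprime (G m) (∏ x ∈ Ms, x) := by
    rw [hMsprod]
    have h2 : Nat.Coprime 2 Mq := by
      rw [hMq]
      exact Nat.Coprime.prod_right fun j _ => (Nat.coprime_two_left.2 (hodd j))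
    simp only [hG, Grid_899.G]
    exact Nat.Coprime.pow_left _ h2
  have hMsb : ∀ x ∈ Ms, 2 ^ (K + 1) < x := by
    intro x hx
    obtain ⟨j, _, rfl⟩ := Finset.mem_image.1 hx
    exact hqb j
  obtain ⟨X, hX1, hX2, -, -, hX5⟩ := GridRuler314.grid_ruler (2 * N) K m Ms G (fun i => Mq * G i)
    (fun i => Nat.mul_pos hMqpos (hGpos i)) (fun i => Dvd.intro_left _ rfl)
    (fun i => hGd _ _ (Nat.le_succ i)) (hGpos m) hbig hcopG hMsb
  let Bad : ℕ → Prop := fun T =>
    GridRuler314.BadT Ms m G (fun i => Mq * G i) (fun i => (Am i : ℤ)) (T : ℤ)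
  have hPd : 0 < Mq * G m := Nat.mul_pos hMqpos (hGpos m)
  refine ⟨N, 2 ^ K * X, Mq * G m, fun a => 2 ^ a * X, Bad, hPd, ?_, ?_, ?_, ?_, ?_⟩
  · -- periodic
    intro T T' hTT hb
    have hmod : ((Mq * G m : ℕ) : ℤ) ∣ (T' : ℤ) - T := by
      exact (Nat.modEq_iff_dvd.1 (show T ≡ T' [MOD Mq * G m] from hTT))
    obtain ⟨s, hs⟩ := hmod
    rcases hb with ⟨x, hx, hxT⟩ | ⟨i, hi, him, t, ht⟩
    · left
      refine ⟨x, hx, ?_⟩
      have h1 : (x : ℤ) ∣ (Mq : ℤ) := by
        rw [← hMsprod]; exact_mod_cast Finset.dvd_prod_of_mem _ hx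
      have h2 : (T' : ℤ) = T + ((Mq * G m : ℕ) : ℤ) * s := by linarith
      rw [h2]
      refine dvd_add hxT ?_
      push_cast
      exact Dvd.dvd.mul_right (Dvd.dvd.mul_right h1 _) _
    · right
      obtain ⟨w, hw⟩ := hGd m i him
      refine ⟨i, hi, him, t + Mq * w * s, ?_⟩
      have h2 : (T' : ℤ) = T + ((Mq * G m : ℕ) : ℤ) * s := by linarith
      have h3 : (T' : ℤ) - Am i - (t + Mq * w * s) * G i = (T : ℤ) - Am i - t * G i := by
        rw [h2]; push_cast; rw [hw]; push_cast; ring
      rw [h3]; exact ht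
  · intro i j hij
    have hXpos : 0 < X := by omega
    exact Nat.mul_lt_mul_of_pos_right (Nat.pow_lt_pow_right (by norm_num) hij) hXpos
  · intro a b a' b' ha hb ha' hb' hab hle
    have h1 : ((2 ^ a * X : ℕ) : ℤ) - ((2 ^ b * X : ℕ) : ℤ) -
        (((2 ^ a' * X : ℕ) : ℤ) - ((2 ^ b' * X : ℕ) : ℤ)) =
        (((2 : ℤ) ^ a - 2 ^ b) - (2 ^ a' - 2 ^ b')) * X := by push_cast; ring
    rw [h1, abs_mul, Nat.abs_cast] at hle
    by_contra hne
    have h0 : ((2 : ℤ) ^ a - 2 ^ b) - (2 ^ a' - 2 ^ b') ≠ 0 := fun h =>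
      hne (GridRuler314.coef_zero hab h)
    have h2 : 1 ≤ |((2 : ℤ) ^ a - 2 ^ b) - (2 ^ a' - 2 ^ b')| := Int.one_le_abs h0
    have h3 : ((2 * N : ℕ) : ℤ) < X := by exact_mod_cast hX1
    push_cast at h3
    nlinarith
  · intro t ht
    obtain ⟨P, hP1, hP2⟩ := hX5 (fun i => (Am i : ℤ)) (t : ℤ)
    refine ⟨P.image Prod.swap, ?_, ?_⟩
    · refine le_trans Finset.card_image_le (le_trans hP1 ?_)
      have : Ms.card ≤ k := by
        refine le_trans Finset.card_image_le ?_
        simp
      omega
    · intro a b ha hb hab hbad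
      refine Finset.mem_image.2 ⟨(b, a), ?_, rfl⟩
      refine hP2 b a hb ha (Ne.symm hab) ?_
      have hcb : 2 ^ b * X ≤ t := by
        refine le_trans (Nat.mul_le_mul_right _ (Nat.pow_le_pow_right (by norm_num) hb.le)) ht
      have h1 : ((t + 2 ^ a * X - 2 ^ b * X : ℕ) : ℤ) =
          (t : ℤ) - (GridRuler314.xm X b - GridRuler314.xm X a) := by
        rw [Nat.cast_sub (by omega)]
        unfold GridRuler314.xm
        push_cast; ring
      have hbad' : GridRuler314.BadT Ms m G (fun i => Mq * G i) (fun i => (Am i : ℤ))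
        ((t + 2 ^ a * X - 2 ^ b * X : ℕ) : ℤ) := hbad
      rw [h1] at hbad'
      exact hbad'
  · intro α phi hphi
    obtain ⟨lam, rho, nu, h1, h2, h3, h4, h5⟩ := H' α phi hphi
    let nu' : List α → V := fun Y =>
      if ∃ P Q v b, P ++ Q = Y ∧ lam P = some v ∧ rho Q = some b then nu Y else 0
    refine ⟨lam, rho, nu', ⟨?_, ?_, ?_⟩, 2 * N, Mq * G m, hPd, ?_⟩
    · intro p v hp
      have := (h1 p v hp).1
      have h6 := hAmm m (m + 1) (Nat.le_succ m)
      omega
    · intro p Q v r hp hr
      have h6 : nu' (p ++ Q) = nu (p ++ Q) := by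
        simp only [nu']
        rw [if_pos ⟨p, Q, v, r, rfl, hp, hr⟩]
      rw [h6]
      exact h3 p Q v r hp hr
    · intro u hu hb v
      obtain ⟨P, Q, e1, e2, e3⟩ := h4 u hu (fun j hj => hb (Or.inl ⟨q j,
        Finset.mem_image.2 ⟨j, Finset.mem_univ _, rfl⟩, by exact_mod_cast hj⟩)) (by
          intro j hj hjm
          have hAj : Am j ≤ N := hAmm j (m + 1) (by omega)
          have hr := Nat.div_add_mod (u.length - Am j) (G j)
          have hlt := Nat.mod_lt (u.length - Am j) (hGpos j)
          constructor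
          · by_contra hc
            refine hb (Or.inr ⟨j, hj, hjm, ((u.length - Am j) / G j : ℕ), ?_⟩)
            have h6 : (u.length : ℤ) - Am j - ((u.length - Am j) / G j : ℕ) * (G j : ℤ) =
                ((u.length - Am j) % G j : ℕ) := by
              have h7 : ((u.length - Am j : ℕ) : ℤ) = (u.length : ℤ) - Am j :=
                Nat.cast_sub (by omega)
              rw [← h7]
              have h8 : ((u.length - Am j : ℕ) : ℤ) = (G j : ℤ) * ((u.length - Am j) / G j : ℕ) +
                ((u.length - Am j) % G j : ℕ) := by exact_mod_cast hr.symm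
              rw [h8]; ring
            rw [h6, Nat.abs_cast]
            exact_mod_cast (not_le.1 hc).le
          · by_contra hc
            refine hb (Or.inr ⟨j, hj, hjm, ((u.length - Am j) / G j : ℕ) + 1, ?_⟩)
            have h6 : (u.length : ℤ) - Am j - (((u.length - Am j) / G j : ℕ) + 1) * (G j : ℤ) =
                ((u.length - Am j) % G j : ℕ) - (G j : ℤ) := by
              have h7 : ((u.length - Am j : ℕ) : ℤ) = (u.length : ℤ) - Am j :=
                Nat.cast_sub (by omega)
              rw [← h7]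
              have h8 : ((u.length - Am j : ℕ) : ℤ) = (G j : ℤ) * ((u.length - Am j) / G j : ℕ) +
                ((u.length - Am j) % G j : ℕ) := by exact_mod_cast hr.symm
              linarith
            rw [h6, abs_le]
            constructor
            · have h9 : ((G j : ℤ)) < ((u.length - Am j) % G j : ℕ) + ((Mq * G (j - 1) : ℕ) : ℤ) := by
                exact_mod_cast (not_le.1 hc)
              linarith
            · have h9 : (((u.length - Am j) % G j : ℕ) : ℤ) < (G j : ℤ) := by exact_mod_cast hlt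
              have h10 : (0 : ℤ) ≤ ((Mq * G (j - 1) : ℕ) : ℤ) := Int.natCast_nonneg _
              linarith) v
      exact ⟨P, Q, e1.symm, e2, e3⟩
    · intro Y Y' hY hY' htk hph hmod
      -- transfer of legal pairs
      have key : ∀ Z Z' : List α, 2 * N ≤ Z.length → 2 * N ≤ Z'.length →
          Z.take (2 * N) = Z'.take (2 * N) → phi (Z.drop (2 * N)) = phi (Z'.drop (2 * N)) →
          Z.length % (Mq * G m) = Z'.length % (Mq * G m) →
          (∃ P Q v b, P ++ Q = Z ∧ lam P = some v ∧ rho Q = some b) →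
          (∃ P Q v b, P ++ Q = Z' ∧ lam P = some v ∧ rho Q = some b) ∧ nu Z = nu Z' := by
        rintro Z Z' hZ hZ' htk hph hmod ⟨P, Q, v, b, rfl, hP, hQ⟩
        have hPl : P.length ≤ N := by
          have := (h1 P v hP).1
          have h6 := hAmm m (m + 1) (Nat.le_succ m)
          omega
        set Q' := Z'.drop P.length with hQ'
        have hPZ' : P ++ Q' = Z' := by
          have h6 : Z'.take P.length = P := by
            have h7 := congrArg (List.take P.length) htk
            rw [List.take_take, List.take_take, min_eq_left (by omega)] at h7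
            rw [← h7, List.take_left]
          conv_rhs => rw [← List.take_append_drop P.length Z', h6]
        have hphZ : phi (P ++ Q) = phi Z' := by
          conv_lhs => rw [← List.take_append_drop (2 * N) (P ++ Q)]
          conv_rhs => rw [← List.take_append_drop (2 * N) Z']
          rw [hphi, hphi, htk, hph]
        have hdrop : ∀ Z : List α, P <+: Z → 2 * N ≤ Z.length →
            (Z.drop P.length).take N = ((Z.take (2 * N)).drop P.length).take N ∧
            phi ((Z.drop P.length).drop N) =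
              phi ((Z.take (2 * N)).drop (P.length + N)) * phi (Z.drop (2 * N)) := by
          intro Z _ hZ
          constructor
          · rw [List.drop_take, List.take_take, min_eq_left (by omega)]
          · rw [List.drop_drop, ← hphi]
            congr 1
            conv_lhs => rw [← List.take_append_drop (2 * N) Z]
            rw [List.drop_append_of_le_length]
            rw [List.length_take]; omega
        have hQd : Q = (P ++ Q).drop P.length := by rw [List.drop_left]
        have d1 := hdrop (P ++ Q) (List.prefix_append _ _) hZ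
        have d2 := hdrop Z' ⟨Q', hPZ'⟩ hZ'
        rw [← hQd] at d1
        have hlQ : (P ++ Q).length = P.length + Q.length := List.length_append
        have hlQ' : Z'.length = P.length + Q'.length := by
          conv_lhs => rw [← hPZ']
          exact List.length_append
        have hr : rho Q = rho Q' := by
          refine (h5 Q Q' (by omega) (by omega) ?_ ?_ ?_).1
          · rw [d1.1, d2.1, htk]
          · rw [d1.2, d2.2, htk, hph]
          · have h8 : P.length + Q.length ≡ P.length + Q'.length [MOD Mq * G m] := by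
              rw [← hlQ, ← hlQ']; exact hmod
            exact Nat.ModEq.add_left_cancel' _ h8
        refine ⟨⟨P, Q', v, b, hPZ', hP, hr ▸ hQ⟩, ?_⟩
        have e1 := h3 P Q v b hP hQ
        have e2 := h3 P Q' v b hP (hr ▸ hQ)
        rw [hPZ', ← hphZ] at e2
        rw [e1] at e2
        exact add_left_cancel e2
      by_cases hL : ∃ P Q v b, P ++ Q = Y ∧ lam P = some v ∧ rho Q = some b
      · obtain ⟨hL', hnn⟩ := key Y Y' hY hY' htk hph hmod hL
        simp only [nu']
        rw [if_pos hL, if_pos hL', hnn]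
      · have hL' : ¬ ∃ P Q v b, P ++ Q = Y' ∧ lam P = some v ∧ rho Q = some b := fun h =>
          hL (key Y' Y hY' hY htk.symm hph.symm hmod.symm h).1
        simp only [nu']
        rw [if_neg hL, if_neg hL']

end Crest.Agent.R320.Gad_987
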