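import Crest.Agent.R320.Fin1_987
import Crest.Agent.R320.Gad_987
import Crest.Agent.R320.ExactR_237
import Crest.Agent.R320.LWallAll_922
import Crest.Agent.R320.Block_467
import Crest.Agent.R320.Univ_234

/-!
# Row 320: final assembly (helper987) over Top_550, Joint_487, Grid_899, GridRuler_314, ExactR_237,
LWallAll_922, Block_467, Univ_234
-/

set_option autoImplicit false

namespace Crest.Agent.R320.Fin_987

open Crest.RegLang Crest.Agent.R320.Hk_851 Crest.Agent.R320.Top_550 Crest.Agent.R320.Joint_487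
open Crest.Agent.R320.Code110

theorem main (α : Type) [Finite α] (S : Type) [Monoid S] [Finite S] (f : α → S) (s : S) :
    HL 3 ({w | (w.map f).prod = s} : Language α) := by
  classical
  haveI := Fintype.ofFinite S
  obtain ⟨act, hadd, hone, hmul, hfaith⟩ := Crest.Agent.R320.Blk467.exists_module S
  obtain ⟨C0, hG⟩ := Gad_987.gad S (S → ZMod 2) act
  obtain ⟨K, hE⟩ := Crest.Agent.R320.ExactR_237.exact_gadget α S (S → ZMod 2) f act (2 + 2 * C0)
  obtain ⟨N, T0, Pd, c, Bad, hPd, hper, hcm, hgol, hsp, hg⟩ := hG K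
  obtain ⟨lam, rho, nu1, hG1, A, M, hM, hnu⟩ := hg α (pr f) (pr_append f)
  obtain ⟨lam2, rho2, nu2, hs2, hcc2⟩ := hE c (fun i j hij _ => hcm i j hij)
  have hc : ∀ k < K, c k ≤ c K := fun k hk => (hcm k K hk).le
  generalize c K = p0 at hc
  have hG2 : G2 act (pr f) p0 K (1 + 2 * C0) c lam2 (fun k Q => rho2 k Q 1) (fun u => nu2 u 1) := by
    refine ⟨?_, ?_⟩
    · intro k hk P Q v b hP _ h1 h2
      have h3 := hs2 k hk P Q 1 v b hP h1 h2
      rw [mul_one] at h3
      exact h3
    · intro u hu v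
      obtain ⟨I, hI1, hI2⟩ := hcc2 u 1 v (fun k hk => by rw [hu]; exact hc k hk)
      exact ⟨I, by omega, hI2⟩
  obtain ⟨n0, G, B, Wo0, hLW, hgap, -, -, hfree⟩ :=
    Crest.Agent.R320.LWallAll_922.walls_all_left α (2 * (p0 + N) + 1) (by omega)
  let Wo : List α → Prop := fun Q => Wo0 Q ∧ 0 < Q.length
  obtain ⟨n, hn⟩ : ∃ n, n = max n0 1 := ⟨_, rfl⟩
  have hn0 : n0 ≤ n := by rw [hn]; exact le_max_left _ _
  have hn1 : 1 ≤ n := by rw [hn]; exact le_max_right _ _
  have hloc : ∀ P Q : List α, n ≤ Q.length → (Wo (P ++ Q) ↔ Wo Q) := by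
    intro P Q hQ
    have h1 := hLW.app P Q (by omega)
    constructor
    · rintro ⟨h2, _⟩; exact ⟨h1.1 h2, by omega⟩
    · rintro ⟨h2, _⟩; exact ⟨h1.2 h2, by rw [List.length_append]; omega⟩
  have hlen : ∀ Q, Wo Q → n ≤ Q.length := by
    rintro Q ⟨h1, h2⟩
    have := hLW.len Q h1
    rw [hn]; exact max_le this h2
  have hW : Joint_487.LW Wo n (2 * (p0 + N) + 1) := by
    refine ⟨hloc, hlen, ?_⟩
    rintro Q d ⟨h1, h2⟩ hd hdW ⟨h3, h4⟩
    rw [List.length_take] at h4
    have h5 := hgap Q (Q.length - d) Q.length (by omega) le_rfl h3 (by rwa [List.take_length])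
    omega
  obtain ⟨z, hzdef⟩ : ∃ z, z = p0 + N + n + T0 + 2 * p0 + 1 := ⟨_, rfl⟩
  have hz : p0 + N + n ≤ z := by omega
  let nu2' : List α → (S → ZMod 2) := fun u => nu2 u 1
  let Bd : List α → Prop := fun X => BadX Wo Bad N z p0 X
  let L1 : (S → ZMod 2) → Language α := fun x => {P | LP1 act (pr f) lam nu2' p0 x P}
  let L2 : (S → ZMod 2) → Language α := fun x => {P | LP2 K c lam2 x P}
  have hpieces : ∃ R B' : ℕ, ∀ u : List α, (∀ t, t < u.length → ¬ Wo (u.take t)) →
      Pieces R B' u := by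
    refine ⟨2, max (max B (2 * (p0 + N) + 1)) 1, ?_⟩
    intro u hu
    have b1 : B ≤ max (max B (2 * (p0 + N) + 1)) 1 := (le_max_left _ _).trans (le_max_left _ _)
    have b2 : 2 * (p0 + N) + 1 ≤ max (max B (2 * (p0 + N) + 1)) 1 :=
      (le_max_right _ _).trans (le_max_left _ _)
    have b3 : 1 ≤ max (max B (2 * (p0 + N) + 1)) 1 := le_max_right _ _
    by_cases hl : u.length ≤ 1
    · refine ⟨[(u, [], 0)], by simp, ?_, ?_⟩
      · intro t ht
        simp only [List.mem_singleton] at ht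
        subst ht
        exact ⟨by simp only; omega, by simp⟩
      · simp [Pump_360.val, Pump_360.pw]
    · have hnil : ¬ Wo0 [] := by
        intro h
        have h1 := hLW.len [] h
        have h2 := (hLW.app (u.take 1) [] h1).2 h
        rw [List.append_nil] at h2
        exact hu 1 (by omega) ⟨h2, by rw [List.length_take]; omega⟩
      obtain ⟨x, y, v, k, h1, h2, h3, h4⟩ := hfree u (by
        intro t ht h
        rcases Nat.eq_zero_or_pos t with h0 | h0
        · subst h0
          exact hnil (by simpa using h)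
        · exact hu t ht ⟨h, by rw [List.length_take]; omega⟩)
      refine ⟨[(x, y, k), (v, [], 0)], by simp, ?_, ?_⟩
      · intro t ht
        simp only [List.mem_cons, List.not_mem_nil, or_false] at ht
        rcases ht with rfl | rfl
        · exact ⟨by simp only; omega, by simp only; omega⟩
        · exact ⟨by simp only; omega, by simp⟩
      · rw [h4]; simp [Pump_360.val, Pump_360.pw]
  have hnu1 : ∀ x, Language.IsRegular ({Y | nu1 Y = x} : Language α) := fun x =>
    Fin1_987.reg_key f A M hM (fun Y => nu1 Y = x) (fun Y Y' h1 h2 h3 h4 h5 h6 =>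
      (hnu Y Y' h1 h2 h3 h4 h5).symm.trans h6)
  have hBd : Language.IsRegular ({X | Bd X} : Language α) := by
    refine Fin1_987.reg_key f (z + N + 1) Pd hPd Bd ?_
    rintro Y Y' h1 h2 h3 _ h5 ((⟨t, ht1, ht2, ht3⟩ | h) | h)
    · refine Or.inl (Or.inl ⟨t, ht1, ht2, ?_⟩)
      have e := congrArg (List.take t) h3
      rw [List.take_take, List.take_take, min_eq_left (by omega)] at e
      rw [← e]; exact ht3
    · omega
    · refine Or.inr (hper _ _ ?_ h)
      have e : (Y.length - p0) + p0 ≡ (Y'.length - p0) + p0 [MOD Pd] := by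
        rw [Nat.sub_add_cancel (by omega), Nat.sub_add_cancel (by omega)]
        exact h5
      exact Nat.ModEq.add_right_cancel' _ e
  refine Top_550.top f act hadd hone (fun v s t => (hmul v s t).symm) hfaith Wo n z p0 hloc hlen
    (by omega) (by omega) hpieces nu2' nu1 hnu1 Bd hBd L1 L2 ?_ ?_ ?_ ?_ s
  · intro x
    refine (List.finite_length_le α (p0 + N)).subset ?_
    rintro P ⟨_, hP⟩
    have := hG1.lam_len _ _ hP
    rw [List.length_drop] at this
    show P.length ≤ p0 + N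
    omega
  · intro x
    refine (List.finite_length_le α p0).subset ?_
    rintro P ⟨k, hk, hP, _⟩
    show P.length ≤ p0
    rw [hP]; exact hc k hk
  · intro u hu hbd x
    obtain ⟨P, Q, e, hP, hQ⟩ := c1 nu2' hW hG1 hz u hu hbd x
    refine ⟨P, Q, Joint_487.T act (pr f) p0 nu2' nu1 x u, e.symm, hP, ?_⟩
    intro x' p' hp'
    left
    obtain ⟨h1, h2⟩ := s1 nu2' hW hG1 hz x' _ p' Q hp' hQ
    exact ⟨_, Language.mem_mul.2 ⟨p' ++ Q, ⟨h1, h2⟩, [], ⟨rfl, rfl⟩, by simp⟩⟩
  · intro u hu x t ht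
    obtain ⟨P, Q, e, hP, hQ⟩ := c2 (C0 := C0) (T0 := T0) hW hG2 hz (by omega) (by omega) hc hgol
      (by
        intro t ht
        obtain ⟨Q, hQ1, hQ2⟩ := hsp t ht
        refine le_trans (Finset.card_le_card ?_) hQ1
        rintro ⟨a, b⟩ hab
        rw [Finset.mem_filter, Finset.mem_product, Finset.mem_range, Finset.mem_range] at hab
        exact hQ2 a b hab.1.1 hab.1.2 hab.2.1 hab.2.2) u t hu.1 ht.1 hu.2 x
    refine ⟨P, Q, Joint_487.T act (pr f) p0 nu2' nu1 (Joint_487.T act (pr f) p0 nu2' nu1 x u) t,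
      e.symm, hP, ?_⟩
    intro x' p' hp'
    by_cases hprom : ∀ X Y, X ∈ XX Wo z → X ++ Y = p' ++ Q → BadX Wo Bad N z p0 X
    · obtain ⟨X, X2, hX, hX2, e2, e3⟩ := s2 hW hG2 hz hc x' _ p' Q hp' hQ hprom
      have hXb := hprom X X2 hX e2.symm
      by_cases hX2b : BadX Wo Bad N z p0 X2
      · left
        exact ⟨_, Language.mem_mul.2 ⟨X, ⟨⟨hX, hXb⟩, rfl⟩, X2, ⟨_, Language.mem_mul.2
          ⟨X2, ⟨⟨hX2, hX2b⟩, e3⟩, [], ⟨rfl, rfl⟩, by simp⟩⟩, e2.symm⟩⟩
      · right
        exact Or.inr (Language.mem_mul.2 ⟨X, hX, X2, ⟨X2, hX2, fun h => hX2b h.2,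
          List.prefix_rfl⟩, e2.symm⟩)
    · right; left
      push Not at hprom
      obtain ⟨X, Y, hX, e2, hnb⟩ := hprom
      exact ⟨X, hX, fun h => hnb h.2, ⟨Y, e2⟩⟩

/-- generalized star height at most three -/
theorem star_height_three {α : Type*} [Finite α] (L : Language α) (hL : L.IsRegular) :
    ∃ e : GRegExp α, e.height ≤ 3 ∧ e.lang = L :=
  Crest.Agent.R320.Univ_234.of_type_monoid (fun A _ S _ _ φ s => main A S φ s) L hL

end Crest.Agent.R320.Fin_987
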