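import Crest.Agent.R320.InstB_11
import Crest.Agent.R320.H14_82
import Crest.Agent.R320.G1_604
import Crest.Agent.R320.Sp_493

/-!
# Row 320: the join (helper988).

`top_sem` (110) + C1 / C2 (11) + H1-H4 (82) + gadget (604) + ruler (493) + exact gadget (237) +
walls of all words (228) + choice of constants.
-/

set_option autoImplicit false

namespace Crest.Agent.R320.Fin_988

open Crest.RegLang Crest.Agent.R320.Hk_851 Crest.Agent.R320.Code110
  Crest.Agent.R320.WallU_228 Crest.Agent.R320.FewWalls_228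

/-- the faithful module -/
def act {S : Type} [Monoid S] (v : S → ZMod 2) (s : S) : S → ZMod 2 := fun u => v (s * u)

theorem act_mul {S : Type} [Monoid S] (v : S → ZMod 2) (s t : S) :
    act v (s * t) = act (act v s) t := by
  funext u
  show v (s * t * u) = v (s * (t * u))
  rw [mul_assoc]

theorem act_add {S : Type} [Monoid S] (a b : S → ZMod 2) (s : S) :
    act (a + b) s = act a s + act b s := rfl

theorem xx_eq {α : Type} (n : ℕ) (Sw : Set (List α)) (z : ℕ) :
    InstB_11.XX (Wo n Sw) z = H14_82.XX n Sw z := by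
  ext X
  constructor
  · rintro ⟨h1, h2, h3⟩
    exact ⟨h1, h2, fun t ht hz => h3 t hz ht⟩
  · rintro ⟨h1, h2, h3⟩
    exact ⟨h1, h2, fun t hz ht => h3 t ht hz⟩

theorem bad_eq {α : Type} (n : ℕ) (Sw : Set (List α)) (z N p0 : ℕ) (BadT : ℕ → Prop) :
    InstB_11.BadX (Wo n Sw) z N p0 BadT = H14_82.Bad n Sw z N p0 BadT := by
  ext X
  constructor
  · rintro ⟨h1, h2⟩
    exact ⟨by rw [← xx_eq]; exact h1, h2⟩
  · rintro ⟨h1, h2⟩
    exact ⟨by rw [xx_eq]; exact h1, h2⟩

theorem bad_per {Ms : Finset ℕ} {M b m : ℕ} (hb : 0 < b) (hMs : ∀ k ∈ Ms, k ∣ M) (n : ℕ) :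
    Sp_493.Bad Ms M b m (n + M * b ^ m) ↔ Sp_493.Bad Ms M b m n := by
  have h1 : ∀ k ∈ Ms, (k ∣ n + M * b ^ m ↔ k ∣ n) := fun k hk =>
    (Nat.dvd_add_left ((hMs k hk).mul_right _))
  have h2 : ∀ j < m, (n + M * b ^ m) / b ^ j % b = n / b ^ j % b := by
    intro j hj
    obtain ⟨d, rfl⟩ : ∃ d, m = j + 1 + d := ⟨m - (j + 1), by omega⟩
    have e : n + M * b ^ (j + 1 + d) = n + b ^ j * (b * (M * b ^ d)) := by ring
    rw [e, Nat.add_mul_div_left _ _ (by positivity), Nat.add_mul_mod_self_left]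
  unfold Sp_493.Bad
  constructor
  · rintro (⟨k, hk, h⟩ | ⟨j, hj, h⟩)
    · exact Or.inl ⟨k, hk, (h1 k hk).1 h⟩
    · refine Or.inr ⟨j, hj, ?_⟩
      rw [h2 j hj] at h
      exact h
  · rintro (⟨k, hk, h⟩ | ⟨j, hj, h⟩)
    · exact Or.inl ⟨k, hk, (h1 k hk).2 h⟩
    · refine Or.inr ⟨j, hj, ?_⟩
      rw [h2 j hj]
      exact h

set_option maxHeartbeats 1000000 in
theorem fin (α : Type) [Finite α] (S : Type) [Monoid S] [Finite S] (f : α → S) (s : S) :
    HL 3 ({w | (w.map f).prod = s} : Language α) := by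
  classical
  have := Fintype.ofFinite S
  have : Fintype (S → ZMod 2) := Fintype.ofFinite _
  obtain ⟨m, r, hg⟩ := G1_604.g1 S (S → ZMod 2) (act (S := S))
  set C0 := r + m with hC0
  obtain ⟨K, hK⟩ := ExactR_237.exact_gadget α S (S → ZMod 2) f (act (S := S)) (2 * C0 + 2)
  obtain ⟨Ms, M, hcard, hMs, hM, hg⟩ := hg (2 ^ (K + 1))
  set b := 2 ^ (K + 5) * M + 1 with hb
  have hb1 : 2 ^ (K + 4) * M < b := by
    have : 2 ^ (K + 5) * M = 2 * (2 ^ (K + 4) * M) := by rw [pow_succ]; ring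
    omega
  have hb2 : 4 * M + 4 < b := by
    have h1 : 32 * M ≤ 2 ^ (K + 5) * M := by
      have : 2 ^ (K + 5) = 2 ^ K * 32 := by rw [pow_add]; norm_num
      rw [this]
      have h2 : 1 ≤ 2 ^ K := Nat.one_le_two_pow
      nlinarith
    omega
  have hcop : Nat.Coprime b M := by
    rw [hb]
    have h1 := Nat.gcd_dvd_left (2 ^ (K + 5) * M + 1) M
    have h2 := Nat.gcd_dvd_right (2 ^ (K + 5) * M + 1) M
    have h3 : Nat.gcd (2 ^ (K + 5) * M + 1) M ∣ 2 ^ (K + 5) * M := h2.mul_left _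
    exact Nat.dvd_one.1 ((Nat.dvd_add_right h3).1 h1)
  have hb0 : 0 < b := by omega
  obtain ⟨lam, rho, nu1, g1, g2, g3, g4⟩ := hg b hb2 hcop α f
  set N1 := b ^ m with hN1
  obtain ⟨c, cm, cgap, cpos, gol, sp⟩ := Sp_493.spoil Ms M m K b hM
    (fun k hk => ⟨by
      have := (hMs k hk).1
      have h2 : 2 ^ K ≤ 2 ^ (K + 1) := Nat.pow_le_pow_right (by norm_num) (by omega)
      omega, (hMs k hk).2.2⟩) hb1 hcop N1
  obtain ⟨lam2, rho2, nuE, e1, e2⟩ := hK c (fun i j hij _ => cm hij)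
  set p0 := c K with hp0
  have hcp : ∀ k < K, c k ≤ p0 := fun k hk => (cm hk).le
  obtain ⟨n, c', P', Sw, hn, hP', hloc, hgap, -, -, hfew⟩ := walls_full (α := α) (2 * (N1 + p0))
  set BadT : ℕ → Prop := Sp_493.Bad Ms M b m with hBadT
  have hWL : InstB_11.WL (Wo n Sw) n (2 * (N1 + p0)) := ⟨hloc, fun P h => h.1, hgap⟩
  set z := p0 + p0 + N1 + n + p0 + 1 with hz
  have sp' : ∀ T, p0 ≤ T → ∀ F : Finset (ℕ × ℕ), (∀ ij ∈ F, ij.1 < K ∧ ij.2 < K ∧ ij.1 ≠ ij.2 ∧
      BadT (T + c ij.2 - c ij.1)) → F.card ≤ C0 := by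
    intro T hT F hF
    have := sp T (fun i hi => (hcp i hi).trans hT) F hF
    omega
  have gol' : ∀ i j k l, i < K → j < K → k < K → l < K → i ≠ j → k ≠ l → (i, j) ≠ (k, l) →
      c i + c l + 4 * N1 < c k + c j ∨ c k + c j + 4 * N1 < c i + c l :=
    fun i j k l _ _ _ _ h1 h2 h3 => gol i j k l h1 h2 h3
  have hper : ∀ T, N1 ≤ T → (BadT (T + M * b ^ m) ↔ BadT T) := fun T _ =>
    bad_per hb0 (fun k hk => (hMs k hk).2.2) T
  obtain ⟨H1, H2, H3, H4⟩ := H14_82.main (f := f) (n := n) (Sw := Sw) (z := z) (N := N1) (p0 := p0)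
    (A1 := N1) (m := M * b ^ m) (by positivity) hfew BadT hper nu1 (fun w => nuE w 1)
    (act (S := S)) (fun Y Y' h1 h2 h3 h4 h5 => (g4 Y Y' h1 h2 h3 h4 h5).2)
  rw [← xx_eq] at H1 H3 H4
  rw [← bad_eq] at H2
  have hTT : InstB_11.TT f (act (S := S)) p0 (fun w => nuE w 1) nu1 =
      H14_82.TT (fun w => (w.map f).prod) (act (S := S)) p0 (fun w => nuE w 1) nu1 := rfl
  rw [← hTT] at H3
  have F1 : ∀ v, {p | p ∈ InstB_11.L1 f (act (S := S)) p0 (fun w => nuE w 1) lam v}.Finite := by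
    intro v
    refine (List.finite_length_le α (p0 + N1)).subset ?_
    rintro p ⟨hp1, hp2⟩
    have := g1 _ _ hp2
    rw [List.length_drop] at this
    show p.length ≤ p0 + N1
    omega
  have F2 : ∀ v : S → ZMod 2, {p | p ∈ InstB_11.L2 K c lam2 v}.Finite := by
    intro v
    refine (List.finite_length_le α p0).subset ?_
    rintro p ⟨k, hk, hp1, -⟩
    show p.length ≤ p0
    rw [hp1]
    exact hcp k hk
  refine Top5_110.top_sem (φ := fun w => (w.map f).prod) (act := act (S := S))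
    (XX := InstB_11.XX (Wo n Sw) z) (Bad := InstB_11.BadX (Wo n Sw) z N1 p0 BadT)
    (T := InstB_11.TT f (act (S := S)) p0 (fun w => nuE w 1) nu1)
    (by simp) (fun u w => by simp) (fun v => by funext u; simp [act])
    (fun v s t => by funext u; simp [act, mul_assoc]) ?_ (InstB_11.pc (by omega))
    (fun u hu => hu.1) ?_ H1 H2 H3 (fun s => (H4 s).mono (by norm_num))
    (N1 := 0) (N2 := 1) (L1 := InstB_11.L1 f (act (S := S)) p0 (fun w => nuE w 1) lam)
    (L2 := InstB_11.L2 K c lam2) F1 F2 ?_ ?_ s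
  · intro a a' h
    have := congrFun (h (fun u => if u = a then 1 else 0)) 1
    simp only [act, mul_one] at this
    by_contra hne
    have hne' : ¬ a' = a := fun h => hne h.symm
    simp [hne'] at this
  · intro u _ v v'
    have h := H14_82.hT (f := f) (act := act (S := S)) (nu1 := nu1) (nu2 := fun w => nuE w 1)
      act_add act_mul p0 u v v'
    rw [← hTT] at h
    exact h
  · intro u hu hbad x t ht
    have ht' : t = [] := by
      rw [pow_zero] at ht
      exact ht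
    obtain ⟨p, q, y, h1, h2, h3⟩ := InstB_11.C1 hWL f (act (S := S)) (z := z) (N1 := N1) (p0 := p0)
      (La := p0) (BadT := BadT) (fun w => nuE w 1) nu1 lam rho (by omega)
      (fun p v h => (g1 p v h).le) (fun p q v b h1 h2 _ => g2 p q v b h1 h2)
      (fun u _ hb' v => g3 u (fun k hk h => hb' (Or.inl ⟨k, hk, h⟩))
        (fun j hj => by
          by_contra hcon
          exact hb' (Or.inr ⟨j, hj, hcon⟩)) v) u hu hbad x
    exact ⟨p, q, y, by rw [ht', List.append_nil]; exact h1, h2, h3⟩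
  · intro u hu x t ht
    rw [pow_one] at ht
    exact InstB_11.C2 hWL f (act (S := S)) (z := z) (N1 := N1) (p0 := p0) (La := p0) (K := K)
      (C0 := C0) (R := 2 * C0 + 2) (BadT := BadT) c nu1 lam2 rho2 nuE (by omega) (by omega)
      (by omega) hcp e1 e2 (by omega) gol' sp' u t hu ht x

end Crest.Agent.R320.Fin_988
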