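import Crest.Agent.R320.Final_990
import Crest.Agent.R320.G1_852

/-!
# Row 320: closed result (helper990), 852's gadget plugged into `Final_990.of_G1`.
-/

set_option autoImplicit false

namespace Crest.Agent.R320.Fin_990

open Crest.RegLang

universe u

theorem g1 : Final_990.G1 := by
  intro S V _ _ _ _ act
  exact G1_852.gadget act

theorem closed (α : Type u) [Finite α] (L : Language α) (hL : L.IsRegular) :
    ∃ e : GRegExp α, e.height ≤ 3 ∧ e.lang = L :=
  Final_990.of_G1 g1 α L hL

end Crest.Agent.R320.Fin_990
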