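import Crest.Agent.R320.Joint2_993
import Crest.Agent.R320.Fib_835
import Crest.Agent.R320.Grid_463
import Crest.Agent.R320.RulerGrid_506
import Crest.Agent.R320.Block_467

/-!
# Row 320: every fibre of a finite monoid has height three (helper993)
-/

set_option autoImplicit false

namespace Crest.Agent.R320.Fin_993

open Crest.Agent.R320.Hk_851 Crest.Agent.R320.Code110 Crest.Agent.R320.Joint2_993

/-- the bad lengths (helper506, anchors `0`) -/
def BT (Ms : Finset ℕ) (m M G : ℕ) (T : ℤ) : Prop := RulerGrid_506.Bad Ms m M G (fun _ => 0) T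

theorem bt_of {Ms : Finset ℕ} {m M G T : ℕ} (hG : 0 < G) (h : ¬ BT Ms m M G (T : ℤ)) :
    (∀ p ∈ Ms, ¬ p ∣ T) ∧ ¬ Grid463.Bad M G m T := by
  constructor
  · intro p hp hd
    exact h (Or.inl ⟨p, hp, Int.natCast_dvd_natCast.2 hd⟩)
  · rintro ⟨j, h1, h2, h3⟩
    refine h (Or.inr ⟨j, h1, h2, ?_⟩)
    have e : ((T : ℤ)) = (T % G ^ j : ℕ) + (T / G ^ j : ℕ) * (G : ℤ) ^ j := by
      have := Nat.mod_add_div T (G ^ j)
      have h4 : ((T % G ^ j + G ^ j * (T / G ^ j) : ℕ) : ℤ) = T := by rw [this]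
      rw [← h4]
      push_cast
      ring
    rcases h3 with h3 | h3
    · refine ⟨(T / G ^ j : ℕ), ?_⟩
      have h5 : ((T % G ^ j : ℕ) : ℤ) < M * (G : ℤ) ^ (j - 1) := by exact_mod_cast h3
      have e2 : (T : ℤ) - 0 - (T / G ^ j : ℕ) * (G : ℤ) ^ j = (T % G ^ j : ℕ) := by
        linarith
      rw [e2, abs_of_nonneg (by positivity)]
      exact h5.le
    · refine ⟨(T / G ^ j : ℕ) + 1, ?_⟩
      have h5 : (G : ℤ) ^ j ≤ ((T % G ^ j : ℕ) : ℤ) + M * (G : ℤ) ^ (j - 1) := by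
        exact_mod_cast h3
      have h6 : 0 ≤ (M : ℤ) * (G : ℤ) ^ (j - 1) := by positivity
      have e2 : (T : ℤ) - 0 - ((T / G ^ j : ℕ) + 1) * (G : ℤ) ^ j =
          (T % G ^ j : ℕ) - (G : ℤ) ^ j := by
        linarith
      rw [e2, abs_le]
      have h7 : ((T % G ^ j : ℕ) : ℤ) ≤ (G : ℤ) ^ j := by
        exact_mod_cast (Nat.mod_lt _ (pow_pos hG j)).le
      constructor
      · linarith
      · linarith

theorem bt_period {Ms : Finset ℕ} {m M G : ℕ} (hMs : ∀ p ∈ Ms, p ∣ M) (T i : ℤ)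
    (h : BT Ms m M G T) : BT Ms m M G (T + i * (M * (G : ℤ) ^ m)) := by
  rcases h with ⟨p, hp, hd⟩ | ⟨j, h1, h2, k, hk⟩
  · left
    refine ⟨p, hp, ?_⟩
    have : (p : ℤ) ∣ (M : ℤ) := Int.natCast_dvd_natCast.2 (hMs p hp)
    exact dvd_add hd (Dvd.dvd.mul_left (Dvd.dvd.mul_right this _) _)
  · right
    refine ⟨j, h1, h2, k + i * (M * (G : ℤ) ^ (m - j)), ?_⟩
    have e : (G : ℤ) ^ m = (G : ℤ) ^ (m - j) * (G : ℤ) ^ j := by
      rw [← pow_add]
      congr 1
      omega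
    have e2 : T + i * (M * (G : ℤ) ^ m) - 0 - (k + i * (M * (G : ℤ) ^ (m - j))) * (G : ℤ) ^ j =
        T - 0 - k * (G : ℤ) ^ j := by
      rw [e]
      ring
    rw [e2]
    exact hk

theorem bt_mod {Ms : Finset ℕ} {m M G : ℕ} (hMs : ∀ p ∈ Ms, p ∣ M) (T T' d : ℤ)
    (hd : (M * (G : ℤ) ^ m) ∣ T - T') : BT Ms m M G (T - d) ↔ BT Ms m M G (T' - d) := by
  obtain ⟨i, hi⟩ := hd
  constructor
  · intro h
    have := bt_period hMs _ (-i) h
    have e : T - d + -i * (M * (G : ℤ) ^ m) = T' - d := by linarith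
    rwa [e] at this
  · intro h
    have := bt_period hMs _ i h
    have e : T' - d + i * (M * (G : ℤ) ^ m) = T - d := by linarith
    rwa [e] at this

section
variable {α S V : Type} [Finite α] [Monoid S] [Finite S] [AddCommGroup V]

/-- the zone map -/
def TT (f : α → S) (act : V → S → V) (nu2 nu1 : List α → V) (p0 : ℕ) (X : List α) (v : V) : V :=
  act (act v (ExactR_237.pr f (X.take p0)) + nu2 (X.take p0)) (ExactR_237.pr f (X.drop p0)) +
    nu1 (X.drop p0)

theorem TT_key (f : α → S) (act : V → S → V) (nu2 nu1 : List α → V) (p0 a P : ℕ)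
    (hloc : ∀ u u' : List α, u.take a = u'.take a →
      ExactR_237.pr f (u.drop a) = ExactR_237.pr f (u'.drop a) →
      u.length ≡ u'.length [MOD P] → ExactR_237.pr f u = ExactR_237.pr f u' → nu1 u = nu1 u')
    {X X' : List α} (hX : p0 ≤ X.length) (hX' : p0 ≤ X'.length)
    (h1 : X.take (p0 + a) = X'.take (p0 + a))
    (h2 : ExactR_237.pr f (X.drop (p0 + a)) = ExactR_237.pr f (X'.drop (p0 + a)))
    (h3 : X.length % P = X'.length % P) (v : V) :
    TT f act nu2 nu1 p0 X v = TT f act nu2 nu1 p0 X' v := by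
  have e1 : X.take p0 = X'.take p0 := by
    have := congrArg (List.take p0) h1
    rwa [List.take_take, List.take_take, min_eq_left (Nat.le_add_right _ _)] at this
  have e2 : (X.drop p0).take a = (X'.drop p0).take a := by
    have := congrArg (List.drop p0) h1
    rwa [List.drop_take, List.drop_take, Nat.add_sub_cancel_left] at this
  have e3 : ExactR_237.pr f ((X.drop p0).drop a) = ExactR_237.pr f ((X'.drop p0).drop a) := by
    rw [List.drop_drop, List.drop_drop]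
    exact h2
  have e4 : ExactR_237.pr f (X.drop p0) = ExactR_237.pr f (X'.drop p0) := by
    rw [← List.take_append_drop a (X.drop p0), ← List.take_append_drop a (X'.drop p0),
      ExactR_237.pr_append, ExactR_237.pr_append, e2, e3]
  have e5 : (X.drop p0).length ≡ (X'.drop p0).length [MOD P] := by
    rw [List.length_drop, List.length_drop]
    have h : X.length ≡ X'.length [MOD P] := h3
    have : (X.length - p0) + p0 ≡ (X'.length - p0) + p0 [MOD P] := by
      rw [Nat.sub_add_cancel hX, Nat.sub_add_cancel hX']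
      exact h
    exact Nat.ModEq.add_right_cancel' p0 this
  unfold TT
  rw [e1, e4, hloc _ _ e2 e3 e5 e4]

end

section P4
variable {α S V : Type} [Finite α] [Monoid S] [Finite S] [AddCommGroup V]
  {Wo : List α → Prop} {n B W : ℕ}

theorem hl_XX (h : Fib_835.Walls Wo n B W) (hn : 0 < n) (z : ℕ) :
    HL 1 (XX z Wo) := Cl_835.Cl.lang (Fib_835.cl_XX h hn z)

theorem hl_NX (h : Fib_835.Walls Wo n B W) (hn : 0 < n) (z : ℕ) (f : α → S) (s : S) :
    HL 1 ({w | (∀ u ∈ XX z Wo, ¬ u <+: w) ∧ ExactR_237.pr f w = s} : Language α) := by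
  have h1 : HL 1 ({w | w ∈ Fib_835.NX Wo z ∧ (w.map f).prod = s} : Language α) :=
    Fib_835.cl_NX h hn z S f s
  refine h1.congr fun w => ?_
  constructor
  · rintro ⟨h2, h3⟩
    exact ⟨(Fib_835.mem_NX w).2 h2, h3⟩
  · rintro ⟨h2, h3⟩
    exact ⟨(Fib_835.mem_NX w).1 h2, h3⟩

theorem hl_TT (h : Fib_835.Walls Wo n B W) (hn : 0 < n) {z : ℕ} (f : α → S) (act : V → S → V)
    (nu2 nu1 : List α → V) (p0 a P : ℕ) (hP : 0 < P) (hz : p0 ≤ z)
    (hloc : ∀ u u' : List α, u.take a = u'.take a →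
      ExactR_237.pr f (u.drop a) = ExactR_237.pr f (u'.drop a) →
      u.length ≡ u'.length [MOD P] → ExactR_237.pr f u = ExactR_237.pr f u' → nu1 u = nu1 u')
    (x y : V) : HL 1 (ZT (XX z Wo) (TT f act nu2 nu1 p0) x y) := by
  have h1 := Cl_835.Cl.fin_mod (Fib_835.cl_XX h hn z) f (p0 + a) P hP
    (fun l s r => ∀ X, X ∈ Fib_835.XX Wo z → X.take (p0 + a) = l →
      ((X.drop (p0 + a)).map f).prod = s → X.length % P = r → TT f act nu2 nu1 p0 X x = y)
  have h2 : HL 1 _ := h1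
  refine h2.congr fun w => ?_
  symm
  constructor
  · rintro ⟨g1, g2⟩
    exact ⟨g1, g2 w g1 rfl rfl rfl⟩
  · rintro ⟨g1, g2⟩
    refine ⟨g1, fun X hX e1 e2 e3 => ?_⟩
    have g1' : w ∈ XX z Wo := g1
    rw [TT_key f act nu2 nu1 p0 a P hloc (X := X) (X' := w) (hz.trans hX.1) (hz.trans g1'.1)
      e1 e2 e3 x]
    exact g2

theorem hl_Bad (h : Fib_835.Walls Wo n B W) (hn : 0 < n) {z N p0 : ℕ} {Ms : Finset ℕ}
    {m M G : ℕ} (hM : 0 < M) (hG : 0 < G) (hMs : ∀ p ∈ Ms, p ∣ M) :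
    HL 1 (Bad z N p0 (BT Ms m M G) Wo) := by
  have h1 := Cl_835.Cl.fin_mod (Fib_835.cl_XX h hn z) (fun _ => (1 : Unit)) (z + N) (M * G ^ m)
    (by positivity)
    (fun l _ r => EB z N Wo l ∨ BT Ms m M G ((r : ℤ) - p0))
  have h2 : HL 1 _ := h1
  refine h2.congr fun w => ?_
  have hE : EB z N Wo (w.take (z + N)) ↔ EB z N Wo w := by
    constructor
    · rintro ⟨t, g1, g2, g3, g4⟩
      rw [List.length_take] at g1
      rw [List.take_take, min_eq_left (by omega)] at g4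
      exact ⟨t, by omega, g2, g3, g4⟩
    · rintro ⟨t, g1, g2, g3, g4⟩
      refine ⟨t, by rw [List.length_take]; omega, g2, g3, ?_⟩
      rw [List.take_take, min_eq_left (by omega)]
      exact g4
  have hB : BT Ms m M G (((w.length % (M * G ^ m) : ℕ) : ℤ) - p0) ↔
      BT Ms m M G ((w.length : ℤ) - p0) := by
    refine bt_mod hMs _ _ _ ?_
    refine ⟨-((w.length / (M * G ^ m) : ℕ) : ℤ), ?_⟩
    have := Nat.mod_add_div w.length (M * G ^ m)
    have h4 : ((w.length % (M * G ^ m) + (M * G ^ m) * (w.length / (M * G ^ m)) : ℕ) : ℤ) =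
      w.length := by rw [this]
    push_cast at h4 ⊢
    linarith
  symm
  constructor
  · rintro ⟨g1, g2⟩
    exact ⟨g1, g2.imp hE.1 hB.1⟩
  · rintro ⟨g1, g2⟩
    exact ⟨g1, g2.imp hE.2 hB.2⟩

end P4

open Classical in
/-- **every fibre of a finite monoid has star height at most three** -/
theorem fibre (α S : Type) [Finite α] [Monoid S] [Finite S] (f : α → S) (s : S) :
    HL 3 ({w | (w.map f).prod = s} : Language α) := by
  have : Fintype S := Fintype.ofFinite S
  obtain ⟨act, act_add, act_one, act_mul, faith⟩ := Blk467.exists_module S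
  -- scheme 1
  obtain ⟨m, k0, hgrid⟩ := Grid463.grid S (S → ZMod 2) act
  have hC0 : ∃ C0, C0 = k0 + m := ⟨_, rfl⟩
  obtain ⟨C0, hC0⟩ := hC0
  -- scheme 2
  obtain ⟨K, hexact⟩ := ExactR_237.exact_gadget α S (S → ZMod 2) f act (2 + 2 * C0)
  obtain ⟨Ms, hMsc, hMs, hgrid⟩ := hgrid (8 * 4 ^ (K + 1))
  obtain ⟨M, hM⟩ : ∃ M, M = ∏ p ∈ Ms, p := ⟨_, rfl⟩
  have hM0 : 0 < M := by
    rw [hM]
    exact Finset.prod_pos fun p hp => (hMs p hp).2.1.pos
  have hMd : ∀ p ∈ Ms, p ∣ M := fun p hp => by rw [hM]; exact Finset.dvd_prod_of_mem _ hp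
  obtain ⟨G, hG⟩ : ∃ G, G = (100 * 4 ^ (K + 1)) * M + 1 := ⟨_, rfl⟩
  have hG0 : 0 < G := by omega
  have h4 : 0 < 4 ^ (K + 1) := by positivity
  have hGM : M + 2 ≤ G := by
    have : 100 * M ≤ (100 * 4 ^ (K + 1)) * M := by
      apply Nat.mul_le_mul_right
      omega
    omega
  have hcop : Nat.Coprime G M := by
    rw [hG]
    simp [Nat.add_comm]
  obtain ⟨lam, rho, nu1, hlen, hsound, hcomp, hloc⟩ := hgrid M hM G hGM hcop α
    (ExactR_237.pr f) (ExactR_237.pr_append f)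
  obtain ⟨N, hN⟩ : ∃ N, N = (M + 2) * G ^ m := ⟨_, rfl⟩
  -- ruler
  obtain ⟨c, hcm, hrul, hthin⟩ := RulerGrid_506.exists_ruler K m (2 * N) M G Ms (fun _ => 0) hM0
    (fun p hp => ⟨(hMs p hp).2.1, (hMs p hp).1, hMd p hp⟩) (by omega)
  obtain ⟨lam2, rho2, nu2, hE1, hE2⟩ := hexact c (fun i j hij _ => hcm hij)
  obtain ⟨p0, hp0⟩ : ∃ p0, p0 = c K := ⟨_, rfl⟩
  have hcp : ∀ k < K, c k ≤ p0 := fun k hk => by rw [hp0]; exact (hcm hk).le
  -- walls
  obtain ⟨Wo, n, B, hn, hW⟩ := Fib_835.exists_walls α (2 * p0 + 2 * N + 1) (by omega)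
  have hLW : LW n (2 * p0 + 2 * N + 1) Wo := by
    refine ⟨hW.loc, fun w s t hst ht h1 h2 => ?_⟩
    by_contra hlt
    exact hW.gap w s t hst (by omega) ht h1 h2
  obtain ⟨z, hz⟩ : ∃ z, z = 3 * p0 + 3 * N + n + 1 := ⟨_, rfl⟩
  let T := TT f act (fun X => nu2 X 1) nu1 p0
  have hT : ∀ X v, T X v = act (act v (ExactR_237.pr f (X.take p0)) +
      (fun X => nu2 X 1) (X.take p0)) (ExactR_237.pr f (X.drop p0)) + nu1 (X.drop p0) :=
    fun X v => rfl
  have hTT : ∀ u ∈ XX z Wo, ∀ v v', T u v - T u v' = act (v - v') (ExactR_237.pr f u) := by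
    have hsub : ∀ (a b : S → ZMod 2) s, act (a - b) s = act a s - act b s := by
      intro a b s
      have := act_add (a - b) b s
      rw [sub_add_cancel] at this
      rw [this, add_sub_cancel_right]
    intro u _ v v'
    rw [hT, hT, add_sub_add_right_eq_sub, ← hsub, add_sub_add_right_eq_sub, ← hsub, ← act_mul,
      ← ExactR_237.pr_append, List.take_append_drop]
  obtain ⟨L1, hL1⟩ : ∃ L1 : (S → ZMod 2) → Language α, ∀ v P, P ∈ L1 v ↔ p0 ≤ P.length ∧
      lam (P.drop p0) = some (act v (ExactR_237.pr f (P.take p0)) +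
        (fun X => nu2 X 1) (P.take p0)) :=
    ⟨fun v => {P | p0 ≤ P.length ∧
      lam (P.drop p0) = some (act v (ExactR_237.pr f (P.take p0)) +
        (fun X => nu2 X 1) (P.take p0))}, fun v P => Iff.rfl⟩
  obtain ⟨L2, hL2⟩ : ∃ L2 : (S → ZMod 2) → Language α, ∀ v P, P ∈ L2 v ↔
      ∃ k < K, P.length = c k ∧ lam2 k P = some v :=
    ⟨fun v => {P | ∃ k < K, P.length = c k ∧ lam2 k P = some v}, fun v P => Iff.rfl⟩
  have hfin1 : ∀ v, {p | p ∈ L1 v}.Finite := by
    intro v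
    refine (List.finite_length_le α (p0 + N)).subset ?_
    intro P hP
    have hP' : P ∈ L1 v := hP
    rw [hL1] at hP'
    obtain ⟨h1, h2⟩ := hP'
    have := hlen _ _ h2
    rw [List.length_drop, ← hN] at this
    show P.length ≤ p0 + N
    omega
  have hfin2 : ∀ v, {p | p ∈ L2 v}.Finite := by
    intro v
    refine (List.finite_length_le α p0).subset ?_
    intro P hP
    have hP' : P ∈ L2 v := hP
    rw [hL2] at hP'
    obtain ⟨k, hk, h1, -⟩ := hP'
    have := hcp k hk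
    show P.length ≤ p0
    omega
  have hc1 : ∀ u ∈ XX z Wo, u ∉ Bad z N p0 (BT Ms m M G) Wo → ∀ x, ∀ t ∈ XX z Wo ^ 0,
      ∃ p q y, u ++ t = p ++ q ∧ p ∈ L1 x ∧ q ∈ Rsem (XX z Wo) (XX z Wo) T 0 L1 y := by
    intro u hu hb x t ht
    refine C1 hLW (by omega) (ExactR_237.pr f) act (fun X => nu2 X 1) nu1 lam rho ?_ hsound ?_
      T hT L1 hL1 u hu hb x t ht
    · intro P v h
      have := hlen P v h
      omega
    · intro u h1 h2 v
      have h3 := bt_of hG0 h2
      exact hcomp u (by omega) h3.1 h3.2 v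
  have hc2 : ∀ u ∈ Bad z N p0 (BT Ms m M G) Wo, ∀ x, ∀ t ∈ Bad z N p0 (BT Ms m M G) Wo ^ 1,
      ∃ p q y, u ++ t = p ++ q ∧ p ∈ L2 x ∧
        q ∈ Rsem (XX z Wo) (Bad z N p0 (BT Ms m M G) Wo) T 1 L2 y := by
    intro u hu x t ht
    refine C2 hLW (by omega) (by omega) (by omega) (ExactR_237.pr f) act (fun X => nu2 X 1) nu1
      K C0 c hcp lam2 (fun k Q => rho2 k Q 1) ?_ ?_ ?_ ?_ T hT L2 hL2 u hu x t ht
    · intro k hk P Q v b h1 h2 h3
      have := hE1 k hk P Q 1 v b h1 h2 h3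
      rw [mul_one] at this
      exact this
    · intro u v hu
      exact hE2 u 1 v hu
    · intro a b a' b' ha hb ha' hb' hne hne' hlt
      by_contra hcon
      have := hrul b a b' a' hb ha hb' ha' (fun h => hne h.symm) (fun h => hne' h.symm)
        (fun h => hcon ⟨h.2, h.1⟩)
      push_cast at this
      linarith
    · intro T0
      have h5 := hthin T0
      have h6 : C0 = k0 + m := hC0
      refine le_trans ?_ (le_trans h5 (by omega))
      refine le_of_eq ?_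
      congr 1
  exact Top5_110.top_sem (φ := ExactR_237.pr f) (act := act) (XX := XX z Wo)
    (Bad := Bad z N p0 (BT Ms m M G) Wo) (T := T) (N1 := 0) (N2 := 1)
    (by simp [ExactR_237.pr]) (ExactR_237.pr_append f) act_one act_mul faith
    (XX_pc (by omega)) (fun u hu => hu.1) hTT (hl_XX hW hn z)
    (hl_Bad hW hn hM0 hG0 hMd)
    (fun x y => hl_TT hW hn f act _ nu1 p0 (2 * G ^ m) (M * G ^ m) (by positivity) (by omega)
      (fun u u' e1 e2 e3 e4 => (hloc u u' e1 e2 e3 e4).2) x y)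
    (fun s => (hl_NX hW hn z f s).mono (by norm_num))
    hfin1 hfin2 hc1 hc2 s

end Crest.Agent.R320.Fin_993
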