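import Crest.Agent.R320.Grid2_536
import Crest.Agent.R320.Zone132b_898

/-!
# Row 320, grid gadget of 693 #13203: closed existence theorem

Over `Names_570.exists_names` and `RandF_808.exists_noise`.
-/

namespace Crest.Agent.R320.Grid2_536

open Finset Crest.Agent.R320.Zone132_898

universe u

theorem per_eq {X : Type*} {f : ℕ → X} {M : ℕ} (h : ∀ t, f (t + M) = f t) {t t' : ℕ}
    (e : t % M = t' % M) : f t = f t' := by
  have h0 : Function.Periodic f M := h
  rw [← h0.map_mod_nat t, e, h0.map_mod_nat t']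

theorem div_cond {G x c : ℕ} (hG : 0 < G) (hc : 0 < c) :
    x / G = (x + c - 1) / G ↔ x % G + c ≤ G := by
  have h1 := Nat.div_add_mod x G
  have h2 : x + c - 1 = G * (x / G) + (x % G + c - 1) := by omega
  rw [h2, Nat.mul_add_div hG]
  constructor
  · intro h
    have h3 : (x % G + c - 1) / G = 0 := by omega
    rw [Nat.div_eq_zero_iff] at h3
    omega
  · intro h
    rw [Nat.div_eq_of_lt (show x % G + c - 1 < G by omega)]
    rfl

theorem mod_dvd_eq {a b N k : ℕ} (hk : k ∣ N) (h : a % N = b % N) : a % k = b % k := by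
  rw [← Nat.mod_mod_of_dvd a hk, h, Nat.mod_mod_of_dvd b hk]

section

variable {α : Type u} {S V W : Type*} [Monoid S] [AddCommGroup V] [AddCommGroup W]

namespace GData

variable (D : GData α S V W)

theorem Yb_eq {i k : ℕ} (hi : i < D.m) (hk : i < k) (n : ℕ) :
    D.Yb i n k = D.A k - D.lo i + (n + D.lo i) % D.G k := by
  have h1 := Nat.div_add_mod (n + D.lo i) (D.G k)
  have h2 := D.A_right hi hk
  unfold Yb
  omega

/-- a length which sees all boundaries -/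
def La : ℕ := D.A D.m + D.G D.m + D.M * D.G D.m

theorem Yb_le {i k : ℕ} (hi : i < D.m) (hk : i < k) (hk' : k ≤ D.m) (n : ℕ) :
    D.Yb i n k ≤ D.La := by
  rw [D.Yb_eq hi hk]
  have h1 := Nat.mod_lt (n + D.lo i) (D.hG k)
  have h2 := D.monoA hk'
  have h3 := D.monoG hk'
  unfold La
  omega

theorem Hb_le_La {k : ℕ} (hk' : k ≤ D.m) (n : ℕ) : D.Hb n k ≤ D.La := by
  have h1 := D.Hb_lt n k
  have h2 := D.monoA hk'
  have h3 := D.monoG hk'
  unfold La
  omega

theorem phi_drop {Q : List α} {t : ℕ} (ht : t ≤ D.La) :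
    D.phi (Q.drop t) = D.phi ((Q.take D.La).drop t) * D.phi (Q.drop D.La) := by
  rw [← D.hphi]
  congr 1
  rw [List.drop_take]
  conv_lhs => rw [← List.take_append_drop (D.La - t) (Q.drop t)]
  rw [List.drop_drop, show t + (D.La - t) = D.La by omega]

theorem RR_congr (hRN : ∀ t, D.RN (t + D.M) = D.RN t) {Q Q' : List α} {b : V}
    (h' : D.La ≤ Q'.length) (ht : Q.take D.La = Q'.take D.La)
    (hm : Q.length % (D.M * D.G D.m) = Q'.length % (D.M * D.G D.m))
    (hp : D.phi (Q.drop D.La) = D.phi (Q'.drop D.La)) (hR : D.RR Q b) : D.RR Q' b := by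
  obtain ⟨c, hi, hRNc, hg, hdv, hvis, hd, hch, hcw, hb⟩ := hR
  have hGk : ∀ k, k ≤ D.m → Q.length % D.G k = Q'.length % D.G k := fun k hk =>
    mod_dvd_eq ((D.dG k D.m hk).trans (Dvd.intro_left _ rfl)) hm
  have hM : Q.length % D.M = Q'.length % D.M := mod_dvd_eq (Dvd.intro _ rfl) hm
  have hlo : ∀ k, k ≤ D.m → (Q.length + D.lo c.i) % D.G k = (Q'.length + D.lo c.i) % D.G k := by
    intro k hk
    rw [Nat.add_mod, hGk k hk, ← Nat.add_mod]
  have hY : ∀ k, c.i < k → k ≤ D.m → D.Yb c.i Q.length k = D.Yb c.i Q'.length k := by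
    intro k hk hk'
    rw [D.Yb_eq hi hk, D.Yb_eq hi hk, hlo k hk']
  have hdr : ∀ t, t ≤ D.La → D.phi (Q.drop t) = D.phi (Q'.drop t) := by
    intro t h1
    rw [D.phi_drop (Q := Q) h1, D.phi_drop (Q := Q') h1, ht, hp]
  refine ⟨c, hi, ?_, hg, ?_, ?_, ?_, ?_, ?_, hb⟩
  · rw [← hRNc]; exact (per_eq hRN hM).symm
  · rw [Nat.dvd_iff_mod_eq_zero] at hdv ⊢
    rw [← hGk c.i (by omega)]; exact hdv
  · unfold La at h'; omega
  · intro k hk hk'
    have h1 := hd k hk hk'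
    rw [div_cond (D.hG k) (Nat.mul_pos D.hM (D.hG _))] at h1 ⊢
    rw [← hlo k hk']; exact h1
  · rw [hch, ← hY _ (by omega) (by omega)]
    exact hdr _ (D.Yb_le hi (by omega) (by omega) _)
  · rw [hcw]
    apply Finset.sum_congr rfl
    intro k hk
    rw [Finset.mem_Ico] at hk
    rw [← hY k (by omega) (by omega), ← hY (k + 1) (by omega) (by omega),
      Zone132b_898.zt_take D.phi (Q := Q) (L0 := D.La) (D.Yb_le hi (by omega) (by omega) _),
      Zone132b_898.zt_take D.phi (Q := Q') (L0 := D.La) (D.Yb_le hi (by omega) (by omega) _), ht]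

theorem Pair_congr (hLN : ∀ t, D.LN (t + D.M) = D.LN t) (hRN : ∀ t, D.RN (t + D.M) = D.RN t)
    {n n' : ℕ} (h' : D.M ≤ n') (hm : n % D.M = n' % D.M) {p : Ctx S V W × Ctx S V W}
    (h : D.Pair n p) : D.Pair n' p := by
  obtain ⟨o, o', ho, h1, h2⟩ := h
  have hlt := Nat.mod_lt o D.hM
  refine ⟨o % D.M, n' - o % D.M, by omega, ?_, ?_⟩
  · rw [← h1]; exact per_eq hLN (Nat.mod_mod _ _)
  · rw [← h2]
    apply per_eq hRN
    have h3 : (n' - o % D.M) + o ≡ o' + o [MOD D.M] := by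
      have h4 : (n' - o % D.M) + o ≡ (n' - o % D.M) + o % D.M [MOD D.M] :=
        Nat.ModEq.add_left _ (Nat.mod_modEq _ _).symm
      rw [Nat.sub_add_cancel (by omega)] at h4
      have h5 : n' ≡ n [MOD D.M] := hm.symm
      have h6 : o' + o = n := by omega
      rw [h6]
      exact h4.trans h5
    exact Nat.ModEq.add_right_cancel' _ h3

theorem nu_congr (h2 : D.N2) (hLN : ∀ t, D.LN (t + D.M) = D.LN t)
    (hRN : ∀ t, D.RN (t + D.M) = D.RN t)
    (hBp : ∀ n n', n % D.M = n' % D.M → (D.B n ↔ D.B n')) {Q Q' : List α}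
    (h : D.La ≤ Q.length) (h' : D.La ≤ Q'.length) (ht : Q.take D.La = Q'.take D.La)
    (hm : Q.length % (D.M * D.G D.m) = Q'.length % (D.M * D.G D.m))
    (hp : D.phi (Q.drop D.La) = D.phi (Q'.drop D.La)) : D.nu Q = D.nu Q' := by
  classical
  have hGk : ∀ k, k ≤ D.m → Q.length % D.G k = Q'.length % D.G k := fun k hk =>
    mod_dvd_eq ((D.dG k D.m hk).trans (Dvd.intro_left _ rfl)) hm
  have hM : Q.length % D.M = Q'.length % D.M := mod_dvd_eq (Dvd.intro _ rfl) hm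
  have hMLa : D.M ≤ D.La := by
    have := Nat.le_mul_of_pos_right D.M (D.hG D.m)
    unfold La; omega
  have hphi : D.phi Q = D.phi Q' := by
    have h1 := D.phi_drop (Q := Q) (Nat.zero_le _)
    have h2 := D.phi_drop (Q := Q') (Nat.zero_le _)
    rw [List.drop_zero] at h1 h2
    rw [h1, h2, ht, hp]
  have hH : ∀ k, k ≤ D.m → D.Hb Q.length k = D.Hb Q'.length k := by
    intro k hk
    unfold Hb
    rw [hGk k hk]
  unfold nu
  by_cases hB : D.B Q.length
  · have hB' : D.B Q'.length := (hBp _ _ hM).1 hB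
    rw [if_pos hB, if_pos hB']
    by_cases hex : ∃ p : Ctx S V W × Ctx S V W, D.Pair Q.length p
    · have hex' : ∃ p : Ctx S V W × Ctx S V W, D.Pair Q'.length p :=
        ⟨hex.choose, D.Pair_congr hLN hRN (by omega) hM hex.choose_spec⟩
      rw [dif_pos hex, dif_pos hex']
      obtain ⟨h3, h4⟩ := h2 _ _ _ hB' (D.Pair_congr hLN hRN (by omega) hM hex.choose_spec)
        hex'.choose_spec
      rw [h3, h4, hphi]
    · have hex' : ¬ ∃ p : Ctx S V W × Ctx S V W, D.Pair Q'.length p := fun ⟨p, hp⟩ =>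
        hex ⟨p, D.Pair_congr hLN hRN (by omega) hM.symm hp⟩
      rw [dif_neg hex, dif_neg hex']
  · have hB' : ¬ D.B Q'.length := fun h => hB ((hBp _ _ hM).2 h)
    rw [if_neg hB, if_neg hB', hphi]
    congr 1
    apply Finset.sum_congr rfl
    intro k hk
    rw [Finset.mem_range] at hk
    rw [← hH k (by omega), ← hH (k + 1) (by omega),
      Zone132b_898.zt_take D.phi (Q := Q) (L0 := D.La) (D.Hb_le_La (by omega) _),
      Zone132b_898.zt_take D.phi (Q := Q') (L0 := D.La) (D.Hb_le_La (by omega) _), ht]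

theorem LL_unique {P : List α} {v v' : V} (h : D.LL P v) (h' : D.LL P v') : v = v' := by
  obtain ⟨c, -, -, -, h1, -, -, -, rfl⟩ := h
  obtain ⟨c', -, -, -, h1', -, -, -, rfl⟩ := h'
  rw [h1] at h1'
  rw [Option.some.inj h1']

theorem RR_unique {Q : List α} {v v' : V} (h : D.RR Q v) (h' : D.RR Q v') : v = v' := by
  obtain ⟨c, -, h1, -, -, -, -, -, -, rfl⟩ := h
  obtain ⟨c', -, h1', -, -, -, -, -, -, rfl⟩ := h'
  rw [h1] at h1'
  rw [Option.some.inj h1']

end GData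

end

section

variable {S V W : Type*} [Monoid S] [AddCommGroup V] [AddCommGroup W]

/-- the names of 755 / 570 as contexts, grid version -/
theorem exists_ctx_names [Finite S] [Finite V] [Finite W] (act : V → S → V) (e : ℕ → S → W)
    (F : S → W → V) (m : ℕ) :
    ∃ r : ℕ, ∀ B0 : ℕ, ∃ (Ms : Finset ℕ) (LN RN : ℕ → Option (Ctx S V W)),
      Ms.card ≤ r ∧ (∀ p ∈ Ms, p.Prime ∧ B0 < p) ∧
      (∀ t, LN (t + ∏ p ∈ Ms, p) = LN t) ∧ (∀ t, RN (t + ∏ p ∈ Ms, p) = RN t) ∧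
      ∀ (α : Type u) (D : GData α S V W), D.act = act → D.e = e → D.F = F → D.m = m →
        D.M = ∏ p ∈ Ms, p → (∀ k, Nat.Coprime (∏ p ∈ Ms, p) (D.G k)) →
        D.LN = LN → D.RN = RN → D.B = (fun n => ∃ p ∈ Ms, p ∣ n) →
        D.N1 ∧ D.N2 ∧ D.N3 := by
  classical
  let N := Fin m × S × W × S × W × V
  let toCtx : N → Ctx S V W := fun n =>
    { i := n.1, g := n.2.1, wl := n.2.2.1, h := n.2.2.2.1, wr := n.2.2.2.2.1, v := n.2.2.2.2.2 }
  let bv : Ctx S V W → V := fun c =>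
    F (c.g * 1 * c.h) (c.wl + e c.i 1 + c.wr) + act c.v (c.g * 1 * c.h)
  let col : N → V × V := fun n => ((toCtx n).v, bv (toCtx n))
  obtain ⟨r, hr⟩ := Names_570.exists_names col
  refine ⟨r, fun B0 => ?_⟩
  obtain ⟨Ms, nmL, nmR, hcard, hprime, hpL, hpR, hN1, hN3, hN2⟩ := hr B0
  refine ⟨Ms, fun t => (nmL t).map toCtx, fun t => (nmR t).map toCtx, hcard, hprime,
    fun t => by simp only [hpL], fun t => by simp only [hpR], ?_⟩
  intro α D hact he hF hm hM hcop hLN hRN hB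
  have hbv : ∀ c, D.bval c = bv c := by
    intro c
    simp only [GData.bval, GData.val, hact, he, hF, bv]
  refine ⟨?_, ?_, ?_⟩
  · intro om om' c c' h1 h2 h3
    rw [hLN] at h2
    rw [hRN] at h3
    rw [hB] at h1
    obtain ⟨n, hn, rfl⟩ := Option.map_eq_some_iff.1 h2
    obtain ⟨n', hn', rfl⟩ := Option.map_eq_some_iff.1 h3
    rw [hN1 om om' n n' (fun p hp hd => h1 ⟨p, hp, hd⟩) hn hn']
  · rintro n ⟨p1, p2⟩ ⟨p1', p2'⟩ h1 ⟨o1, o1', ho, hL, hR⟩ ⟨o2, o2', ho', hL', hR'⟩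
    rw [hLN] at hL hL'
    rw [hRN] at hR hR'
    rw [hB] at h1
    obtain ⟨n1, hn1, rfl⟩ := Option.map_eq_some_iff.1 hL
    obtain ⟨n2, hn2, rfl⟩ := Option.map_eq_some_iff.1 hR
    obtain ⟨n3, hn3, rfl⟩ := Option.map_eq_some_iff.1 hL'
    obtain ⟨n4, hn4, rfl⟩ := Option.map_eq_some_iff.1 hR'
    have h5 := hN2 o1 o1' o2 o2' n1 n2 n3 n4 (by omega) (by rw [ho]; exact h1) hn1 hn2 hn3 hn4
    simp only [hbv]
    rcases h5 with ⟨rfl, rfl⟩ | ⟨rfl, rfl, hc⟩
    · exact ⟨rfl, rfl⟩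
    · have hc1 : (toCtx n1).v = (toCtx n2).v := congrArg Prod.fst hc
      have hc2 : bv (toCtx n1) = bv (toCtx n2) := congrArg Prod.snd hc
      exact ⟨hc1, hc2.symm⟩
  · intro n c s h1 h2 h3 h4
    have hnd : ∀ p ∈ Ms, ¬ p ∣ n := by
      rw [hB] at h1
      exact fun p hp hd => h1 ⟨p, hp, hd⟩
    rw [hm] at h3
    set M := ∏ p ∈ Ms, p with hMdef
    have hMpos : 0 < M := Finset.prod_pos fun p hp => (hprime p hp).1.pos
    set G := D.G c.i with hG
    have hGpos : 0 < G := D.hG c.i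
    rw [hM] at h4 ⊢
    have hMG : M ≤ M * G := Nat.le_mul_of_pos_right _ hGpos
    obtain ⟨t, ht1, ht2, ht3, ht4, ht5⟩ := hN3 n
      ((⟨c.i, h3⟩, c.g, c.wl, c.h, c.wr, c.v) : N) s hnd (by omega)
    obtain ⟨x, hx1, hx2⟩ := Nat.chineseRemainder (hcop c.i) t n
    have hpos : 0 < M * G := Nat.mul_pos hMpos hGpos
    -- representative of `x` in the window
    set o : ℕ := s + (x + (M * G - s % (M * G))) % (M * G) with ho
    have holt : o < s + M * G := by
      have := Nat.mod_lt (x + (M * G - s % (M * G))) hpos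
      omega
    have hox : o ≡ x [MOD (M * G)] := by
      have h6 : o ≡ s + (x + (M * G - s % (M * G))) [MOD (M * G)] :=
        Nat.ModEq.add_left _ (Nat.mod_modEq _ _)
      have h7 : s % (M * G) < M * G := Nat.mod_lt _ hpos
      have h8 := Nat.div_add_mod s (M * G)
      have h9 : s + (x + (M * G - s % (M * G))) = x + (M * G) * (s / (M * G) + 1) := by
        rw [Nat.mul_add]
        omega
      rw [h9] at h6
      refine h6.trans ?_
      unfold Nat.ModEq
      rw [Nat.add_mul_mod_self_left]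
    have hoM : o ≡ t [MOD M] := (hox.of_mul_right _).trans hx1
    have hoG : o ≡ n [MOD G] := (hox.of_mul_left _).trans hx2
    have hon : o ≤ n := by omega
    refine ⟨o, by omega, holt, hon, ?_, ?_, ?_⟩
    · rw [hLN]
      refine Option.map_eq_some_iff.2 ⟨((⟨c.i, h3⟩, c.g, c.wl, c.h, c.wr, c.v) : N), ?_, rfl⟩
      rw [← ht4]; exact per_eq hpL hoM
    · rw [hRN]
      refine Option.map_eq_some_iff.2 ⟨((⟨c.i, h3⟩, c.g, c.wl, c.h, c.wr, c.v) : N), ?_, rfl⟩
      rw [← ht5]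
      apply per_eq hpR
      have h6 : (n - o) + o ≡ (n - t) + o [MOD M] := by
        rw [Nat.sub_add_cancel hon]
        have h7 : (n - t) + o ≡ (n - t) + t [MOD M] := Nat.ModEq.add_left _ hoM
        rw [Nat.sub_add_cancel ht3] at h7
        exact h7.symm
      exact Nat.ModEq.add_right_cancel' _ h6
    · exact (Nat.modEq_iff_dvd' hon).1 hoG

end

/-- lengths which the grid gadget does not treat -/
def BadG (Ms : Finset ℕ) (Γ m : ℕ) (n : ℕ) : Prop :=
  (∃ p ∈ Ms, p ∣ n) ∨ ∃ k, 1 ≤ k ∧ k ≤ m ∧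
    ¬ ((∏ p ∈ Ms, p) * Γ ^ (k - 1) ≤ n % Γ ^ k ∧ n % Γ ^ k + (∏ p ∈ Ms, p) * Γ ^ (k - 1) ≤ Γ ^ k)

theorem BadG_periodic (Ms : Finset ℕ) (Γ m n : ℕ) :
    BadG Ms Γ m (n + (∏ p ∈ Ms, p) * Γ ^ m) ↔ BadG Ms Γ m n := by
  have h1 : ∀ p ∈ Ms, (p ∣ n + (∏ p ∈ Ms, p) * Γ ^ m ↔ p ∣ n) := fun p hp =>
    (Nat.dvd_add_left ((Finset.dvd_prod_of_mem _ hp).mul_right _))
  have h2 : ∀ k, k ≤ m → (n + (∏ p ∈ Ms, p) * Γ ^ m) % Γ ^ k = n % Γ ^ k := by
    intro k hk
    have h3 : Γ ^ k ∣ (∏ p ∈ Ms, p) * Γ ^ m := (pow_dvd_pow Γ hk).mul_left _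
    rw [Nat.add_mod, Nat.mod_eq_zero_of_dvd h3, Nat.add_zero, Nat.mod_mod]
  unfold BadG
  constructor
  · rintro (⟨p, hp, hd⟩ | ⟨k, hk, hk', h⟩)
    · exact Or.inl ⟨p, hp, (h1 p hp).1 hd⟩
    · rw [h2 k hk'] at h
      exact Or.inr ⟨k, hk, hk', h⟩
  · rintro (⟨p, hp, hd⟩ | ⟨k, hk, hk', h⟩)
    · exact Or.inl ⟨p, hp, (h1 p hp).2 hd⟩
    · rw [← h2 k hk'] at h
      exact Or.inr ⟨k, hk, hk', h⟩

/-- boundaries of the levels -/
def AA (M Γ : ℕ) : ℕ → ℕ
  | 0 => 0
  | k + 1 => AA M Γ k + Γ ^ k + M * Γ ^ k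

theorem AA_mono (M Γ : ℕ) : Monotone (AA M Γ) :=
  monotone_nat_of_le_succ fun k => by
    change AA M Γ k ≤ AA M Γ k + Γ ^ k + M * Γ ^ k
    omega

/-- the length bound of the gadget -/
def LaG (M Γ m : ℕ) : ℕ := AA M Γ m + Γ ^ m + M * Γ ^ m

open Classical in
/-- **693 #13203, closed form**: the U-gadget on all words -/
theorem exists_grid (S V : Type*) [Monoid S] [Fintype S] [AddCommGroup V] [Fintype V]
    (act : V → S → V) :
    ∃ m r : ℕ, ∀ B0 : ℕ, ∃ Ms : Finset ℕ, Ms.card ≤ r ∧ (∀ p ∈ Ms, p.Prime ∧ B0 < p) ∧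
      ∀ Γ : ℕ, 0 < Γ → Nat.Coprime (∏ p ∈ Ms, p) Γ →
      ∀ (α : Type u) (phi : List α → S), (∀ u v, phi (u ++ v) = phi u * phi v) →
      ∃ (lam rho : List α → Option V) (nu : List α → V),
        (∀ p v, lam p = some v → p.length ≤ LaG (∏ p ∈ Ms, p) Γ m) ∧
        (∀ p q v b, lam p = some v → rho q = some b →
          b = act v (phi (p ++ q)) + nu (p ++ q)) ∧
        (∀ u, LaG (∏ p ∈ Ms, p) Γ m ≤ u.length → ¬ BadG Ms Γ m u.length →
          ∀ v, ∃ p q, p ++ q = u ∧ lam p = some v ∧ rho q = some (act v (phi u) + nu u)) ∧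
        (∀ q q', LaG (∏ p ∈ Ms, p) Γ m ≤ q.length → LaG (∏ p ∈ Ms, p) Γ m ≤ q'.length →
          q.take (LaG (∏ p ∈ Ms, p) Γ m) = q'.take (LaG (∏ p ∈ Ms, p) Γ m) →
          q.length % ((∏ p ∈ Ms, p) * Γ ^ m) = q'.length % ((∏ p ∈ Ms, p) * Γ ^ m) →
          phi (q.drop (LaG (∏ p ∈ Ms, p) Γ m)) = phi (q'.drop (LaG (∏ p ∈ Ms, p) Γ m)) →
          rho q = rho q' ∧ nu q = nu q') := by
  obtain ⟨m, N, e, F, hN, hF⟩ := RandF808.exists_noise S V act
  have : NeZero N := ⟨hN.ne'⟩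
  obtain ⟨r, hr⟩ := exists_ctx_names.{u} act e F m
  refine ⟨m, r, fun B0 => ?_⟩
  obtain ⟨Ms, LN, RN, hcard, hprime, hpL, hpR, hD⟩ := hr B0
  refine ⟨Ms, hcard, hprime, ?_⟩
  intro Γ hΓ hcop α phi hphi
  set M := ∏ p ∈ Ms, p with hMdef
  have hM : 0 < M := Finset.prod_pos fun p hp => (hprime p hp).1.pos
  let D : GData α S V (ZMod N × ZMod N) :=
    { phi := phi, hphi := hphi, act := act, M := M, hM := hM, m := m, A := AA M Γ,
      G := fun k => Γ ^ k, lo := fun k => AA M Γ k + Γ ^ k, monoA := AA_mono M Γ,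
      hG := fun k => Nat.pow_pos hΓ, dG := fun j k h => pow_dvd_pow Γ h,
      geo1 := fun i _ => le_rfl, geo2 := fun i _ => le_rfl, e := e, F := F, LN := LN, RN := RN,
      B := fun n => ∃ p ∈ Ms, p ∣ n }
  obtain ⟨h1, h2, h3⟩ := hD α D rfl rfl rfl rfl rfl (fun k => hcop.pow_right k) rfl rfl rfl
  have hides : D.Hides := hF
  have hLa : D.La = LaG M Γ m := rfl
  let lam : List α → Option V := fun p => if h : ∃ v, D.LL p v then some h.choose else none
  let rho : List α → Option V := fun q => if h : ∃ b, D.RR q b then some h.choose else none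
  have hlam : ∀ p v, lam p = some v ↔ D.LL p v := by
    intro p v
    constructor
    · intro h
      by_cases hex : ∃ v, D.LL p v
      · simp only [lam, dif_pos hex, Option.some.injEq] at h
        rw [← h]; exact hex.choose_spec
      · simp only [lam, dif_neg hex] at h
        cases h
    · intro h
      have hex : ∃ v, D.LL p v := ⟨v, h⟩
      simp only [lam, dif_pos hex, Option.some.injEq]
      exact D.LL_unique hex.choose_spec h
  have hrho : ∀ q b, rho q = some b ↔ D.RR q b := by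
    intro q b
    constructor
    · intro h
      by_cases hex : ∃ b, D.RR q b
      · simp only [rho, dif_pos hex, Option.some.injEq] at h
        rw [← h]; exact hex.choose_spec
      · simp only [rho, dif_neg hex] at h
        cases h
    · intro h
      have hex : ∃ b, D.RR q b := ⟨b, h⟩
      simp only [rho, dif_pos hex, Option.some.injEq]
      exact D.RR_unique hex.choose_spec h
  refine ⟨lam, rho, D.nu, ?_, ?_, ?_, ?_⟩
  · intro p v h
    obtain ⟨c, hi, -, hlt, -⟩ := (hlam p v).1 h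
    have h4 : D.lo c.i + D.M * D.G c.i ≤ D.A D.m := D.A_right hi hi
    have h5 : D.A D.m ≤ LaG M Γ m := by
      change AA M Γ m ≤ AA M Γ m + Γ ^ m + M * Γ ^ m
      omega
    omega
  · intro p q v b hp hq
    exact D.sound h1 h2 ((hlam p v).1 hp) ((hrho q b).1 hq)
  · intro u hu hbad v
    have hB : ¬ D.B u.length := fun h => hbad (Or.inl h)
    have hgrid : ∀ i k, i < k → k ≤ D.m → D.M * D.G i ≤ u.length % D.G k ∧
        u.length % D.G k + D.M * D.G i ≤ D.G k := by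
      intro i k hik hk
      have h4 : M * Γ ^ (k - 1) ≤ u.length % Γ ^ k ∧
          u.length % Γ ^ k + M * Γ ^ (k - 1) ≤ Γ ^ k := by
        by_contra h5
        exact hbad (Or.inr ⟨k, by omega, hk, h5⟩)
      have h6 : M * Γ ^ i ≤ M * Γ ^ (k - 1) :=
        Nat.mul_le_mul_left _ (Nat.pow_le_pow_right hΓ (by omega))
      change M * Γ ^ i ≤ u.length % Γ ^ k ∧ u.length % Γ ^ k + M * Γ ^ i ≤ Γ ^ k
      omega
    obtain ⟨P, Q, i, hPQ, -, -, -, hL, hR⟩ := D.complete' h1 h2 h3 hides hB hgrid hu v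
    exact ⟨P, Q, hPQ.symm, (hlam P v).2 hL, (hrho Q _).2 hR⟩
  · intro q q' hq hq' ht hm hp
    refine ⟨?_, ?_⟩
    · apply Option.ext
      intro b
      rw [hrho, hrho]
      exact ⟨fun h => D.RR_congr hpR hq' ht hm hp h,
        fun h => D.RR_congr hpR hq ht.symm hm.symm hp.symm h⟩
    · refine D.nu_congr h2 hpL hpR ?_ hq hq' ht hm hp
      intro n n' hnn
      have h4 : ∀ p ∈ Ms, (p ∣ n ↔ p ∣ n') := by
        intro p hp
        have h5 : n % p = n' % p := mod_dvd_eq (Finset.dvd_prod_of_mem _ hp) hnn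
        rw [Nat.dvd_iff_mod_eq_zero, Nat.dvd_iff_mod_eq_zero, h5]
      constructor
      · rintro ⟨p, hp, hd⟩; exact ⟨p, hp, (h4 p hp).1 hd⟩
      · rintro ⟨p, hp, hd⟩; exact ⟨p, hp, (h4 p hp).2 hd⟩

end Crest.Agent.R320.Grid2_536
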