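import Crest.Agent.R320.Cc_994
import Crest.Agent.R320.SemTop_445
import Crest.Agent.R320.Gridb_536
import Crest.Agent.R320.SpoilGrid_567
import Crest.Agent.R320.LWallAll_922
import Crest.Agent.R320.Fib_64
import Crest.Agent.R320.ExactR_237
import Crest.Agent.R320.Block_467
import Crest.Agent.R320.P4_933
import Crest.Agent.R320.Univ_188

/-!
Row 320: the last step.  For every finite monoid `S` and `f : α → S` the language
`{w | (w.map f).prod = s}` has generalized star height at most three.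
-/

set_option autoImplicit false

namespace Crest.Agent.R320.Fin_994

open Crest.RegLang Crest.Agent.R320.Hk_851 Crest.Agent.R320.Cc_994

theorem nu_reg {α : Type} [Finite α] {S V : Type} [Monoid S] [Finite S] (f : α → S) (A M0 : ℕ)
    (hM : 0 < M0) (nu : List α → V)
    (h : ∀ q q' : List α, A ≤ q.length → A ≤ q'.length → q.take A = q'.take A →
      q.length % M0 = q'.length % M0 →
      ((q.drop A).map f).prod = ((q'.drop A).map f).prod → nu q = nu q') (b : V) :
    Language.IsRegular ({Y | nu Y = b} : Language α) := by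
  have h1 : Language.IsRegular ({Y | Y.length < A ∧ nu Y = b} : Language α) := by
    refine Fib_64.isReg (k := 0) (HL.finite ((List.finite_length_lt α A).subset ?_))
    rintro Y ⟨hY, -⟩
    exact hY
  have h2 := Fib_64.reg_biUnion (s := {X0 : List α | X0.length = A}) (List.finite_length_eq α A)
    (L := fun X0 => (({X0} : Language α) * (Fib_64.mk fun Y => nu (X0 ++ Y) = b)))
    (fun X0 hX0 => Reg_236.isRegular_mul (Fib_64.isReg (HL.word (k := 0) X0))
      (P4_933.regular_of_class f 0 M0 hM (fun Y => nu (X0 ++ Y) = b) (by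
        intro u u' _ _ _ hl hp
        have hX0' : X0.length = A := hX0
        have e : nu (X0 ++ u) = nu (X0 ++ u') := by
          refine h _ _ (by rw [List.length_append]; omega) (by rw [List.length_append]; omega)
            ?_ ?_ ?_
          · rw [← hX0', List.take_left, List.take_left]
          · rw [List.length_append, List.length_append, Nat.add_mod, hl, ← Nat.add_mod]
          · rw [← hX0', List.drop_left, List.drop_left]
            exact hp
        rw [e])))
  refine Fib_64.reg_congr (Fib_64.reg_or h1 h2) fun Y => ?_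
  constructor
  · rintro (⟨-, h3⟩ | ⟨X0, hX0, hm⟩)
    · exact h3
    · rw [Language.mem_mul] at hm
      obtain ⟨A', hA, Y', hY, rfl⟩ := hm
      have hA' : A' = X0 := hA
      subst hA'
      exact hY
  · intro hY
    by_cases hl : Y.length < A
    · exact Or.inl ⟨hl, hY⟩
    · right
      refine ⟨Y.take A, ?_, ?_⟩
      · change (Y.take A).length = A
        rw [List.length_take]; omega
      · rw [Language.mem_mul]
        refine ⟨Y.take A, rfl, Y.drop A, ?_, List.take_append_drop _ _⟩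
        change nu (Y.take A ++ Y.drop A) = b
        rw [List.take_append_drop]
        exact hY

theorem badG_badT (Ms : Finset ℕ) (Γ m n : ℕ) (hΓ : 0 < Γ) (h : Grid2_536.BadG Ms Γ m n) :
    SpoilGrid_567.BadT Ms (∏ p ∈ Ms, p) Γ m (fun _ => 0) (n : ℤ) := by
  rcases h with ⟨p, hp, hd⟩ | ⟨k, h1, h2, h3⟩
  · exact Or.inl ⟨p, hp, by exact_mod_cast hd⟩
  · right
    refine ⟨k, h1, h2, ?_⟩
    have hdm := Nat.div_add_mod n (Γ ^ k)
    have hlt := Nat.mod_lt n (Nat.pow_pos (n := k) hΓ)
    have e1 : ((∏ p ∈ Ms, p : ℕ) : ℤ) * (Γ : ℤ) ^ (k - 1) =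
        (((∏ p ∈ Ms, p) * Γ ^ (k - 1) : ℕ) : ℤ) := by push_cast; rfl
    have e2 : (Γ : ℤ) ^ k = ((Γ ^ k : ℕ) : ℤ) := by push_cast; rfl
    have e3 : (n : ℤ) = ((Γ ^ k : ℕ) : ℤ) * ((n / Γ ^ k : ℕ) : ℤ) + ((n % Γ ^ k : ℕ) : ℤ) := by
      exact_mod_cast hdm.symm
    rw [e1, e2]
    generalize ((∏ p ∈ Ms, p) * Γ ^ (k - 1) : ℕ) = b at *
    generalize (Γ ^ k : ℕ) = g at *
    generalize (n % g : ℕ) = a at *
    generalize (n / g : ℕ) = d at *
    by_cases hc : b ≤ a
    · have h4 : g < a + b := by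
        by_contra hcon
        exact h3 ⟨hc, by omega⟩
      refine ⟨(d : ℤ) + 1, ?_⟩
      have e : (n : ℤ) - 0 - ((d : ℤ) + 1) * (g : ℤ) = (a : ℤ) - (g : ℤ) := by
        linear_combination e3
      rw [e, abs_le]
      constructor <;> omega
    · refine ⟨(d : ℤ), ?_⟩
      have e : (n : ℤ) - 0 - (d : ℤ) * (g : ℤ) = (a : ℤ) := by
        linear_combination e3
      rw [e, abs_le]
      constructor <;> omega

set_option maxHeartbeats 1000000 in
theorem fin (α : Type) [Finite α] (S : Type) [Monoid S] [Finite S] (f : α → S) (s : S) :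
    HL 3 ({w | (w.map f).prod = s} : Language α) := by
  classical
  have := Fintype.ofFinite S
  obtain ⟨act, act_add, act_one, act_mul, faith⟩ := Blk467.exists_module S
  obtain ⟨m, r, hgrid⟩ := Grid2_536.exists_grid S (S → ZMod 2) act
  obtain ⟨K, hK⟩ := ExactR_237.exact_gadget α S (S → ZMod 2) f act (2 + 2 * (r + m))
  obtain ⟨Ms, hMc, hMp, hgrid2⟩ := hgrid (4 ^ K + 2)
  have hM : 0 < ∏ p ∈ Ms, p := Finset.prod_pos fun p hp => (hMp p hp).1.pos
  obtain ⟨Γ, hΓe, hΓ⟩ : ∃ Γ : ℕ, (∃ e : ℕ, Γ = 2 ^ e) ∧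
      16 * (m + 1) * (∏ p ∈ Ms, p) * 4 ^ K ≤ Γ :=
    ⟨2 ^ (16 * (m + 1) * (∏ p ∈ Ms, p) * 4 ^ K), ⟨_, rfl⟩, Nat.lt_two_pow_self.le⟩
  obtain ⟨e0, he0⟩ := hΓe
  have hΓpos : 0 < Γ := by rw [he0]; positivity
  have hcop2 : ∀ q ∈ Ms, Nat.Coprime q Γ := by
    intro q hq
    obtain ⟨q1, q2⟩ := hMp q hq
    rw [he0]
    have h4 : 0 < 4 ^ K := by positivity
    exact ((Nat.coprime_primes q1 Nat.prime_two).2 (by omega)).pow_right _
  have hcopM : Nat.Coprime (∏ p ∈ Ms, p) Γ := Nat.Coprime.prod_left hcop2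
  obtain ⟨lam1, rho1, nu1, g1, g2, g3, g4⟩ := hgrid2 Γ hΓpos hcopM α
    (fun w => (w.map f).prod) (by intro u v; simp [List.map_append, List.prod_append])
  obtain ⟨c, hc1, hc2, hc3⟩ := SpoilGrid_567.spoil_grid K m Ms (∏ p ∈ Ms, p) Γ
    (2 * Grid2_536.LaG (∏ p ∈ Ms, p) Γ m) (fun q hq => by have := (hMp q hq).2; omega) hcop2
    (fun q hq q' hq' hne => (Nat.coprime_primes (hMp q hq).1 (hMp q' hq').1).2 hne) hM hΓ
  set N1 := Grid2_536.LaG (∏ p ∈ Ms, p) Γ m with hN1
  obtain ⟨n, G, B, Wo, hLW, hgap, -, -, hbd⟩ :=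
    LWallAll_922.walls_all_left α (2 * (c K + N1) + 1) (by omega)
  obtain ⟨lam2, rho2, nu2, e1, e2⟩ := hK c (fun i j hij _ => by have := hc1 i j hij; omega)
  obtain ⟨z, hz⟩ : ∃ z, z = 3 * c K + 2 * N1 + n + N1 + c K + 1 := ⟨_, rfl⟩
  have H : Hyp Wo n (2 * (c K + N1) + 1) z (c K) N1 N1 K (r + m) (c K)
      (fun w => (w.map f).prod) act lam1 rho1 nu1 (fun P => nu2 P 1)
      (Grid2_536.BadG Ms Γ m) c lam2 (fun k Q => rho2 k Q 1) :=
    { loc := hLW.app
      gap := fun X a b hab hb h1 h2 => by have := hgap X a b hab hb h1 h2; omega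
      lamN := g1
      sound1 := g2
      compl1 := fun u hu hb v => by
        obtain ⟨P, Q, h1, h2, h3⟩ := g3 u hu hb v
        exact ⟨P, Q, h1, h2, by rw [h3]; rfl⟩
      cinc := fun i j hij _ => by have := hc1 i j hij; omega
      cp0 := fun k hk => by have := hc1 k K hk; omega
      sound2 := fun k hk P Q v b h1 _ h2 h3 => by
        have := e1 k hk P Q 1 v b h1 h2 h3
        rw [mul_one] at this
        exact this
      compl2 := fun u v hu => e2 u 1 v (fun k hk => by have := hc1 k K hk; omega)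
      sep := fun a b a' b' ha hb ha' hb' hab _ h1 h2 =>
        hc2 a b a' b' ha hb ha' hb' hab (by
          rw [abs_le]
          push_cast
          constructor <;> omega)
      spoil := fun T hT t ht => by
        have h1 := hc3 (fun _ => 0) (T : ℤ)
        refine le_trans (Finset.card_le_card ?_) (h1.trans (by omega))
        intro ab hab
        obtain ⟨u1, u2, u3, u4⟩ := ht ab hab
        refine Finset.mem_filter.2 ⟨Finset.mem_product.2
          ⟨Finset.mem_range.2 u1, Finset.mem_range.2 u2⟩, u3, ?_⟩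
        have h5 := badG_badT Ms Γ m _ hΓpos u4
        have h6 := hc1 ab.2 K u2
        have e : ((T + c ab.1 - c ab.2 : ℕ) : ℤ) = (T : ℤ) + c ab.1 - c ab.2 := by omega
        rw [e] at h5
        exact h5
      hW := by omega
      hz := by omega }
  have hp0z : c K ≤ z := by omega
  have act0 : ∀ s, act 0 s = 0 := by
    intro s
    have := act_add 0 0 s
    simpa using this
  have hnu : ∀ b, Language.IsRegular ({Y | nu1 Y = b} : Language α) := fun b =>
    nu_reg f N1 ((∏ p ∈ Ms, p) * Γ ^ m) (Nat.mul_pos hM (Nat.pow_pos hΓpos)) nu1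
      (fun q q' h1 h2 h3 h4 h5 => (g4 q q' h1 h2 h3 h4 h5).2) b
  have hbd' : ∀ X : List α, (∀ j, j < X.length → ¬ Wo (X.take j)) →
      ∃ (u x v : List α) (k : ℕ), X = u ++ BddReg_746.pw x k ++ v ∧
        u.length ≤ max B (2 * (c K + N1) + 1) ∧ x.length ≤ max B (2 * (c K + N1) + 1) ∧
        v.length ≤ max B (2 * (c K + N1) + 1) := by
    intro X hX
    obtain ⟨u, x, v, k, h1, h2, h3, h4⟩ := hbd X hX
    exact ⟨u, x, v, k, h4, h1.trans (le_max_left _ _), h2.trans (le_max_right _ _),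
      h3.trans (le_max_left _ _)⟩
  refine SemTop_445.sem_top (α := α) (V := S → ZMod 2) (fun w => (w.map f).prod) (by simp)
    (by intro u v; simp [List.map_append, List.prod_append]) act
    (fun v s s' => (act_mul v s s').symm) act_add faith (XX Wo z) ?_ ?_
    (TT act (fun w => (w.map f).prod) nu1 (fun P => nu2 P 1) (c K))
    (fun X => act (nu2 (X.take (c K)) 1) ((X.drop (c K)).map f).prod + nu1 (X.drop (c K))) ?_
    (LP1 act (fun w => (w.map f).prod) (fun P => nu2 P 1) lam1 (c K)) (LP2 lam2 c K)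
    ?_ ?_ ?_ ?_ ?_ s
  · rintro ⟨h1, -⟩
    simp at h1
    omega
  · intro X hX Y hXY
    obtain ⟨a1, a2, a3⟩ := hX
    obtain ⟨b1, b2, b3⟩ := hXY
    by_contra hne
    have hl : 0 < Y.length := List.length_pos_iff.2 hne
    have := b3 X.length a1 (by rw [List.length_append]; omega)
    rw [List.take_left] at this
    exact this a2
  · intro X _ v
    unfold TT
    dsimp only
    rw [act_add, ← act_mul, ← List.prod_append, ← List.map_append, List.take_append_drop,
      add_assoc]
  · refine Set.Finite.subset ((List.finite_length_le α (c K + N1)).prod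
      (Set.finite_univ (α := S → ZMod 2))) ?_
    rintro ⟨P, v⟩ ⟨h1, h2⟩
    have h3 := g1 _ _ h2
    rw [List.length_drop] at h3
    change P.length - c K ≤ N1 at h3
    refine ⟨?_, trivial⟩
    change P.length ≤ c K + N1
    omega
  · refine Set.Finite.subset ((List.finite_length_le α (c K)).prod
      (Set.finite_univ (α := S → ZMod 2))) ?_
    rintro ⟨P, v⟩ ⟨k, hk, h1, h2⟩
    refine ⟨?_, trivial⟩
    change P.length ≤ c K
    have h1' : P.length = c k := h1
    have := hc1 k K hk
    omega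
  · intro v v'
    exact Fib_64.hXT hLW.app hLW.len hbd' f act z (c K) hp0z nu1 (fun P => nu2 P 1) hnu v v'
  · intro s
    exact Fib_64.hNP hLW.app hLW.len hbd' f z s
  · intro X hX X2 hX2 v
    right
    obtain ⟨P, Q, h1, h2, h3, h4, b, h5⟩ := cc2 H hX hX2 v
    refine ⟨P, Q, h1, h2, h3, b, ?_⟩
    intro P' v' hP' hNC
    rcases h5 P' v' hP' with ⟨Z, hZ, hZp, P'', Q'', q1, q2, q3, q4, b', q5⟩ | hB
    · exact absurd ⟨q4, ⟨P'', v', q3⟩, b', q5⟩ (hNC Z hZ hZp P'' Q'' q1 q2 q3)
    · exact hB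

theorem row.{u} (α : Type u) [Finite α] (L : Language α) (hL : L.IsRegular) :
    ∃ e : GRegExp α, e.height ≤ 3 ∧ e.lang = L :=
  Univ_188.of_type0 3 (fun β _ K hK => of_monoid (fun S _ _ f s => fin β S f s) K hK) α L hL

end Crest.Agent.R320.Fin_994
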