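import Crest.Agent.R320.SemTop_727
import Crest.Agent.R320.JointSem_814
import Crest.Agent.R320.Fib_298
import Crest.Agent.R320.LWallAll_922
import Crest.Agent.R320.Sp_125
import Crest.Agent.R320.Univ_582
import Crest.Agent.R320.G1_604
import Crest.Agent.R320.Bridge2_3

/-!
# Row 320: final assembly (helper995)

All words at once, natural chain rule; top = `SemTop_727.top` with `k = 1`, concrete side =
`JointSem_814.compl2`, heights = `Fib_298`, walls = `LWallAll_922`, gadget 1 = `G1_604.g1`,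
gadget 2 = `ExactR_237.exact_gadget`, ruler = `Sp_125.spoil`.
-/

set_option autoImplicit false

namespace Crest.Agent.R320.Fin_995

open Crest.RegLang Crest.Agent.R320.Hk_851 Crest.Agent.R320.JointSem_814 Finset

/-- walls in both formats -/
theorem walls (A : Type) [Finite A] (W : ℕ) (hW : 0 < W) :
    ∃ (n B : ℕ) (Wo : List A → Prop), Walls n W Wo ∧
      Crest.Agent.R320.Fib_298.WallU Wo n B := by
  obtain ⟨n, G, B, Wo, hLW, hgap, -, -, hfree⟩ :=
    Crest.Agent.R320.LWallAll_922.walls_all_left A W hW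
  refine ⟨n, max B W, Wo, ⟨hLW.1, hLW.2, ?_⟩, ⟨hLW.1, hLW.2, ?_⟩⟩
  · intro X s t hst htW htX hs ht
    have := hgap X s t hst htX hs ht
    omega
  · intro X hX
    obtain ⟨u, x, v, k, hu, hx, hv, he⟩ := hfree X hX
    exact ⟨u, x, v, k, he, hu.trans (le_max_left _ _), hx.trans (le_max_right _ _),
      hv.trans (le_max_left _ _)⟩

open Classical in
theorem spoil_words {A : Type} {n W : ℕ} {Wo : List A → Prop} (hW : Walls n W Wo)
    {z p0 N K C0 : ℕ} {c : ℕ → ℕ} {BadT : ℕ → Prop} (hc : ∀ k < K, c k ≤ p0)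
    (hW2 : 2 * p0 + 2 * N ≤ W) (hz : 3 * p0 + N ≤ z)
    (hres : ∀ i j k l, i ≠ j → k ≠ l → (i, j) ≠ (k, l) →
        c i + c l + 4 * N < c k + c j ∨ c k + c j + 4 * N < c i + c l)
    (hcount : ∀ T : ℕ, (∀ l < K, c l ≤ T) →
        (((Finset.range K) ×ˢ (Finset.range K)).filter
          (fun p => p.1 ≠ p.2 ∧ BadT (T + c p.2 - c p.1))).card ≤ C0) (U : List A) :
    ∃ J : Finset ℕ, J.card < 2 * C0 + 2 ∧
      ∀ k < K, Spoiled Wo z p0 N K c BadT U k → k ∈ J := by
  classical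
  let PE : Finset (ℕ × ℕ) := ((Finset.range K) ×ˢ (Finset.range K)).filter
    (fun p => p.1 ≠ p.2 ∧ ∃ s, s ≤ U.length ∧ Wo (U.take s) ∧ z + c p.1 ≤ s + c p.2 + N ∧
      s + c p.2 < z + N + c p.1)
  have hPE : PE.card ≤ 1 := by
    rw [Finset.card_le_one]
    intro a ha b hb
    obtain ⟨ha1, ha2, s, hs1, hs2, hs3, hs4⟩ := Finset.mem_filter.1 ha
    obtain ⟨hb1, hb2, t, ht1, ht2, ht3, ht4⟩ := Finset.mem_filter.1 hb
    obtain ⟨ha3, ha4⟩ := Finset.mem_product.1 ha1
    obtain ⟨hb3, hb4⟩ := Finset.mem_product.1 hb1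
    have ka := hc _ (Finset.mem_range.1 ha3)
    have ka' := hc _ (Finset.mem_range.1 ha4)
    have kb := hc _ (Finset.mem_range.1 hb3)
    have kb' := hc _ (Finset.mem_range.1 hb4)
    have hst : s = t := by
      rcases lt_trichotomy s t with h | h | h
      · exact (hW.gap U s t h (by omega) ht1 hs2 ht2).elim
      · exact h
      · exact (hW.gap U t s h (by omega) hs1 ht2 hs2).elim
    subst hst
    by_contra hne
    rcases hres a.1 a.2 b.1 b.2 ha2 hb2 (fun h => hne (by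
      rw [Prod.mk.injEq] at h; exact Prod.ext h.1 h.2)) with h | h <;> omega
  let PB : ℕ → Finset (ℕ × ℕ) := fun T => ((Finset.range K) ×ˢ (Finset.range K)).filter
    (fun p => p.1 ≠ p.2 ∧ BadT (T + c p.2 - c p.1))
  obtain ⟨T0, hT0, hT0'⟩ : ∃ T0 : ℕ, p0 ≤ T0 ∧ ∀ s, s ≤ U.length → Wo (U.take s) →
      z ≤ s + p0 → s ≤ z + p0 → T0 = s - p0 := by
    by_cases h : ∃ s, s ≤ U.length ∧ Wo (U.take s) ∧ z ≤ s + p0 ∧ s ≤ z + p0
    · obtain ⟨s, h1, h2, h3, h4⟩ := h
      refine ⟨s - p0, by omega, fun t k1 k2 k3 k4 => ?_⟩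
      rcases lt_trichotomy s t with h | h | h
      · exact (hW.gap U s t h (by omega) k1 h2 k2).elim
      · rw [h]
      · exact (hW.gap U t s h (by omega) h1 k2 h2).elim
    · exact ⟨p0, le_rfl, fun s h1 h2 h3 h4 => (h ⟨s, h1, h2, h3, h4⟩).elim⟩
  obtain ⟨T1, hT1, hT1'⟩ : ∃ T1 : ℕ, p0 ≤ T1 ∧ ∀ s, s ≤ U.length → Wo (U.take s) →
      z + p0 < s → (∀ t < s, Wo (U.take t) → t ≤ z + p0) → T1 = s - p0 := by
    by_cases h : ∃ s, s ≤ U.length ∧ Wo (U.take s) ∧ z + p0 < s ∧
        (∀ t < s, Wo (U.take t) → t ≤ z + p0)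
    · obtain ⟨s, h1, h2, h3, h4⟩ := h
      refine ⟨s - p0, by omega, fun t k1 k2 k3 k4 => ?_⟩
      rcases lt_trichotomy s t with h | h | h
      · have := k4 s h h2; omega
      · rw [h]
      · have := h4 t h k2; omega
    · exact ⟨p0, le_rfl, fun s h1 h2 h3 h4 => (h ⟨s, h1, h2, h3, h4⟩).elim⟩
  have c0 : (PB T0).card ≤ C0 := hcount T0 fun l hl => (hc l hl).trans hT0
  have c1 : (PB T1).card ≤ C0 := hcount T1 fun l hl => (hc l hl).trans hT1
  refine ⟨(PE ∪ (PB T0 ∪ PB T1)).image Prod.fst, ?_, ?_⟩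
  · have h1 := Finset.card_image_le (s := PE ∪ (PB T0 ∪ PB T1)) (f := Prod.fst)
    have h2 := Finset.card_union_le PE (PB T0 ∪ PB T1)
    have h3 := Finset.card_union_le (PB T0) (PB T1)
    omega
  · rintro k hk ⟨k', hk', hne, h | ⟨s, hs1, hs2, hs3, hs4, hs5⟩⟩
    · refine Finset.mem_image.2 ⟨(k, k'), Finset.mem_union_left _ ?_, rfl⟩
      exact Finset.mem_filter.2 ⟨Finset.mem_product.2 ⟨Finset.mem_range.2 hk,
        Finset.mem_range.2 hk'⟩, (fun e => hne e.symm), h⟩
    · refine Finset.mem_image.2 ⟨(k, k'), Finset.mem_union_right _ ?_, rfl⟩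
      have ck := hc k hk
      have ck' := hc k' hk'
      by_cases hs : s ≤ z + p0
      · refine Finset.mem_union_left _ (Finset.mem_filter.2 ⟨Finset.mem_product.2
          ⟨Finset.mem_range.2 hk, Finset.mem_range.2 hk'⟩, (fun e => hne e.symm), ?_⟩)
        have e := hT0' s hs1 hs2 (by omega) hs
        show BadT (T0 + c k' - c k)
        have e2 : T0 + c k' - c k = s + c k' - c k - p0 := by omega
        rw [e2]; exact hs5
      · refine Finset.mem_union_right _ (Finset.mem_filter.2 ⟨Finset.mem_product.2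
          ⟨Finset.mem_range.2 hk, Finset.mem_range.2 hk'⟩, (fun e => hne e.symm), ?_⟩)
        have e := hT1' s hs1 hs2 (by omega) (fun t ht hw => by
          have := hs4 t ht hw; omega)
        show BadT (T1 + c k' - c k)
        have e2 : T1 + c k' - c k = s + c k' - c k - p0 := by omega
        rw [e2]; exact hs5

theorem hl3 (A : Type) [Finite A] (S : Type) [Monoid S] [Finite S] (f : A → S) (s : S) :
    HL 3 ({w | (w.map f).prod = s} : Language A) := by
  classical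
  haveI : Fintype S := Fintype.ofFinite S
  obtain ⟨act, hadd, hone, hmul, hfaith⟩ := Crest.Agent.R320.Blk467.exists_module S
  haveI : Fintype (S → ZMod 2) := Fintype.ofFinite _
  obtain ⟨m, r, h1⟩ := Crest.Agent.R320.G1_604.g1 S (S → ZMod 2) act
  obtain ⟨K, hK⟩ := Crest.Agent.R320.ExactR_237.exact_gadget A S (S → ZMod 2) f act
    (2 * (r + m) + 2)
  obtain ⟨Ms, M, hr, hMs, hM, h2⟩ := h1 (4 ^ K)
  obtain ⟨b, hb⟩ : ∃ b, b = 1 + M * (2 ^ (K + 3) + 8) := ⟨_, rfl⟩
  have hp : 8 ≤ 2 ^ (K + 3) := by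
    have : 1 ≤ 2 ^ K := Nat.one_le_two_pow
    rw [pow_add]; omega
  have hMp : M * 8 ≤ M * 2 ^ (K + 3) := Nat.mul_le_mul_left _ hp
  have hexp : M * (2 ^ (K + 3) + 8) = M * 2 ^ (K + 3) + M * 8 := by ring
  have hcop : Nat.Coprime b M := by
    rw [hb, Nat.coprime_add_mul_left_left]
    exact Nat.coprime_one_left M
  obtain ⟨lam, rho, nu, g1, g2, g3, g4⟩ := h2 b (by rw [hb, hexp]; omega) hcop A f
  obtain ⟨N, hN⟩ : ∃ N, N = b ^ m := ⟨_, rfl⟩
  obtain ⟨c, hc1, hc2, hc3⟩ := Crest.Agent.R320.Sp_125.spoil Ms M m b K N hM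
    (fun k hk => ⟨(hMs k hk).1, (hMs k hk).2.2⟩)
    (by rw [hb, hexp, Nat.mul_comm (2 ^ (K + 3)) M]; omega) hcop
  obtain ⟨lam2, rho2, nu2, e1, e2⟩ := hK c (fun i j hij hj => by
    have := hc1 i j hij; omega)
  obtain ⟨p0, hp0⟩ : ∃ p0, p0 = c K := ⟨_, rfl⟩
  have hcp : ∀ k < K, c k ≤ p0 := fun k hk => by
    have := hc1 k K hk; omega
  obtain ⟨n, B, Wo, hW, hU⟩ := walls A (2 * p0 + 2 * N + 1) (by omega)
  obtain ⟨z, hz⟩ : ∃ z, z = 3 * p0 + N + n + 1 := ⟨_, rfl⟩
  let φ : List A → S := fun w => (w.map f).prod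
  let nu2' : List A → (S → ZMod 2) := fun P => nu2 P 1
  let D : Crest.Agent.R320.SemTop_727.Sch A (S → ZMod 2) :=
    { XX := JointSem_814.XX Wo z
      T := JointSem_814.T p0 φ act nu nu2'
      L1 := JointSem_814.L1 p0 φ act nu2' lam
      L2 := JointSem_814.L2 K c lam2 }
  have hXX : JointSem_814.XX Wo z = Crest.Agent.R320.Fib_298.XX Wo z := by
    ext X
    constructor
    · rintro ⟨a1, a2, a3⟩; exact ⟨a2, a1, a3⟩
    · rintro ⟨a1, a2, a3⟩; exact ⟨a2, a1, a3⟩
  have hreg : ∀ y, Language.IsRegular ({Y | nu Y = y} : Language A) := by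
    intro y
    refine Crest.Agent.R320.Bridge2_3.regular_of_state φ (by intro u v; simp [φ]) (b ^ m)
      (M * b ^ m) (by
        have : 0 < b := by rw [hb]; omega
        positivity) nu ?_ y
    intro Q Q' a1 a2 a3 a4 a5
    exact (g4 Q Q' a1 a2 a3 a4 a5).2
  refine Crest.Agent.R320.SemTop_727.top (k := 1) act hadd hone hmul hfaith f
    (fun X => act (nu2' (X.take p0)) (φ (X.drop p0)) + nu (X.drop p0)) D ?_ ?_ ?_ ?_ ?_ ?_ ?_ s
  · intro v X
    show act (act v (φ (X.take p0)) + nu2' (X.take p0)) (φ (X.drop p0)) + nu (X.drop p0) = _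
    have h3 : (X.map f).prod = φ (X.take p0) * φ (X.drop p0) := by
      show (X.map f).prod = ((X.take p0).map f).prod * ((X.drop p0).map f).prod
      rw [← List.prod_append, ← List.map_append, List.take_append_drop]
    rw [hadd, h3, hmul, add_assoc]
  · show Crest.Agent.R320.Blk467.PCode (JointSem_814.XX Wo z)
    rw [hXX]
    exact Crest.Agent.R320.Fib_298.pcode_XX (by omega)
  · intro x y
    have h3 := Crest.Agent.R320.Fib_298.hfib hU (z := z) (by omega) act f p0 (by omega)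
      (fun v X0 => act v (φ X0) + nu2' X0) nu hreg x y
    refine h3.congr fun w => ?_
    show (w ∈ JointSem_814.XX Wo z ∧ _) ↔ _
    rw [hXX]
    exact Iff.rfl
  · intro x
    refine (List.finite_length_le A (p0 + N)).subset ?_
    rintro P ⟨a1, a2⟩
    have := g1 _ _ a2
    rw [List.length_drop] at this
    show P.length ≤ p0 + N
    omega
  · intro x
    refine (List.finite_length_le A p0).subset ?_
    rintro P ⟨k, hk, a1, a2⟩
    show P.length ≤ p0
    rw [a1]; exact hcp k hk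
  · intro X1 hX1 X2 hX2 x
    refine JointSem_814.compl2 (N := N) (N0 := 0) (K := K) (R := 2 * (r + m) + 2) (rho := rho)
      (BadT := Crest.Agent.R320.Sp_125.Bad Ms M m b) (c := c) (lam2 := lam2)
      (rho2 := fun k Q => rho2 k Q 1) hW (by omega) (by omega)
      (fun p v h => by have := g1 p v h; omega) (fun p q v r a1 a2 => g2 p q v r a1 a2) ?_ hcp
      ?_ ?_ ?_ hX1.1 hX2 x
    · intro u _ hbad v
      have hbad' : ¬ ((∃ k ∈ Ms, k ∣ u.length) ∨
        ∃ j < m, ¬ (M ≤ u.length / b ^ j % b ∧ u.length / b ^ j % b + M + 1 ≤ b)) := hbad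
      rw [not_or] at hbad'
      refine g3 u (fun k hk hd => hbad'.1 ⟨k, hk, hd⟩) (fun j hj => ?_) v
      by_contra hcon
      exact hbad'.2 ⟨j, hj, hcon⟩
    · intro k hk P Q v b' a1 a2 a3
      have := e1 k hk P Q 1 v b' a1 a2 a3
      rw [mul_one] at this
      exact this
    · intro u v hu
      exact e2 u 1 v hu
    · intro U _
      exact spoil_words hW hcp (by omega) (by omega) hc2
        (fun T hT => (hc3 T hT).trans (by omega)) U
  · intro t
    refine ((Crest.Agent.R320.Fib_298.rest hU (z := z) (by omega) f t).mono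
      (by omega)).congr fun w => ?_
    show (∀ X ∈ JointSem_814.XX Wo z, ¬ X <+: w) ∧ _ ↔ _
    rw [hXX]
    exact Iff.rfl

universe u

/-- the row -/
theorem row (α : Type u) [Finite α] (L : Language α) (hL : L.IsRegular) :
    ∃ e : Crest.RegLang.GRegExp α, e.height ≤ 3 ∧ e.lang = L :=
  Crest.Agent.R320.Univ_582.final (fun β _ S _ _ φ s => hl3 β S φ s) α L hL

end Crest.Agent.R320.Fin_995
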