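import Crest.Agent.R320.InstB_11
import Crest.Agent.R320.Fib_298
import Crest.Agent.R320.Sp_69
import Crest.Agent.R320.LWallAll_922
import Crest.Agent.R320.Univ_119
import Crest.Agent.R320.G1_604
import Crest.Agent.R320.Hk2_851

/-!
# Row 320: final assembly (helper997)

Top5_110.top_sem + InstB_11 (C1, C2) + Fib_298 (heights) + G1_604.g1 (gadget) + Sp_69.spoil
(ruler) + ExactR_237.exact_gadget + LWallAll_922.walls_all_left + Univ_119.bridge.
-/

set_option autoImplicit false

namespace Crest.Agent.R320.Fin_997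

open Crest.RegLang Crest.Agent.R320.Hk_851 Crest.Agent.R320.Code110 Crest.Agent.R320.Reg_236
open Crest.Agent.R320.InstB_11

universe u

/-- words whose value under a finite-state function is fixed form a regular language -/
theorem reg_fs {α : Type u} [Finite α] {S : Type*} [Monoid S] [Finite S] {β : Type*}
    (f : α → S) (F : List α → β) (La Pm : ℕ) (hP : 0 < Pm)
    (h : ∀ Q Q' : List α, La ≤ Q.length → La ≤ Q'.length → Q.take La = Q'.take La →
      Q.length % Pm = Q'.length % Pm →
      ((Q.drop La).map f).prod = ((Q'.drop La).map f).prod → F Q = F Q') (x : β) :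
    Language.IsRegular ({Y | F Y = x} : Language α) := by
  classical
  haveI : NeZero Pm := ⟨hP.ne'⟩
  let M := S × Multiplicative (ZMod Pm)
  haveI : Finite (Multiplicative (ZMod Pm)) := (inferInstance : Finite (ZMod Pm))
  haveI : Finite M := inferInstanceAs (Finite (S × Multiplicative (ZMod Pm)))
  let g : α → M := fun a => (f a, Multiplicative.ofAdd (1 : ZMod Pm))
  have hg : ∀ w : List α, (w.map g).prod = ((w.map f).prod,
      Multiplicative.ofAdd ((w.length : ℕ) : ZMod Pm)) := by
    intro w
    induction w with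
    | nil => simp; rfl
    | cons a w ih =>
      rw [List.map_cons, List.prod_cons, ih, List.map_cons, List.prod_cons, List.length_cons]
      refine Prod.ext rfl ?_
      show Multiplicative.ofAdd (1 : ZMod Pm) * Multiplicative.ofAdd ((w.length : ℕ) : ZMod Pm) = _
      rw [← ofAdd_add]
      congr 1
      push_cast
      ring
  have hkey : ∀ X0 : List α, X0.length = La → ∀ Z Z' : List α, (Z.map g).prod = (Z'.map g).prod →
      F (X0 ++ Z) = F (X0 ++ Z') := by
    intro X0 hX0 Z Z' hZ
    rw [hg, hg] at hZ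
    have h1 := (Prod.mk.inj hZ).1
    have h2 : ((Z.length : ℕ) : ZMod Pm) = ((Z'.length : ℕ) : ZMod Pm) :=
      Multiplicative.ofAdd.injective (Prod.mk.inj hZ).2
    rw [ZMod.natCast_eq_natCast_iff'] at h2
    refine h _ _ (by rw [List.length_append]; omega) (by rw [List.length_append]; omega) ?_ ?_ ?_
    · rw [List.take_left' hX0, List.take_left' hX0]
    · rw [List.length_append, List.length_append, Nat.add_mod, h2, ← Nat.add_mod]
    · rw [List.drop_left' hX0, List.drop_left' hX0]; exact h1
  let R : List α → Language α := fun X0 => {Z | ∃ p ∈ {p : M | ∃ Z0, (Z0.map g).prod = p ∧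
    F (X0 ++ Z0) = x}, Z ∈ ({w | (w.map g).prod = p} : Language α)}
  let Wd : List α → Language α := fun X0 => {X0}
  have h1 := Fib_298.isRegular_biUnion (List.finite_length_eq α La)
    (L := fun X0 => Wd X0 * R X0)
    (fun X0 _ => isRegular_mul (HL.isRegular (HL.word (k := 0) X0))
      (Fib_298.isRegular_biUnion (Set.toFinite _) fun p _ => Fib_298.isRegular_fib g p))
  let Sh : Language α := {w : List α | w.length < La ∧ F w = x}
  let Lo : Language α := {w | ∃ i ∈ ({l : List α | l.length = La} : Set (List α)), w ∈ Wd i * R i}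
  have h2 : Sh.IsRegular :=
    HL.isRegular (HL.finite (k := 0) ((List.finite_length_le α La).subset
      fun w hw => le_of_lt hw.1))
  have e : ({Y | F Y = x} : Language α) = Sh + Lo := by
    ext w
    constructor
    · intro hw
      rcases Nat.lt_or_ge w.length La with hl | hl
      · exact Or.inl ⟨hl, hw⟩
      · right
        refine ⟨w.take La, by show (w.take La).length = La; rw [List.length_take]; omega, ?_⟩
        refine Language.mem_mul.2 ⟨w.take La, rfl, w.drop La, ?_, List.take_append_drop _ _⟩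
        refine ⟨((w.drop La).map g).prod, ⟨w.drop La, rfl, ?_⟩, rfl⟩
        rw [List.take_append_drop]; exact hw
    · rintro (⟨-, hw⟩ | ⟨X0, hX0, hw⟩)
      · exact hw
      · obtain ⟨X0', hX0', Z, ⟨p, ⟨Z0, hZ0, hF⟩, hZ⟩, rfl⟩ := Language.mem_mul.1 hw
        have hx : X0' = X0 := hX0'
        subst hx
        have hZ' : (Z.map g).prod = p := hZ
        show F (X0' ++ Z) = x
        rw [hkey X0' hX0 Z Z0 (by rw [hZ', hZ0])]
        exact hF
  rw [e]
  exact h2.add h1

theorem fib3 (α : Type) [Finite α] (S : Type) [Monoid S] [Finite S] (f : α → S) (s : S) :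
    HL 3 ({w | (w.map f).prod = s} : Language α) := by
  classical
  haveI := Fintype.ofFinite S
  obtain ⟨act, hadd, hone, hmul, hfaith⟩ := Crest.Agent.R320.Blk467.exists_module S
  let V : Type := S → ZMod 2
  haveI : Finite V := inferInstanceAs (Finite (S → ZMod 2))
  haveI : Fintype V := Fintype.ofFinite V
  obtain ⟨m, r, hg1⟩ := Crest.Agent.R320.G1_604.g1 S V act
  obtain ⟨K, hK⟩ := Crest.Agent.R320.ExactR_237.exact_gadget α S V f act (2 + 2 * (r + m))
  obtain ⟨Ms, M, hcard, hMs, hM, hg2⟩ := hg1 (2 * 4 ^ K)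
  let b : ℕ := M * (18 * 4 ^ K + 8) + 1
  have h4K : 1 ≤ 4 ^ K := Nat.one_le_pow _ _ (by norm_num)
  have hb1 : 4 * M + 4 < b := by
    show 4 * M + 4 < M * (18 * 4 ^ K + 8) + 1
    nlinarith
  have hb2 : 18 * 4 ^ K * M ≤ b := by
    show 18 * 4 ^ K * M ≤ M * (18 * 4 ^ K + 8) + 1
    nlinarith
  have hb3 : Nat.Coprime b M := by
    show Nat.Coprime (M * (18 * 4 ^ K + 8) + 1) M
    rw [Nat.coprime_comm]
    exact (Nat.coprime_mul_left_add_right _ _ _).2 (Nat.coprime_one_right M)
  have hb0 : 0 < b := Nat.succ_pos _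
  obtain ⟨lam, rho, nu, l1, l2, l3, l4⟩ := hg2 b hb1 hb3 α f
  obtain ⟨c, hc1, hc2, -, -, hc3⟩ := Crest.Agent.R320.Sp_69.spoil Ms M m b K (b ^ m) hM
    (fun k hk => ⟨(hMs k hk).2.2, (hMs k hk).1⟩) hb2 hb3
  have hcm : ∀ i j, i < j → c i < c j := fun i j hij => by have := hc1 i j hij; omega
  obtain ⟨lam2, rho2, nuE, x1, x2⟩ := hK c (fun i j hij _ => hcm i j hij)
  let p0 : ℕ := c K
  have hcp : ∀ k < K, c k ≤ p0 := fun k hk => (hcm k K hk).le
  let La : ℕ := max (b ^ m) p0
  have hLa1 : b ^ m ≤ La := le_max_left _ _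
  have hLa2 : p0 ≤ La := le_max_right _ _
  obtain ⟨n, G, B, Wo, hLW, hgap, hper, -, hfree⟩ :=
    Crest.Agent.R320.LWallAll_922.walls_all_left α (2 * (b ^ m + p0) + 1) (by omega)
  let W : ℕ := 2 * (b ^ m + p0) + 1
  let z : ℕ := 2 * p0 + b ^ m + n + La + 1
  have hWL : WL Wo n W := by
    refine ⟨hLW.app, hLW.len, ?_⟩
    intro P d hP hd hdW hw
    rcases Nat.eq_zero_or_pos P.length with h0 | h0
    · have hnil : P = [] := List.length_eq_zero_iff.1 h0
      subst hnil
      refine hper [] 1 one_pos (by omega) hP ?_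
      simp [List.HasPeriod]
    · have := hgap P (P.length - d) P.length (by omega) le_rfl hw
        (by rw [List.take_length]; exact hP)
      have h3 : P.length - (P.length - d) ≤ d := by omega
      have h4 : d ≤ 2 * (b ^ m + p0) + 1 := hdW
      omega
  have hWU : Fib_298.WallU Wo n (max B W) := by
    refine ⟨hLW.app, hLW.len, ?_⟩
    intro X hX
    obtain ⟨u', x', v', k', hu, hx, hv, e⟩ := hfree X hX
    exact ⟨u', x', v', k', e, hu.trans (le_max_left _ _), hx.trans (le_max_right _ _),
      hv.trans (le_max_left _ _)⟩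
  have hz0 : 0 < z := Nat.succ_pos _
  have hnz : n ≤ z := by show n ≤ 2 * p0 + b ^ m + n + La + 1; omega
  have hp0z : p0 ≤ z := by show p0 ≤ 2 * p0 + b ^ m + n + La + 1; omega
  let BadT : ℕ → Prop := Crest.Agent.R320.Sp_69.BadN Ms M m b
  have hPm : 0 < M * b ^ m := Nat.mul_pos hM (Nat.pos_of_ne_zero (pow_ne_zero _ hb0.ne'))
  have hBper : ∀ n, BadT (n + M * b ^ m) ↔ BadT n :=
    Crest.Agent.R320.Sp_69.badN_periodic Ms M m b (fun k hk => (hMs k hk).2.2) hb0
  have hBmod : ∀ n n', n % (M * b ^ m) = n' % (M * b ^ m) → (BadT n ↔ BadT n') := by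
    have h1 : ∀ q r, BadT (r + q * (M * b ^ m)) ↔ BadT r := by
      intro q
      induction q with
      | zero => intro r; simp
      | succ q ih =>
        intro r
        have : r + (q + 1) * (M * b ^ m) = (r + q * (M * b ^ m)) + M * b ^ m := by ring
        rw [this, hBper, ih]
    intro n n' hnn
    have e1 : n % (M * b ^ m) + n / (M * b ^ m) * (M * b ^ m) = n := Nat.mod_add_div' n _
    have e2 : n' % (M * b ^ m) + n' / (M * b ^ m) * (M * b ^ m) = n' := Nat.mod_add_div' n' _
    rw [← e1, ← e2, h1, h1, hnn]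
  -- regularity
  have hnu : ∀ y, Language.IsRegular ({Y | nu Y = y} : Language α) := fun y =>
    reg_fs f nu (b ^ m) (M * b ^ m) hPm
      (fun Q Q' a1 a2 a3 a4 a5 => (l4 Q Q' a1 a2 a3 a4 a5).2) y
  have hBreg : Language.IsRegular ({X : List α | BadT (X.length - p0) = True} : Language α) :=
    reg_fs f (fun X : List α => BadT (X.length - p0)) p0 (M * b ^ m) hPm
      (fun Q Q' a1 a2 _ a4 _ => propext (hBmod _ _ (by
        have h5 : Q.length - p0 + p0 ≡ Q'.length - p0 + p0 [MOD M * b ^ m] := by
          rw [Nat.sub_add_cancel a1, Nat.sub_add_cancel a2]; exact a4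
        exact Nat.ModEq.add_right_cancel' p0 h5))) True
  let F0 : Language α := {w : List α | w.length < z + b ^ m ∧ z ≤ w.length + b ^ m ∧ Wo w}
  let B0 : Language α := {X : List α | BadT (X.length - p0) = True}
  have hF0 : F0.IsRegular :=
    HL.isRegular (HL.finite (k := 0) ((List.finite_length_le α (z + b ^ m)).subset
      fun w hw => le_of_lt hw.1))
  have hEreg : (F0 * ⊤).IsRegular := isRegular_mul hF0 (HL.isRegular (HL.top (k := 0)))
  have H1 : ∀ k, HL k (InstB_11.XX Wo z) := fun k => Fib_298.HL_XX hWU z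
  have H2 : HL 1 (BadX Wo z (b ^ m) p0 BadT) := by
    refine Fib_298.HL_blocks hWU hnz ?_ (fun w hw => hw.1)
    have hB0 : B0.IsRegular := hBreg
    have h1 := (HL.isRegular (H1 0)).inf (hEreg.add hB0)
    have e : BadX Wo z (b ^ m) p0 BadT = InstB_11.XX Wo z ⊓ (F0 * ⊤ + B0) := by
      ext w
      constructor
      · rintro ⟨hw, hw2⟩
        refine ⟨hw, ?_⟩
        rcases hw2 with ⟨t, ht1, ht2, ht3, ht4⟩ | hw2
        · left
          refine Language.mem_mul.2 ⟨w.take t, ⟨?_, ?_, ht4⟩, w.drop t, trivial,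
            List.take_append_drop _ _⟩
          · rw [List.length_take]; omega
          · rw [List.length_take]; omega
        · right
          exact eq_true hw2
      · rintro ⟨hw, hw2⟩
        refine ⟨hw, ?_⟩
        rcases hw2 with hw2 | hw2
        · left
          obtain ⟨P, ⟨hP1, hP2, hP3⟩, Q, -, rfl⟩ := Language.mem_mul.1 hw2
          exact ⟨P.length, by rw [List.length_append]; omega, hP2, hP1, by
            rw [List.take_left]; exact hP3⟩
        · right
          exact of_eq_true hw2
    rw [e]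
    exact h1
  have H3 : ∀ x y, HL 1 (ZT (InstB_11.XX Wo z) (TT f act p0 (fun w => nuE w 1) nu) x y) := by
    intro x y
    exact Fib_298.hfib hWU hnz act f p0 hp0z
      (fun v X0 => act v (X0.map f).prod + nuE X0 1) nu hnu x y
  have H4 : ∀ s, HL 3 ({w | (∀ u ∈ InstB_11.XX Wo z, ¬ u <+: w) ∧ (w.map f).prod = s} :
      Language α) := fun s => HL.mono (by norm_num) (Fib_298.rest hWU hnz f s)
  refine Top5_110.top_sem (φ := fun w : List α => (w.map f).prod) (act := act)
    (XX := InstB_11.XX Wo z) (Bad := BadX Wo z (b ^ m) p0 BadT)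
    (T := TT f act p0 (fun w => nuE w 1) nu) (by simp) (by intro u w; simp) hone hmul hfaith
    (InstB_11.pc hz0) (fun u hu => hu.1) ?_ (H1 1) H2 H3 H4 (N1 := 0) (N2 := 1)
    (L1 := InstB_11.L1 f act p0 (fun w => nuE w 1) lam) (L2 := InstB_11.L2 K c lam2)
    ?_ ?_ ?_ ?_ s
  · intro u _ v v'
    have hsub : ∀ (a b : V) (s : S), act a s - act b s = act (a - b) s := by
      intro a b s
      have h1 := hadd (a - b) b s
      rw [sub_add_cancel] at h1
      rw [h1]; abel
    show (act (act v ((u.take p0).map f).prod + nuE (u.take p0) 1) ((u.drop p0).map f).prod +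
      nu (u.drop p0)) - (act (act v' ((u.take p0).map f).prod + nuE (u.take p0) 1)
      ((u.drop p0).map f).prod + nu (u.drop p0)) = act (v - v') (u.map f).prod
    rw [add_sub_add_right_eq_sub, hsub, add_sub_add_right_eq_sub, hsub, ← hmul,
      ← List.prod_append, ← List.map_append, List.take_append_drop]
  · intro v
    refine (List.finite_length_le α (p0 + b ^ m)).subset ?_
    rintro p ⟨hp1, hp2⟩
    have := l1 _ _ hp2
    rw [List.length_drop] at this
    show p.length ≤ p0 + b ^ m
    omega
  · intro v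
    refine (List.finite_length_le α p0).subset ?_
    rintro p ⟨k, hk, hp, -⟩
    show p.length ≤ p0
    rw [hp]; exact hcp k hk
  · intro u hu hb x t ht
    have ht' : t = [] := by
      have : t ∈ (1 : Language α) := by simpa using ht
      exact this
    subst ht'
    rw [List.append_nil]
    exact InstB_11.C1 hWL f act (La := La) (fun w => nuE w 1) nu lam rho
      (by show p0 + b ^ m + n + La ≤ 2 * p0 + b ^ m + n + La + 1; omega)
      (fun p v h => (l1 p v h).le) (fun p q v b h1 h2 _ => l2 p q v b h1 h2)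
      (fun u _ hB v => by
        refine l3 u (fun k hk hd => hB (Or.inl ⟨k, hk, hd⟩)) (fun j hj => ?_) v
        by_contra hcon
        exact hB (Or.inr ⟨j, hj, hcon⟩)) u hu hb x
  · intro u hu x t ht
    have ht' : t ∈ BadX Wo z (b ^ m) p0 BadT := by simpa using ht
    refine InstB_11.C2 hWL f act (La := La) (C0 := r + m) (R := 2 + 2 * (r + m)) c nu lam2 rho2
      nuE (by show p0 + p0 + b ^ m + n + La ≤ 2 * p0 + b ^ m + n + La + 1; omega) hz0
      (by show 2 * (b ^ m + p0) ≤ 2 * (b ^ m + p0) + 1; omega) hcp x1 x2 (by omega)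
      (fun i j k l _ _ _ _ hij hkl hne => hc2 i j k l hij hkl hne) ?_ u t hu ht' x
    intro T hT F hF
    refine le_trans (Finset.card_le_card ?_) ((hc3 T (fun k hk => ?_)).trans (by omega))
    · intro ij hij
      obtain ⟨a1, a2, a3, a4⟩ := hF ij hij
      rw [Finset.mem_filter, Finset.mem_product, Finset.mem_range, Finset.mem_range]
      exact ⟨⟨a1, a2⟩, a3, a4⟩
    · exact (hcp k hk).trans (hLa2.trans hT)

theorem main0 (α : Type) [Finite α] (L : Language α) (hL : L.IsRegular) :
    ∃ e : GRegExp α, e.height ≤ 3 ∧ e.lang = L :=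
  of_monoid (k := 3) (fun S _ _ φ s => fib3 α S φ s) L hL

theorem main (α : Type u) [Finite α] (L : Language α) (hL : L.IsRegular) :
    ∃ e : GRegExp α, e.height ≤ 3 ∧ e.lang = L :=
  Crest.Agent.R320.Univ_119.bridge main0 α L hL

end Crest.Agent.R320.Fin_997
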