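import Crest.Agent.R320.Sc2n_937
import Crest.Agent.R320.Top5_120
import Crest.Agent.R320.OutRule_480
import Crest.Agent.R320.Reg_236
import Crest.Agent.R320.ExactR_237
import Crest.Agent.R320.RegKey_186

/-!
# Row 320 (helper186): the row from the zone gadget `UGS`
(937's two schemes + 120's top + 480's walls + 237's exact gadget).
-/

set_option autoImplicit false

namespace Crest.Agent.R320.FinalAsm_186

open Crest.RegLang Crest.Agent.R320.Hk_851 Crest.Agent.R320.Sc2n_937

/-- the zone gadget with ruler -/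
def UGS (S V : Type) [Monoid S] [AddCommGroup V] (act : V → S → V) : Prop :=
  ∃ C0 : ℕ, ∀ K : ℕ, ∃ (N N0 D : ℕ) (x : ℕ → ℕ) (Bad : ℕ → Prop),
    0 < N ∧ 0 < D ∧ (∀ i j, i < j → j < K → x i < x j) ∧ (∀ T, Bad (T + D) ↔ Bad T) ∧
    (∀ k k' l l', k < K → k' < K → l < K → l' < K → k' ≠ k → l' ≠ l →
      x k + x l' < x l + x k' + 2 * N → x l + x k' < x k + x l' + 2 * N → k = l) ∧
    (∀ T, (∀ k, k < K → x k ≤ T) → ∀ J : Finset ℕ,
      (∀ k ∈ J, k < K ∧ ∃ k', k' < K ∧ k' ≠ k ∧ Bad (T + x k' - x k)) → J.card ≤ C0) ∧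
    ∀ (A : Type) (f : A → S), ∃ (lam rho : List A → Option V) (nu : List A → V),
      (∀ p v, lam p = some v → p.length ≤ N) ∧
      (∀ p q v r, lam p = some v → rho q = some r →
        r = act v ((p ++ q).map f).prod + nu (p ++ q)) ∧
      (∀ u : List A, N0 ≤ u.length → ¬ Bad u.length → ∀ v, ∃ p q, p ++ q = u ∧
        lam p = some v ∧ (rho q).isSome) ∧
      (∀ q q' : List A, N0 ≤ q.length → N0 ≤ q'.length → q.take N0 = q'.take N0 →
        ((q.drop N0).map f).prod = ((q'.drop N0).map f).prod → q.length % D = q'.length % D →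
        nu q = nu q')

/-- state form -/
theorem isRegular_of_state' {α S : Type} [Finite α] [Monoid S] [Finite S] (f : α → S)
    (B D : ℕ) (hD : 0 < D) (L : Language α)
    (h : ∀ Z R R' : List α, Z.length = B → (R.map f).prod = (R'.map f).prod →
      R.length % D = R'.length % D → (Z ++ R ∈ L ↔ Z ++ R' ∈ L)) : L.IsRegular := by
  refine RegKey_186.isRegular_of_state f B D hD L ?_
  intro q q' h1 h2 h3 h4 h5
  have e1 : q = q.take B ++ q.drop B := (List.take_append_drop B q).symm
  have e2 : q' = q.take B ++ q'.drop B := by rw [h3, List.take_append_drop]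
  rw [e1, e2]
  refine h _ _ _ (by rw [List.length_take]; omega) h4 ?_
  rw [List.length_drop, List.length_drop]
  have h6 : (q.length - B + B) ≡ (q'.length - B + B) [MOD D] := by
    rw [Nat.sub_add_cancel h1, Nat.sub_add_cancel h2]; exact h5
  exact Nat.ModEq.add_right_cancel' B h6

theorem per_mod {Bad : ℕ → Prop} {D : ℕ} (h : ∀ T, Bad (T + D) ↔ Bad T) {a b : ℕ}
    (hab : a % D = b % D) : Bad a ↔ Bad b := by
  have key : ∀ k a, Bad (a + D * k) ↔ Bad a := by
    intro k
    induction k with
    | zero => intro a; simp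
    | succ k ih =>
      intro a
      rw [Nat.mul_succ, ← Nat.add_assoc, h]
      exact ih a
  rw [← Nat.mod_add_div a D, ← Nat.mod_add_div b D, key, key, hab]

section walls

variable {α : Type} [Finite α] {g : Geo α} (hlen : ∀ P, g.Wo P → g.n ≤ P.length)

include hlen in
theorem HL_Wo : HL 0 ({X | g.Wo X} : Language α) := by
  have hf : ({Q | Q.length = g.n ∧ g.Wo Q} : Set (List α)).Finite :=
    (List.finite_length_le α g.n).subset fun Q hQ => hQ.1.le
  refine (HL.suffix (HL.finite (k := 0) hf)).congr fun w => Iff.symm ?_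
  constructor
  · rintro ⟨v, ⟨hv1, hv2⟩, u, rfl⟩
    exact (g.loc u v hv1.ge).2 hv2
  · intro hw
    have hw' : g.Wo w := hw
    have hl := hlen _ hw'
    refine ⟨w.drop (w.length - g.n), ⟨?_, ?_⟩, List.drop_suffix _ _⟩
    · rw [List.length_drop]; omega
    · have h1 := g.loc (w.take (w.length - g.n)) (w.drop (w.length - g.n))
        (by rw [List.length_drop]; omega)
      rw [List.take_append_drop] at h1
      exact h1.1 hw'

include hlen in
theorem HL_XX : HL 0 ({X | g.XX X} : Language α) := by
  have h1 : HL 0 ({X | g.z ≤ X.length ∧ g.Wo X} : Language α) :=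
    HL.setOf_and (HL.length_ge g.z) (HL_Wo hlen)
  have h2 := h1.mul (HL.length_ge (α := α) (k := 0) 1)
  refine (HL.inf h1 h2.compl).congr fun w => Iff.symm ?_
  constructor
  · rintro ⟨⟨h3, h4⟩, h5⟩
    refine ⟨h3, h4, fun t ht htl hW => h5 ?_⟩
    refine Language.mem_mul.2 ⟨w.take t, ⟨?_, hW⟩, w.drop t, ?_, List.take_append_drop _ _⟩
    · rw [List.length_take]; omega
    · show 1 ≤ (w.drop t).length
      rw [List.length_drop]; omega
  · rintro ⟨h3, h4, h5⟩
    refine ⟨⟨h3, h4⟩, fun h6 => ?_⟩
    obtain ⟨a, ⟨ha1, ha2⟩, b, hb, rfl⟩ := Language.mem_mul.1 h6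
    have hb' : 1 ≤ b.length := hb
    refine h5 a.length ha1 (by rw [List.length_append]; omega) ?_
    rw [List.take_left']
    · exact ha2
    · rfl

end walls

theorem main {α S V : Type} [Finite α] [Monoid S] [Finite S] [AddCommGroup V] [Finite V]
    (act : V → S → V) (hadd : ∀ a b s, act (a + b) s = act a s + act b s)
    (hone : ∀ v, act v 1 = v) (hmul : ∀ v s t, act v (s * t) = act (act v s) t)
    (hfaith : ∀ s t, (∀ v, act v s = act v t) → s = t)
    (hU : UGS S V act) (φ : α → S) (s : S) :
    HL 3 ({w | (w.map φ).prod = s} : Language α) := by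
  classical
  have := Fintype.ofFinite S
  have := Fintype.ofFinite V
  obtain ⟨C0, hU⟩ := hU
  obtain ⟨K, hK⟩ := ExactR_237.exact_gadget α S V φ act (2 * C0 + 2)
  obtain ⟨N, N0, D, c, BadT, hN, hD, hcinc, hper, hsp, hthin, hgad⟩ := hU K
  obtain ⟨lam2, rho2, nu2, hs2, hc2⟩ := hK c hcinc
  obtain ⟨lam, rho, nu1, hlen, hsound, hcomp, hst⟩ := hgad α φ
  obtain ⟨p0, hp0⟩ : ∃ p0, ∀ k, k < K → c k ≤ p0 :=
    ⟨(Finset.range K).sup c, fun k hk => Finset.le_sup (f := c) (Finset.mem_range.2 hk)⟩
  obtain ⟨n, Wo, hn, hWlen, hWloc, hWgap, hWHL⟩ :=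
    OutRule_480.outer_rule_left (α := α) (2 * p0 + 2 * N + 1)
  let g : Geo α := ⟨Wo, n, p0 + N + (n + 2 * p0 + N0), p0, n + 2 * p0 + N0, N, hWloc, rfl,
    by omega, hN, by omega⟩
  have gz : g.z = p0 + N + (n + 2 * p0 + N0) := rfl
  have gp : g.p0 = p0 := rfl
  let pre : List α → V → V := fun X v => act v (X.map φ).prod + nu2 X 1
  let post : V → List α → V := fun u Y => act u (Y.map φ).prod + nu1 Y
  let nu : List α → V := fun X =>
    act (nu2 (X.take p0) 1) ((X.drop p0).map φ).prod + nu1 (X.drop p0)
  have hT : ∀ v X, g.T pre post v X = act v (X.map φ).prod + nu X := by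
    intro v X
    show act (act v ((X.take p0).map φ).prod + nu2 (X.take p0) 1) ((X.drop p0).map φ).prod
      + nu1 (X.drop p0) = act v (X.map φ).prod +
      (act (nu2 (X.take p0) 1) ((X.drop p0).map φ).prod + nu1 (X.drop p0))
    rw [hadd, ← hmul, ← List.prod_append, ← List.map_append, List.take_append_drop, add_assoc]
  have hex1 : ∀ P Q u b, lam P = some u → rho Q = some b → b = post u (P ++ Q) :=
    fun P Q u b h1 h2 => hsound P Q u b h1 h2
  have hex2 : ∀ k, k < K → ∀ P Q v u, P.length = c k → Q.length = g.p0 - c k →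
      lam2 k P = some v → rho2 k Q 1 = some u → u = pre (P ++ Q) v := by
    intro k hk P Q v u h1 _ h3 h4
    have := hs2 k hk P Q 1 v u h1 h3 h4
    rw [mul_one] at this
    exact this
  have hgap : ∀ P Q : List α, g.Wo P → g.Wo (P ++ Q) → Q ≠ [] →
      2 * g.p0 + 2 * g.N1 < Q.length := by
    intro P Q h1 h2 h3
    have h4 := hWgap (P ++ Q) Q.length h2 (List.length_pos_iff.2 h3)
      (by rw [List.length_append]; omega)
    have e : (P ++ Q).take ((P ++ Q).length - Q.length) = P := by
      rw [List.length_append, Nat.add_sub_cancel, List.take_left']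
      rfl
    rw [e] at h4
    have := h4 h1
    show 2 * p0 + 2 * N < Q.length
    omega
  have hgt : ∀ P, g.Wo P → g.n ≤ P.length := hWlen
  -- the code
  let C : Set (List α) := {X | g.XX X}
  let Bad : Set (List α) := {X | g.XX X ∧ g.BadX BadT X}
  have hPC : Crest.Agent.R320.Blk467.PCode C := by
    refine ⟨fun h => ?_, ?_⟩
    · have h1 : g.z ≤ 0 := h.1
      omega
    · rintro X hX Y hY ⟨R, hR⟩
      exact g.prefix_code (R := R) (R' := []) hX hY (by rw [hR, List.append_nil])
  -- regularity
  have hregXX : Language.IsRegular ({X | g.XX X} : Language α) := Reg_236.HL.isRegular (HL_XX hgt)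
  have hstate : ∀ Z R R' : List α, Z.length = g.z + N + N0 →
      (R.map φ).prod = (R'.map φ).prod → R.length % D = R'.length % D →
      ((Z ++ R).map φ).prod = ((Z ++ R').map φ).prod ∧ nu (Z ++ R) = nu (Z ++ R') := by
    intro Z R R' hZ h1 h2
    refine ⟨by rw [List.map_append, List.map_append, List.prod_append, List.prod_append, h1], ?_⟩
    show act (nu2 ((Z ++ R).take p0) 1) (((Z ++ R).drop p0).map φ).prod + nu1 ((Z ++ R).drop p0) =
      act (nu2 ((Z ++ R').take p0) 1) (((Z ++ R').drop p0).map φ).prod + nu1 ((Z ++ R').drop p0)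
    rw [List.take_append_of_le_length (by omega), List.take_append_of_le_length (by omega),
      List.drop_append_of_le_length (by omega), List.drop_append_of_le_length (by omega)]
    congr 1
    · rw [List.map_append, List.map_append, List.prod_append, List.prod_append, h1]
    · have hZd : N0 ≤ (Z.drop p0).length := by rw [List.length_drop]; omega
      refine hst _ _ ?_ ?_ ?_ ?_ ?_
      · rw [List.length_append]; omega
      · rw [List.length_append]; omega
      · rw [List.take_append_of_le_length hZd, List.take_append_of_le_length hZd]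
      · rw [List.drop_append_of_le_length hZd, List.drop_append_of_le_length hZd,
          List.map_append, List.map_append, List.prod_append, List.prod_append, h1]
      · rw [List.length_append, List.length_append, Nat.add_mod, h2, ← Nat.add_mod]
  have hEst : ∀ Z R R' : List α, Z.length = g.z + N + N0 → (g.E (Z ++ R) → g.E (Z ++ R')) := by
    rintro Z R R' hZ ⟨t, ht, hW, h1, h2⟩
    have h2' : t < g.z + N := h2
    refine ⟨t, by rw [List.length_append]; omega, ?_, h1, h2⟩
    rw [List.take_append_of_le_length (by omega)] at hW ⊢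
    exact hW
  have hBadst : ∀ Z R R' : List α, Z.length = g.z + N + N0 → R.length % D = R'.length % D →
      (g.BadX BadT (Z ++ R) ↔ g.BadX BadT (Z ++ R')) := by
    intro Z R R' hZ h2
    refine or_congr ⟨hEst Z R R' hZ, hEst Z R' R hZ⟩ (per_mod hper ?_)
    show ((Z ++ R).length - p0) % D = ((Z ++ R').length - p0) % D
    have e1 : (Z ++ R).length - p0 = (Z.length - p0) + R.length := by
      rw [List.length_append]; omega
    have e2 : (Z ++ R').length - p0 = (Z.length - p0) + R'.length := by
      rw [List.length_append]; omega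
    rw [e1, e2, Nat.add_mod, h2, ← Nat.add_mod]
  -- few walls
  have hfew : ∀ w : List α, g.XX w → ∀ F : Finset ℕ, (∀ x ∈ F, x ≤ w.length ∧ Wo (w.take x)) →
      F.card ≤ g.z + 1 := by
    intro w hw F hF
    have hsub : F ⊆ insert w.length (Finset.range g.z) := by
      intro x hx
      obtain ⟨h1, h2⟩ := hF x hx
      rw [Finset.mem_insert, Finset.mem_range]
      by_contra hcon
      push Not at hcon
      exact hw.2.2 x hcon.2 (lt_of_le_of_ne h1 hcon.1) h2
    calc F.card ≤ _ := Finset.card_le_card hsub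
      _ ≤ (Finset.range g.z).card + 1 := Finset.card_insert_le _ _
      _ = g.z + 1 := by rw [Finset.card_range]
  have hCT : ∀ x y, HL 1 ({X | X ∈ C ∧ act x (X.map φ).prod + nu X = y} : Language α) := by
    intro x y
    refine hWHL (g.z + 1) _ ?_ fun w hw F hF => hfew w hw.1 F hF
    have hr : Language.IsRegular ({X | act x (X.map φ).prod + nu X = y} : Language α) := by
      refine isRegular_of_state' φ (g.z + N + N0) D hD _ fun Z R R' hZ h1 h2 => ?_
      obtain ⟨e1, e2⟩ := hstate Z R R' hZ h1 h2
      show act x ((Z ++ R).map φ).prod + nu (Z ++ R) = y ↔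
        act x ((Z ++ R').map φ).prod + nu (Z ++ R') = y
      rw [e1, e2]
    exact hregXX.inf hr
  have hBT : ∀ x y, HL 1 ({X | X ∈ Bad ∧ act x (X.map φ).prod + nu X = y} : Language α) := by
    intro x y
    refine hWHL (g.z + 1) _ ?_ fun w hw F hF => hfew w hw.1.1 F hF
    have hr : Language.IsRegular
        ({X | g.BadX BadT X ∧ act x (X.map φ).prod + nu X = y} : Language α) := by
      refine isRegular_of_state' φ (g.z + N + N0) D hD _ fun Z R R' hZ h1 h2 => ?_
      obtain ⟨e1, e2⟩ := hstate Z R R' hZ h1 h2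
      show (g.BadX BadT (Z ++ R) ∧ act x ((Z ++ R).map φ).prod + nu (Z ++ R) = y) ↔
        (g.BadX BadT (Z ++ R') ∧ act x ((Z ++ R').map φ).prod + nu (Z ++ R') = y)
      rw [e1, e2, hBadst Z R R' hZ h2]
    have e : ({X | X ∈ Bad ∧ act x (X.map φ).prod + nu X = y} : Language α) =
        ({X | g.XX X} : Language α) ⊓
          ({X | g.BadX BadT X ∧ act x (X.map φ).prod + nu X = y} : Language α) := by
      ext X
      exact and_assoc
    rw [e]
    exact hregXX.inf hr
  have htail : ∀ s, HL 1 ({w | (∀ X ∈ C, ¬ X <+: w) ∧ (w.map φ).prod = s} : Language α) := by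
    intro s
    refine hWHL g.z _ ?_ fun w hw F hF => ?_
    · have h1 : HL 0 ({w | ¬ ∃ v ∈ ({X | g.XX X} : Language α), v <+: w} : Language α) :=
        HL.setOf_not (HL.prefix (HL_XX hgt))
      have hr : Language.IsRegular ({w | (w.map φ).prod = s} : Language α) := by
        refine isRegular_of_state' φ 0 1 one_pos _ fun Z R R' hZ h1 h2 => ?_
        show ((Z ++ R).map φ).prod = s ↔ ((Z ++ R').map φ).prod = s
        rw [List.map_append, List.map_append, List.prod_append, List.prod_append, h1]
      have e : ({w | (∀ X ∈ C, ¬ X <+: w) ∧ (w.map φ).prod = s} : Language α) =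
          ({w | ¬ ∃ v ∈ ({X | g.XX X} : Language α), v <+: w} : Language α) ⊓
            ({w | (w.map φ).prod = s} : Language α) := by
        ext w
        refine and_congr ?_ Iff.rfl
        constructor
        · rintro h ⟨v, hv, hp⟩
          exact h v hv hp
        · intro h X hX hp
          exact h ⟨X, hX, hp⟩
      rw [e]
      exact (Reg_236.HL.isRegular h1).inf hr
    · have hsub : F ⊆ Finset.range g.z := by
        intro x hx
        obtain ⟨h1, h2⟩ := hF x hx
        rw [Finset.mem_range]
        by_contra hcon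
        push Not at hcon
        have hexx : ∃ t, g.z ≤ t ∧ t ≤ w.length ∧ Wo (w.take t) := ⟨x, hcon, h1, h2⟩
        have hspec := Nat.find_spec hexx
        have hmin := fun m (hm : m < Nat.find hexx) => Nat.find_min hexx hm
        refine hw.1 (w.take (Nat.find hexx)) ⟨?_, hspec.2.2, ?_⟩ (List.take_prefix _ _)
        · rw [List.length_take]; omega
        · intro t ht htl hW
          rw [List.length_take] at htl
          have htl' : t < Nat.find hexx := by omega
          rw [List.take_take, Nat.min_eq_left htl'.le] at hW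
          exact hmin t htl' ⟨ht, by omega, hW⟩
      calc F.card ≤ _ := Finset.card_le_card hsub
        _ = g.z := Finset.card_range _
  refine Top5_120.top5 act hadd hone hmul hfaith φ nu C Bad hPC (fun X hX => hX.1)
    (fun v => {P | g.LP1 pre lam v P}) (fun v => {P | Geo.LP2 K c lam2 v P}) ?_ ?_ hCT hBT htail
    ?_ ?_ s
  · intro v
    refine (List.finite_length_le α (p0 + N)).subset fun P hP => ?_
    have h1 := hlen _ _ hP.2
    have h2 : (P.drop p0).length ≤ N := h1
    rw [List.length_drop] at h2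
    show P.length ≤ p0 + N
    omega
  · intro v
    refine (List.finite_length_le α p0).subset fun P hP => ?_
    obtain ⟨k, hk, h1, -⟩ := hP
    show P.length ≤ p0
    rw [h1]; exact hp0 k hk
  · intro X hX hXB v
    have hX' : g.XX X := hX
    have hE : ¬ g.E X := fun h => hXB ⟨hX, Or.inl h⟩
    have hB : ¬ BadT (X.length - p0) := fun h => hXB ⟨hX, Or.inr h⟩
    have hXz := hX'.1
    obtain ⟨P, Q, b, hXe, hP, hQ⟩ := g.complete1 pre (rho := rho) hlen hX' hE (fun u => by
      obtain ⟨p, q, h1, h2, h3⟩ := hcomp (X.drop p0) (by rw [List.length_drop]; omega)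
        (by rw [List.length_drop]; exact hB) u
      exact ⟨p, q, h1.symm, h2, h3⟩) v
    refine ⟨P, Q, hXe.symm, hP, fun x P' hP' => ?_⟩
    obtain ⟨h1, h2⟩ := g.sound1 pre post hlen hex1 hP' hQ
    obtain ⟨-, h3⟩ := g.sound1 pre post hlen hex1 hP hQ
    refine ⟨h1, ?_⟩
    rw [← hT, h2, ← hT, hXe, h3]
  · intro X hX Y hY v
    have hXz := hX.1.1
    obtain ⟨P, Q, b, hPQ, hP, hQ⟩ := g.complete2 pre post (BadT := BadT) (K := K) (c := c)
      (lam2 := lam2) (rho2 := fun k Q => rho2 k Q 1) (C0 := C0) hp0 hgap hsp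
      (fun τ hτ J hJ => hthin (τ - p0) (fun k hk => by have := hp0 k hk; omega) J
        (fun k hk => by
          obtain ⟨h1, k', h2, h3, h4⟩ := hJ k hk
          refine ⟨h1, k', h2, h3, ?_⟩
          have e : τ - p0 + c k' - c k = τ + c k' - c k - g.p0 := by
            have := hp0 k h1
            show τ - p0 + c k' - c k = τ + c k' - c k - p0
            omega
          rw [e]; exact h4)) hX.1 hY.1 v (by
        obtain ⟨I, hI1, hI2⟩ := hc2 (X.take p0) 1 v (fun k hk => by
          have := hp0 k hk
          rw [List.length_take]; omega)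
        refine ⟨I, hI1, fun k hk => ?_⟩
        obtain ⟨h1, h2, h3⟩ := hI2 k hk
        refine ⟨h1, ?_, h3⟩
        rw [List.take_take, Nat.min_eq_left (hp0 k h1)] at h2
        exact h2)
    have hval : g.T pre post (g.T pre post v X) Y = b := by
      obtain ⟨X2, -, e, ht⟩ := g.sound2 pre post hp0 hex2 hX.1 hX.2 hP hQ (R := []) (R' := Y)
        (by rw [List.append_nil, hPQ])
      rw [hPQ] at e
      rw [← List.append_cancel_left e] at ht
      exact ht
    refine ⟨P, Q, hPQ, hP, fun x P' hP' => ?_⟩
    have hcend : ∃ l, g.CEnd Q P'.length l := by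
      obtain ⟨k', hk', h1, -⟩ := hP'
      obtain ⟨k, hk, l, hend, hgood, -⟩ := hQ
      rw [h1]
      by_cases hkk : k' = k
      · subst hkk; exact ⟨l, hend⟩
      · obtain ⟨l', h2, -⟩ := hgood k' hk' hkk
        exact ⟨l', h2⟩
    have hPl : P'.length ≤ g.p0 := by
      obtain ⟨k', hk', h1, -⟩ := hP'
      rw [h1]; exact hp0 k' hk'
    obtain ⟨l, hl⟩ := hcend
    have hXX' : g.XX (P' ++ Q.take l) := g.xx_of_cend hPl hl
    by_cases hb : g.BadX BadT (P' ++ Q.take l)
    · left
      obtain ⟨X2, hX2, e, ht⟩ := g.sound2 pre post hp0 hex2 hXX' hb hP' hQ (R := [])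
        (R' := Q.drop l) (by rw [List.append_nil, List.append_assoc, List.take_append_drop])
      refine ⟨P' ++ Q.take l, ⟨hXX', hb⟩, X2, hX2, e.symm, ?_⟩
      simp only [← hT]
      exact ht.trans hval.symm
    · right
      refine ⟨P' ++ Q.take l, hXX', fun h => hb h.2, ⟨Q.drop l, ?_⟩⟩
      rw [List.append_assoc, List.take_append_drop]

end Crest.Agent.R320.FinalAsm_186
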