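import Crest.Agent.R320.TopSem_442
import Crest.Agent.R320.Joint47_109
import Crest.Agent.R320.P4N_211
import Crest.Agent.R320.WallU_228
import Crest.Agent.R320.Univ_294
import Crest.Agent.R320.GridRuler_896
import Crest.Agent.R320.GridG_19

/-!
# Row 320: assembly (helper109)

Top `TopSem_442.top_sem`, geometry `Joint47_109`, heights `P4N_211`, walls `WallU_228`, gadget 1
`GridG_19`, gadget 2 `ExactR_237`, ruler `GridRuler_896`, universes `Univ_294`.
-/

set_option autoImplicit false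

namespace Crest.Agent.R320.Final_109

open Crest.Agent.R320
open Crest.Agent.R320.Hk_851
open Crest.Agent.R320.ExactR_237 (pr pr_append)

/-- two words with the same long prefix are equal or both long -/
theorem long_or_eq {A : Type} {K : ℕ} {X X' : List A} (h : X.take K = X'.take K) :
    X = X' ∨ (K ≤ X.length ∧ K ≤ X'.length) := by
  have hl := congrArg List.length h
  rw [List.length_take, List.length_take] at hl
  rcases le_or_gt K X.length with h1 | h1
  · right
    refine ⟨h1, ?_⟩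
    omega
  · left
    have h2 : X'.length < K := by omega
    rwa [List.take_of_length_le h1.le, List.take_of_length_le h2.le] at h

theorem take_of_take {A : Type} {K t : ℕ} {X X' : List A} (h : X.take K = X'.take K) (ht : t ≤ K) :
    X.take t = X'.take t := by
  have := congrArg (List.take t) h
  rwa [List.take_take, List.take_take, min_eq_left ht] at this

/-- bad totals of gadget 1 -/
def BadT (Ms : Finset ℕ) (G : ℕ → ℕ) (m : ℕ) (T : ℕ) : Prop :=
  GridG_19.Am G (∏ q ∈ Ms, q) 0 m ≤ T ∧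
    ((∃ q ∈ Ms, q ∣ T) ∨ GridG_19.BadG G (∏ q ∈ Ms, q) 0 m T)

theorem badT_congr {Ms : Finset ℕ} {G : ℕ → ℕ} {m T T' : ℕ}
    (hd : ∀ a b, a ≤ b → G a ∣ G b)
    (h1 : GridG_19.Am G (∏ q ∈ Ms, q) 0 m ≤ T) (h2 : GridG_19.Am G (∏ q ∈ Ms, q) 0 m ≤ T')
    (h : T ≡ T' [MOD (∏ q ∈ Ms, q) * G m]) (hb : BadT Ms G m T) : BadT Ms G m T' := by
  refine ⟨h2, ?_⟩
  rcases hb.2 with ⟨q, hq, hqT⟩ | ⟨k, hk, hkT⟩
  · left
    refine ⟨q, hq, ?_⟩
    have h3 : T ≡ T' [MOD q] := h.of_dvd ((Finset.dvd_prod_of_mem _ hq).trans (dvd_mul_right _ _))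
    exact (Nat.ModEq.dvd_iff h3 dvd_rfl).1 hqT
  · right
    refine ⟨k, hk, ?_⟩
    have hA : GridG_19.Am G (∏ q ∈ Ms, q) 0 (k + 1) ≤ GridG_19.Am G (∏ q ∈ Ms, q) 0 m :=
      GridG_19.Am_mono _ _ _ hk
    have h3 : T ≡ T' [MOD G (k + 1)] := h.of_dvd ((hd _ _ hk).trans (dvd_mul_left _ _))
    have h4 : T - GridG_19.Am G (∏ q ∈ Ms, q) 0 (k + 1) ≡
        T' - GridG_19.Am G (∏ q ∈ Ms, q) 0 (k + 1) [MOD G (k + 1)] := by
      have e1 : T = (T - GridG_19.Am G (∏ q ∈ Ms, q) 0 (k + 1)) +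
        GridG_19.Am G (∏ q ∈ Ms, q) 0 (k + 1) := by omega
      have e2 : T' = (T' - GridG_19.Am G (∏ q ∈ Ms, q) 0 (k + 1)) +
        GridG_19.Am G (∏ q ∈ Ms, q) 0 (k + 1) := by omega
      have h5 := h3
      rw [e1, e2] at h5
      exact Nat.ModEq.add_right_cancel' _ h5
    rw [← show (T - GridG_19.Am G (∏ q ∈ Ms, q) 0 (k + 1)) % G (k + 1) =
      (T' - GridG_19.Am G (∏ q ∈ Ms, q) 0 (k + 1)) % G (k + 1) from h4]
    exact hkT

/-- bad totals are bad in the sense of the ruler -/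
theorem badZ_of_badT {Ms : Finset ℕ} {κ m T : ℕ}
    (h : BadT Ms (fun k => (2 ^ κ) ^ k) m T) :
    GridRuler_896.BadZ Ms (∏ q ∈ Ms, q) (2 ^ κ) m
      (fun j => (GridG_19.Am (fun k => (2 ^ κ) ^ k) (∏ q ∈ Ms, q) 0 j : ℤ)) (T : ℤ) := by
  obtain ⟨hT, ⟨q, hq, hqT⟩ | ⟨k, hk, hkT⟩⟩ := h
  · left
    exact ⟨q, hq, by exact_mod_cast hqT⟩
  · right
    refine ⟨k + 1, by omega, by omega, ?_⟩
    have hA : GridG_19.Am (fun k => (2 ^ κ) ^ k) (∏ q ∈ Ms, q) 0 (k + 1) ≤ T :=
      (GridG_19.Am_mono _ _ _ (by omega)).trans hT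
    set A := GridG_19.Am (fun k => (2 ^ κ) ^ k) (∏ q ∈ Ms, q) 0 (k + 1) with hAd
    have e : T - A = (2 ^ κ) ^ (k + 1) * ((T - A) / (2 ^ κ) ^ (k + 1)) +
      (T - A) % (2 ^ κ) ^ (k + 1) := (Nat.div_add_mod _ _).symm
    have hlt : (T - A) % (2 ^ κ) ^ (k + 1) < (2 ^ κ) ^ (k + 1) := Nat.mod_lt _ (by positivity)
    have eZ : (T : ℤ) - A = ((2 : ℤ) ^ κ) ^ (k + 1) * (((T - A) / (2 ^ κ) ^ (k + 1) : ℕ) : ℤ) +
      (((T - A) % (2 ^ κ) ^ (k + 1) : ℕ) : ℤ) := by
      rw [← Nat.cast_sub hA]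
      exact_mod_cast e
    have hk1 : k + 1 - 1 = k := rfl
    rcases hkT with h1 | h1
    · refine ⟨(((T - A) / (2 ^ κ) ^ (k + 1) : ℕ) : ℤ), ?_⟩
      have h1' : (((T - A) % (2 ^ κ) ^ (k + 1) : ℕ) : ℤ) < ((∏ q ∈ Ms, q : ℕ) : ℤ) * ((2 : ℤ) ^ κ) ^ k := by
        exact_mod_cast h1
      have h0 : (0 : ℤ) ≤ (((T - A) % (2 ^ κ) ^ (k + 1) : ℕ) : ℤ) := Int.natCast_nonneg _
      rw [hk1]
      push_cast
      rw [eZ] 
      rw [abs_le]
      push_cast at h1' h0 ⊢
      constructor <;> nlinarith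
    · refine ⟨(((T - A) / (2 ^ κ) ^ (k + 1) : ℕ) : ℤ) + 1, ?_⟩
      have h1' : ((2 : ℤ) ^ κ) ^ (k + 1) ≤ (((T - A) % (2 ^ κ) ^ (k + 1) : ℕ) : ℤ) +
          ((∏ q ∈ Ms, q : ℕ) : ℤ) * ((2 : ℤ) ^ κ) ^ k := by
        exact_mod_cast h1
      have h2' : (((T - A) % (2 ^ κ) ^ (k + 1) : ℕ) : ℤ) < ((2 : ℤ) ^ κ) ^ (k + 1) := by
        exact_mod_cast hlt
      have h0 : (0 : ℤ) ≤ ((∏ q ∈ Ms, q : ℕ) : ℤ) * ((2 : ℤ) ^ κ) ^ k := by positivity
      rw [hk1]
      push_cast
      rw [eZ]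
      rw [abs_le]
      push_cast at h1' h2' h0 ⊢
      constructor <;> nlinarith

theorem main (A : Type) [Finite A] (S : Type) [Monoid S] [Finite S] (f : A → S) (s : S) :
    HL 3 ({w | (w.map f).prod = s} : Language A) := by
  classical
  have : Fintype S := Fintype.ofFinite S
  obtain ⟨act, hadd, hone, hmul, hfaith⟩ := Blk467.exists_module S
  have : Fintype (S → ZMod 2) := Fintype.ofFinite _
  obtain ⟨m, r, hgrid⟩ := GridG_19.grid S (S → ZMod 2) act
  obtain ⟨K, hK⟩ := ExactR_237.exact_gadget A S (S → ZMod 2) f act (2 * (r + m) + 2)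
  obtain ⟨Ms, hcard, hpr, hgr⟩ := hgrid (2 ^ (K + 1))
  have hM : 0 < ∏ q ∈ Ms, q := Finset.prod_pos fun q hq => (hpr q hq).1.pos
  obtain ⟨κ, hκ⟩ : ∃ κ : ℕ, 2 ^ (K + 6) * (∏ q ∈ Ms, q) ≤ 2 ^ κ :=
    ⟨_, Nat.lt_two_pow_self.le⟩
  set G : ℕ → ℕ := fun k => (2 ^ κ) ^ k with hG
  have hGpos : ∀ k, 0 < G k := fun k => by simp only [hG]; positivity
  have hGd : ∀ a b, a ≤ b → G a ∣ G b := fun a b hab => pow_dvd_pow _ hab
  have hGc : ∀ k, Nat.Coprime (∏ q ∈ Ms, q) (G k) := by
    intro k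
    refine Nat.Coprime.pow_right _ (Nat.Coprime.pow_right _ ?_)
    refine Nat.Coprime.prod_left fun q hq => ?_
    obtain ⟨h1, h2⟩ := hpr q hq
    have h3 : 2 ≤ 2 ^ (K + 1) := by
      calc 2 = 2 ^ 1 := rfl
        _ ≤ 2 ^ (K + 1) := Nat.pow_le_pow_right (by norm_num) (by omega)
    exact (Nat.coprime_primes h1 Nat.prime_two).2 (by omega)
  obtain ⟨lam, rho, nu1, hS, hlen, hrl, hcomp, hnu⟩ :=
    hgr G 0 hGpos hGd hGc A (pr f) (fun u v => pr_append f u v)
  set M := ∏ q ∈ Ms, q with hMdef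
  set N1 := GridG_19.Am G M 0 m with hN1
  obtain ⟨X, hX, hspoil⟩ := GridRuler_896.exists_ruler K m Ms
    (fun p hp => ⟨(hpr p hp).1, (hpr p hp).2⟩) M hM (fun p hp => Finset.dvd_prod_of_mem _ hp) κ hκ
    (2 * N1)
  set c : ℕ → ℕ := fun k => X * 2 ^ k with hc
  have hX0 : 0 < X := by omega
  have hinc : ∀ i j, i < j → j < K → c i < c j := by
    intro i j hij _
    exact Nat.mul_lt_mul_of_pos_left (Nat.pow_lt_pow_right (by norm_num) hij) hX0
  obtain ⟨lam2, rho2, nu2, hS2, hC2⟩ := hK c hinc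
  set p0 := X * 2 ^ K with hp0
  have hcp : ∀ k, k < K → c k ≤ p0 := by
    intro k hk
    exact Nat.mul_le_mul_left _ (Nat.pow_le_pow_right (by norm_num) hk.le)
  obtain ⟨n, Wo, loc, wlen, gap, R, B, pcs⟩ := WallU_228.walls (α := A) (2 * (N1 + p0) + 1)
  set z := 3 * p0 + n + N1 + 1 + (p0 + (2 * N1 + M)) with hz
  have hLW : Joint47_109.LW n (2 * (N1 + p0) + 1) Wo := by
    refine ⟨wlen, loc, ?_⟩
    intro U s t hst ht hs ht'
    by_contra hcon
    have hl : (U.take t).length = t := by rw [List.length_take]; omega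
    refine gap (U.take t) (t - s) ht' (by omega) (by omega) ?_
    rw [hl, List.take_take, min_eq_left (by omega)]
    have : t - (t - s) = s := by omega
    rw [this]; exact hs
  -- the final data
  set XX : Set (List A) := Joint47_109.Zn Wo z with hXX
  set Bd : Set (List A) := {U | U ∈ XX ∧ Joint47_109.Bad Wo z N1 p0 (BadT Ms G m) U} with hBd
  set T : (S → ZMod 2) → List A → (S → ZMod 2) :=
    Joint47_109.T f act p0 (fun U => nu2 U 1) nu1 with hT
  have hkeyT : ∀ v (U U' : List A), U.take (p0 + GridG_19.Ac G M 0 m + z + N1) =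
      U'.take (p0 + GridG_19.Ac G M 0 m + z + N1) → U.length % (M * G m) = U'.length % (M * G m) →
      pr f (U.drop p0) = pr f (U'.drop p0) → T v U = T v U' := by
    intro v U U' h1 h2 h3
    rcases long_or_eq h1 with h4 | ⟨h4, h5⟩
    · rw [h4]
    · have e1 : U.take p0 = U'.take p0 := take_of_take h1 (by omega)
      have e2 : (U.drop p0).take (GridG_19.Ac G M 0 m) =
          (U'.drop p0).take (GridG_19.Ac G M 0 m) := by
        have := congrArg (List.drop p0) (take_of_take h1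
          (by omega : p0 + GridG_19.Ac G M 0 m ≤ p0 + GridG_19.Ac G M 0 m + z + N1))
        rw [List.drop_take, List.drop_take] at this
        simpa using this
      have e3 : nu1 (U.drop p0) = nu1 (U'.drop p0) := by
        refine hnu _ _ (by rw [List.length_drop]; omega) (by rw [List.length_drop]; omega) e2 ?_ h3
        rw [List.length_drop, List.length_drop]
        have h6 : U.length ≡ U'.length [MOD (M * G m)] := h2
        have e4 : U.length = (U.length - p0) + p0 := by omega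
        have e5 : U'.length = (U'.length - p0) + p0 := by omega
        rw [e4, e5] at h6
        exact Nat.ModEq.add_right_cancel' _ h6
      simp only [hT, Joint47_109.T]
      rw [e1, e3, h3]
  have hkeyB : ∀ (U U' : List A), U.take (p0 + GridG_19.Ac G M 0 m + z + N1) =
      U'.take (p0 + GridG_19.Ac G M 0 m + z + N1) → U.length % (M * G m) = U'.length % (M * G m) →
      Joint47_109.Bad Wo z N1 p0 (BadT Ms G m) U → Joint47_109.Bad Wo z N1 p0 (BadT Ms G m) U' := by
    intro U U' h1 h2 h3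
    rcases long_or_eq h1 with h4 | ⟨h4, h5⟩
    · rw [← h4]; exact h3
    · rcases h3 with ⟨t, t1, t2, t3, t4⟩ | h3
      · left
        refine ⟨t, t1, t2, by omega, ?_⟩
        rw [← take_of_take h1 (by omega : t ≤ _)]
        exact t4
      · right
        have hAc : N1 ≤ GridG_19.Ac G M 0 m := Nat.le_add_right _ _
        refine badT_congr hGd ?_ ?_ ?_ h3
        · show N1 ≤ _
          omega
        · show N1 ≤ _
          omega
        · have h6 : U.length ≡ U'.length [MOD (M * G m)] := h2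
          have e4 : U.length = (U.length - p0) + p0 := by omega
          have e5 : U'.length = (U'.length - p0) + p0 := by omega
          rw [e4, e5] at h6
          exact Nat.ModEq.add_right_cancel' _ h6
  have hMG : 0 < M * G m := Nat.mul_pos hM (hGpos m)
  have hfiX : ∀ v v', HL 1 ({U | U ∈ XX ∧ T v U = v'} : Language A) := fun v v' =>
    P4N_211.hXT' (z := z) (φ := pr f) (fun u v => pr_append f u v) loc wlen pcs (T v)
      (p0 + GridG_19.Ac G M 0 m + z + N1) (M * G m) p0 hMG (hkeyT v) v'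
  have hfiB : ∀ v v', HL 1 ({U | U ∈ Bd ∧ T v U = v'} : Language A) := by
    intro v v'
    have h := P4N_211.hXT' (z := z) (φ := pr f) (fun u v => pr_append f u v) loc wlen pcs
      (fun U => (T v U, Joint47_109.Bad Wo z N1 p0 (BadT Ms G m) U))
      (p0 + GridG_19.Ac G M 0 m + z + N1) (M * G m) p0 hMG
      (fun U U' h1 h2 h3 => by
        refine Prod.ext (hkeyT v U U' h1 h2 h3) ?_
        exact propext ⟨hkeyB U U' h1 h2, hkeyB U' U h1.symm h2.symm⟩) (v', True)
    refine h.congr fun w => ?_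
    constructor
    · rintro ⟨⟨h1, h2⟩, h3⟩
      exact ⟨h1, Prod.ext h3 (eq_true h2)⟩
    · rintro ⟨h1, h2⟩
      have h3 := congrArg Prod.fst h2
      have h4 := congrArg Prod.snd h2
      exact ⟨⟨h1, of_eq_true h4⟩, h3⟩
  refine TopSem_442.top_sem f act hadd hone hmul hfaith
    (fun U => act (nu2 (U.take p0) 1) (pr f (U.drop p0)) + nu1 (U.drop p0)) T ?_ XX Bd
    ⟨?_, ?_⟩ (fun U hU => hU.1)
    (fun v => {P | Joint47_109.L1 f act p0 (fun U => nu2 U 1) lam v P})
    (fun v => {P | Joint47_109.L2 K c lam2 v P}) ?_ ?_ hfiX hfiB ?_ ?_ ?_ s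
  · intro v U
    simp only [hT, Joint47_109.T]
    rw [hadd, ← hmul, ← pr_append, List.take_append_drop, add_assoc]
    rfl
  · rintro ⟨h1, -⟩
    simp at h1
    omega
  · intro U hU Y hY h
    exact Joint47_109.Zn_prefix hU hY h (List.prefix_refl Y)
  · intro v
    refine (List.finite_length_lt A (p0 + N1)).subset ?_
    rintro P ⟨h1, h2⟩
    have h3 := (hlen _ _ h2).2
    rw [List.length_drop] at h3
    show P.length < p0 + N1
    omega
  · intro v
    refine (List.finite_length_le A p0).subset ?_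
    rintro P ⟨k, hk, h1, -⟩
    show P.length ≤ p0
    rw [h1]; exact hcp k hk
  · intro s
    exact (P4N_211.hNP (φ := pr f) (fun u v => pr_append f u v) loc wlen pcs s).mono (by norm_num)
  · intro U hU hUB v
    obtain ⟨p, q, h1, h2, h3, h4⟩ := Joint47_109.complete1 f act p0 (fun U => nu2 U 1) nu1 hLW
      (N1 := N1) (N0 := 2 * N1 + M) (z := z) (BadT := BadT Ms G m) hS
      (fun P v h => (hlen P v h).2.le)
      (fun Y hY hYB v => by
        have hYA : N1 ≤ Y.length := by omega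
        obtain ⟨P, Q, a1, a2, a3⟩ := hcomp Y (by omega) (by omega)
          (fun q hq hqY => hYB ⟨hYA, Or.inl ⟨q, hq, hqY⟩⟩)
          (fun hb => hYB ⟨hYA, Or.inr hb⟩) v
        exact ⟨P, Q, a1.symm, a2, a3⟩)
      (by omega) (by omega) hU (fun hb => hUB ⟨hU, hb⟩) v
    exact ⟨p, q, h1.symm, h2, fun v' P' hP' => h4 v' P' hP'⟩
  · intro U hU U' hU' v
    obtain ⟨p, q, h1, h2, h3, h4⟩ := Joint47_109.complete2 f act p0 nu1 hLW
      (N1 := N1) (z := z) (R1 := r + m) (BadT := BadT Ms G m) hS2 hC2 hinc hcp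
      (by
        intro i i' j j' hi hi' hj hj' hii hjj e1 e2
        by_contra hij
        rcases GridRuler_896.spaced hX (a := i) (b := i') (c := j) (d := j') (Ne.symm hii)
          (Ne.symm hjj) (fun e => hij (congrArg Prod.fst e)) with h | h
        · simp only [hc] at e1 e2
          omega
        · simp only [hc] at e1 e2
          omega)
      (by
        intro T hT I hI
        have hch : ∀ k ∈ I, ∃ k', k' < K ∧ k' ≠ k ∧ BadT Ms G m (T + c k' - c k) :=
          fun k hk => (hI k hk).2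
        choose! g hg1 hg2 hg3 using hch
        obtain ⟨hfin, hcd⟩ := hspoil (fun j => (GridG_19.Am G M 0 j : ℤ)) (T : ℤ)
        have hsub : (I.image fun k => (g k, k) : Finset (ℕ × ℕ)) ⊆ hfin.toFinset := by
          intro x hx
          obtain ⟨k, hk, rfl⟩ := Finset.mem_image.1 hx
          rw [Set.Finite.mem_toFinset]
          refine ⟨hg1 k hk, (hI k hk).1, hg2 k hk, ?_⟩
          have h5 := badZ_of_badT (hg3 k hk)
          have h6 : c k ≤ T + c (g k) := (hT k (hI k hk).1).trans (Nat.le_add_right _ _)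
          rw [Nat.cast_sub h6] at h5
          simp only [hc] at h5
          push_cast at h5
          exact h5
        have hinj : Set.InjOn (fun k => (g k, k)) (I : Set ℕ) := by
          intro a _ b _ hab
          exact congrArg Prod.snd hab
        calc I.card = (I.image fun k => (g k, k)).card := (Finset.card_image_of_injOn hinj).symm
          _ ≤ hfin.toFinset.card := Finset.card_le_card hsub
          _ = Set.ncard _ := (Set.ncard_eq_toFinset_card _ hfin).symm
          _ ≤ Ms.card + m := hcd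
          _ ≤ r + m := by omega)
      (by omega) (by omega) hU.1 hU'.1 hU.2 v
    refine ⟨p, q, h1.symm, h2, fun v' P' hP' => ?_⟩
    rcases h4 v' P' hP' with ⟨a, a1, a2, a3, a4⟩ | ⟨a, a1, a2, a3⟩
    · left
      refine ⟨a, ⟨a1, a2⟩, U', hU', a3, ?_⟩
      show T (T v' a) U' = T (T v U) U'
      have a4' : T v' a = T v U := a4
      rw [a4']
    · right; left
      exact ⟨a, a1, fun hb => a2 hb.2, a3⟩

theorem s0495 (α : Type*) [Finite α] (L : Language α) (hL : L.IsRegular) :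
    ∃ e : Crest.RegLang.GRegExp α, e.height ≤ 3 ∧ e.lang = L :=
  Univ_294.s0495_of_type0 (fun n S _ _ φ s => main (Fin n) S φ s) α L hL

end Crest.Agent.R320.Final_109
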