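import Crest.Agent.R320.Fin_158

/-!
Row 320, helper158: choice of the constants.
-/

set_option autoImplicit false
set_option linter.unusedVariables false

namespace Crest.Agent.R320.Fin_158

open Crest.RegLang Crest.Agent.R320.Hk_851 Crest.Agent.R320.Sc2n_937

theorem pow_two_sidon {a b a' b' : ℕ} (hab : a ≠ b) (hab' : a' ≠ b')
    (h : (2 : ℤ) ^ a - 2 ^ b = 2 ^ a' - 2 ^ b') : a = a' ∧ b = b' :=
  Crest.Agent.R320.G369.pow_diff hab hab' (by linarith)

/-- spacing of the ruler -/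
theorem spaced {x N1 K : ℕ} (hx : 2 * N1 + 1 ≤ x) {k k' l l' : ℕ} (h1 : k' ≠ k) (h2 : l' ≠ l)
    (h3 : x * 2 ^ k + x * 2 ^ l' < x * 2 ^ l + x * 2 ^ k' + 2 * N1)
    (h4 : x * 2 ^ l + x * 2 ^ k' < x * 2 ^ k + x * 2 ^ l' + 2 * N1) : k = l := by
  have e : ((2 : ℤ) ^ k - 2 ^ k') = 2 ^ l - 2 ^ l' := by
    by_contra hne
    have hd : (1 : ℤ) ≤ |((2 : ℤ) ^ k - 2 ^ k') - (2 ^ l - 2 ^ l')| :=
      Int.one_le_abs (sub_ne_zero.2 hne)
    have h5 : ((x : ℤ)) ≤ |(x : ℤ) * (((2 : ℤ) ^ k - 2 ^ k') - (2 ^ l - 2 ^ l'))| := by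
      rw [abs_mul, Nat.abs_cast]
      nlinarith
    have h3' : (x : ℤ) * 2 ^ k + x * 2 ^ l' < x * 2 ^ l + x * 2 ^ k' + 2 * N1 := by exact_mod_cast h3
    have h4' : (x : ℤ) * 2 ^ l + x * 2 ^ k' < x * 2 ^ k + x * 2 ^ l' + 2 * N1 := by exact_mod_cast h4
    have h6 : |(x : ℤ) * (((2 : ℤ) ^ k - 2 ^ k') - (2 ^ l - 2 ^ l'))| < 2 * N1 := by
      rw [abs_lt]
      constructor <;> nlinarith
    have hx' : (2 * (N1 : ℤ) + 1) ≤ x := by exact_mod_cast hx
    linarith
  exact (pow_two_sidon h1.symm h2.symm e).1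

theorem grow {K m Ms i : ℕ} (hi : i < m) :
    2 ^ (K + 4) * ∑ j ∈ Finset.range (i + 1), Ms * Grid_899.G (2 ^ (K + 4) * Ms * (m + 1)) j ≤
      Grid_899.G (2 ^ (K + 4) * Ms * (m + 1)) (i + 1) := by
  set κ := 2 ^ (K + 4) * Ms * (m + 1) with hκ
  have h1 : ∑ j ∈ Finset.range (i + 1), Ms * Grid_899.G κ j ≤
      (i + 1) * (Ms * Grid_899.G κ i) := by
    have h2 := Finset.sum_le_card_nsmul (Finset.range (i + 1)) (fun j => Ms * Grid_899.G κ j)
      (Ms * Grid_899.G κ i) (by
        intro j hj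
        have hj' : j ≤ i := by have := Finset.mem_range.1 hj; omega
        refine Nat.mul_le_mul_left _ ?_
        unfold Grid_899.G
        exact Nat.pow_le_pow_right (by norm_num) (Nat.mul_le_mul_left _ hj'))
    simpa [Finset.card_range, smul_eq_mul] using h2
  have h3 : κ ≤ 2 ^ κ := Nat.lt_two_pow_self.le
  calc 2 ^ (K + 4) * ∑ j ∈ Finset.range (i + 1), Ms * Grid_899.G κ j
      ≤ 2 ^ (K + 4) * ((i + 1) * (Ms * Grid_899.G κ i)) := Nat.mul_le_mul_left _ h1
    _ = (2 ^ (K + 4) * Ms * (i + 1)) * Grid_899.G κ i := by ring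
    _ ≤ κ * Grid_899.G κ i := by
        refine Nat.mul_le_mul_right _ ?_
        rw [hκ]
        exact Nat.mul_le_mul_left _ (by omega)
    _ ≤ 2 ^ κ * Grid_899.G κ i := Nat.mul_le_mul_right _ h3
    _ = Grid_899.G κ (i + 1) := by
        unfold Grid_899.G
        rw [← pow_add]
        congr 1
        ring

theorem fin (α : Type) [Finite α] (S : Type) [Monoid S] [Finite S] (f : α → S) (s : S) :
    HL 3 ({w | (w.map f).prod = s} : Language α) := by
  classical
  haveI : Fintype S := Fintype.ofFinite S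
  obtain ⟨act, hadd, hone, hmul, hfaith⟩ := Blk467.exists_module S
  obtain ⟨k0, m, HG⟩ := gad S (S → ZMod 2) act
  obtain ⟨K, HK⟩ := ExactR_237.exact_gadget α S (S → ZMod 2) f act (2 * (k0 + m) + 2)
  -- moduli
  let q : Fin k0 → ℕ := fun j => Nat.nth Nat.Prime (2 ^ (K + 1) + 1 + j)
  have hqp : ∀ j, (q j).Prime := fun j => Nat.prime_nth_prime _
  have hmono : StrictMono (Nat.nth Nat.Prime) := Nat.nth_strictMono Nat.infinite_setOf_prime
  have hqge : ∀ j, 2 ^ (K + 1) + 1 ≤ q j := fun j => by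
    have : 2 ^ (K + 1) + 1 + (j : ℕ) ≤ q j := hmono.le_apply
    omega
  have h2K : 2 ≤ 2 ^ (K + 1) := by
    calc 2 = 2 ^ 1 := rfl
      _ ≤ 2 ^ (K + 1) := Nat.pow_le_pow_right (by norm_num) (by omega)
  have hqodd : ∀ j, Odd (q j) := fun j => (hqp j).odd_of_ne_two (by have := hqge j; omega)
  have hqc : Pairwise (fun i j => Nat.Coprime (q i) (q j)) := by
    intro i j hij
    refine (Nat.coprime_primes (hqp i) (hqp j)).2 fun h => hij ?_
    have := hmono.injective h
    exact Fin.ext (by omega)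
  set Ms : ℕ := ∏ j, q j with hMs
  have hMspos : 0 < Ms := Finset.prod_pos fun j _ => (hqp j).pos
  set κ : ℕ := 2 ^ (K + 4) * Ms * (m + 1) with hκ
  obtain ⟨lam, rho, nu1, B, a1, a2, a3, a4⟩ := HG q hqodd hqc κ α (fun w => (w.map f).prod)
    (by intro u v; simp)
  set N1 : ℕ := Grid_899.Am Ms κ m + 1 with hN1
  have hGpos : ∀ i, 0 < Grid_899.G κ i := fun i => by unfold Grid_899.G; positivity
  obtain ⟨X, hX0, hXpos, hth⟩ := Thin963.thin K m (Finset.univ.image q)
    (fun i => (Grid_899.G κ i : ℤ)) (fun i => ((Ms * Grid_899.G κ i : ℕ) : ℤ))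
    (fun i => (Grid_899.Am Ms κ i : ℤ))
    (by
      intro p hp
      obtain ⟨j, -, rfl⟩ := Finset.mem_image.1 hp
      exact ⟨hqp j, by have := hqge j; omega⟩)
    (by
      intro p hp
      obtain ⟨j, -, rfl⟩ := Finset.mem_image.1 hp
      have h1 : Nat.Coprime (q j) (Grid_899.G κ m) := by
        unfold Grid_899.G
        exact Nat.Coprime.pow_right _ ((Nat.coprime_primes (hqp j) Nat.prime_two).2
          (by have := hqge j; omega))
      exact Nat.isCoprime_iff_coprime.2 h1)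
    (by exact_mod_cast hGpos m)
    (by
      intro i j hij
      have : Grid_899.G κ i ∣ Grid_899.G κ j := by
        unfold Grid_899.G
        exact pow_dvd_pow 2 (Nat.mul_le_mul_left κ hij)
      exact_mod_cast this)
    (by
      intro i
      have : 0 < Ms * Grid_899.G κ i := Nat.mul_pos hMspos (hGpos i)
      exact_mod_cast this)
    (by
      intro i
      have : Grid_899.G κ i ∣ Ms * Grid_899.G κ i := Dvd.intro_left _ rfl
      exact_mod_cast this)
    (by
      intro i hi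
      have := grow (K := K) (m := m) (Ms := Ms) hi
      rw [← hκ] at this
      exact_mod_cast this)
    (2 * N1 + 1)
  obtain ⟨x, rfl⟩ : ∃ x : ℕ, X = x := ⟨X.toNat, by omega⟩
  have hx : 2 * N1 + 1 ≤ x := by exact_mod_cast hX0
  have hxpos : 0 < x := by omega
  let c : ℕ → ℕ := fun k => x * 2 ^ k
  set p0 : ℕ := x * 2 ^ K with hp0
  have hclt : ∀ i j, i < j → c i < c j := fun i j hij =>
    Nat.mul_lt_mul_of_pos_left (Nat.pow_lt_pow_right (by norm_num) hij) hxpos
  have hcp : ∀ k, k < K → c k ≤ p0 := fun k hk => (hclt k K hk).le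
  obtain ⟨lam2, rho2, nu2, b1, b2⟩ := HK c (fun i j hij _ => hclt i j hij)
  obtain ⟨n, G', Bw, Wo, hLW, hgap, -, -, hfree⟩ :=
    LWallAll_922.walls_all_left α (2 * p0 + 2 * N1 + 1) (by omega)
  set A1 : ℕ := Grid_899.Am Ms κ (m + 1) with hA1
  let g : Geo α :=
    { Wo := Wo
      n := n
      z := p0 + N1 + (n + 2 * p0 + 2 * A1)
      p0 := p0
      q0 := n + 2 * p0 + 2 * A1
      N1 := N1
      loc := fun P Q h => hLW.app P Q h
      hz := rfl
      hq := by omega
      hN := by omega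
      hqp := by omega }
  have hPm : 0 < Ms * Grid_899.G κ m := Nat.mul_pos hMspos (hGpos m)
  refine inst f act hadd hone hmul hfaith g (fun P h => hLW.len P h) (Bw + (2 * p0 + 2 * N1 + 1)) 2
    ?_ lam rho nu1 B (Ms * Grid_899.G κ m) hPm ?_ a2 (BT k0 q κ m) ?_ a4
    (fun T T' h1 h2 => BT_congr h1 h2) K (k0 + m) c hcp lam2 (fun k Q => rho2 k Q 1)
    (fun X => nu2 X 1) ?_ ?_ ?_ ?_ ?_ s
  · intro u hu
    obtain ⟨u1, x1, v1, k1, h1, h2, h3, e⟩ := hfree u hu
    exact pn_of_wallfree h1 h2 h3 e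
  · intro P v h
    have h0 : P.length < Grid_899.Am Ms κ m := a1 P v h
    show P.length ≤ N1
    omega
  · intro u hu hb v
    have hu' : N1 + (n + 2 * p0 + 2 * A1) ≤ u.length := hu
    obtain ⟨c1, c2⟩ := clean_of_not_BT (T := u.length) (by show A1 ≤ u.length; omega)
      (fun j hj => Am_mono _ _ (by omega)) hb
    exact a3 u (by show 2 * A1 ≤ u.length; omega) c1 c2 v
  · intro k hk P Q v u h1 h2 h3 h4
    have := b1 k hk P Q 1 v u h1 h3 h4
    rw [mul_one] at this
    exact this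
  · intro u v hu
    exact b2 u 1 v (fun k hk => by rw [hu]; exact hcp k hk)
  · intro P Q hP hPQ hQ
    have hl : 0 < Q.length := List.length_pos_of_ne_nil hQ
    have := hgap (P ++ Q) P.length (P ++ Q).length (by rw [List.length_append]; omega) le_rfl
      (by rw [List.take_left]; exact hP) (by rw [List.take_length]; exact hPQ)
    rw [List.length_append] at this
    show 2 * p0 + 2 * N1 < Q.length
    omega
  · intro k k' l l' hk hk' hl hl' h1 h2 h3 h4
    exact spaced (K := K) hx h1 h2 h3 h4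
  · intro τ hτ J hJ
    have hτ' : p0 + N1 + (n + 2 * p0 + 2 * A1) ≤ τ + p0 := hτ
    choose! kk hkk using fun k (hk : k ∈ J) => (hJ k hk).2
    have hcard := hth ((τ : ℤ) - p0)
    have hinj : J.card ≤ (((Finset.range K) ×ˢ (Finset.range K)).filter (fun p : ℕ × ℕ =>
        p.1 ≠ p.2 ∧ Thin963.BadT (Finset.univ.image q) m (fun i => (Grid_899.G κ i : ℤ))
          (fun i => ((Ms * Grid_899.G κ i : ℕ) : ℤ)) (fun i => (Grid_899.Am Ms κ i : ℤ))
          ((τ : ℤ) - p0 + (x : ℤ) * 2 ^ p.1 - (x : ℤ) * 2 ^ p.2))).card := by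
      refine Finset.card_le_card_of_injOn (fun k => (kk k, k)) ?_ ?_
      · intro k hk
        obtain ⟨h1, h2, h3⟩ := hkk k hk
        have hkK := (hJ k hk).1
        simp only [Finset.coe_filter, Finset.mem_product, Finset.mem_range, Set.mem_setOf_eq]
        refine ⟨⟨h1, hkK⟩, h2, ?_⟩
        have h4 : BT k0 q κ m (τ + c (kk k) - c k - p0) := h3
        unfold BT at h4
        have h5 : ((τ + c (kk k) - c k - p0 : ℕ) : ℤ)
            = (τ : ℤ) - p0 + (x : ℤ) * 2 ^ (kk k) - (x : ℤ) * 2 ^ k := by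
          have h6 := hcp k hkK
          have h7 : c k + p0 ≤ τ + c (kk k) := by omega
          rw [Nat.sub_sub, Nat.cast_sub h7]
          simp only [c]
          push_cast
          ring
        rw [h5] at h4
        exact h4
      · intro k hk k' hk' h
        simp only [Prod.mk.injEq] at h
        exact h.2
    have him : (Finset.univ.image q).card ≤ k0 := by
      refine Finset.card_image_le.trans ?_
      simp
    have h9 := hinj.trans hcard
    omega

end Crest.Agent.R320.Fin_158
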