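import Crest.Agent.R320.G1_604
import Crest.Agent.R320.Sp_945
import Crest.Agent.R320.Zones_813
import Crest.Agent.R320.InstB_11
import Crest.Agent.R320.WallU_228
import Crest.Agent.R320.ExactR_237
import Crest.Agent.R320.Two_621
import Crest.Agent.R320.Fin_869

/-!
# Row 320: the last assembly (helper378) over Top5_110.top_sem, InstB_11, Zones_813, g1, Sp_945,
ExactR_237, WallU_228.
-/

set_option autoImplicit false

namespace Crest.Agent.R320.Final_378

open Crest.RegLang Crest.Agent.R320.Hk_851 Crest.Agent.R320.Two_621 Crest.Agent.R320.Code110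

theorem sub_mod_eq {a a' p M : ℕ} (h : a % M = a' % M) (h1 : p ≤ a) (h2 : p ≤ a') :
    (a - p) % M = (a' - p) % M := by
  have h3 : (a - p + p) ≡ (a' - p + p) [MOD M] := by
    rw [Nat.sub_add_cancel h1, Nat.sub_add_cancel h2]; exact h
  exact Nat.ModEq.add_right_cancel' p h3

theorem values (nn : ℕ) (S : Type) [Monoid S] [Finite S] (f : Fin nn → S) (s : S) :
    HL 3 ({w | (w.map f).prod = s} : Language (Fin nn)) := by
  classical
  haveI : Fintype S := Fintype.ofFinite S
  haveI : Finite (Tok S) := inferInstance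
  haveI : Fintype (Tok S) := Fintype.ofFinite (Tok S)
  obtain ⟨m, r, hg⟩ := G1_604.g1 S (Tok S) (act (T := S))
  obtain ⟨K, hK⟩ := ExactR_237.exact_gadget (Fin nn) S (Tok S) f (act (T := S)) (2 + 2 * (r + m))
  obtain ⟨Ms, M, hMs, hMs2, hM, hg⟩ := hg (2 ^ (K + 1))
  have hcop : Nat.Coprime (2 ^ (K + 6) * M + 1) M := by
    rw [Nat.coprime_mul_right_add_left]; exact Nat.coprime_one_left M
  have hpow : 64 ≤ 2 ^ (K + 6) := by
    have : 2 ^ 6 ≤ 2 ^ (K + 6) := Nat.pow_le_pow_right (by norm_num) (by omega)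
    simpa using this
  have hb4 : 4 * M + 4 < 2 ^ (K + 6) * M + 1 := by
    have : 64 * M ≤ 2 ^ (K + 6) * M := Nat.mul_le_mul_right M hpow
    omega
  set b := 2 ^ (K + 6) * M + 1 with hbdef
  obtain ⟨lam, rho, nu, g1, g2, g3, g4⟩ := hg b hb4 hcop (Fin nn) f
  obtain ⟨c, hc1, -, -, hgol, hsp⟩ := Sp_945.spoil K m M Ms hM
    (fun k hk => ⟨(hMs2 k hk).1.le, (hMs2 k hk).2.2⟩) b (by omega) hcop (4 * b ^ m)
  obtain ⟨lam2, rho2, nuE, e1, e2⟩ := hK c (fun i j h _ => hc1 i j h)
  set N1 := b ^ m with hN1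
  set p0 := c K with hp0
  have hcK : ∀ k < K, c k ≤ p0 := fun k hk => (hc1 k K hk).le
  obtain ⟨n, Wo, hloc, hlen, hgap, R, B, hfree⟩ :=
    WallU_228.walls (α := Fin nn) (2 * (N1 + p0))
  have hWL : InstB_11.WL Wo n (2 * (N1 + p0)) := ⟨hloc, hlen, hgap⟩
  set z := p0 + p0 + N1 + n + p0 + 1 with hz
  let BadT : ℕ → Prop := Sp_945.Bad Ms M m b
  have sp : ∀ T, p0 ≤ T → ∀ F : Finset (ℕ × ℕ), (∀ ij ∈ F, ij.1 < K ∧ ij.2 < K ∧ ij.1 ≠ ij.2 ∧
      BadT (T + c ij.2 - c ij.1)) → F.card ≤ r + m := by
    intro T hT F hF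
    have h1 := hsp T (fun a ha => (hcK a ha).trans hT)
    refine le_trans (Finset.card_le_card ?_) (h1.trans (by omega))
    intro q hq
    obtain ⟨q1, q2, q3, q4⟩ := hF q hq
    rw [Finset.mem_filter, Finset.mem_product, Finset.mem_range, Finset.mem_range]
    exact ⟨⟨q1, q2⟩, q3, q4⟩
  have gol : ∀ i j k l, i < K → j < K → k < K → l < K → i ≠ j → k ≠ l → (i, j) ≠ (k, l) →
      c i + c l + 4 * N1 < c k + c j ∨ c k + c j + 4 * N1 < c i + c l :=
    fun i j k l _ _ _ _ h1 h2 h3 => hgol i j k l h1 h2 h3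
  have hzpos : 0 < z := by omega
  -- transport
  have hnuloc : ∀ X X' : List (Fin nn), p0 + N1 ≤ X.length → p0 + N1 ≤ X'.length →
      X.take (p0 + N1) = X'.take (p0 + N1) → X.length % (M * N1) = X'.length % (M * N1) →
      ((X.drop (p0 + N1)).map f).prod = ((X'.drop (p0 + N1)).map f).prod →
      X.take p0 = X'.take p0 ∧ ((X.drop p0).map f).prod = ((X'.drop p0).map f).prod ∧
        nu (X.drop p0) = nu (X'.drop p0) := by
    intro X X' h1 h2 h3 h4 h5
    have a1 : X.take p0 = X'.take p0 := by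
      have := congrArg (List.take p0) h3
      rwa [List.take_take, List.take_take, min_eq_left (by omega)] at this
    have a2 : (X.drop p0).take N1 = (X'.drop p0).take N1 := by
      have := congrArg (List.drop p0) h3
      rwa [List.drop_take, List.drop_take, Nat.add_sub_cancel_left] at this
    have a3 : (X.drop p0).drop N1 = X.drop (p0 + N1) := by rw [List.drop_drop]
    have a4 : (X'.drop p0).drop N1 = X'.drop (p0 + N1) := by rw [List.drop_drop]
    refine ⟨a1, ?_, ?_⟩
    · rw [← List.take_append_drop N1 (X.drop p0), ← List.take_append_drop N1 (X'.drop p0),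
        List.map_append, List.map_append, List.prod_append, List.prod_append, a2, a3, a4, h5]
    · refine (g4 _ _ ?_ ?_ a2 ?_ ?_).2
      · rw [List.length_drop]; omega
      · rw [List.length_drop]; omega
      · rw [List.length_drop, List.length_drop]
        exact sub_mod_eq h4 (by omega) (by omega)
      · rw [a3, a4]; exact h5
  have hMN : 0 < M * N1 := Nat.mul_pos hM (Nat.pow_pos (by omega))
  have H1 : HL 1 (InstB_11.XX Wo z) := Zones_813.NZ_hl hloc hlen z
  have H2 : HL 1 (InstB_11.BadX Wo z N1 p0 BadT) := by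
    have hfin : HL 1 ({X | X ∈ Zones_813.NZ Wo z ∧ X.length < z + N1} : Language (Fin nn)) :=
      HL.finite ((List.finite_length_le (Fin nn) (z + N1)).subset fun w h => le_of_lt h.2)
    have hfs := Zones_813.NZ_fs hloc hlen hfree f (z := z) (L0 := p0 + N1) (M0 := M * N1)
      (by omega) hMN (fun X => BadT (X.length - p0)) (by
        intro X X' h1 h2 _ h4 _
        have h5 := sub_mod_eq h4 (p := p0) (by omega) (by omega)
        have key : ∀ a a' : ℕ, a % (M * N1) = a' % (M * N1) → BadT a → BadT a' := by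
          intro a a' h hba
          rcases hba with ⟨k, hk, hd⟩ | ⟨j, hj, hd⟩
          · left
            refine ⟨k, hk, ?_⟩
            have hkM : k ∣ M * N1 := Dvd.dvd.mul_right (hMs2 k hk).2.2 N1
            rw [← Nat.dvd_mod_iff hkM, ← h, Nat.dvd_mod_iff hkM]
            exact hd
          · right
            refine ⟨j, hj, ?_⟩
            have hdig : ∀ a : ℕ, a / b ^ j % b = (a % (M * N1)) / b ^ j % b := by
              intro a
              have hbj : b ^ j * b ∣ M * N1 := by
                rw [hN1, ← pow_succ]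
                exact Dvd.dvd.mul_left (pow_dvd_pow b (by omega)) M
              obtain ⟨q, hq⟩ := hbj
              have e1 : a % (b ^ j * b) / b ^ j = a / b ^ j % b := Nat.mod_mul_right_div_self a (b ^ j) b
              have e2 : (a % (M * N1)) % (b ^ j * b) / b ^ j = (a % (M * N1)) / b ^ j % b :=
                Nat.mod_mul_right_div_self _ (b ^ j) b
              rw [← e1, ← e2, hq, Nat.mod_mul_right_mod]
            rw [hdig a', ← h, ← hdig a]
            exact hd
        exact ⟨key _ _ h5, key _ _ h5.symm⟩)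
    have hfs2 := Zones_813.NZ_fs hloc hlen hfree f (z := z) (L0 := z) (M0 := 1)
      le_rfl one_pos (fun X => ∃ t, t < z ∧ z ≤ t + N1 ∧ Wo (X.take t)) (by
        intro X X' h1 h2 h3 _ _
        have key : ∀ Y Y' : List (Fin nn), Y.take z = Y'.take z →
            (∃ t, t < z ∧ z ≤ t + N1 ∧ Wo (Y.take t)) →
            ∃ t, t < z ∧ z ≤ t + N1 ∧ Wo (Y'.take t) := by
          rintro Y Y' h ⟨t, t1, t2, t3⟩
          refine ⟨t, t1, t2, ?_⟩
          have := congrArg (List.take t) h
          rw [List.take_take, List.take_take, min_eq_left (by omega)] at this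
          rw [← this]
          exact t3
        exact ⟨key _ _ h3, key _ _ h3.symm⟩)
    refine ((hfin.sup hfs).sup hfs2).congr fun X => ?_
    constructor
    · rintro ⟨hX, hb⟩
      rcases hb with ⟨t, t1, t2, t3, t4⟩ | hb
      · by_cases htz : t < z
        · exact Or.inr ⟨hX, t, htz, t2, t4⟩
        · left; left
          refine ⟨hX, ?_⟩
          by_contra hlt
          exact hX.2.2 t (by omega) (by omega) t4
      · exact Or.inl (Or.inr ⟨hX, hb⟩)
    · rintro ((⟨hX, hl⟩ | ⟨hX, hb⟩) | ⟨hX, t, t1, t2, t3⟩)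
      · refine ⟨hX, Or.inl ⟨X.length, le_rfl, ?_, hl, by simpa using hX.2.1⟩⟩
        have := hX.1
        omega
      · exact ⟨hX, Or.inr hb⟩
      · refine ⟨hX, Or.inl ⟨t, ?_, t2, by omega, t3⟩⟩
        have := hX.1
        omega
  have H3 : ∀ x y, HL 1 (ZT (InstB_11.XX Wo z)
      (InstB_11.TT f (act (T := S)) p0 (fun w => nuE w 1) nu) x y) := by
    intro x y
    refine (Zones_813.NZ_fs hloc hlen hfree f (z := z) (L0 := p0 + N1) (M0 := M * N1)
      (by omega) hMN (fun X => InstB_11.TT f (act (T := S)) p0 (fun w => nuE w 1) nu X x = y)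
      ?_).congr fun w => Iff.rfl
    intro X X' h1 h2 h3 h4 h5
    obtain ⟨a1, a2, a3⟩ := hnuloc X X' h1 h2 h3 h4 h5
    show InstB_11.TT f (act (T := S)) p0 (fun w => nuE w 1) nu X x = y ↔
      InstB_11.TT f (act (T := S)) p0 (fun w => nuE w 1) nu X' x = y
    unfold InstB_11.TT
    rw [a1, a2, a3]
  refine Top5_110.top_sem (φ := fun w : List (Fin nn) => (w.map f).prod) (act := act (T := S))
    (XX := InstB_11.XX Wo z) (Bad := InstB_11.BadX Wo z N1 p0 BadT)
    (T := InstB_11.TT f (act (T := S)) p0 (fun w => nuE w 1) nu)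
    (by simp) (by intro u w; simp) act_one (fun v s t => (act_mul v s t).symm)
    (fun s t h => act_faithful h) (InstB_11.pc hzpos) (fun u hu => hu.1) ?_ H1 H2 H3 ?_
    (N1 := 0) (N2 := 1)
    (L1 := InstB_11.L1 f (act (T := S)) p0 (fun w => nuE w 1) lam)
    (L2 := InstB_11.L2 K c lam2) ?_ ?_ ?_ ?_ s
  · intro u hu v v'
    have hsub : ∀ (x y : Tok S) (t : S), act x t - act y t = act (x - y) t := fun _ _ _ => rfl
    unfold InstB_11.TT
    rw [add_sub_add_right_eq_sub, hsub, add_sub_add_right_eq_sub, hsub, act_mul,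
      ← List.prod_append, ← List.map_append, List.take_append_drop]
  · intro s
    exact (Zones_813.NZ_tail hloc hlen hfree f z s).mono (by norm_num)
  · intro v
    refine (List.finite_length_le (Fin nn) (p0 + N1)).subset ?_
    rintro p ⟨hp1, hp2⟩
    have := g1 _ _ hp2
    rw [List.length_drop] at this
    show p.length ≤ p0 + N1
    omega
  · intro v
    refine (List.finite_length_le (Fin nn) p0).subset ?_
    rintro p ⟨k, hk, hp1, hp2⟩
    show p.length ≤ p0
    rw [hp1]; exact hcK k hk
  · intro u hu hub x t ht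
    have ht' : t = [] := by
      rw [pow_zero] at ht
      exact (Language.mem_one t).1 ht
    subst ht'
    rw [List.append_nil]
    exact InstB_11.C1 hWL f (act (T := S)) (La := p0) (fun w => nuE w 1) nu lam rho (by omega)
      (fun p v h => (g1 p v h).le) (fun p q v b' h1 h2 _ => g2 p q v b' h1 h2)
      (fun u _ hu v => g3 u (fun k hk hd => hu (Or.inl ⟨k, hk, hd⟩))
        (fun j hj => by
          by_contra hcon
          exact hu (Or.inr ⟨j, hj, hcon⟩)) v) u hu hub x
  · intro u hu x t ht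
    have ht' : t ∈ InstB_11.BadX Wo z N1 p0 BadT := by
      rw [pow_one] at ht; exact ht
    exact InstB_11.C2 hWL f (act (T := S)) (La := p0) (C0 := r + m) (R := 2 + 2 * (r + m)) c nu
      lam2 rho2 nuE (by omega) hzpos le_rfl hcK e1 e2 (by omega) gol sp u t hu ht' x

/-- the frozen statement of S0495 -/
theorem final (α : Type*) [Finite α] (L : Language α) (hL : L.IsRegular) :
    ∃ e : Crest.RegLang.GRegExp α, e.height ≤ 3 ∧ e.lang = L :=
  Fin_869.template (fun nn S _ _ f s => values nn S f s) α L hL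

end Crest.Agent.R320.Final_378
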