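import Crest.Agent.R320.Gad_495
import Crest.Agent.R320.Univ_582
import Crest.Agent.R320.Block_467

/-! helper495: S0495 from landed files: Fin_211.fin + G1_852.gadget + Spoil852_495.ruler + Univ_582.final. -/

set_option autoImplicit false

namespace Crest.Agent.R320.Final_495

open Crest.Agent.R320

theorem fibre (β : Type) [Finite β] (S : Type) [Monoid S] [Finite S] (φ : β → S) (s : S) :
    Hk_851.HL 3 ({w | (w.map φ).prod = s} : Language β) := by
  obtain ⟨act, hadd, hone, hmul, hfaith⟩ := Blk467.exists_module S
  exact Fin_211.fin act hadd hone hmul hfaith φ (Gad_495.gad act φ) s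

theorem row (α : Type*) [Finite α] (L : Language α) (hL : L.IsRegular) :
    ∃ e : Crest.RegLang.GRegExp α, e.height ≤ 3 ∧ e.lang = L :=
  Univ_582.final (fun β _ S _ _ φ s => fibre β S φ s) α L hL

end Crest.Agent.R320.Final_495
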