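import Crest.Agent.R320.Gad_499
import Crest.Agent.R320.Univ_582

/-!
# Row 320: the row (helper499)
-/

set_option autoImplicit false

namespace Crest.Agent.R320.Final_499

open Crest.RegLang Crest.Agent.R320.Hk_851

universe u

theorem s0495 (α : Type u) [Finite α] (L : Language α) (hL : L.IsRegular) :
    ∃ e : GRegExp α, e.height ≤ 3 ∧ e.lang = L :=
  Univ_582.final (k := 3)
    (fun _ _ _ _ _ φ s => Asm_499.of_GG φ (fun act => Gad_499.gg _ _ act) s) α L hL

end Crest.Agent.R320.Final_499
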