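import Crest.Agent.R320.Fin_846
import Crest.Agent.R320.Univ_188
import Crest.Agent.R320.Hk2_851

/-!
# Row 320: every regular language has generalized star height at most three (helper846)
-/

set_option autoImplicit false

namespace Crest.Agent.R320.Final_846

open Crest.Agent.R320.Hk_851

theorem type0 (α : Type) [Finite α] (L : Language α) (hL : L.IsRegular) :
    ∃ e : Crest.RegLang.GRegExp α, e.height ≤ 3 ∧ e.lang = L :=
  Hk_851.of_monoid (fun S _ _ φ s => Fin_846.fin α S φ s) L hL

end Crest.Agent.R320.Final_846
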