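import Crest.Agent.R320.G1_604
import Crest.Agent.R320.Sp_901

/-!
# Row 320: 963's `Gad1` (Fin_963) from the landed gadget (604) and the landed spoil count (901).
(helper908)
-/

set_option autoImplicit false

namespace Crest.Agent.R320.Gad1_908

open Crest.Agent.R320.Sp_901

theorem bad_per {Ms : Finset ℕ} {M m b : ℕ} (hb : 0 < b) (hk : ∀ k ∈ Ms, k ∣ M) (T : ℕ) :
    Bad Ms M m b (T + M * b ^ m) ↔ Bad Ms M m b T := by
  unfold Bad
  have h1 : (∃ k ∈ Ms, k ∣ T + M * b ^ m) ↔ ∃ k ∈ Ms, k ∣ T := by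
    constructor
    · rintro ⟨k, hkm, h⟩
      exact ⟨k, hkm, (Nat.dvd_add_left ((hk k hkm).mul_right _)).1 h⟩
    · rintro ⟨k, hkm, h⟩
      exact ⟨k, hkm, (Nat.dvd_add_left ((hk k hkm).mul_right _)).2 h⟩
  have h2 : ∀ j < m, (T + M * b ^ m) / b ^ j % b = T / b ^ j % b := by
    intro j hj
    obtain ⟨d, rfl⟩ : ∃ d, m = j + 1 + d := ⟨m - (j + 1), by omega⟩
    have e : T + M * b ^ (j + 1 + d) = T + b ^ j * (b * (M * b ^ d)) := by ring
    rw [e, Nat.add_mul_div_left _ _ (pow_pos hb j), Nat.add_mul_mod_self_left]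
  rw [h1]
  refine or_congr Iff.rfl ?_
  constructor
  · rintro ⟨j, hj, h⟩
    rw [h2 j hj] at h
    exact ⟨j, hj, h⟩
  · rintro ⟨j, hj, h⟩
    rw [← h2 j hj] at h
    exact ⟨j, hj, h⟩

theorem gad (S V : Type) [Monoid S] [Finite S] [AddCommGroup V] [Finite V] (act : V → S → V) :
    ∃ C0 : ℕ, ∀ K : ℕ, ∃ (N1 La Per : ℕ) (c : ℕ → ℕ) (Bad : ℕ → Prop), 0 < Per ∧ 0 < N1 ∧
      (∀ i j, i < j → j < K → c i < c j) ∧
      (∀ k k' l l', k < K → k' < K → l < K → l' < K → k' ≠ k → l' ≠ l →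
        c k + c l' < c l + c k' + 2 * N1 → c l + c k' < c k + c l' + 2 * N1 → k = l) ∧
      (∀ T, (∀ k < K, c k ≤ T) → La ≤ T → ∀ F : Finset (ℕ × ℕ),
        (∀ p ∈ F, p.1 < K ∧ p.2 < K ∧ p.1 ≠ p.2 ∧ Bad (T + c p.2 - c p.1)) → F.card ≤ C0) ∧
      (∀ T, La ≤ T → (Bad (T + Per) ↔ Bad T)) ∧
      ∀ (α : Type) (f : α → S), ∃ (lam rho : List α → Option V) (nu : List α → V),
        (∀ P Q v b, lam P = some v → rho Q = some b →
          b = act v ((P ++ Q).map f).prod + nu (P ++ Q)) ∧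
        (∀ P v, lam P = some v → P.length ≤ N1) ∧
        (∀ Y, La ≤ Y.length → ¬ Bad Y.length → ∀ v, ∃ P Q, Y = P ++ Q ∧ lam P = some v ∧
          (rho Q).isSome) ∧
        (∀ u u', La ≤ u.length → La ≤ u'.length → u.take La = u'.take La →
          ((u.drop La).map f).prod = ((u'.drop La).map f).prod →
          u.length % Per = u'.length % Per → nu u = nu u') := by
  obtain ⟨m, r, hg⟩ := Crest.Agent.R320.G1_604.g1 S V act
  refine ⟨r + m, fun K => ?_⟩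
  obtain ⟨Ms, M, hMr, hMs, hM, hg⟩ := hg (2 ^ (K + 1))
  set b := (2 ^ (K + 4) + 8) * M + 1 with hb
  have hp : 16 ≤ 2 ^ (K + 4) := by
    have : 2 ^ 4 ≤ 2 ^ (K + 4) := Nat.pow_le_pow_right (by norm_num) (by omega)
    simpa using this
  have hbig : 4 * M + 4 < b := by
    have h1 : 24 * M ≤ (2 ^ (K + 4) + 8) * M := Nat.mul_le_mul_right _ (by omega)
    omega
  have hbig2 : 2 ^ (K + 4) * M + 2 * M < b := by
    have h1 : (2 ^ (K + 4) + 8) * M = 2 ^ (K + 4) * M + 8 * M := by ring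
    omega
  have hco : Nat.Coprime b M := by
    rw [hb, Nat.coprime_mul_right_add_left]
    exact Nat.coprime_one_left M
  have hb0 : 0 < b := by omega
  obtain ⟨K0, hK0, c, hc1, hc2, hc3, hc4, hc5, hc6⟩ := spoil K (b ^ m) m M b Ms hM
    (fun k hk => ⟨(hMs k hk).2.2, (hMs k hk).1.le⟩) hbig2 hco
  have hbm : 0 < b ^ m := pow_pos hb0 m
  refine ⟨b ^ m, b ^ m, M * b ^ m, c, Bad Ms M m b, Nat.mul_pos hM hbm, hbm, ?_, ?_, ?_, ?_, ?_⟩
  · intro i j hij _
    have := hc2 i j hij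
    omega
  · intro k k' l l' _ _ _ _ hk hl h1 h2
    by_contra hne
    have h3 := hc4 k' k l' l hk (fun h => hne h.2)
    rw [lt_abs] at h3
    rcases h3 with h3 | h3 <;> omega
  · intro T hT _ F hF
    exact (hc6 T hT F hF).trans (by omega)
  · intro T _
    exact bad_per hb0 (fun k hk => (hMs k hk).2.2) T
  · intro α f
    obtain ⟨lam, rho, nu, g1, g2, g3, g4⟩ := hg b hbig hco α f
    refine ⟨lam, rho, nu, fun P Q v b' h1 h2 => g2 P Q v b' h1 h2, fun P v h => (g1 P v h).le,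
      ?_, ?_⟩
    · intro Y _ hY v
      have hY' := hY
      unfold Bad at hY'
      push Not at hY'
      obtain ⟨P, Q, h1, h2, h3⟩ := g3 Y hY'.1 hY'.2 v
      exact ⟨P, Q, h1.symm, h2, h3⟩
    · intro u u' h1 h2 h3 h4 h5
      exact (g4 u u' h1 h2 h3 h5 h4).2

end Crest.Agent.R320.Gad1_908
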