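import Crest.Agent.R320.Fin_963
import Crest.Agent.R320.Univ_294
import Crest.Agent.R320.Gad1_908

/-!
# Row 320: end to end (helper908) = Fin_963 + Gad1_908 (G1_604 + Sp_901) + Univ_294.
-/

set_option autoImplicit false

namespace Crest.Agent.R320.Final_908

theorem row (α : Type*) [Finite α] (L : Language α) (hL : L.IsRegular) :
    ∃ e : Crest.RegLang.GRegExp α, e.height ≤ 3 ∧ e.lang = L :=
  Crest.Agent.R320.Univ_294.s0495_of_types
    (fun _ _ S _ _ φ s => Crest.Agent.R320.Fin_963.main φ
      (Crest.Agent.R320.Gad1_908.gad S (S → ZMod 2) _) s) α L hL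

end Crest.Agent.R320.Final_908
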