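import Crest.Agent.R320.Gad_914
import Crest.Agent.R320.LetMap_922

/-!
# Row 320: S0495 from `Fin_963.main`, `Gad_914.gad` and the universe transfer.
-/

set_option autoImplicit false

namespace Crest.Agent.R320.Final_914

open Crest.RegLang Crest.Agent.R320 Crest.Agent.R320.Hk_851

theorem fin (α : Type) [Finite α] (S : Type) [Monoid S] [Finite S] (f : α → S) (s : S) :
    HL 3 ({w | (w.map f).prod = s} : Language α) :=
  Fin_963.main f (Gad_914.gad S (S → ZMod 2) Fin_963.act) s

theorem final (α : Type*) [Finite α] (L : Language α) (hL : L.IsRegular) :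
    ∃ e : GRegExp α, e.height ≤ 3 ∧ e.lang = L :=
  LetMap_922.of_fin_result (fun n L hL => of_monoid (fun S _ _ f s => fin (Fin n) S f s) L hL)
    α L hL

end Crest.Agent.R320.Final_914

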