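import Crest.Agent.R320.Top5_120
import Crest.Agent.R320.P4N_211
import Crest.Agent.R320.J47_990
import Crest.Agent.R320.WallU_228
import Crest.Agent.R320.Sp_21
import Crest.Agent.R320.Uni_366

/-!
# Row 320: final joint (helper990)

120's top theorem (`Top5_120.top5`), 47's two completeness theorems (`Joint_47`), 211's height one
families (`P4N_211`), 228's left-looking walls, 237's exact gadget, 21's ruler for 852's gadget.
852's gadget is the hypothesis `G1`.
-/

set_option autoImplicit false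

namespace Crest.Agent.R320.Final_990

open Crest.RegLang Crest.Agent.R320.Hk_851 Crest.Agent.R320.J47_990
open Crest.Agent.R320.ExactR_237 (pr pr_append)

/-- 852's gadget, literal -/
def G1 : Prop :=
  ∀ (S V : Type) [Monoid S] [Finite S] [AddCommGroup V] [Finite V] (act : V → S → V),
  ∃ m r : ℕ, ∀ Bd : ℕ, ∃ (Ms : Finset ℕ) (M : ℕ), Ms.card ≤ r ∧
    (∀ k ∈ Ms, Bd < k ∧ k.Prime ∧ k ∣ M) ∧ 0 < M ∧
    ∀ b : ℕ, 0 < b → Nat.Coprime b M → ∀ (α : Type) (f : α → S),
    ∃ (lam rho : List α → Option V) (nu : List α → V),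
    (∀ P v, lam P = some v → P.length < b ^ m) ∧
    (∀ P Q v v', lam P = some v → rho Q = some v' →
      v' = act v ((P ++ Q).map f).prod + nu (P ++ Q)) ∧
    (∀ X : List α, (∀ k ∈ Ms, ¬ k ∣ X.length) →
      (∀ j < m, M ≤ X.length / b ^ j % b ∧ X.length / b ^ j % b + M < b) →
      ∀ v, ∃ P Q, X = P ++ Q ∧ lam P = some v ∧ ∃ v', rho Q = some v') ∧
    (∀ Q Q' : List α, Q.take (b ^ m) = Q'.take (b ^ m) →
      ((Q.drop (b ^ m)).map f).prod = ((Q'.drop (b ^ m)).map f).prod →
      Q.length % (M * b ^ m) = Q'.length % (M * b ^ m) → rho Q = rho Q' ∧ nu Q = nu Q')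

theorem Bad_period {m M b : ℕ} {Ms : Finset ℕ} (hMs : ∀ k ∈ Ms, k ∣ M) {n n' : ℕ}
    (h : n % (M * b ^ m) = n' % (M * b ^ m)) (hb : Sp_21.Bad m M b Ms n) :
    Sp_21.Bad m M b Ms n' := by
  rcases hb with ⟨k, hk, hd⟩ | ⟨j, hj, hd⟩
  · refine Or.inl ⟨k, hk, ?_⟩
    have hkM : k ∣ M * b ^ m := Dvd.dvd.mul_right (hMs k hk) _
    have e1 : n % k = n' % k := by
      rw [← Nat.mod_mod_of_dvd n hkM, ← Nat.mod_mod_of_dvd n' hkM, h]
    rw [Nat.dvd_iff_mod_eq_zero] at hd ⊢
    rw [← e1]; exact hd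
  · refine Or.inr ⟨j, hj, ?_⟩
    have hbM : b ^ j * b ∣ M * b ^ m := by
      rw [← pow_succ]
      exact Dvd.dvd.mul_left (pow_dvd_pow b hj) _
    have e1 : n / b ^ j % b = n' / b ^ j % b := by
      rw [← Nat.mod_mul_right_div_self, ← Nat.mod_mul_right_div_self,
        ← Nat.mod_mod_of_dvd n hbM, ← Nat.mod_mod_of_dvd n' hbM, h]
    rw [← e1]; exact hd

section key

variable {α S V : Type} [Monoid S] [AddCommGroup V]

theorem eq_of_take {K : ℕ} {X X' : List α} (h : X.take K = X'.take K) (hl : X.length < K) :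
    X = X' := by
  have h1 : X.take K = X := List.take_of_length_le hl.le
  have h2 : (X'.take K).length < K := by rw [← h, h1]; exact hl
  have h3 : X'.length < K := by
    rw [List.length_take] at h2
    omega
  rw [← h1, h, List.take_of_length_le h3.le]

theorem take_sub {K t : ℕ} {X X' : List α} (h : X.take K = X'.take K) (ht : t ≤ K) :
    X.take t = X'.take t := by
  have := congrArg (List.take t) h
  rwa [List.take_take, List.take_take, min_eq_left ht] at this

/-- dependence of the zone map and of the bad set -/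
theorem key (f : α → S) (act : V → S → V) (p0 N1 m M b z : ℕ) (Ms : Finset ℕ)
    (hMs : ∀ k ∈ Ms, k ∣ M) (nu2 nu1 : List α → V) (Wo : List α → Prop)
    (hbm : b ^ m = N1)
    (hF : ∀ Q Q' : List α, Q.take (b ^ m) = Q'.take (b ^ m) →
      ((Q.drop (b ^ m)).map f).prod = ((Q'.drop (b ^ m)).map f).prod →
      Q.length % (M * b ^ m) = Q'.length % (M * b ^ m) → nu1 Q = nu1 Q')
    (X X' : List α) (K : ℕ) (hK : z + N1 + p0 + N1 ≤ K) (h1 : X.take K = X'.take K)
    (h2 : X.length % (M * b ^ m) = X'.length % (M * b ^ m))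
    (h3 : ((X.drop (p0 + N1)).map f).prod = ((X'.drop (p0 + N1)).map f).prod) (v : V) :
    T f act p0 nu2 nu1 v X = T f act p0 nu2 nu1 v X' ∧
      (Bad Wo z N1 p0 (Sp_21.Bad m M b Ms) X → Bad Wo z N1 p0 (Sp_21.Bad m M b Ms) X') := by
  rcases lt_or_ge X.length K with hl | hl
  · have := eq_of_take h1 hl
    subst this
    exact ⟨rfl, fun h => h⟩
  rcases lt_or_ge X'.length K with hl' | hl'
  · have := eq_of_take h1.symm hl'
    subst this
    exact ⟨rfl, fun h => h⟩
  subst hbm
  have e0 : X.take p0 = X'.take p0 := take_sub h1 (by omega)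
  have e1 : (X.drop p0).take (b ^ m) = (X'.drop p0).take (b ^ m) := by
    have := congrArg (List.drop p0) (take_sub (t := p0 + b ^ m) h1 (by omega))
    rw [List.drop_take, List.drop_take] at this
    have e : p0 + b ^ m - p0 = b ^ m := by omega
    rwa [e] at this
  have e2 : (((X.drop p0).drop (b ^ m)).map f).prod =
      (((X'.drop p0).drop (b ^ m)).map f).prod := by
    rw [List.drop_drop, List.drop_drop]
    exact h3
  have e3 : (X.length - p0) % (M * b ^ m) = (X'.length - p0) % (M * b ^ m) := by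
    have hx : X.length = (X.length - p0) + p0 := by omega
    have hx' : X'.length = (X'.length - p0) + p0 := by omega
    have h2' : (X.length - p0) + p0 ≡ (X'.length - p0) + p0 [MOD (M * b ^ m)] := by
      rw [← hx, ← hx']; exact h2
    exact Nat.ModEq.add_right_cancel' p0 h2'
  have e4 : nu1 (X.drop p0) = nu1 (X'.drop p0) := by
    refine hF _ _ e1 e2 ?_
    rw [List.length_drop, List.length_drop]
    exact e3
  have e5 : pr f (X.drop p0) = pr f (X'.drop p0) := by
    rw [← List.take_append_drop (b ^ m) (X.drop p0), ← List.take_append_drop (b ^ m) (X'.drop p0),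
      pr_append, pr_append, e1]
    congr 1
  constructor
  · unfold T
    rw [e0, e4, e5]
  · rintro (⟨t, t1, t2, t3, t4⟩ | h)
    · refine Or.inl ⟨t, t1, t2, by omega, ?_⟩
      rw [← take_sub (t := t) h1 (by omega)]
      exact t4
    · exact Or.inr (Bad_period hMs e3 h)

end key

section main

variable {α S V : Type}

theorem mod_digit (n b j : ℕ) : n / b ^ j % b = n % (b ^ j * b) / b ^ j := by
  rw [Nat.mod_mul_right_div_self]

theorem fibresV (hG1 : G1) (α : Type) [Finite α] (S V : Type) [Monoid S] [Finite S]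
    [AddCommGroup V] [Finite V] (act : V → S → V)
    (hadd : ∀ a b s, act (a + b) s = act a s + act b s)
    (hone : ∀ v, act v 1 = v) (hmul : ∀ v s t, act v (s * t) = act (act v s) t)
    (hfaith : ∀ s t, (∀ v, act v s = act v t) → s = t) (f : α → S) (s : S) :
    HL 3 ({w | (w.map f).prod = s} : Language α) := by
  classical
  have _ : Fintype S := Fintype.ofFinite S
  have _ : Fintype V := Fintype.ofFinite V
  obtain ⟨m, r, hG⟩ := hG1 S V act
  obtain ⟨K, hK⟩ := ExactR_237.exact_gadget α S V f act (2 * (r + m) + 2)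
  obtain ⟨Ms, M, hcard, hMs, hM, hG⟩ := hG (2 ^ (K + 1))
  obtain ⟨b, hb0, hbcop, hb⟩ : ∃ b : ℕ, 0 < b ∧ Nat.Coprime b M ∧ (2 ^ (K + 4) + 2) * M < b :=
    ⟨(2 ^ (K + 4) + 2) * M + 1, by omega, by
      rw [Nat.coprime_mul_right_add_left]; exact Nat.coprime_one_left M, by omega⟩
  obtain ⟨N1, hN1⟩ : ∃ N1, b ^ m = N1 := ⟨_, rfl⟩
  obtain ⟨c, hinc, hres, hthin⟩ := Sp_21.spoil K N1 m M b Ms hM
    (fun k hk => ⟨(hMs k hk).2.2, (hMs k hk).1.le⟩) hbcop hb
  have hincK : ∀ i j, i < j → j < K → c i < c j := fun i j h _ => by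
    have := hinc i j h; omega
  obtain ⟨lam2, rho2, nu2', hS2, hC2⟩ := hK c hincK
  obtain ⟨p0, hp0⟩ : ∃ p0, p0 = c K := ⟨_, rfl⟩
  have hcp : ∀ k, k < K → c k ≤ p0 := fun k hk => by
    have := hinc k K hk; omega
  obtain ⟨n, Wo, loc, len, gap, RP, BP, pcs⟩ := WallU_228.walls (α := α) (2 * (N1 + p0))
  obtain ⟨lam, rho, nu1, hL, hS, hC, hF⟩ := hG b hb0 hbcop α f
  have hW : LW n (2 * (N1 + p0) + 1) Wo := by
    refine ⟨len, loc, fun X s t hst ht h1 h2 => ?_⟩
    by_contra hcon
    have hl : (X.take t).length = t := by rw [List.length_take]; omega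
    refine gap (X.take t) (t - s) h2 (by omega) (by omega) ?_
    rw [hl, List.take_take]
    have : min (t - (t - s)) t = s := by omega
    rw [this]
    exact h1
  obtain ⟨z, hz⟩ : ∃ z, z = 3 * p0 + n + N1 + 1 := ⟨_, rfl⟩
  let nu2 : List α → V := fun X => nu2' X 1
  let BadT : ℕ → Prop := Sp_21.Bad m M b Ms
  let nu : List α → V := fun X => act (nu2 (X.take p0)) (pr f (X.drop p0)) + nu1 (X.drop p0)
  have hTeq : ∀ v X, act v (X.map f).prod + nu X = T f act p0 nu2 nu1 v X := by
    intro v X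
    have e : (X.map f).prod = pr f (X.take p0) * pr f (X.drop p0) := by
      rw [← pr_append, List.take_append_drop]; rfl
    unfold T
    rw [e, hmul, hadd]
    simp only [nu]
    abel
  -- the height one families
  have hφ : ∀ u v : List α, (fun w : List α => (w.map f).prod) (u ++ v) =
      (fun w : List α => (w.map f).prod) u * (fun w : List α => (w.map f).prod) v := by
    intro u v; simp
  have hMpos : 0 < M * b ^ m := Nat.mul_pos hM (Nat.pow_pos hb0)
  have hMd : ∀ k ∈ Ms, k ∣ M := fun k hk => (hMs k hk).2.2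
  have hkey := fun (X X' : List α) h1 h2 h3 v =>
    key f act p0 N1 m M b z Ms hMd nu2 nu1 Wo hN1 (fun Q Q' a1 a2 a3 => (hF Q Q' a1 a2 a3).2)
      X X' (z + N1 + p0 + N1) le_rfl h1 h2 h3 v
  have hCT : ∀ x y, HL 1 ({X | X ∈ Zn Wo z ∧ act x (X.map f).prod + nu X = y} : Language α) := by
    intro x y
    exact P4N_211.hXT' (φ := fun w : List α => (w.map f).prod) hφ loc len pcs
      (fun X => act x (X.map f).prod + nu X) (z + N1 + p0 + N1) (M * b ^ m) (p0 + N1) hMpos
      (fun X X' h1 h2 h3 => by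
        simp only [hTeq]
        exact (hkey X X' h1 h2 h3 x).1) y
  let BB : Set (List α) := {X | X ∈ Zn Wo z ∧ Bad Wo z N1 p0 BadT X}
  have hBT : ∀ x y, HL 1 ({X | X ∈ BB ∧ act x (X.map f).prod + nu X = y} : Language α) := by
    intro x y
    have h := P4N_211.hXT' (Wo := Wo) (z := z) (V := V × Prop)
      (φ := fun w : List α => (w.map f).prod) hφ loc len pcs
      (fun X => (act x (X.map f).prod + nu X, Bad Wo z N1 p0 BadT X)) (z + N1 + p0 + N1)
      (M * b ^ m) (p0 + N1) hMpos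
      (fun X X' h1 h2 h3 => by
        simp only [hTeq]
        refine Prod.ext (hkey X X' h1 h2 h3 x).1 (propext ⟨(hkey X X' h1 h2 h3 x).2,
          (hkey X' X h1.symm h2.symm h3.symm x).2⟩)) (y, True)
    refine h.congr fun w => ?_
    constructor
    · rintro ⟨⟨h1, h2⟩, h3⟩
      exact ⟨h1, Prod.ext h3 (propext ⟨fun _ => trivial, fun _ => h2⟩)⟩
    · rintro ⟨h1, h2⟩
      have e1 := congrArg Prod.fst h2
      have e2 := congrArg Prod.snd h2
      exact ⟨⟨h1, of_eq_true e2⟩, e1⟩
  have htail : ∀ s, HL 1 ({w | (∀ X ∈ Zn Wo z, ¬ X <+: w) ∧ (w.map f).prod = s} : Language α) :=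
    fun s => P4N_211.hNP (φ := fun w : List α => (w.map f).prod) hφ loc len pcs s
  -- the ruler
  have hres' : ∀ i i' j j', i < K → i' < K → j < K → j' < K → i' ≠ i → j' ≠ j →
      c i + c j' < c j + c i' + 2 * N1 → c j + c i' < c i + c j' + 2 * N1 → i = j := by
    intro i i' j j' _ _ _ _ h1 h2 h3 h4
    by_contra hne
    have := hres i i' j j' (Ne.symm h1) (Ne.symm h2) (fun h => hne (congrArg Prod.fst h))
    omega
  have hT : ∀ T : ℕ, (∀ k, k < K → c k ≤ T) → ∀ I : Finset ℕ,
      (∀ k ∈ I, k < K ∧ ∃ k', k' < K ∧ k' ≠ k ∧ BadT (T + c k' - c k)) → I.card ≤ r + m := by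
    intro T hT I hI
    let g : ℕ → ℕ := fun k => if h : ∃ k', k' < K ∧ k' ≠ k ∧ BadT (T + c k' - c k) then h.choose else 0
    have hg : ∀ k ∈ I, g k < K ∧ g k ≠ k ∧ BadT (T + c (g k) - c k) := by
      intro k hk
      have h := (hI k hk).2
      simp only [g, dif_pos h]
      exact h.choose_spec
    have h1 := hthin T hT (I.image fun k => (k, g k)) (by
      intro p hp
      obtain ⟨k, hk, rfl⟩ := Finset.mem_image.1 hp
      obtain ⟨g1, g2, g3⟩ := hg k hk
      exact ⟨(hI k hk).1, g1, Ne.symm g2, g3⟩)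
    rw [Finset.card_image_of_injective _ (fun a b h => congrArg Prod.fst h)] at h1
    omega
  have hC' : ∀ Y : List α, 0 ≤ Y.length → ¬ BadT Y.length →
      ∀ v, ∃ P Q, Y = P ++ Q ∧ lam P = some v ∧ (rho Q).isSome := by
    intro Y _ hY v
    obtain ⟨P, Q, e, h1, v', h2⟩ := hC Y (fun k hk hd => hY (Or.inl ⟨k, hk, hd⟩)) (fun j hj => by
      by_contra hcon
      exact hY (Or.inr ⟨j, hj, fun h => hcon ⟨h.1, by omega⟩⟩)) v
    exact ⟨P, Q, e, h1, by rw [h2]; rfl⟩
  refine Top5_120.top5 act hadd hone hmul hfaith f nu (Zn Wo z) BB ?_ (fun X hX => hX.1)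
    (fun v => {P | L1 f act p0 nu2 lam v P}) (fun v => {P | L2 K c lam2 v P}) ?_ ?_
    hCT hBT htail ?_ ?_ s
  · refine ⟨fun h => ?_, fun X hX Y hY h => Zn_prefix hX hY h List.prefix_rfl⟩
    have := h.1
    simp at this
    omega
  · intro v
    refine (List.finite_length_le α (p0 + N1)).subset ?_
    rintro P ⟨h1, h2⟩
    have := hL _ _ h2
    rw [List.length_drop, hN1] at this
    show P.length ≤ p0 + N1
    omega
  · intro v
    refine (List.finite_length_le α p0).subset ?_
    rintro P ⟨k, h1, h2, h3⟩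
    show P.length ≤ p0
    rw [h2]
    exact hcp k h1
  · intro X hX hXb v
    obtain ⟨p, q, e, hp, _, h⟩ := complete1 (N0 := 0) f act p0 nu2 nu1 hW
      (fun P Q v r h1 h2 => hS P Q v r h1 h2)
      (fun P v h => by have := hL P v h; omega) hC' (z := z) (by omega) (by omega) hX
      (fun h => hXb ⟨hX, h⟩) v
    refine ⟨p, q, e.symm, hp, fun x P' hP' => ?_⟩
    obtain ⟨h1, h2⟩ := h x P' hP'
    exact ⟨h1, by rw [hTeq, hTeq]; exact h2⟩
  · intro X hX Y hY v
    obtain ⟨p, q, e, hp, _, h⟩ := complete2 (R1 := r + m) f act p0 nu1 hW hS2 hC2 hincK hcp hres' hT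
      (by omega) (z := z) (by omega) hX.1 hY.1 hX.2 v
    refine ⟨p, q, e.symm, hp, fun x P' hP' => ?_⟩
    rcases h x P' hP' with ⟨a, a1, a2, a3, a4⟩ | ⟨a, a1, a2, a3⟩
    · refine Or.inl ⟨a, ⟨a1, a2⟩, Y, hY.1, a3.symm, ?_⟩
      have e4 : act x (a.map f).prod + nu a = act v (X.map f).prod + nu X := by
        rw [hTeq, hTeq]; exact a4
      rw [e4]
    · exact Or.inr ⟨a, a1, fun h => a2 h.2, a3⟩

theorem fibres (hG1 : G1) (α : Type) [Finite α] (S : Type) [Monoid S] [Finite S] (f : α → S) (s : S) :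
    HL 3 ({w | (w.map f).prod = s} : Language α) := by
  classical
  refine fibresV hG1 α S (S → ZMod 2) (fun v s x => v (s * x)) ?_ ?_ ?_ ?_ f s
  · intro a b s
    rfl
  · intro v
    funext x
    simp only [one_mul]
  · intro v s t
    funext x
    simp only [mul_assoc]
  · intro s t h
    have h1 := congrFun (h (fun x => if x = s then 1 else 0)) 1
    simp only [mul_one, if_true] at h1
    by_contra hne
    rw [if_neg (fun h => hne h.symm)] at h1
    exact one_ne_zero h1

end main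

universe u

theorem of_G1 (hG1 : G1) (α : Type u) [Finite α] (L : Language α) (hL : L.IsRegular) :
    ∃ e : GRegExp α, e.height ≤ 3 ∧ e.lang = L :=
  Uni_366.final1 (fun α _ S _ _ φ s => fibres hG1 α S φ s) α L hL

end Crest.Agent.R320.Final_990
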