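import Crest.Agent.R320.Zone132_898
import Crest.Agent.R320.WallSch_870
import Crest.Agent.R320.Ruler2_537
import Crest.Agent.R320.ExactR_237
import Crest.Agent.R320.Wall_291

/-!
Row 320: the four buffer statements (SC1), (CP1), (SC2), (CP2) of helper131's HALF 1 glue for
helper132's two wall schemes, from 898's zone gadget, 870's threshold junctions, 237's exact
gadget and 537's spoiling count.
-/

set_option autoImplicit false

namespace Crest.Agent.R320.Four_715

open Crest.Agent.R320.WallSch_870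
open Crest.Agent.R320.Zone132_898 (Rule FW zt Data)
open Crest.Agent.R320

/-- the configuration -/
structure Cfg (α S V W : Type) [Monoid S] [AddCommGroup V] [AddCommGroup W] where
  f : α → S
  D : Data α S V W
  hphi : D.phi = ExactR_237.pr f
  Cl : List α → Prop
  clf : ∀ u v w, Cl (u ++ v ++ w) → Cl v
  Ro : List α → Prop
  no : ℕ
  hno : 0 < no
  ho1 : ∀ Q, Ro Q ↔ Ro (Q.take no)
  ho2 : ∀ Q, Ro Q → no ≤ Q.length
  Go : ℕ
  ho3 : ∀ Q, Cl Q → Go + no ≤ Q.length → ∃ i < Go, Ro (Q.drop i)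
  Gs : ℕ
  hs3 : ∀ Q, Cl Q → Gs + D.r.n ≤ Q.length → ∃ i < Gs, D.r.R (Q.drop i)
  P : ThrChain260.Par
  p0 : ℕ
  z : ℕ
  N1 : ℕ
  T : ℕ
  eM : P.M = D.q
  ez : P.z = z
  ep : P.p0 = p0
  eN : P.N1 = N1
  eS : P.S = T
  h1 : p0 + N1 + T < z
  hA : ∀ k, k ≤ D.m → D.q * D.M ≤ D.A k
  Bm : ℕ
  hBm : z + T + Go + no ≤ Bm
  hlo : ∀ i, i < D.m → D.A i + Gs + D.r.n ≤ D.q * D.lo i
  hN1 : ∀ i, i < D.m → D.q * (D.lo i + D.M) ≤ N1
  hAm : ∀ k, k ≤ D.m → D.A k + Gs + D.r.n ≤ N1
  nm1 : D.N1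
  nm2 : D.N2
  nm3 : D.N3
  hid : D.Hides
  /-- the places of scheme 2 -/
  K : ℕ
  c : ℕ → ℕ
  hc : ∀ i j, i < j → j < K → c i < c j
  hcp : ∀ k < K, c k ≤ p0
  lam : ℕ → List α → Option V
  rho : ℕ → List α → S → Option V
  nu2 : List α → S → V
  ex : ∀ k < K, ∀ (P Q : List α) (y : S) (v b : V), P.length = c k →
    lam k P = some v → rho k Q y = some b → b = D.act v (ExactR_237.pr f (P ++ Q) * y) + nu2 (P ++ Q) y
  C0 : ℕ
  co : ∀ (u : List α) (y : S) (v : V), (∀ k < K, c k ≤ u.length) →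
    ∃ I : Finset ℕ, C0 + 1 ≤ I.card ∧ ∀ k ∈ I, k < K ∧ lam k (u.take (c k)) = some v ∧
      (rho k (u.drop (c k)) y).isSome
  rr : ℕ
  mm : ℕ → ℤ
  hB : ∀ n : ℕ, D.B n → ∃ i < rr, mm i ∣ (n : ℤ)
  hC0 : 1 + (D.m + 1) + 2 * rr ≤ C0
  R2 : Ruler2_537.Ruler2 P (D.q * D.M : ℕ) mm rr ((Finset.range K).image fun k => (c k : ℤ))
  gapo : ∀ Q d, Ro Q → 0 < d → d ≤ 2 * (T + P.L.toNat) → ¬ Ro (Q.drop d)
  gaps : ∀ Q d, D.r.R Q → 0 < d → d ≤ 2 * (D.q * D.M + P.L.toNat) → ¬ D.r.R (Q.drop d)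
  hcq : ∀ k < K, Bm - z + T ≤ c k

namespace Cfg

variable {α S V W : Type} [Monoid S] [AddCommGroup V] [AddCommGroup W] (C : Cfg α S V W)

def Okk (t : ℕ) : Prop := Ok132 C.P.z C.P.M C.P.s t

def NxAt (s : ℕ) (Q : List α) (t : ℕ) : Prop := Nx C.Ro (fun t => C.Okk (s + t)) Q t

def EAt (s : ℕ) (Q : List α) : Prop :=
  ∃ t, C.Ro (Q.drop t) ∧ |((s + t : ℕ) : ℤ) - C.P.z - C.P.s ((((s + t : ℕ) : ℤ) - C.P.z) % C.P.M)|
    ≤ C.P.N1

def DAt (s : ℕ) (Q : List α) : Prop :=
  ∃ k, k ≤ C.D.m ∧ ∃ t, C.D.r.R (Q.drop t) ∧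
    |((s + t : ℕ) : ℤ) - C.P.p0 - (C.D.A k : ℤ)| ≤ ((C.D.q * C.D.M : ℕ) : ℤ)

def BAt (s : ℕ) (Q : List α) : Prop :=
  ∃ t, C.NxAt s Q t ∧ C.D.B ((s + t - C.p0) / C.D.q)

def BadAt (s : ℕ) (Q : List α) : Prop := C.EAt s Q ∨ C.DAt s Q ∨ C.BAt s Q

def Bad (Q : List α) : Prop := C.BadAt 0 Q

theorem hs' (r : ℤ) : |C.P.s r| ≤ (C.T : ℤ) - C.N1 := by
  have := C.P.hs r
  rwa [C.eS, C.eN] at this

theorem ok_ge {t : ℕ} (h : C.Okk t) : C.z ≤ t + C.T := by
  unfold Okk Ok132 at h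
  have h2 := C.hs' (((t : ℤ) - C.P.z) % C.P.M)
  have h3 := abs_le.mp h2
  rw [C.ez] at h h3
  have h4 := h3.1
  omega

theorem ok_of_ge {t : ℕ} (h : C.z + C.T ≤ t) : C.Okk t := by
  unfold Okk Ok132
  have h2 := C.hs' (((t : ℤ) - C.P.z) % C.P.M)
  have h3 := abs_le.mp h2
  rw [C.ez] at h3 ⊢
  have h4 := h3.2
  omega

theorem Ro_app {Q : List α} {t : ℕ} (X : List α) (h : C.Ro (Q.drop t)) :
    C.Ro ((Q ++ X).drop t) := by
  have h2 := R_drop_len C.ho2 h C.hno
  exact (R_drop_app C.ho1 X h2).2 h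

theorem Rs_app {Q : List α} {t : ℕ} (X : List α) (h : C.D.r.R (Q.drop t)) :
    C.D.r.R ((Q ++ X).drop t) := by
  have h2 := R_drop_len C.D.r.len h C.D.r.pos
  exact (R_drop_app C.D.r.take_iff X h2).2 h

theorem NxAt_len {s : ℕ} {Q : List α} {t : ℕ} (h : C.NxAt s Q t) : t + C.no ≤ Q.length :=
  R_drop_len C.ho2 h.1 C.hno

theorem NxAt_app {s : ℕ} {Q : List α} {t : ℕ} (X : List α) (h : C.NxAt s Q t) :
    C.NxAt s (Q ++ X) t :=
  (Nx_app C.ho1 X (C.NxAt_len h)).2 h

theorem NxAt_of_app {s : ℕ} {Q : List α} {t : ℕ} (X : List α) (h : C.NxAt s (Q ++ X) t)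
    (h2 : t + C.no ≤ Q.length) : C.NxAt s Q t :=
  (Nx_app C.ho1 X h2).1 h

theorem BadAt_app {s : ℕ} {Q : List α} (X : List α) (h : C.BadAt s Q) : C.BadAt s (Q ++ X) := by
  rcases h with ⟨t, h1, h2⟩ | ⟨k, hk, t, h1, h2⟩ | ⟨t, h1, h2⟩
  · exact Or.inl ⟨t, C.Ro_app X h1, h2⟩
  · exact Or.inr (Or.inl ⟨k, hk, t, C.Rs_app X h1, h2⟩)
  · exact Or.inr (Or.inr ⟨t, C.NxAt_app X h1, h2⟩)

theorem drop_add' (A B : List α) (t : ℕ) : (A ++ B).drop (A.length + t) = B.drop t := by
  rw [← List.drop_drop, List.drop_left]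

/-- moving the place to the right -/
theorem NxAt_shift {A Q : List α} {s t : ℕ} (hA : s + A.length ≤ C.p0)
    (h : C.NxAt s (A ++ Q) t) : ∃ t', t = A.length + t' ∧ C.NxAt (s + A.length) Q t' := by
  have h1 := C.ok_ge h.2.1
  have h2 := C.h1
  obtain ⟨t', rfl⟩ : ∃ t', t = A.length + t' := ⟨t - A.length, by omega⟩
  refine ⟨t', rfl, ?_, ?_, ?_⟩
  · have := h.1
    rwa [drop_add'] at this
  · have h3 : C.Okk (s + (A.length + t')) := h.2.1
    change C.Okk (s + A.length + t')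
    rwa [← Nat.add_assoc] at h3
  · intro u hu hR hO
    refine h.2.2 (A.length + u) (by omega) ?_ ?_
    · rw [drop_add']; exact hR
    · change C.Okk (s + (A.length + u))
      rwa [← Nat.add_assoc]

theorem NxAt_unshift {A Q : List α} {s t' : ℕ} (hA : s + A.length ≤ C.p0)
    (h : C.NxAt (s + A.length) Q t') : C.NxAt s (A ++ Q) (A.length + t') := by
  refine ⟨?_, ?_, ?_⟩
  · rw [drop_add']; exact h.1
  · have h3 : C.Okk (s + A.length + t') := h.2.1
    change C.Okk (s + (A.length + t'))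
    rwa [Nat.add_assoc] at h3
  · intro u hu hR hO
    have h1 := C.ok_ge hO
    have h2 := C.h1
    obtain ⟨u', rfl⟩ : ∃ u', u = A.length + u' := ⟨u - A.length, by omega⟩
    rw [drop_add'] at hR
    refine h.2.2 u' (by omega) hR ?_
    have h3 : C.Okk (s + (A.length + u')) := hO
    change C.Okk (s + A.length + u')
    rwa [← Nat.add_assoc] at h3

theorem BadAt_shift {A Q : List α} {s : ℕ} (hA : s + A.length ≤ C.p0) (h : C.BadAt s (A ++ Q)) :
    C.BadAt (s + A.length) Q := by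
  have hh := C.h1
  rcases h with ⟨t, h1, h2⟩ | ⟨k, hk, t, h1, h2⟩ | ⟨t, h1, h2⟩
  · left
    have h3 := C.hs' ((((s + t : ℕ) : ℤ) - C.P.z) % C.P.M)
    have h4 := abs_le.mp h3
    have h5 := abs_le.mp h2
    have h6 := h5.1
    have h7 := h4.1
    rw [C.ez, C.eN] at h6
    rw [C.ez] at h7
    obtain ⟨t', rfl⟩ : ∃ t', t = A.length + t' := ⟨t - A.length, by omega⟩
    refine ⟨t', ?_, ?_⟩
    · rwa [drop_add'] at h1
    · rwa [← Nat.add_assoc] at h2
  · right; left
    have h5 := abs_le.mp h2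
    have h6 := h5.1
    rw [C.ep] at h6
    have h7 := C.hA k hk
    obtain ⟨t', rfl⟩ : ∃ t', t = A.length + t' := ⟨t - A.length, by omega⟩
    refine ⟨k, hk, t', ?_, ?_⟩
    · rwa [drop_add'] at h1
    · rwa [← Nat.add_assoc] at h2
  · right; right
    obtain ⟨t', rfl, h3⟩ := C.NxAt_shift hA h1
    refine ⟨t', h3, ?_⟩
    rwa [← Nat.add_assoc] at h2

/-- walls exist -/
theorem exists_NxAt {Q : List α} (h : C.Cl Q) (hl : C.Bm ≤ Q.length) :
    ∃ t, C.NxAt 0 Q t ∧ t + C.no ≤ C.Bm := by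
  have h1 := C.hBm
  have h2 : C.Cl (Q.drop (C.z + C.T)) := by
    refine C.clf (Q.take (C.z + C.T)) _ [] ?_
    simpa using h
  obtain ⟨i, hi, hR⟩ := C.ho3 _ h2 (by rw [List.length_drop]; omega)
  rw [List.drop_drop] at hR
  obtain ⟨t, ht, hN⟩ := exists_Nx (Ok := fun t => C.Okk (0 + t)) hR
    (by rw [Nat.zero_add]; exact C.ok_of_ge (by omega))
  exact ⟨t, hN, by omega⟩

theorem NxAt_uniq {s : ℕ} {Q : List α} {t t' : ℕ} (h : C.NxAt s Q t) (h' : C.NxAt s Q t') :
    t = t' := Nx_uniq h h'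

open Classical in
noncomputable def nxAt (s : ℕ) (Q : List α) : Option ℕ :=
  if h : ∃ t, C.NxAt s Q t then some h.choose else none

theorem nxAt_eq {s : ℕ} {Q : List α} {t : ℕ} : C.nxAt s Q = some t ↔ C.NxAt s Q t := by
  unfold nxAt
  constructor
  · intro h
    by_cases hex : ∃ t, C.NxAt s Q t
    · rw [dif_pos hex] at h
      have := hex.choose_spec
      rw [Option.some.inj h] at this
      exact this
    · rw [dif_neg hex] at h
      exact absurd h (by simp)
  · intro h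
    have hex : ∃ t, C.NxAt s Q t := ⟨t, h⟩
    rw [dif_pos hex]
    exact congrArg some (C.NxAt_uniq hex.choose_spec h)

open Classical in
/-- the next anchor, read on words of length `Bm` -/
noncomputable def N (y : List α) : ℕ := (C.nxAt 0 y).getD C.Bm

theorem N_eq {y : List α} {t : ℕ} (h : C.NxAt 0 y t) : C.N y = t := by
  unfold N
  rw [C.nxAt_eq.2 h]
  rfl

theorem N_pos (y : List α) (hy : y.length = C.Bm) : 0 < C.N y ∧ C.N y ≤ C.Bm := by
  have hh := C.h1
  have hb := C.hBm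
  unfold N
  rcases h : C.nxAt 0 y with _ | t
  · simp only [Option.getD_none]
    have := C.hno
    omega
  · have h2 := C.nxAt_eq.1 h
    have h3 := C.ok_ge h2.2.1
    have h4 := C.NxAt_len h2
    simp only [Option.getD_some]
    omega

theorem N_big (y : List α) : C.Bm - C.N y ≤ C.Bm - C.z + C.T := by
  have hh := C.h1
  have hb := C.hBm
  unfold N
  rcases h : C.nxAt 0 y with _ | t
  · simp only [Option.getD_none]
    omega
  · have h2 := C.nxAt_eq.1 h
    have h3 := C.ok_ge h2.2.1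
    simp only [Option.getD_some]
    omega

noncomputable def nX (X : List α) : V := C.nu2 X 1

open Classical in
/-- the zone map -/
noncomputable def zm (y : List α) (v : V) : V :=
  C.D.act (C.D.act v (C.D.phi (y.take C.p0)) + C.nX (y.take C.p0))
    (C.D.phi ((y.take (C.N y)).drop C.p0)) + C.D.nu ((y.take (C.N y)).drop C.p0)

/-! ### scheme 1 -/

def LLp (o : ℕ) : Prop := LL132 C.p0 C.N1 C.P.M o

theorem sep : ∀ s o, C.Okk s → C.LLp o → o < s := by
  intro s o hs ho
  have h1 := C.ok_ge hs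
  have h2 := ho.2.1
  have h3 := C.h1
  omega

def L1 (u : List α) (v : V) : Prop :=
  C.p0 ≤ u.length ∧ C.D.LL (u.drop C.p0) (C.D.act v (C.D.phi (u.take C.p0)) + C.nX (u.take C.p0))

def R1p (r : List α) (p : ℕ × V) : Prop :=
  Fs C.Ro C.Okk C.LLp r p.1 ∧ C.D.RR (r.take p.1) p.2

open Classical in
noncomputable def R1 (r : List α) : Option (ℕ × V) :=
  if h : ∃ p : ℕ × V, C.R1p r p then some h.choose else none

theorem R1_spec {r : List α} {p : ℕ × V} (h : C.R1 r = some p) : C.R1p r p := by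
  classical
  unfold R1 at h
  by_cases hex : ∃ p : ℕ × V, C.R1p r p
  · rw [dif_pos hex] at h
    have := hex.choose_spec
    rw [Option.some.inj h] at this
    exact this
  · rw [dif_neg hex] at h
    exact absurd h (by simp)

theorem R1_isSome {r : List α} {p : ℕ × V} (h : C.R1p r p) : (C.R1 r).isSome := by
  classical
  unfold R1
  rw [dif_pos ⟨p, h⟩]
  rfl

theorem LLp_of_LL {u : List α} {v : V} (h : C.L1 u v) : C.LLp u.length := by
  obtain ⟨h1, c, om, H, hP, hi, hlo, hhi, -⟩ := h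
  have h2 := C.hN1 c.i hi
  have h3 : C.D.q * om ≤ C.D.q * (C.D.lo c.i + C.D.M) := Nat.mul_le_mul_left _ (by omega)
  rw [List.length_drop] at hP
  refine ⟨h1, by omega, ?_⟩
  rw [C.eM]
  refine ⟨om, ?_⟩
  have : u.length = C.p0 + C.D.q * om := by omega
  rw [this]
  push_cast
  ring

theorem SC1 (D₁ : ℕ) (hD : C.Bm ≤ D₁) (u r : List α) (v b : V) (d : ℕ) (hcl : C.Cl (u ++ r))
    (hr : r.length = D₁) (hL : C.L1 u v) (hR : C.R1 r = some (d, b)) :
    C.N ((u ++ r).take C.Bm) = u.length + d ∧ C.zm ((u ++ r).take C.Bm) v = b := by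
  have h := C.R1_spec hR
  obtain ⟨hF, hRR⟩ := h
  simp only at hF hRR
  have hLp := C.LLp_of_LL hL
  have hj : Nx C.Ro C.Okk (u ++ r) (u.length + d) := junc C.sep hLp hF
  obtain ⟨t, ht, htB⟩ := C.exists_NxAt hcl (by rw [List.length_append]; omega)
  have ht' : Nx C.Ro C.Okk (u ++ r) t := by
    have : (fun t => C.Okk (0 + t)) = C.Okk := by funext x; rw [Nat.zero_add]
    unfold NxAt at ht
    rwa [this] at ht
  have hte := Nx_uniq hj ht'
  have hsplit : (u ++ r).take C.Bm ++ (u ++ r).drop C.Bm = u ++ r := List.take_append_drop _ _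
  have hlen : ((u ++ r).take C.Bm).length = C.Bm := by
    rw [List.length_take, List.length_append]; omega
  have ht2 : C.NxAt 0 ((u ++ r).take C.Bm) t := by
    refine C.NxAt_of_app ((u ++ r).drop C.Bm) ?_ (by rw [hlen]; exact htB)
    rwa [hsplit]
  have hN : C.N ((u ++ r).take C.Bm) = u.length + d := by
    rw [C.N_eq ht2, hte]
  refine ⟨hN, ?_⟩
  have hp0 := hL.1
  have hpB : u.length + d ≤ C.Bm := by omega
  have e1 : ((u ++ r).take C.Bm).take C.p0 = u.take C.p0 := by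
    rw [List.take_take, min_eq_left (by omega), List.take_append_of_le_length hp0]
  have e2 : (((u ++ r).take C.Bm).take (C.N ((u ++ r).take C.Bm))).drop C.p0
      = u.drop C.p0 ++ r.take d := by
    rw [hN, List.take_take, min_eq_left hpB, List.take_length_add_append,
      List.drop_append_of_le_length hp0]
  unfold zm
  rw [e1, e2]
  exact (C.D.sound C.nm1 C.nm2 hL.2 hRR).symm

theorem Cl_take {t : List α} (h : C.Cl t) (n : ℕ) : C.Cl (t.take n) := by
  refine C.clf [] _ (t.drop n) ?_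
  simpa using h

theorem Cl_drop {t : List α} (h : C.Cl t) (n : ℕ) : C.Cl (t.drop n) := by
  refine C.clf (t.take n) _ [] ?_
  simpa using h

theorem Okk0 : (fun t => C.Okk (0 + t)) = C.Okk := by
  funext x; rw [Nat.zero_add]

/-- the first small wall behind `y` -/
theorem exists_FW {Z : List α} (h : C.Cl Z) {y : ℕ} (hl : y + C.Gs + C.D.r.n ≤ Z.length) :
    ∃ t, FW C.D.r Z y t ∧ t ≤ y + C.Gs := by
  classical
  obtain ⟨i, hi, hR⟩ := C.hs3 _ (C.Cl_drop h y) (by rw [List.length_drop]; omega)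
  rw [List.drop_drop] at hR
  have hex : ∃ t, y ≤ t ∧ C.D.r.R (Z.drop t) := ⟨y + i, by omega, hR⟩
  refine ⟨Nat.find hex, ⟨(Nat.find_spec hex).1, (Nat.find_spec hex).2, ?_⟩, ?_⟩
  · intro t' h1 h2 h3
    exact Nat.find_min hex h2 ⟨h1, h3⟩
  · exact le_trans (Nat.find_min' hex ⟨by omega, hR⟩) (by omega)

theorem CP1 (D₁ : ℕ) (hD : C.Bm ≤ D₁) (t : List α) (hcl : C.Cl t) (hl : C.Bm + D₁ ≤ t.length)
    (hbad : ¬ C.Bad (t.take C.Bm)) (v : V) :
    ∃ x, C.p0 ≤ x ∧ x < C.Bm ∧ C.L1 (t.take x) v ∧ (C.R1 ((t.drop x).take D₁)).isSome := by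
  have hh := C.h1
  have hBm := C.hBm
  have hlenB : (t.take C.Bm).length = C.Bm := by rw [List.length_take]; omega
  obtain ⟨τ, hτ, hτB⟩ := C.exists_NxAt (C.Cl_take hcl C.Bm) (by rw [hlenB])
  have hτge : C.z ≤ τ + C.T := by
    have := C.ok_ge hτ.2.1
    omega
  have hnE : ¬ C.EAt 0 (t.take C.Bm) := fun h => hbad (Or.inl h)
  have hnD : ¬ C.DAt 0 (t.take C.Bm) := fun h => hbad (Or.inr (Or.inl h))
  have hnB : ¬ C.BAt 0 (t.take C.Bm) := fun h => hbad (Or.inr (Or.inr h))
  -- the window word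
  set Z : List α := (t.take τ).drop C.p0 with hZ
  have hZlen : Z.length = τ - C.p0 := by
    rw [hZ, List.length_drop, List.length_take]; omega
  have hZcl : C.Cl Z := C.Cl_drop (C.Cl_take hcl τ) _
  have hBB : ¬ C.D.B (Z.length / C.D.q) := by
    intro hB
    apply hnB
    refine ⟨τ, hτ, ?_⟩
    rw [hZlen] at hB
    rwa [Nat.zero_add]
  have hexH : ∀ k, ∃ h : ℕ, k ≤ C.D.m → FW C.D.r Z (C.D.A k) h ∧ h ≤ C.D.A k + C.Gs := by
    intro k
    by_cases hk : k ≤ C.D.m
    · have h1 := C.hAm k hk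
      obtain ⟨h, h2, h3⟩ := C.exists_FW hZcl (y := C.D.A k) (by rw [hZlen]; omega)
      exact ⟨h, fun _ => ⟨h2, h3⟩⟩
    · exact ⟨0, fun h => absurd h hk⟩
  choose H hH using hexH
  have hZdrop : ∀ s, C.D.r.R (Z.drop s) → C.D.r.R ((t.take C.Bm).drop (C.p0 + s)) := by
    intro s hs
    have h1 : (t.take C.Bm).drop C.p0 = Z ++ ((t.take C.Bm).drop τ) := by
      have h2 : t.take C.Bm = t.take τ ++ (t.take C.Bm).drop τ := by
        have h3 := List.take_append_drop τ (t.take C.Bm)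
        rw [List.take_take, min_eq_left (by omega)] at h3
        exact h3.symm
      rw [hZ]
      conv_lhs => rw [h2]
      rw [List.drop_append_of_le_length (by rw [List.length_take]; omega)]
    rw [← List.drop_drop, h1]
    exact C.Rs_app _ hs
  obtain ⟨P, Q, i, om, hPQ, hi, hP, hlo1, hlo2, hLL, b, hRR⟩ :=
    C.D.complete C.nm3 C.hid (G := C.Gs) (Z := Z) hBB H (fun k hk => (hH k hk).1)
      (fun k hk => (hH k hk).2) C.hlo
      (by
        intro k hk s hs1 hs2 hs3
        apply hnD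
        refine ⟨k, hk, C.p0 + s, hZdrop s hs3, ?_⟩
        rw [C.ep, abs_le]
        push_cast
        constructor <;> nlinarith [hs1, hs2])
      (by
        intro i hi
        have h1 := C.hN1 i hi
        rw [hZlen]
        omega)
      (C.D.act v (C.D.phi (t.take C.p0)) + C.nX (t.take C.p0))
  have hPlen : P.length + Q.length = τ - C.p0 := by
    rw [← hZlen, hPQ, List.length_append]
  have hPN : P.length ≤ C.N1 := by
    have h1 := C.hN1 i hi
    have h2 : C.D.q * om ≤ C.D.q * (C.D.lo i + C.D.M) := Nat.mul_le_mul_left _ (by omega)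
    omega
  refine ⟨C.p0 + P.length, by omega, by omega, ?_, ?_⟩
  · have e1 : (t.take (C.p0 + P.length)).take C.p0 = t.take C.p0 := by
      rw [List.take_take, min_eq_left (by omega)]
    have e2 : (t.take (C.p0 + P.length)).drop C.p0 = P := by
      have h2 : (t.take (C.p0 + P.length)).drop C.p0 = Z.take P.length := by
        rw [hZ, List.drop_take, List.drop_take, List.take_take, Nat.add_sub_cancel_left]
        congr 1
        omega
      rw [h2, hPQ, List.take_left]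
    refine ⟨by rw [List.length_take]; omega, ?_⟩
    rw [e1, e2]
    exact hLL
  · have hLp : C.LLp (C.p0 + P.length) := by
      refine ⟨by omega, by omega, ?_⟩
      rw [C.eM, hP]
      exact ⟨om, by push_cast; ring⟩
    have hF0 : (t.take C.Bm).take (C.p0 + P.length) ++ (t.take C.Bm).drop (C.p0 + P.length)
        = t.take C.Bm := List.take_append_drop _ _
    have hlen1 : ((t.take C.Bm).take (C.p0 + P.length)).length = C.p0 + P.length := by
      rw [List.length_take, hlenB]; omega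
    have hNx : Nx C.Ro (Ok132 C.P.z C.P.M C.P.s)
        ((t.take C.Bm).take (C.p0 + P.length) ++ (t.take C.Bm).drop (C.p0 + P.length)) τ := by
      rw [hF0]
      have := hτ
      unfold NxAt at this
      rw [C.Okk0] at this
      exact this
    have hFs := Fs_of_notE (R := C.Ro) (z := C.P.z) (M := C.P.M) (th := C.P.s) (S := (C.T : ℤ))
      (p := C.p0) (N := C.N1)
      (by
        intro r
        have h2 := abs_le.mp (C.hs' r)
        have h3 := h2.1
        omega)
      (by rw [C.ez]; omega) hNx (by rw [hlen1]; exact hLp)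
      (by
        intro s hs hR
        by_contra hc
        apply hnE
        rw [hF0] at hR
        refine ⟨s, hR, ?_⟩
        rw [Nat.zero_add, C.eN]
        omega)
    rw [hlen1] at hFs
    obtain ⟨hx1, hFs⟩ := hFs
    have hpre : (t.drop (C.p0 + P.length)).take D₁
        = (t.take C.Bm).drop (C.p0 + P.length) ++
          ((t.drop (C.p0 + P.length)).take D₁).drop (C.Bm - (C.p0 + P.length)) := by
      have h2 := List.take_append_drop (C.Bm - (C.p0 + P.length))
        ((t.drop (C.p0 + P.length)).take D₁)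
      rw [List.take_take, min_eq_left (by omega), ← List.drop_take] at h2
      exact h2.symm
    refine C.R1_isSome (p := (τ - (C.p0 + P.length), b)) ⟨?_, ?_⟩
    · rw [hpre]
      refine (Fs_app C.ho1 _ ?_).2 hFs
      rw [List.length_drop, hlenB]
      simp only
      omega
    · simp only
      have e3 : ((t.drop (C.p0 + P.length)).take D₁).take (τ - (C.p0 + P.length)) = Q := by
        rw [List.take_take, min_eq_left (by omega)]
        have h2 : Z.drop P.length = Q := by rw [hPQ, List.drop_left]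
        rw [← h2, hZ, List.drop_drop, List.drop_take]
      rw [e3]
      exact hRR

/-! ### scheme 2 -/

def IsCand (r : List α) (k : ℕ) : Prop :=
  k < C.K ∧ C.BadAt (C.c k) r ∧ ∀ k' < C.K, C.BadAt (C.c k') r → k' = k

def L2 (u : List α) (v : V) : Prop := ∃ k < C.K, u.length = C.c k ∧ C.lam k u = some v

def R2p (r : List α) (p : ℕ × V) : Prop :=
  ∃ k, C.IsCand r k ∧ C.NxAt (C.c k) r p.1 ∧ ∃ b0, C.rho k (r.take (C.p0 - C.c k)) 1 = some b0 ∧
    p.2 = C.D.act b0 (C.D.phi ((r.take p.1).drop (C.p0 - C.c k))) +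
      C.D.nu ((r.take p.1).drop (C.p0 - C.c k))

open Classical in
noncomputable def R2f (r : List α) : Option (ℕ × V) :=
  if h : ∃ p : ℕ × V, C.R2p r p then some h.choose else none

theorem R2_spec {r : List α} {p : ℕ × V} (h : C.R2f r = some p) : C.R2p r p := by
  classical
  unfold R2f at h
  by_cases hex : ∃ p : ℕ × V, C.R2p r p
  · rw [dif_pos hex] at h
    have := hex.choose_spec
    rw [Option.some.inj h] at this
    exact this
  · rw [dif_neg hex] at h
    exact absurd h (by simp)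

theorem R2_isSome {r : List α} {p : ℕ × V} (h : C.R2p r p) : (C.R2f r).isSome := by
  classical
  unfold R2f
  rw [dif_pos ⟨p, h⟩]
  rfl

theorem SC2 (D₂ : ℕ) (hD : C.Bm ≤ D₂) (u r : List α) (v b : V) (d : ℕ) (hcl : C.Cl (u ++ r))
    (hr : r.length = D₂) (hL : C.L2 u v) (hR : C.R2f r = some (d, b))
    (hbad : C.Bad ((u ++ r).take C.Bm)) :
    C.N ((u ++ r).take C.Bm) = u.length + d ∧ C.zm ((u ++ r).take C.Bm) v = b := by
  have hh := C.h1
  have hBm := C.hBm
  obtain ⟨k', hk', hN', b0, hb0, hb⟩ := C.R2_spec hR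
  simp only at hN' hb
  obtain ⟨k, hk, hu, hlam⟩ := hL
  have hcp := C.hcp k hk
  have hcut : (u ++ r).take C.Bm = u ++ r.take (C.Bm - u.length) := by
    rw [List.take_append, List.take_of_length_le (by omega)]
  have hk1 : C.BadAt (C.c k) r := by
    have h1 : C.BadAt 0 (u ++ r.take (C.Bm - u.length)) := by
      rw [← hcut]; exact hbad
    have h2 := C.BadAt_shift (by omega) h1
    rw [Nat.zero_add, hu] at h2
    have h3 := C.BadAt_app (r.drop (C.Bm - C.c k)) h2
    rwa [List.take_append_drop] at h3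
  have hkk : k = k' := hk'.2.2 k hk hk1
  subst hkk
  have hj : C.NxAt 0 (u ++ r) (u.length + d) := by
    refine C.NxAt_unshift (by omega) ?_
    rwa [Nat.zero_add, hu]
  obtain ⟨t, ht, htB⟩ := C.exists_NxAt hcl (by rw [List.length_append]; omega)
  have hte := C.NxAt_uniq hj ht
  have hsplit : (u ++ r).take C.Bm ++ (u ++ r).drop C.Bm = u ++ r := List.take_append_drop _ _
  have hlen : ((u ++ r).take C.Bm).length = C.Bm := by
    rw [List.length_take, List.length_append]; omega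
  have ht2 : C.NxAt 0 ((u ++ r).take C.Bm) t := by
    refine C.NxAt_of_app ((u ++ r).drop C.Bm) ?_ (by rw [hlen]; exact htB)
    rwa [hsplit]
  have hN : C.N ((u ++ r).take C.Bm) = u.length + d := by
    rw [C.N_eq ht2, hte]
  refine ⟨hN, ?_⟩
  have hge := C.ok_ge ht.2.1
  have hpB : u.length + d ≤ C.Bm := by omega
  have e1 : ((u ++ r).take C.Bm).take C.p0 = u ++ r.take (C.p0 - C.c k) := by
    rw [List.take_take, min_eq_left (by omega), List.take_append,
      List.take_of_length_le (by omega), hu]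
  have e2 : (((u ++ r).take C.Bm).take (C.N ((u ++ r).take C.Bm))).drop C.p0
      = (r.take d).drop (C.p0 - C.c k) := by
    rw [hN, List.take_take, min_eq_left hpB, List.take_length_add_append,
      List.drop_append, List.drop_eq_nil_of_le (by omega), hu, List.nil_append]
  have hex := C.ex k hk u (r.take (C.p0 - C.c k)) 1 v b0 hu hlam hb0
  unfold zm
  rw [e1, e2, hb, hex, mul_one, C.hphi]
  rfl

theorem to537 {t : List α} {k k' : ℕ} (hk : k < C.K) (hk' : k' < C.K)
    (h : C.BadAt (C.c k') (t.drop (C.c k))) :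
    Ruler2_537.Bad C.P (fun τ => 0 ≤ τ ∧ C.Ro (t.drop τ.toNat))
      (fun τ => 0 ≤ τ ∧ C.D.r.R (t.drop τ.toNat)) (fun j => (C.p0 : ℤ) + C.D.A j)
      ((C.D.q * C.D.M : ℕ) : ℤ) (C.D.m + 1) C.mm C.rr (0 + ((C.c k : ℤ) - C.c k')) := by
  have hh := C.h1
  have hc1 := C.hcp k hk
  have hc2 := C.hcp k' hk'
  have hnat : ∀ x : ℕ, ((C.c k : ℤ) + x).toNat = C.c k + x := by intro x; omega
  rcases h with ⟨x, h1, h2⟩ | ⟨j, hj, x, h1, h2⟩ | ⟨x, h1, h2⟩
  · left
    refine ⟨(C.c k : ℤ) + x, ⟨by positivity, ?_⟩, ?_⟩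
    · rw [hnat, ← List.drop_drop]; exact h1
    · have e : (C.c k : ℤ) + x - (0 + ((C.c k : ℤ) - C.c k')) - C.P.z
          = ((C.c k' + x : ℕ) : ℤ) - C.P.z := by push_cast; ring
      rw [e]
      exact h2
  · right; left
    refine ⟨j, by omega, (C.c k : ℤ) + x, ⟨by positivity, ?_⟩, ?_⟩
    · rw [hnat, ← List.drop_drop]; exact h1
    · have e : (C.c k : ℤ) + x - (0 + ((C.c k : ℤ) - C.c k')) - ((C.p0 : ℤ) + C.D.A j)
          = ((C.c k' + x : ℕ) : ℤ) - C.P.p0 - C.D.A j := by rw [C.ep]; push_cast; ring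
      rw [e]
      exact h2
  · right; right
    obtain ⟨i, hi, hdiv⟩ := C.hB _ h2
    have hge := C.ok_ge h1.2.1
    refine ⟨i, hi, (C.c k : ℤ) + x, ⟨⟨⟨by positivity, ?_⟩, ?_⟩, ?_⟩, ?_⟩
    · rw [hnat, ← List.drop_drop]; exact h1.1
    · have e : (C.c k : ℤ) + x - (0 + ((C.c k : ℤ) - C.c k')) - C.P.z
          = ((C.c k' + x : ℕ) : ℤ) - C.P.z := by push_cast; ring
      rw [e]
      exact h1.2.1
    · rintro y hy ⟨⟨hy0, hyR⟩, hyQ⟩
      have h3 := abs_le.mp (C.hs' ((y - (0 + ((C.c k : ℤ) - C.c k')) - C.P.z) % C.P.M))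
      have h4 := h3.1
      rw [C.ez] at h4 hyQ
      obtain ⟨w, rfl⟩ : ∃ w : ℕ, y = (C.c k : ℤ) + w := ⟨(y - C.c k).toNat, by omega⟩
      rw [hnat, ← List.drop_drop] at hyR
      refine h1.2.2 w (by omega) hyR ?_
      change Ok132 C.P.z C.P.M C.P.s (C.c k' + w)
      unfold Ok132
      have e : (C.c k : ℤ) + w - (0 + ((C.c k : ℤ) - C.c k')) - (C.z : ℤ)
          = ((C.c k' + w : ℕ) : ℤ) - C.z := by push_cast; ring
      rw [e] at hyQ
      rw [C.ez]
      exact hyQ
    · have e : (C.c k : ℤ) + x - (0 + ((C.c k : ℤ) - C.c k')) - C.P.p0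
          = ((C.c k' + x - C.p0 : ℕ) : ℤ) := by
        rw [C.ep]
        omega
      rw [e, C.eM, ← Int.natCast_div]
      exact hdiv

open Classical in
theorem spoil (t : List α) :
    ((Finset.range C.K).filter
      (fun k => ∃ k' < C.K, k' ≠ k ∧ C.BadAt (C.c k') (t.drop (C.c k)))).card ≤ C.C0 := by
  have hL := C.P.hL
  have hinj : ∀ i j, i < C.K → j < C.K → C.c i = C.c j → i = j := by
    intro i j hi hj h
    rcases lt_trichotomy i j with h1 | h1 | h1
    · exact absurd h (ne_of_lt (C.hc i j h1 hj))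
    · exact h1
    · exact absurd h (ne_of_gt (C.hc j i h1 hi))
  have h1 := Ruler2_537.card_spoiled (P := C.P)
    (Wl := fun τ => 0 ≤ τ ∧ C.Ro (t.drop τ.toNat))
    (Ws := fun τ => 0 ≤ τ ∧ C.D.r.R (t.drop τ.toNat)) (A := fun j => (C.p0 : ℤ) + C.D.A j)
    (D := ((C.D.q * C.D.M : ℕ) : ℤ)) (K := C.D.m + 1) (m := C.mm) (r := C.rr) C.R2
    (by
      rintro x y ⟨hx, hxR⟩ ⟨hy, hyR⟩ hxy
      by_contra hc
      rw [C.eS] at hc
      refine C.gapo _ (y.toNat - x.toNat) hxR (by omega) (by omega) ?_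
      rw [List.drop_drop]
      have : x.toNat + (y.toNat - x.toNat) = y.toNat := by omega
      rwa [this])
    (by
      rintro x y ⟨hx, hxR⟩ ⟨hy, hyR⟩ hxy
      by_contra hc
      refine C.gaps _ (y.toNat - x.toNat) hxR (by omega) (by omega) ?_
      rw [List.drop_drop]
      have : x.toNat + (y.toNat - x.toNat) = y.toNat := by omega
      rwa [this]) 0
  refine le_trans ?_ (le_trans h1 C.hC0)
  refine Finset.card_le_card_of_injOn (fun k => (C.c k : ℤ)) ?_ ?_
  · intro k hk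
    simp only [Finset.coe_filter, Finset.mem_range, Set.mem_ofPred_eq] at hk
    obtain ⟨hk, k', hk', hne, hb⟩ := hk
    simp only [Finset.coe_filter, Finset.mem_image, Finset.mem_range, Set.mem_ofPred_eq]
    refine ⟨⟨k, hk, rfl⟩, (C.c k' : ℤ), ⟨k', hk', rfl⟩, ?_, C.to537 hk hk' hb⟩
    intro h
    exact hne (hinj k' k hk' hk (by exact_mod_cast h))
  · intro i hi j hj hij
    simp only [Finset.coe_filter, Finset.mem_range, Set.mem_ofPred_eq] at hi hj
    have hij' : (C.c i : ℤ) = C.c j := hij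
    exact hinj i j hi.1 hj.1 (by exact_mod_cast hij')

theorem CP2 (D₂ : ℕ) (hD : C.Bm ≤ D₂) (t : List α) (hcl : C.Cl t) (hl : C.Bm + D₂ ≤ t.length)
    (hbad : C.Bad (t.take C.Bm)) (v : V) :
    ∃ x, C.Bm - C.z + C.T ≤ x ∧ x ≤ C.p0 ∧ C.L2 (t.take x) v ∧
      (C.R2f ((t.drop x).take D₂)).isSome := by
  classical
  have hh := C.h1
  have hBm := C.hBm
  obtain ⟨I, hI, hIk⟩ := C.co (t.take C.p0) 1 v (by
    intro k hk
    have := C.hcp k hk
    rw [List.length_take]; omega)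
  have hsp := C.spoil t
  have : ∃ k ∈ I, k ∉ (Finset.range C.K).filter
      (fun k => ∃ k' < C.K, k' ≠ k ∧ C.BadAt (C.c k') (t.drop (C.c k))) := by
    by_contra h
    push Not at h
    have h2 := Finset.card_le_card (show I ⊆ _ from h)
    omega
  obtain ⟨k, hkI, hks⟩ := this
  obtain ⟨hk, hlam, hrho⟩ := hIk k hkI
  have hcp := C.hcp k hk
  have hcq := C.hcq k hk
  set r : List α := (t.drop (C.c k)).take D₂ with hr
  have hpre : (t.take C.Bm) = t.take (C.c k) ++ r.take (C.Bm - C.c k) := by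
    rw [hr, List.take_take, min_eq_left (by omega), ← List.drop_take]
    have h2 := List.take_append_drop (C.c k) (t.take C.Bm)
    rw [List.take_take, min_eq_left (by omega)] at h2
    exact h2.symm
  have hlenk : (t.take (C.c k)).length = C.c k := by rw [List.length_take]; omega
  have hbk : C.BadAt (C.c k) r := by
    have h1 : C.BadAt 0 (t.take (C.c k) ++ r.take (C.Bm - C.c k)) := by
      rw [← hpre]; exact hbad
    have h2 := C.BadAt_shift (by omega) h1
    rw [Nat.zero_add, hlenk] at h2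
    have h3 := C.BadAt_app (r.drop (C.Bm - C.c k)) h2
    rwa [List.take_append_drop] at h3
  have hcand : C.IsCand r k := by
    refine ⟨hk, hbk, ?_⟩
    intro k' hk' hb'
    by_contra hne
    apply hks
    rw [Finset.mem_filter]
    refine ⟨Finset.mem_range.2 hk, k', hk', hne, ?_⟩
    have h3 := C.BadAt_app ((t.drop (C.c k)).drop D₂) hb'
    rwa [hr, List.take_append_drop] at h3
  obtain ⟨τ, hτ, hτB⟩ := C.exists_NxAt (C.Cl_take hcl C.Bm) (by rw [List.length_take]; omega)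
  rw [hpre] at hτ
  obtain ⟨d, hd, hd2⟩ := C.NxAt_shift (by omega) hτ
  rw [Nat.zero_add, hlenk] at hd2
  have hd3 := C.NxAt_app (r.drop (C.Bm - C.c k)) hd2
  rw [List.take_append_drop] at hd3
  obtain ⟨b0, hb0⟩ := Option.isSome_iff_exists.1 hrho
  refine ⟨C.c k, hcq, hcp, ⟨k, hk, hlenk, ?_⟩, ?_⟩
  · rwa [List.take_take, min_eq_left hcp] at hlam
  · refine C.R2_isSome (p := (d, C.D.act b0 (C.D.phi ((r.take d).drop (C.p0 - C.c k))) +
      C.D.nu ((r.take d).drop (C.p0 - C.c k)))) ⟨k, hcand, hd3, b0, ?_, rfl⟩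
    rw [← hb0]
    congr 1
    rw [List.take_take, min_eq_left (by omega), ← List.drop_take]

end Cfg

end Crest.Agent.R320.Four_715
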