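import Crest.Agent.R320.Top5_110
import Crest.Agent.R320.WallU_228
import Crest.Agent.R320.ExactR_237

/-!
# Row 320: the block code of the natural chain rule, the two completeness statements
-/

set_option autoImplicit false
open Classical

namespace Crest.Agent.R320.Full_79

section comb

/-- first wall at a place `≥ B` -/
def Fst (Wl : ℕ → Prop) (B e : ℕ) : Prop := B ≤ e ∧ Wl e ∧ ∀ t, B ≤ t → t < e → ¬ Wl t

theorem exists_fst {Wl : ℕ → Prop} {B E : ℕ} (h : B ≤ E) (hE : Wl E) :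
    ∃ e, Fst Wl B e ∧ e ≤ E := by
  have hex : ∃ t, B ≤ t ∧ Wl t := ⟨E, h, hE⟩
  refine ⟨Nat.find hex, ⟨(Nat.find_spec hex).1, (Nat.find_spec hex).2, ?_⟩,
    Nat.find_min' hex ⟨h, hE⟩⟩
  intro t h1 h2 h3
  exact Nat.find_min hex h2 ⟨h1, h3⟩

theorem good_exists {K z p0 N1 W C0 E F : ℕ} {c : ℕ → ℕ} {Wl BadT : ℕ → Prop}
    (I : Finset ℕ) (hI : ∀ k ∈ I, k < K) (hcard : 2 * C0 + 2 ≤ I.card)
    (hc : ∀ k < K, c k ≤ p0)
    (hruler : ∀ i j k l, i < K → j < K → k < K → l < K → i ≠ j → k ≠ l → (i, j) ≠ (k, l) →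
      c j + c k + 2 * N1 ≤ c l + c i ∨ c l + c i + 2 * N1 ≤ c j + c k)
    (hthin : ∀ T, p0 ≤ T → ((Finset.range K ×ˢ Finset.range K).filter
      (fun q => q.1 ≠ q.2 ∧ BadT (T + c q.2 - c q.1))).card ≤ C0)
    (hgap : ∀ a b, Wl a → Wl b → a < b → a + W < b)
    (hW : 2 * (p0 + N1) ≤ W) (hz : 3 * p0 + N1 ≤ z) (hE : Wl E) (hzE : z ≤ E)
    (hF : Wl F) (hEF : E < F) :
    ∃ k ∈ I, ∀ k' < K, k' ≠ k → ∃ e, Fst Wl (z + c k - c k') e ∧ z + N1 + c k ≤ e + c k' ∧
      (∀ t, z + c k ≤ t + c k' + N1 → t + c k' < z + c k → ¬ Wl t) ∧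
      ¬ BadT (e + c k' - c k - p0) := by
  obtain ⟨a1, ⟨h11, h12, h13⟩, h14⟩ := exists_fst (Wl := Wl) (B := z - p0 - N1) (E := E)
    (by omega) hE
  obtain ⟨a2, ⟨h21, h22, h23⟩, h24⟩ := exists_fst (Wl := Wl) (B := a1 + 1) (E := F)
    (by omega) hF
  have h25 := hgap a1 a2 h12 h22 (by omega)
  have hwin : ∀ t, Wl t → z - p0 - N1 ≤ t → t < z + p0 + N1 → t = a1 := by
    intro t ht h1 h2
    rcases lt_trichotomy t a1 with h | h | h
    · exact (h13 t h1 h ht).elim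
    · exact h
    · have := hgap a1 t h12 ht h
      omega
  let S1 := (Finset.range K ×ˢ Finset.range K).filter
    (fun q : ℕ × ℕ => q.1 ≠ q.2 ∧ z + c q.1 ≤ a1 + c q.2 + N1 ∧ a1 + c q.2 < z + c q.1 + N1)
  let S2 := (Finset.range K ×ˢ Finset.range K).filter
      (fun q : ℕ × ℕ => q.1 ≠ q.2 ∧ BadT ((a1 - p0) + c q.2 - c q.1))
  let S3 := (Finset.range K ×ˢ Finset.range K).filter
      (fun q : ℕ × ℕ => q.1 ≠ q.2 ∧ BadT ((a2 - p0) + c q.2 - c q.1))
  have c1 : S1.card ≤ 1 := by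
    rw [Finset.card_le_one]
    rintro ⟨i, j⟩ hij ⟨k, l⟩ hkl
    simp only [S1, Finset.mem_filter, Finset.mem_product, Finset.mem_range] at hij hkl
    by_contra hne
    have := hruler i j k l hij.1.1 hij.1.2 hkl.1.1 hkl.1.2 hij.2.1 hkl.2.1 hne
    omega
  have c2 : S2.card ≤ C0 := hthin _ (by omega)
  have c3 : S3.card ≤ C0 := hthin _ (by omega)
  have hex : ∃ k ∈ I, k ∉ (S1 ∪ S2 ∪ S3).image Prod.fst := by
    by_contra hcon
    push Not at hcon
    have hsub : I ⊆ (S1 ∪ S2 ∪ S3).image Prod.fst := hcon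
    have h1 := Finset.card_le_card hsub
    have h2 := Finset.card_image_le (s := S1 ∪ S2 ∪ S3) (f := Prod.fst)
    have h3 := Finset.card_union_le (S1 ∪ S2) S3
    have h4 := Finset.card_union_le S1 S2
    omega
  obtain ⟨k, hk, hks⟩ := hex
  have hkK := hI k hk
  refine ⟨k, hk, fun k' hk' hne => ?_⟩
  have hck := hc k hkK
  have hck' := hc k' hk'
  have hn : ∀ q ∈ S1 ∪ S2 ∪ S3, q ≠ (k, k') := by
    intro q hq e
    subst e
    exact hks (Finset.mem_image_of_mem Prod.fst hq)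
  have n1 : ¬ (z + c k ≤ a1 + c k' + N1 ∧ a1 + c k' < z + c k + N1) := by
    intro h
    refine hn (k, k') ?_ rfl
    refine Finset.mem_union_left _ (Finset.mem_union_left _ ?_)
    simp only [S1, Finset.mem_filter, Finset.mem_product, Finset.mem_range]
    exact ⟨⟨hkK, hk'⟩, hne.symm, h⟩
  have n2 : ¬ BadT ((a1 - p0) + c k' - c k) := by
    intro h
    refine hn (k, k') ?_ rfl
    refine Finset.mem_union_left _ (Finset.mem_union_right _ ?_)
    simp only [S2, Finset.mem_filter, Finset.mem_product, Finset.mem_range]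
    exact ⟨⟨hkK, hk'⟩, hne.symm, h⟩
  have n3 : ¬ BadT ((a2 - p0) + c k' - c k) := by
    intro h
    refine hn (k, k') ?_ rfl
    refine Finset.mem_union_right _ ?_
    simp only [S3, Finset.mem_filter, Finset.mem_product, Finset.mem_range]
    exact ⟨⟨hkK, hk'⟩, hne.symm, h⟩
  have nb : ∀ t, z + c k ≤ t + c k' + N1 → t + c k' < z + c k → ¬ Wl t := by
    intro t h1 h2 h3
    have := hwin t h3 (by omega) (by omega)
    subst this
    exact n1 ⟨h1, by omega⟩
  by_cases hB : z + c k - c k' ≤ a1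
  · refine ⟨a1, ⟨hB, h12, fun t h1 h2 => h13 t (by omega) h2⟩, ?_, nb, ?_⟩
    · by_contra h
      exact n1 ⟨by omega, by omega⟩
    · have e : a1 + c k' - c k - p0 = (a1 - p0) + c k' - c k := by omega
      rw [e]; exact n2
  · refine ⟨a2, ⟨by omega, h22, fun t h1 h2 => h23 t (by omega) h2⟩, by omega, nb, ?_⟩
    have e : a2 + c k' - c k - p0 = (a2 - p0) + c k' - c k := by omega
    rw [e]; exact n3

end comb

end Crest.Agent.R320.Full_79
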