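import Crest.Agent.R320.Full1_79

/-!
# Row 320: completeness of the two schemes for the natural chain rule
-/

set_option autoImplicit false
open Classical

namespace Crest.Agent.R320.Full_79

open Crest.Agent.R320.Hk_851 Crest.Agent.R320.Code110

universe u

variable {α : Type u} {S V : Type}

structure Wls (n W : ℕ) (Wo : List α → Prop) : Prop where
  app : ∀ P Q : List α, n ≤ Q.length → (Wo (P ++ Q) ↔ Wo Q)
  gap : ∀ (P : List α) (d : ℕ), Wo P → 0 < d → d ≤ W → ¬ Wo (P.take (P.length - d))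

def XX (Wo : List α → Prop) (z : ℕ) : Language α :=
  {X | z ≤ X.length ∧ Wo X ∧ ∀ t, z ≤ t → t < X.length → ¬ Wo (X.take t)}

def Bd (Wo : List α → Prop) (z p0 N1 : ℕ) (BadT : ℕ → Prop) : Language α :=
  {X | X ∈ XX Wo z ∧ (X.length < z + N1 ∨ (∃ t, z ≤ t + N1 ∧ t < z ∧ Wo (X.take t)) ∨
    BadT (X.length - p0))}

def TT [AddCommGroup V] (φ : List α → S) (act : V → S → V) (p0 : ℕ) (nu1 nu2 : List α → V)
    (X : List α) (x : V) : V :=
  act (act x (φ (X.take p0)) + nu2 (X.take p0)) (φ (X.drop p0)) + nu1 (X.drop p0)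

def L1 [AddCommGroup V] (φ : List α → S) (act : V → S → V) (p0 N1 : ℕ) (nu2 : List α → V)
    (lam : List α → Option V) (x : V) : Language α :=
  {P | ∃ X0 P1, P = X0 ++ P1 ∧ X0.length = p0 ∧ P1.length ≤ N1 ∧
    lam P1 = some (act x (φ X0) + nu2 X0)}

def L2 (K : ℕ) (c : ℕ → ℕ) (lam2 : ℕ → List α → Option V) (x : V) : Language α :=
  {P | ∃ k < K, P.length = c k ∧ lam2 k P = some x}

theorem take_pq (p q : List α) (s : ℕ) : (p ++ q).take (p.length + s) = p ++ q.take s := by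
  rw [List.take_append, List.take_of_length_le (by omega)]
  congr 2
  omega

theorem XX_pc {Wo : List α → Prop} {z : ℕ} (hz : 0 < z) : PC (XX Wo z) := by
  refine ⟨fun h => by have := h.1; simp at this; omega, fun u hu v hv h => ?_⟩
  obtain ⟨w, rfl⟩ := h
  by_contra hne
  have hw : 0 < w.length := by
    rcases Nat.eq_zero_or_pos w.length with h0 | h0
    · exact (hne (by rw [List.length_eq_zero_iff.1 h0, List.append_nil])).elim
    · exact h0
  have := hv.2.2 u.length hu.1 (by rw [List.length_append]; omega)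
  rw [List.take_left] at this
  exact this hu.2.1

theorem mem_XX_iff {n W z N1 : ℕ} {Wo : List α → Prop} (hW : Wls n W Wo) (p q : List α)
    (hp : p.length + n + N1 ≤ z) :
    p ++ q ∈ XX Wo z ↔ z ≤ p.length + q.length ∧ Wo q ∧
      ∀ t, z ≤ p.length + t → t < q.length → ¬ Wo (q.take t) := by
  constructor
  · rintro ⟨h1, h2, h3⟩
    rw [List.length_append] at h1
    refine ⟨h1, (hW.app p q (by omega)).1 h2, fun t ht1 ht2 h => ?_⟩
    apply h3 (p.length + t) ht1 (by rw [List.length_append]; omega)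
    rw [take_pq]
    exact (hW.app p (q.take t) (by rw [List.length_take]; omega)).2 h
  · rintro ⟨h1, h2, h3⟩
    refine ⟨by rw [List.length_append]; exact h1, (hW.app p q (by omega)).2 h2,
      fun t ht1 ht2 h => ?_⟩
    rw [List.length_append] at ht2
    obtain ⟨s, rfl⟩ : ∃ s, t = p.length + s := ⟨t - p.length, by omega⟩
    apply h3 s ht1 (by omega)
    rw [take_pq] at h
    exact (hW.app p (q.take s) (by rw [List.length_take]; omega)).1 h

theorem mem_E_iff {n W z N1 : ℕ} {Wo : List α → Prop} (hW : Wls n W Wo) (p q : List α)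
    (hp : p.length + n + N1 ≤ z) (hz : z ≤ p.length + q.length) :
    (∃ t, z ≤ t + N1 ∧ t < z ∧ Wo ((p ++ q).take t)) ↔
      ∃ t, z ≤ p.length + t + N1 ∧ p.length + t < z ∧ Wo (q.take t) := by
  constructor
  · rintro ⟨t, h1, h2, h3⟩
    obtain ⟨s, rfl⟩ : ∃ s, t = p.length + s := ⟨t - p.length, by omega⟩
    refine ⟨s, h1, h2, ?_⟩
    rw [take_pq] at h3
    exact (hW.app p (q.take s) (by rw [List.length_take]; omega)).1 h3
  · rintro ⟨t, h1, h2, h3⟩
    refine ⟨p.length + t, h1, h2, ?_⟩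
    rw [take_pq]
    exact (hW.app p (q.take t) (by rw [List.length_take]; omega)).2 h3

variable [Monoid S] [AddCommGroup V]

/-- scheme 1 is complete outside `Bd` -/
theorem C1 {n W z N1 p0 T0 : ℕ} {Wo : List α → Prop} (hW : Wls n W Wo)
    {φ : List α → S} {act : V → S → V} {nu1 nu2 : List α → V} {lam rho : List α → Option V}
    {BadT : ℕ → Prop}
    (hlen : ∀ P v, lam P = some v → P.length ≤ N1)
    (hsound : ∀ P Q v r, lam P = some v → rho Q = some r → r = act v (φ (P ++ Q)) + nu1 (P ++ Q))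
    (hcomp : ∀ Y : List α, T0 ≤ Y.length → ¬ BadT Y.length → ∀ v, ∃ P Q, Y = P ++ Q ∧
      lam P = some v ∧ (rho Q).isSome)
    (hz : p0 + N1 + n + N1 ≤ z) (hz2 : T0 + p0 ≤ z)
    (X : List α) (hX : X ∈ XX Wo z) (hXB : X ∉ Bd Wo z p0 N1 BadT) (x : V)
    (t : List α) (ht : t ∈ XX Wo z ^ 0) :
    ∃ p q y, X ++ t = p ++ q ∧ p ∈ L1 φ act p0 N1 nu2 lam x ∧
      q ∈ Rsem (XX Wo z) (XX Wo z) (TT φ act p0 nu1 nu2) 0 (L1 φ act p0 N1 nu2 lam) y := by
  have ht' : t = [] := by
    rw [pow_zero] at ht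
    exact Language.mem_one t |>.1 ht
  subst ht'
  have hXz := hX.1
  have hB : ¬ (X.length < z + N1 ∨ (∃ t, z ≤ t + N1 ∧ t < z ∧ Wo (X.take t)) ∨
    BadT (X.length - p0)) := fun h => hXB ⟨hX, h⟩
  push Not at hB
  obtain ⟨b1, b2, b3⟩ := hB
  have hlY : (X.drop p0).length = X.length - p0 := List.length_drop
  obtain ⟨P1, Q, hPQ, hl, hr⟩ := hcomp (X.drop p0) (by rw [hlY]; omega) (by rw [hlY]; exact b3)
    (act x (φ (X.take p0)) + nu2 (X.take p0))
  obtain ⟨r, hr⟩ := Option.isSome_iff_exists.1 hr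
  have hP1 := hlen _ _ hl
  have hX0 : (X.take p0).length = p0 := by rw [List.length_take]; omega
  have hXe : X = (X.take p0 ++ P1) ++ Q := by
    rw [List.append_assoc, ← hPQ, List.take_append_drop]
  set X0 := X.take p0 with hX0d
  have hlp : (X0 ++ P1).length = p0 + P1.length := by rw [List.length_append, hX0]
  have hXl : X.length = p0 + P1.length + Q.length := by
    rw [hXe, List.length_append, hlp]
  have hmem : (X0 ++ P1) ++ Q ∈ XX Wo z := hXe ▸ hX
  have hE : ¬ ∃ t, z ≤ (X0 ++ P1).length + t + N1 ∧ (X0 ++ P1).length + t < z ∧ Wo (Q.take t) := by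
    rw [← mem_E_iff (N1 := N1) hW (X0 ++ P1) Q (by omega) (by omega), ← hXe]
    rintro ⟨t, h1, h2, h3⟩
    exact b2 t h1 h2 h3
  rw [mem_XX_iff (N1 := N1) hW _ _ (by omega)] at hmem
  obtain ⟨m1, m2, m3⟩ := hmem
  refine ⟨X0 ++ P1, Q, r, by rw [List.append_nil]; exact hXe, ⟨X0, P1, rfl, hX0, hP1, hl⟩, ?_⟩
  rintro x' p' ⟨X0', P1', rfl, hX0', hP1', hl'⟩
  left
  have hlp' : (X0' ++ P1').length = p0 + P1'.length := by rw [List.length_append, hX0']
  have hin : (X0' ++ P1') ++ Q ∈ XX Wo z := by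
    rw [mem_XX_iff (N1 := N1) hW _ _ (by omega)]
    refine ⟨by omega, m2, fun t h1 h2 h3 => ?_⟩
    by_cases h : z ≤ (X0 ++ P1).length + t
    · exact m3 t h h2 h3
    · exact hE ⟨t, by omega, by omega, h3⟩
  have hval : TT φ act p0 nu1 nu2 ((X0' ++ P1') ++ Q) x' = r := by
    unfold TT
    have e1 : ((X0' ++ P1') ++ Q).take p0 = X0' := by
      rw [List.append_assoc, List.take_append_of_le_length (by omega),
        List.take_of_length_le (by omega)]
    have e2 : ((X0' ++ P1') ++ Q).drop p0 = P1' ++ Q := by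
      rw [List.append_assoc, ← hX0', List.drop_left]
    rw [e1, e2]
    exact (hsound _ _ _ _ hl' hr).symm
  refine ⟨r, Language.mem_mul.2 ⟨_, ⟨hin, hval⟩, [], ⟨rfl, rfl⟩, by simp⟩⟩

end Crest.Agent.R320.Full_79
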