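import Crest.Agent.R320.Full2_79

/-!
# Row 320: completeness of scheme 2 on pairs of bad blocks
-/

set_option autoImplicit false
open Classical

namespace Crest.Agent.R320.Full_79

open Crest.Agent.R320.Hk_851 Crest.Agent.R320.Code110

universe u

variable {α : Type u} {S V : Type} [Monoid S] [AddCommGroup V]

/-- scheme 2 is complete on pairs of blocks of `Bd` -/
theorem C2 {n W z N1 p0 C0 K : ℕ} {Wo : List α → Prop} (hW : Wls n W Wo)
    {φ : List α → S} {act : V → S → V} {nu1 nu2 : List α → V}
    {BadT : ℕ → Prop} {c : ℕ → ℕ} {lam2 rho2 : ℕ → List α → Option V}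
    (hc : ∀ k < K, c k ≤ p0)
    (hruler : ∀ i j k l, i < K → j < K → k < K → l < K → i ≠ j → k ≠ l → (i, j) ≠ (k, l) →
      c j + c k + 2 * N1 ≤ c l + c i ∨ c l + c i + 2 * N1 ≤ c j + c k)
    (hthin : ∀ T, p0 ≤ T → ((Finset.range K ×ˢ Finset.range K).filter
      (fun q => q.1 ≠ q.2 ∧ BadT (T + c q.2 - c q.1))).card ≤ C0)
    (hs2 : ∀ k < K, ∀ (P Q : List α) (v b : V), P.length = c k → lam2 k P = some v →
      rho2 k Q = some b → b = act v (φ (P ++ Q)) + nu2 (P ++ Q))
    (hc2 : ∀ (u : List α) (v : V), u.length = p0 → ∃ I : Finset ℕ, 2 * C0 + 2 ≤ I.card ∧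
      ∀ k ∈ I, k < K ∧ lam2 k (u.take (c k)) = some v ∧ (rho2 k (u.drop (c k))).isSome)
    (hWW : 2 * (p0 + N1) ≤ W) (hz : 3 * p0 + N1 + n + 1 ≤ z)
    (X : List α) (hX : X ∈ Bd Wo z p0 N1 BadT) (x : V)
    (t : List α) (ht : t ∈ Bd Wo z p0 N1 BadT ^ 1) :
    ∃ p q y, X ++ t = p ++ q ∧ p ∈ L2 K c lam2 x ∧
      q ∈ Rsem (XX Wo z) (Bd Wo z p0 N1 BadT) (TT φ act p0 nu1 nu2) 1 (L2 K c lam2) y := by
  rw [pow_one] at ht
  set U := X ++ t with hU
  have hXz := hX.1.1
  have htz := ht.1.1
  have hUl : U.length = X.length + t.length := by rw [hU, List.length_append]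
  obtain ⟨I, hIc, hI⟩ := hc2 (X.take p0) x (by rw [List.length_take]; omega)
  let Wl : ℕ → Prop := fun s => s ≤ U.length ∧ Wo (U.take s)
  have hWE : Wl X.length := by
    refine ⟨by omega, ?_⟩
    rw [hU, List.take_left]
    exact hX.1.2.1
  have hWF : Wl U.length := by
    refine ⟨le_rfl, ?_⟩
    rw [List.take_length, hU]
    exact (hW.app X t (by omega)).2 ht.1.2.1
  obtain ⟨k, hkI, hk⟩ := good_exists (z := z) (p0 := p0) (N1 := N1) (W := W) (C0 := C0)
    (E := X.length) (F := U.length) (c := c) (Wl := Wl) (BadT := BadT) I (fun k hk => (hI k hk).1)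
    hIc hc hruler hthin
    (by
      intro a b ha hb hab
      by_contra hcon
      have h1 := hW.gap (U.take b) (b - a) hb.2 (by omega) (by omega)
      apply h1
      have h2 : (U.take b).length = b := by rw [List.length_take]; have := hb.1; omega
      rw [h2, List.take_take]
      have : min (b - (b - a)) b = a := by omega
      rw [this]
      exact ha.2)
    hWW (by omega) hWE hXz hWF (by omega)
  obtain ⟨hkK, hkl, hkr⟩ := hI k hkI
  obtain ⟨b, hb⟩ := Option.isSome_iff_exists.1 hkr
  have hck := hc k hkK
  rw [List.take_take, min_eq_left hck] at hkl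
  have hpl : (X.take (c k)).length = c k := by rw [List.length_take]; omega
  refine ⟨X.take (c k), X.drop (c k) ++ t,
    TT φ act p0 nu1 nu2 t (act b (φ (X.drop p0)) + nu1 (X.drop p0)), ?_, ?_, ?_⟩
  · rw [← List.append_assoc, List.take_append_drop]
  · exact ⟨k, hkK, hpl, hkl⟩
  rintro x' p' ⟨k', hk'K, hp'l, hp'⟩
  by_cases hkk : k' = k
  · subst hkk
    left
    have hdl : (X.drop (c k')).length = X.length - c k' := List.length_drop
    -- the first block
    have hXX' : p' ++ X.drop (c k') ∈ XX Wo z := by
      rw [mem_XX_iff (N1 := N1) hW _ _ (by omega)]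
      have h := hX.1
      rw [← List.take_append_drop (c k') X, mem_XX_iff (N1 := N1) hW _ _ (by omega)] at h
      rw [hpl] at h
      rw [hp'l]
      exact h
    have hB' : p' ++ X.drop (c k') ∈ Bd Wo z p0 N1 BadT := by
      refine ⟨hXX', ?_⟩
      have hl : (p' ++ X.drop (c k')).length = X.length := by
        rw [List.length_append, hdl, hp'l]; omega
      rw [hl]
      rcases hX.2 with h | h | h
      · exact Or.inl h
      · right; left
        rw [mem_E_iff (N1 := N1) hW _ _ (by omega) (by omega)]
        have h' : ∃ t, z ≤ t + N1 ∧ t < z ∧ Wo ((X.take (c k') ++ X.drop (c k')).take t) := by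
          rw [List.take_append_drop]; exact h
        rw [mem_E_iff (N1 := N1) hW _ _ (by omega) (by omega)] at h'
        rw [hpl] at h'
        rw [hp'l]
        exact h'
      · exact Or.inr (Or.inr h)
    have e1 : (p' ++ X.drop (c k')).take p0 = p' ++ (X.take p0).drop (c k') := by
      rw [List.take_append, List.take_of_length_le (by omega), hp'l, List.drop_take]
    have e2 : (p' ++ X.drop (c k')).drop p0 = X.drop p0 := by
      rw [List.drop_append, List.drop_eq_nil_of_le (by omega), List.nil_append, List.drop_drop]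
      congr 1
      omega
    have hv : TT φ act p0 nu1 nu2 (p' ++ X.drop (c k')) x'
        = act b (φ (X.drop p0)) + nu1 (X.drop p0) := by
      unfold TT
      rw [e1, e2, ← hs2 k' hkK p' _ x' b hp'l hp' hb]
    refine ⟨act b (φ (X.drop p0)) + nu1 (X.drop p0), ?_⟩
    rw [← List.append_assoc]
    refine Language.mem_mul.2 ⟨p' ++ X.drop (c k'), ⟨hB', hv⟩, t, ?_, rfl⟩
    exact ⟨_, Language.mem_mul.2 ⟨t, ⟨ht, rfl⟩, [], ⟨rfl, rfl⟩, List.append_nil _⟩⟩
  · right
    left
    have hck' := hc k' hk'K
    obtain ⟨e, ⟨f1, f2, f3⟩, f4, f5, f6⟩ := hk k' hk'K hkk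
    have hqU : X.drop (c k) ++ t = U.drop (c k) := by
      rw [hU, List.drop_append_of_le_length (by omega)]
    rw [hqU]
    have heU := f2.1
    have hql : ((U.drop (c k)).take (e - c k)).length = e - c k := by
      rw [List.length_take, List.length_drop]; omega
    -- walls of q
    have hwq : ∀ s, n ≤ s → s ≤ e - c k →
        (Wo (((U.drop (c k)).take (e - c k)).take s) ↔ Wl (c k + s)) := by
      intro s hs1 hs2
      have h1 : ((U.drop (c k)).take (e - c k)).take s = (U.drop (c k)).take s := by
        rw [List.take_take, min_eq_left hs2]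
      rw [h1]
      have h2 : U.take (c k + s) = U.take (c k) ++ (U.drop (c k)).take s := List.take_add ..
      have h3 : ((U.drop (c k)).take s).length = s := by
        rw [List.length_take, List.length_drop]; omega
      constructor
      · intro h
        refine ⟨by omega, ?_⟩
        rw [h2]
        exact (hW.app _ _ (by omega)).2 h
      · rintro ⟨-, h⟩
        rw [h2] at h
        exact (hW.app _ _ (by omega)).1 h
    have hin : p' ++ (U.drop (c k)).take (e - c k) ∈ XX Wo z := by
      rw [mem_XX_iff (N1 := N1) hW _ _ (by omega), hql, hp'l]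
      refine ⟨by omega, ?_, fun s h1 h2 h3 => ?_⟩
      · have := (hwq (e - c k) (by omega) le_rfl).2 (by
          have : c k + (e - c k) = e := by omega
          rw [this]; exact f2)
        rwa [List.take_take, min_self] at this
      · exact f3 (c k + s) (by omega) (by omega) ((hwq s (by omega) (by omega)).1 h3)
    refine ⟨p' ++ (U.drop (c k)).take (e - c k), hin, ?_, ?_⟩
    · rintro ⟨-, h⟩
      have hl : (p' ++ (U.drop (c k)).take (e - c k)).length = c k' + (e - c k) := by
        rw [List.length_append, hql, hp'l]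
      rw [hl] at h
      rcases h with h | h | h
      · omega
      · rw [mem_E_iff (N1 := N1) hW _ _ (by omega) (by rw [hql, hp'l]; omega)] at h
        obtain ⟨s, h1, h2, h3⟩ := h
        rw [hp'l] at h1 h2
        refine f5 (c k + s) (by omega) (by omega) ((hwq s (by omega) ?_).1 h3)
        omega
      · apply f6
        have : e + c k' - c k - p0 = c k' + (e - c k) - p0 := by omega
        rw [this]; exact h
    · rw [List.prefix_append_right_inj]
      exact List.take_prefix _ _

end Crest.Agent.R320.Full_79
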