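import Crest.Agent.R320.Asm_505
import Crest.Agent.R320.FewVal_228

/-!
# Row 320, blocks cut out by left-looking walls on all words (helper1): walls, first wall words
`FW`, words without wall `NF`, and their height one languages.
-/

set_option autoImplicit false

namespace Crest.Agent.R320.Full_1

open Crest.RegLang Crest.Agent.R320.Hk_851 Crest.Agent.R320.FewWalls_228

variable {A : Type}

/-- value -/
def pv {M : Type} [Monoid M] (f : A → M) (w : List A) : M := (w.map f).prod

theorem pv_app {M : Type} [Monoid M] (f : A → M) (u v : List A) :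
    pv f (u ++ v) = pv f u * pv f v := by
  simp [pv]

/-- left-looking wall at the end of `Y` -/
def E (Sg : Set (List A)) (Y : List A) : Prop := ∃ v ∈ Sg, v <:+ Y

section
variable {n W : ℕ} {Sg : Set (List A)}

theorem E_len (hl : ∀ s ∈ Sg, s.length = n) {Y : List A} (h : E Sg Y) : n ≤ Y.length := by
  obtain ⟨v, hv, hs⟩ := h
  rw [← hl v hv]; exact hs.length_le

theorem E_app {X Y : List A} (h : E Sg Y) : E Sg (X ++ Y) := by
  obtain ⟨v, hv, hs⟩ := h
  exact ⟨v, hv, hs.trans (List.suffix_append X Y)⟩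

theorem E_of_app (hl : ∀ s ∈ Sg, s.length = n) {X Y : List A} (hn : n ≤ Y.length)
    (h : E Sg (X ++ Y)) : E Sg Y := by
  obtain ⟨v, hv, hs⟩ := h
  exact ⟨v, hv, List.suffix_of_suffix_length_le hs (List.suffix_append X Y)
    (by rw [hl v hv]; exact hn)⟩

theorem E_Wl (hl : ∀ s ∈ Sg, s.length = n) {w : List A} {t : ℕ} (ht : t ≤ w.length)
    (h : E Sg (w.take t)) : n ≤ t ∧ Wl n Sg w (t - n) := by
  have h1 := E_len hl h
  rw [List.length_take, min_eq_left ht] at h1
  obtain ⟨v, hv, x, hs⟩ := h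
  refine ⟨h1, by omega, ?_⟩
  have hx : x.length = t - n := by
    have := congrArg List.length hs
    rw [List.length_append, List.length_take, min_eq_left ht, hl v hv] at this
    omega
  have h2 : (w.drop (t - n)).take n = (w.take t).drop (t - n) := by
    rw [List.drop_take]
    congr 1
    omega
  rw [h2, ← hs, ← hx, List.drop_left]
  exact hv

theorem Wl_E {w : List A} {x : ℕ} (h : Wl n Sg w x) : x + n ≤ w.length ∧ E Sg (w.take (x + n)) := by
  refine ⟨h.1, _, h.2, ?_⟩
  refine ⟨w.take x, ?_⟩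
  rw [← List.take_add]

theorem E_gap (hl : ∀ s ∈ Sg, s.length = n)
    (hgap : ∀ (w : List A) (x y : ℕ), x < y → Wl n Sg w x → Wl n Sg w y → x + W ≤ y)
    {w : List A} {t t' : ℕ} (htt : t < t') (ht' : t' ≤ w.length) (h : E Sg (w.take t))
    (h' : E Sg (w.take t')) : t + W ≤ t' := by
  obtain ⟨h1, h2⟩ := E_Wl hl (by omega) h
  obtain ⟨h3, h4⟩ := E_Wl hl ht' h'
  have := hgap w (t - n) (t' - n) (by omega) h2 h4
  omega

/-- the first wall at a place `≥ z` is the end of the word -/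
def FW (Sg : Set (List A)) (z : ℕ) (Y : List A) : Prop :=
  z ≤ Y.length ∧ E Sg Y ∧ ∀ t, z ≤ t → t < Y.length → ¬ E Sg (Y.take t)

/-- no wall at a place `≥ z` -/
def NF (Sg : Set (List A)) (z : ℕ) (Y : List A) : Prop :=
  ∀ t, z ≤ t → t ≤ Y.length → ¬ E Sg (Y.take t)

theorem FW_pre {z : ℕ} {Y Y' : List A} (h : FW Sg z Y) (h' : FW Sg z Y') (hp : Y <+: Y') :
    Y = Y' := by
  rcases Nat.lt_or_ge Y.length Y'.length with h1 | h1
  · exfalso
    refine h'.2.2 Y.length h.1 h1 ?_
    rw [← List.prefix_iff_eq_take.1 hp]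
    exact h.2.1
  · exact hp.eq_of_length_le h1

theorem FW_app {z : ℕ} {Y Y' r r' : List A} (h : FW Sg z Y) (h' : FW Sg z Y')
    (he : Y ++ r = Y' ++ r') : Y = Y' ∧ r = r' := by
  have hc : Y <+: Y' ∨ Y' <+: Y := List.prefix_or_prefix_of_prefix ⟨r, he⟩ ⟨r', rfl⟩
  have : Y = Y' := by
    rcases hc with hc | hc
    · exact FW_pre h h' hc
    · exact (FW_pre h' h hc).symm
  subst this
  exact ⟨rfl, List.append_cancel_left he⟩

theorem FW_exists {z : ℕ} {w : List A} {t : ℕ} (hz : z ≤ t) (ht : t ≤ w.length)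
    (h : E Sg (w.take t)) : ∃ s, s ≤ t ∧ FW Sg z (w.take s) := by
  classical
  have hex : ∃ s, z ≤ s ∧ s ≤ w.length ∧ E Sg (w.take s) := ⟨t, hz, ht, h⟩
  obtain ⟨h1, h2, h3⟩ := Nat.find_spec hex
  refine ⟨Nat.find hex, Nat.find_min' hex ⟨hz, ht, h⟩, ?_, h3, ?_⟩
  · rw [List.length_take, min_eq_left h2]; exact h1
  · intro s hs hs' hE
    rw [List.length_take, min_eq_left h2] at hs'
    rw [List.take_take, min_eq_left (by omega)] at hE
    exact Nat.find_min hex hs' ⟨hs, by omega, hE⟩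

variable {k : ℕ}

theorem HL_E [Finite A] (hl : ∀ s ∈ Sg, s.length = n) :
    HL k ({Y | E Sg Y} : Language A) := by
  have h0 : HL k (Sg : Language A) := HL.finite
    ((List.finite_length_eq A n).subset fun v hv => hl v hv)
  exact h0.suffix

/-- words of length `≥ z` ending in a wall -/
def Lz (Sg : Set (List A)) (z : ℕ) : Language A := {Y | z ≤ Y.length ∧ E Sg Y}

theorem HL_Ez [Finite A] (hl : ∀ s ∈ Sg, s.length = n) (z : ℕ) : HL k (Lz Sg z) :=
  (HL.length_ge z).setOf_and (HL_E hl)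

theorem HL_FW0 [Finite A] (hl : ∀ s ∈ Sg, s.length = n) (z : ℕ) :
    HL k ({Y | FW Sg z Y} : Language A) := by
  have h1 : HL k (Lz Sg z * (1 : Language A)ᶜ) :=
    (HL_Ez hl z).mul HL.one.compl
  refine ((HL_Ez hl z).inf h1.compl).congr fun Y => ?_
  constructor
  · rintro ⟨h2, h3, h4⟩
    refine ⟨⟨h2, h3⟩, ?_⟩
    intro h5
    obtain ⟨a, ⟨ha, ha'⟩, b, hb, rfl⟩ := Language.mem_mul.1 h5
    have hb' : b ≠ [] := fun e => hb (by rw [e]; rfl)
    refine h4 a.length ha ?_ ?_
    · rw [List.length_append]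
      have := List.length_pos_iff.2 hb'
      omega
    · rw [List.take_left]; exact ha'
  · rintro ⟨⟨h2, h3⟩, h4⟩
    refine ⟨h2, h3, ?_⟩
    intro t ht ht' hE
    apply h4
    refine Language.mem_mul.2 ⟨Y.take t, ⟨?_, hE⟩, Y.drop t, ?_, List.take_append_drop t Y⟩
    · rw [List.length_take]; omega
    · intro e
      have e' : Y.drop t = [] := e
      have := congrArg List.length e'
      rw [List.length_drop] at this
      simp at this
      omega

theorem HL_NF0 [Finite A] (hl : ∀ s ∈ Sg, s.length = n) (z : ℕ) :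
    HL k ({Y | NF Sg z Y} : Language A) := by
  refine (HL_Ez (k := k) hl z).prefix.compl.congr fun Y => ?_
  constructor
  · rintro h ⟨v, ⟨hv, hv'⟩, hp⟩
    refine h v.length hv hp.length_le ?_
    rw [← List.prefix_iff_eq_take.1 hp]; exact hv'
  · intro h t ht ht' hE
    exact h ⟨Y.take t, ⟨by rw [List.length_take]; omega, hE⟩, List.take_prefix t Y⟩

theorem nw_le (z : ℕ) (hn : 0 < n) {Y : List A}
    (h : ∀ t, z ≤ t → t < Y.length → ¬ E Sg (Y.take t)) : nw n Sg Y ≤ z + 1 := by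
  classical
  unfold nw
  have hsub : (Finset.range (Y.length + 1)).filter (fun x => Wl n Sg Y x)
      ⊆ insert (Y.length - n) (Finset.range z) := by
    intro x hx
    rw [Finset.mem_filter] at hx
    obtain ⟨h1, h2⟩ := Wl_E hx.2
    rw [Finset.mem_insert, Finset.mem_range]
    rcases Nat.lt_or_ge (x + n) Y.length with h3 | h3
    · right
      by_contra h4
      exact h (x + n) (by omega) h3 h2
    · left; omega
  calc _ ≤ (insert (Y.length - n) (Finset.range z)).card := Finset.card_le_card hsub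
    _ ≤ (Finset.range z).card + 1 := Finset.card_insert_le _ _
    _ = z + 1 := by rw [Finset.card_range]

theorem HL_FW [Finite A] {c P : ℕ} (hn : 0 < n) (hP : 0 < P) (hper : PerOff n c P Sg)
    (hl : ∀ s ∈ Sg, s.length = n) (z : ℕ) {M : Type} [Monoid M] [Finite M] (f : A → M) (s : M) :
    HL 1 ({Y | FW Sg z Y ∧ pv f Y = s} : Language A) := by
  refine ((HL_FW0 hl z).inf (FewVal_228.HL_few_value hn hP hper (z + 1) f s)).congr fun Y => ?_
  constructor
  · rintro ⟨h1, h2⟩
    exact ⟨h1, nw_le z hn h1.2.2, h2⟩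
  · rintro ⟨h1, _, h2⟩
    exact ⟨h1, h2⟩

theorem HL_NF [Finite A] {c P : ℕ} (hn : 0 < n) (hP : 0 < P) (hper : PerOff n c P Sg)
    (hl : ∀ s ∈ Sg, s.length = n) (z : ℕ) {M : Type} [Monoid M] [Finite M] (f : A → M) (s : M) :
    HL 1 ({Y | NF Sg z Y ∧ pv f Y = s} : Language A) := by
  refine ((HL_NF0 hl z).inf (FewVal_228.HL_few_value hn hP hper (z + 1) f s)).congr fun Y => ?_
  constructor
  · rintro ⟨h1, h2⟩
    exact ⟨h1, nw_le z hn (fun t ht ht' => h1 t ht ht'.le), h2⟩
  · rintro ⟨h1, _, h2⟩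
    exact ⟨h1, h2⟩

end

end Crest.Agent.R320.Full_1
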