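import Crest.Agent.R320.Top5_110
import Crest.Agent.R320.OutRule_480
import Crest.Agent.R320.ExactR_237

/-!
# Row 320: the block code with natural chain (helper301), data and the prefix code
-/

set_option autoImplicit false

namespace Crest.Agent.R320.Full_301

open Crest.Agent.R320.Hk_851 Crest.Agent.R320.Code110 Crest.Agent.R320.ExactR_237

/-- all the data of the two schemes -/
structure Cfg (α S V : Type) [Monoid S] [AddCommGroup V] where
  f : α → S
  act : V → S → V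
  N1 : ℕ
  Pm : ℕ
  La : ℕ
  Bad : ℕ → Prop
  lam : List α → Option V
  rho : List α → Option V
  nu : List α → V
  n : ℕ
  Wo : List α → Prop
  W : ℕ
  K : ℕ
  C0 : ℕ
  c : ℕ → ℕ
  lam2 : ℕ → List α → Option V
  rho2 : ℕ → List α → S → Option V
  nu2 : List α → S → V
  p : ℕ
  z : ℕ
  hPm : 0 < Pm
  hper : ∀ T, Bad (T + Pm) ↔ Bad T
  hlam : ∀ P v, lam P = some v → P.length ≤ N1
  hsound : ∀ P Q v r, lam P = some v → rho Q = some r → La ≤ Q.length →
    r = act v (pr f (P ++ Q)) + nu (P ++ Q)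
  hcompl : ∀ w : List α, La ≤ w.length → ¬ Bad w.length → ∀ v, ∃ P Q, P ++ Q = w ∧
    lam P = some v ∧ (rho Q).isSome
  hfs : ∀ q q2 : List α, La ≤ q.length → La ≤ q2.length → q.take La = q2.take La →
    q.length % Pm = q2.length % Pm → pr f (q.drop La) = pr f (q2.drop La) → nu q = nu q2
  hn : 0 < n
  wn : ∀ P, Wo P → n ≤ P.length
  wloc : ∀ P Q : List α, n ≤ Q.length → (Wo (P ++ Q) ↔ Wo Q)
  wgap : ∀ (P : List α) (d : ℕ), Wo P → 0 < d → d ≤ P.length → Wo (P.take (P.length - d)) → W ≤ d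
  wfew : ∀ (r : ℕ) (L : Language α), L.IsRegular →
    (∀ w ∈ L, ∀ F : Finset ℕ, (∀ x ∈ F, x ≤ w.length ∧ Wo (w.take x)) → F.card ≤ r) → HL 1 L
  hadd : ∀ v v' s, act (v + v') s = act v s + act v' s
  hone : ∀ v, act v 1 = v
  hmul : ∀ v s t, act v (s * t) = act (act v s) t
  ex1 : ∀ k < K, ∀ (P Q : List α) (v b : V), P.length = c k → lam2 k P = some v →
    rho2 k Q 1 = some b → b = act v (pr f (P ++ Q)) + nu2 (P ++ Q) 1
  ex2 : ∀ (u : List α) (v : V), (∀ k < K, c k ≤ u.length) →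
    ∃ I : Finset ℕ, 2 * C0 + 2 ≤ I.card ∧ ∀ k ∈ I, k < K ∧ lam2 k (u.take (c k)) = some v ∧
      (rho2 k (u.drop (c k)) 1).isSome
  hcp : ∀ k < K, c k ≤ p
  hgol : ∀ i j k l, i < K → j < K → k < K → l < K → i ≠ j → k ≠ l → (i, j) ≠ (k, l) →
      c i + c l + 4 * N1 < c k + c j ∨ c k + c j + 4 * N1 < c i + c l
  hthin : ∀ T, La ≤ T → ∀ F : Finset (ℕ × ℕ), (∀ ab ∈ F, ab.1 < K ∧ ab.2 < K ∧ ab.1 ≠ ab.2 ∧
      Bad (T + c ab.2 - c ab.1)) → F.card ≤ C0
  hW : 2 * (p + N1) + 1 < W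
  hz : 3 * p + 3 * N1 + La + n + 1 ≤ z

namespace Cfg

variable {α S V : Type} [Monoid S] [AddCommGroup V] (D : Cfg α S V)

/-- no wall in `[z, |X|)` -/
def flag (X : List α) : Prop := ∀ t, D.z ≤ t → t < X.length → ¬ D.Wo (X.take t)

/-- the blocks -/
def XX : Language α := {X | D.z ≤ X.length ∧ D.Wo X ∧ D.flag X}

def BadE (X : List α) : Prop := X.length < D.z + D.N1 ∨
  ∃ t, D.z ≤ t + D.N1 ∧ t < D.z ∧ D.Wo (X.take t)

/-- the bad blocks -/
def BB : Language α := {X | X ∈ D.XX ∧ (D.BadE X ∨ D.Bad (X.length - D.p))}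

/-- zone map -/
def tau (X : List α) (v : V) : V :=
  D.act (D.act v (pr D.f (X.take D.p)) + D.nu2 (X.take D.p) 1) (pr D.f (X.drop D.p)) +
    D.nu (X.drop D.p)

def L1 (x : V) : Language α := {P | D.p ≤ P.length ∧ P.length ≤ D.p + D.N1 ∧
  D.lam (P.drop D.p) = some (D.act x (pr D.f (P.take D.p)) + D.nu2 (P.take D.p) 1)}

def L2 (x : V) : Language α := {P | ∃ k < D.K, P.length = D.c k ∧ D.lam2 k P = some x}

theorem zpos : 0 < D.z := by have := D.hz; omega

theorem pc : PC D.XX := by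
  refine ⟨?_, ?_⟩
  · rintro ⟨h, -⟩
    have := D.zpos
    simp at h; omega
  · rintro u ⟨hu1, hu2, -⟩ v ⟨-, -, hv3⟩ ⟨t, rfl⟩
    by_contra hne
    have ht : 0 < t.length := by
      rcases t with _ | ⟨a, t⟩
      · simp at hne
      · simp
    have := hv3 u.length hu1 (by rw [List.length_append]; omega)
    apply this
    simpa using hu2

theorem bb_sub : ∀ u ∈ D.BB, u ∈ D.XX := fun _ h => h.1

theorem act_sub (a b : V) (s : S) : D.act (a - b) s = D.act a s - D.act b s := by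
  have := D.hadd (a - b) b s
  rw [sub_add_cancel] at this
  rw [this]; abel

theorem pr_app (u v : List α) : pr D.f (u ++ v) = pr D.f u * pr D.f v := by
  unfold pr; simp

theorem tau_sub (u : List α) (v v' : V) : D.tau u v - D.tau u v' = D.act (v - v') (pr D.f u) := by
  have h : pr D.f u = pr D.f (u.take D.p) * pr D.f (u.drop D.p) := by
    rw [← pr_app, List.take_append_drop]
  rw [h, D.hmul, D.act_sub]
  unfold tau
  rw [D.hadd, D.hadd, D.act_sub]
  abel

/-- walls of the text after a change of the left word -/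
theorem wo_shift {P P' Q : List α} {s : ℕ} (hs : D.n ≤ s) (hsq : s ≤ Q.length) :
    D.Wo ((P ++ Q).take (P.length + s)) ↔ D.Wo ((P' ++ Q).take (P'.length + s)) := by
  rw [List.take_length_add_append, List.take_length_add_append,
    D.wloc _ _ (by rw [List.length_take]; omega), D.wloc _ _ (by rw [List.length_take]; omega)]

end Cfg

end Crest.Agent.R320.Full_301
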