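import Crest.Agent.R320.Top5_467
import Crest.Agent.R320.FewVal_228

/-!
# Row 320: the two schemes of `top5` from a clock gadget `lam rho nu1` (852 g1) and the exact gadget
(237), natural chain rule, walls on all words (helper763).
-/

set_option autoImplicit false

namespace Crest.Agent.R320.Full763

open Crest.Agent.R320.Blk467

universe u

variable {α : Type u}

/-- walls by their end points -/
structure WR (α : Type u) where
  E : List α → ℕ → Prop
  n : ℕ
  W : ℕ
  w1 : ∀ w y, E w y → n ≤ y ∧ y ≤ w.length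
  w2 : ∀ w r y, y ≤ w.length → (E (w ++ r) y ↔ E w y)
  w3 : ∀ p w y, n ≤ y → (E (p ++ w) (p.length + y) ↔ E w y)
  w4 : ∀ w x y, E w x → E w y → x < y → x + W ≤ y

variable (R : WR α)

/-- blocks: up to the first wall at distance `≥ z` -/
def XX (z : ℕ) : Set (List α) :=
  {X | z ≤ X.length ∧ R.E X X.length ∧ ∀ y, z ≤ y → y < X.length → ¬ R.E X y}

theorem XX_pcode {z : ℕ} (hz : 0 < z) : PCode (XX R z) := by
  refine ⟨fun h => ?_, ?_⟩
  · have := h.1; simp at this; omega
  · rintro X ⟨h1, h2, h3⟩ Y ⟨g1, g2, g3⟩ ⟨r, rfl⟩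
    by_contra hne
    have hr : 0 < r.length := by
      rcases Nat.eq_zero_or_pos r.length with h | h
      · exact absurd (by rw [List.length_eq_zero_iff.1 h, List.append_nil]) hne
      · exact h
    refine g3 X.length h1 (by rw [List.length_append]; omega) ?_
    exact (R.w2 X r _ le_rfl).2 h2

/-- mode (E) -/
def EE (z N1 : ℕ) (X : List α) : Prop := ∃ y, R.E X y ∧ z ≤ y + N1 ∧ y ≤ z + N1

theorem XX_shift {z N1 p0 : ℕ} (hz : p0 + 2 * N1 + R.n ≤ z) {P P' Q : List α}
    (hX : P ++ Q ∈ XX R z) (hE : ¬ EE R z N1 (P ++ Q))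
    (h1 : p0 ≤ P.length) (h2 : P.length < p0 + N1) (h1' : p0 ≤ P'.length)
    (h2' : P'.length < p0 + N1) : P' ++ Q ∈ XX R z := by
  obtain ⟨a1, a2, a3⟩ := hX
  rw [List.length_append] at a1 a2
  have hbig : z + N1 < P.length + Q.length := by
    by_contra h
    exact hE ⟨_, a2, by omega, by omega⟩
  have hQn : R.n ≤ Q.length := by omega
  refine ⟨?_, ?_, ?_⟩
  · rw [List.length_append]; omega
  · rw [List.length_append, R.w3 P' Q _ hQn]
    exact (R.w3 P Q _ hQn).1 a2
  · intro y hy1 hy2 hy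
    rw [List.length_append] at hy2
    obtain ⟨q, rfl⟩ : ∃ q, y = P'.length + q := ⟨y - P'.length, by omega⟩
    have hq : R.n ≤ q := by omega
    have hw : R.E (P ++ Q) (P.length + q) := (R.w3 P Q q hq).2 ((R.w3 P' Q q hq).1 hy)
    by_cases hh : P.length + q ≤ z + N1
    · exact hE ⟨_, hw, by omega, hh⟩
    · exact a3 _ (by omega) (by rw [List.length_append]; omega) hw

section Schemes

variable {S V : Type u} [Monoid S] [AddCommGroup V] (φ : α → S) (act : V → S → V)
  (p0 : ℕ) (nu1 nu2 : List α → V)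

/-- the value of a word -/
abbrev pf (w : List α) : S := (w.map φ).prod

/-- the noise of a block -/
def nuB (X : List α) : V :=
  act (nu2 (X.take p0)) (pf φ (X.drop p0)) + nu1 (X.drop p0)

/-- the thread map -/
def TT (v : V) (X : List α) : V := act v (X.map φ).prod + nuB φ act p0 nu1 nu2 X

variable {φ act p0 nu1 nu2}

theorem TT_eq (hadd : ∀ a b s, act (a + b) s = act a s + act b s)
    (hmul : ∀ v s t, act v (s * t) = act (act v s) t) (v : V) (X : List α) :
    TT φ act p0 nu1 nu2 v X =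
      act (act v (pf φ (X.take p0)) + nu2 (X.take p0)) (pf φ (X.drop p0)) +
        nu1 (X.drop p0) := by
  unfold TT nuB
  rw [hadd, ← add_assoc]
  congr 2
  rw [← hmul]
  unfold pf
  rw [← List.prod_append, ← List.map_append, List.take_append_drop]

/-- left words of scheme 1 -/
def LP1 (φ : α → S) (act : V → S → V) (p0 : ℕ) (nu2 : List α → V) (lam : List α → Option V)
    (u : V) : Set (List α) :=
  {P | p0 ≤ P.length ∧ lam (P.drop p0) = some (act u (pf φ (P.take p0)) + nu2 (P.take p0))}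

/-- right words of scheme 1 -/
def RQ1 (z : ℕ) (φ : α → S) (act : V → S → V) (p0 : ℕ) (nu1 nu2 : List α → V)
    (lam : List α → Option V) (b : V) : Set (List α) :=
  {Q | ∀ u, ∀ P ∈ LP1 φ act p0 nu2 lam u,
    P ++ Q ∈ XX R z ∧ TT φ act p0 nu1 nu2 u (P ++ Q) = b}

theorem c1 {z N1 : ℕ} (hz : p0 + 2 * N1 + R.n ≤ z)
    (hadd : ∀ a b s, act (a + b) s = act a s + act b s)
    (hmul : ∀ v s t, act v (s * t) = act (act v s) t)
    (lam rho : List α → Option V)
    (hlen : ∀ P v, lam P = some v → P.length < N1)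
    (hs : ∀ P Q v v', lam P = some v → rho Q = some v' →
      v' = act v (pf φ (P ++ Q)) + nu1 (P ++ Q))
    (BT : ℕ → Prop)
    (hc : ∀ X : List α, ¬ BT X.length → ∀ v, ∃ P Q, P ++ Q = X ∧ lam P = some v ∧
      (rho Q).isSome)
    (X : List α) (hX : X ∈ XX R z) (hE : ¬ EE R z N1 X) (hB : ¬ BT (X.length - p0)) (v : V) :
    ∃ P Q, P ++ Q = X ∧ P ∈ LP1 φ act p0 nu2 lam v ∧
      Q ∈ RQ1 R z φ act p0 nu1 nu2 lam (TT φ act p0 nu1 nu2 v X) := by
  have hXl : p0 ≤ X.length := by have := hX.1; omega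
  obtain ⟨P', Q, e, h1, h2⟩ := hc (X.drop p0) (by rw [List.length_drop]; exact hB)
    (act v (pf φ (X.take p0)) + nu2 (X.take p0))
  obtain ⟨b, hb⟩ := Option.isSome_iff_exists.1 h2
  have hl1 : (X.take p0).length = p0 := by rw [List.length_take]; omega
  have eP : (X.take p0 ++ P').take p0 = X.take p0 := by
    rw [List.take_append_of_le_length (by omega), List.take_take, Nat.min_self]
  have eD : (X.take p0 ++ P').drop p0 = P' := by
    have := List.drop_left (l₁ := X.take p0) (l₂ := P')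
    rwa [hl1] at this
  have eX : (X.take p0 ++ P') ++ Q = X := by
    rw [List.append_assoc, e, List.take_append_drop]
  have hP'l := hlen _ _ h1
  have hTX : TT φ act p0 nu1 nu2 v X = b := by
    rw [TT_eq hadd hmul, hs P' Q _ b h1 hb, e]
  refine ⟨X.take p0 ++ P', Q, eX, ⟨by rw [List.length_append]; omega, by rw [eD, eP]; exact h1⟩,
    ?_⟩
  rintro u P ⟨g1, g2⟩
  have hPl := hlen _ _ g2
  rw [List.length_drop] at hPl
  refine ⟨XX_shift R hz (P := X.take p0 ++ P') (by rw [eX]; exact hX) (by rw [eX]; exact hE)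
    (by rw [List.length_append]; omega) (by rw [List.length_append]; omega) g1 (by omega), ?_⟩
  rw [TT_eq hadd hmul, hTX]
  have e1 : (P ++ Q).take p0 = P.take p0 := List.take_append_of_le_length g1
  have e2 : (P ++ Q).drop p0 = P.drop p0 ++ Q := List.drop_append_of_le_length g1
  rw [e1, e2]
  exact (hs _ _ _ _ g2 hb).symm

/-- left words of scheme 2 -/
def LP2 (K : ℕ) (c : ℕ → ℕ) (lam2 : ℕ → List α → Option V) (u : V) : Set (List α) :=
  {P | ∃ k < K, P.length = c k ∧ lam2 k P = some u}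

/-- right words of scheme 2 (`B` = bad blocks) -/
def RQ2 (B : Set (List α)) (few : Set (List α)) (T : V → List α → V) (K : ℕ) (c : ℕ → ℕ)
    (lam2 : ℕ → List α → Option V) (b : V) : Set (List α) :=
  {Q | Q ∈ few ∧ ∀ u, ∀ P ∈ LP2 K c lam2 u, (∃ r, P ++ Q ++ r ∈ Str B) →
    ∃ X ∈ B, ∃ X' ∈ B, X ++ X' = P ++ Q ∧ T (T u X) X' = b}

omit [AddCommGroup V] in
theorem s2 (B few : Set (List α)) (T : V → List α → V) (K : ℕ) (c : ℕ → ℕ)
    (lam2 : ℕ → List α → Option V) (v b : V) (P Q r : List α)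
    (hP : P ∈ LP2 K c lam2 v) (hQ : Q ∈ RQ2 B few T K c lam2 b)
    (hr : P ++ Q ++ r ∈ Str B) : P ++ Q ∈ Lg B T v b := by
  obtain ⟨X, hX, X', hX', e, hT⟩ := hQ.2 v P hP ⟨r, hr⟩
  exact ⟨[X, X'], by simp [hX, hX'], by simpa using e, by simpa using hT⟩

/-- mode (E) or (B) -/
def Bad (z N1 p0 : ℕ) (BT : ℕ → Prop) : Set (List α) :=
  {X | X ∈ XX R z ∧ (EE R z N1 X ∨ BT (X.length - p0))}

theorem Bad_congr {z N1 L : ℕ} (hz : L + N1 + R.n ≤ z) (BT : ℕ → Prop)
    {P P' Q : List α} (hX : P ++ Q ∈ Bad R z N1 p0 BT) (hl : P.length = P'.length)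
    (hL : P.length ≤ L) : P' ++ Q ∈ Bad R z N1 p0 BT := by
  have tr : ∀ {A B : List α} (y : ℕ), A.length = B.length → A.length + R.n ≤ y →
      R.E (A ++ Q) y → R.E (B ++ Q) y := by
    intro A B y hAB hy h
    obtain ⟨q, rfl⟩ : ∃ q, y = A.length + q := ⟨y - A.length, by omega⟩
    have := (R.w3 A Q q (by omega)).1 h
    rw [hAB]
    exact (R.w3 B Q q (by omega)).2 this
  obtain ⟨⟨a1, a2, a3⟩, a4⟩ := hX
  have hlen : (P' ++ Q).length = (P ++ Q).length := by
    rw [List.length_append, List.length_append, hl]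
  refine ⟨⟨by rw [hlen]; exact a1, ?_, ?_⟩, ?_⟩
  · rw [hlen]; exact tr _ hl (by omega) a2
  · intro y hy1 hy2 hy
    rw [hlen] at hy2
    exact a3 y hy1 hy2 (tr _ hl.symm (by omega) hy)
  · rcases a4 with ⟨y, h1, h2, h3⟩ | h
    · exact Or.inl ⟨y, tr _ hl (by omega) h1, h2, h3⟩
    · right; rw [hlen]; exact h

theorem c2 {z N1 L : ℕ} (hz0 : 0 < z) (hz : L + N1 + R.n ≤ z) (hp : L ≤ p0) (hpz : p0 ≤ z)
    (hadd : ∀ a b s, act (a + b) s = act a s + act b s)
    (hmul : ∀ v s t, act v (s * t) = act (act v s) t)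
    (BT : ℕ → Prop) (few : Set (List α)) (K Rr : ℕ) (c : ℕ → ℕ) (hcL : ∀ k < K, c k ≤ L)
    (lam2 rho2 : ℕ → List α → Option V)
    (hs2 : ∀ k < K, ∀ P Q v b, P.length = c k → lam2 k P = some v → rho2 k Q = some b →
      b = act v (pf φ (P ++ Q)) + nu2 (P ++ Q))
    (hc2 : ∀ (X1 : List α) (v : V), (∀ k < K, c k ≤ X1.length) →
      ∃ I : Finset ℕ, Rr ≤ I.card ∧ ∀ k ∈ I, k < K ∧ lam2 k (X1.take (c k)) = some v ∧
        (rho2 k (X1.drop (c k))).isSome)
    (X X' : List α) (hX : X ∈ Bad R z N1 p0 BT) (hX' : X' ∈ Bad R z N1 p0 BT)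
    (hfew : ∀ k < K, X.drop (c k) ++ X' ∈ few)
    (J : Finset ℕ) (hJ : J.card < Rr)
    (hJs : ∀ k < K, k ∉ J → ∀ k' < K, k' ≠ k → ∀ P r X3 : List α, P.length = c k' →
      X3 ∈ Bad R z N1 p0 BT → ¬ X3 <+: P ++ (X.drop (c k) ++ X') ++ r)
    (v : V) :
    ∃ P Q, P ++ Q = X ++ X' ∧ P ∈ LP2 K c lam2 v ∧
      Q ∈ RQ2 (Bad R z N1 p0 BT) few (TT φ act p0 nu1 nu2) K c lam2
        (TT φ act p0 nu1 nu2 (TT φ act p0 nu1 nu2 v X) X') := by
  have hXl : p0 ≤ X.length := by have := hX.1.1; omega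
  have hl1 : (X.take p0).length = p0 := by rw [List.length_take]; omega
  obtain ⟨I, hI1, hI2⟩ := hc2 (X.take p0) v (fun k hk => by rw [hl1]; have := hcL k hk; omega)
  obtain ⟨k, hkI, hkJ⟩ : ∃ k ∈ I, k ∉ J := by
    by_contra h
    push Not at h
    exact absurd (Finset.card_le_card (show I ⊆ J from h)) (by omega)
  obtain ⟨hk, g1, g2⟩ := hI2 k hkI
  obtain ⟨b, hb⟩ := Option.isSome_iff_exists.1 g2
  have hckL := hcL k hk
  have e1 : (X.take p0).take (c k) = X.take (c k) := by
    rw [List.take_take, Nat.min_eq_left (by omega)]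
  rw [e1] at g1
  have hlk : (X.take (c k)).length = c k := by rw [List.length_take]; omega
  refine ⟨X.take (c k), X.drop (c k) ++ X', ?_, ⟨k, hk, hlk, g1⟩, hfew k hk, ?_⟩
  · rw [← List.append_assoc, List.take_append_drop]
  · rintro u P ⟨k', hk', hPl, hPu⟩ ⟨r, l, hl, he⟩
    -- the first block
    have hne : l ≠ [] := by
      rintro rfl
      have h0 := congrArg List.length he
      simp only [List.flatten_nil, List.length_nil, List.length_append, List.length_drop] at h0
      have h3 := hX'.1.1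
      omega
    obtain ⟨X3, l', rfl⟩ := List.exists_cons_of_ne_nil hne
    have hX3 : X3 ∈ Bad R z N1 p0 BT := hl X3 (by simp)
    have hpre : X3 <+: P ++ (X.drop (c k) ++ X') ++ r := by
      rw [← he, List.flatten_cons]; exact List.prefix_append _ _
    have hkk : k' = k := by
      by_contra hne'
      exact hJs k hk hkJ k' hk' hne' P r X3 hPl hX3 hpre
    subst hkk
    have hXB : P ++ X.drop (c k') ∈ Bad R z N1 p0 BT := by
      refine Bad_congr R hz BT (P := X.take (c k')) ?_ (by rw [hlk, hPl]) (by rw [hlk]; exact hckL)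
      rw [List.take_append_drop]; exact hX
    refine ⟨P ++ X.drop (c k'), hXB, X', hX', by rw [List.append_assoc], ?_⟩
    congr 1
    -- both threads have the same value at the frame
    have hPp : P.length ≤ p0 := by omega
    have a1 : (P ++ X.drop (c k')).take p0 = P ++ (X.take p0).drop (c k') := by
      rw [List.take_append, List.take_of_length_le hPp, List.drop_take, hPl]
    have a2 : (P ++ X.drop (c k')).drop p0 = X.drop p0 := by
      rw [List.drop_append, List.drop_eq_nil_of_le hPp, List.nil_append, List.drop_drop, hPl]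
      congr 1; omega
    have a3 : X.take p0 = X.take (c k') ++ (X.take p0).drop (c k') := by
      conv_lhs => rw [← List.take_append_drop (c k') (X.take p0)]
      rw [e1]
    rw [TT_eq hadd hmul, TT_eq hadd hmul, a1, a2]
    congr 2
    rw [← hs2 k' hk' P _ u b hPl hPu hb]
    have := hs2 k' hk' (X.take (c k')) _ v b hlk g1 hb
    rw [← a3] at this
    exact this

end Schemes

end Crest.Agent.R320.Full763
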