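import Crest.Agent.R320.FullA_1

/-!
# Row 320: the two levels on blocks (helper1)
-/

set_option autoImplicit false

namespace Crest.Agent.R320.Full_1

open Crest.RegLang Crest.Agent.R320.Hk_851 Crest.Agent.R320.FewWalls_228 Crest.Agent.R320.Asm_505

structure Dt (A S V : Type) [Monoid S] [AddCommGroup V] where
  f : A → S
  act : V → S → V
  Sg : Set (List A)
  n : ℕ
  W : ℕ
  z : ℕ
  p0 : ℕ
  N : ℕ
  Lm : ℕ
  nu2 : List A → V
  nu1 : List A → V
  lam : List A → Option V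
  rho : List A → Option V
  Bd : ℕ → Prop
  K : ℕ
  c : ℕ → ℕ
  lam2 : ℕ → List A → Option V
  rho2 : ℕ → List A → Option V
  C : ℕ
  hn : 0 < n
  hl : ∀ s ∈ Sg, s.length = n
  hgap : ∀ (w : List A) (x y : ℕ), x < y → Wl n Sg w x → Wl n Sg w y → x + W ≤ y
  hz : n + 2 * N + Lm ≤ z
  hp0 : Lm ≤ p0
  hW : Lm ≤ W
  hc0 : ∀ k, k < K → 0 < c k
  hcL : ∀ k, k < K → c k ≤ Lm
  hp : 0 < p0
  lamN : ∀ p v, lam p = some v → p.length ≤ N
  sound1 : ∀ p q v r, lam p = some v → rho q = some r →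
    r = act v (pv f (p ++ q)) + nu1 (p ++ q)
  compl1 : ∀ u : List A, 2 * N ≤ u.length → ¬ Bd u.length → ∀ v, ∃ p q r, p ++ q = u ∧
    lam p = some v ∧ rho q = some r
  sound2 : ∀ k, k < K → ∀ P Q v b, P.length = c k → lam2 k P = some v → rho2 k Q = some b →
    b = act v (pv f (P ++ Q)) + nu2 (P ++ Q)
  compl2 : ∀ (u : List A) v, u.length = p0 → ∃ I : Finset ℕ, C < I.card ∧ ∀ k ∈ I, k < K ∧
    lam2 k (u.take (c k)) = some v ∧ (rho2 k (u.drop (c k))).isSome

namespace Dt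

variable {A S V : Type} [Monoid S] [AddCommGroup V] (D : Dt A S V)

structure IsZ (X Y Z : List A) : Prop where
  hX : X.length = D.p0
  hY : FW D.Sg D.z Y
  hZ : FW D.Sg D.n Z

theorem IsZ.uniq {X Y Z X' Y' Z' r r' : List A} (h : D.IsZ X Y Z) (h' : D.IsZ X' Y' Z')
    (he : X ++ (Y ++ Z) ++ r = X' ++ (Y' ++ Z') ++ r') : X = X' ∧ Y = Y' ∧ Z = Z' ∧ r = r' := by
  have h1 : X ++ (Y ++ (Z ++ r)) = X' ++ (Y' ++ (Z' ++ r')) := by simpa using he
  obtain ⟨rfl, h2⟩ := List.append_inj h1 (by rw [h.hX, h'.hX])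
  obtain ⟨rfl, h3⟩ := FW_app h.hY h'.hY h2
  obtain ⟨rfl, h4⟩ := FW_app h.hZ h'.hZ h3
  exact ⟨rfl, rfl, rfl, h4⟩

/-- the blocks -/
def U : Language A := {w | ∃ X Y Z, D.IsZ X Y Z ∧ w = X ++ (Y ++ Z)}

def F (X Y Z : List A) (v : V) : V :=
  D.act (D.act (D.act v (pv D.f X) + D.nu2 X) (pv D.f Y) + D.nu1 Y) (pv D.f Z)

open Classical in
noncomputable def eps (w : List A) (v : V) : V :=
  if h : ∃ t : List A × List A × List A, D.IsZ t.1 t.2.1 t.2.2 ∧ w = t.1 ++ (t.2.1 ++ t.2.2) then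
    D.F h.choose.1 h.choose.2.1 h.choose.2.2 v else v

theorem eps_eq {X Y Z : List A} (h : D.IsZ X Y Z) (v : V) :
    D.eps (X ++ (Y ++ Z)) v = D.F X Y Z v := by
  have hex : ∃ t : List A × List A × List A, D.IsZ t.1 t.2.1 t.2.2 ∧
      X ++ (Y ++ Z) = t.1 ++ (t.2.1 ++ t.2.2) := ⟨(X, Y, Z), h, rfl⟩
  unfold eps
  rw [dif_pos hex]
  obtain ⟨h1, h2⟩ := hex.choose_spec
  obtain ⟨h3, h4, h5, -⟩ := IsZ.uniq D (r := []) (r' := []) h h1 (by simpa using h2)
  rw [← h3, ← h4, ← h5]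

def BadY (Y : List A) : Prop :=
  (∃ t, t ≤ Y.length ∧ D.z ≤ t + D.N ∧ t ≤ D.z + D.N ∧ E D.Sg (Y.take t)) ∨ D.Bd Y.length

def B : Language A := {w | ∃ X Y Z, D.IsZ X Y Z ∧ D.BadY Y ∧ w = X ++ (Y ++ Z)}

def P1 (v : V) : Language A := {P | D.p0 ≤ P.length ∧
  D.lam (P.drop D.p0) = some (D.act v (pv D.f (P.take D.p0)) + D.nu2 (P.take D.p0))}

noncomputable def R1 (u : V) : Language A :=
  {Q | ∀ v, ∀ P ∈ D.P1 v, P ++ Q ∈ D.U ∧ D.eps (P ++ Q) v = u}

def P2 (v : V) : Language A := {P | ∃ k, k < D.K ∧ P.length = D.c k ∧ D.lam2 k P = some v}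

def Cand (j : ℕ) (Q : List A) : Prop :=
  ∃ X Y Z, Q = X ++ (Y ++ Z) ∧ X.length = D.p0 - D.c j ∧ FW D.Sg D.z Y ∧ D.BadY Y

def R2 (u : V) : Language A := {Q | ∃ k, k < D.K ∧ ∃ X Y Z b, Q = X ++ (Y ++ Z) ∧
  X.length = D.p0 - D.c k ∧ FW D.Sg D.z Y ∧ D.BadY Y ∧ FW D.Sg D.n Z ∧ D.rho2 k X = some b ∧
  u = D.act (D.act b (pv D.f Y) + D.nu1 Y) (pv D.f Z) ∧ ∀ j, j < D.K → j ≠ k → ¬ D.Cand j Q}

theorem pcU : PC D.U := by
  constructor
  · rintro ⟨X, Y, Z, h, he⟩
    have := congrArg List.length he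
    simp only [List.length_nil, List.length_append] at this
    have := h.hX
    have := D.hp
    omega
  · rintro w ⟨X, Y, Z, h, rfl⟩ w' ⟨X', Y', Z', h', rfl⟩ ⟨r, hr⟩
    obtain ⟨rfl, rfl, rfl, -⟩ := IsZ.uniq D (r := r) (r' := []) h h' (by rw [hr]; simp)
    rfl

/-- junction of scheme 1 -/
theorem junc {X P Q Z : List A} (hX : X.length = D.p0) (hP : P.length ≤ D.N)
    (hE : E D.Sg Q) (hQz : D.z ≤ Q.length)
    (hQ : ∀ t, t < Q.length → D.z ≤ t + D.N → ¬ E D.Sg (Q.take t)) (hZ : FW D.Sg D.n Z) :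
    D.IsZ X (P ++ Q) Z := by
  refine ⟨hX, ⟨?_, E_app hE, ?_⟩, hZ⟩
  · rw [List.length_append]; omega
  · intro t ht ht' hE'
    rw [List.length_append] at ht'
    have hz := D.hz
    obtain ⟨s, rfl⟩ : ∃ s, t = P.length + s := ⟨t - P.length, by omega⟩
    rw [List.take_length_add_append] at hE'
    have h1 := E_of_app D.hl (by rw [List.length_take]; omega) hE'
    exact hQ s (by omega) (by omega) h1

theorem level1 : Level D.U D.B D.eps D.P1 D.R1 := by
  have pc := D.pcU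
  refine ⟨?_, ?_, ?_⟩
  · rintro x ⟨h1, -⟩
    have := D.hp
    simp at h1
    omega
  · intro z hz x y p hp q hq hc
    obtain ⟨h1, h2⟩ := hq x p hp
    have : z = p ++ q := by
      rcases hc with hc | hc
      · exact pc.pc z hz _ h1 hc
      · exact (pc.pc _ h1 z hz hc).symm
    exact ⟨this, by rw [this]; exact h2⟩
  · rintro w ⟨X, Y, Z, h, rfl⟩ hB v
    have hnb : ¬ D.BadY Y := fun hb => hB ⟨X, Y, Z, h, hb, rfl⟩
    have hz := D.hz
    have hYl := h.hY.1
    obtain ⟨p, q, r, rfl, hlam, hrho⟩ := D.compl1 Y (by omega) (fun hb => hnb (Or.inr hb))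
      (D.act v (pv D.f X) + D.nu2 X)
    have hpN := D.lamN _ _ hlam
    have hYlen : D.z + D.N < (p ++ q).length := by
      by_contra hcon
      exact hnb (Or.inl ⟨(p ++ q).length, le_rfl, by omega, by omega, by
        rw [List.take_length]; exact h.hY.2.1⟩)
    rw [List.length_append] at hYlen hYl
    have hEq : E D.Sg q := E_of_app D.hl (by omega) h.hY.2.1
    have hplace : ∀ t, t < q.length → D.z ≤ t + D.N → ¬ E D.Sg (q.take t) := by
      intro t ht ht' hE
      have h1 : E D.Sg ((p ++ q).take (p.length + t)) := by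
        rw [List.take_length_add_append]; exact E_app hE
      rcases Nat.lt_or_ge (p.length + t) D.z with h2 | h2
      · exact hnb (Or.inl ⟨p.length + t, by rw [List.length_append]; omega, by omega, by omega,
          h1⟩)
      · exact h.hY.2.2 _ h2 (by rw [List.length_append]; omega) h1
    have hval : ∀ v' P', P' ∈ D.P1 v' → P' ++ (q ++ Z) ∈ D.U ∧
        D.eps (P' ++ (q ++ Z)) v' = D.act r (pv D.f Z) := by
      rintro v' P' ⟨h1, h2⟩
      have h3 := D.lamN _ _ h2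
      have h4 := D.junc (X := P'.take D.p0) (by rw [List.length_take]; omega) h3 hEq (by omega)
        hplace h.hZ
      have h5 : P' ++ (q ++ Z) = P'.take D.p0 ++ ((P'.drop D.p0 ++ q) ++ Z) := by
        calc P' ++ (q ++ Z) = (P'.take D.p0 ++ P'.drop D.p0) ++ (q ++ Z) := by
              rw [List.take_append_drop]
          _ = _ := by simp only [List.append_assoc]
      rw [h5]
      refine ⟨⟨_, _, _, h4, rfl⟩, ?_⟩
      rw [D.eps_eq h4]
      unfold F
      rw [← D.sound1 _ _ _ _ h2 hrho]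
    have hP : X ++ p ∈ D.P1 v := by
      refine ⟨by rw [List.length_append, h.hX]; omega, ?_⟩
      rw [← h.hX, List.drop_left, List.take_left]; exact hlam
    have he : X ++ ((p ++ q) ++ Z) = (X ++ p) ++ (q ++ Z) := by simp
    refine ⟨X ++ p, hP, q ++ Z, ?_, he⟩
    intro v' P' hP'
    rw [he, (hval v _ hP).2]
    exact hval v' P' hP'

/-- the true anchor is a candidate -/
theorem sound2' {X Y Z P Q : List A} {k0 : ℕ} (h : D.IsZ X Y Z) (hb : D.BadY Y) (hk0 : k0 < D.K)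
    (hP : P.length = D.c k0) {k : ℕ} (hk : k < D.K) {X' Y' Z' : List A}
    (hQ : Q = X' ++ (Y' ++ Z')) (hX' : X'.length = D.p0 - D.c k) (hY' : FW D.Sg D.z Y')
    (hZ' : FW D.Sg D.n Z') (hu : ∀ j, j < D.K → j ≠ k → ¬ D.Cand j Q)
    (hc : X ++ (Y ++ Z) <+: P ++ Q ∨ P ++ Q <+: X ++ (Y ++ Z)) :
    k0 = k ∧ P ++ X' = X ∧ Y' = Y ∧ Z' = Z := by
  have hck0 := D.hcL k0 hk0
  have hck := D.hcL k hk
  have hp0 := D.hp0
  have hz := D.hz
  have hW := D.hW
  -- `X ++ Y` is a prefix of `P ++ Q`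
  have hpre : ∃ r, P ++ Q = X ++ (Y ++ r) := by
    rcases hc with ⟨r, hr⟩ | ⟨r, hr⟩
    · exact ⟨Z ++ r, by rw [← hr]; simp⟩
    · have hw : X ++ (Y ++ Z) = P ++ X' ++ (Y' ++ (Z' ++ r)) := by rw [← hr, hQ]; simp
      have hlen : X.length + Y.length ≤ (P ++ Q).length := by
        by_contra hlt
        push Not at hlt
        have hPQ : (P ++ Q).length = P.length + X'.length + Y'.length + Z'.length := by
          rw [hQ]; simp only [List.length_append]; omega
        have hwl : (X ++ (Y ++ Z)).length = (P ++ Q).length + r.length := by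
          rw [← hr, List.length_append]
        have hXl := h.hX
        have hY'l := hY'.1
        have hZ'l := hZ'.1
        have e1 : E D.Sg ((X ++ (Y ++ Z)).take (P.length + X'.length + Y'.length)) := by
          rw [hw, show P.length + X'.length + Y'.length = (P ++ X').length + Y'.length by simp,
            List.take_length_add_append, List.take_left]
          exact E_app hY'.2.1
        have e2 : E D.Sg ((X ++ (Y ++ Z)).take (P ++ Q).length) := by
          rw [← hr, List.take_left, hQ]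
          exact E_app (E_app (E_app hZ'.2.1))
        have hn := D.hn
        have hgap := E_gap D.hl D.hgap (t := P.length + X'.length + Y'.length)
          (t' := (P ++ Q).length) (by omega) (by omega) e1 e2
        have e3 : E D.Sg (Y.take ((P ++ Q).length - X.length)) := by
          have h1 : (X ++ (Y ++ Z)).take (P ++ Q).length
              = X ++ Y.take ((P ++ Q).length - X.length) := by
            conv_lhs => rw [show (P ++ Q).length = X.length + ((P ++ Q).length - X.length) by omega]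
            rw [List.take_length_add_append, List.take_append_of_le_length (by omega)]
          rw [h1] at e2
          exact E_of_app D.hl (by rw [List.length_take]; omega) e2
        exact h.hY.2.2 _ (by omega) (by omega) e3
      have h1 : X ++ Y <+: P ++ Q := List.prefix_of_prefix_length_le
        (l₃ := X ++ (Y ++ Z)) ⟨Z, by simp⟩ ⟨r, hr⟩ (by rw [List.length_append (as := X)]; exact hlen)
      obtain ⟨s, hs⟩ := h1
      exact ⟨s, by rw [← hs]; simp⟩
  obtain ⟨r, hr⟩ := hpre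
  -- split `X`
  have hXP : P = X.take (D.c k0) := by
    have h1 := congrArg (List.take (D.c k0)) hr
    rw [List.take_append_of_le_length (by omega), List.take_of_length_le (by omega),
      List.take_append_of_le_length (by rw [h.hX]; omega)] at h1
    exact h1
  have hQ2 : Q = X.drop (D.c k0) ++ (Y ++ r) := by
    have h1 := congrArg (List.drop (D.c k0)) hr
    rw [← hP, List.drop_left, hP, List.drop_append_of_le_length (by rw [h.hX]; omega)] at h1
    exact h1
  have hcand : D.Cand k0 Q := ⟨_, Y, r, hQ2, by rw [List.length_drop, h.hX], h.hY, hb⟩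
  have hkk : k0 = k := by
    by_contra hne
    exact hu k0 hk0 hne hcand
  subst hkk
  have h2 : X' ++ (Y' ++ Z') = X.drop (D.c k0) ++ (Y ++ r) := by rw [← hQ, hQ2]
  obtain ⟨h3, h4⟩ := List.append_inj h2 (by rw [hX', List.length_drop, h.hX])
  obtain ⟨h5, h6⟩ := FW_app hY' h.hY h4
  have hPX : P ++ X' = X := by rw [h3, hXP]; exact List.take_append_drop _ _
  refine ⟨rfl, hPX, h5, ?_⟩
  -- compare `Z'` and `Z`
  have hPQ : P ++ Q = X ++ (Y ++ Z') := by
    rw [hQ, ← List.append_assoc P, hPX, h5]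
  rw [hPQ] at hc
  rcases hc with ⟨s, hs⟩ | ⟨s, hs⟩
  · have : Z ++ s = Z' := by
      have h7 : X ++ (Y ++ (Z ++ s)) = X ++ (Y ++ Z') := by simpa using hs
      exact List.append_cancel_left (List.append_cancel_left h7)
    exact (FW_pre h.hZ hZ' ⟨s, this⟩).symm
  · have : Z' ++ s = Z := by
      have h7 : X ++ (Y ++ (Z' ++ s)) = X ++ (Y ++ Z) := by simpa using hs
      exact List.append_cancel_left (List.append_cancel_left h7)
    exact FW_pre hZ' h.hZ ⟨s, this⟩

/-- the spoiling hypothesis -/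
def Spoil : Prop := ∀ X Y Z, D.IsZ X Y Z → ∃ J : Finset ℕ, J.card ≤ D.C ∧
  ∀ k, k < D.K → (∃ j, j < D.K ∧ j ≠ k ∧ D.Cand j ((X ++ (Y ++ Z)).drop (D.c k))) → k ∈ J

theorem level2 (hsp : D.Spoil) : Level D.B 0 D.eps D.P2 D.R2 := by
  refine ⟨?_, ?_, ?_⟩
  · rintro x ⟨k, hk, h1, -⟩
    have := D.hc0 k hk
    simp at h1
    omega
  · rintro z ⟨X, Y, Z, h, hb, rfl⟩ x y p ⟨k0, hk0, hp, hlam⟩ q
      ⟨k, hk, X', Y', Z', b, hQ, hX', hY', hbY', hZ', hrho, hy, hu⟩ hc
    obtain ⟨rfl, h1, rfl, rfl⟩ := D.sound2' h hb hk0 hp hk hQ hX' hY' hZ' hu hc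
    have h2 : X ++ (Y' ++ Z') = p ++ q := by rw [hQ, ← List.append_assoc p, h1]
    refine ⟨h2, ?_⟩
    rw [D.eps_eq h, hy, D.sound2 k0 hk0 _ _ _ _ hp hlam hrho, h1]
    rfl
  · rintro z ⟨X, Y, Z, h, hb, rfl⟩ - v
    obtain ⟨I, hI, hI'⟩ := D.compl2 X v h.hX
    obtain ⟨J, hJ, hJ'⟩ := hsp X Y Z h
    obtain ⟨k, hkI, hkJ⟩ : ∃ k ∈ I, k ∉ J := by
      by_contra hcon
      push Not at hcon
      have := Finset.card_le_card (show I ⊆ J from hcon)
      omega
    obtain ⟨hk, hlam, hrho⟩ := hI' k hkI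
    have hck := D.hcL k hk
    have hp0 := D.hp0
    obtain ⟨b, hb'⟩ := Option.isSome_iff_exists.1 hrho
    have hdrop : (X ++ (Y ++ Z)).drop (D.c k) = X.drop (D.c k) ++ (Y ++ Z) :=
      List.drop_append_of_le_length (by rw [h.hX]; omega)
    have hval : D.eps (X ++ (Y ++ Z)) v = D.act (D.act b (pv D.f Y) + D.nu1 Y) (pv D.f Z) := by
      have h3 := D.sound2 k hk _ _ _ _ (by rw [List.length_take, h.hX]; omega) hlam hb'
      rw [List.take_append_drop] at h3
      rw [D.eps_eq h, h3]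
      rfl
    refine ⟨X.take (D.c k), ⟨k, hk, by rw [List.length_take, h.hX]; omega, hlam⟩,
      X.drop (D.c k) ++ (Y ++ Z), ⟨k, hk, _, Y, Z, b, rfl, by rw [List.length_drop, h.hX], h.hY,
        hb, h.hZ, hb', hval, ?_⟩, ?_⟩
    · intro j hj hjk hcand
      exact hkJ (hJ' k hk ⟨j, hj, hjk, by rw [hdrop]; exact hcand⟩)
    · rw [← List.append_assoc (X.take _), List.take_append_drop]

end Dt

end Crest.Agent.R320.Full_1
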