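import Crest.Agent.R320.FullA_301

/-!
# Row 320: regularity and height one of the families (helper301)
-/

set_option autoImplicit false

namespace Crest.Agent.R320.Full_301

open Crest.Agent.R320.Hk_851 Crest.Agent.R320.Code110 Crest.Agent.R320.ExactR_237

/-- a language recognized by a finite right-congruent key is regular -/
theorem reg_of_key {α κ : Type} (key : List α → κ) (hfin : (Set.range key).Finite)
    (happ : ∀ u v : List α, ∀ a : α, key u = key v → key (u ++ [a]) = key (v ++ [a]))
    (L : Language α) (hL : ∀ u v, key u = key v → (u ∈ L ↔ v ∈ L)) : L.IsRegular := by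
  have happ' : ∀ (r : List α) (u v : List α), key u = key v → key (u ++ r) = key (v ++ r) := by
    intro r
    induction r with
    | nil => intro u v h; simpa using h
    | cons a r ih =>
      intro u v h
      have := ih (u ++ [a]) (v ++ [a]) (happ u v a h)
      simpa using this
  apply Language.IsRegular.of_finite_range_leftQuotient
  have hfac : Function.FactorsThrough L.leftQuotient key := by
    intro u v h
    ext r
    exact hL _ _ (happ' r u v h)
  obtain ⟨g, hg⟩ := (Function.factorsThrough_iff _).1 hfac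
  rw [hg, Set.range_comp]
  exact hfin.image _

namespace Cfg

variable {α S V : Type} [Monoid S] [AddCommGroup V] (D : Cfg α S V)

/-- long constant -/
def B0 : ℕ := D.z + D.N1 + D.p + D.La + D.n

/-- the key -/
def key (X : List α) : List α × (ℕ × (S × (List α × Prop))) :=
  (X.take D.B0, (X.length % D.Pm, (pr D.f (X.drop D.B0), (X.reverse.take D.n, D.flag X))))

theorem key_fin [Finite α] [Finite S] : (Set.range D.key).Finite := by
  refine Set.Finite.subset ((List.finite_length_le α D.B0).prod ((Set.finite_Iio D.Pm).prod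
    ((Set.toFinite (Set.univ : Set S)).prod ((List.finite_length_le α D.n).prod
      (Set.toFinite (Set.univ : Set Prop)))))) ?_
  rintro _ ⟨q, rfl⟩
  refine ⟨?_, ?_, Set.mem_univ _, ?_, Set.mem_univ _⟩
  · change (q.take D.B0).length ≤ D.B0
    rw [List.length_take]; exact min_le_left _ _
  · exact Nat.mod_lt _ D.hPm
  · change (q.reverse.take D.n).length ≤ D.n
    rw [List.length_take]; exact min_le_left _ _

theorem key_cases {u v : List α} (h : D.key u = D.key v) :
    u = v ∨ (D.B0 ≤ u.length ∧ D.B0 ≤ v.length) := by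
  have h1 : u.take D.B0 = v.take D.B0 := congrArg Prod.fst h
  by_cases hu : D.B0 ≤ u.length
  · by_cases hv : D.B0 ≤ v.length
    · exact Or.inr ⟨hu, hv⟩
    · exfalso
      have := congrArg List.length h1
      rw [List.length_take, List.length_take] at this
      omega
  · left
    have h2 := congrArg List.length h1
    rw [List.length_take, List.length_take] at h2
    rw [List.take_of_length_le (by omega), List.take_of_length_le (by omega)] at h1
    exact h1

theorem wo_rev {X : List α} (h : D.n ≤ X.length) : D.Wo X ↔ D.Wo (X.reverse.take D.n).reverse := by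
  have e : X = X.take (X.length - D.n) ++ (X.reverse.take D.n).reverse := by
    rw [List.take_reverse, List.reverse_reverse, List.take_append_drop]
  conv_lhs => rw [e]
  rw [D.wloc]
  rw [List.length_reverse, List.length_take, List.length_reverse]
  omega

theorem wo_key {u v : List α} (h : D.key u = D.key v) : D.Wo u ↔ D.Wo v := by
  rcases D.key_cases h with rfl | ⟨hu, hv⟩
  · rfl
  · have hB : D.n ≤ D.B0 := by unfold B0; omega
    rw [D.wo_rev (hB.trans hu), D.wo_rev (hB.trans hv)]
    have : u.reverse.take D.n = v.reverse.take D.n := congrArg (fun t => t.2.2.2.1) h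
    rw [this]

theorem flag_key {u v : List α} (h : D.key u = D.key v) : D.flag u ↔ D.flag v := by
  have : D.flag u = D.flag v := congrArg (fun t => t.2.2.2.2) h
  rw [this]

theorem len_key {u v : List α} (h : D.key u = D.key v) : D.z ≤ u.length ↔ D.z ≤ v.length := by
  rcases D.key_cases h with rfl | ⟨hu, hv⟩
  · rfl
  · have hB : D.z ≤ D.B0 := by unfold B0; omega
    exact ⟨fun _ => hB.trans hv, fun _ => hB.trans hu⟩

theorem flag_snoc (u : List α) (a : α) :
    D.flag (u ++ [a]) ↔ D.flag u ∧ (D.z ≤ u.length → ¬ D.Wo u) := by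
  constructor
  · intro h
    refine ⟨fun t h1 h2 h3 => h t h1 (by simp; omega) ?_, fun h1 h2 => h u.length h1 (by simp) ?_⟩
    · rwa [List.take_append_of_le_length h2.le]
    · simpa using h2
  · rintro ⟨h1, h2⟩ t ht1 ht2 ht3
    rw [List.length_append, List.length_singleton] at ht2
    rcases Nat.lt_or_ge t u.length with h | h
    · rw [List.take_append_of_le_length h.le] at ht3
      exact h1 t ht1 h ht3
    · have e : t = u.length := by omega
      subst e
      rw [List.take_left] at ht3
      exact h2 ht1 ht3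

theorem key_snoc (u v : List α) (a : α) (h : D.key u = D.key v) :
    D.key (u ++ [a]) = D.key (v ++ [a]) := by
  rcases D.key_cases h with rfl | ⟨hu, hv⟩
  · rfl
  have h1 : u.take D.B0 = v.take D.B0 := congrArg Prod.fst h
  have h2 : u.length % D.Pm = v.length % D.Pm := congrArg (fun t => t.2.1) h
  have h3 : pr D.f (u.drop D.B0) = pr D.f (v.drop D.B0) := congrArg (fun t => t.2.2.1) h
  have h4 : u.reverse.take D.n = v.reverse.take D.n := congrArg (fun t => t.2.2.2.1) h
  have hfl : D.flag (u ++ [a]) = D.flag (v ++ [a]) := by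
    rw [flag_snoc, flag_snoc, D.flag_key h, D.len_key h, D.wo_key h]
  unfold key
  rw [hfl, List.take_append_of_le_length hu, List.take_append_of_le_length hv,
    List.drop_append_of_le_length hu, List.drop_append_of_le_length hv, D.pr_app, D.pr_app,
    h1, h3, List.length_append, List.length_append, Nat.add_mod, h2, ← Nat.add_mod,
    List.reverse_append, List.reverse_append]
  have hn := D.hn
  obtain ⟨n', hn'⟩ : ∃ n', D.n = n' + 1 := ⟨D.n - 1, by omega⟩
  have e : ∀ w : List α, ([a].reverse ++ w.reverse).take D.n = a :: (w.reverse.take D.n).take n' := by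
    intro w
    rw [hn', List.take_take]
    simp
  rw [e u, e v, h4]

theorem reg [Finite α] [Finite S] (L : Language α)
    (hL : ∀ u v, D.key u = D.key v → (u ∈ L ↔ v ∈ L)) : L.IsRegular :=
  reg_of_key D.key D.key_fin D.key_snoc L hL

theorem xx_key {u v : List α} (h : D.key u = D.key v) : u ∈ D.XX ↔ v ∈ D.XX := by
  change (_ ∧ _ ∧ _) ↔ (_ ∧ _ ∧ _)
  rw [D.len_key h, D.wo_key h, D.flag_key h]

theorem bad_iter (k T : ℕ) : D.Bad (T + k * D.Pm) ↔ D.Bad T := by
  induction k with
  | zero => simp
  | succ k ih => rw [Nat.succ_mul, ← Nat.add_assoc, D.hper, ih]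

theorem bad_mod (T : ℕ) : D.Bad T ↔ D.Bad (T % D.Pm) := by
  conv_lhs => rw [← Nat.mod_add_div T D.Pm, Nat.mul_comm]
  exact D.bad_iter _ _

theorem bb_key {u v : List α} (h : D.key u = D.key v) : u ∈ D.BB ↔ v ∈ D.BB := by
  rcases D.key_cases h with rfl | ⟨hu, hv⟩
  · rfl
  have h1 : u.take D.B0 = v.take D.B0 := congrArg Prod.fst h
  have h2 : u.length % D.Pm = v.length % D.Pm := congrArg (fun t => t.2.1) h
  have hB : D.B0 = D.z + D.N1 + D.p + D.La + D.n := rfl
  have hE : D.BadE u ↔ D.BadE v := by
    have e : ∀ t, t < D.z → u.take t = v.take t := by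
      intro t ht
      have := congrArg (List.take t) h1
      rwa [List.take_take, List.take_take, min_eq_left (by omega)] at this
    constructor
    · rintro (h | ⟨t, a, b, c⟩)
      · omega
      · exact Or.inr ⟨t, a, b, by rwa [← e t b]⟩
    · rintro (h | ⟨t, a, b, c⟩)
      · omega
      · exact Or.inr ⟨t, a, b, by rwa [e t b]⟩
  have hm : (u.length - D.p) % D.Pm = (v.length - D.p) % D.Pm := by
    have : Nat.ModEq D.Pm (D.p + (u.length - D.p)) (D.p + (v.length - D.p)) := by
      rw [show D.p + (u.length - D.p) = u.length by omega,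
        show D.p + (v.length - D.p) = v.length by omega]
      exact h2
    exact Nat.ModEq.add_left_cancel' _ this
  have hBd : D.Bad (u.length - D.p) ↔ D.Bad (v.length - D.p) := by
    rw [D.bad_mod, hm, ← D.bad_mod]
  change (_ ∧ _) ↔ (_ ∧ _)
  rw [D.xx_key h, hE, hBd]

theorem pr_key {u v : List α} (h : D.key u = D.key v) (j : ℕ) (hj : j ≤ D.B0) :
    pr D.f (u.drop j) = pr D.f (v.drop j) := by
  rcases D.key_cases h with rfl | ⟨hu, hv⟩
  · rfl
  have h1 : u.take D.B0 = v.take D.B0 := congrArg Prod.fst h
  have h3 : pr D.f (u.drop D.B0) = pr D.f (v.drop D.B0) := congrArg (fun t => t.2.2.1) h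
  have e : ∀ w : List α, D.B0 ≤ w.length →
      w.drop j = (w.take D.B0).drop j ++ w.drop D.B0 := by
    intro w hw
    conv_lhs => rw [← List.take_append_drop D.B0 w]
    rw [List.drop_append_of_le_length (by rw [List.length_take]; omega)]
  rw [e u hu, e v hv, D.pr_app, D.pr_app, h1, h3]

theorem tau_key {u v : List α} (h : D.key u = D.key v) (x : V) : D.tau u x = D.tau v x := by
  rcases D.key_cases h with rfl | ⟨hu, hv⟩
  · rfl
  have h1 : u.take D.B0 = v.take D.B0 := congrArg Prod.fst h
  have h2 : u.length % D.Pm = v.length % D.Pm := congrArg (fun t => t.2.1) h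
  have hB : D.B0 = D.z + D.N1 + D.p + D.La + D.n := rfl
  have e : ∀ t, t ≤ D.B0 → u.take t = v.take t := by
    intro t ht
    have := congrArg (List.take t) h1
    rwa [List.take_take, List.take_take, min_eq_left ht] at this
  have hm : (u.length - D.p) % D.Pm = (v.length - D.p) % D.Pm := by
    have : Nat.ModEq D.Pm (D.p + (u.length - D.p)) (D.p + (v.length - D.p)) := by
      rw [show D.p + (u.length - D.p) = u.length by omega,
        show D.p + (v.length - D.p) = v.length by omega]
      exact h2
    exact Nat.ModEq.add_left_cancel' _ this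
  have hnu : D.nu (u.drop D.p) = D.nu (v.drop D.p) := by
    apply D.hfs
    · rw [List.length_drop]; omega
    · rw [List.length_drop]; omega
    · rw [List.take_drop, List.take_drop, e _ (by omega)]
    · rw [List.length_drop, List.length_drop]; exact hm
    · rw [List.drop_drop, List.drop_drop]
      exact D.pr_key h _ (by omega)
  unfold tau
  rw [e D.p (by omega), hnu, D.pr_key h D.p (by omega)]

theorem few_xx {w : List α} (hw : w ∈ D.XX) (F : Finset ℕ)
    (hF : ∀ x ∈ F, x ≤ w.length ∧ D.Wo (w.take x)) : F.card ≤ D.z + 1 := by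
  have : F ⊆ insert w.length (Finset.range D.z) := by
    intro x hx
    obtain ⟨h1, h2⟩ := hF x hx
    rw [Finset.mem_insert, Finset.mem_range]
    by_contra hc
    push Not at hc
    exact hw.2.2 x hc.2 (lt_of_le_of_ne h1 hc.1) h2
  refine (Finset.card_le_card this).trans ?_
  refine (Finset.card_insert_le _ _).trans ?_
  simp

theorem few_rest {w : List α} (hw : ∀ u ∈ D.XX, ¬ u <+: w) (F : Finset ℕ)
    (hF : ∀ x ∈ F, x ≤ w.length ∧ D.Wo (w.take x)) : F.card ≤ D.z := by
  have : F ⊆ Finset.range D.z := by
    intro x hx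
    obtain ⟨h1, h2⟩ := hF x hx
    rw [Finset.mem_range]
    by_contra hc
    classical
    have hex : ∃ t, D.z ≤ t ∧ t ≤ w.length ∧ D.Wo (w.take t) := ⟨x, by omega, h1, h2⟩
    obtain ⟨a, b, c⟩ := Nat.find_spec hex
    refine hw (w.take (Nat.find hex)) ⟨?_, c, ?_⟩ (List.take_prefix _ _)
    · rw [List.length_take]; omega
    · intro t ht1 ht2 ht3
      rw [List.length_take] at ht2
      rw [List.take_take, min_eq_left (by omega)] at ht3
      exact Nat.find_min hex (m := t) (by omega) ⟨ht1, by omega, ht3⟩
  refine (Finset.card_le_card this).trans ?_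
  simp

variable [Finite α] [Finite S]

theorem hl_xx : HL 1 D.XX :=
  D.wfew (D.z + 1) D.XX (D.reg _ fun _ _ h => D.xx_key h) fun _ hw F hF => D.few_xx hw F hF

theorem hl_bb : HL 1 D.BB :=
  D.wfew (D.z + 1) D.BB (D.reg _ fun _ _ h => D.bb_key h) fun _ hw F hF => D.few_xx hw.1 F hF

theorem hl_zt (x y : V) : HL 1 (ZT D.XX D.tau x y) := by
  refine D.wfew (D.z + 1) _ (D.reg _ fun u v h => ?_) fun _ hw F hF => D.few_xx hw.1 F hF
  change (_ ∧ _) ↔ (_ ∧ _)
  rw [D.xx_key h, D.tau_key h]

theorem rest_key {u v : List α} (h : D.key u = D.key v) :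
    (∀ x ∈ D.XX, ¬ x <+: u) ↔ (∀ x ∈ D.XX, ¬ x <+: v) := by
  have main : ∀ {u v : List α}, D.key u = D.key v → (∀ x ∈ D.XX, ¬ x <+: u) →
      ∀ x ∈ D.XX, ¬ x <+: v := by
    intro u v h hu x hx hxv
    -- `rest` iff no wall in `[z, |v|]`, i.e. the flag and no wall at the end
    have hfl : D.flag u ∧ (D.z ≤ u.length → ¬ D.Wo u) := by
      have hno : ∀ t, D.z ≤ t → t ≤ u.length → ¬ D.Wo (u.take t) := by
        intro t h1 h2 h3
        have := D.few_rest hu {t} (by
          intro s hs
          rw [Finset.mem_singleton] at hs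
          subst hs; exact ⟨h2, h3⟩)
        classical
        have hex : ∃ t, D.z ≤ t ∧ t ≤ u.length ∧ D.Wo (u.take t) := ⟨t, h1, h2, h3⟩
        obtain ⟨a, b, c⟩ := Nat.find_spec hex
        refine hu (u.take (Nat.find hex)) ⟨?_, c, ?_⟩ (List.take_prefix _ _)
        · rw [List.length_take]; omega
        · intro t ht1 ht2 ht3
          rw [List.length_take] at ht2
          rw [List.take_take, min_eq_left (by omega)] at ht3
          exact Nat.find_min hex (m := t) (by omega) ⟨ht1, by omega, ht3⟩
      refine ⟨fun t h1 h2 => hno t h1 h2.le, fun h1 h2 => hno u.length h1 le_rfl ?_⟩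
      simpa using h2
    rw [D.flag_key h, D.len_key h, D.wo_key h] at hfl
    obtain ⟨t, rfl⟩ := hxv
    obtain ⟨h1, h2, h3⟩ := hx
    rcases Nat.eq_zero_or_pos t.length with h0 | h0
    · have : t = [] := List.length_eq_zero_iff.1 h0
      subst this
      rw [List.append_nil] at hfl
      exact hfl.2 h1 h2
    · refine hfl.1 x.length h1 (by rw [List.length_append]; omega) ?_
      rw [List.take_left]; exact h2
  exact ⟨main h, main h.symm⟩

theorem hl_rest (s : S) :
    HL 3 ({w | (∀ u ∈ D.XX, ¬ u <+: w) ∧ pr D.f w = s} : Language α) := by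
  refine (D.wfew D.z _ (D.reg _ fun u v h => ?_) fun _ hw F hF => D.few_rest hw.1 F hF).mono
    (by norm_num)
  change (_ ∧ _) ↔ (_ ∧ _)
  have := D.pr_key h 0 (Nat.zero_le _)
  rw [List.drop_zero, List.drop_zero] at this
  rw [D.rest_key h, this]

end Cfg

end Crest.Agent.R320.Full_301
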