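import Crest.Agent.R320.FullA_763

/-!
# Row 320: spoil count of the natural chain rule (helper763)
-/

set_option autoImplicit false

namespace Crest.Agent.R320.Full763

open Crest.Agent.R320.Blk467

universe u

variable {α : Type u}

theorem spoil (R : WR α) {z N1 p0 L K Rr cnt : ℕ} (hz0 : 0 < z) (hz : L + N1 + R.n ≤ z)
    (hpz : p0 ≤ z)
    (hW : 2 * L + 2 * N1 < R.W) (BT : ℕ → Prop) (c : ℕ → ℕ) (hcL : ∀ k < K, c k ≤ L)
    (hsp : ∀ i j p q, i < K → j < K → p < K → q < K → i ≠ j →
      |((c i : ℤ) - c j) - ((c p : ℤ) - c q)| ≤ 2 * N1 → i = p ∧ j = q)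
    (hbt : ∀ t : ℤ, ∀ J : Finset ℕ, (∀ k ∈ J, k < K ∧ ∃ k' < K, k' ≠ k ∧ ∃ n : ℕ,
      (n : ℤ) = t - ((c k : ℤ) - c k') ∧ BT n) → J.card ≤ cnt)
    (hR : 1 + 3 * cnt < Rr)
    (X X' : List α) (hX : X ∈ Bad R z N1 p0 BT) (hX' : X' ∈ Bad R z N1 p0 BT) :
    ∃ J : Finset ℕ, J.card < Rr ∧ ∀ k < K, k ∉ J → ∀ k' < K, k' ≠ k →
      ∀ P r X3 : List α, P.length = c k' →
      X3 ∈ Bad R z N1 p0 BT → ¬ X3 <+: P ++ (X.drop (c k) ++ X') ++ r := by
  classical
  have hsep : ∀ x y, R.E (X ++ X') x → R.E (X ++ X') y → x < y → x + R.W ≤ y :=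
    fun x y => R.w4 _ x y
  -- the three candidate walls
  obtain ⟨t1, ht1⟩ : ∃ t1 : ℕ, ∀ t, R.E (X ++ X') t → t < z → z ≤ t + L → t = t1 := by
    by_cases h : ∃ t, R.E (X ++ X') t ∧ t < z ∧ z ≤ t + L
    · obtain ⟨t1, h1, h2, h3⟩ := h
      refine ⟨t1, fun t g1 g2 g3 => ?_⟩
      rcases lt_trichotomy t t1 with h | h | h
      · have := hsep _ _ g1 h1 h; omega
      · exact h
      · have := hsep _ _ h1 g1 h; omega
    · exact ⟨0, fun t g1 g2 g3 => absurd ⟨t, g1, g2, g3⟩ h⟩
  obtain ⟨t3, ht3⟩ : ∃ t3 : ℕ, ∀ t, R.E (X ++ X') t → X.length < t →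
      (∀ w, R.E (X ++ X') w → X.length < w → ¬ w < t) → t = t3 := by
    by_cases h : ∃ t, R.E (X ++ X') t ∧ X.length < t ∧
        (∀ w, R.E (X ++ X') w → X.length < w → ¬ w < t)
    · obtain ⟨t3, h1, h2, h3⟩ := h
      refine ⟨t3, fun t g1 g2 g3 => ?_⟩
      have a := g3 t3 h1 h2
      have b := h3 t g1 g2
      omega
    · exact ⟨0, fun t g1 g2 g3 => absurd ⟨t, g1, g2, g3⟩ h⟩
  let JE : Finset ℕ := (Finset.range K).filter (fun k => ∃ k' < K, k' ≠ k ∧ ∃ y : ℕ,
    R.E (X ++ X') y ∧ |(y : ℤ) - ((c k : ℤ) - c k') - z| ≤ N1)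
  let JB : ℕ → Finset ℕ := fun t => (Finset.range K).filter (fun k => ∃ k' < K, k' ≠ k ∧ ∃ n : ℕ,
      (n : ℤ) = ((t : ℤ) - p0) - ((c k : ℤ) - c k') ∧ BT n)
  have hJB : ∀ t, (JB t).card ≤ cnt := fun t => hbt ((t : ℤ) - p0) (JB t) (fun k hk => by
    obtain ⟨h1, h2⟩ := Finset.mem_filter.1 hk
    exact ⟨Finset.mem_range.1 h1, h2⟩)
  have hJE : JE.card ≤ 1 := by
    refine Finset.card_le_one.2 fun k hk l hl => ?_
    obtain ⟨hk0, k', hk', hkk, y, hy, hyz⟩ := Finset.mem_filter.1 hk
    obtain ⟨hl0, l', hl', hll, w, hw, hwz⟩ := Finset.mem_filter.1 hl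
    have hk0 := Finset.mem_range.1 hk0
    have hl0 := Finset.mem_range.1 hl0
    have b1 := hcL k hk0
    have b2 := hcL k' hk'
    have b3 := hcL l hl0
    have b4 := hcL l' hl'
    have hyw : y = w := by
      rw [abs_le] at hyz hwz
      rcases lt_trichotomy y w with h | h | h
      · have := hsep _ _ hy hw h; omega
      · exact h
      · have := hsep _ _ hw hy h; omega
    subst hyw
    refine (hsp k k' l l' hk0 hk' hl0 hl' (Ne.symm hkk) ?_).1
    rw [abs_le] at hyz hwz ⊢
    constructor <;> linarith [hyz.1, hyz.2, hwz.1, hwz.2]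
  refine ⟨JE ∪ (JB t1 ∪ (JB X.length ∪ JB t3)), ?_, ?_⟩
  · have h1 := Finset.card_union_le JE (JB t1 ∪ (JB X.length ∪ JB t3))
    have h2 := Finset.card_union_le (JB t1) (JB X.length ∪ JB t3)
    have h3 := Finset.card_union_le (JB X.length) (JB t3)
    have h4 := hJB t1
    have h5 := hJB X.length
    have h6 := hJB t3
    omega
  · intro k hk hkJ k' hk' hkk P r X3 hP hX3 hpre
    have hkE : k ∉ JE := fun h => hkJ (Finset.mem_union_left _ h)
    have hkB : ∀ t, (t = t1 ∨ t = X.length ∨ t = t3) → k ∉ JB t := by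
      intro t ht h
      apply hkJ
      rcases ht with rfl | rfl | rfl
      · exact Finset.mem_union_right _ (Finset.mem_union_left _ h)
      · exact Finset.mem_union_right _ (Finset.mem_union_right _ (Finset.mem_union_left _ h))
      · exact Finset.mem_union_right _ (Finset.mem_union_right _ (Finset.mem_union_right _ h))
    have hck := hcL k hk
    have hck' := hcL k' hk'
    obtain ⟨⟨a1, a2, a3⟩, a4⟩ := hX
    obtain ⟨⟨b1, b2, b3⟩, -⟩ := hX'
    obtain ⟨⟨d1, d2, d3⟩, d4⟩ := hX3
    have hXL : c k ≤ X.length := by omega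
    have htk : (X.take (c k)).length = c k := by rw [List.length_take]; omega
    have hZ : X ++ X' = X.take (c k) ++ (X.drop (c k) ++ X') := by
      rw [← List.append_assoc, List.take_append_drop]
    have hQl : (X.drop (c k) ++ X').length = X.length - c k + X'.length := by
      rw [List.length_append, List.length_drop]
    -- transfer
    have tr0 : ∀ q, R.n ≤ q → (R.E (P ++ (X.drop (c k) ++ X')) (c k' + q) ↔
        R.E (X ++ X') (c k + q)) := by
      intro q hq
      have e1 := R.w3 P (X.drop (c k) ++ X') q hq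
      have e2 := R.w3 (X.take (c k)) (X.drop (c k) ++ X') q hq
      rw [hP] at e1
      rw [htk, ← hZ] at e2
      rw [e1, e2]
    have hXa : R.E (X ++ X') X.length := (R.w2 X X' _ le_rfl).2 a2
    have hend : R.E (X ++ X') (X.length + X'.length) := (R.w3 X X' _ (by omega)).2 b2
    -- `X3` ends inside
    have hin : X3.length ≤ c k' + (X.length - c k + X'.length) := by
      by_contra hcon
      push Not at hcon
      obtain ⟨s, hs⟩ := hpre
      have hw : R.E (P ++ (X.drop (c k) ++ X')) (c k' + (X.length - c k + X'.length)) := by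
        rw [tr0 _ (by omega)]
        have : c k + (X.length - c k + X'.length) = X.length + X'.length := by omega
        rw [this]; exact hend
      have hw2 : R.E (P ++ (X.drop (c k) ++ X') ++ r)
          (c k' + (X.length - c k + X'.length)) :=
        (R.w2 _ r _ (by rw [List.length_append, hP, hQl])).2 hw
      rw [← hs] at hw2
      exact d3 _ (by omega) hcon ((R.w2 X3 s _ (by omega)).1 hw2)
    have tr : ∀ y, c k' + R.n ≤ y → y ≤ X3.length →
        (R.E X3 y ↔ R.E (X ++ X') (c k + (y - c k'))) := by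
      intro y hy1 hy2
      obtain ⟨s, hs⟩ := hpre
      have e1 := R.w2 X3 s y hy2
      rw [hs] at e1
      have e2 := R.w2 (P ++ (X.drop (c k) ++ X')) r y
        (by rw [List.length_append, hP, hQl]; omega)
      have e3 := tr0 (y - c k') (by omega)
      have e4 : c k' + (y - c k') = y := by omega
      rw [e4] at e3
      rw [← e1, e2, e3]
    -- the end of `X3`
    have ht := (tr X3.length (by omega) le_rfl).1 d2
    set t := c k + (X3.length - c k') with htdef
    have hcls : t = t1 ∨ t = X.length ∨ t = t3 := by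
      by_cases h1 : t < z
      · exact Or.inl (ht1 t ht h1 (by omega))
      · push Not at h1
        rcases lt_trichotomy t X.length with h | h | h
        · exact absurd ((R.w2 X X' t h.le).1 ht) (a3 t h1 h)
        · exact Or.inr (Or.inl h)
        · refine Or.inr (Or.inr (ht3 t ht h fun w hw1 hw2 hw3 => ?_))
          have hWw := hsep _ _ hXa hw1 hw2
          have hy : R.E X3 (w - c k + c k') := by
            refine (tr _ (by omega) (by omega)).2 ?_
            have : c k + (w - c k + c k' - c k') = w := by omega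
            rw [this]; exact hw1
          exact d3 _ (by omega) (by omega) hy
    rcases d4 with ⟨y, hy, hyz1, hyz2⟩ | hB
    · -- mode (E)
      have hyl := (R.w1 _ _ hy).2
      refine hkE (Finset.mem_filter.2 ⟨Finset.mem_range.2 hk, k', hk', hkk,
        c k + (y - c k'), (tr y (by omega) hyl).1 hy, ?_⟩)
      rw [abs_le]
      constructor <;> omega
    · -- mode (B)
      refine hkB t hcls (Finset.mem_filter.2 ⟨Finset.mem_range.2 hk, k', hk', hkk,
        X3.length - p0, ?_, hB⟩)
      omega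

end Crest.Agent.R320.Full763
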