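import Crest.Agent.R320.FullA_301

/-!
# Row 320: completeness of scheme 1 (helper301)
-/

set_option autoImplicit false

namespace Crest.Agent.R320.Full_301

open Crest.Agent.R320.Hk_851 Crest.Agent.R320.Code110 Crest.Agent.R320.ExactR_237

namespace Cfg

variable {α S V : Type} [Monoid S] [AddCommGroup V] (D : Cfg α S V)

theorem compl1 (u : List α) (hu : u ∈ D.XX) (hb : u ∉ D.BB) (x : V) (t : List α)
    (ht : t ∈ D.XX ^ 0) : ∃ p q y, u ++ t = p ++ q ∧ p ∈ D.L1 x ∧
      q ∈ Rsem D.XX D.XX D.tau 0 D.L1 y := by
  have hz := D.hz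
  have ht0 : t = [] := by simpa using ht
  subst ht0
  have hE : ¬ D.BadE u := fun h => hb ⟨hu, Or.inl h⟩
  have hBn : ¬ D.Bad (u.length - D.p) := fun h => hb ⟨hu, Or.inr h⟩
  have hlen : D.z + D.N1 ≤ u.length := by
    by_contra h
    exact hE (Or.inl (by omega))
  have hE2 : ∀ t, D.z ≤ t + D.N1 → t < D.z → ¬ D.Wo (u.take t) := fun t h1 h2 h3 =>
    hE (Or.inr ⟨t, h1, h2, h3⟩)
  obtain ⟨P, Q, hPQ, hP, hQ⟩ := D.hcompl (u.drop D.p) (by rw [List.length_drop]; omega)
    (by rw [List.length_drop]; exact hBn)
    (D.act x (pr D.f (u.take D.p)) + D.nu2 (u.take D.p) 1)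
  obtain ⟨b, hb'⟩ := Option.isSome_iff_exists.1 hQ
  have hPl := D.hlam _ _ hP
  have hPQl : P.length + Q.length = u.length - D.p := by
    have := congrArg List.length hPQ
    rw [List.length_append, List.length_drop] at this
    exact this
  have htp : (u.take D.p).length = D.p := by rw [List.length_take]; omega
  have hdec : u = (u.take D.p ++ P) ++ Q := by
    rw [List.append_assoc, hPQ, List.take_append_drop]
  refine ⟨u.take D.p ++ P, Q, b, ?_, ⟨?_, ?_, ?_⟩, ?_⟩
  · rw [List.append_nil]; exact hdec
  · rw [List.length_append, htp]; omega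
  · rw [List.length_append, htp]; omega
  · have e1 : (u.take D.p ++ P).drop D.p = P := by
      have := List.drop_left (l₁ := u.take D.p) (l₂ := P)
      rwa [htp] at this
    have e2 : (u.take D.p ++ P).take D.p = u.take D.p := by
      have := List.take_left (l₁ := u.take D.p) (l₂ := P)
      rwa [htp] at this
    rw [e1, e2]; exact hP
  · rintro x' p' ⟨h1, h2, h3⟩
    left
    have hQl : D.z - D.p ≤ Q.length := by omega
    refine ⟨b, ?_⟩
    have hmem : p' ++ Q ∈ ZT D.XX D.tau x' b := by
      refine ⟨⟨?_, ?_, ?_⟩, ?_⟩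
      · rw [List.length_append]; omega
      · have := hu.2.1
        rw [hdec, D.wloc _ _ (by omega)] at this
        rwa [D.wloc _ _ (by omega)]
      · intro s hs1 hs2 hs3
        rw [List.length_append] at hs2
        have key := (D.wo_shift (P := p') (P' := u.take D.p ++ P) (Q := Q)
          (s := s - p'.length) (by omega) (by omega)).1 (by
            rw [show p'.length + (s - p'.length) = s by omega]; exact hs3)
        rw [← hdec] at key
        have hlp : (u.take D.p ++ P).length = D.p + P.length := by
          rw [List.length_append, htp]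
        rw [hlp] at key
        by_cases hc : D.z ≤ D.p + P.length + (s - p'.length)
        · exact hu.2.2 _ hc (by omega) key
        · exact hE2 _ (by omega) (by omega) key
      · have hs := D.hsound _ _ _ _ h3 hb' (by omega)
        unfold tau
        rw [List.take_append_of_le_length h1, List.drop_append_of_le_length h1]
        exact hs.symm
    have : p' ++ Q = (p' ++ Q) ++ [] := by simp
    rw [this]
    exact Language.mem_mul.2 ⟨_, hmem, [], ⟨rfl, rfl⟩, rfl⟩

end Cfg

end Crest.Agent.R320.Full_301
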