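import Crest.Agent.R320.FullA_301

/-!
# Row 320: completeness of scheme 2 (helper301)
-/

set_option autoImplicit false

namespace Crest.Agent.R320.Full_301

open Crest.Agent.R320.Hk_851 Crest.Agent.R320.Code110 Crest.Agent.R320.ExactR_237

namespace Cfg

variable {α S V : Type} [Monoid S] [AddCommGroup V] (D : Cfg α S V)

def EE (Wl : ℕ → Prop) (k k' : ℕ) : Prop := ∃ w, Wl w ∧ D.z + D.c k ≤ w + D.c k' + D.N1 ∧
  w + D.c k' < D.z + D.c k + D.N1

def BN (Wl : ℕ → Prop) (k k' : ℕ) : Prop := ∃ w, Wl w ∧ D.z + D.c k ≤ w + D.c k' ∧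
  (∀ w' < w, Wl w' → w' + D.c k' < D.z + D.c k) ∧ D.Bad (w + D.c k' - D.c k - D.p)

theorem spoil (Wl : ℕ → Prop) (hg : ∀ s t, Wl s → Wl t → s < t → D.W ≤ t - s) (I : Finset ℕ)
    (hI : ∀ k ∈ I, k < D.K ∧ ∃ k', k' < D.K ∧ k' ≠ k ∧ (D.EE Wl k k' ∨ D.BN Wl k k')) :
    I.card ≤ 1 + 2 * D.C0 := by
  classical
  have hW := D.hW
  have hz := D.hz
  have huniq : ∀ s t, Wl s → Wl t → D.z ≤ s + D.p + D.N1 → s ≤ D.z + D.p + D.N1 →
      D.z ≤ t + D.p + D.N1 → t ≤ D.z + D.p + D.N1 → s = t := by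
    intro s t h1 h2 h3 h4 h5 h6
    rcases lt_trichotomy s t with h | h | h
    · have := hg s t h1 h2 h; omega
    · exact h
    · have := hg t s h2 h1 h; omega
  have hex : ∀ k, ∃ k', k ∈ I → k < D.K ∧ k' < D.K ∧ k' ≠ k ∧ (D.EE Wl k k' ∨ D.BN Wl k k') := by
    intro k
    by_cases hk : k ∈ I
    · obtain ⟨h1, k', h2, h3, h4⟩ := hI k hk
      exact ⟨k', fun _ => ⟨h1, h2, h3, h4⟩⟩
    · exact ⟨0, fun h => absurd h hk⟩
  choose g hgk using hex
  set I1 := I.filter (fun k => D.EE Wl k (g k)) with hI1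
  set I2 := I.filter (fun k => ¬ D.EE Wl k (g k)) with hI2
  have hsum : I1.card + I2.card = I.card := Finset.card_filter_add_card_filter_not _
  have h1 : I1.card ≤ 1 := by
    rw [Finset.card_le_one]
    intro a ha b hb
    rw [hI1, Finset.mem_filter] at ha hb
    obtain ⟨a1, a2, a3, -⟩ := hgk a ha.1
    obtain ⟨b1, b2, b3, -⟩ := hgk b hb.1
    obtain ⟨w, w1, w2, w3⟩ := ha.2
    obtain ⟨w', w1', w2', w3'⟩ := hb.2
    have ca := D.hcp a a1
    have ca' := D.hcp (g a) a2
    have cb := D.hcp b b1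
    have cb' := D.hcp (g b) b2
    have hww : w = w' := huniq w w' w1 w1' (by omega) (by omega) (by omega) (by omega)
    subst hww
    by_contra hab
    have := D.hgol a (g a) b (g b) a1 a2 b1 b2 (Ne.symm a3) (Ne.symm b3)
      (fun h => hab (congrArg Prod.fst h))
    omega
  -- the two candidate walls
  obtain ⟨w1, hw1z, hw1⟩ : ∃ w1, D.z ≤ w1 + D.p + D.N1 ∧ ∀ w, Wl w → D.z ≤ w + D.p + D.N1 →
      w ≤ D.z + D.p + D.N1 → w = w1 := by
    by_cases h : ∃ w, Wl w ∧ D.z ≤ w + D.p + D.N1 ∧ w ≤ D.z + D.p + D.N1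
    · obtain ⟨w1, a, b, c⟩ := h
      exact ⟨w1, b, fun w x y z => huniq w w1 x a y z b c⟩
    · exact ⟨D.z, by omega, fun w x y z => absurd ⟨w, x, y, z⟩ h⟩
  obtain ⟨w2, hw2z, hw2⟩ : ∃ w2, D.z ≤ w2 + D.p + D.N1 ∧ ∀ w, Wl w → D.z + D.p + D.N1 < w →
      (∀ w' < w, Wl w' → w' ≤ D.z + D.p + D.N1) → w = w2 := by
    by_cases h : ∃ w, Wl w ∧ D.z + D.p + D.N1 < w
    · obtain ⟨a, b⟩ := Nat.find_spec h
      refine ⟨Nat.find h, by omega, fun w x y z => ?_⟩
      have hle := Nat.find_min' h ⟨x, y⟩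
      rcases Nat.lt_or_ge (Nat.find h) w with hlt | hge
      · have := z _ hlt a; omega
      · omega
    · exact ⟨D.z, by omega, fun w x y _ => absurd ⟨w, x, y⟩ h⟩
  have hcount : ∀ w, D.z ≤ w + D.p + D.N1 → ∀ J : Finset ℕ,
      (∀ k ∈ J, k ∈ I ∧ D.Bad (w + D.c (g k) - D.c k - D.p)) → J.card ≤ D.C0 := by
    intro w hw J hJ
    have hinj : Function.Injective (fun k : ℕ => (k, g k)) := fun a b h => congrArg Prod.fst h
    rw [← Finset.card_image_of_injective J hinj]
    refine D.hthin (w - D.p) (by omega) _ ?_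
    intro ab hab
    rw [Finset.mem_image] at hab
    obtain ⟨k, hk, rfl⟩ := hab
    obtain ⟨k1, k2⟩ := hJ k hk
    obtain ⟨a1, a2, a3, -⟩ := hgk k k1
    refine ⟨a1, a2, Ne.symm a3, ?_⟩
    change D.Bad (w - D.p + D.c (g k) - D.c k)
    rwa [show w - D.p + D.c (g k) - D.c k = w + D.c (g k) - D.c k - D.p by omega]
  have h2 : I2.card ≤ D.C0 + D.C0 := by
    have hsub : I2 ⊆ I2.filter (fun k => D.Bad (w1 + D.c (g k) - D.c k - D.p)) ∪
        I2.filter (fun k => D.Bad (w2 + D.c (g k) - D.c k - D.p)) := by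
      intro k hk
      refine Finset.mem_union.2 ?_
      have hk' := hk
      rw [hI2, Finset.mem_filter] at hk'
      obtain ⟨a1, a2, a3, a4⟩ := hgk k hk'.1
      have ca := D.hcp k a1
      have ca' := D.hcp (g k) a2
      rcases a4 with a4 | ⟨w, b1, b2, b3, b4⟩
      · exact absurd a4 hk'.2
      rcases Nat.lt_or_ge (D.z + D.p + D.N1) w with hlt | hge
      · right
        have := hw2 w b1 hlt (fun w' h h' => by have := b3 w' h h'; omega)
        rw [← this]; exact Finset.mem_filter.2 ⟨hk, b4⟩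
      · left
        have := hw1 w b1 (by omega) hge
        rw [← this]; exact Finset.mem_filter.2 ⟨hk, b4⟩
    refine (Finset.card_le_card hsub).trans ((Finset.card_union_le _ _).trans ?_)
    refine Nat.add_le_add (hcount w1 hw1z _ ?_) (hcount w2 hw2z _ ?_)
    · intro k hk
      rw [Finset.mem_filter, hI2, Finset.mem_filter] at hk
      exact ⟨hk.1.1, hk.2⟩
    · intro k hk
      rw [Finset.mem_filter, hI2, Finset.mem_filter] at hk
      exact ⟨hk.1.1, hk.2⟩
  omega

/-- first block of a text -/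
theorem first_block {Z : List α} (hex : ∃ s, D.z ≤ s ∧ s ≤ Z.length ∧ D.Wo (Z.take s)) :
    ∃ N, D.z ≤ N ∧ N ≤ Z.length ∧ Z.take N ∈ D.XX ∧
      ∀ s, D.z ≤ s → s < N → ¬ D.Wo (Z.take s) := by
  classical
  obtain ⟨a, b, c⟩ := Nat.find_spec hex
  have hmin : ∀ s, D.z ≤ s → s < Nat.find hex → ¬ D.Wo (Z.take s) := fun s h1 h2 h3 =>
    Nat.find_min hex (m := s) h2 ⟨h1, by omega, h3⟩
  refine ⟨Nat.find hex, a, b, ⟨?_, c, ?_⟩, hmin⟩
  · rw [List.length_take]; omega
  · intro t ht1 ht2 ht3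
    rw [List.length_take] at ht2
    rw [List.take_take, min_eq_left (by omega)] at ht3
    exact hmin t ht1 (by omega) ht3

/-- changing the letters before the place does not change the block -/
theorem swap {P P' Q : List α} (hl : P.length = P'.length) (hp : P.length ≤ D.p)
    (h : P ++ Q ∈ D.BB) : P' ++ Q ∈ D.BB := by
  have hz := D.hz
  obtain ⟨⟨h1, h2, h3⟩, h4⟩ := h
  rw [List.length_append] at h1
  have hsh : ∀ t, D.z ≤ t + D.N1 → t ≤ P.length + Q.length →
      (D.Wo ((P ++ Q).take t) ↔ D.Wo ((P' ++ Q).take t)) := by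
    intro t ht1 ht2
    have := D.wo_shift (P := P) (P' := P') (Q := Q) (s := t - P.length) (by omega) (by omega)
    rwa [show P.length + (t - P.length) = t by omega,
      show P'.length + (t - P.length) = t by omega] at this
  refine ⟨⟨?_, ?_, ?_⟩, ?_⟩
  · rw [List.length_append]; omega
  · rw [D.wloc _ _ (by omega)] at h2 ⊢; exact h2
  · intro t ht1 ht2 ht3
    rw [List.length_append] at ht2
    exact h3 t ht1 (by rw [List.length_append]; omega) ((hsh t (by omega) (by omega)).2 ht3)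
  · rcases h4 with (h4 | ⟨t, a, b, c⟩) | h4
    · left; left
      rw [List.length_append] at h4 ⊢; omega
    · left; right
      exact ⟨t, a, b, (hsh t a (by omega)).1 c⟩
    · right
      rw [List.length_append] at h4 ⊢
      rwa [← hl]

theorem compl2 (u : List α) (hu : u ∈ D.BB) (x : V) (t : List α)
    (ht : t ∈ D.BB ^ 1) : ∃ p q y, u ++ t = p ++ q ∧ p ∈ D.L2 x ∧
      q ∈ Rsem D.XX D.BB D.tau 1 D.L2 y := by
  have hz := D.hz
  rw [pow_one] at ht
  have hul := hu.1.1
  have htl := ht.1.1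
  have htp : (u.take D.p).length = D.p := by rw [List.length_take]; omega
  obtain ⟨I, hIc, hI⟩ := D.ex2 (u.take D.p) x (fun k hk => by rw [htp]; exact D.hcp k hk)
  set Y := u ++ t with hY
  have hYl : Y.length = u.length + t.length := by rw [hY, List.length_append]
  let Wl : ℕ → Prop := fun w => w ≤ Y.length ∧ D.Wo (Y.take w)
  have hg : ∀ s t, Wl s → Wl t → s < t → D.W ≤ t - s := by
    rintro s t ⟨s1, s2⟩ ⟨t1, t2⟩ hst
    have hlt : (Y.take t).length = t := by rw [List.length_take]; omega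
    refine D.wgap (Y.take t) (t - s) t2 (by omega) (by omega) ?_
    rw [hlt, List.take_take, min_eq_left (by omega), show t - (t - s) = s by omega]
    exact s2
  obtain ⟨k, hkI, hkgood⟩ : ∃ k ∈ I, ∀ k' < D.K, k' ≠ k → ¬ (D.EE Wl k k' ∨ D.BN Wl k k') := by
    by_contra hcon
    push Not at hcon
    have := D.spoil Wl hg I (fun k hk => by
      obtain ⟨k', h1, h2, h3⟩ := hcon k hk
      refine ⟨(hI k hk).1, k', h1, h2, ?_⟩
      tauto)
    omega
  obtain ⟨hkK, hlam, hrho⟩ := hI k hkI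
  obtain ⟨b, hb⟩ := Option.isSome_iff_exists.1 hrho
  have hck := D.hcp k hkK
  have ept : (u.take D.p).take (D.c k) = u.take (D.c k) := by
    rw [List.take_take, min_eq_left hck]
  rw [ept] at hlam
  have hPl : (u.take (D.c k)).length = D.c k := by rw [List.length_take]; omega
  set P := u.take (D.c k) with hP
  set Q0 := u.drop (D.c k) with hQ0
  have huPQ : u = P ++ Q0 := (List.take_append_drop _ _).symm
  have hQ0l : Q0.length = u.length - D.c k := by rw [hQ0, List.length_drop]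
  have hYPQ : Y = P ++ (Q0 ++ t) := by rw [hY, ← List.append_assoc, ← huPQ]
  refine ⟨P, Q0 ++ t, D.tau t (D.tau u x), hYPQ, ⟨k, hkK, hPl, hlam⟩, ?_⟩
  rintro x' p' ⟨k', hk'K, hp'l, hlam'⟩
  have hck' := D.hcp k' hk'K
  by_cases hkk : k' = k
  · left
    subst hkk
    have hu' : p' ++ Q0 ∈ D.BB := by
      rw [huPQ] at hu
      exact D.swap (by rw [hPl, hp'l]) (by omega) hu
    have htau : D.tau (p' ++ Q0) x' = D.tau u x := by
      conv_rhs => rw [huPQ]
      have e1 : ∀ R : List α, R.length = D.c k' → (R ++ Q0).take D.p = R ++ Q0.take (D.p - D.c k') := by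
        intro R hR
        rw [List.take_append, List.take_of_length_le (by omega), hR]
      have e2 : ∀ R : List α, R.length = D.c k' → (R ++ Q0).drop D.p = Q0.drop (D.p - D.c k') := by
        intro R hR
        rw [List.drop_append, List.drop_of_length_le (by omega), hR, List.nil_append]
      have e3 : (u.take D.p).drop (D.c k') = Q0.take (D.p - D.c k') := by
        rw [hQ0, List.take_drop, show D.c k' + (D.p - D.c k') = D.p by omega]
      rw [e3] at hb
      have a1 := D.ex1 k' hkK p' _ x' b hp'l hlam' hb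
      have a2 := D.ex1 k' hkK P _ x b hPl hlam hb
      unfold tau
      rw [e1 p' hp'l, e2 p' hp'l, e1 P hPl, e2 P hPl, ← a1, ← a2]
    refine ⟨D.tau u x, Language.mem_mul.2 ⟨p' ++ Q0, ⟨hu', htau⟩, t, ?_, by simp⟩⟩
    refine ⟨D.tau t (D.tau u x), Language.mem_mul.2 ⟨t, ⟨ht, rfl⟩, [], ⟨rfl, rfl⟩, by simp⟩⟩
  · right
    left
    have hgood := hkgood k' hk'K hkk
    set Z := p' ++ (Q0 ++ t) with hZ
    have hZl : Z.length = D.c k' + (Q0.length + t.length) := by
      rw [hZ, List.length_append, List.length_append, hp'l]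
    have htr : ∀ s, D.z ≤ s + D.N1 → s ≤ Z.length →
        (D.Wo (Z.take s) ↔ D.Wo (Y.take (D.c k + (s - D.c k')))) := by
      intro s h1 h2
      have := D.wo_shift (P := p') (P' := P) (Q := Q0 ++ t) (s := s - D.c k')
        (by omega) (by rw [List.length_append]; omega)
      rw [hp'l, hPl, show D.c k' + (s - D.c k') = s by omega, ← hZ, ← hYPQ] at this
      exact this
    have hWt : D.Wo (Z.take Z.length) := by
      rw [List.take_length]
      have h2 := ht.1.2.1
      rw [hZ, ← List.append_assoc, D.wloc _ _ (by omega)]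
      exact h2
    obtain ⟨N, hN1, hN2, hN3, hN4⟩ := D.first_block (Z := Z) ⟨Z.length, by omega, le_rfl, hWt⟩
    have hNl : (Z.take N).length = N := by rw [List.length_take]; omega
    refine ⟨Z.take N, hN3, ?_, List.take_prefix _ _⟩
    rintro ⟨-, hbad⟩
    apply hgood
    rcases hbad with (h | ⟨s, a1, a2, a3⟩) | h
    · left
      rw [hNl] at h
      exact ⟨D.c k + (N - D.c k'), ⟨by omega, (htr N (by omega) hN2).1 hN3.2.1⟩,
        by omega, by omega⟩
    · left
      rw [List.take_take, min_eq_left (by omega)] at a3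
      exact ⟨D.c k + (s - D.c k'), ⟨by omega, (htr s a1 (by omega)).1 a3⟩,
        by omega, by omega⟩
    · right
      rw [hNl] at h
      refine ⟨D.c k + (N - D.c k'), ⟨by omega, (htr N (by omega) hN2).1 hN3.2.1⟩, by omega, ?_, ?_⟩
      · rintro w' hw' ⟨w1, w2⟩
        by_contra hc
        have h5 := (htr (w' + D.c k' - D.c k) (by omega) (by omega)).2 (by
          rw [show D.c k + (w' + D.c k' - D.c k - D.c k') = w' by omega]
          exact w2)
        exact hN4 _ (by omega) (by omega) h5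
      · rwa [show D.c k + (N - D.c k') + D.c k' - D.c k - D.p = N - D.p by omega]

end Cfg

end Crest.Agent.R320.Full_301
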