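import Crest.Agent.R320.FullB_301
import Crest.Agent.R320.FullC_301
import Crest.Agent.R320.FullD_301
import Crest.Agent.R320.Fin_869
import Crest.Agent.R320.Bridge_3

/-!
# Row 320: the row from the gadget `UGI` (helper301)
-/

set_option autoImplicit false

namespace Crest.Agent.R320.Full_301

open Crest.Agent.R320.Hk_851 Crest.Agent.R320.Code110 Crest.Agent.R320.ExactR_237

theorem Cfg.main {α S V : Type} [Finite α] [Monoid S] [Finite S] [AddCommGroup V] [Finite V]
    (D : Cfg α S V) (hfaith : ∀ s t : S, (∀ v, D.act v s = D.act v t) → s = t) (s : S) :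
    HL 3 ({w | pr D.f w = s} : Language α) := by
  refine Top5_110.top_sem (XX := D.XX) (Bad := D.BB) (T := D.tau) (act := D.act)
    (φ := fun w => pr D.f w) (by simp [pr]) (fun u w => D.pr_app u w) D.hone D.hmul hfaith D.pc
    D.bb_sub (fun u _ v v' => D.tau_sub u v v') D.hl_xx D.hl_bb D.hl_zt D.hl_rest
    (N1 := 0) (N2 := 1) (L1 := D.L1) (L2 := D.L2) ?_ ?_ D.compl1 D.compl2 s
  · intro v
    refine (List.finite_length_le α (D.p + D.N1)).subset ?_
    rintro P ⟨-, h, -⟩
    exact h
  · intro v
    refine (List.finite_length_le α D.p).subset ?_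
    rintro P ⟨k, hk, h, -⟩
    change P.length ≤ D.p
    rw [h]; exact D.hcp k hk

/-- **the value languages have height three, from the word gadget** -/
theorem values (hU : ∀ (S V : Type) [Monoid S] [Finite S] [AddCommGroup V] [Finite V]
    (act : V → S → V), Bridge_3.UGI.{0, 0} S V act)
    (n : ℕ) (S : Type) [Monoid S] [Finite S] (f : Fin n → S) (s : S) :
    HL 3 ({w | (w.map f).prod = s} : Language (Fin n)) := by
  classical
  let V : Type := S → ZMod 2
  let act : V → S → V := fun v s t => v (s * t)
  haveI : Fintype S := Fintype.ofFinite S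
  haveI : Fintype V := Fintype.ofFinite V
  obtain ⟨C0, hC⟩ := hU S V act
  obtain ⟨K, hK⟩ := exact_gadget (Fin n) S V f act (2 * C0 + 2)
  obtain ⟨N1, Pm, La, c, Bad, hPm, hc, hgol, hper, hthin, hw⟩ := hC K
  obtain ⟨lam, rho, nu, g1, g2, g3, g4⟩ := hw (Fin n) f
  obtain ⟨lam2, rho2, nu2, e1, e2⟩ := hK c hc
  obtain ⟨p, hp⟩ : ∃ p, ∀ k < K, c k ≤ p := ⟨(Finset.range K).sup c, fun k hk =>
    Finset.le_sup (f := c) (Finset.mem_range.2 hk)⟩
  obtain ⟨nn, Wo, h1, h2, h3, h4, h5⟩ := OutRule_480.outer_rule_left (α := Fin n) (2 * (p + N1) + 2)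
  let D : Cfg (Fin n) S V :=
    { f := f, act := act, N1 := N1, Pm := Pm, La := La, Bad := Bad, lam := lam, rho := rho
      nu := nu, n := nn, Wo := Wo, W := 2 * (p + N1) + 2, K := K, C0 := C0, c := c
      lam2 := lam2, rho2 := rho2, nu2 := nu2, p := p, z := 3 * p + 3 * N1 + La + nn + 1
      hPm := hPm, hper := hper, hlam := g1
      hsound := fun P Q v r a b d => g2 P Q v r a b d
      hcompl := g3
      hfs := fun q q2 a b d e f' => (g4 q q2 a b d e f').2
      hn := h1, wn := h2, wloc := h3, wgap := h4, wfew := h5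
      hadd := fun v v' s => rfl
      hone := fun v => by funext t; simp [act]
      hmul := fun v s t => by funext x; simp [act, mul_assoc]
      ex1 := fun k hk P Q v b a1 a2 a3 => by
        have := e1 k hk P Q 1 v b a1 a2 a3
        rwa [mul_one] at this
      ex2 := fun u v h => e2 u 1 v h
      hcp := hp
      hgol := hgol
      hthin := fun T hT F hF => by
        refine le_trans (Finset.card_le_card ?_) (hthin T hT)
        intro ab hab
        obtain ⟨a1, a2, a3, a4⟩ := hF ab hab
        rw [Finset.mem_filter, Finset.mem_product, Finset.mem_range, Finset.mem_range]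
        exact ⟨⟨a1, a2⟩, a3, a4⟩
      hW := by omega
      hz := le_rfl }
  refine D.main ?_ s
  intro s t hst
  have := congrFun (hst (fun x => if x = s then 1 else 0)) 1
  simp only [D, act, mul_one] at this
  by_contra hne
  rw [if_pos trivial, if_neg (Ne.symm hne)] at this
  exact one_ne_zero this

/-- **S0495 from the word gadget** -/
theorem final (hU : ∀ (S V : Type) [Monoid S] [Finite S] [AddCommGroup V] [Finite V]
    (act : V → S → V), Bridge_3.UGI.{0, 0} S V act)
    (α : Type*) [Finite α] (L : Language α) (hL : L.IsRegular) :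
    ∃ e : Crest.RegLang.GRegExp α, e.height ≤ 3 ∧ e.lang = L :=
  Fin_869.template (values hU) α L hL

end Crest.Agent.R320.Full_301
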