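import Crest.Agent.R320.FullE_301
import Crest.Agent.R320.UGI_219

/-!
# Row 320: the row, no hypothesis left (helper301): `Full_301.final` + 219's `ugi`
-/

set_option autoImplicit false

namespace Crest.Agent.R320.Full_301

theorem ugi3 (S V : Type) [Monoid S] [Finite S] [AddCommGroup V] [Finite V]
    (act : V → S → V) : Bridge_3.UGI.{0, 0} S V act := by
  classical
  obtain ⟨C0, h⟩ := Grid219.ugi S V act
  refine ⟨C0, fun K => ?_⟩
  obtain ⟨N1, Pm, La, c, Bad, h1, h2, h3, h4, h5, h6, h7, h8⟩ := h K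
  refine ⟨N1, Pm, La, c, Bad, h1, fun i j hij _ => h4 i j hij,
    fun i j k l _ _ _ _ a b d => h5 i j k l a b d, h6, ?_, ?_⟩
  · intro T hT
    refine h7 (T : ℤ) _ ?_
    intro q hq
    rw [Finset.mem_filter, Finset.mem_product, Finset.mem_range, Finset.mem_range] at hq
    obtain ⟨⟨a1, a2⟩, a3, a4⟩ := hq
    refine ⟨a1, a2, a3, T + c q.2 - c q.1, ?_, a4⟩
    have := h3 q.1 a1
    omega
  · intro A phi
    obtain ⟨lam, rho, nu, g1, g2, g3, g4⟩ := h8 (fun w : List A => (w.map phi).prod) (by simp)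
    refine ⟨lam, rho, nu, g1, fun p q v r a b _ => g2 p q v r a b, ?_, g4⟩
    intro w hw hb v
    obtain ⟨p, q, rfl, x, y⟩ := g3 w hw hb v
    exact ⟨p, q, rfl, x, y⟩

/-- **S0495** -/
theorem row (α : Type*) [Finite α] (L : Language α) (hL : L.IsRegular) :
    ∃ e : Crest.RegLang.GRegExp α, e.height ≤ 3 ∧ e.lang = L :=
  final (fun S V _ _ _ _ act => ugi3 S V act) α L hL

end Crest.Agent.R320.Full_301
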