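import Crest.Agent.R320.Full_575

/-!
# Row 320: heights of the semantic languages and the top (helper575)
-/

set_option autoImplicit false

namespace Crest.Agent.R320.Hk_851

theorem HL.cg575 {α : Type*} {k : ℕ} {L M : Language α} (h : HL k M) (e : ∀ w, w ∈ M ↔ w ∈ L) :
    HL k L := h.congr fun w => (e w).symm

end Crest.Agent.R320.Hk_851

namespace Crest.Agent.R320.Full_575

open Crest.RegLang Crest.Agent.R320.Hk_851 Crest.Agent.R320.Blk467 Crest.Agent.R320.FewWalls_228

namespace Dt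

variable {α S V : Type} [Monoid S] [AddCommGroup V] (D : Dt α S V)

section heights

variable [Finite α] [Finite S] [Finite V]
variable (Sw : Set (List α)) (hSl : ∀ s ∈ Sw, s.length = D.n)
  (hWo : ∀ X, D.Wo X ↔ D.n ≤ X.length ∧ X.drop (X.length - D.n) ∈ Sw)

include hSl hWo in
theorem wo_suffix (X : List α) : D.Wo X ↔ ∃ s ∈ Sw, s <:+ X := by
  rw [hWo]
  constructor
  · rintro ⟨_, h⟩
    exact ⟨_, h, List.drop_suffix _ _⟩
  · rintro ⟨s, hs, P, rfl⟩
    have h1 := hSl s hs
    refine ⟨by rw [List.length_append]; omega, ?_⟩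
    rw [List.length_append, h1, Nat.add_sub_cancel, List.drop_left]
    exact hs

include hSl hWo in
theorem h_wo {k : ℕ} : HL k ({X | D.Wo X} : Language α) := by
  have hfin : Sw.Finite := (List.finite_length_eq α D.n).subset fun s hs => hSl s hs
  refine (HL.suffix (k := k) (HL.finite hfin)).cg575 fun w => ?_
  constructor
  · intro h
    exact (D.wo_suffix Sw hSl hWo w).2 h
  · intro h
    exact (D.wo_suffix Sw hSl hWo w).1 h

include hSl hWo in
/-- words with a wall at a place in `[z, |X|)` -/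
theorem h_inner {k : ℕ} :
    HL k ({X | ∃ t, D.z ≤ t ∧ t < X.length ∧ D.Wo (X.take t)} : Language α) := by
  refine ((((HL.length_ge (k := k) D.z).inf (D.h_wo Sw hSl hWo)).mul
    (HL.length_ge (k := k) 1))).cg575 fun w => ?_
  constructor
  · intro h
    obtain ⟨A, hA, B, hB, rfl⟩ := Language.mem_mul.1 h
    have hA1 : D.z ≤ A.length := hA.1
    have hA2 : D.Wo A := hA.2
    have hB1 : 1 ≤ B.length := hB
    refine ⟨A.length, hA1, by rw [List.length_append]; omega, ?_⟩
    rw [List.take_left]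
    exact hA2
  · rintro ⟨t, h1, h2, h3⟩
    refine Language.mem_mul.2 ⟨w.take t, ⟨?_, h3⟩, w.drop t, ?_, List.take_append_drop _ _⟩
    · change D.z ≤ (w.take t).length
      rw [List.length_take]; omega
    · change 1 ≤ (w.drop t).length
      rw [List.length_drop]; omega

include hSl hWo in
theorem h_XX {k : ℕ} : HL k (D.XX : Language α) := by
  refine (((HL.length_ge (k := k) D.z).inf (D.h_wo Sw hSl hWo)).inf
    (D.h_inner Sw hSl hWo).compl).cg575 fun w => ?_
  constructor
  · rintro ⟨⟨h1, h2⟩, h3⟩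
    exact ⟨h1, h2, fun t ht1 ht2 ht3 => h3 ⟨t, ht1, ht2, ht3⟩⟩
  · rintro ⟨h1, h2, h3⟩
    exact ⟨⟨h1, h2⟩, fun ⟨t, ht1, ht2, ht3⟩ => h3 t ht1 ht2 ht3⟩

include hWo in
theorem wl_iff (w : List α) (x : ℕ) (h : x + D.n ≤ w.length) :
    Wl D.n Sw w x ↔ D.Wo (w.take (x + D.n)) := by
  have hl : (w.take (x + D.n)).length = x + D.n := by rw [List.length_take]; omega
  rw [hWo, hl]
  unfold Wl
  have e : (w.take (x + D.n)).drop (x + D.n - D.n) = (w.drop x).take D.n := by
    rw [Nat.add_sub_cancel, List.drop_take]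
    congr 1
    omega
  rw [e]
  constructor
  · rintro ⟨_, h2⟩; exact ⟨by omega, h2⟩
  · rintro ⟨_, h2⟩; exact ⟨h, h2⟩

include hWo in
/-- few walls -/
theorem nw_le (w : List α) (h : ∀ t, D.z ≤ t → t < w.length → ¬ D.Wo (w.take t)) :
    nw D.n Sw w ≤ D.z + 1 := by
  classical
  unfold nw
  have hsub : ((Finset.range (w.length + 1)).filter (fun x => Wl D.n Sw w x)) ⊆
      Finset.range D.z ∪ {w.length - D.n} := by
    intro x hx
    rw [Finset.mem_filter] at hx
    obtain ⟨_, hW⟩ := hx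
    have hle := hW.1
    rw [D.wl_iff Sw hWo w x hle] at hW
    rw [Finset.mem_union, Finset.mem_range, Finset.mem_singleton]
    by_cases hz : D.z ≤ x + D.n
    · right
      by_contra hne
      exact h (x + D.n) hz (by omega) hW
    · left; omega
  refine (Finset.card_le_card hsub).trans ((Finset.card_union_le _ _).trans ?_)
  simp

variable (hfew : ∀ L : Language α, L.IsRegular → ∀ r, HL 1 ({w | w ∈ L ∧ nw D.n Sw w ≤ r} : Language α))

include hSl hWo hfew in
theorem h_tail (s : S) :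
    HL 3 ({w | (∀ X ∈ D.XX, ¬ X <+: w) ∧ (w.map D.f).prod = s} : Language α) := by
  classical
  have h1 : HL 3 ({w | ¬ ∃ v ∈ (D.XX : Language α), v <+: w} : Language α) :=
    (HL.prefix (D.h_XX Sw hSl hWo)).compl
  have h2 := (hfew _ (Reg_852.isRegular_prod D.f s) (D.z + 1)).mono (show 1 ≤ 3 by omega)
  refine (h1.inf h2).cg575 fun w => ?_
  constructor
  · rintro ⟨a, b⟩
    exact ⟨fun X hX hp => a ⟨X, hX, hp⟩, b.1⟩
  · rintro ⟨a, b⟩
    refine ⟨fun ⟨X, hX, hp⟩ => a X hX hp, b, D.nw_le Sw hWo w ?_⟩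
    intro t ht1 ht2 ht3
    have hex : ∃ t, D.z ≤ t ∧ t < w.length ∧ D.Wo (w.take t) := ⟨t, ht1, ht2, ht3⟩
    obtain ⟨c1, c2, c3⟩ := Nat.find_spec hex
    have hl : (w.take (Nat.find hex)).length = Nat.find hex := by rw [List.length_take]; omega
    refine a (w.take (Nat.find hex)) ⟨by rw [hl]; exact c1, c3, ?_⟩ (List.take_prefix _ _)
    intro t' h1' h2' h3'
    rw [hl] at h2'
    rw [List.take_take, min_eq_left h2'.le] at h3'
    exact Nat.find_min hex h2' ⟨h1', by omega, h3'⟩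

variable (M0 : ℕ) (hM0 : 0 < M0)
  (hinv : ∀ u u' : List α, D.N0 ≤ u.length → D.N0 ≤ u'.length → u.take D.N0 = u'.take D.N0 →
    ((u.drop D.N0).map D.f).prod = ((u'.drop D.N0).map D.f).prod →
    u.length % M0 = u'.length % M0 → D.nu1 u = D.nu1 u')

/-- the finite key of a word -/
def key (w : List α) : S × Multiplicative (ZMod M0) :=
  (w.map fun c => ((D.f c, Multiplicative.ofAdd (1 : ZMod M0)) :
    S × Multiplicative (ZMod M0))).prod

theorem key_fst (w : List α) : (D.key M0 w).1 = (w.map D.f).prod := by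
  unfold key
  induction w with
  | nil => rfl
  | cons a w ih => rw [List.map_cons, List.prod_cons, Prod.fst_mul, ih, List.map_cons,
      List.prod_cons]

theorem key_snd (w : List α) : (D.key M0 w).2 = Multiplicative.ofAdd ((w.length : ℕ) : ZMod M0) := by
  unfold key
  induction w with
  | nil => simp
  | cons a w ih =>
    rw [List.map_cons, List.prod_cons, Prod.snd_mul, ih, ← ofAdd_add, List.length_cons]
    congr 1
    push_cast
    ring

/-- words with a given key -/
def KL (q : S × Multiplicative (ZMod M0)) : Language α := {w | D.key M0 w = q}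

/-- bad blocks with given values -/
def BT (v v' : V) : Language α := {X | X ∈ D.Bad ∧ D.T v X = v'}

include hinv in
theorem T_key (v : V) (a R R' : List α) (ha : a.length = D.p0 + D.N0)
    (h : D.key M0 R = D.key M0 R') : D.T v (a ++ R) = D.T v (a ++ R') := by
  have h1 : (R.map D.f).prod = (R'.map D.f).prod := by rw [← D.key_fst M0, ← D.key_fst M0, h]
  have h2 : R.length % M0 = R'.length % M0 := by
    have : ((R.length : ℕ) : ZMod M0) = ((R'.length : ℕ) : ZMod M0) := by
      have := congrArg Prod.snd h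
      rw [D.key_snd, D.key_snd] at this
      exact Multiplicative.ofAdd.injective this
    exact (ZMod.natCast_eq_natCast_iff' _ _ _).1 this
  have e1 : a ++ R = a.take D.p0 ++ (a.drop D.p0 ++ R) := by
    rw [← List.append_assoc, List.take_append_drop]
  have e2 : a ++ R' = a.take D.p0 ++ (a.drop D.p0 ++ R') := by
    rw [← List.append_assoc, List.take_append_drop]
  have hl : (a.take D.p0).length = D.p0 := by rw [List.length_take]; omega
  have hl2 : (a.drop D.p0).length = D.N0 := by rw [List.length_drop]; omega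
  rw [e1, e2, D.T_split v _ _ hl, D.T_split v _ _ hl]
  have h3 : D.ph (a.drop D.p0 ++ R) = D.ph (a.drop D.p0 ++ R') := by
    rw [D.ph_append, D.ph_append]
    congr 1
  rw [h3]
  congr 1
  refine hinv _ _ (by rw [List.length_append]; omega) (by rw [List.length_append]; omega) ?_ ?_ ?_
  · rw [← hl2, List.take_left, List.take_left]
  · rw [← hl2, List.drop_left, List.drop_left]
    exact h1
  · rw [List.length_append, List.length_append, Nat.add_mod, h2, ← Nat.add_mod]

include hSl hWo hfew hM0 hinv in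
theorem h_T (v v' : V) : HL 1 ({X | X ∈ D.XX ∧ D.T v X = v'} : Language α) := by
  classical
  have hz := D.hz
  haveI : NeZero M0 := ⟨hM0.ne'⟩
  haveI : Finite (S × Multiplicative (ZMod M0)) := by
    haveI : Finite (Multiplicative (ZMod M0)) := inferInstanceAs (Finite (ZMod M0))
    infer_instance
  let F : Set (List α × (S × Multiplicative (ZMod M0))) :=
    {q | q.1.length = D.p0 + D.N0 ∧ ∃ R0, D.key M0 R0 = q.2 ∧ D.T v (q.1 ++ R0) = v'}
  have hF : F.Finite := by
    refine ((List.finite_length_eq α (D.p0 + D.N0)).prod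
      (Set.toFinite (Set.univ : Set (S × Multiplicative (ZMod M0))))).subset ?_
    rintro ⟨a, q⟩ ⟨h1, _⟩
    exact ⟨h1, trivial⟩
  let Lq : List α × (S × Multiplicative (ZMod M0)) → Language α := fun q =>
    ({q.1} : Language α) * D.KL M0 q.2
  have hreg : ∀ q, (Lq q).IsRegular := by
    intro q
    refine Reg_852.IsRegular.mul ?_ ?_
    · exact Reg_852.HL.isRegular (k := 0) (HL.word q.1)
    · exact Reg_852.isRegular_prod (fun c => ((D.f c, Multiplicative.ofAdd (1 : ZMod M0)) :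
        S × Multiplicative (ZMod M0))) q.2
  have h1 := HL.biUnion (k := 1) hF
    (L := fun q => ({w | w ∈ Lq q ∧ nw D.n Sw w ≤ D.z + 1} : Language α))
    (fun q _ => hfew _ (hreg q) (D.z + 1))
  refine ((D.h_XX Sw hSl hWo).inf h1).cg575 fun w => ?_
  constructor
  · rintro ⟨a, q, ⟨hq1, R0, hq2, hq3⟩, hw, _⟩
    refine ⟨a, ?_⟩
    obtain ⟨a', ha', R, hR, rfl⟩ := Language.mem_mul.1 hw
    have ha'' : a' = q.1 := ha'
    have hR' : D.key M0 R = q.2 := hR
    rw [ha'', D.T_key M0 hinv v q.1 R R0 hq1 (hR'.trans hq2.symm)]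
    exact hq3
  · rintro ⟨a, b⟩
    have hl := a.1
    refine ⟨a, (w.take (D.p0 + D.N0), D.key M0 (w.drop (D.p0 + D.N0))),
      ⟨by rw [List.length_take]; omega, w.drop (D.p0 + D.N0), rfl, by
        rw [List.take_append_drop]; exact b⟩, ?_, D.nw_le Sw hWo w a.2.2⟩
    exact Language.mem_mul.2 ⟨_, rfl, _, rfl, List.take_append_drop _ _⟩

omit [Finite S] [Finite V] in
theorem fin_LP1 (v : V) : (D.LP1 v : Set (List α)).Finite :=
  (List.finite_length_le α (D.p0 + D.N)).subset fun _ hP => D.LP1_len hP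

omit [Finite S] [Finite V] in
theorem fin_LP2 (v : V) : (D.LP2 v : Set (List α)).Finite := by
  refine (List.finite_length_le α D.p0).subset ?_
  rintro P ⟨k, hk, h1, _⟩
  change P.length ≤ D.p0
  rw [h1]
  exact D.hx k hk

include hSl hWo hfew hM0 hinv in
theorem h_RQ1 (b : V) : HL 1 (D.RQ1 b) := by
  refine (HL.iInter (k := 1) (ι := V) (L := fun v => ({Q | ∀ P ∈ D.LP1 v,
    P ++ Q ∈ D.XX ∧ D.T v (P ++ Q) = b} : Language α)) fun v => ?_).cg575 fun w => Iff.rfl
  refine (HL.biInter (k := 1) (D.fin_LP1 v) (L := fun P => ({Q | P ++ Q ∈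
    ({X | X ∈ D.XX ∧ D.T v X = b} : Language α)} : Language α))
    (fun P _ => HL.lquot P (D.h_T Sw hSl hWo hfew M0 hM0 hinv v b))).cg575 fun w => Iff.rfl

include hSl hWo hfew hM0 hinv in
theorem h_Bad : HL 1 (D.Bad : Language α) := by
  have h1 : HL 1 ({X | ∀ v, ∃ v', (X ∈ D.XX ∧ D.T v X = v') ∧ X ∈ D.LP1 v * D.RQ1 v'} :
      Language α) := by
    refine (HL.iInter (k := 1) (ι := V) (L := fun v => ({X | ∃ v', (X ∈ D.XX ∧ D.T v X = v') ∧
      X ∈ D.LP1 v * D.RQ1 v'} : Language α)) fun v => ?_).cg575 fun w => Iff.rfl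
    refine (HL.iUnion (k := 1) (ι := V) (L := fun v' => (({X | X ∈ D.XX ∧ D.T v X = v'} :
      Language α) ⊓ (D.LP1 v * D.RQ1 v'))) fun v' => ?_).cg575 fun w => Iff.rfl
    exact (D.h_T Sw hSl hWo hfew M0 hM0 hinv v v').inf
      ((HL.finite (D.fin_LP1 v)).mul (D.h_RQ1 Sw hSl hWo hfew M0 hM0 hinv v'))
  refine ((D.h_XX Sw hSl hWo).inf h1.compl).cg575 fun w => ?_
  constructor
  · rintro ⟨a, b⟩
    refine ⟨a, fun hG => b ?_⟩
    intro v
    obtain ⟨P, Q, e, hP, hQ⟩ := hG v
    exact ⟨_, ⟨a, rfl⟩, Language.mem_mul.2 ⟨P, hP, Q, hQ, e⟩⟩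
  · rintro ⟨a, b⟩
    refine ⟨a, fun hG => b ?_⟩
    intro v
    obtain ⟨v', ⟨_, hv⟩, hm⟩ := hG v
    obtain ⟨P, hP, Q, hQ, e⟩ := Language.mem_mul.1 hm
    exact ⟨P, Q, e, hP, by rw [hv]; exact hQ⟩

include hSl hWo hfew hM0 hinv in
theorem h_BadT (v v' : V) : HL 1 ({X | X ∈ D.Bad ∧ D.T v X = v'} : Language α) := by
  refine ((D.h_Bad Sw hSl hWo hfew M0 hM0 hinv).inf
    (D.h_T Sw hSl hWo hfew M0 hM0 hinv v v')).cg575 fun w => ?_
  constructor
  · rintro ⟨a, b⟩; exact ⟨a, b.2⟩
  · rintro ⟨a, b⟩; exact ⟨a, a.1, b⟩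

include hSl hWo hfew hM0 hinv in
theorem h_RQ2 (b : V) : HL 1 (D.RQ2 b) := by
  have hM1 : HL 1 ({w | ∃ X ∈ (D.XX : Language α), X <+: w} : Language α) :=
    HL.prefix (D.h_XX Sw hSl hWo)
  have hM2 : ∀ v, HL 1 ({w | ∀ X ∈ D.Bad, X <+: w → ∃ X' ∈ D.Bad, w = X ++ X' ∧
      D.T (D.T v X) X' = b} : Language α) := by
    intro v
    have h1 : HL 1 ({w | ∃ X ∈ (D.Bad : Language α), X <+: w} : Language α) :=
      HL.prefix (D.h_Bad Sw hSl hWo hfew M0 hM0 hinv)
    have h2 := HL.iUnion (k := 1) (ι := V) (L := fun v' =>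
      (D.BT v v' * D.BT v' b)) fun v' => (D.h_BadT Sw hSl hWo hfew M0 hM0 hinv v v').mul
        (D.h_BadT Sw hSl hWo hfew M0 hM0 hinv v' b)
    refine (h1.compl.sup h2).cg575 fun w => ?_
    constructor
    · intro h X hX hp
      rcases h with h | ⟨v', h⟩
      · exact (h ⟨X, hX, hp⟩).elim
      · obtain ⟨X1, hX1, X', hX', rfl⟩ := Language.mem_mul.1 h
        have hXe : X = X1 := by
          rcases List.prefix_or_prefix_of_prefix hp (List.prefix_append X1 X') with h | h
          · exact D.pcode.2 _ hX.1 _ hX1.1.1 h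
          · exact (D.pcode.2 _ hX1.1.1 _ hX.1 h).symm
        subst hXe
        refine ⟨X', hX'.1, rfl, ?_⟩
        rw [hX1.2]
        exact hX'.2
    · intro h
      by_cases hex : ∃ X ∈ (D.Bad : Language α), X <+: w
      · right
        obtain ⟨X, hX, hp⟩ := hex
        obtain ⟨X', hX', e, hT⟩ := h X hX hp
        exact ⟨D.T v X, Language.mem_mul.2 ⟨X, ⟨hX, rfl⟩, X', ⟨hX', hT⟩, e.symm⟩⟩
      · left
        exact hex
  refine (HL.iInter (k := 1) (ι := V) (L := fun v => ({Q | ∀ P ∈ D.LP2 v,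
    (∃ X ∈ D.XX, X <+: P ++ Q) ∧ ∀ X ∈ D.Bad, X <+: P ++ Q → ∃ X' ∈ D.Bad, P ++ Q = X ++ X' ∧
      D.T (D.T v X) X' = b} : Language α)) fun v => ?_).cg575 fun w => Iff.rfl
  refine (HL.biInter (k := 1) (D.fin_LP2 v) (L := fun P => ({Q | P ++ Q ∈
    (({w | ∃ X ∈ (D.XX : Language α), X <+: w} : Language α) ⊓ ({w | ∀ X ∈ D.Bad, X <+: w →
      ∃ X' ∈ D.Bad, w = X ++ X' ∧ D.T (D.T v X) X' = b} : Language α))} : Language α))
    (fun P _ => HL.lquot P (hM1.inf (hM2 v)))).cg575 fun w => Iff.rfl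

include hSl hWo hfew hM0 hinv in
/-- **the top** -/
theorem main (hfaith : ∀ s t, (∀ v, D.act v s = D.act v t) → s = t) (s : S) :
    HL 3 ({w | (w.map D.f).prod = s} : Language α) := by
  refine Top5_467.top5 D.f D.act D.hadd D.hone D.hmul hfaith D.nu D.XX D.Bad D.pcode
    (fun X hX => hX.1) D.LP1 D.RQ1 D.LP2 D.RQ2 ?_ ?_ ?_ ?_
    (D.h_Bad Sw hSl hWo hfew M0 hM0 hinv)
    (fun v => HL.finite (D.fin_LP2 v)) (D.h_RQ2 Sw hSl hWo hfew M0 hM0 hinv)
    (fun v => HL.finite (D.fin_LP1 v))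
    (fun b => (D.h_RQ1 Sw hSl hWo hfew M0 hM0 hinv b).mono (by omega))
    (fun v v' => (D.h_BadT Sw hSl hWo hfew M0 hM0 hinv v v').mono (by omega))
    (D.h_tail Sw hSl hWo hfew) s
  · intro v b P Q hP hQ
    exact hQ v P hP
  · intro X hX hB v
    have hG : D.Gd X := by
      by_contra h
      exact hB ⟨hX, h⟩
    exact hG v
  · rintro v b P Q r hP hQ ⟨l, hl, e⟩
    obtain ⟨⟨X0, hX0, hX0p⟩, h2⟩ := hQ v P hP
    cases l with
    | nil =>
      exfalso
      rw [List.flatten_nil] at e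
      have h3 : P ++ Q = [] := (List.append_eq_nil_iff.1 e.symm).1
      rw [h3] at hX0p
      have := List.prefix_nil.1 hX0p
      exact D.pcode.1 (this ▸ hX0)
    | cons X l =>
      have hX := hl X (by simp)
      rw [List.flatten_cons] at e
      have hXX0 : X = X0 := by
        have p1 : X <+: P ++ Q ++ r := ⟨l.flatten, e⟩
        have p2 : X0 <+: P ++ Q ++ r := hX0p.trans (List.prefix_append _ _)
        rcases List.prefix_or_prefix_of_prefix p1 p2 with h | h
        · exact D.pcode.2 _ hX.1 _ hX0 h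
        · exact (D.pcode.2 _ hX0 _ hX.1 h).symm
      subst hXX0
      obtain ⟨X', hX', e', hT⟩ := h2 X hX hX0p
      refine ⟨[X, X'], ?_, ?_, ?_⟩
      · intro Y hY
        rw [List.mem_cons, List.mem_singleton] at hY
        rcases hY with rfl | rfl
        · exact hX
        · exact hX'
      · simp [e']
      · exact hT
  · intro X hX X' hX' v
    exact D.c2 hX hX' v

end heights

end Dt

end Crest.Agent.R320.Full_575
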