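import Crest.Agent.R320.Sem_543
import Crest.Agent.R320.G1_604
import Crest.Agent.R320.Sp_537
import Crest.Agent.R320.WallU_36
import Crest.Agent.R320.XT_176
import Crest.Agent.R320.Block_467
import Crest.Agent.R320.Univ_119

/-!
# Row 320: final assembly (helper543)
-/

set_option autoImplicit false

namespace Crest.Agent.R320.Full543

open Crest.RegLang Crest.Agent.R320.Hk_851 Crest.Agent.R320.Code110 Crest.Agent.R320.ExactR_237
open Crest.Agent.R320.Sem543
open Crest.Agent.R320.XT_176 (lg)

/-- regularity of the noise from its locality (adapted from helper176) -/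
theorem regular_of_drop {α : Type} [Finite α] {S V : Type} [Monoid S] [Finite S]
    (f : α → S) (nu1 : List α → V) (La Pm : ℕ) (hP : 0 < Pm)
    (h : ∀ Y Y' : List α, La ≤ Y.length → La ≤ Y'.length → Y.take La = Y'.take La →
      Y.length % Pm = Y'.length % Pm → ((Y.drop La).map f).prod = ((Y'.drop La).map f).prod →
      nu1 Y = nu1 Y')
    (x : V) : Language.IsRegular (lg fun Y : List α => nu1 Y = x) := by
  classical
  haveI : NeZero Pm := ⟨hP.ne'⟩
  have hfin : Finite {P : List α // P.length = La} := (List.finite_length_eq α La).to_subtype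
  let M := S × Multiplicative (ZMod Pm)
  let g : α → M := fun a => (f a, Multiplicative.ofAdd (1 : ZMod Pm))
  haveI : Finite M := by
    haveI : Finite (Multiplicative (ZMod Pm)) := (inferInstance : Finite (ZMod Pm))
    infer_instance
  have hg : ∀ w : List α, (w.map g).prod = ((w.map f).prod,
      Multiplicative.ofAdd ((w.length : ℕ) : ZMod Pm)) := by
    intro w
    induction w with
    | nil => simp; rfl
    | cons a w ih =>
      rw [List.map_cons, List.prod_cons, ih]
      change (f a * (w.map f).prod, Multiplicative.ofAdd (1 : ZMod Pm) *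
        Multiplicative.ofAdd ((w.length : ℕ) : ZMod Pm)) = _
      rw [← ofAdd_add]
      simp only [List.map_cons, List.prod_cons, List.length_cons, Nat.cast_add, Nat.cast_one]
      rw [add_comm (1 : ZMod Pm)]
  let F : {P : List α // P.length = La} × M → Language α := fun i =>
    (lg fun w : List α => w ∈ (({i.1.1} : Language α) * (lg fun Y : List α => (Y.map g).prod = i.2)) ∧
      ∃ R : List α, (R.map g).prod = i.2 ∧ nu1 (i.1.1 ++ R) = x)
  have hF : ∀ i, (F i).IsRegular := by
    intro i
    by_cases hc : ∃ R : List α, (R.map g).prod = i.2 ∧ nu1 (i.1.1 ++ R) = x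
    · have : F i = ({i.1.1} : Language α) * (lg fun Y : List α => (Y.map g).prod = i.2) := by
        ext w
        exact ⟨fun hw => hw.1, fun hw => ⟨hw, hc⟩⟩
      rw [this]
      exact Reg_236.isRegular_mul (Reg_236.HL.isRegular (k := 0) (HL.word _)) (XT_176.reg_prod g _)
    · have : F i = 0 := by
        ext w
        exact ⟨fun hw => absurd hw.2 hc, fun hw => absurd hw (Language.notMem_zero w)⟩
      rw [this]; exact Reg_236.isRegular_zero
  have h1 := XT_176.reg_iUnion hF
  have hshort : Language.IsRegular (lg fun Y : List α => Y.length < La ∧ nu1 Y = x) := by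
    refine Reg_236.HL.isRegular (k := 0) (HL.finite (s := {Y | Y.length < La ∧ nu1 Y = x}) ?_)
    exact (List.finite_length_le α La).subset fun Y hY => le_of_lt hY.1
  have h2 := XT_176.reg_add hshort h1
  have e : ((lg fun Y : List α => Y.length < La ∧ nu1 Y = x) + (lg fun w : List α => ∃ i, w ∈ F i)) =
      (lg fun Y : List α => nu1 Y = x) := by
    ext w
    rw [Language.mem_add]
    constructor
    · rintro (⟨-, h3⟩ | ⟨⟨⟨P, hPl⟩, mm⟩, ⟨hw, R, hR1, hR2⟩⟩)
      · exact h3
      · obtain ⟨P', hP', Y, hY, rfl⟩ := Language.mem_mul.1 hw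
        have hPP : P' = P := hP'
        subst hPP
        have hY' : (Y.map g).prod = mm := hY
        have heq : (Y.map g).prod = (R.map g).prod := by rw [hY', hR1]
        rw [hg, hg] at heq
        have e1 : (Y.map f).prod = (R.map f).prod := congrArg Prod.fst heq
        have e2 : ((Y.length : ℕ) : ZMod Pm) = ((R.length : ℕ) : ZMod Pm) := by
          have := congrArg Prod.snd heq
          exact Multiplicative.ofAdd.injective this
        have e3 : Y.length % Pm = R.length % Pm := (ZMod.natCast_eq_natCast_iff' _ _ _).1 e2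
        change nu1 (P' ++ Y) = x
        rw [← hR2]
        refine h _ _ (by simp [hPl]) (by simp [hPl]) ?_ ?_ ?_
        · change (P' ++ Y).take La = (P' ++ R).take La
          have e4 : ∀ Z : List α, (P' ++ Z).take La = P' := fun Z => by
            have : (P' ++ Z).take P'.length = P' := List.take_left
            rwa [hPl] at this
          rw [e4, e4]
        · simp only [List.length_append]
          rw [Nat.add_mod, e3, ← Nat.add_mod]
        · have e5 : ∀ Z : List α, (P' ++ Z).drop La = Z := fun Z => by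
            have : (P' ++ Z).drop P'.length = Z := List.drop_left
            rwa [hPl] at this
          rw [e5, e5]; exact e1
    · intro hw
      have hw' : nu1 w = x := hw
      by_cases hl : w.length < La
      · exact Or.inl ⟨hl, hw'⟩
      · right
        have hl2 : (w.take La).length = La := by rw [List.length_take]; omega
        refine ⟨⟨⟨w.take La, hl2⟩, ((w.drop La).map g).prod⟩, ?_, w.drop La, rfl, ?_⟩
        · exact Language.mem_mul.2 ⟨w.take La, rfl, w.drop La, rfl, List.take_append_drop _ _⟩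
        · simp only
          rw [List.take_append_drop]; exact hw'
  rwa [e] at h2

/-- height 3 for all values, alphabet and monoid in `Type` -/
theorem main (α : Type) [Finite α] (S : Type) [Monoid S] [Finite S] (f : α → S) (s : S) :
    HL 3 ({w | (w.map f).prod = s} : Language α) := by
  classical
  haveI := Fintype.ofFinite S
  obtain ⟨act, hadd, hone, hmul, hfaith⟩ := Blk467.exists_module S
  haveI : Finite (S → ZMod 2) := inferInstance
  haveI : Fintype (S → ZMod 2) := Fintype.ofFinite _
  obtain ⟨m, r, hg1⟩ := G1_604.g1 S (S → ZMod 2) act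
  obtain ⟨K, hK⟩ := exact_gadget α S (S → ZMod 2) f act (2 * (r + m) + 2)
  obtain ⟨Ms, M, hMs1, hMs2, hM, hg2⟩ := hg1 (2 ^ (K + 1))
  have hbc : Nat.Coprime (M * (2 ^ (K + 4) + 8) + 1) M := by
    rw [Nat.coprime_mul_left_add_left]
    exact Nat.coprime_one_left M
  have hb1 : 4 * M + 4 < M * (2 ^ (K + 4) + 8) + 1 := by
    have h1 : M * 16 ≤ M * 2 ^ (K + 4) := Nat.mul_le_mul_left _ (by
      calc 16 = 2 ^ 4 := by norm_num
        _ ≤ 2 ^ (K + 4) := Nat.pow_le_pow_right (by norm_num) (by omega))
    rw [Nat.mul_add]; omega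
  have hb2 : M * 2 ^ (K + 4) < M * (2 ^ (K + 4) + 8) + 1 := by
    rw [Nat.mul_add]; omega
  generalize hbdef : M * (2 ^ (K + 4) + 8) + 1 = b at hbc hb1 hb2
  obtain ⟨lam, rho, nu1, g1, g2, g3, g4⟩ := hg2 b hb1 hbc α f
  obtain ⟨c, c1, c2, c3, c4⟩ := Sp_537.spoil K M m b (b ^ m) Ms hM
    (fun k hk => ⟨(hMs2 k hk).1, (hMs2 k hk).2.2⟩) hb2 hbc
  have hcK : ∀ k < K, c k ≤ c K := fun k hk => by have := c1 k K hk; omega
  obtain ⟨lam2, rho2, nuy, x1, x2⟩ := hK c (fun i j hij _ => by have := c1 i j hij; omega)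
  obtain ⟨n, Wo, w1, w2, w3, B, w4⟩ := WallU_36.exists_lwalls_all α (2 * (b ^ m + c K))
  set p0 : ℕ := c K with hp0
  set N1 : ℕ := b ^ m with hN1
  have hN1pos : 0 < N1 := Nat.pow_pos (by omega)
  have hex : ∃ z, z = 3 * p0 + N1 + n + 1 := ⟨_, rfl⟩
  obtain ⟨z, hz⟩ := hex
  set T := Sem543.TT f act p0 (fun X => nuy X 1) nu1 with hT
  set LL1 := L1 f act p0 (fun X => nuy X 1) lam with hLL1
  set LL2 := L2 K c lam2 with hLL2
  have hpc : PC (XX Wo z) := XX_pc (by omega)
  have F1 : ∀ v, {p | p ∈ LL1 v}.Finite := fun v =>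
    (List.finite_length_le α (p0 + N1)).subset fun p hp => by
      obtain ⟨h1, h2⟩ : p0 ≤ p.length ∧ lam (p.drop p0) = _ := hp
      have := g1 _ _ h2
      rw [List.length_drop] at this
      change p.length ≤ p0 + N1
      omega
  have F2 : ∀ v, {p | p ∈ LL2 v}.Finite := fun v =>
    (List.finite_length_le α p0).subset fun p hp => by
      obtain ⟨k, hk, h1, h2⟩ : ∃ k < K, p.length = c k ∧ lam2 k p = some v := hp
      change p.length ≤ p0
      rw [h1]; exact hcK k hk
  -- heights
  have hXeq : ∀ w : List α, w ∈ XT_176.XX Wo z ↔ w ∈ XX Wo z := fun w =>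
    ⟨fun h => ⟨h.1, h.2.1, fun t h1 h2 => h.2.2 t h2 h1⟩,
      fun h => ⟨h.1, h.2.1, fun t h1 h2 => h.2.2 t h2 h1⟩⟩
  have H1 : HL 1 (XX Wo z) := by
    refine (XT_176.HL_XX (z := z) 1 w1 w2).congr fun w => ?_
    exact (hXeq w).symm
  have hnu : ∀ x, Language.IsRegular (lg fun Y : List α => nu1 Y = x) :=
    regular_of_drop f nu1 N1 (M * N1) (Nat.mul_pos hM hN1pos)
      (fun Y Y' h1 h2 h3 h4 h5 => (g4 Y Y' h1 h2 h3 h4 h5).2)
  have w4' : ∀ X : List α, (∀ t, t < X.length → ¬ Wo (X.take t)) → ∃ u x v : List α, ∃ k : ℕ,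
      u.length ≤ B ∧ x.length ≤ B ∧ v.length ≤ B ∧ X = u ++ (List.replicate k x).flatten ++ v := by
    intro X hX
    obtain ⟨a, p, v, k, e, h1, h2, h3⟩ := w4 X hX
    exact ⟨a, p, v, k, h1, h2, h3, e⟩
  have H3 : ∀ x y, HL 1 (ZT (XX Wo z) T x y) := fun x y => by
    refine (XT_176.hXT (B := B) (W := B) (z := z) f act nu1 (fun X => nuy X 1) p0 hnu w1 w2 w4'
      (by omega) (by omega) x y).congr fun w => ?_
    constructor
    · rintro ⟨h1, h2⟩; exact ⟨(hXeq w).2 h1, h2⟩
    · rintro ⟨h1, h2⟩; exact ⟨(hXeq w).1 h1, h2⟩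
  have H4 : ∀ s, HL 3 ({w | (∀ u ∈ XX Wo z, ¬ u <+: w) ∧ (w.map f).prod = s} : Language α) :=
    fun s => by
    refine ((XT_176.hNP (B := B) (W := B) (z := z) f w1 w2 w4' (by omega) s).mono
      (by norm_num)).congr fun w => ?_
    constructor
    · rintro ⟨h1, h2⟩; exact ⟨fun X hX => h1 X ((hXeq X).1 hX), h2⟩
    · rintro ⟨h1, h2⟩; exact ⟨fun X hX => h1 X ((hXeq X).2 hX), h2⟩
  -- bad blocks
  let Bad : Language α := {u | u ∈ XX Wo z ∧ ∃ x, ¬ ∃ y, u ∈
    (LL1 x * Rsem (XX Wo z) (XX Wo z) T 0 LL1 y : Language α)}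
  have hB : ∀ u ∈ Bad, u ∈ XX Wo z := fun u hu => hu.1
  have H2 : HL 1 Bad := by
    have hcut : ∀ x, HL 1 ({u | ∃ y, u ∈
        (LL1 x * Rsem (XX Wo z) (XX Wo z) T 0 LL1 y : Language α)} : Language α) := fun x =>
      HL.iUnion fun y => (HL.finite (F1 x)).mul (Rsem.hl F1 H1 H1 H3 y)
    exact H1.inf (HL.iUnion fun x => (hcut x).compl)
  have hgood : ∀ u ∈ XX Wo z,
      (∀ s ≤ u.length, Wo (u.take s) → z ≤ s + N1 → s < z + N1 → False) →
      ¬ Sp_537.Bad Ms M b m (u.length - p0) → u ∉ Bad := by
    rintro u hu hE hT ⟨-, x, hx⟩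
    apply hx
    obtain ⟨p, q, y, e, hp, hq⟩ := hc1 (n := n) (z := z) (p0 := p0) (N1 := N1) (f := f)
      (act := act) (nu2 := fun X => nuy X 1) (nu1 := nu1) (lam := lam) (rho := rho) w1 (by omega)
      (fun P v h => (g1 P v h).le) (fun P Q v b' h1 h2 => g2 P Q v b' h1 h2) u hu hE (by
        intro v
        have hT' : ¬ Sp_537.Bad Ms M b m (u.drop p0).length := by
          rw [List.length_drop]; exact hT
        obtain ⟨P, Q, h1, h2, h3⟩ := g3 (u.drop p0)
          (fun k hk hd => hT' (Or.inl ⟨k, hk, hd⟩))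
          (fun j hj => by
            by_contra hcon
            exact hT' (Or.inr ⟨j, hj, hcon⟩)) v
        exact ⟨P, Q, h1.symm, h2, h3⟩) x
    exact ⟨y, Language.mem_mul.2 ⟨p, hp, q, hq, e.symm⟩⟩
  have hTT : ∀ u ∈ XX Wo z, ∀ v v', T u v - T u v' = act (v - v') ((u.map f).prod) := by
    intro u _ v v'
    have hsub : ∀ (a b' : S → ZMod 2) (s : S), act (a - b') s = act a s - act b' s := by
      intro a b' s
      have := hadd (a - b') b' s
      rw [sub_add_cancel] at this
      rw [this, add_sub_cancel_right]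
    have e1 : (u.map f).prod = pr f (u.take p0) * pr f (u.drop p0) := by
      rw [← pr_append, List.take_append_drop]; rfl
    change Sem543.TT f act p0 (fun X => nuy X 1) nu1 u v - Sem543.TT f act p0 (fun X => nuy X 1) nu1 u v' = _
    unfold Sem543.TT
    rw [e1, hmul, hsub v v', hsub]
    rw [hadd, hadd]
    abel
  refine Top5_110.top_sem (φ := fun w => (w.map f).prod) (act := act) (XX := XX Wo z) (Bad := Bad)
    (T := T) (by simp) (by intro u w; simp) hone hmul hfaith hpc hB hTT H1 H2 H3 H4
    (N1 := 0) (N2 := 1) (L1 := LL1) (L2 := LL2) F1 F2 ?_ ?_ s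
  · intro u hu hnb x t ht
    have ht' : t = [] := by simpa using ht
    subst ht'
    have : ∃ y, u ∈ (LL1 x * Rsem (XX Wo z) (XX Wo z) T 0 LL1 y : Language α) := by
      by_contra hcon
      exact hnb ⟨hu, x, hcon⟩
    obtain ⟨y, hy⟩ := this
    obtain ⟨p, hp, q, hq, e⟩ := Language.mem_mul.1 hy
    exact ⟨p, q, y, by rw [List.append_nil]; exact e.symm, hp, hq⟩
  · intro u hu x t ht
    rw [pow_one] at ht
    exact hc2 (n := n) (z := z) (p0 := p0) (N1 := N1) (K := K) (C0 := r + m)
      (BadT := Sp_537.Bad Ms M b m) w1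
      (by
        intro w s t hst ht hs1 ht1
        by_contra hcon
        push Not at hcon
        refine w3 (w.take t) (t - s) ht1 (by omega) (by omega) ?_
        rw [List.take_take, List.length_take]
        have : min (min t w.length - (t - s)) t = s := by omega
        rw [this]; exact hs1)
      (by omega) (by omega) (fun i j hij _ => by have := c1 i j hij; omega) hcK
      (by
        intro a b1 a' b1' h1 h2 h3 h4 h5 h6 h7 h8
        have := c3 b1 a b1' a' h2 h1 h4 h3 (Ne.symm h5) (Ne.symm h6) (by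
          rw [abs_le]; constructor <;> push_cast <;> omega)
        exact ⟨this.2, this.1⟩)
      (by
        intro T0 hT0 I hI
        have hle := c4 T0 (fun i hi => le_trans (hcK i hi) hT0)
        have h1 : (I.image Prod.swap).card = I.card :=
          Finset.card_image_of_injective _ Prod.swap_injective
        have h2 : I.image Prod.swap ⊆ (Finset.range K ×ˢ Finset.range K).filter
            (fun p => p.1 ≠ p.2 ∧ Sp_537.Bad Ms M b m (T0 + c p.2 - c p.1)) := by
          intro p hp
          obtain ⟨ab, hab, rfl⟩ := Finset.mem_image.1 hp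
          obtain ⟨g1', g2', g3', g4'⟩ := hI ab hab
          rw [Finset.mem_filter, Finset.mem_product, Finset.mem_range, Finset.mem_range]
          exact ⟨⟨g2', g1'⟩, Ne.symm g3', g4'⟩
        have h3 := Finset.card_le_card h2
        rw [h1] at h3
        have := h3.trans (by convert hle)
        omega)
      x1 x2 Bad hB hgood u t hu ht x

/-- every regular language over a finite alphabet in `Type` -/
theorem main0 (α : Type) [Finite α] (L : Language α) (hL : L.IsRegular) :
    ∃ e : GRegExp α, e.height ≤ 3 ∧ e.lang = L :=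
  of_monoid (fun S _ _ φ s => main α S φ s) L hL

universe u

theorem row320 (α : Type u) [Finite α] (L : Language α) (hL : L.IsRegular) :
    ∃ e : GRegExp α, e.height ≤ 3 ∧ e.lang = L :=
  Univ_119.bridge (fun α _ L hL => main0 α L hL) α L hL

end Crest.Agent.R320.Full543
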