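import Mathlib
import Crest.Agent.R320.Ruler_302

/-!
Row 320, SPOIL LEAF of the lead's post 13673: the wide ruler for 852's digit gadget.
`c l = K0 * 4 ^ l`, `K0 = 1 mod M`, `K0 = 4 M (1 + b + .. + b ^ (m - 1)) mod b ^ m`.
-/

set_option autoImplicit false

namespace Crest.Agent.R320.Sp_469

/-- the bad totals of 852's gadget -/
def Bad (M b m : ℕ) (Ms : Finset ℕ) (n : ℕ) : Prop :=
  (∃ k ∈ Ms, k ∣ n) ∨ ∃ j < m, ¬ (M ≤ n / b ^ j % b ∧ n / b ^ j % b + M + 1 ≤ b)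

theorem digit_near {b M j n : ℕ} (hb : 0 < b)
    (h : ¬ (M ≤ n / b ^ j % b ∧ n / b ^ j % b + M + 1 ≤ b)) :
    ∃ x t : ℤ, (n : ℤ) = t * (b : ℤ) ^ (j + 1) + x ∧ -((M : ℤ) * (b : ℤ) ^ j) ≤ x ∧
      x < (M : ℤ) * (b : ℤ) ^ j := by
  have e1 : (n : ℤ) = (b : ℤ) ^ j * ((n / b ^ j : ℕ) : ℤ) + ((n % b ^ j : ℕ) : ℤ) := by
    exact_mod_cast (Nat.div_add_mod n (b ^ j)).symm
  have e2 : ((n / b ^ j : ℕ) : ℤ) = (b : ℤ) * ((n / b ^ j / b : ℕ) : ℤ)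
      + ((n / b ^ j % b : ℕ) : ℤ) := by
    exact_mod_cast (Nat.div_add_mod (n / b ^ j) b).symm
  have hr : n % b ^ j < b ^ j := Nat.mod_lt _ (pow_pos hb j)
  have hd : n / b ^ j % b < b := Nat.mod_lt _ hb
  set d : ℕ := n / b ^ j % b with hdd
  set ρ : ℕ := n % b ^ j with hρ
  set q1 : ℕ := n / b ^ j / b with hq1
  have hr' : (ρ : ℤ) < (b : ℤ) ^ j := by exact_mod_cast hr
  have hr0 : (0 : ℤ) ≤ (ρ : ℤ) := Int.natCast_nonneg _
  have hbj : (0 : ℤ) < (b : ℤ) ^ j := by positivity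
  by_cases h1 : d < M
  · refine ⟨(b : ℤ) ^ j * d + ρ, q1, ?_, ?_, ?_⟩
    · rw [e1, e2]; ring
    · have : (0 : ℤ) ≤ (M : ℤ) * (b : ℤ) ^ j := by positivity
      have : (0 : ℤ) ≤ (b : ℤ) ^ j * d := by positivity
      linarith
    · have h2 : (d : ℤ) + 1 ≤ M := by exact_mod_cast h1
      nlinarith
  · have h2 : b ≤ d + M := by
      by_contra hcon
      exact h ⟨by omega, by omega⟩
    refine ⟨(b : ℤ) ^ j * (d - b) + ρ, q1 + 1, ?_, ?_, ?_⟩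
    · rw [e1, e2]; ring
    · have h3 : (b : ℤ) ≤ d + M := by exact_mod_cast h2
      nlinarith
    · have h3 : (d : ℤ) + 1 ≤ b := by exact_mod_cast hd
      have : (0 : ℤ) ≤ (M : ℤ) * (b : ℤ) ^ j := by positivity
      nlinarith

theorem geom_le (b : ℤ) (hb : 2 ≤ b) (j : ℕ) :
    b ^ j ≤ ∑ i ∈ Finset.range (j + 1), b ^ i ∧
      ∑ i ∈ Finset.range (j + 1), b ^ i ≤ 2 * b ^ j - 1 := by
  induction j with
  | zero => simp
  | succ j ih =>
    rw [Finset.sum_range_succ]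
    have hp : (0 : ℤ) < b ^ j := by positivity
    have e : b ^ (j + 1) = b * b ^ j := by ring
    constructor
    · have : (0 : ℤ) ≤ ∑ i ∈ Finset.range (j + 1), b ^ i := by positivity
      linarith
    · rw [e]; nlinarith [ih.2]

theorem geom_split (b : ℤ) {j m : ℕ} (h : j < m) :
    ∃ u : ℤ, ∑ i ∈ Finset.range m, b ^ i
      = ∑ i ∈ Finset.range (j + 1), b ^ i + b ^ (j + 1) * u := by
  refine ⟨∑ i ∈ Finset.range (m - (j + 1)), b ^ i, ?_⟩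
  rw [← Finset.sum_range_add_sum_Ico _ (show j + 1 ≤ m by omega),
    Finset.sum_Ico_eq_sum_range, Finset.mul_sum]
  congr 1
  apply Finset.sum_congr rfl
  intro i _
  rw [pow_add]

set_option maxHeartbeats 1000000 in
/-- two close bad digits force the same pair -/
theorem digit_same {b M m j K : ℕ} (hM : 0 < M) (hb : 8 * M * 4 ^ K + 2 * M < b) (hj : j < m)
    {K0 : ℤ} (hK2 : ∃ s : ℤ, K0 = s * (b : ℤ) ^ m + 4 * M * ∑ i ∈ Finset.range m, (b : ℤ) ^ i)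
    {e : ℤ} (he : |e| < 4 ^ K) {n n' : ℕ} (hn : (n : ℤ) - n' = K0 * e)
    (h : ¬ (M ≤ n / b ^ j % b ∧ n / b ^ j % b + M + 1 ≤ b))
    (h' : ¬ (M ≤ n' / b ^ j % b ∧ n' / b ^ j % b + M + 1 ≤ b)) : e = 0 := by
  by_contra hne
  have h4 : 0 < 4 ^ K := by positivity
  have hb0 : 0 < b := by omega
  obtain ⟨x, t, hx, hx1, hx2⟩ := digit_near hb0 h
  obtain ⟨x', t', hx', hx1', hx2'⟩ := digit_near hb0 h'
  obtain ⟨s, hs⟩ := hK2
  obtain ⟨u, hu⟩ := geom_split (b : ℤ) hj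
  have hb2 : (2 : ℤ) ≤ b := by
    have : 2 ≤ b := by nlinarith [Nat.mul_pos hM h4]
    exact_mod_cast this
  obtain ⟨g1, g2⟩ := geom_le (b : ℤ) hb2 j
  set G : ℤ := ∑ i ∈ Finset.range (j + 1), (b : ℤ) ^ i with hG
  set B : ℤ := (b : ℤ) ^ j with hB
  have hBpos : 0 < B := by positivity
  have hB1 : (b : ℤ) ^ (j + 1) = b * B := by rw [hB]; ring
  have hbm : (b : ℤ) ^ m = (b * B) * (b : ℤ) ^ (m - (j + 1)) := by
    rw [← hB1, ← pow_add]; congr 1; omega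
  -- the main identity
  have key : 4 * (M : ℤ) * e * G
      = (x - x') + (t - t' - s * e * (b : ℤ) ^ (m - (j + 1)) - 4 * M * e * u) * (b * B) := by
    have e1 : K0 * e = (t - t') * (b * B) + (x - x') := by
      rw [← hn, hx, hx', hB1]; ring
    rw [hs, hu, hbm, hB1] at e1
    linear_combination e1
  set τ : ℤ := t - t' - s * e * (b : ℤ) ^ (m - (j + 1)) - 4 * M * e * u with hτ
  have hM1 : (1 : ℤ) ≤ M := by exact_mod_cast hM
  have hbZ : 8 * (M : ℤ) * 4 ^ K + 2 * M < b := by exact_mod_cast hb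
  have he1 : 1 ≤ |e| := Int.one_le_abs hne
  have hMB : 0 < (M : ℤ) * B := by positivity
  have hxx : |x - x'| < 2 * (M * B) := by
    rw [abs_lt]; constructor <;> linarith
  have hY1 : 4 * (M * B) ≤ |4 * (M : ℤ) * e * G| := by
    rw [abs_mul, abs_mul, abs_of_pos (show (0 : ℤ) < 4 * M by positivity),
      abs_of_pos (lt_of_lt_of_le hBpos g1)]
    have a1 : (M : ℤ) * 1 ≤ M * |e| := mul_le_mul_of_nonneg_left he1 (by positivity)
    have a2 : (M : ℤ) * |e| * B ≤ M * |e| * G :=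
      mul_le_mul_of_nonneg_left g1 (by positivity)
    have a0 : (M : ℤ) * 1 * B ≤ M * |e| * B := mul_le_mul_of_nonneg_right a1 hBpos.le
    linarith
  have hY2 : |4 * (M : ℤ) * e * G| ≤ 8 * M * 4 ^ K * B := by
    rw [abs_mul, abs_mul, abs_of_pos (show (0 : ℤ) < 4 * M by positivity),
      abs_of_pos (lt_of_lt_of_le hBpos g1)]
    have a1 : G ≤ 2 * B := by linarith
    have a2 : 4 * (M : ℤ) * |e| * G ≤ 4 * M * |e| * (2 * B) :=
      mul_le_mul_of_nonneg_left a1 (by positivity)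
    have a3 : (M * B) * |e| ≤ (M * B) * 4 ^ K :=
      mul_le_mul_of_nonneg_left he.le hMB.le
    linarith
  have hτ0 : τ ≠ 0 := by
    intro h0
    rw [h0, zero_mul, add_zero] at key
    rw [key] at hY1
    linarith
  have hτ1 : 1 ≤ |τ| := Int.one_le_abs hτ0
  have h5 : (b : ℤ) * B ≤ |τ * (b * B)| := by
    rw [abs_mul, abs_of_pos (show (0 : ℤ) < b * B by positivity)]
    have : (1 : ℤ) * (b * B) ≤ |τ| * (b * B) :=
      mul_le_mul_of_nonneg_right hτ1 (by positivity)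
    linarith
  have h6 : |τ * (b * B)| ≤ |4 * (M : ℤ) * e * G| + |x - x'| := by
    have : τ * (b * B) = 4 * (M : ℤ) * e * G - (x - x') := by rw [key]; ring
    rw [this]
    exact abs_sub _ _
  have h7 : (8 * (M : ℤ) * 4 ^ K + 2 * M) * B < b * B := mul_lt_mul_of_pos_right hbZ hBpos
  linarith

open Classical in
/-- **SPOIL LEAF.** -/
theorem spoil (K m M b N1 : ℕ) (Ms : Finset ℕ) (hM : 0 < M)
    (hMs : ∀ k ∈ Ms, 4 ^ K < k ∧ k ∣ M) (hb : 8 * M * 4 ^ K + 2 * M < b)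
    (hcop : Nat.Coprime b M) :
    ∃ c : ℕ → ℕ, (∀ i, 4 * N1 < c i) ∧ (∀ i j, i < j → c i + 4 * N1 < c j) ∧
      (∀ i j k l, i < K → j < K → k < K → l < K → i ≠ j → ¬ (i = k ∧ j = l) →
        4 * (N1 : ℤ) < |((c i : ℤ) - c j) - (c k - c l)|) ∧
      ∀ T : ℕ, (∀ i < K, c i ≤ T) →
        ((Finset.range K ×ˢ Finset.range K).filter (fun p => p.1 ≠ p.2 ∧
          Bad M b m Ms (T + c p.2 - c p.1))).card ≤ Ms.card + m := by
  -- the factor K0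
  have hcopm : Nat.Coprime (b ^ m) M := Nat.Coprime.pow_left m hcop
  obtain ⟨k0, hk1, hk2⟩ := Nat.chineseRemainder hcopm
    (4 * M * ∑ i ∈ Finset.range m, b ^ i) 1
  have hb0 : 0 < b := by omega
  have hbm : 0 < b ^ m := pow_pos hb0 m
  set K0 : ℕ := k0 + (4 * N1 + 1) * (b ^ m * M) with hK0
  have hK0big : 4 * N1 < K0 := by
    have : (4 * N1 + 1) * 1 ≤ (4 * N1 + 1) * (b ^ m * M) :=
      Nat.mul_le_mul_left _ (Nat.mul_pos hbm hM)
    omega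
  have hKM : ∃ y : ℤ, (K0 : ℤ) = 1 + M * y := by
    have h1 : (M : ℤ) ∣ (k0 : ℤ) - ((1 : ℕ) : ℤ) := (Nat.modEq_iff_dvd.1 hk2.symm)
    obtain ⟨y, hy⟩ := h1
    refine ⟨y + (4 * N1 + 1) * b ^ m, ?_⟩
    rw [hK0]
    push_cast at hy ⊢
    linear_combination hy
  have hKb : ∃ s : ℤ, (K0 : ℤ) = s * (b : ℤ) ^ m + 4 * M * ∑ i ∈ Finset.range m, (b : ℤ) ^ i := by
    have h1 : ((b ^ m : ℕ) : ℤ) ∣ (k0 : ℤ) - ((4 * M * ∑ i ∈ Finset.range m, b ^ i : ℕ) : ℤ) :=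
      (Nat.modEq_iff_dvd.1 hk1.symm)
    obtain ⟨y, hy⟩ := h1
    refine ⟨y + (4 * N1 + 1) * M, ?_⟩
    rw [hK0]
    push_cast at hy ⊢
    linear_combination hy
  have hK0pos : (0 : ℤ) < K0 := by exact_mod_cast (by omega : 0 < K0)
  refine ⟨fun l => K0 * 4 ^ l, ?_, ?_, ?_, ?_⟩
  · intro i
    have : K0 * 1 ≤ K0 * 4 ^ i := Nat.mul_le_mul_left _ (Nat.one_le_pow _ _ (by norm_num))
    show 4 * N1 < K0 * 4 ^ i
    omega
  · intro i j hij
    show K0 * 4 ^ i + 4 * N1 < K0 * 4 ^ j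
    have h1 : 4 ^ (i + 1) ≤ 4 ^ j := Nat.pow_le_pow_right (by norm_num) hij
    have h2 : K0 * 4 ^ (i + 1) ≤ K0 * 4 ^ j := Nat.mul_le_mul_left _ h1
    have h3 : K0 * 4 ^ (i + 1) = 4 * (K0 * 4 ^ i) := by ring
    have h4 : K0 * 1 ≤ K0 * 4 ^ i := Nat.mul_le_mul_left _ (Nat.one_le_pow _ _ (by norm_num))
    omega
  · intro i j k l _ _ _ _ hij hne
    push_cast
    have h1 : ((K0 : ℤ) * 4 ^ i - K0 * 4 ^ j) - (K0 * 4 ^ k - K0 * 4 ^ l)
        = K0 * ((4 ^ i - 4 ^ j) - (4 ^ k - 4 ^ l)) := by ring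
    rw [h1, abs_mul, abs_of_pos hK0pos]
    have h2 : ((4 : ℤ) ^ i - 4 ^ j) - (4 ^ k - 4 ^ l) ≠ 0 := by
      intro h0
      exact hne (Ruler_302.sidon hij (by linarith))
    have h3 := Int.one_le_abs h2
    have h4 : (4 : ℤ) * N1 < K0 := by exact_mod_cast hK0big
    nlinarith
  · intro T hT
    -- differences
    have hdiff : ∀ p q : ℕ × ℕ, p.1 < K → p.2 < K → q.1 < K → q.2 < K →
        (((T + K0 * 4 ^ p.2 - K0 * 4 ^ p.1 : ℕ)) : ℤ) - ((T + K0 * 4 ^ q.2 - K0 * 4 ^ q.1 : ℕ) : ℤ)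
          = K0 * ((4 ^ p.2 - 4 ^ p.1) - (4 ^ q.2 - 4 ^ q.1)) := by
      intro p q h1 _ h3 _
      have a1 : K0 * 4 ^ p.1 ≤ T := hT p.1 h1
      have a3 : K0 * 4 ^ q.1 ≤ T := hT q.1 h3
      rw [Nat.cast_sub (by omega), Nat.cast_sub (by omega)]
      push_cast
      ring
    have hsame : ∀ p q : ℕ × ℕ, p.1 ≠ p.2 →
        ((4 : ℤ) ^ p.2 - 4 ^ p.1) - (4 ^ q.2 - 4 ^ q.1) = 0 → p = q := by
      intro p q h h0
      obtain ⟨h1, h2⟩ := Ruler_302.sidon (Ne.symm h) (show (4 : ℤ) ^ p.2 - 4 ^ p.1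
        = 4 ^ q.2 - 4 ^ q.1 by linarith)
      exact Prod.ext h2 h1
    have hA : ∀ k ∈ Ms, ((Finset.range K ×ˢ Finset.range K).filter (fun p => p.1 ≠ p.2 ∧
        k ∣ T + K0 * 4 ^ p.2 - K0 * 4 ^ p.1)).card ≤ 1 := by
      intro k hk
      rw [Finset.card_le_one]
      intro p hp q hq
      simp only [Finset.mem_filter, Finset.mem_product, Finset.mem_range] at hp hq
      obtain ⟨⟨p1, p2⟩, hpne, hpd⟩ := hp
      obtain ⟨⟨q1, q2⟩, hqne, hqd⟩ := hq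
      obtain ⟨hk4, hkM⟩ := hMs k hk
      apply hsame p q hpne
      have hdv : (k : ℤ) ∣ K0 * ((4 ^ p.2 - 4 ^ p.1) - (4 ^ q.2 - 4 ^ q.1)) := by
        rw [← hdiff p q p1 p2 q1 q2]
        exact dvd_sub (Int.natCast_dvd_natCast.2 hpd) (Int.natCast_dvd_natCast.2 hqd)
      obtain ⟨y, hy⟩ := hKM
      have hkM' : (k : ℤ) ∣ M := Int.natCast_dvd_natCast.2 hkM
      have hdv2 : (k : ℤ) ∣ (4 ^ p.2 - 4 ^ p.1) - (4 ^ q.2 - 4 ^ q.1) := by
        rw [hy] at hdv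
        have e1 : (1 + (M : ℤ) * y) * ((4 ^ p.2 - 4 ^ p.1) - (4 ^ q.2 - 4 ^ q.1))
            = ((4 ^ p.2 - 4 ^ p.1) - (4 ^ q.2 - 4 ^ q.1))
              + M * (y * ((4 ^ p.2 - 4 ^ p.1) - (4 ^ q.2 - 4 ^ q.1))) := by ring
        rw [e1] at hdv
        exact (dvd_add_left (Dvd.dvd.mul_right hkM' _)).1 hdv
      apply Int.eq_zero_of_abs_lt_dvd hdv2
      have h1 := Ruler_302.spread p2 p1 q2 q1
      have h2 : (4 : ℤ) ^ K < k := by exact_mod_cast hk4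
      linarith
    have hDg : ∀ j < m, ((Finset.range K ×ˢ Finset.range K).filter (fun p => p.1 ≠ p.2 ∧
        ¬ (M ≤ (T + K0 * 4 ^ p.2 - K0 * 4 ^ p.1) / b ^ j % b ∧
          (T + K0 * 4 ^ p.2 - K0 * 4 ^ p.1) / b ^ j % b + M + 1 ≤ b))).card ≤ 1 := by
      intro j hj
      rw [Finset.card_le_one]
      intro p hp q hq
      simp only [Finset.mem_filter, Finset.mem_product, Finset.mem_range] at hp hq
      obtain ⟨⟨p1, p2⟩, hpne, hpd⟩ := hp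
      obtain ⟨⟨q1, q2⟩, hqne, hqd⟩ := hq
      apply hsame p q hpne
      exact digit_same hM hb hj hKb (Ruler_302.spread p2 p1 q2 q1)
        (hdiff p q p1 p2 q1 q2) hpd hqd
    have hsub : ((Finset.range K ×ˢ Finset.range K).filter (fun p => p.1 ≠ p.2 ∧
          Bad M b m Ms (T + K0 * 4 ^ p.2 - K0 * 4 ^ p.1))) ⊆
        Ms.biUnion (fun k => (Finset.range K ×ˢ Finset.range K).filter (fun p => p.1 ≠ p.2 ∧
          k ∣ T + K0 * 4 ^ p.2 - K0 * 4 ^ p.1)) ∪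
        (Finset.range m).biUnion (fun j => (Finset.range K ×ˢ Finset.range K).filter
          (fun p => p.1 ≠ p.2 ∧ ¬ (M ≤ (T + K0 * 4 ^ p.2 - K0 * 4 ^ p.1) / b ^ j % b ∧
          (T + K0 * 4 ^ p.2 - K0 * 4 ^ p.1) / b ^ j % b + M + 1 ≤ b))) := by
      intro p hp
      simp only [Finset.mem_filter] at hp
      obtain ⟨hpK, hpne, hbad⟩ := hp
      rcases hbad with ⟨k, hk, hd⟩ | ⟨j, hj, hd⟩
      · apply Finset.mem_union_left
        rw [Finset.mem_biUnion]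
        exact ⟨k, hk, Finset.mem_filter.2 ⟨hpK, hpne, hd⟩⟩
      · apply Finset.mem_union_right
        rw [Finset.mem_biUnion]
        exact ⟨j, Finset.mem_range.2 hj, Finset.mem_filter.2 ⟨hpK, hpne, hd⟩⟩
    refine (Finset.card_le_card hsub).trans ((Finset.card_union_le _ _).trans ?_)
    have c1 := Finset.card_biUnion_le_card_mul Ms (fun k => (Finset.range K ×ˢ
      Finset.range K).filter (fun p => p.1 ≠ p.2 ∧ k ∣ T + K0 * 4 ^ p.2 - K0 * 4 ^ p.1)) 1 hA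
    have c2 := Finset.card_biUnion_le_card_mul (Finset.range m) (fun j => (Finset.range K ×ˢ
      Finset.range K).filter (fun p => p.1 ≠ p.2 ∧
        ¬ (M ≤ (T + K0 * 4 ^ p.2 - K0 * 4 ^ p.1) / b ^ j % b ∧
          (T + K0 * 4 ^ p.2 - K0 * 4 ^ p.1) / b ^ j % b + M + 1 ≤ b))) 1
      (fun j hj => hDg j (Finset.mem_range.1 hj))
    rw [Finset.card_range] at c2
    omega

end Crest.Agent.R320.Sp_469
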