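import Crest.Agent.R320.Top5_120
import Crest.Agent.R320.Sc2n_937
import Crest.Agent.R320.G1_256
import Crest.Agent.R320.Sp_469
import Crest.Agent.R320.ExactR_237
import Crest.Agent.R320.LWallAll_922
import Crest.Agent.R320.P4_933
import Crest.Agent.R320.Loc_354
import Crest.Agent.R320.Univ_lead

/-!
# Row 320: the join (helper561's copy)
-/

set_option autoImplicit false

namespace Crest.Agent.R320.Full_561

open Crest.RegLang Crest.Agent.R320.Hk_851 Crest.Agent.R320.Blk467

/-- `Bad` is periodic -/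
theorem bad_congr {M b m : ℕ} {Ms : Finset ℕ} (hMs : ∀ k ∈ Ms, k ∣ M) {n n' : ℕ}
    (h : n % (M * b ^ m) = n' % (M * b ^ m)) :
    Sp_469.Bad M b m Ms n ↔ Sp_469.Bad M b m Ms n' := by
  have h1 : ∀ k ∈ Ms, (k ∣ n ↔ k ∣ n') := by
    intro k hk
    have hd : k ∣ M * b ^ m := Dvd.dvd.mul_right (hMs k hk) _
    rw [Nat.dvd_iff_mod_eq_zero, Nat.dvd_iff_mod_eq_zero, ← Nat.mod_mod_of_dvd n hd,
      ← Nat.mod_mod_of_dvd n' hd, h]
  have h2 : ∀ j < m, n / b ^ j % b = n' / b ^ j % b := by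
    intro j hj
    have hd : b ^ j * b ∣ M * b ^ m := by
      rw [← pow_succ]
      exact Dvd.dvd.mul_left (pow_dvd_pow b (by omega)) M
    rw [← Nat.mod_mul_right_div_self, ← Nat.mod_mul_right_div_self, ← Nat.mod_mod_of_dvd n hd,
      ← Nat.mod_mod_of_dvd n' hd, h]
  unfold Sp_469.Bad
  constructor
  · rintro (⟨k, hk, h3⟩ | ⟨j, hj, h3⟩)
    · exact Or.inl ⟨k, hk, (h1 k hk).1 h3⟩
    · exact Or.inr ⟨j, hj, by rw [← h2 j hj]; exact h3⟩
  · rintro (⟨k, hk, h3⟩ | ⟨j, hj, h3⟩)
    · exact Or.inl ⟨k, hk, (h1 k hk).2 h3⟩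
    · exact Or.inr ⟨j, hj, by rw [h2 j hj]; exact h3⟩

/-- right-legal words of scheme 2 against any left-legal word -/
theorem alt {A V : Type*} {g : Sc2n_937.Geo A} {pre : List A → V → V} {post : V → List A → V}
    {BadT : ℕ → Prop} {K : ℕ} {c : ℕ → ℕ} {lam2 rho2 : ℕ → List A → Option V}
    (hc : ∀ k, k < K → c k ≤ g.p0)
    (hex : ∀ k, k < K → ∀ P Q v u, P.length = c k → Q.length = g.p0 - c k →
      lam2 k P = some v → rho2 k Q = some u → u = pre (P ++ Q) v)
    {x b : V} {P Q : List A} (hP : Sc2n_937.Geo.LP2 K c lam2 x P)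
    (hQ : g.RQ2 pre post BadT K c rho2 b Q) :
    (∃ X, g.XX X ∧ g.BadX BadT X ∧ ∃ X2, g.XX X2 ∧ P ++ Q = X ++ X2 ∧
      g.T pre post (g.T pre post x X) X2 = b) ∨
    (∃ X, g.XX X ∧ ¬ g.BadX BadT X ∧ X <+: P ++ Q) := by
  obtain ⟨k0, hk0, hPl, hl⟩ := id hP
  obtain ⟨k, hk, l, hend, hgood, -⟩ := id hQ
  obtain ⟨l', hl'⟩ : ∃ l', g.CEnd Q (c k0) l' := by
    by_cases hkk : k0 = k
    · subst hkk; exact ⟨l, hend⟩
    · obtain ⟨l', h, -⟩ := hgood k0 hk0 hkk
      exact ⟨l', h⟩
  have hX : g.XX (P ++ Q.take l') :=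
    g.xx_of_cend (by rw [hPl]; exact hc k0 hk0) (by rw [hPl]; exact hl')
  by_cases hb : g.BadX BadT (P ++ Q.take l')
  · left
    obtain ⟨X2, h1, h2, h3⟩ := g.sound2 pre post hc hex (R := []) (R' := Q.drop l') hX hb hP hQ (by
      rw [List.append_nil, List.append_assoc, List.take_append_drop])
    exact ⟨_, hX, hb, X2, h1, h2, h3⟩
  · right
    refine ⟨_, hX, hb, Q.drop l', ?_⟩
    rw [List.append_assoc, List.take_append_drop]

/-- comparison of two long words in the same finite-state class -/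
theorem cls {α S : Type} [Monoid S] (φ : α → S) {La p0 N1 P : ℕ} (hLa : p0 + N1 ≤ La)
    {q q2 : List α} (h1 : La ≤ q.length) (h2 : La ≤ q2.length) (h3 : q.take La = q2.take La)
    (h4 : q.length % P = q2.length % P)
    (h5 : ((q.drop La).map φ).prod = ((q2.drop La).map φ).prod) :
    q.take p0 = q2.take p0 ∧ (q.map φ).prod = (q2.map φ).prod ∧
    (q.drop p0).take N1 = (q2.drop p0).take N1 ∧
    (((q.drop p0).drop N1).map φ).prod = (((q2.drop p0).drop N1).map φ).prod ∧
    ((q.drop p0).map φ).prod = ((q2.drop p0).map φ).prod ∧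
    (q.drop p0).length % P = (q2.drop p0).length % P ∧
    ∀ t ≤ La, q.take t = q2.take t := by
  have htk : ∀ t ≤ La, q.take t = q2.take t := by
    intro t ht
    have := congrArg (List.take t) h3
    rwa [List.take_take, List.take_take, min_eq_left ht] at this
  have hdr : ∀ t ≤ La, ((q.drop t).map φ).prod = ((q2.drop t).map φ).prod := by
    intro t ht
    have e : ∀ w : List α, La ≤ w.length → w.drop t = (w.take La).drop t ++ w.drop La := by
      intro w hw
      conv_lhs => rw [← List.take_append_drop La w]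
      rw [List.drop_append_of_le_length (by rw [List.length_take]; omega)]
    rw [e q h1, e q2 h2, h3, List.map_append, List.map_append, List.prod_append, List.prod_append,
      h5]
  refine ⟨htk _ (by omega), ?_, ?_, ?_, hdr _ (by omega), ?_, htk⟩
  · have := hdr 0 (by omega)
    simpa using this
  · have e : ∀ w : List α, (w.drop p0).take N1 = (w.take (p0 + N1)).drop p0 := by
      intro w
      rw [List.drop_take]
      congr 1
      omega
    rw [e, e, htk _ hLa]
  · rw [List.drop_drop, List.drop_drop]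
    exact hdr _ (by omega)
  · rw [List.length_drop, List.length_drop]
    have h6 : (q.length - p0) + p0 ≡ (q2.length - p0) + p0 [MOD P] := by
      rw [Nat.sub_add_cancel (by omega), Nat.sub_add_cancel (by omega)]
      exact h4
    exact Nat.ModEq.add_right_cancel' p0 h6

theorem fin (α : Type) [Finite α] (S : Type) [Monoid S] [Finite S] (φ : α → S) (s : S) :
    HL 3 ({w | (w.map φ).prod = s} : Language α) := by
  classical
  haveI := Fintype.ofFinite S
  obtain ⟨act, hadd, hone, hmul, hfaith⟩ := exists_module S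
  obtain ⟨m, r, H1⟩ := G1_256.g1 S (S → ZMod 2) act
  obtain ⟨K, H2⟩ := ExactR_237.exact_gadget α S (S → ZMod 2) φ act (2 * (r + m) + 2)
  obtain ⟨Ms, M, hMs, hMk, hM, H3⟩ := H1 (4 ^ K)
  obtain ⟨b, hb⟩ : ∃ b, b = 1 + M * (8 * 4 ^ K + 10) := ⟨_, rfl⟩
  have h4K : 0 < 4 ^ K := pow_pos (by norm_num) K
  have hcop : Nat.Coprime b M := by
    rw [hb]
    simp
  have hb1 : 4 * M + 4 < b := by
    rw [hb]; nlinarith
  have hb2 : 8 * M * 4 ^ K + 2 * M < b := by
    rw [hb]; nlinarith
  obtain ⟨lam, rho, nu1, hlen, hex1, hcomp1, hfs⟩ := H3 b hb1 hcop α φ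
  obtain ⟨N1, hN1⟩ : ∃ N1, N1 = b ^ m := ⟨_, rfl⟩
  have hN1pos : 0 < N1 := by rw [hN1]; exact pow_pos (by omega) m
  obtain ⟨c, hc0, hcm, hgol, hth⟩ := Sp_469.spoil K m M b N1 Ms hM
    (fun k hk => ⟨(hMk k hk).1, (hMk k hk).2.2⟩) hb2 hcop
  obtain ⟨lam2, rho2, nu2, hex2, hcomp2⟩ := H2 c (fun i j h _ => by have := hcm i j h; omega)
  obtain ⟨p0, hp0⟩ : ∃ p0, p0 = c K := ⟨_, rfl⟩
  have hcp : ∀ k, k < K → c k ≤ p0 := fun k hk => by have := hcm k K hk; omega
  obtain ⟨n, G, B, Wo, hLW, hgapW, -, -, hfree⟩ :=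
    LWallAll_922.walls_all_left α (2 * p0 + 2 * N1 + 1) (by omega)
  let g : Sc2n_937.Geo α :=
    { Wo := Wo, n := n, z := p0 + N1 + (n + 2 * p0), p0 := p0, q0 := n + 2 * p0, N1 := N1,
      loc := hLW.app, hz := rfl, hq := by omega, hN := hN1pos, hqp := by omega }
  let pre : List α → (S → ZMod 2) → (S → ZMod 2) := fun X v => act v (X.map φ).prod + nu2 X 1
  let post : (S → ZMod 2) → List α → (S → ZMod 2) := fun v Y => act v (Y.map φ).prod + nu1 Y
  let BT : ℕ → Prop := Sp_469.Bad M b m Ms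
  let rho2' : ℕ → List α → Option (S → ZMod 2) := fun k Q => rho2 k Q 1
  let nu : List α → (S → ZMod 2) := fun X =>
    act (nu2 (X.take p0) 1) ((X.drop p0).map φ).prod + nu1 (X.drop p0)
  have hTv : ∀ v X, g.T pre post v X = act v (X.map φ).prod + nu X := by
    intro v X
    change act (act v ((X.take p0).map φ).prod + nu2 (X.take p0) 1) ((X.drop p0).map φ).prod +
      nu1 (X.drop p0) = _
    have e : (X.map φ).prod = ((X.take p0).map φ).prod * ((X.drop p0).map φ).prod := by
      rw [← List.prod_append, ← List.map_append, List.take_append_drop]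
    rw [hadd, ← hmul, ← e, add_assoc]
  let C : Set (List α) := {X | g.XX X}
  let Bad : Set (List α) := {X | g.XX X ∧ g.BadX BT X}
  have hlen' : ∀ P v, lam P = some v → P.length ≤ g.N1 := fun P v h => by
    have := hlen P v h
    change P.length ≤ N1
    omega
  have hex1' : ∀ P Q u b', lam P = some u → rho Q = some b' → b' = post u (P ++ Q) :=
    fun P Q u b' h h' => hex1 P Q u b' h h'
  have hex2' : ∀ k, k < K → ∀ P Q v u, P.length = c k → Q.length = g.p0 - c k →
      lam2 k P = some v → rho2' k Q = some u → u = pre (P ++ Q) v := by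
    intro k hk P Q v u hP _ h h'
    have := hex2 k hk P Q 1 v u hP h h'
    rw [mul_one] at this
    exact this
  -- regularity
  obtain ⟨La, hLa⟩ : ∃ La, La = p0 + N1 + (n + 2 * p0) + 2 * N1 + p0 := ⟨_, rfl⟩
  have hP : 0 < M * b ^ m := Nat.mul_pos hM (pow_pos (by omega) m)
  have hnu : ∀ q q2 : List α, La ≤ q.length → La ≤ q2.length → q.take La = q2.take La →
      q.length % (M * b ^ m) = q2.length % (M * b ^ m) →
      ((q.drop La).map φ).prod = ((q2.drop La).map φ).prod →
      (q.map φ).prod = (q2.map φ).prod ∧ nu q = nu q2 ∧ (g.BadX BT q ↔ g.BadX BT q2) := by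
    intro q q2 h1 h2 h3 h4 h5
    obtain ⟨c1, c2, c3, c4, c5, c6, c7⟩ := cls φ (p0 := p0) (N1 := N1) (by omega) h1 h2 h3 h4 h5
    refine ⟨c2, ?_, ?_⟩
    · have := (hfs (q.drop p0) (q2.drop p0) (by rw [List.length_drop]; omega)
        (by rw [List.length_drop]; omega) (by rw [← hN1]; exact c3) c6
        (by rw [← hN1]; exact c4)).2
      change act (nu2 (q.take p0) 1) ((q.drop p0).map φ).prod + nu1 (q.drop p0) =
        act (nu2 (q2.take p0) 1) ((q2.drop p0).map φ).prod + nu1 (q2.drop p0)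
      rw [c1, c5, this]
    · have hE : ∀ w w' : List α, La ≤ w.length → La ≤ w'.length →
          (∀ t ≤ La, w.take t = w'.take t) → g.E w → g.E w' := by
        rintro w w' hw hw' hww ⟨t, ht, hWt, h6, h7⟩
        change p0 + N1 + (n + 2 * p0) ≤ t + N1 at h6
        change t < p0 + N1 + (n + 2 * p0) + N1 at h7
        refine ⟨t, by omega, ?_, h6, h7⟩
        rw [← hww t (by omega)]
        exact hWt
      have hB : BT (q.length - p0) ↔ BT (q2.length - p0) := by
        refine bad_congr (fun k hk => (hMk k hk).2.2) ?_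
        rw [← List.length_drop, ← List.length_drop]
        exact c6
      constructor
      · rintro (h | h)
        · exact Or.inl (hE q q2 h1 h2 c7 h)
        · exact Or.inr (hB.1 h)
      · rintro (h | h)
        · exact Or.inl (hE q2 q h2 h1 (fun t ht => (c7 t ht).symm) h)
        · exact Or.inr (hB.2 h)
  have free : ∀ u : List α, (∀ t < u.length, ¬ Wo (u.take t)) →
      u ∈ (BddReg_746.PN (max B (2 * p0 + 2 * N1 + 1)) 2 : Language α) := by
    intro u hu
    obtain ⟨u', x, v, k, h1, h2, h3, rfl⟩ := hfree u hu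
    refine Language.mem_mul.2 ⟨u' ++ (List.replicate k x).flatten,
      ⟨u', x, k, by omega, by omega, rfl⟩, v, Language.mem_mul.2 ⟨v, ⟨v, [], 0, by omega, by simp,
        by simp [BddReg_746.pw]⟩, [], rfl, by simp⟩, rfl⟩
  have hreg1 : ∀ x y, Language.IsRegular ({X | act x (X.map φ).prod + nu X = y} : Language α) := by
    intro x y
    refine Loc_354.regular_of_local φ La (M * b ^ m) hP _ fun q q2 h1 h2 h3 h4 h5 => ?_
    obtain ⟨e1, e2, -⟩ := hnu q q2 h1 h2 h3 h4 h5
    change (act x (q.map φ).prod + nu q = y) ↔ (act x (q2.map φ).prod + nu q2 = y)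
    rw [e1, e2]
  have hreg2 : ∀ x y, Language.IsRegular
      ({X | g.BadX BT X ∧ act x (X.map φ).prod + nu X = y} : Language α) := by
    intro x y
    refine Loc_354.regular_of_local φ La (M * b ^ m) hP _ fun q q2 h1 h2 h3 h4 h5 => ?_
    obtain ⟨e1, e2, e3⟩ := hnu q q2 h1 h2 h3 h4 h5
    change (g.BadX BT q ∧ act x (q.map φ).prod + nu q = y) ↔
      (g.BadX BT q2 ∧ act x (q2.map φ).prod + nu q2 = y)
    rw [e1, e2, e3]
  have hXX : ∀ X, g.XX X ↔ P4_933.XX Wo (p0 + N1 + (n + 2 * p0)) X := by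
    intro X
    constructor
    · rintro ⟨h1, h2, h3⟩
      exact ⟨h2, h1, fun t ht hz => h3 t hz ht⟩
    · rintro ⟨h1, h2, h3⟩
      exact ⟨h2, h1, fun t hz ht => h3 t ht hz⟩
  refine Top5_120.top5 act hadd hone hmul hfaith φ nu C Bad ?_ ?_
    (fun v => {P | g.LP1 pre lam v P}) (fun v => {P | Sc2n_937.Geo.LP2 K c lam2 v P})
    ?_ ?_ ?_ ?_ ?_ ?_ ?_ s
  · refine ⟨fun h => ?_, fun X hX Y hY ⟨R, hR⟩ => ?_⟩
    · have h1 := h.1
      change p0 + N1 + (n + 2 * p0) ≤ 0 at h1
      omega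
    · exact g.prefix_code (R := R) (R' := []) hX hY (by rw [hR, List.append_nil])
  · exact fun X hX => hX.1
  · intro v
    refine (List.finite_length_le α (p0 + N1)).subset ?_
    rintro P ⟨h1, h2⟩
    have h3 := hlen _ _ h2
    rw [List.length_drop] at h3
    change P.length - p0 < b ^ m at h3
    change P.length ≤ p0 + N1
    omega
  · intro v
    refine (List.finite_length_le α p0).subset ?_
    rintro P ⟨k, hk, h1, -⟩
    change P.length ≤ p0
    rw [h1]
    exact hcp k hk
  · intro x y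
    refine (P4_933.hl_XX (z := p0 + N1 + (n + 2 * p0)) hLW.app hLW.len free (hreg1 x y)).congr
      fun X => Iff.symm ?_
    constructor
    · rintro ⟨h1, h2⟩
      exact ⟨(hXX X).2 h1, h2⟩
    · rintro ⟨h1, h2⟩
      exact ⟨(hXX X).1 h1, h2⟩
  · intro x y
    refine (P4_933.hl_XX (z := p0 + N1 + (n + 2 * p0)) hLW.app hLW.len free (hreg2 x y)).congr
      fun X => Iff.symm ?_
    constructor
    · rintro ⟨h1, h2, h3⟩
      exact ⟨⟨(hXX X).2 h1, h2⟩, h3⟩
    · rintro ⟨⟨h1, h2⟩, h3⟩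
      exact ⟨(hXX X).1 h1, h2, h3⟩
  · intro s'
    refine (P4_933.hl_NB (z := p0 + N1 + (n + 2 * p0)) hLW.app hLW.len free
      (Reg_852.isRegular_prod φ s')).congr fun u => Iff.symm ?_
    constructor
    · rintro ⟨h1, h2⟩
      refine ⟨fun X hX hXu => ?_, h2⟩
      exact (P4_933.NB_iff _ _ _).1 h1 X hXu ((hXX X).1 hX)
    · rintro ⟨h1, h2⟩
      refine ⟨(P4_933.NB_iff _ _ _).2 fun P hPu hP' => ?_, h2⟩
      exact h1 P ((hXX P).2 hP') hPu
  · intro X hX hXb v
    have hnE : ¬ g.E X := fun h => hXb ⟨hX, Or.inl h⟩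
    have hnB : ¬ BT (X.length - p0) := fun h => hXb ⟨hX, Or.inr h⟩
    have hnB1 : ∀ k ∈ Ms, ¬ k ∣ (X.length - p0) := fun k hk h => hnB (Or.inl ⟨k, hk, h⟩)
    have hnB2 : ∀ j < m, M ≤ (X.length - p0) / b ^ j % b ∧
        (X.length - p0) / b ^ j % b + M + 1 ≤ b := by
      intro j hj
      by_contra h
      exact hnB (Or.inr ⟨j, hj, h⟩)
    obtain ⟨P, Q, b', hPQ, hPl, hQl⟩ := g.complete1 pre (lam := lam) (rho := rho) hlen' hX hnE (by
      intro u
      obtain ⟨P, Q, h1, h2, h3⟩ := hcomp1 (X.drop p0)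
        (by rw [List.length_drop]; exact hnB1) (by rw [List.length_drop]; exact hnB2) u
      exact ⟨P, Q, h1.symm, h2, h3⟩) v
    subst hPQ
    refine ⟨P, Q, rfl, hPl, fun x P' hP' => ?_⟩
    obtain ⟨h1, h2⟩ := g.sound1 pre post hlen' hex1' hP' hQl
    obtain ⟨-, h3⟩ := g.sound1 pre post hlen' hex1' hPl hQl
    refine ⟨h1, ?_⟩
    rw [← hTv, ← hTv, h2, h3]
  · rintro X ⟨hX, hXb⟩ Y ⟨hY, -⟩ v
    have hgap : ∀ P Q : List α, g.Wo P → g.Wo (P ++ Q) → Q ≠ [] →
        2 * g.p0 + 2 * g.N1 < Q.length := by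
      intro P Q h1 h2 hQ
      have hQ' : 0 < Q.length := List.length_pos_of_ne_nil hQ
      have := hgapW (P ++ Q) P.length (P ++ Q).length (by rw [List.length_append]; omega) le_rfl
        (by rw [List.take_left]; exact h1) (by rw [List.take_length]; exact h2)
      rw [List.length_append] at this
      change 2 * p0 + 2 * N1 < Q.length
      omega
    have hsp : ∀ k k' l l', k < K → k' < K → l < K → l' < K → k' ≠ k → l' ≠ l →
        c k + c l' < c l + c k' + 2 * g.N1 → c l + c k' < c k + c l' + 2 * g.N1 → k = l := by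
      intro k k' l l' hk hk' hl hl' hne hne' h1 h2
      change c k + c l' < c l + c k' + 2 * N1 at h1
      change c l + c k' < c k + c l' + 2 * N1 at h2
      by_contra hkl
      have := hgol k k' l l' hk hk' hl hl' (Ne.symm hne) (fun h => hkl h.1)
      have h3 := abs_lt.2 (show -(4 * (N1 : ℤ)) < (((c k : ℤ) - c k') - (c l - c l')) ∧
        (((c k : ℤ) - c k') - (c l - c l')) < 4 * (N1 : ℤ) by
          constructor <;> omega)
      exact absurd this (not_lt.2 h3.le)
    have hthin : ∀ τ, g.z ≤ τ + g.p0 → ∀ J : Finset ℕ, (∀ k ∈ J, k < K ∧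
        ∃ k', k' < K ∧ k' ≠ k ∧ BT (τ + c k' - c k - g.p0)) → J.card ≤ r + m := by
      intro τ hτ J hJ
      change p0 + N1 + (n + 2 * p0) ≤ τ + p0 at hτ
      have h1 := hth (τ - p0) (fun i hi => by have := hcp i hi; omega)
      have hJ' : ∀ k, ∃ k', k ∈ J → k < K ∧ k' < K ∧ k' ≠ k ∧ BT (τ + c k' - c k - p0) := by
        intro k
        by_cases hk : k ∈ J
        · obtain ⟨h2, k', h3, h4, h5⟩ := hJ k hk
          exact ⟨k', fun _ => ⟨h2, h3, h4, h5⟩⟩
        · exact ⟨0, fun h => absurd h hk⟩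
      choose kk hkk using hJ'
      refine le_trans ?_ (h1.trans (by omega))
      refine Finset.card_le_card_of_injOn (fun k => (k, kk k)) ?_ ?_
      · intro k hk
        obtain ⟨h2, h3, h4, h5⟩ := hkk k hk
        have hk1 := hcp k h2
        rw [Finset.mem_coe, Finset.mem_filter, Finset.mem_product, Finset.mem_range,
          Finset.mem_range]
        refine ⟨⟨h2, h3⟩, Ne.symm h4, ?_⟩
        change Sp_469.Bad M b m Ms (τ - p0 + c (kk k) - c k)
        have e : τ - p0 + c (kk k) - c k = τ + c (kk k) - c k - p0 := by omega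
        rw [e]
        exact h5
      · intro k _ l _ h
        exact (Prod.ext_iff.1 h).1
    have hI : ∃ I : Finset ℕ, 2 * (r + m) + 2 ≤ I.card ∧ ∀ k ∈ I, k < K ∧
        lam2 k (X.take (c k)) = some v ∧ (rho2' k ((X.take g.p0).drop (c k))).isSome := by
      have hXl : p0 + N1 + (n + 2 * p0) ≤ X.length := hX.1
      have hl0 : (X.take p0).length = p0 := by rw [List.length_take]; omega
      obtain ⟨I, h1, h2⟩ := hcomp2 (X.take p0) 1 v (fun k hk => by rw [hl0]; exact hcp k hk)
      refine ⟨I, h1, fun k hk => ?_⟩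
      obtain ⟨h3, h4, h5⟩ := h2 k hk
      refine ⟨h3, ?_, h5⟩
      rw [List.take_take, min_eq_left (hcp k h3)] at h4
      exact h4
    obtain ⟨P, Q, b', hPQ, hPl, hQl⟩ := g.complete2 pre post (BadT := BT) (K := K) (c := c)
      (lam2 := lam2) (rho2 := rho2') (C0 := r + m) hcp hgap hsp hthin hX hY v hI
    refine ⟨P, Q, hPQ, hPl, fun x P' hP' => ?_⟩
    have hval : g.T pre post (g.T pre post v X) Y = b' := by
      obtain ⟨X2, h1, h2, h3⟩ := g.sound2 pre post hcp hex2' (R := []) (R' := Y) hX hXb hPl hQl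
        (by rw [List.append_nil, hPQ])
      have : X2 = Y := by
        have := h2.symm.trans hPQ
        exact List.append_cancel_left this
      rw [← this]; exact h3
    rcases alt hcp hex2' hP' hQl with ⟨X', h1, h2, X2, h3, h4, h5⟩ | ⟨X', h1, h2, h3⟩
    · left
      refine ⟨X', ⟨h1, h2⟩, X2, h3, h4.symm, ?_⟩
      rw [← hTv, ← hTv, ← hTv, ← hTv, h5, hval]
    · right
      exact ⟨X', h1, fun h => h2 h.2, h3⟩

theorem row (α : Type*) [Finite α] (L : Language α) (hL : L.IsRegular) :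
    ∃ e : GRegExp α, e.height ≤ 3 ∧ e.lang = L := by
  refine Univ_lead.univ_transfer 3 (fun n L hL => ?_) α L hL
  obtain ⟨S, i1, i2, φ, F, h⟩ := BddReg_746.exists_monoid hL
  have h1 : HL 3 L := by
    refine (HL.biUnion (Set.toFinite F) (L := fun s => ({w | (w.map φ).prod = s} :
      Language (Fin n))) fun s _ => fin (Fin n) S φ s).congr fun w => Iff.symm ?_
    rw [h]
    constructor
    · rintro ⟨s, hs, hw⟩
      have hw' : (w.map φ).prod = s := hw
      rw [hw']; exact hs
    · intro hw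
      exact ⟨_, hw, rfl⟩
  exact h1

end Crest.Agent.R320.Full_561
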