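import Crest.Agent.R320.Top5_467
import Crest.Agent.R320.FewVal_228
import Crest.Agent.R320.ExactR_237
import Crest.Agent.R320.Reg_852

/-!
# Row 320: all words, SEMANTIC right sides, over 467's `top5` (helper575)

Blocks: `XX` = first left-looking wall at a place `≥ z`.  Zone map
`T v (X1 ++ Y) = act (act v φ(X1) + nu2 X1) φ(Y) + nu1 Y`, `|X1| = p0`.
Right legality of both schemes and badness are defined semantically, so soundness and all heights
are free; only completeness (geometry) is proved.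
-/

set_option autoImplicit false

namespace Crest.Agent.R320.Full_575

open Crest.RegLang Crest.Agent.R320.Hk_851 Crest.Agent.R320.Blk467

/-- all data -/
structure Dt (α S V : Type) [Monoid S] [AddCommGroup V] where
  f : α → S
  act : V → S → V
  hadd : ∀ a b s, act (a + b) s = act a s + act b s
  hone : ∀ v, act v 1 = v
  hmul : ∀ v s t, act v (s * t) = act (act v s) t
  Wo : List α → Prop
  n : ℕ
  loc : ∀ P Q : List α, n ≤ Q.length → (Wo (P ++ Q) ↔ Wo Q)
  len : ∀ Q, Wo Q → n ≤ Q.length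
  K : ℕ
  x : ℕ → ℕ
  p0 : ℕ
  N : ℕ
  N0 : ℕ
  z : ℕ
  C1 : ℕ
  hx : ∀ k < K, x k ≤ p0
  hz : 2 * p0 + N + N0 + n + 1 ≤ z
  sep : ∀ (X : List α) (s t : ℕ), s < t → t ≤ X.length → Wo (X.take s) → Wo (X.take t) →
    s + 2 * (N + p0) < t
  BadT : ℕ → Prop
  res : ∀ a < K, ∀ b < K, ∀ a2 < K, ∀ b2 < K, a ≠ b → a2 ≠ b2 →
    |((x a : ℤ) - x b) - ((x a2 : ℤ) - x b2)| ≤ 2 * N → a = a2 ∧ b = b2
  thin : ∀ (T : ℤ) (s : Finset (ℕ × ℕ)), (∀ p ∈ s, p.1 < K ∧ p.2 < K ∧ p.1 ≠ p.2 ∧
    ∃ m : ℕ, (m : ℤ) = T - ((x p.1 : ℤ) - x p.2) ∧ BadT m) → s.card ≤ C1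
  lam : List α → Option V
  rho : List α → Option V
  nu1 : List α → V
  lam_len : ∀ P v, lam P = some v → P.length ≤ N
  snd1 : ∀ P Q v b, lam P = some v → rho Q = some b →
    b = act v ((P ++ Q).map f).prod + nu1 (P ++ Q)
  cmp1 : ∀ u : List α, N0 ≤ u.length → ¬ BadT u.length → ∀ v, ∃ P Q, u = P ++ Q ∧
    lam P = some v ∧ (rho Q).isSome
  lamE : ℕ → List α → Option V
  rhoE : ℕ → List α → Option V
  nu2 : List α → V
  snd2 : ∀ k < K, ∀ (P Q : List α) (v b : V), P.length = x k →
    lamE k P = some v → rhoE k Q = some b → b = act v ((P ++ Q).map f).prod + nu2 (P ++ Q)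
  cmp2 : ∀ (u : List α) (v : V), (∀ k < K, x k ≤ u.length) →
    ∃ I : Finset ℕ, 2 + 2 * C1 ≤ I.card ∧ ∀ k ∈ I, k < K ∧ lamE k (u.take (x k)) = some v ∧
      (rhoE k (u.drop (x k))).isSome

namespace Dt

variable {α S V : Type} [Monoid S] [AddCommGroup V] (D : Dt α S V)

/-- product -/
def ph (w : List α) : S := (w.map D.f).prod

theorem ph_append (u v : List α) : D.ph (u ++ v) = D.ph u * D.ph v := by simp [ph]

/-- the noise of both schemes -/
def nu (X : List α) : V :=
  D.act (D.nu2 (X.take D.p0)) (D.ph (X.drop D.p0)) + D.nu1 (X.drop D.p0)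

/-- the zone map -/
def T (v : V) (X : List α) : V := D.act v (X.map D.f).prod + D.nu X

theorem T_split (v : V) (X Y : List α) (hX : X.length = D.p0) :
    D.T v (X ++ Y) = D.act (D.act v (D.ph X) + D.nu2 X) (D.ph Y) + D.nu1 Y := by
  unfold T nu
  have h1 : (X ++ Y).take D.p0 = X := by rw [← hX, List.take_left]
  have h2 : (X ++ Y).drop D.p0 = Y := by rw [← hX, List.drop_left]
  rw [h1, h2]
  change D.act v (D.ph (X ++ Y)) + _ = _
  rw [D.ph_append, D.hmul, D.hadd, add_assoc]

/-- the block code -/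
def XX : Set (List α) := {X | D.z ≤ X.length ∧ D.Wo X ∧
  ∀ t, D.z ≤ t → t < X.length → ¬ D.Wo (X.take t)}

theorem pcode : PCode D.XX := by
  have hz := D.hz
  refine ⟨fun h => ?_, ?_⟩
  · have := h.1
    simp at this
    omega
  · intro X hX Y hY hXY
    obtain ⟨R, rfl⟩ := hXY
    by_contra hne
    have hR : R ≠ [] := by
      rintro rfl
      exact hne (by simp)
    have hRl : 0 < R.length := List.length_pos_iff.2 hR
    refine hY.2.2 X.length hX.1 (by rw [List.length_append]; omega) ?_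
    rw [List.take_left]
    exact hX.2.1

/-- left words of scheme 1 -/
def LP1 (v : V) : Language α := {P | D.p0 ≤ P.length ∧
  D.lam (P.drop D.p0) = some (D.act v (D.ph (P.take D.p0)) + D.nu2 (P.take D.p0))}

/-- right words of scheme 1, semantic -/
def RQ1 (b : V) : Language α := {Q | ∀ v, ∀ P ∈ D.LP1 v, P ++ Q ∈ D.XX ∧ D.T v (P ++ Q) = b}

/-- the block is cut by scheme 1 for every token -/
def Gd (X : List α) : Prop := ∀ v, ∃ P Q, P ++ Q = X ∧ P ∈ D.LP1 v ∧ Q ∈ D.RQ1 (D.T v X)

def Bad : Set (List α) := {X | X ∈ D.XX ∧ ¬ D.Gd X}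

/-- left words of scheme 2 -/
def LP2 (v : V) : Language α := {P | ∃ k < D.K, P.length = D.x k ∧ D.lamE k P = some v}

/-- right words of scheme 2, semantic -/
def RQ2 (b : V) : Language α := {Q | ∀ v, ∀ P ∈ D.LP2 v, (∃ X ∈ D.XX, X <+: P ++ Q) ∧
  ∀ X ∈ D.Bad, X <+: P ++ Q → ∃ X' ∈ D.Bad, P ++ Q = X ++ X' ∧ D.T (D.T v X) X' = b}

/-- geometric badness -/
def GB (X : List α) : Prop := (∃ t, D.z ≤ t + D.N ∧ t < D.z ∧ D.Wo (X.take t)) ∨
  X.length < D.z + D.N ∨ D.BadT (X.length - D.p0)

/-- wall transfer between `P' ++ w.drop c` and `w` -/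
theorem wall_tr (P' w : List α) (c t : ℕ) (hc : c ≤ w.length) (h1 : P'.length + D.n ≤ t)
    (h2 : t ≤ (P' ++ w.drop c).length) :
    D.Wo ((P' ++ w.drop c).take t) ↔ D.Wo (w.take (t - P'.length + c)) := by
  have e1 : (P' ++ w.drop c).take t = P' ++ (w.drop c).take (t - P'.length) := by
    rw [List.take_append, List.take_of_length_le (by omega)]
  have e2 : w.take (t - P'.length + c) = w.take c ++ (w.drop c).take (t - P'.length) := by
    rw [Nat.add_comm, List.take_add]
  rw [List.length_append, List.length_drop] at h2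
  have h3 : D.n ≤ ((w.drop c).take (t - P'.length)).length := by
    rw [List.length_take, List.length_drop]; omega
  rw [e1, e2, D.loc _ _ h3, D.loc _ _ h3]

theorem LP1_len {P : List α} {v : V} (h : P ∈ D.LP1 v) : P.length ≤ D.p0 + D.N := by
  have h1 := D.lam_len _ _ h.2
  rw [List.length_drop] at h1
  omega

/-- completeness of scheme 1 -/
theorem good_of_not_GB {X : List α} (hX : X ∈ D.XX) (hB : ¬ D.GB X) : D.Gd X := by
  intro v
  have hz := D.hz
  unfold GB at hB
  push Not at hB
  obtain ⟨hE, hL, hT⟩ := hB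
  have hXl := hX.1
  set X1 := X.take D.p0 with hX1
  set Y := X.drop D.p0 with hY
  have hX1l : X1.length = D.p0 := by rw [hX1, List.length_take]; omega
  have hYl : Y.length = X.length - D.p0 := by rw [hY, List.length_drop]
  have hXY : X = X1 ++ Y := (List.take_append_drop _ _).symm
  obtain ⟨P0, Q, hPQ, hlam, hrho⟩ := D.cmp1 Y (by omega) (by rw [hYl]; exact hT)
    (D.act v (D.ph X1) + D.nu2 X1)
  obtain ⟨r, hr⟩ := Option.isSome_iff_exists.1 hrho
  have hP0 := D.lam_len _ _ hlam
  have hQl : P0.length + Q.length = X.length - D.p0 := by rw [← hYl, hPQ, List.length_append]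
  refine ⟨X1 ++ P0, Q, by rw [hXY, hPQ, List.append_assoc], ?_, ?_⟩
  · refine ⟨by rw [List.length_append]; omega, ?_⟩
    rw [← hX1l, List.drop_left, List.take_left]
    exact hlam
  · intro v' P' hP'
    have hP'l := D.LP1_len hP'
    obtain ⟨hP'1, hP'2⟩ := hP'
    have hwall : ∀ t, P'.length + D.n ≤ t → t ≤ P'.length + Q.length →
        (D.Wo ((P' ++ Q).take t) ↔ D.Wo (X.take (t - P'.length + (D.p0 + P0.length)))) := by
      intro t h1 h2
      have hQ : Q = X.drop (D.p0 + P0.length) := by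
        rw [hXY, hPQ, ← List.append_assoc, ← hX1l, ← List.length_append, List.drop_left]
      have := D.wall_tr P' X (D.p0 + P0.length) t (by omega) h1
        (by rw [← hQ, List.length_append]; omega)
      rwa [← hQ] at this
    have hlen : (P' ++ Q).length = P'.length + Q.length := List.length_append
    refine ⟨⟨by rw [hlen]; omega, ?_, ?_⟩, ?_⟩
    · have := hwall (P'.length + Q.length) (by omega) le_rfl
      rw [← hlen, List.take_length] at this
      rw [this, show (P' ++ Q).length - P'.length + (D.p0 + P0.length) = X.length by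
        rw [hlen]; omega, List.take_length]
      exact hX.2.1
    · intro t ht1 ht2 ht3
      rw [hlen] at ht2
      rw [hwall t (by omega) (by omega)] at ht3
      set s := t - P'.length + (D.p0 + P0.length) with hs
      by_cases hsz : D.z ≤ s
      · exact hX.2.2 s hsz (by omega) ht3
      · exact hE s (by omega) (by omega) ht3
    · have e1 : P' ++ Q = P'.take D.p0 ++ (P'.drop D.p0 ++ Q) := by
        rw [← List.append_assoc, List.take_append_drop]
      have h1 := D.snd1 _ _ _ _ hP'2 hr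
      have h2 := D.snd1 _ _ _ _ hlam hr
      rw [e1, D.T_split v' _ _ (by rw [List.length_take]; omega)]
      rw [hXY, D.T_split v _ _ hX1l, hPQ]
      change D.act _ ((P'.drop D.p0 ++ Q).map D.f).prod + _ = D.act _ ((P0 ++ Q).map D.f).prod + _
      rw [← h1, ← h2]

theorem bad_GB {X : List α} (hX : X ∈ D.Bad) : D.GB X := by
  by_contra h
  exact hX.2 (D.good_of_not_GB hX.1 h)

/-- wall of `w` at the place `s` -/
def IsW (w : List α) (s : ℕ) : Prop := s ≤ w.length ∧ D.Wo (w.take s)

/-- a wrong candidate pair: band event -/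
def PA (w : List α) (k k' : ℕ) : Prop :=
  ∃ s, D.IsW w s ∧ D.z + D.x k ≤ s + D.x k' + D.N ∧ s + D.x k' < D.z + D.N + D.x k

/-- a wrong candidate pair: length event -/
def PB (w : List α) (k k' s : ℕ) : Prop :=
  D.IsW w s ∧ D.z + D.x k ≤ s + D.x k' ∧
    (∀ s', D.IsW w s' → D.z + D.x k ≤ s' + D.x k' → s ≤ s') ∧
    D.BadT (s + D.x k' - D.x k - D.p0)

theorem pair_of_GB {w : List α} (hw : D.p0 ≤ w.length) {k k' : ℕ} (hk : k < D.K) (hk' : k' < D.K)
    {P' X : List α} (hP' : P'.length = D.x k') (hX : X ∈ D.XX)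
    (hpre : X <+: P' ++ w.drop (D.x k)) (hG : D.GB X) :
    D.PA w k k' ∨ ∃ s, D.PB w k k' s := by
  have hz := D.hz
  have hxk := D.hx k hk
  have hxk' := D.hx k' hk'
  have hXz := hX.1
  have hLle := hpre.length_le
  have hlen : (P' ++ w.drop (D.x k)).length = D.x k' + (w.length - D.x k) := by
    rw [List.length_append, List.length_drop, hP']
  have htk : ∀ t, t ≤ X.length → X.take t = (P' ++ w.drop (D.x k)).take t := by
    intro t ht
    obtain ⟨R, hR⟩ := hpre
    rw [← hR, List.take_append_of_le_length ht]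
  have hWX : D.Wo X := hX.2.1
  have htr : ∀ t, D.x k' + D.n ≤ t → t ≤ (P' ++ w.drop (D.x k)).length →
      (D.Wo ((P' ++ w.drop (D.x k)).take t) ↔ D.Wo (w.take (t - D.x k' + D.x k))) := by
    intro t h1 h2
    have := D.wall_tr P' w (D.x k) t (by omega) (by rw [hP']; exact h1) h2
    rwa [hP'] at this
  have hend : D.IsW w (X.length - D.x k' + D.x k) := by
    refine ⟨by omega, ?_⟩
    rw [← htr X.length (by omega) hLle, ← htk _ le_rfl, List.take_length]
    exact hWX
  rcases hG with ⟨t, h1, h2, h3⟩ | hG | hG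
  · left
    rw [htk t (by omega), htr t (by omega) (by omega)] at h3
    exact ⟨t - D.x k' + D.x k, ⟨by omega, h3⟩, by omega, by omega⟩
  · left
    exact ⟨_, hend, by omega, by omega⟩
  · right
    refine ⟨X.length - D.x k' + D.x k, hend, by omega, ?_, ?_⟩
    · intro s' hs' hs'z
      by_contra hlt
      push Not at hlt
      have h4 := hs'.1
      have h5 : D.Wo ((P' ++ w.drop (D.x k)).take (s' + D.x k' - D.x k)) := by
        rw [htr _ (by omega) (by omega)]
        rw [show s' + D.x k' - D.x k - D.x k' + D.x k = s' by omega]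
        exact hs'.2
      rw [← htk _ (by omega)] at h5
      exact hX.2.2 _ (by omega) (by omega) h5
    · rw [show X.length - D.x k' + D.x k + D.x k' - D.x k - D.p0 = X.length - D.p0 by omega]
      exact hG

theorem two_values (w : List α) : ∃ σ0 σ1 : ℕ, ∀ k < D.K, ∀ k' < D.K, ∀ s, D.PB w k k' s →
    s = σ0 ∨ s = σ1 := by
  classical
  have hz := D.hz
  by_cases h0 : ∃ s, D.IsW w s ∧ D.z ≤ s + D.p0
  · by_cases h1 : ∃ s, D.IsW w s ∧ D.z + D.p0 < s
    · refine ⟨Nat.find h0, Nat.find h1, ?_⟩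
      intro k hk k' hk' s hs
      have hxk := D.hx k hk
      have hxk' := D.hx k' hk'
      obtain ⟨a1, a2⟩ := Nat.find_spec h0
      obtain ⟨b1, b2⟩ := Nat.find_spec h1
      have c1 : Nat.find h0 ≤ s := Nat.find_min' h0 ⟨hs.1, by have := hs.2.1; omega⟩
      by_cases hle : s ≤ Nat.find h0
      · left; omega
      · right
        have h2 : ¬ (D.z + D.x k ≤ Nat.find h0 + D.x k') := fun h => hle (hs.2.2.1 _ a1 h)
        have h3 := D.sep w (Nat.find h0) s (by omega) hs.1.1 a1.2 hs.1.2
        have h4 : Nat.find h1 ≤ s := Nat.find_min' h1 ⟨hs.1, by omega⟩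
        have h5 := hs.2.2.1 _ b1 (by omega)
        omega
    · refine ⟨Nat.find h0, 0, ?_⟩
      intro k hk k' hk' s hs
      have hxk := D.hx k hk
      have hxk' := D.hx k' hk'
      obtain ⟨a1, a2⟩ := Nat.find_spec h0
      have c1 : Nat.find h0 ≤ s := Nat.find_min' h0 ⟨hs.1, by have := hs.2.1; omega⟩
      by_cases hle : s ≤ Nat.find h0
      · left; omega
      · exfalso
        have h2 : ¬ (D.z + D.x k ≤ Nat.find h0 + D.x k') := fun h => hle (hs.2.2.1 _ a1 h)
        have h3 := D.sep w (Nat.find h0) s (by omega) hs.1.1 a1.2 hs.1.2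
        exact h1 ⟨s, hs.1, by omega⟩
  · refine ⟨0, 0, ?_⟩
    intro k hk k' hk' s hs
    exfalso
    have hxk := D.hx k hk
    have hxk' := D.hx k' hk'
    exact h0 ⟨s, hs.1, by have := hs.2.1; omega⟩

/-- unspoiled place -/
def Clean (w : List α) (k : ℕ) : Prop := ∀ k' < D.K, k' ≠ k → ∀ P' : List α,
  P'.length = D.x k' → ∀ X ∈ D.XX, X <+: P' ++ w.drop (D.x k) → ¬ D.GB X

theorem spoiled_card {w : List α} (hw : D.p0 ≤ w.length) (s : Finset ℕ)
    (hs : ∀ k ∈ s, k < D.K ∧ ¬ D.Clean w k) : s.card ≤ 1 + 2 * D.C1 := by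
  classical
  have hz := D.hz
  have hex : ∀ k ∈ s, ∃ k', k' < D.K ∧ k' ≠ k ∧ (D.PA w k k' ∨ ∃ t, D.PB w k k' t) := by
    intro k hk
    obtain ⟨h1, h2⟩ := hs k hk
    unfold Clean at h2
    push Not at h2
    obtain ⟨k', h3, h4, P', h5, X, h6, h7, h8⟩ := h2
    exact ⟨k', h3, h4, D.pair_of_GB hw h1 h3 h5 h6 h7 h8⟩
  choose! g hg1 hg2 hg3 using hex
  obtain ⟨σ0, σ1, hσ⟩ := D.two_values w
  have hsub : s ⊆ (s.filter fun k => D.PA w k (g k)) ∪
      ((s.filter fun k => D.PB w k (g k) σ0) ∪ (s.filter fun k => D.PB w k (g k) σ1)) := by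
    intro k hk
    rw [Finset.mem_union, Finset.mem_union, Finset.mem_filter, Finset.mem_filter,
      Finset.mem_filter]
    rcases hg3 k hk with h | ⟨t, h⟩
    · exact Or.inl ⟨hk, h⟩
    · rcases hσ k (hs k hk).1 (g k) (hg1 k hk) t h with rfl | rfl
      · exact Or.inr (Or.inl ⟨hk, h⟩)
      · exact Or.inr (Or.inr ⟨hk, h⟩)
  have hA : (s.filter fun k => D.PA w k (g k)).card ≤ 1 := by
    rw [Finset.card_le_one]
    intro a ha b hb
    rw [Finset.mem_filter] at ha hb
    obtain ⟨ha, s1, hs1, e1, e2⟩ := ha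
    obtain ⟨hb, s2, hs2, e3, e4⟩ := hb
    have x1 := D.hx a (hs a ha).1
    have x2 := D.hx b (hs b hb).1
    have x3 := D.hx _ (hg1 a ha)
    have x4 := D.hx _ (hg1 b hb)
    have hss : s1 = s2 := by
      rcases lt_trichotomy s1 s2 with h | h | h
      · have := D.sep w s1 s2 h hs2.1 hs1.2 hs2.2
        omega
      · exact h
      · have := D.sep w s2 s1 h hs1.1 hs2.2 hs1.2
        omega
    subst hss
    exact (D.res a (hs a ha).1 (g a) (hg1 a ha) b (hs b hb).1 (g b) (hg1 b hb)
      (hg2 a ha).symm (hg2 b hb).symm (by rw [abs_le]; constructor <;> omega)).1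
  have hB : ∀ σ, (s.filter fun k => D.PB w k (g k) σ).card ≤ D.C1 := by
    intro σ
    have hinj : ((s.filter fun k => D.PB w k (g k) σ).image fun k => (k, g k)).card =
        (s.filter fun k => D.PB w k (g k) σ).card :=
      Finset.card_image_of_injective _ (fun a b h => (Prod.mk.inj h).1)
    rw [← hinj]
    refine D.thin ((σ : ℤ) - D.p0) _ ?_
    intro p hp
    obtain ⟨k, hk, rfl⟩ := Finset.mem_image.1 hp
    rw [Finset.mem_filter] at hk
    obtain ⟨hk, hPB⟩ := hk
    have x1 := D.hx k (hs k hk).1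
    have x2 := D.hx _ (hg1 k hk)
    refine ⟨(hs k hk).1, hg1 k hk, (hg2 k hk).symm, _, ?_, hPB.2.2.2⟩
    have := hPB.2.1
    simp only
    omega
  have u1 := Finset.card_le_card hsub
  have u2 := Finset.card_union_le (s.filter fun k => D.PA w k (g k))
    ((s.filter fun k => D.PB w k (g k) σ0) ∪ (s.filter fun k => D.PB w k (g k) σ1))
  have u3 := Finset.card_union_le (s.filter fun k => D.PB w k (g k) σ0)
    (s.filter fun k => D.PB w k (g k) σ1)
  have u4 := hB σ0
  have u5 := hB σ1
  omega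

/-- completeness of scheme 2 -/
theorem c2 {X X' : List α} (hX : X ∈ D.Bad) (hX' : X' ∈ D.Bad) (v : V) :
    ∃ P Q, P ++ Q = X ++ X' ∧ P ∈ D.LP2 v ∧ Q ∈ D.RQ2 (D.T (D.T v X) X') := by
  classical
  have hz := D.hz
  have hXl := hX.1.1
  have hX'l := hX'.1.1
  set w := X ++ X' with hw
  have hwl : w.length = X.length + X'.length := by rw [hw, List.length_append]
  set X1 := X.take D.p0 with hX1
  have hX1l : X1.length = D.p0 := by rw [hX1, List.length_take]; omega
  obtain ⟨I, hIc, hI⟩ := D.cmp2 X1 v (fun k hk => by rw [hX1l]; exact D.hx k hk)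
  obtain ⟨k, hkI, hkC⟩ : ∃ k ∈ I, D.Clean w k := by
    by_contra hcon
    push Not at hcon
    have := D.spoiled_card (w := w) (by omega) I (fun k hk => ⟨(hI k hk).1, hcon k hk⟩)
    omega
  obtain ⟨hkK, hlam, hrho⟩ := hI k hkI
  obtain ⟨r, hr⟩ := Option.isSome_iff_exists.1 hrho
  have hxk := D.hx k hkK
  -- the left and right words
  set P := X1.take (D.x k) with hP
  set Qa := X1.drop (D.x k) with hQa
  set Y := X.drop D.p0 with hY
  have hPl : P.length = D.x k := by rw [hP, List.length_take]; omega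
  have hPQa : X1 = P ++ Qa := (List.take_append_drop _ _).symm
  have hXe : X = P ++ (Qa ++ Y) := by
    rw [← List.append_assoc, ← hPQa]; exact (List.take_append_drop _ _).symm
  have hQal : Qa.length = D.p0 - D.x k := by rw [hQa, List.length_drop, hX1l]
  have hYl : Y.length = X.length - D.p0 := by rw [hY, List.length_drop]
  have hwe : w = P ++ ((Qa ++ Y) ++ X') := by rw [hw, hXe, List.append_assoc]
  have hdrop : w.drop (D.x k) = (Qa ++ Y) ++ X' := by rw [hwe, ← hPl, List.drop_left]
  have hTX : D.T v X = D.act r (D.ph Y) + D.nu1 Y := by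
    rw [hXe, ← List.append_assoc, ← hPQa, D.T_split v _ _ hX1l]
    have := D.snd2 k hkK P Qa v r hPl hlam hr
    rw [← hPQa] at this
    change D.act (D.act v (X1.map D.f).prod + D.nu2 X1) _ + _ = _
    rw [← this]
  refine ⟨P, (Qa ++ Y) ++ X', hwe.symm, ⟨k, hkK, hPl, hlam⟩, ?_⟩
  intro v' P' hP'
  obtain ⟨k', hk'K, hP'l, hlam'⟩ := hP'
  have hxk' := D.hx k' hk'K
  have htr : ∀ t, D.x k' + D.n ≤ t → t ≤ (P' ++ w.drop (D.x k)).length →
      (D.Wo ((P' ++ w.drop (D.x k)).take t) ↔ D.Wo (w.take (t - D.x k' + D.x k))) := by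
    intro t h1 h2
    have := D.wall_tr P' w (D.x k) t (by omega) (by rw [hP'l]; exact h1) h2
    rwa [hP'l] at this
  rw [← hdrop]
  have hlen : (P' ++ w.drop (D.x k)).length = D.x k' + (w.length - D.x k) := by
    rw [List.length_append, List.length_drop, hP'l]
  refine ⟨?_, ?_⟩
  · -- there is a block at the beginning
    have hWX' : D.Wo w := by
      rw [hw, D.loc _ _ (by omega)]
      exact hX'.1.2.1
    have hex : ∃ t, D.z ≤ t ∧ t ≤ (P' ++ w.drop (D.x k)).length ∧
        D.Wo ((P' ++ w.drop (D.x k)).take t) := by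
      refine ⟨_, by rw [hlen]; omega, le_rfl, ?_⟩
      rw [htr _ (by omega) le_rfl, hlen,
        show D.x k' + (w.length - D.x k) - D.x k' + D.x k = w.length by omega, List.take_length]
      exact hWX'
    obtain ⟨h1, h2, h3⟩ := Nat.find_spec hex
    have hl : ((P' ++ w.drop (D.x k)).take (Nat.find hex)).length = Nat.find hex := by
      rw [List.length_take]; omega
    refine ⟨(P' ++ w.drop (D.x k)).take (Nat.find hex), ⟨by rw [hl]; exact h1, h3, ?_⟩,
      List.take_prefix _ _⟩
    intro t ht1 ht2 ht3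
    rw [hl] at ht2
    rw [List.take_take, min_eq_left ht2.le] at ht3
    exact Nat.find_min hex ht2 ⟨ht1, by omega, ht3⟩
  · intro X2 hX2 hpre
    have hkk : k' = k := by
      by_contra hne
      exact hkC k' hk'K hne P' hP'l X2 hX2.1 hpre (D.bad_GB hX2)
    subst hkk
    -- the first block of `P' ++ ..` is `P' ++ (Qa ++ Y)`
    have hB : P' ++ (Qa ++ Y) ∈ D.XX := by
      have hl2 : (P' ++ (Qa ++ Y)).length = X.length := by
        rw [List.length_append, List.length_append, hP'l, hQal, hYl]; omega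
      have htk : ∀ t, D.x k' + D.n ≤ t → t ≤ X.length →
          (D.Wo ((P' ++ (Qa ++ Y)).take t) ↔ D.Wo (X.take t)) := by
        intro t h1 h2
        have e1 : (P' ++ w.drop (D.x k')).take t = (P' ++ (Qa ++ Y)).take t := by
          rw [hdrop, ← List.append_assoc P', List.take_append_of_le_length (by rw [hl2]; exact h2)]
        have e2 : w.take (t - D.x k' + D.x k') = X.take t := by
          rw [show t - D.x k' + D.x k' = t by omega, hw, List.take_append_of_le_length h2]
        rw [← e1, ← e2]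
        exact htr t h1 (by rw [hlen]; omega)
      refine ⟨by rw [hl2]; exact hXl, ?_, ?_⟩
      · have := (htk X.length (by omega) le_rfl).2 (by rw [List.take_length]; exact hX.1.2.1)
        rwa [← hl2, List.take_length] at this
      · intro t ht1 ht2 ht3
        rw [hl2] at ht2
        exact hX.1.2.2 t ht1 ht2 ((htk t (by omega) ht2.le).1 ht3)
    have hX2e : X2 = P' ++ (Qa ++ Y) := by
      have h1 : P' ++ (Qa ++ Y) <+: P' ++ w.drop (D.x k') := by
        rw [hdrop]
        exact ⟨X', by simp⟩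
      rcases List.prefix_or_prefix_of_prefix hpre h1 with h | h
      · exact D.pcode.2 _ hX2.1 _ hB h
      · exact (D.pcode.2 _ hB _ hX2.1 h).symm
    refine ⟨X', hX', ?_, ?_⟩
    · rw [hX2e, hdrop]; simp
    · have hTX2 : D.T v' X2 = D.act r (D.ph Y) + D.nu1 Y := by
        have h3 := D.snd2 k' hkK P' Qa v' r hP'l hlam' hr
        rw [hX2e, ← List.append_assoc, D.T_split v' _ _
          (by rw [List.length_append, hP'l, hQal]; omega)]
        change D.act (D.act v' ((P' ++ Qa).map D.f).prod + D.nu2 (P' ++ Qa)) _ + _ = _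
        rw [← h3]
      rw [hTX2, hTX]

end Dt

end Crest.Agent.R320.Full_575
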