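import Crest.Agent.R320.S2_952
import Crest.Agent.R320.WallU_228

set_option autoImplicit false

namespace Crest.Agent.R320.Full_952

open Crest.RegLang Crest.Agent.R320.Hk_851 Crest.Agent.R320.Asm_505 Crest.Agent.R320.S2_952
  Crest.Agent.R320.WallU_228

/-- all data -/
structure Base (α S V : Type*) [Monoid S] [AddCommGroup V] where
  φ : α → S
  act : V → S → V
  act_add : ∀ v w s, act (v + w) s = act v s + act w s
  act_mul : ∀ v s t, act (act v s) t = act v (s * t)
  -- gadget 1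
  N1 : ℕ
  BadT : ℕ → Prop
  lam : List α → Option V
  rho : List α → Option V
  nu1 : List α → V
  lam_len : ∀ p v, lam p = some v → p.length ≤ N1
  gs : ∀ p q v r, lam p = some v → rho q = some r → r = act v (pr φ (p ++ q)) + nu1 (p ++ q)
  gc : ∀ u : List α, 2 * N1 ≤ u.length → ¬ BadT u.length → ∀ v, ∃ p q, p ++ q = u ∧
    lam p = some v ∧ (rho q).isSome
  -- exact gadget
  m : ℕ
  K : ℕ
  idx : Fin K → ℕ
  Lf : Fin K → List S → Prop
  Rt : Fin K → List S → Prop
  lab : Fin K → V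
  rlab : Fin K → V
  nu : List S → V
  idx_lt : ∀ c, idx c < m
  sound : ∀ (c : Fin K) (pre post : List S) (z : S), pre.length = idx c →
    (pre ++ z :: post).length = m → Lf c pre → Rt c post →
      rlab c = act (lab c) (pre ++ z :: post).prod + nu (pre ++ z :: post)
  compl : ∀ (u : List S) (v : V), u.length = m → ∃ (c : Fin K) (pre post : List S) (z : S),
    u = pre ++ z :: post ∧ pre.length = idx c ∧ Lf c pre ∧ Rt c post ∧ lab c = v
  -- ruler
  C0 : ℕ
  x : ℕ → ℕ
  x_mono : StrictMono x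
  x_pos : 0 < x 0
  thin : ∀ T : ℕ, ∀ F : Finset (ℕ × ℕ), (∀ a ∈ F, a.1 ≠ a.2 ∧
    a.1 < m * (K * (3 * C0 + 2)) + 1 ∧ a.2 < m * (K * (3 * C0 + 2)) + 1 ∧
    BadT (T + x a.1 - x a.2)) → F.card ≤ C0
  spaced : ∀ i j i' j' : ℕ, i < m * (K * (3 * C0 + 2)) + 1 → j < m * (K * (3 * C0 + 2)) + 1 →
    i' < m * (K * (3 * C0 + 2)) + 1 → j' < m * (K * (3 * C0 + 2)) + 1 → i ≠ j → i' ≠ j' →
    x i + x j' ≤ x i' + x j + 2 * N1 → x i' + x j ≤ x i + x j' + 2 * N1 → i = i' ∧ j = j'
  -- walls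
  n : ℕ
  Sw : Set (List α)
  hn : 0 < n
  W : ℕ
  gap : ∀ (w : List α) (s t : ℕ), s < t → t ≤ w.length → Wo n Sw (w.take s) →
    Wo n Sw (w.take t) → s + W ≤ t
  hW : 4 * x (m * (K * (3 * C0 + 2))) + 4 * N1 + n + 1 ≤ W
  z0 : ℕ
  hz0 : 2 * x (m * (K * (3 * C0 + 2))) + 4 * N1 + n + 1 ≤ z0

namespace Base

variable {α S V : Type*} [Monoid S] [AddCommGroup V] (G : Base α S V)

/-- copies -/
def L : ℕ := G.K * (3 * G.C0 + 2)
def p0 : ℕ := G.x (G.m * G.L)

theorem hW' : 4 * G.p0 + 4 * G.N1 + G.n + 1 ≤ G.W := G.hW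
theorem hz0' : 2 * G.p0 + 4 * G.N1 + G.n + 1 ≤ G.z0 := G.hz0

/-- wall of `z` at `t` -/
def Wl (z : List α) (t : ℕ) : Prop := t ≤ z.length ∧ Wo G.n G.Sw (z.take t)

theorem Wl_app (p q : List α) (t : ℕ) (h : p.length + G.n ≤ t) :
    G.Wl (p ++ q) t ↔ G.Wl q (t - p.length) := by
  unfold Wl
  by_cases ht : t ≤ (p ++ q).length
  · have h1 : (p ++ q).take t = p ++ q.take (t - p.length) := by
      rw [List.take_append, List.take_of_length_le (by omega)]
    have h2 : t - p.length ≤ q.length := by rw [List.length_append] at ht; omega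
    rw [h1, wo_append _ _ (by rw [List.length_take, min_eq_left h2]; omega)]
    exact ⟨fun h => ⟨h2, h.2⟩, fun h => ⟨ht, h.2⟩⟩
  · constructor
    · intro h'; exact absurd h'.1 ht
    · intro h'
      exfalso
      apply ht
      have := h'.1
      rw [List.length_append]; omega

theorem Wl_prefix {z c : List α} (h : z <+: c) {t : ℕ} (ht : t ≤ z.length) :
    G.Wl z t ↔ G.Wl c t := by
  obtain ⟨r, rfl⟩ := h
  unfold Wl
  rw [List.take_append_of_le_length ht, List.length_append]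
  exact ⟨fun h => ⟨by omega, h.2⟩, fun h => ⟨ht, h.2⟩⟩

theorem Wl_gap {z : List α} {s t : ℕ} (hs : G.Wl z s) (ht : G.Wl z t) (h : s < t) :
    s + G.W ≤ t := G.gap z s t h ht.1 hs.2 ht.2

/-- first wall at a place `≥ z0` -/
def isN (z : List α) (t : ℕ) : Prop := G.z0 ≤ t ∧ G.Wl z t ∧ ∀ s, G.z0 ≤ s → s < t → ¬ G.Wl z s

theorem isN_unique {z : List α} {s t : ℕ} (hs : G.isN z s) (ht : G.isN z t) : s = t := by
  rcases lt_trichotomy s t with h | h | h
  · exact absurd hs.2.1 (ht.2.2 s hs.1 h)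
  · exact h
  · exact absurd ht.2.1 (hs.2.2 t ht.1 h)

/-- `z` ends at the wall after its first wall at a place `≥ z0` -/
def End (z : List α) (t : ℕ) : Prop := G.isN z t ∧ t < z.length ∧ G.Wl z z.length ∧
  ∀ s, t < s → s < z.length → ¬ G.Wl z s

/-- zones -/
def U : Language α := {z | ∃ t, G.End z t}

theorem U_pc : PC G.U where
  ne := by
    rintro ⟨t, h1, h2, -⟩
    simp at h2
  pc := by
    rintro z ⟨t, h1, h2, h3, h4⟩ z' ⟨t', h1', h2', h3', h4'⟩ hp
    have hle := hp.length_le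
    have e1 : G.isN z' t := by
      refine ⟨h1.1, (G.Wl_prefix hp h2.le).1 h1.2.1, ?_⟩
      intro s hs hst hw
      exact h1.2.2 s hs hst ((G.Wl_prefix hp (by omega)).2 hw)
    have e2 := G.isN_unique e1 h1'
    subst e2
    rcases Nat.lt_or_ge z.length z'.length with hlt | hge
    · exact absurd ((G.Wl_prefix hp le_rfl).1 h3) (h4' z.length h2 hlt)
    · exact hp.eq_of_length (by omega)

/-- the place of the first wall, in the coordinate from `p0` -/
noncomputable def NY (Y : List α) : ℕ := sInf {t | G.z0 ≤ G.p0 + t ∧ G.Wl Y t}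

theorem NY_eq {z : List α} {t : ℕ} (h : G.isN z t) : G.NY (z.drop G.p0) = t - G.p0 := by
  have hz := G.hz0'
  have hl := h.2.1.1
  have h0 := h.1
  have e : ∀ s, G.p0 + G.n ≤ s → (G.Wl z s ↔ G.Wl (z.drop G.p0) (s - G.p0)) := by
    intro s hs
    have := G.Wl_app (z.take G.p0) (z.drop G.p0) s (by rw [List.length_take]; omega)
    rw [List.take_append_drop, List.length_take, min_eq_left (by omega)] at this
    exact this
  unfold NY
  apply le_antisymm
  · apply Nat.sInf_le
    exact ⟨by omega, (e t (by omega)).1 h.2.1⟩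
  · have hne : ({t | G.z0 ≤ G.p0 + t ∧ G.Wl (z.drop G.p0) t}).Nonempty :=
      ⟨t - G.p0, by omega, (e t (by omega)).1 h.2.1⟩
    have hm := Nat.sInf_mem hne
    obtain ⟨g1, g2⟩ := hm
    set s := sInf {t | G.z0 ≤ G.p0 + t ∧ G.Wl (z.drop G.p0) t} with hs
    by_contra hcon
    push Not at hcon
    apply h.2.2 (G.p0 + s) g1 (by omega)
    rw [e _ (by omega)]
    have : G.p0 + s - G.p0 = s := by omega
    rw [this]
    exact g2

/-- noise of scheme 1, read behind `p0` -/
noncomputable def D (Y : List α) : V := G.act (G.nu1 (Y.take (G.NY Y))) (pr G.φ (Y.drop (G.NY Y)))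

def EB (z : List α) : Prop := ∃ t, G.Wl z t ∧ G.z0 ≤ t + G.N1 ∧ t ≤ G.z0 + G.N1

/-- bad zones -/
def B : Language α := {z | z ∈ G.U ∧ (G.EB z ∨ G.BadT (G.NY (z.drop G.p0)))}

/-- index of a place -/
def ix (k : Fin G.K) (j : ℕ) : ℕ := G.idx k * G.L + ((k : ℕ) * (3 * G.C0 + 2) + j)

def pl (k : Fin G.K) (j : ℕ) : ℕ := G.x (G.ix k j)

def hb (i : ℕ) : ℕ := if i = 0 then 0 else G.x (min i G.m * G.L)

theorem in_L (k : Fin G.K) {j : ℕ} (hj : j ≤ 3 * G.C0 + 1) :
    (k : ℕ) * (3 * G.C0 + 2) + j < G.L := by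
  unfold L
  have h1 : ((k : ℕ) + 1) * (3 * G.C0 + 2) ≤ G.K * (3 * G.C0 + 2) :=
    Nat.mul_le_mul_right _ k.2
  rw [Nat.add_mul] at h1
  omega

theorem ix_lt (k : Fin G.K) {j : ℕ} (hj : j ≤ 3 * G.C0 + 1) : G.ix k j < G.m * G.L := by
  unfold ix
  have h1 := G.in_L k hj
  have h2 : (G.idx k + 1) * G.L ≤ G.m * G.L := Nat.mul_le_mul_right _ (G.idx_lt k)
  rw [Nat.add_mul] at h2
  omega

theorem ix_inj {k k' : Fin G.K} {j j' : ℕ} (hj : j ≤ 3 * G.C0 + 1) (hj' : j' ≤ 3 * G.C0 + 1)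
    (h : G.ix k j = G.ix k' j') : k = k' ∧ j = j' := by
  unfold ix at h
  have h1 := G.in_L k hj
  have h2 := G.in_L k' hj'
  have e1 : (k : ℕ) * (3 * G.C0 + 2) + j = (k' : ℕ) * (3 * G.C0 + 2) + j' := by
    have := congrArg (· % G.L) h
    simp only [Nat.mul_add_mod'] at this
    rwa [Nat.mod_eq_of_lt h1, Nat.mod_eq_of_lt h2] at this
  have e2 : j = j' := by
    have := congrArg (· % (3 * G.C0 + 2)) e1
    simp only [Nat.mul_add_mod'] at this
    rwa [Nat.mod_eq_of_lt (by omega), Nat.mod_eq_of_lt (by omega)] at this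
  subst e2
  refine ⟨?_, rfl⟩
  have e3 : (k : ℕ) * (3 * G.C0 + 2) = (k' : ℕ) * (3 * G.C0 + 2) := by omega
  exact Fin.ext (Nat.eq_of_mul_eq_mul_right (by omega) e3)

theorem pl_le {k : Fin G.K} {j : ℕ} (hj : j ≤ 3 * G.C0 + 1) : G.pl k j ≤ G.p0 :=
  G.x_mono.monotone (G.ix_lt k hj).le

theorem hb_mono : Monotone G.hb := by
  intro a b hab
  unfold hb
  by_cases ha : a = 0
  · simp [ha]
  · rw [if_neg ha, if_neg (by omega)]
    exact G.x_mono.monotone (Nat.mul_le_mul_right _ (min_le_min_right _ hab))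

/-- words of `B`, seen from a comparable word -/
theorem cand {z : List α} (hz : z ∈ G.B) {y y' : ℕ} (hy : y ≤ G.p0) (hy' : y' ≤ G.p0)
    {p' z' : List α} (hp' : p'.length = y') (hz' : z' ∈ G.B)
    (hc : z' <+: p' ++ z.drop y ∨ p' ++ z.drop y <+: z') :
    ∃ t0, G.End z t0 ∧ ((∃ t, G.Wl z t ∧ G.z0 ≤ (t - y + y') + G.N1 ∧ (t - y + y') ≤ G.z0 + G.N1 ∧
        y ≤ t) ∨
      (∃ t, G.Wl z t ∧ y ≤ t ∧ G.z0 ≤ t - y + y' ∧ (t = t0 ∨ t = z.length ∨ t < G.z0) ∧
        G.BadT (t - y + y' - G.p0))) := by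
  obtain ⟨⟨t0, hE⟩, -⟩ := hz
  obtain ⟨⟨t0', hE'⟩, hbad⟩ := hz'
  refine ⟨t0, hE, ?_⟩
  have hW := G.hW'
  have hz0 := G.hz0'
  have hlen : t0 + G.W ≤ z.length := G.Wl_gap hE.1.2.1 hE.2.2.1 hE.2.1
  have ht0 := hE.1.1
  set c := p' ++ z.drop y with hcdef
  have hcl : c.length = z.length - y + y' := by
    rw [hcdef, List.length_append, List.length_drop, hp']; omega
  have hzsplit : z.take y ++ z.drop y = z := List.take_append_drop y z
  have htl : (z.take y).length = y := by rw [List.length_take]; omega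
  -- transfer of walls between `c` and `z`
  have tr : ∀ s, y' + G.n ≤ s → (G.Wl c s ↔ G.Wl z (s - y' + y)) := by
    intro s hs
    rw [hcdef, G.Wl_app _ _ _ (by omega)]
    have := G.Wl_app (z.take y) (z.drop y) (s - y' + y) (by omega)
    rw [hzsplit, htl] at this
    rw [this, hp']
    have : s - y' + y - y = s - y' := by omega
    rw [this]
  have hcw : G.Wl c c.length := by
    rw [tr _ (by omega)]
    have : c.length - y' + y = z.length := by omega
    rw [this]
    exact hE.2.2.1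
  -- the first wall of `z'` lies in the common part
  have hN' : t0' ≤ c.length ∧ ∀ s, s ≤ c.length → s ≤ z'.length → (G.Wl z' s ↔ G.Wl c s) := by
    rcases hc with h | h
    · have hl := h.length_le
      exact ⟨by have := hE'.2.1; omega, fun s _ hs => G.Wl_prefix h hs⟩
    · constructor
      · by_contra hcon
        push Not at hcon
        exact hE'.1.2.2 c.length (by omega) hcon ((G.Wl_prefix h le_rfl).1 hcw)
      · intro s hs _
        exact (G.Wl_prefix h hs).symm
  have hlt' := hE'.2.1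
  have hge' := hE'.1.1
  rcases hbad with ⟨s, hs, hs1, hs2⟩ | hB
  · left
    have hw : G.Wl c s := (hN'.2 s (by omega) hs.1).1 hs
    rw [tr _ (by omega)] at hw
    refine ⟨s - y' + y, hw, ?_, ?_, by omega⟩
    · omega
    · omega
  · right
    have hw : G.Wl c t0' := (hN'.2 t0' hN'.1 hlt'.le).1 hE'.1.2.1
    rw [tr _ (by omega)] at hw
    refine ⟨t0' - y' + y, hw, by omega, by omega, ?_, ?_⟩
    · by_cases h1 : t0' - y' + y < G.z0
      · exact Or.inr (Or.inr h1)
      · rcases lt_trichotomy (t0' - y' + y) t0 with h | h | h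
        · exact absurd hw (hE.1.2.2 _ (by omega) h)
        · exact Or.inl h
        · right; left
          by_contra hne
          exact hE.2.2.2 _ h (by have := hw.1; omega) hw
    · rw [G.NY_eq hE'.1] at hB
      have : t0' - y' + y - y + y' - G.p0 = t0' - G.p0 := by omega
      rw [this]
      exact hB

theorem amb (z : List α) (hz : z ∈ G.B) (k : Fin G.K) : ∃ j ≤ 3 * G.C0 + 1, ∀ k' j',
    j' ≤ 3 * G.C0 + 1 → G.pl k' j' ≠ G.pl k j → ∀ p' : List α,
    p'.length = G.pl k' j' → ∀ z' ∈ G.B,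
      ¬ (z' <+: p' ++ z.drop (G.pl k j) ∨ p' ++ z.drop (G.pl k j) <+: z') := by
  classical
  by_contra hcon
  push Not at hcon
  have hW := G.hW'
  have hz0 := G.hz0'
  have hz2 := hz
  obtain ⟨⟨t0, hE⟩, -⟩ := hz2
  -- for every copy another place
  have key : ∀ j, j ≤ 3 * G.C0 + 1 → ∃ i, i < G.m * G.L ∧ i ≠ G.ix k j ∧
      ((∃ t, G.Wl z t ∧ G.z0 ≤ (t - G.x (G.ix k j) + G.x i) + G.N1 ∧
        (t - G.x (G.ix k j) + G.x i) ≤ G.z0 + G.N1 ∧ G.x (G.ix k j) ≤ t) ∨
      (∃ t, G.Wl z t ∧ G.x (G.ix k j) ≤ t ∧ G.z0 ≤ t - G.x (G.ix k j) + G.x i ∧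
        (t = t0 ∨ t = z.length ∨ t < G.z0) ∧
        G.BadT (t - G.x (G.ix k j) + G.x i - G.p0))) := by
    intro j hj
    obtain ⟨k', j', hj', hne, p', hp', z', hz', hc⟩ := hcon j hj
    have hc' : z' <+: p' ++ z.drop (G.pl k j) ∨ p' ++ z.drop (G.pl k j) <+: z' := by
      by_contra hn
      push Not at hn
      first
        | exact hn.2 (hc hn.1)
        | exact hc hn
        | (rcases hc with h | h
           · exact hn.1 h
           · exact hn.2 h)
    obtain ⟨t1, h1, h2⟩ := G.cand hz (G.pl_le hj) (G.pl_le hj') hp' hz' hc'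
    have : t1 = t0 := G.isN_unique h1.1 hE.1
    subst this
    exact ⟨G.ix k' j', G.ix_lt k' hj', fun h => hne (by unfold pl; rw [h]), h2⟩
  choose! f hf1 hf2 hf3 using key
  set J := Finset.range (3 * G.C0 + 2) with hJ
  let tm : ℕ := if h : ∃ t, G.Wl z t ∧ t < G.z0 ∧ G.z0 ≤ t + G.p0 then h.choose else 0
  have tmu : ∀ t, G.Wl z t → t < G.z0 → G.z0 ≤ t + G.p0 → t = tm := by
    intro t h1 h2 h3
    have hex : ∃ t, G.Wl z t ∧ t < G.z0 ∧ G.z0 ≤ t + G.p0 := ⟨t, h1, h2, h3⟩
    have htm : tm = hex.choose := dif_pos hex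
    obtain ⟨g1, g2, g3⟩ := hex.choose_spec
    rw [htm]
    rcases lt_trichotomy t hex.choose with h | h | h
    · have := G.Wl_gap h1 g1 h; omega
    · exact h
    · have := G.Wl_gap g1 h1 h; omega
  let ev : ℕ → ℕ → Prop := fun T j => G.BadT (T + G.x (f j) - G.x (G.ix k j))
  have hcov : ∀ j ∈ J, (∃ t, G.Wl z t ∧ G.z0 ≤ (t - G.x (G.ix k j) + G.x (f j)) + G.N1 ∧
        (t - G.x (G.ix k j) + G.x (f j)) ≤ G.z0 + G.N1 ∧ G.x (G.ix k j) ≤ t) ∨
      ev (t0 - G.p0) j ∨ ev (z.length - G.p0) j ∨ ev (tm - G.p0) j := by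
    intro j hj
    have hj' : j ≤ 3 * G.C0 + 1 := by rw [hJ, Finset.mem_range] at hj; omega
    have hxa : G.x (G.ix k j) ≤ G.p0 := G.pl_le hj'
    have hxb : G.x (f j) ≤ G.p0 := G.x_mono.monotone (hf1 j hj').le
    rcases hf3 j hj' with h | ⟨t, h1, h2, h3, h4, h5⟩
    · exact Or.inl h
    · right
      have e : ∀ s, s = t → s - G.p0 + G.x (f j) - G.x (G.ix k j) =
          t - G.x (G.ix k j) + G.x (f j) - G.p0 := by
        intro s hs; subst hs; omega
      rcases h4 with h | h | h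
      · left; show G.BadT _; rw [e t0 h.symm]; exact h5
      · right; left; show G.BadT _; rw [e _ h.symm]; exact h5
      · right; right; show G.BadT _
        rw [e tm (tmu t h1 h (by omega)).symm]; exact h5
  have cardT : ∀ T, (J.filter (fun j => ev T j)).card ≤ G.C0 := by
    intro T
    have hinj : Set.InjOn (fun j => (f j, G.ix k j)) ((J.filter (fun j => ev T j) : Finset ℕ) : Set ℕ) := by
      intro a ha b hb hab
      rw [Finset.mem_coe, Finset.mem_filter, hJ, Finset.mem_range] at ha hb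
      exact (G.ix_inj (by omega) (by omega) (congrArg Prod.snd hab)).2
    have := G.thin T ((J.filter (fun j => ev T j)).image (fun j => (f j, G.ix k j))) (by
      intro a ha
      rw [Finset.mem_image] at ha
      obtain ⟨j, hj, rfl⟩ := ha
      rw [Finset.mem_filter, hJ, Finset.mem_range] at hj
      have h1 := hf1 j (by omega)
      have h2 := G.ix_lt k (j := j) (by omega)
      unfold L at h1 h2
      exact ⟨hf2 j (by omega), by show f j < _; omega, by show G.ix k j < _; omega, hj.2⟩)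
    rwa [Finset.card_image_of_injOn hinj] at this
  have cardE : (J.filter (fun j => ∃ t, G.Wl z t ∧
        G.z0 ≤ (t - G.x (G.ix k j) + G.x (f j)) + G.N1 ∧
        (t - G.x (G.ix k j) + G.x (f j)) ≤ G.z0 + G.N1 ∧ G.x (G.ix k j) ≤ t)).card ≤ 1 := by
    rw [Finset.card_le_one]
    intro a ha b hb
    rw [Finset.mem_filter, hJ, Finset.mem_range] at ha hb
    obtain ⟨ha0, t, ht, ht1, ht2, ht3⟩ := ha
    obtain ⟨hb0, s, hs, hs1, hs2, hs3⟩ := hb
    have hxa : G.x (G.ix k a) ≤ G.p0 := G.pl_le (by omega)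
    have hxb : G.x (G.ix k b) ≤ G.p0 := G.pl_le (by omega)
    have hxa' : G.x (f a) ≤ G.p0 := G.x_mono.monotone (hf1 a (by omega)).le
    have hxb' : G.x (f b) ≤ G.p0 := G.x_mono.monotone (hf1 b (by omega)).le
    have hts : t = s := by
      rcases lt_trichotomy t s with h | h | h
      · have := G.Wl_gap ht hs h; omega
      · exact h
      · have := G.Wl_gap hs ht h; omega
    subst hts
    have h1 := hf1 a (by omega)
    have h2 := G.ix_lt k (j := a) (by omega)
    have h3 := hf1 b (by omega)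
    have h4 := G.ix_lt k (j := b) (by omega)
    unfold L at h1 h2 h3 h4
    have := G.spaced (f a) (G.ix k a) (f b) (G.ix k b) (by omega) (by omega) (by omega) (by omega)
      (hf2 a (by omega)) (hf2 b (by omega)) (by omega) (by omega)
    exact (G.ix_inj (by omega) (by omega) this.2).2
  have hsub : J ⊆ (J.filter (fun j => ∃ t, G.Wl z t ∧
        G.z0 ≤ (t - G.x (G.ix k j) + G.x (f j)) + G.N1 ∧
        (t - G.x (G.ix k j) + G.x (f j)) ≤ G.z0 + G.N1 ∧ G.x (G.ix k j) ≤ t)) ∪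
      ((J.filter (fun j => ev (t0 - G.p0) j)) ∪ ((J.filter (fun j => ev (z.length - G.p0) j)) ∪
        (J.filter (fun j => ev (tm - G.p0) j)))) := by
    intro j hj
    simp only [Finset.mem_union, Finset.mem_filter]
    rcases hcov j hj with h | h | h | h
    · exact Or.inl ⟨hj, h⟩
    · exact Or.inr (Or.inl ⟨hj, h⟩)
    · exact Or.inr (Or.inr (Or.inl ⟨hj, h⟩))
    · exact Or.inr (Or.inr (Or.inr ⟨hj, h⟩))
  have hc := Finset.card_le_card hsub
  have hu1 := Finset.card_union_le (J.filter (fun j => ∃ t, G.Wl z t ∧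
        G.z0 ≤ (t - G.x (G.ix k j) + G.x (f j)) + G.N1 ∧
        (t - G.x (G.ix k j) + G.x (f j)) ≤ G.z0 + G.N1 ∧ G.x (G.ix k j) ≤ t))
      ((J.filter (fun j => ev (t0 - G.p0) j)) ∪ ((J.filter (fun j => ev (z.length - G.p0) j)) ∪
        (J.filter (fun j => ev (tm - G.p0) j))))
  have hu2 := Finset.card_union_le (J.filter (fun j => ev (t0 - G.p0) j))
    ((J.filter (fun j => ev (z.length - G.p0) j)) ∪ (J.filter (fun j => ev (tm - G.p0) j)))
  have hu3 := Finset.card_union_le (J.filter (fun j => ev (z.length - G.p0) j))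
    (J.filter (fun j => ev (tm - G.p0) j))
  have c1 := cardT (t0 - G.p0)
  have c2 := cardT (z.length - G.p0)
  have c3 := cardT (tm - G.p0)
  rw [hJ, Finset.card_range] at hc
  rw [hJ] at hu1 hu2 hu3 c1 c2 c3 cardE
  omega

/-- the data of scheme 2 -/
noncomputable def dat : Dat α S V where
  φ := G.φ
  act := G.act
  m := G.m
  K := G.K
  idx := G.idx
  Lf := G.Lf
  Rt := G.Rt
  lab := G.lab
  rlab := G.rlab
  nu := G.nu
  N := 3 * G.C0 + 1
  pl := G.pl
  hb := G.hb
  p0 := G.p0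
  D := G.D
  XX := G.U
  B := G.B
  idx_lt := G.idx_lt
  sound := G.sound
  compl := G.compl
  hb0 := by simp [hb]
  hbm := by
    unfold hb p0
    by_cases h : G.m = 0
    · exfalso
      obtain ⟨c, -⟩ := G.compl [] 0 (by simp [h])
      have := G.idx_lt c
      omega
    · rw [if_neg h, min_self]
  hbmono := G.hb_mono
  pl_pos := fun k j _ => lt_of_lt_of_le G.x_pos (G.x_mono.monotone (Nat.zero_le _))
  pl_lo := by
    intro k j hj
    unfold hb pl
    by_cases h : G.idx k = 0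
    · simp [h]
    · rw [if_neg h]
      apply G.x_mono.monotone
      have := G.idx_lt k
      rw [min_eq_left this.le]
      unfold ix; omega
  pl_hi := by
    intro k j hj
    unfold hb pl
    rw [if_neg (by omega)]
    apply G.x_mono.monotone
    have h1 := G.idx_lt k
    have h2 := G.in_L k hj
    rw [min_eq_left (by omega), Nat.add_mul]
    unfold ix; omega
  pl_inj := by
    intro k j k' j' hj hj' h
    exact (G.ix_inj hj hj' (G.x_mono.injective h)).1
  pc := G.U_pc
  loc := by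
    rintro z ⟨t0, hE⟩ y hy p' hp'
    have hz0 := G.hz0'
    have hE1 := hE.1.1
    have hE2 := hE.2.1
    have htl : (z.take y).length = y := by rw [List.length_take]; omega
    have hlen : (p' ++ z.drop y).length = z.length := by
      rw [List.length_append, List.length_drop, hp']; omega
    have tr : ∀ s, y + G.n ≤ s → (G.Wl (p' ++ z.drop y) s ↔ G.Wl z s) := by
      intro s hs
      rw [G.Wl_app _ _ _ (by omega)]
      have := G.Wl_app (z.take y) (z.drop y) s (by omega)
      rw [List.take_append_drop, htl] at this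
      rw [this, hp']
    refine ⟨t0, ⟨hE.1.1, (tr _ (by omega)).2 hE.1.2.1, ?_⟩, by omega, ?_, ?_⟩
    · intro s hs hst hw
      exact hE.1.2.2 s hs hst ((tr _ (by omega)).1 hw)
    · rw [hlen, tr _ (by omega)]; exact hE.2.2.1
    · intro s hs hst hw
      rw [hlen] at hst
      exact hE.2.2.2 s hs hst ((tr _ (by omega)).1 hw)
  BX := fun z hz => hz.1
  len := by
    rintro z ⟨t0, hE⟩
    have hz0 := G.hz0'
    have hE1 := hE.1.1
    have hE2 := hE.2.1
    omega
  amb := G.amb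

end Base

end Crest.Agent.R320.Full_952
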