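import Mathlib

/-!
# Row 320, NAMES (942 #12598 (1), 755 #12640 (A) (B), 811 #12631 (2))

Name agreement without a promise.  Left clock `o`, right clock `o'`, `T = o + o'` unknown to both
sides.  `K` names, two moduli `q c`, `q' c` per name, `t` further odd moduli `m j`.
-/

namespace Crest.Agent.R320.Names_101

/-- the two half sets of the nonzero residues of an odd modulus -/
def half (m : ℕ) (e : Bool) (x : ℤ) : Prop :=
  if e then 0 < x % (m : ℤ) ∧ 2 * (x % (m : ℤ)) < m else (m : ℤ) < 2 * (x % (m : ℤ))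

theorem half_not_dvd {m : ℕ} {e : Bool} {x : ℤ} (h : half m e x) : ¬ ((m : ℤ) ∣ x) := by
  intro hd
  have h0 : x % (m : ℤ) = 0 := Int.emod_eq_zero_of_dvd hd
  cases e
  · simp only [half, h0] at h
    simp at h
    omega
  · simp only [half, h0] at h
    simp at h

theorem half_unique {m : ℕ} {e f : Bool} {x : ℤ} (h : half m e x) (h' : half m f x) : e = f := by
  cases e <;> cases f <;> simp only [half] at h h' <;> simp at h h' ⊢ <;> omega

theorem half_add {m : ℕ} {e : Bool} {x y : ℤ} (hm : 0 < m) (h : half m e x) (h' : half m e y) :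
    ¬ ((m : ℤ) ∣ x + y) := by
  intro hd
  have hm' : (0 : ℤ) < m := by exact_mod_cast hm
  have h1 : (m : ℤ) ∣ x % (m : ℤ) + y % (m : ℤ) := by
    have : (x % (m : ℤ) + y % (m : ℤ)) = (x + y) - (m : ℤ) * (x / m) - (m : ℤ) * (y / m) := by
      have e1 := Int.emod_add_mul_ediv x (m : ℤ)
      have e2 := Int.emod_add_mul_ediv y (m : ℤ)
      linarith
    rw [this]
    exact ((hd.sub (Dvd.intro _ rfl)).sub (Dvd.intro _ rfl))
  have hx : x % (m : ℤ) < m := Int.emod_lt_of_pos x hm'
  have hy : y % (m : ℤ) < m := Int.emod_lt_of_pos y hm'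
  obtain ⟨k, hk⟩ := h1
  cases e
  · simp only [half] at h h'
    simp at h h'
    have hk1 : (m : ℤ) * 1 < m * k := by linarith
    have hk2 : (m : ℤ) * k < m * 2 := by linarith
    have a1 := lt_of_mul_lt_mul_left hk1 hm'.le
    have a2 := lt_of_mul_lt_mul_left hk2 hm'.le
    omega
  · simp only [half] at h h'
    simp at h h'
    have hk1 : (m : ℤ) * 0 < m * k := by linarith
    have hk2 : (m : ℤ) * k < m * 1 := by linarith
    have a1 := lt_of_mul_lt_mul_left hk1 hm'.le
    have a2 := lt_of_mul_lt_mul_left hk2 hm'.le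
    omega

theorem half_congr {m : ℕ} {e : Bool} {x y : ℤ} (hd : (m : ℤ) ∣ x - y) (h : half m e x) :
    half m e y := by
  have : x % (m : ℤ) = y % (m : ℤ) := by
    have := (Int.emod_emod_of_dvd x (dvd_refl (m : ℤ)))
    exact (Int.emod_emod_of_dvd x (dvd_refl (m : ℤ))).symm.trans
      (by rw [this]; exact (Int.emod_eq_emod_iff_emod_sub_eq_zero.mpr (Int.emod_eq_zero_of_dvd hd)))
  simpa only [half, this] using h

theorem half_total {m : ℕ} (ho : m % 2 = 1) {x : ℤ} (h : ¬ ((m : ℤ) ∣ x)) :
    ∃ e, half m e x := by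
  have hm : (0 : ℤ) < m := by omega
  have h0 : x % (m : ℤ) ≠ 0 := fun h0 => h (Int.dvd_of_emod_eq_zero h0)
  have h1 : 0 ≤ x % (m : ℤ) := Int.emod_nonneg x hm.ne'
  by_cases h2 : 2 * (x % (m : ℤ)) < m
  · refine ⟨true, ?_⟩
    simp only [half]
    simp
    omega
  · refine ⟨false, ?_⟩
    simp only [half]
    simp
    omega

/-- the data of a system of `K` names with `t` sign moduli -/
structure Data (K t : ℕ) where
  /-- first modulus of a name -/
  q : Fin K → ℕ
  /-- second modulus of a name -/
  q' : Fin K → ℕ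
  /-- sign moduli -/
  m : Fin t → ℕ
  /-- colour code of a name -/
  tau : Fin K → Fin t → Bool
  /-- family (sign vector) of a name -/
  eps : Fin K → Fin t → Bool

variable {K t : ℕ}

/-- all moduli in one family -/
def Data.mods (D : Data K t) : Fin K ⊕ Fin K ⊕ Fin t → ℕ :=
  Sum.elim D.q (Sum.elim D.q' D.m)

/-- type of a name at a sign modulus -/
def Data.typ (D : Data K t) (c : Fin K) (j : Fin t) : Bool := xor (D.tau c j) (D.eps c j)

/-- the left clock `o` shows the name `c` -/
def LN (D : Data K t) (o : ℤ) (c : Fin K) : Prop :=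
  (∀ l, if l = c then ((D.q l : ℤ) ∣ o ∧ ¬ (D.q' l : ℤ) ∣ o)
      else (¬ (D.q l : ℤ) ∣ o ∧ (D.q' l : ℤ) ∣ o)) ∧
  ∀ j, if D.typ c j then half (D.m j) (D.eps c j) o else (D.m j : ℤ) ∣ o

/-- the right clock `o'` shows the name `c` -/
def RN (D : Data K t) (o' : ℤ) (c : Fin K) : Prop :=
  (∀ l, if l = c then (¬ (D.q l : ℤ) ∣ o' ∧ (D.q' l : ℤ) ∣ o')
      else ((D.q l : ℤ) ∣ o' ∧ ¬ (D.q' l : ℤ) ∣ o')) ∧
  ∀ j, if D.typ c j then (D.m j : ℤ) ∣ o' else half (D.m j) (D.eps c j) o'

/-- `T` is a bad total: one of the name moduli divides it -/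
def BadT (D : Data K t) (T : ℤ) : Prop := ∃ l, (D.q l : ℤ) ∣ T ∨ (D.q' l : ℤ) ∣ T

/-- equal names: no name modulus divides the total -/
theorem same_not_bad (D : Data K t) {o o' : ℤ} {c : Fin K} (h : LN D o c) (h' : RN D o' c) :
    ∀ l, ¬ ((D.q l : ℤ) ∣ o + o') ∧ ¬ ((D.q' l : ℤ) ∣ o + o') := by
  intro l
  have h1 := h.1 l
  have h2 := h'.1 l
  by_cases hl : l = c
  · rw [if_pos hl] at h1 h2
    exact ⟨fun hd => h2.1 ((dvd_add_right h1.1).mp hd), fun hd => h1.2 ((dvd_add_left h2.2).mp hd)⟩
  · rw [if_neg hl] at h1 h2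
    exact ⟨fun hd => h1.1 ((dvd_add_left h2.1).mp hd), fun hd => h2.2 ((dvd_add_right h1.2).mp hd)⟩

/-- different names: exactly the two names concerned have a modulus which divides the total -/
theorem diff_bad (D : Data K t) {o o' : ℤ} {c c' : Fin K} (hne : c ≠ c') (h : LN D o c)
    (h' : RN D o' c') :
    (D.q c : ℤ) ∣ o + o' ∧ (D.q' c' : ℤ) ∣ o + o' ∧
      ∀ l, ((D.q l : ℤ) ∣ o + o' ∨ (D.q' l : ℤ) ∣ o + o') → l = c ∨ l = c' := by
  refine ⟨?_, ?_, ?_⟩
  · have h1 := h.1 c
    have h2 := h'.1 c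
    rw [if_pos rfl] at h1
    rw [if_neg hne] at h2
    exact dvd_add h1.1 h2.1
  · have h1 := h.1 c'
    have h2 := h'.1 c'
    rw [if_neg (Ne.symm hne)] at h1
    rw [if_pos rfl] at h2
    exact dvd_add h1.2 h2.2
  · intro l hl
    by_contra hcon
    push Not at hcon
    have h1 := h.1 l
    have h2 := h'.1 l
    rw [if_neg hcon.1] at h1
    rw [if_neg hcon.2] at h2
    rcases hl with hl | hl
    · exact h1.1 ((dvd_add_left h2.1).mp hl)
    · exact h2.2 ((dvd_add_right h1.2).mp hl)

/-- (N1) off the bad totals both sides show the same name -/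
theorem agree (D : Data K t) {o o' : ℤ} {c c' : Fin K} (h : LN D o c) (h' : RN D o' c')
    (hT : ¬ BadT D (o + o')) : c = c' := by
  by_contra hne
  exact hT ⟨c, Or.inl (diff_bad D hne h h').1⟩

/-- equal names: the total has the sign vector of the name -/
theorem same_sign (D : Data K t) {o o' : ℤ} {c : Fin K} (h : LN D o c) (h' : RN D o' c) :
    ∀ j, half (D.m j) (D.eps c j) (o + o') := by
  intro j
  have h1 := h.2 j
  have h2 := h'.2 j
  cases hty : D.typ c j
  · rw [hty] at h1 h2
    simp only [Bool.false_eq_true, if_false] at h1 h2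
    exact half_congr (by simpa using h1.neg_right) h2
  · rw [hty] at h1 h2
    simp only [if_true] at h1 h2
    exact half_congr (by simpa using h2.neg_right) h1

/-- (N3a) for a fixed total, one junction with equal names forces all junctions to have equal
names -/
theorem same_iff (D : Data K t) {o o' p p' : ℤ} {c c' d d' : Fin K} (h : LN D o c)
    (h' : RN D o' c') (g : LN D p d) (g' : RN D p' d') (hT : o + o' = p + p') :
    c = c' ↔ d = d' := by
  constructor
  · rintro rfl
    by_contra hne
    have := (diff_bad D hne g g').1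
    rw [← hT] at this
    exact (same_not_bad D h h' d).1 this
  · rintro rfl
    by_contra hne
    have := (diff_bad D hne h h').1
    rw [hT] at this
    exact (same_not_bad D g g' c).1 this

/-- (N3b) for a fixed total, the names of two junctions with equal names have the same family -/
theorem same_family (D : Data K t) {o o' p p' : ℤ} {c d : Fin K} (h : LN D o c)
    (h' : RN D o' c) (g : LN D p d) (g' : RN D p' d) (hT : o + o' = p + p') :
    D.eps c = D.eps d := by
  funext j
  have h1 := same_sign D h h' j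
  have h2 := same_sign D g g' j
  rw [hT] at h1
  exact half_unique h1 h2

/-- (N3c) both orders `(c|c')` and `(c'|c)` at the same total force equal colours -/
theorem swap_colour (D : Data K t) (hm : ∀ j, 0 < D.m j) {o o' p p' : ℤ} {c c' : Fin K}
    (h : LN D o c) (h' : RN D o' c') (g : LN D p c') (g' : RN D p' c)
    (hT : o + o' = p + p') : D.tau c = D.tau c' := by
  funext j
  have h1 := h.2 j
  have h2 := h'.2 j
  have g1 := g.2 j
  have g2 := g'.2 j
  have key : D.typ c j = D.typ c' j → D.eps c j = D.eps c' j := by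
    intro hty
    rw [← hty] at h2 g1
    cases hc : D.typ c j
    · rw [hc] at h1 h2 g1 g2
      simp only [Bool.false_eq_true, if_false] at h1 h2 g1 g2
      have e1 : half (D.m j) (D.eps c' j) (o + o') := half_congr (by simpa using h1.neg_right) h2
      have e2 : half (D.m j) (D.eps c j) (p + p') := half_congr (by simpa using g1.neg_right) g2
      rw [hT] at e1
      exact half_unique e2 e1
    · rw [hc] at h1 h2 g1 g2
      simp only [if_true] at h1 h2 g1 g2
      have e1 : half (D.m j) (D.eps c j) (o + o') := half_congr (by simpa using h2.neg_right) h1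
      have e2 : half (D.m j) (D.eps c' j) (p + p') := half_congr (by simpa using g2.neg_right) g1
      rw [hT] at e1
      exact half_unique e1 e2
  have key2 : D.typ c j ≠ D.typ c' j → D.eps c j ≠ D.eps c' j := by
    intro hty he
    cases hc : D.typ c j
    · have hc' : D.typ c' j = true := by
        cases h3 : D.typ c' j
        · exact absurd (hc.trans h3.symm) hty
        · rfl
      rw [hc] at h1 g2
      rw [hc'] at h2 g1
      simp only [Bool.false_eq_true, if_false, if_true] at h1 h2 g1 g2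
      have : (D.m j : ℤ) ∣ p + p' := by
        rw [← hT]
        exact dvd_add h1 h2
      rw [← he] at g1
      exact half_add (hm j) g1 g2 this
    · have hc' : D.typ c' j = false := by
        cases h3 : D.typ c' j
        · rfl
        · exact absurd (hc.trans h3.symm) hty
      rw [hc] at h1 g2
      rw [hc'] at h2 g1
      simp only [Bool.false_eq_true, if_false, if_true] at h1 h2 g1 g2
      have : (D.m j : ℤ) ∣ o + o' := by
        rw [hT]
        exact dvd_add g1 g2
      rw [← he] at h2
      exact half_add (hm j) h1 h2 this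
  by_contra hne
  by_cases he : D.eps c j = D.eps c' j
  · apply key2 _ he
    simp only [Data.typ, he]
    intro h3
    exact hne (by simpa using h3)
  · apply he
    apply key
    simp only [Data.typ]
    revert hne he
    cases D.tau c j <;> cases D.tau c' j <;> cases D.eps c j <;> cases D.eps c' j <;> simp

/-- (N3) all junctions with different names at one total show the same unordered pair of names,
and if both orders occur then the colours are equal -/
theorem pair_unique (D : Data K t) (hm : ∀ j, 0 < D.m j) {o o' p p' : ℤ} {c c' d d' : Fin K}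
    (hne : c ≠ c') (h : LN D o c) (h' : RN D o' c') (g : LN D p d) (g' : RN D p' d')
    (hT : o + o' = p + p') : (d = c ∧ d' = c') ∨ (d = c' ∧ d' = c ∧ D.tau c = D.tau c') := by
  have hne' : d ≠ d' := fun hd => hne ((same_iff D h h' g g' hT).mpr hd)
  obtain ⟨a1, a2, a3⟩ := diff_bad D hne h h'
  obtain ⟨b1, b2, b3⟩ := diff_bad D hne' g g'
  rw [← hT] at b1 b2 b3
  have hd := a3 d (Or.inl b1)
  have hd' := a3 d' (Or.inr b2)
  rcases hd with hd | hd <;> rcases hd' with hd' | hd'
  · exact absurd (hd.trans hd'.symm) hne'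
  · exact Or.inl ⟨hd, hd'⟩
  · refine Or.inr ⟨hd, hd', ?_⟩
    rw [hd] at g
    rw [hd'] at g'
    exact swap_colour D hm h h' g g' hT
  · exact absurd (hd.trans hd'.symm) hne'

/-- CRT with targets `0` and `T`, inside every interval of length `M = ∏ n i` -/
theorem crt {ι : Type*} [Fintype ι] [DecidableEq ι] (n : ι → ℕ) (hpos : ∀ i, 0 < n i)
    (hco : ∀ i j, i ≠ j → Nat.Coprime (n i) (n j)) (p : ι → Bool) (T x0 : ℤ) :
    ∃ o : ℤ, x0 ≤ o ∧ o < x0 + (∏ i, n i : ℕ) ∧
      ∀ i, if p i then (n i : ℤ) ∣ o else (n i : ℤ) ∣ T - o := by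
  classical
  set A : Finset ι := Finset.univ.filter (fun i => p i = true) with hA
  set B : Finset ι := Finset.univ.filter (fun i => ¬ p i = true) with hB
  have hcop : Nat.Coprime (∏ i ∈ A, n i) (∏ i ∈ B, n i) := by
    apply Nat.Coprime.prod_left
    intro i hi
    apply Nat.Coprime.prod_right
    intro j hj
    apply hco
    rintro rfl
    simp only [hA, hB, Finset.mem_filter, Finset.mem_univ, true_and] at hi hj
    exact hj hi
  have hprod : (∏ i ∈ A, n i) * (∏ i ∈ B, n i) = ∏ i, n i := by
    rw [hA, hB]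
    exact Finset.prod_filter_mul_prod_filter_not Finset.univ (fun i => p i = true) n
  have hco' : IsCoprime ((∏ i ∈ A, n i : ℕ) : ℤ) ((∏ i ∈ B, n i : ℕ) : ℤ) :=
    Nat.isCoprime_iff_coprime.mpr hcop
  obtain ⟨u, v, huv⟩ := hco'
  set M : ℤ := ((∏ i, n i : ℕ) : ℤ) with hM
  have hMpos : 0 < M := by
    rw [hM]
    exact_mod_cast Finset.prod_pos (fun i _ => hpos i)
  set o1 : ℤ := T * (u * ((∏ i ∈ A, n i : ℕ) : ℤ)) with ho1
  have hdM : M ∣ o1 - (x0 + (o1 - x0) % M) := by
    refine ⟨(o1 - x0) / M, ?_⟩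
    have := Int.emod_add_mul_ediv (o1 - x0) M
    linarith
  have hdiv : ∀ i, (n i : ℤ) ∣ M := by
    intro i
    rw [hM]
    exact_mod_cast Finset.dvd_prod_of_mem n (Finset.mem_univ i)
  refine ⟨x0 + (o1 - x0) % M, ?_, ?_, ?_⟩
  · have := Int.emod_nonneg (o1 - x0) hMpos.ne'
    linarith
  · have := Int.emod_lt_of_pos (o1 - x0) hMpos
    linarith
  · intro i
    have hi := (hdiv i).trans hdM
    by_cases hp : p i = true
    · rw [if_pos hp]
      have hiA : (n i : ℤ) ∣ ((∏ i ∈ A, n i : ℕ) : ℤ) := by
        exact_mod_cast Finset.dvd_prod_of_mem n (by simp [hA, hp])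
      have h1 : (n i : ℤ) ∣ o1 := by
        rw [ho1]
        exact (hiA.mul_left u).mul_left T
      have := (dvd_sub_right h1).mp hi
      exact this
    · rw [if_neg hp]
      have hiB : (n i : ℤ) ∣ ((∏ i ∈ B, n i : ℕ) : ℤ) := by
        exact_mod_cast Finset.dvd_prod_of_mem n (by simp [hB, hp])
      have h1 : (n i : ℤ) ∣ T - o1 := by
        have : T - o1 = T * (v * ((∏ i ∈ B, n i : ℕ) : ℤ)) := by
          rw [ho1]
          linear_combination T * huv.symm
        rw [this]
        exact (hiB.mul_left v).mul_left T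
      have h2 := dvd_add h1 hi
      simpa using h2

/-- (N4) for a good total every name of the right family is shown by both sides at one place of
every interval of length `M` -/
theorem exists_place (D : Data K t) (hpos : ∀ i, 0 < D.mods i)
    (hco : ∀ i j, i ≠ j → Nat.Coprime (D.mods i) (D.mods j)) {T : ℤ} (hT : ¬ BadT D T)
    (c : Fin K) (hs : ∀ j, half (D.m j) (D.eps c j) T) (x0 : ℤ) :
    ∃ o : ℤ, x0 ≤ o ∧ o < x0 + (∏ i, D.mods i : ℕ) ∧ LN D o c ∧ RN D (T - o) c := by
  classical
  -- target 0 at `q c`, at `q' l` for `l ≠ c`, at `m j` of type 0; target `T` elsewhere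
  let p : Fin K ⊕ Fin K ⊕ Fin t → Bool :=
    Sum.elim (fun l => decide (l = c)) (Sum.elim (fun l => decide (l ≠ c)) (fun j => ! D.typ c j))
  obtain ⟨o, ho1, ho2, ho⟩ := crt D.mods hpos hco p T x0
  have hq : ∀ l, ¬ (D.q l : ℤ) ∣ T := fun l hl => hT ⟨l, Or.inl hl⟩
  have hq' : ∀ l, ¬ (D.q' l : ℤ) ∣ T := fun l hl => hT ⟨l, Or.inr hl⟩
  have A0 : (D.q c : ℤ) ∣ o := by
    have := ho (Sum.inl c)
    simpa [p, Data.mods] using this
  have A1 : (D.q' c : ℤ) ∣ T - o := by
    have := ho (Sum.inr (Sum.inl c))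
    simpa [p, Data.mods] using this
  have B0 : ∀ l, l ≠ c → (D.q l : ℤ) ∣ T - o := by
    intro l hl
    have := ho (Sum.inl l)
    simpa [p, Data.mods, hl] using this
  have B1 : ∀ l, l ≠ c → (D.q' l : ℤ) ∣ o := by
    intro l hl
    have := ho (Sum.inr (Sum.inl l))
    simpa [p, Data.mods, hl] using this
  have C0 : ∀ j, D.typ c j = false → (D.m j : ℤ) ∣ o := by
    intro j hj
    have := ho (Sum.inr (Sum.inr j))
    simpa [p, Data.mods, hj] using this
  have C1 : ∀ j, D.typ c j = true → (D.m j : ℤ) ∣ T - o := by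
    intro j hj
    have := ho (Sum.inr (Sum.inr j))
    simpa [p, Data.mods, hj] using this
  refine ⟨o, ho1, ho2, ⟨?_, ?_⟩, ?_, ?_⟩
  · intro l
    by_cases hl : l = c
    · subst hl
      rw [if_pos rfl]
      exact ⟨A0, fun h => hq' l (by simpa using dvd_add A1 h)⟩
    · rw [if_neg hl]
      exact ⟨fun h => hq l (by simpa using dvd_add (B0 l hl) h), B1 l hl⟩
  · intro j
    cases hj : D.typ c j
    · simpa using C0 j hj
    · simp only [if_true]
      exact half_congr (C1 j hj) (hs j)
  · intro l
    by_cases hl : l = c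
    · subst hl
      rw [if_pos rfl]
      exact ⟨fun h => hq l (by simpa using dvd_add h A0), A1⟩
    · rw [if_neg hl]
      exact ⟨B0 l hl, fun h => hq' l (by simpa using dvd_add h (B1 l hl))⟩
  · intro j
    cases hj : D.typ c j
    · simp only [Bool.false_eq_true, if_false]
      exact half_congr (by simpa using C0 j hj) (hs j)
    · simpa using C1 j hj

/-- (N5) such moduli exist above any bound (distinct odd primes) -/
theorem exists_data (K t R : ℕ) (tau eps : Fin K → Fin t → Bool) :
    ∃ D : Data K t, D.tau = tau ∧ D.eps = eps ∧ (∀ i, R ≤ D.mods i) ∧ (∀ i, 0 < D.mods i) ∧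
      (∀ i, D.mods i % 2 = 1) ∧ (∀ i, (D.mods i).Prime) ∧
      (∀ i j, i ≠ j → Nat.Coprime (D.mods i) (D.mods j)) := by
  classical
  let f : ℕ → ℕ := fun k => Nat.nth Nat.Prime (R + 3 + k)
  have hf : ∀ k, (f k).Prime := fun k => Nat.prime_nth_prime _
  have hmono : StrictMono (Nat.nth Nat.Prime) := Nat.nth_strictMono Nat.infinite_setOfPred_prime
  have hge : ∀ k, R + 3 + k ≤ f k := fun k => hmono.le_apply
  have hinj : Function.Injective f := by
    intro a b hab
    have := hmono.injective hab
    omega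
  let g : Fin K ⊕ Fin K ⊕ Fin t → ℕ :=
    Sum.elim (fun l => 3 * l.1) (Sum.elim (fun l => 3 * l.1 + 1) (fun j => 3 * j.1 + 2))
  have hg : Function.Injective g := by
    rintro (a | a | a) (b | b | b) hab <;> simp [g] at hab ⊢ <;> omega
  refine ⟨⟨fun l => f (3 * l.1), fun l => f (3 * l.1 + 1), fun j => f (3 * j.1 + 2), tau, eps⟩,
    rfl, rfl, ?_⟩
  have hmods : ∀ i, Data.mods (K := K) (t := t) ⟨fun l => f (3 * l.1), fun l => f (3 * l.1 + 1),
      fun j => f (3 * j.1 + 2), tau, eps⟩ i = f (g i) := by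
    rintro (a | a | a) <;> rfl
  refine ⟨?_, ?_, ?_, ?_, ?_⟩
  · intro i
    rw [hmods]
    have := hge (g i)
    omega
  · intro i
    rw [hmods]
    exact (hf _).pos
  · intro i
    rw [hmods]
    have h3 := hge (g i)
    rcases (hf (g i)).eq_two_or_odd with h | h
    · omega
    · exact h
  · intro i
    rw [hmods]
    exact hf _
  · intro i j hij
    rw [hmods, hmods]
    exact (Nat.coprime_primes (hf _) (hf _)).mpr (fun h => hij (hg (hinj h)))

/-- the sign vector of a total which no (odd) sign modulus divides -/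
theorem exists_sign (D : Data K t) (hodd : ∀ j, D.m j % 2 = 1) {T : ℤ}
    (hT : ∀ j, ¬ ((D.m j : ℤ) ∣ T)) : ∃ s : Fin t → Bool, ∀ j, half (D.m j) (s j) T := by
  choose s hs using fun j => half_total (hodd j) (hT j)
  exact ⟨s, hs⟩

/-- natural-number form of `exists_place` -/
theorem exists_place_nat (D : Data K t) (hpos : ∀ i, 0 < D.mods i)
    (hco : ∀ i j, i ≠ j → Nat.Coprime (D.mods i) (D.mods j)) {T : ℕ} (hT : ¬ BadT D T)
    (c : Fin K) (hs : ∀ j, half (D.m j) (D.eps c j) T) (x0 : ℕ) (hx : x0 + ∏ i, D.mods i ≤ T) :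
    ∃ o o' : ℕ, x0 ≤ o ∧ o < x0 + ∏ i, D.mods i ∧ o + o' = T ∧ LN D o c ∧ RN D o' c := by
  obtain ⟨o, h1, h2, h3, h4⟩ := exists_place D hpos hco hT c hs x0
  obtain ⟨n, rfl⟩ : ∃ n : ℕ, o = n := ⟨o.toNat, by omega⟩
  have h5 : n < x0 + ∏ i, D.mods i := by exact_mod_cast h2
  refine ⟨n, T - n, by exact_mod_cast h1, h5, by omega, h3, ?_⟩
  have : ((T - n : ℕ) : ℤ) = (T : ℤ) - n := by
    push_cast [show n ≤ T by omega]
    ring
  rw [this]
  exact h4

/-- the value which the noise must take is well defined: if the right label of a name depends only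
on its colour (`tau` injective on colours), then all junctions of one total and one content
prescribe the same noise.  `val c c'` = value prescribed by a junction `(c|c')`; it is assumed to
depend on the colours only. -/
theorem noise_well_defined {β : Type*} (D : Data K t) (hm : ∀ j, 0 < D.m j)
    (val : (Fin t → Bool) → (Fin t → Bool) → β) {o o' p p' : ℤ} {c c' d d' : Fin K}
    (hne : c ≠ c') (h : LN D o c) (h' : RN D o' c') (g : LN D p d) (g' : RN D p' d')
    (hT : o + o' = p + p') :
    val (D.tau c) (D.tau c') = val (D.tau d) (D.tau d') := by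
  rcases pair_unique D hm hne h h' g g' hT with ⟨rfl, rfl⟩ | ⟨rfl, rfl, h3⟩
  · rfl
  · rw [h3]

end Crest.Agent.R320.Names_101
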