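import Mathlib
import Crest.Agent.R320.RandF_808
import Crest.Agent.R320.Names_101

/-!
# Row 320, the gadget of scheme 1 (811 #12631 (1)(2), 755 #12640 (C), 132 #12664 (5)), level form

`m` fixed levels, a junction of level `i` splits the zone types into `pre i | z i | suf i`.
The clocks are only used through the names of `Names_101`.  Sound for ALL totals `T`, complete for
all totals which no modulus divides.
-/

set_option autoImplicit false

namespace Crest.Agent.R320.Gad1_101

open Crest.Agent.R320.Names_101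

/-- the types of a zone as seen from the levels: at level `i` the left side knows
`pre i` (product, weight), the right side `suf i`, nobody reads `zt i` -/
structure ZoneT (S W : Type*) [Monoid S] [AddCommGroup W] (m : ℕ) (e : ℕ → S → W)
    (s : S) (w : W) where
  pre : ℕ → S × W
  zt : ℕ → S
  suf : ℕ → S × W
  prod_eq : ∀ i < m, (pre i).1 * zt i * (suf i).1 = s
  wt_eq : ∀ i < m, (pre i).2 + e i (zt i) + (suf i).2 = w

/-- output data of the gadget -/
structure Gad (S V : Type*) where
  /-- number of levels -/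
  m : ℕ
  /-- weight modulus -/
  N : ℕ
  /-- weights -/
  e : ℕ → S → ZMod N × ZMod N
  /-- number of names -/
  K : ℕ
  /-- number of sign moduli -/
  t : ℕ
  tau : Fin K → Fin t → Bool
  eps : Fin K → Fin t → Bool
  /-- level of a name -/
  lev : Fin K → ℕ
  /-- left data of a name -/
  pl : Fin K → S × (ZMod N × ZMod N)
  /-- right data of a name -/
  pr : Fin K → S × (ZMod N × ZMod N)
  /-- left label (the token which is cut) -/
  lv : Fin K → V
  /-- right label -/
  rb : Fin K → V
  /-- the name is used at all -/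
  ok : Fin K → Prop

/-- a system of moduli fits the gadget -/
structure Fits {S V : Type*} (G : Gad S V) (D : Data G.K G.t) : Prop where
  tau : D.tau = G.tau
  eps : D.eps = G.eps
  pos : ∀ i, 0 < D.mods i
  odd : ∀ j, D.m j % 2 = 1
  cop : ∀ i j, i ≠ j → Nat.Coprime (D.mods i) (D.mods j)

/-- no modulus divides the total -/
def GoodT {K t : ℕ} (D : Data K t) (T : ℤ) : Prop :=
  (∀ l, ¬ (D.q l : ℤ) ∣ T) ∧ (∀ l, ¬ (D.q' l : ℤ) ∣ T) ∧ ∀ j, ¬ (D.m j : ℤ) ∣ T

/-- there is a fitting system of moduli above every bound -/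
theorem exists_fits {S V : Type*} (G : Gad S V) (R : ℕ) :
    ∃ D : Data G.K G.t, Fits G D ∧ (∀ i, R ≤ D.mods i) ∧ (∀ i, (D.mods i).Prime) := by
  obtain ⟨D, h1, h2, h3, h4, h5, h6, h7⟩ := exists_data G.K G.t R G.tau G.eps
  exact ⟨D, ⟨h1, h2, h4, fun j => h5 (Sum.inr (Sum.inr j)), h7⟩, h3, h6⟩

/-- **Gadget of scheme 1.** -/
theorem exists_gad (S V : Type*) [Monoid S] [Finite S] [AddCommGroup V] [Finite V]
    (act : V → S → V) :
    ∃ G : Gad S V, 0 < G.N ∧ (∀ c, G.ok c → G.lev c < G.m) ∧
      ∀ D : Data G.K G.t, Fits G D →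
        ∃ nu : ℤ → S → (ZMod G.N × ZMod G.N) → V,
          -- SOUND, all totals
          (∀ (s : S) (w : ZMod G.N × ZMod G.N) (Z : ZoneT S (ZMod G.N × ZMod G.N) G.m G.e s w)
            (o o' : ℤ) (c c' : Fin G.K), G.ok c → G.ok c' → LN D o c → RN D o' c' →
            Z.pre (G.lev c) = G.pl c → Z.suf (G.lev c') = G.pr c' →
            G.rb c' = act (G.lv c) s + nu (o + o') s w) ∧
          -- COMPLETE, good totals
          (∀ (s : S) (w : ZMod G.N × ZMod G.N) (Z : ZoneT S (ZMod G.N × ZMod G.N) G.m G.e s w)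
            (T : ℤ), GoodT D T → ∀ v : V, ∃ c : Fin G.K, G.ok c ∧ G.lv c = v ∧
              Z.pre (G.lev c) = G.pl c ∧ Z.suf (G.lev c) = G.pr c ∧
              ∀ x0 : ℤ, ∃ o : ℤ, x0 ≤ o ∧ o < x0 + (∏ i, D.mods i : ℕ) ∧ LN D o c ∧
                RN D (T - o) c) := by
  classical
  cases nonempty_fintype S
  cases nonempty_fintype V
  obtain ⟨m, N, e, F, hN, hF⟩ := RandF808.exists_noise S V act
  have : NeZero N := ⟨by omega⟩
  -- colours
  set t : ℕ := Fintype.card (V × V) with ht
  let code : V × V → Fin t → Bool := fun p j => decide (j = Fintype.equivFin (V × V) p)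
  have hcode : Function.Injective code := by
    intro a b hab
    have h1 := congrFun hab (Fintype.equivFin (V × V) a)
    simp only [code, decide_true] at h1
    have h2 : Fintype.equivFin (V × V) a = Fintype.equivFin (V × V) b := by
      simpa using h1.symm
    exact (Fintype.equivFin (V × V)).injective h2
  let Nm : Type _ := Fin m × (S × (ZMod N × ZMod N)) × (S × (ZMod N × ZMod N)) × V × (Fin t → Bool)
  let K : ℕ := Fintype.card Nm
  let E : Fin K ≃ Nm := (Fintype.equivFin Nm).symm
  let bb : Nm → S → V := fun c z =>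
    F (c.2.1.1 * z * c.2.2.1.1) (c.2.1.2 + e c.1 z + c.2.2.1.2) +
      act c.2.2.2.1 (c.2.1.1 * z * c.2.2.1.1)
  let okN : Nm → Prop := fun c => ∀ z, bb c z = bb c 1
  let G : Gad S V :=
    { m := m, N := N, e := e, K := K, t := t
      tau := fun c => code ((E c).2.2.2.1, bb (E c) 1)
      eps := fun c => (E c).2.2.2.2
      lev := fun c => ((E c).1 : ℕ)
      pl := fun c => (E c).2.1
      pr := fun c => (E c).2.2.1
      lv := fun c => (E c).2.2.2.1
      rb := fun c => bb (E c) 1
      ok := fun c => okN (E c) }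
  refine ⟨G, hN, fun c _ => (E c).1.2, ?_⟩
  intro D hD
  let Bp : ℤ → Fin G.K → Fin G.K → Prop := fun T c c' =>
    c ≠ c' ∧ ∃ o o' : ℤ, o + o' = T ∧ LN D o c ∧ RN D o' c'
  let nu : ℤ → S → (ZMod N × ZMod N) → V := fun T s w =>
    if h : ∃ p : Fin G.K × Fin G.K, Bp T p.1 p.2 then
      G.rb h.choose.2 - act (G.lv h.choose.1) s
    else F s w
  have hmpos : ∀ j, 0 < D.m j := fun j => hD.pos (Sum.inr (Sum.inr j))
  refine ⟨nu, ?_, ?_⟩
  · intro s w Z o o' c c' hc hc' hL hR hpre hsuf
    by_cases hcc : c = c'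
    · subst hcc
      have hno : ¬ ∃ p : Fin G.K × Fin G.K, Bp (o + o') p.1 p.2 := by
        rintro ⟨⟨d, d'⟩, hdd, p, p', hpp, hl, hr⟩
        exact hdd ((same_iff D hL hR hl hr hpp.symm).mp rfl)
      have hnu : nu (o + o') s w = F s w := dif_neg hno
      rw [hnu]
      have h1 := Z.prod_eq (G.lev c) (E c).1.2
      have h2 := Z.wt_eq (G.lev c) (E c).1.2
      rw [hpre, hsuf] at h1 h2
      have h3 := hc (Z.zt (G.lev c))
      have h4 : bb (E c) (Z.zt (G.lev c)) = F s w + act (G.lv c) s := by
        show F ((E c).2.1.1 * Z.zt (G.lev c) * (E c).2.2.1.1)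
          ((E c).2.1.2 + e (E c).1 (Z.zt (G.lev c)) + (E c).2.2.1.2) + _ = _
        have h1' : (E c).2.1.1 * Z.zt (G.lev c) * (E c).2.2.1.1 = s := h1
        have h2' : (E c).2.1.2 + e (E c).1 (Z.zt (G.lev c)) + (E c).2.2.1.2 = w := h2
        rw [h2', h1']
      show bb (E c) 1 = _
      rw [← h3, h4, add_comm]
    · have hex : ∃ p : Fin G.K × Fin G.K, Bp (o + o') p.1 p.2 :=
        ⟨(c, c'), hcc, o, o', rfl, hL, hR⟩
      have hnu : nu (o + o') s w = G.rb hex.choose.2 - act (G.lv hex.choose.1) s := dif_pos hex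
      rw [hnu]
      obtain ⟨hne, p, p', hpp, hl, hr⟩ := hex.choose_spec
      rcases pair_unique D hmpos hcc hL hR hl hr hpp.symm with ⟨h1, h2⟩ | ⟨h1, h2, h3⟩
      · rw [h1, h2]
        abel
      · rw [h1, h2]
        rw [hD.tau] at h3
        have h4 := hcode h3
        have h5 : G.lv c = G.lv c' := congrArg (fun p : V × V => p.1) h4
        have h6 : G.rb c = G.rb c' := congrArg (fun p : V × V => p.2) h4
        rw [h5, h6]
        abel
  · intro s w Z T hT v
    obtain ⟨sg, hsg⟩ := exists_sign D hD.odd hT.2.2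
    obtain ⟨i, hi, hgood⟩ := hF s w v
    let c0 : Nm := (⟨i, hi⟩, Z.pre i, Z.suf i, v, sg)
    let c : Fin G.K := E.symm c0
    have hEc : E c = c0 := E.apply_symm_apply c0
    have h1 := Z.prod_eq i hi
    have h2 := Z.wt_eq i hi
    have hall : ∀ z, bb c0 z = F s w + act v s := by
      intro z
      have h3 := hgood _ _ _ h1 z
      show F ((Z.pre i).1 * z * (Z.suf i).1) ((Z.pre i).2 + e i z + (Z.suf i).2) +
        act v ((Z.pre i).1 * z * (Z.suf i).1) = _
      rw [← h3]
      congr 2
      linear_combination h2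
    have hok : G.ok c := by
      show okN (E c)
      rw [hEc]
      intro z
      rw [hall z, hall 1]
    refine ⟨c, hok, ?_, ?_, ?_, ?_⟩
    · show (E c).2.2.2.1 = v
      rw [hEc]
    · show Z.pre ((E c).1 : ℕ) = (E c).2.1
      rw [hEc]
    · show Z.suf ((E c).1 : ℕ) = (E c).2.2.1
      rw [hEc]
    · intro x0
      have hb : ¬ BadT D T := by
        rintro ⟨l, hl | hl⟩
        · exact hT.1 l hl
        · exact hT.2.1 l hl
      apply exists_place D hD.pos hD.cop hb c _ x0
      intro j
      have : D.eps c = sg := by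
        rw [hD.eps]
        show (E c).2.2.2.2 = sg
        rw [hEc]
      rw [this]
      exact hsg j

end Crest.Agent.R320.Gad1_101
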