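import Mathlib
import Crest.Agent.R320.RandF_808
import Crest.Agent.R320.Names_101
import Crest.Agent.R320.Gad1_101
import Crest.Agent.R320.WallSch_870

/-!
# Row 320, scheme 1 of 132 #12664 in word form (CORE-2 and CORE-3)

`Y` = text from the place `a + p0`.  `Ro` outer wall rule, `Rs` small wall rule (right-looking).
-/

set_option autoImplicit false

namespace Crest.Agent.R320.G1_101

open Crest.Agent.R320.Names_101 Crest.Agent.R320.Gad1_101 Crest.Agent.R320.WallSch_870

/-- the gadget with the hypotheses in the weakest form -/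
theorem exists_gad2 (S V : Type*) [Monoid S] [Finite S] [AddCommGroup V] [Finite V]
    (act : V → S → V) :
    ∃ G : Gad S V, 0 < G.N ∧ (∀ c, G.lev c < G.m) ∧
      ∀ D : Data G.K G.t, Fits G D →
        ∃ nu : ℤ → S → (ZMod G.N × ZMod G.N) → V,
          (∀ (s : S) (w : ZMod G.N × ZMod G.N)
            (o o' : ℤ) (c c' : Fin G.K), G.ok c → G.ok c' → LN D o c → RN D o' c' →
            (c = c' → ∃ x, (G.pl c).1 * x * (G.pr c).1 = s ∧
              (G.pl c).2 + G.e (G.lev c) x + (G.pr c).2 = w) →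
            G.rb c' = act (G.lv c) s + nu (o + o') s w) ∧
          (∀ (s : S) (w : ZMod G.N × ZMod G.N) (pre suf : ℕ → S × (ZMod G.N × ZMod G.N))
            (zt : ℕ → S), (∀ i < G.m, (pre i).1 * zt i * (suf i).1 = s) →
            (∀ i < G.m, (pre i).2 + G.e i (zt i) + (suf i).2 = w) →
            ∀ T : ℤ, GoodT D T → ∀ v : V, ∃ c : Fin G.K, G.ok c ∧ G.lv c = v ∧
              pre (G.lev c) = G.pl c ∧ suf (G.lev c) = G.pr c ∧
              ∀ x0 : ℤ, ∃ o : ℤ, x0 ≤ o ∧ o < x0 + (∏ i, D.mods i : ℕ) ∧ LN D o c ∧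
                RN D (T - o) c) := by
  classical
  cases nonempty_fintype S
  cases nonempty_fintype V
  obtain ⟨m, N, e, F, hN, hF⟩ := RandF808.exists_noise S V act
  have : NeZero N := ⟨by omega⟩
  -- colours
  set t : ℕ := Fintype.card (V × V) with ht
  let code : V × V → Fin t → Bool := fun p j => decide (j = Fintype.equivFin (V × V) p)
  have hcode : Function.Injective code := by
    intro a b hab
    have h1 := congrFun hab (Fintype.equivFin (V × V) a)
    simp only [code, decide_true] at h1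
    have h2 : Fintype.equivFin (V × V) a = Fintype.equivFin (V × V) b := by
      simpa using h1.symm
    exact (Fintype.equivFin (V × V)).injective h2
  let Nm : Type _ := Fin m × (S × (ZMod N × ZMod N)) × (S × (ZMod N × ZMod N)) × V × (Fin t → Bool)
  let K : ℕ := Fintype.card Nm
  let E : Fin K ≃ Nm := (Fintype.equivFin Nm).symm
  let bb : Nm → S → V := fun c z =>
    F (c.2.1.1 * z * c.2.2.1.1) (c.2.1.2 + e c.1 z + c.2.2.1.2) +
      act c.2.2.2.1 (c.2.1.1 * z * c.2.2.1.1)
  let okN : Nm → Prop := fun c => ∀ z, bb c z = bb c 1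
  let G : Gad S V :=
    { m := m, N := N, e := e, K := K, t := t
      tau := fun c => code ((E c).2.2.2.1, bb (E c) 1)
      eps := fun c => (E c).2.2.2.2
      lev := fun c => ((E c).1 : ℕ)
      pl := fun c => (E c).2.1
      pr := fun c => (E c).2.2.1
      lv := fun c => (E c).2.2.2.1
      rb := fun c => bb (E c) 1
      ok := fun c => okN (E c) }
  refine ⟨G, hN, fun c => (E c).1.2, ?_⟩
  intro D hD
  let Bp : ℤ → Fin G.K → Fin G.K → Prop := fun T c c' =>
    c ≠ c' ∧ ∃ o o' : ℤ, o + o' = T ∧ LN D o c ∧ RN D o' c'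
  let nu : ℤ → S → (ZMod N × ZMod N) → V := fun T s w =>
    if h : ∃ p : Fin G.K × Fin G.K, Bp T p.1 p.2 then
      G.rb h.choose.2 - act (G.lv h.choose.1) s
    else F s w
  have hmpos : ∀ j, 0 < D.m j := fun j => hD.pos (Sum.inr (Sum.inr j))
  refine ⟨nu, ?_, ?_⟩
  · intro s w o o' c c' hc hc' hL hR hdat
    by_cases hcc : c = c'
    · obtain ⟨x, h1, h2⟩ := hdat hcc
      subst hcc
      have hno : ¬ ∃ p : Fin G.K × Fin G.K, Bp (o + o') p.1 p.2 := by
        rintro ⟨⟨d, d'⟩, hdd, p, p', hpp, hl, hr⟩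
        exact hdd ((same_iff D hL hR hl hr hpp.symm).mp rfl)
      have hnu : nu (o + o') s w = F s w := dif_neg hno
      rw [hnu]
      have h3 := hc x
      have h4 : bb (E c) x = F s w + act (G.lv c) s := by
        show F ((E c).2.1.1 * x * (E c).2.2.1.1)
          ((E c).2.1.2 + e (E c).1 x + (E c).2.2.1.2) + _ = _
        have h1' : (E c).2.1.1 * x * (E c).2.2.1.1 = s := h1
        have h2' : (E c).2.1.2 + e (E c).1 x + (E c).2.2.1.2 = w := h2
        rw [h2', h1']
      show bb (E c) 1 = _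
      rw [← h3, h4, add_comm]
    · have hex : ∃ p : Fin G.K × Fin G.K, Bp (o + o') p.1 p.2 :=
        ⟨(c, c'), hcc, o, o', rfl, hL, hR⟩
      have hnu : nu (o + o') s w = G.rb hex.choose.2 - act (G.lv hex.choose.1) s := dif_pos hex
      rw [hnu]
      obtain ⟨hne, p, p', hpp, hl, hr⟩ := hex.choose_spec
      rcases pair_unique D hmpos hcc hL hR hl hr hpp.symm with ⟨h1, h2⟩ | ⟨h1, h2, h3⟩
      · rw [h1, h2]
        abel
      · rw [h1, h2]
        rw [hD.tau] at h3
        have h4 := hcode h3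
        have h5 : G.lv c = G.lv c' := congrArg (fun p : V × V => p.1) h4
        have h6 : G.rb c = G.rb c' := congrArg (fun p : V × V => p.2) h4
        rw [h5, h6]
        abel
  · intro s w pre suf zt hprod hwt T hT v
    obtain ⟨sg, hsg⟩ := exists_sign D hD.odd hT.2.2
    obtain ⟨i, hi, hgood⟩ := hF s w v
    let c0 : Nm := (⟨i, hi⟩, pre i, suf i, v, sg)
    let c : Fin G.K := E.symm c0
    have hEc : E c = c0 := E.apply_symm_apply c0
    have h1 := hprod i hi
    have h2 := hwt i hi
    have hall : ∀ z, bb c0 z = F s w + act v s := by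
      intro z
      have h3 := hgood _ _ _ h1 z
      show F ((pre i).1 * z * (suf i).1) ((pre i).2 + e i z + (suf i).2) +
        act v ((pre i).1 * z * (suf i).1) = _
      rw [← h3]
      congr 2
      linear_combination h2
    have hok : G.ok c := by
      show okN (E c)
      rw [hEc]
      intro z
      rw [hall z, hall 1]
    refine ⟨c, hok, ?_, ?_, ?_, ?_⟩
    · show (E c).2.2.2.1 = v
      rw [hEc]
    · show pre ((E c).1 : ℕ) = (E c).2.1
      rw [hEc]
    · show suf ((E c).1 : ℕ) = (E c).2.2.1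
      rw [hEc]
    · intro x0
      have hb : ¬ BadT D T := by
        rintro ⟨l, hl | hl⟩
        · exact hT.1 l hl
        · exact hT.2.1 l hl
      apply exists_place D hD.pos hD.cop hb c _ x0
      intro j
      have : D.eps c = sg := by
        rw [hD.eps]
        show (E c).2.2.2.2 = sg
        rw [hEc]
      rw [this]
      exact hsg j

section word

variable {α S V : Type*} [Monoid S]

/-- value of a word -/
def val (φ : α → S) (u : List α) : S := (u.map φ).prod

theorem val_append (φ : α → S) (u v : List α) : val φ (u ++ v) = val φ u * val φ v := by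
  simp [val]

/-- geometry of scheme 1: `A k` level starts, `Cs k` cell starts (in units of the comb `M'`),
`M` cell length -/
structure Geo where
  /-- comb -/
  M' : ℕ
  /-- cell length in comb units -/
  M : ℕ
  /-- level starts (letters) -/
  A : ℕ → ℕ
  /-- cell starts (comb units) -/
  Cs : ℕ → ℕ
  /-- last comb place of the window -/
  Om : ℕ
  /-- window of the small wall rule -/
  ns : ℕ

/-- places of the window -/
def Geo.win (g : Geo) (o : ℕ) : Prop := ∃ om, om ≤ g.Om ∧ o = g.M' * om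

/-- places of the cell of level `k` -/
def Geo.cell (g : Geo) (k o : ℕ) : Prop := ∃ om, g.Cs k ≤ om ∧ om < g.Cs k + g.M ∧ o = g.M' * om

/-- a wall at distance `s` counts for level `k` -/
def Geo.okA (g : Geo) (k : ℕ) (s : ℕ) : Prop := g.A k ≤ s

/-- the parameters fit (`m` levels) -/
structure Geo.Fine (g : Geo) (m : ℕ) : Prop where
  pos : 0 < g.M'
  mono : ∀ k, g.A k ≤ g.A (k + 1)
  sep : ∀ k < m, ∀ o, g.cell k o → ∀ j, k < j → o < g.A j
  inwin : ∀ k < m, ∀ om, g.Cs k ≤ om → om < g.Cs k + g.M → om ≤ g.Om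
  nspos : 0 < g.ns

variable (g : Geo) (φ : α → S) (Rs Ro : List α → Prop) (Ok : ℕ → Prop)
variable (G : Gad S V) (D : Data G.K G.t)

/-- block between two places -/
def blk (u : List α) (i j : ℕ) : List α := (u.take j).drop i

/-- left-legal: `P` = text from `a + p0` to the junction, `v` = token at `a + p0` -/
def L1P (P : List α) (v : V) : Prop :=
  ∃ (c : Fin G.K) (om : ℕ) (hs : ℕ → ℕ), G.ok c ∧ G.lv c = v ∧ LN D (om : ℤ) c ∧
    g.Cs (G.lev c) ≤ om ∧ om < g.Cs (G.lev c) + g.M ∧ P.length = g.M' * om ∧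
    (∀ j ≤ G.lev c, Nx Rs (g.okA j) P (hs j)) ∧
    G.pl c = (val φ (P.take (hs (G.lev c))),
      ∑ j ∈ Finset.range (G.lev c), G.e j (val φ (blk P (hs j) (hs (j + 1)))))

/-- right-legal: `Q` = text right of the junction, `t` = distance to the next anchor, `b` = value
there -/
def R1Q (Q : List α) (t : ℕ) (b : V) : Prop :=
  Fs Ro Ok g.win Q t ∧ t ≤ Q.length ∧
  ∃ (c : Fin G.K) (ys : ℕ → ℕ), G.ok c ∧ G.rb c = b ∧ RN D ((t / g.M' : ℕ) : ℤ) c ∧
    (∀ j, G.lev c < j → j ≤ G.m → Fs Rs (g.okA j) (g.cell (G.lev c)) Q (ys j) ∧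
      ys j + g.ns ≤ t) ∧
    G.pr c = (val φ ((Q.take t).drop (ys (G.lev c + 1))),
      ∑ j ∈ Finset.Ico (G.lev c + 1) G.m, G.e j (val φ (blk (Q.take t) (ys j) (ys (j + 1)))))

/-- weight of a zone -/
noncomputable def wtz (u : List α) : ZMod G.N × ZMod G.N :=
  open Classical in
  if h : ∃ hs : ℕ → ℕ, ∀ j ≤ G.m, Nx Rs (g.okA j) u (hs j) then
    ∑ j ∈ Finset.range G.m, G.e j (val φ (blk u (h.choose j) (h.choose (j + 1))))
  else 0

theorem wtz_eq {u : List α} {hs : ℕ → ℕ} (h : ∀ j ≤ G.m, Nx Rs (g.okA j) u (hs j)) :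
    wtz g φ Rs G u = ∑ j ∈ Finset.range G.m, G.e j (val φ (blk u (hs j) (hs (j + 1)))) := by
  classical
  have hex : ∃ hs : ℕ → ℕ, ∀ j ≤ G.m, Nx Rs (g.okA j) u (hs j) := ⟨hs, h⟩
  unfold wtz
  rw [dif_pos hex]
  have hsp := hex.choose_spec
  apply Finset.sum_congr rfl
  intro j hj
  rw [Finset.mem_range] at hj
  rw [Nx_uniq (hsp j hj.le) (h j hj.le), Nx_uniq (hsp (j + 1) hj) (h (j + 1) hj)]

theorem Nx_mono {g : Geo} {m : ℕ} (hg : g.Fine m) {R : List α → Prop} {u : List α} {k x y : ℕ}
    (h : Nx R (g.okA k) u x) (h' : Nx R (g.okA (k + 1)) u y) : x ≤ y := by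
  by_contra hlt
  push Not at hlt
  exact h.2.2 y hlt h'.1 (le_trans (hg.mono k) h'.2.1)

theorem val_split (φ : α → S) (u : List α) {i j : ℕ} (hij : i ≤ j) :
    val φ (u.take i) * val φ (blk u i j) * val φ (u.drop j) = val φ u := by
  rw [← val_append, ← val_append]
  congr 1
  have h1 : u.take i ++ blk u i j = u.take j := by
    unfold blk
    have := List.take_append_drop i (u.take j)
    rw [List.take_take, min_eq_left hij] at this
    exact this
  rw [h1, List.take_append_drop]

theorem blk_left {P X : List α} {i j : ℕ} (hj : j ≤ P.length) :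
    blk (P ++ X) i j = blk P i j := by
  unfold blk
  rw [List.take_append_of_le_length hj]

theorem blk_right (P X : List α) {i j : ℕ} :
    blk (P ++ X) (P.length + i) (P.length + j) = blk X i j := by
  unfold blk
  rw [List.take_length_add_append, List.drop_length_add_append]

/-- **SOUND.** -/
theorem sound1 {act : V → S → V} {nu : ℤ → S → (ZMod G.N × ZMod G.N) → V} (hg : g.Fine G.m)
    [AddCommGroup V]
    (hlev : ∀ c, G.lev c < G.m)
    (hs1 : ∀ Q, Rs Q ↔ Rs (Q.take g.ns)) (hs2 : ∀ Q, Rs Q → g.ns ≤ Q.length)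
    (hOk : ∀ s o, Ok s → g.win o → o < s)
    (hsound : ∀ (s : S) (w : ZMod G.N × ZMod G.N) (o o' : ℤ) (c c' : Fin G.K), G.ok c →
      G.ok c' → LN D o c → RN D o' c' →
      (c = c' → ∃ x, (G.pl c).1 * x * (G.pr c).1 = s ∧
        (G.pl c).2 + G.e (G.lev c) x + (G.pr c).2 = w) →
      G.rb c' = act (G.lv c) s + nu (o + o') s w)
    {P Q : List α} {v b : V} {t : ℕ} (hL : L1P g φ Rs G D P v) (hR : R1Q g φ Rs Ro Ok G D Q t b) :
    Nx Ro Ok (P ++ Q) (P.length + t) ∧
      b = act v (val φ ((P ++ Q).take (P.length + t))) +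
        nu (((P.length + t) / g.M' : ℕ) : ℤ) (val φ ((P ++ Q).take (P.length + t)))
          (wtz g φ Rs G ((P ++ Q).take (P.length + t))) := by
  obtain ⟨c, om, hs, hc, hlv, hLN, ho1, ho2, hPl, hNx, hpl⟩ := hL
  obtain ⟨hF, htQ, c', ys, hc', hrb, hRN, hFs, hpr⟩ := hR
  have hwinP : g.win P.length := ⟨om, hg.inwin _ (hlev c) om ho1 ho2, hPl⟩
  refine ⟨junc hOk hwinP hF, ?_⟩
  set u := (P ++ Q).take (P.length + t) with hu
  have hu' : u = P ++ Q.take t := by
    rw [hu, List.take_length_add_append]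
  have hT : ((om : ℤ) + ((t / g.M' : ℕ) : ℤ)) = (((P.length + t) / g.M' : ℕ) : ℤ) := by
    rw [hPl, Nat.mul_add_div hg.pos]
    push_cast
    ring
  have hmain := hsound (val φ u) (wtz g φ Rs G u) om ((t / g.M' : ℕ) : ℤ) c c' hc hc' hLN hRN ?_
  · rw [hT, hrb, hlv] at hmain
    exact hmain
  · intro hcc
    subst hcc
    set k := G.lev c with hk
    have hkm : k < G.m := hlev c
    have hcell : g.cell k P.length := ⟨om, ho1, ho2, hPl⟩
    have hvis : ∀ j ≤ k, hs j + g.ns ≤ P.length := fun j hj =>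
      R_drop_len hs2 (hNx j hj).1 hg.nspos
    let H : ℕ → ℕ := fun j => if j ≤ k then hs j else P.length + ys j
    have hsepj : ∀ j, k < j → ∀ s o, g.okA j s → g.cell k o → o < s := by
      intro j hj s o h1 h2
      exact lt_of_lt_of_le (hg.sep k hkm o h2 j hj) h1
    have hH : ∀ j ≤ G.m, Nx Rs (g.okA j) u (H j) := by
      intro j hj
      by_cases hjk : j ≤ k
      · have : H j = hs j := if_pos hjk
        rw [this, hu']
        exact (Nx_app hs1 _ (hvis j hjk)).mpr (hNx j hjk)
      · have hjk' : k < j := not_le.mp hjk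
        have : H j = P.length + ys j := if_neg hjk
        rw [this]
        obtain ⟨h1, h2⟩ := hFs j hjk' hj
        have h3 : Nx Rs (g.okA j) (P ++ Q) (P.length + ys j) := junc (hsepj j hjk') hcell h1
        have h4 : P ++ Q = u ++ (P ++ Q).drop (P.length + t) := by
          rw [hu, List.take_append_drop]
        rw [h4] at h3
        refine (Nx_app hs1 _ ?_).mp h3
        rw [hu', List.length_append, List.length_take]
        omega
    have hHk : H k = hs k := if_pos le_rfl
    have hHk1 : H (k + 1) = P.length + ys (k + 1) := if_neg (by omega)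
    have hmono : ∀ j, j < G.m → H j ≤ H (j + 1) := fun j hj =>
      Nx_mono hg (hH j hj.le) (hH (j + 1) hj)
    have ht : u.take (H k) = P.take (hs k) := by
      rw [hHk, hu', List.take_append_of_le_length (by have := hvis k le_rfl; omega)]
    have hd : u.drop (H (k + 1)) = (Q.take t).drop (ys (k + 1)) := by
      rw [hHk1, hu', List.drop_length_add_append]
    refine ⟨val φ (blk u (H k) (H (k + 1))), ?_, ?_⟩
    · rw [hpl, hpr, ← ht, ← hd]
      exact val_split φ u (hmono k hkm)
    · rw [hpl, hpr, wtz_eq g φ Rs G hH]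
      have h5 : ∑ j ∈ Finset.range k, G.e j (val φ (blk P (hs j) (hs (j + 1)))) =
          ∑ j ∈ Finset.range k, G.e j (val φ (blk u (H j) (H (j + 1)))) := by
        apply Finset.sum_congr rfl
        intro j hj
        rw [Finset.mem_range] at hj
        have e1 : H j = hs j := if_pos hj.le
        have e2 : H (j + 1) = hs (j + 1) := if_pos hj
        rw [e1, e2, hu', blk_left (by have := hvis (j + 1) hj; omega)]
      have h6 : ∑ j ∈ Finset.Ico (k + 1) G.m, G.e j (val φ (blk (Q.take t) (ys j) (ys (j + 1)))) =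
          ∑ j ∈ Finset.Ico (k + 1) G.m, G.e j (val φ (blk u (H j) (H (j + 1)))) := by
        apply Finset.sum_congr rfl
        intro j hj
        rw [Finset.mem_Ico] at hj
        have e1 : H j = P.length + ys j := if_neg (by omega)
        have e2 : H (j + 1) = P.length + ys (j + 1) := if_neg (by omega)
        have e3 := hmono j hj.2
        rw [e1, e2] at e3 ⊢
        rw [hu', blk_right]
      show (∑ j ∈ Finset.range k, G.e j (val φ (blk P (hs j) (hs (j + 1))))) +
        G.e k (val φ (blk u (H k) (H (k + 1)))) +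
        (∑ j ∈ Finset.Ico (k + 1) G.m, G.e j (val φ (blk (Q.take t) (ys j) (ys (j + 1))))) = _
      rw [h5, h6, ← Finset.sum_range_succ (fun j => G.e j (val φ (blk u (H j) (H (j + 1)))))]
      exact Finset.sum_range_add_sum_Ico _ (by omega)

theorem blk_take {Y : List α} {a i j : ℕ} (h : j ≤ a) : blk (Y.take a) i j = blk Y i j := by
  unfold blk
  rw [List.take_take, min_eq_left h]

theorem blk_drop {u : List α} {a i j : ℕ} (hi : a ≤ i) (hj : a ≤ j) :
    blk (u.drop a) (i - a) (j - a) = blk u i j := by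
  unfold blk
  rw [List.take_drop, Nat.add_sub_cancel' hj, List.drop_drop, Nat.add_sub_cancel' hi]

/-- **COMPLETE.** -/
theorem complete1 {Y : List α} {y : ℕ} {hs : ℕ → ℕ} (hg : g.Fine G.m)
    (hlev : ∀ c, G.lev c < G.m)
    (hs1 : ∀ Q, Rs Q ↔ Rs (Q.take g.ns))
    (hOk : ∀ s o, Ok s → g.win o → o < s)
    (hcomp : ∀ (s : S) (w : ZMod G.N × ZMod G.N) (pre suf : ℕ → S × (ZMod G.N × ZMod G.N))
            (zt : ℕ → S), (∀ i < G.m, (pre i).1 * zt i * (suf i).1 = s) →
            (∀ i < G.m, (pre i).2 + G.e i (zt i) + (suf i).2 = w) →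
            ∀ T : ℤ, GoodT D T → ∀ v : V, ∃ c : Fin G.K, G.ok c ∧ G.lv c = v ∧
              pre (G.lev c) = G.pl c ∧ suf (G.lev c) = G.pr c ∧
              ∀ x0 : ℤ, ∃ o : ℤ, x0 ≤ o ∧ o < x0 + (∏ i, D.mods i : ℕ) ∧ LN D o c ∧
                RN D (T - o) c)
    (hM : ∏ i, D.mods i ≤ g.M)
    (hy : Nx Ro Ok Y y) (hyY : y ≤ Y.length)
    (hwall : ∀ j ≤ G.m, Nx Rs (g.okA j) Y (hs j) ∧ hs j + g.ns ≤ y)
    (hsee : ∀ k < G.m, hs k + g.ns ≤ g.M' * g.Cs k)
    (hE : ∀ o, g.win o → Fs Ro Ok g.win (Y.drop o) (y - o))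
    (hDd : ∀ k < G.m, ∀ j, k < j → j ≤ G.m → ∀ o, g.cell k o →
      Fs Rs (g.okA j) (g.cell k) (Y.drop o) (hs j - o))
    (hB : GoodT D ((y / g.M' : ℕ) : ℤ)) (v : V) :
    ∃ (o : ℕ) (b : V), g.win o ∧ o < y ∧ L1P g φ Rs G D (Y.take o) v ∧
      R1Q g φ Rs Ro Ok G D (Y.drop o) (y - o) b := by
  set u := Y.take y with hu
  have hmono : ∀ j, j < G.m → hs j ≤ hs (j + 1) := fun j hj =>
    Nx_mono hg (hwall j hj.le).1 (hwall (j + 1) hj).1
  have hmono' : ∀ i j, i ≤ j → j ≤ G.m → hs i ≤ hs j := by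
    intro i j hij
    induction j, hij using Nat.le_induction with
    | base => intro _; exact le_rfl
    | succ n hn ih => intro h; exact (ih (by omega)).trans (hmono n h)
  obtain ⟨c, hok, hlv, hpl, hpr, hex⟩ := hcomp (val φ u)
    (∑ j ∈ Finset.range G.m, G.e j (val φ (blk u (hs j) (hs (j + 1)))))
    (fun i => (val φ (u.take (hs i)),
      ∑ j ∈ Finset.range i, G.e j (val φ (blk u (hs j) (hs (j + 1))))))
    (fun i => (val φ (u.drop (hs (i + 1))),
      ∑ j ∈ Finset.Ico (i + 1) G.m, G.e j (val φ (blk u (hs j) (hs (j + 1))))))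
    (fun i => val φ (blk u (hs i) (hs (i + 1))))
    (fun i hi => val_split φ u (hmono i hi))
    (fun i hi => by
      show (∑ j ∈ Finset.range i, G.e j (val φ (blk u (hs j) (hs (j + 1))))) +
        G.e i (val φ (blk u (hs i) (hs (i + 1)))) +
        (∑ j ∈ Finset.Ico (i + 1) G.m, G.e j (val φ (blk u (hs j) (hs (j + 1))))) = _
      rw [← Finset.sum_range_succ (fun j => G.e j (val φ (blk u (hs j) (hs (j + 1)))))]
      exact Finset.sum_range_add_sum_Ico _ (by omega))
    _ hB v
  set k := G.lev c with hk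
  have hkm : k < G.m := hlev c
  obtain ⟨o, ho1, ho2, hLN, hRN⟩ := hex (g.Cs k : ℤ)
  obtain ⟨om, rfl⟩ : ∃ om : ℕ, o = om := ⟨o.toNat, by omega⟩
  have ho1' : g.Cs k ≤ om := by exact_mod_cast ho1
  have ho2' : om < g.Cs k + g.M := by
    have : om < g.Cs k + ∏ i, D.mods i := by exact_mod_cast ho2
    omega
  have hwin : g.win (g.M' * om) := ⟨om, hg.inwin k hkm om ho1' ho2', rfl⟩
  have hcell : g.cell k (g.M' * om) := ⟨om, ho1', ho2', rfl⟩
  have hlt : g.M' * om < y := hOk y _ hy.2.1 hwin
  set a := g.M' * om with ha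
  have hPlen : (Y.take a).length = a := by
    rw [List.length_take]
    omega
  have hseek : ∀ j ≤ k, hs j + g.ns ≤ a := by
    intro j hj
    have h1 := hmono' j k hj hkm.le
    have h2 := hsee k hkm
    have h3 : g.M' * g.Cs k ≤ a := Nat.mul_le_mul_left _ ho1'
    omega
  have hafter : ∀ j, k < j → j ≤ G.m → a < hs j := by
    intro j hj hjm
    exact lt_of_lt_of_le (hg.sep k hkm _ hcell j hj) (hwall j hjm).1.2.1
  refine ⟨a, G.rb c, hwin, hlt, ?_, ?_⟩
  · refine ⟨c, om, hs, hok, hlv, hLN, ho1', ho2', hPlen, ?_, ?_⟩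
    · intro j hj
      have h1 := (hwall j (hj.trans hkm.le)).1
      rw [← List.take_append_drop a Y] at h1
      exact (Nx_app hs1 _ (by rw [hPlen]; exact hseek j hj)).mp h1
    · rw [← hpl]
      have e1 : (Y.take a).take (hs k) = u.take (hs k) := by
        rw [hu, List.take_take, List.take_take, min_eq_left (by have := hseek k le_rfl; omega),
          min_eq_left (by have := (hwall k hkm.le).2; omega)]
      show (val φ (u.take (hs k)), ∑ j ∈ Finset.range k, G.e j (val φ (blk u (hs j) (hs (j + 1)))))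
        = (val φ ((Y.take a).take (hs k)),
          ∑ j ∈ Finset.range k, G.e j (val φ (blk (Y.take a) (hs j) (hs (j + 1)))))
      rw [e1]
      congr 1
      apply Finset.sum_congr rfl
      intro j hj
      rw [Finset.mem_range] at hj
      have e3 : blk (Y.take a) (hs j) (hs (j + 1)) = blk Y (hs j) (hs (j + 1)) :=
        blk_take (by have := hseek (j + 1) hj; omega)
      have e4 : blk u (hs j) (hs (j + 1)) = blk Y (hs j) (hs (j + 1)) :=
        blk_take (by have := (hwall (j + 1) (by omega)).2; omega)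
      rw [e3, e4]
  · have hQt : (Y.drop a).take (y - a) = u.drop a := by
      rw [hu, List.take_drop, Nat.add_sub_cancel' hlt.le]
    refine ⟨hE a hwin, by rw [List.length_drop]; omega, c, fun j => hs j - a, hok, rfl, ?_, ?_, ?_⟩
    · have : (((y - a) / g.M' : ℕ) : ℤ) = ((y / g.M' : ℕ) : ℤ) - om := by
        have h1 : (y - a) / g.M' = y / g.M' - om := by
          rw [ha, Nat.sub_mul_div]
        have h2 : om ≤ y / g.M' := by
          rw [Nat.le_div_iff_mul_le hg.pos, mul_comm]
          exact hlt.le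
        rw [h1]
        push_cast [h2]
        ring
      rw [this]
      exact hRN
    · intro j hj hjm
      have h1 := hafter j hj hjm
      have h2 := (hwall j hjm).2
      exact ⟨hDd k hkm j hj hjm a hcell, by show hs j - a + g.ns ≤ y - a; omega⟩
    · rw [← hpr, hQt]
      show (val φ (u.drop (hs (k + 1))),
          ∑ j ∈ Finset.Ico (k + 1) G.m, G.e j (val φ (blk u (hs j) (hs (j + 1))))) =
        (val φ ((u.drop a).drop (hs (k + 1) - a)),
          ∑ j ∈ Finset.Ico (k + 1) G.m,
            G.e j (val φ (blk (u.drop a) (hs j - a) (hs (j + 1) - a))))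
      rw [List.drop_drop, Nat.add_sub_cancel' (hafter (k + 1) (by omega) (by omega)).le]
      congr 1
      apply Finset.sum_congr rfl
      intro j hj
      rw [Finset.mem_Ico] at hj
      rw [blk_drop (hafter j (by omega) (by omega)).le (hafter (j + 1) (by omega) (by omega)).le]

end word

end Crest.Agent.R320.G1_101
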