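import Mathlib
import Crest.Agent.R320.RandF_808
import Crest.Agent.R320.Names_755

/-!
Row 320: the gadget `g1` (852 #13483, lead #13673): levels = base-`b` digits of the total, names by
CRT (Names_755).
-/

set_option autoImplicit false

namespace Crest.Agent.R320.G1_120

open Classical

section arith

theorem beta_lo {b i j o o' : ℕ} (hj : j ≤ i) (hd : b ^ i ∣ o') :
    (o + o') % b ^ j = o % b ^ j := by
  have h : b ^ j ∣ o' := (pow_dvd_pow b hj).trans hd
  obtain ⟨q, rfl⟩ := h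
  exact Nat.add_mul_mod_self_left o (b ^ j) q

theorem beta_hi {b i j o o' : ℕ} (hb : 0 < b) (hj : i < j) (hd : b ^ i ∣ o')
    (h2 : 2 * (o / b ^ i) < b) (h3 : 2 * ((o' / b ^ i) % b) < b) :
    (o + o') % b ^ j = o + o' % b ^ j := by
  have hpos : 0 < b ^ i := pow_pos hb i
  have ha : o + o' % b ^ (i + 1) < b ^ (i + 1) := by
    obtain ⟨q, rfl⟩ := hd
    rw [Nat.mul_div_cancel_left _ hpos] at h3
    have e1 : b ^ i * q % b ^ (i + 1) = b ^ i * (q % b) := by
      rw [pow_succ, Nat.mul_mod_mul_left]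
    have e2 := Nat.div_add_mod o (b ^ i)
    have e3 := Nat.mod_lt o hpos
    rw [e1, pow_succ]
    have h4 : o / b ^ i + q % b + 1 ≤ b := by omega
    calc o + b ^ i * (q % b) = b ^ i * (o / b ^ i) + o % b ^ i + b ^ i * (q % b) := by rw [e2]
      _ < b ^ i * (o / b ^ i) + b ^ i + b ^ i * (q % b) := by omega
      _ = b ^ i * (o / b ^ i + q % b + 1) := by ring
      _ ≤ b ^ i * b := Nat.mul_le_mul_left _ h4
  obtain ⟨k, rfl⟩ : ∃ k, j = i + 1 + k := ⟨j - (i + 1), by omega⟩
  have hk : 0 < b ^ k := pow_pos hb k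
  have hlt : o + o' % b ^ (i + 1 + k) < b ^ (i + 1 + k) := by
    rw [pow_add b (i + 1) k, Nat.mod_mul]
    have h6 := Nat.mod_lt (o' / b ^ (i + 1)) hk
    calc o + (o' % b ^ (i + 1) + b ^ (i + 1) * (o' / b ^ (i + 1) % b ^ k))
        < b ^ (i + 1) + b ^ (i + 1) * (o' / b ^ (i + 1) % b ^ k) := by omega
      _ = b ^ (i + 1) * (o' / b ^ (i + 1) % b ^ k + 1) := by ring
      _ ≤ _ := Nat.mul_le_mul_left _ h6
  rw [← Nat.add_mod_mod, Nat.mod_eq_of_lt hlt]

theorem mod_mono {b j n : ℕ} : n % b ^ j ≤ n % b ^ (j + 1) := by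
  have h : n % b ^ (j + 1) % b ^ j = n % b ^ j :=
    Nat.mod_mod_of_dvd n (pow_dvd_pow b (Nat.le_succ j))
  rw [← h]; exact Nat.mod_le _ _

theorem crt_place {a M : ℕ} (hM : 0 < M) (hc : Nat.Coprime a M) (β t y0 : ℕ) :
    ∃ y, y0 ≤ y ∧ y < y0 + M ∧ β + a * y ≡ t [MOD M] := by
  obtain ⟨a', ha'⟩ : ∃ a', a * a' ≡ 1 [MOD M] := by
    rcases Nat.lt_or_ge 1 M with h | h
    · obtain ⟨a', h'⟩ := Nat.exists_mul_mod_eq_one_of_coprime hc h
      exact ⟨a', by rw [Nat.ModEq, h'.2, Nat.mod_eq_of_lt h]⟩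
    · have : M = 1 := by omega
      subst this
      exact ⟨0, Nat.modEq_one⟩
  set y1 := a' * (t + (M - 1) * β) with hy1
  refine ⟨y0 + (y1 + (M - 1) * y0) % M, by omega, ?_, ?_⟩
  · have := Nat.mod_lt (y1 + (M - 1) * y0) hM
    omega
  · have e1 : y0 + (y1 + (M - 1) * y0) % M ≡ y1 [MOD M] := by
      have h1 : y0 + (y1 + (M - 1) * y0) % M ≡ y0 + (y1 + (M - 1) * y0) [MOD M] :=
        Nat.ModEq.add_left _ (Nat.mod_modEq _ _)
      have h2 : y0 + (y1 + (M - 1) * y0) = y1 + M * y0 := by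
        obtain ⟨M', rfl⟩ : ∃ M', M = M' + 1 := ⟨M - 1, by omega⟩
        simp only [Nat.add_sub_cancel]; ring
      rw [h2] at h1
      exact h1.trans (by simp [Nat.ModEq])
    have e2 : β + a * (y0 + (y1 + (M - 1) * y0) % M) ≡ β + a * y1 [MOD M] :=
      Nat.ModEq.add_left _ (Nat.ModEq.mul_left _ e1)
    have e3 : a * y1 ≡ 1 * (t + (M - 1) * β) [MOD M] := by
      rw [hy1, ← mul_assoc]; exact Nat.ModEq.mul_right _ ha'
    have e4 : β + a * y1 ≡ β + 1 * (t + (M - 1) * β) [MOD M] := Nat.ModEq.add_left _ e3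
    refine e2.trans (e4.trans ?_)
    have h5 : β + 1 * (t + (M - 1) * β) = t + M * β := by
      obtain ⟨M', rfl⟩ : ∃ M', M = M' + 1 := ⟨M - 1, by omega⟩
      simp only [Nat.add_sub_cancel]; ring
    rw [h5]; simp [Nat.ModEq]

end arith

section words

variable {A S : Type} [Monoid S] (f : A → S)

def ph (X : List A) : S := (X.map f).prod

theorem ph_append (X Y : List A) : ph f (X ++ Y) = ph f X * ph f Y := by simp [ph]

/-- block `j` of `X` -/
def blk (b : ℕ) (X : List A) (j : ℕ) : S :=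
  ph f ((X.take (X.length % b ^ (j + 1))).drop (X.length % b ^ j))

theorem ph_split3 (X : List A) {s t : ℕ} (h : s ≤ t) :
    ph f X = ph f (X.take s) * ph f ((X.take t).drop s) * ph f (X.drop t) := by
  rw [← ph_append, ← ph_append]
  congr 1
  have h1 : X.take s = (X.take t).take s := by rw [List.take_take, min_eq_left h]
  rw [h1, List.take_append_drop, List.take_append_drop]


theorem take_app {X Y : List A} {c : ℕ} (h : c ≤ X.length) : (X ++ Y).take c = X.take c :=
  List.take_append_of_le_length h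

theorem drop_app {X Y : List A} {c : ℕ} (h : c ≤ X.length) : (X ++ Y).drop c = X.drop c ++ Y :=
  List.drop_append_of_le_length h

theorem take_app' (X Y : List A) (u : ℕ) : (X ++ Y).take (X.length + u) = X ++ Y.take u := by
  rw [List.take_append]; simp

theorem drop_app' (X Y : List A) (u : ℕ) : (X ++ Y).drop (X.length + u) = Y.drop u := by
  rw [List.drop_append]; simp

variable {b i : ℕ} {P Q : List A}

theorem blk_lt (hd : b ^ i ∣ Q.length) {j : ℕ} (hj : j < i) :
    blk f b (P ++ Q) j = blk f b P j := by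
  unfold blk
  rw [List.length_append, beta_lo (show j + 1 ≤ i from hj) hd, beta_lo hj.le hd,
    take_app (Nat.mod_le _ _)]

theorem blk_gt (hb : 0 < b) (hd : b ^ i ∣ Q.length)
    (h2 : 2 * (P.length / b ^ i) < b) (h3 : 2 * ((Q.length / b ^ i) % b) < b)
    {j : ℕ} (hj : i < j) :
    blk f b (P ++ Q) j = blk f b Q j := by
  unfold blk
  rw [List.length_append, beta_hi hb (show i < j + 1 by omega) hd h2 h3, beta_hi hb hj hd h2 h3,
    take_app', drop_app']

theorem blk_eq (hb : 0 < b) (hd : b ^ i ∣ Q.length)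
    (h2 : 2 * (P.length / b ^ i) < b) (h3 : 2 * ((Q.length / b ^ i) % b) < b) :
    blk f b (P ++ Q) i =
      ph f (P.drop (P.length % b ^ i)) * ph f (Q.take (Q.length % b ^ (i + 1))) := by
  unfold blk
  rw [List.length_append, beta_hi hb (Nat.lt_succ_self i) hd h2 h3, beta_lo le_rfl hd,
    take_app', drop_app (Nat.mod_le _ _), ph_append]

theorem pre_eq (hd : b ^ i ∣ Q.length) :
    ph f ((P ++ Q).take ((P ++ Q).length % b ^ i)) = ph f (P.take (P.length % b ^ i)) := by
  rw [List.length_append, beta_lo le_rfl hd, take_app (Nat.mod_le _ _)]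

theorem post_eq (hb : 0 < b) (hd : b ^ i ∣ Q.length)
    (h2 : 2 * (P.length / b ^ i) < b) (h3 : 2 * ((Q.length / b ^ i) % b) < b) :
    ph f ((P ++ Q).drop ((P ++ Q).length % b ^ (i + 1))) =
      ph f (Q.drop (Q.length % b ^ (i + 1))) := by
  rw [List.length_append, beta_hi hb (Nat.lt_succ_self i) hd h2 h3, drop_app']

end words

section gadget

variable {A S V W : Type} [Monoid S] [AddCommGroup V] [AddCommGroup W]
variable (act : V → S → V) (m : ℕ) (e : ℕ → S → W) (F : S → W → V) (f : A → S)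

abbrev Nm (S V W : Type) (m : ℕ) : Type := Fin m × (S × W) × (S × W) × V

noncomputable def val (c : Nm S V W m) (z : S) : V :=
  F (c.2.1.1 * z * c.2.2.1.1) (c.2.1.2 + e c.1 z + c.2.2.1.2) +
    act c.2.2.2 (c.2.1.1 * z * c.2.2.1.1)

def good (c : Nm S V W m) : Prop := ∀ z, val act m e F c z = val act m e F c 1

def LC (b : ℕ) (c : Nm S V W m) (P : List A) : Prop :=
  P.length < b ^ ((c.1 : ℕ) + 1) ∧ 2 * (P.length / b ^ (c.1 : ℕ)) < b ∧
    ph f (P.take (P.length % b ^ (c.1 : ℕ))) = c.2.1.1 ∧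
    ∑ j ∈ Finset.range c.1, e j (blk f b P j) = c.2.1.2

def RC (b : ℕ) (c : Nm S V W m) (Q : List A) : Prop :=
  b ^ (c.1 : ℕ) ∣ Q.length ∧ 2 * ((Q.length / b ^ (c.1 : ℕ)) % b) < b ∧
    ph f (Q.drop (Q.length % b ^ ((c.1 : ℕ) + 1))) = c.2.2.1.1 ∧
    ∑ j ∈ Finset.Ico ((c.1 : ℕ) + 1) m, e j (blk f b Q j) = c.2.2.1.2

noncomputable def wt (b : ℕ) (X : List A) : W := ∑ j ∈ Finset.range m, e j (blk f b X j)

theorem wt_split (b : ℕ) (X : List A) {i : ℕ} (hi : i < m) :
    wt m e f b X = ∑ j ∈ Finset.range i, e j (blk f b X j) + e i (blk f b X i) +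
      ∑ j ∈ Finset.Ico (i + 1) m, e j (blk f b X j) := by
  unfold wt
  rw [Finset.range_eq_Ico, ← Finset.sum_Ico_consecutive _ (Nat.zero_le (i + 1)) hi,
    ← Finset.range_eq_Ico, Finset.sum_range_succ]

theorem sound_core {b : ℕ} (hb : 0 < b) {c : Nm S V W m} (hg : good act m e F c) {P Q : List A}
    (hL : LC m e f b c P) (hR : RC m e f b c Q) :
    val act m e F c 1 = act c.2.2.2 (ph f (P ++ Q)) + F (ph f (P ++ Q)) (wt m e f b (P ++ Q)) := by
  obtain ⟨hl1, hl2, hl3, hl4⟩ := hL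
  obtain ⟨hr1, hr2, hr3, hr4⟩ := hR
  set i : ℕ := (c.1 : ℕ) with hi
  have him : i < m := c.1.2
  have hs : ph f (P ++ Q) = c.2.1.1 * blk f b (P ++ Q) i * c.2.2.1.1 := by
    rw [ph_split3 f (P ++ Q) (mod_mono (b := b) (j := i) (n := (P ++ Q).length)),
      pre_eq f hr1, post_eq f hb hr1 hl2 hr2, hl3, hr3]
    rfl
  have hw : wt m e f b (P ++ Q) = c.2.1.2 + e i (blk f b (P ++ Q) i) + c.2.2.1.2 := by
    rw [wt_split m e f b (P ++ Q) him, ← hl4, ← hr4]
    congr 1
    · congr 1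
      refine Finset.sum_congr rfl fun j hj => ?_
      rw [blk_lt f hr1 (Finset.mem_range.1 hj)]
    · refine Finset.sum_congr rfl fun j hj => ?_
      rw [blk_gt f hb hr1 hl2 hr2 (by have := (Finset.mem_Ico.1 hj).1; omega)]
  rw [hs, hw, ← hg (blk f b (P ++ Q) i)]
  unfold val
  rw [add_comm]

end gadget

theorem place {b i n y : ℕ} (hb : 0 < b) (hy : y ≤ n / b ^ i % b) (h2y : 2 * y < b) :
    n % b ^ i + b ^ i * y ≤ n ∧ n % b ^ i + b ^ i * y < b ^ (i + 1) ∧
      (n % b ^ i + b ^ i * y) / b ^ i = y ∧ (n % b ^ i + b ^ i * y) % b ^ i = n % b ^ i ∧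
      b ^ i ∣ n - (n % b ^ i + b ^ i * y) ∧
      (n - (n % b ^ i + b ^ i * y)) / b ^ i % b = n / b ^ i % b - y := by
  have hpos : 0 < b ^ i := pow_pos hb i
  have h1 := Nat.div_add_mod n (b ^ i)
  have h2 := Nat.mod_lt n hpos
  have h3 := Nat.div_add_mod (n / b ^ i) b
  have h4 := Nat.mod_lt (n / b ^ i) hb
  set r := n % b ^ i with hr
  set q := n / b ^ i with hq
  have hyq : y ≤ q := hy.trans (Nat.mod_le _ _)
  have e1 : n - (r + b ^ i * y) = b ^ i * (q - y) := by
    rw [Nat.mul_sub]; omega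
  have e2 : b ^ i * y ≤ b ^ i * q := Nat.mul_le_mul_left _ hyq
  refine ⟨by omega, ?_, ?_, ?_, ?_, ?_⟩
  · calc r + b ^ i * y < b ^ i + b ^ i * y := by omega
      _ = b ^ i * (y + 1) := by ring
      _ ≤ b ^ i * b := Nat.mul_le_mul_left _ (by omega)
      _ = _ := (pow_succ b i).symm
  · rw [Nat.add_mul_div_left _ _ hpos, Nat.div_eq_of_lt h2, zero_add]
  · rw [Nat.add_mul_mod_self_left, Nat.mod_eq_of_lt h2]
  · rw [e1]; exact Dvd.intro _ rfl
  · rw [e1, Nat.mul_div_cancel_left _ hpos]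
    have e3 : q - y = q % b - y + b * (q / b) := by omega
    rw [e3, Nat.add_mul_mod_self_left, Nat.mod_eq_of_lt (by omega)]

section gadget

variable {A S V W : Type} [Monoid S] [AddCommGroup V] [AddCommGroup W]
variable (act : V → S → V) (m : ℕ) (e : ℕ → S → W) (F : S → W → V) (f : A → S)

theorem compl_core {b : ℕ} (hb : 0 < b) (X : List A) (v : V)
    (hF : ∀ (s : S) (w : W) (v : V), ∃ i < m, ∀ g x h : S, g * x * h = s → ∀ z : S,
        F (g * z * h) (w - e i x + e i z) + act v (g * z * h) = F s w + act v s) :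
    ∃ c : Nm S V W m, good act m e F c ∧ c.2.2.2 = v ∧
      ∀ y, y ≤ X.length / b ^ (c.1 : ℕ) % b → 2 * y < b →
        2 * (X.length / b ^ (c.1 : ℕ) % b - y) < b →
        ∃ P Q, P ++ Q = X ∧ P.length = X.length % b ^ (c.1 : ℕ) + b ^ (c.1 : ℕ) * y ∧
          LC m e f b c P ∧ RC m e f b c Q := by
  obtain ⟨i, him, hi⟩ := hF (ph f X) (wt m e f b X) v
  set g := ph f (X.take (X.length % b ^ i)) with hg
  set h := ph f (X.drop (X.length % b ^ (i + 1))) with hh
  set x := blk f b X i with hx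
  set wl := ∑ j ∈ Finset.range i, e j (blk f b X j) with hwl
  set wr := ∑ j ∈ Finset.Ico (i + 1) m, e j (blk f b X j) with hwr
  have hs : g * x * h = ph f X :=
    (ph_split3 f X (mod_mono (b := b) (j := i) (n := X.length))).symm
  have hw : wt m e f b X = wl + e i x + wr := wt_split m e f b X him
  have hv : ∀ z, val act m e F ((⟨i, him⟩, (g, wl), (h, wr), v) : Nm S V W m) z =
      F (ph f X) (wt m e f b X) + act v (ph f X) := by
    intro z
    have h1 := hi g x h hs z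
    have h2 : wt m e f b X - e i x + e i z = wl + e i z + wr := by rw [hw]; abel
    rw [h2] at h1
    exact h1
  refine ⟨(⟨i, him⟩, (g, wl), (h, wr), v), fun z => (hv z).trans (hv 1).symm, rfl, ?_⟩
  intro y hy1 hy2 hy3
  obtain ⟨p1, p2, p3, p4, p5, p6⟩ := place (n := X.length) hb hy1 hy2
  simp only at p1 p2 p3 p4 p5 p6 hy1 hy2 hy3 ⊢
  set o := X.length % b ^ i + b ^ i * y with ho
  have hPl : (X.take o).length = o := by rw [List.length_take]; omega
  have hQl : (X.drop o).length = X.length - o := by rw [List.length_drop]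
  have hPQ : X.take o ++ X.drop o = X := List.take_append_drop o X
  have hd : b ^ i ∣ (X.drop o).length := by rw [hQl]; exact p5
  have hl2 : 2 * ((X.take o).length / b ^ i) < b := by rw [hPl, p3]; exact hy2
  have hr2 : 2 * ((X.drop o).length / b ^ i % b) < b := by rw [hQl, p6]; exact hy3
  refine ⟨X.take o, X.drop o, hPQ, hPl, ⟨?_, hl2, ?_, ?_⟩, ⟨hd, hr2, ?_, ?_⟩⟩
  · rw [hPl]; exact p2
  · have := pre_eq (f := f) (P := X.take o) hd
    rw [hPQ] at this
    exact this.symm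
  · show ∑ j ∈ Finset.range i, e j (blk f b (X.take o) j) = wl
    rw [hwl]
    refine Finset.sum_congr rfl fun j hj => ?_
    have := blk_lt (f := f) (P := X.take o) hd (Finset.mem_range.1 hj)
    rw [hPQ] at this
    rw [this]
  · have := post_eq f hb hd hl2 hr2
    rw [hPQ] at this
    exact this.symm
  · show ∑ j ∈ Finset.Ico (i + 1) m, e j (blk f b (X.drop o) j) = wr
    rw [hwr]
    refine Finset.sum_congr rfl fun j hj => ?_
    have hij : i < j := by have := (Finset.mem_Ico.1 hj).1; omega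
    have := blk_gt f hb hd hl2 hr2 hij
    rw [hPQ] at this
    rw [this]

/-- the finite state equivalence -/
def Eqv (b M : ℕ) (Q Q' : List A) : Prop :=
  b ^ m ≤ Q.length ∧ b ^ m ≤ Q'.length ∧ Q.take (b ^ m) = Q'.take (b ^ m) ∧
    Q.length % (M * b ^ m) = Q'.length % (M * b ^ m) ∧
    ph f (Q.drop (b ^ m)) = ph f (Q'.drop (b ^ m))

variable {m f}

theorem Eqv.mod {b M : ℕ} {Q Q' : List A} (h : Eqv m f b M Q Q') {j : ℕ} (hj : j ≤ m) :
    Q.length % b ^ j = Q'.length % b ^ j := by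
  have hd : b ^ j ∣ M * b ^ m := Dvd.dvd.mul_left (pow_dvd_pow b hj) M
  exact Nat.ModEq.of_dvd hd h.2.2.2.1

theorem Eqv.modM {b M : ℕ} {Q Q' : List A} (h : Eqv m f b M Q Q') :
    Q.length % M = Q'.length % M :=
  Nat.ModEq.of_dvd (Dvd.intro _ rfl) h.2.2.2.1

theorem Eqv.take {b M : ℕ} {Q Q' : List A} (h : Eqv m f b M Q Q') {u : ℕ} (hu : u ≤ b ^ m) :
    Q.take u = Q'.take u := by
  have h1 : ∀ Z : List A, Z.take u = (Z.take (b ^ m)).take u := fun Z => by
    rw [List.take_take, min_eq_left hu]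
  rw [h1 Q, h1 Q', h.2.2.1]

theorem Eqv.drop {b M : ℕ} {Q Q' : List A} (h : Eqv m f b M Q Q') {u : ℕ} (hu : u ≤ b ^ m) :
    ph f (Q.drop u) = ph f (Q'.drop u) := by
  have h1 : ∀ Z : List A, b ^ m ≤ Z.length →
      Z.drop u = (Z.take (b ^ m)).drop u ++ Z.drop (b ^ m) := fun Z hZ => by
    conv_lhs => rw [← List.take_append_drop (b ^ m) Z]
    rw [drop_app]
    rw [List.length_take]; omega
  rw [h1 Q h.1, h1 Q' h.2.1, ph_append, ph_append, h.2.2.1, h.2.2.2.2]

theorem Eqv.blk {b M : ℕ} (hb : 0 < b) {Q Q' : List A} (h : Eqv m f b M Q Q') {j : ℕ}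
    (hj : j < m) : blk f b Q j = blk f b Q' j := by
  unfold G1_120.blk
  have h2 : Q'.length % b ^ (j + 1) ≤ b ^ m :=
    (Nat.mod_lt _ (pow_pos hb _)).le.trans (Nat.pow_le_pow_right hb hj)
  rw [h.mod hj, h.mod hj.le, h.take h2]

end gadget

theorem g1 (S V : Type) [Monoid S] [Finite S] [AddCommGroup V] [Finite V] (act : V → S → V) :
    ∃ m r : ℕ, ∀ Bd : ℕ, ∃ (Ms : Finset ℕ) (M : ℕ), Ms.card ≤ r ∧
      (∀ k ∈ Ms, Bd < k ∧ k.Prime ∧ k ∣ M) ∧ 0 < M ∧
      ∀ b : ℕ, 4 * M + 4 < b → Nat.Coprime b M → ∀ (A : Type) (f : A → S),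
        ∃ (lam rho : List A → Option V) (nu : List A → V),
          (∀ P v, lam P = some v → P.length < b ^ m) ∧
          (∀ P Q v v', lam P = some v → rho Q = some v' →
            v' = act v ((P ++ Q).map f).prod + nu (P ++ Q)) ∧
          (∀ X, (∀ k ∈ Ms, ¬ k ∣ X.length) →
            (∀ j < m, M ≤ X.length / b ^ j % b ∧ X.length / b ^ j % b + M + 1 ≤ b) →
            ∀ v, ∃ P Q, P ++ Q = X ∧ lam P = some v ∧ (rho Q).isSome) ∧
          (∀ Q Q', b ^ m ≤ Q.length → b ^ m ≤ Q'.length → Q.take (b ^ m) = Q'.take (b ^ m) →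
            Q.length % (M * b ^ m) = Q'.length % (M * b ^ m) →
            ((Q.drop (b ^ m)).map f).prod = ((Q'.drop (b ^ m)).map f).prod →
            rho Q = rho Q' ∧ nu Q = nu Q') := by
  classical
  cases nonempty_fintype S
  cases nonempty_fintype V
  obtain ⟨m, N, e, F, hN, hF⟩ := RandF808.exists_noise S V act
  have : NeZero N := ⟨by omega⟩
  let W := ZMod N × ZMod N
  let col : Nm S V W m → V × V := fun c => (c.2.2.2, val act m e F c 1)
  obtain ⟨r, hr⟩ := Names755.names (Nm S V W m) (V × V) col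
  refine ⟨m, r, fun Bd => ?_⟩
  obtain ⟨Ms, M, nmL, nmR, hcard, hMs, hM, hpL, hpR, hagree, hcomp, hbad⟩ := hr Bd
  refine ⟨Ms, M, hcard, hMs, hM, ?_⟩
  intro b hbM hcop A f
  have hb : 0 < b := by omega
  have hLm : ∀ t, nmL (t % M) = nmL t := fun t => Function.Periodic.map_mod_nat hpL t
  have hRm : ∀ t, nmR (t % M) = nmR t := fun t => Function.Periodic.map_mod_nat hpR t
  let Bp : ℕ → ℕ × ℕ × Nm S V W m × Nm S V W m → Prop := fun r q =>
    nmL q.1 = some q.2.2.1 ∧ nmR q.2.1 = some q.2.2.2 ∧ (q.1 + q.2.1) % M = r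
  let nuBad : ℕ → S → V := fun r s =>
    if h : ∃ q, Bp r q then
      val act m e F h.choose.2.2.2 1 - act h.choose.2.2.1.2.2.2 s else 0
  let lam : List A → Option V := fun P => (nmL P.length).bind fun c =>
    if good act m e F c ∧ LC m e f b c P then some c.2.2.2 else none
  let rho : List A → Option V := fun Q => (nmR Q.length).bind fun c =>
    if good act m e F c ∧ RC m e f b c Q then some (val act m e F c 1) else none
  let nu : List A → V := fun X =>
    if ∃ k ∈ Ms, k ∣ X.length then nuBad (X.length % M) (ph f X)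
    else F (ph f X) (wt m e f b X)
  have hlam : ∀ P v, lam P = some v ↔ ∃ c, nmL P.length = some c ∧ good act m e F c ∧
      LC m e f b c P ∧ c.2.2.2 = v := by
    intro P v
    simp only [lam, Option.bind_eq_some_iff]
    constructor
    · rintro ⟨c, h1, h2⟩
      split_ifs at h2 with h3
      exact ⟨c, h1, h3.1, h3.2, Option.some.inj h2⟩
    · rintro ⟨c, h1, h2, h3, h4⟩
      exact ⟨c, h1, by rw [if_pos ⟨h2, h3⟩, h4]⟩
  have hrho : ∀ Q v, rho Q = some v ↔ ∃ c, nmR Q.length = some c ∧ good act m e F c ∧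
      RC m e f b c Q ∧ val act m e F c 1 = v := by
    intro Q v
    simp only [rho, Option.bind_eq_some_iff]
    constructor
    · rintro ⟨c, h1, h2⟩
      split_ifs at h2 with h3
      exact ⟨c, h1, h3.1, h3.2, Option.some.inj h2⟩
    · rintro ⟨c, h1, h2, h3, h4⟩
      exact ⟨c, h1, by rw [if_pos ⟨h2, h3⟩, h4]⟩
  refine ⟨lam, rho, nu, ?_, ?_, ?_, ?_⟩
  · intro P v h
    obtain ⟨c, -, -, h3, -⟩ := (hlam P v).1 h
    exact lt_of_lt_of_le h3.1 (Nat.pow_le_pow_right hb c.1.2)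
  · intro P Q v v' hP hQ
    obtain ⟨c, c1, c2, c3, rfl⟩ := (hlam P v).1 hP
    obtain ⟨c', d1, d2, d3, rfl⟩ := (hrho Q v').1 hQ
    show val act m e F c' 1 = act c.2.2.2 (ph f (P ++ Q)) + nu (P ++ Q)
    by_cases hb' : ∃ k ∈ Ms, k ∣ (P ++ Q).length
    · have hnu : nu (P ++ Q) = nuBad ((P ++ Q).length % M) (ph f (P ++ Q)) := if_pos hb'
      have hex : ∃ q, Bp ((P ++ Q).length % M) q :=
        ⟨(P.length, Q.length, c, c'), c1, d1, by rw [List.length_append]⟩
      have hnb : nuBad ((P ++ Q).length % M) (ph f (P ++ Q)) =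
          val act m e F hex.choose.2.2.2 1 - act hex.choose.2.2.1.2.2.2 (ph f (P ++ Q)) :=
        dif_pos hex
      obtain ⟨s1, s2, s3⟩ := hex.choose_spec
      set q := hex.choose with hq
      rw [List.length_append] at s3 hb'
      have hk : ∀ t k, nmR (t + M * k) = nmR t := fun t k => by
        rw [← hRm (t + M * k), Nat.add_mul_mod_self_left, hRm]
      have hcol := hbad P.length (Q.length + M * ((q.1 + q.2.1) / M)) q.1
        (q.2.1 + M * ((P.length + Q.length) / M)) c c' q.2.2.1 q.2.2.2 c1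
        (by rw [hk]; exact d1) s1 (by rw [hk]; exact s2)
        (by
          have a1 := Nat.div_add_mod (P.length + Q.length) M
          have a2 := Nat.div_add_mod (q.1 + q.2.1) M
          omega)
        (by
          obtain ⟨k, hkM, hkd⟩ := hb'
          refine ⟨k, hkM, ?_⟩
          rw [← add_assoc]
          exact Nat.dvd_add hkd (Dvd.dvd.mul_right (hMs k hkM).2.2 _))
      have h1 : c.2.2.2 = q.2.2.1.2.2.2 := congrArg Prod.fst hcol.1
      have h2 : val act m e F c' 1 = val act m e F q.2.2.2 1 := congrArg Prod.snd hcol.2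
      rw [hnu, hnb, h1, h2]
      abel
    · have hnu : nu (P ++ Q) = F (ph f (P ++ Q)) (wt m e f b (P ++ Q)) := if_neg hb'
      push Not at hb'
      rw [List.length_append] at hb'
      have hcc : c = c' := hagree _ _ _ _ c1 d1 hb'
      subst hcc
      rw [hnu]
      exact sound_core act m e F f hb c2 c3 d3
  · intro X hX hdig v
    obtain ⟨c, hg, hv, hy⟩ := compl_core act m e F f hb X v hF
    obtain ⟨t, -, ht1, ht2⟩ := hcomp X.length hX c
    have hco : Nat.Coprime (b ^ (c.1 : ℕ)) M := Nat.Coprime.pow_left _ hcop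
    obtain ⟨y, y1, y2, y3⟩ := crt_place hM hco (X.length % b ^ (c.1 : ℕ)) t
      (X.length / b ^ (c.1 : ℕ) % b - (b - 1) / 2)
    have hd := hdig c.1 c.1.2
    obtain ⟨P, Q, hPQ, hPl, hL, hR⟩ := hy y (by omega) (by omega) (by omega)
    have hLn : nmL P.length = some c := by
      rw [← hLm, hPl, y3, hLm]; exact ht1
    have hRn : nmR Q.length = some c := by
      apply ht2
      rw [← hPQ, List.length_append, hPl]
      exact Nat.ModEq.add_right _ y3.symm
    exact ⟨P, Q, hPQ, (hlam P v).2 ⟨c, hLn, hg, hL, hv⟩,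
      Option.isSome_iff_exists.2 ⟨_, (hrho Q _).2 ⟨c, hRn, hg, hR, rfl⟩⟩⟩
  · intro Q Q' h1 h2 h3 h4 h5
    have E : Eqv m f b M Q Q' := ⟨h1, h2, h3, h4, h5⟩
    have hRC : ∀ c : Nm S V W m, RC m e f b c Q ↔ RC m e f b c Q' := by
      intro c
      have hi : (c.1 : ℕ) < m := c.1.2
      have a1 : (b ^ (c.1 : ℕ) ∣ Q.length) ↔ (b ^ (c.1 : ℕ) ∣ Q'.length) := by
        rw [Nat.dvd_iff_mod_eq_zero, Nat.dvd_iff_mod_eq_zero, E.mod hi.le]
      have a2 : Q.length / b ^ (c.1 : ℕ) % b = Q'.length / b ^ (c.1 : ℕ) % b := by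
        have := E.mod (show (c.1 : ℕ) + 1 ≤ m from hi)
        rw [pow_succ] at this
        rw [← Nat.mod_mul_right_div_self, ← Nat.mod_mul_right_div_self, this]
      have a3 : ph f (Q.drop (Q.length % b ^ ((c.1 : ℕ) + 1))) =
          ph f (Q'.drop (Q'.length % b ^ ((c.1 : ℕ) + 1))) := by
        rw [E.mod (show (c.1 : ℕ) + 1 ≤ m from hi)]
        exact E.drop ((Nat.mod_lt _ (pow_pos hb _)).le.trans (Nat.pow_le_pow_right hb hi))
      have a4 : ∑ j ∈ Finset.Ico ((c.1 : ℕ) + 1) m, e j (blk f b Q j) =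
          ∑ j ∈ Finset.Ico ((c.1 : ℕ) + 1) m, e j (blk f b Q' j) :=
        Finset.sum_congr rfl fun j hj => by rw [E.blk hb (Finset.mem_Ico.1 hj).2]
      unfold RC
      rw [a1, a2, a3, a4]
    have hnR : nmR Q.length = nmR Q'.length := by rw [← hRm, E.modM, hRm]
    have hph : ph f Q = ph f Q' := by
      have := E.drop (u := 0) (Nat.zero_le _)
      simpa using this
    have hwt : wt m e f b Q = wt m e f b Q' :=
      Finset.sum_congr rfl fun j hj => by rw [E.blk hb (Finset.mem_range.1 hj)]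
    have hk : (∃ k ∈ Ms, k ∣ Q.length) ↔ (∃ k ∈ Ms, k ∣ Q'.length) := by
      refine exists_congr fun k => and_congr_right fun hk => ?_
      rw [Nat.dvd_iff_mod_eq_zero, Nat.dvd_iff_mod_eq_zero,
        show Q.length % k = Q'.length % k from Nat.ModEq.of_dvd (hMs k hk).2.2 E.modM]
    constructor
    · simp only [rho, hnR, hRC]
    · simp only [nu, hk, hph, hwt, E.modM]

end Crest.Agent.R320.G1_120
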