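import Mathlib
import Crest.Agent.R320.Names_755
import Crest.Agent.R320.Noise_513

set_option autoImplicit false

namespace Crest.Agent.R320.G1_140

open Finset

/-! ### arithmetic of digits -/

theorem modL (b i o o' j : ℕ) (hj : j ≤ i) (h : b ^ i ∣ o') : (o + o') % b ^ j = o % b ^ j := by
  have : b ^ j ∣ o' := (pow_dvd_pow b hj).trans h
  obtain ⟨c, rfl⟩ := this
  rw [Nat.add_mul_mod_self_left]

theorem lt_key (b i o o' : ℕ) (hb : 0 < b) (h1 : 2 * (o / b ^ i) < b) (h : b ^ i ∣ o')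
    (h2 : 2 * (o' / b ^ i % b) < b) : o + o' % b ^ (i + 1) < b ^ (i + 1) := by
  obtain ⟨c, rfl⟩ := h
  have hB : 0 < b ^ i := pow_pos hb i
  rw [Nat.mul_div_cancel_left _ hB] at h2
  rw [pow_succ, Nat.mul_mod_mul_left]
  have h3 := Nat.div_add_mod o (b ^ i)
  have h4 := Nat.mod_lt o hB
  have h5 : o / b ^ i + c % b + 1 ≤ b := by omega
  calc o + b ^ i * (c % b) < b ^ i * (o / b ^ i) + b ^ i + b ^ i * (c % b) := by omega
    _ = b ^ i * (o / b ^ i + c % b + 1) := by ring
    _ ≤ b ^ i * b := Nat.mul_le_mul_left _ h5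

theorem modR (b i o o' j : ℕ) (hb : 0 < b) (hj : i < j) (h1 : 2 * (o / b ^ i) < b)
    (h : b ^ i ∣ o') (h2 : 2 * (o' / b ^ i % b) < b) :
    (o + o') % b ^ j = o + o' % b ^ j := by
  have hk := lt_key b i o o' hb h1 h h2
  set B := b ^ (i + 1) with hBdef
  have hB : 0 < B := pow_pos hb _
  obtain ⟨k, hk'⟩ : B ∣ b ^ j := pow_dvd_pow b hj
  have hC : 0 < b ^ j := pow_pos hb _
  have hr : o' % b ^ j % B = o' % B := Nat.mod_mod_of_dvd _ ⟨k, hk'⟩
  have hlt : o' % b ^ j < b ^ j := Nat.mod_lt _ hC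
  have hdiv : o' % b ^ j / B < k := by
    rw [Nat.div_lt_iff_lt_mul hB]; rw [hk'] at hlt ⊢; rwa [mul_comm k B]
  have h3 := Nat.div_add_mod (o' % b ^ j) B
  rw [hr] at h3
  have h4 : o + o' % b ^ j < b ^ j := by
    calc o + o' % b ^ j = B * (o' % b ^ j / B) + (o + o' % B) := by omega
      _ < B * (o' % b ^ j / B) + B := by omega
      _ = B * (o' % b ^ j / B + 1) := by ring
      _ ≤ B * k := Nat.mul_le_mul_left _ hdiv
      _ = b ^ j := hk'.symm
  rw [Nat.add_mod, Nat.mod_eq_of_lt (a := o) (by omega), Nat.mod_eq_of_lt h4]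

section words

variable {A S : Type} [Monoid S] (f : A → S)

def ph (w : List A) : S := (w.map f).prod

theorem ph_append (u v : List A) : ph f (u ++ v) = ph f u * ph f v := by
  simp [ph]

def blk (X : List A) (a c : ℕ) : List A := (X.take c).drop a

theorem blk_left (P Q : List A) (a c : ℕ) (h : c ≤ P.length) :
    blk (P ++ Q) a c = blk P a c := by
  unfold blk
  rw [List.take_append_of_le_length h]

theorem blk_right (P Q : List A) (a c : ℕ) :
    blk (P ++ Q) (P.length + a) (P.length + c) = blk Q a c := by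
  unfold blk
  rw [List.take_length_add_append, List.drop_length_add_append]

theorem split3 (X : List A) (a c : ℕ) (hac : a ≤ c) :
    ph f X = ph f (X.take a) * ph f (blk X a c) * ph f (X.drop c) := by
  rw [← ph_append, ← ph_append]
  congr 1
  unfold blk
  have h1 : X.take a = (X.take c).take a := by rw [List.take_take, min_eq_left hac]
  rw [h1, List.take_append_drop, List.take_append_drop]

end words

section gadget

variable {A S V W : Type} [Monoid S] [AddCommGroup V] [AddCommGroup W]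
  (f : A → S) (act : V → S → V) (m b : ℕ) (e : ℕ → S → W) (F : S → W → V)

abbrev Nm (S V W : Type) (m : ℕ) : Type := Fin m × S × W × S × W × V

def WL (i o : ℕ) (P : List A) : W :=
  ∑ j ∈ range i, e j (ph f (blk P (o % b ^ j) (o % b ^ (j + 1))))

def WR (i o : ℕ) (Q : List A) : W :=
  ∑ j ∈ Ico (i + 1) m, e j (ph f (blk Q (o % b ^ j) (o % b ^ (j + 1))))

def WT (X : List A) (n : ℕ) : W :=
  ∑ j ∈ range m, e j (ph f (blk X (n % b ^ j) (n % b ^ (j + 1))))

def bv (c : Nm S V W m) : V :=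
  F (c.2.1 * 1 * c.2.2.2.1) (c.2.2.1 + e c.1 1 + c.2.2.2.2.1) +
    act c.2.2.2.2.2 (c.2.1 * 1 * c.2.2.2.1)

def Good (c : Nm S V W m) : Prop := ∀ z : S,
  F (c.2.1 * z * c.2.2.2.1) (c.2.2.1 + e c.1 z + c.2.2.2.2.1) +
    act c.2.2.2.2.2 (c.2.1 * z * c.2.2.2.1) = bv act m e F c

def LL (nmL : ℕ → Option (Nm S V W m)) (P : List A) (c : Nm S V W m) : Prop :=
  nmL P.length = some c ∧ Good act m e F c ∧ P.length < b ^ ((c.1 : ℕ) + 1) ∧
    2 * (P.length / b ^ (c.1 : ℕ)) < b ∧ ph f (P.take (P.length % b ^ (c.1 : ℕ))) = c.2.1 ∧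
    WL f b e c.1 P.length P = c.2.2.1

def RR (nmR : ℕ → Option (Nm S V W m)) (Q : List A) (c : Nm S V W m) : Prop :=
  nmR Q.length = some c ∧ Good act m e F c ∧ b ^ (c.1 : ℕ) ∣ Q.length ∧
    2 * (Q.length / b ^ (c.1 : ℕ) % b) < b ∧
    ph f (Q.drop (Q.length % b ^ ((c.1 : ℕ) + 1))) = c.2.2.2.1 ∧
    WR f m b e c.1 Q.length Q = c.2.2.2.2.1

open Classical in
noncomputable def lam (nmL : ℕ → Option (Nm S V W m)) (P : List A) : Option V :=
  if h : ∃ c, LL f act m b e F nmL P c then some h.choose.2.2.2.2.2 else none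

open Classical in
noncomputable def rho (nmR : ℕ → Option (Nm S V W m)) (Q : List A) : Option V :=
  if h : ∃ c, RR f act m b e F nmR Q c then some (bv act m e F h.choose) else none

theorem lam_iff (nmL : ℕ → Option (Nm S V W m)) (P : List A) (v : V) :
    lam f act m b e F nmL P = some v ↔ ∃ c, LL f act m b e F nmL P c ∧ c.2.2.2.2.2 = v := by
  unfold lam
  split_ifs with h
  · constructor
    · intro hv
      exact ⟨h.choose, h.choose_spec, Option.some.inj hv⟩
    · rintro ⟨c, hc, hv⟩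
      have h1 := h.choose_spec.1
      have h2 := hc.1
      rw [h1] at h2
      rw [Option.some.inj h2, hv]
  · constructor
    · intro hv; cases hv
    · rintro ⟨c, hc, -⟩; exact (h ⟨c, hc⟩).elim

theorem rho_iff (nmR : ℕ → Option (Nm S V W m)) (Q : List A) (v : V) :
    rho f act m b e F nmR Q = some v ↔ ∃ c, RR f act m b e F nmR Q c ∧ bv act m e F c = v := by
  unfold rho
  split_ifs with h
  · constructor
    · intro hv
      exact ⟨h.choose, h.choose_spec, Option.some.inj hv⟩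
    · rintro ⟨c, hc, hv⟩
      have h1 := h.choose_spec.1
      have h2 := hc.1
      rw [h1] at h2
      rw [Option.some.inj h2, hv]
  · constructor
    · intro hv; cases hv
    · rintro ⟨c, hc, -⟩; exact (h ⟨c, hc⟩).elim

theorem sum_split (i : ℕ) (hi : i < m) (g : ℕ → W) :
    ∑ j ∈ range m, g j = ∑ j ∈ range i, g j + g i + ∑ j ∈ Ico (i + 1) m, g j := by
  rw [← Finset.sum_range_succ, Finset.sum_range_add_sum_Ico _ hi]

/-- the data of the two sides are the data of the whole word -/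
theorem data (hb : 0 < b) (P Q : List A) (i : ℕ) (hi : i < m)
    (h1 : 2 * (P.length / b ^ i) < b)
    (h : b ^ i ∣ Q.length) (h2 : 2 * (Q.length / b ^ i % b) < b) :
    ph f (P ++ Q) = ph f (P.take (P.length % b ^ i)) *
        ph f (blk (P ++ Q) ((P ++ Q).length % b ^ i) ((P ++ Q).length % b ^ (i + 1))) *
        ph f (Q.drop (Q.length % b ^ (i + 1))) ∧
      WT f m b e (P ++ Q) (P ++ Q).length = WL f b e i P.length P +
        e i (ph f (blk (P ++ Q) ((P ++ Q).length % b ^ i) ((P ++ Q).length % b ^ (i + 1)))) +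
        WR f m b e i Q.length Q := by
  have hn : (P ++ Q).length = P.length + Q.length := List.length_append
  rw [hn]
  have e1 : (P.length + Q.length) % b ^ i = P.length % b ^ i := modL b i _ _ i le_rfl h
  have e2 : (P.length + Q.length) % b ^ (i + 1) = P.length + Q.length % b ^ (i + 1) :=
    modR b i _ _ _ hb (Nat.lt_succ_self i) h1 h h2
  have hle : P.length % b ^ i ≤ P.length := Nat.mod_le _ _
  constructor
  · rw [split3 f (P ++ Q) ((P.length + Q.length) % b ^ i) ((P.length + Q.length) % b ^ (i + 1))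
      (by rw [e1, e2]; exact le_trans hle (Nat.le_add_right _ _))]
    congr 1
    · congr 1
      rw [e1, List.take_append_of_le_length hle]
    · rw [e2, List.drop_length_add_append]
  · unfold WT WL WR
    rw [sum_split m i hi]
    congr 1
    · congr 1
      refine Finset.sum_congr rfl fun j hj => ?_
      rw [mem_range] at hj
      rw [modL b i _ _ j hj.le h, modL b i _ _ (j + 1) hj h,
        blk_left P Q _ _ (Nat.mod_le _ _)]
    · refine Finset.sum_congr rfl fun j hj => ?_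
      rw [mem_Ico] at hj
      rw [modR b i _ _ j hb (by omega) h1 h h2, modR b i _ _ (j + 1) hb (by omega) h1 h h2,
        blk_right]

theorem sound_eq (hb : 0 < b) (nmL nmR : ℕ → Option (Nm S V W m)) (P Q : List A)
    (c : Nm S V W m) (hL : LL f act m b e F nmL P c) (hR : RR f act m b e F nmR Q c) :
    bv act m e F c = act c.2.2.2.2.2 (ph f (P ++ Q)) +
      F (ph f (P ++ Q)) (WT f m b e (P ++ Q) (P ++ Q).length) := by
  obtain ⟨-, hG, -, l1, l2, l3⟩ := hL
  obtain ⟨-, -, r0, r1, r2, r3⟩ := hR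
  obtain ⟨d1, d2⟩ := data f m b e hb P Q c.1 c.1.2 l1 r0 r1
  rw [l2, r2] at d1
  rw [l3, r3] at d2
  rw [d1, d2, ← hG (ph f (blk (P ++ Q) ((P ++ Q).length % b ^ (c.1 : ℕ))
    ((P ++ Q).length % b ^ ((c.1 : ℕ) + 1)))), add_comm]

theorem blk_take (X : List A) (B a c : ℕ) (h : c ≤ B) : blk X a c = blk (X.take B) a c := by
  unfold blk
  rw [List.take_take, min_eq_left h]

theorem drop_split (X : List A) (B x : ℕ) (h : x ≤ B) (hB : B ≤ X.length) :
    X.drop x = (X.take B).drop x ++ X.drop B := by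
  conv_lhs => rw [← List.take_append_drop B X]
  rw [List.drop_append_of_le_length (by rw [List.length_take]; omega)]

theorem RR_congr (hb : 0 < b) (M : ℕ) (nmR : ℕ → Option (Nm S V W m))
    (hper : ∀ t t' : ℕ, t % M = t' % M → nmR t = nmR t') (Q Q' : List A)
    (h1 : b ^ m ≤ Q.length) (h2 : b ^ m ≤ Q'.length) (h3 : Q.take (b ^ m) = Q'.take (b ^ m))
    (h4 : Q.length % (M * b ^ m) = Q'.length % (M * b ^ m))
    (h5 : ph f (Q.drop (b ^ m)) = ph f (Q'.drop (b ^ m))) (c : Nm S V W m)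
    (h : RR f act m b e F nmR Q c) : RR f act m b e F nmR Q' c := by
  obtain ⟨r1, r2, r3, r4, r5, r6⟩ := h
  have hM : Q.length % M = Q'.length % M :=
    Nat.ModEq.of_dvd (Dvd.intro _ rfl) (h4 : Q.length ≡ Q'.length [MOD M * b ^ m])
  have hj : ∀ j ≤ m, Q.length % b ^ j = Q'.length % b ^ j := fun j hj =>
    Nat.ModEq.of_dvd ((pow_dvd_pow b hj).trans (Dvd.intro_left _ rfl))
      (h4 : Q.length ≡ Q'.length [MOD M * b ^ m])
  have hlt : ∀ j ≤ m, ∀ n : ℕ, n % b ^ j ≤ b ^ m := fun j hj n =>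
    ((Nat.mod_lt n (pow_pos hb j)).le).trans (Nat.pow_le_pow_right hb hj)
  have hi : (c.1 : ℕ) < m := c.1.2
  refine ⟨?_, r2, ?_, ?_, ?_, ?_⟩
  · rw [← r1]; exact hper _ _ hM.symm
  · rw [Nat.dvd_iff_mod_eq_zero, ← hj _ hi.le]; exact Nat.mod_eq_zero_of_dvd r3
  · rw [← Nat.mod_mul_right_div_self, ← pow_succ] at r4 ⊢
    rw [← hj _ hi]; exact r4
  · rw [← r5, ← hj _ hi, drop_split Q (b ^ m) _ (hlt _ hi _) h1,
      drop_split Q' (b ^ m) _ (hlt _ hi _) h2, ph_append, ph_append, h3, h5]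
  · rw [← r6]
    unfold WR
    refine Finset.sum_congr rfl fun j hj' => ?_
    rw [mem_Ico] at hj'
    rw [← hj j (by omega), ← hj (j + 1) (by omega),
      blk_take Q (b ^ m) _ _ (hlt (j + 1) (by omega) _),
      blk_take Q' (b ^ m) _ _ (hlt (j + 1) (by omega) _), h3]

theorem rho_congr (hb : 0 < b) (M : ℕ) (nmR : ℕ → Option (Nm S V W m))
    (hper : ∀ t t' : ℕ, t % M = t' % M → nmR t = nmR t') (Q Q' : List A)
    (h1 : b ^ m ≤ Q.length) (h2 : b ^ m ≤ Q'.length) (h3 : Q.take (b ^ m) = Q'.take (b ^ m))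
    (h4 : Q.length % (M * b ^ m) = Q'.length % (M * b ^ m))
    (h5 : ph f (Q.drop (b ^ m)) = ph f (Q'.drop (b ^ m))) :
    rho f act m b e F nmR Q = rho f act m b e F nmR Q' := by
  apply Option.ext
  intro v
  rw [rho_iff, rho_iff]
  constructor
  · rintro ⟨c, hc, hv⟩
    exact ⟨c, RR_congr f act m b e F hb M nmR hper Q Q' h1 h2 h3 h4 h5 c hc, hv⟩
  · rintro ⟨c, hc, hv⟩
    exact ⟨c, RR_congr f act m b e F hb M nmR hper Q' Q h2 h1 h3.symm h4.symm h5.symm c hc, hv⟩

theorem WT_congr (hb : 0 < b) (M : ℕ) (Q Q' : List A)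
    (h3 : Q.take (b ^ m) = Q'.take (b ^ m))
    (h4 : Q.length % (M * b ^ m) = Q'.length % (M * b ^ m)) :
    WT f m b e Q Q.length = WT f m b e Q' Q'.length := by
  have hj : ∀ j ≤ m, Q.length % b ^ j = Q'.length % b ^ j := fun j hj =>
    Nat.ModEq.of_dvd ((pow_dvd_pow b hj).trans (Dvd.intro_left _ rfl))
      (h4 : Q.length ≡ Q'.length [MOD M * b ^ m])
  have hlt : ∀ j ≤ m, ∀ n : ℕ, n % b ^ j ≤ b ^ m := fun j hj n =>
    ((Nat.mod_lt n (pow_pos hb j)).le).trans (Nat.pow_le_pow_right hb hj)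
  unfold WT
  refine Finset.sum_congr rfl fun j hj' => ?_
  rw [mem_range] at hj'
  rw [← hj j (by omega), ← hj (j + 1) (by omega),
    blk_take Q (b ^ m) _ _ (hlt (j + 1) (by omega) _),
    blk_take Q' (b ^ m) _ _ (hlt (j + 1) (by omega) _), h3]

end gadget

theorem exists_place (b M i β d t : ℕ) (hM : 0 < M) (hcop : Nat.Coprime b M)
    (h1 : M ≤ d) (h2 : d + M + 1 ≤ b) :
    ∃ y, y ≤ d ∧ 2 * y < b ∧ 2 * (d - y) < b ∧ (β + b ^ i * y) % M = t % M := by
  have : NeZero M := ⟨hM.ne'⟩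
  let y0 : ℕ := (d - M + 1) / 2
  let tg : ZMod M := ((t : ZMod M) - (β : ZMod M)) * (((b ^ i : ℕ) : ZMod M))⁻¹
  have hval : (tg - (y0 : ZMod M)).val < M := ZMod.val_lt _
  have hy0 : y0 = (d - M + 1) / 2 := rfl
  refine ⟨y0 + (tg - (y0 : ZMod M)).val, by omega, by omega, by omega, ?_⟩
  rw [← ZMod.natCast_eq_natCast_iff']
  have hinv : (((b ^ i : ℕ) : ZMod M)) * (((b ^ i : ℕ) : ZMod M))⁻¹ = 1 :=
    ZMod.coe_mul_inv_eq_one _ (Nat.Coprime.pow_left i hcop)
  have hy : ((y0 + (tg - (y0 : ZMod M)).val : ℕ) : ZMod M) = tg := by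
    rw [Nat.cast_add, ZMod.natCast_zmod_val]; ring
  rw [Nat.cast_add, Nat.cast_mul, hy]
  have : (((b ^ i : ℕ) : ZMod M)) * tg = (t : ZMod M) - (β : ZMod M) := by
    have : (((b ^ i : ℕ) : ZMod M)) * tg =
      ((t : ZMod M) - (β : ZMod M)) * ((((b ^ i : ℕ) : ZMod M)) * (((b ^ i : ℕ) : ZMod M))⁻¹) := by
      simp only [tg]; ring
    rw [this, hinv, mul_one]
  rw [this]; ring

theorem per_mul {N : Type} {M : ℕ} {nm : ℕ → Option N} (h : ∀ t, nm (t + M) = nm t) (t k : ℕ) :
    nm (t + M * k) = nm t := by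
  induction k with
  | zero => simp
  | succ k ih => rw [Nat.mul_succ, ← add_assoc, h, ih]

theorem per_mod {N : Type} {M : ℕ} {nm : ℕ → Option N} (h : ∀ t, nm (t + M) = nm t) (t t' : ℕ)
    (ht : t % M = t' % M) : nm t = nm t' := by
  rw [← Nat.mod_add_div t M, ← Nat.mod_add_div t' M, per_mul h, per_mul h, ht]

/-- **the U-gadget on all words** (852's form: levels = positional digits of the length) -/
theorem g1 (S V : Type) [Monoid S] [Finite S] [AddCommGroup V] [Finite V] (act : V → S → V) :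
    ∃ m r : ℕ, ∀ Bd : ℕ, ∃ (Ms : Finset ℕ) (M : ℕ), Ms.card ≤ r ∧
      (∀ k ∈ Ms, Bd < k ∧ k.Prime ∧ k ∣ M) ∧ 0 < M ∧
      ∀ b : ℕ, 4 * M + 4 < b → Nat.Coprime b M → ∀ (A : Type) (f : A → S),
        ∃ (lam rho : List A → Option V) (nu : List A → V),
          (∀ P v, lam P = some v → P.length < b ^ m) ∧
          (∀ P Q v v', lam P = some v → rho Q = some v' →
            v' = act v ((P ++ Q).map f).prod + nu (P ++ Q)) ∧
          (∀ X : List A, (∀ k ∈ Ms, ¬ k ∣ X.length) →
            (∀ j < m, M ≤ X.length / b ^ j % b ∧ X.length / b ^ j % b + M + 1 ≤ b) →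
            ∀ v, ∃ P Q, P ++ Q = X ∧ lam P = some v ∧ (rho Q).isSome) ∧
          (∀ Q Q' : List A, b ^ m ≤ Q.length → b ^ m ≤ Q'.length →
            Q.take (b ^ m) = Q'.take (b ^ m) →
            Q.length % (M * b ^ m) = Q'.length % (M * b ^ m) →
            ((Q.drop (b ^ m)).map f).prod = ((Q'.drop (b ^ m)).map f).prod →
            rho Q = rho Q' ∧ nu Q = nu Q') := by
  classical
  obtain ⟨W, iW, fW, m, e0, F, hF⟩ := Noise513.explicit_noise S V act
  let e : ℕ → S → W := fun j z => if h : j < m then e0 ⟨j, h⟩ z else 0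
  have he : ∀ i : Fin m, e (i : ℕ) = e0 i := fun i => by
    funext z; simp [e]
  obtain ⟨r, hr⟩ := Names755.names (Nm S V W m) (V × V)
    (fun c => (c.2.2.2.2.2, bv act m e F c))
  refine ⟨m, r, fun Bd => ?_⟩
  obtain ⟨Ms, M, nmL, nmR, h1, h2, h3, pL, pR, nA, nC, nK⟩ := hr Bd
  refine ⟨Ms, M, h1, h2, h3, fun b hb4 hcop A f => ?_⟩
  have hb : 0 < b := by omega
  let CC : ℕ → V × V := fun r =>
    if h : ∃ q : ℕ × ℕ × Nm S V W m × Nm S V W m, (q.1 + q.2.1) % M = r ∧
      nmL q.1 = some q.2.2.1 ∧ nmR q.2.1 = some q.2.2.2 then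
      (h.choose.2.2.1.2.2.2.2.2, bv act m e F h.choose.2.2.2) else (0, 0)
  have hCC : ∀ (t t' : ℕ) (c c' : Nm S V W m), nmL t = some c → nmR t' = some c' →
      (∃ k ∈ Ms, k ∣ t + t') →
      (CC ((t + t') % M)).1 = c.2.2.2.2.2 ∧ (CC ((t + t') % M)).2 = bv act m e F c' := by
    intro t t' c c' hc hc' hk
    have hex : ∃ q : ℕ × ℕ × Nm S V W m × Nm S V W m, (q.1 + q.2.1) % M = (t + t') % M ∧
      nmL q.1 = some q.2.2.1 ∧ nmR q.2.1 = some q.2.2.2 := ⟨(t, t', c, c'), rfl, hc, hc'⟩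
    obtain ⟨q1, q2, q3⟩ := hex.choose_spec
    set q := hex.choose with hq
    have hsum : q.1 + (q.2.1 + M * ((t + t') / M)) = t + (t' + M * ((q.1 + q.2.1) / M)) := by
      have a1 := Nat.mod_add_div (t + t') M
      have a2 := Nat.mod_add_div (q.1 + q.2.1) M
      omega
    obtain ⟨k, hkM, hkd⟩ := hk
    have := nK q.1 (q.2.1 + M * ((t + t') / M)) t (t' + M * ((q.1 + q.2.1) / M)) _ _ _ _ q2
      (by rw [per_mul pR]; exact q3) hc (by rw [per_mul pR]; exact hc') hsum
      ⟨k, hkM, by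
        rw [hsum, ← add_assoc]
        exact Nat.dvd_add hkd ((h2 k hkM).2.2.mul_right _)⟩
    have hCCe : CC ((t + t') % M) = (q.2.2.1.2.2.2.2.2, bv act m e F q.2.2.2) := by
      simp only [CC]
      rw [dif_pos hex]
    rw [hCCe]
    simp only [Prod.mk.injEq] at this
    exact ⟨this.1.1, this.2.2⟩
  refine ⟨lam f act m b e F nmL, rho f act m b e F nmR,
    fun X => if ∀ k ∈ Ms, ¬ k ∣ X.length then F (ph f X) (WT f m b e X X.length)
      else (CC (X.length % M)).2 - act (CC (X.length % M)).1 (ph f X), ?_, ?_, ?_, ?_⟩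
  · intro P v hP
    obtain ⟨c, hc, -⟩ := (lam_iff f act m b e F nmL P v).1 hP
    exact hc.2.2.1.trans_le (Nat.pow_le_pow_right hb c.1.2)
  · intro P Q v v' hP hQ
    obtain ⟨c, hc, rfl⟩ := (lam_iff f act m b e F nmL P v).1 hP
    obtain ⟨c', hc', rfl⟩ := (rho_iff f act m b e F nmR Q v').1 hQ
    have hn : (P ++ Q).length = P.length + Q.length := List.length_append
    by_cases hk : ∀ k ∈ Ms, ¬ k ∣ (P ++ Q).length
    · have hcc : c = c' := nA _ _ _ _ hc.1 hc'.1 (by rw [← hn]; exact hk)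
      subst hcc
      simp only [if_pos hk]
      exact sound_eq f act m b e F hb nmL nmR P Q c hc hc'
    · simp only [if_neg hk]
      push Not at hk
      obtain ⟨q1, q2⟩ := hCC _ _ _ _ hc.1 hc'.1 (by rw [← hn]; exact hk)
      rw [hn, q1, q2]
      show _ = act c.2.2.2.2.2 (ph f (P ++ Q)) + (_ - act c.2.2.2.2.2 (ph f (P ++ Q)))
      abel
  · intro X hX hdig v
    obtain ⟨i, hi⟩ := hF (ph f X) (WT f m b e X X.length) v
    set n := X.length with hn
    have hBi : 0 < b ^ (i : ℕ) := pow_pos hb _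
    obtain ⟨hd1, hd2⟩ := hdig i i.2
    set β := n % b ^ (i : ℕ) with hβ
    set d := n / b ^ (i : ℕ) % b with hd
    have hdn : b ^ (i : ℕ) * (n / b ^ (i : ℕ)) + β = n := Nat.div_add_mod n _
    have hdle : d ≤ n / b ^ (i : ℕ) := Nat.mod_le _ _
    -- the data of the whole word
    let z := ph f (blk X (n % b ^ (i : ℕ)) (n % b ^ ((i : ℕ) + 1)))
    let c : Nm S V W m := (i, ph f (X.take β), WL f b e i n X,
      ph f (X.drop (n % b ^ ((i : ℕ) + 1))), WR f m b e i n X, v)
    obtain ⟨t, htM, htL, htR⟩ := nC n hX c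
    obtain ⟨y, y1, y2, y3, y4⟩ := exists_place b M i β d t h3 hcop hd1 hd2
    have hy : y ≤ n / b ^ (i : ℕ) := y1.trans hdle
    let o := β + b ^ (i : ℕ) * y
    have hβlt : β < b ^ (i : ℕ) := Nat.mod_lt _ hBi
    have hon : o ≤ n := by
      have := Nat.mul_le_mul_left (b ^ (i : ℕ)) hy
      simp only [o]; omega
    have hPl : (X.take o).length = o := by rw [List.length_take]; omega
    have hQl : (X.drop o).length = b ^ (i : ℕ) * (n / b ^ (i : ℕ) - y) := by
      rw [List.length_drop, Nat.mul_sub]; simp only [o]; omega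
    have hodiv : o / b ^ (i : ℕ) = y := by
      simp only [o]
      rw [Nat.add_mul_div_left _ _ hBi, Nat.div_eq_of_lt hβlt, zero_add]
    have homod : o % b ^ (i : ℕ) = β := by
      simp only [o]
      rw [Nat.add_mul_mod_self_left, Nat.mod_eq_of_lt hβlt]
    have hqmod : (n / b ^ (i : ℕ) - y) % b = d - y := by
      have h5 := Nat.div_add_mod (n / b ^ (i : ℕ)) b
      have h6 : n / b ^ (i : ℕ) - y = (d - y) + b * (n / b ^ (i : ℕ) / b) := by omega
      rw [h6, Nat.add_mul_mod_self_left, Nat.mod_eq_of_lt]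
      omega
    have hdivQ : (X.drop o).length / b ^ (i : ℕ) % b = d - y := by
      rw [hQl, Nat.mul_div_cancel_left _ hBi, hqmod]
    have hXe : X.take o ++ X.drop o = X := List.take_append_drop o X
    have hlen : (X.take o).length + (X.drop o).length = n := by
      rw [← List.length_append, hXe]
    have a1 : 2 * ((X.take o).length / b ^ (i : ℕ)) < b := by rw [hPl, hodiv]; exact y2
    have a2 : b ^ (i : ℕ) ∣ (X.drop o).length := by rw [hQl]; exact Dvd.intro _ rfl
    have a3 : 2 * ((X.drop o).length / b ^ (i : ℕ) % b) < b := by rw [hdivQ]; exact y3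
    have e2 : ∀ j, (i : ℕ) < j → n % b ^ j = (X.take o).length + (X.drop o).length % b ^ j := by
      intro j hj
      rw [← hlen]; exact modR b i _ _ j hb hj a1 a2 a3
    have e1 : ∀ j, j ≤ (i : ℕ) → n % b ^ j = (X.take o).length % b ^ j := by
      intro j hj
      rw [← hlen]; exact modL b i _ _ j hj a2
    have hgood : Good act m e F c := by
      have hkey : ∀ z', F (c.2.1 * z' * c.2.2.2.1) (c.2.2.1 + e c.1 z' + c.2.2.2.2.1) +
          act c.2.2.2.2.2 (c.2.1 * z' * c.2.2.2.1) =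
          F (ph f X) (WT f m b e X n) + act v (ph f X) := by
        intro z'
        have hs : ph f (X.take β) * z * ph f (X.drop (n % b ^ ((i : ℕ) + 1))) = ph f X := by
          refine (split3 f X β (n % b ^ ((i : ℕ) + 1)) ?_).symm
          rw [hβ]
          have : n % b ^ (i : ℕ) = n % b ^ ((i : ℕ) + 1) % b ^ (i : ℕ) :=
            (Nat.mod_mod_of_dvd _ (pow_dvd_pow b (Nat.le_succ _))).symm
          rw [this]; exact Nat.mod_le _ _
        have hw : WT f m b e X n = WL f b e i n X + e i z + WR f m b e i n X := by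
          unfold WT WL WR
          exact sum_split m i i.2 _
        rw [← hi _ z _ hs z', hw, he]
        simp only [c]
        rw [show WL f b e (↑i) n X + e0 i z + WR f m b e (↑i) n X - e0 i z + e0 i z' =
          WL f b e (↑i) n X + e0 i z' + WR f m b e (↑i) n X by abel]
      intro z'
      rw [hkey z']
      exact (hkey 1).symm
    refine ⟨X.take o, X.drop o, hXe, (lam_iff f act m b e F nmL _ v).2 ⟨c, ?_, rfl⟩, ?_⟩
    · refine ⟨?_, hgood, ?_, a1, ?_, ?_⟩
      · rw [hPl, ← htL]; exact per_mod pL _ _ y4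
      · rw [hPl]
        show o < b ^ ((i : ℕ) + 1)
        calc o < b ^ (i : ℕ) + b ^ (i : ℕ) * y := by simp only [o]; omega
          _ = b ^ (i : ℕ) * (y + 1) := by ring
          _ ≤ b ^ (i : ℕ) * b := Nat.mul_le_mul_left _ (by omega)
          _ = b ^ ((i : ℕ) + 1) := (pow_succ _ _).symm
      · show ph f ((X.take o).take ((X.take o).length % b ^ (i : ℕ))) = ph f (X.take β)
        rw [hPl, homod, List.take_take, min_eq_left]
        simp only [o]; omega
      · show WL f b e i (X.take o).length (X.take o) = WL f b e i n X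
        unfold WL
        refine Finset.sum_congr rfl fun j hj => ?_
        rw [mem_range] at hj
        rw [← e1 j hj.le, ← e1 (j + 1) hj]
        congr 2
        unfold blk
        rw [List.take_take, min_eq_left]
        rw [e1 (j + 1) hj, hPl]; exact Nat.mod_le _ _
    · rw [Option.isSome_iff_exists]
      refine ⟨bv act m e F c, (rho_iff f act m b e F nmR _ _).2 ⟨c, ?_, rfl⟩⟩
      refine ⟨?_, hgood, a2, a3, ?_, ?_⟩
      · have hmod : t + (X.drop o).length ≡ n [MOD M] := by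
          have h7 : t ≡ (X.take o).length [MOD M] := by
            rw [hPl]; exact y4.symm
          have := Nat.ModEq.add_right (X.drop o).length h7
          rwa [hlen] at this
        exact htR _ hmod
      · show ph f ((X.drop o).drop ((X.drop o).length % b ^ ((i : ℕ) + 1))) =
          ph f (X.drop (n % b ^ ((i : ℕ) + 1)))
        rw [List.drop_drop, e2 _ (Nat.lt_succ_self _), hPl]
      · show WR f m b e i (X.drop o).length (X.drop o) = WR f m b e i n X
        unfold WR
        refine Finset.sum_congr rfl fun j hj => ?_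
        rw [mem_Ico] at hj
        rw [e2 j (by omega), e2 (j + 1) (by omega)]
        congr 2
        have := blk_right (X.take o) (X.drop o) ((X.drop o).length % b ^ j)
          ((X.drop o).length % b ^ (j + 1))
        rw [hXe] at this
        exact this.symm
  · intro Q Q' q1 q2 q3 q4 q5
    have hM : Q.length % M = Q'.length % M :=
      Nat.ModEq.of_dvd (Dvd.intro _ rfl) (q4 : Q.length ≡ Q'.length [MOD M * b ^ m])
    refine ⟨rho_congr f act m b e F hb M nmR (per_mod pR) Q Q' q1 q2 q3 q4 q5, ?_⟩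
    have hph : ph f Q = ph f Q' := by
      rw [← List.take_append_drop (b ^ m) Q, ← List.take_append_drop (b ^ m) Q', ph_append,
        ph_append, q3]
      congr 1
    have hks : (∀ k ∈ Ms, ¬ k ∣ Q.length) ↔ (∀ k ∈ Ms, ¬ k ∣ Q'.length) := by
      refine forall₂_congr fun k hk => not_congr ?_
      exact Nat.ModEq.dvd_iff (hM : Q.length ≡ Q'.length [MOD M]) (h2 k hk).2.2
    have hWT := WT_congr f m b e hb M Q Q' q3 q4
    simp only [hks, hph, hWT, hM]

end Crest.Agent.R320.G1_140
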