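import Mathlib
import Crest.Agent.R320.Names_755
import Crest.Agent.R320.Exact_355

set_option autoImplicit false

/-!
Row 320, leaf `g1` (helper852 #13483, lead #13673): the digit gadget.
Boundaries of the blocks of a word of length `n` are `n % b ^ j`; names by CRT (755), exact gadget
with names (355).
-/

namespace Crest.Agent.R320.G1_144

universe u

section words

variable {A S : Type*} [Monoid S]

/-- the value of a word -/
def ph (f : A → S) (X : List A) : S := (X.map f).prod

theorem ph_append (f : A → S) (X Y : List A) : ph f (X ++ Y) = ph f X * ph f Y := by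
  simp [ph]

/-- value of the factor `X[a, c)` -/
def seg (f : A → S) (X : List A) (a c : ℕ) : S := ph f ((X.take c).drop a)

theorem seg_mul (f : A → S) (X : List A) {a c : ℕ} (h : a ≤ c) :
    ph f (X.take a) * seg f X a c = ph f (X.take c) := by
  rw [seg, ← ph_append]
  congr 1
  have : X.take a = (X.take c).take a := by rw [List.take_take, min_eq_left h]
  rw [this, List.take_append_drop]

/-- right end of block `j` -/
def en (m b n j : ℕ) : ℕ := if j + 1 = m then n else n % b ^ (j + 1)

/-- value of block `j` -/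
def blk (f : A → S) (m b : ℕ) (X : List A) (j : ℕ) : S :=
  seg f X (X.length % b ^ j) (en m b X.length j)

/-- all blocks -/
def bl (f : A → S) (m b : ℕ) (X : List A) : List S := (List.range m).map (blk f m b X)

/-- blocks before `i` -/
def preL (f : A → S) (m b : ℕ) (X : List A) (i : ℕ) : List S := (List.range i).map (blk f m b X)

/-- blocks behind `i` -/
def postL (f : A → S) (m b : ℕ) (X : List A) (i : ℕ) : List S :=
  (List.range (m - 1 - i)).map (fun t => blk f m b X (i + 1 + t))

theorem range_split {B : Type*} (g : ℕ → B) {m i : ℕ} (h : i < m) :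
    (List.range m).map g =
      (List.range i).map g ++ g i :: (List.range (m - 1 - i)).map (fun t => g (i + 1 + t)) := by
  have e : m = i + ((m - 1 - i) + 1) := by omega
  conv_lhs => rw [e]
  rw [List.range_add, List.map_append, List.range_succ_eq_map]
  simp only [List.map_cons, List.map_map, add_zero]
  congr 2
  apply List.map_congr_left
  intro t _
  simp only [Function.comp]
  congr 1
  simp only [Nat.succ_eq_add_one]
  omega

theorem bl_split (f : A → S) (m b : ℕ) (X : List A) {i : ℕ} (h : i < m) :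
    bl f m b X = preL f m b X i ++ blk f m b X i :: postL f m b X i := range_split _ h

theorem mod_pow_le (b n j : ℕ) : n % b ^ j ≤ n % b ^ (j + 1) := by
  have : n % b ^ (j + 1) % b ^ j = n % b ^ j := Nat.mod_mod_of_dvd _ (pow_dvd_pow b (by omega))
  rw [← this]
  exact Nat.mod_le _ _

theorem preL_prod (f : A → S) (m b : ℕ) (X : List A) (i : ℕ) (h : i < m) :
    (preL f m b X i).prod = ph f (X.take (X.length % b ^ i)) := by
  induction i with
  | zero => simp [preL, ph, Nat.mod_one]
  | succ i ih =>
    have ih := ih (by omega)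
    simp only [preL] at ih ⊢
    rw [List.range_succ, List.map_append, List.prod_append, ih]
    simp only [List.map_cons, List.map_nil, List.prod_cons, List.prod_nil, mul_one]
    have e : en m b X.length i = X.length % b ^ (i + 1) := by
      rw [en, if_neg (by omega)]
    rw [blk, e]
    exact seg_mul f X (mod_pow_le _ _ _)

theorem bl_prod (f : A → S) (m b : ℕ) (hm : 0 < m) (X : List A) :
    (bl f m b X).prod = ph f X := by
  have h : m - 1 < m := by omega
  rw [bl_split f m b X h, List.prod_append, preL_prod f m b X (m - 1) h]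
  have e0 : postL f m b X (m - 1) = [] := by
    simp [postL]
  rw [e0]
  simp only [List.prod_cons, List.prod_nil, mul_one]
  have e : en m b X.length (m - 1) = X.length := by
    rw [en, if_pos (by omega)]
  rw [blk, e, seg_mul f X (Nat.mod_le _ _), List.take_length]

theorem bl_length (f : A → S) (m b : ℕ) (X : List A) : (bl f m b X).length = m := by
  simp [bl]

theorem preL_length (f : A → S) (m b : ℕ) (X : List A) (i : ℕ) :
    (preL f m b X i).length = i := by
  simp [preL]

/-- blocks before the cut -/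
theorem blk_left (f : A → S) (m b : ℕ) (P Q : List A) {i j : ℕ} (hj : j < i) (hi : i < m)
    (hd : b ^ i ∣ Q.length) : blk f m b (P ++ Q) j = blk f m b P j := by
  have h1 : ∀ l, l ≤ i → (P ++ Q).length % b ^ l = P.length % b ^ l := by
    intro l hl
    rw [List.length_append]
    obtain ⟨c, hc⟩ := dvd_trans (pow_dvd_pow b hl) hd
    rw [hc, Nat.add_mul_mod_self_left]
  have e1 : en m b (P ++ Q).length j = P.length % b ^ (j + 1) := by
    rw [en, if_neg (by omega), h1 _ (by omega)]
  have e2 : en m b P.length j = P.length % b ^ (j + 1) := by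
    rw [en, if_neg (by omega)]
  rw [blk, blk, e1, e2, h1 _ (by omega), seg, seg]
  rw [List.take_append_of_le_length (Nat.mod_le _ _)]

theorem no_carry {b i o o' : ℕ} (hb : 0 < b) (hd : b ^ i ∣ o') (ho : 2 * (o / b ^ i) < b)
    (ho' : 2 * ((o' / b ^ i) % b) < b) : o + o' % b ^ (i + 1) < b ^ (i + 1) := by
  have hB : 0 < b ^ i := pow_pos hb i
  have h1 : o' % b ^ (i + 1) = b ^ i * ((o' / b ^ i) % b) := by
    obtain ⟨c, rfl⟩ := hd
    rw [pow_succ, Nat.mul_mod_mul_left, Nat.mul_div_cancel_left _ hB]
  have h2 : o < b ^ i * (o / b ^ i + 1) := Nat.lt_mul_div_succ o hB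
  have h3 : b ^ i * (o / b ^ i + 1) + b ^ i * ((o' / b ^ i) % b) ≤ b ^ i * b := by
    rw [← Nat.mul_add]
    exact Nat.mul_le_mul_left _ (by omega)
  rw [h1, pow_succ]
  omega

theorem mod_right {b i o o' : ℕ} (hb : 0 < b) (hd : b ^ i ∣ o') (ho : 2 * (o / b ^ i) < b)
    (ho' : 2 * ((o' / b ^ i) % b) < b) {j : ℕ} (hj : i < j) :
    (o + o') % b ^ j = o + o' % b ^ j := by
  have h0 := no_carry hb hd ho ho'
  obtain ⟨D, hD⟩ : b ^ (i + 1) ∣ b ^ j := pow_dvd_pow b (by omega)
  have hC : 0 < b ^ j := pow_pos hb j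
  have h1 : (o' % b ^ j) % b ^ (i + 1) = o' % b ^ (i + 1) :=
    Nat.mod_mod_of_dvd _ (pow_dvd_pow b (by omega))
  have h2 : o' % b ^ j < b ^ (i + 1) * D := by rw [← hD]; exact Nat.mod_lt _ hC
  have h3 : (o' % b ^ j) / b ^ (i + 1) < D := Nat.div_lt_of_lt_mul h2
  have h4 := Nat.div_add_mod (o' % b ^ j) (b ^ (i + 1))
  have h5 : o + o' % b ^ j < b ^ j := by
    have h6 : b ^ (i + 1) * ((o' % b ^ j) / b ^ (i + 1) + 1) ≤ b ^ (i + 1) * D :=
      Nat.mul_le_mul_left _ h3
    rw [Nat.mul_add, Nat.mul_one, ← hD] at h6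
    rw [h1] at h4
    omega
  have h7 := Nat.div_add_mod o' (b ^ j)
  have h8 : o + o' = o + o' % b ^ j + b ^ j * (o' / b ^ j) := by omega
  rw [h8, Nat.add_mul_mod_self_left, Nat.mod_eq_of_lt h5]

/-- blocks behind the cut -/
theorem blk_right (f : A → S) (m b : ℕ) (hb : 0 < b) (P Q : List A) {i j : ℕ} (hj : i < j)
    (hd : b ^ i ∣ Q.length) (ho : 2 * (P.length / b ^ i) < b)
    (ho' : 2 * ((Q.length / b ^ i) % b) < b) : blk f m b (P ++ Q) j = blk f m b Q j := by
  have h1 : ∀ l, i < l → (P ++ Q).length % b ^ l = P.length + Q.length % b ^ l := by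
    intro l hl
    rw [List.length_append]
    exact mod_right hb hd ho ho' hl
  have e1 : en m b (P ++ Q).length j = P.length + en m b Q.length j := by
    rw [en, en]
    split_ifs with h
    · rw [List.length_append]
    · exact h1 _ (by omega)
  rw [blk, blk, e1, h1 _ hj, seg, seg]
  congr 1
  rw [List.take_append, List.drop_append]
  have e2 : P.take (P.length + en m b Q.length j) = P :=
    List.take_of_length_le (Nat.le_add_right _ _)
  rw [e2]
  have e3 : P.drop (P.length + Q.length % b ^ j) = [] :=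
    List.drop_eq_nil_of_le (Nat.le_add_right _ _)
  rw [e3]
  simp

theorem preL_left (f : A → S) (m b : ℕ) (P Q : List A) {i : ℕ} (hi : i < m)
    (hd : b ^ i ∣ Q.length) : preL f m b (P ++ Q) i = preL f m b P i := by
  apply List.map_congr_left
  intro j hj
  exact blk_left f m b P Q (List.mem_range.1 hj) hi hd

theorem postL_right (f : A → S) (m b : ℕ) (hb : 0 < b) (P Q : List A) {i : ℕ}
    (hd : b ^ i ∣ Q.length) (ho : 2 * (P.length / b ^ i) < b)
    (ho' : 2 * ((Q.length / b ^ i) % b) < b) : postL f m b (P ++ Q) i = postL f m b Q i := by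
  apply List.map_congr_left
  intro t _
  exact blk_right f m b hb P Q (by omega) hd ho ho'

theorem blk_congr (f : A → S) (m b Mo : ℕ) (Q Q' : List A)
    (h1 : b ^ m ≤ Q.length) (h2 : b ^ m ≤ Q'.length) (hb : 0 < b)
    (h3 : Q.take (b ^ m) = Q'.take (b ^ m))
    (h4 : Q.length % (Mo * b ^ m) = Q'.length % (Mo * b ^ m))
    (h5 : ph f (Q.drop (b ^ m)) = ph f (Q'.drop (b ^ m))) {j : ℕ} (hj : j < m) :
    blk f m b Q j = blk f m b Q' j := by
  have hmod : ∀ l, l ≤ m → Q.length % b ^ l = Q'.length % b ^ l := by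
    intro l hl
    have hdv : b ^ l ∣ Mo * b ^ m := Dvd.dvd.mul_left (pow_dvd_pow b hl) _
    rw [← Nat.mod_mod_of_dvd _ hdv, h4, Nat.mod_mod_of_dvd _ hdv]
  have hlt : ∀ (n : ℕ) (l : ℕ), l ≤ m → n % b ^ l ≤ b ^ m := by
    intro n l hl
    exact le_trans (Nat.mod_lt _ (pow_pos hb l)).le (Nat.pow_le_pow_right hb hl)
  rw [blk, blk, seg, seg]
  by_cases hjm : j + 1 = m
  · rw [en, en, if_pos hjm, if_pos hjm, List.take_length, List.take_length,
      hmod j (by omega)]
    have key : ∀ R : List A, b ^ m ≤ R.length →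
        R.drop (Q'.length % b ^ j) =
          (R.take (b ^ m)).drop (Q'.length % b ^ j) ++ R.drop (b ^ m) := by
      intro R hR
      conv_lhs => rw [← List.take_append_drop (b ^ m) R]
      rw [List.drop_append_of_le_length]
      rw [List.length_take, min_eq_left hR]
      exact hlt _ _ (by omega)
    rw [key Q h1, key Q' h2, ph_append, ph_append, h3, h5]
  · rw [en, en, if_neg hjm, if_neg hjm, hmod j (by omega), hmod (j + 1) (by omega)]
    have key : ∀ R : List A, R.take (Q'.length % b ^ (j + 1)) =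
        (R.take (b ^ m)).take (Q'.length % b ^ (j + 1)) := by
      intro R
      rw [List.take_take, min_eq_left (hlt _ _ (by omega))]
    rw [key Q, key Q', h3]

end words

theorem per {B : Type*} {g : ℕ → B} {M : ℕ} (h : ∀ t, g (t + M) = g t) {a c : ℕ}
    (e : a ≡ c [MOD M]) : g a = g c := by
  have hp : Function.Periodic g M := h
  rw [← hp.map_mod_nat a, ← hp.map_mod_nat c, e]

theorem bad_mod {Ms : Finset ℕ} {M : ℕ} (h : ∀ k ∈ Ms, k ∣ M) (n : ℕ) :
    (∃ k ∈ Ms, k ∣ n % M) ↔ ∃ k ∈ Ms, k ∣ n := by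
  constructor
  · rintro ⟨k, hk, hd⟩
    exact ⟨k, hk, (Nat.dvd_mod_iff (h k hk)).1 hd⟩
  · rintro ⟨k, hk, hd⟩
    exact ⟨k, hk, (Nat.dvd_mod_iff (h k hk)).2 hd⟩

theorem choose_y {b M n0 i t L : ℕ} (hM : 0 < M) (hbM : Nat.Coprime b M) :
    ∃ y, L ≤ y ∧ y < L + M ∧ n0 + b ^ i * y ≡ t [MOD M] := by
  haveI : NeZero M := ⟨hM.ne'⟩
  have hc : Nat.Coprime (b ^ i) M := Nat.Coprime.pow_left i hbM
  let un : (ZMod M)ˣ := ZMod.unitOfCoprime (b ^ i) hc
  have hun : (un : ZMod M) = ((b ^ i : ℕ) : ZMod M) := ZMod.coe_unitOfCoprime _ _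
  let y : ZMod M := (un⁻¹ : (ZMod M)ˣ) * ((t : ZMod M) - (n0 : ZMod M))
  refine ⟨L + (y - (L : ZMod M)).val, by omega, ?_, ?_⟩
  · have := ZMod.val_lt (y - (L : ZMod M))
    omega
  · rw [← ZMod.natCast_eq_natCast_iff]
    push_cast
    rw [ZMod.natCast_zmod_val]
    have h1 : ((b : ZMod M)) ^ i = (un : ZMod M) := by rw [hun]; push_cast; rfl
    rw [h1]
    have h2 : (un : ZMod M) * y = (t : ZMod M) - (n0 : ZMod M) := by
      simp only [y]
      rw [← mul_assoc, Units.mul_inv, one_mul]
    have h3 : (L : ZMod M) + (y - (L : ZMod M)) = y := by ring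
    rw [h3, h2]
    ring

/-- The digit gadget, universe polymorphic in the alphabet. -/
theorem g1u (S V : Type) [Monoid S] [Finite S] [AddCommGroup V] [Finite V] (act : V → S → V) :
    ∃ m r : ℕ, 0 < m ∧ ∀ Bd : ℕ, ∃ (Ms : Finset ℕ) (M : ℕ), Ms.card ≤ r ∧
      (∀ k ∈ Ms, Bd < k ∧ k.Prime ∧ k ∣ M) ∧ 0 < M ∧
      ∀ b : ℕ, 4 * M + 4 < b → Nat.Coprime b M → ∀ (A : Type u) (f : A → S),
        ∃ (lam rho : List A → Option V) (nu : List A → V),
          (∀ P v, lam P = some v → P.length < b ^ m) ∧
          (∀ P Q v v', lam P = some v → rho Q = some v' →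
            v' = act v ((P ++ Q).map f).prod + nu (P ++ Q)) ∧
          (∀ X, (∀ k ∈ Ms, ¬ k ∣ X.length) →
            (∀ j < m, M ≤ X.length / b ^ j % b ∧ X.length / b ^ j % b + M + 1 ≤ b) →
            ∀ v, ∃ P Q, P ++ Q = X ∧ lam P = some v ∧ (rho Q).isSome) ∧
          (∀ Q Q', b ^ m ≤ Q.length → b ^ m ≤ Q'.length → Q.take (b ^ m) = Q'.take (b ^ m) →
            Q.length % (M * b ^ m) = Q'.length % (M * b ^ m) →
            ((Q.drop (b ^ m)).map f).prod = ((Q'.drop (b ^ m)).map f).prod →
            rho Q = rho Q' ∧ nu Q = nu Q') := by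
  classical
  obtain ⟨m, K, idx, Lf, Rt, lab, rlab, nu0, hm, hidx, hsound, hcompl⟩ :=
    Exact_355.exact_names S V act
  obtain ⟨r, hr⟩ := Names755.names (Fin K) (V × V) (fun c => (lab c, rlab c))
  refine ⟨m, r, hm, fun Bd => ?_⟩
  obtain ⟨Ms, M, nmL, nmR, hcard, hMs, hM, hpL, hpR, hagree, hav, hcol⟩ := hr Bd
  refine ⟨Ms, M, hcard, hMs, hM, ?_⟩
  intro b hb hbM A f
  have hb0 : 0 < b := by omega
  -- legality
  let LL : List A → Fin K → Prop := fun P c => nmL P.length = some c ∧
    P.length < b ^ (idx c + 1) ∧ 2 * (P.length / b ^ idx c) < b ∧ Lf c (preL f m b P (idx c))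
  let RR : List A → Fin K → Prop := fun Q c => nmR Q.length = some c ∧
    b ^ idx c ∣ Q.length ∧ 2 * ((Q.length / b ^ idx c) % b) < b ∧ Rt c (postL f m b Q (idx c))
  let lam : List A → Option V := fun P => if h : ∃ c, LL P c then some (lab h.choose) else none
  let rho : List A → Option V := fun Q => if h : ∃ c, RR Q c then some (rlab h.choose) else none
  let pick : ℕ → Option (Fin K × Fin K) := fun r' =>
    if h : ∃ p : Fin K × Fin K, ∃ t t', nmL t = some p.1 ∧ nmR t' = some p.2 ∧ (t + t') % M = r'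
    then some h.choose else none
  let nb : ℕ → S → V := fun r' s =>
    match pick r' with
    | some p => rlab p.2 - act (lab p.1) s
    | none => 0
  let nu : List A → V := fun X => if ∃ k ∈ Ms, k ∣ X.length % M then nb (X.length % M) (ph f X)
    else nu0 (bl f m b X)
  have hlam : ∀ P v, lam P = some v → ∃ c, LL P c ∧ lab c = v := by
    intro P v h
    simp only [lam] at h
    split_ifs at h with h'
    exact ⟨h'.choose, h'.choose_spec, by simpa using h⟩
  have hrho : ∀ Q v, rho Q = some v → ∃ c, RR Q c ∧ rlab c = v := by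
    intro Q v h
    simp only [rho] at h
    split_ifs at h with h'
    exact ⟨h'.choose, h'.choose_spec, by simpa using h⟩
  have hlam' : ∀ P c, LL P c → lam P = some (lab c) := by
    intro P c h
    have h' : ∃ c, LL P c := ⟨c, h⟩
    simp only [lam, dif_pos h']
    have h1 := h'.choose_spec.1
    have h2 := h.1
    rw [h1] at h2
    rw [Option.some.inj h2]
  refine ⟨lam, rho, nu, ?_, ?_, ?_, ?_⟩
  · -- length
    intro P v h
    obtain ⟨c, hc, -⟩ := hlam P v h
    exact lt_of_lt_of_le hc.2.1 (Nat.pow_le_pow_right hb0 (hidx c))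
  · -- sound
    intro P Q v v' hP hQ
    obtain ⟨c, ⟨hc1, hc2, hc3, hc4⟩, rfl⟩ := hlam P v hP
    obtain ⟨c', ⟨hd1, hd2, hd3, hd4⟩, rfl⟩ := hrho Q v' hQ
    have hlen : (P ++ Q).length = P.length + Q.length := List.length_append
    by_cases hbad : ∃ k ∈ Ms, k ∣ (P ++ Q).length % M
    · have hbad' : ∃ k ∈ Ms, k ∣ P.length + Q.length := by
        rw [← hlen]
        exact (bad_mod (fun k hk => (hMs k hk).2.2) _).1 hbad
      simp only [nu, if_pos hbad, nb]
      have hex : ∃ p : Fin K × Fin K, ∃ t t', nmL t = some p.1 ∧ nmR t' = some p.2 ∧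
          (t + t') % M = (P ++ Q).length % M :=
        ⟨(c, c'), P.length, Q.length, hc1, hd1, by rw [hlen]⟩
      have hpick : pick ((P ++ Q).length % M) = some hex.choose := by
        simp only [pick, dif_pos hex]
      rw [hpick]
      obtain ⟨t, t', ht, ht', htt⟩ := hex.choose_spec
      -- make totals equal
      have hq1 : P.length + (Q.length + M * ((t + t') / M)) =
          t + (t' + M * ((P.length + Q.length) / M)) := by
        have a1 := Nat.div_add_mod (t + t') M
        have a2 := Nat.div_add_mod (P.length + Q.length) M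
        rw [hlen] at htt
        rw [htt] at a1
        omega
      have e1 : nmR (Q.length + M * ((t + t') / M)) = some c' := by
        rw [per hpR (a := Q.length + M * ((t + t') / M)) (c := Q.length), hd1]
        simp [Nat.ModEq]
      have e2 : nmR (t' + M * ((P.length + Q.length) / M)) = some hex.choose.2 := by
        rw [per hpR (a := t' + M * ((P.length + Q.length) / M)) (c := t'), ht']
        simp [Nat.ModEq]
      have hbad2 : ∃ k ∈ Ms, k ∣ P.length + (Q.length + M * ((t + t') / M)) := by
        obtain ⟨k, hk, hd⟩ := hbad'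
        refine ⟨k, hk, ?_⟩
        rw [← add_assoc]
        exact dvd_add hd (Dvd.dvd.mul_right (hMs k hk).2.2 _)
      obtain ⟨h1, h2⟩ := hcol _ _ _ _ _ _ _ _ hc1 e1 ht e2 hq1 hbad2
      have h1' : lab c = lab hex.choose.1 := (Prod.mk.inj h1).1
      have h2' : rlab c' = rlab hex.choose.2 := (Prod.mk.inj h2).2
      rw [h1', h2']
      simp only [ph]
      abel
    · have hgood : ∀ k ∈ Ms, ¬ k ∣ P.length + Q.length := by
        intro k hk hd
        apply hbad
        rw [bad_mod (fun k hk => (hMs k hk).2.2), hlen]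
        exact ⟨k, hk, hd⟩
      obtain rfl : c = c' := hagree _ _ _ _ hc1 hd1 hgood
      simp only [nu, if_neg hbad]
      have hs := hsound c (preL f m b P (idx c)) (postL f m b Q (idx c))
        (blk f m b (P ++ Q) (idx c)) (preL_length _ _ _ _ _)
      have hsplit := bl_split f m b (P ++ Q) (hidx c)
      rw [preL_left f m b P Q (hidx c) hd2, postL_right f m b hb0 P Q hd2 hc3 hd3] at hsplit
      rw [← hsplit] at hs
      have := hs (bl_length _ _ _ _) hc4 hd4
      rw [bl_prod f m b hm] at this
      exact this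
  · -- complete
    intro X hX hdig v
    obtain ⟨c, pre, post, z, hu, hpre, hLf, hRt, hlab⟩ := hcompl (bl f m b X) v (bl_length _ _ _ _)
    have hsplit := bl_split f m b X (hidx c)
    rw [hu] at hsplit
    obtain ⟨e1, e2⟩ := List.append_inj hsplit (by rw [hpre, preL_length])
    obtain ⟨e3, e4⟩ := List.cons.inj e2
    obtain ⟨t, htM, htL, htR⟩ := hav X.length hX c
    obtain ⟨hd1, hd2⟩ := hdig (idx c) (hidx c)
    set n := X.length with hn
    set i := idx c with hi
    set d := n / b ^ i % b with hd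
    obtain ⟨y, hy1, hy2, hy3⟩ := choose_y (b := b) (M := M) (n0 := n % b ^ i) (i := i) (t := t)
      (L := d - (b - 1) / 2) hM hbM
    have hB : 0 < b ^ i := pow_pos hb0 i
    have hyd : y ≤ d := by omega
    have hy4 : 2 * y < b := by omega
    have hy5 : 2 * (d - y) < b := by omega
    have hdn : d ≤ n / b ^ i := Nat.mod_le _ _
    have hnn := Nat.div_add_mod n (b ^ i)
    have hle : b ^ i * y ≤ b ^ i * (n / b ^ i) := Nat.mul_le_mul_left _ (le_trans hyd hdn)
    have hon : n % b ^ i + b ^ i * y ≤ n := by omega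
    set o := n % b ^ i + b ^ i * y with ho
    have hP : (X.take o).length = o := by rw [List.length_take, min_eq_left hon]
    have hQ : (X.drop o).length = n - o := by rw [List.length_drop]
    have hodiv : o / b ^ i = y := by
      rw [ho, Nat.add_mul_div_left _ _ hB, Nat.div_eq_of_lt (Nat.mod_lt _ hB), zero_add]
    have ho' : n - o = b ^ i * (n / b ^ i - y) := by
      rw [Nat.mul_sub]
      omega
    have hQd : b ^ i ∣ (X.drop o).length := by rw [hQ, ho']; exact Dvd.intro _ rfl
    have hQdig : (X.drop o).length / b ^ i % b = d - y := by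
      rw [hQ, ho', Nat.mul_div_cancel_left _ hB]
      have h1 := Nat.div_add_mod (n / b ^ i) b
      have h2 : n / b ^ i - y = (d - y) + b * (n / b ^ i / b) := by omega
      rw [h2, Nat.add_mul_mod_self_left, Nat.mod_eq_of_lt (by omega)]
    have hXe : X.take o ++ X.drop o = X := List.take_append_drop o X
    have hLL : LL (X.take o) c := by
      refine ⟨?_, ?_, ?_, ?_⟩
      · rw [hP, per hpL hy3, htL]
      · have hlt : o < b ^ (i + 1) := by
          rw [pow_succ]
          have h1 : n % b ^ i < b ^ i := Nat.mod_lt _ hB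
          have h2 : b ^ i * (y + 1) ≤ b ^ i * b := Nat.mul_le_mul_left _ (by omega)
          rw [Nat.mul_add, Nat.mul_one] at h2
          omega
        rw [hP]
        exact hlt
      · rw [hP, hodiv]; exact hy4
      · have := preL_left f m b (X.take o) (X.drop o) (hidx c) hQd
        rw [hXe] at this
        rw [← this, ← e1]
        exact hLf
    have hRR : RR (X.drop o) c := by
      refine ⟨?_, hQd, ?_, ?_⟩
      · apply htR
        rw [hQ]
        have h1 : o + (n - o) = n := by omega
        have h2 : t + (n - o) ≡ o + (n - o) [MOD M] := Nat.ModEq.add_right _ hy3.symm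
        rw [h1] at h2
        exact h2
      · rw [hQdig]; exact hy5
      · have := postL_right f m b hb0 (X.take o) (X.drop o) hQd
          (by rw [hP, hodiv]; exact hy4) (by rw [hQdig]; exact hy5)
        rw [hXe] at this
        rw [← this, ← e4]
        exact hRt
    refine ⟨X.take o, X.drop o, hXe, ?_, ?_⟩
    · rw [hlam' _ c hLL, hlab]
    · have h' : ∃ c, RR (X.drop o) c := ⟨c, hRR⟩
      simp only [rho, dif_pos h', Option.isSome_some]
  · -- finite state
    intro Q Q' h1 h2 h3 h4 h5
    have hblk : ∀ j < m, blk f m b Q j = blk f m b Q' j := fun j hj =>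
      blk_congr f m b M Q Q' h1 h2 hb0 h3 h4 h5 hj
    have hmodM : Q.length % M = Q'.length % M := by
      have hdv : M ∣ M * b ^ m := Dvd.intro _ rfl
      rw [← Nat.mod_mod_of_dvd _ hdv, h4, Nat.mod_mod_of_dvd _ hdv]
    have hmodb : ∀ l, l ≤ m → Q.length % b ^ l = Q'.length % b ^ l := by
      intro l hl
      have hdv : b ^ l ∣ M * b ^ m := Dvd.dvd.mul_left (pow_dvd_pow b hl) _
      rw [← Nat.mod_mod_of_dvd _ hdv, h4, Nat.mod_mod_of_dvd _ hdv]
    have hRR : ∀ c, RR Q c ↔ RR Q' c := by
      intro c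
      have a1 : nmR Q.length = nmR Q'.length := per hpR hmodM
      have a2 : b ^ idx c ∣ Q.length ↔ b ^ idx c ∣ Q'.length := by
        rw [Nat.dvd_iff_mod_eq_zero, Nat.dvd_iff_mod_eq_zero, hmodb _ (hidx c).le]
      have a3 : Q.length / b ^ idx c % b = Q'.length / b ^ idx c % b := by
        rw [← Nat.mod_mul_right_div_self, ← Nat.mod_mul_right_div_self, ← pow_succ,
          hmodb _ (hidx c)]
      have a4 : postL f m b Q (idx c) = postL f m b Q' (idx c) := by
        apply List.map_congr_left
        intro t ht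
        rw [List.mem_range] at ht
        exact hblk _ (by omega)
      simp only [RR, a1, a2, a3, a4]
    have hph : ph f Q = ph f Q' := by
      rw [← List.take_append_drop (b ^ m) Q, ← List.take_append_drop (b ^ m) Q', ph_append,
        ph_append, h3]
      congr 1
    constructor
    · have : RR Q = RR Q' := funext fun c => propext (hRR c)
      simp only [rho, this]
    · have hbl : bl f m b Q = bl f m b Q' := by
        apply List.map_congr_left
        intro j hj
        exact hblk j (List.mem_range.1 hj)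
      simp only [nu, hmodM, hph, hbl]

/-- The digit gadget (literal of lead #13673). -/
theorem g1 (S V : Type) [Monoid S] [Finite S] [AddCommGroup V] [Finite V] (act : V → S → V) :
    ∃ m r : ℕ, ∀ Bd : ℕ, ∃ (Ms : Finset ℕ) (M : ℕ), Ms.card ≤ r ∧
      (∀ k ∈ Ms, Bd < k ∧ k.Prime ∧ k ∣ M) ∧ 0 < M ∧
      ∀ b : ℕ, 4 * M + 4 < b → Nat.Coprime b M → ∀ (A : Type) (f : A → S),
        ∃ (lam rho : List A → Option V) (nu : List A → V),
          (∀ P v, lam P = some v → P.length < b ^ m) ∧
          (∀ P Q v v', lam P = some v → rho Q = some v' →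
            v' = act v ((P ++ Q).map f).prod + nu (P ++ Q)) ∧
          (∀ X, (∀ k ∈ Ms, ¬ k ∣ X.length) →
            (∀ j < m, M ≤ X.length / b ^ j % b ∧ X.length / b ^ j % b + M + 1 ≤ b) →
            ∀ v, ∃ P Q, P ++ Q = X ∧ lam P = some v ∧ (rho Q).isSome) ∧
          (∀ Q Q', b ^ m ≤ Q.length → b ^ m ≤ Q'.length → Q.take (b ^ m) = Q'.take (b ^ m) →
            Q.length % (M * b ^ m) = Q'.length % (M * b ^ m) →
            ((Q.drop (b ^ m)).map f).prod = ((Q'.drop (b ^ m)).map f).prod →
            rho Q = rho Q' ∧ nu Q = nu Q') := by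
  obtain ⟨m, r, -, h⟩ := g1u.{0} S V act
  exact ⟨m, r, h⟩

end Crest.Agent.R320.G1_144
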