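import Mathlib
import Crest.Agent.R320.Names_755
import Crest.Agent.R320.Noise_513

/-!
# Row 320: gadget of the outer scheme on all words (852 #13483, leaf g1 of #13673) (helper160)
-/

set_option autoImplicit false

namespace Crest.Agent.R320.G1_160

def seg {A : Type*} (X : List A) (a b : ℕ) : List A := (X.take b).drop a

theorem seg_left {A : Type*} (P Q : List A) {a b : ℕ} (hb : b ≤ P.length) :
    seg (P ++ Q) a b = seg P a b := by
  unfold seg; rw [List.take_append_of_le_length hb]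

theorem seg_right {A : Type*} (P Q : List A) (a b : ℕ) :
    seg (P ++ Q) (P.length + a) (P.length + b) = seg Q a b := by
  unfold seg
  rw [List.take_length_add_append, List.drop_length_add_append]

theorem seg_congr {A : Type*} {X Y : List A} {N a b : ℕ} (h : X.take N = Y.take N) (hb : b ≤ N) :
    seg X a b = seg Y a b := by
  unfold seg
  have h1 : X.take b = (X.take N).take b := by rw [List.take_take, min_eq_left hb]
  have h2 : Y.take b = (Y.take N).take b := by rw [List.take_take, min_eq_left hb]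
  rw [h1, h2, h]

theorem mod_pow_mod (n b : ℕ) {i j : ℕ} (h : i ≤ j) : n % b ^ j % b ^ i = n % b ^ i :=
  Nat.mod_mod_of_dvd n (pow_dvd_pow b h)

theorem mod_pow_le (n b : ℕ) {i j : ℕ} (h : i ≤ j) : n % b ^ i ≤ n % b ^ j := by
  rw [← mod_pow_mod n b h]; exact Nat.mod_le _ _

theorem key1 {b i j o o' : ℕ} (hj : j ≤ i) (hd : b ^ i ∣ o') : (o + o') % b ^ j = o % b ^ j := by
  obtain ⟨k, rfl⟩ := (pow_dvd_pow b hj).trans hd
  rw [Nat.add_mul_mod_self_left]

theorem key0 {b i o o' : ℕ} (hb : 0 < b) (hd : b ^ i ∣ o') (h1 : 2 * (o / b ^ i) < b)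
    (h2 : 2 * (o' / b ^ i % b) < b) : o + o' % b ^ (i + 1) < b ^ (i + 1) := by
  obtain ⟨y, rfl⟩ := hd
  have hp : 0 < b ^ i := pow_pos hb i
  rw [Nat.mul_div_cancel_left y hp] at h2
  rw [pow_succ, Nat.mul_mod_mul_left]
  have h3 : o / b ^ i + y % b + 1 ≤ b := by omega
  have h4 := Nat.div_add_mod o (b ^ i)
  have h5 := Nat.mod_lt o hp
  have h6 : b ^ i * (o / b ^ i + y % b + 1) ≤ b ^ i * b := Nat.mul_le_mul_left _ h3
  have h7 : b ^ i * (o / b ^ i + y % b + 1) = b ^ i * (o / b ^ i) + b ^ i * (y % b) + b ^ i := by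
    ring
  omega

theorem key2 {b i j o o' : ℕ} (hb : 0 < b) (h : o + o' % b ^ (i + 1) < b ^ (i + 1))
    (hj : i + 1 ≤ j) : (o + o') % b ^ j = o + o' % b ^ j := by
  obtain ⟨k, rfl⟩ := Nat.exists_eq_add_of_le hj
  rw [pow_add]
  generalize b ^ k = C
  have hB : 0 < b ^ (i + 1) := pow_pos hb _
  generalize b ^ (i + 1) = B at h hB ⊢
  rw [Nat.mod_mul, Nat.mod_mul]
  have h4 := Nat.div_add_mod o' B
  have e : o + o' = (o + o' % B) + B * (o' / B) := by omega
  have h5 : (o + o') % B = o + o' % B := by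
    rw [e, Nat.add_mul_mod_self_left, Nat.mod_eq_of_lt h]
  have h6 : (o + o') / B = o' / B := by
    rw [e, Nat.add_mul_div_left _ _ hB, Nat.div_eq_of_lt h, zero_add]
  rw [h5, h6]; omega

/-- names -/
abbrev Nm (S W V : Type) (m : ℕ) := Fin m × (S × W) × (S × W) × V

structure Dt (S W V : Type) (m : ℕ) where
  b : ℕ
  act : V → S → V
  e : ℕ → S → W
  F : S → W → V
  Ms : Finset ℕ
  nmL : ℕ → Option (Nm S W V m)
  nmR : ℕ → Option (Nm S W V m)

section
variable {S W V : Type} {m : ℕ} [Monoid S] [AddCommGroup W] [AddCommGroup V] (D : Dt S W V m)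

def Dt.Good (c : Nm S W V m) : Prop := ∃ β, ∀ z : S,
  D.F (c.2.1.1 * z * c.2.2.1.1) (c.2.1.2 + D.e c.1 z + c.2.2.1.2)
    + D.act c.2.2.2 (c.2.1.1 * z * c.2.2.1.1) = β

open Classical in
noncomputable def Dt.bet (c : Nm S W V m) : V := if h : D.Good c then h.choose else 0

theorem Dt.bet_spec {c : Nm S W V m} (h : D.Good c) (z : S) :
    D.F (c.2.1.1 * z * c.2.2.1.1) (c.2.1.2 + D.e c.1 z + c.2.2.1.2)
      + D.act c.2.2.2 (c.2.1.1 * z * c.2.2.1.1) = D.bet c := by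
  unfold Dt.bet; rw [dif_pos h]; exact h.choose_spec z

/-- the value of block `j` read in `X` at places which are given by the length of `X` -/
def Dt.wt (X : List S) (j : ℕ) : W := D.e j (seg X (X.length % D.b ^ j) (X.length % D.b ^ (j + 1))).prod

def Dt.wtot (X : List S) : W := ∑ j ∈ Finset.range m, D.wt X j

def Dt.Lc (P : List S) (c : Nm S W V m) : Prop :=
  D.nmL P.length = some c ∧ D.Good c ∧ P.length < D.b ^ ((c.1 : ℕ) + 1) ∧
    2 * (P.length / D.b ^ (c.1 : ℕ)) < D.b ∧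
    (P.take (P.length % D.b ^ (c.1 : ℕ))).prod = c.2.1.1 ∧
    c.2.1.2 = ∑ j ∈ Finset.range c.1, D.wt P j

def Dt.Rc (Q : List S) (c : Nm S W V m) : Prop :=
  D.nmR Q.length = some c ∧ D.Good c ∧ D.b ^ (c.1 : ℕ) ∣ Q.length ∧
    2 * (Q.length / D.b ^ (c.1 : ℕ) % D.b) < D.b ∧
    (Q.drop (Q.length % D.b ^ ((c.1 : ℕ) + 1))).prod = c.2.2.1.1 ∧
    c.2.2.1.2 = ∑ j ∈ Finset.Ico ((c.1 : ℕ) + 1) m, D.wt Q j

open Classical in
noncomputable def Dt.lam (P : List S) : Option V :=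
  if h : ∃ c, D.Lc P c then some h.choose.2.2.2 else none

open Classical in
noncomputable def Dt.rho (Q : List S) : Option V :=
  if h : ∃ c, D.Rc Q c then some (D.bet h.choose) else none

theorem Dt.lam_some {P : List S} {v : V} (h : D.lam P = some v) : ∃ c, D.Lc P c ∧ c.2.2.2 = v := by
  unfold Dt.lam at h
  split at h
  · next hh => exact ⟨_, hh.choose_spec, Option.some.inj h⟩
  · cases h

theorem Dt.rho_some {Q : List S} {v : V} (h : D.rho Q = some v) : ∃ c, D.Rc Q c ∧ D.bet c = v := by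
  unfold Dt.rho at h
  split at h
  · next hh => exact ⟨_, hh.choose_spec, Option.some.inj h⟩
  · cases h

theorem Dt.lam_of {P : List S} {c : Nm S W V m} (h : D.Lc P c) : D.lam P = some c.2.2.2 := by
  have hh : ∃ c, D.Lc P c := ⟨c, h⟩
  unfold Dt.lam
  rw [dif_pos hh]
  have : hh.choose = c := Option.some.inj (hh.choose_spec.1.symm.trans h.1)
  rw [this]

theorem Dt.rho_of {Q : List S} {c : Nm S W V m} (h : D.Rc Q c) : D.rho Q = some (D.bet c) := by
  have hh : ∃ c, D.Rc Q c := ⟨c, h⟩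
  unfold Dt.rho
  rw [dif_pos hh]
  have : hh.choose = c := Option.some.inj (hh.choose_spec.1.symm.trans h.1)
  rw [this]

/-- names shown at total `T` -/
def Dt.Sh (T : ℕ) (p : Nm S W V m × Nm S W V m) : Prop :=
  ∃ t t', t + t' = T ∧ D.nmL t = some p.1 ∧ D.nmR t' = some p.2

open Classical in
noncomputable def Dt.nu (X : List S) : V :=
  if (∀ k ∈ D.Ms, ¬ k ∣ X.length) then D.F X.prod (D.wtot X)
  else if h : ∃ p, D.Sh X.length p then D.bet h.choose.2 - D.act h.choose.1.2.2.2 X.prod else 0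

/-- all block ends are known -/
theorem Dt.total (hb : 0 < D.b) {P Q : List S} {i : Fin m}
    (h2 : 2 * (P.length / D.b ^ (i : ℕ)) < D.b)
    (h3 : D.b ^ (i : ℕ) ∣ Q.length) (h4 : 2 * (Q.length / D.b ^ (i : ℕ) % D.b) < D.b) :
    ∃ z : S, (P ++ Q).prod = (P.take (P.length % D.b ^ (i : ℕ))).prod * z *
        (Q.drop (Q.length % D.b ^ ((i : ℕ) + 1))).prod ∧
      D.wtot (P ++ Q) = (∑ j ∈ Finset.range i, D.wt P j) + D.e i z +
        ∑ j ∈ Finset.Ico ((i : ℕ) + 1) m, D.wt Q j := by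
  have h0 := key0 hb h3 h2 h4
  have k1 : ∀ j, j ≤ (i : ℕ) → (P ++ Q).length % D.b ^ j = P.length % D.b ^ j := fun j hj => by
    rw [List.length_append]; exact key1 hj h3
  have k2 : ∀ j, (i : ℕ) + 1 ≤ j → (P ++ Q).length % D.b ^ j = P.length + Q.length % D.b ^ j :=
    fun j hj => by rw [List.length_append]; exact key2 hb h0 hj
  refine ⟨(seg (P ++ Q) (P.length % D.b ^ (i : ℕ))
    (P.length + Q.length % D.b ^ ((i : ℕ) + 1))).prod, ?_, ?_⟩
  · have e1 : P.take (P.length % D.b ^ (i : ℕ)) = (P ++ Q).take (P.length % D.b ^ (i : ℕ)) := by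
      rw [List.take_append_of_le_length (Nat.mod_le _ _)]
    have e2 : Q.drop (Q.length % D.b ^ ((i : ℕ) + 1))
        = (P ++ Q).drop (P.length + Q.length % D.b ^ ((i : ℕ) + 1)) := by
      rw [List.drop_length_add_append]
    rw [e1, e2]
    generalize P ++ Q = X
    have hle : P.length % D.b ^ (i : ℕ) ≤ P.length + Q.length % D.b ^ ((i : ℕ) + 1) :=
      le_trans (Nat.mod_le _ _) (Nat.le_add_right _ _)
    generalize P.length % D.b ^ (i : ℕ) = a at hle ⊢
    generalize P.length + Q.length % D.b ^ ((i : ℕ) + 1) = c at hle ⊢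
    unfold seg
    rw [← List.prod_append, ← List.prod_append]
    congr 1
    have h5 : X.take a = (X.take c).take a := by rw [List.take_take, min_eq_left hle]
    rw [h5, List.take_append_drop, List.take_append_drop]
  · unfold Dt.wtot
    rw [Finset.range_eq_Ico, ← Finset.sum_Ico_consecutive _ (Nat.zero_le (i : ℕ)) i.2.le,
      Finset.sum_eq_sum_Ico_succ_bot i.2, ← Finset.range_eq_Ico, ← add_assoc]
    have a1 : ∀ j ∈ Finset.range (i : ℕ), D.wt (P ++ Q) j = D.wt P j := by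
      intro j hj
      have hj' := Finset.mem_range.1 hj
      unfold Dt.wt
      rw [k1 j hj'.le, k1 (j + 1) hj', seg_left P Q (Nat.mod_le _ _)]
    have a2 : ∀ j ∈ Finset.Ico ((i : ℕ) + 1) m, D.wt (P ++ Q) j = D.wt Q j := by
      intro j hj
      have hj' := (Finset.mem_Ico.1 hj).1
      unfold Dt.wt
      rw [k2 j hj', k2 (j + 1) (by omega), seg_right]
    rw [Finset.sum_congr rfl a1, Finset.sum_congr rfl a2]
    congr 2
    unfold Dt.wt
    rw [k1 _ le_rfl, k2 _ le_rfl]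

theorem Dt.sound (hb : 0 < D.b)
    (hagree : ∀ t t' c c', D.nmL t = some c → D.nmR t' = some c' →
      (∀ k ∈ D.Ms, ¬ k ∣ t + t') → c = c')
    (hcol : ∀ t₁ t₁' t₂ t₂' c₁ c₁' c₂ c₂', D.nmL t₁ = some c₁ → D.nmR t₁' = some c₁' →
        D.nmL t₂ = some c₂ → D.nmR t₂' = some c₂' → t₁ + t₁' = t₂ + t₂' →
        (∃ k ∈ D.Ms, k ∣ t₁ + t₁') → c₁.2.2.2 = c₂.2.2.2 ∧ D.bet c₁' = D.bet c₂')
    {P Q : List S} {v v' : V} (hP : D.lam P = some v) (hQ : D.rho Q = some v') :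
    v' = D.act v (P ++ Q).prod + D.nu (P ++ Q) := by
  obtain ⟨c, ⟨l1, l2, l3, l4, l5, l6⟩, rfl⟩ := D.lam_some hP
  obtain ⟨c', ⟨r1, r2, r3, r4, r5, r6⟩, rfl⟩ := D.rho_some hQ
  unfold Dt.nu
  split_ifs with hg hs
  · rw [List.length_append] at hg
    obtain rfl := hagree _ _ _ _ l1 r1 hg
    obtain ⟨z, e1, e2⟩ := D.total hb l4 r3 r4
    rw [e2, e1, l5, r5, ← l6, ← r6, ← D.bet_spec l2 z, add_comm]
  · obtain ⟨t, t', ht, h1, h2⟩ := hs.choose_spec
    push Not at hg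
    obtain ⟨k, hk, hd⟩ := hg
    rw [List.length_append] at ht hd
    obtain ⟨e1, e2⟩ := hcol _ _ _ _ _ _ _ _ l1 r1 h1 h2 ht.symm ⟨k, hk, hd⟩
    rw [e1, e2]; abel
  · exact absurd ⟨(c, c'), P.length, Q.length, by rw [List.length_append], l1, r1⟩ hs


theorem Dt.pieces (hb : 0 < D.b) {P Q : List S} {i : Fin m}
    (h2 : 2 * (P.length / D.b ^ (i : ℕ)) < D.b)
    (h3 : D.b ^ (i : ℕ) ∣ Q.length) (h4 : 2 * (Q.length / D.b ^ (i : ℕ) % D.b) < D.b) :
    P.take (P.length % D.b ^ (i : ℕ)) = (P ++ Q).take ((P ++ Q).length % D.b ^ (i : ℕ)) ∧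
    Q.drop (Q.length % D.b ^ ((i : ℕ) + 1)) =
      (P ++ Q).drop ((P ++ Q).length % D.b ^ ((i : ℕ) + 1)) ∧
    (∑ j ∈ Finset.range i, D.wt P j) = (∑ j ∈ Finset.range i, D.wt (P ++ Q) j) ∧
    (∑ j ∈ Finset.Ico ((i : ℕ) + 1) m, D.wt Q j) =
      ∑ j ∈ Finset.Ico ((i : ℕ) + 1) m, D.wt (P ++ Q) j := by
  have h0 := key0 hb h3 h2 h4
  have k1 : ∀ j, j ≤ (i : ℕ) → (P ++ Q).length % D.b ^ j = P.length % D.b ^ j := fun j hj => by
    rw [List.length_append]; exact key1 hj h3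
  have k2 : ∀ j, (i : ℕ) + 1 ≤ j → (P ++ Q).length % D.b ^ j = P.length + Q.length % D.b ^ j :=
    fun j hj => by rw [List.length_append]; exact key2 hb h0 hj
  refine ⟨?_, ?_, Finset.sum_congr rfl ?_, Finset.sum_congr rfl ?_⟩
  · rw [k1 _ le_rfl, List.take_append_of_le_length (Nat.mod_le _ _)]
  · rw [k2 _ le_rfl, List.drop_length_add_append]
  · intro j hj
    have hj' := Finset.mem_range.1 hj
    unfold Dt.wt
    rw [k1 j hj'.le, k1 (j + 1) hj', seg_left P Q (Nat.mod_le _ _)]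
  · intro j hj
    have hj' := (Finset.mem_Ico.1 hj).1
    unfold Dt.wt
    rw [k2 j hj', k2 (j + 1) (by omega), seg_right]

theorem exists_y {M B β t y0 : ℕ} (hM : 0 < M) (hco : Nat.Coprime B M) :
    ∃ y, y0 ≤ y ∧ y < y0 + M ∧ β + B * y ≡ t [MOD M] := by
  have : NeZero M := ⟨hM.ne'⟩
  let x : ZMod M := ((t : ZMod M) - β) * (B : ZMod M)⁻¹ - y0
  refine ⟨y0 + x.val, Nat.le_add_right _ _, Nat.add_lt_add_left (ZMod.val_lt x) _, ?_⟩
  rw [← ZMod.natCast_eq_natCast_iff]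
  push_cast
  rw [ZMod.natCast_val, ZMod.cast_id]
  have hu : (B : ZMod M) * (B : ZMod M)⁻¹ = 1 := ZMod.coe_mul_inv_eq_one B hco
  have : (β : ZMod M) + B * ((y0 : ZMod M) + x)
      = β + ((t : ZMod M) - β) * ((B : ZMod M) * (B : ZMod M)⁻¹) := by
    simp only [x]; ring
  rw [this, hu]; ring

theorem per_mod {β : Type*} {f : ℕ → β} {M : ℕ} (h : ∀ t, f (t + M) = f t) (t : ℕ) :
    f t = f (t % M) := by
  have h2 : ∀ k a, f (a + M * k) = f a := by
    intro k
    induction k with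
    | zero => intro a; simp
    | succ k ih => intro a; rw [Nat.mul_succ, ← add_assoc, h, ih]
  conv_lhs => rw [← Nat.mod_add_div t M]
  exact h2 _ _

theorem Dt.complete {M : ℕ} (hM : 0 < M) (hb : 4 * M + 4 < D.b) (hco : Nat.Coprime D.b M)
    (perL : ∀ t, D.nmL (t + M) = D.nmL t)
    (hcomp : ∀ T, (∀ k ∈ D.Ms, ¬ k ∣ T) → ∀ c, ∃ t < M, D.nmL t = some c ∧
      ∀ t', t + t' ≡ T [MOD M] → D.nmR t' = some c)
    (hF : ∀ (s : S) (w : W) (v : V), ∃ i : Fin m, ∀ g x h : S, g * x * h = s → ∀ z : S,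
      D.F (g * z * h) (w - D.e i x + D.e i z) + D.act v (g * z * h) = D.F s w + D.act v s)
    (X : List S) (hX1 : ∀ k ∈ D.Ms, ¬ k ∣ X.length)
    (hX2 : ∀ j < m, M ≤ X.length / D.b ^ j % D.b ∧ X.length / D.b ^ j % D.b + M + 1 ≤ D.b)
    (v : V) : ∃ P Q, P ++ Q = X ∧ D.lam P = some v ∧ (D.rho Q).isSome := by
  obtain ⟨i, hi⟩ := hF X.prod (D.wtot X) v
  have hb0 : 0 < D.b := by omega
  have hp : 0 < D.b ^ (i : ℕ) := pow_pos hb0 _
  obtain ⟨d1, d2⟩ := hX2 i i.2
  let c : Nm S W V m := (i,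
    ((X.take (X.length % D.b ^ (i : ℕ))).prod, ∑ j ∈ Finset.range (i : ℕ), D.wt X j),
    ((X.drop (X.length % D.b ^ ((i : ℕ) + 1))).prod,
      ∑ j ∈ Finset.Ico ((i : ℕ) + 1) m, D.wt X j), v)
  obtain ⟨t, htM, ht1, ht2⟩ := hcomp X.length hX1 c
  obtain ⟨y, hy1, hy2, hy3⟩ := exists_y (β := X.length % D.b ^ (i : ℕ)) (t := t)
    (y0 := X.length / D.b ^ (i : ℕ) % D.b - (D.b - 1) / 2) hM
    (Nat.Coprime.pow_left (i : ℕ) hco)
  have hyd : y ≤ X.length / D.b ^ (i : ℕ) % D.b := by omega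
  have hy4 : 2 * y < D.b := by omega
  have hy5 : 2 * (X.length / D.b ^ (i : ℕ) % D.b - y) < D.b := by omega
  have hyn : y ≤ X.length / D.b ^ (i : ℕ) := le_trans hyd (Nat.mod_le _ _)
  have hn := Nat.div_add_mod X.length (D.b ^ (i : ℕ))
  have hβ := Nat.mod_lt X.length hp
  have hmul : D.b ^ (i : ℕ) * y ≤ D.b ^ (i : ℕ) * (X.length / D.b ^ (i : ℕ)) :=
    Nat.mul_le_mul_left _ hyn
  set o := X.length % D.b ^ (i : ℕ) + D.b ^ (i : ℕ) * y with ho
  have hoX : o ≤ X.length := by omega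
  have hPl : (X.take o).length = o := by rw [List.length_take, min_eq_left hoX]
  have hQl : (X.drop o).length = D.b ^ (i : ℕ) * (X.length / D.b ^ (i : ℕ) - y) := by
    rw [List.length_drop, Nat.mul_sub]; omega
  have hom : o % D.b ^ (i : ℕ) = X.length % D.b ^ (i : ℕ) := by
    rw [ho, Nat.add_mul_mod_self_left, Nat.mod_mod]
  have hod : o / D.b ^ (i : ℕ) = y := by
    rw [ho, Nat.add_mul_div_left _ _ hp, Nat.div_eq_of_lt hβ, zero_add]
  have hsub : (X.length / D.b ^ (i : ℕ) - y) % D.b = X.length / D.b ^ (i : ℕ) % D.b - y := by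
    have h1 := Nat.div_add_mod (X.length / D.b ^ (i : ℕ)) D.b
    have h2 := Nat.mod_lt (X.length / D.b ^ (i : ℕ)) hb0
    have h3 : X.length / D.b ^ (i : ℕ) - y
        = (X.length / D.b ^ (i : ℕ) % D.b - y) + D.b * (X.length / D.b ^ (i : ℕ) / D.b) := by
      omega
    rw [h3, Nat.add_mul_mod_self_left, Nat.mod_eq_of_lt (by omega)]
  have c2 : 2 * ((X.take o).length / D.b ^ (i : ℕ)) < D.b := by rw [hPl, hod]; exact hy4
  have c3 : D.b ^ (i : ℕ) ∣ (X.drop o).length := ⟨_, hQl⟩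
  have c4 : 2 * ((X.drop o).length / D.b ^ (i : ℕ) % D.b) < D.b := by
    rw [hQl, Nat.mul_div_cancel_left _ hp, hsub]; exact hy5
  have hX : X.take o ++ X.drop o = X := List.take_append_drop o X
  obtain ⟨p1, p2, p3, p4⟩ := D.pieces hb0 c2 c3 c4
  obtain ⟨z, e1, e2⟩ := D.total hb0 c2 c3 c4
  rw [p1, p2] at e1
  rw [p3, p4] at e2
  rw [hX] at p1 p2 p3 p4 e1 e2
  have hgood : D.Good c := by
    refine ⟨D.F X.prod (D.wtot X) + D.act v X.prod, fun z' => ?_⟩
    have h := hi _ z _ e1.symm z'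
    rw [← h]
    congr 2
    show (∑ j ∈ Finset.range (i : ℕ), D.wt X j) + D.e i z'
      + (∑ j ∈ Finset.Ico ((i : ℕ) + 1) m, D.wt X j) = _
    rw [e2]; abel
  have hnL : D.nmL o = some c := by
    rw [per_mod perL o, show o % M = t % M from hy3, ← per_mod perL t]; exact ht1
  have hnR : D.nmR (X.drop o).length = some c := by
    apply ht2
    rw [List.length_drop]
    have h1 : t + (X.length - o) ≡ o + (X.length - o) [MOD M] := Nat.ModEq.add_right _ hy3.symm
    rwa [Nat.add_sub_cancel' hoX] at h1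
  refine ⟨X.take o, X.drop o, hX, ?_, ?_⟩
  · refine D.lam_of (c := c) ⟨?_, hgood, ?_, c2, ?_, p3.symm⟩
    · rw [hPl]; exact hnL
    · rw [hPl, pow_succ]
      have h6 : D.b ^ (i : ℕ) * (y + 1) ≤ D.b ^ (i : ℕ) * D.b := Nat.mul_le_mul_left _ (by omega)
      have h7 : D.b ^ (i : ℕ) * (y + 1) = D.b ^ (i : ℕ) * y + D.b ^ (i : ℕ) := by ring
      show o < D.b ^ (i : ℕ) * D.b
      omega
    · show (List.take ((X.take o).length % D.b ^ (i : ℕ)) (X.take o)).prod = _
      rw [p1]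
  · rw [D.rho_of (c := c) ⟨hnR, hgood, c3, c4, by
      show (List.drop ((X.drop o).length % D.b ^ ((i : ℕ) + 1)) (X.drop o)).prod = _
      rw [p2], p4.symm⟩]
    rfl

theorem Dt.Sh_congr {M : ℕ} (perL : ∀ t, D.nmL (t + M) = D.nmL t)
    (perR : ∀ t, D.nmR (t + M) = D.nmR t) (hM : 0 < M) {T T' : ℕ} (h : T % M = T' % M)
    (hT' : M ≤ T') {p : Nm S W V m × Nm S W V m} (hs : D.Sh T p) : D.Sh T' p := by
  obtain ⟨t, t', ht, h1, h2⟩ := hs
  have hlt := Nat.mod_lt t hM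
  refine ⟨t % M, T' - t % M, by omega, by rw [← per_mod perL t]; exact h1, ?_⟩
  rw [per_mod perR] at h2 ⊢
  have hh : T' - t % M ≡ t' [MOD M] := by
    apply Nat.ModEq.add_left_cancel' (t % M)
    rw [Nat.add_sub_cancel' (by omega)]
    have e1 : t % M + t' ≡ t + t' [MOD M] := Nat.ModEq.add_right _ (Nat.mod_modEq t M)
    have e2 : T' ≡ t + t' [MOD M] := by rw [ht]; exact h.symm
    exact e2.trans e1.symm
  rw [show (T' - t % M) % M = t' % M from hh]; exact h2

theorem Dt.state {M : ℕ} (hM : 0 < M) (hb : M < D.b) (hm : 0 < m)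
    (hMs : ∀ k ∈ D.Ms, k ∣ M)
    (perL : ∀ t, D.nmL (t + M) = D.nmL t) (perR : ∀ t, D.nmR (t + M) = D.nmR t)
    (Q Q' : List S) (h1 : D.b ^ m ≤ Q.length) (h2 : D.b ^ m ≤ Q'.length)
    (h3 : Q.take (D.b ^ m) = Q'.take (D.b ^ m))
    (h4 : Q.length % (M * D.b ^ m) = Q'.length % (M * D.b ^ m))
    (h5 : (Q.drop (D.b ^ m)).prod = (Q'.drop (D.b ^ m)).prod) :
    D.rho Q = D.rho Q' ∧ D.nu Q = D.nu Q' := by
  have hb0 : 0 < D.b := by omega
  have hmodM : Q.length % M = Q'.length % M := Nat.ModEq.of_dvd (Dvd.intro _ rfl) h4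
  have hmodj : ∀ j, j ≤ m → Q.length % D.b ^ j = Q'.length % D.b ^ j := fun j hj =>
    Nat.ModEq.of_dvd ((pow_dvd_pow _ hj).trans (Dvd.intro_left _ rfl)) h4
  have hdrop : ∀ a, a ≤ D.b ^ m → (Q.drop a).prod = (Q'.drop a).prod := by
    intro a ha
    have e1 : Q.drop a = (Q.take (D.b ^ m)).drop a ++ Q.drop (D.b ^ m) := by
      conv_lhs => rw [← List.take_append_drop (D.b ^ m) Q]
      rw [List.drop_append_of_le_length (by rw [List.length_take]; omega)]
    have e2 : Q'.drop a = (Q'.take (D.b ^ m)).drop a ++ Q'.drop (D.b ^ m) := by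
      conv_lhs => rw [← List.take_append_drop (D.b ^ m) Q']
      rw [List.drop_append_of_le_length (by rw [List.length_take]; omega)]
    rw [e1, e2, List.prod_append, List.prod_append, h3, h5]
  have hle : ∀ (n j : ℕ), j ≤ m → n % D.b ^ j ≤ D.b ^ m := fun n j hj =>
    le_trans (Nat.mod_lt _ (pow_pos hb0 j)).le (Nat.pow_le_pow_right hb0 hj)
  have hwt : ∀ j, j < m → D.wt Q j = D.wt Q' j := by
    intro j hj
    unfold Dt.wt
    rw [hmodj j hj.le, hmodj (j + 1) hj, seg_congr h3 (hle _ _ hj)]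
  have hRc : D.Rc Q = D.Rc Q' := by
    funext c
    have hi : (c.1 : ℕ) + 1 ≤ m := c.1.2
    have a1 : D.nmR Q.length = D.nmR Q'.length := by
      rw [per_mod perR, hmodM, ← per_mod perR]
    have a2 : (D.b ^ (c.1 : ℕ) ∣ Q.length) = (D.b ^ (c.1 : ℕ) ∣ Q'.length) := by
      rw [Nat.dvd_iff_mod_eq_zero, Nat.dvd_iff_mod_eq_zero, hmodj _ (by omega)]
    have a3 : Q.length / D.b ^ (c.1 : ℕ) % D.b = Q'.length / D.b ^ (c.1 : ℕ) % D.b := by
      rw [← Nat.mod_mul_right_div_self, ← Nat.mod_mul_right_div_self, ← pow_succ, hmodj _ hi]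
    have a4 : (Q.drop (Q.length % D.b ^ ((c.1 : ℕ) + 1))).prod =
        (Q'.drop (Q'.length % D.b ^ ((c.1 : ℕ) + 1))).prod := by
      rw [hmodj _ hi, hdrop _ (hle _ _ hi)]
    have a5 : (∑ j ∈ Finset.Ico ((c.1 : ℕ) + 1) m, D.wt Q j) =
        ∑ j ∈ Finset.Ico ((c.1 : ℕ) + 1) m, D.wt Q' j :=
      Finset.sum_congr rfl fun j hj => hwt j (Finset.mem_Ico.1 hj).2
    unfold Dt.Rc
    rw [a1, a2, a3, a4, a5]
  have hprod : Q.prod = Q'.prod := by
    have := hdrop 0 (Nat.zero_le _)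
    simpa using this
  have hwtot : D.wtot Q = D.wtot Q' :=
    Finset.sum_congr rfl fun j hj => hwt j (Finset.mem_range.1 hj)
  have hk : (∀ k ∈ D.Ms, ¬ k ∣ Q.length) = (∀ k ∈ D.Ms, ¬ k ∣ Q'.length) := by
    apply propext
    refine forall₂_congr fun k hk => not_congr ?_
    rw [Nat.dvd_iff_mod_eq_zero, Nat.dvd_iff_mod_eq_zero]
    rw [show Q.length % k = Q'.length % k from Nat.ModEq.of_dvd (hMs k hk) hmodM]
  have hbm : M ≤ D.b ^ m := le_trans hb.le (Nat.le_self_pow (by omega) _)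
  have hSh : D.Sh Q.length = D.Sh Q'.length := by
    funext p
    exact propext ⟨D.Sh_congr perL perR hM hmodM (by omega),
      D.Sh_congr perL perR hM hmodM.symm (by omega)⟩
  constructor
  · unfold Dt.rho; rw [hRc]
  · unfold Dt.nu; rw [hprod, hwtot, hSh]
    by_cases hh : ∀ k ∈ D.Ms, ¬ k ∣ Q.length
    · rw [if_pos hh, if_pos (hk ▸ hh)]
    · rw [if_neg hh, if_neg (hk ▸ hh)]

end

universe u

/-- LEAF g1 of #13673 (852 #13483). -/
theorem g1 (S V : Type) [Monoid S] [Finite S] [AddCommGroup V] [Finite V] (act : V → S → V) :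
    ∃ m r : ℕ, ∀ Bd : ℕ, ∃ (Ms : Finset ℕ) (M : ℕ), Ms.card ≤ r ∧
      (∀ k ∈ Ms, Bd < k ∧ k.Prime ∧ k ∣ M) ∧ 0 < M ∧
      ∀ b : ℕ, 4 * M + 4 < b → Nat.Coprime b M → ∀ (A : Type u) (f : A → S),
        ∃ (lam rho : List A → Option V) (nu : List A → V),
          (∀ P v, lam P = some v → P.length < b ^ m) ∧
          (∀ P Q v v', lam P = some v → rho Q = some v' →
            v' = act v ((P ++ Q).map f).prod + nu (P ++ Q)) ∧
          (∀ X, (∀ k ∈ Ms, ¬ k ∣ X.length) →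
            (∀ j < m, M ≤ X.length / b ^ j % b ∧ X.length / b ^ j % b + M + 1 ≤ b) →
            ∀ v, ∃ P Q, P ++ Q = X ∧ lam P = some v ∧ (rho Q).isSome) ∧
          (∀ Q Q' : List A, b ^ m ≤ Q.length → b ^ m ≤ Q'.length →
            Q.take (b ^ m) = Q'.take (b ^ m) →
            Q.length % (M * b ^ m) = Q'.length % (M * b ^ m) →
            ((Q.drop (b ^ m)).map f).prod = ((Q'.drop (b ^ m)).map f).prod →
            rho Q = rho Q' ∧ nu Q = nu Q') := by
  classical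
  obtain ⟨W, iW, iF, m, e, F, hF⟩ := Noise513.explicit_noise S V act
  let e' : ℕ → S → W := fun j z => if h : j < m then e ⟨j, h⟩ z else 0
  have he' : ∀ (i : Fin m) z, e' i z = e i z := fun i z => by simp [e']
  have hm : 0 < m := by
    obtain ⟨i, -⟩ := hF 1 0 0
    exact lt_of_le_of_lt (Nat.zero_le _) i.2
  let D0 : Dt S W V m := ⟨0, act, e', F, ∅, fun _ => none, fun _ => none⟩
  have : Finite W := Finite.of_fintype W
  obtain ⟨r, hr⟩ := Names755.names (Nm S W V m) (V × V) (fun c => (c.2.2.2, D0.bet c))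
  refine ⟨m, r, fun Bd => ?_⟩
  obtain ⟨Ms, M, nmL, nmR, a1, a2, a3, a4, a5, a6, a7, a8⟩ := hr Bd
  refine ⟨Ms, M, a1, a2, a3, fun b hb hco A f => ?_⟩
  let D : Dt S W V m := ⟨b, act, e', F, Ms, nmL, nmR⟩
  have hFD : ∀ (s : S) (w : W) (v : V), ∃ i : Fin m, ∀ g x h : S, g * x * h = s → ∀ z : S,
      D.F (g * z * h) (w - D.e i x + D.e i z) + D.act v (g * z * h)
        = D.F s w + D.act v s := by
    intro s w v
    obtain ⟨i, hi⟩ := hF s w v
    refine ⟨i, fun g x h hs z => ?_⟩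
    have := hi g x h hs z
    show F (g * z * h) (w - e' i x + e' i z) + act v (g * z * h) = F s w + act v s
    rw [he', he']; exact this
  refine ⟨fun P => D.lam (P.map f), fun Q => D.rho (Q.map f), fun X => D.nu (X.map f),
    ?_, ?_, ?_, ?_⟩
  · intro P v h
    obtain ⟨c, hc, -⟩ := D.lam_some h
    have h1 := hc.2.2.1
    rw [List.length_map] at h1
    exact lt_of_lt_of_le h1 (Nat.pow_le_pow_right (show 0 < b by omega) c.1.2)
  · intro P Q v v' hP hQ
    have := D.sound (by show 0 < b; omega) a6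
      (fun t₁ t₁' t₂ t₂' c₁ c₁' c₂ c₂' x1 x2 x3 x4 x5 x6 => by
        obtain ⟨y1, y2⟩ := a8 t₁ t₁' t₂ t₂' c₁ c₁' c₂ c₂' x1 x2 x3 x4 x5 x6
        exact ⟨(Prod.mk.inj y1).1, (Prod.mk.inj y2).2⟩) hP hQ
    rw [← List.map_append] at this
    exact this
  · intro X h1 h2 v
    obtain ⟨P, Q, hPQ, hP, hQ⟩ := D.complete a3 hb hco a4 a7 hFD (X.map f)
      (by rw [List.length_map]; exact h1) (by rw [List.length_map]; exact h2) v
    refine ⟨X.take P.length, X.drop P.length, List.take_append_drop _ _, ?_, ?_⟩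
    · show D.lam ((X.take P.length).map f) = some v
      rw [List.map_take, ← hPQ, List.take_left']
      · exact hP
      · rfl
    · show (D.rho ((X.drop P.length).map f)).isSome
      rw [List.map_drop, ← hPQ, List.drop_left']
      · exact hQ
      · rfl
  · intro Q Q' h1 h2 h3 h4 h5
    exact D.state a3 (by show M < b; omega) hm (fun k hk => (a2 k hk).2.2) a4 a5
      (Q.map f) (Q'.map f) (by rw [List.length_map]; exact h1)
      (by rw [List.length_map]; exact h2)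
      (by rw [← List.map_take, ← List.map_take]; show List.map f (Q.take (b ^ m)) = _
          rw [h3])
      (by rw [List.length_map, List.length_map]; exact h4)
      (by rw [← List.map_drop, ← List.map_drop]; exact h5)

end Crest.Agent.R320.G1_160

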