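import Mathlib
import Crest.Agent.R320.Noise_513
import Crest.Agent.R320.Names_755

/-!
# Row 320: the gadget (G1) of 852 #13483 / lead #13673

Levels = positional digits of the total length in base `b`, names = CRT (755).
-/

namespace Crest.Agent.R320.G1_196

section Arith

theorem mod_low {b i j o o' : ℕ} (h : j ≤ i) (hd : b ^ i ∣ o') :
    (o + o') % b ^ j = o % b ^ j := by
  obtain ⟨c, rfl⟩ := (pow_dvd_pow b h).trans hd
  rw [Nat.add_mul_mod_self_left]

theorem mod_high {b i j o o' : ℕ} (h : i < j) (hb : 0 < b) (hd : b ^ i ∣ o')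
    (h1 : 2 * (o / b ^ i) < b) (h2 : 2 * (o' / b ^ i % b) < b) :
    (o + o') % b ^ j = o + o' % b ^ j := by
  have key : o' % b ^ j + o < b ^ j := by
    obtain ⟨k, rfl⟩ : ∃ k, j = i + 1 + k := ⟨j - (i + 1), by omega⟩
    have hB : 0 < b ^ i := Nat.pow_pos hb
    have e1 : b ^ (i + 1 + k) = b ^ i * b * b ^ k := by rw [pow_add, pow_succ]
    set u := o' % b ^ (i + 1 + k) with hu
    have hu1 : u % (b ^ i * b) = b ^ i * (o' / b ^ i % b) := by
      rw [hu, e1, Nat.mod_mul_right_mod, Nat.mod_mul, Nat.mod_eq_zero_of_dvd hd, Nat.zero_add]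
    have hu2 : u < b ^ i * b * b ^ k := by
      rw [hu, e1]; exact Nat.mod_lt _ (by positivity)
    have hu3 := Nat.div_add_mod u (b ^ i * b)
    have hq : u / (b ^ i * b) < b ^ k := Nat.div_lt_of_lt_mul hu2
    have ho : o < b ^ i * (o / b ^ i + 1) := Nat.lt_mul_div_succ o hB
    rw [hu1] at hu3
    rw [e1]
    set B := b ^ i
    set q := u / (B * b)
    set d := o / B
    set d' := o' / B % b
    have hdd : d' + (d + 1) ≤ b := by omega
    calc u + o < (B * b * q + B * d') + B * (d + 1) := by omega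
      _ = B * b * q + B * (d' + (d + 1)) := by ring
      _ ≤ B * b * q + B * b := by gcongr
      _ = B * b * (q + 1) := by ring
      _ ≤ B * b * b ^ k := by gcongr; exact hq
  have h3 := Nat.div_add_mod o' (b ^ j)
  rw [show o + o' = (o + o' % b ^ j) + b ^ j * (o' / b ^ j) by omega,
    Nat.add_mul_mod_self_left, Nat.mod_eq_of_lt (by omega)]

theorem mod_mono (n b j : ℕ) : n % b ^ j ≤ n % b ^ (j + 1) := by
  rw [pow_succ, Nat.mod_mul]; omega

variable {N : Type} {nm : ℕ → Option N} {M : ℕ}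

theorem per (h : ∀ t, nm (t + M) = nm t) (t k : ℕ) : nm (t + M * k) = nm t := by
  induction k with
  | zero => simp
  | succ k ih => rw [Nat.mul_succ, ← Nat.add_assoc, h, ih]

theorem per_mod (h : ∀ t, nm (t + M) = nm t) {t t' : ℕ} (ht : t % M = t' % M) :
    nm t = nm t' := by
  have h1 : ∀ t, nm (t % M) = nm t := by
    intro t
    conv_rhs => rw [← Nat.mod_add_div t M]
    rw [per h]
  rw [← h1 t, ← h1 t', ht]

/-- the place of the cut -/
theorem place {b i n M D : ℕ} (hM : 0 < M) (hb : 4 * M + 4 < b) (hcop : Nat.Coprime b M)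
    (hD : D = n / b ^ i % b) (h1 : M ≤ D) (h2 : D + M + 1 ≤ b) (t0 : ℕ) :
    ∃ o, o ≤ n ∧ o % M = t0 % M ∧ o % b ^ i = n % b ^ i ∧ o < b ^ (i + 1) ∧
      2 * (o / b ^ i) < b ∧ b ^ i ∣ n - o ∧ 2 * ((n - o) / b ^ i % b) < b := by
  have hB : 0 < b ^ i := Nat.pow_pos (by omega)
  haveI : NeZero M := ⟨hM.ne'⟩
  set y0 := (D - M + 1) / 2 with hy0
  have hcop' : Nat.Coprime (b ^ i) M := hcop.pow_left i
  let u := ZMod.unitOfCoprime (b ^ i) hcop'
  set β := n % b ^ i with hβ
  let y1z : ZMod M := (u⁻¹ : (ZMod M)ˣ) * ((t0 : ZMod M) - ((β + b ^ i * y0 : ℕ) : ZMod M))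
  let y1 := y1z.val
  have hy1 : y1 < M := ZMod.val_lt _
  have hy1c : ((y1 : ℕ) : ZMod M) = y1z := ZMod.natCast_zmod_val _
  have hcong : ((β + b ^ i * (y0 + y1) : ℕ) : ZMod M) = (t0 : ZMod M) := by
    have hu : ((b ^ i : ℕ) : ZMod M) = (u : ZMod M) := (ZMod.coe_unitOfCoprime _ _).symm
    have h3 : ((β + b ^ i * (y0 + y1) : ℕ) : ZMod M)
        = ((β + b ^ i * y0 : ℕ) : ZMod M) + ((b ^ i : ℕ) : ZMod M) * (y1 : ZMod M) := by
      push_cast; ring
    rw [h3, hy1c, hu]
    show _ + (u : ZMod M) * ((u⁻¹ : (ZMod M)ˣ) * ((t0 : ZMod M) - ((β + b ^ i * y0 : ℕ) : ZMod M))) = _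
    rw [← mul_assoc, Units.mul_inv, one_mul]
    ring
  have hmod : (β + b ^ i * (y0 + y1)) % M = t0 % M := (ZMod.natCast_eq_natCast_iff' _ _ _).1 hcong
  set y := y0 + y1 with hy
  have hyD : y ≤ D := by omega
  have h2y : 2 * y < b := by omega
  have h2y' : 2 * (D - y) < b := by omega
  have hβB : β < b ^ i := Nat.mod_lt _ hB
  have hn : n = β + b ^ i * (n / b ^ i) := (Nat.mod_add_div n (b ^ i)).symm
  set q := n / b ^ i with hq
  have hqD : D ≤ q := by rw [hD]; exact Nat.mod_le _ _
  have hyq : y ≤ q := hyD.trans hqD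
  have hmul : b ^ i * y ≤ b ^ i * q := Nat.mul_le_mul_left _ hyq
  have hsub : n - (β + b ^ i * y) = b ^ i * (q - y) := by
    rw [Nat.mul_sub]; omega
  refine ⟨β + b ^ i * y, by omega, hmod, ?_, ?_, ?_, ?_, ?_⟩
  · rw [Nat.add_mul_mod_self_left, Nat.mod_eq_of_lt hβB]
  · rw [pow_succ]
    calc β + b ^ i * y < b ^ i + b ^ i * y := by omega
      _ = b ^ i * (y + 1) := by ring
      _ ≤ b ^ i * b := by gcongr; omega
  · rw [Nat.add_mul_div_left _ _ hB, Nat.div_eq_of_lt hβB, Nat.zero_add]
    exact h2y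
  · rw [hsub]; exact Dvd.intro _ rfl
  · rw [hsub, Nat.mul_div_cancel_left _ hB]
    have h5 : (q - y) % b = D - y := by
      have h6 := Nat.mod_add_div q b
      rw [← hD] at h6
      have h7 : q - y = (D - y) + b * (q / b) := by omega
      rw [h7, Nat.add_mul_mod_self_left, Nat.mod_eq_of_lt (by omega)]
    rw [h5]; exact h2y'

end Arith

section Seg

variable {A : Type}

def seg (X : List A) (a c : ℕ) : List A := (X.drop a).take (c - a)

theorem seg_left (P Q : List A) {a c : ℕ} (h : a ≤ c) (hc : c ≤ P.length) :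
    seg (P ++ Q) a c = seg P a c := by
  unfold seg
  rw [List.drop_append_of_le_length (by omega),
    List.take_append_of_le_length (by rw [List.length_drop]; omega)]

theorem seg_right (P Q : List A) (a c : ℕ) :
    seg (P ++ Q) (P.length + a) (P.length + c) = seg Q a c := by
  unfold seg
  rw [List.drop_append, List.drop_eq_nil_of_le (by omega), List.nil_append,
    Nat.add_sub_cancel_left, Nat.add_sub_add_left]

theorem split3 (X : List A) {a c : ℕ} (h : a ≤ c) :
    X = X.take a ++ (seg X a c ++ X.drop c) := by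
  unfold seg
  have : X.drop c = (X.drop a).drop (c - a) := by
    rw [List.drop_drop]; congr 1; omega
  rw [this, List.take_append_drop, List.take_append_drop]

/-- if two words have the same first `L` letters, segments inside them agree -/
theorem seg_take {X Y : List A} {L a c : ℕ} (h : X.take L = Y.take L) (hc : c ≤ L) :
    seg X a c = seg Y a c := by
  have h1 : ∀ Z : List A, seg Z a c = seg (Z.take L) a c := by
    intro Z
    unfold seg
    rw [List.drop_take, List.take_take, min_eq_left (by omega)]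
  rw [h1 X, h1 Y, h]

end Seg

/-- contexts -/
structure Ctx (m : ℕ) (S W V : Type) where
  i : Fin m
  g : S
  wl : W
  h : S
  wr : W
  v : V

instance {m : ℕ} {S W V : Type} [Finite S] [Finite W] [Finite V] : Finite (Ctx m S W V) :=
  Finite.of_injective (β := Fin m × S × W × S × W × V)
    (fun c => (c.i, c.g, c.wl, c.h, c.wr, c.v)) (by
      rintro ⟨⟩ ⟨⟩ h
      simp only [Prod.mk.injEq] at h
      obtain ⟨rfl, rfl, rfl, rfl, rfl, rfl⟩ := h
      rfl)

/-- (G1) of 852 #13483. -/
theorem g1 (S V : Type) [Monoid S] [Finite S] [AddCommGroup V] [Finite V] (act : V → S → V) :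
    ∃ m r : ℕ, ∀ Bd : ℕ, ∃ (Ms : Finset ℕ) (M : ℕ), Ms.card ≤ r ∧
      (∀ k ∈ Ms, Bd < k ∧ k.Prime ∧ k ∣ M) ∧ 0 < M ∧
      ∀ b : ℕ, 4 * M + 4 < b → Nat.Coprime b M → ∀ (A : Type) (f : A → S),
      ∃ (lam rho : List A → Option V) (nu : List A → V),
        (∀ P v, lam P = some v → P.length < b ^ m) ∧
        (∀ P Q v v', lam P = some v → rho Q = some v' →
          v' = act v ((P ++ Q).map f).prod + nu (P ++ Q)) ∧
        (∀ X, (∀ k ∈ Ms, ¬ k ∣ X.length) →
          (∀ j < m, M ≤ X.length / b ^ j % b ∧ X.length / b ^ j % b + M + 1 ≤ b) →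
          ∀ v, ∃ P Q, P ++ Q = X ∧ lam P = some v ∧ (rho Q).isSome) ∧
        (∀ Q Q', b ^ m ≤ Q.length → b ^ m ≤ Q'.length → Q.take (b ^ m) = Q'.take (b ^ m) →
          Q.length % (M * b ^ m) = Q'.length % (M * b ^ m) →
          ((Q.drop (b ^ m)).map f).prod = ((Q'.drop (b ^ m)).map f).prod →
          rho Q = rho Q' ∧ nu Q = nu Q') := by
  classical
  obtain ⟨W, iW, fW, m, e, F, hF⟩ := Noise513.explicit_noise S V act
  let val : Ctx m S W V → S → V := fun c z =>
    F (c.g * z * c.h) (c.wl + e c.i z + c.wr) + act c.v (c.g * z * c.h)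
  let col : Ctx m S W V → V × V := fun c => (c.v, val c 1)
  obtain ⟨r, hr⟩ := Names755.names (Ctx m S W V) (V × V) col
  refine ⟨m, r, fun Bd => ?_⟩
  obtain ⟨Ms, M, nmL, nmR, hcard, hMs, hM, hLp, hRp, hgood, hcompl, hbad⟩ := hr Bd
  refine ⟨Ms, M, hcard, hMs, hM, fun b hb hcop A f => ?_⟩
  have hb0 : 0 < b := by omega
  let φ : List A → S := fun L => (L.map f).prod
  have hφ : ∀ X Y, φ (X ++ Y) = φ X * φ Y := fun X Y => by simp [φ]
  let T : Fin m → List A → W := fun j X =>
    e j (φ (seg X (X.length % b ^ (j : ℕ)) (X.length % b ^ ((j : ℕ) + 1))))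
  let wt : List A → W := fun X => ∑ j, T j X
  let wlf : Fin m → List A → W := fun i X => ∑ j, if j < i then T j X else 0
  let wrf : Fin m → List A → W := fun i X => ∑ j, if i < j then T j X else 0
  let good : Ctx m S W V → Prop := fun c => ∀ z, val c z = val c 1
  let okL : List A → Ctx m S W V → Prop := fun P c =>
    good c ∧ P.length < b ^ ((c.i : ℕ) + 1) ∧ 2 * (P.length / b ^ (c.i : ℕ)) < b ∧
      c.g = φ (P.take (P.length % b ^ (c.i : ℕ))) ∧ c.wl = wlf c.i P
  let okR : List A → Ctx m S W V → Prop := fun Q c =>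
    b ^ (c.i : ℕ) ∣ Q.length ∧ 2 * (Q.length / b ^ (c.i : ℕ) % b) < b ∧
      c.h = φ (Q.drop (Q.length % b ^ ((c.i : ℕ) + 1))) ∧ c.wr = wrf c.i Q
  let lam : List A → Option V := fun P =>
    (nmL P.length).bind fun c => if okL P c then some c.v else none
  let rho : List A → Option V := fun Q =>
    (nmR Q.length).bind fun c => if okR Q c then some (val c 1) else none
  let jn : ℕ → Option (Ctx m S W V × Ctx m S W V) := fun x =>
    if h : ∃ cc : Ctx m S W V × Ctx m S W V, ∃ t t', nmL t = some cc.1 ∧ nmR t' = some cc.2 ∧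
      (t + t') % M = x then some h.choose else none
  let nu : List A → V := fun X =>
    if (∀ k ∈ Ms, ¬ k ∣ X.length % M) then F (φ X) (wt X) else
      (jn (X.length % M)).elim 0 fun cc => (col cc.2).2 - act (col cc.1).1 (φ X)
  have hdvd : ∀ k ∈ Ms, ∀ n, k ∣ n % M ↔ k ∣ n := fun k hk n => Nat.dvd_mod_iff (hMs k hk).2.2
  -- bad totals: colours depend on the residue of the total only
  have hbad' : ∀ t₁ t₁' t₂ t₂' c₁ c₁' c₂ c₂', nmL t₁ = some c₁ → nmR t₁' = some c₁' →
      nmL t₂ = some c₂ → nmR t₂' = some c₂' → (t₁ + t₁') % M = (t₂ + t₂') % M →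
      (∃ k ∈ Ms, k ∣ t₁ + t₁') → col c₁ = col c₂ ∧ col c₁' = col c₂' := by
    intro t₁ t₁' t₂ t₂' c₁ c₁' c₂ c₂' h1 h1' h2 h2' hmod hk
    have e1 := Nat.mod_add_div (t₁ + t₁') M
    have e2 := Nat.mod_add_div (t₂ + t₂') M
    refine hbad t₁ (t₁' + M * ((t₂ + t₂') / M)) t₂ (t₂' + M * ((t₁ + t₁') / M)) c₁ c₁' c₂ c₂'
      h1 (by rw [per hRp]; exact h1') h2 (by rw [per hRp]; exact h2') (by omega) ?_
    obtain ⟨k, hk1, hk2⟩ := hk
    refine ⟨k, hk1, ?_⟩
    rw [← Nat.add_assoc]
    exact (Nat.dvd_add_right hk2).2 ((hMs k hk1).2.2.mul_right _)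
  -- decomposition at a junction of level `i`
  have hdec : ∀ (P Q : List A) (i : Fin m), b ^ (i : ℕ) ∣ Q.length →
      2 * (P.length / b ^ (i : ℕ)) < b → 2 * (Q.length / b ^ (i : ℕ) % b) < b →
      ∃ z, φ (P ++ Q) = φ (P.take (P.length % b ^ (i : ℕ))) * z *
          φ (Q.drop (Q.length % b ^ ((i : ℕ) + 1))) ∧
        wt (P ++ Q) = wlf i P + e i z + wrf i Q ∧
        z = φ (seg (P ++ Q) ((P ++ Q).length % b ^ (i : ℕ)) ((P ++ Q).length % b ^ ((i : ℕ) + 1)))
        ∧ wlf i (P ++ Q) = wlf i P ∧ wrf i (P ++ Q) = wrf i Q ∧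
        φ ((P ++ Q).take ((P ++ Q).length % b ^ (i : ℕ)))
          = φ (P.take (P.length % b ^ (i : ℕ))) ∧
        φ ((P ++ Q).drop ((P ++ Q).length % b ^ ((i : ℕ) + 1)))
          = φ (Q.drop (Q.length % b ^ ((i : ℕ) + 1))) := by
    intro P Q i hd h1 h2
    have hlen : (P ++ Q).length = P.length + Q.length := List.length_append
    have hlo : ∀ j, j ≤ (i : ℕ) → (P ++ Q).length % b ^ j = P.length % b ^ j := fun j hj => by
      rw [hlen]; exact mod_low hj hd
    have hhi : ∀ j, (i : ℕ) < j → (P ++ Q).length % b ^ j = P.length + Q.length % b ^ j :=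
      fun j hj => by rw [hlen]; exact mod_high hj hb0 hd h1 h2
    have hTl : ∀ j : Fin m, j < i → T j (P ++ Q) = T j P := by
      intro j hj
      have hj' : (j : ℕ) < i := hj
      simp only [T]
      rw [hlo j (by omega), hlo (j + 1) (by omega),
        seg_left P Q (mod_mono _ _ _) (Nat.mod_le _ _)]
    have hTr : ∀ j : Fin m, i < j → T j (P ++ Q) = T j Q := by
      intro j hj
      have hj' : (i : ℕ) < j := hj
      simp only [T]
      rw [hhi j (by omega), hhi (j + 1) (by omega), seg_right]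
    have hwl : wlf i (P ++ Q) = wlf i P := by
      refine Finset.sum_congr rfl fun j _ => ?_
      by_cases hj : j < i
      · rw [if_pos hj, if_pos hj, hTl j hj]
      · rw [if_neg hj, if_neg hj]
    have hwr : wrf i (P ++ Q) = wrf i Q := by
      refine Finset.sum_congr rfl fun j _ => ?_
      by_cases hj : i < j
      · rw [if_pos hj, if_pos hj, hTr j hj]
      · rw [if_neg hj, if_neg hj]
    have htk : (P ++ Q).take ((P ++ Q).length % b ^ (i : ℕ)) = P.take (P.length % b ^ (i : ℕ)) := by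
      rw [hlo i le_rfl, List.take_append_of_le_length (Nat.mod_le _ _)]
    have hdr : (P ++ Q).drop ((P ++ Q).length % b ^ ((i : ℕ) + 1))
        = Q.drop (Q.length % b ^ ((i : ℕ) + 1)) := by
      have h0 : P.drop (P.length + Q.length % b ^ ((i : ℕ) + 1)) = [] :=
        List.drop_eq_nil_of_le (Nat.le_add_right _ _)
      rw [hhi (i + 1) (Nat.lt_succ_self _), List.drop_append, h0,
        List.nil_append, Nat.add_sub_cancel_left]
    refine ⟨_, ?_, ?_, rfl, hwl, hwr, by rw [htk], by rw [hdr]⟩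
    · rw [← htk, ← hdr, mul_assoc, ← hφ, ← hφ]
      congr 1
      exact split3 _ (mod_mono _ _ _)
    · rw [← hwl, ← hwr]
      show ∑ j, T j (P ++ Q) = _
      have h3 : e i (φ (seg (P ++ Q) ((P ++ Q).length % b ^ (i : ℕ))
          ((P ++ Q).length % b ^ ((i : ℕ) + 1)))) = ∑ j, if j = i then T j (P ++ Q) else 0 := by
        rw [Finset.sum_ite_eq' Finset.univ i]
        simp [T]
      rw [h3]
      simp only [wlf, wrf]
      rw [← Finset.sum_add_distrib, ← Finset.sum_add_distrib]
      refine Finset.sum_congr rfl fun j _ => ?_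
      rcases lt_trichotomy j i with hj | hj | hj
      · rw [if_pos hj, if_neg hj.ne, if_neg (not_lt.2 hj.le), add_zero, add_zero]
      · subst hj; simp
      · rw [if_neg (not_lt.2 hj.le), if_neg hj.ne', if_pos hj, zero_add, zero_add]
  refine ⟨lam, rho, nu, ?_, ?_, ?_, ?_⟩
  · intro P v hl
    obtain ⟨c, _, hc⟩ := Option.bind_eq_some_iff.1 hl
    split_ifs at hc with hok
    exact lt_of_lt_of_le hok.2.1 (Nat.pow_le_pow_right hb0 c.i.2)
  · intro P Q v v' hl hrr
    obtain ⟨c, hc, hcv⟩ := Option.bind_eq_some_iff.1 hl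
    obtain ⟨c', hc', hcv'⟩ := Option.bind_eq_some_iff.1 hrr
    split_ifs at hcv with hok
    split_ifs at hcv' with hok'
    simp only [Option.some.injEq] at hcv hcv'
    have hlen : (P ++ Q).length = P.length + Q.length := List.length_append
    by_cases hT : ∀ k ∈ Ms, ¬ k ∣ (P ++ Q).length % M
    · have hT' : ∀ k ∈ Ms, ¬ k ∣ P.length + Q.length := fun k hk => by
        rw [← hlen, ← hdvd k hk]; exact hT k hk
      have hcc : c = c' := hgood _ _ _ _ hc hc' hT'
      subst hcc
      obtain ⟨z, hz1, hz2, _⟩ := hdec P Q c.i hok'.1 hok.2.2.1 hok'.2.1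
      have hnu : nu (P ++ Q) = F (φ (P ++ Q)) (wt (P ++ Q)) := if_pos hT
      rw [hnu]
      have hval := hok.1 z
      rw [← hcv', ← hcv, ← hval]
      show F (c.g * z * c.h) (c.wl + e c.i z + c.wr) + act c.v (c.g * z * c.h)
        = act c.v (φ (P ++ Q)) + F (φ (P ++ Q)) (wt (P ++ Q))
      rw [hz1, hz2, ← hok.2.2.2.1, ← hok'.2.2.1, ← hok.2.2.2.2, ← hok'.2.2.2, add_comm]
    · have hnu : nu (P ++ Q) = (jn ((P ++ Q).length % M)).elim 0
          fun cc => (col cc.2).2 - act (col cc.1).1 (φ (P ++ Q)) := if_neg hT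
      have hex : ∃ cc : Ctx m S W V × Ctx m S W V, ∃ t t', nmL t = some cc.1 ∧
          nmR t' = some cc.2 ∧ (t + t') % M = (P ++ Q).length % M :=
        ⟨(c, c'), P.length, Q.length, hc, hc', by rw [hlen]⟩
      have hj : jn ((P ++ Q).length % M) = some hex.choose := dif_pos hex
      obtain ⟨t, t', h1, h2, h3⟩ := hex.choose_spec
      push Not at hT
      obtain ⟨k, hk1, hk2⟩ := hT
      have hk3 : k ∣ P.length + Q.length := by rw [← hlen]; exact (hdvd k hk1 _).1 hk2
      obtain ⟨hc1, hc2⟩ := hbad' _ _ _ _ _ _ _ _ hc hc' h1 h2 (by rw [h3, hlen]) ⟨k, hk1, hk3⟩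
      rw [hnu, hj]
      show v' = act v (φ (P ++ Q)) + ((col hex.choose.2).2 - act (col hex.choose.1).1 (φ (P ++ Q)))
      rw [← hc1, ← hc2]
      show v' = act v (φ (P ++ Q)) + (val c' 1 - act c.v (φ (P ++ Q)))
      rw [← hcv', ← hcv]
      abel
  · intro X hX hdig v
    obtain ⟨i, hi⟩ := hF (φ X) (wt X) v
    -- the context
    set n := X.length with hn
    let x := φ (seg X (n % b ^ (i : ℕ)) (n % b ^ ((i : ℕ) + 1)))
    let c : Ctx m S W V := ⟨i, φ (X.take (n % b ^ (i : ℕ))), wlf i X,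
      φ (X.drop (n % b ^ ((i : ℕ) + 1))), wrf i X, v⟩
    obtain ⟨t0, ht0, hL0, hR0⟩ := hcompl n hX c
    obtain ⟨o, hon, homod, homod2, holt, ho1, ho2, ho3⟩ := place (i := (i : ℕ)) (n := n) hM hb hcop
      rfl (hdig i i.2).1 (hdig i i.2).2 t0
    have hPl : (X.take o).length = o := by rw [List.length_take]; omega
    have hQl : (X.drop o).length = n - o := by rw [List.length_drop]
    have hXX : X.take o ++ X.drop o = X := List.take_append_drop _ _
    obtain ⟨z, hz1, hz2, hz3, hz4, hz5, hz6, hz7⟩ := hdec (X.take o) (X.drop o) i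
      (by rw [hQl]; exact ho2) (by rw [hPl]; exact ho1) (by rw [hQl]; exact ho3)
    rw [hXX] at hz1 hz2 hz3 hz4 hz5 hz6 hz7
    have hgd : good c := by
      have hall : ∀ z', val c z' = F (φ X) (wt X) + act v (φ X) := by
        intro z'
        have h4 := hi c.g z c.h (by
          show φ (X.take (n % b ^ (i : ℕ))) * z * φ (X.drop (n % b ^ ((i : ℕ) + 1))) = φ X
          rw [hz1, hz6, hz7]) z'
        rw [← h4]
        show F (c.g * z' * c.h) (c.wl + e i z' + c.wr) + act v (c.g * z' * c.h) = _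
        congr 2
        show wlf i X + e i z' + wrf i X = wt X - e i z + e i z'
        rw [hz2, hz4, hz5]
        abel
      intro z'
      rw [hall z', hall 1]
    have hnL : nmL (X.take o).length = some c := by
      rw [hPl, ← hL0]; exact per_mod hLp homod
    have hnR : nmR (X.drop o).length = some c := by
      rw [hQl]
      apply hR0
      have h6 : t0 + (n - o) ≡ o + (n - o) [MOD M] := Nat.ModEq.add_right _ homod.symm
      have h7 : o + (n - o) = n := by omega
      rw [h7] at h6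
      exact h6
    have hokL : okL (X.take o) c := by
      refine ⟨hgd, ?_, ?_, ?_, ?_⟩
      · rw [hPl]; exact holt
      · rw [hPl]; exact ho1
      · exact hz6
      · exact hz4
    have hokR : okR (X.drop o) c := by
      refine ⟨?_, ?_, ?_, ?_⟩
      · rw [hQl]; exact ho2
      · rw [hQl]; exact ho3
      · exact hz7
      · exact hz5
    refine ⟨X.take o, X.drop o, hXX, ?_, ?_⟩
    · show (nmL (X.take o).length).bind _ = some v
      rw [hnL]
      show (if okL (X.take o) c then some c.v else none) = some v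
      rw [if_pos hokL]
    · show ((nmR (X.drop o).length).bind _).isSome
      rw [hnR]
      show (if okR (X.drop o) c then some (val c 1) else none).isSome
      rw [if_pos hokR]; rfl
  · intro Q Q' hQ hQ' htake hmod hprod
    have hM1 : Q.length % M = Q'.length % M := by
      have := congrArg (· % M) hmod
      simpa only [Nat.mod_mul_right_mod] using this
    have hM2 : Q.length % b ^ m = Q'.length % b ^ m := by
      have := congrArg (· % b ^ m) hmod
      simpa only [Nat.mod_mul_left_mod] using this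
    have hMj : ∀ j, j ≤ m → Q.length % b ^ j = Q'.length % b ^ j := by
      intro j hj
      have := congrArg (· % b ^ j) hM2
      simpa only [Nat.mod_mod_of_dvd _ (pow_dvd_pow b hj)] using this
    have hTT : ∀ j : Fin m, T j Q = T j Q' := by
      intro j
      simp only [T]
      rw [hMj j (by omega), hMj (j + 1) (by omega)]
      rw [seg_take htake]
      exact (Nat.mod_lt _ (Nat.pow_pos hb0)).le.trans (Nat.pow_le_pow_right hb0 (by omega))
    have hwr : ∀ i, wrf i Q = wrf i Q' := fun i => Finset.sum_congr rfl fun j _ => by rw [hTT j]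
    have hwt : wt Q = wt Q' := Finset.sum_congr rfl fun j _ => by rw [hTT j]
    have hdropφ : ∀ a, a ≤ b ^ m → φ (Q.drop a) = φ (Q'.drop a) := by
      intro a ha
      have h1 : ∀ Z : List A, φ (Z.drop a) = φ (seg Z a (b ^ m)) * φ (Z.drop (b ^ m)) := by
        intro Z
        rw [← hφ]
        congr 1
        unfold seg
        have : Z.drop (b ^ m) = (Z.drop a).drop (b ^ m - a) := by
          rw [List.drop_drop]; congr 1; omega
        rw [this, List.take_append_drop]
      rw [h1 Q, h1 Q', seg_take htake le_rfl]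
      congr 1
    have hφQ : φ Q = φ Q' := by simpa using hdropφ 0 (Nat.zero_le _)
    refine ⟨?_, ?_⟩
    · show (nmR Q.length).bind _ = (nmR Q'.length).bind _
      rw [per_mod hRp hM1]
      congr 1
      funext c
      have hiff : okR Q c ↔ okR Q' c := by
        have d1 : ∀ n, b ^ (c.i : ℕ) ∣ n ↔ n % b ^ (c.i : ℕ) = 0 := fun n =>
          Nat.dvd_iff_mod_eq_zero
        have d2 : ∀ n, n / b ^ (c.i : ℕ) % b = n % b ^ ((c.i : ℕ) + 1) / b ^ (c.i : ℕ) := by
          intro n
          rw [pow_succ, Nat.mod_mul_right_div_self]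
        have hle : Q'.length % b ^ ((c.i : ℕ) + 1) ≤ b ^ m :=
          (Nat.mod_lt _ (Nat.pow_pos hb0)).le.trans (Nat.pow_le_pow_right hb0 (by omega))
        simp only [okR]
        rw [d1, d1, d2, d2, hMj c.i (by omega), hMj (c.i + 1) (by omega), hwr, hdropφ _ hle]
      by_cases h : okR Q c
      · rw [if_pos h, if_pos (hiff.1 h)]
      · rw [if_neg h, if_neg (fun h' => h (hiff.2 h'))]
    · show (if (∀ k ∈ Ms, ¬ k ∣ Q.length % M) then F (φ Q) (wt Q) else
        (jn (Q.length % M)).elim 0 fun cc => (col cc.2).2 - act (col cc.1).1 (φ Q)) =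
        (if (∀ k ∈ Ms, ¬ k ∣ Q'.length % M) then F (φ Q') (wt Q') else
        (jn (Q'.length % M)).elim 0 fun cc => (col cc.2).2 - act (col cc.1).1 (φ Q'))
      rw [hM1, hφQ, hwt]

end Crest.Agent.R320.G1_196
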