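import Crest.Agent.R320.Names_755
import Crest.Agent.R320.RandF_808

/-!
G1 (852 #13483, lead #13673), independent copy by helper24.
Levels = positional digits of the length in base `b`; names by CRT (755); noise by 808.
-/

set_option autoImplicit false

namespace Crest.Agent.R320.G1_24

open Finset

/-! ### small tools -/

noncomputable def pick {N : Type*} (P : N → Prop) : Option N := by
  classical exact if h : ∃ c, P c then some h.choose else none

theorem pick_some {N : Type*} {P : N → Prop} {c : N} (h : pick P = some c) : P c := by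
  classical
  unfold pick at h
  split_ifs at h with hx
  have := hx.choose_spec
  simp only [Option.some.injEq] at h
  rwa [h] at this

theorem pick_eq {N : Type*} {P : N → Prop} {c : N} (h : P c) (hu : ∀ c', P c' → c' = c) :
    pick P = some c := by
  classical
  unfold pick
  have hx : ∃ c, P c := ⟨c, h⟩
  rw [dif_pos hx]
  exact congrArg some (hu _ hx.choose_spec)

theorem cong_exists {M q : ℕ} (hM : 0 < M) (hq : Nat.Coprime q M) (β t y0 : ℕ) :
    ∃ y, y0 ≤ y ∧ y < y0 + M ∧ β + q * y ≡ t [MOD M] := by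
  have : NeZero M := ⟨hM.ne'⟩
  let u := ZMod.unitOfCoprime q hq
  let y' : ZMod M := ((u⁻¹ : (ZMod M)ˣ) : ZMod M) * ((t : ZMod M) - β)
  refine ⟨y0 + (y' - (y0 : ZMod M)).val, by omega,
    by have := ZMod.val_lt (y' - (y0 : ZMod M)); omega, ?_⟩
  rw [← ZMod.natCast_eq_natCast_iff]
  push_cast
  rw [ZMod.natCast_zmod_val]
  have hu : (q : ZMod M) * ((u⁻¹ : (ZMod M)ˣ) : ZMod M) = 1 := by
    have h1 : (u : ZMod M) = (q : ZMod M) := ZMod.coe_unitOfCoprime q hq
    rw [← h1]
    exact u.mul_inv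
  calc (β : ZMod M) + q * (y0 + (y' - y0))
      = β + ((q : ZMod M) * ((u⁻¹ : (ZMod M)ˣ) : ZMod M)) * (t - β) := by
        simp only [y']; ring
    _ = t := by rw [hu]; ring

/-- no carry. -/
theorem geo {b i o o' : ℕ} (_h1 : o < b ^ (i+1)) (h2 : 2 * (o / b ^ i) < b) (h3 : b ^ i ∣ o')
    (h4 : 2 * ((o' / b ^ i) % b) < b) :
    (∀ j ≤ i, (o + o') % b ^ j = o % b ^ j) ∧
    (∀ j, i < j → (o + o') % b ^ j = o + o' % b ^ j) := by
  have hb : 0 < b := by omega
  refine ⟨fun j hj => ?_, fun j hj => ?_⟩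
  · obtain ⟨q, hq⟩ := dvd_trans (pow_dvd_pow b hj) h3
    rw [hq, Nat.add_mul_mod_self_left]
  · have hpi : 0 < b ^ i := pow_pos hb i
    set d := o / b ^ i with hd
    set d' := (o' / b ^ i) % b with hd'
    have ho : o < b ^ i * (d + 1) := Nat.lt_mul_div_succ o hpi
    have hsum : o + b ^ i * d' < b ^ (i+1) := by
      have h5 : d + 1 + d' ≤ b := by omega
      calc o + b ^ i * d' < b ^ i * (d+1) + b ^ i * d' := by omega
        _ = b ^ i * (d + 1 + d') := by ring
        _ ≤ b ^ i * b := Nat.mul_le_mul_left _ h5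
        _ = b ^ (i+1) := by rw [pow_succ]
    have hlow : o' % b ^ (i+1) = b ^ i * d' := by
      rw [pow_succ, Nat.mod_mul, Nat.mod_eq_zero_of_dvd h3, zero_add]
    have hdvd : b ^ (i+1) ∣ b ^ j := pow_dvd_pow b hj
    have hmm : (o' % b ^ j) % b ^ (i+1) = b ^ i * d' := by
      rw [Nat.mod_mod_of_dvd _ hdvd, hlow]
    set u := (o' % b ^ j) / b ^ (i+1) with hu
    have hdm : b ^ (i+1) * u + b ^ i * d' = o' % b ^ j := by
      rw [← hmm]; exact Nat.div_add_mod _ _
    have hlt : o' % b ^ j < b ^ j := Nat.mod_lt _ (pow_pos hb j)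
    obtain ⟨c, hc⟩ := hdvd
    have huc : u < c := by
      refine Nat.lt_of_mul_lt_mul_left (a := b ^ (i+1)) ?_
      rw [← hc]; omega
    have hle : b ^ (i+1) * (u + 1) ≤ b ^ j := by
      rw [hc]; exact Nat.mul_le_mul_left _ huc
    have hfin : o + o' % b ^ j < b ^ j := by
      rw [← hdm]
      rw [mul_add, mul_one] at hle
      omega
    rw [← Nat.add_mod_mod, Nat.mod_eq_of_lt hfin]

/-! ### words -/
section Words
variable {S A : Type} [Monoid S] (f : A → S)

def E (X : List A) (lo hi : ℕ) : S := (((X.take hi).drop lo).map f).prod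

theorem E_left {P Q : List A} {lo hi : ℕ} (h : hi ≤ P.length) : E f (P ++ Q) lo hi = E f P lo hi := by
  unfold E; rw [List.take_append_of_le_length h]

theorem E_right {P Q : List A} (x y : ℕ) :
    E f (P ++ Q) (P.length + x) (P.length + y) = E f Q x y := by
  unfold E
  have h1 : (P ++ Q).take (P.length + y) = P ++ Q.take y := by
    simp [List.take_append]
  have h2 : (P ++ Q.take y).drop (P.length + x) = (Q.take y).drop x := by
    simp [List.drop_append]
  rw [h1, h2]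

theorem val3 (X : List A) {a c : ℕ} (h : a ≤ c) :
    (X.map f).prod = ((X.take a).map f).prod * E f X a c * ((X.drop c).map f).prod := by
  have h1 : X.take a = (X.take c).take a := by
    rw [List.take_take, min_eq_left h]
  unfold E
  rw [h1, ← List.prod_append, ← List.map_append, List.take_append_drop, ← List.prod_append,
    ← List.map_append, List.take_append_drop]

end Words


/-! ### contexts -/

structure Ctx (m : ℕ) (S W V : Type) where
  i : Fin m
  g : S
  wl : W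
  h : S
  wr : W
  v : V

instance {m : ℕ} {S W V : Type} [Finite S] [Finite W] [Finite V] : Finite (Ctx m S W V) := by
  refine Finite.of_injective (β := Fin m × S × W × S × W × V)
    (fun c => (c.i, c.g, c.wl, c.h, c.wr, c.v)) ?_
  rintro ⟨⟩ ⟨⟩ h
  simp only [Prod.mk.injEq] at h
  obtain ⟨h1, h2, h3, h4, h5, h6⟩ := h
  subst h1 h2 h3 h4 h5 h6
  rfl

section Main
variable {S V W A : Type} [Monoid S] [AddCommGroup V] [AddCommGroup W]
  (act : V → S → V) {m : ℕ} (e : ℕ → S → W) (F : S → W → V) (f : A → S) (b M : ℕ) (Ms : Finset ℕ)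
  (nmL nmR : ℕ → Option (Ctx m S W V))

def valc (c : Ctx m S W V) (z : S) : V :=
  F (c.g * z * c.h) (c.wl + e c.i z + c.wr) + act c.v (c.g * z * c.h)

def bb (c : Ctx m S W V) : V := valc act e F c 1

def Good (c : Ctx m S W V) : Prop := ∀ z, valc act e F c z = bb act e F c

def wl (P : List A) (i : ℕ) : W :=
  ∑ j ∈ range i, e j (E f P (P.length % b ^ j) (P.length % b ^ (j+1)))

def wr (m : ℕ) (Q : List A) (i : ℕ) : W :=
  ∑ j ∈ Ico (i+1) m, e j (E f Q (Q.length % b ^ j) (Q.length % b ^ (j+1)))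

def ww (m : ℕ) (X : List A) : W :=
  ∑ j ∈ range m, e j (E f X (X.length % b ^ j) (X.length % b ^ (j+1)))

structure LL (P : List A) (c : Ctx m S W V) : Prop where
  nm : nmL P.length = some c
  good : Good act e F c
  len : P.length < b ^ ((c.i : ℕ)+1)
  dig : 2 * (P.length / b ^ (c.i : ℕ)) < b
  g : ((P.take (P.length % b ^ (c.i : ℕ))).map f).prod = c.g
  wl : wl e f b P c.i = c.wl

structure RR (Q : List A) (c : Ctx m S W V) : Prop where
  nm : nmR Q.length = some c
  good : Good act e F c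
  dvd : b ^ (c.i : ℕ) ∣ Q.length
  dig : 2 * ((Q.length / b ^ (c.i : ℕ)) % b) < b
  h : ((Q.drop (Q.length % b ^ ((c.i : ℕ)+1))).map f).prod = c.h
  wr : wr e f b m Q c.i = c.wr

theorem LL.uniq {P : List A} {c c' : Ctx m S W V} (h : LL act e F f b nmL P c)
    (h' : LL act e F f b nmL P c') : c' = c :=
  Option.some.inj (h'.nm.symm.trans h.nm)

theorem RR.uniq {P : List A} {c c' : Ctx m S W V} (h : RR act e F f b nmR P c)
    (h' : RR act e F f b nmR P c') : c' = c :=
  Option.some.inj (h'.nm.symm.trans h.nm)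

noncomputable def lam (P : List A) : Option V :=
  pick (fun v => ∃ c, LL act e F f b nmL P c ∧ v = c.v)

noncomputable def rho (Q : List A) : Option V :=
  pick (fun v => ∃ c, RR act e F f b nmR Q c ∧ v = bb act e F c)

noncomputable def UU (n : ℕ) : Option (V × V) :=
  pick (fun p : V × V => ∃ t t' c c', t + t' ≡ n [MOD M] ∧ nmL t = some c ∧ nmR t' = some c' ∧
    p = (c.v, bb act e F c'))

open Classical in
noncomputable def nu (X : List A) : V :=
  if ∀ k ∈ Ms, ¬ k ∣ X.length then F (X.map f).prod (ww e f b m X)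
  else match UU act e F M nmL nmR X.length with
    | some p => p.2 - act p.1 (X.map f).prod
    | none => 0

/-- geometry of a cut. -/
theorem cutgeo {P Q : List A} {i : ℕ} (hi : i < m) (h1 : P.length < b ^ (i+1))
    (h2 : 2 * (P.length / b ^ i) < b) (h3 : b ^ i ∣ Q.length)
    (h4 : 2 * ((Q.length / b ^ i) % b) < b) :
    ((((P ++ Q).take ((P ++ Q).length % b ^ i)).map f).prod =
      ((P.take (P.length % b ^ i)).map f).prod) ∧
    ((((P ++ Q).drop ((P ++ Q).length % b ^ (i+1))).map f).prod =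
      ((Q.drop (Q.length % b ^ (i+1))).map f).prod) ∧
    ww e f b m (P ++ Q) = wl e f b P i + e i (E f (P ++ Q) ((P ++ Q).length % b ^ i)
      ((P ++ Q).length % b ^ (i+1))) + wr e f b m Q i ∧
    (P ++ Q).length % b ^ i ≤ (P ++ Q).length % b ^ (i+1) := by
  obtain ⟨g1, g2⟩ := geo h1 h2 h3 h4
  have hlen : (P ++ Q).length = P.length + Q.length := List.length_append
  rw [hlen]
  have hb : 0 < b := by omega
  have hle : ∀ j, P.length % b ^ j ≤ P.length := fun j => Nat.mod_le _ _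
  refine ⟨?_, ?_, ?_, ?_⟩
  · rw [g1 i le_rfl, List.take_append_of_le_length (hle i)]
  · rw [g2 (i+1) (Nat.lt_succ_self i)]
    congr 2
    simp [List.drop_append]
  · unfold ww wl wr
    rw [← Finset.sum_range_add_sum_Ico _ (show i + 1 ≤ m from hi), Finset.sum_range_succ, hlen]
    congr 1
    · congr 1
      refine Finset.sum_congr rfl ?_
      intro j hj
      rw [Finset.mem_range] at hj
      rw [g1 j hj.le, g1 (j+1) hj, E_left f (hle (j+1))]
    · refine Finset.sum_congr rfl ?_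
      intro j hj
      rw [Finset.mem_Ico] at hj
      rw [g2 j (by omega), g2 (j+1) (by omega), E_right]
  · rw [g1 i le_rfl, g2 (i+1) (Nat.lt_succ_self i)]
    exact (hle i).trans (Nat.le_add_right _ _)

/-- same name: exact. -/
theorem same {P Q : List A} {c : Ctx m S W V} (hP : LL act e F f b nmL P c)
    (hQ : RR act e F f b nmR Q c) :
    bb act e F c = F ((P ++ Q).map f).prod (ww e f b m (P ++ Q)) + act c.v ((P ++ Q).map f).prod := by
  obtain ⟨a1, a2, a3, a4⟩ := cutgeo (m := m) e f b (P := P) (Q := Q) c.i.2 hP.len hP.dig hQ.dvd hQ.dig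
  rw [val3 f (P ++ Q) a4, a1, a2, a3, hP.g, hP.wl, hQ.h, hQ.wr]
  exact (hP.good _).symm


theorem per_of {α : Type*} {g : ℕ → α} {M : ℕ} (h : ∀ t, g (t + M) = g t) {a c : ℕ}
    (hac : a ≡ c [MOD M]) : g a = g c := by
  have hp : Function.Periodic g M := h
  rw [← hp.map_mod_nat a, ← hp.map_mod_nat c, hac]

theorem UU_congr {n n' : ℕ} (h : n ≡ n' [MOD M]) :
    UU act e F M nmL nmR n = UU act e F M nmL nmR n' := by
  unfold UU
  congr 1
  funext p
  apply propext
  constructor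
  · rintro ⟨t, t', c, c', h1, h2⟩
    exact ⟨t, t', c, c', h1.trans h, h2⟩
  · rintro ⟨t, t', c, c', h1, h2⟩
    exact ⟨t, t', c, c', h1.trans h.symm, h2⟩

theorem UU_eq (hMs : ∀ k ∈ Ms, k ∣ M) (hperR : ∀ t, nmR (t + M) = nmR t)
    (h3 : ∀ t₁ t₁' t₂ t₂' c₁ c₁' c₂ c₂', nmL t₁ = some c₁ → nmR t₁' = some c₁' →
        nmL t₂ = some c₂ → nmR t₂' = some c₂' → t₁ + t₁' = t₂ + t₂' →
        (∃ k ∈ Ms, k ∣ t₁ + t₁') → (c₁.v, bb act e F c₁) = (c₂.v, bb act e F c₂) ∧
          (c₁'.v, bb act e F c₁') = (c₂'.v, bb act e F c₂'))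
    {n t t' : ℕ} {c c' : Ctx m S W V} (hn : ∃ k ∈ Ms, k ∣ n) (ht : t + t' ≡ n [MOD M])
    (hc : nmL t = some c) (hc' : nmR t' = some c') :
    UU act e F M nmL nmR n = some (c.v, bb act e F c') := by
  obtain ⟨k, hk, hkn⟩ := hn
  have key : ∀ t₁ t₁' t₂ t₂' c₁ c₁' c₂ c₂', t₁ + t₁' ≡ n [MOD M] → t₂ + t₂' ≡ n [MOD M] →
      t₁ + t₁' ≤ t₂ + t₂' → nmL t₁ = some c₁ → nmR t₁' = some c₁' →
        nmL t₂ = some c₂ → nmR t₂' = some c₂' → (c₁.v, bb act e F c₁) = (c₂.v, bb act e F c₂) ∧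
          (c₁'.v, bb act e F c₁') = (c₂'.v, bb act e F c₂') := by
    intro t₁ t₁' t₂ t₂' c₁ c₁' c₂ c₂' e1 e2 hle a1 a2 a3 a4
    have h12 : t₁ + t₁' ≡ t₂ + t₂' [MOD M] := e1.trans e2.symm
    obtain ⟨q, hq⟩ := (Nat.modEq_iff_dvd' hle).1 h12
    have hs : t₁ + (t₁' + M * q) = t₂ + t₂' := by omega
    have hper : nmR (t₁' + M * q) = some c₁' := by
      rw [← a2]
      exact per_of hperR (by simp [Nat.ModEq])
    refine h3 t₁ (t₁' + M * q) t₂ t₂' c₁ c₁' c₂ c₂' a1 hper a3 a4 hs ⟨k, hk, ?_⟩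
    rw [hs]
    exact (Nat.ModEq.dvd_iff e2 (hMs k hk)).2 hkn
  refine pick_eq ⟨t, t', c, c', ht, hc, hc', rfl⟩ ?_
  rintro p ⟨t₂, t₂', c₂, c₂', b1, b2, b3, rfl⟩
  rcases le_total (t + t') (t₂ + t₂') with hle | hle
  · obtain ⟨k1, k2⟩ := key _ _ _ _ _ _ _ _ ht b1 hle hc hc' b2 b3
    simp only [Prod.mk.injEq] at k1 k2 ⊢
    exact ⟨k1.1.symm, k2.2.symm⟩
  · obtain ⟨k1, k2⟩ := key _ _ _ _ _ _ _ _ b1 ht hle b2 b3 hc hc'
    simp only [Prod.mk.injEq] at k1 k2 ⊢
    exact ⟨k1.1, k2.2⟩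

/-- soundness. -/
theorem sound (hMs : ∀ k ∈ Ms, k ∣ M) (hperR : ∀ t, nmR (t + M) = nmR t)
    (h1 : ∀ t t' c c', nmL t = some c → nmR t' = some c' → (∀ k ∈ Ms, ¬ k ∣ t + t') → c = c')
    (h3 : ∀ t₁ t₁' t₂ t₂' c₁ c₁' c₂ c₂', nmL t₁ = some c₁ → nmR t₁' = some c₁' →
        nmL t₂ = some c₂ → nmR t₂' = some c₂' → t₁ + t₁' = t₂ + t₂' →
        (∃ k ∈ Ms, k ∣ t₁ + t₁') → (c₁.v, bb act e F c₁) = (c₂.v, bb act e F c₂) ∧
          (c₁'.v, bb act e F c₁') = (c₂'.v, bb act e F c₂'))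
    {P Q : List A} {v v' : V} (hP : lam act e F f b nmL P = some v)
    (hQ : rho act e F f b nmR Q = some v') :
    v' = act v ((P ++ Q).map f).prod + nu act e F f b M Ms nmL nmR (P ++ Q) := by
  obtain ⟨c, hc, rfl⟩ := pick_some hP
  obtain ⟨c', hc', rfl⟩ := pick_some hQ
  by_cases hg : ∀ k ∈ Ms, ¬ k ∣ (P ++ Q).length
  · have hcc : c = c' := h1 _ _ _ _ hc.nm hc'.nm (by rwa [← List.length_append])
    subst hcc
    unfold nu
    rw [if_pos hg, same act e F f b nmL nmR hc hc', add_comm]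
  · have hn : ∃ k ∈ Ms, k ∣ (P ++ Q).length := by
      push Not at hg
      exact hg
    have hU := UU_eq act e F M Ms nmL nmR hMs hperR h3 (n := (P ++ Q).length) hn
      (t := P.length) (t' := Q.length) (by rw [List.length_append]) hc.nm hc'.nm
    unfold nu
    rw [if_neg hg, hU]
    simp

theorem lam_eq {P : List A} {c : Ctx m S W V} (h : LL act e F f b nmL P c) :
    lam act e F f b nmL P = some c.v := by
  refine pick_eq ⟨c, h, rfl⟩ ?_
  rintro v ⟨c', h', rfl⟩
  rw [LL.uniq act e F f b nmL h h']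

theorem rho_eq {P : List A} {c : Ctx m S W V} (h : RR act e F f b nmR P c) :
    rho act e F f b nmR P = some (bb act e F c) := by
  refine pick_eq ⟨c, h, rfl⟩ ?_
  rintro v ⟨c', h', rfl⟩
  rw [RR.uniq act e F f b nmR h h']

/-- completeness. -/
theorem complete (hM : 0 < M) (hb : 2 * M < b) (hco : Nat.Coprime b M)
    (hperL : ∀ t, nmL (t + M) = nmL t)
    (hF : ∀ (s : S) (w : W) (v : V), ∃ i < m, ∀ g x h : S, g * x * h = s → ∀ z : S,
        F (g * z * h) (w - e i x + e i z) + act v (g * z * h) = F s w + act v s)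
    (h2 : ∀ T, (∀ k ∈ Ms, ¬ k ∣ T) → ∀ c, ∃ t < M, nmL t = some c ∧
        ∀ t', t + t' ≡ T [MOD M] → nmR t' = some c)
    (X : List A) (hX : ∀ k ∈ Ms, ¬ k ∣ X.length)
    (hd : ∀ j < m, M ≤ X.length / b ^ j % b ∧ X.length / b ^ j % b + M + 1 ≤ b) (v : V) :
    ∃ P Q, P ++ Q = X ∧ lam act e F f b nmL P = some v ∧ (rho act e F f b nmR Q).isSome := by
  obtain ⟨i, hi, hFi⟩ := hF (X.map f).prod (ww e f b m X) v
  obtain ⟨hd1, hd2⟩ := hd i hi
  have hb0 : 0 < b := by omega
  set n := X.length with hn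
  have hpi : 0 < b ^ i := pow_pos hb0 i
  have hble : n % b ^ i ≤ n % b ^ (i+1) := by
    rw [pow_succ, Nat.mod_mul]; exact Nat.le_add_right _ _
  let c : Ctx m S W V :=
    { i := ⟨i, hi⟩
      g := ((X.take (n % b ^ i)).map f).prod
      wl := ∑ j ∈ range i, e j (E f X (n % b ^ j) (n % b ^ (j+1)))
      h := ((X.drop (n % b ^ (i+1))).map f).prod
      wr := ∑ j ∈ Ico (i+1) m, e j (E f X (n % b ^ j) (n % b ^ (j+1)))
      v := v }
  have hval := val3 f X hble
  have hw : ww e f b m X = c.wl + e i (E f X (n % b ^ i) (n % b ^ (i+1))) + c.wr := by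
    unfold ww
    rw [← Finset.sum_range_add_sum_Ico _ (show i + 1 ≤ m from hi), Finset.sum_range_succ]
  have hvc : ∀ z, valc act e F c z = F (X.map f).prod (ww e f b m X) + act v (X.map f).prod := by
    intro z
    rw [← hFi c.g (E f X (n % b ^ i) (n % b ^ (i+1))) c.h hval.symm z]
    unfold valc
    congr 2
    rw [hw]
    abel
  have hgood : Good act e F c := fun z => by unfold bb; rw [hvc, hvc]
  obtain ⟨t, _, htL, htR⟩ := h2 n hX c
  -- the place
  set ni := n / b ^ i % b with hni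
  obtain ⟨y, hy1, hy2, hy3⟩ := cong_exists hM (Nat.Coprime.pow_left i hco) (n % b ^ i) t
    ((ni - M + 1) / 2)
  have hyn : y ≤ ni := by omega
  have hy2b : 2 * y < b := by omega
  have hyr : 2 * (ni - y) < b := by omega
  have hnin : ni ≤ n / b ^ i := Nat.mod_le _ _
  set o := n % b ^ i + b ^ i * y with ho
  have hndm : b ^ i * (n / b ^ i) + n % b ^ i = n := Nat.div_add_mod _ _
  have hmul : b ^ i * y ≤ b ^ i * (n / b ^ i) := Nat.mul_le_mul_left _ (hyn.trans hnin)
  have hon : o ≤ n := by omega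
  have hno : n - o = b ^ i * (n / b ^ i - y) := by
    rw [Nat.mul_sub]; omega
  have hPl : (X.take o).length = o := by rw [List.length_take]; omega
  have hQl : (X.drop o).length = n - o := by rw [List.length_drop]
  have hXeq : X.take o ++ X.drop o = X := List.take_append_drop o X
  have hdivo : o / b ^ i = y := by
    rw [ho, Nat.add_mul_div_left _ _ hpi, Nat.div_eq_of_lt (Nat.mod_lt _ hpi), zero_add]
  have holt : o < b ^ (i+1) := by
    have h1 : o < b ^ i * (o / b ^ i + 1) := Nat.lt_mul_div_succ o hpi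
    rw [hdivo] at h1
    calc o < b ^ i * (y + 1) := h1
      _ ≤ b ^ i * b := Nat.mul_le_mul_left _ (by omega)
      _ = b ^ (i+1) := by rw [pow_succ]
  have hdvd : b ^ i ∣ n - o := ⟨_, hno⟩
  have hdivo' : (n - o) / b ^ i = n / b ^ i - y := by
    rw [hno, Nat.mul_div_cancel_left _ hpi]
  have hdig' : ((n - o) / b ^ i) % b = ni - y := by
    rw [hdivo']
    have h1 := Nat.div_add_mod (n / b ^ i) b
    rw [← hni] at h1
    have h2 : n / b ^ i - y = b * (n / b ^ i / b) + (ni - y) := by omega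
    rw [h2, Nat.mul_add_mod, Nat.mod_eq_of_lt (by omega)]
  obtain ⟨a1, a2, a3, a4⟩ := cutgeo (m := m) e f b (P := X.take o) (Q := X.drop o) hi
    (by rw [hPl]; exact holt) (by rw [hPl, hdivo]; exact hy2b) (by rw [hQl]; exact hdvd)
    (by rw [hQl, hdig']; exact hyr)
  obtain ⟨g1, g2⟩ := geo (o := o) (o' := n - o) holt (by rw [hdivo]; exact hy2b) hdvd
    (by rw [hdig']; exact hyr)
  have hoo : o + (n - o) = n := by omega
  rw [hoo] at g1 g2
  rw [hXeq] at a1 a2 a3 a4
  have hwl : wl e f b (X.take o) i = c.wl := by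
    unfold wl
    refine Finset.sum_congr rfl ?_
    intro j hj
    rw [Finset.mem_range] at hj
    rw [hPl, g1 j hj.le, g1 (j+1) hj]
    conv_rhs => rw [← hXeq]
    rw [E_left]
    rw [hPl]; exact Nat.mod_le _ _
  have hwr : wr e f b m (X.drop o) i = c.wr := by
    unfold wr
    refine Finset.sum_congr rfl ?_
    intro j hj
    rw [Finset.mem_Ico] at hj
    rw [hQl, g2 j (by omega), g2 (j+1) (by omega)]
    conv_rhs => rw [← hXeq]
    have := E_right f (P := X.take o) (Q := X.drop o) ((n - o) % b ^ j) ((n - o) % b ^ (j+1))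
    rw [hPl] at this
    rw [this]
  have hLL : LL act e F f b nmL (X.take o) c := by
    refine ⟨?_, hgood, ?_, ?_, ?_, hwl⟩
    · rw [hPl, per_of hperL hy3]; exact htL
    · rw [hPl]; exact holt
    · rw [hPl]; show 2 * (o / b ^ i) < b; rw [hdivo]; exact hy2b
    · exact a1.symm
  have hRR : RR act e F f b nmR (X.drop o) c := by
    refine ⟨?_, hgood, ?_, ?_, ?_, hwr⟩
    · rw [hQl]
      refine htR _ ?_
      have h5 : t + (n - o) ≡ o + (n - o) [MOD M] := Nat.ModEq.add_right _ hy3.symm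
      rwa [hoo] at h5
    · rw [hQl]; exact hdvd
    · rw [hQl]; show 2 * (((n - o) / b ^ i) % b) < b; rw [hdig']; exact hyr
    · exact a2.symm
  refine ⟨X.take o, X.drop o, hXeq, lam_eq act e F f b nmL hLL, ?_⟩
  rw [rho_eq act e F f b nmR hRR]
  rfl


/-! ### finite state -/

theorem E_take {X X' : List A} {K : ℕ} (h : X.take K = X'.take K) {lo hi : ℕ} (hh : hi ≤ K) :
    E f X lo hi = E f X' lo hi := by
  unfold E
  have h1 : X.take hi = (X.take K).take hi := by rw [List.take_take, min_eq_left hh]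
  have h2 : X'.take hi = (X'.take K).take hi := by rw [List.take_take, min_eq_left hh]
  rw [h1, h2, h]

theorem drop_val {X X' : List A} {K : ℕ} (hK : K ≤ X.length) (hK' : K ≤ X'.length)
    (h : X.take K = X'.take K)
    (hd : ((X.drop K).map f).prod = ((X'.drop K).map f).prod) {lo : ℕ} (hh : lo ≤ K) :
    ((X.drop lo).map f).prod = ((X'.drop lo).map f).prod := by
  have h1 : ∀ Y : List A, K ≤ Y.length → Y.drop lo = (Y.take K).drop lo ++ Y.drop K := by
    intro Y hY
    conv_lhs => rw [← List.take_append_drop K Y]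
    rw [List.drop_append_of_le_length (by rw [List.length_take]; omega)]
  rw [h1 X hK, h1 X' hK', List.map_append, List.map_append, List.prod_append, List.prod_append,
    h, hd]

theorem RR_congr (hb : 0 < b) (hperR : ∀ t, nmR (t + M) = nmR t)
    {Q Q' : List A} (hK : b ^ m ≤ Q.length) (hK' : b ^ m ≤ Q'.length)
    (ht : Q.take (b ^ m) = Q'.take (b ^ m))
    (hl : Q.length ≡ Q'.length [MOD M * b ^ m])
    (hd : ((Q.drop (b ^ m)).map f).prod = ((Q'.drop (b ^ m)).map f).prod)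
    (c : Ctx m S W V) (h : RR act e F f b nmR Q c) : RR act e F f b nmR Q' c := by
  have hm : ∀ j ≤ m, Q.length % b ^ j = Q'.length % b ^ j := fun j hj =>
    Nat.ModEq.of_dvd (Dvd.dvd.mul_left (pow_dvd_pow b hj) M) hl
  have hM : Q.length ≡ Q'.length [MOD M] := Nat.ModEq.of_dvd (Dvd.intro _ rfl) hl
  have hlt : ∀ j ≤ m, Q.length % b ^ j ≤ b ^ m := fun j hj =>
    (Nat.mod_lt _ (pow_pos hb j)).le.trans (Nat.pow_le_pow_right hb hj)
  have hi := c.i.2
  refine ⟨?_, h.good, ?_, ?_, ?_, ?_⟩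
  · rw [← h.nm]; exact (per_of hperR hM).symm
  · have h1 := h.dvd
    rw [Nat.dvd_iff_mod_eq_zero] at h1 ⊢
    rw [← hm _ hi.le]; exact h1
  · have h1 := h.dig
    rw [← Nat.mod_mul_right_div_self, ← pow_succ] at h1 ⊢
    rw [← hm _ hi]; exact h1
  · rw [← hm _ hi, ← h.h]
    exact (drop_val f hK hK' ht hd (hlt _ hi)).symm
  · rw [← h.wr]
    unfold wr
    refine Finset.sum_congr rfl ?_
    intro j hj
    rw [Finset.mem_Ico] at hj
    rw [← hm j (by omega), ← hm (j+1) (by omega)]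
    exact congrArg _ (E_take f ht (hlt _ (by omega))).symm

theorem fin_state (hb : 0 < b) (hMs : ∀ k ∈ Ms, k ∣ M) (hperR : ∀ t, nmR (t + M) = nmR t)
    {Q Q' : List A} (hK : b ^ m ≤ Q.length) (hK' : b ^ m ≤ Q'.length)
    (ht : Q.take (b ^ m) = Q'.take (b ^ m))
    (hl : Q.length ≡ Q'.length [MOD M * b ^ m])
    (hd : ((Q.drop (b ^ m)).map f).prod = ((Q'.drop (b ^ m)).map f).prod) :
    rho act e F f b nmR Q = rho act e F f b nmR Q' ∧
      nu act e F f b M Ms nmL nmR Q = nu act e F f b M Ms nmL nmR Q' := by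
  constructor
  · unfold rho
    congr 1
    funext v
    apply propext
    constructor
    · rintro ⟨c, h, rfl⟩
      exact ⟨c, RR_congr act e F f b M nmR hb hperR hK hK' ht hl hd c h, rfl⟩
    · rintro ⟨c, h, rfl⟩
      exact ⟨c, RR_congr act e F f b M nmR hb hperR hK' hK ht.symm hl.symm hd.symm c h, rfl⟩
  · have hm : ∀ j ≤ m, Q.length % b ^ j = Q'.length % b ^ j := fun j hj =>
      Nat.ModEq.of_dvd (Dvd.dvd.mul_left (pow_dvd_pow b hj) M) hl
    have hM : Q.length ≡ Q'.length [MOD M] := Nat.ModEq.of_dvd (Dvd.intro _ rfl) hl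
    have hlt : ∀ j ≤ m, Q.length % b ^ j ≤ b ^ m := fun j hj =>
      (Nat.mod_lt _ (pow_pos hb j)).le.trans (Nat.pow_le_pow_right hb hj)
    have hval : (Q.map f).prod = (Q'.map f).prod := by
      have := drop_val f hK hK' ht hd (lo := 0) (Nat.zero_le _)
      simpa using this
    have hww : ww e f b m Q = ww e f b m Q' := by
      unfold ww
      refine Finset.sum_congr rfl ?_
      intro j hj
      rw [Finset.mem_range] at hj
      rw [← hm j hj.le, ← hm (j+1) hj]
      exact congrArg _ (E_take f ht (hlt _ hj))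
    have hgd : (∀ k ∈ Ms, ¬ k ∣ Q.length) ↔ (∀ k ∈ Ms, ¬ k ∣ Q'.length) := by
      refine forall₂_congr fun k hk => not_congr ?_
      exact Nat.ModEq.dvd_iff hM (hMs k hk)
    unfold nu
    rw [UU_congr act e F M nmL nmR hM, hval, hww]
    by_cases hg : ∀ k ∈ Ms, ¬ k ∣ Q.length
    · rw [if_pos hg, if_pos (hgd.1 hg)]
    · rw [if_neg hg, if_neg (fun h => hg (hgd.2 h))]

end Main

/-- G1 (852 #13483, literal of lead #13673). -/
theorem g1 (S V : Type) [Monoid S] [Finite S] [AddCommGroup V] [Finite V] (act : V → S → V) :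
    ∃ m r : ℕ, ∀ Bd : ℕ, ∃ (Ms : Finset ℕ) (M : ℕ), Ms.card ≤ r ∧
      (∀ k ∈ Ms, Bd < k ∧ k.Prime ∧ k ∣ M) ∧ 0 < M ∧
      ∀ b : ℕ, 4 * M + 4 < b → Nat.Coprime b M → ∀ (A : Type) (f : A → S),
      ∃ (lam rho : List A → Option V) (nu : List A → V),
        (∀ P v, lam P = some v → P.length < b ^ m) ∧
        (∀ P Q v v', lam P = some v → rho Q = some v' →
          v' = act v ((P ++ Q).map f).prod + nu (P ++ Q)) ∧
        (∀ X, (∀ k ∈ Ms, ¬ k ∣ X.length) →
          (∀ j < m, M ≤ X.length / b ^ j % b ∧ X.length / b ^ j % b + M + 1 ≤ b) →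
          ∀ v, ∃ P Q, P ++ Q = X ∧ lam P = some v ∧ (rho Q).isSome) ∧
        (∀ Q Q', b ^ m ≤ Q.length → b ^ m ≤ Q'.length → Q.take (b ^ m) = Q'.take (b ^ m) →
          Q.length % (M * b ^ m) = Q'.length % (M * b ^ m) →
          ((Q.drop (b ^ m)).map f).prod = ((Q'.drop (b ^ m)).map f).prod →
          rho Q = rho Q' ∧ nu Q = nu Q') := by
  classical
  have := Fintype.ofFinite S
  have := Fintype.ofFinite V
  obtain ⟨m, N, e, F, hN, hF⟩ := Crest.Agent.R320.RandF808.exists_noise S V act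
  have : NeZero N := ⟨hN.ne'⟩
  obtain ⟨r, hr⟩ := Crest.Agent.R320.Names755.names (Ctx m S (ZMod N × ZMod N) V) (V × V)
    (fun c => (c.v, bb act e F c))
  refine ⟨m, r, fun Bd => ?_⟩
  obtain ⟨Ms, M, nmL, nmR, q1, q2, q3, q4, q5, q6, q7, q8⟩ := hr Bd
  have hMs : ∀ k ∈ Ms, k ∣ M := fun k hk => (q2 k hk).2.2
  refine ⟨Ms, M, q1, q2, q3, ?_⟩
  intro b hb hco A f
  refine ⟨lam act e F f b nmL, rho act e F f b nmR, nu act e F f b M Ms nmL nmR, ?_, ?_, ?_, ?_⟩
  · intro P v hP
    obtain ⟨c, hc, _⟩ := pick_some hP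
    exact lt_of_lt_of_le hc.len (Nat.pow_le_pow_right (by omega) c.i.2)
  · intro P Q v v' hP hQ
    exact sound act e F f b M Ms nmL nmR hMs q5 q6 q8 hP hQ
  · intro X hX hd v
    exact complete act e F f b M Ms nmL nmR q3 (by omega) hco q4 hF q7 X hX hd v
  · intro Q Q' h1 h2 h3 h4 h5
    exact fin_state act e F f b M Ms nmL nmR (by omega) hMs q5 h1 h2 h3 h4 h5

end Crest.Agent.R320.G1_24
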