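import Crest.Agent.R320.Names_755
import Crest.Agent.R320.Noise_513

set_option autoImplicit false

/-!
Row 320: the gadget `g1` (lead #13673, 852 #13483): levels = positional digits of the length `T`
in base `b`, names = CRT (755), noise = 513.
-/

namespace Crest.Agent.R320.G1_264

open Finset

section words

variable {A S : Type*} [Monoid S]

def ph (f : A → S) (w : List A) : S := (w.map f).prod

theorem ph_append (f : A → S) (u v : List A) : ph f (u ++ v) = ph f u * ph f v := by simp [ph]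

def sg (f : A → S) (X : List A) (a c : ℕ) : S := ph f ((X.take c).drop a)

theorem sg_left (f : A → S) (P Q : List A) {a c : ℕ} (h : c ≤ P.length) :
    sg f (P ++ Q) a c = sg f P a c := by
  unfold sg; rw [List.take_append_of_le_length h]

theorem sg_right (f : A → S) (P Q : List A) (a c : ℕ) :
    sg f (P ++ Q) (P.length + a) (P.length + c) = sg f Q a c := by
  unfold sg
  rw [List.take_append, List.drop_append]
  simp [List.take_of_length_le, List.drop_eq_nil_of_le]

theorem ph_split (f : A → S) (X : List A) {a c : ℕ} (h : a ≤ c) :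
    ph f X = ph f (X.take a) * sg f X a c * ph f (X.drop c) := by
  unfold sg
  rw [← ph_append, ← ph_append]
  congr 1
  have h1 : X.take a = (X.take c).take a := by rw [List.take_take, min_eq_left h]
  rw [h1, List.take_append_drop, List.take_append_drop]

end words

theorem mod_low {b i j o o' : ℕ} (hj : j ≤ i) (hd : b ^ i ∣ o') :
    (o + o') % b ^ j = o % b ^ j := by
  obtain ⟨q, hq⟩ := (pow_dvd_pow b hj).trans hd
  rw [hq, Nat.add_mul_mod_self_left]

theorem mod_high {b i j o o' : ℕ} (hb : 0 < b) (hj : i < j) (ho : 2 * (o / b ^ i) < b)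
    (hd : b ^ i ∣ o') (hd2 : 2 * ((o' / b ^ i) % b) < b) :
    (o + o') % b ^ j = o + o' % b ^ j := by
  have hB1 : 0 < b ^ i := pow_pos hb i
  have h1 : o' % b ^ (i + 1) = b ^ i * ((o' / b ^ i) % b) := by
    rw [pow_succ, Nat.mod_mul, Nat.mod_eq_zero_of_dvd hd, zero_add]
  have h2 : o < b ^ i * (o / b ^ i + 1) := Nat.lt_mul_div_succ o hB1
  have h3 : o + o' % b ^ (i + 1) < b ^ (i + 1) := by
    rw [h1]
    have h4 : o / b ^ i + 1 + (o' / b ^ i) % b ≤ b := by omega
    calc o + b ^ i * ((o' / b ^ i) % b)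
        < b ^ i * (o / b ^ i + 1) + b ^ i * ((o' / b ^ i) % b) := Nat.add_lt_add_right h2 _
      _ = b ^ i * (o / b ^ i + 1 + (o' / b ^ i) % b) := by ring
      _ ≤ b ^ i * b := Nat.mul_le_mul_left _ h4
      _ = b ^ (i + 1) := (pow_succ b i).symm
  have h5 : o + o' % b ^ j < b ^ j := by
    obtain ⟨q, hq⟩ : b ^ (i + 1) ∣ b ^ j := pow_dvd_pow b hj
    have hDpos : 0 < b ^ (i + 1) := pow_pos hb _
    have h6 : (o' % b ^ j) % b ^ (i + 1) = o' % b ^ (i + 1) := Nat.mod_mod_of_dvd _ ⟨q, hq⟩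
    have h7 : o' % b ^ j < b ^ j := Nat.mod_lt _ (pow_pos hb j)
    have h8 := Nat.div_add_mod (o' % b ^ j) (b ^ (i + 1))
    have h9 : (o' % b ^ j) / b ^ (i + 1) < q := by
      rw [Nat.div_lt_iff_lt_mul hDpos, mul_comm, ← hq]; exact h7
    have h10 : b ^ (i + 1) * ((o' % b ^ j) / b ^ (i + 1)) + b ^ (i + 1) ≤ b ^ (i + 1) * q := by
      rw [← Nat.mul_succ]; exact Nat.mul_le_mul_left _ h9
    rw [h6] at h8
    rw [← hq] at h10
    omega
  rw [← Nat.add_mod_mod, Nat.mod_eq_of_lt h5]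

section gad

variable {A S W V : Type} [Monoid S] [AddCommGroup V] [AddCommGroup W]
variable (f : A → S) (e : ℕ → S → W) (b m : ℕ)

/-- weight of block `j` -/
def D (j : ℕ) (U : List A) : W := e j (sg f U (U.length % b ^ j) (U.length % b ^ (j + 1)))

/-- junction geometry -/
structure Jn (i : ℕ) (P Q : List A) : Prop where
  hb : 0 < b
  ho : 2 * (P.length / b ^ i) < b
  hd : b ^ i ∣ Q.length
  hd2 : 2 * ((Q.length / b ^ i) % b) < b

variable {f e b m}

theorem Jn.low {i j : ℕ} {P Q : List A} (h : Jn b i P Q) (hj : j ≤ i) :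
    (P ++ Q).length % b ^ j = P.length % b ^ j := by
  rw [List.length_append]; exact mod_low hj h.hd

theorem Jn.high {i j : ℕ} {P Q : List A} (h : Jn b i P Q) (hj : i < j) :
    (P ++ Q).length % b ^ j = P.length + Q.length % b ^ j := by
  rw [List.length_append]; exact mod_high h.hb hj h.ho h.hd h.hd2

theorem Jn.D_low {i j : ℕ} {P Q : List A} (h : Jn b i P Q) (hj : j < i) :
    D f e b j (P ++ Q) = D f e b j P := by
  unfold D
  rw [h.low hj.le, h.low (by omega : j + 1 ≤ i), sg_left _ _ _ (Nat.mod_le _ _)]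

theorem Jn.D_high {i j : ℕ} {P Q : List A} (h : Jn b i P Q) (hj : i < j) :
    D f e b j (P ++ Q) = D f e b j Q := by
  unfold D
  rw [h.high hj, h.high (by omega : i < j + 1), sg_right]

theorem Jn.D_mid {i : ℕ} {P Q : List A} (h : Jn b i P Q) :
    D f e b i (P ++ Q) =
      e i (sg f (P ++ Q) (P.length % b ^ i) (P.length + Q.length % b ^ (i + 1))) := by
  unfold D
  rw [h.low le_rfl, h.high (by omega : i < i + 1)]

theorem Jn.prod {i : ℕ} {P Q : List A} (h : Jn b i P Q) :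
    ph f (P ++ Q) = ph f (P.take (P.length % b ^ i)) *
      sg f (P ++ Q) (P.length % b ^ i) (P.length + Q.length % b ^ (i + 1)) *
      ph f (Q.drop (Q.length % b ^ (i + 1))) := by
  have h1 : P.length % b ^ i ≤ P.length + Q.length % b ^ (i + 1) :=
    (Nat.mod_le _ _).trans (Nat.le_add_right _ _)
  rw [ph_split f (P ++ Q) h1, List.take_append_of_le_length (Nat.mod_le _ _)]
  congr 1
  rw [List.drop_append]
  simp [List.drop_eq_nil_of_le]

theorem Jn.sum {i : ℕ} (hi : i < m) {P Q : List A} (h : Jn b i P Q) :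
    ∑ j ∈ range m, D f e b j (P ++ Q) = ∑ j ∈ range i, D f e b j P +
      e i (sg f (P ++ Q) (P.length % b ^ i) (P.length + Q.length % b ^ (i + 1))) +
      ∑ j ∈ Ico (i + 1) m, D f e b j Q := by
  rw [← Finset.sum_range_add_sum_Ico _ (by omega : i + 1 ≤ m), Finset.sum_range_succ, h.D_mid]
  congr 1
  · congr 1
    exact Finset.sum_congr rfl fun j hj => h.D_low (Finset.mem_range.1 hj)
  · exact Finset.sum_congr rfl fun j hj => h.D_high (by have := (Finset.mem_Ico.1 hj).1; omega)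

end gad

section main

/-- parameters of the gadget -/
structure Par (S W V : Type) [Monoid S] [AddCommGroup V] [AddCommGroup W] where
  m : ℕ
  act : V → S → V
  F : S → W → V
  e : ℕ → S → W
  nmL : ℕ → Option (Fin m × S × W × S × W × V)
  nmR : ℕ → Option (Fin m × S × W × S × W × V)
  Ms : Finset ℕ
  M : ℕ
  b : ℕ

variable {A S W V : Type} [Monoid S] [AddCommGroup V] [AddCommGroup W]

namespace Par

variable (p : Par S W V)

def val (c : Fin p.m × S × W × S × W × V) (z : S) : V :=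
  p.F (c.2.1 * z * c.2.2.2.1) (c.2.2.1 + p.e c.1 z + c.2.2.2.2.1) +
    p.act c.2.2.2.2.2 (c.2.1 * z * c.2.2.2.1)

def bval (c : Fin p.m × S × W × S × W × V) : V := p.val c 1

def Good (c : Fin p.m × S × W × S × W × V) : Prop := ∀ z, p.val c z = p.bval c

def LC (f : A → S) (c : Fin p.m × S × W × S × W × V) (P : List A) : Prop :=
  p.Good c ∧ P.length < p.b ^ ((c.1 : ℕ) + 1) ∧ 2 * (P.length / p.b ^ (c.1 : ℕ)) < p.b ∧
    ph f (P.take (P.length % p.b ^ (c.1 : ℕ))) = c.2.1 ∧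
    ∑ j ∈ range c.1, D f p.e p.b j P = c.2.2.1

def RC (f : A → S) (c : Fin p.m × S × W × S × W × V) (Q : List A) : Prop :=
  p.Good c ∧ p.b ^ (c.1 : ℕ) ∣ Q.length ∧ 2 * ((Q.length / p.b ^ (c.1 : ℕ)) % p.b) < p.b ∧
    ph f (Q.drop (Q.length % p.b ^ ((c.1 : ℕ) + 1))) = c.2.2.2.1 ∧
    ∑ j ∈ Ico ((c.1 : ℕ) + 1) p.m, D f p.e p.b j Q = c.2.2.2.2.1

open Classical in
noncomputable def lam (f : A → S) (P : List A) : Option V :=
  (p.nmL P.length).bind fun c => if p.LC f c P then some c.2.2.2.2.2 else none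

open Classical in
noncomputable def rho (f : A → S) (Q : List A) : Option V :=
  (p.nmR Q.length).bind fun c => if p.RC f c Q then some (p.bval c) else none

def PairM (r : ℕ) (q : (Fin p.m × S × W × S × W × V) × (Fin p.m × S × W × S × W × V)) : Prop :=
  ∃ t t', p.nmL t = some q.1 ∧ p.nmR t' = some q.2 ∧ (t + t') % p.M = r

open Classical in
noncomputable def nuV (r : ℕ) (s : S) (w : W) : V :=
  if ∃ k ∈ p.Ms, k ∣ r then
    (if h : ∃ q, p.PairM r q then p.bval h.choose.2 - p.act h.choose.1.2.2.2.2.2 s else 0)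
  else p.F s w

noncomputable def nu (f : A → S) (X : List A) : V :=
  p.nuV (X.length % p.M) (ph f X) (∑ j ∈ range p.m, D f p.e p.b j X)

structure Ok : Prop where
  hM : 0 < p.M
  hb : 4 * p.M + 4 < p.b
  hcop : Nat.Coprime p.b p.M
  hk : ∀ k ∈ p.Ms, k ∣ p.M
  pL : ∀ t, p.nmL (t + p.M) = p.nmL t
  pR : ∀ t, p.nmR (t + p.M) = p.nmR t
  good : ∀ t t' c c', p.nmL t = some c → p.nmR t' = some c' → (∀ k ∈ p.Ms, ¬ k ∣ t + t') → c = c'
  avail : ∀ T, (∀ k ∈ p.Ms, ¬ k ∣ T) → ∀ c, ∃ t < p.M, p.nmL t = some c ∧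
    ∀ t', t + t' ≡ T [MOD p.M] → p.nmR t' = some c
  bad : ∀ t₁ t₁' t₂ t₂' c₁ c₁' c₂ c₂', p.nmL t₁ = some c₁ → p.nmR t₁' = some c₁' →
    p.nmL t₂ = some c₂ → p.nmR t₂' = some c₂' → t₁ + t₁' = t₂ + t₂' →
    (∃ k ∈ p.Ms, k ∣ t₁ + t₁') →
    c₁.2.2.2.2.2 = c₂.2.2.2.2.2 ∧ p.bval c₁' = p.bval c₂'
  hF : ∀ (s : S) (w : W) (v : V), ∃ i : Fin p.m, ∀ g x h : S, g * x * h = s →
    ∀ z : S, p.F (g * z * h) (w - p.e i x + p.e i z) + p.act v (g * z * h) =
      p.F s w + p.act v s

variable {p}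

theorem per {β : Type} {g : ℕ → β} {M : ℕ} (h : ∀ t, g (t + M) = g t) (t k : ℕ) :
    g (t + M * k) = g t := by
  induction k with
  | zero => simp
  | succ k ih => rw [Nat.mul_succ, ← add_assoc, h, ih]

theorem per_congr {β : Type} {g : ℕ → β} {M : ℕ} (h : ∀ t, g (t + M) = g t) {a c : ℕ}
    (hac : a % M = c % M) : g a = g c := by
  have h1 := per h (a % M) (a / M)
  have h2 := per h (c % M) (c / M)
  rw [Nat.mod_add_div] at h1 h2
  rw [h1, h2, hac]

theorem Ok.pair_unique (h : p.Ok) {r : ℕ}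
    {q q' : (Fin p.m × S × W × S × W × V) × (Fin p.m × S × W × S × W × V)}
    (h1 : p.PairM r q) (h2 : p.PairM r q') (hk : ∃ k ∈ p.Ms, k ∣ r) :
    q.1.2.2.2.2.2 = q'.1.2.2.2.2.2 ∧ p.bval q.2 = p.bval q'.2 := by
  obtain ⟨t1, t1', a1, a2, a3⟩ := h1
  obtain ⟨t2, t2', b1, b2, b3⟩ := h2
  have e1 := Nat.mod_add_div (t1 + t1') p.M
  have e2 := Nat.mod_add_div (t2 + t2') p.M
  rw [a3] at e1
  rw [b3] at e2
  have c2 : p.nmR (t1' + p.M * ((t2 + t2') / p.M)) = some q.2 := by rw [per h.pR, a2]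
  have d2 : p.nmR (t2' + p.M * ((t1 + t1') / p.M)) = some q'.2 := by rw [per h.pR, b2]
  refine h.bad t1 _ t2 _ _ _ _ _ a1 c2 b1 d2 (by omega) ?_
  obtain ⟨k, hk1, hk2⟩ := hk
  refine ⟨k, hk1, ?_⟩
  have e3 : t1 + (t1' + p.M * ((t2 + t2') / p.M)) =
      r + p.M * ((t1 + t1') / p.M) + p.M * ((t2 + t2') / p.M) := by omega
  rw [e3]
  have hkM := h.hk k hk1
  exact Dvd.dvd.add (Dvd.dvd.add hk2 (hkM.mul_right _)) (hkM.mul_right _)

theorem Ok.sound (h : p.Ok) (f : A → S) {P Q : List A} {v v' : V} (hl : p.lam f P = some v)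
    (hr : p.rho f Q = some v') : v' = p.act v (ph f (P ++ Q)) + p.nu f (P ++ Q) := by
  classical
  unfold lam at hl
  unfold rho at hr
  obtain ⟨c, hc1, hc2⟩ := Option.bind_eq_some_iff.1 hl
  obtain ⟨c', hc1', hc2'⟩ := Option.bind_eq_some_iff.1 hr
  split_ifs at hc2 with hL
  split_ifs at hc2' with hR
  have hv : c.2.2.2.2.2 = v := Option.some.inj hc2
  have hv' : p.bval c' = v' := Option.some.inj hc2'
  subst hv
  subst hv'
  unfold nu nuV
  by_cases hk : ∃ k ∈ p.Ms, k ∣ (P ++ Q).length % p.M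
  · rw [if_pos hk]
    have hp : p.PairM ((P ++ Q).length % p.M) (c, c') :=
      ⟨P.length, Q.length, hc1, hc1', by rw [List.length_append]⟩
    have hex : ∃ q, p.PairM ((P ++ Q).length % p.M) q := ⟨_, hp⟩
    rw [dif_pos hex]
    obtain ⟨e1, e2⟩ := h.pair_unique hp hex.choose_spec hk
    simp only at e1 e2
    rw [← e1, ← e2]
    abel
  · rw [if_neg hk]
    have hcc : c = c' := by
      refine h.good _ _ _ _ hc1 hc1' fun k hk1 hk2 => hk ⟨k, hk1, ?_⟩
      rw [List.length_append]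
      exact (Nat.dvd_mod_iff (h.hk k hk1)).2 hk2
    subst hcc
    have hJ : Jn p.b c.1 P Q := ⟨by have := h.hb; omega, hL.2.2.1, hR.2.1, hR.2.2.1⟩
    rw [hJ.sum c.1.2, hJ.prod, hL.2.2.2.1, hL.2.2.2.2, hR.2.2.2.1, hR.2.2.2.2]
    rw [← hL.1 (sg f (P ++ Q) (P.length % p.b ^ (c.1 : ℕ))
      (P.length + Q.length % p.b ^ ((c.1 : ℕ) + 1)))]
    unfold val
    rw [add_comm]

theorem exists_place {B M : ℕ} (hB : 0 < B) (hM : 0 < M) (hc : Nat.Coprime B M) (be t y0 : ℕ)
    (hbe : be < B) : ∃ o, o % B = be ∧ o % M = t % M ∧ y0 ≤ o / B ∧ o / B < y0 + M := by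
  obtain ⟨k, hk1, hk2⟩ := Nat.chineseRemainder hc be t
  set L := be + B * y0 with hL
  have hBM : 0 < B * M := Nat.mul_pos hB hM
  have hge : L ≤ k + B * M * L := by
    have : 1 * L ≤ B * M * L := Nat.mul_le_mul_right _ hBM
    omega
  set r := (k + B * M * L - L) % (B * M) with hr
  have hrlt : r < B * M := Nat.mod_lt _ hBM
  have hmod : ∃ q, L + r + B * M * q = k + B * M * L := by
    refine ⟨(k + B * M * L - L) / (B * M), ?_⟩
    have := Nat.mod_add_div (k + B * M * L - L) (B * M)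
    omega
  obtain ⟨q, hq⟩ := hmod
  have m1 : (L + r) % B = be := by
    have h1 : (L + r + B * M * q) % B = (L + r) % B := by
      rw [mul_assoc, Nat.add_mul_mod_self_left]
    have h2 : (k + B * M * L) % B = k % B := by
      rw [mul_assoc, Nat.add_mul_mod_self_left]
    rw [← h1, hq, h2, hk1, Nat.mod_eq_of_lt hbe]
  have m2 : (L + r) % M = t % M := by
    have h1 : (L + r + B * M * q) % M = (L + r) % M := by
      rw [mul_comm B M, mul_assoc, Nat.add_mul_mod_self_left]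
    have h2 : (k + B * M * L) % M = k % M := by
      rw [mul_comm B M, mul_assoc, Nat.add_mul_mod_self_left]
    rw [← h1, hq, h2]; exact hk2
  refine ⟨L + r, m1, m2, ?_, ?_⟩
  · rw [Nat.le_div_iff_mul_le hB, mul_comm]; omega
  · have h3 := Nat.mod_add_div (L + r) B
    rw [m1] at h3
    have h4 : B * ((L + r) / B) < B * (y0 + M) := by
      rw [Nat.mul_add]; omega
    exact Nat.lt_of_mul_lt_mul_left h4

theorem Ok.complete (h : p.Ok) (f : A → S) (X : List A) (hk : ∀ k ∈ p.Ms, ¬ k ∣ X.length)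
    (hdig : ∀ j < p.m, p.M ≤ X.length / p.b ^ j % p.b ∧
      X.length / p.b ^ j % p.b + p.M + 1 ≤ p.b) (v : V) :
    ∃ P Q, P ++ Q = X ∧ p.lam f P = some v ∧ (p.rho f Q).isSome := by
  classical
  set n := X.length with hn
  obtain ⟨i, hi⟩ := h.hF (ph f X) (∑ j ∈ range p.m, D f p.e p.b j X) v
  have hb0 : 0 < p.b := by have := h.hb; omega
  have hM := h.hM
  have hbb := h.hb
  set B := p.b ^ (i : ℕ) with hBdef
  have hB : 0 < B := pow_pos hb0 _
  have hB1 : p.b ^ ((i : ℕ) + 1) = B * p.b := pow_succ _ _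
  obtain ⟨hd1, hd2⟩ := hdig i i.2
  rw [← hBdef] at hd1 hd2
  set d := n / B % p.b with hd
  set be := n % B with hbe
  have hbelt : be < B := Nat.mod_lt _ hB
  set c : Fin p.m × S × W × S × W × V :=
    (i, ph f (X.take be), ∑ j ∈ range i, D f p.e p.b j X,
      ph f (X.drop (n % p.b ^ ((i : ℕ) + 1))), ∑ j ∈ Ico ((i : ℕ) + 1) p.m, D f p.e p.b j X, v)
    with hc
  obtain ⟨t, htM, ht1, ht2⟩ := h.avail n hk c
  obtain ⟨o, ho1, ho2, ho3, ho4⟩ := exists_place hB hM (h.hcop.pow_left _) be t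
    (d - (p.b - 1) / 2) hbelt
  have hdiv := Nat.mod_add_div o B
  rw [ho1] at hdiv
  have hndiv := Nat.mod_add_div n B
  rw [← hbe] at hndiv
  set y := o / B with hy
  have hy1 : 2 * y < p.b := by omega
  have hy2 : y ≤ d := by omega
  have hy3 : 2 * (d - y) < p.b := by omega
  have hdn : d ≤ n / B := Nat.mod_le _ _
  have hon : o ≤ n := by
    have : B * y ≤ B * (n / B) := Nat.mul_le_mul_left _ (hy2.trans hdn)
    omega
  have hQl : n - o = B * (n / B - y) := by
    rw [Nat.mul_sub]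
    have : B * y ≤ B * (n / B) := Nat.mul_le_mul_left _ (hy2.trans hdn)
    omega
  have hQdiv : (n - o) / B = n / B - y := by rw [hQl, Nat.mul_div_cancel_left _ hB]
  have hQd : ((n - o) / B) % p.b = d - y := by
    rw [hQdiv]
    have e1 : n / B - y = (d - y) + p.b * (n / B / p.b) := by
      have := Nat.mod_add_div (n / B) p.b
      rw [← hd] at this
      omega
    rw [e1, Nat.add_mul_mod_self_left, Nat.mod_eq_of_lt]
    omega
  have hPl : (X.take o).length = o := by rw [List.length_take]; omega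
  have hQl' : (X.drop o).length = n - o := by rw [List.length_drop]
  have hPQ : X.take o ++ X.drop o = X := List.take_append_drop _ _
  have hJ : Jn p.b i (X.take o) (X.drop o) := by
    refine ⟨hb0, ?_, ?_, ?_⟩
    · rw [hPl, ← hBdef, ← hy]; exact hy1
    · rw [hQl', ← hBdef, hQl]; exact Dvd.intro _ rfl
    · rw [hQl', ← hBdef, hQd]; exact hy3
  have hlow : n % p.b ^ (i : ℕ) = (X.take o).length % p.b ^ (i : ℕ) := by
    have := hJ.low (le_refl (i : ℕ)); rwa [hPQ] at this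
  have hhigh : n % p.b ^ ((i : ℕ) + 1) =
      (X.take o).length + (X.drop o).length % p.b ^ ((i : ℕ) + 1) := by
    have := hJ.high (Nat.lt_succ_self (i : ℕ)); rwa [hPQ] at this
  have hprod := ph_split f X (a := be) (c := n % p.b ^ ((i : ℕ) + 1)) (by
    rw [hbe, hBdef, hlow, hhigh]
    exact (Nat.mod_le _ _).trans (Nat.le_add_right _ _))
  have hsum : ∑ j ∈ range p.m, D f p.e p.b j X = ∑ j ∈ range i, D f p.e p.b j X +
      p.e i (sg f X be (n % p.b ^ ((i : ℕ) + 1))) +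
      ∑ j ∈ Ico ((i : ℕ) + 1) p.m, D f p.e p.b j X := by
    rw [← Finset.sum_range_add_sum_Ico _ (by have := i.2; omega : (i : ℕ) + 1 ≤ p.m),
      Finset.sum_range_succ]
    rfl
  have hval : ∀ z, p.val c z = p.F (ph f X) (∑ j ∈ range p.m, D f p.e p.b j X) +
      p.act v (ph f X) := by
    intro z
    rw [← hi _ _ _ hprod.symm z]
    unfold val
    rw [hc]
    simp only
    congr 2
    rw [hsum]
    abel
  have hgood : p.Good c := fun z => by unfold bval; rw [hval, hval]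
  have hnL : p.nmL o = some c := by rw [per_congr h.pL ho2, ht1]
  have hnR : p.nmR (n - o) = some c := by
    apply ht2
    have : t + (n - o) ≡ o + (n - o) [MOD p.M] := Nat.ModEq.add_right _ ho2.symm
    have e1 : o + (n - o) = n := by omega
    rwa [e1] at this
  refine ⟨X.take o, X.drop o, hPQ, ?_, ?_⟩
  · have hL : p.LC f c (X.take o) := by
      refine ⟨hgood, ?_, ?_, ?_, ?_⟩
      · rw [hPl]
        show o < p.b ^ ((i : ℕ) + 1)
        rw [hB1]
        have : B * (y + 1) ≤ B * p.b := Nat.mul_le_mul_left _ (by omega)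
        rw [Nat.mul_succ] at this
        omega
      · exact hJ.ho
      · show ph f ((X.take o).take ((X.take o).length % p.b ^ (i : ℕ))) = ph f (X.take be)
        rw [← hlow, List.take_take, min_eq_left]
        have := hdiv
        rw [← hBdef, ← hbe]
        omega
      · show ∑ j ∈ range i, D f p.e p.b j (X.take o) = ∑ j ∈ range i, D f p.e p.b j X
        refine Finset.sum_congr rfl fun j hj => ?_
        have := hJ.D_low (f := f) (e := p.e) (Finset.mem_range.1 hj)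
        rw [hPQ] at this
        exact this.symm
    unfold lam
    rw [hPl, hnL]
    simp only [Option.bind_some]
    rw [if_pos hL]
  · have hR : p.RC f c (X.drop o) := by
      refine ⟨hgood, hJ.hd, hJ.hd2, ?_, ?_⟩
      · show ph f ((X.drop o).drop ((X.drop o).length % p.b ^ ((i : ℕ) + 1))) =
          ph f (X.drop (n % p.b ^ ((i : ℕ) + 1)))
        rw [hhigh, hPl, List.drop_drop]
      · show ∑ j ∈ Ico ((i : ℕ) + 1) p.m, D f p.e p.b j (X.drop o) =
          ∑ j ∈ Ico ((i : ℕ) + 1) p.m, D f p.e p.b j X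
        refine Finset.sum_congr rfl fun j hj => ?_
        have := hJ.D_high (f := f) (e := p.e) (j := j) (by
          have := (Finset.mem_Ico.1 hj).1; omega)
        rw [hPQ] at this
        exact this.symm
    unfold rho
    rw [hQl', hnR]
    simp only [Option.bind_some]
    rw [if_pos hR]
    rfl

/-- finite-state clause -/
theorem D_congr (f : A → S) (e : ℕ → S → W) {b m j : ℕ} (hb : 0 < b) (hj : j < m) {Q Q' : List A}
    (h1 : Q.take (b ^ m) = Q'.take (b ^ m)) (h2 : Q.length % b ^ m = Q'.length % b ^ m) :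
    D f e b j Q = D f e b j Q' := by
  have k1 : ∀ i ≤ m, Q.length % b ^ i = Q'.length % b ^ i := by
    intro i hi
    have hd : b ^ i ∣ b ^ m := pow_dvd_pow b hi
    rw [← Nat.mod_mod_of_dvd Q.length hd, ← Nat.mod_mod_of_dvd Q'.length hd, h2]
  unfold D sg
  rw [k1 j (by omega), k1 (j + 1) (by omega)]
  have hlt : Q'.length % b ^ (j + 1) ≤ b ^ m :=
    (Nat.mod_lt _ (pow_pos hb _)).le.trans (Nat.pow_le_pow_right hb (by omega))
  have e1 : ∀ U : List A, U.take (Q'.length % b ^ (j + 1)) =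
      (U.take (b ^ m)).take (Q'.length % b ^ (j + 1)) := by
    intro U; rw [List.take_take, min_eq_left hlt]
  rw [e1 Q, e1 Q', h1]

theorem drop_congr (f : A → S) {b m j : ℕ} (hb : 0 < b) (hj : j ≤ m) {Q Q' : List A}
    (h1 : Q.take (b ^ m) = Q'.take (b ^ m)) (h2 : Q.length % b ^ m = Q'.length % b ^ m)
    (h3 : ph f (Q.drop (b ^ m)) = ph f (Q'.drop (b ^ m))) :
    ph f (Q.drop (Q.length % b ^ j)) = ph f (Q'.drop (Q'.length % b ^ j)) := by
  have hd : b ^ j ∣ b ^ m := pow_dvd_pow b hj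
  have k1 : Q.length % b ^ j = Q'.length % b ^ j := by
    rw [← Nat.mod_mod_of_dvd Q.length hd, ← Nat.mod_mod_of_dvd Q'.length hd, h2]
  rw [k1]
  have hlt : Q'.length % b ^ j ≤ b ^ m :=
    (Nat.mod_lt _ (pow_pos hb _)).le.trans (Nat.pow_le_pow_right hb hj)
  have e1 : ∀ U : List A, U.drop (Q'.length % b ^ j) =
      (U.take (b ^ m)).drop (Q'.length % b ^ j) ++ U.drop (b ^ m) := by
    intro U
    conv_lhs => rw [← List.take_append_drop (b ^ m) U]
    rcases le_total (b ^ m) U.length with h | h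
    · rw [List.drop_append_of_le_length]
      rw [List.length_take]; omega
    · rw [List.drop_eq_nil_of_le h, List.append_nil, List.append_nil]
  rw [e1 Q, e1 Q', ph_append, ph_append, h1, h3]

theorem Ok.finite_state (h : p.Ok) (f : A → S) {Q Q' : List A}
    (h1 : Q.take (p.b ^ p.m) = Q'.take (p.b ^ p.m))
    (h2 : Q.length % (p.M * p.b ^ p.m) = Q'.length % (p.M * p.b ^ p.m))
    (h3 : ph f (Q.drop (p.b ^ p.m)) = ph f (Q'.drop (p.b ^ p.m))) :
    p.rho f Q = p.rho f Q' ∧ p.nu f Q = p.nu f Q' := by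
  classical
  have hb0 : 0 < p.b := by have := h.hb; omega
  have e1 : Q.length % p.M = Q'.length % p.M := by
    rw [← Nat.mod_mod_of_dvd Q.length (Dvd.intro _ rfl : p.M ∣ p.M * p.b ^ p.m),
      ← Nat.mod_mod_of_dvd Q'.length (Dvd.intro _ rfl : p.M ∣ p.M * p.b ^ p.m), h2]
  have e2 : Q.length % p.b ^ p.m = Q'.length % p.b ^ p.m := by
    rw [← Nat.mod_mod_of_dvd Q.length (Dvd.intro_left _ rfl : p.b ^ p.m ∣ p.M * p.b ^ p.m),
      ← Nat.mod_mod_of_dvd Q'.length (Dvd.intro_left _ rfl : p.b ^ p.m ∣ p.M * p.b ^ p.m), h2]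
  have hD : ∀ j < p.m, D f p.e p.b j Q = D f p.e p.b j Q' := fun j hj =>
    D_congr f p.e hb0 hj h1 e2
  have hph : ph f Q = ph f Q' := by
    have a1 : ∀ U : List A, ph f U = ph f (U.take (p.b ^ p.m)) * ph f (U.drop (p.b ^ p.m)) := by
      intro U; rw [← ph_append, List.take_append_drop]
    rw [a1 Q, a1 Q', h1, h3]
  constructor
  · unfold rho
    rw [per_congr h.pR e1]
    congr 1
    funext c
    have hmod : ∀ i ≤ p.m, Q.length % p.b ^ i = Q'.length % p.b ^ i := by
      intro i hi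
      have hd : p.b ^ i ∣ p.b ^ p.m := pow_dvd_pow _ hi
      rw [← Nat.mod_mod_of_dvd Q.length hd, ← Nat.mod_mod_of_dvd Q'.length hd, e2]
    have hiff : p.RC f c Q ↔ p.RC f c Q' := by
      unfold RC
      have a1 : p.b ^ (c.1 : ℕ) ∣ Q.length ↔ p.b ^ (c.1 : ℕ) ∣ Q'.length := by
        rw [Nat.dvd_iff_mod_eq_zero, Nat.dvd_iff_mod_eq_zero, hmod _ (by have := c.1.2; omega)]
      have a2 : (Q.length / p.b ^ (c.1 : ℕ)) % p.b = (Q'.length / p.b ^ (c.1 : ℕ)) % p.b := by
        have key : ∀ x : ℕ, (x / p.b ^ (c.1 : ℕ)) % p.b =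
            (x % p.b ^ ((c.1 : ℕ) + 1)) / p.b ^ (c.1 : ℕ) := by
          intro x
          rw [pow_succ, Nat.mod_mul_right_div_self]
        rw [key, key, hmod _ (by have := c.1.2; omega)]
      have a3 := drop_congr f hb0 (by have := c.1.2; omega : (c.1 : ℕ) + 1 ≤ p.m) h1 e2 h3
      have a4 : ∑ j ∈ Ico ((c.1 : ℕ) + 1) p.m, D f p.e p.b j Q =
          ∑ j ∈ Ico ((c.1 : ℕ) + 1) p.m, D f p.e p.b j Q' :=
        Finset.sum_congr rfl fun j hj => hD j (Finset.mem_Ico.1 hj).2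
      rw [a1, a2, a3, a4]
    by_cases hR : p.RC f c Q
    · rw [if_pos hR, if_pos (hiff.1 hR)]
    · rw [if_neg hR, if_neg (fun hh => hR (hiff.2 hh))]
  · unfold nu
    rw [e1, hph, Finset.sum_congr rfl fun j hj => hD j (Finset.mem_range.1 hj)]

end Par

end main

/-- **g1** (lead #13673). -/
theorem g1 (S V : Type) [Monoid S] [Finite S] [AddCommGroup V] [Finite V] (act : V → S → V) :
    ∃ m r : ℕ, ∀ Bd : ℕ, ∃ (Ms : Finset ℕ) (M : ℕ), Ms.card ≤ r ∧
      (∀ k ∈ Ms, Bd < k ∧ k.Prime ∧ k ∣ M) ∧ 0 < M ∧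
      ∀ b : ℕ, 4 * M + 4 < b → Nat.Coprime b M → ∀ (A : Type) (f : A → S),
        ∃ (lam rho : List A → Option V) (nu : List A → V),
          (∀ P v, lam P = some v → P.length < b ^ m) ∧
          (∀ P Q v v', lam P = some v → rho Q = some v' →
            v' = act v ((P ++ Q).map f).prod + nu (P ++ Q)) ∧
          (∀ X, (∀ k ∈ Ms, ¬ k ∣ X.length) →
            (∀ j < m, M ≤ X.length / b ^ j % b ∧ X.length / b ^ j % b + M + 1 ≤ b) →
            ∀ v, ∃ P Q, P ++ Q = X ∧ lam P = some v ∧ (rho Q).isSome) ∧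
          (∀ Q Q', b ^ m ≤ Q.length → b ^ m ≤ Q'.length → Q.take (b ^ m) = Q'.take (b ^ m) →
            Q.length % (M * b ^ m) = Q'.length % (M * b ^ m) →
            ((Q.drop (b ^ m)).map f).prod = ((Q'.drop (b ^ m)).map f).prod →
            rho Q = rho Q' ∧ nu Q = nu Q') := by
  classical
  obtain ⟨W, iW, fW, m, e, F, hF⟩ := Crest.Agent.R320.Noise513.explicit_noise S V act
  let e' : ℕ → S → W := fun i z => if h : i < m then e ⟨i, h⟩ z else 0
  have he' : ∀ (i : Fin m) (z : S), e' i z = e i z := by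
    intro i z
    show (if h : (i : ℕ) < m then e ⟨i, h⟩ z else 0) = e i z
    rw [dif_pos i.2]
  let val : (Fin m × S × W × S × W × V) → S → V := fun c z =>
    F (c.2.1 * z * c.2.2.2.1) (c.2.2.1 + e' c.1 z + c.2.2.2.2.1) +
      act c.2.2.2.2.2 (c.2.1 * z * c.2.2.2.1)
  obtain ⟨r, hr⟩ := Crest.Agent.R320.Names755.names (Fin m × S × W × S × W × V) (V × V)
    (fun c => (c.2.2.2.2.2, val c 1))
  refine ⟨m, r, fun Bd => ?_⟩
  obtain ⟨Ms, M, nmL, nmR, hcard, hMs, hM, pL, pR, hgood, havail, hbad⟩ := hr Bd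
  refine ⟨Ms, M, hcard, hMs, hM, fun b hb hcop A f => ?_⟩
  let p : Par S W V := ⟨m, act, F, e', nmL, nmR, Ms, M, b⟩
  have hp : p.Ok := by
    refine ⟨hM, hb, hcop, fun k hk => (hMs k hk).2.2, pL, pR, hgood, havail, ?_, ?_⟩
    · intro t₁ t₁' t₂ t₂' c₁ c₁' c₂ c₂' a1 a2 a3 a4 a5 a6
      obtain ⟨b1, b2⟩ := hbad t₁ t₁' t₂ t₂' c₁ c₁' c₂ c₂' a1 a2 a3 a4 a5 a6
      exact ⟨(Prod.ext_iff.1 b1).1, (Prod.ext_iff.1 b2).2⟩
    · intro s w v
      obtain ⟨i, hi⟩ := hF s w v
      refine ⟨i, fun g x h hs z => ?_⟩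
      show F (g * z * h) (w - e' i x + e' i z) + act v (g * z * h) = F s w + act v s
      rw [he', he']
      exact hi g x h hs z
  refine ⟨p.lam f, p.rho f, p.nu f, ?_, ?_, ?_, ?_⟩
  · intro P v hl
    unfold Par.lam at hl
    obtain ⟨c, hc1, hc2⟩ := Option.bind_eq_some_iff.1 hl
    split_ifs at hc2 with hL
    exact lt_of_lt_of_le hL.2.1 (Nat.pow_le_pow_right (by
      show 0 < b
      omega) (by have := c.1.2; exact this))
  · intro P Q v v' hl hr'
    exact hp.sound f hl hr'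
  · intro X hk hd v
    exact hp.complete f X hk hd v
  · intro Q Q' _ _ h1 h2 h3
    exact hp.finite_state f h1 h2 h3

end Crest.Agent.R320.G1_264
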