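import Crest.Agent.R320.Names_755
import Crest.Agent.R320.RandF_808

/-!
# Row 320, leaf g1 (852 #13483, lead #13673): the zone gadget for all words of all lengths
Levels = positional digits of the length in base `b`, names = CRT.  Independent copy (helper344).
-/

set_option autoImplicit false

namespace Crest.Agent.R320.G1_344

/-- factor `X[x, y)` -/
def bl {A : Type} (X : List A) (x y : ℕ) : List A := (X.take y).drop x

/-- value -/
def ph {A S : Type} [Monoid S] (f : A → S) (X : List A) : S := (X.map f).prod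

theorem ph_append {A S : Type} [Monoid S] (f : A → S) (X Y : List A) :
    ph f (X ++ Y) = ph f X * ph f Y := by simp [ph]

theorem bl_left {A : Type} {P Q : List A} {x y : ℕ} (h : y ≤ P.length) :
    bl (P ++ Q) x y = bl P x y := by
  unfold bl
  rw [List.take_append_of_le_length h]

theorem bl_right {A : Type} (P Q : List A) (x y : ℕ) :
    bl (P ++ Q) (P.length + x) (P.length + y) = bl Q x y := by
  unfold bl
  rw [List.take_length_add_append, List.drop_length_add_append]

theorem mod_left {b i j o o' : ℕ} (hj : j ≤ i) (h : b ^ i ∣ o') :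
    (o + o') % b ^ j = o % b ^ j := by
  obtain ⟨c, rfl⟩ := (pow_dvd_pow b hj).trans h
  exact Nat.add_mul_mod_self_left _ _ _

theorem mod_right {b i j o o' : ℕ} (hj : i + 1 ≤ j) (hL : 2 * o < b ^ (i + 1))
    (hR : 2 * (o' % b ^ (i + 1)) < b ^ (i + 1)) : (o + o') % b ^ j = o + o' % b ^ j := by
  obtain ⟨c, hc⟩ := pow_dvd_pow b hj
  have hB : 0 < b ^ (i + 1) := by omega
  have hbpos : 0 < b := by
    rcases Nat.eq_zero_or_pos b with h | h
    · subst h; simp at hB
    · exact h
  have hBj : 0 < b ^ j := pow_pos hbpos j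
  have h1 : (o' % b ^ j) % b ^ (i + 1) = o' % b ^ (i + 1) :=
    Nat.mod_mod_of_dvd _ ⟨c, hc⟩
  have h2 := Nat.div_add_mod (o' % b ^ j) (b ^ (i + 1))
  have h3 : o' % b ^ j < b ^ j := Nat.mod_lt _ hBj
  set ρ := o' % b ^ j with hρ
  have h4 : ρ / b ^ (i + 1) < c := by
    rw [Nat.div_lt_iff_lt_mul hB, mul_comm]
    rw [← hc]; exact h3
  have h5 : b ^ (i + 1) * (ρ / b ^ (i + 1)) + b ^ (i + 1) ≤ b ^ j := by
    rw [hc]
    calc b ^ (i + 1) * (ρ / b ^ (i + 1)) + b ^ (i + 1)
        = b ^ (i + 1) * (ρ / b ^ (i + 1) + 1) := by ring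
      _ ≤ b ^ (i + 1) * c := Nat.mul_le_mul_left _ h4
  have h6 : o + ρ < b ^ j := by omega
  calc (o + o') % b ^ j = (o + ρ) % b ^ j := by rw [hρ, Nat.add_mod_mod]
    _ = o + ρ := Nat.mod_eq_of_lt h6

theorem mod_le_mod {b i n : ℕ} : n % b ^ i ≤ n % b ^ (i + 1) := by
  have h : (n % b ^ (i + 1)) % b ^ i = n % b ^ i :=
    Nat.mod_mod_of_dvd _ (pow_dvd_pow b (Nat.le_succ i))
  rw [← h]
  exact Nat.mod_le _ _

theorem ph_split {A S : Type} [Monoid S] (f : A → S) (X : List A) {x y : ℕ} (h : x ≤ y) :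
    ph f X = ph f (X.take x) * ph f (bl X x y) * ph f (X.drop y) := by
  have h1 : X.take x ++ bl X x y = X.take y := by
    unfold bl
    have : X.take x = (X.take y).take x := by rw [List.take_take, min_eq_left h]
    rw [this]
    exact List.take_append_drop _ _
  rw [← ph_append, h1, ← ph_append, List.take_append_drop]

/-- solving `b^i q + β = t mod M` in an interval of length `M` -/
theorem exists_q {M B β t a : ℕ} (hM : 0 < M) (hc : Nat.Coprime B M) :
    ∃ q, a ≤ q ∧ q < a + M ∧ (B * q + β) ≡ t [MOD M] := by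
  have hM' : (0 : ℤ) < M := by exact_mod_cast hM
  have hb : (B : ℤ) * Nat.gcdA B M + M * Nat.gcdB B M = 1 := by
    have := Nat.gcd_eq_gcd_ab B M
    rw [hc] at this
    exact_mod_cast this.symm
  set q0 : ℤ := Nat.gcdA B M * ((t : ℤ) - β) with hq0
  set r : ℤ := (q0 - a) % M with hr
  have hr0 : 0 ≤ r := Int.emod_nonneg _ (ne_of_gt hM')
  have hr1 : r < M := Int.emod_lt_of_pos _ hM'
  refine ⟨a + r.toNat, Nat.le_add_right _ _, by omega, ?_⟩
  rw [Nat.modEq_iff_dvd]
  push_cast
  rw [Int.toNat_of_nonneg hr0]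
  have hd : (M : ℤ) ∣ (q0 - a) - r := Int.dvd_self_sub_of_emod_eq rfl
  have e : (t : ℤ) - ((B : ℤ) * (a + r) + β) =
      (M : ℤ) * (Nat.gcdB B M * ((t : ℤ) - β)) + B * ((q0 - a) - r) := by
    have h1 : (t : ℤ) - β = ((B : ℤ) * Nat.gcdA B M + M * Nat.gcdB B M) * ((t : ℤ) - β) := by
      rw [hb, one_mul]
    rw [hq0]
    linear_combination h1
  rw [e]
  exact dvd_add (Dvd.intro _ rfl) (Dvd.dvd.mul_left hd _)

theorem per {α : Type} {g : ℕ → α} {M : ℕ} (h : ∀ t, g (t + M) = g t) (t : ℕ) :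
    g t = g (t % M) := by
  have h1 : ∀ k s, g (s + M * k) = g s := by
    intro k
    induction k with
    | zero => intro s; rfl
    | succ k ih => intro s; rw [Nat.mul_succ, ← Nat.add_assoc, h, ih]
  conv_lhs => rw [← Nat.mod_add_div t M]
  exact h1 _ _

section main

variable {S V W : Type} [Monoid S] [AddCommGroup V] [AddCommGroup W]

/-- names: level, `g`, left weight, `h`, right weight, token -/
abbrev Nm (m : ℕ) (S V W : Type) : Type := Fin m × S × W × S × W × V

/-- right label of a name -/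
def bval {m : ℕ} (e : ℕ → S → W) (F : S → W → V) (act : V → S → V) (c : Nm m S V W) : V :=
  F (c.2.1 * 1 * c.2.2.2.1) (c.2.2.1 + e c.1 1 + c.2.2.2.2.1) +
    act c.2.2.2.2.2 (c.2.1 * 1 * c.2.2.2.1)

/-- good names -/
def good {m : ℕ} (e : ℕ → S → W) (F : S → W → V) (act : V → S → V) (c : Nm m S V W) : Prop :=
  ∀ z, F (c.2.1 * z * c.2.2.2.1) (c.2.2.1 + e c.1 z + c.2.2.2.2.1) +
    act c.2.2.2.2.2 (c.2.1 * z * c.2.2.2.1) = bval e F act c

variable {A : Type} (f : A → S) (e : ℕ → S → W) (F : S → W → V) (act : V → S → V) (b m : ℕ)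
  (nmL nmR : ℕ → Option (Nm m S V W))

def legL (P : List A) (c : Nm m S V W) : Prop :=
  nmL P.length = some c ∧ good e F act c ∧ 2 * P.length < b ^ ((c.1 : ℕ) + 1) ∧
    ph f (P.take (P.length % b ^ (c.1 : ℕ))) = c.2.1 ∧
    ∑ j ∈ Finset.range (c.1 : ℕ), e j (ph f (bl P (P.length % b ^ j) (P.length % b ^ (j + 1)))) =
      c.2.2.1

def legR (Q : List A) (c : Nm m S V W) : Prop :=
  nmR Q.length = some c ∧ good e F act c ∧ b ^ (c.1 : ℕ) ∣ Q.length ∧
    2 * (Q.length % b ^ ((c.1 : ℕ) + 1)) < b ^ ((c.1 : ℕ) + 1) ∧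
    ph f (Q.drop (Q.length % b ^ ((c.1 : ℕ) + 1))) = c.2.2.2.1 ∧
    ∑ j ∈ Finset.Ico ((c.1 : ℕ) + 1) m,
      e j (ph f (bl Q (Q.length % b ^ j) (Q.length % b ^ (j + 1)))) = c.2.2.2.2.1

/-- weight of a word -/
def wt (X : List A) : W :=
  ∑ j ∈ Finset.range m, e j (ph f (bl X (X.length % b ^ j) (X.length % b ^ (j + 1))))

variable {f e F act b m nmL nmR}

/-- the weight splits at level `i` -/
theorem wt_split (X : List A) {i : ℕ} (hi : i < m) :
    wt f e b m X =
      (∑ j ∈ Finset.range i, e j (ph f (bl X (X.length % b ^ j) (X.length % b ^ (j + 1))))) +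
      e i (ph f (bl X (X.length % b ^ i) (X.length % b ^ (i + 1)))) +
      ∑ j ∈ Finset.Ico (i + 1) m,
        e j (ph f (bl X (X.length % b ^ j) (X.length % b ^ (j + 1)))) := by
  unfold wt
  rw [Finset.range_eq_Ico, ← Finset.sum_Ico_consecutive _ (Nat.zero_le i) hi.le,
    Finset.sum_eq_sum_Ico_succ_bot hi, ← Finset.range_eq_Ico, add_assoc]

/-- left reading -/
theorem left_sum {P Q : List A} {i : ℕ} (hd : b ^ i ∣ Q.length) :
    ∑ j ∈ Finset.range i,
      e j (ph f (bl (P ++ Q) ((P ++ Q).length % b ^ j) ((P ++ Q).length % b ^ (j + 1)))) =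
    ∑ j ∈ Finset.range i, e j (ph f (bl P (P.length % b ^ j) (P.length % b ^ (j + 1)))) := by
  refine Finset.sum_congr rfl fun j hj => ?_
  rw [Finset.mem_range] at hj
  rw [List.length_append, mod_left hj.le hd, mod_left (show j + 1 ≤ i from hj) hd,
    bl_left (Nat.mod_le _ _)]

/-- right reading -/
theorem right_sum {P Q : List A} {i : ℕ} (hL : 2 * P.length < b ^ (i + 1))
    (hR : 2 * (Q.length % b ^ (i + 1)) < b ^ (i + 1)) :
    ∑ j ∈ Finset.Ico (i + 1) m,
      e j (ph f (bl (P ++ Q) ((P ++ Q).length % b ^ j) ((P ++ Q).length % b ^ (j + 1)))) =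
    ∑ j ∈ Finset.Ico (i + 1) m, e j (ph f (bl Q (Q.length % b ^ j) (Q.length % b ^ (j + 1)))) := by
  refine Finset.sum_congr rfl fun j hj => ?_
  rw [Finset.mem_Ico] at hj
  rw [List.length_append, mod_right hj.1 hL hR, mod_right (hj.1.trans (Nat.le_succ j)) hL hR,
    bl_right]

/-- **exactness** of a matched junction -/
theorem matched {P Q : List A} {c : Nm m S V W} (hl : legL f e F act b m nmL P c)
    (hr : legR f e F act b m nmR Q c) :
    F (ph f (P ++ Q)) (wt f e b m (P ++ Q)) + act c.2.2.2.2.2 (ph f (P ++ Q)) =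
      bval e F act c := by
  obtain ⟨-, hg, hL, hP, hPs⟩ := hl
  obtain ⟨-, -, hd, hR, hQ, hQs⟩ := hr
  have hi := c.1.isLt
  rw [ph_split f (P ++ Q) (mod_le_mod (b := b) (i := (c.1 : ℕ)) (n := (P ++ Q).length)),
    wt_split (P ++ Q) hi, left_sum hd, right_sum hL hR, hPs, hQs]
  have e1 : (P ++ Q).take ((P ++ Q).length % b ^ (c.1 : ℕ)) =
      P.take (P.length % b ^ (c.1 : ℕ)) := by
    rw [List.length_append, mod_left le_rfl hd, List.take_append_of_le_length (Nat.mod_le _ _)]
  have e2 : (P ++ Q).drop ((P ++ Q).length % b ^ ((c.1 : ℕ) + 1)) =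
      Q.drop (Q.length % b ^ ((c.1 : ℕ) + 1)) := by
    rw [List.length_append, mod_right le_rfl hL hR, List.drop_length_add_append]
  rw [e1, e2, hP, hQ]
  exact hg _

/-- finite-state clause -/
structure Same (f : A → S) (b m M : ℕ) (Q Q' : List A) : Prop where
  h1 : b ^ m ≤ Q.length
  h2 : b ^ m ≤ Q'.length
  h3 : Q.take (b ^ m) = Q'.take (b ^ m)
  h4 : Q.length % (M * b ^ m) = Q'.length % (M * b ^ m)
  h5 : ph f (Q.drop (b ^ m)) = ph f (Q'.drop (b ^ m))

theorem Same.symm {M : ℕ} {Q Q' : List A} (h : Same f b m M Q Q') : Same f b m M Q' Q :=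
  ⟨h.h2, h.h1, h.h3.symm, h.h4.symm, h.h5.symm⟩

theorem Same.mod {M d : ℕ} {Q Q' : List A} (h : Same f b m M Q Q') (hd : d ∣ M * b ^ m) :
    Q.length % d = Q'.length % d := by
  rw [← Nat.mod_mod_of_dvd Q.length hd, ← Nat.mod_mod_of_dvd Q'.length hd, h.h4]

theorem Same.modM {M : ℕ} {Q Q' : List A} (h : Same f b m M Q Q') :
    Q.length % M = Q'.length % M := h.mod (Dvd.intro _ rfl)

theorem Same.modb {M j : ℕ} {Q Q' : List A} (h : Same f b m M Q Q') (hj : j ≤ m) :
    Q.length % b ^ j = Q'.length % b ^ j :=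
  h.mod ((pow_dvd_pow b hj).trans (Dvd.intro_left _ rfl))

theorem Same.take {M y : ℕ} {Q Q' : List A} (h : Same f b m M Q Q') (hy : y ≤ b ^ m) :
    Q.take y = Q'.take y := by
  have e1 : Q.take y = (Q.take (b ^ m)).take y := by rw [List.take_take, min_eq_left hy]
  have e2 : Q'.take y = (Q'.take (b ^ m)).take y := by rw [List.take_take, min_eq_left hy]
  rw [e1, e2, h.h3]

theorem Same.drop {M x : ℕ} {Q Q' : List A} (h : Same f b m M Q Q') (hx : x ≤ b ^ m) :
    ph f (Q.drop x) = ph f (Q'.drop x) := by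
  have key : ∀ R : List A, b ^ m ≤ R.length →
      R.drop x = (R.take (b ^ m)).drop x ++ R.drop (b ^ m) := by
    intro R hR
    conv_lhs => rw [← List.take_append_drop (b ^ m) R]
    rw [List.drop_append_of_le_length]
    rw [List.length_take, min_eq_left hR]
    exact hx
  rw [key Q h.h1, key Q' h.h2, ph_append, ph_append, h.h3, h.h5]

theorem Same.ph {M : ℕ} {Q Q' : List A} (h : Same f b m M Q Q') : ph f Q = ph f Q' := by
  have := h.drop (x := 0) (Nat.zero_le _)
  simpa using this

theorem Same.bl {M j : ℕ} {Q Q' : List A} (h : Same f b m M Q Q') (hb : 0 < b) (hj : j < m) :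
    bl Q (Q.length % b ^ j) (Q.length % b ^ (j + 1)) =
      bl Q' (Q'.length % b ^ j) (Q'.length % b ^ (j + 1)) := by
  have hy : Q'.length % b ^ (j + 1) ≤ b ^ m :=
    ((Nat.mod_lt _ (pow_pos hb _)).le).trans (Nat.pow_le_pow_right hb hj)
  unfold G1_344.bl
  rw [h.modb hj.le, h.modb (show j + 1 ≤ m from hj), h.take hy]

theorem Same.wt {M : ℕ} {Q Q' : List A} (h : Same f b m M Q Q') (hb : 0 < b) :
    wt f e b m Q = wt f e b m Q' := by
  unfold G1_344.wt
  refine Finset.sum_congr rfl fun j hj => ?_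
  rw [Finset.mem_range] at hj
  rw [h.bl hb hj]

theorem Same.legR {M : ℕ} {Q Q' : List A} (h : Same f b m M Q Q') (hb : 0 < b)
    (pR : ∀ t, nmR (t + M) = nmR t) {c : Nm m S V W} (hc : legR f e F act b m nmR Q c) :
    legR f e F act b m nmR Q' c := by
  obtain ⟨h1, h2, h3, h4, h5, h6⟩ := hc
  have hi := c.1.isLt
  refine ⟨?_, h2, ?_, ?_, ?_, ?_⟩
  · rw [per pR, ← h.modM, ← per pR]; exact h1
  · rw [Nat.dvd_iff_mod_eq_zero] at h3 ⊢
    rw [← h.modb hi.le]; exact h3
  · rw [← h.modb (show (c.1 : ℕ) + 1 ≤ m from hi)]; exact h4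
  · rw [← h5, ← h.modb (show (c.1 : ℕ) + 1 ≤ m from hi)]
    refine (h.drop ?_).symm
    exact ((Nat.mod_lt _ (pow_pos hb _)).le).trans (Nat.pow_le_pow_right hb hi)
  · rw [← h6]
    refine Finset.sum_congr rfl fun j hj => ?_
    rw [Finset.mem_Ico] at hj
    rw [h.bl hb hj.2]

end main

theorem g1 (S V : Type) [Monoid S] [Finite S] [AddCommGroup V] [Finite V] (act : V → S → V) :
    ∃ m r : ℕ, ∀ Bd : ℕ, ∃ (Ms : Finset ℕ) (M : ℕ), Ms.card ≤ r ∧
      (∀ k ∈ Ms, Bd < k ∧ k.Prime ∧ k ∣ M) ∧ 0 < M ∧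
      ∀ b : ℕ, 4 * M + 4 < b → Nat.Coprime b M → ∀ (A : Type) (f : A → S),
        ∃ (lam rho : List A → Option V) (nu : List A → V),
          (∀ P v, lam P = some v → P.length < b ^ m) ∧
          (∀ P Q v v', lam P = some v → rho Q = some v' →
            v' = act v ((P ++ Q).map f).prod + nu (P ++ Q)) ∧
          (∀ X, (∀ k ∈ Ms, ¬ k ∣ X.length) →
            (∀ j < m, M ≤ X.length / b ^ j % b ∧ X.length / b ^ j % b + M + 1 ≤ b) →
            ∀ v, ∃ P Q, P ++ Q = X ∧ lam P = some v ∧ (rho Q).isSome) ∧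
          (∀ Q Q', b ^ m ≤ Q.length → b ^ m ≤ Q'.length → Q.take (b ^ m) = Q'.take (b ^ m) →
            Q.length % (M * b ^ m) = Q'.length % (M * b ^ m) →
            ((Q.drop (b ^ m)).map f).prod = ((Q'.drop (b ^ m)).map f).prod →
            rho Q = rho Q' ∧ nu Q = nu Q') := by
  classical
  haveI := Fintype.ofFinite S
  haveI := Fintype.ofFinite V
  obtain ⟨m, N0, e, F, hN0, hF⟩ := RandF808.exists_noise S V act
  haveI : NeZero N0 := ⟨hN0.ne'⟩
  let W := ZMod N0 × ZMod N0
  let col : Nm m S V W → V × V := fun c => (c.2.2.2.2.2, bval e F act c)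
  obtain ⟨r, hr⟩ := Names755.names (Nm m S V W) (V × V) col
  refine ⟨m, r, fun Bd => ?_⟩
  obtain ⟨Ms, M, nmL, nmR, hcard, hMs, hM, pL, pR, hname, hcomp, hswap⟩ := hr Bd
  refine ⟨Ms, M, hcard, fun k hk => ⟨(hMs k hk).1, (hMs k hk).2.1, (hMs k hk).2.2⟩, hM,
    fun b hb hbc A f => ?_⟩
  have hb0 : 0 < b := by omega
  let LL : List A → Nm m S V W → Prop := legL f e F act b m nmL
  let RR : List A → Nm m S V W → Prop := legR f e F act b m nmR
  let lam : List A → Option V := fun P =>
    if h : ∃ c, LL P c then some h.choose.2.2.2.2.2 else none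
  let rho : List A → Option V := fun Q =>
    if h : ∃ c, RR Q c then some (bval e F act h.choose) else none
  let PR : ℕ → V × V → Prop := fun ρ p => ∃ t t' c c', (t + t') % M = ρ ∧ nmL t = some c ∧
    nmR t' = some c' ∧ p = ((col c).1, (col c').2)
  let sw : ℕ → V × V := fun ρ => if h : ∃ p, PR ρ p then h.choose else 0
  let nu : List A → V := fun X => if ∀ k ∈ Ms, ¬ k ∣ X.length then F (ph f X) (wt f e b m X)
    else (sw (X.length % M)).2 - act (sw (X.length % M)).1 (ph f X)
  have lam_spec : ∀ P v, lam P = some v → ∃ c, LL P c ∧ c.2.2.2.2.2 = v := by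
    intro P v h
    by_cases hc : ∃ c, LL P c
    · simp only [lam, dif_pos hc, Option.some.injEq] at h
      exact ⟨_, hc.choose_spec, h⟩
    · simp only [lam, dif_neg hc] at h
      exact (Option.some_ne_none v h.symm).elim
  have lam_of : ∀ P c, LL P c → lam P = some c.2.2.2.2.2 := by
    intro P c hc
    have hex : ∃ c, LL P c := ⟨c, hc⟩
    have h1 := hex.choose_spec.1
    have h2 := hc.1
    have h3 : hex.choose = c := Option.some.inj (h1.symm.trans h2)
    simp only [lam, dif_pos hex, h3]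
  have rho_spec : ∀ Q v, rho Q = some v → ∃ c, RR Q c ∧ bval e F act c = v := by
    intro Q v h
    by_cases hc : ∃ c, RR Q c
    · simp only [rho, dif_pos hc, Option.some.injEq] at h
      exact ⟨_, hc.choose_spec, h⟩
    · simp only [rho, dif_neg hc] at h
      exact (Option.some_ne_none v h.symm).elim
  have rho_of : ∀ Q c, RR Q c → rho Q = some (bval e F act c) := by
    intro Q c hc
    have hex : ∃ c, RR Q c := ⟨c, hc⟩
    have h1 := hex.choose_spec.1
    have h2 := hc.1
    have h3 : hex.choose = c := Option.some.inj (h1.symm.trans h2)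
    simp only [rho, dif_pos hex, h3]
  have rho_none : ∀ Q, (¬ ∃ c, RR Q c) → rho Q = none := by
    intro Q h
    simp only [rho, dif_neg h]
  have perR : ∀ a x, nmR (x + M * a) = nmR x := by
    intro a
    induction a with
    | zero => intro x; rfl
    | succ a ih => intro x; rw [Nat.mul_succ, ← Nat.add_assoc, pR, ih]
  refine ⟨lam, rho, nu, ?_, ?_, ?_, ?_⟩
  · -- (1)
    intro P v h
    obtain ⟨c, ⟨-, -, hL, -⟩, -⟩ := lam_spec P v h
    have : b ^ ((c.1 : ℕ) + 1) ≤ b ^ m := Nat.pow_le_pow_right hb0 c.1.isLt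
    omega
  · -- (2)
    intro P Q v v' h h'
    obtain ⟨c, hc, rfl⟩ := lam_spec P v h
    obtain ⟨c', hc', rfl⟩ := rho_spec Q v' h'
    have hc1 := hc.1
    have hc1' := hc'.1
    by_cases hk : ∀ k ∈ Ms, ¬ k ∣ (P ++ Q).length
    · have hcc : c = c' := hname _ _ _ _ hc1 hc1' (by rw [← List.length_append]; exact hk)
      subst hcc
      have hm := matched hc hc'
      have hnu : nu (P ++ Q) = F (ph f (P ++ Q)) (wt f e b m (P ++ Q)) := if_pos hk
      rw [hnu, ← hm, add_comm]
      rfl
    · have hex : ∃ p, PR ((P ++ Q).length % M) p :=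
        ⟨_, P.length, Q.length, c, c', by rw [List.length_append], hc1, hc1', rfl⟩
      obtain ⟨t, t', c1, c1', hs, h1, h1', hp⟩ := hex.choose_spec
      have hsw : sw ((P ++ Q).length % M) = ((col c1).1, (col c1').2) := by
        simp only [sw, dif_pos hex]; exact hp
      have hnu : nu (P ++ Q) = (sw ((P ++ Q).length % M)).2 -
          act (sw ((P ++ Q).length % M)).1 (ph f (P ++ Q)) := if_neg hk
      push Not at hk
      obtain ⟨k, hkM, hkd⟩ := hk
      rw [List.length_append] at hs hkd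
      have e1 := Nat.mod_add_div (P.length + Q.length) M
      have e2 := Nat.mod_add_div (t + t') M
      have hsum : P.length + (Q.length + M * ((t + t') / M)) =
          t + (t' + M * ((P.length + Q.length) / M)) := by
        omega
      have hk2 : k ∣ P.length + (Q.length + M * ((t + t') / M)) := by
        rw [← Nat.add_assoc]
        exact (Nat.dvd_add_right hkd).2 ((hMs k hkM).2.2.mul_right _)
      obtain ⟨hA, hB⟩ := hswap _ _ _ _ _ _ _ _ hc1 ((perR _ _).trans hc1') h1
        ((perR _ _).trans h1') hsum ⟨k, hkM, hk2⟩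
      rw [hnu, hsw, ← hA, ← hB]
      change bval e F act c' = act c.2.2.2.2.2 (ph f (P ++ Q)) +
        (bval e F act c' - act c.2.2.2.2.2 (ph f (P ++ Q)))
      abel
  · -- (3)
    intro X hk hdig v
    set n := X.length with hn
    obtain ⟨i, him, hgood⟩ := hF (ph f X) (wt f e b m X) v
    obtain ⟨hd1, hd2⟩ := hdig i him
    set d := n / b ^ i % b with hd
    have hBi : 0 < b ^ i := pow_pos hb0 i
    have hdec : n % b ^ (i + 1) = n % b ^ i + b ^ i * d := by
      rw [pow_succ, Nat.mod_mul]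
    let g := ph f (X.take (n % b ^ i))
    let z := ph f (bl X (n % b ^ i) (n % b ^ (i + 1)))
    let h := ph f (X.drop (n % b ^ (i + 1)))
    let wl : W := ∑ j ∈ Finset.range i, e j (ph f (bl X (n % b ^ j) (n % b ^ (j + 1))))
    let wr : W := ∑ j ∈ Finset.Ico (i + 1) m, e j (ph f (bl X (n % b ^ j) (n % b ^ (j + 1))))
    have hphX : g * z * h = ph f X := (ph_split f X mod_le_mod).symm
    have hwX : wt f e b m X = wl + e i z + wr := wt_split X him
    have hwX' : wt f e b m X - e i z = wl + wr := by rw [hwX]; abel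
    let c : Nm m S V W := (⟨i, him⟩, g, wl, h, wr, v)
    have hg := hgood g z h hphX
    have hval : ∀ z', F (g * z' * h) (wl + e i z' + wr) + act v (g * z' * h) =
        F (ph f X) (wt f e b m X) + act v (ph f X) := by
      intro z'
      have h1 := hg z'
      rw [hwX', add_right_comm wl wr (e i z')] at h1
      exact h1
    have hgc : good e F act c := by
      intro z'
      change F (g * z' * h) (wl + e i z' + wr) + act v (g * z' * h) =
        F (g * 1 * h) (wl + e i 1 + wr) + act v (g * 1 * h)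
      rw [hval, hval]
    obtain ⟨t, htM, htL, htR⟩ := hcomp n hk c
    -- the place
    set qt := min d ((b - 2) / 2) with hqt
    have hqtM : M ≤ qt := by rw [hqt]; omega
    obtain ⟨q, hq1, hq2, hq3⟩ := exists_q (M := M) (B := b ^ i) (β := n % b ^ i) (t := t)
      (a := qt + 1 - M) hM (Nat.Coprime.pow_left i hbc)
    have hqd : q ≤ d := by omega
    have hqb : 2 * (q + 1) ≤ b := by omega
    have hdq : 2 * (d - q) < b := by omega
    set o := b ^ i * q + n % b ^ i with ho
    have hoi : n % b ^ i < b ^ i := Nat.mod_lt _ hBi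
    have ho1 : o ≤ n % b ^ (i + 1) := by
      rw [hdec, ho]
      have := Nat.mul_le_mul_left (b ^ i) hqd
      omega
    have hon : o ≤ n := ho1.trans (Nat.mod_le _ _)
    have h2o : 2 * o < b ^ (i + 1) := by
      have h1 : b ^ i * (2 * (q + 1)) ≤ b ^ i * b := Nat.mul_le_mul_left _ hqb
      rw [← pow_succ] at h1
      have h2 : b ^ i * (2 * (q + 1)) = 2 * (b ^ i * q) + 2 * b ^ i := by ring
      omega
    have homod : o % b ^ i = n % b ^ i := by
      rw [ho, Nat.mul_add_mod, Nat.mod_eq_of_lt hoi]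
    have hdvd : b ^ i ∣ n - o := by
      refine (Nat.modEq_iff_dvd' hon).1 ?_
      exact homod
    have hQ1 : (n - o) % b ^ (i + 1) = b ^ i * (d - q) := by
      have h0 : b ^ (i + 1) * (n / b ^ (i + 1)) + n % b ^ (i + 1) = n := Nat.div_add_mod _ _
      have h1 : n - o = b ^ i * (d - q) + b ^ (i + 1) * (n / b ^ (i + 1)) := by
        have h3 : b ^ i * (d - q) = b ^ i * d - b ^ i * q := Nat.mul_sub _ _ _
        have h4 := Nat.mul_le_mul_left (b ^ i) hqd
        omega
      rw [h1, Nat.add_mul_mod_self_left]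
      refine Nat.mod_eq_of_lt ?_
      rw [pow_succ]
      exact Nat.mul_lt_mul_of_pos_left (by omega) hBi
    have hQ2 : 2 * ((n - o) % b ^ (i + 1)) < b ^ (i + 1) := by
      rw [hQ1, pow_succ]
      have := Nat.mul_lt_mul_of_pos_left hdq hBi
      calc 2 * (b ^ i * (d - q)) = b ^ i * (2 * (d - q)) := by ring
        _ < b ^ i * b := this
    have hlP : (X.take o).length = o := by rw [List.length_take, min_eq_left hon]
    have hlQ : (X.drop o).length = n - o := by rw [List.length_drop]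
    have hPQ : X.take o ++ X.drop o = X := List.take_append_drop _ _
    have hLs := left_sum (f := f) (e := e) (P := X.take o) (Q := X.drop o) (b := b) (i := i)
      (by rw [hlQ]; exact hdvd)
    have hRs := right_sum (f := f) (e := e) (m := m) (P := X.take o) (Q := X.drop o) (b := b)
      (i := i) (by rw [hlP]; exact h2o) (by rw [hlQ]; exact hQ2)
    rw [hPQ] at hLs hRs
    have hLL : LL (X.take o) c := by
      refine ⟨?_, hgc, ?_, ?_, ?_⟩
      · rw [hlP, per pL, show o % M = t % M from hq3, ← per pL]; exact htL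
      · rw [hlP]; exact h2o
      · change ph f ((X.take o).take ((X.take o).length % b ^ i)) = g
        rw [hlP, homod, List.take_take, min_eq_left]
        rw [ho]; exact Nat.le_add_left _ _
      · change ∑ j ∈ Finset.range i, e j (ph f (bl (X.take o) ((X.take o).length % b ^ j)
          ((X.take o).length % b ^ (j + 1)))) = wl
        rw [← hLs]
    have hRR : RR (X.drop o) c := by
      refine ⟨?_, hgc, ?_, ?_, ?_, ?_⟩
      · rw [hlQ]
        refine htR (n - o) ?_
        have h1 : t + (n - o) ≡ o + (n - o) [MOD M] := Nat.ModEq.add_right _ hq3.symm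
        rwa [Nat.add_sub_cancel' hon] at h1
      · rw [hlQ]; exact hdvd
      · rw [hlQ]; exact hQ2
      · change ph f ((X.drop o).drop ((X.drop o).length % b ^ (i + 1))) = h
        rw [hlQ, List.drop_drop]
        have : o + (n - o) % b ^ (i + 1) = n % b ^ (i + 1) := by
          rw [← mod_right (le_refl (i + 1)) h2o hQ2, Nat.add_sub_cancel' hon]
        rw [this]
      · change ∑ j ∈ Finset.Ico (i + 1) m, e j (ph f (bl (X.drop o) ((X.drop o).length % b ^ j)
          ((X.drop o).length % b ^ (j + 1)))) = wr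
        rw [← hRs]
    exact ⟨X.take o, X.drop o, hPQ, lam_of _ _ hLL, by rw [rho_of _ _ hRR]; rfl⟩
  · -- (4)
    intro Q Q' h1 h2 h3 h4 h5
    have hS : Same f b m M Q Q' := ⟨h1, h2, h3, h4, h5⟩
    constructor
    · by_cases hc : ∃ c, RR Q c
      · obtain ⟨c, hc⟩ := hc
        have hc' : RR Q' c := hS.legR hb0 pR hc
        rw [rho_of _ _ hc, rho_of _ _ hc']
      · have hc' : ¬ ∃ c, RR Q' c := fun ⟨c, hc'⟩ => hc ⟨c, hS.symm.legR hb0 pR hc'⟩
        rw [rho_none _ hc, rho_none _ hc']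
    · have hk : (∀ k ∈ Ms, ¬ k ∣ Q.length) ↔ (∀ k ∈ Ms, ¬ k ∣ Q'.length) := by
        have key : ∀ k ∈ Ms, (k ∣ Q.length ↔ k ∣ Q'.length) := by
          intro k hk
          have hd : k ∣ M * b ^ m := (hMs k hk).2.2.mul_right _
          rw [Nat.dvd_iff_mod_eq_zero, Nat.dvd_iff_mod_eq_zero, hS.mod hd]
        constructor
        · intro h k hk hd; exact h k hk ((key k hk).2 hd)
        · intro h k hk hd; exact h k hk ((key k hk).1 hd)
      by_cases h : ∀ k ∈ Ms, ¬ k ∣ Q.length
      · have e1 : nu Q = F (ph f Q) (wt f e b m Q) := if_pos h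
        have e2 : nu Q' = F (ph f Q') (wt f e b m Q') := if_pos (hk.1 h)
        rw [e1, e2, hS.ph, hS.wt hb0]
      · have e1 : nu Q = (sw (Q.length % M)).2 - act (sw (Q.length % M)).1 (ph f Q) := if_neg h
        have e2 : nu Q' = (sw (Q'.length % M)).2 - act (sw (Q'.length % M)).1 (ph f Q') :=
          if_neg (fun h' => h (hk.2 h'))
        rw [e1, e2, hS.ph, hS.modM]

end Crest.Agent.R320.G1_344
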