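import Mathlib
import Crest.Agent.R320.Names_755
import Crest.Agent.R320.Exact_136

set_option autoImplicit false
set_option maxHeartbeats 1000000

/-!
Row 320, leaf `g1` (lead #13673 = 852 #13483 (G1)): levels = positional digits of the length in
base `b`, names = 755's CRT names, noise = 136's `exists_F`.
-/

namespace Crest.Agent.R320.G1_372

section lists
variable {A : Type}

/-- block `j` of a word: letters between the boundaries `n % b^j` and `n % b^(j+1)`. -/
def blk (b : ℕ) (X : List A) (j : ℕ) : List A :=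
  (X.drop (X.length % b ^ j)).take (X.length % b ^ (j + 1) - X.length % b ^ j)

theorem mod_le_mod (b n : ℕ) {i j : ℕ} (h : i ≤ j) : n % b ^ i ≤ n % b ^ j := by
  have : n % b ^ i = n % b ^ j % b ^ i := (Nat.mod_mod_of_dvd n (pow_dvd_pow b h)).symm
  rw [this]; exact Nat.mod_le _ _

theorem split3 (b : ℕ) (X : List A) (i : ℕ) :
    X = X.take (X.length % b ^ i) ++ (blk b X i ++ X.drop (X.length % b ^ (i + 1))) := by
  have h := mod_le_mod b X.length (Nat.le_add_right i 1)
  conv_lhs => rw [← List.take_append_drop (X.length % b ^ i) X]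
  congr 1
  unfold blk
  conv_lhs => rw [← List.take_append_drop (X.length % b ^ (i + 1) - X.length % b ^ i)
    (X.drop (X.length % b ^ i))]
  rw [List.drop_drop, show X.length % b ^ i + (X.length % b ^ (i + 1) - X.length % b ^ i)
    = X.length % b ^ (i + 1) by omega]

/-- no-carry pair at level `i`. -/
structure NC (b i : ℕ) (o o' : ℕ) : Prop where
  dvd : b ^ i ∣ o'
  lt : o + o' % b ^ (i + 1) < b ^ (i + 1)

theorem NC.low {b i o o' : ℕ} (h : NC b i o o') {j : ℕ} (hj : j ≤ i) :
    (o + o') % b ^ j = o % b ^ j := by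
  obtain ⟨k, hk⟩ := (pow_dvd_pow b hj).trans h.dvd
  rw [hk, Nat.add_mul_mod_self_left]

theorem NC.high {b i o o' : ℕ} (hb : 0 < b) (h : NC b i o o') {j : ℕ} (hj : i < j) :
    (o + o') % b ^ j = o + o' % b ^ j := by
  have hd : b ^ (i + 1) ∣ b ^ j := pow_dvd_pow b hj
  obtain ⟨c, hc⟩ := hd
  have hbp : 0 < b ^ (i + 1) := pow_pos hb _
  have h1 : o' % b ^ j % b ^ (i + 1) = o' % b ^ (i + 1) :=
    Nat.mod_mod_of_dvd _ (pow_dvd_pow b hj)
  have h2 : o' % b ^ j < b ^ j := Nat.mod_lt _ (pow_pos hb _)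
  have h3 : o + o' % b ^ j < b ^ j := by
    have e1 := Nat.div_add_mod (o' % b ^ j) (b ^ (i + 1))
    rw [h1] at e1
    have h4 : (o' % b ^ j) / b ^ (i + 1) < c := by
      rw [Nat.div_lt_iff_lt_mul hbp, mul_comm, ← hc]; exact h2
    have h5 : b ^ (i + 1) * ((o' % b ^ j) / b ^ (i + 1) + 1) ≤ b ^ (i + 1) * c :=
      Nat.mul_le_mul_left _ h4
    have h6 := h.lt
    rw [mul_add, mul_one] at h5
    omega
  rw [← Nat.add_mod_mod, Nat.mod_eq_of_lt h3]

theorem NC.mk' {b i o o' : ℕ} (hb : 0 < b) (h1 : b ^ i ∣ o') (h2 : 2 * (o / b ^ i) < b)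
    (h3 : 2 * (o' / b ^ i % b) < b) : NC b i o o' := by
  refine ⟨h1, ?_⟩
  have hbi : 0 < b ^ i := pow_pos hb _
  have e1 : o' % b ^ (i + 1) = b ^ i * (o' / b ^ i % b) := by
    rw [pow_succ, Nat.mod_mul, Nat.mod_eq_zero_of_dvd h1, zero_add]
  have e2 : o < b ^ i * (o / b ^ i + 1) := Nat.lt_mul_div_succ o hbi
  rw [e1]
  calc o + b ^ i * (o' / b ^ i % b) < b ^ i * (o / b ^ i + 1) + b ^ i * (o' / b ^ i % b) := by omega
    _ = b ^ i * (o / b ^ i + 1 + o' / b ^ i % b) := by ring
    _ ≤ b ^ i * b := Nat.mul_le_mul_left _ (by omega)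
    _ = b ^ (i + 1) := (pow_succ b i).symm

variable {b i : ℕ} {P Q : List A}

theorem take_pq (h : NC b i P.length Q.length) :
    (P ++ Q).take ((P ++ Q).length % b ^ i) = P.take (P.length % b ^ i) := by
  rw [List.length_append, h.low le_rfl,
    List.take_append_of_le_length (Nat.mod_le _ _)]

theorem drop_pq (hb : 0 < b) (h : NC b i P.length Q.length) :
    (P ++ Q).drop ((P ++ Q).length % b ^ (i + 1)) = Q.drop (Q.length % b ^ (i + 1)) := by
  rw [List.length_append, h.high hb (Nat.lt_add_one i), List.drop_append,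
    List.drop_eq_nil_of_le (Nat.le_add_right _ _), List.nil_append, Nat.add_sub_cancel_left]

theorem blk_left (h : NC b i P.length Q.length) {j : ℕ} (hj : j < i) :
    blk b (P ++ Q) j = blk b P j := by
  unfold blk
  have hle := mod_le_mod b P.length (Nat.le_add_right j 1)
  have hle2 : P.length % b ^ (j + 1) ≤ P.length := Nat.mod_le _ _
  rw [List.length_append, h.low hj.le, h.low (show j + 1 ≤ i from hj),
    List.drop_append_of_le_length (by omega),
    List.take_append_of_le_length (by rw [List.length_drop]; omega)]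

theorem blk_right (hb : 0 < b) (h : NC b i P.length Q.length) {j : ℕ} (hj : i < j) :
    blk b (P ++ Q) j = blk b Q j := by
  unfold blk
  rw [List.length_append, h.high hb hj, h.high hb (show i < j + 1 by omega), List.drop_append,
    List.drop_eq_nil_of_le (Nat.le_add_right _ _), List.nil_append, Nat.add_sub_cancel_left,
    Nat.add_sub_add_left]

end lists

theorem exists_y (M b t c i lo : ℕ) (hM : 0 < M) (hco : Nat.Coprime b M) :
    ∃ y, lo ≤ y ∧ y < lo + M ∧ c + b ^ i * y ≡ t [MOD M] := by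
  have : NeZero M := ⟨hM.ne'⟩
  let u : (ZMod M)ˣ := ZMod.unitOfCoprime (b ^ i) (hco.pow_left i)
  let y0 : ZMod M := (↑u⁻¹ : ZMod M) * ((t : ZMod M) - c)
  refine ⟨lo + (y0 - (lo : ZMod M)).val, Nat.le_add_right _ _, by
    have := ZMod.val_lt (y0 - (lo : ZMod M)); omega, ?_⟩
  rw [← ZMod.natCast_eq_natCast_iff]
  push_cast
  rw [ZMod.natCast_zmod_val]
  have hu : ((b : ZMod M) ^ i) = (u : ZMod M) := by
    simp [u, ZMod.coe_unitOfCoprime]
  rw [hu]
  simp only [y0]
  have : (lo : ZMod M) + ((↑u⁻¹ : ZMod M) * ((t : ZMod M) - c) - lo)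
    = (↑u⁻¹ : ZMod M) * ((t : ZMod M) - c) := by ring
  rw [this, Units.mul_inv_cancel_left]
  ring

theorem sub_mod' {a b y : ℕ} (h : y ≤ a % b) : (a - y) % b = a % b - y := by
  rcases Nat.eq_zero_or_pos b with rfl | hb
  · simp
  have h1 := Nat.div_add_mod a b
  have h2 : a - y = b * (a / b) + (a % b - y) := by omega
  have h3 := Nat.mod_lt a hb
  rw [h2, Nat.mul_add_mod, Nat.mod_eq_of_lt (by omega)]

theorem mod_of {n n' d D : ℕ} (hd : d ∣ D) (h : n % D = n' % D) : n % d = n' % d := by
  rw [← Nat.mod_mod_of_dvd n hd, h, Nat.mod_mod_of_dvd n' hd]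

theorem g1 (S V : Type) [Monoid S] [Finite S] [AddCommGroup V] [Finite V] (act : V → S → V) :
    ∃ m r : ℕ, ∀ Bd : ℕ, ∃ (Ms : Finset ℕ) (M : ℕ), Ms.card ≤ r ∧
      (∀ k ∈ Ms, Bd < k ∧ k.Prime ∧ k ∣ M) ∧ 0 < M ∧
      ∀ b : ℕ, 4 * M + 4 < b → Nat.Coprime b M → ∀ (A : Type) (f : A → S),
        ∃ (lam rho : List A → Option V) (nu : List A → V),
        (∀ P v, lam P = some v → P.length < b ^ m) ∧
        (∀ P Q v v', lam P = some v → rho Q = some v' →
          v' = act v ((P ++ Q).map f).prod + nu (P ++ Q)) ∧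
        (∀ X, (∀ k ∈ Ms, ¬ k ∣ X.length) →
          (∀ j < m, M ≤ X.length / b ^ j % b ∧ X.length / b ^ j % b + M + 1 ≤ b) →
          ∀ v, ∃ P Q, P ++ Q = X ∧ lam P = some v ∧ (rho Q).isSome) ∧
        (∀ Q Q', b ^ m ≤ Q.length → b ^ m ≤ Q'.length → Q.take (b ^ m) = Q'.take (b ^ m) →
          Q.length % (M * b ^ m) = Q'.length % (M * b ^ m) →
          ((Q.drop (b ^ m)).map f).prod = ((Q'.drop (b ^ m)).map f).prod →
          rho Q = rho Q' ∧ nu Q = nu Q') := by
  classical
  obtain ⟨m, hm, nuS, F, hF⟩ := Crest.Agent.R320.Exact136.exists_F (S := S) (V := V) act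
  have : Fact m.Prime := ⟨hm⟩
  have : NeZero m := ⟨hm.ne_zero⟩
  let W := ZMod m × ZMod m
  let e : ℕ → S → W := fun j z => (nuS z, (j : ZMod m) * nuS z)
  let N := Fin m × (S × W) × (S × W) × V
  let val : N → S → V := fun c z =>
    F (c.2.1.1 * z * c.2.2.1.1) (c.2.1.2 + e c.1 z + c.2.2.1.2) + act c.2.2.2 (c.2.1.1 * z * c.2.2.1.1)
  let good : N → Prop := fun c => ∀ z, val c z = val c 1
  let col : N → V × V := fun c => (c.2.2.2, val c 1)
  obtain ⟨r, hr⟩ := Crest.Agent.R320.Names755.names N (V × V) col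
  refine ⟨m, r, fun Bd => ?_⟩
  obtain ⟨Ms, M, nmL, nmR, hcard, hMs, hM, perL, perR, hsame, hcomp, hcol⟩ := hr Bd
  refine ⟨Ms, M, hcard, hMs, hM, ?_⟩
  intro b hb hco A f
  have hb0 : 0 < b := by omega
  let φ : List A → S := fun X => (X.map f).prod
  have hφ : ∀ u v : List A, φ (u ++ v) = φ u * φ v := by
    intro u v; simp [φ]
  let wl : List A → ℕ → W := fun P i => ∑ j ∈ Finset.range i, e j (φ (blk b P j))
  let wr : List A → ℕ → W := fun Q i => ∑ j ∈ Finset.Ico (i + 1) m, e j (φ (blk b Q j))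
  let LL : List A → N → Prop := fun P c => nmL P.length = some c ∧ 2 * (P.length / b ^ (c.1 : ℕ)) < b ∧
    φ (P.take (P.length % b ^ (c.1 : ℕ))) = c.2.1.1 ∧ wl P c.1 = c.2.1.2
  let RR : List A → N → Prop := fun Q c => nmR Q.length = some c ∧ b ^ (c.1 : ℕ) ∣ Q.length ∧
    2 * (Q.length / b ^ (c.1 : ℕ) % b) < b ∧
    φ (Q.drop (Q.length % b ^ ((c.1 : ℕ) + 1))) = c.2.2.1.1 ∧ wr Q c.1 = c.2.2.1.2 ∧ good c
  have LLu : ∀ P c c', LL P c → LL P c' → c = c' := by
    intro P c c' h h'
    exact Option.some.inj (h.1.symm.trans h'.1)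
  have RRu : ∀ Q c c', RR Q c → RR Q c' → c = c' := by
    intro P c c' h h'
    exact Option.some.inj (h.1.symm.trans h'.1)
  let lam : List A → Option V := fun P => if h : ∃ c, LL P c then some (h.choose.2.2.2) else none
  let rho : List A → Option V := fun Q => if h : ∃ c, RR Q c then some (val h.choose 1) else none
  have hlam : ∀ P v, lam P = some v ↔ ∃ c, LL P c ∧ c.2.2.2 = v := by
    intro P v
    simp only [lam]
    constructor
    · intro h
      split_ifs at h with hc
      exact ⟨_, hc.choose_spec, Option.some.inj h⟩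
    · rintro ⟨c, hc, rfl⟩
      have hex : ∃ c, LL P c := ⟨c, hc⟩
      rw [dif_pos hex, LLu P _ _ hex.choose_spec hc]
  have hrho : ∀ Q v, rho Q = some v ↔ ∃ c, RR Q c ∧ val c 1 = v := by
    intro P v
    simp only [rho]
    constructor
    · intro h
      split_ifs at h with hc
      exact ⟨_, hc.choose_spec, Option.some.inj h⟩
    · rintro ⟨c, hc, rfl⟩
      have hex : ∃ c, RR P c := ⟨c, hc⟩
      rw [dif_pos hex, RRu P _ _ hex.choose_spec hc]
  let wt : List A → W := fun X => ∑ j ∈ Finset.range m, e j (φ (blk b X j))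
  let PP : ℕ → V × V → Prop := fun n vb => ∃ t t' c c', (t + t') % M = n % M ∧ nmL t = some c ∧
    nmR t' = some c' ∧ vb = ((col c).1, (col c').2)
  let nu : List A → V := fun X =>
    if (∀ k ∈ Ms, ¬ k ∣ X.length) then F (φ X) (wt X)
    else (if h : ∃ vb, PP X.length vb then h.choose.2 - act h.choose.1 (φ X) else 0)
  have perR' : ∀ t k, nmR (t + M * k) = nmR t := by
    intro t k
    induction k with
    | zero => simp
    | succ k ih => rw [mul_add, mul_one, ← add_assoc, perR, ih]
  have perL' : ∀ t k, nmL (t + M * k) = nmL t := by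
    intro t k
    induction k with
    | zero => simp
    | succ k ih => rw [mul_add, mul_one, ← add_assoc, perL, ih]
  have PPu : ∀ n vb vb', (∃ k ∈ Ms, k ∣ n) → PP n vb → PP n vb' → vb = vb' := by
    rintro n vb vb' ⟨k, hk, hkn⟩ ⟨t1, t1', c1, c1', h1, hL1, hR1, rfl⟩
      ⟨t2, t2', c2, c2', h2, hL2, hR2, rfl⟩
    have e1 := Nat.div_add_mod (t1 + t1') M
    have e2 := Nat.div_add_mod (t2 + t2') M
    have hkM := (hMs k hk).2.2
    have hk1 : k ∣ t1 + t1' := by
      rw [← Nat.dvd_mod_iff hkM, h1, Nat.dvd_mod_iff hkM]; exact hkn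
    have := hcol t1 (t1' + M * ((t2 + t2') / M)) t2 (t2' + M * ((t1 + t1') / M)) c1 c1' c2 c2' hL1
      (by rw [perR']; exact hR1) hL2 (by rw [perR']; exact hR2) (by omega)
      ⟨k, hk, by rw [← add_assoc]; exact dvd_add hk1 (hkM.mul_right _)⟩
    rw [this.1, this.2]
  have esplit : ∀ (X : List A) (i : ℕ), i < m → wt X = wl X i + e i (φ (blk b X i)) + wr X i := by
    intro X i hi
    simp only [wt, wl, wr]
    rw [← Finset.sum_range_succ, Finset.sum_range_add_sum_Ico _ (by omega)]
  have hs3 : ∀ (X : List A) (i : ℕ), φ X = φ (X.take (X.length % b ^ i)) * φ (blk b X i) *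
      φ (X.drop (X.length % b ^ (i + 1))) := by
    intro X i
    conv_lhs => rw [split3 b X i]
    rw [hφ, hφ, mul_assoc]
  have hwl : ∀ (P Q : List A) (i : ℕ), NC b i P.length Q.length → wl (P ++ Q) i = wl P i := by
    intro P Q i h
    simp only [wl]
    exact Finset.sum_congr rfl fun j hj => by rw [blk_left h (Finset.mem_range.1 hj)]
  have hwr : ∀ (P Q : List A) (i : ℕ), NC b i P.length Q.length → wr (P ++ Q) i = wr Q i := by
    intro P Q i h
    simp only [wr]
    exact Finset.sum_congr rfl fun j hj => by rw [blk_right hb0 h (Finset.mem_Ico.1 hj).1]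
  refine ⟨lam, rho, nu, ?_, ?_, ?_, ?_⟩
  · intro P v h
    obtain ⟨c, hc, -⟩ := (hlam P v).1 h
    have h1 : P.length / b ^ (c.1 : ℕ) < b := by have := hc.2.1; omega
    rw [Nat.div_lt_iff_lt_mul (pow_pos hb0 _)] at h1
    calc P.length < b * b ^ (c.1 : ℕ) := h1
      _ = b ^ ((c.1 : ℕ) + 1) := by rw [pow_succ, mul_comm]
      _ ≤ b ^ m := Nat.pow_le_pow_right hb0 c.1.2
  · intro P Q v v' hl hr
    obtain ⟨c, hc, rfl⟩ := (hlam P v).1 hl
    obtain ⟨c', hc', rfl⟩ := (hrho Q v').1 hr
    by_cases hk : ∀ k ∈ Ms, ¬ k ∣ (P ++ Q).length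
    · have hcc : c = c' := hsame _ _ _ _ hc.1 hc'.1 (by simpa using hk)
      subst hcc
      have hNC : NC b c.1 P.length Q.length := NC.mk' hb0 hc'.2.1 hc.2.1 hc'.2.2.1
      have hnu : nu (P ++ Q) = F (φ (P ++ Q)) (wt (P ++ Q)) := if_pos hk
      rw [hnu]
      show val c 1 = act _ (φ (P ++ Q)) + _
      rw [← hc'.2.2.2.2.2 (φ (blk b (P ++ Q) c.1))]
      simp only [val]
      have e1 := hs3 (P ++ Q) c.1
      rw [take_pq hNC, drop_pq hb0 hNC, hc.2.2.1, hc'.2.2.2.1] at e1
      have e2 := esplit (P ++ Q) c.1 c.1.2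
      rw [hwl P Q c.1 hNC, hwr P Q c.1 hNC, hc.2.2.2, hc'.2.2.2.2.1] at e2
      rw [← e1, ← e2, add_comm]
    · have hk' : ∃ k ∈ Ms, k ∣ (P ++ Q).length := by push Not at hk; exact hk
      have hPP : PP (P ++ Q).length ((col c).1, (col c').2) :=
        ⟨P.length, Q.length, c, c', by simp, hc.1, hc'.1, rfl⟩
      have hex : ∃ vb, PP (P ++ Q).length vb := ⟨_, hPP⟩
      have hnu : nu (P ++ Q) = hex.choose.2 - act hex.choose.1 (φ (P ++ Q)) := by
        simp only [nu]
        rw [if_neg hk, dif_pos hex]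
      rw [hnu, PPu _ _ _ hk' hex.choose_spec hPP]
      show val c' 1 = act c.2.2.2 (φ (P ++ Q)) + (val c' 1 - act c.2.2.2 (φ (P ++ Q)))
      abel
  · intro X hk hd v
    obtain ⟨i0, hi0⟩ := hF (φ X) (wt X) v
    let i : ℕ := i0.val
    have him : i < m := ZMod.val_lt i0
    have hii : ((i : ℕ) : ZMod m) = i0 := ZMod.natCast_zmod_val i0
    let c : N := (⟨i, him⟩, (φ (X.take (X.length % b ^ i)), wl X i),
      (φ (X.drop (X.length % b ^ (i + 1))), wr X i), v)
    have hgood : good c := by
      have key : ∀ z, val c z = F (φ X) (wt X) + act v (φ X) := by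
        intro z
        have h1 := hi0 _ _ _ (hs3 X i).symm z
        rw [← h1]
        simp only [val, c]
        congr 2
        rw [esplit X i him]
        simp only [e, hii]
        abel
      intro z
      rw [key z, key 1]
    obtain ⟨t, htM, htL, htR⟩ := hcomp X.length hk c
    obtain ⟨hd1, hd2⟩ := hd i him
    set n := X.length with hn
    set di := n / b ^ i % b with hdi
    obtain ⟨y, hy1, hy2, hy3⟩ := exists_y M b t (n % b ^ i) i (di - (b - 1) / 2) hM hco
    have hyd : y ≤ di := by omega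
    have hyb : 2 * y < b := by omega
    have hyb' : 2 * (di - y) < b := by omega
    have hbi : 0 < b ^ i := pow_pos hb0 _
    have hyn : y ≤ n / b ^ i := hyd.trans (Nat.mod_le _ _)
    have hdm := Nat.div_add_mod n (b ^ i)
    have hmul : b ^ i * y ≤ b ^ i * (n / b ^ i) := Nat.mul_le_mul_left _ hyn
    set o := n % b ^ i + b ^ i * y with ho
    have hon : o ≤ n := by omega
    have ho' : n - o = b ^ i * (n / b ^ i - y) := by
      rw [Nat.mul_sub]; omega
    refine ⟨X.take o, X.drop o, List.take_append_drop _ _, ?_, ?_⟩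
    all_goals
      have hlP : (X.take o).length = o := by rw [List.length_take]; omega
      have hlQ : (X.drop o).length = n - o := by rw [List.length_drop]
      have c1 : 2 * (o / b ^ i) < b := by
        rw [ho, Nat.add_mul_div_left _ _ hbi, Nat.div_eq_of_lt (Nat.mod_lt _ hbi), zero_add]
        exact hyb
      have c2 : b ^ i ∣ n - o := by rw [ho']; exact dvd_mul_right _ _
      have c3 : 2 * ((n - o) / b ^ i % b) < b := by
        rw [ho', Nat.mul_div_cancel_left _ hbi, sub_mod' hyd]
        exact hyb'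
      have hNC : NC b i (X.take o).length (X.drop o).length := by
        rw [hlP, hlQ]; exact NC.mk' hb0 c2 c1 c3
    · rw [hlam]
      refine ⟨c, ⟨?_, ?_, ?_, ?_⟩, rfl⟩
      · rw [hlP]
        have h1 : nmL o = nmL t := by
          have h2 : o % M = t % M := hy3
          have h3 := Nat.div_add_mod o M
          have h4 := Nat.div_add_mod t M
          rw [← h3, ← h4, h2, add_comm, perL', add_comm (M * (t / M)), perL']
        rw [h1]; exact htL
      · rw [hlP]; exact c1
      · have := take_pq hNC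
        rw [List.take_append_drop] at this
        show φ ((X.take o).take ((X.take o).length % b ^ i)) = _
        rw [← this]
      · have := hwl _ _ _ hNC
        rw [List.take_append_drop] at this
        exact this.symm
    · have hR : RR (X.drop o) c := by
        refine ⟨?_, ?_, ?_, ?_, ?_, hgood⟩
        · rw [hlQ]
          apply htR
          have h2 : o % M = t % M := hy3
          show (t + (n - o)) % M = n % M
          rw [Nat.add_mod, ← h2, ← Nat.add_mod]
          congr 1; omega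
        · rw [hlQ]; exact c2
        · rw [hlQ]; exact c3
        · have := drop_pq hb0 hNC
          rw [List.take_append_drop] at this
          show φ ((X.drop o).drop ((X.drop o).length % b ^ (i + 1))) = _
          rw [← this]
        · have := hwr _ _ _ hNC
          rw [List.take_append_drop] at this
          exact this.symm
      rw [(hrho (X.drop o) (val c 1)).2 ⟨c, hR, rfl⟩]
      rfl
  · intro Q Q' hQ hQ' htk hmod hdr
    -- reading facts
    have hm1 : Q.length % M = Q'.length % M := mod_of (Dvd.intro _ rfl) hmod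
    have hmj : ∀ j ≤ m, Q.length % b ^ j = Q'.length % b ^ j := fun j hj =>
      mod_of ((pow_dvd_pow b hj).trans (Dvd.intro_left _ rfl)) hmod
    have hlt : ∀ (R : List A) (j : ℕ), j ≤ m → R.length % b ^ j < b ^ m := fun R j hj =>
      lt_of_lt_of_le (Nat.mod_lt _ (pow_pos hb0 _)) (Nat.pow_le_pow_right hb0 hj)
    have hdrop : ∀ (R : List A), b ^ m ≤ R.length → ∀ t ≤ b ^ m,
        R.drop t = (R.take (b ^ m)).drop t ++ R.drop (b ^ m) := by
      intro R hR t ht
      conv_lhs => rw [← List.take_append_drop (b ^ m) R]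
      rw [List.drop_append_of_le_length (by rw [List.length_take]; omega)]
    have hdropφ : ∀ t ≤ b ^ m, φ (Q.drop t) = φ (Q'.drop t) := by
      intro t ht
      rw [hdrop Q hQ t ht, hdrop Q' hQ' t ht, hφ, hφ, htk]
      congr 1
    have hblk : ∀ j < m, blk b Q j = blk b Q' j := by
      intro j hj
      have key : ∀ R : List A, b ^ m ≤ R.length → blk b R j =
          (((R.take (b ^ m)).drop (R.length % b ^ j)).take
            (R.length % b ^ (j + 1) - R.length % b ^ j)) := by
        intro R hR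
        unfold blk
        have h1 := hlt R (j + 1) hj
        have h2 := hlt R j hj.le
        rw [hdrop R hR _ h2.le, List.take_append_of_le_length]
        rw [List.length_drop, List.length_take]
        omega
      rw [key Q hQ, key Q' hQ', htk, hmj j hj.le, hmj (j + 1) hj]
    have hwt : wt Q = wt Q' := by
      simp only [wt]
      exact Finset.sum_congr rfl fun j hj => by rw [hblk j (Finset.mem_range.1 hj)]
    have hwr' : ∀ i, wr Q i = wr Q' i := by
      intro i
      simp only [wr]
      exact Finset.sum_congr rfl fun j hj => by rw [hblk j (Finset.mem_Ico.1 hj).2]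
    have hφQ : φ Q = φ Q' := by simpa using hdropφ 0 (Nat.zero_le _)
    have hnm : nmR Q.length = nmR Q'.length := by
      have h3 := Nat.div_add_mod Q.length M
      have h4 := Nat.div_add_mod Q'.length M
      rw [← h3, ← h4, hm1, add_comm, perR', add_comm (M * (Q'.length / M)), perR']
    have hRR : ∀ c, RR Q c ↔ RR Q' c := by
      intro c
      have hc : (c.1 : ℕ) + 1 ≤ m := c.1.2
      have a1 : (b ^ (c.1 : ℕ) ∣ Q.length) ↔ (b ^ (c.1 : ℕ) ∣ Q'.length) := by
        rw [Nat.dvd_iff_mod_eq_zero, Nat.dvd_iff_mod_eq_zero, hmj _ (by omega)]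
      have a2 : Q.length / b ^ (c.1 : ℕ) % b = Q'.length / b ^ (c.1 : ℕ) % b := by
        rw [← Nat.mod_mul_right_div_self, ← Nat.mod_mul_right_div_self, ← pow_succ, hmj _ hc]
      have a3 : φ (Q.drop (Q.length % b ^ ((c.1 : ℕ) + 1))) =
          φ (Q'.drop (Q'.length % b ^ ((c.1 : ℕ) + 1))) := by
        rw [hmj _ hc]
        exact hdropφ _ (hlt Q' _ hc).le
      simp only [RR]
      rw [hnm, a1, a2, a3, hwr']
    constructor
    · cases h : rho Q' with
      | none =>
        cases h' : rho Q with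
        | none => rfl
        | some v =>
          obtain ⟨c, hc, hv⟩ := (hrho Q v).1 h'
          rw [(hrho Q' v).2 ⟨c, (hRR c).1 hc, hv⟩] at h
          exact absurd h (by simp)
      | some v =>
        obtain ⟨c, hc, hv⟩ := (hrho Q' v).1 h
        exact (hrho Q v).2 ⟨c, (hRR c).2 hc, hv⟩
    · have hkiff : (∀ k ∈ Ms, ¬ k ∣ Q.length) ↔ (∀ k ∈ Ms, ¬ k ∣ Q'.length) := by
        have : ∀ k ∈ Ms, (k ∣ Q.length ↔ k ∣ Q'.length) := by
          intro k hk
          have hkM := (hMs k hk).2.2
          rw [← Nat.dvd_mod_iff hkM, hm1, Nat.dvd_mod_iff hkM]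
        exact ⟨fun h k hk hd => h k hk ((this k hk).2 hd), fun h k hk hd => h k hk ((this k hk).1 hd)⟩
      have hPPeq : PP Q.length = PP Q'.length := by
        funext vb
        simp only [PP, hm1]
      simp only [nu]
      by_cases hk : ∀ k ∈ Ms, ¬ k ∣ Q.length
      · rw [if_pos hk, if_pos (hkiff.1 hk), hφQ, hwt]
      · rw [if_neg hk, if_neg (fun h => hk (hkiff.2 h))]
        simp only [hPPeq, hφQ]

end Crest.Agent.R320.G1_372
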