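import Mathlib
import Crest.Agent.R320.RandF_808
import Crest.Agent.R320.Names_755

/-!
Row 320 (helper392): gadget G1 (852 #13483): levels = positional digits of the total in base `b`,
names = CRT (755), noise = random function (808).
-/

set_option autoImplicit false

namespace Crest.Agent.R320.G1_392

open Finset

section Lists

variable {A : Type} {S : Type} [Monoid S]

/-- value of a word -/
def ph (f : A → S) (w : List A) : S := (w.map f).prod

theorem ph_append (f : A → S) (u v : List A) : ph f (u ++ v) = ph f u * ph f v := by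
  unfold ph; rw [List.map_append, List.prod_append]

/-- factor between two places -/
def sg (X : List A) (a c : ℕ) : List A := (X.drop a).take (c - a)

theorem sg_left {P Q : List A} {a c : ℕ} (hc : c ≤ P.length) : sg (P ++ Q) a c = sg P a c := by
  unfold sg
  rcases le_or_gt a c with h | h
  · rw [List.drop_append_of_le_length (by omega), List.take_append_of_le_length]
    rw [List.length_drop]; omega
  · rw [show c - a = 0 by omega]; simp

theorem drop_add (P Q : List A) (t : ℕ) : (P ++ Q).drop (P.length + t) = Q.drop t := by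
  rw [← List.drop_drop, List.drop_left]

theorem sg_right {P Q : List A} {a c : ℕ} :
    sg (P ++ Q) (P.length + a) (P.length + c) = sg Q a c := by
  unfold sg
  rw [drop_add, show P.length + c - (P.length + a) = c - a by omega]

theorem sg_split (f : A → S) (X : List A) {a c : ℕ} (h : a ≤ c) :
    ph f X = ph f (X.take a) * ph f (sg X a c) * ph f (X.drop c) := by
  unfold sg
  rw [← ph_append, ← ph_append, List.append_assoc]
  congr 1
  have h1 : X.drop c = (X.drop a).drop (c - a) := by
    rw [List.drop_drop]; congr 1; omega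
  rw [h1, List.take_append_drop, List.take_append_drop]

/-- block `j` -/
def bl (b : ℕ) (X : List A) (j : ℕ) : List A := sg X (X.length % b ^ j) (X.length % b ^ (j + 1))

end Lists

theorem mod_low {o o' b i j : ℕ} (hj : j ≤ i) (hd : b ^ i ∣ o') : (o + o') % b ^ j = o % b ^ j := by
  obtain ⟨k, rfl⟩ := (pow_dvd_pow b hj).trans hd
  exact Nat.add_mul_mod_self_left _ _ _

theorem mod_high {o o' b i j M : ℕ} (hb : 0 < b) (hij : i < j) (ho : o < M * b ^ i)
    (hd : b ^ i ∣ o') (hdig : o' / b ^ i % b + M ≤ b) :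
    (o + o') % b ^ j = o + o' % b ^ j := by
  obtain ⟨q, rfl⟩ := hd
  obtain ⟨l, rfl⟩ := Nat.exists_eq_add_of_lt hij
  have hpi : 0 < b ^ i := pow_pos hb i
  have hpl : 0 < b ^ l := pow_pos hb l
  rw [Nat.mul_div_cancel_left _ hpi] at hdig
  have e1 : b ^ (i + l + 1) = b ^ i * (b * b ^ l) := by ring
  have e2 : b ^ i * q % b ^ (i + l + 1) = b ^ i * (q % (b * b ^ l)) := by
    rw [e1, Nat.mul_mod_mul_left]
  have e3 : q % (b * b ^ l) = q % b + b * (q / b % b ^ l) := Nat.mod_mul
  have e4 : q / b % b ^ l + 1 ≤ b ^ l := Nat.mod_lt _ hpl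
  have e5 : M + q % (b * b ^ l) ≤ b * b ^ l := by
    rw [e3]
    have : b * (q / b % b ^ l) + b ≤ b * b ^ l := by
      calc b * (q / b % b ^ l) + b = b * (q / b % b ^ l + 1) := by ring
        _ ≤ b * b ^ l := Nat.mul_le_mul_left _ e4
    omega
  have e6 : o + b ^ i * q % b ^ (i + l + 1) < b ^ (i + l + 1) := by
    rw [e2, e1]
    calc o + b ^ i * (q % (b * b ^ l)) < M * b ^ i + b ^ i * (q % (b * b ^ l)) := by omega
      _ = b ^ i * (M + q % (b * b ^ l)) := by ring
      _ ≤ b ^ i * (b * b ^ l) := Nat.mul_le_mul_left _ e5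
  rw [Nat.add_mod, Nat.mod_eq_of_lt (show o < b ^ (i + l + 1) by omega), Nat.mod_eq_of_lt e6]

theorem mod_mono (n b j : ℕ) : n % b ^ j ≤ n % b ^ (j + 1) := by
  rw [pow_succ, Nat.mod_mul]
  exact Nat.le_add_right _ _

section Types

variable {A S W : Type} [Monoid S] [AddCommGroup W] (f : A → S) (e : ℕ → S → W) (b m : ℕ)

def gL (P : List A) (i : ℕ) : S × W :=
  (ph f (P.take (P.length % b ^ i)), ∑ j ∈ range i, e j (ph f (bl b P j)))

def hR (Q : List A) (i : ℕ) : S × W :=
  (ph f (Q.drop (Q.length % b ^ (i + 1))), ∑ j ∈ Ico (i + 1) m, e j (ph f (bl b Q j)))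

def wt (X : List A) : W := ∑ j ∈ range m, e j (ph f (bl b X j))

theorem split_s (X : List A) (i : ℕ) :
    ph f X = (gL f e b X i).1 * ph f (bl b X i) * (hR f e b m X i).1 :=
  sg_split f X (mod_mono _ _ _)

theorem split_w (X : List A) {i : ℕ} (hi : i < m) :
    wt f e b m X = (gL f e b X i).2 + e i (ph f (bl b X i)) + (hR f e b m X i).2 := by
  unfold wt gL hR
  rw [← Finset.sum_range_succ, Finset.sum_range_add_sum_Ico _ (by omega)]

theorem gL_app {P Q : List A} {i : ℕ} (hd : b ^ i ∣ Q.length) :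
    gL f e b (P ++ Q) i = gL f e b P i := by
  unfold gL
  have h1 : ∀ j ≤ i, (P ++ Q).length % b ^ j = P.length % b ^ j := fun j hj => by
    rw [List.length_append]; exact mod_low hj hd
  rw [h1 i le_rfl, List.take_append_of_le_length (Nat.mod_le _ _)]
  congr 1
  refine Finset.sum_congr rfl fun j hj => ?_
  have hj' := mem_range.1 hj
  unfold bl
  rw [h1 j (by omega), h1 (j + 1) (by omega), sg_left (Nat.mod_le _ _)]

theorem hR_app {P Q : List A} {i M : ℕ} (hb : 0 < b) (ho : P.length < M * b ^ i)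
    (hd : b ^ i ∣ Q.length) (hdig : Q.length / b ^ i % b + M ≤ b) :
    hR f e b m (P ++ Q) i = hR f e b m Q i := by
  unfold hR
  have h1 : ∀ j, i < j → (P ++ Q).length % b ^ j = P.length + Q.length % b ^ j := fun j hj => by
    rw [List.length_append]; exact mod_high hb hj ho hd hdig
  rw [h1 (i + 1) (by omega), drop_add]
  congr 1
  refine Finset.sum_congr rfl fun j hj => ?_
  have hj' := (mem_Ico.1 hj).1
  unfold bl
  rw [h1 j (by omega), h1 (j + 1) (by omega), sg_right]

/-- right data only depend on the first `b ^ m` letters, the length and the product of the rest -/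
theorem drop_congr {Q Q' : List A} {B k : ℕ} (hk : k ≤ B) (hQ : B ≤ Q.length)
    (hQ' : B ≤ Q'.length) (ht : Q.take B = Q'.take B)
    (hp : ph f (Q.drop B) = ph f (Q'.drop B)) : ph f (Q.drop k) = ph f (Q'.drop k) := by
  have h : ∀ R : List A, B ≤ R.length → R.drop k = (R.take B).drop k ++ R.drop B := by
    intro R hR
    conv_lhs => rw [← List.take_append_drop B R]
    rw [List.drop_append_of_le_length]
    rw [List.length_take]; omega
  rw [h Q hQ, h Q' hQ', ph_append, ph_append, ht, hp]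

theorem sg_congr {Q Q' : List A} {B a c : ℕ} (hc : c ≤ B) (ht : Q.take B = Q'.take B) :
    sg Q a c = sg Q' a c := by
  have h : ∀ R : List A, sg R a c = ((R.take B).drop a).take (c - a) := by
    intro R
    unfold sg
    rw [List.drop_take, List.take_take, Nat.min_eq_left (by omega)]
  rw [h Q, h Q', ht]

end Types


/-- exponents of the block data for long words -/
theorem hR_congr {A S W : Type} [Monoid S] [AddCommGroup W] (f : A → S) (e : ℕ → S → W)
    {b m i : ℕ} (hb : 0 < b) (hi : i < m) {Q Q' : List A} (hQ : b ^ m ≤ Q.length)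
    (hQ' : b ^ m ≤ Q'.length) (ht : Q.take (b ^ m) = Q'.take (b ^ m))
    (hl : ∀ j ≤ m, Q.length % b ^ j = Q'.length % b ^ j)
    (hp : ph f (Q.drop (b ^ m)) = ph f (Q'.drop (b ^ m))) :
    hR f e b m Q i = hR f e b m Q' i := by
  have hlt : ∀ (n j : ℕ), j ≤ m → n % b ^ j ≤ b ^ m := fun n j hj =>
    (Nat.mod_lt _ (pow_pos hb j)).le.trans (Nat.pow_le_pow_right hb hj)
  unfold hR
  rw [hl (i + 1) (by omega), drop_congr f (hlt _ _ (by omega)) hQ hQ' ht hp]
  congr 1
  refine Finset.sum_congr rfl fun j hj => ?_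
  have hj' := (mem_Ico.1 hj).2
  unfold bl
  rw [hl j (by omega), hl (j + 1) (by omega), sg_congr (hlt _ _ (by omega)) ht]

theorem wt_congr {A S W : Type} [Monoid S] [AddCommGroup W] (f : A → S) (e : ℕ → S → W)
    {b m : ℕ} (hb : 0 < b) {Q Q' : List A}
    (ht : Q.take (b ^ m) = Q'.take (b ^ m))
    (hl : ∀ j ≤ m, Q.length % b ^ j = Q'.length % b ^ j) :
    wt f e b m Q = wt f e b m Q' := by
  have hlt : ∀ (n j : ℕ), j ≤ m → n % b ^ j ≤ b ^ m := fun n j hj =>
    (Nat.mod_lt _ (pow_pos hb j)).le.trans (Nat.pow_le_pow_right hb hj)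
  unfold wt
  refine Finset.sum_congr rfl fun j hj => ?_
  have hj' := mem_range.1 hj
  unfold bl
  rw [hl j (by omega), hl (j + 1) (by omega), sg_congr (hlt _ _ (by omega)) ht]

/-- the chinese remainder step inside the cell of level `i` -/
theorem cell {b M i : ℕ} (hM : 0 < M) (hco : Nat.Coprime b M) (n t : ℕ) :
    ∃ d < M, n % b ^ i + b ^ i * d ≡ t [MOD M] := by
  have hco' : Nat.Coprime (b ^ i) M := hco.pow_left i
  -- an inverse of b ^ i modulo M
  obtain ⟨u, hu⟩ : ∃ u : ℕ, b ^ i * u ≡ 1 [MOD M] := by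
    rcases Nat.eq_or_lt_of_le (Nat.succ_le_of_lt hM) with h1 | h1
    · exact ⟨0, by rw [← h1]; exact Nat.modEq_one⟩
    · obtain ⟨u, hu⟩ := Nat.exists_mul_mod_eq_one_of_coprime hco' h1
      exact ⟨u, by rw [Nat.ModEq, hu.2, Nat.mod_eq_of_lt h1]⟩
  set y := t + n % b ^ i * (M - 1) with hy
  refine ⟨(u * y) % M, Nat.mod_lt _ hM, ?_⟩
  have h1 : b ^ i * ((u * y) % M) ≡ y [MOD M] := by
    calc b ^ i * ((u * y) % M) ≡ b ^ i * (u * y) [MOD M] :=
          Nat.ModEq.mul_left _ (Nat.mod_modEq _ _)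
      _ = (b ^ i * u) * y := by ring
      _ ≡ 1 * y [MOD M] := Nat.ModEq.mul_right _ hu
      _ = y := one_mul _
  calc n % b ^ i + b ^ i * ((u * y) % M) ≡ n % b ^ i + y [MOD M] := Nat.ModEq.add_left _ h1
    _ = t + n % b ^ i * M := by
        rw [hy]
        obtain ⟨M', rfl⟩ : ∃ M', M = M' + 1 := ⟨M - 1, by omega⟩
        simp only [Nat.add_sub_cancel]
        ring
    _ ≡ t + 0 [MOD M] := Nat.ModEq.add_left _ (by
        rw [Nat.ModEq, Nat.zero_mod, Nat.mul_mod_left])
    _ = t := add_zero _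

/-- **G1.** -/
theorem g1 (S V : Type) [Monoid S] [Finite S] [AddCommGroup V] [Finite V] (act : V → S → V) :
    ∃ m r : ℕ, ∀ Bd : ℕ, ∃ (Ms : Finset ℕ) (M : ℕ), Ms.card ≤ r ∧
      (∀ k ∈ Ms, Bd < k ∧ k.Prime ∧ k ∣ M) ∧ 0 < M ∧
      ∀ b : ℕ, 4 * M + 4 < b → Nat.Coprime b M → ∀ (A : Type) (f : A → S),
        ∃ (lam rho : List A → Option V) (nu : List A → V),
          (∀ P v, lam P = some v → P.length < b ^ m) ∧
          (∀ P Q v v', lam P = some v → rho Q = some v' →
            v' = act v ((P ++ Q).map f).prod + nu (P ++ Q)) ∧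
          (∀ X : List A, (∀ k ∈ Ms, ¬ k ∣ X.length) →
            (∀ j < m, M ≤ X.length / b ^ j % b ∧ X.length / b ^ j % b + M + 1 ≤ b) →
            ∀ v, ∃ P Q, P ++ Q = X ∧ lam P = some v ∧ (rho Q).isSome) ∧
          (∀ Q Q' : List A, b ^ m ≤ Q.length → b ^ m ≤ Q'.length →
            Q.take (b ^ m) = Q'.take (b ^ m) →
            Q.length % (M * b ^ m) = Q'.length % (M * b ^ m) →
            ((Q.drop (b ^ m)).map f).prod = ((Q'.drop (b ^ m)).map f).prod →
            rho Q = rho Q' ∧ nu Q = nu Q') := by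
  classical
  cases nonempty_fintype S
  cases nonempty_fintype V
  obtain ⟨m, N, e, F, hN, hF⟩ := RandF808.exists_noise S V act
  have : NeZero N := ⟨by omega⟩
  let W : Type := ZMod N × ZMod N
  let Nm : Type := Fin m × (S × W) × (S × W) × V
  let bbz : Nm → S → V := fun c z =>
    F (c.2.1.1 * z * c.2.2.1.1) (c.2.1.2 + e c.1 z + c.2.2.1.2) +
      act c.2.2.2 (c.2.1.1 * z * c.2.2.1.1)
  let bb : Nm → V := fun c => bbz c 1
  let ok : Nm → Prop := fun c => ∀ z, bbz c z = bb c
  let vv : Nm → V := fun c => c.2.2.2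
  obtain ⟨r, hr⟩ := Names755.names Nm (V × V) (fun c => (vv c, bb c))
  refine ⟨m, r, fun Bd => ?_⟩
  obtain ⟨Ms, M, nmL, nmR, hcard, hMs, hM, hpL, hpR, hagree, hcomp, hbad⟩ := hr Bd
  refine ⟨Ms, M, hcard, hMs, hM, ?_⟩
  intro b hb hco A f
  have hb0 : 0 < b := by omega
  -- periodicity in modular form
  have hpL' : ∀ t k, nmL (t + M * k) = nmL t := by
    intro t k
    induction k with
    | zero => simp
    | succ k ih => rw [Nat.mul_succ, ← add_assoc, hpL, ih]
  have hpR' : ∀ t k, nmR (t + M * k) = nmR t := by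
    intro t k
    induction k with
    | zero => simp
    | succ k ih => rw [Nat.mul_succ, ← add_assoc, hpR, ih]
  have hmL : ∀ t, nmL t = nmL (t % M) := fun t => by
    conv_lhs => rw [← Nat.mod_add_div t M]
    rw [hpL']
  have hmR : ∀ t, nmR t = nmR (t % M) := fun t => by
    conv_lhs => rw [← Nat.mod_add_div t M]
    rw [hpR']
  let LLg : List A → Nm → Prop := fun P c => nmL P.length = some c ∧ ok c ∧
    P.length < M * b ^ (c.1 : ℕ) ∧ c.2.1 = gL f e b P c.1
  let RRg : List A → Nm → Prop := fun Q c => nmR Q.length = some c ∧ ok c ∧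
    b ^ (c.1 : ℕ) ∣ Q.length ∧ Q.length / b ^ (c.1 : ℕ) % b + M ≤ b ∧
    c.2.2.1 = hR f e b m Q c.1
  let lam : List A → Option V := fun P => if h : ∃ c, LLg P c then some (vv h.choose) else none
  let rho : List A → Option V := fun Q => if h : ∃ c, RRg Q c then some (bb h.choose) else none
  -- bad pairs
  let Bp : ℕ → Nm × Nm → Prop := fun ρ p => (∃ k ∈ Ms, k ∣ ρ) ∧
    ∃ t t', (t + t') % M = ρ % M ∧ nmL t = some p.1 ∧ nmR t' = some p.2
  let nuf : ℕ → S → W → V := fun ρ s w =>
    if h : ∃ p, Bp ρ p then bb h.choose.2 - act (vv h.choose.1) s else F s w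
  let nu : List A → V := fun X => nuf (X.length % M) (ph f X) (wt f e b m X)
  have hlamS : ∀ P v, lam P = some v → ∃ c, LLg P c ∧ vv c = v := by
    intro P v h
    simp only [lam] at h
    split_ifs at h with h1
    exact ⟨_, h1.choose_spec, by simpa using h⟩
  have hrhoS : ∀ Q v, rho Q = some v → ∃ c, RRg Q c ∧ bb c = v := by
    intro Q v h
    simp only [rho] at h
    split_ifs at h with h1
    exact ⟨_, h1.choose_spec, by simpa using h⟩
  have hlamO : ∀ P c, LLg P c → lam P = some (vv c) := by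
    intro P c h
    have h1 : ∃ c, LLg P c := ⟨c, h⟩
    have h2 : h1.choose = c := by
      have := h1.choose_spec.1.symm.trans h.1
      exact Option.some.inj this
    simp only [lam]
    rw [dif_pos h1, h2]
  have hrhoO : ∀ Q c, RRg Q c → (rho Q).isSome := by
    intro Q c h
    have h1 : ∃ c, RRg Q c := ⟨c, h⟩
    simp only [rho]
    rw [dif_pos h1]
    rfl
  have hkM : ∀ k ∈ Ms, ∀ n : ℕ, k ∣ n % M ↔ k ∣ n := fun k hk n =>
    Nat.dvd_mod_iff (hMs k hk).2.2
  -- colours of junctions with the same total modulo M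
  have hcol : ∀ t1 t1' t2 t2' c1 c1' c2 c2', (t1 + t1') % M = (t2 + t2') % M →
      (∃ k ∈ Ms, k ∣ t1 + t1') → nmL t1 = some c1 → nmR t1' = some c1' →
      nmL t2 = some c2 → nmR t2' = some c2' → (vv c1 = vv c2) ∧ (bb c1' = bb c2') := by
    intro t1 t1' t2 t2' c1 c1' c2 c2' hmod hk h1 h1' h2 h2'
    set q1 := (t1 + t1') / M
    set q2 := (t2 + t2') / M
    have e1 : (t1 + t1') % M + M * q1 = t1 + t1' := Nat.mod_add_div _ _
    have e2 : (t2 + t2') % M + M * q2 = t2 + t2' := Nat.mod_add_div _ _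
    have e3 : t1 + (t1' + M * q2) = t2 + (t2' + M * q1) := by
      have : (t1 + t1') + M * q2 = (t2 + t2') + M * q1 := by
        rw [← e1, ← e2, hmod]; ring
      omega
    obtain ⟨k, hk1, hk2⟩ := hk
    have hk3 : ∃ k ∈ Ms, k ∣ t1 + (t1' + M * q2) := by
      refine ⟨k, hk1, ?_⟩
      rw [← add_assoc]
      exact dvd_add hk2 (((hMs k hk1).2.2).mul_right _)
    have := hbad t1 (t1' + M * q2) t2 (t2' + M * q1) c1 c1' c2 c2' h1 (by rw [hpR']; exact h1')
      h2 (by rw [hpR']; exact h2') e3 hk3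
    simp only [Prod.mk.injEq] at this
    exact ⟨this.1.1, this.2.2⟩
  refine ⟨lam, rho, nu, ?_, ?_, ?_, ?_⟩
  · intro P v h
    obtain ⟨c, hc, -⟩ := hlamS P v h
    have h1 := hc.2.2.1
    calc P.length < M * b ^ (c.1 : ℕ) := h1
      _ ≤ b * b ^ (c.1 : ℕ) := Nat.mul_le_mul_right _ (by omega)
      _ = b ^ ((c.1 : ℕ) + 1) := by ring
      _ ≤ b ^ m := Nat.pow_le_pow_right hb0 c.1.2
  · intro P Q v v' hP hQ
    obtain ⟨c, hc, rfl⟩ := hlamS P v hP
    obtain ⟨c', hc', rfl⟩ := hrhoS Q v' hQ
    show bb c' = act (vv c) (ph f (P ++ Q)) + nu (P ++ Q)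
    have hlen : (P ++ Q).length = P.length + Q.length := List.length_append
    by_cases hg : ∃ k ∈ Ms, k ∣ P.length + Q.length
    · have hex : ∃ p, Bp ((P ++ Q).length % M) p := by
        refine ⟨(c, c'), ?_, P.length, Q.length, ?_, hc.1, hc'.1⟩
        · obtain ⟨k, hk1, hk2⟩ := hg
          exact ⟨k, hk1, by rw [hkM k hk1, hlen]; exact hk2⟩
        · rw [hlen, Nat.mod_mod]
      have hnu : nu (P ++ Q) = bb hex.choose.2 - act (vv hex.choose.1) (ph f (P ++ Q)) := by
        simp only [nu, nuf]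
        rw [dif_pos hex]
      obtain ⟨-, t, t', h1, h2, h3⟩ := hex.choose_spec
      have h4 := hcol P.length Q.length t t' c c' _ _ (by
        rw [h1, Nat.mod_mod, hlen]) hg hc.1 hc'.1 h2 h3
      rw [hnu, ← h4.1, ← h4.2]
      abel
    · have hnex : ¬ ∃ p, Bp ((P ++ Q).length % M) p := by
        rintro ⟨p, ⟨k, hk1, hk2⟩, -⟩
        exact hg ⟨k, hk1, by rw [hkM k hk1, hlen] at hk2; exact hk2⟩
      have hnu : nu (P ++ Q) = F (ph f (P ++ Q)) (wt f e b m (P ++ Q)) := by
        simp only [nu, nuf]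
        rw [dif_neg hnex]
      have hcc : c = c' := hagree _ _ _ _ hc.1 hc'.1 (fun k hk hd => hg ⟨k, hk, hd⟩)
      subst hcc
      obtain ⟨-, hok, ho, hgl⟩ := hc
      obtain ⟨-, -, hd, hdig, hhr⟩ := hc'
      have e1 := gL_app f e b (P := P) hd
      have e2 := hR_app f e b m (P := P) hb0 ho hd hdig
      have e3 := split_s f e b m (P ++ Q) c.1
      have e4 := split_w f e b m (P ++ Q) c.1.2
      rw [e1, e2, ← hgl, ← hhr] at e3 e4
      have h5 := hok (ph f (bl b (P ++ Q) c.1))
      rw [hnu, e3, e4, ← h5]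
      simp only [bbz, vv]
      exact add_comm _ _
  · intro X hX hdig v
    set n := X.length with hn
    obtain ⟨i, hi, hgood⟩ := hF (ph f X) (wt f e b m X) v
    let c : Nm := (⟨i, hi⟩, gL f e b X i, hR f e b m X i, v)
    have e3 := split_s f e b m X i
    have e4 := split_w f e b m X hi
    have hall : ∀ z, bbz c z = F (ph f X) (wt f e b m X) + act v (ph f X) := by
      intro z
      have := hgood (gL f e b X i).1 (ph f (bl b X i)) (hR f e b m X i).1 e3.symm z
      rw [← this]
      simp only [bbz, c]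
      congr 2
      rw [e4]
      abel
    have hok : ok c := fun z => by
      show bbz c z = bbz c 1
      rw [hall, hall]
    obtain ⟨t, ht, hL, hR'⟩ := hcomp n hX c
    obtain ⟨d, hd, hdt⟩ := cell (i := i) hM hco n t
    have hpi : 0 < b ^ i := pow_pos hb0 i
    have hni := hdig i hi
    have hdn : d ≤ n / b ^ i := by
      have := Nat.mod_le (n / b ^ i) b
      omega
    have hsum : n % b ^ i + b ^ i * d + b ^ i * (n / b ^ i - d) = n := by
      conv_rhs => rw [← Nat.mod_add_div n (b ^ i)]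
      rw [add_assoc, ← Nat.mul_add]
      congr 2
      omega
    set o := n % b ^ i + b ^ i * d with ho
    set P := X.take o with hP
    set Q := X.drop o with hQ
    have hPQ : P ++ Q = X := List.take_append_drop _ _
    have hPl : P.length = o := by rw [hP, List.length_take]; omega
    have hQl : Q.length = b ^ i * (n / b ^ i - d) := by
      rw [hQ, List.length_drop]; omega
    have hoM : P.length < M * b ^ i := by
      rw [hPl, ho]
      have h1 := Nat.mod_lt n hpi
      calc n % b ^ i + b ^ i * d < b ^ i + b ^ i * d := by omega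
        _ = (d + 1) * b ^ i := by ring
        _ ≤ M * b ^ i := Nat.mul_le_mul_right _ hd
    have hQd : b ^ i ∣ Q.length := ⟨_, hQl⟩
    have hQdig : Q.length / b ^ i % b + M ≤ b := by
      rw [hQl, Nat.mul_div_cancel_left _ hpi]
      have h1 : (n / b ^ i - d) % b = n / b ^ i % b - d := by
        have h2 : n / b ^ i - d = (n / b ^ i % b - d) + b * (n / b ^ i / b) := by
          conv_lhs => rw [← Nat.mod_add_div (n / b ^ i) b]
          omega
        rw [h2, Nat.add_mul_mod_self_left, Nat.mod_eq_of_lt]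
        have := Nat.mod_lt (n / b ^ i) hb0
        omega
      rw [h1]
      omega
    have e1 := gL_app f e b (P := P) hQd
    have e2 := hR_app f e b m (P := P) hb0 hoM hQd hQdig
    rw [hPQ] at e1 e2
    have hLL : LLg P c := by
      refine ⟨?_, hok, hoM, e1⟩
      rw [hPl, hmL]
      have : o % M = t % M := hdt
      rw [this, ← hmL]
      exact hL
    have hRR : RRg Q c := by
      refine ⟨?_, hok, hQd, hQdig, e2⟩
      apply hR'
      have h1 : o + Q.length = n := by rw [hQl]; exact hsum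
      calc t + Q.length ≡ o + Q.length [MOD M] := Nat.ModEq.add_right _ hdt.symm
        _ = n := h1
    exact ⟨P, Q, hPQ, hlamO P c hLL, hrhoO Q c hRR⟩
  · intro Q Q' hQ hQ' ht hl hp
    have hlM : Q.length % M = Q'.length % M := by
      have h1 : M ∣ M * b ^ m := Dvd.intro _ rfl
      rw [← Nat.mod_mod_of_dvd Q.length h1, hl, Nat.mod_mod_of_dvd _ h1]
    have hlj : ∀ j ≤ m, Q.length % b ^ j = Q'.length % b ^ j := fun j hj => by
      have h1 : b ^ j ∣ M * b ^ m := (pow_dvd_pow b hj).mul_left _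
      rw [← Nat.mod_mod_of_dvd Q.length h1, hl, Nat.mod_mod_of_dvd _ h1]
    have hhR : ∀ i : Fin m, hR f e b m Q i = hR f e b m Q' i := fun i =>
      hR_congr f e hb0 i.2 hQ hQ' ht hlj hp
    have hpp : ph f Q = ph f Q' := by
      have := drop_congr f (k := 0) (Nat.zero_le _) hQ hQ' ht hp
      simpa using this
    have hw := wt_congr f e (m := m) hb0 ht hlj
    constructor
    · have hdv : ∀ i : Fin m, (b ^ (i : ℕ) ∣ Q.length ↔ b ^ (i : ℕ) ∣ Q'.length) := fun i => by
        rw [Nat.dvd_iff_mod_eq_zero, Nat.dvd_iff_mod_eq_zero, hlj i (by omega)]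
      have hdg : ∀ i : Fin m, Q.length / b ^ (i : ℕ) % b = Q'.length / b ^ (i : ℕ) % b :=
        fun i => by
          have h1 : ∀ x : ℕ, x / b ^ (i : ℕ) % b = x % b ^ ((i : ℕ) + 1) / b ^ (i : ℕ) := by
            intro x
            rw [pow_succ, Nat.mod_mul_right_div_self]
          rw [h1, h1, hlj _ i.2]
      have hRR : ∀ c, RRg Q c ↔ RRg Q' c := by
        intro c
        simp only [RRg]
        rw [hmR Q.length, hmR Q'.length, hlM, hdv c.1, hdg c.1, hhR c.1]
      have hfun : RRg Q = RRg Q' := funext fun c => propext (hRR c)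
      simp only [rho]
      simp only [hfun]
    · simp only [nu]
      rw [hlM, hpp, hw]

end Crest.Agent.R320.G1_392
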