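import Mathlib
import Crest.Agent.R320.Names_755
import Crest.Agent.R320.Noise_513

/-!
# Row 320: the U-gadget on all words (852 #13483 (G1)), independent copy (helper44)

Levels = positional digits of the length, names = CRT (755), noise = 513.
-/

set_option autoImplicit false

namespace Crest.Agent.R320.G1_44

open Classical

section arith

theorem mod_small {b i o o' : ℕ} (h3 : b ^ i ∣ o') :
    ∀ j ≤ i, (o + o') % b ^ j = o % b ^ j := by
  intro j hj
  have h : b ^ j ∣ o' := (pow_dvd_pow b hj).trans h3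
  obtain ⟨k, rfl⟩ := h
  rw [Nat.add_mul_mod_self_left]

theorem add_lt {b i o o' : ℕ} (hb : 0 < b) (h2 : 2 * (o / b ^ i) < b)
    (h3 : b ^ i ∣ o') (h4 : 2 * ((o' / b ^ i) % b) < b) :
    o' % b ^ (i + 1) + o < b ^ (i + 1) := by
  have hp : 0 < b ^ i := Nat.pow_pos hb
  have e1 : o' % b ^ (i + 1) = b ^ i * (o' / b ^ i % b) := by
    rw [Nat.mod_pow_succ, Nat.mod_eq_zero_of_dvd h3, zero_add]
  have e2 : o < b ^ i * (o / b ^ i + 1) := by
    have := Nat.lt_mul_div_succ o hp
    simpa using this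
  have e3 : o / b ^ i + 1 + o' / b ^ i % b ≤ b := by omega
  calc o' % b ^ (i + 1) + o < b ^ i * (o' / b ^ i % b) + b ^ i * (o / b ^ i + 1) := by
        rw [e1]; omega
    _ = b ^ i * (o / b ^ i + 1 + o' / b ^ i % b) := by ring
    _ ≤ b ^ i * b := Nat.mul_le_mul_left _ e3
    _ = b ^ (i + 1) := (pow_succ b i).symm

theorem mod_large {b i o o' : ℕ} (hb : 0 < b) (h2 : 2 * (o / b ^ i) < b)
    (h3 : b ^ i ∣ o') (h4 : 2 * ((o' / b ^ i) % b) < b) :
    ∀ j, i < j → (o + o') % b ^ j = o + o' % b ^ j := by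
  intro j hj
  have h0 := add_lt hb h2 h3 h4
  have hD : 0 < b ^ (i + 1) := Nat.pow_pos hb
  have hdvd : b ^ (i + 1) ∣ b ^ j := pow_dvd_pow b hj
  have hB : 0 < b ^ j := Nat.pow_pos hb
  have e1 : (o' % b ^ j) % b ^ (i + 1) = o' % b ^ (i + 1) := Nat.mod_mod_of_dvd _ hdvd
  have e2 : o' % b ^ j < b ^ j := Nat.mod_lt _ hB
  obtain ⟨B', hB'⟩ := hdvd
  have e3 := Nat.div_add_mod (o' % b ^ j) (b ^ (i + 1))
  rw [e1] at e3
  have e4 : (o' % b ^ j) / b ^ (i + 1) < B' := by
    rw [Nat.div_lt_iff_lt_mul hD, mul_comm]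
    rw [hB'] at e2 ⊢
    exact e2
  have e5 : b ^ (i + 1) * ((o' % b ^ j) / b ^ (i + 1) + 1) ≤ b ^ j := by
    conv_rhs => rw [hB']
    exact Nat.mul_le_mul_left _ e4
  have e6 : o + o' % b ^ j < b ^ j := by
    rw [mul_add, mul_one] at e5
    omega
  rw [← Nat.add_mod_mod, Nat.mod_eq_of_lt e6]

theorem solve {a M : ℕ} (hM : 0 < M) (hc : Nat.Coprime a M) (β t y0 : ℕ) :
    ∃ y, y0 ≤ y ∧ y < y0 + M ∧ β + a * y ≡ t [MOD M] := by
  have : NeZero M := ⟨hM.ne'⟩
  have hu : IsUnit (a : ZMod M) := (ZMod.isUnit_iff_coprime a M).2 hc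
  obtain ⟨u, hu⟩ := hu
  let z : ZMod M := (↑u⁻¹ : ZMod M) * ((t : ZMod M) - β - a * y0)
  refine ⟨y0 + z.val, by omega, by have := ZMod.val_lt z; omega, ?_⟩
  rw [← ZMod.natCast_eq_natCast_iff]
  push_cast
  rw [ZMod.natCast_zmod_val]
  have : (a : ZMod M) * z = (t : ZMod M) - β - a * y0 := by
    simp only [z, ← hu]
    rw [← mul_assoc, Units.mul_inv, one_mul]
  rw [mul_add, this]
  ring

theorem choose_y {b M n : ℕ} (hb : 4 * M + 4 < b) (h1 : M ≤ n) (h2 : n + M + 1 ≤ b) :
    ∀ y, n - (b - 1) / 2 ≤ y → y < n - (b - 1) / 2 + M →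
      y ≤ n ∧ 2 * y < b ∧ 2 * (n - y) < b := by
  intro y h3 h4
  omega

end arith

section words

variable {A S : Type} [Monoid S] (f : A → S)

def ph (X : List A) : S := (X.map f).prod

theorem ph_append (X Y : List A) : ph f (X ++ Y) = ph f X * ph f Y := by
  simp [ph]

theorem ph_split (X : List A) (a c : ℕ) (h : a ≤ c) :
    ph f X = ph f (X.take a) * ph f ((X.take c).drop a) * ph f (X.drop c) := by
  have e1 : (X.take c).take a = X.take a := by rw [List.take_take, min_eq_left h]
  have e2 : ph f (X.take c) = ph f (X.take a) * ph f ((X.take c).drop a) := by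
    rw [← e1, ← ph_append, List.take_append_drop]
  rw [← e2, ← ph_append, List.take_append_drop]

theorem seg_left (P Q : List A) (a c : ℕ) (h : c ≤ P.length) :
    ((P ++ Q).take c).drop a = (P.take c).drop a := by
  rw [List.take_append_of_le_length h]

theorem seg_right (P Q : List A) (a c : ℕ) :
    ((P ++ Q).take (P.length + c)).drop (P.length + a) = (Q.take c).drop a := by
  rw [List.take_length_add_append, List.drop_length_add_append]

end words

section gadget

variable {A S V W : Type} [Monoid S] [AddCommGroup V] [AddCommGroup W]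
variable (f : A → S) (act : V → S → V) {m : ℕ} (e : Fin m → S → W) (F : S → W → V) (b : ℕ)

/-- the weight of block `j` -/
def E (X : List A) (j : Fin m) : W :=
  e j (ph f ((X.take (X.length % b ^ ((j : ℕ) + 1))).drop (X.length % b ^ (j : ℕ))))

def wt (X : List A) : W := ∑ j, E f e b X j

abbrev Nm (m : ℕ) (S W V : Type) : Type := Fin m × (S × W) × (S × W) × V

def val (c : Nm m S W V) (z : S) : V :=
  F (c.2.1.1 * z * c.2.2.1.1) (c.2.1.2 + e c.1 z + c.2.2.1.2) +
    act c.2.2.2 (c.2.1.1 * z * c.2.2.1.1)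

def bval (c : Nm m S W V) : V := val act e F c 1

def good (c : Nm m S W V) : Prop := ∀ z, val act e F c z = bval act e F c

def LC (c : Nm m S W V) (P : List A) : Prop :=
  good act e F c ∧ P.length < b ^ ((c.1 : ℕ) + 1) ∧ 2 * (P.length / b ^ (c.1 : ℕ)) < b ∧
    ph f (P.take (P.length % b ^ (c.1 : ℕ))) = c.2.1.1 ∧
    (∑ j, if j < c.1 then E f e b P j else 0) = c.2.1.2

def RC (c : Nm m S W V) (Q : List A) : Prop :=
  b ^ (c.1 : ℕ) ∣ Q.length ∧ 2 * ((Q.length / b ^ (c.1 : ℕ)) % b) < b ∧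
    ph f (Q.drop (Q.length % b ^ ((c.1 : ℕ) + 1))) = c.2.2.1.1 ∧
    (∑ j, if c.1 < j then E f e b Q j else 0) = c.2.2.1.2

theorem sum_split (G : Fin m → W) (i : Fin m) :
    ∑ j, G j = (∑ j, if j < i then G j else 0) + G i + ∑ j, if i < j then G j else 0 := by
  have h : ∀ j, G j = (if j < i then G j else 0) + (if j = i then G j else 0) +
      (if i < j then G j else 0) := by
    intro j
    rcases lt_trichotomy j i with h | h | h
    · simp [h, h.ne, not_lt_of_gt h]
    · simp [h]
    · simp [h, h.ne', not_lt_of_gt h]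
  calc ∑ j, G j = ∑ j, ((if j < i then G j else 0) + (if j = i then G j else 0) +
      (if i < j then G j else 0)) := Finset.sum_congr rfl fun j _ => h j
    _ = _ := by
      rw [Finset.sum_add_distrib, Finset.sum_add_distrib]
      simp

/-- a junction whose two names agree is exact -/
theorem junction (hb : 0 < b) {c : Nm m S W V} {P Q : List A} (hP : LC f act e F b c P)
    (hQ : RC f e b c Q) :
    bval act e F c = act c.2.2.2 (ph f (P ++ Q)) + F (ph f (P ++ Q)) (wt f e b (P ++ Q)) := by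
  obtain ⟨hg, h1, h2, h5, h6⟩ := hP
  obtain ⟨h3, h4, h7, h8⟩ := hQ
  have s1 := mod_small (b := b) (i := c.1) (o := P.length) (o' := Q.length) h3
  have s2 := mod_large (b := b) (i := c.1) (o := P.length) (o' := Q.length) hb h2 h3 h4
  have hlen : (P ++ Q).length = P.length + Q.length := List.length_append
  -- left boundaries
  have eL : ∀ j : Fin m, j < c.1 → E f e b (P ++ Q) j = E f e b P j := by
    intro j hj
    have hj' : (j : ℕ) < c.1 := hj
    unfold E
    rw [hlen, s1 _ hj', s1 _ (le_of_lt hj'), seg_left _ _ _ _ (Nat.mod_le _ _)]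
  have eR : ∀ j : Fin m, c.1 < j → E f e b (P ++ Q) j = E f e b Q j := by
    intro j hj
    have hj' : (c.1 : ℕ) < j := hj
    unfold E
    rw [hlen, s2 _ hj', s2 _ (Nat.lt_succ_of_lt hj'), seg_right]
  have hw : wt f e b (P ++ Q) = c.2.1.2 + E f e b (P ++ Q) c.1 + c.2.2.1.2 := by
    unfold wt
    rw [sum_split _ c.1, ← h6, ← h8]
    congr 1
    · congr 1
      refine Finset.sum_congr rfl fun j _ => ?_
      split_ifs with hj
      · exact eL j hj
      · rfl
    · refine Finset.sum_congr rfl fun j _ => ?_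
      split_ifs with hj
      · exact eR j hj
      · rfl
  set z : S := ph f (((P ++ Q).take ((P ++ Q).length % b ^ ((c.1 : ℕ) + 1))).drop
    ((P ++ Q).length % b ^ (c.1 : ℕ))) with hz
  have hle : (P ++ Q).length % b ^ (c.1 : ℕ) ≤ (P ++ Q).length % b ^ ((c.1 : ℕ) + 1) := by
    rw [hlen, s1 _ le_rfl, s2 _ (Nat.lt_add_one _)]
    exact (Nat.mod_le P.length (b ^ (c.1 : ℕ))).trans (Nat.le_add_right _ _)
  have hs : ph f (P ++ Q) = c.2.1.1 * z * c.2.2.1.1 := by
    rw [ph_split f (P ++ Q) _ _ hle, ← hz]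
    congr 1
    · congr 1
      rw [← h5, hlen, s1 _ le_rfl, List.take_append_of_le_length (Nat.mod_le _ _)]
    · rw [← h7, hlen, s2 _ (Nat.lt_add_one _), List.drop_length_add_append]
  have hE : E f e b (P ++ Q) c.1 = e c.1 z := rfl
  rw [hE] at hw
  have := hg z
  unfold val at this
  rw [← hs, ← hw] at this
  rw [← this]
  abel

end gadget

theorem g1 (S V : Type) [Monoid S] [Finite S] [AddCommGroup V] [Finite V] (act : V → S → V) :
    ∃ m r : ℕ, ∀ Bd : ℕ, ∃ (Ms : Finset ℕ) (M : ℕ), Ms.card ≤ r ∧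
      (∀ k ∈ Ms, Bd < k ∧ k.Prime ∧ k ∣ M) ∧ 0 < M ∧
      ∀ b : ℕ, 4 * M + 4 < b → Nat.Coprime b M → ∀ (A : Type) (f : A → S),
        ∃ (lam rho : List A → Option V) (nu : List A → V),
          (∀ P v, lam P = some v → P.length < b ^ m) ∧
          (∀ P Q v v', lam P = some v → rho Q = some v' →
            v' = act v ((P ++ Q).map f).prod + nu (P ++ Q)) ∧
          (∀ X : List A, (∀ k ∈ Ms, ¬ k ∣ X.length) →
            (∀ j < m, M ≤ X.length / b ^ j % b ∧ X.length / b ^ j % b + M + 1 ≤ b) →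
            ∀ v, ∃ P Q, P ++ Q = X ∧ lam P = some v ∧ (rho Q).isSome) ∧
          (∀ Q Q' : List A, b ^ m ≤ Q.length → b ^ m ≤ Q'.length →
            Q.take (b ^ m) = Q'.take (b ^ m) →
            Q.length % (M * b ^ m) = Q'.length % (M * b ^ m) →
            ((Q.drop (b ^ m)).map f).prod = ((Q'.drop (b ^ m)).map f).prod →
            rho Q = rho Q' ∧ nu Q = nu Q') := by
  obtain ⟨W, _, _, m, e, F, hF⟩ := Noise513.explicit_noise S V act
  let col : Nm m S W V → V × V := fun c => (c.2.2.2, bval act e F c)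
  obtain ⟨r, hr⟩ := Names755.names (Nm m S W V) (V × V) col
  refine ⟨m, r, fun Bd => ?_⟩
  obtain ⟨Ms, M, nmL, nmR, hc, hMs, hM, pL, pR, hag, hex, hbad⟩ := hr Bd
  refine ⟨Ms, M, hc, hMs, hM, fun b hb hcop A f => ?_⟩
  have hb0 : 0 < b := by omega
  have perL : ∀ t t', t ≡ t' [MOD M] → nmL t = nmL t' := by
    intro t t' h
    have hp : Function.Periodic nmL M := pL
    rw [← hp.map_mod_nat t, ← hp.map_mod_nat t', h]
  have perR : ∀ t t', t ≡ t' [MOD M] → nmR t = nmR t' := by
    intro t t' h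
    have hp : Function.Periodic nmR M := pR
    rw [← hp.map_mod_nat t, ← hp.map_mod_nat t', h]
  let PT : ℕ → V × V → Prop := fun T p => ∃ t t' c c', t + t' ≡ T [MOD M] ∧
    nmL t = some c ∧ nmR t' = some c' ∧ p = (c.2.2.2, bval act e F c')
  have PTmod : ∀ T T', T ≡ T' [MOD M] → PT T = PT T' := by
    intro T T' h
    funext p
    apply propext
    constructor
    · rintro ⟨t, t', c, c', h1, h2⟩
      exact ⟨t, t', c, c', h1.trans h, h2⟩
    · rintro ⟨t, t', c, c', h1, h2⟩
      exact ⟨t, t', c, c', h1.trans h.symm, h2⟩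
  have PTuniq : ∀ T p p', (∃ k ∈ Ms, k ∣ T) → PT T p → PT T p' → p = p' := by
    rintro T p p' ⟨k, hk, hkT⟩ ⟨t1, t1', c1, c1', e1, l1, r1, rfl⟩ ⟨t2, t2', c2, c2', e2, l2, r2, rfl⟩
    have key : ∀ (t1 t1' t2 t2' : ℕ) (c1 c1' c2 c2' : Nm m S W V),
        t1 + t1' ≡ T [MOD M] → t2 + t2' ≡ T [MOD M] → nmL t1 = some c1 → nmR t1' = some c1' →
        nmL t2 = some c2 → nmR t2' = some c2' → t1 + t1' ≤ t2 + t2' →
        col c1 = col c2 ∧ col c1' = col c2' := by
      intro t1 t1' t2 t2' c1 c1' c2 c2' e1 e2 l1 r1 l2 r2 hle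
      have h3 : t1 + t1' ≡ t2 + t2' [MOD M] := e1.trans e2.symm
      have h4 : M ∣ (t2 + t2') - (t1 + t1') := (Nat.modEq_iff_dvd' hle).1 h3
      obtain ⟨a, ha⟩ := h4
      have h5 : nmR (t1' + M * a) = some c1' := by
        rw [perR (t1' + M * a) t1' (by simp [Nat.ModEq]), r1]
      refine hbad t1 (t1' + M * a) t2 t2' c1 c1' c2 c2' l1 h5 l2 r2 (by omega) ⟨k, hk, ?_⟩
      have h6 : t1 + (t1' + M * a) = t2 + t2' := by omega
      rw [h6]
      have h7 : t2 + t2' ≡ T [MOD k] := e2.of_dvd (hMs k hk).2.2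
      exact (h7.dvd_iff (dvd_refl k)).2 hkT
    rcases le_total (t1 + t1') (t2 + t2') with hle | hle
    · obtain ⟨a1, a2⟩ := key t1 t1' t2 t2' c1 c1' c2 c2' e1 e2 l1 r1 l2 r2 hle
      have b1 := congrArg Prod.fst a1
      have b2 := congrArg Prod.snd a2
      simp only [col] at b1 b2
      rw [b1, b2]
    · obtain ⟨a1, a2⟩ := key t2 t2' t1 t1' c2 c2' c1 c1' e2 e1 l2 r2 l1 r1 hle
      have b1 := congrArg Prod.fst a1
      have b2 := congrArg Prod.snd a2
      simp only [col] at b1 b2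
      rw [b1, b2]
  let cp : ℕ → V × V := fun T => if h : ∃ p, PT T p then h.choose else 0
  have cpmod : ∀ T T', T ≡ T' [MOD M] → cp T = cp T' := by
    intro T T' h
    simp only [cp, PTmod T T' h]
  let lam : List A → Option V := fun P =>
    (nmL P.length).bind fun c => if LC f act e F b c P then some c.2.2.2 else none
  let rho : List A → Option V := fun Q =>
    (nmR Q.length).bind fun c => if RC f e b c Q then some (bval act e F c) else none
  let nu : List A → V := fun X =>
    if ∃ k ∈ Ms, k ∣ X.length then (cp X.length).2 - act (cp X.length).1 (ph f X)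
    else F (ph f X) (wt f e b X)
  have lam_iff : ∀ P v, lam P = some v ↔ ∃ c, nmL P.length = some c ∧ LC f act e F b c P ∧
      c.2.2.2 = v := by
    intro P v
    simp only [lam, Option.bind_eq_some_iff]
    constructor
    · rintro ⟨c, h1, h2⟩
      split_ifs at h2 with h3
      exact ⟨c, h1, h3, by simpa using h2⟩
    · rintro ⟨c, h1, h2, h3⟩
      exact ⟨c, h1, by rw [if_pos h2, h3]⟩
  have rho_iff : ∀ Q v, rho Q = some v ↔ ∃ c, nmR Q.length = some c ∧ RC f e b c Q ∧
      bval act e F c = v := by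
    intro P v
    simp only [rho, Option.bind_eq_some_iff]
    constructor
    · rintro ⟨c, h1, h2⟩
      split_ifs at h2 with h3
      exact ⟨c, h1, h3, by simpa using h2⟩
    · rintro ⟨c, h1, h2, h3⟩
      exact ⟨c, h1, by rw [if_pos h2, h3]⟩
  refine ⟨lam, rho, nu, ?_, ?_, ?_, ?_⟩
  · intro P v h
    obtain ⟨c, -, h2, -⟩ := (lam_iff P v).1 h
    exact lt_of_lt_of_le h2.2.1 (Nat.pow_le_pow_right hb0 c.1.2)
  · intro P Q v v' hl hr
    obtain ⟨c, l1, l2, rfl⟩ := (lam_iff P v).1 hl
    obtain ⟨c', r1, r2, rfl⟩ := (rho_iff Q v').1 hr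
    show _ = act _ (ph f (P ++ Q)) + nu (P ++ Q)
    by_cases hk : ∃ k ∈ Ms, k ∣ (P ++ Q).length
    · simp only [nu, if_pos hk]
      have hPT : PT (P ++ Q).length (c.2.2.2, bval act e F c') :=
        ⟨P.length, Q.length, c, c', by rw [List.length_append], l1, r1, rfl⟩
      have hcp : cp (P ++ Q).length = (c.2.2.2, bval act e F c') := by
        have hx : ∃ p, PT (P ++ Q).length p := ⟨_, hPT⟩
        simp only [cp, dif_pos hx]
        exact PTuniq _ _ _ hk hx.choose_spec hPT
      rw [hcp]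
      simp
    · simp only [nu, if_neg hk]
      have hcc : c = c' := by
        refine hag P.length Q.length c c' l1 r1 fun k hk1 hk2 => hk ⟨k, hk1, ?_⟩
        rw [List.length_append]; exact hk2
      subst hcc
      exact junction f act e F b hb0 l2 r2
  · intro X hX hdig v
    obtain ⟨i, hi⟩ := hF (ph f X) (wt f e b X) v
    set n := X.length with hn
    set β := n % b ^ (i : ℕ) with hβ
    set β' := n % b ^ ((i : ℕ) + 1) with hβ'
    have hbi : 0 < b ^ (i : ℕ) := Nat.pow_pos hb0
    have hββ' : β' = β + b ^ (i : ℕ) * (n / b ^ (i : ℕ) % b) := Nat.mod_pow_succ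
    have hle : β ≤ β' := by rw [hββ']; exact Nat.le_add_right _ _
    set z0 : S := ph f ((X.take β').drop β) with hz0
    let c : Nm m S W V := (i, (ph f (X.take β), ∑ j, if j < i then E f e b X j else 0),
      (ph f (X.drop β'), ∑ j, if i < j then E f e b X j else 0), v)
    have hs : ph f X = c.2.1.1 * z0 * c.2.2.1.1 := ph_split f X β β' hle
    have hw : wt f e b X = c.2.1.2 + e i z0 + c.2.2.1.2 := sum_split _ i
    have hgood : good act e F c := by
      have h1 : ∀ z, val act e F c z = F (ph f X) (wt f e b X) + act v (ph f X) := by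
        intro z
        have := hi c.2.1.1 z0 c.2.2.1.1 hs.symm z
        rw [← this]
        have h2 : wt f e b X - e i z0 + e i z = c.2.1.2 + e i z + c.2.2.1.2 := by
          rw [hw]; abel
        rw [h2]
        rfl
      intro z
      rw [bval, h1 z, h1 1]
    obtain ⟨t, ht, tL, tR⟩ := hex n hX c
    obtain ⟨d1, d2⟩ := hdig i i.2
    set d := n / b ^ (i : ℕ) % b with hd
    obtain ⟨y, y1, y2, y3⟩ := solve hM (Nat.Coprime.pow_left (i : ℕ) hcop) β t (d - (b - 1) / 2)
    obtain ⟨z1, z2, z3⟩ := choose_y hb d1 d2 y y1 y2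
    set o := β + b ^ (i : ℕ) * y with ho
    have hoβ' : o ≤ β' := by
      rw [hββ', ho]
      exact Nat.add_le_add_left (Nat.mul_le_mul_left _ z1) _
    have hβ'n : β' ≤ n := Nat.mod_le _ _
    have hon : o ≤ n := hoβ'.trans hβ'n
    have hβlt : β < b ^ (i : ℕ) := Nat.mod_lt _ hbi
    have hodiv : o / b ^ (i : ℕ) = y := by
      rw [ho, Nat.add_mul_div_left _ _ hbi, Nat.div_eq_of_lt hβlt, zero_add]
    have homod : o % b ^ (i : ℕ) = β := by
      rw [ho, Nat.add_mul_mod_self_left, Nat.mod_eq_of_lt hβlt]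
    have hβ'lt : β' < b ^ ((i : ℕ) + 1) := Nat.mod_lt _ (Nat.pow_pos hb0)
    have holt : o < b ^ ((i : ℕ) + 1) := lt_of_le_of_lt hoβ' hβ'lt
    -- the right clock
    have hn1 : n = β' + b ^ ((i : ℕ) + 1) * (n / b ^ ((i : ℕ) + 1)) := by
      have := Nat.mod_add_div n (b ^ ((i : ℕ) + 1)); omega
    have hno : n - o = b ^ (i : ℕ) * ((d - y) + b * (n / b ^ ((i : ℕ) + 1))) := by
      have h1 : b ^ (i : ℕ) * d = b ^ (i : ℕ) * y + b ^ (i : ℕ) * (d - y) := by
        rw [← mul_add]; congr 1; omega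
      have h2 : b ^ ((i : ℕ) + 1) * (n / b ^ ((i : ℕ) + 1)) =
          b ^ (i : ℕ) * (b * (n / b ^ ((i : ℕ) + 1))) := by rw [pow_succ, mul_assoc]
      rw [mul_add, ← h2]
      rw [ho]
      conv_lhs => rw [hn1, hββ', h1]
      omega
    have hdvd : b ^ (i : ℕ) ∣ n - o := ⟨_, hno⟩
    have hdy : (n - o) / b ^ (i : ℕ) % b = d - y := by
      rw [hno, Nat.mul_div_cancel_left _ hbi, Nat.add_mul_mod_self_left]
      apply Nat.mod_eq_of_lt
      have : d < b := Nat.mod_lt _ hb0
      omega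
    have hPl : (X.take o).length = o := by rw [List.length_take, ← hn]; omega
    have hQl : (X.drop o).length = n - o := by rw [List.length_drop]
    have hPQ : X.take o ++ X.drop o = X := List.take_append_drop _ _
    have hlenPQ : o + (n - o) = n := by omega
    have s1 := mod_small (b := b) (i := (i : ℕ)) (o := o) (o' := n - o) hdvd
    have s2 := mod_large (b := b) (i := (i : ℕ)) (o := o) (o' := n - o) hb0
      (by rw [hodiv]; exact z2) hdvd (by rw [hdy]; exact z3)
    rw [hlenPQ] at s1 s2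
    refine ⟨X.take o, X.drop o, hPQ, (lam_iff _ _).2 ⟨c, ?_, ?_, rfl⟩, ?_⟩
    · rw [hPl, perL o t (by rw [ho]; exact y3)]
      exact tL
    · refine ⟨hgood, ?_, ?_, ?_, ?_⟩
      · rw [hPl]; exact holt
      · rw [hPl]
        show 2 * (o / b ^ (i : ℕ)) < b
        rw [hodiv]; exact z2
      · rw [hPl]
        show ph f ((X.take o).take (o % b ^ (i : ℕ))) = ph f (X.take β)
        rw [homod, List.take_take, min_eq_left (by rw [ho]; exact Nat.le_add_right _ _)]
      · show (∑ j, if j < i then E f e b (X.take o) j else 0) =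
          ∑ j, if j < i then E f e b X j else 0
        refine Finset.sum_congr rfl fun j _ => ?_
        split_ifs with hj
        · have hj' : (j : ℕ) < i := hj
          unfold E
          rw [hPl, ← hn, s1 _ hj', s1 _ (le_of_lt hj')]
          rw [List.take_take, min_eq_left (Nat.mod_le _ _)]
        · rfl
    · have hRC : RC f e b c (X.drop o) := by
        refine ⟨?_, ?_, ?_, ?_⟩
        · rw [hQl]; exact hdvd
        · rw [hQl]
          show 2 * ((n - o) / b ^ (i : ℕ) % b) < b
          rw [hdy]; exact z3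
        · rw [hQl]
          show ph f ((X.drop o).drop ((n - o) % b ^ ((i : ℕ) + 1))) = ph f (X.drop β')
          rw [List.drop_drop, ← s2 _ (Nat.lt_add_one _)]
        · show (∑ j, if i < j then E f e b (X.drop o) j else 0) =
            ∑ j, if i < j then E f e b X j else 0
          refine Finset.sum_congr rfl fun j _ => ?_
          split_ifs with hj
          · have hj' : (i : ℕ) < j := hj
            unfold E
            rw [hQl, ← hn, s2 _ hj', s2 _ (Nat.lt_succ_of_lt hj')]
            congr 2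
            conv_rhs => rw [← hPQ]
            have := seg_right (X.take o) (X.drop o) ((n - o) % b ^ (j : ℕ))
              ((n - o) % b ^ ((j : ℕ) + 1))
            rw [hPl] at this
            exact this.symm
          · rfl
      have hnm : nmR (X.drop o).length = some c := by
        rw [hQl]
        apply tR
        have h1 : t + (n - o) ≡ o + (n - o) [MOD M] :=
          Nat.ModEq.add_right _ (by rw [ho]; exact y3.symm)
        rw [hlenPQ] at h1
        exact h1
      have : rho (X.drop o) = some (bval act e F c) := (rho_iff _ _).2 ⟨c, hnm, hRC, rfl⟩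
      rw [this]; rfl
  · intro Q Q' hQ hQ' ht hl hp
    have hMl : Q.length ≡ Q'.length [MOD M] :=
      Nat.ModEq.of_dvd (dvd_mul_right M (b ^ m)) hl
    have hbl : ∀ j ≤ m, Q.length % b ^ j = Q'.length % b ^ j := by
      intro j hj
      exact Nat.ModEq.of_dvd ((pow_dvd_pow b hj).trans (dvd_mul_left (b ^ m) M)) hl
    have hmodle : ∀ j ≤ m, ∀ x, x % b ^ j ≤ b ^ m := fun j hj x =>
      (Nat.mod_lt x (Nat.pow_pos hb0)).le.trans (Nat.pow_le_pow_right hb0 hj)
    have hE : ∀ j : Fin m, E f e b Q j = E f e b Q' j := by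
      intro j
      have hj : (j : ℕ) + 1 ≤ m := j.2
      unfold E
      rw [hbl _ hj, hbl _ (Nat.le_of_succ_le hj)]
      have h1 : ∀ X : List A, X.take (Q'.length % b ^ ((j : ℕ) + 1)) =
          (X.take (b ^ m)).take (Q'.length % b ^ ((j : ℕ) + 1)) := by
        intro X
        rw [List.take_take, min_eq_left (hmodle _ hj _)]
      rw [h1 Q, h1 Q', ht]
    have hdrop : ∀ (X : List A), b ^ m ≤ X.length → ∀ a ≤ b ^ m,
        ph f (X.drop a) = ph f ((X.take (b ^ m)).drop a) * ph f (X.drop (b ^ m)) := by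
      intro X hX a ha
      conv_lhs => rw [← List.take_append_drop (b ^ m) X]
      rw [List.drop_append_of_le_length (by rw [List.length_take]; omega), ph_append]
    have hphd : ∀ a ≤ b ^ m, ph f (Q.drop a) = ph f (Q'.drop a) := by
      intro a ha
      rw [hdrop Q hQ a ha, hdrop Q' hQ' a ha, ht]
      congr 1
    have hph : ph f Q = ph f Q' := by simpa using hphd 0 (Nat.zero_le _)
    have hRC : ∀ c : Nm m S W V, RC f e b c Q ↔ RC f e b c Q' := by
      intro c
      have hc1 : (c.1 : ℕ) + 1 ≤ m := c.1.2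
      have hc0 : (c.1 : ℕ) ≤ m := Nat.le_of_succ_le hc1
      have g1 : b ^ (c.1 : ℕ) ∣ Q.length ↔ b ^ (c.1 : ℕ) ∣ Q'.length := by
        rw [Nat.dvd_iff_mod_eq_zero, Nat.dvd_iff_mod_eq_zero, hbl _ hc0]
      have g2 : Q.length / b ^ (c.1 : ℕ) % b = Q'.length / b ^ (c.1 : ℕ) % b := by
        have h1 := hbl _ hc1
        rw [Nat.mod_pow_succ, Nat.mod_pow_succ, hbl _ hc0] at h1
        exact Nat.eq_of_mul_eq_mul_left (Nat.pow_pos hb0) (Nat.add_left_cancel h1)
      have g3 : ph f (Q.drop (Q.length % b ^ ((c.1 : ℕ) + 1))) =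
          ph f (Q'.drop (Q'.length % b ^ ((c.1 : ℕ) + 1))) := by
        rw [hbl _ hc1]
        exact hphd _ (hmodle _ hc1 _)
      have g4 : (∑ j, if c.1 < j then E f e b Q j else 0) =
          ∑ j, if c.1 < j then E f e b Q' j else 0 :=
        Finset.sum_congr rfl fun j _ => by rw [hE j]
      unfold RC
      rw [g1, g2, g3, g4]
    constructor
    · have h1 : nmR Q.length = nmR Q'.length := perR _ _ hMl
      simp only [rho, h1]
      congr 1
      funext c
      by_cases h : RC f e b c Q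
      · rw [if_pos h, if_pos ((hRC c).1 h)]
      · rw [if_neg h, if_neg (fun h' => h ((hRC c).2 h'))]
    · have hk : (∃ k ∈ Ms, k ∣ Q.length) ↔ ∃ k ∈ Ms, k ∣ Q'.length := by
        constructor
        · rintro ⟨k, h1, h2⟩
          exact ⟨k, h1, ((Nat.ModEq.of_dvd (hMs k h1).2.2 hMl).dvd_iff (dvd_refl k)).1 h2⟩
        · rintro ⟨k, h1, h2⟩
          exact ⟨k, h1, ((Nat.ModEq.of_dvd (hMs k h1).2.2 hMl).dvd_iff (dvd_refl k)).2 h2⟩
      have hwt : wt f e b Q = wt f e b Q' := Finset.sum_congr rfl fun j _ => hE j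
      simp only [nu]
      by_cases h : ∃ k ∈ Ms, k ∣ Q.length
      · rw [if_pos h, if_pos (hk.1 h), cpmod _ _ hMl, hph]
      · rw [if_neg h, if_neg (fun h' => h (hk.2 h')), hph, hwt]

end Crest.Agent.R320.G1_44
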