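import Mathlib
import Crest.Agent.R320.Noise_513

/-!
Row 320, leaf U3 of helper638 (post 13273): the unknown-length gadget on all words from a clock
system and the explicit noise.
-/

set_option autoImplicit false
set_option linter.unusedSectionVars false

namespace Crest.Agent.R320.UG503

open Finset

/-- the factor `[a, b)`. -/
def seg {α : Type*} (Y : List α) (a b : ℕ) : List α := (Y.drop a).take (b - a)

theorem seg_left {α : Type*} {P Q : List α} {a b : ℕ} (hab : a ≤ b) (hb : b ≤ P.length) :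
    seg (P ++ Q) a b = seg P a b := by
  unfold seg
  rw [List.drop_append_of_le_length (by omega),
    List.take_append_of_le_length (by rw [List.length_drop]; omega)]

theorem seg_right {α : Type*} {P Q : List α} {a b : ℕ} :
    seg (P ++ Q) (P.length + a) (P.length + b) = seg Q a b := by
  unfold seg
  have h : (P ++ Q).drop (P.length + a) = Q.drop a := by simp [List.drop_append]
  rw [h, Nat.add_sub_add_left]

theorem seg_split {α : Type*} {Y : List α} {a b : ℕ} (hab : a ≤ b) :
    Y.take a ++ seg Y a b ++ Y.drop b = Y := by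
  have : Y.drop b = (Y.drop a).drop (b - a) := by
    rw [List.drop_drop]; congr 1; omega
  unfold seg
  rw [this, List.append_assoc, List.take_append_drop, List.take_append_drop]

section

variable {S V W : Type} [Monoid S] [AddCommGroup V] [AddCommGroup W]
  (m : ℕ) (e : ℕ → S → W) (F : S → W → V) (act : V → S → V)

/-- names -/
abbrev Nm (m : ℕ) (S V W : Type) := Fin m × S × W × S × W × V

/-- end value of a name -/
def val (c : Nm m S V W) : V :=
  F (c.2.1 * 1 * c.2.2.2.1) (c.2.2.1 + e c.1 1 + c.2.2.2.2.1) + act c.2.2.2.2.2 (c.2.1 * 1 * c.2.2.2.1)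

/-- good names: the content of the hole does not matter -/
def ok (c : Nm m S V W) : Prop :=
  ∀ z, F (c.2.1 * z * c.2.2.2.1) (c.2.2.1 + e c.1 z + c.2.2.2.2.1) +
    act c.2.2.2.2.2 (c.2.1 * z * c.2.2.2.1) = val m e F act c

/-- good names as a type -/
abbrev Gam := {c : Nm m S V W // ok m e F act c}

end

section core

variable {α : Type*} {S V W : Type} [Monoid S] [AddCommGroup V] [AddCommGroup W]

/-- left condition of a name for a word of comb length `t` -/
def CL (φ : List α → S) (e : ℕ → S → W) (Mp : ℕ) (b : ℕ → ℕ) (i : ℕ) (g : S) (wl : W)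
    (p : List α) : Prop :=
  φ (p.take (Mp * b i)) = g ∧
    ∑ l ∈ range i, e l (φ (seg p (Mp * b l) (Mp * b (l + 1)))) = wl

/-- right condition -/
def CR (φ : List α → S) (e : ℕ → S → W) (m Mp : ℕ) (t' : ℕ) (b : ℕ → ℕ) (i : ℕ) (h : S) (wr : W)
    (q : List α) : Prop :=
  φ (q.drop (Mp * (t' - b (i + 1)))) = h ∧
    ∑ l ∈ Ico (i + 1) m, e l (φ (seg q (Mp * (t' - b l)) (Mp * (t' - b (l + 1))))) = wr

/-- reading at a junction -/
theorem read (φ : List α → S) (hφ : ∀ u v, φ (u ++ v) = φ u * φ v) (e : ℕ → S → W)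
    (m Mp t t' : ℕ) (be bL bR : ℕ → ℕ) (i : ℕ) (him : i < m) (p q : List α)
    (hp : p.length = Mp * t) (hmono : ∀ l < m, be l ≤ be (l + 1))
    (h1 : ∀ l ≤ i, bL l = be l) (h2 : ∀ l, i < l → l ≤ m → bR l + be l = t + t')
    (h3 : be i ≤ t) (h4 : t ≤ be (i + 1)) :
    φ (p ++ q) = φ (p.take (Mp * bL i)) * φ (seg (p ++ q) (Mp * be i) (Mp * be (i + 1))) *
      φ (q.drop (Mp * (t' - bR (i + 1)))) ∧
    ∑ l ∈ range m, e l (φ (seg (p ++ q) (Mp * be l) (Mp * be (l + 1)))) =
      ∑ l ∈ range i, e l (φ (seg p (Mp * bL l) (Mp * bL (l + 1)))) +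
      e i (φ (seg (p ++ q) (Mp * be i) (Mp * be (i + 1)))) +
      ∑ l ∈ Ico (i + 1) m, e l (φ (seg q (Mp * (t' - bR l)) (Mp * (t' - bR (l + 1))))) := by
  have hm2 : ∀ l k, l ≤ k → k ≤ m → be l ≤ be k := by
    intro l k hlk hkm
    induction k, hlk using Nat.le_induction with
    | base => exact le_rfl
    | succ k hk ih => exact (ih (by omega)).trans (hmono k (by omega))
  have hR : ∀ l, i < l → l ≤ m → Mp * be l = p.length + Mp * (t' - bR l) := by
    intro l hl hlm
    have h5 := h2 l hl hlm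
    have h6 : t ≤ be l := h4.trans (hm2 (i + 1) l hl hlm)
    have h7 : be l = t + (t' - bR l) := by omega
    rw [hp, ← mul_add, ← h7]
  constructor
  · have h5 : Mp * be i ≤ Mp * be (i + 1) := Nat.mul_le_mul_left _ (h3.trans h4)
    have h6 := seg_split (Y := p ++ q) h5
    conv_lhs => rw [← h6]
    rw [hφ, hφ]
    have h7 : (p ++ q).take (Mp * be i) = p.take (Mp * bL i) := by
      rw [h1 i le_rfl, List.take_append_of_le_length (by rw [hp]; exact Nat.mul_le_mul_left _ h3)]
    have h8 : (p ++ q).drop (Mp * be (i + 1)) = q.drop (Mp * (t' - bR (i + 1))) := by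
      rw [hR (i + 1) (Nat.lt_succ_self i) him]
      simp [List.drop_append]
    rw [h7, h8]
  · rw [← Finset.sum_range_add_sum_Ico _ (show i + 1 ≤ m from him), Finset.sum_range_succ]
    congr 1
    · congr 1
      refine Finset.sum_congr rfl fun l hl => ?_
      have hl' := Finset.mem_range.1 hl
      rw [h1 l hl'.le, h1 (l + 1) hl']
      rw [seg_left (Nat.mul_le_mul_left _ (hmono l (by omega)))]
      rw [hp]
      exact Nat.mul_le_mul_left _ ((hm2 (l + 1) i hl' him.le).trans h3)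
    · refine Finset.sum_congr rfl fun l hl => ?_
      obtain ⟨hl1, hl2⟩ := Finset.mem_Ico.1 hl
      rw [hR l (by omega) (by omega), hR (l + 1) (by omega) (by omega), seg_right]

/-- **core of U3** -/
theorem core (φ : List α → S) (hφ : ∀ u v, φ (u ++ v) = φ u * φ v) (act : V → S → V)
    (m : ℕ) (e : ℕ → S → W) (F : S → W → V)
    (hF : ∀ s w v, ∃ i < m, ∀ g x h, g * x * h = s → ∀ z,
      F (g * z * h) (w - e i x + e i z) + act v (g * z * h) = F s w + act v s)
    (Mp : ℕ) (hMp : 0 < Mp)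
    (nmL nmR : ℕ → Option (Gam m e F act)) (bL bR be : ℕ → ℕ → ℕ) (Gd Ok : ℕ → Prop)
    (hmono : ∀ n, ∀ l < m, be n l ≤ be n (l + 1))
    (hGd : ∀ t t' γ γ', Gd (t + t') → nmL t = some γ → nmR t' = some γ' →
      γ = γ' ∧ (∀ l ≤ (γ.1.1 : ℕ), bL t l = be (t + t') l) ∧
      (∀ l, (γ.1.1 : ℕ) < l → l ≤ m → bR t' l + be (t + t') l = t + t') ∧
      be (t + t') γ.1.1 ≤ t ∧ t ≤ be (t + t') (γ.1.1 + 1))
    (hbad : ∀ t₁ t₁' t₂ t₂' γ₁ γ₁' γ₂ γ₂', ¬ Gd (t₁ + t₁') → t₁ + t₁' = t₂ + t₂' →
      nmL t₁ = some γ₁ → nmR t₁' = some γ₁' → nmL t₂ = some γ₂ → nmR t₂' = some γ₂' →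
      γ₁.1.2.2.2.2.2 = γ₂.1.2.2.2.2.2 ∧ val m e F act γ₁'.1 = val m e F act γ₂'.1)
    (hcomp : ∀ n, Ok n → Gd n ∧ ∀ γ, ∃ t t', t + t' = n ∧ nmL t = some γ ∧ nmR t' = some γ) :
    ∃ (lam rho : List α → Option V) (nu : List α → V),
      (∀ p v, lam p = some v → Mp ∣ p.length ∧ ∃ γ, nmL (p.length / Mp) = some γ) ∧
      (∀ q r, rho q = some r → ∃ γ, nmR (q.length / Mp) = some γ) ∧
      (∀ p q v r, lam p = some v → rho q = some r →
        r = act v (φ (p ++ q)) + nu (p ++ q)) ∧
      (∀ u : List α, Ok (u.length / Mp) → ∀ v, ∃ p q, p ++ q = u ∧ lam p = some v ∧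
        (rho q).isSome) := by
  classical
  -- labels
  let lam : List α → Option V := fun p =>
    if h : Mp ∣ p.length ∧ ∃ γ, nmL (p.length / Mp) = some γ ∧
        CL φ e Mp (bL (p.length / Mp)) γ.1.1 γ.1.2.1 γ.1.2.2.1 p then
      some h.2.choose.1.2.2.2.2.2 else none
  let rho : List α → Option V := fun q =>
    if h : ∃ γ, nmR (q.length / Mp) = some γ ∧
        CR φ e m Mp (q.length / Mp) (bR (q.length / Mp)) γ.1.1 γ.1.2.2.2.1 γ.1.2.2.2.2.1 q then
      some (val m e F act h.choose.1) else none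
  have hlam : ∀ p v, lam p = some v → Mp ∣ p.length ∧ ∃ γ, nmL (p.length / Mp) = some γ ∧
      CL φ e Mp (bL (p.length / Mp)) γ.1.1 γ.1.2.1 γ.1.2.2.1 p ∧ v = γ.1.2.2.2.2.2 := by
    intro p v h
    simp only [lam] at h
    split_ifs at h with h1
    have h2 := h1.2.choose_spec
    rw [Option.some.injEq] at h
    exact ⟨h1.1, _, h2.1, h2.2, h.symm⟩
  have hrho : ∀ q r, rho q = some r → ∃ γ, nmR (q.length / Mp) = some γ ∧
      CR φ e m Mp (q.length / Mp) (bR (q.length / Mp)) γ.1.1 γ.1.2.2.2.1 γ.1.2.2.2.2.1 q ∧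
      r = val m e F act γ.1 := by
    intro q r h
    simp only [rho] at h
    split_ifs at h with h1
    have h2 := h1.choose_spec
    rw [Option.some.injEq] at h
    exact ⟨_, h2.1, h2.2, h.symm⟩
  have hlam' : ∀ p γ, Mp ∣ p.length → nmL (p.length / Mp) = some γ →
      CL φ e Mp (bL (p.length / Mp)) γ.1.1 γ.1.2.1 γ.1.2.2.1 p → lam p = some γ.1.2.2.2.2.2 := by
    intro p γ h1 h2 h3
    have hex : Mp ∣ p.length ∧ ∃ γ, nmL (p.length / Mp) = some γ ∧
        CL φ e Mp (bL (p.length / Mp)) γ.1.1 γ.1.2.1 γ.1.2.2.1 p := ⟨h1, γ, h2, h3⟩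
    simp only [lam]
    rw [dif_pos hex]
    have h5 : γ = hex.2.choose := Option.some.inj (h2.symm.trans hex.2.choose_spec.1)
    exact (congrArg (fun δ : Gam m e F act => some δ.1.2.2.2.2.2) h5).symm
  have hrho' : ∀ q γ, nmR (q.length / Mp) = some γ →
      CR φ e m Mp (q.length / Mp) (bR (q.length / Mp)) γ.1.1 γ.1.2.2.2.1 γ.1.2.2.2.2.1 q →
      (rho q).isSome := by
    intro q γ h2 h3
    have hex : ∃ γ, nmR (q.length / Mp) = some γ ∧
        CR φ e m Mp (q.length / Mp) (bR (q.length / Mp)) γ.1.1 γ.1.2.2.2.1 γ.1.2.2.2.2.1 q :=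
      ⟨γ, h2, h3⟩
    simp only [rho]
    rw [dif_pos hex]
    rfl
  have hn3 : ∀ T, ∃ v0 r0 : V, ¬ Gd T → ∀ t t' γ γ', t + t' = T → nmL t = some γ →
      nmR t' = some γ' → γ.1.2.2.2.2.2 = v0 ∧ val m e F act γ'.1 = r0 := by
    intro T
    by_cases h : ∃ t t' γ γ', t + t' = T ∧ nmL t = some γ ∧ nmR t' = some γ'
    · obtain ⟨t, t', γ, γ', h1, h2, h3⟩ := h
      refine ⟨γ.1.2.2.2.2.2, val m e F act γ'.1, fun hG s s' δ δ' a1 a2 a3 => ?_⟩
      exact hbad s s' t t' δ δ' γ γ' (by rw [a1]; exact hG) (by rw [a1, h1]) a2 a3 h2 h3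
    · exact ⟨0, 0, fun _ t t' γ γ' a1 a2 a3 => absurd ⟨t, t', γ, γ', a1, a2, a3⟩ h⟩
  choose v0 r0 h0 using hn3
  refine ⟨lam, rho, fun u => if Gd (u.length / Mp) then
      F (φ u) (∑ l ∈ range m, e l (φ (seg u (Mp * be (u.length / Mp) l)
        (Mp * be (u.length / Mp) (l + 1)))))
      else r0 (u.length / Mp) - act (v0 (u.length / Mp)) (φ u), ?_, ?_, ?_, ?_⟩
  · intro p v h
    obtain ⟨h1, γ, h2, -, -⟩ := hlam p v h
    exact ⟨h1, γ, h2⟩
  · intro q r h
    obtain ⟨γ, h2, -, -⟩ := hrho q r h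
    exact ⟨γ, h2⟩
  · intro p q v r hp hq
    obtain ⟨⟨t, ht⟩, γ, a1, a2, rfl⟩ := hlam p v hp
    obtain ⟨γ', b1, b2, rfl⟩ := hrho q r hq
    have hpt : p.length / Mp = t := by rw [ht]; exact Nat.mul_div_cancel_left _ hMp
    have hcl : (p ++ q).length / Mp = t + q.length / Mp := by
      rw [List.length_append, ht, Nat.mul_add_div hMp]
    beta_reduce
    rw [hcl]
    rw [hpt] at a1 a2
    by_cases hg : Gd (t + q.length / Mp)
    · rw [if_pos hg]
      obtain ⟨c1, c2, c3, c4, c5⟩ := hGd _ _ _ _ hg a1 b1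
      subst c1
      obtain ⟨e1, e2⟩ := read φ hφ e m Mp t (q.length / Mp) (be (t + q.length / Mp)) (bL t)
        (bR (q.length / Mp)) γ.1.1 γ.1.1.2 p q ht (hmono _) c2 c3 c4 c5
      have hok := γ.2 (φ (seg (p ++ q) (Mp * be (t + q.length / Mp) γ.1.1)
        (Mp * be (t + q.length / Mp) (γ.1.1 + 1))))
      rw [e1, e2, a2.1, a2.2, b2.1, b2.2, ← hok, add_comm]
    · rw [if_neg hg]
      obtain ⟨q1, q2⟩ := h0 _ hg _ _ _ _ rfl a1 b1
      rw [← q1, ← q2]
      abel
  · intro u hu v
    obtain ⟨hg, hav⟩ := hcomp _ hu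
    set T := u.length / Mp with hT
    obtain ⟨i, him, hi⟩ := hF (φ u) (∑ l ∈ range m, e l (φ (seg u (Mp * be T l)
        (Mp * be T (l + 1))))) v
    set z0 := φ (seg u (Mp * be T i) (Mp * be T (i + 1))) with hz0
    set g := φ (u.take (Mp * be T i)) with hgd
    set h := φ (u.drop (Mp * be T (i + 1))) with hhd
    set wl := ∑ l ∈ range i, e l (φ (seg u (Mp * be T l) (Mp * be T (l + 1)))) with hwl
    set wr := ∑ l ∈ Ico (i + 1) m, e l (φ (seg u (Mp * be T l) (Mp * be T (l + 1)))) with hwr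
    have hs : g * z0 * h = φ u := by
      have h6 := seg_split (Y := u) (Nat.mul_le_mul_left Mp (hmono T i him))
      conv_rhs => rw [← h6]
      rw [hφ, hφ]
    have hw : ∑ l ∈ range m, e l (φ (seg u (Mp * be T l) (Mp * be T (l + 1)))) =
        wl + e i z0 + wr := by
      rw [← Finset.sum_range_add_sum_Ico _ (show i + 1 ≤ m from him), Finset.sum_range_succ]
    have hall : ∀ z, F (g * z * h) (wl + e i z + wr) + act v (g * z * h) =
        F (φ u) (wl + e i z0 + wr) + act v (φ u) := by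
      intro z
      have h7 := hi g z0 h hs z
      rw [hw] at h7
      have h8 : wl + e i z0 + wr - e i z0 + e i z = wl + e i z + wr := by abel
      rw [h8] at h7
      exact h7
    let c : Nm m S V W := (⟨i, him⟩, g, wl, h, wr, v)
    have hok : ok m e F act c := by
      intro z
      have h9 := hall z
      have h10 := hall 1
      change F (g * z * h) (wl + e i z + wr) + act v (g * z * h) =
        F (g * 1 * h) (wl + e i 1 + wr) + act v (g * 1 * h)
      rw [h9, h10]
    obtain ⟨t, t', htt, hL, hR⟩ := hav ⟨c, hok⟩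
    have hbig : Mp * t ≤ u.length := by
      have h11 : Mp * T ≤ u.length := Nat.mul_div_le _ _
      have h12 : Mp * t ≤ Mp * T := Nat.mul_le_mul_left _ (by omega)
      omega
    set p := u.take (Mp * t) with hpdef
    set q := u.drop (Mp * t) with hqdef
    have hpq : p ++ q = u := List.take_append_drop _ _
    have hpl : p.length = Mp * t := by rw [hpdef, List.length_take]; omega
    have hpt : p.length / Mp = t := by rw [hpl]; exact Nat.mul_div_cancel_left _ hMp
    have hqt : q.length / Mp = t' := by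
      have : u.length / Mp = t + q.length / Mp := by
        rw [← hpq, List.length_append, hpl, Nat.mul_add_div hMp]
      omega
    have hG' : Gd (t + t') := by rw [htt]; exact hg
    obtain ⟨-, c2, c3, c4, c5⟩ := hGd _ _ _ _ hG' hL hR
    rw [htt] at c2 c3 c4 c5
    have hm2 : ∀ l k, l ≤ k → k ≤ m → be T l ≤ be T k := by
      intro l k hlk hkm
      induction k, hlk using Nat.le_induction with
      | base => exact le_rfl
      | succ k hk ih => exact (ih (by omega)).trans (hmono T k (by omega))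
    have hRp : ∀ l, i < l → l ≤ m → Mp * be T l = p.length + Mp * (t' - bR t' l) := by
      intro l hl hlm
      have h5 := c3 l hl hlm
      have h6 : t ≤ be T l := le_trans c5 (hm2 (i + 1) l hl hlm)
      have h7 : be T l = t + (t' - bR t' l) := by omega
      rw [hpl, ← mul_add, ← h7]
    refine ⟨p, q, hpq, ?_, ?_⟩
    · refine hlam' p ⟨c, hok⟩ ⟨t, hpl⟩ (by rw [hpt]; exact hL) ?_
      rw [hpt]
      constructor
      · change φ (p.take (Mp * bL t i)) = g
        rw [c2 i le_rfl, hgd]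
        congr 1
        rw [← hpq, List.take_append_of_le_length]
        rw [hpl]; exact Nat.mul_le_mul_left _ c4
      · change ∑ l ∈ range i, e l (φ (seg p (Mp * bL t l) (Mp * bL t (l + 1)))) = wl
        rw [hwl]
        refine Finset.sum_congr rfl fun l hl => ?_
        have hl' := Finset.mem_range.1 hl
        rw [c2 l hl'.le, c2 (l + 1) hl', ← hpq]
        rw [seg_left (Nat.mul_le_mul_left _ (hmono T l (by omega)))]
        rw [hpl]
        exact Nat.mul_le_mul_left _ ((hm2 (l + 1) i hl' him.le).trans c4)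
    · refine hrho' q ⟨c, hok⟩ (by rw [hqt]; exact hR) ?_
      rw [hqt]
      constructor
      · change φ (q.drop (Mp * (t' - bR t' (i + 1)))) = h
        rw [hhd]
        congr 1
        rw [hRp (i + 1) (Nat.lt_succ_self i) him, ← hpq]
        simp [List.drop_append]
      · change ∑ l ∈ Ico (i + 1) m, e l (φ (seg q (Mp * (t' - bR t' l))
          (Mp * (t' - bR t' (l + 1))))) = wr
        rw [hwr]
        refine Finset.sum_congr rfl fun l hl => ?_
        obtain ⟨hl1, hl2⟩ := Finset.mem_Ico.1 hl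
        rw [hRp l (by omega) (by omega), hRp (l + 1) (by omega) (by omega), ← hpq, seg_right]

end core

end Crest.Agent.R320.UG503
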