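import Mathlib
import Crest.Agent.R320.Noise_513
import Crest.Agent.R320.Names_755
import Crest.Agent.R320.UG_503

/-!
Row 320, leaf `g1` of the plan 13673: digits in base `b` + names + explicit noise.
-/

set_option autoImplicit false
set_option linter.unusedSectionVars false

namespace Crest.Agent.R320.G1503

open Finset Crest.Agent.R320.UG503

section core

variable {α : Type*} {S V W : Type} [Monoid S] [AddCommGroup V] [AddCommGroup W]

/-- left condition -/
def CL (φ : List α → S) (e : ℕ → S → W) (b : ℕ → ℕ) (i : ℕ) (g : S) (wl : W)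
    (p : List α) : Prop :=
  φ (p.take (b i)) = g ∧ ∑ l ∈ range i, e l (φ (seg p (b l) (b (l + 1)))) = wl

/-- right condition -/
def CR (φ : List α → S) (e : ℕ → S → W) (m : ℕ) (t' : ℕ) (b : ℕ → ℕ) (i : ℕ) (h : S) (wr : W)
    (q : List α) : Prop :=
  φ (q.drop (t' - b (i + 1))) = h ∧
    ∑ l ∈ Ico (i + 1) m, e l (φ (seg q (t' - b l) (t' - b (l + 1)))) = wr

/-- reading at a junction -/
theorem read (φ : List α → S) (hφ : ∀ u v, φ (u ++ v) = φ u * φ v) (e : ℕ → S → W)
    (m t t' : ℕ) (be bL bR : ℕ → ℕ) (i : ℕ) (him : i < m) (p q : List α)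
    (hp : p.length = t) (hmono : ∀ l < m, be l ≤ be (l + 1))
    (h1 : ∀ l ≤ i, bL l = be l) (h2 : ∀ l, i < l → l ≤ m → bR l + be l = t + t')
    (h3 : be i ≤ t) (h4 : t ≤ be (i + 1)) :
    φ (p ++ q) = φ (p.take (bL i)) * φ (seg (p ++ q) (be i) (be (i + 1))) *
      φ (q.drop (t' - bR (i + 1))) ∧
    ∑ l ∈ range m, e l (φ (seg (p ++ q) (be l) (be (l + 1)))) =
      ∑ l ∈ range i, e l (φ (seg p (bL l) (bL (l + 1)))) +
      e i (φ (seg (p ++ q) (be i) (be (i + 1)))) +
      ∑ l ∈ Ico (i + 1) m, e l (φ (seg q (t' - bR l) (t' - bR (l + 1)))) := by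
  have := UG503.read φ hφ e m 1 t t' be bL bR i him p q (by rw [hp, one_mul]) hmono h1 h2 h3 h4
  simpa only [one_mul] using this

variable (φ : List α → S) (act : V → S → V) (m : ℕ) (e : ℕ → S → W) (F : S → W → V)
  (nmL nmR : ℕ → Option (Gam m e F act)) (bL bR be : ℕ → ℕ → ℕ) (Gd : ℕ → Prop)
  (v0 r0 : ℕ → V)

open Classical in
/-- left label -/
noncomputable def lamD (p : List α) : Option V :=
  match nmL p.length with
  | none => none
  | some γ => if CL φ e (bL p.length) γ.1.1 γ.1.2.1 γ.1.2.2.1 p then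
      some γ.1.2.2.2.2.2 else none

open Classical in
/-- right label -/
noncomputable def rhoD (q : List α) : Option V :=
  match nmR q.length with
  | none => none
  | some γ => if CR φ e m q.length (bR q.length) γ.1.1 γ.1.2.2.2.1 γ.1.2.2.2.2.1 q then
      some (val m e F act γ.1) else none

open Classical in
/-- noise -/
noncomputable def nuD (u : List α) : V :=
  if Gd u.length then
    F (φ u) (∑ l ∈ range m, e l (φ (seg u (be u.length l) (be u.length (l + 1)))))
  else r0 u.length - act (v0 u.length) (φ u)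

variable {φ act m e F nmL nmR bL bR be Gd v0 r0}

theorem lam_some {p : List α} {v : V} (h : lamD φ act m e F nmL bL p = some v) :
    ∃ γ, nmL p.length = some γ ∧ CL φ e (bL p.length) γ.1.1 γ.1.2.1 γ.1.2.2.1 p ∧
      v = γ.1.2.2.2.2.2 := by
  classical
  unfold lamD at h
  cases hn : nmL p.length with
  | none => rw [hn] at h; simp at h
  | some γ =>
    rw [hn] at h
    simp only at h
    split_ifs at h with h1
    exact ⟨γ, rfl, h1, (Option.some.inj h).symm⟩

theorem rho_some {q : List α} {r : V} (h : rhoD φ act m e F nmR bR q = some r) :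
    ∃ γ, nmR q.length = some γ ∧
      CR φ e m q.length (bR q.length) γ.1.1 γ.1.2.2.2.1 γ.1.2.2.2.2.1 q ∧
      r = val m e F act γ.1 := by
  classical
  unfold rhoD at h
  cases hn : nmR q.length with
  | none => rw [hn] at h; simp at h
  | some γ =>
    rw [hn] at h
    simp only at h
    split_ifs at h with h1
    exact ⟨γ, rfl, h1, (Option.some.inj h).symm⟩

theorem lam_of {p : List α} {γ : Gam m e F act} (h1 : nmL p.length = some γ)
    (h2 : CL φ e (bL p.length) γ.1.1 γ.1.2.1 γ.1.2.2.1 p) :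
    lamD φ act m e F nmL bL p = some γ.1.2.2.2.2.2 := by
  classical
  unfold lamD
  rw [h1]
  simp only
  rw [if_pos h2]

theorem rho_of {q : List α} {γ : Gam m e F act} (h1 : nmR q.length = some γ)
    (h2 : CR φ e m q.length (bR q.length) γ.1.1 γ.1.2.2.2.1 γ.1.2.2.2.2.1 q) :
    (rhoD φ act m e F nmR bR q).isSome := by
  classical
  unfold rhoD
  rw [h1]
  simp only
  rw [if_pos h2]
  rfl

theorem sound (hφ : ∀ u v, φ (u ++ v) = φ u * φ v)
    (hmono : ∀ n, ∀ l < m, be n l ≤ be n (l + 1))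
    (hGd : ∀ t t' γ γ', Gd (t + t') → nmL t = some γ → nmR t' = some γ' →
      γ = γ' ∧ (∀ l ≤ (γ.1.1 : ℕ), bL t l = be (t + t') l) ∧
      (∀ l, (γ.1.1 : ℕ) < l → l ≤ m → bR t' l + be (t + t') l = t + t') ∧
      be (t + t') γ.1.1 ≤ t ∧ t ≤ be (t + t') (γ.1.1 + 1))
    (h0 : ∀ t t' γ γ', ¬ Gd (t + t') → nmL t = some γ → nmR t' = some γ' →
      γ.1.2.2.2.2.2 = v0 (t + t') ∧ val m e F act γ'.1 = r0 (t + t'))
    {p q : List α} {v r : V} (hp : lamD φ act m e F nmL bL p = some v)
    (hq : rhoD φ act m e F nmR bR q = some r) :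
    r = act v (φ (p ++ q)) + nuD φ act m e F be Gd v0 r0 (p ++ q) := by
  classical
  obtain ⟨γ, a1, a2, rfl⟩ := lam_some hp
  obtain ⟨γ', b1, b2, rfl⟩ := rho_some hq
  unfold nuD
  rw [List.length_append]
  by_cases hg : Gd (p.length + q.length)
  · rw [if_pos hg]
    obtain ⟨c1, c2, c3, c4, c5⟩ := hGd _ _ _ _ hg a1 b1
    subst c1
    obtain ⟨e1, e2⟩ := read φ hφ e m p.length q.length (be (p.length + q.length)) (bL p.length)
      (bR q.length) γ.1.1 γ.1.1.2 p q rfl (hmono _) c2 c3 c4 c5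
    have hok := γ.2 (φ (seg (p ++ q) (be (p.length + q.length) γ.1.1)
      (be (p.length + q.length) (γ.1.1 + 1))))
    rw [e1, e2, a2.1, a2.2, b2.1, b2.2, ← hok, add_comm]
  · rw [if_neg hg]
    obtain ⟨q1, q2⟩ := h0 _ _ _ _ hg a1 b1
    rw [← q1, ← q2]
    abel

theorem complete (hφ : ∀ u v, φ (u ++ v) = φ u * φ v)
    (hF : ∀ s w v, ∃ i < m, ∀ g x h, g * x * h = s → ∀ z,
      F (g * z * h) (w - e i x + e i z) + act v (g * z * h) = F s w + act v s)
    (hmono : ∀ n, ∀ l < m, be n l ≤ be n (l + 1))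
    (hGd : ∀ t t' γ γ', Gd (t + t') → nmL t = some γ → nmR t' = some γ' →
      γ = γ' ∧ (∀ l ≤ (γ.1.1 : ℕ), bL t l = be (t + t') l) ∧
      (∀ l, (γ.1.1 : ℕ) < l → l ≤ m → bR t' l + be (t + t') l = t + t') ∧
      be (t + t') γ.1.1 ≤ t ∧ t ≤ be (t + t') (γ.1.1 + 1))
    {u : List α} (hg : Gd u.length)
    (hav : ∀ γ : Gam m e F act, ∃ t t', t + t' = u.length ∧ nmL t = some γ ∧ nmR t' = some γ)
    (v : V) :
    ∃ p q, p ++ q = u ∧ lamD φ act m e F nmL bL p = some v ∧
      (rhoD φ act m e F nmR bR q).isSome := by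
  classical
  set T := u.length with hT
  obtain ⟨i, him, hi⟩ := hF (φ u) (∑ l ∈ range m, e l (φ (seg u (be T l) (be T (l + 1))))) v
  set z0 := φ (seg u (be T i) (be T (i + 1))) with hz0
  set g := φ (u.take (be T i)) with hgd
  set h := φ (u.drop (be T (i + 1))) with hhd
  set wl := ∑ l ∈ range i, e l (φ (seg u (be T l) (be T (l + 1)))) with hwl
  set wr := ∑ l ∈ Ico (i + 1) m, e l (φ (seg u (be T l) (be T (l + 1)))) with hwr
  have hs : g * z0 * h = φ u := by
    have h6 := seg_split (Y := u) (hmono T i him)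
    conv_rhs => rw [← h6]
    rw [hφ, hφ]
  have hw : ∑ l ∈ range m, e l (φ (seg u (be T l) (be T (l + 1)))) = wl + e i z0 + wr := by
    rw [← Finset.sum_range_add_sum_Ico _ (show i + 1 ≤ m from him), Finset.sum_range_succ]
  have hall : ∀ z, F (g * z * h) (wl + e i z + wr) + act v (g * z * h) =
      F (φ u) (wl + e i z0 + wr) + act v (φ u) := by
    intro z
    have h7 := hi g z0 h hs z
    rw [hw] at h7
    have h8 : wl + e i z0 + wr - e i z0 + e i z = wl + e i z + wr := by abel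
    rw [h8] at h7
    exact h7
  let c : Nm m S V W := (⟨i, him⟩, g, wl, h, wr, v)
  have hok : ok m e F act c := by
    intro z
    have h9 := hall z
    have h10 := hall 1
    change F (g * z * h) (wl + e i z + wr) + act v (g * z * h) =
      F (g * 1 * h) (wl + e i 1 + wr) + act v (g * 1 * h)
    rw [h9, h10]
  obtain ⟨t, t', htt, hL, hR⟩ := hav ⟨c, hok⟩
  have hbig : t ≤ u.length := by omega
  set p := u.take t with hpdef
  set q := u.drop t with hqdef
  have hpq : p ++ q = u := List.take_append_drop _ _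
  have hpl : p.length = t := by rw [hpdef, List.length_take]; omega
  have hqt : q.length = t' := by rw [hqdef, List.length_drop]; omega
  have hG' : Gd (t + t') := by rw [htt]; exact hg
  obtain ⟨-, c2, c3, c4, c5⟩ := hGd _ _ _ _ hG' hL hR
  rw [htt] at c2 c3 c4 c5
  have hm2 : ∀ l k, l ≤ k → k ≤ m → be T l ≤ be T k := by
    intro l k hlk hkm
    induction k, hlk using Nat.le_induction with
    | base => exact le_rfl
    | succ k hk ih => exact (ih (by omega)).trans (hmono T k (by omega))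
  have hRp : ∀ l, i < l → l ≤ m → be T l = p.length + (t' - bR t' l) := by
    intro l hl hlm
    have h5 := c3 l hl hlm
    have h6 : t ≤ be T l := le_trans c5 (hm2 (i + 1) l hl hlm)
    rw [hpl]
    omega
  refine ⟨p, q, hpq, ?_, ?_⟩
  · refine lam_of (γ := ⟨c, hok⟩) (by rw [hpl]; exact hL) ?_
    rw [hpl]
    constructor
    · change φ (p.take (bL t i)) = g
      rw [c2 i le_rfl, hgd]
      congr 1
      rw [← hpq, List.take_append_of_le_length]
      rw [hpl]; exact c4
    · change ∑ l ∈ range i, e l (φ (seg p (bL t l) (bL t (l + 1)))) = wl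
      rw [hwl]
      refine Finset.sum_congr rfl fun l hl => ?_
      have hl' := Finset.mem_range.1 hl
      rw [c2 l hl'.le, c2 (l + 1) hl', ← hpq]
      rw [seg_left (hmono T l (by omega))]
      rw [hpl]
      exact (hm2 (l + 1) i hl' him.le).trans c4
  · refine rho_of (γ := ⟨c, hok⟩) (by rw [hqt]; exact hR) ?_
    rw [hqt]
    constructor
    · change φ (q.drop (t' - bR t' (i + 1))) = h
      rw [hhd]
      congr 1
      rw [hRp (i + 1) (Nat.lt_succ_self i) him, ← hpq]
      simp [List.drop_append]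
    · change ∑ l ∈ Ico (i + 1) m, e l (φ (seg q (t' - bR t' l) (t' - bR t' (l + 1)))) = wr
      rw [hwr]
      refine Finset.sum_congr rfl fun l hl => ?_
      obtain ⟨hl1, hl2⟩ := Finset.mem_Ico.1 hl
      rw [hRp l (by omega) (by omega), hRp (l + 1) (by omega) (by omega), ← hpq, seg_right]

end core

section digits

theorem no_carry {b i t t' : ℕ} (hb : 0 < b) (h1 : 2 * (t / b ^ i) < b) (h2 : b ^ i ∣ t')
    (h3 : 2 * (t' / b ^ i % b) < b) :
    (∀ l ≤ i, t % b ^ l = (t + t') % b ^ l) ∧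
      (∀ l, i < l → (t + t') / b ^ l = t' / b ^ l) := by
  constructor
  · intro l hl
    obtain ⟨c, rfl⟩ := (pow_dvd_pow b hl).trans h2
    rw [Nat.add_mul_mod_self_left]
  · intro l hl
    have hbi : 0 < b ^ i := pow_pos hb i
    obtain ⟨q, rfl⟩ := h2
    rw [Nat.mul_div_cancel_left _ hbi] at h3
    obtain ⟨k, rfl⟩ := Nat.exists_eq_add_of_lt hl
    have e1 : b ^ (i + k + 1) = b ^ i * b * b ^ k := by ring
    rw [e1, ← Nat.div_div_eq_div_mul, ← Nat.div_div_eq_div_mul, ← Nat.div_div_eq_div_mul,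
      ← Nat.div_div_eq_div_mul]
    congr 1
    rw [Nat.add_mul_div_left _ _ hbi, Nat.mul_div_cancel_left _ hbi]
    have e2 : t / b ^ i + q = (t / b ^ i + q % b) + b * (q / b) := by
      have := Nat.mod_add_div q b
      omega
    rw [e2, Nat.add_mul_div_left _ _ hb, Nat.div_eq_of_lt (by omega), zero_add]

theorem exists_cong {a M : ℕ} (hM : 0 < M) (h : Nat.Coprime a M) (c t d0 : ℕ) :
    ∃ d, d0 ≤ d ∧ d < d0 + M ∧ a * d + c ≡ t [MOD M] := by
  haveI : NeZero M := ⟨hM.ne'⟩
  let u : ZMod M := ((t : ZMod M) - c) * (a : ZMod M)⁻¹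
  refine ⟨d0 + (u - (d0 : ZMod M)).val, by omega,
    by have := ZMod.val_lt (u - (d0 : ZMod M)); omega, ?_⟩
  rw [← ZMod.natCast_eq_natCast_iff]
  push_cast
  rw [ZMod.natCast_zmod_val]
  have h1 : (a : ZMod M) * (a : ZMod M)⁻¹ = 1 := ZMod.coe_mul_inv_eq_one a h
  have h2 : (a : ZMod M) * ((d0 : ZMod M) + (u - d0)) + c = a * u + c := by ring
  rw [h2]
  simp only [u]
  linear_combination ((t : ZMod M) - c) * h1

theorem avail {b i M n t : ℕ} (hM : 0 < M) (hb : 4 * M + 4 < b) (hco : Nat.Coprime b M)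
    (hD1 : M ≤ n / b ^ i % b) (hD2 : n / b ^ i % b + M + 1 ≤ b) :
    ∃ o o', o + o' = n ∧ o ≡ t [MOD M] ∧ 2 * (o / b ^ i) < b ∧ b ^ i ∣ o' ∧
      2 * (o' / b ^ i % b) < b := by
  have hb0 : 0 < b := by omega
  have hbi : 0 < b ^ i := pow_pos hb0 i
  set D := n / b ^ i % b with hD
  set h := (b - 1) / 2 with hh
  obtain ⟨d, h1, h2, h3⟩ := exists_cong hM (hco.pow_left i) (n % b ^ i) t (D - h)
  have a1 : d ≤ D := by omega
  have a2 : 2 * d < b := by omega
  have a3 : 2 * (D - d) < b := by omega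
  have a4 : D ≤ n / b ^ i := Nat.mod_le _ _
  refine ⟨b ^ i * d + n % b ^ i, b ^ i * (n / b ^ i - d), ?_, h3, ?_, Dvd.intro _ rfl, ?_⟩
  · have h4 := Nat.div_add_mod n (b ^ i)
    have h5 : b ^ i * d + b ^ i * (n / b ^ i - d) = b ^ i * (n / b ^ i) := by
      rw [← mul_add]; congr 1; omega
    omega
  · rw [Nat.mul_add_div hbi, Nat.div_eq_of_lt (Nat.mod_lt _ hbi), add_zero]
    exact a2
  · rw [Nat.mul_div_cancel_left _ hbi]
    have h6 := Nat.div_add_mod (n / b ^ i) b
    have h7 : n / b ^ i - d = b * (n / b ^ i / b) + (D - d) := by omega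
    rw [h7, Nat.mul_add_mod, Nat.mod_eq_of_lt (by omega)]
    exact a3

theorem mod_mono {b n l : ℕ} : n % b ^ l ≤ n % b ^ (l + 1) := by
  have h := Nat.mod_mod_of_dvd n (pow_dvd_pow b (Nat.le_succ l))
  rw [← h]
  exact Nat.mod_le _ _

theorem flt {N : Type*} (o : Option N) (P : N → Prop) [DecidablePred P] (γ : N) :
    (o.bind fun c => if P c then some c else none) = some γ ↔ o = some γ ∧ P γ := by
  cases o with
  | none => simp
  | some c =>
    simp only [Option.bind_some]
    by_cases hc : P c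
    · rw [if_pos hc]
      constructor
      · intro h
        have := Option.some.inj h
        subst this
        exact ⟨rfl, hc⟩
      · exact fun h => h.1
    · rw [if_neg hc]
      constructor
      · intro h; exact absurd h (by simp)
      · rintro ⟨h1, h2⟩
        have := Option.some.inj h1
        subst this
        exact absurd h2 hc

end digits

section fin

variable {A : Type} {S V W : Type} [Monoid S] [AddCommGroup V] [AddCommGroup W]

theorem seg_take {α : Type*} {Q : List α} {a b n : ℕ} (hab : a ≤ b) (hbn : b ≤ n)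
    (hn : n ≤ Q.length) : seg Q a b = seg (Q.take n) a b := by
  conv_lhs => rw [← List.take_append_drop n Q]
  exact seg_left hab (by rw [List.length_take]; omega)

theorem phi_drop {α : Type*} (φ : List α → S) (hφ : ∀ u v, φ (u ++ v) = φ u * φ v) {Q : List α}
    {k n : ℕ} (hk : k ≤ n) (hn : n ≤ Q.length) :
    φ (Q.drop k) = φ ((Q.take n).drop k) * φ (Q.drop n) := by
  rw [← hφ, ← List.drop_append_of_le_length (by rw [List.length_take]; omega),
    List.take_append_drop]

theorem same_mod {a c N : ℕ} (h : a % N = c % N) {d : ℕ} (hd : d ∣ N) : a % d = c % d := by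
  rw [← Nat.mod_mod_of_dvd a hd, h, Nat.mod_mod_of_dvd c hd]

theorem dvd_same {a c N : ℕ} (h : a % N = c % N) {d : ℕ} (hd : d ∣ N) : d ∣ a ↔ d ∣ c := by
  rw [Nat.dvd_iff_mod_eq_zero, Nat.dvd_iff_mod_eq_zero, same_mod h hd]

theorem sub_mul_div (t n : ℕ) : t - n * (t / n) = t % n := by
  have := Nat.div_add_mod t n
  omega

end fin

/-- **leaf g1** -/
theorem g1 (S V : Type) [Monoid S] [Finite S] [AddCommGroup V] [Finite V] (act : V → S → V) :
    ∃ m r : ℕ, ∀ Bd : ℕ, ∃ (Ms : Finset ℕ) (M : ℕ), Ms.card ≤ r ∧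
      (∀ k ∈ Ms, Bd < k ∧ k.Prime ∧ k ∣ M) ∧ 0 < M ∧
      ∀ b : ℕ, 4 * M + 4 < b → Nat.Coprime b M → ∀ (A : Type) (f : A → S),
        ∃ (lam rho : List A → Option V) (nu : List A → V),
          (∀ P v, lam P = some v → P.length < b ^ m) ∧
          (∀ P Q v v', lam P = some v → rho Q = some v' →
            v' = act v ((P ++ Q).map f).prod + nu (P ++ Q)) ∧
          (∀ X : List A, (∀ k ∈ Ms, ¬ k ∣ X.length) →
            (∀ j < m, M ≤ X.length / b ^ j % b ∧ X.length / b ^ j % b + M + 1 ≤ b) →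
            ∀ v, ∃ P Q, P ++ Q = X ∧ lam P = some v ∧ (rho Q).isSome) ∧
          (∀ Q Q' : List A, b ^ m ≤ Q.length → b ^ m ≤ Q'.length →
            Q.take (b ^ m) = Q'.take (b ^ m) →
            Q.length % (M * b ^ m) = Q'.length % (M * b ^ m) →
            ((Q.drop (b ^ m)).map f).prod = ((Q'.drop (b ^ m)).map f).prod →
            rho Q = rho Q' ∧ nu Q = nu Q') := by
  classical
  obtain ⟨W, hW1, hW2, m, e0, F, hF0⟩ := Noise513.explicit_noise S V act
  let e : ℕ → S → W := fun l z => if h : l < m then e0 ⟨l, h⟩ z else 0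
  have he : ∀ (i : Fin m) z, e i z = e0 i z := by
    intro i z
    simp only [e]
    rw [dif_pos i.2]
  have hF : ∀ s w v, ∃ i < m, ∀ g x h, g * x * h = s → ∀ z,
      F (g * z * h) (w - e i x + e i z) + act v (g * z * h) = F s w + act v s := by
    intro s w v
    obtain ⟨i, hi⟩ := hF0 s w v
    refine ⟨i, i.2, fun g x h hs z => ?_⟩
    rw [he, he]
    exact hi g x h hs z
  have : Finite W := Finite.of_fintype W
  have : Finite (Gam m e F act) := inferInstance
  obtain ⟨r, hr⟩ := Names755.names (Gam m e F act) (V × V)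
    (fun γ => (γ.1.2.2.2.2.2, val m e F act γ.1))
  refine ⟨m, r, fun Bd => ?_⟩
  obtain ⟨Ms, M, nL, nR, hcard, hMs, hM, hpL, hpR, hag, hall, hcol⟩ := hr Bd
  refine ⟨Ms, M, hcard, hMs, hM, fun b hb hco A f => ?_⟩
  have hb0 : 0 < b := by omega
  let φ : List A → S := fun u => (u.map f).prod
  have hφ : ∀ u v, φ (u ++ v) = φ u * φ v := by
    intro u v; simp only [φ, List.map_append, List.prod_append]
  let PL : ℕ → Gam m e F act → Prop := fun t γ => 2 * (t / b ^ (γ.1.1 : ℕ)) < b
  let PR : ℕ → Gam m e F act → Prop := fun t γ =>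
    b ^ (γ.1.1 : ℕ) ∣ t ∧ 2 * (t / b ^ (γ.1.1 : ℕ) % b) < b
  let nmL : ℕ → Option (Gam m e F act) := fun t => (nL t).bind fun c => if PL t c then some c else none
  let nmR : ℕ → Option (Gam m e F act) := fun t => (nR t).bind fun c => if PR t c then some c else none
  have hnL : ∀ t γ, nmL t = some γ ↔ nL t = some γ ∧ PL t γ := fun t γ => flt _ _ _
  have hnR : ∀ t γ, nmR t = some γ ↔ nR t = some γ ∧ PR t γ := fun t γ => flt _ _ _
  let bL : ℕ → ℕ → ℕ := fun t l => t % b ^ l
  let bR : ℕ → ℕ → ℕ := fun t l => b ^ l * (t / b ^ l)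
  let Gd : ℕ → Prop := fun n => ∀ k ∈ Ms, ¬ k ∣ n
  have hmono : ∀ n, ∀ l < m, bL n l ≤ bL n (l + 1) := fun n l _ => mod_mono
  have hGd : ∀ t t' γ γ', Gd (t + t') → nmL t = some γ → nmR t' = some γ' →
      γ = γ' ∧ (∀ l ≤ (γ.1.1 : ℕ), bL t l = bL (t + t') l) ∧
      (∀ l, (γ.1.1 : ℕ) < l → l ≤ m → bR t' l + bL (t + t') l = t + t') ∧
      bL (t + t') γ.1.1 ≤ t ∧ t ≤ bL (t + t') (γ.1.1 + 1) := by
    intro t t' γ γ' hg h1 h2
    obtain ⟨h1a, h1b⟩ := (hnL _ _).1 h1
    obtain ⟨h2a, h2b⟩ := (hnR _ _).1 h2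
    have hγ := hag t t' γ γ' h1a h2a hg
    subst hγ
    obtain ⟨c1, c2⟩ := no_carry hb0 h1b h2b.1 h2b.2
    have c3 : ∀ l, (γ.1.1 : ℕ) < l → bR t' l + bL (t + t') l = t + t' := by
      intro l hl
      have h3 := Nat.div_add_mod (t + t') (b ^ l)
      rw [c2 l hl] at h3
      exact h3
    refine ⟨rfl, c1, fun l hl _ => c3 l hl, ?_, ?_⟩
    · have h6 := c1 _ le_rfl
      change (t + t') % b ^ (γ.1.1 : ℕ) ≤ t
      rw [← h6]
      exact Nat.mod_le _ _
    · have h4 := c3 (γ.1.1 + 1) (Nat.lt_succ_self _)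
      have h5 : bR t' (γ.1.1 + 1) ≤ t' := Nat.mul_div_le _ _
      omega
  -- the common value for the bad lengths
  have hn3 : ∀ T, ∃ v0 r0 : V, ¬ Gd T → ∀ t t' γ γ', t + t' = T → nmL t = some γ →
      nmR t' = some γ' → γ.1.2.2.2.2.2 = v0 ∧ val m e F act γ'.1 = r0 := by
    intro T
    by_cases h : ∃ t t' γ γ', t + t' = T ∧ nmL t = some γ ∧ nmR t' = some γ'
    · obtain ⟨t, t', γ, γ', h1, h2, h3⟩ := h
      refine ⟨γ.1.2.2.2.2.2, val m e F act γ'.1, fun hG s s' δ δ' a1 a2 a3 => ?_⟩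
      have hG' : ∃ k ∈ Ms, k ∣ s + s' := by
        rw [a1]
        by_contra hcon
        push Not at hcon
        exact hG hcon
      have h5 := hcol s s' t t' δ δ' γ γ' ((hnL _ _).1 a2).1 ((hnR _ _).1 a3).1
        ((hnL _ _).1 h2).1 ((hnR _ _).1 h3).1 (by rw [a1, h1]) hG'
      exact ⟨congrArg Prod.fst h5.1, congrArg Prod.snd h5.2⟩
    · exact ⟨0, 0, fun _ t t' γ γ' a1 a2 a3 => absurd ⟨t, t', γ, γ', a1, a2, a3⟩ h⟩
  choose v1 r1 h0 using hn3
  let rep : ℕ → ℕ := fun T => if T < b ^ m then T else T % (M * b ^ m) + M * b ^ m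
  have hbm : 0 < b ^ m := pow_pos hb0 m
  have hpow : ∀ l ≤ m, b ^ l ∣ M * b ^ m := fun l hl =>
    (pow_dvd_pow b hl).trans (Dvd.intro_left _ rfl)
  have hkM : ∀ k ∈ Ms, k ∣ M * b ^ m := fun k hk => (hMs k hk).2.2.trans (Dvd.intro _ rfl)
  have hnLlt : ∀ t γ, nmL t = some γ → t < b ^ m := by
    intro t γ h
    have h1 := ((hnL _ _).1 h).2
    have h2 : t / b ^ (γ.1.1 : ℕ) < b := by
      have : 2 * (t / b ^ (γ.1.1 : ℕ)) < b := h1
      omega
    have h3 : t < b * b ^ (γ.1.1 : ℕ) := (Nat.div_lt_iff_lt_mul (pow_pos hb0 _)).1 h2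
    have h4 : b * b ^ (γ.1.1 : ℕ) ≤ b ^ m := by
      rw [← pow_succ']
      exact Nat.pow_le_pow_right hb0 γ.1.1.2
    omega
  have hRper : ∀ t s, t % (M * b ^ m) = s % (M * b ^ m) → nmR t = nmR s := by
    intro t s hts
    have h1 : nR t = nR s := by
      have hp : Function.Periodic nR M := hpR
      rw [← hp.map_mod_nat t, ← hp.map_mod_nat s, same_mod hts (Dvd.intro _ rfl)]
    have h2 : ∀ c : Gam m e F act, PR t c ↔ PR s c := by
      intro c
      have d1 := dvd_same hts (hpow c.1.1 (le_of_lt c.1.1.2))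
      have d2 : t / b ^ (c.1.1 : ℕ) % b = s / b ^ (c.1.1 : ℕ) % b := by
        rw [← Nat.mod_mul_right_div_self, ← Nat.mod_mul_right_div_self, ← pow_succ,
          same_mod hts (hpow (c.1.1 + 1) c.1.1.2)]
      simp only [PR]
      rw [d1, d2]
    simp only [nmR]
    rw [h1]
    congr 1
    funext c
    simp only [h2 c]
  have hGper : ∀ t s, t % (M * b ^ m) = s % (M * b ^ m) → (Gd t ↔ Gd s) := by
    intro t s hts
    simp only [Gd]
    constructor
    · intro h k hk hd; exact h k hk ((dvd_same hts (hkM k hk)).2 hd)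
    · intro h k hk hd; exact h k hk ((dvd_same hts (hkM k hk)).1 hd)
  let v0 : ℕ → V := fun T => v1 (rep T)
  let r0 : ℕ → V := fun T => r1 (rep T)
  have h0' : ∀ t t' γ γ', ¬ Gd (t + t') → nmL t = some γ → nmR t' = some γ' →
      γ.1.2.2.2.2.2 = v0 (t + t') ∧ val m e F act γ'.1 = r0 (t + t') := by
    intro t t' γ γ' hg h1 h2
    by_cases hlt : t + t' < b ^ m
    · have : rep (t + t') = t + t' := if_pos hlt
      simp only [v0, r0]
      rw [this]
      exact h0 _ hg t t' γ γ' rfl h1 h2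
    · have hrep : rep (t + t') = (t + t') % (M * b ^ m) + M * b ^ m := if_neg hlt
      have ht := hnLlt t γ h1
      have hle : b ^ m ≤ M * b ^ m := Nat.le_mul_of_pos_left _ hM
      have hmod : (t + t') % (M * b ^ m) = rep (t + t') % (M * b ^ m) := by
        rw [hrep, Nat.add_mod_right, Nat.mod_mod]
      have hge : t ≤ rep (t + t') := by rw [hrep]; omega
      have hs' : t' % (M * b ^ m) = (rep (t + t') - t) % (M * b ^ m) := by
        have h3 : t + t' ≡ t + (rep (t + t') - t) [MOD M * b ^ m] := by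
          have : t + (rep (t + t') - t) = rep (t + t') := by omega
          rw [this]
          exact hmod
        exact Nat.ModEq.add_left_cancel' t h3
      refine h0 _ (fun h => hg ((hGper _ _ hmod).2 h)) t (rep (t + t') - t) γ γ' (by omega) h1 ?_
      rw [← hRper _ _ hs']
      exact h2
  refine ⟨lamD φ act m e F nmL bL, rhoD φ act m e F nmR bR, nuD φ act m e F bL Gd v0 r0,
    ?_, ?_, ?_, ?_⟩
  · intro P v hP
    obtain ⟨γ, h1, -, -⟩ := lam_some hP
    exact hnLlt _ _ h1
  · intro P Q v v' hP hQ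
    exact sound hφ hmono hGd h0' hP hQ
  · intro X hX1 hX2 v
    refine complete hφ hF hmono hGd hX1 ?_ v
    intro γ
    obtain ⟨t, -, ht1, ht2⟩ := hall X.length hX1 γ
    obtain ⟨o, o', ho1, ho2, ho3, ho4, ho5⟩ := avail (t := t) hM hb hco
      (hX2 γ.1.1 γ.1.1.2).1 (hX2 γ.1.1 γ.1.1.2).2
    refine ⟨o, o', ho1, (hnL _ _).2 ⟨?_, ho3⟩, (hnR _ _).2 ⟨?_, ho4, ho5⟩⟩
    · have hp : Function.Periodic nL M := hpL
      rw [← hp.map_mod_nat o, ho2, hp.map_mod_nat t]
      exact ht1
    · refine ht2 o' ?_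
      have : t + o' ≡ o + o' [MOD M] := (ho2.symm).add_right o'
      rwa [ho1] at this
  · intro Q Q' hQ hQ' htk hln hph
    have hle : ∀ l ≤ m, Q.length % b ^ l ≤ b ^ m := fun l hl =>
      (Nat.mod_lt _ (pow_pos hb0 l)).le.trans (Nat.pow_le_pow_right hb0 hl)
    have hkk : ∀ l ≤ m, Q.length % b ^ l = Q'.length % b ^ l := fun l hl =>
      same_mod hln (hpow l hl)
    have hph' : φ (Q.drop (b ^ m)) = φ (Q'.drop (b ^ m)) := hph
    have hdrop : ∀ k ≤ b ^ m, φ (Q.drop k) = φ (Q'.drop k) := by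
      intro k hk
      rw [phi_drop φ hφ hk hQ, phi_drop φ hφ hk hQ', htk, hph']
    have hseg : ∀ k k', k ≤ k' → k' ≤ b ^ m → seg Q k k' = seg Q' k k' := by
      intro k k' h1 h2
      rw [seg_take h1 h2 hQ, seg_take h1 h2 hQ', htk]
    constructor
    · unfold rhoD
      rw [← hRper _ _ hln]
      cases hn : nmR Q.length with
      | none => rfl
      | some γ =>
        simp only
        have hiff : CR φ e m Q.length (bR Q.length) γ.1.1 γ.1.2.2.2.1 γ.1.2.2.2.2.1 Q ↔
            CR φ e m Q'.length (bR Q'.length) γ.1.1 γ.1.2.2.2.1 γ.1.2.2.2.2.1 Q' := by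
          have e1 : ∀ l, Q.length - bR Q.length l = Q.length % b ^ l := fun l => sub_mul_div _ _
          have e2 : ∀ l, Q'.length - bR Q'.length l = Q'.length % b ^ l := fun l => sub_mul_div _ _
          unfold CR
          have e3 : φ (Q.drop (Q.length - bR Q.length (γ.1.1 + 1))) =
              φ (Q'.drop (Q'.length - bR Q'.length (γ.1.1 + 1))) := by
            rw [e1, e2, ← hkk (γ.1.1 + 1) γ.1.1.2]
            exact hdrop _ (hle _ γ.1.1.2)
          have e4 : ∑ l ∈ Ico ((γ.1.1 : ℕ) + 1) m, e l (φ (seg Q (Q.length - bR Q.length l)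
                (Q.length - bR Q.length (l + 1)))) =
              ∑ l ∈ Ico ((γ.1.1 : ℕ) + 1) m, e l (φ (seg Q' (Q'.length - bR Q'.length l)
                (Q'.length - bR Q'.length (l + 1)))) := by
            refine Finset.sum_congr rfl fun l hl => ?_
            obtain ⟨hl1, hl2⟩ := Finset.mem_Ico.1 hl
            rw [e1, e1, e2, e2, ← hkk l hl2.le, ← hkk (l + 1) hl2]
            rw [hseg _ _ mod_mono (hle _ hl2)]
          rw [e3, e4]
        by_cases hc : CR φ e m Q.length (bR Q.length) γ.1.1 γ.1.2.2.2.1 γ.1.2.2.2.2.1 Q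
        · rw [if_pos hc, if_pos (hiff.1 hc)]
        · rw [if_neg hc, if_neg fun h => hc (hiff.2 h)]
    · unfold nuD
      have hall' : φ Q = φ Q' := by
        have := hdrop 0 (Nat.zero_le _)
        simpa using this
      have hrep : rep Q.length = rep Q'.length := by
        simp only [rep]
        rw [if_neg (by omega), if_neg (by omega), hln]
      by_cases hg : Gd Q.length
      · rw [if_pos hg, if_pos ((hGper _ _ hln).1 hg), hall']
        congr 1
        refine Finset.sum_congr rfl fun l hl => ?_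
        have hl' := Finset.mem_range.1 hl
        simp only [bL]
        rw [← hkk l hl'.le, ← hkk (l + 1) hl', hseg _ _ mod_mono (hle _ hl')]
      · rw [if_neg hg, if_neg fun h => hg ((hGper _ _ hln).2 h), hall']
        simp only [v0, r0]
        rw [hrep]

end Crest.Agent.R320.G1503
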