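import Crest.Agent.R320.UG2_219

/-!
# Row 320: 852's digit gadget (G1), all words (helper556)

Levels = positional digits of the length in base `b`; names / noise from `UG219.ugadget2`.
-/

set_option autoImplicit false

namespace Crest.Agent.R320.G1_556

open Crest.Agent.R320.UG219

universe ua ub uc

section blocks

variable {A : Type uc} {S : Type ua} [Monoid S]

/-- segment of a word -/
def sg (X : List A) (p q : ℕ) : List A := (X.drop p).take (q - p)

/-- the `j`-th block (digits of the length in base `b`) -/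
def bk (f : A → S) (b : ℕ) (X : List A) (j : ℕ) : S :=
  ((sg X (X.length % b ^ j) (X.length % b ^ (j + 1))).map f).prod

/-- blocks `i, .., i + k - 1` -/
def bks (f : A → S) (b : ℕ) (X : List A) (i k : ℕ) : List S := (List.range' i k).map (bk f b X)

/-- the part after the last block -/
def tl (f : A → S) (b m : ℕ) (X : List A) : S := ((X.drop (X.length % b ^ m)).map f).prod

lemma mod_mono (b n j : ℕ) : n % b ^ j ≤ n % b ^ (j + 1) := by
  rw [← Nat.mod_mod_of_dvd n (pow_dvd_pow b (Nat.le_succ j))]
  exact Nat.mod_le _ _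

lemma mod_mono' (b n : ℕ) {i j : ℕ} (h : i ≤ j) : n % b ^ i ≤ n % b ^ j := by
  rw [← Nat.mod_mod_of_dvd n (pow_dvd_pow b h)]
  exact Nat.mod_le _ _

lemma bks_length (f : A → S) (b : ℕ) (X : List A) (i k : ℕ) : (bks f b X i k).length = k := by
  simp [bks]

lemma prod_bks (f : A → S) (b : ℕ) (X : List A) (k : ℕ) :
    (bks f b X 0 k).prod = ((X.take (X.length % b ^ k)).map f).prod := by
  induction k with
  | zero => simp [bks, Nat.mod_one]
  | succ k ih =>
    have e : bks f b X 0 (k + 1) = bks f b X 0 k ++ [bk f b X k] := by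
      unfold bks
      rw [← List.range'_append_1]
      simp
    rw [e, List.prod_append, ih, List.prod_singleton]
    have h := mod_mono b X.length k
    unfold bk sg
    rw [← List.prod_append, ← List.map_append, ← List.take_add, Nat.add_sub_cancel' h]

lemma prod_all (f : A → S) (b m : ℕ) (X : List A) :
    (bks f b X 0 m).prod * tl f b m X = (X.map f).prod := by
  rw [prod_bks]
  unfold tl
  rw [← List.prod_append, ← List.map_append, List.take_append_drop]

lemma bks_take (f : A → S) (b m : ℕ) (X : List A) {i : ℕ} (hi : i < m) :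
    (bks f b X 0 m).take i = bks f b X 0 i := by
  have e : bks f b X 0 m = bks f b X 0 i ++ bks f b X i (m - i) := by
    unfold bks
    rw [← List.map_append]
    have := List.range'_append_1 (s := 0) (m := i) (n := m - i)
    rw [Nat.zero_add] at this
    rw [this]
    congr 2
    omega
  rw [e, List.take_append_of_le_length (by rw [bks_length]), List.take_of_length_le
    (by rw [bks_length])]

lemma bks_drop (f : A → S) (b m : ℕ) (X : List A) {i : ℕ} (hi : i < m) :
    (bks f b X 0 m).drop (i + 1) = bks f b X (i + 1) (m - (i + 1)) := by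
  have e : bks f b X 0 m = bks f b X 0 (i + 1) ++ bks f b X (i + 1) (m - (i + 1)) := by
    unfold bks
    rw [← List.map_append]
    have := List.range'_append_1 (s := 0) (m := i + 1) (n := m - (i + 1))
    rw [Nat.zero_add] at this
    rw [this]
    congr 2
    omega
  rw [e]
  apply List.drop_left'
  rw [bks_length]

lemma bks_congr (f : A → S) {b : ℕ} {X Y : List A} {i k : ℕ}
    (h : ∀ j, i ≤ j → j < i + k → bk f b X j = bk f b Y j) : bks f b X i k = bks f b Y i k := by
  unfold bks
  apply List.map_congr_left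
  intro j hj
  rw [List.mem_range'_1] at hj
  exact h j hj.1 hj.2

lemma left_mod {b p q i j : ℕ} (h : b ^ i ∣ q) (hj : j ≤ i) : (p + q) % b ^ j = p % b ^ j := by
  have h1 : b ^ j ∣ q := (pow_dvd_pow b hj).trans h
  obtain ⟨c, rfl⟩ := h1
  exact Nat.add_mul_mod_self_left _ _ _

lemma left_bk (f : A → S) {b i j : ℕ} {P Q : List A} (h : b ^ i ∣ Q.length) (hj : j < i) :
    bk f b (P ++ Q) j = bk f b P j := by
  unfold bk
  rw [List.length_append, left_mod h hj.le, left_mod h (show j + 1 ≤ i from hj)]
  congr 2
  unfold sg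
  have h1 := Nat.mod_le P.length (b ^ j)
  have h2 := Nat.mod_le P.length (b ^ (j + 1))
  rw [List.drop_append_of_le_length h1, List.take_append_of_le_length
    (by rw [List.length_drop]; omega)]

lemma right_mod {b M p q i j : ℕ} (hb : 0 < b) (h : b ^ i ∣ q) (hp : p / b ^ i ≤ M)
    (hq : q / b ^ i % b + M < b) (hj : i + 1 ≤ j) : (p + q) % b ^ j = p + q % b ^ j := by
  have hbi : 0 < b ^ i := Nat.pow_pos hb
  -- digit i
  have h1 : q % b ^ (i + 1) = b ^ i * (q / b ^ i % b) := by
    obtain ⟨c, rfl⟩ := h
    rw [Nat.mul_div_cancel_left _ hbi, pow_succ, Nat.mul_mod_mul_left]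
  have h2 : p < b ^ i * (p / b ^ i + 1) := by
    have := Nat.lt_mul_div_succ p hbi
    exact this
  have h3 : p + q % b ^ (i + 1) < b ^ (i + 1) := by
    rw [h1]
    calc p + b ^ i * (q / b ^ i % b) < b ^ i * (p / b ^ i + 1) + b ^ i * (q / b ^ i % b) := by
          omega
      _ = b ^ i * (p / b ^ i + 1 + q / b ^ i % b) := by ring
      _ ≤ b ^ i * b := Nat.mul_le_mul_left _ (by omega)
      _ = b ^ (i + 1) := by rw [pow_succ]
  have h4 : q % b ^ j % b ^ (i + 1) = q % b ^ (i + 1) :=
    Nat.mod_mod_of_dvd q (pow_dvd_pow b hj)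
  have hbj : 0 < b ^ (i + 1) := Nat.pow_pos hb
  have h5 := Nat.div_add_mod (q % b ^ j) (b ^ (i + 1))
  rw [h4] at h5
  have h6 : q % b ^ j / b ^ (i + 1) < b ^ (j - (i + 1)) := by
    rw [Nat.div_lt_iff_lt_mul hbj, ← pow_add, Nat.sub_add_cancel hj]
    exact Nat.mod_lt _ (Nat.pow_pos hb)
  have h7 : p + q % b ^ j < b ^ j := by
    calc p + q % b ^ j = b ^ (i + 1) * (q % b ^ j / b ^ (i + 1)) + (p + q % b ^ (i + 1)) := by
          omega
      _ < b ^ (i + 1) * (q % b ^ j / b ^ (i + 1)) + b ^ (i + 1) := by omega
      _ = b ^ (i + 1) * (q % b ^ j / b ^ (i + 1) + 1) := by ring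
      _ ≤ b ^ (i + 1) * b ^ (j - (i + 1)) := Nat.mul_le_mul_left _ h6
      _ = b ^ j := by rw [← pow_add, Nat.add_sub_cancel' hj]
  calc (p + q) % b ^ j = (p + q % b ^ j) % b ^ j := by rw [Nat.add_mod_mod]
    _ = p + q % b ^ j := Nat.mod_eq_of_lt h7

lemma drop_add_append (P Q : List A) (p : ℕ) : (P ++ Q).drop (P.length + p) = Q.drop p := by
  rw [← List.drop_drop, List.drop_left]

lemma right_bk (f : A → S) {b M i j : ℕ} {P Q : List A} (hb : 0 < b) (h : b ^ i ∣ Q.length)
    (hp : P.length / b ^ i ≤ M) (hq : Q.length / b ^ i % b + M < b) (hj : i + 1 ≤ j) :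
    bk f b (P ++ Q) j = bk f b Q j := by
  unfold bk
  rw [List.length_append, right_mod hb h hp hq hj, right_mod hb h hp hq (Nat.le_succ_of_le hj)]
  congr 2
  unfold sg
  rw [drop_add_append, Nat.add_sub_add_left]

lemma right_tl (f : A → S) {b M i m : ℕ} {P Q : List A} (hb : 0 < b) (h : b ^ i ∣ Q.length)
    (hp : P.length / b ^ i ≤ M) (hq : Q.length / b ^ i % b + M < b) (hj : i < m) :
    tl f b m (P ++ Q) = tl f b m Q := by
  unfold tl
  rw [List.length_append, right_mod hb h hp hq hj, drop_add_append]

end blocks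

lemma per_of_add {β : Type*} {g : ℕ → β} {M : ℕ} (h : ∀ t, g (t + M) = g t) {s t : ℕ}
    (hst : s ≡ t [MOD M]) : g s = g t := by
  have key : ∀ t, g (t % M) = g t := by
    intro t
    conv_rhs => rw [← Nat.mod_add_div t M]
    generalize t / M = k
    induction k with
    | zero => simp
    | succ k ih => rw [Nat.mul_succ, ← Nat.add_assoc, h, ← ih]
  rw [← key s, ← key t, hst]

/-- a solution of `β + B * y ≡ t [MOD M]` with `1 ≤ y ≤ M` -/
lemma exists_y {M B : ℕ} (hM : 0 < M) (hc : Nat.Coprime B M) (β t : ℕ) :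
    ∃ y, 1 ≤ y ∧ y ≤ M ∧ β + B * y ≡ t [MOD M] := by
  obtain ⟨y, hy, he⟩ := Nat.exists_mul_mod_eq_of_coprime (t + (β + B) * (M - 1)) hc hM.ne'
  refine ⟨y + 1, by omega, by omega, ?_⟩
  have he' : B * y ≡ t + (β + B) * (M - 1) [MOD M] := he
  have h1 : β + B * (y + 1) = (β + B) + B * y := by ring
  have h2 : (β + B) + (t + (β + B) * (M - 1)) = t + M * (β + B) := by
    have : (β + B) * (M - 1) + (β + B) = (β + B) * M := by
      rw [← Nat.mul_succ]
      congr 1
      omega
    have h3 : (β + B) * M = M * (β + B) := by ring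
    omega
  rw [h1]
  calc (β + B) + B * y ≡ (β + B) + (t + (β + B) * (M - 1)) [MOD M] := he'.add_left _
    _ ≡ t [MOD M] := by rw [h2]; exact Nat.add_mul_mod_self_left _ _ _

section defs

variable {A : Type uc} {S : Type ua} {V : Type ub} [Monoid S]

open Classical in
noncomputable def lamD (f : A → S) (b m M : ℕ) (L : ℕ → S → List S → ℕ → Option V) (P : List A) :
    Option V :=
  if P ≠ [] ∧ Nat.log b P.length < m ∧ P.length / b ^ (Nat.log b P.length) ≤ M then
    L (Nat.log b P.length) 1 (bks f b P 0 (Nat.log b P.length)) P.length else none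

open Classical in
noncomputable def vwD (f : A → S) (b m M : ℕ) (Q : List A) (i : ℕ) : Option (List S × S) :=
  if b ^ i ∣ Q.length ∧ Q.length / b ^ i % b + M < b then
    some (bks f b Q (i + 1) (m - (i + 1)), tl f b m Q) else none

noncomputable def rhoD (f : A → S) (b m M : ℕ) (R : (ℕ → Option (List S × S)) → ℕ → Option V)
    (Q : List A) : Option V := R (vwD f b m M Q) Q.length

noncomputable def nuD (f : A → S) (b m M : ℕ) (D : ℕ → S → List S → S → V) (X : List A) : V :=
  D (X.length % M + M) 1 (bks f b X 0 m) (tl f b m X)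

end defs

/-- locality of the blocks -/
lemma sg_local {A : Type uc} {X X' : List A} {N p q : ℕ} (h : X.take N = X'.take N) (hq : q ≤ N)
    (hpq : p ≤ q) : sg X p q = sg X' p q := by
  have key : ∀ Z : List A, sg Z p q = ((Z.take N).drop p).take (q - p) := by
    intro Z
    unfold sg
    rw [List.drop_take, List.take_take]
    congr 1
    omega
  rw [key, key, h]

lemma tl_local {A : Type uc} {S : Type ua} [Monoid S] {f : A → S} {X X' : List A} {N p : ℕ}
    (h : X.take N = X'.take N) (hp : p ≤ N) (h1 : N ≤ X.length) (h2 : N ≤ X'.length)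
    (hd : ((X.drop N).map f).prod = ((X'.drop N).map f).prod) :
    ((X.drop p).map f).prod = ((X'.drop p).map f).prod := by
  have key : ∀ Z : List A, N ≤ Z.length → ((Z.drop p).map f).prod =
      (((Z.take N).drop p).map f).prod * ((Z.drop N).map f).prod := by
    intro Z hZ
    rw [← List.prod_append, ← List.map_append]
    congr 2
    conv_lhs => rw [← List.take_append_drop N Z]
    rw [List.drop_append_of_le_length]
    rw [List.length_take]; omega
  rw [key X h1, key X' h2, h, hd]

/-- **G1 (852), all words.** -/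
theorem g1u (S : Type ua) (V : Type ub) [Monoid S] [Finite S] [AddCommGroup V] [Finite V]
    (act : V → S → V) :
    ∃ m r : ℕ, ∀ Bd : ℕ, ∃ (Ms : Finset ℕ) (M : ℕ), Ms.card ≤ r ∧
      (∀ k ∈ Ms, Bd < k ∧ k.Prime ∧ k ∣ M) ∧ 0 < M ∧
      ∀ b : ℕ, 4 * M + 4 < b → Nat.Coprime b M → ∀ (A : Type uc) (f : A → S),
        ∃ (lam rho : List A → Option V) (nu : List A → V),
          (∀ P v, lam P = some v → P.length < b ^ m) ∧
          (∀ P Q v v', lam P = some v → rho Q = some v' →
            v' = act v ((P ++ Q).map f).prod + nu (P ++ Q)) ∧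
          (∀ X, (∀ k ∈ Ms, ¬ k ∣ X.length) →
            (∀ j < m, M ≤ X.length / b ^ j % b ∧ X.length / b ^ j % b + M + 1 ≤ b) →
            ∀ v, ∃ P Q, P ++ Q = X ∧ lam P = some v ∧ (rho Q).isSome) ∧
          (∀ Q Q', b ^ m ≤ Q.length → b ^ m ≤ Q'.length →
            Q.take (b ^ m) = Q'.take (b ^ m) →
            Q.length % (M * b ^ m) = Q'.length % (M * b ^ m) →
            ((Q.drop (b ^ m)).map f).prod = ((Q'.drop (b ^ m)).map f).prod →
            rho Q = rho Q' ∧ nu Q = nu Q') := by
  classical
  obtain ⟨m, r, hm, hU⟩ := ugadget2 S V act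
  refine ⟨m, r, fun Bd => ?_⟩
  obtain ⟨Ms, L, R, D, hcard, hp, hperL, hperR, hRc, hsound, hcompl⟩ := hU Bd
  set M := ∏ p ∈ Ms, p with hMdef
  have hM : 0 < M := Finset.prod_pos fun p h => (hp p h).1.pos
  refine ⟨Ms, M, hcard, fun k hk => ⟨(hp k hk).2, (hp k hk).1, Finset.dvd_prod_of_mem _ hk⟩, hM,
    fun b hb4 hcop A f => ?_⟩
  have hb : 0 < b := by omega
  have hb1 : 1 < b := by omega
  have hLp : ∀ i x zl s t, s ≡ t [MOD M] → L i x zl s = L i x zl t :=
    fun i x zl s t h => per_of_add (hperL i x zl) h
  have hRp : ∀ vw s t, s ≡ t [MOD M] → R vw s = R vw t :=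
    fun vw s t h => per_of_add (hperR vw) h
  refine ⟨lamD f b m M L, rhoD f b m M R, nuD f b m M D, ?_, ?_, ?_, ?_⟩
  · -- length
    intro P v h
    unfold lamD at h
    split_ifs at h with hc
    calc P.length < b ^ (Nat.log b P.length + 1) := Nat.lt_pow_succ_log_self hb1 _
      _ ≤ b ^ m := Nat.pow_le_pow_right hb hc.2.1
  · -- soundness
    intro P Q v v' h1 h2
    unfold lamD at h1
    split_ifs at h1 with hc
    obtain ⟨hne, him, hpM⟩ := hc
    set i := Nat.log b P.length with hi
    unfold rhoD at h2
    have hmod : P.length % M + ((P ++ Q).length % M + M - P.length % M)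
        = (P ++ Q).length % M + M := by
      have := Nat.mod_lt P.length hM
      omega
    have ht1 : L i 1 (bks f b P 0 i) (P.length % M) = some v := by
      rw [← h1]
      exact hLp _ _ _ _ _ (Nat.mod_modEq _ _)
    have ht2 : R (vwD f b m M Q) ((P ++ Q).length % M + M - P.length % M) = some v' := by
      rw [← h2]
      apply hRp
      have h3 : P.length % M + ((P ++ Q).length % M + M - P.length % M)
          ≡ P.length % M + Q.length [MOD M] := by
        rw [hmod, List.length_append]
        calc (P.length + Q.length) % M + M ≡ (P.length + Q.length) % M [MOD M] :=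
              Nat.add_mod_right _ _
          _ ≡ P.length + Q.length [MOD M] := Nat.mod_modEq _ _
          _ ≡ P.length % M + Q.length [MOD M] := (Nat.mod_modEq _ _).symm.add_right _
      exact Nat.ModEq.add_left_cancel' _ h3
    have key := hsound i (P.length % M) ((P ++ Q).length % M + M - P.length % M) 1
      (bks f b P 0 i) 1 (bks f b (P ++ Q) 0 m) (tl f b m (P ++ Q)) (vwD f b m M Q) v v' him
      (bks_length _ _ _ _ _) ?_ ht1 ht2
    · rw [hmod, one_mul, prod_all] at key
      exact key
    · intro q hq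
      unfold vwD at hq
      split_ifs at hq with hc2
      obtain ⟨hd, hdig⟩ := hc2
      refine ⟨rfl, ?_, ?_⟩
      · rw [bks_take _ _ _ _ him]
        exact bks_congr f fun j _ hj => (left_bk f hd (by omega)).symm
      · rw [← Option.some.inj hq, bks_drop _ _ _ _ him]
        congr 1
        · exact bks_congr f fun j hj _ => (right_bk f hb hd hpM hdig hj).symm
        · exact (right_tl f hb hd hpM hdig him).symm
  · -- completeness
    intro X hk hdig v
    obtain ⟨i, him, hci⟩ := hcompl X.length 1 (bks f b X 0 m) (tl f b m X) v (bks_length _ _ _ _ _)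
      hk
    have hbi : 0 < b ^ i := Nat.pow_pos hb
    obtain ⟨hd1, hd2⟩ := hdig i him
    have hMX : M * b ^ i + X.length % b ^ i ≤ X.length := by
      have h1 : M ≤ X.length / b ^ i := hd1.trans (Nat.mod_le _ _)
      have h2 := Nat.div_add_mod X.length (b ^ i)
      have h3 : M * b ^ i ≤ b ^ i * (X.length / b ^ i) := by
        rw [Nat.mul_comm]
        exact Nat.mul_le_mul_left _ h1
      omega
    have hMX' : M ≤ X.length := by
      have : M ≤ M * b ^ i := Nat.le_mul_of_pos_right _ hbi
      exact this.trans ((Nat.le_add_right _ _).trans hMX)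
    obtain ⟨t, -, ht2, ht3, hL, hR⟩ := hci 0 (by omega)
    have hcb : Nat.Coprime (b ^ i) M := Nat.Coprime.pow_left _ hcop
    obtain ⟨y, hy1, hy2, hy⟩ := exists_y hM hcb (X.length % b ^ i) t
    set o := X.length % b ^ i + b ^ i * y with ho
    have hyM : b ^ i * y ≤ M * b ^ i := by
      rw [Nat.mul_comm]
      exact Nat.mul_le_mul_right _ hy2
    have hoX : o ≤ X.length := by omega
    have hbo : b ^ i ≤ o := (Nat.le_mul_of_pos_right _ hy1).trans (Nat.le_add_left _ _)
    have hmodlt : X.length % b ^ i < b ^ i := Nat.mod_lt _ hbi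
    have hPl : (X.take o).length = o := by rw [List.length_take]; omega
    have hodiv : o / b ^ i = y := by
      rw [ho, Nat.add_mul_div_left _ _ hbi, Nat.div_eq_of_lt hmodlt, Nat.zero_add]
    have hlog : Nat.log b o = i := by
      rw [Nat.log_eq_iff (Or.inr ⟨hb1, by omega⟩)]
      constructor
      · exact hbo
      · calc o < b ^ i + b ^ i * y := by omega
          _ = b ^ i * (y + 1) := by ring
          _ ≤ b ^ i * b := Nat.mul_le_mul_left _ (by omega)
          _ = b ^ (i + 1) := by rw [pow_succ]
    have hQl : (X.drop o).length = X.length - o := List.length_drop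
    have hXd := Nat.div_add_mod X.length (b ^ i)
    have hQe : X.length - o = b ^ i * (X.length / b ^ i - y) := by
      rw [Nat.mul_sub]
      omega
    have hyle : y ≤ X.length / b ^ i % b := hy2.trans hd1
    have hQdvd : b ^ i ∣ (X.drop o).length := by
      rw [hQl, hQe]
      exact dvd_mul_right _ _
    have hQdig : (X.drop o).length / b ^ i % b + M < b := by
      rw [hQl, hQe, Nat.mul_div_cancel_left _ hbi]
      have h1 : (X.length / b ^ i - y) % b = X.length / b ^ i % b - y := by
        have h2 := Nat.div_add_mod (X.length / b ^ i) b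
        have h3 : X.length / b ^ i - y = b * (X.length / b ^ i / b) + (X.length / b ^ i % b - y)
          := by omega
        rw [h3, Nat.mul_add_mod, Nat.mod_eq_of_lt]
        have := Nat.mod_lt (X.length / b ^ i) hb
        omega
      rw [h1]
      omega
    refine ⟨X.take o, X.drop o, List.take_append_drop _ _, ?_, ?_⟩
    · unfold lamD
      rw [hPl, hlog, if_pos ⟨by
        intro h0
        rw [h0, List.length_nil] at hPl
        omega, him, by rw [hodiv]; exact hy2⟩]
      have h1 : bks f b (X.take o) 0 i = (bks f b X 0 m).take i := by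
        rw [bks_take _ _ _ _ him]
        apply bks_congr
        intro j _ hj
        have := left_bk f (P := X.take o) (Q := X.drop o) hQdvd (show j < i by omega)
        rw [List.take_append_drop] at this
        exact this.symm
      rw [h1, ← hL]
      exact hLp _ _ _ _ _ hy
    · unfold rhoD
      obtain ⟨b', hb'⟩ := hR (vwD f b m M (X.drop o)) (by
        unfold vwD
        rw [if_pos ⟨hQdvd, hQdig⟩, bks_drop _ _ _ _ him]
        have hpo : (X.take o).length / b ^ i ≤ M := by rw [hPl, hodiv]; exact hy2
        congr 2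
        · apply bks_congr
          intro j hj _
          have := right_bk f (P := X.take o) (Q := X.drop o) hb hQdvd hpo hQdig hj
          rw [List.take_append_drop] at this
          exact this.symm
        · have := right_tl f (P := X.take o) (Q := X.drop o) hb hQdvd hpo hQdig him
          rw [List.take_append_drop] at this
          exact this.symm)
      have h2 : R (vwD f b m M (X.drop o)) (X.drop o).length = some b' := by
        rw [← hb', hQl]
        apply hRp
        have h3 : o + (X.length - o) ≡ o + (X.length - t) [MOD M] := by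
          have e1 : o + (X.length - o) = t + (X.length - t) := by omega
          rw [e1]
          exact hy.symm.add_right _
        exact Nat.ModEq.add_left_cancel' _ h3
      rw [h2]
      rfl
  · -- finite-state clause
    intro Q Q' hQ hQ' htake hlen hprod
    have hlenj : ∀ j, j ≤ m → Q.length % b ^ j = Q'.length % b ^ j := by
      intro j hj
      have hd : b ^ j ∣ M * b ^ m := (pow_dvd_pow b hj).trans (dvd_mul_left _ _)
      rw [← Nat.mod_mod_of_dvd Q.length hd, hlen, Nat.mod_mod_of_dvd _ hd]
    have hlenM : Q.length % M = Q'.length % M := by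
      have hd : M ∣ M * b ^ m := dvd_mul_right _ _
      rw [← Nat.mod_mod_of_dvd Q.length hd, hlen, Nat.mod_mod_of_dvd _ hd]
    have hlt : ∀ j, j ≤ m → Q.length % b ^ j ≤ b ^ m := by
      intro j hj
      exact (Nat.mod_lt _ (Nat.pow_pos hb)).le.trans (Nat.pow_le_pow_right hb hj)
    have hbk : ∀ j, j < m → bk f b Q j = bk f b Q' j := by
      intro j hj
      unfold bk
      rw [← hlenj j hj.le, ← hlenj (j + 1) hj]
      rw [sg_local htake (hlt (j + 1) hj) (mod_mono _ _ _)]
    have htl : tl f b m Q = tl f b m Q' := by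
      unfold tl
      rw [← hlenj m le_rfl]
      exact tl_local htake (hlt m le_rfl) hQ hQ' hprod
    constructor
    · unfold rhoD
      have e1 : R (vwD f b m M Q) Q.length = R (vwD f b m M Q') Q.length := by
        apply hRc
        intro i hi
        unfold vwD
        have hd : b ^ i ∣ Q.length ↔ b ^ i ∣ Q'.length := by
          rw [Nat.dvd_iff_mod_eq_zero, Nat.dvd_iff_mod_eq_zero, hlenj i hi.le]
        have hdig : Q.length / b ^ i % b = Q'.length / b ^ i % b := by
          rw [← Nat.mod_mul_right_div_self, ← Nat.mod_mul_right_div_self, ← pow_succ,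
            hlenj (i + 1) hi]
        have hbs : bks f b Q (i + 1) (m - (i + 1)) = bks f b Q' (i + 1) (m - (i + 1)) :=
          bks_congr f fun j _ hj => hbk j (by omega)
        simp only [hd, hdig, htl, hbs]
      rw [e1]
      exact hRp _ _ _ hlenM
    · unfold nuD
      rw [hlenM, htl, bks_congr f (X := Q) (Y := Q') (i := 0) (k := m)
        fun j _ hj => hbk j (by omega)]

/-- lead's literal (#13673) -/
theorem g1 (S V : Type) [Monoid S] [Finite S] [AddCommGroup V] [Finite V] (act : V → S → V) :
    ∃ m r : ℕ, ∀ Bd : ℕ, ∃ (Ms : Finset ℕ) (M : ℕ), Ms.card ≤ r ∧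
      (∀ k ∈ Ms, Bd < k ∧ k.Prime ∧ k ∣ M) ∧ 0 < M ∧
      ∀ b : ℕ, 4 * M + 4 < b → Nat.Coprime b M → ∀ (A : Type) (f : A → S),
        ∃ (lam rho : List A → Option V) (nu : List A → V),
          (∀ P v, lam P = some v → P.length < b ^ m) ∧
          (∀ P Q v v', lam P = some v → rho Q = some v' →
            v' = act v ((P ++ Q).map f).prod + nu (P ++ Q)) ∧
          (∀ X, (∀ k ∈ Ms, ¬ k ∣ X.length) →
            (∀ j < m, M ≤ X.length / b ^ j % b ∧ X.length / b ^ j % b + M + 1 ≤ b) →
            ∀ v, ∃ P Q, P ++ Q = X ∧ lam P = some v ∧ (rho Q).isSome) ∧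
          (∀ Q Q', b ^ m ≤ Q.length → b ^ m ≤ Q'.length →
            Q.take (b ^ m) = Q'.take (b ^ m) →
            Q.length % (M * b ^ m) = Q'.length % (M * b ^ m) →
            ((Q.drop (b ^ m)).map f).prod = ((Q'.drop (b ^ m)).map f).prod →
            rho Q = rho Q' ∧ nu Q = nu Q') :=
  g1u S V act

end Crest.Agent.R320.G1_556
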