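import Crest.Agent.R320.Names_755
import Crest.Agent.R320.RandF_808

/-! Row 320: the zone gadget of scheme 1 with positional digits (helper852 #13483 (G1)), all words.
No walls, no promise. -/

set_option autoImplicit false

namespace Crest.Agent.R320.G1_560

open Finset

universe u

section arith

theorem mod_mono (n b j : ℕ) : n % b ^ j ≤ n % b ^ (j + 1) := by
  rw [pow_succ, Nat.mod_mul]; exact Nat.le_add_right _ _

theorem mod_mono' (n b : ℕ) : Monotone (fun j => n % b ^ j) :=
  monotone_nat_of_le_succ fun j => mod_mono n b j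

/-- no carry: the conditions of a legal pair at level `i` -/
theorem nocarry_low {b i o o' : ℕ} (h' : b ^ i ∣ o') {j : ℕ} (hj : j ≤ i) :
    (o + o') % b ^ j = o % b ^ j := by
  have : b ^ j ∣ o' := (pow_dvd_pow b hj).trans h'
  rw [Nat.add_mod, Nat.mod_eq_zero_of_dvd this, add_zero, Nat.mod_mod]

theorem nocarry_high {b i o o' : ℕ} (hb : 0 < b) (h' : b ^ i ∣ o') (h1 : 2 * (o / b ^ i) < b)
    (h2 : 2 * (o' / b ^ i % b) < b) {j : ℕ} (hj : i < j) :
    (o + o') % b ^ j = o + o' % b ^ j := by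
  have hp : 0 < b ^ i := Nat.pow_pos hb
  -- first the level i + 1
  have key : o + o' % b ^ (i + 1) < b ^ (i + 1) := by
    have e1 : o' % b ^ (i + 1) = b ^ i * (o' / b ^ i % b) := by
      rw [pow_succ, Nat.mod_mul, Nat.mod_eq_zero_of_dvd h', zero_add]
    have e2 : o = b ^ i * (o / b ^ i) + o % b ^ i := (Nat.div_add_mod _ _).symm
    have e3 : o % b ^ i < b ^ i := Nat.mod_lt _ hp
    rw [e1, pow_succ]
    have e4 : o / b ^ i + o' / b ^ i % b + 1 ≤ b := by omega
    calc o + b ^ i * (o' / b ^ i % b) = b ^ i * (o / b ^ i) + o % b ^ i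
          + b ^ i * (o' / b ^ i % b) := by rw [← e2]
      _ < b ^ i * (o / b ^ i) + b ^ i + b ^ i * (o' / b ^ i % b) := by omega
      _ = b ^ i * (o / b ^ i + o' / b ^ i % b + 1) := by ring
      _ ≤ b ^ i * b := Nat.mul_le_mul_left _ e4
  obtain ⟨d, rfl⟩ : ∃ d, j = i + 1 + d := ⟨j - (i + 1), by omega⟩
  have e1 : o' % b ^ (i + 1 + d) = o' % b ^ (i + 1) + b ^ (i + 1) * (o' / b ^ (i + 1) % b ^ d) := by
    rw [pow_add, Nat.mod_mul]
  have e2 : o' / b ^ (i + 1) % b ^ d < b ^ d := Nat.mod_lt _ (Nat.pow_pos hb)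
  have hlt : o + o' % b ^ (i + 1 + d) < b ^ (i + 1 + d) := by
    rw [e1]
    calc o + (o' % b ^ (i + 1) + b ^ (i + 1) * (o' / b ^ (i + 1) % b ^ d))
        = (o + o' % b ^ (i + 1)) + b ^ (i + 1) * (o' / b ^ (i + 1) % b ^ d) := by ring
      _ < b ^ (i + 1) + b ^ (i + 1) * (o' / b ^ (i + 1) % b ^ d) := by omega
      _ = b ^ (i + 1) * (o' / b ^ (i + 1) % b ^ d + 1) := by ring
      _ ≤ b ^ (i + 1) * b ^ d := Nat.mul_le_mul_left _ e2
      _ = b ^ (i + 1 + d) := (pow_add b (i + 1) d).symm
  rw [← Nat.add_mod_mod o o']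
  exact Nat.mod_eq_of_lt hlt

end arith

section words

variable {A : Type*}

/-- slices -/
def sl (X : List A) (x y : ℕ) : List A := (X.take y).drop x

theorem sl_left {P Q : List A} {x y : ℕ} (h : y ≤ P.length) : sl (P ++ Q) x y = sl P x y := by
  unfold sl; rw [List.take_append_of_le_length h]

theorem sl_right (P Q : List A) (x y : ℕ) :
    sl (P ++ Q) (P.length + x) (P.length + y) = sl Q x y := by
  unfold sl
  rw [List.take_append, List.take_of_length_le (by omega), Nat.add_sub_cancel_left,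
    List.drop_append, List.drop_of_length_le (by omega), Nat.add_sub_cancel_left, List.nil_append]

theorem split3 (X : List A) {x y : ℕ} (h : x ≤ y) : X = X.take x ++ (sl X x y ++ X.drop y) := by
  unfold sl
  have h1 : (X.take y).take x = X.take x := by rw [List.take_take, min_eq_left h]
  rw [← List.append_assoc]
  conv_lhs => rw [← List.take_append_drop y X, ← List.take_append_drop x (X.take y)]
  rw [h1]

end words

section names

/-- `names` in every universe -/
theorem namesU (N C : Type*) [Finite N] [Finite C] (col : N → C) :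
    ∃ r : ℕ, ∀ B : ℕ, ∃ (Ms : Finset ℕ) (M : ℕ) (nmL nmR : ℕ → Option N),
      Ms.card ≤ r ∧ (∀ k ∈ Ms, B < k ∧ Nat.Prime k ∧ k ∣ M) ∧ 0 < M ∧
      (∀ t, nmL (t + M) = nmL t) ∧ (∀ t, nmR (t + M) = nmR t) ∧
      (∀ t t' c c', nmL t = some c → nmR t' = some c' → (∀ k ∈ Ms, ¬ k ∣ t + t') → c = c') ∧
      (∀ T, (∀ k ∈ Ms, ¬ k ∣ T) → ∀ c, ∃ t < M, nmL t = some c ∧
        ∀ t', t + t' ≡ T [MOD M] → nmR t' = some c) ∧
      (∀ t₁ t₁' t₂ t₂' c₁ c₁' c₂ c₂', nmL t₁ = some c₁ → nmR t₁' = some c₁' →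
        nmL t₂ = some c₂ → nmR t₂' = some c₂' → t₁ + t₁' = t₂ + t₂' →
        (∃ k ∈ Ms, k ∣ t₁ + t₁') → col c₁ = col c₂ ∧ col c₁' = col c₂') := by
  obtain ⟨n, ⟨eN⟩⟩ := Finite.exists_equiv_fin N
  obtain ⟨c, ⟨eC⟩⟩ := Finite.exists_equiv_fin C
  obtain ⟨r, hr⟩ := Names755.names (Fin n) (Fin c) (fun x => eC (col (eN.symm x)))
  refine ⟨r, fun B => ?_⟩
  obtain ⟨Ms, M, nmL, nmR, h1, h2, h3, h4, h5, h6, h7, h8⟩ := hr B
  have key : ∀ (f : ℕ → Option (Fin n)) (t : ℕ) (x : N),
      (f t).map eN.symm = some x ↔ f t = some (eN x) := by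
    intro f t x
    cases hf : f t with
    | none => simp
    | some y =>
      simp only [Option.map_some, Option.some.injEq]
      exact ⟨fun h => by rw [← h]; simp, fun h => by rw [h]; simp⟩
  refine ⟨Ms, M, fun t => (nmL t).map eN.symm, fun t => (nmR t).map eN.symm, h1, h2, h3,
    fun t => by simp only [h4], fun t => by simp only [h5], ?_, ?_, ?_⟩
  · intro t t' x x' hx hx' hk
    simp only [key] at hx hx'
    exact eN.injective (h6 _ _ _ _ hx hx' hk)
  · intro T hT x
    obtain ⟨t, ht, hx, hx'⟩ := h7 T hT (eN x)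
    exact ⟨t, ht, by simpa only [key] using hx, fun t' ht' => by
      simpa only [key] using hx' t' ht'⟩
  · intro t₁ t₁' t₂ t₂' c₁ c₁' c₂ c₂' a1 a2 a3 a4 e hk
    simp only [key] at a1 a2 a3 a4
    obtain ⟨b1, b2⟩ := h8 _ _ _ _ _ _ _ _ a1 a2 a3 a4 e hk
    simp only [Equiv.symm_apply_apply, EmbeddingLike.apply_eq_iff_eq] at b1 b2
    exact ⟨b1, b2⟩

end names

section main

variable {S V : Type*} [Monoid S] [AddCommGroup V]

/-- contexts -/
structure Cx (m N : ℕ) (S V : Type*) where
  i : ℕ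
  hi : i < m
  g : S
  wl : ZMod N × ZMod N
  h : S
  wr : ZMod N × ZMod N
  v : V

theorem Cx.finite (m N : ℕ) (hN : 0 < N) (S V : Type*) [Finite S] [Finite V] :
    Finite (Cx m N S V) := by
  have : NeZero N := ⟨hN.ne'⟩
  let f : Cx m N S V → Fin m × S × (ZMod N × ZMod N) × S × (ZMod N × ZMod N) × V :=
    fun c => (⟨c.i, c.hi⟩, c.g, c.wl, c.h, c.wr, c.v)
  refine Finite.of_injective f ?_
  rintro ⟨i, hi, g, wl, h, wr, v⟩ ⟨i', hi', g', wl', h', wr', v'⟩ e
  simp only [f, Prod.mk.injEq, Fin.mk.injEq] at e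
  obtain ⟨rfl, rfl, rfl, rfl, rfl, rfl⟩ := e
  rfl

variable {m N : ℕ} (e : ℕ → S → ZMod N × ZMod N) (F : S → ZMod N × ZMod N → V) (act : V → S → V)

/-- the value behind the zone in the context `c` with hidden content `z` -/
def val (c : Cx m N S V) (z : S) : V :=
  F (c.g * z * c.h) (c.wl + e c.i z + c.wr) + act c.v (c.g * z * c.h)

/-- good contexts -/
def Good (c : Cx m N S V) : Prop := ∀ z z', val e F act c z = val e F act c z'

variable {A : Type*} (b : ℕ) (f : A → S)

/-- products -/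
def ph (f : A → S) (X : List A) : S := (X.map f).prod

theorem ph_append (X Y : List A) : ph f (X ++ Y) = ph f X * ph f Y := by
  unfold ph; rw [List.map_append, List.prod_append]

/-- weights of the blocks with numbers in `J` -/
def wt (J : Finset ℕ) (X : List A) : ZMod N × ZMod N :=
  ∑ j ∈ J, e j (ph f (sl X (X.length % b ^ j) (X.length % b ^ (j + 1))))

/-- left conditions -/
def LOK (c : Cx m N S V) (P : List A) : Prop :=
  P.length < b ^ (c.i + 1) ∧ 2 * (P.length / b ^ c.i) < b ∧
    ph f (P.take (P.length % b ^ c.i)) = c.g ∧ wt e b f (range c.i) P = c.wl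

/-- right conditions -/
def ROK (c : Cx m N S V) (Q : List A) : Prop :=
  b ^ c.i ∣ Q.length ∧ 2 * (Q.length / b ^ c.i % b) < b ∧
    ph f (Q.drop (Q.length % b ^ (c.i + 1))) = c.h ∧ wt e b f (Ico (c.i + 1) m) Q = c.wr

/-- the geometry of a cut at level `i` -/
theorem geo (hb : 0 < b) {i : ℕ} (hi : i < m) {P Q : List A} (h1 : 2 * (P.length / b ^ i) < b)
    (h2 : b ^ i ∣ Q.length) (h3 : 2 * (Q.length / b ^ i % b) < b) :
    ph f (P ++ Q) = ph f (P.take (P.length % b ^ i)) *
      ph f (sl (P ++ Q) ((P ++ Q).length % b ^ i) ((P ++ Q).length % b ^ (i + 1))) *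
      ph f (Q.drop (Q.length % b ^ (i + 1))) ∧
    wt e b f (range m) (P ++ Q) = wt e b f (range i) P +
      e i (ph f (sl (P ++ Q) ((P ++ Q).length % b ^ i) ((P ++ Q).length % b ^ (i + 1)))) +
      wt e b f (Ico (i + 1) m) Q := by
  have low : ∀ j ≤ i, (P ++ Q).length % b ^ j = P.length % b ^ j := fun j hj => by
    rw [List.length_append]; exact nocarry_low h2 hj
  have high : ∀ j, i < j → (P ++ Q).length % b ^ j = P.length + Q.length % b ^ j := fun j hj => by
    rw [List.length_append]; exact nocarry_high hb h2 h1 h3 hj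
  have hmon := mod_mono' (P ++ Q).length b
  constructor
  · have hs := split3 (P ++ Q) (hmon (Nat.le_succ i))
    have e1 : (P ++ Q).take ((P ++ Q).length % b ^ i) = P.take (P.length % b ^ i) := by
      rw [low i le_rfl, List.take_append_of_le_length (Nat.mod_le _ _)]
    have e2 : (P ++ Q).drop ((P ++ Q).length % b ^ (i + 1)) = Q.drop (Q.length % b ^ (i + 1)) := by
      rw [high (i + 1) (Nat.lt_succ_self i), List.drop_append,
        List.drop_of_length_le (Nat.le_add_right _ _), Nat.add_sub_cancel_left, List.nil_append]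
    simp only at hs
    conv_lhs => rw [hs]
    rw [ph_append, ph_append, e1, Nat.succ_eq_add_one, e2, mul_assoc]
  · have hr : range m = range i ∪ ({i} ∪ Ico (i + 1) m) := by
      ext x; simp only [mem_range, mem_union, mem_singleton, mem_Ico]; omega
    unfold wt
    rw [hr, sum_union, sum_union, sum_singleton, add_assoc]
    · congr 1
      · refine sum_congr rfl fun j hj => ?_
        rw [mem_range] at hj
        rw [low j hj.le, low (j + 1) hj, sl_left (Nat.mod_le _ _)]
      · congr 1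
        refine sum_congr rfl fun j hj => ?_
        rw [mem_Ico] at hj
        rw [high j (by omega), high (j + 1) (by omega), sl_right]
    · rw [disjoint_singleton_left, mem_Ico]; omega
    · rw [disjoint_left]; intro x hx
      simp only [mem_range] at hx
      simp only [mem_union, mem_singleton, mem_Ico]; omega

/-- the data of the two sides read in the whole zone -/
theorem geo2 (hb : 0 < b) {i : ℕ} {P Q : List A} (h1 : 2 * (P.length / b ^ i) < b)
    (h2 : b ^ i ∣ Q.length) (h3 : 2 * (Q.length / b ^ i % b) < b) :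
    ph f (P.take (P.length % b ^ i)) = ph f ((P ++ Q).take ((P ++ Q).length % b ^ i)) ∧
    wt e b f (range i) P = wt e b f (range i) (P ++ Q) ∧
    ph f (Q.drop (Q.length % b ^ (i + 1))) = ph f ((P ++ Q).drop ((P ++ Q).length % b ^ (i + 1))) ∧
    wt e b f (Ico (i + 1) m) Q = wt e b f (Ico (i + 1) m) (P ++ Q) := by
  have low : ∀ j ≤ i, (P ++ Q).length % b ^ j = P.length % b ^ j := fun j hj => by
    rw [List.length_append]; exact nocarry_low h2 hj
  have high : ∀ j, i < j → (P ++ Q).length % b ^ j = P.length + Q.length % b ^ j := fun j hj => by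
    rw [List.length_append]; exact nocarry_high hb h2 h1 h3 hj
  refine ⟨?_, ?_, ?_, ?_⟩
  · rw [low i le_rfl, List.take_append_of_le_length (Nat.mod_le _ _)]
  · unfold wt
    refine sum_congr rfl fun j hj => ?_
    rw [mem_range] at hj
    rw [low j hj.le, low (j + 1) hj, sl_left (Nat.mod_le _ _)]
  · rw [high (i + 1) (Nat.lt_succ_self i), List.drop_append,
      List.drop_of_length_le (Nat.le_add_right _ _), Nat.add_sub_cancel_left, List.nil_append]
  · unfold wt
    refine sum_congr rfl fun j hj => ?_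
    rw [mem_Ico] at hj
    rw [high j (by omega), high (j + 1) (by omega), sl_right]

/-- splitting at level `i` of the whole zone -/
theorem geo3 {i : ℕ} (hi : i < m) (X : List A) :
    ph f X = ph f (X.take (X.length % b ^ i)) *
      ph f (sl X (X.length % b ^ i) (X.length % b ^ (i + 1))) *
      ph f (X.drop (X.length % b ^ (i + 1))) ∧
    wt e b f (range m) X = wt e b f (range i) X +
      e i (ph f (sl X (X.length % b ^ i) (X.length % b ^ (i + 1)))) +
      wt e b f (Ico (i + 1) m) X := by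
  constructor
  · have hs := split3 X (mod_mono X.length b i)
    conv_lhs => rw [hs]
    rw [ph_append, ph_append, mul_assoc]
  · have hr : range m = range i ∪ ({i} ∪ Ico (i + 1) m) := by
      ext x; simp only [mem_range, mem_union, mem_singleton, mem_Ico]; omega
    unfold wt
    rw [hr, sum_union, sum_union, sum_singleton, add_assoc]
    · rw [disjoint_singleton_left, mem_Ico]; omega
    · rw [disjoint_left]; intro x hx
      simp only [mem_range] at hx
      simp only [mem_union, mem_singleton, mem_Ico]; omega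

theorem shift (k s M : ℕ) (hM : 0 < M) : ∃ t, s ≤ t ∧ t < s + M ∧ t % M = k % M := by
  refine ⟨s + (k + (M - 1) * s) % M, Nat.le_add_right _ _, ?_, ?_⟩
  · have := Nat.mod_lt (k + (M - 1) * s) hM; omega
  · rw [Nat.add_mod_mod]
    obtain ⟨M', rfl⟩ : ∃ M', M = M' + 1 := ⟨M - 1, by omega⟩
    have e : s + (k + (M' + 1 - 1) * s) = k + (M' + 1) * s := by
      simp only [Nat.add_sub_cancel]; ring
    rw [e, Nat.add_mul_mod_self_left]

theorem solve (a t β M : ℕ) (hM : 0 < M) (hc : Nat.Coprime a M) :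
    ∃ y, (β + a * y) % M = t % M := by
  have : NeZero M := ⟨hM.ne'⟩
  obtain ⟨u, hu⟩ : ∃ u : (ZMod M)ˣ, (u : ZMod M) = (a : ZMod M) :=
    ⟨ZMod.unitOfCoprime a hc, ZMod.coe_unitOfCoprime a hc⟩
  refine ⟨(((t : ZMod M) - β) * (u⁻¹ : (ZMod M)ˣ)).val, ?_⟩
  rw [← ZMod.natCast_eq_natCast_iff']
  push_cast
  rw [ZMod.natCast_zmod_val, ← hu]
  have : (u : ZMod M) * (((t : ZMod M) - β) * (u⁻¹ : (ZMod M)ˣ)) = (t : ZMod M) - β := by
    rw [mul_comm ((t : ZMod M) - β), ← mul_assoc, Units.mul_inv, one_mul]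
  rw [this]; ring

theorem periodic_mod {β : Type*} {h : ℕ → β} {M : ℕ} (hp : ∀ t, h (t + M) = h t) {x y : ℕ}
    (e : x % M = y % M) : h x = h y := by
  have key : ∀ k t, h (t + M * k) = h t := by
    intro k
    induction k with
    | zero => intro t; simp
    | succ k ih => intro t; rw [mul_add, mul_one, ← add_assoc, hp, ih]
  rw [← Nat.mod_add_div x M, ← Nat.mod_add_div y M, key, key, e]

end main

section top

open Classical in
/-- **the zone gadget** -/
theorem g1 (S V : Type*) [Monoid S] [Finite S] [AddCommGroup V] [Finite V] (act : V → S → V) :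
    ∃ m r : ℕ, ∀ Bd : ℕ, ∃ (Ms : Finset ℕ) (M : ℕ), Ms.card ≤ r ∧
      (∀ k ∈ Ms, Bd < k ∧ k.Prime ∧ k ∣ M) ∧ 0 < M ∧
      ∀ b : ℕ, 4 * M + 4 < b → Nat.Coprime b M → ∀ (A : Type*) (f : A → S),
        ∃ (lam rho : List A → Option V) (nu : List A → V),
          (∀ P v, lam P = some v → P.length < b ^ m) ∧
          (∀ P Q v v', lam P = some v → rho Q = some v' →
            v' = act v ((P ++ Q).map f).prod + nu (P ++ Q)) ∧
          (∀ X, (∀ k ∈ Ms, ¬ k ∣ X.length) →
            (∀ j < m, M ≤ X.length / b ^ j % b ∧ X.length / b ^ j % b + M + 1 ≤ b) →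
            ∀ v, ∃ P Q, P ++ Q = X ∧ lam P = some v ∧ (rho Q).isSome) ∧
          (∀ Q Q', b ^ m ≤ Q.length → b ^ m ≤ Q'.length → Q.take (b ^ m) = Q'.take (b ^ m) →
            Q.length % (M * b ^ m) = Q'.length % (M * b ^ m) →
            ((Q.drop (b ^ m)).map f).prod = ((Q'.drop (b ^ m)).map f).prod →
            rho Q = rho Q' ∧ nu Q = nu Q') := by
  have : Fintype S := Fintype.ofFinite S
  have : Fintype V := Fintype.ofFinite V
  obtain ⟨m, N, e, F, hN, hF⟩ := RandF808.exists_noise S V act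
  have hfin : Finite (Cx m N S V) := Cx.finite m N hN S V
  let Nm := {c : Cx m N S V // Good e F act c}
  let bv : Nm → V := fun c => val e F act c.1 1
  obtain ⟨r, hr⟩ := namesU Nm (V × V) (fun c => (c.1.v, bv c))
  refine ⟨m, r, fun Bd => ?_⟩
  obtain ⟨Ms, M, nmL, nmR, hMs, hk, hM, hpL, hpR, hsame, hcomp, hcol⟩ := hr Bd
  refine ⟨Ms, M, hMs, hk, hM, fun b hb hcop A f => ?_⟩
  have hb0 : 0 < b := by omega
  -- the colours of the legal pairs of total n mod M
  let Lg : ℕ → Nm → Nm → Prop := fun n c c' =>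
    ∃ t t', (t + t') % M = n % M ∧ nmL t = some c ∧ nmR t' = some c'
  have hLg : ∀ n c c' d d', (∃ k ∈ Ms, k ∣ n) → Lg n c c' → Lg n d d' →
      (c.1.v = d.1.v ∧ bv c = bv d) ∧ (c'.1.v = d'.1.v ∧ bv c' = bv d') := by
    rintro n c c' d d' ⟨k, hk1, hk2⟩ ⟨t, t', h1, h2, h3⟩ ⟨s, s', g1, g2, g3⟩
    -- move both right clocks far
    obtain ⟨q, hq⟩ : ∃ q, t + (t' + M * q) = s + (s' + M * (t + t')) := by
      have h0 : s + (s' + M * (t + t')) ≥ t + t' := by
        have : t + t' ≤ M * (t + t') := Nat.le_mul_of_pos_left _ hM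
        omega
      have hmod : (s + (s' + M * (t + t'))) % M = (t + t') % M := by
        rw [← add_assoc, Nat.add_mul_mod_self_left, g1, h1]
      have hdvd : M ∣ (s + (s' + M * (t + t'))) - (t + t') :=
        (Nat.modEq_iff_dvd' h0).1 hmod.symm
      obtain ⟨q, hq⟩ := hdvd
      exact ⟨q, by omega⟩
    have ht' : nmR (t' + M * q) = some c' := by
      rw [← h3]; exact periodic_mod hpR (Nat.add_mul_mod_self_left _ _ _)
    have hs' : nmR (s' + M * (t + t')) = some d' := by
      rw [← g3]; exact periodic_mod hpR (Nat.add_mul_mod_self_left _ _ _)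
    have hkd : k ∣ t + (t' + M * q) := by
      have hkM := (hk k hk1).2.2
      have : (t + (t' + M * q)) % k = n % k := by
        rw [← add_assoc]
        have e1 : M * q % k = 0 := Nat.mod_eq_zero_of_dvd (hkM.mul_right q)
        rw [Nat.add_mod, e1, add_zero, Nat.mod_mod]
        have := congrArg (fun z => z % k) h1
        simp only [Nat.mod_mod_of_dvd _ hkM] at this
        exact this
      exact Nat.dvd_of_mod_eq_zero (this.trans (Nat.mod_eq_zero_of_dvd hk2))
    obtain ⟨a1, a2⟩ := hcol _ _ _ _ _ _ _ _ h2 ht' g2 hs' hq ⟨k, hk1, hkd⟩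
    exact ⟨Prod.mk.inj a1, Prod.mk.inj a2⟩
  let lam : List A → Option V := fun P => (nmL P.length).bind fun c =>
    if LOK e b f c.1 P then some c.1.v else none
  let rho : List A → Option V := fun Q => (nmR Q.length).bind fun c =>
    if ROK e b f c.1 Q then some (bv c) else none
  let nu : List A → V := fun X =>
    if ∃ k ∈ Ms, k ∣ X.length then
      (if h : ∃ p : Nm × Nm, Lg X.length p.1 p.2 then
        bv h.choose.2 - act h.choose.1.1.v (ph f X) else 0)
    else F (ph f X) (wt e b f (range m) X)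
  have hlam : ∀ P v, lam P = some v ↔ ∃ c : Nm, nmL P.length = some c ∧ LOK e b f c.1 P ∧
      c.1.v = v := by
    intro P v
    simp only [lam, Option.bind_eq_some_iff, Option.ite_none_right_eq_some, Option.some.injEq]
  have hrho : ∀ Q v, rho Q = some v ↔ ∃ c : Nm, nmR Q.length = some c ∧ ROK e b f c.1 Q ∧
      bv c = v := by
    intro P v
    simp only [rho, Option.bind_eq_some_iff, Option.ite_none_right_eq_some, Option.some.injEq]
  refine ⟨lam, rho, nu, ?_, ?_, ?_, ?_⟩
  · intro P v hP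
    obtain ⟨c, -, hc, -⟩ := (hlam P v).1 hP
    exact lt_of_lt_of_le hc.1 (Nat.pow_le_pow_right hb0 c.1.hi)
  · intro P Q v v' hP hQ
    obtain ⟨c, hc1, hc2, rfl⟩ := (hlam P v).1 hP
    obtain ⟨c', hc1', hc2', rfl⟩ := (hrho Q v').1 hQ
    have hlen : (P ++ Q).length = P.length + Q.length := List.length_append
    by_cases hbad : ∃ k ∈ Ms, k ∣ (P ++ Q).length
    · have hex : ∃ p : Nm × Nm, Lg (P ++ Q).length p.1 p.2 :=
        ⟨(c, c'), P.length, Q.length, by rw [hlen], hc1, hc1'⟩
      have hL := hLg _ _ _ _ _ hbad hex.choose_spec ⟨P.length, Q.length, by rw [hlen], hc1, hc1'⟩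
      show bv c' = act c.1.v (ph f (P ++ Q)) + nu (P ++ Q)
      simp only [nu, if_pos hbad, dif_pos hex]
      rw [hL.1.1, hL.2.2]; abel
    · have hcc : c = c' := hsame _ _ _ _ hc1 hc1' (fun k hk' hd => hbad ⟨k, hk', by rw [hlen]; exact hd⟩)
      subst hcc
      obtain ⟨e1, e2⟩ := geo e b f hb0 c.1.hi hc2.2.1 hc2'.1 hc2'.2.1
      show bv c = act c.1.v (ph f (P ++ Q)) + nu (P ++ Q)
      simp only [nu, if_neg hbad]
      rw [e1, e2, hc2.2.2.1, hc2.2.2.2, hc2'.2.2.1, hc2'.2.2.2, add_comm]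
      exact c.2 _ _
  · intro X hkX hdig v
    obtain ⟨i, hi, hgood⟩ := hF (ph f X) (wt e b f (range m) X) v
    obtain ⟨e1, e2⟩ := geo3 e b f hi X
    -- the name
    let c0 : Cx m N S V := ⟨i, hi, ph f (X.take (X.length % b ^ i)), wt e b f (range i) X,
      ph f (X.drop (X.length % b ^ (i + 1))), wt e b f (Ico (i + 1) m) X, v⟩
    have hval : ∀ z, val e F act c0 z = F (ph f X) (wt e b f (range m) X) + act v (ph f X) := by
      intro z
      have := hgood _ _ _ e1.symm z
      rw [← this]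
      show F _ (wt e b f (range i) X + e i z + wt e b f (Ico (i + 1) m) X) + _ = _
      congr 2
      rw [e2]; abel
    let c : Nm := ⟨c0, fun z z' => by rw [hval, hval]⟩
    obtain ⟨t, -, htL, htR⟩ := hcomp X.length hkX c
    obtain ⟨d1, d2⟩ := hdig i hi
    -- the place
    set n := X.length with hn
    set ni := n / b ^ i % b with hni
    have hpi : 0 < b ^ i := Nat.pow_pos hb0
    obtain ⟨y1, hy1⟩ := solve (b ^ i) t (n % b ^ i) M hM (Nat.Coprime.pow_left i hcop)
    obtain ⟨y, hya, hyb, hyc⟩ := shift y1 ((ni - M + 1) / 2) M hM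
    have hyni : y ≤ ni := by omega
    have hy2 : 2 * y < b := by omega
    have hy3 : 2 * (ni - y) < b := by omega
    have hmod : (n % b ^ i + b ^ i * y) % M = t % M := by
      rw [← hy1, Nat.add_mod, Nat.mul_mod, hyc, ← Nat.mul_mod, ← Nat.add_mod]
    have hnd : n / b ^ i = b * (n / b ^ i / b) + ni := by rw [hni]; exact (Nat.div_add_mod _ _).symm
    have hydiv : y ≤ n / b ^ i := by omega
    have hnn : n = b ^ i * (n / b ^ i) + n % b ^ i := (Nat.div_add_mod _ _).symm
    have hmul : b ^ i * y ≤ b ^ i * (n / b ^ i) := Nat.mul_le_mul_left _ hydiv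
    set o := n % b ^ i + b ^ i * y with ho
    have hon : o ≤ n := by omega
    have ho' : n - o = b ^ i * (n / b ^ i - y) := by
      rw [Nat.mul_sub]; omega
    have hPl : (X.take o).length = o := by rw [List.length_take]; omega
    have hQl : (X.drop o).length = n - o := by rw [List.length_drop]
    have hodiv : o / b ^ i = y := by
      rw [ho, Nat.add_mul_div_left _ _ hpi, Nat.div_eq_of_lt (Nat.mod_lt _ hpi), zero_add]
    have hQdiv : (n - o) / b ^ i = n / b ^ i - y := by
      rw [ho', Nat.mul_div_cancel_left _ hpi]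
    have hQdig : (n - o) / b ^ i % b = ni - y := by
      rw [hQdiv, hnd, Nat.add_sub_assoc hyni, Nat.mul_add_mod]
      exact Nat.mod_eq_of_lt (by have := Nat.mod_lt (n / b ^ i) hb0; omega)
    have hXe : X.take o ++ X.drop o = X := List.take_append_drop _ _
    have g1' : 2 * ((X.take o).length / b ^ i) < b := by rw [hPl, hodiv]; exact hy2
    have g2' : b ^ i ∣ (X.drop o).length := by rw [hQl, ho']; exact Dvd.intro _ rfl
    have g3' : 2 * ((X.drop o).length / b ^ i % b) < b := by rw [hQl, hQdig]; exact hy3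
    obtain ⟨a1, a2, a3, a4⟩ := geo2 (m := m) e b f hb0 g1' g2' g3'
    rw [hXe] at a1 a2 a3 a4
    refine ⟨X.take o, X.drop o, hXe, (hlam _ _).2 ⟨c, ?_, ⟨?_, g1', a1, a2⟩, rfl⟩, ?_⟩
    · rw [hPl, ← htL]; exact periodic_mod hpL hmod
    · rw [hPl]
      show o < b ^ (i + 1)
      have hlt : n % b ^ i < b ^ i := Nat.mod_lt _ hpi
      calc o < b ^ i + b ^ i * y := by omega
        _ = b ^ i * (y + 1) := by ring
        _ ≤ b ^ i * b := Nat.mul_le_mul_left _ (by omega)
        _ = b ^ (i + 1) := (pow_succ b i).symm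
    · have : rho (X.drop o) = some (bv c) := by
        refine (hrho _ _).2 ⟨c, ?_, ⟨g2', g3', a3, a4⟩, rfl⟩
        refine htR _ ?_
        show (t + (X.drop o).length) % M = n % M
        rw [hQl, Nat.add_mod, ← hmod, ← Nat.add_mod]
        congr 1; omega
      rw [this]; rfl
  · intro Q Q' hQ hQ' htake hlen hdrop
    have hj : ∀ j ≤ m, Q.length % b ^ j = Q'.length % b ^ j := by
      intro j hj
      have hd : b ^ j ∣ M * b ^ m := (pow_dvd_pow b hj).mul_left M
      have := congrArg (fun z => z % b ^ j) hlen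
      simp only [Nat.mod_mod_of_dvd _ hd] at this
      exact this
    have hMM : Q.length % M = Q'.length % M := by
      have := congrArg (fun z => z % M) hlen
      simp only [Nat.mod_mod_of_dvd _ (Dvd.intro _ rfl : M ∣ M * b ^ m)] at this
      exact this
    have hle : ∀ j ≤ m, Q'.length % b ^ j ≤ b ^ m := fun j hj =>
      (Nat.mod_lt _ (Nat.pow_pos hb0)).le.trans (Nat.pow_le_pow_right hb0 hj)
    have hdr : ∀ x ≤ b ^ m, ph f (Q.drop x) = ph f (Q'.drop x) := by
      intro x hx
      have h1 : ∀ R : List A, b ^ m ≤ R.length →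
          ph f (R.drop x) = ph f ((R.take (b ^ m)).drop x) * ph f (R.drop (b ^ m)) := by
        intro R hR
        rw [← ph_append]
        conv_lhs => rw [← List.take_append_drop (b ^ m) R]
        rw [List.drop_append_of_le_length (by rw [List.length_take]; omega)]
      rw [h1 Q hQ, h1 Q' hQ', htake]
      show _ * ((Q.drop (b ^ m)).map f).prod = _ * ((Q'.drop (b ^ m)).map f).prod
      rw [hdrop]
    have hph : ph f Q = ph f Q' := by simpa using hdr 0 (Nat.zero_le _)
    have hsl : ∀ x y, y ≤ b ^ m → sl Q x y = sl Q' x y := by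
      intro x y hy
      have h1 : ∀ R : List A, sl R x y = sl (R.take (b ^ m)) x y := by
        intro R; unfold sl; rw [List.take_take, min_eq_left hy]
      rw [h1 Q, h1 Q', htake]
    have hwt : ∀ J : Finset ℕ, (∀ j ∈ J, j < m) → wt e b f J Q = wt e b f J Q' := by
      intro J hJ
      unfold wt
      refine sum_congr rfl fun j hjJ => ?_
      have hjm := hJ j hjJ
      rw [hj j hjm.le, hj (j + 1) hjm, hsl _ _ (hle (j + 1) hjm)]
    have hdig : ∀ i < m, Q.length / b ^ i % b = Q'.length / b ^ i % b := by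
      intro i hi
      have h1 := hj (i + 1) hi
      rw [pow_succ, Nat.mod_mul, Nat.mod_mul, hj i hi.le] at h1
      exact Nat.eq_of_mul_eq_mul_left (Nat.pow_pos hb0) (Nat.add_left_cancel h1)
    constructor
    · have h1 : nmR Q.length = nmR Q'.length := periodic_mod hpR hMM
      have h2 : ∀ c : Nm, ROK e b f c.1 Q ↔ ROK e b f c.1 Q' := by
        intro c
        unfold ROK
        rw [Nat.dvd_iff_mod_eq_zero, Nat.dvd_iff_mod_eq_zero, hj _ c.1.hi.le, hdig _ c.1.hi,
          hj _ c.1.hi, hdr _ (hle _ c.1.hi), hwt _ (fun j hj => (mem_Ico.1 hj).2)]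
      show (nmR Q.length).bind _ = (nmR Q'.length).bind _
      rw [h1]
      congr 1
      funext c
      simp only [h2 c]
    · have hLe : Lg Q.length = Lg Q'.length := by
        funext c c'
        simp only [Lg, hMM]
      have hkk : (∃ k ∈ Ms, k ∣ Q.length) ↔ ∃ k ∈ Ms, k ∣ Q'.length := by
        have : ∀ k ∈ Ms, (k ∣ Q.length ↔ k ∣ Q'.length) := by
          intro k hk1
          have hkM := (hk k hk1).2.2
          have h1 := congrArg (fun z => z % k) hMM
          simp only [Nat.mod_mod_of_dvd _ hkM] at h1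
          rw [Nat.dvd_iff_mod_eq_zero, Nat.dvd_iff_mod_eq_zero, h1]
        exact ⟨fun ⟨k, h1, h2⟩ => ⟨k, h1, (this k h1).1 h2⟩,
          fun ⟨k, h1, h2⟩ => ⟨k, h1, (this k h1).2 h2⟩⟩
      simp only [nu, hkk, hLe, hph, hwt (range m) (fun j hj => mem_range.1 hj)]

end top

end Crest.Agent.R320.G1_560
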