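import Crest.Agent.R320.Names_755
import Crest.Agent.R320.RandF_808

set_option autoImplicit false

/-!
ROW 320, leaf (G1) of lead #13673 / 852 #13483: the gadget of scheme 1 on words, levels =
positional digits of the total length in base `b`, names = CRT (755).
-/

namespace Crest.Agent.R320.G1_592

open Finset

/-! ### arithmetic of the two clocks -/

theorem left_mod {o o' b i j : ℕ} (h : b ^ i ∣ o') (hj : j ≤ i) :
    (o + o') % b ^ j = o % b ^ j := by
  have : b ^ j ∣ o' := (pow_dvd_pow b hj).trans h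
  rw [Nat.add_mod, Nat.mod_eq_zero_of_dvd this, Nat.add_zero, Nat.mod_mod]

theorem right_mod {o o' b i j : ℕ} (hb0 : 0 < b) (h : o + o' % b ^ i < b ^ i) (hj : i ≤ j) :
    (o + o') % b ^ j = o + o' % b ^ j := by
  obtain ⟨k, rfl⟩ := Nat.exists_eq_add_of_le hj
  have hlt : o + o' % b ^ (i + k) < b ^ (i + k) := by
    rw [pow_add, Nat.mod_mul]
    have hC : 0 < b ^ k := pow_pos hb0 k
    have h2 : o' / b ^ i % b ^ k + 1 ≤ b ^ k := Nat.mod_lt _ hC
    have h3 : b ^ i * (o' / b ^ i % b ^ k + 1) ≤ b ^ i * b ^ k := Nat.mul_le_mul_left _ h2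
    rw [Nat.mul_add, Nat.mul_one] at h3
    omega
  have ho : o < b ^ (i + k) := Nat.lt_of_le_of_lt (Nat.le_add_right _ _) hlt
  rw [Nat.add_mod, Nat.mod_eq_of_lt ho, Nat.mod_eq_of_lt hlt]

/-- no carry at digit `i` -/
theorem no_carry {o o' b i : ℕ} (hb0 : 0 < b) (h : b ^ i ∣ o') (h1 : 2 * (o / b ^ i) < b)
    (h2 : 2 * ((o' / b ^ i) % b) < b) : o + o' % b ^ (i + 1) < b ^ (i + 1) := by
  have hB : 0 < b ^ i := pow_pos hb0 i
  have e : o' % b ^ (i + 1) = b ^ i * (o' / b ^ i % b) := by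
    rw [pow_succ, Nat.mod_mul, Nat.mod_eq_zero_of_dvd h, Nat.zero_add]
  have ho : o < b ^ i * (o / b ^ i + 1) := Nat.lt_mul_div_succ o hB
  have h3 : b ^ i * (o / b ^ i + 1 + o' / b ^ i % b) ≤ b ^ i * b :=
    Nat.mul_le_mul_left _ (by omega)
  rw [Nat.mul_add] at h3
  rw [e, pow_succ]
  omega

/-! ### words -/

section words

variable {A S V W : Type} [Monoid S] [AddCommGroup V] [AddCommGroup W]

def pr (f : A → S) (l : List A) : S := (l.map f).prod

theorem pr_append (f : A → S) (l l' : List A) : pr f (l ++ l') = pr f l * pr f l' := by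
  simp [pr]

/-- block `j` of the word `X`: between the places `|X| % b^j` and `|X| % b^(j+1)` -/
def blk (f : A → S) (b : ℕ) (X : List A) (j : ℕ) : S :=
  pr f ((X.take (X.length % b ^ (j + 1))).drop (X.length % b ^ j))

theorem blk_left (f : A → S) {b : ℕ} {P Q : List A} {i j : ℕ} (h : b ^ i ∣ Q.length)
    (hj : j < i) : blk f b (P ++ Q) j = blk f b P j := by
  unfold blk
  rw [List.length_append, left_mod h (by omega : j + 1 ≤ i), left_mod h hj.le,
    List.take_append_of_le_length (Nat.mod_le _ _)]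

theorem blk_right (f : A → S) {b : ℕ} (hb : 0 < b) {P Q : List A} {i j : ℕ}
    (h : P.length + Q.length % b ^ i < b ^ i)
    (hj : i ≤ j) : blk f b (P ++ Q) j = blk f b Q j := by
  unfold blk
  rw [List.length_append, right_mod hb h (by omega : i ≤ j + 1), right_mod hb h hj,
    List.take_length_add_append, List.drop_length_add_append]

/-- a word is cut at the two ends of block `i` -/
theorem pr_split (f : A → S) {b : ℕ} (X : List A) (i : ℕ) :
    pr f (X.take (X.length % b ^ i)) * blk f b X i * pr f (X.drop (X.length % b ^ (i + 1)))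
      = pr f X := by
  have hle : X.length % b ^ i ≤ X.length % b ^ (i + 1) := by
    rw [← Nat.mod_mod_of_dvd X.length (pow_dvd_pow b (Nat.le_succ i))]
    exact Nat.mod_le _ _
  unfold blk
  rw [← pr_append, ← pr_append]
  congr 1
  have h1 : X.take (X.length % b ^ i) = (X.take (X.length % b ^ (i + 1))).take (X.length % b ^ i) := by
    rw [List.take_take, Nat.min_eq_left hle]
  rw [h1, List.take_append_drop, List.take_append_drop]

/-! ### contexts, names, labels -/

structure Ctx (m : ℕ) (S W V : Type) where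
  i : Fin m
  g : S
  wl : W
  h : S
  wr : W
  v : V

instance (m : ℕ) (S W V : Type) [Finite S] [Finite W] [Finite V] : Finite (Ctx m S W V) :=
  Finite.of_injective
    (fun c : Ctx m S W V => (c.i, c.g, c.wl, c.h, c.wr, c.v)) (by
      rintro ⟨i, g, wl, h, wr, v⟩ ⟨i', g', wl', h', wr', v'⟩ hh
      simp only [Prod.mk.injEq] at hh
      obtain ⟨rfl, rfl, rfl, rfl, rfl, rfl⟩ := hh
      rfl)

variable {m : ℕ} (e : ℕ → S → W) (F : S → W → V) (act : V → S → V)

def Ctx.val (c : Ctx m S W V) (z : S) : V :=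
  F (c.g * z * c.h) (c.wl + e c.i z + c.wr) + act c.v (c.g * z * c.h)

def Ctx.Ok (c : Ctx m S W V) : Prop := ∀ z, c.val e F act z = c.val e F act 1

/-- names: contexts whose hole is invisible -/
abbrev Nm (m : ℕ) (S W V : Type) [Monoid S] [AddCommGroup V] [AddCommGroup W]
    (e : ℕ → S → W) (F : S → W → V) (act : V → S → V) : Type :=
  {c : Ctx m S W V // c.Ok e F act}

def wt (m : ℕ) (f : A → S) (b : ℕ) (X : List A) : W := ∑ j ∈ range m, e j (blk f b X j)

def wtl (m : ℕ) (f : A → S) (b i : ℕ) (X : List A) : W :=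
  ∑ j ∈ range m, if j < i then e j (blk f b X j) else 0

def wtr (m : ℕ) (f : A → S) (b i : ℕ) (X : List A) : W :=
  ∑ j ∈ range m, if i < j then e j (blk f b X j) else 0

theorem wt_split (m : ℕ) (f : A → S) (b i : ℕ) (hi : i < m) (X : List A) :
    wt e m f b X = wtl e m f b i X + e i (blk f b X i) + wtr e m f b i X := by
  unfold wt wtl wtr
  have h1 : e i (blk f b X i) = ∑ j ∈ range m, if j = i then e j (blk f b X j) else 0 := by
    rw [Finset.sum_ite_eq' (range m) i, if_pos (mem_range.2 hi)]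
  rw [h1, ← Finset.sum_add_distrib, ← Finset.sum_add_distrib]
  refine Finset.sum_congr rfl fun j _ => ?_
  rcases lt_trichotomy j i with h | h | h
  · rw [if_pos h, if_neg (by omega), if_neg (by omega)]; simp
  · rw [if_neg (by omega), if_pos h, if_neg (by omega)]; simp
  · rw [if_neg (by omega), if_neg (by omega), if_pos h]; simp

theorem wtl_left (f : A → S) {b : ℕ} {P Q : List A} {i : ℕ} (h : b ^ i ∣ Q.length) :
    wtl e m f b i (P ++ Q) = wtl e m f b i P := by
  unfold wtl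
  refine Finset.sum_congr rfl fun j _ => ?_
  split_ifs with hj
  · rw [blk_left f h hj]
  · rfl

theorem wtr_right (f : A → S) {b : ℕ} (hb : 0 < b) {P Q : List A} {i : ℕ}
    (h : P.length + Q.length % b ^ (i + 1) < b ^ (i + 1)) :
    wtr e m f b i (P ++ Q) = wtr e m f b i Q := by
  unfold wtr
  refine Finset.sum_congr rfl fun j _ => ?_
  split_ifs with hj
  · rw [blk_right f hb h hj]
  · rfl

variable (b : ℕ) (f : A → S) (nmL nmR : ℕ → Option (Nm m S W V e F act))

/-- the left side may use the name `c` -/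
def LL (P : List A) (c : Nm m S W V e F act) : Prop :=
  nmL P.length = some c ∧ P.length < b ^ ((c.1.i : ℕ) + 1) ∧ 2 * (P.length / b ^ (c.1.i : ℕ)) < b ∧
    pr f (P.take (P.length % b ^ (c.1.i : ℕ))) = c.1.g ∧ wtl e m f b c.1.i P = c.1.wl

/-- the right side may use the name `c` -/
def RR (Q : List A) (c : Nm m S W V e F act) : Prop :=
  nmR Q.length = some c ∧ b ^ (c.1.i : ℕ) ∣ Q.length ∧
    2 * ((Q.length / b ^ (c.1.i : ℕ)) % b) < b ∧
    pr f (Q.drop (Q.length % b ^ ((c.1.i : ℕ) + 1))) = c.1.h ∧ wtr e m f b c.1.i Q = c.1.wr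

/-- the two views of a word which is cut by one name -/
theorem diag (hb : 0 < b) {P Q : List A} {c : Nm m S W V e F act}
    (hl : LL e F act b f nmL P c) (hr : RR e F act b f nmR Q c) :
    F (pr f (P ++ Q)) (wt e m f b (P ++ Q)) + act c.1.v (pr f (P ++ Q)) = c.1.val e F act 1 := by
  obtain ⟨-, l1, l2, l3, l4⟩ := hl
  obtain ⟨-, r1, r2, r3, r4⟩ := hr
  have hn := no_carry hb r1 l2 r2
  have hs := pr_split f (b := b) (P ++ Q) c.1.i
  have hw := wt_split e m f b c.1.i c.1.i.2 (P ++ Q)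
  rw [wtl_left e f r1, wtr_right e f hb hn, l4, r4] at hw
  rw [List.length_append, left_mod r1 le_rfl, right_mod hb hn le_rfl,
    List.take_append_of_le_length (Nat.mod_le _ _), List.drop_length_add_append, l3, r3] at hs
  have := c.2 (blk f b (P ++ Q) c.1.i)
  unfold Ctx.val at this
  rw [hs, ← hw] at this
  exact this

open Classical in
noncomputable def lam (P : List A) : Option V :=
  (nmL P.length).bind fun c => if LL e F act b f nmL P c then some c.1.v else none

open Classical in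
noncomputable def rho (Q : List A) : Option V :=
  (nmR Q.length).bind fun c => if RR e F act b f nmR Q c then some (c.1.val e F act 1) else none

theorem lam_some {P : List A} {v : V} :
    lam e F act b f nmL P = some v ↔ ∃ c, LL e F act b f nmL P c ∧ c.1.v = v := by
  unfold lam
  rw [Option.bind_eq_some_iff]
  constructor
  · rintro ⟨c, hc, h⟩
    split_ifs at h with h1
    · exact ⟨c, h1, by simpa using h⟩
  · rintro ⟨c, h1, h⟩
    exact ⟨c, h1.1, by rw [if_pos h1, h]⟩

theorem rho_some {Q : List A} {v : V} :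
    rho e F act b f nmR Q = some v ↔ ∃ c, RR e F act b f nmR Q c ∧ c.1.val e F act 1 = v := by
  unfold rho
  rw [Option.bind_eq_some_iff]
  constructor
  · rintro ⟨c, hc, h⟩
    split_ifs at h with h1
    · exact ⟨c, h1, by simpa using h⟩
  · rintro ⟨c, h1, h⟩
    exact ⟨c, h1.1, by rw [if_pos h1, h]⟩

/-- the pair of labels of a bad total (a function of the total modulo `M`) -/
def Lab (M r : ℕ) (p : V × V) : Prop :=
  ∃ t t' c c', nmL t = some c ∧ nmR t' = some c' ∧ (t + t') % M = r ∧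
    p = (c.1.v, c'.1.val e F act 1)

open Classical in
noncomputable def nu (Ms : Finset ℕ) (M : ℕ) (X : List A) : V :=
  if ∃ k ∈ Ms, k ∣ X.length then
    (if h : ∃ p, Lab e F act nmL nmR M (X.length % M) p then
      h.choose.2 - act h.choose.1 (pr f X) else 0)
  else F (pr f X) (wt e m f b X)

theorem sound (hb : 0 < b) (Ms : Finset ℕ) (M : ℕ)
    (hk : ∀ k ∈ Ms, k ∣ M)
    (hpR : ∀ t, nmR (t + M) = nmR t)
    (hgood : ∀ t t' c c', nmL t = some c → nmR t' = some c' → (∀ k ∈ Ms, ¬ k ∣ t + t') → c = c')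
    (hbad : ∀ t₁ t₁' t₂ t₂' c₁ c₁' c₂ c₂', nmL t₁ = some c₁ → nmR t₁' = some c₁' →
        nmL t₂ = some c₂ → nmR t₂' = some c₂' → t₁ + t₁' = t₂ + t₂' →
        (∃ k ∈ Ms, k ∣ t₁ + t₁') →
        (c₁.1.v, c₁.1.val e F act 1) = (c₂.1.v, c₂.1.val e F act 1) ∧
        (c₁'.1.v, c₁'.1.val e F act 1) = (c₂'.1.v, c₂'.1.val e F act 1))
    {P Q : List A} {v v' : V} (hP : lam e F act b f nmL P = some v)
    (hQ : rho e F act b f nmR Q = some v') :
    v' = act v (pr f (P ++ Q)) + nu e F act b f nmL nmR Ms M (P ++ Q) := by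
  obtain ⟨c, hc, rfl⟩ := (lam_some e F act b f nmL).1 hP
  obtain ⟨c', hc', rfl⟩ := (rho_some e F act b f nmR).1 hQ
  unfold nu
  by_cases hT : ∃ k ∈ Ms, k ∣ (P ++ Q).length
  · rw [if_pos hT]
    have hex : ∃ p, Lab e F act nmL nmR M ((P ++ Q).length % M) p :=
      ⟨(c.1.v, c'.1.val e F act 1), P.length, Q.length, c, c', hc.1, hc'.1,
        by rw [List.length_append], rfl⟩
    rw [dif_pos hex]
    obtain ⟨t, t', d, d', hd, hd', htt, hp⟩ := hex.choose_spec
    have hkey : c.1.v = d.1.v ∧ c'.1.val e F act 1 = d'.1.val e F act 1 := by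
      have hperR : ∀ n t, nmR (t + M * n) = nmR t := by
        intro n
        induction n with
        | zero => intro t; simp
        | succ n ih => intro t; rw [Nat.mul_succ, ← Nat.add_assoc, hpR, ih]
      rw [List.length_append] at htt hT
      rcases Nat.le_total (t + t') (P.length + Q.length) with hle | hle
      · obtain ⟨n, hn⟩ := (Nat.modEq_iff_dvd' hle).1 htt
        have h1 : t + (t' + M * n) = P.length + Q.length := by omega
        have := hbad P.length Q.length t (t' + M * n) c c' d d' hc.1 hc'.1 hd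
          (by rw [hperR]; exact hd') h1.symm hT
        simp only [Prod.mk.injEq] at this
        exact ⟨this.1.1, this.2.2⟩
      · obtain ⟨n, hn⟩ := (Nat.modEq_iff_dvd' hle).1 htt.symm
        have h1 : P.length + (Q.length + M * n) = t + t' := by omega
        obtain ⟨k, hkM, hkd⟩ := hT
        have := hbad P.length (Q.length + M * n) t t' c c' d d' hc.1
          (by rw [hperR]; exact hc'.1) hd hd' h1
          ⟨k, hkM, by rw [← Nat.add_assoc]; exact dvd_add hkd ((hk k hkM).mul_right n)⟩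
        simp only [Prod.mk.injEq] at this
        exact ⟨this.1.1, this.2.2⟩
    rw [hp]
    simp only
    rw [hkey.1, hkey.2]
    abel
  · rw [if_neg hT]
    have hcc : c = c' := hgood P.length Q.length c c' hc.1 hc'.1 (by
      rw [List.length_append] at hT
      push Not at hT
      exact hT)
    subst hcc
    rw [add_comm]
    exact (diag e F act b f nmL nmR hb hc hc').symm

theorem exists_y {B M : ℕ} (h : Nat.Coprime B M) (hM : 0 < M) (β t y0 : ℕ) :
    ∃ y, y0 ≤ y ∧ y < y0 + M ∧ (β + B * y) ≡ t [MOD M] := by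
  have : NeZero M := ⟨hM.ne'⟩
  let u := ZMod.unitOfCoprime B h
  let x : ZMod M := ((t : ZMod M) - β) * ((u⁻¹ : (ZMod M)ˣ) : ZMod M) - y0
  refine ⟨y0 + x.val, by omega, by have := ZMod.val_lt x; omega, ?_⟩
  rw [← ZMod.natCast_eq_natCast_iff]
  push_cast
  rw [ZMod.natCast_zmod_val]
  have hu : (B : ZMod M) * ((u⁻¹ : (ZMod M)ˣ) : ZMod M) = 1 := by
    have := u.mul_inv
    rwa [ZMod.coe_unitOfCoprime] at this
  calc (β : ZMod M) + B * (y0 + x)
      = β + B * (((t : ZMod M) - β) * ((u⁻¹ : (ZMod M)ˣ) : ZMod M)) := by simp [x]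
    _ = β + (B * ((u⁻¹ : (ZMod M)ˣ) : ZMod M)) * (t - β) := by ring
    _ = t := by rw [hu]; ring

theorem exists_y0 {b M d : ℕ} (hb : 4 * M + 4 < b) (h1 : M ≤ d) (h2 : d + M + 1 ≤ b) (hM : 0 < M) :
    ∃ y0, ∀ y, y0 ≤ y → y < y0 + M → y ≤ d ∧ 2 * y < b ∧ 2 * (d - y) < b := by
  by_cases h : 2 * d < b
  · exact ⟨0, fun y _ _ => by omega⟩
  · refine ⟨d - (b - 1) / 2, fun y _ _ => by omega⟩

theorem complete (Ms : Finset ℕ) (M : ℕ) (hM : 0 < M) (hb : 4 * M + 4 < b)
    (hco : Nat.Coprime b M) (hpL : ∀ t, nmL (t + M) = nmL t)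
    (hav : ∀ T, (∀ k ∈ Ms, ¬ k ∣ T) → ∀ c, ∃ t < M, nmL t = some c ∧
        ∀ t', t + t' ≡ T [MOD M] → nmR t' = some c)
    (hF : ∀ (s : S) (w : W) (v : V), ∃ i < m, ∀ g x h : S, g * x * h = s → ∀ z : S,
        F (g * z * h) (w - e i x + e i z) + act v (g * z * h) = F s w + act v s)
    (X : List A) (hk : ∀ k ∈ Ms, ¬ k ∣ X.length)
    (hd : ∀ j < m, M ≤ X.length / b ^ j % b ∧ X.length / b ^ j % b + M + 1 ≤ b) (v : V) :
    ∃ P Q, P ++ Q = X ∧ lam e F act b f nmL P = some v ∧ (rho e F act b f nmR Q).isSome := by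
  have hb0 : 0 < b := by omega
  obtain ⟨i, him, hi⟩ := hF (pr f X) (wt e m f b X) v
  have hs := pr_split f (b := b) X i
  have hw := wt_split e m f b i him X
  set n := X.length with hn
  let ctx : Ctx m S W V := ⟨⟨i, him⟩, pr f (X.take (n % b ^ i)), wtl e m f b i X,
    pr f (X.drop (n % b ^ (i + 1))), wtr e m f b i X, v⟩
  have hval : ∀ z, ctx.val e F act z = F (pr f X) (wt e m f b X) + act v (pr f X) := by
    intro z
    have := hi _ _ _ hs z
    have e1 : wt e m f b X - e i (blk f b X i) + e i z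
        = wtl e m f b i X + e i z + wtr e m f b i X := by rw [hw]; abel
    rw [e1] at this
    exact this
  let c : Nm m S W V e F act := ⟨ctx, fun z => (hval z).trans (hval 1).symm⟩
  obtain ⟨t, htM, hnL, hnR⟩ := hav n hk c
  have hB : 0 < b ^ i := pow_pos hb0 i
  obtain ⟨hd1, hd2⟩ := hd i him
  set d := n / b ^ i % b with hdd
  obtain ⟨y0, hy0⟩ := exists_y0 hb hd1 hd2 hM
  obtain ⟨y, hy1, hy2, hy3⟩ := exists_y (Nat.Coprime.pow_left i hco) hM (n % b ^ i) t y0
  obtain ⟨hyd, h2y, h2d⟩ := hy0 y hy1 hy2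
  set o := n % b ^ i + b ^ i * y with ho
  have hdn : d ≤ n / b ^ i := Nat.mod_le _ _
  have hdiv : b ^ i * (n / b ^ i) + n % b ^ i = n := Nat.div_add_mod n (b ^ i)
  have hmul : b ^ i * y ≤ b ^ i * (n / b ^ i) := Nat.mul_le_mul_left _ (by omega)
  have hon : o ≤ n := by omega
  have hQ : n - o = b ^ i * (n / b ^ i - y) := by
    rw [Nat.mul_sub]; omega
  have hmodlt : n % b ^ i < b ^ i := Nat.mod_lt _ hB
  have hodiv : o / b ^ i = y := by
    rw [ho, Nat.add_mul_div_left _ _ hB, Nat.div_eq_of_lt hmodlt, Nat.zero_add]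
  have homod : o % b ^ i = n % b ^ i := by
    rw [ho, Nat.add_mul_mod_self_left, Nat.mod_mod]
  have holt : o < b ^ (i + 1) := by
    rw [pow_succ]
    have : b ^ i * (y + 1) ≤ b ^ i * b := Nat.mul_le_mul_left _ (by omega)
    rw [Nat.mul_add, Nat.mul_one] at this
    omega
  have hPl : (X.take o).length = o := by rw [List.length_take]; exact Nat.min_eq_left hon
  have hQl : (X.drop o).length = n - o := by rw [List.length_drop]
  have hPQ : X.take o ++ X.drop o = X := List.take_append_drop o X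
  have hdvd : b ^ i ∣ (X.drop o).length := by rw [hQl, hQ]; exact Dvd.intro _ rfl
  have hdig : (X.drop o).length / b ^ i % b = d - y := by
    rw [hQl, hQ, Nat.mul_div_cancel_left _ hB]
    have h1 : b * (n / b ^ i / b) + d = n / b ^ i := Nat.div_add_mod _ _
    have h2 : n / b ^ i - y = (d - y) + b * (n / b ^ i / b) := by omega
    rw [h2, Nat.add_mul_mod_self_left]
    exact Nat.mod_eq_of_lt (by have := Nat.mod_lt (n / b ^ i) hb0; omega)
  have hnc := no_carry (o := (X.take o).length) (o' := (X.drop o).length) hb0 hdvd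
    (by rw [hPl, hodiv]; exact h2y) (by rw [hdig]; exact h2d)
  have hrm : n % b ^ (i + 1) = o + (X.drop o).length % b ^ (i + 1) := by
    have := right_mod hb0 hnc (le_refl (i + 1))
    rwa [← List.length_append, hPQ, hPl, ← hn] at this
  refine ⟨X.take o, X.drop o, hPQ, ?_, ?_⟩
  · rw [lam_some]
    refine ⟨c, ⟨?_, ?_, ?_, ?_, ?_⟩, rfl⟩
    · rw [hPl]
      have hp : Function.Periodic nmL M := hpL
      rw [← hp.map_mod_nat o, hy3, hp.map_mod_nat t]
      exact hnL
    · rw [hPl]; exact holt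
    · rw [hPl]
      show 2 * (o / b ^ i) < b
      rw [hodiv]; exact h2y
    · show pr f ((X.take o).take ((X.take o).length % b ^ i)) = pr f (X.take (n % b ^ i))
      rw [hPl, homod, List.take_take, Nat.min_eq_left (by omega)]
    · show wtl e m f b i (X.take o) = wtl e m f b i X
      conv_rhs => rw [← hPQ]
      rw [wtl_left e f hdvd]
  · rw [Option.isSome_iff_exists]
    refine ⟨_, (rho_some e F act b f nmR).2 ⟨c, ⟨?_, hdvd, ?_, ?_, ?_⟩, rfl⟩⟩
    · apply hnR
      rw [hQl]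
      have : t + (n - o) ≡ o + (n - o) [MOD M] := Nat.ModEq.add_right _ hy3.symm
      rwa [Nat.add_sub_cancel' hon] at this
    · show 2 * ((X.drop o).length / b ^ i % b) < b
      rw [hdig]; exact h2d
    · show pr f ((X.drop o).drop ((X.drop o).length % b ^ (i + 1))) = pr f (X.drop (n % b ^ (i + 1)))
      rw [List.drop_drop, hrm]
    · show wtr e m f b i (X.drop o) = wtr e m f b i X
      conv_rhs => rw [← hPQ]
      rw [wtr_right e f hb0 hnc]

/-! ### locality -/

section loc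

variable {M : ℕ} {Q Q' : List A} (hb : 0 < b) (h1 : b ^ m ≤ Q.length) (h1' : b ^ m ≤ Q'.length)
  (ht : Q.take (b ^ m) = Q'.take (b ^ m))
  (hmod : Q.length % (M * b ^ m) = Q'.length % (M * b ^ m))
  (hpr : pr f (Q.drop (b ^ m)) = pr f (Q'.drop (b ^ m)))

include hmod in
theorem loc_mod {j : ℕ} (hj : j ≤ m) : Q.length % b ^ j = Q'.length % b ^ j := by
  have hd : b ^ j ∣ M * b ^ m := (pow_dvd_pow b hj).trans (Dvd.intro_left _ rfl)
  rw [← Nat.mod_mod_of_dvd _ hd, hmod, Nat.mod_mod_of_dvd _ hd]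

include hmod in
theorem loc_modM : Q.length % M = Q'.length % M := by
  have hd : M ∣ M * b ^ m := Dvd.intro _ rfl
  rw [← Nat.mod_mod_of_dvd _ hd, hmod, Nat.mod_mod_of_dvd _ hd]

include hb in
theorem mod_le_pow {j x : ℕ} (hj : j ≤ m) : x % b ^ j ≤ b ^ m :=
  (Nat.mod_lt _ (pow_pos hb j)).le.trans (Nat.pow_le_pow_right hb hj)

include hb ht hmod in
theorem loc_blk {j : ℕ} (hj : j < m) : blk f b Q j = blk f b Q' j := by
  unfold blk
  rw [loc_mod b hmod (by omega : j + 1 ≤ m), loc_mod b hmod (by omega : j ≤ m)]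
  have a : ∀ Y : List A, Y.take (Q'.length % b ^ (j + 1))
      = (Y.take (b ^ m)).take (Q'.length % b ^ (j + 1)) := by
    intro Y
    rw [List.take_take, Nat.min_eq_left (mod_le_pow b hb (by omega : j + 1 ≤ m))]
  rw [a Q, a Q', ht]

include hb h1 h1' ht hmod hpr in
theorem loc_drop {j : ℕ} (hj : j ≤ m) :
    pr f (Q.drop (Q.length % b ^ j)) = pr f (Q'.drop (Q'.length % b ^ j)) := by
  rw [loc_mod b hmod hj]
  have a : ∀ Y : List A, b ^ m ≤ Y.length → Y.drop (Q'.length % b ^ j)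
      = (Y.take (b ^ m)).drop (Q'.length % b ^ j) ++ Y.drop (b ^ m) := by
    intro Y hY
    have hle : Q'.length % b ^ j ≤ (Y.take (b ^ m)).length := by
      rw [List.length_take, Nat.min_eq_left hY]
      exact mod_le_pow b hb hj
    conv_lhs => rw [← List.take_append_drop (b ^ m) Y]
    rw [List.drop_append_of_le_length hle]
  rw [a Q h1, a Q' h1', pr_append, pr_append, ht, hpr]

end loc

theorem loc_RR (hb : 0 < b) {M : ℕ} (hpR : ∀ t, nmR (t + M) = nmR t) {Q Q' : List A}
    (h1 : b ^ m ≤ Q.length) (h1' : b ^ m ≤ Q'.length) (ht : Q.take (b ^ m) = Q'.take (b ^ m))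
    (hmod : Q.length % (M * b ^ m) = Q'.length % (M * b ^ m))
    (hpr : pr f (Q.drop (b ^ m)) = pr f (Q'.drop (b ^ m))) {c : Nm m S W V e F act}
    (h : RR e F act b f nmR Q c) : RR e F act b f nmR Q' c := by
  obtain ⟨a1, a2, a3, a4, a5⟩ := h
  have hi : (c.1.i : ℕ) < m := c.1.i.2
  refine ⟨?_, ?_, ?_, ?_, ?_⟩
  · have hp : Function.Periodic nmR M := hpR
    rw [← hp.map_mod_nat, ← loc_modM b hmod, hp.map_mod_nat]
    exact a1
  · rw [Nat.dvd_iff_mod_eq_zero, ← loc_mod b hmod hi.le]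
    exact Nat.mod_eq_zero_of_dvd a2
  · rw [← Nat.mod_mul_right_div_self, ← pow_succ] at a3 ⊢
    rw [← loc_mod b hmod (by omega : (c.1.i : ℕ) + 1 ≤ m)]
    exact a3
  · rw [← loc_drop b f hb h1 h1' ht hmod hpr (by omega : (c.1.i : ℕ) + 1 ≤ m)]
    exact a4
  · rw [← a5]
    unfold wtr
    refine Finset.sum_congr rfl fun j hj => ?_
    rw [loc_blk b f hb ht hmod (mem_range.1 hj)]

theorem loc_rho (hb : 0 < b) {M : ℕ} (hpR : ∀ t, nmR (t + M) = nmR t) {Q Q' : List A}
    (h1 : b ^ m ≤ Q.length) (h1' : b ^ m ≤ Q'.length) (ht : Q.take (b ^ m) = Q'.take (b ^ m))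
    (hmod : Q.length % (M * b ^ m) = Q'.length % (M * b ^ m))
    (hpr : pr f (Q.drop (b ^ m)) = pr f (Q'.drop (b ^ m))) :
    rho e F act b f nmR Q = rho e F act b f nmR Q' := by
  apply Option.ext
  intro v
  rw [rho_some, rho_some]
  constructor
  · rintro ⟨c, hc, hv⟩
    exact ⟨c, loc_RR e F act b f nmR hb hpR h1 h1' ht hmod hpr hc, hv⟩
  · rintro ⟨c, hc, hv⟩
    exact ⟨c, loc_RR e F act b f nmR hb hpR h1' h1 ht.symm hmod.symm hpr.symm hc, hv⟩

theorem loc_nu (hb : 0 < b) (Ms : Finset ℕ) {M : ℕ} (hk : ∀ k ∈ Ms, k ∣ M) {Q Q' : List A}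
    (ht : Q.take (b ^ m) = Q'.take (b ^ m))
    (hmod : Q.length % (M * b ^ m) = Q'.length % (M * b ^ m))
    (hpr : pr f (Q.drop (b ^ m)) = pr f (Q'.drop (b ^ m))) :
    nu e F act b f nmL nmR Ms M Q = nu e F act b f nmL nmR Ms M Q' := by
  have e1 : pr f Q = pr f Q' := by
    rw [← List.take_append_drop (b ^ m) Q, ← List.take_append_drop (b ^ m) Q', pr_append,
      pr_append, ht, hpr]
  have e2 : wt e m f b Q = wt e m f b Q' := by
    unfold wt
    refine Finset.sum_congr rfl fun j hj => ?_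
    rw [loc_blk b f hb ht hmod (mem_range.1 hj)]
  have e3 := loc_modM b hmod
  have e4 : (∃ k ∈ Ms, k ∣ Q.length) ↔ ∃ k ∈ Ms, k ∣ Q'.length := by
    refine exists_congr fun k => and_congr_right fun hkM => ?_
    rw [Nat.dvd_iff_mod_eq_zero, Nat.dvd_iff_mod_eq_zero, ← Nat.mod_mod_of_dvd _ (hk k hkM), e3,
      Nat.mod_mod_of_dvd _ (hk k hkM)]
  unfold nu
  rw [e1, e2, if_congr e4 _ rfl]
  rw [e3]

end words

/-- leaf (G1) of lead #13673 (852 #13483) -/
theorem g1 (S V : Type) [Monoid S] [Finite S] [AddCommGroup V] [Finite V] (act : V → S → V) :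
    ∃ m r : ℕ, ∀ Bd : ℕ, ∃ (Ms : Finset ℕ) (M : ℕ), Ms.card ≤ r ∧
      (∀ k ∈ Ms, Bd < k ∧ k.Prime ∧ k ∣ M) ∧ 0 < M ∧
      ∀ b : ℕ, 4 * M + 4 < b → Nat.Coprime b M → ∀ (A : Type) (f : A → S),
      ∃ (lam rho : List A → Option V) (nu : List A → V),
        (∀ P v, lam P = some v → P.length < b ^ m) ∧
        (∀ P Q v v', lam P = some v → rho Q = some v' →
          v' = act v ((P ++ Q).map f).prod + nu (P ++ Q)) ∧
        (∀ X, (∀ k ∈ Ms, ¬ k ∣ X.length) →
          (∀ j < m, M ≤ X.length / b ^ j % b ∧ X.length / b ^ j % b + M + 1 ≤ b) →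
          ∀ v, ∃ P Q, P ++ Q = X ∧ lam P = some v ∧ (rho Q).isSome) ∧
        (∀ Q Q', b ^ m ≤ Q.length → b ^ m ≤ Q'.length → Q.take (b ^ m) = Q'.take (b ^ m) →
          Q.length % (M * b ^ m) = Q'.length % (M * b ^ m) →
          ((Q.drop (b ^ m)).map f).prod = ((Q'.drop (b ^ m)).map f).prod →
          rho Q = rho Q' ∧ nu Q = nu Q') := by
  classical
  have := Fintype.ofFinite S
  have := Fintype.ofFinite V
  obtain ⟨m, N, e, F, hN, hF⟩ := RandF808.exists_noise S V act
  have : NeZero N := ⟨hN.ne'⟩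
  obtain ⟨r, hr⟩ := Names755.names (Nm m S (ZMod N × ZMod N) V e F act) (V × V)
    (fun c => (c.1.v, c.1.val e F act 1))
  refine ⟨m, r, fun Bd => ?_⟩
  obtain ⟨Ms, M, nmL, nmR, h1, h2, h3, h4, h5, h6, h7, h8⟩ := hr Bd
  refine ⟨Ms, M, h1, h2, h3, fun b hb hco A f => ?_⟩
  have hb0 : 0 < b := by omega
  refine ⟨lam e F act b f nmL, rho e F act b f nmR, nu e F act b f nmL nmR Ms M, ?_, ?_, ?_, ?_⟩
  · intro P v hP
    obtain ⟨c, hc, -⟩ := (lam_some e F act b f nmL).1 hP
    exact hc.2.1.trans_le (Nat.pow_le_pow_right hb0 c.1.i.2)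
  · intro P Q v v' hP hQ
    exact sound e F act b f nmL nmR hb0 Ms M (fun k hk => (h2 k hk).2.2) h5 h6 h8 hP hQ
  · intro X hk hd v
    exact complete e F act b f nmL nmR Ms M h3 hb hco h4 h7 hF X hk hd v
  · intro Q Q' g1 g2 g3 g4 g5
    exact ⟨loc_rho e F act b f nmR hb0 h5 g1 g2 g3 g4 g5,
      loc_nu e F act b f nmL nmR hb0 Ms (fun k hk => (h2 k hk).2.2) g3 g4 g5⟩

end Crest.Agent.R320.G1_592
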