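import Crest.Agent.R320.Names_570
import Crest.Agent.R320.RandF_808

/-!
# Row 320: scheme-1 gadget on arbitrary words, positional digits (852's `g1`) (helper662)
-/

set_option autoImplicit false

namespace Crest.Agent.R320.G1_662

section words
variable {α : Type*}

def seg (u : List α) (a b : ℕ) : List α := (u.drop a).take (b - a)

theorem seg_left (P Q : List α) {a b : ℕ} (hb : b ≤ P.length) :
    seg (P ++ Q) a b = seg P a b := by
  unfold seg
  rcases le_total a b with h | h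
  · rw [List.drop_append_of_le_length (h.trans hb), List.take_append_of_le_length]
    rw [List.length_drop]; omega
  · rw [Nat.sub_eq_zero_of_le h]; simp

theorem seg_right (P Q : List α) {a b : ℕ} (ha : P.length ≤ a) :
    seg (P ++ Q) a b = seg Q (a - P.length) (b - P.length) := by
  unfold seg
  rw [List.drop_append, List.drop_eq_nil_of_le ha, List.nil_append]
  congr 1; omega

theorem split3 (u : List α) {a b : ℕ} (h : a ≤ b) :
    u = u.take a ++ seg u a b ++ u.drop b := by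
  unfold seg
  conv_lhs => rw [← List.take_append_drop b u, ← List.take_append_drop a (u.take b)]
  congr 1
  congr 1
  · rw [List.take_take, min_eq_left h]
  · rw [List.drop_take]

end words

theorem mod_mono (T b : ℕ) {i j : ℕ} (h : i ≤ j) : T % b ^ i ≤ T % b ^ j := by
  have : T % b ^ i = (T % b ^ j) % b ^ i := (Nat.mod_mod_of_dvd T (pow_dvd_pow b h)).symm
  rw [this]; exact Nat.mod_le _ _

section gadget

/-- the names -/
structure Nm (m : ℕ) (S V W : Type*) where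
  i : Fin m
  g : S
  wl : W
  h : S
  wr : W
  v : V
  b : V

def Nm.equiv (m : ℕ) (S V W : Type*) : Nm m S V W ≃ Fin m × S × W × S × W × V × V where
  toFun c := (c.i, c.g, c.wl, c.h, c.wr, c.v, c.b)
  invFun t := ⟨t.1, t.2.1, t.2.2.1, t.2.2.2.1, t.2.2.2.2.1, t.2.2.2.2.2.1, t.2.2.2.2.2.2⟩
  left_inv _ := rfl
  right_inv _ := rfl

instance (m : ℕ) (S V W : Type*) [Finite S] [Finite V] [Finite W] : Finite (Nm m S V W) :=
  Finite.of_equiv _ (Nm.equiv m S V W).symm

structure Dat (m : ℕ) (S V W : Type*) where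
  act : V → S → V
  e : ℕ → S → W
  F : S → W → V
  M : ℕ
  B : ℕ
  nmL : ℕ → Option (Nm m S V W)
  nmR : ℕ → Option (Nm m S V W)

namespace Dat

variable {S V W : Type*} [Monoid S] [AddCommGroup V] [AddCommGroup W]
variable {m : ℕ} (D : Dat m S V W)

def Good (c : Nm m S V W) : Prop :=
  ∀ z, D.F (c.g * z * c.h) (c.wl + D.e c.i z + c.wr) + D.act c.v (c.g * z * c.h) = c.b

variable {α : Type*} (φ : List α → S)

def ws (u : List α) (f : ℕ → ℕ) (a b : ℕ) : W :=
  ∑ j ∈ Finset.Ico a b, D.e j (φ (seg u (f j) (f (j + 1))))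

/-- boundaries -/
def bt (T j : ℕ) : ℕ := T % D.B ^ j

/-- left legal with name `c` -/
def LL (c : Nm m S V W) (P : List α) : Prop :=
  D.nmL P.length = some c ∧ D.Good c ∧ P.length < D.B ^ ((c.i : ℕ) + 1) ∧
    2 * (P.length / D.B ^ (c.i : ℕ)) < D.B ∧
    φ (P.take (D.bt P.length c.i)) = c.g ∧
    D.ws φ P (D.bt P.length) 0 c.i = c.wl

/-- right legal with name `c` -/
def RR (c : Nm m S V W) (Q : List α) : Prop :=
  D.nmR Q.length = some c ∧ D.Good c ∧ D.B ^ (c.i : ℕ) ∣ Q.length ∧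
    2 * (Q.length / D.B ^ (c.i : ℕ) % D.B) < D.B ∧
    φ (Q.drop (D.bt Q.length (c.i + 1))) = c.h ∧
    D.ws φ Q (D.bt Q.length) (c.i + 1) m = c.wr

/-- the true data of a zone -/
def tw (u : List α) : W := D.ws φ u (D.bt u.length) 0 m

/-- a name mismatch at total `T` (mod `M`) -/
def Mis (T : ℕ) (c c' : Nm m S V W) : Prop :=
  ∃ t t', t + t' ≡ T [MOD D.M] ∧ D.nmL t = some c ∧ D.nmR t' = some c'

open Classical in
noncomputable def nu (Ms : Finset ℕ) (u : List α) : V :=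
  if ∀ k ∈ Ms, ¬ k ∣ u.length then D.F (φ u) (D.tw φ u)
  else if h : ∃ x : Nm m S V W × Nm m S V W, D.Mis u.length x.1 x.2 then
    h.choose.2.b - D.act h.choose.1.v (φ u)
  else 0

/-- no carry -/
theorem nocarry {o o' i B : ℕ} (hB : 0 < B) (hd : B ^ i ∣ o') (h1 : o < B ^ (i + 1))
    (h2 : 2 * (o / B ^ i) < B) (h3 : 2 * (o' / B ^ i % B) < B) :
    ∀ j, i < j → (o + o') / B ^ j = o' / B ^ j := by
  have hp : 0 < B ^ i := Nat.pow_pos hB
  have key : (o + o') / B ^ (i + 1) = o' / B ^ (i + 1) := by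
    obtain ⟨k, rfl⟩ := hd
    rw [pow_succ, ← Nat.div_div_eq_div_mul, ← Nat.div_div_eq_div_mul,
      Nat.add_mul_div_left _ _ hp, Nat.mul_div_cancel_left _ hp]
    rw [Nat.mul_div_cancel_left _ hp] at h3
    have e := Nat.div_add_mod k B
    have : o / B ^ i + k = B * (k / B) + (o / B ^ i + k % B) := by omega
    have h0 : (o / B ^ i + k % B) / B = 0 := Nat.div_eq_of_lt (by omega)
    rw [this, Nat.mul_add_div hB, h0, add_zero]
  intro j hj
  obtain ⟨l, rfl⟩ : ∃ l, j = i + 1 + l := ⟨j - (i + 1), by omega⟩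
  rw [pow_add, ← Nat.div_div_eq_div_mul, ← Nat.div_div_eq_div_mul, key]

/-- boundaries seen from both sides -/
theorem bounds {o o' i B : ℕ} (hB : 0 < B) (hd : B ^ i ∣ o') (h1 : o < B ^ (i + 1))
    (h2 : 2 * (o / B ^ i) < B) (h3 : 2 * (o' / B ^ i % B) < B) :
    (∀ j, j ≤ i → (o + o') % B ^ j = o % B ^ j ∧ o % B ^ j ≤ o) ∧
    (∀ j, i < j → (o + o') % B ^ j = o + o' % B ^ j) := by
  refine ⟨fun j hj => ⟨?_, Nat.mod_le _ _⟩, fun j hj => ?_⟩
  · obtain ⟨k, rfl⟩ := (pow_dvd_pow B hj).trans hd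
    exact Nat.add_mul_mod_self_left _ _ _
  · have h := nocarry hB hd h1 h2 h3 j hj
    have e1 := Nat.div_add_mod (o + o') (B ^ j)
    have e2 := Nat.div_add_mod o' (B ^ j)
    rw [h] at e1
    omega

/-- if left and right beliefs have the same name they are true -/
theorem true_of_same (hB : 0 < D.B) (hφ : ∀ u v, φ (u ++ v) = φ u * φ v) {c : Nm m S V W}
    {P Q : List α} (hP : D.LL φ c P) (hQ : D.RR φ c Q) :
    D.F (φ (P ++ Q)) (D.tw φ (P ++ Q)) + D.act c.v (φ (P ++ Q)) = c.b := by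
  obtain ⟨-, hg, hA, hA', hPg, hPw⟩ := hP
  obtain ⟨-, -, hd, hq, hQh, hQw⟩ := hQ
  have hi : (c.i : ℕ) < m := c.i.2
  obtain ⟨b1, b2⟩ := bounds hB hd hA hA' hq
  have hbl : ∀ j, j ≤ (c.i : ℕ) → D.bt (P ++ Q).length j = D.bt P.length j := by
    intro j hj
    rw [List.length_append]; exact (b1 j hj).1
  have hbr : ∀ j, (c.i : ℕ) < j → D.bt (P ++ Q).length j - P.length = D.bt Q.length j := by
    intro j hj
    unfold bt
    rw [List.length_append, b2 j hj, Nat.add_sub_cancel_left]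
  have hge : ∀ j, (c.i : ℕ) < j → P.length ≤ D.bt (P ++ Q).length j := by
    intro j hj
    unfold bt
    rw [List.length_append, b2 j hj]; exact Nat.le_add_right _ _
  have hle : ∀ j, j ≤ (c.i : ℕ) → D.bt P.length j ≤ P.length := fun j hj => (b1 j hj).2
  set u := P ++ Q with hu
  set z := φ (seg u (D.bt u.length c.i) (D.bt u.length (c.i + 1))) with hz
  have e1 : φ (u.take (D.bt u.length c.i)) = c.g := by
    rw [hbl _ le_rfl, hu, List.take_append_of_le_length (hle _ le_rfl)]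
    exact hPg
  have e2 : φ (u.drop (D.bt u.length (c.i + 1))) = c.h := by
    have h1 := hge _ (Nat.lt_succ_self (c.i : ℕ))
    have h2 := hbr _ (Nat.lt_succ_self (c.i : ℕ))
    rw [hu, List.drop_append, List.drop_eq_nil_of_le h1, List.nil_append]
    rw [← hu]
    rw [h2]
    exact hQh
  have e3 : φ u = c.g * z * c.h := by
    conv_lhs => rw [split3 u (mod_mono u.length D.B (Nat.le_succ (c.i : ℕ)))]
    rw [hφ, hφ]
    show φ (u.take (D.bt u.length c.i)) * _ * φ (u.drop (D.bt u.length (c.i + 1))) = _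
    rw [e1, e2]; rfl
  have e4 : D.tw φ u = c.wl + D.e c.i z + c.wr := by
    unfold tw ws
    rw [← Finset.sum_Ico_consecutive _ (Nat.zero_le (c.i : ℕ)) (by omega : (c.i : ℕ) ≤ m)]
    rw [Finset.sum_eq_sum_Ico_succ_bot (show (c.i : ℕ) < m from hi)]
    rw [← add_assoc]
    congr 1
    · congr 1
      rw [← hPw]
      unfold ws
      apply Finset.sum_congr rfl
      intro j hj
      rw [Finset.mem_Ico] at hj
      rw [hbl j (by omega), hbl (j + 1) (by omega), hu, seg_left P Q (hle (j + 1) (by omega))]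
    · rw [← hQw]
      unfold ws
      apply Finset.sum_congr rfl
      intro j hj
      rw [Finset.mem_Ico] at hj
      rw [hu, seg_right P Q (hge j (by omega))]
      rw [← hu, hbr j (by omega), hbr (j + 1) (by omega)]
  rw [e4, e3]
  exact hg z

/-- what is used about the names -/
structure Ok (Ms : Finset ℕ) : Prop where
  perL : ∀ t, D.nmL (t + D.M) = D.nmL t
  perR : ∀ t, D.nmR (t + D.M) = D.nmR t
  same : ∀ t t' c c', (∀ k ∈ Ms, ¬ k ∣ t + t') → D.nmL t = some c → D.nmR t' = some c' → c = c'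
  full : ∀ T c, (∀ k ∈ Ms, ¬ k ∣ T) → D.M ≤ T + 1 →
    ∃ t, t ≤ T ∧ D.nmL t = some c ∧ D.nmR (T - t) = some c
  mis : ∀ t1 t1' t2 t2' c1 c1' c2 c2', t1 + t1' = t2 + t2' → (∃ k ∈ Ms, k ∣ t1 + t1') →
    D.nmL t1 = some c1 → D.nmR t1' = some c1' → D.nmL t2 = some c2 → D.nmR t2' = some c2' →
    c1.v = c2.v ∧ c1'.b = c2'.b
  dvd : ∀ k ∈ Ms, k ∣ D.M
  pos : 0 < D.M
  Bpos : 4 * D.M + 4 < D.B
  co : D.B.Coprime D.M
  noise : ∀ (s : S) (w : W) (v : V), ∃ i < m, ∀ g x h : S, g * x * h = s → ∀ z : S,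
    D.F (g * z * h) (w - D.e i x + D.e i z) + D.act v (g * z * h) = D.F s w + D.act v s

variable {D} {Ms : Finset ℕ}

theorem perL_mul (ok : D.Ok Ms) (t k : ℕ) : D.nmL (t + D.M * k) = D.nmL t := by
  induction k with
  | zero => simp
  | succ k ih => rw [Nat.mul_succ, ← add_assoc, ok.perL, ih]

theorem perR_mul (ok : D.Ok Ms) (t k : ℕ) : D.nmR (t + D.M * k) = D.nmR t := by
  induction k with
  | zero => simp
  | succ k ih => rw [Nat.mul_succ, ← add_assoc, ok.perR, ih]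

theorem nmL_congr (ok : D.Ok Ms) {t t' : ℕ} (h : t ≡ t' [MOD D.M]) : D.nmL t = D.nmL t' := by
  have h1 : D.nmL t = D.nmL (t % D.M) := by
    conv_lhs => rw [← Nat.mod_add_div t D.M]
    exact perL_mul ok _ _
  have h2 : D.nmL t' = D.nmL (t' % D.M) := by
    conv_lhs => rw [← Nat.mod_add_div t' D.M]
    exact perL_mul ok _ _
  rw [h1, h2, h]

theorem nmR_congr (ok : D.Ok Ms) {t t' : ℕ} (h : t ≡ t' [MOD D.M]) : D.nmR t = D.nmR t' := by
  have h1 : D.nmR t = D.nmR (t % D.M) := by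
    conv_lhs => rw [← Nat.mod_add_div t D.M]
    exact perR_mul ok _ _
  have h2 : D.nmR t' = D.nmR (t' % D.M) := by
    conv_lhs => rw [← Nat.mod_add_div t' D.M]
    exact perR_mul ok _ _
  rw [h1, h2, h]

theorem mis_mod (ok : D.Ok Ms) {t1 t1' t2 t2' : ℕ} {c1 c1' c2 c2' : Nm m S V W}
    (h : t1 + t1' ≡ t2 + t2' [MOD D.M]) (hk : ∃ k ∈ Ms, k ∣ t1 + t1')
    (h1 : D.nmL t1 = some c1) (h2 : D.nmR t1' = some c1') (h3 : D.nmL t2 = some c2)
    (h4 : D.nmR t2' = some c2') : c1.v = c2.v ∧ c1'.b = c2'.b := by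
  obtain ⟨k, hk, hkd⟩ := hk
  have hM := ok.pos
  -- make the sums equal
  have e1 := Nat.div_add_mod (t1 + t1') D.M
  have e2 := Nat.div_add_mod (t2 + t2') D.M
  have h' : (t1 + t1') % D.M = (t2 + t2') % D.M := h
  refine ok.mis t1 (t1' + D.M * ((t2 + t2') / D.M)) t2 (t2' + D.M * ((t1 + t1') / D.M))
    c1 c1' c2 c2' ?_ ⟨k, hk, ?_⟩ h1 ?_ h3 ?_
  · omega
  · rw [← add_assoc]
    exact dvd_add hkd (Dvd.dvd.mul_right (ok.dvd k hk) _)
  · rw [perR_mul ok]; exact h2
  · rw [perR_mul ok]; exact h4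

theorem sound (ok : D.Ok Ms) (hφ : ∀ u v, φ (u ++ v) = φ u * φ v) {c c' : Nm m S V W}
    {P Q : List α} (hP : D.LL φ c P) (hQ : D.RR φ c' Q) :
    c'.b = D.act c.v (φ (P ++ Q)) + D.nu φ Ms (P ++ Q) := by
  unfold nu
  by_cases h : ∀ k ∈ Ms, ¬ k ∣ (P ++ Q).length
  · rw [if_pos h]
    have hcc : c = c' := by
      apply ok.same _ _ _ _ _ hP.1 hQ.1
      rw [← List.length_append]; exact h
    subst hcc
    rw [add_comm]
    exact (D.true_of_same φ (by have := ok.Bpos; omega) hφ hP hQ).symm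
  · rw [if_neg h]
    have hex : ∃ x : Nm m S V W × Nm m S V W, D.Mis (P ++ Q).length x.1 x.2 :=
      ⟨(c, c'), P.length, Q.length, by rw [List.length_append], hP.1, hQ.1⟩
    rw [dif_pos hex]
    obtain ⟨t, t', h1, h2, h3⟩ := hex.choose_spec
    push Not at h
    obtain ⟨k, hk, hkd⟩ := h
    have := mis_mod ok (t1 := P.length) (t1' := Q.length) (t2 := t) (t2' := t')
      (by rw [← List.length_append]; exact h1.symm)
      ⟨k, hk, by rw [← List.length_append]; exact hkd⟩ hP.1 hQ.1 h2 h3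
    rw [this.1, this.2]
    abel

/-- place of name `c` in block `i` -/
theorem place (ok : D.Ok Ms) {T : ℕ} (hT : ∀ k ∈ Ms, ¬ k ∣ T) (i : ℕ)
    (hd1 : D.M ≤ T / D.B ^ i % D.B) (hd2 : T / D.B ^ i % D.B + D.M + 1 ≤ D.B)
    (c : Nm m S V W) :
    ∃ o, o ≤ T ∧ D.B ^ i ∣ T - o ∧ o < D.B ^ (i + 1) ∧ 2 * (o / D.B ^ i) < D.B ∧
      2 * ((T - o) / D.B ^ i % D.B) < D.B ∧ D.nmL o = some c ∧ D.nmR (T - o) = some c := by
  have hM := ok.pos
  have hBp := ok.Bpos
  have hB : 0 < D.B := by omega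
  have hp : 0 < D.B ^ i := Nat.pow_pos hB
  set r := T % D.B ^ i with hr
  set q := T / D.B ^ i with hq
  have hTq : D.B ^ i * q + r = T := Nat.div_add_mod T (D.B ^ i)
  have hrp : r < D.B ^ i := Nat.mod_lt _ hp
  set d := q % D.B with hd
  have hqd : D.B * (q / D.B) + d = q := Nat.div_add_mod q D.B
  have hqle : d ≤ q := Nat.mod_le _ _
  have hqT : q ≤ T := Nat.div_le_self _ _
  obtain ⟨t, ht, h1, h2⟩ := ok.full T c hT (by omega)
  -- the window for `y`
  set y0 := d - (D.B - 1) / 2 with hy0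
  -- residue : r + B^i * y ≡ t mod M
  have hco : Nat.Coprime (D.B ^ i) D.M := Nat.Coprime.pow_left _ ok.co
  obtain ⟨y1, hy1⟩ : ∃ y1, r + D.B ^ i * y1 ≡ t [MOD D.M] := by
    obtain ⟨x, hx1, hx2⟩ := Nat.chineseRemainder hco r t
    -- x ≡ r mod B^i
    refine ⟨(x + D.B ^ i * (D.M * (r + 1)) - r) / D.B ^ i, ?_⟩
    have hle : r ≤ x + D.B ^ i * (D.M * (r + 1)) := by
      have a1 : 1 * (1 * (r + 1)) ≤ D.B ^ i * (D.M * (r + 1)) :=
        Nat.mul_le_mul hp (Nat.mul_le_mul hM le_rfl)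
      omega
    have hdv : D.B ^ i ∣ x + D.B ^ i * (D.M * (r + 1)) - r := by
      rw [← Nat.modEq_iff_dvd' hle]
      have : x + D.B ^ i * (D.M * (r + 1)) ≡ x [MOD D.B ^ i] := Nat.add_mul_mod_self_left _ _ _
      exact (this.trans hx1).symm
    rw [Nat.mul_div_cancel' hdv]
    have e : r + (x + D.B ^ i * (D.M * (r + 1)) - r) = x + D.M * (D.B ^ i * (r + 1)) := by
      have : D.B ^ i * (D.M * (r + 1)) = D.M * (D.B ^ i * (r + 1)) := by ring
      rw [this] at hle ⊢
      omega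
    rw [e]
    exact Nat.ModEq.trans (Nat.add_mul_mod_self_left _ _ _) hx2
  -- move `y1` into the window
  obtain ⟨y, hyw1, hyw2, hyM⟩ : ∃ y, y0 ≤ y ∧ y < y0 + D.M ∧ y ≡ y1 [MOD D.M] := by
    refine ⟨y0 + (y1 + D.M * y0 - y0) % D.M, Nat.le_add_right _ _,
      Nat.add_lt_add_left (Nat.mod_lt _ hM) _, ?_⟩
    have hle : y0 ≤ D.M * y0 := Nat.le_mul_of_pos_left _ hM
    have e1 : y0 + (y1 + D.M * y0 - y0) % D.M ≡ y0 + (y1 + D.M * y0 - y0) [MOD D.M] :=
      (Nat.mod_modEq _ _).add_left _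
    refine e1.trans ?_
    have e2 : y0 + (y1 + D.M * y0 - y0) = y1 + D.M * y0 := by omega
    rw [e2]
    exact Nat.add_mul_mod_self_left _ _ _
  have hyd : y ≤ d := by omega
  have hy2 : 2 * y < D.B := by omega
  have hy3 : 2 * (d - y) < D.B := by omega
  set o := r + D.B ^ i * y with ho
  have hoq : o / D.B ^ i = y := by
    rw [ho, Nat.add_mul_div_left _ _ hp, Nat.div_eq_of_lt hrp, zero_add]
  have hyq : D.B ^ i * y ≤ D.B ^ i * q := Nat.mul_le_mul_left _ (hyd.trans hqle)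
  have hoT : o ≤ T := by omega
  have hTo : T - o = D.B ^ i * (q - y) := by
    rw [Nat.mul_sub]; omega
  have hoM : o ≡ t [MOD D.M] := by
    refine Nat.ModEq.trans ?_ hy1
    exact (hyM.mul_left _).add_left _
  refine ⟨o, hoT, ⟨q - y, hTo⟩, ?_, by rw [hoq]; exact hy2, ?_, ?_, ?_⟩
  · rw [pow_succ]
    have : y + 1 ≤ D.B := by omega
    have h3 := Nat.mul_le_mul_left (D.B ^ i) this
    rw [Nat.mul_succ] at h3
    omega
  · rw [hTo, Nat.mul_div_cancel_left _ hp]
    have e : q - y = D.B * (q / D.B) + (d - y) := by omega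
    have hlt : d - y < D.B := by omega
    rw [e, Nat.mul_add_mod, Nat.mod_eq_of_lt hlt]
    exact hy3
  · rw [nmL_congr ok hoM]; exact h1
  · rw [← h2]
    apply nmR_congr ok
    have e1 : o + (T - o) ≡ t + (T - t) [MOD D.M] := by
      have a1 : o + (T - o) = T := by omega
      have a2 : t + (T - t) = T := by omega
      rw [a1, a2]
    exact Nat.ModEq.add_left_cancel hoM e1

theorem complete (ok : D.Ok Ms) (hφ : ∀ u v, φ (u ++ v) = φ u * φ v) {u : List α}
    (hT : ∀ k ∈ Ms, ¬ k ∣ u.length)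
    (hdig : ∀ j < m, D.M ≤ u.length / D.B ^ j % D.B ∧
      u.length / D.B ^ j % D.B + D.M + 1 ≤ D.B) (v : V) :
    ∃ P Q c, P ++ Q = u ∧ D.LL φ c P ∧ D.RR φ c Q ∧ c.v = v := by
  have hBp := ok.Bpos
  have hB : 0 < D.B := by omega
  set T := u.length with hTd
  set f := D.bt T with hf
  obtain ⟨i, him, hi⟩ := ok.noise (φ u) (D.tw φ u) v
  set x := φ (seg u (f i) (f (i + 1))) with hx
  set g := φ (u.take (f i)) with hgd
  set h := φ (u.drop (f (i + 1))) with hh
  have e3 : g * x * h = φ u := by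
    conv_rhs => rw [split3 u (mod_mono u.length D.B (Nat.le_succ i))]
    rw [hφ, hφ]; rfl
  let c : Nm m S V W := ⟨⟨i, him⟩, g, D.ws φ u f 0 i, h, D.ws φ u f (i + 1) m, v,
    D.F (φ u) (D.tw φ u) + D.act v (φ u)⟩
  have etw : D.tw φ u = D.ws φ u f 0 i + D.e i x + D.ws φ u f (i + 1) m := by
    unfold tw ws
    rw [← Finset.sum_Ico_consecutive _ (Nat.zero_le i) (by omega : i ≤ m)]
    rw [Finset.sum_eq_sum_Ico_succ_bot him, ← add_assoc]
  have hgood : D.Good c := by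
    intro z
    have := hi g x h e3 z
    have e : D.ws φ u f 0 i + D.e i z + D.ws φ u f (i + 1) m =
        D.tw φ u - D.e i x + D.e i z := by
      rw [etw]; abel
    show D.F (g * z * h) (D.ws φ u f 0 i + D.e i z + D.ws φ u f (i + 1) m) +
      D.act v (g * z * h) = _
    rw [e]; exact this
  obtain ⟨o, hoT, ho1, ho2, ho3, ho6, ho4, ho5⟩ :=
    place ok hT i (hdig i him).1 (hdig i him).2 c
  have hPl : (u.take o).length = o := by rw [List.length_take]; omega
  have hQl : (u.drop o).length = T - o := by rw [List.length_drop]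
  have hPQ : u.take o ++ u.drop o = u := List.take_append_drop o u
  obtain ⟨b1, b2⟩ := bounds hB ho1 ho2 ho3 ho6
  have hTo : o + (T - o) = T := by omega
  rw [hTo] at b1 b2
  have hbl : ∀ j, j ≤ i → f j = D.bt o j := fun j hj => (b1 j hj).1
  have hbr : ∀ j, i < j → f j - o = D.bt (T - o) j := by
    intro j hj
    have : f j = o + D.bt (T - o) j := b2 j hj
    rw [this, Nat.add_sub_cancel_left]
  have hge : ∀ j, i < j → o ≤ f j := by
    intro j hj
    have : f j = o + D.bt (T - o) j := b2 j hj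
    rw [this]; exact Nat.le_add_right _ _
  have hle : ∀ j, j ≤ i → f j ≤ o := by
    intro j hj
    rw [hbl j hj]; exact (b1 j hj).2
  refine ⟨u.take o, u.drop o, c, hPQ, ⟨?_, hgood, ?_, ?_, ?_, ?_⟩,
    ⟨?_, hgood, ?_, ?_, ?_, ?_⟩, rfl⟩
  · rw [hPl]; exact ho4
  · rw [hPl]; exact ho2
  · rw [hPl]; exact ho3
  · rw [hPl]
    show φ ((u.take o).take (D.bt o i)) = φ (u.take (f i))
    rw [← hbl i le_rfl, List.take_take, min_eq_left (hle i le_rfl)]
  · rw [hPl]
    show D.ws φ (u.take o) (D.bt o) 0 i = D.ws φ u f 0 i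
    unfold ws
    apply Finset.sum_congr rfl
    intro j hj
    rw [Finset.mem_Ico] at hj
    rw [← hbl j (by omega), ← hbl (j + 1) (by omega)]
    conv_rhs => rw [← hPQ]
    rw [seg_left _ _ (by rw [hPl]; exact hle (j + 1) (by omega))]
  · rw [hQl]; exact ho5
  · rw [hQl]; exact ho1
  · rw [hQl]; exact ho6
  · rw [hQl]
    show φ ((u.drop o).drop (D.bt (T - o) (i + 1))) = φ (u.drop (f (i + 1)))
    rw [← hbr (i + 1) (by omega), List.drop_drop]
    congr 2
    have := hge (i + 1) (by omega)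
    omega
  · rw [hQl]
    show D.ws φ (u.drop o) (D.bt (T - o)) (i + 1) m = D.ws φ u f (i + 1) m
    unfold ws
    apply Finset.sum_congr rfl
    intro j hj
    rw [Finset.mem_Ico] at hj
    rw [← hbr j (by omega), ← hbr (j + 1) (by omega)]
    conv_rhs => rw [← hPQ]
    rw [seg_right _ _ (by rw [hPl]; exact hge j (by omega)), hPl]

/-! ### invariance -/

/-- `u` and `u'` agree for the right reading -/
structure Agree (D : Dat m S V W) (φ : List α → S) (u u' : List α) : Prop where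
  l : D.B ^ m ≤ u.length
  l' : D.B ^ m ≤ u'.length
  tk : u.take (D.B ^ m) = u'.take (D.B ^ m)
  md : u.length % (D.M * D.B ^ m) = u'.length % (D.M * D.B ^ m)
  ph : φ (u.drop (D.B ^ m)) = φ (u'.drop (D.B ^ m))

theorem Agree.symm {u u' : List α} (h : Agree D φ u u') : Agree D φ u' u :=
  ⟨h.l', h.l, h.tk.symm, h.md.symm, h.ph.symm⟩

theorem Agree.drop {u u' : List α} (h : Agree D φ u u') (hφ : ∀ u v, φ (u ++ v) = φ u * φ v)
    {a : ℕ} (ha : a ≤ D.B ^ m) : φ (u.drop a) = φ (u'.drop a) := by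
  have e : ∀ w : List α, D.B ^ m ≤ w.length →
      φ (w.drop a) = φ ((w.take (D.B ^ m)).drop a) * φ (w.drop (D.B ^ m)) := by
    intro w hw
    rw [← hφ]
    congr 1
    conv_lhs => rw [← List.take_append_drop (D.B ^ m) w]
    rw [List.drop_append_of_le_length]
    rw [List.length_take]; omega
  rw [e u h.l, e u' h.l', h.tk, h.ph]

theorem Agree.seg {u u' : List α} (h : Agree D φ u u') {a b : ℕ} (hb : b ≤ D.B ^ m) :
    G1_662.seg u a b = G1_662.seg u' a b := by
  have e : ∀ w : List α, D.B ^ m ≤ w.length →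
      G1_662.seg w a b = G1_662.seg (w.take (D.B ^ m)) a b := by
    intro w hw
    conv_lhs => rw [← List.take_append_drop (D.B ^ m) w]
    rw [seg_left]
    rw [List.length_take]; omega
  rw [e u h.l, e u' h.l', h.tk]

theorem Agree.modEq {u u' : List α} (h : Agree D φ u u') {j : ℕ} (hj : j ≤ m) :
    u.length % D.B ^ j = u'.length % D.B ^ j :=
  Nat.ModEq.of_dvd ((pow_dvd_pow D.B hj).trans (Dvd.intro_left _ rfl)) h.md

theorem Agree.modM {u u' : List α} (h : Agree D φ u u') :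
    u.length ≡ u'.length [MOD D.M] :=
  Nat.ModEq.of_dvd (Dvd.intro _ rfl) h.md

theorem Agree.ws {u u' : List α} (h : Agree D φ u u') (hB : 0 < D.B) (a b : ℕ) (hb : b ≤ m) :
    D.ws φ u (D.bt u.length) a b = D.ws φ u' (D.bt u'.length) a b := by
  unfold Dat.ws
  apply Finset.sum_congr rfl
  intro j hj
  rw [Finset.mem_Ico] at hj
  have e1 : D.bt u.length j = D.bt u'.length j := h.modEq φ (by omega)
  have e2 : D.bt u.length (j + 1) = D.bt u'.length (j + 1) := h.modEq φ (by omega)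
  rw [e1, e2, h.seg φ]
  have h1 : D.bt u'.length (j + 1) < D.B ^ (j + 1) := Nat.mod_lt _ (Nat.pow_pos hB)
  have h2 : D.B ^ (j + 1) ≤ D.B ^ m := Nat.pow_le_pow_right hB (by omega)
  omega

theorem RR_of_agree (ok : D.Ok Ms) (hφ : ∀ u v, φ (u ++ v) = φ u * φ v) {c : Nm m S V W}
    {Q Q' : List α} (h : Agree D φ Q Q') (hQ : D.RR φ c Q) : D.RR φ c Q' := by
  have hBp := ok.Bpos
  have hB : 0 < D.B := by omega
  have hi : (c.i : ℕ) < m := c.i.2
  obtain ⟨h1, h2, h3, h4, h5, h6⟩ := hQ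
  refine ⟨?_, h2, ?_, ?_, ?_, ?_⟩
  · rw [← nmR_congr ok (h.modM φ)]; exact h1
  · rw [Nat.dvd_iff_mod_eq_zero] at h3 ⊢
    rw [← h.modEq φ (by omega)]; exact h3
  · have e : ∀ x : ℕ, x / D.B ^ (c.i : ℕ) % D.B = x % D.B ^ ((c.i : ℕ) + 1) / D.B ^ (c.i : ℕ) := by
      intro x
      rw [pow_succ, Nat.mod_mul_right_div_self]
    rw [e] at h4 ⊢
    rw [← h.modEq φ (by omega)]; exact h4
  · have e1 : D.bt Q.length (c.i + 1) = D.bt Q'.length (c.i + 1) := h.modEq φ (by omega)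
    rw [← e1, ← h.drop φ hφ]
    · exact h5
    · have h1 : D.bt Q.length (c.i + 1) < D.B ^ ((c.i : ℕ) + 1) := Nat.mod_lt _ (Nat.pow_pos hB)
      have h2 : D.B ^ ((c.i : ℕ) + 1) ≤ D.B ^ m := Nat.pow_le_pow_right hB (by omega)
      omega
  · rw [← h.ws φ hB _ _ le_rfl]; exact h6

theorem RR_congr (ok : D.Ok Ms) (hφ : ∀ u v, φ (u ++ v) = φ u * φ v)
    {Q Q' : List α} (h : Agree D φ Q Q') : (fun c => D.RR φ c Q) = (fun c => D.RR φ c Q') := by
  funext c
  exact propext ⟨RR_of_agree φ ok hφ h, RR_of_agree φ ok hφ (h.symm φ)⟩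

theorem nu_congr (ok : D.Ok Ms) (hφ : ∀ u v, φ (u ++ v) = φ u * φ v)
    {u u' : List α} (h : Agree D φ u u') : D.nu φ Ms u = D.nu φ Ms u' := by
  have hBp := ok.Bpos
  have hB : 0 < D.B := by omega
  have e0 : φ u = φ u' := by
    have := h.drop φ hφ (Nat.zero_le _)
    simpa using this
  have e1 : (∀ k ∈ Ms, ¬ k ∣ u.length) ↔ (∀ k ∈ Ms, ¬ k ∣ u'.length) := by
    have : ∀ k ∈ Ms, (k ∣ u.length ↔ k ∣ u'.length) := by
      intro k hk
      exact (Nat.ModEq.of_dvd (ok.dvd k hk) (h.modM φ)).dvd_iff dvd_rfl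
    exact ⟨fun H k hk h' => H k hk ((this k hk).2 h'), fun H k hk h' => H k hk ((this k hk).1 h')⟩
  have e2 : D.tw φ u = D.tw φ u' := h.ws φ hB _ _ le_rfl
  have e3 : (fun x : Nm m S V W × Nm m S V W => D.Mis u.length x.1 x.2) =
      (fun x : Nm m S V W × Nm m S V W => D.Mis u'.length x.1 x.2) := by
    funext x
    refine propext ⟨?_, ?_⟩
    · rintro ⟨t, t', h1, h2⟩; exact ⟨t, t', h1.trans (h.modM φ), h2⟩
    · rintro ⟨t, t', h1, h2⟩; exact ⟨t, t', h1.trans (h.modM φ).symm, h2⟩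
  unfold nu
  by_cases hk : ∀ k ∈ Ms, ¬ k ∣ u.length
  · rw [if_pos hk, if_pos (e1.1 hk), e0, e2]
  · rw [if_neg hk, if_neg (fun h' => hk (e1.2 h'))]
    by_cases hx : ∃ x : Nm m S V W × Nm m S V W, D.Mis u.length x.1 x.2
    · obtain ⟨x, t, t', h1, h2, h3⟩ := hx
      have hx : ∃ x : Nm m S V W × Nm m S V W, D.Mis u.length x.1 x.2 := ⟨x, t, t', h1, h2, h3⟩
      have hx' : ∃ x : Nm m S V W × Nm m S V W, D.Mis u'.length x.1 x.2 :=
        ⟨x, t, t', h1.trans (h.modM φ), h2, h3⟩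
      rw [dif_pos hx, dif_pos hx', e0]
      -- both chosen pairs have the same labels
      obtain ⟨s, s', a1, a2, a3⟩ := hx.choose_spec
      obtain ⟨r, r', b1, b2, b3⟩ := hx'.choose_spec
      push Not at hk
      obtain ⟨k, hk1, hk2⟩ := hk
      have a4 : k ∣ s + s' := ((Nat.ModEq.of_dvd (ok.dvd k hk1) a1).dvd_iff dvd_rfl).2 hk2
      have := mis_mod ok (t1 := s) (t1' := s') (t2 := r) (t2' := r')
        ((a1.trans (h.modM φ)).trans b1.symm) ⟨k, hk1, a4⟩ a2 a3 b2 b3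
      rw [this.1, this.2]
    · have hx' : ¬ ∃ x : Nm m S V W × Nm m S V W, D.Mis u'.length x.1 x.2 := by
        rintro ⟨x, t, t', h1, h2⟩
        exact hx ⟨x, t, t', h1.trans (h.modM φ).symm, h2⟩
      rw [dif_neg hx, dif_neg hx']

end Dat

open Classical in
noncomputable def pick {N V : Type*} (p : N → Prop) (g : N → V) : Option V :=
  if h : ∃ c, p c then some (g h.choose) else none

theorem pick_spec {N V : Type*} {p : N → Prop} {g : N → V} {v : V} (h : pick p g = some v) :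
    ∃ c, p c ∧ g c = v := by
  unfold pick at h
  split at h
  · rename_i hx
    exact ⟨_, hx.choose_spec, Option.some.inj h⟩
  · simp at h

theorem pick_of {N V : Type*} {p : N → Prop} {g : N → V} {c : N} (hc : p c)
    (hu : ∀ c', p c' → c' = c) : pick p g = some (g c) := by
  unfold pick
  have hx : ∃ c, p c := ⟨c, hc⟩
  rw [dif_pos hx, hu _ hx.choose_spec]

theorem g1 (S V : Type) [Monoid S] [Finite S] [AddCommGroup V] [Finite V] (act : V → S → V) :
    ∃ m r : ℕ, ∀ Bd : ℕ, ∃ (Ms : Finset ℕ) (M : ℕ), Ms.card ≤ r ∧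
      (∀ k ∈ Ms, Bd < k ∧ k.Prime ∧ k ∣ M) ∧ 0 < M ∧
      ∀ b : ℕ, 4 * M + 4 < b → Nat.Coprime b M → ∀ (A : Type) (f : A → S),
        ∃ (lam rho : List A → Option V) (nu : List A → V),
          (∀ P v, lam P = some v → P.length < b ^ m) ∧
          (∀ P Q v v', lam P = some v → rho Q = some v' →
            v' = act v ((P ++ Q).map f).prod + nu (P ++ Q)) ∧
          (∀ X, (∀ k ∈ Ms, ¬ k ∣ X.length) →
            (∀ j < m, M ≤ X.length / b ^ j % b ∧ X.length / b ^ j % b + M + 1 ≤ b) →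
            ∀ v, ∃ P Q, P ++ Q = X ∧ lam P = some v ∧ (rho Q).isSome) ∧
          (∀ Q Q', b ^ m ≤ Q.length → b ^ m ≤ Q'.length → Q.take (b ^ m) = Q'.take (b ^ m) →
            Q.length % (M * b ^ m) = Q'.length % (M * b ^ m) →
            ((Q.drop (b ^ m)).map f).prod = ((Q'.drop (b ^ m)).map f).prod →
            rho Q = rho Q' ∧ nu Q = nu Q') := by
  classical
  haveI := Fintype.ofFinite S
  haveI := Fintype.ofFinite V
  obtain ⟨m, N, e, F, hN, hF⟩ := Crest.Agent.R320.RandF808.exists_noise S V act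
  haveI : NeZero N := ⟨by omega⟩
  let W := ZMod N × ZMod N
  obtain ⟨r, hr⟩ := Crest.Agent.R320.Names_570.exists_names
    (fun c : Nm m S V W => (c.v, c.b))
  refine ⟨m, r, fun Bd => ?_⟩
  obtain ⟨Ms, nmL, nmR, hcard, hprime, pL, pR, hsame, hfull, hmis⟩ := hr Bd
  have hMpos : 0 < ∏ k ∈ Ms, k := Finset.prod_pos fun k hk => (hprime k hk).1.pos
  refine ⟨Ms, ∏ k ∈ Ms, k, hcard,
    fun k hk => ⟨(hprime k hk).2, (hprime k hk).1, Finset.dvd_prod_of_mem _ hk⟩, hMpos, ?_⟩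
  intro b hb hco A f
  let D : Dat m S V W := ⟨act, e, F, ∏ k ∈ Ms, k, b, nmL, nmR⟩
  have ok : D.Ok Ms :=
    { perL := pL
      perR := pR
      same := hsame
      full := by
        intro T c hT hMT
        obtain ⟨t, -, -, h3, h4, h5⟩ := hfull T c 0 hT (by simpa using hMT)
        exact ⟨t, h3, h4, h5⟩
      mis := by
        intro t1 t1' t2 t2' c1 c1' c2 c2' h1 h2 h3 h4 h5 h6
        rcases hmis t1 t1' t2 t2' c1 c1' c2 c2' h1 h2 h3 h4 h5 h6 with ⟨rfl, rfl⟩ | ⟨rfl, rfl, h⟩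
        · exact ⟨rfl, rfl⟩
        · have h7 : (c1.v, c1.b) = (c1'.v, c1'.b) := h
          rw [Prod.mk.injEq] at h7
          exact ⟨h7.1, h7.2.symm⟩
      dvd := fun k hk => Finset.dvd_prod_of_mem _ hk
      pos := hMpos
      Bpos := hb
      co := hco
      noise := hF }
  let φ : List A → S := fun w => (w.map f).prod
  have hφ : ∀ u v, φ (u ++ v) = φ u * φ v := by
    intro u v; simp [φ]
  refine ⟨fun P => pick (fun c => D.LL φ c P) (fun c => c.v),
    fun Q => pick (fun c => D.RR φ c Q) (fun c => c.b), fun u => D.nu φ Ms u, ?_, ?_, ?_, ?_⟩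
  · intro P v h
    obtain ⟨c, hc, -⟩ := pick_spec h
    have h1 := hc.2.2.1
    have h2 : b ^ ((c.i : ℕ) + 1) ≤ b ^ m := Nat.pow_le_pow_right (by omega) c.i.2
    exact lt_of_lt_of_le h1 h2
  · intro P Q v v' h1 h2
    obtain ⟨c, hc, rfl⟩ := pick_spec h1
    obtain ⟨c', hc', rfl⟩ := pick_spec h2
    exact Dat.sound φ ok hφ hc hc'
  · intro X h1 h2 v
    obtain ⟨P, Q, c, hPQ, hP, hQ, rfl⟩ := Dat.complete φ ok hφ h1 h2 v
    refine ⟨P, Q, hPQ, ?_, ?_⟩
    · have hu : ∀ c', D.LL φ c' P → c' = c := by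
        intro c' hc'
        have h3 := hc'.1
        rw [hP.1] at h3
        exact (Option.some.inj h3).symm
      exact pick_of (p := fun c => D.LL φ c P) (g := fun c => c.v) hP hu
    · have hu : ∀ c', D.RR φ c' Q → c' = c := by
        intro c' hc'
        have h3 := hc'.1
        rw [hQ.1] at h3
        exact (Option.some.inj h3).symm
      have h4 := pick_of (p := fun c => D.RR φ c Q) (g := fun c => c.b) hQ hu
      show (pick (fun c => D.RR φ c Q) (fun c => c.b)).isSome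
      rw [h4]
      rfl
  · intro Q Q' l l' ht hm hp
    have ha : Dat.Agree D φ Q Q' := ⟨l, l', ht, hm, hp⟩
    refine ⟨?_, Dat.nu_congr φ ok hφ ha⟩
    show pick (fun c => D.RR φ c Q) (fun c => c.b) = pick (fun c => D.RR φ c Q') (fun c => c.b)
    rw [Dat.RR_congr φ ok hφ ha]

end gadget

end Crest.Agent.R320.G1_662
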