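import Crest.Agent.R320.Names_755
import Crest.Agent.R320.Noise_513

/-! Row 320, gadget g1 of 852 #13483 (levels = digits of the length in base `b`, names = CRT). -/

set_option autoImplicit false
set_option linter.unusedSectionVars false

namespace Crest.Agent.R320.G1_664

open Finset

theorem mod_pow_add {b o o' i j : ℕ} (h : o + o' % b ^ (i + 1) < b ^ (i + 1)) (hj : i + 1 ≤ j) :
    (o + o') % b ^ j = o + o' % b ^ j := by
  obtain ⟨k, rfl⟩ := Nat.exists_eq_add_of_le hj
  rw [pow_add]
  generalize hd : b ^ (i + 1) = d at h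
  have hd0 : 0 < d := by omega
  have e : o + o' = (o + o' % d) + d * (o' / d) := by
    have := Nat.mod_add_div o' d
    omega
  have h1 : (o + o') % d = o + o' % d := by
    rw [e, Nat.add_mul_mod_self_left]
    rw [Nat.mod_eq_of_lt h]
  have h2 : (o + o') / d = o' / d := by
    rw [e, Nat.add_mul_div_left _ _ hd0, Nat.div_eq_of_lt h, zero_add]
  rw [Nat.mod_mul, Nat.mod_mul, h1, h2]
  ring

variable {A S W V : Type} [Monoid S] [AddCommGroup W] [AddCommGroup V] {m : ℕ}

def ph (f : A → S) (X : List A) : S := (X.map f).prod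

theorem ph_app (f : A → S) (X Y : List A) : ph f (X ++ Y) = ph f X * ph f Y := by
  simp [ph]

def seg (X : List A) (a c : ℕ) : List A := (X.drop a).take (c - a)

theorem seg_left {P Q : List A} {a c : ℕ} (ha : a ≤ P.length) (hc : c ≤ P.length) :
    seg (P ++ Q) a c = seg P a c := by
  unfold seg
  rw [List.drop_append_of_le_length ha, List.take_append_of_le_length (by
    rw [List.length_drop]; omega)]

theorem seg_right {P Q : List A} {a c : ℕ} :
    seg (P ++ Q) (P.length + a) (P.length + c) = seg Q a c := by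
  unfold seg
  have : (P ++ Q).drop (P.length + a) = Q.drop a := by simp [List.drop_append]
  rw [this, Nat.add_sub_add_left]

theorem seg_split {Y : List A} {a b : ℕ} (hab : a ≤ b) :
    Y.take a ++ (seg Y a b ++ Y.drop b) = Y := by
  have : Y.drop b = (Y.drop a).drop (b - a) := by
    rw [List.drop_drop]; congr 1; omega
  unfold seg
  rw [this, List.take_append_drop, List.take_append_drop]

/-- weights, extended by zero -/
def eN (e : Fin m → S → W) (j : ℕ) (z : S) : W := if h : j < m then e ⟨j, h⟩ z else 0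

abbrev Nm (m : ℕ) (S W V : Type) := Fin m × S × W × S × W × V

section defs
variable (f : A → S) (act : V → S → V) (e : Fin m → S → W) (F : S → W → V) (b : ℕ)

def bb (c : Nm m S W V) : V :=
  F (c.2.1 * 1 * c.2.2.2.1) (c.2.2.1 + e c.1 1 + c.2.2.2.2.1) +
    act c.2.2.2.2.2 (c.2.1 * 1 * c.2.2.2.1)

def okc (c : Nm m S W V) : Prop := ∀ z,
  F (c.2.1 * z * c.2.2.2.1) (c.2.2.1 + e c.1 z + c.2.2.2.2.1) +
    act c.2.2.2.2.2 (c.2.1 * z * c.2.2.2.1) = bb act e F c

/-- block `j` as read in a word `X` (positions given by the length of `X`) -/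
def blk (X : List A) (j : ℕ) : S := ph f (seg X (X.length % b ^ j) (X.length % b ^ (j + 1)))

def Lf (c : Nm m S W V) (P : List A) : Prop :=
  okc act e F c ∧ P.length < b ^ ((c.1 : ℕ) + 1) ∧ 2 * (P.length / b ^ (c.1 : ℕ)) < b ∧
    ph f (P.take (P.length % b ^ (c.1 : ℕ))) = c.2.1 ∧
    c.2.2.1 = ∑ j ∈ range c.1, eN e j (blk f b P j)

def Rt (c : Nm m S W V) (Q : List A) : Prop :=
  okc act e F c ∧ b ^ (c.1 : ℕ) ∣ Q.length ∧ 2 * (Q.length / b ^ (c.1 : ℕ) % b) < b ∧
    ph f (Q.drop (Q.length % b ^ ((c.1 : ℕ) + 1))) = c.2.2.2.1 ∧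
    c.2.2.2.2.1 = ∑ j ∈ Ico ((c.1 : ℕ) + 1) m, eN e j (blk f b Q j)

def ww (X : List A) : W := ∑ j ∈ range m, eN e j (blk f b X j)

end defs

variable {f : A → S} {act : V → S → V} {e : Fin m → S → W} {F : S → W → V} {b : ℕ}

theorem geo {i : ℕ} {o o' : ℕ} (hb : 0 < b) (h2 : 2 * (o / b ^ i) < b)
    (h3 : b ^ i ∣ o') (h4 : 2 * (o' / b ^ i % b) < b) :
    (∀ j, j ≤ i → (o + o') % b ^ j = o % b ^ j) ∧
    (∀ j, i + 1 ≤ j → (o + o') % b ^ j = o + o' % b ^ j) := by
  constructor
  · intro j hj
    obtain ⟨k, hk⟩ := (pow_dvd_pow b hj).trans h3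
    rw [hk, Nat.add_mul_mod_self_left]
  · intro j hj
    refine mod_pow_add ?_ hj
    obtain ⟨k, rfl⟩ := h3
    have hp : 0 < b ^ i := Nat.pow_pos hb
    have e1 : b ^ i * k % b ^ (i + 1) = b ^ i * (k % b) := by
      rw [pow_succ, Nat.mul_mod_mul_left]
    rw [Nat.mul_div_cancel_left _ hp] at h4
    rw [e1, pow_succ]
    have h5 := Nat.mod_add_div o (b ^ i)
    have h6 := Nat.mod_lt o hp
    have h7 : o / b ^ i + k % b + 1 ≤ b := by omega
    have h8 : b ^ i * (o / b ^ i + k % b + 1) ≤ b ^ i * b := Nat.mul_le_mul_left _ h7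
    have h9 : b ^ i * (o / b ^ i + k % b + 1) = b ^ i * (o / b ^ i) + b ^ i * (k % b) + b ^ i := by
      ring
    omega

/-- reading a junction -/
theorem read (hb : 0 < b) {i : Fin m} {P Q : List A} (h2 : 2 * (P.length / b ^ (i : ℕ)) < b)
    (h3 : b ^ (i : ℕ) ∣ Q.length) (h4 : 2 * (Q.length / b ^ (i : ℕ) % b) < b) :
    ∃ z, ph f (P ++ Q) = ph f (P.take (P.length % b ^ (i : ℕ))) * z *
        ph f (Q.drop (Q.length % b ^ ((i : ℕ) + 1))) ∧
      ww f e b (P ++ Q) = (∑ j ∈ range i, eN e j (blk f b P j)) + e i z +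
        ∑ j ∈ Ico ((i : ℕ) + 1) m, eN e j (blk f b Q j) := by
  obtain ⟨g1, g2⟩ := geo hb h2 h3 h4
  have hl : (P ++ Q).length = P.length + Q.length := List.length_append
  refine ⟨blk f b (P ++ Q) i, ?_, ?_⟩
  · have e1 : (P ++ Q).length % b ^ (i : ℕ) = P.length % b ^ (i : ℕ) := by
      rw [hl]; exact g1 _ le_rfl
    have e2 : (P ++ Q).length % b ^ ((i : ℕ) + 1) = P.length + Q.length % b ^ ((i : ℕ) + 1) := by
      rw [hl]; exact g2 _ le_rfl
    have hle : P.length % b ^ (i : ℕ) ≤ P.length := Nat.mod_le _ _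
    have h5 := seg_split (Y := P ++ Q) (a := P.length % b ^ (i : ℕ))
      (b := P.length + Q.length % b ^ ((i : ℕ) + 1)) (hle.trans (Nat.le_add_right _ _))
    conv_lhs => rw [← h5]
    rw [ph_app, ph_app, blk, e1, e2, ← mul_assoc, List.take_append_of_le_length hle]
    congr 2
    simp [List.drop_append]
  · unfold ww
    rw [← Finset.sum_range_add_sum_Ico _ (show (i : ℕ) + 1 ≤ m from i.2), Finset.sum_range_succ]
    congr 1
    · congr 1
      · refine Finset.sum_congr rfl fun j hj => ?_
        have hj' := Finset.mem_range.1 hj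
        unfold blk
        rw [hl, g1 j (by omega), g1 (j + 1) (by omega),
          seg_left (Nat.mod_le _ _) (Nat.mod_le _ _)]
      · unfold eN
        rw [dif_pos i.2]
    · refine Finset.sum_congr rfl fun j hj => ?_
      have hj' := Finset.mem_Ico.1 hj
      unfold blk
      rw [hl, g2 j (by omega), g2 (j + 1) (by omega), seg_right]

theorem exact_same (hb : 0 < b) {c : Nm m S W V} {P Q : List A} (hL : Lf f act e F b c P)
    (hR : Rt f act e F b c Q) :
    bb act e F c = act c.2.2.2.2.2 (ph f (P ++ Q)) + F (ph f (P ++ Q)) (ww f e b (P ++ Q)) := by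
  obtain ⟨h1, h2, h3, h4, h5⟩ := hL
  obtain ⟨h1', h2', h3', h4', h5'⟩ := hR
  obtain ⟨z, hz1, hz2⟩ := read (f := f) (e := e) hb h3 h2' h3'
  rw [hz1, hz2, h4, h4', ← h5, ← h5', ← h1 z]
  abel

theorem exists_window {M b d : ℕ} (hb : 4 * M + 4 < b) (hd1 : M ≤ d) (hd2 : d + M + 1 ≤ b) :
    ∃ y0, ∀ y, y0 ≤ y → y < y0 + M → 2 * y < b ∧ y ≤ d ∧ 2 * (d - y) < b := by
  by_cases h : 2 * d < b
  · exact ⟨0, fun y _ hy => ⟨by omega, by omega, by omega⟩⟩
  · exact ⟨d - (b - 1) / 2, fun y h1 h2 => ⟨by omega, by omega, by omega⟩⟩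

/-- a solution of a linear congruence in every window of length `M` -/
theorem exists_lin {M a β t y0 : ℕ} (hM : 0 < M) (hco : Nat.Coprime a M) :
    ∃ y, y0 ≤ y ∧ y < y0 + M ∧ β + a * y ≡ t [MOD M] := by
  -- work modulo `M`
  have : NeZero M := ⟨hM.ne'⟩
  let u : ZMod M := ((t : ZMod M) - β) * (a : ZMod M)⁻¹ - y0
  refine ⟨y0 + u.val, Nat.le_add_right _ _, Nat.add_lt_add_left (ZMod.val_lt u) _, ?_⟩
  rw [← ZMod.natCast_eq_natCast_iff]
  push_cast
  rw [ZMod.natCast_zmod_val]
  have hinv : (a : ZMod M) * (a : ZMod M)⁻¹ = 1 := ZMod.coe_mul_inv_eq_one a hco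
  have : (β : ZMod M) + a * (y0 + u) = β + ((a : ZMod M) * (a : ZMod M)⁻¹) * (t - β) := by
    simp only [u]; ring
  rw [this, hinv]
  ring

/-- **g1** -/
theorem g1 (S V : Type) [Monoid S] [Finite S] [AddCommGroup V] [Finite V] (act : V → S → V) :
    ∃ m r : ℕ, ∀ Bd : ℕ, ∃ (Ms : Finset ℕ) (M : ℕ), Ms.card ≤ r ∧
      (∀ k ∈ Ms, Bd < k ∧ k.Prime ∧ k ∣ M) ∧ 0 < M ∧
      ∀ b : ℕ, 4 * M + 4 < b → Nat.Coprime b M → ∀ (A : Type) (f : A → S),
        ∃ (lam rho : List A → Option V) (nu : List A → V),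
          (∀ P v, lam P = some v → P.length < b ^ m) ∧
          (∀ P Q v v', lam P = some v → rho Q = some v' →
            v' = act v ((P ++ Q).map f).prod + nu (P ++ Q)) ∧
          (∀ X, (∀ k ∈ Ms, ¬ k ∣ X.length) →
            (∀ j < m, M ≤ X.length / b ^ j % b ∧ X.length / b ^ j % b + M + 1 ≤ b) →
            ∀ v, ∃ P Q, P ++ Q = X ∧ lam P = some v ∧ (rho Q).isSome) ∧
          (∀ Q Q', b ^ m ≤ Q.length → b ^ m ≤ Q'.length → Q.take (b ^ m) = Q'.take (b ^ m) →
            Q.length % (M * b ^ m) = Q'.length % (M * b ^ m) →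
            ((Q.drop (b ^ m)).map f).prod = ((Q'.drop (b ^ m)).map f).prod →
            rho Q = rho Q' ∧ nu Q = nu Q') := by
  classical
  obtain ⟨W, iW, fW, m, e, F, hF⟩ := _root_.Crest.Agent.R320.Noise513.explicit_noise S V act
  obtain ⟨r, hr⟩ := _root_.Crest.Agent.R320.Names755.names (Nm m S W V) (V × V) (fun c => (c.2.2.2.2.2, bb act e F c))
  refine ⟨m, r, fun Bd => ?_⟩
  obtain ⟨Ms, M, nmL, nmR, n1, n2, n3, n4, n5, n6, n7, n8⟩ := hr Bd
  refine ⟨Ms, M, n1, n2, n3, fun b hb hco A f => ?_⟩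
  have hb0 : 0 < b := by omega
  -- periodicity
  have hperL : ∀ k t, nmL (t + k * M) = nmL t := by
    intro k
    induction k with
    | zero => intro t; simp
    | succ k ih => intro t; rw [show t + (k + 1) * M = (t + k * M) + M by ring, n4, ih]
  have hperR : ∀ k t, nmR (t + k * M) = nmR t := by
    intro k
    induction k with
    | zero => intro t; simp
    | succ k ih => intro t; rw [show t + (k + 1) * M = (t + k * M) + M by ring, n5, ih]
  have hmodR : ∀ t, nmR t = nmR (t % M) := by
    intro t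
    conv_lhs => rw [← Nat.mod_add_div t M, mul_comm M]
    exact hperR _ _
  have hmodL : ∀ t, nmL t = nmL (t % M) := by
    intro t
    conv_lhs => rw [← Nat.mod_add_div t M, mul_comm M]
    exact hperL _ _
  -- values on bad residues
  have hbad : ∀ ρ : ℕ, ∃ v0 r0 : V, (∃ k ∈ Ms, k ∣ ρ) → ∀ t t' c c', nmL t = some c →
      nmR t' = some c' → (t + t') % M = ρ % M → c.2.2.2.2.2 = v0 ∧ bb act e F c' = r0 := by
    intro ρ
    by_cases h : ∃ t t' c c', nmL t = some c ∧ nmR t' = some c' ∧ (t + t') % M = ρ % M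
    · obtain ⟨t, t', c, c', h1, h2, h3⟩ := h
      refine ⟨c.2.2.2.2.2, bb act e F c', fun hk t₁ t₁' c₁ c₁' g1 g2 g3 => ?_⟩
      obtain ⟨k, hk1, hk2⟩ := hk
      have hkM := (n2 k hk1).2.2
      have e0 : (t₁ + t₁') % M = (t + t') % M := g3.trans h3.symm
      have e1 : t₁ + (t₁' + ((t + t') / M) * M) = t + (t' + ((t₁ + t₁') / M) * M) := by
        have h4 := Nat.mod_add_div (t + t') M
        have h5 := Nat.mod_add_div (t₁ + t₁') M
        have h6 : M * ((t + t') / M) = (t + t') / M * M := mul_comm _ _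
        have h7 : M * ((t₁ + t₁') / M) = (t₁ + t₁') / M * M := mul_comm _ _
        omega
      have hdiv : ∃ k ∈ Ms, k ∣ t₁ + (t₁' + ((t + t') / M) * M) := by
        refine ⟨k, hk1, ?_⟩
        rw [← add_assoc]
        refine Nat.dvd_add ?_ (hkM.mul_left _)
        have h4 : (t₁ + t₁') % k = ρ % k := by
          have : (t₁ + t₁') % M % k = ρ % M % k := by rw [g3]
          rwa [Nat.mod_mod_of_dvd _ hkM, Nat.mod_mod_of_dvd _ hkM] at this
        rw [Nat.dvd_iff_mod_eq_zero, h4]
        exact Nat.mod_eq_zero_of_dvd hk2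
      have := n8 t₁ (t₁' + ((t + t') / M) * M) t (t' + ((t₁ + t₁') / M) * M) c₁ c₁' c c' g1
        (by rw [hperR]; exact g2) h1 (by rw [hperR]; exact h2) e1 hdiv
      simp only [Prod.mk.injEq] at this
      exact ⟨this.1.1, this.2.2⟩
    · exact ⟨0, 0, fun _ t t' c c' h1 h2 h3 => absurd ⟨t, t', c, c', h1, h2, h3⟩ h⟩
  choose v0 r0 hvr using hbad
  have hbadmod : ∀ ρ, (∃ k ∈ Ms, k ∣ ρ) ↔ ∃ k ∈ Ms, k ∣ ρ % M := by
    intro ρ
    refine exists_congr fun k => and_congr_right fun hk => ?_
    rw [Nat.dvd_mod_iff (n2 k hk).2.2]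
  let lam : List A → Option V := fun P => match nmL P.length with
    | some c => if Lf f act e F b c P then some c.2.2.2.2.2 else none
    | none => none
  let rho : List A → Option V := fun Q => match nmR Q.length with
    | some c => if Rt f act e F b c Q then some (bb act e F c) else none
    | none => none
  let nu : List A → V := fun X => if ∃ k ∈ Ms, k ∣ X.length then
      r0 (X.length % M) - act (v0 (X.length % M)) (ph f X)
    else F (ph f X) (ww f e b X)
  have hlam : ∀ P v, lam P = some v → ∃ c, nmL P.length = some c ∧ Lf f act e F b c P ∧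
      v = c.2.2.2.2.2 := by
    intro P v h
    cases hc : nmL P.length with
    | none => simp only [lam, hc] at h; exact absurd h (by simp)
    | some c =>
      simp only [lam, hc] at h
      split_ifs at h with h1
      exact ⟨c, rfl, h1, (Option.some.inj h).symm⟩
  have hrho : ∀ Q v, rho Q = some v → ∃ c, nmR Q.length = some c ∧ Rt f act e F b c Q ∧
      v = bb act e F c := by
    intro P v h
    cases hc : nmR P.length with
    | none => simp only [rho, hc] at h; exact absurd h (by simp)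
    | some c =>
      simp only [rho, hc] at h
      split_ifs at h with h1
      exact ⟨c, rfl, h1, (Option.some.inj h).symm⟩
  refine ⟨lam, rho, nu, ?_, ?_, ?_, ?_⟩
  · intro P v h
    obtain ⟨c, -, h1, -⟩ := hlam P v h
    exact h1.2.1.trans_le (Nat.pow_le_pow_right hb0 c.1.2)
  · intro P Q v v' h h'
    obtain ⟨c, hc, h1, rfl⟩ := hlam P v h
    obtain ⟨c', hc', h1', rfl⟩ := hrho Q v' h'
    have hl : (P ++ Q).length = P.length + Q.length := List.length_append
    change bb act e F c' = act c.2.2.2.2.2 (ph f (P ++ Q)) + nu (P ++ Q)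
    by_cases hk : ∃ k ∈ Ms, k ∣ (P ++ Q).length
    · simp only [nu]
      rw [if_pos hk]
      obtain ⟨a1, a2⟩ := hvr ((P ++ Q).length % M) ((hbadmod _).1 hk) P.length Q.length c c' hc hc'
        (by rw [hl, Nat.mod_mod])
      rw [a2, ← a1]
      abel
    · simp only [nu]
      rw [if_neg hk]
      have hcc : c = c' := n6 _ _ _ _ hc hc' (by
        intro k hk1 hk2
        exact hk ⟨k, hk1, by rw [hl]; exact hk2⟩)
      subst hcc
      exact exact_same hb0 h1 h1'
  · intro X hX hdig v
    obtain ⟨i, hi⟩ := hF (ph f X) (ww f e b X) v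
    set n := X.length with hn
    obtain ⟨hd1, hd2⟩ := hdig i i.2
    obtain ⟨y0, hy0⟩ := exists_window hb hd1 hd2
    have hp : 0 < b ^ (i : ℕ) := Nat.pow_pos hb0
    -- the context
    set g := ph f (X.take (n % b ^ (i : ℕ))) with hg
    set h := ph f (X.drop (n % b ^ ((i : ℕ) + 1))) with hh
    set wl := ∑ j ∈ range i, eN e j (blk f b X j) with hwl
    set wr := ∑ j ∈ Ico ((i : ℕ) + 1) m, eN e j (blk f b X j) with hwr
    set zi := blk f b X i with hzi
    have hle : n % b ^ (i : ℕ) ≤ n % b ^ ((i : ℕ) + 1) := by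
      rw [pow_succ, Nat.mod_mul]
      exact Nat.le_add_right _ _
    have hs : ph f X = g * zi * h := by
      have h5 := seg_split (Y := X) hle
      conv_lhs => rw [← h5]
      rw [ph_app, ph_app, ← mul_assoc]
      rfl
    have hw : ww f e b X = wl + e i zi + wr := by
      unfold ww
      rw [← Finset.sum_range_add_sum_Ico _ (show (i : ℕ) + 1 ≤ m from i.2),
        Finset.sum_range_succ]
      congr 2
      unfold eN
      rw [dif_pos i.2]
    let c : Nm m S W V := (i, g, wl, h, wr, v)
    have hall : ∀ z, F (g * z * h) (wl + e i z + wr) + act v (g * z * h) =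
        F (ph f X) (ww f e b X) + act v (ph f X) := by
      intro z
      have := hi g zi h hs.symm z
      rw [← this, hw]
      congr 2
      abel
    have hok : okc act e F c := by
      intro z
      change F (g * z * h) (wl + e i z + wr) + act v (g * z * h) =
        F (g * 1 * h) (wl + e i 1 + wr) + act v (g * 1 * h)
      rw [hall z, hall 1]
    obtain ⟨t, ht1, ht2, ht3⟩ := n7 n hX c
    obtain ⟨y, hy1, hy2, hy3⟩ := exists_lin (a := b ^ (i : ℕ)) (β := n % b ^ (i : ℕ)) (t := t)
      (y0 := y0) n3 (hco.pow_left _)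
    obtain ⟨w1, w2, w3⟩ := hy0 y hy1 hy2
    set o := n % b ^ (i : ℕ) + b ^ (i : ℕ) * y with ho
    have hyn : y ≤ n / b ^ (i : ℕ) := w2.trans (Nat.mod_le _ _)
    have hnd := Nat.mod_add_div n (b ^ (i : ℕ))
    have hon : o ≤ n := by
      have := Nat.mul_le_mul_left (b ^ (i : ℕ)) hyn
      omega
    have hmlt := Nat.mod_lt n hp
    have hodiv : o / b ^ (i : ℕ) = y := by
      rw [ho, Nat.add_mul_div_left _ _ hp, Nat.div_eq_of_lt hmlt, zero_add]
    have homod : o % b ^ (i : ℕ) = n % b ^ (i : ℕ) := by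
      rw [ho, Nat.add_mul_mod_self_left, Nat.mod_mod]
    have ho' : n - o = b ^ (i : ℕ) * (n / b ^ (i : ℕ) - y) := by
      rw [Nat.mul_sub]
      omega
    have hPl : (X.take o).length = o := by rw [List.length_take]; omega
    have hQl : (X.drop o).length = n - o := by rw [List.length_drop]
    have hPQ : X.take o ++ X.drop o = X := List.take_append_drop _ _
    have hLn : nmL (X.take o).length = some c := by
      rw [hPl, hmodL, hy3, ← hmodL]; exact ht2
    have hRn : nmR (X.drop o).length = some c := by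
      rw [hQl]
      apply ht3
      have h1 : o + (n - o) ≡ n [MOD M] := by rw [Nat.add_sub_cancel' hon]
      have h2 : t + (n - o) ≡ o + (n - o) [MOD M] := Nat.ModEq.add_right _ hy3.symm
      exact h2.trans h1
    have hk2 : 2 * ((X.take o).length / b ^ (i : ℕ)) < b := by rw [hPl, hodiv]; exact w1
    have hk3 : b ^ (i : ℕ) ∣ (X.drop o).length := by rw [hQl, ho']; exact Nat.dvd_mul_right _ _
    have hk4 : 2 * ((X.drop o).length / b ^ (i : ℕ) % b) < b := by
      rw [hQl, ho', Nat.mul_div_cancel_left _ hp]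
      have h5 := Nat.mod_add_div (n / b ^ (i : ℕ)) b
      have h6 : n / b ^ (i : ℕ) - y = (n / b ^ (i : ℕ) % b - y) + b * (n / b ^ (i : ℕ) / b) := by
        omega
      rw [h6, Nat.add_mul_mod_self_left]
      exact (Nat.mul_le_mul_left 2 (Nat.mod_le _ _)).trans_lt w3
    obtain ⟨q1, q2⟩ := geo (i := i) hb0 hk2 hk3 hk4
    have hll : (X.take o).length + (X.drop o).length = n := by
      rw [hPl, hQl]; omega
    rw [hll] at q1 q2
    have hLf : Lf f act e F b c (X.take o) := by
      refine ⟨hok, ?_, hk2, ?_, ?_⟩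
      · change _ < b ^ ((i : ℕ) + 1)
        rw [hPl, pow_succ]
        have h7 : y + 1 ≤ b := by omega
        have h8 := Nat.mul_le_mul_left (b ^ (i : ℕ)) h7
        have h9 : b ^ (i : ℕ) * (y + 1) = b ^ (i : ℕ) * y + b ^ (i : ℕ) := by ring
        omega
      · change ph f ((X.take o).take ((X.take o).length % b ^ (i : ℕ))) = g
        rw [← q1 _ le_rfl, List.take_take, min_eq_left (by omega)]
      · change wl = ∑ j ∈ range i, eN e j (blk f b (X.take o) j)
        refine Finset.sum_congr rfl fun j hj => ?_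
        have hj' := Finset.mem_range.1 hj
        congr 1
        unfold blk
        rw [← q1 j (by omega), ← q1 (j + 1) (by omega), ← hn]
        have r1 : n % b ^ j ≤ (X.take o).length := by
          rw [q1 j (by omega)]; exact Nat.mod_le _ _
        have r2 : n % b ^ (j + 1) ≤ (X.take o).length := by
          rw [q1 (j + 1) (by omega)]; exact Nat.mod_le _ _
        have h8 := seg_left (P := X.take o) (Q := X.drop o) r1 r2
        rw [hPQ] at h8
        rw [h8]
    have hRt : Rt f act e F b c (X.drop o) := by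
      refine ⟨hok, hk3, hk4, ?_, ?_⟩
      · change ph f ((X.drop o).drop ((X.drop o).length % b ^ ((i : ℕ) + 1))) = h
        rw [hh, q2 _ le_rfl, hPl, List.drop_drop]
      · change wr = ∑ j ∈ Ico ((i : ℕ) + 1) m, eN e j (blk f b (X.drop o) j)
        refine Finset.sum_congr rfl fun j hj => ?_
        have hj' := Finset.mem_Ico.1 hj
        congr 1
        unfold blk
        rw [← hn, q2 j (by omega), q2 (j + 1) (by omega)]
        have h8 := seg_right (P := X.take o) (Q := X.drop o) (a := (X.drop o).length % b ^ j)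
          (c := (X.drop o).length % b ^ (j + 1))
        rw [hPQ] at h8
        rw [h8]
    refine ⟨X.take o, X.drop o, hPQ, ?_, ?_⟩
    · simp only [lam, hLn]
      rw [if_pos hLf]
    · simp only [rho, hRn]
      rw [if_pos hRt]
      rfl
  · intro Q Q' h1 h2 h3 h4 h5
    -- lengths
    have hM : Q.length % M = Q'.length % M := by
      have : Q.length % (M * b ^ m) % M = Q'.length % (M * b ^ m) % M := by rw [h4]
      rwa [Nat.mod_mod_of_dvd _ (Nat.dvd_mul_right _ _),
        Nat.mod_mod_of_dvd _ (Nat.dvd_mul_right _ _)] at this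
    have hbj : ∀ j, j ≤ m → Q.length % b ^ j = Q'.length % b ^ j := by
      intro j hj
      have hd : b ^ j ∣ M * b ^ m := (pow_dvd_pow b hj).mul_left _
      have : Q.length % (M * b ^ m) % b ^ j = Q'.length % (M * b ^ m) % b ^ j := by rw [h4]
      rwa [Nat.mod_mod_of_dvd _ hd, Nat.mod_mod_of_dvd _ hd] at this
    have hph : ph f Q = ph f Q' := by
      rw [← List.take_append_drop (b ^ m) Q, ← List.take_append_drop (b ^ m) Q', ph_app, ph_app,
        h3]
      congr 1
    have hlt : ∀ (X : List A) (j : ℕ), j ≤ m → X.length % b ^ j ≤ b ^ m := by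
      intro X j hj
      exact (Nat.mod_lt _ (Nat.pow_pos hb0)).le.trans (Nat.pow_le_pow_right hb0 hj)
    have hdrop : ∀ j, j ≤ m → ph f (Q.drop (Q.length % b ^ j)) =
        ph f (Q'.drop (Q'.length % b ^ j)) := by
      intro j hj
      rw [← hbj j hj]
      have ha := hlt Q j hj
      have key : ∀ X : List A, b ^ m ≤ X.length → ph f (X.drop (Q.length % b ^ j)) =
          ph f ((X.take (b ^ m)).drop (Q.length % b ^ j)) * ph f (X.drop (b ^ m)) := by
        intro X hX
        rw [← ph_app]
        congr 1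
        conv_lhs => rw [← List.take_append_drop (b ^ m) X]
        rw [List.drop_append_of_le_length (by rw [List.length_take]; omega)]
      rw [key Q h1, key Q' h2, h3]
      congr 1
    have hblk : ∀ j, j < m → blk f b Q j = blk f b Q' j := by
      intro j hj
      unfold blk
      rw [← hbj j hj.le, ← hbj (j + 1) hj]
      have ha := hlt Q j hj.le
      have hc := hlt Q (j + 1) hj
      have key : ∀ X : List A, seg X (Q.length % b ^ j) (Q.length % b ^ (j + 1)) =
          seg (X.take (b ^ m)) (Q.length % b ^ j) (Q.length % b ^ (j + 1)) := by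
        intro X
        unfold seg
        rw [List.drop_take, List.take_take, min_eq_left (by omega)]
      rw [key Q, key Q', h3]
    constructor
    · simp only [rho]
      rw [hmodR Q.length, hmodR Q'.length, hM]
      cases hc : nmR (Q'.length % M) with
      | none => rfl
      | some c =>
        simp only
        have : Rt f act e F b c Q ↔ Rt f act e F b c Q' := by
          unfold Rt
          have r1 : b ^ (c.1 : ℕ) ∣ Q.length ↔ b ^ (c.1 : ℕ) ∣ Q'.length := by
            rw [Nat.dvd_iff_mod_eq_zero, Nat.dvd_iff_mod_eq_zero, hbj _ c.1.2.le]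
          have r2 : Q.length / b ^ (c.1 : ℕ) % b = Q'.length / b ^ (c.1 : ℕ) % b := by
            have := hbj _ (show (c.1 : ℕ) + 1 ≤ m from c.1.2)
            rw [← Nat.mod_mul_right_div_self, ← Nat.mod_mul_right_div_self, ← pow_succ, this]
          have r3 : ∑ j ∈ Ico ((c.1 : ℕ) + 1) m, eN e j (blk f b Q j) =
              ∑ j ∈ Ico ((c.1 : ℕ) + 1) m, eN e j (blk f b Q' j) :=
            Finset.sum_congr rfl fun j hj => by rw [hblk j (Finset.mem_Ico.1 hj).2]
          rw [r1, r2, r3, hdrop _ (show (c.1 : ℕ) + 1 ≤ m from c.1.2)]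
        simp only [this]
    · simp only [nu]
      rw [hM, hph]
      have h6 : (∃ k ∈ Ms, k ∣ Q.length) ↔ ∃ k ∈ Ms, k ∣ Q'.length := by
        rw [hbadmod, hM, ← hbadmod]
      have h7 : ww f e b Q = ww f e b Q' := by
        unfold ww
        refine Finset.sum_congr rfl fun j hj => ?_
        rw [hblk j (Finset.mem_range.1 hj)]
      simp only [h6, h7]

end Crest.Agent.R320.G1_664
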