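import Crest.Agent.R320.Grid_899

/-!
Row 320: the ruler and the key clause for helper899's grid gadget (helper70).
-/

set_option autoImplicit false
set_option linter.unusedSectionVars false

namespace Crest.Agent.R320.G1_70

open Finset Crest.Agent.R320.Grid_899

/-- bad totals -/
def BadT {k : ℕ} (q : Fin k → ℕ) (κ m : ℕ) (T : ℤ) : Prop :=
  (∃ j, (q j : ℤ) ∣ T) ∨
  ∃ j, 1 ≤ j ∧ j ≤ m ∧
    ((T - Am (∏ j, q j) κ j) % (G κ j : ℤ) < (∏ j, q j : ℕ) * (G κ (j - 1) : ℤ) ∨
     (G κ j : ℤ) < (T - Am (∏ j, q j) κ j) % (G κ j : ℤ) + (∏ j, q j : ℕ) * (G κ (j - 1) : ℤ))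

theorem pow_pairs {a b a' b' : ℕ} (hab : a ≠ b) (hab' : a' ≠ b')
    (h : ((2 : ℤ) ^ a - 2 ^ b) - (2 ^ a' - 2 ^ b') = 0) : a = a' ∧ b = b' := by
  have e : (2 : ℕ) ^ a + 2 ^ b' = 2 ^ a' + 2 ^ b := by
    have h1 : ((2 : ℤ) ^ a + 2 ^ b') = 2 ^ a' + 2 ^ b := by linarith
    exact_mod_cast h1
  have key : ∀ {x y z w : ℕ}, x < y → z < w → (2 : ℕ) ^ x + 2 ^ y = 2 ^ z + 2 ^ w →
      x = z ∧ y = w := by
    intro x y z w hxy hzw h
    have h1 : ∀ {p r : ℕ}, p < r → 2 ^ r < 2 ^ p + 2 ^ r ∧ 2 ^ p + 2 ^ r < 2 ^ (r + 1) := by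
      intro p r hpr
      have := Nat.pow_lt_pow_right (a := 2) (by norm_num) hpr
      have h2 : 0 < 2 ^ p := by positivity
      rw [pow_succ]; omega
    have hyw : y = w := by
      rcases lt_trichotomy y w with hh | hh | hh
      · have h3 := Nat.pow_le_pow_right (n := 2) (by norm_num) (show y + 1 ≤ w from hh)
        have := (h1 hxy).2
        have := (h1 hzw).1
        omega
      · exact hh
      · have h3 := Nat.pow_le_pow_right (n := 2) (by norm_num) (show w + 1 ≤ y from hh)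
        have := (h1 hzw).2
        have := (h1 hxy).1
        omega
    subst hyw
    refine ⟨Nat.pow_right_injective (le_refl 2) ?_, rfl⟩
    simpa using h
  -- `a + b' = a' + b` as multisets, `a ≠ b`
  rcases lt_trichotomy a b' with h1 | h1 | h1
  · rcases lt_trichotomy a' b with h2 | h2 | h2
    · exact ⟨(key h1 h2 e).1, (key h1 h2 e).2.symm⟩
    · subst h2
      exfalso
      have e1 : (2 : ℕ) ^ a + 2 ^ b' = 2 ^ (a' + 1) := by rw [e, pow_succ]; ring
      have h3 := Nat.pow_lt_pow_right (a := 2) (by norm_num) h1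
      have h4 : 0 < 2 ^ a := by positivity
      rcases Nat.lt_or_ge b' (a' + 1) with h5 | h5
      · have h6 := Nat.pow_le_pow_right (n := 2) (by norm_num) (show b' ≤ a' by omega)
        rw [pow_succ] at e1
        omega
      · have h6 := Nat.pow_le_pow_right (n := 2) (by norm_num) h5
        omega
    · have h3 := key h1 h2 (by rw [e]; ring)
      exact absurd h3.1 (by intro h; exact hab h)
  · subst h1
    exfalso
    have e1 : (2 : ℕ) ^ a' + 2 ^ b = 2 ^ (a + 1) := by rw [← e, pow_succ]; ring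
    rcases lt_trichotomy a' b with h2 | h2 | h2
    · have h3 := Nat.pow_lt_pow_right (a := 2) (by norm_num) h2
      have h4 : 0 < 2 ^ a' := by positivity
      rcases Nat.lt_or_ge b (a + 1) with h5 | h5
      · have h6 := Nat.pow_le_pow_right (n := 2) (by norm_num) (show b ≤ a by omega)
        rw [pow_succ] at e1
        omega
      · have h6 := Nat.pow_le_pow_right (n := 2) (by norm_num) h5
        omega
    · subst h2
      have : a' = a := by
        have e2 : (2 : ℕ) ^ (a' + 1) = 2 ^ (a + 1) := by rw [← e1, pow_succ]; ring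
        have := Nat.pow_right_injective (le_refl 2) e2
        omega
      exact hab this.symm
    · have h3 := Nat.pow_lt_pow_right (a := 2) (by norm_num) h2
      have h4 : 0 < 2 ^ b := by positivity
      rcases Nat.lt_or_ge a' (a + 1) with h5 | h5
      · have h6 := Nat.pow_le_pow_right (n := 2) (by norm_num) (show a' ≤ a by omega)
        rw [pow_succ] at e1
        omega
      · have h6 := Nat.pow_le_pow_right (n := 2) (by norm_num) h5
        omega
  · rcases lt_trichotomy a' b with h2 | h2 | h2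
    · have h3 := key h1 h2 (by rw [← e]; ring)
      exact absurd h3.2 (by intro h; exact hab h)
    · subst h2
      exfalso
      have e1 : (2 : ℕ) ^ a + 2 ^ b' = 2 ^ (a' + 1) := by rw [e, pow_succ]; ring
      have h3 := Nat.pow_lt_pow_right (a := 2) (by norm_num) h1
      have h4 : 0 < 2 ^ b' := by positivity
      rcases Nat.lt_or_ge a (a' + 1) with h5 | h5
      · have h6 := Nat.pow_le_pow_right (n := 2) (by norm_num) (show a ≤ a' by omega)
        rw [pow_succ] at e1
        omega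
      · have h6 := Nat.pow_le_pow_right (n := 2) (by norm_num) h5
        omega
    · have h3 := key h1 h2 (by rw [← add_comm (2 ^ a) (2 ^ b'), e]; ring)
      exact ⟨h3.2, h3.1.symm⟩

theorem pow_bd {K a b a' b' : ℕ} (ha : a < K) (hb : b < K) (ha' : a' < K) (hb' : b' < K) :
    |((2 : ℤ) ^ a - 2 ^ b) - (2 ^ a' - 2 ^ b')| < 2 ^ (K + 1) := by
  have h : ∀ x, x < K → (0 : ℤ) < 2 ^ x ∧ (2 : ℤ) ^ x ≤ 2 ^ K / 2 := by
    intro x hx
    refine ⟨by positivity, ?_⟩
    obtain ⟨K', rfl⟩ : ∃ K', K = K' + 1 := ⟨K - 1, by omega⟩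
    have : (2 : ℤ) ^ x ≤ 2 ^ K' := pow_le_pow_right₀ (by norm_num) (by omega)
    rw [pow_succ]
    omega
  have h1 := h a ha
  have h2 := h b hb
  have h3 := h a' ha'
  have h4 := h b' hb'
  have e : (2 : ℤ) ^ (K + 1) = 2 * 2 ^ K := by ring
  rw [abs_lt, e]
  constructor <;> omega


/-- residue of the scale modulo `2 ^ (κ m)` -/
def sj (Ms κ : ℕ) : ℕ → ℕ
  | 0 => 0
  | j + 1 => sj Ms κ j + 4 * Ms * G κ j

theorem sj_mod {Ms κ j m : ℕ} (h : j ≤ m) : ∃ t, sj Ms κ m = sj Ms κ j + G κ j * t := by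
  induction m, h using Nat.le_induction with
  | base => exact ⟨0, by simp⟩
  | succ m hm ih =>
    obtain ⟨t, ht⟩ := ih
    obtain ⟨r, hr⟩ := G_dvd (κ := κ) hm
    refine ⟨t + 4 * Ms * r, ?_⟩
    show sj Ms κ m + 4 * Ms * G κ m = _
    rw [ht, hr]; ring

theorem sj_lo {Ms κ j : ℕ} : 4 * Ms * G κ j ≤ sj Ms κ (j + 1) := by
  show _ ≤ sj Ms κ j + 4 * Ms * G κ j
  omega

theorem G_succ (κ j : ℕ) : G κ (j + 1) = 2 ^ κ * G κ j := by
  unfold G
  rw [Nat.mul_succ, pow_add]; ring

theorem sj_hi {Ms κ j : ℕ} (hκ : 1 ≤ κ) : sj Ms κ (j + 1) ≤ 8 * Ms * G κ j := by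
  induction j with
  | zero =>
    show 0 + 4 * Ms * G κ 0 ≤ _
    have : 4 * Ms * G κ 0 ≤ 8 * Ms * G κ 0 := Nat.mul_le_mul_right _ (by omega)
    omega
  | succ j ih =>
    show sj Ms κ (j + 1) + 4 * Ms * G κ (j + 1) ≤ _
    have h1 : 2 ≤ 2 ^ κ := by
      calc 2 = 2 ^ 1 := by norm_num
        _ ≤ 2 ^ κ := Nat.pow_le_pow_right (by norm_num) hκ
    have h2 : 2 * (Ms * G κ j) ≤ Ms * G κ (j + 1) := by
      rw [G_succ]
      calc 2 * (Ms * G κ j) ≤ 2 ^ κ * (Ms * G κ j) := Nat.mul_le_mul_right _ h1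
        _ = _ := by ring
    have h3 : 8 * Ms * G κ j = 4 * (2 * (Ms * G κ j)) := by ring
    have h4 : 8 * Ms * G κ (j + 1) = 4 * (Ms * G κ (j + 1)) + 4 * Ms * G κ (j + 1) := by ring
    omega

/-- two hits of one modulus -/
theorem hit_q {q s : ℕ} {K a b a' b' : ℕ} (hs : s % q = 1 % q) (hq : 2 ^ (K + 1) ≤ q)
    (ha : a < K) (hb : b < K) (ha' : a' < K) (hb' : b' < K) (hab : a ≠ b) (hab' : a' ≠ b')
    (T : ℤ)
    (h : (q : ℤ) ∣ T + ((2 ^ a * s : ℕ) : ℤ) - ((2 ^ b * s : ℕ) : ℤ))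
    (h' : (q : ℤ) ∣ T + ((2 ^ a' * s : ℕ) : ℤ) - ((2 ^ b' * s : ℕ) : ℤ)) : a = a' ∧ b = b' := by
  refine pow_pairs hab hab' ?_
  set d : ℤ := ((2 : ℤ) ^ a - 2 ^ b) - (2 ^ a' - 2 ^ b') with hd
  have h1 : (q : ℤ) ∣ (s : ℤ) * d := by
    have := dvd_sub h h'
    have e : (T + ((2 ^ a * s : ℕ) : ℤ) - ((2 ^ b * s : ℕ) : ℤ)) -
        (T + ((2 ^ a' * s : ℕ) : ℤ) - ((2 ^ b' * s : ℕ) : ℤ)) = (s : ℤ) * d := by
      push_cast
      rw [hd]; ring
    rwa [e] at this
  have h2 : (q : ℤ) ∣ (s : ℤ) - 1 := by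
    have : (s : ℤ) ≡ (1 : ℕ) [ZMOD q] := (Int.natCast_modEq_iff).2 hs
    have := this.symm.dvd
    simpa using this
  have h3 : (q : ℤ) ∣ d := by
    have h4 := dvd_sub h1 (h2.mul_right d)
    have e : (s : ℤ) * d - ((s : ℤ) - 1) * d = d := by ring
    rwa [e] at h4
  have h5 := pow_bd ha hb ha' hb'
  rw [← hd] at h5
  have h6 : ((2 : ℤ) ^ (K + 1)) ≤ q := by exact_mod_cast hq
  exact Int.eq_zero_of_abs_lt_dvd h3 (lt_of_lt_of_le h5 h6)

/-- two hits of one level band -/
theorem hit_lev {Ms κ j m s : ℕ} {K a b a' b' : ℕ} (hMs : 0 < Ms) (hκ : 1 ≤ κ)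
    (hκ2 : (2 ^ (K + 4) + 2) * Ms ≤ 2 ^ κ) (hj : j + 1 ≤ m)
    (hs : s % G κ m = sj Ms κ m % G κ m)
    (ha : a < K) (hb : b < K) (ha' : a' < K) (hb' : b' < K) (hab : a ≠ b) (hab' : a' ≠ b')
    (T : ℤ) (A : ℤ)
    (h : (T + ((2 ^ a * s : ℕ) : ℤ) - ((2 ^ b * s : ℕ) : ℤ) - A) % (G κ (j + 1) : ℤ)
          < (Ms : ℤ) * (G κ j : ℤ) ∨
        (G κ (j + 1) : ℤ) < (T + ((2 ^ a * s : ℕ) : ℤ) - ((2 ^ b * s : ℕ) : ℤ) - A) %
          (G κ (j + 1) : ℤ) + (Ms : ℤ) * (G κ j : ℤ))
    (h' : (T + ((2 ^ a' * s : ℕ) : ℤ) - ((2 ^ b' * s : ℕ) : ℤ) - A) % (G κ (j + 1) : ℤ)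
          < (Ms : ℤ) * (G κ j : ℤ) ∨
        (G κ (j + 1) : ℤ) < (T + ((2 ^ a' * s : ℕ) : ℤ) - ((2 ^ b' * s : ℕ) : ℤ) - A) %
          (G κ (j + 1) : ℤ) + (Ms : ℤ) * (G κ j : ℤ)) : a = a' ∧ b = b' := by
  refine pow_pairs hab hab' ?_
  by_contra hd0
  set d : ℤ := ((2 : ℤ) ^ a - 2 ^ b) - (2 ^ a' - 2 ^ b') with hd
  set g : ℤ := (G κ (j + 1) : ℤ) with hg
  set W : ℤ := (Ms : ℤ) * (G κ j : ℤ) with hW
  have hgpos : 0 < g := by
    rw [hg]; exact_mod_cast G_pos (κ := κ) (j + 1)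
  have hG0 : 0 < G κ j := G_pos (κ := κ) j
  have hWpos : 0 < W := by
    rw [hW]; positivity
  -- representatives
  have rep : ∀ X : ℤ, (X % g < W ∨ g < X % g + W) → ∃ y t : ℤ, X = y + g * t ∧ |y| < W := by
    intro X hX
    have e := Int.emod_add_mul_ediv X g
    have h0 := Int.emod_nonneg X hgpos.ne'
    have h1 := Int.emod_lt_of_pos X hgpos
    rcases hX with hX | hX
    · exact ⟨X % g, X / g, e.symm, by rw [abs_lt]; constructor <;> linarith⟩
    · refine ⟨X % g - g, X / g + 1, by linear_combination -e, ?_⟩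
      rw [abs_lt]; constructor <;> linarith
  obtain ⟨y, t, e1, hy⟩ := rep _ h
  obtain ⟨y', t', e2, hy'⟩ := rep _ h'
  have e3 : (s : ℤ) * d = (y - y') + g * (t - t') := by
    have e : (T + ((2 ^ a * s : ℕ) : ℤ) - ((2 ^ b * s : ℕ) : ℤ) - A) -
        (T + ((2 ^ a' * s : ℕ) : ℤ) - ((2 ^ b' * s : ℕ) : ℤ) - A) = (s : ℤ) * d := by
      push_cast
      rw [hd]; ring
    rw [← e, e1, e2]; ring
  -- `s ≡ sj (j+1)` modulo `g`
  obtain ⟨t1, ht1⟩ := sj_mod (Ms := Ms) (κ := κ) hj
  have e4 : g ∣ (s : ℤ) - (sj Ms κ (j + 1) : ℤ) := by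
    have h1 : ((s : ℤ)) ≡ (sj Ms κ m : ℕ) [ZMOD (G κ m : ℕ)] := (Int.natCast_modEq_iff).2 hs
    have h2 : ((G κ m : ℕ) : ℤ) ∣ (s : ℤ) - (sj Ms κ m : ℕ) := h1.symm.dvd
    have h3 : g ∣ ((G κ m : ℕ) : ℤ) := by
      rw [hg]; exact_mod_cast G_dvd (κ := κ) hj
    have h4 := dvd_trans h3 h2
    have h5 : g ∣ ((sj Ms κ m : ℕ) : ℤ) - (sj Ms κ (j + 1) : ℕ) := by
      rw [ht1, hg]; push_cast
      exact ⟨t1, by ring⟩
    have h6 := dvd_add h4 h5
    simpa using h6
  obtain ⟨t2, ht2⟩ := e4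
  set S : ℤ := (sj Ms κ (j + 1) : ℤ) with hS
  have e5 : g ∣ S * d - (y - y') := by
    refine ⟨(t - t') - t2 * d, ?_⟩
    have : (s : ℤ) = S + g * t2 := by linarith
    rw [this] at e3
    linarith
  have hS1 : 4 * W ≤ S := by
    have := sj_lo (Ms := Ms) (κ := κ) (j := j)
    rw [hS, hW]
    have h2 : ((4 * Ms * G κ j : ℕ) : ℤ) ≤ (sj Ms κ (j + 1) : ℤ) := by exact_mod_cast this
    push_cast at h2
    linarith
  have hS2 : S ≤ 8 * W := by
    have := sj_hi (Ms := Ms) (κ := κ) (j := j) hκ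
    rw [hS, hW]
    have h2 : (sj Ms κ (j + 1) : ℤ) ≤ ((8 * Ms * G κ j : ℕ) : ℤ) := by exact_mod_cast this
    push_cast at h2
    linarith
  have hdb := pow_bd ha hb ha' hb'
  rw [← hd] at hdb
  have hd1 : 1 ≤ |d| := Int.one_le_abs hd0
  have hgb : ((2 : ℤ) ^ (K + 4) + 2) * W ≤ g := by
    have h1 : (2 ^ (K + 4) + 2) * Ms * G κ j ≤ G κ (j + 1) := by
      rw [G_succ]
      exact Nat.mul_le_mul_right _ hκ2
    have h2 : (((2 ^ (K + 4) + 2) * Ms * G κ j : ℕ) : ℤ) ≤ (G κ (j + 1) : ℤ) := by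
      exact_mod_cast h1
    push_cast at h2
    rw [hg, hW]
    linarith
  have hyy : |y - y'| < 2 * W := by
    have := abs_sub y y'
    linarith
  have hSd : |S * d| ≤ 8 * W * 2 ^ (K + 1) := by
    rw [abs_mul, abs_of_nonneg (by linarith : (0 : ℤ) ≤ S)]
    exact mul_le_mul hS2 hdb.le (abs_nonneg _) (by linarith)
  have hSd' : 4 * W ≤ |S * d| := by
    rw [abs_mul, abs_of_nonneg (by linarith : (0 : ℤ) ≤ S)]
    nlinarith
  have h7 : |S * d - (y - y')| < g := by
    have h8 := abs_sub (S * d) (y - y')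
    have h9 : (8 : ℤ) * W * 2 ^ (K + 1) = 2 ^ (K + 4) * W := by ring
    have h10 : ((2 : ℤ) ^ (K + 4) + 2) * W = 2 ^ (K + 4) * W + 2 * W := by ring
    linarith
  have h11 := Int.eq_zero_of_abs_lt_dvd e5 h7
  have h12 : S * d = y - y' := by linarith
  rw [h12] at hSd'
  linarith

/-- **ruler** -/
theorem ruler {k : ℕ} (q : Fin k → ℕ) (κ m K : ℕ) (hodd : ∀ j, Odd (q j))
    (hq : ∀ j, 2 ^ (K + 1) ≤ q j) (hκ : 1 ≤ κ)
    (hκ2 : (2 ^ (K + 4) + 2) * (∏ j, q j) ≤ 2 ^ κ) (U : ℕ) :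
    ∃ c : ℕ → ℕ, StrictMono c ∧ (∀ i, U ≤ c i) ∧
      (∀ a b a' b', a < K → b < K → a' < K → b' < K → a ≠ b → a' ≠ b' → (a ≠ a' ∨ b ≠ b') →
        (U : ℤ) ≤ |((c a : ℤ) - c b) - ((c a' : ℤ) - c b')|) ∧
      (∀ T : ℤ, ∀ F : Finset (ℕ × ℕ), (∀ p ∈ F, p.1 < K ∧ p.2 < K ∧ p.1 ≠ p.2 ∧
        BadT q κ m (T + (c p.1 : ℤ) - (c p.2 : ℤ))) → F.card ≤ k + m) := by
  classical
  set Ms := ∏ j, q j with hMsd
  have hMs : 0 < Ms := Finset.prod_pos fun j _ => (hodd j).pos
  have hMsodd : Odd Ms := by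
    rw [hMsd]
    exact Finset.prod_induction _ Odd (fun _ _ ha hb => ha.mul hb) odd_one (fun j _ => hodd j)
  have hcop : Nat.Coprime Ms (G κ m) := by
    unfold G
    exact Nat.Coprime.pow_right _ ((Nat.coprime_two_right).2 hMsodd)
  obtain ⟨s0, hs1, hs2⟩ := Nat.chineseRemainder hcop 1 (sj Ms κ m)
  set s := s0 + (U + 1) * (Ms * G κ m) with hs
  have hG := G_pos (κ := κ) m
  have hsU : U + 1 ≤ s := by
    have : 1 ≤ Ms * G κ m := Nat.mul_pos hMs hG
    have := Nat.mul_le_mul_left (U + 1) this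
    omega
  have hsm1 : s % Ms = 1 % Ms := by
    have e : s = s0 + Ms * ((U + 1) * G κ m) := by rw [hs]; ring
    rw [e, Nat.add_mul_mod_self_left]
    exact hs1
  have hsm2 : s % G κ m = sj Ms κ m % G κ m := by
    have e : s = s0 + G κ m * ((U + 1) * Ms) := by rw [hs]; ring
    rw [e, Nat.add_mul_mod_self_left]
    exact hs2
  have hsq : ∀ j, s % q j = 1 % q j := by
    intro j
    have hd : q j ∣ Ms := Finset.dvd_prod_of_mem q (Finset.mem_univ j)
    have h1 : s ≡ 1 [MOD Ms] := hsm1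
    exact h1.of_dvd hd
  have hmono : StrictMono (fun a => 2 ^ a * s) := by
    intro a b hab
    exact Nat.mul_lt_mul_of_pos_right (Nat.pow_lt_pow_right (by norm_num) hab) (by omega)
  refine ⟨fun a => 2 ^ a * s, hmono, ?_, ?_, ?_⟩
  · intro i
    have : 1 ≤ 2 ^ i := Nat.one_le_two_pow
    have := Nat.mul_le_mul_right s this
    show U ≤ 2 ^ i * s
    omega
  · intro a b a' b' ha hb ha' hb' hab hab' hne
    set d : ℤ := ((2 : ℤ) ^ a - 2 ^ b) - (2 ^ a' - 2 ^ b') with hd
    have hd0 : d ≠ 0 := by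
      intro h
      have := pow_pairs hab hab' h
      rcases hne with h1 | h1
      · exact h1 this.1
      · exact h1 this.2
    have e : (((2 ^ a * s : ℕ) : ℤ) - ((2 ^ b * s : ℕ) : ℤ)) -
        (((2 ^ a' * s : ℕ) : ℤ) - ((2 ^ b' * s : ℕ) : ℤ)) = (s : ℤ) * d := by
      push_cast; rw [hd]; ring
    show (U : ℤ) ≤ |(((2 ^ a * s : ℕ) : ℤ) - ((2 ^ b * s : ℕ) : ℤ)) -
        (((2 ^ a' * s : ℕ) : ℤ) - ((2 ^ b' * s : ℕ) : ℤ))|
    rw [e, abs_mul]
    have h1 : 1 ≤ |d| := Int.one_le_abs hd0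
    have h2 : |(s : ℤ)| = s := abs_of_nonneg (by positivity)
    rw [h2]
    have h3 : (U : ℤ) + 1 ≤ s := by exact_mod_cast hsU
    nlinarith
  · intro T F hF
    let cond1 : Fin k → Finset (ℕ × ℕ) := fun j =>
      F.filter (fun p => (q j : ℤ) ∣ T + ((2 ^ p.1 * s : ℕ) : ℤ) - ((2 ^ p.2 * s : ℕ) : ℤ))
    let cond2 : ℕ → Finset (ℕ × ℕ) := fun j => F.filter (fun p =>
        (T + ((2 ^ p.1 * s : ℕ) : ℤ) - ((2 ^ p.2 * s : ℕ) : ℤ) - (Am Ms κ (j + 1) : ℤ)) %
          (G κ (j + 1) : ℤ) < (Ms : ℤ) * (G κ j : ℤ) ∨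
        (G κ (j + 1) : ℤ) < (T + ((2 ^ p.1 * s : ℕ) : ℤ) - ((2 ^ p.2 * s : ℕ) : ℤ) -
          (Am Ms κ (j + 1) : ℤ)) % (G κ (j + 1) : ℤ) + (Ms : ℤ) * (G κ j : ℤ))
    have hc1 : ∀ j, (cond1 j).card ≤ 1 := by
      intro j
      rw [Finset.card_le_one]
      rintro ⟨a, b⟩ h ⟨a', b'⟩ h'
      simp only [cond1, Finset.mem_filter] at h h'
      obtain ⟨h1, h2, h3, -⟩ := hF _ h.1
      obtain ⟨h1', h2', h3', -⟩ := hF _ h'.1
      have := hit_q (K := K) (hsq j) (hq j) h1 h2 h1' h2' h3 h3' T h.2 h'.2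
      exact Prod.ext this.1 this.2
    have hc2 : ∀ j ∈ Finset.range m, (cond2 j).card ≤ 1 := by
      intro j hj
      rw [Finset.mem_range] at hj
      rw [Finset.card_le_one]
      rintro ⟨a, b⟩ h ⟨a', b'⟩ h'
      simp only [cond2, Finset.mem_filter] at h h'
      obtain ⟨h1, h2, h3, -⟩ := hF _ h.1
      obtain ⟨h1', h2', h3', -⟩ := hF _ h'.1
      have := hit_lev (K := K) hMs hκ hκ2 (show j + 1 ≤ m from hj) hsm2 h1 h2 h1' h2' h3 h3' T
        (Am Ms κ (j + 1) : ℤ) h.2 h'.2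
      exact Prod.ext this.1 this.2
    have hsub : F ⊆ (Finset.univ.biUnion cond1) ∪ ((Finset.range m).biUnion cond2) := by
      intro p hp
      obtain ⟨-, -, -, hb⟩ := hF p hp
      rw [Finset.mem_union]
      rcases hb with ⟨j, hj⟩ | ⟨j, hj1, hj2, hj⟩
      · left
        rw [Finset.mem_biUnion]
        exact ⟨j, Finset.mem_univ j, by simp only [cond1, Finset.mem_filter]; exact ⟨hp, hj⟩⟩
      · right
        rw [Finset.mem_biUnion]
        obtain ⟨j, rfl⟩ : ∃ i, j = i + 1 := ⟨j - 1, by omega⟩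
        refine ⟨j, Finset.mem_range.2 hj2, ?_⟩
        simp only [cond2, Finset.mem_filter]
        refine ⟨hp, ?_⟩
        rw [Nat.add_sub_cancel] at hj
        exact hj
    calc F.card ≤ ((Finset.univ.biUnion cond1) ∪ ((Finset.range m).biUnion cond2)).card :=
          Finset.card_le_card hsub
      _ ≤ (Finset.univ.biUnion cond1).card + ((Finset.range m).biUnion cond2).card :=
          Finset.card_union_le _ _
      _ ≤ (∑ j : Fin k, (cond1 j).card) + ∑ j ∈ Finset.range m, (cond2 j).card :=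
          Nat.add_le_add Finset.card_biUnion_le Finset.card_biUnion_le
      _ ≤ (∑ _j : Fin k, 1) + ∑ _j ∈ Finset.range m, 1 :=
          Nat.add_le_add (Finset.sum_le_sum fun j _ => hc1 j) (Finset.sum_le_sum hc2)
      _ = k + m := by simp

/-- `BadT` is periodic -/
theorem BadT_add {k : ℕ} (q : Fin k → ℕ) (κ m : ℕ) (T : ℤ) :
    BadT q κ m (T + ((∏ j, q j) * G κ m : ℕ)) ↔ BadT q κ m T := by
  unfold BadT
  refine or_congr (exists_congr fun j => ?_) (exists_congr fun j => ?_)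
  · have hd : (q j : ℤ) ∣ (((∏ j, q j) * G κ m : ℕ) : ℤ) := by
      exact_mod_cast Dvd.dvd.mul_right (Finset.dvd_prod_of_mem q (Finset.mem_univ j)) _
    exact Int.dvd_add_left hd |>.trans Iff.rfl
  · refine and_congr_right fun _ => and_congr_right fun hj => ?_
    obtain ⟨t, ht⟩ := G_dvd (κ := κ) hj
    have e : (T + (((∏ j, q j) * G κ m : ℕ) : ℤ) - (Am (∏ j, q j) κ j : ℤ)) % (G κ j : ℤ) =
        (T - (Am (∏ j, q j) κ j : ℤ)) % (G κ j : ℤ) := by
      have : T + (((∏ j, q j) * G κ m : ℕ) : ℤ) - (Am (∏ j, q j) κ j : ℤ) =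
          (T - (Am (∏ j, q j) κ j : ℤ)) + (G κ j : ℤ) * ((∏ j, q j : ℕ) * t : ℤ) := by
        rw [ht]; push_cast; ring
      rw [this, Int.add_mul_emod_self_left]
    rw [e]

/-- 899's gadget with the key clause. -/
theorem grid_gadget' (S V : Type*) [Monoid S] [Finite S] [AddCommGroup V] [Finite V]
    (act : V → S → V) :
    ∃ (k m : ℕ), ∀ q : Fin k → ℕ, (∀ j, Odd (q j)) →
      Pairwise (fun i j => Nat.Coprime (q i) (q j)) → ∀ κ : ℕ,
      ∀ (α : Type*) (phi : List α → S), (∀ u v, phi (u ++ v) = phi u * phi v) →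
      ∃ (lam rho : List α → Option V) (nu : List α → V),
        (∀ P v, lam P = some v → P.length < Am (∏ j, q j) κ m ∧ P ≠ []) ∧
        (∀ Q b, rho Q = some b → Am (∏ j, q j) κ (m + 1) ≤ Q.length) ∧
        (∀ P Q v b, lam P = some v → rho Q = some b → b = act v (phi (P ++ Q)) + nu (P ++ Q)) ∧
        (∀ u : List α, 2 * Am (∏ j, q j) κ (m + 1) ≤ u.length → (∀ j, ¬ q j ∣ u.length) →
          (∀ j, 1 ≤ j → j ≤ m →
            (∏ j, q j) * G κ (j - 1) ≤ (u.length - Am (∏ j, q j) κ j) % G κ j ∧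
            (u.length - Am (∏ j, q j) κ j) % G κ j + (∏ j, q j) * G κ (j - 1) ≤ G κ j) →
          ∀ v, ∃ P Q, u = P ++ Q ∧ lam P = some v ∧ (rho Q).isSome) ∧
        (∀ u u' : List α, Am (∏ j, q j) κ (m + 1) ≤ u.length →
          Am (∏ j, q j) κ (m + 1) ≤ u'.length →
          u.take (Am (∏ j, q j) κ (m + 1)) = u'.take (Am (∏ j, q j) κ (m + 1)) →
          u.length % ((∏ j, q j) * G κ m) = u'.length % ((∏ j, q j) * G κ m) →
          phi (u.drop (Am (∏ j, q j) κ (m + 1))) = phi (u'.drop (Am (∏ j, q j) κ (m + 1))) →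
          nu u = nu u' ∧ rho u = rho u') := by
  classical
  obtain ⟨m, N, k, e, hN, H⟩ := NameGad808.unknownT_gadget S V act
  refine ⟨k, m, ?_⟩
  intro q hq hcop κ α phi hphi
  obtain ⟨L, R, lev, D, hlev, hsound, hcomp⟩ := H q hq
  set Ms := ∏ j, q j with hMs
  let ct : ℕ → (∀ j, ZMod (q j)) := fun n j => (n : ZMod (q j))
  let lam : List α → Option V := fun P =>
    if h : ∃ i, CondL Ms κ m i P.length then
      L h.choose (ct P.length) (gT Ms κ phi h.choose P) (wlT Ms κ e phi h.choose P) else none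
  let rho : List α → Option V := fun Q =>
    if CondR Ms κ m (lev (ct Q.length)) Q.length then
      R (lev (ct Q.length)) (ct Q.length) (hR Ms κ phi (lev (ct Q.length)) Q)
        (wrR Ms κ m e phi (lev (ct Q.length)) Q) else none
  let nu : List α → V := fun u => D (ct u.length) (phi u) (wT Ms κ m e phi u)
  have hlam : ∀ P v, lam P = some v → ∃ i, CondL Ms κ m i P.length ∧
      L i (ct P.length) (gT Ms κ phi i P) (wlT Ms κ e phi i P) = some v := by
    intro P v h
    simp only [lam] at h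
    split_ifs at h with h1
    exact ⟨h1.choose, h1.choose_spec, h⟩
  have hlam' : ∀ P v i, CondL Ms κ m i P.length →
      L i (ct P.length) (gT Ms κ phi i P) (wlT Ms κ e phi i P) = some v → lam P = some v := by
    intro P v i hi h
    have h1 : ∃ i, CondL Ms κ m i P.length := ⟨i, hi⟩
    simp only [lam]
    rw [dif_pos h1, CondL_unique h1.choose_spec hi]
    exact h
  have hrho : ∀ Q b, rho Q = some b → ∃ i, CondR Ms κ m i Q.length ∧
      R i (ct Q.length) (hR Ms κ phi i Q) (wrR Ms κ m e phi i Q) = some b := by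
    intro Q b h
    simp only [rho] at h
    split_ifs at h with h1
    exact ⟨_, h1, h⟩
  have hct : ∀ n n', ct (n + n') = ct n + ct n' := by
    intro n n'
    funext j
    simp [ct]
  refine ⟨lam, rho, nu, ?_, ?_, ?_, ?_, ?_⟩
  · intro P v h
    obtain ⟨i, hi, _⟩ := hlam P v h
    have h2 := hi.2.2
    rw [lo_add] at h2
    have h3 := Am_mono (Ms := Ms) (κ := κ) (show i + 1 ≤ m by have := hi.1; omega)
    refine ⟨by omega, ?_⟩
    rintro rfl
    have h4 := hi.2.1
    have h5 := G_pos (κ := κ) i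
    unfold lo at h4
    simp at h4
    omega
  · intro Q b h
    obtain ⟨i, hi, _⟩ := hrho Q b h
    exact hi.2.1
  · intro P Q v b h1 h2
    obtain ⟨i, hi, hL⟩ := hlam P v h1
    obtain ⟨i', hi', hR'⟩ := hrho Q b h2
    have := hsound i i' (ct P.length) (ct Q.length) (gT Ms κ phi i P) (hR Ms κ phi i' Q)
      (phi (P ++ Q)) (wlT Ms κ e phi i P) (wrR Ms κ m e phi i' Q) (wT Ms κ m e phi (P ++ Q)) v b
      ?_ hL hR'
    · rw [this]
      simp only [nu]
      rw [List.length_append, hct]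
    · rintro rfl
      refine ⟨zT Ms κ phi i (P ++ Q), ?_, ?_⟩
      · rw [← gT_left hi hi'.2.2.1, ← hT_right hi hi']
        exact split_g hphi i _
      · rw [← wlT_left e hi hi'.2.2.1, ← wrT_right e hi hi']
        exact split_w e hi.1 _
  · intro u hu hnd hcl v
    have hT0 : ∀ j, ct u.length j ≠ 0 := by
      intro j
      simp only [ct]
      rw [Ne, ZMod.natCast_eq_zero_iff]
      exact hnd j
    obtain ⟨i, him, hi⟩ := hcomp (ct u.length) hT0 (phi u) (wT Ms κ m e phi u) v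
    obtain ⟨t, t', htt, hL, hRR⟩ := hi (gT Ms κ phi i u) (zT Ms κ phi i u) (hT Ms κ phi i u)
      (wlT Ms κ e phi i u) (wrT Ms κ m e phi i u) (split_g hphi i u) (split_w e him u)
    -- the place
    have hqpos : ∀ j, 0 < q j := fun j => (hq j).pos
    have hAi : Am Ms κ (i + 1) ≤ Am Ms κ (m + 1) := Am_mono (by omega)
    set T := u.length with hT
    -- start of the progression
    let r := lo Ms κ i + (T - lo Ms κ i) % G κ i
    have hr : G κ i ∣ T - r := by
      have h1 : lo Ms κ i ≤ T := by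
        have := lo_le (Ms := Ms) (κ := κ) i
        omega
      have h2 : T - r = G κ i * ((T - lo Ms κ i) / G κ i) := by
        have := Nat.div_add_mod (T - lo Ms κ i) (G κ i)
        simp only [r]
        omega
      rw [h2]
      exact Dvd.intro _ rfl
    have hunit : ∀ j, IsUnit ((G κ i : ℕ) : ZMod (q j)) := by
      intro j
      rw [ZMod.isUnit_iff_coprime]
      exact Nat.Coprime.pow_left _ ((Nat.coprime_two_left).2 (hq j))
    obtain ⟨ω, _, hω, hω2⟩ := NameGad808.crt_hit q hqpos hcop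
      (fun j => (t j - (r : ZMod (q j))) * ((hunit j).unit⁻¹ : (ZMod (q j))ˣ)) 0
    have hω' : ω < Ms := by simp only [zero_add] at hω; exact hω
    let o := r + G κ i * ω
    have hr1 : (T - lo Ms κ i) % G κ i < G κ i := Nat.mod_lt _ (G_pos i)
    have ho1 : lo Ms κ i ≤ o := by simp only [o, r]; omega
    have ho2 : o < lo Ms κ i + Ms * G κ i := by
      have h1 : G κ i * (ω + 1) ≤ G κ i * Ms := Nat.mul_le_mul_left _ hω'
      have h2 : G κ i * (ω + 1) = G κ i * ω + G κ i := by ring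
      have h3 : Ms * G κ i = G κ i * Ms := Nat.mul_comm _ _
      simp only [o, r]
      omega
    have ho3 : o < Am Ms κ (m + 1) := by
      rw [lo_add] at ho2
      omega
    have hcto : ct o = t := by
      funext j
      simp only [ct, o]
      rw [Nat.cast_add, Nat.cast_mul, hω2 j]
      have : ((G κ i : ℕ) : ZMod (q j)) * ((hunit j).unit⁻¹ : (ZMod (q j))ˣ) = 1 := by
        have := (hunit j).mul_val_inv
        simpa using this
      calc (r : ZMod (q j)) + (G κ i : ZMod (q j)) * ((t j - (r : ZMod (q j))) *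
            ((hunit j).unit⁻¹ : (ZMod (q j))ˣ))
          = (r : ZMod (q j)) + (t j - (r : ZMod (q j))) * ((G κ i : ZMod (q j)) *
            ((hunit j).unit⁻¹ : (ZMod (q j))ˣ)) := by ring
        _ = t j := by rw [this]; ring
    have hPl : (u.take o).length = o := by
      rw [List.length_take]
      omega
    have hQl : (u.drop o).length = T - o := by
      rw [List.length_drop]
    have hu' : u.take o ++ u.drop o = u := List.take_append_drop _ _
    have hcto' : ct (T - o) = t' := by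
      have h1 : ct T = ct o + ct (T - o) := by
        rw [← hct]
        congr 1
        omega
      rw [← htt, hcto] at h1
      exact (add_left_cancel h1).symm
    have hLc : CondL Ms κ m i (u.take o).length := by
      rw [hPl]
      exact ⟨him, ho1, ho2⟩
    have hdv : G κ i ∣ T - o := by
      have h1 : T - o = (T - r) - G κ i * ω := by simp only [o]; omega
      rw [h1]
      exact Nat.dvd_sub hr (Dvd.intro _ rfl)
    have hRc : CondR Ms κ m i (u.drop o).length := by
      rw [hQl]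
      refine ⟨him, by omega, hdv, ?_⟩
      intro j hj1 hj2
      have hA : Am Ms κ j ≤ Am Ms κ (m + 1) := Am_mono (by omega)
      have h1 := hcl j (by omega) hj2
      have h2 : o + (T - o) = T := by omega
      apply right_clean hj1 ho1 ho2 (by omega)
      · rw [h2]; exact h1.1
      · rw [h2]; exact h1.2
    refine ⟨u.take o, u.drop o, hu'.symm, ?_, ?_⟩
    · apply hlam' _ _ i hLc
      rw [hPl, hcto, ← gT_left (phi := phi) hLc hRc.2.2.1, ← wlT_left e (phi := phi) hLc hRc.2.2.1,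
        hu']
      exact hL
    · obtain ⟨b, hb⟩ := Option.isSome_iff_exists.1 hRR
      have hl := (hlev i t' _ _ b hb).1
      have h3 : lev (ct (u.drop o).length) = i := by
        rw [hQl, hcto', hl]
      simp only [rho]
      rw [h3, if_pos hRc, ← hT_right (phi := phi) hLc hRc, ← wrT_right e (phi := phi) hLc hRc, hu',
        hQl, hcto']
      exact hRR
  · intro u u' hu hu' htk hmod hph
    have hctE : ct u.length = ct u'.length := by
      funext j
      simp only [ct]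
      rw [ZMod.natCast_eq_natCast_iff']
      have h1 : u.length ≡ u'.length [MOD ((∏ j, q j) * G κ m)] := hmod
      exact h1.of_dvd (Dvd.dvd.mul_right (Finset.dvd_prod_of_mem q (Finset.mem_univ j)) _)
    have hGm : ∀ j, j ≤ m → u.length ≡ u'.length [MOD (G κ j)] := by
      intro j hj
      have h1 : u.length ≡ u'.length [MOD ((∏ j, q j) * G κ m)] := hmod
      exact h1.of_dvd (Dvd.dvd.mul_left (G_dvd hj) _)
    have hAle : ∀ j, j ≤ m → Am Ms κ j ≤ Am Ms κ (m + 1) := fun j hj => Am_mono (by omega)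
    have hbd : ∀ j, j ≤ m → bd Ms κ j u.length = bd Ms κ j u'.length := by
      intro j hj
      unfold bd
      have h1 := hAle j hj
      have h2 : u.length - Am Ms κ j ≡ u'.length - Am Ms κ j [MOD (G κ j)] := by
        have e1 : Am Ms κ j + (u.length - Am Ms κ j) = u.length := by omega
        have e2 : Am Ms κ j + (u'.length - Am Ms κ j) = u'.length := by omega
        apply Nat.ModEq.add_left_cancel' (Am Ms κ j)
        rw [e1, e2]
        exact hGm j hj
      rw [show (u.length - Am Ms κ j) % G κ j = (u'.length - Am Ms κ j) % G κ j from h2]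
    have hseg : ∀ a b, b ≤ Am Ms κ (m + 1) → seg u a b = seg u' a b := by
      intro a b hb
      rcases Nat.lt_or_ge b a with hab | hab
      · unfold seg
        have : b - a = 0 := by omega
        rw [this]; simp
      · have h0 : ∀ w : List α, seg w a b = (w.take b).drop a := by
          intro w
          unfold seg
          rw [List.drop_take]
        have h1 : ∀ w : List α, (w.take (Am Ms κ (m + 1))).take b = w.take b := by
          intro w
          rw [List.take_take, Nat.min_eq_left hb]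
        rw [h0, h0, ← h1 u, ← h1 u', htk]
    have hdrop : ∀ x, x ≤ Am Ms κ (m + 1) → phi (u.drop x) = phi (u'.drop x) := by
      intro x hx
      have h0 : ∀ w : List α, w.drop x = (w.take (Am Ms κ (m + 1))).drop x ++
          w.drop (Am Ms κ (m + 1)) := by
        intro w
        rw [List.drop_take]
        have : w.drop (Am Ms κ (m + 1)) = (w.drop x).drop (Am Ms κ (m + 1) - x) := by
          rw [List.drop_drop]; congr 1; omega
        rw [this, List.take_append_drop]
      rw [h0 u, h0 u', hphi, hphi, htk, hph]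
    have hlo : ∀ j, j ≤ m → lo Ms κ j ≤ Am Ms κ (m + 1) := fun j hj =>
      le_trans (lo_le j) (Am_mono (by omega))
    constructor
    · simp only [nu]
      have hw : wT Ms κ m e phi u = wT Ms κ m e phi u' := by
        unfold wT zT
        refine Finset.sum_congr rfl (fun j hj => ?_)
        rw [Finset.mem_range] at hj
        rw [hbd j hj.le, hbd (j + 1) hj]
        congr 2
        apply hseg
        exact le_trans (bd_lt (Ms := Ms) (κ := κ) (j + 1) _).le (hlo (j + 1) hj)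
      have hpu : phi u = phi u' := by
        have := hdrop 0 (Nat.zero_le _)
        simpa using this
      rw [hctE, hw, hpu]
    · simp only [rho]
      rw [hctE]
      generalize lev (ct u'.length) = i
      have hprE : ∀ j, j ≤ m → pr Ms κ i j u.length = pr Ms κ i j u'.length ∧
          (u.length + lo Ms κ i - Am Ms κ j) % G κ j =
            (u'.length + lo Ms κ i - Am Ms κ j) % G κ j := by
        intro j hj
        have h1 := hAle j hj
        have h2 : u.length + lo Ms κ i - Am Ms κ j ≡ u'.length + lo Ms κ i - Am Ms κ j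
            [MOD (G κ j)] := by
          have e1 : Am Ms κ j + (u.length + lo Ms κ i - Am Ms κ j) = u.length + lo Ms κ i := by
            omega
          have e2 : Am Ms κ j + (u'.length + lo Ms κ i - Am Ms κ j) = u'.length + lo Ms κ i := by
            omega
          apply Nat.ModEq.add_left_cancel' (Am Ms κ j)
          rw [e1, e2]
          exact (hGm j hj).add_right _
        have h3 : (u.length + lo Ms κ i - Am Ms κ j) % G κ j =
            (u'.length + lo Ms κ i - Am Ms κ j) % G κ j := h2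
        refine ⟨?_, h3⟩
        unfold pr
        rw [h3]
      have hprle : ∀ j n, j ≤ m → pr Ms κ i j n ≤ Am Ms κ (m + 1) := by
        intro j n hj
        have h1 := hlo j hj
        have h2 := Nat.mod_lt (n + lo Ms κ i - Am Ms κ j) (G_pos (κ := κ) j)
        unfold pr
        unfold lo at h1 h2 ⊢
        omega
      have hcond : CondR Ms κ m i u.length ↔ CondR Ms κ m i u'.length := by
        unfold CondR
        constructor
        · rintro ⟨h1, h2, h3, h4⟩
          refine ⟨h1, hu', ?_, ?_⟩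
          · exact ((hGm i h1.le).dvd_iff dvd_rfl).1 h3
          · intro j hj1 hj2
            rw [← (hprE j hj2).2]; exact h4 j hj1 hj2
        · rintro ⟨h1, h2, h3, h4⟩
          refine ⟨h1, hu, ?_, ?_⟩
          · exact ((hGm i h1.le).dvd_iff dvd_rfl).2 h3
          · intro j hj1 hj2
            rw [(hprE j hj2).2]; exact h4 j hj1 hj2
      by_cases hc : CondR Ms κ m i u.length
      · rw [if_pos hc, if_pos (hcond.1 hc)]
        have him := hc.1
        have h1 : hR Ms κ phi i u = hR Ms κ phi i u' := by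
          unfold hR
          rw [(hprE (i + 1) him).1]
          exact hdrop _ (hprle (i + 1) _ him)
        have h2 : wrR Ms κ m e phi i u = wrR Ms κ m e phi i u' := by
          unfold wrR
          refine Finset.sum_congr rfl (fun j hj => ?_)
          rw [Finset.mem_Ico] at hj
          rw [(hprE j (by omega)).1, (hprE (j + 1) (by omega)).1]
          congr 2
          exact hseg _ _ (hprle (j + 1) _ (by omega))
        rw [h1, h2]
      · rw [if_neg hc, if_neg (fun h => hc (hcond.2 h))]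

/-- **The black box G1** (693's grid gadget, 899's proof, with key clause and ruler). -/
theorem G1 (S V : Type*) [Monoid S] [Finite S] [AddCommGroup V] [Finite V]
    (act : V → S → V) :
    ∃ C0 : ℕ, ∀ K : ℕ, ∃ (N M : ℕ) (Bad : ℤ → Prop), 0 < N ∧ 0 < M ∧
      (∀ T, Bad (T + M) ↔ Bad T) ∧
      (∀ U : ℕ, ∃ c : ℕ → ℕ, StrictMono c ∧ (∀ i, U ≤ c i) ∧
        (∀ a b a' b', a < K → b < K → a' < K → b' < K → a ≠ b → a' ≠ b' → (a ≠ a' ∨ b ≠ b') →
          (U : ℤ) ≤ |((c a : ℤ) - c b) - ((c a' : ℤ) - c b')|) ∧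
        (∀ T : ℤ, ∀ F : Finset (ℕ × ℕ), (∀ p ∈ F, p.1 < K ∧ p.2 < K ∧ p.1 ≠ p.2 ∧
          Bad (T + (c p.1 : ℤ) - (c p.2 : ℤ))) → F.card ≤ C0)) ∧
      ∀ (α : Type*) (phi : List α → S), (∀ u v, phi (u ++ v) = phi u * phi v) →
      ∃ (lam rho : List α → Option V) (nu : List α → V),
        (∀ P v, lam P = some v → P.length < N ∧ P ≠ []) ∧
        (∀ Q b, rho Q = some b → N ≤ Q.length) ∧
        (∀ P Q v b, lam P = some v → rho Q = some b → b = act v (phi (P ++ Q)) + nu (P ++ Q)) ∧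
        (∀ u : List α, 2 * N ≤ u.length → ¬ Bad (u.length : ℤ) →
          ∀ v, ∃ P Q, u = P ++ Q ∧ lam P = some v ∧ (rho Q).isSome) ∧
        (∀ u u' : List α, N ≤ u.length → N ≤ u'.length → u.take N = u'.take N →
          u.length % M = u'.length % M → phi (u.drop N) = phi (u'.drop N) →
          nu u = nu u' ∧ rho u = rho u') := by
  classical
  obtain ⟨k, m, H⟩ := grid_gadget' S V act
  refine ⟨k + m, fun K => ?_⟩
  let B := 2 ^ (K + 1)
  let q : Fin k → ℕ := fun j => Nat.nth Nat.Prime (B + j)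
  have hqp : ∀ j, (q j).Prime := fun j => Nat.prime_nth_prime _
  have hq : ∀ j, 2 ^ (K + 1) ≤ q j := by
    intro j
    have : B + j + 2 ≤ q j := Nat.add_two_le_nth_prime _
    calc 2 ^ (K + 1) = B := rfl
      _ ≤ q j := by omega
  have hodd : ∀ j, Odd (q j) := by
    intro j
    rcases (hqp j).eq_two_or_odd' with h | h
    · have h1 : B + j + 2 ≤ q j := Nat.add_two_le_nth_prime _
      have h2 : 1 ≤ B := Nat.one_le_two_pow
      omega
    · exact h
  have hcop : Pairwise (fun i j => Nat.Coprime (q i) (q j)) := by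
    intro i j hij
    rw [Nat.coprime_primes (hqp i) (hqp j)]
    intro h
    have := Nat.nth_injective Nat.infinite_setOf_prime h
    exact hij (Fin.ext (by omega))
  set Ms := ∏ j, q j with hMsd
  have hMs : 0 < Ms := Finset.prod_pos fun j _ => (hodd j).pos
  obtain ⟨κ, hκ, hκ2⟩ : ∃ κ, 1 ≤ κ ∧ (2 ^ (K + 4) + 2) * Ms ≤ 2 ^ κ :=
    ⟨(2 ^ (K + 4) + 2) * Ms + 1, by omega,
      (Nat.lt_two_pow_self).le.trans (Nat.pow_le_pow_right (by norm_num) (by omega))⟩
  have hN : 0 < Am Ms κ (m + 1) := by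
    have h1 := G_pos (κ := κ) m
    show 0 < Am Ms κ m + G κ m + Ms * G κ m
    omega
  refine ⟨Am Ms κ (m + 1), Ms * G κ m, BadT q κ m, hN, Nat.mul_pos hMs (G_pos m),
    fun T => BadT_add q κ m T, fun U => ruler q κ m K hodd hq hκ hκ2 U, ?_⟩
  intro α phi hphi
  obtain ⟨lam, rho, nu, h1, h2, h3, h4, h5⟩ := H q hodd hcop κ α phi hphi
  refine ⟨lam, rho, nu, ?_, h2, h3, ?_, h5⟩
  · intro P v h
    obtain ⟨h6, h7⟩ := h1 P v h
    have := Am_mono (Ms := Ms) (κ := κ) (show m ≤ m + 1 by omega)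
    exact ⟨lt_of_lt_of_le h6 this, h7⟩
  · intro u hu hb
    have hb' := not_or.1 hb
    apply h4 u hu
    · intro j hj
      exact hb'.1 ⟨j, by exact_mod_cast hj⟩
    · intro j hj1 hj2
      have h6 := hb'.2
      push Not at h6
      have h7 := h6 j hj1 hj2
      have hA := Am_mono (Ms := Ms) (κ := κ) (show j ≤ m + 1 by omega)
      have e : ((u.length : ℤ) - (Am Ms κ j : ℤ)) % (G κ j : ℤ) =
          (((u.length - Am Ms κ j) % G κ j : ℕ) : ℤ) := by
        rw [Int.natCast_mod, Nat.cast_sub (by omega)]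
      rw [← hMsd, e] at h7
      constructor
      · exact_mod_cast h7.1
      · exact_mod_cast h7.2

end Crest.Agent.R320.G1_70
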