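import Crest.Agent.R320.Names_755
import Crest.Agent.R320.RandF_808

/-!
# Row 320, leaf g1 (852 #13483, lead #13673)

Unknown-length gadget on all words: levels = positional digits of the length in base `b`,
names = CRT (755), noise = random function (237 / 808). (helper704)
-/

set_option autoImplicit false

namespace Crest.Agent.R320.G1_704

open Finset

noncomputable section

def ph {A S : Type} [Monoid S] (f : A → S) (l : List A) : S := (l.map f).prod

theorem ph_append {A S : Type} [Monoid S] (f : A → S) (P Q : List A) :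
    ph f (P ++ Q) = ph f P * ph f Q := by
  simp [ph]

/-- product of block `j` (between the positions `|X| % b^j` and `|X| % b^(j+1)`) -/
def z {A S : Type} [Monoid S] (f : A → S) (b : ℕ) (X : List A) (j : ℕ) : S :=
  ph f ((X.drop (X.length % b ^ j)).take (X.length % b ^ (j + 1) - X.length % b ^ j))

def gg {A S : Type} [Monoid S] (f : A → S) (b : ℕ) (X : List A) (i : ℕ) : S :=
  ph f (X.take (X.length % b ^ i))

def hh {A S : Type} [Monoid S] (f : A → S) (b : ℕ) (X : List A) (i : ℕ) : S :=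
  ph f (X.drop (X.length % b ^ (i + 1)))

set_option linter.unusedSectionVars false

theorem mod_mono {b n i j : ℕ} (h : i ≤ j) : n % b ^ i ≤ n % b ^ j := by
  have h' : n % b ^ j % b ^ i = n % b ^ i := Nat.mod_mod_of_dvd _ (pow_dvd_pow b h)
  rw [← h']
  exact Nat.mod_le _ _

theorem left_mod {b o o' i j : ℕ} (hj : j ≤ i) (hd : b ^ i ∣ o') :
    (o + o') % b ^ j = o % b ^ j := by
  obtain ⟨k, hk⟩ := (pow_dvd_pow b hj).trans hd
  rw [hk, Nat.add_mul_mod_self_left]

theorem right_mod {b o o' i j : ℕ} (hb : 0 < b) (hij : i < j) (hd : b ^ i ∣ o')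
    (h1 : 2 * (o / b ^ i) < b) (h2 : 2 * (o' / b ^ i % b) < b) :
    (o + o') % b ^ j = o + o' % b ^ j := by
  have key : o + o' % b ^ j < b ^ j := by
    obtain ⟨O, rfl⟩ := hd
    obtain ⟨t, rfl⟩ : ∃ t, j = i + 1 + t := ⟨j - (i + 1), by omega⟩
    have hbi : 0 < b ^ i := pow_pos hb i
    rw [Nat.mul_div_cancel_left _ hbi] at h2
    have e1 : b ^ (i + 1 + t) = b ^ i * (b * b ^ t) := by ring
    rw [e1, Nat.mul_mod_mul_left]
    have e2 : o < b ^ i * (o / b ^ i + 1) := Nat.lt_mul_div_succ o hbi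
    have e3 : O % (b * b ^ t) = O % b + b * (O / b % b ^ t) := Nat.mod_mul
    have e4 : O / b % b ^ t + 1 ≤ b ^ t := Nat.mod_lt _ (pow_pos hb t)
    have e5 : o / b ^ i + 1 + O % (b * b ^ t) ≤ b * b ^ t := by
      rw [e3]
      have h3 : b * (O / b % b ^ t + 1) ≤ b * b ^ t := Nat.mul_le_mul_left _ e4
      rw [Nat.mul_add, Nat.mul_one] at h3
      omega
    calc o + b ^ i * (O % (b * b ^ t))
        < b ^ i * (o / b ^ i + 1) + b ^ i * (O % (b * b ^ t)) := by omega
      _ = b ^ i * (o / b ^ i + 1 + O % (b * b ^ t)) := by ring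
      _ ≤ b ^ i * (b * b ^ t) := Nat.mul_le_mul_left _ e5
  calc (o + o') % b ^ j = (o + o' % b ^ j + b ^ j * (o' / b ^ j)) % b ^ j := by
        rw [Nat.add_assoc, Nat.mod_add_div]
    _ = (o + o' % b ^ j) % b ^ j := Nat.add_mul_mod_self_left _ _ _
    _ = _ := Nat.mod_eq_of_lt key

section Slices

variable {A S : Type} [Monoid S] (f : A → S) {b : ℕ}

theorem z_left {P Q : List A} {i j : ℕ} (hj : j < i) (hd : b ^ i ∣ Q.length) :
    z f b (P ++ Q) j = z f b P j := by
  unfold z
  rw [List.length_append, left_mod hj.le hd, left_mod (show j + 1 ≤ i from hj) hd]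
  have h1 : P.length % b ^ j ≤ P.length := Nat.mod_le _ _
  have h2 : P.length % b ^ (j + 1) ≤ P.length := Nat.mod_le _ _
  rw [List.drop_append_of_le_length h1, List.take_append_of_le_length]
  rw [List.length_drop]
  omega

theorem drop_right (P Q : List A) (a : ℕ) : (P ++ Q).drop (P.length + a) = Q.drop a := by
  simp [List.drop_append]

theorem z_right {P Q : List A} {i j : ℕ} (hb : 0 < b) (hij : i < j) (hd : b ^ i ∣ Q.length)
    (h1 : 2 * (P.length / b ^ i) < b) (h2 : 2 * (Q.length / b ^ i % b) < b) :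
    z f b (P ++ Q) j = z f b Q j := by
  unfold z
  rw [List.length_append, right_mod hb hij hd h1 h2, right_mod hb (by omega : i < j + 1) hd h1 h2,
    drop_right, Nat.add_sub_add_left]

theorem gg_left {P Q : List A} {i : ℕ} (hd : b ^ i ∣ Q.length) :
    gg f b (P ++ Q) i = gg f b P i := by
  unfold gg
  rw [List.length_append, left_mod le_rfl hd, List.take_append_of_le_length (Nat.mod_le _ _)]

theorem hh_right {P Q : List A} {i : ℕ} (hb : 0 < b) (hd : b ^ i ∣ Q.length)
    (h1 : 2 * (P.length / b ^ i) < b) (h2 : 2 * (Q.length / b ^ i % b) < b) :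
    hh f b (P ++ Q) i = hh f b Q i := by
  unfold hh
  rw [List.length_append, right_mod hb (by omega : i < i + 1) hd h1 h2, drop_right]

theorem ph_split (X : List A) (i : ℕ) : gg f b X i * z f b X i * hh f b X i = ph f X := by
  unfold gg z hh
  have hm : X.length % b ^ i ≤ X.length % b ^ (i + 1) := mod_mono (Nat.le_succ i)
  have e : X.drop (X.length % b ^ (i + 1)) =
      (X.drop (X.length % b ^ i)).drop (X.length % b ^ (i + 1) - X.length % b ^ i) := by
    rw [List.drop_drop]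
    congr 1
    omega
  rw [e, mul_assoc, ← ph_append, List.take_append_drop, ← ph_append, List.take_append_drop]

end Slices

section W

variable {A S : Type} [Monoid S] {W : Type} [AddCommGroup W] (e : ℕ → S → W) (f : A → S) (b : ℕ)

def ww (m : ℕ) (X : List A) : W := ∑ j ∈ range m, e j (z f b X j)

def wl (X : List A) (i : ℕ) : W := ∑ j ∈ range i, e j (z f b X j)

def wr (m : ℕ) (X : List A) (i : ℕ) : W := ∑ j ∈ Ico (i + 1) m, e j (z f b X j)

theorem ww_split {m i : ℕ} (X : List A) (hi : i < m) :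
    ww e f b m X = wl e f b X i + wr e f b m X i + e i (z f b X i) := by
  unfold ww wl wr
  rw [← Finset.sum_range_add_sum_Ico _ hi.le, Finset.sum_eq_sum_Ico_succ_bot hi]
  abel

theorem wl_left {P Q : List A} {i : ℕ} (hd : b ^ i ∣ Q.length) :
    wl e f b (P ++ Q) i = wl e f b P i := by
  unfold wl
  refine Finset.sum_congr rfl fun j hj => ?_
  rw [z_left f (Finset.mem_range.1 hj) hd]

theorem wr_right {m : ℕ} {P Q : List A} {i : ℕ} (hb : 0 < b) (hd : b ^ i ∣ Q.length)
    (h1 : 2 * (P.length / b ^ i) < b) (h2 : 2 * (Q.length / b ^ i % b) < b) :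
    wr e f b m (P ++ Q) i = wr e f b m Q i := by
  unfold wr
  refine Finset.sum_congr rfl fun j hj => ?_
  rw [z_right f hb (by have := (Finset.mem_Ico.1 hj).1; omega) hd h1 h2]

end W

abbrev Wt (N : ℕ) := ZMod N × ZMod N

abbrev Ctx (S V : Type) (m N : ℕ) := Fin m × S × Wt N × S × Wt N × V × V

section Def

variable {A S V : Type} [Monoid S] [AddCommGroup V] {m N : ℕ}

def LC (f : A → S) (e : ℕ → S → Wt N) (b : ℕ) (P : List A) (c : Ctx S V m N) : Prop :=
  P.length < b ^ ((c.1 : ℕ) + 1) ∧ 2 * (P.length / b ^ (c.1 : ℕ)) < b ∧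
    gg f b P c.1 = c.2.1 ∧ wl e f b P c.1 = c.2.2.1

def RC (f : A → S) (e : ℕ → S → Wt N) (F : S → Wt N → V) (act : V → S → V) (b : ℕ)
    (Q : List A) (c : Ctx S V m N) : Prop :=
  b ^ (c.1 : ℕ) ∣ Q.length ∧ 2 * (Q.length / b ^ (c.1 : ℕ) % b) < b ∧
    hh f b Q c.1 = c.2.2.2.1 ∧ wr e f b m Q c.1 = c.2.2.2.2.1 ∧
    ∀ x : S, F (c.2.1 * x * c.2.2.2.1) (c.2.2.1 + c.2.2.2.2.1 + e c.1 x) +
      act c.2.2.2.2.2.1 (c.2.1 * x * c.2.2.2.1) = c.2.2.2.2.2.2

open Classical in
def lamF (f : A → S) (e : ℕ → S → Wt N) (b : ℕ) (nmL : ℕ → Option (Ctx S V m N))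
    (P : List A) : Option V :=
  (nmL P.length).bind fun c => if LC f e b P c then some c.2.2.2.2.2.1 else none

open Classical in
def rhoF (f : A → S) (e : ℕ → S → Wt N) (F : S → Wt N → V) (act : V → S → V) (b : ℕ)
    (nmR : ℕ → Option (Ctx S V m N)) (Q : List A) : Option V :=
  (nmR Q.length).bind fun c => if RC f e F act b Q c then some c.2.2.2.2.2.2 else none

theorem lamF_some {f : A → S} {e : ℕ → S → Wt N} {b : ℕ} {nmL : ℕ → Option (Ctx S V m N)}
    {P : List A} {v : V} : lamF f e b nmL P = some v ↔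
      ∃ c, nmL P.length = some c ∧ LC f e b P c ∧ c.2.2.2.2.2.1 = v := by
  classical
  unfold lamF
  rw [Option.bind_eq_some_iff]
  constructor
  · rintro ⟨c, h1, h2⟩
    by_cases h : LC f e b P c
    · rw [if_pos h] at h2
      exact ⟨c, h1, h, Option.some.inj h2⟩
    · rw [if_neg h] at h2
      cases h2
  · rintro ⟨c, h1, h2, h3⟩
    refine ⟨c, h1, ?_⟩
    rw [if_pos h2, h3]

theorem rhoF_some {f : A → S} {e : ℕ → S → Wt N} {F : S → Wt N → V} {act : V → S → V} {b : ℕ}
    {nmR : ℕ → Option (Ctx S V m N)} {Q : List A} {v : V} :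
    rhoF f e F act b nmR Q = some v ↔
      ∃ c, nmR Q.length = some c ∧ RC f e F act b Q c ∧ c.2.2.2.2.2.2 = v := by
  classical
  unfold rhoF
  rw [Option.bind_eq_some_iff]
  constructor
  · rintro ⟨c, h1, h2⟩
    by_cases h : RC f e F act b Q c
    · rw [if_pos h] at h2
      exact ⟨c, h1, h, Option.some.inj h2⟩
    · rw [if_neg h] at h2
      cases h2
  · rintro ⟨c, h1, h2, h3⟩
    refine ⟨c, h1, ?_⟩
    rw [if_pos h2, h3]

open Classical in
def nuF (f : A → S) (e : ℕ → S → Wt N) (F : S → Wt N → V) (act : V → S → V) (b m : ℕ)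
    (Ms : Finset ℕ) (M : ℕ) (col : ℕ → V × V) (X : List A) : V :=
  if ∀ k ∈ Ms, ¬ k ∣ X.length then F (ph f X) (ww e f b m X)
  else (col (X.length % M)).2 - act (col (X.length % M)).1 (ph f X)

end Def

theorem per {C : Type} {nm : ℕ → Option C} {M : ℕ} (h : ∀ t, nm (t + M) = nm t) (t k : ℕ) :
    nm (t + k * M) = nm t := by
  induction k with
  | zero => simp
  | succ k ih => rw [Nat.succ_mul, ← Nat.add_assoc, h, ih]

theorem per_mod {C : Type} {nm : ℕ → Option C} {M : ℕ} (h : ∀ t, nm (t + M) = nm t) {t t' : ℕ}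
    (e : t % M = t' % M) : nm t = nm t' := by
  have h1 := per h (t % M) (t / M)
  have h2 := per h (t' % M) (t' / M)
  rw [Nat.mod_add_div'] at h1 h2
  rw [h1, h2, e]

theorem exists_col {C V : Type} [Inhabited V] (v b : C → V) {Ms : Finset ℕ} {M : ℕ}
    {nmL nmR : ℕ → Option C} (hM : ∀ k ∈ Ms, k ∣ M)
    (hR : ∀ t, nmR (t + M) = nmR t)
    (hc : ∀ t₁ t₁' t₂ t₂' c₁ c₁' c₂ c₂', nmL t₁ = some c₁ → nmR t₁' = some c₁' →
        nmL t₂ = some c₂ → nmR t₂' = some c₂' → t₁ + t₁' = t₂ + t₂' →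
        (∃ k ∈ Ms, k ∣ t₁ + t₁') → (v c₁, b c₁) = (v c₂, b c₂) ∧ (v c₁', b c₁') = (v c₂', b c₂')) :
    ∃ col : ℕ → V × V, ∀ t t' c c', nmL t = some c → nmR t' = some c' →
      (∃ k ∈ Ms, k ∣ t + t') → col ((t + t') % M) = (v c, b c') := by
  classical
  have H : ∀ r : ℕ, ∃ p : V × V, ∀ t t' c c', nmL t = some c → nmR t' = some c' →
      (∃ k ∈ Ms, k ∣ t + t') → (t + t') % M = r → p = (v c, b c') := by
    intro r
    by_cases h : ∃ t t' c c', nmL t = some c ∧ nmR t' = some c' ∧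
      (∃ k ∈ Ms, k ∣ t + t') ∧ (t + t') % M = r
    · obtain ⟨t, t', c, c', h1, h2, h3, h4⟩ := h
      refine ⟨(v c, b c'), fun t2 t2' c2 c2' g1 g2 g3 g4 => ?_⟩
      have e1 : t + (t' + ((t2 + t2') / M) * M) = t2 + (t2' + ((t + t') / M) * M) := by
        have a1 := Nat.mod_add_div' (t + t') M
        have a2 := Nat.mod_add_div' (t2 + t2') M
        rw [h4] at a1
        rw [g4] at a2
        omega
      obtain ⟨k, hk, hkd⟩ := h3
      have := hc t _ t2 _ c c' c2 c2' h1 ((per hR t' ((t2 + t2') / M)).trans h2) g1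
        ((per hR t2' ((t + t') / M)).trans g2) e1
        ⟨k, hk, by
          rw [← Nat.add_assoc]
          exact Nat.dvd_add hkd (Dvd.dvd.mul_left (hM k hk) _)⟩
      have q1 := (Prod.mk.injEq _ _ _ _).mp this.1
      have q2 := (Prod.mk.injEq _ _ _ _).mp this.2
      rw [q1.1, q2.2]
    · exact ⟨(default, default), fun t t' c c' h1 h2 h3 h4 => (h ⟨t, t', c, c', h1, h2, h3, h4⟩).elim⟩
  choose col hcol using H
  exact ⟨col, fun t t' c c' h1 h2 h3 => hcol _ t t' c c' h1 h2 h3 rfl⟩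

theorem choose_d {b M n' : ℕ} (hM : 0 < M) (hb : 4 * M + 4 < b) (h1 : M ≤ n')
    (h2 : n' + M + 1 ≤ b) (a : ℕ) :
    ∃ d, d % M = a % M ∧ d ≤ n' ∧ 2 * d < b ∧ 2 * (n' - d) < b := by
  obtain ⟨M', rfl⟩ : ∃ M', M = M' + 1 := ⟨M - 1, by omega⟩
  have key : ∀ lo : ℕ, ∃ d, d % (M' + 1) = a % (M' + 1) ∧ lo ≤ d ∧ d < lo + (M' + 1) := by
    intro lo
    refine ⟨lo + (a + M' * lo) % (M' + 1), ?_, Nat.le_add_right _ _,
      Nat.add_lt_add_left (Nat.mod_lt _ hM) _⟩
    rw [Nat.add_mod_mod, show lo + (a + M' * lo) = a + (M' + 1) * lo by ring,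
      Nat.add_mul_mod_self_left]
  by_cases h : 2 * n' < b
  · obtain ⟨d, e1, e2, e3⟩ := key 0
    exact ⟨d, e1, by omega, by omega, by omega⟩
  · obtain ⟨d, e1, e2, e3⟩ := key ((b - 1) / 2 + 1 - (M' + 1))
    exact ⟨d, e1, by omega, by omega, by omega⟩

theorem slice_take {A : Type} (Q : List A) {K a c : ℕ} (hc : c ≤ K) :
    (Q.drop a).take (c - a) = ((Q.take K).drop a).take (c - a) := by
  rw [List.drop_take, List.take_take, min_eq_left (by omega)]

theorem drop_split {A : Type} (Q : List A) {K a : ℕ} (hK : K ≤ Q.length) (ha : a ≤ K) :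
    Q.drop a = (Q.take K).drop a ++ Q.drop K := by
  conv_lhs => rw [← List.take_append_drop K Q]
  rw [List.drop_append_of_le_length (by rw [List.length_take]; omega)]

/-- LEAF g1 of #13673, literal. -/
theorem g1 (S V : Type) [Monoid S] [Finite S] [AddCommGroup V] [Finite V] (act : V → S → V) :
    ∃ m r : ℕ, ∀ Bd : ℕ, ∃ (Ms : Finset ℕ) (M : ℕ), Ms.card ≤ r ∧
      (∀ k ∈ Ms, Bd < k ∧ k.Prime ∧ k ∣ M) ∧ 0 < M ∧
      ∀ b : ℕ, 4 * M + 4 < b → Nat.Coprime b M → ∀ (A : Type) (f : A → S),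
        ∃ (lam rho : List A → Option V) (nu : List A → V),
          (∀ P v, lam P = some v → P.length < b ^ m) ∧
          (∀ P Q v v', lam P = some v → rho Q = some v' →
            v' = act v ((P ++ Q).map f).prod + nu (P ++ Q)) ∧
          (∀ X, (∀ k ∈ Ms, ¬ k ∣ X.length) →
            (∀ j < m, M ≤ X.length / b ^ j % b ∧ X.length / b ^ j % b + M + 1 ≤ b) →
            ∀ v, ∃ P Q, P ++ Q = X ∧ lam P = some v ∧ (rho Q).isSome) ∧
          (∀ Q Q', b ^ m ≤ Q.length → b ^ m ≤ Q'.length →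
            Q.take (b ^ m) = Q'.take (b ^ m) →
            Q.length % (M * b ^ m) = Q'.length % (M * b ^ m) →
            ((Q.drop (b ^ m)).map f).prod = ((Q'.drop (b ^ m)).map f).prod →
            rho Q = rho Q' ∧ nu Q = nu Q') := by
  classical
  have := Fintype.ofFinite S
  have := Fintype.ofFinite V
  obtain ⟨m, N, e, F, hN, hF⟩ := RandF808.exists_noise S V act
  have : NeZero N := ⟨hN.ne'⟩
  obtain ⟨r, hr⟩ := Names755.names (Ctx S V m N) (V × V)
    (fun c => (c.2.2.2.2.2.1, c.2.2.2.2.2.2))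
  refine ⟨m, r, fun Bd => ?_⟩
  obtain ⟨Ms, M, nmL, nmR, hcard, hMs, hM, hL, hR, hsame, hcomp, hcol⟩ := hr Bd
  refine ⟨Ms, M, hcard, hMs, hM, fun b hb hcop A f => ?_⟩
  have hb0 : 0 < b := by omega
  have : Inhabited V := ⟨0⟩
  obtain ⟨col, hcol'⟩ := exists_col (C := Ctx S V m N) (V := V) (fun c => c.2.2.2.2.2.1)
    (fun c => c.2.2.2.2.2.2) (Ms := Ms) (M := M) (nmL := nmL) (nmR := nmR)
    (fun k hk => (hMs k hk).2.2) hR hcol
  refine ⟨lamF f e b nmL, rhoF f e F act b nmR, nuF f e F act b m Ms M col, ?_, ?_, ?_, ?_⟩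
  · intro P v h
    obtain ⟨c, _, hc, _⟩ := lamF_some.1 h
    exact hc.1.trans_le (Nat.pow_le_pow_right hb0 c.1.2)
  · intro P Q v v' h h'
    obtain ⟨c, hc1, ⟨a1, a2, a3, a4⟩, rfl⟩ := lamF_some.1 h
    obtain ⟨c', hc1', ⟨b1, b2, b3, b4, b5⟩, rfl⟩ := rhoF_some.1 h'
    change c'.2.2.2.2.2.2 = act _ (ph f (P ++ Q)) + _
    by_cases hk : ∀ k ∈ Ms, ¬ k ∣ (P ++ Q).length
    · have hcc : c = c' := hsame _ _ _ _ hc1 hc1' (by rw [List.length_append] at hk; exact hk)
      subst hcc
      unfold nuF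
      rw [if_pos hk]
      have e1 : ph f (P ++ Q) = c.2.1 * z f b (P ++ Q) c.1 * c.2.2.2.1 := by
        conv_lhs => rw [← ph_split f (b := b) (P ++ Q) c.1]
        rw [gg_left f b1, hh_right f hb0 b1 a2 b2, a3, b3]
      have e2 : ww e f b m (P ++ Q) =
          c.2.2.1 + c.2.2.2.2.1 + e c.1 (z f b (P ++ Q) c.1) := by
        rw [ww_split e f b (P ++ Q) c.1.2, wl_left e f b b1, wr_right e f b hb0 b1 a2 b2, a4, b4]
      rw [e2, e1, add_comm]
      exact (b5 _).symm
    · unfold nuF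
      rw [if_neg hk]
      push Not at hk
      rw [List.length_append] at hk
      have hc := hcol' P.length Q.length c c' hc1 hc1' hk
      rw [List.length_append, hc]
      simp
  · intro X hX hdig v
    obtain ⟨i, hi, hgood⟩ := hF (ph f X) (ww e f b m X) v
    obtain ⟨t, htM, ht1, ht2⟩ := hcomp X.length hX
      (⟨i, hi⟩, gg f b X i, wl e f b X i, hh f b X i, wr e f b m X i, v,
        F (ph f X) (ww e f b m X) + act v (ph f X))
    have hbi : 0 < b ^ i := pow_pos hb0 i
    have hcop' : Nat.Coprime (b ^ i) M := Nat.Coprime.pow_left i hcop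
    obtain ⟨k, hk1, hk2⟩ := Nat.chineseRemainder hcop' (X.length % b ^ i) t
    have hk3 : k % b ^ i = X.length % b ^ i := by
      have := hk1
      unfold Nat.ModEq at this
      rw [this, Nat.mod_mod]
    obtain ⟨d, hd1, hd2, hd3, hd4⟩ := choose_d hM hb (hdig i hi).1 (hdig i hi).2 (k / b ^ i)
    obtain ⟨dd, hdd⟩ : ∃ dd, X.length / b ^ i % b = d + dd := ⟨_, (Nat.add_sub_of_le hd2).symm⟩
    rw [hdd, Nat.add_sub_cancel_left] at hd4
    have hlen : X.length = (X.length % b ^ i + b ^ i * d) +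
        b ^ i * (dd + b * (X.length / b ^ i / b)) := by
      have q1 := Nat.mod_add_div X.length (b ^ i)
      have q2 := Nat.mod_add_div (X.length / b ^ i) b
      rw [hdd] at q2
      calc X.length = X.length % b ^ i + b ^ i * (X.length / b ^ i) := q1.symm
        _ = X.length % b ^ i + b ^ i * (d + dd + b * (X.length / b ^ i / b)) := by rw [q2]
        _ = _ := by ring
    generalize hq : X.length / b ^ i / b = q at hlen
    generalize hrho : X.length % b ^ i = ρ at hlen hk3
    have hρ : ρ < b ^ i := hrho ▸ Nat.mod_lt _ hbi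
    have hPl : (X.take (ρ + b ^ i * d)).length = ρ + b ^ i * d := by
      rw [List.length_take]
      omega
    have hQl : (X.drop (ρ + b ^ i * d)).length = b ^ i * (dd + b * q) := by
      rw [List.length_drop]
      omega
    have hPQ : X.take (ρ + b ^ i * d) ++ X.drop (ρ + b ^ i * d) = X := List.take_append_drop _ _
    generalize X.take (ρ + b ^ i * d) = P at hPl hPQ
    generalize X.drop (ρ + b ^ i * d) = Q at hQl hPQ
    have f1 : b ^ i ∣ Q.length := ⟨_, hQl⟩
    have f2 : P.length / b ^ i = d := by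
      rw [hPl, Nat.add_mul_div_left _ _ hbi, Nat.div_eq_of_lt hρ, Nat.zero_add]
    have f3 : Q.length / b ^ i % b = dd := by
      rw [hQl, Nat.mul_div_cancel_left _ hbi, Nat.add_mul_mod_self_left, Nat.mod_eq_of_lt]
      omega
    have f4 : 2 * (P.length / b ^ i) < b := by rw [f2]; exact hd3
    have f5 : 2 * (Q.length / b ^ i % b) < b := by rw [f3]; exact hd4
    have f6 : P.length < b ^ (i + 1) := by
      rw [hPl, pow_succ]
      calc ρ + b ^ i * d < b ^ i + b ^ i * d := by omega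
        _ = b ^ i * (d + 1) := by ring
        _ ≤ b ^ i * b := Nat.mul_le_mul_left _ (by omega)
    have f7 : P.length % M = t % M := by
      have s1 : ρ + b ^ i * (k / b ^ i) = k := by
        rw [← hk3]
        exact Nat.mod_add_div k (b ^ i)
      have s2 : (ρ + b ^ i * d) ≡ (ρ + b ^ i * (k / b ^ i)) [MOD M] :=
        Nat.ModEq.add_left _ (Nat.ModEq.mul_left _ hd1)
      rw [hPl]
      have s3 : ρ + b ^ i * d ≡ k [MOD M] := by
        rw [s1] at s2
        exact s2
      exact s3.trans hk2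
    have hn : P.length + Q.length = X.length := by rw [← List.length_append, hPQ]
    refine ⟨P, Q, hPQ, lamF_some.2 ⟨_, (per_mod hL f7).trans ht1, ⟨f6, f4, ?_, ?_⟩, rfl⟩, ?_⟩
    · have := gg_left f (P := P) f1
      rw [hPQ] at this
      exact this.symm
    · have := wl_left e f b (P := P) f1
      rw [hPQ] at this
      exact this.symm
    · rw [Option.isSome_iff_exists]
      refine ⟨F (ph f X) (ww e f b m X) + act v (ph f X), rhoF_some.2 ⟨_, ht2 Q.length ?_,
        ⟨f1, f5, ?_, ?_, ?_⟩, rfl⟩⟩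
      · rw [← hn]
        exact Nat.ModEq.add_right _ f7.symm
      · have := hh_right f hb0 (P := P) f1 f4 f5
        rw [hPQ] at this
        exact this.symm
      · have := wr_right e f b hb0 (m := m) (P := P) f1 f4 f5
        rw [hPQ] at this
        exact this.symm
      · intro x
        have := hgood (gg f b X i) (z f b X i) (hh f b X i) (ph_split f X i) x
        rw [ww_split e f b X hi, add_sub_cancel_right] at this
        rw [ww_split e f b X hi]
        exact this
  · intro Q Q' hQ hQ' htake hlen hprod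
    have hmod : ∀ j ≤ m, Q.length % b ^ j = Q'.length % b ^ j := by
      intro j hj
      have hd : b ^ j ∣ M * b ^ m := Dvd.dvd.mul_left (pow_dvd_pow b hj) _
      rw [← Nat.mod_mod_of_dvd Q.length hd, ← Nat.mod_mod_of_dvd Q'.length hd, hlen]
    have hmodM : Q.length % M = Q'.length % M := by
      have hd : M ∣ M * b ^ m := Dvd.intro _ rfl
      rw [← Nat.mod_mod_of_dvd Q.length hd, ← Nat.mod_mod_of_dvd Q'.length hd, hlen]
    have hmodb : ∀ n j : ℕ, j ≤ m → n % b ^ j ≤ b ^ m := fun n j hj =>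
      (Nat.mod_lt n (pow_pos hb0 j)).le.trans (Nat.pow_le_pow_right hb0 hj)
    have hz : ∀ j < m, z f b Q j = z f b Q' j := by
      intro j hj
      unfold z
      rw [hmod j hj.le, hmod (j + 1) hj, slice_take Q (hmodb _ (j + 1) hj),
        slice_take Q' (hmodb _ (j + 1) hj), htake]
    have hprod' : ph f (Q.drop (b ^ m)) = ph f (Q'.drop (b ^ m)) := hprod
    have hdrop : ∀ a ≤ b ^ m, ph f (Q.drop a) = ph f (Q'.drop a) := by
      intro a ha
      rw [drop_split Q hQ ha, drop_split Q' hQ' ha, ph_append, ph_append, htake, hprod']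
    have hh' : ∀ i < m, hh f b Q i = hh f b Q' i := by
      intro i hi
      unfold hh
      rw [hmod (i + 1) hi]
      exact hdrop _ (hmodb _ _ hi)
    have hRC : ∀ c : Ctx S V m N, RC f e F act b Q c ↔ RC f e F act b Q' c := by
      intro c
      unfold RC
      have g1 : (b ^ (c.1 : ℕ) ∣ Q.length) ↔ (b ^ (c.1 : ℕ) ∣ Q'.length) := by
        rw [Nat.dvd_iff_mod_eq_zero, Nat.dvd_iff_mod_eq_zero, hmod _ c.1.2.le]
      have g2 : Q.length / b ^ (c.1 : ℕ) % b = Q'.length / b ^ (c.1 : ℕ) % b := by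
        rw [← Nat.mod_mul_right_div_self, ← Nat.mod_mul_right_div_self, ← pow_succ,
          hmod _ (show (c.1 : ℕ) + 1 ≤ m from c.1.2)]
      have g3 : wr e f b m Q c.1 = wr e f b m Q' c.1 := by
        unfold wr
        exact Finset.sum_congr rfl fun j hj => by rw [hz j (Finset.mem_Ico.1 hj).2]
      rw [g1, g2, g3, hh' _ c.1.2]
    constructor
    · unfold rhoF
      rw [per_mod hR hmodM]
      simp only [hRC]
    · have hk : (∀ k ∈ Ms, ¬ k ∣ Q.length) ↔ (∀ k ∈ Ms, ¬ k ∣ Q'.length) := by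
        refine forall₂_congr fun k hk => ?_
        rw [Nat.dvd_iff_mod_eq_zero, Nat.dvd_iff_mod_eq_zero,
          ← Nat.mod_mod_of_dvd Q.length (hMs k hk).2.2,
          ← Nat.mod_mod_of_dvd Q'.length (hMs k hk).2.2, hmodM]
      have hw : ww e f b m Q = ww e f b m Q' := by
        unfold ww
        exact Finset.sum_congr rfl fun j hj => by rw [hz j (Finset.mem_range.1 hj)]
      have hp : ph f Q = ph f Q' := by
        have := hdrop 0 (Nat.zero_le _)
        simpa using this
      unfold nuF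
      rw [hw, hp, hmodM]
      exact if_congr hk rfl rfl

end

end Crest.Agent.R320.G1_704
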