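import Mathlib
import Crest.Agent.R320.Noise_513
import Crest.Agent.R320.Names_755

/-! Row 320: the level/digit gadget `g1` (852's (G1), literal of the lead's plan), second copy by helper816. -/

set_option autoImplicit false

namespace Crest.Agent.R320.G1_816

open Finset

section basic
variable {A : Type} {S : Type} [Monoid S] (f : A → S)

def ph (X : List A) : S := (X.map f).prod

theorem ph_app (X Y : List A) : ph f (X ++ Y) = ph f X * ph f Y := by simp [ph]

def seg (X : List A) (a b : ℕ) : List A := (X.drop a).take (b - a)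

theorem seg_left {P Q : List A} {a b : ℕ} (h : b ≤ P.length) (hab : a ≤ b) : seg (P ++ Q) a b = seg P a b := by
  unfold seg
  rw [List.drop_append_of_le_length (hab.trans h), List.take_append_of_le_length]
  rw [List.length_drop]; omega

theorem seg_right {P Q : List A} {a b : ℕ} :
    seg (P ++ Q) (P.length + a) (P.length + b) = seg Q a b := by
  unfold seg
  rw [List.drop_append]
  rw [List.drop_eq_nil_of_le (by omega)]
  simp only [List.nil_append]
  congr 1
  · omega
  · congr 1; omega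

theorem split3 (X : List A) {a b : ℕ} (hab : a ≤ b) :
    ph f X = ph f (X.take a) * ph f (seg X a b) * ph f (X.drop b) := by
  have : X = X.take a ++ seg X a b ++ X.drop b := by
    unfold seg
    have h1 : X.drop b = (X.drop a).drop (b - a) := by
      rw [List.drop_drop]; congr 1; omega
    rw [h1, List.append_assoc, List.take_append_drop, List.take_append_drop]
  conv_lhs => rw [this]
  rw [ph_app, ph_app]

theorem seg_take {X : List A} {a b n : ℕ} (h : b ≤ n) : seg (X.take n) a b = seg X a b := by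
  unfold seg
  rw [List.drop_take, List.take_take]
  congr 1
  omega

theorem drop_split {X : List A} {a n : ℕ} (h : a ≤ n) (hn : n ≤ X.length) :
    ph f (X.drop a) = ph f ((X.take n).drop a) * ph f (X.drop n) := by
  have : X.drop a = (X.take n).drop a ++ X.drop n := by
    conv_lhs => rw [← List.take_append_drop n X]
    rw [List.drop_append_of_le_length]
    rw [List.length_take]; omega
  conv_lhs => rw [this]
  rw [ph_app]

end basic

/-! arithmetic -/

theorem carry {b i o o' : ℕ} (hb : 0 < b) (h1 : o < b ^ (i + 1)) (h2 : b ^ i ∣ o')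
    (h3 : 2 * (o / b ^ i) < b) (h4 : 2 * (o' / b ^ i % b) < b) :
    (∀ j ≤ i, (o + o') % b ^ j = o % b ^ j) ∧ (∀ j, i < j → (o + o') % b ^ j = o + o' % b ^ j) := by
  have hp : 0 < b ^ i := pow_pos hb i
  refine ⟨fun j hj => ?_, fun j hj => ?_⟩
  · have : b ^ j ∣ o' := (pow_dvd_pow b hj).trans h2
    obtain ⟨q, rfl⟩ := this
    rw [Nat.add_mul_mod_self_left]
  · -- o + o' % b^(i+1) < b^(i+1)
    have hkey : o + o' % b ^ (i + 1) < b ^ (i + 1) := by
      have e1 : o' % b ^ (i + 1) = b ^ i * (o' / b ^ i % b) := by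
        obtain ⟨q, rfl⟩ := h2
        rw [pow_succ, Nat.mul_mod_mul_left, Nat.mul_div_cancel_left _ hp]
      rw [e1]
      have e2 : o < b ^ i * (o / b ^ i) + b ^ i := by
        have := Nat.div_add_mod o (b ^ i)
        have := Nat.mod_lt o hp
        omega
      calc o + b ^ i * (o' / b ^ i % b) < b ^ i * (o / b ^ i) + b ^ i + b ^ i * (o' / b ^ i % b) := by omega
        _ = b ^ i * (o / b ^ i + o' / b ^ i % b + 1) := by ring
        _ ≤ b ^ i * b := Nat.mul_le_mul_left _ (by omega)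
        _ = b ^ (i + 1) := by rw [pow_succ]
    have hlt : o + o' % b ^ j < b ^ j := by
      obtain ⟨k, rfl⟩ : ∃ k, j = (i + 1) + k := ⟨j - (i + 1), by omega⟩
      have hpk : 0 < b ^ k := pow_pos hb k
      have e3 : o' % b ^ (i + 1 + k) = o' % b ^ (i + 1) + b ^ (i + 1) * (o' / b ^ (i + 1) % b ^ k) := by
        rw [pow_add, Nat.mod_mul]
      rw [e3]
      have e4 : o' / b ^ (i + 1) % b ^ k < b ^ k := Nat.mod_lt _ hpk
      calc o + (o' % b ^ (i + 1) + b ^ (i + 1) * (o' / b ^ (i + 1) % b ^ k))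
          < b ^ (i + 1) + b ^ (i + 1) * (o' / b ^ (i + 1) % b ^ k) := by omega
        _ = b ^ (i + 1) * (o' / b ^ (i + 1) % b ^ k + 1) := by ring
        _ ≤ b ^ (i + 1) * b ^ k := Nat.mul_le_mul_left _ e4
        _ = b ^ (i + 1 + k) := by rw [← pow_add]
    have : (o + o') % b ^ j = (o + o' % b ^ j) % b ^ j := by
      rw [Nat.add_mod, Nat.add_mod o (o' % b ^ j), Nat.mod_mod]
    rw [this, Nat.mod_eq_of_lt hlt]

theorem exists_rep (N L k : ℕ) (hN : 0 < N) : ∃ o, L ≤ o ∧ o < L + N ∧ o ≡ k [MOD N] := by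
  refine ⟨L + (k + (N - L % N)) % N, by omega, ?_, ?_⟩
  · have := Nat.mod_lt (k + (N - L % N)) hN; omega
  · have h1 : (k + (N - L % N)) % N ≡ k + (N - L % N) [MOD N] := Nat.mod_modEq _ _
    have h2 : L + (k + (N - L % N)) % N ≡ L + (k + (N - L % N)) [MOD N] := Nat.ModEq.add_left L h1
    refine h2.trans ?_
    have h3 : L + (k + (N - L % N)) = k + N * (L / N + 1) := by
      have := Nat.div_add_mod L N
      have := Nat.mod_lt L hN
      have e : N * (L / N + 1) = N * (L / N) + N := by ring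
      omega
    rw [h3]
    unfold Nat.ModEq
    rw [Nat.add_mul_mod_self_left]


section gadget
open Classical

variable {S V W : Type} [Monoid S] [AddCommGroup V] [AddCommGroup W]

/-- contexts: level, left product, left weight, right product, right weight, token -/
structure Cx (S V W : Type) (m : ℕ) where
  i : Fin m
  g : S
  wl : W
  h : S
  wr : W
  v : V

variable {m : ℕ} (act : V → S → V) (e : Fin m → S → W) (F : S → W → V)

def bb (c : Cx S V W m) : V :=
  F (c.g * 1 * c.h) (c.wl + e c.i 1 + c.wr) + act c.v (c.g * 1 * c.h)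

def GoodC (c : Cx S V W m) : Prop :=
  ∀ z : S, F (c.g * z * c.h) (c.wl + e c.i z + c.wr) + act c.v (c.g * z * c.h) = bb act e F c

instance [Finite S] [Finite V] [Finite W] : Finite (Cx S V W m) := by
  refine Finite.of_injective (β := Fin m × S × W × S × W × V)
    (fun c => (c.i, c.g, c.wl, c.h, c.wr, c.v)) ?_
  rintro ⟨a, b, c, d, e, f⟩ ⟨a', b', c', d', e', f'⟩ h
  simp only [Prod.mk.injEq] at h
  obtain ⟨rfl, rfl, rfl, rfl, rfl, rfl⟩ := h
  rfl

variable {A : Type} (f : A → S) (b : ℕ)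

/-- weight of the block `j` read with the lengths `n` -/
def tm (X : List A) (j : Fin m) : W :=
  e j (ph f (seg X (X.length % b ^ (j : ℕ)) (X.length % b ^ ((j : ℕ) + 1))))

def wtL (P : List A) (i : Fin m) : W := ∑ j : Fin m, if j < i then tm e f b P j else 0
def wtR (Q : List A) (i : Fin m) : W := ∑ j : Fin m, if i < j then tm e f b Q j else 0
def wt (X : List A) : W := ∑ j : Fin m, tm e f b X j

abbrev Nm (act : V → S → V) (e : Fin m → S → W) (F : S → W → V) := {c : Cx S V W m // GoodC act e F c}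

variable {act e F} (nmL nmR : ℕ → Option (Nm act e F))

def LegL (P : List A) (c : Nm act e F) : Prop :=
  nmL P.length = some c ∧ P.length < b ^ ((c.1.i : ℕ) + 1) ∧ 2 * (P.length / b ^ (c.1.i : ℕ)) < b ∧
    ph f (P.take (P.length % b ^ (c.1.i : ℕ))) = c.1.g ∧ wtL e f b P c.1.i = c.1.wl

def LegR (Q : List A) (c : Nm act e F) : Prop :=
  nmR Q.length = some c ∧ b ^ (c.1.i : ℕ) ∣ Q.length ∧ 2 * (Q.length / b ^ (c.1.i : ℕ) % b) < b ∧
    ph f (Q.drop (Q.length % b ^ ((c.1.i : ℕ) + 1))) = c.1.h ∧ wtR e f b Q c.1.i = c.1.wr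

theorem LegL.uniq {P : List A} {c c' : Nm act e F} (h : LegL f b nmL P c) (h' : LegL f b nmL P c') : c = c' := by
  have := h.1.symm.trans h'.1
  exact Option.some.inj this

theorem LegR.uniq {P : List A} {c c' : Nm act e F} (h : LegR f b nmR P c) (h' : LegR f b nmR P c') : c = c' := by
  have := h.1.symm.trans h'.1
  exact Option.some.inj this

noncomputable def lam (P : List A) : Option V :=
  if h : ∃ c, LegL f b nmL P c then some (h.choose).1.v else none

noncomputable def rho (Q : List A) : Option V :=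
  if h : ∃ c, LegR f b nmR Q c then some (bb act e F (h.choose).1) else none

theorem lam_eq {P : List A} {c : Nm act e F} (h : LegL f b nmL P c) : lam f b nmL P = some c.1.v := by
  have hex : ∃ c, LegL f b nmL P c := ⟨c, h⟩
  unfold lam
  rw [dif_pos hex, LegL.uniq f b nmL hex.choose_spec h]

theorem rho_eq {P : List A} {c : Nm act e F} (h : LegR f b nmR P c) : rho f b nmR P = some (bb act e F c.1) := by
  have hex : ∃ c, LegR f b nmR P c := ⟨c, h⟩
  unfold rho
  rw [dif_pos hex, LegR.uniq f b nmR hex.choose_spec h]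

theorem lam_some {P : List A} {v : V} (h : lam f b nmL P = some v) : ∃ c, LegL f b nmL P c ∧ c.1.v = v := by
  unfold lam at h
  split_ifs at h with hex
  exact ⟨_, hex.choose_spec, Option.some.inj h⟩

theorem rho_some {P : List A} {v : V} (h : rho f b nmR P = some v) : ∃ c, LegR f b nmR P c ∧ bb act e F c.1 = v := by
  unfold rho at h
  split_ifs at h with hex
  exact ⟨_, hex.choose_spec, Option.some.inj h⟩

/-- the geometry of a cut at a common level -/
theorem junction (hb : 0 < b) {P Q : List A} {i : Fin m} (h1 : P.length < b ^ ((i : ℕ) + 1))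
    (h2 : b ^ (i : ℕ) ∣ Q.length) (h3 : 2 * (P.length / b ^ (i : ℕ)) < b)
    (h4 : 2 * (Q.length / b ^ (i : ℕ) % b) < b) :
    ph f (P ++ Q) = ph f (P.take (P.length % b ^ (i : ℕ))) *
        ph f (seg (P ++ Q) ((P ++ Q).length % b ^ (i : ℕ)) ((P ++ Q).length % b ^ ((i : ℕ) + 1))) *
        ph f (Q.drop (Q.length % b ^ ((i : ℕ) + 1))) ∧
    wt e f b (P ++ Q) = wtL e f b P i + e i (ph f (seg (P ++ Q) ((P ++ Q).length % b ^ (i : ℕ))
        ((P ++ Q).length % b ^ ((i : ℕ) + 1)))) + wtR e f b Q i := by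
  obtain ⟨ha, hc⟩ := carry hb h1 h2 h3 h4
  have hn : (P ++ Q).length = P.length + Q.length := List.length_append
  have hi := ha i le_rfl
  have hi1 := hc ((i : ℕ) + 1) (Nat.lt_succ_self _)
  constructor
  · rw [split3 f (P ++ Q) (a := (P ++ Q).length % b ^ (i : ℕ)) (b := (P ++ Q).length % b ^ ((i : ℕ) + 1))]
    · congr 1
      · congr 1
        rw [hn, hi, List.take_append_of_le_length (Nat.mod_le _ _)]
      · rw [hn, hi1, List.drop_append, List.drop_eq_nil_of_le (Nat.le_add_right _ _)]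
        simp
    · rw [hn, hi, hi1]
      exact (Nat.mod_le _ _).trans (Nat.le_add_right _ _)
  · have key : ∀ j : Fin m, tm e f b (P ++ Q) j = (if j < i then tm e f b P j else 0) +
        (if j = i then tm e f b (P ++ Q) j else 0) + (if i < j then tm e f b Q j else 0) := by
      intro j
      rcases lt_trichotomy j i with hj | hj | hj
      · have hj' : (j : ℕ) < i := hj
        rw [if_pos hj, if_neg hj.ne, if_neg (not_lt.2 hj.le), add_zero, add_zero]
        unfold tm
        rw [hn, ha j hj'.le, ha (j + 1) hj', seg_left (Nat.mod_le _ _)]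
        have hd : b ^ (j : ℕ) ∣ b ^ ((j : ℕ) + 1) := pow_dvd_pow b (Nat.le_succ _)
        rw [← Nat.mod_mod_of_dvd P.length hd]
        exact Nat.mod_le _ _
      · subst hj
        simp
      · have hj' : (i : ℕ) < j := hj
        rw [if_neg (not_lt.2 hj.le), if_neg hj.ne', if_pos hj, zero_add, zero_add]
        unfold tm
        rw [hn, hc j hj', hc (j + 1) (by omega), seg_right]
    unfold wt wtL wtR
    rw [Finset.sum_congr rfl (fun j _ => key j), Finset.sum_add_distrib, Finset.sum_add_distrib]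
    congr 2
    rw [Finset.sum_ite_eq' Finset.univ i]
    simp [tm]

theorem tm_lt (hb : 0 < b) {P Q : List A} {i : Fin m} (h1 : P.length < b ^ ((i : ℕ) + 1))
    (h2 : b ^ (i : ℕ) ∣ Q.length) (h3 : 2 * (P.length / b ^ (i : ℕ)) < b)
    (h4 : 2 * (Q.length / b ^ (i : ℕ) % b) < b) {j : Fin m} (hj : j < i) :
    tm e f b (P ++ Q) j = tm e f b P j := by
  obtain ⟨ha, -⟩ := carry hb h1 h2 h3 h4
  have hn : (P ++ Q).length = P.length + Q.length := List.length_append
  have hj' : (j : ℕ) < i := hj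
  unfold tm
  rw [hn, ha j hj'.le, ha (j + 1) hj', seg_left (Nat.mod_le _ _)]
  have hd : b ^ (j : ℕ) ∣ b ^ ((j : ℕ) + 1) := pow_dvd_pow b (Nat.le_succ _)
  rw [← Nat.mod_mod_of_dvd P.length hd]
  exact Nat.mod_le _ _

theorem tm_gt (hb : 0 < b) {P Q : List A} {i : Fin m} (h1 : P.length < b ^ ((i : ℕ) + 1))
    (h2 : b ^ (i : ℕ) ∣ Q.length) (h3 : 2 * (P.length / b ^ (i : ℕ)) < b)
    (h4 : 2 * (Q.length / b ^ (i : ℕ) % b) < b) {j : Fin m} (hj : i < j) :
    tm e f b (P ++ Q) j = tm e f b Q j := by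
  obtain ⟨-, hc⟩ := carry hb h1 h2 h3 h4
  have hn : (P ++ Q).length = P.length + Q.length := List.length_append
  have hj' : (i : ℕ) < j := hj
  unfold tm
  rw [hn, hc j hj', hc (j + 1) (by omega), seg_right]

theorem wt_split (X : List A) (i : Fin m) :
    wt e f b X = wtL e f b X i + tm e f b X i + wtR e f b X i := by
  have key : ∀ j : Fin m, tm e f b X j = (if j < i then tm e f b X j else 0) +
      (if j = i then tm e f b X j else 0) + (if i < j then tm e f b X j else 0) := by
    intro j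
    rcases lt_trichotomy j i with hj | hj | hj
    · rw [if_pos hj, if_neg hj.ne, if_neg (not_lt.2 hj.le), add_zero, add_zero]
    · subst hj
      simp
    · rw [if_neg (not_lt.2 hj.le), if_neg hj.ne', if_pos hj, zero_add, zero_add]
  unfold wt wtL wtR
  conv_lhs => rw [Finset.sum_congr rfl (fun j _ => key j)]
  rw [Finset.sum_add_distrib, Finset.sum_add_distrib]
  congr 2
  rw [Finset.sum_ite_eq' Finset.univ i]
  simp

/-- token and label of a bad total -/
def PP (nmL nmR : ℕ → Option (Nm act e F)) (M r : ℕ) (p : V × V) : Prop :=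
  ∃ t t' c c', nmL t = some c ∧ nmR t' = some c' ∧ (t + t') % M = r ∧ p = (c.1.v, bb act e F c'.1)

noncomputable def prr (nmL nmR : ℕ → Option (Nm act e F)) (M r : ℕ) : V × V :=
  if h : ∃ p, PP nmL nmR M r p then h.choose else (0, 0)

theorem per {N : Type} {nm : ℕ → Option N} {M : ℕ} (h : ∀ t, nm (t + M) = nm t) (t k : ℕ) :
    nm (t + M * k) = nm t := by
  induction k with
  | zero => simp
  | succ k ih => rw [Nat.mul_succ, ← add_assoc, h, ih]

theorem prr_eq {Ms : Finset ℕ} {M : ℕ} (hMk : ∀ k ∈ Ms, k ∣ M)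
    (hL : ∀ t, nmL (t + M) = nmL t) (hR : ∀ t, nmR (t + M) = nmR t)
    (h8 : ∀ t₁ t₁' t₂ t₂' c₁ c₁' c₂ c₂', nmL t₁ = some c₁ → nmR t₁' = some c₁' →
        nmL t₂ = some c₂ → nmR t₂' = some c₂' → t₁ + t₁' = t₂ + t₂' →
        (∃ k ∈ Ms, k ∣ t₁ + t₁') → (c₁.1.v, bb act e F c₁.1) = (c₂.1.v, bb act e F c₂.1) ∧
          (c₁'.1.v, bb act e F c₁'.1) = (c₂'.1.v, bb act e F c₂'.1))
    {t t' : ℕ} {c c' : Nm act e F} (hc : nmL t = some c) (hc' : nmR t' = some c')
    (hk : ∃ k ∈ Ms, k ∣ t + t') : prr nmL nmR M ((t + t') % M) = (c.1.v, bb act e F c'.1) := by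
  have hex : ∃ p, PP nmL nmR M ((t + t') % M) p := ⟨_, t, t', c, c', hc, hc', rfl, rfl⟩
  unfold prr
  rw [dif_pos hex]
  obtain ⟨s, s', d, d', hd, hd', hs, hp⟩ := hex.choose_spec
  rw [hp]
  have hmod : t + t' ≡ s + s' [MOD M] := hs.symm
  -- make the sums equal
  obtain ⟨a, a', haa⟩ : ∃ a a' : ℕ, (t + t') + M * a = (s + s') + M * a' := by
    rcases le_total (t + t') (s + s') with h | h
    · obtain ⟨q, hq⟩ := (Nat.modEq_iff_dvd' h).1 hmod
      exact ⟨q, 0, by omega⟩
    · obtain ⟨q, hq⟩ := (Nat.modEq_iff_dvd' h).1 hmod.symm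
      exact ⟨0, q, by omega⟩
  obtain ⟨k, hkM, hkd⟩ := hk
  have h := h8 t (t' + M * a) s (s' + M * a') c c' d d' hc (by rw [per hR]; exact hc') hd
    (by rw [per hR]; exact hd') (by omega)
    ⟨k, hkM, by
      rw [← add_assoc]
      exact dvd_add hkd ((hMk k hkM).mul_right a)⟩
  have h1 := (Prod.mk.inj h.1).1
  have h2 := (Prod.mk.inj h.2).2
  rw [h1, h2]

noncomputable def nu (nmL nmR : ℕ → Option (Nm act e F)) (Ms : Finset ℕ) (M : ℕ) (X : List A) : V :=
  if ∀ k ∈ Ms, ¬ k ∣ X.length then F (ph f X) (wt e f b X)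
  else (prr nmL nmR M (X.length % M)).2 - act (prr nmL nmR M (X.length % M)).1 (ph f X)

end gadget

section fin
open Classical
variable {S V W : Type} [Monoid S] [AddCommGroup V] [AddCommGroup W] {m : ℕ}
  {act : V → S → V} {e : Fin m → S → W} {F : S → W → V} {A : Type} (f : A → S) (b : ℕ)
  (nmL nmR : ℕ → Option (Nm act e F))

theorem mod_pow {n n' M b m : ℕ} (h : n % (M * b ^ m) = n' % (M * b ^ m)) :
    (∀ j ≤ m, n % b ^ j = n' % b ^ j) ∧ n % M = n' % M := by
  have h' : n ≡ n' [MOD M * b ^ m] := h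
  refine ⟨fun j hj => ?_, h'.of_mul_right _⟩
  have h2 : n ≡ n' [MOD b ^ m] := h'.of_mul_left _
  exact h2.of_dvd (pow_dvd_pow b hj)

theorem tm_fin (hb : 0 < b) {Q Q' : List A} (h3 : Q.take (b ^ m) = Q'.take (b ^ m))
    (hj : ∀ j ≤ m, Q.length % b ^ j = Q'.length % b ^ j) (j : Fin m) :
    tm e f b Q j = tm e f b Q' j := by
  unfold tm
  have hle : Q.length % b ^ ((j : ℕ) + 1) ≤ b ^ m :=
    (Nat.mod_lt _ (pow_pos hb _)).le.trans (Nat.pow_le_pow_right hb j.2)
  rw [← seg_take hle, h3, hj j j.2.le, hj (j + 1) j.2]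
  rw [hj (j + 1) j.2] at hle
  rw [seg_take hle]

theorem legR_tr (hb : 0 < b) {M : ℕ} (hR : ∀ t, nmR (t + M) = nmR t) {Q Q' : List A}
    (h1 : b ^ m ≤ Q.length) (h2 : b ^ m ≤ Q'.length) (h3 : Q.take (b ^ m) = Q'.take (b ^ m))
    (h4 : Q.length % (M * b ^ m) = Q'.length % (M * b ^ m))
    (h5 : ph f (Q.drop (b ^ m)) = ph f (Q'.drop (b ^ m))) {c : Nm act e F}
    (hc : LegR f b nmR Q c) : LegR f b nmR Q' c := by
  obtain ⟨hj, hM⟩ := mod_pow h4
  obtain ⟨c1, c2, c3, c4, c5⟩ := hc
  have hi : (c.1.i : ℕ) < m := c.1.i.2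
  refine ⟨?_, ?_, ?_, ?_, ?_⟩
  · have e1 := per hR (Q.length % M) (Q.length / M)
    have e2 := per hR (Q'.length % M) (Q'.length / M)
    rw [Nat.mod_add_div] at e1 e2
    rw [e2, ← hM, ← e1]; exact c1
  · rw [Nat.dvd_iff_mod_eq_zero] at c2 ⊢
    rw [← hj _ hi.le]; exact c2
  · rw [← Nat.mod_mul_right_div_self, ← pow_succ] at c3 ⊢
    rw [← hj _ hi]; exact c3
  · have hle : Q.length % b ^ ((c.1.i : ℕ) + 1) ≤ b ^ m :=
      (Nat.mod_lt _ (pow_pos hb _)).le.trans (Nat.pow_le_pow_right hb hi)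
    rw [drop_split f hle h1] at c4
    rw [← hj _ hi, drop_split f hle h2, ← h3, ← h5]
    exact c4
  · rw [← c5]
    unfold wtR
    refine Finset.sum_congr rfl fun j _ => ?_
    rw [tm_fin f b hb h3 hj j]

theorem fin_clause (hb : 0 < b) {Ms : Finset ℕ} {M : ℕ} (hMk : ∀ k ∈ Ms, k ∣ M)
    (hR : ∀ t, nmR (t + M) = nmR t) {Q Q' : List A}
    (h1 : b ^ m ≤ Q.length) (h2 : b ^ m ≤ Q'.length) (h3 : Q.take (b ^ m) = Q'.take (b ^ m))
    (h4 : Q.length % (M * b ^ m) = Q'.length % (M * b ^ m))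
    (h5 : ph f (Q.drop (b ^ m)) = ph f (Q'.drop (b ^ m))) :
    rho f b nmR Q = rho f b nmR Q' ∧ nu f b nmL nmR Ms M Q = nu f b nmL nmR Ms M Q' := by
  obtain ⟨hj, hM⟩ := mod_pow h4
  have hph : ph f Q = ph f Q' := by
    have e1 : ∀ X : List A, ph f X = ph f (X.take (b ^ m)) * ph f (X.drop (b ^ m)) := by
      intro X
      rw [← ph_app, List.take_append_drop]
    rw [e1 Q, e1 Q', h3, h5]
  constructor
  · by_cases hex : ∃ c, LegR f b nmR Q c
    · obtain ⟨c, hc⟩ := hex
      rw [rho_eq f b nmR hc, rho_eq f b nmR (legR_tr f b nmR hb hR h1 h2 h3 h4 h5 hc)]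
    · have hex' : ¬ ∃ c, LegR f b nmR Q' c := by
        rintro ⟨c, hc⟩
        exact hex ⟨c, legR_tr f b nmR hb hR h2 h1 h3.symm h4.symm h5.symm hc⟩
      unfold rho
      rw [dif_neg hex, dif_neg hex']
  · have hk : (∀ k ∈ Ms, ¬ k ∣ Q.length) ↔ (∀ k ∈ Ms, ¬ k ∣ Q'.length) := by
      refine forall_congr' fun k => forall_congr' fun hk => not_congr ?_
      have : Q.length ≡ Q'.length [MOD k] := Nat.ModEq.of_dvd (hMk k hk) hM
      rw [Nat.dvd_iff_mod_eq_zero, Nat.dvd_iff_mod_eq_zero]
      unfold Nat.ModEq at this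
      rw [this]
    have hwt : wt e f b Q = wt e f b Q' := by
      unfold wt
      exact Finset.sum_congr rfl fun j _ => tm_fin f b hb h3 hj j
    unfold nu
    by_cases hg : ∀ k ∈ Ms, ¬ k ∣ Q.length
    · rw [if_pos hg, if_pos (hk.1 hg), hph, hwt]
    · rw [if_neg hg, if_neg (fun h => hg (hk.2 h)), hph, hM]

end fin

theorem g1 (S V : Type) [Monoid S] [Finite S] [AddCommGroup V] [Finite V] (act : V → S → V) :
    ∃ m r : ℕ, ∀ Bd : ℕ, ∃ (Ms : Finset ℕ) (M : ℕ), Ms.card ≤ r ∧
      (∀ k ∈ Ms, Bd < k ∧ k.Prime ∧ k ∣ M) ∧ 0 < M ∧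
      ∀ b : ℕ, 4 * M + 4 < b → Nat.Coprime b M → ∀ (A : Type) (f : A → S),
        ∃ (lam rho : List A → Option V) (nu : List A → V),
          (∀ P v, lam P = some v → P.length < b ^ m) ∧
          (∀ P Q v v', lam P = some v → rho Q = some v' →
            v' = act v ((P ++ Q).map f).prod + nu (P ++ Q)) ∧
          (∀ X, (∀ k ∈ Ms, ¬ k ∣ X.length) →
            (∀ j < m, M ≤ X.length / b ^ j % b ∧ X.length / b ^ j % b + M + 1 ≤ b) →
            ∀ v, ∃ P Q, P ++ Q = X ∧ lam P = some v ∧ (rho Q).isSome) ∧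
          (∀ Q Q', b ^ m ≤ Q.length → b ^ m ≤ Q'.length → Q.take (b ^ m) = Q'.take (b ^ m) →
            Q.length % (M * b ^ m) = Q'.length % (M * b ^ m) →
            ((Q.drop (b ^ m)).map f).prod = ((Q'.drop (b ^ m)).map f).prod →
            rho Q = rho Q' ∧ nu Q = nu Q') := by
  obtain ⟨W, _, _, m, e, F, hF⟩ := Noise513.explicit_noise S V act
  haveI : Finite W := Finite.of_fintype W
  obtain ⟨r, hr⟩ := Names755.names (Nm act e F) (V × V) (fun c => (c.1.v, bb act e F c.1))
  refine ⟨m, r, fun Bd => ?_⟩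
  obtain ⟨Ms, M, nmL, nmR, hcard, hMs, hM, hL, hR, h6, h7, h8⟩ := hr Bd
  refine ⟨Ms, M, hcard, hMs, hM, fun b hb hco A f => ?_⟩
  have hb0 : 0 < b := by omega
  refine ⟨lam f b nmL, rho f b nmR, nu f b nmL nmR Ms M, ?_, ?_, ?_, ?_⟩
  · intro P v h
    obtain ⟨c, hc, -⟩ := lam_some f b nmL h
    exact hc.2.1.trans_le (Nat.pow_le_pow_right hb0 c.1.i.2)
  · intro P Q v v' hv hv'
    obtain ⟨c, hc, rfl⟩ := lam_some f b nmL hv
    obtain ⟨c', hc', rfl⟩ := rho_some f b nmR hv'
    have hlen : (P ++ Q).length = P.length + Q.length := List.length_append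
    change _ = act c.1.v (ph f (P ++ Q)) + _
    by_cases hg : ∀ k ∈ Ms, ¬ k ∣ (P ++ Q).length
    · have hcc : c = c' := h6 _ _ _ _ hc.1 hc'.1 (by rw [← hlen]; exact hg)
      subst hcc
      obtain ⟨j1, j2⟩ := junction (e := e) f b hb0 hc.2.1 hc'.2.1 hc.2.2.1 hc'.2.2.1
      unfold nu
      rw [if_pos hg, j2, j1, hc.2.2.2.1, hc.2.2.2.2, hc'.2.2.2.1, hc'.2.2.2.2, add_comm]
      exact (c.2 _).symm
    · unfold nu
      rw [if_neg hg]
      push Not at hg
      have := prr_eq nmL nmR (Ms := Ms) (M := M) (fun k hk => (hMs k hk).2.2) hL hR h8 hc.1 hc'.1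
        (by rw [← hlen]; exact hg)
      rw [hlen, this]
      simp
  · intro X hX hdig v
    obtain ⟨i, hi⟩ := hF (ph f X) (wt e f b X) v
    have hp : 0 < b ^ (i : ℕ) := pow_pos hb0 _
    have hββ : X.length % b ^ (i : ℕ) ≤ X.length % b ^ ((i : ℕ) + 1) := by
      rw [← Nat.mod_mod_of_dvd X.length (pow_dvd_pow b (Nat.le_succ (i : ℕ)))]
      exact Nat.mod_le _ _
    have hs := (split3 f X hββ).symm
    have hG := hi _ _ _ hs
    have hw := wt_split (e := e) f b X i
    have hval : ∀ z, F (ph f (X.take (X.length % b ^ (i : ℕ))) * z *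
        ph f (X.drop (X.length % b ^ ((i : ℕ) + 1)))) (wtL e f b X i + e i z + wtR e f b X i) +
        act v (ph f (X.take (X.length % b ^ (i : ℕ))) * z *
        ph f (X.drop (X.length % b ^ ((i : ℕ) + 1)))) = F (ph f X) (wt e f b X) + act v (ph f X) := by
      intro z
      rw [← hG z]
      congr 2
      rw [hw]
      unfold tm
      abel
    let c : Nm act e F := ⟨⟨i, ph f (X.take (X.length % b ^ (i : ℕ))), wtL e f b X i,
      ph f (X.drop (X.length % b ^ ((i : ℕ) + 1))), wtR e f b X i, v⟩, fun z => by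
        show _ = bb act e F _
        unfold bb
        exact (hval z).trans (hval 1).symm⟩
    obtain ⟨t, htM, htL, htR⟩ := h7 X.length hX c
    obtain ⟨d1, d2⟩ := hdig i i.2
    set ni := X.length / b ^ (i : ℕ) % b with hni
    obtain ⟨k, hk1, hk2⟩ := Nat.chineseRemainder (Nat.Coprime.pow_left (i : ℕ) hco)
      (X.length % b ^ (i : ℕ)) t
    obtain ⟨o, ho1, ho2, ho3⟩ := exists_rep (b ^ (i : ℕ) * M)
      (X.length % b ^ (i : ℕ) + b ^ (i : ℕ) * (ni - (b - 1) / 2)) k (Nat.mul_pos hp hM)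
    have ho4 : o ≡ X.length % b ^ (i : ℕ) [MOD b ^ (i : ℕ)] := (ho3.of_mul_right _).trans hk1
    have ho5 : o ≡ t [MOD M] := (ho3.of_mul_left _).trans hk2
    have hom : o % b ^ (i : ℕ) = X.length % b ^ (i : ℕ) := by
      have := ho4
      unfold Nat.ModEq at this
      rw [Nat.mod_mod] at this
      exact this
    set β := X.length % b ^ (i : ℕ) with hβ
    set β' := X.length % b ^ ((i : ℕ) + 1) with hβ'
    have hodiv : o = b ^ (i : ℕ) * (o / b ^ (i : ℕ)) + β := by
      rw [← hom]; exact (Nat.div_add_mod _ _).symm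
    set y := o / b ^ (i : ℕ) with hy
    have hy1 : ni - (b - 1) / 2 ≤ y := by
      have : b ^ (i : ℕ) * (ni - (b - 1) / 2) ≤ b ^ (i : ℕ) * y := by
        generalize b ^ (i : ℕ) * (ni - (b - 1) / 2) = a1 at *
        generalize b ^ (i : ℕ) * y = a2 at *
        omega
      exact Nat.le_of_mul_le_mul_left this hp
    have hy2 : y < ni - (b - 1) / 2 + M := by
      have : b ^ (i : ℕ) * y < b ^ (i : ℕ) * (ni - (b - 1) / 2 + M) := by
        rw [Nat.mul_add]
        generalize b ^ (i : ℕ) * (ni - (b - 1) / 2) = a1 at *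
        generalize b ^ (i : ℕ) * y = a2 at *
        generalize b ^ (i : ℕ) * M = a3 at *
        omega
      exact Nat.lt_of_mul_lt_mul_left this
    have hy3 : y ≤ ni := by omega
    have hy4 : 2 * y < b := by omega
    have hy5 : 2 * (ni - y) < b := by omega
    have hβ2 : β' = β + b ^ (i : ℕ) * ni := by
      rw [hβ', pow_succ, Nat.mod_mul]
    have hnn : X.length = b ^ ((i : ℕ) + 1) * (X.length / b ^ ((i : ℕ) + 1)) + β' :=
      (Nat.div_add_mod _ _).symm
    set w := X.length / b ^ ((i : ℕ) + 1) with hww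
    have hob : o ≤ β' := by
      rw [hβ2]
      have : b ^ (i : ℕ) * y ≤ b ^ (i : ℕ) * ni := Nat.mul_le_mul_left _ hy3
      omega
    have hoX : o ≤ X.length := hob.trans (Nat.mod_le _ _)
    have hPl : (X.take o).length = o := by rw [List.length_take]; omega
    have hQl : (X.drop o).length = X.length - o := List.length_drop
    have hQ1 : X.length - o = b ^ (i : ℕ) * (ni - y + b * w) := by
      have e1 : b ^ (i : ℕ) * (ni - y + b * w) = b ^ (i : ℕ) * (ni - y) + b ^ ((i : ℕ) + 1) * w := by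
        rw [pow_succ]; ring
      have e2 : b ^ (i : ℕ) * (ni - y) + b ^ (i : ℕ) * y = b ^ (i : ℕ) * ni := by
        rw [← Nat.mul_add]; congr 1; omega
      rw [e1]
      generalize b ^ (i : ℕ) * (ni - y) = a1 at *
      generalize b ^ (i : ℕ) * y = a2 at *
      generalize b ^ (i : ℕ) * ni = a3 at *
      generalize b ^ ((i : ℕ) + 1) * w = a4 at *
      omega
    have hQd : b ^ (i : ℕ) ∣ (X.drop o).length := by rw [hQl, hQ1]; exact dvd_mul_right _ _
    have hbni : ni < b := Nat.mod_lt _ hb0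
    have hQdig : (X.drop o).length / b ^ (i : ℕ) % b = ni - y := by
      rw [hQl, hQ1, Nat.mul_div_cancel_left _ hp, Nat.add_mul_mod_self_left, Nat.mod_eq_of_lt]
      omega
    have g1 : (X.take o).length < b ^ ((i : ℕ) + 1) := by
      rw [hPl]; exact hob.trans_lt (Nat.mod_lt _ (pow_pos hb0 _))
    have g3 : 2 * ((X.take o).length / b ^ (i : ℕ)) < b := by rw [hPl]; exact hy4
    have g4 : 2 * ((X.drop o).length / b ^ (i : ℕ) % b) < b := by rw [hQdig]; exact hy5
    have hPQ : X.take o ++ X.drop o = X := List.take_append_drop o X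
    have hmod : ∀ {N : Type} {nm : ℕ → Option N}, (∀ t, nm (t + M) = nm t) → nm o = nm t := by
      intro N nm h
      have e1 := per h (o % M) (o / M)
      have e2 := per h (t % M) (t / M)
      rw [Nat.mod_add_div] at e1 e2
      rw [e1, e2]
      congr 1
    have hlegL : LegL f b nmL (X.take o) c := by
      refine ⟨by rw [hPl, hmod hL]; exact htL, g1, g3, ?_, ?_⟩
      · show ph f ((X.take o).take ((X.take o).length % b ^ (i : ℕ))) = ph f (X.take β)
        have hβo : β ≤ o := by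
          have := Nat.mod_le o (b ^ (i : ℕ))
          rw [hom] at this
          exact this
        rw [hPl, hom, List.take_take, min_eq_left hβo]
      · show wtL e f b (X.take o) i = wtL e f b X i
        unfold wtL
        refine Finset.sum_congr rfl fun j _ => ?_
        split_ifs with hj
        · have := tm_lt (e := e) f b hb0 g1 hQd g3 g4 hj
          rw [hPQ] at this
          exact this.symm
        · rfl
    have hlegR : LegR f b nmR (X.drop o) c := by
      refine ⟨htR _ ?_, hQd, g4, ?_, ?_⟩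
      · rw [hQl]
        have : o + (X.length - o) = X.length := by omega
        calc t + (X.length - o) ≡ o + (X.length - o) [MOD M] := Nat.ModEq.add_right _ ho5.symm
          _ = X.length := this
      · show ph f ((X.drop o).drop ((X.drop o).length % b ^ ((i : ℕ) + 1))) = ph f (X.drop β')
        rw [List.drop_drop]
        have hc := (carry hb0 g1 hQd g3 g4).2 ((i : ℕ) + 1) (Nat.lt_succ_self _)
        rw [hPl] at hc
        have e1 : o + (X.drop o).length = X.length := by rw [hQl]; omega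
        rw [e1] at hc
        rw [← hc]
      · show wtR e f b (X.drop o) i = wtR e f b X i
        unfold wtR
        refine Finset.sum_congr rfl fun j _ => ?_
        split_ifs with hj
        · have := tm_gt (e := e) f b hb0 g1 hQd g3 g4 hj
          rw [hPQ] at this
          exact this.symm
        · rfl
    exact ⟨X.take o, X.drop o, hPQ, lam_eq f b nmL hlegL, by rw [rho_eq f b nmR hlegR]; rfl⟩
  · intro Q Q' h1 h2 h3 h4 h5
    exact fin_clause f b nmL nmR hb0 (fun k hk => (hMs k hk).2.2) hR h1 h2 h3 h4 h5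

end Crest.Agent.R320.G1_816
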