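import Crest.Agent.R320.Noise_513
import Crest.Agent.R320.Names_755

/-!
# Row 320, gadget G1 (852 #13483, literal of lead #13673), independent copy (helper864)

Levels = positional digits of the total length in base `b`, names = CRT clocks.
No hypothesis on the words.
-/

set_option autoImplicit false

namespace Crest.Agent.R320.G1_864

open Finset Classical

/-- the factor `X[a, c)` -/
def seg {A : Type} (X : List A) (a c : ℕ) : List A := (X.drop a).take (c - a)

theorem drop_add_append {A : Type} (P Q : List A) (a : ℕ) :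
    (P ++ Q).drop (P.length + a) = Q.drop a := by
  simp [List.drop_append]

theorem seg_left {A : Type} (P Q : List A) {a c : ℕ} (h : c ≤ P.length) :
    seg (P ++ Q) a c = seg P a c := by
  unfold seg
  rcases le_total a c with hac | hac
  · rw [List.drop_append_of_le_length (hac.trans h), List.take_append_of_le_length]
    rw [List.length_drop]; omega
  · rw [Nat.sub_eq_zero_of_le hac]; simp

theorem seg_right {A : Type} (P Q : List A) (a c : ℕ) :
    seg (P ++ Q) (P.length + a) (P.length + c) = seg Q a c := by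
  unfold seg
  rw [drop_add_append]
  congr 1
  omega

theorem split3 {A : Type} (X : List A) {a c : ℕ} (h : a ≤ c) :
    X = X.take a ++ (seg X a c ++ X.drop c) := by
  unfold seg
  have h1 : (X.drop a).take (c - a) ++ X.drop c = X.drop a := by
    have : X.drop c = (X.drop a).drop (c - a) := by
      rw [List.drop_drop]; congr 1; omega
    rw [this, List.take_append_drop]
  rw [h1, List.take_append_drop]

theorem dig_le {b i o o' j : ℕ} (hj : j ≤ i) (hd : b^i ∣ o') : (o + o') % b^j = o % b^j := by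
  obtain ⟨q, rfl⟩ := (pow_dvd_pow b hj).trans hd
  rw [Nat.add_mul_mod_self_left]

theorem dig_gt {b i o o' j : ℕ} (hb : 0 < b) (hj : i < j) (ho : 2 * (o / b^i) < b)
    (hd : b^i ∣ o') (hd2 : 2 * ((o' / b^i) % b) < b) : (o + o') % b^j = o + o' % b^j := by
  have hlt : o + o' % b^j < b^j := by
    obtain ⟨k, rfl⟩ := Nat.exists_eq_add_of_lt hj
    obtain ⟨q, rfl⟩ := hd
    have e : (b^i*q) % b^(i+k+1) = b^i * (q % b^(k+1)) := by
      rw [show b^(i+k+1) = b^i * b^(k+1) by ring, Nat.mul_mod_mul_left]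
    have hq : b^i * q / b^i = q := Nat.mul_div_cancel_left _ (pow_pos hb i)
    rw [hq] at hd2
    have e2 : q % b^(k+1) = q % b + b * (q / b % b^k) := by
      rw [pow_succ', Nat.mod_mul]
    have h1 : o < b^i * (o / b^i + 1) := by
      have h3 := Nat.div_add_mod o (b^i)
      have h4 := Nat.mod_lt o (pow_pos hb i)
      rw [Nat.mul_add, Nat.mul_one]
      omega
    have h2 : q / b % b^k + 1 ≤ b^k := Nat.mod_lt _ (pow_pos hb k)
    rw [e, e2]
    calc o + b^i * (q % b + b*(q/b % b^k))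
        < b^i * (o / b^i + 1) + b^i * (q % b + b*(q/b % b^k)) := by omega
      _ = b^i * ((o/b^i + q % b + 1) + b * (q/b % b^k)) := by ring
      _ ≤ b^i * (b + b * (q/b%b^k)) := by
          apply Nat.mul_le_mul_left
          have : o/b^i + q % b + 1 ≤ b := by omega
          omega
      _ = b^i * (b * (q/b%b^k + 1)) := by ring
      _ ≤ b^i * (b * b^k) := Nat.mul_le_mul_left _ (Nat.mul_le_mul_left _ h2)
      _ = b^(i+k+1) := by ring
  have e3 : o + o' = (o + o' % b^j) + b^j * (o' / b^j) := by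
    have := Nat.div_add_mod o' (b^j)
    omega
  rw [e3, Nat.add_mul_mod_self_left, Nat.mod_eq_of_lt hlt]

theorem per_mod {N : Type} {M : ℕ} {nm : ℕ → Option N} (h : ∀ t, nm (t + M) = nm t) (t : ℕ) :
    nm (t % M) = nm t := by
  have key : ∀ k t, nm (t + M * k) = nm t := by
    intro k
    induction k with
    | zero => intro t; simp
    | succ k ih => intro t; rw [show t + M*(k+1) = (t + M*k) + M by ring, h, ih]
  conv_rhs => rw [← Nat.mod_add_div t M]
  exact (key _ _).symm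

theorem per_congr {N : Type} {M : ℕ} {nm : ℕ → Option N} (h : ∀ t, nm (t + M) = nm t) {t s : ℕ}
    (hts : t % M = s % M) : nm t = nm s := by
  rw [← per_mod h t, ← per_mod h s, hts]

section

variable {S V W : Type} [Monoid S] [AddCommGroup V] [AddCommGroup W] {m : ℕ}

/-- contexts `(i, g, wl, h, wr, v)` -/
abbrev Ctx (m : ℕ) (S W V : Type) : Type := Fin m × S × W × S × W × V

def bval (act : V → S → V) (e : Fin m → S → W) (F : S → W → V) (c : Ctx m S W V) : V :=
  F (c.2.1 * 1 * c.2.2.2.1) (c.2.2.1 + e c.1 1 + c.2.2.2.2.1)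
    + act c.2.2.2.2.2 (c.2.1 * 1 * c.2.2.2.1)

def GoodC (act : V → S → V) (e : Fin m → S → W) (F : S → W → V) (c : Ctx m S W V) : Prop :=
  ∀ z, F (c.2.1 * z * c.2.2.2.1) (c.2.2.1 + e c.1 z + c.2.2.2.2.1)
    + act c.2.2.2.2.2 (c.2.1 * z * c.2.2.2.1) = bval act e F c

variable {A : Type}

def ph (f : A → S) (w : List A) : S := (w.map f).prod

omit [Monoid S] in
theorem sum_split (i : Fin m) (g : Fin m → W) :
    ∑ j, g j = ∑ j ∈ univ.filter (· < i), g j + g i + ∑ j ∈ univ.filter (i < ·), g j := by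
  have h : ∀ j, g j = (if j < i then g j else 0) + (if j = i then g j else 0)
      + (if i < j then g j else 0) := by
    intro j
    rcases lt_trichotomy j i with h | h | h
    · simp [h, h.ne, not_lt.2 h.le]
    · simp [h]
    · simp [h, h.ne', not_lt.2 h.le]
  rw [Finset.sum_congr rfl (fun j _ => h j), Finset.sum_add_distrib, Finset.sum_add_distrib,
    Finset.sum_filter, Finset.sum_filter, Finset.sum_ite_eq']
  simp

theorem ph_append (f : A → S) (u v : List A) : ph f (u ++ v) = ph f u * ph f v := by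
  simp [ph]

variable (act : V → S → V) (e : Fin m → S → W) (F : S → W → V)
  (nmL nmR : ℕ → Option (Ctx m S W V)) (b M : ℕ) (Ms : Finset ℕ) (f : A → S)

def LL (P : List A) (c : Ctx m S W V) : Prop :=
  nmL P.length = some c ∧ P.length < b^((c.1:ℕ)+1) ∧ 2*(P.length / b^(c.1:ℕ)) < b ∧
  GoodC act e F c ∧ ph f (P.take (P.length % b^(c.1:ℕ))) = c.2.1 ∧
  (∑ j ∈ univ.filter (· < c.1),
    e j (ph f (seg P (P.length % b^(j:ℕ)) (P.length % b^((j:ℕ)+1))))) = c.2.2.1

def RR (Q : List A) (c : Ctx m S W V) : Prop :=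
  nmR Q.length = some c ∧ b^(c.1:ℕ) ∣ Q.length ∧ 2*((Q.length / b^(c.1:ℕ)) % b) < b ∧
  GoodC act e F c ∧ ph f (Q.drop (Q.length % b^((c.1:ℕ)+1))) = c.2.2.2.1 ∧
  (∑ j ∈ univ.filter (c.1 < ·),
    e j (ph f (seg Q (Q.length % b^(j:ℕ)) (Q.length % b^((j:ℕ)+1))))) = c.2.2.2.2.1

noncomputable def Lsel (R : Ctx m S W V → Prop) : Option V :=
  if h : ∃ c, R c then some (Classical.choose h).2.2.2.2.2 else none

noncomputable def Rsel (R : Ctx m S W V → Prop) : Option V :=
  if h : ∃ c, R c then some (bval act e F (Classical.choose h)) else none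

def Rel (n : ℕ) (c c' : Ctx m S W V) : Prop :=
  ∃ t < M, t ≤ n ∧ nmL t = some c ∧ nmR (n - t) = some c'

noncomputable def Gsel (R : Ctx m S W V → Ctx m S W V → Prop) : V × V :=
  if h : ∃ p : Ctx m S W V × Ctx m S W V, R p.1 p.2 then
    ((Classical.choose h).1.2.2.2.2.2, bval act e F (Classical.choose h).2) else (0, 0)

/-- total weight -/
def wt (X : List A) : W :=
  ∑ j : Fin m, e j (ph f (seg X (X.length % b^(j:ℕ)) (X.length % b^((j:ℕ)+1))))

noncomputable def nu (X : List A) : V :=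
  if (∀ k ∈ Ms, ¬ k ∣ X.length) then F (ph f X) (wt e b f X)
  else (Gsel act e F (Rel nmL nmR M X.length)).2
    - act (Gsel act e F (Rel nmL nmR M X.length)).1 (ph f X)

variable {act e F nmL nmR b M Ms f}

/-- the total of a legal pair with the same level -/
theorem total {P Q : List A} {i : Fin m} (hb : 0 < b)
    (h2 : 2*(P.length / b^(i:ℕ)) < b) (h3 : b^(i:ℕ) ∣ Q.length)
    (h4 : 2*((Q.length / b^(i:ℕ)) % b) < b) :
    ph f (P ++ Q) = ph f (P.take (P.length % b^(i:ℕ)))
        * ph f (seg (P ++ Q) ((P ++ Q).length % b^(i:ℕ)) ((P ++ Q).length % b^((i:ℕ)+1)))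
        * ph f (Q.drop (Q.length % b^((i:ℕ)+1))) ∧
    wt e b f (P ++ Q) = (∑ j ∈ univ.filter (· < i),
        e j (ph f (seg P (P.length % b^(j:ℕ)) (P.length % b^((j:ℕ)+1)))))
      + e i (ph f (seg (P ++ Q) ((P ++ Q).length % b^(i:ℕ)) ((P ++ Q).length % b^((i:ℕ)+1))))
      + (∑ j ∈ univ.filter (i < ·),
        e j (ph f (seg Q (Q.length % b^(j:ℕ)) (Q.length % b^((j:ℕ)+1))))) := by
  have hn : (P ++ Q).length = P.length + Q.length := List.length_append
  have a1 : ∀ j ≤ (i:ℕ), (P ++ Q).length % b^j = P.length % b^j := by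
    intro j hj; rw [hn]; exact dig_le hj h3
  have a2 : ∀ j, (i:ℕ) < j → (P ++ Q).length % b^j = P.length + Q.length % b^j := by
    intro j hj; rw [hn]; exact dig_gt hb hj h2 h3 h4
  constructor
  · have hle : (P ++ Q).length % b^(i:ℕ) ≤ (P ++ Q).length % b^((i:ℕ)+1) := by
      rw [a1 _ le_rfl, a2 _ (Nat.lt_succ_self _)]
      exact (Nat.mod_le _ _).trans (Nat.le_add_right _ _)
    conv_lhs => rw [split3 (P ++ Q) hle]
    rw [ph_append, ph_append, mul_assoc]
    congr 2
    · rw [a1 _ le_rfl, List.take_append_of_le_length (Nat.mod_le _ _)]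
    · rw [a2 _ (Nat.lt_succ_self _), drop_add_append]
  · unfold wt
    rw [sum_split i]
    refine congrArg₂ (· + ·) (congrArg₂ (· + ·) ?_ rfl) ?_
    · apply Finset.sum_congr rfl
      intro j hj
      have hj' : (j:ℕ) < i := (Finset.mem_filter.1 hj).2
      rw [a1 _ hj'.le, a1 _ hj', seg_left _ _ (Nat.mod_le _ _)]
    · apply Finset.sum_congr rfl
      intro j hj
      have hj' : (i:ℕ) < j := (Finset.mem_filter.1 hj).2
      rw [a2 _ hj', a2 _ (hj'.trans (Nat.lt_succ_self _)), seg_right]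

theorem sound (hb : 0 < b) (hM : 0 < M)
    (pL : ∀ t, nmL (t + M) = nmL t) (pR : ∀ t, nmR (t + M) = nmR t)
    (n1 : ∀ t t' c c', nmL t = some c → nmR t' = some c' → (∀ k ∈ Ms, ¬ k ∣ t + t') → c = c')
    (n2 : ∀ t₁ t₁' t₂ t₂' c₁ c₁' c₂ c₂', nmL t₁ = some c₁ → nmR t₁' = some c₁' →
        nmL t₂ = some c₂ → nmR t₂' = some c₂' → t₁ + t₁' = t₂ + t₂' →
        (∃ k ∈ Ms, k ∣ t₁ + t₁') →
        ((c₁.2.2.2.2.2, bval act e F c₁) : V × V) = (c₂.2.2.2.2.2, bval act e F c₂) ∧
        ((c₁'.2.2.2.2.2, bval act e F c₁') : V × V) = (c₂'.2.2.2.2.2, bval act e F c₂'))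
    {P Q : List A} {c c' : Ctx m S W V} (hL : LL act e F nmL b f P c)
    (hR : RR act e F nmR b f Q c') :
    bval act e F c' = act c.2.2.2.2.2 (ph f (P ++ Q))
      + nu act e F nmL nmR b M Ms f (P ++ Q) := by
  have hn : (P ++ Q).length = P.length + Q.length := List.length_append
  unfold nu
  by_cases hg : ∀ k ∈ Ms, ¬ k ∣ (P ++ Q).length
  · rw [if_pos hg]
    have hc : c = c' := n1 _ _ _ _ hL.1 hR.1 (by rw [← hn]; exact hg)
    subst hc
    obtain ⟨-, -, h2, hgood, hg1, hw1⟩ := hL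
    obtain ⟨-, h3, h4, -, hh1, hw2⟩ := hR
    obtain ⟨t1, t2⟩ := total (e := e) (f := f) (i := c.1) hb h2 h3 h4
    rw [hw1, hw2] at t2
    rw [hg1, hh1] at t1
    rw [t1, t2, add_comm]
    exact (hgood _).symm
  · rw [if_neg hg]
    push Not at hg
    obtain ⟨k, hk, hkd⟩ := hg
    have hrel : Rel nmL nmR M (P ++ Q).length c c' := by
      refine ⟨P.length % M, Nat.mod_lt _ hM, ?_, ?_, ?_⟩
      · rw [hn]; exact (Nat.mod_le _ _).trans (Nat.le_add_right _ _)
      · rw [per_mod pL]; exact hL.1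
      · rw [← hR.1]
        apply per_congr pR
        have : (P ++ Q).length - P.length % M = Q.length + M * (P.length / M) := by
          have := Nat.mod_add_div P.length M
          rw [hn]; omega
        rw [this, Nat.add_mul_mod_self_left]
    have hex : ∃ p : Ctx m S W V × Ctx m S W V, Rel nmL nmR M (P ++ Q).length p.1 p.2 :=
      ⟨(c, c'), hrel⟩
    have hG : Gsel act e F (Rel nmL nmR M (P ++ Q).length) = (c.2.2.2.2.2, bval act e F c') := by
      unfold Gsel
      rw [dif_pos hex]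
      obtain ⟨t, ht, htn, e1, e2⟩ := Classical.choose_spec hex
      obtain ⟨s, hs, hsn, e3, e4⟩ := hrel
      have := n2 _ _ _ _ _ _ _ _ e1 e2 e3 e4 (by omega) ⟨k, hk, by
        rw [Nat.add_sub_cancel' htn]; exact hkd⟩
      have h5 : (Classical.choose hex).1.2.2.2.2.2 = c.2.2.2.2.2 := congrArg Prod.fst this.1
      have h6 : bval act e F (Classical.choose hex).2 = bval act e F c' :=
        congrArg Prod.snd this.2
      rw [h5, h6]
    rw [hG]
    abel

theorem complete (hb : 4*M+4 < b) (hco : Nat.Coprime b M) (hM : 0 < M)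
    (pL : ∀ t, nmL (t + M) = nmL t)
    (hav : ∀ T, (∀ k ∈ Ms, ¬ k ∣ T) → ∀ c, ∃ t < M, nmL t = some c ∧
      ∀ t', t + t' ≡ T [MOD M] → nmR t' = some c)
    (hF : ∀ (s : S) (w : W) (v : V), ∃ i : Fin m, ∀ g x h : S, g * x * h = s →
      ∀ z : S, F (g * z * h) (w - e i x + e i z) + act v (g * z * h) = F s w + act v s)
    (X : List A) (h1 : ∀ k ∈ Ms, ¬ k ∣ X.length)
    (h2 : ∀ j < m, M ≤ X.length / b ^ j % b ∧ X.length / b ^ j % b + M + 1 ≤ b) (v : V) :
    ∃ P Q c, P ++ Q = X ∧ LL act e F nmL b f P c ∧ c.2.2.2.2.2 = v ∧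
      RR act e F nmR b f Q c := by
  have hb0 : 0 < b := by omega
  set n := X.length with hn
  obtain ⟨i, hi⟩ := hF (ph f X) (wt e b f X) v
  set B := b^(i:ℕ) with hB
  have hB0 : 0 < B := pow_pos hb0 _
  set g := ph f (X.take (n % b^(i:ℕ))) with hg
  set z0 := ph f (seg X (n % b^(i:ℕ)) (n % b^((i:ℕ)+1))) with hz0
  set h := ph f (X.drop (n % b^((i:ℕ)+1))) with hh
  set wl := ∑ j ∈ univ.filter (· < i),
    e j (ph f (seg X (n % b^(j:ℕ)) (n % b^((j:ℕ)+1)))) with hwl
  set wr := ∑ j ∈ univ.filter (i < ·),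
    e j (ph f (seg X (n % b^(j:ℕ)) (n % b^((j:ℕ)+1)))) with hwr
  set d := n / B % b with hd
  have hsucc : n % b^((i:ℕ)+1) = n % B + B * d := by
    rw [pow_succ, Nat.mod_mul]
  have htot : g * z0 * h = ph f X := by
    have hle : n % b^(i:ℕ) ≤ n % b^((i:ℕ)+1) := by rw [hsucc]; exact Nat.le_add_right _ _
    conv_rhs => rw [split3 X hle]
    rw [ph_append, ph_append, mul_assoc]
  have hwt : wt e b f X = wl + e i z0 + wr := by
    unfold wt
    rw [sum_split i]
  let c : Ctx m S W V := (i, g, wl, h, wr, v)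
  have hgood : GoodC act e F c := by
    have key : ∀ z, F (g * z * h) (wl + e i z + wr) + act v (g * z * h)
        = F (ph f X) (wt e b f X) + act v (ph f X) := by
      intro z
      rw [← hi g z0 h htot z]
      congr 2
      rw [hwt]; abel
    intro z
    show F (g * z * h) (wl + e i z + wr) + act v (g * z * h)
      = F (g * 1 * h) (wl + e i 1 + wr) + act v (g * 1 * h)
    rw [key z, key 1]
  obtain ⟨t, htM, htL, htR⟩ := hav n h1 c
  obtain ⟨hd1, hd2⟩ := h2 i i.2
  have hd1' : M ≤ d := hd1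
  have hd2' : d + M + 1 ≤ b := hd2
  have hco' : Nat.Coprime B M := hco.pow_left _
  obtain ⟨x, hx1, hx2⟩ := Nat.chineseRemainder hco' (n % B) t
  set H := (b-1)/2 with hH
  set y0 := d - H with hy0
  set L := n % B + B * y0 with hL
  set BM := B * M with hBM
  have hBM0 : 0 < BM := Nat.mul_pos hB0 hM
  obtain ⟨o, ho1, ho2, ho3⟩ : ∃ o, L ≤ o ∧ o < L + BM ∧ o ≡ x [MOD BM] := by
    refine ⟨L + (x + L*BM - L) % BM, Nat.le_add_right _ _,
      Nat.add_lt_add_left (Nat.mod_lt _ hBM0) _, ?_⟩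
    have hLB : L ≤ L * BM := Nat.le_mul_of_pos_right _ hBM0
    have e1 : L + (x + L*BM - L) = x + L * BM := by omega
    have e2 : L + (x + L*BM - L) % BM ≡ L + (x + L*BM - L) [MOD BM] :=
      Nat.ModEq.add_left _ (Nat.mod_modEq _ _)
    rw [e1] at e2
    exact e2.trans (by simp [Nat.ModEq])
  have hoB : o % B = n % B := by
    have e1 : o ≡ x [MOD B] := Nat.ModEq.of_mul_right M ho3
    have e2 : o % B = n % B % B := e1.trans hx1
    rw [e2, Nat.mod_mod]
  have hoM : o ≡ t [MOD M] := (Nat.ModEq.of_mul_left B ho3).trans hx2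
  set y := o / B with hy
  have hoy : o = B * y + n % B := by
    rw [← hoB]; exact (Nat.div_add_mod o B).symm
  have hy1 : y0 ≤ y := by
    by_contra hc
    push Not at hc
    have : B * y < B * y0 := Nat.mul_lt_mul_of_pos_left hc hB0
    omega
  have hy2 : y < y0 + M := by
    by_contra hc
    push Not at hc
    have : B * (y0 + M) ≤ B * y := Nat.mul_le_mul_left _ hc
    rw [Nat.mul_add] at this
    omega
  have hyH : y ≤ H := by omega
  have hyd : y ≤ d := by omega
  have hdy : d - y ≤ H := by omega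
  have hoS : o ≤ n % b^((i:ℕ)+1) := by
    rw [hsucc, hoy]
    have : B * y ≤ B * d := Nat.mul_le_mul_left _ hyd
    omega
  have hon : o ≤ n := hoS.trans (Nat.mod_le _ _)
  have hnd := Nat.div_add_mod n B
  have hdn : d ≤ n / B := Nat.mod_le _ _
  have ho' : n - o = B * (n / B - y) := by
    rw [Nat.mul_sub, hoy]
    omega
  have hlP : (X.take o).length = o := by rw [List.length_take]; omega
  have hlQ : (X.drop o).length = n - o := by rw [List.length_drop]
  have hq3 : b^(i:ℕ) ∣ (X.drop o).length := by rw [hlQ, ho']; exact Dvd.intro _ rfl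
  have hqd : (n / B - y) % b = d - y := by
    have e1 := Nat.div_add_mod (n / B) b
    have e2 : n / B - y = (d - y) + b * (n / B / b) := by
      omega
    rw [e2, Nat.add_mul_mod_self_left, Nat.mod_eq_of_lt (by omega)]
  have hq4 : 2*(((X.drop o).length / b^(i:ℕ)) % b) < b := by
    rw [hlQ, ho', Nat.mul_div_cancel_left _ hB0, hqd]
    omega
  have hp2 : 2*((X.take o).length / b^(i:ℕ)) < b := by
    rw [hlP]
    show 2 * y < b
    omega
  have hXX : X.take o ++ X.drop o = X := List.take_append_drop _ _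
  have hnn : n = (X.take o).length + (X.drop o).length := by rw [hlP, hlQ]; omega
  have a1 : ∀ j ≤ (i:ℕ), n % b^j = (X.take o).length % b^j := by
    intro j hj; rw [hnn]; exact dig_le hj hq3
  have a2 : ∀ j, (i:ℕ) < j → n % b^j = (X.take o).length + (X.drop o).length % b^j := by
    intro j hj; rw [hnn]; exact dig_gt hb0 hj hp2 hq3 hq4
  refine ⟨X.take o, X.drop o, c, hXX, ⟨?_, ?_, hp2, hgood, ?_, ?_⟩, rfl,
    ⟨?_, hq3, hq4, hgood, ?_, ?_⟩⟩
  · rw [hlP, ← htL]; exact per_congr pL hoM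
  · rw [hlP]
    show o < b^((i:ℕ)+1)
    exact lt_of_le_of_lt hoS (Nat.mod_lt _ (pow_pos hb0 _))
  · show ph f ((X.take o).take ((X.take o).length % b^(i:ℕ))) = g
    rw [← a1 _ le_rfl, List.take_take, min_eq_left]
    rw [a1 _ le_rfl, hlP]; exact Nat.mod_le _ _
  · show (∑ j ∈ univ.filter (· < i), e j (ph f (seg (X.take o) ((X.take o).length % b^(j:ℕ))
      ((X.take o).length % b^((j:ℕ)+1))))) = wl
    apply Finset.sum_congr rfl
    intro j hj
    have hj' : (j:ℕ) < i := (Finset.mem_filter.1 hj).2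
    rw [← seg_left (X.take o) (X.drop o) (Nat.mod_le _ _), hXX, a1 _ hj'.le, a1 _ hj']
  · apply htR
    rw [hlQ]
    have : t + (n - o) ≡ o + (n - o) [MOD M] := Nat.ModEq.add_right _ hoM.symm
    rwa [Nat.add_sub_cancel' hon] at this
  · show ph f ((X.drop o).drop ((X.drop o).length % b^((i:ℕ)+1))) = h
    have h8 := drop_add_append (X.take o) (X.drop o) ((X.drop o).length % b^((i:ℕ)+1))
    rw [hXX] at h8
    rw [hh, a2 _ (Nat.lt_succ_self _), ← h8]
  · show (∑ j ∈ univ.filter (i < ·), e j (ph f (seg (X.drop o) ((X.drop o).length % b^(j:ℕ))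
      ((X.drop o).length % b^((j:ℕ)+1))))) = wr
    apply Finset.sum_congr rfl
    intro j hj
    have hj' : (i:ℕ) < j := (Finset.mem_filter.1 hj).2
    rw [← seg_right (X.take o) (X.drop o), hXX, a2 _ hj', a2 _ (hj'.trans (Nat.lt_succ_self _))]

theorem reg_aux (hb0 : 0 < b) {Q Q' : List A} (h1 : b^m ≤ Q.length) (h2 : b^m ≤ Q'.length)
    (h3 : Q.take (b^m) = Q'.take (b^m))
    (h5 : ph f (Q.drop (b^m)) = ph f (Q'.drop (b^m))) :
    (∀ a c, c ≤ b^m → seg Q a c = seg Q' a c) ∧
    (∀ a ≤ b^m, ph f (Q.drop a) = ph f (Q'.drop a)) := by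
  have e1 : Q = Q.take (b^m) ++ Q.drop (b^m) := (List.take_append_drop _ _).symm
  have e2 : Q' = Q'.take (b^m) ++ Q'.drop (b^m) := (List.take_append_drop _ _).symm
  have l1 : (Q.take (b^m)).length = b^m := by rw [List.length_take]; omega
  have l2 : (Q'.take (b^m)).length = b^m := by rw [List.length_take]; omega
  constructor
  · intro a c hc
    rw [e1, e2, seg_left _ _ (by rw [l1]; exact hc), seg_left _ _ (by rw [l2]; exact hc), h3]
  · intro a ha
    rw [e1, e2, List.drop_append_of_le_length (by rw [l1]; exact ha),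
      List.drop_append_of_le_length (by rw [l2]; exact ha), ph_append, ph_append, h3, h5]

theorem reg_RR (hb0 : 0 < b) (pR : ∀ t, nmR (t + M) = nmR t)
    {Q Q' : List A} (h1 : b^m ≤ Q.length) (h2 : b^m ≤ Q'.length)
    (h3 : Q.take (b^m) = Q'.take (b^m)) (h4 : Q.length % (M*b^m) = Q'.length % (M*b^m))
    (h5 : ph f (Q.drop (b^m)) = ph f (Q'.drop (b^m))) {c : Ctx m S W V}
    (h : RR act e F nmR b f Q c) : RR act e F nmR b f Q' c := by
  obtain ⟨k1, k2⟩ := reg_aux (f := f) hb0 h1 h2 h3 h5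
  have h6 : Q.length % M = Q'.length % M := Nat.ModEq.of_mul_right _ h4
  have h7 : ∀ j ≤ m, Q.length % b^j = Q'.length % b^j := by
    intro j hj
    have h8 : Q.length ≡ Q'.length [MOD b^m] := Nat.ModEq.of_mul_left _ h4
    exact h8.of_dvd (pow_dvd_pow b hj)
  have hlt : ∀ (n j : ℕ), j ≤ m → n % b^j ≤ b^m := fun n j hj =>
    (Nat.mod_lt _ (pow_pos hb0 _)).le.trans (Nat.pow_le_pow_right hb0 hj)
  obtain ⟨r1, r2, r3, r4, r5, r6⟩ := h
  have hi : (c.1:ℕ) < m := c.1.2
  refine ⟨?_, ?_, ?_, r4, ?_, ?_⟩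
  · rw [← r1]; exact per_congr pR h6.symm
  · rw [Nat.dvd_iff_mod_eq_zero] at r2 ⊢
    rw [← h7 _ hi.le]; exact r2
  · have e1 := Nat.mod_mul_right_div_self Q.length (b^(c.1:ℕ)) b
    have e2 := Nat.mod_mul_right_div_self Q'.length (b^(c.1:ℕ)) b
    rw [← pow_succ] at e1 e2
    rw [← e2, ← h7 _ hi, e1]; exact r3
  · rw [← h7 _ hi, ← k2 _ (hlt _ _ hi)]; exact r5
  · rw [← r6]
    apply Finset.sum_congr rfl
    intro j _
    have hj := j.2
    rw [← h7 _ hj, ← h7 _ hj.le, k1 _ _ (hlt _ _ hj)]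

theorem reg_nu (hb0 : 0 < b) (hMb : M ≤ b^m) (pR : ∀ t, nmR (t + M) = nmR t)
    (hMs : ∀ k ∈ Ms, k ∣ M)
    {Q Q' : List A} (h1 : b^m ≤ Q.length) (h2 : b^m ≤ Q'.length)
    (h3 : Q.take (b^m) = Q'.take (b^m)) (h4 : Q.length % (M*b^m) = Q'.length % (M*b^m))
    (h5 : ph f (Q.drop (b^m)) = ph f (Q'.drop (b^m))) :
    nu act e F nmL nmR b M Ms f Q = nu act e F nmL nmR b M Ms f Q' := by
  obtain ⟨k1, k2⟩ := reg_aux (f := f) hb0 h1 h2 h3 h5
  have h6 : Q.length % M = Q'.length % M := Nat.ModEq.of_mul_right _ h4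
  have h7 : ∀ j ≤ m, Q.length % b^j = Q'.length % b^j := by
    intro j hj
    have h8 : Q.length ≡ Q'.length [MOD b^m] := Nat.ModEq.of_mul_left _ h4
    exact h8.of_dvd (pow_dvd_pow b hj)
  have hlt : ∀ (n j : ℕ), j ≤ m → n % b^j ≤ b^m := fun n j hj =>
    (Nat.mod_lt _ (pow_pos hb0 _)).le.trans (Nat.pow_le_pow_right hb0 hj)
  have hph : ph f Q = ph f Q' := k2 0 (Nat.zero_le _)
  have hw : wt e b f Q = wt e b f Q' := by
    unfold wt
    apply Finset.sum_congr rfl
    intro j _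
    have hj := j.2
    rw [← h7 _ hj, ← h7 _ hj.le, k1 _ _ (hlt _ _ hj)]
  have hcond : (∀ k ∈ Ms, ¬ k ∣ Q.length) ↔ (∀ k ∈ Ms, ¬ k ∣ Q'.length) := by
    have : ∀ k ∈ Ms, (k ∣ Q.length ↔ k ∣ Q'.length) := by
      intro k hk
      have h8 : Q.length ≡ Q'.length [MOD k] := Nat.ModEq.of_dvd (hMs k hk) h6
      rw [Nat.dvd_iff_mod_eq_zero, Nat.dvd_iff_mod_eq_zero, h8]
    constructor
    · intro h k hk hd; exact h k hk ((this k hk).2 hd)
    · intro h k hk hd; exact h k hk ((this k hk).1 hd)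
  have hrel : Rel nmL nmR M Q.length = Rel nmL nmR M Q'.length := by
    funext c c'
    apply propext
    have key : ∀ t < M, nmR (Q.length - t) = nmR (Q'.length - t) := by
      intro t ht
      apply per_congr pR
      have e1 : Q.length - t + t ≡ Q'.length - t + t [MOD M] := by
        rw [Nat.sub_add_cancel (by omega), Nat.sub_add_cancel (by omega)]; exact h6
      exact Nat.ModEq.add_right_cancel' t e1
    constructor
    · rintro ⟨t, ht, -, r1, r2⟩
      exact ⟨t, ht, by omega, r1, by rw [← key t ht]; exact r2⟩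
    · rintro ⟨t, ht, -, r1, r2⟩
      exact ⟨t, ht, by omega, r1, by rw [key t ht]; exact r2⟩
  unfold nu
  rw [hph, hw, hrel]
  by_cases hc : ∀ k ∈ Ms, ¬ k ∣ Q.length
  · rw [if_pos hc, if_pos (hcond.1 hc)]
  · rw [if_neg hc, if_neg (fun h => hc (hcond.2 h))]

end

/-- **GADGET G1** (literal of lead #13673) -/
theorem g1 (S V : Type) [Monoid S] [Finite S] [AddCommGroup V] [Finite V] (act : V → S → V) :
    ∃ m r : ℕ, ∀ Bd : ℕ, ∃ (Ms : Finset ℕ) (M : ℕ), Ms.card ≤ r ∧
      (∀ k ∈ Ms, Bd < k ∧ k.Prime ∧ k ∣ M) ∧ 0 < M ∧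
      ∀ b : ℕ, 4 * M + 4 < b → Nat.Coprime b M → ∀ (A : Type) (f : A → S),
      ∃ (lam rho : List A → Option V) (nu : List A → V),
        (∀ P v, lam P = some v → P.length < b ^ m) ∧
        (∀ P Q v v', lam P = some v → rho Q = some v' →
          v' = act v ((P ++ Q).map f).prod + nu (P ++ Q)) ∧
        (∀ X, (∀ k ∈ Ms, ¬ k ∣ X.length) →
          (∀ j < m, M ≤ X.length / b ^ j % b ∧ X.length / b ^ j % b + M + 1 ≤ b) →
          ∀ v, ∃ P Q, P ++ Q = X ∧ lam P = some v ∧ (rho Q).isSome) ∧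
        (∀ Q Q', b ^ m ≤ Q.length → b ^ m ≤ Q'.length → Q.take (b ^ m) = Q'.take (b ^ m) →
          Q.length % (M * b ^ m) = Q'.length % (M * b ^ m) →
          ((Q.drop (b ^ m)).map f).prod = ((Q'.drop (b ^ m)).map f).prod →
          rho Q = rho Q' ∧ nu Q = nu Q') := by
  obtain ⟨W, iW, fW, m, e, F, hF⟩ := Noise513.explicit_noise S V act
  have hm : 0 < m := by
    obtain ⟨i, -⟩ := hF 1 0 0
    exact lt_of_le_of_lt (Nat.zero_le _) i.2
  obtain ⟨r, hr⟩ := Names755.names (Ctx m S W V) (V × V)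
    (fun c => (c.2.2.2.2.2, bval act e F c))
  refine ⟨m, r, fun Bd => ?_⟩
  obtain ⟨Ms, M, nmL, nmR, hcard, hprime, hM, pL, pR, n1, hav, n2⟩ := hr Bd
  refine ⟨Ms, M, hcard, hprime, hM, ?_⟩
  intro b hb hco A f
  have hb0 : 0 < b := by omega
  have hMb : M ≤ b^m := by
    have : b ^ 1 ≤ b ^ m := Nat.pow_le_pow_right hb0 hm
    rw [pow_one] at this
    omega
  have hlam : ∀ P v, Lsel (LL act e F nmL b f P) = some v →
      ∃ c, LL act e F nmL b f P c ∧ c.2.2.2.2.2 = v := by
    intro P v h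
    unfold Lsel at h
    by_cases hex : ∃ c, LL act e F nmL b f P c
    · rw [dif_pos hex] at h
      exact ⟨_, Classical.choose_spec hex, Option.some.inj h⟩
    · rw [dif_neg hex] at h; cases h
  have hrho : ∀ Q v, Rsel act e F (RR act e F nmR b f Q) = some v →
      ∃ c, RR act e F nmR b f Q c ∧ bval act e F c = v := by
    intro Q v h
    unfold Rsel at h
    by_cases hex : ∃ c, RR act e F nmR b f Q c
    · rw [dif_pos hex] at h
      exact ⟨_, Classical.choose_spec hex, Option.some.inj h⟩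
    · rw [dif_neg hex] at h; cases h
  refine ⟨fun P => Lsel (LL act e F nmL b f P), fun Q => Rsel act e F (RR act e F nmR b f Q),
    nu act e F nmL nmR b M Ms f, ?_, ?_, ?_, ?_⟩
  · intro P v h
    obtain ⟨c, hc, -⟩ := hlam P v h
    exact lt_of_lt_of_le hc.2.1 (Nat.pow_le_pow_right hb0 c.1.2)
  · intro P Q v v' h h'
    obtain ⟨c, hc, rfl⟩ := hlam P v h
    obtain ⟨c', hc', rfl⟩ := hrho Q v' h'
    exact sound hb0 hM pL pR n1 n2 hc hc'
  · intro X h1 h2 v
    obtain ⟨P, Q, c, hX, hL, rfl, hR⟩ := complete (act := act) (e := e) (F := F) (f := f)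
      hb hco hM pL hav hF X h1 h2 v
    refine ⟨P, Q, hX, ?_, ?_⟩
    · have hex : ∃ c, LL act e F nmL b f P c := ⟨c, hL⟩
      show Lsel (LL act e F nmL b f P) = some _
      unfold Lsel
      rw [dif_pos hex]
      have h3 := (Classical.choose_spec hex).1
      rw [hL.1] at h3
      rw [← Option.some.inj h3]
    · have hex : ∃ c, RR act e F nmR b f Q c := ⟨c, hR⟩
      show (Rsel act e F (RR act e F nmR b f Q)).isSome
      unfold Rsel
      rw [dif_pos hex]; rfl
  · intro Q Q' h1 h2 h3 h4 h5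
    constructor
    · have : RR act e F nmR b f Q = RR act e F nmR b f Q' := by
        funext c
        exact propext ⟨fun h => reg_RR hb0 pR h1 h2 h3 h4 h5 h,
          fun h => reg_RR hb0 pR h2 h1 h3.symm h4.symm h5.symm h⟩
      show Rsel act e F (RR act e F nmR b f Q) = Rsel act e F (RR act e F nmR b f Q')
      rw [this]
    · exact reg_nu hb0 hMb pR (fun k hk => (hprime k hk).2.2) h1 h2 h3 h4 h5

end Crest.Agent.R320.G1_864
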