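import Crest.Agent.R320.Names_755

/-! Row 320: the digit gadget (852 #13483 (G1)), independent copy (helper867). -/

set_option autoImplicit false

namespace Crest.Agent.R320.G1_867

open Finset

universe u v w x

variable {α : Type u} {S : Type v} {V : Type w} {W : Type x}

/-- the factor `[a, b)` -/
def sl (X : List α) (a b : ℕ) : List α := (X.drop a).take (b - a)

theorem sl_left (P Q : List α) (a b : ℕ) (hb : b ≤ P.length) : sl (P ++ Q) a b = sl P a b := by
  unfold sl
  by_cases h : a ≤ b
  · rw [List.drop_append_of_le_length (h.trans hb), List.take_append_of_le_length]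
    rw [List.length_drop]; omega
  · have : b - a = 0 := by omega
    rw [this, List.take_zero, List.take_zero]

theorem sl_right (P Q : List α) (a b : ℕ) : sl (P ++ Q) (P.length + a) (P.length + b) = sl Q a b := by
  unfold sl
  rw [← List.drop_drop, List.drop_left]
  congr 1
  omega

theorem take_sl_drop (X : List α) (a b : ℕ) (hab : a ≤ b) :
    X.take a ++ (sl X a b ++ X.drop b) = X := by
  unfold sl
  have h1 : X.drop b = (X.drop a).drop (b - a) := by
    rw [List.drop_drop]; congr 1; omega
  rw [h1, List.take_append_drop, List.take_append_drop]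

/-- block weight -/
def wt [AddCommMonoid W] (phi : List α → S) (e : ℕ → S → W) (b : ℕ) (X : List α) (j : ℕ) : W :=
  e j (phi (sl X (X.length % b ^ j) (X.length % b ^ (j + 1))))

section arith

/-- the digit arithmetic of a junction -/
theorem digits {b i o o' : ℕ} (hb : 0 < b) (h1 : b ^ i ∣ o') (h2 : o < b ^ (i + 1))
    (h3 : 2 * (o / b ^ i) < b) (h4 : 2 * ((o' / b ^ i) % b) < b) :
    (∀ j ≤ i, (o + o') % b ^ j = o % b ^ j) ∧
    (∀ j, i < j → (o + o') % b ^ j = o + o' % b ^ j) := by
  constructor
  · intro j hj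
    obtain ⟨q, hq⟩ := (pow_dvd_pow b hj).trans h1
    rw [hq, Nat.add_mul_mod_self_left]
  · intro j hj
    have hbi : 0 < b ^ i := Nat.pow_pos hb
    -- carry-free at level i+1
    have hc : o + o' % b ^ (i + 1) < b ^ (i + 1) := by
      have e1 : o' % b ^ (i + 1) = b ^ i * (o' / b ^ i % b) := by
        obtain ⟨q, rfl⟩ := h1
        rw [pow_succ, Nat.mul_mod_mul_left, Nat.mul_div_cancel_left _ hbi]
      have e2 : o = b ^ i * (o / b ^ i) + o % b ^ i := (Nat.div_add_mod _ _).symm
      have e3 : o % b ^ i < b ^ i := Nat.mod_lt _ hbi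
      rw [e1]
      set a1 := o / b ^ i
      set a2 := o' / b ^ i % b
      have h5 : a1 + a2 + 1 ≤ b := by omega
      calc o + b ^ i * a2 < b ^ i * a1 + b ^ i + b ^ i * a2 := by omega
        _ = b ^ i * (a1 + a2 + 1) := by ring
        _ ≤ b ^ i * b := Nat.mul_le_mul_left _ h5
        _ = b ^ (i + 1) := (pow_succ _ _).symm
    obtain ⟨q, hq⟩ := pow_dvd_pow b (Nat.succ_le_of_lt hj)
    -- o' = B * k + r with B = b^(i+1), B ∣ b^j
    set Bp := b ^ (i + 1) with hB
    have hBp : 0 < Bp := Nat.pow_pos hb
    have hbj : 0 < b ^ j := Nat.pow_pos hb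
    have hq0 : 0 < q := by
      rcases Nat.eq_zero_or_pos q with h | h
      · rw [h, Nat.mul_zero] at hq; omega
      · exact h
    have hlt : o + o' % b ^ j < b ^ j := by
      have f1 : o' % b ^ j = Bp * ((o' / Bp) % q) + o' % Bp := by
        rw [hq, Nat.mod_mul]
        ring
      have f2 : (o' / Bp) % q + 1 ≤ q := Nat.mod_lt _ hq0
      rw [f1]
      calc o + (Bp * ((o' / Bp) % q) + o' % Bp) < Bp * ((o' / Bp) % q) + Bp := by omega
        _ = Bp * ((o' / Bp) % q + 1) := by ring
        _ ≤ Bp * q := Nat.mul_le_mul_left _ f2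
        _ = b ^ j := hq.symm
    have f3 : o' = b ^ j * (o' / b ^ j) + o' % b ^ j := (Nat.div_add_mod _ _).symm
    have f4 : o + o' = (o + o' % b ^ j) + b ^ j * (o' / b ^ j) := by omega
    rw [f4, Nat.add_mul_mod_self_left, Nat.mod_eq_of_lt hlt]

end arith

end Crest.Agent.R320.G1_867
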