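import Crest.Agent.R320.Names_755
import Crest.Agent.R320.Noise_513

/-!
Row 320, gadget G1 (852 #13483, lead #13673): zone gadget of scheme 1 on ALL words; levels are the
positional digits of the length in base `b`, names by CRT (755).
-/

set_option autoImplicit false

namespace Crest.Agent.R320.G1_916

open Finset

section words

variable {A S : Type} [Monoid S] (f : A → S) (b : ℕ)

def ph (w : List A) : S := (w.map f).prod

theorem ph_append (u v : List A) : ph f (u ++ v) = ph f u * ph f v := by simp [ph]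

/-- block `j` of the word -/
def zz (X : List A) (j : ℕ) : S :=
  ph f ((X.drop (X.length % b ^ j)).take (X.length % b ^ (j + 1) - X.length % b ^ j))

variable {b}

theorem mod_le_mod (n j : ℕ) : n % b ^ j ≤ n % b ^ (j + 1) := by
  have h : n % b ^ (j + 1) % b ^ j = n % b ^ j :=
    Nat.mod_mod_of_dvd _ (pow_dvd_pow b (Nat.le_succ j))
  rw [← h]
  exact Nat.mod_le _ _

variable {f}

theorem split3 (X : List A) (j : ℕ) : ph f X =
    ph f (X.take (X.length % b ^ j)) * zz f b X j * ph f (X.drop (X.length % b ^ (j + 1))) := by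
  have h1 : X.drop (X.length % b ^ (j + 1)) =
      (X.drop (X.length % b ^ j)).drop (X.length % b ^ (j + 1) - X.length % b ^ j) := by
    rw [List.drop_drop]
    congr 1
    have := mod_le_mod (b := b) X.length j
    omega
  rw [h1, zz, mul_assoc, ← ph_append, List.take_append_drop, ← ph_append, List.take_append_drop]

theorem mod_low {o o' i j : ℕ} (h : b ^ i ∣ o') (hj : j ≤ i) : (o + o') % b ^ j = o % b ^ j := by
  obtain ⟨c, rfl⟩ := dvd_trans (pow_dvd_pow b hj) h
  exact Nat.add_mul_mod_self_left _ _ _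

theorem nocarry {o o' i : ℕ} (hb : 0 < b) (h1 : b ^ i ∣ o') (h3 : 2 * (o / b ^ i) < b)
    (h4 : 2 * (o' / b ^ i % b) < b) {j : ℕ} (hj : i < j) :
    (o + o') % b ^ j = o + o' % b ^ j := by
  obtain ⟨k, rfl⟩ : ∃ k, j = i + 1 + k := ⟨j - i - 1, by omega⟩
  have hbi : 0 < b ^ i := Nat.pow_pos hb
  have hbk : 0 < b ^ k := Nat.pow_pos hb
  have e1 : b ^ (i + 1 + k) = b ^ i * (b * b ^ k) := by rw [pow_add, pow_succ]; ring
  have e2 : o' % b ^ (i + 1 + k) = b ^ i * (o' / b ^ i % b + b * (o' / b ^ i / b % b ^ k)) := by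
    rw [e1, Nat.mod_mul, Nat.mod_mul, Nat.mod_eq_zero_of_dvd h1, zero_add]
  have h5 : o < b ^ i * (o / b ^ i + 1) := Nat.lt_mul_div_succ o hbi
  have h6 : o' / b ^ i / b % b ^ k < b ^ k := Nat.mod_lt _ hbk
  have h7 : o + o' % b ^ (i + 1 + k) < b ^ (i + 1 + k) := by
    rw [e2, e1]
    have h8 : b * (o' / b ^ i / b % b ^ k) + b ≤ b * b ^ k := by
      have : b * (o' / b ^ i / b % b ^ k + 1) ≤ b * b ^ k := Nat.mul_le_mul_left _ h6
      rw [mul_add, mul_one] at this
      exact this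
    have h9 : (o / b ^ i + 1) + (o' / b ^ i % b + b * (o' / b ^ i / b % b ^ k)) ≤ b * b ^ k := by
      omega
    calc o + b ^ i * (o' / b ^ i % b + b * (o' / b ^ i / b % b ^ k))
        < b ^ i * (o / b ^ i + 1) + b ^ i * (o' / b ^ i % b + b * (o' / b ^ i / b % b ^ k)) := by
          omega
      _ = b ^ i * ((o / b ^ i + 1) + (o' / b ^ i % b + b * (o' / b ^ i / b % b ^ k))) := by ring
      _ ≤ b ^ i * (b * b ^ k) := Nat.mul_le_mul_left _ h9
  rw [← Nat.mod_eq_of_lt h7, Nat.add_mod_mod]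

theorem zz_left {P Q : List A} {i j : ℕ} (h : b ^ i ∣ Q.length) (hj : j < i) :
    zz f b (P ++ Q) j = zz f b P j := by
  unfold zz
  rw [List.length_append, mod_low h hj.le, mod_low h (show j + 1 ≤ i by omega)]
  have h1 : P.length % b ^ j ≤ P.length := Nat.mod_le _ _
  have h2 : P.length % b ^ (j + 1) ≤ P.length := Nat.mod_le _ _
  have h3 := mod_le_mod (b := b) P.length j
  rw [List.drop_append_of_le_length h1, List.take_append_of_le_length]
  rw [List.length_drop]
  omega

theorem zz_right {P Q : List A} {i j : ℕ} (hb : 0 < b) (h1 : b ^ i ∣ Q.length)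
    (h3 : 2 * (P.length / b ^ i) < b) (h4 : 2 * (Q.length / b ^ i % b) < b) (hj : i < j) :
    zz f b (P ++ Q) j = zz f b Q j := by
  unfold zz
  rw [List.length_append, nocarry hb h1 h3 h4 hj, nocarry hb h1 h3 h4 (show i < j + 1 by omega)]
  rw [List.drop_length_add_append]
  congr 2
  omega

end words

section gadget

variable {S V W : Type} [Monoid S] [AddCommGroup V] [AddCommGroup W] {m : ℕ}

/-- contexts (i, g, wl, h, wr, v) -/
abbrev Ctx (S V W : Type) (m : ℕ) : Type := Fin m × S × W × S × W × V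

def good (act : V → S → V) (e : Fin m → S → W) (F : S → W → V) (c : Ctx S V W m) (r : V) : Prop :=
  ∀ z, F (c.2.1 * z * c.2.2.2.1) (c.2.2.1 + e c.1 z + c.2.2.2.2.1) +
    act c.2.2.2.2.2 (c.2.1 * z * c.2.2.2.1) = r

open Classical in
noncomputable def val (act : V → S → V) (e : Fin m → S → W) (F : S → W → V) (c : Ctx S V W m) : V :=
  if h : ∃ r, good act e F c r then h.choose else 0

theorem val_eq {act : V → S → V} {e : Fin m → S → W} {F : S → W → V} {c : Ctx S V W m} {r : V}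
    (h : good act e F c r) : val act e F c = r := by
  have hex : ∃ r, good act e F c r := ⟨r, h⟩
  have h1 := hex.choose_spec 1
  have h2 := h 1
  unfold val
  rw [dif_pos hex, ← h1, h2]

variable {A : Type} (f : A → S) (act : V → S → V) (e : Fin m → S → W) (F : S → W → V) (b : ℕ)
  (nmL nmR : ℕ → Option (Ctx S V W m))

def LL (P : List A) (c : Ctx S V W m) : Prop :=
  (∃ r, good act e F c r) ∧ nmL P.length = some c ∧ 2 * (P.length / b ^ (c.1 : ℕ)) < b ∧
    ph f (P.take (P.length % b ^ (c.1 : ℕ))) = c.2.1 ∧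
    ∑ j ∈ univ.filter (· < c.1), e j (zz f b P j) = c.2.2.1

def RR (Q : List A) (c : Ctx S V W m) : Prop :=
  (∃ r, good act e F c r) ∧ nmR Q.length = some c ∧ b ^ (c.1 : ℕ) ∣ Q.length ∧
    2 * (Q.length / b ^ (c.1 : ℕ) % b) < b ∧
    ph f (Q.drop (Q.length % b ^ ((c.1 : ℕ) + 1))) = c.2.2.2.1 ∧
    ∑ j ∈ univ.filter (c.1 < ·), e j (zz f b Q j) = c.2.2.2.2.1

def ww (X : List A) : W := ∑ j : Fin m, e j (zz f b X j)

theorem sum_split (i : Fin m) (g : Fin m → W) :
    ∑ j, g j = ∑ j ∈ univ.filter (· < i), g j + g i + ∑ j ∈ univ.filter (i < ·), g j := by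
  have h1 : (univ : Finset (Fin m)) = (univ.filter (· < i)) ∪ ({i} ∪ univ.filter (i < ·)) := by
    ext j
    simp only [mem_univ, mem_union, mem_filter, true_and, mem_singleton, true_iff]
    rcases lt_trichotomy j i with h | h | h
    · exact Or.inl h
    · exact Or.inr (Or.inl h)
    · exact Or.inr (Or.inr h)
  conv_lhs => rw [h1]
  rw [sum_union, sum_union, sum_singleton, add_assoc]
  · rw [disjoint_left]
    intro j h2 h3
    simp only [mem_filter, mem_univ, true_and, mem_singleton] at h2 h3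
    subst h2
    exact lt_irrefl _ h3
  · rw [disjoint_left]
    intro j h2 h3
    simp only [mem_filter, mem_univ, true_and, mem_singleton, mem_union] at h2 h3
    rcases h3 with h3 | h3
    · subst h3; exact lt_irrefl _ h2
    · exact lt_asymm h2 h3

variable {f act e F b nmL nmR}

theorem core_sound (hb : 0 < b) {P Q : List A} {c : Ctx S V W m}
    (hP : LL f act e F b nmL P c) (hQ : RR f act e F b nmR Q c) :
    val act e F c = act c.2.2.2.2.2 (ph f (P ++ Q)) + F (ph f (P ++ Q)) (ww f e b (P ++ Q)) := by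
  obtain ⟨⟨r, hr⟩, -, hP3, hP4, hP5⟩ := hP
  obtain ⟨-, -, hQ1, hQ3, hQ4, hQ5⟩ := hQ
  rw [val_eq hr]
  have h1 := split3 (f := f) (b := b) (P ++ Q) (c.1 : ℕ)
  have h2 : (P ++ Q).take ((P ++ Q).length % b ^ (c.1 : ℕ)) = P.take (P.length % b ^ (c.1 : ℕ)) := by
    rw [List.length_append, mod_low hQ1 le_rfl, List.take_append_of_le_length (Nat.mod_le _ _)]
  have h3 : (P ++ Q).drop ((P ++ Q).length % b ^ ((c.1 : ℕ) + 1)) =
      Q.drop (Q.length % b ^ ((c.1 : ℕ) + 1)) := by
    rw [List.length_append, nocarry hb hQ1 hP3 hQ3 (Nat.lt_succ_self _),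
      List.drop_length_add_append]
  rw [h2, h3, hP4, hQ4] at h1
  have h4 : ww f e b (P ++ Q) = c.2.2.1 + e c.1 (zz f b (P ++ Q) c.1) + c.2.2.2.2.1 := by
    unfold ww
    rw [sum_split c.1, ← hP5, ← hQ5]
    congr 1
    · congr 1
      apply sum_congr rfl
      intro j hj
      rw [mem_filter] at hj
      rw [zz_left hQ1 hj.2]
    · apply sum_congr rfl
      intro j hj
      rw [mem_filter] at hj
      rw [zz_right hb hQ1 hP3 hQ3 hj.2]
  have h5 := hr (zz f b (P ++ Q) c.1)
  rw [← h1, ← h4] at h5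
  rw [← h5, add_comm]

/-- M consecutive integers hit every residue -/
theorem hit {M : ℕ} (hM : 0 < M) {u : ℕ} (hu : Nat.Coprime u M) (a y0 t : ℕ) :
    ∃ y, y0 ≤ y ∧ y < y0 + M ∧ a + u * y ≡ t [MOD M] := by
  obtain ⟨v, hv⟩ : ∃ v : ℕ, u * v ≡ 1 [MOD M] := by
    rcases Nat.lt_or_ge 1 M with h | h
    · obtain ⟨v, hv⟩ := Nat.exists_mul_mod_eq_one_of_coprime hu h
      refine ⟨v, ?_⟩
      unfold Nat.ModEq
      rw [hv.2, Nat.mod_eq_of_lt h]
    · have : M = 1 := by omega
      subst this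
      exact ⟨0, Nat.modEq_one⟩
  -- target residue of y
  set y1 := v * (t + (M - 1) * a) with hy1
  have h1 : a + u * y1 ≡ t [MOD M] := by
    have e1 : a + u * y1 = a + (u * v) * (t + (M - 1) * a) := by rw [hy1]; ring
    rw [e1]
    have h2 : (u * v) * (t + (M - 1) * a) ≡ 1 * (t + (M - 1) * a) [MOD M] :=
      Nat.ModEq.mul_right _ hv
    refine (Nat.ModEq.add_left a h2).trans ?_
    have e2 : a + 1 * (t + (M - 1) * a) = t + M * a := by
      obtain ⟨M', rfl⟩ : ∃ M', M = M' + 1 := ⟨M - 1, by omega⟩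
      rw [Nat.add_sub_cancel]; ring
    rw [e2]
    unfold Nat.ModEq
    exact Nat.add_mul_mod_self_left _ _ _
  refine ⟨y0 + (y1 + (M - y0 % M)) % M, Nat.le_add_right _ _, ?_, ?_⟩
  · have := Nat.mod_lt (y1 + (M - y0 % M)) hM
    omega
  · refine Nat.ModEq.trans (Nat.ModEq.add_left a (Nat.ModEq.mul_left u ?_)) h1
    have h3 : (y1 + (M - y0 % M)) % M ≡ y1 + (M - y0 % M) [MOD M] := Nat.mod_modEq _ _
    refine (Nat.ModEq.add_left y0 h3).trans ?_
    have h4 : y0 % M < M := Nat.mod_lt _ hM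
    have h5 := Nat.div_add_mod y0 M
    have h6 : y0 + (y1 + (M - y0 % M)) = y1 + M * (y0 / M + 1) := by
      rw [mul_add, mul_one]; omega
    rw [h6]
    unfold Nat.ModEq
    exact Nat.add_mul_mod_self_left _ _ _

theorem per {N : Type} {nm : ℕ → Option N} {M : ℕ} (h : ∀ t, nm (t + M) = nm t) {s t : ℕ}
    (hst : s ≡ t [MOD M]) : nm s = nm t := by
  have key : ∀ t k, nm (t + M * k) = nm t := by
    intro t k
    induction k with
    | zero => simp
    | succ k ih => rw [mul_add, mul_one, ← add_assoc, h, ih]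
  have e1 := Nat.mod_add_div s M
  have e2 := Nat.mod_add_div t M
  rw [← e1, ← e2, key, key]
  congr 1

theorem core_complete {M : ℕ} (hM : 0 < M) (hbM : 4 * M + 4 < b) (hco : Nat.Coprime b M)
    (hL : ∀ t, nmL (t + M) = nmL t)
    (hF : ∀ (s : S) (w : W) (v : V), ∃ i : Fin m, ∀ g x h : S, g * x * h = s →
        ∀ z : S, F (g * z * h) (w - e i x + e i z) + act v (g * z * h) = F s w + act v s)
    {X : List A}
    (hav : ∀ c, ∃ t < M, nmL t = some c ∧ ∀ t', t + t' ≡ X.length [MOD M] → nmR t' = some c)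
    (hdig : ∀ j < m, M ≤ X.length / b ^ j % b ∧ X.length / b ^ j % b + M + 1 ≤ b) (v : V) :
    ∃ P Q c, P ++ Q = X ∧ LL f act e F b nmL P c ∧ RR f act e F b nmR Q c ∧
      c.2.2.2.2.2 = v := by
  have hb : 0 < b := by omega
  obtain ⟨i, hi⟩ := hF (ph f X) (ww f e b X) v
  have hs3 := split3 (f := f) (b := b) X (i : ℕ)
  have hi' := hi _ _ _ hs3.symm
  obtain ⟨c, hc⟩ : ∃ c : Ctx S V W m, c = (i, ph f (X.take (X.length % b ^ (i : ℕ))),
    ∑ j ∈ univ.filter (· < i), e j (zz f b X j), ph f (X.drop (X.length % b ^ ((i : ℕ) + 1))),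
    ∑ j ∈ univ.filter (i < ·), e j (zz f b X j), v) := ⟨_, rfl⟩
  have hgood : good act e F c (F (ph f X) (ww f e b X) + act v (ph f X)) := by
    intro z
    have h1 := hi' z
    have h2 : ww f e b X - e i (zz f b X i) + e i z =
        c.2.2.1 + e c.1 z + c.2.2.2.2.1 := by
      unfold ww
      rw [sum_split i, hc]
      simp only
      abel
    rw [h2] at h1
    rw [hc] at h1 ⊢
    exact h1
  obtain ⟨t, htM, htL, htR⟩ := hav c
  obtain ⟨hd1, hd2⟩ := hdig i i.2
  set n := X.length with hn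
  set d := n / b ^ (i : ℕ) % b with hd
  have hbi : 0 < b ^ (i : ℕ) := Nat.pow_pos hb
  obtain ⟨y, hy1, hy2, hy3⟩ := hit hM (Nat.Coprime.pow_left (i : ℕ) hco) (n % b ^ (i : ℕ))
    ((d - M + 1) / 2) t
  have hyd : y ≤ d := by omega
  have hyb : 2 * y < b := by omega
  have hyb' : 2 * (d - y) < b := by omega
  set o := n % b ^ (i : ℕ) + b ^ (i : ℕ) * y with ho
  have hlt : n % b ^ (i : ℕ) < b ^ (i : ℕ) := Nat.mod_lt _ hbi
  have hodiv : o / b ^ (i : ℕ) = y := by
    rw [ho, Nat.add_mul_div_left _ _ hbi, Nat.div_eq_of_lt hlt, zero_add]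
  have homod : o % b ^ (i : ℕ) = n % b ^ (i : ℕ) := by
    rw [ho, Nat.add_mul_mod_self_left, Nat.mod_mod]
  have hdn : d ≤ n / b ^ (i : ℕ) := Nat.mod_le _ _
  have hndm := Nat.mod_add_div n (b ^ (i : ℕ))
  have hon : o ≤ n := by
    have : b ^ (i : ℕ) * y ≤ b ^ (i : ℕ) * (n / b ^ (i : ℕ)) := Nat.mul_le_mul_left _ (by omega)
    omega
  have ho' : n - o = b ^ (i : ℕ) * (n / b ^ (i : ℕ) - y) := by
    rw [Nat.mul_sub]
    omega
  have hPl : (X.take o).length = o := by rw [List.length_take]; omega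
  have hQl : (X.drop o).length = n - o := by rw [List.length_drop]
  have hdvd : b ^ (i : ℕ) ∣ (X.drop o).length := by rw [hQl, ho']; exact dvd_mul_right _ _
  have hP3 : 2 * ((X.take o).length / b ^ (i : ℕ)) < b := by rw [hPl, hodiv]; exact hyb
  have hQ3 : 2 * ((X.drop o).length / b ^ (i : ℕ) % b) < b := by
    rw [hQl, ho', Nat.mul_div_cancel_left _ hbi]
    have h1 := Nat.mod_add_div (n / b ^ (i : ℕ)) b
    have h2 : n / b ^ (i : ℕ) - y = (d - y) + b * (n / b ^ (i : ℕ) / b) := by omega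
    rw [h2, Nat.add_mul_mod_self_left, Nat.mod_eq_of_lt (by omega)]
    exact hyb'
  refine ⟨X.take o, X.drop o, c, List.take_append_drop _ _, ?_, ?_, by rw [hc]⟩
  · refine ⟨⟨_, hgood⟩, ?_, by rw [hc]; exact hP3, ?_, ?_⟩
    · rw [hPl, per hL hy3, htL]
    · rw [hc]
      simp only
      rw [hPl, homod, List.take_take, min_eq_left]
      omega
    · rw [hc]
      simp only
      apply sum_congr rfl
      intro j hj
      rw [mem_filter] at hj
      rw [← zz_left (P := X.take o) hdvd hj.2, List.take_append_drop]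
  · refine ⟨⟨_, hgood⟩, ?_, by rw [hc]; exact hdvd, by rw [hc]; exact hQ3, ?_, ?_⟩
    · apply htR
      rw [hQl]
      have h1 : t + (n - o) ≡ o + (n - o) [MOD M] := Nat.ModEq.add_right _ hy3.symm
      rw [show o + (n - o) = n by omega] at h1
      exact h1
    · rw [hc]
      simp only
      have h2 := nocarry hb hdvd hP3 hQ3 (Nat.lt_succ_self (i : ℕ))
      rw [hPl] at h2
      have h3 : o + (X.drop o).length = n := by rw [hQl]; omega
      rw [h3] at h2
      rw [List.drop_drop, h2]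
    · rw [hc]
      simp only
      apply sum_congr rfl
      intro j hj
      rw [mem_filter] at hj
      rw [← zz_right (P := X.take o) hb hdvd hP3 hQ3 hj.2, List.take_append_drop]

section reg

theorem seg_take {Q : List A} {a c L : ℕ} (hc : c ≤ L) :
    (Q.drop a).take (c - a) = ((Q.take L).drop a).take (c - a) := by
  rw [List.drop_take, List.take_take, min_eq_left (by omega)]

theorem drop_split {Q : List A} {a L : ℕ} (ha : a ≤ L) (hL : L ≤ Q.length) :
    Q.drop a = (Q.take L).drop a ++ Q.drop L := by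
  conv_lhs => rw [← List.take_append_drop L Q]
  rw [List.drop_append_of_le_length]
  rw [List.length_take]
  omega

theorem mod_pow_congr {x y M j : ℕ} (h : x % (M * b ^ m) = y % (M * b ^ m)) (hj : j ≤ m) :
    x % b ^ j = y % b ^ j := by
  have h1 : b ^ j ∣ M * b ^ m := dvd_mul_of_dvd_right (pow_dvd_pow b hj) _
  rw [← Nat.mod_mod_of_dvd x h1, ← Nat.mod_mod_of_dvd y h1, h]

theorem zz_congr (hb : 0 < b) {M j : ℕ} {Q Q' : List A} (ht : Q.take (b ^ m) = Q'.take (b ^ m))
    (h : Q.length % (M * b ^ m) = Q'.length % (M * b ^ m)) (hj : j < m) :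
    zz f b Q j = zz f b Q' j := by
  unfold zz
  have h1 := mod_pow_congr (m := m) h hj.le
  have h2 := mod_pow_congr (m := m) h (show j + 1 ≤ m by omega)
  rw [h1, h2]
  have h3 : Q'.length % b ^ (j + 1) ≤ b ^ m :=
    le_trans (Nat.mod_lt _ (Nat.pow_pos hb)).le (Nat.pow_le_pow_right hb (by omega))
  rw [seg_take h3, seg_take (Q := Q') h3, ht]

theorem drop_congr (hb : 0 < b) {M j : ℕ} {Q Q' : List A} (hQ : b ^ m ≤ Q.length)
    (hQ' : b ^ m ≤ Q'.length) (ht : Q.take (b ^ m) = Q'.take (b ^ m))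
    (h : Q.length % (M * b ^ m) = Q'.length % (M * b ^ m)) (hj : j ≤ m)
    (hd : ph f (Q.drop (b ^ m)) = ph f (Q'.drop (b ^ m))) :
    ph f (Q.drop (Q.length % b ^ j)) = ph f (Q'.drop (Q'.length % b ^ j)) := by
  have h1 := mod_pow_congr (m := m) h hj
  rw [h1]
  have h3 : Q'.length % b ^ j ≤ b ^ m :=
    le_trans (Nat.mod_lt _ (Nat.pow_pos hb)).le (Nat.pow_le_pow_right hb hj)
  rw [drop_split h3 hQ, drop_split (Q := Q') h3 hQ', ph_append, ph_append, ht, hd]

theorem RR_congr (hb : 0 < b) {M : ℕ} (hR : ∀ t, nmR (t + M) = nmR t) {Q Q' : List A}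
    (hQ : b ^ m ≤ Q.length)
    (hQ' : b ^ m ≤ Q'.length) (ht : Q.take (b ^ m) = Q'.take (b ^ m))
    (h : Q.length % (M * b ^ m) = Q'.length % (M * b ^ m))
    (hd : ph f (Q.drop (b ^ m)) = ph f (Q'.drop (b ^ m))) (c : Ctx S V W m) :
    RR f act e F b nmR Q c ↔ RR f act e F b nmR Q' c := by
  have h0 : nmR Q.length = nmR Q'.length := by
    refine per hR ?_
    have h1 : M ∣ M * b ^ m := dvd_mul_right _ _
    unfold Nat.ModEq
    rw [← Nat.mod_mod_of_dvd Q.length h1, ← Nat.mod_mod_of_dvd Q'.length h1, h]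
  have h1 := mod_pow_congr (m := m) h c.1.2.le
  have h2 := mod_pow_congr (m := m) h (show (c.1 : ℕ) + 1 ≤ m from c.1.2)
  have h3 : b ^ (c.1 : ℕ) ∣ Q.length ↔ b ^ (c.1 : ℕ) ∣ Q'.length := by
    rw [Nat.dvd_iff_mod_eq_zero, Nat.dvd_iff_mod_eq_zero, h1]
  have h4 : Q.length / b ^ (c.1 : ℕ) % b = Q'.length / b ^ (c.1 : ℕ) % b := by
    rw [← Nat.mod_mul_right_div_self, ← Nat.mod_mul_right_div_self, ← pow_succ, h2]
  have h5 := drop_congr hb hQ hQ' ht h (show (c.1 : ℕ) + 1 ≤ m from c.1.2) hd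
  have h6 : ∑ j ∈ univ.filter (c.1 < ·), e j (zz f b Q j) =
      ∑ j ∈ univ.filter (c.1 < ·), e j (zz f b Q' j) :=
    sum_congr rfl fun j _ => by rw [zz_congr hb ht h j.2]
  unfold RR
  rw [h0, h3, h4, h5, h6]

end reg

end gadget

/-- **G1** (lead #13673 literal). -/
theorem g1 (S V : Type) [Monoid S] [Finite S] [AddCommGroup V] [Finite V] (act : V → S → V) :
    ∃ m r : ℕ, ∀ Bd : ℕ, ∃ (Ms : Finset ℕ) (M : ℕ), Ms.card ≤ r ∧
      (∀ k ∈ Ms, Bd < k ∧ k.Prime ∧ k ∣ M) ∧ 0 < M ∧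
      ∀ b : ℕ, 4 * M + 4 < b → Nat.Coprime b M → ∀ (A : Type) (f : A → S),
        ∃ (lam rho : List A → Option V) (nu : List A → V),
          (∀ P v, lam P = some v → P.length < b ^ m) ∧
          (∀ P Q v v', lam P = some v → rho Q = some v' →
            v' = act v ((P ++ Q).map f).prod + nu (P ++ Q)) ∧
          (∀ X : List A, (∀ k ∈ Ms, ¬ k ∣ X.length) →
            (∀ j < m, M ≤ X.length / b ^ j % b ∧ X.length / b ^ j % b + M + 1 ≤ b) →
            ∀ v, ∃ P Q, P ++ Q = X ∧ lam P = some v ∧ (rho Q).isSome) ∧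
          (∀ Q Q' : List A, b ^ m ≤ Q.length → b ^ m ≤ Q'.length →
            Q.take (b ^ m) = Q'.take (b ^ m) →
            Q.length % (M * b ^ m) = Q'.length % (M * b ^ m) →
            ((Q.drop (b ^ m)).map f).prod = ((Q'.drop (b ^ m)).map f).prod →
            rho Q = rho Q' ∧ nu Q = nu Q') := by
  classical
  obtain ⟨W, _, _, m, e, F, hF⟩ := Crest.Agent.R320.Noise513.explicit_noise S V act
  obtain ⟨r, hr⟩ := Crest.Agent.R320.Names755.names (Ctx S V W m) (V × V)
    (fun c => (c.2.2.2.2.2, val act e F c))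
  refine ⟨m, r, fun Bd => ?_⟩
  obtain ⟨Ms, M, nmL, nmR, h1, h2, h3, h4, h5, h6, h7, h8⟩ := hr Bd
  refine ⟨Ms, M, h1, h2, h3, fun b hb hco A f => ?_⟩
  have hb0 : 0 < b := by omega
  have hn : ∀ ρ : ℕ, ∃ vr : V × V, (∃ k ∈ Ms, k ∣ ρ) → ∀ o o' c c', o + o' ≡ ρ [MOD M] →
      nmL o = some c → nmR o' = some c' → c.2.2.2.2.2 = vr.1 ∧ val act e F c' = vr.2 := by
    intro ρ
    by_cases hex : ∃ o o' c c', o + o' ≡ ρ [MOD M] ∧ nmL o = some c ∧ nmR o' = some c'
    · obtain ⟨o, o', c, c', hm, hc, hc'⟩ := hex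
      refine ⟨(c.2.2.2.2.2, val act e F c'), ?_⟩
      rintro ⟨k, hk, hkρ⟩ o₁ o₁' c₁ c₁' hm₁ hc₁ hc₁'
      have hmm : (o + o') % M = (o₁ + o₁') % M := hm.trans hm₁.symm
      have e1 := Nat.mod_add_div (o + o') M
      have e2 := Nat.mod_add_div (o₁ + o₁') M
      have htot : o + (o' + M * ((o₁ + o₁') / M)) = o₁ + (o₁' + M * ((o + o') / M)) := by omega
      have g1 : nmR (o' + M * ((o₁ + o₁') / M)) = some c' := by
        rw [per h5 (show o' + M * ((o₁ + o₁') / M) ≡ o' [MOD M] from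
          Nat.add_mul_mod_self_left _ _ _), hc']
      have g2 : nmR (o₁' + M * ((o + o') / M)) = some c₁' := by
        rw [per h5 (show o₁' + M * ((o + o') / M) ≡ o₁' [MOD M] from
          Nat.add_mul_mod_self_left _ _ _), hc₁']
      have hkM : k ∣ M := (h2 k hk).2.2
      have hdv : k ∣ o + (o' + M * ((o₁ + o₁') / M)) := by
        have h9 : o + (o' + M * ((o₁ + o₁') / M)) ≡ ρ [MOD M] := by
          rw [← add_assoc]
          exact Nat.ModEq.trans (Nat.add_mul_mod_self_left _ _ _) hm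
        exact (Nat.ModEq.dvd_iff (h9.of_dvd hkM) dvd_rfl).2 hkρ
      have h10 := h8 _ _ _ _ _ _ _ _ hc g1 hc₁ g2 htot ⟨k, hk, hdv⟩
      simp only [Prod.mk.injEq] at h10
      exact ⟨h10.1.1.symm, h10.2.2.symm⟩
    · refine ⟨0, ?_⟩
      intro _ o o' c c' hm hc hc'
      exact absurd ⟨o, o', c, c', hm, hc, hc'⟩ hex
  choose vr hvr using hn
  let lam : List A → Option V := fun P =>
    if h : ∃ c, LL f act e F b nmL P c then some h.choose.2.2.2.2.2 else none
  let rho : List A → Option V := fun Q =>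
    if h : ∃ c, RR f act e F b nmR Q c then some (val act e F h.choose) else none
  let nu : List A → V := fun X =>
    if ∃ k ∈ Ms, k ∣ X.length then (vr (X.length % M)).2 - act (vr (X.length % M)).1 (ph f X)
    else F (ph f X) (ww f e b X)
  have hlam : ∀ P v, lam P = some v → ∃ c, LL f act e F b nmL P c ∧ c.2.2.2.2.2 = v := by
    intro P v h
    by_cases hc : ∃ c, LL f act e F b nmL P c
    · simp only [lam, dif_pos hc, Option.some.injEq] at h
      exact ⟨_, hc.choose_spec, h⟩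
    · simp only [lam, dif_neg hc] at h
      exact absurd h (by simp)
  have hrho : ∀ Q v, rho Q = some v → ∃ c, RR f act e F b nmR Q c ∧ val act e F c = v := by
    intro Q v h
    by_cases hc : ∃ c, RR f act e F b nmR Q c
    · simp only [rho, dif_pos hc, Option.some.injEq] at h
      exact ⟨_, hc.choose_spec, h⟩
    · simp only [rho, dif_neg hc] at h
      exact absurd h (by simp)
  refine ⟨lam, rho, nu, ?_, ?_, ?_, ?_⟩
  · intro P v h
    obtain ⟨c, hc, -⟩ := hlam P v h
    have h9 : P.length / b ^ (c.1 : ℕ) < b := by have := hc.2.2.1; omega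
    have h10 : P.length < b * b ^ (c.1 : ℕ) := (Nat.div_lt_iff_lt_mul (Nat.pow_pos hb0)).1 h9
    refine lt_of_lt_of_le h10 ?_
    rw [mul_comm, ← pow_succ]
    exact Nat.pow_le_pow_right hb0 c.1.2
  · intro P Q v v' hP hQ
    obtain ⟨c, hc, rfl⟩ := hlam P v hP
    obtain ⟨c', hc', rfl⟩ := hrho Q v' hQ
    change val act e F c' = act c.2.2.2.2.2 (ph f (P ++ Q)) + nu (P ++ Q)
    by_cases hk : ∃ k ∈ Ms, k ∣ (P ++ Q).length
    · simp only [nu, if_pos hk]
      obtain ⟨k, hk, hkd⟩ := hk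
      have h9 : k ∣ (P ++ Q).length % M :=
        (Nat.dvd_mod_iff (h2 k hk).2.2).2 hkd
      have h10 := hvr ((P ++ Q).length % M) ⟨k, hk, h9⟩ P.length Q.length c c'
        (by rw [← List.length_append]; exact (Nat.mod_modEq _ _).symm) hc.2.1 hc'.2.1
      rw [← h10.1, ← h10.2, add_sub_cancel]
    · simp only [nu, if_neg hk]
      push Not at hk
      have h9 := h6 _ _ _ _ hc.2.1 hc'.2.1 (by rw [← List.length_append]; exact hk)
      subst h9
      exact core_sound hb0 hc hc'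
  · intro X hk hdig v
    obtain ⟨P, Q, c, rfl, hP, hQ, rfl⟩ := core_complete (f := f) (act := act) (e := e) (F := F)
      h3 hb hco h4 hF (h7 X.length hk) hdig v
    refine ⟨P, Q, rfl, ?_, ?_⟩
    · have hex : ∃ c, LL f act e F b nmL P c := ⟨c, hP⟩
      have h9 := hex.choose_spec.2.1
      rw [hP.2.1, Option.some.injEq] at h9
      simp only [lam, dif_pos hex, Option.some.injEq]
      rw [← h9]
    · have hex : ∃ c, RR f act e F b nmR Q c := ⟨c, hQ⟩
      simp only [rho, dif_pos hex, Option.isSome_some]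
  · intro Q Q' hQ hQ' ht hl hd
    constructor
    · have h9 : (RR f act e F b nmR Q) = (RR f act e F b nmR Q') :=
        funext fun c => propext (RR_congr hb0 h5 hQ hQ' ht hl hd c)
      simp only [rho, h9]
    · have h10 : M ∣ M * b ^ m := dvd_mul_right _ _
      have h11 : Q.length % M = Q'.length % M := by
        rw [← Nat.mod_mod_of_dvd Q.length h10, ← Nat.mod_mod_of_dvd Q'.length h10, hl]
      have h12 : ph f Q = ph f Q' := by
        rw [← List.take_append_drop (b ^ m) Q, ← List.take_append_drop (b ^ m) Q', ph_append,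
          ph_append, ht]
        congr 1
      have h13 : ww f e b Q = ww f e b Q' :=
        sum_congr rfl fun j _ => by rw [zz_congr hb0 ht hl j.2]
      have h14 : (∃ k ∈ Ms, k ∣ Q.length) ↔ ∃ k ∈ Ms, k ∣ Q'.length := by
        constructor
        · rintro ⟨k, hk, hkd⟩
          refine ⟨k, hk, ?_⟩
          rw [← Nat.dvd_mod_iff (h2 k hk).2.2, ← h11, Nat.dvd_mod_iff (h2 k hk).2.2]
          exact hkd
        · rintro ⟨k, hk, hkd⟩
          refine ⟨k, hk, ?_⟩
          rw [← Nat.dvd_mod_iff (h2 k hk).2.2, h11, Nat.dvd_mod_iff (h2 k hk).2.2]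
          exact hkd
      simp only [nu, h11, h12, h13, h14]

end Crest.Agent.R320.G1_916
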