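import Mathlib
import Crest.Agent.R320.RandF_808
import Crest.Agent.R320.Names_755

/-!
Row 320, leaf G1 (852 #13483, lead #13673): the digit gadget.  Levels = positional digits of the
total length in base `b`, names = CRT names (755), noise = 808.  Sound for all words.
-/

set_option autoImplicit false

namespace Crest.Agent.R320.G1_96

open Finset

/-! ### arithmetic of digits -/

theorem low {b i j o o' : ℕ} (hj : j ≤ i) (h2 : b ^ i ∣ o') : (o + o') % b ^ j = o % b ^ j := by
  obtain ⟨q, rfl⟩ := Nat.dvd_trans (pow_dvd_pow b hj) h2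
  exact Nat.add_mul_mod_self_left _ _ _

theorem mono (b n j : ℕ) : n % b ^ j ≤ n % b ^ (j + 1) := by
  rw [Nat.mod_pow_succ]; exact Nat.le_add_right _ _

theorem mono' {b n j k : ℕ} (h : j ≤ k) : n % b ^ j ≤ n % b ^ k := by
  induction k, h using Nat.le_induction with
  | base => exact le_refl _
  | succ k _ ih => exact le_trans ih (mono b n k)

theorem high {b i j o o' : ℕ} (hb : 0 < b) (h1 : 2 * (o / b ^ i) < b) (h2 : b ^ i ∣ o')
    (h3 : 2 * (o' / b ^ i % b) < b) (hj : i < j) : (o + o') % b ^ j = o + o' % b ^ j := by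
  have e1 : o' % b ^ (i + 1) = b ^ i * (o' / b ^ i % b) := by
    rw [Nat.mod_pow_succ, Nat.mod_eq_zero_of_dvd h2, zero_add]
  have e2 : o < b ^ i * (o / b ^ i + 1) := Nat.lt_mul_div_succ o (pow_pos hb i)
  have e3 : o + o' % b ^ (i + 1) < b ^ (i + 1) := by
    rw [e1, pow_succ]
    have h4 : o / b ^ i + 1 + o' / b ^ i % b ≤ b := by omega
    calc o + b ^ i * (o' / b ^ i % b) < b ^ i * (o / b ^ i + 1) + b ^ i * (o' / b ^ i % b) :=
          Nat.add_lt_add_right e2 _
      _ = b ^ i * (o / b ^ i + 1 + o' / b ^ i % b) := by ring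
      _ ≤ b ^ i * b := Nat.mul_le_mul_left _ h4
  have e4 : (o + o') / b ^ (i + 1) = o' / b ^ (i + 1) := by
    have h5 : o + o' = (o + o' % b ^ (i + 1)) + b ^ (i + 1) * (o' / b ^ (i + 1)) := by
      have := Nat.mod_add_div o' (b ^ (i + 1))
      omega
    rw [h5, Nat.add_mul_div_left _ _ (pow_pos hb _), Nat.div_eq_of_lt e3, zero_add]
  obtain ⟨k, rfl⟩ : ∃ k, j = i + 1 + k := ⟨j - (i + 1), by omega⟩
  have e5 : (o + o') / b ^ (i + 1 + k) = o' / b ^ (i + 1 + k) := by
    rw [pow_add, ← Nat.div_div_eq_div_mul, ← Nat.div_div_eq_div_mul, e4]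
  have h6 := Nat.mod_add_div (o + o') (b ^ (i + 1 + k))
  have h7 := Nat.mod_add_div o' (b ^ (i + 1 + k))
  rw [e5] at h6
  omega

/-! ### blocks of a word -/

section
variable {A : Type*} {S : Type*} [Monoid S] (f : A → S) (b : ℕ)

/-- value of the block `j` of a word (boundaries = length mod `b ^ j`) -/
def blk (j : ℕ) (X : List A) : S :=
  (((X.drop (X.length % b ^ j)).take (X.length % b ^ (j + 1) - X.length % b ^ j)).map f).prod

theorem blk_left {i j : ℕ} {P Q : List A} (hj : j < i) (hQ : b ^ i ∣ Q.length) :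
    blk f b j (P ++ Q) = blk f b j P := by
  unfold blk
  rw [List.length_append, low hj.le hQ, low (show j + 1 ≤ i from hj) hQ]
  have h1 : P.length % b ^ j ≤ P.length := Nat.mod_le _ _
  have h2 : P.length % b ^ (j + 1) ≤ P.length := Nat.mod_le _ _
  rw [List.drop_append_of_le_length h1, List.take_append_of_le_length (by
    rw [List.length_drop]; omega)]

theorem drop_add (P Q : List A) (a : ℕ) : (P ++ Q).drop (P.length + a) = Q.drop a := by
  rw [← List.drop_drop, List.drop_left]

theorem blk_right {i j : ℕ} {P Q : List A} (hb : 0 < b) (h1 : 2 * (P.length / b ^ i) < b)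
    (h2 : b ^ i ∣ Q.length) (h3 : 2 * (Q.length / b ^ i % b) < b) (hj : i < j) :
    blk f b j (P ++ Q) = blk f b j Q := by
  unfold blk
  rw [List.length_append, high hb h1 h2 h3 hj, high hb h1 h2 h3 (Nat.lt_succ_of_lt hj), drop_add,
    Nat.add_sub_add_left]

theorem blk_local {m j : ℕ} {X Y : List A} (hb : 0 < b) (hj : j < m)
    (hXY : X.take (b ^ m) = Y.take (b ^ m))
    (hl : ∀ j ≤ m, X.length % b ^ j = Y.length % b ^ j) : blk f b j X = blk f b j Y := by
  unfold blk
  rw [hl j hj.le, hl (j + 1) hj]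
  have h1 : Y.length % b ^ (j + 1) < b ^ (j + 1) := Nat.mod_lt _ (pow_pos hb _)
  have h2 : b ^ (j + 1) ≤ b ^ m := Nat.pow_le_pow_right hb hj
  have h3 := mono b Y.length j
  have key : ∀ Z : List A, (Z.drop (Y.length % b ^ j)).take
      (Y.length % b ^ (j + 1) - Y.length % b ^ j) =
      (((Z.take (b ^ m)).drop (Y.length % b ^ j)).take
      (Y.length % b ^ (j + 1) - Y.length % b ^ j)) := by
    intro Z
    rw [List.drop_take, List.take_take, min_eq_left (by omega)]
  rw [key X, key Y, hXY]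

theorem ph_split (X : List A) {a c : ℕ} (h : a ≤ c) :
    (X.map f).prod = ((X.take a).map f).prod * (((X.drop a).take (c - a)).map f).prod *
      ((X.drop c).map f).prod := by
  have h1 : X = X.take a ++ ((X.drop a).take (c - a) ++ X.drop c) := by
    have h2 : X.drop c = (X.drop a).drop (c - a) := by
      rw [List.drop_drop]; congr 1; omega
    rw [h2, List.take_append_drop, List.take_append_drop]
  conv_lhs => rw [h1]
  rw [List.map_append, List.map_append, List.prod_append, List.prod_append, mul_assoc]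

theorem ph_blk (i : ℕ) (X : List A) :
    (X.map f).prod = ((X.take (X.length % b ^ i)).map f).prod * blk f b i X *
      ((X.drop (X.length % b ^ (i + 1))).map f).prod :=
  ph_split f X (mono b _ i)

end

theorem sum_split {W : Type*} [AddCommMonoid W] (g : ℕ → W) {i m : ℕ} (h : i < m) :
    ∑ j ∈ range m, g j = ∑ j ∈ range i, g j + g i + ∑ j ∈ Ico (i + 1) m, g j := by
  rw [← Finset.sum_range_succ, Finset.sum_range_add_sum_Ico _ h]

theorem per_mod {X : Type*} {g : ℕ → X} {M : ℕ} (h : ∀ t, g (t + M) = g t) (t : ℕ) :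
    g t = g (t % M) := by
  have key : ∀ k s, g (s + M * k) = g s := by
    intro k
    induction k with
    | zero => intro s; simp
    | succ k ih => intro s; rw [Nat.mul_succ, ← Nat.add_assoc, h, ih]
  conv_lhs => rw [← Nat.mod_add_div t M]
  exact key _ _

theorem per_modEq {X : Type*} {g : ℕ → X} {M : ℕ} (h : ∀ t, g (t + M) = g t) {t t' : ℕ}
    (ht : t % M = t' % M) : g t = g t' := by
  rw [per_mod h t, per_mod h t', ht]

/-- in every `M` consecutive integers there is a solution of `β + c y ≡ t (mod M)`, `c` a unit -/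
theorem solve {M c : ℕ} (hM : 0 < M) (hc : Nat.Coprime c M) (β t y0 : ℕ) :
    ∃ y, y0 ≤ y ∧ y < y0 + M ∧ (β + c * y) % M = t % M := by
  haveI : NeZero M := ⟨hM.ne'⟩
  let u := ZMod.unitOfCoprime c hc
  let x : ZMod M := (t - β) * (u⁻¹ : (ZMod M)ˣ) - y0
  refine ⟨y0 + x.val, Nat.le_add_right _ _, Nat.add_lt_add_left (ZMod.val_lt x) _, ?_⟩
  have h1 : ((β + c * (y0 + x.val) : ℕ) : ZMod M) = (t : ZMod M) := by
    push_cast
    rw [ZMod.natCast_zmod_val]
    have hu : (c : ZMod M) = (u : ZMod M) := rfl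
    have : (u : ZMod M) * ((u⁻¹ : (ZMod M)ˣ) : ZMod M) = 1 := Units.mul_inv u
    calc (β : ZMod M) + c * (y0 + x) = β + (u : ZMod M) * ((t - β) * (u⁻¹ : (ZMod M)ˣ)) := by
          rw [hu]; simp only [x]; ring
      _ = β + (t - β) * ((u : ZMod M) * ((u⁻¹ : (ZMod M)ˣ) : ZMod M)) := by ring
      _ = t := by rw [this]; ring
  exact (ZMod.natCast_eq_natCast_iff' _ _ _).1 h1

/-! ### the gadget -/

theorem g1u (S V : Type*) [Monoid S] [Finite S] [AddCommGroup V] [Finite V] (act : V → S → V) :
    ∃ m r : ℕ, 0 < m ∧ ∀ Bd : ℕ, ∃ (Ms : Finset ℕ) (M : ℕ), Ms.card ≤ r ∧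
      (∀ k ∈ Ms, Bd < k ∧ k.Prime ∧ k ∣ M) ∧ 0 < M ∧
      ∀ b : ℕ, 4 * M + 4 < b → Nat.Coprime b M → ∀ (A : Type*) (f : A → S),
      ∃ (lam rho : List A → Option V) (nu : List A → V),
        (∀ P v, lam P = some v → P.length < b ^ m) ∧
        (∀ P Q v v', lam P = some v → rho Q = some v' →
          v' = act v ((P ++ Q).map f).prod + nu (P ++ Q)) ∧
        (∀ X, (∀ k ∈ Ms, ¬ k ∣ X.length) →
          (∀ j < m, M ≤ X.length / b ^ j % b ∧ X.length / b ^ j % b + M + 1 ≤ b) →
          ∀ v, ∃ P Q, P ++ Q = X ∧ lam P = some v ∧ (rho Q).isSome) ∧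
        (∀ Q Q', b ^ m ≤ Q.length → b ^ m ≤ Q'.length → Q.take (b ^ m) = Q'.take (b ^ m) →
          Q.length % (M * b ^ m) = Q'.length % (M * b ^ m) →
          ((Q.drop (b ^ m)).map f).prod = ((Q'.drop (b ^ m)).map f).prod →
          rho Q = rho Q' ∧ nu Q = nu Q') := by
  classical
  haveI := Fintype.ofFinite S
  haveI := Fintype.ofFinite V
  obtain ⟨m, N, e, F, hN, hF⟩ := RandF808.exists_noise S V act
  haveI : NeZero N := ⟨hN.ne'⟩
  have hm : 0 < m := by
    obtain ⟨i, hi, -⟩ := hF 1 0 0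
    exact lt_of_le_of_lt (Nat.zero_le _) hi
  -- contexts
  let Good : (Fin m × S × (ZMod N × ZMod N) × S × (ZMod N × ZMod N) × V) → Prop := fun c =>
    ∀ z : S, F (c.2.1 * z * c.2.2.2.1) (c.2.2.1 + e c.1 z + c.2.2.2.2.1)
        + act c.2.2.2.2.2 (c.2.1 * z * c.2.2.2.1)
      = F (c.2.1 * 1 * c.2.2.2.1) (c.2.2.1 + e c.1 1 + c.2.2.2.2.1)
        + act c.2.2.2.2.2 (c.2.1 * 1 * c.2.2.2.1)
  obtain ⟨nc, ⟨eN⟩⟩ := Finite.exists_equiv_fin {c // Good c}
  obtain ⟨nv, ⟨eV⟩⟩ := Finite.exists_equiv_fin (V × V)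
  let lv : Fin nc → ℕ := fun k => (eN.symm k).1.1
  let gg : Fin nc → S := fun k => (eN.symm k).1.2.1
  let wl : Fin nc → ZMod N × ZMod N := fun k => (eN.symm k).1.2.2.1
  let hh : Fin nc → S := fun k => (eN.symm k).1.2.2.2.1
  let wr : Fin nc → ZMod N × ZMod N := fun k => (eN.symm k).1.2.2.2.2.1
  let vv : Fin nc → V := fun k => (eN.symm k).1.2.2.2.2.2
  let bb : Fin nc → V := fun k => F (gg k * 1 * hh k) (wl k + e (lv k) 1 + wr k)
    + act (vv k) (gg k * 1 * hh k)
  have hgood : ∀ k : Fin nc, ∀ z : S, F (gg k * z * hh k) (wl k + e (lv k) z + wr k)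
      + act (vv k) (gg k * z * hh k) = bb k := fun k z => (eN.symm k).2 z
  have hlv : ∀ k : Fin nc, lv k < m := fun k => (eN.symm k).1.1.2
  obtain ⟨r, hr⟩ := Names755.names (Fin nc) (Fin nv) (fun k => eV (vv k, bb k))
  refine ⟨m, r, hm, fun Bd => ?_⟩
  obtain ⟨Ms, M, nmL, nmR, hcard, hMs, hM, hpL, hpR, n1, n2, n3⟩ := hr Bd
  refine ⟨Ms, M, hcard, hMs, hM, fun b hb hco A f => ?_⟩
  have hb0 : 0 < b := by omega
  let ph : List A → S := fun X => (X.map f).prod
  let LC : Fin nc → List A → Prop := fun k P => P.length < b ^ (lv k + 1) ∧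
    2 * (P.length / b ^ lv k) < b ∧ ph (P.take (P.length % b ^ lv k)) = gg k ∧
    ∑ j ∈ range (lv k), e j (blk f b j P) = wl k
  let RC : Fin nc → List A → Prop := fun k Q => b ^ lv k ∣ Q.length ∧
    2 * (Q.length / b ^ lv k % b) < b ∧ ph (Q.drop (Q.length % b ^ (lv k + 1))) = hh k ∧
    ∑ j ∈ Ico (lv k + 1) m, e j (blk f b j Q) = wr k
  let lam : List A → Option V := fun P =>
    (nmL P.length).bind fun k => if LC k P then some (vv k) else none
  let rho : List A → Option V := fun Q =>
    (nmR Q.length).bind fun k => if RC k Q then some (bb k) else none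
  let NU : ℕ → S → (ZMod N × ZMod N) → V := fun ρ s w =>
    if ∀ k ∈ Ms, ¬ k ∣ ρ then F s w else
    if h : ∃ cc : Fin nc × Fin nc, ∃ t t', (t + t') % M = ρ ∧ nmL t = some cc.1 ∧
        nmR t' = some cc.2 then bb h.choose.2 - act (vv h.choose.1) s else 0
  let wt : List A → ZMod N × ZMod N := fun X => ∑ j ∈ range m, e j (blk f b j X)
  let nu : List A → V := fun X => NU (X.length % M) (ph X) (wt X)
  have hlam : ∀ P v, lam P = some v → ∃ k, nmL P.length = some k ∧ LC k P ∧ v = vv k := by
    intro P v h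
    obtain ⟨k, hk, h⟩ := Option.bind_eq_some_iff.1 h
    by_cases hc : LC k P
    · rw [if_pos hc] at h
      exact ⟨k, hk, hc, (Option.some.inj h).symm⟩
    · rw [if_neg hc] at h; cases h
  have hrho : ∀ Q v, rho Q = some v → ∃ k, nmR Q.length = some k ∧ RC k Q ∧ v = bb k := by
    intro Q v h
    obtain ⟨k, hk, h⟩ := Option.bind_eq_some_iff.1 h
    by_cases hc : RC k Q
    · rw [if_pos hc] at h
      exact ⟨k, hk, hc, (Option.some.inj h).symm⟩
    · rw [if_neg hc] at h; cases h
  have hdvd : ∀ n, (∀ k ∈ Ms, ¬ k ∣ n) ↔ (∀ k ∈ Ms, ¬ k ∣ n % M) := by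
    intro n
    refine forall₂_congr fun k hk => ?_
    rw [← Nat.dvd_mod_iff (hMs k hk).2.2]
  refine ⟨lam, rho, nu, ?_, ?_, ?_, ?_⟩
  · intro P v h
    obtain ⟨k, -, hk, -⟩ := hlam P v h
    exact lt_of_lt_of_le hk.1 (Nat.pow_le_pow_right hb0 (hlv k))
  · intro P Q v v' hP hQ
    obtain ⟨k, hk, hL, rfl⟩ := hlam P v hP
    obtain ⟨k', hk', hR, rfl⟩ := hrho Q v' hQ
    by_cases hd : ∀ q ∈ Ms, ¬ q ∣ (P ++ Q).length
    · have hkk : k = k' := n1 _ _ _ _ hk hk' (by rw [← List.length_append]; exact hd)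
      subst hkk
      have hnu : nu (P ++ Q) = F (ph (P ++ Q)) (wt (P ++ Q)) := if_pos ((hdvd _).1 hd)
      obtain ⟨hL0, hL1, hL2, hL3⟩ := hL
      obtain ⟨hR1, hR2, hR3, hR4⟩ := hR
      have e1 : ph (P ++ Q) = gg k * blk f b (lv k) (P ++ Q) * hh k := by
        have := ph_blk f b (lv k) (P ++ Q)
        rw [List.length_append, low (le_refl _) hR1, high hb0 hL1 hR1 hR2 (Nat.lt_succ_self _),
          drop_add, List.take_append_of_le_length (Nat.mod_le _ _)] at this
        show ((P ++ Q).map f).prod = _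
        rw [this]
        show ph _ * _ * ph _ = _
        rw [hL2, hR3]
      have e2 : wt (P ++ Q) = wl k + e (lv k) (blk f b (lv k) (P ++ Q)) + wr k := by
        show ∑ j ∈ range m, e j (blk f b j (P ++ Q)) = _
        rw [sum_split _ (hlv k), ← hL3, ← hR4]
        congr 1
        · congr 1
          refine Finset.sum_congr rfl fun j hj => ?_
          rw [blk_left f b (Finset.mem_range.1 hj) hR1]
        · refine Finset.sum_congr rfl fun j hj => ?_
          rw [blk_right f b hb0 hL1 hR1 hR2 (Finset.mem_Ico.1 hj).1]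
      show bb k = act (vv k) (ph (P ++ Q)) + nu (P ++ Q)
      rw [hnu, e1, e2, add_comm, hgood]
    · have hnu0 : nu (P ++ Q) = NU ((P ++ Q).length % M) (ph (P ++ Q)) (wt (P ++ Q)) := rfl
      have hex : ∃ cc : Fin nc × Fin nc, ∃ t t', (t + t') % M = (P ++ Q).length % M ∧
          nmL t = some cc.1 ∧ nmR t' = some cc.2 :=
        ⟨(k, k'), P.length, Q.length, by rw [List.length_append], hk, hk'⟩
      have hnu : nu (P ++ Q) = bb hex.choose.2 - act (vv hex.choose.1) (ph (P ++ Q)) := by
        rw [hnu0]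
        simp only [NU]
        rw [if_neg (fun h => hd ((hdvd _).2 h)), dif_pos hex]
      obtain ⟨t, t', ht, htL, htR⟩ := hex.choose_spec
      push Not at hd
      obtain ⟨q, hq, hqd⟩ := hd
      rw [List.length_append] at ht hqd
      -- make the totals equal
      have hcol : eV (vv k, bb k) = eV (vv hex.choose.1, bb hex.choose.1) ∧
          eV (vv k', bb k') = eV (vv hex.choose.2, bb hex.choose.2) := by
        have a1 := Nat.mod_add_div (t + t') M
        have a2 := Nat.mod_add_div (P.length + Q.length) M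
        refine n3 P.length (Q.length + M * ((t + t') / M)) t
          (t' + M * ((P.length + Q.length) / M)) k k' hex.choose.1 hex.choose.2 hk ?_ htL ?_ ?_ ?_
        · rw [← hk']
          exact per_modEq hpR (Nat.add_mul_mod_self_left _ _ _)
        · rw [← htR]
          exact per_modEq hpR (Nat.add_mul_mod_self_left _ _ _)
        · omega
        · refine ⟨q, hq, ?_⟩
          rw [← Nat.add_assoc]
          exact Nat.dvd_add hqd (Dvd.dvd.mul_right (hMs q hq).2.2 _)
      have c1 := congrArg Prod.fst (eV.injective hcol.1)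
      have c2 := congrArg Prod.snd (eV.injective hcol.2)
      simp only at c1 c2
      show bb k' = act (vv k) (ph (P ++ Q)) + nu (P ++ Q)
      rw [hnu, c1, c2, add_sub_cancel]
  · intro X hX hdig v
    obtain ⟨i, hi, hFi⟩ := hF (ph X) (wt X) v
    set n := X.length with hn
    set β := n % b ^ i with hβ
    have hbi : 0 < b ^ i := pow_pos hb0 i
    -- the context
    let g : S := ph (X.take β)
    let h : S := ph (X.drop (n % b ^ (i + 1)))
    let wl0 : ZMod N × ZMod N := ∑ j ∈ range i, e j (blk f b j X)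
    let wr0 : ZMod N × ZMod N := ∑ j ∈ Ico (i + 1) m, e j (blk f b j X)
    have hw : wt X = wl0 + e i (blk f b i X) + wr0 := sum_split _ hi
    have hs : g * blk f b i X * h = ph X := (ph_blk f b i X).symm
    have hG0 : ∀ z : S, F (g * z * h) (wl0 + e i z + wr0) + act v (g * z * h)
        = F (ph X) (wt X) + act v (ph X) := by
      intro z
      have := hFi g _ h hs z
      rwa [hw, show wl0 + e i (blk f b i X) + wr0 - e i (blk f b i X) + e i z
        = wl0 + e i z + wr0 by abel, ← hw] at this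
    have hG : Good (⟨i, hi⟩, g, wl0, h, wr0, v) := fun z => (hG0 z).trans (hG0 1).symm
    let k : Fin nc := eN ⟨(⟨i, hi⟩, g, wl0, h, wr0, v), hG⟩
    have hk : eN.symm k = ⟨(⟨i, hi⟩, g, wl0, h, wr0, v), hG⟩ := eN.symm_apply_apply _
    have hk1 : lv k = i := by show ((eN.symm k).1.1 : ℕ) = i; rw [hk]
    have hk2 : gg k = g := by show (eN.symm k).1.2.1 = g; rw [hk]
    have hk3 : wl k = wl0 := by show (eN.symm k).1.2.2.1 = wl0; rw [hk]
    have hk4 : hh k = h := by show (eN.symm k).1.2.2.2.1 = h; rw [hk]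
    have hk5 : wr k = wr0 := by show (eN.symm k).1.2.2.2.2.1 = wr0; rw [hk]
    have hk6 : vv k = v := by show (eN.symm k).1.2.2.2.2.2 = v; rw [hk]
    obtain ⟨t, htM, htL, htR⟩ := n2 n hX k
    -- the digit
    obtain ⟨hd1, hd2⟩ := hdig i hi
    set d := n / b ^ i % b with hd
    obtain ⟨y0, hy0, hy1, hy2⟩ : ∃ y0, (∀ y, y0 ≤ y → y < y0 + M → y ≤ d) ∧
        (∀ y, y0 ≤ y → y < y0 + M → 2 * y < b) ∧
        (∀ y, y0 ≤ y → y < y0 + M → 2 * (d - y) < b) := by
      by_cases hdb : 2 * d < b
      · exact ⟨0, fun y _ _ => by omega, fun y _ _ => by omega, fun y _ _ => by omega⟩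
      · refine ⟨(2 * d - b) / 2 + 1, fun y _ _ => by omega, fun y _ _ => by omega,
          fun y _ _ => by omega⟩
    obtain ⟨y, hya, hyb, hyc⟩ := solve hM (Nat.Coprime.pow_left i hco) β t y0
    have hyd := hy0 y hya hyb
    have hy2b := hy1 y hya hyb
    have hydb := hy2 y hya hyb
    set o := β + b ^ i * y with ho
    have hβlt : β < b ^ i := Nat.mod_lt _ hbi
    have hod : o / b ^ i = y := by
      rw [ho, Nat.add_mul_div_left _ _ hbi, Nat.div_eq_of_lt hβlt, zero_add]
    have hom : o % b ^ i = β := by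
      rw [ho, Nat.add_mul_mod_self_left, Nat.mod_eq_of_lt hβlt]
    have hnn : β + b ^ i * (n / b ^ i) = n := Nat.mod_add_div n (b ^ i)
    have hyn : y ≤ n / b ^ i := le_trans hyd (Nat.mod_le _ _)
    have hon : o ≤ n := by
      rw [ho, ← hnn]
      exact Nat.add_le_add_left (Nat.mul_le_mul_left _ hyn) _
    have hno : n - o = b ^ i * (n / b ^ i - y) := by
      rw [Nat.mul_sub]
      omega
    have hlP : (X.take o).length = o := by rw [List.length_take]; omega
    have hlQ : (X.drop o).length = n - o := by rw [List.length_drop]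
    have hPQ : X.take o ++ X.drop o = X := List.take_append_drop _ _
    have hdvdQ : b ^ i ∣ (X.drop o).length := by rw [hlQ, hno]; exact Dvd.intro _ rfl
    have hLd : 2 * ((X.take o).length / b ^ i) < b := by rw [hlP, hod]; exact hy2b
    have hQd : (X.drop o).length / b ^ i % b = d - y := by
      rw [hlQ, hno, Nat.mul_div_cancel_left _ hbi]
      have h1 := Nat.mod_add_div (n / b ^ i) b
      have h2 : n / b ^ i - y = (d - y) + b * (n / b ^ i / b) := by omega
      rw [h2, Nat.add_mul_mod_self_left, Nat.mod_eq_of_lt]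
      have : d < b := Nat.mod_lt _ hb0
      omega
    have hRd : 2 * ((X.drop o).length / b ^ i % b) < b := by rw [hQd]; exact hydb
    refine ⟨X.take o, X.drop o, hPQ, ?_, ?_⟩
    · have hnm : nmL (X.take o).length = some k := by
        rw [hlP, ← htL]; exact per_modEq hpL hyc
      have hLC : LC k (X.take o) := by
        refine ⟨?_, ?_, ?_, ?_⟩
        · rw [hk1, hlP, pow_succ]
          have : y + 1 ≤ b := by omega
          calc o < b ^ i + b ^ i * y := by rw [ho]; omega
            _ = b ^ i * (y + 1) := by ring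
            _ ≤ b ^ i * b := Nat.mul_le_mul_left _ this
        · rw [hk1]; exact hLd
        · rw [hk1, hk2, hlP, hom, List.take_take, min_eq_left]
          rw [ho]; exact Nat.le_add_right _ _
        · rw [hk1, hk3]
          refine Finset.sum_congr rfl fun j hj => ?_
          rw [← blk_left f b (Finset.mem_range.1 hj) hdvdQ, hPQ]
      show (nmL (X.take o).length).bind _ = some v
      rw [hnm]
      show (if LC k (X.take o) then some (vv k) else none) = some v
      rw [if_pos hLC, hk6]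
    · have hnm : nmR (X.drop o).length = some k := by
        apply htR
        have h1 : (t + (n - o)) % M = (o + (n - o)) % M := by
          rw [Nat.add_mod, ← hyc, ← Nat.add_mod]
        show (t + (X.drop o).length) % M = n % M
        rw [hlQ, h1, Nat.add_sub_cancel' hon]
      have hRC : RC k (X.drop o) := by
        refine ⟨?_, ?_, ?_, ?_⟩
        · rw [hk1]; exact hdvdQ
        · rw [hk1]; exact hRd
        · rw [hk1, hk4]
          show _ = ph (X.drop (n % b ^ (i + 1)))
          have h1 : n % b ^ (i + 1) = (X.take o).length + (X.drop o).length % b ^ (i + 1) := by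
            rw [← high hb0 hLd hdvdQ hRd (Nat.lt_succ_self _), ← List.length_append, hPQ]
          have h2 := drop_add (X.take o) (X.drop o) ((X.drop o).length % b ^ (i + 1))
          rw [hPQ] at h2
          rw [h1, h2]
        · rw [hk1, hk5]
          refine Finset.sum_congr rfl fun j hj => ?_
          rw [← blk_right f b hb0 hLd hdvdQ hRd (Finset.mem_Ico.1 hj).1, hPQ]
      show ((nmR (X.drop o).length).bind _).isSome
      rw [hnm]
      show (if RC k (X.drop o) then some (bb k) else none).isSome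
      rw [if_pos hRC]; rfl
  · intro Q Q' hQ hQ' htake hlen hprod
    have hmodM : Q.length % M = Q'.length % M := by
      rw [← Nat.mod_mul_right_mod Q.length M (b ^ m), hlen, Nat.mod_mul_right_mod]
    have hmodb : ∀ j ≤ m, Q.length % b ^ j = Q'.length % b ^ j := by
      intro j hj
      have hjd : b ^ j ∣ M * b ^ m := Dvd.dvd.mul_left (pow_dvd_pow b hj) _
      rw [← Nat.mod_mod_of_dvd _ hjd, hlen, Nat.mod_mod_of_dvd _ hjd]
    have hdrop : ∀ a ≤ b ^ m, ph (Q.drop a) = ph (Q'.drop a) := by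
      intro a ha
      have key : ∀ Z : List A, ph (Z.drop a) = ph ((Z.take (b ^ m)).drop a) * ph (Z.drop (b ^ m)) := by
        intro Z
        show ((Z.drop a).map f).prod = (((Z.take (b ^ m)).drop a).map f).prod *
          ((Z.drop (b ^ m)).map f).prod
        rw [← List.prod_append, ← List.map_append]
        congr 2
        rw [List.drop_take]
        have : Z.drop (b ^ m) = (Z.drop a).drop (b ^ m - a) := by
          rw [List.drop_drop]; congr 1; omega
        rw [this, List.take_append_drop]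
      rw [key Q, key Q', htake]
      show _ * ((Q.drop (b ^ m)).map f).prod = _ * ((Q'.drop (b ^ m)).map f).prod
      rw [hprod]
    have hblk : ∀ j < m, blk f b j Q = blk f b j Q' := fun j hj =>
      blk_local f b hb0 hj htake hmodb
    constructor
    · show (nmR Q.length).bind _ = (nmR Q'.length).bind _
      rw [per_modEq hpR hmodM]
      congr 1
      funext k
      have hRC : RC k Q ↔ RC k Q' := by
        have hk := hlv k
        have h1 : (b ^ lv k ∣ Q.length) ↔ (b ^ lv k ∣ Q'.length) := by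
          rw [Nat.dvd_iff_mod_eq_zero, Nat.dvd_iff_mod_eq_zero, hmodb _ hk.le]
        have h2 : Q.length / b ^ lv k % b = Q'.length / b ^ lv k % b := by
          have h3 := hmodb (lv k + 1) hk
          rw [Nat.mod_pow_succ, Nat.mod_pow_succ, hmodb _ hk.le] at h3
          exact Nat.eq_of_mul_eq_mul_left (pow_pos hb0 _) (Nat.add_left_cancel h3)
        have h4 : ph (Q.drop (Q.length % b ^ (lv k + 1))) =
            ph (Q'.drop (Q'.length % b ^ (lv k + 1))) := by
          rw [hmodb (lv k + 1) hk]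
          apply hdrop
          exact le_trans (Nat.mod_lt _ (pow_pos hb0 _)).le (Nat.pow_le_pow_right hb0 hk)
        have h5 : ∑ j ∈ Ico (lv k + 1) m, e j (blk f b j Q) =
            ∑ j ∈ Ico (lv k + 1) m, e j (blk f b j Q') :=
          Finset.sum_congr rfl fun j hj => by rw [hblk j (Finset.mem_Ico.1 hj).2]
        show (_ ∧ _ ∧ _ ∧ _) ↔ (_ ∧ _ ∧ _ ∧ _)
        rw [h1, h2, h4, h5]
      by_cases hc : RC k Q
      · rw [if_pos hc, if_pos (hRC.1 hc)]
      · rw [if_neg hc, if_neg (fun h => hc (hRC.2 h))]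
    · show NU (Q.length % M) (ph Q) (wt Q) = NU (Q'.length % M) (ph Q') (wt Q')
      have h1 : ph Q = ph Q' := by
        have := hdrop 0 (Nat.zero_le _)
        simpa using this
      have h2 : wt Q = wt Q' := Finset.sum_congr rfl fun j hj => by
        rw [hblk j (Finset.mem_range.1 hj)]
      rw [hmodM, h1, h2]

/-- The literal of lead #13673. -/
theorem g1 (S V : Type) [Monoid S] [Finite S] [AddCommGroup V] [Finite V] (act : V → S → V) :
    ∃ m r : ℕ, ∀ Bd : ℕ, ∃ (Ms : Finset ℕ) (M : ℕ), Ms.card ≤ r ∧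
      (∀ k ∈ Ms, Bd < k ∧ k.Prime ∧ k ∣ M) ∧ 0 < M ∧
      ∀ b : ℕ, 4 * M + 4 < b → Nat.Coprime b M → ∀ (A : Type) (f : A → S),
      ∃ (lam rho : List A → Option V) (nu : List A → V),
        (∀ P v, lam P = some v → P.length < b ^ m) ∧
        (∀ P Q v v', lam P = some v → rho Q = some v' →
          v' = act v ((P ++ Q).map f).prod + nu (P ++ Q)) ∧
        (∀ X, (∀ k ∈ Ms, ¬ k ∣ X.length) →
          (∀ j < m, M ≤ X.length / b ^ j % b ∧ X.length / b ^ j % b + M + 1 ≤ b) →
          ∀ v, ∃ P Q, P ++ Q = X ∧ lam P = some v ∧ (rho Q).isSome) ∧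
        (∀ Q Q', b ^ m ≤ Q.length → b ^ m ≤ Q'.length → Q.take (b ^ m) = Q'.take (b ^ m) →
          Q.length % (M * b ^ m) = Q'.length % (M * b ^ m) →
          ((Q.drop (b ^ m)).map f).prod = ((Q'.drop (b ^ m)).map f).prod →
          rho Q = rho Q' ∧ nu Q = nu Q') := by
  obtain ⟨m, r, -, h⟩ := g1u.{0, 0, 0} S V act
  exact ⟨m, r, h⟩

end Crest.Agent.R320.G1_96

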