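import Crest.Agent.R320.Exact_136
import Crest.Agent.R320.Names_755

/-!
# Row 320: scheme 1 gadget on all words (852 #13483 (G1)), helper960

Levels = positional digits of the length in base `b`, names = CRT (755), noise = 237 / 136.
-/

set_option autoImplicit false

namespace Crest.Agent.R320.G1_960

open List

universe u v w

section arith

theorem mod_pow_mono {b : ℕ} (hb : 0 < b) (n : ℕ) {i j : ℕ} (h : i ≤ j) :
    n % b ^ i ≤ n % b ^ j := by
  have h1 : n % b ^ i = (n % b ^ j) % b ^ i := (Nat.mod_mod_of_dvd n (pow_dvd_pow b h)).symm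
  rw [h1]
  exact Nat.mod_le _ _

theorem left_mod {b o o' i j : ℕ} (hd : b ^ i ∣ o') (hj : j ≤ i) :
    (o + o') % b ^ j = o % b ^ j := by
  obtain ⟨k, rfl⟩ := (pow_dvd_pow b hj).trans hd
  rw [Nat.add_mul_mod_self_left]

theorem right_mod {b o o' i j : ℕ} (hb : 0 < b) (hd : b ^ i ∣ o') (ho : o < b ^ (i + 1))
    (h1 : 2 * (o / b ^ i) < b) (h2 : 2 * ((o' / b ^ i) % b) < b) (hj : i < j) :
    (o + o') % b ^ j = o + o' % b ^ j := by
  have hbi : 0 < b ^ i := Nat.pow_pos hb
  obtain ⟨q, rfl⟩ := hd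
  rw [Nat.mul_div_cancel_left _ hbi] at h2
  -- o + b^i * q, with q % b small
  have hj' : b ^ j = b ^ i * b * b ^ (j - i - 1) := by
    rw [← pow_succ, ← pow_add]; congr 1; omega
  set c := b ^ (j - i - 1) with hc
  have hcpos : 0 < c := Nat.pow_pos hb
  have e1 : (b ^ i * q) % b ^ j = b ^ i * (q % (b * c)) := by
    rw [hj', mul_assoc, Nat.mul_mod_mul_left]
  have hlt : o + b ^ i * (q % (b * c)) < b ^ j := by
    have h3 : q % (b * c) = q % b + b * (q / b % c) := Nat.mod_mul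
    have h4 : q / b % c < c := Nat.mod_lt _ hcpos
    have h5 : o / b ^ i + q % b < b := by omega
    have h6 : o < b ^ i * (o / b ^ i + 1) := by
      have := Nat.div_add_mod o (b ^ i)
      have h7 := Nat.mod_lt o hbi
      rw [mul_add, mul_one]; omega
    have h8 : o + b ^ i * (q % (b * c)) < b ^ i * (o / b ^ i + 1 + q % (b * c)) := by
      rw [mul_add]; omega
    have h9 : o / b ^ i + 1 + q % (b * c) ≤ b * c := by
      rw [h3]
      have : b * (q / b % c) + b ≤ b * c := by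
        calc b * (q / b % c) + b = b * (q / b % c + 1) := by ring
          _ ≤ b * c := Nat.mul_le_mul_left _ h4
      omega
    calc o + b ^ i * (q % (b * c)) < b ^ i * (o / b ^ i + 1 + q % (b * c)) := h8
      _ ≤ b ^ i * (b * c) := Nat.mul_le_mul_left _ h9
      _ = b ^ j := by rw [hj', mul_assoc]
  rw [Nat.add_mod, e1]
  have ho' : o % b ^ j = o := Nat.mod_eq_of_lt (lt_of_lt_of_le ho (Nat.pow_le_pow_right hb hj))
  rw [ho']
  exact Nat.mod_eq_of_lt hlt

/-- a residue in a window of length `M` -/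
theorem window (M : ℕ) (hM : 0 < M) (y0 lo : ℕ) : ∃ y, lo ≤ y ∧ y < lo + M ∧ y ≡ y0 [MOD M] := by
  refine ⟨lo + (y0 + (M * lo - lo)) % M, by omega, ?_, ?_⟩
  · have := Nat.mod_lt (y0 + (M * lo - lo)) hM
    omega
  · have h1 : lo ≤ M * lo := Nat.le_mul_of_pos_left lo hM
    have h2 : lo + (y0 + (M * lo - lo)) % M ≡ lo + (y0 + (M * lo - lo)) [MOD M] :=
      Nat.ModEq.add_left _ (Nat.mod_modEq _ _)
    refine h2.trans ?_
    have h3 : lo + (y0 + (M * lo - lo)) = y0 + M * lo := by omega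
    rw [h3]
    show (y0 + M * lo) % M = y0 % M
    rw [Nat.add_mul_mod_self_left]

theorem solve (M : ℕ) (hM : 0 < M) (B : ℕ) (hB : Nat.Coprime B M) (be t lo : ℕ) :
    ∃ y, lo ≤ y ∧ y < lo + M ∧ be + B * y ≡ t [MOD M] := by
  -- inverse of B
  obtain ⟨x, hx⟩ : ∃ x, B * x ≡ 1 [MOD M] := by
    rcases Nat.lt_or_ge 1 M with h1 | h1
    · obtain ⟨x, hx⟩ := Nat.exists_mul_mod_eq_one_of_coprime hB h1
      refine ⟨x, ?_⟩
      show (B * x) % M = 1 % M
      rw [hx.2, Nat.mod_eq_of_lt h1]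
    · have : M = 1 := by omega
      subst this
      exact ⟨0, Nat.modEq_one⟩
  obtain ⟨y, h1, h2, h3⟩ := window M hM (x * (t + (M * be - be))) lo
  refine ⟨y, h1, h2, ?_⟩
  have hbe : be ≤ M * be := Nat.le_mul_of_pos_left be hM
  calc be + B * y ≡ be + B * (x * (t + (M * be - be))) [MOD M] :=
        Nat.ModEq.add_left _ (Nat.ModEq.mul_left _ h3)
    _ = be + (B * x) * (t + (M * be - be)) := by ring
    _ ≡ be + 1 * (t + (M * be - be)) [MOD M] := Nat.ModEq.add_left _ (Nat.ModEq.mul_right _ hx)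
    _ = t + M * be := by omega
    _ ≡ t [MOD M] := by
        show (t + M * be) % M = t % M
        rw [Nat.add_mul_mod_self_left]

end arith

section words

variable {A : Type w} {S : Type u} [Monoid S]

/-- value of a word -/
def ph (f : A → S) (X : List A) : S := (X.map f).prod

theorem ph_append (f : A → S) (X Y : List A) : ph f (X ++ Y) = ph f X * ph f Y := by
  simp [ph]

def seg (X : List A) (x y : ℕ) : List A := (X.take y).drop x

theorem seg_left (P Q : List A) {x y : ℕ} (h : y ≤ P.length) : seg (P ++ Q) x y = seg P x y := by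
  simp [seg, List.take_append_of_le_length h]

theorem seg_right (P Q : List A) (x y : ℕ) :
    seg (P ++ Q) (P.length + x) (P.length + y) = seg Q x y := by
  simp [seg, List.take_append, List.drop_append]

theorem split3 (f : A → S) (X : List A) {x y : ℕ} (h : x ≤ y) :
    ph f X = ph f (X.take x) * ph f (seg X x y) * ph f (X.drop y) := by
  rw [← ph_append, ← ph_append]
  congr 1
  have h1 : X.take x ++ seg X x y = X.take y := by
    have : X.take x = (X.take y).take x := by rw [List.take_take, min_eq_left h]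
    rw [this, seg, List.take_append_drop]
  rw [h1, List.take_append_drop]

/-- type of block `j` -/
def bl (f : A → S) (b : ℕ) (X : List A) (j : ℕ) : S :=
  ph f (seg X (X.length % b ^ j) (X.length % b ^ (j + 1)))

end words

section names

theorem names_u (N : Type u) (C : Type v) [Finite N] [Finite C] (col : N → C) :
    ∃ r : ℕ, ∀ B : ℕ, ∃ (Ms : Finset ℕ) (M : ℕ) (nmL nmR : ℕ → Option N),
      Ms.card ≤ r ∧ (∀ k ∈ Ms, B < k ∧ Nat.Prime k ∧ k ∣ M) ∧ 0 < M ∧
      (∀ t, nmL (t + M) = nmL t) ∧ (∀ t, nmR (t + M) = nmR t) ∧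
      (∀ t t' c c', nmL t = some c → nmR t' = some c' → (∀ k ∈ Ms, ¬ k ∣ t + t') → c = c') ∧
      (∀ T, (∀ k ∈ Ms, ¬ k ∣ T) → ∀ c, ∃ t < M, nmL t = some c ∧
        ∀ t', t + t' ≡ T [MOD M] → nmR t' = some c) ∧
      (∀ t₁ t₁' t₂ t₂' c₁ c₁' c₂ c₂', nmL t₁ = some c₁ → nmR t₁' = some c₁' →
        nmL t₂ = some c₂ → nmR t₂' = some c₂' → t₁ + t₁' = t₂ + t₂' →
        (∃ k ∈ Ms, k ∣ t₁ + t₁') → col c₁ = col c₂ ∧ col c₁' = col c₂') := by
  obtain ⟨nN, ⟨eN⟩⟩ := Finite.exists_equiv_fin N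
  obtain ⟨nC, ⟨eC⟩⟩ := Finite.exists_equiv_fin C
  obtain ⟨r, hr⟩ := Crest.Agent.R320.Names755.names (Fin nN) (Fin nC) (fun x => eC (col (eN.symm x)))
  refine ⟨r, fun B => ?_⟩
  obtain ⟨Ms, M, nmL, nmR, h1, h2, h3, h4, h5, h6, h7, h8⟩ := hr B
  refine ⟨Ms, M, fun t => (nmL t).map eN.symm, fun t => (nmR t).map eN.symm, h1, h2, h3,
    fun t => by simp only [h4], fun t => by simp only [h5], ?_, ?_, ?_⟩
  · intro t t' c c' hc hc' hk
    simp only [Option.map_eq_some_iff] at hc hc'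
    obtain ⟨a, ha, rfl⟩ := hc
    obtain ⟨a', ha', rfl⟩ := hc'
    rw [h6 t t' a a' ha ha' hk]
  · intro T hT c
    obtain ⟨t, ht, h, h'⟩ := h7 T hT (eN c)
    exact ⟨t, ht, by show (nmL t).map eN.symm = some c; rw [h]; simp, fun t' ht' => by
      show (nmR t').map eN.symm = some c; rw [h' t' ht']; simp⟩
  · intro t₁ t₁' t₂ t₂' c₁ c₁' c₂ c₂' a1 a2 a3 a4 e hk
    simp only [Option.map_eq_some_iff] at a1 a2 a3 a4
    obtain ⟨x1, b1, rfl⟩ := a1
    obtain ⟨x2, b2, rfl⟩ := a2
    obtain ⟨x3, b3, rfl⟩ := a3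
    obtain ⟨x4, b4, rfl⟩ := a4
    have := h8 t₁ t₁' t₂ t₂' x1 x2 x3 x4 b1 b2 b3 b4 e hk
    exact ⟨eC.injective this.1, eC.injective this.2⟩

theorem per_mul {X : Type u} {g : ℕ → X} {M : ℕ} (h : ∀ t, g (t + M) = g t) (t a : ℕ) :
    g (t + M * a) = g t := by
  induction a with
  | zero => simp
  | succ a ih => rw [Nat.mul_succ, ← Nat.add_assoc, h, ih]

theorem per_mod {X : Type u} {g : ℕ → X} {M : ℕ} (h : ∀ t, g (t + M) = g t) {t t' : ℕ}
    (e : t % M = t' % M) : g t = g t' := by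
  rw [← Nat.mod_add_div t M, ← Nat.mod_add_div t' M, per_mul h, per_mul h, e]

end names

/-- contexts -/
structure Cx (m : ℕ) (S : Type u) (W : Type v) (V : Type w) where
  i : Fin m
  g : S
  wl : W
  h : S
  wr : W
  v : V

theorem finite_cx (m : ℕ) (S : Type u) (W : Type v) (V : Type w) [Finite S] [Finite W] [Finite V] :
    Finite (Cx m S W V) :=
  Finite.of_injective (fun c : Cx m S W V => (c.i, c.g, c.wl, c.h, c.wr, c.v)) (by
    rintro ⟨⟩ ⟨⟩ h
    simp only [Prod.mk.injEq] at h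
    obtain ⟨rfl, rfl, rfl, rfl, rfl, rfl⟩ := h
    rfl)

section gad

universe x

variable {A : Type x} {S : Type u} {W : Type v} {V : Type w} [Monoid S] [AddCommGroup V]
  [AddCommGroup W] {m : ℕ} (e : Fin m → S → W) (F : S → W → V) (act : V → S → V)

/-- label of the context with middle type `z` -/
def vl (c : Cx m S W V) (z : S) : V :=
  F (c.g * z * c.h) (c.wl + e c.i z + c.wr) + act c.v (c.g * z * c.h)

def Good (c : Cx m S W V) : Prop := ∀ z z' : S, vl e F act c z = vl e F act c z'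

def wL (f : A → S) (b : ℕ) (X : List A) (i : Fin m) : W :=
  ∑ j : Fin m, if (j : ℕ) < i then e j (bl f b X j) else 0

def wR (f : A → S) (b : ℕ) (X : List A) (i : Fin m) : W :=
  ∑ j : Fin m, if (i : ℕ) < j then e j (bl f b X j) else 0

def wT (f : A → S) (b : ℕ) (X : List A) : W := ∑ j : Fin m, e j (bl f b X j)

theorem wT_split (f : A → S) (b : ℕ) (X : List A) (i : Fin m) :
    wT e f b X = wL e f b X i + e i (bl f b X i) + wR e f b X i := by
  have h : e i (bl f b X i) = ∑ j : Fin m, if j = i then e j (bl f b X j) else 0 := by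
    simp
  rw [h, wL, wR, wT, ← Finset.sum_add_distrib, ← Finset.sum_add_distrib]
  refine Finset.sum_congr rfl fun j _ => ?_
  rcases lt_trichotomy (j : ℕ) (i : ℕ) with h | h | h
  · rw [if_pos h, if_neg (fun h' => by rw [h'] at h; exact lt_irrefl _ h), if_neg (by omega)]
    simp
  · rw [if_neg (by omega), if_pos (Fin.ext h), if_neg (by omega)]
    simp
  · rw [if_neg (by omega), if_neg (fun h' => by rw [h'] at h; exact lt_irrefl _ h), if_pos h]
    simp

def LOK (f : A → S) (b : ℕ) (P : List A) (c : Cx m S W V) : Prop :=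
  P.length < b ^ ((c.i : ℕ) + 1) ∧ 2 * (P.length / b ^ (c.i : ℕ)) < b ∧
    ph f (P.take (P.length % b ^ (c.i : ℕ))) = c.g ∧ wL e f b P c.i = c.wl

def ROK (f : A → S) (b : ℕ) (Q : List A) (c : Cx m S W V) : Prop :=
  b ^ (c.i : ℕ) ∣ Q.length ∧ 2 * ((Q.length / b ^ (c.i : ℕ)) % b) < b ∧
    ph f (Q.drop (Q.length % b ^ ((c.i : ℕ) + 1))) = c.h ∧ wR e f b Q c.i = c.wr

theorem wL_eq (f : A → S) {b : ℕ} {P Q : List A} (i : Fin m) (hd : b ^ (i : ℕ) ∣ Q.length) :
    wL e f b (P ++ Q) i = wL e f b P i := by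
  refine Finset.sum_congr rfl fun j _ => ?_
  split_ifs with h
  · congr 1
    rw [bl, bl, List.length_append, left_mod hd h.le, left_mod hd (Nat.succ_le_of_lt h),
      seg_left _ _ (Nat.mod_le _ _)]
  · rfl

theorem wR_eq (f : A → S) {b : ℕ} (hb : 0 < b) {P Q : List A} (i : Fin m)
    (hd : b ^ (i : ℕ) ∣ Q.length) (ho : P.length < b ^ ((i : ℕ) + 1))
    (h1 : 2 * (P.length / b ^ (i : ℕ)) < b) (h2 : 2 * ((Q.length / b ^ (i : ℕ)) % b) < b) :
    wR e f b (P ++ Q) i = wR e f b Q i := by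
  refine Finset.sum_congr rfl fun j _ => ?_
  split_ifs with h
  · congr 1
    rw [bl, bl, List.length_append, right_mod hb hd ho h1 h2 h,
      right_mod hb hd ho h1 h2 (Nat.lt_succ_of_lt h), seg_right]
  · rfl

theorem e1 (f : A → S) {b : ℕ} {P Q : List A} (i : ℕ) (r1 : b ^ i ∣ Q.length) :
    ph f (P.take (P.length % b ^ i)) = ph f ((P ++ Q).take ((P ++ Q).length % b ^ i)) := by
  rw [List.length_append, left_mod r1 le_rfl, List.take_append_of_le_length (Nat.mod_le _ _)]

theorem e2 (f : A → S) {b : ℕ} (hb : 0 < b) {P Q : List A} (i : ℕ)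
    (hd : b ^ i ∣ Q.length) (ho : P.length < b ^ (i + 1))
    (h1 : 2 * (P.length / b ^ i) < b) (h2 : 2 * ((Q.length / b ^ i) % b) < b) :
    ph f (Q.drop (Q.length % b ^ (i + 1))) =
      ph f ((P ++ Q).drop ((P ++ Q).length % b ^ (i + 1))) := by
  rw [List.length_append, right_mod hb hd ho h1 h2 (Nat.lt_succ_self _), ← List.drop_drop,
    List.drop_left]

theorem agree (f : A → S) {b : ℕ} (hb : 0 < b) {P Q : List A} {c : Cx m S W V}
    (hL : LOK e f b P c) (hR : ROK e f b Q c) :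
    ph f (P ++ Q) = c.g * bl f b (P ++ Q) c.i * c.h ∧
      wT e f b (P ++ Q) = c.wl + e c.i (bl f b (P ++ Q) c.i) + c.wr := by
  obtain ⟨l1, l2, l3, l4⟩ := hL
  obtain ⟨r1, r2, r3, r4⟩ := hR
  constructor
  · rw [split3 f (P ++ Q) (mod_pow_mono hb (P ++ Q).length (Nat.le_succ (c.i : ℕ))), ← l3, ← r3]
    have e1 : (P ++ Q).take ((P ++ Q).length % b ^ (c.i : ℕ)) =
        P.take (P.length % b ^ (c.i : ℕ)) := by
      rw [List.length_append, left_mod r1 le_rfl,
        List.take_append_of_le_length (Nat.mod_le _ _)]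
    have e2 : (P ++ Q).drop ((P ++ Q).length % b ^ ((c.i : ℕ) + 1)) =
        Q.drop (Q.length % b ^ ((c.i : ℕ) + 1)) := by
      rw [List.length_append, right_mod hb r1 l1 l2 r2 (Nat.lt_succ_self _)]
      simp [List.drop_append]
    rw [Nat.succ_eq_add_one, e1, e2]
    rfl
  · rw [wT_split e f b (P ++ Q) c.i, wL_eq e f c.i r1, wR_eq e f hb c.i r1 l1 l2 r2, l4, r4]

abbrev Nm : Type _ := {c : Cx m S W V // Good e F act c}

variable (nmL nmR : ℕ → Option (Nm e F act)) (Ms : Finset ℕ) (M : ℕ)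

/-- label of a good context -/
def val (c : Nm e F act) : V := vl e F act c.1 1

open Classical in
noncomputable def lam (f : A → S) (b : ℕ) (P : List A) : Option V :=
  (nmL P.length).bind fun c => if LOK e f b P c.1 then some c.1.v else none

open Classical in
noncomputable def rho (f : A → S) (b : ℕ) (Q : List A) : Option V :=
  (nmR Q.length).bind fun c => if ROK e f b Q c.1 then some (val e F act c) else none

open Classical in
noncomputable def ch (r : ℕ) : Option (Nm e F act × Nm e F act) :=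
  if h : ∃ cc : Nm e F act × Nm e F act, ∃ t t', nmL t = some cc.1 ∧ nmR t' = some cc.2 ∧
    (t + t') % M = r then some h.choose else none

open Classical in
noncomputable def noise (f : A → S) (b : ℕ) (X : List A) : V :=
  if ∀ k ∈ Ms, ¬ k ∣ X.length then F (ph f X) (wT e f b X) else
    match ch e F act nmL nmR M (X.length % M) with
    | some cc => val e F act cc.2 - act cc.1.1.v (ph f X)
    | none => 0

theorem lam_some {f : A → S} {b : ℕ} {P : List A} {v : V}
    (h : lam e F act nmL f b P = some v) :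
    ∃ c : Nm e F act, nmL P.length = some c ∧ LOK e f b P c.1 ∧ c.1.v = v := by
  unfold lam at h
  rw [Option.bind_eq_some_iff] at h
  obtain ⟨c, hc, h⟩ := h
  split_ifs at h with h'
  exact ⟨c, hc, h', Option.some.inj h⟩

theorem rho_some {f : A → S} {b : ℕ} {Q : List A} {v : V}
    (h : rho e F act nmR f b Q = some v) :
    ∃ c : Nm e F act, nmR Q.length = some c ∧ ROK e f b Q c.1 ∧ val e F act c = v := by
  unfold rho at h
  rw [Option.bind_eq_some_iff] at h
  obtain ⟨c, hc, h⟩ := h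
  split_ifs at h with h'
  exact ⟨c, hc, h', Option.some.inj h⟩

theorem sound (hM : 0 < M) (hk : ∀ k ∈ Ms, k ∣ M)
    (pL : ∀ t, nmL (t + M) = nmL t) (pR : ∀ t, nmR (t + M) = nmR t)
    (ag : ∀ t t' c c', nmL t = some c → nmR t' = some c' → (∀ k ∈ Ms, ¬ k ∣ t + t') → c = c')
    (sw : ∀ t₁ t₁' t₂ t₂' c₁ c₁' c₂ c₂', nmL t₁ = some c₁ → nmR t₁' = some c₁' →
        nmL t₂ = some c₂ → nmR t₂' = some c₂' → t₁ + t₁' = t₂ + t₂' →
        (∃ k ∈ Ms, k ∣ t₁ + t₁') → (c₁.1.v, val e F act c₁) = (c₂.1.v, val e F act c₂) ∧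
          (c₁'.1.v, val e F act c₁') = (c₂'.1.v, val e F act c₂'))
    (f : A → S) {b : ℕ} (hb : 0 < b) (P Q : List A) (v v' : V)
    (h1 : lam e F act nmL f b P = some v) (h2 : rho e F act nmR f b Q = some v') :
    v' = act v (ph f (P ++ Q)) + noise e F act nmL nmR Ms M f b (P ++ Q) := by
  obtain ⟨c, hc, hL, rfl⟩ := lam_some e F act nmL h1
  obtain ⟨c', hc', hR, rfl⟩ := rho_some e F act nmR h2
  unfold noise
  split_ifs with hd
  · rw [List.length_append] at hd
    have := ag _ _ _ _ hc hc' hd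
    subst this
    obtain ⟨a1, a2⟩ := agree e f hb hL hR
    rw [a1, a2, add_comm]
    exact c.2 1 _
  · push Not at hd
    obtain ⟨k, hkM, hkd⟩ := hd
    have hex : ∃ cc : Nm e F act × Nm e F act, ∃ t t', nmL t = some cc.1 ∧ nmR t' = some cc.2 ∧
        (t + t') % M = (P ++ Q).length % M :=
      ⟨(c, c'), P.length, Q.length, hc, hc', by rw [List.length_append]⟩
    have hch : ch e F act nmL nmR M ((P ++ Q).length % M) = some hex.choose := by
      unfold ch
      rw [dif_pos hex]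
    obtain ⟨t, t', ht, ht', he⟩ := hex.choose_spec
    rw [hch]
    rw [List.length_append] at he hkd
    -- equal totals
    obtain ⟨a, a', haa⟩ : ∃ a a', (P.length + M * a) + Q.length = (t + M * a') + t' := by
      refine ⟨(t + t') / M, (P.length + Q.length) / M, ?_⟩
      have e1 := Nat.div_add_mod (t + t') M
      have e2 := Nat.div_add_mod (P.length + Q.length) M
      rw [he] at e1
      omega
    have := sw (P.length + M * a) Q.length (t + M * a') t' c c' _ _
      (by rw [per_mul pL]; exact hc) hc' (by rw [per_mul pL]; exact ht) ht' haa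
      ⟨k, hkM, by
        have : P.length + M * a + Q.length = (P.length + Q.length) + M * a := by ring
        rw [this]
        exact Dvd.dvd.add hkd ((hk k hkM).mul_right a)⟩
    obtain ⟨s1, s2⟩ := this
    simp only [Prod.mk.injEq] at s1 s2
    show val e F act c' = act c.1.v (ph f (P ++ Q)) +
      (val e F act hex.choose.2 - act hex.choose.1.1.v (ph f (P ++ Q)))
    rw [s2.2, s1.1]
    abel

theorem complete (hM : 0 < M) (pL : ∀ t, nmL (t + M) = nmL t)
    (av : ∀ T, (∀ k ∈ Ms, ¬ k ∣ T) → ∀ c, ∃ t < M, nmL t = some c ∧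
        ∀ t', t + t' ≡ T [MOD M] → nmR t' = some c)
    (hF : ∀ (s : S) (w : W) (v : V), ∃ i : Fin m, ∀ g x h : S, g * x * h = s →
      ∀ z : S, F (g * z * h) (w - e i x + e i z) + act v (g * z * h) = F s w + act v s)
    (f : A → S) {b : ℕ} (hb : 4 * M + 4 < b) (hcop : Nat.Coprime b M) (X : List A)
    (hX : ∀ k ∈ Ms, ¬ k ∣ X.length)
    (hdig : ∀ j < m, M ≤ X.length / b ^ j % b ∧ X.length / b ^ j % b + M + 1 ≤ b) (v : V) :
    ∃ P Q, P ++ Q = X ∧ lam e F act nmL f b P = some v ∧ (rho e F act nmR f b Q).isSome := by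
  classical
  have hb0 : 0 < b := by omega
  obtain ⟨i, hi⟩ := hF (ph f X) (wT e f b X) v
  set n := X.length with hn
  have hs : ph f X = ph f (X.take (n % b ^ (i : ℕ))) * bl f b X i *
      ph f (X.drop (n % b ^ ((i : ℕ) + 1))) :=
    split3 f X (mod_pow_mono hb0 n (Nat.le_succ (i : ℕ)))
  let c : Cx m S W V := ⟨i, ph f (X.take (n % b ^ (i : ℕ))), wL e f b X i,
    ph f (X.drop (n % b ^ ((i : ℕ) + 1))), wR e f b X i, v⟩
  have hw := wT_split e f b X i
  have hgood : Good e F act c := by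
    intro z z'
    have a1 := hi _ _ _ hs.symm z
    have a2 := hi _ _ _ hs.symm z'
    have a3 := a1.trans a2.symm
    have e3 : ∀ z, wT e f b X - e i (bl f b X i) + e i z =
        wL e f b X i + e i z + wR e f b X i := by
      intro z; rw [hw]; abel
    rw [e3, e3] at a3
    exact a3
  obtain ⟨t, ht, hnL, hnR⟩ := av n hX ⟨c, hgood⟩
  obtain ⟨hd1, hd2⟩ := hdig i i.2
  have hbi : 0 < b ^ (i : ℕ) := Nat.pow_pos hb0
  obtain ⟨y, y1, y2, y3⟩ := solve M hM (b ^ (i : ℕ)) (hcop.pow_left i) (n % b ^ (i : ℕ)) t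
    ((2 * (n / b ^ (i : ℕ) % b) + 2 - b) / 2)
  set d := n / b ^ (i : ℕ) % b with hd
  have hyd : y ≤ d := by omega
  have hyn : y ≤ n / b ^ (i : ℕ) := hyd.trans (Nat.mod_le _ _)
  have hdm := Nat.div_add_mod n (b ^ (i : ℕ))
  set q := n / b ^ (i : ℕ) with hq
  set be := n % b ^ (i : ℕ) with hbe
  have hbelt : be < b ^ (i : ℕ) := Nat.mod_lt _ hbi
  have hmul : b ^ (i : ℕ) * y ≤ b ^ (i : ℕ) * q := Nat.mul_le_mul_left _ hyn
  have ho : be + b ^ (i : ℕ) * y ≤ n := by omega
  set P := X.take (be + b ^ (i : ℕ) * y) with hP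
  set Q := X.drop (be + b ^ (i : ℕ) * y) with hQ
  have hPQ : P ++ Q = X := List.take_append_drop _ _
  have lP : P.length = be + b ^ (i : ℕ) * y := by rw [hP, List.length_take]; omega
  have lQ : Q.length = b ^ (i : ℕ) * (q - y) := by
    rw [hQ, List.length_drop, Nat.mul_sub]; omega
  have c1 : b ^ (i : ℕ) ∣ Q.length := by rw [lQ]; exact Dvd.intro _ rfl
  have c2 : P.length / b ^ (i : ℕ) = y := by
    rw [lP, Nat.add_mul_div_left _ _ hbi, Nat.div_eq_of_lt hbelt, zero_add]
  have c3 : P.length < b ^ ((i : ℕ) + 1) := by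
    rw [lP, pow_succ]
    calc be + b ^ (i : ℕ) * y < b ^ (i : ℕ) * (y + 1) := by rw [mul_add, mul_one]; omega
      _ ≤ b ^ (i : ℕ) * b := Nat.mul_le_mul_left _ (by omega)
  have c4 : (Q.length / b ^ (i : ℕ)) % b = d - y := by
    rw [lQ, Nat.mul_div_cancel_left _ hbi]
    have h1 := Nat.div_add_mod q b
    have h2 : q - y = (d - y) + b * (q / b) := by omega
    rw [h2, Nat.add_mul_mod_self_left]
    exact Nat.mod_eq_of_lt (by omega)
  have c5 : 2 * (P.length / b ^ (i : ℕ)) < b := by rw [c2]; omega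
  have c6 : 2 * ((Q.length / b ^ (i : ℕ)) % b) < b := by rw [c4]; omega
  refine ⟨P, Q, hPQ, ?_, ?_⟩
  · have hnm : nmL P.length = some ⟨c, hgood⟩ := by
      rw [← hnL]
      exact per_mod pL (by rw [lP]; exact y3)
    have hL : LOK e f b P c := by
      refine ⟨c3, c5, ?_, ?_⟩
      · show ph f (P.take (P.length % b ^ (i : ℕ))) = ph f (X.take (n % b ^ (i : ℕ)))
        rw [e1 f (i : ℕ) c1, hPQ]
      · show wL e f b P i = wL e f b X i
        rw [← wL_eq e f i c1, hPQ]
    unfold lam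
    rw [hnm, Option.bind_some, if_pos hL]
  · have hnm : nmR Q.length = some ⟨c, hgood⟩ := by
      apply hnR
      have h1 : P.length + Q.length = n := by rw [← List.length_append, hPQ]
      have h2 : t + Q.length ≡ P.length + Q.length [MOD M] :=
        Nat.ModEq.add_right _ (by rw [lP]; exact y3.symm)
      rw [h1] at h2
      exact h2
    have hR : ROK e f b Q c := by
      refine ⟨c1, c6, ?_, ?_⟩
      · show ph f (Q.drop (Q.length % b ^ ((i : ℕ) + 1))) =
          ph f (X.drop (n % b ^ ((i : ℕ) + 1)))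
        rw [e2 f hb0 (i : ℕ) c1 c3 c5 c6, hPQ]
      · show wR e f b Q i = wR e f b X i
        rw [← wR_eq e f hb0 i c1 c3 c5 c6, hPQ]
    unfold rho
    rw [hnm, Option.bind_some, if_pos hR]
    rfl

theorem depend (hk : ∀ k ∈ Ms, k ∣ M) (pR : ∀ t, nmR (t + M) = nmR t)
    (f : A → S) {b : ℕ} (hb : 0 < b) (Q Q' : List A) (h1 : b ^ m ≤ Q.length)
    (h2 : b ^ m ≤ Q'.length) (h3 : Q.take (b ^ m) = Q'.take (b ^ m))
    (h4 : Q.length % (M * b ^ m) = Q'.length % (M * b ^ m))
    (h5 : ph f (Q.drop (b ^ m)) = ph f (Q'.drop (b ^ m))) :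
    rho e F act nmR f b Q = rho e F act nmR f b Q' ∧
      noise e F act nmL nmR Ms M f b Q = noise e F act nmL nmR Ms M f b Q' := by
  classical
  have hM : Q.length % M = Q'.length % M := by
    rw [← Nat.mod_mod_of_dvd Q.length (Dvd.intro (b ^ m) rfl : M ∣ M * b ^ m), h4,
      Nat.mod_mod_of_dvd _ (Dvd.intro (b ^ m) rfl : M ∣ M * b ^ m)]
  have hB : ∀ j ≤ m, Q.length % b ^ j = Q'.length % b ^ j := by
    intro j hj
    have hd : b ^ j ∣ M * b ^ m := (pow_dvd_pow b hj).mul_left M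
    rw [← Nat.mod_mod_of_dvd Q.length hd, h4, Nat.mod_mod_of_dvd _ hd]
  have hle : ∀ (X : List A) (j : ℕ), j ≤ m → X.length % b ^ j ≤ b ^ m := fun X j hj =>
    (Nat.mod_lt _ (Nat.pow_pos hb)).le.trans (Nat.pow_le_pow_right hb hj)
  have hdrop : ∀ (X : List A) (x : ℕ), b ^ m ≤ X.length → x ≤ b ^ m →
      ph f (X.drop x) = ph f ((X.take (b ^ m)).drop x) * ph f (X.drop (b ^ m)) := by
    intro X x hX hx
    rw [← ph_append]
    congr 1
    conv_lhs => rw [← List.take_append_drop (b ^ m) X]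
    rw [List.drop_append_of_le_length (by rw [List.length_take]; omega)]
  have hseg : ∀ (X : List A) (x y : ℕ), y ≤ b ^ m → seg X x y = seg (X.take (b ^ m)) x y := by
    intro X x y hy
    rw [seg, seg, List.take_take, min_eq_left hy]
  have hbl : ∀ j : Fin m, bl f b Q j = bl f b Q' j := by
    intro j
    rw [bl, bl, hseg Q _ _ (hle Q _ (Nat.succ_le_of_lt j.2)),
      hseg Q' _ _ (hle Q' _ (Nat.succ_le_of_lt j.2)), h3, hB _ j.2.le,
      hB _ (Nat.succ_le_of_lt j.2)]
  have hwR : ∀ i : Fin m, wR e f b Q i = wR e f b Q' i := by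
    intro i
    unfold wR
    simp only [hbl]
  have hwT : wT e f b Q = wT e f b Q' := by
    unfold wT
    simp only [hbl]
  have hph : ph f Q = ph f Q' := by
    have a1 := hdrop Q 0 h1 (Nat.zero_le _)
    have a2 := hdrop Q' 0 h2 (Nat.zero_le _)
    rw [List.drop_zero, List.drop_zero] at a1 a2
    rw [a1, a2, h3, h5]
  have hROK : ∀ c : Cx m S W V, ROK e f b Q c ↔ ROK e f b Q' c := by
    intro c
    have i1 := c.i.2
    have b1 : b ^ (c.i : ℕ) ∣ Q.length ↔ b ^ (c.i : ℕ) ∣ Q'.length := by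
      rw [Nat.dvd_iff_mod_eq_zero, Nat.dvd_iff_mod_eq_zero, hB _ i1.le]
    have b2 : (Q.length / b ^ (c.i : ℕ)) % b = (Q'.length / b ^ (c.i : ℕ)) % b := by
      rw [← Nat.mod_mul_right_div_self, ← Nat.mod_mul_right_div_self, ← pow_succ,
        hB _ (Nat.succ_le_of_lt i1)]
    have b3 : ph f (Q.drop (Q.length % b ^ ((c.i : ℕ) + 1))) =
        ph f (Q'.drop (Q'.length % b ^ ((c.i : ℕ) + 1))) := by
      rw [hdrop Q _ h1 (hle Q _ (Nat.succ_le_of_lt i1)),
        hdrop Q' _ h2 (hle Q' _ (Nat.succ_le_of_lt i1)), h3, h5, hB _ (Nat.succ_le_of_lt i1)]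
    unfold ROK
    rw [b1, b2, b3, hwR]
  constructor
  · unfold rho
    rw [per_mod pR hM]
    congr 1
    funext c
    simp only [hROK]
  · unfold noise
    have hiff : (∀ k ∈ Ms, ¬ k ∣ Q.length) ↔ ∀ k ∈ Ms, ¬ k ∣ Q'.length := by
      refine forall_congr' fun k => forall_congr' fun hkM => not_congr ?_
      have : Q.length % k = Q'.length % k := by
        rw [← Nat.mod_mod_of_dvd Q.length (hk k hkM), hM, Nat.mod_mod_of_dvd _ (hk k hkM)]
      rw [Nat.dvd_iff_mod_eq_zero, Nat.dvd_iff_mod_eq_zero, this]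
    simp only [hiff, hph, hwT, hM]

end gad

universe x

/-- **Scheme 1 gadget for all words** (universe polymorphic). -/
theorem g1u (S : Type u) (V : Type v) [Monoid S] [Finite S] [AddCommGroup V] [Finite V]
    (act : V → S → V) : ∃ m r : ℕ, ∀ Bd : ℕ, ∃ (Ms : Finset ℕ) (M : ℕ), Ms.card ≤ r ∧
      (∀ k ∈ Ms, Bd < k ∧ k.Prime ∧ k ∣ M) ∧ 0 < M ∧
      ∀ b : ℕ, 4 * M + 4 < b → Nat.Coprime b M → ∀ (A : Type x) (f : A → S),
        ∃ (lam rho : List A → Option V) (nu : List A → V),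
          (∀ P v, lam P = some v → P.length < b ^ m) ∧
          (∀ P Q v v', lam P = some v → rho Q = some v' →
            v' = act v ((P ++ Q).map f).prod + nu (P ++ Q)) ∧
          (∀ X, (∀ k ∈ Ms, ¬ k ∣ X.length) →
            (∀ j < m, M ≤ X.length / b ^ j % b ∧ X.length / b ^ j % b + M + 1 ≤ b) →
            ∀ v, ∃ P Q, P ++ Q = X ∧ lam P = some v ∧ (rho Q).isSome) ∧
          (∀ Q Q', b ^ m ≤ Q.length → b ^ m ≤ Q'.length → Q.take (b ^ m) = Q'.take (b ^ m) →
            Q.length % (M * b ^ m) = Q'.length % (M * b ^ m) →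
            ((Q.drop (b ^ m)).map f).prod = ((Q'.drop (b ^ m)).map f).prod →
            rho Q = rho Q' ∧ nu Q = nu Q') := by
  classical
  obtain ⟨p, hp, nu0, F, hF⟩ := Exact136.exists_F act
  have : Fact p.Prime := ⟨hp⟩
  have : NeZero p := ⟨hp.ne_zero⟩
  let e : Fin p → S → ZMod p × ZMod p := fun j z => (nu0 z, ((j : ℕ) : ZMod p) * nu0 z)
  have hF' : ∀ (s : S) (w : ZMod p × ZMod p) (v : V), ∃ i : Fin p, ∀ g x h : S, g * x * h = s →
      ∀ z : S, F (g * z * h) (w - e i x + e i z) + act v (g * z * h) = F s w + act v s := by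
    intro s w v
    obtain ⟨i, hi⟩ := hF s w v
    refine ⟨⟨i.val, ZMod.val_lt i⟩, fun g x h hs z => ?_⟩
    have := hi g x h hs z
    simp only [e, ZMod.natCast_zmod_val]
    exact this
  have := finite_cx p S (ZMod p × ZMod p) V
  obtain ⟨r, hr⟩ := names_u (Nm e F act) (V × V) (fun c => (c.1.v, val e F act c))
  refine ⟨p, r, fun Bd => ?_⟩
  obtain ⟨Ms, M, nmL, nmR, h1, h2, h3, h4, h5, h6, h7, h8⟩ := hr Bd
  refine ⟨Ms, M, h1, h2, h3, fun b hb hcop A f => ?_⟩
  refine ⟨lam e F act nmL f b, rho e F act nmR f b, noise e F act nmL nmR Ms M f b,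
    ?_, ?_, ?_, ?_⟩
  · intro P v hv
    obtain ⟨c, -, hL, -⟩ := lam_some e F act nmL hv
    exact lt_of_lt_of_le hL.1 (Nat.pow_le_pow_right (by omega) c.1.i.2)
  · intro P Q v v' hv hv'
    exact sound e F act nmL nmR Ms M h3 (fun k hk => (h2 k hk).2.2) h4 h5 h6 h8 f
      (by omega) P Q v v' hv hv'
  · intro X hX hdig v
    exact complete e F act nmL nmR Ms M h3 h4 h7 hF' f hb hcop X hX hdig v
  · intro Q Q' a1 a2 a3 a4 a5
    exact depend e F act nmL nmR Ms M (fun k hk => (h2 k hk).2.2) h5 f (by omega) Q Q'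
      a1 a2 a3 a4 a5

/-- the literal leaf of the lead's plan #13673 -/
theorem g1 (S V : Type) [Monoid S] [Finite S] [AddCommGroup V] [Finite V] (act : V → S → V) :
    ∃ m r : ℕ, ∀ Bd : ℕ, ∃ (Ms : Finset ℕ) (M : ℕ), Ms.card ≤ r ∧
      (∀ k ∈ Ms, Bd < k ∧ k.Prime ∧ k ∣ M) ∧ 0 < M ∧
      ∀ b : ℕ, 4 * M + 4 < b → Nat.Coprime b M → ∀ (A : Type) (f : A → S),
        ∃ (lam rho : List A → Option V) (nu : List A → V),
          (∀ P v, lam P = some v → P.length < b ^ m) ∧
          (∀ P Q v v', lam P = some v → rho Q = some v' →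
            v' = act v ((P ++ Q).map f).prod + nu (P ++ Q)) ∧
          (∀ X, (∀ k ∈ Ms, ¬ k ∣ X.length) →
            (∀ j < m, M ≤ X.length / b ^ j % b ∧ X.length / b ^ j % b + M + 1 ≤ b) →
            ∀ v, ∃ P Q, P ++ Q = X ∧ lam P = some v ∧ (rho Q).isSome) ∧
          (∀ Q Q', b ^ m ≤ Q.length → b ^ m ≤ Q'.length → Q.take (b ^ m) = Q'.take (b ^ m) →
            Q.length % (M * b ^ m) = Q'.length % (M * b ^ m) →
            ((Q.drop (b ^ m)).map f).prod = ((Q'.drop (b ^ m)).map f).prod →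
            rho Q = rho Q' ∧ nu Q = nu Q') :=
  g1u S V act

end Crest.Agent.R320.G1_960

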