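import Crest.Agent.R320.Names_755
import Crest.Agent.R320.Noise_513

/-!
# Row 320: the gadget `g1` (positional digits), helper964
-/

set_option autoImplicit false

namespace Crest.Agent.R320.G1_964

universe u

/-- contexts -/
structure Ctx (m : ℕ) (S V W : Type) where
  i : Fin m
  g : S
  wl : W
  h : S
  wr : W
  v : V

instance {m : ℕ} {S V W : Type} [Finite S] [Finite V] [Finite W] : Finite (Ctx m S V W) :=
  Finite.of_injective (β := Fin m × S × W × S × W × V)
    (fun c => (c.i, c.g, c.wl, c.h, c.wr, c.v)) (by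
      rintro ⟨a1, a2, a3, a4, a5, a6⟩ ⟨b1, b2, b3, b4, b5, b6⟩ h
      simp only [Prod.mk.injEq] at h
      obtain ⟨rfl, rfl, rfl, rfl, rfl, rfl⟩ := h
      rfl)

section arith

theorem mod_pow_mono (b n : ℕ) {i j : ℕ} (h : i ≤ j) : n % b ^ i ≤ n % b ^ j := by
  induction h with
  | refl => exact le_rfl
  | step _ ih => exact ih.trans (by rw [Nat.mod_pow_succ]; exact Nat.le_add_right _ _)

theorem mod_left {b o o' i j : ℕ} (h : b ^ i ∣ o') (hj : j ≤ i) :
    (o + o') % b ^ j = o % b ^ j := by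
  obtain ⟨q, rfl⟩ := (pow_dvd_pow b hj).trans h
  exact Nat.add_mul_mod_self_left _ _ _

theorem nocarry {b o o' i j : ℕ} (hb : 0 < b) (h2 : 2 * (o / b ^ i) < b)
    (h3 : b ^ i ∣ o') (h4 : 2 * ((o' / b ^ i) % b) < b) (hj : i + 1 ≤ j) :
    (o + o') % b ^ j = o + o' % b ^ j := by
  have hbi : 0 < b ^ i := pow_pos hb i
  obtain ⟨q, rfl⟩ := h3
  rw [Nat.mul_div_cancel_left _ hbi] at h4
  obtain ⟨k, rfl⟩ : ∃ k, j = i + (k + 1) := ⟨j - i - 1, by omega⟩
  have hbk : 0 < b ^ k := pow_pos hb k
  have e1 : (b ^ i * q) % b ^ (i + (k + 1)) = b ^ i * (q % b ^ (k + 1)) := by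
    rw [pow_add, Nat.mul_mod_mul_left]
  set Q := q % b ^ (k + 1) with hQ
  have hQb : Q % b = q % b := by
    rw [hQ]
    exact Nat.mod_mod_of_dvd _ (dvd_pow_self b (Nat.succ_ne_zero k))
  have hQlt : Q < b ^ (k + 1) := Nat.mod_lt _ (pow_pos hb _)
  have hQd : Q / b < b ^ k := by
    rw [Nat.div_lt_iff_lt_mul hb, ← pow_succ]; exact hQlt
  have hQe : b * (Q / b) + Q % b = Q := Nat.div_add_mod Q b
  have hy : o / b ^ i + Q + 1 ≤ b ^ (k + 1) := by
    have h5 : b * (Q / b + 1) ≤ b * b ^ k := Nat.mul_le_mul_left b hQd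
    have h6 : b * b ^ k = b ^ (k + 1) := by rw [pow_succ, Nat.mul_comm]
    rw [Nat.mul_add, Nat.mul_one, h6] at h5
    rw [← hQb] at h4
    omega
  have ho : o < b ^ i * (o / b ^ i + 1) := Nat.lt_mul_div_succ o hbi
  have hlt : o + b ^ i * Q < b ^ (i + (k + 1)) := by
    calc o + b ^ i * Q < b ^ i * (o / b ^ i + 1) + b ^ i * Q := by omega
      _ = b ^ i * (o / b ^ i + Q + 1) := by ring
      _ ≤ b ^ i * b ^ (k + 1) := Nat.mul_le_mul_left _ hy
      _ = b ^ (i + (k + 1)) := (pow_add b i (k + 1)).symm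
  rw [Nat.add_mod, e1]
  have h7 : o % b ^ (i + (k + 1)) = o := Nat.mod_eq_of_lt (by omega)
  rw [h7, Nat.mod_eq_of_lt hlt]

end arith

section defs

variable {A : Type u} {S V W : Type} [Monoid S] [AddCommGroup V] [AddCommGroup W]

/-- value of a word -/
def ph (f : A → S) (X : List A) : S := (X.map f).prod

theorem ph_append (f : A → S) (x y : List A) : ph f (x ++ y) = ph f x * ph f y := by
  simp [ph]

theorem ph_split (f : A → S) (Y : List A) {a c : ℕ} (h : a ≤ c) :
    ph f Y = ph f (Y.take a) * ph f ((Y.take c).drop a) * ph f (Y.drop c) := by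
  rw [← ph_append, ← ph_append]
  congr 1
  have h1 : Y.take a = (Y.take c).take a := by rw [List.take_take, min_eq_left h]
  rw [h1, List.take_append_drop, List.take_append_drop]

/-- block `j` -/
def seg (b : ℕ) (X : List A) (j : ℕ) : List A :=
  (X.take (X.length % b ^ (j + 1))).drop (X.length % b ^ j)

/-- weight of the blocks `[s, t)` -/
def wt (f : A → S) (b : ℕ) (e : ℕ → S → W) (X : List A) (s t : ℕ) : W :=
  ∑ j ∈ Finset.Ico s t, e j (ph f (seg b X j))

variable {m : ℕ} (act : V → S → V) (e : ℕ → S → W) (F : S → W → V)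

/-- prescribed value -/
def bb (c : Ctx m S V W) : V :=
  F (c.g * 1 * c.h) (c.wl + e c.i 1 + c.wr) + act c.v (c.g * 1 * c.h)

/-- good context -/
def Good (c : Ctx m S V W) : Prop := ∀ z : S,
  F (c.g * z * c.h) (c.wl + e c.i z + c.wr) + act c.v (c.g * z * c.h) = bb act e F c

variable (f : A → S) (b : ℕ)

/-- left-legal -/
def LLeg (P : List A) (c : Ctx m S V W) : Prop :=
  P.length < b ^ ((c.i : ℕ) + 1) ∧ 2 * (P.length / b ^ (c.i : ℕ)) < b ∧
    ph f (P.take (P.length % b ^ (c.i : ℕ))) = c.g ∧ wt f b e P 0 c.i = c.wl ∧ Good act e F c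

/-- right-legal -/
def RLeg (Q : List A) (c : Ctx m S V W) : Prop :=
  b ^ (c.i : ℕ) ∣ Q.length ∧ 2 * ((Q.length / b ^ (c.i : ℕ)) % b) < b ∧
    ph f (Q.drop (Q.length % b ^ ((c.i : ℕ) + 1))) = c.h ∧ wt f b e Q (c.i + 1) m = c.wr

theorem seg_left {P Q : List A} {i j : ℕ} (h : b ^ i ∣ Q.length) (hj : j < i) :
    seg b (P ++ Q) j = seg b P j := by
  unfold seg
  rw [List.length_append, mod_left h (by omega : j + 1 ≤ i), mod_left h (by omega : j ≤ i),
    List.take_append_of_le_length (Nat.mod_le _ _)]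

theorem seg_right {P Q : List A} {i j : ℕ} (hb : 0 < b) (h2 : 2 * (P.length / b ^ i) < b)
    (h3 : b ^ i ∣ Q.length) (h4 : 2 * ((Q.length / b ^ i) % b) < b) (hj : i + 1 ≤ j) :
    seg b (P ++ Q) j = seg b Q j := by
  unfold seg
  rw [List.length_append, nocarry hb h2 h3 h4 (by omega : i + 1 ≤ j + 1), nocarry hb h2 h3 h4 hj,
    List.take_append, List.drop_append]
  simp [List.take_of_length_le, List.drop_eq_nil_of_le]

/-- the data of a word at a junction -/
theorem data (hb : 0 < b) {P Q : List A} {c : Ctx m S V W} (hL : LLeg act e F f b P c)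
    (hR : RLeg e f b Q c) :
    ∃ z : S, ph f (P ++ Q) = c.g * z * c.h ∧ wt f b e (P ++ Q) 0 m = c.wl + e c.i z + c.wr := by
  obtain ⟨h1, h2, hg, hwl, -⟩ := hL
  obtain ⟨h3, h4, hh, hwr⟩ := hR
  refine ⟨ph f (seg b (P ++ Q) c.i), ?_, ?_⟩
  · rw [ph_split f (P ++ Q) (mod_pow_mono b (P ++ Q).length (Nat.le_succ (c.i : ℕ)))]
    congr 1
    · congr 1
      rw [← hg, List.length_append, mod_left h3 le_rfl,
        List.take_append_of_le_length (Nat.mod_le _ _)]
    · rw [← hh, List.length_append, nocarry hb h2 h3 h4 le_rfl, List.drop_append]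
      simp [List.drop_eq_nil_of_le]
  · have hi := c.i.2
    have e1 : wt f b e (P ++ Q) 0 m = wt f b e (P ++ Q) 0 c.i +
        (e c.i (ph f (seg b (P ++ Q) c.i)) + wt f b e (P ++ Q) (c.i + 1) m) := by
      unfold wt
      rw [← Finset.sum_Ico_consecutive _ (Nat.zero_le (c.i : ℕ)) hi.le,
        Finset.sum_eq_sum_Ico_succ_bot hi]
    have e2 : wt f b e (P ++ Q) 0 c.i = c.wl := by
      rw [← hwl]
      exact Finset.sum_congr rfl fun j hj => by rw [seg_left b h3 (Finset.mem_Ico.1 hj).2]
    have e3 : wt f b e (P ++ Q) (c.i + 1) m = c.wr := by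
      rw [← hwr]
      exact Finset.sum_congr rfl fun j hj => by
        rw [seg_right b hb h2 h3 h4 (Finset.mem_Ico.1 hj).1]
    rw [e1, e2, e3]
    abel

end defs

theorem exists_y {M b t i β : ℕ} (hM : 0 < M) (hc : Nat.Coprime b M) (y0 : ℕ) :
    ∃ y, y0 ≤ y ∧ y < y0 + M ∧ β + b ^ i * y ≡ t [MOD M] := by
  have hci : Nat.Coprime (b ^ i) M := hc.pow_left i
  obtain ⟨u, hu⟩ : ∃ u, b ^ i * u ≡ 1 [MOD M] := by
    rcases Nat.lt_or_ge 1 M with h1 | h1
    · obtain ⟨u, hu⟩ := Nat.exists_mul_mod_eq_one_of_coprime hci h1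
      exact ⟨u, by rw [Nat.ModEq, hu.2, Nat.mod_eq_of_lt h1]⟩
    · have : M = 1 := by omega
      subst this
      exact ⟨0, Nat.modEq_one⟩
  -- target residue
  obtain ⟨K, hK⟩ : ∃ K, β + K ≡ t [MOD M] := by
    refine ⟨t + (M - β % M), ?_⟩
    have h1 : β % M < M := Nat.mod_lt _ hM
    have h2 : β + (t + (M - β % M)) = t + M * (β / M + 1) := by
      have := Nat.div_add_mod β M
      rw [Nat.mul_add, Nat.mul_one]
      omega
    rw [h2]
    exact (Nat.modEq_iff_dvd' (Nat.le_add_right _ _)).2 ⟨β / M + 1, by omega⟩ |>.symm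
  let a := u * K
  have ha : β + b ^ i * a ≡ t [MOD M] := by
    have : b ^ i * a ≡ K [MOD M] := by
      show b ^ i * (u * K) ≡ K [MOD M]
      rw [← Nat.mul_assoc]
      simpa using hu.mul_right K
    exact (Nat.ModEq.add_left β this).trans hK
  -- representative in the interval
  let d := (a + (M - y0 % M)) % M
  have hd : d < M := Nat.mod_lt _ hM
  refine ⟨y0 + d, Nat.le_add_right _ _, by omega, ?_⟩
  have hyd : y0 + d ≡ a [MOD M] := by
    have h1 : d ≡ a + (M - y0 % M) [MOD M] := Nat.mod_modEq _ _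
    have h2 : y0 + d ≡ y0 + (a + (M - y0 % M)) [MOD M] := Nat.ModEq.add_left y0 h1
    have h3 : y0 + (a + (M - y0 % M)) = a + M * (y0 / M + 1) := by
      have h4 := Nat.div_add_mod y0 M
      have h5 : y0 % M < M := Nat.mod_lt _ hM
      rw [Nat.mul_add, Nat.mul_one]
      omega
    rw [h3] at h2
    exact h2.trans (by simp [Nat.ModEq])
  exact (Nat.ModEq.add_left β (Nat.ModEq.mul_left (b ^ i) hyd)).trans ha


section main

variable {A : Type u} {S V W : Type} [Monoid S] [AddCommGroup V] [AddCommGroup W]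
  {m : ℕ} (act : V → S → V) (e : ℕ → S → W) (F : S → W → V) (f : A → S) (b : ℕ)

open Classical in
/-- left label -/
noncomputable def lamD (nmL : ℕ → Option (Ctx m S V W)) (P : List A) : Option V :=
  (nmL P.length).bind fun c => if LLeg act e F f b P c then some c.v else none

open Classical in
/-- right label -/
noncomputable def rhoD (nmR : ℕ → Option (Ctx m S V W)) (Q : List A) : Option V :=
  (nmR Q.length).bind fun c => if RLeg e f b Q c then some (bb act e F c) else none

/-- the values prescribed at the junctions of a total -/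
def PairAt (M : ℕ) (nmL nmR : ℕ → Option (Ctx m S V W)) (T : ℕ) (p : V × V) : Prop :=
  ∃ t t' c c', nmL t = some c ∧ nmR t' = some c' ∧ t + t' ≡ T [MOD M] ∧
    p = (c.v, bb act e F c')

open Classical in
/-- chosen values -/
noncomputable def DL (M : ℕ) (nmL nmR : ℕ → Option (Ctx m S V W)) (T : ℕ) : V × V :=
  if h : ∃ p, PairAt act e F M nmL nmR T p then h.choose else 0

open Classical in
/-- noise -/
noncomputable def nuD (M : ℕ) (Ms : Finset ℕ) (nmL nmR : ℕ → Option (Ctx m S V W))
    (X : List A) : V :=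
  if ∃ k ∈ Ms, k ∣ X.length then
    (DL act e F M nmL nmR X.length).2 - act (DL act e F M nmL nmR X.length).1 (ph f X)
  else F (ph f X) (wt f b e X 0 m)

theorem lam_spec {nmL : ℕ → Option (Ctx m S V W)} {P : List A} {v : V}
    (h : lamD act e F f b nmL P = some v) :
    ∃ c, nmL P.length = some c ∧ LLeg act e F f b P c ∧ c.v = v := by
  classical
  unfold lamD at h
  rw [Option.bind_eq_some_iff] at h
  obtain ⟨c, hc, h⟩ := h
  split_ifs at h with h1
  exact ⟨c, hc, h1, by simpa using h⟩

theorem rho_spec {nmR : ℕ → Option (Ctx m S V W)} {Q : List A} {v : V}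
    (h : rhoD act e F f b nmR Q = some v) :
    ∃ c, nmR Q.length = some c ∧ RLeg e f b Q c ∧ bb act e F c = v := by
  classical
  unfold rhoD at h
  rw [Option.bind_eq_some_iff] at h
  obtain ⟨c, hc, h⟩ := h
  split_ifs at h with h1
  exact ⟨c, hc, h1, by simpa using h⟩

theorem lam_of {nmL : ℕ → Option (Ctx m S V W)} {P : List A} {c : Ctx m S V W}
    (hc : nmL P.length = some c) (h : LLeg act e F f b P c) :
    lamD act e F f b nmL P = some c.v := by
  classical
  unfold lamD
  rw [hc, Option.bind_some, if_pos h]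

theorem rho_of {nmR : ℕ → Option (Ctx m S V W)} {Q : List A} {c : Ctx m S V W}
    (hc : nmR Q.length = some c) (h : RLeg e f b Q c) :
    rhoD act e F f b nmR Q = some (bb act e F c) := by
  classical
  unfold rhoD
  rw [hc, Option.bind_some, if_pos h]

theorem take_eq {L : ℕ} {Q Q' : List A} (h : Q.take L = Q'.take L) {k : ℕ} (hk : k ≤ L) :
    Q.take k = Q'.take k := by
  have h1 : Q.take k = (Q.take L).take k := by rw [List.take_take, min_eq_left hk]
  have h2 : Q'.take k = (Q'.take L).take k := by rw [List.take_take, min_eq_left hk]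
  rw [h1, h2, h]

theorem seg_congr {L : ℕ} {Q Q' : List A} (h : Q.take L = Q'.take L) {j : ℕ}
    (h0 : Q.length % b ^ j = Q'.length % b ^ j)
    (h1 : Q.length % b ^ (j + 1) = Q'.length % b ^ (j + 1)) (h2 : Q.length % b ^ (j + 1) ≤ L) :
    seg b Q j = seg b Q' j := by
  unfold seg
  rw [h0, ← h1, take_eq h h2]

theorem ph_drop_congr {L k : ℕ} {Q Q' : List A} (h : Q.take L = Q'.take L)
    (hd : ph f (Q.drop L) = ph f (Q'.drop L)) (hk : k ≤ L) :
    ph f (Q.drop k) = ph f (Q'.drop k) := by
  have e1 : ∀ R : List A, R.drop k = (R.take L).drop k ++ R.drop L := by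
    intro R
    conv_lhs => rw [← List.take_append_drop L R]
    rw [List.drop_append]
    by_cases hl : L ≤ R.length
    · have : k - (R.take L).length = 0 := by rw [List.length_take]; omega
      rw [this, List.drop_zero]
    · rw [List.drop_eq_nil_of_le (as := R) (i := L) (by omega)]; simp [List.take_of_length_le (show R.length ≤ L by omega)]
  rw [e1 Q, e1 Q', ph_append, ph_append, h, hd]

end main

theorem g1 (S V : Type) [Monoid S] [Finite S] [AddCommGroup V] [Finite V] (act : V → S → V) :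
    ∃ m r : ℕ, ∀ Bd : ℕ, ∃ (Ms : Finset ℕ) (M : ℕ), Ms.card ≤ r ∧
      (∀ k ∈ Ms, Bd < k ∧ k.Prime ∧ k ∣ M) ∧ 0 < M ∧
      ∀ b : ℕ, 4 * M + 4 < b → Nat.Coprime b M → ∀ (A : Type u) (f : A → S),
        ∃ (lam rho : List A → Option V) (nu : List A → V),
          (∀ P v, lam P = some v → P.length < b ^ m) ∧
          (∀ P Q v v', lam P = some v → rho Q = some v' →
            v' = act v ((P ++ Q).map f).prod + nu (P ++ Q)) ∧
          (∀ X, (∀ k ∈ Ms, ¬ k ∣ X.length) →
            (∀ j < m, M ≤ X.length / b ^ j % b ∧ X.length / b ^ j % b + M + 1 ≤ b) →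
            ∀ v, ∃ P Q, P ++ Q = X ∧ lam P = some v ∧ (rho Q).isSome) ∧
          (∀ Q Q', b ^ m ≤ Q.length → b ^ m ≤ Q'.length → Q.take (b ^ m) = Q'.take (b ^ m) →
            Q.length % (M * b ^ m) = Q'.length % (M * b ^ m) →
            ((Q.drop (b ^ m)).map f).prod = ((Q'.drop (b ^ m)).map f).prod →
            rho Q = rho Q' ∧ nu Q = nu Q') := by
  classical
  obtain ⟨W, iW, fW, m, e0, F, hF⟩ := Crest.Agent.R320.Noise513.explicit_noise S V act
  let e : ℕ → S → W := fun j z => if h : j < m then e0 ⟨j, h⟩ z else 0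
  have he : ∀ (i : Fin m) z, e i z = e0 i z := fun i z => by simp [e, i.2]
  obtain ⟨r, hr⟩ := Crest.Agent.R320.Names755.names (Ctx m S V W) (V × V)
    (fun c => (c.v, bb act e F c))
  refine ⟨m, r, fun Bd => ?_⟩
  obtain ⟨Ms, M, nmL, nmR, hcard, hMs, hM, pL, pR, hgood, hav, hbad⟩ := hr Bd
  refine ⟨Ms, M, hcard, hMs, hM, fun b hb hbM A f => ?_⟩
  have hb0 : 0 < b := by omega
  have pR' : ∀ n t, nmR (t + n * M) = nmR t := by
    intro n
    induction n with
    | zero => intro t; simp
    | succ n ih => intro t; rw [Nat.succ_mul, ← Nat.add_assoc, pR, ih]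
  -- pairs at congruent totals
  have pair : ∀ {t₁ t₁' t₂ t₂' : ℕ} {c₁ c₁' c₂ c₂' : Ctx m S V W}, nmL t₁ = some c₁ →
      nmR t₁' = some c₁' → nmL t₂ = some c₂ → nmR t₂' = some c₂' →
      t₁ + t₁' ≡ t₂ + t₂' [MOD M] → (∃ k ∈ Ms, k ∣ t₁ + t₁') →
      (c₁.v, bb act e F c₁) = (c₂.v, bb act e F c₂) ∧
        (c₁'.v, bb act e F c₁') = (c₂'.v, bb act e F c₂') := by
    intro t₁ t₁' t₂ t₂' c₁ c₁' c₂ c₂' h1 h1' h2 h2' hT hk
    obtain ⟨a, d, had⟩ : ∃ a d, t₁ + (t₁' + a * M) = t₂ + (t₂' + d * M) := by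
      rcases le_total (t₁ + t₁') (t₂ + t₂') with hle | hle
      · obtain ⟨q, hq⟩ := (Nat.modEq_iff_dvd' hle).1 hT
        refine ⟨q, 0, ?_⟩
        rw [Nat.mul_comm q M, ← hq]; omega
      · obtain ⟨q, hq⟩ := (Nat.modEq_iff_dvd' hle).1 hT.symm
        refine ⟨0, q, ?_⟩
        rw [Nat.mul_comm q M, ← hq]; omega
    refine hbad t₁ (t₁' + a * M) t₂ (t₂' + d * M) c₁ c₁' c₂ c₂' h1 (by rw [pR']; exact h1') h2
      (by rw [pR']; exact h2') had ?_
    obtain ⟨k, hk1, hk2⟩ := hk
    refine ⟨k, hk1, ?_⟩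
    rw [← Nat.add_assoc]
    exact Nat.dvd_add hk2 ((hMs k hk1).2.2.mul_left a)
  refine ⟨lamD act e F f b nmL, rhoD act e F f b nmR, nuD act e F f b M Ms nmL nmR,
    ?_, ?_, ?_, ?_⟩
  · intro P v h
    obtain ⟨c, -, hL, -⟩ := lam_spec act e F f b h
    exact lt_of_lt_of_le hL.1 (Nat.pow_le_pow_right hb0 c.i.2)
  · intro P Q v v' hP hQ
    obtain ⟨c, hc, hL, rfl⟩ := lam_spec act e F f b hP
    obtain ⟨c', hc', hR, rfl⟩ := rho_spec act e F f b hQ
    show bb act e F c' = act c.v (ph f (P ++ Q)) + _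
    unfold nuD
    by_cases hk : ∃ k ∈ Ms, k ∣ (P ++ Q).length
    · rw [if_pos hk]
      have hex : ∃ p, PairAt act e F M nmL nmR (P ++ Q).length p :=
        ⟨_, P.length, Q.length, c, c', hc, hc', by rw [List.length_append], rfl⟩
      have hD : DL act e F M nmL nmR (P ++ Q).length = (c.v, bb act e F c') := by
        unfold DL
        rw [dif_pos hex]
        obtain ⟨t, t', d, d', h1, h1', hT, hp⟩ := hex.choose_spec
        rw [hp]
        have hk' : ∃ k ∈ Ms, k ∣ P.length + Q.length := by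
          rw [← List.length_append]; exact hk
        have hT' : P.length + Q.length ≡ t + t' [MOD M] := by
          rw [← List.length_append]; exact hT.symm
        obtain ⟨q1, q2⟩ := pair hc hc' h1 h1' hT' hk'
        rw [Prod.mk.injEq] at q1 q2
        rw [q1.1, q2.2]
      rw [hD]
      show bb act e F c' = act c.v (ph f (P ++ Q)) +
        (bb act e F c' - act c.v (ph f (P ++ Q)))
      abel
    · rw [if_neg hk]
      have hcc : c = c' := hgood P.length Q.length c c' hc hc' (fun k hk1 hk2 =>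
        hk ⟨k, hk1, by rw [List.length_append]; exact hk2⟩)
      subst hcc
      obtain ⟨z, hz1, hz2⟩ := data act e F f b hb0 hL hR
      rw [hz1, hz2, ← hL.2.2.2.2 z]
      abel
  · intro X hX1 hX2 v
    set s := ph f X with hs
    set w := wt f b e X 0 m with hw
    obtain ⟨i, hi⟩ := hF s w v
    set β := X.length % b ^ (i : ℕ) with hβ
    set γ := X.length % b ^ ((i : ℕ) + 1) with hγ
    have hβγ : β ≤ γ := mod_pow_mono b _ (Nat.le_succ _)
    set g := ph f (X.take β) with hg
    set x := ph f (seg b X i) with hx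
    set h := ph f (X.drop γ) with hh
    set wl := wt f b e X 0 i with hwl
    set wr := wt f b e X (i + 1) m with hwr
    have hsp : g * x * h = s := (ph_split f X hβγ).symm
    have hwsp : w = wl + (e i x + wr) := by
      rw [hw, hwl, hwr]
      unfold wt
      rw [← Finset.sum_Ico_consecutive _ (Nat.zero_le (i : ℕ)) i.2.le,
        Finset.sum_eq_sum_Ico_succ_bot i.2]
    let c : Ctx m S V W := ⟨i, g, wl, h, wr, v⟩
    have hval : ∀ z, F (g * z * h) (wl + e i z + wr) + act v (g * z * h) = F s w + act v s := by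
      intro z
      have := hi g x h hsp z
      rw [← this]
      congr 2
      rw [hwsp, he, he]
      abel
    have hG : Good act e F c := by
      intro z
      show F (g * z * h) (wl + e i z + wr) + act v (g * z * h) =
        F (g * 1 * h) (wl + e i 1 + wr) + act v (g * 1 * h)
      rw [hval z, hval 1]
    obtain ⟨t, -, htL, htR⟩ := hav X.length hX1 c
    -- digit
    set n := X.length with hn
    set d := n / b ^ (i : ℕ) % b with hd
    obtain ⟨hd1, hd2⟩ := hX2 i i.2
    obtain ⟨y, hy1, hy2, hy3⟩ := exists_y (b := b) (t := t) (i := (i : ℕ)) (β := β) hM hbM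
      (d - (b - 1) / 2)
    have hyd : y ≤ d := by omega
    have hyb : 2 * y < b := by omega
    have hdy : 2 * (d - y) < b := by omega
    have hbi : 0 < b ^ (i : ℕ) := pow_pos hb0 _
    have hβlt : β < b ^ (i : ℕ) := Nat.mod_lt _ hbi
    have hγe : γ = β + b ^ (i : ℕ) * d := by rw [hγ, Nat.mod_pow_succ]
    set o := β + b ^ (i : ℕ) * y with ho
    have hoγ : o ≤ γ := by
      rw [hγe]
      exact Nat.add_le_add_left (Nat.mul_le_mul_left _ hyd) _
    have hγn : γ ≤ n := Nat.mod_le _ _
    have hon : o ≤ n := hoγ.trans hγn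
    have hneq : n = β + b ^ (i : ℕ) * (n / b ^ (i : ℕ)) := by
      have := Nat.div_add_mod n (b ^ (i : ℕ))
      omega
    have hdle : d ≤ n / b ^ (i : ℕ) := Nat.mod_le _ _
    have ho' : n - o = b ^ (i : ℕ) * (n / b ^ (i : ℕ) - y) := by
      rw [Nat.mul_sub]
      have := Nat.mul_le_mul_left (b ^ (i : ℕ)) (hyd.trans hdle)
      omega
    have hq : (n / b ^ (i : ℕ) - y) % b = d - y := by
      have h1 := Nat.div_add_mod (n / b ^ (i : ℕ)) b
      have h2 : n / b ^ (i : ℕ) - y = (d - y) + b * (n / b ^ (i : ℕ) / b) := by omega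
      rw [h2, Nat.add_mul_mod_self_left, Nat.mod_eq_of_lt (by omega)]
    have hPl : (X.take o).length = o := by rw [List.length_take]; omega
    have hQl : (X.drop o).length = n - o := by rw [List.length_drop]
    have hPQ : X.take o ++ X.drop o = X := List.take_append_drop _ _
    have hdiv : o / b ^ (i : ℕ) = y := by
      rw [ho, Nat.add_mul_div_left _ _ hbi, Nat.div_eq_of_lt hβlt, Nat.zero_add]
    have hdvd : b ^ (i : ℕ) ∣ n - o := ⟨_, ho'⟩
    have hdig : 2 * (((n - o) / b ^ (i : ℕ)) % b) < b := by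
      rw [ho', Nat.mul_div_cancel_left _ hbi, hq]; exact hdy
    have hLL : LLeg act e F f b (X.take o) c := by
      refine ⟨?_, ?_, ?_, ?_, hG⟩
      · rw [hPl]
        calc o < b ^ (i : ℕ) * (y + 1) := by rw [Nat.mul_add]; omega
          _ ≤ b ^ (i : ℕ) * b := Nat.mul_le_mul_left _ (by omega)
          _ = b ^ ((i : ℕ) + 1) := (pow_succ _ _).symm
      · rw [hPl]; show 2 * (o / b ^ (i : ℕ)) < b; rw [hdiv]; exact hyb
      · show ph f ((X.take o).take ((X.take o).length % b ^ (i : ℕ))) = g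
        rw [hPl]
        have : o % b ^ (i : ℕ) = β := by
          rw [ho, Nat.add_mul_mod_self_left, Nat.mod_eq_of_lt hβlt]
        rw [this, List.take_take, min_eq_left (by omega)]
      · show wt f b e (X.take o) 0 i = wl
        rw [hwl]
        refine Finset.sum_congr rfl fun j hj => ?_
        have := seg_left b (P := X.take o) (Q := X.drop o) (i := (i : ℕ)) (j := j)
          (by rw [hQl]; exact hdvd) (Finset.mem_Ico.1 hj).2
        rw [hPQ] at this
        rw [this]
    have hRR : RLeg e f b (X.drop o) c := by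
      have h2' : 2 * ((X.take o).length / b ^ (i : ℕ)) < b := by rw [hPl, hdiv]; exact hyb
      have h3' : b ^ (i : ℕ) ∣ (X.drop o).length := by rw [hQl]; exact hdvd
      have h4' : 2 * (((X.drop o).length / b ^ (i : ℕ)) % b) < b := by rw [hQl]; exact hdig
      refine ⟨h3', h4', ?_, ?_⟩
      · show ph f ((X.drop o).drop ((X.drop o).length % b ^ ((i : ℕ) + 1))) = h
        have h5 := nocarry hb0 h2' h3' h4' (le_refl ((i : ℕ) + 1))
        rw [← List.length_append, hPQ, hPl] at h5
        rw [List.drop_drop, hh]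
        congr 2
        rw [hγ, ← hn] at *
        omega
      · show wt f b e (X.drop o) (i + 1) m = wr
        rw [hwr]
        refine Finset.sum_congr rfl fun j hj => ?_
        have := seg_right b (P := X.take o) (Q := X.drop o) (i := (i : ℕ)) (j := j) hb0 h2' h3' h4'
          (Finset.mem_Ico.1 hj).1
        rw [hPQ] at this
        rw [this]
    have hnL : nmL (X.take o).length = some c := by
      rw [hPl]
      have hper : ∀ q u, nmL (u + q * M) = nmL u := by
        intro q
        induction q with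
        | zero => intro u; simp
        | succ q ih => intro u; rw [Nat.succ_mul, ← Nat.add_assoc, pL, ih]
      have hot : o % M = t % M := hy3
      have e1 : nmL o = nmL (o % M) := by
        conv_lhs => rw [← Nat.mod_add_div o M, Nat.mul_comm M (o / M)]
        rw [hper]
      have e2 : nmL t = nmL (t % M) := by
        conv_lhs => rw [← Nat.mod_add_div t M, Nat.mul_comm M (t / M)]
        rw [hper]
      rw [e1, hot, ← e2]; exact htL
    have hnR : nmR (X.drop o).length = some c := by
      rw [hQl]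
      refine htR _ ?_
      have h6 : o + (n - o) = n := by omega
      have h7 : t + (n - o) ≡ o + (n - o) [MOD M] := Nat.ModEq.add_right _ hy3.symm
      rw [h6] at h7
      exact h7
    exact ⟨X.take o, X.drop o, hPQ, lam_of act e F f b hnL hLL, by
      rw [rho_of act e F f b hnR hRR]; rfl⟩
  · intro Q Q' hQ hQ' htake hmod hdrop
    have hmodM : Q.length % M = Q'.length % M := by
      have := congrArg (· % M) hmod
      simpa [Nat.mod_mul_right_mod] using this
    have hmodb : ∀ j, j ≤ m → Q.length % b ^ j = Q'.length % b ^ j := by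
      intro j hj
      have h1 : b ^ j ∣ M * b ^ m := (pow_dvd_pow b hj).mul_left M
      have := congrArg (· % b ^ j) hmod
      simpa [Nat.mod_mod_of_dvd _ h1] using this
    have hle : ∀ j, j ≤ m → Q.length % b ^ j ≤ b ^ m := by
      intro j hj
      exact (Nat.mod_lt _ (pow_pos hb0 j)).le.trans (Nat.pow_le_pow_right hb0 hj)
    have hseg : ∀ j, j < m → seg b Q j = seg b Q' j := fun j hj =>
      seg_congr b htake (hmodb j hj.le) (hmodb (j + 1) hj) (hle (j + 1) hj)
    have hnm : nmR Q.length = nmR Q'.length := by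
      have e1 : ∀ u, nmR u = nmR (u % M) := by
        intro u
        conv_lhs => rw [← Nat.mod_add_div u M, Nat.mul_comm M (u / M)]
        rw [pR']
      rw [e1, hmodM, ← e1]
    have hph : ph f Q = ph f Q' := by
      have := ph_drop_congr f htake hdrop (Nat.zero_le _)
      simpa using this
    refine ⟨?_, ?_⟩
    · unfold rhoD
      rw [hnm]
      congr 1
      funext c
      have hR : RLeg e f b Q c ↔ RLeg e f b Q' c := by
        have hi := c.i.2
        have hd1 : (b ^ (c.i : ℕ) ∣ Q.length) ↔ (b ^ (c.i : ℕ) ∣ Q'.length) := by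
          rw [Nat.dvd_iff_mod_eq_zero, Nat.dvd_iff_mod_eq_zero, hmodb _ hi.le]
        have hd2 : Q.length / b ^ (c.i : ℕ) % b = Q'.length / b ^ (c.i : ℕ) % b := by
          have h1 := hmodb ((c.i : ℕ) + 1) hi
          have h2 := hmodb (c.i : ℕ) hi.le
          rw [Nat.mod_pow_succ, Nat.mod_pow_succ, h2] at h1
          exact Nat.eq_of_mul_eq_mul_left (pow_pos hb0 _) (Nat.add_left_cancel h1)
        have hd3 : ph f (Q.drop (Q.length % b ^ ((c.i : ℕ) + 1))) =
            ph f (Q'.drop (Q'.length % b ^ ((c.i : ℕ) + 1))) := by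
          rw [hmodb _ hi]
          exact ph_drop_congr f htake hdrop (by rw [← hmodb _ hi]; exact hle _ hi)
        have hd4 : wt f b e Q (c.i + 1) m = wt f b e Q' (c.i + 1) m :=
          Finset.sum_congr rfl fun j hj => by rw [hseg j (Finset.mem_Ico.1 hj).2]
        unfold RLeg
        rw [hd1, hd2, hd3, hd4]
      by_cases h : RLeg e f b Q c
      · rw [if_pos h, if_pos (hR.1 h)]
      · rw [if_neg h, if_neg (fun h' => h (hR.2 h'))]
    · have hDL : DL act e F M nmL nmR Q.length = DL act e F M nmL nmR Q'.length := by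
        have : PairAt act e F M nmL nmR Q.length = PairAt act e F M nmL nmR Q'.length := by
          funext p
          apply propext
          constructor
          · rintro ⟨t, t', c, c', h1, h2, h3, h4⟩
            exact ⟨t, t', c, c', h1, h2, h3.trans hmodM, h4⟩
          · rintro ⟨t, t', c, c', h1, h2, h3, h4⟩
            exact ⟨t, t', c, c', h1, h2, h3.trans hmodM.symm, h4⟩
        unfold DL
        simp only [this]
      have hk : (∃ k ∈ Ms, k ∣ Q.length) ↔ (∃ k ∈ Ms, k ∣ Q'.length) := by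
        refine exists_congr fun k => and_congr_right fun hk => ?_
        have h1 : Q.length % k = Q'.length % k := by
          have := congrArg (· % k) hmodM
          simpa [Nat.mod_mod_of_dvd _ (hMs k hk).2.2] using this
        rw [Nat.dvd_iff_mod_eq_zero, Nat.dvd_iff_mod_eq_zero, h1]
      have hw : wt f b e Q 0 m = wt f b e Q' 0 m :=
        Finset.sum_congr rfl fun j hj => by rw [hseg j (Finset.mem_Ico.1 hj).2]
      unfold nuD
      by_cases h : ∃ k ∈ Ms, k ∣ Q.length
      · rw [if_pos h, if_pos (hk.1 h), hDL, hph]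
      · rw [if_neg h, if_neg (fun h' => h (hk.2 h')), hph, hw]

end Crest.Agent.R320.G1_964
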