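import Mathlib

set_option autoImplicit false

/-!
Row 320, SCHEME 1 = helper693 #13203 (hole ends on nested grids anchored at the right end `b`),
with the names of `Names_755.names` (clocks `t = |P|`, `t' = |Q|`).  Pure words, no walls, all
contents, sound for every total length.
-/

namespace Crest.Agent.R320.Grid_991

open Finset

section Words

variable {α : Type*} {S : Type} [Monoid S] (φ : α → S)

/-- product of the letters of `X` at the places `a..b` -/
def seg (X : List α) (a b : ℕ) : S := (((X.take b).drop a).map φ).prod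

theorem seg_left (P Q : List α) {a b : ℕ} (hb : b ≤ P.length) :
    seg φ (P ++ Q) a b = seg φ P a b := by
  unfold seg
  rw [List.take_append_of_le_length hb]

theorem take_add (P Q : List α) (b : ℕ) : (P ++ Q).take (P.length + b) = P ++ Q.take b := by
  rw [List.take_append]
  simp

theorem seg_right (P Q : List α) (a b : ℕ) :
    seg φ (P ++ Q) (P.length + a) (P.length + b) = seg φ Q a b := by
  unfold seg
  rw [take_add, List.drop_append, List.drop_eq_nil_of_le (by omega), List.nil_append]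
  congr 3
  omega

theorem seg_mul (X : List α) {a b c : ℕ} (hab : a ≤ b) (hbc : b ≤ c) :
    seg φ X a b * seg φ X b c = seg φ X a c := by
  unfold seg
  rw [← List.prod_append, ← List.map_append]
  congr 2
  have h1 : X.take c = X.take b ++ (X.take c).drop b := by
    have := List.take_append_drop b (X.take c)
    rw [List.take_take, min_eq_left hbc] at this
    exact this.symm
  conv_rhs => rw [h1, List.drop_append]
  congr 1
  rcases le_or_gt b X.length with hb | hb
  · have : a - (X.take b).length = 0 := by rw [List.length_take]; omega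
    rw [this, List.drop_zero]
  · have h2 : (X.take c).drop b = [] := by
      apply List.drop_eq_nil_of_le
      rw [List.length_take]; omega
    rw [h2]; simp

theorem seg_all (X : List α) : seg φ X 0 X.length = (X.map φ).prod := by
  unfold seg; simp

end Words

/-- contexts = names: level, left data, right data, token -/
abbrev Ctx (m : ℕ) (S W V : Type) := Fin m × (S × W) × (S × W) × V

/-- all data of scheme 1 (independent of the alphabet) -/
structure Data (S W V : Type) [Monoid S] [AddCommGroup W] [AddCommGroup V] where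
  act : V → S → V
  m : ℕ
  we : ℕ → S → W
  F : S → W → V
  hF : ∀ s w v, ∃ i < m, ∀ (s1 : S) (ζ ζ1 : S), ζ ≠ ζ1 →
    act v s1 + F s1 (w + (we i ζ1 - we i ζ)) = act v s + F s w
  Ms : Finset ℕ
  M : ℕ
  hM : 0 < M
  nmL : ℕ → Option (Ctx m S W V)
  nmR : ℕ → Option (Ctx m S W V)
  nmL_per : ∀ t, nmL (t + M) = nmL t
  nm_good : ∀ t t' c c', nmL t = some c → nmR t' = some c' → (∀ k ∈ Ms, ¬ k ∣ t + t') → c = c'
  nm_all : ∀ T, (∀ k ∈ Ms, ¬ k ∣ T) → ∀ c, ∃ t < M, nmL t = some c ∧
        ∀ t', t + t' ≡ T [MOD M] → nmR t' = some c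
  Gam : ℕ
  hGam : 0 < Gam
  hco : Nat.Coprime M Gam

namespace Data

variable {S W V : Type} [Monoid S] [AddCommGroup W] [AddCommGroup V] (D : Data S W V)

/-- candidate value of a context for hole content `ζ` -/
def cval (c : Ctx D.m S W V) (ζ : S) : V :=
  D.act c.2.2.2 (c.2.1.1 * ζ * c.2.2.1.1) +
    D.F (c.2.1.1 * ζ * c.2.2.1.1) (c.2.1.2 + D.we c.1 ζ + c.2.2.1.2)

def Used (c : Ctx D.m S W V) : Prop := ∀ ζ, D.cval c ζ = D.cval c 1

/-- the two colours of a context -/
def col (c : Ctx D.m S W V) : V × V := (c.2.2.2, D.cval c 1)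

def G (j : ℕ) : ℕ := D.Gam ^ j
def cc (j : ℕ) : ℕ := D.M * D.G j
/-- start of the boundary range of level `j` -/
def Am : ℕ → ℕ
  | 0 => 0
  | j + 1 => Am j + D.G j + D.cc j
def A (j : ℕ) : ℕ := D.Am j + D.G j
def beta (j T : ℕ) : ℕ := D.Am j + (T - D.Am j) % D.G j
/-- length of the suffix behind the boundary `j`, computed by the right side at level `i` -/
def LR (i j o' : ℕ) : ℕ := D.G j * ((o' + D.A i - D.Am j) / D.G j)

theorem G_pos (j : ℕ) : 0 < D.G j := pow_pos D.hGam j
theorem cc_pos (j : ℕ) : 0 < D.cc j := Nat.mul_pos D.hM (D.G_pos j)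
theorem G_dvd {i j : ℕ} (h : i ≤ j) : D.G i ∣ D.G j := pow_dvd_pow _ h
theorem cc_mono {i j : ℕ} (h : i ≤ j) : D.cc i ≤ D.cc j :=
  Nat.mul_le_mul_left _ (Nat.le_of_dvd (D.G_pos j) (D.G_dvd h))
theorem Am_succ (j : ℕ) : D.Am (j + 1) = D.A j + D.cc j := rfl
theorem Am_mono {i j : ℕ} (h : i ≤ j) : D.Am i ≤ D.Am j := by
  induction h with
  | refl => exact le_rfl
  | step _ ih => exact ih.trans (by rw [Am_succ]; unfold A; omega)
theorem Am_lt {i j : ℕ} (h : i < j) : D.A i + D.cc i ≤ D.Am j := by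
  rw [← Am_succ]; exact D.Am_mono h

theorem beta_lt (j T : ℕ) : D.beta j T < D.A j := by
  unfold beta A
  have := Nat.mod_lt (T - D.Am j) (D.G_pos j)
  omega
theorem le_beta (j T : ℕ) : D.Am j ≤ D.beta j T := Nat.le_add_right _ _

theorem beta_right (j T : ℕ) (h : D.Am j ≤ T) :
    D.beta j T + D.G j * ((T - D.Am j) / D.G j) = T := by
  unfold beta
  have := Nat.mod_add_div (T - D.Am j) (D.G j)
  omega

theorem beta_left {i j o o' : ℕ} (hj : j ≤ i) (ho : D.A i ≤ o) (hd : D.G i ∣ o') :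
    D.beta j (o + o') = D.beta j o := by
  unfold beta
  have h1 : D.Am j ≤ o := (D.Am_mono hj).trans ((Nat.le_add_right _ _).trans ho)
  have h2 : o + o' - D.Am j = (o - D.Am j) + o' := by omega
  rw [h2]
  obtain ⟨q, hq⟩ := (D.G_dvd hj).trans hd
  rw [hq, Nat.add_mul_mod_self_left]

/-- the right side is sure about the boundary `j` -/
def LegJ (i j o' : ℕ) : Prop :=
  (o' + D.A i - D.Am j) / D.G j = (o' + (D.A i + D.cc i) - D.Am j) / D.G j

theorem beta_rightR {i j o o' : ℕ} (ho : D.A i ≤ o) (ho2 : o < D.A i + D.cc i)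
    (hbig : D.Am j ≤ o') (hleg : D.LegJ i j o') :
    D.beta j (o + o') + D.LR i j o' = o + o' := by
  have h := D.beta_right j (o + o') (by omega)
  have e : (o + o' - D.Am j) / D.G j = (o' + D.A i - D.Am j) / D.G j := by
    apply le_antisymm
    · rw [hleg]
      exact Nat.div_le_div_right (by omega)
    · exact Nat.div_le_div_right (by omega)
  unfold LR
  rw [e] at h
  exact h

variable {α : Type*} (φ : α → S)

/-- left labels -/
def L1 (P : List α) (v : V) : Prop := ∃ c : Ctx D.m S W V,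
  D.nmL P.length = some c ∧ D.A c.1 ≤ P.length ∧ P.length < D.A c.1 + D.cc c.1 ∧ D.Used c ∧
  seg φ P 0 (D.beta c.1 P.length) = c.2.1.1 ∧
  (∑ j ∈ range c.1, D.we j (seg φ P (D.beta j P.length) (D.beta (j + 1) P.length))) = c.2.1.2 ∧
  c.2.2.2 = v

/-- right labels -/
def R1 (Q : List α) (v : V) : Prop := ∃ c : Ctx D.m S W V,
  D.nmR Q.length = some c ∧ D.Am (D.m + 1) ≤ Q.length ∧ D.G c.1 ∣ Q.length ∧ D.Used c ∧
  (∀ j, (c.1 : ℕ) < j → j ≤ D.m → D.LegJ c.1 j Q.length) ∧
  seg φ Q (Q.length - D.LR c.1 (c.1 + 1) Q.length) Q.length = c.2.2.1.1 ∧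
  (∑ j ∈ Ico ((c.1 : ℕ) + 1) D.m, D.we j (seg φ Q (Q.length - D.LR c.1 j Q.length)
    (Q.length - D.LR c.1 (j + 1) Q.length))) = c.2.2.1.2 ∧
  D.cval c 1 = v

theorem R1_unique {Q : List α} {v v' : V} (h : D.R1 φ Q v) (h' : D.R1 φ Q v') : v = v' := by
  obtain ⟨c, h1, -, -, -, -, -, -, h2⟩ := h
  obtain ⟨c', h1', -, -, -, -, -, -, h2'⟩ := h'
  rw [h1] at h1'
  obtain rfl := Option.some.inj h1'
  rw [← h2, ← h2']

/-- no modulus divides the total length -/
def BadN (T : ℕ) : Prop := ∃ k ∈ D.Ms, k ∣ T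

/-- total weight -/
def wt (X : List α) : W :=
  ∑ j ∈ range D.m, D.we j (seg φ X (D.beta j X.length) (D.beta (j + 1) X.length))

open Classical in
noncomputable def pairc (T : ℕ) : V × V :=
  if h : ∃ (p : V × V) (t t' : ℕ) (c c' : Ctx D.m S W V), t + t' = T ∧ D.nmL t = some c ∧
    D.nmR t' = some c' ∧ p = (c.2.2.2, D.cval c' 1) ∧ D.Used c ∧ D.Used c' then h.choose else (0, 0)

open Classical in
/-- noise of scheme 1 -/
noncomputable def nu (X : List α) : V :=
  if D.BadN X.length then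
    (D.pairc X.length).2 - D.act (D.pairc X.length).1 (X.map φ).prod
  else D.F (X.map φ).prod (D.wt φ X)

noncomputable def T1 (v : V) (X : List α) : V := D.act v (X.map φ).prod + D.nu φ X

/-- the colour property of the names (third property of `Names755.names`) -/
def ColProp : Prop := ∀ t₁ t₁' t₂ t₂' c₁ c₁' c₂ c₂', D.nmL t₁ = some c₁ → D.nmR t₁' = some c₁' →
        D.nmL t₂ = some c₂ → D.nmR t₂' = some c₂' → t₁ + t₁' = t₂ + t₂' →
        (∃ k ∈ D.Ms, k ∣ t₁ + t₁') → D.col c₁ = D.col c₂ ∧ D.col c₁' = D.col c₂'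

theorem pairc_eq (hcol : D.ColProp) {t t' : ℕ} {c c' : Ctx D.m S W V} (h1 : D.nmL t = some c)
    (h2 : D.nmR t' = some c') (hb : ∃ k ∈ D.Ms, k ∣ t + t') (hu : D.Used c) (hu' : D.Used c') :
    D.pairc (t + t') = (c.2.2.2, D.cval c' 1) := by
  have hex : ∃ (p : V × V) (s s' : ℕ) (d d' : Ctx D.m S W V), s + s' = t + t' ∧
      D.nmL s = some d ∧ D.nmR s' = some d' ∧ p = (d.2.2.2, D.cval d' 1) ∧ D.Used d ∧ D.Used d' :=
    ⟨_, t, t', c, c', rfl, h1, h2, rfl, hu, hu'⟩
  unfold pairc
  rw [dif_pos hex]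
  obtain ⟨s, s', d, d', hs, e1, e2, e3, -, -⟩ := hex.choose_spec
  rw [e3]
  obtain ⟨f1, f2⟩ := hcol s s' t t' d d' c c' e1 e2 h1 h2 hs (hs ▸ hb)
  have g1 : d.2.2.2 = c.2.2.2 := congrArg Prod.fst f1
  have g2 : D.cval d' 1 = D.cval c' 1 := congrArg Prod.snd f2
  rw [g1, g2]

/-- EXACTNESS of scheme 1 on all pairs -/
theorem sound1 (hcol : D.ColProp) {P Q : List α} {v v' : V} (hP : D.L1 φ P v)
    (hQ : D.R1 φ Q v') : D.T1 φ v (P ++ Q) = v' := by
  obtain ⟨c, hnl, ho1, ho2, hu, hg, hwL, hv⟩ := hP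
  obtain ⟨c', hnr, hbig, hdv, hu', hleg, hh, hwR, hv'⟩ := hQ
  unfold T1 nu
  rw [List.length_append]
  by_cases hbad : D.BadN (P.length + Q.length)
  · rw [if_pos hbad, D.pairc_eq hcol hnl hnr hbad hu hu']
    simp only
    rw [hv, ← hv']
    abel
  · rw [if_neg hbad]
    have hcc : c = c' := D.nm_good _ _ _ _ hnl hnr (by
      intro k hk hd
      exact hbad ⟨k, hk, hd⟩)
    subst hcc
    have hci : (c.1 : ℕ) < D.m := c.1.2
    have hL : ∀ j ≤ (c.1 : ℕ), D.beta j (P.length + Q.length) = D.beta j P.length :=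
      fun j hj => D.beta_left hj ho1 hdv
    have hLb : ∀ j ≤ (c.1 : ℕ), D.beta j P.length ≤ P.length := fun j hj =>
      (D.beta_lt j _).le.trans (le_trans (by
        unfold A
        have h1 := D.Am_mono hj
        have h2 := Nat.le_of_dvd (D.G_pos c.1) (D.G_dvd hj)
        omega) ho1)
    have hR : ∀ j, (c.1 : ℕ) < j → j ≤ D.m →
        D.beta j (P.length + Q.length) = P.length + (Q.length - D.LR c.1 j Q.length) ∧
          D.LR c.1 j Q.length ≤ Q.length := by
      intro j hj hjm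
      have h1 := D.beta_rightR ho1 ho2 (le_trans (D.Am_mono (by omega)) hbig) (hleg j hj hjm)
      have h2 := D.le_beta j (P.length + Q.length)
      have h3 := D.Am_lt hj
      omega
    set ζ := seg φ (P ++ Q) (D.beta c.1 (P.length + Q.length))
      (D.beta (c.1 + 1) (P.length + Q.length)) with hζ
    have hord1 : D.beta c.1 (P.length + Q.length) ≤ D.beta (c.1 + 1) (P.length + Q.length) := by
      have h1 := (D.beta_lt c.1 (P.length + Q.length)).le
      have h2 := D.le_beta (c.1 + 1) (P.length + Q.length)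
      have h3 := D.Am_succ c.1
      omega
    have hord2 : D.beta (c.1 + 1) (P.length + Q.length) ≤ (P ++ Q).length := by
      rw [(hR _ (Nat.lt_succ_self _) hci).1, List.length_append]
      omega
    have hg' : seg φ (P ++ Q) 0 (D.beta c.1 (P.length + Q.length)) = c.2.1.1 := by
      rw [hL _ le_rfl, seg_left _ _ _ (hLb _ le_rfl), hg]
    have hh' : seg φ (P ++ Q) (D.beta (c.1 + 1) (P.length + Q.length)) (P ++ Q).length
        = c.2.2.1.1 := by
      rw [(hR _ (Nat.lt_succ_self _) hci).1, List.length_append, seg_right, hh]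
    have hphi : ((P ++ Q).map φ).prod = c.2.1.1 * ζ * c.2.2.1.1 := by
      rw [← seg_all, ← hg', ← hh', hζ, seg_mul _ _ (Nat.zero_le _) hord1,
        seg_mul _ _ (Nat.zero_le _) hord2]
    have hw : D.wt φ (P ++ Q) = c.2.1.2 + D.we c.1 ζ + c.2.2.1.2 := by
      unfold wt
      rw [List.length_append, ← Finset.sum_range_add_sum_Ico _ (show (c.1 : ℕ) + 1 ≤ D.m from hci),
        Finset.sum_range_succ, ← hwL, ← hwR]
      congr 1
      · congr 1
        refine Finset.sum_congr rfl fun j hj => ?_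
        rw [Finset.mem_range] at hj
        rw [hL j (by omega), hL (j + 1) (by omega), seg_left _ _ _ (hLb (j + 1) (by omega))]
      · refine Finset.sum_congr rfl fun j hj => ?_
        rw [Finset.mem_Ico] at hj
        rw [(hR j (by omega) (by omega)).1, (hR (j + 1) (by omega) (by omega)).1, seg_right]
    rw [hphi, hw, ← hv, ← hv', ← hu ζ]
    rfl

/-- the thin set of total lengths -/
def BadT (T : ℕ) : Prop := (∃ k ∈ D.Ms, k ∣ T) ∨ ∃ j, 1 ≤ j ∧ j ≤ D.m ∧
  ((T - D.Am j) % D.G j < D.cc (j - 1) ∨ D.G j ≤ (T - D.Am j) % D.G j + D.cc (j - 1))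

theorem exists_place (A L k : ℕ) (hL : 0 < L) : ∃ o, A ≤ o ∧ o < A + L ∧ o ≡ k [MOD L] := by
  refine ⟨A + (k + L * A - A) % L, Nat.le_add_right _ _, ?_, ?_⟩
  · have := Nat.mod_lt (k + L * A - A) hL
    omega
  · have h1 : A ≤ L * A := Nat.le_mul_of_pos_left _ hL
    have h2 : A + (k + L * A - A) % L ≡ A + (k + L * A - A) [MOD L] :=
      Nat.ModEq.add_left _ (Nat.mod_modEq _ _)
    have h3 : A + (k + L * A - A) = k + L * A := by omega
    rw [h3] at h2
    exact h2.trans (by simp [Nat.ModEq, Nat.add_mul_mod_self_left])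

theorem nmL_mod (t : ℕ) : D.nmL (t % D.M) = D.nmL t := by
  have h : ∀ q r, D.nmL (r + D.M * q) = D.nmL r := by
    intro q
    induction q with
    | zero => intro r; simp
    | succ q ih =>
      intro r
      rw [Nat.mul_succ, ← Nat.add_assoc, D.nmL_per, ih]
  conv_rhs => rw [← Nat.mod_add_div t D.M]
  rw [h]

/-- COMPLETENESS of scheme 1 off the thin set -/
theorem complete1 {X : List α} (hT : 2 * D.Am (D.m + 1) ≤ X.length) (hbad : ¬ D.BadT X.length)
    (v : V) : ∃ P Q, X = P ++ Q ∧ D.L1 φ P v ∧ D.R1 φ Q (D.T1 φ v X) := by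
  classical
  set T := X.length with hTdef
  have hbN : ¬ D.BadN T := fun h => hbad (Or.inl h)
  obtain ⟨i, him, hi⟩ := D.hF (X.map φ).prod (D.wt φ X) v
  -- the context of level i
  set gg := seg φ X 0 (D.beta i T) with hgg
  set ζ := seg φ X (D.beta i T) (D.beta (i + 1) T) with hζ
  set hh := seg φ X (D.beta (i + 1) T) T with hhh
  set wl := ∑ j ∈ range i, D.we j (seg φ X (D.beta j T) (D.beta (j + 1) T)) with hwl
  set wr := ∑ j ∈ Ico (i + 1) D.m, D.we j (seg φ X (D.beta j T) (D.beta (j + 1) T)) with hwr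
  let c : Ctx D.m S W V := (⟨i, him⟩, (gg, wl), (hh, wr), v)
  have hAm1 := D.Am_mono (show i + 1 ≤ D.m + 1 by omega)
  have hAms := D.Am_succ i
  have hord1 : D.beta i T ≤ D.beta (i + 1) T := by
    have h1 := (D.beta_lt i T).le
    have h2 := D.le_beta (i + 1) T
    omega
  have hord2 : D.beta (i + 1) T ≤ T := by
    have h1 := D.beta_right (i + 1) T (by omega)
    omega
  have hphi : (X.map φ).prod = gg * ζ * hh := by
    rw [← seg_all, hgg, hζ, hhh, seg_mul _ _ (Nat.zero_le _) hord1,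
      seg_mul _ _ (Nat.zero_le _) hord2]
  have hw : D.wt φ X = wl + D.we i ζ + wr := by
    unfold wt
    rw [← Finset.sum_range_add_sum_Ico _ (show i + 1 ≤ D.m from him), Finset.sum_range_succ]
  have hval : ∀ ζ1, D.cval c ζ1 = D.act v (X.map φ).prod + D.F (X.map φ).prod (D.wt φ X) := by
    intro ζ1
    by_cases hz : ζ1 = ζ
    · rw [hz]
      show D.act v (gg * ζ * hh) + D.F (gg * ζ * hh) (wl + D.we i ζ + wr) = _
      rw [hphi, hw]
    · have h1 := hi (gg * ζ1 * hh) ζ ζ1 (fun h => hz h.symm)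
      rw [← h1, hw]
      show D.act v (gg * ζ1 * hh) + D.F (gg * ζ1 * hh) (wl + D.we i ζ1 + wr) = _
      congr 2
      abel
  have hused : D.Used c := fun ζ1 => by rw [hval ζ1, hval 1]
  have hT1 : D.T1 φ v X = D.act v (X.map φ).prod + D.F (X.map φ).prod (D.wt φ X) := by
    unfold T1 nu
    rw [← hTdef, if_neg hbN]
  -- the place
  obtain ⟨t, htM, hnl, hnr⟩ := D.nm_all T (fun k hk hd => hbN ⟨k, hk, hd⟩) c
  have hcoG : Nat.Coprime D.M (D.G i) := Nat.Coprime.pow_right _ D.hco
  obtain ⟨k, hk1, hk2⟩ := Nat.chineseRemainder hcoG t T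
  obtain ⟨o, ho1, ho2, ho3⟩ := exists_place (D.A i) (D.cc i) k (D.cc_pos i)
  have hoT : o ≤ T := by omega
  have ho4 : o ≡ t [MOD D.M] := (ho3.of_dvd (Dvd.intro _ rfl)).trans hk1
  have ho5 : o ≡ T [MOD D.G i] := (ho3.of_dvd (Dvd.intro_left _ rfl)).trans hk2
  set P := X.take o with hP
  set Q := X.drop o with hQ
  have hPQ : X = P ++ Q := (List.take_append_drop o X).symm
  have hPl : P.length = o := by rw [hP, List.length_take]; omega
  have hQl : Q.length = T - o := by rw [hQ, List.length_drop]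
  have hsL : ∀ a b, b ≤ o → seg φ X a b = seg φ P a b := by
    intro a b hb
    rw [hPQ]
    exact seg_left _ _ _ (by omega)
  have hsR : ∀ a b, seg φ X (o + a) (o + b) = seg φ Q a b := by
    intro a b
    rw [hPQ, ← hPl]
    exact seg_right _ _ _ _ _
  have hdv : D.G i ∣ T - o := (Nat.modEq_iff_dvd' hoT).1 ho5
  have hTo : o + (T - o) = T := by omega
  have hL : ∀ j ≤ i, D.beta j T = D.beta j o := by
    intro j hj
    have := D.beta_left (j := j) (o := o) hj ho1 hdv
    rwa [hTo] at this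
  have hLb : ∀ j ≤ i, D.beta j o ≤ o := fun j hj =>
    (D.beta_lt j _).le.trans (le_trans (by
      unfold A
      have h1 := D.Am_mono hj
      have h2 := Nat.le_of_dvd (D.G_pos i) (D.G_dvd hj)
      omega) ho1)
  have hA : D.Am (i + 1) = D.A i + D.cc i := rfl
  have hbig : D.Am (D.m + 1) ≤ T - o := by omega
  have hleg : ∀ j, i < j → j ≤ D.m → D.LegJ i j (T - o) := by
    intro j hj hjm
    have hn : ¬ ((T - D.Am j) % D.G j < D.cc (j - 1) ∨
        D.G j ≤ (T - D.Am j) % D.G j + D.cc (j - 1)) :=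
      fun h => hbad (Or.inr ⟨j, by omega, hjm, h⟩)
    push Not at hn
    obtain ⟨hn1, hn2⟩ := hn
    have hcc := D.cc_mono (show i ≤ j - 1 by omega)
    have hAj := D.Am_mono (show j ≤ D.m + 1 by omega)
    have hx := Nat.mod_add_div (T - D.Am j) (D.G j)
    have hG := D.G_pos j
    unfold LegJ
    have e1 : T - o + D.A i - D.Am j =
        D.G j * ((T - D.Am j) / D.G j) + ((T - D.Am j) % D.G j - (o - D.A i)) := by omega
    have e2 : T - o + (D.A i + D.cc i) - D.Am j =
        D.G j * ((T - D.Am j) / D.G j) + ((T - D.Am j) % D.G j + (D.A i + D.cc i - o)) := by omega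
    have d1 : ((T - D.Am j) % D.G j - (o - D.A i)) / D.G j = 0 := Nat.div_eq_of_lt (by omega)
    have d2 : ((T - D.Am j) % D.G j + (D.A i + D.cc i - o)) / D.G j = 0 :=
      Nat.div_eq_of_lt (by omega)
    rw [e1, e2, Nat.mul_add_div hG, Nat.mul_add_div hG, d1, d2]
  have hR : ∀ j, i < j → j ≤ D.m →
      D.beta j T = o + (Q.length - D.LR i j Q.length) := by
    intro j hj hjm
    rw [hQl]
    have h1 := D.beta_rightR ho1 ho2 (le_trans (D.Am_mono (by omega)) hbig) (hleg j hj hjm)
    rw [hTo] at h1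
    have h2 := D.le_beta j T
    have h3 := D.Am_lt hj
    omega
  have hnlo : D.nmL o = some c := by
    rw [← D.nmL_mod o, show o % D.M = t % D.M from ho4, D.nmL_mod, hnl]
  have hnro : D.nmR (T - o) = some c := by
    refine hnr _ ?_
    have := Nat.ModEq.add_right (T - o) ho4.symm
    rwa [hTo] at this
  refine ⟨P, Q, hPQ, ⟨c, ?_, ?_, ?_, hused, ?_, ?_, rfl⟩,
    ⟨c, ?_, ?_, ?_, hused, ?_, ?_, ?_, ?_⟩⟩
  · rw [hPl]; exact hnlo
  · rw [hPl]; exact ho1
  · rw [hPl]; exact ho2
  · show seg φ P 0 (D.beta i P.length) = gg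
    rw [hPl, hgg, hL i le_rfl, hsL _ _ (hLb i le_rfl)]
  · show (∑ j ∈ range i, D.we j (seg φ P (D.beta j P.length) (D.beta (j + 1) P.length))) = wl
    rw [hPl, hwl]
    refine Finset.sum_congr rfl fun j hj => ?_
    rw [Finset.mem_range] at hj
    rw [hL j (by omega), hL (j + 1) (by omega), hsL _ _ (hLb (j + 1) (by omega))]
  · rw [hQl]; exact hnro
  · rw [hQl]; exact hbig
  · rw [hQl]; exact hdv
  · rw [hQl]; exact hleg
  · show seg φ Q (Q.length - D.LR i (i + 1) Q.length) Q.length = hh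
    rw [hhh, hR (i + 1) (Nat.lt_succ_self _) him]
    have : T = o + Q.length := by rw [hQl]; omega
    conv_rhs => rw [this]
    rw [hsR]
  · show (∑ j ∈ Ico (i + 1) D.m, D.we j (seg φ Q (Q.length - D.LR i j Q.length)
      (Q.length - D.LR i (j + 1) Q.length))) = wr
    rw [hwr]
    refine Finset.sum_congr rfl fun j hj => ?_
    rw [Finset.mem_Ico] at hj
    rw [hR j (by omega) (by omega), hR (j + 1) (by omega) (by omega), hsR]
  · rw [hval 1, hT1]

end Data

end Crest.Agent.R320.Grid_991
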