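import Crest.Agent.R320.Mask_836
import Crest.Agent.R320.Names_755
import Crest.Agent.R320.Grid_991

set_option autoImplicit false

/-!
Row 320, the gadget `g1` of lead #13673 = helper852 #13483 (G1): levels = positional digits of the
total length in base `b`, names = `Names_755.names`.
-/

namespace Crest.Agent.R320.G1_991

open Finset Crest.Agent.R320.Grid_991

/-- candidate value of a context for hole content `ζ` -/
def cval {m : ℕ} {S W V : Type} [Monoid S] [AddCommGroup W] [AddCommGroup V] (act : V → S → V)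
    (we : ℕ → S → W) (F : S → W → V) (c : Ctx m S W V) (ζ : S) : V :=
  act c.2.2.2 (c.2.1.1 * ζ * c.2.2.1.1) +
    F (c.2.1.1 * ζ * c.2.2.1.1) (c.2.1.2 + we c.1 ζ + c.2.2.1.2)

/-- all data of scheme 1 (independent of the alphabet) -/
structure Data (S W V : Type) [Monoid S] [AddCommGroup W] [AddCommGroup V] where
  act : V → S → V
  m : ℕ
  we : ℕ → S → W
  F : S → W → V
  hF : ∀ s w v, ∃ i < m, ∀ (s1 : S) (ζ ζ1 : S), ζ ≠ ζ1 →
    act v s1 + F s1 (w + (we i ζ1 - we i ζ)) = act v s + F s w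
  Ms : Finset ℕ
  M : ℕ
  hM : 0 < M
  hMs : ∀ k ∈ Ms, k ∣ M
  nmL : ℕ → Option (Ctx m S W V)
  nmR : ℕ → Option (Ctx m S W V)
  nmL_per : ∀ t, nmL (t + M) = nmL t
  nmR_per : ∀ t, nmR (t + M) = nmR t
  nm_good : ∀ t t' c c', nmL t = some c → nmR t' = some c' → (∀ k ∈ Ms, ¬ k ∣ t + t') → c = c'
  nm_all : ∀ T, (∀ k ∈ Ms, ¬ k ∣ T) → ∀ c, ∃ t < M, nmL t = some c ∧
        ∀ t', t + t' ≡ T [MOD M] → nmR t' = some c
  nm_col : ∀ t₁ t₁' t₂ t₂' c₁ c₁' c₂ c₂', nmL t₁ = some c₁ → nmR t₁' = some c₁' →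
        nmL t₂ = some c₂ → nmR t₂' = some c₂' → t₁ + t₁' = t₂ + t₂' →
        (∃ k ∈ Ms, k ∣ t₁ + t₁') → c₁.2.2.2 = c₂.2.2.2 ∧
          cval act we F c₁' 1 = cval act we F c₂' 1
  b : ℕ
  hb : 4 * M + 4 < b
  hco : Nat.Coprime b M

namespace Data

variable {S W V : Type} [Monoid S] [AddCommGroup W] [AddCommGroup V] (D : Data S W V)

def cv (c : Ctx D.m S W V) (ζ : S) : V := cval D.act D.we D.F c ζ

def Used (c : Ctx D.m S W V) : Prop := ∀ ζ, D.cv c ζ = D.cv c 1

theorem b_pos : 0 < D.b := by have := D.hb; omega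
theorem pow_pos' (j : ℕ) : 0 < D.b ^ j := pow_pos D.b_pos j

theorem per_mod {β : Type} (f : ℕ → β) (L : ℕ) (h : ∀ t, f (t + L) = f t) (t : ℕ) :
    f (t % L) = f t := by
  have h' : ∀ q r, f (r + L * q) = f r := by
    intro q
    induction q with
    | zero => intro r; simp
    | succ q ih =>
      intro r
      rw [Nat.mul_succ, ← Nat.add_assoc, h, ih]
  conv_rhs => rw [← Nat.mod_add_div t L]
  rw [h']

theorem nmL_mod (t : ℕ) : D.nmL (t % D.M) = D.nmL t := per_mod _ _ D.nmL_per t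
theorem nmR_mod (t : ℕ) : D.nmR (t % D.M) = D.nmR t := per_mod _ _ D.nmR_per t

/-- low digits are the left side's -/
theorem mod_left {i j o o' : ℕ} (hj : j ≤ i) (hd : D.b ^ i ∣ o') :
    (o + o') % D.b ^ j = o % D.b ^ j := by
  obtain ⟨q, hq⟩ := (pow_dvd_pow D.b hj).trans hd
  rw [hq, Nat.add_mul_mod_self_left]

theorem nocarry {i o o' : ℕ} (ho : o < D.b ^ (i + 1)) (hd : D.b ^ i ∣ o')
    (h1 : 2 * (o / D.b ^ i % D.b) < D.b) (h2 : 2 * (o' / D.b ^ i % D.b) < D.b) :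
    o + o' % D.b ^ (i + 1) < D.b ^ (i + 1) := by
  have hp := D.pow_pos' i
  have e1 : o' % D.b ^ (i + 1) = D.b ^ i * (o' / D.b ^ i % D.b) := by
    rw [pow_succ, Nat.mod_mul, Nat.mod_eq_zero_of_dvd hd, zero_add]
  have e2 : o / D.b ^ i < D.b := by
    rw [Nat.div_lt_iff_lt_mul hp, mul_comm, ← pow_succ]; exact ho
  rw [Nat.mod_eq_of_lt e2] at h1
  have e3 : o < D.b ^ i * (o / D.b ^ i) + D.b ^ i := by
    have := Nat.mod_lt o hp
    have := Nat.mod_add_div o (D.b ^ i)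
    omega
  rw [e1]
  set d := o / D.b ^ i
  set d' := o' / D.b ^ i % D.b
  have e4 : d + d' + 1 ≤ D.b := by omega
  calc o + D.b ^ i * d' < D.b ^ i * d + D.b ^ i + D.b ^ i * d' := by omega
    _ = D.b ^ i * (d + d' + 1) := by ring
    _ ≤ D.b ^ i * D.b := Nat.mul_le_mul_left _ e4
    _ = D.b ^ (i + 1) := (pow_succ _ _).symm

theorem div_right {i j o o' : ℕ} (hj : i < j) (ho : o < D.b ^ (i + 1)) (hd : D.b ^ i ∣ o')
    (h1 : 2 * (o / D.b ^ i % D.b) < D.b) (h2 : 2 * (o' / D.b ^ i % D.b) < D.b) :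
    (o + o') / D.b ^ j = o' / D.b ^ j := by
  obtain ⟨d, rfl⟩ : ∃ d, j = (i + 1) + d := ⟨j - (i + 1), by omega⟩
  have hp := D.pow_pos' (i + 1)
  have hlt := D.nocarry ho hd h1 h2
  rw [pow_add, ← Nat.div_div_eq_div_mul, ← Nat.div_div_eq_div_mul]
  congr 1
  have e : o + o' = D.b ^ (i + 1) * (o' / D.b ^ (i + 1)) + (o + o' % D.b ^ (i + 1)) := by
    have := Nat.mod_add_div o' (D.b ^ (i + 1))
    omega
  rw [e, Nat.mul_add_div hp, Nat.div_eq_of_lt hlt, add_zero]

theorem mod_right {i j o o' : ℕ} (hj : i < j) (ho : o < D.b ^ (i + 1)) (hd : D.b ^ i ∣ o')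
    (h1 : 2 * (o / D.b ^ i % D.b) < D.b) (h2 : 2 * (o' / D.b ^ i % D.b) < D.b) :
    (o + o') % D.b ^ j = o + o' % D.b ^ j := by
  have e1 := Nat.mod_add_div (o + o') (D.b ^ j)
  have e2 := Nat.mod_add_div o' (D.b ^ j)
  rw [D.div_right hj ho hd h1 h2] at e1
  omega

variable {α : Type*} (φ : α → S)

/-- left labels -/
def L1 (P : List α) (v : V) : Prop := ∃ c : Ctx D.m S W V,
  D.nmL P.length = some c ∧ P.length < D.b ^ ((c.1 : ℕ) + 1) ∧
  2 * (P.length / D.b ^ (c.1 : ℕ) % D.b) < D.b ∧ D.Used c ∧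
  seg φ P 0 (P.length % D.b ^ (c.1 : ℕ)) = c.2.1.1 ∧
  (∑ j ∈ range c.1, D.we j (seg φ P (P.length % D.b ^ j) (P.length % D.b ^ (j + 1))))
    = c.2.1.2 ∧
  c.2.2.2 = v

/-- right labels -/
def R1 (Q : List α) (v : V) : Prop := ∃ c : Ctx D.m S W V,
  D.nmR (Q.length % D.M) = some c ∧ D.b ^ (c.1 : ℕ) ∣ Q.length ∧
  2 * (Q.length / D.b ^ (c.1 : ℕ) % D.b) < D.b ∧ D.Used c ∧
  seg φ Q (Q.length % D.b ^ ((c.1 : ℕ) + 1)) Q.length = c.2.2.1.1 ∧
  (∑ j ∈ Ico ((c.1 : ℕ) + 1) D.m, D.we j (seg φ Q (Q.length % D.b ^ j)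
    (Q.length % D.b ^ (j + 1)))) = c.2.2.1.2 ∧
  D.cv c 1 = v

theorem L1_unique {Q : List α} {v v' : V} (h : D.L1 φ Q v) (h' : D.L1 φ Q v') : v = v' := by
  obtain ⟨c, h1, -, -, -, -, -, h2⟩ := h
  obtain ⟨c', h1', -, -, -, -, -, h2'⟩ := h'
  rw [h1] at h1'
  obtain rfl := Option.some.inj h1'
  rw [← h2, ← h2']

theorem R1_unique {Q : List α} {v v' : V} (h : D.R1 φ Q v) (h' : D.R1 φ Q v') : v = v' := by
  obtain ⟨c, h1, -, -, -, -, -, h2⟩ := h
  obtain ⟨c', h1', -, -, -, -, -, h2'⟩ := h'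
  rw [h1] at h1'
  obtain rfl := Option.some.inj h1'
  rw [← h2, ← h2']

/-- some modulus divides the total length -/
def BadN (T : ℕ) : Prop := ∃ k ∈ D.Ms, k ∣ T % D.M

theorem dvd_mod {k T : ℕ} (hk : k ∈ D.Ms) : k ∣ T % D.M ↔ k ∣ T :=
  (Nat.dvd_mod_iff (D.hMs k hk))

/-- total weight -/
def wt (X : List α) : W :=
  ∑ j ∈ range D.m, D.we j (seg φ X (X.length % D.b ^ j) (X.length % D.b ^ (j + 1)))

open Classical in
noncomputable def pairc (T : ℕ) : V × V :=
  if h : ∃ (p : V × V) (t t' : ℕ) (c c' : Ctx D.m S W V), t + t' ≡ T [MOD D.M] ∧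
    D.nmL t = some c ∧ D.nmR t' = some c' ∧ p = (c.2.2.2, D.cv c' 1) then h.choose else (0, 0)

open Classical in
/-- noise of scheme 1 -/
noncomputable def nu (X : List α) : V :=
  if D.BadN X.length then
    (D.pairc (X.length % D.M)).2 - D.act (D.pairc (X.length % D.M)).1 (X.map φ).prod
  else D.F (X.map φ).prod (D.wt φ X)

noncomputable def T1 (v : V) (X : List α) : V := D.act v (X.map φ).prod + D.nu φ X

theorem pairc_eq {t t' : ℕ} {c c' : Ctx D.m S W V} (h1 : D.nmL t = some c)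
    (h2 : D.nmR t' = some c') (hb : ∃ k ∈ D.Ms, k ∣ t + t') :
    D.pairc ((t + t') % D.M) = (c.2.2.2, D.cv c' 1) := by
  have hex : ∃ (p : V × V) (s s' : ℕ) (d d' : Ctx D.m S W V), s + s' ≡ (t + t') % D.M [MOD D.M] ∧
      D.nmL s = some d ∧ D.nmR s' = some d' ∧ p = (d.2.2.2, D.cv d' 1) :=
    ⟨_, t, t', c, c', (Nat.mod_modEq _ _).symm, h1, h2, rfl⟩
  unfold pairc
  rw [dif_pos hex]
  obtain ⟨s, s', d, d', hs, e1, e2, e3⟩ := hex.choose_spec
  rw [e3]
  have hs' : s + s' ≡ t + t' [MOD D.M] := hs.trans (Nat.mod_modEq _ _)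
  -- make the totals equal by adding multiples of `M` to the right clocks
  have key : ∃ x y, s + (s' + D.M * x) = t + (t' + D.M * y) := by
    rcases le_total (s + s') (t + t') with h | h
    · obtain ⟨q, hq⟩ := (Nat.modEq_iff_dvd' h).1 hs'
      exact ⟨q, 0, by omega⟩
    · obtain ⟨q, hq⟩ := (Nat.modEq_iff_dvd' h).1 hs'.symm
      exact ⟨0, q, by omega⟩
  obtain ⟨x, y, hxy⟩ := key
  have f : ∀ r q, D.nmR (r + D.M * q) = D.nmR r := by
    intro r q
    rw [← D.nmR_mod (r + D.M * q), Nat.add_mul_mod_self_left, D.nmR_mod]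
  have hb' : ∃ k ∈ D.Ms, k ∣ s + (s' + D.M * x) := by
    obtain ⟨k, hk, hd⟩ := hb
    refine ⟨k, hk, ?_⟩
    rw [hxy, ← add_assoc]
    exact hd.add ((D.hMs k hk).mul_right _)
  obtain ⟨f1, f2⟩ := D.nm_col s (s' + D.M * x) t (t' + D.M * y) d d' c c' e1
    (by rw [f]; exact e2) h1 (by rw [f]; exact h2) hxy hb'
  rw [f1]
  exact Prod.ext rfl f2

/-- EXACTNESS of scheme 1 on all pairs -/
theorem sound1 {P Q : List α} {v v' : V} (hP : D.L1 φ P v)
    (hQ : D.R1 φ Q v') : D.T1 φ v (P ++ Q) = v' := by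
  obtain ⟨c, hnl, ho1, ho2, hu, hg, hwL, hv⟩ := hP
  obtain ⟨c', hnr, hdv, hdg, hu', hh, hwR, hv'⟩ := hQ
  rw [D.nmR_mod] at hnr
  unfold T1 nu
  rw [List.length_append]
  by_cases hbad : D.BadN (P.length + Q.length)
  · have hbad' : ∃ k ∈ D.Ms, k ∣ P.length + Q.length := by
      obtain ⟨k, hk, hd⟩ := hbad
      exact ⟨k, hk, (D.dvd_mod hk).1 hd⟩
    rw [if_pos hbad, D.pairc_eq hnl hnr hbad']
    simp only
    rw [hv, ← hv']
    abel
  · rw [if_neg hbad]
    have hcc : c = c' := D.nm_good _ _ _ _ hnl hnr (by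
      intro k hk hd
      exact hbad ⟨k, hk, (D.dvd_mod hk).2 hd⟩)
    subst hcc
    have hci : (c.1 : ℕ) < D.m := c.1.2
    have hL : ∀ j ≤ (c.1 : ℕ), (P.length + Q.length) % D.b ^ j = P.length % D.b ^ j :=
      fun j hj => D.mod_left hj hdv
    have hLb : ∀ j, P.length % D.b ^ j ≤ P.length := fun j => Nat.mod_le _ _
    have hR : ∀ j, (c.1 : ℕ) < j →
        (P.length + Q.length) % D.b ^ j = P.length + Q.length % D.b ^ j :=
      fun j hj => D.mod_right hj ho1 hdv ho2 hdg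
    set ζ := seg φ (P ++ Q) ((P.length + Q.length) % D.b ^ (c.1 : ℕ))
      ((P.length + Q.length) % D.b ^ ((c.1 : ℕ) + 1)) with hζ
    have hord1 : (P.length + Q.length) % D.b ^ (c.1 : ℕ) ≤
        (P.length + Q.length) % D.b ^ ((c.1 : ℕ) + 1) := by
      rw [hL _ le_rfl, hR _ (Nat.lt_succ_self _)]
      exact (hLb _).trans (Nat.le_add_right _ _)
    have hord2 : (P.length + Q.length) % D.b ^ ((c.1 : ℕ) + 1) ≤ (P ++ Q).length := by
      rw [List.length_append]
      exact Nat.mod_le _ _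
    have hg' : seg φ (P ++ Q) 0 ((P.length + Q.length) % D.b ^ (c.1 : ℕ)) = c.2.1.1 := by
      rw [hL _ le_rfl, seg_left _ _ _ (hLb _), hg]
    have hh' : seg φ (P ++ Q) ((P.length + Q.length) % D.b ^ ((c.1 : ℕ) + 1)) (P ++ Q).length
        = c.2.2.1.1 := by
      rw [hR _ (Nat.lt_succ_self _), List.length_append, seg_right, hh]
    have hphi : ((P ++ Q).map φ).prod = c.2.1.1 * ζ * c.2.2.1.1 := by
      rw [← seg_all, ← hg', ← hh', hζ, seg_mul _ _ (Nat.zero_le _) hord1,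
        seg_mul _ _ (Nat.zero_le _) hord2]
    have hw : D.wt φ (P ++ Q) = c.2.1.2 + D.we c.1 ζ + c.2.2.1.2 := by
      unfold wt
      rw [List.length_append, ← Finset.sum_range_add_sum_Ico _ (show (c.1 : ℕ) + 1 ≤ D.m from hci),
        Finset.sum_range_succ, ← hwL, ← hwR]
      congr 1
      · congr 1
        refine Finset.sum_congr rfl fun j hj => ?_
        rw [Finset.mem_range] at hj
        rw [hL j (by omega), hL (j + 1) (by omega), seg_left _ _ _ (hLb (j + 1))]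
      · refine Finset.sum_congr rfl fun j hj => ?_
        rw [Finset.mem_Ico] at hj
        rw [hR j (by omega), hR (j + 1) (by omega), seg_right]
    rw [hphi, hw, ← hv, ← hv', ← hu ζ]
    rfl

/-- COMPLETENESS of scheme 1 off the thin set -/
theorem complete1 {X : List α} (hbN : ∀ k ∈ D.Ms, ¬ k ∣ X.length)
    (hdig : ∀ j < D.m, D.M ≤ X.length / D.b ^ j % D.b ∧ X.length / D.b ^ j % D.b + D.M + 1 ≤ D.b)
    (v : V) : ∃ P Q, P ++ Q = X ∧ D.L1 φ P v ∧ D.R1 φ Q (D.T1 φ v X) := by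
  classical
  set T := X.length with hTdef
  obtain ⟨i, him, hi⟩ := D.hF (X.map φ).prod (D.wt φ X) v
  set gg := seg φ X 0 (T % D.b ^ i) with hgg
  set ζ := seg φ X (T % D.b ^ i) (T % D.b ^ (i + 1)) with hζ
  set hh := seg φ X (T % D.b ^ (i + 1)) T with hhh
  set wl := ∑ j ∈ range i, D.we j (seg φ X (T % D.b ^ j) (T % D.b ^ (j + 1))) with hwl
  set wr := ∑ j ∈ Ico (i + 1) D.m, D.we j (seg φ X (T % D.b ^ j) (T % D.b ^ (j + 1))) with hwr
  let c : Ctx D.m S W V := (⟨i, him⟩, (gg, wl), (hh, wr), v)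
  have hp := D.pow_pos' i
  have hsucc : T % D.b ^ (i + 1) = T % D.b ^ i + D.b ^ i * (T / D.b ^ i % D.b) := by
    rw [pow_succ, Nat.mod_mul]
  have hord1 : T % D.b ^ i ≤ T % D.b ^ (i + 1) := by rw [hsucc]; exact Nat.le_add_right _ _
  have hord2 : T % D.b ^ (i + 1) ≤ T := Nat.mod_le _ _
  have hphi : (X.map φ).prod = gg * ζ * hh := by
    rw [← seg_all, hgg, hζ, hhh, seg_mul _ _ (Nat.zero_le _) hord1,
      seg_mul _ _ (Nat.zero_le _) hord2]
  have hw : D.wt φ X = wl + D.we i ζ + wr := by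
    unfold wt
    rw [← Finset.sum_range_add_sum_Ico _ (show i + 1 ≤ D.m from him), Finset.sum_range_succ]
  have hval : ∀ ζ1, D.cv c ζ1 = D.act v (X.map φ).prod + D.F (X.map φ).prod (D.wt φ X) := by
    intro ζ1
    by_cases hz : ζ1 = ζ
    · rw [hz]
      show D.act v (gg * ζ * hh) + D.F (gg * ζ * hh) (wl + D.we i ζ + wr) = _
      rw [hphi, hw]
    · have h1 := hi (gg * ζ1 * hh) ζ ζ1 (fun h => hz h.symm)
      rw [← h1, hw]
      show D.act v (gg * ζ1 * hh) + D.F (gg * ζ1 * hh) (wl + D.we i ζ1 + wr) = _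
      congr 2
      abel
  have hused : D.Used c := fun ζ1 => by rw [hval ζ1, hval 1]
  have hT1 : D.T1 φ v X = D.act v (X.map φ).prod + D.F (X.map φ).prod (D.wt φ X) := by
    unfold T1 nu
    rw [← hTdef, if_neg]
    rintro ⟨k, hk, hd⟩
    exact hbN k hk ((D.dvd_mod hk).1 hd)
  -- the place
  obtain ⟨t, htM, hnl, hnr⟩ := D.nm_all T hbN c
  have hcoG : Nat.Coprime D.M (D.b ^ i) := Nat.Coprime.pow_right _ D.hco.symm
  obtain ⟨k, hk1, hk2⟩ := Nat.chineseRemainder hcoG t T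
  set n := T / D.b ^ i % D.b with hn
  obtain ⟨hd1, hd2⟩ := hdig i him
  have hbb := D.hb
  set d0 := n - (D.b - 1) / 2 with hd0
  obtain ⟨o, ho1, ho2, ho3⟩ := Grid_991.Data.exists_place (T % D.b ^ i + D.b ^ i * d0)
    (D.M * D.b ^ i) k (Nat.mul_pos D.hM hp)
  have ho4 : o ≡ t [MOD D.M] := (ho3.of_dvd (Dvd.intro _ rfl)).trans hk1
  have ho5 : o ≡ T [MOD D.b ^ i] := (ho3.of_dvd (Dvd.intro_left _ rfl)).trans hk2
  have homod : o % D.b ^ i = T % D.b ^ i := ho5
  set d := o / D.b ^ i with hd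
  have hod : o = T % D.b ^ i + D.b ^ i * d := by
    rw [← homod, hd]; exact (Nat.mod_add_div _ _).symm
  have hdlo : d0 ≤ d := by
    rw [hod] at ho1
    have : D.b ^ i * d0 ≤ D.b ^ i * d := by omega
    exact Nat.le_of_mul_le_mul_left this hp
  have hdhi : d < d0 + D.M := by
    rw [hod] at ho2
    have : D.b ^ i * d < D.b ^ i * (d0 + D.M) := by
      have e : D.b ^ i * (d0 + D.M) = D.b ^ i * d0 + D.M * D.b ^ i := by ring
      omega
    exact Nat.lt_of_mul_lt_mul_left this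
  have hdn : d ≤ n := by omega
  have hd2b : 2 * d < D.b := by omega
  have hnd : 2 * (n - d) < D.b := by omega
  have hTdiv : T = T % D.b ^ i + D.b ^ i * (T / D.b ^ i) := (Nat.mod_add_div _ _).symm
  have hnle : n ≤ T / D.b ^ i := Nat.mod_le _ _
  have hoT : o ≤ T := by
    rw [hod]
    conv_rhs => rw [hTdiv]
    exact Nat.add_le_add_left (Nat.mul_le_mul_left _ (hdn.trans hnle)) _
  have hTo : o + (T - o) = T := by omega
  have hoo : T - o = D.b ^ i * (T / D.b ^ i - d) := by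
    rw [Nat.mul_sub]
    have h1 : D.b ^ i * d ≤ D.b ^ i * (T / D.b ^ i) := Nat.mul_le_mul_left _ (hdn.trans hnle)
    omega
  have hdv : D.b ^ i ∣ T - o := ⟨_, hoo⟩
  have hdigR : (T - o) / D.b ^ i % D.b = n - d := by
    rw [hoo, Nat.mul_div_cancel_left _ hp]
    have h1 : T / D.b ^ i - d = (n - d) + D.b * (T / D.b ^ i / D.b) := by
      have := Nat.mod_add_div (T / D.b ^ i) D.b
      omega
    rw [h1, Nat.add_mul_mod_self_left]
    exact Nat.mod_eq_of_lt (by omega)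
  have hdigL : o / D.b ^ i % D.b = d := Nat.mod_eq_of_lt (by omega)
  have hosm : o < D.b ^ (i + 1) := by
    have h1 : d < D.b := by omega
    rw [pow_succ, mul_comm]
    exact (Nat.div_lt_iff_lt_mul hp).1 h1
  set P := X.take o with hP
  set Q := X.drop o with hQ
  have hPQ : X = P ++ Q := (List.take_append_drop o X).symm
  have hPl : P.length = o := by rw [hP, List.length_take]; omega
  have hQl : Q.length = T - o := by rw [hQ, List.length_drop]
  have hsL : ∀ a b, b ≤ o → seg φ X a b = seg φ P a b := by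
    intro a b hb
    rw [hPQ]
    exact seg_left _ _ _ (by omega)
  have hsR : ∀ a b, seg φ X (o + a) (o + b) = seg φ Q a b := by
    intro a b
    rw [hPQ, ← hPl]
    exact seg_right _ _ _ _ _
  have hL : ∀ j ≤ i, T % D.b ^ j = o % D.b ^ j := by
    intro j hj
    have := D.mod_left (j := j) (o := o) hj hdv
    rwa [hTo] at this
  have hLb : ∀ j, o % D.b ^ j ≤ o := fun j => Nat.mod_le _ _
  have hR : ∀ j, i < j → T % D.b ^ j = o + Q.length % D.b ^ j := by
    intro j hj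
    rw [hQl]
    have := D.mod_right (j := j) (o := o) (o' := T - o) hj hosm hdv (by rw [hdigL]; exact hd2b)
      (by rw [hdigR]; exact hnd)
    rwa [hTo] at this
  have hnlo : D.nmL o = some c := by
    rw [← D.nmL_mod o, show o % D.M = t % D.M from ho4, D.nmL_mod, hnl]
  have hnro : D.nmR (T - o) = some c := by
    refine hnr _ ?_
    have := Nat.ModEq.add_right (T - o) ho4.symm
    rwa [hTo] at this
  refine ⟨P, Q, hPQ.symm, ⟨c, ?_, ?_, ?_, hused, ?_, ?_, rfl⟩,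
    ⟨c, ?_, ?_, ?_, hused, ?_, ?_, ?_⟩⟩
  · rw [hPl]; exact hnlo
  · rw [hPl]; exact hosm
  · rw [hPl]
    show 2 * (o / D.b ^ i % D.b) < D.b
    rw [hdigL]; exact hd2b
  · show seg φ P 0 (P.length % D.b ^ i) = gg
    rw [hPl, hgg, hL i le_rfl, hsL _ _ (hLb i)]
  · show (∑ j ∈ range i, D.we j (seg φ P (P.length % D.b ^ j) (P.length % D.b ^ (j + 1)))) = wl
    rw [hPl, hwl]
    refine Finset.sum_congr rfl fun j hj => ?_
    rw [Finset.mem_range] at hj
    rw [hL j (by omega), hL (j + 1) (by omega), hsL _ _ (hLb (j + 1))]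
  · rw [D.nmR_mod, hQl]; exact hnro
  · rw [hQl]; exact hdv
  · rw [hQl]
    show 2 * ((T - o) / D.b ^ i % D.b) < D.b
    rw [hdigR]; exact hnd
  · show seg φ Q (Q.length % D.b ^ (i + 1)) Q.length = hh
    rw [hhh, hR (i + 1) (Nat.lt_succ_self _)]
    have : T = o + Q.length := by rw [hQl]; omega
    conv_rhs => rw [this]
    rw [hsR]
  · show (∑ j ∈ Ico (i + 1) D.m, D.we j (seg φ Q (Q.length % D.b ^ j)
      (Q.length % D.b ^ (j + 1)))) = wr
    rw [hwr]
    refine Finset.sum_congr rfl fun j hj => ?_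
    rw [Finset.mem_Ico] at hj
    rw [hR j (by omega), hR (j + 1) (by omega), hsR]
  · rw [hval 1, hT1]

theorem seg_congr (Q Q' : List α) {L a b : ℕ} (h : Q.take L = Q'.take L) (hb : b ≤ L) :
    seg φ Q a b = seg φ Q' a b := by
  unfold seg
  have e : ∀ R : List α, R.take b = (R.take L).take b := by
    intro R; rw [List.take_take, min_eq_left hb]
  rw [e Q, e Q', h]

theorem seg_end (Q : List α) {L a : ℕ} (ha : a ≤ L) (hL : L ≤ Q.length) :
    seg φ Q a Q.length = seg φ Q a L * ((Q.drop L).map φ).prod := by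
  rw [← seg_mul φ Q ha hL]
  congr 1
  unfold seg
  rw [List.take_length]

theorem Lmod {Q Q' : List α} {K L : ℕ} (h : Q.length % L = Q'.length % L) (hK : K ∣ L) :
    Q.length % K = Q'.length % K := by
  rw [← Nat.mod_mod_of_dvd Q.length hK, ← Nat.mod_mod_of_dvd Q'.length hK, h]

theorem digit_congr {Q Q' : List α} (i : ℕ)
    (h : Q.length % D.b ^ (i + 1) = Q'.length % D.b ^ (i + 1)) :
    Q.length / D.b ^ i % D.b = Q'.length / D.b ^ i % D.b := by
  have e : ∀ n : ℕ, n / D.b ^ i % D.b = n % D.b ^ (i + 1) / D.b ^ i := by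
    intro n
    rw [pow_succ, Nat.mod_mul_right_div_self]
  rw [e, e, h]

theorem R1_congr {Q Q' : List α} (h1 : D.b ^ D.m ≤ Q.length) (h2 : D.b ^ D.m ≤ Q'.length)
    (h3 : Q.take (D.b ^ D.m) = Q'.take (D.b ^ D.m))
    (h4 : Q.length % (D.M * D.b ^ D.m) = Q'.length % (D.M * D.b ^ D.m))
    (h5 : ((Q.drop (D.b ^ D.m)).map φ).prod = ((Q'.drop (D.b ^ D.m)).map φ).prod) {v : V}
    (h : D.R1 φ Q v) : D.R1 φ Q' v := by
  obtain ⟨c, g1, g2, g3, g4, g5, g6, g7⟩ := h
  have hci : (c.1 : ℕ) < D.m := c.1.2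
  have hpw : ∀ j ≤ D.m, Q.length % D.b ^ j = Q'.length % D.b ^ j := fun j hj =>
    Lmod h4 ((pow_dvd_pow D.b hj).mul_left _)
  have hle : ∀ j ≤ D.m, Q'.length % D.b ^ j ≤ D.b ^ D.m := fun j hj =>
    (Nat.mod_lt _ (D.pow_pos' j)).le.trans (Nat.pow_le_pow_right D.b_pos hj)
  refine ⟨c, ?_, ?_, ?_, g4, ?_, ?_, g7⟩
  · rw [← Lmod h4 (Dvd.intro _ rfl)]; exact g1
  · rw [Nat.dvd_iff_mod_eq_zero, ← hpw _ hci.le, ← Nat.dvd_iff_mod_eq_zero]; exact g2
  · rw [← D.digit_congr (c.1 : ℕ) (hpw _ hci)]; exact g3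
  · rw [← g5, hpw _ hci, seg_end φ Q (hle _ hci) h1, seg_end φ Q' (hle _ hci) h2, h5,
      seg_congr φ Q Q' h3 le_rfl]
  · rw [← g6]
    refine Finset.sum_congr rfl fun j hj => ?_
    rw [Finset.mem_Ico] at hj
    rw [hpw j (by omega), hpw (j + 1) (by omega)]
    rw [seg_congr φ Q Q' h3 (hle (j + 1) (by omega))]

theorem nu_congr {Q Q' : List α} (h1 : D.b ^ D.m ≤ Q.length) (h2 : D.b ^ D.m ≤ Q'.length)
    (h3 : Q.take (D.b ^ D.m) = Q'.take (D.b ^ D.m))
    (h4 : Q.length % (D.M * D.b ^ D.m) = Q'.length % (D.M * D.b ^ D.m))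
    (h5 : ((Q.drop (D.b ^ D.m)).map φ).prod = ((Q'.drop (D.b ^ D.m)).map φ).prod) :
    D.nu φ Q = D.nu φ Q' := by
  have hpw : ∀ j ≤ D.m, Q.length % D.b ^ j = Q'.length % D.b ^ j := fun j hj =>
    Lmod h4 ((pow_dvd_pow D.b hj).mul_left _)
  have hle : ∀ j ≤ D.m, Q'.length % D.b ^ j ≤ D.b ^ D.m := fun j hj =>
    (Nat.mod_lt _ (D.pow_pos' j)).le.trans (Nat.pow_le_pow_right D.b_pos hj)
  have hM : Q.length % D.M = Q'.length % D.M := Lmod h4 (Dvd.intro _ rfl)
  have hprod : (Q.map φ).prod = (Q'.map φ).prod := by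
    rw [← seg_all, ← seg_all, seg_end φ Q (Nat.zero_le _) h1, seg_end φ Q' (Nat.zero_le _) h2, h5,
      seg_congr φ Q Q' h3 le_rfl]
  have hwt : D.wt φ Q = D.wt φ Q' := by
    unfold wt
    refine Finset.sum_congr rfl fun j hj => ?_
    rw [Finset.mem_range] at hj
    rw [hpw j (by omega), hpw (j + 1) (by omega)]
    rw [seg_congr φ Q Q' h3 (hle (j + 1) (by omega))]
  unfold nu BadN
  rw [hM, hprod, hwt]

end Data

open Classical in
/-- THE GADGET `g1` (lead #13673, literal) -/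
theorem g1 (S V : Type) [Monoid S] [Finite S] [AddCommGroup V] [Finite V] (act : V → S → V) :
    ∃ m r : ℕ, ∀ Bd : ℕ, ∃ (Ms : Finset ℕ) (M : ℕ), Ms.card ≤ r ∧
      (∀ k ∈ Ms, Bd < k ∧ k.Prime ∧ k ∣ M) ∧ 0 < M ∧
      ∀ b : ℕ, 4 * M + 4 < b → Nat.Coprime b M → ∀ (A : Type) (f : A → S),
        ∃ (lam rho : List A → Option V) (nu : List A → V),
          (∀ P v, lam P = some v → P.length < b ^ m) ∧
          (∀ P Q v v', lam P = some v → rho Q = some v' →
            v' = act v ((P ++ Q).map f).prod + nu (P ++ Q)) ∧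
          (∀ X, (∀ k ∈ Ms, ¬ k ∣ X.length) →
            (∀ j < m, M ≤ X.length / b ^ j % b ∧ X.length / b ^ j % b + M + 1 ≤ b) →
            ∀ v, ∃ P Q, P ++ Q = X ∧ lam P = some v ∧ (rho Q).isSome) ∧
          (∀ Q Q', b ^ m ≤ Q.length → b ^ m ≤ Q'.length → Q.take (b ^ m) = Q'.take (b ^ m) →
            Q.length % (M * b ^ m) = Q'.length % (M * b ^ m) →
            ((Q.drop (b ^ m)).map f).prod = ((Q'.drop (b ^ m)).map f).prod →
            rho Q = rho Q' ∧ nu Q = nu Q') := by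
  haveI := Fintype.ofFinite S
  haveI := Fintype.ofFinite V
  obtain ⟨m, p, hp, τ, e, F, -, hF⟩ := Mask836.core S V S 0
    (fun s v x s1 _ _ => act v s + x - act v s1)
  let W := ZMod p
  let we : ℕ → S → W := fun i ζ => (τ : ZMod p) ^ i * e ζ
  let F' : S → W → V := F
  obtain ⟨r, hr⟩ := Names755.names (Ctx m S W V) (V × V)
    (fun c => (c.2.2.2, cval act we F' c 1))
  refine ⟨m, r, fun Bd => ?_⟩
  obtain ⟨Ms, M, nmL, nmR, hc, hk, hM, hL, hR, hgood, hall, hcol⟩ := hr Bd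
  refine ⟨Ms, M, hc, hk, hM, fun b hb hco A f => ?_⟩
  let D : Data S W V :=
    { act := act, m := m, we := we, F := F'
      hF := by
        intro s w v
        obtain ⟨δ, hδ, h⟩ := hF s w v 1
        refine ⟨δ, hδ, fun s1 ζ ζ1 hne => ?_⟩
        have h1 := h s1 ζ ζ1 hne
        have e1 : w + (we δ ζ1 - we δ ζ) =
            w + ((1 : (ZMod p)ˣ) : ZMod p) * (τ : ZMod p) ^ δ * (e ζ1 - e ζ) := by
          show w + ((τ : ZMod p) ^ δ * e ζ1 - (τ : ZMod p) ^ δ * e ζ) = _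
          rw [Units.val_one]; ring
        rw [e1]
        show act v s1 + F s1 _ = _
        rw [h1]
        show act v s1 + (act v s + F s w - act v s1) = act v s + F s w
        abel
      Ms := Ms, M := M, hM := hM, hMs := fun k h => (hk k h).2.2
      nmL := nmL, nmR := nmR, nmL_per := hL, nmR_per := hR, nm_good := hgood, nm_all := hall
      nm_col := by
        intro t₁ t₁' t₂ t₂' c₁ c₁' c₂ c₂' h1 h2 h3 h4 h5 h6
        obtain ⟨g1, g2⟩ := hcol t₁ t₁' t₂ t₂' c₁ c₁' c₂ c₂' h1 h2 h3 h4 h5 h6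
        exact ⟨congrArg Prod.fst g1, congrArg Prod.snd g2⟩
      b := b, hb := hb, hco := hco }
  let lam : List A → Option V := fun P => if h : ∃ v, D.L1 f P v then some h.choose else none
  let rho : List A → Option V := fun Q => if h : ∃ v, D.R1 f Q v then some h.choose else none
  have hlam : ∀ P v, lam P = some v ↔ D.L1 f P v := by
    intro P v
    by_cases h : ∃ v, D.L1 f P v
    · have e1 : lam P = some h.choose := dif_pos h
      rw [e1]
      constructor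
      · intro h2
        have h3 := h.choose_spec
        rwa [Option.some.inj h2] at h3
      · intro h2
        rw [D.L1_unique f h.choose_spec h2]
    · have e1 : lam P = none := dif_neg h
      rw [e1]
      constructor
      · intro h2; simp at h2
      · intro h2; exact absurd ⟨v, h2⟩ h
  have hrho : ∀ Q v, rho Q = some v ↔ D.R1 f Q v := by
    intro P v
    by_cases h : ∃ v, D.R1 f P v
    · have e1 : rho P = some h.choose := dif_pos h
      rw [e1]
      constructor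
      · intro h2
        have h3 := h.choose_spec
        rwa [Option.some.inj h2] at h3
      · intro h2
        rw [D.R1_unique f h.choose_spec h2]
    · have e1 : rho P = none := dif_neg h
      rw [e1]
      constructor
      · intro h2; simp at h2
      · intro h2; exact absurd ⟨v, h2⟩ h
  refine ⟨lam, rho, D.nu f, ?_, ?_, ?_, ?_⟩
  · intro P v h
    obtain ⟨c, -, h2, -⟩ := (hlam P v).1 h
    exact lt_of_lt_of_le h2 (Nat.pow_le_pow_right D.b_pos c.1.2)
  · intro P Q v v' h h'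
    exact (D.sound1 f ((hlam P v).1 h) ((hrho Q v').1 h')).symm
  · intro X h1 h2 v
    obtain ⟨P, Q, hX, hP, hQ⟩ := D.complete1 f (X := X) h1 h2 v
    exact ⟨P, Q, hX, (hlam _ _).2 hP, by rw [(hrho _ _).2 hQ]; rfl⟩
  · intro Q Q' h1 h2 h3 h4 h5
    refine ⟨?_, D.nu_congr f h1 h2 h3 h4 h5⟩
    cases h6 : rho Q with
    | some v =>
      symm
      exact (hrho _ _).2 (D.R1_congr f h1 h2 h3 h4 h5 ((hrho _ _).1 h6))
    | none =>
      cases h7 : rho Q' with
      | none => rfl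
      | some v =>
        have := (hrho _ _).2 (D.R1_congr f h2 h1 h3.symm h4.symm h5.symm ((hrho _ _).1 h7))
        rw [h6] at this
        exact this

end Crest.Agent.R320.G1_991
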