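import Crest.Agent.R320.G1_867

/-! Row 320: the digit gadget (852 #13483 (G1)), main theorem (helper867). -/

set_option autoImplicit false

namespace Crest.Agent.R320.G2_867

open Finset Crest.Agent.R320.G1_867 Crest.Agent.R320.Names755

universe u v w x

variable {S : Type v} {V : Type w} {W : Type x}

/-- contexts -/
structure Cx (S : Type v) (V : Type w) (W : Type x) (m : ℕ) where
  i : Fin m
  g : S
  wl : W
  h : S
  wr : W
  v : V

theorem Cx.fin [Finite S] [Finite V] [Finite W] (m : ℕ) : Finite (Cx S V W m) := by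
  refine Finite.of_injective
    (fun c : Cx S V W m => (c.i, c.g, c.wl, c.h, c.wr, c.v)) ?_
  rintro ⟨⟩ ⟨⟩ h
  simp only [Prod.mk.injEq] at h
  obtain ⟨rfl, rfl, rfl, rfl, rfl, rfl⟩ := h
  rfl

/-- claimed value -/
def Cx.val [Monoid S] [AddCommGroup V] [AddCommGroup W] {m : ℕ} (act : V → S → V)
    (e : ℕ → S → W) (F : S → W → V) (c : Cx S V W m) (z : S) : V :=
  F (c.g * z * c.h) (c.wl + e c.i z + c.wr) + act c.v (c.g * z * c.h)

def Cx.good [Monoid S] [AddCommGroup V] [AddCommGroup W] {m : ℕ} (act : V → S → V)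
    (e : ℕ → S → W) (F : S → W → V) (c : Cx S V W m) : Prop :=
  ∀ z, c.val act e F z = c.val act e F 1

theorem gadget [Monoid S] [Finite S] [AddCommGroup V] [Finite V] [AddCommGroup W] [Finite W]
    (act : V → S → V) (m : ℕ) (e : ℕ → S → W) (F : S → W → V)
    (hF : ∀ (s : S) (w : W) (v : V), ∃ i < m, ∀ g x h : S, g * x * h = s →
      ∀ z : S, F (g * z * h) (w - e i x + e i z) + act v (g * z * h) = F s w + act v s) :
    ∃ r : ℕ, ∀ B : ℕ, ∃ (Ms : Finset ℕ) (M : ℕ), Ms.card ≤ r ∧
      (∀ k ∈ Ms, B < k ∧ Nat.Prime k ∧ k ∣ M) ∧ 0 < M ∧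
      ∀ b : ℕ, 4 * M + 4 < b → Nat.Coprime b M →
      ∀ {α : Type u} (phi : List α → S), phi [] = 1 → (∀ a c, phi (a ++ c) = phi a * phi c) →
      ∃ (lam rho : List α → Option V) (nu : List α → V),
        (∀ P Q v v', lam P = some v → rho Q = some v' →
          v' = act v (phi (P ++ Q)) + nu (P ++ Q)) ∧
        (∀ P v, lam P = some v → P.length < b ^ m) ∧
        (∀ X : List α, (∀ k ∈ Ms, ¬ k ∣ X.length) →
          (∀ j < m, M ≤ X.length / b ^ j % b ∧ X.length / b ^ j % b + M < b) →
          ∀ v, ∃ P Q, X = P ++ Q ∧ lam P = some v ∧ (rho Q).isSome) ∧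
        (∀ Q Q' : List α, b ^ m ≤ Q.length → b ^ m ≤ Q'.length →
          Q.take (b ^ m) = Q'.take (b ^ m) → phi (Q.drop (b ^ m)) = phi (Q'.drop (b ^ m)) →
          Q.length % M = Q'.length % M → Q.length % b ^ m = Q'.length % b ^ m →
          rho Q = rho Q') := by
  classical
  haveI : Finite (Cx S V W m) := Cx.fin m
  let G := {c : Cx S V W m // c.good act e F}
  obtain ⟨k0, ⟨eN⟩⟩ := Finite.exists_equiv_fin G
  obtain ⟨k1, ⟨eC⟩⟩ := Finite.exists_equiv_fin (V × V)
  let col : Fin k0 → Fin k1 := fun a => eC ((eN.symm a).1.v, (eN.symm a).1.val act e F 1)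
  obtain ⟨r, hr⟩ := names (Fin k0) (Fin k1) col
  refine ⟨r, fun B => ?_⟩
  obtain ⟨Ms, M, nL, nR, hcard, hMs, hM, hLp, hRp, hsame, hall, hcol⟩ := hr B
  refine ⟨Ms, M, hcard, hMs, hM, fun b hb hco {α} phi ph1 phm => ?_⟩
  have hb0 : 0 < b := by omega
  -- left / right conditions
  let condL : G → List α → Prop := fun c P =>
    P.length < b ^ ((c.1.i : ℕ) + 1) ∧ 2 * (P.length / b ^ (c.1.i : ℕ)) < b ∧
    phi (P.take (P.length % b ^ (c.1.i : ℕ))) = c.1.g ∧
    ∑ j ∈ range c.1.i, e j (phi (sl P (P.length % b ^ j) (P.length % b ^ (j + 1)))) = c.1.wl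
  let condR : G → List α → Prop := fun c Q =>
    b ^ (c.1.i : ℕ) ∣ Q.length ∧ 2 * (Q.length / b ^ (c.1.i : ℕ) % b) < b ∧
    phi (Q.drop (Q.length % b ^ ((c.1.i : ℕ) + 1))) = c.1.h ∧
    ∑ j ∈ Ico ((c.1.i : ℕ) + 1) m,
      e j (phi (sl Q (Q.length % b ^ j) (Q.length % b ^ (j + 1)))) = c.1.wr
  let lam : List α → Option V := fun P => (nL P.length).bind fun a =>
    if condL (eN.symm a) P then some (eN.symm a).1.v else none
  let rho : List α → Option V := fun Q => (nR Q.length).bind fun a =>
    if condR (eN.symm a) Q then some ((eN.symm a).1.val act e F 1) else none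
  let wX : List α → W := fun X =>
    ∑ j ∈ range m, e j (phi (sl X (X.length % b ^ j) (X.length % b ^ (j + 1))))
  let prs : ℕ → Fin k0 → Fin k0 → Prop := fun n a a' =>
    ∃ t t', t + t' = n ∧ nL t = some a ∧ nR t' = some a'
  let nu : List α → V := fun X =>
    if ∀ k ∈ Ms, ¬ k ∣ X.length then F (phi X) (wX X)
    else if h : ∃ q : Fin k0 × Fin k0, prs X.length q.1 q.2 then
      (eN.symm h.choose.2).1.val act e F 1 - act (eN.symm h.choose.1).1.v (phi X)
    else 0
  -- decomposition facts
  have lam_spec : ∀ P v, lam P = some v → ∃ a, nL P.length = some a ∧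
      condL (eN.symm a) P ∧ (eN.symm a).1.v = v := by
    intro P v h
    simp only [lam] at h
    rcases hn : nL P.length with _ | a
    · rw [hn] at h; simp at h
    · rw [hn] at h
      simp only [Option.bind_some] at h
      by_cases hc : condL (eN.symm a) P
      · rw [if_pos hc] at h
        exact ⟨a, rfl, hc, Option.some.inj h⟩
      · rw [if_neg hc] at h; simp at h
  have rho_spec : ∀ Q v, rho Q = some v → ∃ a, nR Q.length = some a ∧
      condR (eN.symm a) Q ∧ (eN.symm a).1.val act e F 1 = v := by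
    intro Q v h
    simp only [rho] at h
    rcases hn : nR Q.length with _ | a
    · rw [hn] at h; simp at h
    · rw [hn] at h
      simp only [Option.bind_some] at h
      by_cases hc : condR (eN.symm a) Q
      · rw [if_pos hc] at h
        exact ⟨a, rfl, hc, Option.some.inj h⟩
      · rw [if_neg hc] at h; simp at h
  have lam_of : ∀ P a, nL P.length = some a → condL (eN.symm a) P →
      lam P = some (eN.symm a).1.v := by
    intro P a h hc
    simp only [lam]
    rw [h]
    simp only [Option.bind_some]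
    rw [if_pos hc]
  have rho_of : ∀ Q a, nR Q.length = some a → condR (eN.symm a) Q →
      rho Q = some ((eN.symm a).1.val act e F 1) := by
    intro Q a h hc
    simp only [rho]
    rw [h]
    simp only [Option.bind_some]
    rw [if_pos hc]
  -- type of a word at a junction with equal names
  have splitW : ∀ (f : ℕ → W) (i : ℕ), i < m →
      ∑ j ∈ range m, f j = ∑ j ∈ range i, f j + f i + ∑ j ∈ Ico (i + 1) m, f j := by
    intro f i hi
    rw [← Finset.sum_range_add_sum_Ico f (Nat.succ_le_of_lt hi), Finset.sum_range_succ]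
  have typ : ∀ (P Q : List α) (i : ℕ), i < m → b ^ i ∣ Q.length → P.length < b ^ (i + 1) →
      2 * (P.length / b ^ i) < b → 2 * (Q.length / b ^ i % b) < b →
      phi (P ++ Q) = phi (P.take (P.length % b ^ i)) *
        phi (sl (P ++ Q) ((P ++ Q).length % b ^ i) ((P ++ Q).length % b ^ (i + 1))) *
        phi (Q.drop (Q.length % b ^ (i + 1))) ∧
      wX (P ++ Q) = ∑ j ∈ range i, e j (phi (sl P (P.length % b ^ j) (P.length % b ^ (j + 1))))
        + e i (phi (sl (P ++ Q) ((P ++ Q).length % b ^ i) ((P ++ Q).length % b ^ (i + 1))))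
        + ∑ j ∈ Ico (i + 1) m, e j (phi (sl Q (Q.length % b ^ j) (Q.length % b ^ (j + 1)))) := by
    intro P Q i hi h1 h2 h3 h4
    obtain ⟨d1, d2⟩ := digits hb0 h1 h2 h3 h4
    have e1 : (P ++ Q).length % b ^ i = P.length % b ^ i := by
      rw [List.length_append]; exact d1 i le_rfl
    have e2 : (P ++ Q).length % b ^ (i + 1) = P.length + Q.length % b ^ (i + 1) := by
      rw [List.length_append]; exact d2 (i + 1) (Nat.lt_succ_self i)
    have e3 : P.length % b ^ i ≤ P.length := Nat.mod_le _ _
    constructor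
    · rw [e1, e2]
      have hX := take_sl_drop (P ++ Q) (P.length % b ^ i) (P.length + Q.length % b ^ (i + 1))
        (e3.trans (Nat.le_add_right _ _))
      have h5 : (P ++ Q).take (P.length % b ^ i) = P.take (P.length % b ^ i) :=
        List.take_append_of_le_length e3
      have h6 : (P ++ Q).drop (P.length + Q.length % b ^ (i + 1)) =
          Q.drop (Q.length % b ^ (i + 1)) := by
        rw [← List.drop_drop, List.drop_left]
      rw [h5, h6] at hX
      conv_lhs => rw [← hX]
      rw [phm, phm, mul_assoc]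
    · simp only [wX]
      rw [splitW _ i hi]
      congr 1
      · congr 1
        refine Finset.sum_congr rfl fun j hj => ?_
        have hj' : j < i := Finset.mem_range.1 hj
        have a1 : (P ++ Q).length % b ^ j = P.length % b ^ j := by
          rw [List.length_append]; exact d1 j hj'.le
        have a2 : (P ++ Q).length % b ^ (j + 1) = P.length % b ^ (j + 1) := by
          rw [List.length_append]; exact d1 (j + 1) hj'
        rw [a1, a2, sl_left _ _ _ _ (Nat.mod_le _ _)]
      · refine Finset.sum_congr rfl fun j hj => ?_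
        have hj' : i < j := (Finset.mem_Ico.1 hj).1
        have a1 : (P ++ Q).length % b ^ j = P.length + Q.length % b ^ j := by
          rw [List.length_append]; exact d2 j hj'
        have a2 : (P ++ Q).length % b ^ (j + 1) = P.length + Q.length % b ^ (j + 1) := by
          rw [List.length_append]; exact d2 (j + 1) (by omega)
        rw [a1, a2, sl_right]
  refine ⟨lam, rho, nu, ?_, ?_, ?_, ?_⟩
  · -- soundness
    intro P Q v v' hl hrr
    obtain ⟨a, ha, hcl, hv⟩ := lam_spec P v hl
    obtain ⟨a', ha', hcr, hv'⟩ := rho_spec Q v' hrr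
    by_cases hg : ∀ k ∈ Ms, ¬ k ∣ (P ++ Q).length
    · have hg' : ∀ k ∈ Ms, ¬ k ∣ P.length + Q.length := by
        intro k hk; have := hg k hk; rwa [List.length_append] at this
      have haa : a = a' := hsame _ _ _ _ ha ha' hg'
      subst haa
      have hnu : nu (P ++ Q) = F (phi (P ++ Q)) (wX (P ++ Q)) := by
        simp only [nu]; rw [if_pos hg]
      obtain ⟨l1, l2, l3, l4⟩ := hcl
      obtain ⟨r1, r2, r3, r4⟩ := hcr
      obtain ⟨t1, t2⟩ := typ P Q _ (eN.symm a).1.i.2 r1 l1 l2 r2
      have hgood := (eN.symm a).2 (phi (sl (P ++ Q) ((P ++ Q).length % b ^ ((eN.symm a).1.i : ℕ))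
        ((P ++ Q).length % b ^ (((eN.symm a).1.i : ℕ) + 1))))
      rw [hnu, t2, t1, l3, l4, r3, r4, ← hv', ← hgood, ← hv]
      simp only [Cx.val]
      exact add_comm _ _
    · have hex : ∃ q : Fin k0 × Fin k0, prs (P ++ Q).length q.1 q.2 :=
        ⟨(a, a'), P.length, Q.length, (List.length_append).symm, ha, ha'⟩
      have hnu : nu (P ++ Q) = (eN.symm hex.choose.2).1.val act e F 1 -
          act (eN.symm hex.choose.1).1.v (phi (P ++ Q)) := by
        simp only [nu]; rw [if_neg hg, dif_pos hex]
      obtain ⟨t, t', ht, hta, hta'⟩ := hex.choose_spec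
      push Not at hg
      obtain ⟨k, hk, hkd⟩ := hg
      have hc := hcol t t' P.length Q.length _ _ a a' hta hta' ha ha'
        (by rw [ht, List.length_append]) ⟨k, hk, by rw [ht]; exact hkd⟩
      have c1 : (eN.symm hex.choose.1).1.v = (eN.symm a).1.v :=
        congrArg Prod.fst (eC.injective hc.1)
      have c2 : (eN.symm hex.choose.2).1.val act e F 1 = (eN.symm a').1.val act e F 1 :=
        congrArg Prod.snd (eC.injective hc.2)
      rw [hnu, c1, c2, hv, hv']
      abel
  · -- length bound
    intro P v hl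
    obtain ⟨a, ha, hcl, hv⟩ := lam_spec P v hl
    exact hcl.1.trans_le (Nat.pow_le_pow_right hb0 (eN.symm a).1.i.2)
  · -- completeness
    intro X hk hd v
    set n := X.length with hn
    obtain ⟨i, hi, hgd⟩ := hF (phi X) (wX X) v
    have hbi : 0 < b ^ i := Nat.pow_pos hb0
    set b0 := n % b ^ i with hb0'
    set b1 := n % b ^ (i + 1) with hb1
    set ni := n / b ^ i % b with hni
    have hb1e : b1 = b0 + b ^ i * ni := by
      rw [hb1, hb0', hni, pow_succ, Nat.mod_mul]
    obtain ⟨hd1, hd2⟩ := hd i hi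
    have hle : b0 ≤ b1 := by omega
    have hb1n : b1 ≤ n := Nat.mod_le _ _
    -- the context
    let c : Cx S V W m := ⟨⟨i, hi⟩, phi (X.take b0),
      ∑ j ∈ range i, e j (phi (sl X (n % b ^ j) (n % b ^ (j + 1)))), phi (X.drop b1),
      ∑ j ∈ Ico (i + 1) m, e j (phi (sl X (n % b ^ j) (n % b ^ (j + 1)))), v⟩
    have hphX : phi (X.take b0) * phi (sl X b0 b1) * phi (X.drop b1) = phi X := by
      conv_rhs => rw [← take_sl_drop X b0 b1 hle]
      rw [phm, phm, mul_assoc]
    have hwX : wX X = c.wl + e i (phi (sl X b0 b1)) + c.wr := by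
      simp only [wX, c]
      rw [splitW _ i hi]
    have hval : ∀ z, c.val act e F z = F (phi X) (wX X) + act v (phi X) := by
      intro z
      have h7 := hgd (phi (X.take b0)) (phi (sl X b0 b1)) (phi (X.drop b1)) hphX z
      rw [← h7]
      simp only [Cx.val]
      have h8 : c.wl + e i z + c.wr = wX X - e i (phi (sl X b0 b1)) + e i z := by
        rw [hwX]; abel
      show F (c.g * z * c.h) (c.wl + e i z + c.wr) + _ = _
      rw [h8]
    have hgood : c.good act e F := fun z => by rw [hval z, hval 1]
    let cc : G := ⟨c, hgood⟩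
    obtain ⟨t, htM, htL, htR⟩ := hall n hk (eN cc)
    -- choose y
    have hy : ∃ y, y ≤ ni ∧ 2 * y < b ∧ 2 * (ni - y) < b ∧ (b0 + b ^ i * y) % M = t % M := by
      set y0 := ni - (b - 1) / 2 with hy0
      have hcop : Nat.Coprime (b ^ i) M := Nat.Coprime.pow_left i hco
      -- inverse of b^i mod M
      obtain ⟨q, hq⟩ : ∃ q, (b0 + b ^ i * (y0 + q)) % M = t % M ∧ q < M := by
        obtain ⟨u, _, hu⟩ := Nat.exists_mul_mod_eq_of_coprime (t + M * (b0 + b ^ i * y0) - (b0 + b ^ i * y0)) hcop (by omega)
        refine ⟨u % M, ?_, Nat.mod_lt _ hM⟩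
        have h1 : (b ^ i * (u % M)) % M =
            (t + M * (b0 + b ^ i * y0) - (b0 + b ^ i * y0)) % M := by
          rw [Nat.mul_mod, Nat.mod_mod, ← Nat.mul_mod]
          exact hu
        have h2 : b0 + b ^ i * y0 ≤ t + M * (b0 + b ^ i * y0) := by
          have := Nat.le_mul_of_pos_left (b0 + b ^ i * y0) hM
          omega
        calc (b0 + b ^ i * (y0 + u % M)) % M
            = ((b0 + b ^ i * y0) + b ^ i * (u % M)) % M := by
              congr 1; ring
          _ = ((b0 + b ^ i * y0) + (b ^ i * (u % M)) % M) % M := by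
              rw [Nat.add_mod_mod]
          _ = ((b0 + b ^ i * y0) + (t + M * (b0 + b ^ i * y0) - (b0 + b ^ i * y0))) % M := by
              rw [h1, Nat.add_mod_mod]
          _ = (t + M * (b0 + b ^ i * y0)) % M := by
              congr 1; omega
          _ = t % M := Nat.add_mul_mod_self_left _ _ _
      have hni' : ni < b := Nat.mod_lt _ hb0
      refine ⟨y0 + q, ?_, ?_, ?_, hq.1⟩ <;> omega
    obtain ⟨y, hy1, hy2, hy3, hy4⟩ := hy
    set o := b0 + b ^ i * y with ho
    have hbo : b0 < b ^ i := Nat.mod_lt _ hbi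
    have hob : o ≤ b1 := by
      rw [ho, hb1e]
      exact Nat.add_le_add_left (Nat.mul_le_mul_left _ hy1) _
    have hon : o ≤ n := hob.trans hb1n
    have hodiv : o / b ^ i = y := by
      rw [ho, Nat.add_mul_div_left _ _ hbi, Nat.div_eq_of_lt hbo, Nat.zero_add]
    have homod : o % b ^ i = b0 := by
      rw [ho, Nat.add_mul_mod_self_left, Nat.mod_eq_of_lt hbo]
    have hno : n - o = b ^ i * (n / b ^ i - y) := by
      have := Nat.div_add_mod n (b ^ i)
      rw [Nat.mul_sub]
      omega
    have hnodiv : (n - o) / b ^ i % b = ni - y := by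
      rw [hno, Nat.mul_div_cancel_left _ hbi]
      have h9 := Nat.div_add_mod (n / b ^ i) b
      have h10 : n / b ^ i - y = (ni - y) + b * (n / b ^ i / b) := by omega
      rw [h10, Nat.add_mul_mod_self_left, Nat.mod_eq_of_lt]
      have : ni < b := Nat.mod_lt _ hb0
      omega
    have hob2 : o < b ^ (i + 1) := hob.trans_lt (Nat.mod_lt _ (Nat.pow_pos hb0))
    have hdv : b ^ i ∣ n - o := ⟨_, hno⟩
    obtain ⟨d1, d2⟩ := digits (o := o) (o' := n - o) hb0 hdv hob2 (by rw [hodiv]; exact hy2)
      (by rw [hnodiv]; exact hy3)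
    have hsum : o + (n - o) = n := by omega
    rw [hsum] at d1 d2
    have hPl : (X.take o).length = o := by rw [List.length_take]; exact min_eq_left hon
    have hQl : (X.drop o).length = n - o := by rw [List.length_drop]
    have hper : ∀ x q, nL (x + M * q) = nL x := by
      intro x q
      induction q with
      | zero => rfl
      | succ q ih => rw [Nat.mul_succ, ← Nat.add_assoc, hLp, ih]
    have hnLo : nL o = some (eN cc) := by
      have h11 : o = t + M * (o / M) := by
        have := Nat.div_add_mod o M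
        rw [hy4, Nat.mod_eq_of_lt htM] at this
        omega
      rw [h11, hper]; exact htL
    have hnRo : nR (n - o) = some (eN cc) := by
      refine htR _ ?_
      have h12 : t + (n - o) ≡ o + (n - o) [MOD M] := Nat.ModEq.add_right _ hy4.symm
      rwa [hsum] at h12
    have hXs : X.take o ++ X.drop o = X := List.take_append_drop o X
    refine ⟨X.take o, X.drop o, hXs.symm, ?_, ?_⟩
    · have hcond : condL (eN.symm (eN cc)) (X.take o) := by
        rw [Equiv.symm_apply_apply]
        refine ⟨?_, ?_, ?_, ?_⟩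
        · rw [hPl]; exact hob2
        · rw [hPl]
          show 2 * (o / b ^ i) < b
          rw [hodiv]; exact hy2
        · rw [hPl]
          show phi ((X.take o).take (o % b ^ i)) = phi (X.take b0)
          rw [homod, List.take_take, min_eq_left]
          rw [ho]; exact Nat.le_add_right _ _
        · rw [hPl]
          show ∑ j ∈ range i, e j (phi (sl (X.take o) (o % b ^ j) (o % b ^ (j + 1)))) =
            ∑ j ∈ range i, e j (phi (sl X (n % b ^ j) (n % b ^ (j + 1))))
          refine Finset.sum_congr rfl fun j hj => ?_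
          have hj' : j < i := Finset.mem_range.1 hj
          rw [d1 j hj'.le, d1 (j + 1) hj']
          congr 2
          conv_rhs => rw [← hXs]
          rw [sl_left]
          rw [hPl]; exact Nat.mod_le _ _
      rw [lam_of _ (eN cc) (by rw [hPl]; exact hnLo) hcond, Equiv.symm_apply_apply]
    · have hcond : condR (eN.symm (eN cc)) (X.drop o) := by
        rw [Equiv.symm_apply_apply]
        refine ⟨?_, ?_, ?_, ?_⟩
        · rw [hQl]; exact hdv
        · rw [hQl]
          show 2 * ((n - o) / b ^ i % b) < b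
          rw [hnodiv]; exact hy3
        · rw [hQl]
          show phi ((X.drop o).drop ((n - o) % b ^ (i + 1))) = phi (X.drop b1)
          rw [List.drop_drop, hb1, d2 (i + 1) (Nat.lt_succ_self i)]
        · rw [hQl]
          show ∑ j ∈ Ico (i + 1) m,
              e j (phi (sl (X.drop o) ((n - o) % b ^ j) ((n - o) % b ^ (j + 1)))) =
            ∑ j ∈ Ico (i + 1) m, e j (phi (sl X (n % b ^ j) (n % b ^ (j + 1))))
          refine Finset.sum_congr rfl fun j hj => ?_
          have hj' : i < j := (Finset.mem_Ico.1 hj).1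
          rw [d2 j hj', d2 (j + 1) (by omega)]
          congr 2
          conv_rhs => rw [← hXs]
          have := sl_right (X.take o) (X.drop o) ((n - o) % b ^ j) ((n - o) % b ^ (j + 1))
          rw [hPl] at this
          exact this.symm
      rw [rho_of _ (eN cc) (by rw [hQl]; exact hnRo) hcond]
      rfl
  · -- finite dependence of the right labels
    intro Q Q' hQ hQ' htk hph hm hbm
    have hper : ∀ x q, nR (x + M * q) = nR x := by
      intro x q
      induction q with
      | zero => rfl
      | succ q ih => rw [Nat.mul_succ, ← Nat.add_assoc, hRp, ih]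
    have hnR : nR Q.length = nR Q'.length := by
      have h1 : Q.length = Q.length % M + M * (Q.length / M) := (Nat.mod_add_div _ _).symm
      have h2 : Q'.length = Q'.length % M + M * (Q'.length / M) := (Nat.mod_add_div _ _).symm
      rw [h1, h2, hper, hper, hm]
    have hmodj : ∀ j ≤ m, Q.length % b ^ j = Q'.length % b ^ j := by
      intro j hj
      have h1 := pow_dvd_pow b hj
      rw [← Nat.mod_mod_of_dvd _ h1, hbm, Nat.mod_mod_of_dvd _ h1]
    have hdivj : ∀ j < m, Q.length / b ^ j % b = Q'.length / b ^ j % b := by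
      intro j hj
      have h1 := hmodj (j + 1) hj
      rw [pow_succ] at h1
      rw [← Nat.mod_mul_right_div_self, ← Nat.mod_mul_right_div_self, h1]
    have hdropj : ∀ j ≤ m, ∀ T : List α, b ^ m ≤ T.length →
        phi (T.drop (T.length % b ^ j)) =
          phi ((T.take (b ^ m)).drop (T.length % b ^ j)) * phi (T.drop (b ^ m)) := by
      intro j hj T hT
      rw [← phm]
      congr 1
      have h1 : T.length % b ^ j ≤ (T.take (b ^ m)).length := by
        rw [List.length_take, min_eq_left hT]
        exact (Nat.mod_lt _ (Nat.pow_pos hb0)).le.trans (Nat.pow_le_pow_right hb0 hj)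
      conv_lhs => rw [← List.take_append_drop (b ^ m) T]
      rw [List.take_append_drop, ← List.drop_append_of_le_length h1, List.take_append_drop]
    have hslj : ∀ T : List α, b ^ m ≤ T.length → ∀ a c, c ≤ b ^ m →
        sl T a c = sl (T.take (b ^ m)) a c := by
      intro T hT a c hc
      conv_lhs => rw [← List.take_append_drop (b ^ m) T]
      rw [sl_left]
      rw [List.length_take, min_eq_left hT]; exact hc
    have hcond : ∀ c : G, condR c Q ↔ condR c Q' := by
      intro c
      have hi := c.1.i.2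
      have e1 : (b ^ (c.1.i : ℕ) ∣ Q.length) ↔ (b ^ (c.1.i : ℕ) ∣ Q'.length) := by
        rw [Nat.dvd_iff_mod_eq_zero, Nat.dvd_iff_mod_eq_zero, hmodj _ hi.le]
      have e3 : phi (Q.drop (Q.length % b ^ ((c.1.i : ℕ) + 1))) =
          phi (Q'.drop (Q'.length % b ^ ((c.1.i : ℕ) + 1))) := by
        rw [hdropj _ hi Q hQ, hdropj _ hi Q' hQ', htk, hph, hmodj _ hi]
      have e4 : ∑ j ∈ Ico ((c.1.i : ℕ) + 1) m,
          e j (phi (sl Q (Q.length % b ^ j) (Q.length % b ^ (j + 1)))) =
          ∑ j ∈ Ico ((c.1.i : ℕ) + 1) m,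
          e j (phi (sl Q' (Q'.length % b ^ j) (Q'.length % b ^ (j + 1)))) := by
        refine Finset.sum_congr rfl fun j hj => ?_
        have hj' : j < m := (Finset.mem_Ico.1 hj).2
        have hle : ∀ x, x % b ^ (j + 1) ≤ b ^ m := fun x =>
          (Nat.mod_lt _ (Nat.pow_pos hb0)).le.trans (Nat.pow_le_pow_right hb0 hj')
        rw [hslj Q hQ _ _ (hle _), hslj Q' hQ' _ _ (hle _), htk, hmodj j hj'.le,
          hmodj (j + 1) hj']
      simp only [condR]
      rw [e1, hdivj _ hi, e3, e4]
    rcases h1 : rho Q with _ | y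
    · rcases h2 : rho Q' with _ | y'
      · rfl
      · obtain ⟨a, ha, hc, hv⟩ := rho_spec _ _ h2
        rw [rho_of Q a (by rw [hnR]; exact ha) ((hcond _).2 hc)] at h1
        exact absurd h1 (by simp)
    · obtain ⟨a, ha, hc, hv⟩ := rho_spec _ _ h1
      rw [rho_of Q' a (by rw [← hnR]; exact ha) ((hcond _).1 hc), hv]

end Crest.Agent.R320.G2_867
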