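import Crest.Agent.R320.G1_852
import Crest.Agent.R320.Sp_929

/-!
# Row 320 (helper929): gadget 1 with all constants: `G1_852.gadget` + `Sp_929.spoil`
-/

set_option autoImplicit false

namespace Crest.Agent.R320.GG_929

open Finset Crest.Agent.R320.G1_852

theorem bad_periodic (Ms : Finset ℕ) (M b m : ℕ) (hb : 0 < b) (hMs : ∀ k ∈ Ms, k ∣ M) (T : ℕ) :
    Sp_929.Bad Ms M b m (T + M * b^m) ↔ Sp_929.Bad Ms M b m T := by
  have h1 : ∀ k ∈ Ms, (k ∣ T + M * b^m ↔ k ∣ T) := by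
    intro k hk
    exact (Nat.dvd_add_iff_left (Dvd.dvd.mul_right (hMs k hk) _)).symm
  have h2 : ∀ j < m, (T + M * b^m) / b^j % b = T / b^j % b := by
    intro j hj
    have e1 : M * b^m = b^j * (b * (M * b^(m-j-1))) := by
      have : b^m = b^j * (b * b^(m-j-1)) := by
        rw [← pow_succ', ← pow_add]; congr 1; omega
      rw [this]; ring
    rw [e1, Nat.add_mul_div_left _ _ (by positivity), Nat.add_mul_mod_self_left]
  unfold Sp_929.Bad
  constructor
  · rintro (⟨k, hk, h⟩ | ⟨j, hj, h⟩)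
    · exact Or.inl ⟨k, hk, (h1 k hk).1 h⟩
    · exact Or.inr ⟨j, hj, by rwa [h2 j hj] at h⟩
  · rintro (⟨k, hk, h⟩ | ⟨j, hj, h⟩)
    · exact Or.inl ⟨k, hk, (h1 k hk).2 h⟩
    · exact Or.inr ⟨j, hj, by rwa [h2 j hj]⟩

open Classical in
/-- **gadget 1, ruler and thin count in one closed theorem** -/
theorem gadget (S V : Type) [Monoid S] [Finite S] [AddCommGroup V] [Finite V]
    (act : V → S → V) :
    ∃ C0 : ℕ, ∀ K : ℕ, ∃ (N M0 : ℕ) (BT : ℕ → Prop) (c : ℕ → ℕ), 0 < N ∧ 0 < M0 ∧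
      (∀ T, BT (T + M0) ↔ BT T) ∧
      (∀ i j, i < j → c i + 4 * N < c j) ∧
      (∀ i j i' j', i ≠ j → ¬ (i = i' ∧ j = j') →
        (4 * N : ℤ) < |((c i : ℤ) - c j) - (c i' - c j')|) ∧
      (∀ T, (∀ l < K, c l ≤ T) → ((Finset.range K ×ˢ Finset.range K).filter
        (fun x => x.1 ≠ x.2 ∧ BT (T + c x.2 - c x.1))).card ≤ C0) ∧
      ∀ (A : Type) (f : A → S), ∃ (lam rho : List A → Option V) (nu : List A → V),
        (∀ P v, lam P = some v → P.length < N) ∧
        (∀ P Q v v', lam P = some v → rho Q = some v' →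
          v' = act v ((P ++ Q).map f).prod + nu (P ++ Q)) ∧
        (∀ X : List A, ¬ BT X.length → ∀ v, ∃ P Q, X = P ++ Q ∧ lam P = some v ∧
          ∃ v', rho Q = some v') ∧
        (∀ Q Q' : List A, Q.take N = Q'.take N →
          ((Q.drop N).map f).prod = ((Q'.drop N).map f).prod →
          Q.length % M0 = Q'.length % M0 → rho Q = rho Q' ∧ nu Q = nu Q') := by
  obtain ⟨m, r, h⟩ := G1_852.gadget (S := S) (V := V) act
  refine ⟨r + m, fun K => ?_⟩
  obtain ⟨Ms, M, hc, hMs, hM, hg⟩ := h (2^(K+1))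
  set b : ℕ := M * 2^(K+5) + 1 with hb
  have hb0 : 0 < b := by omega
  have hcop : Nat.Coprime b M := by
    rw [hb]
    have : Nat.Coprime (1 + M * 2^(K+5)) M := by
      rw [Nat.coprime_add_mul_left_left]; exact Nat.coprime_one_left M
    rwa [Nat.add_comm] at this
  have hbge : 2^(K+5) * M ≤ b := by rw [hb, Nat.mul_comm]; omega
  obtain ⟨c, c1, c2, c3⟩ := Sp_929.spoil K (b^m) m M b Ms hM
    (fun k hk => ⟨(hMs k hk).1, (hMs k hk).2.2⟩) hbge hcop
  refine ⟨b^m, M * b^m, Sp_929.Bad Ms M b m, c, by positivity, Nat.mul_pos hM (by positivity),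
    bad_periodic Ms M b m hb0 (fun k hk => (hMs k hk).2.2), c1, ?_, ?_, ?_⟩
  · exact_mod_cast c2
  · intro T hT
    exact (c3 T hT).trans (by omega)
  · intro A f
    obtain ⟨lam, rho, nu, g1, g2, g3, g4⟩ := hg b hb0 hcop A f
    refine ⟨lam, rho, nu, g1, g2, ?_, g4⟩
    intro X hX v
    unfold Sp_929.Bad at hX
    push Not at hX
    refine g3 X hX.1 ?_ v
    intro j hj
    have := hX.2 j hj
    omega

end Crest.Agent.R320.GG_929
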