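import Mathlib
import Crest.Agent.R320.G1Loc_808

/-!
Row 320: gadget on all words + ruler + thin count + locality, closed form (970 #14101).
-/

set_option autoImplicit false

namespace Crest.Agent.R320.GH_808

open Finset Crest.Agent.R320.NameGad808 Crest.Agent.R320.G1Loc_808

/-- the bad lengths. -/
def Bad {k : ℕ} (q : Fin k → ℕ) (m b M n : ℕ) : Prop :=
  (∃ j, q j ∣ n) ∨ ∃ j < m, ¬ (M ≤ (n / b ^ j) % b ∧ (n / b ^ j) % b + M < b)

theorem Bad.period {k : ℕ} (q : Fin k → ℕ) (m b M : ℕ) (hb : 0 < b) (hM : ∀ j, q j ∣ M) (n : ℕ) :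
    Bad q m b M (n + b ^ m * M) ↔ Bad q m b M n := by
  unfold Bad
  have h1 : ∀ j, q j ∣ n + b ^ m * M ↔ q j ∣ n := fun j =>
    (Nat.dvd_add_left ((hM j).trans (Dvd.intro_left _ rfl)))
  have h2 : ∀ j < m, ((n + b ^ m * M) / b ^ j) % b = (n / b ^ j) % b := by
    intro j hj
    obtain ⟨c, rfl⟩ := Nat.exists_eq_add_of_lt hj
    rw [show n + b ^ (j + c + 1) * M = n + b ^ j * (b * (b ^ c * M)) by ring,
      Nat.add_mul_div_left _ _ (Nat.pow_pos hb), Nat.add_mul_mod_self_left]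
  constructor
  · rintro (⟨j, hj⟩ | ⟨j, hj, h⟩)
    · exact Or.inl ⟨j, (h1 j).mp hj⟩
    · exact Or.inr ⟨j, hj, by rwa [h2 j hj] at h⟩
  · rintro (⟨j, hj⟩ | ⟨j, hj, h⟩)
    · exact Or.inl ⟨j, (h1 j).mpr hj⟩
    · exact Or.inr ⟨j, hj, by rwa [h2 j hj]⟩

/-- differences of powers of two are pairwise different. -/
theorem two_pow_sub {a b d e : ℕ} (hab : a ≠ b) (hde : d ≠ e)
    (h : (2 : ℤ) ^ a - 2 ^ b = 2 ^ d - 2 ^ e) : a = d ∧ b = e := by
  have key : ∀ a b d e : ℕ, b < a → d ≠ e → (2 : ℤ) ^ a - 2 ^ b = 2 ^ d - 2 ^ e → a = d ∧ b = e := by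
    intro a b d e hba hde h
    have hpos : (0 : ℤ) < 2 ^ a - 2 ^ b := by
      have : (2 : ℤ) ^ b < 2 ^ a := pow_lt_pow_right₀ (by norm_num) hba
      linarith
    have hed : e < d := by
      rcases lt_or_gt_of_ne hde with h1 | h1
      · exfalso
        have : (2 : ℤ) ^ d < 2 ^ e := pow_lt_pow_right₀ (by norm_num) h1
        linarith
      · exact h1
    have hN : 2 ^ a + 2 ^ e = 2 ^ d + 2 ^ b := by
      have : (2 : ℤ) ^ a + 2 ^ e = 2 ^ d + 2 ^ b := by linarith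
      exact_mod_cast this
    have hda : d = a := by
      rcases lt_trichotomy a d with h1 | h1 | h1
      · exfalso
        have e1 : 2 ^ (a + 1) ≤ 2 ^ d := Nat.pow_le_pow_right (by norm_num) h1
        have e2 : 2 ^ (e + 1) ≤ 2 ^ d := Nat.pow_le_pow_right (by norm_num) hed
        have e3 : 0 < 2 ^ b := by positivity
        rw [pow_succ] at e1 e2
        omega
      · exact h1.symm
      · exfalso
        have e1 : 2 ^ (d + 1) ≤ 2 ^ a := Nat.pow_le_pow_right (by norm_num) h1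
        have e2 : 2 ^ (b + 1) ≤ 2 ^ a := Nat.pow_le_pow_right (by norm_num) hba
        have e3 : 0 < 2 ^ e := by positivity
        rw [pow_succ] at e1 e2
        omega
    refine ⟨hda.symm, ?_⟩
    subst hda
    have : 2 ^ e = 2 ^ b := by omega
    exact (Nat.pow_right_injective le_rfl this).symm
  rcases lt_or_gt_of_ne hab with h1 | h1
  · have := key b a e d h1 (Ne.symm hde) (by linarith)
    exact ⟨this.2, this.1⟩
  · exact key a b d e h1 hde h

theorem abs_two_pow_sub {K a b d e : ℕ} (ha : a < K) (hb : b < K) (hd : d < K) (he : e < K) :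
    |((2 : ℤ) ^ a - 2 ^ b) - (2 ^ d - 2 ^ e)| < 2 ^ (K + 1) := by
  have h1 : ∀ x < K, (2 : ℤ) ^ x ≤ 2 ^ K := fun x hx => pow_le_pow_right₀ (by norm_num) hx.le
  have h2 : ∀ x : ℕ, (0 : ℤ) < 2 ^ x := fun x => by positivity
  rw [pow_succ, abs_lt]
  constructor
  · linarith [h1 b hb, h1 d hd, h2 a, h2 e]
  · linarith [h1 a ha, h1 e he, h2 b, h2 d]

/-- two lengths with bad digit `j` differ by almost a multiple of `b ^ (j+1)`. -/
theorem bad_digit {b M j n : ℕ} (hb : 0 < b)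
    (h : ¬ (M ≤ (n / b ^ j) % b ∧ (n / b ^ j) % b + M < b)) :
    ∃ t : ℤ, |(n : ℤ) - t * b ^ (j + 1)| ≤ M * b ^ j := by
  have hpos : 0 < b ^ j := Nat.pow_pos hb
  have h1 := Nat.div_add_mod n (b ^ j)
  have h2 := Nat.div_add_mod (n / b ^ j) b
  have h3 := Nat.mod_lt n hpos
  have h4 := Nat.mod_lt (n / b ^ j) hb
  set d := (n / b ^ j) % b with hd
  set c := n / b ^ j / b with hc
  set r := n % b ^ j with hr
  have hn : n = b ^ j * (b * c + d) + r := by rw [h2]; exact h1.symm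
  have hnz : (n : ℤ) = (b : ℤ) ^ j * (b * c + d) + r := by
    have : (n : ℤ) = ((b ^ j * (b * c + d) + r : ℕ) : ℤ) := by exact_mod_cast hn
    rw [this]; push_cast; ring
  have hposz : (0 : ℤ) < (b : ℤ) ^ j := by exact_mod_cast hpos
  have hrz : (r : ℤ) < (b : ℤ) ^ j := by exact_mod_cast h3
  have hr0 : (0 : ℤ) ≤ r := by positivity
  by_cases hM : M ≤ d
  · have hdb : b ≤ d + M := by
      by_contra hcon
      exact h ⟨hM, by omega⟩
    refine ⟨c + 1, ?_⟩
    have e1 : (n : ℤ) - (c + 1) * (b : ℤ) ^ (j + 1) = -((b : ℤ) ^ j * (b - d)) + r := by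
      rw [hnz, pow_succ]; ring
    rw [e1]
    have hbd : ((b : ℤ) - d) ≤ M := by
      have : (b : ℤ) ≤ d + M := by exact_mod_cast hdb
      linarith
    have hbd1 : (1 : ℤ) ≤ b - d := by
      have : (d : ℤ) + 1 ≤ b := by exact_mod_cast h4
      linarith
    rw [abs_le]
    constructor
    · have : (b : ℤ) ^ j * (b - d) ≤ b ^ j * M := mul_le_mul_of_nonneg_left hbd hposz.le
      linarith
    · have : (b : ℤ) ^ j * 1 ≤ b ^ j * (b - d) := mul_le_mul_of_nonneg_left hbd1 hposz.le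
      have h6 : (0 : ℤ) ≤ M * (b : ℤ) ^ j := by positivity
      linarith
  · push Not at hM
    refine ⟨c, ?_⟩
    have e1 : (n : ℤ) - c * (b : ℤ) ^ (j + 1) = (b : ℤ) ^ j * d + r := by
      rw [hnz, pow_succ]; ring
    rw [e1, abs_of_nonneg (by positivity)]
    have hdM : (d : ℤ) + 1 ≤ M := by exact_mod_cast hM
    have : (b : ℤ) ^ j * (d + 1) ≤ b ^ j * M := mul_le_mul_of_nonneg_left hdM hposz.le
    linarith

/-- the ruler unit. -/
def U (m b M : ℕ) : ℕ := 4 * M * (∑ i ∈ range m, b ^ i) + b ^ m * (1 + 2 * M)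

theorem U_split (m b M j : ℕ) (hj : j < m) :
    ∃ R : ℕ, U m b M = 4 * M * (∑ i ∈ range (j + 1), b ^ i) + b ^ (j + 1) * R := by
  obtain ⟨c, rfl⟩ := Nat.exists_eq_add_of_lt hj
  refine ⟨4 * M * (∑ i ∈ range c, b ^ i) + b ^ c * (1 + 2 * M), ?_⟩
  unfold U
  rw [show j + c + 1 = (j + 1) + c by ring, Finset.sum_range_add, pow_add]
  rw [show ∑ x ∈ range c, b ^ (j + 1 + x) = b ^ (j + 1) * ∑ i ∈ range c, b ^ i by
    rw [Finset.mul_sum]; exact Finset.sum_congr rfl (fun x _ => pow_add _ _ _)]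
  ring

theorem digit_sep {K m M b j : ℕ} (hM : 0 < M) (hb : b = 1 + M * 2 ^ (K + 6)) (hj : j < m)
    {δ t : ℤ} (hδ : δ ≠ 0) (hδ' : |δ| < 2 ^ (K + 1))
    (h : |(U m b M : ℤ) * δ - t * b ^ (j + 1)| ≤ 2 * M * b ^ j) : False := by
  obtain ⟨R, hR⟩ := U_split m b M j hj
  set G : ℕ := ∑ i ∈ range (j + 1), b ^ i with hG
  have hb0 : 0 < b := by omega
  have hG1 : b ^ j ≤ G := Finset.single_le_sum (f := fun i => b ^ i) (fun _ _ => Nat.zero_le _)
    (mem_range.mpr (Nat.lt_succ_self j))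
  have hG2 : (G : ℤ) * (b - 1) = b ^ (j + 1) - 1 := by
    have := geom_sum_mul (b : ℤ) (j + 1)
    rw [← this, hG]
    push_cast
    ring
  have hbz : (b : ℤ) - 1 = M * 2 ^ (K + 6) := by rw [hb]; push_cast; ring
  have hMz : (1 : ℤ) ≤ M := by exact_mod_cast hM
  have hK : (1 : ℤ) ≤ 2 ^ K := one_le_pow₀ (by norm_num)
  have hBpos : (0 : ℤ) < (b : ℤ) ^ j := by positivity
  have hG1z : (b : ℤ) ^ j ≤ G := by exact_mod_cast hG1
  have hδ1 : 1 ≤ |δ| := Int.one_le_abs hδ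
  have hGpos : (0 : ℤ) < G := lt_of_lt_of_le hBpos hG1z
  -- size of A
  have hA1 : |4 * (M : ℤ) * δ * G| = 4 * M * |δ| * G := by
    rw [abs_mul, abs_mul, abs_of_nonneg (by positivity : (0 : ℤ) ≤ 4 * (M : ℤ)),
      abs_of_nonneg hGpos.le]
  have hA2 : 4 * (M : ℤ) * b ^ j ≤ 4 * M * |δ| * G := by
    calc 4 * (M : ℤ) * b ^ j ≤ 4 * M * G := by
          exact mul_le_mul_of_nonneg_left hG1z (by positivity)
      _ = 4 * M * 1 * G := by ring
      _ ≤ 4 * M * |δ| * G := by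
          apply mul_le_mul_of_nonneg_right _ hGpos.le
          exact mul_le_mul_of_nonneg_left hδ1 (by positivity)
  have hA3 : 8 * (4 * (M : ℤ) * |δ| * G) ≤ b ^ (j + 1) := by
    have e1 : 4 * (M : ℤ) * |δ| * G ≤ 4 * M * 2 ^ (K + 1) * G := by
      apply mul_le_mul_of_nonneg_right _ hGpos.le
      exact mul_le_mul_of_nonneg_left hδ'.le (by positivity)
    have e2 : 8 * (4 * (M : ℤ) * 2 ^ (K + 1) * G) = G * (b - 1) := by
      rw [hbz, pow_add, pow_add]
      ring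
    linarith
  -- rewrite
  have hU : (U m b M : ℤ) * δ - t * b ^ (j + 1) = 4 * M * δ * G - (t - R * δ) * b ^ (j + 1) := by
    rw [hR]
    push_cast
    ring
  rw [hU] at h
  have hbig : 64 * (M : ℤ) * b ^ j ≤ b ^ (j + 1) := by
    have e1 : 64 * (M : ℤ) ≤ b := by
      have : (M : ℤ) * 2 ^ (K + 6) = 64 * M * 2 ^ K := by rw [pow_add]; ring
      have e3 : 64 * (M : ℤ) * 1 ≤ 64 * M * 2 ^ K := mul_le_mul_of_nonneg_left hK (by positivity)
      linarith
    rw [pow_succ, mul_comm ((b : ℤ) ^ j)]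
    exact mul_le_mul_of_nonneg_right e1 hBpos.le
  have hMB : (0 : ℤ) < M * b ^ j := by positivity
  set t' : ℤ := t - R * δ with ht'
  by_cases ht : t' = 0
  · rw [ht, zero_mul, sub_zero, hA1] at h
    linarith
  · have h1 : (b : ℤ) ^ (j + 1) ≤ |t' * b ^ (j + 1)| := by
      rw [abs_mul, abs_of_nonneg (by positivity : (0 : ℤ) ≤ (b : ℤ) ^ (j + 1))]
      have := Int.one_le_abs ht
      nlinarith [(by positivity : (0 : ℤ) < (b : ℤ) ^ (j + 1))]
    have h2 : |t' * (b : ℤ) ^ (j + 1)| ≤ |4 * (M : ℤ) * δ * G| +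
        |4 * (M : ℤ) * δ * G - t' * b ^ (j + 1)| := by
      have := abs_sub_abs_le_abs_sub (t' * (b : ℤ) ^ (j + 1)) (4 * (M : ℤ) * δ * G)
      rw [abs_sub_comm] at this
      linarith
    rw [hA1] at h2
    nlinarith

/-- 970's hypothesis (#14101), with locality of `rho` too. -/
theorem gadgetHyp' (S V : Type*) [Monoid S] [Finite S] [AddCommGroup V] [Finite V]
    (act : V → S → V) : ∃ C0 : ℕ, ∀ K : ℕ, ∃ (N M0 : ℕ) (x : ℕ → ℕ) (BadT : ℕ → Prop), 0 < M0 ∧
      (∀ T, BadT (T + M0) ↔ BadT T) ∧ (∀ i j, i < j → j < K → x i < x j) ∧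
      (∀ a b d e, a < K → b < K → d < K → e < K → a ≠ b → d ≠ e → ¬ (a = d ∧ b = e) →
        2 * (N : ℤ) < |((x a : ℤ) - x b) - ((x d : ℤ) - x e)|) ∧
      (∀ T, ∀ F : Finset (ℕ × ℕ), (∀ p ∈ F, p.1 < K ∧ p.2 < K ∧ p.1 ≠ p.2 ∧ x p.2 ≤ T ∧
        BadT (T + x p.1 - x p.2)) → F.card ≤ C0) ∧
      ∀ (α : Type*) (φ : List α → S), (∀ u v, φ (u ++ v) = φ u * φ v) →
      ∃ (lam rho : List α → Option V) (nu : List α → V),
        (∀ P v, lam P = some v → P.length ≤ N) ∧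
        (∀ P v Q b, lam P = some v → rho Q = some b → b = act v (φ (P ++ Q)) + nu (P ++ Q)) ∧
        (∀ u : List α, ¬ BadT u.length → ∀ v, ∃ P Q, u = P ++ Q ∧ lam P = some v ∧
          (rho Q).isSome = true) ∧
        (∀ u u' : List α, u.take N = u'.take N → u.length % M0 = u'.length % M0 →
          φ (u.drop N) = φ (u'.drop N) → rho u = rho u' ∧ nu u = nu u') := by
  classical
  obtain ⟨m, k, H⟩ := gadget_loc S V act
  refine ⟨k + m, fun K => ?_⟩
  -- primes
  have hinf : (setOf (fun p : ℕ => p.Prime ∧ 2 ^ (K + 2) < p)).Infinite := by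
    apply Set.infinite_of_not_bddAbove
    rintro ⟨B, hB⟩
    obtain ⟨p, hp, hpp⟩ := Nat.exists_infinite_primes (B + 2 ^ (K + 2) + 1)
    have h2 : 0 < 2 ^ (K + 2) := by positivity
    have := hB (show p ∈ setOf (fun p : ℕ => p.Prime ∧ 2 ^ (K + 2) < p) from ⟨hpp, by omega⟩)
    omega
  let q : Fin k → ℕ := fun j => Nat.nth (fun p : ℕ => p.Prime ∧ 2 ^ (K + 2) < p) j
  have hqmem : ∀ j, (q j).Prime ∧ 2 ^ (K + 2) < q j := fun j => Nat.nth_mem_of_infinite hinf j
  have h4 : 4 ≤ 2 ^ (K + 2) := by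
    rw [pow_add]
    have : 1 ≤ 2 ^ K := Nat.one_le_two_pow
    omega
  have hqodd : ∀ j, Odd (q j) := by
    intro j
    refine (hqmem j).1.odd_of_ne_two ?_
    have := (hqmem j).2
    omega
  have hqinj : Function.Injective q := by
    intro i j h
    have := Nat.nth_injective hinf h
    exact Fin.ext this
  have hqcop : Pairwise (fun i j => Nat.Coprime (q i) (q j)) := by
    intro i j hij
    rw [Nat.coprime_primes (hqmem i).1 (hqmem j).1]
    exact fun h => hij (hqinj h)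
  obtain ⟨M, hM⟩ : ∃ M, M = ∏ j, q j := ⟨_, rfl⟩
  have hqM : ∀ j, q j ∣ M := fun j => hM ▸ Finset.dvd_prod_of_mem q (mem_univ j)
  have hMpos : 0 < M := hM ▸ Finset.prod_pos (fun j _ => (hqmem j).1.pos)
  obtain ⟨b, hb⟩ : ∃ b, b = 1 + M * 2 ^ (K + 6) := ⟨_, rfl⟩
  have hb0 : 0 < b := by omega
  have hbig : 4 * M + 4 < b := by
    have : 64 ≤ 2 ^ (K + 6) := by
      rw [pow_add]
      have : 1 ≤ 2 ^ K := Nat.one_le_two_pow
      omega
    have : M * 64 ≤ M * 2 ^ (K + 6) := Nat.mul_le_mul_left _ this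
    omega
  have hbq : ∀ j, Nat.Coprime b (q j) := by
    intro j
    obtain ⟨c, hc⟩ := hqM j
    rw [hb, hc, mul_assoc]
    rw [Nat.coprime_comm]
    have : Nat.Coprime (q j) (1 + q j * (c * 2 ^ (K + 6))) := by
      rw [Nat.coprime_add_mul_left_right]
      exact Nat.coprime_one_right _
    exact this
  have H' := H q hqodd hqcop b (hM ▸ hbig) hbq
  have hUbig : 2 * b ^ m < U m b M := by
    unfold U
    have h1 : 0 < b ^ m := Nat.pow_pos hb0
    have : b ^ m * 3 ≤ b ^ m * (1 + 2 * M) := Nat.mul_le_mul_left _ (by omega)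
    omega
  have hUpos : 0 < U m b M := by omega
  refine ⟨b ^ m, b ^ m * M, fun l => 2 ^ l * U m b M, Bad q m b M, by positivity,
    Bad.period q m b M hb0 hqM, ?_, ?_, ?_, ?_⟩
  · intro i j hij _
    exact Nat.mul_lt_mul_of_pos_right (Nat.pow_lt_pow_right (by norm_num) hij) hUpos
  · intro a c d e ha hc hd he hac hde hne
    have h1 : (((2 ^ a * U m b M : ℕ) : ℤ) - ((2 ^ c * U m b M : ℕ) : ℤ)) -
        (((2 ^ d * U m b M : ℕ) : ℤ) - ((2 ^ e * U m b M : ℕ) : ℤ)) =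
        (((2 : ℤ) ^ a - 2 ^ c) - (2 ^ d - 2 ^ e)) * (U m b M : ℤ) := by
      push_cast
      ring
    rw [h1, abs_mul, abs_of_nonneg (by positivity : (0 : ℤ) ≤ (U m b M : ℤ))]
    have h2 : (1 : ℤ) ≤ |((2 : ℤ) ^ a - 2 ^ c) - (2 ^ d - 2 ^ e)| := by
      apply Int.one_le_abs
      intro h
      exact hne (two_pow_sub hac hde (by linarith))
    have h3 : (2 : ℤ) * ((b ^ m : ℕ) : ℤ) < U m b M := by exact_mod_cast hUbig
    have h4 : (0 : ℤ) < U m b M := by exact_mod_cast hUpos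
    nlinarith
  · intro T F hF
    -- events
    have hev : ∀ p ∈ F, ∃ s : Fin k ⊕ Fin m, (∀ j, s = Sum.inl j →
        (q j : ℤ) ∣ (T : ℤ) + ((2 : ℤ) ^ p.1 - 2 ^ p.2) * U m b M) ∧
        (∀ j : Fin m, s = Sum.inr j → ∃ t : ℤ,
          |(T : ℤ) + ((2 : ℤ) ^ p.1 - 2 ^ p.2) * U m b M - t * b ^ ((j : ℕ) + 1)| ≤
            M * b ^ (j : ℕ)) := by
      intro p hp
      obtain ⟨_, _, _, hx, hbad⟩ := hF p hp
      have hcast : ((T + 2 ^ p.1 * U m b M - 2 ^ p.2 * U m b M : ℕ) : ℤ) =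
          (T : ℤ) + ((2 : ℤ) ^ p.1 - 2 ^ p.2) * U m b M := by
        have hx' : 2 ^ p.2 * U m b M ≤ T + 2 ^ p.1 * U m b M := le_trans hx (Nat.le_add_right _ _)
        rw [Nat.cast_sub hx']
        push_cast
        ring
      rcases hbad with ⟨j, hj⟩ | ⟨j, hj, hbj⟩
      · refine ⟨Sum.inl j, ?_, ?_⟩
        · intro j' hj'
          have : j = j' := Sum.inl.inj hj'
          subst this
          rw [← hcast]
          exact_mod_cast hj
        · intro j' hj'
          exact absurd hj' (by simp)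
      · refine ⟨Sum.inr ⟨j, hj⟩, ?_, ?_⟩
        · intro j' hj'
          exact absurd hj' (by simp)
        · intro j' hj'
          have : (⟨j, hj⟩ : Fin m) = j' := Sum.inr.inj hj'
          subst this
          obtain ⟨t, ht⟩ := bad_digit hb0 hbj
          refine ⟨t, ?_⟩
          rw [← hcast]
          exact ht
    rcases F.eq_empty_or_nonempty with hFe | ⟨p0, hp0⟩
    · rw [hFe]; simp
    haveI : Nonempty (Fin k ⊕ Fin m) := ⟨(hev p0 hp0).choose⟩
    choose! f hf using hev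
    have hinj : Set.InjOn f (F : Set (ℕ × ℕ)) := by
      intro p hp p' hp' hpp
      obtain ⟨a1, a2, a3, _, _⟩ := hF p hp
      obtain ⟨b1, b2, b3, _, _⟩ := hF p' hp'
      set δ : ℤ := ((2 : ℤ) ^ p.1 - 2 ^ p.2) - (2 ^ p'.1 - 2 ^ p'.2) with hδ
      have hδlt : |δ| < 2 ^ (K + 1) := abs_two_pow_sub a1 a2 b1 b2
      have hδ0 : δ = 0 := by
        by_contra hne
        rcases hs : f p with j | j
        · have e1 := (hf p hp).1 j hs
          have e2 := (hf p' hp').1 j (hpp ▸ hs)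
          have e3 : (q j : ℤ) ∣ δ * U m b M := by
            have := dvd_sub e1 e2
            have e4 : (T : ℤ) + ((2 : ℤ) ^ p.1 - 2 ^ p.2) * U m b M -
                ((T : ℤ) + ((2 : ℤ) ^ p'.1 - 2 ^ p'.2) * U m b M) = δ * U m b M := by
              rw [hδ]; ring
            rwa [e4] at this
          have e5 : (q j : ℤ) ∣ (U m b M : ℤ) - 1 := by
            obtain ⟨c, hc⟩ := hqM j
            have h5 : (q j : ℤ) ∣ (b : ℤ) ^ m - 1 := by
              have h6 : (q j : ℤ) ∣ (b : ℤ) - 1 := by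
                refine ⟨(c : ℤ) * 2 ^ (K + 6), ?_⟩
                rw [hb, hc]
                push_cast
                ring
              exact h6.trans (sub_one_dvd_pow_sub_one (b : ℤ) m)
            have h7 : (U m b M : ℤ) - 1 = (q j : ℤ) * (c * (4 * (∑ i ∈ range m, (b : ℤ) ^ i) +
                2 * b ^ m)) + ((b : ℤ) ^ m - 1) := by
              unfold U
              rw [hc]
              push_cast
              ring
            rw [h7]
            exact dvd_add (Dvd.intro _ rfl) h5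
          have e6 : (q j : ℤ) ∣ δ := by
            have h8 : δ = δ * U m b M - δ * ((U m b M : ℤ) - 1) := by ring
            rw [h8]
            exact dvd_sub e3 (Dvd.dvd.mul_left e5 δ)
          have e7 : |δ| < (q j : ℤ) := by
            have h9 : ((2 : ℤ) ^ (K + 2)) < q j := by exact_mod_cast (hqmem j).2
            have h10 : (2 : ℤ) ^ (K + 1) ≤ 2 ^ (K + 2) := pow_le_pow_right₀ (by norm_num) (by omega)
            linarith
          exact hne (Int.eq_zero_of_abs_lt_dvd e6 e7)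
        · obtain ⟨t, ht⟩ := (hf p hp).2 j hs
          obtain ⟨t', ht'⟩ := (hf p' hp').2 j (hpp ▸ hs)
          refine digit_sep (K := K) (t := t - t') hMpos hb j.isLt hne hδlt ?_
          have e1 : (U m b M : ℤ) * δ - (t - t') * b ^ ((j : ℕ) + 1) =
              ((T : ℤ) + ((2 : ℤ) ^ p.1 - 2 ^ p.2) * U m b M - t * b ^ ((j : ℕ) + 1)) -
              ((T : ℤ) + ((2 : ℤ) ^ p'.1 - 2 ^ p'.2) * U m b M - t' * b ^ ((j : ℕ) + 1)) := by
            rw [hδ]; ring
          rw [e1]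
          refine (abs_sub _ _).trans ?_
          linarith
      have := two_pow_sub a3 b3 (by rw [hδ] at hδ0; linarith)
      exact Prod.ext this.1 this.2
    have := Finset.card_le_card_of_injOn (t := (univ : Finset (Fin k ⊕ Fin m))) f
      (fun _ _ => mem_univ _) hinj
    simpa using this
  · intro α φ hφ
    obtain ⟨lam, rho, nu, g1, g2, g3, g4⟩ := H' α φ hφ
    refine ⟨lam, rho, nu, fun P v h => (g1 P v h).le, fun P v Q b h1 h2 => g2 P Q v b h1 h2,
      ?_, ?_⟩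
    · intro u hu v
      unfold Bad at hu
      push Not at hu
      exact g3 u hu.1 (fun j hj => hM ▸ hu.2 j hj) v
    · intro u u' h1 h2 h3
      exact g4 u u' h1 h3 (hM ▸ h2)

/-- 970's literal (#14101). -/
def GadgetHyp (S V : Type) [Monoid S] [AddCommGroup V] (act : V → S → V) : Prop :=
  ∃ C0 : ℕ, ∀ K : ℕ, ∃ (N M0 : ℕ) (x : ℕ → ℕ) (BadT : ℕ → Prop), 0 < M0 ∧
    (∀ T, BadT (T + M0) ↔ BadT T) ∧ (∀ i j, i < j → j < K → x i < x j) ∧
    (∀ a b d e, a < K → b < K → d < K → e < K → a ≠ b → d ≠ e → ¬ (a = d ∧ b = e) →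
      2 * (N:ℤ) < |((x a:ℤ) - x b) - ((x d:ℤ) - x e)|) ∧
    (∀ T, ∀ F : Finset (ℕ × ℕ), (∀ p ∈ F, p.1 < K ∧ p.2 < K ∧ p.1 ≠ p.2 ∧ x p.2 ≤ T ∧
      BadT (T + x p.1 - x p.2)) → F.card ≤ C0) ∧
    ∀ (α : Type) (φ : List α → S), φ [] = 1 → (∀ u v, φ (u ++ v) = φ u * φ v) →
    ∃ (lam rho : List α → Option V) (nu : List α → V),
      (∀ P v, lam P = some v → P.length ≤ N) ∧
      (∀ P v Q b, lam P = some v → rho Q = some b → b = act v (φ (P ++ Q)) + nu (P ++ Q)) ∧
      (∀ u, 2*N ≤ u.length → ¬ BadT u.length → ∀ v, ∃ P Q, u = P ++ Q ∧ lam P = some v ∧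
        (rho Q).isSome) ∧
      (∀ u u', 2*N ≤ u.length → 2*N ≤ u'.length → u.take (2*N) = u'.take (2*N) →
        u.length % M0 = u'.length % M0 → φ (u.drop (2*N)) = φ (u'.drop (2*N)) → nu u = nu u')

theorem drop_split {α : Type*} (u : List α) {N A : ℕ} (h : N ≤ A) :
    u.drop N = (u.take A).drop N ++ u.drop A := by
  conv_lhs => rw [← List.take_append_drop (A - N) (u.drop N)]
  rw [List.drop_drop, show N + (A - N) = A by omega, List.drop_take]

theorem gadgetHyp (S V : Type) [Monoid S] [Finite S] [AddCommGroup V] [Finite V]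
    (act : V → S → V) : GadgetHyp S V act := by
  obtain ⟨C0, H⟩ := gadgetHyp' S V act
  refine ⟨C0, fun K => ?_⟩
  obtain ⟨N, M0, x, BadT, h1, h2, h3, h4, h5, h6⟩ := H K
  refine ⟨N, M0, x, BadT, h1, h2, h3, h4, h5, ?_⟩
  intro α φ _ hφ
  obtain ⟨lam, rho, nu, g1, g2, g3, g4⟩ := h6 α φ hφ
  refine ⟨lam, rho, nu, g1, g2, fun u _ hu v => g3 u hu v, ?_⟩
  intro u u' _ _ e1 e2 e3
  have hN : N ≤ 2 * N := by omega
  refine (g4 u u' ?_ e2 ?_).2
  · have := congrArg (List.take N) e1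
    rwa [List.take_take, List.take_take, Nat.min_eq_left hN] at this
  · rw [drop_split u hN, drop_split u' hN, hφ, hφ, e1, e3]

end Crest.Agent.R320.GH_808
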