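import Crest.Agent.R320.Fin_440
import Crest.Agent.R320.Grid_390
import Crest.Agent.R320.Thin_963

/-!
# Row 320: `GU` (the U-gadget on all words with its ruler) from Grid_390 and Thin_963 (helper440)
-/

set_option autoImplicit false

namespace Crest.Agent.R320.GU_440

open Crest.Agent.R320.Fin_440 Crest.Agent.R320.Grid_390
open Crest.Agent.R320.ExactR_237 (pr pr_append)

theorem exists_primes (k B : ℕ) : ∃ q : Fin k → ℕ, (∀ j, (q j).Prime) ∧ (∀ j, B < q j) ∧
    Function.Injective q := by
  refine ⟨fun j => Nat.nth Nat.Prime (j.val + B), fun j => Nat.prime_nth_prime _, fun j => ?_, ?_⟩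
  · have := Nat.add_two_le_nth_prime (j.val + B)
    show B < Nat.nth Nat.Prime (j.val + B)
    omega
  · intro i j h
    have h' : Nat.nth Nat.Prime (i.val + B) = Nat.nth Nat.Prime (j.val + B) := h
    have := (Nat.nth_strictMono Nat.infinite_setOf_prime).injective h'
    exact Fin.ext (by omega)

theorem pow_sum_aux {a b c d : ℕ} (h : 2 ^ a + 2 ^ b = 2 ^ c + 2 ^ d) (hc : a < c) (hd : a < d) :
    b < a := by
  by_contra hb
  push Not at hb
  obtain ⟨b', rfl⟩ := Nat.exists_eq_add_of_le hb
  obtain ⟨c', rfl⟩ := Nat.exists_eq_add_of_lt hc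
  obtain ⟨d', rfl⟩ := Nat.exists_eq_add_of_lt hd
  have e : 2 ^ a * (1 + 2 ^ b') = 2 ^ a * (2 * 2 ^ c' + 2 * 2 ^ d') := by
    rw [Nat.mul_add, ← Nat.pow_add, Nat.mul_one, h]
    ring
  have e2 := Nat.eq_of_mul_eq_mul_left (by positivity) e
  rcases Nat.eq_zero_or_pos b' with rfl | hb'
  · have h1 : 0 < 2 ^ c' := by positivity
    have h2 : 0 < 2 ^ d' := by positivity
    simp only [pow_zero] at e2
    omega
  · obtain ⟨b'', rfl⟩ := Nat.exists_eq_add_of_lt hb'
    have : 2 ^ (0 + b'' + 1) = 2 * 2 ^ b'' := by ring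
    rw [this] at e2
    omega

theorem pow_sum {a b c d : ℕ} (h : 2 ^ a + 2 ^ b = 2 ^ c + 2 ^ d) :
    (a = c ∧ b = d) ∨ (a = d ∧ b = c) := by
  have inj : ∀ {x y : ℕ}, 2 ^ x = 2 ^ y → x = y := fun h => Nat.pow_right_injective le_rfl h
  by_cases h1 : a = c
  · subst h1
    exact Or.inl ⟨rfl, inj (by omega)⟩
  by_cases h2 : a = d
  · subst h2
    exact Or.inr ⟨rfl, inj (by omega)⟩
  by_cases h3 : b = c
  · subst h3
    exact Or.inr ⟨inj (by omega), rfl⟩
  by_cases h4 : b = d
  · subst h4
    exact Or.inl ⟨inj (by omega), rfl⟩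
  exfalso
  -- the least exponent is different from all others
  have k1 := pow_sum_aux (a := a) (b := b) (c := c) (d := d) h
  have k2 := pow_sum_aux (a := b) (b := a) (c := c) (d := d) (by omega)
  have k3 := pow_sum_aux (a := c) (b := d) (c := a) (d := b) (by omega)
  have k4 := pow_sum_aux (a := d) (b := c) (c := a) (d := b) (by omega)
  by_cases a1 : a < c
  · by_cases a2 : a < d
    · have b1 := k1 a1 a2
      have := k2 (by omega) (by omega)
      omega
    · have a3 : d < a := by omega
      by_cases a4 : d < b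
      · have := k4 a3 a4
        omega
      · have := k2 (by omega) (by omega)
        omega
  · have a5 : c < a := by omega
    by_cases a6 : c < b
    · have b1 := k3 a5 a6
      have := k4 (by omega) (by omega)
      omega
    · have a7 : b < c := by omega
      by_cases a8 : b < d
      · have := k2 a7 a8
        omega
      · have := k4 (by omega) (by omega)
        omega

theorem gu (S V : Type) [Monoid S] [Finite S] [AddCommGroup V] [Finite V] (act : V → S → V) :
    GU S V act := by
  classical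
  obtain ⟨k, m, H⟩ := grid_gadget S V act
  refine ⟨k + m, fun K => ?_⟩
  obtain ⟨q, hq, hqB, hqi⟩ := exists_primes k (2 ^ (K + 1) + 2)
  have hp2 : 0 < 2 ^ (K + 1) := by positivity
  have hodd : ∀ j, Odd (q j) := fun j => (hq j).odd_of_ne_two (by
    have := hqB j
    intro h
    rw [h] at this
    have h3 : 2 ^ (K + 1) + 2 < 2 := this
    exact absurd h3 (by simp))
  have hcop : Pairwise (fun i j => Nat.Coprime (q i) (q j)) := fun i j hij =>
    (Nat.coprime_primes (hq i) (hq j)).2 fun h => hij (hqi h)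
  set M : ℕ := ∏ j, q j with hM
  have hMpos : 0 < M := Finset.prod_pos fun j _ => (hq j).pos
  set κ : ℕ := 2 ^ (K + 4) * M * m with hκ
  set Ms : Finset ℕ := Finset.univ.image q with hMs
  have hMsc : Ms.card ≤ k := by
    rw [hMs]
    exact le_trans Finset.card_image_le (by simp)
  let GG : ℕ → ℤ := fun i => (G κ i : ℤ)
  let cc : ℕ → ℤ := fun i => (M : ℤ) * (G κ i : ℤ)
  let AA : ℕ → ℤ := fun i => (Am M κ i : ℤ)
  have hGpos : ∀ i, 0 < G κ i := fun i => by unfold G; positivity
  have hGdvd : ∀ i j, i ≤ j → G κ i ∣ G κ j := fun i j hij => by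
    unfold G; exact pow_dvd_pow 2 (Nat.mul_le_mul_left _ hij)
  set N1 : ℕ := Am M κ m with hN1
  set La' : ℕ := Am M κ (m + 1) with hLa'
  obtain ⟨X, hX0, hXpos, hthin⟩ := Crest.Agent.R320.Thin963.thin K m Ms GG cc AA
    (by
      intro p hp
      rw [hMs, Finset.mem_image] at hp
      obtain ⟨j, -, rfl⟩ := hp
      exact ⟨hq j, by have := hqB j; omega⟩)
    (by
      intro p hp
      rw [hMs, Finset.mem_image] at hp
      obtain ⟨j, -, rfl⟩ := hp
      show IsCoprime ((q j : ℕ) : ℤ) ((G κ m : ℕ) : ℤ)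
      rw [Nat.isCoprime_iff_coprime]
      unfold G
      exact Nat.Coprime.pow_right _ (hodd j).coprime_two_right)
    (by
      show (0 : ℤ) < ((G κ m : ℕ) : ℤ)
      exact_mod_cast hGpos m)
    (fun i j hij => by
      show ((G κ i : ℕ) : ℤ) ∣ ((G κ j : ℕ) : ℤ)
      exact_mod_cast hGdvd i j hij)
    (fun i => by
      show (0 : ℤ) < (M : ℤ) * (G κ i : ℤ)
      exact_mod_cast Nat.mul_pos hMpos (hGpos i))
    (fun i => Dvd.intro_left _ rfl)
    (by
      intro i hi
      show (2 : ℤ) ^ (K + 4) * ∑ j ∈ Finset.range (i + 1), (M : ℤ) * (G κ j : ℤ) ≤ (G κ (i + 1) : ℤ)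
      have h1 : ∑ j ∈ Finset.range (i + 1), M * G κ j ≤ m * (M * G κ i) := by
        refine le_trans (Finset.sum_le_card_nsmul _ _ (M * G κ i) ?_) ?_
        · intro j hj
          rw [Finset.mem_range] at hj
          exact Nat.mul_le_mul_left _ (Nat.le_of_dvd (hGpos i) (hGdvd j i (by omega)))
        · rw [Finset.card_range, smul_eq_mul]
          exact Nat.mul_le_mul_right _ (by omega)
      have h2 : 2 ^ (K + 4) * (m * (M * G κ i)) ≤ G κ (i + 1) := by
        have h3 : 2 ^ (K + 4) * (m * (M * G κ i)) = κ * G κ i := by rw [hκ]; ring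
        rw [h3]
        have h4 : G κ (i + 1) = 2 ^ κ * G κ i := by
          unfold G; rw [← pow_add]; congr 1; ring
        rw [h4]
        exact Nat.mul_le_mul_right _ (Nat.lt_two_pow_self).le
      have h5 : 2 ^ (K + 4) * ∑ j ∈ Finset.range (i + 1), M * G κ j ≤ G κ (i + 1) :=
        le_trans (Nat.mul_le_mul_left _ h1) h2
      exact_mod_cast h5)
    ((2 * N1 + La' + 1 : ℕ) : ℤ)
  obtain ⟨x, rfl⟩ : ∃ x : ℕ, X = (x : ℤ) := ⟨X.toNat, (Int.toNat_of_nonneg hXpos.le).symm⟩
  have hx0 : 2 * N1 + La' + 1 ≤ x := by exact_mod_cast hX0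
  have hxpos : 0 < x := by exact_mod_cast hXpos
  refine ⟨N1, 2 * La', M * G κ m, fun T => Crest.Agent.R320.Thin963.BadT Ms m GG cc AA (T : ℤ),
    fun i => x * 2 ^ i, Nat.mul_pos hMpos (hGpos m), ?_, ?_, ?_, ?_, ?_⟩
  · -- periodicity
    intro T T' _ _ h
    have hd : ((M * G κ m : ℕ) : ℤ) ∣ (T : ℤ) - (T' : ℤ) := by
      have := (Nat.modEq_iff_dvd.1 h.symm)
      exact_mod_cast this
    have hone : ∀ T T' : ℤ, ((M * G κ m : ℕ) : ℤ) ∣ T - T' →
        Crest.Agent.R320.Thin963.BadT Ms m GG cc AA T →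
        Crest.Agent.R320.Thin963.BadT Ms m GG cc AA T' := by
      intro T T' hd hb
      rcases hb with ⟨p, hp, hpT⟩ | ⟨i, hi, e, he, hdv⟩
      · left
        refine ⟨p, hp, ?_⟩
        have hpM : (p : ℤ) ∣ ((M * G κ m : ℕ) : ℤ) := by
          rw [hMs, Finset.mem_image] at hp
          obtain ⟨j, -, rfl⟩ := hp
          exact_mod_cast (Finset.dvd_prod_of_mem q (Finset.mem_univ j)).mul_right (G κ m)
        have := dvd_sub hpT (hpM.trans hd)
        have e2 : T - (T - T') = T' := by ring
        rwa [e2] at this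
      · right
        refine ⟨i, hi, e, he, ?_⟩
        have hgM : GG (i + 1) ∣ ((M * G κ m : ℕ) : ℤ) := by
          show ((G κ (i + 1) : ℕ) : ℤ) ∣ _
          exact_mod_cast (hGdvd (i + 1) m (by omega)).mul_left M
        have := dvd_sub hdv (hgM.trans hd)
        have e2 : T - AA (i + 1) + e - (T - T') = T' - AA (i + 1) + e := by ring
        rwa [e2] at this
    constructor
    · exact hone _ _ hd
    · apply hone
      have := (dvd_neg (a := ((M * G κ m : ℕ) : ℤ))).2 hd
      have e2 : -((T : ℤ) - (T' : ℤ)) = (T' : ℤ) - T := by ring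
      rwa [e2] at this
  · intro i j hij _
    exact Nat.mul_lt_mul_of_pos_left (Nat.pow_lt_pow_right (by norm_num) hij) hxpos
  · -- resolution
    intro i i' j j' hi hi' hj hj' hne hne' h1 h2
    have h1' : x * (2 ^ i + 2 ^ j') < x * (2 ^ j + 2 ^ i') + 2 * N1 := by
      rw [Nat.mul_add, Nat.mul_add]; exact h1
    have h2' : x * (2 ^ j + 2 ^ i') < x * (2 ^ i + 2 ^ j') + 2 * N1 := by
      rw [Nat.mul_add, Nat.mul_add]; exact h2
    have hx1 : 2 * N1 < x := by omega
    have e : 2 ^ i + 2 ^ j' = 2 ^ j + 2 ^ i' := by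
      rcases lt_trichotomy (2 ^ i + 2 ^ j') (2 ^ j + 2 ^ i') with h | h | h
      · exfalso
        have : x * (2 ^ i + 2 ^ j' + 1) ≤ x * (2 ^ j + 2 ^ i') := Nat.mul_le_mul_left _ h
        rw [Nat.mul_add x (2 ^ i + 2 ^ j') 1, Nat.mul_one] at this
        omega
      · exact h
      · exfalso
        have : x * (2 ^ j + 2 ^ i' + 1) ≤ x * (2 ^ i + 2 ^ j') := Nat.mul_le_mul_left _ h
        rw [Nat.mul_add x (2 ^ j + 2 ^ i') 1, Nat.mul_one] at this
        omega
    rcases pow_sum e with ⟨h, -⟩ | ⟨h, -⟩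
    · exact h
    · exact absurd h.symm hne
  · -- spoil
    intro T hT I hI
    have hch : ∀ a ∈ I, ∃ a', a' < K ∧ a' ≠ a ∧
        Crest.Agent.R320.Thin963.BadT Ms m GG cc AA ((T + x * 2 ^ a' - x * 2 ^ a : ℕ) : ℤ) :=
      fun a ha => (hI a ha).2
    choose! g hg using hch
    refine le_trans ?_ (le_trans (hthin (T : ℤ)) (by omega))
    refine Finset.card_le_card_of_injOn (fun a => (g a, a)) ?_ ?_
    · intro a ha
      have ha' : a ∈ I := ha
      obtain ⟨h1, h2, h3⟩ := hg a ha'
      rw [Finset.mem_coe, Finset.mem_filter]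
      refine ⟨Finset.mem_product.2 ⟨Finset.mem_range.2 h1, Finset.mem_range.2 (hI a ha').1⟩, h2, ?_⟩
      have hle : x * 2 ^ a ≤ T := hT a (hI a ha').1
      have e : ((T + x * 2 ^ (g a) - x * 2 ^ a : ℕ) : ℤ) =
          (T : ℤ) + (x : ℤ) * 2 ^ (g a) - (x : ℤ) * 2 ^ a := by
        rw [Nat.cast_sub (by omega)]
        push_cast
        ring
      rw [e] at h3
      exact h3
    · intro a _ b _ hab
      exact congrArg Prod.snd hab
  · intro A f
    obtain ⟨lam, rho, nu, h1, h2, h3, h4, h5⟩ := H q hodd hcop κ A (pr f) (pr_append f)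
    refine ⟨lam, rho, nu, h3, fun P v h => (h1 P v h).1.le, ?_, ?_⟩
    · intro Y hY hB v
      refine h4 Y hY ?_ ?_ v
      · intro j hj
        apply hB
        left
        exact ⟨q j, by rw [hMs]; exact Finset.mem_image_of_mem _ (Finset.mem_univ j), by
          exact_mod_cast hj⟩
      · intro j hj1 hjm
        have hAm : Am M κ j ≤ Y.length := by
          have h7 : Am M κ j ≤ La' := Am_mono (by omega)
          omega
        set r : ℕ := (Y.length - Am M κ j) % G κ j with hr
        have hrlt : r < G κ j := Nat.mod_lt _ (hGpos j)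
        have hrd : (G κ j : ℤ) ∣ (Y.length : ℤ) - (Am M κ j : ℤ) - (r : ℤ) := by
          have := Nat.dvd_sub_mod (n := G κ j) (Y.length - Am M κ j)
          have h6 : ((Y.length - Am M κ j - r : ℕ) : ℤ) =
              (Y.length : ℤ) - (Am M κ j : ℤ) - (r : ℤ) := by
            have : r ≤ Y.length - Am M κ j := Nat.mod_le _ _
            omega
          rw [← h6]
          exact_mod_cast this
        obtain ⟨i, rfl⟩ : ∃ i, j = i + 1 := ⟨j - 1, by omega⟩
        have hnot := fun e he hd => hB (Or.inr ⟨i, by omega, e, he, hd⟩)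
        constructor
        · by_contra hlt
          push Not at hlt
          apply hnot (-(r : ℤ))
          · show |(-(r : ℤ))| ≤ (M : ℤ) * (G κ i : ℤ)
            rw [abs_neg, abs_of_nonneg (by positivity)]
            rw [Nat.add_sub_cancel] at hlt
            exact_mod_cast hlt.le
          · show (G κ (i + 1) : ℤ) ∣ (Y.length : ℤ) - (Am M κ (i + 1) : ℤ) + -(r : ℤ)
            exact hrd
        · by_contra hlt
          push Not at hlt
          rw [Nat.add_sub_cancel] at hlt
          apply hnot ((G κ (i + 1) : ℤ) - (r : ℤ))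
          · show |(G κ (i + 1) : ℤ) - (r : ℤ)| ≤ (M : ℤ) * (G κ i : ℤ)
            rw [abs_of_nonneg (by
              have : (r : ℤ) < (G κ (i + 1) : ℤ) := by exact_mod_cast hrlt
              linarith)]
            have : (G κ (i + 1) : ℤ) < (r : ℤ) + (M : ℤ) * (G κ i : ℤ) := by exact_mod_cast hlt
            linarith
          · show (G κ (i + 1) : ℤ) ∣
              (Y.length : ℤ) - (Am M κ (i + 1) : ℤ) + ((G κ (i + 1) : ℤ) - (r : ℤ))
            have := dvd_add hrd (dvd_refl (G κ (i + 1) : ℤ))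
            have e : (Y.length : ℤ) - (Am M κ (i + 1) : ℤ) - (r : ℤ) + (G κ (i + 1) : ℤ) =
              (Y.length : ℤ) - (Am M κ (i + 1) : ℤ) + ((G κ (i + 1) : ℤ) - (r : ℤ)) := by ring
            rwa [e] at this
    · intro u u' hu hu' ht hlen hd
      have b1 : Am M κ (m + 1) ≤ u.length := by
        have : La' ≤ u.length := by omega
        exact this
      have b2 : Am M κ (m + 1) ≤ u'.length := by
        have : La' ≤ u'.length := by omega
        exact this
      refine (h5 u u' b1 b2 ?_ hlen ?_).2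
      · have := congrArg (List.take La') ht
        rwa [List.take_take, List.take_take, Nat.min_eq_left (by omega)] at this
      · have a : ∀ w : List A, 2 * La' ≤ w.length →
            w.drop La' = (w.take (2 * La')).drop La' ++ w.drop (2 * La') := by
          intro w hw
          conv_lhs => rw [← List.take_append_drop (2 * La') w]
          rw [List.drop_append_of_le_length (by rw [List.length_take]; omega)]
        rw [a u hu, a u' hu', pr_append, pr_append, ht, hd]

end Crest.Agent.R320.GU_440
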