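import Crest.Agent.R320.WallU_228
import Crest.Agent.R320.Main_621
import Crest.Agent.R320.ExactR_237

/-!
# Row 320: two-wall blocks over left-looking walls on all words (helper986)

Walls, the codes `UU z` (up to the first wall at distance at least `z`) and `U1` (up to the next
wall), and the heights of the languages of blocks.
-/

set_option autoImplicit false

namespace Crest.Agent.R320.GaA_986

open Crest.Agent.R320.Hk_851 Crest.RegLang

variable {α : Type}

/-- left looking walls on all words -/
structure Wall (W n : ℕ) (Wo : List α → Prop) : Prop where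
  pos : 0 < n
  loc : ∀ P Q : List α, n ≤ Q.length → (Wo (P ++ Q) ↔ Wo Q)
  len : ∀ P : List α, Wo P → n ≤ P.length
  gap : ∀ (P : List α) (d : ℕ), Wo P → 0 < d → d ≤ W → ¬ Wo (P.take (P.length - d))
  val : ∀ (M : Type) [Monoid M] [Finite M] (φ : α → M) (s : M),
    HL 1 ({w | (∀ t < w.length, ¬ Wo (w.take t)) ∧ (w.map φ).prod = s} : Language α)

/-- wall-free words with a given value -/
def WF {M : Type} [Monoid M] (Wo : List α → Prop) (ψ : α → M) (m : M) : Language α :=
  {w | (∀ t < w.length, ¬ Wo (w.take t)) ∧ (w.map ψ).prod = m}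

/-- two walls are more than `W` apart -/
theorem Wall.sep {W n : ℕ} {Wo : List α → Prop} (h : Wall W n Wo) {Y : List α} {s t : ℕ}
    (hs : Wo (Y.take s)) (ht : Wo (Y.take t)) (hst : s < t) (htl : t ≤ Y.length) : s + W < t := by
  by_contra hc
  have h1 := h.gap (Y.take t) (t - s) ht (by omega) (by omega)
  rw [List.length_take, List.take_take] at h1
  have e : min (min t Y.length - (t - s)) t = s := by omega
  rw [e] at h1
  exact h1 hs

/-- words up to the first wall at distance at least `z` -/
def UU (Wo : List α → Prop) (z : ℕ) : Language α :=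
  {u | z ≤ u.length ∧ Wo u ∧ ∀ s, z ≤ s → s < u.length → ¬ Wo (u.take s)}

/-- words up to the first wall -/
def U1 (Wo : List α → Prop) : Language α := {u | Wo u ∧ ∀ s < u.length, ¬ Wo (u.take s)}

theorem UU_code {Wo : List α → Prop} {z : ℕ} {u u' x x' : List α} (h : u ∈ UU Wo z)
    (h' : u' ∈ UU Wo z) (e : u ++ x = u' ++ x') : u = u' := by
  have key : ∀ {u u' x x' : List α}, u ∈ UU Wo z → u' ∈ UU Wo z → u ++ x = u' ++ x' →
      ¬ u.length < u'.length := by
    intro u u' x x' h h' e hlt
    have e1 : u'.take u.length = u := by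
      have := congrArg (List.take u.length) e
      rw [List.take_left, List.take_append_of_le_length (by omega)] at this
      exact this.symm
    exact h'.2.2 u.length h.1 hlt (by rw [e1]; exact h.2.1)
  have h1 := key h h' e
  have h2 := key h' h e.symm
  exact (List.append_inj e (by omega)).1

theorem U1_code {Wo : List α → Prop} {u u' x x' : List α} (h : u ∈ U1 Wo)
    (h' : u' ∈ U1 Wo) (e : u ++ x = u' ++ x') : u = u' := by
  have key : ∀ {u u' x x' : List α}, u ∈ U1 Wo → u' ∈ U1 Wo → u ++ x = u' ++ x' →
      ¬ u.length < u'.length := by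
    intro u u' x x' h h' e hlt
    have e1 : u'.take u.length = u := by
      have := congrArg (List.take u.length) e
      rw [List.take_left, List.take_append_of_le_length (by omega)] at this
      exact this.symm
    exact h'.2 u.length hlt (by rw [e1]; exact h.1)
  have h1 := key h h' e
  have h2 := key h' h e.symm
  exact (List.append_inj e (by omega)).1

section heights

variable [Finite α]

theorem HL_Wo {W n : ℕ} {Wo : List α → Prop} (h : Wall W n Wo) {k : ℕ} :
    HL k ({w | Wo w} : Language α) := by
  have h1 : HL k ({v : List α | v.length = n ∧ Wo v} : Language α) :=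
    HL.finite ((List.finite_length_eq α n).subset fun v hv => hv.1)
  refine h1.suffix.congr fun w => ?_
  constructor
  · intro hw
    have hn := h.len w hw
    refine ⟨w.drop (w.length - n), ⟨by rw [List.length_drop]; omega, ?_⟩, List.drop_suffix _ _⟩
    have := h.loc (w.take (w.length - n)) (w.drop (w.length - n))
      (by rw [List.length_drop]; omega)
    rw [List.take_append_drop] at this
    exact this.1 hw
  · rintro ⟨v, ⟨hv1, hv2⟩, P, rfl⟩
    exact (h.loc P v (by omega)).2 hv2

/-- first elements of a language -/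
theorem HL_first {k : ℕ} {L : Language α} (hL : HL k L) :
    HL k ({u | u ∈ L ∧ ∀ s < u.length, u.take s ∉ L} : Language α) := by
  have h2 := hL.inf (hL.mul (HL.length_ge (α := α) (k := k) 1)).compl
  refine h2.congr fun w => ?_
  constructor
  · rintro ⟨h3, h4⟩
    refine ⟨h3, fun hm => ?_⟩
    obtain ⟨a, ha, b, hb, rfl⟩ := Language.mem_mul.1 hm
    have hb' : 1 ≤ b.length := hb
    exact h4 a.length (by rw [List.length_append]; omega) (by rw [List.take_left]; exact ha)
  · rintro ⟨h3, h4⟩
    refine ⟨h3, fun s hs hm => h4 (Language.mem_mul.2 ⟨w.take s, hm, w.drop s, ?_, ?_⟩)⟩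
    · show 1 ≤ (w.drop s).length
      rw [List.length_drop]; omega
    · exact List.take_append_drop s w

theorem HL_UU {W n : ℕ} {Wo : List α → Prop} (h : Wall W n Wo) (z : ℕ) {k : ℕ} :
    HL k (UU Wo z) := by
  refine (HL_first ((HL.length_ge (α := α) (k := k) z).inf (HL_Wo h))).congr fun w => ?_
  constructor
  · rintro ⟨h1, h2, h3⟩
    refine ⟨⟨h1, h2⟩, fun s hs hm => h3 s ?_ hs hm.2⟩
    have : z ≤ (w.take s).length := hm.1
    rw [List.length_take] at this
    omega
  · rintro ⟨⟨h1, h2⟩, h3⟩
    refine ⟨h1, h2, fun s hz hs hw => h3 s hs ⟨?_, hw⟩⟩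
    show z ≤ (w.take s).length
    rw [List.length_take]; omega

theorem HL_U1 {W n : ℕ} {Wo : List α → Prop} (h : Wall W n Wo) {k : ℕ} : HL k (U1 Wo) :=
  (HL_first (HL_Wo h)).congr fun _ => Iff.rfl

theorem HL_take {k : ℕ} (L : ℕ) (p : List α) : HL k ({u | u.take L = p} : Language α) := by
  by_cases hp : p.length < L
  · refine (HL.word p).congr fun w => ?_
    constructor
    · intro hw
      have hw' : w.take L = p := hw
      have h1 := congrArg List.length hw'
      rw [List.length_take] at h1
      have : w.length ≤ L := by omega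
      rw [List.take_of_length_le this] at hw'
      exact hw'
    · intro hw
      have hw' : w = p := hw
      show w.take L = p
      rw [hw', List.take_of_length_le (by omega)]
  · by_cases hp2 : p.length = L
    · refine ((HL.word (k := k) p).mul HL.top).congr fun w => ?_
      constructor
      · intro hw
        have hw' : w.take L = p := hw
        exact Language.mem_mul.2 ⟨p, rfl, w.drop L, trivial, by
          rw [← hw', List.take_append_drop]⟩
      · intro hw
        obtain ⟨a, ha, b, -, rfl⟩ := Language.mem_mul.1 hw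
        have ha' : a = p := ha
        show (a ++ b).take L = p
        rw [ha', ← hp2, List.take_left]
    · refine HL.bot.congr fun w => ?_
      constructor
      · intro hw
        have h1 := congrArg List.length (show w.take L = p from hw)
        rw [List.length_take] at h1
        omega
      · intro hw
        exact hw.elim

variable {S : Type} [Monoid S] [Finite S] (φ : α → S)

/-- values and lengths of words of the code `UU` -/
theorem HL_UU_val {W n : ℕ} {Wo : List α → Prop} (h : Wall W n Wo) (z M0 : ℕ) [NeZero M0]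
    (s : S) (r : ZMod M0) :
    HL 1 ({u | u ∈ UU Wo z ∧ (u.map φ).prod = s ∧ (u.length : ZMod M0) = r} : Language α) := by
  have : Finite (ZMod M0) := inferInstance
  let ψ : α → S × Multiplicative (ZMod M0) := fun a => (φ a, Multiplicative.ofAdd 1)
  have hψ : ∀ w : List α, (w.map ψ).prod =
      ((w.map φ).prod, Multiplicative.ofAdd (w.length : ZMod M0)) := by
    intro w
    induction w with
    | nil => simp; rfl
    | cons a w ih =>
      rw [List.map_cons, List.prod_cons, ih]
      refine Prod.ext ?_ ?_
      · simp [ψ]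
      · simp only [ψ, Prod.mk_mul_mk, List.length_cons, Nat.cast_add, Nat.cast_one]
        rw [← ofAdd_add, add_comm]
  have key : HL 1 ({u | ∃ i ∈ {p : List α × (S × Multiplicative (ZMod M0)) |
      p.1.length = z ∧ (p.1.map ψ).prod * p.2 = (s, Multiplicative.ofAdd r)},
      u ∈ (({i.1} : Language α) * WF Wo ψ i.2)} : Language α) := by
    refine HL.biUnion ?_ fun i _ => (HL.word i.1).mul (h.val _ ψ i.2)
    have hf : (({p : List α | p.length = z} : Set (List α)) ×ˢ
        (Set.univ : Set (S × Multiplicative (ZMod M0)))).Finite :=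
      (List.finite_length_eq α z).prod Set.finite_univ
    exact hf.subset fun p hp => ⟨hp.1, trivial⟩
  refine ((HL_UU h z (k := 1)).inf key).congr fun u => ?_
  constructor
  · rintro ⟨h1, h2, h3⟩
    refine ⟨h1, (u.take z, ((u.drop z).map ψ).prod), ⟨?_, ?_⟩, ?_⟩
    · show (u.take z).length = z
      rw [List.length_take]; have := h1.1; omega
    · show ((u.take z).map ψ).prod * ((u.drop z).map ψ).prod = (s, Multiplicative.ofAdd r)
      rw [← List.prod_append, ← List.map_append, List.take_append_drop, hψ, h2, h3]
    · refine Language.mem_mul.2 ⟨u.take z, rfl, u.drop z, ⟨?_, rfl⟩, List.take_append_drop z u⟩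
      intro t ht hw
      rw [List.length_drop] at ht
      have hn := h.len _ hw
      have e : u.take (z + t) = u.take z ++ (u.drop z).take t := by rw [List.take_add]
      have := (h.loc (u.take z) ((u.drop z).take t) hn).2 hw
      rw [← e] at this
      exact h1.2.2 (z + t) (by omega) (by omega) this
  · rintro ⟨h1, i, ⟨h2, h3⟩, h4⟩
    obtain ⟨a, ha, b, hb, rfl⟩ := Language.mem_mul.1 h4
    have ha' : a = i.1 := ha
    have h5 : ((a ++ b).map ψ).prod = (s, Multiplicative.ofAdd r) := by
      rw [List.map_append, List.prod_append, hb.2, ha']; exact h3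
    rw [hψ] at h5
    exact ⟨h1, congrArg Prod.fst h5,
      Multiplicative.ofAdd.injective (congrArg Prod.snd h5)⟩

/-- any predicate on `UU` which depends only on a prefix, the length modulo `M0`, the value -/
theorem HL_UU_pred {W n : ℕ} {Wo : List α → Prop} (h : Wall W n Wo) (z L M0 : ℕ) [NeZero M0]
    (P : List α → Prop)
    (hP : ∀ u u', u ∈ UU Wo z → u' ∈ UU Wo z → u.take L = u'.take L →
      (u.length : ZMod M0) = (u'.length : ZMod M0) → (u.map φ).prod = (u'.map φ).prod →
      P u → P u') :
    HL 1 ({u | u ∈ UU Wo z ∧ P u} : Language α) := by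
  have : Finite {p : List α // p.length ≤ L} := (List.finite_length_le α L).to_subtype
  have key : HL 1 ({u | ∃ i : {p : List α // p.length ≤ L} × S × ZMod M0,
      u ∈ ({u | (∃ u', u' ∈ UU Wo z ∧ P u' ∧ u'.take L = i.1.1 ∧ (u'.map φ).prod = i.2.1 ∧
        (u'.length : ZMod M0) = i.2.2) ∧ (u.take L = i.1.1 ∧
        (u ∈ UU Wo z ∧ (u.map φ).prod = i.2.1 ∧ (u.length : ZMod M0) = i.2.2))} :
          Language α)} : Language α) := by
    refine HL.iUnion fun i => ?_
    exact (HL.const _).setOf_and ((HL_take L i.1.1).setOf_and (HL_UU_val φ h z M0 i.2.1 i.2.2))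
  refine key.congr fun u => ?_
  constructor
  · rintro ⟨h1, h2⟩
    refine ⟨(⟨u.take L, by rw [List.length_take]; omega⟩, (u.map φ).prod, (u.length : ZMod M0)),
      ⟨u, h1, h2, rfl, rfl, rfl⟩, rfl, h1, rfl, rfl⟩
  · rintro ⟨i, ⟨u', h1, h2, h3, h4, h5⟩, h6, h7, h8, h9⟩
    exact ⟨h7, hP u' u h1 h7 (h3.trans h6.symm) (h5.trans h9.symm) (h4.trans h8.symm) h2⟩

theorem HL_U1_val {W n : ℕ} {Wo : List α → Prop} (h : Wall W n Wo) (s : S) :
    HL 1 ({u | u ∈ U1 Wo ∧ (u.map φ).prod = s} : Language α) := by
  refine ((HL_Wo h).inf (h.val S φ s)).congr fun w => ?_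
  constructor
  · rintro ⟨⟨h1, h2⟩, h3⟩; exact ⟨h1, h2, h3⟩
  · rintro ⟨h1, h2, h3⟩; exact ⟨⟨h1, h2⟩, h3⟩

end heights

/-- existence of walls with any gap -/
theorem exists_wall (α : Type) [Finite α] (W : ℕ) :
    ∃ (n : ℕ) (Wo : List α → Prop), Wall W n Wo := by
  obtain ⟨n, c, P, S, hn, hP, hS, hsep, hper⟩ :=
    Crest.Agent.R320.Mk263.marker (α := α) (W + 1) (by omega)
  have hloc : ∀ P Q : List α, n ≤ Q.length →
      (WallU_228.Wo n S (P ++ Q) ↔ WallU_228.Wo n S Q) := fun P Q h =>
    WallU_228.wo_append P Q h
  have hreg : HL 1 ({w | WallU_228.Wo n S w} : Language α) := by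
    have h1 : HL 1 ({v : List α | v.length = n ∧ WallU_228.Wo n S v} : Language α) :=
      HL.finite ((List.finite_length_eq α n).subset fun v hv => hv.1)
    refine h1.suffix.congr fun w => ?_
    constructor
    · intro hw
      have hn' := hw.1
      refine ⟨w.drop (w.length - n), ⟨by rw [List.length_drop]; omega, ?_⟩,
        List.drop_suffix _ _⟩
      have := hloc (w.take (w.length - n)) (w.drop (w.length - n))
        (by rw [List.length_drop]; omega)
      rw [List.take_append_drop] at this
      exact this.1 hw
    · rintro ⟨v, ⟨hv1, hv2⟩, P, rfl⟩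
      exact (hloc P v (by omega)).2 hv2
  refine ⟨n, WallU_228.Wo n S, hn, hloc, fun P h => h.1, ?_, ?_⟩
  · intro Q d hQ hd hdW hT
    obtain ⟨h1, h2⟩ := hQ
    obtain ⟨h3, h4⟩ := hT
    have hl : (Q.take (Q.length - d)).length = Q.length - d := by rw [List.length_take]; omega
    rw [hl] at h3 h4
    rw [List.drop_take] at h4
    have e2 : Q.length - d - (Q.length - d - n) = n := by omega
    rw [e2] at h4
    have h5 : (Q.drop (Q.length - n)).take n ∈ S := by
      rw [List.take_of_length_le (by rw [List.length_drop]; omega)]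
      exact h2
    have := hsep Q (Q.length - d - n) (Q.length - n) (by omega) (by omega) h4 h5
    omega
  · intro M _ _ φ s
    have h1 := Crest.Agent.R320.FewVal_228.HL_few_value hn hP hper 1 φ s
    have h2 := ((hreg).mul (HL.length_ge (α := α) (k := 1) 1)).compl
    refine (h2.inf h1).congr fun w => ?_
    constructor
    · rintro ⟨h3, h4⟩
      refine ⟨fun hm => ?_, WallU_228.nw_le_one w h3, h4⟩
      obtain ⟨a, ha, b, hb, rfl⟩ := Language.mem_mul.1 hm
      have hb' : 1 ≤ b.length := hb
      exact h3 a.length (by rw [List.length_append]; omega) (by rw [List.take_left]; exact ha)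
    · rintro ⟨h3, h4, h5⟩
      refine ⟨fun s hs hm => h3 (Language.mem_mul.2 ⟨w.take s, hm, w.drop s, ?_, ?_⟩), h5⟩
      · show 1 ≤ (w.drop s).length
        rw [List.length_drop]; omega
      · exact List.take_append_drop s w

end Crest.Agent.R320.GaA_986
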