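import Crest.Agent.R320.GaA_986

/-!
# Row 320: the data of 621's `Main_621.row` from one gadget on all words (helper986), part 1
-/

set_option autoImplicit false

namespace Crest.Agent.R320.GaB_986

open Crest.Agent.R320.Hk_851 Crest.Agent.R320.Star_621 Crest.Agent.R320.Two_621
  Crest.Agent.R320.GaA_986

/-- the scheme 1 gadget on all words, with its ruler -/
structure Gad (S : Type) [Monoid S] (C0 K N M0 : ℕ) (x : ℕ → ℕ) (Bad : ℕ → Prop) : Prop where
  M0pos : 0 < M0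
  mono : ∀ i j, i < j → j < K → x i < x j
  pos : ∀ i, i < K → 0 < x i
  spaced : ∀ a b c d, a < K → b < K → c < K → d < K → a ≠ b → c ≠ d →
    x a + x d ≤ x c + x b + 2 * N → x c + x b ≤ x a + x d + 2 * N → a = c
  per : ∀ T T' : ℕ, (T : ZMod M0) = (T' : ZMod M0) → Bad T → Bad T'
  few : ∀ T, ∃ J : Finset ℕ, J.card ≤ C0 ∧ ∀ k < K, ∀ k' < K, k ≠ k' → x k ≤ T →
    Bad (T + x k' - x k) → k ∈ J
  gad : ∀ (α : Type) [Finite α] (φ : α → S), ∃ (lam rho : List α → Option (Tok S))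
    (nu : List α → Tok S),
    (∀ p v, lam p = some v → p.length ≤ N) ∧
    (∀ p q v b, lam p = some v → rho q = some b →
      b = act v ((p ++ q).map φ).prod + nu (p ++ q)) ∧
    (∀ u v, N ≤ u.length → ¬ Bad u.length →
      ∃ p q b, p ++ q = u ∧ lam p = some v ∧ rho q = some b) ∧
    (∀ u u', N ≤ u.length → N ≤ u'.length → u.take N = u'.take N →
      (u.length : ZMod M0) = (u'.length : ZMod M0) → (u.map φ).prod = (u'.map φ).prod →
      nu u = nu u')

variable {α : Type} {S : Type} [Monoid S]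

/-- value of a word -/
def ph (φ : α → S) (w : List α) : S := (w.map φ).prod

theorem ph_append (φ : α → S) (u v : List α) : ph φ (u ++ v) = ph φ u * ph φ v := by
  simp [ph]

/-- the text behind the frame -/
def YY (Wo : List α → Prop) (z : ℕ) : Language α := UU Wo z * U1 Wo

/-- words of length `p0` -/
def Len (α : Type) (p0 : ℕ) : Language α := {w : List α | w.length = p0}

/-- blocks -/
def Zb (Wo : List α → Prop) (p0 z : ℕ) : Language α := Len α p0 * YY Wo z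

/-- bad first parts -/
def BadU (Wo : List α → Prop) (z N : ℕ) (Bad : ℕ → Prop) (u : List α) : Prop :=
  (∃ s, z ≤ s + N ∧ s < z ∧ Wo (u.take s)) ∨ u.length ≤ z + N ∨ Bad u.length

/-- bad first parts, as a language -/
def BL (Wo : List α → Prop) (z N : ℕ) (Bad : ℕ → Prop) : Language α :=
  {u | u ∈ UU Wo z ∧ BadU Wo z N Bad u}

/-- bad blocks -/
def Zc (Wo : List α → Prop) (p0 z N : ℕ) (Bad : ℕ → Prop) : Language α :=
  Len α p0 * (BL Wo z N Bad * U1 Wo)

theorem mem_Zb {Wo : List α → Prop} {p0 z : ℕ} {X : List α} :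
    X ∈ Zb Wo p0 z ↔ ∃ X0 u y, X0.length = p0 ∧ u ∈ UU Wo z ∧ y ∈ U1 Wo ∧
      X = X0 ++ (u ++ y) := by
  constructor
  · intro h
    obtain ⟨X0, h0, Y, hY, rfl⟩ := Language.mem_mul.1 h
    obtain ⟨u, hu, y, hy, rfl⟩ := Language.mem_mul.1 hY
    exact ⟨X0, u, y, h0, hu, hy, rfl⟩
  · rintro ⟨X0, u, y, h0, hu, hy, rfl⟩
    exact Language.mem_mul.2 ⟨X0, h0, _, Language.mem_mul.2 ⟨u, hu, y, hy, rfl⟩, rfl⟩

theorem mem_Zc {Wo : List α → Prop} {p0 z N : ℕ} {Bad : ℕ → Prop} {X : List α} :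
    X ∈ Zc Wo p0 z N Bad ↔ ∃ X0 u y, X0.length = p0 ∧ u ∈ UU Wo z ∧ BadU Wo z N Bad u ∧
      y ∈ U1 Wo ∧ X = X0 ++ (u ++ y) := by
  constructor
  · intro h
    obtain ⟨X0, h0, Y, hY, rfl⟩ := Language.mem_mul.1 h
    obtain ⟨u, hu, y, hy, rfl⟩ := Language.mem_mul.1 hY
    exact ⟨X0, u, y, h0, hu.1, hu.2, hy, rfl⟩
  · rintro ⟨X0, u, y, h0, hu, hb, hy, rfl⟩
    exact Language.mem_mul.2 ⟨X0, h0, _, Language.mem_mul.2 ⟨u, ⟨hu, hb⟩, y, hy, rfl⟩, rfl⟩

theorem parts_unique {Wo : List α → Prop} {z : ℕ} {u u' y y' x x' : List α}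
    (hu : u ∈ UU Wo z) (hu' : u' ∈ UU Wo z) (hy : y ∈ U1 Wo) (hy' : y' ∈ U1 Wo)
    (e : (u ++ y) ++ x = (u' ++ y') ++ x') : u = u' ∧ y = y' := by
  rw [List.append_assoc, List.append_assoc] at e
  have h1 := UU_code hu hu' e
  subst h1
  exact ⟨rfl, U1_code hy hy' (List.append_cancel_left e)⟩

theorem code_Zb {W n : ℕ} {Wo : List α → Prop} (hW : Wall W n Wo) (p0 z : ℕ) :
    Code (Zb Wo p0 z) := by
  constructor
  · intro h
    obtain ⟨X0, u, y, -, -, hy, e⟩ := mem_Zb.1 h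
    have h1 := hW.len y hy.1
    have h2 := congrArg List.length e
    simp only [List.length_nil, List.length_append] at h2
    have := hW.pos
    omega
  · intro a a' x x' ha ha' e
    obtain ⟨X0, u, y, h0, hu, hy, rfl⟩ := mem_Zb.1 ha
    obtain ⟨X0', u', y', h0', hu', hy', rfl⟩ := mem_Zb.1 ha'
    have e' : X0 ++ ((u ++ y) ++ x) = X0' ++ ((u' ++ y') ++ x') := by simpa using e
    obtain ⟨e1, e2⟩ := List.append_inj e' (by omega)
    obtain ⟨e3, e4⟩ := parts_unique hu hu' hy hy' e2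
    rw [e1, e3, e4]

open Classical in
/-- noise of the text behind the frame -/
noncomputable def dY (φ : α → S) (Wo : List α → Prop) (z : ℕ) (nu : List α → Tok S)
    (Y : List α) : Tok S :=
  if h : ∃ p : List α × List α, p.1 ∈ UU Wo z ∧ p.2 ∈ U1 Wo ∧ Y = p.1 ++ p.2 then
    act (nu h.choose.1) (ph φ h.choose.2) else 0

theorem dY_eq (φ : α → S) {Wo : List α → Prop} {z : ℕ} (nu : List α → Tok S) {u y : List α}
    (hu : u ∈ UU Wo z) (hy : y ∈ U1 Wo) :
    dY φ Wo z nu (u ++ y) = act (nu u) (ph φ y) := by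
  have h : ∃ p : List α × List α, p.1 ∈ UU Wo z ∧ p.2 ∈ U1 Wo ∧ u ++ y = p.1 ++ p.2 :=
    ⟨(u, y), hu, hy, rfl⟩
  have h1 := h.choose_spec
  obtain ⟨e1, e2⟩ := parts_unique (x := []) (x' := []) hu h1.1 hy h1.2.1 (by
    rw [List.append_nil, List.append_nil]; exact h1.2.2)
  unfold dY
  rw [dif_pos h, ← e1, ← e2]

/-- noise of a block, scheme 1 -/
noncomputable def dA (φ : α → S) (Wo : List α → Prop) (p0 z : ℕ) (nu : List α → Tok S)
    (X : List α) : Tok S := dY φ Wo z nu (X.drop p0)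

/-- left words of scheme 1 -/
def LA (φ : α → S) (p0 : ℕ) (lam : List α → Option (Tok S)) (v : Tok S) : Language α :=
  {P | ∃ X0 p, P = X0 ++ p ∧ X0.length = p0 ∧ lam p = some (act v (ph φ X0))}

/-- right words of scheme 1 -/
def RA (φ : α → S) (Wo : List α → Prop) (p0 z : ℕ) (lam : List α → Option (Tok S))
    (nu : List α → Tok S) (τ : Tok S) : Language α :=
  {Q | ∀ v, ∀ P ∈ LA φ p0 lam v, P ++ Q ∈ Zb Wo p0 z ∧
    aff (ph φ) (dA φ Wo p0 z nu) (P ++ Q) v = τ}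

theorem soundA {W n : ℕ} (φ : α → S) {Wo : List α → Prop} (hW : Wall W n Wo) (p0 z : ℕ)
    (hp0 : 0 < p0) (lam : List α → Option (Tok S)) (nu : List α → Tok S) :
    Sound (Zb Wo p0 z) (aff (ph φ) (dA φ Wo p0 z nu)) (LA φ p0 lam) (RA φ Wo p0 z lam nu) := by
  constructor
  · rintro v ⟨X0, p, e, h1, -⟩
    have := congrArg List.length e
    simp only [List.length_nil, List.length_append] at this
    omega
  · intro v τ P Q a x y hP hQ ha e
    obtain ⟨h1, h2⟩ := hQ v P hP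
    have := (code_Zb hW p0 z).2 _ _ _ _ h1 ha e
    exact ⟨this, by rw [← this]; exact h2.symm⟩

/-- completeness of scheme 1 off the bad blocks -/
theorem completeA {W n : ℕ} (φ : α → S) {Wo : List α → Prop} (hW : Wall W n Wo)
    (p0 z N : ℕ) (hz : n + N ≤ z) (Bad : ℕ → Prop)
    (lam rho : List α → Option (Tok S)) (nu : List α → Tok S)
    (g1 : ∀ p v, lam p = some v → p.length ≤ N)
    (g2 : ∀ p q v b, lam p = some v → rho q = some b →
      b = act v ((p ++ q).map φ).prod + nu (p ++ q))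
    (g3 : ∀ u v, N ≤ u.length → ¬ Bad u.length →
      ∃ p q b, p ++ q = u ∧ lam p = some v ∧ rho q = some b)
    (X : List α) (hX : X ∈ Zb Wo p0 z) (hc : X ∉ Zc Wo p0 z N Bad) (v : Tok S) :
    Cut (LA φ p0 lam) (RA φ Wo p0 z lam nu) v X := by
  obtain ⟨X0, u, y, h0, hu, hy, rfl⟩ := mem_Zb.1 hX
  have hb : ¬ BadU Wo z N Bad u := fun hb =>
    hc (mem_Zc.2 ⟨X0, u, y, h0, hu, hb, hy, rfl⟩)
  unfold BadU at hb
  push Not at hb
  obtain ⟨b1, b2, b3⟩ := hb
  obtain ⟨p, q, b, e, hp, hq⟩ := g3 u (act v (ph φ X0)) (by have := hu.1; omega) b3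
  have hpN := g1 p _ hp
  have hul : u.length = p.length + q.length := by rw [← e, List.length_append]
  refine ⟨X0 ++ p, q ++ y, act b (ph φ y), ?_, ⟨X0, p, rfl, h0, hp⟩, ?_⟩
  · rw [← e]; simp
  rintro v' P' ⟨X0', p', rfl, h0', hp'⟩
  have hpN' := g1 p' _ hp'
  have hu' : p' ++ q ∈ UU Wo z := by
    refine ⟨by rw [List.length_append]; omega, ?_, ?_⟩
    · have h1 : Wo (p ++ q) := e ▸ hu.2.1
      exact (hW.loc p' q (by omega)).2 ((hW.loc p q (by omega)).1 h1)
    · intro s hs1 hs2 hs3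
      rw [List.length_append] at hs2
      have e1 : (p' ++ q).take s = p' ++ q.take (s - p'.length) := by
        rw [List.take_append, List.take_of_length_le (by omega)]
      rw [e1] at hs3
      have hl : (q.take (s - p'.length)).length = s - p'.length := by
        rw [List.length_take]; omega
      have h2 := (hW.loc p' (q.take (s - p'.length)) (by omega)).1 hs3
      have h3 := (hW.loc p (q.take (s - p'.length)) (by omega)).2 h2
      have e2 : p ++ q.take (s - p'.length) = u.take (s - p'.length + p.length) := by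
        have e5 : u.take (s - p'.length + p.length) = p ++ q.take (s - p'.length) := by
          rw [← e, List.take_append, List.take_of_length_le (l := p) (by omega)]
          congr 2; omega
        exact e5.symm
      rw [e2] at h3
      by_cases hlt : s - p'.length + p.length < z
      · exact b1 _ (by omega) hlt h3
      · exact hu.2.2 _ (by omega) (by omega) h3
  have e3 : (X0' ++ p') ++ (q ++ y) = X0' ++ ((p' ++ q) ++ y) := by simp
  rw [e3]
  refine ⟨mem_Zb.2 ⟨X0', p' ++ q, y, h0', hu', hy, rfl⟩, ?_⟩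
  have e4 : dA φ Wo p0 z nu (X0' ++ ((p' ++ q) ++ y)) = act (nu (p' ++ q)) (ph φ y) := by
    unfold dA
    rw [← h0', List.drop_left, dY_eq φ nu hu' hy]
  unfold aff
  rw [e4, g2 p' q _ b hp' hq, act_add, act_mul, act_mul, ph_append, ph_append]
  rfl

section heights

variable [Finite α] [Finite S]

theorem HL_YY {W n : ℕ} {Wo : List α → Prop} (hW : Wall W n Wo) (z : ℕ) {k : ℕ} :
    HL k (YY Wo z) := (HL_UU hW z).mul (HL_U1 hW)

theorem HL_Zb {W n : ℕ} {Wo : List α → Prop} (hW : Wall W n Wo) (p0 z : ℕ) {k : ℕ} :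
    HL k (Zb Wo p0 z) := (HL.length_eq p0).mul (HL_YY hW z)

theorem HL_BadU {W n : ℕ} {Wo : List α → Prop} (hW : Wall W n Wo) (z N M0 : ℕ) [NeZero M0]
    (Bad : ℕ → Prop)
    (per : ∀ T T' : ℕ, (T : ZMod M0) = (T' : ZMod M0) → Bad T → Bad T') :
    HL 1 ({u | u ∈ UU Wo z ∧ BadU Wo z N Bad u} : Language α) := by
  refine HL_UU_pred (S := Unit) (fun _ => ()) hW z (z + N + 1) M0 _ ?_
  intro u u' hu hu' e1 e2 _ hb
  rcases hb with ⟨s, hs1, hs2, hs3⟩ | hb | hb
  · refine Or.inl ⟨s, hs1, hs2, ?_⟩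
    have h1 := congrArg (List.take s) e1
    rw [List.take_take, List.take_take, min_eq_left (by omega)] at h1
    rw [← h1]; exact hs3
  · refine Or.inr (Or.inl ?_)
    have h1 := congrArg List.length e1
    rw [List.length_take, List.length_take] at h1
    omega
  · exact Or.inr (Or.inr (per _ _ e2 hb))

theorem HL_Zc {W n : ℕ} {Wo : List α → Prop} (hW : Wall W n Wo) (p0 z N M0 : ℕ) [NeZero M0]
    (Bad : ℕ → Prop)
    (per : ∀ T T' : ℕ, (T : ZMod M0) = (T' : ZMod M0) → Bad T → Bad T') :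
    HL 1 (Zc Wo p0 z N Bad : Language α) :=
  (HL.length_eq p0).mul ((HL_BadU hW z N M0 Bad per).mul (HL_U1 hW))

theorem HL_YL {W n : ℕ} (φ : α → S) {Wo : List α → Prop} (hW : Wall W n Wo) (z N M0 : ℕ)
    [NeZero M0] (hz : N ≤ z) (nu : List α → Tok S)
    (g4 : ∀ u u', N ≤ u.length → N ≤ u'.length → u.take N = u'.take N →
      (u.length : ZMod M0) = (u'.length : ZMod M0) → (u.map φ).prod = (u'.map φ).prod →
      nu u = nu u') (s : S) (d : Tok S) :
    HL 1 ({Y | Y ∈ YY Wo z ∧ ph φ Y = s ∧ dY φ Wo z nu Y = d} : Language α) := by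
  have hU : ∀ (s1 : S) (ν : Tok S),
      HL 1 ({u | u ∈ UU Wo z ∧ (ph φ u = s1 ∧ nu u = ν)} : Language α) := by
    intro s1 ν
    refine HL_UU_pred φ hW z N M0 _ ?_
    rintro u u' hu hu' e1 e2 e3 ⟨h1, h2⟩
    exact ⟨by rw [← h1]; exact e3.symm,
      by rw [← h2]; exact (g4 u u' (hz.trans hu.1) (hz.trans hu'.1) e1 e2 e3).symm⟩
  refine (HL.iUnion fun i : {i : S × Tok S × S // i.1 * i.2.2 = s ∧ act i.2.1 i.2.2 = d} =>
    (hU i.1.1 i.1.2.1).mul (HL_U1_val φ hW i.1.2.2)).congr fun Y => ?_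
  constructor
  · rintro ⟨hY, h1, h2⟩
    obtain ⟨u, hu, y, hy, rfl⟩ := Language.mem_mul.1 hY
    refine ⟨⟨(ph φ u, nu u, ph φ y), ?_, ?_⟩, Language.mem_mul.2
      ⟨u, ⟨hu, rfl, rfl⟩, y, ⟨hy, rfl⟩, rfl⟩⟩
    · rw [← h1, ph_append]
    · rw [← h2, dY_eq φ nu hu hy]
  · rintro ⟨⟨⟨s1, ν, s2⟩, h1, h2⟩, h3⟩
    obtain ⟨u, ⟨hu, hu1, hu2⟩, y, ⟨hy, hy1⟩, rfl⟩ := Language.mem_mul.1 h3
    refine ⟨Language.mem_mul.2 ⟨u, hu, y, hy, rfl⟩, ?_, ?_⟩
    · rw [ph_append, hu1, show ph φ y = s2 from hy1]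
      exact h1
    · rw [dY_eq φ nu hu hy, hu2, show ph φ y = s2 from hy1]
      exact h2

/-- predicates of the frame word and of a finite invariant of the rest -/
theorem HL_frame {k : ℕ} {I : Type} [Finite I] (p0 : ℕ) (YL : I → Language α)
    (hY : ∀ i, HL k (YL i)) (P : List α → I → Prop) :
    HL k ({X | ∃ X0 Y i, X = X0 ++ Y ∧ X0.length = p0 ∧ Y ∈ YL i ∧ P X0 i} : Language α) := by
  have key : HL k ({X | ∃ j ∈ {j : List α × I | j.1.length = p0 ∧ P j.1 j.2},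
      X ∈ (({j.1} : Language α) * YL j.2)} : Language α) := by
    refine HL.biUnion ?_ fun j _ => (HL.word j.1).mul (hY j.2)
    have hf : (({p : List α | p.length = p0} : Set (List α)) ×ˢ (Set.univ : Set I)).Finite :=
      (List.finite_length_eq α p0).prod Set.finite_univ
    exact hf.subset fun p hp => ⟨hp.1, trivial⟩
  refine key.congr fun X => ?_
  constructor
  · rintro ⟨X0, Y, i, rfl, h1, h2, h3⟩
    exact ⟨(X0, i), ⟨h1, h3⟩, Language.mem_mul.2 ⟨X0, rfl, Y, h2, rfl⟩⟩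
  · rintro ⟨⟨X0, i⟩, ⟨h1, h2⟩, h3⟩
    obtain ⟨a, ha, b, hb, rfl⟩ := Language.mem_mul.1 h3
    have ha' : a = X0 := ha
    exact ⟨a, b, i, rfl, by rw [ha']; exact h1, hb, by rw [ha']; exact h2⟩

theorem HL_LA (φ : α → S) (p0 N : ℕ) (lam : List α → Option (Tok S))
    (g1 : ∀ p v, lam p = some v → p.length ≤ N) (v : Tok S) {k : ℕ} :
    HL k (LA φ p0 lam v) ∧ Set.Finite (LA φ p0 lam v : Set (List α)) := by
  have hf : Set.Finite (LA φ p0 lam v : Set (List α)) := by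
    refine (List.finite_length_le α (p0 + N)).subset ?_
    rintro P ⟨X0, p, rfl, h1, h2⟩
    show (X0 ++ p).length ≤ p0 + N
    have := g1 p _ h2
    rw [List.length_append]; omega
  exact ⟨HL.finite hf, hf⟩

theorem HL_RA {W n : ℕ} (φ : α → S) {Wo : List α → Prop} (hW : Wall W n Wo) (p0 z N M0 : ℕ)
    [NeZero M0] (hz : N ≤ z) (lam : List α → Option (Tok S)) (nu : List α → Tok S)
    (g1 : ∀ p v, lam p = some v → p.length ≤ N)
    (g4 : ∀ u u', N ≤ u.length → N ≤ u'.length → u.take N = u'.take N →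
      (u.length : ZMod M0) = (u'.length : ZMod M0) → (u.map φ).prod = (u'.map φ).prod →
      nu u = nu u') (τ : Tok S) :
    HL 1 (RA φ Wo p0 z lam nu τ) := by
  have hval : ∀ v : Tok S, HL 1 ({X | X ∈ Zb Wo p0 z ∧
      aff (ph φ) (dA φ Wo p0 z nu) X v = τ} : Language α) := by
    intro v
    refine (HL_frame (I := S × Tok S) p0
      (fun i => ({Y | Y ∈ YY Wo z ∧ ph φ Y = i.1 ∧ dY φ Wo z nu Y = i.2} : Language α))
      (fun i => HL_YL φ hW z N M0 hz nu g4 i.1 i.2)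
      (fun X0 i => act v (ph φ X0 * i.1) + i.2 = τ)).congr fun X => ?_
    constructor
    · rintro ⟨h1, h2⟩
      obtain ⟨X0, h0, Y, hY, rfl⟩ := Language.mem_mul.1 h1
      have h0' : X0.length = p0 := h0
      refine ⟨X0, Y, (ph φ Y, dY φ Wo z nu Y), rfl, h0, ⟨hY, rfl, rfl⟩, ?_⟩
      have : dA φ Wo p0 z nu (X0 ++ Y) = dY φ Wo z nu Y := by
        unfold dA; rw [← h0', List.drop_left]
      rw [← h2]; unfold aff
      rw [this, ph_append]
    · rintro ⟨X0, Y, i, rfl, h0, ⟨hY, h1, h2⟩, h3⟩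
      refine ⟨Language.mem_mul.2 ⟨X0, h0, Y, hY, rfl⟩, ?_⟩
      have : dA φ Wo p0 z nu (X0 ++ Y) = dY φ Wo z nu Y := by
        unfold dA; rw [← h0, List.drop_left]
      unfold aff
      rw [this, ph_append, h1, h2]; exact h3
  refine (HL.iInter fun v => HL.biInter (HL_LA (k := 1) φ p0 N lam g1 v).2
    fun P _ => (hval v).lquot P).congr fun Q => ?_
  exact Iff.rfl

end heights

end Crest.Agent.R320.GaB_986
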