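import Crest.Agent.R320.G1_852
import Crest.Agent.R320.DigRuler_258

/-! Row 320: helper963's hypothesis `Gad1` from the digit gadget (852) and its ruler (258). -/

set_option autoImplicit false

namespace Crest.Agent.R320.Gad1_258

open Crest.Agent.R320.DigRuler_258

theorem badT_periodic {Ms : Finset ℕ} {M b m : ℕ} (hb : 0 < b) (hMs : ∀ k ∈ Ms, k ∣ M) (T : ℕ) :
    BadT Ms M b m (T + M * b ^ m) ↔ BadT Ms M b m T := by
  unfold BadT
  have h1 : (∃ k ∈ Ms, k ∣ T + M * b ^ m) ↔ (∃ k ∈ Ms, k ∣ T) := by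
    constructor
    · rintro ⟨k, hk, hd⟩
      exact ⟨k, hk, (Nat.dvd_add_left (Dvd.dvd.mul_right (hMs k hk) _)).1 hd⟩
    · rintro ⟨k, hk, hd⟩
      exact ⟨k, hk, (Nat.dvd_add_left (Dvd.dvd.mul_right (hMs k hk) _)).2 hd⟩
  have h2 : ∀ j < m, (T + M * b ^ m) / b ^ j % b = T / b ^ j % b := by
    intro j hj
    have e : M * b ^ m = b ^ j * (b * (M * b ^ (m - j - 1))) := by
      have : b ^ m = b ^ j * (b * b ^ (m - j - 1)) := by
        rw [← pow_succ', ← pow_add]; congr 1; omega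
      rw [this]; ring
    rw [e, Nat.add_mul_div_left _ _ (Nat.pow_pos hb), Nat.add_mul_mod_self_left]
  constructor
  · rintro (h | ⟨j, hj, h⟩)
    · exact Or.inl (h1.1 h)
    · rw [h2 j hj] at h; exact Or.inr ⟨j, hj, h⟩
  · rintro (h | ⟨j, hj, h⟩)
    · exact Or.inl (h1.2 h)
    · refine Or.inr ⟨j, hj, ?_⟩; rw [h2 j hj]; exact h

/-- helper963's `Gad1`, unfolded -/
theorem gad1 (S V : Type) [Monoid S] [Finite S] [AddCommGroup V] [Finite V] (act : V → S → V) :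
    ∃ C0 : ℕ, ∀ K : ℕ, ∃ (N1 La Per : ℕ) (c : ℕ → ℕ) (Bad : ℕ → Prop), 0 < Per ∧ 0 < N1 ∧
      (∀ i j, i < j → j < K → c i < c j) ∧
      (∀ k k' l l', k < K → k' < K → l < K → l' < K → k' ≠ k → l' ≠ l →
        c k + c l' < c l + c k' + 2 * N1 → c l + c k' < c k + c l' + 2 * N1 → k = l) ∧
      (∀ T, (∀ k < K, c k ≤ T) → La ≤ T → ∀ F : Finset (ℕ × ℕ),
        (∀ p ∈ F, p.1 < K ∧ p.2 < K ∧ p.1 ≠ p.2 ∧ Bad (T + c p.2 - c p.1)) → F.card ≤ C0) ∧
      (∀ T, La ≤ T → (Bad (T + Per) ↔ Bad T)) ∧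
      ∀ (α : Type) (f : α → S), ∃ (lam rho : List α → Option V) (nu : List α → V),
        (∀ P Q v b, lam P = some v → rho Q = some b → b = act v ((P ++ Q).map f).prod + nu (P ++ Q)) ∧
        (∀ P v, lam P = some v → P.length ≤ N1) ∧
        (∀ Y, La ≤ Y.length → ¬ Bad Y.length → ∀ v, ∃ P Q, Y = P ++ Q ∧ lam P = some v ∧ (rho Q).isSome) ∧
        (∀ u u', La ≤ u.length → La ≤ u'.length → u.take La = u'.take La →
          ((u.drop La).map f).prod = ((u'.drop La).map f).prod →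
          u.length % Per = u'.length % Per → nu u = nu u') := by
  classical
  obtain ⟨m, r, H⟩ := G1_852.gadget act
  refine ⟨r + m, fun K => ?_⟩
  obtain ⟨Ms, M, hcard, hMs, hM, H2⟩ := H (2 ^ (K + 1))
  set b := 2 ^ (K + 5) * M + 1 with hb
  have hb0 : 0 < b := by omega
  have hcop : Nat.Coprime b M := by
    rw [hb]
    have : Nat.Coprime (1 + 2 ^ (K + 5) * M) M := by
      simp [Nat.coprime_add_mul_right_left]
    rwa [add_comm] at this
  have hkb : ∀ k ∈ Ms, 2 ^ (K + 1) < k ∧ Nat.Coprime k b := fun k hk =>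
    ⟨(hMs k hk).1, (Nat.Coprime.coprime_dvd_right (hMs k hk).2.2 hcop).symm⟩
  obtain ⟨c, hc1, hc2, hc3⟩ := dig_ruler K m M b (b ^ m) Ms hM hkb (by omega)
  refine ⟨b ^ m, b ^ m, M * b ^ m, c, BadT Ms M b m, Nat.mul_pos hM (Nat.pow_pos hb0),
    Nat.pow_pos hb0, fun i j hij _ => hc1 hij, ?_, ?_, ?_, ?_⟩
  · intro k k' l l' hk hk' hl hl' hkk hll h1 h2
    refine (hc2 k k' l l' hk hk' hl hl' (Ne.symm hkk) ?_).1
    clear hc2 hc3
    generalize b ^ m = N at h1 h2 ⊢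
    rw [abs_le]
    constructor <;> omega
  · intro T hT hLa F hF
    refine le_trans ?_ (le_trans (hc3 T) (Nat.add_le_add_right hcard m))
    apply Finset.card_le_card
    intro p hp
    obtain ⟨h1, h2, h3, h4⟩ := hF p hp
    rw [Finset.mem_filter]
    refine ⟨Finset.mem_product.mpr ⟨Finset.mem_range.mpr h1, Finset.mem_range.mpr h2⟩, h3,
      T + c p.2 - c p.1, ?_, h4⟩
    have := hT p.1 h1
    omega
  · intro T _
    exact badT_periodic hb0 (fun k hk => (hMs k hk).2.2) T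
  · intro α f
    obtain ⟨lam, rho, nu, g1, g2, g3, g4⟩ := H2 b hb0 hcop α f
    refine ⟨lam, rho, nu, fun P Q v b h1 h2 => g2 P Q v b h1 h2, fun P v h => (g1 P v h).le, ?_, ?_⟩
    · intro Y _ hbad v
      obtain ⟨P, Q, h1, h2, v', h3⟩ := g3 Y (fun k hk hd => hbad (Or.inl ⟨k, hk, hd⟩))
        (fun j hj => by
          by_contra hcon
          apply hbad
          refine Or.inr ⟨j, hj, ?_⟩
          by_contra hcon2
          push Not at hcon2
          exact hcon ⟨hcon2.1, hcon2.2⟩) v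
      exact ⟨P, Q, h1, h2, by rw [h3]; rfl⟩
    · intro u u' _ _ h1 h2 h3
      exact (g4 u u' h1 h2 h3).2

end Crest.Agent.R320.Gad1_258
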