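import Crest.Agent.R320.G1_76
import Crest.Agent.R320.Sp_21
import Crest.Agent.R320.Fin_963

/-!
# Row 320: `Fin_963.Gad1` from `g1` (helper76) and `spoil` (helper21)  (helper343)
-/

set_option autoImplicit false

namespace Crest.Agent.R320.Gad1_343

theorem dvd_add_per {k M n : ℕ} (h : k ∣ M) (t : ℕ) : k ∣ n + M * t ↔ k ∣ n :=
  (Nat.dvd_add_left (Dvd.dvd.mul_right h t))

theorem digit_add_per {b m j n M : ℕ} (hb : 0 < b) (hj : j < m) :
    (n + M * b ^ m) / b ^ j % b = n / b ^ j % b := by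
  obtain ⟨t, rfl⟩ : ∃ t, m = j + 1 + t := ⟨m - (j + 1), by omega⟩
  have e : M * b ^ (j + 1 + t) = b ^ j * (b * (M * b ^ t)) := by
    rw [pow_add, pow_succ]; ring
  rw [e, Nat.add_mul_div_left _ _ (pow_pos hb j), Nat.add_mul_mod_self_left]

theorem gad1 (S V : Type) [Monoid S] [Finite S] [AddCommGroup V] [Finite V]
    (act : V → S → V) : Fin_963.Gad1 S V act := by
  classical
  obtain ⟨m, r, h1⟩ := G1_76.g1 S V act
  refine ⟨r + m, fun K => ?_⟩
  obtain ⟨Ms, M, hcard, hMs, hM, h2⟩ := h1 (2 ^ (K + 1))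
  set b : ℕ := M * (2 ^ (K + 4) + 8) + 1 with hbdef
  have hp : 1 ≤ 2 ^ (K + 4) := Nat.one_le_two_pow
  have hcop : Nat.Coprime b M := by
    rw [hbdef, Nat.coprime_comm, Nat.coprime_mul_left_add_right]
    exact Nat.coprime_one_right M
  have hb1 : 4 * M + 4 < b := by rw [hbdef]; nlinarith
  have hb2 : (2 ^ (K + 4) + 2) * M < b := by rw [hbdef]; nlinarith
  have hb0 : 0 < b := by omega
  have hbm : 0 < b ^ m := pow_pos hb0 m
  obtain ⟨c, hc1, hc2, hc3⟩ := Sp_21.spoil K (b ^ m) m M b Ms hM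
    (fun k hk => ⟨(hMs k hk).2.2, (hMs k hk).1.le⟩) hcop hb2
  refine ⟨b ^ m, b ^ m, M * b ^ m, c, fun n => (∃ k ∈ Ms, k ∣ n) ∨ ∃ j < m,
    ¬ (M ≤ n / b ^ j % b ∧ n / b ^ j % b + M + 1 ≤ b), Nat.mul_pos hM hbm, hbm, ?_, ?_, ?_, ?_, ?_⟩
  · intro i j hij _
    have := hc1 i j hij
    omega
  · intro k k' l l' hk hk' hl hl' hkk hll h3 h4
    by_contra hne
    rcases hc2 k' k l' l hkk hll (fun e => hne (Prod.ext_iff.1 e).2) with h | h <;> omega
  · intro T hT _ F hF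
    refine (hc3 T hT F fun p hp => ?_).trans (Nat.add_le_add_right hcard m)
    exact hF p hp
  · intro T _
    refine or_congr ?_ ?_
    · refine exists_congr fun k => and_congr_right fun hk => ?_
      rw [mul_comm M (b ^ m)] 
      rw [mul_comm (b ^ m) M]
      exact dvd_add_per (hMs k hk).2.2 (b ^ m)
    · refine exists_congr fun j => and_congr_right fun hj => ?_
      rw [digit_add_per hb0 hj]
  · intro α f
    obtain ⟨lam, rho, nu, g1, g2, g3, g4⟩ := h2 b hb1 hcop α f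
    refine ⟨lam, rho, nu, g2, fun P v h => (g1 P v h).le, ?_, ?_⟩
    · intro Y _ hY v
      push Not at hY
      obtain ⟨P, Q, h5, h6, h7⟩ := g3 Y hY.1 (fun j hj => hY.2 j hj) v
      exact ⟨P, Q, h5.symm, h6, h7⟩
    · intro u u' h5 h6 h7 h8 h9
      exact (g4 u u' h5 h6 h7 h9 h8).2

end Crest.Agent.R320.Gad1_343
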