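import Crest.Agent.R320.UGI_390
import Crest.Agent.R320.Fin_963

/-!
Row 320: `Fin_963.Gad1` closed, from `UGI_390.ugi`.
-/

set_option autoImplicit false

namespace Crest.Agent.R320.Gad1_390

open Crest.RegLang Crest.Agent.R320.Hk_851

theorem gad1 (S V : Type) [Monoid S] [Finite S] [AddCommGroup V] [Finite V] (act : V → S → V) :
    Fin_963.Gad1 S V act := by
  obtain ⟨C0, H⟩ := UGI_390.ugi S V act
  refine ⟨C0, fun K => ?_⟩
  obtain ⟨N1, Pm, La, c, Bad, h0, h1, h2, h3, h4, h5, h6, h7, -, h8⟩ := H K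
  refine ⟨N1, La, Pm, c, Bad, h2, h0, fun i j hij _ => h3 i j hij, ?_, ?_, fun T _ => h6 T, ?_⟩
  · intro k k' l l' hk hk' hl hl' hkk hll g1 g2
    by_contra hne
    rcases h5 k k' l l' hk hk' hl hl' (Ne.symm hkk) (Ne.symm hll) (fun h => hne h.1) with h | h <;>
      omega
  · intro T _ hT F hF
    exact h7 T hT F hF
  · intro α f
    obtain ⟨lam, rho, nu, a1, a2, a3, a4, a5, a6⟩ := h8 α (fun w => (w.map f).prod)
      (fun u v => by simp)
    refine ⟨lam, rho, nu, ?_, a1, ?_, ?_⟩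
    · intro P Q v b hP hQ
      exact a4 P Q v b hP hQ
    · intro Y hY hb v
      obtain ⟨p, q, h, hl, hr⟩ := a5 Y hY hb v
      exact ⟨p, q, h.symm, hl, hr⟩
    · intro u u' hu hu' ht hd hm
      exact (a6 u u' hu hu' ht hm hd).2

theorem fin0 (α : Type) [Finite α] (S : Type) [Monoid S] [Finite S] (f : α → S) (s : S) :
    HL 3 ({w | (w.map f).prod = s} : Language α) :=
  Fin_963.main f (gad1 S _ _) s

end Crest.Agent.R320.Gad1_390
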