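import Mathlib
import Crest.Agent.R320.RandF_808
import Crest.Agent.R320.Names_101

/-!
Row 320, the abstract gadget of the OUTER scheme with fixed levels (names of 942 / 755, noise of 237):
sound for every total `o + o'`, complete for every total which no modulus divides.
A zone is a list `u` of elements of `S` (products of the holes), a cut lies in hole `i`, the left
side knows `u.take i` and its clock `o`, the right side knows its clock `o'` and, for every level `i`
it may be in, a list `Q i` of later products.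
-/

namespace Crest.Agent.R320.Gad1_460

open Crest.Agent.R320.Names_101

section ws

variable {S W : Type*} [AddCommGroup W]

/-- weight of a list with first index `k` -/
def ws (e : ℕ → S → W) : ℕ → List S → W
  | _, [] => 0
  | k, z :: l => e k z + ws e (k + 1) l

theorem ws_append (e : ℕ → S → W) (l l' : List S) (k : ℕ) :
    ws e k (l ++ l') = ws e k l + ws e (k + l.length) l' := by
  induction l generalizing k with
  | nil => simp [ws]
  | cons a l ih =>
    rw [List.cons_append, ws, ws, ih, List.length_cons,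
      show k + (l.length + 1) = k + 1 + l.length by omega]
    exact (add_assoc _ _ _).symm

end ws

theorem LN_unique {K t : ℕ} (D : Data K t) {o : ℤ} {c c' : Fin K} (h : LN D o c)
    (h' : LN D o c') : c = c' := by
  by_contra hne
  have h1 := h.1 c
  have h2 := h'.1 c
  rw [if_pos rfl] at h1
  rw [if_neg hne] at h2
  exact h2.1 h1.1

/-- **Gadget of the outer scheme, fixed levels.** -/
theorem gadget1 {S V : Type*} [Monoid S] [Finite S] [AddCommGroup V] [Finite V]
    (act : V → S → V) :
    ∃ (m : ℕ) (ι : Type) (_ : Fintype ι), ∀ Q0 : ℕ,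
      ∃ (M : ℕ) (q : ι → ℕ) (lam : List S → ℕ → Option V)
        (rho : (ℕ → Option (List S)) → ℕ → Option V) (nu : List S → ℕ → V),
        0 < M ∧ (∀ l, Q0 ≤ q l) ∧ (∀ l, (q l).Prime) ∧
        (∀ l l', l ≠ l' → Nat.Coprime (q l) (q l')) ∧
        (∀ (X : List S) (z : S) (Y : List S) (Q : ℕ → Option (List S)) (o o' : ℕ) (v r : V),
          (∀ Y', Q X.length = some Y' → Y' = Y) → lam X o = some v → rho Q o' = some r →
          r = act v (X ++ z :: Y).prod + nu (X ++ z :: Y) (o + o')) ∧
        (∀ (u : List S), m ≤ u.length → ∀ (v : V) (n : ℕ), (∀ l, ¬ q l ∣ n) →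
          ∃ i < m, ∀ p, p + M ≤ n → ∃ o, p ≤ o ∧ o < p + M ∧ lam (u.take i) o = some v ∧
            ∀ Q : ℕ → Option (List S), Q i = some (u.drop (i + 1)) →
              (rho Q (n - o)).isSome = true) := by
  classical
  have := Fintype.ofFinite S
  have := Fintype.ofFinite V
  obtain ⟨m, N, e, F, hN, hF⟩ := Crest.Agent.R320.RandF808.exists_noise S V act
  have : NeZero N := ⟨by omega⟩
  let W := ZMod N × ZMod N
  let C := Fin m × (S × W) × (S × W) × V
  let val : C → S → V := fun c z =>
    F (c.2.1.1 * z * c.2.2.1.1) (c.2.1.2 + e c.1 z + c.2.2.1.2) +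
      act c.2.2.2 (c.2.1.1 * z * c.2.2.1.1)
  let good : C → Prop := fun c => ∀ z, val c z = val c 1
  let lab : C → V := fun c => val c 1
  let t : ℕ := Fintype.card (V × V)
  let EV : V × V ≃ Fin t := Fintype.equivFin (V × V)
  let code : V × V → Fin t → Bool := fun p j => decide (EV p = j)
  have hcode : Function.Injective code := by
    intro p p' h
    have h1 := congrFun h (EV p)
    simp only [code, decide_true] at h1
    have h2 : EV p' = EV p := by simpa using h1.symm
    exact (EV.injective h2).symm
  let dec : (Fin t → Bool) → V × V := Function.invFun code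
  have hdec : ∀ p, dec (code p) = p := Function.leftInverse_invFun hcode
  let Nm := C × (Fin t → Bool)
  let K : ℕ := Fintype.card Nm
  let EN : Nm ≃ Fin K := Fintype.equivFin Nm
  let ctx : Fin K → C := fun k => (EN.symm k).1
  refine ⟨m, Fin K ⊕ Fin K ⊕ Fin t, inferInstance, ?_⟩
  intro Q0
  obtain ⟨D, hDtau, hDeps, hDR, hDpos, hDodd, hDpr, hDco⟩ := exists_data K t Q0
    (fun k => code ((ctx k).2.2.2, lab (ctx k))) (fun k => (EN.symm k).2)
  let lok : Fin K → List S → Prop := fun k X =>
    X.length = ((ctx k).1 : ℕ) ∧ X.prod = (ctx k).2.1.1 ∧ ws e 0 X = (ctx k).2.1.2 ∧ good (ctx k)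
  let rok : Fin K → (ℕ → Option (List S)) → Prop := fun k Q =>
    ∃ Y, Q ((ctx k).1 : ℕ) = some Y ∧ Y.prod = (ctx k).2.2.1.1 ∧
      ws e ((ctx k).1 + 1) Y = (ctx k).2.2.1.2 ∧ good (ctx k)
  let lam : List S → ℕ → Option V := fun X o =>
    if h : ∃ k : Fin K, LN D (o : ℤ) k ∧ lok k X then some (ctx h.choose).2.2.2 else none
  let rho : (ℕ → Option (List S)) → ℕ → Option V := fun Q o' =>
    if h : ∃ k : Fin K, RN D (o' : ℤ) k ∧ rok k Q then some (lab (ctx h.choose)) else none
  let jn : ℕ → Fin K × Fin K → Prop := fun n p =>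
    ∃ o o' : ℤ, p.1 ≠ p.2 ∧ LN D o p.1 ∧ RN D o' p.2 ∧ o + o' = n
  let nu : List S → ℕ → V := fun u n =>
    if BadT D (n : ℤ) then
      (if h : ∃ p, jn n p then lab (ctx h.choose.2) - act (ctx h.choose.1).2.2.2 u.prod else 0)
    else F u.prod (ws e 0 u)
  refine ⟨∏ i, D.mods i, D.mods, lam, rho, nu, Finset.prod_pos fun i _ => hDpos i, hDR, hDpr,
    hDco, ?_, ?_⟩
  · -- soundness
    intro X z Y Q o o' v r hQ hl hr
    have hl1 : ∃ k : Fin K, LN D (o : ℤ) k ∧ lok k X := by
      by_contra hcon
      simp only [lam, dif_neg hcon] at hl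
      cases hl
    have hr1 : ∃ k : Fin K, RN D (o' : ℤ) k ∧ rok k Q := by
      by_contra hcon
      simp only [rho, dif_neg hcon] at hr
      cases hr
    simp only [lam, dif_pos hl1, Option.some.injEq] at hl
    simp only [rho, dif_pos hr1, Option.some.injEq] at hr
    obtain ⟨hk1, hk2⟩ := hl1.choose_spec
    obtain ⟨hk1', hk2'⟩ := hr1.choose_spec
    set k := hl1.choose with hkdef
    set k' := hr1.choose with hkdef'
    have hcast : ((o + o' : ℕ) : ℤ) = (o : ℤ) + (o' : ℤ) := by push_cast; rfl
    by_cases hB : BadT D ((o + o' : ℕ) : ℤ)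
    · -- bad total
      have hne : k ≠ k' := by
        intro hkk
        rw [← hkk] at hk1'
        obtain ⟨l, hlb⟩ := hB
        rw [hcast] at hlb
        rcases hlb with h | h
        · exact (same_not_bad D hk1 hk1' l).1 h
        · exact (same_not_bad D hk1 hk1' l).2 h
      have hex : ∃ p, jn (o + o') p := ⟨(k, k'), o, o', hne, hk1, hk1', hcast.symm⟩
      obtain ⟨o1, o1', hne1, hp1, hp2, hp3⟩ := hex.choose_spec
      have hwd := noise_well_defined D (fun j => hDpos (Sum.inr (Sum.inr j)))
        (fun s s' => ((dec s).1, (dec s').2)) hne hk1 hk1' hp1 hp2 (by rw [hp3, hcast])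
      simp only [hDtau, hdec, Prod.mk.injEq] at hwd
      have hnu : nu (X ++ z :: Y) (o + o') = lab (ctx hex.choose.2) -
          act (ctx hex.choose.1).2.2.2 (X ++ z :: Y).prod := by
        simp only [nu, if_pos hB, dif_pos hex]
      rw [hnu, ← hr, ← hl, hwd.1, hwd.2]
      abel
    · -- good total
      have hkk : k = k' := agree D hk1 hk1' (by rw [← hcast]; exact hB)
      obtain ⟨hx1, hx2, hx3, hx4⟩ := hk2
      obtain ⟨Y', hy1, hy2, hy3, -⟩ := hk2'
      rw [← hkk] at hy1 hy2 hy3
      rw [← hx1] at hy1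
      have hYY := hQ Y' hy1
      subst hYY
      have hnu : nu (X ++ z :: Y') (o + o') = F (X ++ z :: Y').prod (ws e 0 (X ++ z :: Y')) := by
        simp only [nu, if_neg hB]
      have hprod : (X ++ z :: Y').prod = (ctx k).2.1.1 * z * (ctx k).2.2.1.1 := by
        rw [List.prod_append, List.prod_cons, hx2, hy2, mul_assoc]
      have hws : ws e 0 (X ++ z :: Y') = (ctx k).2.1.2 + e (ctx k).1 z + (ctx k).2.2.1.2 := by
        rw [ws_append, ws, zero_add, hx1, hx3, hy3, add_assoc]
      have hg := hx4 z
      rw [hnu, hprod, hws, ← hr, ← hl, ← hkk]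
      change lab (ctx k) = _
      have : lab (ctx k) = val (ctx k) z := hg.symm
      rw [this]
      simp only [val]
      abel
  · -- completeness
    intro u hu v n hn
    obtain ⟨i, hi, hgood⟩ := hF u.prod (ws e 0 u) v
    refine ⟨i, hi, ?_⟩
    intro p hp
    have hiu : i < u.length := by omega
    have hsplit : u = u.take i ++ u[i] :: u.drop (i + 1) := by
      rw [List.getElem_cons_drop, List.take_append_drop]
    have hlen : (u.take i).length = i := by rw [List.length_take]; omega
    let c : C := (⟨i, hi⟩, ((u.take i).prod, ws e 0 (u.take i)),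
      ((u.drop (i + 1)).prod, ws e (i + 1) (u.drop (i + 1))), v)
    have hprod : (u.take i).prod * u[i] * (u.drop (i + 1)).prod = u.prod := by
      conv_rhs => rw [hsplit]
      rw [List.prod_append, List.prod_cons, mul_assoc]
    have hws : ws e 0 u = ws e 0 (u.take i) + e i u[i] + ws e (i + 1) (u.drop (i + 1)) := by
      conv_lhs => rw [hsplit]
      rw [ws_append, ws, zero_add, hlen, add_assoc]
    have hval : ∀ z, val c z = F u.prod (ws e 0 u) + act v u.prod := by
      intro z
      have h1 := hgood _ _ _ hprod z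
      rw [← h1]
      simp only [val, c]
      congr 2
      rw [hws]
      abel
    have hgc : good c := fun z => by rw [hval z, hval 1]
    have hnZ : ∀ l, ¬ ((D.mods l : ℤ) ∣ (n : ℤ)) := fun l h => hn l (by exact_mod_cast h)
    have hT : ¬ BadT D (n : ℤ) := by
      rintro ⟨l, h | h⟩
      · exact hnZ (Sum.inl l) h
      · exact hnZ (Sum.inr (Sum.inl l)) h
    obtain ⟨s, hs⟩ := exists_sign D (fun j => hDodd (Sum.inr (Sum.inr j)))
      (fun j => hnZ (Sum.inr (Sum.inr j)))
    let k : Fin K := EN (c, s)
    have hctx : ctx k = c := by simp [ctx, k]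
    have heps : D.eps k = s := by
      rw [hDeps]
      simp [k]
    obtain ⟨o, o', ho1, ho2, ho3, ho4, ho5⟩ := exists_place_nat D hDpos hDco hT k
      (fun j => by rw [heps]; exact hs j) p hp
    refine ⟨o, ho1, ho2, ?_, ?_⟩
    · have hex : ∃ k : Fin K, LN D (o : ℤ) k ∧ lok k (u.take i) := by
        refine ⟨k, ho4, ?_⟩
        simp only [lok, hctx]
        exact ⟨hlen, rfl, rfl, hgc⟩
      have hch := LN_unique D hex.choose_spec.1 ho4
      simp only [lam, dif_pos hex, hch, hctx]
      rfl
    · intro Q hQ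
      have hex : ∃ k : Fin K, RN D ((n - o : ℕ) : ℤ) k ∧ rok k Q := by
        refine ⟨k, ?_, ?_⟩
        · rw [show n - o = o' by omega]
          exact ho5
        · simp only [rok, hctx]
          exact ⟨_, hQ, rfl, rfl, hgc⟩
      simp only [rho, dif_pos hex, Option.isSome_some]

end Crest.Agent.R320.Gad1_460
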