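import Crest.Agent.R320.Names_570
import Crest.Agent.R320.RandF_808

/-!
# Row 320: the scheme-1 gadget in abstract form (names + noise)
-/

set_option autoImplicit false

namespace Crest.Agent.R320.UG219

variable {S V W : Type*}

/-- weighted sum of a list of contents, the first one has index `k` -/
def ws [AddCommGroup W] (e : ℕ → S → W) : ℕ → List S → W
  | _, [] => 0
  | k, z :: l => e k z + ws e (k + 1) l

lemma ws_append [AddCommGroup W] (e : ℕ → S → W) (k : ℕ) (l l' : List S) :
    ws e k (l ++ l') = ws e k l + ws e (k + l.length) l' := by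
  induction l generalizing k with
  | nil => simp [ws]
  | cons z l ih =>
    simp only [List.cons_append, ws, ih, List.length_cons]
    rw [show k + 1 + l.length = k + (l.length + 1) by ring, add_assoc]

/-- names of the scheme: level, left product, left weight, right product, right weight, token -/
structure Nm (m : ℕ) (S V W : Type*) where
  i : Fin m
  g : S
  wl : W
  h : S
  wr : W
  v : V

instance {m : ℕ} [Finite S] [Finite V] [Finite W] : Finite (Nm m S V W) := by
  have : Function.Injective (fun c : Nm m S V W => (c.i, c.g, c.wl, c.h, c.wr, c.v)) := by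
    rintro ⟨⟩ ⟨⟩ h
    simp only [Prod.mk.injEq] at h
    obtain ⟨h1, h2, h3, h4, h5, h6⟩ := h
    subst h1 h2 h3 h4 h5 h6
    rfl
  exact Finite.of_injective _ this

/-- right label of a name -/
def lab [Monoid S] [AddCommGroup V] [AddCommGroup W] {m : ℕ} (act : V → S → V) (e : ℕ → S → W)
    (F : S → W → V) (c : Nm m S V W) : V :=
  F (c.g * 1 * c.h) (c.wl + e c.i 1 + c.wr) + act c.v (c.g * 1 * c.h)

/-- the name is good: the label does not depend on the content of its hole -/
def Good [Monoid S] [AddCommGroup V] [AddCommGroup W] {m : ℕ} (act : V → S → V) (e : ℕ → S → W)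
    (F : S → W → V) (c : Nm m S V W) : Prop :=
  ∀ z : S, F (c.g * z * c.h) (c.wl + e c.i z + c.wr) + act c.v (c.g * z * c.h) = lab act e F c

section defs

variable [Monoid S] [AddCommGroup V] [AddCommGroup W] {m : ℕ} (act : V → S → V) (e : ℕ → S → W)
  (F : S → W → V) (nmL nmR : ℕ → Option (Nm m S V W))

open Classical in
/-- left label -/
noncomputable def Lb (i : ℕ) (x : S) (zl : List S) (t : ℕ) : Option V :=
  if ∃ c, nmL t = some c ∧ Good act e F c ∧ (c.i : ℕ) = i ∧ c.g = x * zl.prod ∧ c.wl = ws e 0 zl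
  then (nmL t).map (fun c => c.v) else none

open Classical in
/-- right label -/
noncomputable def Rb (vw : ℕ → Option (List S × S)) (t : ℕ) : Option V :=
  if ∃ c, nmR t = some c ∧ Good act e F c ∧
      ∃ zr y, vw c.i = some (zr, y) ∧ c.h = zr.prod * y ∧ c.wr = ws e (c.i + 1) zr
  then (nmR t).map (lab act e F) else none

variable {act e F nmL nmR}

lemma Lb_some {i : ℕ} {x : S} {zl : List S} {t : ℕ} {v : V}
    (h : Lb act e F nmL i x zl t = some v) :
    ∃ c, nmL t = some c ∧ Good act e F c ∧ (c.i : ℕ) = i ∧ c.g = x * zl.prod ∧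
      c.wl = ws e 0 zl ∧ c.v = v := by
  classical
  unfold Lb at h
  split_ifs at h with hc
  obtain ⟨c, h1, h2, h3, h4, h5⟩ := hc
  rw [h1] at h
  simp only [Option.map_some, Option.some.injEq] at h
  exact ⟨c, h1, h2, h3, h4, h5, h⟩

lemma Lb_of {i : ℕ} {x : S} {zl : List S} {t : ℕ} (c : Nm m S V W) (h1 : nmL t = some c)
    (h2 : Good act e F c) (h3 : (c.i : ℕ) = i) (h4 : c.g = x * zl.prod) (h5 : c.wl = ws e 0 zl) :
    Lb act e F nmL i x zl t = some c.v := by
  classical
  unfold Lb
  rw [if_pos ⟨c, h1, h2, h3, h4, h5⟩, h1]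
  rfl

lemma Rb_some {vw : ℕ → Option (List S × S)} {t : ℕ} {b : V}
    (h : Rb act e F nmR vw t = some b) :
    ∃ c, nmR t = some c ∧ Good act e F c ∧ (∃ zr y, vw c.i = some (zr, y) ∧ c.h = zr.prod * y ∧
      c.wr = ws e (c.i + 1) zr) ∧ lab act e F c = b := by
  classical
  unfold Rb at h
  split_ifs at h with hc
  obtain ⟨c, h1, h2, h3⟩ := hc
  rw [h1] at h
  simp only [Option.map_some, Option.some.injEq] at h
  exact ⟨c, h1, h2, h3, h⟩

lemma Rb_of {vw : ℕ → Option (List S × S)} {t : ℕ} (c : Nm m S V W) (h1 : nmR t = some c)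
    (h2 : Good act e F c) (zr : List S) (y : S) (h3 : vw c.i = some (zr, y))
    (h4 : c.h = zr.prod * y) (h5 : c.wr = ws e (c.i + 1) zr) :
    Rb act e F nmR vw t = some (lab act e F c) := by
  classical
  unfold Rb
  rw [if_pos ⟨c, h1, h2, zr, y, h3, h4, h5⟩, h1]
  rfl

end defs

/-- **Scheme-1 gadget, abstract form.** -/
theorem ugadget (S V : Type*) [Monoid S] [Finite S] [AddCommGroup V] [Finite V]
    (act : V → S → V) :
    ∃ (m r : ℕ), 0 < m ∧ ∀ Bd : ℕ, ∃ (Ms : Finset ℕ) (L : ℕ → S → List S → ℕ → Option V)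
      (R : (ℕ → Option (List S × S)) → ℕ → Option V) (D : ℕ → S → List S → S → V),
      Ms.card ≤ r ∧ (∀ p ∈ Ms, p.Prime ∧ Bd < p) ∧
      (∀ i x zl t, L i x zl (t + ∏ p ∈ Ms, p) = L i x zl t) ∧
      (∀ vw t, R vw (t + ∏ p ∈ Ms, p) = R vw t) ∧
      (∀ vw vw' t, (∀ i < m, vw i = vw' i) → R vw t = R vw' t) ∧
      (∀ (t t' : ℕ) (x : S) (zl : List S) (z : S) (zr : List S) (y : S)
        (vw : ℕ → Option (List S × S)) (v b : V), (zl ++ z :: zr).length = m →
        (∀ q, vw zl.length = some q → q = (zr, y)) →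
        L zl.length x zl t = some v → R vw t' = some b →
        b = act v (x * zl.prod * z * (zr.prod * y)) + D (t + t') x (zl ++ z :: zr) y) ∧
      (∀ (T : ℕ) (x : S) (zs : List S) (y : S) (v : V), zs.length = m →
        (∀ p ∈ Ms, ¬ p ∣ T) → ∃ i < m, ∀ c0 : ℕ, c0 + ∏ p ∈ Ms, p ≤ T + 1 →
          ∃ t, c0 ≤ t ∧ t < c0 + ∏ p ∈ Ms, p ∧ t ≤ T ∧ L i x (zs.take i) t = some v ∧
            ∀ vw : ℕ → Option (List S × S), vw i = some (zs.drop (i + 1), y) →
              ∃ b, R vw (T - t) = some b) := by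
  classical
  have := Fintype.ofFinite S
  have := Fintype.ofFinite V
  obtain ⟨m, N, e, F, hN, hF⟩ := RandF808.exists_noise S V act
  have : NeZero N := ⟨hN.ne'⟩
  let WW := ZMod N × ZMod N
  have hm : 0 < m := by
    obtain ⟨i, hi, -⟩ := hF 1 0 0
    omega
  let col : Nm m S V WW → V × V := fun c => (c.v, lab act e F c)
  obtain ⟨r, hr⟩ := Names_570.exists_names col
  refine ⟨m, r, hm, fun Bd => ?_⟩
  obtain ⟨Ms, nmL, nmR, hcard, hp, hperL, hperR, h1, h2, h3⟩ := hr Bd
  -- the junctions of a bad clock total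
  let J : ℕ → Prop := fun T => ∃ q : (ℕ × ℕ) × (Nm m S V WW × Nm m S V WW),
    q.1.1 + q.1.2 = T ∧ nmL q.1.1 = some q.2.1 ∧ nmR q.1.2 = some q.2.2
  let D : ℕ → S → List S → S → V := fun T x zs y =>
    if (∃ p ∈ Ms, p ∣ T) then
      (if h : J T then lab act e F h.choose.2.2 - act h.choose.2.1.v (x * zs.prod * y) else 0)
    else F (x * zs.prod * y) (ws e 0 zs)
  refine ⟨Ms, Lb act e F nmL, Rb act e F nmR, D, hcard, hp, ?_, ?_, ?_, ?_, ?_⟩
  · intro i x zl t
    unfold Lb
    rw [hperL]
  · intro vw t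
    unfold Rb
    rw [hperR]
  · intro vw vw' t hvw
    unfold Rb
    have : (∃ c, nmR t = some c ∧ Good act e F c ∧
        ∃ zr y, vw c.i = some (zr, y) ∧ c.h = zr.prod * y ∧ c.wr = ws e (c.i + 1) zr) ↔
        (∃ c, nmR t = some c ∧ Good act e F c ∧
        ∃ zr y, vw' c.i = some (zr, y) ∧ c.h = zr.prod * y ∧ c.wr = ws e (c.i + 1) zr) := by
      constructor
      · rintro ⟨c, a1, a2, a3⟩
        exact ⟨c, a1, a2, by rwa [← hvw _ c.i.2]⟩
      · rintro ⟨c, a1, a2, a3⟩
        exact ⟨c, a1, a2, by rwa [hvw _ c.i.2]⟩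
    exact if_congr this rfl rfl
  · -- soundness
    intro t t' x zl z zr y vw v b hlen hvw hL hR
    obtain ⟨c, c1, c2, c3, c4, c5, c6⟩ := Lb_some hL
    obtain ⟨c', c1', c2', ⟨zr', y', c3', c4', c5'⟩, c6'⟩ := Rb_some hR
    have hprod : x * (zl ++ z :: zr).prod * y = x * zl.prod * z * (zr.prod * y) := by
      simp only [List.prod_append, List.prod_cons, mul_assoc]
    by_cases hT : ∃ p ∈ Ms, p ∣ t + t'
    · have hJ : J (t + t') := ⟨((t, t'), (c, c')), rfl, c1, c1'⟩
      have hD : D (t + t') x (zl ++ z :: zr) y = lab act e F hJ.choose.2.2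
          - act hJ.choose.2.1.v (x * (zl ++ z :: zr).prod * y) := by
        simp only [D]
        rw [if_pos hT, dif_pos hJ]
      have hsp := hJ.choose_spec
      obtain ⟨e1, e2, e3⟩ := hsp
      have key := h3 hJ.choose.1.1 hJ.choose.1.2 t t' hJ.choose.2.1 hJ.choose.2.2 c c' e1
        (by rw [e1]; exact hT) e2 e3 c1 c1'
      rw [hD, hprod, ← c6, ← c6']
      rcases key with ⟨k1, k2⟩ | ⟨k1, k2, k3⟩
      · rw [k1, k2]; abel
      · have kv : c.v = c'.v := by
          have := congrArg Prod.fst k3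
          simp only [col] at this
          rw [k1, k2] at this
          exact this.symm
        have kl : lab act e F c = lab act e F c' := by
          have := congrArg Prod.snd k3
          simp only [col] at this
          rw [k1, k2] at this
          exact this.symm
        rw [k1, k2, kv, kl]; abel
    · have hT' : ∀ p ∈ Ms, ¬ p ∣ t + t' := fun p hp hd => hT ⟨p, hp, hd⟩
      have hcc : c = c' := h1 t t' c c' hT' c1 c1'
      subst hcc
      have hv := hvw (zr', y') (by rw [← c3]; exact c3')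
      obtain ⟨rfl, rfl⟩ := Prod.mk.inj hv
      have hD : D (t + t') x (zl ++ z :: zr') y' = F (x * (zl ++ z :: zr').prod * y')
          (ws e 0 (zl ++ z :: zr')) := by
        simp only [D]
        rw [if_neg hT]
      have hg := c2 z
      have hws : ws e 0 (zl ++ z :: zr') = c.wl + e c.i z + c.wr := by
        rw [ws_append, c5, c5', c3]
        simp only [ws, Nat.zero_add]
        rw [add_assoc]
      have hs : x * (zl ++ z :: zr').prod * y' = c.g * z * c.h := by
        rw [hprod, c4, c4']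
      rw [hD, hws, hs, ← c6', ← c6, ← hprod, hs, ← hg]
      abel
  · -- completeness
    intro T x zs y v hlen hT
    obtain ⟨i, hi, hgood⟩ := hF (x * zs.prod * y) (ws e 0 zs) v
    refine ⟨i, hi, fun c0 hc0 => ?_⟩
    have hi' : i < zs.length := by omega
    have hsplit : zs = zs.take i ++ zs[i] :: zs.drop (i + 1) := by
      rw [← List.drop_eq_getElem_cons hi', List.take_append_drop]
    let c : Nm m S V WW := ⟨⟨i, hi⟩, x * (zs.take i).prod, ws e 0 (zs.take i),
      (zs.drop (i + 1)).prod * y, ws e (i + 1) (zs.drop (i + 1)), v⟩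
    have hs : x * zs.prod * y = c.g * zs[i] * c.h := by
      conv_lhs => rw [hsplit]
      simp only [List.prod_append, List.prod_cons, mul_assoc, c]
    have hw : ws e 0 zs = c.wl + e i zs[i] + c.wr := by
      conv_lhs => rw [hsplit]
      rw [ws_append]
      have hl : (zs.take i).length = i := by rw [List.length_take]; omega
      rw [hl]
      simp only [ws, Nat.zero_add, c]
      rw [add_assoc]
    have hall : ∀ z : S, F (c.g * z * c.h) (c.wl + e i z + c.wr) + act v (c.g * z * c.h)
        = F (x * zs.prod * y) (ws e 0 zs) + act v (x * zs.prod * y) := by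
      intro z
      have := hgood c.g zs[i] c.h hs.symm z
      rw [← this]
      have : ws e 0 zs - e i zs[i] + e i z = c.wl + e i z + c.wr := by
        rw [hw]; abel
      rw [this]
    have hgc : Good act e F c := by
      intro z
      have a1 := hall z
      have a2 := hall 1
      show F (c.g * z * c.h) (c.wl + e i z + c.wr) + act v (c.g * z * c.h)
        = F (c.g * 1 * c.h) (c.wl + e i 1 + c.wr) + act v (c.g * 1 * c.h)
      rw [a1, a2]
    obtain ⟨t, t1, t2, t3, t4, t5⟩ := h2 T c c0 hT hc0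
    refine ⟨t, t1, t2, t3, ?_, fun vw hvw => ⟨lab act e F c, ?_⟩⟩
    · exact Lb_of c t4 hgc rfl rfl rfl
    · exact Rb_of c t5 hgc _ _ hvw rfl rfl

end Crest.Agent.R320.UG219
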