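import Crest.Agent.R320.ZoneUG_539
import Crest.Agent.R320.UG_219

/-!
# Row 320: scheme 1 zone gadget as a closed black box (helper539)

`ZoneUG_539` + `UG_219.ugadget`.
-/

set_option autoImplicit false

namespace Crest.Agent.R320.Gad1539

open Classical Crest.Agent.R320.ZoneUG539

/-- levels -/
def AA (M M' G n : ℕ) : ℕ → ℕ
  | 0 => M' * M
  | (i + 1) => M' * ((AA M M' G n i + G + n) + M)

/-- cells -/
def CC (M M' G n : ℕ) (i : ℕ) : ℕ := AA M M' G n i + G + n

theorem AA_succ (M M' G n i : ℕ) : AA M M' G n (i + 1) = M' * (CC M M' G n i + M) := rfl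

theorem AA_le {M M' G n : ℕ} (hM' : 0 < M') (k : ℕ) : AA M M' G n k ≤ AA M M' G n (k + 1) := by
  rw [AA_succ]
  unfold CC
  have h : 1 * (AA M M' G n k + G + n + M) ≤ M' * (AA M M' G n k + G + n + M) :=
    Nat.mul_le_mul_right _ hM'
  omega

/-- **closed zone gadget of scheme 1.** `m` = number of levels, `Ms` = the moduli (primes above
any bound, at most `r` of them), `M = ∏ Ms`, comb modulus `M'` arbitrary, `W` the small-wall rule,
`G` the bound of its gaps.  Sound for ALL pairs; complete for every zone word `Y` with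
`N1 ≤ |Y|`, no `p ∈ Ms` dividing `|Y| / M'`, dense walls, and no wall within `M' * M` of a level. -/
theorem gadget1 (S V : Type*) [Monoid S] [Finite S] [AddCommGroup V] [Finite V]
    (act : V → S → V) :
    ∃ (m r : ℕ), 0 < m ∧ ∀ Bd : ℕ, ∃ (Ms : Finset ℕ), Ms.card ≤ r ∧
      (∀ p ∈ Ms, p.Prime ∧ Bd < p) ∧
      ∀ (α : Type*) (φ : List α → S), (∀ u v, φ (u ++ v) = φ u * φ v) →
      ∀ (W : Rule α) (M' G : ℕ), 0 < M' →
      ∃ (A : ℕ → ℕ) (N1 : ℕ) (lam rho : List α → Option V) (nu : List α → V),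
        (∀ k, A k ≤ A (k + 1)) ∧ (∀ k ≤ m, A k ≤ N1) ∧
        (∀ k, A k + M' * ∏ p ∈ Ms, p ≤ A (k + 1)) ∧
        (∀ P v, lam P = some v → M' ∣ P.length ∧ P.length ≤ N1) ∧
        (∀ P Q v c, lam P = some v → rho Q = some c → c = act v (φ (P ++ Q)) + nu (P ++ Q)) ∧
        (∀ Y : List α, (∀ p ∈ Ms, ¬ p ∣ Y.length / M') → N1 ≤ Y.length →
          (∀ i ≤ N1, ∃ j, i ≤ j ∧ j ≤ i + G ∧ W.R (Y.drop j)) →
          (∀ k ≤ m, ∀ j, A k ≤ j + M' * ∏ p ∈ Ms, p → j < A k + M' * ∏ p ∈ Ms, p →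
            ¬ W.R (Y.drop j)) →
          ∀ v, ∃ P Q, Y = P ++ Q ∧ lam P = some v ∧ (rho Q).isSome) := by
  obtain ⟨m, r, hm, H⟩ := UG219.ugadget S V act
  refine ⟨m, r, hm, fun Bd => ?_⟩
  obtain ⟨Ms, L, R, D, hcard, hp, -, -, -, hs, hc⟩ := H Bd
  refine ⟨Ms, hcard, hp, ?_⟩
  intro α φ hφ W M' G hM'
  have hMpos : 0 < ∏ p ∈ Ms, p := Finset.prod_pos fun p h => (hp p h).1.pos
  generalize hMdef : ∏ p ∈ Ms, p = M at *
  have hU : UGd act m M (fun T => ∃ p ∈ Ms, p ∣ T) L R D := by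
    constructor
    · intro l z r x y vw t t' v b h1 h2 h3 h4
      have := hs t t' x l z r y vw v b h1 h2 h3 h4
      rw [this]
      simp only [mul_assoc]
    · intro T hT zs x y v hzs
      push Not at hT
      obtain ⟨i, hi, hh⟩ := hc T x zs y v hzs hT
      refine ⟨i, hi, fun c0 hc0 => ?_⟩
      obtain ⟨t, a1, a2, a3, a4, a5⟩ := hh c0 hc0
      refine ⟨t, a1, a2, a3, a4, fun vw hvw => ?_⟩
      obtain ⟨b, hb⟩ := a5 vw hvw
      rw [hb]; rfl
  have hA : ∀ k, AA M M' G W.n k ≤ AA M M' G W.n (k + 1) := AA_le hM'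
  have hAm : Monotone (AA M M' G W.n) := monotone_nat_of_le_succ hA
  have hC : ∀ i < m, M' * (CC M M' G W.n i + M) ≤ AA M M' G W.n (i + 1) :=
    fun i _ => (AA_succ M M' G W.n i).ge
  refine ⟨AA M M' G W.n, AA M M' G W.n m, lam W φ m M M' (AA M M' G W.n) (CC M M' G W.n) L,
    rho W φ m M M' (AA M M' G W.n) (CC M M' G W.n) R, nu W φ m M' (AA M M' G W.n) D,
    hA, fun k hk => hAm hk, ?_, ?_, ?_, ?_⟩
  · intro k
    rw [AA_succ, Nat.mul_add]
    have : 1 * CC M M' G W.n k ≤ M' * CC M M' G W.n k := Nat.mul_le_mul_right _ hM'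
    unfold CC at *
    omega
  · intro P v h
    unfold lam at h
    split_ifs at h with hL
    obtain ⟨h1, h2, h3, h4, h5⟩ := hL.choose_spec
    refine ⟨h2, ?_⟩
    obtain ⟨t, ht⟩ := h2
    have e : P.length / M' = t := by rw [ht]; exact Nat.mul_div_cancel_left t hM'
    rw [e] at h4
    rw [ht]
    calc M' * t ≤ M' * (CC M M' G W.n hL.choose + M) := Nat.mul_le_mul_left _ h4.le
      _ = AA M M' G W.n (hL.choose + 1) := rfl
      _ ≤ AA M M' G W.n m := hAm h1
  · intro P Q v c h1 h2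
    exact sound hφ hU hM' hA hC P Q v c h1 h2
  · intro Y hT hN hwall hband v
    obtain ⟨t, i, _, _, _, _, h5, h6⟩ := complete (G := G) hU hM' hA hC
      (fun i _ => by
        have : 1 * CC M M' G W.n i ≤ M' * CC M M' G W.n i := Nat.mul_le_mul_right _ hM'
        unfold CC at *
        omega) Y (by push Not; exact hT)
      (fun i hi => ((AA_succ M M' G W.n i).ge.trans (hAm hi)).trans hN)
      (fun i hi => by
        obtain ⟨j, a, b, c⟩ := hwall (AA M M' G W.n i) (hAm hi.le)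
        exact ⟨j, a, b, c⟩)
      hband v
    exact ⟨Y.take (M' * t), Y.drop (M' * t), (List.take_append_drop _ _).symm, h5, h6⟩

end Crest.Agent.R320.Gad1539
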