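import Crest.Agent.R320.Exact_355
import Crest.Agent.R320.Names_755

/-!
Row 320, zone gadget of scheme 1 (post #12664): names (755) + exact gadget with names (355)
+ fixed levels read at small walls + comb `M'`.  `Y` = text from `a + p0` to `b`.
-/

set_option autoImplicit false

namespace Crest.Agent.R320.Gad1_997

noncomputable section

open Classical

variable {α : Type*} {S : Type*}

/-- product of a word -/
def ph [Monoid S] (φ : α → S) (w : List α) : S := (w.map φ).prod

theorem ph_append [Monoid S] (φ : α → S) (u v : List α) :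
    ph φ (u ++ v) = ph φ u * ph φ v := by
  simp [ph]

/-- first wall at a place `≥ A` -/
def nx (Rs : List α → Prop) (Y : List α) (A : ℕ) : ℕ := sInf {t | A ≤ t ∧ Rs (Y.drop t)}

theorem nx_spec {Rs : List α → Prop} {Y : List α} {A : ℕ}
    (h : ∃ t, A ≤ t ∧ Rs (Y.drop t)) : A ≤ nx Rs Y A ∧ Rs (Y.drop (nx Rs Y A)) :=
  Nat.sInf_mem (s := {t | A ≤ t ∧ Rs (Y.drop t)}) h

theorem nx_le {Rs : List α → Prop} {Y : List α} {A t : ℕ} (h : A ≤ t)
    (h' : Rs (Y.drop t)) : nx Rs Y A ≤ t :=
  Nat.sInf_le (s := {t | A ≤ t ∧ Rs (Y.drop t)}) ⟨h, h'⟩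

theorem nx_mono {Rs : List α → Prop} {Y : List α} {A A' : ℕ} (h : A ≤ A')
    (h' : ∃ t, A' ≤ t ∧ Rs (Y.drop t)) : nx Rs Y A ≤ nx Rs Y A' :=
  nx_le (h.trans (nx_spec h').1) (nx_spec h').2

theorem rs_append {Rs : List α → Prop} {ns : ℕ} (hloc : ∀ Q, Rs Q ↔ Rs (Q.take ns))
    {P Q : List α} {t : ℕ} (ht : t + ns ≤ P.length) :
    Rs ((P ++ Q).drop t) ↔ Rs (P.drop t) := by
  rw [hloc ((P ++ Q).drop t), hloc (P.drop t), List.drop_append_of_le_length (by omega),
    List.take_append_of_le_length (by rw [List.length_drop]; omega)]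

theorem wall_len {Rs : List α → Prop} {ns : ℕ} (hlen : ∀ Q, Rs Q → ns ≤ Q.length)
    {P : List α} {t : ℕ} (ht : Rs (P.drop t)) (h0 : 0 < ns) : t + ns ≤ P.length := by
  have := hlen _ ht
  rw [List.length_drop] at this
  omega

theorem nx_left {Rs : List α → Prop} {ns : ℕ} (hloc : ∀ Q, Rs Q ↔ Rs (Q.take ns))
    (hlen : ∀ Q, Rs Q → ns ≤ Q.length) (h0 : 0 < ns) {P Q : List α} {A : ℕ}
    (h : ∃ t, A ≤ t ∧ Rs (P.drop t)) : nx Rs (P ++ Q) A = nx Rs P A := by
  have h1 := nx_spec h
  have hl := wall_len hlen h1.2 h0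
  have h2 : nx Rs (P ++ Q) A ≤ nx Rs P A := nx_le h1.1 ((rs_append hloc hl).2 h1.2)
  have h3 := nx_spec (Rs := Rs) (Y := P ++ Q) (A := A) ⟨_, h1.1, (rs_append hloc hl).2 h1.2⟩
  refine le_antisymm h2 (nx_le h3.1 ((rs_append hloc ?_).1 h3.2))
  omega

theorem nx_right {Rs : List α → Prop} {P Q : List α} {A E s D : ℕ}
    (hA : A + s = P.length + E) (hs : s ≤ E) (hD : s ≤ D)
    (hfree : ∀ t, E ≤ t + D → t < E → ¬ Rs (Q.drop t))
    (h : ∃ t, E ≤ t ∧ Rs (Q.drop t)) : nx Rs (P ++ Q) A = P.length + nx Rs Q E := by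
  have h1 := nx_spec h
  have hdrop : ∀ u, (P ++ Q).drop (P.length + u) = Q.drop u := by
    intro u
    rw [← List.drop_drop]
    simp
  have hw : Rs ((P ++ Q).drop (P.length + nx Rs Q E)) := by rw [hdrop]; exact h1.2
  have h2 : nx Rs (P ++ Q) A ≤ P.length + nx Rs Q E := nx_le (by omega) hw
  have h3 := nx_spec (Rs := Rs) (Y := P ++ Q) (A := A) ⟨_, by omega, hw⟩
  refine le_antisymm h2 ?_
  obtain ⟨u, hu⟩ : ∃ u, nx Rs (P ++ Q) A = P.length + u :=
    ⟨nx Rs (P ++ Q) A - P.length, by omega⟩
  rw [hu] at h3 ⊢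
  rw [hdrop] at h3
  have hge : E ≤ u := by
    by_contra hcon
    exact hfree u (by omega) (by omega) h3.2
  have := nx_le (Rs := Rs) (Y := Q) hge h3.2
  omega

/-- product of the piece `[a, b)` -/
def seg [Monoid S] (φ : α → S) (Y : List α) (a b : ℕ) : S := ph φ ((Y.take b).drop a)

theorem seg_left [Monoid S] (φ : α → S) {P Q : List α} {a b : ℕ} (h : b ≤ P.length) :
    seg φ (P ++ Q) a b = seg φ P a b := by
  unfold seg
  rw [List.take_append_of_le_length h]

theorem seg_right [Monoid S] (φ : α → S) {P Q : List α} {a b : ℕ} :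
    seg φ (P ++ Q) (P.length + a) (P.length + b) = seg φ Q a b := by
  unfold seg
  have : (P ++ Q).take (P.length + b) = P ++ Q.take b := by
    rw [List.take_append, List.take_of_length_le (by omega)]
    congr 2
    omega
  rw [this, ← List.drop_drop]
  simp

theorem prod_seg [Monoid S] (φ : α → S) (Y : List α) (h : ℕ → ℕ) (h0 : h 0 = 0) :
    ∀ m : ℕ, (∀ j < m, h j ≤ h (j + 1)) →
      ((List.range m).map (fun j => seg φ Y (h j) (h (j + 1)))).prod = ph φ (Y.take (h m)) := by
  intro m
  induction m with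
  | zero => intro _; simp [h0, ph]
  | succ m ih =>
    intro hm
    rw [List.range_succ, List.map_append, List.prod_append,
      ih (fun j hj => hm j (by omega))]
    simp only [List.map_cons, List.map_nil, List.prod_cons, List.prod_nil, mul_one]
    unfold seg
    rw [← ph_append]
    congr 1
    conv_rhs => rw [← List.take_append_drop (h m) (Y.take (h (m + 1)))]
    rw [List.take_take, min_eq_left (hm m (by omega))]

section defs

variable (Rs : List α → Prop) (A C : ℕ → ℕ) (m : ℕ)

/-- ends of the blocks of the zone -/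
def hh (Y : List α) (j : ℕ) : ℕ :=
  if j = 0 then 0 else if m ≤ j then Y.length else nx Rs Y (A j)

variable [Monoid S] (φ : α → S)

def blk (Y : List α) (j : ℕ) : S := seg φ Y (hh Rs A m Y j) (hh Rs A m Y (j + 1))

def preL (P : List α) (i : ℕ) : List S :=
  (List.range i).map (fun j => seg φ P (if j = 0 then 0 else nx Rs P (A j)) (nx Rs P (A (j + 1))))

def postR (Q : List α) (i : ℕ) : List S :=
  (List.range (m - 1 - i)).map (fun k => seg φ Q (nx Rs Q (A (i + 1 + k) - C i))
    (if m ≤ i + 1 + k + 1 then Q.length else nx Rs Q (A (i + 1 + k + 1) - C i)))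

end defs

theorem range_split {T : Type*} (f : ℕ → T) {m i : ℕ} (hi : i < m) :
    (List.range m).map f = (List.range i).map f ++
      f i :: (List.range (m - 1 - i)).map (fun k => f (i + 1 + k)) := by
  obtain ⟨d, rfl⟩ : ∃ d, m = i + (1 + d) := ⟨m - 1 - i, by omega⟩
  have : i + (1 + d) - 1 - i = d := by omega
  rw [this, List.range_add, List.map_append, List.map_map, List.range_add, List.map_append]
  simp [Function.comp_def, Nat.add_assoc]

section main

variable {Rs : List α → Prop} {ns : ℕ} {A C : ℕ → ℕ} {m : ℕ} [Monoid S] {φ : α → S}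

theorem preL_eq (hloc : ∀ Q, Rs Q ↔ Rs (Q.take ns)) (hlen : ∀ Q, Rs Q → ns ≤ Q.length)
    (h0 : 0 < ns) {P Q : List α} {i : ℕ} (hi : i < m)
    (hw : ∀ j, 0 < j → j ≤ i → ∃ t, A j ≤ t ∧ Rs (P.drop t)) :
    preL Rs A φ P i = (List.range i).map (blk Rs A m φ (P ++ Q)) := by
  unfold preL
  apply List.map_congr_left
  intro j hj
  rw [List.mem_range] at hj
  have h1 : hh Rs A m (P ++ Q) (j + 1) = nx Rs P (A (j + 1)) := by
    unfold hh
    rw [if_neg (by omega), if_neg (by omega)]
    exact nx_left hloc hlen h0 (hw (j + 1) (by omega) (by omega))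
  have h2 : hh Rs A m (P ++ Q) j = if j = 0 then 0 else nx Rs P (A j) := by
    unfold hh
    split_ifs with h3 h4
    · rfl
    · omega
    · exact nx_left hloc hlen h0 (hw j (by omega) (by omega))
  unfold blk
  rw [h1, h2, seg_left]
  have := wall_len hlen (nx_spec (hw (j + 1) (by omega) (by omega))).2 h0
  omega

theorem postR_eq {P Q : List α} {i s D : ℕ} (hi : i < m)
    (hP : P.length = C i + s) (hs : s ≤ D)
    (hAC : ∀ j, i < j → j < m → C i + D ≤ A j)
    (hw : ∀ j, i < j → j < m → (∃ t, A j - C i ≤ t ∧ Rs (Q.drop t)) ∧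
      ∀ t, A j - C i ≤ t + D → t < A j - C i → ¬ Rs (Q.drop t)) :
    postR Rs A C m φ Q i =
      (List.range (m - 1 - i)).map (fun k => blk Rs A m φ (P ++ Q) (i + 1 + k)) := by
  unfold postR
  apply List.map_congr_left
  intro k hk
  rw [List.mem_range] at hk
  have key : ∀ j, i < j → j < m → hh Rs A m (P ++ Q) j = P.length + nx Rs Q (A j - C i) := by
    intro j hj hjm
    unfold hh
    rw [if_neg (by omega), if_neg (by omega)]
    have h1 := hAC j hj hjm
    exact nx_right (s := s) (D := D) (by omega) (by omega) hs (hw j hj hjm).2 (hw j hj hjm).1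
  unfold blk
  rw [key (i + 1 + k) (by omega) (by omega)]
  have h2 : hh Rs A m (P ++ Q) (i + 1 + k + 1) = P.length +
      (if m ≤ i + 1 + k + 1 then Q.length else nx Rs Q (A (i + 1 + k + 1) - C i)) := by
    split_ifs with h3
    · unfold hh
      rw [if_neg (by omega), if_pos h3, List.length_append]
    · exact key _ (by omega) (by omega)
  rw [h2, seg_right]

theorem prod_blk (hm : 0 < m) (hmono : ∀ j, 0 < j → j + 1 < m → A j ≤ A (j + 1)) {Y : List α}
    (hw : ∀ j, 0 < j → j < m → ∃ t, A j ≤ t ∧ Rs (Y.drop t)) (h0 : 0 < ns)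
    (hlen : ∀ Q, Rs Q → ns ≤ Q.length) :
    ((List.range m).map (blk Rs A m φ Y)).prod = ph φ Y := by
  have h1 : hh Rs A m Y m = Y.length := by
    unfold hh
    rw [if_neg (by omega), if_pos le_rfl]
  have h2 := prod_seg φ Y (hh Rs A m Y) (by simp [hh]) m ?_
  · rw [h1, List.take_length] at h2
    exact h2
  · intro j hj
    rcases Nat.eq_zero_or_pos j with h3 | h3
    · subst h3; simp [hh]
    · rcases Nat.lt_or_ge (j + 1) m with h4 | h4
      · unfold hh
        rw [if_neg (by omega), if_neg (by omega), if_neg (by omega), if_neg (by omega)]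
        exact nx_mono (hmono j h3 h4) (hw (j + 1) (by omega) h4)
      · unfold hh
        rw [if_neg (by omega), if_neg (by omega), if_neg (by omega), if_pos h4]
        have := wall_len hlen (nx_spec (hw j h3 hj)).2 h0
        omega

end main

/-- **Gadget 1.** -/
theorem gadget1 {α S V : Type*} [Monoid S] [Finite S] [AddCommGroup V] [Finite V]
    (φ : α → S) (β : V → S → V) :
    ∃ m r : ℕ, 0 < m ∧ ∀ M' B : ℕ, 0 < M' → ∃ (Ms : Finset ℕ) (M : ℕ), Ms.card ≤ r ∧
      (∀ k ∈ Ms, B < k ∧ k.Prime ∧ k ∣ M) ∧ 0 < M ∧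
      ∀ (Rs : List α → Prop) (ns G : ℕ), 0 < ns → (∀ Q, Rs Q ↔ Rs (Q.take ns)) →
        (∀ Q, Rs Q → ns ≤ Q.length) →
        ∃ (A : ℕ → ℕ) (N1 : ℕ) (L R : List α → Option V) (ν : List α → V),
          (∀ P Q v v', L P = some v → R Q = some v' →
            v' = β v (ph φ (P ++ Q)) + ν (P ++ Q)) ∧
          (∀ P v, L P = some v → M' ∣ P.length ∧ P.length ≤ N1) ∧
          (∀ j, j < m → A j + G ≤ N1) ∧
          (∀ Y : List α, N1 ≤ Y.length → (∀ k ∈ Ms, ¬ k ∣ Y.length / M') →
            (∀ j, 0 < j → j < m → (∃ t, A j ≤ t ∧ t < A j + G ∧ Rs (Y.drop t)) ∧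
              ∀ t, A j ≤ t + M' * M → t ≤ A j + M' * M → ¬ Rs (Y.drop t)) →
            ∀ v, ∃ P Q, Y = P ++ Q ∧ L P = some v ∧ (R Q).isSome) := by
  obtain ⟨m, K, idx, Lf, Rt, lab, rlab, nu, hm, hidx, hs, hc⟩ :=
    Crest.Agent.R320.Exact_355.exact_names S V β
  let col : Fin K → Fin (Nat.card (V × V)) := fun c => Finite.equivFin (V × V) (lab c, rlab c)
  obtain ⟨r, hr⟩ := Crest.Agent.R320.Names755.names (Fin K) (Fin (Nat.card (V × V))) col
  refine ⟨m, r, hm, ?_⟩
  intro M' B hM'
  obtain ⟨Ms, M, nmL, nmR, hcard, hMs, hM, hpL, hpR, hN2, hN3, hN4⟩ := hr B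
  refine ⟨Ms, M, hcard, hMs, hM, ?_⟩
  intro Rs ns G hns hloc hlen
  have hpL' : ∀ k t, nmL (M * k + t) = nmL t := by
    intro k
    induction k with
    | zero => intro t; simp
    | succ k ih =>
      intro t
      have : M * (k + 1) + t = (M * k + t) + M := by ring
      rw [this, hpL, ih]
  -- levels
  set P0 : ℕ := M' * M with hP0
  have hP0pos : 0 < P0 := Nat.mul_pos hM' hM
  let A : ℕ → ℕ := fun j => j * ((G + ns + 2) * P0)
  let C : ℕ → ℕ := fun j => A j + (G + ns) * P0
  have hC : ∀ i, C i = M' * (M * (i * (G + ns + 2) + (G + ns))) := by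
    intro i
    simp only [C, A, hP0]
    ring
  have hGP : G + ns ≤ (G + ns) * P0 := Nat.le_mul_of_pos_right _ hP0pos
  have hAmono : ∀ i j, i ≤ j → A i ≤ A j := fun i j hij => Nat.mul_le_mul_right _ hij
  have hAsucc : ∀ i, C i + P0 + P0 = A (i + 1) := by
    intro i
    simp only [C, A]
    ring
  have hAC : ∀ i j, i < j → C i + P0 ≤ A j := by
    intro i j hij
    have h1 := hAsucc i
    have h2 := hAmono (i + 1) j hij
    omega
  let LLc : List α → Fin K → Prop := fun P c =>
    M' ∣ P.length ∧ C (idx c) ≤ P.length ∧ P.length < C (idx c) + P0 ∧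
      (∀ j, 0 < j → j ≤ idx c → ∃ t, A j ≤ t ∧ Rs (P.drop t)) ∧ Lf c (preL Rs A φ P (idx c))
  let RRc : List α → Fin K → Prop := fun Q c =>
    (∀ j, idx c < j → j < m → (∃ t, A j - C (idx c) ≤ t ∧ Rs (Q.drop t)) ∧
      ∀ t, A j - C (idx c) ≤ t + P0 → t < A j - C (idx c) → ¬ Rs (Q.drop t)) ∧
      Rt c (postR Rs A C m φ Q (idx c))
  let L : List α → Option V := fun P =>
    (nmL (P.length / M')).bind fun c => if LLc P c then some (lab c) else none
  let R : List α → Option V := fun Q =>
    (nmR (Q.length / M')).bind fun c => if RRc Q c then some (rlab c) else none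
  have hL : ∀ P v, L P = some v → ∃ c, nmL (P.length / M') = some c ∧ LLc P c ∧ lab c = v := by
    intro P v h
    simp only [L, Option.bind_eq_some_iff] at h
    obtain ⟨c, h1, h2⟩ := h
    split_ifs at h2 with h3
    exact ⟨c, h1, h3, by simpa using h2⟩
  have hR : ∀ Q v, R Q = some v → ∃ c, nmR (Q.length / M') = some c ∧ RRc Q c ∧ rlab c = v := by
    intro Q v h
    simp only [R, Option.bind_eq_some_iff] at h
    obtain ⟨c, h1, h2⟩ := h
    split_ifs at h2 with h3
    exact ⟨c, h1, h3, by simpa using h2⟩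
  have hdiv : ∀ (P Q : List α), M' ∣ P.length →
      (P ++ Q).length / M' = P.length / M' + Q.length / M' := by
    intro P Q h
    rw [List.length_append, Nat.add_div_of_dvd_right h]
  let ν : List α → V := fun Y =>
    if (∀ k ∈ Ms, ¬ k ∣ Y.length / M') then nu ((List.range m).map (blk Rs A m φ Y))
    else if h : ∃ x : (List α × List α) × (V × V), Y = x.1.1 ++ x.1.2 ∧ L x.1.1 = some x.2.1 ∧
        R x.1.2 = some x.2.2
      then h.choose.2.2 - β h.choose.2.1 (ph φ Y) else 0
  refine ⟨A, A m, L, R, ν, ?_, ?_, ?_, ?_⟩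
  · -- soundness
    intro P Q v v' hLP hRQ
    obtain ⟨c, hc1, hc2, hc3⟩ := hL P v hLP
    obtain ⟨c', hc1', hc2', hc3'⟩ := hR Q v' hRQ
    have hd := hdiv P Q hc2.1
    by_cases hgood : ∀ k ∈ Ms, ¬ k ∣ (P ++ Q).length / M'
    · have hcc : c = c' := hN2 _ _ c c' hc1 hc1' (by rw [← hd]; exact hgood)
      subst hcc
      have hν : ν (P ++ Q) = nu ((List.range m).map (blk Rs A m φ (P ++ Q))) := by
        simp only [ν]
        rw [if_pos hgood]
      obtain ⟨-, hb1, hb2, hwL, hLf⟩ := hc2
      obtain ⟨hwR, hRt⟩ := hc2'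
      have hi := hidx c
      have e1 := preL_eq (φ := φ) (Q := Q) hloc hlen hns hi hwL
      have e2 := postR_eq (φ := φ) (Q := Q) (P := P) (s := P.length - C (idx c)) (D := P0) hi
        (by omega) (by omega) (fun j hj _ => hAC _ _ hj) hwR
      have e3 := range_split (blk Rs A m φ (P ++ Q)) hi
      rw [← e1, ← e2] at e3
      have hall : ∀ j, 0 < j → j < m → ∃ t, A j ≤ t ∧ Rs ((P ++ Q).drop t) := by
        intro j hj hjm
        rcases Nat.lt_or_ge (idx c) j with h | h
        · obtain ⟨t, ht1, ht2⟩ := (hwR j h hjm).1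
          refine ⟨P.length + t, ?_, ?_⟩
          · have := hAC _ _ h
            omega
          · rw [← List.drop_drop]
            simpa using ht2
        · obtain ⟨t, ht1, ht2⟩ := hwL j hj h
          exact ⟨t, ht1, (rs_append hloc (wall_len hlen ht2 hns)).2 ht2⟩
      have hprod := prod_blk (φ := φ) hm (fun j _ _ => hAmono _ _ (by omega)) hall hns hlen
      have h5 := hs c (preL Rs A φ P (idx c)) (postR Rs A C m φ Q (idx c))
        (blk Rs A m φ (P ++ Q) (idx c)) (by simp [preL]) (by rw [← e3]; simp) hLf hRt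
      rw [← e3] at h5
      rw [hν, ← hc3, ← hc3', h5, hprod]
    · have hex : ∃ x : (List α × List α) × (V × V), (P ++ Q) = x.1.1 ++ x.1.2 ∧
          L x.1.1 = some x.2.1 ∧ R x.1.2 = some x.2.2 := ⟨((P, Q), (v, v')), rfl, hLP, hRQ⟩
      have hν : ν (P ++ Q) = hex.choose.2.2 - β hex.choose.2.1 (ph φ (P ++ Q)) := by
        simp only [ν]
        rw [if_neg hgood, dif_pos hex]
      obtain ⟨g1, g2, g3⟩ := hex.choose_spec
      obtain ⟨d, hd1, hd2, hd3⟩ := hL _ _ g2
      obtain ⟨d', hd1', hd2', hd3'⟩ := hR _ _ g3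
      have hdd := hdiv hex.choose.1.1 hex.choose.1.2 hd2.1
      rw [← g1] at hdd
      push Not at hgood
      obtain ⟨k, hk1, hk2⟩ := hgood
      have h6 := hN4 _ _ _ _ c c' d d' hc1 hc1' hd1 hd1' (by rw [← hd, ← hdd])
        ⟨k, hk1, by rw [← hd]; exact hk2⟩
      have h7 : (lab c, rlab c) = (lab d, rlab d) := (Finite.equivFin (V × V)).injective h6.1
      have h8 : (lab c', rlab c') = (lab d', rlab d') := (Finite.equivFin (V × V)).injective h6.2
      have h9 : v = hex.choose.2.1 := by rw [← hc3, ← hd3]; exact congrArg Prod.fst h7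
      have h10 : v' = hex.choose.2.2 := by rw [← hc3', ← hd3']; exact congrArg Prod.snd h8
      rw [hν, ← h9, ← h10]
      abel
  · -- comb and window
    intro P v hLP
    obtain ⟨c, hc1, hc2, hc3⟩ := hL P v hLP
    refine ⟨hc2.1, ?_⟩
    have h1 := hc2.2.2.1
    have h2 := hAsucc (idx c)
    have h3 := hAmono (idx c + 1) m (hidx c)
    omega
  · intro j hj
    have h1 := hAsucc j
    have h2 := hAmono (j + 1) m hj
    simp only [C] at h1
    omega
  · -- completeness
    intro Y hY hgood hlev v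
    obtain ⟨c, pre, post, z, hu, hpre, hLf, hRt, hlab⟩ :=
      hc ((List.range m).map (blk Rs A m φ Y)) v (by simp)
    obtain ⟨t, ht, hnL, hnR⟩ := hN3 (Y.length / M') hgood c
    have hi := hidx c
    set i := idx c with hi_def
    set κ : ℕ := i * (G + ns + 2) + (G + ns) with hκ
    have hCi : C i = M' * (M * κ) := hC i
    set om : ℕ := M * κ + t with hom
    have hlen1 : M' * om = C i + M' * t := by rw [hCi, hom]; ring
    have hMt : M' * t < P0 := by rw [hP0]; exact Nat.mul_lt_mul_of_pos_left ht hM'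
    have hle : M' * om ≤ Y.length := by
      have h2 := hAsucc i
      have h3 := hAmono (i + 1) m hi
      omega
    have hPl : (Y.take (M' * om)).length = M' * om := by
      rw [List.length_take]; omega
    have hQl : (Y.drop (M' * om)).length = Y.length - M' * om := List.length_drop
    refine ⟨Y.take (M' * om), Y.drop (M' * om), (List.take_append_drop _ _).symm, ?_, ?_⟩
    all_goals
      set P := Y.take (M' * om) with hPdef
      set Q := Y.drop (M' * om) with hQdef
    · have hPQ : P ++ Q = Y := List.take_append_drop _ _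
      have hwL : ∀ j, 0 < j → j ≤ i → ∃ t, A j ≤ t ∧ Rs (P.drop t) := by
        intro j hj hji
        obtain ⟨⟨u, hu1, hu2, hu3⟩, -⟩ := hlev j hj (by omega)
        refine ⟨u, hu1, ?_⟩
        rw [← hPQ] at hu3
        refine (rs_append hloc ?_).1 hu3
        have h2 := hAmono j i hji
        have h3 : C i = A i + (G + ns) * P0 := rfl
        omega
      have e1 := preL_eq (φ := φ) (Q := Q) hloc hlen hns hi hwL
      have hLf' : Lf c (preL Rs A φ P i) := by
        rw [e1, hPQ]
        have e3 := range_split (blk Rs A m φ Y) hi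
        rw [hu] at e3
        have h4 := List.append_inj_left e3 (by simp [hpre])
        rw [← h4]; exact hLf
      have hcond : LLc P c := by
        refine ⟨?_, ?_, ?_, hwL, hLf'⟩
        · rw [hPl]; exact dvd_mul_right _ _
        · rw [hPl, hlen1]; exact Nat.le_add_right _ _
        · rw [hPl, hlen1]; show C i + M' * t < C i + P0; omega
      have hnm : nmL (P.length / M') = some c := by
        rw [hPl, Nat.mul_div_cancel_left _ hM', hom, hpL', hnL]
      simp only [L]
      rw [hnm]
      simp only [Option.bind_some]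
      rw [if_pos hcond, hlab]
    · have hPQ : P ++ Q = Y := List.take_append_drop _ _
      have hdropQ : ∀ u, Q.drop u = Y.drop (M' * om + u) := by
        intro u; rw [hQdef, List.drop_drop]
      have hwR : ∀ j, i < j → j < m → (∃ t, A j - C i ≤ t ∧ Rs (Q.drop t)) ∧
          ∀ t, A j - C i ≤ t + P0 → t < A j - C i → ¬ Rs (Q.drop t) := by
        intro j hj hjm
        obtain ⟨⟨u, hu1, hu2, hu3⟩, hfree⟩ := hlev j (by omega) hjm
        have h1 := hAC i j hj
        constructor
        · have h2 : A j + P0 < u := by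
            by_contra hcon
            exact hfree u (by omega) (by omega) hu3
          refine ⟨u - M' * om, by omega, ?_⟩
          rw [hdropQ]
          have : M' * om + (u - M' * om) = u := by omega
          rw [this]; exact hu3
        · intro t' ht1 ht2 ht3
          rw [hdropQ] at ht3
          exact hfree _ (by omega) (by omega) ht3
      have e2 := postR_eq (φ := φ) (Q := Q) (P := P) (s := M' * t) (D := P0) hi
        (by rw [hPl, hlen1]) (by omega) (fun j hj _ => hAC _ _ hj) hwR
      have hRt' : Rt c (postR Rs A C m φ Q i) := by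
        rw [e2, hPQ]
        have e3 := range_split (blk Rs A m φ Y) hi
        rw [hu] at e3
        have h4 := List.append_inj_right e3 (by simp [hpre])
        have h5 := (List.cons.inj h4).2
        rw [← h5]; exact hRt
      have hcond : RRc Q c := ⟨hwR, hRt'⟩
      have hqd : Q.length / M' = Y.length / M' - om := by
        rw [hQl, Nat.sub_mul_div_of_le] <;> omega
      have homle : om ≤ Y.length / M' := by
        rw [Nat.le_div_iff_mul_le hM', mul_comm]; exact hle
      have hnm : nmR (Q.length / M') = some c := by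
        apply hnR
        have h3 : M * κ + (t + Q.length / M') = Y.length / M' := by
          rw [hqd]; omega
        have h4 : t + Q.length / M' ≡ M * κ + (t + Q.length / M') [MOD M] := by
          unfold Nat.ModEq
          rw [Nat.mul_add_mod]
        rw [h3] at h4
        exact h4
      simp only [R]
      rw [hnm]
      simp only [Option.bind_some]
      rw [if_pos hcond]
      rfl

end

end Crest.Agent.R320.Gad1_997
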