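import Crest.Agent.R320.Gad_112

/-!
# Row 320: the digit gadget, finite state of the labels and of the noise, names with uniqueness.
-/

set_option autoImplicit false
set_option linter.unusedSectionVars false

namespace Crest.Agent.R320.Gad_112

open Finset Crest.Agent.R320.S1_5

universe uS uV uW

variable {α S V W Nm : Type*} [Monoid S] [AddCommGroup V] [AddCommGroup W]
variable {p : Cfg α S V W Nm}

theorem drop_split (U : List α) {x A : ℕ} (h : x ≤ A) :
    U.drop x = (U.take A).drop x ++ U.drop A := by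
  rw [List.drop_take]
  have e : U.drop A = (U.drop x).drop (A - x) := by rw [List.drop_drop]; congr 1; omega
  rw [e, List.take_append_drop]

theorem ph_drop_congr (φ : α → S) {U U' : List α} {x A : ℕ} (h : x ≤ A)
    (ht : U.take A = U'.take A) (hd : ph φ (U.drop A) = ph φ (U'.drop A)) :
    ph φ (U.drop x) = ph φ (U'.drop x) := by
  rw [drop_split U h, drop_split U' h, ph_append, ph_append, ht, hd]

theorem take_congr {U U' : List α} {x A : ℕ} (h : x ≤ A) (ht : U.take A = U'.take A) :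
    U.take x = U'.take x := by
  have := congrArg (List.take x) ht
  rwa [List.take_take, List.take_take, min_eq_left h] at this

theorem mod_congr {b m M j u u' : ℕ} (hj : j ≤ m) (h : u % (M * b ^ m) = u' % (M * b ^ m)) :
    u % b ^ j = u' % b ^ j := by
  have h1 : b ^ j ∣ M * b ^ m := (pow_dvd_pow b hj).trans (Dvd.intro_left _ rfl)
  rw [← Nat.mod_mod_of_dvd u h1, h, Nat.mod_mod_of_dvd u' h1]

theorem sg_congr {b m M A j : ℕ} (hb : 0 < b) (hA : b ^ m ≤ A) (hj : j < m) {U U' : List α}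
    (ht : U.take A = U'.take A) (h : U.length % (M * b ^ m) = U'.length % (M * b ^ m)) :
    sg b U j = sg b U' j := by
  unfold sg
  rw [mod_congr (b := b) (j := j + 1) hj h, mod_congr (b := b) (j := j) hj.le h]
  have h1 : U'.length % b ^ (j + 1) ≤ A := by
    have h2 := Nat.mod_lt U'.length (pow_pos hb (j + 1))
    have h3 : b ^ (j + 1) ≤ b ^ m := Nat.pow_le_pow_right hb hj
    omega
  rw [take_congr h1 ht]

theorem RR_imp (hb : 0 < p.b) {M A : ℕ} (hA : p.b ^ p.m ≤ A)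
    (hRC : ∀ c t, p.RC c (t + M) ↔ p.RC c t) {Q Q' : List α}
    (ht : Q.take A = Q'.take A) (h : Q.length % (M * p.b ^ p.m) = Q'.length % (M * p.b ^ p.m))
    (hd : ph p.φ (Q.drop A) = ph p.φ (Q'.drop A)) {c : Nm} (hR : RR p Q c) : RR p Q' c := by
  obtain ⟨h1, h2, h3, h4, h5, h6⟩ := hR
  have hM : Q.length % M = Q'.length % M := by
    have h1 : M ∣ M * p.b ^ p.m := Dvd.intro _ rfl
    rw [← Nat.mod_mod_of_dvd Q.length h1, h, Nat.mod_mod_of_dvd Q'.length h1]
  refine ⟨(per_mod (hRC c) hM).1 h1, h2, ?_, ?_, ?_, ?_⟩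
  · rw [Nat.dvd_iff_mod_eq_zero] at h3 ⊢
    rw [← mod_congr (j := p.lv c) h2.le h]; exact h3
  · have e : ∀ x : ℕ, x / p.b ^ p.lv c % p.b = x % p.b ^ (p.lv c + 1) / p.b ^ p.lv c := by
      intro x
      rw [pow_succ, Nat.mod_mul_right_div_self]
    rw [e, ← mod_congr (j := p.lv c + 1) h2 h, ← e]; exact h4
  · rw [← h5, mod_congr (b := p.b) (j := p.lv c + 1) h2 h]
    have h1 : Q'.length % p.b ^ (p.lv c + 1) ≤ A := by
      have h7 := Nat.mod_lt Q'.length (pow_pos hb (p.lv c + 1))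
      have h8 : p.b ^ (p.lv c + 1) ≤ p.b ^ p.m := Nat.pow_le_pow_right hb h2
      omega
    exact (ph_drop_congr p.φ h1 ht hd).symm
  · rw [← h6]
    unfold wt
    refine Finset.sum_congr rfl fun j hj => ?_
    rw [sg_congr hb hA (Finset.mem_Ico.1 hj).2 ht h]

theorem RR_congr (hb : 0 < p.b) {M A : ℕ} (hA : p.b ^ p.m ≤ A)
    (hRC : ∀ c t, p.RC c (t + M) ↔ p.RC c t) {Q Q' : List α}
    (ht : Q.take A = Q'.take A) (h : Q.length % (M * p.b ^ p.m) = Q'.length % (M * p.b ^ p.m))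
    (hd : ph p.φ (Q.drop A) = ph p.φ (Q'.drop A)) : RR p Q = RR p Q' := by
  funext c
  exact propext ⟨RR_imp hb hA hRC ht h hd, RR_imp hb hA hRC ht.symm h.symm hd.symm⟩

theorem LL_len (hb : 0 < p.b) (hlv : ∀ c, p.lv c < p.m) {P : List α} {c : Nm} (h : LL p P c) :
    P.length < p.b ^ p.m := by
  obtain ⟨-, h1, -⟩ := h
  have h2 : P.length / p.b ^ p.lv c < p.b := by omega
  rw [Nat.div_lt_iff_lt_mul (pow_pos hb _)] at h2
  have h3 : p.b * p.b ^ p.lv c = p.b ^ (p.lv c + 1) := by rw [pow_succ, Nat.mul_comm]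
  rw [h3] at h2
  exact h2.trans_le (Nat.pow_le_pow_right hb (hlv c))

theorem Pr_imp (hb : 0 < p.b) (hlv : ∀ c, p.lv c < p.m) {M A : ℕ} (hA : 2 * p.b ^ p.m ≤ A)
    (hRC : ∀ c t, p.RC c (t + M) ↔ p.RC c t) {Y Y' : List α} (hl : A ≤ Y.length)
    (hl' : A ≤ Y'.length)
    (ht : Y.take A = Y'.take A) (h : Y.length % (M * p.b ^ p.m) = Y'.length % (M * p.b ^ p.m))
    (hd : ph p.φ (Y.drop A) = ph p.φ (Y'.drop A)) {x : V} (hx : Pr p Y x) : Pr p Y' x := by
  obtain ⟨P, Q, c, c', rfl, hL, hR, rfl⟩ := hx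
  have hP := LL_len hb hlv hL
  have hPA : P.length ≤ A := by omega
  have e1 : Y'.take P.length = P := by
    rw [← take_congr hPA ht, List.take_left']
    rfl
  have e2 : P ++ Y'.drop P.length = Y' := by
    conv_lhs => rw [← e1]
    rw [e1]
    conv_rhs => rw [← List.take_append_drop P.length Y', e1]
  refine ⟨P, Y'.drop P.length, c, c', e2, hL, ?_, ?_⟩
  · refine RR_imp (A := A - P.length) hb (by omega) hRC ?_ ?_ ?_ hR
    · have := congrArg (List.drop P.length) ht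
      rw [List.take_append, List.drop_append, List.take_of_length_le hPA] at this
      simpa [List.drop_take] using this
    · have h1 : P.length + Q.length ≡ P.length + (Y'.drop P.length).length [MOD M * p.b ^ p.m] := by
        rw [← List.length_append, ← List.length_append, e2]; exact h
      exact Nat.ModEq.add_left_cancel' _ h1
    · have h1 : (P ++ Q).drop A = Q.drop (A - P.length) := by
        rw [List.drop_append, List.drop_eq_nil_of_le hPA, List.nil_append]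
      have h2 : (Y'.drop P.length).drop (A - P.length) = Y'.drop A := by
        rw [List.drop_drop]; congr 1; omega
      rw [h2, ← h1, hd]
  · unfold val
    have h1 : ph p.φ (P ++ Q) = ph p.φ Y' := by
      rw [← List.take_append_drop A (P ++ Q), ← List.take_append_drop A Y', ph_append, ph_append]
      rw [ht, hd]
    rw [h1]

theorem nu_state (hb : 0 < p.b) (hlv : ∀ c, p.lv c < p.m) {M A : ℕ} (hA : 2 * p.b ^ p.m ≤ A)
    (hRC : ∀ c t, p.RC c (t + M) ↔ p.RC c t) {Y Y' : List α} (hl : A ≤ Y.length)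
    (hl' : A ≤ Y'.length)
    (ht : Y.take A = Y'.take A) (h : Y.length % (M * p.b ^ p.m) = Y'.length % (M * p.b ^ p.m))
    (hd : ph p.φ (Y.drop A) = ph p.φ (Y'.drop A)) : nu p Y = nu p Y' := by
  apply nu_congr
  funext x
  exact propext ⟨Pr_imp hb hlv hA hRC hl hl' ht h hd,
    Pr_imp hb hlv hA hRC hl' hl ht.symm h.symm hd.symm⟩

/-- the names of 755 / 570, with uniqueness at one clock value -/
theorem exists_names6 {S : Type uS} {V : Type uV} {W : Type uW} [Monoid S] [Finite S]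
    [AddCommGroup V] [Finite V] [AddCommGroup W] [Finite W] (act : V → S → V) (e : ℕ → S → W)
    (F : S → W → V) (m : ℕ) :
    ∃ r : ℕ, ∀ B0 : ℕ, ∃ (Ms : Finset ℕ) (Nm : Type (max uS uV uW)) (_ : Finite Nm)
      (LC RC : Nm → ℕ → Prop)
      (lv : Nm → ℕ) (gg : Nm → S) (wl : Nm → W) (hh : Nm → S) (wr : Nm → W) (vv bb : Nm → V),
      Ms.card ≤ r ∧ (∀ p ∈ Ms, p.Prime ∧ B0 < p) ∧ (∀ c, lv c < m) ∧
      (∀ c d t, LC c t → LC d t → c = d) ∧ (∀ c d t, RC c t → RC d t → c = d) ∧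
      (∀ c t, LC c (t + ∏ p ∈ Ms, p) ↔ LC c t) ∧ (∀ c t, RC c (t + ∏ p ∈ Ms, p) ↔ RC c t) ∧
      (∀ c z, F (gg c * z * hh c) (wl c + e (lv c) z + wr c) + act (vv c) (gg c * z * hh c) =
        bb c) ∧
      (∀ c c' d d' o o' q q', LC c o → RC c' o' → LC d q → RC d' q' → o + o' = q + q' →
        (c = c' ∧ d = d') ∨ (vv c = vv d ∧ bb c' = bb d')) ∧
      (∀ T : ℕ, (∀ p ∈ Ms, ¬ p ∣ T) → ∀ i < m, ∀ s, s + ∏ p ∈ Ms, p ≤ T + 1 →
        ∀ (g : S) (wl' : W) (k : S) (wr' : W) (v b : V),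
        (∀ z, F (g * z * k) (wl' + e i z + wr') + act v (g * z * k) = b) →
        ∃ c om, lv c = i ∧ gg c = g ∧ wl c = wl' ∧ hh c = k ∧ wr c = wr' ∧ vv c = v ∧
          (s ≤ om ∧ om < s + ∏ p ∈ Ms, p) ∧ om ≤ T ∧ LC c om ∧ RC c (T - om)) := by
  classical
  let N0 := Fin m × S × W × S × W × V
  let bv : N0 → V := fun n =>
    F (n.2.1 * 1 * n.2.2.2.1) (n.2.2.1 + e n.1 1 + n.2.2.2.2.1) +
      act n.2.2.2.2.2 (n.2.1 * 1 * n.2.2.2.1)
  let gd : N0 → Prop := fun n => ∀ z,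
    F (n.2.1 * z * n.2.2.2.1) (n.2.2.1 + e n.1 z + n.2.2.2.2.1) +
      act n.2.2.2.2.2 (n.2.1 * z * n.2.2.2.1) = bv n
  let Nm := {n : N0 // gd n}
  let col : Nm → V × V := fun n => (n.1.2.2.2.2.2, bv n.1)
  obtain ⟨r, hr⟩ := Names_570.exists_names col
  refine ⟨r, fun B0 => ?_⟩
  obtain ⟨Ms, nmL, nmR, hcard, hprime, hpL, hpR, hN1, hN3, hN2⟩ := hr B0
  refine ⟨Ms, Nm, inferInstance, fun c t => nmL t = some c, fun c t => nmR t = some c,
    fun c => (c.1.1 : ℕ), fun c => c.1.2.1, fun c => c.1.2.2.1, fun c => c.1.2.2.2.1,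
    fun c => c.1.2.2.2.2.1, fun c => c.1.2.2.2.2.2, fun c => bv c.1, hcard, hprime,
    fun c => c.1.1.2, fun c d t h h' => Option.some_inj.1 (h.symm.trans h'),
    fun c d t h h' => Option.some_inj.1 (h.symm.trans h'),
    fun c t => by show nmL _ = _ ↔ nmL _ = _; rw [hpL],
    fun c t => by show nmR _ = _ ↔ nmR _ = _; rw [hpR], fun c z => c.2 z, ?_, ?_⟩
  · intro c c' d d' o o' q q' h1 h2 h3 h4 h5
    by_cases hB : ∃ p ∈ Ms, p ∣ o + o'
    · right
      rcases hN2 o o' q q' c c' d d' h5 hB h1 h2 h3 h4 with ⟨rfl, rfl⟩ | ⟨rfl, rfl, hc⟩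
      · exact ⟨rfl, rfl⟩
      · exact ⟨congrArg Prod.fst hc, (congrArg Prod.snd hc).symm⟩
    · left
      push Not at hB
      refine ⟨hN1 o o' c c' hB h1 h2, hN1 q q' d d' ?_ h3 h4⟩
      rw [← h5]; exact hB
  · intro T hT i hi s hs g wl' k wr' v b hb
    have hgd : gd (⟨i, hi⟩, g, wl', k, wr', v) := by
      intro z
      exact (hb z).trans (hb 1).symm
    obtain ⟨t, ht1, ht2, ht3, ht4, ht5⟩ := hN3 T ⟨(⟨i, hi⟩, g, wl', k, wr', v), hgd⟩ s hT hs
    exact ⟨⟨(⟨i, hi⟩, g, wl', k, wr', v), hgd⟩, t, rfl, rfl, rfl, rfl, rfl, rfl, ⟨ht1, ht2⟩, ht3,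
      ht4, ht5⟩

/-- **The digit gadget.**  `m`, `r` depend on `S`, `V` only. -/
theorem digit_gadget (S : Type uS) (V : Type uV) [Monoid S] [Fintype S] [AddCommGroup V]
    [Fintype V] (act : V → S → V) :
    ∃ m r : ℕ, ∀ B0 : ℕ, ∃ Ms : Finset ℕ, Ms.card ≤ r ∧ (∀ q ∈ Ms, q.Prime ∧ B0 < q) ∧
      ∀ b : ℕ, 4 * ∏ q ∈ Ms, q < b → Nat.Coprime b (∏ q ∈ Ms, q) →
      ∀ (α : Type*) (φ : α → S), ∃ (lam rho : List α → Option V) (nu : List α → V),
        (∀ P v, lam P = some v → P.length < b ^ m) ∧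
        (∀ P Q v v', lam P = some v → rho Q = some v' →
          v' = act v (ph φ (P ++ Q)) + nu (P ++ Q)) ∧
        (∀ Y : List α, ∏ q ∈ Ms, q ≤ Y.length → (∀ q ∈ Ms, ¬ q ∣ Y.length) →
          (∀ i < m, ∏ q ∈ Ms, q ≤ Y.length / b ^ i % b ∧
            Y.length / b ^ i % b + ∏ q ∈ Ms, q < b) →
          ∀ v, ∃ P Q, P ++ Q = Y ∧ lam P = some v ∧ (rho Q).isSome) ∧
        (∀ A, b ^ m ≤ A → ∀ Q Q' : List α, Q.take A = Q'.take A →
          Q.length % ((∏ q ∈ Ms, q) * b ^ m) = Q'.length % ((∏ q ∈ Ms, q) * b ^ m) →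
          ph φ (Q.drop A) = ph φ (Q'.drop A) → rho Q = rho Q') ∧
        (∀ A, 2 * b ^ m ≤ A → ∀ Q Q' : List α, A ≤ Q.length → A ≤ Q'.length →
          Q.take A = Q'.take A →
          Q.length % ((∏ q ∈ Ms, q) * b ^ m) = Q'.length % ((∏ q ∈ Ms, q) * b ^ m) →
          ph φ (Q.drop A) = ph φ (Q'.drop A) → nu Q = nu Q') := by
  classical
  obtain ⟨m, N, e, F, hN, hF⟩ := RandF808.exists_noise S V act
  have : NeZero N := ⟨hN.ne'⟩
  obtain ⟨r, hr⟩ := exists_names6 act e F m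
  refine ⟨m, r, fun B0 => ?_⟩
  obtain ⟨Ms, Nm, hNm, LC, RC, lv, gg, wl, hh, wr, vv, bb, hcard, hprime, hlv, huL, huR, hpL, hpR,
    hgood, hnames, havail⟩ := hr B0
  refine ⟨Ms, hcard, hprime, ?_⟩
  intro b hb4 hbco α φ
  have hMpos : 0 < ∏ q ∈ Ms, q := Finset.prod_pos fun q hq => (hprime q hq).1.pos
  have hb : 0 < b := by omega
  let p : Cfg α S V (ZMod N × ZMod N) Nm :=
    { φ := φ, act := act, b := b, m := m, e := e, F := F, LC := LC, RC := RC, lv := lv, gg := gg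
      wl := wl, hh := hh, wr := wr, vv := vv, bb := bb }
  have hok : Ok p := ⟨hb, hgood, hnames⟩
  let lam : List α → Option V := fun P => if h : ∃ c, LL p P c then some (vv h.choose) else none
  let rho : List α → Option V := fun Q => if h : ∃ c, RR p Q c then some (bb h.choose) else none
  have hlam : ∀ P v, lam P = some v ↔ ∃ c, LL p P c ∧ vv c = v := by
    intro P v
    constructor
    · intro h
      by_cases hc : ∃ c, LL p P c
      · simp only [lam, dif_pos hc, Option.some.injEq] at h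
        exact ⟨hc.choose, hc.choose_spec, h⟩
      · simp only [lam, dif_neg hc] at h
        exact absurd h (by simp)
    · rintro ⟨c, hc, rfl⟩
      have hc' : ∃ c, LL p P c := ⟨c, hc⟩
      have : hc'.choose = c := huL _ _ _ hc'.choose_spec.1 hc.1
      simp only [lam, dif_pos hc', this]
  have hrho : ∀ Q v, rho Q = some v ↔ ∃ c, RR p Q c ∧ bb c = v := by
    intro P v
    constructor
    · intro h
      by_cases hc : ∃ c, RR p P c
      · simp only [rho, dif_pos hc, Option.some.injEq] at h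
        exact ⟨hc.choose, hc.choose_spec, h⟩
      · simp only [rho, dif_neg hc] at h
        exact absurd h (by simp)
    · rintro ⟨c, hc, rfl⟩
      have hc' : ∃ c, RR p P c := ⟨c, hc⟩
      have : hc'.choose = c := huR _ _ _ hc'.choose_spec.1 hc.1
      simp only [rho, dif_pos hc', this]
  refine ⟨lam, rho, nu p, ?_, ?_, ?_, ?_, ?_⟩
  · intro P v h
    obtain ⟨c, hc, -⟩ := (hlam P v).1 h
    exact LL_len (p := p) hb hlv hc
  · intro P Q v v' h h'
    obtain ⟨c, hc, rfl⟩ := (hlam P v).1 h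
    obtain ⟨c', hc', rfl⟩ := (hrho Q v').1 h'
    exact hok.sound hc hc'
  · intro Y hY hB hdig v
    obtain ⟨P, Q, c, h1, h2, h3, h4⟩ := hok.complete hMpos hbco hpL hpR Y v (hF _ _ v)
      (by
        intro i hi g wl' k wr' b' hb'
        obtain ⟨c, om, h1, h2, h3, h4, h5, h6, h7, h8, h9, h10⟩ :=
          havail Y.length hB i hi 0 (by omega) g wl' k wr' v b' hb'
        exact ⟨c, om, h1, h2, h3, h4, h5, h6, h8, h9, h10⟩) hdig
    refine ⟨P, Q, h1, (hlam P v).2 ⟨c, h2, h4⟩, ?_⟩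
    rw [(hrho Q (bb c)).2 ⟨c, h3, rfl⟩]
    rfl
  · intro A hA Q Q' ht hl hd
    have := RR_congr (p := p) hb hA hpR ht hl hd
    simp only [rho]
    rw [this]
  · intro A hA Q Q' hq hq' ht hl hd
    exact nu_state (p := p) hb hlv hA hpR hq hq' ht hl hd

end Crest.Agent.R320.Gad_112
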