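import Crest.Agent.R320.Gad_464

/-!
# Row 320: the black box `Gad` of helper467 (#13839), literally (helper464)
-/

set_option autoImplicit false

namespace Crest.Agent.R320.Gad2_464

open Crest.Agent.R320.Grid_464 Crest.Agent.R320.Gad_464

open Classical in
/-- 467 #13839, literally -/
def Gad (α S V : Type) [Monoid S] [AddCommGroup V] (f : α → S) (act : V → S → V) : Prop :=
  ∃ C0 : ℕ, ∀ K : ℕ, ∃ (N M0 : ℕ) (c : ℕ → ℕ) (BadT : ℕ → Prop)
    (lam rho : List α → Option V) (nu : List α → V), 0 < N ∧ 0 < M0 ∧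
    (∀ P v, lam P = some v → P.length < N) ∧
    (∀ P Q v b, lam P = some v → rho Q = some b →
      act v ((P ++ Q).map f).prod + nu (P ++ Q) = b) ∧
    (∀ X v, N ≤ X.length → ¬ BadT X.length →
      ∃ P Q b, P ++ Q = X ∧ lam P = some v ∧ rho Q = some b) ∧
    (∀ T, BadT (T + M0) ↔ BadT T) ∧
    (∀ u u' : List α, N ≤ u.length → N ≤ u'.length → u.take N = u'.take N →
      u.length % M0 = u'.length % M0 → (u.map f).prod = (u'.map f).prod → nu u = nu u') ∧
    (∀ i j, i < j → j < K → c i < c j) ∧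
    (∀ i j k l, i < K → j < K → k < K → l < K → i ≠ j →
      (c i : ℤ) - c j ≤ c k - c l + 2 * N → (c k : ℤ) - c l ≤ c i - c j + 2 * N →
      i = k ∧ j = l) ∧
    (∀ T : ℕ, (∀ i < K, c i ≤ T) →
      ((Finset.range K ×ˢ Finset.range K).filter
        (fun p => p.1 ≠ p.2 ∧ BadT (T + c p.2 - c p.1))).card ≤ C0)

theorem Af_step (M Γ j : ℕ) : Af M Γ (j + 1) = Af M Γ j + Γ ^ j + M * Γ ^ j := rfl

theorem not_bad {Ms : Finset ℕ} {M Γ m T : ℕ} (hΓ : 0 < Γ) (h : ¬ BadZ Ms M Γ m (T : ℤ)) {j : ℕ}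
    (hj : 1 ≤ j) (hjm : j ≤ m) (hT : Af M Γ j ≤ T) :
    M * Γ ^ (j - 1) < (T - Af M Γ j) % Γ ^ j ∧
      (T - Af M Γ j) % Γ ^ j + M * Γ ^ (j - 1) < Γ ^ j := by
  set r := (T - Af M Γ j) % Γ ^ j with hr
  set k := (T - Af M Γ j) / Γ ^ j with hk
  have hdiv : Γ ^ j * k + r = T - Af M Γ j := Nat.div_add_mod _ _
  have hG : 0 < Γ ^ j := by positivity
  have hrl : r < Γ ^ j := Nat.mod_lt _ hG
  have hz : (T : ℤ) - Af M Γ j = (Γ : ℤ) ^ j * k + r := by
    have : T = Γ ^ j * k + r + Af M Γ j := by omega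
    rw [this]; push_cast; ring
  constructor
  · by_contra hlt
    push Not at hlt
    apply h
    refine Or.inr ⟨j, hj, hjm, (r : ℤ), ?_, ?_⟩
    · rw [abs_of_nonneg (by positivity)]
      exact_mod_cast hlt
    · rw [hz]
      exact ⟨k, by ring⟩
  · by_contra hlt
    push Not at hlt
    apply h
    refine Or.inr ⟨j, hj, hjm, (r : ℤ) - (Γ : ℤ) ^ j, ?_, ?_⟩
    · have h1 : (r : ℤ) < (Γ : ℤ) ^ j := by exact_mod_cast hrl
      have h2 : (Γ : ℤ) ^ j ≤ r + M * Γ ^ (j - 1) := by exact_mod_cast hlt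
      rw [abs_le]
      constructor
      · linarith
      · have : (0 : ℤ) ≤ M * Γ ^ (j - 1) := by positivity
        linarith
    · rw [hz]
      exact ⟨k + 1, by ring⟩

theorem exists_place {M G s t T : ℕ} (hM : 0 < M) (hG : 0 < G) (hco : Nat.Coprime M G) :
    ∃ o, s ≤ o ∧ o < s + M * G ∧ o ≡ t [MOD M] ∧ o ≡ T [MOD G] := by
  obtain ⟨k, hk1, hk2⟩ := Nat.chineseRemainder hco t T
  have hMG : 0 < M * G := Nat.mul_pos hM hG
  have hle : s ≤ k + M * G * s := by nlinarith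
  refine ⟨s + (k + M * G * s - s) % (M * G), by omega,
    by have := Nat.mod_lt (k + M * G * s - s) hMG; omega, ?_, ?_⟩
  all_goals
    have h1 : s + (k + M * G * s - s) % (M * G) ≡ s + (k + M * G * s - s) [MOD M * G] :=
      (Nat.ModEq.refl s).add (Nat.mod_modEq _ _)
    have h2 : s + (k + M * G * s - s) = k + M * G * s := by omega
    rw [h2] at h1
    have h3 : k + M * G * s ≡ k [MOD M * G] := by
      have : M * G * s ≡ 0 [MOD M * G] := (Nat.modEq_zero_iff_dvd).2 (dvd_mul_right _ _)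
      exact (Nat.ModEq.refl k).add this
    have h4 := h1.trans h3
  · exact (h4.of_dvd (dvd_mul_right M G)).trans hk1
  · exact (h4.of_dvd (dvd_mul_left G M)).trans hk2

set_option maxHeartbeats 1000000 in
theorem gad (α S V : Type) [Monoid S] [Finite S] [AddCommGroup V] [Finite V] (f : α → S)
    (act : V → S → V) : Gad α S V f act := by
  classical
  have := Fintype.ofFinite S
  have := Fintype.ofFinite V
  obtain ⟨m, N', e, F, hN', hF⟩ := _root_.Crest.Agent.R320.RandF808.exists_noise S V act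
  have : NeZero N' := ⟨by omega⟩
  let W := ZMod N' × ZMod N'
  let Nm := Fin m × S × W × S × W × V × V
  obtain ⟨r, hr⟩ := _root_.Crest.Agent.R320.Names755.names Nm (V × V) (fun c => (c.2.2.2.2.2.1, c.2.2.2.2.2.2))
  refine ⟨r + m, fun K => ?_⟩
  obtain ⟨Ms, M, nmL, nmR, hcard, hMs, hM, perL, perR, h1, h2, h3⟩ := hr (2 ^ (K + 2))
  set Γ := 2 ^ (K + 5) * M + 1 with hΓ
  have hΓ0 : 0 < Γ := by omega
  have hco : ∀ j, Nat.Coprime M (Γ ^ j) := by
    intro j
    apply Nat.Coprime.pow_right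
    rw [hΓ]
    rw [Nat.coprime_mul_right_add_right]
    exact Nat.coprime_one_right M
  let p : Par α S V W Nm :=
    { ph := fun w => (w.map f).prod
      act := act
      m := m
      G := fun j => Γ ^ j
      A := Af M Γ
      e := e
      F := F
      nL := nmL
      nR := nmR
      lv := fun c => c.1
      gg := fun c => c.2.1
      wl := fun c => c.2.2.1
      hh := fun c => c.2.2.2.1
      wr := fun c => c.2.2.2.2.1
      vv := fun c => c.2.2.2.2.2.1
      bb := fun c => c.2.2.2.2.2.2 }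
  have hok : p.Ok :=
    { mul := fun u v => by show ((u ++ v).map f).prod = _; simp [p]
      Gpos := fun j => by show 0 < Γ ^ j; positivity
      Gdvd := fun j => pow_dvd_pow Γ (Nat.le_succ j)
      Astep := fun j => by show Af M Γ j + Γ ^ j ≤ Af M Γ (j + 1); rw [Af_step]; omega
      names := by
        intro c c' d d' o o' q q' e1 e2 e3 e4 e5
        by_cases hb : ∃ k ∈ Ms, k ∣ o + o'
        · obtain ⟨a, b⟩ := h3 o o' q q' c c' d d' e1 e2 e3 e4 e5 hb
          exact Or.inr ⟨(Prod.ext_iff.1 a).1, (Prod.ext_iff.1 b).2⟩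
        · push Not at hb
          have hb' := hb
          rw [e5] at hb'
          exact Or.inl ⟨h1 o o' c c' e1 e2 hb, h1 q q' d d' e3 e4 hb'⟩ }
  set N0 := 2 * (Af M Γ m + Γ ^ m) + M + 1 with hN0
  -- the ruler
  obtain ⟨X0, hX01, hX02⟩ := Nat.chineseRemainder (hco m) 1 (sf M Γ m)
  set X := X0 + M * Γ ^ m * (2 * N0 + 1) with hX
  have hMG : 0 < M * Γ ^ m := by positivity
  have hXbig : 2 * N0 < X := by nlinarith
  have hX1 : X ≡ 1 [MOD M] := by
    have : M * Γ ^ m * (2 * N0 + 1) ≡ 0 [MOD M] :=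
      (Nat.modEq_zero_iff_dvd).2 ((dvd_mul_right _ _).mul_right _)
    exact (hX01.add this)
  have hX2 : X ≡ sf M Γ m [MOD Γ ^ m] := by
    have : M * Γ ^ m * (2 * N0 + 1) ≡ 0 [MOD Γ ^ m] :=
      (Nat.modEq_zero_iff_dvd).2 ((dvd_mul_left _ _).mul_right _)
    exact (hX02.add this)
  refine ⟨N0, M * Γ ^ m, fun k => X * 2 ^ k, fun T => BadZ Ms M Γ m (T : ℤ), p.lam, p.rho, nu p,
    by omega, hMG, ?_, ?_, ?_, ?_, ?_, ?_, ?_, ?_⟩
  · intro P v hP
    obtain ⟨c, hc, -⟩ := lam_spec hP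
    have h4 : P.length < Af M Γ (c.1 + 1) := hc.2.2.2.1
    have h5 : Af M Γ (c.1 + 1) ≤ Af M Γ m := hok.A_mono c.1.2
    omega
  · intro P Q v b hP hQ
    exact sound hok hP hQ
  · intro u v hu hbad
    have hbk : ∀ k ∈ Ms, ¬ k ∣ u.length := by
      intro k hk hd
      exact hbad (Or.inl ⟨k, hk, by exact_mod_cast hd⟩)
    have hAM : ∀ j ≤ m, Af M Γ j ≤ Af M Γ m := fun j hj => hok.A_mono hj
    obtain ⟨P, Q, e1, e2, e3⟩ := hok.complete u v
      (by show 2 * (Af M Γ m + Γ ^ m) ≤ u.length; omega)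
      (by
        obtain ⟨i, hi, hh⟩ := hF (p.ph u) (p.wt u) v
        exact ⟨i, hi, hh⟩)
      (by
        intro i hi g wl k wr b
        exact ⟨(⟨i, hi⟩, g, wl, k, wr, v, b), rfl, rfl, rfl, rfl, rfl, rfl, rfl⟩)
      (by
        intro c hc
        obtain ⟨t, ht, ht1, ht2⟩ := h2 u.length hbk c
        obtain ⟨o, o1, o2, o3, o4⟩ := exists_place (M := M) (G := Γ ^ (c.1 : ℕ))
          (s := Af M Γ c.1 + Γ ^ (c.1 : ℕ)) (t := t) (T := u.length) hM (by positivity) (hco _)
        have h5 : Af M Γ (c.1 + 1) ≤ Af M Γ m := hAM _ c.1.2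
        have h6 := Af_step M Γ c.1
        have hou : o ≤ u.length := by omega
        refine ⟨o, o1, ?_, ?_, ?_, ?_⟩
        · show o < Af M Γ (c.1 + 1)
          omega
        · show nmL o = some c
          have hp : Function.Periodic nmL M := perL
          rw [← hp.map_mod_nat, show o % M = t % M from o3, hp.map_mod_nat]
          exact ht1
        · exact (Nat.modEq_iff_dvd' hou).1 o4
        · show nmR (u.length - o) = some c
          apply ht2
          have h7 : t + (u.length - o) ≡ o + (u.length - o) [MOD M] :=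
            o3.symm.add (Nat.ModEq.refl _)
          have h8 : o + (u.length - o) = u.length := by omega
          rw [h8] at h7
          exact h7)
      (by
        intro i j o o' hij hj a1 a2 a3 a4
        have hjm : j ≤ m := hj
        have b1 : Af M Γ i + Γ ^ i ≤ o := a1
        have b2 : o < Af M Γ (i + 1) := a2
        have b3 : Af M Γ i + Γ ^ i ≤ o' := a3
        have b4 : o' < Af M Γ (i + 1) := a4
        have h6 := Af_step M Γ i
        have h7 : Af M Γ (i + 1) ≤ Af M Γ j := hok.A_mono hij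
        have h8 := hAM j hjm
        obtain ⟨n1, n2⟩ := not_bad hΓ0 hbad (by omega : 1 ≤ j) hjm (by omega)
        have h9 : M * Γ ^ i ≤ M * Γ ^ (j - 1) :=
          Nat.mul_le_mul_left _ (Nat.pow_le_pow_right hΓ0 (by omega))
        show Af M Γ j + (o' + (u.length - o) - Af M Γ j) % Γ ^ j - o' =
          Af M Γ j + (u.length - Af M Γ j) % Γ ^ j - o
        set rr := (u.length - Af M Γ j) % Γ ^ j with hrr
        set kk := (u.length - Af M Γ j) / Γ ^ j with hkk
        have hdiv : Γ ^ j * kk + rr = u.length - Af M Γ j := Nat.div_add_mod _ _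
        have h10 : o' + (u.length - o) - Af M Γ j = (rr + o' - o) + Γ ^ j * kk := by omega
        rw [h10, Nat.add_mul_mod_self_left, Nat.mod_eq_of_lt (by omega)]
        omega)
    obtain ⟨b, hb⟩ := Option.isSome_iff_exists.1 e3
    exact ⟨P, Q, b, e1, e2, hb⟩
  · intro T
    have hdv : ∀ j ≤ m, ((Γ : ℤ) ^ j) ∣ ((M * Γ ^ m : ℕ) : ℤ) := by
      intro j hj
      push_cast
      exact (pow_dvd_pow _ hj).mul_left _
    have hdk : ∀ k ∈ Ms, (k : ℤ) ∣ ((M * Γ ^ m : ℕ) : ℤ) := by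
      intro k hk
      have : k ∣ M * Γ ^ m := (hMs k hk).2.2.mul_right _
      exact_mod_cast this
    show BadZ Ms M Γ m ((T + M * Γ ^ m : ℕ) : ℤ) ↔ BadZ Ms M Γ m (T : ℤ)
    have hcast : ((T + M * Γ ^ m : ℕ) : ℤ) = (T : ℤ) + ((M * Γ ^ m : ℕ) : ℤ) := by push_cast; ring
    rw [hcast]
    unfold BadZ
    constructor
    · rintro (⟨k, hk, hd⟩ | ⟨j, j1, j2, d, d1, d2⟩)
      · exact Or.inl ⟨k, hk, (dvd_add_left (hdk k hk)).1 hd⟩
      · refine Or.inr ⟨j, j1, j2, d, d1, ?_⟩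
        have h4 := dvd_sub d2 (hdv j j2)
        have h5 : (T : ℤ) + ((M * Γ ^ m : ℕ) : ℤ) - Af M Γ j - d - ((M * Γ ^ m : ℕ) : ℤ) =
          (T : ℤ) - Af M Γ j - d := by ring
        rwa [h5] at h4
    · rintro (⟨k, hk, hd⟩ | ⟨j, j1, j2, d, d1, d2⟩)
      · exact Or.inl ⟨k, hk, (dvd_add_left (hdk k hk)).2 hd⟩
      · refine Or.inr ⟨j, j1, j2, d, d1, ?_⟩
        have h4 := dvd_add d2 (hdv j j2)
        have h5 : (T : ℤ) - Af M Γ j - d + ((M * Γ ^ m : ℕ) : ℤ) =
          (T : ℤ) + ((M * Γ ^ m : ℕ) : ℤ) - Af M Γ j - d := by ring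
        rwa [h5] at h4
  · intro u u' hu hu' ht hl hprod
    have hl1 : u.length ≡ u'.length [MOD M * Γ ^ m] := hl
    refine nu_congr hok hM perL perR (hl1.of_dvd (dvd_mul_right _ _)) (by omega) (by omega)
      hprod ?_
    exact wt_congr hok (N := N0) (by show Af M Γ m + Γ ^ m ≤ N0; omega)
      (hl1.of_dvd (dvd_mul_left _ _)) hu hu' ht
  · intro i j hij _
    show X * 2 ^ i < X * 2 ^ j
    exact Nat.mul_lt_mul_of_pos_left (Nat.pow_lt_pow_right (by norm_num) hij) (by omega)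
  · intro i j k l hi hj hk hl hij hle1 hle2
    push_cast at hle1 hle2
    have hXz : (2 * N0 : ℤ) < X := by exact_mod_cast hXbig
    have h4 : (2 : ℤ) ^ i - 2 ^ j = 2 ^ k - 2 ^ l := by
      by_contra hne
      rcases lt_or_gt_of_ne hne with hlt | hlt
      · have h5 : (2 : ℤ) ^ i - 2 ^ j + 1 ≤ 2 ^ k - 2 ^ l := hlt
        nlinarith
      · have h5 : (2 : ℤ) ^ k - 2 ^ l + 1 ≤ 2 ^ i - 2 ^ j := hlt
        nlinarith
    exact sidon hij h4
  · intro T hT
    have h4 := thin Ms (K := K) (M := M) (Γ := Γ) (m := m) (X := X) hM le_rfl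
      (fun k hk => ⟨(hMs k hk).1, (hMs k hk).2.2⟩) hX1 hX2 (T : ℤ)
      (fun T => BadZ Ms M Γ m T) (fun _ h => h)
    refine le_trans (Finset.card_le_card ?_) (h4.trans (Nat.add_le_add_right hcard m))
    intro q hq
    rw [Finset.mem_filter] at hq ⊢
    obtain ⟨q1, q2, q3⟩ := hq
    refine ⟨q1, q2, ?_⟩
    have hq1 := (Finset.mem_product.1 q1)
    have h5 := hT q.1 (Finset.mem_range.1 hq1.1)
    have h6 : ((T + X * 2 ^ q.2 - X * 2 ^ q.1 : ℕ) : ℤ) = (T : ℤ) + X * 2 ^ q.2 - X * 2 ^ q.1 := by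
      have h7 : X * 2 ^ q.1 ≤ T := h5
      rw [Nat.cast_sub (by omega)]
      push_cast
      ring
    rw [← h6]
    exact q3

end Crest.Agent.R320.Gad2_464
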