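import Crest.Agent.R320.GadR_347

/-!
# Row 320: the ruler of the grid gadget, part 2 (helper347)
-/

set_option autoImplicit false

namespace Crest.Agent.R320.Gad_347

lemma sum_pow_le {Gm : ℕ} (hG : 2 ≤ Gm) (j : ℕ) :
    ∑ i ∈ Finset.range (j + 1), Gm ^ i ≤ 2 * Gm ^ j := by
  induction j with
  | zero => simp
  | succ j ih =>
    rw [Finset.sum_range_succ]
    have : 2 * Gm ^ j ≤ Gm ^ (j + 1) := by
      rw [pow_succ, mul_comm]; exact Nat.mul_le_mul_left _ hG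
    omega

/-- at most one pair for a band -/
lemma one_band {M Gm m K j T : ℕ} (hM : 0 < M) (hj : j < m) (hG : 2 ^ (K + 6) * M ≤ Gm)
    {a b a' b' : ℕ} (ha : a < K) (hb : b < K) (ha' : a' < K) (hb' : b' < K)
    (h1 : a ≠ b) (h2 : a' ≠ b') (hT : ∀ k < K, rl M Gm m k ≤ T)
    (d1 : ∃ y, Am M Gm (j + 1) ≤ y + M * Gm ^ j ∧ y < Am M Gm (j + 1) + M * Gm ^ j ∧
      y ≡ T + rl M Gm m a - rl M Gm m b [MOD Gm ^ (j + 1)])
    (d2 : ∃ y, Am M Gm (j + 1) ≤ y + M * Gm ^ j ∧ y < Am M Gm (j + 1) + M * Gm ^ j ∧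
      y ≡ T + rl M Gm m a' - rl M Gm m b' [MOD Gm ^ (j + 1)]) :
    a = a' ∧ b = b' := by
  by_contra hne
  have h3 : a ≠ a' ∨ b ≠ b' := by
    by_contra h; push Not at h; exact hne h
  have hg := golomb h1 h2 h3
  obtain ⟨y, y1, y2, y3⟩ := d1
  obtain ⟨y', z1, z2, z3⟩ := d2
  have c1 : ((Gm ^ (j + 1) : ℕ) : ℤ) ∣ (T : ℤ) + rl M Gm m a - rl M Gm m b - y := by
    have := (Nat.modEq_iff_dvd.1 y3)
    rwa [Nat.cast_sub (by have := hT b hb; omega), Nat.cast_add] at this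
  have c2 : ((Gm ^ (j + 1) : ℕ) : ℤ) ∣ (T : ℤ) + rl M Gm m a' - rl M Gm m b' - y' := by
    have := (Nat.modEq_iff_dvd.1 z3)
    rwa [Nat.cast_sub (by have := hT b' hb'; omega), Nat.cast_add] at this
  have c3 := dvd_sub c1 c2
  -- the base modulo `Gm ^ (j + 1)`
  obtain ⟨B', hB'⟩ : ∃ B', B' = 1 + 4 * (M * ∑ i ∈ Finset.range (j + 1), Gm ^ i) := ⟨_, rfl⟩
  have hB : ((Gm ^ (j + 1) : ℕ) : ℤ) ∣ (Bs M Gm m : ℤ) - B' := by
    have e : Finset.range (m + 1) = Finset.range ((j + 1) + (m - j)) := by congr 1; omega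
    have e2 : (Bs M Gm m : ℤ) - B' = ((Gm ^ (j + 1) : ℕ) : ℤ) *
        (4 * (M : ℤ) * ∑ i ∈ Finset.range (m - j), (Gm : ℤ) ^ i) := by
      unfold Bs
      rw [hB', e, Finset.sum_range_add, Finset.mul_sum (Finset.range (j + 1))]
      push_cast
      have e3 : ∑ x ∈ Finset.range (m - j), (M : ℤ) * (Gm : ℤ) ^ (j + 1 + x)
          = (Gm : ℤ) ^ (j + 1) * (M * ∑ i ∈ Finset.range (m - j), (Gm : ℤ) ^ i) := by
        rw [Finset.mul_sum, Finset.mul_sum]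
        refine Finset.sum_congr rfl fun x _ => ?_
        rw [pow_add]; ring
      rw [e3]
      ring
    rw [e2]
    exact dvd_mul_right _ _
  have c4 : ((Gm ^ (j + 1) : ℕ) : ℤ) ∣
      ((2 : ℤ) ^ a + 2 ^ b' - 2 ^ a' - 2 ^ b) * B' - ((y : ℤ) - y') := by
    have e : ((2 : ℤ) ^ a + 2 ^ b' - 2 ^ a' - 2 ^ b) * B' - ((y : ℤ) - y')
      = ((T : ℤ) + rl M Gm m a - rl M Gm m b - y - (T + rl M Gm m a' - rl M Gm m b' - y'))
        - ((2 : ℤ) ^ a + 2 ^ b' - 2 ^ a' - 2 ^ b) * ((Bs M Gm m : ℤ) - B') := by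
      unfold rl
      push_cast
      ring
    rw [e]
    exact dvd_sub c3 (hB.mul_left _)
  have l1 : ∀ k < K, (2 : ℤ) ^ k < 2 ^ K := fun k hk => by
    exact_mod_cast Nat.pow_lt_pow_right (by norm_num) hk
  have l2 : ∀ k : ℕ, (0 : ℤ) < 2 ^ k := fun k => by positivity
  have hne0 : (2 : ℤ) ^ a + 2 ^ b' - 2 ^ a' - 2 ^ b ≠ 0 := by
    intro h0
    apply hg
    have : (2 : ℤ) ^ a + 2 ^ b' = 2 ^ a' + 2 ^ b := by linarith
    exact_mod_cast this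
  generalize hd : (2 : ℤ) ^ a + 2 ^ b' - 2 ^ a' - 2 ^ b = d at c4 hne0
  have hdK : |d| < 2 * 2 ^ K := by
    rw [← hd, abs_lt]
    have m1 := l1 a ha
    have m2 := l1 b hb
    have m3 := l1 a' ha'
    have m4 := l1 b' hb'
    have n1 := l2 a
    have n2 := l2 b
    have n3 := l2 a'
    have n4 := l2 b'
    constructor <;> linarith
  -- sizes
  obtain ⟨g, hgd⟩ : ∃ g, g = Gm ^ j := ⟨_, rfl⟩
  have hG2 : 2 ≤ Gm := by
    have : 1 ≤ 2 ^ K := Nat.one_le_two_pow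
    have e : 2 ^ (K + 6) = 64 * 2 ^ K := by ring
    rw [e] at hG
    nlinarith
  have hs := sum_pow_le hG2 j
  have hs1 : Gm ^ j ≤ ∑ i ∈ Finset.range (j + 1), Gm ^ i :=
    Finset.single_le_sum (f := fun i => Gm ^ i) (fun _ _ => Nat.zero_le _)
      (Finset.mem_range.2 (Nat.lt_succ_self j))
  rw [← hgd] at hs hs1 y1 y2 z1 z2
  have hgpos : 0 < g := by rw [hgd]; positivity
  have hBlo : 1 + 4 * (M * g) ≤ B' := by
    rw [hB']
    have := Nat.mul_le_mul_left M hs1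
    omega
  have hBhi : B' ≤ 1 + 8 * (M * g) := by
    rw [hB']
    have := Nat.mul_le_mul_left M hs
    have e : M * (2 * g) = 2 * (M * g) := by ring
    omega
  have hyy : |(y : ℤ) - y'| < 2 * (M * g : ℕ) := by
    rw [abs_lt]; constructor <;> omega
  have hMg : (1 : ℤ) ≤ ((M * g : ℕ) : ℤ) := by
    have : 1 ≤ M * g := Nat.mul_pos hM hgpos
    exact_mod_cast this
  have hbig : (2 * 2 ^ K * 9 + 2) * ((M * g : ℕ) : ℤ) < ((Gm ^ (j + 1) : ℕ) : ℤ) := by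
    have e : Gm ^ (j + 1) = Gm * g := by rw [hgd, pow_succ, mul_comm]
    have h5 : (2 ^ (K + 6) * M) * g ≤ Gm ^ (j + 1) := by
      rw [e]; exact Nat.mul_le_mul_right _ hG
    have h6 : (64 : ℤ) * 2 ^ K * ((M * g : ℕ) : ℤ) ≤ ((Gm ^ (j + 1) : ℕ) : ℤ) := by
      have : ((2 ^ (K + 6) * M * g : ℕ) : ℤ) ≤ ((Gm ^ (j + 1) : ℕ) : ℤ) := by exact_mod_cast h5
      calc (64 : ℤ) * 2 ^ K * ((M * g : ℕ) : ℤ) = ((2 ^ (K + 6) * M * g : ℕ) : ℤ) := by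
            push_cast; ring
        _ ≤ _ := this
    have h7 : (1 : ℤ) ≤ 2 ^ K := one_le_pow₀ (by norm_num)
    nlinarith
  have hne1 : d * B' - ((y : ℤ) - y') ≠ 0 := by
    intro h0
    have e1 : d * (B' : ℤ) = (y : ℤ) - y' := by linarith
    have e2 : |d| * (B' : ℤ) < 2 * ((M * g : ℕ) : ℤ) := by
      have : |d * (B' : ℤ)| = |d| * (B' : ℤ) := by
        rw [abs_mul, Nat.abs_cast]
      rw [← this, e1]; exact hyy
    have e3 : (1 : ℤ) ≤ |d| := Int.one_le_abs hne0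
    have e4 : ((1 + 4 * (M * g) : ℕ) : ℤ) ≤ (B' : ℤ) := by exact_mod_cast hBlo
    push_cast at e4 e2 hMg
    nlinarith
  have hle := Int.le_of_dvd (abs_pos.2 hne1) ((dvd_abs _ _).2 c4)
  have habs : |d * B' - ((y : ℤ) - y')| ≤ |d| * (B' : ℤ) + |(y : ℤ) - y'| := by
    have : |d * (B' : ℤ)| = |d| * (B' : ℤ) := by
      rw [abs_mul, Nat.abs_cast]
    rw [← this]
    exact abs_sub _ _
  have e5 : (B' : ℤ) ≤ 9 * ((M * g : ℕ) : ℤ) := by
    have : ((1 + 8 * (M * g) : ℕ) : ℤ) = 1 + 8 * ((M * g : ℕ) : ℤ) := by push_cast; ring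
    have h8 : (B' : ℤ) ≤ ((1 + 8 * (M * g) : ℕ) : ℤ) := by exact_mod_cast hBhi
    linarith
  have e6 : |d| * (B' : ℤ) ≤ (2 * 2 ^ K) * (9 * ((M * g : ℕ) : ℤ)) :=
    mul_le_mul hdK.le e5 (by positivity) (by positivity)
  linarith

open Classical in
/-- the spoil count -/
theorem spoil {M Gm m K : ℕ} {Ms : Finset ℕ} (hM : 0 < M) (hMs : ∀ p ∈ Ms, p ∣ M)
    (hK : ∀ p ∈ Ms, 2 ^ (K + 2) < p) (hG : 2 ^ (K + 6) * M ≤ Gm) (T : ℕ)
    (hT : ∀ k < K, rl M Gm m k ≤ T) :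
    ((Finset.range K ×ˢ Finset.range K).filter (fun p => p.1 ≠ p.2 ∧
      Bad M Gm m Ms (T + rl M Gm m p.1 - rl M Gm m p.2))).card ≤ Ms.card + m := by
  classical
  let X := (Finset.range K ×ˢ Finset.range K).filter (fun p => p.1 ≠ p.2)
  let A := Ms.biUnion fun p => X.filter fun c => p ∣ T + rl M Gm m c.1 - rl M Gm m c.2
  let B := (Finset.range m).biUnion fun j => X.filter fun c =>
    ∃ y, Am M Gm (j + 1) ≤ y + M * Gm ^ j ∧ y < Am M Gm (j + 1) + M * Gm ^ j ∧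
      y ≡ T + rl M Gm m c.1 - rl M Gm m c.2 [MOD Gm ^ (j + 1)]
  have hsub : (Finset.range K ×ˢ Finset.range K).filter (fun p => p.1 ≠ p.2 ∧
      Bad M Gm m Ms (T + rl M Gm m p.1 - rl M Gm m p.2)) ⊆ A ∪ B := by
    intro c hc
    obtain ⟨hc1, hc2, hc3⟩ := Finset.mem_filter.1 hc
    have hX : c ∈ X := Finset.mem_filter.2 ⟨hc1, hc2⟩
    rcases hc3 with ⟨p, hp, hd⟩ | ⟨j, hj, hy⟩
    · exact Finset.mem_union_left _ (Finset.mem_biUnion.2 ⟨p, hp, Finset.mem_filter.2 ⟨hX, hd⟩⟩)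
    · exact Finset.mem_union_right _ (Finset.mem_biUnion.2 ⟨j, hj, Finset.mem_filter.2 ⟨hX, hy⟩⟩)
  have hXm : ∀ c ∈ X, c.1 < K ∧ c.2 < K ∧ c.1 ≠ c.2 := by
    intro c hc
    obtain ⟨hc1, hc2⟩ := Finset.mem_filter.1 hc
    obtain ⟨h1, h2⟩ := Finset.mem_product.1 hc1
    exact ⟨Finset.mem_range.1 h1, Finset.mem_range.1 h2, hc2⟩
  have hA : A.card ≤ Ms.card * 1 := by
    refine Finset.card_biUnion_le_card_mul _ _ _ fun p hp => ?_
    refine Finset.card_le_one.2 fun c hc c' hc' => ?_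
    obtain ⟨hc1, hc2⟩ := Finset.mem_filter.1 hc
    obtain ⟨hc1', hc2'⟩ := Finset.mem_filter.1 hc'
    obtain ⟨u1, u2, u3⟩ := hXm c hc1
    obtain ⟨v1, v2, v3⟩ := hXm c' hc1'
    obtain ⟨w1, w2⟩ := one_prime (hMs p hp) (hK p hp) u1 u2 v1 v2 u3 v3 hT hc2 hc2'
    exact Prod.ext w1 w2
  have hB : B.card ≤ (Finset.range m).card * 1 := by
    refine Finset.card_biUnion_le_card_mul _ _ _ fun j hj => ?_
    refine Finset.card_le_one.2 fun c hc c' hc' => ?_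
    obtain ⟨hc1, hc2⟩ := Finset.mem_filter.1 hc
    obtain ⟨hc1', hc2'⟩ := Finset.mem_filter.1 hc'
    obtain ⟨u1, u2, u3⟩ := hXm c hc1
    obtain ⟨v1, v2, v3⟩ := hXm c' hc1'
    obtain ⟨w1, w2⟩ := one_band hM (Finset.mem_range.1 hj) hG u1 u2 v1 v2 u3 v3 hT hc2 hc2'
    exact Prod.ext w1 w2
  calc _ ≤ (A ∪ B).card := Finset.card_le_card hsub
    _ ≤ A.card + B.card := Finset.card_union_le _ _
    _ ≤ Ms.card + m := by rw [Finset.card_range] at hB; omega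

end Crest.Agent.R320.Gad_347
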