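import Crest.Agent.R320.Gad2_347
import Crest.Agent.R320.GadR2_347

/-!
# Row 320: the grid gadget on words (helper347)
-/

set_option autoImplicit false

namespace Crest.Agent.R320.Gad_347

open Crest.Agent.R320.UG219

section

variable {α S V : Type*} [Monoid S] (M Gm m : ℕ) (phi : List α → S)

open Classical in
/-- view of the right side -/
noncomputable def vwf (Q : List α) (i : ℕ) : Option (List S × S) :=
  if Gm ^ i ∣ Q.length ∧ ∀ j, i < j → j ≤ m → ∀ s, Am M Gm j - Am M Gm (i + 1) ≤ s →
      s < Am M Gm j - (Am M Gm i + Gm ^ i) → ¬ s ≡ Q.length [MOD Gm ^ j]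
  then some (segs phi Q (fun j => sj M Gm i j Q.length) (i + 1) (m - 1 - i),
    phi (Q.drop (sj M Gm i m Q.length)))
  else none

open Classical in
/-- left word -/
noncomputable def lam (L : ℕ → S → List S → ℕ → Option V) (P : List α) : Option V :=
  if h : ∃ i, i < m ∧ Am M Gm i + Gm ^ i ≤ P.length ∧ P.length < Am M Gm (i + 1)
  then L h.choose (phi (P.take (be M Gm 0 P.length)))
    (segs phi P (fun j => be M Gm j P.length) 0 h.choose) P.length
  else none

/-- right word -/
noncomputable def rho (R : (ℕ → Option (List S × S)) → ℕ → Option V) (Q : List α) : Option V :=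
  if Am M Gm m + Gm ^ m ≤ Q.length then R (vwf M Gm m phi Q) Q.length else none

/-- noise -/
def nu (D : ℕ → S → List S → S → V) (u : List α) : V :=
  D (u.length % M + 2 * M) (phi (u.take (be M Gm 0 u.length)))
    (segs phi u (fun j => be M Gm j u.length) 0 m) (phi (u.drop (be M Gm m u.length)))

end

section

variable {α S V : Type*} [Monoid S] {M Gm m : ℕ} {phi : List α → S}

lemma level_unique {i i' o : ℕ} (h1 : Am M Gm i + Gm ^ i ≤ o) (h2 : o < Am M Gm (i + 1))
    (h3 : Am M Gm i' + Gm ^ i' ≤ o) (h4 : o < Am M Gm (i' + 1)) : i = i' := by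
  rcases lt_trichotomy i i' with h | h | h
  · have := Am_mono M Gm (show i + 1 ≤ i' from h)
    omega
  · exact h
  · have := Am_mono M Gm (show i' + 1 ≤ i from h)
    omega

lemma lam_some {L : ℕ → S → List S → ℕ → Option V} {P : List α} {v : V}
    (h : lam M Gm m phi L P = some v) : ∃ i, i < m ∧ Am M Gm i + Gm ^ i ≤ P.length ∧
      P.length < Am M Gm (i + 1) ∧ L i (phi (P.take (be M Gm 0 P.length)))
        (segs phi P (fun j => be M Gm j P.length) 0 i) P.length = some v := by
  classical
  unfold lam at h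
  split_ifs at h with hc
  exact ⟨hc.choose, hc.choose_spec.1, hc.choose_spec.2.1, hc.choose_spec.2.2, h⟩

lemma lam_of {L : ℕ → S → List S → ℕ → Option V} {P : List α} {i : ℕ} (hi : i < m)
    (h1 : Am M Gm i + Gm ^ i ≤ P.length) (h2 : P.length < Am M Gm (i + 1)) :
    lam M Gm m phi L P = L i (phi (P.take (be M Gm 0 P.length)))
        (segs phi P (fun j => be M Gm j P.length) 0 i) P.length := by
  classical
  unfold lam
  have hc : ∃ i, i < m ∧ Am M Gm i + Gm ^ i ≤ P.length ∧ P.length < Am M Gm (i + 1) :=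
    ⟨i, hi, h1, h2⟩
  rw [dif_pos hc]
  have : hc.choose = i := level_unique hc.choose_spec.2.1 hc.choose_spec.2.2 h1 h2
  rw [this]

/-- both sides see the true decomposition -/
lemma decomp (hG : 0 < Gm) (P Q : List α) {i : ℕ} (hi : i < m)
    (ho1 : Am M Gm i + Gm ^ i ≤ P.length) (ho2 : P.length < Am M Gm (i + 1))
    (hdiv : Gm ^ i ∣ Q.length)
    (hno : ∀ j, i < j → j ≤ m → ∀ s, Am M Gm j - Am M Gm (i + 1) ≤ s →
      s < Am M Gm j - (Am M Gm i + Gm ^ i) → ¬ s ≡ Q.length [MOD Gm ^ j]) :
    (P ++ Q).take (be M Gm 0 (P ++ Q).length) = P.take (be M Gm 0 P.length) ∧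
    (∃ z, segs phi (P ++ Q) (fun j => be M Gm j (P ++ Q).length) 0 m
      = segs phi P (fun j => be M Gm j P.length) 0 i ++
        z :: segs phi Q (fun j => sj M Gm i j Q.length) (i + 1) (m - 1 - i)) ∧
    (P ++ Q).drop (be M Gm m (P ++ Q).length) = Q.drop (sj M Gm i m Q.length) := by
  have hlen : (P ++ Q).length = P.length + Q.length := List.length_append
  rw [hlen]
  have hT : ∀ j, j ≤ i → be M Gm j (P.length + Q.length) = be M Gm j P.length := by
    intro j hj
    refine lst_congr _ ?_
    have hd : Gm ^ j ∣ Q.length := (pow_dvd_pow Gm hj).trans hdiv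
    have := (Nat.modEq_zero_iff_dvd.2 hd).add_left P.length
    simpa using this
  have hle : ∀ j, j ≤ i → be M Gm j P.length ≤ P.length := by
    intro j hj
    have h1 := be_lt (M := M) hG j P.length
    rcases Nat.lt_or_ge j i with h | h
    · have h2 := Am_mono M Gm (show j + 1 ≤ i from h)
      rw [Am_succ] at h2
      omega
    · have : j = i := by omega
      subst this
      omega
  have hS : ∀ j, i < j → j ≤ m → be M Gm j (P.length + Q.length)
      = P.length + sj M Gm i j Q.length := fun j h1 h2 =>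
    sj_eq hG h1 ho1 ho2 (hno j h1 h2)
  refine ⟨?_, ?_, ?_⟩
  · rw [hT 0 (Nat.zero_le i), List.take_append_of_le_length (hle 0 (Nat.zero_le i))]
  · obtain ⟨r, hr⟩ : ∃ r, m = i + (1 + r) := ⟨m - 1 - i, by omega⟩
    have hr' : m - 1 - i = r := by omega
    rw [hr']
    refine ⟨phi (((P ++ Q).take (be M Gm (i + 1) (P.length + Q.length))).drop
      (be M Gm i (P.length + Q.length))), ?_⟩
    rw [hr, segs_add, segs_add, Nat.zero_add]
    congr 1
    · refine segs_left P Q _ _ 0 i fun j _ hj => ?_
      have hj' : j ≤ i := by omega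
      exact ⟨hT j hj', by show be M Gm j (P.length + Q.length) ≤ P.length
                          rw [hT j hj']; exact hle j hj'⟩
    · rw [show (segs phi (P ++ Q) (fun j => be M Gm j (P.length + Q.length)) i 1)
        = [phi (((P ++ Q).take (be M Gm (i + 1) (P.length + Q.length))).drop
      (be M Gm i (P.length + Q.length)))] from rfl, List.singleton_append]
      congr 1
      exact segs_right P Q _ _ _ _ fun j h1 h2 => hS j (by omega) (by omega)
  · rw [hS m hi le_rfl, List.drop_length_add_append]

lemma prod_all (hG : 0 < Gm) (hphi : ∀ u v, phi (u ++ v) = phi u * phi v) (u : List α) (T : ℕ) :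
    phi (u.take (be M Gm 0 T)) * (segs phi u (fun j => be M Gm j T) 0 m).prod
      * phi (u.drop (be M Gm m T)) = phi u :=
  segs_all hphi u (fun j => be_mono hG j T) m

end

end Crest.Agent.R320.Gad_347
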