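import Crest.Agent.R320.Gad3_347

/-!
# Row 320: the grid gadget, main theorem (helper347)
-/

set_option autoImplicit false

namespace Crest.Agent.R320.Gad_347

open Crest.Agent.R320.UG219

universe w

section

variable {α S : Type*} [Monoid S] {phi : List α → S}

lemma segs_take {w w' : List α} {N : ℕ} (hN : N ≤ w.length) (hN' : N ≤ w'.length)
    (ht : w.take N = w'.take N) (b : ℕ → ℕ) (a n : ℕ) (hb : ∀ j, a ≤ j → j ≤ a + n → b j ≤ N) :
    segs phi w b a n = segs phi w' b a n := by
  have h1 : segs phi w b a n = segs phi (w.take N) b a n := by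
    conv_lhs => rw [← List.take_append_drop N w]
    exact segs_left _ _ b b a n fun j h1 h2 => ⟨rfl, by
      rw [List.length_take]; have := hb j h1 h2; omega⟩
  have h2 : segs phi w' b a n = segs phi (w'.take N) b a n := by
    conv_lhs => rw [← List.take_append_drop N w']
    exact segs_left _ _ b b a n fun j h1 h2 => ⟨rfl, by
      rw [List.length_take]; have := hb j h1 h2; omega⟩
  rw [h1, h2, ht]

lemma segs_congr (w : List α) {b b' : ℕ → ℕ} (a n : ℕ)
    (hb : ∀ j, a ≤ j → j ≤ a + n → b j = b' j) : segs phi w b a n = segs phi w b' a n := by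
  induction n generalizing a with
  | zero => rfl
  | succ n ih =>
    rw [segs, segs, ih (a + 1) (fun j h1 h2 => hb j (by omega) (by omega)),
      hb a le_rfl (by omega), hb (a + 1) (by omega) (by omega)]

lemma drop_take (hphi : ∀ u v, phi (u ++ v) = phi u * phi v) {w w' : List α} {N s : ℕ}
    (hN : N ≤ w.length) (hN' : N ≤ w'.length)
    (ht : w.take N = w'.take N) (hd : phi (w.drop N) = phi (w'.drop N)) (hs : s ≤ N) :
    phi (w.drop s) = phi (w'.drop s) := by
  have h1 : ∀ w : List α, N ≤ w.length → phi (w.drop s) = phi ((w.take N).drop s) * phi (w.drop N) := by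
    intro w hw
    rw [← hphi]
    congr 1
    conv_lhs => rw [← List.take_append_drop N w]
    rw [List.drop_append_of_le_length (by rw [List.length_take]; omega)]
  rw [h1 w hN, h1 w' hN', ht, hd]

end

open Classical in
theorem gad (S V : Type*) [Monoid S] [Finite S] [AddCommGroup V] [Finite V] (act : V → S → V) :
    ∃ C0 : ℕ, ∀ K : ℕ, ∃ (N D : ℕ) (x : ℕ → ℕ) (Bad : ℕ → Prop), 0 < D ∧ StrictMono x ∧
      (∀ T, Bad (T + D) ↔ Bad T) ∧
      (∀ i j k l, i < K → j < K → k < K → l < K → i ≠ j → k ≠ l → (i ≠ k ∨ j ≠ l) →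
        x i + x l + 2 * N < x k + x j ∨ x k + x j + 2 * N < x i + x l) ∧
      (∀ T : ℕ, (∀ k < K, x k ≤ T) → ((Finset.range K ×ˢ Finset.range K).filter
        (fun p => p.1 ≠ p.2 ∧ Bad (T + x p.1 - x p.2))).card ≤ C0) ∧
      ∀ (α : Type w) (phi : List α → S), phi [] = 1 → (∀ u v, phi (u ++ v) = phi u * phi v) →
        ∃ (lam rho : List α → Option V) (nu : List α → V),
          (∀ P v, lam P = some v → P.length ≤ N) ∧
          (∀ Q r, rho Q = some r → N ≤ Q.length) ∧
          (∀ P Q v r, lam P = some v → rho Q = some r → r = act v (phi (P ++ Q)) + nu (P ++ Q)) ∧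
          (∀ u, 2 * N ≤ u.length → ¬ Bad u.length → ∀ v, ∃ P Q, P ++ Q = u ∧ lam P = some v ∧
            (rho Q).isSome) ∧
          (∀ Q Q', N ≤ Q.length → N ≤ Q'.length → Q.take N = Q'.take N →
            Q.length % D = Q'.length % D → phi (Q.drop N) = phi (Q'.drop N) → rho Q = rho Q') ∧
          (∀ Q Q', N ≤ Q.length → N ≤ Q'.length → Q.take N = Q'.take N →
            Q.length % D = Q'.length % D → phi (Q.drop N) = phi (Q'.drop N) → nu Q = nu Q') := by
  obtain ⟨m, r, hm, H⟩ := ugadget2 S V act
  refine ⟨r + m, fun K => ?_⟩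
  obtain ⟨Ms, L, R, D, hcard, hp, hLper, hRper, hRvw, hDbad, hview, hsound, hcomp⟩ :=
    H (2 ^ (K + 2))
  obtain ⟨M, hMdef⟩ : ∃ M, M = ∏ p ∈ Ms, p := ⟨_, rfl⟩
  rw [← hMdef] at hLper hRper hcomp
  have hM : 0 < M := by rw [hMdef]; exact Finset.prod_pos fun p hp' => (hp p hp').1.pos
  have hdvd : ∀ p ∈ Ms, p ∣ M := fun p hp' => by rw [hMdef]; exact Finset.dvd_prod_of_mem _ hp'
  obtain ⟨Gm, hGm⟩ : ∃ Gm, Gm = 2 ^ (K + 6 + M) := ⟨_, rfl⟩
  have hG0 : 0 < Gm := by rw [hGm]; positivity
  have hG : 2 ^ (K + 6) * M ≤ Gm := by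
    rw [hGm, pow_add 2 (K + 6) M]
    exact Nat.mul_le_mul_left _ Nat.lt_two_pow_self.le
  have hcop : ∀ i, Nat.Coprime M (Gm ^ i) := by
    intro i
    rw [hMdef, hGm]
    refine Nat.Coprime.prod_left fun p hp' => ?_
    refine Nat.Coprime.pow_right _ (Nat.Coprime.pow_right _ ?_)
    have h1 := hp p hp'
    rw [Nat.coprime_primes h1.1 Nat.prime_two]
    have : 2 ≤ 2 ^ (K + 2) := by
      calc 2 = 2 ^ 1 := rfl
        _ ≤ 2 ^ (K + 2) := Nat.pow_le_pow_right (by norm_num) (by omega)
    omega
  have hpowm : ∀ j, j ≤ m → Gm ^ j ≤ Gm ^ m := fun j hj => Nat.pow_le_pow_right hG0 hj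
  have hAmm : ∀ j, j ≤ m → Am M Gm j ≤ Am M Gm m := fun j hj => Am_mono M Gm hj
  have hMN : M + 1 ≤ Am M Gm m := by
    have : Am M Gm 1 = M + 1 := by simp [Am]
    rw [← this]; exact hAmm 1 hm
  refine ⟨Am M Gm m + Gm ^ m, M * Gm ^ m, rl M Gm m, Bad M Gm m Ms,
    Nat.mul_pos hM (pow_pos hG0 m), rl_strictMono M Gm m, Bad_period hdvd, ?_, ?_, ?_⟩
  · intro i j k l _ _ _ _ h1 h2 h3
    exact spaced hM h1 h2 h3
  · intro T hT
    exact (spoil hM hdvd (fun p hp' => (hp p hp').2) hG T hT).trans
      (Nat.add_le_add_right hcard m)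
  · intro α phi _ hphi
    have hLmod : ∀ i x zl t, L i x zl (t % M) = L i x zl t := fun i x zl t =>
      Function.Periodic.map_mod_nat (f := fun t => L i x zl t) (hLper i x zl) t
    have hRmod : ∀ vw t, R vw (t % M) = R vw t := fun vw t =>
      Function.Periodic.map_mod_nat (f := fun t => R vw t) (hRper vw) t
    have hLeq : ∀ i x zl t t', t ≡ t' [MOD M] → L i x zl t = L i x zl t' := by
      intro i x zl t t' h
      rw [← hLmod, ← hLmod i x zl t', h]
    have hReq : ∀ vw t t', t ≡ t' [MOD M] → R vw t = R vw t' := by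
      intro vw t t' h
      rw [← hRmod, ← hRmod vw t', h]
    refine ⟨lam M Gm m phi L, rho M Gm m phi R, nu M Gm m phi D, ?_, ?_, ?_, ?_, ?_, ?_⟩
    · intro P v h
      obtain ⟨i, hi, _, h2, _⟩ := lam_some h
      have := hAmm (i + 1) hi
      omega
    · intro Q r' h
      unfold rho at h
      split_ifs at h with hc
      exact hc
    · -- soundness
      intro P Q v b hl hr
      obtain ⟨i, hi, ho1, ho2, hL⟩ := lam_some hl
      have hR : R (vwf M Gm m phi Q) Q.length = some b := by
        unfold rho at hr
        split_ifs at hr with hc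
        exact hr
      have hlen : (P ++ Q).length = P.length + Q.length := List.length_append
      obtain ⟨t', ht'⟩ : ∃ t', P.length % M + t' = (P ++ Q).length % M + 2 * M :=
        ⟨(P ++ Q).length % M + 2 * M - P.length % M, by
          have := Nat.mod_lt P.length hM; omega⟩
      have hQt : Q.length ≡ t' [MOD M] := by
        have h1 : P.length % M + t' ≡ P.length + Q.length [MOD M] := by
          rw [ht', hlen]
          have a1 : (P.length + Q.length) % M + 2 * M ≡ (P.length + Q.length) % M [MOD M] := by
            have := (Nat.modEq_zero_iff_dvd.2 (Dvd.intro_left 2 rfl : M ∣ 2 * M)).add_left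
              ((P.length + Q.length) % M)
            simpa using this
          exact a1.trans (Nat.mod_modEq _ _)
        have h2 : P.length + t' ≡ P.length + Q.length [MOD M] :=
          ((Nat.mod_modEq P.length M).symm.add_right t').trans h1
        exact (Nat.ModEq.add_left_cancel' _ h2).symm
      have hL' : L i (phi (P.take (be M Gm 0 P.length)))
        (segs phi P (fun j => be M Gm j P.length) 0 i) (P.length % M) = some v := by
        rw [hLmod]; exact hL
      have hR' : R (vwf M Gm m phi Q) t' = some b := by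
        rw [← hReq _ _ _ hQt]; exact hR
      have hall := prod_all (M := M) (m := m) hG0 hphi (P ++ Q) (P ++ Q).length
      by_cases hc : Gm ^ i ∣ Q.length ∧ ∀ j, i < j → j ≤ m → ∀ s,
          Am M Gm j - Am M Gm (i + 1) ≤ s →
          s < Am M Gm j - (Am M Gm i + Gm ^ i) → ¬ s ≡ Q.length [MOD Gm ^ j]
      · obtain ⟨e1, ⟨z, e2⟩, e3⟩ := decomp (phi := phi) hG0 P Q hi ho1 ho2 hc.1 hc.2
        have hvw : vwf M Gm m phi Q i = some (segs phi Q (fun j => sj M Gm i j Q.length) (i + 1)
            (m - 1 - i), phi (Q.drop (sj M Gm i m Q.length))) := by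
          unfold vwf; rw [if_pos hc]
        have key := hsound (P.length % M) t' (phi (P.take (be M Gm 0 P.length)))
          (segs phi P (fun j => be M Gm j P.length) 0 i) z
          (segs phi Q (fun j => sj M Gm i j Q.length) (i + 1) (m - 1 - i))
          (phi (Q.drop (sj M Gm i m Q.length))) (vwf M Gm m phi Q) v b
          (by simp only [List.length_append, List.length_cons, length_segs]; omega)
          (by
            intro q hq
            rw [length_segs, hvw] at hq
            exact (Option.some.inj hq).symm)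
          (by rw [length_segs]; exact hL') hR'
        rw [key]
        rw [e1, e2, e3] at hall
        unfold nu
        rw [e1, e2, e3, ← ht']
        congr 2
        rw [← hall]
        simp only [List.prod_append, List.prod_cons, mul_assoc]
      · have hvw : vwf M Gm m phi Q i = none := by
          unfold vwf; rw [if_neg hc]
        have hbad : ∃ p ∈ Ms, p ∣ P.length % M + t' := by
          by_contra hcon
          push Not at hcon
          exact hview _ _ _ _ _ _ _ _ hcon hL' hR' hvw
        have hP := segs_all hphi P (fun j => be_mono (M := M) hG0 j P.length) i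
        have hprod : phi (P.take (be M Gm 0 P.length)) *
            (segs phi P (fun j => be M Gm j P.length) 0 i ++
              (phi (P.drop (be M Gm i P.length)) * phi Q) :: List.replicate (m - 1 - i) 1).prod * 1
            = phi (P ++ Q) := by
          simp only [List.prod_append, List.prod_cons, List.prod_replicate, one_pow, mul_one]
          rw [hphi, ← hP]
          simp only [mul_assoc]
        have key := hsound (P.length % M) t' (phi (P.take (be M Gm 0 P.length)))
          (segs phi P (fun j => be M Gm j P.length) 0 i)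
          (phi (P.drop (be M Gm i P.length)) * phi Q) (List.replicate (m - 1 - i) 1)
          1 (vwf M Gm m phi Q) v b
          (by simp only [List.length_append, List.length_cons, length_segs,
                List.length_replicate]; omega)
          (by
            intro q hq
            rw [length_segs, hvw] at hq
            exact absurd hq (by simp))
          (by rw [length_segs]; exact hL') hR'
        rw [key]
        unfold nu
        rw [← ht']
        rw [hDbad _ _ _ _ _ _ _ hbad (hprod.trans hall.symm)]
        congr 2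
        rw [← hprod]
        simp only [List.prod_append, List.prod_cons, mul_assoc]
    · -- completeness
      intro u hu hnb v
      have hnp : ∀ p ∈ Ms, ¬ p ∣ u.length := fun p hp' hd => hnb (Or.inl ⟨p, hp', hd⟩)
      obtain ⟨i, hi, hc⟩ := hcomp u.length (phi (u.take (be M Gm 0 u.length)))
        (segs phi u (fun j => be M Gm j u.length) 0 m) (phi (u.drop (be M Gm m u.length))) v
        (length_segs _ _ _ _) hnp
      obtain ⟨t0, -, ht0, ht0T, hL0, hR0⟩ := hc 0 (by omega)
      obtain ⟨r0, hr1, hr2⟩ := Nat.chineseRemainder (hcop i) t0 u.length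
      have hg : 0 < M * Gm ^ i := Nat.mul_pos hM (pow_pos hG0 i)
      obtain ⟨o, ho⟩ : ∃ o, o = lst (Am M Gm i + Gm ^ i) (M * Gm ^ i) r0 := ⟨_, rfl⟩
      have ho1 : Am M Gm i + Gm ^ i ≤ o := by rw [ho]; exact le_lst _ _ _
      have ho2 : o < Am M Gm (i + 1) := by rw [ho, Am_succ]; exact lst_lt _ _ hg
      have ho3 : o ≡ r0 [MOD M * Gm ^ i] := by rw [ho]; exact lst_mod _ _ hg
      have hoM : o ≡ t0 [MOD M] := (ho3.of_mul_right _).trans hr1
      have hoG : o ≡ u.length [MOD Gm ^ i] := (ho3.of_mul_left _).trans hr2
      have hoN : o < Am M Gm m := lt_of_lt_of_le ho2 (hAmm (i + 1) hi)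
      have hoT : o ≤ u.length := by omega
      have hPl : (u.take o).length = o := by rw [List.length_take]; omega
      have hQl : (u.drop o).length = u.length - o := List.length_drop
      have hdiv : Gm ^ i ∣ (u.drop o).length := by
        rw [hQl]; exact (Nat.modEq_iff_dvd' hoT).1 hoG
      have hno : ∀ j, i < j → j ≤ m → ∀ s, Am M Gm j - Am M Gm (i + 1) ≤ s →
          s < Am M Gm j - (Am M Gm i + Gm ^ i) → ¬ s ≡ (u.drop o).length [MOD Gm ^ j] := by
        intro j hj1 hj2 s hs1 hs2 hs3
        apply hnb
        obtain ⟨j', rfl⟩ : ∃ j', j = j' + 1 := ⟨j - 1, by omega⟩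
        refine Or.inr ⟨j', Finset.mem_range.2 (by omega), s + o, ?_, ?_, ?_⟩
        · have a1 := Am_succ M Gm i
          have a2 : M * Gm ^ i ≤ M * Gm ^ j' :=
            Nat.mul_le_mul_left _ (Nat.pow_le_pow_right hG0 (by omega))
          omega
        · have a1 := Am_succ M Gm i
          have a2 : M * Gm ^ i ≤ M * Gm ^ j' :=
            Nat.mul_le_mul_left _ (Nat.pow_le_pow_right hG0 (by omega))
          omega
        · rw [hQl] at hs3
          have := hs3.add_right o
          rwa [Nat.sub_add_cancel hoT] at this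
      obtain ⟨e1, ⟨z, e2⟩, e3⟩ := decomp (phi := phi) hG0 (u.take o) (u.drop o) hi
        (by rw [hPl]; exact ho1) (by rw [hPl]; exact ho2) hdiv hno
      rw [List.take_append_drop] at e1 e2 e3
      refine ⟨u.take o, u.drop o, List.take_append_drop o u, ?_, ?_⟩
      · rw [lam_of hi (by rw [hPl]; exact ho1) (by rw [hPl]; exact ho2)]
        have htk : (segs phi u (fun j => be M Gm j u.length) 0 m).take i
            = segs phi (u.take o) (fun j => be M Gm j (u.take o).length) 0 i := by
          rw [e2]
          exact List.take_left' (length_segs _ _ _ _)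
        rw [htk, e1] at hL0
        rw [← hL0]
        refine hLeq _ _ _ _ _ ?_
        rw [hPl]
        exact hoM
      · have hvw : vwf M Gm m phi (u.drop o) i = some ((segs phi u
            (fun j => be M Gm j u.length) 0 m).drop (i + 1),
            phi (u.drop (be M Gm m u.length))) := by
          unfold vwf
          rw [if_pos ⟨hdiv, hno⟩, e2, e3]
          congr 2
          have : i + 1 = (segs phi (u.take o)
              (fun j => be M Gm j (u.take o).length) 0 i).length + 1 := by
            rw [length_segs]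
          rw [this, List.drop_length_add_append]
          rw [length_segs]
          rfl
        obtain ⟨b, hb⟩ := hR0 _ hvw
        unfold rho
        rw [if_pos (by rw [hQl]; omega)]
        rw [hReq _ _ (u.length - t0) (by
          rw [hQl]
          have h1 : o + (u.length - o) ≡ o + (u.length - t0) [MOD M] := by
            have h2 : o + (u.length - t0) ≡ t0 + (u.length - t0) [MOD M] := hoM.add_right _
            have h3 : t0 + (u.length - t0) = o + (u.length - o) := by omega
            rw [h3] at h2
            exact h2.symm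
          exact Nat.ModEq.add_left_cancel' _ h1), hb]
        rfl
    · -- the right label depends on few data
      intro Q Q' hQ hQ' ht hmod hd
      have hmod' : Q.length ≡ Q'.length [MOD M * Gm ^ m] := hmod
      have hmM : Q.length ≡ Q'.length [MOD M] := hmod'.of_mul_right _
      have hmG : ∀ j, j ≤ m → Q.length ≡ Q'.length [MOD Gm ^ j] := fun j hj =>
        Nat.ModEq.of_dvd (pow_dvd_pow Gm hj) (hmod'.of_mul_left _)
      unfold rho
      rw [if_pos hQ, if_pos hQ', hReq _ _ _ hmM]
      refine hRvw _ _ _ fun i hi => ?_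
      unfold vwf
      have hsj : ∀ j, j ≤ m → sj M Gm i j Q.length = sj M Gm i j Q'.length := fun j hj =>
        lst_congr _ (hmG j hj)
      have hsl : ∀ j q, j ≤ m → sj M Gm i j q ≤ Am M Gm m + Gm ^ m := by
        intro j q hj
        have h1 : sj M Gm i j q < Am M Gm j - (Am M Gm i + Gm ^ i) + Gm ^ j :=
          lst_lt _ _ (pow_pos hG0 j)
        have h2 := hpowm j hj
        have h3 := hAmm j hj
        omega
      have hcond : (Gm ^ i ∣ Q.length ∧ ∀ j, i < j → j ≤ m → ∀ s,
          Am M Gm j - Am M Gm (i + 1) ≤ s →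
          s < Am M Gm j - (Am M Gm i + Gm ^ i) → ¬ s ≡ Q.length [MOD Gm ^ j]) ↔
          (Gm ^ i ∣ Q'.length ∧ ∀ j, i < j → j ≤ m → ∀ s,
          Am M Gm j - Am M Gm (i + 1) ≤ s →
          s < Am M Gm j - (Am M Gm i + Gm ^ i) → ¬ s ≡ Q'.length [MOD Gm ^ j]) := by
        refine and_congr ?_ ?_
        · rw [← Nat.modEq_zero_iff_dvd, ← Nat.modEq_zero_iff_dvd]
          exact ⟨fun h => (hmG i hi.le).symm.trans h, fun h => (hmG i hi.le).trans h⟩
        · refine forall_congr' fun j => forall_congr' fun _ => forall_congr' fun hj =>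
            forall_congr' fun s => forall_congr' fun _ => forall_congr' fun _ => not_congr ?_
          exact ⟨fun h => h.trans (hmG j hj), fun h => h.trans (hmG j hj).symm⟩
      by_cases hc : Gm ^ i ∣ Q.length ∧ ∀ j, i < j → j ≤ m → ∀ s,
          Am M Gm j - Am M Gm (i + 1) ≤ s →
          s < Am M Gm j - (Am M Gm i + Gm ^ i) → ¬ s ≡ Q.length [MOD Gm ^ j]
      · rw [if_pos hc, if_pos (hcond.1 hc)]
        congr 2
        · rw [segs_take hQ hQ' ht _ _ _ (fun j _ hj => hsl j _ (by omega))]
          exact segs_congr _ _ _ fun j _ hj => hsj j (by omega)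
        · rw [hsj m le_rfl]
          exact drop_take hphi hQ hQ' ht hd (hsl m _ le_rfl)
      · rw [if_neg hc, if_neg (fun h => hc (hcond.2 h))]
    · intro Q Q' hQ hQ' ht hmod hd
      have hmod' : Q.length ≡ Q'.length [MOD M * Gm ^ m] := hmod
      have hmM : Q.length ≡ Q'.length [MOD M] := hmod'.of_mul_right _
      have hmG : ∀ j, j ≤ m → Q.length ≡ Q'.length [MOD Gm ^ j] := fun j hj =>
        Nat.ModEq.of_dvd (pow_dvd_pow Gm hj) (hmod'.of_mul_left _)
      have hbe : ∀ j, j ≤ m → be M Gm j Q.length = be M Gm j Q'.length := fun j hj =>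
        lst_congr _ (hmG j hj)
      have hbl : ∀ j q, j ≤ m → be M Gm j q ≤ Am M Gm m + Gm ^ m := by
        intro j q hj
        have h1 := be_lt (M := M) hG0 j q
        have h2 := hpowm j hj
        have h3 := hAmm j hj
        omega
      unfold nu
      have e1 : Q.length % M + 2 * M = Q'.length % M + 2 * M := by rw [hmM]
      have e2 : phi (Q.take (be M Gm 0 Q.length)) = phi (Q'.take (be M Gm 0 Q'.length)) := by
        rw [hbe 0 (Nat.zero_le m)]
        have h0 := hbl 0 Q'.length (Nat.zero_le m)
        have : ∀ w : List α, w.take (be M Gm 0 Q'.length)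
            = (w.take (Am M Gm m + Gm ^ m)).take (be M Gm 0 Q'.length) := by
          intro w
          rw [List.take_take, min_eq_left h0]
        rw [this Q, this Q', ht]
      have e3 : phi (Q.drop (be M Gm m Q.length)) = phi (Q'.drop (be M Gm m Q'.length)) := by
        rw [hbe m le_rfl]
        exact drop_take hphi hQ hQ' ht hd (hbl m _ le_rfl)
      have e4 : segs phi Q (fun j => be M Gm j Q.length) 0 m
          = segs phi Q' (fun j => be M Gm j Q'.length) 0 m := by
        rw [segs_take hQ hQ' ht _ _ _ (fun j _ hj => hbl j _ (by omega))]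
        exact segs_congr _ _ _ fun j _ hj => hbe j (by omega)
      rw [e1, e2, e3, e4]

end Crest.Agent.R320.Gad_347
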