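import Crest.Agent.R320.Grid_899
import Crest.Agent.R320.GridRuler_314

/-!
# Row 320: gadget 1 with its ruler, in the form needed by `P5_841` (helper277)
-/

set_option autoImplicit false

namespace Crest.Agent.R320.GadA_277

open Crest.Agent.R320.GridRuler314 Crest.Agent.R320.Grid_899 Finset

/-- `F` is determined by the first `A` letters, the length mod `M` and the value of the rest -/
def FS {α S β : Type*} (phi : List α → S) (A M : ℕ) (F : List α → β) : Prop :=
  ∀ X X' : List α, X.take A = X'.take A → X.length % M = X'.length % M →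
    phi (X.drop A) = phi (X'.drop A) → F X = F X'

theorem eq_of_short {α : Type*} {A : ℕ} {X X' : List α} (h : X.take A = X'.take A)
    (h1 : X.length < A) : X = X' := by
  have e := congrArg List.length h
  rw [List.length_take, List.length_take] at e
  have h2 : X'.length < A := by omega
  rwa [List.take_of_length_le h1.le, List.take_of_length_le h2.le] at h

theorem FS.mono {α S β : Type*} [Monoid S] {phi : List α → S}
    (hphi : ∀ u v, phi (u ++ v) = phi u * phi v) {A A' M : ℕ} (h : A ≤ A') {F : List α → β}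
    (hF : FS phi A M F) : FS phi A' M F := by
  intro X X' h1 h2 h3
  have e : X.take A = X'.take A := by
    have := congrArg (List.take A) h1
    rwa [List.take_take, List.take_take, Nat.min_eq_left h] at this
  refine hF X X' e h2 ?_
  have k : ∀ Y : List α, Y.drop A = (Y.take A').drop A ++ Y.drop A' := by
    intro Y
    conv_lhs => rw [← List.take_append_drop A' Y]
    rcases le_or_gt A' Y.length with h4 | h4
    · rw [List.drop_append_of_le_length (by rw [List.length_take]; omega)]
    · rw [List.drop_eq_nil_of_le h4.le, List.append_nil, List.append_nil]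
  rw [k X, k X', hphi, hphi, h1, h3]

/-- cut in both components -/
def Cutv {α V : Type*} (lam rho : List α → Option V) (X : List α) (v b : V) : Prop :=
  ∃ P Q, X = P ++ Q ∧ lam P = some v ∧ rho Q = some b

theorem Cutv.transfer {α S V : Type*} [Monoid S] {phi : List α → S}
    (hphi : ∀ u v, phi (u ++ v) = phi u * phi v) {A N M : ℕ} {lam rho : List α → Option V}
    (hl : ∀ P v, lam P = some v → P.length ≤ N) (hr : FS phi A M rho) {X X' : List α}
    (h1 : X.take (N + A) = X'.take (N + A)) (h2 : X.length % M = X'.length % M)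
    (h3 : phi (X.drop (N + A)) = phi (X'.drop (N + A))) {v b : V} (h : Cutv lam rho X v b) :
    Cutv lam rho X' v b := by
  rcases Nat.lt_or_ge X.length (N + A) with hlt | hge
  · rw [← eq_of_short h1 hlt]; exact h
  have hge' : N + A ≤ X'.length := by
    have e := congrArg List.length h1
    rw [List.length_take, List.length_take] at e
    omega
  obtain ⟨P, Q, rfl, hP, hQ⟩ := h
  have hPN := hl P v hP
  have e1 : P = X'.take P.length := by
    have := congrArg (List.take P.length) h1
    rw [List.take_take, List.take_take, Nat.min_eq_left (by omega), List.take_left] at this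
    exact this
  refine ⟨P, X'.drop P.length, ?_, hP, ?_⟩
  · conv_rhs => rw [e1]
    rw [List.length_take, Nat.min_eq_left (by omega)]
    exact (List.take_append_drop _ _).symm
  · rw [← hQ]
    symm
    have key : ∀ Y : List α, (Y.drop P.length).drop A =
        (Y.take (N + A)).drop (P.length + A) ++ Y.drop (N + A) ∨ Y.length < N + A := by
      intro Y
      rcases Nat.lt_or_ge Y.length (N + A) with h | h
      · exact Or.inr h
      left
      rw [List.drop_drop]
      conv_lhs => rw [← List.take_append_drop (N + A) Y]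
      rw [List.drop_append_of_le_length (by rw [List.length_take]; omega)]
    have hq : Q = (P ++ Q).drop P.length := by rw [List.drop_left]
    rw [hq]
    refine hr _ _ ?_ ?_ ?_
    · have := congrArg (List.drop P.length) (congrArg (List.take (P.length + A)) h1)
      rw [List.take_take, List.take_take, Nat.min_eq_left (by omega)] at this
      rw [List.drop_take, List.drop_take, Nat.add_sub_cancel_left] at this
      exact this
    · rw [List.length_drop, List.length_drop]
      have hc : P.length + ((P ++ Q).length - P.length) ≡ P.length + (X'.length - P.length)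
          [MOD M] := by
        rw [Nat.add_sub_cancel' (by omega), Nat.add_sub_cancel' (by omega)]
        exact h2
      exact Nat.ModEq.add_left_cancel' _ hc
    · rcases key (P ++ Q) with k1 | k1
      · rcases key X' with k2 | k2
        · rw [k1, k2, hphi, hphi, h1, h3]
        · omega
      · omega

theorem q_exists (k B : ℕ) : ∃ q : Fin k → ℕ, (∀ j, (q j).Prime) ∧ (∀ j, B < q j) ∧
    Function.Injective q := by
  refine ⟨fun j => Nat.nth Nat.Prime (B + j), fun j => Nat.prime_nth_prime _, fun j => ?_,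
    fun i j h => ?_⟩
  · have := Nat.add_two_le_nth_prime (B + j)
    show B < Nat.nth Nat.Prime (B + j)
    omega
  · have := Nat.nth_injective Nat.infinite_setOfPred_prime h
    exact Fin.ext (by omega)

open Classical in
theorem gadget (S V : Type) [Monoid S] [Finite S] [AddCommGroup V] [Finite V] (act : V → S → V) :
    ∃ R0 : ℕ, ∀ K : ℕ, ∃ (N1 T0 A M : ℕ) (BadT : ℕ → Prop) (c : ℕ → ℕ), 0 < M ∧
      StrictMono c ∧
      (∀ a b c' d, a ≠ b → c' ≠ d → (c a : ℤ) - c b - (c c' - c d) ≤ 2 * N1 →
        (c c' : ℤ) - c d - (c a - c b) ≤ 2 * N1 → b = d) ∧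
      (∀ T, (∀ k < K, c k ≤ T) → ∀ I : Finset ℕ,
        (∀ k ∈ I, k < K ∧ ∃ k', k' < K ∧ k' ≠ k ∧ BadT (T + c k' - c k)) → I.card ≤ R0) ∧
      ∀ (α : Type) (phi : List α → S), (∀ u v, phi (u ++ v) = phi u * phi v) →
      ∃ (lam rho : List α → Option V) (nu : List α → V),
        (∀ P Q v b, lam P = some v → rho Q = some b → act v (phi (P ++ Q)) + nu (P ++ Q) = b) ∧
        (∀ P v, lam P = some v → P.length ≤ N1) ∧
        (∀ Y : List α, T0 ≤ Y.length → ¬ BadT Y.length → ∀ v, ∃ P Q, Y = P ++ Q ∧
          lam P = some v ∧ (rho Q).isSome) ∧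
        FS phi A M rho ∧ FS phi A M nu := by
  obtain ⟨k, m, H⟩ := grid_gadget_reg S V act
  refine ⟨k + m, fun K => ?_⟩
  obtain ⟨q, hqp, hqB, hqi⟩ := q_exists k (2 ^ (K + 1))
  have hqodd : ∀ j, Odd (q j) := fun j => (hqp j).odd_of_ne_two (by
    have h1 := hqB j
    have : 2 ≤ 2 ^ (K + 1) := by
      calc 2 = 2 ^ 1 := rfl
        _ ≤ 2 ^ (K + 1) := Nat.pow_le_pow_right (by norm_num) (by omega)
    omega)
  have hcop : Pairwise (fun i j => Nat.Coprime (q i) (q j)) := fun i j hij =>
    (Nat.coprime_primes (hqp i) (hqp j)).2 (fun h => hij (hqi h))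
  set Pp := ∏ j, q j with hPp
  have hPppos : 0 < Pp := Finset.prod_pos fun j _ => (hqp j).pos
  set κ := 2 ^ (K + 4) * (Pp * m) with hκ
  specialize H q hqodd hcop κ
  rw [← hPp] at H
  let Ms : Finset ℕ := Finset.univ.image q
  have hMsprod : ∏ x ∈ Ms, x = Pp := by
    rw [Finset.prod_image (fun a _ b _ h => hqi h)]
  have hG : ∀ i, G κ i = 2 ^ (κ * i) := fun i => rfl
  have hGpos : ∀ i, 0 < G κ i := fun i => by rw [hG]; positivity
  set N1 := Am Pp κ m with hN1
  set A0 := Am Pp κ (m + 1) with hA0
  have hAmono : ∀ i j, i ≤ j → Am Pp κ i ≤ Am Pp κ j := by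
    intro i j hij
    induction hij with
    | refl => exact le_rfl
    | step _ ih => refine ih.trans ?_; simp only [Am]; omega
  obtain ⟨X, hX1, hX2, hX3, hX4, hX5⟩ := grid_ruler (2 * N1) K m Ms (G κ) (fun i => Pp * G κ i)
    (fun i => Nat.mul_pos hPppos (hGpos i)) (fun i => Dvd.intro_left _ rfl)
    (fun i => by rw [hG, hG]; exact pow_dvd_pow 2 (Nat.mul_le_mul_left _ (by omega)))
    (hGpos m)
    (fun i h1 h2 => by
      have hs : ∑ j ∈ range i, Pp * G κ j ≤ i * (Pp * G κ (i - 1)) := by
        have := Finset.sum_le_card_nsmul (range i) (fun j => Pp * G κ j) (Pp * G κ (i - 1))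
          (fun j hj => Nat.mul_le_mul_left _ (by
            rw [hG, hG]
            exact Nat.pow_le_pow_right (by norm_num)
              (Nat.mul_le_mul_left _ (by have := Finset.mem_range.1 hj; omega))))
        simpa using this
      have e : G κ i = 2 ^ κ * G κ (i - 1) := by
        rw [hG, hG, ← pow_add]
        congr 1
        obtain ⟨i', rfl⟩ : ∃ i', i = i' + 1 := ⟨i - 1, by omega⟩
        rw [Nat.add_sub_cancel]; ring
      have hk : 2 ^ (K + 4) * (Pp * m) ≤ 2 ^ κ := by
        rw [← hκ]; exact Nat.lt_two_pow_self.le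
      calc 2 ^ (K + 4) * ∑ j ∈ range i, Pp * G κ j ≤ 2 ^ (K + 4) * (i * (Pp * G κ (i - 1))) :=
            Nat.mul_le_mul_left _ hs
        _ ≤ 2 ^ (K + 4) * (m * (Pp * G κ (i - 1))) :=
            Nat.mul_le_mul_left _ (Nat.mul_le_mul_right _ h2)
        _ = (2 ^ (K + 4) * (Pp * m)) * G κ (i - 1) := by ring
        _ ≤ 2 ^ κ * G κ (i - 1) := Nat.mul_le_mul_right _ hk
        _ = G κ i := e.symm)
    (by
      rw [hMsprod, hG]
      refine Nat.Coprime.pow_left _ ?_
      rw [hPp]
      exact Nat.Coprime.prod_right fun j _ => Nat.coprime_two_left.2 (hqodd j))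
    (by
      intro x hx
      obtain ⟨j, -, rfl⟩ := Finset.mem_image.1 hx
      exact hqB j)
  let c : ℕ → ℕ := fun a => 2 ^ a * X
  have hcx : ∀ a, (c a : ℤ) = xm X a := fun a => by simp [c, xm]
  have hXpos : 0 < X := by omega
  have hcmono : StrictMono c := fun a b hab =>
    Nat.mul_lt_mul_of_pos_right (Nat.pow_lt_pow_right (by norm_num) hab) hXpos
  let BadT : ℕ → Prop := fun T => 2 * A0 ≤ T ∧ ¬ ((∀ j, ¬ q j ∣ T) ∧ ∀ j, 1 ≤ j → j ≤ m →
    Pp * G κ (j - 1) ≤ (T - Am Pp κ j) % G κ j ∧
      (T - Am Pp κ j) % G κ j + Pp * G κ (j - 1) ≤ G κ j)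
  refine ⟨N1, 2 * A0, N1 + A0, Pp * G κ m, BadT, c, Nat.mul_pos hPppos (hGpos m), hcmono, ?_, ?_, ?_⟩
  · intro a b c' d hab hcd h1 h2
    have e : (c a : ℤ) - c b - (c c' - c d) = (((2 : ℤ) ^ a - 2 ^ b) - (2 ^ c' - 2 ^ d)) * X := by
      rw [hcx, hcx, hcx, hcx]; exact xm_diff X a b c' d
    have e2 : (c c' : ℤ) - c d - (c a - c b) = -((((2 : ℤ) ^ a - 2 ^ b) - (2 ^ c' - 2 ^ d)) * X) := by
      rw [← e]; ring
    rw [e] at h1
    rw [e2] at h2
    set D : ℤ := ((2 : ℤ) ^ a - 2 ^ b) - (2 ^ c' - 2 ^ d) with hD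
    have hX : (2 * N1 : ℤ) < X := by exact_mod_cast hX1
    have hD0 : D = 0 := by
      by_contra hne
      rcases lt_or_gt_of_ne hne with h | h
      · nlinarith
      · nlinarith
    have h3 : (2 : ℤ) ^ a + 2 ^ d = 2 ^ c' + 2 ^ b := by linarith
    have h4 : (2 : ℕ) ^ a + 2 ^ d = 2 ^ c' + 2 ^ b := by exact_mod_cast h3
    rcases Crest.Agent.R320.Golomb314.two_pow_add_two_pow h4 with ⟨-, h⟩ | ⟨h, -⟩
    · exact h.symm
    · exact absurd h hab
  · intro T hT I hI
    obtain ⟨P, hPc, hP⟩ := hX5 (fun j => (Am Pp κ j : ℤ)) (T : ℤ)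
    have hsub : I ⊆ P.image Prod.fst := by
      intro a ha
      obtain ⟨haK, b, hbK, hba, hbad⟩ := hI a ha
      refine Finset.mem_image.2 ⟨(a, b), hP a b haK hbK (Ne.symm hba) ?_, rfl⟩
      obtain ⟨hn0, hbad⟩ := hbad
      set n := T + c b - c a with hn
      have hca := hT a haK
      have hnz : (T : ℤ) - (xm X a - xm X b) = (n : ℤ) := by
        rw [← hcx, ← hcx, hn, Nat.cast_sub (by omega)]
        push_cast; ring
      rw [hnz]
      by_cases hq : ∀ j, ¬ q j ∣ n
      · right
        have h2 : ¬ ∀ j, 1 ≤ j → j ≤ m → Pp * G κ (j - 1) ≤ (n - Am Pp κ j) % G κ j ∧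
          (n - Am Pp κ j) % G κ j + Pp * G κ (j - 1) ≤ G κ j := fun h => hbad ⟨hq, h⟩
        push Not at h2
        obtain ⟨j, hj1, hj2, h3⟩ := h2
        refine ⟨j, hj1, hj2, ?_⟩
        have hA : Am Pp κ j ≤ n := by
          have := hAmono j (m + 1) (by omega)
          omega
        have hdm := Nat.div_add_mod (n - Am Pp κ j) (G κ j)
        have hmod := Nat.mod_lt (n - Am Pp κ j) (hGpos j)
        set r := (n - Am Pp κ j) % G κ j with hr
        set t := (n - Am Pp κ j) / G κ j with ht
        have hz : (n : ℤ) - Am Pp κ j = G κ j * t + r := by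
          have : ((n - Am Pp κ j : ℕ) : ℤ) = (n : ℤ) - Am Pp κ j := by push_cast [hA]; ring
          rw [← this, ← hdm]; push_cast; ring
        rcases Nat.lt_or_ge r (Pp * G κ (j - 1)) with h4 | h4
        · refine ⟨t, ?_⟩
          have : (n : ℤ) - Am Pp κ j - t * G κ j = r := by rw [hz]; ring
          rw [this, abs_of_nonneg (by positivity)]
          exact_mod_cast h4.le
        · have h5 := h3 h4
          refine ⟨t + 1, ?_⟩
          have : (n : ℤ) - Am Pp κ j - (t + 1) * G κ j = -((G κ j : ℤ) - r) := by rw [hz]; ring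
          rw [this, abs_neg, abs_of_nonneg (by
            have : (r : ℤ) ≤ G κ j := by exact_mod_cast hmod.le
            linarith)]
          have h6 : (G κ j : ℤ) < r + ((Pp * G κ (j - 1) : ℕ) : ℤ) := by exact_mod_cast h5
          linarith
      · left
        push Not at hq
        obtain ⟨j, hj⟩ := hq
        exact ⟨q j, Finset.mem_image.2 ⟨j, Finset.mem_univ _, rfl⟩, by exact_mod_cast hj⟩
    calc I.card ≤ (P.image Prod.fst).card := Finset.card_le_card hsub
      _ ≤ P.card := Finset.card_image_le
      _ ≤ Ms.card + m := hPc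
      _ ≤ k + m := by
        have : Ms.card ≤ k := by
          refine Finset.card_image_le.trans ?_
          simp
        omega
  · intro α phi hphi
    obtain ⟨lam, rho, nu, g1, g2, g3, g4, g5⟩ := H α phi hphi
    have hl : ∀ P v, lam P = some v → P.length ≤ N1 := fun P v h => (g1 P v h).1.le
    have hr : FS phi A0 (Pp * G κ m) rho := by
      intro Q Q' h1 h2 h3
      rcases Nat.lt_or_ge Q.length A0 with h | h
      · rw [eq_of_short h1 h]
      · have h' : A0 ≤ Q'.length := by
          have e := congrArg List.length h1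
          rw [List.length_take, List.length_take] at e
          omega
        exact (g5 Q Q' h h' h1 h3 h2).1
    let nu' : List α → V := fun u => if ∃ v b, Cutv lam rho u v b then nu u else 0
    refine ⟨lam, rho, nu', ?_, hl, ?_, FS.mono hphi (by omega) hr, ?_⟩
    · intro P Q v b h1 h2
      have : nu' (P ++ Q) = nu (P ++ Q) := if_pos ⟨v, b, P, Q, rfl, h1, h2⟩
      rw [this]
      exact (g3 P Q v b h1 h2).symm
    · intro Y hY hbad v
      have hclean : (∀ j, ¬ q j ∣ Y.length) ∧ ∀ j, 1 ≤ j → j ≤ m →
        Pp * G κ (j - 1) ≤ (Y.length - Am Pp κ j) % G κ j ∧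
          (Y.length - Am Pp κ j) % G κ j + Pp * G κ (j - 1) ≤ G κ j := by
        by_contra h
        exact hbad ⟨hY, h⟩
      exact g4 Y hY hclean.1 hclean.2 v
    · intro X X' h1 h2 h3
      have hphiX : phi X = phi X' := by
        rw [← List.take_append_drop (N1 + A0) X, ← List.take_append_drop (N1 + A0) X', hphi, hphi,
          h1, h3]
      by_cases h : ∃ v b, Cutv lam rho X v b
      · have h0 := h
        obtain ⟨v, b, hc⟩ := h
        have hc' := hc.transfer hphi hl hr h1 h2 h3
        have e1 : nu' X = nu X := if_pos h0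
        have e2 : nu' X' = nu X' := if_pos ⟨v, b, hc'⟩
        rw [e1, e2]
        obtain ⟨P, Q, rfl, a1, a2⟩ := hc
        obtain ⟨P', Q', rfl, b1, b2⟩ := hc'
        have k1 := g3 P Q v b a1 a2
        have k2 := g3 P' Q' v b b1 b2
        rw [hphiX] at k1
        rw [k1] at k2
        exact add_left_cancel k2
      · have h' : ¬ ∃ v b, Cutv lam rho X' v b := fun ⟨v, b, hc⟩ =>
          h ⟨v, b, hc.transfer hphi hl hr h1.symm h2.symm h3.symm⟩
        have e1 : nu' X = 0 := if_neg h
        have e2 : nu' X' = 0 := if_neg h'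
        rw [e1, e2]

end Crest.Agent.R320.GadA_277
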