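import Crest.Agent.R320.FinA_400
import Crest.Agent.R320.Golomb_369

/-!
# Row 320: 963's hypothesis `Gad1` (helper400), from the grid gadget with finite-state `nu`
(`FinA_400.grid_nu`) and `Thin_963.thin`.
-/

set_option autoImplicit false

namespace Crest.Agent.R320.GadF_400

open Crest.Agent.R320.Grid_899 Crest.Agent.R320.FinA_400

theorem exists_primes (K k : ℕ) : ∃ q : Fin k → ℕ, (∀ j, (q j).Prime) ∧ (∀ j, 2 ^ (K + 1) ≤ q j) ∧
    (∀ j, Odd (q j)) ∧ Function.Injective q := by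
  have hs := Nat.nth_strictMono Nat.infinite_setOf_prime
  have hge : ∀ n, n ≤ Nat.nth Nat.Prime n := fun n => hs.le_apply
  refine ⟨fun j => Nat.nth Nat.Prime (2 ^ (K + 1) + 3 + j), fun j => Nat.prime_nth_prime _,
    fun j => ?_, fun j => ?_, ?_⟩
  · have := hge (2 ^ (K + 1) + 3 + j)
    show 2 ^ (K + 1) ≤ Nat.nth Nat.Prime (2 ^ (K + 1) + 3 + j)
    omega
  · have h := hge (2 ^ (K + 1) + 3 + j)
    refine (Nat.prime_nth_prime _).odd_of_ne_two fun h2 => ?_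
    rw [h2] at h
    have := Nat.two_pow_pos (K + 1)
    omega
  · intro a b h
    have := hs.injective h
    exact Fin.ext (by omega)

theorem sum_bound (κ : ℕ) (hκ : 1 ≤ κ) (i : ℕ) :
    ∑ j ∈ Finset.range (i + 1), (2 : ℤ) ^ (κ * j) ≤ 2 * 2 ^ (κ * i) := by
  induction i with
  | zero => simp
  | succ i ih =>
    rw [Finset.sum_range_succ]
    have h1 : (2 : ℤ) * 2 ^ (κ * i) ≤ 2 ^ (κ * (i + 1)) := by
      rw [← pow_succ']
      exact pow_le_pow_right₀ (by norm_num) (by nlinarith)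
    linarith

theorem gad1 (S V : Type) [Monoid S] [Finite S] [AddCommGroup V] [Finite V] (act : V → S → V) :
    ∃ C0 : ℕ, ∀ K : ℕ, ∃ (N1 La Per : ℕ) (c : ℕ → ℕ) (Bad : ℕ → Prop),
      0 < Per ∧ 0 < N1 ∧ (∀ i j, i < j → j < K → c i < c j) ∧
      (∀ k k' l l', k < K → k' < K → l < K → l' < K → k' ≠ k → l' ≠ l →
        c k + c l' < c l + c k' + 2 * N1 → c l + c k' < c k + c l' + 2 * N1 → k = l) ∧
      (∀ T, (∀ k < K, c k ≤ T) → La ≤ T → ∀ F : Finset (ℕ × ℕ),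
        (∀ p ∈ F, p.1 < K ∧ p.2 < K ∧ p.1 ≠ p.2 ∧ Bad (T + c p.2 - c p.1)) → F.card ≤ C0) ∧
      (∀ T, La ≤ T → (Bad (T + Per) ↔ Bad T)) ∧
      ∀ (α : Type) (f : α → S), ∃ (lam rho : List α → Option V) (nu : List α → V),
        (∀ P Q v b, lam P = some v → rho Q = some b →
          b = act v ((P ++ Q).map f).prod + nu (P ++ Q)) ∧
        (∀ P v, lam P = some v → P.length ≤ N1) ∧
        (∀ Y : List α, La ≤ Y.length → ¬ Bad Y.length → ∀ v, ∃ P Q, Y = P ++ Q ∧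
          lam P = some v ∧ (rho Q).isSome) ∧
        (∀ u u' : List α, La ≤ u.length → La ≤ u'.length → u.take La = u'.take La →
          ((u.drop La).map f).prod = ((u'.drop La).map f).prod →
          u.length % Per = u'.length % Per → nu u = nu u') := by
  classical
  obtain ⟨k, m, H⟩ := grid_nu S V act
  refine ⟨k + m, fun K => ?_⟩
  obtain ⟨q, hqp, hqK, hqo, hqi⟩ := exists_primes K k
  set Ms : ℕ := ∏ j, q j with hMs
  have hMpos : 0 < Ms := Finset.prod_pos fun j _ => (hqp j).pos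
  have hcop : Pairwise (fun i j => Nat.Coprime (q i) (q j)) := fun i j hij =>
    (Nat.coprime_primes (hqp i) (hqp j)).2 fun h => hij (hqi h)
  set κ : ℕ := K + 5 + Ms with hκ
  have hG : ∀ i, (0 : ℕ) < G κ i := fun i => G_pos i
  obtain ⟨N, hN⟩ : ∃ N, N = Am Ms κ (m + 1) := ⟨_, rfl⟩
  have hNpos : 0 < N := by
    have h1 : N = Am Ms κ m + G κ m + Ms * G κ m := by rw [hN]; rfl
    have := hG m
    omega
  -- the ruler
  set Mf : Finset ℕ := Finset.univ.image q with hMf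
  have hcardM : Mf.card ≤ k := by
    have := Finset.card_image_le (s := (Finset.univ : Finset (Fin k))) (f := q)
    simpa using this
  have hqM : ∀ x ∈ Mf, ∃ j, q j = x := fun x hx => by
    obtain ⟨j, -, h⟩ := Finset.mem_image.1 hx
    exact ⟨j, h⟩
  obtain ⟨X, hX0, hXpos, hX⟩ := Thin963.thin K m Mf (fun i => (G κ i : ℤ))
    (fun i => (Ms : ℤ) * (G κ i : ℤ)) (fun i => (Am Ms κ i : ℤ))
    (fun x hx => by
      obtain ⟨j, rfl⟩ := hqM x hx
      exact ⟨hqp j, hqK j⟩)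
    (fun x hx => by
      obtain ⟨j, rfl⟩ := hqM x hx
      rw [Nat.isCoprime_iff_coprime]
      exact Nat.Coprime.pow_right _ (Nat.coprime_two_right.2 (hqo j)))
    (by exact_mod_cast hG m)
    (fun i j hij => by exact_mod_cast G_dvd (κ := κ) hij)
    (fun i => by
      have := hG i
      positivity)
    (fun i => Dvd.intro_left _ rfl)
    (fun i hi => by
      have h1 := sum_bound κ (by omega) i
      have h2 : ∑ j ∈ Finset.range (i + 1), (Ms : ℤ) * (G κ j : ℤ) =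
          (Ms : ℤ) * ∑ j ∈ Finset.range (i + 1), (2 : ℤ) ^ (κ * j) := by
        rw [Finset.mul_sum]
        refine Finset.sum_congr rfl fun j _ => ?_
        simp [G]
      rw [h2]
      have h3 : (Ms : ℤ) ≤ 2 ^ Ms := by exact_mod_cast (Nat.lt_two_pow_self (n := Ms)).le
      have h4 : ((G κ (i + 1) : ℕ) : ℤ) = 2 ^ (K + 4) * (2 ^ Ms * (2 * 2 ^ (κ * i))) := by
        simp only [G]
        push_cast
        rw [← pow_succ', ← pow_add, ← pow_add]
        congr 1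
        rw [hκ]; ring
      rw [h4]
      refine mul_le_mul_of_nonneg_left ?_ (by positivity)
      exact mul_le_mul h3 h1 (by positivity) (by positivity))
    (2 * (N : ℤ))
  obtain ⟨Xn, hXn⟩ : ∃ Xn : ℕ, (Xn : ℤ) = X := ⟨X.toNat, Int.toNat_of_nonneg hXpos.le⟩
  have hXn1 : 0 < Xn := by
    have : (0 : ℤ) < (Xn : ℤ) := by rw [hXn]; exact hXpos
    exact_mod_cast this
  have hXn2 : 2 * N ≤ Xn := by
    have : (2 * N : ℤ) ≤ (Xn : ℤ) := by rw [hXn]; exact hX0
    exact_mod_cast this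
  refine ⟨N, 2 * N, Ms * G κ m, fun j => Xn * 2 ^ j, fun T =>
    Thin963.BadT Mf m (fun i => (G κ i : ℤ)) (fun i => (Ms : ℤ) * (G κ i : ℤ))
      (fun i => (Am Ms κ i : ℤ)) (T : ℤ), Nat.mul_pos hMpos (hG m), hNpos, ?_, ?_, ?_, ?_, ?_⟩
  · intro i j hij _
    exact Nat.mul_lt_mul_of_pos_left (Nat.pow_lt_pow_right (by norm_num) hij) hXn1
  · intro a a' l l' _ _ _ _ h1 h2 h3 h4
    have e : (Xn : ℤ) * ((2 : ℤ) ^ a - 2 ^ a' - (2 ^ l - 2 ^ l')) < Xn := by
      have h3' : ((Xn * 2 ^ a + Xn * 2 ^ l' : ℕ) : ℤ) < ((Xn * 2 ^ l + Xn * 2 ^ a' + 2 * N : ℕ) : ℤ) := by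
        exact_mod_cast h3
      push_cast at h3'
      have : (2 * N : ℤ) ≤ Xn := by exact_mod_cast hXn2
      nlinarith
    have e' : -(Xn : ℤ) < (Xn : ℤ) * ((2 : ℤ) ^ a - 2 ^ a' - (2 ^ l - 2 ^ l')) := by
      have h4' : ((Xn * 2 ^ l + Xn * 2 ^ a' : ℕ) : ℤ) < ((Xn * 2 ^ a + Xn * 2 ^ l' + 2 * N : ℕ) : ℤ) := by
        exact_mod_cast h4
      push_cast at h4'
      have : (2 * N : ℤ) ≤ Xn := by exact_mod_cast hXn2
      nlinarith
    have hXz : (0 : ℤ) < Xn := by exact_mod_cast hXn1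
    have e1 : (2 : ℤ) ^ a - 2 ^ a' - (2 ^ l - 2 ^ l') < 1 := by
      by_contra h
      push Not at h
      nlinarith
    have e2 : -1 < (2 : ℤ) ^ a - 2 ^ a' - (2 ^ l - 2 ^ l') := by
      by_contra h
      push Not at h
      nlinarith
    have e3 : (2 : ℤ) ^ a - 2 ^ a' = 2 ^ l - 2 ^ l' := by omega
    exact (Crest.Agent.R320.G369.pow_diff (Ne.symm h1) (Ne.symm h2) e3).1
  · intro T hT _ F hF
    have h1 := hX (T : ℤ)
    have hsub : F.image Prod.swap ⊆ (((Finset.range K) ×ˢ (Finset.range K)).filter (fun p =>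
        p.1 ≠ p.2 ∧ Thin963.BadT Mf m (fun i => (G κ i : ℤ)) (fun i => (Ms : ℤ) * (G κ i : ℤ))
          (fun i => (Am Ms κ i : ℤ)) ((T : ℤ) + X * 2 ^ p.1 - X * 2 ^ p.2))) := by
      intro p hp
      obtain ⟨p', hp', rfl⟩ := Finset.mem_image.1 hp
      obtain ⟨a1, a2, a3, a4⟩ := hF p' hp'
      have hle := hT _ a1
      simp only [Finset.mem_filter, Finset.mem_product, Finset.mem_range, Prod.fst_swap,
        Prod.snd_swap]
      refine ⟨⟨a2, a1⟩, Ne.symm a3, ?_⟩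
      have e : ((T + Xn * 2 ^ p'.2 - Xn * 2 ^ p'.1 : ℕ) : ℤ) =
          (T : ℤ) + X * 2 ^ p'.2 - X * 2 ^ p'.1 := by
        rw [Nat.cast_sub (by simp only at hle; omega)]
        push_cast
        rw [hXn]
      rw [← e]
      exact a4
    have h2 := Finset.card_le_card hsub
    rw [Finset.card_image_of_injective _ Prod.swap_injective] at h2
    calc F.card ≤ _ := h2
      _ ≤ Mf.card + m := h1
      _ ≤ k + m := by omega
  · intro T _
    simp only [Thin963.BadT]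
    have hd1 : ∀ x ∈ Mf, ((x : ℤ) ∣ (((T + Ms * G κ m : ℕ)) : ℤ) ↔ (x : ℤ) ∣ (T : ℤ)) := by
      intro x hx
      obtain ⟨j, rfl⟩ := hqM x hx
      have h1 : (q j) ∣ Ms * G κ m := Dvd.dvd.mul_right (Finset.dvd_prod_of_mem q (Finset.mem_univ j)) _
      rw [Int.natCast_dvd_natCast, Int.natCast_dvd_natCast]
      exact (Nat.dvd_add_left h1)
    have hd2 : ∀ i < m, ∀ e : ℤ, ((G κ (i + 1) : ℤ) ∣ (((T + Ms * G κ m : ℕ)) : ℤ) - (Am Ms κ (i + 1) : ℤ) + e ↔
        (G κ (i + 1) : ℤ) ∣ (T : ℤ) - (Am Ms κ (i + 1) : ℤ) + e) := by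
      intro i hi e
      have h1 : (G κ (i + 1) : ℤ) ∣ ((Ms * G κ m : ℕ) : ℤ) := by
        rw [Int.natCast_dvd_natCast]
        exact Dvd.dvd.mul_left (G_dvd (by omega)) _
      have h2 : (((T + Ms * G κ m : ℕ)) : ℤ) - (Am Ms κ (i + 1) : ℤ) + e =
          ((Ms * G κ m : ℕ) : ℤ) + ((T : ℤ) - (Am Ms κ (i + 1) : ℤ) + e) := by
        push_cast; ring
      rw [h2]
      exact (dvd_add_right h1)
    constructor
    · rintro (⟨x, hx, h⟩ | ⟨i, hi, e, he, h⟩)
      · exact Or.inl ⟨x, hx, (hd1 x hx).1 h⟩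
      · exact Or.inr ⟨i, hi, e, he, (hd2 i hi e).1 h⟩
    · rintro (⟨x, hx, h⟩ | ⟨i, hi, e, he, h⟩)
      · exact Or.inl ⟨x, hx, (hd1 x hx).2 h⟩
      · exact Or.inr ⟨i, hi, e, he, (hd2 i hi e).2 h⟩
  · intro α f
    obtain ⟨lam, rho, nu, h1, h2, h3, h4⟩ := H q hqo hcop κ α f
    rw [← hMs, ← hN] at h1 h3 h4
    refine ⟨lam, rho, nu, h2, h1, ?_, fun u u' a b c d e => h4 u u' a b c e d⟩
    intro Y hY hbad v
    have hAm : ∀ j, j ≤ m → Am Ms κ j ≤ N := fun j hj => by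
      rw [hN]; exact Am_mono (by omega)
    refine h3 Y hY (fun j hj => hbad (Or.inl ⟨q j, Finset.mem_image_of_mem q (Finset.mem_univ j), ?_⟩))
      (fun j hj1 hjm => ?_) v
    · exact_mod_cast hj
    · obtain ⟨i, rfl⟩ : ∃ i, j = i + 1 := ⟨j - 1, by omega⟩
      have hA := hAm (i + 1) hjm
      set r := (Y.length - Am Ms κ (i + 1)) % G κ (i + 1) with hr
      have hdm := Nat.div_add_mod (Y.length - Am Ms κ (i + 1)) (G κ (i + 1))
      rw [← hr] at hdm
      obtain ⟨D, hD⟩ : ∃ D, D = (Y.length - Am Ms κ (i + 1)) / G κ (i + 1) := ⟨_, rfl⟩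
      rw [← hD] at hdm
      have hrlt : r < G κ (i + 1) := Nat.mod_lt _ (hG _)
      have hTe : (Y.length : ℤ) - (Am Ms κ (i + 1) : ℤ) =
          (G κ (i + 1) : ℤ) * (D : ℤ) + r := by
        have h6 : ((Y.length - Am Ms κ (i + 1) : ℕ) : ℤ) = (Y.length : ℤ) - (Am Ms κ (i + 1) : ℤ) :=
          Nat.cast_sub (by omega)
        have h7 : ((G κ (i + 1) * D + r : ℕ) : ℤ) = ((Y.length - Am Ms κ (i + 1) : ℕ) : ℤ) :=
          congrArg _ hdm
        rw [h6, Nat.cast_add, Nat.cast_mul] at h7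
        exact h7.symm
      have hsub1 : i + 1 - 1 = i := rfl
      rw [hsub1]
      constructor
      · by_contra hlt
        push Not at hlt
        refine hbad (Or.inr ⟨i, by omega, -(r : ℤ), ?_, ?_⟩)
        · show |-(r : ℤ)| ≤ (Ms : ℤ) * (G κ i : ℤ)
          rw [abs_neg, Nat.abs_cast]
          exact_mod_cast hlt.le
        · show (G κ (i + 1) : ℤ) ∣ (Y.length : ℤ) - (Am Ms κ (i + 1) : ℤ) + -(r : ℤ)
          rw [hTe]
          exact ⟨(D : ℤ), by ring⟩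
      · by_contra hlt
        push Not at hlt
        refine hbad (Or.inr ⟨i, by omega, (G κ (i + 1) : ℤ) - r, ?_, ?_⟩)
        · show |(G κ (i + 1) : ℤ) - r| ≤ (Ms : ℤ) * (G κ i : ℤ)
          rw [abs_of_nonneg (by have : (r : ℤ) < G κ (i + 1) := by exact_mod_cast hrlt
                                linarith)]
          have : ((G κ (i + 1) : ℕ) : ℤ) < r + Ms * G κ i := by exact_mod_cast hlt
          linarith
        · show (G κ (i + 1) : ℤ) ∣ (Y.length : ℤ) - (Am Ms κ (i + 1) : ℤ) + ((G κ (i + 1) : ℤ) - r)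
          rw [hTe]
          exact ⟨(D : ℤ) + 1, by ring⟩

end Crest.Agent.R320.GadF_400
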