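import Crest.Agent.R320.Gad2_464
import Crest.Agent.R320.Fin_211

/-!
# Row 320: `Fin_211.Gad` from `Gad2_464.gad` (helper464)
-/

set_option autoImplicit false

namespace Crest.Agent.R320.GadF_464

open Crest.Agent.R320.ExactR_237 (pr pr_append)

theorem gad {α S V : Type} [Monoid S] [Finite S] [AddCommGroup V] [Finite V]
    (act : V → S → V) (f : α → S) : Crest.Agent.R320.Fin_211.Gad act f := by
  classical
  obtain ⟨C0, h⟩ := Crest.Agent.R320.Gad2_464.gad α S V f act
  refine ⟨C0, fun K => ?_⟩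
  obtain ⟨N, M0, c, BadT, lam, rho, nu, hN, hM0, g1, g2, g3, g4, g5, g6, g7, g8⟩ := h K
  refine ⟨N, N, N, M0, BadT, c, lam, rho, nu, ?_, ?_, ?_, hM0, ?_, g6, ?_, ?_⟩
  · intro P Q v r hP hQ
    exact (g2 P Q v r hP hQ).symm
  · intro P v hP
    exact (g1 P v hP).le
  · intro Y hY hb v
    obtain ⟨P, Q, b, e1, e2, e3⟩ := g3 Y v hY hb
    exact ⟨P, Q, e1.symm, e2, by rw [e3]; rfl⟩
  · intro Y Y' hY hY' ht hl hd
    refine g5 Y Y' hY hY' ht hl ?_
    have e : ∀ Z : List α, (Z.map f).prod = ((Z.take N).map f).prod * ((Z.drop N).map f).prod := by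
      intro Z
      rw [← List.prod_append, ← List.map_append, List.take_append_drop]
    rw [e Y, e Y', ht]
    congr 1
  · intro i i' j j' hi hi' hj hj' hii hjj h1 h2
    have h3 := g7 i i' j j' hi hi' hj hj' (Ne.symm hii) (by omega) (by omega)
    exact h3.1
  · intro T hT I hI
    have h1 := g8 T (fun i hi => hT i hi)
    refine le_trans ?_ h1
    have hsub : I ⊆ ((Finset.range K ×ˢ Finset.range K).filter
        (fun p => p.1 ≠ p.2 ∧ BadT (T + c p.2 - c p.1))).image Prod.fst := by
      intro k hk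
      obtain ⟨hk1, k', hk2, hk3, hk4⟩ := hI k hk
      rw [Finset.mem_image]
      refine ⟨(k, k'), ?_, rfl⟩
      rw [Finset.mem_filter, Finset.mem_product, Finset.mem_range, Finset.mem_range]
      exact ⟨⟨hk1, hk2⟩, Ne.symm hk3, hk4⟩
    exact (Finset.card_le_card hsub).trans Finset.card_image_le

end Crest.Agent.R320.GadF_464
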