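import Crest.Agent.R320.Grid_219
import Crest.Agent.R320.RulerGrid_506
import Crest.Agent.R320.RegDep_10

/-!
# Row 320 (helper93): the scheme-1 gadget on all words in the form wanted by the assemblies

`Grid_219.grid_gadget` + the ruler of `RulerGrid_506`, with locality and regularity of `rho`, `nu`.
-/

set_option autoImplicit false

namespace Crest.Agent.R320.GadF_93

open Crest.Agent.R320 Crest.Agent.R320.Grid219

/-- value determined by the prefix of length `A`, the product of the rest, the length mod `P` -/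
def Loc {α S X : Type*} (φ : List α → S) (A P : ℕ) (g : List α → X) : Prop :=
  ∀ u u' : List α, A ≤ u.length → A ≤ u'.length → u.take A = u'.take A →
    φ (u.drop A) = φ (u'.drop A) → u.length % P = u'.length % P → g u = g u'

theorem mod_sub {a b x G Pm : ℕ} (h : a % Pm = b % Pm) (hG : G ∣ Pm) (ha : x ≤ a) (hb : x ≤ b) :
    (a - x) % G = (b - x) % G := by
  have h1 : a ≡ b [MOD G] := (show a ≡ b [MOD Pm] from h).of_dvd hG
  have h2 : (a - x) + x ≡ (b - x) + x [MOD G] := by
    rw [Nat.sub_add_cancel ha, Nat.sub_add_cancel hb]; exact h1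
  exact Nat.ModEq.add_right_cancel' x h2

theorem div_add_eq {b c G : ℕ} (hG : 0 < G) : (b / G = (b + c) / G) ↔ (b % G + c) / G = 0 := by
  have e : b + c = (b % G + c) + G * (b / G) := by
    have := Nat.mod_add_div b G; omega
  have e2 : (b + c) / G = (b % G + c) / G + b / G := by
    rw [e, Nat.add_mul_div_left _ _ hG]
  constructor
  · intro h; omega
  · intro h; omega

section

variable {α S : Type*} [Monoid S] {φ : List α → S}

theorem view_loc (hφ : ∀ u v, φ (u ++ v) = φ u * φ v) (P : Par) {A Pm : ℕ}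
    (hA : P.Am P.m + P.G P.m ≤ A) (hPm : P.G P.m ∣ Pm)
    {u u' : List α} (h1 : A ≤ u.length) (h2 : A ≤ u'.length) (h3 : u.take A = u'.take A)
    (h4 : φ (u.drop A) = φ (u'.drop A)) (h5 : u.length % Pm = u'.length % Pm) {i : ℕ}
    (hi : i < P.m) : view φ P u i = view φ P u' i := by
  have hx : ∀ j, j ≤ P.m → P.Am j - P.A i ≤ P.Am P.m := fun j hj => by
    have := P.Am_mono hj; omega
  have hGd : ∀ j, j ≤ P.m → P.G j ∣ Pm := fun j hj => (P.G_dvd hj).trans hPm
  have hGle : ∀ j, j ≤ P.m → P.G j ≤ P.G P.m := fun j hj => Nat.le_of_dvd (P.hG _) (P.G_dvd hj)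
  have hmod : ∀ j, j ≤ P.m → (u.length - (P.Am j - P.A i)) % P.G j =
      (u'.length - (P.Am j - P.A i)) % P.G j := fun j hj =>
    mod_sub h5 (hGd j hj) (by have := hx j hj; omega) (by have := hx j hj; omega)
  have hpos : ∀ (w : List α), A ≤ w.length → ∀ j, j ≤ P.m → w.length - P.gaR i w.length j =
      (P.Am j - P.A i) + (w.length - (P.Am j - P.A i)) % P.G j := by
    intro w hw j hj
    unfold Par.gaR
    have a1 := Nat.div_add_mod (w.length - (P.Am j - P.A i)) (P.G j)
    have a2 := hx j hj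
    omega
  have hposle : ∀ (w : List α), A ≤ w.length → ∀ j, j ≤ P.m →
      w.length - P.gaR i w.length j ≤ A := by
    intro w hw j hj
    rw [hpos w hw j hj]
    have a1 := hx j hj
    have a2 := Nat.mod_lt (w.length - (P.Am j - P.A i)) (P.hG j)
    have a3 := hGle j hj
    omega
  have hpe : ∀ j, j ≤ P.m → u.length - P.gaR i u.length j = u'.length - P.gaR i u'.length j := by
    intro j hj
    rw [hpos u h1 j hj, hpos u' h2 j hj, hmod j hj]
  have hcl : ∀ j, j ≤ P.m → (P.Cl i u.length j ↔ P.Cl i u'.length j) := by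
    intro j hj
    unfold Par.Cl
    rw [div_add_eq (P.hG j), div_add_eq (P.hG j), hmod j hj]
  have hdv : P.G i ∣ u.length ↔ P.G i ∣ u'.length := by
    have := mod_sub (x := 0) h5 (hGd i hi.le) (Nat.zero_le _) (Nat.zero_le _)
    rw [Nat.sub_zero, Nat.sub_zero] at this
    rw [Nat.dvd_iff_mod_eq_zero, Nat.dvd_iff_mod_eq_zero, this]
  have hcond : (P.G i ∣ u.length ∧ ∀ j, i < j → j ≤ P.m → P.Cl i u.length j) ↔
      (P.G i ∣ u'.length ∧ ∀ j, i < j → j ≤ P.m → P.Cl i u'.length j) := by
    constructor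
    · rintro ⟨a, b⟩
      exact ⟨hdv.1 a, fun j x y => (hcl j y).1 (b j x y)⟩
    · rintro ⟨a, b⟩
      exact ⟨hdv.2 a, fun j x y => (hcl j y).2 (b j x y)⟩
  have htk : ∀ s, s ≤ A → u.take s = u'.take s := by
    intro s hs
    have e1 : u.take s = (u.take A).take s := by rw [List.take_take, min_eq_left hs]
    have e2 : u'.take s = (u'.take A).take s := by rw [List.take_take, min_eq_left hs]
    rw [e1, e2, h3]
  unfold view
  by_cases hc : (P.G i ∣ u.length ∧ ∀ j, i < j → j ≤ P.m → P.Cl i u.length j)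
  · rw [if_pos hc, if_pos (hcond.1 hc)]
    congr 2
    · apply List.map_congr_left
      intro j hj
      obtain ⟨-, h7⟩ := mem_drop_range hj
      unfold segR
      rw [hpe j h7.le, hpe (j + 1) (by omega)]
      rw [htk _ (by
        have := hposle u' h2 (j + 1) (by omega)
        exact this)]
    · rw [hpe P.m le_rfl]
      have key : ∀ w : List α, A ≤ w.length → ∀ s, s ≤ A →
          φ (w.drop s) = φ ((w.take A).drop s) * φ (w.drop A) := by
        intro w hw s hs
        rw [← hφ]
        congr 1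
        conv_lhs => rw [← List.take_append_drop A w]
        rw [List.drop_append_of_le_length (by rw [List.length_take]; omega)]
      have hs := hposle u' h2 P.m le_rfl
      rw [key u h1 _ hs, key u' h2 _ hs, h3, h4]
  · rw [if_neg hc, if_neg (fun h => hc (hcond.2 h))]

end

open Classical in
/-- **the scheme-1 gadget on all words, final form** -/
theorem gad (S V : Type*) [Monoid S] [Finite S] [AddCommGroup V] [Finite V]
    (act : V → S → V) :
    ∃ C0 : ℕ, ∀ K : ℕ, ∃ (N1 Pm La : ℕ) (c : ℕ → ℕ) (Bad : ℕ → Prop),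
      0 < N1 ∧ 0 < Pm ∧ 2 * N1 ≤ La ∧ StrictMono c ∧ (∀ i, 4 * N1 < c i) ∧
      (∀ i j, i < j → j < K → c i + 4 * N1 < c j) ∧
      (∀ i j k l, i < K → j < K → k < K → l < K → i ≠ j → k ≠ l → ¬ (i = k ∧ j = l) →
        (4 * N1 : ℤ) < |((c i : ℤ) - c j) - ((c k : ℤ) - c l)|) ∧
      (∀ T, Bad (T + Pm) ↔ Bad T) ∧
      (∀ T : ℕ, ((Finset.range K ×ˢ Finset.range K).filter (fun p : ℕ × ℕ =>
        p.1 ≠ p.2 ∧ c p.1 ≤ T + c p.2 ∧ Bad (T + c p.2 - c p.1))).card ≤ C0) ∧
      ∀ (α : Type*) [Finite α] (φ : List α → S), φ [] = 1 →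
        (∀ u v, φ (u ++ v) = φ u * φ v) →
        ∃ (lam rho : List α → Option V) (nu : List α → V),
          (∀ P v, lam P = some v → P.length ≤ N1) ∧
          (∀ Q b, rho Q = some b → N1 ≤ Q.length) ∧
          (∀ P Q v b, lam P = some v → rho Q = some b → b = act v (φ (P ++ Q)) + nu (P ++ Q)) ∧
          (∀ u : List α, 2 * N1 ≤ u.length → ¬ Bad u.length → ∀ v, ∃ P Q, u = P ++ Q ∧
            lam P = some v ∧ (rho Q).isSome) ∧
          Loc φ La Pm rho ∧ Loc φ La Pm nu ∧
          (∀ b, Language.IsRegular ({Q | rho Q = some b} : Language α)) ∧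
          (∀ v, Language.IsRegular ({u | nu u = v} : Language α)) := by
  obtain ⟨m, r, hm, hmain⟩ := grid_gadget S V act
  refine ⟨r + m, fun K => ?_⟩
  obtain ⟨Ms, hcard, hMs, hgad⟩ := hmain (8 * 4 ^ (K + 2 + 1))
  set M := ∏ p ∈ Ms, p with hMdef
  have hMpos : 0 < M := Finset.prod_pos fun p hp => (hMs p hp).1.pos
  set Gam := 100 * 4 ^ (K + 2 + 1) * M + 1 with hGam
  have hGpos : 0 < Gam := by omega
  have hcop : Nat.Coprime Gam M := by
    rw [hGam]
    rw [mul_comm]
    exact (Nat.coprime_mul_left_add_left 1 M (100 * 4 ^ (K + 2 + 1))).2 (Nat.coprime_one_left M)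
  let P : Par :=
    { m := m
      M := M
      G := fun j => Gam ^ j
      Am := fun j => ∑ i ∈ Finset.range j, (Gam ^ i + M * Gam ^ i)
      hM := hMpos
      hG := fun j => pow_pos hGpos j
      hdvd := fun j => ⟨Gam, by rw [pow_succ]⟩
      hA := fun j => by simp only [Finset.sum_range_succ]; ring }
  have hPcop : ∀ j, Nat.Coprime (P.G j) P.M := fun j => Nat.Coprime.pow_left j hcop
  set N1 := P.Am m with hN1
  have hN1pos : 0 < N1 := by
    have h1 : P.Am 1 ≤ P.Am m := P.Am_mono hm
    have h2 : P.Am 1 = 1 + M := by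
      show ∑ i ∈ Finset.range 1, (Gam ^ i + M * Gam ^ i) = 1 + M
      simp
    omega
  obtain ⟨x, hx1, hx2, hx3⟩ := RulerGrid_506.exists_ruler (K + 2) m (8 * N1) M Gam Ms
    (fun j => (P.Am j : ℤ)) hMpos
    (fun p hp => ⟨(hMs p hp).1, (hMs p hp).2, Finset.dvd_prod_of_mem _ hp⟩) (by omega)
  have hgap : ∀ i j, i < j → j < K + 2 → x i + 4 * N1 < x j := by
    intro i j hij hj
    have h1 := hx2 i j j i (by omega) hj hj (by omega) (by omega) (by omega) (by omega)
    have h2 := hx1 hij
    have h3 : (x i : ℤ) < x j := by exact_mod_cast h2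
    rw [abs_of_neg (by linarith)] at h1
    push_cast at h1
    have : (x i : ℤ) + 4 * N1 < x j := by linarith
    exact_mod_cast this
  refine ⟨N1, M * Gam ^ m, N1 + (P.Am m + P.G m), fun i => x (i + 1),
    fun T => RulerGrid_506.Bad Ms m M Gam (fun j => (P.Am j : ℤ)) (T : ℤ),
    hN1pos, Nat.mul_pos hMpos (pow_pos hGpos _), by omega,
    fun i j hij => hx1 (by omega), ?_, fun i j hij hj => hgap _ _ (by omega) (by omega), ?_, ?_,
    ?_, ?_⟩
  · intro i
    have h1 := hgap 0 1 (by omega) (by omega)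
    have h2 : x 1 ≤ x (i + 1) := hx1.monotone (by omega)
    show 4 * N1 < x (i + 1)
    omega
  · intro i j k l hi hj hk hl hij hkl hne
    have h1 := hx2 (i + 1) (j + 1) (k + 1) (l + 1) (by omega) (by omega) (by omega) (by omega)
      (by omega) (by omega) (by omega)
    push_cast at h1
    have : (0 : ℤ) < N1 := by exact_mod_cast hN1pos
    linarith
  · -- periodicity
    intro T
    have hd1 : ∀ p ∈ Ms, (p : ℤ) ∣ ((M * Gam ^ m : ℕ) : ℤ) := fun p hp => by
      have : p ∣ M * Gam ^ m := Dvd.dvd.mul_right (Finset.dvd_prod_of_mem _ hp) _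
      exact_mod_cast this
    have hd2 : ∀ j, j ≤ m → ((Gam : ℤ) ^ j) ∣ ((M * Gam ^ m : ℕ) : ℤ) := fun j hj => by
      have : Gam ^ j ∣ M * Gam ^ m := Dvd.dvd.mul_left (pow_dvd_pow _ hj) _
      exact_mod_cast this
    show RulerGrid_506.Bad Ms m M Gam (fun j => (P.Am j : ℤ)) ((T + M * Gam ^ m : ℕ) : ℤ) ↔
      RulerGrid_506.Bad Ms m M Gam (fun j => (P.Am j : ℤ)) (T : ℤ)
    rw [Nat.cast_add]
    unfold RulerGrid_506.Bad
    refine or_congr ?_ ?_
    · constructor
      · rintro ⟨p, hp, h⟩
        exact ⟨p, hp, (dvd_add_left (hd1 p hp)).1 h⟩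
      · rintro ⟨p, hp, h⟩
        exact ⟨p, hp, (dvd_add_left (hd1 p hp)).2 h⟩
    · constructor
      · rintro ⟨j, hj1, hj2, k, hk⟩
        obtain ⟨q, hq⟩ := hd2 j hj2
        refine ⟨j, hj1, hj2, k - q, ?_⟩
        rw [hq] at hk
        have e : (T : ℤ) - (P.Am j : ℤ) - (k - q) * (Gam : ℤ) ^ j =
            (T : ℤ) + (Gam : ℤ) ^ j * q - (P.Am j : ℤ) - k * (Gam : ℤ) ^ j := by ring
        rw [e]
        exact hk
      · rintro ⟨j, hj1, hj2, k, hk⟩
        obtain ⟨q, hq⟩ := hd2 j hj2
        refine ⟨j, hj1, hj2, k + q, ?_⟩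
        rw [hq]
        have e : (T : ℤ) + (Gam : ℤ) ^ j * q - (P.Am j : ℤ) - (k + q) * (Gam : ℤ) ^ j =
            (T : ℤ) - (P.Am j : ℤ) - k * (Gam : ℤ) ^ j := by ring
        rw [e]
        exact hk
  · -- spoil count
    intro T
    have h1 := hx3 (T : ℤ)
    refine le_trans ?_ (h1.trans (by omega))
    refine Finset.card_le_card_of_injOn (fun p : ℕ × ℕ => (p.1 + 1, p.2 + 1)) ?_ ?_
    · rintro ⟨i, j⟩ hij
      have hij' := Finset.mem_filter.1 (Finset.mem_coe.1 hij)
      obtain ⟨h2, h3, h4, h5⟩ := hij'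
      rw [Finset.mem_product, Finset.mem_range, Finset.mem_range] at h2
      refine Finset.mem_coe.2 (Finset.mem_filter.2 ⟨?_, ?_, ?_⟩)
      · rw [Finset.mem_product, Finset.mem_range, Finset.mem_range]
        exact ⟨by simpa using (by omega : i + 1 < K + 2), by simpa using (by omega : j + 1 < K + 2)⟩
      · show i + 1 ≠ j + 1
        have : i ≠ j := h3
        omega
      · show RulerGrid_506.Bad Ms m M Gam (fun j => (P.Am j : ℤ))
          ((T : ℤ) + (x (j + 1) : ℤ) - (x (i + 1) : ℤ))
        have e : ((T : ℤ) + (x (j + 1) : ℤ) - (x (i + 1) : ℤ)) =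
            ((T + x (j + 1) - x (i + 1) : ℕ) : ℤ) := by
          have h4' : x (i + 1) ≤ T + x (j + 1) := h4
          push_cast [Nat.cast_sub h4']
          ring
        rw [e]
        exact h5
    · rintro ⟨i, j⟩ - ⟨k, l⟩ - h
      have h2 : i + 1 = k + 1 := congrArg Prod.fst h
      have h3 : j + 1 = l + 1 := congrArg Prod.snd h
      have : i = k := by omega
      have : j = l := by omega
      subst i; subst j; rfl
  · -- the gadget
    intro α _ φ hφ1 hφ
    obtain ⟨lam, rho, nu, hs, hl, hr, hrl, hc⟩ := hgad P rfl rfl hPcop φ hφ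
    set A0 := P.Am m + P.G m with hA0
    have hrloc : ∀ A, A0 ≤ A → ∀ u u' : List α, A ≤ u.length → A ≤ u'.length →
        u.take A = u'.take A → φ (u.drop A) = φ (u'.drop A) →
        u.length % (M * Gam ^ m) = u'.length % (M * Gam ^ m) → rho u = rho u' := by
      intro A hA u u' h1 h2 h3 h4 h5
      refine hrl u u' ?_ ?_ ?_
      · show P.Am m ≤ _ ↔ P.Am m ≤ _
        constructor
        · intro _; omega
        · intro _; omega
      · have h6 : u.length ≡ u'.length [MOD M * Gam ^ m] := h5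
        exact h6.of_dvd (Dvd.intro _ rfl)
      · intro i hi
        exact view_loc hφ P (A := A) (Pm := M * Gam ^ m) hA (Dvd.intro_left _ rfl) h1 h2 h3 h4 h5 hi
    let Cut : List α → V → Prop := fun u y => ∃ p q v b, u = p ++ q ∧ lam p = some v ∧
      rho q = some b ∧ y = b - act v (φ u)
    have cut_eq : ∀ u y, Cut u y → y = nu u := by
      rintro u y ⟨p, q, v, b, rfl, h1, h2, rfl⟩
      rw [hs p q v b h1 h2]
      abel
    let nu' : List α → V := fun u => if h : ∃ y, Cut u y then h.choose else 0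
    have nu'_eq : ∀ u y, Cut u y → nu' u = y := by
      intro u y h
      have hex : ∃ y, Cut u y := ⟨y, h⟩
      have e : nu' u = hex.choose := by
        show (if h : ∃ y, Cut u y then h.choose else 0) = _
        rw [dif_pos hex]
      rw [e, cut_eq u _ hex.choose_spec, cut_eq u y h]
    have nu'_zero : ∀ u, (¬ ∃ y, Cut u y) → nu' u = 0 := by
      intro u h
      show (if h : ∃ y, Cut u y then h.choose else 0) = _
      rw [dif_neg h]
    have cut_loc : ∀ u u' : List α, N1 + A0 ≤ u.length → N1 + A0 ≤ u'.length →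
        u.take (N1 + A0) = u'.take (N1 + A0) → φ (u.drop (N1 + A0)) = φ (u'.drop (N1 + A0)) →
        u.length % (M * Gam ^ m) = u'.length % (M * Gam ^ m) → ∀ y, Cut u y → Cut u' y := by
      rintro u u' h1 h2 h3 h4 h5 y ⟨p, q, v, b, hu, hp, hq, hy⟩
      have hpl := (hl p v hp).2
      have hpN : p.length < N1 := hpl
      have e1 : u.take p.length = u'.take p.length := by
        have a1 : u.take p.length = (u.take (N1 + A0)).take p.length := by
          rw [List.take_take, min_eq_left (by omega)]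
        have a2 : u'.take p.length = (u'.take (N1 + A0)).take p.length := by
          rw [List.take_take, min_eq_left (by omega)]
        rw [a1, a2, h3]
      have e2 : p = u'.take p.length := by
        rw [← e1, hu, List.take_left]
      have e3 : q = u.drop p.length := by rw [hu, List.drop_left]
      have hφu : φ u = φ u' := by
        have a1 : u = u.take (N1 + A0) ++ u.drop (N1 + A0) := (List.take_append_drop _ _).symm
        have a2 : u' = u'.take (N1 + A0) ++ u'.drop (N1 + A0) := (List.take_append_drop _ _).symm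
        rw [a1, a2, hφ, hφ, h3, h4]
      refine ⟨p, u'.drop p.length, v, b, ?_, hp, ?_, ?_⟩
      · conv_lhs => rw [← List.take_append_drop p.length u']
        rw [← e2]
      · rw [← hq, e3]
        refine (hrloc (N1 + A0 - p.length) (by omega) _ _ ?_ ?_ ?_ ?_ ?_).symm
        · rw [List.length_drop]; omega
        · rw [List.length_drop]; omega
        · have b1 : (u.drop p.length).take (N1 + A0 - p.length) =
              (u.take (N1 + A0)).drop p.length := by rw [List.drop_take]
          have b2 : (u'.drop p.length).take (N1 + A0 - p.length) =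
              (u'.take (N1 + A0)).drop p.length := by rw [List.drop_take]
          rw [b1, b2, h3]
        · rw [List.drop_drop, List.drop_drop]
          have : p.length + (N1 + A0 - p.length) = N1 + A0 := by omega
          rw [this, h4]
        · rw [List.length_drop, List.length_drop]
          exact mod_sub h5 dvd_rfl (by omega) (by omega)
      · rw [hy, hφu]
    have hLr : Loc φ (N1 + A0) (M * Gam ^ m) rho := fun u u' h1 h2 h3 h4 h5 =>
      hrloc (N1 + A0) (by omega) u u' h1 h2 h3 h4 h5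
    have hLn : Loc φ (N1 + A0) (M * Gam ^ m) nu' := by
      intro u u' h1 h2 h3 h4 h5
      by_cases h : ∃ y, Cut u y
      · obtain ⟨y, hy⟩ := h
        rw [nu'_eq u y hy, nu'_eq u' y (cut_loc u u' h1 h2 h3 h4 h5 y hy)]
      · have h' : ¬ ∃ y, Cut u' y := by
          rintro ⟨y, hy⟩
          exact h ⟨y, cut_loc u' u h2 h1 h3.symm h4.symm h5.symm y hy⟩
        rw [nu'_zero u h, nu'_zero u' h']
    have hPmpos : 0 < M * Gam ^ m := Nat.mul_pos hMpos (pow_pos hGpos _)
    refine ⟨lam, rho, nu', fun p v h => (hl p v h).2.le, hr, ?_, ?_, hLr, hLn, ?_, ?_⟩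
    · intro p q v b h1 h2
      rw [nu'_eq (p ++ q) (b - act v (φ (p ++ q))) ⟨p, q, v, b, rfl, h1, h2, rfl⟩]
      abel
    · intro u hu hb v
      have hb' : (∀ p ∈ Ms, ¬ p ∣ u.length) ∧ ¬ P.BadG u.length := by
        constructor
        · intro p hp hd
          exact hb (Or.inl ⟨p, hp, by exact_mod_cast hd⟩)
        · rintro ⟨j, hj1, hj2, k, hk1, hk2⟩
          refine hb (Or.inr ⟨j, hj1, hj2, k, ?_⟩)
          have e1 : (P.Am j : ℤ) + (Gam : ℤ) ^ j * k ≤ u.length + M * (Gam : ℤ) ^ (j - 1) := by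
            have := hk1
            have h' : P.Am j + Gam ^ j * k ≤ u.length + M * Gam ^ (j - 1) := this
            exact_mod_cast h'
          have e2 : (u.length : ℤ) ≤ P.Am j + (Gam : ℤ) ^ j * k + M * (Gam : ℤ) ^ (j - 1) := by
            have h' : u.length ≤ P.Am j + Gam ^ j * k + M * Gam ^ (j - 1) := hk2
            exact_mod_cast h'
          rw [abs_le]
          constructor
          · linarith
          · linarith
      obtain ⟨p, q, b, h1, h2, h3⟩ := hc u (by
        show P.Am m + P.Am m ≤ _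
        omega) hb'.1 hb'.2 v
      exact ⟨p, q, h1, h2, by rw [h3]; rfl⟩
    · intro b
      exact RegDep_10.regular_fibre φ hφ1 hφ (N1 + A0) _ hPmpos rho hLr (some b)
    · intro v
      exact RegDep_10.regular_fibre φ hφ1 hφ (N1 + A0) _ hPmpos nu' hLn v

end Crest.Agent.R320.GadF_93
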