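import Mathlib
import Crest.Agent.R320.GridG_19
import Crest.Agent.R320.GridRuler_257

/-!
`GadgetHyp` of helper970 #14101 from `GridG_19.grid` and `GridRuler_257.ruler`.
-/

set_option autoImplicit false

namespace Crest.Agent.R320.GadHyp_387

open Crest.Agent.R320.GridG_19

def GadgetHyp (S V : Type) [Monoid S] [AddCommGroup V] (act : V → S → V) : Prop :=
  ∃ C0 : ℕ, ∀ K : ℕ, ∃ (N M0 : ℕ) (x : ℕ → ℕ) (BadT : ℕ → Prop), 0 < M0 ∧
    (∀ T, BadT (T + M0) ↔ BadT T) ∧
    (∀ i j, i < j → j < K → x i < x j) ∧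
    (∀ a b d e, a < K → b < K → d < K → e < K → a ≠ b → d ≠ e → ¬ (a = d ∧ b = e) →
      2 * (N:ℤ) < |((x a:ℤ) - x b) - ((x d:ℤ) - x e)|) ∧
    (∀ T, ∀ F : Finset (ℕ × ℕ), (∀ p ∈ F, p.1 < K ∧ p.2 < K ∧ p.1 ≠ p.2 ∧ x p.2 ≤ T ∧
      BadT (T + x p.1 - x p.2)) → F.card ≤ C0) ∧
    ∀ (α : Type) (φ : List α → S), φ [] = 1 → (∀ u v, φ (u ++ v) = φ u * φ v) →
      ∃ (lam rho : List α → Option V) (nu : List α → V),
        (∀ P v, lam P = some v → P.length ≤ N) ∧
        (∀ P v Q b, lam P = some v → rho Q = some b → b = act v (φ (P ++ Q)) + nu (P ++ Q)) ∧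
        (∀ u, 2*N ≤ u.length → ¬ BadT u.length → ∀ v, ∃ P Q, u = P ++ Q ∧ lam P = some v ∧
          (rho Q).isSome) ∧
        (∀ u u', 2*N ≤ u.length → 2*N ≤ u'.length → u.take (2*N) = u'.take (2*N) →
          u.length % M0 = u'.length % M0 → φ (u.drop (2*N)) = φ (u'.drop (2*N)) → nu u = nu u')

theorem gadgetHyp (S V : Type) [Monoid S] [Finite S] [AddCommGroup V] [Finite V]
    (act : V → S → V) : GadgetHyp S V act := by
  obtain ⟨m, r, hg⟩ := grid.{0} S V act
  refine ⟨r + m, fun K => ?_⟩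
  obtain ⟨Ms, hcard, hpr, hg2⟩ := hg (4^K + 2)
  set M := ∏ q ∈ Ms, q with hM
  have hMpos : 0 < M := Finset.prod_pos fun q hq => (hpr q hq).1.pos
  set e := 16 * 4^K * M with he
  let G : ℕ → ℕ := fun k => 2^(e*k)
  have hGp : ∀ k, 0 < G k := fun k => by positivity
  have hGd : ∀ a b, a ≤ b → G a ∣ G b := fun a b h =>
    pow_dvd_pow 2 (Nat.mul_le_mul_left e h)
  have hcop : ∀ k, Nat.Coprime M (G k) := by
    intro k
    rw [hM]
    apply Nat.Coprime.prod_left
    intro q hq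
    apply Nat.Coprime.pow_right
    rw [Nat.coprime_primes (hpr q hq).1 Nat.prime_two]
    have h5 := (hpr q hq).2
    have h6 : 0 < 4^K := by positivity
    omega
  have hGb : ∀ j, 16 * 4^K * (M * G j) ≤ G (j+1) := by
    intro j
    have h1 : G (j+1) = 2^e * G j := by
      change 2^(e*(j+1)) = 2^e * 2^(e*j)
      rw [← pow_add]; congr 1; ring
    have h2 : 16 * 4^K * (M * G j) = e * G j := by rw [he]; ring
    rw [h1, h2]
    exact Nat.mul_le_mul_right _ (Nat.lt_two_pow_self).le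
  set N := Am G M 0 m + M + Ac G M 0 m with hN
  obtain ⟨U, hU1, hU2, hU3, hU4⟩ := GridRuler_257.ruler K m Ms M G (fun j => Am G M 0 j) N hMpos
    (fun k hk => ⟨Finset.dvd_prod_of_mem _ hk, by have := (hpr k hk).2; omega⟩)
    (hGp 0) (fun j => hGd _ _ (Nat.le_succ j)) hGb (hcop m)
  refine ⟨N, M * G m, fun a => U * 4^a,
    fun T => GridRuler_257.BadZ Ms m M G (fun j => Am G M 0 j) (T : ℤ),
    Nat.mul_pos hMpos (hGp m), ?_, ?_, ?_, ?_, ?_⟩
  · intro T
    have := GridRuler_257.BadZ_period (Ms := Ms) (m := m) (M := M) (G := G)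
      (A := fun j => Am G M 0 j) (fun k hk => Finset.dvd_prod_of_mem _ hk)
      (fun j => hGd _ _ (Nat.le_succ j)) (T : ℤ)
    have e1 : ((T + M * G m : ℕ) : ℤ) = (T : ℤ) + ((M * G m : ℕ) : ℤ) := by push_cast; ring
    show GridRuler_257.BadZ Ms m M G (fun j => Am G M 0 j) ((T + M * G m : ℕ) : ℤ) ↔
      GridRuler_257.BadZ Ms m M G (fun j => Am G M 0 j) (T : ℤ)
    rw [e1]
    exact this
  · intro i j hij _
    have := hU2 i j hij
    show U * 4^i < U * 4^j
    omega
  · intro a b c d _ _ _ _ hab _ hne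
    rcases hU3 a b c d hab with h | h
    · exact absurd h hne
    · have hN0 : (0:ℤ) ≤ (N:ℤ) := by positivity
      have : 2 * (N:ℤ) ≤ 4 * (N:ℤ) := by linarith
      exact lt_of_le_of_lt this h
  · intro T F hF
    refine (hU4 (T : ℤ) F ?_).trans (Nat.add_le_add_right hcard m)
    intro ab hab
    obtain ⟨h1, h2, h3, h4, h5⟩ := hF ab hab
    refine ⟨h1, h2, h3, ?_⟩
    have h4' : U * 4^ab.2 ≤ T := h4
    have e1 : ((T + U * 4^ab.1 - U * 4^ab.2 : ℕ) : ℤ)
        = (T:ℤ) + ((U * 4^ab.1 : ℕ) : ℤ) - ((U * 4^ab.2 : ℕ) : ℤ) := by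
      rw [Nat.cast_sub (by omega), Nat.cast_add]
    rw [← e1]
    exact h5
  · intro α φ _ hφ
    obtain ⟨lam, rho, nu, g1, g2, _, g4, g5⟩ := hg2 G 0 hGp hGd hcop α φ hφ
    refine ⟨lam, rho, nu, ?_, ?_, ?_, ?_⟩
    · intro P v h
      have := (g2 P v h).2
      omega
    · intro P v Q b h1 h2
      exact g1 P Q v b h1 h2
    · intro u hu hB v
      have hcl := GridRuler_257.clear_of_not_bad (Ms := Ms) (m := m) (M := M) (G := G)
        (A := fun j => Am G M 0 j) hGp (T := u.length) (by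
          intro j _ hj
          have := Am_mono G M 0 hj
          show Am G M 0 j ≤ u.length
          omega) hB
      obtain ⟨P, Q, h1, h2, h3⟩ := g4 u (by omega) (by omega) hcl.1 (by
        rintro ⟨k, hk, h⟩
        have h6 := hcl.2 (k+1) (by omega) (by omega)
        simp only [Nat.add_sub_cancel] at h6
        rcases h with h | h <;> omega) v
      exact ⟨P, Q, h1.symm, h2, h3⟩
    · intro u u' h1 h2 h3 h4 h5
      apply g5 u u' (by omega) (by omega)
      · have hle : Ac G M 0 m ≤ 2 * N := by omega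
        have e1 : u.take (Ac G M 0 m) = (u.take (2*N)).take (Ac G M 0 m) := by
          rw [List.take_take, min_eq_left hle]
        have e2 : u'.take (Ac G M 0 m) = (u'.take (2*N)).take (Ac G M 0 m) := by
          rw [List.take_take, min_eq_left hle]
        rw [e1, e2, h3]
      · exact h4
      · rw [← List.take_append_drop (2*N) u, ← List.take_append_drop (2*N) u', hφ, hφ, h3, h5]

end Crest.Agent.R320.GadHyp_387
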