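import Crest.Agent.R320.GadR_360

/-!
# Row 320 (helper360): the whole scheme-1 gadget on all words, in one theorem
-/

set_option autoImplicit false
set_option linter.unusedSectionVars false

namespace Crest.Agent.R320.GadM_360

open Finset Crest.Agent.R320 Crest.Agent.R320.Grid_899 Crest.Agent.R320.GadR_360

/-- one modulus catches at most one difference. -/
theorem mod_nat {q L : ℕ} (hc : Nat.Coprime q L) {U U' : ℕ} {d : ℤ} (hd : d ≠ 0)
    (hdq : |d| < q) (hUU : (U' : ℤ) - U = (L : ℤ) * d) (b1 : q ∣ U) (b2 : q ∣ U') : False := by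
  have h1 : (q : ℤ) ∣ (L : ℤ) * d := by
    rw [← hUU]
    exact dvd_sub (by exact_mod_cast b2) (by exact_mod_cast b1)
  have h2 : IsCoprime (q : ℤ) (L : ℤ) := Nat.isCoprime_iff_coprime.2 hc
  have h3 : (q : ℤ) ∣ d := h2.dvd_of_dvd_mul_left h1
  exact hd (Int.eq_zero_of_abs_lt_dvd h3 hdq)

/-- the bad lengths. -/
def Bad (Ms κ m : ℕ) {k : ℕ} (q : Fin k → ℕ) (C : ℕ → ℕ) (T : ℕ) : Prop :=
  (∃ j, q j ∣ T) ∨ ∃ j, (1 ≤ j ∧ j ≤ m) ∧
    ¬ (Ms * G κ (j - 1) ≤ (T + C j) % G κ j ∧ (T + C j) % G κ j + Ms * G κ (j - 1) ≤ G κ j)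

theorem card_le_events {E β : Type*} [Fintype E] (S : Finset β) (Q : E → β → Prop)
    (h1 : ∀ k ∈ S, ∃ e, Q e k)
    (h2 : ∀ e, ∀ k ∈ S, ∀ l ∈ S, Q e k → Q e l → k = l) : S.card ≤ Fintype.card E := by
  classical
  have hf : ∃ f : β → Option E, ∀ k ∈ S, ∃ e, f k = some e ∧ Q e k := by
    refine ⟨fun k => if h : k ∈ S then some (h1 k h).choose else none, fun k hk => ?_⟩
    exact ⟨(h1 k hk).choose, by simp [hk], (h1 k hk).choose_spec⟩
  obtain ⟨f, hf⟩ := hf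
  have hc : S.card ≤ (Finset.univ.image (some : E → Option E)).card := by
    refine Finset.card_le_card_of_injOn f ?_ ?_
    · intro k hk
      obtain ⟨e, he, -⟩ := hf k hk
      rw [he]
      exact Finset.mem_coe.2 (Finset.mem_image_of_mem _ (Finset.mem_univ e))
    · intro k hk l hl hkl
      obtain ⟨e, he, hQ⟩ := hf k hk
      obtain ⟨e', he', hQ'⟩ := hf l hl
      have hee : e = e' := by
        have h := he.symm.trans (hkl.trans he')
        exact Option.some.inj h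
      subst hee
      exact h2 e k hk l hl hQ hQ'
  refine hc.trans (Finset.card_image_le.trans ?_)
  exact le_of_eq Finset.card_univ

open Classical in
theorem thin {Ms κ m k K : ℕ} (q : Fin k → ℕ) (C : ℕ → ℕ) (hκ : 1 ≤ κ) (hMs : 0 < Ms)
    (hE : 2 * 2 ^ (K + 1) * (8 * Ms + 1) + 2 * Ms ≤ 2 ^ κ)
    (hq : ∀ j, 2 ^ (K + 1) < q j)
    (hc : ∀ j, Nat.Coprime (q j) ((8 * Ms + 1) * Sg κ (m + 1))) (T : ℕ)
    (hT : ∀ i < K, (8 * Ms + 1) * Sg κ (m + 1) * 2 ^ i ≤ T) :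
    ((range K ×ˢ range K).filter (fun p => p.1 ≠ p.2 ∧
      Bad Ms κ m q C (T + (8 * Ms + 1) * Sg κ (m + 1) * 2 ^ p.2 -
        (8 * Ms + 1) * Sg κ (m + 1) * 2 ^ p.1))).card ≤ k + m := by
  set L := (8 * Ms + 1) * Sg κ (m + 1) with hL
  set u : ℕ × ℕ → ℕ := fun p => T + L * 2 ^ p.2 - L * 2 ^ p.1 with hu
  have key := card_le_events (E := Fin k ⊕ Fin m)
    ((range K ×ˢ range K).filter (fun p => p.1 ≠ p.2 ∧ Bad Ms κ m q C (u p)))
    (fun e p => match e with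
      | Sum.inl j => q j ∣ u p
      | Sum.inr i => ¬ (Ms * G κ i.1 ≤ (u p + C (i.1 + 1)) % G κ (i.1 + 1) ∧
          (u p + C (i.1 + 1)) % G κ (i.1 + 1) + Ms * G κ i.1 ≤ G κ (i.1 + 1))) ?_ ?_
  · simpa using key
  · intro p hp
    rw [Finset.mem_filter] at hp
    obtain ⟨-, -, h | ⟨j, ⟨hj1, hj2⟩, hj⟩⟩ := hp
    · obtain ⟨j, hj⟩ := h
      exact ⟨Sum.inl j, hj⟩
    · refine ⟨Sum.inr ⟨j - 1, by omega⟩, ?_⟩
      have e1 : j - 1 + 1 = j := by omega
      simpa only [e1] using hj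
  · intro e p hp p' hp' h h'
    rw [Finset.mem_filter, Finset.mem_product, Finset.mem_range, Finset.mem_range] at hp hp'
    obtain ⟨⟨ha, hb⟩, hne, -⟩ := hp
    obtain ⟨⟨ha', hb'⟩, hne', -⟩ := hp'
    by_contra hpp
    set d : ℤ := (2 ^ p'.2 - 2 ^ p'.1) - (2 ^ p.2 - 2 ^ p.1) with hd
    have hd0 : d ≠ 0 := by
      intro h0
      have h1 : (2 : ℕ) ^ p'.2 + 2 ^ p.1 = 2 ^ p.2 + 2 ^ p'.1 := by
        have : (((2 : ℕ) ^ p'.2 + 2 ^ p.1 : ℕ) : ℤ) = ((2 ^ p.2 + 2 ^ p'.1 : ℕ) : ℤ) := by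
          push_cast; linarith
        exact_mod_cast this
      obtain ⟨r1, r2⟩ := golomb (a := p'.2) (b := p'.1) (a' := p.2) (b' := p.1)
        (fun h => hne' h.symm) h1
      exact hpp (Prod.ext r2.symm r1.symm)
    have hpow : ∀ i < K, (0 : ℤ) < 2 ^ i ∧ (2 : ℤ) * 2 ^ i ≤ 2 ^ K := by
      intro i hi
      refine ⟨by positivity, ?_⟩
      calc (2 : ℤ) * 2 ^ i = 2 ^ (i + 1) := by ring
        _ ≤ 2 ^ K := pow_le_pow_right₀ (by norm_num) (by omega)
    have hdE : |d| ≤ 2 ^ K := by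
      have a1 := hpow _ ha
      have a2 := hpow _ hb
      have a3 := hpow _ ha'
      have a4 := hpow _ hb'
      rw [abs_le]
      constructor <;> linarith [a1.1, a1.2, a2.1, a2.2, a3.1, a3.2, a4.1, a4.2]
    have hUU : ((u p' : ℕ) : ℤ) - (u p : ℕ) = (L : ℤ) * d := by
      have h1 : L * 2 ^ p.1 ≤ T := hT _ ha
      have h2 : L * 2 ^ p'.1 ≤ T := hT _ ha'
      have e1 : ((u p : ℕ) : ℤ) = T + L * 2 ^ p.2 - L * 2 ^ p.1 := by
        simp only [hu]
        rw [Nat.cast_sub (by omega)]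
        push_cast; ring
      have e2 : ((u p' : ℕ) : ℤ) = T + L * 2 ^ p'.2 - L * 2 ^ p'.1 := by
        simp only [hu]
        rw [Nat.cast_sub (by omega)]
        push_cast; ring
      rw [e1, e2, hd]
      ring
    match e, h, h' with
    | Sum.inl j, h, h' =>
      refine mod_nat (hc j) hd0 ?_ hUU h h'
      have h1 := hq j
      have h2 : ((2 ^ (K + 1) : ℕ) : ℤ) < (q j : ℤ) := by exact_mod_cast h1
      have h3 : (2 : ℤ) ^ K ≤ 2 ^ (K + 1) := pow_le_pow_right₀ (by norm_num) (by omega)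
      push_cast at h2
      linarith
    | Sum.inr i, h, h' =>
      refine band_nat (Ms := Ms) (κ := κ) (j := i.1 + 1) (m := m) (x := 8 * Ms + 1)
        (E := 2 ^ (K + 1)) (U := u p + C (i.1 + 1)) (U' := u p' + C (i.1 + 1)) (d := d)
        hκ hMs (by omega) (by omega) rfl hE hd0 ?_ ?_ ?_ ?_
      · push_cast
        have h3 : (2 : ℤ) ^ K ≤ 2 ^ (K + 1) := pow_le_pow_right₀ (by norm_num) (by omega)
        linarith
      · push_cast at hUU ⊢
        rw [hL] at hUU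
        push_cast at hUU
        linarith
      · simpa using h
      · simpa using h'

end Crest.Agent.R320.GadM_360
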