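import Crest.Agent.R320.GridG_19
import Crest.Agent.R320.Thin_963
import Crest.Agent.R320.Fin_963

/-!
# Row 320: 963's `Gad1` from 19's closed grid gadget and 963's ruler (helper418)
-/

set_option autoImplicit false

namespace Crest.Agent.R320.GadP_418

open Crest.Agent.R320.GridG_19

/-- growth of the grid sizes -/
theorem sum_pow_le (M Q : ℕ) (hQ : 2 ≤ Q) (i : ℕ) :
    ∑ j ∈ Finset.range (i + 1), M * Q ^ j ≤ 2 * M * Q ^ i := by
  induction i with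
  | zero => simp; nlinarith
  | succ i ih =>
    rw [Finset.sum_range_succ]
    have h1 : Q ^ (i + 1) = Q ^ i * Q := pow_succ Q i
    have h2 : 2 * M * Q ^ i ≤ M * Q ^ (i + 1) := by
      rw [h1]
      calc 2 * M * Q ^ i = M * (Q ^ i * 2) := by ring
        _ ≤ M * (Q ^ i * Q) := by gcongr
    calc ∑ j ∈ Finset.range (i + 1), M * Q ^ j + M * Q ^ (i + 1)
        ≤ 2 * M * Q ^ i + M * Q ^ (i + 1) := by gcongr
      _ ≤ M * Q ^ (i + 1) + M * Q ^ (i + 1) := by gcongr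
      _ = 2 * M * Q ^ (i + 1) := by ring

theorem badG_thin {G : ℕ → ℕ} {M m T : ℕ} (hG : ∀ k, 0 < G k)
    (hT : Am G M 0 m ≤ T) (h : BadG G M 0 m T) :
    ∃ i < m, ∃ e : ℤ, |e| ≤ ((M * G i : ℕ) : ℤ) ∧
      ((G (i + 1) : ℕ) : ℤ) ∣ (T : ℤ) - ((Am G M 0 (i + 1) : ℕ) : ℤ) + e := by
  obtain ⟨k, hk, h⟩ := h
  have hA : Am G M 0 (k + 1) ≤ T := (Am_mono G M 0 (show k + 1 ≤ m from hk)).trans hT
  refine ⟨k, hk, ?_⟩
  obtain ⟨D, hD⟩ : ∃ D, D = T - Am G M 0 (k + 1) := ⟨_, rfl⟩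
  have hDz : (T : ℤ) - ((Am G M 0 (k + 1) : ℕ) : ℤ) = (D : ℤ) := by
    rw [hD]; push_cast [Nat.cast_sub hA]; ring
  rw [← hD] at h
  have hdm := Nat.div_add_mod D (G (k + 1))
  have hlt := Nat.mod_lt D (hG (k + 1))
  have hz : (D : ℤ) = (G (k + 1) : ℤ) * ((D / G (k + 1) : ℕ) : ℤ) +
      ((D % G (k + 1) : ℕ) : ℤ) := by
    exact_mod_cast hdm.symm
  rcases h with h | h
  · refine ⟨-((D % G (k + 1) : ℕ) : ℤ), ?_, ?_⟩
    · rw [abs_neg, abs_of_nonneg (by positivity)]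
      exact_mod_cast h.le
    · rw [hDz]
      refine ⟨((D / G (k + 1) : ℕ) : ℤ), ?_⟩
      linarith
  · refine ⟨((G (k + 1) : ℕ) : ℤ) - ((D % G (k + 1) : ℕ) : ℤ), ?_, ?_⟩
    · have h1 : ((D % G (k + 1) : ℕ) : ℤ) < ((G (k + 1) : ℕ) : ℤ) := by exact_mod_cast hlt
      have h2 : ((G (k + 1) : ℕ) : ℤ) ≤ ((D % G (k + 1) : ℕ) : ℤ) + ((M * G k : ℕ) : ℤ) := by
        exact_mod_cast h
      rw [abs_of_nonneg (by linarith)]
      linarith
    · rw [hDz]
      refine ⟨((D / G (k + 1) : ℕ) : ℤ) + 1, ?_⟩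
      linarith

theorem badG_period {G : ℕ → ℕ} {M m T : ℕ} (hd : ∀ a b, a ≤ b → G a ∣ G b)
    (hT : Am G M 0 m ≤ T) : BadG G M 0 m (T + M * G m) ↔ BadG G M 0 m T := by
  unfold BadG
  have key : ∀ k < m, (T + M * G m - Am G M 0 (k + 1)) % G (k + 1) =
      (T - Am G M 0 (k + 1)) % G (k + 1) := by
    intro k hk
    have hA : Am G M 0 (k + 1) ≤ T := (Am_mono G M 0 (show k + 1 ≤ m from hk)).trans hT
    obtain ⟨q, hq⟩ := hd (k + 1) m hk
    rw [show T + M * G m - Am G M 0 (k + 1) = (T - Am G M 0 (k + 1)) + G (k + 1) * (M * q) by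
      rw [hq, show G (k + 1) * (M * q) = M * (G (k + 1) * q) by ring]; omega]
    exact Nat.add_mul_mod_self_left _ _ _
  constructor
  · rintro ⟨k, hk, h⟩
    rw [key k hk] at h
    exact ⟨k, hk, h⟩
  · rintro ⟨k, hk, h⟩
    rw [← key k hk] at h
    exact ⟨k, hk, h⟩

/-- **963's `Gad1`** -/
theorem gad1 (S V : Type) [Monoid S] [Finite S] [AddCommGroup V] [Finite V]
    (act : V → S → V) : Crest.Agent.R320.Fin_963.Gad1 S V act := by
  classical
  obtain ⟨m, r, hgrid⟩ := grid.{0} S V act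
  refine ⟨r + m, fun K => ?_⟩
  obtain ⟨Ms, hcard, hpr, hgr⟩ := hgrid (2 ^ (K + 1))
  set M : ℕ := ∏ q ∈ Ms, q with hM
  have hM0 : 0 < M := Finset.prod_pos fun q hq => (hpr q hq).1.pos
  obtain ⟨Q, hQ⟩ : ∃ Q : ℕ, Q = 2 ^ (K + 5 + M) := ⟨_, rfl⟩
  have hQ2 : 2 ≤ Q := by
    rw [hQ]
    calc 2 = 2 ^ 1 := rfl
      _ ≤ 2 ^ (K + 5 + M) := Nat.pow_le_pow_right (by norm_num) (by omega)
  have hQpos : 0 < Q := by omega
  have hQM : 2 ^ (K + 5) * M ≤ Q := by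
    rw [hQ]
    calc 2 ^ (K + 5) * M ≤ 2 ^ (K + 5) * 2 ^ M :=
          Nat.mul_le_mul le_rfl (Nat.lt_two_pow_self).le
      _ = 2 ^ (K + 5 + M) := (pow_add 2 (K + 5) M).symm
  obtain ⟨G, hGdef⟩ : ∃ G : ℕ → ℕ, G = fun k => Q ^ k := ⟨_, rfl⟩
  have hG : ∀ k, 0 < G k := fun k => by rw [hGdef]; exact pow_pos hQpos k
  have hd : ∀ a b, a ≤ b → G a ∣ G b := fun a b h => by
    rw [hGdef]; exact pow_dvd_pow Q h
  have hcopq : ∀ q ∈ Ms, ∀ k, Nat.Coprime q (G k) := by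
    intro q hq k
    have h2 : q ≠ 2 := by
      have h3 := (hpr q hq).2
      have h4 : 2 ^ 1 ≤ 2 ^ (K + 1) := Nat.pow_le_pow_right (by norm_num) (by omega)
      have h5 : (2 : ℕ) ^ 1 = 2 := rfl
      omega
    have h6 : Nat.Coprime q 2 :=
      (Nat.coprime_primes (hpr q hq).1 Nat.prime_two).2 h2
    rw [hGdef, hQ]
    exact Nat.Coprime.pow_right _ (Nat.Coprime.pow_right _ h6)
  have hcop : ∀ k, Nat.Coprime M (G k) := fun k =>
    Nat.Coprime.prod_left fun q hq => hcopq q hq k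
  -- the ruler
  obtain ⟨N1, hN1⟩ : ∃ N1 : ℕ, N1 = Am G M 0 m + 1 := ⟨_, rfl⟩
  obtain ⟨X, hX0, hXpos, hX⟩ := Crest.Agent.R320.Thin963.thin K m Ms
    (fun i => ((G i : ℕ) : ℤ)) (fun i => ((M * G i : ℕ) : ℤ))
    (fun i => ((Am G M 0 i : ℕ) : ℤ))
    (fun q hq => ⟨(hpr q hq).1, (hpr q hq).2.le⟩)
    (fun q hq => Nat.isCoprime_iff_coprime.2 (hcopq q hq m))
    (by exact_mod_cast hG m) (fun i j hij => by exact_mod_cast hd i j hij)
    (fun i => by exact_mod_cast Nat.mul_pos hM0 (hG i))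
    (fun i => by exact_mod_cast Dvd.intro_left M rfl)
    (by
      intro i _
      have h1 := sum_pow_le M Q hQ2 i
      have h2 : 2 ^ (K + 4) * ∑ j ∈ Finset.range (i + 1), M * G j ≤ G (i + 1) := by
        rw [hGdef]
        calc 2 ^ (K + 4) * ∑ j ∈ Finset.range (i + 1), M * Q ^ j
            ≤ 2 ^ (K + 4) * (2 * M * Q ^ i) := Nat.mul_le_mul le_rfl h1
          _ = (2 ^ (K + 5) * M) * Q ^ i := by ring
          _ ≤ Q * Q ^ i := Nat.mul_le_mul hQM le_rfl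
          _ = Q ^ (i + 1) := by ring
      exact_mod_cast h2)
    (2 * (N1 : ℤ))
  obtain ⟨x, rfl⟩ : ∃ x : ℕ, X = (x : ℤ) := ⟨X.toNat, (Int.toNat_of_nonneg hXpos.le).symm⟩
  have hx0 : 0 < x := by exact_mod_cast hXpos
  obtain ⟨c, hc⟩ : ∃ c : ℕ → ℕ, c = fun j => x * 2 ^ j := ⟨_, rfl⟩
  obtain ⟨La, hLa⟩ : ∃ La : ℕ, La = 2 * Am G M 0 m + M + G m + c K := ⟨_, rfl⟩
  have hcK : ∀ k < K, c k ≤ c K := fun k hk => by
    rw [hc]
    exact Nat.mul_le_mul le_rfl (Nat.pow_le_pow_right (by norm_num) hk.le)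
  refine ⟨N1, La, M * G m, c, fun T => (∃ q ∈ Ms, q ∣ T) ∨ BadG G M 0 m T,
    Nat.mul_pos hM0 (hG m), by omega, ?_, ?_, ?_, ?_, ?_⟩
  · intro i j hij _
    rw [hc]
    exact Nat.mul_lt_mul_of_pos_left (Nat.pow_lt_pow_right (by norm_num) hij) hx0
  · intro k k' l l' hk hk' hl hl' hne hne' h1 h2
    -- differences are multiples of `x ≥ 2 N1`
    have h3 : ((2 : ℤ) ^ k - 2 ^ k') = 2 ^ l - 2 ^ l' := by
      by_contra hne3
      have hxz : (2 * (N1 : ℤ)) ≤ (x : ℤ) := hX0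
      have e1 : (x : ℤ) * 2 ^ k + x * 2 ^ l' < x * 2 ^ l + x * 2 ^ k' + 2 * N1 := by
        rw [hc] at h1; exact_mod_cast h1
      have e2 : (x : ℤ) * 2 ^ l + x * 2 ^ k' < x * 2 ^ k + x * 2 ^ l' + 2 * N1 := by
        rw [hc] at h2; exact_mod_cast h2
      obtain ⟨D, hD⟩ : ∃ D : ℤ, D = ((2 : ℤ) ^ k - 2 ^ k') - (2 ^ l - 2 ^ l') := ⟨_, rfl⟩
      have hD0 : D ≠ 0 := by rw [hD]; exact sub_ne_zero.2 hne3
      have e3 : (x : ℤ) * D < 2 * N1 := by rw [hD]; linarith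
      have e4 : -(2 * (N1 : ℤ)) < (x : ℤ) * D := by rw [hD]; linarith
      have hxp : (0 : ℤ) < x := by exact_mod_cast hx0
      rcases lt_or_gt_of_ne hD0 with h | h
      · have : D ≤ -1 := by omega
        nlinarith
      · have : 1 ≤ D := by omega
        nlinarith
    exact (Crest.Agent.R320.G369.pow_diff hne.symm hne'.symm h3).1
  · intro T hT hTLa F hF
    refine le_trans (Finset.card_le_card_of_injOn (fun p => (p.2, p.1)) ?_ ?_)
      ((hX (T : ℤ)).trans (by omega : Ms.card + m ≤ r + m))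
    · intro p hp
      obtain ⟨h1, h2, h3, h4⟩ := hF p hp
      have hTn : c p.1 ≤ T + c p.2 := (hT _ h1).trans (by omega)
      have hbig : Am G M 0 m ≤ T + c p.2 - c p.1 := by
        have := hcK p.1 h1
        omega
      have hcast : ((T + c p.2 - c p.1 : ℕ) : ℤ) = (T : ℤ) + x * 2 ^ p.2 - x * 2 ^ p.1 := by
        rw [Nat.cast_sub hTn, hc]; push_cast; ring
      simp only [Finset.coe_filter, Finset.mem_product, Finset.mem_range, Set.mem_setOf_eq]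
      refine ⟨⟨h2, h1⟩, h3.symm, ?_⟩
      rw [← hcast]
      rcases h4 with ⟨q, hq, hqd⟩ | h4
      · exact Or.inl ⟨q, hq, by exact_mod_cast hqd⟩
      · exact Or.inr (badG_thin hG hbig h4)
    · intro p _ p' _ h
      simp only [Prod.mk.injEq] at h
      exact Prod.ext h.2 h.1
  · intro T hT
    have h1 : ∀ q ∈ Ms, (q ∣ T + M * G m ↔ q ∣ T) := fun q hq =>
      (Nat.dvd_add_iff_left ((Finset.dvd_prod_of_mem _ hq).mul_right (G m))).symm
    have h2 := badG_period (G := G) (M := M) (m := m) hd (show Am G M 0 m ≤ T by omega)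
    show ((∃ q ∈ Ms, q ∣ T + M * G m) ∨ BadG G M 0 m (T + M * G m)) ↔
      ((∃ q ∈ Ms, q ∣ T) ∨ BadG G M 0 m T)
    rw [h2]
    constructor
    · rintro (⟨q, hq, h⟩ | h)
      · exact Or.inl ⟨q, hq, (h1 q hq).1 h⟩
      · exact Or.inr h
    · rintro (⟨q, hq, h⟩ | h)
      · exact Or.inl ⟨q, hq, (h1 q hq).2 h⟩
      · exact Or.inr h
  · intro α f
    obtain ⟨lam, rho, nu, hs, hl, -, hcomp, hnu⟩ := hgr G 0 hG hd hcop α
      (fun w => (w.map f).prod) (fun u v => by simp)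
    refine ⟨lam, rho, nu, hs, fun P v h => ?_, ?_, ?_⟩
    · have := (hl P v h).2
      omega
    · intro Y hY hB v
      have hB1 : ∀ q ∈ Ms, ¬ q ∣ Y.length := fun q hq h => hB (Or.inl ⟨q, hq, h⟩)
      have hB2 : ¬ BadG G M 0 m Y.length := fun h => hB (Or.inr h)
      obtain ⟨P, Q', h1, h2, h3⟩ := hcomp Y (by omega) (by omega) hB1 hB2 v
      exact ⟨P, Q', h1.symm, h2, h3⟩
    · intro u u' hu hu' htake hprod hmod
      have hAc : Ac G M 0 m ≤ La := by unfold Ac; omega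
      refine hnu u u' (hAc.trans hu) (hAc.trans hu') ?_ hmod ?_
      · have := congrArg (List.take (Ac G M 0 m)) htake
        rw [List.take_take, List.take_take, min_eq_left hAc] at this
        exact this
      · show (u.map f).prod = (u'.map f).prod
        rw [← List.take_append_drop La u, ← List.take_append_drop La u', List.map_append,
          List.map_append, List.prod_append, List.prod_append, htake, hprod]

end Crest.Agent.R320.GadP_418
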