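import Crest.Agent.R320.Gad_347

/-!
# Row 320: the ruler of the grid gadget (helper347)
-/

set_option autoImplicit false

namespace Crest.Agent.R320.Gad_347

lemma two_pow_lt {p q : ℕ} (h : p ≠ q) : 2 * 2 ^ p ≤ 2 ^ q ∨ 2 * 2 ^ q ≤ 2 ^ p := by
  rcases Nat.lt_or_gt_of_ne h with h | h
  · left
    calc 2 * 2 ^ p = 2 ^ (p + 1) := by ring
      _ ≤ 2 ^ q := Nat.pow_le_pow_right (by norm_num) h
  · right
    calc 2 * 2 ^ q = 2 ^ (q + 1) := by ring
      _ ≤ 2 ^ p := Nat.pow_le_pow_right (by norm_num) h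

lemma golomb {a b a' b' : ℕ} (h1 : a ≠ b) (h2 : a' ≠ b') (h3 : a ≠ a' ∨ b ≠ b') :
    2 ^ a + 2 ^ b' ≠ 2 ^ a' + 2 ^ b := by
  intro h
  have haa : a ≠ a' := by
    rintro rfl
    rcases h3 with h3 | h3
    · exact h3 rfl
    · apply h3
      have : 2 ^ b' = 2 ^ b := by omega
      exact (Nat.pow_right_injective (le_refl 2) this).symm
  have hbb : b ≠ b' := by
    rintro rfl
    apply haa
    have : 2 ^ a = 2 ^ a' := by omega
    exact Nat.pow_right_injective (le_refl 2) this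
  have p1 : 0 < 2 ^ a := by positivity
  have p2 : 0 < 2 ^ b := by positivity
  have p3 : 0 < 2 ^ a' := by positivity
  have p4 : 0 < 2 ^ b' := by positivity
  have q1 := two_pow_lt h1
  have q2 := two_pow_lt h2
  have q3 := two_pow_lt haa
  have q4 := two_pow_lt hbb
  omega

/-- the base of the ruler -/
def Bs (M Gm m : ℕ) : ℕ := 1 + 4 * ∑ j ∈ Finset.range (m + 1), M * Gm ^ j

/-- the ruler -/
def rl (M Gm m a : ℕ) : ℕ := 2 ^ a * Bs M Gm m

lemma Bs_pos (M Gm m : ℕ) : 0 < Bs M Gm m := by unfold Bs; omega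

lemma rl_strictMono (M Gm m : ℕ) : StrictMono (rl M Gm m) := by
  intro a b h
  have : 2 ^ a < 2 ^ b := Nat.pow_lt_pow_right (by norm_num) h
  exact Nat.mul_lt_mul_of_pos_right this (Bs_pos M Gm m)

/-- bad totals -/
def Bad (M Gm m : ℕ) (Ms : Finset ℕ) (T : ℕ) : Prop :=
  (∃ p ∈ Ms, p ∣ T) ∨ ∃ j ∈ Finset.range m, ∃ y, Am M Gm (j + 1) ≤ y + M * Gm ^ j ∧
    y < Am M Gm (j + 1) + M * Gm ^ j ∧ y ≡ T [MOD Gm ^ (j + 1)]

lemma Am_le (M Gm : ℕ) (m : ℕ) : Am M Gm m = (M + 1) * ∑ j ∈ Finset.range m, Gm ^ j := by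
  induction m with
  | zero => simp [Am]
  | succ m ih => rw [Am, ih, Finset.sum_range_succ]; ring

lemma spaced {M Gm m : ℕ} (hM : 0 < M) {i j k l : ℕ} (h1 : i ≠ j) (h2 : k ≠ l)
    (h3 : i ≠ k ∨ j ≠ l) :
    rl M Gm m i + rl M Gm m l + 2 * (Am M Gm m + Gm ^ m) < rl M Gm m k + rl M Gm m j ∨
    rl M Gm m k + rl M Gm m j + 2 * (Am M Gm m + Gm ^ m) < rl M Gm m i + rl M Gm m l := by
  have hg := golomb h1 h2 h3
  have hB : 2 * (Am M Gm m + Gm ^ m) < Bs M Gm m := by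
    unfold Bs
    rw [Am_le, Finset.sum_range_succ, ← Finset.mul_sum]
    generalize ∑ j ∈ Finset.range m, Gm ^ j = s
    generalize Gm ^ m = g
    have a1 : s ≤ M * s := Nat.le_mul_of_pos_left _ hM
    have a2 : g ≤ M * g := Nat.le_mul_of_pos_left _ hM
    have e1 : (M + 1) * s = M * s + s := by ring
    rw [e1]
    omega
  unfold rl
  rcases Nat.lt_or_gt_of_ne hg with h | h
  · left
    have : (2 ^ i + 2 ^ l + 1) * Bs M Gm m ≤ (2 ^ k + 2 ^ j) * Bs M Gm m :=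
      Nat.mul_le_mul_right _ h
    have e1 : (2 ^ i + 2 ^ l + 1) * Bs M Gm m = 2 ^ i * Bs M Gm m + 2 ^ l * Bs M Gm m
      + Bs M Gm m := by ring
    have e2 : (2 ^ k + 2 ^ j) * Bs M Gm m = 2 ^ k * Bs M Gm m + 2 ^ j * Bs M Gm m := by ring
    omega
  · right
    have : (2 ^ k + 2 ^ j + 1) * Bs M Gm m ≤ (2 ^ i + 2 ^ l) * Bs M Gm m :=
      Nat.mul_le_mul_right _ h
    have e1 : (2 ^ k + 2 ^ j + 1) * Bs M Gm m = 2 ^ k * Bs M Gm m + 2 ^ j * Bs M Gm m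
      + Bs M Gm m := by ring
    have e2 : (2 ^ i + 2 ^ l) * Bs M Gm m = 2 ^ i * Bs M Gm m + 2 ^ l * Bs M Gm m := by ring
    omega

lemma Bad_period {M Gm m : ℕ} {Ms : Finset ℕ} (hMs : ∀ p ∈ Ms, p ∣ M) (T : ℕ) :
    Bad M Gm m Ms (T + M * Gm ^ m) ↔ Bad M Gm m Ms T := by
  unfold Bad
  refine or_congr ?_ ?_
  · refine exists_congr fun p => and_congr_right fun hp => ?_
    exact (Nat.dvd_add_iff_left ((hMs p hp).mul_right _)).symm
  · refine exists_congr fun j => and_congr_right fun hj => exists_congr fun y =>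
      and_congr_right fun _ => and_congr_right fun _ => ?_
    have hj' : j + 1 ≤ m := by have := Finset.mem_range.1 hj; omega
    have hd : Gm ^ (j + 1) ∣ M * Gm ^ m := (pow_dvd_pow Gm hj').mul_left _
    have h1 : T + M * Gm ^ m ≡ T [MOD Gm ^ (j + 1)] := by
      have := (Nat.modEq_zero_iff_dvd.2 hd).add_left T
      simpa using this
    exact ⟨fun h => h.trans h1, fun h => h.trans h1.symm⟩

/-- at most one pair for a prime -/
lemma one_prime {M Gm m K p T : ℕ} (hpM : p ∣ M) (hpK : 2 ^ (K + 2) < p)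
    {a b a' b' : ℕ} (ha : a < K) (hb : b < K) (ha' : a' < K) (hb' : b' < K)
    (h1 : a ≠ b) (h2 : a' ≠ b') (hT : ∀ k < K, rl M Gm m k ≤ T)
    (d1 : p ∣ T + rl M Gm m a - rl M Gm m b) (d2 : p ∣ T + rl M Gm m a' - rl M Gm m b') :
    a = a' ∧ b = b' := by
  by_contra hne
  have h3 : a ≠ a' ∨ b ≠ b' := by
    by_contra h; push Not at h; exact hne h
  have hg := golomb h1 h2 h3
  have c1 : (p : ℤ) ∣ (T : ℤ) + rl M Gm m a - rl M Gm m b := by
    have := Int.natCast_dvd_natCast.2 d1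
    rwa [Nat.cast_sub (by have := hT b hb; omega), Nat.cast_add] at this
  have c2 : (p : ℤ) ∣ (T : ℤ) + rl M Gm m a' - rl M Gm m b' := by
    have := Int.natCast_dvd_natCast.2 d2
    rwa [Nat.cast_sub (by have := hT b' hb'; omega), Nat.cast_add] at this
  have c3 := dvd_sub c1 c2
  have hB : (p : ℤ) ∣ (Bs M Gm m : ℤ) - 1 := by
    have : (Bs M Gm m : ℤ) - 1 = (M : ℤ) * (4 * ∑ j ∈ Finset.range (m + 1), (Gm : ℤ) ^ j) := by
      unfold Bs
      push_cast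
      rw [← Finset.mul_sum]
      ring
    rw [this]
    exact (Int.natCast_dvd_natCast.2 hpM).mul_right _
  have c4 : (p : ℤ) ∣ (2 : ℤ) ^ a + 2 ^ b' - 2 ^ a' - 2 ^ b := by
    have e : (2 : ℤ) ^ a + 2 ^ b' - 2 ^ a' - 2 ^ b
      = ((T : ℤ) + rl M Gm m a - rl M Gm m b - (T + rl M Gm m a' - rl M Gm m b'))
        - ((2 : ℤ) ^ a + 2 ^ b' - 2 ^ a' - 2 ^ b) * ((Bs M Gm m : ℤ) - 1) := by
      unfold rl
      push_cast
      ring
    rw [e]
    exact dvd_sub c3 (hB.mul_left _)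
  have l1 : ∀ k < K, (2 : ℤ) ^ k < 2 ^ K := fun k hk => by
    exact_mod_cast Nat.pow_lt_pow_right (by norm_num) hk
  have l2 : ∀ k : ℕ, (0 : ℤ) < 2 ^ k := fun k => by positivity
  have hne0 : (2 : ℤ) ^ a + 2 ^ b' - 2 ^ a' - 2 ^ b ≠ 0 := by
    intro h0
    apply hg
    have : (2 : ℤ) ^ a + 2 ^ b' = 2 ^ a' + 2 ^ b := by linarith
    exact_mod_cast this
  have hle := Int.le_of_dvd (abs_pos.2 hne0) ((dvd_abs _ _).2 c4)
  have hp' : (4 : ℤ) * 2 ^ K < p := by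
    have : ((2 ^ (K + 2) : ℕ) : ℤ) < p := by exact_mod_cast hpK
    push_cast at this
    rw [pow_add] at this
    linarith
  have m1 := l1 a ha
  have m2 := l1 b hb
  have m3 := l1 a' ha'
  have m4 := l1 b' hb'
  have n1 := l2 a
  have n2 := l2 b
  have n3 := l2 a'
  have n4 := l2 b'
  rcases abs_cases ((2 : ℤ) ^ a + 2 ^ b' - 2 ^ a' - 2 ^ b) with ⟨e, -⟩ | ⟨e, -⟩ <;>
    rw [e] at hle <;> linarith

end Crest.Agent.R320.Gad_347
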