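import Crest.Agent.R320.Gad_360

/-!
# Row 320 (helper360): the ruler of the grid gadget; the whole gadget in one theorem
-/

set_option autoImplicit false
set_option linter.unusedSectionVars false

namespace Crest.Agent.R320.GadR_360

open Finset Crest.Agent.R320 Crest.Agent.R320.Grid_899

theorem odd_unique {b b' o o' : ℕ} (ho : o % 2 = 1) (ho' : o' % 2 = 1)
    (h : 2 ^ b * o = 2 ^ b' * o') : b = b' ∧ o = o' := by
  wlog hle : b ≤ b' generalizing b b' o o'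
  · obtain ⟨h1, h2⟩ := this ho' ho h.symm (by omega)
    exact ⟨h1.symm, h2.symm⟩
  obtain ⟨d, rfl⟩ := Nat.exists_eq_add_of_le hle
  rw [pow_add, mul_assoc] at h
  have h2 := Nat.eq_of_mul_eq_mul_left (Nat.pow_pos (by norm_num) : 0 < 2 ^ b) h
  cases d with
  | zero => simp at h2; exact ⟨rfl, h2⟩
  | succ d =>
    rw [pow_succ] at h2
    have : o = 2 * (2 ^ d * o') := by rw [h2]; ring
    omega

/-- differences of powers of two are distinct. -/
theorem golomb {a b a' b' : ℕ} (h : a ≠ b)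
    (he : (2 : ℕ) ^ a + 2 ^ b' = 2 ^ a' + 2 ^ b) : a = a' ∧ b = b' := by
  wlog hlt : b < a generalizing a b a' b'
  · obtain ⟨h1, h2⟩ := this (a := b) (b := a) (a' := b') (b' := a') h.symm
      (by linarith) (by omega)
    exact ⟨h2, h1⟩
  have h1 : (2 : ℕ) ^ b < 2 ^ a := Nat.pow_lt_pow_right (by norm_num) hlt
  have h2 : (2 : ℕ) ^ b' < 2 ^ a' := by omega
  have hlt' : b' < a' := (Nat.pow_lt_pow_iff_right (by norm_num)).1 h2
  obtain ⟨d, rfl⟩ := Nat.exists_eq_add_of_lt hlt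
  obtain ⟨d', rfl⟩ := Nat.exists_eq_add_of_lt hlt'
  have e1 : (2 : ℕ) ^ (b + d + 1) = 2 ^ b * 2 ^ (d + 1) := by rw [← pow_add]; ring_nf
  have e2 : (2 : ℕ) ^ (b' + d' + 1) = 2 ^ b' * 2 ^ (d' + 1) := by rw [← pow_add]; ring_nf
  have p1 : (2 : ℕ) ^ (d + 1) = 2 * 2 ^ d := by ring
  have p2 : (2 : ℕ) ^ (d' + 1) = 2 * 2 ^ d' := by ring
  have q1 : 0 < (2 : ℕ) ^ d := Nat.pow_pos (by norm_num)
  have q2 : 0 < (2 : ℕ) ^ d' := Nat.pow_pos (by norm_num)
  have key : 2 ^ b * (2 ^ (d + 1) - 1) = 2 ^ b' * (2 ^ (d' + 1) - 1) := by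
    rw [Nat.mul_sub_one, Nat.mul_sub_one, ← e1, ← e2]
    omega
  obtain ⟨r1, r2⟩ := odd_unique (by omega) (by omega) key
  refine ⟨?_, r1⟩
  have : (2 : ℕ) ^ (d + 1) = 2 ^ (d' + 1) := by omega
  have := Nat.pow_right_injective (le_refl 2) this
  omega

theorem band {G B s y1 y2 k : ℤ} (hB : 0 < B) (hs1 : 2 * B ≤ s) (hs2 : s + 2 * B ≤ G)
    (h1 : 0 ≤ y1) (h1' : y1 < G) (h2 : 0 ≤ y2) (h2' : y2 < G) (e : y2 - y1 = s + G * k)
    (b1 : y1 < B ∨ G < y1 + B) (b2 : y2 < B ∨ G < y2 + B) : False := by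
  have hk1 : k < 1 := by
    by_contra hk
    have : G * 1 ≤ G * k := mul_le_mul_of_nonneg_left (by omega) (by omega)
    omega
  have hk2 : -2 < k := by
    by_contra hk
    have : G * k ≤ G * (-2) := mul_le_mul_of_nonneg_left (by omega) (by omega)
    omega
  obtain rfl | rfl : k = 0 ∨ k = -1 := by omega
  · omega
  · omega

/-- the geometric sum. -/
def Sg (κ n : ℕ) : ℕ := ∑ i ∈ range n, G κ i

theorem Sg_succ (κ n : ℕ) : Sg κ (n + 1) = Sg κ n + G κ n := Finset.sum_range_succ _ _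

theorem Am_eq (Ms κ : ℕ) : ∀ n, Am Ms κ n = (1 + Ms) * Sg κ n
  | 0 => by simp [Am, Sg]
  | n + 1 => by
    have := Am_eq Ms κ n
    rw [Sg_succ, mul_add, ← this, ← lo_add]
    unfold lo
    ring

theorem G_succ (κ n : ℕ) : G κ (n + 1) = 2 ^ κ * G κ n := by
  unfold G
  rw [← pow_add]
  ring_nf

theorem Sg_le {κ : ℕ} (hκ : 1 ≤ κ) : ∀ n, Sg κ (n + 1) ≤ 2 * G κ n
  | 0 => by simp [Sg, G]
  | n + 1 => by
    have h1 := Sg_le hκ n
    have h2 := G_succ κ n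
    have h3 : 2 ^ 1 ≤ 2 ^ κ := Nat.pow_le_pow_right (by norm_num) hκ
    have h4 : 2 * G κ n ≤ 2 ^ κ * G κ n := Nat.mul_le_mul_right _ (by simpa using h3)
    rw [Sg_succ]
    omega

theorem G_le_Sg (κ n : ℕ) : G κ n ≤ Sg κ (n + 1) := by rw [Sg_succ]; omega

theorem Sg_split (κ : ℕ) {j n : ℕ} (h : j ≤ n) : ∃ z, Sg κ n = Sg κ j + G κ j * z := by
  obtain ⟨d, rfl⟩ := Nat.exists_eq_add_of_le h
  induction d with
  | zero => exact ⟨0, by simp⟩
  | succ d ih =>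
    obtain ⟨z, hz⟩ := ih (by omega)
    obtain ⟨w, hw⟩ : G κ j ∣ G κ (j + d) := G_dvd (by omega)
    refine ⟨z + w, ?_⟩
    rw [← add_assoc, Sg_succ, hz, hw]
    ring

theorem Sg_mod {κ q : ℕ} (h : 2 ^ κ ≡ 1 [MOD q]) (n : ℕ) : Sg κ n ≡ n [MOD q] := by
  induction n with
  | zero => simp [Sg, Nat.ModEq]
  | succ n ih =>
    rw [Sg_succ]
    refine Nat.ModEq.add ih ?_
    unfold G
    rw [pow_mul]
    simpa using h.pow n

/-- one band catches at most one difference. -/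
theorem band_nat {Ms κ j m x E : ℕ} (hκ : 1 ≤ κ) (hMs : 0 < Ms) (hj : 1 ≤ j) (hjm : j ≤ m + 1)
    (hx : x = 8 * Ms + 1) (hE : 2 * E * x + 2 * Ms ≤ 2 ^ κ) {U U' : ℕ} {d : ℤ} (hd : d ≠ 0)
    (hdE : |d| ≤ E) (hUU : (U' : ℤ) - U = (x * Sg κ (m + 1) : ℕ) * d)
    (b1 : ¬ (Ms * G κ (j - 1) ≤ U % G κ j ∧ U % G κ j + Ms * G κ (j - 1) ≤ G κ j))
    (b2 : ¬ (Ms * G κ (j - 1) ≤ U' % G κ j ∧ U' % G κ j + Ms * G κ (j - 1) ≤ G κ j)) : False := by
  wlog hpos : 0 < d generalizing U U' d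
  · refine this (U := U') (U' := U) (d := -d) (by omega) (by rw [abs_neg]; exact hdE) ?_ b2 b1
      (by omega)
    rw [mul_neg, ← hUU]; ring
  rw [abs_of_pos hpos] at hdE
  obtain ⟨i, rfl⟩ : ∃ i, j = i + 1 := ⟨j - 1, by omega⟩
  rw [Nat.add_sub_cancel] at b1 b2
  have hg := G_pos (κ := κ) i
  have hG := G_pos (κ := κ) (i + 1)
  obtain ⟨z, hz⟩ := Sg_split κ hjm
  have hs1 := Sg_le hκ i
  have hs2 := G_le_Sg κ i
  have hGs := G_succ κ i
  have m1 := Nat.mod_add_div U (G κ (i + 1))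
  have m2 := Nat.mod_add_div U' (G κ (i + 1))
  have l1 := Nat.mod_lt U hG
  have l2 := Nat.mod_lt U' hG
  set y1 := U % G κ (i + 1)
  set y2 := U' % G κ (i + 1)
  set g := G κ i
  set GG := G κ (i + 1)
  set sj := Sg κ (i + 1)
  have hB : 0 < Ms * g := Nat.mul_pos hMs hg
  -- the shift
  have hs : (y2 : ℤ) - y1 = (x * sj : ℕ) * d + GG * (x * z * d - (U' / GG : ℕ) + (U / GG : ℕ)) := by
    have e1 : (U : ℤ) = y1 + GG * (U / GG : ℕ) := by exact_mod_cast m1.symm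
    have e2 : (U' : ℤ) = y2 + GG * (U' / GG : ℕ) := by exact_mod_cast m2.symm
    rw [hz] at hUU
    push_cast at hUU ⊢
    have e1' : (U : ℤ) = y1 + GG * ((U : ℤ) / GG) := by push_cast at e1; exact e1
    have e2' : (U' : ℤ) = y2 + GG * ((U' : ℤ) / GG) := by push_cast at e2; exact e2
    linear_combination hUU + e1' - e2'
  have hlow : 2 * ((Ms * g : ℕ) : ℤ) ≤ (x * sj : ℕ) * d := by
    have h1 : 2 * (Ms * g) ≤ x * sj := by
      calc 2 * (Ms * g) = (2 * Ms) * g := by ring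
        _ ≤ x * sj := Nat.mul_le_mul (by omega) hs2
    have h2 : ((x * sj : ℕ) : ℤ) * 1 ≤ (x * sj : ℕ) * d :=
      mul_le_mul_of_nonneg_left (by omega) (by positivity)
    have h3 : ((2 * (Ms * g) : ℕ) : ℤ) ≤ (x * sj : ℕ) := by exact_mod_cast h1
    push_cast at h2 h3 ⊢
    linarith
  have hhigh : ((x * sj : ℕ) : ℤ) * d + 2 * ((Ms * g : ℕ) : ℤ) ≤ GG := by
    have h1 : x * sj * E + 2 * (Ms * g) ≤ GG := by
      rw [hGs]
      calc x * sj * E + 2 * (Ms * g) ≤ x * (2 * g) * E + 2 * (Ms * g) := by gcongr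
        _ = (2 * E * x + 2 * Ms) * g := by ring
        _ ≤ 2 ^ κ * g := Nat.mul_le_mul_right _ hE
    have h2 : ((x * sj : ℕ) : ℤ) * d ≤ (x * sj : ℕ) * E :=
      mul_le_mul_of_nonneg_left hdE (by positivity)
    have h3 : ((x * sj * E + 2 * (Ms * g) : ℕ) : ℤ) ≤ (GG : ℕ) := by exact_mod_cast h1
    push_cast at h2 h3 ⊢
    linarith
  have hB' : (0 : ℤ) < ((Ms * g : ℕ) : ℤ) := by exact_mod_cast hB
  refine band hB' hlow hhigh (y1 := y1) (y2 := y2) (by positivity) (by exact_mod_cast l1)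
    (by positivity) (by exact_mod_cast l2) hs ?_ ?_
  · rcases lt_or_ge y1 (Ms * g) with h | h
    · left; exact_mod_cast h
    · right
      have : ¬ (y1 + Ms * g ≤ GG) := fun h' => b1 ⟨h, h'⟩
      have h5 : GG < y1 + Ms * g := by omega
      exact_mod_cast h5
  · rcases lt_or_ge y2 (Ms * g) with h | h
    · left; exact_mod_cast h
    · right
      have : ¬ (y2 + Ms * g ≤ GG) := fun h' => b2 ⟨h, h'⟩
      have h5 : GG < y2 + Ms * g := by omega
      exact_mod_cast h5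

end Crest.Agent.R320.GadR_360
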