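import Crest.Agent.R320.GadM_360

/-!
# Row 320 (helper360): the whole scheme-1 gadget on all words, in one theorem
-/

set_option autoImplicit false
set_option linter.unusedSectionVars false

namespace Crest.Agent.R320.GadT_360

open Finset Crest.Agent.R320 Crest.Agent.R320.Grid_899 Crest.Agent.R320.GadR_360
  Crest.Agent.R320.GadM_360

/-- choice of the moduli and of the grid. -/
theorem params (k m K : ℕ) : ∃ (q : Fin k → ℕ) (κ : ℕ), (∀ j, Odd (q j)) ∧
    Pairwise (fun i j => Nat.Coprime (q i) (q j)) ∧ 1 ≤ κ ∧ 0 < ∏ j, q j ∧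
    2 * 2 ^ (K + 1) * (8 * (∏ j, q j) + 1) + 2 * (∏ j, q j) ≤ 2 ^ κ ∧
    (∀ j, 2 ^ (K + 1) < q j) ∧
    (∀ j, Nat.Coprime (q j) ((8 * (∏ j, q j) + 1) * Sg κ (m + 1))) := by
  have hmono : StrictMono (Nat.nth Nat.Prime) := Nat.nth_strictMono Nat.infinite_setOfPred_prime
  obtain ⟨b, hb⟩ : ∃ b, b = 2 ^ (K + 1) + m + 4 := ⟨_, rfl⟩
  have hpK : 0 < 2 ^ (K + 1) := Nat.pow_pos (by norm_num)
  have hbm : m + 4 < b := by omega
  have hbK : 2 ^ (K + 1) < b := by omega
  obtain ⟨q, hq⟩ : ∃ q : Fin k → ℕ, ∀ j, q j = Nat.nth Nat.Prime (b + j.1) := ⟨_, fun _ => rfl⟩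
  have hp : ∀ j, (q j).Prime := fun j => by rw [hq]; exact Nat.prime_nth_prime _
  have hbig : ∀ j, b ≤ q j := fun j => by
    have := hmono.le_apply (x := b + j.1)
    rw [hq]; omega
  have hq2 : ∀ j, q j ≠ 2 := fun j => by
    have := hbig j
    clear hb hbK hpK
    omega
  have hcop : Pairwise (fun i j => Nat.Coprime (q i) (q j)) := by
    intro i j hij
    refine (Nat.coprime_primes (hp i) (hp j)).2 fun h => hij ?_
    rw [hq, hq] at h
    have := hmono.injective h
    exact Fin.ext (by omega)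
  have hMs : 0 < ∏ j, q j := Finset.prod_pos fun j _ => (hp j).pos
  have h2 : Nat.Coprime 2 (∏ j, q j) := Nat.Coprime.prod_right fun j _ =>
    (Nat.coprime_primes Nat.prime_two (hp j)).2 (hq2 j).symm
  set Ms := ∏ j, q j with hMsd
  obtain ⟨t, ht⟩ : ∃ t, t = 2 * 2 ^ (K + 1) * (8 * Ms + 1) + 2 * Ms := ⟨_, rfl⟩
  have htot : 0 < Nat.totient Ms := Nat.totient_pos.2 hMs
  have ht0 : 0 < t := by rw [ht]; omega
  have htk : t ≤ Nat.totient Ms * t := Nat.le_mul_of_pos_left _ htot
  refine ⟨q, Nat.totient Ms * t, fun j => (hp j).odd_of_ne_two (hq2 j), hcop, by omega, hMs, ?_, ?_,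
    ?_⟩
  · rw [← ht]
    exact (Nat.lt_two_pow_self).le.trans (Nat.pow_le_pow_right (by norm_num) htk)
  · intro j
    exact lt_of_lt_of_le hbK (hbig j)
  · intro j
    have hdvd : q j ∣ Ms := Finset.dvd_prod_of_mem q (Finset.mem_univ j)
    have h1 : 2 ^ (Nat.totient Ms * t) ≡ 1 [MOD q j] := by
      refine Nat.ModEq.of_dvd hdvd ?_
      rw [pow_mul]
      simpa using (Nat.ModEq.pow_totient h2).pow t
    refine Nat.Coprime.mul_right ?_ ?_
    · rw [(hp j).coprime_iff_not_dvd]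
      intro h
      have h3 : q j ∣ 1 := (Nat.dvd_add_right (hdvd.mul_left 8)).1 h
      exact (hp j).one_lt.ne' (Nat.dvd_one.1 h3)
    · rw [(hp j).coprime_iff_not_dvd]
      intro h
      have h3 := (Sg_mod h1 (m + 1)).dvd_iff (dvd_refl (q j))
      have h4 := Nat.le_of_dvd (by omega) (h3.1 h)
      have := hbig j
      clear hb hbK hpK ht
      omega

open Classical in
/-- **The scheme-1 gadget on all words with its ruler.** `C0` is chosen before `K`. -/
theorem gad (S V : Type*) [Monoid S] [Finite S] [AddCommGroup V] [Finite V]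
    (act : V → S → V) :
    ∃ C0 : ℕ, ∀ K : ℕ, ∃ (N A Mp : ℕ) (BadT : ℕ → Prop) (c : ℕ → ℕ),
      0 < Mp ∧ StrictMono c ∧ 2 * N < A ∧ (∀ i, 8 * N < c i) ∧
      (∀ j k j' k' : ℕ, (j = j' ∧ k = k') ∨ (j = k ∧ j' = k') ∨
        c j + c k' + 8 * N < c j' + c k ∨ c j' + c k + 8 * N < c j + c k') ∧
      (∀ T, (∀ k < K, c k ≤ T) →
        ((range K ×ˢ range K).filter
          (fun p => p.1 ≠ p.2 ∧ BadT (T + c p.2 - c p.1))).card ≤ C0) ∧
      (∀ T, BadT (T + Mp) ↔ BadT T) ∧
      ∀ (α : Type*) (phi : List α → S), (∀ u v, phi (u ++ v) = phi u * phi v) →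
      ∃ (lam rho : List α → Option V) (nu : List α → V),
        (∀ P v, lam P = some v → P.length ≤ N ∧ P ≠ []) ∧
        (∀ Q b, rho Q = some b → N < Q.length) ∧
        (∀ P Q v b, lam P = some v → rho Q = some b → b = act v (phi (P ++ Q)) + nu (P ++ Q)) ∧
        (∀ u : List α, A ≤ u.length → ¬ BadT u.length →
          ∀ v, ∃ P Q, u = P ++ Q ∧ lam P = some v ∧ (rho Q).isSome) ∧
        (∀ Q Q' : List α, A ≤ Q.length → A ≤ Q'.length → Q.take A = Q'.take A →
          Q.length % Mp = Q'.length % Mp → phi (Q.drop A) = phi (Q'.drop A) →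
          rho Q = rho Q' ∧ nu Q = nu Q') := by
  obtain ⟨k, m, H⟩ := Gad_360.grid_fs S V act
  refine ⟨k + m, fun K => ?_⟩
  obtain ⟨q, κ, hodd, hcop, hκ, hMs, hE, hqK, hc⟩ := params k m K
  have H' := H q hodd hcop κ
  set Ms := ∏ j, q j with hMsd
  obtain ⟨L, hL⟩ : ∃ L, L = (8 * Ms + 1) * Sg κ (m + 1) := ⟨_, rfl⟩
  have hG : ∀ i, 0 < G κ i := fun i => G_pos i
  -- `8 N < L`
  have hN : 8 * Am Ms κ m < L := by
    have h1 : Sg κ m ≤ G κ m := by
      cases m with
      | zero => simp [Sg]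
      | succ n =>
        have h2 := Sg_le hκ n
        have h3 := G_succ κ n
        have h4 : 2 ^ 1 ≤ 2 ^ κ := Nat.pow_le_pow_right (by norm_num) hκ
        have h5 : 2 * G κ n ≤ 2 ^ κ * G κ n := Nat.mul_le_mul_right _ (by simpa using h4)
        omega
    rw [hL, Am_eq, Sg_succ]
    have h6 : 1 * Sg κ m ≤ Ms * G κ m := Nat.mul_le_mul hMs h1
    have h7 := hG m
    nlinarith
  have hAm : Am Ms κ m < Am Ms κ (m + 1) := by
    rw [← lo_add]; unfold lo; have := hG m; omega
  have hMp : 0 < Ms * G κ m := Nat.mul_pos hMs (hG m)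
  have hjm : ∀ j, j ≤ m → G κ j ∣ Ms * G κ m := fun j hj => (G_dvd hj).mul_left _
  -- the shifted offsets
  let C : ℕ → ℕ := fun j => Ms * G κ m * Am Ms κ j - Am Ms κ j
  have hC : ∀ j, j ≤ m → ∀ T, Am Ms κ j ≤ T → (T + C j) % G κ j = (T - Am Ms κ j) % G κ j := by
    intro j hj T hT
    have h1 : Am Ms κ j ≤ Ms * G κ m * Am Ms κ j := Nat.le_mul_of_pos_left _ hMp
    have h2 : T + C j = (T - Am Ms κ j) + Ms * G κ m * Am Ms κ j := by
      simp only [C]; omega
    obtain ⟨z, hz⟩ := hjm j hj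
    rw [h2, hz, mul_assoc, Nat.add_mul_mod_self_left]
  have hpow : ∀ i, 0 < 2 ^ i := fun i => Nat.pow_pos (by norm_num)
  refine ⟨Am Ms κ m, 2 * Am Ms κ (m + 1), Ms * G κ m, Bad Ms κ m q C, fun i => L * 2 ^ i, hMp,
    ?_, by omega, ?_, ?_, ?_, ?_, ?_⟩
  · intro i j hij
    exact Nat.mul_lt_mul_of_pos_left (Nat.pow_lt_pow_right (by norm_num) hij) (by omega)
  · intro i
    have := Nat.le_mul_of_pos_right L (hpow i)
    show 8 * Am Ms κ m < L * 2 ^ i
    omega
  · intro j k j' k'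
    by_cases h1 : j = k
    · by_cases h2 : j' = k'
      · exact Or.inr (Or.inl ⟨h1, h2⟩)
      · right; right
        subst h1
        simp only
        rcases Nat.lt_or_gt_of_ne h2 with h3 | h3
        · right
          have h4 : L * 2 ^ k' = L * 2 ^ j' + L * (2 ^ k' - 2 ^ j') := by
            rw [← mul_add]; congr 1
            have := Nat.pow_lt_pow_right (show 1 < 2 by norm_num) h3
            omega
          have h5 : 0 < 2 ^ k' - 2 ^ j' := by
            have := Nat.pow_lt_pow_right (show 1 < 2 by norm_num) h3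
            omega
          have h6 := Nat.le_mul_of_pos_right L h5
          omega
        · left
          have h4 : L * 2 ^ j' = L * 2 ^ k' + L * (2 ^ j' - 2 ^ k') := by
            rw [← mul_add]; congr 1
            have := Nat.pow_lt_pow_right (show 1 < 2 by norm_num) h3
            omega
          have h5 : 0 < 2 ^ j' - 2 ^ k' := by
            have := Nat.pow_lt_pow_right (show 1 < 2 by norm_num) h3
            omega
          have h6 := Nat.le_mul_of_pos_right L h5
          omega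
    · by_cases h2 : (2 : ℕ) ^ j + 2 ^ k' = 2 ^ j' + 2 ^ k
      · exact Or.inl (golomb h1 h2)
      · right; right
        simp only
        rcases Nat.lt_or_gt_of_ne h2 with h3 | h3
        · left
          have h4 : L * (2 ^ j + 2 ^ k' + 1) ≤ L * (2 ^ j' + 2 ^ k) := Nat.mul_le_mul_left _ h3
          rw [mul_add, mul_add, mul_add] at h4
          omega
        · right
          have h4 : L * (2 ^ j' + 2 ^ k + 1) ≤ L * (2 ^ j + 2 ^ k') := Nat.mul_le_mul_left _ h3
          rw [mul_add, mul_add, mul_add] at h4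
          omega
  · intro T hT
    subst hL
    exact thin q C hκ hMs hE hqK hc T hT
  · intro T
    unfold Bad
    have h1 : ∀ j, q j ∣ T + Ms * G κ m ↔ q j ∣ T := fun j =>
      Nat.dvd_add_left ((Finset.dvd_prod_of_mem q (Finset.mem_univ j)).mul_right _)
    have h2 : ∀ j, j ≤ m → (T + Ms * G κ m + C j) % G κ j = (T + C j) % G κ j := by
      intro j hj
      obtain ⟨z, hz⟩ := hjm j hj
      rw [hz, show T + G κ j * z + C j = T + C j + G κ j * z by ring, Nat.add_mul_mod_self_left]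
    constructor
    · rintro (⟨j, hj⟩ | ⟨j, hj, hb⟩)
      · exact Or.inl ⟨j, (h1 j).1 hj⟩
      · exact Or.inr ⟨j, hj, by rw [h2 j hj.2] at hb; exact hb⟩
    · rintro (⟨j, hj⟩ | ⟨j, hj, hb⟩)
      · exact Or.inl ⟨j, (h1 j).2 hj⟩
      · exact Or.inr ⟨j, hj, by rw [h2 j hj.2]; exact hb⟩
  · intro α phi hphi
    obtain ⟨lam, rho, nu, a1, a2, a3, a4, a5⟩ := H' α phi hphi
    refine ⟨lam, rho, nu, fun P v h => ⟨(a1 P v h).1.le, (a1 P v h).2⟩,
      fun Q b h => lt_of_lt_of_le hAm (a2 Q b h), a3, ?_, ?_⟩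
    · intro u hu hb
      refine a4 u hu (fun j hj => hb (Or.inl ⟨j, hj⟩)) ?_
      intro j hj1 hj2
      by_contra hcon
      refine hb (Or.inr ⟨j, ⟨hj1, hj2⟩, ?_⟩)
      have h3 : Am Ms κ j ≤ u.length := by
        have := Am_mono (Ms := Ms) (κ := κ) (show j ≤ m + 1 by omega)
        omega
      rw [hC j hj2 _ h3]
      exact hcon
    · intro Q Q' h1 h2 h3 h4 h5
      have hle : Am Ms κ (m + 1) ≤ 2 * Am Ms κ (m + 1) := by omega
      refine a5 Q Q' (by omega) (by omega) ?_ h4 (Gad_360.phi_drop hphi hle h3 h5)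
      have := congrArg (List.take (Am Ms κ (m + 1))) h3
      rwa [List.take_take, List.take_take, min_eq_left hle] at this

end Crest.Agent.R320.GadT_360
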