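import Crest.Agent.R320.Fin_6
import Crest.Agent.R320.Sp_485
import Crest.Agent.R320.G1_24

/-!
# Row 320: the black box gadget of `Fin_6.row` from `G1_24.g1` and `Sp_485.spoil` (helper228)
-/

set_option autoImplicit false

namespace Crest.Agent.R320.GadW_228

open Crest.RegLang Crest.Agent.R320.Hk_851
open Crest.Agent.R320.ExactR_237 (pr)

theorem bad_per (Ms : Finset ℕ) (M m b : ℕ) (hb : 0 < b) (hMs : ∀ k ∈ Ms, k ∣ M) (T : ℕ) :
    Sp_485.Bad Ms M m b (T + M * b ^ m) ↔ Sp_485.Bad Ms M m b T := by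
  unfold Sp_485.Bad
  have h1 : ∀ k ∈ Ms, (k ∣ T + M * b ^ m ↔ k ∣ T) := fun k hk =>
    (Nat.dvd_add_left ((hMs k hk).mul_right _))
  have h2 : ∀ j < m, (T + M * b ^ m) / b ^ j % b = T / b ^ j % b := by
    intro j hj
    obtain ⟨i, rfl⟩ := Nat.exists_eq_add_of_lt hj
    have e : M * b ^ (j + i + 1) = b ^ j * (b * (M * b ^ i)) := by
      rw [pow_succ, pow_add]; ring
    rw [e, Nat.add_mul_div_left _ _ (pow_pos hb j), Nat.add_mul_mod_self_left]
  constructor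
  · rintro (⟨k, hk, h⟩ | ⟨j, hj, h⟩)
    · exact Or.inl ⟨k, hk, (h1 k hk).1 h⟩
    · refine Or.inr ⟨j, hj, ?_⟩
      rw [h2 j hj] at h; exact h
  · rintro (⟨k, hk, h⟩ | ⟨j, hj, h⟩)
    · exact Or.inl ⟨k, hk, (h1 k hk).2 h⟩
    · refine Or.inr ⟨j, hj, ?_⟩
      rw [h2 j hj]; exact h

theorem gad (S V : Type) [Monoid S] [Finite S] [AddCommGroup V] [Finite V] (act : V → S → V) :
    Fin_6.Gad S V act := by
  classical
  obtain ⟨m, r, hg⟩ := G1_24.g1 S V act
  refine ⟨r + m, fun K => ?_⟩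
  obtain ⟨Ms, M, hcard, hMs, hM, hgad⟩ := hg (2 ^ (K + 1))
  set b := M * (2 ^ (K + 4) + 6) + 1 with hbdef
  have hpw : 16 ≤ 2 ^ (K + 4) := by
    have : 2 ^ (K + 4) = 2 ^ K * 16 := by rw [pow_add]; norm_num
    have h1 : 1 ≤ 2 ^ K := Nat.one_le_two_pow
    omega
  have hbexp : b = 2 ^ (K + 4) * M + 6 * M + 1 := by rw [hbdef]; ring
  have h16 : 16 * M ≤ 2 ^ (K + 4) * M := Nat.mul_le_mul_right _ hpw
  have hb1 : 4 * M + 4 < b := by omega
  have hb2 : 2 ^ (K + 4) * M + 2 * M ≤ b := by omega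
  have hb0 : 0 < b := by omega
  have hco : Nat.Coprime b M := by
    rw [hbdef]
    unfold Nat.Coprime
    rw [Nat.gcd_comm, Nat.gcd_rec]
    rcases Nat.lt_or_ge 1 M with h | h
    · rw [Nat.mul_add_mod, Nat.mod_eq_of_lt h, Nat.gcd_one_left]
    · have : M = 1 := by omega
      rw [this]; simp
  obtain ⟨c, hc1, hc2, hc3, hc4, hc5, -⟩ := Sp_485.spoil Ms M m b K (b ^ m) hM
    (fun k hk => ⟨(hMs k hk).1.le, (hMs k hk).2.2⟩) hco hb2
  refine ⟨b ^ m, b ^ m, M * b ^ m, c, Sp_485.Bad Ms M m b, Nat.mul_pos hM (pow_pos hb0 m),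
    fun i j hij _ => hc1 hij, ?_, ?_, ?_, ?_⟩
  · intro i i' j j' _ _ _ _ hi hj h1 h2
    by_contra hne
    have h3 := hc4 i' i j' j hi (fun h => hne h.2)
    have h4 : |((c i : ℤ) - c i') - ((c j : ℤ) - c j')| < 4 * (b ^ m : ℕ) := by
      rw [abs_lt]
      constructor
      · have : (c j : ℤ) + c i' < c i + c j' + 2 * (b ^ m : ℕ) := by exact_mod_cast h2
        have h0 : (0 : ℤ) ≤ (b ^ m : ℕ) := Int.natCast_nonneg _
        linarith
      · have : (c i : ℤ) + c j' < c j + c i' + 2 * (b ^ m : ℕ) := by exact_mod_cast h1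
        have h0 : (0 : ℤ) ≤ (b ^ m : ℕ) := Int.natCast_nonneg _
        linarith
    push_cast at h3 h4
    linarith
  · intro T hT I hI
    have h1 : ∀ k ∈ I, ∃ k', k' < K ∧ k' ≠ k ∧ Sp_485.Bad Ms M m b (T + c k' - c k) :=
      fun k hk => (hI k hk).2
    choose! g hg' using h1
    have h2 : I.card ≤ ((Finset.range K ×ˢ Finset.range K).filter
        (fun p => p.1 ≠ p.2 ∧ Sp_485.Bad Ms M m b (T + c p.2 - c p.1))).card := by
      apply Finset.card_le_card_of_injOn (fun k => (k, g k))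
      · intro k hk
        have hk' := hg' k hk
        simp only [Finset.coe_filter, Finset.mem_product, Finset.mem_range]
        exact ⟨⟨(hI k hk).1, hk'.1⟩, fun h => hk'.2.1 h.symm, hk'.2.2⟩
      · intro x _ y _ hxy
        exact congrArg Prod.fst hxy
    have h3 := hc5 T hT
    omega
  · intro T _
    exact bad_per Ms M m b hb0 (fun k hk => (hMs k hk).2.2) T
  · intro A f
    obtain ⟨lam, rho, nu, g1, g2, g3, g4⟩ := hgad b hb1 hco A f
    refine ⟨lam, rho, nu, fun P v h => (g1 P v h).le, ?_, ?_, ?_⟩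
    · intro P Q v r' h h'
      exact g2 P Q v r' h h'
    · intro Y _ hB v
      have hB1 : ∀ k ∈ Ms, ¬ k ∣ Y.length := fun k hk h => hB (Or.inl ⟨k, hk, h⟩)
      have hB2 : ∀ j < m, M ≤ Y.length / b ^ j % b ∧ Y.length / b ^ j % b + M + 1 ≤ b := by
        intro j hj
        by_contra hh
        exact hB (Or.inr ⟨j, hj, hh⟩)
      obtain ⟨P, Q, h1, h2, h3⟩ := g3 Y hB1 hB2 v
      exact ⟨P, Q, h1.symm, h2, h3⟩
    · intro u u' h1 h2 h3 h4 h5
      exact (g4 u u' h1 h2 h3 h4 h5).2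

/-- **S0495** -/
theorem row (α : Type*) [Finite α] (L : Language α) (hL : L.IsRegular) :
    ∃ e : GRegExp α, e.height ≤ 3 ∧ e.lang = L :=
  Fin_6.row' (fun S V => gad S V) α L hL

end Crest.Agent.R320.GadW_228
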