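import Mathlib
import Crest.Agent.R320.Sp_485

/-!
Row 320, helper458: helper6's black box `GadW` (Fin_6) from the lead's literal `g1` (#13673, proved
in G1_44 / G1_991 / G1_24 / G1_168 / ...) and 485's ruler `Sp_485.spoil`.
-/

set_option autoImplicit false

namespace Crest.Agent.R320.GadW_458

open Crest.Agent.R320.Sp_485

/-- the lead's literal `g1` (#13673) -/
def G1 (S V : Type) [Monoid S] [AddCommGroup V] (act : V → S → V) : Prop :=
  ∃ m r : ℕ, ∀ Bd : ℕ, ∃ (Ms : Finset ℕ) (M : ℕ), Ms.card ≤ r ∧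
    (∀ k ∈ Ms, Bd < k ∧ k.Prime ∧ k ∣ M) ∧ 0 < M ∧
    ∀ b : ℕ, 4 * M + 4 < b → Nat.Coprime b M → ∀ (A : Type) (f : A → S),
      ∃ (lam rho : List A → Option V) (nu : List A → V),
        (∀ P v, lam P = some v → P.length < b ^ m) ∧
        (∀ P Q v v', lam P = some v → rho Q = some v' →
          v' = act v ((P ++ Q).map f).prod + nu (P ++ Q)) ∧
        (∀ X, (∀ k ∈ Ms, ¬ k ∣ X.length) →
          (∀ j < m, M ≤ X.length / b ^ j % b ∧ X.length / b ^ j % b + M + 1 ≤ b) →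
          ∀ v, ∃ P Q, P ++ Q = X ∧ lam P = some v ∧ (rho Q).isSome) ∧
        (∀ Q Q', b ^ m ≤ Q.length → b ^ m ≤ Q'.length → Q.take (b ^ m) = Q'.take (b ^ m) →
          Q.length % (M * b ^ m) = Q'.length % (M * b ^ m) →
          ((Q.drop (b ^ m)).map f).prod = ((Q'.drop (b ^ m)).map f).prod →
          rho Q = rho Q' ∧ nu Q = nu Q')

/-- helper6's black box (Fin_6) -/
def GadW (S V : Type) [Monoid S] [AddCommGroup V] (act : V → S → V) : Prop :=
  ∃ R1 : ℕ, ∀ K : ℕ, ∃ (N1 N0 M : ℕ) (c : ℕ → ℕ) (BadT : ℕ → Prop), 0 < M ∧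
    (∀ i j, i < j → j < K → c i < c j) ∧
    (∀ i i' j j', i < K → i' < K → j < K → j' < K → i' ≠ i → j' ≠ j →
      c i + c j' < c j + c i' + 2 * N1 → c j + c i' < c i + c j' + 2 * N1 → i = j) ∧
    (∀ T : ℕ, N0 ≤ T → (∀ k, k < K → c k ≤ T) → ∀ I : Finset ℕ,
      (∀ k ∈ I, k < K ∧ ∃ k', k' < K ∧ k' ≠ k ∧ BadT (T + c k' - c k)) → I.card ≤ R1) ∧
    (∀ T, N0 ≤ T → (BadT (T + M) ↔ BadT T)) ∧
    ∀ (A : Type) (f : A → S), ∃ (lam rho : List A → Option V) (nu : List A → V),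
      (∀ P v, lam P = some v → P.length ≤ N1) ∧
      (∀ P Q v r, lam P = some v → rho Q = some r →
        r = act v ((P ++ Q).map f).prod + nu (P ++ Q)) ∧
      (∀ Y, N0 ≤ Y.length → ¬ BadT Y.length → ∀ v, ∃ P Q, Y = P ++ Q ∧ lam P = some v ∧
        (rho Q).isSome) ∧
      (∀ u u', N0 ≤ u.length → N0 ≤ u'.length → u.take N0 = u'.take N0 →
        u.length % M = u'.length % M →
        ((u.drop N0).map f).prod = ((u'.drop N0).map f).prod → nu u = nu u')

theorem digit_per {M m b j T : ℕ} (hb : 0 < b) (hj : j < m) :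
    (T + M * b ^ m) / b ^ j % b = T / b ^ j % b := by
  obtain ⟨d, rfl⟩ := Nat.exists_eq_add_of_lt hj
  have e : M * b ^ (j + d + 1) = b ^ j * (b * (M * b ^ d)) := by ring
  rw [e, Nat.add_mul_div_left _ _ (by positivity), Nat.add_mul_mod_self_left]

theorem bad_per {Ms : Finset ℕ} {M m b T : ℕ} (hb : 0 < b) (hMs : ∀ k ∈ Ms, k ∣ M) :
    Bad Ms M m b (T + M * b ^ m) ↔ Bad Ms M m b T := by
  unfold Bad
  apply or_congr
  · constructor
    · rintro ⟨k, hk, h⟩
      exact ⟨k, hk, (Nat.dvd_add_left (dvd_mul_of_dvd_left (hMs k hk) _)).1 h⟩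
    · rintro ⟨k, hk, h⟩
      exact ⟨k, hk, (Nat.dvd_add_left (dvd_mul_of_dvd_left (hMs k hk) _)).2 h⟩
  · constructor
    · rintro ⟨j, hj, h⟩
      refine ⟨j, hj, ?_⟩
      rwa [digit_per hb hj] at h
    · rintro ⟨j, hj, h⟩
      refine ⟨j, hj, ?_⟩
      rwa [digit_per hb hj]

theorem gadW {S V : Type} [Monoid S] [AddCommGroup V] {act : V → S → V} (h : G1 S V act) :
    GadW S V act := by
  classical
  obtain ⟨m, r, h⟩ := h
  refine ⟨r + m, fun K => ?_⟩
  obtain ⟨Ms, M, hc, hMs, hM, h⟩ := h (2 ^ (K + 1))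
  set b : ℕ := M * (2 ^ (K + 4) + 8) + 1 with hbdef
  have hb0 : 0 < b := by omega
  have hp : 16 ≤ 2 ^ (K + 4) := by
    have : 2 ^ 4 ≤ 2 ^ (K + 4) := Nat.pow_le_pow_right (by norm_num) (by omega)
    omega
  have hb1 : 4 * M + 4 < b := by
    have : M * 24 ≤ M * (2 ^ (K + 4) + 8) := Nat.mul_le_mul_left _ (by omega)
    omega
  have hb2 : 2 ^ (K + 4) * M + 2 * M ≤ b := by
    have : M * (2 ^ (K + 4) + 8) = 2 ^ (K + 4) * M + 8 * M := by ring
    omega
  have hcop : Nat.Coprime b M := by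
    rw [hbdef]
    have : Nat.Coprime (1 + M * (2 ^ (K + 4) + 8)) M := by
      rw [Nat.coprime_add_mul_left_left]
      exact Nat.coprime_one_left M
    rwa [add_comm] at this
  obtain ⟨c, c1, c2, c3, c4, c5, c6⟩ := spoil Ms M m b K (b ^ m) hM
    (fun k hk => ⟨(hMs k hk).1.le, (hMs k hk).2.2⟩) hcop hb2
  have hbm : 0 < b ^ m := by positivity
  refine ⟨b ^ m, b ^ m, M * b ^ m, c, Bad Ms M m b, by positivity, fun i j hij _ => c1 hij, ?_, ?_,
    fun T _ => bad_per hb0 (fun k hk => (hMs k hk).2.2), ?_⟩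
  · intro i i' j j' _ _ _ _ h1 h2 h3 h4
    by_contra hne
    have h5 := c4 i i' j j' (fun e => h1 e.symm) (fun e => hne e.1)
    have hbm' : (0 : ℤ) < (b : ℤ) ^ m := by exact_mod_cast hbm
    have h3' : (c i : ℤ) + c j' < c j + c i' + 2 * (b : ℤ) ^ m := by exact_mod_cast h3
    have h4' : (c j : ℤ) + c i' < c i + c j' + 2 * (b : ℤ) ^ m := by exact_mod_cast h4
    push_cast at h5
    rcases lt_abs.1 h5 with h6 | h6
    · linarith
    · linarith
  · intro T _ hT I hI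
    have hch : ∀ k, ∃ k', k ∈ I → k' < K ∧ k' ≠ k ∧ Bad Ms M m b (T + c k' - c k) := by
      intro k
      by_cases hk : k ∈ I
      · obtain ⟨k', h1, h2, h3⟩ := (hI k hk).2
        exact ⟨k', fun _ => ⟨h1, h2, h3⟩⟩
      · exact ⟨0, fun h0 => absurd h0 hk⟩
    choose g hg using hch
    have h1 : I.card = (I.image (fun k => (k, g k))).card := by
      rw [Finset.card_image_of_injective]
      intro x y hxy
      exact (Prod.mk.inj hxy).1
    have h2 : I.image (fun k => (k, g k)) ⊆ (Finset.range K ×ˢ Finset.range K).filter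
        (fun p => p.1 ≠ p.2 ∧ Bad Ms M m b (T + c p.2 - c p.1)) := by
      intro x hx
      rw [Finset.mem_image] at hx
      obtain ⟨k, hk, rfl⟩ := hx
      obtain ⟨e1, e2, e3⟩ := hg k hk
      rw [Finset.mem_filter, Finset.mem_product, Finset.mem_range, Finset.mem_range]
      exact ⟨⟨(hI k hk).1, e1⟩, fun e => e2 e.symm, e3⟩
    have h3 := Finset.card_le_card h2
    have h4 := c5 T (fun i hi => hT i hi)
    have h5 : ((Finset.range K ×ˢ Finset.range K).filter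
        (fun p => p.1 ≠ p.2 ∧ Bad Ms M m b (T + c p.2 - c p.1))).card ≤ Ms.card + m := by
      convert h4
    omega
  · intro A f
    obtain ⟨lam, rho, nu, h1, h2, h3, h4⟩ := h b hb1 hcop A f
    refine ⟨lam, rho, nu, fun P v hP => (h1 P v hP).le, h2, ?_, ?_⟩
    · intro Y _ hY v
      unfold Bad at hY
      push Not at hY
      obtain ⟨P, Q, e, e1, e2⟩ := h3 Y hY.1 hY.2 v
      exact ⟨P, Q, e.symm, e1, e2⟩
    · intro u u' e1 e2 e3 e4 e5
      exact (h4 u u' e1 e2 e3 e4 e5).2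

end Crest.Agent.R320.GadW_458
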