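import Crest.Agent.R320.GridNu_762
import Crest.Agent.R320.Thin_963

set_option autoImplicit false

/-! Row 320: the closed gadget + ruler in the form `GadW` of helper6 (#14359). -/

namespace Crest.Agent.R320.GadW_762

open Finset Crest.Agent.R320 Crest.Agent.R320.Grid_899

theorem sumG (κ : ℕ) (hκ : 1 ≤ κ) (i : ℕ) : ∑ j ∈ range (i + 1), G κ j ≤ 2 * G κ i := by
  induction i with
  | zero => simp [G]
  | succ i ih =>
    rw [Finset.sum_range_succ]
    have h1 : 2 * G κ i ≤ G κ (i + 1) := by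
      have e : G κ (i + 1) = G κ i * 2 ^ κ := by unfold G; rw [← pow_add]; ring_nf
      have h2 : 2 ≤ 2 ^ κ := by
        calc 2 = 2 ^ 1 := by norm_num
          _ ≤ 2 ^ κ := Nat.pow_le_pow_right (by norm_num) hκ
      rw [e, Nat.mul_comm 2]
      exact Nat.mul_le_mul_left _ h2
    omega

theorem gadW (S V : Type) [Monoid S] [Finite S] [AddCommGroup V] [Finite V] (act : V → S → V) :
    ∃ R1 : ℕ, ∀ K : ℕ, ∃ (N1 N0 M : ℕ) (c : ℕ → ℕ) (BadT : ℕ → Prop), 0 < M ∧
    (∀ i j, i < j → j < K → c i < c j) ∧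
    (∀ i i' j j', i < K → i' < K → j < K → j' < K → i' ≠ i → j' ≠ j →
      c i + c j' < c j + c i' + 2 * N1 → c j + c i' < c i + c j' + 2 * N1 → i = j) ∧
    (∀ T : ℕ, N0 ≤ T → (∀ k, k < K → c k ≤ T) → ∀ I : Finset ℕ,
      (∀ k ∈ I, k < K ∧ ∃ k', k' < K ∧ k' ≠ k ∧ BadT (T + c k' - c k)) → I.card ≤ R1) ∧
    (∀ T, N0 ≤ T → (BadT (T + M) ↔ BadT T)) ∧
    ∀ (A : Type) (f : A → S), ∃ (lam rho : List A → Option V) (nu : List A → V),
      (∀ P v, lam P = some v → P.length ≤ N1) ∧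
      (∀ P Q v r, lam P = some v → rho Q = some r →
        r = act v (((P ++ Q).map f).prod) + nu (P ++ Q)) ∧
      (∀ Y, N0 ≤ Y.length → ¬ BadT Y.length → ∀ v, ∃ P Q, Y = P ++ Q ∧ lam P = some v ∧
        (rho Q).isSome) ∧
      (∀ u u', N0 ≤ u.length → N0 ≤ u'.length → u.take N0 = u'.take N0 →
        u.length % M = u'.length % M →
        ((u.drop N0).map f).prod = ((u'.drop N0).map f).prod → nu u = nu u') := by
  classical
  obtain ⟨kk, m, H⟩ := GridNu_762.grid_gadget_nu S V act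
  refine ⟨kk + m, fun K => ?_⟩
  let q : Fin kk → ℕ := fun j => Nat.nth Nat.Prime (2 ^ (K + 1) + 3 + j)
  have hmono := Nat.nth_strictMono Nat.infinite_setOf_prime
  have hK2 : 0 < 2 ^ K := by positivity
  have hK3 : 2 ^ (K + 1) = 2 * 2 ^ K := by ring
  have hqp : ∀ j, (q j).Prime := fun j => Nat.prime_nth_prime _
  have hqge : ∀ j, 2 ^ (K + 1) + 3 ≤ q j := fun j =>
    le_trans (by omega : 2 ^ (K + 1) + 3 ≤ 2 ^ (K + 1) + 3 + (j : ℕ)) hmono.le_apply
  have hinj : Function.Injective q := by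
    intro i j h
    have := hmono.injective h
    exact Fin.ext (by omega)
  have hodd : ∀ j, Odd (q j) := fun j => (hqp j).odd_of_ne_two (by have := hqge j; omega)
  have hcop : Pairwise (fun i j => Nat.Coprime (q i) (q j)) := fun i j hij =>
    (Nat.coprime_primes (hqp i) (hqp j)).2 (fun h => hij (hinj h))
  obtain ⟨Ms, hMsdef⟩ : ∃ Ms, Ms = ∏ j, q j := ⟨_, rfl⟩
  have hMs : 0 < Ms := by rw [hMsdef]; exact Finset.prod_pos fun j _ => (hqp j).pos
  obtain ⟨κ, hκdef⟩ : ∃ κ, κ = K + 5 + Ms := ⟨_, rfl⟩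
  have HH := H q hodd hcop κ
  rw [← hMsdef] at HH
  let F : Finset ℕ := Finset.univ.image q
  have hFc : F.card ≤ kk := by
    have := Finset.card_image_le (s := (Finset.univ : Finset (Fin kk))) (f := q)
    simpa using this
  have hFm : ∀ p ∈ F, ∃ j, q j = p := fun p hp => by
    obtain ⟨j, _, hj⟩ := Finset.mem_image.1 hp
    exact ⟨j, hj⟩
  have hgrow : ∀ i < m, 2 ^ (K + 4) * ∑ j ∈ range (i + 1), Ms * G κ j ≤ G κ (i + 1) := by
    intro i _
    rw [← Finset.mul_sum]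
    have h1 := sumG κ (by omega) i
    have e : G κ (i + 1) = G κ i * 2 ^ κ := by unfold G; rw [← pow_add]; ring_nf
    have h2 : 2 ^ (K + 5) * Ms ≤ 2 ^ κ := by
      have h3 : 2 ^ (K + 5) * Ms ≤ 2 ^ (K + 5) * 2 ^ Ms :=
        Nat.mul_le_mul_left _ (Nat.lt_two_pow_self).le
      rw [hκdef, pow_add 2 (K + 5) Ms]
      exact h3
    calc 2 ^ (K + 4) * (Ms * ∑ j ∈ range (i + 1), G κ j)
        ≤ 2 ^ (K + 4) * (Ms * (2 * G κ i)) :=
          Nat.mul_le_mul_left _ (Nat.mul_le_mul_left _ h1)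
      _ = G κ i * (2 ^ (K + 5) * Ms) := by ring
      _ ≤ G κ i * 2 ^ κ := Nat.mul_le_mul_left _ h2
      _ = G κ (i + 1) := e.symm
  obtain ⟨N1, hN1⟩ : ∃ N1, N1 = 2 * Am Ms κ (m + 1) + 1 := ⟨_, rfl⟩
  obtain ⟨X, hX0, hXpos, hthin⟩ := Thin963.thin K m F (fun i => (G κ i : ℤ))
    (fun i => ((Ms * G κ i : ℕ) : ℤ)) (fun i => (Am Ms κ i : ℤ))
    (fun p hp => by
      obtain ⟨j, rfl⟩ := hFm p hp
      exact ⟨hqp j, by have := hqge j; omega⟩)
    (fun p hp => by
      obtain ⟨j, rfl⟩ := hFm p hp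
      refine Nat.isCoprime_iff_coprime.2 ?_
      exact Nat.Coprime.pow_right _ ((Nat.coprime_primes (hqp j) Nat.prime_two).2
        (by have := hqge j; omega)))
    (by exact_mod_cast G_pos (κ := κ) m)
    (fun i j h => by exact_mod_cast G_dvd (κ := κ) h)
    (fun i => by exact_mod_cast Nat.mul_pos hMs (G_pos (κ := κ) i))
    (fun i => by exact_mod_cast Nat.dvd_mul_left (G κ i) Ms)
    (fun i hi => by exact_mod_cast hgrow i hi)
    (2 * (N1 : ℤ))
  lift X to ℕ using hXpos.le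
  have hXp : 0 < X := by exact_mod_cast hXpos
  have hMdvd : ∀ i, i ≤ m → G κ i ∣ Ms * G κ m := fun i hi =>
    dvd_trans (G_dvd hi) (Nat.dvd_mul_left _ _)
  have hqdvd : ∀ j, q j ∣ Ms * G κ m := fun j => by
    rw [hMsdef]
    exact dvd_trans (Finset.dvd_prod_of_mem q (Finset.mem_univ j)) (Nat.dvd_mul_right _ _)
  let BT : ℕ → Prop := fun T => Thin963.BadT F m (fun i => (G κ i : ℤ))
    (fun i => ((Ms * G κ i : ℕ) : ℤ)) (fun i => (Am Ms κ i : ℤ)) (T : ℤ)
  refine ⟨N1, N1, Ms * G κ m, fun k => X * 2 ^ k, BT, Nat.mul_pos hMs (G_pos _), ?_, ?_, ?_, ?_, ?_⟩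
  · intro i j hij _
    exact Nat.mul_lt_mul_of_pos_left (Nat.pow_lt_pow_right (by norm_num) hij) hXp
  · intro i i' j j' _ _ _ _ hi hj h1 h2
    have e1 : (X : ℤ) * 2 ^ i + X * 2 ^ j' < X * 2 ^ j + X * 2 ^ i' + 2 * N1 := by exact_mod_cast h1
    have e2 : (X : ℤ) * 2 ^ j + X * 2 ^ i' < X * 2 ^ i + X * 2 ^ j' + 2 * N1 := by exact_mod_cast h2
    have e3 : ((2 : ℤ) ^ i - 2 ^ i') - (2 ^ j - 2 ^ j') = 0 := by
      by_contra hne
      rcases lt_or_gt_of_ne hne with hlt | hgt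
      · have h3 : ((2 : ℤ) ^ i - 2 ^ i') - (2 ^ j - 2 ^ j') ≤ -1 := by omega
        have h4 := mul_le_mul_of_nonneg_left h3 hXpos.le
        nlinarith
      · have h3 : 1 ≤ ((2 : ℤ) ^ i - 2 ^ i') - (2 ^ j - 2 ^ j') := by omega
        have h4 := mul_le_mul_of_nonneg_left h3 hXpos.le
        nlinarith
    exact (Crest.Agent.R320.G369.pow_diff (Ne.symm hi) (Ne.symm hj) (by linarith)).1
  · intro T _ hT I hI
    have hsub : I ⊆ (((Finset.range K) ×ˢ (Finset.range K)).filter (fun p => p.1 ≠ p.2 ∧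
        Thin963.BadT F m (fun i => (G κ i : ℤ)) (fun i => ((Ms * G κ i : ℕ) : ℤ))
          (fun i => (Am Ms κ i : ℤ)) ((T : ℤ) + X * 2 ^ p.1 - X * 2 ^ p.2))).image Prod.snd := by
      intro k hk
      obtain ⟨hkK, k', hk'K, hne, hb⟩ := hI k hk
      refine Finset.mem_image.2 ⟨(k', k), ?_, rfl⟩
      rw [Finset.mem_filter, Finset.mem_product, Finset.mem_range, Finset.mem_range]
      refine ⟨⟨hk'K, hkK⟩, hne, ?_⟩
      have hle : X * 2 ^ k ≤ T + X * 2 ^ k' := (hT k hkK).trans (Nat.le_add_right _ _)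
      have e : (((T + X * 2 ^ k' - X * 2 ^ k : ℕ)) : ℤ) = (T : ℤ) + X * 2 ^ k' - X * 2 ^ k := by
        rw [Nat.cast_sub hle]; push_cast; ring
      have hb' : Thin963.BadT F m (fun i => (G κ i : ℤ)) (fun i => ((Ms * G κ i : ℕ) : ℤ))
          (fun i => (Am Ms κ i : ℤ)) (((T + X * 2 ^ k' - X * 2 ^ k : ℕ)) : ℤ) := hb
      rw [e] at hb'
      exact hb'
    have h1 := Finset.card_le_card hsub
    have h2 := Finset.card_image_le (s := (((Finset.range K) ×ˢ (Finset.range K)).filter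
      (fun p => p.1 ≠ p.2 ∧ Thin963.BadT F m (fun i => (G κ i : ℤ))
        (fun i => ((Ms * G κ i : ℕ) : ℤ)) (fun i => (Am Ms κ i : ℤ))
        ((T : ℤ) + X * 2 ^ p.1 - X * 2 ^ p.2)))) (f := Prod.snd)
    have h3 := hthin (T : ℤ)
    refine h1.trans (h2.trans (le_trans ?_ (Nat.add_le_add_right hFc m)))
    convert h3
  · intro T _
    have key : ∀ (T : ℤ) (s : ℤ), Thin963.BadT F m (fun i => (G κ i : ℤ))
        (fun i => ((Ms * G κ i : ℕ) : ℤ)) (fun i => (Am Ms κ i : ℤ)) T →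
        Thin963.BadT F m (fun i => (G κ i : ℤ)) (fun i => ((Ms * G κ i : ℕ) : ℤ))
        (fun i => (Am Ms κ i : ℤ)) (T + s * ((Ms * G κ m : ℕ) : ℤ)) := by
      intro T s h
      rcases h with ⟨p, hp, hd⟩ | ⟨i, hi, e, he, hd⟩
      · obtain ⟨j, rfl⟩ := hFm p hp
        exact Or.inl ⟨q j, hp, dvd_add hd (Dvd.dvd.mul_left (by exact_mod_cast hqdvd j) _)⟩
      · refine Or.inr ⟨i, hi, e, he, ?_⟩
        have h5 : ((G κ (i + 1) : ℕ) : ℤ) ∣ s * ((Ms * G κ m : ℕ) : ℤ) :=
          Dvd.dvd.mul_left (by exact_mod_cast hMdvd (i + 1) (by omega)) _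
        have h6 := dvd_add hd h5
        have e7 : T - (Am Ms κ (i + 1) : ℤ) + e + s * ((Ms * G κ m : ℕ) : ℤ) =
          T + s * ((Ms * G κ m : ℕ) : ℤ) - (Am Ms κ (i + 1) : ℤ) + e := by ring
        rw [e7] at h6
        exact h6
    constructor
    · intro h
      have h' := key ((T + Ms * G κ m : ℕ) : ℤ) (-1) h
      have e : ((T + Ms * G κ m : ℕ) : ℤ) + (-1) * ((Ms * G κ m : ℕ) : ℤ) = (T : ℤ) := by
        push_cast; ring
      rw [e] at h'
      exact h'
    · intro h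
      have h' := key (T : ℤ) 1 h
      have e : (T : ℤ) + 1 * ((Ms * G κ m : ℕ) : ℤ) = ((T + Ms * G κ m : ℕ) : ℤ) := by
        push_cast; ring
      rw [e] at h'
      exact h'
  · intro A f
    obtain ⟨lam, rho, nu, a1, a2, a3, a4, a5⟩ := HH A (fun w => (w.map f).prod)
      (fun u v => by simp)
    have hAm : Am Ms κ m ≤ Am Ms κ (m + 1) := Am_mono (by omega)
    refine ⟨lam, rho, nu, fun P v h => ?_, fun P Q v r h1 h2 => a3 P Q v r h1 h2, ?_, ?_⟩
    · have := (a1 P v h).1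
      omega
    · intro Y hY hB v
      refine a4 Y (by omega) ?_ ?_ v
      · intro j hj
        exact hB (Or.inl ⟨q j, Finset.mem_image.2 ⟨j, Finset.mem_univ _, rfl⟩, by
          exact_mod_cast hj⟩)
      · intro j hj1 hj2
        obtain ⟨i, rfl⟩ : ∃ i, j = i + 1 := ⟨j - 1, by omega⟩
        rw [Nat.add_sub_cancel]
        have hAi : Am Ms κ (i + 1) ≤ Am Ms κ (m + 1) := Am_mono (by omega)
        have hGp := G_pos (κ := κ) (i + 1)
        have hmod := Nat.mod_lt (Y.length - Am Ms κ (i + 1)) hGp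
        have hdm := Nat.div_add_mod (Y.length - Am Ms κ (i + 1)) (G κ (i + 1))
        set r := (Y.length - Am Ms κ (i + 1)) % G κ (i + 1) with hr
        set d := (Y.length - Am Ms κ (i + 1)) / G κ (i + 1) with hd
        have hz : (Y.length : ℤ) - Am Ms κ (i + 1) = G κ (i + 1) * d + r := by
          have : Y.length = Am Ms κ (i + 1) + (G κ (i + 1) * d + r) := by omega
          rw [this]; push_cast; ring
        constructor
        · by_contra hlt
          push Not at hlt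
          refine hB (Or.inr ⟨i, by omega, -(r : ℤ), ?_, ?_⟩)
          · rw [abs_neg, abs_of_nonneg (by positivity)]
            show (r : ℤ) ≤ ((Ms * G κ i : ℕ) : ℤ)
            exact_mod_cast hlt.le
          · refine ⟨(d : ℤ), ?_⟩
            show (Y.length : ℤ) - (Am Ms κ (i + 1) : ℤ) + -(r : ℤ) = (G κ (i + 1) : ℤ) * d
            rw [hz]; ring
        · by_contra hlt
          push Not at hlt
          refine hB (Or.inr ⟨i, by omega, (G κ (i + 1) : ℤ) - r, ?_, ?_⟩)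
          · rw [abs_of_nonneg (by have : (r : ℤ) < G κ (i + 1) := by exact_mod_cast hmod
                                  linarith)]
            have : (G κ (i + 1) : ℤ) < r + ((Ms * G κ i : ℕ) : ℤ) := by exact_mod_cast hlt
            linarith
          · refine ⟨(d : ℤ) + 1, ?_⟩
            show (Y.length : ℤ) - (Am Ms κ (i + 1) : ℤ) + ((G κ (i + 1) : ℤ) - r) =
              (G κ (i + 1) : ℤ) * (d + 1)
            rw [hz]; ring
    · intro u u' h1 h2 ht hl hd
      have hN : Am Ms κ (m + 1) ≤ N1 := by omega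
      refine a5 u u' (by omega) (by omega) ?_ ?_ hl
      · have e1 : u.take (Am Ms κ (m + 1)) = (u.take N1).take (Am Ms κ (m + 1)) := by
          rw [List.take_take, min_eq_left hN]
        have e2 : u'.take (Am Ms κ (m + 1)) = (u'.take N1).take (Am Ms κ (m + 1)) := by
          rw [List.take_take, min_eq_left hN]
        rw [e1, e2, ht]
      · have e1 := drop_take_drop u (Am Ms κ (m + 1)) N1 hN h1
        have e2 := drop_take_drop u' (Am Ms κ (m + 1)) N1 hN h2
        show ((u.drop (Am Ms κ (m + 1))).map f).prod = ((u'.drop (Am Ms κ (m + 1))).map f).prod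
        rw [e1, e2, List.map_append, List.map_append, List.prod_append, List.prod_append, ht, hd]

end Crest.Agent.R320.GadW_762
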