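import Crest.Agent.R320.Grid_390
import Crest.Agent.R320.Thin_963

/-!
# Row 320: helper6's black box `GadW`, proved (helper771)

Grid gadget (390) + thin ruler (963), constants chosen.  Literal of `Fin_6.GadW` (post 14359).
-/

set_option autoImplicit false

namespace Crest.Agent.R320.GadW_771

open Crest.Agent.R320.Grid_390

theorem gadW (S V : Type) [Monoid S] [Finite S] [AddCommGroup V] [Finite V]
    (act : V → S → V) :
    ∃ R1 : ℕ, ∀ K : ℕ, ∃ (N1 N0 M : ℕ) (c : ℕ → ℕ) (BadT : ℕ → Prop), 0 < M ∧ 0 < N1 ∧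
      (∀ i j, i < j → j < K → c i < c j) ∧
      (∀ i i' j j', i < K → i' < K → j < K → j' < K → i' ≠ i → j' ≠ j →
        c i + c j' < c j + c i' + 2 * N1 → c j + c i' < c i + c j' + 2 * N1 → i = j) ∧
      (∀ T : ℕ, (∀ k, k < K → c k ≤ T) → ∀ I : Finset ℕ,
        (∀ k ∈ I, k < K ∧ ∃ k', k' < K ∧ k' ≠ k ∧ BadT (T + c k' - c k)) → I.card ≤ R1) ∧
      (∀ T, BadT (T + M) ↔ BadT T) ∧
      ∀ (A : Type) (f : A → S), ∃ (lam rho : List A → Option V) (nu : List A → V),
        (∀ P v, lam P = some v → P.length ≤ N1) ∧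
        (∀ P Q v r, lam P = some v → rho Q = some r →
          r = act v ((P ++ Q).map f).prod + nu (P ++ Q)) ∧
        (∀ Y, N0 ≤ Y.length → ¬ BadT Y.length → ∀ v, ∃ P Q, Y = P ++ Q ∧
          lam P = some v ∧ (rho Q).isSome) ∧
        (∀ u u', N0 ≤ u.length → N0 ≤ u'.length → u.take N0 = u'.take N0 →
          u.length % M = u'.length % M →
          ((u.drop N0).map f).prod = ((u'.drop N0).map f).prod →
          rho u = rho u' ∧ nu u = nu u') := by
  classical
  obtain ⟨k, m, H⟩ := grid_gadget S V act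
  refine ⟨k + m, fun K => ?_⟩
  let q : Fin k → ℕ := fun j => Nat.nth Nat.Prime (2 ^ (K + 1) + j)
  have hqp : ∀ j, (q j).Prime := fun j => Nat.prime_nth_prime _
  have hmono := Nat.nth_strictMono Nat.infinite_setOfPred_prime
  have hqinj : Function.Injective q := by
    intro a b h
    have h1 := hmono.injective h
    exact Fin.ext (by omega)
  have hqbig : ∀ j, 2 ^ (K + 1) ≤ q j := by
    intro j
    have h1 : 2 ^ (K + 1) + (j : ℕ) ≤ Nat.nth Nat.Prime (2 ^ (K + 1) + j) := hmono.le_apply
    show 2 ^ (K + 1) ≤ Nat.nth Nat.Prime (2 ^ (K + 1) + j)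
    omega
  have hqodd : ∀ j, Odd (q j) := by
    intro j
    rcases (hqp j).eq_two_or_odd' with h | h
    · exfalso
      have h0 : 0 < 2 ^ (K + 1) + (j : ℕ) := by positivity
      have h2 : Nat.nth Nat.Prime 0 < q j := hmono h0
      have h3 : Nat.nth Nat.Prime 0 = 2 := Nat.nth_prime_zero_eq_two
      omega
    · exact h
  have hcop : Pairwise (fun i j => Nat.Coprime (q i) (q j)) := fun i j hij =>
    (Nat.coprime_primes (hqp i) (hqp j)).2 (fun h => hij (hqinj h))
  set Ms : ℕ := ∏ j, q j with hMs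
  have hMs0 : 0 < Ms := Finset.prod_pos (fun j _ => (hqp j).pos)
  set κ : ℕ := K + 4 + Ms * (m + 1) with hκ
  set A1 : ℕ := Am Ms κ (m + 1) with hA1
  have hGle : ∀ i j, i ≤ j → G κ i ≤ G κ j := fun i j h =>
    Nat.le_of_dvd (G_pos j) (G_dvd h)
  obtain ⟨X, hX0, hXp, hX⟩ := Thin963.thin K m (Finset.univ.image q)
    (fun i => (G κ i : ℤ)) (fun i => ((Ms * G κ i : ℕ) : ℤ)) (fun i => (Am Ms κ i : ℤ))
    (by
      intro p hp
      obtain ⟨j, -, rfl⟩ := Finset.mem_image.1 hp
      exact ⟨hqp j, hqbig j⟩)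
    (by
      intro p hp
      obtain ⟨j, -, rfl⟩ := Finset.mem_image.1 hp
      have h1 : Nat.Coprime (q j) (G κ m) := by
        unfold G
        exact Nat.Coprime.pow_right _ (Nat.coprime_two_right.2 (hqodd j))
      exact Nat.isCoprime_iff_coprime.2 h1)
    (by exact_mod_cast G_pos m)
    (fun i j h => by exact_mod_cast G_dvd h)
    (fun i => by
      have := Nat.mul_pos hMs0 (G_pos (κ := κ) i)
      exact_mod_cast this)
    (fun i => by
      have : G κ i ∣ Ms * G κ i := Dvd.intro_left _ rfl
      exact_mod_cast this)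
    (by
      intro i hi
      have h1 : ∑ j ∈ Finset.range (i + 1), Ms * G κ j ≤ (i + 1) * (Ms * G κ i) := by
        have := Finset.sum_le_card_nsmul (Finset.range (i + 1)) (fun j => Ms * G κ j)
          (Ms * G κ i) (fun j hj => Nat.mul_le_mul_left _ (hGle j i (by
            have := Finset.mem_range.1 hj; omega)))
        simpa using this
      have h2 : 2 ^ (K + 4) * ((i + 1) * (Ms * G κ i)) ≤ G κ (i + 1) := by
        have h3 : Ms * (m + 1) ≤ 2 ^ (Ms * (m + 1)) := Nat.lt_two_pow_self.le
        have h4 : (i + 1) * (Ms * G κ i) ≤ Ms * (m + 1) * G κ i := by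
          have : (i + 1) * Ms ≤ Ms * (m + 1) := by
            rw [Nat.mul_comm]; exact Nat.mul_le_mul_left _ (by omega)
          calc (i + 1) * (Ms * G κ i) = ((i + 1) * Ms) * G κ i := by ring
            _ ≤ _ := Nat.mul_le_mul_right _ this
        have h5 : G κ (i + 1) = 2 ^ (K + 4) * (2 ^ (Ms * (m + 1)) * G κ i) := by
          unfold G
          rw [Nat.mul_succ, pow_add, hκ]
          rw [pow_add 2 (K + 4) (Ms * (m + 1))]
          ring
        rw [h5]
        exact Nat.mul_le_mul_left _ (h4.trans (Nat.mul_le_mul_right _ h3))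
      have h6 : 2 ^ (K + 4) * ∑ j ∈ Finset.range (i + 1), Ms * G κ j ≤ G κ (i + 1) :=
        (Nat.mul_le_mul_left _ h1).trans h2
      exact_mod_cast h6)
    ((2 * (A1 + 1) + 1 : ℕ) : ℤ)
  obtain ⟨x, rfl⟩ := Int.eq_ofNat_of_zero_le hXp.le
  have hx1 : 2 * (A1 + 1) + 1 ≤ x := by exact_mod_cast hX0
  set BadT : ℕ → Prop := fun T => Thin963.BadT (Finset.univ.image q) m
    (fun i => (G κ i : ℤ)) (fun i => ((Ms * G κ i : ℕ) : ℤ)) (fun i => (Am Ms κ i : ℤ)) (T : ℤ)
    with hBadT
  refine ⟨A1 + 1, 2 * A1, Ms * G κ m, fun j => x * 2 ^ j, BadT,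
    Nat.mul_pos hMs0 (G_pos m), Nat.succ_pos _, ?_, ?_, ?_, ?_, ?_⟩
  · intro i j hij _
    exact Nat.mul_lt_mul_of_pos_left (Nat.pow_lt_pow_right (by norm_num) hij) (by omega)
  · intro i i' j j' _ _ _ _ hi hj h1 h2
    have h1' : (x : ℤ) * 2 ^ i + x * 2 ^ j' < x * 2 ^ j + x * 2 ^ i' + 2 * (A1 + 1) := by
      exact_mod_cast h1
    have h2' : (x : ℤ) * 2 ^ j + x * 2 ^ i' < x * 2 ^ i + x * 2 ^ j' + 2 * (A1 + 1) := by
      exact_mod_cast h2
    have hx2 : (2 : ℤ) * (A1 + 1) + 1 ≤ x := by exact_mod_cast hx1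
    have h3 : ((2 : ℤ) ^ i - 2 ^ i') - (2 ^ j - 2 ^ j') = 0 := by
      set D : ℤ := ((2 : ℤ) ^ i - 2 ^ i') - (2 ^ j - 2 ^ j') with hD
      have e0 : (x : ℤ) * D = (x * 2 ^ i + x * 2 ^ j') - (x * 2 ^ j + x * 2 ^ i') := by
        rw [hD]; ring
      have e3 : (x : ℤ) * D < 2 * (A1 + 1) := by rw [e0]; linarith
      have e4 : -(2 * ((A1 : ℤ) + 1)) < (x : ℤ) * D := by rw [e0]; linarith
      have hA0 : (0 : ℤ) ≤ A1 := Int.natCast_nonneg _
      by_contra hne
      rcases lt_or_gt_of_ne hne with h | h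
      · have h5 : D ≤ -1 := by omega
        nlinarith
      · have h5 : 1 ≤ D := by omega
        nlinarith
    exact (G369.pow_diff (i := i) (j := i') (i' := j) (j' := j') (Ne.symm hi) (Ne.symm hj)
      (by linarith)).1
  · intro T hT I hI
    have h1 : ∀ a ∈ I, ∃ b, b < K ∧ b ≠ a ∧ BadT (T + x * 2 ^ b - x * 2 ^ a) := fun a ha =>
      (hI a ha).2
    choose! g hg using h1
    have h2 := hX (T : ℤ)
    refine le_trans ?_ (h2.trans (Nat.add_le_add_right
      (Finset.card_image_le.trans (by simp)) m))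
    refine Finset.card_le_card_of_injOn (fun a => (g a, a)) ?_ ?_
    · intro a ha
      obtain ⟨h3, h4, h5⟩ := hg a ha
      have haK := (hI a ha).1
      refine Finset.mem_coe.2 (Finset.mem_filter.2 ⟨Finset.mem_product.2
        ⟨Finset.mem_range.2 h3, Finset.mem_range.2 haK⟩, h4, ?_⟩)
      have h6 : x * 2 ^ a ≤ T := hT a haK
      have h7 : ((T + x * 2 ^ (g a) - x * 2 ^ a : ℕ) : ℤ) =
          (T : ℤ) + x * 2 ^ (g a) - x * 2 ^ a := by
        rw [Nat.cast_sub (by omega)]; push_cast; ring
      have h8 := h5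
      rw [hBadT] at h8
      simp only [h7] at h8
      exact h8
    · intro a _ b _ h
      exact congrArg Prod.snd h
  · intro T
    have hd : ∀ i, i ≤ m → ((G κ i : ℕ) : ℤ) ∣ ((Ms * G κ m : ℕ) : ℤ) := by
      intro i hi
      have : G κ i ∣ Ms * G κ m := (G_dvd hi).trans (Dvd.intro_left _ rfl)
      exact_mod_cast this
    have hq' : ∀ j, ((q j : ℕ) : ℤ) ∣ ((Ms * G κ m : ℕ) : ℤ) := by
      intro j
      have : q j ∣ Ms * G κ m := (Finset.dvd_prod_of_mem q (Finset.mem_univ j)).trans
        (Dvd.intro _ rfl)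
      exact_mod_cast this
    rw [hBadT]
    simp only [Thin963.BadT]
    apply or_congr
    · apply exists_congr
      intro p
      apply and_congr_right
      intro hp
      obtain ⟨j, -, rfl⟩ := Finset.mem_image.1 hp
      rw [Nat.cast_add]
      exact (Int.dvd_add_left (hq' j))
    · apply exists_congr
      intro i
      apply and_congr_right
      intro hi
      apply exists_congr
      intro e
      apply and_congr_right
      intro _
      rw [Nat.cast_add]
      have e1 : (T : ℤ) + ((Ms * G κ m : ℕ) : ℤ) - (Am Ms κ (i + 1) : ℤ) + e =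
        ((T : ℤ) - (Am Ms κ (i + 1) : ℤ) + e) + ((Ms * G κ m : ℕ) : ℤ) := by ring
      rw [e1]
      exact (Int.dvd_add_left (hd (i + 1) (by omega)))
  · intro A f
    have HH := H q hqodd hcop κ A (fun u => (u.map f).prod) (by intro u v; simp)
    rw [← hMs] at HH
    obtain ⟨lam, rho, nu, h1, h2, h3, h4, h5⟩ := HH
    have hAm : Am Ms κ m ≤ A1 := Am_mono (by omega)
    refine ⟨lam, rho, nu, ?_, ?_, ?_, ?_⟩
    · intro P v h
      have := (h1 P v h).1
      omega
    · intro P Q v r hP hQ
      exact h3 P Q v r hP hQ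
    · intro Y hY hb v
      refine h4 Y hY ?_ ?_ v
      · intro j hj
        apply hb
        left
        exact ⟨q j, Finset.mem_image_of_mem q (Finset.mem_univ j), by exact_mod_cast hj⟩
      · intro j hj1 hjm
        obtain ⟨i, rfl⟩ : ∃ i, j = i + 1 := ⟨j - 1, by omega⟩
        have hle : Am Ms κ (i + 1) ≤ Y.length := by
          have : Am Ms κ (i + 1) ≤ A1 := Am_mono (by omega)
          omega
        set r := (Y.length - Am Ms κ (i + 1)) % G κ (i + 1) with hr
        set d := (Y.length - Am Ms κ (i + 1)) / G κ (i + 1) with hd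
        have hdr : G κ (i + 1) * d + r = Y.length - Am Ms κ (i + 1) := Nat.div_add_mod _ _
        have hrlt : r < G κ (i + 1) := Nat.mod_lt _ (G_pos _)
        have hdr' : (G κ (i + 1) : ℤ) * d + r = (Y.length : ℤ) - Am Ms κ (i + 1) := by
          have : ((G κ (i + 1) * d + r : ℕ) : ℤ) = ((Y.length - Am Ms κ (i + 1) : ℕ) : ℤ) := by
            rw [hdr]
          rw [Nat.cast_sub hle] at this
          push_cast at this
          exact this
        simp only [Nat.add_sub_cancel]
        constructor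
        · by_contra hc
          apply hb
          right
          refine ⟨i, by omega, -(r : ℤ), ?_, ?_⟩
          · rw [abs_neg, abs_of_nonneg (by positivity)]
            have : r ≤ Ms * G κ i := by omega
            show (r : ℤ) ≤ ((Ms * G κ i : ℕ) : ℤ)
            exact_mod_cast this
          · refine ⟨d, ?_⟩
            simp only
            linarith
        · by_contra hc
          apply hb
          right
          refine ⟨i, by omega, (G κ (i + 1) : ℤ) - r, ?_, ?_⟩
          · have h7 : (r : ℤ) < G κ (i + 1) := by exact_mod_cast hrlt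
            rw [abs_of_nonneg (by linarith)]
            have : G κ (i + 1) - r ≤ Ms * G κ i := by omega
            have h8 : ((G κ (i + 1) - r : ℕ) : ℤ) ≤ ((Ms * G κ i : ℕ) : ℤ) := by
              exact_mod_cast this
            rw [Nat.cast_sub hrlt.le] at h8
            exact h8
          · refine ⟨d + 1, ?_⟩
            simp only
            linarith
    · intro u u' hu hu' ht hl hp
      have e1 : ∀ w : List A, w.take A1 = (w.take (2 * A1)).take A1 := by
        intro w; rw [List.take_take, Nat.min_eq_left (by omega)]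
      have e2 : ∀ w : List A, w.drop A1 = (w.take (2 * A1)).drop A1 ++ w.drop (2 * A1) := by
        intro w
        conv_lhs => rw [← List.take_append_drop (2 * A1) w]
        rcases Nat.le_total (2 * A1) w.length with h | h
        · rw [List.drop_append_of_le_length (by rw [List.length_take]; omega)]
        · rw [List.drop_of_length_le h, List.append_nil, List.append_nil]
      refine h5 u u' (by omega) (by omega) ?_ hl ?_
      · show u.take A1 = u'.take A1
        rw [e1 u, e1 u', ht]
      · show ((u.drop A1).map f).prod = ((u'.drop A1).map f).prod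
        rw [e2 u, e2 u', ht, List.map_append, List.map_append, List.prod_append,
          List.prod_append, hp]

end Crest.Agent.R320.GadW_771
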