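import Mathlib
import Crest.Agent.R320.G1_168
import Crest.Agent.R320.Sp_493

/-!
# Row 320: gadget 1 with its ruler (helper493)

`gad1` = the body of 963's `Gad1` (#14331), `gad` = the body of 211's `Gad` (#14340), both proved
from the digit gadget `G1_168.g1` (lead #13673) and the ruler `Sp_493.spoil`.
-/

set_option autoImplicit false

namespace Crest.Agent.R320.GadX_493

open Crest.Agent.R320.Sp_493

/-- 963's `Gad1`, literally -/
theorem gad1 (S V : Type) [Monoid S] [Finite S] [AddCommGroup V] [Finite V] (act : V → S → V) :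
    ∃ C0 : ℕ, ∀ K : ℕ, ∃ (N1 La Per : ℕ) (c : ℕ → ℕ) (Bad : ℕ → Prop), 0 < Per ∧ 0 < N1 ∧
      (∀ i j, i < j → j < K → c i < c j) ∧
      (∀ k k' l l', k < K → k' < K → l < K → l' < K → k' ≠ k → l' ≠ l →
        c k + c l' < c l + c k' + 2 * N1 → c l + c k' < c k + c l' + 2 * N1 → k = l) ∧
      (∀ T, (∀ k < K, c k ≤ T) → La ≤ T → ∀ F : Finset (ℕ × ℕ),
        (∀ p ∈ F, p.1 < K ∧ p.2 < K ∧ p.1 ≠ p.2 ∧ Bad (T + c p.2 - c p.1)) → F.card ≤ C0) ∧
      (∀ T, La ≤ T → (Bad (T + Per) ↔ Bad T)) ∧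
      ∀ (α : Type) (f : α → S), ∃ (lam rho : List α → Option V) (nu : List α → V),
        (∀ P Q v b, lam P = some v → rho Q = some b →
          b = act v ((P ++ Q).map f).prod + nu (P ++ Q)) ∧
        (∀ P v, lam P = some v → P.length ≤ N1) ∧
        (∀ Y : List α, La ≤ Y.length → ¬ Bad Y.length → ∀ v, ∃ P Q, Y = P ++ Q ∧
          lam P = some v ∧ (rho Q).isSome) ∧
        (∀ u u' : List α, La ≤ u.length → La ≤ u'.length → u.take La = u'.take La →
          ((u.drop La).map f).prod = ((u'.drop La).map f).prod →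
          u.length % Per = u'.length % Per → nu u = nu u') := by
  obtain ⟨m, r, h⟩ := Crest.Agent.R320.G1_168.g1 S V act
  refine ⟨r + m, fun K => ?_⟩
  obtain ⟨Ms, M, hc, hMs, hM, hb⟩ := h (2 ^ K)
  set b := M * (2 ^ (K + 4) + 8) + 1 with hbdef
  have hcop : Nat.Coprime b M := by
    rw [hbdef]
    simp
  have hp : 0 < 2 ^ (K + 4) := by positivity
  have hb1 : 4 * M + 4 < b := by
    rw [hbdef]
    have : M * (2 ^ (K + 4) + 8) ≥ M * (1 + 8) := Nat.mul_le_mul_left _ (by omega)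
    omega
  have hb2 : 2 ^ (K + 4) * M < b := by
    rw [hbdef]
    have : M * (2 ^ (K + 4) + 8) = 2 ^ (K + 4) * M + M * 8 := by ring
    omega
  have hb0 : 0 < b := by omega
  obtain ⟨c, c1, c2, c3, c4, c5⟩ := spoil Ms M m K b hM (fun k hk => ⟨(hMs k hk).1, (hMs k hk).2.2⟩)
    hb2 hcop (b ^ m)
  refine ⟨b ^ m, b ^ m, M * b ^ m, c, Bad Ms M b m, by positivity, by positivity,
    fun i j hij _ => c1 hij, ?_, ?_, ?_, ?_⟩
  · intro k k' l l' _ _ _ _ h1 h2 h3 h4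
    by_contra hne
    have hkl : (k, k') ≠ (l, l') := fun h => hne (congrArg Prod.fst h)
    rcases c4 k k' l l' h1.symm h2.symm hkl with h5 | h5
    · omega
    · omega
  · intro T hT _ F hF
    exact (c5 T hT F hF).trans (by omega)
  · intro T _
    exact Bad_add hb0 (fun k hk => (hMs k hk).2.2) T
  · intro α f
    obtain ⟨lam, rho, nu, g1, g2, g3, g4⟩ := hb b hb1 hcop α f
    refine ⟨lam, rho, nu, ?_, ?_, ?_, ?_⟩
    · intro P Q v b' h1 h2
      exact g2 P Q v b' h1 h2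
    · intro P v h1
      exact (g1 P v h1).le
    · intro Y _ hbad v
      have h1 : ∀ k ∈ Ms, ¬ k ∣ Y.length := fun k hk hd => hbad (Or.inl ⟨k, hk, hd⟩)
      have h2 : ∀ j < m, M ≤ Y.length / b ^ j % b ∧ Y.length / b ^ j % b + M + 1 ≤ b := by
        intro j hj
        by_contra h3
        exact hbad (Or.inr ⟨j, hj, h3⟩)
      obtain ⟨P, Q, e, h3, h4⟩ := g3 Y h1 h2 v
      exact ⟨P, Q, e.symm, h3, h4⟩
    · intro u u' h1 h2 h3 h4 h5
      exact (g4 u u' h1 h2 h3 h5 h4).2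

/-- 211's `Gad`, literally (`pr f u = (u.map f).prod` unfolded) -/
theorem gad {α S V : Type} [Monoid S] [Finite S] [AddCommGroup V] [Finite V] (act : V → S → V)
    (f : α → S) :
    ∃ R1 : ℕ, ∀ K : ℕ, ∃ (N1 N0 Kp M : ℕ) (BadT : ℕ → Prop) (c : ℕ → ℕ)
      (lam rho : List α → Option V) (nu1 : List α → V),
      (∀ P Q v r, lam P = some v → rho Q = some r →
        r = act v ((P ++ Q).map f).prod + nu1 (P ++ Q)) ∧
      (∀ P v, lam P = some v → P.length ≤ N1) ∧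
      (∀ Y : List α, N0 ≤ Y.length → ¬ BadT Y.length → ∀ v, ∃ P Q, Y = P ++ Q ∧
        lam P = some v ∧ (rho Q).isSome) ∧ 0 < M ∧
      (∀ Y Y' : List α, Kp ≤ Y.length → Kp ≤ Y'.length → Y.take Kp = Y'.take Kp →
        Y.length % M = Y'.length % M → ((Y.drop Kp).map f).prod = ((Y'.drop Kp).map f).prod →
        nu1 Y = nu1 Y') ∧
      (∀ i j, i < j → j < K → c i < c j) ∧
      (∀ i i' j j', i < K → i' < K → j < K → j' < K → i' ≠ i → j' ≠ j →
        c i + c j' < c j + c i' + 2 * N1 → c j + c i' < c i + c j' + 2 * N1 → i = j) ∧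
      (∀ T, (∀ k, k < K → c k ≤ T) → ∀ I : Finset ℕ,
        (∀ k ∈ I, k < K ∧ ∃ k', k' < K ∧ k' ≠ k ∧ BadT (T + c k' - c k)) → I.card ≤ R1) := by
  classical
  obtain ⟨m, r, h⟩ := Crest.Agent.R320.G1_168.g1 S V act
  refine ⟨r + m, fun K => ?_⟩
  obtain ⟨Ms, M, hc, hMs, hM, hb⟩ := h (2 ^ K)
  set b := M * (2 ^ (K + 4) + 8) + 1 with hbdef
  have hcop : Nat.Coprime b M := by
    rw [hbdef]
    simp
  have hp : 0 < 2 ^ (K + 4) := by positivity
  have hb1 : 4 * M + 4 < b := by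
    rw [hbdef]
    have : M * (2 ^ (K + 4) + 8) ≥ M * (1 + 8) := Nat.mul_le_mul_left _ (by omega)
    omega
  have hb2 : 2 ^ (K + 4) * M < b := by
    rw [hbdef]
    have : M * (2 ^ (K + 4) + 8) = 2 ^ (K + 4) * M + M * 8 := by ring
    omega
  have hb0 : 0 < b := by omega
  obtain ⟨c, c1, c2, c3, c4, c5⟩ := spoil Ms M m K b hM (fun k hk => ⟨(hMs k hk).1, (hMs k hk).2.2⟩)
    hb2 hcop (b ^ m)
  obtain ⟨lam, rho, nu, g1, g2, g3, g4⟩ := hb b hb1 hcop α f
  refine ⟨b ^ m, b ^ m, b ^ m, M * b ^ m, Bad Ms M b m, c, lam, rho, nu, ?_, ?_, ?_,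
    by positivity, ?_, fun i j hij _ => c1 hij, ?_, ?_⟩
  · intro P Q v b' h1 h2
    exact g2 P Q v b' h1 h2
  · intro P v h1
    exact (g1 P v h1).le
  · intro Y _ hbad v
    have h1 : ∀ k ∈ Ms, ¬ k ∣ Y.length := fun k hk hd => hbad (Or.inl ⟨k, hk, hd⟩)
    have h2 : ∀ j < m, M ≤ Y.length / b ^ j % b ∧ Y.length / b ^ j % b + M + 1 ≤ b := by
      intro j hj
      by_contra h3
      exact hbad (Or.inr ⟨j, hj, h3⟩)
    obtain ⟨P, Q, e, h3, h4⟩ := g3 Y h1 h2 v
    exact ⟨P, Q, e.symm, h3, h4⟩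
  · intro u u' h1 h2 h3 h4 h5
    exact (g4 u u' h1 h2 h3 h4 h5).2
  · intro k k' l l' _ _ _ _ h1 h2 h3 h4
    by_contra hne
    have hkl : (k, k') ≠ (l, l') := fun h => hne (congrArg Prod.fst h)
    rcases c4 k k' l l' h1.symm h2.symm hkl with h5 | h5
    · omega
    · omega
  · intro T hT I hI
    have hch : ∀ k : ℕ, ∃ k' : ℕ, k ∈ I → k' < K ∧ k' ≠ k ∧ Bad Ms M b m (T + c k' - c k) := by
      intro k
      by_cases hk : k ∈ I
      · obtain ⟨_, k', h1⟩ := hI k hk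
        exact ⟨k', fun _ => h1⟩
      · exact ⟨0, fun h => absurd h hk⟩
    choose g hg using hch
    have hcard : (I.image (fun k => (k, g k))).card = I.card :=
      Finset.card_image_of_injective _ fun a b hab => congrArg Prod.fst hab
    rw [← hcard]
    refine (c5 T hT _ ?_).trans (by omega)
    intro p hp
    obtain ⟨k, hk, rfl⟩ := Finset.mem_image.1 hp
    obtain ⟨h1, h2, h3⟩ := hg k hk
    exact ⟨(hI k hk).1, h1, h2.symm, h3⟩

end Crest.Agent.R320.GadX_493
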