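import Crest.Agent.R320.S1a_112

/-!
# Row 320: the digit gadget (852 #13483) on all words, word level part.
Boundaries of a word of length `n` are the places `n % b ^ j`.
-/

set_option autoImplicit false
set_option linter.unusedSectionVars false

namespace Crest.Agent.R320.Gad_112

open Finset Crest.Agent.R320.S1_5

theorem nocarry {b i j o o' : ℕ} (hb : 0 < b) (hij : i < j) (ho : 2 * (o / b ^ i) < b)
    (hd : b ^ i ∣ o') (ho' : 2 * (o' / b ^ i % b) < b) : (o + o') % b ^ j = o + o' % b ^ j := by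
  have h1 : 0 < b ^ i := pow_pos hb i
  obtain ⟨q, rfl⟩ := hd
  rw [Nat.mul_div_cancel_left _ h1] at ho'
  obtain ⟨k, rfl⟩ : ∃ k, j = i + 1 + k := ⟨j - (i + 1), by omega⟩
  have hlt : o + (b ^ i * q) % b ^ (i + 1 + k) < b ^ (i + 1 + k) := by
    have e1 : b ^ (i + 1 + k) = b ^ i * (b * b ^ k) := by rw [pow_add, pow_succ]; ring
    rw [e1, Nat.mul_mod_mul_left, Nat.mod_mul]
    have h2 : q / b % b ^ k + 1 ≤ b ^ k := Nat.mod_lt _ (pow_pos hb k)
    have h3 : o < b ^ i * (o / b ^ i + 1) := Nat.lt_mul_div_succ o h1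
    calc o + b ^ i * (q % b + b * (q / b % b ^ k))
        < b ^ i * (o / b ^ i + 1) + b ^ i * (q % b + b * (q / b % b ^ k)) := by omega
      _ = b ^ i * (o / b ^ i + 1 + q % b + b * (q / b % b ^ k)) := by ring
      _ ≤ b ^ i * (b * (q / b % b ^ k + 1)) := by
          apply Nat.mul_le_mul_left
          rw [Nat.mul_add, Nat.mul_one]; omega
      _ ≤ b ^ i * (b * b ^ k) := Nat.mul_le_mul_left _ (Nat.mul_le_mul_left _ h2)
  rw [← Nat.add_mod_mod, Nat.mod_eq_of_lt hlt]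

theorem lowdig {b i j o o' : ℕ} (hij : j ≤ i) (hd : b ^ i ∣ o') :
    (o + o') % b ^ j = o % b ^ j := by
  obtain ⟨q, rfl⟩ := (pow_dvd_pow b hij).trans hd
  rw [Nat.add_mul_mod_self_left]

theorem mod_mono {b : ℕ} (n : ℕ) {i j : ℕ} (h : i ≤ j) : n % b ^ i ≤ n % b ^ j := by
  rw [← Nat.mod_mod_of_dvd n (pow_dvd_pow b h)]
  exact Nat.mod_le _ _

variable {α S V W Nm : Type*}

/-- segment `j` of a word -/
def sg (b : ℕ) (U : List α) (j : ℕ) : List α :=
  (U.take (U.length % b ^ (j + 1))).drop (U.length % b ^ j)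

theorem sg_left {b i j : ℕ} {P Q : List α} (hd : b ^ i ∣ Q.length) (hj : j < i) :
    sg b (P ++ Q) j = sg b P j := by
  unfold sg
  rw [List.length_append, lowdig (by omega : j + 1 ≤ i) hd, lowdig hj.le hd,
    List.take_append_of_le_length (Nat.mod_le _ _)]

theorem sg_right {b i j : ℕ} {P Q : List α} (hb : 0 < b) (ho : 2 * (P.length / b ^ i) < b)
    (hd : b ^ i ∣ Q.length) (ho' : 2 * (Q.length / b ^ i % b) < b) (hj : i < j) :
    sg b (P ++ Q) j = sg b Q j := by
  unfold sg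
  rw [List.length_append, nocarry hb (by omega : i < j + 1) ho hd ho', nocarry hb hj ho hd ho',
    List.take_append, List.drop_append]
  simp [List.take_of_length_le, List.drop_eq_nil_of_le]

variable [Monoid S] [AddCommGroup V] [AddCommGroup W]

/-- parameters -/
structure Cfg (α S V W Nm : Type*) where
  φ : α → S
  act : V → S → V
  b : ℕ
  m : ℕ
  e : ℕ → S → W
  F : S → W → V
  LC : Nm → ℕ → Prop
  RC : Nm → ℕ → Prop
  lv : Nm → ℕ
  gg : Nm → S
  wl : Nm → W
  hh : Nm → S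
  wr : Nm → W
  vv : Nm → V
  bb : Nm → V

variable (p : Cfg α S V W Nm)

/-- weight of the segments `j ∈ [x, y)` -/
def wt (U : List α) (x y : ℕ) : W := ∑ j ∈ Ico x y, p.e j (ph p.φ (sg p.b U j))

/-- left-legal -/
def LL (P : List α) (c : Nm) : Prop :=
  p.LC c P.length ∧ 2 * (P.length / p.b ^ p.lv c) < p.b ∧
    ph p.φ (P.take (P.length % p.b ^ p.lv c)) = p.gg c ∧ wt p P 0 (p.lv c) = p.wl c

/-- right-legal -/
def RR (Q : List α) (c : Nm) : Prop :=
  p.RC c Q.length ∧ p.lv c < p.m ∧ p.b ^ p.lv c ∣ Q.length ∧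
    2 * (Q.length / p.b ^ p.lv c % p.b) < p.b ∧
    ph p.φ (Q.drop (Q.length % p.b ^ (p.lv c + 1))) = p.hh c ∧
    wt p Q (p.lv c + 1) p.m = p.wr c

/-- standing assumptions -/
structure Ok : Prop where
  hb : 0 < p.b
  good : ∀ c z, p.F (p.gg c * z * p.hh c) (p.wl c + p.e (p.lv c) z + p.wr c) +
    p.act (p.vv c) (p.gg c * z * p.hh c) = p.bb c
  names : ∀ c c' d d' o o' q q', p.LC c o → p.RC c' o' → p.LC d q → p.RC d' q' → o + o' = q + q' →
    (c = c' ∧ d = d') ∨ (p.vv c = p.vv d ∧ p.bb c' = p.bb d')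

variable {p}

theorem wt_left {i : ℕ} {P Q : List α} (hd : p.b ^ i ∣ Q.length) :
    wt p (P ++ Q) 0 i = wt p P 0 i := by
  unfold wt
  refine Finset.sum_congr rfl fun j hj => ?_
  rw [sg_left hd (Finset.mem_Ico.1 hj).2]

theorem wt_right {i : ℕ} {P Q : List α} (hb : 0 < p.b) (ho : 2 * (P.length / p.b ^ i) < p.b)
    (hd : p.b ^ i ∣ Q.length) (ho' : 2 * (Q.length / p.b ^ i % p.b) < p.b) :
    wt p (P ++ Q) (i + 1) p.m = wt p Q (i + 1) p.m := by
  unfold wt
  refine Finset.sum_congr rfl fun j hj => ?_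
  rw [sg_right hb ho hd ho' (Finset.mem_Ico.1 hj).1]

theorem wt_split {i : ℕ} (hi : i < p.m) (U : List α) :
    wt p U 0 p.m = wt p U 0 i + p.e i (ph p.φ (sg p.b U i)) + wt p U (i + 1) p.m := by
  unfold wt
  rw [← Finset.sum_Ico_consecutive _ (Nat.zero_le i) hi.le, Finset.sum_eq_sum_Ico_succ_bot hi,
    add_assoc]

theorem ph_left {i : ℕ} {P Q : List α} (hd : p.b ^ i ∣ Q.length) :
    ph p.φ ((P ++ Q).take ((P ++ Q).length % p.b ^ i)) =
      ph p.φ (P.take (P.length % p.b ^ i)) := by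
  rw [List.length_append, lowdig le_rfl hd, List.take_append_of_le_length (Nat.mod_le _ _)]

theorem ph_right {i : ℕ} {P Q : List α} (hb : 0 < p.b) (ho : 2 * (P.length / p.b ^ i) < p.b)
    (hd : p.b ^ i ∣ Q.length) (ho' : 2 * (Q.length / p.b ^ i % p.b) < p.b) :
    ph p.φ ((P ++ Q).drop ((P ++ Q).length % p.b ^ (i + 1))) =
      ph p.φ (Q.drop (Q.length % p.b ^ (i + 1))) := by
  rw [List.length_append, nocarry hb (Nat.lt_succ_self i) ho hd ho', List.drop_append]
  simp [List.drop_eq_nil_of_le]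

theorem ph_cut (φ : α → S) {b : ℕ} (U : List α) (i : ℕ) :
    ph φ (U.take (U.length % b ^ i)) * ph φ (sg b U i) * ph φ (U.drop (U.length % b ^ (i + 1))) =
      ph φ U :=
  (ph_split φ U (mod_mono _ (Nat.le_succ i))).symm

/-- data at a legal place -/
theorem Ok.data (h : Ok p) {P Q : List α} {c : Nm} (hL : LL p P c) (hR : RR p Q c) :
    ∃ z : S, ph p.φ (P ++ Q) = p.gg c * z * p.hh c ∧
      wt p (P ++ Q) 0 p.m = p.wl c + p.e (p.lv c) z + p.wr c := by
  obtain ⟨-, ho, hg, hw⟩ := hL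
  obtain ⟨-, hm, hd, ho', hh, hwr⟩ := hR
  refine ⟨ph p.φ (sg p.b (P ++ Q) (p.lv c)), ?_, ?_⟩
  · rw [← ph_cut p.φ (b := p.b) (P ++ Q) (p.lv c), ph_left hd, ph_right h.hb ho hd ho', hg, hh]
  · rw [wt_split hm, wt_left hd, wt_right h.hb ho hd ho', hw, hwr]

/-- the value prescribed at a junction -/
def val (p : Cfg α S V W Nm) (Y : List α) (c c' : Nm) : V :=
  p.bb c' - p.act (p.vv c) (ph p.φ Y)

theorem Ok.val_same (h : Ok p) {P Q : List α} {c : Nm} (hL : LL p P c) (hR : RR p Q c) :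
    val p (P ++ Q) c c = p.F (ph p.φ (P ++ Q)) (wt p (P ++ Q) 0 p.m) := by
  obtain ⟨z, h1, h2⟩ := h.data hL hR
  unfold val
  rw [h1, h2, ← h.good c z]
  abel

theorem Ok.unique (h : Ok p) {P Q P' Q' : List α} (e : P ++ Q = P' ++ Q') {c c' d d' : Nm}
    (hL : LL p P c) (hR : RR p Q c') (hL' : LL p P' d) (hR' : RR p Q' d') :
    val p (P ++ Q) c c' = val p (P' ++ Q') d d' := by
  have hT : P.length + Q.length = P'.length + Q'.length := by
    rw [← List.length_append, ← List.length_append, e]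
  rcases h.names c c' d d' _ _ _ _ hL.1 hR.1 hL'.1 hR'.1 hT with ⟨rfl, rfl⟩ | ⟨h1, h2⟩
  · rw [h.val_same hL hR, h.val_same hL' hR', e]
  · unfold val
    rw [h1, h2, e]

/-- possible noise values -/
def Pr (p : Cfg α S V W Nm) (Y : List α) (x : V) : Prop :=
  ∃ P Q c c', P ++ Q = Y ∧ LL p P c ∧ RR p Q c' ∧ x = val p Y c c'

open Classical in
/-- the noise -/
noncomputable def nu (p : Cfg α S V W Nm) (Y : List α) : V :=
  if h : ∃ x : V, Pr p Y x then h.choose else 0

theorem nu_congr {Y Y' : List α} (h : Pr p Y = Pr p Y') : nu p Y = nu p Y' := by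
  classical
  have key : ∀ f g : V → Prop, f = g →
      (if h : ∃ x, f x then h.choose else 0) = (if h : ∃ x, g x then h.choose else (0 : V)) := by
    rintro f _ rfl; rfl
  unfold nu
  convert key _ _ h

theorem Ok.sound (h : Ok p) {P Q : List α} {c c' : Nm} (hL : LL p P c) (hR : RR p Q c') :
    p.bb c' = p.act (p.vv c) (ph p.φ (P ++ Q)) + nu p (P ++ Q) := by
  have hex : ∃ x : V, Pr p (P ++ Q) x := ⟨_, P, Q, c, c', rfl, hL, hR, rfl⟩
  have hn : nu p (P ++ Q) = val p (P ++ Q) c c' := by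
    unfold nu
    rw [dif_pos hex]
    obtain ⟨P', Q', d, d', e, h1, h2, h3⟩ := hex.choose_spec
    rw [h3]
    have := h.unique e.symm hL hR h1 h2
    rw [this, ← e]
  rw [hn]
  unfold val
  abel

/-- periodicity of a predicate -/
theorem per_mod {M : ℕ} {f : ℕ → Prop} (h : ∀ t, f (t + M) ↔ f t) {s t : ℕ}
    (hst : s % M = t % M) : f s ↔ f t := by
  have h1 : ∀ k s, f (s + M * k) ↔ f s := by
    intro k
    induction k with
    | zero => intro s; simp
    | succ k ih => intro s; rw [Nat.mul_succ, ← Nat.add_assoc, h, ih]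
  have h2 : ∀ s, f s ↔ f (s % M) := by
    intro s
    conv_lhs => rw [← Nat.mod_add_div s M]
    exact h1 _ _
  rw [h2 s, h2 t, hst]

/-- COMPLETENESS -/
theorem Ok.complete (h : Ok p) {M : ℕ} (hM : 0 < M) (hco : Nat.Coprime p.b M)
    (hLC : ∀ c t, p.LC c (t + M) ↔ p.LC c t) (hRC : ∀ c t, p.RC c (t + M) ↔ p.RC c t)
    (Y : List α) (v : V)
    (hF : ∃ i < p.m, ∀ g x k : S, g * x * k = ph p.φ Y → ∀ z : S,
      p.F (g * z * k) (wt p Y 0 p.m - p.e i x + p.e i z) + p.act v (g * z * k) =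
        p.F (ph p.φ Y) (wt p Y 0 p.m) + p.act v (ph p.φ Y))
    (hN : ∀ i < p.m, ∀ (g : S) (wl : W) (k : S) (wr : W) (b : V),
      (∀ z, p.F (g * z * k) (wl + p.e i z + wr) + p.act v (g * z * k) = b) →
      ∃ c om, p.lv c = i ∧ p.gg c = g ∧ p.wl c = wl ∧ p.hh c = k ∧ p.wr c = wr ∧ p.vv c = v ∧
        om ≤ Y.length ∧ p.LC c om ∧ p.RC c (Y.length - om))
    (hdig : ∀ i < p.m, M ≤ Y.length / p.b ^ i % p.b ∧ Y.length / p.b ^ i % p.b + M < p.b) :
    ∃ P Q c, P ++ Q = Y ∧ LL p P c ∧ RR p Q c ∧ p.vv c = v := by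
  obtain ⟨i, hi, hF⟩ := hF
  obtain ⟨c, om, h1, h2, h3, h4, h5, h6, h7, h8, h9⟩ :=
    hN i hi (ph p.φ (Y.take (Y.length % p.b ^ i))) (wt p Y 0 i)
      (ph p.φ (Y.drop (Y.length % p.b ^ (i + 1)))) (wt p Y (i + 1) p.m)
      (p.F (ph p.φ Y) (wt p Y 0 p.m) + p.act v (ph p.φ Y)) (by
        intro z
        have := hF _ _ _ (ph_cut p.φ (b := p.b) Y i) z
        rw [← this]
        congr 2
        rw [wt_split hi]
        abel)
  subst h1
  set i := p.lv c with hi'
  set n := Y.length with hn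
  set B := p.b ^ i with hB
  have hBpos : 0 < B := pow_pos h.hb i
  obtain ⟨hd1, hd2⟩ := hdig i hi
  set d := n / B % p.b with hd
  -- the place
  obtain ⟨y, hy1, hy2, hy3⟩ : ∃ y, (d - M + 1) / 2 ≤ y ∧ y < (d - M + 1) / 2 + M ∧
      (n % B + B * y) % M = om % M := by
    have hcoB : Nat.Coprime B M := hco.pow_left i
    obtain ⟨x, -, hx⟩ := Nat.exists_mul_mod_eq_of_coprime (om + (M * (n % B) - n % B)) hcoB hM.ne'
    have hle : n % B ≤ M * (n % B) := Nat.le_mul_of_pos_left _ hM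
    set y0 := (d - M + 1) / 2
    refine ⟨y0 + (x + (M * y0 - y0)) % M, by omega, ?_, ?_⟩
    · have := Nat.mod_lt (x + (M * y0 - y0)) hM
      omega
    · have hle' : y0 ≤ M * y0 := Nat.le_mul_of_pos_left _ hM
      have e1 : y0 + (x + (M * y0 - y0)) % M ≡ x [MOD M] := by
        have a1 : y0 + (x + (M * y0 - y0)) % M ≡ y0 + (x + (M * y0 - y0)) [MOD M] :=
          Nat.ModEq.add_left _ (Nat.mod_modEq _ _)
        have a2 : y0 + (x + (M * y0 - y0)) = x + M * y0 := by omega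
        rw [a2] at a1
        exact a1.trans (by simp [Nat.ModEq])
      have e2 : n % B + B * (y0 + (x + (M * y0 - y0)) % M) ≡ n % B + B * x [MOD M] :=
        Nat.ModEq.add_left _ (Nat.ModEq.mul_left _ e1)
      have e3 : n % B + B * x ≡ n % B + (om + (M * (n % B) - n % B)) [MOD M] :=
        Nat.ModEq.add_left _ hx
      have e4 : n % B + (om + (M * (n % B) - n % B)) = om + M * (n % B) := by omega
      rw [e4] at e3
      exact (e2.trans e3).trans (by simp [Nat.ModEq])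
  have hyd : y ≤ d := by omega
  have hdn : n / B = p.b * (n / B / p.b) + d := by rw [hd]; exact (Nat.div_add_mod _ _).symm
  have hnB : n = n % B + B * (n / B) := (Nat.mod_add_div n B).symm
  have hyn : y ≤ n / B := by
    rw [hdn]; exact hyd.trans (Nat.le_add_left _ _)
  set o := n % B + B * y with ho
  have hByn : B * y ≤ B * (n / B) := Nat.mul_le_mul_left _ hyn
  have hon : o ≤ n := by omega
  have hPl : (Y.take o).length = o := by rw [List.length_take]; omega
  have hQl : (Y.drop o).length = B * (n / B - y) := by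
    rw [List.length_drop, Nat.mul_sub]; omega
  have hYe : Y.take o ++ Y.drop o = Y := List.take_append_drop _ _
  have hoB : o / B = y := by
    rw [ho, Nat.add_mul_div_left _ _ hBpos, Nat.div_eq_of_lt (Nat.mod_lt _ hBpos), Nat.zero_add]
  have hc1 : 2 * ((Y.take o).length / p.b ^ i) < p.b := by
    rw [hPl, ← hB, hoB]; omega
  have hc2 : p.b ^ i ∣ (Y.drop o).length := by
    rw [hQl]; exact Dvd.intro _ rfl
  have hc3 : 2 * ((Y.drop o).length / p.b ^ i % p.b) < p.b := by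
    rw [hQl, ← hB, Nat.mul_div_cancel_left _ hBpos]
    have e1 : n / B - y = p.b * (n / B / p.b) + (d - y) := by omega
    have hdb : d < p.b := by omega
    rw [e1, Nat.mul_add_mod, Nat.mod_eq_of_lt (by omega)]
    omega
  have hmod : o ≡ om [MOD M] := hy3
  refine ⟨Y.take o, Y.drop o, c, hYe, ⟨?_, hc1, ?_, ?_⟩, ⟨?_, hi, hc2, hc3, ?_, ?_⟩, h6⟩
  · rw [hPl]
    exact (per_mod (hLC c) hmod).2 h8
  · rw [h2, ← ph_left hc2, hYe]
  · rw [h3, ← wt_left hc2, hYe]
  · have hsub : n - o ≡ n - om [MOD M] := by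
      apply Nat.ModEq.add_right_cancel hmod
      rw [Nat.sub_add_cancel hon, Nat.sub_add_cancel h7]
    rw [List.length_drop]
    exact (per_mod (hRC c) hsub).2 h9
  · rw [h4, ← ph_right h.hb hc1 hc2 hc3, hYe]
  · rw [h5, ← wt_right h.hb hc1 hc2 hc3, hYe]

end Crest.Agent.R320.Gad_112
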