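import Crest.Agent.R320.G1_256
import Crest.Agent.R320.Sp_485

/-!
# Row 320: gadget 1 with its ruler (helper14): hypothesis `Gad` of `Fin_211.fin` (post 14340)
-/

set_option autoImplicit false

namespace Crest.Agent.R320.Gad_14

open Finset

/-- literally the body of `Fin_211.Gad` (with the product written out) -/
theorem gad_raw {α S V : Type} [Monoid S] [Finite S] [AddCommGroup V] [Finite V]
    (act : V → S → V) (f : α → S) :
    ∃ R1 : ℕ, ∀ K : ℕ, ∃ (N1 N0 Kp M : ℕ) (BadT : ℕ → Prop) (c : ℕ → ℕ)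
      (lam rho : List α → Option V) (nu1 : List α → V),
      (∀ P Q v r, lam P = some v → rho Q = some r →
        r = act v ((P ++ Q).map f).prod + nu1 (P ++ Q)) ∧
      (∀ P v, lam P = some v → P.length ≤ N1) ∧
      (∀ Y : List α, N0 ≤ Y.length → ¬ BadT Y.length → ∀ v, ∃ P Q, Y = P ++ Q ∧
        lam P = some v ∧ (rho Q).isSome) ∧ 0 < M ∧
      (∀ Y Y' : List α, Kp ≤ Y.length → Kp ≤ Y'.length → Y.take Kp = Y'.take Kp →
        Y.length % M = Y'.length % M →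
        ((Y.drop Kp).map f).prod = ((Y'.drop Kp).map f).prod → nu1 Y = nu1 Y') ∧
      (∀ i j, i < j → j < K → c i < c j) ∧
      (∀ i i' j j', i < K → i' < K → j < K → j' < K → i' ≠ i → j' ≠ j →
        c i + c j' < c j + c i' + 2 * N1 → c j + c i' < c i + c j' + 2 * N1 → i = j) ∧
      (∀ T, (∀ k, k < K → c k ≤ T) → ∀ I : Finset ℕ,
        (∀ k ∈ I, k < K ∧ ∃ k', k' < K ∧ k' ≠ k ∧ BadT (T + c k' - c k)) → I.card ≤ R1) := by
  classical
  obtain ⟨m, r, h⟩ := G1_256.g1 S V act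
  refine ⟨r + m, fun K => ?_⟩
  obtain ⟨Ms, M, hcard, hMs, hM, hb⟩ := h (2 ^ (K + 1))
  set b := M * (2 ^ (K + 4) + 8) + 1 with hbdef
  have h16 : 16 ≤ 2 ^ (K + 4) := by
    have : 2 ^ 4 ≤ 2 ^ (K + 4) := Nat.pow_le_pow_right (by norm_num) (by omega)
    simpa using this
  have hb1 : 4 * M + 4 < b := by
    have : M * 24 ≤ M * (2 ^ (K + 4) + 8) := Nat.mul_le_mul_left _ (by omega)
    omega
  have hcop : Nat.Coprime b M := by
    rw [hbdef, Nat.coprime_mul_left_add_left]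
    exact Nat.coprime_one_left M
  have hb2 : 2 ^ (K + 4) * M + 2 * M ≤ b := by
    have e : M * (2 ^ (K + 4) + 8) + 1 = 2 ^ (K + 4) * M + 8 * M + 1 := by ring
    rw [hbdef, e]
    omega
  obtain ⟨lam, rho, nu, g1, g2, g3, g4⟩ := hb b hb1 hcop α f
  obtain ⟨c, c1, c2, c3, c4, c5, c6⟩ := Sp_485.spoil Ms M m b K (b ^ m) hM
    (fun k hk => ⟨(hMs k hk).1.le, (hMs k hk).2.2⟩) hcop hb2
  refine ⟨b ^ m, 0, b ^ m, M * b ^ m, Sp_485.Bad Ms M m b, c, lam, rho, nu, ?_, ?_, ?_, ?_, ?_, ?_,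
    ?_, ?_⟩
  · exact fun P Q v r h1 h2 => g2 P Q v r h1 h2
  · exact fun P v h1 => (g1 P v h1).le
  · intro Y _ hY v
    unfold Sp_485.Bad at hY
    push Not at hY
    obtain ⟨P, Q, e, e1, e2⟩ := g3 Y (fun k hk => hY.1 k hk) (fun j hj => hY.2 j hj) v
    exact ⟨P, Q, e.symm, e1, e2⟩
  · exact Nat.mul_pos hM (Nat.pow_pos (by omega))
  · intro Y Y' h1 h2 h3 h4 h5
    exact (g4 Y Y' h1 h2 h3 h4 h5).2
  · intro i j hij _
    exact c1 hij
  · intro i i' j j' _ _ _ _ hi hj h1 h2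
    by_contra hne
    have h0 := c4 i i' j j' (Ne.symm hi) (fun hh => hne hh.1)
    obtain ⟨NN, hNN⟩ : ∃ NN, NN = b ^ m := ⟨_, rfl⟩
    rw [← hNN] at h0 h1 h2
    rw [lt_abs] at h0
    rcases h0 with h3 | h3 <;> omega
  · intro T hT I hI
    have h1 := c5 T (fun i hi => hT i hi)
    choose! g hg using fun k hk => (hI k hk).2
    refine le_trans (le_trans (Finset.card_le_card_of_injOn (fun k => (k, g k)) ?_ ?_) h1) (by omega)
    · intro k hk
      have hk' : k ∈ I := hk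
      simp only [Finset.coe_filter, Finset.mem_product, Finset.mem_range, Set.mem_ofPred_eq]
      exact ⟨⟨(hI k hk').1, (hg k hk').1⟩, (hg k hk').2.1.symm, (hg k hk').2.2⟩
    · intro a _ a' _ h2
      exact congrArg Prod.fst h2

end Crest.Agent.R320.Gad_14
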