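import Crest.Agent.R320.Grid_187
import Crest.Agent.R320.GridRuler_257
import Crest.Agent.R320.Bridge_975

/-!
# Row 320: the grid gadget (187) with names (727), noise (513) and ruler (257) in closed form (helper155)
-/

set_option autoImplicit false

namespace Crest.Agent.R320.Gad_155

open Finset

/-- the bad totals -/
def BadT (ms : Finset ℕ) (Γ M m T : ℕ) : Prop :=
  (∃ q ∈ ms, q ∣ T) ∨ ∃ j, 1 ≤ j ∧ j ≤ m ∧
    (T % Γ ^ (j + 1) < M * Γ ^ j ∨ Γ ^ (j + 1) ≤ T % Γ ^ (j + 1) + M * Γ ^ j)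

theorem generic_of_not {ms : Finset ℕ} {Γ M m T : ℕ} (h : ¬ BadT ms Γ M m T) :
    Grid_187.Generic ms Γ M m T := by
  refine ⟨fun q hq hd => h (Or.inl ⟨q, hq, hd⟩), fun j h1 h2 => ⟨?_, ?_⟩⟩
  · by_contra hc
    exact h (Or.inr ⟨j, h1, h2, Or.inl (not_le.1 hc)⟩)
  · by_contra hc
    exact h (Or.inr ⟨j, h1, h2, Or.inr (not_lt.1 hc)⟩)

theorem badZ_of {ms : Finset ℕ} {Γ M m : ℕ} (hΓ : 0 < Γ) (T : ℕ) (h : BadT ms Γ M m T) :
    GridRuler_257.BadZ ms m M (fun j => Γ ^ (j + 1)) (fun _ => 0) (T : ℤ) := by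
  rcases h with ⟨q, hq, hd⟩ | ⟨j, h1, h2, h3⟩
  · exact Or.inl ⟨q, hq, Int.natCast_dvd_natCast.2 hd⟩
  · refine Or.inr ⟨j, h1, h2, ?_⟩
    have e1 : j - 1 + 1 = j := by omega
    have hd := Nat.div_add_mod T (Γ ^ (j + 1))
    rcases h3 with h3 | h3
    · refine ⟨((T % Γ ^ (j + 1) : ℕ) : ℤ), ?_, ?_⟩
      · rw [abs_of_nonneg (by positivity)]
        simp only [e1]
        exact_mod_cast h3.le
      · refine ⟨((T / Γ ^ (j + 1) : ℕ) : ℤ), ?_⟩
        have : ((Γ ^ (j + 1) * (T / Γ ^ (j + 1)) + T % Γ ^ (j + 1) : ℕ) : ℤ) = T := by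
          exact_mod_cast hd
        push_cast at this ⊢
        linarith
    · refine ⟨((T % Γ ^ (j + 1) : ℕ) : ℤ) - (Γ ^ (j + 1) : ℕ), ?_, ?_⟩
      · simp only [e1]
        have hle : (T % Γ ^ (j + 1)) ≤ Γ ^ (j + 1) := (Nat.mod_lt _ (pow_pos hΓ _)).le
        rw [abs_le]
        constructor
        · have : ((Γ ^ (j + 1) : ℕ) : ℤ) ≤ ((T % Γ ^ (j + 1) + M * Γ ^ j : ℕ) : ℤ) := by
            exact_mod_cast h3
          push_cast at this ⊢
          linarith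
        · have h5 : ((T % Γ ^ (j + 1) : ℕ) : ℤ) ≤ ((Γ ^ (j + 1) : ℕ) : ℤ) := by exact_mod_cast hle
          have h6 : (0 : ℤ) ≤ ((M * Γ ^ j : ℕ) : ℤ) := by positivity
          push_cast at h5 h6 ⊢
          linarith
      · refine ⟨((T / Γ ^ (j + 1) : ℕ) : ℤ) + 1, ?_⟩
        have : ((Γ ^ (j + 1) * (T / Γ ^ (j + 1)) + T % Γ ^ (j + 1) : ℕ) : ℤ) = T := by
          exact_mod_cast hd
        push_cast at this ⊢
        linarith

theorem badT_per {ms : Finset ℕ} {Γ M m : ℕ} (hms : ∀ q ∈ ms, q ∣ M) (T : ℕ) :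
    BadT ms Γ M m (T + M * Γ ^ (m + 1)) ↔ BadT ms Γ M m T := by
  have h1 : ∀ q ∈ ms, (q ∣ T + M * Γ ^ (m + 1) ↔ q ∣ T) := fun q hq =>
    (Nat.dvd_add_iff_left (Dvd.dvd.mul_right (hms q hq) _)).symm
  have h2 : ∀ j, j ≤ m → (T + M * Γ ^ (m + 1)) % Γ ^ (j + 1) = T % Γ ^ (j + 1) := by
    intro j hj
    obtain ⟨t, ht⟩ := pow_dvd_pow Γ (show j + 1 ≤ m + 1 by omega)
    rw [ht, show M * (Γ ^ (j + 1) * t) = Γ ^ (j + 1) * (M * t) by ring, Nat.add_mul_mod_self_left]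
  unfold BadT
  constructor
  · rintro (⟨q, hq, hd⟩ | ⟨j, a, b, c⟩)
    · exact Or.inl ⟨q, hq, (h1 q hq).1 hd⟩
    · rw [h2 j b] at c; exact Or.inr ⟨j, a, b, c⟩
  · rintro (⟨q, hq, hd⟩ | ⟨j, a, b, c⟩)
    · exact Or.inl ⟨q, hq, (h1 q hq).2 hd⟩
    · refine Or.inr ⟨j, a, b, ?_⟩
      rw [h2 j b]; exact c


/-- closed form of the gadget -/
theorem gad (S V : Type) [Monoid S] [Finite S] [AddCommGroup V] [Finite V] (act : V → S → V) :
    ∃ C0 : ℕ, ∀ K : ℕ, ∃ (N N0 Pm : ℕ) (c : ℕ → ℕ) (Bd : ℕ → Prop), 0 < Pm ∧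
      (∀ T, Bd (T + Pm) ↔ Bd T) ∧ (∀ i j, i < j → c i < c j) ∧
      (∀ a b a' b' : ℕ, a ≠ b → (a = a' ∧ b = b') ∨
        (4 * N : ℤ) < |((c a : ℤ) - c b) - ((c a' : ℤ) - c b')|) ∧
      (∀ T : ℕ, (∀ k, k < K → c k ≤ T) → ∀ s : Finset (ℕ × ℕ),
        (∀ ab ∈ s, ab.1 < K ∧ ab.2 < K ∧ ab.1 ≠ ab.2 ∧ Bd (T + c ab.1 - c ab.2)) →
        s.card ≤ C0) ∧
      ∀ (A : Type) [Finite A] (f : A → S), ∃ (lam rho : List A → Option V) (nu : List A → V),
        (∀ P v, lam P = some v → P.length ≤ N) ∧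
        (∀ P Q v b, lam P = some v → rho Q = some b →
          b = act v (((P ++ Q).map f).prod) + nu (P ++ Q)) ∧
        (∀ u : List A, N0 ≤ u.length → ¬ Bd u.length →
          ∀ v, ∃ P Q, u = P ++ Q ∧ lam P = some v ∧ (rho Q).isSome) ∧
        (∀ v, Language.IsRegular ({u | nu u = v} : Language A)) := by
  classical
  obtain ⟨W, hW1, hW2, m, e, F, hF⟩ := Crest.Agent.R320.Noise513.explicit_noise S V act
  have := Fintype.ofFinite S
  have := Fintype.ofFinite V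
  let κ : Type := Fin m × S × W × S × W × V
  let E : κ ≃ Fin (Fintype.card κ) := Fintype.equivFin κ
  obtain ⟨r, hr⟩ := Crest.Agent.R320.Names_727.exists_names (Fintype.card κ)
  refine ⟨r + m, fun K => ?_⟩
  obtain ⟨ms, M, LN, RN, hcard, hbig, hcopr, hM, hdvd, huL, huR, hpL, hpR, hgood, hbad⟩ :=
    hr (4 ^ K + 1)
  -- the grid base
  set Γ : ℕ := M * (16 * 4 ^ K * M + M + 2) + 1 with hΓ
  have hX1 : 1 * (16 * 4 ^ K * M + M + 2) ≤ M * (16 * 4 ^ K * M + M + 2) :=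
    Nat.mul_le_mul_right _ hM
  have hΓ1 : M + 2 ≤ Γ := by omega
  have hΓ2 : 16 * 4 ^ K * M ≤ Γ := by omega
  have hΓ0 : 0 < Γ := by omega
  have hcop : Nat.Coprime M Γ := by
    rw [hΓ]
    have : Nat.Coprime M (1 + M * (16 * 4 ^ K * M + M + 2)) :=
      (Nat.coprime_add_mul_left_right M 1 _).2 (Nat.coprime_one_right M)
    rwa [add_comm] at this
  obtain ⟨U, hU1, hU2, hU3, hU4⟩ := GridRuler_257.ruler K m ms M (fun j => Γ ^ (j + 1))
    (fun _ => 0) (Γ ^ (m + 1)) hM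
    (fun k hk => ⟨hdvd k hk, by have := hbig k hk; omega⟩) (pow_pos hΓ0 _)
    (fun j => pow_dvd_pow Γ (by omega))
    (fun j => by
      have : 16 * 4 ^ K * M * Γ ^ (j + 1) ≤ Γ * Γ ^ (j + 1) := Nat.mul_le_mul_right _ hΓ2
      calc 16 * 4 ^ K * (M * Γ ^ (j + 1)) = 16 * 4 ^ K * M * Γ ^ (j + 1) := by ring
        _ ≤ Γ * Γ ^ (j + 1) := this
        _ = Γ ^ (j + 1 + 1) := by ring)
    (hcop.pow_right _)
  refine ⟨Γ ^ (m + 1), 2 * Γ ^ (m + 1), M * Γ ^ (m + 1), fun i => U * 4 ^ i, BadT ms Γ M m,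
    Nat.mul_pos hM (pow_pos hΓ0 _), fun T => badT_per hdvd T, ?_, ?_, ?_, ?_⟩
  · intro i j hij
    have := hU2 i j hij
    show U * 4 ^ i < U * 4 ^ j
    omega
  · intro a b a' b' hab
    rcases hU3 a b a' b' hab with h | h
    · exact Or.inl h
    · right
      push_cast at h ⊢
      exact h
  · intro T hT s hs
    have h1 := hU4 T s (fun ab hab => by
      obtain ⟨h1, h2, h3, h4⟩ := hs ab hab
      refine ⟨h1, h2, h3, ?_⟩
      have h5 := badZ_of hΓ0 _ h4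
      have h6 := hT ab.2 h2
      have h7 : ((T + U * 4 ^ ab.1 - U * 4 ^ ab.2 : ℕ) : ℤ) =
          (T : ℤ) + (U * 4 ^ ab.1 : ℕ) - (U * 4 ^ ab.2 : ℕ) := by
        have h6' : U * 4 ^ ab.2 ≤ T := h6
        rw [Nat.cast_sub (by omega), Nat.cast_add]
      rw [← h7]; exact h5)
    omega
  · intro A _ f
    let D : Grid_187.Dat A S V W :=
      { φ := fun w => (w.map f).prod, act := act, m := m,
        e := fun j z => if h : j < m then e ⟨j, h⟩ z else 0, F := F, Γ := Γ, M := M,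
        LN := fun o c => LN o (E c), RN := fun o c => RN o (E c) }
    have hN : Grid_187.Names D ms :=
      { hM := hM, dvd := hdvd,
        uniq := fun o c c' h h' => E.injective (huL o _ _ h h')
        perL := fun o c => hpL o _
        perR := fun o c => hpR o _
        n1 := fun T hT o o' c c' h1 h2 h3 => E.injective ((hgood T hT).1 o o' _ _ h1 h2 h3)
        n2 := fun T hT hMT c => by
          obtain ⟨o, _, _, h3, h4, h5⟩ := (hgood T hT).2 (E c) 0 (by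
            have h : M ≤ T + 1 := hMT
            omega)
          exact ⟨o, h3, h4, h5⟩
        n3 := fun T hT o o' c c' p p' d d' h1 h2 h3 h4 h5 h6 => by
          obtain ⟨a, b⟩ := hbad T hT o o' _ _ p p' _ _ h1 h2 h3 h4 h5 h6
          exact ⟨E.injective a, E.injective b⟩ }
    obtain ⟨nu, g1, g2, g3, g4⟩ := Grid_187.gadget D ms (fun u v => by simp [D]) hΓ1 hcop hN
      (fun s w v => by
        obtain ⟨i, hi⟩ := hF s w v
        refine ⟨i, i.2, fun g x h hs z => ?_⟩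
        have := hi g x h hs z
        simp only [D, i.2, dif_pos]
        exact this)
    refine ⟨D.lam, D.rho, nu, fun P v h => (g2 P v h).2.le, g1, ?_, ?_⟩
    · intro u hu hb v
      obtain ⟨P, Q, h1, h2, h3⟩ := g3 u hu (generic_of_not hb) v
      exact ⟨P, Q, h1.symm, h2, h3⟩
    · intro v
      refine Bridge_975.reg_of_local f (2 * Γ ^ (m + 1)) (M * Γ ^ (m + 1))
        (Nat.mul_pos hM (pow_pos hΓ0 _)) (fun u => nu u = v) ?_
      intro q q2 h1 h2 h3 h4 h5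
      have hq := List.take_append_drop (2 * Γ ^ (m + 1)) q
      have hq2 := List.take_append_drop (2 * Γ ^ (m + 1)) q2
      have hmod : (q.drop (2 * Γ ^ (m + 1))).length % (M * Γ ^ (m + 1)) =
          (q2.drop (2 * Γ ^ (m + 1))).length % (M * Γ ^ (m + 1)) := by
        have h6 : q.length ≡ q2.length [MOD M * Γ ^ (m + 1)] := h4
        have h7 : 2 * Γ ^ (m + 1) + (q.drop (2 * Γ ^ (m + 1))).length ≡
            2 * Γ ^ (m + 1) + (q2.drop (2 * Γ ^ (m + 1))).length [MOD M * Γ ^ (m + 1)] := by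
          rw [List.length_drop, List.length_drop]
          rwa [Nat.add_sub_cancel' h1, Nat.add_sub_cancel' h2]
        exact Nat.ModEq.add_left_cancel' _ h7
      have key := (g4 (q.take (2 * Γ ^ (m + 1))) (q.drop (2 * Γ ^ (m + 1)))
        (q2.drop (2 * Γ ^ (m + 1))) (by
          rw [List.length_take]
          exact min_eq_left h1) h5 hmod).2
      rw [hq, h3, hq2] at key
      rw [key]

end Crest.Agent.R320.Gad_155
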