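import Crest.Agent.R320.Dig_161
import Crest.Agent.R320.DigRuler_258

/-!
# Row 320: the gadget with its ruler (literals of 963 `Gad1` and 211 `Gad`)
-/

set_option autoImplicit false

namespace Crest.Agent.R320.Gad_161

open Crest.Agent.R320 Crest.Agent.R320.Dig_161

theorem bd_bad {Ms : Finset ℕ} {w b m n : ℕ} (h : Bd Ms w b m n) : DigRuler_258.BadT Ms w b m n := by
  rcases h with h | ⟨j, hj, h | h⟩
  · exact Or.inl h
  · exact Or.inr ⟨j, hj, Or.inl h⟩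
  · exact Or.inr ⟨j, hj, Or.inr h.le⟩

theorem badT_per {Ms : Finset ℕ} {w b m M T : ℕ} (hM : ∀ p ∈ Ms, p ∣ M) :
    DigRuler_258.BadT Ms w b m (T + M * b ^ m) ↔ DigRuler_258.BadT Ms w b m T := by
  have h1 : ∀ p ∈ Ms, (p ∣ T + M * b ^ m ↔ p ∣ T) := fun p hp =>
    Nat.dvd_add_left (dvd_mul_of_dvd_left (hM p hp) _)
  have h2 : ∀ j < m, ((T + M * b ^ m) / b ^ j) % b = (T / b ^ j) % b := by
    intro j hj
    have e : ∀ n : ℕ, (n / b ^ j) % b = (n % b ^ (j + 1)) / b ^ j := by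
      intro n
      rw [pow_succ, Nat.mod_mul_right_div_self]
    rw [e, e]
    obtain ⟨k, hk⟩ : b ^ (j + 1) ∣ M * b ^ m := dvd_mul_of_dvd_right (pow_dvd_pow b hj) _
    rw [hk, Nat.add_mul_mod_self_left]
  constructor
  · rintro (⟨p, hp, h⟩ | ⟨j, hj, h⟩)
    · exact Or.inl ⟨p, hp, (h1 p hp).1 h⟩
    · rw [h2 j hj] at h; exact Or.inr ⟨j, hj, h⟩
  · rintro (⟨p, hp, h⟩ | ⟨j, hj, h⟩)
    · exact Or.inl ⟨p, hp, (h1 p hp).2 h⟩
    · rw [← h2 j hj] at h; exact Or.inr ⟨j, hj, h⟩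

/-- the gadget with its ruler, all lengths -/
theorem gad0 (S V : Type) [Monoid S] [Finite S] [AddCommGroup V] [Finite V] (act : V → S → V) :
    ∃ C0 : ℕ, ∀ K : ℕ, ∃ (N1 La Per : ℕ) (c : ℕ → ℕ) (Bad : ℕ → Prop), 0 < Per ∧ 0 < N1 ∧
      (∀ i j, i < j → j < K → c i < c j) ∧
      (∀ k k' l l', k < K → k' < K → l < K → l' < K → k' ≠ k → l' ≠ l →
        c k + c l' < c l + c k' + 2 * N1 → c l + c k' < c k + c l' + 2 * N1 → k = l) ∧
      (∀ T, (∀ k < K, c k ≤ T) → ∀ F : Finset (ℕ × ℕ),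
        (∀ p ∈ F, p.1 < K ∧ p.2 < K ∧ p.1 ≠ p.2 ∧ Bad (T + c p.2 - c p.1)) → F.card ≤ C0) ∧
      (∀ T, (Bad (T + Per) ↔ Bad T)) ∧
      ∀ (α : Type) (f : α → S), ∃ (lam rho : List α → Option V) (nu : List α → V),
        (∀ P Q v b, lam P = some v → rho Q = some b → b = act v ((P ++ Q).map f).prod + nu (P ++ Q)) ∧
        (∀ P v, lam P = some v → P.length ≤ N1) ∧
        (∀ Y, La ≤ Y.length → ¬ Bad Y.length → ∀ v, ∃ P Q, Y = P ++ Q ∧ lam P = some v ∧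
          (rho Q).isSome) ∧
        (∀ u u', La ≤ u.length → La ≤ u'.length → u.take La = u'.take La →
          ((u.drop La).map f).prod = ((u'.drop La).map f).prod → u.length % Per = u'.length % Per →
          nu u = nu u') := by
  classical
  obtain ⟨m, r, hm, hcore⟩ := Dig_161.core S V act
  refine ⟨r + m, fun K => ?_⟩
  obtain ⟨Ms, hcard, hp, hg⟩ := hcore (2 ^ (K + 1))
  obtain ⟨M, hM⟩ : ∃ M, M = ∏ p ∈ Ms, p := ⟨_, rfl⟩
  have hM0 : 0 < M := by rw [hM]; exact Finset.prod_pos (fun p h => (hp p h).1.pos)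
  have hpM : ∀ p ∈ Ms, p ∣ M := fun p h => by rw [hM]; exact Finset.dvd_prod_of_mem _ h
  obtain ⟨b, hb⟩ : ∃ b, b = M * (2 ^ (K + 5) * (M + 2) + 20) + 1 := ⟨_, rfl⟩
  have hbig : 2 ^ (K + 5) * (M + 2) + 20 < b := by
    rw [hb]
    have : 1 * (2 ^ (K + 5) * (M + 2) + 20) ≤ M * (2 ^ (K + 5) * (M + 2) + 20) :=
      Nat.mul_le_mul_right _ hM0
    omega
  have hco : Nat.Coprime M b := by
    rw [hb]; exact (Nat.coprime_mul_left_add_right M 1 _).2 (Nat.coprime_one_right M)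
  have hb4 : 4 * M + 8 ≤ b := by
    have : 1 ≤ 2 ^ (K + 5) := Nat.one_le_two_pow
    have h32 : 32 ≤ 2 ^ (K + 5) := by
      calc 32 = 2 ^ 5 := by norm_num
        _ ≤ 2 ^ (K + 5) := Nat.pow_le_pow_right (by norm_num) (by omega)
    have : 32 * (M + 2) ≤ 2 ^ (K + 5) * (M + 2) := Nat.mul_le_mul_right _ h32
    omega
  have hb0 : 0 < b := by omega
  obtain ⟨c, hc1, hc2, hc3⟩ := DigRuler_258.dig_ruler K m (M + 2) b (b ^ m) Ms (by omega)
    (fun k hk => ⟨(hp k hk).2, Nat.Coprime.coprime_dvd_left (hpM k hk) hco⟩) (by omega)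
  refine ⟨b ^ m, b ^ m, M * b ^ m, c, DigRuler_258.BadT Ms (M + 2) b m, ?_, pow_pos hb0 m,
    fun i j hij _ => hc1 hij, ?_, ?_, ?_, ?_⟩
  · exact Nat.mul_pos hM0 (pow_pos hb0 m)
  · intro k k' l l' hk hk' hl hl' hne _ h1 h2
    have := hc2 k k' l l' hk hk' hl hl' (Ne.symm hne) (by
      rw [abs_le]
      constructor <;> omega)
    exact this.1
  · intro T hT F hF
    have hsub : F ⊆ ((Finset.range K) ×ˢ (Finset.range K)).filter (fun p : ℕ × ℕ => p.1 ≠ p.2 ∧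
        ∃ n : ℕ, (n : ℤ) = (T : ℤ) - ((c p.1 : ℤ) - c p.2) ∧
          DigRuler_258.BadT Ms (M + 2) b m n) := by
      intro p hp'
      obtain ⟨h1, h2, h3, h4⟩ := hF p hp'
      simp only [Finset.mem_filter, Finset.mem_product, Finset.mem_range]
      have := hT p.1 h1
      exact ⟨⟨h1, h2⟩, h3, T + c p.2 - c p.1, by omega, h4⟩
    have h1 := Finset.card_le_card hsub
    have h2 := hc3 (T : ℤ)
    have h3 : F.card ≤ Ms.card + m := le_trans h1 (by convert h2)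
    omega
  · intro T
    exact badT_per hpM
  · intro α f
    obtain ⟨lam, rho, nu, g1, g2, g3, g4⟩ := hg M hM b hco hb4 (fun u : List α => (u.map f).prod)
      (fun u v => by simp)
    refine ⟨lam, rho, nu, fun P Q v b' h1 h2 => g2 P Q v b' h1 h2, fun P v h => (g1 P v h).le,
      ?_, ?_⟩
    · intro Y _ hY v
      obtain ⟨P, Q, h1, h2, h3⟩ := g3 Y (fun h => hY (bd_bad h)) v
      exact ⟨P, Q, h1.symm, h2, h3⟩
    · intro u u' h1 h2 h3 h4 h5
      exact (g4 u u' h1 h2 h3 h5 h4).2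

/-- literal of helper963 (`Gad1`) -/
theorem gad1 (S V : Type) [Monoid S] [Finite S] [AddCommGroup V] [Finite V] (act : V → S → V) :
    ∃ C0 : ℕ, ∀ K : ℕ, ∃ (N1 La Per : ℕ) (c : ℕ → ℕ) (Bad : ℕ → Prop), 0 < Per ∧ 0 < N1 ∧
      (∀ i j, i < j → j < K → c i < c j) ∧
      (∀ k k' l l', k < K → k' < K → l < K → l' < K → k' ≠ k → l' ≠ l →
        c k + c l' < c l + c k' + 2 * N1 → c l + c k' < c k + c l' + 2 * N1 → k = l) ∧
      (∀ T, (∀ k < K, c k ≤ T) → La ≤ T → ∀ F : Finset (ℕ × ℕ),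
        (∀ p ∈ F, p.1 < K ∧ p.2 < K ∧ p.1 ≠ p.2 ∧ Bad (T + c p.2 - c p.1)) → F.card ≤ C0) ∧
      (∀ T, La ≤ T → (Bad (T + Per) ↔ Bad T)) ∧
      ∀ (α : Type) (f : α → S), ∃ (lam rho : List α → Option V) (nu : List α → V),
        (∀ P Q v b, lam P = some v → rho Q = some b → b = act v ((P ++ Q).map f).prod + nu (P ++ Q)) ∧
        (∀ P v, lam P = some v → P.length ≤ N1) ∧
        (∀ Y, La ≤ Y.length → ¬ Bad Y.length → ∀ v, ∃ P Q, Y = P ++ Q ∧ lam P = some v ∧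
          (rho Q).isSome) ∧
        (∀ u u', La ≤ u.length → La ≤ u'.length → u.take La = u'.take La →
          ((u.drop La).map f).prod = ((u'.drop La).map f).prod → u.length % Per = u'.length % Per →
          nu u = nu u') := by
  obtain ⟨C0, h⟩ := gad0 S V act
  refine ⟨C0, fun K => ?_⟩
  obtain ⟨N1, La, Per, c, Bad, h1, h2, h3, h4, h5, h6, h7⟩ := h K
  exact ⟨N1, La, Per, c, Bad, h1, h2, h3, h4, fun T hT _ => h5 T hT, fun T _ => h6 T, h7⟩

/-- literal of helper211 (`Fin_211.Gad act f`) -/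
theorem gad211 (S V : Type) [Monoid S] [Finite S] [AddCommGroup V] [Finite V] (act : V → S → V)
    {α : Type} (f : α → S) :
    ∃ R1 : ℕ, ∀ K : ℕ, ∃ (N1 N0 Kp M : ℕ) (BadT : ℕ → Prop) (c : ℕ → ℕ)
      (lam rho : List α → Option V) (nu1 : List α → V),
      (∀ P Q v r, lam P = some v → rho Q = some r →
        r = act v ((P ++ Q).map f).prod + nu1 (P ++ Q)) ∧
      (∀ P v, lam P = some v → P.length ≤ N1) ∧
      (∀ Y, N0 ≤ Y.length → ¬ BadT Y.length → ∀ v, ∃ P Q, Y = P ++ Q ∧ lam P = some v ∧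
        (rho Q).isSome) ∧ 0 < M ∧
      (∀ Y Y', Kp ≤ Y.length → Kp ≤ Y'.length → Y.take Kp = Y'.take Kp →
        Y.length % M = Y'.length % M → ((Y.drop Kp).map f).prod = ((Y'.drop Kp).map f).prod →
        nu1 Y = nu1 Y') ∧
      (∀ i j, i < j → j < K → c i < c j) ∧
      (∀ i i' j j', i < K → i' < K → j < K → j' < K → i' ≠ i → j' ≠ j →
        c i + c j' < c j + c i' + 2 * N1 → c j + c i' < c i + c j' + 2 * N1 → i = j) ∧
      (∀ T, (∀ k, k < K → c k ≤ T) → ∀ I : Finset ℕ,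
        (∀ k ∈ I, k < K ∧ ∃ k', k' < K ∧ k' ≠ k ∧ BadT (T + c k' - c k)) → I.card ≤ R1) := by
  classical
  obtain ⟨C0, h⟩ := gad0 S V act
  refine ⟨C0, fun K => ?_⟩
  obtain ⟨N1, La, Per, c, Bad, h1, h2, h3, h4, h5, h6, h7⟩ := h K
  obtain ⟨lam, rho, nu, g1, g2, g3, g4⟩ := h7 α f
  refine ⟨N1, La, La, Per, Bad, c, lam, rho, nu, g1, g2, g3, h1, ?_, h3, h4, ?_⟩
  · intro Y Y' a1 a2 a3 a4 a5
    exact g4 Y Y' a1 a2 a3 a5 a4
  · intro T hT I hI
    choose! k' hk using fun k hk => (hI k hk).2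
    have h := h5 T hT (I.image (fun k => (k, k' k))) (by
      intro p hp
      obtain ⟨k, hkI, rfl⟩ := Finset.mem_image.1 hp
      obtain ⟨a1, a2, a3⟩ := hk k hkI
      exact ⟨(hI k hkI).1, a1, fun e => a2 e.symm, a3⟩)
    rwa [Finset.card_image_of_injective _ (fun a b e => (Prod.mk.inj e).1)] at h

end Crest.Agent.R320.Gad_161
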