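import Crest.Agent.R320.Grid_899
import Crest.Agent.R320.Thin_963

/-!
# Row 320 (helper164): gadget 1 with its ruler, in one closed theorem

Joins `Grid_899.grid_gadget_reg` and `Thin_963.thin`.
-/

set_option autoImplicit false

namespace Crest.Agent.R320.Gad_164

open Finset Crest.Agent.R320.Grid_899

/-- bad totals -/
def BT (k m : ℕ) (q : Fin k → ℕ) (κ : ℕ) (n : ℕ) : Prop :=
  (∃ j, q j ∣ n) ∨ (∃ j, 1 ≤ j ∧ j ≤ m ∧ ¬ (
    (∏ j, q j) * G κ (j - 1) ≤ (n - Am (∏ j, q j) κ j) % G κ j ∧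
            (n - Am (∏ j, q j) κ j) % G κ j + (∏ j, q j) * G κ (j - 1) ≤ G κ j))

theorem Am_mono (Ms κ : ℕ) : Monotone (Am Ms κ) := by
  refine monotone_nat_of_le_succ fun i => ?_
  show Am Ms κ i ≤ Am Ms κ i + G κ i + Ms * G κ i
  omega

theorem G_dvd' (κ : ℕ) {i j : ℕ} (h : j ≤ i) : G κ j ∣ G κ i := by
  unfold G
  exact pow_dvd_pow 2 (Nat.mul_le_mul_left κ h)

theorem BT_periodic {k m : ℕ} {q : Fin k → ℕ} {κ n n' : ℕ}
    (hn : Am (∏ j, q j) κ (m + 1) ≤ n) (hn' : Am (∏ j, q j) κ (m + 1) ≤ n')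
    (h : n % ((∏ j, q j) * G κ m) = n' % ((∏ j, q j) * G κ m)) :
    BT k m q κ n ↔ BT k m q κ n' := by
  have h0 : n ≡ n' [MOD ((∏ j, q j) * G κ m)] := h
  have e1 : ∀ j, q j ∣ n ↔ q j ∣ n' := by
    intro j
    have hd : q j ∣ (∏ j, q j) * G κ m := Dvd.dvd.mul_right (Finset.dvd_prod_of_mem q (mem_univ j)) _
    have h2 : n ≡ n' [MOD (q j)] := h0.of_dvd hd
    rw [Nat.dvd_iff_mod_eq_zero, Nat.dvd_iff_mod_eq_zero]
    rw [show n % q j = n' % q j from h2]
  have e2 : ∀ j, j ≤ m → (n - Am (∏ j, q j) κ j) % G κ j = (n' - Am (∏ j, q j) κ j) % G κ j := by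
    intro j hj
    have hA : Am (∏ j, q j) κ j ≤ Am (∏ j, q j) κ (m + 1) := Am_mono _ _ (by omega)
    have hd : G κ j ∣ (∏ j, q j) * G κ m := Dvd.dvd.mul_left (G_dvd' κ hj) _
    have h2 : n ≡ n' [MOD (G κ j)] := h0.of_dvd hd
    have h3 : (n - Am (∏ j, q j) κ j) + Am (∏ j, q j) κ j ≡
        (n' - Am (∏ j, q j) κ j) + Am (∏ j, q j) κ j [MOD (G κ j)] := by
      rw [Nat.sub_add_cancel (hA.trans hn), Nat.sub_add_cancel (hA.trans hn')]
      exact h2
    exact Nat.ModEq.add_right_cancel' _ h3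
  unfold BT
  constructor
  · rintro (⟨j, hj⟩ | ⟨j, h1, h2, h3⟩)
    · exact Or.inl ⟨j, (e1 j).1 hj⟩
    · refine Or.inr ⟨j, h1, h2, ?_⟩
      rw [← e2 j h2]; exact h3
  · rintro (⟨j, hj⟩ | ⟨j, h1, h2, h3⟩)
    · exact Or.inl ⟨j, (e1 j).2 hj⟩
    · refine Or.inr ⟨j, h1, h2, ?_⟩
      rw [e2 j h2]; exact h3

theorem BT_thin {k m : ℕ} {q : Fin k → ℕ} {κ n : ℕ} (Ms : Finset ℕ) (hMs : ∀ j, q j ∈ Ms)
    (hn : Am (∏ j, q j) κ (m + 1) ≤ n) (h : BT k m q κ n) :
    Thin963.BadT Ms m (fun i => (G κ i : ℤ)) (fun i => (((∏ j, q j) * G κ i : ℕ) : ℤ))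
      (fun i => (Am (∏ j, q j) κ i : ℤ)) (n : ℤ) := by
  rcases h with ⟨j, hj⟩ | ⟨j, h1, h2, h3⟩
  · exact Or.inl ⟨q j, hMs j, by exact_mod_cast hj⟩
  · right
    have hA : Am (∏ j, q j) κ j ≤ Am (∏ j, q j) κ (m + 1) := Am_mono _ _ (by omega)
    have hGpos : 0 < G κ j := G_pos j
    obtain ⟨i, rfl⟩ : ∃ i, j = i + 1 := ⟨j - 1, by omega⟩
    simp only [Nat.add_sub_cancel] at h3
    set r := (n - Am (∏ j, q j) κ (i + 1)) % G κ (i + 1) with hr
    have hrlt : r < G κ (i + 1) := Nat.mod_lt _ hGpos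
    have hdiv : ∃ t : ℕ, n - Am (∏ j, q j) κ (i + 1) = G κ (i + 1) * t + r :=
      ⟨_, (Nat.div_add_mod _ _).symm⟩
    obtain ⟨t, ht⟩ := hdiv
    have hnz : (n : ℤ) - (Am (∏ j, q j) κ (i + 1) : ℤ) = (G κ (i + 1) : ℤ) * t + r := by
      have : n = G κ (i + 1) * t + r + Am (∏ j, q j) κ (i + 1) := by omega
      have h5 : (n : ℤ) = (G κ (i + 1) : ℤ) * t + r + Am (∏ j, q j) κ (i + 1) := by
        exact_mod_cast this
      linarith
    refine ⟨i, by omega, ?_⟩
    by_cases h4 : (∏ j, q j) * G κ i ≤ r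
    · have h5 : G κ (i + 1) < r + (∏ j, q j) * G κ i := by
        by_contra h6
        exact h3 ⟨h4, by omega⟩
      refine ⟨(G κ (i + 1) : ℤ) - r, ?_, ?_⟩
      · have : |(G κ (i + 1) : ℤ) - r| = (G κ (i + 1) : ℤ) - r := by
          rw [abs_of_nonneg]
          have : (r : ℤ) < G κ (i + 1) := by exact_mod_cast hrlt
          linarith
        rw [this]
        have h6 : (G κ (i + 1) : ℤ) < r + (((∏ j, q j) * G κ i : ℕ) : ℤ) := by exact_mod_cast h5
        show (G κ (i + 1) : ℤ) - r ≤ (((∏ j, q j) * G κ i : ℕ) : ℤ)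
        linarith
      · show (G κ (i + 1) : ℤ) ∣ (n : ℤ) - (Am (∏ j, q j) κ (i + 1) : ℤ) + _
        rw [hnz]
        exact ⟨t + 1, by ring⟩
    · refine ⟨-(r : ℤ), ?_, ?_⟩
      · rw [abs_neg, abs_of_nonneg (by positivity)]
        have h6 : r ≤ (∏ j, q j) * G κ i := by omega
        show (r : ℤ) ≤ (((∏ j, q j) * G κ i : ℕ) : ℤ)
        exact_mod_cast h6
      · show (G κ (i + 1) : ℤ) ∣ (n : ℤ) - (Am (∏ j, q j) κ (i + 1) : ℤ) + _
        rw [hnz]
        exact ⟨t, by ring⟩

theorem gad (S V : Type) [Monoid S] [Finite S] [AddCommGroup V] [Finite V] (act : V → S → V) :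
    ∃ C0 : ℕ, ∀ K : ℕ, ∃ (N1 M : ℕ) (c : ℕ → ℕ) (BT : ℕ → Prop), 0 < N1 ∧ 0 < M ∧
      (∀ i j, i < j → c i < c j) ∧
      (∀ k k' l l', k < K → k' < K → l < K → l' < K → k' ≠ k → l' ≠ l →
        c k + c l' < c l + c k' + 2 * N1 → c l + c k' < c k + c l' + 2 * N1 → k = l) ∧
      (∀ τ : ℕ, N1 + c K ≤ τ → ∀ J : Finset ℕ,
        (∀ k ∈ J, k < K ∧ ∃ k', k' < K ∧ k' ≠ k ∧ BT (τ + c k' - c k)) → J.card ≤ C0) ∧
      (∀ n n', N1 ≤ n → N1 ≤ n' → n % M = n' % M → (BT n ↔ BT n')) ∧
      ∀ (α : Type) (phi : List α → S), (∀ u v, phi (u ++ v) = phi u * phi v) →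
      ∃ (lam rho : List α → Option V) (nu : List α → V),
        (∀ P v, lam P = some v → P.length ≤ N1) ∧
        (∀ P Q v b, lam P = some v → rho Q = some b → b = act v (phi (P ++ Q)) + nu (P ++ Q)) ∧
        (∀ u : List α, N1 ≤ u.length → ¬ BT u.length →
          ∀ v, ∃ P Q, u = P ++ Q ∧ lam P = some v ∧ (rho Q).isSome) ∧
        (∀ u u' : List α, 2 * N1 ≤ u.length → 2 * N1 ≤ u'.length →
          u.take (2 * N1) = u'.take (2 * N1) → phi (u.drop (2 * N1)) = phi (u'.drop (2 * N1)) →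
          u.length % M = u'.length % M → nu u = nu u') := by
  classical
  obtain ⟨k, m, hg⟩ := grid_gadget_reg S V act
  refine ⟨k + m, fun K => ?_⟩
  -- primes
  let q : Fin k → ℕ := fun j => Nat.nth Nat.Prime (2 ^ (K + 1) + j)
  have hqp : ∀ j, (q j).Prime := fun j => Nat.prime_nth_prime _
  have hqge : ∀ j, 2 ^ (K + 1) + 2 ≤ q j := fun j => by
    have h1 := Nat.add_two_le_nth_prime (2 ^ (K + 1) + (j : ℕ))
    show 2 ^ (K + 1) + 2 ≤ Nat.nth Nat.Prime (2 ^ (K + 1) + (j : ℕ))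
    omega
  have hqodd : ∀ j, Odd (q j) := fun j => by
    refine (hqp j).odd_of_ne_two ?_
    have h1 := hqge j
    have h2 : 0 < 2 ^ (K + 1) := Nat.pow_pos (by norm_num)
    omega
  have hqinj : Function.Injective q := by
    intro i j hij
    have h1 := (Nat.nth_strictMono Nat.infinite_setOfPred_prime).injective hij
    exact Fin.ext (by omega)
  have hqc : Pairwise (fun i j => Nat.Coprime (q i) (q j)) := by
    intro i j hij
    exact (Nat.coprime_primes (hqp i) (hqp j)).2 (fun h => hij (hqinj h))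
  set Ms : ℕ := ∏ j, q j with hMs
  have hMspos : 0 < Ms := Finset.prod_pos fun j _ => (hqp j).pos
  let κ : ℕ := 2 ^ (K + 4) * Ms * m
  obtain hgk := hg q hqodd hqc κ
  -- ruler
  let MsF : Finset ℕ := Finset.univ.image q
  have hMsF : MsF.card ≤ k := by
    refine Finset.card_image_le.trans ?_
    simp
  have hAm : Am Ms κ m ≤ Am Ms κ (m + 1) := Am_mono _ _ (by omega)
  set N1 : ℕ := 2 * Am Ms κ (m + 1) + 1 with hN1
  have hthin := Thin963.thin K m MsF (fun i => (G κ i : ℤ)) (fun i => ((Ms * G κ i : ℕ) : ℤ))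
    (fun i => (Am Ms κ i : ℤ))
    (by
      intro p hp
      obtain ⟨j, -, rfl⟩ := Finset.mem_image.1 hp
      exact ⟨hqp j, by have := hqge j; omega⟩)
    (by
      intro p hp
      obtain ⟨j, -, rfl⟩ := Finset.mem_image.1 hp
      show IsCoprime ((q j : ℕ) : ℤ) ((G κ m : ℕ) : ℤ)
      rw [Nat.isCoprime_iff_coprime]
      unfold G
      exact Nat.Coprime.pow_right _ ((Nat.coprime_primes (hqp j) Nat.prime_two).2 (by
        have h1 := hqge j
        have h2 : 0 < 2 ^ (K + 1) := Nat.pow_pos (by norm_num)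
        omega)))
    (by
      show (0 : ℤ) < ((G κ m : ℕ) : ℤ)
      exact_mod_cast G_pos (κ := κ) m)
    (by
      intro i j hij
      show ((G κ i : ℕ) : ℤ) ∣ ((G κ j : ℕ) : ℤ)
      exact_mod_cast G_dvd' κ hij)
    (by
      intro i
      show (0 : ℤ) < ((Ms * G κ i : ℕ) : ℤ)
      exact_mod_cast Nat.mul_pos hMspos (G_pos (κ := κ) i))
    (by
      intro i
      show ((G κ i : ℕ) : ℤ) ∣ ((Ms * G κ i : ℕ) : ℤ)
      exact_mod_cast Dvd.intro_left Ms rfl)
    (by
      intro i hi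
      show (2 : ℤ) ^ (K + 4) * ∑ j ∈ Finset.range (i + 1), ((Ms * G κ j : ℕ) : ℤ) ≤ ((G κ (i + 1) : ℕ) : ℤ)
      have h1 : ∑ j ∈ Finset.range (i + 1), (Ms * G κ j) ≤ (i + 1) * (Ms * G κ i) := by
        calc ∑ j ∈ Finset.range (i + 1), (Ms * G κ j)
            ≤ ∑ j ∈ Finset.range (i + 1), (Ms * G κ i) := by
              refine Finset.sum_le_sum fun j hj => ?_
              have hj' : j ≤ i := by have := Finset.mem_range.1 hj; omega
              exact Nat.mul_le_mul_left _ (Nat.le_of_dvd (G_pos i) (G_dvd' κ hj'))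
          _ = (i + 1) * (Ms * G κ i) := by simp
      have h2 : 2 ^ (K + 4) * ((i + 1) * (Ms * G κ i)) ≤ G κ (i + 1) := by
        have e1 : G κ (i + 1) = 2 ^ κ * G κ i := by
          unfold G
          rw [Nat.mul_succ, pow_add, Nat.mul_comm]
        rw [e1]
        have e2 : 2 ^ (K + 4) * ((i + 1) * (Ms * G κ i)) = (2 ^ (K + 4) * Ms * (i + 1)) * G κ i := by ring
        rw [e2]
        refine Nat.mul_le_mul_right _ ?_
        have h3 : 2 ^ (K + 4) * Ms * (i + 1) ≤ κ := Nat.mul_le_mul_left _ (by omega)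
        exact h3.trans (Nat.lt_two_pow_self).le
      have h3 : 2 ^ (K + 4) * ∑ j ∈ Finset.range (i + 1), (Ms * G κ j) ≤ G κ (i + 1) :=
        (Nat.mul_le_mul_left _ h1).trans h2
      exact_mod_cast h3)
    ((2 * N1 + 1 : ℕ) : ℤ)
  obtain ⟨X, hX1, hX0, hXthin⟩ := hthin
  obtain ⟨x, rfl⟩ : ∃ x : ℕ, X = (x : ℤ) := ⟨X.toNat, by omega⟩
  have hx1 : 2 * N1 + 1 ≤ x := by exact_mod_cast hX1
  have hx0 : 0 < x := by omega
  refine ⟨N1, Ms * G κ m, fun j => x * 2 ^ j, BT k m q κ, by omega,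
    Nat.mul_pos hMspos (G_pos m), ?_, ?_, ?_, ?_, ?_⟩
  · intro i j hij
    exact Nat.mul_lt_mul_of_pos_left (Nat.pow_lt_pow_right (by norm_num) hij) hx0
  · intro a a' b b' ha ha' hb hb' h1 h2 h3 h4
    simp only at h3 h4
    have h3' : (x : ℤ) * 2 ^ a + x * 2 ^ b' < x * 2 ^ b + x * 2 ^ a' + 2 * N1 := by exact_mod_cast h3
    have h4' : (x : ℤ) * 2 ^ b + x * 2 ^ a' < x * 2 ^ a + x * 2 ^ b' + 2 * N1 := by exact_mod_cast h4
    have hx' : (2 * N1 + 1 : ℤ) ≤ x := by exact_mod_cast hx1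
    have hN1z : (0 : ℤ) ≤ N1 := by positivity
    set D : ℤ := ((2 : ℤ) ^ a - 2 ^ a') - (2 ^ b - 2 ^ b') with hD
    have h5 : (x : ℤ) * D < 2 * N1 := by rw [hD]; nlinarith
    have h6 : -(2 * N1 : ℤ) < x * D := by rw [hD]; nlinarith
    have hD0 : D = 0 := by
      rcases lt_trichotomy D 0 with h | h | h
      · exfalso
        have : D ≤ -1 := by omega
        nlinarith
      · exact h
      · exfalso
        have : 1 ≤ D := by omega
        nlinarith
    exact (G369.pow_diff (Ne.symm h1) (Ne.symm h2) (by rw [hD] at hD0; linarith)).1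
  · intro τ hτ J hJ
    have key : J ⊆ (((Finset.range K) ×ˢ (Finset.range K)).filter (fun p => p.1 ≠ p.2 ∧
        Thin963.BadT MsF m (fun i => (G κ i : ℤ)) (fun i => ((Ms * G κ i : ℕ) : ℤ))
          (fun i => (Am Ms κ i : ℤ)) ((τ : ℤ) + x * 2 ^ p.1 - x * 2 ^ p.2))).image Prod.snd := by
      intro a ha
      obtain ⟨h1, b, h2, h3, h4⟩ := hJ a ha
      refine Finset.mem_image.2 ⟨(b, a), ?_, rfl⟩
      refine Finset.mem_filter.2 ⟨Finset.mem_product.2 ⟨Finset.mem_range.2 h2,
        Finset.mem_range.2 h1⟩, h3, ?_⟩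
      have hca : x * 2 ^ a ≤ x * 2 ^ K :=
        Nat.mul_le_mul_left _ (Nat.pow_le_pow_right (by norm_num) h1.le)
      have e : ((τ + x * 2 ^ b - x * 2 ^ a : ℕ) : ℤ) = (τ : ℤ) + x * 2 ^ b - x * 2 ^ a := by
        rw [Nat.cast_sub (by
          simp only at hτ
          omega)]
        push_cast
        ring
      show Thin963.BadT _ _ _ _ _ ((τ : ℤ) + x * 2 ^ b - x * 2 ^ a)
      rw [← e]
      refine BT_thin MsF (fun j => Finset.mem_image_of_mem _ (Finset.mem_univ j)) ?_ h4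
      simp only at hτ
      show Am Ms κ (m + 1) ≤ _
      omega
    refine (Finset.card_le_card key).trans (Finset.card_image_le.trans ?_)
    exact (hXthin τ).trans (by omega)
  · intro n n' hn hn' h
    exact BT_periodic (by show Am Ms κ (m + 1) ≤ n; omega) (by show Am Ms κ (m + 1) ≤ n'; omega) h
  · intro α phi hphi
    obtain ⟨lam, rho, nu, h1, h2, h3, h4, h5⟩ := hgk α phi hphi
    let nu' : List α → V := fun u =>
      if ∃ P Q v b, u = P ++ Q ∧ lam P = some v ∧ rho Q = some b then nu u else 0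
    have half : ∀ u u' : List α, 2 * N1 ≤ u.length → 2 * N1 ≤ u'.length →
          u.take (2 * N1) = u'.take (2 * N1) → phi (u.drop (2 * N1)) = phi (u'.drop (2 * N1)) →
          u.length % (Ms * G κ m) = u'.length % (Ms * G κ m) →
          (∃ P Q v b, u = P ++ Q ∧ lam P = some v ∧ rho Q = some b) →
          (∃ P Q v b, u' = P ++ Q ∧ lam P = some v ∧ rho Q = some b) ∧ nu u = nu u' := by
      rintro u u' hu hu' htk hph hmod ⟨P, Q, v, b, rfl, hP, hQ⟩
      have hPl := (h1 P v hP).1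
      have hPl' : P.length + Am Ms κ (m + 1) ≤ 2 * N1 := by
        have : P.length < Am Ms κ m := hPl
        omega
      have hu1 : u'.take P.length = P := by
        have h6 := congrArg (List.take P.length) htk
        rw [List.take_take, List.take_take, Nat.min_eq_left (by omega)] at h6
        rw [← h6, List.take_left]
      set Q' := u'.drop P.length with hQ'
      have hu2 : u' = P ++ Q' := by
        rw [hQ']
        conv_lhs => rw [← List.take_append_drop P.length u']
        rw [hu1]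
      have hQl : Q.length = (P ++ Q).length - P.length := by simp
      have hQl' : Q'.length = u'.length - P.length := by rw [hQ', List.length_drop]
      -- general position
      have htkQ : ∀ j, P.length + j ≤ 2 * N1 → Q.take j = Q'.take j := by
        intro j hj
        have h6 := congrArg (fun l => (l.take (P.length + j)).drop P.length) htk
        simp only [List.take_take] at h6
        rw [Nat.min_eq_left hj, hu2] at h6
        simpa [List.take_append, List.drop_append] using h6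
      have hdr : ∀ j, P.length + j ≤ 2 * N1 → phi (Q.drop j) = phi (Q'.drop j) := by
        intro j hj
        have e1 : Q.drop j = ((P ++ Q).take (2 * N1)).drop (P.length + j) ++ (P ++ Q).drop (2 * N1) := by
          have h7 : Q.drop j = (P ++ Q).drop (P.length + j) := by simp
          rw [h7]
          conv_lhs => rw [← List.take_append_drop (2 * N1) (P ++ Q)]
          rw [List.drop_append_of_le_length]
          rw [List.length_take]; omega
        have e2 : Q'.drop j = (u'.take (2 * N1)).drop (P.length + j) ++ u'.drop (2 * N1) := by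
          have h7 : Q'.drop j = u'.drop (P.length + j) := by rw [hQ', List.drop_drop]
          rw [h7]
          conv_lhs => rw [← List.take_append_drop (2 * N1) u']
          rw [List.drop_append_of_le_length]
          rw [List.length_take]; omega
        rw [e1, e2, hphi, hphi, htk, hph]
      have hrho : rho Q = rho Q' := by
        refine h5 Q Q' ?_ ?_ (htkQ _ hPl') (hdr _ hPl') ?_
        · show Am Ms κ (m + 1) ≤ _
          omega
        · show Am Ms κ (m + 1) ≤ _
          omega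
        · have h6 : (P ++ Q).length ≡ u'.length [MOD (Ms * G κ m)] := hmod
          have h7 : P.length + Q.length ≡ P.length + Q'.length [MOD (Ms * G κ m)] := by
            have e3 : u'.length = P.length + Q'.length := by
              rw [hu2, List.length_append]
            rw [List.length_append] at h6
            rw [← e3]; exact h6
          exact Nat.ModEq.add_left_cancel' _ h7
      have hphiu : phi (P ++ Q) = phi u' := by
        have h8 := hdr 0 (by omega)
        simp only [List.drop_zero] at h8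
        rw [hu2, hphi, hphi, h8]
      refine ⟨⟨P, Q', v, b, hu2, hP, by rw [← hrho]; exact hQ⟩, ?_⟩
      have s1 := h3 P Q v b hP hQ
      have s2 := h3 P Q' v b hP (by rw [← hrho]; exact hQ)
      rw [← hu2, ← hphiu] at s2
      rw [s1] at s2
      exact add_left_cancel s2
    refine ⟨lam, rho, nu', ?_, ?_, ?_, ?_⟩
    · intro P v hP
      have : P.length < Am Ms κ m := (h1 P v hP).1
      omega
    · intro P Q v b hP hQ
      have : nu' (P ++ Q) = nu (P ++ Q) := if_pos ⟨P, Q, v, b, rfl, hP, hQ⟩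
      rw [this]
      exact h3 P Q v b hP hQ
    · intro u hu hB v
      refine h4 u (by show 2 * Am Ms κ (m + 1) ≤ _; omega) ?_ ?_ v
      · intro j hj
        exact hB (Or.inl ⟨j, hj⟩)
      · intro j hj1 hj2
        by_contra h
        exact hB (Or.inr ⟨j, hj1, hj2, h⟩)
    · intro u u' hu hu' htk hph hmod
      show (if _ then _ else _) = (if _ then _ else _)
      by_cases hc : ∃ P Q v b, u = P ++ Q ∧ lam P = some v ∧ rho Q = some b
      · obtain ⟨h6, h7⟩ := half u u' hu hu' htk hph hmod hc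
        rw [if_pos hc, if_pos h6, h7]
      · rw [if_neg hc, if_neg]
        intro hc'
        exact hc (half u' u hu' hu htk.symm hph.symm hmod.symm hc').1

end Crest.Agent.R320.Gad_164
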