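import Crest.Agent.R320.G1_852
import Crest.Agent.R320.Sp_945

/-!
# Row 320: gadget 1 with its ruler = `Fin_211.Gad` / `Fin_963.Gad1` (helper17)
-/

set_option autoImplicit false

namespace Crest.Agent.R320.Gad_17

open Finset

theorem gad {S V : Type} [Monoid S] [Finite S] [AddCommGroup V] [Finite V] (act : V → S → V) :
    ∃ R1 : ℕ, ∀ K : ℕ, ∃ (N1 N0 Kp M : ℕ) (BadT : ℕ → Prop) (c : ℕ → ℕ),
      0 < M ∧ 0 < N1 ∧ (∀ T, BadT (T + M) ↔ BadT T) ∧
      (∀ i j, i < j → j < K → c i < c j) ∧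
      (∀ i i' j j', i < K → i' < K → j < K → j' < K → i' ≠ i → j' ≠ j →
        c i + c j' < c j + c i' + 2 * N1 → c j + c i' < c i + c j' + 2 * N1 → i = j) ∧
      (∀ T, (∀ k, k < K → c k ≤ T) → ∀ I : Finset ℕ,
        (∀ k ∈ I, k < K ∧ ∃ k', k' < K ∧ k' ≠ k ∧ BadT (T + c k' - c k)) → I.card ≤ R1) ∧
      (∀ T, (∀ k, k < K → c k ≤ T) → ∀ F : Finset (ℕ × ℕ),
        (∀ p ∈ F, p.1 < K ∧ p.2 < K ∧ p.1 ≠ p.2 ∧ BadT (T + c p.2 - c p.1)) → F.card ≤ R1) ∧
      ∀ (α : Type) (f : α → S), ∃ (lam rho : List α → Option V) (nu1 : List α → V),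
      (∀ P Q v r, lam P = some v → rho Q = some r →
        r = act v (((P ++ Q).map f).prod) + nu1 (P ++ Q)) ∧
      (∀ P v, lam P = some v → P.length ≤ N1) ∧
      (∀ Y, N0 ≤ Y.length → ¬ BadT Y.length → ∀ v, ∃ P Q, Y = P ++ Q ∧
        lam P = some v ∧ (rho Q).isSome) ∧
      (∀ Y Y' : List α, Kp ≤ Y.length → Kp ≤ Y'.length → Y.take Kp = Y'.take Kp →
        Y.length % M = Y'.length % M →
        ((Y.drop Kp).map f).prod = ((Y'.drop Kp).map f).prod → nu1 Y = nu1 Y' ∧ rho Y = rho Y') := by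
  classical
  obtain ⟨m, r, h⟩ := G1_852.gadget (S := S) (V := V) act
  refine ⟨r + m, fun K => ?_⟩
  obtain ⟨Ms, M, hcard, hMs, hM, hg⟩ := h (2 ^ (K + 1))
  set b := 2 ^ (K + 6) * M + 1 with hbdef
  have hb0 : 0 < b := by omega
  have hcop : Nat.Coprime b M := by
    rw [hbdef]
    simp
  have hMs2 : ∀ k ∈ Ms, 2 ^ (K + 1) ≤ k ∧ k ∣ M := fun k hk => ⟨(hMs k hk).1.le, (hMs k hk).2.2⟩
  obtain ⟨c, hc1, hc2, hc3, hc4, hc5⟩ := Sp_945.spoil K m M Ms hM hMs2 b (by omega) hcop (2 * b ^ m)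
  have hpos : 0 < b ^ m := by positivity
  have hF : ∀ T, (∀ k, k < K → c k ≤ T) → ∀ F : Finset (ℕ × ℕ),
      (∀ p ∈ F, p.1 < K ∧ p.2 < K ∧ p.1 ≠ p.2 ∧ Sp_945.Bad Ms M m b (T + c p.2 - c p.1)) →
      F.card ≤ r + m := by
    intro T hT F hF
    have h1 := hc5 T (fun a ha => hT a ha)
    have h2 : F ⊆ ((range K ×ˢ range K).filter (fun q => q.1 ≠ q.2 ∧
        Sp_945.Bad Ms M m b (T + c q.2 - c q.1))) := by
      intro p hp
      obtain ⟨ha, hb, hc, hd⟩ := hF p hp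
      simp only [mem_filter, mem_product, mem_range]
      exact ⟨⟨ha, hb⟩, hc, hd⟩
    have h3 := Finset.card_le_card h2
    omega
  refine ⟨b ^ m, 0, b ^ m, M * b ^ m, Sp_945.Bad Ms M m b, c, by positivity, hpos, ?_,
    fun i j hij _ => hc1 i j hij, ?_, ?_, hF, ?_⟩
  · -- periodic
    intro T
    unfold Sp_945.Bad
    have e1 : (∃ k ∈ Ms, k ∣ T + M * b ^ m) ↔ ∃ k ∈ Ms, k ∣ T := by
      refine exists_congr fun k => and_congr_right fun hk => ?_
      exact Nat.dvd_add_left (Dvd.dvd.mul_right (hMs k hk).2.2 _)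
    have e2 : ∀ j < m, (T + M * b ^ m) / b ^ j % b = T / b ^ j % b := by
      intro j hj
      obtain ⟨d, hd⟩ := Nat.exists_eq_add_of_lt hj
      have : M * b ^ m = b ^ j * (b * (M * b ^ d)) := by
        rw [hd]; ring
      rw [this, Nat.add_mul_div_left _ _ (by positivity), Nat.add_mul_mod_self_left]
    rw [e1]
    refine or_congr Iff.rfl ?_
    refine exists_congr fun j => and_congr_right fun hj => ?_
    rw [e2 j hj]
  · -- resolution
    intro i i' j j' hi hi' hj hj' hii hjj h1 h2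
    by_contra hne
    have := hc4 i i' j j' (Ne.symm hii) (Ne.symm hjj) (by
      intro h
      exact hne (Prod.ext_iff.1 h).1)
    omega
  · intro T hT I hI
    choose! g hg1 hg2 hg3 using fun k hk => (hI k hk).2
    have h1 := hF T hT (I.image (fun k => (k, g k))) (by
      intro p hp
      obtain ⟨k, hk, rfl⟩ := Finset.mem_image.1 hp
      exact ⟨(hI k hk).1, hg1 k hk, (hg2 k hk).symm, hg3 k hk⟩)
    rwa [Finset.card_image_of_injective] at h1
    intro a b hab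
    exact (Prod.ext_iff.1 hab).1
  · intro α f
    obtain ⟨lam, rho, nu, g1, g2, g3, g4⟩ := hg b hb0 hcop α f
    refine ⟨lam, rho, nu, ?_, fun P v h => (g1 P v h).le, ?_, ?_⟩
    · intro P Q v r h1 h2
      exact g2 P Q v r h1 h2
    · intro Y _ hB v
      unfold Sp_945.Bad at hB
      push Not at hB
      obtain ⟨P, Q, h1, h2, v', h3⟩ := g3 Y hB.1 (fun j hj => by
        have := hB.2 j hj
        exact ⟨this.1, by omega⟩) v
      exact ⟨P, Q, h1, h2, by rw [h3]; rfl⟩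
    · intro Y Y' _ _ h1 h2 h3
      exact (g4 Y Y' h1 h3 h2).symm

end Crest.Agent.R320.Gad_17
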