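import Crest.Agent.R320.G1_256
import Crest.Agent.R320.Sp_485

/-!
Row 320: gadget 1 with its ruler, closed form, from `g1` (852's digit / CRT gadget, 256's copy) and
`Sp_485.spoil`.
-/

set_option autoImplicit false

namespace Crest.Agent.R320.Gad_183

open Finset

/-- everything about gadget 1 and its ruler -/
theorem gad0 (S V : Type) [Monoid S] [Finite S] [AddCommGroup V] [Finite V] (act : V → S → V) :
    ∃ R1 : ℕ, ∀ K : ℕ, ∃ (N1 M : ℕ) (BadT : ℕ → Prop) (c : ℕ → ℕ),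
      0 < N1 ∧ 0 < M ∧
      (∀ i j, i < j → c i < c j) ∧ (∀ i, 0 < c i) ∧
      (∀ i j i' j', i ≠ j → ¬ (i = i' ∧ j = j') →
        (4 * N1 : ℤ) < |((c j : ℤ) - c i) - ((c j' : ℤ) - c i')|) ∧
      (∀ T, (∀ k, k < K → c k ≤ T) → ∀ F : Finset (ℕ × ℕ), (∀ p ∈ F, p.1 < K ∧ p.2 < K ∧
        p.1 ≠ p.2 ∧ BadT (T + c p.1 - c p.2)) → F.card ≤ R1) ∧
      (∀ T, (∀ k, k < K → c k ≤ T) → ∀ I : Finset ℕ,
        (∀ k ∈ I, k < K ∧ ∃ k', k' < K ∧ k' ≠ k ∧ BadT (T + c k' - c k)) → I.card ≤ R1) ∧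
      ∀ (A : Type) (f : A → S), ∃ (lam rho : List A → Option V) (nu : List A → V),
        (∀ P v, lam P = some v → P.length < N1) ∧
        (∀ P Q v v', lam P = some v → rho Q = some v' →
          v' = act v ((P ++ Q).map f).prod + nu (P ++ Q)) ∧
        (∀ X : List A, ¬ BadT X.length → ∀ v, ∃ P Q, P ++ Q = X ∧ lam P = some v ∧
          (rho Q).isSome) ∧
        (∀ Q Q' : List A, N1 ≤ Q.length → N1 ≤ Q'.length → Q.take N1 = Q'.take N1 →
          Q.length % M = Q'.length % M →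
          ((Q.drop N1).map f).prod = ((Q'.drop N1).map f).prod → rho Q = rho Q' ∧ nu Q = nu Q') := by
  classical
  obtain ⟨m, r, h⟩ := G1_256.g1 S V act
  refine ⟨r + m, fun K => ?_⟩
  obtain ⟨Ms, M, hcard, hMs, hM, h⟩ := h (2 ^ (K + 1))
  obtain ⟨b, hb⟩ : ∃ b, b = (2 ^ (K + 4) + 10) * M + 1 := ⟨_, rfl⟩
  have hcop : Nat.Coprime b M := by
    rw [hb]
    simp
  have hb0 : 0 < b := by omega
  have hb1 : 4 * M + 4 < b := by
    rw [hb]
    have : 1 * M ≤ 2 ^ (K + 4) * M := Nat.mul_le_mul_right _ Nat.one_le_two_pow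
    nlinarith
  have hb2 : 2 ^ (K + 4) * M + 2 * M ≤ b := by
    rw [hb]
    nlinarith
  obtain ⟨c, c1, c2, -, c4, c5, -⟩ := Sp_485.spoil Ms M m b K (b ^ m) hM
    (fun k hk => ⟨(hMs k hk).1.le, (hMs k hk).2.2⟩) hcop hb2
  have hpairs : ∀ T, (∀ k, k < K → c k ≤ T) → ∀ F : Finset (ℕ × ℕ), (∀ p ∈ F, p.1 < K ∧ p.2 < K ∧
        p.1 ≠ p.2 ∧ Sp_485.Bad Ms M m b (T + c p.1 - c p.2)) → F.card ≤ r + m := by
    intro T hT F hF
    have h1 := c5 T hT
    have h2 : F.card ≤ ((range K ×ˢ range K).filter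
          (fun p => p.1 ≠ p.2 ∧ Sp_485.Bad Ms M m b (T + c p.2 - c p.1))).card := by
      refine Finset.card_le_card_of_injOn (fun p => (p.2, p.1)) ?_ ?_
      · intro p hp
        obtain ⟨q1, q2, q3, q4⟩ := hF p hp
        simp only [Finset.coe_filter, Finset.mem_product, Finset.mem_range, Set.mem_setOf_eq]
        exact ⟨⟨q2, q1⟩, fun h => q3 h.symm, q4⟩
      · intro p _ q _ hpq
        simp only [Prod.mk.injEq] at hpq
        exact Prod.ext hpq.2 hpq.1
    omega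
  refine ⟨b ^ m, M * b ^ m, Sp_485.Bad Ms M m b, c, by positivity, by positivity,
    fun i j hij => c1 hij, fun i => by have := c2 i; omega, ?_, hpairs, ?_, ?_⟩
  · intro i j i' j' h1 h2
    have := c4 i j i' j' h1 h2
    exact_mod_cast this
  · intro T hT I hI
    choose g hg using fun k : I => (hI k.1 k.2).2
    have h1 : I.card = (I.attach.image (fun k => (g k, k.1))).card := by
      rw [Finset.card_image_of_injective _ (by
        intro x y hxy
        simp only [Prod.mk.injEq] at hxy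
        exact Subtype.ext hxy.2), Finset.card_attach]
    rw [h1]
    refine hpairs T hT _ ?_
    intro p hp
    obtain ⟨k, -, rfl⟩ := Finset.mem_image.1 hp
    exact ⟨(hg k).1, (hI k.1 k.2).1, (hg k).2.1, (hg k).2.2⟩
  · intro A f
    obtain ⟨lam, rho, nu, g1, g2, g3, g4⟩ := h b hb1 hcop A f
    refine ⟨lam, rho, nu, g1, g2, ?_, g4⟩
    intro X hX v
    refine g3 X ?_ ?_ v
    · intro k hk hd
      exact hX (Or.inl ⟨k, hk, hd⟩)
    · intro j hj
      by_contra hcon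
      exact hX (Or.inr ⟨j, hj, hcon⟩)

end Crest.Agent.R320.Gad_183
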