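import Crest.Agent.R320.G1_44
import Crest.Agent.R320.Sp_21

set_option autoImplicit false

/-!
Row 320: 963's hypothesis `Gad1` (post #14331) from the digit gadget `G1_44.g1` and the ruler `Sp_21.spoil`.
-/

namespace Crest.Agent.R320.Gad_21

open Crest.Agent.R320.Sp_21

theorem digit_per {M b m j t : ℕ} (hb : 0 < b) (hj : j < m) :
    (t + M * b ^ m) / b ^ j % b = t / b ^ j % b := by
  have h1 : M * b ^ m = b ^ j * (b * (M * b ^ (m - (j + 1)))) := by
    have : m = j + 1 + (m - (j + 1)) := by omega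
    conv_lhs => rw [this, pow_add, pow_succ]
    ring
  rw [h1, Nat.add_mul_div_left _ _ (by positivity), Nat.add_mul_mod_self_left]

theorem bad_per {M b m : ℕ} {Ms : Finset ℕ} (hb : 0 < b) (hMs : ∀ k ∈ Ms, k ∣ M) (t : ℕ) :
    Bad m M b Ms (t + M * b ^ m) ↔ Bad m M b Ms t := by
  unfold Bad
  apply or_congr
  · refine exists_congr fun k => and_congr_right fun hk => ?_
    exact (Nat.dvd_add_left ((hMs k hk).mul_right _))
  · refine exists_congr fun j => and_congr_right fun hj => ?_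
    rw [digit_per hb hj]

theorem gad1 (S V : Type) [Monoid S] [Finite S] [AddCommGroup V] [Finite V] (act : V → S → V) :
    ∃ C0 : ℕ, ∀ K : ℕ, ∃ (N1 La Per : ℕ) (c : ℕ → ℕ) (Bad : ℕ → Prop), 0 < Per ∧ 0 < N1 ∧
      (∀ i j, i < j → j < K → c i < c j) ∧
      (∀ k k' l l', k < K → k' < K → l < K → l' < K → k' ≠ k → l' ≠ l →
        c k + c l' < c l + c k' + 2 * N1 → c l + c k' < c k + c l' + 2 * N1 → k = l) ∧
      (∀ T, (∀ k < K, c k ≤ T) → La ≤ T → ∀ F : Finset (ℕ × ℕ),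
        (∀ p ∈ F, p.1 < K ∧ p.2 < K ∧ p.1 ≠ p.2 ∧ Bad (T + c p.2 - c p.1)) → F.card ≤ C0) ∧
      (∀ T, La ≤ T → (Bad (T + Per) ↔ Bad T)) ∧
      ∀ (α : Type) (f : α → S), ∃ (lam rho : List α → Option V) (nu : List α → V),
        (∀ P Q v b, lam P = some v → rho Q = some b →
          b = act v ((P ++ Q).map f).prod + nu (P ++ Q)) ∧
        (∀ P v, lam P = some v → P.length ≤ N1) ∧
        (∀ Y, La ≤ Y.length → ¬ Bad Y.length → ∀ v, ∃ P Q, Y = P ++ Q ∧ lam P = some v ∧
          (rho Q).isSome) ∧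
        (∀ u u' : List α, La ≤ u.length → La ≤ u'.length → u.take La = u'.take La →
          ((u.drop La).map f).prod = ((u'.drop La).map f).prod →
          u.length % Per = u'.length % Per → nu u = nu u') := by
  obtain ⟨m, r, h⟩ := G1_44.g1 S V act
  refine ⟨r + m, fun K => ?_⟩
  obtain ⟨Ms, M, hcard, hMs, hM, h2⟩ := h (2 ^ (K + 1))
  -- the base
  set b := (2 ^ (K + 4) + 10) * M + 1 with hb0
  have hb1 : (2 ^ (K + 4) + 2) * M < b := by rw [hb0]; nlinarith
  have hb2 : 4 * M + 4 < b := by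
    rw [hb0]
    have : 0 ≤ 2 ^ (K + 4) * M := Nat.zero_le _
    nlinarith
  have hbpos : 0 < b := by omega
  have hcop : Nat.Coprime b M := by
    rw [hb0]
    simp
  have hbm : 0 < b ^ m := by positivity
  obtain ⟨c, hc1, hc2, hc3⟩ := spoil K (b ^ m) m M b Ms hM
    (fun k hk => ⟨(hMs k hk).2.2, (hMs k hk).1.le⟩) hcop hb1
  refine ⟨b ^ m, b ^ m, M * b ^ m, c, Bad m M b Ms, by positivity, hbm, ?_, ?_, ?_, ?_, ?_⟩
  · intro i j hij _
    have := hc1 i j hij
    omega
  · intro k k' l l' _ _ _ _ hk hl h1 h2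
    by_contra hkl
    rcases hc2 k' k l' l hk hl (by
      intro h
      exact hkl (Prod.ext_iff.1 h).2) with h3 | h3
    · omega
    · omega
  · intro T hT _ F hF
    exact (hc3 T hT F hF).trans (by omega)
  · intro T _
    exact bad_per hbpos (fun k hk => (hMs k hk).2.2) T
  · intro α f
    obtain ⟨lam, rho, nu, g1, g2, g3, g4⟩ := h2 b hb2 hcop α f
    refine ⟨lam, rho, nu, ?_, ?_, ?_, ?_⟩
    · intro P Q v v' hP hQ
      exact g2 P Q v v' hP hQ
    · intro P v hP
      exact (g1 P v hP).le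
    · intro Y _ hY v
      unfold Bad at hY
      push Not at hY
      obtain ⟨P, Q, h5, h6, h7⟩ := g3 Y hY.1 (fun j hj => hY.2 j hj) v
      exact ⟨P, Q, h5.symm, h6, h7⟩
    · intro u u' hu hu' ht hp hl
      exact (g4 u u' hu hu' ht hl hp).2

end Crest.Agent.R320.Gad_21
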