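import Crest.Agent.R320.Fin_963
import Crest.Agent.R320.G1_168
import Crest.Agent.R320.Sp_21

/-! Row 320, helper263: `Gad1` (the last hypothesis of `Fin_963.main`) from the digit gadget
`G1_168.g1` and the ruler `Sp_21.spoil`. -/

set_option autoImplicit false

namespace Crest.Agent.R320.Gad_263

open Crest.Agent.R320

theorem digit_add {b m j T q : ℕ} (hb : 0 < b) (hj : j < m) :
    (T + q * b ^ m) / b ^ j % b = T / b ^ j % b := by
  obtain ⟨d, rfl⟩ : ∃ d, m = j + 1 + d := ⟨m - (j + 1), by omega⟩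
  have h1 : q * b ^ (j + 1 + d) = b ^ j * (b * (q * b ^ d)) := by
    rw [pow_add, pow_add, pow_one]; ring
  rw [h1, Nat.add_mul_div_left _ _ (pow_pos hb j), Nat.add_mul_mod_self_left]

theorem bad_per {m M b : ℕ} {Ms : Finset ℕ} (hb : 0 < b) (hk : ∀ k ∈ Ms, k ∣ M) (T : ℕ) :
    Sp_21.Bad m M b Ms (T + M * b ^ m) ↔ Sp_21.Bad m M b Ms T := by
  unfold Sp_21.Bad
  refine or_congr ?_ ?_
  · refine exists_congr fun k => and_congr_right fun h => ?_
    exact (Nat.dvd_add_left (Dvd.dvd.mul_right (hk k h) _))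
  · refine exists_congr fun j => and_congr_right fun h => ?_
    rw [digit_add hb h]

theorem gad1 (S V : Type) [Monoid S] [Finite S] [AddCommGroup V] [Finite V]
    (act : V → S → V) : Fin_963.Gad1 S V act := by
  obtain ⟨m, r, h⟩ := G1_168.g1 S V act
  refine ⟨r + m, fun K => ?_⟩
  obtain ⟨Ms, M, hcard, hMs, hM, hg⟩ := h (2 ^ (K + 1))
  obtain ⟨b, hbdef⟩ : ∃ b, b = M * (2 ^ (K + 4) + 12) + 1 := ⟨_, rfl⟩
  have hp : 0 < 2 ^ (K + 4) := by positivity
  have hb0 : 0 < b := by omega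
  have hb1 : 4 * M + 4 < b := by rw [hbdef]; nlinarith
  have hb2 : (2 ^ (K + 4) + 2) * M < b := by rw [hbdef]; nlinarith
  have hco : Nat.Coprime b M := by
    rw [hbdef]
    have : Nat.Coprime (1 + M * (2 ^ (K + 4) + 12)) M := by
      rw [Nat.coprime_add_mul_left_left]; exact Nat.coprime_one_left M
    rwa [Nat.add_comm] at this
  have hbm : 0 < b ^ m := pow_pos hb0 m
  obtain ⟨c, hc1, hc2, hc3⟩ := Sp_21.spoil K (b ^ m) m M b Ms hM
    (fun k hk => ⟨(hMs k hk).2.2, (hMs k hk).1.le⟩) hco hb2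
  refine ⟨b ^ m, b ^ m, M * b ^ m, c, Sp_21.Bad m M b Ms, Nat.mul_pos hM hbm, hbm, ?_, ?_, ?_,
    ?_, ?_⟩
  · intro i j hij _
    have := hc1 i j hij
    omega
  · intro k k' l l' _ _ _ _ hk hl h1 h2
    by_contra hne
    rcases hc2 k k' l l' (Ne.symm hk) (Ne.symm hl) (fun e => hne (Prod.ext_iff.1 e).1) with h3 | h3
    · omega
    · omega
  · intro T hT _ F hF
    exact (hc3 T hT F hF).trans (by omega)
  · intro T _
    exact bad_per hb0 (fun k hk => (hMs k hk).2.2) T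
  · intro α f
    obtain ⟨lam, rho, nu, h1, h2, h3, h4⟩ := hg b hb1 hco α f
    refine ⟨lam, rho, nu, h2, fun P v hP => (h1 P v hP).le, ?_, ?_⟩
    · intro Y _ hY v
      have hY1 : ∀ k ∈ Ms, ¬ k ∣ Y.length := fun k hk hd => hY (Or.inl ⟨k, hk, hd⟩)
      have hY2 : ∀ j < m, M ≤ Y.length / b ^ j % b ∧ Y.length / b ^ j % b + M + 1 ≤ b := by
        intro j hj
        by_contra hn
        exact hY (Or.inr ⟨j, hj, hn⟩)
      obtain ⟨P, Q, e, hP, hQ⟩ := h3 Y hY1 hY2 v
      exact ⟨P, Q, e.symm, hP, hQ⟩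
    · intro u u' hu hu' ht hpr hl
      exact (h4 u u' hu hu' ht hl hpr).2

/-- finite monoids: every fibre has generalized star height at most three -/
theorem fin {α S : Type} [Finite α] [Monoid S] [Finite S] (f : α → S) (s : S) :
    Hk_851.HL 3 ({w | (w.map f).prod = s} : Language α) :=
  Fin_963.main f (gad1 S (S → ZMod 2) Fin_963.act) s

end Crest.Agent.R320.Gad_263
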