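import Crest.Agent.R320.Names_570
import Crest.Agent.R320.RandF_808

/-!
# Row 320: the grid gadget (693 #13203) on words, closed form (helper502)

No walls, all contents.  Levels `A j`, grids `G j` (`G i ∣ G j`), boundary
`beta j T = A j + (T - A j) % G j` (so `G j ∣ T - beta j T`), cell `i` = `[A i + G i, A i + G i + M G i)`,
right-legal only if `G i ∣ |Q|`.
-/

set_option autoImplicit false

namespace Crest.Agent.R320.Grid_502

open Finset

universe u

theorem crt (M g a t T : ℕ) (hM : 0 < M) (hg : 0 < g) (hc : Nat.Coprime M g) :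
    ∃ x, a ≤ x ∧ x < a + M * g ∧ x ≡ t [MOD M] ∧ x ≡ T [MOD g] := by
  obtain ⟨k, hk1, hk2⟩ := Nat.chineseRemainder hc t T
  have hMg : 0 < M * g := Nat.mul_pos hM hg
  have hle : a ≤ M * g * a := Nat.le_mul_of_pos_left a hMg
  refine ⟨a + (k + M * g * a - a) % (M * g), by omega, ?_, ?_, ?_⟩
  · have := Nat.mod_lt (k + M * g * a - a) hMg
    omega
  all_goals
    have h1 : a + (k + M * g * a - a) % (M * g) ≡ k [MOD M * g] := by
      calc a + (k + M * g * a - a) % (M * g) ≡ a + (k + M * g * a - a) [MOD M * g] :=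
            (Nat.mod_modEq _ _).add_left a
        _ = k + M * g * a := by omega
        _ ≡ k [MOD M * g] := by
            show (k + M * g * a) % (M * g) = k % (M * g)
            rw [Nat.add_mul_mod_self_left]
  · exact (h1.of_mul_right g).trans hk1
  · exact (h1.of_mul_left M).trans hk2

/-- names: level, left product, left weight, right product, right weight, token -/
abbrev Nm (m : ℕ) (S V W : Type*) := Fin m × S × W × S × W × V

/-- fixed data -/
structure Dat (S V W : Type*) [Monoid S] [AddCommGroup V] [AddCommGroup W] where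
  m : ℕ
  e : ℕ → S → W
  F : S → W → V
  act : V → S → V
  G : ℕ → ℕ
  A : ℕ → ℕ
  M : ℕ
  Ms : Finset ℕ
  nmL : ℕ → Option (Nm m S V W)
  nmR : ℕ → Option (Nm m S V W)
  hG : ∀ j, 0 < G j
  hdvd : ∀ i j, i ≤ j → G i ∣ G j
  hM : 0 < M
  hMs : ∀ k ∈ Ms, k ∣ M
  hcop : ∀ i, Nat.Coprime M (G i)
  hA : ∀ i, A i + G i + M * G i ≤ A (i + 1)
  perL : ∀ t, nmL (t + M) = nmL t
  perR : ∀ t, nmR (t + M) = nmR t

namespace Dat

variable {S V W : Type*} [Monoid S] [AddCommGroup V] [AddCommGroup W] (D : Dat S V W)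

/-- value of the line of a name at `z` -/
def val (c : Nm D.m S V W) (z : S) : V :=
  D.F (c.2.1 * z * c.2.2.2.1) (c.2.2.1 + D.e c.1 z + c.2.2.2.2.1) +
    D.act c.2.2.2.2.2 (c.2.1 * z * c.2.2.2.1)

def bv (c : Nm D.m S V W) : V := D.val c 1

def used (c : Nm D.m S V W) : Prop := ∀ z, D.val c z = D.bv c

/-- the hypotheses on names and noise -/
structure Ok : Prop where
  good : ∀ (s : S) (w : W) (v : V), ∃ i < D.m, ∀ g x h : S, g * x * h = s → ∀ z : S,
    D.F (g * z * h) (w - D.e i x + D.e i z) + D.act v (g * z * h) = D.F s w + D.act v s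
  n1 : ∀ t t' c c', (∀ k ∈ D.Ms, ¬ k ∣ t + t') → D.nmL t = some c → D.nmR t' = some c' → c = c'
  n2 : ∀ T c s, (∀ k ∈ D.Ms, ¬ k ∣ T) → s + D.M ≤ T + 1 →
    ∃ t, s ≤ t ∧ t < s + D.M ∧ t ≤ T ∧ D.nmL t = some c ∧ D.nmR (T - t) = some c
  n3 : ∀ t1 t1' t2 t2' c1 c1' c2 c2', t1 + t1' = t2 + t2' → (∃ k ∈ D.Ms, k ∣ t1 + t1') →
    D.nmL t1 = some c1 → D.nmR t1' = some c1' → D.nmL t2 = some c2 → D.nmR t2' = some c2' →
    (c1.2.2.2.2.2 = c2.2.2.2.2.2 ∧ D.bv c1' = D.bv c2')

/-! ### arithmetic -/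

theorem A_mono {i j : ℕ} (h : i ≤ j) : D.A i ≤ D.A j :=
  monotone_nat_of_le_succ (fun n => by have := D.hA n; omega) h

theorem AG_le {i j : ℕ} (h : i ≤ j) : D.A i + D.G i ≤ D.A j + D.G j := by
  rcases Nat.eq_or_lt_of_le h with rfl | h
  · exact le_rfl
  · have h1 := D.hA i
    have h2 := D.A_mono (show i + 1 ≤ j from h)
    omega

def beta (j T : ℕ) : ℕ := D.A j + (T - D.A j) % D.G j

theorem beta_ge (j T : ℕ) : D.A j ≤ D.beta j T := Nat.le_add_right _ _

theorem beta_lt (j T : ℕ) : D.beta j T < D.A j + D.G j := by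
  unfold beta
  have := Nat.mod_lt (T - D.A j) (D.hG j)
  omega

theorem beta_le_A (j T : ℕ) : D.beta j T ≤ D.A (j + 1) := by
  have h1 := D.beta_lt j T
  have h2 := D.hA j
  omega

theorem beta_le_succ (j T : ℕ) : D.beta j T ≤ D.beta (j + 1) T :=
  (D.beta_le_A j T).trans (D.beta_ge _ _)

theorem beta_modEq {j T T' : ℕ} (hT : D.A j ≤ T) (hT' : D.A j ≤ T')
    (h : T ≡ T' [MOD D.G j]) : D.beta j T = D.beta j T' := by
  unfold beta
  congr 1
  have h1 : D.A j + (T - D.A j) ≡ D.A j + (T' - D.A j) [MOD D.G j] := by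
    rw [Nat.add_sub_cancel' hT, Nat.add_sub_cancel' hT']; exact h
  exact Nat.ModEq.add_left_cancel' _ h1

theorem beta_tail {j T : ℕ} (hT : D.A j ≤ T) :
    T = D.beta j T + D.G j * ((T - D.A j) / D.G j) := by
  unfold beta
  have := Nat.mod_add_div (T - D.A j) (D.G j)
  omega

theorem nmL_mod {t t' : ℕ} (h : t ≡ t' [MOD D.M]) : D.nmL t = D.nmL t' := by
  have key : ∀ k r, D.nmL (r + D.M * k) = D.nmL r := by
    intro k
    induction k with
    | zero => intro r; simp
    | succ k ih => intro r; rw [Nat.mul_succ, ← Nat.add_assoc, D.perL, ih]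
  have e1 := key (t / D.M) (t % D.M)
  have e2 := key (t' / D.M) (t' % D.M)
  rw [Nat.mod_add_div] at e1 e2
  rw [e1, e2, show t % D.M = t' % D.M from h]

theorem nmR_mod {t t' : ℕ} (h : t ≡ t' [MOD D.M]) : D.nmR t = D.nmR t' := by
  have key : ∀ k r, D.nmR (r + D.M * k) = D.nmR r := by
    intro k
    induction k with
    | zero => intro r; simp
    | succ k ih => intro r; rw [Nat.mul_succ, ← Nat.add_assoc, D.perR, ih]
  have e1 := key (t / D.M) (t % D.M)
  have e2 := key (t' / D.M) (t' % D.M)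
  rw [Nat.mod_add_div] at e1 e2
  rw [e1, e2, show t % D.M = t' % D.M from h]

/-- colours, modulo `M` -/
theorem Ok.n3' (h : D.Ok) {t1 t1' t2 t2' : ℕ} {c1 c1' c2 c2' : Nm D.m S V W}
    (he : t1 + t1' ≡ t2 + t2' [MOD D.M]) (hb : ∃ k ∈ D.Ms, k ∣ t1 + t1')
    (h1 : D.nmL t1 = some c1) (h2 : D.nmR t1' = some c1') (h3 : D.nmL t2 = some c2)
    (h4 : D.nmR t2' = some c2') : c1.2.2.2.2.2 = c2.2.2.2.2.2 ∧ D.bv c1' = D.bv c2' := by
  -- shift both to a common total
  obtain ⟨k, hk, hd⟩ := hb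
  have hq : (t1 + t1') % D.M = (t2 + t2') % D.M := he
  set a := (t2 + t2') / D.M
  set b := (t1 + t1') / D.M
  have e1 := Nat.mod_add_div (t1 + t1') D.M
  have e2 := Nat.mod_add_div (t2 + t2') D.M
  refine h.n3 (t1 + D.M * a) t1' (t2 + D.M * b) t2' c1 c1' c2 c2' ?_ ⟨k, hk, ?_⟩ ?_ h2 ?_ h4
  · have : D.M * a = D.M * ((t2 + t2') / D.M) := rfl
    have : D.M * b = D.M * ((t1 + t1') / D.M) := rfl
    omega
  · have h5 : t1 + D.M * a + t1' = (t1 + t1') + D.M * a := by ring
    rw [h5]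
    exact hd.add ((D.hMs k hk).mul_right a)
  · rw [D.nmL_mod (t' := t1)]
    · exact h1
    · show (t1 + D.M * a) % D.M = t1 % D.M
      rw [Nat.add_mul_mod_self_left]
  · rw [D.nmL_mod (t' := t2)]
    · exact h3
    · show (t2 + D.M * b) % D.M = t2 % D.M
      rw [Nat.add_mul_mod_self_left]

/-! ### words -/

variable {α : Type u} (φ : List α → S)

def zz (j : ℕ) (Y : List α) : S :=
  φ ((Y.take (D.beta (j + 1) Y.length)).drop (D.beta j Y.length))
def gd (i : ℕ) (Y : List α) : S := φ (Y.take (D.beta i Y.length))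
def hd (i : ℕ) (Y : List α) : S := φ (Y.drop (D.beta (i + 1) Y.length))
def wl (i : ℕ) (Y : List α) : W := ∑ j ∈ range i, D.e j (D.zz φ j Y)
def wr (i : ℕ) (Y : List α) : W := ∑ j ∈ Ico (i + 1) D.m, D.e j (D.zz φ j Y)
def ww (Y : List α) : W := ∑ j ∈ range D.m, D.e j (D.zz φ j Y)

/-- the same data read from the right, cut place `x` -/
def zr (j x : ℕ) (Q : List α) : S :=
  φ ((Q.take (D.beta (j + 1) (x + Q.length) - x)).drop (D.beta j (x + Q.length) - x))
def hr (i x : ℕ) (Q : List α) : S := φ (Q.drop (D.beta (i + 1) (x + Q.length) - x))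
def wrr (i x : ℕ) (Q : List α) : W := ∑ j ∈ Ico (i + 1) D.m, D.e j (D.zr φ j x Q)

theorem ww_split (Y : List α) {i : ℕ} (hi : i < D.m) :
    D.ww φ Y = D.wl φ i Y + D.e i (D.zz φ i Y) + D.wr φ i Y := by
  unfold ww wl wr
  rw [← Finset.sum_range_succ, Finset.sum_range_add_sum_Ico _ (by omega)]

theorem fac (hφ : ∀ u v, φ (u ++ v) = φ u * φ v) (Y : List α) (i : ℕ) :
    D.gd φ i Y * D.zz φ i Y * D.hd φ i Y = φ Y := by
  unfold gd zz hd
  rw [← hφ, ← hφ]
  congr 1
  have h1 : Y.take (D.beta i Y.length) =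
      (Y.take (D.beta (i + 1) Y.length)).take (D.beta i Y.length) := by
    rw [List.take_take, min_eq_left (D.beta_le_succ _ _)]
  rw [h1, List.take_append_drop, List.take_append_drop]

theorem left_beta {i j : ℕ} (hj : j ≤ i) {P Q : List α} (hP : D.A i ≤ P.length)
    (hQ : D.G i ∣ Q.length) : D.beta j (P ++ Q).length = D.beta j P.length := by
  have h1 := D.A_mono hj
  refine D.beta_modEq (by rw [List.length_append]; omega) (by omega) ?_
  rw [List.length_append]
  show (P.length + Q.length) % D.G j = P.length % D.G j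
  obtain ⟨k, hk⟩ := (D.hdvd j i hj).trans hQ
  rw [hk, Nat.add_mul_mod_self_left]

theorem left_gd {i : ℕ} {P Q : List α} (hP : D.A i + D.G i ≤ P.length)
    (hQ : D.G i ∣ Q.length) : D.gd φ i (P ++ Q) = D.gd φ i P := by
  unfold gd
  rw [D.left_beta le_rfl (by omega) hQ, List.take_append_of_le_length]
  have := D.beta_lt i P.length
  omega

theorem left_wl {i : ℕ} {P Q : List α} (hP : D.A i + D.G i ≤ P.length)
    (hQ : D.G i ∣ Q.length) : D.wl φ i (P ++ Q) = D.wl φ i P := by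
  unfold wl
  refine Finset.sum_congr rfl fun j hj => ?_
  rw [Finset.mem_range] at hj
  congr 1
  unfold zz
  rw [D.left_beta (show j + 1 ≤ i from hj) (by omega) hQ, D.left_beta hj.le (by omega) hQ,
    List.take_append_of_le_length]
  have h1 := D.beta_lt (j + 1) P.length
  have h2 := D.AG_le (show j + 1 ≤ i from hj)
  omega

theorem drop_app {P Q : List α} {n : ℕ} (h : P.length ≤ n) :
    (P ++ Q).drop n = Q.drop (n - P.length) := by
  rw [List.drop_append, List.drop_eq_nil_of_le h, List.nil_append]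

theorem take_app {P Q : List α} {n : ℕ} (h : P.length ≤ n) :
    (P ++ Q).take n = P ++ Q.take (n - P.length) := by
  rw [List.take_append, List.take_of_length_le h]

theorem right_hd {i : ℕ} {P Q : List α} (hP : P.length ≤ D.A (i + 1)) :
    D.hd φ i (P ++ Q) = D.hr φ i P.length Q := by
  unfold hd hr
  rw [drop_app (hP.trans (D.beta_ge _ _)), List.length_append]

theorem right_zz {i j : ℕ} (hj : i + 1 ≤ j) {P Q : List α} (hP : P.length ≤ D.A (i + 1)) :
    D.zz φ j (P ++ Q) = D.zr φ j P.length Q := by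
  have h1 := D.A_mono hj
  have h2 := D.A_mono (show i + 1 ≤ j + 1 by omega)
  have h3 := D.beta_ge j (P.length + Q.length)
  have h4 := D.beta_ge (j + 1) (P.length + Q.length)
  unfold zz zr
  rw [List.length_append, take_app (by omega), drop_app (by omega)]

theorem right_wr {i : ℕ} {P Q : List α} (hP : P.length ≤ D.A (i + 1)) :
    D.wr φ i (P ++ Q) = D.wrr φ i P.length Q := by
  unfold wr wrr
  refine Finset.sum_congr rfl fun j hj => ?_
  rw [Finset.mem_Ico] at hj
  rw [D.right_zz φ hj.1 hP]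

/-- right boundaries do not depend on the place in the cell -/
theorem right_beta {i j x x' q T : ℕ} (hj : i + 1 ≤ j) (hx : D.A i + D.G i ≤ x)
    (hx' : x < D.A i + D.G i + D.M * D.G i) (hy : D.A i + D.G i ≤ x')
    (hy' : x' < D.A i + D.G i + D.M * D.G i) (hT : x' + q = T) (hAT : D.A j + D.M * D.G i ≤ T)
    (h1 : D.M * D.G i ≤ (T - D.A j) % D.G j)
    (h2 : (T - D.A j) % D.G j + D.M * D.G i ≤ D.G j) :
    D.beta j (x + q) - x = D.beta j (x' + q) - x' := by
  have hG := D.hG j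
  have hAi := D.hA i
  have hAj := D.A_mono hj
  have e1 := D.beta_tail (j := j) (T := x' + q) (by omega)
  have e2 := D.beta_tail (j := j) (T := x + q) (by omega)
  have b1 := D.beta_ge j (x + q)
  have b2 := D.beta_ge j (x' + q)
  have key : (x + q - D.A j) / D.G j = (x' + q - D.A j) / D.G j := by
    set u := x' + q - D.A j with hu
    have hTu : T - D.A j = u := by omega
    rw [hTu] at h1 h2
    have hdm := Nat.mod_add_div u (D.G j)
    have hlt := Nat.mod_lt u hG
    set r := u % D.G j with hr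
    set k := u / D.G j with hk
    apply Nat.div_eq_of_lt_le
    · rw [Nat.mul_comm]; omega
    · rw [Nat.succ_mul, Nat.mul_comm]; omega
  rw [key] at e2
  omega

/-- left-legal -/
def LL (c : Nm D.m S V W) (P : List α) : Prop :=
  D.used c ∧ D.A c.1 + D.G c.1 ≤ P.length ∧ P.length < D.A c.1 + D.G c.1 + D.M * D.G c.1 ∧
    D.nmL P.length = some c ∧ D.gd φ c.1 P = c.2.1 ∧ D.wl φ c.1 P = c.2.2.1

/-- right-legal -/
def RR (c : Nm D.m S V W) (Q : List α) : Prop :=
  D.used c ∧ D.G c.1 ∣ Q.length ∧ D.nmR Q.length = some c ∧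
    ∀ x, D.A c.1 + D.G c.1 ≤ x → x < D.A c.1 + D.G c.1 + D.M * D.G c.1 →
      D.hr φ c.1 x Q = c.2.2.2.1 ∧ D.wrr φ c.1 x Q = c.2.2.2.2.1

def TG (T : ℕ) : Prop := ∀ k ∈ D.Ms, ¬ k ∣ T

def Pair (T : ℕ) (cc : Nm D.m S V W × Nm D.m S V W) : Prop :=
  ∃ t t', D.nmL t = some cc.1 ∧ D.nmR t' = some cc.2 ∧ t + t' ≡ T [MOD D.M]

open Classical in
/-- the noise for bad totals -/
noncomputable def nb (p : Nm D.m S V W × Nm D.m S V W → Prop) (s : S) : V :=
  if h : ∃ cc, p cc then D.bv h.choose.2 - D.act h.choose.1.2.2.2.2.2 s else 0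

open Classical in
/-- the noise -/
noncomputable def nu (Y : List α) : V :=
  if D.TG Y.length then D.F (φ Y) (D.ww φ Y) else D.nb (D.Pair Y.length) (φ Y)

theorem sound (hφ : ∀ u v, φ (u ++ v) = φ u * φ v) (h : D.Ok) {c c' : Nm D.m S V W}
    {P Q : List α} (hP : D.LL φ c P) (hQ : D.RR φ c' Q) :
    D.bv c' = D.act c.2.2.2.2.2 (φ (P ++ Q)) + D.nu φ (P ++ Q) := by
  obtain ⟨hu, hp1, hp2, hnm, hg, hw⟩ := hP
  obtain ⟨hu', hq1, hnm', hdat⟩ := hQ
  by_cases ht : D.TG (P.length + Q.length)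
  · have hcc : c = c' := h.n1 _ _ _ _ ht hnm hnm'
    subst hcc
    have hA := D.hA c.1
    obtain ⟨e3, e4⟩ := hdat P.length hp1 hp2
    rw [← D.right_hd φ (by omega)] at e3
    rw [← D.right_wr φ (by omega)] at e4
    rw [← D.left_gd φ hp1 hq1] at hg
    rw [← D.left_wl φ hp1 hq1] at hw
    have h1 := hu (D.zz φ c.1 (P ++ Q))
    unfold val at h1
    rw [← hg, ← e3, D.fac φ hφ, ← hw, ← e4, ← D.ww_split φ _ c.1.2] at h1
    unfold nu
    rw [if_pos (by rw [List.length_append]; exact ht), ← h1, add_comm]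
  · have hex : ∃ cc, D.Pair (P ++ Q).length cc :=
      ⟨(c, c'), P.length, Q.length, hnm, hnm', by rw [List.length_append]⟩
    unfold nu
    rw [if_neg (by rw [List.length_append]; exact ht)]
    unfold nb
    rw [dif_pos hex]
    obtain ⟨t, t', g1, g2, g3⟩ := hex.choose_spec
    have hb : ∃ k ∈ D.Ms, k ∣ P.length + Q.length := by
      unfold TG at ht
      push Not at ht
      exact ht
    rw [List.length_append] at g3
    obtain ⟨k1, k2⟩ := Ok.n3' D h g3.symm hb hnm hnm' g1 g2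
    rw [← k1, ← k2]
    abel

/-- the grids are good at the total `T` -/
def GridOk (T : ℕ) : Prop :=
  ∀ i, i < D.m → ∀ j, i + 1 ≤ j → j ≤ D.m → D.M * D.G i ≤ (T - D.A j) % D.G j ∧
    (T - D.A j) % D.G j + D.M * D.G i ≤ D.G j

theorem complete (hφ : ∀ u v, φ (u ++ v) = φ u * φ v) (h : D.Ok) {Y : List α}
    (hY : D.A (D.m + 1) ≤ Y.length) (hT : D.TG Y.length) (hg : D.GridOk Y.length) (v : V) :
    ∃ P Q, P ++ Q = Y ∧ ∃ c : Nm D.m S V W, c.2.2.2.2.2 = v ∧ D.LL φ c P ∧ D.RR φ c Q := by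
  obtain ⟨i, hi, hF⟩ := h.good (φ Y) (D.ww φ Y) v
  let c : Nm D.m S V W := (⟨i, hi⟩, D.gd φ i Y, D.wl φ i Y, D.hd φ i Y, D.wr φ i Y, v)
  have hused : D.used c := by
    have h1 : ∀ z, D.val c z = D.F (φ Y) (D.ww φ Y) + D.act v (φ Y) := by
      intro z
      have h2 := hF (D.gd φ i Y) (D.zz φ i Y) (D.hd φ i Y) (D.fac φ hφ Y i) z
      have h3 : D.ww φ Y - D.e i (D.zz φ i Y) + D.e i z =
          D.wl φ i Y + D.e i z + D.wr φ i Y := by
        rw [D.ww_split φ Y hi]; abel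
      rw [h3] at h2
      exact h2
    intro z
    unfold bv
    rw [h1, h1]
  have hAm : D.A (i + 1) ≤ D.A (D.m + 1) := D.A_mono (by omega)
  have hAi := D.hA i
  have hGi := D.hG i
  obtain ⟨t, -, -, ht1, ht2, ht3⟩ := h.n2 Y.length c 0 hT (by
    have : D.M * 1 ≤ D.M * D.G i := Nat.mul_le_mul_left _ hGi
    omega)
  obtain ⟨x, hx1, hx2, hx3, hx4⟩ := crt D.M (D.G i) (D.A i + D.G i) t Y.length D.hM (D.hG i)
    (D.hcop i)
  have hxY : x ≤ Y.length := by omega
  refine ⟨Y.take x, Y.drop x, List.take_append_drop _ _, c, rfl, ?_, ?_⟩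
  · have hlen : (Y.take x).length = x := by rw [List.length_take]; omega
    have hdv : D.G i ∣ (Y.drop x).length := by
      rw [List.length_drop]
      exact (Nat.modEq_iff_dvd' hxY).1 hx4
    refine ⟨hused, by rw [hlen]; exact hx1, by rw [hlen]; exact hx2, ?_, ?_, ?_⟩
    · rw [hlen, D.nmL_mod hx3]; exact ht2
    · rw [← D.left_gd φ (Q := Y.drop x) (by rw [hlen]; exact hx1) hdv, List.take_append_drop]
    · rw [← D.left_wl φ (Q := Y.drop x) (by rw [hlen]; exact hx1) hdv, List.take_append_drop]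
  · have hlen : (Y.take x).length = x := by rw [List.length_take]; omega
    have hdl : (Y.drop x).length = Y.length - x := List.length_drop
    have hdv : D.G i ∣ (Y.drop x).length := by
      rw [hdl]
      exact (Nat.modEq_iff_dvd' hxY).1 hx4
    have hbeta : ∀ y, D.A i + D.G i ≤ y → y < D.A i + D.G i + D.M * D.G i → ∀ j, i + 1 ≤ j →
        j ≤ D.m → D.beta j (y + (Y.drop x).length) - y = D.beta j (x + (Y.drop x).length) - x := by
      intro y hy1 hy2 j hj1 hj2
      obtain ⟨q1, q2⟩ := hg i hi j hj1 hj2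
      have hAj : D.A j + D.M * D.G i ≤ D.A (D.m + 1) := by
        have h1 := D.hA j
        have h2 : D.A (j + 1) ≤ D.A (D.m + 1) := D.A_mono (by omega)
        have h3 : D.M * D.G i ≤ D.M * D.G j :=
          Nat.mul_le_mul_left _ (Nat.le_of_dvd (D.hG j) (D.hdvd i j (by omega)))
        omega
      exact D.right_beta (T := Y.length) hj1 hy1 hy2 hx1 hx2 (by omega) (by omega) q1 q2
    refine ⟨hused, hdv, ?_, ?_⟩
    · rw [hdl, ← ht3]
      apply D.nmR_mod
      have h1 : x + (Y.length - x) ≡ t + (Y.length - t) [MOD D.M] := by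
        rw [Nat.add_sub_cancel' hxY, Nat.add_sub_cancel' ht1]
      exact Nat.ModEq.add_left_cancel hx3 h1
    · intro y hy1 hy2
      have hb1 : D.hr φ i y (Y.drop x) = D.hr φ i x (Y.drop x) := by
        unfold hr
        rw [hbeta y hy1 hy2 (i + 1) le_rfl (by omega)]
      have hb2 : D.wrr φ i y (Y.drop x) = D.wrr φ i x (Y.drop x) := by
        unfold wrr
        refine Finset.sum_congr rfl fun j hj => ?_
        rw [Finset.mem_Ico] at hj
        unfold zr
        rw [hbeta y hy1 hy2 (j + 1) (by omega) (by omega), hbeta y hy1 hy2 j (by omega) (by omega)]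
      have hPl : (Y.take x).length ≤ D.A (i + 1) := by rw [hlen]; omega
      have e1 := D.right_hd φ (i := i) (P := Y.take x) (Q := Y.drop x) hPl
      have e2 := D.right_wr φ (i := i) (P := Y.take x) (Q := Y.drop x) hPl
      rw [List.take_append_drop, hlen] at e1 e2
      exact ⟨hb1.trans e1.symm, hb2.trans e2.symm⟩

/-! ### locality -/

theorem drop_loc {La b : ℕ} {q q2 : List α} (hφ : ∀ u v, φ (u ++ v) = φ u * φ v)
    (hb : b ≤ La) (hq : La ≤ q.length) (hq2 : La ≤ q2.length) (ht : q.take La = q2.take La)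
    (hd : φ (q.drop La) = φ (q2.drop La)) : φ (q.drop b) = φ (q2.drop b) := by
  have key : ∀ w : List α, La ≤ w.length → w.drop b = (w.take La).drop b ++ w.drop La := by
    intro w hw
    conv_lhs => rw [← List.take_append_drop La w]
    rw [List.drop_append_of_le_length (by rw [List.length_take]; omega)]
  rw [key q hq, key q2 hq2, hφ, hφ, ht, hd]

theorem seg_loc {La a b : ℕ} {q q2 : List α} (hb : b ≤ La) (ht : q.take La = q2.take La) :
    (q.take b).drop a = (q2.take b).drop a := by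
  have h1 : q.take b = (q.take La).take b := by rw [List.take_take, min_eq_left hb]
  have h2 : q2.take b = (q2.take La).take b := by rw [List.take_take, min_eq_left hb]
  rw [h1, h2, ht]

theorem beta_loc {j x : ℕ} {q q2 : List α} (hj : j ≤ D.m) (hq : D.A (D.m + 1) ≤ q.length)
    (hq2 : D.A (D.m + 1) ≤ q2.length) (hm : q.length ≡ q2.length [MOD D.M * D.G D.m]) :
    D.beta j (x + q.length) = D.beta j (x + q2.length) := by
  have hA := D.A_mono (show j ≤ D.m + 1 by omega)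
  refine D.beta_modEq (by omega) (by omega) (Nat.ModEq.add_left x ?_)
  exact (hm.of_mul_left D.M).of_dvd (D.hdvd j D.m hj)

theorem beta_le_La {j T : ℕ} (hj : j ≤ D.m) : D.beta j T ≤ D.A (D.m + 1) :=
  (D.beta_le_A j T).trans (D.A_mono (by omega))

theorem rr_loc (hφ : ∀ u v, φ (u ++ v) = φ u * φ v) {q q2 : List α}
    (hq : D.A (D.m + 1) ≤ q.length) (hq2 : D.A (D.m + 1) ≤ q2.length)
    (ht : q.take (D.A (D.m + 1)) = q2.take (D.A (D.m + 1)))
    (hm : q.length ≡ q2.length [MOD D.M * D.G D.m])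
    (hd : φ (q.drop (D.A (D.m + 1))) = φ (q2.drop (D.A (D.m + 1)))) (c : Nm D.m S V W)
    (h : D.RR φ c q) : D.RR φ c q2 := by
  obtain ⟨h1, h2, h3, h4⟩ := h
  have hmG : q.length ≡ q2.length [MOD D.G c.1] :=
    (hm.of_mul_left D.M).of_dvd (D.hdvd _ _ c.1.2.le)
  refine ⟨h1, ?_, ?_, ?_⟩
  · exact (hmG.dvd_iff dvd_rfl).1 h2
  · rw [← D.nmR_mod (hm.of_mul_right _)]; exact h3
  · intro x hx1 hx2
    obtain ⟨h5, h6⟩ := h4 x hx1 hx2
    have hi := c.1.2
    constructor
    · rw [← h5]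
      unfold hr
      rw [D.beta_loc (q := q) (q2 := q2) (show (c.1 : ℕ) + 1 ≤ D.m from hi) hq hq2 hm]
      exact (drop_loc φ hφ (le_trans (Nat.sub_le _ _) (D.beta_le_La hi)) hq hq2 ht hd).symm
    · rw [← h6]
      unfold wrr
      refine Finset.sum_congr rfl fun j hj => ?_
      rw [Finset.mem_Ico] at hj
      unfold zr
      rw [D.beta_loc (q := q) (q2 := q2) (show j + 1 ≤ D.m from hj.2) hq hq2 hm,
        D.beta_loc (q := q) (q2 := q2) (show j ≤ D.m from hj.2.le) hq hq2 hm]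
      rw [seg_loc (La := D.A (D.m + 1)) (q := q) (q2 := q2)
        (le_trans (Nat.sub_le _ _) (D.beta_le_La hj.2)) ht]

theorem nu_loc (hφ : ∀ u v, φ (u ++ v) = φ u * φ v) {q q2 : List α}
    (hq : D.A (D.m + 1) ≤ q.length) (hq2 : D.A (D.m + 1) ≤ q2.length)
    (ht : q.take (D.A (D.m + 1)) = q2.take (D.A (D.m + 1)))
    (hm : q.length ≡ q2.length [MOD D.M * D.G D.m])
    (hd : φ (q.drop (D.A (D.m + 1))) = φ (q2.drop (D.A (D.m + 1)))) : D.nu φ q = D.nu φ q2 := by
  have hφq : φ q = φ q2 := by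
    have := drop_loc φ (b := 0) hφ (Nat.zero_le _) hq hq2 ht hd
    simpa using this
  have hM : q.length ≡ q2.length [MOD D.M] := hm.of_mul_right _
  have hTG : D.TG q.length ↔ D.TG q2.length := by
    unfold TG
    refine forall_congr' fun k => forall_congr' fun hk => not_congr ?_
    exact (hM.of_dvd (D.hMs k hk)).dvd_iff dvd_rfl
  have hP : D.Pair q.length = D.Pair q2.length := by
    funext cc
    unfold Pair
    apply propext
    constructor
    · rintro ⟨t, t', a, b, c⟩; exact ⟨t, t', a, b, c.trans hM⟩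
    · rintro ⟨t, t', a, b, c⟩; exact ⟨t, t', a, b, c.trans hM.symm⟩
  have hww : D.ww φ q = D.ww φ q2 := by
    unfold ww
    refine Finset.sum_congr rfl fun j hj => ?_
    rw [Finset.mem_range] at hj
    unfold zz
    have b1 := D.beta_loc (x := 0) (q := q) (q2 := q2) (show j + 1 ≤ D.m from hj) hq hq2 hm
    have b2 := D.beta_loc (x := 0) (q := q) (q2 := q2) (show j ≤ D.m from hj.le) hq hq2 hm
    rw [Nat.zero_add, Nat.zero_add] at b1 b2
    rw [b1, b2, seg_loc (La := D.A (D.m + 1)) (q := q) (q2 := q2) (D.beta_le_La hj) ht]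
  unfold nu
  rw [hww, hφq]
  by_cases h : D.TG q2.length
  · rw [if_pos h, if_pos (hTG.2 h)]
  · rw [if_neg h, if_neg (fun h' => h (hTG.1 h')), hP]

end Dat

open Classical in
noncomputable def ch {N V : Type*} (p : N → Prop) (f : N → V) : Option V :=
  if h : ∃ c, p c then some (f h.choose) else none

theorem ch_some {N V : Type*} {p : N → Prop} {f : N → V} {v : V} (h : ch p f = some v) :
    ∃ c, p c ∧ f c = v := by
  unfold ch at h
  split_ifs at h with hc
  exact ⟨_, hc.choose_spec, Option.some.inj h⟩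

theorem ch_eq {N V : Type*} {p : N → Prop} (f : N → V) (hu : ∀ c c', p c → p c' → c = c') {c : N}
    (h : p c) : ch p f = some (f c) := by
  unfold ch
  rw [dif_pos ⟨c, h⟩, hu _ _ (⟨c, h⟩ : ∃ c, p c).choose_spec h]

/-- **The grid gadget, closed form.** -/
theorem gadget (S V : Type*) [Monoid S] [Fintype S] [AddCommGroup V] [Fintype V]
    (act : V → S → V) :
    ∃ m r : ℕ, ∀ B : ℕ, ∃ Ms : Finset ℕ, Ms.card ≤ r ∧ (∀ p ∈ Ms, p.Prime ∧ B < p) ∧
      ∀ G A : ℕ → ℕ, (∀ j, 0 < G j) → (∀ i j, i ≤ j → G i ∣ G j) →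
      (∀ i, Nat.Coprime (∏ p ∈ Ms, p) (G i)) →
      (∀ i, A i + G i + (∏ p ∈ Ms, p) * G i ≤ A (i + 1)) →
      ∀ (α : Type u) (φ : List α → S), (∀ u v, φ (u ++ v) = φ u * φ v) →
      ∃ (lam rho : List α → Option V) (nu : List α → V),
        (∀ P v, lam P = some v → 0 < P.length ∧ P.length < A m) ∧
        (∀ P Q v b, lam P = some v → rho Q = some b → b = act v (φ (P ++ Q)) + nu (P ++ Q)) ∧
        (∀ Y : List α, A (m + 1) ≤ Y.length → (∀ p ∈ Ms, ¬ p ∣ Y.length) →
          (∀ j < m, (∏ p ∈ Ms, p) * G j ≤ (Y.length - A (j + 1)) % G (j + 1) ∧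
            (Y.length - A (j + 1)) % G (j + 1) + (∏ p ∈ Ms, p) * G j ≤ G (j + 1)) →
          ∀ v, ∃ P Q, P ++ Q = Y ∧ lam P = some v ∧ (rho Q).isSome) ∧
        (∀ q q2 : List α, A (m + 1) ≤ q.length → A (m + 1) ≤ q2.length →
          q.take (A (m + 1)) = q2.take (A (m + 1)) →
          q.length ≡ q2.length [MOD (∏ p ∈ Ms, p) * G m] →
          φ (q.drop (A (m + 1))) = φ (q2.drop (A (m + 1))) → rho q = rho q2 ∧ nu q = nu q2) := by
  obtain ⟨m, N, e, F, hN, hF⟩ := RandF808.exists_noise S V act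
  have : NeZero N := ⟨hN.ne'⟩
  let W := ZMod N × ZMod N
  let bv : Nm m S V W → V := fun c =>
    F (c.2.1 * 1 * c.2.2.2.1) (c.2.2.1 + e c.1 1 + c.2.2.2.2.1) +
      act c.2.2.2.2.2 (c.2.1 * 1 * c.2.2.2.1)
  let col : Nm m S V W → V × V := fun c => (c.2.2.2.2.2, bv c)
  obtain ⟨r, hr⟩ := Names_570.exists_names col
  refine ⟨m, r, fun B => ?_⟩
  obtain ⟨Ms, nmL, nmR, hcard, hprime, hpL, hpR, hN1, hN2, hN3⟩ := hr B
  refine ⟨Ms, hcard, hprime, ?_⟩
  intro G A hG hdvd hcop hA α φ hφ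
  have hMpos : 0 < ∏ p ∈ Ms, p := Finset.prod_pos fun p hp => (hprime p hp).1.pos
  let D : Dat S V W :=
    { m := m, e := e, F := F, act := act, G := G, A := A, M := ∏ p ∈ Ms, p, Ms := Ms,
      nmL := nmL, nmR := nmR, hG := hG, hdvd := hdvd, hM := hMpos,
      hMs := fun k hk => Finset.dvd_prod_of_mem _ hk, hcop := hcop, hA := hA,
      perL := hpL, perR := hpR }
  have hbv : ∀ c : Nm m S V W, D.bv c = bv c := fun c => rfl
  have hOk : D.Ok :=
    { good := hF
      n1 := hN1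
      n2 := fun T c s h1 h2 => hN2 T c s h1 h2
      n3 := by
        intro t1 t1' t2 t2' c1 c1' c2 c2' h1 h2 h3 h4 h5 h6
        rcases hN3 t1 t1' t2 t2' c1 c1' c2 c2' h1 h2 h3 h4 h5 h6 with ⟨h7, h8⟩ | ⟨h7, h8, hc⟩
        · rw [h7, h8]; exact ⟨rfl, rfl⟩
        · have hc1 : c1.2.2.2.2.2 = c1'.2.2.2.2.2 := congrArg Prod.fst hc
          have hc2 : bv c1 = bv c1' := congrArg Prod.snd hc
          rw [← h8, ← h7]
          exact ⟨hc1, hc2.symm⟩ }
  refine ⟨fun P => ch (fun c => D.LL φ c P) (fun c => c.2.2.2.2.2),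
    fun Q => ch (fun c => D.RR φ c Q) D.bv, D.nu φ, ?_, ?_, ?_, ?_⟩
  · intro P v h
    obtain ⟨c, ⟨-, h1, h2, -⟩, -⟩ := ch_some h
    have h3 : D.A (c.1 + 1) ≤ D.A D.m := D.A_mono c.1.2
    have h4 := D.hA c.1
    have h5 := D.hG c.1
    have h6 : D.A D.m = A m := rfl
    exact ⟨by omega, by omega⟩
  · intro P Q v b hP hQ
    obtain ⟨c, hc, rfl⟩ := ch_some hP
    obtain ⟨c', hc', rfl⟩ := ch_some hQ
    exact D.sound φ hφ hOk hc hc'
  · intro Y hY hT hgr v
    have hgr' : D.GridOk Y.length := by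
      intro i hi j hj1 hj2
      obtain ⟨k, rfl⟩ : ∃ k, j = k + 1 := ⟨j - 1, by omega⟩
      obtain ⟨g1, g2⟩ := hgr k (by have : D.m = m := rfl; omega)
      have hle : D.M * D.G i ≤ (∏ p ∈ Ms, p) * G k :=
        Nat.mul_le_mul_left _ (Nat.le_of_dvd (hG k) (hdvd i k (by omega)))
      exact ⟨hle.trans g1, by
        have : (Y.length - D.A (k + 1)) % D.G (k + 1) + (∏ p ∈ Ms, p) * G k ≤ D.G (k + 1) := g2
        omega⟩
    obtain ⟨P, Q, hPQ, c, hv, hL, hR⟩ := D.complete φ hφ hOk (Y := Y) hY hT hgr' v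
    refine ⟨P, Q, hPQ, ?_, ?_⟩
    · rw [← hv]
      refine ch_eq (fun c : Nm m S V W => c.2.2.2.2.2) ?_ hL
      intro c c' h1 h2
      exact Option.some.inj (h1.2.2.2.1.symm.trans h2.2.2.2.1)
    · have : ch (fun c => D.RR φ c Q) D.bv = some (D.bv c) := by
        refine ch_eq D.bv ?_ hR
        intro c c' h1 h2
        exact Option.some.inj (h1.2.2.1.symm.trans h2.2.2.1)
      show (ch (fun c => D.RR φ c Q) D.bv).isSome = true
      rw [this]
      rfl
  · intro q q2 hq hq2 ht hm hd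
    refine ⟨?_, D.nu_loc φ hφ hq hq2 ht hm hd⟩
    have : (fun c => D.RR φ c q) = (fun c => D.RR φ c q2) := by
      funext c
      exact propext ⟨D.rr_loc φ hφ hq hq2 ht hm hd c, D.rr_loc φ hφ hq2 hq ht.symm hm.symm hd.symm c⟩
    show ch (fun c => D.RR φ c q) D.bv = ch (fun c => D.RR φ c q2) D.bv
    rw [this]

end Crest.Agent.R320.Grid_502
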