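import Crest.Agent.R320.Asm_298
import Crest.Agent.R320.Grid_502
import Crest.Agent.R320.Bridge_975
import Crest.Agent.R320.Univ_234

/-!
# Row 320: the grid gadget (502) in the form of `Asm_298.GadHyp`, and the end of the proof
(helper298)
-/

set_option autoImplicit false

namespace Crest.Agent.R320.Gad_298

open Crest.RegLang Crest.Agent.R320.Hk_851 Crest.Agent.R320.Asm_298

theorem gadHyp {A S V : Type} [Finite A] [Monoid S] [Finite S] [AddCommGroup V] [Finite V]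
    (f : A → S) (act : V → S → V) : GadHyp f act := by
  classical
  have := Fintype.ofFinite S
  have := Fintype.ofFinite V
  obtain ⟨m, r, h⟩ := Grid_502.gadget S V act
  refine ⟨m, r, fun B => ?_⟩
  obtain ⟨Ms, hcard, hMs, h⟩ := h B
  have hM0 : 0 < ∏ p ∈ Ms, p := Finset.prod_pos fun p hp => (hMs p hp).1.pos
  refine ⟨Ms, ∏ p ∈ Ms, p, hcard, fun q hq => ⟨(hMs q hq).2, Finset.dvd_prod_of_mem _ hq⟩, hM0,
    fun Γ hΓ hcop => ?_⟩
  set M := ∏ p ∈ Ms, p with hMdef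
  have hΓ0 : 0 < Γ := by omega
  obtain ⟨lam, rho, nu, h1, h2, h3, h4⟩ := h (fun j => Γ ^ (j + 1)) (fun j => Γ ^ (j + 1))
    (fun j => Nat.pow_pos hΓ0) (fun i j hij => pow_dvd_pow _ (by omega))
    (fun i => Nat.Coprime.pow_right _ hcop)
    (fun i => by
      show Γ ^ (i + 1) + Γ ^ (i + 1) + M * Γ ^ (i + 1) ≤ Γ ^ (i + 1 + 1)
      have e : Γ ^ (i + 1 + 1) = Γ * Γ ^ (i + 1) := by ring
      have e2 : Γ ^ (i + 1) + Γ ^ (i + 1) + M * Γ ^ (i + 1) = (M + 2) * Γ ^ (i + 1) := by ring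
      rw [e, e2]
      exact Nat.mul_le_mul_right _ hΓ)
    A (fun w => (w.map f).prod) (fun u v => by rw [List.map_append, List.prod_append])
  have hle : Γ ^ (m + 1) ≤ Γ ^ (m + 1 + 1) := Nat.pow_le_pow_right hΓ0 (Nat.le_succ _)
  refine ⟨lam, rho, nu, Γ ^ (m + 1 + 1), ?_, ?_, ?_, ?_⟩
  · intro P v hP
    have := (h1 P v hP).2
    exact lt_of_lt_of_le this hle
  · intro P Q v b hP hQ
    exact h2 P Q v b hP hQ
  · intro u hu hq hj v
    have hu1 : Γ ^ (m + 1 + 1) ≤ u.length := by omega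
    obtain ⟨P, Q, e, hl, hr⟩ := h3 u hu1 hq (fun j hjm => by
      have hge : Γ ^ (j + 1 + 1) ≤ u.length :=
        (Nat.pow_le_pow_right hΓ0 (by omega)).trans hu1
      have e1 : (u.length - Γ ^ (j + 1 + 1)) % Γ ^ (j + 1 + 1) = u.length % Γ ^ (j + 1 + 1) := by
        rw [Nat.mod_eq_sub_mod hge]
      have h5 := hj (j + 1) (by omega) (by omega)
      show M * Γ ^ (j + 1) ≤ (u.length - Γ ^ (j + 1 + 1)) % Γ ^ (j + 1 + 1) ∧
        (u.length - Γ ^ (j + 1 + 1)) % Γ ^ (j + 1 + 1) + M * Γ ^ (j + 1) ≤ Γ ^ (j + 1 + 1)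
      rw [e1]
      exact ⟨h5.1.le, h5.2.le⟩) v
    exact ⟨P, Q, e.symm, hl, hr⟩
  · intro y
    refine Bridge_975.reg_of_local f (Γ ^ (m + 1 + 1)) (M * Γ ^ (m + 1))
      (Nat.mul_pos hM0 (Nat.pow_pos hΓ0)) (fun Y => nu Y = y) ?_
    intro q q2 hq hq2 ht hl hp
    have := (h4 q q2 hq hq2 ht hl hp).2
    show nu q = y ↔ nu q2 = y
    rw [this]

/-- all fibres of all finite monoids over all finite alphabets (in `Type`) have height `≤ 3` -/
theorem fin (A : Type) [Finite A] (S : Type) [Monoid S] [Finite S] (f : A → S) (s : S) :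
    HL 3 ({w | (w.map f).prod = s} : Language A) := by
  obtain ⟨act, hadd, hone, hmul, hfaith⟩ := Blk467.exists_module S
  exact asm f act hadd hone hmul hfaith (gadHyp f act) s

/-- **the row** -/
theorem row {α : Type*} [Finite α] (L : Language α) (hL : L.IsRegular) :
    ∃ e : GRegExp α, e.height ≤ 3 ∧ e.lang = L :=
  Univ_234.of_type_monoid (k := 3) (fun A _ S _ _ f s => fin A S f s) L hL

end Crest.Agent.R320.Gad_298
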