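import Crest.Agent.R320.G1_604
import Crest.Agent.R320.Sp_314

/-!
Row 320: gadget 1 (G1_604) with its ruler (Sp_314), in the forms asked for by the joins
`Fin_211` (`Gad`) and `Fin_963` (`Gad1`).
-/

set_option autoImplicit false

namespace Crest.Agent.R320.Gad314

open Finset

variable {S V : Type}

theorem bad_periodic {Ms : Finset ℕ} {M m b : ℕ} (hb : 0 < b) (hMs : ∀ k ∈ Ms, k ∣ M) (n : ℕ) :
    Sp314.Bad Ms M m b (n + M * b ^ m) ↔ Sp314.Bad Ms M m b n := by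
  have hd : ∀ j < m, (n + M * b ^ m) / b ^ j % b = n / b ^ j % b := by
    intro j hj
    obtain ⟨t, rfl⟩ : ∃ t, m = j + 1 + t := ⟨m - (j + 1), by omega⟩
    have e : n + M * b ^ (j + 1 + t) = n + b ^ j * (b * (M * b ^ t)) := by
      rw [pow_add, pow_succ]; ring
    rw [e, Nat.add_mul_div_left _ _ (by positivity), Nat.add_mul_mod_self_left]
  unfold Sp314.Bad
  refine or_congr ?_ ?_
  · constructor
    · rintro ⟨k, hk, h⟩
      exact ⟨k, hk, (Nat.dvd_add_left ((hMs k hk).mul_right _)).1 h⟩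
    · rintro ⟨k, hk, h⟩
      exact ⟨k, hk, (Nat.dvd_add_left ((hMs k hk).mul_right _)).2 h⟩
  · constructor
    · rintro ⟨j, hj, h⟩
      rw [hd j hj] at h
      exact ⟨j, hj, h⟩
    · rintro ⟨j, hj, h⟩
      refine ⟨j, hj, ?_⟩
      rw [hd j hj]
      exact h

/-- gadget 1 with its ruler -/
theorem base [Monoid S] [Finite S] [AddCommGroup V] [Finite V] (act : V → S → V) :
    ∃ R1 : ℕ, ∀ K : ℕ, ∃ (N1 M : ℕ) (BadT : ℕ → Prop) (c : ℕ → ℕ), 0 < M ∧ 0 < N1 ∧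
      StrictMono c ∧
      (∀ i i' j j', i' ≠ i → j' ≠ j → c i + c j' < c j + c i' + 2 * N1 →
        c j + c i' < c i + c j' + 2 * N1 → i = j) ∧
      (∀ T, (∀ k, k < K → c k ≤ T) → ∃ P : Finset (ℕ × ℕ), P.card ≤ R1 ∧
        ∀ i < K, ∀ j < K, i ≠ j → BadT (T + c j - c i) → (i, j) ∈ P) ∧
      (∀ T, BadT (T + M) ↔ BadT T) ∧
      ∀ (α : Type) (f : α → S), ∃ (lam rho : List α → Option V) (nu1 : List α → V),
        (∀ P Q v r, lam P = some v → rho Q = some r →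
          r = act v ((P ++ Q).map f).prod + nu1 (P ++ Q)) ∧
        (∀ P v, lam P = some v → P.length ≤ N1) ∧
        (∀ Y, ¬ BadT Y.length → ∀ v, ∃ P Q, Y = P ++ Q ∧ lam P = some v ∧ (rho Q).isSome) ∧
        (∀ Y Y', N1 ≤ Y.length → N1 ≤ Y'.length → Y.take N1 = Y'.take N1 →
          Y.length % M = Y'.length % M → ((Y.drop N1).map f).prod = ((Y'.drop N1).map f).prod →
          rho Y = rho Y' ∧ nu1 Y = nu1 Y') := by
  classical
  obtain ⟨m, r, hg⟩ := G1_604.g1 S V act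
  refine ⟨r + m, fun K => ?_⟩
  obtain ⟨Ms, M, hcard, hMs, hM, hg⟩ := hg (2 ^ (K + 1))
  set b := (2 ^ (K + 5) + 8) * M + 1 with hb
  have hb1 : 2 ^ (K + 5) * M ≤ b := by rw [hb, add_mul]; omega
  have hcop : Nat.Coprime b M := by
    rw [hb]
    simp [Nat.coprime_mul_left_add_left]
  have hb4 : 4 * M + 4 < b := by
    have h32 : 32 ≤ 2 ^ (K + 5) := by
      calc 32 = 2 ^ 5 := by norm_num
        _ ≤ 2 ^ (K + 5) := Nat.pow_le_pow_right (by norm_num) (by omega)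
    have : 40 * M ≤ (2 ^ (K + 5) + 8) * M := Nat.mul_le_mul_right _ (by omega)
    omega
  have hb0 : 0 < b := by omega
  obtain ⟨c, hmono, -, -, -, hgol, -, hsp⟩ := Sp314.spoil K (b ^ m) m M b Ms hM
    (fun k hk => ⟨(hMs k hk).1, (hMs k hk).2.2⟩) hcop hb1
  refine ⟨b ^ m, M * b ^ m, Sp314.Bad Ms M m b, c, by positivity, by positivity, hmono, ?_, ?_,
    ?_, ?_⟩
  · intro i i' j j' hi hj h1 h2
    refine (hgol i i' j j' (Ne.symm hi) ?_).1
    have h1' : ((c i + c j' : ℕ) : ℤ) < ((c j + c i' + 2 * b ^ m : ℕ) : ℤ) := by exact_mod_cast h1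
    have h2' : ((c j + c i' : ℕ) : ℤ) < ((c i + c j' + 2 * b ^ m : ℕ) : ℤ) := by exact_mod_cast h2
    have h3 : (0 : ℤ) ≤ ((b ^ m : ℕ) : ℤ) := Int.natCast_nonneg _
    push_cast at h1' h2' h3 ⊢
    rw [abs_le]
    constructor <;> linarith
  · intro T hT
    obtain ⟨P, hP1, hP2⟩ := hsp T hT
    exact ⟨P, by omega, hP2⟩
  · intro T
    exact bad_periodic hb0 (fun k hk => (hMs k hk).2.2) T
  · intro α f
    obtain ⟨lam, rho, nu, h1, h2, h3, h4⟩ := hg b hb4 hcop α f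
    refine ⟨lam, rho, nu, fun P Q v v' hP hQ => h2 P Q v v' hP hQ, fun P v hP => (h1 P v hP).le,
      ?_, ?_⟩
    · intro Y hY v
      have hY' : ¬ ((∃ k ∈ Ms, k ∣ Y.length) ∨
        ∃ j < m, ¬ (M ≤ Y.length / b ^ j % b ∧ Y.length / b ^ j % b + M + 1 ≤ b)) := hY
      obtain ⟨P, Q, hPQ, hl, hr⟩ := h3 Y
        (fun k hk hd => hY' (Or.inl ⟨k, hk, hd⟩))
        (fun j hj => by
          by_contra hc
          exact hY' (Or.inr ⟨j, hj, hc⟩)) v
      exact ⟨P, Q, hPQ.symm, hl, hr⟩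
    · intro Y Y' hY hY' ht hm hd
      exact h4 Y Y' hY hY' ht hm hd

/-- form of `Fin_211.Gad` -/
theorem gad211 [Monoid S] [Finite S] [AddCommGroup V] [Finite V] (act : V → S → V)
    {α : Type} (f : α → S) :
    ∃ R1 : ℕ, ∀ K : ℕ, ∃ (N1 N0 Kp M : ℕ) (BadT : ℕ → Prop) (c : ℕ → ℕ)
      (lam rho : List α → Option V) (nu1 : List α → V),
      (∀ P Q v r, lam P = some v → rho Q = some r →
        r = act v ((P ++ Q).map f).prod + nu1 (P ++ Q)) ∧
      (∀ P v, lam P = some v → P.length ≤ N1) ∧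
      (∀ Y : List α, N0 ≤ Y.length → ¬ BadT Y.length → ∀ v, ∃ P Q, Y = P ++ Q ∧
        lam P = some v ∧ (rho Q).isSome) ∧ 0 < M ∧
      (∀ Y Y' : List α, Kp ≤ Y.length → Kp ≤ Y'.length → Y.take Kp = Y'.take Kp →
        Y.length % M = Y'.length % M →
        ((Y.drop Kp).map f).prod = ((Y'.drop Kp).map f).prod → nu1 Y = nu1 Y') ∧
      (∀ i j, i < j → j < K → c i < c j) ∧
      (∀ i i' j j', i < K → i' < K → j < K → j' < K → i' ≠ i → j' ≠ j →
        c i + c j' < c j + c i' + 2 * N1 → c j + c i' < c i + c j' + 2 * N1 → i = j) ∧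
      (∀ T, (∀ k, k < K → c k ≤ T) → ∀ I : Finset ℕ,
        (∀ k ∈ I, k < K ∧ ∃ k', k' < K ∧ k' ≠ k ∧ BadT (T + c k' - c k)) → I.card ≤ R1) := by
  classical
  obtain ⟨R1, h⟩ := base (S := S) (V := V) act
  refine ⟨R1, fun K => ?_⟩
  obtain ⟨N1, M, BadT, c, hM, hN1, hmono, hgol, hsp, hper, hf⟩ := h K
  obtain ⟨lam, rho, nu1, h1, h2, h3, h4⟩ := hf α f
  refine ⟨N1, 0, N1, M, BadT, c, lam, rho, nu1, h1, h2, fun Y _ hY v => h3 Y hY v, hM,
    fun Y Y' a1 a2 a3 a4 a5 => (h4 Y Y' a1 a2 a3 a4 a5).2, fun i j hij _ => hmono hij,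
    fun i i' j j' _ _ _ _ => hgol i i' j j', ?_⟩
  intro T hT I hI
  obtain ⟨P, hP1, hP2⟩ := hsp T hT
  have hsub : I ⊆ P.image Prod.fst := by
    intro k hk
    obtain ⟨hkK, k', hk', hne, hbad⟩ := hI k hk
    exact Finset.mem_image.2 ⟨(k, k'), hP2 k hkK k' hk' (Ne.symm hne) hbad, rfl⟩
  exact (Finset.card_le_card hsub).trans (Finset.card_image_le.trans hP1)

/-- form of `Fin_963.Gad1` -/
theorem gad963 (S V : Type) [Monoid S] [Finite S] [AddCommGroup V] [Finite V]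
    (act : V → S → V) :
    ∃ C0 : ℕ, ∀ K : ℕ, ∃ (N1 La Per : ℕ) (c : ℕ → ℕ) (Bad : ℕ → Prop), 0 < Per ∧ 0 < N1 ∧
      (∀ i j, i < j → j < K → c i < c j) ∧
      (∀ k k' l l', k < K → k' < K → l < K → l' < K → k' ≠ k → l' ≠ l →
        c k + c l' < c l + c k' + 2 * N1 → c l + c k' < c k + c l' + 2 * N1 → k = l) ∧
      (∀ T, (∀ k < K, c k ≤ T) → La ≤ T → ∀ F : Finset (ℕ × ℕ),
        (∀ p ∈ F, p.1 < K ∧ p.2 < K ∧ p.1 ≠ p.2 ∧ Bad (T + c p.2 - c p.1)) → F.card ≤ C0) ∧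
      (∀ T, La ≤ T → (Bad (T + Per) ↔ Bad T)) ∧
      ∀ (α : Type) (f : α → S), ∃ (lam rho : List α → Option V) (nu : List α → V),
        (∀ P Q v b, lam P = some v → rho Q = some b →
          b = act v ((P ++ Q).map f).prod + nu (P ++ Q)) ∧
        (∀ P v, lam P = some v → P.length ≤ N1) ∧
        (∀ Y : List α, La ≤ Y.length → ¬ Bad Y.length → ∀ v, ∃ P Q, Y = P ++ Q ∧
          lam P = some v ∧ (rho Q).isSome) ∧
        (∀ u u' : List α, La ≤ u.length → La ≤ u'.length → u.take La = u'.take La →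
          ((u.drop La).map f).prod = ((u'.drop La).map f).prod →
          u.length % Per = u'.length % Per → nu u = nu u') := by
  classical
  obtain ⟨R1, h⟩ := base (S := S) (V := V) act
  refine ⟨R1, fun K => ?_⟩
  obtain ⟨N1, M, BadT, c, hM, hN1, hmono, hgol, hsp, hper, hf⟩ := h K
  refine ⟨N1, N1, M, c, BadT, hM, hN1, fun i j hij _ => hmono hij,
    fun i i' j j' _ _ _ _ => hgol i i' j j', ?_, fun T _ => hper T, ?_⟩
  · intro T hT _ F hF
    obtain ⟨P, hP1, hP2⟩ := hsp T hT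
    have hsub : F ⊆ P := by
      intro p hp
      obtain ⟨a1, a2, a3, a4⟩ := hF p hp
      exact hP2 p.1 a1 p.2 a2 a3 a4
    exact (Finset.card_le_card hsub).trans hP1
  · intro α f
    obtain ⟨lam, rho, nu, h1, h2, h3, h4⟩ := hf α f
    exact ⟨lam, rho, nu, h1, h2, fun Y _ hY v => h3 Y hY v,
      fun u u' a1 a2 a3 a4 a5 => (h4 u u' a1 a2 a3 a5 a4).2⟩

end Crest.Agent.R320.Gad314
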