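import Crest.Agent.R320.GridUG_319
import Crest.Agent.R320.Fin_963

/-!
Row 320, helper319: `Fin_963.Gad1` for all finite `S`, `V` and every `act`.
-/

set_option autoImplicit false
set_option linter.unusedSectionVars false

namespace Crest.Agent.R320.Gad_319

open Finset Crest.Agent.R320.Grid_319 Crest.Agent.R320.GridUG_319 Crest.Agent.R320.Gad1_420

theorem seg_take {α : Type*} (Y : List α) {a b L : ℕ} (h : b ≤ L) :
    seg (Y.take L) a b = seg Y a b := by
  unfold seg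
  rw [List.drop_take, List.take_take]
  congr 1
  omega

theorem nu_local {α S V W : Type*} [Monoid S] [AddCommGroup V] [AddCommGroup W]
    {D : Dt α S V W} (hD : D.Ok) {La : ℕ} (hLa : Am D.Γ D.M D.m + D.Γ ^ D.m ≤ La)
    {u u' : List α} (hu : La ≤ u.length) (hu' : La ≤ u'.length) (ht : u.take La = u'.take La)
    (hd : D.φ (u.drop La) = D.φ (u'.drop La))
    (hl : u.length % (D.M * D.Γ ^ D.m) = u'.length % (D.M * D.Γ ^ D.m)) :
    D.nu u = D.nu u' := by
  classical
  have hφ : D.φ u = D.φ u' := by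
    conv_lhs => rw [← List.take_append_drop La u]
    conv_rhs => rw [← List.take_append_drop La u']
    rw [hD.hφ, hD.hφ, ht, hd]
  have hmM : u.length % D.M = u'.length % D.M :=
    Nat.ModEq.of_mul_right _ (show u.length ≡ u'.length [MOD D.M * D.Γ ^ D.m] from hl)
  have hmG : u.length ≡ u'.length [MOD D.Γ ^ D.m] :=
    Nat.ModEq.of_mul_left _ (show u.length ≡ u'.length [MOD D.M * D.Γ ^ D.m] from hl)
  have hb : ∀ j, j ≤ D.m → D.b u.length j = D.b u'.length j := by
    intro j hj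
    have h1 : Am D.Γ D.M j ≤ Am D.Γ D.M D.m := Am_mono hj
    exact bt_congr (by omega) (by omega) (hmG.of_dvd (pow_dvd_pow _ hj))
  have hbl : ∀ j, j ≤ D.m → D.b u'.length j ≤ La := by
    intro j hj
    have h1 : Am D.Γ D.M j ≤ Am D.Γ D.M D.m := Am_mono hj
    have h2 := bt_lt (M := D.M) hD.hΓ u'.length j
    have h3 : D.Γ ^ j ≤ D.Γ ^ D.m := Nat.pow_le_pow_right hD.hΓ hj
    unfold Dt.b
    omega
  have hww : D.ww u u.length = D.ww u' u'.length := by
    unfold Dt.ww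
    refine Finset.sum_congr rfl fun j hj => ?_
    have hj' := Finset.mem_range.1 hj
    rw [hb j hj'.le, hb (j + 1) hj', ← seg_take u (hbl (j + 1) hj'),
      ← seg_take u' (hbl (j + 1) hj'), ht]
  have hcond : (∀ k ∈ D.Ms, ¬ k ∣ u.length) ↔ (∀ k ∈ D.Ms, ¬ k ∣ u'.length) := by
    refine forall_congr' fun k => forall_congr' fun hk => not_congr ?_
    have h1 : u.length ≡ u'.length [MOD k] :=
      (show u.length ≡ u'.length [MOD D.M] from hmM).of_dvd (hD.dvd k hk)
    rw [← Nat.modEq_zero_iff_dvd, ← Nat.modEq_zero_iff_dvd]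
    exact ⟨fun h => h1.symm.trans h, fun h => h1.trans h⟩
  unfold Dt.nu
  rw [hφ, hww, hmM]
  by_cases hc : ∀ k ∈ D.Ms, ¬ k ∣ u.length
  · rw [if_pos hc, if_pos (hcond.1 hc)]
  · rw [if_neg hc, if_neg (fun h => hc (hcond.2 h))]

theorem gad1 (S V : Type) [Monoid S] [Finite S] [AddCommGroup V] [Finite V]
    (act : V → S → V) : Fin_963.Gad1 S V act := by
  classical
  have := Fintype.ofFinite S
  have := Fintype.ofFinite V
  obtain ⟨m, N, e, F, hN, hF⟩ := Crest.Agent.R320.RandF808.exists_noise S V act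
  have : NeZero N := ⟨hN.ne'⟩
  let W := ZMod N × ZMod N
  let Nm := Fin m × S × W × S × W × V
  let bbf : Nm → V := fun c => F (c.2.1 * 1 * c.2.2.2.1) (c.2.2.1 + e c.1 1 + c.2.2.2.2.1) +
    act c.2.2.2.2.2 (c.2.1 * 1 * c.2.2.2.1)
  have hm : 0 < m := by
    obtain ⟨i, hi, -⟩ := hF 1 0 0
    omega
  obtain ⟨r, hr⟩ := Crest.Agent.R320.Names755.names Nm (V × V) (fun c => (c.2.2.2.2.2, bbf c))
  refine ⟨r + m, fun K => ?_⟩
  obtain ⟨Ms, M, nmL, nmR, hcard, hMs, hM, perL, perR, n1, n2, n3⟩ := hr (4 ^ (K + 1))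
  set Γ := 1 + M * (8 * 4 ^ K + 2) with hΓ
  have hΓ0 : 0 < Γ := by omega
  have hΓ5 : 5 ≤ Γ := by
    have h1 : 1 * (8 * 4 ^ K + 2) ≤ M * (8 * 4 ^ K + 2) := Nat.mul_le_mul_right _ hM
    have h2 : 0 < 4 ^ K := by positivity
    omega
  have hAm0 : 0 < Am Γ M m := by
    obtain ⟨i, rfl⟩ : ∃ i, m = i + 1 := ⟨m - 1, by omega⟩
    rw [Am_succ]
    have := pow_pos hΓ0 i
    omega
  have hU0 : 0 < U Γ M m := by
    unfold U
    have := pow_pos hΓ0 m
    omega
  refine ⟨Am Γ M m, Am Γ M m + Γ ^ m + U Γ M m * 4 ^ K, M * Γ ^ m, fun a => U Γ M m * 4 ^ a,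
    BadT Γ M m Ms, Nat.mul_pos hM (pow_pos hΓ0 m), hAm0, ?_, ?_, ?_, ?_, ?_⟩
  · intro i j hij _
    exact (Nat.mul_lt_mul_left hU0).2 (Nat.pow_lt_pow_right (by norm_num) hij)
  · intro k k' l l' hk hk' hl hl' hkk hll h1 h2
    by_contra hne
    have h1' : U Γ M m * 4 ^ k + U Γ M m * 4 ^ l' <
      U Γ M m * 4 ^ l + U Γ M m * 4 ^ k' + 2 * Am Γ M m := h1
    have h2' : U Γ M m * 4 ^ l + U Γ M m * 4 ^ k' <
      U Γ M m * 4 ^ k + U Γ M m * 4 ^ l' + 2 * Am Γ M m := h2
    rcases spaced (M := M) (m := m) hΓ5 hk hk' hl hl' (Ne.symm hkk)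
      (fun h => hne (congrArg Prod.fst h)) with h | h
    · omega
    · omega
  · intro T _ hT F' hF'
    have h1 := spoil (K := K) (m := m) (T := T) (Ms := Ms) hM
      (fun k hk => ⟨(hMs k hk).1, (hMs k hk).2.2⟩)
      (show Am Γ M m + U Γ M m * 4 ^ K ≤ T by omega)
    refine (card_le_card ?_).trans (h1.trans (by omega))
    intro p hp
    obtain ⟨a1, a2, a3, a4⟩ := hF' p hp
    exact mem_filter.2 ⟨mem_product.2 ⟨mem_range.2 a1, mem_range.2 a2⟩, a3, a4⟩
  · intro T _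
    exact BadT_per hM hΓ0 (fun k hk => (hMs k hk).2.2) T
  · intro α f
    let D : Dt α S V W :=
      { φ := fun w => (w.map f).prod
        act := act
        m := m
        e := e
        F := F
        Γ := Γ
        M := M
        Ms := Ms
        nmL := nmL
        nmR := nmR }
    have hD : D.Ok :=
      { hφ := fun u v => by show ((u ++ v).map f).prod = _; rw [List.map_append, List.prod_append]
        hΓ := hΓ0
        hΓM := Nat.add_mul_mod_self_left _ _ _
        hM := hM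
        hF := hF
        dvd := fun k hk => (hMs k hk).2.2
        perL := perL
        perR := perR
        n1 := n1
        n2 := n2
        n3 := by
          intro t₁ t₁' t₂ t₂' c₁ c₁' c₂ c₂' h1 h2 h3 h4 h5 h6
          obtain ⟨q1, q2⟩ := n3 t₁ t₁' t₂ t₂' c₁ c₁' c₂ c₂' h1 h2 h3 h4 h5 h6
          exact ⟨(Prod.mk.inj q1).1, (Prod.mk.inj q2).2⟩ }
    refine ⟨D.lam, D.rho, D.nu, ?_, ?_, ?_, ?_⟩
    · intro P Q v b hP hQ
      exact sound hD hP hQ
    · intro P v hP
      obtain ⟨c, -, ⟨-, hc, -, -⟩, -⟩ := lam_some.1 hP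
      have h1 : Am Γ M ((c.1 : ℕ) + 1) ≤ Am Γ M m := Am_mono c.1.2
      rw [Am_succ] at h1
      have h2 : P.length < Am Γ M c.1 + Γ ^ (c.1 : ℕ) + M * Γ ^ (c.1 : ℕ) := hc.2
      omega
    · intro Y hY hbad v
      unfold BadT at hbad
      push Not at hbad
      obtain ⟨b1, b2⟩ := hbad
      refine complete hD Y ?_ b1 ?_ v
      · show Am Γ M m + Γ ^ m ≤ Y.length
        omega
      · intro j hj hjm
        have h3 : Am Γ M j ≤ Am Γ M m := Am_mono hjm
        exact (thin_shift (Γ := Γ) (M := M) _ (show Am Γ M j ≤ Y.length by omega) hjm).1 (b2 j hj hjm)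
    · intro u u' hu hu' ht hd hl
      exact nu_local hD (by show Am Γ M m + Γ ^ m ≤ _; omega) hu hu' ht hd hl

end Crest.Agent.R320.Gad_319
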