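import Mathlib
import Crest.Agent.R320.Noise_513
import Crest.Agent.R320.Names_755

set_option autoImplicit false

namespace Crest.Agent.R320.Gad330

open Classical Finset

section

variable {S V W : Type} [Monoid S] [AddCommGroup V] [AddCommGroup W]

/-- names: level, left product, left weight, right product, right weight, token -/
structure Nm (m : ℕ) (S V W : Type) where
  i : Fin m
  g : S
  wl : W
  h : S
  wr : W
  v : V

instance {m : ℕ} [Finite S] [Finite V] [Finite W] : Finite (Nm m S V W) := by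
  have : Function.Injective (fun c : Nm m S V W => (c.i, c.g, c.wl, c.h, c.wr, c.v)) := by
    rintro ⟨⟩ ⟨⟩ h
    simp only [Prod.mk.injEq] at h
    obtain ⟨h1, h2, h3, h4, h5, h6⟩ := h
    subst h1 h2 h3 h4 h5 h6
    rfl
  exact Finite.of_injective _ this

variable {m : ℕ} (act : V → S → V) (e : Fin m → S → W) (F : S → W → V)

/-- value of a name if the hole reads `z` -/
def val (c : Nm m S V W) (z : S) : V :=
  F (c.g * z * c.h) (c.wl + e c.i z + c.wr) + act c.v (c.g * z * c.h)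

/-- good names -/
def Gm : Type := {c : Nm m S V W // ∀ z, val act e F c z = val act e F c 1}

instance [Finite S] [Finite V] [Finite W] : Finite (Gm act e F) :=
  inferInstanceAs (Finite {c : Nm m S V W // ∀ z, val act e F c z = val act e F c 1})

/-- level of a name -/
def lv (c : Gm act e F) : ℕ := c.1.i
/-- colour of a name -/
def col (c : Gm act e F) : V × V := (c.1.v, val act e F c.1 1)

/-- weights with natural index -/
noncomputable def ee (l : ℕ) (s : S) : W := if h : l < m then e ⟨l, h⟩ s else 0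

end

/-- segment of a word -/
def seg {α : Type*} (u : List α) (a b : ℕ) : List α := (u.drop a).take (b - a)

section seg
variable {α : Type*}

theorem seg_left {p q : List α} {a b : ℕ} (h : b ≤ p.length) : seg (p ++ q) a b = seg p a b := by
  unfold seg
  by_cases hab : a ≤ b
  · rw [List.drop_append_of_le_length (hab.trans h), List.take_append_of_le_length]
    rw [List.length_drop]; omega
  · rw [Nat.sub_eq_zero_of_le (by omega)]
    simp

theorem seg_right {p q : List α} {a b : ℕ} :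
    seg (p ++ q) (p.length + a) (p.length + b) = seg q a b := by
  unfold seg
  rw [← List.drop_drop, List.drop_left, Nat.add_sub_add_left]

theorem split3 (u : List α) {a b : ℕ} (hab : a ≤ b) :
    u = u.take a ++ seg u a b ++ u.drop b := by
  unfold seg
  rw [List.append_assoc]
  conv_lhs => rw [← List.take_append_drop a u, ← List.take_append_drop (b - a) (u.drop a)]
  rw [List.drop_drop, Nat.add_sub_cancel' hab]

end seg

/-- the data of the clocks -/
structure Clk (m M0 N0 : ℕ) {Γ C : Type} (lv : Γ → ℕ) (col : Γ → C) (beta : ℕ → ℕ → ℕ)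
    (Bad Gd : ℕ → Prop) (nmL nmR : ℕ → Option Γ) (bL bR : ℕ → ℕ → ℕ) : Prop where
  left : ∀ t g, nmL t = some g → t < M0
  leftN : ∀ t g, nmL t = some g → t < N0
  perR : ∀ t, nmR (t + M0) = nmR t
  perG : ∀ n, Gd (n + M0) ↔ Gd n
  perB : ∀ n, ∀ l ≤ m, beta (n + M0) l = beta n l
  betaN : ∀ n, ∀ l ≤ m, beta n l ≤ N0
  good : ∀ t t' g g', Gd (t+t') → nmL t = some g → nmR t' = some g' → g = g' ∧
    (∀ l ≤ lv g, bL t l = beta (t+t') l) ∧
    (∀ l, lv g < l → l ≤ m → bR t' l + beta (t+t') l = t+t') ∧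
    beta (t+t') (lv g) ≤ t ∧ t ≤ beta (t+t') (lv g + 1)
  bad : ∀ t₁ t₁' t₂ t₂' g₁ g₁' g₂ g₂', ¬ Gd (t₁+t₁') → t₁+t₁' = t₂+t₂' →
    nmL t₁ = some g₁ → nmR t₁' = some g₁' → nmL t₂ = some g₂ → nmR t₂' = some g₂' →
    col g₁ = col g₂ ∧ col g₁' = col g₂'
  mono : ∀ n l, l < m → beta n l ≤ beta n (l+1)
  compl : ∀ n, N0 ≤ n → ¬ Bad n →
    Gd n ∧ ∀ g, ∃ t t', t+t' = n ∧ nmL t = some g ∧ nmR t' = some g

section main

variable {S V W : Type} [Monoid S] [AddCommGroup V] [AddCommGroup W]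
variable {m : ℕ} (act : V → S → V) (e : Fin m → S → W) (F : S → W → V)
variable {α : Type*} (φ : List α → S) (Mp : ℕ)
variable (beta : ℕ → ℕ → ℕ) (Gd : ℕ → Prop) (nmL nmR : ℕ → Option (Gm act e F))
  (bL bR : ℕ → ℕ → ℕ)

def condL (p : List α) (c : Gm act e F) : Prop :=
  Mp ∣ p.length ∧ nmL (p.length / Mp) = some c ∧
    c.1.g = φ (p.take (Mp * bL (p.length / Mp) c.1.i)) ∧
    c.1.wl = ∑ l ∈ range c.1.i, ee e l (φ (seg p (Mp * bL (p.length / Mp) l)
      (Mp * bL (p.length / Mp) (l + 1))))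

/-- place of the boundary `l` in the right word -/
def rp (q : List α) (l : ℕ) : ℕ := q.length - (Mp * bR (q.length / Mp) l + q.length % Mp)

def condR (q : List α) (c : Gm act e F) : Prop :=
  nmR (q.length / Mp) = some c ∧
    c.1.h = φ (q.drop (rp Mp bR q (c.1.i + 1))) ∧
    c.1.wr = ∑ l ∈ Ico ((c.1.i : ℕ) + 1) m, ee e l (φ (seg q (rp Mp bR q l)
      (rp Mp bR q (l + 1))))

noncomputable def lam (p : List α) : Option V :=
  if h : ∃ c, condL act e F φ Mp nmL bL p c then some h.choose.1.v else none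

noncomputable def rho (q : List α) : Option V :=
  if h : ∃ c, condR act e F φ Mp nmR bR q c then some (val act e F h.choose.1 1) else none

noncomputable def nu (M0 : ℕ) (u : List α) : V :=
  if Gd (u.length / Mp) then F (φ u) (∑ l ∈ range m, ee e l
      (φ (seg u (Mp * beta (u.length / Mp) l) (Mp * beta (u.length / Mp) (l + 1)))))
  else if h : ∃ x : (ℕ × ℕ) × (Gm act e F × Gm act e F),
      x.1.1 + x.1.2 = u.length / Mp % M0 + M0 ∧
      nmL x.1.1 = some x.2.1 ∧ nmR x.1.2 = some x.2.2 then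
    val act e F h.choose.2.2.1 1 - act h.choose.2.1.1.v (φ u) else 0

theorem lam_some {p : List α} {v : V} (h : lam act e F φ Mp nmL bL p = some v) :
    ∃ c, condL act e F φ Mp nmL bL p c ∧ c.1.v = v := by
  unfold lam at h
  split_ifs at h with h1
  exact ⟨_, h1.choose_spec, by simpa using h⟩

theorem lam_of {p : List α} {c : Gm act e F} (h : condL act e F φ Mp nmL bL p c) :
    lam act e F φ Mp nmL bL p = some c.1.v := by
  have hex : ∃ c, condL act e F φ Mp nmL bL p c := ⟨c, h⟩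
  unfold lam
  rw [dif_pos hex]
  have h1 := hex.choose_spec.2.1
  rw [h.2.1] at h1
  rw [← Option.some.inj h1]

theorem rho_some {q : List α} {r : V} (h : rho act e F φ Mp nmR bR q = some r) :
    ∃ c, condR act e F φ Mp nmR bR q c ∧ val act e F c.1 1 = r := by
  unfold rho at h
  split_ifs at h with h1
  exact ⟨_, h1.choose_spec, by simpa using h⟩

variable {act e F φ Mp beta Gd nmL nmR bL bR}

theorem mono' {b : ℕ → ℕ} (h : ∀ l, l < m → b l ≤ b (l+1)) {l l' : ℕ} (hl : l ≤ l')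
    (hm : l' ≤ m) : b l ≤ b l' := by
  induction l', hl using Nat.le_induction with
  | base => exact le_rfl
  | succ k hk ih => exact (ih (by omega)).trans (h k (by omega))

/-- what both sides read if the total is good -/
theorem reads {p q : List α} (hMp : 0 < Mp) (hp : Mp ∣ p.length)
    {i : ℕ} (hi : i < m)
    (hmono : ∀ n l, l < m → beta n l ≤ beta n (l+1))
    (hL : ∀ l ≤ i, bL (p.length / Mp) l = beta ((p ++ q).length / Mp) l)
    (hR : ∀ l, i < l → l ≤ m → bR (q.length / Mp) l + beta ((p ++ q).length / Mp) l =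
      (p ++ q).length / Mp)
    (h1 : beta ((p ++ q).length / Mp) i ≤ p.length / Mp)
    (h2 : p.length / Mp ≤ beta ((p ++ q).length / Mp) (i + 1)) :
    p.take (Mp * bL (p.length / Mp) i) = (p ++ q).take (Mp * beta ((p ++ q).length / Mp) i) ∧
    (∀ l < i, seg p (Mp * bL (p.length / Mp) l) (Mp * bL (p.length / Mp) (l + 1)) =
      seg (p ++ q) (Mp * beta ((p ++ q).length / Mp) l)
        (Mp * beta ((p ++ q).length / Mp) (l + 1))) ∧
    q.drop (rp Mp bR q (i + 1)) = (p ++ q).drop (Mp * beta ((p ++ q).length / Mp) (i + 1)) ∧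
    (∀ l, i < l → l < m → seg q (rp Mp bR q l) (rp Mp bR q (l + 1)) =
      seg (p ++ q) (Mp * beta ((p ++ q).length / Mp) l)
        (Mp * beta ((p ++ q).length / Mp) (l + 1))) := by
  obtain ⟨t, ht⟩ := hp
  have htp : p.length / Mp = t := by rw [ht, Nat.mul_div_cancel_left _ hMp]
  have hn : (p ++ q).length / Mp = t + q.length / Mp := by
    rw [List.length_append, ht, Nat.mul_add_div hMp]
  rw [htp] at hL h1 h2 ⊢
  rw [hn] at hL hR h1 h2 ⊢
  have hm1 : ∀ l ≤ i, Mp * beta (t + q.length / Mp) l ≤ p.length := by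
    intro l hl
    rw [ht]
    exact Nat.mul_le_mul_left _ ((mono' (hmono _) hl hi.le).trans h1)
  have hm2 : ∀ l, i < l → l ≤ m → t ≤ beta (t + q.length / Mp) l := by
    intro l hl hlm
    exact h2.trans (mono' (hmono _) (show i + 1 ≤ l from hl) hlm)
  have hrp : ∀ l, i < l → l ≤ m →
      p.length + rp Mp bR q l = Mp * beta (t + q.length / Mp) l := by
    intro l hl hlm
    have h3 := hR l hl hlm
    have h4 := hm2 l hl hlm
    have h5 : Mp * bR (q.length / Mp) l + Mp * beta (t + q.length / Mp) l =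
        Mp * t + Mp * (q.length / Mp) := by rw [← mul_add, ← mul_add, h3]
    have h6 : Mp * t ≤ Mp * beta (t + q.length / Mp) l := Nat.mul_le_mul_left _ h4
    have h7 := Nat.div_add_mod q.length Mp
    unfold rp
    omega
  refine ⟨?_, ?_, ?_, ?_⟩
  · rw [hL i le_rfl, List.take_append_of_le_length (hm1 i le_rfl)]
  · intro l hl
    rw [hL l hl.le, hL (l + 1) hl, seg_left (hm1 (l + 1) hl)]
  · rw [← hrp (i + 1) (by omega) hi, ← List.drop_drop, List.drop_left]
  · intro l hl hlm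
    rw [← hrp l hl hlm.le, ← hrp (l + 1) (by omega) hlm, seg_right]

theorem sum_split {m i : ℕ} (hi : i < m) (f : ℕ → W) :
    ∑ l ∈ range m, f l = ∑ l ∈ range i, f l + f i + ∑ l ∈ Ico (i + 1) m, f l := by
  rw [← Finset.sum_range_succ, Finset.sum_range_add_sum_Ico _ (by omega)]

theorem sound (hMp : 0 < Mp) (hφ : ∀ u v, φ (u ++ v) = φ u * φ v) {M0 N0 : ℕ} {Bad : ℕ → Prop}
    (hM0 : 0 < M0)
    (hK : Clk m M0 N0 (lv act e F) (col act e F) beta Bad Gd nmL nmR bL bR)
    {p q : List α} {v r : V} (h1 : lam act e F φ Mp nmL bL p = some v)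
    (h2 : rho act e F φ Mp nmR bR q = some r) :
    r = act v (φ (p ++ q)) + nu act e F φ Mp beta Gd nmL nmR M0 (p ++ q) := by
  obtain ⟨c, ⟨hc1, hc2, hc3, hc4⟩, rfl⟩ := lam_some act e F φ Mp nmL bL h1
  obtain ⟨c', ⟨hd1, hd2, hd3⟩, rfl⟩ := rho_some act e F φ Mp nmR bR h2
  have hn : (p ++ q).length / Mp = p.length / Mp + q.length / Mp := by
    obtain ⟨t, ht⟩ := hc1
    rw [List.length_append, ht, Nat.mul_add_div hMp, Nat.mul_div_cancel_left _ hMp]
  by_cases hG : Gd ((p ++ q).length / Mp)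
  · have hG' := hG
    rw [hn] at hG'
    obtain ⟨rfl, g1, g2, g3, g4⟩ := hK.good _ _ _ _ hG' hc2 hd1
    rw [← hn] at g1 g2 g3 g4
    obtain ⟨r1, r2, r3, r4⟩ := reads (Mp := Mp) (p := p) (q := q) hMp hc1 c.1.i.2 hK.mono
      g1 g2 g3 g4
    unfold nu
    rw [if_pos hG, sum_split c.1.i.2]
    have s1 : c.1.wl = ∑ l ∈ range (c.1.i : ℕ), ee e l (φ (seg (p ++ q)
        (Mp * beta ((p ++ q).length / Mp) l) (Mp * beta ((p ++ q).length / Mp) (l + 1)))) := by
      rw [hc4]
      exact Finset.sum_congr rfl fun l hl => by rw [r2 l (Finset.mem_range.1 hl)]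
    have s2 : c.1.wr = ∑ l ∈ Ico ((c.1.i : ℕ) + 1) m, ee e l (φ (seg (p ++ q)
        (Mp * beta ((p ++ q).length / Mp) l) (Mp * beta ((p ++ q).length / Mp) (l + 1)))) := by
      rw [hd3]
      exact Finset.sum_congr rfl fun l hl => by
        rw [r4 l (by have := (Finset.mem_Ico.1 hl).1; omega) (Finset.mem_Ico.1 hl).2]
    rw [← s1, ← s2]
    set z := φ (seg (p ++ q) (Mp * beta ((p ++ q).length / Mp) c.1.i)
      (Mp * beta ((p ++ q).length / Mp) (c.1.i + 1))) with hz
    have s3 : φ (p ++ q) = c.1.g * z * c.1.h := by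
      rw [hc3, hd2, r1, r3, hz, ← hφ, ← hφ, ← split3 (p ++ q)
        (Nat.mul_le_mul_left _ (hK.mono _ _ c.1.i.2))]
    have s4 : ee e (c.1.i : ℕ) z = e c.1.i z := by
      unfold ee
      rw [dif_pos c.1.i.2]
    rw [s3, s4]
    have := c.2 z
    unfold val at this ⊢
    rw [← this]
    abel
  · set n := (p ++ q).length / Mp with hndef
    have hperR : ∀ t, nmR t = nmR (t % M0) := fun t =>
      (Function.Periodic.map_mod_nat (f := nmR) (a := M0) hK.perR t).symm
    have hperG : ∀ t, Gd t ↔ Gd (t % M0) := fun t => by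
      have h : Function.Periodic Gd M0 := fun x => propext (hK.perG x)
      exact iff_of_eq (h.map_mod_nat t).symm
    have htM := hK.left _ _ hc2
    set t := p.length / Mp with htdef
    set t' := q.length / Mp with htdef'
    have hsum : t + (n % M0 + M0 - t) = n % M0 + M0 := by omega
    have hmod : (n % M0 + M0 - t) % M0 = t' % M0 := by
      have h1 : t + (n % M0 + M0 - t) ≡ t + t' [MOD M0] := by
        rw [hsum, ← hn]
        unfold Nat.ModEq
        simp
      exact Nat.ModEq.add_left_cancel' _ h1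
    have hd1' : nmR (n % M0 + M0 - t) = some c' := by
      rw [hperR, hmod, ← hperR, hd1]
    have hex : ∃ x : (ℕ × ℕ) × (Gm act e F × Gm act e F),
      x.1.1 + x.1.2 = n % M0 + M0 ∧
      nmL x.1.1 = some x.2.1 ∧ nmR x.1.2 = some x.2.2 :=
      ⟨((t, n % M0 + M0 - t), (c, c')), hsum, hc2, hd1'⟩
    unfold nu
    rw [← hndef, if_neg hG, dif_pos hex]
    obtain ⟨k1, k2, k3⟩ := hex.choose_spec
    have hG' : ¬ Gd (t + (n % M0 + M0 - t)) := by
      rw [hsum, hperG, Nat.add_mod_right, Nat.mod_mod, ← hperG]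
      exact hG
    have h := hK.bad _ _ _ _ _ _ _ _ hG' (hsum.trans k1.symm) hc2 hd1' k2 k3
    have e1 := congrArg Prod.fst h.1
    have e2 := congrArg Prod.snd h.2
    simp only [col] at e1 e2
    rw [← e1, ← e2]
    abel

theorem complete (hMp : 0 < Mp) (hφ : ∀ u v, φ (u ++ v) = φ u * φ v) {M0 N0 : ℕ}
    {Bad : ℕ → Prop}
    (hK : Clk m M0 N0 (lv act e F) (col act e F) beta Bad Gd nmL nmR bL bR)
    (hF : ∀ (s : S) (w : W) (v : V), ∃ i : Fin m, ∀ g x h : S, g * x * h = s →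
        ∀ z : S, F (g * z * h) (w - e i x + e i z) + act v (g * z * h) = F s w + act v s)
    (u : List α) (hu : Mp * N0 ≤ u.length) (hB : ¬ Bad (u.length / Mp)) (v : V) :
    ∃ p q, p ++ q = u ∧ lam act e F φ Mp nmL bL p = some v ∧
      (rho act e F φ Mp nmR bR q).isSome := by
  have hn2 : N0 ≤ u.length / Mp := by
    rw [Nat.le_div_iff_mul_le hMp, mul_comm]
    exact hu
  obtain ⟨hG, hall⟩ := hK.compl _ hn2 hB
  set n := u.length / Mp with hndef
  set Y : ℕ → S := fun l => φ (seg u (Mp * beta n l) (Mp * beta n (l + 1))) with hY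
  obtain ⟨i, hi⟩ := hF (φ u) (∑ l ∈ range m, ee e l (Y l)) v
  have hsp : φ (u.take (Mp * beta n i)) * Y i * φ (u.drop (Mp * beta n (i + 1))) = φ u := by
    rw [hY, ← hφ, ← hφ, ← split3 u (Nat.mul_le_mul_left _ (hK.mono _ _ i.2))]
  have hw : ∑ l ∈ range m, ee e l (Y l) = ∑ l ∈ range (i : ℕ), ee e l (Y l) + e i (Y i) +
      ∑ l ∈ Ico ((i : ℕ) + 1) m, ee e l (Y l) := by
    rw [sum_split i.2]
    congr 2
    unfold ee
    rw [dif_pos i.2]
  have hgood : ∀ z, val act e F ⟨i, φ (u.take (Mp * beta n i)),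
      ∑ l ∈ range (i : ℕ), ee e l (Y l), φ (u.drop (Mp * beta n (i + 1))),
      ∑ l ∈ Ico ((i : ℕ) + 1) m, ee e l (Y l), v⟩ z =
      F (φ u) (∑ l ∈ range m, ee e l (Y l)) + act v (φ u) := by
    intro z
    rw [← hi _ _ _ hsp z, hw]
    unfold val
    simp only
    congr 2
    abel
  let c : Gm act e F := ⟨_, fun z => (hgood z).trans (hgood 1).symm⟩
  obtain ⟨t, t', htt, hl, hr⟩ := hall c
  have htu : Mp * t ≤ u.length := by
    calc Mp * t ≤ Mp * n := Nat.mul_le_mul_left _ (by omega)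
      _ ≤ u.length := Nat.mul_div_le _ _
  have hpl : (u.take (Mp * t)).length = Mp * t := by
    rw [List.length_take]; omega
  have hpd : (u.take (Mp * t)).length / Mp = t := by
    rw [hpl, Nat.mul_div_cancel_left _ hMp]
  have hql : (u.drop (Mp * t)).length / Mp = t' := by
    rw [List.length_drop]
    have h7 := Nat.div_add_mod u.length Mp
    have h8 : u.length - Mp * t = Mp * t' + u.length % Mp := by
      have : Mp * n = Mp * t + Mp * t' := by rw [← htt, mul_add]
      rw [← hndef] at h7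
      omega
    rw [h8, Nat.mul_add_div hMp, Nat.div_eq_of_lt (Nat.mod_lt _ hMp), add_zero]
  have huu : u.take (Mp * t) ++ u.drop (Mp * t) = u := List.take_append_drop _ _
  rw [← htt] at hG
  obtain ⟨-, g1, g2, g3, g4⟩ := hK.good _ _ _ _ hG hl hr
  rw [htt] at g1 g2 g3 g4
  have hrd := reads (m := m) (Mp := Mp) (p := u.take (Mp * t)) (q := u.drop (Mp * t))
    (beta := beta) (bL := bL) (bR := bR) hMp
    (by rw [hpl]; exact dvd_mul_right _ _) (i := (i : ℕ)) i.2 hK.mono
    (by rw [hpd, huu]; exact g1) (by rw [hql, huu]; exact g2)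
    (by rw [hpd, huu]; exact g3) (by rw [hpd, huu]; exact g4)
  rw [huu, ← hndef] at hrd
  obtain ⟨r1, r2, r3, r4⟩ := hrd
  refine ⟨u.take (Mp * t), u.drop (Mp * t), huu, ?_, ?_⟩
  · have : condL act e F φ Mp nmL bL (u.take (Mp * t)) c := by
      refine ⟨by rw [hpl]; exact dvd_mul_right _ _, by rw [hpd]; exact hl, ?_, ?_⟩
      · exact (congrArg φ r1).symm
      · exact Finset.sum_congr rfl fun l hl =>
          congrArg (fun y => ee e l (φ y)) (r2 l (Finset.mem_range.1 hl)).symm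
    exact lam_of act e F φ Mp nmL bL this
  · have hc : condR act e F φ Mp nmR bR (u.drop (Mp * t)) c := by
      refine ⟨by rw [hql]; exact hr, ?_, ?_⟩
      · exact (congrArg φ r3).symm
      · exact Finset.sum_congr rfl fun l hl =>
          congrArg (fun y => ee e l (φ y)) (r4 l (by have := (Finset.mem_Ico.1 hl).1; omega)
            (Finset.mem_Ico.1 hl).2).symm
    unfold rho
    rw [dif_pos ⟨c, hc⟩]
    rfl

theorem seg_take {u : List α} {a b N : ℕ} (h : b ≤ N) (hN : N ≤ u.length) :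
    seg u a b = seg (u.take N) a b := by
  have := seg_left (p := u.take N) (q := u.drop N) (a := a) (b := b)
    (by rw [List.length_take]; omega)
  rwa [List.take_append_drop] at this

theorem nu_loc {M0 N0 : ℕ} {Bad : ℕ → Prop} {beta : ℕ → ℕ → ℕ}
    (hK : Clk m M0 N0 (lv act e F) (col act e F) beta Bad Gd nmL nmR bL bR)
    (u u' : List α) (h1 : N0 ≤ u.length) (h1' : N0 ≤ u'.length) (h2 : u.take N0 = u'.take N0)
    (h3 : u.length % M0 = u'.length % M0) (h4 : φ u = φ u') :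
    nu act e F φ 1 beta Gd nmL nmR M0 u = nu act e F φ 1 beta Gd nmL nmR M0 u' := by
  have hperG : ∀ t, Gd t ↔ Gd (t % M0) := fun t => by
    have h : Function.Periodic Gd M0 := fun x => propext (hK.perG x)
    exact iff_of_eq (h.map_mod_nat t).symm
  have hb : ∀ l ≤ m, beta u.length l = beta u'.length l := by
    intro l hl
    have h : Function.Periodic (fun n => beta n l) M0 := fun x => hK.perB x l hl
    have e1 := h.map_mod_nat u.length
    have e2 := h.map_mod_nat u'.length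
    rw [← e1, ← e2, h3]
  have hG : Gd u.length ↔ Gd u'.length := by rw [hperG u.length, hperG u'.length, h3]
  have hs : ∀ l < m, seg u (beta u.length l) (beta u.length (l + 1)) =
      seg u' (beta u'.length l) (beta u'.length (l + 1)) := by
    intro l hl
    rw [← hb l hl.le, ← hb (l + 1) hl]
    have k1 := hK.betaN u.length (l + 1) hl
    rw [seg_take k1 h1, seg_take k1 h1', h2]
  have hsum : ∑ l ∈ range m, ee e l (φ (seg u (beta u.length l) (beta u.length (l + 1)))) =
      ∑ l ∈ range m, ee e l (φ (seg u' (beta u'.length l) (beta u'.length (l + 1)))) :=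
    Finset.sum_congr rfl fun l hl => by rw [hs l (Finset.mem_range.1 hl)]
  unfold nu
  simp only [Nat.div_one, one_mul, h3, h4, hG, hsum]

end main

section digits

theorem exists_window (lo k Q : ℕ) (hQ : 0 < Q) : ∃ t, lo ≤ t ∧ t < lo + Q ∧ t ≡ k [MOD Q] := by
  refine ⟨lo + (k + Q * lo - lo) % Q, by omega, by have := Nat.mod_lt (k + Q * lo - lo) hQ; omega, ?_⟩
  have h1 : lo ≤ Q * lo := Nat.le_mul_of_pos_left _ hQ
  calc lo + (k + Q * lo - lo) % Q ≡ lo + (k + Q * lo - lo) [MOD Q] :=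
        Nat.ModEq.add_left _ (Nat.mod_modEq _ _)
    _ = k + Q * lo := by omega
    _ ≡ k [MOD Q] := by unfold Nat.ModEq; simp

/-- bad totals -/
def BadN (Ms : Finset ℕ) (M b m n : ℕ) : Prop :=
  (∃ k ∈ Ms, k ∣ n) ∨ ∃ j < m, ¬ (M ≤ n / b ^ j % b ∧ n / b ^ j % b + M + 1 ≤ b)

variable {Γ C : Type} (lv : Γ → ℕ) (b : ℕ) (nL nR : ℕ → Option Γ)

noncomputable def dL (t : ℕ) : Option Γ :=
  (nL t).filter (fun g => decide (t < b ^ (lv g + 1) ∧ 2 * (t / b ^ lv g) < b))

noncomputable def dR (t : ℕ) : Option Γ :=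
  (nR t).filter (fun g => decide (b ^ lv g ∣ t ∧ 2 * (t / b ^ lv g % b) < b))

theorem dL_iff {t : ℕ} {g : Γ} : dL lv b nL t = some g ↔
    nL t = some g ∧ t < b ^ (lv g + 1) ∧ 2 * (t / b ^ lv g) < b := by
  unfold dL
  rw [Option.filter_eq_some_iff]
  simp

theorem dR_iff {t : ℕ} {g : Γ} : dR lv b nR t = some g ↔
    nR t = some g ∧ b ^ lv g ∣ t ∧ 2 * (t / b ^ lv g % b) < b := by
  unfold dR
  rw [Option.filter_eq_some_iff]
  simp

/-- no carry -/
theorem no_carry {i t t' : ℕ} (hb : 0 < b) (h1 : t < b ^ (i + 1)) (h2 : 2 * (t / b ^ i) < b)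
    (h3 : b ^ i ∣ t') (h4 : 2 * (t' / b ^ i % b) < b) : t + t' % b ^ (i + 1) < b ^ (i + 1) := by
  obtain ⟨c, rfl⟩ := h3
  have hp : 0 < b ^ i := by positivity
  rw [Nat.mul_div_cancel_left _ hp] at h4
  have e1 : b ^ i * c % b ^ (i + 1) = b ^ i * (c % b) := by
    rw [pow_succ, Nat.mul_mod_mul_left]
  rw [e1]
  have e2 : t < b ^ i * (t / b ^ i + 1) := by
    have := Nat.lt_mul_div_succ t hp
    simpa using this
  calc t + b ^ i * (c % b) < b ^ i * (t / b ^ i + 1) + b ^ i * (c % b) := by omega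
    _ = b ^ i * (t / b ^ i + 1 + c % b) := by ring
    _ ≤ b ^ i * b := Nat.mul_le_mul_left _ (by omega)
    _ = b ^ (i + 1) := (pow_succ _ _).symm

theorem dper {M m : ℕ} (hb : 0 < b) (hlv : ∀ g, lv g < m) (hper : ∀ t, nR (t + M) = nR t) (t : ℕ) :
    dR lv b nR (t + M * b ^ m) = dR lv b nR t := by
  have h1 : nR (t + M * b ^ m) = nR t := by
    have h : Function.Periodic nR M := hper
    have := h.nat_mul (b ^ m) t
    rw [mul_comm]
    simpa using this
  have h2 : ∀ g, (b ^ lv g ∣ t + M * b ^ m ∧ 2 * ((t + M * b ^ m) / b ^ lv g % b) < b) ↔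
      (b ^ lv g ∣ t ∧ 2 * (t / b ^ lv g % b) < b) := by
    intro g
    obtain ⟨d, hd⟩ : ∃ d, m = lv g + (d + 1) := ⟨m - lv g - 1, by have := hlv g; omega⟩
    have hp : 0 < b ^ lv g := by positivity
    have e1 : M * b ^ m = b ^ lv g * (M * b ^ d * b) := by rw [hd, pow_add, pow_succ]; ring
    have e2 : b ^ lv g ∣ M * b ^ m := ⟨_, e1⟩
    rw [(Nat.dvd_add_iff_left e2).symm, e1, Nat.add_mul_div_left _ _ hp, Nat.add_mul_mod_self_right]
  unfold dR
  rw [h1]
  congr 1
  funext g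
  exact decide_eq_decide.2 (h2 g)

theorem clk {Ms : Finset ℕ} {M m : ℕ} (hM : 0 < M) (hb : 4 * M + 4 < b) (hco : Nat.Coprime b M)
    (hlv : ∀ g, lv g < m) (col : Γ → C) (hMs : ∀ k ∈ Ms, k ∣ M)
    (hperL : ∀ t, nL (t + M) = nL t) (hperR : ∀ t, nR (t + M) = nR t)
    (hgood : ∀ t t' c c', nL t = some c → nR t' = some c' → (∀ k ∈ Ms, ¬ k ∣ t + t') → c = c')
    (hcomp : ∀ T, (∀ k ∈ Ms, ¬ k ∣ T) → ∀ c, ∃ t < M, nL t = some c ∧
        ∀ t', t + t' ≡ T [MOD M] → nR t' = some c)
    (hbad : ∀ t₁ t₁' t₂ t₂' c₁ c₁' c₂ c₂', nL t₁ = some c₁ → nR t₁' = some c₁' →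
        nL t₂ = some c₂ → nR t₂' = some c₂' → t₁ + t₁' = t₂ + t₂' →
        (∃ k ∈ Ms, k ∣ t₁ + t₁') → col c₁ = col c₂ ∧ col c₁' = col c₂') :
    Clk m (M * b ^ m) (b ^ m) lv col (fun n l => n % b ^ l) (BadN Ms M b m)
      (fun n => ∀ k ∈ Ms, ¬ k ∣ n) (dL lv b nL) (dR lv b nR)
      (fun t l => t % b ^ l) (fun t l => b ^ l * (t / b ^ l)) where
  leftN := by
    intro t g h
    rw [dL_iff] at h
    exact lt_of_lt_of_le h.2.1 (Nat.pow_le_pow_right (by omega) (hlv g))
  left := by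
    intro t g h
    rw [dL_iff] at h
    refine lt_of_lt_of_le h.2.1 ((Nat.pow_le_pow_right (by omega) (hlv g)).trans ?_)
    exact Nat.le_mul_of_pos_left _ hM
  perR := fun t => dper lv b nR (by omega) hlv hperR t
  perG := by
    intro n
    have : ∀ k ∈ Ms, (k ∣ n + M * b ^ m ↔ k ∣ n) := fun k hk =>
      ((Nat.dvd_add_iff_left ((hMs k hk).mul_right _)).symm)
    exact forall₂_congr fun k hk => not_congr (this k hk)
  perB := by
    intro n l hl
    obtain ⟨d, rfl⟩ : ∃ d, m = l + d := ⟨m - l, by omega⟩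
    show (n + M * b ^ (l + d)) % b ^ l = n % b ^ l
    rw [pow_add, show M * (b ^ l * b ^ d) = b ^ l * (M * b ^ d) by ring, Nat.add_mul_mod_self_left]
  betaN := by
    intro n l hl
    have hb0 : 0 < b := by omega
    have h1 : n % b ^ l < b ^ l := Nat.mod_lt _ (by positivity)
    have h2 : b ^ l ≤ b ^ m := Nat.pow_le_pow_right hb0 hl
    show n % b ^ l ≤ b ^ m
    omega
  mono := by
    intro n l _
    show n % b ^ l ≤ n % b ^ (l + 1)
    rw [← Nat.mod_mod_of_dvd n (pow_dvd_pow b (Nat.le_succ l))]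
    exact Nat.mod_le _ _
  bad := by
    intro t₁ t₁' t₂ t₂' g₁ g₁' g₂ g₂' hG hT h1 h1' h2 h2'
    rw [dL_iff] at h1 h2
    rw [dR_iff] at h1' h2'
    push Not at hG
    exact hbad _ _ _ _ _ _ _ _ h1.1 h1'.1 h2.1 h2'.1 hT hG
  good := by
    intro t t' g g' hG h1 h2
    rw [dL_iff] at h1
    rw [dR_iff] at h2
    have hgg := hgood t t' g g' h1.1 h2.1 hG
    subst hgg
    have hb0 : 0 < b := by omega
    have hnc := no_carry b hb0 h1.2.1 h1.2.2 h2.2.1 h2.2.2
    have hmod : (t + t') % b ^ (lv g + 1) = t + t' % b ^ (lv g + 1) := by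
      rw [Nat.add_mod, Nat.mod_eq_of_lt h1.2.1, Nat.mod_eq_of_lt hnc]
    have hdiv : (t + t') / b ^ (lv g + 1) = t' / b ^ (lv g + 1) := by
      have e1 := Nat.div_add_mod (t + t') (b ^ (lv g + 1))
      have e2 := Nat.div_add_mod t' (b ^ (lv g + 1))
      have hp : 0 < b ^ (lv g + 1) := by positivity
      have e3 : b ^ (lv g + 1) * ((t + t') / b ^ (lv g + 1)) =
          b ^ (lv g + 1) * (t' / b ^ (lv g + 1)) := by omega
      exact Nat.eq_of_mul_eq_mul_left hp e3
    refine ⟨rfl, fun l hl => ?_, fun l hl _ => ?_, ?_, ?_⟩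
    · show t % b ^ l = (t + t') % b ^ l
      obtain ⟨c, hc⟩ := (pow_dvd_pow b hl).trans h2.2.1
      rw [hc, Nat.add_mul_mod_self_left]
    · show b ^ l * (t' / b ^ l) + (t + t') % b ^ l = t + t'
      have e1 : (t + t') / b ^ l = t' / b ^ l := by
        obtain ⟨d, rfl⟩ : ∃ d, l = lv g + 1 + d := ⟨l - (lv g + 1), by omega⟩
        rw [pow_add, ← Nat.div_div_eq_div_mul, ← Nat.div_div_eq_div_mul, hdiv]
      rw [← e1]
      exact Nat.div_add_mod _ _
    · show (t + t') % b ^ lv g ≤ t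
      obtain ⟨c, hc⟩ := h2.2.1
      rw [hc, Nat.add_mul_mod_self_left]
      exact Nat.mod_le _ _
    · show t ≤ (t + t') % b ^ (lv g + 1)
      rw [hmod]
      exact Nat.le_add_right _ _
  compl := by
    intro n hn hB
    unfold BadN at hB
    push Not at hB
    obtain ⟨hB1, hB2⟩ := hB
    refine ⟨hB1, fun g => ?_⟩
    obtain ⟨r, hr1, hr2, hr3⟩ := hcomp n hB1 g
    set i := lv g with hi
    obtain ⟨d1, d2⟩ := hB2 i (hlv g)
    set d := n / b ^ i % b with hd
    have hb0 : 0 < b := by omega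
    have hp : 0 < b ^ i := by positivity
    -- window
    obtain ⟨x0, hx0⟩ : ∃ x0, ∀ x, x0 ≤ x → x < x0 + M → x ≤ d ∧ 2 * x < b ∧ 2 * (d - x) < b := by
      by_cases h2d : 2 * d < b
      · exact ⟨0, fun x _ h => ⟨by omega, by omega, by omega⟩⟩
      · exact ⟨d - (b - 1) / 2, fun x h h' => ⟨by omega, by omega, by omega⟩⟩
    let cr := Nat.chineseRemainder (show Nat.Coprime (b ^ i) M from Nat.Coprime.pow_left i hco)
      (n % b ^ i) r
    obtain ⟨t, ht1, ht2, ht3⟩ := exists_window (x0 * b ^ i) cr.1 (b ^ i * M) (by positivity)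
    have hti : t % b ^ i = n % b ^ i := by
      have e1 : t ≡ cr.1 [MOD b ^ i] := ht3.of_dvd (dvd_mul_right _ _)
      have e2 := e1.trans cr.2.1
      unfold Nat.ModEq at e2
      rw [e2, Nat.mod_mod]
    have htM : t ≡ r [MOD M] := (ht3.of_dvd (dvd_mul_left _ _)).trans cr.2.2
    set x := t / b ^ i with hx
    have hxl : x0 ≤ x := (Nat.le_div_iff_mul_le hp).2 ht1
    have hxu : x < x0 + M := by
      rw [hx, Nat.div_lt_iff_lt_mul hp]
      calc t < x0 * b ^ i + b ^ i * M := ht2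
        _ = (x0 + M) * b ^ i := by ring
    obtain ⟨k1, k2, k3⟩ := hx0 x hxl hxu
    have htt : t = b ^ i * x + n % b ^ i := by
      rw [← hti, hx]; exact (Nat.div_add_mod _ _).symm
    have hnn : n = b ^ i * (b * (n / b ^ i / b) + d) + n % b ^ i := by
      conv_lhs => rw [← Nat.div_add_mod n (b ^ i), ← Nat.div_add_mod (n / b ^ i) b]
    have hsplit : n = t + b ^ i * (b * (n / b ^ i / b) + (d - x)) := by
      have e1 : b ^ i * (b * (n / b ^ i / b) + d) =
          b ^ i * x + b ^ i * (b * (n / b ^ i / b) + (d - x)) := by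
        rw [← mul_add]
        congr 1
        omega
      omega
    refine ⟨t, b ^ i * (b * (n / b ^ i / b) + (d - x)), hsplit.symm, ?_, ?_⟩
    · rw [dL_iff]
      refine ⟨?_, ?_, ?_⟩
      · have h : Function.Periodic nL M := hperL
        rw [← h.map_mod_nat t, htM, h.map_mod_nat r]
        exact hr2
      · have e1 : x < b := by omega
        calc t = b ^ i * x + n % b ^ i := htt
          _ < b ^ i * x + b ^ i := by have := Nat.mod_lt n hp; omega
          _ = b ^ i * (x + 1) := by ring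
          _ ≤ b ^ i * b := Nat.mul_le_mul_left _ (by omega)
          _ = b ^ (lv g + 1) := (pow_succ _ _).symm
      · exact k2
    · rw [dR_iff]
      refine ⟨?_, dvd_mul_right _ _, ?_⟩
      · apply hr3
        have e1 : r + b ^ i * (b * (n / b ^ i / b) + (d - x)) ≡
            t + b ^ i * (b * (n / b ^ i / b) + (d - x)) [MOD M] := htM.symm.add_right _
        rw [← hsplit] at e1
        exact e1
      · rw [Nat.mul_div_cancel_left _ hp, Nat.mul_add_mod, Nat.mod_eq_of_lt (by omega)]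
        exact k3

theorem BadN_per {Ms : Finset ℕ} {M b m : ℕ} (hb : 0 < b) (hMs : ∀ k ∈ Ms, k ∣ M) (n : ℕ) :
    BadN Ms M b m (n + M * b ^ m) ↔ BadN Ms M b m n := by
  unfold BadN
  refine or_congr (exists_congr fun k => and_congr_right fun hk => ?_)
    (exists_congr fun j => and_congr_right fun hj => ?_)
  · exact (Nat.dvd_add_iff_left ((hMs k hk).mul_right _)).symm
  · obtain ⟨d, rfl⟩ : ∃ d, m = j + (d + 1) := ⟨m - j - 1, by omega⟩
    have hp : 0 < b ^ j := by positivity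
    have e1 : M * b ^ (j + (d + 1)) = b ^ j * (M * b ^ d * b) := by rw [pow_add, pow_succ]; ring
    rw [e1, Nat.add_mul_div_left _ _ hp, Nat.add_mul_mod_self_right]

end digits

/-- **the gadget of scheme 1 (digits + names)** -/
theorem g1 (S V : Type) [Monoid S] [Finite S] [AddCommGroup V] [Finite V] (act : V → S → V) :
    ∃ m r : ℕ, ∀ Bd : ℕ, ∃ (Ms : Finset ℕ) (M : ℕ), Ms.card ≤ r ∧
      (∀ k ∈ Ms, Bd < k ∧ k.Prime ∧ k ∣ M) ∧ 0 < M ∧
      ∀ b : ℕ, 4 * M + 4 < b → Nat.Coprime b M → ∀ (α : Type) (φ : List α → S),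
        (∀ u v, φ (u ++ v) = φ u * φ v) →
        ∃ (lam rho : List α → Option V) (nu : List α → V),
        (∀ P v, lam P = some v → P.length < b ^ m) ∧
        (∀ P Q v v', lam P = some v → rho Q = some v' →
          v' = act v (φ (P ++ Q)) + nu (P ++ Q)) ∧
        (∀ X, b ^ m ≤ X.length → ¬ BadN Ms M b m X.length → ∀ v,
          ∃ P Q, P ++ Q = X ∧ lam P = some v ∧ (rho Q).isSome) ∧
        (∀ u u' : List α, b ^ m ≤ u.length → b ^ m ≤ u'.length → u.take (b ^ m) = u'.take (b ^ m) →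
          u.length % (M * b ^ m) = u'.length % (M * b ^ m) → φ u = φ u' → nu u = nu u') := by
  classical
  obtain ⟨W, hW, hWf, m, e, F, hF⟩ := Noise513.explicit_noise S V act
  obtain ⟨r, hr⟩ := Names755.names (Gm act e F) (V × V) (col act e F)
  refine ⟨m, r, fun Bd => ?_⟩
  obtain ⟨Ms, M, nL, nR, h1, h2, h3, h4, h5, h6, h7, h8⟩ := hr Bd
  refine ⟨Ms, M, h1, h2, h3, fun b hb hco α φ hφ => ?_⟩
  have hK := clk (lv act e F) b nL nR (Ms := Ms) (M := M) (m := m) h3 hb hco
    (fun g => g.1.i.2) (col act e F) (fun k hk => (h2 k hk).2.2) h4 h5 h6 h7 h8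
  refine ⟨lam act e F φ 1 (dL (lv act e F) b nL) (fun t l => t % b ^ l),
    rho act e F φ 1 (dR (lv act e F) b nR) (fun t l => b ^ l * (t / b ^ l)),
    nu act e F φ 1 (fun n l => n % b ^ l) (fun n => ∀ k ∈ Ms, ¬ k ∣ n) (dL (lv act e F) b nL)
      (dR (lv act e F) b nR) (M * b ^ m), ?_, ?_, ?_, ?_⟩
  · intro P v hP
    obtain ⟨c, ⟨_, hc, _⟩, _⟩ := lam_some act e F φ 1 _ _ hP
    rw [Nat.div_one] at hc
    exact hK.leftN _ _ hc
  · intro P Q v v' hP hQ
    exact sound (Mp := 1) one_pos hφ (Nat.mul_pos h3 (pow_pos (by omega) _)) hK hP hQ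
  · intro X hX hB v
    exact complete (Mp := 1) one_pos hφ hK hF X (by rwa [one_mul]) (by rwa [Nat.div_one]) v
  · intro u u' a1 a2 a3 a4 a5
    exact nu_loc hK u u' a1 a2 a3 a4 a5

end Crest.Agent.R320.Gad330
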