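import Crest.Agent.R320.UG_219

/-!
# Row 320: the grid gadget (helper693's scheme 1 without small walls) with its ruler (helper347)
-/

set_option autoImplicit false

namespace Crest.Agent.R320.Gad_347

open Crest.Agent.R320.UG219

/-- least `y ≥ a` with `y ≡ T mod g` -/
def lst (a g T : ℕ) : ℕ := a + (T + (g - 1) * a) % g

lemma le_lst (a g T : ℕ) : a ≤ lst a g T := Nat.le_add_right _ _

lemma lst_lt {g : ℕ} (a T : ℕ) (hg : 0 < g) : lst a g T < a + g :=
  Nat.add_lt_add_left (Nat.mod_lt _ hg) _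

lemma lst_mod {g : ℕ} (a T : ℕ) (hg : 0 < g) : lst a g T ≡ T [MOD g] := by
  unfold lst
  have h1 : a + (T + (g - 1) * a) % g ≡ a + (T + (g - 1) * a) [MOD g] :=
    Nat.ModEq.add_left _ (Nat.mod_modEq _ _)
  refine h1.trans ?_
  have e : a + (T + (g - 1) * a) = T + g * a := by
    obtain ⟨g', rfl⟩ : ∃ g', g = g' + 1 := ⟨g - 1, by omega⟩
    simp only [Nat.add_sub_cancel]; ring
  rw [e]
  simp [Nat.ModEq]

lemma lst_unique {a g T y : ℕ} (hg : 0 < g) (h1 : a ≤ y) (h2 : y < a + g)
    (h3 : y ≡ T [MOD g]) : y = lst a g T := by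
  have h4 : y ≡ lst a g T [MOD g] := h3.trans (lst_mod a T hg).symm
  have h5 := le_lst a g T
  have h6 := lst_lt a T hg
  rcases le_total y (lst a g T) with h | h
  · obtain ⟨c, hc⟩ := (Nat.modEq_iff_dvd' h).1 h4
    rcases Nat.eq_zero_or_pos c with rfl | hc0
    · simp at hc; omega
    · have : g ≤ g * c := Nat.le_mul_of_pos_right _ hc0
      omega
  · obtain ⟨c, hc⟩ := (Nat.modEq_iff_dvd' h).1 h4.symm
    rcases Nat.eq_zero_or_pos c with rfl | hc0
    · simp at hc; omega
    · have : g ≤ g * c := Nat.le_mul_of_pos_right _ hc0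
      omega

lemma lst_congr {g T T' : ℕ} (a : ℕ) (h : T ≡ T' [MOD g]) : lst a g T = lst a g T' := by
  unfold lst
  congr 1
  exact Nat.ModEq.add_right _ h

/-- scale positions -/
def Am (M Gm : ℕ) : ℕ → ℕ
  | 0 => 0
  | (j + 1) => Am M Gm j + (M + 1) * Gm ^ j

lemma Am_mono (M Gm : ℕ) : Monotone (Am M Gm) :=
  monotone_nat_of_le_succ fun n => by rw [Am]; omega

lemma Am_succ (M Gm j : ℕ) : Am M Gm (j + 1) = Am M Gm j + Gm ^ j + M * Gm ^ j := by
  rw [Am]; ring

/-- hole end -/
def be (M Gm j T : ℕ) : ℕ := lst (Am M Gm j) (Gm ^ j) T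

/-- hole end seen from the right at a cut of level `i` -/
def sj (M Gm i j q : ℕ) : ℕ := lst (Am M Gm j - (Am M Gm i + Gm ^ i)) (Gm ^ j) q

section geo

variable {M Gm : ℕ}

lemma be_lt (hG : 0 < Gm) (j T : ℕ) : be M Gm j T < Am M Gm j + Gm ^ j :=
  lst_lt _ _ (pow_pos hG j)

lemma be_mono (hG : 0 < Gm) (j T : ℕ) : be M Gm j T ≤ be M Gm (j + 1) T := by
  have h1 := be_lt (M := M) hG j T
  have h2 : Am M Gm (j + 1) ≤ be M Gm (j + 1) T := le_lst _ _ _
  rw [Am_succ] at h2
  omega

lemma sj_eq (hG : 0 < Gm) {i j o q : ℕ} (hij : i < j) (ho1 : Am M Gm i + Gm ^ i ≤ o)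
    (ho2 : o < Am M Gm (i + 1))
    (hno : ∀ s, Am M Gm j - Am M Gm (i + 1) ≤ s → s < Am M Gm j - (Am M Gm i + Gm ^ i) →
      ¬ s ≡ q [MOD Gm ^ j]) : be M Gm j (o + q) = o + sj M Gm i j q := by
  have hA : Am M Gm (i + 1) ≤ Am M Gm j := Am_mono M Gm hij
  have h1 : Am M Gm j ≤ be M Gm j (o + q) := le_lst _ _ _
  have h2 := be_lt (M := M) hG j (o + q)
  have h3 : be M Gm j (o + q) ≡ o + q [MOD Gm ^ j] := lst_mod _ _ (pow_pos hG j)
  obtain ⟨s, hs⟩ : ∃ s, be M Gm j (o + q) = o + s := ⟨be M Gm j (o + q) - o, by omega⟩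
  rw [hs] at h1 h2 h3 ⊢
  have h4 : s ≡ q [MOD Gm ^ j] := Nat.ModEq.add_left_cancel' o h3
  have h5 : Am M Gm j - (Am M Gm i + Gm ^ i) ≤ s := by
    by_contra hc
    exact hno s (by omega) (by omega) h4
  have h6 : s = sj M Gm i j q := lst_unique (pow_pos hG j) h5 (by omega) h4
  rw [← h6]

end geo

section words

variable {α : Type*} {S : Type*} [Monoid S] (phi : List α → S)

/-- products of the segments -/
def segs (w : List α) (b : ℕ → ℕ) : ℕ → ℕ → List S
  | _, 0 => []
  | a, n + 1 => phi ((w.take (b (a + 1))).drop (b a)) :: segs w b (a + 1) n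

variable {phi}

@[simp] lemma length_segs (w : List α) (b : ℕ → ℕ) (a n : ℕ) : (segs phi w b a n).length = n := by
  induction n generalizing a with
  | zero => rfl
  | succ n ih => simp [segs, ih]

lemma segs_prod (hphi : ∀ u v, phi (u ++ v) = phi u * phi v) (w : List α) {b : ℕ → ℕ}
    (hb : ∀ j, b j ≤ b (j + 1)) (a n : ℕ) :
    (segs phi w b a n).prod * phi (w.drop (b (a + n))) = phi (w.drop (b a)) := by
  induction n generalizing a with
  | zero => simp [segs]
  | succ n ih =>
    have e : a + (n + 1) = a + 1 + n := by ring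
    rw [segs, List.prod_cons, mul_assoc, e, ih (a + 1), ← hphi]
    congr 1
    have h1 : w.drop (b (a + 1)) = (w.drop (b a)).drop (b (a + 1) - b a) := by
      rw [List.drop_drop]; congr 1; have := hb a; omega
    rw [h1, List.drop_take, List.take_append_drop]

lemma segs_all (hphi : ∀ u v, phi (u ++ v) = phi u * phi v) (w : List α) {b : ℕ → ℕ}
    (hb : ∀ j, b j ≤ b (j + 1)) (n : ℕ) :
    phi (w.take (b 0)) * (segs phi w b 0 n).prod * phi (w.drop (b n)) = phi w := by
  have := segs_prod hphi w hb 0 n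
  rw [Nat.zero_add] at this
  rw [mul_assoc, this, ← hphi, List.take_append_drop]

lemma segs_add (w : List α) (b : ℕ → ℕ) (a n k : ℕ) :
    segs phi w b a (n + k) = segs phi w b a n ++ segs phi w b (a + n) k := by
  induction n generalizing a with
  | zero => simp [segs]
  | succ n ih =>
    rw [show n + 1 + k = (n + k) + 1 by ring, segs, segs, ih, List.cons_append,
      show a + 1 + n = a + (n + 1) by ring]

lemma segs_left (P Q : List α) (b b' : ℕ → ℕ) (a n : ℕ)
    (h : ∀ j, a ≤ j → j ≤ a + n → b j = b' j ∧ b j ≤ P.length) :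
    segs phi (P ++ Q) b a n = segs phi P b' a n := by
  induction n generalizing a with
  | zero => rfl
  | succ n ih =>
    rw [segs, segs, ih (a + 1) (fun j h1 h2 => h j (by omega) (by omega))]
    obtain ⟨h1, h2⟩ := h a le_rfl (by omega)
    obtain ⟨h3, h4⟩ := h (a + 1) (by omega) (by omega)
    rw [List.take_append_of_le_length h4, h1, h3]

lemma segs_right (P Q : List α) (b s : ℕ → ℕ) (a n : ℕ)
    (h : ∀ j, a ≤ j → j ≤ a + n → b j = P.length + s j) :
    segs phi (P ++ Q) b a n = segs phi Q s a n := by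
  induction n generalizing a with
  | zero => rfl
  | succ n ih =>
    rw [segs, segs, ih (a + 1) (fun j h1 h2 => h j (by omega) (by omega))]
    have h1 := h a le_rfl (by omega)
    have h3 := h (a + 1) (by omega) (by omega)
    rw [h1, h3, List.take_length_add_append, List.drop_length_add_append]

end words

end Crest.Agent.R320.Gad_347
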