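import Crest.Agent.R320.Grid_899

/-!
# Row 320 (helper360): the whole scheme-1 gadget on all words, with the finite-state clause and a
ruler.  Over 899's grid gadget.
-/

set_option autoImplicit false
set_option linter.unusedSectionVars false

namespace Crest.Agent.R320.Gad_360

open Finset Crest.Agent.R320 Crest.Agent.R320.Grid_899

theorem seg_take {α : Type*} (u : List α) (a b A : ℕ) (h : b ≤ A) :
    seg u a b = seg (u.take A) a b := by
  unfold seg
  rw [List.drop_take, List.take_take, min_eq_left (by omega)]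

theorem seg_congr {α : Type*} {u u' : List α} (a b : ℕ) {A : ℕ} (h : b ≤ A)
    (hu : u.take A = u'.take A) : seg u a b = seg u' a b := by
  rw [seg_take u a b A h, hu, ← seg_take u' a b A h]

theorem drop_eq_seg {α : Type*} (u : List α) (a A : ℕ) (h : a ≤ A) :
    u.drop a = seg u a A ++ u.drop A := by
  have : u.drop A = (u.drop a).drop (A - a) := by
    rw [List.drop_drop]; congr 1; omega
  unfold seg
  rw [this, List.take_append_drop]

theorem phi_drop {α S : Type*} [Monoid S] {phi : List α → S}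
    (hphi : ∀ u v, phi (u ++ v) = phi u * phi v) {u u' : List α} {a A : ℕ} (h : a ≤ A)
    (hu : u.take A = u'.take A) (hd : phi (u.drop A) = phi (u'.drop A)) :
    phi (u.drop a) = phi (u'.drop a) := by
  rw [drop_eq_seg u a A h, drop_eq_seg u' a A h, hphi, hphi, seg_congr a A le_rfl hu, hd]

theorem phi_all {α S : Type*} [Monoid S] {phi : List α → S}
    (hphi : ∀ u v, phi (u ++ v) = phi u * phi v) {u u' : List α} {A : ℕ}
    (hu : u.take A = u'.take A) (hd : phi (u.drop A) = phi (u'.drop A)) :
    phi u = phi u' := by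
  conv_lhs => rw [← List.take_append_drop A u]
  conv_rhs => rw [← List.take_append_drop A u']
  rw [hphi, hphi, hu, hd]

theorem sub_mod {n n' c g : ℕ} (h : n % g = n' % g) (hc : c ≤ n) (hc' : c ≤ n') :
    (n - c) % g = (n' - c) % g := by
  apply Nat.ModEq.add_right_cancel' c
  unfold Nat.ModEq
  rw [Nat.sub_add_cancel hc, Nat.sub_add_cancel hc', h]

open Classical in
theorem fs_aux {α S V : Type*} [Monoid S] [AddCommGroup V] {N k : ℕ} (Ms κ m : ℕ)
    (e : ℕ → S → ZMod N × ZMod N)
    (phi : List α → S) (hphi : ∀ u v, phi (u ++ v) = phi u * phi v) (q : Fin k → ℕ)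
    (hMs : Ms = ∏ j, q j) (lev : (∀ j, ZMod (q j)) → ℕ)
    (R : ℕ → (∀ j, ZMod (q j)) → S → ZMod N × ZMod N → Option V)
    (D : (∀ j, ZMod (q j)) → S → ZMod N × ZMod N → V)
    {Q Q' : List α} (hA : Am Ms κ (m + 1) ≤ Q.length) (hA' : Am Ms κ (m + 1) ≤ Q'.length)
    (htk : Q.take (Am Ms κ (m + 1)) = Q'.take (Am Ms κ (m + 1)))
    (hmod : Q.length % (Ms * G κ m) = Q'.length % (Ms * G κ m))
    (hph : phi (Q.drop (Am Ms κ (m + 1))) = phi (Q'.drop (Am Ms κ (m + 1)))) :
    (if CondR Ms κ m (lev (fun j => (Q.length : ZMod (q j)))) Q.length then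
      R (lev (fun j => (Q.length : ZMod (q j)))) (fun j => (Q.length : ZMod (q j)))
        (hR Ms κ phi (lev (fun j => (Q.length : ZMod (q j)))) Q)
        (wrR Ms κ m e phi (lev (fun j => (Q.length : ZMod (q j)))) Q) else none) =
    (if CondR Ms κ m (lev (fun j => (Q'.length : ZMod (q j)))) Q'.length then
      R (lev (fun j => (Q'.length : ZMod (q j)))) (fun j => (Q'.length : ZMod (q j)))
        (hR Ms κ phi (lev (fun j => (Q'.length : ZMod (q j)))) Q')
        (wrR Ms κ m e phi (lev (fun j => (Q'.length : ZMod (q j)))) Q') else none) ∧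
    D (fun j => (Q.length : ZMod (q j))) (phi Q) (wT Ms κ m e phi Q) =
      D (fun j => (Q'.length : ZMod (q j))) (phi Q') (wT Ms κ m e phi Q') := by
  classical
  have hg : ∀ j, j ≤ m → Q.length % G κ j = Q'.length % G κ j := by
    intro j hj
    have h1 : G κ j ∣ Ms * G κ m := (G_dvd hj).mul_left _
    exact (Nat.ModEq.of_dvd h1 hmod : Nat.ModEq (G κ j) _ _)
  have hct : (fun j => (Q.length : ZMod (q j))) = (fun j => (Q'.length : ZMod (q j))) := by
    funext j
    rw [ZMod.natCast_eq_natCast_iff]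
    refine Nat.ModEq.of_dvd ?_ hmod
    rw [hMs]
    exact (Finset.dvd_prod_of_mem q (Finset.mem_univ j)).mul_right _
  rw [hct]
  set t := (fun j => (Q'.length : ZMod (q j))) with ht
  set i := lev t with hi
  have hAm : ∀ j, j ≤ m → lo Ms κ j ≤ Am Ms κ (m + 1) := fun j hj =>
    (lo_le j).trans (Am_mono (by omega))
  have hbd : ∀ j, j ≤ m → bd Ms κ j Q.length = bd Ms κ j Q'.length := by
    intro j hj
    have h1 := Am_mono (Ms := Ms) (κ := κ) (show j ≤ m + 1 by omega)
    unfold bd
    rw [sub_mod (hg j hj) (h1.trans hA) (h1.trans hA')]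
  have hmodr : ∀ j, i < j → j ≤ m → (Q.length + lo Ms κ i - Am Ms κ j) % G κ j =
      (Q'.length + lo Ms κ i - Am Ms κ j) % G κ j := by
    intro j hij hj
    have h1 := Am_mono (Ms := Ms) (κ := κ) (show j ≤ m + 1 by omega)
    refine sub_mod ?_ (by omega) (by omega)
    rw [Nat.add_mod, hg j hj, ← Nat.add_mod]
  have hpr : ∀ j, i < j → j ≤ m → pr Ms κ i j Q.length = pr Ms κ i j Q'.length := by
    intro j hij hj
    unfold pr
    rw [hmodr j hij hj]
  have hprle : ∀ j n, j ≤ m → pr Ms κ i j n ≤ Am Ms κ (m + 1) := by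
    intro j n hj
    have h1 := Nat.mod_lt (n + lo Ms κ i - Am Ms κ j) (G_pos (κ := κ) j)
    have h2 := hAm j hj
    unfold lo at h2
    unfold pr
    omega
  have hC : CondR Ms κ m i Q.length ↔ CondR Ms κ m i Q'.length := by
    unfold CondR
    constructor
    · rintro ⟨h1, h2, h3, h4⟩
      refine ⟨h1, hA', ?_, fun j hj hjm => ?_⟩
      · rw [Nat.dvd_iff_mod_eq_zero] at h3 ⊢
        rw [← hg i h1.le]; exact h3
      · rw [← hmodr j hj hjm]; exact h4 j hj hjm
    · rintro ⟨h1, h2, h3, h4⟩
      refine ⟨h1, hA, ?_, fun j hj hjm => ?_⟩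
      · rw [Nat.dvd_iff_mod_eq_zero] at h3 ⊢
        rw [hg i h1.le]; exact h3
      · rw [hmodr j hj hjm]; exact h4 j hj hjm
  refine ⟨?_, ?_⟩
  · by_cases hc : CondR Ms κ m i Q'.length
    · rw [if_pos hc, if_pos (hC.2 hc)]
      have him := hc.1
      have e1 : hR Ms κ phi i Q = hR Ms κ phi i Q' := by
        unfold hR
        rw [hpr (i + 1) (by omega) him]
        exact phi_drop hphi (hprle _ _ him) htk hph
      have e2 : wrR Ms κ m e phi i Q = wrR Ms κ m e phi i Q' := by
        unfold wrR
        refine Finset.sum_congr rfl fun j hj => ?_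
        rw [Finset.mem_Ico] at hj
        rw [hpr j (by omega) (by omega), hpr (j + 1) (by omega) (by omega),
          seg_congr _ _ (hprle (j + 1) _ (by omega)) htk]
      rw [e1, e2]
    · rw [if_neg hc, if_neg (fun h => hc (hC.1 h))]
  · have e3 : wT Ms κ m e phi Q = wT Ms κ m e phi Q' := by
      unfold wT
      refine Finset.sum_congr rfl fun j hj => ?_
      rw [Finset.mem_range] at hj
      unfold zT
      rw [hbd j (by omega), hbd (j + 1) (by omega), seg_congr _ _ _ htk]
      exact (bd_lt (j + 1) _).le.trans (hAm (j + 1) (by omega))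
    rw [e3, phi_all hphi htk hph]

/-- Scheme 1 on all words (899) with the finite-state clause. -/
theorem grid_fs (S V : Type*) [Monoid S] [Finite S] [AddCommGroup V] [Finite V]
    (act : V → S → V) :
    ∃ (k m : ℕ), ∀ q : Fin k → ℕ, (∀ j, Odd (q j)) →
      Pairwise (fun i j => Nat.Coprime (q i) (q j)) → ∀ κ : ℕ,
      ∀ (α : Type*) (phi : List α → S), (∀ u v, phi (u ++ v) = phi u * phi v) →
      ∃ (lam rho : List α → Option V) (nu : List α → V),
        (∀ P v, lam P = some v → P.length < Am (∏ j, q j) κ m ∧ P ≠ []) ∧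
        (∀ Q b, rho Q = some b → Am (∏ j, q j) κ (m + 1) ≤ Q.length) ∧
        (∀ P Q v b, lam P = some v → rho Q = some b → b = act v (phi (P ++ Q)) + nu (P ++ Q)) ∧
        (∀ u : List α, 2 * Am (∏ j, q j) κ (m + 1) ≤ u.length → (∀ j, ¬ q j ∣ u.length) →
          (∀ j, 1 ≤ j → j ≤ m →
            (∏ j, q j) * G κ (j - 1) ≤ (u.length - Am (∏ j, q j) κ j) % G κ j ∧
            (u.length - Am (∏ j, q j) κ j) % G κ j + (∏ j, q j) * G κ (j - 1) ≤ G κ j) →
          ∀ v, ∃ P Q, u = P ++ Q ∧ lam P = some v ∧ (rho Q).isSome) ∧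
        (∀ Q Q' : List α, Am (∏ j, q j) κ (m + 1) ≤ Q.length →
          Am (∏ j, q j) κ (m + 1) ≤ Q'.length →
          Q.take (Am (∏ j, q j) κ (m + 1)) = Q'.take (Am (∏ j, q j) κ (m + 1)) →
          Q.length % ((∏ j, q j) * G κ m) = Q'.length % ((∏ j, q j) * G κ m) →
          phi (Q.drop (Am (∏ j, q j) κ (m + 1))) = phi (Q'.drop (Am (∏ j, q j) κ (m + 1))) →
          rho Q = rho Q' ∧ nu Q = nu Q') := by
  classical
  obtain ⟨m, N, k, e, hN, H⟩ := NameGad808.unknownT_gadget S V act
  refine ⟨k, m, ?_⟩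
  intro q hq hcop κ α phi hphi
  obtain ⟨L, R, lev, D, hlev, hsound, hcomp⟩ := H q hq
  set Ms := ∏ j, q j with hMs
  let ct : ℕ → (∀ j, ZMod (q j)) := fun n j => (n : ZMod (q j))
  let lam : List α → Option V := fun P =>
    if h : ∃ i, CondL Ms κ m i P.length then
      L h.choose (ct P.length) (gT Ms κ phi h.choose P) (wlT Ms κ e phi h.choose P) else none
  let rho : List α → Option V := fun Q =>
    if CondR Ms κ m (lev (ct Q.length)) Q.length then
      R (lev (ct Q.length)) (ct Q.length) (hR Ms κ phi (lev (ct Q.length)) Q)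
        (wrR Ms κ m e phi (lev (ct Q.length)) Q) else none
  let nu : List α → V := fun u => D (ct u.length) (phi u) (wT Ms κ m e phi u)
  have hlam : ∀ P v, lam P = some v → ∃ i, CondL Ms κ m i P.length ∧
      L i (ct P.length) (gT Ms κ phi i P) (wlT Ms κ e phi i P) = some v := by
    intro P v h
    simp only [lam] at h
    split_ifs at h with h1
    exact ⟨h1.choose, h1.choose_spec, h⟩
  have hlam' : ∀ P v i, CondL Ms κ m i P.length →
      L i (ct P.length) (gT Ms κ phi i P) (wlT Ms κ e phi i P) = some v → lam P = some v := by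
    intro P v i hi h
    have h1 : ∃ i, CondL Ms κ m i P.length := ⟨i, hi⟩
    simp only [lam]
    rw [dif_pos h1, CondL_unique h1.choose_spec hi]
    exact h
  have hrho : ∀ Q b, rho Q = some b → ∃ i, CondR Ms κ m i Q.length ∧
      R i (ct Q.length) (hR Ms κ phi i Q) (wrR Ms κ m e phi i Q) = some b := by
    intro Q b h
    simp only [rho] at h
    split_ifs at h with h1
    exact ⟨_, h1, h⟩
  have hct : ∀ n n', ct (n + n') = ct n + ct n' := by
    intro n n'
    funext j
    simp [ct]
  refine ⟨lam, rho, nu, ?_, ?_, ?_, ?_, ?_⟩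
  · intro P v h
    obtain ⟨i, hi, _⟩ := hlam P v h
    have h2 := hi.2.2
    rw [lo_add] at h2
    have h3 := Am_mono (Ms := Ms) (κ := κ) (show i + 1 ≤ m by have := hi.1; omega)
    refine ⟨by omega, ?_⟩
    rintro rfl
    have h4 := hi.2.1
    have h5 := G_pos (κ := κ) i
    unfold lo at h4
    simp at h4
    omega
  · intro Q b h
    obtain ⟨i, hi, _⟩ := hrho Q b h
    exact hi.2.1
  · intro P Q v b h1 h2
    obtain ⟨i, hi, hL⟩ := hlam P v h1
    obtain ⟨i', hi', hR'⟩ := hrho Q b h2
    have := hsound i i' (ct P.length) (ct Q.length) (gT Ms κ phi i P) (hR Ms κ phi i' Q)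
      (phi (P ++ Q)) (wlT Ms κ e phi i P) (wrR Ms κ m e phi i' Q) (wT Ms κ m e phi (P ++ Q)) v b
      ?_ hL hR'
    · rw [this]
      simp only [nu]
      rw [List.length_append, hct]
    · rintro rfl
      refine ⟨zT Ms κ phi i (P ++ Q), ?_, ?_⟩
      · rw [← gT_left hi hi'.2.2.1, ← hT_right hi hi']
        exact split_g hphi i _
      · rw [← wlT_left e hi hi'.2.2.1, ← wrT_right e hi hi']
        exact split_w e hi.1 _
  · intro u hu hnd hcl v
    have hT0 : ∀ j, ct u.length j ≠ 0 := by
      intro j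
      simp only [ct]
      rw [Ne, ZMod.natCast_eq_zero_iff]
      exact hnd j
    obtain ⟨i, him, hi⟩ := hcomp (ct u.length) hT0 (phi u) (wT Ms κ m e phi u) v
    obtain ⟨t, t', htt, hL, hRR⟩ := hi (gT Ms κ phi i u) (zT Ms κ phi i u) (hT Ms κ phi i u)
      (wlT Ms κ e phi i u) (wrT Ms κ m e phi i u) (split_g hphi i u) (split_w e him u)
    -- the place
    have hqpos : ∀ j, 0 < q j := fun j => (hq j).pos
    have hAi : Am Ms κ (i + 1) ≤ Am Ms κ (m + 1) := Am_mono (by omega)
    set T := u.length with hT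
    -- start of the progression
    let r := lo Ms κ i + (T - lo Ms κ i) % G κ i
    have hr : G κ i ∣ T - r := by
      have h1 : lo Ms κ i ≤ T := by
        have := lo_le (Ms := Ms) (κ := κ) i
        omega
      have h2 : T - r = G κ i * ((T - lo Ms κ i) / G κ i) := by
        have := Nat.div_add_mod (T - lo Ms κ i) (G κ i)
        simp only [r]
        omega
      rw [h2]
      exact Dvd.intro _ rfl
    have hunit : ∀ j, IsUnit ((G κ i : ℕ) : ZMod (q j)) := by
      intro j
      rw [ZMod.isUnit_iff_coprime]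
      exact Nat.Coprime.pow_left _ ((Nat.coprime_two_left).2 (hq j))
    obtain ⟨ω, _, hω, hω2⟩ := NameGad808.crt_hit q hqpos hcop
      (fun j => (t j - (r : ZMod (q j))) * ((hunit j).unit⁻¹ : (ZMod (q j))ˣ)) 0
    have hω' : ω < Ms := by simp only [zero_add] at hω; exact hω
    let o := r + G κ i * ω
    have hr1 : (T - lo Ms κ i) % G κ i < G κ i := Nat.mod_lt _ (G_pos i)
    have ho1 : lo Ms κ i ≤ o := by simp only [o, r]; omega
    have ho2 : o < lo Ms κ i + Ms * G κ i := by
      have h1 : G κ i * (ω + 1) ≤ G κ i * Ms := Nat.mul_le_mul_left _ hω'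
      have h2 : G κ i * (ω + 1) = G κ i * ω + G κ i := by ring
      have h3 : Ms * G κ i = G κ i * Ms := Nat.mul_comm _ _
      simp only [o, r]
      omega
    have ho3 : o < Am Ms κ (m + 1) := by
      rw [lo_add] at ho2
      omega
    have hcto : ct o = t := by
      funext j
      simp only [ct, o]
      rw [Nat.cast_add, Nat.cast_mul, hω2 j]
      have : ((G κ i : ℕ) : ZMod (q j)) * ((hunit j).unit⁻¹ : (ZMod (q j))ˣ) = 1 := by
        have := (hunit j).mul_val_inv
        simpa using this
      calc (r : ZMod (q j)) + (G κ i : ZMod (q j)) * ((t j - (r : ZMod (q j))) *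
            ((hunit j).unit⁻¹ : (ZMod (q j))ˣ))
          = (r : ZMod (q j)) + (t j - (r : ZMod (q j))) * ((G κ i : ZMod (q j)) *
            ((hunit j).unit⁻¹ : (ZMod (q j))ˣ)) := by ring
        _ = t j := by rw [this]; ring
    have hPl : (u.take o).length = o := by
      rw [List.length_take]
      omega
    have hQl : (u.drop o).length = T - o := by
      rw [List.length_drop]
    have hu' : u.take o ++ u.drop o = u := List.take_append_drop _ _
    have hcto' : ct (T - o) = t' := by
      have h1 : ct T = ct o + ct (T - o) := by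
        rw [← hct]
        congr 1
        omega
      rw [← htt, hcto] at h1
      exact (add_left_cancel h1).symm
    have hLc : CondL Ms κ m i (u.take o).length := by
      rw [hPl]
      exact ⟨him, ho1, ho2⟩
    have hdv : G κ i ∣ T - o := by
      have h1 : T - o = (T - r) - G κ i * ω := by simp only [o]; omega
      rw [h1]
      exact Nat.dvd_sub hr (Dvd.intro _ rfl)
    have hRc : CondR Ms κ m i (u.drop o).length := by
      rw [hQl]
      refine ⟨him, by omega, hdv, ?_⟩
      intro j hj1 hj2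
      have hA : Am Ms κ j ≤ Am Ms κ (m + 1) := Am_mono (by omega)
      have h1 := hcl j (by omega) hj2
      have h2 : o + (T - o) = T := by omega
      apply right_clean hj1 ho1 ho2 (by omega)
      · rw [h2]; exact h1.1
      · rw [h2]; exact h1.2
    refine ⟨u.take o, u.drop o, hu'.symm, ?_, ?_⟩
    · apply hlam' _ _ i hLc
      rw [hPl, hcto, ← gT_left (phi := phi) hLc hRc.2.2.1, ← wlT_left e (phi := phi) hLc hRc.2.2.1,
        hu']
      exact hL
    · obtain ⟨b, hb⟩ := Option.isSome_iff_exists.1 hRR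
      have hl := (hlev i t' _ _ b hb).1
      have h3 : lev (ct (u.drop o).length) = i := by
        rw [hQl, hcto', hl]
      simp only [rho]
      rw [h3, if_pos hRc, ← hT_right (phi := phi) hLc hRc, ← wrT_right e (phi := phi) hLc hRc, hu',
        hQl, hcto']
      exact hRR
  · intro Q Q' hA hA' htk hmod hph
    exact fs_aux Ms κ m e phi hphi q hMs lev R D hA hA' htk hmod hph

end Crest.Agent.R320.Gad_360
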