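import Mathlib

/-!
# Row 320, SPOIL LEAF (helper457): wide ruler `c l = 2^l * K0` against the badness of G1
-/

set_option autoImplicit false

namespace Crest.Agent.R320.Sp_457

/-- badness of 852's gadget G1 -/
def Bad (Ms : Finset ℕ) (M m b : ℕ) (n : ℕ) : Prop :=
  (∃ k ∈ Ms, k ∣ n) ∨ ∃ j < m, ¬ (M ≤ n / b ^ j % b ∧ n / b ^ j % b + M + 1 ≤ b)

theorem two_pow_pair : ∀ (a b c d : ℕ), 2 ^ a + 2 ^ b = 2 ^ c + 2 ^ d →
    (a = c ∧ b = d) ∨ (a = d ∧ b = c) := by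
  have key : ∀ (a b c d : ℕ), a ≤ b → c ≤ d → 2 ^ a + 2 ^ b = 2 ^ c + 2 ^ d →
      a = c ∧ b = d := by
    intro a
    induction a with
    | zero =>
      intro b c d hab hcd h
      rcases Nat.eq_zero_or_pos c with rfl | hc
      · refine ⟨rfl, ?_⟩
        have : 2 ^ b = 2 ^ d := by omega
        exact Nat.pow_right_injective le_rfl this
      · exfalso
        obtain ⟨c', rfl⟩ := Nat.exists_eq_succ_of_ne_zero hc.ne'
        obtain ⟨d', rfl⟩ := Nat.exists_eq_succ_of_ne_zero (by omega : d ≠ 0)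
        rcases Nat.eq_zero_or_pos b with rfl | hb
        · have h1 : 2 ^ c'.succ = 2 * 2 ^ c' := by rw [pow_succ]; ring
          have h2 : 2 ^ d'.succ = 2 * 2 ^ d' := by rw [pow_succ]; ring
          have h3 : 0 < 2 ^ c' := by positivity
          have h4 : 0 < 2 ^ d' := by positivity
          rw [h1, h2] at h
          omega
        · obtain ⟨b', rfl⟩ := Nat.exists_eq_succ_of_ne_zero hb.ne'
          have h1 : 2 ^ c'.succ = 2 * 2 ^ c' := by rw [pow_succ]; ring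
          have h2 : 2 ^ d'.succ = 2 * 2 ^ d' := by rw [pow_succ]; ring
          have h3 : 2 ^ b'.succ = 2 * 2 ^ b' := by rw [pow_succ]; ring
          rw [h1, h2, h3] at h
          omega
    | succ a ih =>
      intro b c d hab hcd h
      obtain ⟨b', rfl⟩ := Nat.exists_eq_succ_of_ne_zero (by omega : b ≠ 0)
      have h1 : 2 ^ (a + 1) = 2 * 2 ^ a := by rw [pow_succ]; ring
      have h3 : 2 ^ b'.succ = 2 * 2 ^ b' := by rw [pow_succ]; ring
      rcases Nat.eq_zero_or_pos c with rfl | hc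
      · exfalso
        rcases Nat.eq_zero_or_pos d with rfl | hd
        · have h4 : 0 < 2 ^ a := by positivity
          have h5 : 0 < 2 ^ b' := by positivity
          rw [h1, h3] at h
          omega
        · obtain ⟨d', rfl⟩ := Nat.exists_eq_succ_of_ne_zero hd.ne'
          have h2 : 2 ^ d'.succ = 2 * 2 ^ d' := by rw [pow_succ]; ring
          rw [h1, h3, h2] at h
          omega
      · obtain ⟨c', rfl⟩ := Nat.exists_eq_succ_of_ne_zero hc.ne'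
        obtain ⟨d', rfl⟩ := Nat.exists_eq_succ_of_ne_zero (by omega : d ≠ 0)
        have h2 : 2 ^ d'.succ = 2 * 2 ^ d' := by rw [pow_succ]; ring
        have h4 : 2 ^ c'.succ = 2 * 2 ^ c' := by rw [pow_succ]; ring
        rw [h1, h3, h2, h4] at h
        obtain ⟨h5, h6⟩ := ih b' c' d' (by omega) (by omega) (by omega)
        exact ⟨by omega, by omega⟩
  intro a b c d h
  rcases le_total a b with hab | hab <;> rcases le_total c d with hcd | hcd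
  · exact .inl (key a b c d hab hcd h)
  · obtain ⟨h1, h2⟩ := key a b d c hab hcd (by omega)
    exact .inr ⟨h1, h2⟩
  · obtain ⟨h1, h2⟩ := key b a c d hab hcd (by omega)
    exact .inr ⟨h2, h1⟩
  · obtain ⟨h1, h2⟩ := key b a d c hab hcd (by omega)
    exact .inl ⟨h2, h1⟩

/-- a bad digit puts `n` near a multiple of `b * B` -/
theorem near {n B b M : ℕ} (hB : 0 < B) (hb : 0 < b)
    (h : ¬ (M ≤ n / B % b ∧ n / B % b + M + 1 ≤ b)) :
    ∃ q : ℤ, |(n : ℤ) - q * (b * B)| ≤ M * B := by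
  have h1 : n % (B * b) = n % B + B * (n / B % b) := Nat.mod_mul
  have h2 : B * b * (n / (B * b)) + n % (B * b) = n := Nat.div_add_mod n (B * b)
  have h3 : n % B < B := Nat.mod_lt _ hB
  have h4 : n / B % b < b := Nat.mod_lt _ hb
  set a := n / B % b with ha
  set s := n % B with hs
  set q := n / (B * b) with hq
  have h5 : (n : ℤ) = (q : ℤ) * (b * B) + (s + B * a) := by
    rw [← h2, h1]; push_cast; ring
  by_cases hM : a < M
  · refine ⟨q, ?_⟩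
    rw [h5]
    have h6 : s + B * a ≤ M * B := by nlinarith
    have h6' : (s : ℤ) + B * a ≤ M * B := by exact_mod_cast h6
    have h7 : (0 : ℤ) ≤ (s : ℤ) + B * a := by positivity
    rw [abs_le]
    constructor <;> linarith
  · refine ⟨q + 1, ?_⟩
    have h8 : b ≤ a + M := by omega
    rw [h5]
    have h9 : b * B ≤ a * B + M * B := by nlinarith
    have h9' : (b : ℤ) * B ≤ a * B + M * B := by exact_mod_cast h9
    have h10 : s + B * a ≤ b * B := by nlinarith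
    have h10' : (s : ℤ) + B * a ≤ b * B := by exact_mod_cast h10
    have h11 : (0 : ℤ) ≤ s := by positivity
    rw [abs_le]
    constructor <;> nlinarith

theorem geo {b : ℤ} (hb : 2 ≤ b) (j : ℕ) :
    b ^ j ≤ ∑ i ∈ Finset.range (j + 1), b ^ i ∧
      ∑ i ∈ Finset.range (j + 1), b ^ i ≤ 2 * b ^ j - 1 := by
  induction j with
  | zero => simp
  | succ j ih =>
    rw [Finset.sum_range_succ]
    have h3 : b ^ (j + 1) = b ^ j * b := pow_succ _ _
    have h4 : (0 : ℤ) ≤ b ^ j := by positivity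
    constructor
    · linarith [ih.1]
    · nlinarith [ih.2]

/-- two different marks differences cannot both give a bad digit `j` -/
theorem digit {M b j : ℕ} {K0 n1 n2 : ℕ} {δ L : ℤ} (hM : 0 < M) (hb : 2 ≤ b)
    (hK0 : ∃ t : ℤ, (K0 : ℤ) = 4 * M * (∑ i ∈ Finset.range (j + 1), (b : ℤ) ^ i) + t * b ^ (j + 1))
    (hδ : δ ≠ 0) (hδL : |δ| ≤ L) (hbL : 8 * M * L + 2 * M < b)
    (hn : (n1 : ℤ) - n2 = K0 * δ)
    (h1 : ¬ (M ≤ n1 / b ^ j % b ∧ n1 / b ^ j % b + M + 1 ≤ b))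
    (h2 : ¬ (M ≤ n2 / b ^ j % b ∧ n2 / b ^ j % b + M + 1 ≤ b)) : False := by
  have hBp : 0 < b ^ j := by positivity
  obtain ⟨q1, hq1⟩ := near hBp (by omega) h1
  obtain ⟨q2, hq2⟩ := near hBp (by omega) h2
  obtain ⟨t, ht⟩ := hK0
  set B : ℤ := (b : ℤ) ^ j with hB
  have hBB : ((b ^ j : ℕ) : ℤ) = B := by push_cast; rfl
  rw [hBB] at hq1 hq2
  set G : ℤ := ∑ i ∈ Finset.range (j + 1), (b : ℤ) ^ i with hG
  have hb' : (2 : ℤ) ≤ b := by exact_mod_cast hb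
  have hB1 : 1 ≤ B := one_le_pow₀ (by linarith)
  have hM' : (1 : ℤ) ≤ M := by exact_mod_cast hM
  have hGB : B ≤ G ∧ G ≤ 2 * B - 1 := by
    rw [hG, hB]
    exact geo hb' j
  have e1 : (n1 : ℤ) - n2 = 4 * M * G * δ + (t * δ) * (b * B) := by
    rw [hn, ht, pow_succ, hB]; ring
  have e2 : |4 * M * G * δ - (q1 - q2 - t * δ) * (b * B)| ≤ 2 * (M * B) := by
    have : 4 * M * G * δ - (q1 - q2 - t * δ) * (b * B) =
        ((n1 : ℤ) - q1 * (b * B)) - ((n2 : ℤ) - q2 * (b * B)) := by linarith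
    rw [this]
    calc |((n1 : ℤ) - q1 * (b * B)) - ((n2 : ℤ) - q2 * (b * B))|
        ≤ |(n1 : ℤ) - q1 * (b * B)| + |(n2 : ℤ) - q2 * (b * B)| := abs_sub _ _
      _ ≤ M * B + M * B := add_le_add hq1 hq2
      _ = 2 * (M * B) := by ring
  have hδ1 : 1 ≤ |δ| := Int.one_le_abs hδ
  have e3 : |4 * M * G * δ| = 4 * M * G * |δ| := by
    rw [abs_mul, abs_of_nonneg]
    have := hGB.1
    positivity
  have e4 : 4 * (M * B) ≤ 4 * M * G * |δ| := by
    have h3 : (M : ℤ) * B ≤ M * G := by nlinarith [hGB.1]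
    have h4 : (M : ℤ) * G ≤ M * G * |δ| := by
      have : (0 : ℤ) ≤ M * G := by nlinarith [hGB.1]
      nlinarith
    nlinarith
  have e5 : 4 * M * G * |δ| ≤ 8 * M * L * B := by
    have h3 : G * |δ| ≤ 2 * B * L := by
      have : G ≤ 2 * B := by linarith [hGB.2]
      have hG0 : (0 : ℤ) ≤ G := by linarith [hGB.1]
      calc G * |δ| ≤ G * L := by nlinarith
        _ ≤ 2 * B * L := by nlinarith [abs_nonneg δ]
    nlinarith
  by_cases hq : q1 - q2 - t * δ = 0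
  · rw [hq, zero_mul, sub_zero, e3] at e2
    have : 0 < (M : ℤ) * B := by positivity
    linarith
  · have h3 : 1 ≤ |q1 - q2 - t * δ| := Int.one_le_abs hq
    have hbB : (0 : ℤ) < b * B := by positivity
    have h4 : (b : ℤ) * B ≤ |(q1 - q2 - t * δ) * (b * B)| := by
      rw [abs_mul, abs_of_pos hbB]
      nlinarith
    have h5 : |(q1 - q2 - t * δ) * (b * B)| ≤ |4 * M * G * δ| + 2 * (M * B) := by
      have := abs_sub_abs_le_abs_sub ((q1 - q2 - t * δ) * (b * B)) (4 * M * G * δ)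
      rw [abs_sub_comm] at this
      linarith
    rw [e3] at h5
    nlinarith

open Classical in
/-- ruler `c l = 2 ^ l * K0` -/
theorem spoil_aux {Ms : Finset ℕ} {M m b K K0 : ℕ} (hM : 0 < M) (hb : 2 ≤ b)
    (hMs : ∀ k ∈ Ms, 2 ^ (K + 1) < k ∧ k ∣ M)
    (hK1 : ∃ t : ℤ, (K0 : ℤ) = 1 + t * M)
    (hK2 : ∀ j < m, ∃ t : ℤ, (K0 : ℤ) =
      4 * M * (∑ i ∈ Finset.range (j + 1), (b : ℤ) ^ i) + t * b ^ (j + 1))
    (hbL : 8 * M * 2 ^ (K + 1) + 2 * M < b) (T : ℕ) (hT : ∀ l < K, 2 ^ l * K0 ≤ T) :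
    (((Finset.range K ×ˢ Finset.range K).filter fun p : ℕ × ℕ => p.1 ≠ p.2 ∧
      Bad Ms M m b (T + 2 ^ p.2 * K0 - 2 ^ p.1 * K0)).card) ≤ Ms.card + m := by
  set S := (Finset.range K ×ˢ Finset.range K).filter fun p : ℕ × ℕ => p.1 ≠ p.2 ∧
      Bad Ms M m b (T + 2 ^ p.2 * K0 - 2 ^ p.1 * K0) with hS
  set f : ℕ × ℕ → ℕ := fun p => T + 2 ^ p.2 * K0 - 2 ^ p.1 * K0 with hf
  have hmem : ∀ p ∈ S, p.1 < K ∧ p.2 < K ∧ p.1 ≠ p.2 ∧ Bad Ms M m b (f p) := by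
    intro p hp
    rw [hS, Finset.mem_filter, Finset.mem_product, Finset.mem_range, Finset.mem_range] at hp
    exact ⟨hp.1.1, hp.1.2, hp.2.1, hp.2.2⟩
  have hfz : ∀ p ∈ S, (f p : ℤ) = T + (2 ^ p.2 - 2 ^ p.1) * K0 := by
    intro p hp
    obtain ⟨h1, h2, -, -⟩ := hmem p hp
    have h3 := hT p.1 h1
    have h4 : 2 ^ p.1 * K0 ≤ T + 2 ^ p.2 * K0 := le_trans h3 (Nat.le_add_right _ _)
    have h5 : (f p : ℤ) = ((T + 2 ^ p.2 * K0 : ℕ) : ℤ) - ((2 ^ p.1 * K0 : ℕ) : ℤ) := by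
      rw [hf]; exact Nat.cast_sub h4
    rw [h5]; push_cast; ring
  -- difference of two marks differences
  have hdiff : ∀ p ∈ S, ∀ q ∈ S, ((2 : ℤ) ^ p.2 - 2 ^ p.1) - (2 ^ q.2 - 2 ^ q.1) = 0 → p = q := by
    intro p hp q hq h
    obtain ⟨-, -, h3, -⟩ := hmem p hp
    obtain ⟨-, -, h4, -⟩ := hmem q hq
    have h5 : (2 : ℤ) ^ p.2 + 2 ^ q.1 = 2 ^ p.1 + 2 ^ q.2 := by linarith
    have h6 : 2 ^ p.2 + 2 ^ q.1 = 2 ^ p.1 + 2 ^ q.2 := by exact_mod_cast h5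
    rcases two_pow_pair _ _ _ _ h6 with ⟨h7, -⟩ | ⟨h7, h8⟩
    · exact (h3 h7.symm).elim
    · exact Prod.ext h8.symm h7
  have hbound : ∀ p ∈ S, ∀ q ∈ S,
      |((2 : ℤ) ^ p.2 - 2 ^ p.1) - (2 ^ q.2 - 2 ^ q.1)| ≤ 2 ^ (K + 1) := by
    intro p hp q hq
    obtain ⟨h1, h2, -, -⟩ := hmem p hp
    obtain ⟨h3, h4, -, -⟩ := hmem q hq
    have g : ∀ l < K, (0 : ℤ) < 2 ^ l ∧ (2 : ℤ) ^ l ≤ 2 ^ K := fun l hl =>
      ⟨by positivity, pow_le_pow_right₀ (by norm_num) hl.le⟩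
    have e : (2 : ℤ) ^ (K + 1) = 2 * 2 ^ K := by rw [pow_succ]; ring
    obtain ⟨a1, a2⟩ := g _ h1
    obtain ⟨a3, a4⟩ := g _ h2
    obtain ⟨a5, a6⟩ := g _ h3
    obtain ⟨a7, a8⟩ := g _ h4
    rw [e, abs_le]
    constructor <;> linarith
  have hsub : S ⊆ (Ms.biUnion fun k => S.filter fun p => k ∣ f p) ∪
      ((Finset.range m).biUnion fun j => S.filter fun p =>
        ¬ (M ≤ f p / b ^ j % b ∧ f p / b ^ j % b + M + 1 ≤ b)) := by
    intro p hp
    obtain ⟨-, -, -, h4⟩ := hmem p hp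
    rcases h4 with ⟨k, hk, h5⟩ | ⟨j, hj, h5⟩
    · refine Finset.mem_union_left _ (Finset.mem_biUnion.2 ⟨k, hk, ?_⟩)
      exact Finset.mem_filter.2 ⟨hp, h5⟩
    · refine Finset.mem_union_right _ (Finset.mem_biUnion.2 ⟨j, Finset.mem_range.2 hj, ?_⟩)
      exact Finset.mem_filter.2 ⟨hp, h5⟩
  have hone1 : ∀ k ∈ Ms, (S.filter fun p => k ∣ f p).card ≤ 1 := by
    intro k hk
    rw [Finset.card_le_one]
    intro p hp q hq
    rw [Finset.mem_filter] at hp hq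
    apply hdiff p hp.1 q hq.1
    obtain ⟨hk1, t', ht'⟩ := hMs k hk
    obtain ⟨t, ht⟩ := hK1
    set D : ℤ := ((2 : ℤ) ^ p.2 - 2 ^ p.1) - (2 ^ q.2 - 2 ^ q.1) with hD
    have h1 : (k : ℤ) ∣ (f p : ℤ) - f q :=
      dvd_sub (Int.natCast_dvd_natCast.2 hp.2) (Int.natCast_dvd_natCast.2 hq.2)
    have h2 : (f p : ℤ) - f q = D * K0 := by
      rw [hfz p hp.1, hfz q hq.1, hD]; ring
    rw [h2, ht, ht'] at h1
    have h3 : (k : ℤ) ∣ D := by
      have h4 : D * (1 + t * ((k * t' : ℕ) : ℤ)) = D + k * (D * t * t') := by push_cast; ring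
      rw [h4] at h1
      exact (Int.dvd_add_left ⟨_, rfl⟩).1 h1
    by_contra hne
    have h5 := Int.le_of_dvd (abs_pos.2 hne) ((dvd_abs _ _).2 h3)
    have h6 := hbound p hp.1 q hq.1
    have h7 : ((2 ^ (K + 1) : ℕ) : ℤ) < k := by exact_mod_cast hk1
    push_cast at h7
    linarith
  have hone2 : ∀ j ∈ Finset.range m, (S.filter fun p =>
        ¬ (M ≤ f p / b ^ j % b ∧ f p / b ^ j % b + M + 1 ≤ b)).card ≤ 1 := by
    intro j hj
    rw [Finset.card_le_one]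
    intro p hp q hq
    rw [Finset.mem_filter] at hp hq
    apply hdiff p hp.1 q hq.1
    by_contra hne
    have h2 : (f p : ℤ) - f q =
        K0 * (((2 : ℤ) ^ p.2 - 2 ^ p.1) - (2 ^ q.2 - 2 ^ q.1)) := by
      rw [hfz p hp.1, hfz q hq.1]; ring
    exact digit hM hb (hK2 j (Finset.mem_range.1 hj)) hne (hbound p hp.1 q hq.1)
      (by exact_mod_cast hbL) h2 hp.2 hq.2
  calc S.card ≤ _ := Finset.card_le_card hsub
    _ ≤ _ := Finset.card_union_le _ _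
    _ ≤ Ms.card * 1 + (Finset.range m).card * 1 :=
      add_le_add (Finset.card_biUnion_le_card_mul _ _ _ hone1)
        (Finset.card_biUnion_le_card_mul _ _ _ hone2)
    _ = Ms.card + m := by simp

/-- existence of `K0` -/
theorem exists_K0 {M m b : ℕ} (hb : 0 < b) (hM : 0 < M) (hcop : Nat.Coprime b M) (N1 : ℕ) :
    ∃ K0 : ℕ, N1 < K0 ∧ (∃ t : ℤ, (K0 : ℤ) = 1 + t * M) ∧
      ∀ j < m, ∃ t : ℤ, (K0 : ℤ) =
        4 * M * (∑ i ∈ Finset.range (j + 1), (b : ℤ) ^ i) + t * b ^ (j + 1) := by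
  have hc : Nat.Coprime M (b ^ m) := (Nat.Coprime.pow_left m hcop).symm
  obtain ⟨k, hk1, hk2⟩ := Nat.chineseRemainder hc 1 (4 * M * ∑ i ∈ Finset.range m, b ^ i)
  have hbm : 0 < b ^ m := by positivity
  refine ⟨k + (N1 + 1) * (M * b ^ m), ?_, ?_, ?_⟩
  · have : 1 ≤ M * b ^ m := Nat.mul_pos hM hbm
    nlinarith
  · obtain ⟨t, ht⟩ := (Nat.modEq_iff_dvd.1 hk1.symm)
    refine ⟨t + (N1 + 1) * b ^ m, ?_⟩
    push_cast at ht ⊢
    linear_combination ht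
  · intro j hj
    obtain ⟨t, ht⟩ := (Nat.modEq_iff_dvd.1 hk2.symm)
    have hsplit : ∃ s : ℤ, (∑ i ∈ Finset.range m, (b : ℤ) ^ i) =
        (∑ i ∈ Finset.range (j + 1), (b : ℤ) ^ i) + s * b ^ (j + 1) := by
      refine ⟨∑ i ∈ Finset.range (m - (j + 1)), (b : ℤ) ^ i, ?_⟩
      have h1 : m = (j + 1) + (m - (j + 1)) := by omega
      conv_lhs => rw [h1]
      rw [Finset.sum_range_add, Finset.sum_mul]
      congr 1
      apply Finset.sum_congr rfl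
      intro i _
      rw [pow_add]; ring
    obtain ⟨s, hs⟩ := hsplit
    have hp : (b : ℤ) ^ m = b ^ (m - (j + 1)) * b ^ (j + 1) := by
      rw [← pow_add]; congr 1; omega
    refine ⟨4 * M * s + t * b ^ (m - (j + 1)) + (N1 + 1) * M * b ^ (m - (j + 1)), ?_⟩
    push_cast at ht ⊢
    rw [hs, hp] at ht
    rw [hp]
    linear_combination ht

open Classical in
/-- SPOIL LEAF -/
theorem spoil {Ms : Finset ℕ} {M m b : ℕ} (K N1 : ℕ) (hM : 0 < M)
    (hMs : ∀ k ∈ Ms, 2 ^ (K + 1) < k ∧ k ∣ M) (hcop : Nat.Coprime b M)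
    (hbL : 8 * M * 2 ^ (K + 1) + 2 * M < b) :
    ∃ c : ℕ → ℕ, (∀ i j, i < j → c i + N1 < c j) ∧ N1 < c 0 ∧
      (∀ i j i' j', i ≠ j → i' ≠ j' → (i, j) ≠ (i', j') →
        (N1 : ℤ) < |((c j : ℤ) - c i) - (c j' - c i')|) ∧
      ∀ T : ℕ, (∀ l < K, c l ≤ T) →
        (((Finset.range K ×ˢ Finset.range K).filter fun p : ℕ × ℕ => p.1 ≠ p.2 ∧
          Bad Ms M m b (T + c p.2 - c p.1)).card) ≤ Ms.card + m := by
  have hb : 2 ≤ b := by
    have : 0 < M * 2 ^ (K + 1) := by positivity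
    nlinarith
  obtain ⟨K0, h0, h1, h2⟩ := exists_K0 (m := m) (by omega) hM hcop N1
  refine ⟨fun l => 2 ^ l * K0, ?_, ?_, ?_, ?_⟩
  · intro i j hij
    have h3 : 2 ^ (i + 1) ≤ 2 ^ j := Nat.pow_le_pow_right (by norm_num) hij
    have h4 : 2 ^ (i + 1) = 2 * 2 ^ i := by rw [pow_succ]; ring
    have h5 : 1 ≤ 2 ^ i := Nat.one_le_two_pow
    show 2 ^ i * K0 + N1 < 2 ^ j * K0
    nlinarith
  · show N1 < 2 ^ 0 * K0
    simpa using h0
  · intro i j i' j' hij hij' hne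
    have h3 : ((2 ^ j * K0 : ℕ) : ℤ) - ((2 ^ i * K0 : ℕ) : ℤ) -
        (((2 ^ j' * K0 : ℕ) : ℤ) - ((2 ^ i' * K0 : ℕ) : ℤ)) =
          ((2 : ℤ) ^ j - 2 ^ i - (2 ^ j' - 2 ^ i')) * K0 := by push_cast; ring
    show (N1 : ℤ) < |((2 ^ j * K0 : ℕ) : ℤ) - ((2 ^ i * K0 : ℕ) : ℤ) -
        (((2 ^ j' * K0 : ℕ) : ℤ) - ((2 ^ i' * K0 : ℕ) : ℤ))|
    rw [h3, abs_mul]
    have h4 : (2 : ℤ) ^ j - 2 ^ i - (2 ^ j' - 2 ^ i') ≠ 0 := by
      intro h
      have h5 : (2 : ℤ) ^ j + 2 ^ i' = 2 ^ i + 2 ^ j' := by linarith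
      have h6 : 2 ^ j + 2 ^ i' = 2 ^ i + 2 ^ j' := by exact_mod_cast h5
      rcases two_pow_pair _ _ _ _ h6 with ⟨h7, -⟩ | ⟨h7, h8⟩
      · exact hij h7.symm
      · exact hne (by rw [h7, h8])
    have h5 := Int.one_le_abs h4
    have h6 : |(K0 : ℤ)| = K0 := abs_of_nonneg (by positivity)
    have h7 : (N1 : ℤ) < K0 := by exact_mod_cast h0
    have h8 : (0 : ℤ) ≤ K0 := by positivity
    rw [h6]
    nlinarith
  · intro T hT
    exact spoil_aux hM hb hMs h1 h2 hbL T hT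

end Crest.Agent.R320.Sp_457
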