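import Crest.Agent.R320.G1_76
import Crest.Agent.R320.Sp_457
import Crest.Agent.R320.ExactR_237

/-!
# Row 320: gadget 1 with its ruler (helper457) = G1_76.g1 + Sp_457.spoil
-/

set_option autoImplicit false

namespace Crest.Agent.R320.Gad_457

open Crest.Agent.R320

theorem bad_per {Ms : Finset ℕ} {M m b : ℕ} (hb : 0 < b) (hMs : ∀ k ∈ Ms, k ∣ M) (T : ℕ) :
    Sp_457.Bad Ms M m b (T + M * b ^ m) ↔ Sp_457.Bad Ms M m b T := by
  have hd : ∀ j < m, (T + M * b ^ m) / b ^ j % b = T / b ^ j % b := by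
    intro j hj
    have h1 : M * b ^ m = b ^ j * (M * b ^ (m - j - 1) * b) := by
      have : b ^ m = b ^ j * (b ^ (m - j - 1) * b) := by
        rw [← pow_succ, ← pow_add]
        congr 1; omega
      rw [this]; ring
    rw [h1, Nat.add_mul_div_left _ _ (by positivity), Nat.add_mul_mod_self_right]
  unfold Sp_457.Bad
  refine or_congr ?_ ?_
  · constructor
    · rintro ⟨k, hk, h⟩
      exact ⟨k, hk, (Nat.dvd_add_left ((hMs k hk).mul_right _)).1 h⟩
    · rintro ⟨k, hk, h⟩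
      exact ⟨k, hk, (Nat.dvd_add_left ((hMs k hk).mul_right _)).2 h⟩
  · constructor
    · rintro ⟨j, hj, h⟩
      rw [hd j hj] at h
      exact ⟨j, hj, h⟩
    · rintro ⟨j, hj, h⟩
      refine ⟨j, hj, ?_⟩
      rw [hd j hj]
      exact h

/-- gadget 1 with ruler, all clauses -/
theorem gad (S V : Type) [Monoid S] [Finite S] [AddCommGroup V] [Finite V] (act : V → S → V) :
    ∃ R1 : ℕ, ∀ K : ℕ, ∃ (N1 M : ℕ) (c : ℕ → ℕ) (BadT : ℕ → Prop), 0 < M ∧ 0 < N1 ∧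
    (∀ i j, i < j → j < K → c i < c j) ∧
    (∀ i i' j j', i < K → i' < K → j < K → j' < K → i' ≠ i → j' ≠ j →
      c i + c j' < c j + c i' + 2 * N1 → c j + c i' < c i + c j' + 2 * N1 → i = j) ∧
    (∀ T : ℕ, (∀ k, k < K → c k ≤ T) → ∀ F : Finset (ℕ × ℕ),
      (∀ p ∈ F, p.1 < K ∧ p.2 < K ∧ p.1 ≠ p.2 ∧ BadT (T + c p.2 - c p.1)) → F.card ≤ R1) ∧
    (∀ T : ℕ, (∀ k, k < K → c k ≤ T) → ∀ I : Finset ℕ,
      (∀ k ∈ I, k < K ∧ ∃ k', k' < K ∧ k' ≠ k ∧ BadT (T + c k' - c k)) → I.card ≤ R1) ∧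
    (∀ T, (BadT (T + M) ↔ BadT T)) ∧
    ∀ (A : Type) (f : A → S), ∃ (lam rho : List A → Option V) (nu : List A → V),
      (∀ P v, lam P = some v → P.length ≤ N1) ∧
      (∀ P Q v r, lam P = some v → rho Q = some r → r = act v ((P ++ Q).map f).prod + nu (P ++ Q)) ∧
      (∀ Y, N1 ≤ Y.length → ¬ BadT Y.length → ∀ v, ∃ P Q, Y = P ++ Q ∧ lam P = some v ∧
        (rho Q).isSome) ∧
      (∀ u u', N1 ≤ u.length → N1 ≤ u'.length → u.take N1 = u'.take N1 →
        u.length % M = u'.length % M →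
        ((u.drop N1).map f).prod = ((u'.drop N1).map f).prod → rho u = rho u' ∧ nu u = nu u') := by
  classical
  obtain ⟨m, r, hg⟩ := G1_76.g1 S V act
  refine ⟨r + m, fun K => ?_⟩
  obtain ⟨Ms, M, hcard, hMs, hM, hb⟩ := hg (2 ^ (K + 1))
  set b := M * (8 * 2 ^ (K + 1) + 7) + 1 with hbdef
  have hb1 : 4 * M + 4 < b := by
    have : 1 ≤ 2 ^ (K + 1) := Nat.one_le_two_pow
    have h2 : M * (8 * 1 + 7) ≤ M * (8 * 2 ^ (K + 1) + 7) := Nat.mul_le_mul_left _ (by omega)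
    omega
  have hb2 : Nat.Coprime b M := by
    rw [hbdef]
    simp
  have hb3 : 8 * M * 2 ^ (K + 1) + 2 * M < b := by
    rw [hbdef]
    nlinarith
  have hb0 : 0 < b := by omega
  obtain ⟨c, hc1, hc2, hc3, hc4⟩ := Sp_457.spoil (Ms := Ms) (M := M) (m := m) (b := b) K
    (2 * b ^ m) hM (fun k hk => ⟨(hMs k hk).1, (hMs k hk).2.2⟩) hb2 hb3
  have hF : ∀ T : ℕ, (∀ k, k < K → c k ≤ T) → ∀ F : Finset (ℕ × ℕ),
      (∀ p ∈ F, p.1 < K ∧ p.2 < K ∧ p.1 ≠ p.2 ∧ Sp_457.Bad Ms M m b (T + c p.2 - c p.1)) →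
      F.card ≤ r + m := by
    intro T hT F hF
    have h1 := hc4 T hT
    refine le_trans (Finset.card_le_card ?_) (le_trans h1 (by omega))
    intro p hp
    obtain ⟨a1, a2, a3, a4⟩ := hF p hp
    exact Finset.mem_filter.2 ⟨Finset.mem_product.2
      ⟨Finset.mem_range.2 a1, Finset.mem_range.2 a2⟩, a3, a4⟩
  refine ⟨b ^ m, M * b ^ m, c, Sp_457.Bad Ms M m b, by positivity, by positivity, ?_, ?_, hF, ?_,
    ?_, ?_⟩
  · intro i j hij _
    have := hc1 i j hij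
    omega
  · intro i i' j j' _ _ _ _ hi hj h1 h2
    by_contra hne
    have h3 := hc3 i' i j' j hi hj (fun h => hne (Prod.mk.injEq _ _ _ _ ▸ h).2)
    have h4 : |((c i : ℤ) - c i') - (c j - c j')| < 2 * b ^ m := by
      rw [abs_lt]
      have h1' : (c i : ℤ) + c j' < c j + c i' + 2 * b ^ m := by exact_mod_cast h1
      have h2' : (c j : ℤ) + c i' < c i + c j' + 2 * b ^ m := by exact_mod_cast h2
      constructor <;> linarith
    push_cast at h3
    linarith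
  · intro T hT I hI
    choose! g hg1 hg2 hg3 using fun k hk => (hI k hk).2
    have h1 := hF T hT (I.image fun k => (k, g k)) (by
      intro p hp
      obtain ⟨k, hk, rfl⟩ := Finset.mem_image.1 hp
      exact ⟨(hI k hk).1, hg1 k hk, (hg2 k hk).symm, hg3 k hk⟩)
    rwa [Finset.card_image_of_injOn (fun x _ y _ h => (Prod.mk.inj h).1)] at h1
  · intro T
    exact bad_per hb0 (fun k hk => (hMs k hk).2.2) T
  · intro A f
    obtain ⟨lam, rho, nu, h1, h2, h3, h4⟩ := hb b hb1 hb2 A f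
    refine ⟨lam, rho, nu, fun P v h => (h1 P v h).le, fun P Q v r h h' => h2 P Q v r h h',
      ?_, h4⟩
    intro Y _ hY v
    unfold Sp_457.Bad at hY
    push Not at hY
    obtain ⟨P, Q, h5, h6, h7⟩ := h3 Y hY.1 (fun j hj => hY.2 j hj) v
    exact ⟨P, Q, h5.symm, h6, h7⟩

end Crest.Agent.R320.Gad_457
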