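import Crest.Agent.R320.Grid_464

/-!
# Row 320: 693's grid gadget + thin ruler in helper467's literal form `Gad` (helper464)
-/

set_option autoImplicit false

namespace Crest.Agent.R320.Gad_464

open Crest.Agent.R320.Grid_464

/-! ### the noise as a function of length, product and weight -/

section noise

variable {α S V Wt Nm : Type*} [Monoid S] [AddCommGroup V] [AddCommGroup Wt]

/-- a mismatched pair of names occurs at the total `T` -/
def Mis (p : Par α S V Wt Nm) (T : ℕ) (cc : Nm × Nm) : Prop :=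
  cc.1 ≠ cc.2 ∧ ∃ o o', p.nL o = some cc.1 ∧ p.nR o' = some cc.2 ∧ o + o' = T

open Classical in
/-- the noise -/
noncomputable def nu (p : Par α S V Wt Nm) (u : List α) : V :=
  if h : ∃ cc, Mis p u.length cc then p.bb h.choose.2 - p.act (p.vv h.choose.1) (p.ph u)
  else p.F (p.ph u) (p.wt u)

theorem sound {p : Par α S V Wt Nm} (h : p.Ok) {P Q : List α} {v b : V} (hL : p.lam P = some v)
    (hR : p.rho Q = some b) : p.act v (p.ph (P ++ Q)) + nu p (P ++ Q) = b := by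
  obtain ⟨c, h1, rfl⟩ := lam_spec hL
  obtain ⟨c', h2, rfl⟩ := rho_spec hR
  unfold nu
  split_ifs with hm
  · obtain ⟨hne, o, o', e1, e2, e3⟩ := hm.choose_spec
    have hT : o + o' = P.length + Q.length := by rw [e3, List.length_append]
    rcases h.names _ _ _ _ _ _ _ _ e1 e2 h1.2.1 h2.2.1 hT with ⟨h3, _⟩ | ⟨h3, h4⟩
    · exact (hne h3).elim
    · rw [h3, h4]; abel
  · have hc : c = c' := by
      by_contra hne
      exact hm ⟨(c, c'), hne, P.length, Q.length, h1.2.1, h2.2.1, by rw [List.length_append]⟩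
    subst hc
    have := h.val_same h1 h2
    unfold Par.val at this
    rw [← this]
    abel

theorem nu_congr {p : Par α S V Wt Nm} (h : p.Ok) {M : ℕ} (hM : 0 < M)
    (hL : ∀ t, p.nL (t + M) = p.nL t) (hR : ∀ t, p.nR (t + M) = p.nR t) {u u' : List α}
    (hl : u.length % M = u'.length % M) (hu : M ≤ u.length) (hu' : M ≤ u'.length)
    (hph : p.ph u = p.ph u') (hw : p.wt u = p.wt u') : nu p u = nu p u' := by
  have hLp : Function.Periodic p.nL M := hL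
  have hRp : Function.Periodic p.nR M := hR
  have mv : ∀ T T' : ℕ, M ≤ T' → T % M = T' % M → ∀ cc, Mis p T cc → Mis p T' cc := by
    rintro T T' hle hmod cc ⟨hne, o, o', e1, e2, e3⟩
    have ho : o % M < M := Nat.mod_lt _ hM
    refine ⟨hne, o % M, T' - o % M, ?_, ?_, by omega⟩
    · rw [hLp.map_mod_nat]; exact e1
    · have h1 : (T' - o % M) + o % M ≡ o' + o % M [MOD M] := by
        have h2 : (T' - o % M) + o % M = T' := by omega
        rw [h2]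
        have h3 : T' ≡ T [MOD M] := hmod.symm
        have h4 : o' + o ≡ o' + o % M [MOD M] := (Nat.ModEq.refl o').add (Nat.mod_modEq o M).symm
        have h5 : o' + o = T := by omega
        rw [h5] at h4
        exact h3.trans h4
      have h2 : (T' - o % M) % M = o' % M := Nat.ModEq.add_right_cancel' _ h1
      rw [← hRp.map_mod_nat, h2, hRp.map_mod_nat]
      exact e2
  have key : ∀ (T : ℕ) (cc dd : Nm × Nm), Mis p T cc → Mis p T dd →
      p.vv cc.1 = p.vv dd.1 ∧ p.bb cc.2 = p.bb dd.2 := by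
    rintro T cc dd ⟨hne, o, o', e1, e2, e3⟩ ⟨_, q, q', f1, f2, f3⟩
    rcases h.names _ _ _ _ _ _ _ _ e1 e2 f1 f2 (e3.trans f3.symm) with ⟨h3, _⟩ | h3
    · exact (hne h3).elim
    · exact h3
  unfold nu
  by_cases h1 : ∃ cc, Mis p u.length cc
  · have h2 : ∃ cc, Mis p u'.length cc := by
      obtain ⟨cc, hcc⟩ := h1
      exact ⟨cc, mv _ _ hu' hl _ hcc⟩
    rw [dif_pos h1, dif_pos h2]
    obtain ⟨a, b⟩ := key _ _ _ (mv _ _ hu' hl _ h1.choose_spec) h2.choose_spec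
    rw [a, b, hph]
  · have h2 : ¬ ∃ cc, Mis p u'.length cc := by
      rintro ⟨cc, hcc⟩
      exact h1 ⟨cc, mv _ _ hu hl.symm _ hcc⟩
    rw [dif_neg h1, dif_neg h2, hph, hw]

theorem wt_congr {p : Par α S V Wt Nm} (h : p.Ok) {N : ℕ} (hN : p.A p.m + p.G p.m ≤ N)
    {u u' : List α} (hl : u.length ≡ u'.length [MOD p.G p.m]) (hu : N ≤ u.length)
    (hu' : N ≤ u'.length) (ht : u.take N = u'.take N) : p.wt u = p.wt u' := by
  have hβ : ∀ j ≤ p.m, p.β u.length j = p.β u'.length j ∧ p.β u.length j ≤ N := by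
    intro j hj
    have hA := h.A_mono hj
    have hG : p.G j ≤ p.G p.m := Nat.le_of_dvd (h.Gpos _) (h.G_dvd hj)
    have h1 := (h.β_le u.length j).2
    refine ⟨?_, by omega⟩
    unfold Par.β
    congr 1
    have h2 : (u.length - p.A j) + p.A j ≡ (u'.length - p.A j) + p.A j [MOD p.G j] := by
      have e1 : u.length - p.A j + p.A j = u.length := by omega
      have e2 : u'.length - p.A j + p.A j = u'.length := by omega
      rw [e1, e2]
      exact hl.of_dvd (h.G_dvd hj)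
    exact Nat.ModEq.add_right_cancel' _ h2
  unfold Par.wt
  refine Finset.sum_congr rfl fun j hj => ?_
  have hj' := Finset.mem_range.1 hj
  obtain ⟨a1, a2⟩ := hβ j hj'.le
  obtain ⟨b1, b2⟩ := hβ (j + 1) hj'
  rw [← a1, ← b1]
  congr 1
  unfold Par.seg
  have e1 : u.take (p.β u.length (j + 1)) = (u.take N).take (p.β u.length (j + 1)) := by
    rw [List.take_take, min_eq_left b2]
  have e2 : u'.take (p.β u.length (j + 1)) = (u'.take N).take (p.β u.length (j + 1)) := by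
    rw [List.take_take, min_eq_left b2]
  rw [e1, e2, ht]

end noise

/-! ### arithmetic -/

/-- anchors of the grids -/
def Af (M Γ : ℕ) : ℕ → ℕ
  | 0 => 0
  | (j + 1) => Af M Γ j + Γ ^ j + M * Γ ^ j

/-- the thin set of bad totals -/
def BadZ (Ms : Finset ℕ) (M Γ m : ℕ) (T : ℤ) : Prop :=
  (∃ k ∈ Ms, (k : ℤ) ∣ T) ∨ ∃ j, 1 ≤ j ∧ j ≤ m ∧ ∃ d : ℤ, |d| ≤ M * Γ ^ (j - 1) ∧
    ((Γ : ℤ) ^ j) ∣ T - Af M Γ j - d

theorem two_pow_aux {a b c d : ℕ} (hab : a ≤ b) (hcd : c ≤ d)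
    (h : (2 : ℕ) ^ a + 2 ^ b = 2 ^ c + 2 ^ d) : a = c ∧ b = d := by
  have ha : (2 : ℕ) ^ a ≤ 2 ^ b := Nat.pow_le_pow_right (by norm_num) hab
  have hc : (2 : ℕ) ^ c ≤ 2 ^ d := Nat.pow_le_pow_right (by norm_num) hcd
  have pa : 0 < (2 : ℕ) ^ a := by positivity
  have pc : 0 < (2 : ℕ) ^ c := by positivity
  have hbd : b = d := by
    rcases Nat.lt_trichotomy b d with h1 | h1 | h1
    · have : (2 : ℕ) ^ (b + 1) ≤ 2 ^ d := Nat.pow_le_pow_right (by norm_num) h1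
      rw [pow_succ] at this
      omega
    · exact h1
    · have : (2 : ℕ) ^ (d + 1) ≤ 2 ^ b := Nat.pow_le_pow_right (by norm_num) h1
      rw [pow_succ] at this
      omega
  subst hbd
  have : (2 : ℕ) ^ a = 2 ^ c := by omega
  exact ⟨Nat.pow_right_injective le_rfl this, rfl⟩

theorem sidon {i j k l : ℕ} (hij : i ≠ j) (h : (2 : ℤ) ^ i - 2 ^ j = 2 ^ k - 2 ^ l) :
    i = k ∧ j = l := by
  have h' : (2 : ℕ) ^ i + 2 ^ l = 2 ^ k + 2 ^ j := by
    have : (2 : ℤ) ^ i + 2 ^ l = 2 ^ k + 2 ^ j := by linarith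
    exact_mod_cast this
  rcases le_total i l with h1 | h1 <;> rcases le_total k j with h2 | h2
  · obtain ⟨a, b⟩ := two_pow_aux h1 h2 h'
    exact ⟨a, b.symm⟩
  · rw [add_comm (2 ^ k)] at h'
    obtain ⟨a, b⟩ := two_pow_aux h1 h2 h'
    exact (hij a).elim
  · rw [add_comm (2 ^ i)] at h'
    obtain ⟨a, b⟩ := two_pow_aux h1 h2 h'
    exact (hij b).elim
  · rw [add_comm (2 ^ i), add_comm (2 ^ k)] at h'
    obtain ⟨a, b⟩ := two_pow_aux h1 h2 h'
    exact ⟨b, a.symm⟩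

theorem pow_diff_lt {K a b : ℕ} (ha : a < K) (hb : b < K) : |(2 : ℤ) ^ a - 2 ^ b| < 2 ^ K := by
  have h1 : (2 : ℤ) ^ a < 2 ^ K := pow_lt_pow_right₀ (by norm_num) ha
  have h2 : (2 : ℤ) ^ b < 2 ^ K := pow_lt_pow_right₀ (by norm_num) hb
  have p1 : 0 < (2 : ℤ) ^ a := by positivity
  have p2 : 0 < (2 : ℤ) ^ b := by positivity
  rw [abs_lt]
  constructor <;> linarith

/-- the mark sums -/
def sf (M Γ : ℕ) : ℕ → ℕ
  | 0 => 0
  | (j + 1) => sf M Γ j + 4 * M * Γ ^ j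

theorem sf_bound {K M Γ : ℕ} (hΓ : 2 ^ (K + 5) * M + 1 ≤ Γ) (j : ℕ) :
    sf M Γ j * 2 ^ (K + 3) ≤ Γ ^ j := by
  induction j with
  | zero => simp [sf]
  | succ j ih =>
    have : sf M Γ (j + 1) * 2 ^ (K + 3) = sf M Γ j * 2 ^ (K + 3) + 2 ^ (K + 5) * M * Γ ^ j := by
      show (sf M Γ j + 4 * M * Γ ^ j) * 2 ^ (K + 3) = _
      rw [pow_add 2 K 5, pow_add 2 K 3]
      ring
    rw [this, pow_succ]
    calc sf M Γ j * 2 ^ (K + 3) + 2 ^ (K + 5) * M * Γ ^ j ≤ Γ ^ j + 2 ^ (K + 5) * M * Γ ^ j := by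
          omega
      _ = Γ ^ j * (2 ^ (K + 5) * M + 1) := by ring
      _ ≤ Γ ^ j * Γ := Nat.mul_le_mul_left _ hΓ

theorem sf_modEq (M Γ : ℕ) {j m : ℕ} (h : j ≤ m) : sf M Γ m ≡ sf M Γ j [MOD Γ ^ j] := by
  induction h with
  | refl => exact Nat.ModEq.refl _
  | @step m h ih =>
    have : 4 * M * Γ ^ m ≡ 0 [MOD Γ ^ j] :=
      (Nat.modEq_zero_iff_dvd).2 ((pow_dvd_pow Γ h).mul_left _)
    exact (ih.add this)

/-- the count -/
theorem thin (Ms : Finset ℕ) {K M Γ m X : ℕ} (hM : 0 < M) (hΓ : 2 ^ (K + 5) * M + 1 ≤ Γ)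
    (hMs : ∀ k ∈ Ms, 2 ^ (K + 2) < k ∧ k ∣ M) (hX1 : X ≡ 1 [MOD M])
    (hX2 : X ≡ sf M Γ m [MOD Γ ^ m]) (T : ℤ) (B : ℤ → Prop) [DecidablePred B]
    (hB : ∀ T, B T → BadZ Ms M Γ m T) :
    ((Finset.range K ×ˢ Finset.range K).filter
      (fun q => q.1 ≠ q.2 ∧ B (T + X * 2 ^ q.2 - X * 2 ^ q.1))).card ≤ Ms.card + m := by
  classical
  set R := Finset.range K ×ˢ Finset.range K with hR
  set f1 : ℕ → Finset (ℕ × ℕ) := fun k => R.filter fun q => q.1 ≠ q.2 ∧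
    (k : ℤ) ∣ T + X * 2 ^ q.2 - X * 2 ^ q.1 with hf1
  set f2 : ℕ → Finset (ℕ × ℕ) := fun j => R.filter fun q => q.1 ≠ q.2 ∧
    ∃ d : ℤ, |d| ≤ M * Γ ^ (j - 1) ∧
      ((Γ : ℤ) ^ j) ∣ (T + X * 2 ^ q.2 - X * 2 ^ q.1) - Af M Γ j - d with hf2
  have hsub : (R.filter fun q => q.1 ≠ q.2 ∧ B (T + X * 2 ^ q.2 - X * 2 ^ q.1)) ⊆
      Ms.biUnion f1 ∪ (Finset.Icc 1 m).biUnion f2 := by
    intro q hq
    rw [Finset.mem_filter] at hq
    obtain ⟨hq1, hq2, hq3⟩ := hq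
    rw [Finset.mem_union, Finset.mem_biUnion, Finset.mem_biUnion]
    rcases hB _ hq3 with ⟨k, hk, hd⟩ | ⟨j, j1, j2, d, hd1, hd2⟩
    · exact Or.inl ⟨k, hk, Finset.mem_filter.2 ⟨hq1, hq2, hd⟩⟩
    · exact Or.inr ⟨j, Finset.mem_Icc.2 ⟨j1, j2⟩, Finset.mem_filter.2 ⟨hq1, hq2, d, hd1, hd2⟩⟩
  have fin : ∀ a b c d : ℕ, a ≠ b → ((2 : ℤ) ^ b - 2 ^ a) - (2 ^ d - 2 ^ c) = 0 →
      (a, b) = (c, d) := by
    intro a b c d hab h0
    obtain ⟨e1, e2⟩ := sidon (i := b) (j := a) (k := d) (l := c) (Ne.symm hab) (by linarith)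
    rw [e1, e2]
  have habs : ∀ a b c d : ℕ, a < K → b < K → c < K → d < K →
      |((2 : ℤ) ^ b - 2 ^ a) - (2 ^ d - 2 ^ c)| < 2 ^ (K + 1) := by
    intro a b c d ha hb hc hd
    have h1 := pow_diff_lt hb ha
    have h2 := pow_diff_lt hd hc
    rw [abs_lt] at h1 h2 ⊢
    rw [pow_succ]
    constructor <;> linarith [h1.1, h1.2, h2.1, h2.2]
  have c1 : ∀ k ∈ Ms, (f1 k).card ≤ 1 := by
    intro k hk
    rw [Finset.card_le_one]
    rintro ⟨a, b⟩ h1 ⟨c, d⟩ h2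
    simp only [hf1, hR, Finset.mem_filter, Finset.mem_product, Finset.mem_range] at h1 h2
    obtain ⟨⟨ha, hb⟩, hab, hd1⟩ := h1
    obtain ⟨⟨hc, hd⟩, hcd, hd2⟩ := h2
    obtain ⟨hk1, hk2⟩ := hMs k hk
    have e1 : (k : ℤ) ∣ X * (((2 : ℤ) ^ b - 2 ^ a) - (2 ^ d - 2 ^ c)) := by
      have := dvd_sub hd1 hd2
      have e : (T + X * 2 ^ b - X * 2 ^ a) - (T + X * 2 ^ d - X * 2 ^ c) =
        (X : ℤ) * (((2 : ℤ) ^ b - 2 ^ a) - (2 ^ d - 2 ^ c)) := by ring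
      rwa [e] at this
    have e2 : (k : ℤ) ∣ (X : ℤ) - 1 := by
      have := (Nat.modEq_iff_dvd.1 (hX1.of_dvd hk2))
      have h3 : (X : ℤ) - 1 = -((1 : ℕ) - (X : ℤ)) := by push_cast; ring
      rw [h3]
      exact (dvd_neg).2 this
    have e3 : (k : ℤ) ∣ ((2 : ℤ) ^ b - 2 ^ a) - (2 ^ d - 2 ^ c) := by
      have h3 := dvd_sub e1 (e2.mul_right (((2 : ℤ) ^ b - 2 ^ a) - (2 ^ d - 2 ^ c)))
      have h4 : (X : ℤ) * (((2 : ℤ) ^ b - 2 ^ a) - (2 ^ d - 2 ^ c)) -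
        ((X : ℤ) - 1) * (((2 : ℤ) ^ b - 2 ^ a) - (2 ^ d - 2 ^ c)) =
        ((2 : ℤ) ^ b - 2 ^ a) - (2 ^ d - 2 ^ c) := by ring
      rwa [h4] at h3
    have hlt : |((2 : ℤ) ^ b - 2 ^ a) - (2 ^ d - 2 ^ c)| < k := by
      refine (habs a b c d ha hb hc hd).trans_le ?_
      have h5 : (2 : ℕ) ^ (K + 1) ≤ k := by
        have : (2 : ℕ) ^ (K + 1) ≤ 2 ^ (K + 2) := Nat.pow_le_pow_right (by norm_num) (by omega)
        omega
      exact_mod_cast h5
    exact fin a b c d hab (Int.eq_zero_of_abs_lt_dvd e3 hlt)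
  have c2 : ∀ j ∈ Finset.Icc 1 m, (f2 j).card ≤ 1 := by
    intro j hj
    obtain ⟨j1, j2⟩ := Finset.mem_Icc.1 hj
    rw [Finset.card_le_one]
    rintro ⟨a, b⟩ h1 ⟨c, d⟩ h2
    simp only [hf2, hR, Finset.mem_filter, Finset.mem_product, Finset.mem_range] at h1 h2
    obtain ⟨⟨ha, hb⟩, hab, x, hx1, hx2⟩ := h1
    obtain ⟨⟨hc, hd⟩, hcd, y, hy1, hy2⟩ := h2
    set δ := ((2 : ℤ) ^ b - 2 ^ a) - (2 ^ d - 2 ^ c) with hδ
    have hδ1 : |δ| < 2 ^ (K + 1) := habs a b c d ha hb hc hd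
    have e1 : ((Γ : ℤ) ^ j) ∣ X * δ - (x - y) := by
      have := dvd_sub hx2 hy2
      have e : ((T + X * 2 ^ b - X * 2 ^ a) - Af M Γ j - x) -
        ((T + X * 2 ^ d - X * 2 ^ c) - Af M Γ j - y) = (X : ℤ) * δ - (x - y) := by
        rw [hδ]; ring
      rwa [e] at this
    have hXs : X ≡ sf M Γ j [MOD Γ ^ j] :=
      (hX2.of_dvd (pow_dvd_pow Γ j2)).trans (sf_modEq M Γ j2)
    have e2 : ((Γ : ℤ) ^ j) ∣ (X : ℤ) - sf M Γ j := by
      have := Nat.modEq_iff_dvd.1 hXs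
      have h3 : (X : ℤ) - sf M Γ j = -((sf M Γ j : ℤ) - X) := by ring
      rw [h3]
      have h4 : (((Γ ^ j : ℕ)) : ℤ) = (Γ : ℤ) ^ j := by push_cast; rfl
      rw [h4] at this
      exact (dvd_neg).2 this
    have e3 : ((Γ : ℤ) ^ j) ∣ sf M Γ j * δ - (x - y) := by
      have h3 := dvd_sub e1 (e2.mul_right δ)
      have h4 : (X : ℤ) * δ - (x - y) - ((X : ℤ) - sf M Γ j) * δ = sf M Γ j * δ - (x - y) := by
        ring
      rwa [h4] at h3
    have hs4 : 4 * ((M : ℤ) * Γ ^ (j - 1)) ≤ sf M Γ j := by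
      obtain ⟨i, rfl⟩ : ∃ i, j = i + 1 := ⟨j - 1, by omega⟩
      have : 4 * (M * Γ ^ i) ≤ sf M Γ (i + 1) := by
        show _ ≤ sf M Γ i + 4 * M * Γ ^ i
        rw [mul_assoc]; omega
      rw [Nat.add_sub_cancel]
      exact_mod_cast this
    have hΓ0 : 0 < Γ := by omega
    have hc0 : 0 < (M : ℤ) * Γ ^ (j - 1) := by
      have : 0 < M * Γ ^ (j - 1) := by positivity
      exact_mod_cast this
    have hsb : (sf M Γ j : ℤ) * 2 ^ (K + 3) ≤ (Γ : ℤ) ^ j := by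
      exact_mod_cast sf_bound hΓ j
    have hxy : |x - y| ≤ 2 * ((M : ℤ) * Γ ^ (j - 1)) := by
      rw [abs_le] at hx1 hy1 ⊢
      constructor <;> linarith [hx1.1, hx1.2, hy1.1, hy1.2]
    have hK1 : (1 : ℤ) ≤ 2 ^ (K + 1) := by
      have : (1 : ℕ) ≤ 2 ^ (K + 1) := Nat.one_le_two_pow
      exact_mod_cast this
    have hsd : |(sf M Γ j : ℤ) * δ| ≤ sf M Γ j * 2 ^ (K + 1) := by
      rw [abs_mul, abs_of_nonneg (by positivity : (0 : ℤ) ≤ sf M Γ j)]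
      exact mul_le_mul_of_nonneg_left hδ1.le (by positivity)
    have hlt : |(sf M Γ j : ℤ) * δ - (x - y)| < (Γ : ℤ) ^ j := by
      have h5 : |(sf M Γ j : ℤ) * δ - (x - y)| ≤ |(sf M Γ j : ℤ) * δ| + |x - y| := abs_sub _ _
      have h6 : (2 : ℤ) ^ (K + 3) = 4 * 2 ^ (K + 1) := by ring
      rw [h6] at hsb
      nlinarith
    have h0 := Int.eq_zero_of_abs_lt_dvd e3 hlt
    have hδ0 : δ = 0 := by
      by_contra hne
      have h7 : (1 : ℤ) ≤ |δ| := Int.one_le_abs hne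
      have h8 : |(sf M Γ j : ℤ) * δ| = |x - y| := by
        have : (sf M Γ j : ℤ) * δ = x - y := by linarith
        rw [this]
      rw [abs_mul, abs_of_nonneg (by positivity : (0 : ℤ) ≤ sf M Γ j)] at h8
      nlinarith
    exact fin a b c d hab hδ0
  calc _ ≤ (Ms.biUnion f1 ∪ (Finset.Icc 1 m).biUnion f2).card := Finset.card_le_card hsub
    _ ≤ (Ms.biUnion f1).card + ((Finset.Icc 1 m).biUnion f2).card := Finset.card_union_le _ _
    _ ≤ Ms.card * 1 + (Finset.Icc 1 m).card * 1 :=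
      Nat.add_le_add (Finset.card_biUnion_le_card_mul _ _ _ c1)
        (Finset.card_biUnion_le_card_mul _ _ _ c2)
    _ = Ms.card + m := by simp

end Crest.Agent.R320.Gad_464
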