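import Crest.Agent.R320.Fin_211
import Crest.Agent.R320.G1_852
import Crest.Agent.R320.Spoil852_495

/-! helper495: the hypothesis `Gad` of `Fin_211` from 852's gadget and the wide ruler. -/

set_option autoImplicit false

namespace Crest.Agent.R320.Gad_495

open Crest.Agent.R320 Finset

theorem gad {α S V : Type} [Monoid S] [Finite S] [AddCommGroup V] [Finite V]
    (act : V → S → V) (f : α → S) : Fin_211.Gad act f := by
  classical
  obtain ⟨m, r, hg⟩ := G1_852.gadget act
  refine ⟨r + m, fun K => ?_⟩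
  obtain ⟨Ms, M, hcard, hMs, hM, hg⟩ := hg (2 ^ (K + 2))
  set b := 2 ^ (K + 5) * M + 1 with hb
  have hcop : Nat.Coprime b M := by
    rw [hb]
    simp [Nat.coprime_mul_left_add_left]
  obtain ⟨lam, rho, nu, hlen, hs, hc, hfs⟩ := hg b (by omega) hcop α f
  obtain ⟨c, hinc, hres, hsp⟩ := Spoil852_495.ruler K m M b Ms
    (fun k hk => ⟨(hMs k hk).1.le, (hMs k hk).2.2⟩) hM hcop.symm (by omega) (2 * b ^ m)
  refine ⟨b ^ m, 0, b ^ m, M * b ^ m, Spoil852_495.Bad Ms m M b, c, lam, rho, nu, ?_, ?_, ?_, ?_, ?_,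
    ?_, ?_, ?_⟩
  · intro P Q v r' h1 h2
    exact hs P Q v r' h1 h2
  · intro P v h
    exact (hlen P v h).le
  · intro Y _ hB v
    unfold Spoil852_495.Bad at hB
    push Not at hB
    obtain ⟨P, Q, h1, h2, v', h3⟩ := hc Y (fun k hk => hB.1 k hk) (fun j hj => by
      obtain ⟨h1, h2⟩ := hB.2 j hj
      exact ⟨h1, by omega⟩) v
    exact ⟨P, Q, h1, h2, by rw [h3]; rfl⟩
  · exact Nat.mul_pos hM (Nat.pow_pos (by omega))
  · intro Y Y' _ _ h1 h2 h3
    exact (hfs Y Y' h1 h3 h2).2
  · intro i j hij _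
    exact hinc i j hij
  · intro i i' j j' hi hi' hj hj' hne hne' h1 h2
    by_contra hij
    have := hres i i' j j' hi hi' hj hj' (Ne.symm hne) (by
      intro h
      exact hij (Prod.ext_iff.1 h).1)
    omega
  · intro T hT I hI
    have h1 := hsp T (fun i hi => hT i hi)
    choose g hg1 using fun k (hk : k ∈ I) => (hI k hk).2
    have h2 : I.card ≤ ((range K ×ˢ range K).filter
          (fun p => p.1 ≠ p.2 ∧ Spoil852_495.Bad Ms m M b (T + c p.2 - c p.1))).card := by
      have : I.card = I.attach.card := (Finset.card_attach).symm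
      rw [this]
      refine Finset.card_le_card_of_injOn (fun k => (k.1, g k.1 k.2)) ?_ ?_
      · intro k _
        obtain ⟨h3, h4, h5⟩ := hg1 k.1 k.2
        simp only [Finset.coe_filter, Finset.mem_product, Finset.mem_range, Set.mem_setOf_eq]
        exact ⟨⟨(hI k.1 k.2).1, h3⟩, Ne.symm h4, h5⟩
      · intro k _ k' _ h
        exact Subtype.ext (Prod.ext_iff.1 h).1
    omega

end Crest.Agent.R320.Gad_495
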