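import Crest.Agent.R320.Asm_499
import Crest.Agent.R320.G1_76
import Crest.Agent.R320.Sp_21

/-!
# Row 320: the closed gadget with ruler (helper499) from 76's `g1` and 21's `spoil`
-/

set_option autoImplicit false

namespace Crest.Agent.R320.Gad_499

open Crest.Agent.R320.Asm_499

theorem gg (S V : Type) [Monoid S] [Finite S] [AddCommGroup V] [Finite V] (act : V → S → V) :
    GG S V act := by
  classical
  obtain ⟨m, r, H⟩ := G1_76.g1 S V act
  refine ⟨r + m, fun K => ?_⟩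
  obtain ⟨Ms, M, hcard, hMs, hM, H2⟩ := H (2 ^ (K + 1))
  set b : ℕ := M * (2 ^ (K + 4) + 10) + 1 with hb
  have hpow : 0 < 2 ^ (K + 4) := by positivity
  have hb1 : 4 * M + 4 < b := by nlinarith
  have hb2 : (2 ^ (K + 4) + 2) * M < b := by nlinarith
  have hcop : Nat.Coprime b M := by
    refine Nat.isCoprime_iff_coprime.1 ⟨1, -(2 ^ (K + 4) + 10), ?_⟩
    rw [hb]; push_cast; ring
  obtain ⟨c, hc1, hc2, hc3⟩ := Sp_21.spoil K (b ^ m) m M b Ms hM
    (fun k hk => ⟨(hMs k hk).2.2, (hMs k hk).1.le⟩) hcop hb2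
  have hbpos : 0 < b := by omega
  refine ⟨b ^ m, 0, b ^ m, M * b ^ m, c, Sp_21.Bad m M b Ms, by positivity, ?_, ?_, ?_, ?_, ?_⟩
  · intro i j hij _
    have := hc1 i j hij
    omega
  · intro i i' j j' _ _ _ _ h1 h2 h3 h4
    by_contra hne
    rcases hc2 i i' j j' (fun e => h1 e.symm) (fun e => h2 e.symm)
      (fun e => hne (Prod.mk.inj e).1) with h | h <;> omega
  · intro T T' _ _ h
    have hdig : ∀ j, j < m → T / b ^ j % b = T' / b ^ j % b := by
      intro j hj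
      rw [← Nat.mod_mul_right_div_self, ← Nat.mod_mul_right_div_self]
      congr 1
      have hd : b ^ j * b ∣ M * b ^ m := by
        rw [← pow_succ]
        exact Dvd.dvd.mul_left (pow_dvd_pow b (by omega)) M
      exact (Nat.ModEq.of_dvd hd h : T ≡ T' [MOD b ^ j * b])
    have hdv : ∀ k ∈ Ms, (k ∣ T ↔ k ∣ T') := by
      intro k hk
      exact Nat.ModEq.dvd_iff (h : T ≡ T' [MOD M * b ^ m]) (Dvd.dvd.mul_right (hMs k hk).2.2 _)
    unfold Sp_21.Bad
    constructor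
    · rintro (⟨k, hk, h1⟩ | ⟨j, hj, h1⟩)
      · exact Or.inl ⟨k, hk, (hdv k hk).1 h1⟩
      · exact Or.inr ⟨j, hj, by rw [← hdig j hj]; exact h1⟩
    · rintro (⟨k, hk, h1⟩ | ⟨j, hj, h1⟩)
      · exact Or.inl ⟨k, hk, (hdv k hk).2 h1⟩
      · exact Or.inr ⟨j, hj, by rw [hdig j hj]; exact h1⟩
  · intro T hT I hI
    choose! g hg using fun k (hk : k ∈ I) => (hI k hk).2
    have h1 : (I.image fun k => (k, g k)).card ≤ Ms.card + m := by
      refine hc3 T hT _ ?_
      intro p hp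
      obtain ⟨k, hk, rfl⟩ := Finset.mem_image.1 hp
      exact ⟨(hI k hk).1, (hg k hk).1, (hg k hk).2.1.symm, (hg k hk).2.2⟩
    rw [Finset.card_image_of_injective _ (fun a b h => (Prod.mk.inj h).1)] at h1
    omega
  · intro A f
    obtain ⟨lam, rho, nu, h1, h2, h3, h4⟩ := H2 b hb1 hcop A f
    refine ⟨lam, rho, nu, fun P v h => (h1 P v h).le, fun P Q v r hP hQ => h2 P Q v r hP hQ, ?_, ?_⟩
    · intro Y _ hY v
      have h5 : (∀ k ∈ Ms, ¬ k ∣ Y.length) ∧
          (∀ j < m, M ≤ Y.length / b ^ j % b ∧ Y.length / b ^ j % b + M + 1 ≤ b) := by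
        constructor
        · intro k hk hd
          exact hY (Or.inl ⟨k, hk, hd⟩)
        · intro j hj
          by_contra hn
          exact hY (Or.inr ⟨j, hj, hn⟩)
      obtain ⟨P, Q, e, hP, hQ⟩ := h3 Y h5.1 h5.2 v
      exact ⟨P, Q, e.symm, hP, hQ⟩
    · intro X Y a1 a2 a3 a4 a5
      exact (h4 X Y a1 a2 a3 a4 a5).2

end Crest.Agent.R320.Gad_499
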