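import Crest.Agent.R320.G1_76
import Crest.Agent.R320.Sp_21

/-! Row 320: gadget 1 with its ruler (hypothesis `Gad` of Fin_211) from g1 (76) + spoil (21). -/

set_option autoImplicit false

namespace Crest.Agent.R320.Gad_523

/-- literal copy of `Fin_211.Gad` (with `pr` unfolded) -/
theorem gad {α S V : Type} [Monoid S] [Finite S] [AddCommGroup V] [Finite V]
    (act : V → S → V) (f : α → S) :
    ∃ R1 : ℕ, ∀ K : ℕ, ∃ (N1 N0 Kp M : ℕ) (BadT : ℕ → Prop) (c : ℕ → ℕ)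
      (lam rho : List α → Option V) (nu1 : List α → V),
      (∀ P Q v r, lam P = some v → rho Q = some r →
        r = act v ((P ++ Q).map f).prod + nu1 (P ++ Q)) ∧
      (∀ P v, lam P = some v → P.length ≤ N1) ∧
      (∀ Y, N0 ≤ Y.length → ¬ BadT Y.length → ∀ v, ∃ P Q, Y = P ++ Q ∧ lam P = some v ∧
        (rho Q).isSome) ∧ 0 < M ∧
      (∀ Y Y' : List α, Kp ≤ Y.length → Kp ≤ Y'.length → Y.take Kp = Y'.take Kp →
        Y.length % M = Y'.length % M → ((Y.drop Kp).map f).prod = ((Y'.drop Kp).map f).prod →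
        nu1 Y = nu1 Y') ∧
      (∀ i j, i < j → j < K → c i < c j) ∧
      (∀ i i' j j', i < K → i' < K → j < K → j' < K → i' ≠ i → j' ≠ j →
        c i + c j' < c j + c i' + 2 * N1 → c j + c i' < c i + c j' + 2 * N1 → i = j) ∧
      (∀ T, (∀ k, k < K → c k ≤ T) → ∀ I : Finset ℕ,
        (∀ k ∈ I, k < K ∧ ∃ k', k' < K ∧ k' ≠ k ∧ BadT (T + c k' - c k)) → I.card ≤ R1) := by
  classical
  obtain ⟨m, r, hg⟩ := G1_76.g1 S V act
  refine ⟨r + m, fun K => ?_⟩
  obtain ⟨Ms, M, hcard, hMs, hM, hb⟩ := hg (2 ^ (K + 1))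
  set b := M * (2 ^ (K + 4) + 8) + 1 with hbdef
  have hp : 0 < 2 ^ (K + 4) := by positivity
  have hb1 : 4 * M + 4 < b := by rw [hbdef]; nlinarith
  have hcop : Nat.Coprime b M := by
    rw [hbdef, Nat.coprime_iff_gcd_eq_one]
    rw [Nat.add_comm, Nat.gcd_add_mul_left_left]
    simp
  obtain ⟨lam, rho, nu, h1, h2, h3, h4⟩ := hb b hb1 hcop α f
  obtain ⟨c, hc1, hc2, hc3⟩ := Sp_21.spoil K (b ^ m) m M b Ms hM
    (fun k hk => ⟨(hMs k hk).2.2, (hMs k hk).1.le⟩) hcop (by rw [hbdef]; nlinarith)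
  have hb0 : 0 < b := by omega
  refine ⟨b ^ m, 0, b ^ m, M * b ^ m, fun n => Sp_21.Bad m M b Ms n, c, lam, rho, nu, h2, ?_, ?_,
    by positivity, ?_, ?_, ?_, ?_⟩
  · intro P v h; exact (h1 P v h).le
  · intro Y _ hY v
    have : (∀ k ∈ Ms, ¬ k ∣ Y.length) ∧
        (∀ j < m, M ≤ Y.length / b ^ j % b ∧ Y.length / b ^ j % b + M + 1 ≤ b) := by
      unfold Sp_21.Bad at hY
      push Not at hY
      refine ⟨hY.1, fun j hj => ?_⟩
      have := hY.2 j hj
      constructor <;> omega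
    obtain ⟨P, Q, e, hP, hQ⟩ := h3 Y this.1 this.2 v
    exact ⟨P, Q, e.symm, hP, hQ⟩
  · intro Y Y' a1 a2 a3 a4 a5
    exact (h4 Y Y' a1 a2 a3 a4 a5).2
  · intro i j hij _
    have := hc1 i j hij
    omega
  · intro i i' j j' _ _ _ _ hi hj a1 a2
    by_contra hne
    rcases hc2 i i' j j' (Ne.symm hi) (Ne.symm hj) (fun h => hne (Prod.mk.inj h).1) with h | h <;>
      omega
  · intro T hT I hI
    have : ∀ k ∈ I, ∃ k', k' < K ∧ k' ≠ k ∧ Sp_21.Bad m M b Ms (T + c k' - c k) := fun k hk =>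
      (hI k hk).2
    choose! g hgK hgne hgB using this
    have hinj : (I.image fun k => (k, g k)).card = I.card :=
      Finset.card_image_of_injective _ (fun a b h => (Prod.mk.inj h).1)
    rw [← hinj]
    refine le_trans (hc3 T (fun i hi => hT i hi) _ ?_) (Nat.add_le_add_right hcard m)
    intro p hp
    obtain ⟨k, hk, rfl⟩ := Finset.mem_image.1 hp
    exact ⟨(hI k hk).1, hgK k hk, (hgne k hk).symm, hgB k hk⟩

end Crest.Agent.R320.Gad_523
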