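import Crest.Agent.R320.Top_529
import Crest.Agent.R320.Grid_899
import Crest.Agent.R320.RulerGrid_506
import Crest.Agent.R320.ExactR_237
import Crest.Agent.R320.Fin_869

/-!
# Row 320: the data of the two schemes exist; the row (helper529)
-/

set_option autoImplicit false

namespace Crest.Agent.R320.Gad_529

open Crest.RegLang Crest.Agent.R320.Hk_851 Crest.Agent.R320.FewWalls_228
  Crest.Agent.R320.FewVal_228 Crest.Agent.R320.W_529 Crest.Agent.R320.Two_529

/-- many large primes -/
theorem exists_primes (k b : ℕ) : ∃ q : Fin k → ℕ, (∀ j, (q j).Prime ∧ b < q j) ∧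
    Function.Injective q := by
  refine ⟨fun j => Nat.nth Nat.Prime (b + 1 + j), fun j => ⟨Nat.prime_nth_prime _, ?_⟩, ?_⟩
  · have h : b + 1 + (j : ℕ) ≤ Nat.nth Nat.Prime (b + 1 + (j : ℕ)) :=
      (Nat.nth_strictMono Nat.infinite_setOf_prime).le_apply
    show b < Nat.nth Nat.Prime (b + 1 + (j : ℕ))
    omega
  · intro i j h
    have := (Nat.nth_strictMono Nat.infinite_setOf_prime).injective h
    exact Fin.ext (by omega)

theorem bad_per {Ms : Finset ℕ} {m M Gam : ℕ} {Am : ℕ → ℤ} (hMs : ∀ p ∈ Ms, p ∣ M)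
    {T T' : ℤ} (h : ((M * Gam ^ m : ℕ) : ℤ) ∣ T - T')
    (hT : RulerGrid_506.Bad Ms m M Gam Am T) : RulerGrid_506.Bad Ms m M Gam Am T' := by
  obtain ⟨c, hc⟩ := h
  rcases hT with ⟨p, hp, hd⟩ | ⟨j, h1, h2, k, hk⟩
  · left
    refine ⟨p, hp, ?_⟩
    have e : T' = T - ((M * Gam ^ m : ℕ) : ℤ) * c := by linarith
    rw [e]
    refine dvd_sub hd (Dvd.dvd.mul_right ?_ _)
    exact Int.natCast_dvd_natCast.2 ((hMs p hp).mul_right _)
  · right
    obtain ⟨e, he⟩ := pow_dvd_pow (Gam : ℤ) h2
    refine ⟨j, h1, h2, k - M * e * c, ?_⟩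
    have e1 : T' - Am j - (k - M * e * c) * (Gam : ℤ) ^ j = T - Am j - k * (Gam : ℤ) ^ j := by
      have e2 : T' = T - ((M * Gam ^ m : ℕ) : ℤ) * c := by linarith
      rw [e2]
      push_cast
      rw [he]; ring
    rw [e1]; exact hk

theorem Am_mono (M κ i : ℕ) : Grid_899.Am M κ i ≤ Grid_899.Am M κ (i + 1) := by
  show Grid_899.Am M κ i ≤ Grid_899.Am M κ i + Grid_899.G κ i + M * Grid_899.G κ i
  omega

theorem Am_le (M κ : ℕ) {i j : ℕ} (h : i ≤ j) : Grid_899.Am M κ i ≤ Grid_899.Am M κ j := by
  induction h with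
  | refl => exact le_rfl
  | step _ ih => exact ih.trans (Am_mono M κ _)

/-- gadget 1 in the form needed -/
theorem gadget (S V : Type) [Monoid S] [Finite S] [AddCommGroup V] [Finite V]
    (act : V → S → V) : ∃ C0 : ℕ, ∀ K : ℕ, ∃ (N D : ℕ) (Bad : ℤ → Prop) (x : ℕ → ℕ), 0 < D ∧
      StrictMono x ∧ (∀ T T' : ℤ, (D : ℤ) ∣ T - T' → (Bad T ↔ Bad T')) ∧
      (∀ i j k l, i < K → j < K → k < K → l < K → i ≠ j → k ≠ l → ¬ (i = k ∧ j = l) →
        (2 * N : ℤ) < |((x i : ℤ) - x j) - ((x k : ℤ) - x l)|) ∧
      (∀ T : ℤ, ∃ B : Finset (ℕ × ℕ), B.card ≤ C0 ∧ ∀ i j, i < K → j < K → i ≠ j →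
        Bad (T + x j - x i) → (i, j) ∈ B) ∧
      ∀ (α : Type) (f : α → S), ∃ (lam rho : List α → Option V) (nu : List α → V),
        (∀ P v, lam P = some v → P.length ≤ N) ∧
        (∀ P Q v b, lam P = some v → rho Q = some b →
          b = act v (ph f (P ++ Q)) + nu (P ++ Q)) ∧
        (∀ u : List α, 2 * N ≤ u.length → ¬ Bad u.length → ∀ v, ∃ P Q, P ++ Q = u ∧
          lam P = some v ∧ (rho Q).isSome) ∧
        (∀ u u' : List α, 2 * N ≤ u.length → 2 * N ≤ u'.length →
          u.take (2 * N) = u'.take (2 * N) → ph f (u.drop (2 * N)) = ph f (u'.drop (2 * N)) →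
          (u.length : ZMod D) = u'.length → nu u = nu u') := by
  classical
  obtain ⟨k, m, H⟩ := Grid_899.grid_gadget_reg S V act
  refine ⟨k + m, fun K => ?_⟩
  obtain ⟨q, hq, hqi⟩ := exists_primes k (8 * 4 ^ (K + 1))
  have hodd : ∀ j, Odd (q j) := fun j => (hq j).1.odd_of_ne_two (by
    have := (hq j).2
    have h2 : 1 ≤ 4 ^ (K + 1) := Nat.one_le_pow _ _ (by norm_num)
    omega)
  have hcop : Pairwise (fun i j => Nat.Coprime (q i) (q j)) := fun i j hij =>
    (Nat.coprime_primes (hq i).1 (hq j).1).2 fun h => hij (hqi h)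
  set M := ∏ j, q j with hM
  have hMpos : 0 < M := Finset.prod_pos fun j _ => (hq j).1.pos
  set κ := 100 * 4 ^ (K + 1) * M with hκ
  set Ms : Finset ℕ := Finset.univ.image q with hMs
  have hMs' : ∀ p ∈ Ms, p.Prime ∧ 8 * 4 ^ (K + 1) < p ∧ p ∣ M := by
    intro p hp
    obtain ⟨j, -, rfl⟩ := Finset.mem_image.1 hp
    exact ⟨(hq j).1, (hq j).2, Finset.dvd_prod_of_mem q (Finset.mem_univ j)⟩
  have hcard : Ms.card ≤ k := by
    have := Finset.card_image_le (s := (Finset.univ : Finset (Fin k))) (f := q)
    rwa [Finset.card_univ, Fintype.card_fin] at this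
  set L := Grid_899.Am M κ (m + 1) with hL
  have hGp : ∀ j, Grid_899.G κ j = (2 ^ κ) ^ j := fun j => by
    unfold Grid_899.G; rw [pow_mul]
  obtain ⟨x, hx1, hx2, hx3⟩ := RulerGrid_506.exists_ruler K m (2 * L) M (2 ^ κ) Ms
    (fun j => (Grid_899.Am M κ j : ℤ)) hMpos hMs' (by
      rw [← hκ]; exact Nat.lt_two_pow_self.le)
  set Bad : ℤ → Prop := RulerGrid_506.Bad Ms m M (2 ^ κ) (fun j => (Grid_899.Am M κ j : ℤ))
    with hBad
  refine ⟨L, M * (2 ^ κ) ^ m, Bad, x, Nat.mul_pos hMpos (by positivity), hx1, ?_, ?_, ?_, ?_⟩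
  · intro T T' h
    refine ⟨fun hT => bad_per (fun p hp => (hMs' p hp).2.2) h hT, fun hT => ?_⟩
    exact bad_per (fun p hp => (hMs' p hp).2.2) ((dvd_sub_comm).1 h) hT
  · intro i j k' l hi hj hk hl hij hkl hne
    have := hx2 i j k' l hi hj hk hl hij hkl hne
    push_cast at this ⊢
    exact this
  · intro T
    refine ⟨_, (hx3 T).trans (Nat.add_le_add_right hcard m), fun i j hi hj hij hb => ?_⟩
    rw [Finset.mem_filter, Finset.mem_product, Finset.mem_range, Finset.mem_range]
    exact ⟨⟨hi, hj⟩, hij, hb⟩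
  · intro α f
    obtain ⟨lam, rho, nu, h1, h2, h3, h4, h5⟩ := H q hodd hcop κ α (ph f) (ph_append f)
    rw [← hM] at h1 h2 h4 h5
    have hAm : Grid_899.Am M κ m ≤ L := Am_mono M κ m
    let Pr : List α → Prop := fun u => ∃ P Q v b, P ++ Q = u ∧ lam P = some v ∧ rho Q = some b
    refine ⟨lam, rho, fun u => if Pr u then nu u else 0, ?_, ?_, ?_, ?_⟩
    · intro P v h
      have := (h1 P v h).1
      omega
    · intro P Q v b hl hr
      have hp : Pr (P ++ Q) := ⟨P, Q, v, b, rfl, hl, hr⟩
      show b = _ + (if Pr (P ++ Q) then nu (P ++ Q) else 0)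
      rw [if_pos hp]
      exact h3 P Q v b hl hr
    · intro u hu hb v
      obtain ⟨P, Q, e, g1, g2⟩ := h4 u hu (fun j hd => hb (Or.inl ⟨q j,
        Finset.mem_image.2 ⟨j, Finset.mem_univ _, rfl⟩, Int.natCast_dvd_natCast.2 hd⟩))
        (by
          intro j hj1 hjm
          rw [hGp, hGp]
          have hAj : Grid_899.Am M κ j ≤ u.length := by
            have := Am_le M κ (show j ≤ m + 1 by omega)
            omega
          have hno : ∀ k' : ℤ, ¬ (|(u.length : ℤ) - Grid_899.Am M κ j -
              k' * (((2 ^ κ : ℕ) : ℤ)) ^ j| ≤ (M : ℤ) * (((2 ^ κ : ℕ) : ℤ)) ^ (j - 1)) :=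
            fun k' hk' => hb (Or.inr ⟨j, hj1, hjm, k', hk'⟩)
          set a := (u.length - Grid_899.Am M κ j) % (2 ^ κ) ^ j with ha
          set b := (u.length - Grid_899.Am M κ j) / (2 ^ κ) ^ j with hb'
          have hdm : (2 ^ κ) ^ j * b + a = u.length - Grid_899.Am M κ j := Nat.div_add_mod _ _
          have hlt : a < (2 ^ κ) ^ j := Nat.mod_lt _ (by positivity)
          have hz : (u.length : ℤ) - Grid_899.Am M κ j = (((2 ^ κ : ℕ) : ℤ)) ^ j * b + a := by
            rw [← Nat.cast_sub hAj, ← hdm]; push_cast; ring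
          have n1 := hno b
          have n2 := hno (b + 1)
          rw [hz] at n1 n2
          have e1 : (((2 ^ κ : ℕ) : ℤ)) ^ j * b + a - b * (((2 ^ κ : ℕ) : ℤ)) ^ j = a := by ring
          have e2 : (((2 ^ κ : ℕ) : ℤ)) ^ j * b + a - (b + 1) * (((2 ^ κ : ℕ) : ℤ)) ^ j =
              -((((2 ^ κ : ℕ) : ℤ)) ^ j - a) := by ring
          rw [e1, abs_of_nonneg (by positivity)] at n1
          have hlt' : (a : ℤ) < (((2 ^ κ : ℕ) : ℤ)) ^ j := by exact_mod_cast hlt
          rw [e2, abs_neg, abs_of_nonneg (by linarith)] at n2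
          constructor
          · have : (M : ℤ) * (((2 ^ κ : ℕ) : ℤ)) ^ (j - 1) ≤ a := by linarith
            exact_mod_cast this
          · have : (a : ℤ) + M * (((2 ^ κ : ℕ) : ℤ)) ^ (j - 1) ≤ (((2 ^ κ : ℕ) : ℤ)) ^ j := by
              linarith
            exact_mod_cast this) v
      exact ⟨P, Q, e.symm, g1, g2⟩
    · intro u u' hu hu' ht hd hlen
      have hph : ph f u = ph f u' := by
        rw [← List.take_append_drop (2 * L) u, ← List.take_append_drop (2 * L) u', ph_append,
          ph_append, ht, hd]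
      have key : ∀ u u' : List α, 2 * L ≤ u.length → 2 * L ≤ u'.length →
          u.take (2 * L) = u'.take (2 * L) → ph f (u.drop (2 * L)) = ph f (u'.drop (2 * L)) →
          ((u.length : ZMod (M * (2 ^ κ) ^ m)) = u'.length) → Pr u → ∃ P Q Q' v b,
            P ++ Q = u ∧ P ++ Q' = u' ∧ lam P = some v ∧ rho Q = some b ∧ rho Q' = some b := by
        intro u u' hu hu' ht hd hlen ⟨P, Q, v, b, e, hl, hr⟩
        have lP : P.length ≤ L := by have := (h1 P v hl).1; omega
        have hPu : P = u.take P.length := by rw [← e]; simp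
        have hQu : Q = u.drop P.length := by rw [← e]; simp
        have hPu' : P = u'.take P.length := by
          have e1 := congrArg (List.take P.length) ht
          rw [List.take_take, List.take_take, min_eq_left (by omega)] at e1
          rw [← e1]; exact hPu
        refine ⟨P, Q, u'.drop P.length, v, b, e, ?_, hl, hr, ?_⟩
        · conv_lhs => rw [hPu']
          rw [List.length_take, min_eq_left (by omega)]
          exact List.take_append_drop _ _
        · rw [← hr]
          refine (h5 Q (u'.drop P.length) ?_ ?_ ?_ ?_ ?_).symm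
          · rw [hQu, List.length_drop]; omega
          · rw [List.length_drop]; omega
          · rw [hQu]
            have t1 : ∀ w : List α, (w.drop P.length).take L =
                ((w.take (2 * L)).take (P.length + L)).drop P.length := by
              intro w
              rw [List.take_take, min_eq_left (by omega), List.drop_take, Nat.add_sub_cancel_left]
            rw [t1 u, t1 u', ht]
          · rw [hQu, List.drop_drop, List.drop_drop]
            have t1 : ∀ w : List α, 2 * L ≤ w.length → w.drop (P.length + L) =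
                (w.take (2 * L)).drop (P.length + L) ++ w.drop (2 * L) := by
              intro w hw
              conv_lhs => rw [← List.take_append_drop (2 * L) w]
              rw [List.drop_append_of_le_length (by rw [List.length_take]; omega)]
            rw [t1 u hu, t1 u' hu', ph_append, ph_append, ht, hd]
          · rw [hGp]
            have e1 : ((Q.length : ℕ) : ZMod (M * (2 ^ κ) ^ m)) =
                ((u'.drop P.length).length : ℕ) := by
              rw [hQu, List.length_drop, List.length_drop, Nat.cast_sub (by omega),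
                Nat.cast_sub (by omega), hlen]
            exact (ZMod.natCast_eq_natCast_iff _ _ _).1 e1
      show (if Pr u then nu u else 0) = (if Pr u' then nu u' else 0)
      by_cases hp : Pr u
      · obtain ⟨P, Q, Q', v, b, e1, e2, g1, g2, g3⟩ := key u u' hu hu' ht hd hlen hp
        have hp' : Pr u' := ⟨P, Q', v, b, e2, g1, g3⟩
        rw [if_pos hp, if_pos hp']
        have s1 := h3 P Q v b g1 g2
        have s2 := h3 P Q' v b g1 g3
        rw [e1] at s1
        rw [e2, ← hph] at s2
        rw [s1] at s2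
        exact add_left_cancel s2
      · have hp' : ¬ Pr u' := by
          intro h'
          obtain ⟨P, Q, Q', v, b, e1, e2, g1, g2, g3⟩ :=
            key u' u hu' hu ht.symm hd.symm hlen.symm h'
          exact hp ⟨P, Q', v, b, e2, g1, g3⟩
        rw [if_neg hp, if_neg hp']

theorem sep_of_walls {α : Type} {n : ℕ} {Ss : Set (List α)} {W : ℕ}
    (hS : ∀ s ∈ Ss, s.length = n)
    (h : ∀ (w : List α) (x y : ℕ), x < y → Wl n Ss w x → Wl n Ss w y → x + W ≤ y)
    (w : List α) (s t : ℕ) (hst : s < t) (ht : t ≤ w.length) (hs : E n Ss (w.take s))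
    (htE : E n Ss (w.take t)) : s + W ≤ t := by
  have key : ∀ i, i ≤ w.length → E n Ss (w.take i) → n ≤ i ∧ Wl n Ss w (i - n) := by
    intro i hi hE
    have hl := hS _ hE
    unfold lastn at hl
    rw [List.length_drop, List.length_take, min_eq_left hi] at hl
    have hni : n ≤ i := by omega
    refine ⟨hni, by omega, ?_⟩
    have hE' : lastn n (w.take i) ∈ Ss := hE
    unfold lastn at hE'
    rw [List.length_take, min_eq_left hi, List.drop_take, Nat.sub_sub_self hni] at hE'
    exact hE'
  obtain ⟨a1, a2⟩ := key s (by omega) hs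
  obtain ⟨b1, b2⟩ := key t ht htE
  have := h w (s - n) (t - n) (by omega) a2 b2
  omega

/-- **height three for all values** -/
theorem values (α S : Type) [Finite α] [Monoid S] [Finite S] (f : α → S) (s : S) :
    HL 3 ({w | (w.map f).prod = s} : Language α) := by
  classical
  haveI := Fintype.ofFinite S
  let V := S → ZMod 2
  let act : V → S → V := fun v s t => v (s * t)
  obtain ⟨C0, H⟩ := gadget S V act
  obtain ⟨K, HK⟩ := ExactR_237.exact_gadget α S V f act (2 + 2 * C0)
  obtain ⟨N, D, Bad, x, hD, hx, hBad, hsp, hth, HG⟩ := H K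
  obtain ⟨lam, rho, nu, g1, g2, g3, g4⟩ := HG α f
  obtain ⟨lam2, rho2, nu2, e1, e2⟩ := HK (fun k => 1 + x k) (by
    intro i j hij _
    have := hx hij
    omega)
  obtain ⟨n, c, P, Ss, hn, hP, hS, hsep, hper, hHL⟩ :=
    exists_walls α (4 * (N + (1 + x K)) + 4) (by omega)
  have hpr : ∀ w : List α, ExactR_237.pr f w = ph f w := fun w => rfl
  let d : Dat α S V :=
    { f := f
      act := act
      hmul := by intro v s s'; funext t; show v (s * s' * t) = v (s * (s' * t)); rw [mul_assoc]
      hadd := by intro v w s; rfl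
      n := n
      Ss := Ss
      W := 4 * (N + (1 + x K)) + 4
      hsep := sep_of_walls hS hsep
      N := N
      D := D
      hD := hD
      Bad := Bad
      hBad := hBad
      lam := lam
      rho := fun Q => if n ≤ Q.length then rho Q else none
      nu := nu
      hlam := g1
      hrho := by
        intro Q b h
        by_contra hc
        rw [if_neg hc] at h
        exact absurd h (by simp)
      sound := by
        intro P Q v b h1 h2
        split_ifs at h2
        exact g2 P Q v b h1 h2
      Mn := 2 * N + n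
      compl := by
        intro u hu hb v
        obtain ⟨P, Q, e, h1, h2⟩ := g3 u (by omega) hb v
        refine ⟨P, Q, e, h1, ?_⟩
        have hl := g1 P v h1
        have he := congrArg List.length e
        rw [List.length_append] at he
        rw [if_pos (by omega)]; exact h2
      K := K
      R := 2 + 2 * C0
      C0 := C0
      c := fun k => 1 + x k
      p0 := 1 + x K
      hc0 := by intro k _; omega
      hcp := by
        intro k hk
        have := hx hk
        show 1 + x k ≤ 1 + x K
        omega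
      lam2 := lam2
      rho2 := fun k Q => rho2 k Q 1
      nu2 := fun u => nu2 u 1
      sound2 := by
        intro k hk P Q v b h1 h2 h3
        have := e1 k hk P Q 1 v b h1 h2 h3
        rw [mul_one, hpr] at this
        exact this
      compl2 := by
        intro u v hu
        exact e2 u 1 v hu
      spaced := by
        intro i j k l hi hj hk hl hij hkl hne
        have := hsp i j k l hi hj hk hl hij hkl hne
        have e : (((1 + x i : ℕ) : ℤ) - ((1 + x j : ℕ) : ℤ)) -
            (((1 + x k : ℕ) : ℤ) - ((1 + x l : ℕ) : ℤ)) =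
            ((x i : ℤ) - x j) - ((x k : ℤ) - x l) := by push_cast; ring
        rw [e]; exact this
      thin := by
        intro T
        obtain ⟨B, hB, hB2⟩ := hth T
        refine ⟨B, hB, fun i j hi hj hij hb => hB2 i j hi hj hij ?_⟩
        have e : T + ((1 + x j : ℕ) : ℤ) - ((1 + x i : ℕ) : ℤ) = T + x j - x i := by
          push_cast; ring
        rw [e] at hb; exact hb
      hR := le_rfl
      z := 4 * ((1 + x K) + n + N + (2 * N + n)) + 4
      hz := le_rfl
      hW := le_rfl
      hp0 := by omega }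
  refine Top_529.Dat.height d (d.z + d.N + 2 * d.N + d.n + 1 + d.p0) le_rfl g4 hHL ?_ ?_ s
  · intro v
    funext t
    show v (1 * t) = v t
    rw [one_mul]
  · intro a b hab
    have h1 := congrFun (hab (fun u => if u = a then 1 else 0)) 1
    have h2 : (if a * 1 = a then (1 : ZMod 2) else 0) = if b * 1 = a then 1 else 0 := h1
    rw [mul_one, mul_one, if_pos rfl] at h2
    by_contra hne
    rw [if_neg (fun h => hne h.symm)] at h2
    exact absurd h2 (by decide)

universe u

/-- the row -/
theorem final (α : Type u) [Finite α] (L : Language α) (hL : L.IsRegular) :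
    ∃ e : GRegExp α, e.height ≤ 3 ∧ e.lang = L :=
  Fin_869.of_values (fun n S _ _ f s => values (Fin n) S f s) α L hL

end Crest.Agent.R320.Gad_529
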