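import Crest.Agent.R320.Grid_899
import Crest.Agent.R320.Thin_963

/-!
Row 320, helper654: closed form of scheme 1 on all words (gadget + ruler + thinness + finite state),
over `Grid_899.grid_gadget_reg` and `Thin963.thin`.
-/

set_option autoImplicit false

namespace Crest.Agent.R320.Gad_654

open Crest.Agent.R320 Crest.Agent.R320.Grid_899

def BadT (Ms κ m : ℕ) {k : ℕ} (q : Fin k → ℕ) (n : ℕ) : Prop :=
  (∃ j, q j ∣ n) ∨ ∃ j, 1 ≤ j ∧ j ≤ m ∧
    ¬ (Ms * G κ (j - 1) ≤ (n - Am Ms κ j) % G κ j ∧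
      (n - Am Ms κ j) % G κ j + Ms * G κ (j - 1) ≤ G κ j)

theorem badT_int {Ms κ m k : ℕ} (q : Fin k → ℕ) {n : ℕ} (hn : Am Ms κ m ≤ n)
    (h : BadT Ms κ m q n) :
    Thin963.BadT (Finset.univ.image q) m (fun i => (G κ i : ℤ)) (fun i => ((Ms * G κ i : ℕ) : ℤ))
      (fun i => (Am Ms κ i : ℤ)) (n : ℤ) := by
  rcases h with ⟨j, hj⟩ | ⟨j, h1, h2, h3⟩
  · left
    exact ⟨q j, Finset.mem_image_of_mem _ (Finset.mem_univ j), by exact_mod_cast hj⟩
  · right
    obtain ⟨i, rfl⟩ : ∃ i, j = i + 1 := ⟨j - 1, by omega⟩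
    rw [Nat.add_sub_cancel] at h3
    have hA : Am Ms κ (i + 1) ≤ n := le_trans (Am_mono h2) hn
    have hG : 0 < G κ (i + 1) := G_pos (i + 1)
    set r := (n - Am Ms κ (i + 1)) % G κ (i + 1) with hr
    have hrlt : r < G κ (i + 1) := Nat.mod_lt _ hG
    have hdiv : (G κ (i + 1) : ℤ) ∣ ((n : ℤ) - Am Ms κ (i + 1)) - r := by
      have h4 : G κ (i + 1) ∣ (n - Am Ms κ (i + 1)) - r := Nat.dvd_sub_mod _
      have h5 : ((n - Am Ms κ (i + 1) - r : ℕ) : ℤ) = ((n : ℤ) - Am Ms κ (i + 1)) - r := by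
        have h6 : r ≤ n - Am Ms κ (i + 1) := Nat.mod_le _ _
        push_cast [Nat.cast_sub hA, Nat.cast_sub h6]
        ring
      rw [← h5]
      exact_mod_cast h4
    refine ⟨i, by omega, ?_⟩
    by_cases h4 : Ms * G κ i ≤ r
    · have h5 : G κ (i + 1) < r + Ms * G κ i := by
        by_contra h6
        exact h3 ⟨h4, by omega⟩
      refine ⟨(G κ (i + 1) : ℤ) - r, ?_, ?_⟩
      · rw [abs_of_nonneg (by omega)]
        have h5' : (G κ (i + 1) : ℤ) < r + ((Ms * G κ i : ℕ) : ℤ) := by exact_mod_cast h5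
        linarith
      · have : ((n : ℤ) - (Am Ms κ (i + 1) : ℤ) + ((G κ (i + 1) : ℤ) - r)) =
          (((n : ℤ) - Am Ms κ (i + 1)) - r) + G κ (i + 1) := by ring
        show (G κ (i + 1) : ℤ) ∣ ((n : ℤ) - (Am Ms κ (i + 1) : ℤ) + ((G κ (i + 1) : ℤ) - r))
        rw [this]
        exact dvd_add hdiv (dvd_refl _)
    · refine ⟨-(r : ℤ), ?_, ?_⟩
      · rw [abs_neg, abs_of_nonneg (by omega)]
        have h5' : (r : ℤ) < ((Ms * G κ i : ℕ) : ℤ) := by
          exact_mod_cast (not_le.1 h4)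
        exact h5'.le
      · show (G κ (i + 1) : ℤ) ∣ ((n : ℤ) - (Am Ms κ (i + 1) : ℤ) + (-(r : ℤ)))
        have : ((n : ℤ) - (Am Ms κ (i + 1) : ℤ) + (-(r : ℤ))) =
          (((n : ℤ) - Am Ms κ (i + 1)) - r) := by ring
        rw [this]
        exact hdiv

theorem sub_mod_congr {n n' a M : ℕ} (h : n ≡ n' [MOD M]) (ha : a ≤ n) (ha' : a ≤ n') :
    n - a ≡ n' - a [MOD M] := by
  apply Nat.ModEq.add_right_cancel' a
  rw [Nat.sub_add_cancel ha, Nat.sub_add_cancel ha']
  exact h

theorem badT_per {κ m k : ℕ} (q : Fin k → ℕ) {n n' : ℕ} (hn : Am (∏ j, q j) κ m ≤ n)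
    (hn' : Am (∏ j, q j) κ m ≤ n') (h : n % ((∏ j, q j) * G κ m) = n' % ((∏ j, q j) * G κ m)) :
    BadT (∏ j, q j) κ m q n → BadT (∏ j, q j) κ m q n' := by
  have hm : n ≡ n' [MOD (∏ j, q j) * G κ m] := h
  rintro (⟨j, hj⟩ | ⟨j, h1, h2, h3⟩)
  · left
    refine ⟨j, ?_⟩
    have h4 : n ≡ n' [MOD q j] := hm.of_dvd
      (Dvd.dvd.mul_right (Finset.dvd_prod_of_mem q (Finset.mem_univ j)) _)
    exact (h4.dvd_iff (dvd_refl _)).1 hj
  · right
    refine ⟨j, h1, h2, ?_⟩
    have hA : Am (∏ j, q j) κ j ≤ Am (∏ j, q j) κ m := Am_mono h2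
    have h4 : n - Am (∏ j, q j) κ j ≡ n' - Am (∏ j, q j) κ j [MOD G κ j] :=
      sub_mod_congr (hm.of_dvd (Dvd.dvd.mul_left (G_dvd h2) _)) (by omega) (by omega)
    have h5 : (n - Am (∏ j, q j) κ j) % G κ j = (n' - Am (∏ j, q j) κ j) % G κ j := h4
    rw [← h5]
    exact h3

theorem exists_primes (k B : ℕ) : ∃ q : Fin k → ℕ, (∀ j, (q j).Prime ∧ B ≤ q j ∧ Odd (q j)) ∧
    Function.Injective q := by
  refine ⟨fun j => Nat.nth Nat.Prime (B + j + 1), fun j => ⟨Nat.prime_nth_prime _, ?_, ?_⟩, ?_⟩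
  · have := Nat.add_two_le_nth_prime (B + j + 1)
    show B ≤ Nat.nth Nat.Prime (B + j + 1)
    omega
  · have := Nat.add_two_le_nth_prime (B + j + 1)
    refine (Nat.prime_nth_prime _).odd_of_ne_two ?_
    intro h
    omega
  · intro i j h
    have := Nat.nth_injective Nat.infinite_setOfPred_prime h
    exact Fin.ext (by omega)

theorem grow {K m Ms : ℕ} (i : ℕ) (hi : i < m) :
    2 ^ (K + 4) * ∑ j ∈ Finset.range (i + 1), Ms * G (K + 4 + m + Ms) j
      ≤ G (K + 4 + m + Ms) (i + 1) := by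
  set κ := K + 4 + m + Ms with hκ
  have h1 : ∑ j ∈ Finset.range (i + 1), Ms * G κ j ≤ (i + 1) * (Ms * G κ i) := by
    have := Finset.sum_le_card_nsmul (Finset.range (i + 1)) (fun j => Ms * G κ j) (Ms * G κ i)
      (fun j hj => by
        have hj' : j ≤ i := by
          have := Finset.mem_range.1 hj
          omega
        exact Nat.mul_le_mul_left _ (Nat.le_of_dvd (G_pos i) (G_dvd hj')))
    simpa using this
  have h2 : (i + 1) * Ms ≤ 2 ^ (m + Ms) := by
    have h3 : i + 1 ≤ 2 ^ m := by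
      have : m < 2 ^ m := Nat.lt_two_pow_self
      omega
    have h4 : Ms ≤ 2 ^ Ms := Nat.lt_two_pow_self.le
    rw [pow_add]
    exact Nat.mul_le_mul h3 h4
  have h5 : G κ (i + 1) = 2 ^ (K + 4) * 2 ^ (m + Ms) * G κ i := by
    unfold G
    rw [← pow_add, ← pow_add]
    congr 1
    rw [hκ]
    ring
  calc 2 ^ (K + 4) * ∑ j ∈ Finset.range (i + 1), Ms * G κ j
      ≤ 2 ^ (K + 4) * ((i + 1) * (Ms * G κ i)) := Nat.mul_le_mul_left _ h1
    _ = 2 ^ (K + 4) * ((i + 1) * Ms) * G κ i := by ring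
    _ ≤ 2 ^ (K + 4) * 2 ^ (m + Ms) * G κ i :=
        Nat.mul_le_mul_right _ (Nat.mul_le_mul_left _ h2)
    _ = G κ (i + 1) := h5.symm

/-- finite-state redefinition of the noise -/
theorem renu {S V α : Type} [Monoid S] [AddCommGroup V] (act : V → S → V) (a a1 M0 : ℕ)
    (ha : a1 ≤ a) (phi : List α → S)
    (hphi : ∀ u v, phi (u ++ v) = phi u * phi v) (lam rho : List α → Option V) (nu0 : List α → V)
    (h1 : ∀ P v, lam P = some v → P.length < a1)
    (h3 : ∀ P Q v b, lam P = some v → rho Q = some b → b = act v (phi (P ++ Q)) + nu0 (P ++ Q))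
    (h5 : ∀ Q Q' : List α, a ≤ Q.length → a ≤ Q'.length → Q.take a = Q'.take a →
      phi (Q.drop a) = phi (Q'.drop a) → Q.length ≡ Q'.length [MOD M0] → rho Q = rho Q') :
    ∃ nu : List α → V,
      (∀ P Q v b, lam P = some v → rho Q = some b → b = act v (phi (P ++ Q)) + nu (P ++ Q)) ∧
      (∀ u u' : List α, 2 * a ≤ u.length → 2 * a ≤ u'.length → u.take (2 * a) = u'.take (2 * a) →
        phi (u.drop (2 * a)) = phi (u'.drop (2 * a)) → u.length % M0 = u'.length % M0 →
        nu u = nu u') := by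
  classical
  let nu : List α → V := fun u =>
    if ∃ p v b, lam (u.take p) = some v ∧ rho (u.drop p) = some b then nu0 u else 0
  have key : ∀ u u' : List α, 2 * a ≤ u.length → 2 * a ≤ u'.length →
      u.take (2 * a) = u'.take (2 * a) →
      phi (u.drop (2 * a)) = phi (u'.drop (2 * a)) → u.length % M0 = u'.length % M0 →
      ∀ p v b, lam (u.take p) = some v → rho (u.drop p) = some b →
      lam (u'.take p) = some v ∧ rho (u'.drop p) = some b ∧ nu0 u = nu0 u' := by
    intro u u' hu hu' e1 e2 e3 p v b hl hr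
    have hp : p < a1 := by
      have := h1 _ _ hl
      rw [List.length_take] at this
      omega
    have et : ∀ t, t ≤ 2 * a → u.take t = u'.take t := by
      intro t ht
      have := congrArg (fun l => l.take t) e1
      simpa [List.take_take, Nat.min_eq_left ht] using this
    have ed : ∀ t, t ≤ 2 * a → phi (u.drop t) = phi (u'.drop t) := by
      intro t ht
      have f1 : ∀ w : List α, w.drop t = (w.take (2 * a)).drop t ++ w.drop (2 * a) := by
        intro w
        by_cases hw : 2 * a ≤ w.length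
        · conv_lhs => rw [← List.take_append_drop (2 * a) w]
          rw [List.drop_append_of_le_length (by rw [List.length_take]; omega)]
        · rw [List.take_of_length_le (by omega), List.drop_of_length_le (i := 2 * a) (by omega),
            List.append_nil]
      rw [f1 u, f1 u', hphi, hphi, e1, e2]
    have hl' : lam (u'.take p) = some v := by rw [← et p (by omega)]; exact hl
    have hrr : rho (u.drop p) = rho (u'.drop p) := by
      refine h5 _ _ ?_ ?_ ?_ ?_ ?_
      · rw [List.length_drop]; omega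
      · rw [List.length_drop]; omega
      · have f2 : ∀ w : List α, (w.drop p).take a = (w.take (p + a)).drop p := by
          intro w
          rw [List.take_drop]
        rw [f2, f2, et (p + a) (by omega)]
      · rw [List.drop_drop, List.drop_drop]
        exact ed _ (by omega)
      · rw [List.length_drop, List.length_drop]
        exact sub_mod_congr e3 (by omega) (by omega)
    have hr' : rho (u'.drop p) = some b := by rw [← hrr]; exact hr
    refine ⟨hl', hr', ?_⟩
    have g1 := h3 _ _ _ _ hl hr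
    have g2 := h3 _ _ _ _ hl' hr'
    rw [List.take_append_drop] at g1 g2
    have hph : phi u = phi u' := by
      have := ed 0 (by omega)
      simpa using this
    rw [hph] at g1
    have : act v (phi u') + nu0 u = act v (phi u') + nu0 u' := by rw [← g1, ← g2]
    exact add_left_cancel this
  refine ⟨nu, ?_, ?_⟩
  · intro P Q v b hP hQ
    have hex : ∃ p v b, lam ((P ++ Q).take p) = some v ∧ rho ((P ++ Q).drop p) = some b :=
      ⟨P.length, v, b, by rw [List.take_left]; exact hP, by rw [List.drop_left]; exact hQ⟩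
    show b = act v (phi (P ++ Q)) +
      (if ∃ p v b, lam ((P ++ Q).take p) = some v ∧ rho ((P ++ Q).drop p) = some b
        then nu0 (P ++ Q) else 0)
    rw [if_pos hex]
    exact h3 _ _ _ _ hP hQ
  · intro u u' hu hu' e1 e2 e3
    show (if ∃ p v b, lam (u.take p) = some v ∧ rho (u.drop p) = some b then nu0 u else 0) =
      (if ∃ p v b, lam (u'.take p) = some v ∧ rho (u'.drop p) = some b then nu0 u' else 0)
    by_cases hx : ∃ p v b, lam (u.take p) = some v ∧ rho (u.drop p) = some b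
    · obtain ⟨p, v, b, hl, hr⟩ := hx
      obtain ⟨hl', hr', e⟩ := key u u' hu hu' e1 e2 e3 p v b hl hr
      rw [if_pos ⟨p, v, b, hl, hr⟩, if_pos ⟨p, v, b, hl', hr'⟩, e]
    · have hx' : ¬ ∃ p v b, lam (u'.take p) = some v ∧ rho (u'.drop p) = some b := by
        rintro ⟨p, v, b, hl, hr⟩
        obtain ⟨hl', hr', -⟩ := key u' u hu' hu e1.symm e2.symm e3.symm p v b hl hr
        exact hx ⟨p, v, b, hl', hr'⟩
      rw [if_neg hx, if_neg hx']

/-- **the closed gadget** -/
theorem gad (S V : Type) [Monoid S] [Finite S] [AddCommGroup V] [Finite V] (act : V → S → V) :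
    ∃ C0 : ℕ, ∀ K : ℕ, ∃ (N1 A M0 : ℕ) (Bd : ℕ → Prop) (c : ℕ → ℕ),
      0 < N1 ∧ 0 < M0 ∧ (∀ i j, i < j → c i < c j) ∧
      (∀ k k' l l', k' ≠ k → l' ≠ l →
        c k + c l' < c l + c k' + 2 * N1 → c l + c k' < c k + c l' + 2 * N1 → k = l) ∧
      (∀ (T : ℤ) (J : Finset ℕ), (∀ k ∈ J, k < K ∧ ∃ k', k' < K ∧ k' ≠ k ∧
        ∃ n : ℕ, A ≤ n ∧ (n : ℤ) = T + c k' - c k ∧ Bd n) → J.card ≤ C0) ∧
      (∀ n n', A ≤ n → A ≤ n' → n % M0 = n' % M0 → Bd n → Bd n') ∧
      ∀ (α : Type) (phi : List α → S), (∀ u v, phi (u ++ v) = phi u * phi v) →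
      ∃ (lam rho : List α → Option V) (nu : List α → V),
        (∀ P v, lam P = some v → P.length ≤ N1) ∧
        (∀ P Q v b, lam P = some v → rho Q = some b → b = act v (phi (P ++ Q)) + nu (P ++ Q)) ∧
        (∀ u : List α, A ≤ u.length → ¬ Bd u.length → ∀ v, ∃ P Q, u = P ++ Q ∧
          lam P = some v ∧ (rho Q).isSome) ∧
        (∀ u u' : List α, A ≤ u.length → A ≤ u'.length → u.take A = u'.take A →
          phi (u.drop A) = phi (u'.drop A) → u.length % M0 = u'.length % M0 → nu u = nu u') := by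
  classical
  obtain ⟨k, m, H⟩ := grid_gadget_reg S V act
  refine ⟨k + m, fun K => ?_⟩
  obtain ⟨q, hq, hinj⟩ := exists_primes k (2 ^ (K + 1))
  have hcop : Pairwise (fun i j => Nat.Coprime (q i) (q j)) := by
    intro i j hij
    exact (Nat.coprime_primes (hq i).1 (hq j).1).2 (fun h => hij (hinj h))
  set Ms := ∏ j, q j with hMs
  have hMs0 : 0 < Ms := Finset.prod_pos fun j _ => (hq j).1.pos
  set κ := K + 4 + m + Ms with hκ
  have hA1 : Am Ms κ m ≤ Am Ms κ (m + 1) := Am_mono (by omega)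
  obtain ⟨X, hX1, hX0, hX⟩ := Thin963.thin K m (Finset.univ.image q) (fun i => (G κ i : ℤ))
    (fun i => ((Ms * G κ i : ℕ) : ℤ)) (fun i => (Am Ms κ i : ℤ))
    (by
      intro p hp
      obtain ⟨j, -, rfl⟩ := Finset.mem_image.1 hp
      exact ⟨(hq j).1, (hq j).2.1⟩)
    (by
      intro p hp
      obtain ⟨j, -, rfl⟩ := Finset.mem_image.1 hp
      show IsCoprime ((q j : ℕ) : ℤ) ((G κ m : ℕ) : ℤ)
      rw [Nat.isCoprime_iff_coprime]
      exact Nat.Coprime.pow_right _ ((Nat.coprime_two_right).2 (hq j).2.2))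
    (by exact_mod_cast (G_pos (κ := κ) m))
    (fun i j hij => by
      show ((G κ i : ℕ) : ℤ) ∣ ((G κ j : ℕ) : ℤ)
      exact_mod_cast (G_dvd (κ := κ) hij))
    (fun i => by
      have := Nat.mul_pos hMs0 (G_pos (κ := κ) i)
      exact_mod_cast this)
    (fun i => by
      show ((G κ i : ℕ) : ℤ) ∣ ((Ms * G κ i : ℕ) : ℤ)
      exact_mod_cast (Dvd.intro_left Ms rfl))
    (fun i hi => by
      have h := grow (K := K) (m := m) (Ms := Ms) i hi
      rw [← hκ] at h
      exact_mod_cast h)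
    ((2 * (Am Ms κ (m + 1) + 1) + 1 : ℕ) : ℤ)
  obtain ⟨x, rfl⟩ : ∃ x : ℕ, X = x := ⟨X.toNat, (Int.toNat_of_nonneg hX0.le).symm⟩
  have hx1 : 2 * (Am Ms κ (m + 1) + 1) + 1 ≤ x := by exact_mod_cast hX1
  have hx0 : 0 < x := by omega
  refine ⟨Am Ms κ (m + 1) + 1, 2 * Am Ms κ (m + 1), Ms * G κ m, BadT Ms κ m q,
    fun j => x * 2 ^ j, by omega, Nat.mul_pos hMs0 (G_pos m), ?_, ?_, ?_, ?_, ?_⟩
  · intro i j hij
    exact Nat.mul_lt_mul_of_pos_left (Nat.pow_lt_pow_right (by norm_num) hij) hx0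
  · intro a a' b b' hne hne' g1 g2
    have e : (2 : ℤ) ^ a - 2 ^ a' = 2 ^ b - 2 ^ b' := by
      have g1' : (x : ℤ) * 2 ^ a + x * 2 ^ b' < x * 2 ^ b + x * 2 ^ a' + x := by
        have : x * 2 ^ a + x * 2 ^ b' < x * 2 ^ b + x * 2 ^ a' + x := by
          have := g1
          simp only at this
          omega
        exact_mod_cast this
      have g2' : (x : ℤ) * 2 ^ b + x * 2 ^ a' < x * 2 ^ a + x * 2 ^ b' + x := by
        have : x * 2 ^ b + x * 2 ^ a' < x * 2 ^ a + x * 2 ^ b' + x := by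
          have := g2
          simp only at this
          omega
        exact_mod_cast this
      have hxp : (0 : ℤ) < x := by exact_mod_cast hx0
      have h1 : ((2 : ℤ) ^ a + 2 ^ b' - 2 ^ b - 2 ^ a') < 1 := by
        by_contra hh
        push Not at hh
        nlinarith
      have h2 : -1 < ((2 : ℤ) ^ a + 2 ^ b' - 2 ^ b - 2 ^ a') := by
        by_contra hh
        push Not at hh
        nlinarith
      omega
    exact (Crest.Agent.R320.G369.pow_diff hne.symm hne'.symm e).1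
  · intro T J hJ
    have hcard := hX T
    have himg : (Finset.univ.image q).card ≤ k := by
      have := Finset.card_image_le (s := (Finset.univ : Finset (Fin k))) (f := q)
      simpa using this
    have hsub : J ⊆ (((Finset.range K) ×ˢ (Finset.range K)).filter (fun p => p.1 ≠ p.2 ∧
        Thin963.BadT (Finset.univ.image q) m (fun i => (G κ i : ℤ))
          (fun i => ((Ms * G κ i : ℕ) : ℤ)) (fun i => (Am Ms κ i : ℤ))
          (T + (x : ℤ) * 2 ^ p.1 - x * 2 ^ p.2))).image Prod.snd := by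
      intro j hj
      obtain ⟨hjK, j', hj'K, hne, n, hn, hnT, hb⟩ := hJ j hj
      refine Finset.mem_image.2 ⟨(j', j), ?_, rfl⟩
      refine Finset.mem_filter.2 ⟨Finset.mem_product.2 ⟨Finset.mem_range.2 hj'K,
        Finset.mem_range.2 hjK⟩, hne, ?_⟩
      have h4 := badT_int (Ms := Ms) (κ := κ) (m := m) q (n := n) (by omega) hb
      rw [hnT] at h4
      have e : T + ((x * 2 ^ j' : ℕ) : ℤ) - ((x * 2 ^ j : ℕ) : ℤ) =
          T + (x : ℤ) * 2 ^ j' - x * 2 ^ j := by
        push_cast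
        ring
      rw [e] at h4
      exact h4
    have h5 := Finset.card_le_card hsub
    have h6 := Finset.card_image_le (s := (((Finset.range K) ×ˢ (Finset.range K)).filter
      (fun p => p.1 ≠ p.2 ∧
        Thin963.BadT (Finset.univ.image q) m (fun i => (G κ i : ℤ))
          (fun i => ((Ms * G κ i : ℕ) : ℤ)) (fun i => (Am Ms κ i : ℤ))
          (T + (x : ℤ) * 2 ^ p.1 - x * 2 ^ p.2)))) (f := Prod.snd)
    have h7 : _ ≤ _ := hcard
    refine le_trans h5 (le_trans h6 (le_trans ?_ (Nat.add_le_add_right himg m)))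
    convert h7
  · intro n n' hn hn' h hb
    have hn1 : Am Ms κ m ≤ n := by omega
    have hn2 : Am Ms κ m ≤ n' := by omega
    exact badT_per q hn1 hn2 h hb
  · intro α phi hphi
    obtain ⟨lam, rho, nu0, h1, h2, h3, h4, h5⟩ := H q (fun j => (hq j).2.2) hcop κ α phi hphi
    obtain ⟨nu, hs, hc⟩ := renu act (Am Ms κ (m + 1)) (Am Ms κ m) (Ms * G κ m) hA1 phi hphi
      lam rho nu0 (fun P v h => (h1 P v h).1) h3 h5
    refine ⟨lam, rho, nu, ?_, hs, ?_, hc⟩
    · intro P v h
      have h6 : P.length < Am Ms κ m := (h1 P v h).1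
      omega
    · intro u hu hb v
      refine h4 u hu ?_ ?_ v
      · intro j hj
        exact hb (Or.inl ⟨j, hj⟩)
      · intro j hj1 hj2
        by_contra hh
        exact hb (Or.inr ⟨j, hj1, hj2, hh⟩)

end Crest.Agent.R320.Gad_654
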