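import Crest.Agent.R320.UG2_658
import Crest.Agent.R320.Thin_963
import Crest.Agent.R320.Fin_211

/-!
Row 320 (helper658): `Fin_211.Gad` from `UG_658.ug` and `Thin963.thin`.
-/

set_option autoImplicit false

namespace Crest.Agent.R320.Gad_658

open Finset

/-- bad totals -/
def BadN (Ms : Finset ℕ) (m m0 : ℕ) (R : ℕ → ℕ) (n : ℕ) : Prop :=
  ¬ ((∀ k ∈ Ms, ¬ k ∣ n) ∧ ∀ k, 0 < k → k ≤ m → R (k - 1) * m0 ≤ n % R k ∧
    n % R k + R (k - 1) * m0 ≤ R k)

theorem badN_imp {Ms : Finset ℕ} {m m0 : ℕ} {R : ℕ → ℕ} (hR : ∀ k, 0 < R k) {n : ℕ}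
    (h : BadN Ms m m0 R n) :
    Thin963.BadT Ms m (fun i => (R i : ℤ)) (fun i => ((R i * m0 : ℕ) : ℤ)) (fun _ => 0) (n : ℤ) := by
  unfold BadN at h
  by_cases h1 : ∀ k ∈ Ms, ¬ k ∣ n
  · right
    have h2 : ¬ ∀ k, 0 < k → k ≤ m → R (k - 1) * m0 ≤ n % R k ∧
        n % R k + R (k - 1) * m0 ≤ R k := fun h2 => h ⟨h1, h2⟩
    push Not at h2
    obtain ⟨k, hk0, hkm, h3⟩ := h2
    obtain ⟨i, rfl⟩ : ∃ i, k = i + 1 := ⟨k - 1, by omega⟩
    rw [Nat.add_sub_cancel] at h3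
    refine ⟨i, by omega, ?_⟩
    have hdm := Nat.div_add_mod n (R (i + 1))
    by_cases h4 : R i * m0 ≤ n % R (i + 1)
    · have h5 := h3 h4
      have h6 := Nat.mod_lt n (hR (i + 1))
      refine ⟨(R (i + 1) : ℤ) - ((n % R (i + 1) : ℕ) : ℤ), ?_, ?_⟩
      · show |(R (i + 1) : ℤ) - ((n % R (i + 1) : ℕ) : ℤ)| ≤ ((R i * m0 : ℕ) : ℤ)
        rw [abs_of_nonneg (by omega)]
        omega
      · refine ⟨(n / R (i + 1) : ℕ) + 1, ?_⟩
        have : (n : ℤ) = (R (i + 1) : ℤ) * ((n / R (i + 1) : ℕ) : ℤ) + ((n % R (i + 1) : ℕ) : ℤ) := by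
          exact_mod_cast hdm.symm
        linear_combination this
    · refine ⟨-((n % R (i + 1) : ℕ) : ℤ), ?_, ?_⟩
      · show |-((n % R (i + 1) : ℕ) : ℤ)| ≤ ((R i * m0 : ℕ) : ℤ)
        rw [abs_neg, abs_of_nonneg (by positivity)]
        have : n % R (i + 1) ≤ R i * m0 := by omega
        exact_mod_cast this
      · refine ⟨((n / R (i + 1) : ℕ) : ℤ), ?_⟩
        have : (n : ℤ) = (R (i + 1) : ℤ) * ((n / R (i + 1) : ℕ) : ℤ) + ((n % R (i + 1) : ℕ) : ℤ) := by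
          exact_mod_cast hdm.symm
        linear_combination this
  · left
    push Not at h1
    obtain ⟨k, hk, hd⟩ := h1
    exact ⟨k, hk, by exact_mod_cast hd⟩

theorem sum_le (a ρ : ℕ) (hρ : 2 ≤ ρ) (i : ℕ) :
    ∑ j ∈ range (i + 1), ρ ^ j * a ≤ 2 * (ρ ^ i * a) := by
  induction i with
  | zero => simp; omega
  | succ i ih =>
    rw [sum_range_succ]
    have h1 : 2 * (ρ ^ i * a) ≤ ρ ^ (i + 1) * a := by
      rw [pow_succ]
      calc 2 * (ρ ^ i * a) ≤ ρ * (ρ ^ i * a) := Nat.mul_le_mul_right _ hρ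
        _ = _ := by ring
    omega

theorem gad {α S V : Type} [Monoid S] [Finite S] [AddCommGroup V] [Finite V]
    (act : V → S → V) (f : α → S) : Fin_211.Gad act f := by
  classical
  obtain ⟨r, m, hug⟩ := UG_658.ug S V act
  refine ⟨r + m, fun K => ?_⟩
  obtain ⟨Ms, m0, hcard, hMs, hm0, hug⟩ := hug (2 ^ (K + 1))
  set ρ : ℕ := m0 * 2 ^ (K + 5) + 1 with hρ
  have hρ2 : 2 ≤ ρ := by
    have : 0 < m0 * 2 ^ (K + 5) := by positivity
    omega
  have hcop1 : Nat.Coprime ρ m0 := by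
    rw [← Nat.isCoprime_iff_coprime]
    exact ⟨1, -(2 ^ (K + 5)), by rw [hρ]; push_cast; ring⟩
  set R : ℕ → ℕ := fun k => ρ ^ k with hRdef
  have hR0 : ∀ k, 0 < R k := fun k => by positivity
  obtain ⟨lam, rho, nu, g1, g2, g3, g4⟩ := hug R hR0 (fun i k hik => pow_dvd_pow ρ hik)
    (fun k => Nat.Coprime.pow_left k hcop1) α (fun u => ExactR_237.pr f u)
    (fun u v => ExactR_237.pr_append f u v)
  set N1 : ℕ := m * (R m * (1 + m0)) with hN1
  obtain ⟨X, hX1, hX0, hthin⟩ := Thin963.thin K m Ms (fun i => (R i : ℤ))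
    (fun i => ((R i * m0 : ℕ) : ℤ)) (fun _ => 0)
    (fun q hq => ⟨(hMs q hq).2.1, (hMs q hq).1.le⟩)
    (fun q hq => by
      have h1 : Nat.Coprime q (R m) :=
        (Nat.Coprime.coprime_dvd_right (hMs q hq).2.2
          (Nat.Coprime.pow_left m hcop1)).symm
      exact Nat.isCoprime_iff_coprime.2 h1)
    (by exact_mod_cast hR0 m)
    (fun i j hij => by exact_mod_cast pow_dvd_pow ρ hij)
    (fun i => by
      have : 0 < R i * m0 := Nat.mul_pos (hR0 i) hm0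
      exact_mod_cast this)
    (fun i => by
      have : R i ∣ R i * m0 := Dvd.intro _ rfl
      exact_mod_cast this)
    (fun i _ => by
      have h1 := sum_le m0 ρ hρ2 i
      have h2 : 2 ^ (K + 4) * (∑ j ∈ range (i + 1), R j * m0) ≤ R (i + 1) := by
        calc 2 ^ (K + 4) * (∑ j ∈ range (i + 1), R j * m0)
            ≤ 2 ^ (K + 4) * (2 * (ρ ^ i * m0)) := Nat.mul_le_mul_left _ h1
          _ = (m0 * 2 ^ (K + 5)) * ρ ^ i := by ring
          _ ≤ ρ * ρ ^ i := Nat.mul_le_mul_right _ (by omega)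
          _ = R (i + 1) := by rw [hRdef]; ring
      exact_mod_cast h2)
    ((2 * N1 + 1 : ℕ) : ℤ)
  obtain ⟨x, rfl⟩ := Int.eq_ofNat_of_zero_le hX0.le
  have hx1 : 2 * N1 + 1 ≤ x := by exact_mod_cast hX1
  have hx0 : 0 < x := by omega
  refine ⟨N1, N1, (m + 1) * (R m * (1 + m0)), m0 * R m, BadN Ms m m0 R, fun k => x * 2 ^ k,
    lam, rho, nu, ?_, ?_, ?_, ?_, ?_, ?_, ?_, ?_⟩
  · intro P Q v r h1 h2
    exact g2 P Q v r h1 h2
  · intro P v h
    exact (g1 P v h).le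
  · intro Y hY hb v
    have hb' : (∀ k ∈ Ms, ¬ k ∣ Y.length) ∧ ∀ k, 0 < k → k ≤ m →
        R (k - 1) * m0 ≤ Y.length % R k ∧ Y.length % R k + R (k - 1) * m0 ≤ R k := by
      by_contra hcon
      exact hb hcon
    exact g3 Y hb'.1 hY hb'.2 v
  · exact Nat.mul_pos hm0 (hR0 m)
  · intro Y Y' _ _ h1 h2 h3
    refine g4 Y Y' h1 h2 ?_
    have e : ∀ Z : List α, ExactR_237.pr f Z =
        ExactR_237.pr f (Z.take ((m + 1) * (R m * (1 + m0)))) *
        ExactR_237.pr f (Z.drop ((m + 1) * (R m * (1 + m0)))) := fun Z => by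
      rw [← ExactR_237.pr_append, List.take_append_drop]
    show ExactR_237.pr f Y = ExactR_237.pr f Y'
    rw [e Y, e Y', h1, h3]
  · intro i j hij _
    exact (Nat.mul_lt_mul_left hx0).2 (Nat.pow_lt_pow_right (by norm_num) hij)
  · intro i i' j j' _ _ _ _ h1 h2 h3 h4
    have h5 : (2 : ℤ) ^ i - 2 ^ i' = 2 ^ j - 2 ^ j' := by
      by_contra hne
      have h6 : (1 : ℤ) ≤ |((2 : ℤ) ^ i - 2 ^ i') - (2 ^ j - 2 ^ j')| :=
        Int.one_le_abs (sub_ne_zero.2 hne)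
      have h7 : |((x : ℤ)) * (((2 : ℤ) ^ i - 2 ^ i') - (2 ^ j - 2 ^ j'))| < 2 * N1 := by
        have e3 : ((x * 2 ^ i + x * 2 ^ j' : ℕ) : ℤ) < ((x * 2 ^ j + x * 2 ^ i' + 2 * N1 : ℕ) : ℤ) := by
          exact_mod_cast h3
        have e4 : ((x * 2 ^ j + x * 2 ^ i' : ℕ) : ℤ) < ((x * 2 ^ i + x * 2 ^ j' + 2 * N1 : ℕ) : ℤ) := by
          exact_mod_cast h4
        push_cast at e3 e4
        rw [abs_lt]
        constructor <;> nlinarith
      rw [abs_mul, Nat.abs_cast] at h7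
      have h8 : (x : ℤ) * 1 ≤ (x : ℤ) * |((2 : ℤ) ^ i - 2 ^ i') - (2 ^ j - 2 ^ j')| :=
        mul_le_mul_of_nonneg_left h6 (by positivity)
      have h9 : ((2 * N1 + 1 : ℕ) : ℤ) ≤ (x : ℤ) := by exact_mod_cast hx1
      push_cast at h9
      linarith
    exact (G369.pow_diff h1.symm h2.symm h5).1
  · intro T hT I hI
    choose! k' hk' using fun k (hk : k ∈ I) => (hI k hk).2
    have hle : I.card ≤ (((range K) ×ˢ (range K)).filter (fun p => p.1 ≠ p.2 ∧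
        Thin963.BadT Ms m (fun i => (R i : ℤ)) (fun i => ((R i * m0 : ℕ) : ℤ)) (fun _ => 0)
          ((T : ℤ) + x * 2 ^ p.1 - x * 2 ^ p.2))).card := by
      refine Finset.card_le_card_of_injOn (fun k => (k' k, k)) ?_ ?_
      · intro k hk
        have hk0 : k ∈ I := hk
        obtain ⟨a1, a2, a3⟩ := hk' k hk0
        simp only [coe_filter, mem_product, mem_range, Set.mem_setOf_eq]
        refine ⟨⟨a1, (hI k hk0).1⟩, a2, ?_⟩
        have h6 := badN_imp hR0 a3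
        have h7 := hT k (hI k hk0).1
        have h8 : ((T + x * 2 ^ k' k - x * 2 ^ k : ℕ) : ℤ) =
            (T : ℤ) + x * 2 ^ k' k - x * 2 ^ k := by
          rw [Nat.cast_sub (by have : x * 2 ^ k ≤ T := h7; omega)]
          push_cast; ring
        rw [h8] at h6
        exact h6
      · intro a _ b _ hab
        exact congrArg Prod.snd hab
    have h2 := hthin (T : ℤ)
    have h3 : I.card ≤ Ms.card + m := hle.trans h2
    omega

end Crest.Agent.R320.Gad_658
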