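import Mathlib
import Crest.Agent.R320.G1_604
import Crest.Agent.R320.Sp_69

/-!
# Gadget 1 with its ruler, in the hypothesis form of `Fin_211.Gad` and `Fin_963.Gad1`.
-/

namespace Crest.Agent.R320.Gad_752

open Crest.Agent.R320

/-- The common core: constants first, gadget for every alphabet afterwards. -/
theorem core (S V : Type) [Monoid S] [Finite S] [AddCommGroup V] [Finite V] (act : V → S → V) :
    ∃ C0 : ℕ, ∀ K : ℕ, ∃ (N1 Per : ℕ) (c : ℕ → ℕ) (Bad : ℕ → Prop), 0 < Per ∧ 0 < N1 ∧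
      (∀ i j, i < j → c i < c j) ∧
      (∀ k k' l l', k' ≠ k → l' ≠ l → c k + c l' < c l + c k' + 2 * N1 →
        c l + c k' < c k + c l' + 2 * N1 → k = l ∧ k' = l') ∧
      (∀ T, (∀ k < K, c k ≤ T) → ∀ F : Finset (ℕ × ℕ),
        (∀ p ∈ F, p.1 < K ∧ p.2 < K ∧ p.1 ≠ p.2 ∧ Bad (T + c p.2 - c p.1)) → F.card ≤ C0) ∧
      (∀ T, (Bad (T + Per) ↔ Bad T)) ∧
      ∀ (α : Type) (f : α → S), ∃ (lam rho : List α → Option V) (nu : List α → V),
        (∀ P Q v b, lam P = some v → rho Q = some b →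
          b = act v ((P ++ Q).map f).prod + nu (P ++ Q)) ∧
        (∀ P v, lam P = some v → P.length < N1) ∧
        (∀ Y : List α, ¬ Bad Y.length → ∀ v, ∃ P Q, Y = P ++ Q ∧ lam P = some v ∧
          (rho Q).isSome) ∧
        (∀ u u' : List α, N1 ≤ u.length → N1 ≤ u'.length → u.take N1 = u'.take N1 →
          ((u.drop N1).map f).prod = ((u'.drop N1).map f).prod →
          u.length % Per = u'.length % Per → rho u = rho u' ∧ nu u = nu u') := by
  classical
  obtain ⟨m, r, H⟩ := G1_604.g1 S V act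
  refine ⟨r + m, fun K => ?_⟩
  obtain ⟨Ms, M, hcard, hMs, hM, H2⟩ := H (2 * 4 ^ K)
  obtain ⟨b, hb⟩ : ∃ b, b = M * (18 * 4 ^ K + 8) + 1 := ⟨_, rfl⟩
  have h4K : 1 ≤ 4 ^ K := Nat.one_le_pow _ _ (by norm_num)
  have hb4 : 4 * M + 4 < b := by rw [hb]; nlinarith
  have hb18 : 18 * 4 ^ K * M ≤ b := by rw [hb]; nlinarith
  have hcop : Nat.Coprime b M := by
    rw [hb]
    have : Nat.Coprime 1 M := Nat.coprime_one_left M
    simpa using this
  have hb0 : 0 < b := by omega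
  obtain ⟨c, hc1, hc2, -, -, hc3⟩ := Sp_69.spoil Ms M m b K (b ^ m) hM
    (fun k hk => ⟨(hMs k hk).2.2, (hMs k hk).1⟩) hb18 hcop
  refine ⟨b ^ m, M * b ^ m, c, Sp_69.BadN Ms M m b, by positivity, by positivity, ?_, ?_, ?_, ?_,
    ?_⟩
  · intro i j hij
    have := hc1 i j hij
    omega
  · intro k k' l l' hk hl h1 h2
    by_contra hne
    have hne' : (k, k') ≠ (l, l') := by
      intro h
      exact hne ⟨(Prod.mk.inj h).1, (Prod.mk.inj h).2⟩
    rcases hc2 k k' l l' hk.symm hl.symm hne' with h | h <;> omega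
  · intro T hT F hF
    refine le_trans (Finset.card_le_card ?_) (le_trans (hc3 T hT) (by omega))
    intro p hp
    obtain ⟨h1, h2, h3, h4⟩ := hF p hp
    simp only [Finset.mem_filter, Finset.mem_product, Finset.mem_range]
    exact ⟨⟨h1, h2⟩, h3, h4⟩
  · intro T
    exact Sp_69.badN_periodic Ms M m b (fun k hk => (hMs k hk).2.2) hb0 T
  · intro α f
    obtain ⟨lam, rho, nu, g1, g2, g3, g4⟩ := H2 b hb4 hcop α f
    refine ⟨lam, rho, nu, ?_, g1, ?_, ?_⟩
    · intro P Q v b' hP hQ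
      exact g2 P Q v b' hP hQ
    · intro Y hY v
      have hY1 : ∀ k ∈ Ms, ¬ k ∣ Y.length := fun k hk h => hY (Or.inl ⟨k, hk, h⟩)
      have hY2 : ∀ j < m, M ≤ Y.length / b ^ j % b ∧ Y.length / b ^ j % b + M + 1 ≤ b :=
        fun j hj => by
          by_contra h
          exact hY (Or.inr ⟨j, hj, h⟩)
      obtain ⟨P, Q, h1, h2, h3⟩ := g3 Y hY1 hY2 v
      exact ⟨P, Q, h1.symm, h2, h3⟩
    · intro u u' h1 h2 h3 h4 h5
      exact g4 u u' h1 h2 h3 h5 h4

/-- Literally `Fin_963.Gad1 S V act`, unfolded. -/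
theorem gad1 (S V : Type) [Monoid S] [Finite S] [AddCommGroup V] [Finite V] (act : V → S → V) :
    ∃ C0 : ℕ, ∀ K : ℕ, ∃ (N1 La Per : ℕ) (c : ℕ → ℕ) (Bad : ℕ → Prop), 0 < Per ∧ 0 < N1 ∧
      (∀ i j, i < j → j < K → c i < c j) ∧
      (∀ k k' l l', k < K → k' < K → l < K → l' < K → k' ≠ k → l' ≠ l →
        c k + c l' < c l + c k' + 2 * N1 → c l + c k' < c k + c l' + 2 * N1 → k = l) ∧
      (∀ T, (∀ k < K, c k ≤ T) → La ≤ T → ∀ F : Finset (ℕ × ℕ),
        (∀ p ∈ F, p.1 < K ∧ p.2 < K ∧ p.1 ≠ p.2 ∧ Bad (T + c p.2 - c p.1)) → F.card ≤ C0) ∧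
      (∀ T, La ≤ T → (Bad (T + Per) ↔ Bad T)) ∧
      ∀ (α : Type) (f : α → S), ∃ (lam rho : List α → Option V) (nu : List α → V),
        (∀ P Q v b, lam P = some v → rho Q = some b →
          b = act v ((P ++ Q).map f).prod + nu (P ++ Q)) ∧
        (∀ P v, lam P = some v → P.length ≤ N1) ∧
        (∀ Y : List α, La ≤ Y.length → ¬ Bad Y.length → ∀ v, ∃ P Q, Y = P ++ Q ∧
          lam P = some v ∧ (rho Q).isSome) ∧
        (∀ u u' : List α, La ≤ u.length → La ≤ u'.length → u.take La = u'.take La →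
          ((u.drop La).map f).prod = ((u'.drop La).map f).prod →
          u.length % Per = u'.length % Per → nu u = nu u') := by
  obtain ⟨C0, H⟩ := core S V act
  refine ⟨C0, fun K => ?_⟩
  obtain ⟨N1, Per, c, Bad, h1, h2, h3, h4, h5, h6, h7⟩ := H K
  refine ⟨N1, N1, Per, c, Bad, h1, h2, fun i j hij _ => h3 i j hij, ?_, ?_, fun T _ => h6 T, ?_⟩
  · intro k k' l l' _ _ _ _ a b d e
    exact (h4 k k' l l' a b d e).1
  · intro T hT _ F hF
    exact h5 T hT F hF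
  · intro α f
    obtain ⟨lam, rho, nu, g1, g2, g3, g4⟩ := h7 α f
    exact ⟨lam, rho, nu, g1, fun P v h => (g2 P v h).le, fun Y _ hY v => g3 Y hY v,
      fun u u' a b d e i => (g4 u u' a b d e i).2⟩

/-- Literally `Fin_211.Gad act f`, unfolded (with `pr f u = (u.map f).prod`). -/
theorem gad {α S V : Type} [Monoid S] [Finite S] [AddCommGroup V] [Finite V] (act : V → S → V)
    (f : α → S) :
    ∃ R1 : ℕ, ∀ K : ℕ, ∃ (N1 N0 Kp M : ℕ) (BadT : ℕ → Prop) (c : ℕ → ℕ)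
      (lam rho : List α → Option V) (nu1 : List α → V),
      (∀ P Q v r, lam P = some v → rho Q = some r →
        r = act v ((P ++ Q).map f).prod + nu1 (P ++ Q)) ∧
      (∀ P v, lam P = some v → P.length ≤ N1) ∧
      (∀ Y : List α, N0 ≤ Y.length → ¬ BadT Y.length → ∀ v, ∃ P Q, Y = P ++ Q ∧
        lam P = some v ∧ (rho Q).isSome) ∧ 0 < M ∧
      (∀ Y Y' : List α, Kp ≤ Y.length → Kp ≤ Y'.length → Y.take Kp = Y'.take Kp →
        Y.length % M = Y'.length % M →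
        ((Y.drop Kp).map f).prod = ((Y'.drop Kp).map f).prod → nu1 Y = nu1 Y') ∧
      (∀ i j, i < j → j < K → c i < c j) ∧
      (∀ i i' j j', i < K → i' < K → j < K → j' < K → i' ≠ i → j' ≠ j →
        c i + c j' < c j + c i' + 2 * N1 → c j + c i' < c i + c j' + 2 * N1 → i = j) ∧
      (∀ T, (∀ k, k < K → c k ≤ T) → ∀ I : Finset ℕ,
        (∀ k ∈ I, k < K ∧ ∃ k', k' < K ∧ k' ≠ k ∧ BadT (T + c k' - c k)) → I.card ≤ R1) := by
  classical
  obtain ⟨C0, H⟩ := core S V act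
  refine ⟨C0, fun K => ?_⟩
  obtain ⟨N1, Per, c, Bad, h1, h2, h3, h4, h5, h6, h7⟩ := H K
  obtain ⟨lam, rho, nu, g1, g2, g3, g4⟩ := h7 α f
  refine ⟨N1, 0, N1, Per, Bad, c, lam, rho, nu, g1, fun P v h => (g2 P v h).le,
    fun Y _ hY v => g3 Y hY v, h1, fun u u' a b d e i => (g4 u u' a b d i e).2,
    fun i j hij _ => h3 i j hij, ?_, ?_⟩
  · intro i i' j j' _ _ _ _ a b d e
    exact (h4 i i' j j' a b d e).1
  · intro T hT I hI
    choose! g hg using fun k hk => (hI k hk).2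
    have key := h5 T hT (I.image fun k => (k, g k)) (by
      intro p hp
      obtain ⟨k, hk, rfl⟩ := Finset.mem_image.1 hp
      exact ⟨(hI k hk).1, (hg k hk).1, (hg k hk).2.1.symm, (hg k hk).2.2⟩)
    rwa [Finset.card_image_of_injective _ (fun x y h => (Prod.mk.inj h).1)] at key

end Crest.Agent.R320.Gad_752
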