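import Crest.Agent.R320.Fin_627
import Crest.Agent.R320.GridG_19
import Crest.Agent.R320.Thin_963

set_option autoImplicit false
set_option linter.all false

/-! Row 320: the closed gadget `GAD` of Fin_627 from GridG_19 (693's grids) and Thin_963 (ruler). -/

namespace Crest.Agent.R320.Gad777

open Crest.Agent.R320

theorem pow_aux {i i' j j' : ℕ} (h : 2 ^ i + 2 ^ j' = 2 ^ j + 2 ^ i') (hij : i < j)
    (hj : j' ≠ j) : False := by
  have p : ∀ n : ℕ, 0 < 2 ^ n := fun n => Nat.pow_pos (by norm_num)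
  have dbl : ∀ {a b : ℕ}, a < b → 2 * 2 ^ a ≤ 2 ^ b := by
    intro a b hab
    have : 2 * 2 ^ a = 2 ^ (a + 1) := by ring
    rw [this]
    exact Nat.pow_le_pow_right (by norm_num) hab
  have h1 := dbl hij
  have p1 := p i
  have p2 := p i'
  have p3 := p j
  have p4 := p j'
  rcases Nat.lt_or_ge i' j' with h2 | h2
  · have h3 := dbl h2
    rcases lt_or_gt_of_ne hj with h4 | h4
    · have h5 := dbl h4
      omega
    · have h5 := dbl h4
      omega
  · have h3 : 2 ^ j' ≤ 2 ^ i' := Nat.pow_le_pow_right (by norm_num) h2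
    omega

theorem pow_eq {i i' j j' : ℕ} (h : 2 ^ i + 2 ^ j' = 2 ^ j + 2 ^ i') (hi : i' ≠ i)
    (hj : j' ≠ j) : i = j := by
  by_contra hne
  rcases lt_or_gt_of_ne hne with h1 | h1
  · exact pow_aux h h1 hj
  · exact pow_aux h.symm h1 hi

theorem golomb {x N1 i i' j j' : ℕ} (hx : 2 * N1 < x) (hi : i' ≠ i) (hj : j' ≠ j)
    (h1 : x * 2 ^ i + x * 2 ^ j' < x * 2 ^ j + x * 2 ^ i' + 2 * N1)
    (h2 : x * 2 ^ j + x * 2 ^ i' < x * 2 ^ i + x * 2 ^ j' + 2 * N1) : i = j := by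
  refine pow_eq (i' := i') (j' := j') ?_ hi hj
  rw [← Nat.mul_add, ← Nat.mul_add] at h1 h2
  generalize 2 ^ i + 2 ^ j' = a at h1 h2 ⊢
  generalize 2 ^ j + 2 ^ i' = b at h1 h2 ⊢
  by_contra hne
  rcases lt_or_gt_of_ne hne with h3 | h3
  · have h4 : x * (a + 1) ≤ x * b := Nat.mul_le_mul_left _ h3
    have h5 : x * (a + 1) = x * a + x := by ring
    omega
  · have h4 : x * (b + 1) ≤ x * a := Nat.mul_le_mul_left _ h3
    have h5 : x * (b + 1) = x * b + x := by ring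
    omega

theorem sum_le (M b : ℕ) (hb : 2 ≤ b) (i : ℕ) :
    ∑ j ∈ Finset.range (i + 1), M * b ^ j ≤ 2 * (M * b ^ i) := by
  induction i with
  | zero => simp; omega
  | succ i ih =>
    rw [Finset.sum_range_succ]
    have h1 : 2 * (M * b ^ i) ≤ M * b ^ (i + 1) := by
      have h2 : M * b ^ (i + 1) = b * (M * b ^ i) := by ring
      rw [h2]
      exact Nat.mul_le_mul_right _ hb
    omega

/-- clean in the sense of `Thin963` implies clean in the sense of `GridG_19` -/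
theorem bad_cast {Ms : Finset ℕ} {m : ℕ} {G : ℕ → ℕ} {M A0 T : ℕ}
    (hT : GridG_19.Am G M A0 m ≤ T) (hG : ∀ k, 0 < G k)
    (h : GridG_19.BadG G M A0 m T) :
    Thin963.BadT Ms m (fun j => (G j : ℤ)) (fun j => ((M * G j : ℕ) : ℤ))
      (fun j => (GridG_19.Am G M A0 j : ℤ)) (T : ℤ) := by
  obtain ⟨k, hk, h⟩ := h
  right
  have hA : GridG_19.Am G M A0 (k + 1) ≤ T := (GridG_19.Am_mono G M A0 hk).trans hT
  obtain ⟨D, hD⟩ := Nat.exists_eq_add_of_le hA
  have h0 : T - GridG_19.Am G M A0 (k + 1) = D := by omega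
  rw [h0] at h
  have hdm := Nat.div_add_mod D (G (k + 1))
  have hlt := Nat.mod_lt D (hG (k + 1))
  refine ⟨k, hk, ?_⟩
  rcases h with h | h
  · refine ⟨-((D % G (k + 1) : ℕ) : ℤ), ?_, ?_⟩
    · rw [abs_neg, Nat.abs_cast]
      show ((D % G (k + 1) : ℕ) : ℤ) ≤ ((M * G k : ℕ) : ℤ)
      exact Int.ofNat_le.2 h.le
    · refine ⟨((D / G (k + 1) : ℕ) : ℤ), ?_⟩
      have h1 : ((G (k + 1) * (D / G (k + 1)) + D % G (k + 1) : ℕ) : ℤ) = (D : ℤ) := by
        rw [hdm]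
      push_cast at h1 ⊢
      rw [hD]; push_cast
      linarith
  · refine ⟨((G (k + 1) - D % G (k + 1) : ℕ) : ℤ), ?_, ?_⟩
    · rw [Nat.abs_cast]
      have : G (k + 1) - D % G (k + 1) ≤ M * G k := by omega
      show ((G (k + 1) - D % G (k + 1) : ℕ) : ℤ) ≤ ((M * G k : ℕ) : ℤ)
      exact Int.ofNat_le.2 this
    · refine ⟨((D / G (k + 1) + 1 : ℕ) : ℤ), ?_⟩
      have h1 : ((G (k + 1) * (D / G (k + 1)) + D % G (k + 1) : ℕ) : ℤ) = (D : ℤ) := by
        rw [hdm]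
      have h2 : ((G (k + 1) - D % G (k + 1) : ℕ) : ℤ) =
          (G (k + 1) : ℤ) - (D % G (k + 1) : ℕ) := by
        rw [Nat.cast_sub hlt.le]
      rw [h2, hD]
      push_cast at h1 ⊢
      linarith

theorem gad : Fin_627.GAD := by
  intro S V _ _ _ _ act
  obtain ⟨m, r, H⟩ := GridG_19.grid.{0} S V act
  refine ⟨r + m, fun K => ?_⟩
  obtain ⟨Ms, hcard, hpr, HG⟩ := H (2 ^ (K + 1))
  obtain ⟨M, hM⟩ : ∃ M, M = ∏ q ∈ Ms, q := ⟨_, rfl⟩
  have hM0 : 0 < M := by
    rw [hM]; exact Finset.prod_pos fun q hq => (hpr q hq).1.pos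
  rw [← hM] at HG
  obtain ⟨b, hb⟩ : ∃ b, b = 2 ^ (K + 5) * M + 1 := ⟨_, rfl⟩
  have hb2 : 2 ≤ b := by
    have : 0 < 2 ^ (K + 5) * M := Nat.mul_pos (Nat.pow_pos (by norm_num)) hM0
    omega
  have hbM : Nat.Coprime M b := by
    rw [hb]; simp
  obtain ⟨G, hGdef⟩ : ∃ G : ℕ → ℕ, G = fun j => b ^ j := ⟨_, rfl⟩
  have hGj : ∀ j, G j = b ^ j := fun j => by rw [hGdef]
  have hG : ∀ k, 0 < G k := fun k => by rw [hGj]; exact Nat.pow_pos (by omega)
  have hd : ∀ i j, i ≤ j → G i ∣ G j := fun i j h => by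
    rw [hGj, hGj]; exact Nat.pow_dvd_pow _ h
  have hcop : ∀ k, Nat.Coprime M (G k) := fun k => by
    rw [hGj]; exact Nat.Coprime.pow_right _ hbM
  have HG' := HG G 0 hG hd hcop
  obtain ⟨A, hA⟩ : ∃ A, A = GridG_19.Am G M 0 m := ⟨_, rfl⟩
  obtain ⟨N0, hN0⟩ : ∃ N0, N0 = 2 * GridG_19.Ac G M 0 m + M := ⟨_, rfl⟩
  have hAc : A ≤ GridG_19.Ac G M 0 m := by rw [hA]; exact Nat.le_add_right _ _
  obtain ⟨X, hX1, hX2, hX3⟩ := Thin963.thin K m Ms (fun j => (G j : ℤ))
    (fun j => ((M * G j : ℕ) : ℤ)) (fun j => (GridG_19.Am G M 0 j : ℤ))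
    (fun q hq => ⟨(hpr q hq).1, (hpr q hq).2.le⟩)
    (fun q hq => by
      have h1 : Nat.Coprime q (G m) :=
        Nat.Coprime.coprime_dvd_left (by rw [hM]; exact Finset.dvd_prod_of_mem _ hq) (hcop m)
      exact Nat.isCoprime_iff_coprime.2 h1)
    (by exact_mod_cast hG m)
    (fun i j h => by exact_mod_cast hd i j h)
    (fun i => by exact_mod_cast Nat.mul_pos hM0 (hG i))
    (fun i => by exact_mod_cast Dvd.intro_left M rfl)
    (fun i hi => by
      have h1 := sum_le M b hb2 i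
      have h2 : ∑ j ∈ Finset.range (i + 1), M * G j ≤ 2 * (M * b ^ i) := by
        simpa only [hGj] using h1
      have h3 : 2 ^ (K + 4) * ∑ j ∈ Finset.range (i + 1), M * G j ≤ G (i + 1) := by
        calc 2 ^ (K + 4) * ∑ j ∈ Finset.range (i + 1), M * G j
            ≤ 2 ^ (K + 4) * (2 * (M * b ^ i)) := Nat.mul_le_mul_left _ h2
          _ = (2 ^ (K + 5) * M) * b ^ i := by ring
          _ ≤ b * b ^ i := Nat.mul_le_mul_right _ (by omega)
          _ = G (i + 1) := by rw [hGj, pow_succ]; ring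
      exact_mod_cast h3)
    ((2 * A + A + 1 : ℕ) : ℤ)
  obtain ⟨x, rfl⟩ := Int.eq_ofNat_of_zero_le hX2.le
  have hx : 2 * A + A + 1 ≤ x := by exact_mod_cast hX1
  refine ⟨A, N0, M * G m, fun k => x * 2 ^ k, fun T => Thin963.BadT Ms m (fun j => (G j : ℤ))
    (fun j => ((M * G j : ℕ) : ℤ)) (fun j => (GridG_19.Am G M 0 j : ℤ)) (T : ℤ),
    Nat.mul_pos hM0 (hG m), ?_, ?_, ?_, ?_, ?_⟩
  · intro T _
    unfold Thin963.BadT
    have h1 : ∀ q ∈ Ms, ((q : ℤ) ∣ ((T + M * G m : ℕ) : ℤ) ↔ (q : ℤ) ∣ (T : ℤ)) := by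
      intro q hq
      have h2 : (q : ℤ) ∣ ((M * G m : ℕ) : ℤ) := by
        have : q ∣ M * G m := (Dvd.dvd.mul_right (by rw [hM]; exact Finset.dvd_prod_of_mem _ hq) _)
        exact_mod_cast this
      rw [Nat.cast_add]
      exact dvd_add_left h2
    have h3 : ∀ i < m, ∀ e : ℤ, ((G (i + 1) : ℤ) ∣ ((T + M * G m : ℕ) : ℤ) -
        GridG_19.Am G M 0 (i + 1) + e ↔ (G (i + 1) : ℤ) ∣ (T : ℤ) - GridG_19.Am G M 0 (i + 1) + e) := by
      intro i hi e
      have h4 : (G (i + 1) : ℤ) ∣ ((M * G m : ℕ) : ℤ) := by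
        have : G (i + 1) ∣ M * G m := Dvd.dvd.mul_left (hd _ _ hi) _
        exact_mod_cast this
      have h5 : ((T + M * G m : ℕ) : ℤ) - GridG_19.Am G M 0 (i + 1) + e =
          ((T : ℤ) - GridG_19.Am G M 0 (i + 1) + e) + ((M * G m : ℕ) : ℤ) := by
        push_cast; ring
      rw [h5]
      exact dvd_add_left h4
    constructor
    · rintro (⟨q, hq, h⟩ | ⟨i, hi, e, he, h⟩)
      · exact Or.inl ⟨q, hq, (h1 q hq).1 h⟩
      · exact Or.inr ⟨i, hi, e, he, (h3 i hi e).1 h⟩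
    · rintro (⟨q, hq, h⟩ | ⟨i, hi, e, he, h⟩)
      · exact Or.inl ⟨q, hq, (h1 q hq).2 h⟩
      · exact Or.inr ⟨i, hi, e, he, (h3 i hi e).2 h⟩
  · intro i j hij _
    exact Nat.mul_lt_mul_of_pos_left (Nat.pow_lt_pow_right (by norm_num) hij) (by omega)
  · intro i i' j j' _ _ _ _ hi hj h1 h2
    exact golomb (by omega) hi hj h1 h2
  · intro T hT I hI
    classical
    choose! g hg using fun k (hk : k ∈ I) => (hI k hk).2
    have hinj : Set.InjOn (fun k => (g k, k)) I := fun a _ b _ h => congrArg Prod.snd h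
    have h1 : (I.image fun k => (g k, k)).card = I.card := Finset.card_image_of_injOn hinj
    rw [← h1]
    refine (Finset.card_le_card ?_).trans ((hX3 (T : ℤ)).trans (by omega))
    intro p hp
    obtain ⟨k, hk, rfl⟩ := Finset.mem_image.1 hp
    obtain ⟨h2, h3, h4⟩ := hg k hk
    have hkK := (hI k hk).1
    rw [Finset.mem_filter, Finset.mem_product, Finset.mem_range, Finset.mem_range]
    refine ⟨⟨h2, hkK⟩, h3, ?_⟩
    have h5 : x * 2 ^ k ≤ T := hT k hkK
    have h6 : ((T + x * 2 ^ g k - x * 2 ^ k : ℕ) : ℤ) =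
        (T : ℤ) + ((x : ℕ) : ℤ) * 2 ^ g k - ((x : ℕ) : ℤ) * 2 ^ k := by
      rw [Nat.cast_sub (by omega)]
      push_cast; ring
    have h7 := h4
    rw [h6] at h7
    exact h7
  · intro α f
    obtain ⟨lam, rho, nu, g1, g2, g3, g4, g5⟩ := HG' α (fun w => (w.map f).prod)
      (fun u v => by simp)
    refine ⟨lam, rho, nu, ?_, ?_, ?_, ?_⟩
    · intro P v h
      have := (g2 P v h).2
      omega
    · intro P Q v b h1 h2
      exact g1 P Q v b h1 h2
    · intro Y hY hB v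
      have hAY : A ≤ Y.length := by omega
      obtain ⟨P, Q, h1, h2, h3⟩ := g4 Y (by omega) (by omega)
        (fun q hq h => hB (Or.inl ⟨q, hq, by exact_mod_cast h⟩))
        (fun h => hB (bad_cast (by rw [← hA]; exact hAY) hG h)) v
      exact ⟨P, Q, h1.symm, h2, h3⟩
    · intro q q' h1 h2 h3 h4 h5
      refine g5 q q' (by omega) (by omega) ?_ h4 ?_
      · have := congrArg (List.take (GridG_19.Ac G M 0 m)) h3
        rwa [List.take_take, List.take_take, min_eq_left (by omega)] at this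
      · show (q.map f).prod = (q'.map f).prod
        rw [← List.take_append_drop N0 q, ← List.take_append_drop N0 q', List.map_append,
          List.map_append, List.prod_append, List.prod_append, h5, h3]

end Crest.Agent.R320.Gad777
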