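import Crest.Agent.R320.Grid_899
import Crest.Agent.R320.GridRuler_896

/-!
# Row 320: scheme-1 gadget with ruler, spoil count, periodicity and finite state (helper818)
over `Grid_899.grid_gadget_reg` and `GridRuler_896.exists_ruler`.
-/

set_option autoImplicit false

namespace Crest.Agent.R320.Gad_818

open Crest.Agent.R320.Grid_899 Crest.Agent.R320.GridRuler_896

theorem Am_le (M κ : ℕ) {i j : ℕ} (h : i ≤ j) : Am M κ i ≤ Am M κ j := by
  induction j, h using Nat.le_induction with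
  | base => exact le_rfl
  | succ j _ ih =>
    refine ih.trans ?_
    show Am M κ j ≤ Am M κ j + G κ j + M * G κ j
    omega

theorem G_eq (κ j : ℕ) : G κ j = (2 ^ κ) ^ j := by
  unfold G; rw [pow_mul]

/-- bad lengths -/
def BadT (t : Finset ℕ) (M κ m : ℕ) (T : ℕ) : Prop :=
  Am M κ (m + 1) ≤ T ∧ ((∃ p ∈ t, p ∣ T) ∨ ∃ j, 1 ≤ j ∧ j ≤ m ∧
    ¬ (M * G κ (j - 1) ≤ (T - Am M κ j) % G κ j ∧
      (T - Am M κ j) % G κ j + M * G κ (j - 1) ≤ G κ j))

theorem badZ_of {t : Finset ℕ} {M κ m T : ℕ} (h : BadT t M κ m T) :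
    BadZ t M (2 ^ κ) m (fun j => (Am M κ j : ℤ)) (T : ℤ) := by
  obtain ⟨hT, h | ⟨j, hj1, hj2, hj⟩⟩ := h
  · obtain ⟨p, hp, hd⟩ := h
    exact Or.inl ⟨p, hp, Int.natCast_dvd_natCast.2 hd⟩
  · right
    have hA : Am M κ j ≤ T := (Am_le M κ (by omega)).trans hT
    have hdm := Nat.div_add_mod (T - Am M κ j) (G κ j)
    have hGp : 0 < G κ j := by rw [G_eq]; positivity
    have hlt := Nat.mod_lt (T - Am M κ j) hGp
    set r := (T - Am M κ j) % G κ j with hr
    set q := (T - Am M κ j) / G κ j with hq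
    have e0 : (T : ℤ) - Am M κ j = (G κ j : ℤ) * q + r := by
      have : (T : ℤ) = ((T - Am M κ j : ℕ) : ℤ) + Am M κ j := by
        rw [← Nat.cast_add, Nat.sub_add_cancel hA]
      rw [this, ← hdm]
      push_cast
      ring
    have eG : ∀ i, ((2 ^ κ : ℕ) : ℤ) ^ i = (G κ i : ℤ) := by
      intro i; rw [G_eq]; push_cast; rfl
    refine ⟨j, hj1, hj2, ?_⟩
    by_cases h1 : M * G κ (j - 1) ≤ r
    · have h2 : G κ j < r + M * G κ (j - 1) := by
        by_contra hc
        exact hj ⟨h1, by omega⟩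
      refine ⟨(q : ℤ) + 1, ?_⟩
      simp only
      rw [eG, eG, e0]
      have h2' : (G κ j : ℤ) < r + M * G κ (j - 1) := by exact_mod_cast h2
      have h3' : (r : ℤ) < G κ j := by exact_mod_cast hlt
      rw [abs_le]
      constructor
      · have : (G κ j : ℤ) * q + r - (q + 1) * G κ j = r - G κ j := by ring
        rw [this]; linarith
      · have : (G κ j : ℤ) * q + r - (q + 1) * G κ j = r - G κ j := by ring
        rw [this]
        have : (0 : ℤ) ≤ M * G κ (j - 1) := by positivity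
        linarith
    · refine ⟨(q : ℤ), ?_⟩
      simp only
      rw [eG, eG, e0]
      have h2' : (r : ℤ) < M * G κ (j - 1) := by exact_mod_cast (not_le.1 h1)
      have h3' : (0 : ℤ) ≤ r := by positivity
      have : (G κ j : ℤ) * q + r - q * G κ j = r := by ring
      rw [this, abs_of_nonneg h3']
      exact h2'.le

theorem gadget1 (S V : Type) [Monoid S] [Finite S] [AddCommGroup V] [Finite V]
    (act : V → S → V) :
    ∃ R1 : ℕ, ∀ K : ℕ, ∃ (N D X : ℕ) (BT : ℕ → Prop), 0 < D ∧ 4 * N < X ∧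
      (∀ T T', N ≤ T → N ≤ T' → T % D = T' % D → (BT T ↔ BT T')) ∧
      (∀ T : ℕ, (∀ k, k < K → X * 2 ^ k ≤ T) → ∀ I : Finset ℕ,
        (∀ k ∈ I, k < K ∧ ∃ k', k' < K ∧ k' ≠ k ∧ BT (T + X * 2 ^ k' - X * 2 ^ k)) →
        I.card ≤ R1) ∧
      ∀ (α : Type) (phi : List α → S), (∀ u v, phi (u ++ v) = phi u * phi v) →
        ∃ (lam rho : List α → Option V) (nu : List α → V),
          (∀ P v, lam P = some v → P.length ≤ N) ∧
          (∀ P Q v b, lam P = some v → rho Q = some b →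
            b = act v (phi (P ++ Q)) + nu (P ++ Q)) ∧
          (∀ Y : List α, 2 * N ≤ Y.length → ¬ BT Y.length → ∀ v, ∃ P Q, Y = P ++ Q ∧
            lam P = some v ∧ (rho Q).isSome) ∧
          (∀ Q Q' : List α, N ≤ Q.length → N ≤ Q'.length → Q.take N = Q'.take N →
            phi (Q.drop N) = phi (Q'.drop N) → Q.length % D = Q'.length % D → nu Q = nu Q') := by
  classical
  obtain ⟨k, m, hg⟩ := grid_gadget_reg S V act
  refine ⟨k + m, fun K => ?_⟩
  have hinf : {p : ℕ | p.Prime ∧ 2 ^ (K + 1) < p}.Infinite := by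
    rw [Set.infinite_iff_exists_gt]
    intro a
    obtain ⟨p, hp, hpp⟩ := Nat.exists_infinite_primes (max a (2 ^ (K + 1)) + 1)
    exact ⟨p, ⟨hpp, by have := le_max_right a (2 ^ (K + 1)); omega⟩,
      by have := le_max_left a (2 ^ (K + 1)); omega⟩
  obtain ⟨t, ht, htc⟩ := hinf.exists_subset_card_eq k
  let q : Fin k → ℕ := fun j => t.orderEmbOfFin htc j
  have hqt : ∀ j, q j ∈ t := fun j => Finset.orderEmbOfFin_mem t htc j
  have hqP : ∀ j, (q j).Prime ∧ 2 ^ (K + 1) < q j := fun j => ht (hqt j)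
  have h2 : ∀ j, 2 < q j := fun j => by
    have := (hqP j).2
    have h3 : 2 ^ 1 ≤ 2 ^ (K + 1) := Nat.pow_le_pow_right (by norm_num) (by omega)
    omega
  have hodd : ∀ j, Odd (q j) := fun j => (hqP j).1.odd_of_ne_two (by have := h2 j; omega)
  have hcop : Pairwise (fun i j => Nat.Coprime (q i) (q j)) := fun i j hij =>
    (Nat.coprime_primes (hqP i).1 (hqP j).1).2 fun h =>
      hij ((t.orderEmbOfFin htc).injective h)
  set M : ℕ := ∏ j, q j with hM
  have hM0 : 0 < M := Finset.prod_pos fun j _ => (hqP j).1.pos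
  have hMt : ∀ p ∈ t, p ∣ M := by
    intro p hp
    have : p ∈ Set.range (t.orderEmbOfFin htc) := by
      rw [Finset.range_orderEmbOfFin]; exact hp
    obtain ⟨j, rfl⟩ := this
    exact Finset.dvd_prod_of_mem q (Finset.mem_univ j)
  let κ : ℕ := 2 ^ (K + 6) * M
  have hκ : 2 ^ (K + 6) * M ≤ 2 ^ κ := Nat.lt_two_pow_self.le
  set N : ℕ := Am M κ (m + 1) with hN
  obtain ⟨X, hX, hXc⟩ := exists_ruler K m t (fun p hp => ht hp) M hM0 hMt κ hκ (4 * N)
  have hGp : ∀ i, 0 < G κ i := fun i => by rw [G_eq]; positivity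
  refine ⟨N, M * G κ m, X, BadT t M κ m, Nat.mul_pos hM0 (hGp m), hX, ?_, ?_, ?_⟩
  · intro T T' hT hT' hTT
    have hdv : ∀ d, d ∣ M * G κ m → T % d = T' % d := fun d hd =>
      Nat.ModEq.of_dvd hd hTT
    have h1 : (∃ p ∈ t, p ∣ T) ↔ ∃ p ∈ t, p ∣ T' := by
      constructor
      · rintro ⟨p, hp, hd⟩
        refine ⟨p, hp, ?_⟩
        rw [Nat.dvd_iff_mod_eq_zero] at hd ⊢
        rw [← hdv p ((hMt p hp).mul_right _)]; exact hd
      · rintro ⟨p, hp, hd⟩
        refine ⟨p, hp, ?_⟩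
        rw [Nat.dvd_iff_mod_eq_zero] at hd ⊢
        rw [hdv p ((hMt p hp).mul_right _)]; exact hd
    have h2 : ∀ j, j ≤ m → (T - Am M κ j) % G κ j = (T' - Am M κ j) % G κ j := by
      intro j hj
      have hA : Am M κ j ≤ T := (Am_le M κ (by omega)).trans hT
      have hA' : Am M κ j ≤ T' := (Am_le M κ (by omega)).trans hT'
      have hd : G κ j ∣ M * G κ m := by
        refine Dvd.dvd.mul_left ?_ _
        rw [G_eq, G_eq]
        exact pow_dvd_pow _ hj
      have h3 : T ≡ T' [MOD G κ j] := hdv _ hd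
      have h4 : T - Am M κ j + Am M κ j ≡ T' - Am M κ j + Am M κ j [MOD G κ j] := by
        rw [Nat.sub_add_cancel hA, Nat.sub_add_cancel hA']; exact h3
      exact Nat.ModEq.add_right_cancel' _ h4
    unfold BadT
    constructor
    · rintro ⟨_, h | ⟨j, a, b, h⟩⟩
      · exact ⟨hT', Or.inl (h1.1 h)⟩
      · exact ⟨hT', Or.inr ⟨j, a, b, by rw [← h2 j b]; exact h⟩⟩
    · rintro ⟨_, h | ⟨j, a, b, h⟩⟩
      · exact ⟨hT, Or.inl (h1.2 h)⟩
      · exact ⟨hT, Or.inr ⟨j, a, b, by rw [h2 j b]; exact h⟩⟩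
  · intro T hTK I hI
    obtain ⟨hfin, hnc⟩ := hXc (fun j => (Am M κ j : ℤ)) (T : ℤ)
    choose! g hg1 hg2 hg3 using fun k (hk : k ∈ I) => (hI k hk).2
    let F : ℕ → ℕ × ℕ := fun k => (g k, k)
    have hinj : Set.InjOn F (I : Set ℕ) := fun a _ b _ h => (Prod.mk.inj h).2
    have himg : ((I.image F : Finset (ℕ × ℕ)) : Set (ℕ × ℕ)) ⊆
        {ab : ℕ × ℕ | ab.1 < K ∧ ab.2 < K ∧ ab.1 ≠ ab.2 ∧
        BadZ t M (2 ^ κ) m (fun j => (Am M κ j : ℤ)) ((T : ℤ) + X * 2 ^ ab.1 - X * 2 ^ ab.2)} := by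
      intro ab hab
      rw [Finset.mem_coe, Finset.mem_image] at hab
      obtain ⟨k, hk, rfl⟩ := hab
      refine ⟨hg1 k hk, (hI k hk).1, hg2 k hk, ?_⟩
      have h1 := badZ_of (hg3 k hk)
      have h2 := hTK k (hI k hk).1
      have e : ((T + X * 2 ^ g k - X * 2 ^ k : ℕ) : ℤ) = (T : ℤ) + X * 2 ^ g k - X * 2 ^ k := by
        rw [Nat.cast_sub (by omega)]
        push_cast
        ring
      rw [e] at h1
      exact h1
    have h1 := Set.ncard_le_ncard himg hfin
    rw [Set.ncard_coe_finset, Finset.card_image_of_injOn hinj] at h1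
    omega
  · intro α phi hphi
    obtain ⟨lam, rho, nu, c1, c2, c3, c4, c5⟩ := hg q hodd hcop κ α phi hphi
    refine ⟨lam, rho, nu, ?_, c3, ?_, ?_⟩
    · intro P v h
      have h1 := (c1 P v h).1
      have h2 : Am M κ m ≤ N := Am_le M κ (by omega)
      exact h1.le.trans h2
    · intro Y hY hb v
      refine c4 Y hY ?_ ?_ v
      · intro j hj
        exact hb ⟨by omega, Or.inl ⟨q j, hqt j, hj⟩⟩
      · intro j hj1 hj2
        by_contra hc
        exact hb ⟨by omega, Or.inr ⟨j, hj1, hj2, hc⟩⟩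
    · intro Q Q' h1 h2 h3 h4 h5
      exact (c5 Q Q' h1 h2 h3 h4 h5).2

end Crest.Agent.R320.Gad_818
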