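import Mathlib

/-!
Row 320, helper821: SPOIL LEAF (ruler against the thin bad set of the digit gadget `g1`).
-/

set_option autoImplicit false

namespace Crest.Agent.R320.Sp_821

open Finset

/-- bad lengths of the digit gadget -/
def Bad (Ms : Finset ℕ) (M m b n : ℕ) : Prop :=
  (∃ k ∈ Ms, k ∣ n) ∨ ∃ j < m, ¬ (M ≤ n / b ^ j % b ∧ n / b ^ j % b + M + 1 ≤ b)

/-- repunits -/
def rep (b : ℕ) : ℕ → ℕ
  | 0 => 0
  | l + 1 => rep b l + b ^ l

theorem rep_mod (b : ℕ) {l m : ℕ} (h : l ≤ m) : rep b m ≡ rep b l [MOD b ^ l] := by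
  induction h with
  | refl => exact Nat.ModEq.refl _
  | step hm ih =>
    rename_i n
    have h1 : b ^ n ≡ 0 [MOD b ^ l] := (Nat.modEq_zero_iff_dvd).2 (pow_dvd_pow b hm)
    have := ih.add h1
    simpa [rep] using this

theorem rep_lt (b : ℕ) (hb : 1 ≤ b) (l : ℕ) : (b - 1) * rep b l + 1 = b ^ l := by
  induction l with
  | zero => simp [rep]
  | succ l ih =>
    obtain ⟨c, rfl⟩ : ∃ c, b = c + 1 := ⟨b - 1, by omega⟩
    simp only [rep, Nat.add_sub_cancel] at ih ⊢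
    rw [mul_add, pow_succ]
    have : c * rep (c + 1) l = (c + 1) ^ l - 1 := by omega
    have h1 : 1 ≤ (c + 1) ^ l := Nat.one_le_pow _ _ (by omega)
    rw [this]
    nlinarith [Nat.sub_add_cancel h1]

theorem digit_shift {b l x C : ℕ} (hb : 0 < b) (hC : C + 1 ≤ b) :
    ∃ ε ≤ 1, (x + C * rep b (l + 1)) / b ^ l % b = (x / b ^ l % b + C + ε) % b := by
  have hpos : 0 < b ^ l := pow_pos hb l
  have h1 := rep_lt b hb l
  have h2 : C * rep b l < b ^ l := by
    have : C * rep b l ≤ (b - 1) * rep b l := Nat.mul_le_mul_right _ (by omega)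
    omega
  have hx := Nat.div_add_mod x (b ^ l)
  have hm := Nat.mod_lt x hpos
  have e : x + C * rep b (l + 1) = b ^ l * (x / b ^ l + C) + (x % b ^ l + C * rep b l) := by
    simp only [rep]
    rw [mul_add, mul_add]
    nlinarith
  have hdiv : (x + C * rep b (l + 1)) / b ^ l = x / b ^ l + C + (x % b ^ l + C * rep b l) / b ^ l := by
    rw [e, Nat.mul_add_div hpos]
  refine ⟨(x % b ^ l + C * rep b l) / b ^ l, ?_, ?_⟩
  · have : (x % b ^ l + C * rep b l) / b ^ l < 2 := by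
      rw [Nat.div_lt_iff_lt_mul hpos]; omega
    omega
  · rw [hdiv]
    conv_lhs => rw [Nat.add_mod, Nat.add_mod (x / b ^ l) C]
    conv_rhs => rw [Nat.add_mod, Nat.add_mod (x / b ^ l % b) C, Nat.mod_mod]

theorem digit_congr {b l x y : ℕ} (hb : 0 < b) (h : x ≡ y [MOD b ^ (l + 1)]) :
    x / b ^ l % b = y / b ^ l % b := by
  have e1 : x / b ^ l % b = x % b ^ (l + 1) / b ^ l := by
    rw [pow_succ, Nat.mod_mul_right_div_self]
  have e2 : y / b ^ l % b = y % b ^ (l + 1) / b ^ l := by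
    rw [pow_succ, Nat.mod_mul_right_div_self]
  rw [e1, e2, h]

theorem far {M m b l n E K0 : ℕ} (hM : 0 < M) (hl : l < m)
    (hK0 : K0 ≡ 4 * M * rep b m [MOD b ^ m]) (hE : 0 < E) (hb : 4 * M * E + 2 * M + 2 ≤ b)
    (h1 : ¬ (M ≤ n / b ^ l % b ∧ n / b ^ l % b + M + 1 ≤ b)) :
    M ≤ (n + E * K0) / b ^ l % b ∧ (n + E * K0) / b ^ l % b + M + 1 ≤ b := by
  have hbpos : 0 < b := by omega
  have hmod : n + E * K0 ≡ n + (4 * M * E) * rep b (l + 1) [MOD b ^ (l + 1)] := by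
    have h2 : K0 ≡ 4 * M * rep b m [MOD b ^ (l + 1)] := hK0.of_dvd (pow_dvd_pow b hl)
    have h3 : 4 * M * rep b m ≡ 4 * M * rep b (l + 1) [MOD b ^ (l + 1)] :=
      (rep_mod b (show l + 1 ≤ m from hl)).mul_left _
    have h4 := ((h2.trans h3).mul_left E).add_left n
    have e : E * (4 * M * rep b (l + 1)) = (4 * M * E) * rep b (l + 1) := by ring
    rwa [e] at h4
  rw [digit_congr hbpos hmod]
  have hC : 4 * M * E + 1 ≤ b := by omega
  obtain ⟨ε, hε, he⟩ := digit_shift (b := b) (l := l) (x := n) hbpos hC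
  rw [he]
  have hd := Nat.mod_lt (n / b ^ l) hbpos
  have hME : M ≤ M * E := Nat.le_mul_of_pos_right _ hE
  obtain ⟨z, hz⟩ : ∃ z, M * E = z := ⟨_, rfl⟩
  have hz4 : 4 * M * E = 4 * z := by rw [← hz]; ring
  rw [hz] at hME
  rw [hz4] at hb ⊢
  obtain ⟨d, hdd⟩ : ∃ d, n / b ^ l % b = d := ⟨_, rfl⟩
  rw [hdd] at h1 hd ⊢
  rcases lt_or_ge d M with hlt | hge
  · have : (d + 4 * z + ε) % b = d + 4 * z + ε := Nat.mod_eq_of_lt (by omega)
    rw [this]
    omega
  · have h5 : b ≤ d + M := by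
      by_contra hcon
      exact h1 ⟨hge, by omega⟩
    have h6 : (d + 4 * z + ε) % b = d + 4 * z + ε - b := by
      rw [Nat.mod_eq_sub_mod (by omega)]
      exact Nat.mod_eq_of_lt (by omega)
    rw [h6]
    omega

theorem two_pow_le {a b c d : ℕ} (h : 2 ^ a + 2 ^ b = 2 ^ c + 2 ^ d) (hab : a ≤ b)
    (hcd : c ≤ d) : a = c ∧ b = d := by
  have key : ∀ a b c d : ℕ, a ≤ b → c ≤ d → 2 ^ a + 2 ^ b = 2 ^ c + 2 ^ d → ¬ b < d := by
    intro a b c d hab hcd h hlt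
    have h1 : 2 ^ a ≤ 2 ^ b := Nat.pow_le_pow_right (by norm_num) hab
    have h2 : 2 ^ (b + 1) ≤ 2 ^ d := Nat.pow_le_pow_right (by norm_num) hlt
    have h3 : 0 < 2 ^ c := by positivity
    rw [pow_succ] at h2
    omega
  have h1 := key a b c d hab hcd h
  have h2 := key c d a b hcd hab h.symm
  have h3 : b = d := by omega
  subst h3
  refine ⟨?_, rfl⟩
  have : 2 ^ a = 2 ^ c := by omega
  exact Nat.pow_right_injective (le_refl 2) this

theorem two_pow {a b c d : ℕ} (h : 2 ^ a + 2 ^ b = 2 ^ c + 2 ^ d) :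
    (a = c ∧ b = d) ∨ (a = d ∧ b = c) := by
  rcases le_total a b with h1 | h1 <;> rcases le_total c d with h2 | h2
  · exact Or.inl (two_pow_le h h1 h2)
  · exact Or.inr (two_pow_le (by omega) h1 h2)
  · obtain ⟨e1, e2⟩ := two_pow_le (a := b) (b := a) (c := c) (d := d) (by omega) h1 h2
    exact Or.inr ⟨e2, e1⟩
  · obtain ⟨e1, e2⟩ := two_pow_le (a := b) (b := a) (c := d) (d := c) (by omega) h1 h2
    exact Or.inl ⟨e2, e1⟩

theorem golomb {i j i' j' : ℕ} (hij : i ≠ j) (h : 2 ^ j + 2 ^ i' = 2 ^ j' + 2 ^ i) :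
    i = i' ∧ j = j' := by
  rcases two_pow h with ⟨h1, h2⟩ | ⟨h1, h2⟩
  · exact ⟨h2.symm, h1⟩
  · exact absurd h1.symm hij

open Classical in
/-- SPOIL LEAF. -/
theorem spoil (K N1 : ℕ) (Ms : Finset ℕ) (M m b : ℕ) (hM : 0 < M)
    (hMs : ∀ k ∈ Ms, 4 ^ K < k ∧ k ∣ M) (hbM : Nat.Coprime b M)
    (hb : 8 * M * 2 ^ K + 2 * M + 2 ≤ b) :
    ∃ c : ℕ → ℕ, 4 * N1 < c 0 ∧ (∀ i j, i < j → c i + 4 * N1 < c j) ∧
      (∀ i j i' j' : ℕ, i ≠ j → (i, j) ≠ (i', j') →
        c j + c i' + 4 * N1 < c j' + c i ∨ c j' + c i + 4 * N1 < c j + c i') ∧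
      ∀ T, (∀ i < K, c i ≤ T) →
        (((range K ×ˢ range K).filter
          (fun p => p.1 ≠ p.2 ∧ Bad Ms M m b (T + c p.2 - c p.1))).card ≤ Ms.card + m) := by
  have hbpos : 0 < b := by omega
  have hcop : M.Coprime (b ^ m) := (hbM.symm).pow_right m
  obtain ⟨x, hx1, hx2⟩ := Nat.chineseRemainder hcop 1 (4 * M * rep b m)
  obtain ⟨K0, hK0⟩ : ∃ K0, K0 = x + (M * b ^ m) * (4 * N1 + 1) := ⟨_, rfl⟩
  have hMb : 0 < M * b ^ m := Nat.mul_pos hM (pow_pos hbpos m)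
  have hK1 : K0 ≡ 1 [MOD M] := by
    rw [hK0]
    have : (M * b ^ m) * (4 * N1 + 1) ≡ 0 [MOD M] :=
      (Nat.modEq_zero_iff_dvd).2 (by rw [mul_assoc]; exact Dvd.intro _ rfl)
    simpa using hx1.add this
  have hK2 : K0 ≡ 4 * M * rep b m [MOD b ^ m] := by
    rw [hK0]
    have : (M * b ^ m) * (4 * N1 + 1) ≡ 0 [MOD b ^ m] :=
      (Nat.modEq_zero_iff_dvd).2 (by rw [mul_comm M, mul_assoc]; exact Dvd.intro _ rfl)
    simpa using hx2.add this
  have hK3 : 4 * N1 + 1 ≤ K0 := by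
    rw [hK0]
    have : 4 * N1 + 1 ≤ (M * b ^ m) * (4 * N1 + 1) := Nat.le_mul_of_pos_left _ hMb
    omega
  have hdiff : ∀ i j i' j' : ℕ, i ≠ j → (i, j) ≠ (i', j') →
      2 ^ j + 2 ^ i' < 2 ^ j' + 2 ^ i ∨ 2 ^ j' + 2 ^ i < 2 ^ j + 2 ^ i' := by
    intro i j i' j' hij hne
    rcases lt_trichotomy (2 ^ j + 2 ^ i') (2 ^ j' + 2 ^ i) with h | h | h
    · exact Or.inl h
    · obtain ⟨h1, h2⟩ := golomb hij h
      exact absurd (by rw [h1, h2]) hne
    · exact Or.inr h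
  refine ⟨fun l => 2 ^ l * K0, ?_, ?_, ?_, ?_⟩
  · simp only [pow_zero, one_mul]; omega
  · intro i j hij
    have h1 : 2 ^ i + 1 ≤ 2 ^ j := Nat.pow_lt_pow_right (by norm_num) hij
    have h2 : (2 ^ i + 1) * K0 ≤ 2 ^ j * K0 := Nat.mul_le_mul_right _ h1
    rw [add_mul, one_mul] at h2
    show 2 ^ i * K0 + 4 * N1 < 2 ^ j * K0
    omega
  · intro i j i' j' hij hne
    simp only
    rcases hdiff i j i' j' hij hne with h | h
    · left
      have h2 : (2 ^ j + 2 ^ i' + 1) * K0 ≤ (2 ^ j' + 2 ^ i) * K0 := Nat.mul_le_mul_right _ h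
      rw [add_mul, add_mul, add_mul, one_mul] at h2
      omega
    · right
      have h2 : (2 ^ j' + 2 ^ i + 1) * K0 ≤ (2 ^ j + 2 ^ i') * K0 := Nat.mul_le_mul_right _ h
      rw [add_mul, add_mul, add_mul, one_mul] at h2
      omega
  · intro T hT
    simp only
    -- two different pairs give numbers which differ by `E * K0`
    have hpair : ∀ p ∈ range K ×ˢ range K, ∀ q ∈ range K ×ˢ range K, p.1 ≠ p.2 → q.1 ≠ q.2 →
        p ≠ q → ∃ E, 0 < E ∧ E < 2 * 2 ^ K ∧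
          (T + 2 ^ p.2 * K0 - 2 ^ p.1 * K0 = (T + 2 ^ q.2 * K0 - 2 ^ q.1 * K0) + E * K0 ∨
           T + 2 ^ q.2 * K0 - 2 ^ q.1 * K0 = (T + 2 ^ p.2 * K0 - 2 ^ p.1 * K0) + E * K0) := by
      rintro ⟨i, j⟩ hp ⟨i', j'⟩ hq hij hij' hne
      simp only [mem_product, mem_range] at hp hq
      simp only at hij hij' ⊢
      have b1 : 2 ^ i < 2 ^ K := Nat.pow_lt_pow_right (by norm_num) hp.1
      have b2 : 2 ^ j < 2 ^ K := Nat.pow_lt_pow_right (by norm_num) hp.2
      have b3 : 2 ^ i' < 2 ^ K := Nat.pow_lt_pow_right (by norm_num) hq.1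
      have b4 : 2 ^ j' < 2 ^ K := Nat.pow_lt_pow_right (by norm_num) hq.2
      have t1 := hT i hp.1
      have t2 := hT i' hq.1
      have p1 : 0 < 2 ^ i := by positivity
      have p2 : 0 < 2 ^ j := by positivity
      have p3 : 0 < 2 ^ i' := by positivity
      have p4 : 0 < 2 ^ j' := by positivity
      simp only at t1 t2
      rcases hdiff i j i' j' hij hne with h | h
      · refine ⟨2 ^ j' + 2 ^ i - (2 ^ j + 2 ^ i'), by omega, by omega, Or.inr ?_⟩
        have e : (2 ^ j' + 2 ^ i - (2 ^ j + 2 ^ i')) * K0 + (2 ^ j + 2 ^ i') * K0 =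
            (2 ^ j' + 2 ^ i) * K0 := by
          rw [← add_mul]; congr 1; omega
        rw [add_mul, add_mul] at e
        omega
      · refine ⟨2 ^ j + 2 ^ i' - (2 ^ j' + 2 ^ i), by omega, by omega, Or.inl ?_⟩
        have e : (2 ^ j + 2 ^ i' - (2 ^ j' + 2 ^ i)) * K0 + (2 ^ j' + 2 ^ i) * K0 =
            (2 ^ j + 2 ^ i') * K0 := by
          rw [← add_mul]; congr 1; omega
        rw [add_mul, add_mul] at e
        omega
    have hsub : ((range K ×ˢ range K).filter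
        (fun p => p.1 ≠ p.2 ∧ Bad Ms M m b (T + 2 ^ p.2 * K0 - 2 ^ p.1 * K0))) ⊆
        (Ms.biUnion fun k => (range K ×ˢ range K).filter
          (fun p => p.1 ≠ p.2 ∧ k ∣ (T + 2 ^ p.2 * K0 - 2 ^ p.1 * K0))) ∪
        ((range m).biUnion fun l => (range K ×ˢ range K).filter
          (fun p => p.1 ≠ p.2 ∧ ¬ (M ≤ (T + 2 ^ p.2 * K0 - 2 ^ p.1 * K0) / b ^ l % b ∧
            (T + 2 ^ p.2 * K0 - 2 ^ p.1 * K0) / b ^ l % b + M + 1 ≤ b))) := by
      intro p hp
      rw [mem_filter] at hp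
      obtain ⟨h1, h2, h3⟩ := hp
      rw [mem_union]
      rcases h3 with ⟨k, hk, hkd⟩ | ⟨l, hl, hld⟩
      · left
        rw [mem_biUnion]
        exact ⟨k, hk, mem_filter.2 ⟨h1, h2, hkd⟩⟩
      · right
        rw [mem_biUnion]
        exact ⟨l, mem_range.2 hl, mem_filter.2 ⟨h1, h2, hld⟩⟩
    refine (card_le_card hsub).trans ((card_union_le _ _).trans ?_)
    apply Nat.add_le_add
    · refine card_biUnion_le.trans ?_
      refine (Finset.sum_le_card_nsmul _ _ 1 ?_).trans (by simp)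
      intro k hk
      rw [card_le_one]
      intro p hp q hq
      rw [mem_filter] at hp hq
      by_contra hne
      obtain ⟨E, hE1, hE2, hE3⟩ := hpair p hp.1 q hq.1 hp.2.1 hq.2.1 hne
      obtain ⟨hk1, hk2⟩ := hMs k hk
      have hkE : k ∣ E * K0 := by
        rcases hE3 with h | h
        · exact (Nat.dvd_add_right hq.2.2).1 (h ▸ hp.2.2)
        · exact (Nat.dvd_add_right hp.2.2).1 (h ▸ hq.2.2)
      have hK1k : K0 ≡ 1 [MOD k] := hK1.of_dvd hk2
      have : E * K0 ≡ E * 1 [MOD k] := hK1k.mul_left E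
      rw [mul_one] at this
      have h0 : E ≡ 0 [MOD k] := this.symm.trans ((Nat.modEq_zero_iff_dvd).2 hkE)
      have hkE' : k ∣ E := (Nat.modEq_zero_iff_dvd).1 h0
      have hle := Nat.le_of_dvd hE1 hkE'
      -- `2 * 2 ^ K ≤ 4 ^ K` for `K ≥ 1`
      have hKpos : 1 ≤ K := by
        have := hp.1
        simp only [mem_product, mem_range] at this
        omega
      have h4 : 2 * 2 ^ K ≤ 4 ^ K := by
        have e4 : (4 : ℕ) ^ K = 2 ^ K * 2 ^ K := by
          rw [show (4 : ℕ) = 2 * 2 from rfl, mul_pow]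
        have e5 : 2 ≤ 2 ^ K := by
          calc 2 = 2 ^ 1 := rfl
            _ ≤ 2 ^ K := Nat.pow_le_pow_right (by norm_num) hKpos
        rw [e4]
        exact Nat.mul_le_mul_right _ e5
      omega
    · refine card_biUnion_le.trans ?_
      refine (Finset.sum_le_card_nsmul _ _ 1 ?_).trans (by simp)
      intro l hl
      rw [card_le_one]
      intro p hp q hq
      rw [mem_filter] at hp hq
      by_contra hne
      obtain ⟨E, hE1, hE2, hE3⟩ := hpair p hp.1 q hq.1 hp.2.1 hq.2.1 hne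
      have hbE : 4 * M * E + 2 * M + 2 ≤ b := by
        have : 4 * M * E ≤ 4 * M * (2 * 2 ^ K) := Nat.mul_le_mul_left _ hE2.le
        have e : 4 * M * (2 * 2 ^ K) = 8 * M * 2 ^ K := by ring
        omega
      rcases hE3 with h | h
      · apply hp.2.2
        rw [h]
        exact far hM (mem_range.1 hl) hK2 hE1 hbE hq.2.2
      · apply hq.2.2
        rw [h]
        exact far hM (mem_range.1 hl) hK2 hE1 hbE hp.2.2

end Crest.Agent.R320.Sp_821
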