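import Crest.Agent.R320.Fin_963
import Crest.Agent.R320.G1_256
import Crest.Agent.R320.Sp_821

/-! # Row 320 (helper821): the gadget hypothesis `Fin_963.Gad1` from `G1_256.g1` and the ruler
`Sp_821.spoil`. -/

set_option autoImplicit false

namespace Crest.Agent.R320.Gad_821

open Finset Crest.Agent.R320

theorem bad_per (Ms : Finset ℕ) (M m b T : ℕ) (hb : 0 < b) (hMs : ∀ k ∈ Ms, k ∣ M) :
    Sp_821.Bad Ms M m b (T + M * b ^ m) ↔ Sp_821.Bad Ms M m b T := by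
  unfold Sp_821.Bad
  have h1 : ∀ k ∈ Ms, (k ∣ T + M * b ^ m ↔ k ∣ T) := fun k hk =>
    Nat.dvd_add_left ((hMs k hk).mul_right _)
  have h2 : ∀ j < m, (T + M * b ^ m) / b ^ j % b = T / b ^ j % b := by
    intro j hj
    obtain ⟨d, rfl⟩ : ∃ d, m = j + 1 + d := ⟨m - j - 1, by omega⟩
    have : T + M * b ^ (j + 1 + d) = T + b ^ j * (b * (M * b ^ d)) := by ring
    rw [this, Nat.add_mul_div_left _ _ (pow_pos hb j), Nat.add_mul_mod_self_left]
  constructor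
  · rintro (⟨k, hk, hd⟩ | ⟨j, hj, hd⟩)
    · exact Or.inl ⟨k, hk, (h1 k hk).1 hd⟩
    · exact Or.inr ⟨j, hj, by rwa [h2 j hj] at hd⟩
  · rintro (⟨k, hk, hd⟩ | ⟨j, hj, hd⟩)
    · exact Or.inl ⟨k, hk, (h1 k hk).2 hd⟩
    · exact Or.inr ⟨j, hj, by rwa [h2 j hj]⟩

theorem gad1 (S V : Type) [Monoid S] [Finite S] [AddCommGroup V] [Finite V] (act : V → S → V) :
    Fin_963.Gad1 S V act := by
  classical
  obtain ⟨m, r, H⟩ := G1_256.g1 S V act
  refine ⟨r + m, fun K => ?_⟩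
  obtain ⟨Ms, M, hr, hMs, hM, Hb⟩ := H (4 ^ K)
  obtain ⟨b, hbdef⟩ : ∃ b, b = M * (8 * 2 ^ K + 10) + 1 := ⟨_, rfl⟩
  have hMt : M * (8 * 2 ^ K + 10) = 8 * M * 2 ^ K + 10 * M := by ring
  have hbM : b = 8 * M * 2 ^ K + 10 * M + 1 := by rw [hbdef, hMt]
  have hb1 : 4 * M + 4 < b := by
    have : 1 ≤ M * 2 ^ K := Nat.mul_pos hM (pow_pos (by norm_num) K)
    have h8 : 8 * M * 2 ^ K = 8 * (M * 2 ^ K) := by ring
    omega
  have hcop : Nat.Coprime b M := by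
    rw [hbdef]
    simp
  have hb2 : 8 * M * 2 ^ K + 2 * M + 2 ≤ b := by omega
  have hb0 : 0 < b := by omega
  obtain ⟨c, hc0, hinc, hsid, hthin⟩ := Sp_821.spoil K (b ^ m) Ms M m b hM
    (fun k hk => ⟨(hMs k hk).1, (hMs k hk).2.2⟩) hcop hb2
  refine ⟨b ^ m, b ^ m, M * b ^ m, c, Sp_821.Bad Ms M m b, Nat.mul_pos hM (pow_pos hb0 m),
    pow_pos hb0 m, ?_, ?_, ?_, ?_, ?_⟩
  · intro i j hij _
    have := hinc i j hij
    omega
  · intro k k' l l' hk hk' hl hl' hkk' hll' h1 h2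
    by_contra hne
    rcases hsid k' k l' l hkk' (fun e => hne (Prod.ext_iff.1 e).2) with h | h <;> omega
  · intro T hT _ F hF
    refine (Finset.card_le_card ?_).trans ((hthin T hT).trans (by omega))
    intro p hp
    obtain ⟨a1, a2, a3, a4⟩ := hF p hp
    rw [Finset.mem_filter, Finset.mem_product, Finset.mem_range, Finset.mem_range]
    exact ⟨⟨a1, a2⟩, a3, a4⟩
  · intro T _
    exact bad_per Ms M m b T hb0 (fun k hk => (hMs k hk).2.2)
  · intro α f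
    obtain ⟨lam, rho, nu, h1, h2, h3, h4⟩ := Hb b hb1 hcop α f
    refine ⟨lam, rho, nu, fun P Q v w e1 e2 => h2 P Q v w e1 e2, fun P v e => (h1 P v e).le,
      ?_, ?_⟩
    · intro Y hY hB v
      obtain ⟨P, Q, e, hl, hrho⟩ := h3 Y (fun k hk hd => hB (Or.inl ⟨k, hk, hd⟩)) (fun j hj => by
        by_contra hn
        exact hB (Or.inr ⟨j, hj, hn⟩)) v
      exact ⟨P, Q, e.symm, hl, hrho⟩
    · intro u u' hu hu' ht hp hl
      exact (h4 u u' hu hu' ht hl hp).2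

end Crest.Agent.R320.Gad_821
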