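import Crest.Agent.R320.Fin_211
import Crest.Agent.R320.G1_873
import Crest.Agent.R320.Sp_21

/-! # Row 320: `Fin_211.Gad` from G1 (873) and the ruler (21). -/

set_option autoImplicit false

namespace Crest.Agent.R320.Gad_873

theorem gad {α S V : Type} [Monoid S] [Finite S] [AddCommGroup V] [Finite V]
    (act : V → S → V) (f : α → S) : Crest.Agent.R320.Fin_211.Gad act f := by
  classical
  obtain ⟨m, r, h⟩ := Crest.Agent.R320.G1_873.g1 S V act
  refine ⟨r + m, fun K => ?_⟩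
  obtain ⟨Ms, M, hcard, hMs, hM, hb⟩ := h (2 ^ (K + 1))
  obtain ⟨b, hbdef⟩ : ∃ b, b = 1 + M * (2 ^ (K + 4) + 8) := ⟨_, rfl⟩
  have hcop : Nat.Coprime b M := by
    rw [hbdef, Nat.coprime_add_mul_left_left]
    exact Nat.coprime_one_left M
  have hpow : 0 < M * 2 ^ (K + 4) := by positivity
  have hexp : M * (2 ^ (K + 4) + 8) = M * 2 ^ (K + 4) + 8 * M := by ring
  have hexp2 : (2 ^ (K + 4) + 2) * M = M * 2 ^ (K + 4) + 2 * M := by ring
  have h4 : 4 * M + 4 < b := by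
    have : 16 ≤ 2 ^ (K + 4) := by
      calc 16 = 2 ^ 4 := by norm_num
        _ ≤ 2 ^ (K + 4) := Nat.pow_le_pow_right (by norm_num) (by omega)
    have : M * 16 ≤ M * 2 ^ (K + 4) := Nat.mul_le_mul_left _ this
    omega
  have h5 : (2 ^ (K + 4) + 2) * M < b := by
    rw [hexp2]
    omega
  obtain ⟨lam, rho, nu, c1, c2, c3, c4⟩ := hb b h4 hcop α f
  obtain ⟨c, d1, d2, d3⟩ := Crest.Agent.R320.Sp_21.spoil K (b ^ m) m M b Ms hM
    (fun k hk => ⟨(hMs k hk).2.2, (hMs k hk).1.le⟩) hcop h5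
  refine ⟨b ^ m, 0, b ^ m, M * b ^ m, Crest.Agent.R320.Sp_21.Bad m M b Ms, c, lam, rho, nu,
    ?_, ?_, ?_, ?_, ?_, ?_, ?_, ?_⟩
  · exact fun P Q v r h h' => c2 P Q v r h h'
  · exact fun P v h => (c1 P v h).le
  · intro Y _ hY v
    have hY1 : ∀ k ∈ Ms, ¬ k ∣ Y.length := fun k hk hd => hY (Or.inl ⟨k, hk, hd⟩)
    have hY2 : ∀ j < m, M ≤ Y.length / b ^ j % b ∧ Y.length / b ^ j % b + M + 1 ≤ b := by
      intro j hj
      by_contra hcon
      exact hY (Or.inr ⟨j, hj, hcon⟩)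
    obtain ⟨P, Q, e1, e2, e3⟩ := c3 Y hY1 hY2 v
    exact ⟨P, Q, e1.symm, e2, e3⟩
  · have : 0 < b := by omega
    positivity
  · exact fun Y Y' h1 h2 h3 h4 h5 => (c4 Y Y' h1 h2 h3 h4 h5).2
  · intro i j hij _
    have := d1 i j hij
    omega
  · intro i i' j j' _ _ _ _ hi hj h1 h2
    by_contra hne
    rcases d2 i i' j j' hi.symm hj.symm (fun h => hne (congrArg Prod.fst h)) with h3 | h3
    · omega
    · omega
  · intro T hT I hI
    choose! g hg using fun k hk => (hI k hk).2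
    have hcardI : (I.image (fun k => (k, g k))).card = I.card :=
      Finset.card_image_of_injective _ (fun a b hab => congrArg Prod.fst hab)
    have := d3 T hT (I.image (fun k => (k, g k))) (by
      intro p hp
      obtain ⟨k, hk, rfl⟩ := Finset.mem_image.1 hp
      obtain ⟨g1, g2, g3⟩ := hg k hk
      exact ⟨(hI k hk).1, g1, g2.symm, g3⟩)
    rw [hcardI] at this
    omega

end Crest.Agent.R320.Gad_873
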