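import Crest.Agent.R320.Fin_963
import Crest.Agent.R320.G1_76
import Crest.Agent.R320.Spoil852_495

/-!
# Row 320: `Fin_963.Gad1` from `g1` (positional digits + CRT names) and the wide ruler.
-/

set_option autoImplicit false

namespace Crest.Agent.R320.Gad_914

open Crest.Agent.R320 Finset

theorem bad_per {Ms : Finset ℕ} {m M b : ℕ} (hMs : ∀ k ∈ Ms, k ∣ M) (hb : 0 < b) (T : ℕ) :
    Spoil852_495.Bad Ms m M b (T + M * b ^ m) ↔ Spoil852_495.Bad Ms m M b T := by
  unfold Spoil852_495.Bad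
  refine or_congr ?_ ?_
  · refine exists_congr fun k => and_congr_right fun hk => ?_
    exact (Nat.dvd_add_left (Dvd.dvd.mul_right (hMs k hk) _))
  · refine exists_congr fun t => and_congr_right fun ht => ?_
    have h1 : ((T + M * b ^ m) / b ^ t) % b = (T / b ^ t) % b := by
      obtain ⟨d, rfl⟩ : ∃ d, m = t + 1 + d := ⟨m - (t + 1), by omega⟩
      have e : T + M * b ^ (t + 1 + d) = T + b ^ t * (b * (M * b ^ d)) := by
        rw [pow_add, pow_add, pow_one]; ring
      rw [e, Nat.add_mul_div_left _ _ (pow_pos hb t), Nat.add_mul_mod_self_left]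
    rw [h1]

theorem gad (S V : Type) [Monoid S] [Finite S] [AddCommGroup V] [Finite V] (act : V → S → V) :
    Fin_963.Gad1 S V act := by
  classical
  obtain ⟨m, r, h⟩ := G1_76.g1 S V act
  refine ⟨r + m, fun K => ?_⟩
  obtain ⟨Ms, M, hcard, hMs, hM, hg⟩ := h (2 ^ (K + 2))
  set b : ℕ := 2 ^ (K + 5) * M + 1 with hb
  have h32 : 32 ≤ 2 ^ (K + 5) := by
    calc 32 = 2 ^ 5 := by norm_num
      _ ≤ 2 ^ (K + 5) := Nat.pow_le_pow_right (by norm_num) (by omega)
  have hb4 : 4 * M + 4 < b := by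
    have : 32 * M ≤ 2 ^ (K + 5) * M := Nat.mul_le_mul_right _ h32
    omega
  have hb0 : 0 < b := by omega
  have hcop : Nat.Coprime b M := by
    rw [hb]
    simp [Nat.Coprime]
  obtain ⟨c, hc1, hc2, hc3⟩ := Spoil852_495.ruler K m M b Ms
    (fun k hk => ⟨(hMs k hk).1.le, (hMs k hk).2.2⟩) hM hcop.symm (by omega) (2 * b ^ m)
  refine ⟨b ^ m, b ^ m, M * b ^ m, c, Spoil852_495.Bad Ms m M b,
    Nat.mul_pos hM (pow_pos hb0 m), pow_pos hb0 m, fun i j hij _ => hc1 i j hij, ?_, ?_, ?_, ?_⟩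
  · intro k k' l l' hk hk' hl hl' hne hne' h1 h2
    by_contra hkl
    have := hc2 k k' l l' hk hk' hl hl' (Ne.symm hne) (fun e => hkl (congrArg Prod.fst e))
    omega
  · intro T hT _ F hF
    refine (Finset.card_le_card ?_).trans ((hc3 T hT).trans (by omega))
    intro p hp
    obtain ⟨h1, h2, h3, h4⟩ := hF p hp
    simp only [Finset.mem_filter, Finset.mem_product, Finset.mem_range]
    exact ⟨⟨h1, h2⟩, h3, h4⟩
  · intro T _
    exact bad_per (fun k hk => (hMs k hk).2.2) hb0 T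
  · intro α f
    obtain ⟨lam, rho, nu, g1, g2, g3, g4⟩ := hg b hb4 hcop α f
    refine ⟨lam, rho, nu, fun P Q v v' h1 h2 => g2 P Q v v' h1 h2, fun P v h => (g1 P v h).le,
      ?_, ?_⟩
    · intro Y _ hY v
      obtain ⟨P, Q, h1, h2, h3⟩ := g3 Y (fun k hk hd => hY (Or.inl ⟨k, hk, hd⟩))
        (fun j hj => by
          by_contra hcon
          exact hY (Or.inr ⟨j, hj, hcon⟩)) v
      exact ⟨P, Q, h1.symm, h2, h3⟩
    · intro u u' h1 h2 h3 h4 h5
      exact (g4 u u' h1 h2 h3 h5 h4).2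

end Crest.Agent.R320.Gad_914
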