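import Crest.Agent.R320.ViewLoc_963
import Crest.Agent.R320.Thin_963

/-!
# Row 320 (helper963): `Gad1` from 219's grid gadget and the thin ruler
-/

set_option autoImplicit false

namespace Crest.Agent.R320.Gad_963

open Crest.Agent.R320.Grid219

theorem geo_sum (b : ℕ) (hb : 2 ≤ b) : ∀ i, ∑ j ∈ Finset.range (i + 1), b ^ j ≤ 2 * b ^ i := by
  intro i
  induction i with
  | zero => simp
  | succ i ih =>
    rw [Finset.sum_range_succ]
    have h1 : 2 * b ^ i ≤ b ^ (i + 1) := by
      rw [pow_succ, mul_comm]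
      exact Nat.mul_le_mul_left _ hb
    omega

/-- constants of 219's grids -/
def Amf (M b : ℕ) (j : ℕ) : ℕ := ∑ i ∈ Finset.range j, (b ^ i + M * b ^ i)

def par (m M b : ℕ) (hM : 0 < M) (hb : 0 < b) : Par where
  m := m
  M := M
  G := fun j => b ^ j
  Am := Amf M b
  hM := hM
  hG := fun j => pow_pos hb j
  hdvd := fun j => ⟨b, pow_succ b j⟩
  hA := fun j => by unfold Amf; rw [Finset.sum_range_succ]; ring

theorem sid {k k' l l' : ℕ} (h1 : k' ≠ k) (h : 2 ^ k + 2 ^ l' = 2 ^ l + 2 ^ k') (h2 : l' ≠ l) :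
    k = l := by
  have h3 : (2 : ℤ) ^ k + 2 ^ l' = 2 ^ l + 2 ^ k' := by exact_mod_cast h
  exact (Crest.Agent.R320.G369.pow_diff (i := k) (j := k') (i' := l) (j' := l') (fun e => h1 e.symm)
    (fun e => h2 e.symm) (by linarith)).1

theorem per_one {Ad G c T Per : ℕ} (hG : 0 < G) (hd : G ∣ Per) (hT : Ad + c ≤ T) :
    (∃ k, Ad + G * k ≤ T + Per + c ∧ T + Per ≤ Ad + G * k + c) ↔
      (∃ k, Ad + G * k ≤ T + c ∧ T ≤ Ad + G * k + c) := by
  obtain ⟨e, rfl⟩ := hd
  constructor
  · rintro ⟨k, h1, h2⟩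
    have h3 : G * e ≤ G * k := by omega
    have h4 : e ≤ k := Nat.le_of_mul_le_mul_left h3 hG
    refine ⟨k - e, ?_, ?_⟩
    · rw [Nat.mul_sub]; omega
    · rw [Nat.mul_sub]; omega
  · rintro ⟨k, h1, h2⟩
    refine ⟨k + e, ?_, ?_⟩
    · rw [Nat.mul_add]; omega
    · rw [Nat.mul_add]; omega

theorem gad1 (S V : Type) [Monoid S] [Finite S] [AddCommGroup V] [Finite V]
    (act : V → S → V) : Fin_963.Gad1 S V act := by
  classical
  obtain ⟨m, r, hm, h0⟩ := Grid219.grid_gadget S V act
  refine ⟨r + m, fun K => ?_⟩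
  obtain ⟨Ms, hcard, hMs, h1⟩ := h0 (2 ^ (K + 1))
  obtain ⟨M, hMdef⟩ : ∃ M, M = ∏ p ∈ Ms, p := ⟨_, rfl⟩
  have hM : 0 < M := by
    rw [hMdef]; exact Finset.prod_pos fun p hp => (hMs p hp).1.pos
  obtain ⟨b, hbdef⟩ : ∃ b, b = 2 ^ (K + 5 + M) := ⟨_, rfl⟩
  have hb2 : 2 ≤ b := by
    rw [hbdef]
    calc 2 = 2 ^ 1 := (pow_one 2).symm
      _ ≤ 2 ^ (K + 5 + M) := Nat.pow_le_pow_right (by norm_num) (by omega)
  have hb : 0 < b := by omega
  let P : Par := par m M b hM hb
  have hodd : ∀ p ∈ Ms, Nat.Coprime 2 p := by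
    intro p hp
    refine (Nat.coprime_primes Nat.prime_two (hMs p hp).1).2 ?_
    have h2 := (hMs p hp).2
    have h3 : 2 ^ 1 ≤ 2 ^ (K + 1) := Nat.pow_le_pow_right (by norm_num) (by omega)
    omega
  have hcopM : Nat.Coprime 2 M := by
    rw [hMdef]; exact Nat.Coprime.prod_right hodd
  have hcop : ∀ j, Nat.Coprime (P.G j) P.M := by
    intro j
    change Nat.Coprime (b ^ j) M
    rw [hbdef]
    exact Nat.Coprime.pow_left _ (Nat.Coprime.pow_left _ hcopM)
  obtain ⟨Bad, hBad⟩ : ∃ Bad : ℕ → Prop, Bad = fun T => (∃ p ∈ Ms, p ∣ T) ∨ P.BadG T := ⟨_, rfl⟩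
  obtain ⟨La, hLa⟩ : ∃ La, La = 2 * P.Am m + P.G m + M * P.G m := ⟨_, rfl⟩
  obtain ⟨N1, hN1⟩ : ∃ N1, N1 = P.Am m + 1 := ⟨_, rfl⟩
  obtain ⟨X0, hX0, hX0p, hX0t⟩ := Crest.Agent.R320.Thin963.thin K m Ms (fun j => (b : ℤ) ^ j)
    (fun j => (M : ℤ) * (b : ℤ) ^ j) (fun j => (P.Am j : ℤ))
    (fun q hq => ⟨(hMs q hq).1, (hMs q hq).2.le⟩)
    (fun q hq => by
      have h2 : Nat.Coprime q (b ^ m) := by
        rw [hbdef]
        exact (Nat.Coprime.pow_left _ (Nat.Coprime.pow_left _ (hodd q hq))).symm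
      have h3 := Nat.isCoprime_iff_coprime.2 h2
      simpa using h3)
    (by positivity)
    (fun i j hij => pow_dvd_pow _ hij)
    (fun i => by positivity)
    (fun i => Dvd.intro_left _ rfl)
    (fun i hi => by
      have h2 := geo_sum b hb2 i
      have h3 : 2 ^ (K + 5) * M ≤ b := by
        rw [hbdef, pow_add 2 (K + 5) M]
        exact Nat.mul_le_mul_left _ Nat.lt_two_pow_self.le
      have h4 : 2 ^ (K + 4) * ∑ j ∈ Finset.range (i + 1), M * b ^ j ≤ b ^ (i + 1) := by
        rw [← Finset.mul_sum]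
        calc 2 ^ (K + 4) * (M * ∑ j ∈ Finset.range (i + 1), b ^ j)
            ≤ 2 ^ (K + 4) * (M * (2 * b ^ i)) :=
              Nat.mul_le_mul_left _ (Nat.mul_le_mul_left _ h2)
          _ = (2 ^ (K + 5) * M) * b ^ i := by rw [pow_succ 2 (K + 4)]; ring
          _ ≤ b * b ^ i := Nat.mul_le_mul_right _ h3
          _ = b ^ (i + 1) := by rw [pow_succ]; ring
      exact_mod_cast h4)
    (2 * N1 : ℤ)
  obtain ⟨X, rfl⟩ := Int.eq_ofNat_of_zero_le hX0p.le
  have hX : 2 * N1 ≤ X := by exact_mod_cast hX0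
  have hXp : 0 < X := by exact_mod_cast hX0p
  have hmp : P.m = m := rfl
  have hPM : P.M = M := rfl
  refine ⟨N1, La, M * P.G m, fun j => X * 2 ^ j, Bad, Nat.mul_pos hM (P.hG m), by omega,
    ?_, ?_, ?_, ?_, ?_⟩
  · intro i j hij _
    exact Nat.mul_lt_mul_of_pos_left (Nat.pow_lt_pow_right (by norm_num) hij) hXp
  · intro k k' l l' _ _ _ _ h2 h3 h4 h5
    simp only at h4 h5
    have h6 : X * (2 ^ k + 2 ^ l') < X * (2 ^ l + 2 ^ k' + 1) := by
      rw [Nat.mul_add, Nat.mul_add, Nat.mul_add]; omega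
    have h7 : X * (2 ^ l + 2 ^ k') < X * (2 ^ k + 2 ^ l' + 1) := by
      rw [Nat.mul_add, Nat.mul_add, Nat.mul_add]; omega
    have h8 := Nat.lt_of_mul_lt_mul_left h6
    have h9 := Nat.lt_of_mul_lt_mul_left h7
    exact sid h2 (by omega) h3
  · -- thin
    intro T hT _ F hF
    have h2 := hX0t (T : ℤ)
    refine le_trans ?_ (h2.trans (Nat.add_le_add_right hcard m))
    rw [← Finset.card_image_of_injective F Prod.swap_injective]
    refine Finset.card_le_card fun p hp => ?_
    obtain ⟨q, hq, rfl⟩ := Finset.mem_image.1 hp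
    obtain ⟨a1, a2, a3, a4⟩ := hF q hq
    simp only [Finset.mem_filter, Finset.mem_product, Finset.mem_range, Prod.fst_swap,
      Prod.snd_swap]
    refine ⟨⟨a2, a1⟩, fun e => a3 e.symm, ?_⟩
    have hc1 := hT q.1 a1
    simp only at hc1 a4
    have hcast : (T : ℤ) + (X : ℤ) * 2 ^ q.2 - (X : ℤ) * 2 ^ q.1 =
        ((T + X * 2 ^ q.2 - X * 2 ^ q.1 : ℕ) : ℤ) := by
      rw [Nat.cast_sub (by omega)]
      push_cast; ring
    rw [hcast]
    rw [hBad] at a4
    rcases a4 with ⟨p, hp, hd⟩ | ⟨j, hj1, hj2, k, hk1, hk2⟩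
    · exact Or.inl ⟨p, hp, by exact_mod_cast hd⟩
    · right
      obtain ⟨i, rfl⟩ : ∃ i, j = i + 1 := ⟨j - 1, by omega⟩
      have hj2' : i + 1 ≤ m := hj2
      refine ⟨i, by omega, (P.Am (i + 1) : ℤ) + (P.G (i + 1) : ℤ) * k -
        ((T + X * 2 ^ q.2 - X * 2 ^ q.1 : ℕ) : ℤ), ?_, ⟨k, ?_⟩⟩
      · have hci : P.c (i + 1 - 1) = M * b ^ i := rfl
        rw [hci] at hk1 hk2
        have b1 : (P.Am (i + 1) : ℤ) + (P.G (i + 1) : ℤ) * k ≤
          ((T + X * 2 ^ q.2 - X * 2 ^ q.1 : ℕ) : ℤ) + (M : ℤ) * (b : ℤ) ^ i := by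
          exact_mod_cast hk1
        have b2 : ((T + X * 2 ^ q.2 - X * 2 ^ q.1 : ℕ) : ℤ) ≤
          (P.Am (i + 1) : ℤ) + (P.G (i + 1) : ℤ) * k + (M : ℤ) * (b : ℤ) ^ i := by
          exact_mod_cast hk2
        rw [abs_le]
        constructor <;> linarith
      · have hGi : ((P.G (i + 1) : ℕ) : ℤ) = (b : ℤ) ^ (i + 1) := by
          change ((b ^ (i + 1) : ℕ) : ℤ) = _
          push_cast; rfl
        show ((T + X * 2 ^ q.2 - X * 2 ^ q.1 : ℕ) : ℤ) - (P.Am (i + 1) : ℤ) +
          ((P.Am (i + 1) : ℤ) + (P.G (i + 1) : ℤ) * k -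
            ((T + X * 2 ^ q.2 - X * 2 ^ q.1 : ℕ) : ℤ)) = (b : ℤ) ^ (i + 1) * (k : ℤ)
        rw [← hGi]
        ring
  · -- periodic
    intro T hT
    rw [hBad]
    have hc : ∀ j, j ≤ m → P.c (j - 1) ≤ M * P.G m := by
      intro j hj
      exact Nat.mul_le_mul_left _ (Nat.le_of_dvd (P.hG m) (P.G_dvd (by omega)))
    refine or_congr ?_ ?_
    · refine exists_congr fun p => and_congr_right fun hp => ?_
      have : p ∣ M * P.G m := Dvd.dvd.mul_right (by
        rw [hMdef]; exact Finset.dvd_prod_of_mem _ hp) _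
      exact (Nat.dvd_add_left this)
    · refine exists_congr fun j => and_congr_right fun hj1 => and_congr_right fun hj2 => ?_
      have hj2' : j ≤ m := hj2
      have hA := P.Am_mono hj2'
      have hcj := hc j hj2'
      exact per_one (P.hG j) (Dvd.dvd.mul_left (P.G_dvd hj2') _) (by omega)
  · -- the gadget
    intro α f
    obtain ⟨lam, rho, nu, hs, hlam, hrho, hloc, hcomp⟩ := h1 P rfl hMdef hcop (α := α)
      (fun w => (w.map f).prod) (fun u v => Fin_963.phi_app f u v)
    let Leg : List α → Prop := fun u => ∃ p q v b, u = p ++ q ∧ lam p = some v ∧ rho q = some b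
    refine ⟨lam, rho, fun u => if Leg u then nu u else 0, ?_, ?_, ?_, ?_⟩
    · intro p q v b h2 h3
      have : Leg (p ++ q) := ⟨p, q, v, b, rfl, h2, h3⟩
      simp only [if_pos this]
      exact hs p q v b h2 h3
    · intro p v h2
      have := (hlam p v h2).2
      omega
    · intro u hu hbad v
      rw [hBad] at hbad
      push Not at hbad
      obtain ⟨p, q, b', h2, h3, h4⟩ := hcomp u (by omega) hbad.1 hbad.2 v
      exact ⟨p, q, h2, h3, by rw [h4]; rfl⟩
    · have half : ∀ u u' : List α, La ≤ u.length → La ≤ u'.length → u.take La = u'.take La →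
          ((u.drop La).map f).prod = ((u'.drop La).map f).prod →
          u.length % (M * P.G m) = u'.length % (M * P.G m) → Leg u → Leg u' ∧ nu u = nu u' := by
        rintro u u' h2 h3 h4 h5 h6 ⟨p, q, v, b', rfl, h7, h8⟩
        have hpl := (hlam p v h7).2
        have h6' : (p ++ q).length ≡ u'.length [MOD M * P.G m] := h6
        have hAm : P.A m = P.Am m + P.G m := rfl
        have hup : u'.take p.length = p := by
          have := Fin_963.dep_take h4 (a := p.length) (by omega)
          rw [← this, List.take_left]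
        have hq' : u' = p ++ u'.drop p.length := by
          conv_lhs => rw [← List.take_append_drop p.length u', hup]
        have hqe : (p ++ q).drop p.length = q := List.drop_left
        have hql : q.length + p.length = (p ++ q).length := by
          rw [List.length_append]; omega
        have hq'l : (u'.drop p.length).length + p.length = u'.length := by
          rw [List.length_drop]; omega
        have hmod : q.length ≡ (u'.drop p.length).length [MOD M * P.G m] := by
          have : q.length + p.length ≡ (u'.drop p.length).length + p.length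
              [MOD M * P.G m] := by rw [hql, hq'l]; exact h6'
          exact Nat.ModEq.add_right_cancel' _ this
        have hpd : ∀ w : List α, (w.drop p.length).drop (P.A m) = w.drop (p.length + P.A m) :=
          fun w => List.drop_drop ..
        have hrho' : rho (u'.drop p.length) = some b' := by
          rw [← h8]
          symm
          refine hloc _ _ ⟨fun _ => ?_, fun _ => ?_⟩ (hmod.of_mul_right _) ?_
          · change P.Am m ≤ _
            omega
          · change P.Am m ≤ _
            omega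
          · intro i hi
            refine ViewLoc_963.view_loc f P q _ ?_ ?_ ?_ ?_ (hmod.of_mul_left _) i hi
            · change P.A m ≤ _
              omega
            · change P.A m ≤ _
              omega
            · change q.take (P.A m) = (u'.drop p.length).take (P.A m)
              have h9 := Fin_963.dep_take h4 (a := p.length + P.A m) (by omega)
              have h10 := congrArg (fun l => l.drop p.length) h9
              simp only [List.drop_take, Nat.add_sub_cancel_left, hqe] at h10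
              exact h10
            · change ((q.drop (P.A m)).map f).prod =
                (((u'.drop p.length).drop (P.A m)).map f).prod
              have h9 := Fin_963.dep_drop h4 (a := p.length + P.A m) (by omega) f h5
              rw [← hpd, ← hpd, hqe] at h9
              exact h9
        have hL : Leg u' := ⟨p, u'.drop p.length, v, b', hq', h7, hrho'⟩
        refine ⟨hL, ?_⟩
        have e1 := hs p q v b' h7 h8
        have e2 := hs p (u'.drop p.length) v b' h7 hrho'
        rw [← hq'] at e2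
        have e3 : ((p ++ q).map f).prod = (u'.map f).prod := by
          have := Fin_963.dep_drop h4 (a := 0) (by omega) f h5
          simpa using this
        rw [e3] at e1
        have := e1.symm.trans e2
        exact add_left_cancel this
      intro u u' h2 h3 h4 h5 h6
      by_cases hu : Leg u
      · obtain ⟨h7, h8⟩ := half u u' h2 h3 h4 h5 h6 hu
        simp only [if_pos hu, if_pos h7, h8]
      · have hu' : ¬ Leg u' := fun h =>
          hu (half u' u h3 h2 h4.symm h5.symm h6.symm h).1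
        simp only [if_neg hu, if_neg hu']

end Crest.Agent.R320.Gad_963
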