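import Mathlib

/-!
# Row 320: the canonical gadget box from lead #13673's `g1` (helper967)

`G1 act` is the literal `g1` of lead #13673.  `ruler` is the spoil leaf (wide Golomb ruler), `gad`
is the black box used by the assemblies: all constants chosen, Bad periodic, ruler of any width.
-/

set_option autoImplicit false

namespace Crest.Agent.R320.Gad_967

/-- lead #13673's `g1`, literal (for fixed `S`, `V`, `act`) -/
def G1 {S V : Type} [Monoid S] [AddCommGroup V] (act : V → S → V) : Prop :=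
  ∃ m r : ℕ, ∀ Bd : ℕ, ∃ (Ms : Finset ℕ) (M : ℕ), Ms.card ≤ r ∧
    (∀ k ∈ Ms, Bd < k ∧ k.Prime ∧ k ∣ M) ∧ 0 < M ∧
    ∀ b : ℕ, 4 * M + 4 < b → Nat.Coprime b M → ∀ (A : Type) (f : A → S),
      ∃ (lam rho : List A → Option V) (nu : List A → V),
        (∀ P v, lam P = some v → P.length < b ^ m) ∧
        (∀ P Q v v', lam P = some v → rho Q = some v' →
          v' = act v ((P ++ Q).map f).prod + nu (P ++ Q)) ∧
        (∀ X : List A, (∀ k ∈ Ms, ¬ k ∣ X.length) →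
          (∀ j < m, M ≤ X.length / b ^ j % b ∧ X.length / b ^ j % b + M + 1 ≤ b) →
          ∀ v, ∃ P Q, P ++ Q = X ∧ lam P = some v ∧ (rho Q).isSome) ∧
        (∀ Q Q' : List A, b ^ m ≤ Q.length → b ^ m ≤ Q'.length →
          Q.take (b ^ m) = Q'.take (b ^ m) → Q.length % (M * b ^ m) = Q'.length % (M * b ^ m) →
          ((Q.drop (b ^ m)).map f).prod = ((Q'.drop (b ^ m)).map f).prod →
          rho Q = rho Q' ∧ nu Q = nu Q')

/-- the bad lengths -/
def BadN (Ms : Finset ℕ) (M m b n : ℕ) : Prop :=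
  (∃ k ∈ Ms, k ∣ n) ∨ ∃ j < m, ¬ (M ≤ n / b ^ j % b ∧ n / b ^ j % b + M + 1 ≤ b)

theorem golomb {a b c d : ℕ} (hab : a ≠ b) (hcd : c ≠ d) (h : 2 ^ a + 2 ^ d = 2 ^ b + 2 ^ c) :
    a = c ∧ b = d := by
  have key : ∀ x y : ℕ, x < y → 2 * 2 ^ x ≤ 2 ^ y := by
    intro x y hxy
    calc 2 * 2 ^ x = 2 ^ (x + 1) := by ring
      _ ≤ 2 ^ y := Nat.pow_le_pow_right (by norm_num) hxy
  have pos : ∀ x : ℕ, 0 < 2 ^ x := fun x => by positivity
  have pa := pos a
  have pb := pos b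
  have pc := pos c
  have pd := pos d
  have ek : b = d → a = c ∧ b = d := by
    intro e
    subst e
    exact ⟨Nat.pow_right_injective (le_refl 2) (by simpa using (by omega : 2 ^ a = 2 ^ c)), rfl⟩
  have ea : a = c → a = c ∧ b = d := by
    intro e
    subst e
    exact ⟨rfl, Nat.pow_right_injective (le_refl 2) (by simpa using (by omega : 2 ^ b = 2 ^ d))⟩
  rcases Nat.lt_trichotomy b d with h1 | h1 | h1
  · rcases Nat.lt_trichotomy a c with h4 | h4 | h4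
    · have e1 := key _ _ h1
      have e4 := key _ _ h4
      rcases Nat.lt_or_gt_of_ne hab with h2 | h2 <;> rcases Nat.lt_or_gt_of_ne hcd with h3 | h3 <;>
        (have e2 := key _ _ h2; have e3 := key _ _ h3; omega)
    · exact ea h4
    · have e1 := key _ _ h1
      have e4 := key _ _ h4
      rcases Nat.lt_or_gt_of_ne hab with h2 | h2 <;> rcases Nat.lt_or_gt_of_ne hcd with h3 | h3 <;>
        (have e2 := key _ _ h2; have e3 := key _ _ h3; omega)
  · exact ek h1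
  · rcases Nat.lt_trichotomy a c with h4 | h4 | h4
    · have e1 := key _ _ h1
      have e4 := key _ _ h4
      rcases Nat.lt_or_gt_of_ne hab with h2 | h2 <;> rcases Nat.lt_or_gt_of_ne hcd with h3 | h3 <;>
        (have e2 := key _ _ h2; have e3 := key _ _ h3; omega)
    · exact ea h4
    · have e1 := key _ _ h1
      have e4 := key _ _ h4
      rcases Nat.lt_or_gt_of_ne hab with h2 | h2 <;> rcases Nat.lt_or_gt_of_ne hcd with h3 | h3 <;>
        (have e2 := key _ _ h2; have e3 := key _ _ h3; omega)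

/-- two numbers whose `l`-th digits are near `0` differ by nearly a multiple of `b ^ (l+1)` -/
theorem win {n₁ n₂ M b l : ℕ} (hb : 0 < b)
    (h1 : ¬ (M ≤ n₁ / b ^ l % b ∧ n₁ / b ^ l % b + M + 1 ≤ b))
    (h2 : ¬ (M ≤ n₂ / b ^ l % b ∧ n₂ / b ^ l % b + M + 1 ≤ b)) :
    ∃ q e : ℤ, (n₁ : ℤ) - n₂ = q * (b : ℤ) ^ (l + 1) + e ∧ |e| < 2 * M * (b : ℤ) ^ l := by
  have hB : 0 < b ^ l := by positivity
  have dec : ∀ n : ℕ, n = b ^ l * b * (n / (b ^ l * b)) + (n % b ^ l + b ^ l * (n / b ^ l % b)) := by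
    intro n
    rw [← Nat.mod_mul]
    exact (Nat.div_add_mod _ _).symm
  have d1 := dec n₁
  have d2 := dec n₂
  have u1 := Nat.mod_lt n₁ hB
  have u2 := Nat.mod_lt n₂ hB
  have w1 := Nat.mod_lt (n₁ / b ^ l) hb
  have w2 := Nat.mod_lt (n₂ / b ^ l) hb
  generalize hx1 : n₁ / (b ^ l * b) = x1 at d1
  generalize hx2 : n₂ / (b ^ l * b) = x2 at d2
  generalize hu1 : n₁ % b ^ l = v1 at d1 u1
  generalize hu2 : n₂ % b ^ l = v2 at d2 u2
  generalize hw1 : n₁ / b ^ l % b = y1 at d1 h1 w1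
  generalize hw2 : n₂ / b ^ l % b = y2 at d2 h2 w2
  have hq : ∃ t : ℤ, |((y1 : ℤ) - y2 + t * b)| ≤ 2 * M - 1 := by
    by_cases a1 : y1 < M <;> by_cases a2 : y2 < M
    · exact ⟨0, by rw [abs_le]; constructor <;> omega⟩
    · refine ⟨1, ?_⟩
      have : b ≤ y2 + M := by omega
      rw [abs_le]; constructor <;> omega
    · refine ⟨-1, ?_⟩
      have : b ≤ y1 + M := by omega
      rw [abs_le]; constructor <;> omega
    · have : b ≤ y1 + M := by omega
      have : b ≤ y2 + M := by omega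
      exact ⟨0, by rw [abs_le]; constructor <;> omega⟩
  obtain ⟨t, ht⟩ := hq
  refine ⟨(x1 : ℤ) - x2 - t, (v1 : ℤ) - v2 + (b : ℤ) ^ l * ((y1 : ℤ) - y2 + t * b), ?_, ?_⟩
  · have c1 : (n₁ : ℤ) = (b : ℤ) ^ l * b * x1 + (v1 + (b : ℤ) ^ l * y1) := by exact_mod_cast d1
    have c2 : (n₂ : ℤ) = (b : ℤ) ^ l * b * x2 + (v2 + (b : ℤ) ^ l * y2) := by exact_mod_cast d2
    rw [c1, c2]
    ring
  · have hBz : (0 : ℤ) < (b : ℤ) ^ l := by exact_mod_cast hB
    have e1 : (v1 : ℤ) < (b : ℤ) ^ l := by exact_mod_cast u1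
    have e2 : (v2 : ℤ) < (b : ℤ) ^ l := by exact_mod_cast u2
    have e3 : (0 : ℤ) ≤ v1 := by positivity
    have e4 : (0 : ℤ) ≤ v2 := by positivity
    rw [abs_le] at ht
    obtain ⟨t1, t2⟩ := ht
    have f1 := mul_le_mul_of_nonneg_left t1 hBz.le
    have f2 := mul_le_mul_of_nonneg_left t2 hBz.le
    rw [abs_lt]
    constructor <;> nlinarith

theorem nowin {D M G B b P e Y : ℤ} (hP : 1 ≤ P) (hM : 1 ≤ M) (hB : 0 < B) (hG1 : B ≤ G)
    (hG2 : G ≤ 2 * B) (hD : |D| < P) (hD0 : D ≠ 0) (he : |e| < 2 * M * B)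
    (hbig : P * 16 * M < b) (k1 : D * (4 * M * G) - e = Y * (B * b)) : False := by
  have hMB : 0 < M * B := by positivity
  have hGp : 0 ≤ G := by linarith
  have hMG : 0 ≤ 4 * M * G := by positivity
  have k2 : |D * (4 * M * G)| ≤ P * (4 * M * (2 * B)) := by
    rw [abs_mul, abs_of_nonneg hMG]
    exact mul_le_mul hD.le (mul_le_mul_of_nonneg_left hG2 (by linarith)) hMG (by linarith)
  have k3 : |D * (4 * M * G) - e| < B * b := by
    have s1 : |D * (4 * M * G) - e| ≤ |D * (4 * M * G)| + |e| := abs_sub _ _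
    have s2 : B * (P * 16 * M) < B * b := mul_lt_mul_of_pos_left hbig hB
    have s5 : 1 * (M * B) ≤ P * (M * B) := mul_le_mul_of_nonneg_right hP hMB.le
    have s6 : P * (4 * M * (2 * B)) = 8 * (P * (M * B)) := by ring
    have s7 : B * (P * 16 * M) = 16 * (P * (M * B)) := by ring
    have s8 : 2 * M * B = 2 * (M * B) := by ring
    rw [s6] at k2
    rw [s7] at s2
    rw [s8] at he
    linarith
  have k4 : D * (4 * M * G) - e = 0 :=
    Int.eq_zero_of_abs_lt_dvd (m := B * b) ⟨Y, by rw [k1]; ring⟩ k3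
  have k5 : |D| * (4 * M * G) < 2 * M * B := by
    have h : D * (4 * M * G) = e := by linarith
    rw [← abs_of_nonneg hMG, ← abs_mul, h]; exact he
  have k6 : (1 : ℤ) ≤ |D| := Int.one_le_abs hD0
  have k7 : 1 * (4 * M * G) ≤ |D| * (4 * M * G) := mul_le_mul_of_nonneg_right k6 hMG
  have k8 : (4 : ℤ) * M * B ≤ 4 * M * G := mul_le_mul_of_nonneg_left hG1 (by linarith)
  have s8 : 2 * M * B = 2 * (M * B) := by ring
  have s9 : 4 * M * B = 4 * (M * B) := by ring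
  linarith

/-- **The spoil leaf.**  `x a = 2 ^ a * K0`, as wide as one likes. -/
theorem ruler (m M : ℕ) (Ms : Finset ℕ) (K U b : ℕ) (hM : 0 < M)
    (hk : ∀ k ∈ Ms, 2 ^ (K + 1) < k ∧ k ∣ M) (hb : 2 ^ (K + 5) * M < b) (hco : Nat.Coprime b M) :
    ∃ x : ℕ → ℕ, (∀ i, U < x i) ∧ (∀ i j, i < j → x i + U < x j) ∧
      (∀ a b c d, a ≠ b → c ≠ d → ¬ (a = c ∧ b = d) →
        (x a + x d + U < x c + x b ∨ x c + x b + U < x a + x d)) ∧
      ∀ T, (∀ i < K, x i ≤ T) →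
        (((Finset.range K ×ˢ Finset.range K).filter (fun p => p.1 ≠ p.2 ∧
          (∃ k ∈ Ms, k ∣ T + x p.1 - x p.2))).card ≤ Ms.card ∧
         ∀ l < m, ((Finset.range K ×ˢ Finset.range K).filter (fun p => p.1 ≠ p.2 ∧
          ¬ (M ≤ (T + x p.1 - x p.2) / b ^ l % b ∧
            (T + x p.1 - x p.2) / b ^ l % b + M + 1 ≤ b))).card ≤ 1) := by
  classical
  have hb0 : 0 < b := by omega
  have hMp : 0 < b ^ m := by positivity
  obtain ⟨K1, hK1a, hK1b⟩ := Nat.chineseRemainder (Nat.Coprime.pow_right m hco.symm)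
    1 (4 * M * ∑ t ∈ Finset.range m, b ^ t)
  -- make it large
  obtain ⟨K0, hK0, hKM, hKb⟩ : ∃ K0 : ℕ, U < K0 ∧ K0 ≡ 1 [MOD M] ∧
      K0 ≡ 4 * M * ∑ t ∈ Finset.range m, b ^ t [MOD b ^ m] := by
    refine ⟨K1 + M * b ^ m * (U + 1), ?_, ?_, ?_⟩
    · have : 1 * (U + 1) ≤ M * b ^ m * (U + 1) := Nat.mul_le_mul_right _ (by
        have := Nat.mul_pos hM hMp; omega)
      omega
    · have : M ∣ M * b ^ m * (U + 1) := ⟨b ^ m * (U + 1), by ring⟩
      exact (Nat.ModEq.add_right _ hK1a).trans (by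
        have := (Nat.modEq_zero_iff_dvd.2 this)
        simpa using Nat.ModEq.add_left 1 this)
    · have : b ^ m ∣ M * b ^ m * (U + 1) := ⟨M * (U + 1), by ring⟩
      exact (Nat.ModEq.add_right _ hK1b).trans (by
        have := (Nat.modEq_zero_iff_dvd.2 this)
        simpa using Nat.ModEq.add_left (4 * M * ∑ t ∈ Finset.range m, b ^ t) this)
  have hK00 : 0 < K0 := by omega
  -- the difference of two pairs
  have hD : ∀ a b c d : ℕ, a < K → b < K → c < K → d < K →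
      |((2 : ℤ) ^ a - 2 ^ b - (2 ^ c - 2 ^ d))| < 2 ^ (K + 1) := by
    intro a b c d ha hb hc hd
    have lt : ∀ x, x < K → (2 : ℤ) ^ x < 2 ^ K := fun x hx => by
      exact_mod_cast Nat.pow_lt_pow_right (by norm_num) hx
    have ps : ∀ x : ℕ, (0 : ℤ) < 2 ^ x := fun x => by positivity
    have := lt a ha; have := lt b hb; have := lt c hc; have := lt d hd
    have := ps a; have := ps b; have := ps c; have := ps d
    rw [abs_lt, pow_succ]
    constructor <;> linarith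
  have hD0 : ∀ a b c d : ℕ, a ≠ b → c ≠ d → ¬ (a = c ∧ b = d) →
      ((2 : ℤ) ^ a - 2 ^ b - (2 ^ c - 2 ^ d)) ≠ 0 := by
    intro a b c d hab hcd hn h0
    apply hn
    apply golomb hab hcd
    have : (2 : ℤ) ^ a + 2 ^ d = 2 ^ b + 2 ^ c := by linarith
    exact_mod_cast this
  refine ⟨fun a => 2 ^ a * K0, ?_, ?_, ?_, ?_⟩
  · intro i
    have : 1 * K0 ≤ 2 ^ i * K0 := Nat.mul_le_mul_right _ (Nat.one_le_two_pow)
    show U < 2 ^ i * K0
    omega
  · intro i j hij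
    have h1 : 2 ^ i + 1 ≤ 2 ^ j := Nat.pow_lt_pow_right (by norm_num) hij
    have h2 := Nat.mul_le_mul_right K0 h1
    show 2 ^ i * K0 + U < 2 ^ j * K0
    rw [add_mul, one_mul] at h2
    omega
  · intro a b c d hab hcd hn
    have h0 := hD0 a b c d hab hcd hn
    show 2 ^ a * K0 + 2 ^ d * K0 + U < 2 ^ c * K0 + 2 ^ b * K0 ∨
      2 ^ c * K0 + 2 ^ b * K0 + U < 2 ^ a * K0 + 2 ^ d * K0
    rcases lt_or_gt_of_ne h0 with h1 | h1
    · left
      have h2 : (2 : ℤ) ^ a + 2 ^ d + 1 ≤ 2 ^ c + 2 ^ b := by linarith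
      have h3 : 2 ^ a + 2 ^ d + 1 ≤ 2 ^ c + 2 ^ b := by exact_mod_cast h2
      have h4 := Nat.mul_le_mul_right K0 h3
      rw [add_mul, add_mul, add_mul, one_mul] at h4
      omega
    · right
      have h2 : (2 : ℤ) ^ c + 2 ^ b + 1 ≤ 2 ^ a + 2 ^ d := by linarith
      have h3 : 2 ^ c + 2 ^ b + 1 ≤ 2 ^ a + 2 ^ d := by exact_mod_cast h2
      have h4 := Nat.mul_le_mul_right K0 h3
      rw [add_mul, add_mul, add_mul, one_mul] at h4
      omega
  · intro T hT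
    -- the difference of the two lengths
    have hdiff : ∀ a b c d : ℕ, b < K → d < K →
        (((T + 2 ^ a * K0 - 2 ^ b * K0 : ℕ) : ℤ) - ((T + 2 ^ c * K0 - 2 ^ d * K0 : ℕ) : ℤ)) =
          ((2 : ℤ) ^ a - 2 ^ b - (2 ^ c - 2 ^ d)) * K0 := by
      intro a b c d hb hd
      have h1 := hT b hb
      have h2 := hT d hd
      simp only at h1 h2
      rw [Nat.cast_sub (by omega), Nat.cast_sub (by omega)]
      push_cast
      ring
    refine ⟨?_, ?_⟩
    · have hsub : ((Finset.range K ×ˢ Finset.range K).filter (fun p => p.1 ≠ p.2 ∧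
          (∃ k ∈ Ms, k ∣ T + 2 ^ p.1 * K0 - 2 ^ p.2 * K0))) ⊆
          Ms.biUnion (fun k => (Finset.range K ×ˢ Finset.range K).filter (fun p => p.1 ≠ p.2 ∧
            k ∣ T + 2 ^ p.1 * K0 - 2 ^ p.2 * K0)) := by
        intro p hp
        rw [Finset.mem_filter] at hp
        obtain ⟨h1, h2, k, hk1, hk2⟩ := hp
        exact Finset.mem_biUnion.2 ⟨k, hk1, Finset.mem_filter.2 ⟨h1, h2, hk2⟩⟩
      refine (Finset.card_le_card hsub).trans (Finset.card_biUnion_le.trans ?_)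
      refine (Finset.sum_le_card_nsmul _ _ 1 ?_).trans (by simp)
      intro k hkM
      rw [Finset.card_le_one]
      rintro ⟨a, b'⟩ hp ⟨c, d⟩ hq
      simp only [Finset.mem_filter, Finset.mem_product, Finset.mem_range] at hp hq
      obtain ⟨⟨ha, hb'⟩, hab, h1⟩ := hp
      obtain ⟨⟨hc, hd⟩, hcd, h2⟩ := hq
      by_contra hne
      have hn : ¬ (a = c ∧ b' = d) := fun h => hne (by rw [h.1, h.2])
      have h3 := hdiff a b' c d hb' hd
      have h4 : (k : ℤ) ∣ ((2 : ℤ) ^ a - 2 ^ b' - (2 ^ c - 2 ^ d)) * K0 := by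
        rw [← h3]
        exact dvd_sub (by exact_mod_cast h1) (by exact_mod_cast h2)
      have h5 : (k : ℤ) ∣ (K0 : ℤ) - 1 := by
        have h6 : (M : ℤ) ∣ (K0 : ℤ) - 1 := by
          have := (Nat.modEq_iff_dvd.1 hKM.symm)
          simpa using this
        exact dvd_trans (by exact_mod_cast (hk k hkM).2) h6
      have h7 : (k : ℤ) ∣ ((2 : ℤ) ^ a - 2 ^ b' - (2 ^ c - 2 ^ d)) := by
        have h8 := dvd_sub h4 (Dvd.dvd.mul_left h5 ((2 : ℤ) ^ a - 2 ^ b' - (2 ^ c - 2 ^ d)))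
        have h9 : ((2 : ℤ) ^ a - 2 ^ b' - (2 ^ c - 2 ^ d)) * K0 -
            ((2 : ℤ) ^ a - 2 ^ b' - (2 ^ c - 2 ^ d)) * (K0 - 1) =
            ((2 : ℤ) ^ a - 2 ^ b' - (2 ^ c - 2 ^ d)) := by ring
        rwa [h9] at h8
      have h10 := Int.eq_zero_of_abs_lt_dvd h7 ((hD a b' c d ha hb' hc hd).trans (by
        exact_mod_cast (hk k hkM).1))
      exact hD0 a b' c d hab hcd hn h10
    · intro l hl
      rw [Finset.card_le_one]
      rintro ⟨a, b'⟩ hp ⟨c, d⟩ hq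
      simp only [Finset.mem_filter, Finset.mem_product, Finset.mem_range] at hp hq
      obtain ⟨⟨ha, hb'⟩, hab, h1⟩ := hp
      obtain ⟨⟨hc, hd⟩, hcd, h2⟩ := hq
      by_contra hne
      have hn : ¬ (a = c ∧ b' = d) := fun h => hne (by rw [h.1, h.2])
      obtain ⟨q, e, he1, he2⟩ := win hb0 h1 h2
      rw [hdiff a b' c d hb' hd] at he1
      have hDa := hD a b' c d ha hb' hc hd
      have hDb := hD0 a b' c d hab hcd hn
      generalize ((2 : ℤ) ^ a - 2 ^ b' - (2 ^ c - 2 ^ d)) = D at he1 hDa hDb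
      -- K0 modulo b ^ (l+1)
      have hG : ∃ y : ℤ, (K0 : ℤ) = 4 * M * (∑ t ∈ Finset.range (l + 1), (b : ℤ) ^ t) +
          y * (b : ℤ) ^ (l + 1) := by
        have g1 : b ^ (l + 1) ∣ b ^ m := pow_dvd_pow b hl
        have g2 := (Nat.modEq_iff_dvd.1 hKb.symm)
        have g3 : ((b : ℤ) ^ (l + 1)) ∣ (b : ℤ) ^ m := by exact_mod_cast g1
        have g5 : ((b : ℤ) ^ (l + 1)) ∣ (K0 : ℤ) - ((4 * M * ∑ t ∈ Finset.range m, b ^ t : ℕ) : ℤ) := by
          refine dvd_trans g3 ?_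
          rw [Nat.cast_pow] at g2
          exact g2
        obtain ⟨y, hy⟩ := g5
        have g4 : ∃ z : ℤ, (∑ t ∈ Finset.range m, (b : ℤ) ^ t) =
            (∑ t ∈ Finset.range (l + 1), (b : ℤ) ^ t) + z * (b : ℤ) ^ (l + 1) := by
          obtain ⟨m', rfl⟩ := Nat.exists_eq_add_of_le (show l + 1 ≤ m from hl)
          refine ⟨∑ t ∈ Finset.range m', (b : ℤ) ^ t, ?_⟩
          rw [Finset.sum_range_add, Finset.sum_mul]
          congr 1
          refine Finset.sum_congr rfl fun t _ => ?_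
          rw [pow_add]; ring
        obtain ⟨z, hz⟩ := g4
        push_cast at hy
        refine ⟨y + 4 * M * z, ?_⟩
        have : (K0 : ℤ) = 4 * M * (∑ t ∈ Finset.range m, (b : ℤ) ^ t) + (b : ℤ) ^ (l + 1) * y := by
          linarith
        rw [this, hz]; ring
      obtain ⟨y, hy⟩ := hG
      have hbz : (1 : ℤ) ≤ b := by exact_mod_cast hb0
      have hbl : (0 : ℤ) < (b : ℤ) ^ l := by positivity
      -- size of the geometric sum
      have hs1 : (b : ℤ) ^ l ≤ ∑ t ∈ Finset.range (l + 1), (b : ℤ) ^ t := by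
        rw [Finset.sum_range_succ]
        have : (0 : ℤ) ≤ ∑ t ∈ Finset.range l, (b : ℤ) ^ t := Finset.sum_nonneg fun t _ => by positivity
        linarith
      have hb2 : 2 ≤ b := by
        have : 1 * 1 ≤ 2 ^ (K + 5) * M := Nat.mul_le_mul Nat.one_le_two_pow hM
        omega
      have hs2 : ∑ t ∈ Finset.range (l + 1), (b : ℤ) ^ t ≤ 2 * (b : ℤ) ^ l := by
        have : ∀ l : ℕ, ∑ t ∈ Finset.range (l + 1), (b : ℤ) ^ t ≤ 2 * (b : ℤ) ^ l := by
          intro l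
          induction l with
          | zero => simp
          | succ l ih =>
            rw [Finset.sum_range_succ]
            have hb2' : (2 : ℤ) ≤ b := by exact_mod_cast hb2
            have h0 : (0 : ℤ) < (b : ℤ) ^ l := by positivity
            have h1 : (b : ℤ) ^ (l + 1) = (b : ℤ) ^ l * b := pow_succ _ _
            have h2 : (b : ℤ) ^ l * 2 ≤ (b : ℤ) ^ l * b := mul_le_mul_of_nonneg_left hb2' h0.le
            linarith
        exact this l
      generalize (∑ t ∈ Finset.range (l + 1), (b : ℤ) ^ t) = G at hy hs1 hs2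
      have hMz : (1 : ℤ) ≤ M := by exact_mod_cast hM
      -- D * 4M * G = e + multiple
      have k1 : D * (4 * M * G) - e = (q - D * y) * (b : ℤ) ^ (l + 1) := by
        rw [hy] at he1
        linarith
      have hbig : (2 : ℤ) ^ (K + 5) * M < b := by exact_mod_cast hb
      have s3 : (2 : ℤ) ^ (K + 5) = 2 ^ (K + 1) * 16 := by
        rw [show K + 5 = (K + 1) + 4 from rfl, pow_add (2 : ℤ) (K + 1) 4]; norm_num
      rw [s3] at hbig
      have s4 : (1 : ℤ) ≤ 2 ^ (K + 1) := by exact_mod_cast Nat.one_le_two_pow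
      rw [pow_succ (b : ℤ) l] at k1
      exact nowin s4 hMz hbl hs1 hs2 hDa hDb he2 hbig k1

/-- the count for the bad set, on ordered pairs -/
theorem count {m M : ℕ} {Ms : Finset ℕ} {K b T : ℕ} {x : ℕ → ℕ}
    (h : (((Finset.range K ×ˢ Finset.range K).filter (fun p => p.1 ≠ p.2 ∧
          (∃ k ∈ Ms, k ∣ T + x p.1 - x p.2))).card ≤ Ms.card ∧
         ∀ l < m, ((Finset.range K ×ˢ Finset.range K).filter (fun p => p.1 ≠ p.2 ∧
          ¬ (M ≤ (T + x p.1 - x p.2) / b ^ l % b ∧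
            (T + x p.1 - x p.2) / b ^ l % b + M + 1 ≤ b))).card ≤ 1)) (F : Finset (ℕ × ℕ))
    (hF : ∀ p ∈ F, p.1 < K ∧ p.2 < K ∧ p.1 ≠ p.2 ∧ BadN Ms M m b (T + x p.1 - x p.2)) :
    F.card ≤ Ms.card + m := by
  classical
  have hsub : F ⊆ (((Finset.range K ×ˢ Finset.range K).filter (fun p => p.1 ≠ p.2 ∧
          (∃ k ∈ Ms, k ∣ T + x p.1 - x p.2)))) ∪
      (Finset.range m).biUnion (fun l => ((Finset.range K ×ˢ Finset.range K).filter
        (fun p => p.1 ≠ p.2 ∧ ¬ (M ≤ (T + x p.1 - x p.2) / b ^ l % b ∧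
            (T + x p.1 - x p.2) / b ^ l % b + M + 1 ≤ b)))) := by
    intro p hp
    obtain ⟨h1, h2, h3, h4⟩ := hF p hp
    have hm : p ∈ Finset.range K ×ˢ Finset.range K :=
      Finset.mem_product.2 ⟨Finset.mem_range.2 h1, Finset.mem_range.2 h2⟩
    rcases h4 with h4 | ⟨l, hl, h4⟩
    · exact Finset.mem_union_left _ (Finset.mem_filter.2 ⟨hm, h3, h4⟩)
    · exact Finset.mem_union_right _ (Finset.mem_biUnion.2
        ⟨l, Finset.mem_range.2 hl, Finset.mem_filter.2 ⟨hm, h3, h4⟩⟩)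
  refine (Finset.card_le_card hsub).trans ((Finset.card_union_le _ _).trans
    (Nat.add_le_add h.1 ?_))
  refine Finset.card_biUnion_le.trans ?_
  refine (Finset.sum_le_card_nsmul _ _ 1 fun l hl => h.2 l (Finset.mem_range.1 hl)).trans ?_
  simp

theorem bad_per (Ms : Finset ℕ) (M m b T : ℕ) (hb : 0 < b) (hk : ∀ k ∈ Ms, k ∣ M) :
    BadN Ms M m b (T + M * b ^ m) ↔ BadN Ms M m b T := by
  unfold BadN
  have h1 : ∀ k ∈ Ms, (k ∣ T + M * b ^ m ↔ k ∣ T) := fun k hkk =>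
    (Nat.dvd_add_left (Dvd.dvd.mul_right (hk k hkk) _))
  have h2 : ∀ j < m, (T + M * b ^ m) / b ^ j % b = T / b ^ j % b := by
    intro j hj
    have e : M * b ^ m = b ^ j * (b * (M * b ^ (m - j - 1))) := by
      have : b ^ m = b ^ j * (b * b ^ (m - j - 1)) := by
        rw [← pow_succ', ← pow_add]; congr 1; omega
      rw [this]; ring
    rw [e, Nat.add_mul_div_left _ _ (by positivity), Nat.add_mul_mod_self_left]
  constructor
  · rintro (⟨k, hkk, h⟩ | ⟨j, hj, h⟩)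
    · exact Or.inl ⟨k, hkk, (h1 k hkk).1 h⟩
    · rw [h2 j hj] at h
      exact Or.inr ⟨j, hj, h⟩
  · rintro (⟨k, hkk, h⟩ | ⟨j, hj, h⟩)
    · exact Or.inl ⟨k, hkk, (h1 k hkk).2 h⟩
    · rw [← h2 j hj] at h
      exact Or.inr ⟨j, hj, h⟩

/-- `Gad1` of Fin_963, verbatim -/
def Gad1 (S V : Type) [Monoid S] [AddCommGroup V] (act : V → S → V) : Prop :=
  ∃ C0 : ℕ, ∀ K : ℕ, ∃ (N1 La Per : ℕ) (c : ℕ → ℕ) (Bad : ℕ → Prop), 0 < Per ∧ 0 < N1 ∧
    (∀ i j, i < j → j < K → c i < c j) ∧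
    (∀ k k' l l', k < K → k' < K → l < K → l' < K → k' ≠ k → l' ≠ l →
      c k + c l' < c l + c k' + 2 * N1 → c l + c k' < c k + c l' + 2 * N1 → k = l) ∧
    (∀ T, (∀ k < K, c k ≤ T) → La ≤ T → ∀ F : Finset (ℕ × ℕ),
      (∀ p ∈ F, p.1 < K ∧ p.2 < K ∧ p.1 ≠ p.2 ∧ Bad (T + c p.2 - c p.1)) → F.card ≤ C0) ∧
    (∀ T, La ≤ T → (Bad (T + Per) ↔ Bad T)) ∧
    ∀ (α : Type) (f : α → S), ∃ (lam rho : List α → Option V) (nu : List α → V),
      (∀ P Q v b, lam P = some v → rho Q = some b →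
        b = act v ((P ++ Q).map f).prod + nu (P ++ Q)) ∧
      (∀ P v, lam P = some v → P.length ≤ N1) ∧
      (∀ Y : List α, La ≤ Y.length → ¬ Bad Y.length → ∀ v, ∃ P Q, Y = P ++ Q ∧
        lam P = some v ∧ (rho Q).isSome) ∧
      (∀ u u' : List α, La ≤ u.length → La ≤ u'.length → u.take La = u'.take La →
        ((u.drop La).map f).prod = ((u'.drop La).map f).prod →
        u.length % Per = u'.length % Per → nu u = nu u')

theorem gad1 {S V : Type} [Monoid S] [AddCommGroup V] (act : V → S → V) (h : G1 act) :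
    Gad1 S V act := by
  obtain ⟨m, r, h⟩ := h
  refine ⟨r + m, fun K => ?_⟩
  obtain ⟨Ms, M, hc, hp, hM, hg⟩ := h (2 ^ (K + 1))
  obtain ⟨b, hbdef⟩ : ∃ b, b = M * (2 ^ (K + 5) + 8) + 1 := ⟨_, rfl⟩
  have hb1 : 4 * M + 4 < b := by rw [hbdef]; nlinarith [Nat.one_le_two_pow (n := K + 5)]
  have hb2 : 2 ^ (K + 5) * M < b := by rw [hbdef]; nlinarith
  have hb3 : Nat.Coprime b M := by
    rw [hbdef]
    simp
  have hb0 : 0 < b := by omega
  have hN : 0 < b ^ m := by positivity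
  obtain ⟨x, -, hx1, hx2, hx3⟩ := ruler m M Ms K (2 * b ^ m) b hM
    (fun k hk => ⟨(hp k hk).1, (hp k hk).2.2⟩) hb2 hb3
  refine ⟨b ^ m, b ^ m, M * b ^ m, x, BadN Ms M m b, Nat.mul_pos hM hN, hN, ?_, ?_, ?_, ?_, ?_⟩
  · intro i j hij _
    have := hx1 i j hij
    omega
  · intro k k' l l' _ _ _ _ h1 h2 h3 h4
    by_contra hne
    rcases hx2 k k' l l' (Ne.symm h1) (Ne.symm h2) (fun h => hne h.1) with h5 | h5 <;> omega
  · intro T hT _ F hF
    have h1 := count (hx3 T hT) (F.map (Equiv.prodComm ℕ ℕ).toEmbedding) (by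
      intro p hp
      rw [Finset.mem_map] at hp
      obtain ⟨q, hq, rfl⟩ := hp
      obtain ⟨a1, a2, a3, a4⟩ := hF q hq
      exact ⟨a2, a1, Ne.symm a3, a4⟩)
    rw [Finset.card_map] at h1
    omega
  · intro T _
    exact bad_per Ms M m b T hb0 fun k hk => (hp k hk).2.2
  · intro α f
    obtain ⟨lam, rho, nu, g1, g2, g3, g4⟩ := hg b hb1 hb3 α f
    refine ⟨lam, rho, nu, fun P Q v b h1 h2 => g2 P Q v b h1 h2, fun P v h1 => (g1 P v h1).le,
      ?_, ?_⟩
    · intro Y _ hB v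
      have hB' : ¬ ((∃ k ∈ Ms, k ∣ Y.length) ∨ ∃ j < m, ¬ (M ≤ Y.length / b ^ j % b ∧
        Y.length / b ^ j % b + M + 1 ≤ b)) := hB
      push Not at hB'
      obtain ⟨P, Q, e, e1, e2⟩ := g3 Y hB'.1 (fun j hj => hB'.2 j hj) v
      exact ⟨P, Q, e.symm, e1, e2⟩
    · intro u u' h1 h2 h3 h4 h5
      exact (g4 u u' h1 h2 h3 h5 h4).2

/-- `Gad` of Fin_211, verbatim -/
def Gad {α S V : Type} [Monoid S] [AddCommGroup V] (act : V → S → V) (f : α → S) : Prop :=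
  ∃ R1 : ℕ, ∀ K : ℕ, ∃ (N1 N0 Kp M : ℕ) (BadT : ℕ → Prop) (c : ℕ → ℕ)
    (lam rho : List α → Option V) (nu1 : List α → V),
    (∀ P Q v r, lam P = some v → rho Q = some r →
      r = act v ((P ++ Q).map f).prod + nu1 (P ++ Q)) ∧
    (∀ P v, lam P = some v → P.length ≤ N1) ∧
    (∀ Y : List α, N0 ≤ Y.length → ¬ BadT Y.length → ∀ v, ∃ P Q, Y = P ++ Q ∧
      lam P = some v ∧ (rho Q).isSome) ∧ 0 < M ∧
    (∀ Y Y' : List α, Kp ≤ Y.length → Kp ≤ Y'.length → Y.take Kp = Y'.take Kp →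
      Y.length % M = Y'.length % M →
      ((Y.drop Kp).map f).prod = ((Y'.drop Kp).map f).prod → nu1 Y = nu1 Y') ∧
    (∀ i j, i < j → j < K → c i < c j) ∧
    (∀ i i' j j', i < K → i' < K → j < K → j' < K → i' ≠ i → j' ≠ j →
      c i + c j' < c j + c i' + 2 * N1 → c j + c i' < c i + c j' + 2 * N1 → i = j) ∧
    (∀ T, (∀ k, k < K → c k ≤ T) → ∀ I : Finset ℕ,
      (∀ k ∈ I, k < K ∧ ∃ k', k' < K ∧ k' ≠ k ∧ BadT (T + c k' - c k)) → I.card ≤ R1)

theorem gad {α S V : Type} [Monoid S] [AddCommGroup V] (act : V → S → V) (f : α → S)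
    (h : G1 act) : Gad act f := by
  classical
  obtain ⟨m, r, h⟩ := h
  refine ⟨r + m, fun K => ?_⟩
  obtain ⟨Ms, M, hc, hp, hM, hg⟩ := h (2 ^ (K + 1))
  obtain ⟨b, hbdef⟩ : ∃ b, b = M * (2 ^ (K + 5) + 8) + 1 := ⟨_, rfl⟩
  have hb1 : 4 * M + 4 < b := by rw [hbdef]; nlinarith [Nat.one_le_two_pow (n := K + 5)]
  have hb2 : 2 ^ (K + 5) * M < b := by rw [hbdef]; nlinarith
  have hb3 : Nat.Coprime b M := by
    rw [hbdef]
    simp
  have hb0 : 0 < b := by omega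
  have hN : 0 < b ^ m := by positivity
  obtain ⟨x, -, hx1, hx2, hx3⟩ := ruler m M Ms K (2 * b ^ m) b hM
    (fun k hk => ⟨(hp k hk).1, (hp k hk).2.2⟩) hb2 hb3
  obtain ⟨lam, rho, nu, g1, g2, g3, g4⟩ := hg b hb1 hb3 α f
  refine ⟨b ^ m, b ^ m, b ^ m, M * b ^ m, BadN Ms M m b, x, lam, rho, nu,
    fun P Q v b h1 h2 => g2 P Q v b h1 h2, fun P v h1 => (g1 P v h1).le, ?_,
    Nat.mul_pos hM hN, ?_, ?_, ?_, ?_⟩
  · intro Y _ hB v
    have hB' : ¬ ((∃ k ∈ Ms, k ∣ Y.length) ∨ ∃ j < m, ¬ (M ≤ Y.length / b ^ j % b ∧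
      Y.length / b ^ j % b + M + 1 ≤ b)) := hB
    push Not at hB'
    obtain ⟨P, Q, e, e1, e2⟩ := g3 Y hB'.1 (fun j hj => hB'.2 j hj) v
    exact ⟨P, Q, e.symm, e1, e2⟩
  · intro u u' h1 h2 h3 h4 h5
    exact (g4 u u' h1 h2 h3 h4 h5).2
  · intro i j hij _
    have := hx1 i j hij
    omega
  · intro k k' l l' _ _ _ _ h1 h2 h3 h4
    by_contra hne
    rcases hx2 k k' l l' (Ne.symm h1) (Ne.symm h2) (fun h => hne h.1) with h5 | h5 <;> omega
  · intro T hT I hI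
    choose! g hg1 hg2 hg3 using fun k (hk : k ∈ I) => (hI k hk).2
    have h1 := count (hx3 T hT) (I.image fun k => (g k, k)) (by
      intro p hp
      rw [Finset.mem_image] at hp
      obtain ⟨k, hk, rfl⟩ := hp
      exact ⟨hg1 k hk, (hI k hk).1, hg2 k hk, hg3 k hk⟩)
    rw [Finset.card_image_of_injective _ (fun a b hab => (Prod.mk.inj hab).2)] at h1
    omega

end Crest.Agent.R320.Gad_967
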