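import Mathlib

set_option autoImplicit false

/-!
The wall gadget of row 320 (helper823's mask and right-frame lemma), as a pure statement on lists
of blocks.  A block is a pair `(z, t)`: `z` in a finite monoid `S` (its product) and `t` in a
finite clock group `ZMod N` (its length mod `N`).
-/

namespace Crest.Agent.R320.Gadget_355

open Finset

/-- The product of a list of blocks. -/
def prd {S C : Type*} [Monoid S] (u : List (S × C)) : S := (u.map Prod.fst).prod

/-- The gadget: `L pre al` is the label of a left word, `R be post` of a right word, `nu` the noise. -/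
def Gadget (S V : Type*) [Monoid S] [AddCommGroup V] (beta : V → S → V) : Prop :=
  ∃ (m N : ℕ) (_ : 0 < N) (L : List (S × ZMod N) → ZMod N → Option V)
    (R : ZMod N → List (S × ZMod N) → Option V) (nu : List (S × ZMod N) → V),
    (∀ (pre post : List (S × ZMod N)) (z : S) (al be : ZMod N) (v r : V),
      L pre al = some v → R be post = some r →
        r = beta v (prd (pre ++ (z, al + be) :: post)) + nu (pre ++ (z, al + be) :: post)) ∧
    (∀ (u : List (S × ZMod N)) (v : V), m ≤ u.length →
      ∃ (pre post : List (S × ZMod N)) (z : S) (al be : ZMod N),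
        pre ++ (z, al + be) :: post = u ∧ pre.length < m ∧
          L pre al = some v ∧ (R be post).isSome)

/-! ### Counting -/

theorem count_step {Om V : Type*} [Fintype Om] [DecidableEq Om] [Fintype V] [DecidableEq V]
    (D : Finset Om) (f : Om → V) (B : Finset (Om → V))
    (hB : ∀ F G : Om → V, (∀ p, p ∉ D → F p = G p) → F ∈ B → G ∈ B) :
    (B.filter (fun F => ¬ ∀ p ∈ D, F p = f p)).card * Fintype.card V ^ D.card
      = B.card * (Fintype.card V ^ D.card - 1) := by
  classical
  have key : B.card = (B.filter (fun F => ∀ p ∈ D, F p = f p)).card * Fintype.card V ^ D.card := by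
    have h1 : (Finset.univ : Finset (D → V)).card = Fintype.card V ^ D.card := by
      simp
    rw [← h1, ← Finset.card_product]
    symm
    refine Finset.card_bij'
      (fun x _ => fun p => if h : p ∈ D then x.2 ⟨p, h⟩ else x.1 p)
      (fun F _ => (fun p => if p ∈ D then f p else F p, fun p => F p.1)) ?_ ?_ ?_ ?_
    · intro x hx
      simp only [Finset.mem_product, Finset.mem_filter] at hx
      refine hB x.1 _ ?_ hx.1.1
      intro p hp
      simp [hp]
    · intro F hF
      simp only [Finset.mem_product, Finset.mem_filter, Finset.mem_univ, and_true]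
      refine ⟨hB F _ ?_ hF, ?_⟩
      · intro p hp
        simp [hp]
      · intro p hp
        simp [hp]
    · intro x hx
      simp only [Finset.mem_product, Finset.mem_filter] at hx
      refine Prod.ext ?_ ?_
      · funext p
        by_cases hp : p ∈ D
        · simp [hp, hx.1.2 p hp]
        · simp [hp]
      · funext p
        simp
    · intro F hF
      funext p
      by_cases hp : p ∈ D
      · simp [hp]
      · simp [hp]
  have hsplit : (B.filter (fun F => ∀ p ∈ D, F p = f p)).card
      + (B.filter (fun F => ¬ ∀ p ∈ D, F p = f p)).card = B.card :=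
    Finset.card_filter_add_card_filter_not _
  set a := (B.filter (fun F => ∀ p ∈ D, F p = f p)).card
  set b := (B.filter (fun F => ¬ ∀ p ∈ D, F p = f p)).card
  set q := Fintype.card V ^ D.card
  rcases Nat.eq_zero_or_pos q with hq | hq
  · rw [hq] at key ⊢
    simp only [Nat.mul_zero] at key ⊢
    rw [key]
  · obtain ⟨q', hq'⟩ : ∃ q', q = q' + 1 := ⟨q - 1, by omega⟩
    rw [hq'] at key ⊢
    simp only [Nat.add_sub_cancel]
    have h2 : a * (q' + 1) = a + b := by omega
    have h3 : b = a * q' := by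
      have : a * (q' + 1) = a * q' + a := by ring
      omega
    rw [key, h3]; ring

theorem count {Om V I : Type*} [Fintype Om] [DecidableEq Om] [Fintype V] [DecidableEq V]
    [Nonempty V] [DecidableEq I]
    (C : ℕ) (J : Finset I) (D : I → Finset Om) (f : I → Om → V)
    (hD : ∀ i ∈ J, ∀ j ∈ J, i ≠ j → Disjoint (D i) (D j)) (hC : ∀ i ∈ J, (D i).card ≤ C) :
    (Finset.univ.filter (fun F : Om → V => ∀ i ∈ J, ¬ ∀ p ∈ D i, F p = f i p)).card
        * (Fintype.card V ^ C) ^ J.card
      ≤ Fintype.card (Om → V) * (Fintype.card V ^ C - 1) ^ J.card := by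
  classical
  induction J using Finset.induction_on with
  | empty => simp
  | @insert i J hi ih =>
    have ih' := ih (fun a ha b hb => hD a (Finset.mem_insert_of_mem ha) b (Finset.mem_insert_of_mem hb))
      (fun a ha => hC a (Finset.mem_insert_of_mem ha))
    set B := Finset.univ.filter (fun F : Om → V => ∀ i ∈ J, ¬ ∀ p ∈ D i, F p = f i p) with hBdef
    have hBinv : ∀ F G : Om → V, (∀ p, p ∉ D i → F p = G p) → F ∈ B → G ∈ B := by
      intro F G hFG hF
      simp only [hBdef, Finset.mem_filter, Finset.mem_univ, true_and] at hF ⊢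
      intro j hj hall
      apply hF j hj
      intro p hp
      have hdis := hD j (Finset.mem_insert_of_mem hj) i (Finset.mem_insert_self _ _)
        (fun h => hi (h ▸ hj))
      have hpi : p ∉ D i := fun h => (Finset.disjoint_left.mp hdis) hp h
      rw [hFG p hpi]
      exact hall p hp
    have hstep := count_step (D i) (f i) B hBinv
    have hset : (Finset.univ.filter (fun F : Om → V => ∀ k ∈ insert i J, ¬ ∀ p ∈ D k, F p = f k p))
        = B.filter (fun F => ¬ ∀ p ∈ D i, F p = f i p) := by
      ext F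
      simp only [hBdef, Finset.mem_filter, Finset.mem_univ, true_and, Finset.forall_mem_insert]
      tauto
    rw [hset, Finset.card_insert_of_notMem hi, pow_succ, pow_succ]
    set b := (B.filter (fun F => ¬ ∀ p ∈ D i, F p = f i p)).card
    have hd := hC i (Finset.mem_insert_self _ _)
    have hq1 : 0 < Fintype.card V := Fintype.card_pos
    set q := Fintype.card V
    have hle : b * q ^ C ≤ B.card * (q ^ C - 1) := by
      have h1 : q ^ C = q ^ (D i).card * q ^ (C - (D i).card) := by
        rw [← pow_add]; congr 1; omega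
      have h2 : b * q ^ C = B.card * ((q ^ (D i).card - 1) * q ^ (C - (D i).card)) := by
        rw [h1, ← mul_assoc, hstep, mul_assoc]
      rw [h2]
      apply Nat.mul_le_mul_left
      rw [Nat.sub_mul, one_mul, ← h1]
      have : 0 < q ^ (C - (D i).card) := Nat.pow_pos hq1
      omega
    calc b * ((q ^ C) ^ J.card * q ^ C) = (b * q ^ C) * (q ^ C) ^ J.card := by ring
      _ ≤ (B.card * (q ^ C - 1)) * (q ^ C) ^ J.card := Nat.mul_le_mul_right _ hle
      _ = (B.card * (q ^ C) ^ J.card) * (q ^ C - 1) := by ring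
      _ ≤ (Fintype.card (Om → V) * (q ^ C - 1) ^ J.card) * (q ^ C - 1) :=
          Nat.mul_le_mul_right _ ih'
      _ = _ := by ring

/-! ### The choice of the parameters -/

theorem big (A L Q : ℕ) (hQ : 0 < Q) :
    ∃ m : ℕ, 0 < m ∧ A * (L * m + 1) ^ 3 * (Q - 1) ^ m < Q ^ m := by
  set r : ℝ := ((Q - 1 : ℕ) : ℝ) / Q with hr
  have hQr : (0 : ℝ) < Q := by exact_mod_cast hQ
  have hr0 : 0 ≤ r := by positivity
  have hr1 : r < 1 := by
    rw [hr, div_lt_one hQr]
    exact_mod_cast Nat.sub_lt hQ Nat.one_pos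
  have ht := tendsto_pow_const_mul_const_pow_of_abs_lt_one 3 (r := r) (by rwa [abs_of_nonneg hr0])
  have ht2 : Filter.Tendsto (fun n : ℕ => ((A : ℝ) * (L + 1) ^ 3) * ((n : ℝ) ^ 3 * r ^ n))
      Filter.atTop (nhds (((A : ℝ) * (L + 1) ^ 3) * 0)) := ht.const_mul _
  rw [mul_zero] at ht2
  have hev := (ht2.eventually (gt_mem_nhds (show (0 : ℝ) < 1 by norm_num))).and
    (Filter.eventually_gt_atTop 0)
  obtain ⟨m, hm, hm0⟩ := hev.exists
  refine ⟨m, hm0, ?_⟩
  have hm1 : (1 : ℝ) ≤ m := by exact_mod_cast hm0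
  have h1 : ((L : ℝ) * m + 1) ≤ (L + 1) * m := by nlinarith
  have h2 : ((L : ℝ) * m + 1) ^ 3 ≤ (L + 1) ^ 3 * m ^ 3 := by
    rw [← mul_pow]; gcongr
  have h3 : (A : ℝ) * (L * m + 1) ^ 3 * r ^ m < 1 := by
    calc (A : ℝ) * (L * m + 1) ^ 3 * r ^ m ≤ A * ((L + 1) ^ 3 * m ^ 3) * r ^ m := by gcongr
      _ = ((A : ℝ) * (L + 1) ^ 3) * ((m : ℝ) ^ 3 * r ^ m) := by ring
      _ < 1 := hm
  have h4 : (A : ℝ) * (L * m + 1) ^ 3 * ((Q - 1 : ℕ) : ℝ) ^ m < (Q : ℝ) ^ m := by
    have h5 : r ^ m = ((Q - 1 : ℕ) : ℝ) ^ m / (Q : ℝ) ^ m := by rw [hr, div_pow]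
    rw [h5, ← mul_div_assoc, div_lt_one (by positivity)] at h3
    exact h3
  exact_mod_cast h4

theorem sidon {a b c d : ℕ} (h : 3 ^ a + 3 ^ b = 3 ^ c + 3 ^ d) :
    (a = c ∧ b = d) ∨ (a = d ∧ b = c) := by
  have hlt : ∀ x y : ℕ, x < y → 3 * 3 ^ x ≤ 3 ^ y := by
    intro x y hxy
    calc 3 * 3 ^ x = 3 ^ (x + 1) := by ring
      _ ≤ 3 ^ y := Nat.pow_le_pow_right (by norm_num) hxy
  have hpos : ∀ x : ℕ, 0 < 3 ^ x := fun x => Nat.pow_pos (by norm_num)
  have hinj : ∀ x y : ℕ, 3 ^ x = 3 ^ y → x = y := fun x y hxy =>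
    Nat.pow_right_injective (by norm_num : 2 ≤ 3) hxy
  have pa := hpos a
  have pb := hpos b
  have pc := hpos c
  have pd := hpos d
  rcases lt_trichotomy a c with hac | hac | hac
  · have h1 := hlt a c hac
    rcases lt_trichotomy b c with hbc | hbc | hbc
    · have h2 := hlt b c hbc
      omega
    · subst hbc
      right
      exact ⟨hinj a d (by omega), rfl⟩
    · have h2 := hlt c b hbc
      rcases lt_trichotomy b d with hbd | hbd | hbd
      · have h3 := hlt b d hbd
        omega
      · subst hbd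
        omega
      · have h3 := hlt d b hbd
        omega
  · subst hac
    left
    exact ⟨rfl, hinj b d (by omega)⟩
  · have h1 := hlt c a hac
    rcases lt_trichotomy a d with had | had | had
    · have h2 := hlt a d had
      rcases lt_trichotomy b d with hbd | hbd | hbd
      · have h3 := hlt b d hbd
        omega
      · subst hbd
        omega
      · have h3 := hlt d b hbd
        omega
    · subst had
      right
      exact ⟨rfl, hinj b c (by omega)⟩
    · have h2 := hlt d a had
      omega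

theorem gen {K m L i j a b c d : ℕ} (ha : a < K) (hb : b < K) (hc : c < K) (hd : d < K)
    (hab : a ≠ b) (hcd : c ≠ d) (hm : 0 < m) (hL : (3 ^ (K + 1)).factorial ∣ L) (hL0 : 0 < L)
    (hij : i < j + m) (hji : j < i + m)
    (h : (((L * m + 1) ^ 2 : ℕ) : ℤ) ∣
      (1 + (i : ℤ) * (L * m + 1 : ℕ)) * (3 ^ a - 3 ^ b) - (1 + (j : ℤ) * (L * m + 1 : ℕ)) * (3 ^ c - 3 ^ d)) :
    i = j ∧ a = c ∧ b = d := by
  set M : ℕ := L * m + 1 with hM
  have hpow : ∀ x : ℕ, x < K → (3 : ℤ) ^ x * 3 ≤ 3 ^ K := by
    intro x hx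
    calc (3 : ℤ) ^ x * 3 = 3 ^ (x + 1) := by ring
      _ ≤ 3 ^ K := pow_le_pow_right₀ (by norm_num) hx
  have hpos : ∀ x : ℕ, (0 : ℤ) < 3 ^ x := fun x => by positivity
  have hLbig : 3 ^ (K + 1) ≤ L := le_trans (Nat.self_le_factorial _) (Nat.le_of_dvd hL0 hL)
  have hMbig : (3 : ℤ) ^ (K + 1) < M := by
    have : 3 ^ (K + 1) < M := by
      have : L ≤ L * m := Nat.le_mul_of_pos_right _ hm
      omega
    exact_mod_cast this
  have hK1 : (3 : ℤ) ^ (K + 1) = 3 * 3 ^ K := by ring
  have hdvd : ((M : ℕ) : ℤ) ∣ (3 ^ a - 3 ^ b) - (3 ^ c - 3 ^ d) := by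
    have h1 : ((M : ℕ) : ℤ) ∣ ((M ^ 2 : ℕ) : ℤ) := by
      push_cast
      exact Dvd.intro_left (M : ℤ) (by ring)
    have h2 := h1.trans h
    have h3 : (1 + (i : ℤ) * (M : ℕ)) * (3 ^ a - 3 ^ b) - (1 + (j : ℤ) * (M : ℕ)) * (3 ^ c - 3 ^ d)
        = ((3 ^ a - 3 ^ b) - (3 ^ c - 3 ^ d)) + (M : ℤ) * (i * (3 ^ a - 3 ^ b) - j * (3 ^ c - 3 ^ d)) := by
      ring
    rw [h3] at h2
    exact (Int.dvd_add_left (Dvd.intro _ rfl)).mp h2
  have hzero : ((3 : ℤ) ^ a - 3 ^ b) - (3 ^ c - 3 ^ d) = 0 := by
    apply Int.eq_zero_of_abs_lt_dvd hdvd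
    have := hpow a ha
    have := hpow b hb
    have := hpow c hc
    have := hpow d hd
    have := hpos a
    have := hpos b
    have := hpos c
    have := hpos d
    rw [abs_lt]
    constructor <;> linarith
  have hs : 3 ^ a + 3 ^ d = 3 ^ c + 3 ^ b := by
    have : (3 : ℤ) ^ a + 3 ^ d = 3 ^ c + 3 ^ b := by linarith
    exact_mod_cast this
  have hac : a = c ∧ d = b := by
    rcases sidon hs with h1 | h1
    · exact h1
    · exact absurd h1.1 hab
  obtain ⟨rfl, rfl⟩ := hac
  refine ⟨?_, rfl, rfl⟩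
  -- now `M ∣ (i - j) * delta`
  have h4 : ((M : ℕ) : ℤ) ∣ ((i : ℤ) - j) * (3 ^ a - 3 ^ d) := by
    have h5 : (1 + (i : ℤ) * (M : ℕ)) * (3 ^ a - 3 ^ d) - (1 + (j : ℤ) * (M : ℕ)) * (3 ^ a - 3 ^ d)
        = (M : ℤ) * (((i : ℤ) - j) * (3 ^ a - 3 ^ d)) := by ring
    rw [h5] at h
    have h6 : ((M ^ 2 : ℕ) : ℤ) = (M : ℤ) * M := by push_cast; ring
    rw [h6] at h
    have hM0 : (M : ℤ) ≠ 0 := by
      have : 0 < M := by omega
      exact_mod_cast this.ne'
    exact Int.dvd_of_mul_dvd_mul_left hM0 h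
  have hcop : IsCoprime ((M : ℕ) : ℤ) (3 ^ a - 3 ^ d) := by
    have h7 : ((3 : ℤ) ^ a - 3 ^ d).natAbs ∣ L := by
      refine dvd_trans ?_ hL
      apply Nat.dvd_factorial
      · rw [Int.natAbs_pos]
        intro h8
        have h9 : (3 : ℤ) ^ a = 3 ^ d := by linarith
        have h10 : 3 ^ a = 3 ^ d := by exact_mod_cast h9
        exact hab (Nat.pow_right_injective (by norm_num : 2 ≤ 3) h10)
      · have := hpow a ha
        have := hpow d hd
        have := hpos a
        have := hpos d
        have h11 : |(3 : ℤ) ^ a - 3 ^ d| ≤ 3 ^ (K + 1) := by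
          rw [abs_le]; constructor <;> linarith
        have h12 : (((3 : ℤ) ^ a - 3 ^ d).natAbs : ℤ) ≤ ((3 ^ (K + 1) : ℕ) : ℤ) := by
          rw [Int.natCast_natAbs]; push_cast; exact h11
        exact_mod_cast h12
    rw [Int.isCoprime_iff_gcd_eq_one]
    have h13 : Nat.Coprime M ((3 : ℤ) ^ a - 3 ^ d).natAbs := by
      apply Nat.Coprime.coprime_dvd_right h7
      rw [hM]
      simp
    simpa [Int.gcd] using h13
  have h14 : ((M : ℕ) : ℤ) ∣ (i : ℤ) - j := hcop.dvd_of_dvd_mul_right h4
  have h15 : (i : ℤ) - j = 0 := by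
    apply Int.eq_zero_of_abs_lt_dvd h14
    have : m ≤ M := by
      have : m ≤ L * m := Nat.le_mul_of_pos_left _ hL0
      omega
    rw [abs_lt]
    constructor <;> omega
  omega

/-! ### The random function -/

section good

variable {S V : Type*} [Monoid S] [AddCommGroup V] {n1 n2 W : ℕ}

/-- Phase `c` is good for the total type `(s, w)` and the token `v`. -/
def Good (beta : V → S → V) (cs : S → ZMod n1) (cv : V → ZMod n2)
    (e : S × (ZMod n1 × ZMod n2) → ZMod W) (F : S × ZMod W → V)
    (c : ZMod W) (s : S) (w : ZMod W) (v : V) : Prop :=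
  ∀ (g z h : S) (x : ZMod n1 × ZMod n2), g * z * h = s → ∀ (g1 : S) (v1 : V) (z1 : S),
    F (g1 * z1 * h, w - c * e (z, x) + c * e (z1, (x.1 - cs g + cs g1, x.2 - cv v + cv v1)))
      + beta v1 (g1 * z1 * h) = F (s, w) + beta v s

/-- Separation: phases `c k j` (`j < m`), weights `e`. -/
def Sep (m : ℕ) (e : S × (ZMod n1 × ZMod n2) → ZMod W) (c : ℕ → ℕ → ZMod W) : Prop :=
  ∀ k i j, i < m → j < m → ∀ a b a' b', a ≠ b → a' ≠ b' →
    c k i * (e a - e b) = c k j * (e a' - e b') → i = j ∧ a = a' ∧ b = b'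

theorem exists_good [Finite S] [Finite V] [NeZero n1] [NeZero n2] [NeZero W]
    (beta : V → S → V) (cs : S → ZMod n1) (hcs : Function.Injective cs)
    (cv : V → ZMod n2) (hcv : Function.Injective cv)
    (m P : ℕ) (e : S × (ZMod n1 × ZMod n2) → ZMod W) (c : ℕ → ℕ → ZMod W)
    (hsep : Sep m e c)
    (hnum : (Nat.card S * W * Nat.card V * P * Nat.card V) *
      ((Nat.card V) ^ (Nat.card (S × S × S × (ZMod n1 × ZMod n2) × S × V × S)) - 1) ^ m
        < (Nat.card V ^ (Nat.card (S × S × S × (ZMod n1 × ZMod n2) × S × V × S))) ^ m) :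
    ∃ F : S × ZMod W → V, ∀ s w v (k : Fin P), ∃ j, j < m ∧ Good beta cs cv e F (c k j) s w v := by
  classical
  haveI := Fintype.ofFinite S
  haveI := Fintype.ofFinite V
  set Dm := S × S × S × (ZMod n1 × ZMod n2) × S × V × S
  let zeta : Dm → S × (ZMod n1 × ZMod n2) := fun d => (d.2.1, d.2.2.2.1)
  let zeta1 : V → Dm → S × (ZMod n1 × ZMod n2) := fun v d =>
    (d.2.2.2.2.2.2, (d.2.2.2.1.1 - cs d.1 + cs d.2.2.2.2.1, d.2.2.2.1.2 - cv v + cv d.2.2.2.2.2.1))
  let pr : Dm → S := fun d => d.2.2.2.2.1 * d.2.2.2.2.2.2 * d.2.2.1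
  let A : S → V → Finset Dm := fun s v =>
    Finset.univ.filter (fun d => d.1 * d.2.1 * d.2.2.1 = s ∧ zeta1 v d ≠ zeta d)
  let pt : ZMod W → V → ZMod W → Dm → S × ZMod W := fun w v cc d =>
    (pr d, w - cc * e (zeta d) + cc * e (zeta1 v d))
  let val : S → V → V → Dm → V := fun s v y d => y + beta v s - beta d.2.2.2.2.2.1 (pr d)
  let DD : S → ZMod W → V → ℕ → ℕ → Finset (S × ZMod W) := fun s w v k j =>
    (A s v).image (pt w v (c k j))
  let ff : S → ZMod W → V → ℕ → V → ℕ → (S × ZMod W) → V := fun s w v k y j p =>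
    if h : ∃ d ∈ A s v, pt w v (c k j) d = p then val s v y h.choose else 0
  let Bad : (S × ZMod W × V × Fin P × V) → Finset ((S × ZMod W) → V) := fun x =>
    Finset.univ.filter (fun F => ∀ j ∈ Finset.range m,
      ¬ ∀ p ∈ DD x.1 x.2.1 x.2.2.1 x.2.2.2.1 j, F p = ff x.1 x.2.1 x.2.2.1 x.2.2.2.1 x.2.2.2.2 j p)
  set C := Fintype.card Dm with hC
  have hqpos : 0 < Fintype.card V := Fintype.card_pos
  have hcount : ∀ x, (Bad x).card * (Fintype.card V ^ C) ^ m
      ≤ Fintype.card ((S × ZMod W) → V) * (Fintype.card V ^ C - 1) ^ m := by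
    intro x
    have := count (Om := S × ZMod W) (V := V) (I := ℕ) C (Finset.range m)
      (fun j => DD x.1 x.2.1 x.2.2.1 x.2.2.2.1 j)
      (fun j => ff x.1 x.2.1 x.2.2.1 x.2.2.2.1 x.2.2.2.2 j) ?_ ?_
    · simpa [Bad] using this
    · intro i hi j hj hij
      rw [Finset.disjoint_left]
      intro p hp hp'
      simp only [DD, A, Finset.mem_image, Finset.mem_filter, Finset.mem_univ, true_and] at hp hp'
      obtain ⟨d, ⟨hd1, hd2⟩, hd3⟩ := hp
      obtain ⟨d', ⟨hd1', hd2'⟩, hd3'⟩ := hp'
      have h1 : c x.2.2.2.1 i * (e (zeta1 x.2.2.1 d) - e (zeta d))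
          = c x.2.2.2.1 j * (e (zeta1 x.2.2.1 d') - e (zeta d')) := by
        have h2 : (pt x.2.1 x.2.2.1 (c x.2.2.2.1 i) d).2 = (pt x.2.1 x.2.2.1 (c x.2.2.2.1 j) d').2 := by
          rw [hd3, hd3']
        simp only [pt] at h2
        linear_combination h2
      exact hij (hsep _ i j (Finset.mem_range.mp hi) (Finset.mem_range.mp hj) _ _ _ _ hd2 hd2' h1).1
    · intro i hi
      refine le_trans Finset.card_image_le ?_
      exact Finset.card_le_univ _
  have hlt : (Finset.univ.biUnion Bad).card < (Finset.univ : Finset ((S × ZMod W) → V)).card := by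
    refine lt_of_le_of_lt Finset.card_biUnion_le ?_
    have hQ : 0 < (Fintype.card V ^ C) ^ m := Nat.pow_pos (Nat.pow_pos hqpos)
    refine lt_of_mul_lt_mul_right ?_ hQ.le
    rw [Finset.sum_mul]
    calc ∑ x, (Bad x).card * (Fintype.card V ^ C) ^ m
        ≤ ∑ _x : (S × ZMod W × V × Fin P × V),
            Fintype.card ((S × ZMod W) → V) * (Fintype.card V ^ C - 1) ^ m :=
          Finset.sum_le_sum (fun x _ => hcount x)
      _ = Fintype.card ((S × ZMod W) → V) *
            ((Fintype.card S * W * Fintype.card V * P * Fintype.card V)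
              * (Fintype.card V ^ C - 1) ^ m) := by
          rw [Finset.sum_const, Finset.card_univ, smul_eq_mul]
          simp only [Fintype.card_prod, ZMod.card, Fintype.card_fin]
          ring
      _ < Fintype.card ((S × ZMod W) → V) * (Fintype.card V ^ C) ^ m := by
          apply Nat.mul_lt_mul_of_pos_left _ Fintype.card_pos
          simpa only [Nat.card_eq_fintype_card] using hnum
      _ = _ := by rw [Finset.card_univ]
  obtain ⟨F, -, hF⟩ := Finset.exists_mem_notMem_of_card_lt_card hlt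
  refine ⟨F, ?_⟩
  intro s w v k
  have hnb : F ∉ Bad (s, w, v, k, F (s, w)) := by
    intro h
    exact hF (Finset.mem_biUnion.mpr ⟨_, Finset.mem_univ _, h⟩)
  simp only [Bad, Finset.mem_filter, Finset.mem_univ, true_and] at hnb
  push Not at hnb
  obtain ⟨j, hj, hall⟩ := hnb
  refine ⟨j, Finset.mem_range.mp hj, ?_⟩
  intro g z h x hgzh g1 v1 z1
  by_cases hz : zeta1 v (g, z, h, x, g1, v1, z1) = zeta (g, z, h, x, g1, v1, z1)
  · simp only [zeta1, zeta, Prod.mk.injEq] at hz
    obtain ⟨hz1, hz2⟩ := hz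
    have hx1 : cs g1 = cs g := by
      have := congrArg Prod.fst hz2
      simp only at this
      linear_combination this
    have hx2 : cv v1 = cv v := by
      have := congrArg Prod.snd hz2
      simp only at this
      linear_combination this
    have e1 := hcs hx1
    have e2 := hcv hx2
    subst e1 e2 hz1
    rw [hgzh]
    simp
  · set d : Dm := (g, z, h, x, g1, v1, z1) with hd
    have hdA : d ∈ A s v := by
      simp only [A, Finset.mem_filter, Finset.mem_univ, true_and]
      exact ⟨hgzh, hz⟩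
    have hp : pt w v (c k j) d ∈ DD s w v k j := Finset.mem_image_of_mem _ hdA
    have hFp := hall _ hp
    have hex : ∃ d' ∈ A s v, pt w v (c k j) d' = pt w v (c k j) d := ⟨d, hdA, rfl⟩
    simp only [ff] at hFp
    rw [dif_pos hex] at hFp
    obtain ⟨hc1, hc2⟩ := hex.choose_spec
    set d' := hex.choose with hd'
    have hvv : d'.2.2.2.2.2.1 = v1 ∧ pr d' = pr d := by
      have hfst : pr d' = pr d := congrArg Prod.fst hc2
      have hsnd : c k j * (e (zeta1 v d') - e (zeta d')) = c k j * (e (zeta1 v d) - e (zeta d)) := by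
        have h2 := congrArg Prod.snd hc2
        simp only [pt] at h2
        linear_combination h2
      simp only [A, Finset.mem_filter, Finset.mem_univ, true_and] at hc1
      have h3 := hsep k j j (Finset.mem_range.mp hj) (Finset.mem_range.mp hj) _ _ _ _ hc1.2 hz hsnd
      refine ⟨?_, hfst⟩
      have h4 := h3.2.1
      have h5 := h3.2.2
      simp only [zeta1, zeta, Prod.mk.injEq] at h4 h5
      have h6 := congrArg Prod.snd h5.2
      apply hcv
      have h7 := h4.2.2
      rw [h6] at h7
      linear_combination h7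
    simp only [val] at hFp
    rw [hvv.1, hvv.2] at hFp
    have hpteq : pt w v (c k j) d = (g1 * z1 * h, w - c k j * e (z, x)
        + c k j * e (z1, (x.1 - cs g + cs g1, x.2 - cv v + cv v1))) := rfl
    rw [hpteq] at hFp
    rw [hFp]
    simp only [pr, hd]
    abel

end good

/-! ### The gadget -/

section final

variable {S V : Type*} [Monoid S] [AddCommGroup V]

theorem prd_append {C : Type*} (u w : List (S × C)) : prd (u ++ w) = prd u * prd w := by
  simp [prd]

theorem prd_cons {C : Type*} (a : S × C) (w : List (S × C)) : prd (a :: w) = a.1 * prd w := by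
  simp [prd]

/-- The total weight of a list of blocks (frame of the right end). -/
def Wt {S C A : Type*} [CommRing A] (tau : A) (f : S × C → A) : List (S × C) → A
  | [] => 0
  | b :: u => tau ^ u.length * f b + Wt tau f u

theorem Wt_append {C A : Type*} [CommRing A] (tau : A) (f : S × C → A) (u w : List (S × C)) :
    Wt tau f (u ++ w) = tau ^ w.length * Wt tau f u + Wt tau f w := by
  induction u with
  | nil => simp [Wt]
  | cons b u ih =>
    simp only [List.cons_append, Wt, ih, List.length_append]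
    ring

theorem tau_pow (M i : ℕ) : (1 + (M : ZMod (M ^ 2))) ^ i = 1 + (i : ZMod (M ^ 2)) * M := by
  have hM : (M : ZMod (M ^ 2)) * M = 0 := by
    have := ZMod.natCast_self (M ^ 2)
    push_cast at this
    rw [← this]; ring
  induction i with
  | zero => simp
  | succ i ih =>
    have h1 : (1 + (M : ZMod (M ^ 2))) ^ (i + 1)
        = (1 + (M : ZMod (M ^ 2))) ^ i * (1 + (M : ZMod (M ^ 2))) := pow_succ _ _
    rw [h1, ih]
    push_cast
    linear_combination (i : ZMod (M ^ 2)) * hM

theorem gadget [Finite S] [Finite V] (beta : V → S → V) : Gadget S V beta := by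
  classical
  have hnS : 0 < Nat.card S := Nat.card_pos
  have hnV : 0 < Nat.card V := Nat.card_pos
  obtain ⟨n1, hn1⟩ : ∃ n1, n1 = Nat.card S := ⟨_, rfl⟩
  obtain ⟨n2, hn2⟩ : ∃ n2, n2 = n1 * Nat.card V + 1 := ⟨_, rfl⟩
  have hn1pos : 0 < n1 := by omega
  have hn2pos : 0 < n2 := by omega
  haveI : NeZero n1 := ⟨hn1pos.ne'⟩
  haveI : NeZero n2 := ⟨hn2pos.ne'⟩
  obtain ⟨cs⟩ : Nonempty (S ↪ ZMod n1) := by
    haveI := Fintype.ofFinite S
    apply Function.Embedding.nonempty_of_card_le
    rw [ZMod.card, hn1, Nat.card_eq_fintype_card]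
  obtain ⟨cv⟩ : Nonempty (V ↪ ZMod n2) := by
    haveI := Fintype.ofFinite V
    apply Function.Embedding.nonempty_of_card_le
    rw [ZMod.card, hn2, ← Nat.card_eq_fintype_card]
    have : Nat.card V ≤ n1 * Nat.card V := Nat.le_mul_of_pos_left _ hn1pos
    omega
  obtain ⟨K, hK⟩ : ∃ K, K = Nat.card (S × (ZMod n1 × ZMod n2)) := ⟨_, rfl⟩
  obtain ⟨iota⟩ : Nonempty (S × (ZMod n1 × ZMod n2) ≃ Fin K) := by
    rw [hK]; exact ⟨Finite.equivFin _⟩
  obtain ⟨Q, hQ⟩ : ∃ Q, Q = Nat.card V ^ (Nat.card (S × S × S × (ZMod n1 × ZMod n2) × S × V × S)) :=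
    ⟨_, rfl⟩
  have hQpos : 0 < Q := by rw [hQ]; exact Nat.pow_pos hnV
  obtain ⟨L, hL⟩ : ∃ L, L = n1 * n2 * (3 ^ (K + 1)).factorial := ⟨_, rfl⟩
  have hLpos : 0 < L := by
    rw [hL]
    exact Nat.mul_pos (Nat.mul_pos hn1pos hn2pos) (Nat.factorial_pos _)
  obtain ⟨m, hm0, hm⟩ := big (Nat.card S * Nat.card V * Nat.card V) L Q hQpos
  obtain ⟨M, hM⟩ : ∃ M, M = L * m + 1 := ⟨_, rfl⟩
  have hMpos : 0 < M := by omega
  obtain ⟨W, hW⟩ : ∃ W, W = M ^ 2 := ⟨_, rfl⟩
  have hWpos : 0 < W := by rw [hW]; exact Nat.pow_pos hMpos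
  haveI : NeZero W := ⟨hWpos.ne'⟩
  let tau : ZMod W := 1 + (M : ZMod W)
  have htau : ∀ i : ℕ, tau ^ i = 1 + (i : ZMod W) * M := by
    intro i
    simp only [tau]
    subst hW
    exact tau_pow M i
  let c : ℕ → ℕ → ZMod W := fun k j => tau ^ (k + j)
  let e : S × (ZMod n1 × ZMod n2) → ZMod W := fun z => (3 : ZMod W) ^ ((iota z : Fin K) : ℕ)
  have hsep : Sep m e c := by
    intro k i j hi hj a b a' b' hab hab' h
    simp only [c, e, htau] at h
    have hh : (((M ^ 2 : ℕ) : ℤ)) ∣
        (1 + ((k + i : ℕ) : ℤ) * (M : ℕ)) * (3 ^ ((iota a : Fin K) : ℕ) - 3 ^ ((iota b : Fin K) : ℕ))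
        - (1 + ((k + j : ℕ) : ℤ) * (M : ℕ))
          * (3 ^ ((iota a' : Fin K) : ℕ) - 3 ^ ((iota b' : Fin K) : ℕ)) := by
      rw [← hW, ← ZMod.intCast_zmod_eq_zero_iff_dvd]
      push_cast
      push_cast at h
      linear_combination h
    rw [hM] at hh
    have hg := gen (K := K) (iota a).2 (iota b).2 (iota a').2 (iota b').2
      (fun hx => hab (iota.injective (Fin.ext hx))) (fun hx => hab' (iota.injective (Fin.ext hx)))
      hm0 (by rw [hL]; exact Dvd.intro_left _ rfl) hLpos (by omega) (by omega) hh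
    exact ⟨by omega, iota.injective (Fin.ext hg.2.1), iota.injective (Fin.ext hg.2.2)⟩
  obtain ⟨F, hF⟩ := exists_good beta cs cs.injective cv cv.injective m M e c hsep (by
    rw [← hQ]
    refine lt_of_eq_of_lt ?_ hm
    rw [hW, ← hM]; ring)
  have hcop : W.Coprime (n1 * n2) := by
    rw [hW]
    apply Nat.Coprime.pow_left
    have : n1 * n2 ∣ L := by rw [hL]; exact Dvd.intro _ rfl
    have h2 : Nat.Coprime M L := by rw [hM]; simp
    exact Nat.Coprime.coprime_dvd_right this h2
  have hcop2 : n1.Coprime n2 := by rw [hn2]; simp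
  let psi := ZMod.chineseRemainder hcop
  let psi2 := ZMod.chineseRemainder hcop2
  let pW : ZMod (W * (n1 * n2)) → ZMod W := fun t => (psi t).1
  let p1 : ZMod (W * (n1 * n2)) → ZMod n1 := fun t => (psi2 (psi t).2).1
  let p2 : ZMod (W * (n1 * n2)) → ZMod n2 := fun t => (psi2 (psi t).2).2
  have pWadd : ∀ a b, pW (a + b) = pW a + pW b := by intro a b; simp [pW]
  have p1add : ∀ a b, p1 (a + b) = p1 a + p1 b := by intro a b; simp [p1]
  have p2add : ∀ a b, p2 (a + b) = p2 a + p2 b := by intro a b; simp [p2]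
  have psurj : ∀ x y z, ∃ t, pW t = x ∧ p1 t = y ∧ p2 t = z := by
    intro x y z
    refine ⟨psi.symm (x, psi2.symm (y, z)), ?_, ?_, ?_⟩
    · simp [pW]
    · simp [p1]
    · simp [p2]
  let fb : S × ZMod (W * (n1 * n2)) → ZMod W := fun b => e (b.1, (p1 b.2, p2 b.2)) - pW b.2
  let wt : List (S × ZMod (W * (n1 * n2))) → ZMod W := Wt tau fb
  let LL : List (S × ZMod (W * (n1 * n2))) → ZMod (W * (n1 * n2)) → Option V := fun pre al =>
    if h : ∃ v, pW al = tau * wt pre ∧ p1 al = cs (prd pre) ∧ p2 al = cv v then some h.choose else none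
  let RP : ZMod (W * (n1 * n2)) → List (S × ZMod (W * (n1 * n2))) → V → Prop := fun be post r =>
    ∀ g v z, F (g * z * prd post, wt post - tau ^ post.length * pW be
      + tau ^ post.length * e (z, (cs g + p1 be, cv v + p2 be))) + beta v (g * z * prd post) = r
  let RR : ZMod (W * (n1 * n2)) → List (S × ZMod (W * (n1 * n2))) → Option V := fun be post =>
    if h : ∃ r, RP be post r then some h.choose else none
  have hLL : ∀ pre al v, LL pre al = some v →
      pW al = tau * wt pre ∧ p1 al = cs (prd pre) ∧ p2 al = cv v := by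
    intro pre al v h
    simp only [LL] at h
    split_ifs at h with hx
    have := hx.choose_spec
    rw [Option.some.injEq] at h
    rw [h] at this
    exact this
  have hLL' : ∀ pre al v, pW al = tau * wt pre → p1 al = cs (prd pre) → p2 al = cv v →
      LL pre al = some v := by
    intro pre al v h1 h2 h3
    have hx : ∃ v, pW al = tau * wt pre ∧ p1 al = cs (prd pre) ∧ p2 al = cv v := ⟨v, h1, h2, h3⟩
    simp only [LL]
    rw [dif_pos hx]
    have h4 : v = hx.choose := cv.injective (h3.symm.trans hx.choose_spec.2.2)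
    exact congrArg some h4.symm
  have hRR : ∀ be post r, RR be post = some r → RP be post r := by
    intro be post r h
    simp only [RR] at h
    split_ifs at h with hx
    have := hx.choose_spec
    rw [Option.some.injEq] at h
    rw [h] at this
    exact this
  have hwt : ∀ pre z t post, wt (pre ++ (z, t) :: post)
      = tau ^ post.length * (tau * wt pre) + tau ^ post.length * (e (z, (p1 t, p2 t)) - pW t)
        + wt post := by
    intro pre z t post
    simp only [wt]
    rw [Wt_append]
    simp only [Wt, List.length_cons, fb]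
    ring
  refine ⟨m, W * (n1 * n2), Nat.mul_pos hWpos (Nat.mul_pos hn1pos hn2pos), LL, RR,
    fun u => F (prd u, wt u), ?_, ?_⟩
  · intro pre post z al be v r hL1 hR1
    obtain ⟨h1, h2, h3⟩ := hLL _ _ _ hL1
    have h4 := hRR _ _ _ hR1 (prd pre) v z
    rw [← h2, ← h3, ← p1add, ← p2add] at h4
    have h5 : prd (pre ++ (z, al + be) :: post) = prd pre * z * prd post := by
      rw [prd_append, prd_cons, mul_assoc]
    show r = beta v (prd (pre ++ (z, al + be) :: post))
      + F (prd (pre ++ (z, al + be) :: post), wt (pre ++ (z, al + be) :: post))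
    rw [h5, hwt, pWadd]
    rw [← h4, add_comm]
    congr 2
    rw [Prod.mk.injEq]
    refine ⟨rfl, ?_⟩
    rw [h1]
    ring
  · intro u v hu
    -- the phases of the first `m` blocks
    obtain ⟨j, hj, hgood⟩ := hF (prd u) (wt u) v
      ⟨(u.length - m) % M, Nat.mod_lt _ hMpos⟩
    have hcc : c ((u.length - m) % M) j = tau ^ (u.length - m + j) := by
      simp only [c, htau]
      have h1 : (((u.length - m : ℕ) : ZMod W)) * M = (((u.length - m) % M : ℕ) : ZMod W) * M := by
        have h2 := Nat.div_add_mod (u.length - m) M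
        have hMM : (M : ZMod W) * M = 0 := by
          have := ZMod.natCast_self W
          rw [hW] at this ⊢
          push_cast at this
          rw [← this]; ring
        conv_lhs => rw [← h2]
        push_cast
        linear_combination (((u.length - m) / M : ℕ) : ZMod W) * hMM
      push_cast
      linear_combination -h1
    have hgood' : Good beta cs cv e F (tau ^ (u.length - m + j)) (prd u) (wt u) v := by
      rw [← hcc]; exact hgood
    -- the block at index `m - 1 - j`
    have hidx : m - 1 - j < u.length := by omega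
    obtain ⟨pre, b, post, hub, hprel⟩ : ∃ pre b post, u = pre ++ b :: post ∧ pre.length = m - 1 - j := by
      refine ⟨u.take (m - 1 - j), u[m - 1 - j], u.drop (m - 1 - j + 1), ?_, ?_⟩
      · rw [List.getElem_cons_drop, List.take_append_drop]
      · rw [List.length_take]; omega
    obtain ⟨z, t⟩ := b
    obtain ⟨al, ha1, ha2, ha3⟩ := psurj (tau * wt pre) (cs (prd pre)) (cv v)
    have hpl : post.length = u.length - m + j := by
      have := congrArg List.length hub
      simp only [List.length_append, List.length_cons] at this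
      omega
    refine ⟨pre, post, z, al, t - al, ?_, by omega, hLL' _ _ _ ha1 ha2 ha3, ?_⟩
    · rw [hub]; congr 3; ring
    · have hRP : RP (t - al) post (F (prd u, wt u) + beta v (prd u)) := by
        intro g1 v1 z1
        have ht : al + (t - al) = t := by ring
        have e0 : pW t = pW al + pW (t - al) := by rw [← pWadd, ht]
        have e1 : p1 t = p1 al + p1 (t - al) := by rw [← p1add, ht]
        have e2 : p2 t = p2 al + p2 (t - al) := by rw [← p2add, ht]
        have hs : prd pre * z * prd post = prd u := by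
          rw [hub, prd_append, prd_cons, mul_assoc]
        have h6 := hgood' (prd pre) z (prd post) (p1 t, p2 t) hs g1 v1 z1
        have h7 : wt u = tau ^ post.length * (tau * wt pre)
            + tau ^ post.length * (e (z, (p1 t, p2 t)) - pW t) + wt post := by
          rw [hub]; exact hwt _ _ _ _
        rw [← h6, ← hpl]
        congr 2
        rw [Prod.mk.injEq]
        refine ⟨rfl, ?_⟩
        have h8 : (cs g1 + p1 (t - al), cv v1 + p2 (t - al))
            = (p1 t - cs (prd pre) + cs g1, p2 t - cv v + cv v1) := by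
          rw [Prod.mk.injEq]
          constructor
          · rw [e1, ha2]; ring
          · rw [e2, ha3]; ring
        rw [h8]
        linear_combination -h7 + tau ^ post.length * e0 + tau ^ post.length * ha1
      simp only [RR]
      rw [dif_pos ⟨_, hRP⟩]
      rfl

end final

end Crest.Agent.R320.Gadget_355
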