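import Crest.Agent.R320.CutAut_600
import Crest.Agent.R320.Zone132_898

/-!
# Row 320, wall glue, part 1 (helper428): threshold chain rule, scheme 1

`Ok t := th (t % q) ≤ t`, `Nx T t`: the first outer wall `t` of the text `T` (from an anchor) with `Ok t`.
Zone `X = U ++ Y`, `|U| = p0`, zone map `v ↦ act (act v φ(U) + nu2 U) φ(Y) + nu Y`.
-/

set_option autoImplicit false

namespace Crest.Agent.R320.Geo_428

open Crest.Agent.R320.Zone132_898 Crest.Agent.R320.CutAut_600 Crest.Agent.R320.Star_903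

variable {α S V W : Type*} [Monoid S] [AddCommGroup V] [AddCommGroup W]

/-! ### relational versions of 600's steps -/

section
variable {n : ℕ} {Z : List α → Option (ℕ × (V → V))} {RF : List α → Prop} {B : ℕ}

/-- left-legal states, relational labels -/
def cutLr (L : List α → V → Prop) (B : ℕ) : St α V B → Prop
  | none => False
  | some (P, v) => L P.1 v

theorem rc_succ_rel [Finite α] [Finite V] {m : ℕ} (hZ : ZRule n Z) (hR : RFc Z RF B)
    (C' : St α V B → List α → Prop)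
    (hC : ∀ θ w, C' θ w → Cls Z RF B θ w)
    (hpre : ∀ θ u v, C' θ (u ++ v) → C' θ u)
    (hsuf : ∀ θ u v, C' θ (u ++ v) → C' (run (dlt Z B) θ u) v)
    (L : List α → V → Prop) (R : List α → Option (ℕ × V)) (D : ℕ) (hD : 0 < D)
    (hRD : ∀ r e c, R r = some (e, c) → e ≤ r.length)
    (exact' : ∀ (P : {l : List α // l.length ≤ B}) (v : V) (r : List α) (e : ℕ) (c : V),
      C' (some (P, v)) r → L P.1 v → r.length = D → R r = some (e, c) →
      ∃ t, Z (P.1 ++ r) = some (P.1.length + e, t) ∧ t v = c)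
    (hunc : RC m (dlt Z B) (fun θ w => C' θ w ∧ Uncut (dlt Z B) (cutLr L B) D (rho Z R B) θ w)) :
    RC (m + 1) (dlt Z B) C' := by
  refine nested (dlt Z B) C' hpre hsuf (cutLr L B) D hD (rho Z R B) ?_ hunc
  intro θ r θ' hc hL hlen hρ
  match θ, hc, hL with
  | some (P, v), hc, hL =>
    unfold rho at hρ
    cases hq : R r with
    | none => rw [hq] at hρ; cases hρ
    | some q =>
      obtain ⟨e, c⟩ := q
      rw [hq] at hρ
      have hρ' : run (dlt Z B) (st0 B c) (r.drop e) = θ' := Option.some.inj hρ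
      rw [← hρ']
      exact sound_at hZ hR (hC _ _ hc) (hRD r e c hq) (exact' P v r e c hc hL hlen hq)
  | none, hc, hL => exact hL.elim

end

/-- the geometric data -/
structure Cfg (α S V W : Type*) [Monoid S] [AddCommGroup V] [AddCommGroup W] where
  /-- gadget of scheme 1 on `Y` (the text from `a + p0` to the next anchor) -/
  D : Zone132_898.Data α S V W
  /-- outer wall rule -/
  ro : Rule α
  /-- thresholds, per residue modulo `D.q` -/
  th : ℕ → ℕ
  p0 : ℕ
  N1 : ℕ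
  hp0 : D.q ∣ p0
  hN1 : ∀ i, i < D.m → D.q * (D.lo i + D.M) ≤ N1
  hth : ∀ r, p0 + N1 < th r
  nu2 : List α → V

namespace Cfg

variable (c : Cfg α S V W)

/-- qualified distance -/
def Ok (t : ℕ) : Prop := c.th (t % c.D.q) ≤ t

/-- next anchor -/
def Nx (T : List α) (t : ℕ) : Prop :=
  c.Ok t ∧ c.ro.R (T.drop t) ∧ ∀ t', t' < t → c.Ok t' → ¬ c.ro.R (T.drop t')

theorem Nx.unique {c : Cfg α S V W} {T : List α} {t t' : ℕ} (h : c.Nx T t) (h' : c.Nx T t') : t = t' := by
  rcases lt_trichotomy t t' with h1 | h1 | h1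
  · exact absurd h.2.1 (h'.2.2 t h1 h.1)
  · exact h1
  · exact absurd h'.2.1 (h.2.2 t' h1 h'.1)

theorem Nx.len {c : Cfg α S V W} {T : List α} {t : ℕ} (h : c.Nx T t) : t + c.ro.n ≤ T.length := by
  have h1 := c.ro.len _ h.2.1
  have h2 := c.ro.pos
  rw [List.length_drop] at h1
  omega

theorem Nx.app {c : Cfg α S V W} {T X : List α} {t : ℕ} (h : c.Nx T t) : c.Nx (T ++ X) t := by
  have h1 := h.len
  refine ⟨h.1, (R_left c.ro h1).2 h.2.1, fun t' h2 h3 h4 => h.2.2 t' h2 h3 ?_⟩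
  exact (R_left c.ro (by omega)).1 h4

theorem Nx.of_app {c : Cfg α S V W} {T X : List α} {t : ℕ} (h : c.Nx (T ++ X) t)
    (h1 : t + c.ro.n ≤ T.length) : c.Nx T t := by
  refine ⟨h.1, (R_left c.ro h1).1 h.2.1, fun t' h2 h3 h4 => h.2.2 t' h2 h3 ?_⟩
  exact (R_left c.ro (by omega)).2 h4

theorem Ok.gt {c : Cfg α S V W} {t : ℕ} (h : c.Ok t) : c.p0 + c.N1 < t :=
  lt_of_lt_of_le (c.hth _) h

/-- the zone map -/
noncomputable def zm (X : List α) (v : V) : V :=
  c.D.act (c.D.act v (c.D.phi (X.take c.p0)) + c.nu2 (X.take c.p0)) (c.D.phi (X.drop c.p0))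
    + c.D.nu (X.drop c.p0)

open Classical in
/-- chain rule with zone maps -/
noncomputable def Zf (T : List α) : Option (ℕ × (V → V)) :=
  if h : ∃ t, c.Nx T t then some (h.choose, c.zm (T.take h.choose)) else none

theorem Zf_some {c : Cfg α S V W} {T : List α} {t : ℕ} (h : c.Nx T t) :
    c.Zf T = some (t, c.zm (T.take t)) := by
  classical
  have hex : ∃ t, c.Nx T t := ⟨t, h⟩
  unfold Zf
  rw [dif_pos hex]
  have := hex.choose_spec.unique h
  rw [this]

theorem Zf_inv {c : Cfg α S V W} {T : List α} {d : ℕ} {f : V → V} (h : c.Zf T = some (d, f)) :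
    c.Nx T d ∧ f = c.zm (T.take d) := by
  classical
  unfold Zf at h
  by_cases hex : ∃ t, c.Nx T t
  · rw [dif_pos hex] at h
    have h1 := Option.some.inj h
    have h2 : hex.choose = d := congrArg Prod.fst h1
    have h3 : c.zm (T.take hex.choose) = f := congrArg Prod.snd h1
    rw [h2] at h3
    refine ⟨?_, h3.symm⟩
    rw [← h2]; exact hex.choose_spec
  · rw [dif_neg hex] at h; cases h

theorem Zf_none {c : Cfg α S V W} {T : List α} (h : ∀ t, ¬ c.Nx T t) : c.Zf T = none := by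
  classical
  unfold Zf
  rw [dif_neg]
  rintro ⟨t, ht⟩
  exact h t ht

theorem zrule : ZRule c.ro.n c.Zf where
  len := by
    intro Q d t h
    obtain ⟨h1, -⟩ := Zf_inv h
    exact ⟨by have := h1.1.gt; omega, h1.len⟩
  mono := by
    rintro Q X ⟨d, f⟩ h
    obtain ⟨h1, h2⟩ := Zf_inv h
    rw [Zf_some h1.app, h2]
    congr 2
    rw [List.take_append_of_le_length (by have := h1.len; omega)]
  sharp := by
    intro Q d f h
    obtain ⟨h1, h2⟩ := Zf_inv h
    have h3 := h1.len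
    have h4 : c.Nx (Q.take (d + c.ro.n)) d := by
      apply Nx.of_app (X := Q.drop (d + c.ro.n))
      · rw [List.take_append_drop]; exact h1
      · rw [List.length_take]; omega
    rw [Zf_some h4, h2, List.take_take, min_eq_left (by omega)]

/-! ### scheme 1 -/

/-- left-legal with value `v` at the anchor -/
def L1 (P : List α) (v : V) : Prop :=
  c.p0 ≤ P.length ∧ c.D.LL (P.drop c.p0) (c.D.act v (c.D.phi (P.take c.p0)) + c.nu2 (P.take c.p0))

/-- right-legal with respect to the outer walls, next anchor at distance `e` -/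
def RE (r : List α) (e : ℕ) : Prop :=
  c.ro.R (r.drop e) ∧ c.th (e % c.D.q) ≤ e + c.p0 ∧
    ∀ t, t < e → c.ro.R (r.drop t) → t + c.p0 + c.N1 < c.th (t % c.D.q)

open Classical in
noncomputable def R1 (r : List α) : Option (ℕ × V) :=
  if h : ∃ p : ℕ × V, c.RE r p.1 ∧ c.D.RR (r.take p.1) p.2 then some h.choose else none

theorem R1_inv {c : Cfg α S V W} {r : List α} {e : ℕ} {b : V} (h : c.R1 r = some (e, b)) :
    c.RE r e ∧ c.D.RR (r.take e) b := by
  classical
  unfold R1 at h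
  by_cases hex : ∃ p : ℕ × V, c.RE r p.1 ∧ c.D.RR (r.take p.1) p.2
  · rw [dif_pos hex] at h
    have h1 := Option.some.inj h
    have h2 := hex.choose_spec
    rw [h1] at h2
    exact h2
  · rw [dif_neg hex] at h; cases h

theorem R1_isSome {c : Cfg α S V W} {r : List α} {e : ℕ} {b : V} (h : c.RE r e)
    (h' : c.D.RR (r.take e) b) : (c.R1 r).isSome := by
  classical
  unfold R1
  rw [dif_pos ⟨(e, b), h, h'⟩]
  rfl

theorem RE_len {c : Cfg α S V W} {r : List α} {e : ℕ} (h : c.RE r e) : e + c.ro.n ≤ r.length := by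
  have h1 := c.ro.len _ h.1
  have h2 := c.ro.pos
  rw [List.length_drop] at h1
  omega

theorem R1_len {c : Cfg α S V W} {r : List α} {e : ℕ} {b : V} (h : c.R1 r = some (e, b)) :
    e ≤ r.length := by
  have := RE_len (R1_inv h).1
  omega

theorem LL_len {c : Cfg α S V W} {P : List α} {v : V} (h : c.D.LL P v) :
    c.D.q ∣ P.length ∧ P.length ≤ c.N1 := by
  obtain ⟨x, om, H, hP, hi, hlo, hhi, -⟩ := h
  refine ⟨⟨om, hP⟩, ?_⟩
  rw [hP]
  refine le_trans (Nat.mul_le_mul_left _ ?_) (c.hN1 x.i hi)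
  omega

/-- the junction lemma (818 / 132) -/
theorem junction {c : Cfg α S V W} {P r : List α} {e : ℕ} (h1 : c.p0 ≤ P.length)
    (h2 : c.D.q ∣ P.length) (h3 : P.length ≤ c.p0 + c.N1) (h : c.RE r e) :
    c.Nx (P ++ r) (P.length + e) := by
  obtain ⟨k, hk⟩ := h2
  have hmod : ∀ t, (P.length + t) % c.D.q = t % c.D.q := by
    intro t; rw [hk, Nat.mul_add_mod]
  refine ⟨?_, ?_, ?_⟩
  · unfold Ok
    rw [hmod]
    have := h.2.1
    omega
  · rw [drop_add]; exact h.1
  · intro t' h4 h5 h6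
    have h7 := h5.gt
    obtain ⟨u, rfl⟩ : ∃ u, t' = P.length + u := ⟨t' - P.length, by omega⟩
    rw [drop_add] at h6
    have h8 := h.2.2 u (by omega) h6
    unfold Ok at h5
    rw [hmod] at h5
    omega

/-- **scheme 1 is exact** (every text) -/
theorem exact1 {c : Cfg α S V W} (h1 : c.D.N1) (h2 : c.D.N2) {P r : List α} {v b : V} {e : ℕ}
    (hL : c.L1 P v) (hR : c.R1 r = some (e, b)) :
    ∃ f, c.Zf (P ++ r) = some (P.length + e, f) ∧ f v = b := by
  obtain ⟨hp, hL⟩ := hL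
  obtain ⟨hE, hRR⟩ := R1_inv hR
  obtain ⟨hq, hN⟩ := LL_len hL
  rw [List.length_drop] at hq hN
  have hd : c.D.q ∣ P.length := by
    have := (Nat.dvd_add_right c.hp0).2 hq
    rwa [show c.p0 + (P.length - c.p0) = P.length by omega] at this
  have hNx : c.Nx (P ++ r) (P.length + e) := junction hp hd (by omega) hE
  refine ⟨_, Zf_some hNx, ?_⟩
  have hlen := RE_len hE
  have e1 : (P ++ r).take (P.length + e) = P ++ r.take e := by
    rw [List.take_length_add_append]
  rw [e1]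
  unfold zm
  have e2 : (P ++ r.take e).take c.p0 = P.take c.p0 := List.take_append_of_le_length hp
  have e3 : (P ++ r.take e).drop c.p0 = P.drop c.p0 ++ r.take e :=
    List.drop_append_of_le_length hp
  rw [e2, e3]
  exact (c.D.sound h1 h2 hL hRR).symm


/-! ### completeness of scheme 1; `T` = the text from `a + p0` on -/

/-- next anchor seen from `a + p0` -/
def NY (T : List α) (t : ℕ) : Prop :=
  c.th (t % c.D.q) ≤ t + c.p0 ∧ c.ro.R (T.drop t) ∧
    ∀ t', t' < t → c.th (t' % c.D.q) ≤ t' + c.p0 → ¬ c.ro.R (T.drop t')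

/-- wall near its threshold -/
def Eb (T : List α) : Prop :=
  ∃ t, c.ro.R (T.drop t) ∧ c.th (t % c.D.q) ≤ t + c.p0 + c.N1 ∧ t + c.p0 < c.th (t % c.D.q) + c.N1

/-- small wall near a level -/
def Db (T : List α) : Prop :=
  ∃ k, k ≤ c.D.m ∧ ∃ t, c.D.A k ≤ t + c.D.q * c.D.M ∧ t < c.D.A k + c.D.q * c.D.M ∧
    c.D.r.R (T.drop t)

/-- bad length -/
def Bb (T : List α) : Prop := ∃ t, c.NY T t ∧ c.D.B (t / c.D.q)

def BadY (T : List α) : Prop := c.Eb T ∨ c.Db T ∨ c.Bb T

theorem NY.unique {c : Cfg α S V W} {T : List α} {t t' : ℕ} (h : c.NY T t) (h' : c.NY T t') : t = t' := by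
  rcases lt_trichotomy t t' with h1 | h1 | h1
  · exact absurd h.2.1 (h'.2.2 t h1 h.1)
  · exact h1
  · exact absurd h'.2.1 (h.2.2 t' h1 h'.1)

theorem NY.len {c : Cfg α S V W} {T : List α} {t : ℕ} (h : c.NY T t) : t + c.ro.n ≤ T.length := by
  have h1 := c.ro.len _ h.2.1
  have h2 := c.ro.pos
  rw [List.length_drop] at h1
  omega

theorem R_ext (r : Rule α) {T X : List α} {t : ℕ} (h : r.R (T.drop t)) : r.R ((T ++ X).drop t) := by
  have h1 := r.len _ h
  have h2 := r.pos
  rw [List.length_drop] at h1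
  exact (R_left r (by omega)).2 h

theorem NY.app {c : Cfg α S V W} {T X : List α} {t : ℕ} (h : c.NY T t) : c.NY (T ++ X) t := by
  have h1 := h.len
  refine ⟨h.1, (R_left c.ro h1).2 h.2.1, fun t' h2 h3 h4 => h.2.2 t' h2 h3 ?_⟩
  exact (R_left c.ro (by omega)).1 h4

theorem BadY.app {c : Cfg α S V W} {T : List α} (h : c.BadY T) (X : List α) : c.BadY (T ++ X) := by
  rcases h with ⟨t, h1, h2, h3⟩ | ⟨k, hk, t, h1, h2, h3⟩ | ⟨t, h1, h2⟩
  · exact Or.inl ⟨t, R_ext _ h1, h2, h3⟩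
  · exact Or.inr (Or.inl ⟨k, hk, t, h1, h2, R_ext _ h3⟩)
  · exact Or.inr (Or.inr ⟨t, h1.app, h2⟩)

theorem exists_NY {c : Cfg α S V W} {T : List α} {t : ℕ} (h1 : c.th (t % c.D.q) ≤ t + c.p0)
    (h2 : c.ro.R (T.drop t)) : ∃ t0, t0 ≤ t ∧ c.NY T t0 := by
  classical
  have hex : ∃ t, c.th (t % c.D.q) ≤ t + c.p0 ∧ c.ro.R (T.drop t) := ⟨t, h1, h2⟩
  refine ⟨Nat.find hex, Nat.find_min' hex ⟨h1, h2⟩, (Nat.find_spec hex).1, (Nat.find_spec hex).2, ?_⟩
  intro t' h3 h4 h5
  exact Nat.find_min hex h3 ⟨h4, h5⟩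

/-- `NY` at `a + p0` is `Nx` at `a` -/
theorem NY.toNx {c : Cfg α S V W} {U T : List α} {t : ℕ} (hU : U.length = c.p0) (h : c.NY T t) :
    c.Nx (U ++ T) (c.p0 + t) := by
  obtain ⟨k, hk⟩ := c.hp0
  have hmod : ∀ t, (c.p0 + t) % c.D.q = t % c.D.q := by
    intro t; rw [hk, Nat.mul_add_mod]
  refine ⟨?_, ?_, ?_⟩
  · unfold Ok; rw [hmod]; have := h.1; omega
  · rw [← hU, drop_add]; exact h.2.1
  · intro t' h4 h5 h6
    have h7 := h5.gt
    obtain ⟨u, rfl⟩ : ∃ u, t' = U.length + u := ⟨t' - U.length, by omega⟩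
    rw [drop_add] at h6
    refine h.2.2 u (by omega) ?_ h6
    unfold Ok at h5
    rw [hU, hmod] at h5
    omega

/-- **completeness of scheme 1** off the bad texts -/
theorem complete1 {c : Cfg α S V W} (h1 : c.D.N1) (h2 : c.D.N2) (h3 : c.D.N3) (hF : c.D.Hides)
    {G : ℕ} {T : List α} {tb : ℕ}
    (hb : c.NY T tb) (H : ℕ → ℕ) (hH : ∀ k, k ≤ c.D.m → FW c.D.r T (c.D.A k) (H k))
    (hG : ∀ k, k ≤ c.D.m → H k ≤ c.D.A k + G)
    (hAm : c.D.A c.D.m + G + c.D.r.n ≤ c.N1)
    (hlo : ∀ i, i < c.D.m → c.D.A i + G + c.D.r.n ≤ c.D.q * c.D.lo i)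
    (hbad : ¬ c.BadY T) (v : V) :
    ∃ x e b, x ≤ c.N1 ∧ x + e = tb ∧ c.D.LL (T.take x) v ∧ c.RE (T.drop x) e ∧
      c.D.RR ((T.drop x).take e) b := by
  have hE : ¬ c.Eb T := fun h => hbad (Or.inl h)
  have hD : ¬ c.Db T := fun h => hbad (Or.inr (Or.inl h))
  have hB : ¬ c.Bb T := fun h => hbad (Or.inr (Or.inr h))
  have hblen := hb.len
  have htb : c.N1 < tb := by
    have := c.hth (tb % c.D.q); have := hb.1; omega
  set Y := T.take tb with hY
  have hYl : Y.length = tb := by rw [hY, List.length_take]; omega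
  have hTY : Y ++ T.drop tb = T := List.take_append_drop _ _
  have hBY : ¬ c.D.B (Y.length / c.D.q) := by
    rw [hYl]; exact fun h => hB ⟨tb, hb, h⟩
  have hHY : ∀ k, k ≤ c.D.m → FW c.D.r Y (c.D.A k) (H k) := by
    intro k hk
    have h4 := hH k hk
    rw [← hTY] at h4
    apply h4.of_left
    have h5 := hG k hk
    have h6 := c.D.monoA hk
    rw [hYl]; omega
  obtain ⟨P, Q, i, om, hPQ, hi, hP, hl, hu, hL, b, hR⟩ :=
    c.D.complete h3 hF hBY H hHY hG hlo (by
      intro k hk t h4 h5 h6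
      refine hD ⟨k, hk, t, h4, h5, ?_⟩
      rw [← hTY]
      exact R_ext _ h6) (by
      intro i hi
      rw [hYl]
      exact le_trans (c.hN1 i hi) htb.le) v
  have hx : P.length ≤ c.N1 := (LL_len hL).2
  have hPt : P.length ≤ tb := by omega
  have hlen : P.length + Q.length = tb := by rw [← hYl, hPQ, List.length_append]
  have e1 : T.take P.length = P := by
    have : T = P ++ (Q ++ T.drop tb) := by rw [← List.append_assoc, ← hPQ, hTY]
    conv_lhs => rw [this]
    rw [List.take_left]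
  have e2 : T.drop P.length = Q ++ T.drop tb := by
    have : T = P ++ (Q ++ T.drop tb) := by rw [← List.append_assoc, ← hPQ, hTY]
    conv_lhs => rw [this]
    rw [List.drop_left]
  have hqP : c.D.q ∣ P.length := ⟨om, hP⟩
  obtain ⟨kk, hkk⟩ := hqP
  have hmod : ∀ t, (P.length + t) % c.D.q = t % c.D.q := by
    intro t; rw [hkk, Nat.mul_add_mod]
  refine ⟨P.length, Q.length, b, hx, hlen, by rw [e1]; exact hL, ⟨?_, ?_, ?_⟩, ?_⟩
  · rw [List.drop_drop, hlen]; exact hb.2.1
  · have h4 := hb.1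
    have h5 : ¬ (tb + c.p0 < c.th (tb % c.D.q) + c.N1) := by
      intro h5
      exact hE ⟨tb, hb.2.1, by omega, h5⟩
    rw [← hlen, hmod] at h4 h5
    omega
  · intro t h4 h5
    rw [List.drop_drop] at h5
    have h6 : ¬ (c.th ((P.length + t) % c.D.q) ≤ P.length + t + c.p0) :=
      fun h6 => hb.2.2 (P.length + t) (by omega) h6 h5
    have h7 : ¬ (c.th ((P.length + t) % c.D.q) ≤ P.length + t + c.p0 + c.N1) :=
      fun h7 => hE ⟨P.length + t, h5, h7, by omega⟩
    rw [hmod] at h7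
    omega
  · rw [e2, List.take_left]; exact hR

/-- truncation of `RE` -/
theorem RE_take {c : Cfg α S V W} {r : List α} {e L : ℕ} (h : c.RE r e) (hL : e + c.ro.n ≤ L) :
    c.RE (r.take L) e := by
  have hlen := RE_len h
  have hr : r.take L ++ r.drop L = r := List.take_append_drop _ _
  have key : ∀ t, t ≤ e → (c.ro.R ((r.take L).drop t) ↔ c.ro.R (r.drop t)) := by
    intro t ht
    conv_rhs => rw [← hr]
    exact (R_left c.ro (by rw [List.length_take]; omega)).symm
  refine ⟨(key e le_rfl).2 h.1, h.2.1, fun t h1 h2 => h.2.2 t h1 ((key t h1.le).1 h2)⟩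

end Cfg

end Crest.Agent.R320.Geo_428
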