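import Crest.Agent.R320.Geo_216

/-!
# Row 320: completeness of scheme A, soundness of scheme B (natural chain rule) (helper216)
-/

set_option autoImplicit false

namespace Crest.Agent.R320.Geo_216

open Crest.Agent.R320.Hk_851 Crest.Agent.R320.Star_621 Crest.Agent.R320.Two_621
open Crest.Agent.R320.Main_621

variable {α : Type}

/-- critical blocks -/
def ZC (n : ℕ) (Ws : Set (List α)) (z p0 N1 : ℕ) (Bad : ℕ → Prop) : Language α :=
  {X | ∃ t, Bl n Ws z X t ∧ ((∃ s, WA n Ws X s ∧ z ≤ s + N1 ∧ s < z + N1) ∨ Bad (t - p0))}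

theorem cutA {S : Type} [Monoid S] (ph : List α → S) (n : ℕ) (Ws : Set (List α)) (z p0 N1 La : ℕ)
    (lam rho : List α → Option (Tok S)) (Bad : ℕ → Prop)
    (hz : n + p0 + N1 ≤ z) (hz2 : La + p0 ≤ z)
    (hlam : ∀ p v, lam p = some v → p.length ≤ N1)
    (hcp : ∀ u : List α, La ≤ u.length → ¬ Bad u.length → ∀ v, ∃ p q, p ++ q = u ∧
      lam p = some v ∧ (rho q).isSome)
    {X : List α} (hX : X ∈ ZZ n Ws z) (hX2 : X ∉ ZC n Ws z p0 N1 Bad) (v : Tok S) :
    Cut (LA ph p0 lam) (RA ph n Ws z p0 N1 rho) v X := by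
  obtain ⟨t, h⟩ := hX
  have hE : ∀ s, WA n Ws X s → z ≤ s + N1 → z + N1 ≤ s := by
    intro s hs1 hs2
    by_contra hc
    exact hX2 ⟨t, h, Or.inl ⟨s, hs1, hs2, by omega⟩⟩
  have hB : ¬ Bad (t - p0) := fun hb => hX2 ⟨t, h, Or.inr hb⟩
  have hzt := h.zt
  have hlt := h.lt
  have hlen : ((X.take t).drop p0).length = t - p0 := by
    rw [List.length_drop, List.length_take]; omega
  obtain ⟨p, q, hpq, hp, hq⟩ := hcp ((X.take t).drop p0) (by omega) (by rwa [hlen])
    (act v (ph (X.take p0)))
  obtain ⟨r, hr⟩ := Option.isSome_iff_exists.1 hq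
  have hp1 := hlam _ _ hp
  have hl2 : p.length + q.length = t - p0 := by rw [← hlen, ← hpq, List.length_append]
  have hl3 : (X.take p0).length = p0 := by rw [List.length_take]; omega
  have eX : (X.take p0 ++ p) ++ (q ++ X.drop t) = X := by
    rw [List.append_assoc, ← List.append_assoc p, hpq]
    have e1 : X.take p0 = (X.take t).take p0 := by
      rw [List.take_take, min_eq_left (by omega)]
    rw [e1, ← List.append_assoc, List.take_append_drop, List.take_append_drop]
  have hPl : (X.take p0 ++ p).length = p0 + p.length := by rw [List.length_append, hl3]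
  have hQl : (q ++ X.drop t).length = q.length + (X.length - t) := by
    rw [List.length_append, List.length_drop]
  have key : ∀ s, n ≤ s → (WA n Ws X (p0 + p.length + s) ↔ WA n Ws (q ++ X.drop t) s) := by
    intro s hs
    have := WA_append_right (n := n) (Ws := Ws) (u := X.take p0 ++ p) (v := q ++ X.drop t) hs
    rwa [eX, hPl] at this
  have ht2 : z + N1 ≤ t := hE t h.wt (by omega)
  refine ⟨X.take p0 ++ p, q ++ X.drop t, act r (ph ((q ++ X.drop t).drop q.length)), eX.symm,
    ⟨by omega, ?_⟩, q.length, r, by omega, by omega, ?_, ?_, ?_, ?_, rfl⟩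
  · rw [List.drop_append_of_le_length (by omega), List.take_append_of_le_length (by omega)]
    have e1 : (X.take p0).drop p0 = [] := List.drop_eq_nil_of_le (by omega)
    have e2 : (X.take p0).take p0 = X.take p0 := by rw [List.take_take, min_self]
    rw [e1, e2, List.nil_append]
    exact hp
  · rw [← key _ (by omega)]
    have e : p0 + p.length + q.length = t := by omega
    rw [e]; exact h.wt
  · rw [hQl, ← key _ (by omega)]
    have e : p0 + p.length + (q.length + (X.length - t)) = X.length := by omega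
    rw [e]; exact h.we
  · intro s hs1 hs2 hs3
    have h3 := (key s hs3.n_le).2 hs3
    have h4 := hE _ h3 (by omega)
    have := h.un _ (by omega) (by omega) h3
    omega
  · rw [List.take_append_of_le_length le_rfl, List.take_length]; exact hr

/-- the monoid of the inner scheme -/
abbrev T2 (S : Type) : Type := (Function.End (Option (Tok S)))ᵐᵒᵖ

section B

variable {S : Type} [Monoid S] (ph : List α → S) (n : ℕ) (Ws : Set (List α)) (z p0 N1 : ℕ)
  (lam rho : List α → Option (Tok S)) (nu : List α → Tok S)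

/-- the value `u` at `p0` is cut by the outer scheme in the rest `Y` of the block -/
def CutY (u : Tok S) (Y : List α) : Prop :=
  ∃ p Q τ, Y = p ++ Q ∧ lam p = some u ∧ Q ∈ RA ph n Ws z p0 N1 rho τ

open Classical in
/-- block map of the outer scheme -/
noncomputable def Fm (g : S) (Y : List α) : T2 S :=
  MulOpposite.op fun o => o.bind fun v =>
    if CutY ph n Ws z p0 N1 lam rho (act v g) Y then none
    else some (act (act v g) (ph Y) + dY ph n Ws z p0 nu Y)

theorem cut_iff {X : List α} (hX : p0 ≤ X.length) (v : Tok S) :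
    Cut (LA ph p0 lam) (RA ph n Ws z p0 N1 rho) v X ↔
      CutY ph n Ws z p0 N1 lam rho (act v (ph (X.take p0))) (X.drop p0) := by
  constructor
  · rintro ⟨P, Q, τ, rfl, ⟨hP1, hP2⟩, hQ⟩
    refine ⟨P.drop p0, Q, τ, List.drop_append_of_le_length hP1, ?_, hQ⟩
    rw [List.take_append_of_le_length hP1]
    exact hP2
  · rintro ⟨p, Q, τ, h1, h2, hQ⟩
    have hl3 : (X.take p0).length = p0 := by rw [List.length_take]; omega
    refine ⟨X.take p0 ++ p, Q, τ, ?_, ⟨?_, ?_⟩, hQ⟩
    · rw [List.append_assoc, ← h1, List.take_append_drop]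
    · rw [List.length_append]; omega
    · rw [List.drop_append_of_le_length (by omega), List.take_append_of_le_length (by omega)]
      have e1 : (X.take p0).drop p0 = [] := List.drop_eq_nil_of_le (by omega)
      have e2 : (X.take p0).take p0 = X.take p0 := by rw [List.take_take, min_self]
      rw [e1, e2, List.nil_append]
      exact h2

theorem stepA_eq (hm : ∀ a b, ph (a ++ b) = ph a * ph b) {X : List α} (hX : p0 ≤ X.length) :
    stepA (aff ph fun X => dY ph n Ws z p0 nu (X.drop p0)) (LA ph p0 lam)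
      (RA ph n Ws z p0 N1 rho) X = Fm ph n Ws z p0 N1 lam rho nu (ph (X.take p0)) (X.drop p0) := by
  classical
  unfold stepA Fm
  congr 1
  funext o
  congr 1
  funext v
  have e : aff ph (fun X => dY ph n Ws z p0 nu (X.drop p0)) X v =
      act (act v (ph (X.take p0))) (ph (X.drop p0)) + dY ph n Ws z p0 nu (X.drop p0) := by
    unfold aff
    rw [act_mul, ← hm, List.take_append_drop]
  by_cases hc : Cut (LA ph p0 lam) (RA ph n Ws z p0 N1 rho) v X
  · rw [if_pos hc, if_pos ((cut_iff ph n Ws z p0 N1 lam rho hX v).1 hc)]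
  · rw [if_neg hc, if_neg (fun h => hc ((cut_iff ph n Ws z p0 N1 lam rho hX v).2 h)), e]

variable (K : ℕ) (c : ℕ → ℕ) (Bad : ℕ → Prop)

/-- the candidate `k` looks critical from the right word `Q` -/
def bd (k : ℕ) (Q : List α) : Prop :=
  (∃ s, WA n Ws Q s ∧ z ≤ s + c k + N1 ∧ s + c k < z + N1) ∨
    ∃ t, z ≤ t + c k ∧ WA n Ws Q t ∧ (∀ s, z ≤ s + c k → s < t → ¬ WA n Ws Q s) ∧
      Bad (t + c k - p0)

theorem bd_of {W e : ℕ} (hgap : ∀ (w : List α) s t, WA n Ws w s → WA n Ws w t → s < t → s + W ≤ t)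
    (hz : n + p0 + N1 ≤ z) (hW : 2 * e + 2 * N1 < W) (hc : ∀ k < K, c k ≤ e) (hep : e ≤ p0)
    {k k0 : ℕ} (hk : k < K) (hk0 : k0 < K) {P Q x X y : List α} {t tk : ℕ}
    (hP : P.length = c k0) (he : P ++ Q ++ x = X ++ y) (h : Bl n Ws z X t)
    (hcr : (∃ s, WA n Ws X s ∧ z ≤ s + N1 ∧ s < z + N1) ∨ Bad (t - p0))
    (h1 : z ≤ tk + c k) (h2 : tk < Q.length) (h3 : WA n Ws Q tk) (h4 : WA n Ws Q Q.length) :
    bd n Ws z p0 N1 c Bad k0 Q := by
  have hck := hc k hk
  have hck0 := hc k0 hk0
  have hg := hgap Q tk Q.length h3 h4 h2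
  have hPQ : (P ++ Q).length = c k0 + Q.length := by rw [List.length_append, hP]
  have hzt := h.zt
  have hlt := h.lt
  have keyl : ∀ s, s ≤ X.length → s ≤ (P ++ Q).length → (WA n Ws X s ↔ WA n Ws (P ++ Q) s) := by
    intro s hs1 hs2
    rw [← WA_append_left (v := y) hs1, ← he, WA_append_left hs2]
  have keyr : ∀ s, n ≤ s → (WA n Ws (P ++ Q) (c k0 + s) ↔ WA n Ws Q s) := by
    intro s hs
    have := WA_append_right (n := n) (Ws := Ws) (u := P) (v := Q) hs
    rwa [hP] at this
  have htL : t ≤ (P ++ Q).length := by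
    by_contra hc'
    have h5 : WA n Ws X (P ++ Q).length := by
      rw [keyl _ (by omega) le_rfl, hPQ]
      exact (keyr _ h4.n_le).2 h4
    have := h.un _ (by omega) (by omega) h5
    omega
  rcases hcr with ⟨s, hs1, hs2, hs3⟩ | hb
  · left
    have hst : s ≤ t := by
      by_contra hc'
      have hsl := hs1.le
      rcases Nat.lt_or_ge s X.length with h6 | h6
      · have := h.un s (by omega) h6 hs1
        omega
      · have h7 := hgap X t X.length h.wt h.we hlt
        omega
    have h6 : WA n Ws (P ++ Q) s := (keyl s (by omega) (by omega)).1 hs1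
    have e1 : s = c k0 + (s - c k0) := by omega
    refine ⟨s - c k0, ?_, by omega, by omega⟩
    rw [← keyr _ (by omega), ← e1]
    exact h6
  · right
    have e1 : t = c k0 + (t - c k0) := by omega
    refine ⟨t - c k0, by omega, ?_, ?_, ?_⟩
    · rw [← keyr _ (by omega), ← e1]
      exact (keyl t (by omega) htL).1 h.wt
    · intro s hs1 hs2 hs3
      have h6 : WA n Ws X (c k0 + s) :=
        (keyl _ (by omega) (by omega)).2 ((keyr _ hs3.n_le).2 hs3)
      have := h.un _ (by omega) (by omega) h6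
      omega
    · have e2 : t - c k0 + c k0 - p0 = t - p0 := by omega
      rw [e2]; exact hb

variable (lam2 : ℕ → List α → Option (Tok (T2 S)))
  (rho2 : ℕ → List α → (S → T2 S) → Option (Tok (T2 S)))
  (nu2 : List α → (S → T2 S) → Tok (T2 S))

/-- left words of the inner scheme -/
def LB (w : Tok (T2 S)) : Language α := {P | ∃ k < K, P.length = c k ∧ lam2 k P = some w}

/-- right words of the inner scheme -/
def RB (τ : Tok (T2 S)) : Language α :=
  {Q | ∃ k < K, bd n Ws z p0 N1 c Bad k Q ∧ (∀ k' < K, k' ≠ k → ¬ bd n Ws z p0 N1 c Bad k' Q) ∧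
    (∃ t, z ≤ t + c k ∧ t < Q.length ∧ WA n Ws Q t ∧ WA n Ws Q Q.length ∧
      (∀ s, z ≤ s + c k → s < Q.length → WA n Ws Q s → s = t)) ∧
    rho2 k (Q.take (p0 - c k))
      (fun g => Fm ph n Ws z p0 N1 lam rho nu g (Q.drop (p0 - c k))) = some τ}

theorem soundB {W e : ℕ} (hm : ∀ a b, ph (a ++ b) = ph a * ph b)
    (hgap : ∀ (w : List α) s t, WA n Ws w s → WA n Ws w t → s < t → s + W ≤ t)
    (hz : n + p0 + N1 ≤ z) (hW : 2 * e + 2 * N1 < W) (hc0 : ∀ k < K, 0 < c k)
    (hc : ∀ k < K, c k ≤ e) (hep : e ≤ p0)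
    (hex : ∀ k < K, ∀ (P Q : List α) (y : S → T2 S) (v b : Tok (T2 S)), P.length = c k →
      lam2 k P = some v → rho2 k Q y = some b → b = act v (y (ph (P ++ Q))) + nu2 (P ++ Q) y) :
    Sound (ZC n Ws z p0 N1 Bad)
      (aff (stepA (aff ph fun X => dY ph n Ws z p0 nu (X.drop p0)) (LA ph p0 lam)
        (RA ph n Ws z p0 N1 rho))
        (fun X => nu2 (X.take p0) (fun g => Fm ph n Ws z p0 N1 lam rho nu g (X.drop p0))))
      (LB K c lam2) (RB ph n Ws z p0 N1 lam rho nu K c Bad rho2) := by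
  constructor
  · rintro ω ⟨k, hk, h, -⟩
    have := hc0 k hk
    simp at h
    omega
  · rintro ω τ P Q X x y ⟨k0, hk0, hP1, hP2⟩ ⟨k, hk, hb1, hb2, ⟨tk, h1, h2, h3, h4, h5⟩, hr⟩
      ⟨t, hX, hcr⟩ he
    have hbd := bd_of n Ws z p0 N1 K c Bad hgap hz hW hc hep hk hk0 hP1 he hX hcr h1 h2 h3 h4
    have ek : k0 = k := by
      by_contra hne
      exact hb2 k0 hk0 hne hbd
    subst ek
    have hck := hc k0 hk0
    have hPQ : (P ++ Q).length = c k0 + Q.length := by rw [List.length_append, hP1]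
    have keyr : ∀ s, n ≤ s → (WA n Ws (P ++ Q) (c k0 + s) ↔ WA n Ws Q s) := by
      intro s hs
      have := WA_append_right (n := n) (Ws := Ws) (u := P) (v := Q) hs
      rwa [hP1] at this
    have hB : Bl n Ws z (P ++ Q) (c k0 + tk) := by
      refine ⟨by omega, by omega, (keyr _ h3.n_le).2 h3, ?_, ?_⟩
      · rw [hPQ]; exact (keyr _ h4.n_le).2 h4
      · intro s hs1 hs2 hs3
        obtain ⟨s', rfl⟩ : ∃ s', s = c k0 + s' := ⟨s - c k0, by omega⟩
        have := h5 s' (by omega) (by omega) ((keyr _ (by omega)).1 hs3)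
        omega
    have e : P ++ Q = X := hB.eq hX he
    refine ⟨e, ?_⟩
    subst e
    have hg := hgap Q tk Q.length h3 h4 h2
    have e1 : (P ++ Q).take p0 = P ++ Q.take (p0 - c k0) := by
      rw [List.take_append, hP1, List.take_of_length_le (by omega)]
    have e2 : (P ++ Q).drop p0 = Q.drop (p0 - c k0) := by
      rw [List.drop_append, hP1, List.drop_eq_nil_of_le (by omega), List.nil_append]
    have h7 := hex k0 hk0 P (Q.take (p0 - c k0)) _ _ _ hP1 hP2 hr
    show τ = act ω (stepA _ _ _ (P ++ Q)) + nu2 ((P ++ Q).take p0) _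
    rw [stepA_eq ph n Ws z p0 N1 lam rho nu hm (by omega), e1, e2]
    exact h7

end B

end Crest.Agent.R320.Geo_216
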