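import Crest.Agent.R320.Geo2_216

/-!
# Row 320: completeness of scheme B (natural chain rule, spoil count) (helper216)
-/

set_option autoImplicit false

namespace Crest.Agent.R320.Geo_216

open Crest.Agent.R320.Hk_851 Crest.Agent.R320.Star_621 Crest.Agent.R320.Two_621
open Crest.Agent.R320.Main_621

variable {α : Type}

open Classical in
theorem spoil (n : ℕ) (Ws : Set (List α)) (z p0 N1 K : ℕ) (c : ℕ → ℕ) (Bad : ℕ → Prop)
    {W e La C0 : ℕ} (hgap : ∀ (w : List α) s t, WA n Ws w s → WA n Ws w t → s < t → s + W ≤ t)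
    (hz : n + p0 + N1 ≤ z) (hz2 : La + 2 * p0 ≤ z) (hW : 2 * e + 2 * N1 < W)
    (hc : ∀ k < K, c k ≤ e) (hep : e ≤ p0)
    (hgol : ∀ i < K, ∀ j < K, ∀ k < K, ∀ l < K, i ≠ j → k ≠ l → (i, j) ≠ (k, l) →
      c i + c l + 4 * N1 < c k + c j ∨ c k + c j + 4 * N1 < c i + c l)
    (hthin : ∀ T, La ≤ T → (((Finset.range K ×ˢ Finset.range K).filter
      fun q => q.1 ≠ q.2 ∧ Bad (T + c q.2 - c q.1)).card ≤ C0))
    {X : List α} {t : ℕ} (h : Bl n Ws z X t) :
    ((Finset.range K).filter fun k => ∃ k' < K, k' ≠ k ∧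
      bd n Ws z p0 N1 c Bad k' (X.drop (c k))).card ≤ 1 + 2 * C0 := by
  have hzt := h.zt
  have hlt := h.lt
  have hex : ∃ σ, WA n Ws X σ ∧ z ≤ σ + e := ⟨t, h.wt, by omega⟩
  obtain ⟨u1, hu1⟩ : ∃ u1, u1 = Nat.find hex := ⟨_, rfl⟩
  have hu1a : WA n Ws X u1 ∧ z ≤ u1 + e := by rw [hu1]; exact Nat.find_spec hex
  have hu1b : ∀ σ, WA n Ws X σ → z ≤ σ + e → u1 ≤ σ := by
    intro σ h1 h2; rw [hu1]; exact Nat.find_min' hex ⟨h1, h2⟩
  let F : ℕ → Prop := fun σ => WA n Ws X σ ∧ ∃ k < K, ∃ k' < K, z + c k ≤ σ + c k' ∧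
    ∀ s, z + c k ≤ s + c k' → s < σ → ¬ WA n Ws X s
  have hFlt : ∀ σ σ', F σ → F σ' → σ ≠ u1 → σ < σ' → False := by
    rintro σ σ' ⟨h1, k, hk, k', hk', h2, h3⟩ ⟨h4, l, hl, l', hl', h5, h6⟩ hne hlt'
    have a1 := hc k hk
    have a2 := hc k' hk'
    have a3 := hc l hl
    have a4 := hc l' hl'
    have h7 := hu1b σ h1 (by omega)
    have h8 := hgap X u1 σ hu1a.1 h1 (by omega)
    by_cases h9 : z + c l ≤ σ + c l'
    · exact h6 σ h9 hlt' h1
    · omega
  have hFu : ∀ σ σ', F σ → F σ' → σ ≠ u1 → σ' ≠ u1 → σ = σ' := by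
    intro σ σ' h1 h2 h3 h4
    rcases lt_trichotomy σ σ' with h5 | h5 | h5
    · exact (hFlt σ σ' h1 h2 h3 h5).elim
    · exact h5
    · exact (hFlt σ' σ h2 h1 h4 h5).elim
  obtain ⟨u2, hu2a, hu2b⟩ : ∃ u2, (∀ σ, F σ → σ = u1 ∨ σ = u2) ∧ z ≤ u2 + e := by
    by_cases hh : ∃ σ, F σ ∧ σ ≠ u1
    · obtain ⟨u2, h1, h2⟩ := hh
      refine ⟨u2, ?_, ?_⟩
      · intro σ hσ
        by_cases h3 : σ = u1
        · exact Or.inl h3
        · exact Or.inr (hFu σ u2 hσ h1 h3 h2)
      · obtain ⟨-, k, hk, k', hk', h3, -⟩ := h1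
        have a1 := hc k hk
        have a2 := hc k' hk'
        omega
    · refine ⟨u1, ?_, hu1a.2⟩
      intro σ hσ
      by_contra hcon
      exact hh ⟨σ, hσ, fun e => hcon (Or.inl e)⟩
  let PE : Finset (ℕ × ℕ) := (Finset.range K ×ˢ Finset.range K).filter fun q =>
    q.1 ≠ q.2 ∧ ∃ σ, WA n Ws X σ ∧ z + c q.1 ≤ σ + c q.2 + N1 ∧ σ + c q.2 < z + N1 + c q.1
  let PB : ℕ → Finset (ℕ × ℕ) := fun T => (Finset.range K ×ˢ Finset.range K).filter fun q =>
    q.1 ≠ q.2 ∧ Bad (T + c q.2 - c q.1)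
  have hPE : PE.card ≤ 1 := by
    rw [Finset.card_le_one]
    rintro ⟨k, k'⟩ hq ⟨l, l'⟩ hq'
    simp only [PE, Finset.mem_filter, Finset.mem_product, Finset.mem_range] at hq hq'
    obtain ⟨⟨hk, hk'⟩, hne, σ, h1, h2, h3⟩ := hq
    obtain ⟨⟨hl, hl'⟩, hne', σ', h1', h2', h3'⟩ := hq'
    have a1 := hc k hk
    have a2 := hc k' hk'
    have a3 := hc l hl
    have a4 := hc l' hl'
    have hσ : σ = σ' := by
      rcases lt_trichotomy σ σ' with h5 | h5 | h5
      · have := hgap X σ σ' h1 h1' h5; omega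
      · exact h5
      · have := hgap X σ' σ h1' h1 h5; omega
    subst hσ
    by_contra hcon
    rcases hgol k hk k' hk' l hl l' hl' hne hne' hcon with h6 | h6
    · omega
    · omega
  have hPB : ∀ T, La ≤ T → (PB T).card ≤ C0 := fun T hT => hthin T hT
  have hsub : ((Finset.range K).filter fun k => ∃ k' < K, k' ≠ k ∧
      bd n Ws z p0 N1 c Bad k' (X.drop (c k))) ⊆
      ((PE ∪ (PB (u1 - p0) ∪ PB (u2 - p0))).image Prod.fst) := by
    intro k hk
    rw [Finset.mem_filter, Finset.mem_range] at hk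
    obtain ⟨hk, k', hk', hne, hb⟩ := hk
    have a1 := hc k hk
    have a2 := hc k' hk'
    have hlk : (X.take (c k)).length = c k := by rw [List.length_take]; omega
    have key : ∀ s, n ≤ s → (WA n Ws X (c k + s) ↔ WA n Ws (X.drop (c k)) s) := by
      intro s hs
      have := WA_append_right (n := n) (Ws := Ws) (u := X.take (c k)) (v := X.drop (c k)) hs
      rwa [List.take_append_drop, hlk] at this
    rw [Finset.mem_image]
    refine ⟨(k, k'), ?_, rfl⟩
    rw [Finset.mem_union, Finset.mem_union]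
    rcases hb with ⟨s, h1, h2, h3⟩ | ⟨s, h1, h2, h3, h4⟩
    · left
      simp only [PE, Finset.mem_filter, Finset.mem_product, Finset.mem_range]
      exact ⟨⟨hk, hk'⟩, Ne.symm hne, c k + s, (key s h1.n_le).2 h1, by omega, by omega⟩
    · right
      have hF : F (c k + s) := by
        refine ⟨(key s h2.n_le).2 h2, k, hk, k', hk', by omega, ?_⟩
        intro s' h5 h6 h7
        obtain ⟨s'', rfl⟩ : ∃ s'', s' = c k + s'' := ⟨s' - c k, by omega⟩
        exact h3 s'' (by omega) (by omega) ((key s'' (by omega)).1 h7)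
      have e2 : s + c k' - p0 = (c k + s - p0) + c k' - c k := by omega
      rw [e2] at h4
      rcases hu2a _ hF with h5 | h5
      · left
        rw [h5] at h4
        simp only [PB, Finset.mem_filter, Finset.mem_product, Finset.mem_range]
        exact ⟨⟨hk, hk'⟩, Ne.symm hne, h4⟩
      · right
        rw [h5] at h4
        simp only [PB, Finset.mem_filter, Finset.mem_product, Finset.mem_range]
        exact ⟨⟨hk, hk'⟩, Ne.symm hne, h4⟩
  have b1 := hPB (u1 - p0) (by have := hu1a.2; omega)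
  have b2 := hPB (u2 - p0) (by omega)
  calc _ ≤ ((PE ∪ (PB (u1 - p0) ∪ PB (u2 - p0))).image Prod.fst).card :=
        Finset.card_le_card hsub
    _ ≤ (PE ∪ (PB (u1 - p0) ∪ PB (u2 - p0))).card := Finset.card_image_le
    _ ≤ PE.card + (PB (u1 - p0) ∪ PB (u2 - p0)).card := Finset.card_union_le _ _
    _ ≤ PE.card + ((PB (u1 - p0)).card + (PB (u2 - p0)).card) :=
        Nat.add_le_add_left (Finset.card_union_le _ _) _
    _ ≤ 1 + 2 * C0 := by omega

open Classical in
theorem cutB {S : Type} [Monoid S] (ph : List α → S) (n : ℕ) (Ws : Set (List α)) (z p0 N1 : ℕ)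
    (lam rho : List α → Option (Tok S)) (nu : List α → Tok S) (K : ℕ) (c : ℕ → ℕ)
    (Bad : ℕ → Prop) (lam2 : ℕ → List α → Option (Tok (T2 S)))
    (rho2 : ℕ → List α → (S → T2 S) → Option (Tok (T2 S)))
    {W e La C0 R : ℕ} (hgap : ∀ (w : List α) s t, WA n Ws w s → WA n Ws w t → s < t → s + W ≤ t)
    (hz : n + p0 + N1 ≤ z) (hz2 : La + 2 * p0 ≤ z) (hW : 2 * e + 2 * N1 < W)
    (hc : ∀ k < K, c k ≤ e) (hep : e ≤ p0)
    (hgol : ∀ i < K, ∀ j < K, ∀ k < K, ∀ l < K, i ≠ j → k ≠ l → (i, j) ≠ (k, l) →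
      c i + c l + 4 * N1 < c k + c j ∨ c k + c j + 4 * N1 < c i + c l)
    (hthin : ∀ T, La ≤ T → (((Finset.range K ×ˢ Finset.range K).filter
      fun q => q.1 ≠ q.2 ∧ Bad (T + c q.2 - c q.1)).card ≤ C0))
    (hR : 1 + 2 * C0 < R)
    (hcomp : ∀ (u : List α) (y : S → T2 S) (v : Tok (T2 S)), (∀ k < K, c k ≤ u.length) →
      ∃ I : Finset ℕ, R ≤ I.card ∧ ∀ k ∈ I, k < K ∧ lam2 k (u.take (c k)) = some v ∧
        (rho2 k (u.drop (c k)) y).isSome)
    {X : List α} (hX : X ∈ ZC n Ws z p0 N1 Bad) (ω : Tok (T2 S)) :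
    Cut (LB K c lam2) (RB ph n Ws z p0 N1 lam rho nu K c Bad rho2) ω X := by
  classical
  obtain ⟨t, h, hcr⟩ := hX
  have hzt := h.zt
  have hlt := h.lt
  have hu : (X.take p0).length = p0 := by rw [List.length_take]; omega
  obtain ⟨I, hI1, hI2⟩ := hcomp (X.take p0)
    (fun g => Fm ph n Ws z p0 N1 lam rho nu g (X.drop p0)) ω
    (fun k hk => by rw [hu]; exact (hc k hk).trans hep)
  have hsp := spoil n Ws z p0 N1 K c Bad hgap hz hz2 hW hc hep hgol hthin h
  obtain ⟨k, hkI, hkS⟩ := Finset.exists_mem_notMem_of_card_lt_card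
    (lt_of_le_of_lt hsp (lt_of_lt_of_le hR hI1))
  obtain ⟨hk, hl, hr⟩ := hI2 k hkI
  obtain ⟨τ, hτ⟩ := Option.isSome_iff_exists.1 hr
  have hck := hc k hk
  have hlk : (X.take (c k)).length = c k := by rw [List.length_take]; omega
  have hdl : (X.drop (c k)).length = X.length - c k := List.length_drop
  have key : ∀ s, n ≤ s → (WA n Ws X (c k + s) ↔ WA n Ws (X.drop (c k)) s) := by
    intro s hs
    have := WA_append_right (n := n) (Ws := Ws) (u := X.take (c k)) (v := X.drop (c k)) hs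
    rwa [List.take_append_drop, hlk] at this
  have e1 : t = c k + (t - c k) := by omega
  have e2 : X.length = c k + (X.drop (c k)).length := by omega
  have w1 : WA n Ws (X.drop (c k)) (t - c k) := by
    rw [← key _ (by omega), ← e1]; exact h.wt
  have w2 : WA n Ws (X.drop (c k)) (X.drop (c k)).length := by
    rw [← key _ (by omega), ← e2]; exact h.we
  have hbd : bd n Ws z p0 N1 c Bad k (X.drop (c k)) :=
    bd_of n Ws z p0 N1 K c Bad hgap hz hW hc hep hk hk (P := X.take (c k)) (Q := X.drop (c k))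
      (x := []) (y := []) (t := t) (tk := t - c k) hlk
      (by rw [List.append_nil, List.append_nil, List.take_append_drop]) h hcr
      (by omega) (by omega) w1 w2
  refine ⟨X.take (c k), X.drop (c k), τ, (List.take_append_drop _ _).symm, ⟨k, hk, hlk, ?_⟩,
    k, hk, hbd, ?_, ⟨t - c k, by omega, by omega, w1, w2, ?_⟩, ?_⟩
  · rw [List.take_take, min_eq_left (by omega)] at hl
    exact hl
  · intro k' hk' hne hb
    exact hkS (by
      rw [Finset.mem_filter, Finset.mem_range]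
      exact ⟨hk, k', hk', hne, hb⟩)
  · intro s h1 h2 h3
    have := h.un (c k + s) (by omega) (by omega) ((key s h3.n_le).2 h3)
    omega
  · have e3 : (X.take p0).drop (c k) = (X.drop (c k)).take (p0 - c k) := by
      rw [List.drop_take]
    have e4 : (X.drop (c k)).drop (p0 - c k) = X.drop p0 := by
      rw [List.drop_drop]
      congr 1
      omega
    rw [e4, ← e3]
    exact hτ

end Crest.Agent.R320.Geo_216
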