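import Crest.Agent.R320.Geo3_216
import Crest.Agent.R320.Reg_143
import Crest.Agent.R320.FewVal_228

/-!
# Row 320: regularity and height 1 of the languages of both schemes (helper216)
-/

set_option autoImplicit false

namespace Crest.Agent.R320.Geo_216

open Crest.Agent.R320.Hk_851 Crest.Agent.R320.Star_621 Crest.Agent.R320.Two_621
open Crest.Agent.R320.Main_621 Crest.R320.Reg_143

variable {α : Type}

/-! ### regular tools -/

theorem reg_and {P Q : List α → Prop} (hP : (lg P).IsRegular) (hQ : (lg Q).IsRegular) :
    (lg fun w => P w ∧ Q w).IsRegular :=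
  (RegP.and (RegP.mem (k := 0) hP) (RegP.mem hQ)).close

theorem reg_or {P Q : List α → Prop} (hP : (lg P).IsRegular) (hQ : (lg Q).IsRegular) :
    (lg fun w => P w ∨ Q w).IsRegular :=
  (RegP.or (RegP.mem (k := 0) hP) (RegP.mem hQ)).close

theorem reg_not {P : List α → Prop} (hP : (lg P).IsRegular) :
    (lg fun w => ¬ P w).IsRegular :=
  (RegP.not (RegP.mem (k := 0) hP)).close

theorem reg_const (p : Prop) : (lg fun _ : List α => p).IsRegular :=
  (RegP.const (α := α) (k := 0) p).close

theorem reg_ex {ι : Type} [Finite ι] {P : ι → List α → Prop} (hP : ∀ i, (lg (P i)).IsRegular) :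
    (lg fun w => ∃ i, P i w).IsRegular :=
  (RegP.exists_finite (k := 0) (P := fun i w _ => P i w) fun i => RegP.mem (hP i)).close

theorem reg_all {ι : Type} [Finite ι] {P : ι → List α → Prop} (hP : ∀ i, (lg (P i)).IsRegular) :
    (lg fun w => ∀ i, P i w).IsRegular :=
  (RegP.forall_finite (k := 0) (P := fun i w _ => P i w) fun i => RegP.mem (hP i)).close

theorem reg_congr {P Q : List α → Prop} (hP : (lg P).IsRegular) (h : ∀ w, Q w ↔ P w) :
    (lg Q).IsRegular :=
  isRegular_congr hP fun w => (h w).symm

theorem reg_drop {P : List α → Prop} (hP : (lg P).IsRegular) (m : ℕ) :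
    (lg fun w => P (w.drop m)).IsRegular := by
  have h : RegP (fun w (_ : Fin 0 → ℕ) => ∃ y ≤ w.length,
      ((w.take y).length = m ∨ ((w.take y).length < m ∧ (w.drop y).length = 0)) ∧ P (w.drop y)) :=
    RegP.ex' (P := fun w _ y => ((w.take y).length = m ∨
        ((w.take y).length < m ∧ (w.drop y).length = 0)) ∧ P (w.drop y))
      (RegP.and (RegP.or
        (RegP.take (P := fun u => u.length = m)
          (isRegular_length (fun n => n = m) (m + 1) 1 one_pos fun n hn => by omega) 0)
        (RegP.and (RegP.take (P := fun u => u.length < m)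
          (isRegular_length (fun n => n < m) m 1 one_pos fun n hn => by omega) 0)
          (RegP.drop (P := fun u => u.length = 0)
            (isRegular_length (fun n => n = 0) 1 1 one_pos fun n hn => by omega) 0)))
        (RegP.drop hP 0))
  refine reg_congr h.close fun w => ?_
  constructor
  · intro hw
    rcases Nat.le_total m w.length with hm | hm
    · exact ⟨m, hm, Or.inl (by rw [List.length_take]; omega), hw⟩
    · refine ⟨w.length, le_rfl, ?_, ?_⟩
      · rcases Nat.lt_or_ge w.length m with h1 | h1
        · right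
          refine ⟨by rw [List.length_take]; omega, by simp⟩
        · left
          rw [List.length_take]; omega
      · rw [List.drop_length]
        rwa [List.drop_eq_nil_of_le hm] at hw
  · rintro ⟨y, hy, h1, h2⟩
    rw [List.length_take, List.length_drop] at h1
    rcases h1 with h1 | h1
    · have : y = m := by omega
      rwa [this] at h2
    · have e : w.drop y = [] := List.drop_eq_nil_of_le (by omega)
      have e2 : w.drop m = [] := List.drop_eq_nil_of_le (by omega)
      rw [e2]; rwa [e] at h2

section

variable [Finite α] (n : ℕ) (Ws : Set (List α))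

theorem wl_iff (u : List α) : wl n Ws u ↔ ∃ a v, a ++ v = u ∧ True ∧ (v.take n ∈ Ws ∧ v.length = n) := by
  constructor
  · rintro ⟨h1, h2⟩
    refine ⟨u.take (u.length - n), u.drop (u.length - n), List.take_append_drop _ _, trivial, ?_, ?_⟩
    · rw [List.take_of_length_le (by rw [List.length_drop]; omega)]
      exact h2
    · rw [List.length_drop]; omega
  · rintro ⟨a, v, rfl, -, h1, h2⟩
    refine ⟨by rw [List.length_append]; omega, ?_⟩
    have e : (a ++ v).length - n = a.length := by rw [List.length_append]; omega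
    rw [e, List.drop_left]
    rwa [List.take_of_length_le (by omega)] at h1

theorem reg_wl : (lg (wl n Ws)).IsRegular := by
  refine reg_congr (isRegular_cat (P := fun _ : List α => True)
    (Q := fun v => v.take n ∈ Ws ∧ v.length = n) isRegular_true
    (reg_and (isRegular_take n (· ∈ Ws))
      (isRegular_length (fun m => m = n) (n + 1) 1 one_pos fun m hm => by omega))) fun u => ?_
  exact wl_iff n Ws u

/-- walls, as a regular relation -/
theorem WAp {k : ℕ} (i : Fin k) : RegP (fun w (x : Fin k → ℕ) => WA n Ws w (x i)) :=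
  (RegP.take (reg_wl n Ws) i).congr fun w x hx => ⟨fun h => h.2, fun h => ⟨hx i, h⟩⟩

theorem WAe {k : ℕ} : RegP (fun w (_ : Fin k → ℕ) => WA n Ws w w.length) :=
  (RegP.mem (reg_wl n Ws)).congr fun w x _ => by
    unfold WA
    rw [List.take_length]
    exact ⟨fun h => h.2, fun h => ⟨le_rfl, h⟩⟩

/-- ultimately periodic conditions on a position -/
theorem posP {k : ℕ} (P : ℕ → Prop) (N m : ℕ) (hm : 0 < m)
    (hP : ∀ n, N ≤ n → (P (n + m) ↔ P n)) (i : Fin k) :
    RegP (α := α) (fun _ (x : Fin k → ℕ) => P (x i)) :=
  (RegP.take (isRegular_length P N m hm hP) i).congr fun w x hx => by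
    have := hx i
    rw [List.length_take, min_eq_left this]

theorem posge {k : ℕ} (a b : ℕ) (i : Fin k) :
    RegP (α := α) (fun _ (x : Fin k → ℕ) => a ≤ x i + b) :=
  posP (fun m => a ≤ m + b) a 1 one_pos (fun m hm => by omega) i

theorem poslt {k : ℕ} (a b : ℕ) (i : Fin k) :
    RegP (α := α) (fun _ (x : Fin k → ℕ) => x i + b < a) :=
  posP (fun m => m + b < a) a 1 one_pos (fun m hm => by omega) i

theorem ltlen {k : ℕ} (i : Fin k) : RegP (fun (w : List α) (x : Fin k → ℕ) => x i < w.length) :=
  (RegP.drop (P := fun u : List α => 0 < u.length)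
    (isRegular_length (fun m => 0 < m) 1 1 one_pos fun m hm => by omega) i).congr fun w x hx => by
    rw [List.length_drop]
    omega

/-- `t = x i` is the only wall at a position `s` with `z ≤ s + b`, `s < |w|`; `|w|` is a wall -/
def Blb (z b : ℕ) (w : List α) (t : ℕ) : Prop :=
  z ≤ t + b ∧ t < w.length ∧ WA n Ws w t ∧ WA n Ws w w.length

def Unb (z b : ℕ) (w : List α) (t : ℕ) : Prop :=
  ∀ s, z ≤ s + b → s < w.length → WA n Ws w s → s = t

theorem Blbp {k : ℕ} (z b : ℕ) (i : Fin k) :
    RegP (fun w (x : Fin k → ℕ) => Blb n Ws z b w (x i)) :=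
  (posge z b i).and ((ltlen i).and ((WAp n Ws i).and (WAe n Ws)))

theorem Unbp {k : ℕ} (z b : ℕ) (i : Fin k) :
    RegP (fun w (x : Fin k → ℕ) => Unb n Ws z b w (x i)) := by
  have h : RegP (fun w (x : Fin k → ℕ) => ∀ y ≤ w.length,
      (z ≤ y + b → (y < w.length → (WA n Ws w y → y = x i)))) :=
    RegP.all' (P := fun w x y => z ≤ y + b → (y < w.length → (WA n Ws w y → y = x i)))
      ((posge z b 0).imp ((ltlen 0).imp ((WAp n Ws 0).imp (RegP.eq 0 i.succ))))
  refine h.congr fun w x _ => ?_
  constructor
  · intro h1 y hy h2 h3 h4; exact h1 y h2 h3 h4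
  · intro h1 s h2 h3 h4; exact h1 s h4.le h2 h3 h4

/-- existential closure over one position -/
theorem reg_exP {P : List α → ℕ → Prop} (h : RegP (fun w (x : Fin 1 → ℕ) => P w (x 0))) :
    (lg fun w => ∃ y ≤ w.length, P w y).IsRegular :=
  (RegP.ex' (k := 0) (P := fun w _ y => P w y) (by simpa using h)).close

end

end Crest.Agent.R320.Geo_216
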