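import Crest.Agent.R320.Geo4_216

/-!
# Row 320: regularity and height 1 of the languages of both schemes (helper216)
-/

set_option autoImplicit false
set_option linter.unusedSectionVars false
set_option linter.unusedVariables false

namespace Crest.Agent.R320.Geo_216

open Crest.Agent.R320.Hk_851 Crest.Agent.R320.Star_621 Crest.Agent.R320.Two_621
open Crest.Agent.R320.Main_621 Crest.R320.Reg_143

variable {α : Type}

/-- finite-state function -/
def FS {ι : Type} (A : List α → ι) : Prop := ∀ a, (lg fun u => A u = a).IsRegular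

theorem FS.rel {ι : Type} [Finite ι] {A : List α → ι} (hA : FS A) (R : ι → Prop) :
    (lg fun u => R (A u)).IsRegular := by
  refine reg_congr (reg_ex (P := fun (a : {a : ι // R a}) u => A u = a.1) fun a => hA a.1)
    fun w => ?_
  constructor
  · intro h; exact ⟨⟨A w, h⟩, rfl⟩
  · rintro ⟨a, h⟩; rw [h]; exact a.2

theorem FS.cut {ι κ : Type} [Finite ι] [Finite κ] {A : List α → ι} {B : List α → κ} (hA : FS A)
    (hB : FS B) (R : ι → κ → Prop) {k : ℕ} (i : Fin k) :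
    RegP (fun w (x : Fin k → ℕ) => R (A (w.take (x i))) (B (w.drop (x i)))) := by
  refine (RegP.exists_finite (ι := {q : ι × κ // R q.1 q.2})
    (P := fun q w (x : Fin k → ℕ) => A (w.take (x i)) = q.1.1 ∧ B (w.drop (x i)) = q.1.2)
    fun q => RegP.and (RegP.take (P := fun u => A u = q.1.1) (hA _) i)
      (RegP.drop (P := fun u => B u = q.1.2) (hB _) i)).congr fun w x _ => ?_
  constructor
  · intro h; exact ⟨⟨(A (w.take (x i)), B (w.drop (x i))), h⟩, rfl, rfl⟩
  · rintro ⟨q, h1, h2⟩; rw [h1, h2]; exact q.2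

theorem FS.prod {S : Type} [Monoid S] [Finite S] (f : α → S) :
    FS (fun w : List α => (w.map f).prod) := fun s => isRegular_monoid f (· = s)

/-- bounded support functions are finite-state -/
theorem FS.bdd [Finite α] {V : Type} {lam : List α → Option V} {N1 : ℕ}
    (h : ∀ p v, lam p = some v → p.length ≤ N1) : FS lam := by
  have hsome : ∀ o : Option V, (lg fun w : List α => lam (w.take (N1 + 1)) = o ∧
      w.length ≤ N1).IsRegular := fun o =>
    reg_and (isRegular_take (N1 + 1) (fun l => lam l = o))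
      (isRegular_length (fun m => m ≤ N1) (N1 + 1) 1 one_pos fun m hm => by omega)
  have hlong : (lg fun w : List α => ¬ w.length ≤ N1).IsRegular :=
    isRegular_length (fun m => ¬ m ≤ N1) (N1 + 1) 1 one_pos fun m hm => by omega
  intro o
  cases o with
  | none =>
    refine reg_congr (reg_or (hsome none) hlong) fun w => ?_
    by_cases hw : w.length ≤ N1
    · rw [List.take_of_length_le (by omega)]
      exact ⟨fun h1 => Or.inl ⟨h1, hw⟩, fun h1 => h1.elim (fun h2 => h2.1) fun h2 => absurd hw h2⟩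
    · refine ⟨fun _ => Or.inr hw, fun _ => ?_⟩
      by_contra hne
      obtain ⟨v, hv⟩ := Option.ne_none_iff_exists'.1 hne
      exact hw (h _ _ hv)
  | some v =>
    refine reg_congr (hsome (some v)) fun w => ?_
    constructor
    · intro hw
      have := h _ _ hw
      rw [List.take_of_length_le (by omega)]
      exact ⟨hw, this⟩
    · rintro ⟨h1, h2⟩
      rwa [List.take_of_length_le (by omega)] at h1

section

variable [Finite α] (n : ℕ) (Ws : Set (List α))

theorem Bl_iff {z : ℕ} {w : List α} {t : ℕ} :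
    Bl n Ws z w t ↔ Blb n Ws z 0 w t ∧ Unb n Ws z 0 w t :=
  ⟨fun h => ⟨⟨h.zt, h.lt, h.wt, h.we⟩, fun s h1 h2 h3 => h.un s h1 h2 h3⟩,
    fun h => ⟨h.1.1, h.1.2.1, h.1.2.2.1, h.1.2.2.2, fun s h1 h2 h3 => h.2 s h1 h2 h3⟩⟩

theorem BlY_iff {z p0 : ℕ} {w : List α} {t : ℕ} :
    BlY n Ws z p0 w t ↔ Blb n Ws z p0 w t ∧ Unb n Ws z p0 w t :=
  ⟨fun h => ⟨⟨h.zt, h.lt, h.wt, h.we⟩, fun s h1 h2 h3 => h.un s h1 h2 h3⟩,
    fun h => ⟨h.1.1, h.1.2.1, h.1.2.2.1, h.1.2.2.2, fun s h1 h2 h3 => h.2 s h1 h2 h3⟩⟩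

theorem reg_ZZ (z : ℕ) : (lg fun X : List α => ∃ t, Bl n Ws z X t).IsRegular := by
  refine reg_congr (reg_exP (P := fun w y => Blb n Ws z 0 w y ∧ Unb n Ws z 0 w y)
    ((Blbp n Ws z 0 0).and (Unbp n Ws z 0 0))) fun w => ?_
  constructor
  · rintro ⟨t, h⟩; exact ⟨t, h.lt.le, (Bl_iff n Ws).1 h⟩
  · rintro ⟨t, -, h⟩; exact ⟨t, (Bl_iff n Ws).2 h⟩

theorem reg_ZC (z p0 N1 Pm : ℕ) (hPm : 0 < Pm) (Bad : ℕ → Prop)
    (hBad : ∀ T, Bad (T + Pm) ↔ Bad T) :
    (lg fun X : List α => X ∈ ZC n Ws z p0 N1 Bad).IsRegular := by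
  have h1 : (lg fun X : List α => ∃ s ≤ X.length, WA n Ws X s ∧ z ≤ s + N1 ∧ s < z + N1).IsRegular :=
    reg_exP (P := fun X s => WA n Ws X s ∧ z ≤ s + N1 ∧ s < z + N1)
      ((WAp n Ws 0).and ((posge z N1 0).and
        ((poslt (z + N1) 0 0).congr fun w x _ => by simp)))
  refine reg_congr (reg_exP (P := fun w y => (Blb n Ws z 0 w y ∧ Unb n Ws z 0 w y) ∧
      ((∃ s ≤ w.length, WA n Ws w s ∧ z ≤ s + N1 ∧ s < z + N1) ∨ Bad (y - p0)))
    (((Blbp n Ws z 0 0).and (Unbp n Ws z 0 0)).and ((RegP.mem h1).or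
      (posP (fun m => Bad (m - p0)) p0 Pm hPm (fun m hm => by
        have e : m + Pm - p0 = (m - p0) + Pm := by omega
        rw [e]; exact hBad _) 0)))) fun w => ?_
  constructor
  · rintro ⟨t, h, hc⟩
    refine ⟨t, h.lt.le, (Bl_iff n Ws).1 h, ?_⟩
    rcases hc with ⟨s, h1, h2, h3⟩ | hc
    · exact Or.inl ⟨s, h1.le, h1, h2, h3⟩
    · exact Or.inr hc
  · rintro ⟨t, -, h, hc⟩
    refine ⟨t, (Bl_iff n Ws).2 h, ?_⟩
    rcases hc with ⟨s, -, h1⟩ | hc
    · exact Or.inl ⟨s, h1⟩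
    · exact Or.inr hc

variable {S : Type} [Monoid S] [Finite S] (ph : List α → S) (hph : FS ph) (z p0 N1 : ℕ)
  (lam rho : List α → Option (Tok S)) (nu : List α → Tok S)
  (hl : FS lam) (hr : FS rho) (hn : FS nu)

include hph

include hr in
theorem reg_RA (τ : Tok S) : (lg fun Q : List α => Q ∈ RA ph n Ws z p0 N1 rho τ).IsRegular := by
  refine reg_congr (reg_exP (P := fun w y => (Blb n Ws z p0 w y ∧ Unb n Ws z (p0 + N1) w y) ∧
      (∃ r, rho (w.take y) = some r ∧ τ = act r (ph (w.drop y))))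
    (((Blbp n Ws z p0 0).and (Unbp n Ws z (p0 + N1) 0)).and
      (FS.cut hr hph (fun o s => ∃ r, o = some r ∧ τ = act r s) 0))) fun w => ?_
  constructor
  · rintro ⟨t, r, h1, h2, h3, h4, h5, h6, h7⟩
    exact ⟨t, h2.le, ⟨⟨by omega, h2, h3, h4⟩, fun s a b c => h5 s (by omega) b c⟩, r, h6, h7⟩
  · rintro ⟨t, -, ⟨⟨h1, h2, h3, h4⟩, h5⟩, r, h6, h7⟩
    exact ⟨t, r, by omega, h2, h3, h4, fun s a b c => h5 s (by omega) b c, h6, h7⟩

include hn in
theorem FS_dY : FS (dY ph n Ws z p0 nu) := by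
  intro d
  have h1 : (lg fun w : List α => ∃ y ≤ w.length, (Blb n Ws z p0 w y ∧ Unb n Ws z p0 w y) ∧
      act (nu (w.take y)) (ph (w.drop y)) = d).IsRegular :=
    reg_exP (P := fun w y => (Blb n Ws z p0 w y ∧ Unb n Ws z p0 w y) ∧
        act (nu (w.take y)) (ph (w.drop y)) = d)
      (((Blbp n Ws z p0 0).and (Unbp n Ws z p0 0)).and
        (FS.cut hn hph (fun r s => act r s = d) 0))
  have h2 : (lg fun w : List α => ∃ y ≤ w.length, Blb n Ws z p0 w y ∧ Unb n Ws z p0 w y).IsRegular :=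
    reg_exP (P := fun w y => Blb n Ws z p0 w y ∧ Unb n Ws z p0 w y)
      ((Blbp n Ws z p0 0).and (Unbp n Ws z p0 0))
  refine reg_congr (reg_or h1 (reg_and (reg_not h2) (reg_const ((0 : Tok S) = d)))) fun w => ?_
  by_cases hex : ∃ t, BlY n Ws z p0 w t
  · obtain ⟨t, ht⟩ := hex
    rw [dY_eq ph n Ws z p0 nu ht]
    constructor
    · intro h; exact Or.inl ⟨t, ht.lt.le, (BlY_iff n Ws).1 ht, h⟩
    · rintro (⟨y, -, hy, h⟩ | ⟨h, -⟩)
      · have hy' := (BlY_iff n Ws).2 hy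
        have e : y = t := ht.un y hy'.zt hy'.lt hy'.wt
        rwa [← e]
      · exact absurd ⟨t, ht.lt.le, (BlY_iff n Ws).1 ht⟩ h
  · have e : dY ph n Ws z p0 nu w = 0 := by unfold dY; rw [dif_neg hex]
    rw [e]
    constructor
    · intro h
      refine Or.inr ⟨?_, h⟩
      rintro ⟨y, -, hy⟩
      exact hex ⟨y, (BlY_iff n Ws).2 hy⟩
    · rintro (⟨y, -, hy, -⟩ | ⟨-, h⟩)
      · exact absurd ⟨y, (BlY_iff n Ws).2 hy⟩ hex
      · exact h

include hl hr in
theorem reg_CutY (u : Tok S) :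
    (lg fun Y : List α => CutY ph n Ws z p0 N1 lam rho u Y).IsRegular := by
  have h1 : (lg fun Q : List α => ∃ τ, Q ∈ RA ph n Ws z p0 N1 rho τ).IsRegular :=
    reg_ex fun τ => reg_RA n Ws ph hph z p0 N1 rho hr τ
  refine reg_congr (reg_exP (P := fun w y => lam (w.take y) = some u ∧
      (∃ τ, w.drop y ∈ RA ph n Ws z p0 N1 rho τ))
    ((RegP.take (P := fun p => lam p = some u) (hl _) 0).and
      (RegP.drop (P := fun Q => ∃ τ, Q ∈ RA ph n Ws z p0 N1 rho τ) h1 0))) fun w => ?_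
  constructor
  · rintro ⟨p, Q, τ, rfl, h2, h3⟩
    refine ⟨p.length, by simp, ?_, τ, ?_⟩
    · rwa [List.take_left]
    · rwa [List.drop_left]
  · rintro ⟨y, -, h2, τ, h3⟩
    exact ⟨w.take y, w.drop y, τ, (List.take_append_drop _ _).symm, h2, h3⟩

include hl hr hn in
theorem FS_Fm : FS (fun Y => fun g => Fm ph n Ws z p0 N1 lam rho nu g Y) := by
  classical
  intro y
  have hd := FS_dY n Ws ph hph z p0 nu hn
  have hval : ∀ (u : Tok S) (o : Option (Tok S)), (lg fun Y : List α =>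
      some (act u (ph Y) + dY ph n Ws z p0 nu Y) = o).IsRegular := by
    intro u o
    refine reg_congr (reg_ex (ι := {q : S × Tok S // some (act u q.1 + q.2) = o})
      (P := fun q Y => ph Y = q.1.1 ∧ dY ph n Ws z p0 nu Y = q.1.2)
      fun q => reg_and (hph _) (hd _)) fun w => ?_
    constructor
    · intro h; exact ⟨⟨(ph w, dY ph n Ws z p0 nu w), h⟩, rfl, rfl⟩
    · rintro ⟨q, h1, h2⟩; rw [h1, h2]; exact q.2
  have hone : ∀ (g : S) (v : Tok S) (o : Option (Tok S)), (lg fun Y : List α =>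
      (if CutY ph n Ws z p0 N1 lam rho (act v g) Y then none
        else some (act (act v g) (ph Y) + dY ph n Ws z p0 nu Y)) = o).IsRegular := by
    intro g v o
    have hc := reg_CutY n Ws ph hph z p0 N1 lam rho hl hr (act v g)
    refine reg_congr (reg_or (reg_and hc (reg_const (none = o)))
      (reg_and (reg_not hc) (hval (act v g) o))) fun w => ?_
    by_cases h : CutY ph n Ws z p0 N1 lam rho (act v g) w
    · rw [if_pos h]
      exact ⟨fun h1 => Or.inl ⟨h, h1⟩, fun h1 => h1.elim (fun h2 => h2.2) fun h2 => absurd h h2.1⟩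
    · rw [if_neg h]
      exact ⟨fun h1 => Or.inr ⟨h, h1⟩, fun h1 => h1.elim (fun h2 => absurd h2.1 h) fun h2 => h2.2⟩
  refine reg_congr (reg_and (reg_const (∀ g, (y g).unop (none : Option (Tok S)) = none))
    (reg_all fun g : S => reg_all fun v : Tok S => hone g v ((y g).unop (some v)))) fun w => ?_
  constructor
  · intro h
    refine ⟨fun g => ?_, fun g v => ?_⟩
    · rw [← h]; rfl
    · rw [← h]
      unfold Fm
      show _ = if _ then none else some _
      congr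
  · rintro ⟨h1, h2⟩
    funext g
    refine MulOpposite.unop_injective ?_
    funext o
    cases o with
    | none => exact (h1 g).symm
    | some v =>
      rw [← h2 g v]
      unfold Fm
      show (if _ then none else some _) = _
      congr

variable (K : ℕ) (c : ℕ → ℕ) (Bad : ℕ → Prop) (Pm : ℕ) (hPm : 0 < Pm)
  (hBad : ∀ T, Bad (T + Pm) ↔ Bad T)

omit hph in
include hPm hBad in
theorem reg_bd (k : ℕ) : (lg fun Q : List α => bd n Ws z p0 N1 c Bad k Q).IsRegular := by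
  have h1 : (lg fun X : List α => ∃ s ≤ X.length, WA n Ws X s ∧ z ≤ s + (c k + N1) ∧
      s + c k < z + N1).IsRegular :=
    reg_exP (P := fun X s => WA n Ws X s ∧ z ≤ s + (c k + N1) ∧ s + c k < z + N1)
      ((WAp n Ws 0).and ((posge z (c k + N1) 0).and (poslt (z + N1) (c k) 0)))
  have h2 : RegP (fun w (x : Fin 1 → ℕ) => ∀ y ≤ w.length,
      (z ≤ y + c k → (y < x 0 → ¬ WA n Ws w y))) :=
    RegP.all' (P := fun w x y => z ≤ y + c k → (y < x 0 → ¬ WA n Ws w y))
      ((posge z (c k) 0).imp ((RegP.lt 0 (Fin.succ 0)).imp ((WAp n Ws 0).not)))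
  have h3 := reg_exP (P := fun w t => z ≤ t + c k ∧ WA n Ws w t ∧
      (∀ y ≤ w.length, (z ≤ y + c k → (y < t → ¬ WA n Ws w y))) ∧ Bad (t + c k - p0))
    ((posge z (c k) 0).and ((WAp n Ws 0).and (h2.and
      (posP (fun m => Bad (m + c k - p0)) p0 Pm hPm (fun m hm => by
        have e : m + Pm + c k - p0 = (m + c k - p0) + Pm := by omega
        rw [e]; exact hBad _) 0))))
  refine reg_congr (reg_or h1 h3) fun w => ?_
  constructor
  · rintro (⟨s, a, b, d⟩ | ⟨t, a, b, d, e⟩)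
    · exact Or.inl ⟨s, a.le, a, by omega, d⟩
    · exact Or.inr ⟨t, b.le, a, b, fun y _ h4 h5 => d y h4 h5, e⟩
  · rintro (⟨s, -, a, b, d⟩ | ⟨t, -, a, b, d, e⟩)
    · exact Or.inl ⟨s, a, by omega, d⟩
    · exact Or.inr ⟨t, a, b, fun y h4 h5 h6 => d y h6.le h4 h5 h6, e⟩

theorem finite_T2 : Finite (T2 S) := by
  haveI : Finite (Function.End (Option (Tok S))) :=
    inferInstanceAs (Finite (Option (Tok S) → Option (Tok S)))
  exact Finite.of_injective MulOpposite.unop MulOpposite.unop_injective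

variable (rho2 : ℕ → List α → (S → T2 S) → Option (Tok (T2 S)))

include hl hr hn hPm hBad in
theorem reg_RB (τ : Tok (T2 S)) :
    (lg fun Q : List α => Q ∈ RB ph n Ws z p0 N1 lam rho nu K c Bad rho2 τ).IsRegular := by
  haveI : Finite (T2 S) := finite_T2 ph hph
  have hFm := FS_Fm n Ws ph hph z p0 N1 lam rho nu hl hr hn
  have hb := fun k => reg_bd n Ws z p0 N1 c Bad Pm hPm hBad k
  have hgd : ∀ k : ℕ, (lg fun Q : List α => ∃ y : S → T2 S,
      rho2 k (Q.take (p0 - c k)) y = some τ ∧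
        (fun g => Fm ph n Ws z p0 N1 lam rho nu g (Q.drop (p0 - c k))) = y).IsRegular := fun k =>
    reg_ex fun y => reg_and (isRegular_take (p0 - c k) (fun l => rho2 k l y = some τ))
      (reg_drop (P := fun Y => (fun g => Fm ph n Ws z p0 N1 lam rho nu g Y) = y) (hFm y) _)
  refine reg_congr (reg_ex (ι := Fin K) (P := fun k Q => bd n Ws z p0 N1 c Bad k Q ∧
    ((∀ k' : Fin K, k' ≠ k → ¬ bd n Ws z p0 N1 c Bad k' Q) ∧
    ((∃ t ≤ Q.length, Blb n Ws z (c k) Q t ∧ Unb n Ws z (c k) Q t) ∧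
    ∃ y : S → T2 S, rho2 k (Q.take (p0 - c k)) y = some τ ∧
        (fun g => Fm ph n Ws z p0 N1 lam rho nu g (Q.drop (p0 - c k))) = y)))
    fun k => reg_and (hb k) (reg_and (reg_all fun k' => ?_)
      (reg_and (reg_exP (P := fun Q t => Blb n Ws z (c k) Q t ∧ Unb n Ws z (c k) Q t)
        ((Blbp n Ws z (c k) 0).and (Unbp n Ws z (c k) 0))) (hgd k)))) fun w => ?_
  · by_cases h : k' ≠ k
    · refine reg_congr (reg_not (hb k')) fun w => ?_
      exact ⟨fun h1 => h1 h, fun h1 _ => h1⟩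
    · exact reg_congr isRegular_true fun w => ⟨fun _ => trivial, fun _ h1 => absurd h1 h⟩
  · constructor
    · rintro ⟨k, hk, h1, h2, ⟨t, a1, a2, a3, a4, a5⟩, h4⟩
      refine ⟨⟨k, hk⟩, h1, fun k' hne => h2 k'.1 k'.2 fun e => hne (Fin.ext e),
        ⟨t, a2.le, ⟨a1, a2, a3, a4⟩, a5⟩, _, h4, rfl⟩
    · rintro ⟨k, h1, h2, ⟨t, -, ⟨a1, a2, a3, a4⟩, a5⟩, y, h4, rfl⟩
      exact ⟨k.1, k.2, h1, fun k' hk' hne => h2 ⟨k', hk'⟩ fun e => hne (congrArg Fin.val e),
        ⟨t, a1, a2, a3, a4, a5⟩, h4⟩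

end

end Crest.Agent.R320.Geo_216
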