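import Crest.Agent.R320.Geo5_216

/-!
# Row 320: `Data` from the U-gadget (natural chain rule) (helper216)
-/

set_option autoImplicit false
set_option linter.unusedSectionVars false
set_option linter.unusedVariables false

namespace Crest.Agent.R320.Geo_216

open Crest.Agent.R320.Hk_851 Crest.Agent.R320.Star_621 Crest.Agent.R320.Two_621
open Crest.Agent.R320.Main_621 Crest.R320.Reg_143
open Crest.Agent.R320.FewWalls_228 Crest.Agent.R320.FewVal_228

variable {α : Type}

theorem Wl_iff {n : ℕ} {Ws : Set (List α)} {w : List α} {x : ℕ} :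
    Wl n Ws w x ↔ WA n Ws w (x + n) := by
  rw [WA_iff]
  unfold Wl
  rw [Nat.add_sub_cancel]
  constructor
  · rintro ⟨h1, h2⟩; exact ⟨by omega, h1, h2⟩
  · rintro ⟨-, h1, h2⟩; exact ⟨h1, h2⟩

theorem nw_le {n : ℕ} {Ws : Set (List α)} {w : List α} {z a b : ℕ}
    (h : ∀ s, WA n Ws w s → z ≤ s → s = a ∨ s = b) : nw n Ws w ≤ z + 2 := by
  classical
  unfold nw
  have hsub : ((Finset.range (w.length + 1)).filter (fun x => Wl n Ws w x)) ⊆
      insert (a - n) (insert (b - n) (Finset.range z)) := by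
    intro x hx
    rw [Finset.mem_filter] at hx
    have h1 := Wl_iff.1 hx.2
    rw [Finset.mem_insert, Finset.mem_insert, Finset.mem_range]
    by_cases hz : z ≤ x + n
    · rcases h _ h1 hz with h2 | h2
      · left; omega
      · right; left; omega
    · right; right; omega
  refine (Finset.card_le_card (by convert hsub)).trans ?_
  refine (Finset.card_insert_le _ _).trans ?_
  have := Finset.card_insert_le (b - n) (Finset.range z)
  rw [Finset.card_range] at this
  omega

theorem hl_few [Finite α] {n c P : ℕ} {Ws : Set (List α)} (hn : 0 < n) (hP : 0 < P)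
    (hper : PerOff n c P Ws) {L : List α → Prop} (hL : (lg L).IsRegular) (z : ℕ)
    (h : ∀ w, L w → ∃ a b, ∀ s, WA n Ws w s → z ≤ s → s = a ∨ s = b) : HL 1 (lg L) :=
  HL_of_few hn hP hper (z + 2) hL fun w hw => by
    obtain ⟨a, b, hab⟩ := h w hw
    exact nw_le hab

theorem Bl.two {n : ℕ} {Ws : Set (List α)} {z : ℕ} {w : List α} {t : ℕ} (h : Bl n Ws z w t) :
    ∃ a b, ∀ s, WA n Ws w s → z ≤ s → s = a ∨ s = b := by
  refine ⟨t, w.length, fun s hs hz => ?_⟩
  rcases Nat.lt_or_ge s w.length with h1 | h1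
  · exact Or.inl (h.un s hz h1 hs)
  · exact Or.inr (le_antisymm hs.le h1)

theorem rest_two {n : ℕ} {Ws : Set (List α)} {z : ℕ} {w : List α}
    (h : ∀ X, X ∈ ZZ n Ws z → ¬ X <+: w) :
    ∃ a b, ∀ s, WA n Ws w s → z ≤ s → s = a ∨ s = b := by
  classical
  by_cases hex : ∃ s, WA n Ws w s ∧ z ≤ s
  · refine ⟨Nat.find hex, Nat.find hex, fun s hs hz => ?_⟩
    obtain ⟨ha1, ha2⟩ := Nat.find_spec hex
    have ha3 : Nat.find hex ≤ s := Nat.find_min' hex ⟨hs, hz⟩
    by_contra hne
    have hlt : Nat.find hex < s := by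
      rcases Nat.lt_or_ge (Nat.find hex) s with h1 | h1
      · exact h1
      · exact absurd (Or.inl (le_antisymm h1 ha3)) hne
    have hex2 : ∃ b, WA n Ws w b ∧ Nat.find hex < b := ⟨s, hs, hlt⟩
    obtain ⟨hb1, hb2⟩ := Nat.find_spec hex2
    set b := Nat.find hex2 with hb
    set a := Nat.find hex with ha
    have hbw : b ≤ w.length := hb1.le
    have hlen : (w.take b).length = b := by rw [List.length_take]; omega
    have key : ∀ s, s ≤ b → (WA n Ws (w.take b) s ↔ WA n Ws w s) := by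
      intro s hs
      have := WA_append_left (n := n) (Ws := Ws) (u := w.take b) (v := w.drop b) (t := s) (by omega)
      rw [List.take_append_drop] at this
      exact this.symm
    refine h (w.take b) ⟨a, ha2, by omega, (key a (by omega)).2 ha1, ?_, ?_⟩ (List.take_prefix _ _)
    · rw [hlen]; exact (key b le_rfl).2 hb1
    · intro s' h1 h2 h3
      have h4 := (key s' (by omega)).1 h3
      have h5 : a ≤ s' := Nat.find_min' hex ⟨h4, h1⟩
      by_contra h6
      have h7 : b ≤ s' := Nat.find_min' hex2 ⟨h4, by omega⟩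
      omega
  · refine ⟨0, 0, fun s hs hz => absurd ⟨s, hs, hz⟩ hex⟩

/-- finite-state functions from a local clause -/
theorem FS.of_clause [Finite α] {S ι : Type} [Monoid S] [Finite S] (f : α → S) (B : List α → ι)
    (La Pm : ℕ) (hPm : 0 < Pm)
    (h : ∀ q q2 : List α, La ≤ q.length → La ≤ q2.length → q.take La = q2.take La →
      q.length % Pm = q2.length % Pm → (q.map f).prod = (q2.map f).prod → B q = B q2) : FS B := by
  intro a
  haveI : Finite {l : List α // l.length ≤ La} := (List.finite_length_le α La).to_subtype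
  have h1 : (lg fun u : List α => u.length < La ∧ B (u.take La) = a).IsRegular :=
    reg_and (isRegular_length (fun m => m < La) La 1 one_pos fun m hm => by omega)
      (isRegular_take La (fun l => B l = a))
  have h2 : (lg fun u : List α => ∃ k : {k : {l : List α // l.length ≤ La} × Fin Pm × S //
      ∃ u0 : List α, La ≤ u0.length ∧ u0.take La = k.1.1 ∧ u0.length % Pm = k.2.1.1 ∧
        (u0.map f).prod = k.2.2 ∧ B u0 = a}, La ≤ u.length ∧ (u.take La = k.1.1.1 ∧
        (u.length % Pm = k.1.2.1.1 ∧ (u.map f).prod = k.1.2.2))).IsRegular :=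
    reg_ex fun k => reg_and
      (isRegular_length (fun m => La ≤ m) La 1 one_pos fun m hm => by omega)
      (reg_and (isRegular_take La (fun l => l = k.1.1.1)) (reg_and
        (isRegular_length (fun m => m % Pm = k.1.2.1.1) 0 Pm hPm fun m hm => by simp)
        (isRegular_monoid f (fun s => s = k.1.2.2))))
  refine reg_congr (reg_or h1 h2) fun u => ?_
  constructor
  · intro hu
    rcases Nat.lt_or_ge u.length La with h3 | h3
    · left
      refine ⟨h3, ?_⟩
      rwa [List.take_of_length_le h3.le]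
    · right
      exact ⟨⟨(⟨u.take La, by rw [List.length_take]; omega⟩, ⟨u.length % Pm, Nat.mod_lt _ hPm⟩,
        (u.map f).prod), u, h3, rfl, rfl, rfl, hu⟩, h3, rfl, rfl, rfl⟩
  · rintro (⟨h3, h4⟩ | ⟨⟨k, u0, a1, a2, a3, a4, a5⟩, b1, b2, b3, b4⟩)
    · rwa [List.take_of_length_le h3.le] at h4
    · rw [← a5]
      exact h u u0 b1 a1 (b2.trans a2.symm) (b3.trans a3.symm) (b4.trans a4.symm)

open Classical in
/-- the U-gadget on all words (772 #13437, literal form for alphabets in `Type`) -/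
def UGI (S V : Type) [Monoid S] [AddCommGroup V] (act : V → S → V) : Prop :=
  ∃ C0 : ℕ, ∀ K : ℕ, ∃ (N1 Pm La : ℕ) (c : ℕ → ℕ) (Bad : ℕ → Prop), 0 < Pm ∧
    (∀ i j, i < j → j < K → c i < c j) ∧
    (∀ i < K, ∀ j < K, ∀ k < K, ∀ l < K, i ≠ j → k ≠ l → (i, j) ≠ (k, l) →
      c i + c l + 4 * N1 < c k + c j ∨ c k + c j + 4 * N1 < c i + c l) ∧
    (∀ T, Bad (T + Pm) ↔ Bad T) ∧
    (∀ T, La ≤ T → ((Finset.range K ×ˢ Finset.range K).filter
      fun q => q.1 ≠ q.2 ∧ Bad (T + c q.2 - c q.1)).card ≤ C0) ∧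
    ∀ (A : Type) (f : A → S), ∃ (lam rho : List A → Option V) (nu : List A → V),
      (∀ p v, lam p = some v → p.length ≤ N1) ∧
      (∀ p q v r, lam p = some v → rho q = some r → La ≤ q.length →
        r = act v ((p ++ q).map f).prod + nu (p ++ q)) ∧
      (∀ u : List A, La ≤ u.length → ¬ Bad u.length → ∀ v, ∃ p q, p ++ q = u ∧
        lam p = some v ∧ (rho q).isSome) ∧
      (∀ q q2 : List A, La ≤ q.length → La ≤ q2.length → q.take La = q2.take La →
        q.length % Pm = q2.length % Pm → (q.map f).prod = (q2.map f).prod →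
        rho q = rho q2 ∧ nu q = nu q2)

theorem data [Finite α] (S : Type) [Monoid S] [Finite S] (f : α → S)
    (hU : UGI S (Tok S) (fun v s => act v s)) :
    Data (fun w : List α => (w.map f).prod) := by
  classical
  obtain ⟨C0, hU⟩ := hU
  haveI : Finite (T2 S) := finite_T2 (α := α) (fun w => (w.map f).prod) (FS.prod f)
  haveI : Fintype S := Fintype.ofFinite S
  haveI : Fintype (S → T2 S) := Fintype.ofFinite _
  haveI : Fintype (Tok (T2 S)) := Fintype.ofFinite _
  obtain ⟨K, hK⟩ := Crest.Agent.R320.ExactT_580.exact_gadget_tail α S (S → T2 S) (Tok (T2 S)) f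
    (fun v g r => act v (r g)) (2 + 2 * C0)
  obtain ⟨N1, Pm, La, c, Bad, hPm, hc, hgol, hBad, hthin, hU⟩ := hU K
  obtain ⟨lam, rho, nu, hlam, hex, hcp, hcl⟩ := hU α f
  obtain ⟨lam2, rho2, nu2, hs2, hc2⟩ := hK (fun k => c k + 1)
    (fun i j h1 h2 => by have := hc i j h1 h2; omega)
  obtain ⟨e, he⟩ : ∃ e, ∀ k < K, c k + 1 ≤ e :=
    ⟨(Finset.range K).sup (fun k => c k + 1), fun k hk =>
      Finset.le_sup (f := fun k => c k + 1) (Finset.mem_range.2 hk)⟩
  obtain ⟨n, cc, P, Ws, hn, hP, hWs, hsep, hper, -⟩ :=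
    exists_walls α (2 * (e + 1) + 2 * N1 + 1) (by omega)
  have hgap : ∀ (w : List α) s t, WA n Ws w s → WA n Ws w t → s < t →
      s + (2 * (e + 1) + 2 * N1 + 1) ≤ t := by
    intro w s t h1 h2 h3
    have h4 := h1.n_le
    have h5 := hsep w (s - n) (t - n) (by omega)
      (Wl_iff.2 (by rwa [Nat.sub_add_cancel h1.n_le]))
      (Wl_iff.2 (by rwa [Nat.sub_add_cancel h2.n_le]))
    omega
  let rho' : List α → Option (Tok S) := fun q => if La ≤ q.length then rho q else none
  have hrho' : ∀ q r, rho' q = some r → La ≤ q.length ∧ rho q = some r := by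
    intro q r h
    by_cases h1 : La ≤ q.length
    · simp only [rho', if_pos h1] at h; exact ⟨h1, h⟩
    · simp only [rho', if_neg h1] at h; cases h
  have hrho2 : ∀ q, La ≤ q.length → rho' q = rho q := by
    intro q h; simp only [rho', if_pos h]
  let ph : List α → S := fun w => (w.map f).prod
  have hm : ∀ a b, ph (a ++ b) = ph a * ph b := by
    intro a b; simp [ph]
  let p0 := e + 1
  let La2 := La + N1
  let z := n + La2 + 2 * p0 + N1
  have hzdef : z = n + (La + N1) + 2 * (e + 1) + N1 := rfl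
  have hp0def : p0 = e + 1 := rfl
  have hex' : ∀ p q v r, lam p = some v → rho' q = some r →
      r = act v (ph (p ++ q)) + nu (p ++ q) := by
    intro p q v r h1 h2
    obtain ⟨h3, h4⟩ := hrho' q r h2
    exact hex p q v r h1 h4 h3
  have hcp' : ∀ u : List α, La2 ≤ u.length → ¬ Bad u.length → ∀ v, ∃ p q, p ++ q = u ∧
      lam p = some v ∧ (rho' q).isSome := by
    intro u h1 h2 v
    have hLa2 : La2 = La + N1 := rfl
    obtain ⟨p, q, h3, h4, h5⟩ := hcp u (by omega) h2 v
    have h6 := hlam _ _ h4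
    have h7 : p.length + q.length = u.length := by rw [← h3, List.length_append]
    refine ⟨p, q, h3, h4, ?_⟩
    rw [hrho2 q (by omega)]
    exact h5
  have hph : FS ph := FS.prod f
  have hlF : FS lam := FS.bdd hlam
  have hrF : FS rho' := FS.of_clause f rho' La Pm hPm fun q q2 h1 h2 h3 h4 h5 => by
    rw [hrho2 q h1, hrho2 q2 h2]; exact (hcl q q2 h1 h2 h3 h4 h5).1
  have hnF : FS nu := FS.of_clause f nu La Pm hPm fun q q2 h1 h2 h3 h4 h5 =>
    (hcl q q2 h1 h2 h3 h4 h5).2
  let c' : ℕ → ℕ := fun k => c k + 1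
  have hgol' : ∀ i < K, ∀ j < K, ∀ k < K, ∀ l < K, i ≠ j → k ≠ l → (i, j) ≠ (k, l) →
      c' i + c' l + 4 * N1 < c' k + c' j ∨ c' k + c' j + 4 * N1 < c' i + c' l := by
    intro i hi j hj k hk l hl h1 h2 h3
    simp only [c']
    rcases hgol i hi j hj k hk l hl h1 h2 h3 with h | h
    · left; omega
    · right; omega
  have hthin' : ∀ T, La2 ≤ T → ((Finset.range K ×ˢ Finset.range K).filter
      fun q => q.1 ≠ q.2 ∧ Bad (T + c' q.2 - c' q.1)).card ≤ C0 := by
    intro T hT
    have hLa2 : La2 = La + N1 := rfl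
    refine le_trans (le_of_eq ?_) (hthin T (by omega))
    congr 1
    refine Finset.filter_congr fun q _ => ?_
    have e1 : T + c' q.2 - c' q.1 = T + c q.2 - c q.1 := by simp only [c']; omega
    rw [e1]
  refine ⟨ZZ n Ws z, ZC n Ws z p0 N1 Bad, fun X => dY ph n Ws z p0 nu (X.drop p0),
    LA ph p0 lam, RA ph n Ws z p0 N1 rho',
    fun X => nu2 (X.take p0) (fun g => Fm ph n Ws z p0 N1 lam rho' nu g (X.drop p0)),
    LB K c' lam2, RB ph n Ws z p0 N1 lam rho' nu K c' Bad rho2, code, ?_, ?_, ?_, ?_, ?_, ?_, ?_,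
    ?_, ?_, ?_, ?_, ?_⟩
  · rintro X ⟨t, h, -⟩; exact ⟨t, h⟩
  · exact hl_few hn hP hper (reg_ZZ n Ws z) z fun w ⟨t, h⟩ => h.two
  · exact hl_few hn hP hper (reg_ZC n Ws z p0 N1 Pm hPm Bad hBad) z fun w ⟨t, h, _⟩ => h.two
  · exact soundA ph n Ws z p0 N1 lam rho' nu hm (by omega) hlam hex' (by omega)
  · intro v
    refine HL.finite ((List.finite_length_le α (p0 + N1)).subset ?_)
    rintro P' ⟨h1, h2⟩
    have := hlam _ _ h2
    rw [List.length_drop] at this
    show P'.length ≤ p0 + N1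
    omega
  · intro τ
    refine hl_few hn hP hper (reg_RA n Ws ph hph z p0 N1 rho' hrF τ) z ?_
    rintro Q ⟨t, r, h1, h2, h3, h4, h5, -, -⟩
    refine ⟨t, Q.length, fun s hs hz => ?_⟩
    rcases Nat.lt_or_ge s Q.length with h6 | h6
    · exact Or.inl (h5 s (by omega) h6 hs)
    · exact Or.inr (le_antisymm hs.le h6)
  · intro X hX1 hX2 v
    exact cutA ph n Ws z p0 N1 La2 lam rho' Bad (by omega) (by omega) hlam hcp' hX1 hX2 v
  · exact soundB ph n Ws z p0 N1 lam rho' nu K c' Bad lam2 rho2 nu2 (e := e) hm hgap (by omega)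
      (by omega) (fun k hk => Nat.succ_pos _) he (by omega)
      (fun k hk P Q y v b h1 h2 h3 => hs2 k hk P Q y v b h1 h2 h3)
  · rintro w
    refine HL.finite ((List.finite_length_le α e).subset ?_)
    rintro P' ⟨k, hk, h1, -⟩
    show P'.length ≤ e
    rw [h1]; exact he k hk
  · intro τ
    refine hl_few hn hP hper (reg_RB n Ws ph hph z p0 N1 lam rho' nu hlF hrF hnF K c' Bad Pm hPm
      hBad rho2 τ) z ?_
    rintro Q ⟨k, hk, -, -, ⟨t, h1, h2, h3, h4, h5⟩, -⟩
    refine ⟨t, Q.length, fun s hs hz => ?_⟩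
    rcases Nat.lt_or_ge s Q.length with h6 | h6
    · exact Or.inl (h5 s (by omega) h6 hs)
    · exact Or.inr (le_antisymm hs.le h6)
  · intro X hX w
    exact cutB ph n Ws z p0 N1 lam rho' nu K c' Bad lam2 rho2 (e := e) (La := La2) (C0 := C0)
      (R := 2 + 2 * C0) hgap (by omega) (by omega) (by omega) he (by omega) hgol' hthin'
      (by omega) (fun u y v h => hc2 u y v h) hX w
  · intro s
    have h1 : (lg fun w : List α => ∃ y ≤ w.length, ∃ t, Bl n Ws z (w.take y) t).IsRegular :=
      reg_exP (P := fun w y => ∃ t, Bl n Ws z (w.take y) t)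
        (RegP.take (P := fun X => ∃ t, Bl n Ws z X t) (reg_ZZ n Ws z) 0)
    have h2 : (lg fun w : List α => (∀ X ∈ ZZ n Ws z, ¬ X <+: w) ∧ ph w = s).IsRegular := by
      refine reg_congr (reg_and (reg_not h1) (hph s)) fun w => ?_
      constructor
      · rintro ⟨h3, h4⟩
        refine ⟨?_, h4⟩
        rintro ⟨y, -, t, h5⟩
        exact h3 _ ⟨t, h5⟩ (List.take_prefix _ _)
      · rintro ⟨h3, h4⟩
        refine ⟨?_, h4⟩
        rintro X ⟨t, hX⟩ hp
        obtain ⟨v, rfl⟩ := hp
        exact h3 ⟨X.length, by simp, t, by rwa [List.take_left]⟩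
    exact (hl_few hn hP hper h2 z fun w hw => rest_two hw.1).mono (by omega)

end Crest.Agent.R320.Geo_216
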