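import Mathlib

/-!
# Row 320 (helper572): geometry of the inner (promise) scheme on blocks with left-looking walls

Natural chain: `τ` = first wall at distance `≥ z0` from the anchor, block end = next wall after `τ`.
A place `x = a + c k` (`k < K`) is claimed by `k'` if the anchor `x - c k'` would be bad.
* `sound`: if the right word has exactly one claim and ends at the block end of that claim, then
  the claim is the true one and the right word ends at the true block end.
* `spoiled_card`: at most `1 + 2 |Ms|` places have a second claim.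
-/

set_option autoImplicit false

namespace Crest.Agent.R320.GeoB_572

variable {α : Type*}

structure Par (α : Type*) where
  Wo : List α → Prop
  n : ℕ
  W : ℕ
  p0 : ℕ
  z0 : ℕ
  N1 : ℕ
  Lam : ℕ
  Ms : Finset ℕ
  K : ℕ
  c : ℕ → ℕ
  loc : ∀ P Q : List α, n ≤ Q.length → (Wo (P ++ Q) ↔ Wo Q)
  gap : ∀ (U : List α) (s t : ℕ), s < t → t ≤ U.length → Wo (U.take s) → Wo (U.take t) → W < t - s
  hcL : ∀ k < K, c k ≤ Lam
  hLp : Lam ≤ p0
  hz : n + N1 + p0 ≤ z0
  hW : 2 * N1 + 2 * Lam < W
  rN : ∀ k k' l l', k < K → k' < K → l < K → l' < K → k ≠ k' → l ≠ l' →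
    |((c k : ℤ) - c k') - ((c l : ℤ) - c l')| ≤ 2 * N1 → k = l
  rM : ∀ q ∈ Ms, ∀ k k' l l', k < K → k' < K → l < K → l' < K → k ≠ k' → l ≠ l' →
    (q : ℤ) ∣ ((c k : ℤ) - c k') - ((c l : ℤ) - c l') → k = l

namespace Par

variable (p : Par α)

def BadT (m : ℕ) : Prop := ∃ q ∈ p.Ms, q ∣ m

/-- first wall of `Q` at distance `≥ z0` from the claimed anchor, `e` letters to the left of `Q` -/
def Fst (e : ℕ) (Q : List α) (s : ℕ) : Prop :=
  p.z0 ≤ s + e ∧ s ≤ Q.length ∧ p.Wo (Q.take s) ∧ ∀ r, p.z0 ≤ r + e → r < s → ¬ p.Wo (Q.take r)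

/-- `Q` ends at the wall after the first wall -/
def Ends (e : ℕ) (Q : List α) (s : ℕ) : Prop :=
  p.Fst e Q s ∧ s < Q.length ∧ p.Wo Q ∧ ∀ r, s < r → r < Q.length → ¬ p.Wo (Q.take r)

/-- a wall within `N1` of `z0` -/
def Ed (e : ℕ) (Q : List α) : Prop :=
  ∃ r, p.z0 ≤ r + e + p.N1 ∧ r + e < p.z0 + p.N1 ∧ r ≤ Q.length ∧ p.Wo (Q.take r)

def Claim (e : ℕ) (Q : List α) : Prop :=
  ∃ s, p.Fst e Q s ∧ (p.Ed e Q ∨ p.BadT (s + e - p.p0))

/-- blocks -/
def Z : Set (List α) := {z | ∃ t, p.Ends 0 z t}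

/-- bad blocks -/
def Zc : Set (List α) := {z | (∃ t, p.Ends 0 z t) ∧ p.Claim 0 z}

variable {p}

theorem Fst.uniq {e : ℕ} {Q : List α} {s t : ℕ} (h : p.Fst e Q s) (h' : p.Fst e Q t) : s = t := by
  rcases lt_trichotomy s t with hlt | heq | hgt
  · exact absurd h.2.2.1 (h'.2.2.2 s h.1 hlt)
  · exact heq
  · exact absurd h'.2.2.1 (h.2.2.2 t h'.1 hgt)

/-- walls of a suffix -/
theorem wall_drop {z : List α} {x r : ℕ} (hx : x + r ≤ z.length) (hr : p.n ≤ r) :
    p.Wo ((z.drop x).take r) ↔ p.Wo (z.take (x + r)) := by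
  have h : z.take (x + r) = z.take x ++ (z.drop x).take r := List.take_add
  rw [h]
  refine (p.loc _ _ ?_).symm
  rw [List.length_take, List.length_drop]; omega

theorem Fst.drop {z : List α} {k e s : ℕ} (hk : e + k ≤ p.p0) (h : p.Fst e z (s + k)) :
    p.Fst (e + k) (z.drop k) s := by
  obtain ⟨h1, h2, h3, h4⟩ := h
  have hz := p.hz
  have hs : k + s ≤ z.length := by omega
  have hns : p.n ≤ s := by omega
  refine ⟨by omega, by rw [List.length_drop]; omega, ?_, ?_⟩
  · rw [wall_drop hs hns, Nat.add_comm]; exact h3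
  · intro r hr hrs hw
    have : p.n ≤ r := by omega
    rw [wall_drop (by omega) this] at hw
    exact h4 (k + r) (by omega) (by omega) hw

theorem Fst.undrop {z : List α} {k e s : ℕ} (hk : e ≤ p.p0) (_hkp : k ≤ p.p0) (hkz : k ≤ z.length)
    (h : p.Fst e (z.drop k) s) :
    p.z0 + k ≤ s + k + e ∧ s + k ≤ z.length ∧ p.Wo (z.take (s + k)) ∧
      ∀ r, p.z0 + k ≤ r + e → r < s + k → ¬ p.Wo (z.take r) := by
  obtain ⟨h1, h2, h3, h4⟩ := h
  have hz := p.hz
  rw [List.length_drop] at h2
  have hns : p.n ≤ s := by omega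
  refine ⟨by omega, by omega, ?_, ?_⟩
  · rw [wall_drop (by omega) hns] at h3
    rw [Nat.add_comm]; exact h3
  · intro r hr hrs hw
    obtain ⟨r', rfl⟩ : ∃ r', r = k + r' := ⟨r - k, by omega⟩
    have hr' : p.n ≤ r' := by omega
    refine h4 r' (by omega) (by omega) ?_
    rw [wall_drop (by omega) hr']; exact hw

theorem take_of_prefix {Q T : List α} (h : Q <+: T) {r : ℕ} (hr : r ≤ Q.length) :
    Q.take r = T.take r := by
  obtain ⟨y, rfl⟩ := h
  rw [List.take_append_of_le_length hr]

/-- **soundness geometry** -/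
theorem sound {P Q x z y : List α} {k k0 s : ℕ} (hk0 : k0 < p.K) (hk : k < p.K)
    (hP : P.length = p.c k0) (hz : z ∈ p.Zc)
    (huniq : ∀ k' < p.K, p.Claim (p.c k') Q → k' = k) (hends : p.Ends (p.c k) Q s)
    (heq : P ++ Q ++ x = z ++ y) : k = k0 ∧ P ++ Q = z := by
  obtain ⟨⟨τ, hτ, hτl, hzw, hznext⟩, τ', hτ', hbad⟩ := hz
  obtain rfl := hτ.uniq hτ'
  have hzp := p.hz
  have hLp := p.hLp
  have hWW := p.hW
  have hc0 := p.hcL k0 hk0
  have hck := p.hcL k hk
  have hz0 := hτ.1
  -- z = P ++ z'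
  have hPz : P.length ≤ z.length := by omega
  have hz' : z = P ++ z.drop P.length := by
    have h1 : z.take P.length = P := by
      have h2 : (z ++ y).take P.length = z.take P.length := List.take_append_of_le_length hPz
      rw [← h2, ← heq, List.append_assoc, List.take_left]
    conv_lhs => rw [← List.take_append_drop P.length z, h1]
  set z' := z.drop P.length with hz'def
  have heq' : Q ++ x = z' ++ y := by
    rw [hz', List.append_assoc, List.append_assoc] at heq
    exact List.append_cancel_left heq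
  have hlz' : z'.length + P.length = z.length := by
    rw [hz'def, List.length_drop]; omega
  -- first wall in z'
  have hF : p.Fst (p.c k0) z' (τ - p.c k0) := by
    have := Fst.drop (p := p) (z := z) (k := p.c k0) (e := 0) (s := τ - p.c k0) (by omega)
      (by rw [Nat.sub_add_cancel (by omega)]; exact hτ)
    rw [Nat.zero_add] at this
    rw [hz'def, hP]; exact this
  set T := Q ++ x with hT
  have hQT : Q <+: T := ⟨x, rfl⟩
  have hzT : z' <+: T := ⟨y, heq'.symm⟩
  have hQl : Q.length ≤ T.length := hQT.length_le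
  have hzl : z'.length ≤ T.length := hzT.length_le
  obtain ⟨⟨g1, g2, g3, g4⟩, hsl, hQw, hQn⟩ := hends
  have hQT' : p.Wo (T.take Q.length) := by
    rw [← take_of_prefix hQT le_rfl, List.take_length]; exact hQw
  have hgapQ : p.W < Q.length - s := by
    refine p.gap T s Q.length hsl hQl ?_ hQT'
    rw [← take_of_prefix hQT g2]; exact g3
  have hτQ : τ - p.c k0 ≤ Q.length := by
    by_contra hcon
    push Not at hcon
    obtain ⟨f1, f2, f3, f4⟩ := hF
    refine f4 Q.length (by omega) hcon ?_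
    rw [take_of_prefix hzT (by omega)]; exact hQT'
  have hFQ : p.Fst (p.c k0) Q (τ - p.c k0) := by
    obtain ⟨f1, f2, f3, f4⟩ := hF
    refine ⟨f1, hτQ, ?_, ?_⟩
    · rw [take_of_prefix hQT hτQ, ← take_of_prefix hzT f2]; exact f3
    · intro r hr hrs hw
      refine f4 r hr hrs ?_
      rw [take_of_prefix hzT (by omega), ← take_of_prefix hQT (by omega)]; exact hw
  have hcl : p.Claim (p.c k0) Q := by
    refine ⟨τ - p.c k0, hFQ, ?_⟩
    rcases hbad with ⟨r, r1, r2, r3, r4⟩ | hb
    · left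
      refine ⟨r - p.c k0, by omega, by omega, ?_, ?_⟩
      · omega
      · have hrQ : r - p.c k0 ≤ Q.length := by omega
        have hrz : r - p.c k0 ≤ z'.length := by omega
        rw [take_of_prefix hQT hrQ, ← take_of_prefix hzT hrz, hz'def, hP]
        rw [wall_drop (by omega) (by omega)]
        have : p.c k0 + (r - p.c k0) = r := by omega
        rw [this]; exact r4
    · right
      have : τ - p.c k0 + p.c k0 - p.p0 = τ + 0 - p.p0 := by omega
      rw [this]; exact hb
  have hkk : k0 = k := huniq k0 hk0 hcl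
  subst hkk
  refine ⟨rfl, ?_⟩
  have hs : s = τ - p.c k0 := Fst.uniq (p := p) ⟨g1, g2, g3, g4⟩ hFQ
  have hlen : Q.length = z'.length := by
    rcases lt_trichotomy Q.length z'.length with h | h | h
    · exfalso
      refine hznext (P.length + Q.length) (by omega) (by omega) ?_
      rw [← wall_drop (p := p) (by omega) (by omega), ← hz'def,
        take_of_prefix hzT (by omega)]
      exact hQT'
    · exact h
    · exfalso
      refine hQn z'.length (by omega) h ?_
      rw [take_of_prefix hQT (by omega), ← take_of_prefix hzT le_rfl, List.take_length]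
      rw [hz'] at hzw
      exact (p.loc _ _ (by omega)).1 hzw
  have : Q = z' := by
    have h1 := take_of_prefix hQT le_rfl
    have h2 := take_of_prefix hzT le_rfl
    rw [List.take_length] at h1 h2
    rw [h1, h2, hlen]
  rw [this]; exact hz'.symm

/-- the true claim, at a place of a bad block -/
theorem true_claim {z : List α} {k : ℕ} (hk : k < p.K) (hz : z ∈ p.Zc) :
    p.Claim (p.c k) (z.drop (p.c k)) ∧ ∃ s, p.Ends (p.c k) (z.drop (p.c k)) s := by
  obtain ⟨⟨τ, hτ, hτl, hzw, hznext⟩, τ', hτ', hbad⟩ := hz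
  obtain rfl := hτ.uniq hτ'
  have hzp := p.hz
  have hLp := p.hLp
  have hWW := p.hW
  have hck := p.hcL k hk
  have hz0 := hτ.1
  have hF : p.Fst (p.c k) (z.drop (p.c k)) (τ - p.c k) := by
    have := Fst.drop (p := p) (z := z) (k := p.c k) (e := 0) (s := τ - p.c k) (by omega)
      (by rw [Nat.sub_add_cancel (by omega)]; exact hτ)
    rw [Nat.zero_add] at this
    exact this
  refine ⟨⟨τ - p.c k, hF, ?_⟩, τ - p.c k, hF, by rw [List.length_drop]; omega, ?_, ?_⟩
  · rcases hbad with ⟨r, r1, r2, r3, r4⟩ | hb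
    · left
      refine ⟨r - p.c k, by omega, by omega, by rw [List.length_drop]; omega, ?_⟩
      rw [wall_drop (by omega) (by omega)]
      have : p.c k + (r - p.c k) = r := by omega
      rw [this]; exact r4
    · right
      have : τ - p.c k + p.c k - p.p0 = τ + 0 - p.p0 := by omega
      rw [this]; exact hb
  · have h1 : z = z.take (p.c k) ++ z.drop (p.c k) := (List.take_append_drop _ _).symm
    rw [h1] at hzw
    exact (p.loc _ _ (by rw [List.length_drop]; omega)).1 hzw
  · intro r hr hrl hw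
    rw [List.length_drop] at hrl
    rw [wall_drop (by omega) (by omega)] at hw
    exact hznext _ (by omega) (by omega) hw

/-- reasons of a second claim at the place `k` -/
def Tag (p : Par α) (z : List α) (k : ℕ) : Option (ℕ × Bool) → Prop
  | none => ∃ k' < p.K, k' ≠ k ∧ ∃ ρ, p.z0 + p.c k ≤ ρ + p.N1 + p.c k' ∧
      ρ + p.c k' < p.z0 + p.N1 + p.c k ∧ ρ ≤ z.length ∧ p.Wo (z.take ρ)
  | some (q, b) => ∃ k' < p.K, k' ≠ k ∧ ∃ σ, p.z0 + p.c k ≤ σ + p.c k' ∧ σ ≤ z.length ∧
      p.Wo (z.take σ) ∧ (∀ r, p.z0 + p.c k ≤ r + p.c k' → r < σ → ¬ p.Wo (z.take r)) ∧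
      q ∣ σ + p.c k' - p.c k - p.p0 ∧ b = decide (σ < p.z0 + p.Lam)

theorem tag_uniq {z : List α} {k l : ℕ} (hk : k < p.K) (hl : l < p.K) {t : Option (ℕ × Bool)}
    (ht : ∀ qb, t = some qb → qb.1 ∈ p.Ms) (h1 : p.Tag z k t) (h2 : p.Tag z l t) : k = l := by
  have hzp := p.hz
  have hLp := p.hLp
  have hWW := p.hW
  have hck := p.hcL k hk
  have hcl := p.hcL l hl
  rcases t with _ | ⟨q, b⟩
  · obtain ⟨k', hk', hkk, ρ, a1, a2, a3, a4⟩ := h1
    obtain ⟨l', hl', hll, ρ', b1, b2, b3, b4⟩ := h2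
    have hck' := p.hcL k' hk'
    have hcl' := p.hcL l' hl'
    have he : ρ = ρ' := by
      rcases lt_trichotomy ρ ρ' with h | h | h
      · have := p.gap z ρ ρ' h b3 a4 b4; omega
      · exact h
      · have := p.gap z ρ' ρ h a3 b4 a4; omega
    subst he
    refine p.rN k k' l l' hk hk' hl hl' (Ne.symm hkk) (Ne.symm hll) ?_
    rw [abs_le]
    constructor <;> omega
  · obtain ⟨k', hk', hkk, σ, a1, a2, a3, a4, a5, a6⟩ := h1
    obtain ⟨l', hl', hll, σ', b1, b2, b3, b4, b5, b6⟩ := h2
    have hck' := p.hcL k' hk'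
    have hcl' := p.hcL l' hl'
    have hdec : (σ < p.z0 + p.Lam) ↔ (σ' < p.z0 + p.Lam) := by
      rw [a6] at b6
      exact decide_eq_decide.1 b6
    have he : σ = σ' := by
      rcases lt_trichotomy σ σ' with h | h | h
      · by_cases hc : σ < p.z0 + p.Lam
        · have h' := hdec.1 hc
          have := p.gap z σ σ' h b2 a3 b3; omega
        · exact absurd a3 (b4 σ (by omega) h)
      · exact h
      · by_cases hc : σ' < p.z0 + p.Lam
        · have h' := hdec.2 hc
          have := p.gap z σ' σ h a2 b3 a3; omega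
        · exact absurd b3 (a4 σ' (by omega) h)
    subst he
    refine p.rM q (ht _ rfl) k k' l l' hk hk' hl hl' (Ne.symm hkk) (Ne.symm hll) ?_
    obtain ⟨x, hx⟩ := a5
    obtain ⟨y, hy⟩ := b5
    refine ⟨(y : ℤ) - x, ?_⟩
    have hx' : ((σ + p.c k' - p.c k - p.p0 : ℕ) : ℤ) = (q : ℤ) * x := by exact_mod_cast hx
    have hy' : ((σ + p.c l' - p.c l - p.p0 : ℕ) : ℤ) = (q : ℤ) * y := by exact_mod_cast hy
    have e1 : ((σ + p.c k' - p.c k - p.p0 : ℕ) : ℤ) = (σ : ℤ) + p.c k' - p.c k - p.p0 := by omega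
    have e2 : ((σ + p.c l' - p.c l - p.p0 : ℕ) : ℤ) = (σ : ℤ) + p.c l' - p.c l - p.p0 := by omega
    rw [e1] at hx'
    rw [e2] at hy'
    rw [mul_sub, ← hx', ← hy']
    ring

theorem exists_tag {z : List α} {k k' : ℕ} (hk : k < p.K) (hk' : k' < p.K) (hkk : k' ≠ k)
    (hzl : p.z0 ≤ z.length) (h : p.Claim (p.c k') (z.drop (p.c k))) :
    ∃ t, (∀ qb, t = some qb → qb.1 ∈ p.Ms) ∧ p.Tag z k t := by
  have hzp := p.hz
  have hLp := p.hLp
  have hck := p.hcL k hk
  have hck' := p.hcL k' hk'
  obtain ⟨s, hs, hb⟩ := h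
  rcases hb with ⟨r, r1, r2, r3, r4⟩ | ⟨q, hq, hd⟩
  · refine ⟨none, by simp, k', hk', hkk, p.c k + r, by omega, by omega, ?_, ?_⟩
    · rw [List.length_drop] at r3; omega
    · rw [List.length_drop] at r3
      rw [← wall_drop (by omega) (by omega)]; exact r4
  · have hu := Fst.undrop (p := p) (z := z) (k := p.c k) (e := p.c k') (s := s) (by omega)
      (by omega) (by omega) hs
    obtain ⟨u1, u2, u3, u4⟩ := hu
    refine ⟨some (q, decide (s + p.c k < p.z0 + p.Lam)), ?_, k', hk', hkk, s + p.c k, by omega,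
      u2, u3, u4, ?_, rfl⟩
    · intro qb h
      have : (q, decide (s + p.c k < p.z0 + p.Lam)) = qb := Option.some.inj h
      rw [← this]; exact hq
    · have : s + p.c k + p.c k' - p.c k - p.p0 = s + p.c k' - p.p0 := by omega
      rw [this]; exact hd

open Classical in
/-- **few spoiled places** -/
theorem spoiled_card {z : List α} (hzl : p.z0 ≤ z.length) :
    ((Finset.range p.K).filter fun k =>
      ∃ k' < p.K, k' ≠ k ∧ p.Claim (p.c k') (z.drop (p.c k))).card ≤ 1 + 2 * p.Ms.card := by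
  set J := (Finset.range p.K).filter fun k =>
      ∃ k' < p.K, k' ≠ k ∧ p.Claim (p.c k') (z.drop (p.c k)) with hJ
  have hex : ∀ k ∈ J, ∃ t : Option (ℕ × Bool), (∀ qb, t = some qb → qb.1 ∈ p.Ms) ∧ p.Tag z k t := by
    intro k hk
    rw [hJ, Finset.mem_filter, Finset.mem_range] at hk
    obtain ⟨hk, k', hk', hkk, hcl⟩ := hk
    exact exists_tag hk hk' hkk hzl hcl
  let f : ℕ → Option (ℕ × Bool) := fun k => if h : k ∈ J then (hex k h).choose else none
  have hf : ∀ k (h : k ∈ J), (∀ qb, f k = some qb → qb.1 ∈ p.Ms) ∧ p.Tag z k (f k) := by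
    intro k h
    have : f k = (hex k h).choose := dif_pos h
    rw [this]
    exact (hex k h).choose_spec
  let T : Finset (Option (ℕ × Bool)) := (p.Ms ×ˢ (Finset.univ : Finset Bool)).insertNone
  have hT : T.card = 1 + 2 * p.Ms.card := by
    simp only [T, Finset.card_insertNone, Finset.card_product, Finset.card_univ, Fintype.card_bool]
    ring
  rw [← hT]
  refine Finset.card_le_card_of_injOn f ?_ ?_
  · intro k hk
    have h := hf k hk
    show f k ∈ T
    rcases hfk : f k with _ | ⟨q, b⟩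
    · exact Finset.none_mem_insertNone
    · refine Finset.some_mem_insertNone.2 (Finset.mem_product.2 ⟨?_, Finset.mem_univ _⟩)
      exact h.1 _ hfk
  · intro k hk l hl he
    have h1 := hf k hk
    have h2 := hf l hl
    have hkK : k < p.K := by
      have : k ∈ J := hk
      rw [hJ, Finset.mem_filter, Finset.mem_range] at this; exact this.1
    have hlK : l < p.K := by
      have : l ∈ J := hl
      rw [hJ, Finset.mem_filter, Finset.mem_range] at this; exact this.1
    refine tag_uniq hkK hlK (t := f k) h1.1 h1.2 ?_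
    have he' : f k = f l := he
    rw [he']; exact h2.2

end Par

end Crest.Agent.R320.GeoB_572
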