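import Crest.Agent.R320.GeoD_633

/-! Row 320: scheme B for `Main_621.Data` (helper633). -/

set_option autoImplicit false

namespace Crest.Agent.R320.GeoB_633

open Crest.Agent.R320.Hk_851 Crest.Agent.R320.Star_621 Crest.Agent.R320.Two_621
  Crest.Agent.R320.Main_621 Crest.Agent.R320.GeoD_633

universe u

variable {α : Type u} {S : Type u} [Monoid S]

abbrev T2 (S : Type u) : Type u := (Function.End (Option (Tok S)))ᵐᵒᵖ

variable (ph : List α → S) (Wo : List α → Prop)
  (p0 N q : ℕ) (lam rho : List α → Option (Tok S)) (nu : List α → Tok S)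

/-- cut, read behind `p0` -/
def CutY (w : Tok S) (Y : List α) : Prop :=
  ∃ P' Q τ, Y = P' ++ Q ∧ lam P' = some w ∧ Q ∈ RA Wo ph N q rho τ

open Classical in
/-- right-known part of the zone map -/
noncomputable def HH (Y : List α) (g : S) : T2 S :=
  MulOpposite.op fun o => o.bind fun v =>
    if CutY ph Wo N q lam rho (act v g) Y then none
    else some (act v (g * ph Y) + dY Wo ph N q nu Y)

variable {Wo}

theorem cut_iff {X : List α} (hX : p0 ≤ X.length) (v : Tok S) :
    Cut (LA ph p0 lam) (RA Wo ph N q rho) v X ↔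
      CutY ph Wo N q lam rho (act v (ph (X.take p0))) (X.drop p0) := by
  constructor
  · rintro ⟨P, Q, τ, rfl, ⟨h1, h2⟩, h3⟩
    refine ⟨P.drop p0, Q, τ, List.drop_append_of_le_length h1, ?_, h3⟩
    rw [List.take_append_of_le_length h1]; exact h2
  · rintro ⟨P', Q, τ, h1, h2, h3⟩
    have hl : (X.take p0).length = p0 := by rw [List.length_take]; omega
    refine ⟨X.take p0 ++ P', Q, τ, ?_, ⟨by rw [List.length_append]; omega, ?_⟩, h3⟩
    · rw [List.append_assoc, ← h1, List.take_append_drop]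
    · have a1 : (X.take p0 ++ P').drop p0 = P' := by
        rw [List.drop_append_of_le_length (by omega), List.drop_of_length_le (by omega),
          List.nil_append]
      have a2 : (X.take p0 ++ P').take p0 = X.take p0 := by
        rw [List.take_append_of_le_length (by omega), List.take_of_length_le (by omega)]
      rw [a1, a2]; exact h2

theorem stepA_eq (hm : ∀ a b, ph (a ++ b) = ph a * ph b) {X : List α} (hX : p0 ≤ X.length) :
    stepA (aff ph (dA Wo ph p0 N q nu)) (LA ph p0 lam) (RA Wo ph N q rho) X =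
      HH ph Wo N q lam rho nu (X.drop p0) (ph (X.take p0)) := by
  classical
  have e : ph X = ph (X.take p0) * ph (X.drop p0) := by
    rw [← hm, List.take_append_drop]
  unfold stepA HH
  congr 1
  funext o
  cases o with
  | none => rfl
  | some v =>
    show (if Cut (LA ph p0 lam) (RA Wo ph N q rho) v X then none
      else some (aff ph (dA Wo ph p0 N q nu) X v)) =
      (if CutY ph Wo N q lam rho (act v (ph (X.take p0))) (X.drop p0) then none
        else some (act v (ph (X.take p0) * ph (X.drop p0)) + dY Wo ph N q nu (X.drop p0)))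
    by_cases h : Cut (LA ph p0 lam) (RA Wo ph N q rho) v X
    · rw [if_pos h, if_pos ((cut_iff ph p0 N q lam rho hX v).1 h)]
    · rw [if_neg h, if_neg (fun h' => h ((cut_iff ph p0 N q lam rho hX v).2 h'))]
      unfold aff dA
      rw [e]

variable (Wo) (BadT : ℕ → Prop)

/-- critical zones -/
def Zc (z : ℕ) : Language α :=
  {X | ∃ t, FW Wo z X t ∧ FW Wo (t + 1) X X.length ∧ Bq Wo z N p0 BadT 0 X t}

/-- candidate `k` letters before `Q` looks critical -/
def BadK (z k : ℕ) (Q : List α) : Prop :=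
  ∃ t, FW Wo (z - k) Q t ∧ Bq Wo z N p0 BadT k Q t

variable {V2 : Type u} (K : ℕ) (c : ℕ → ℕ)
  (lam2 : ℕ → List α → Option (Tok (T2 S)))
  (rho2 : ℕ → List α → (S → T2 S) → Option (Tok (T2 S)))
  (nu2 : List α → (S → T2 S) → Tok (T2 S))

def LB (v : Tok (T2 S)) : Language α :=
  {P | ∃ k < K, P.length = c k ∧ lam2 k P = some v}

def RB (z : ℕ) (τ : Tok (T2 S)) : Language α :=
  {Q | ∃ k < K, ∃ t, FW Wo (z - c k) Q t ∧ FW Wo (t + 1) Q Q.length ∧
    BadK Wo p0 N BadT z (c k) Q ∧ (∀ k' < K, BadK Wo p0 N BadT z (c k') Q → k' = k) ∧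
    rho2 k (Q.take (p0 - c k)) (HH ph Wo N q lam rho nu (Q.drop (p0 - c k))) = some τ}

noncomputable def dB (X : List α) : Tok (T2 S) :=
  nu2 (X.take p0) (HH ph Wo N q lam rho nu (X.drop p0))

variable {Wo}

/-- badness is local -/
theorem Bq_shift {n : ℕ} (hloc : ∀ P Q : List α, n ≤ Q.length → (Wo (P ++ Q) ↔ Wo Q)) {z : ℕ}
    (P Q : List α) {k t : ℕ} (hk : P.length = k) (hkp : n + N + k ≤ z) (ht : z ≤ t)
    (htl : t ≤ (P ++ Q).length) :
    Bq Wo z N p0 BadT 0 (P ++ Q) t ↔ Bq Wo z N p0 BadT k Q (t - k) := by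
  subst hk
  unfold Bq
  have e1 : t - P.length + P.length = t := by omega
  rw [List.length_append] at htl
  simp only [add_zero, e1, List.length_append]
  refine or_congr Iff.rfl (or_congr ?_ Iff.rfl)
  constructor
  · rintro ⟨s, h1, h2, h3, h4⟩
    have e2 : s = P.length + (s - P.length) := by omega
    rw [e2] at h4
    exact ⟨s - P.length, by omega, by omega, by omega,
      (wloc hloc P Q (by omega) (by omega)).1 h4⟩
  · rintro ⟨s, h1, h2, h3, h4⟩
    refine ⟨P.length + s, by omega, by omega, by omega, ?_⟩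
    exact (wloc hloc P Q (by omega) (by omega)).2 h4

theorem soundB {n W : ℕ} (hloc : ∀ P Q : List α, n ≤ Q.length → (Wo (P ++ Q) ↔ Wo Q))
    (hgap : ∀ (P : List α) (d : ℕ), Wo P → 0 < d → d ≤ W → ¬ Wo (P.take (P.length - d)))
    (hm : ∀ a b, ph (a ++ b) = ph a * ph b) (hW : p0 ≤ W) (hq : n ≤ q)
    (hc0 : ∀ k < K, 0 < c k) (hc1 : ∀ k < K, c k ≤ p0)
    (g2 : ∀ k < K, ∀ (P Q : List α) (y : S → T2 S) (v b : Tok (T2 S)), P.length = c k →
      lam2 k P = some v → rho2 k Q y = some b → b = act v (y (ph (P ++ Q))) + nu2 (P ++ Q) y) :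
    Sound (Zc Wo p0 N BadT (p0 + N + q))
      (aff (stepA (aff ph (dA Wo ph p0 N q nu)) (LA ph p0 lam) (RA Wo ph N q rho))
        (dB ph Wo p0 N q lam rho nu nu2))
      (LB K c lam2)
      (RB ph Wo p0 N q lam rho nu BadT K c rho2 (p0 + N + q)) := by
  constructor
  · rintro ω ⟨k, hk, h1, _⟩
    have := hc0 k hk
    simp at h1; omega
  · rintro ω τ P Q X x y ⟨j, hj, hP1, hP2⟩ ⟨k, hk, t, hQ1, hQ2, hQ3, hQ4, hQ5⟩
      ⟨T, hX1, hX2, hX3⟩ e
    set z := p0 + N + q with hz
    have hcj := hc1 j hj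
    have hck := hc1 k hk
    -- text coordinates
    have hUT : FW Wo z (P ++ Q ++ x) T := by rw [e]; exact FW.app y hX1
    have htl := hQ1.2.1
    have ht0 := hQ1.1
    have hQl := hQ2.1
    have hw1 : Wo ((P ++ Q).take (P.length + t)) :=
      (wloc hloc P Q (by omega) htl).2 hQ1.2.2.1
    have hw2 : Wo ((P ++ Q).take (P.length + Q.length)) :=
      (wloc hloc P Q (by omega) le_rfl).2 hQ2.2.2.1
    have hPQl : (P ++ Q).length = P.length + Q.length := List.length_append
    have hgg := wgap hgap hw1 hw2 (by omega) (by omega)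
    have hTle : T ≤ (P ++ Q).length := by
      by_contra hcon
      by_cases h1 : z ≤ P.length + t
      · refine hUT.2.2.2 (P.length + t) h1 (by omega) ?_
        rw [take_app (by omega)]; exact hw1
      · refine hUT.2.2.2 (P.length + Q.length) (by omega) (by omega) ?_
        rw [take_app (by omega)]; exact hw2
    have hPT : FW Wo z (P ++ Q) T := FW.of_app hUT hTle
    have hzT := hPT.1
    have hQT : FW Wo (z - c j) Q (T - c j) :=
      (FW.shift' hloc P Q hP1 (by omega) (by omega)).1 hPT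
    -- badness of the true zone seen in `P ++ Q`
    have hbad : Bq Wo z N p0 BadT 0 (P ++ Q) T := by
      rcases hX3 with h | ⟨s, h1, h2, h3, h4⟩ | h
      · exact Or.inl h
      · refine Or.inr (Or.inl ⟨s, h1, h2, by omega, ?_⟩)
        have a1 : (P ++ Q ++ x).take s = (P ++ Q).take s := take_app (by omega)
        have a2 : (X ++ y).take s = X.take s := take_app (by omega)
        rw [← a1, e, a2]; exact h4
      · exact Or.inr (Or.inr h)
    have hbj : BadK Wo p0 N BadT z (c j) Q :=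
      ⟨T - c j, hQT, (Bq_shift p0 N BadT hloc P Q hP1 (by omega) hzT hTle).1 hbad⟩
    have hjk : j = k := hQ4 j hj hbj
    subst hjk
    have htT : t = T - c j := FW.unique hQ1 hQT
    have hcT : c j ≤ T := by omega
    have f2 : FW Wo (T + 1) (P ++ Q) (P ++ Q).length := by
      have h5 := (FW.shift hloc P Q (z := t + 1) (t := Q.length)
        (by have := hQT.1; have := hcj; omega)).2 hQ2
      have e5 : P.length + (t + 1) = T + 1 := by rw [hP1, htT]; omega
      rw [e5] at h5
      rw [hPQl]; exact h5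
    have hPQ : P ++ Q ∈ Blk Wo z := ⟨T, hPT, f2⟩
    have e1 : P ++ Q = X := (blk_code _).2 _ _ _ _ hPQ ⟨T, hX1, hX2⟩ e
    refine ⟨e1, ?_⟩
    have hXl : p0 ≤ X.length := by rw [← e1]; omega
    have a1 : P ++ Q.take (p0 - c j) = X.take p0 := by
      rw [← e1, List.take_append, List.take_of_length_le (show P.length ≤ p0 by omega), hP1]
    have a2 : Q.drop (p0 - c j) = X.drop p0 := by
      rw [← e1, List.drop_append, List.drop_of_length_le (show P.length ≤ p0 by omega),
        List.nil_append, hP1]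
    have h6 := g2 j hj P (Q.take (p0 - c j)) _ ω τ hP1 hP2 hQ5
    rw [a1, a2] at h6
    rw [h6]
    unfold aff dB
    congr 2
    exact (stepA_eq ph p0 N q lam rho nu hm hXl).symm

/-- **completeness of scheme B** from the spoil count -/
theorem compB {n : ℕ} (hloc : ∀ P Q : List α, n ≤ Q.length → (Wo (P ++ Q) ↔ Wo Q))
    (hq : n ≤ q) (hc1 : ∀ k < K, c k ≤ p0) (C0 : ℕ)
    (g3 : ∀ (u : List α) (y : S → T2 S) (v : Tok (T2 S)), (∀ k < K, c k ≤ u.length) →
      ∃ I : Finset ℕ, C0 + 1 ≤ I.card ∧ ∀ k ∈ I, k < K ∧ lam2 k (u.take (c k)) = some v ∧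
        (rho2 k (u.drop (c k)) y).isSome)
    (hspoil : ∀ X ∈ Zc Wo p0 N BadT (p0 + N + q), ∃ J : Finset ℕ, J.card ≤ C0 ∧
      ∀ k < K, ∀ k' < K, k' ≠ k → BadK Wo p0 N BadT (p0 + N + q) (c k') (X.drop (c k)) → k ∈ J)
    (X : List α) (hX : X ∈ Zc Wo p0 N BadT (p0 + N + q)) (v : Tok (T2 S)) :
    Cut (LB K c lam2) (RB ph Wo p0 N q lam rho nu BadT K c rho2 (p0 + N + q)) v X := by
  classical
  obtain ⟨J, hJ, hJ2⟩ := hspoil X hX
  obtain ⟨T, hX1, hX2, hX3⟩ := hX
  set z := p0 + N + q with hz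
  have hT := hX1.2.1
  have hT0 := hX1.1
  obtain ⟨I, hI, hI2⟩ := g3 (X.take p0) (HH ph Wo N q lam rho nu (X.drop p0)) v
    (fun k hk => by have := hc1 k hk; rw [List.length_take]; omega)
  obtain ⟨k, hkI, hkJ⟩ : ∃ k ∈ I, k ∉ J := by
    by_contra hcon
    push Not at hcon
    have := Finset.card_le_card (show I ⊆ J from fun k hk => hcon k hk)
    omega
  obtain ⟨hk, hl, hr⟩ := hI2 k hkI
  have hck := hc1 k hk
  obtain ⟨b, hb⟩ := Option.isSome_iff_exists.1 hr
  have hPl : (X.take (c k)).length = c k := by rw [List.length_take]; omega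
  have hXe : X.take (c k) ++ X.drop (c k) = X := List.take_append_drop _ _
  have f1 : FW Wo (z - c k) (X.drop (c k)) (T - c k) :=
    (FW.shift' hloc (X.take (c k)) (X.drop (c k)) hPl (by omega) (by omega)).1
      (by rw [hXe]; exact hX1)
  refine ⟨X.take (c k), X.drop (c k), b, hXe.symm, ⟨k, hk, hPl, ?_⟩,
    ⟨k, hk, T - c k, f1, ?_, ⟨T - c k, f1, ?_⟩, ?_, ?_⟩⟩
  · rw [List.take_take, min_eq_left hck] at hl; exact hl
  · have h5 := (FW.shift' hloc (X.take (c k)) (X.drop (c k)) (z := T + 1) (t := X.length)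
      hPl (by omega) (by omega)).1 (by rw [hXe]; exact hX2)
    have e5 : T + 1 - c k = T - c k + 1 := by omega
    rw [e5] at h5
    rw [List.length_drop]; exact h5
  · refine (Bq_shift p0 N BadT hloc (X.take (c k)) (X.drop (c k)) hPl (by omega) hT0
      (by rw [hXe]; omega)).1 ?_
    rw [hXe]; exact hX3
  · intro k' hk' hbad
    by_contra hne
    exact hkJ (hJ2 k hk k' hk' hne hbad)
  · have a1 : (X.take p0).drop (c k) = (X.drop (c k)).take (p0 - c k) := List.drop_take
    have a2 : (X.drop (c k)).drop (p0 - c k) = X.drop p0 := by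
      rw [List.drop_drop]; congr 1; omega
    rw [a2, ← a1]; exact hb

end Crest.Agent.R320.GeoB_633
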