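import Crest.Agent.R320.Geo_890

/-!
# Row 320: geometry of the inner scheme (helper890)
-/

set_option autoImplicit false

namespace Crest.Agent.R320.Geo_890

open Crest.Agent.R320.Star_621 Crest.Agent.R320.Two_621

variable {α : Type}

section B

variable {S : Type} [Monoid S]

/-- the monoid of the inner scheme -/
abbrev TB (S : Type) : Type := (Function.End (Option (Tok S)))ᵐᵒᵖ

variable (D : Walls α) (z0 N1 p0 : ℕ) (ph : List α → S)
variable (lam rho : List α → Option (Tok S)) (nu : List α → Tok S) (BadT : ℕ → Prop)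

/-- cut by the outer scheme, on the zone without its first `p0` letters -/
def CutR (v : Tok S) (R : List α) : Prop :=
  ∃ P Q, ∃ τ : Tok S, R = P ++ Q ∧ lam P = some v ∧ Q ∈ RA D z0 N1 ph rho τ

open Classical in
noncomputable def th2 (R : List α) : TB S :=
  MulOpposite.op fun o => o.bind fun v =>
    if CutR D z0 N1 ph lam rho v R then none else some (act v (ph R) + dR D z0 N1 ph nu R)

def f1 (a : α) : TB S := MulOpposite.op fun o => o.map fun v => act v (ph [a])

variable {D z0 N1 p0 ph lam rho nu BadT}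

theorem f1_prod (h1 : ph [] = 1) (happ : ∀ u v, ph (u ++ v) = ph u * ph v) (w : List α)
    (o : Option (Tok S)) :
    ((w.map (f1 ph)).prod).unop o = o.map fun v => act v (ph w) := by
  induction w generalizing o with
  | nil =>
    show o = o.map fun v => act v (ph [])
    cases o with
    | none => rfl
    | some v => rw [Option.map_some, h1, act_one]
  | cons a w ih =>
    have e : (((a :: w).map (f1 ph)).prod).unop o
        = ((w.map (f1 ph)).prod).unop ((f1 ph a).unop o) := by
      rw [List.map_cons, List.prod_cons]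
      rfl
    rw [e, ih]
    cases o with
    | none => rfl
    | some v =>
      show some (act (act v (ph [a])) (ph w)) = some (act v (ph (a :: w)))
      rw [act_mul, ← happ]
      rfl

theorem cut_iff {X : List α} (hX : p0 ≤ X.length) (v : Tok S) :
    Cut (LA p0 ph lam) (RA D z0 N1 ph rho) v X ↔
      CutR D z0 N1 ph lam rho (act v (ph (X.take p0))) (X.drop p0) := by
  constructor
  · rintro ⟨P, Q, τ, rfl, ⟨hP1, hP2⟩, hQ⟩
    refine ⟨P.drop p0, Q, τ, ?_, ?_, hQ⟩
    · rw [List.drop_append_of_le_length hP1]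
    · rw [List.take_append_of_le_length hP1]; exact hP2
  · rintro ⟨P, Q, τ, e, hP, hQ⟩
    have h0 : (X.take p0).length = p0 := by rw [List.length_take]; omega
    have e5 : (X.take p0 ++ P).drop p0 = P := by
      have := List.drop_left (l₁ := X.take p0) (l₂ := P)
      rwa [h0] at this
    have e6 : (X.take p0 ++ P).take p0 = X.take p0 := by
      have := List.take_left (l₁ := X.take p0) (l₂ := P)
      rwa [h0] at this
    refine ⟨X.take p0 ++ P, Q, τ, ?_, ⟨?_, ?_⟩, hQ⟩
    · rw [List.append_assoc, ← e, List.take_append_drop]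
    · rw [List.length_append, h0]; omega
    · rw [e5, e6]; exact hP

theorem stepA_fac (h1 : ph [] = 1) (happ : ∀ u v, ph (u ++ v) = ph u * ph v) {X : List α}
    (hX : p0 ≤ X.length) :
    stepA (aff ph (dA D z0 N1 p0 ph nu)) (LA p0 ph lam) (RA D z0 N1 ph rho) X =
      ((X.take p0).map (f1 ph)).prod * th2 D z0 N1 ph lam rho nu (X.drop p0) := by
  classical
  apply MulOpposite.unop_injective
  funext o
  have e : (((X.take p0).map (f1 ph)).prod * th2 D z0 N1 ph lam rho nu (X.drop p0)).unop o =
      (th2 D z0 N1 ph lam rho nu (X.drop p0)).unop ((((X.take p0).map (f1 ph)).prod).unop o) := rfl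
  rw [e, f1_prod h1 happ]
  cases o with
  | none => rfl
  | some v =>
    show (if Cut (LA p0 ph lam) (RA D z0 N1 ph rho) v X then none
        else some (aff ph (dA D z0 N1 p0 ph nu) X v)) =
      (if CutR D z0 N1 ph lam rho (act v (ph (X.take p0))) (X.drop p0) then none
        else some (act (act v (ph (X.take p0))) (ph (X.drop p0)) + dR D z0 N1 ph nu (X.drop p0)))
    have e2 : aff ph (dA D z0 N1 p0 ph nu) X v =
        act (act v (ph (X.take p0))) (ph (X.drop p0)) + dR D z0 N1 ph nu (X.drop p0) := by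
      show act v (ph X) + dR D z0 N1 ph nu (X.drop p0) = _
      rw [act_mul, ← happ, List.take_append_drop]
    rw [e2]
    by_cases hc : Cut (LA p0 ph lam) (RA D z0 N1 ph rho) v X
    · rw [if_pos hc, if_pos ((cut_iff hX v).1 hc)]
    · rw [if_neg hc, if_neg (fun h => hc ((cut_iff hX v).2 h))]

/-! ### the inner scheme -/

variable (D z0 N1 p0 BadT)
variable (K : ℕ) (c : ℕ → ℕ)

/-- `Q` behind the place `c j` of a zone: its first wall is `t` and the zone is bad -/
def Cand (j : ℕ) (Q : List α) (t : ℕ) : Prop :=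
  Fst D (z0 + N1 + (p0 - c j)) Q t ∧
    ((∃ s, z0 + (p0 - c j) ≤ s ∧ s < z0 + (p0 - c j) + 2 * N1 ∧ D.Wa Q s) ∨
      BadT (t + c j - p0))

variable {T : Type} (th : List α → T) (lamB : ℕ → List α → Option (Tok T))
  (rhoB : ℕ → List α → T → Option (Tok T)) (nuB : List α → T → Tok T)

def LB (v : Tok T) : Language α := {P | ∃ k < K, P.length = c k ∧ lamB k P = some v}

def RB (b : Tok T) : Language α :=
  {Q | ∃ j t, j < K ∧ Cand D z0 N1 p0 BadT c j Q t ∧ t < Q.length ∧ Fst D (t + 1) Q Q.length ∧
    (∀ j' t', j' < K → Cand D z0 N1 p0 BadT c j' Q t' → j' = j) ∧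
    rhoB j (Q.take (p0 - c j)) (th (Q.drop (p0 - c j))) = some b}

variable {D z0 N1 p0 BadT K c th lamB rhoB nuB}

/-- the true candidate is seen -/
theorem cand_true (hn : D.n ≤ z0) (hW : p0 + 2 * N1 + 1 ≤ D.W) {X P Q x y : List α} {tX k : ℕ}
    (hk : P.length = c k) (hkp : c k ≤ p0)
    (hX : Blk D (z0 + N1 + p0) X tX) (hbad : BadX D z0 N1 p0 BadT X tX)
    (e : P ++ Q ++ x = X ++ y) (hle : tX ≤ P.length + Q.length) :
    Cand D z0 N1 p0 BadT c k Q (tX - c k) := by
  have hw : ∀ s, D.n ≤ s → c k + s ≤ X.length → s ≤ Q.length →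
      (D.Wa X (c k + s) ↔ D.Wa Q s) := by
    intro s h1 h2 h3
    rw [← D.pre X y _ h2, ← e, List.append_assoc, ← hk, D.suf P (Q ++ x) s h1,
      D.pre Q x _ h3]
  obtain ⟨hF, htX, hN⟩ := hX
  have ht1 := hF.1
  refine ⟨⟨by omega, ?_, ?_⟩, ?_⟩
  · refine (hw _ (by omega) (by omega) (by omega)).1 ?_
    have : c k + (tX - c k) = tX := by omega
    rw [this]; exact hF.2.1
  · intro s h1 h2 h3
    exact hF.2.2 (c k + s) (by omega) (by omega) ((hw s (by omega) (by omega) (by omega)).2 h3)
  · rcases hbad with ⟨s, h1, h2, h3⟩ | h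
    · left
      have hs : s ≤ tX := by
        by_contra hh
        have := D.gap X tX s (by omega) hF.2.1 h3
        omega
      refine ⟨s - c k, by omega, by omega, ?_⟩
      refine (hw _ (by omega) (by omega) (by omega)).1 ?_
      have : c k + (s - c k) = s := by omega
      rw [this]; exact h3
    · right
      have : tX - c k + c k - p0 = tX - p0 := by omega
      rw [this]; exact h

theorem soundB [Monoid T] {f : α → T} {thX : List α → T}
    (hn : D.n ≤ z0) (hW : p0 + 2 * N1 + 1 ≤ D.W)
    (hc0 : ∀ k < K, 0 < c k) (hcp : ∀ k < K, c k ≤ p0)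
    (hth : ∀ X : List α, p0 ≤ X.length → thX X = ((X.take p0).map f).prod * th (X.drop p0))
    (hs : ∀ k < K, ∀ (P Q : List α) (y : T) (v b : Tok T), P.length = c k →
      lamB k P = some v → rhoB k Q y = some b →
        b = act v (((P ++ Q).map f).prod * y) + nuB (P ++ Q) y) :
    Sound (ZC D z0 N1 p0 BadT)
      (aff thX (fun X => nuB (X.take p0) (th (X.drop p0))))
      (LB K c lamB) (RB D z0 N1 p0 BadT K c th rhoB) := by
  refine ⟨fun v h => ?_, ?_⟩
  · obtain ⟨k, hk, h1, -⟩ := h
    have := hc0 k hk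
    simp at h1; omega
  · rintro v τ P Q X x y ⟨k, hk, hPl, hP⟩ ⟨j, t, hj, hcand, htQ, hNQ, huniq, hb⟩ ⟨tX, hX, hbad⟩ e
    have hck := hcp k hk
    have hcj := hcp j hj
    have hXle := hX.2.1
    have hXz := hX.1.1
    have htz := hcand.1.1
    have hle : tX ≤ P.length + Q.length := by
      by_contra hh
      have h1 := D.gap Q t Q.length htQ hcand.1.2.1 hNQ.2.1
      have h2 : D.Wa X (P.length + Q.length) := by
        rw [← D.pre X y _ (by omega), ← e, List.append_assoc, D.suf P (Q ++ x) _ (by omega),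
          D.pre Q x _ le_rfl]
        exact hNQ.2.1
      exact hX.1.2.2 _ (by omega) (by omega) h2
    have hct := cand_true hn hW hPl hck hX hbad e hle
    have ekj := huniq k _ hk hct
    subst ekj
    have et : t = tX - c k := hcand.1.uniq hct.1
    have hB : Blk D (z0 + N1 + p0) (P ++ Q) tX := by
      have e1 : tX = P.length + t := by omega
      rw [e1]
      refine ⟨(Fst.suf (by omega) (by omega)).2 hcand.1, by rw [List.length_append]; omega, ?_⟩
      rw [List.length_append]
      exact (Fst.suf (by omega) (by omega)).2 hNQ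
    obtain ⟨e1, -⟩ := hB.eq hX e
    refine ⟨e1, ?_⟩
    have hXl : p0 ≤ X.length := by omega
    have hQl : X.length = P.length + Q.length := by rw [← e1, List.length_append]
    have e2 : X.take p0 = P ++ Q.take (p0 - c k) := by
      rw [← e1, List.take_append, List.take_of_length_le (by omega), hPl]
    have e3 : X.drop p0 = Q.drop (p0 - c k) := by
      rw [← e1, List.drop_append, List.drop_eq_nil_of_le (by omega), hPl, List.nil_append]
    have e4 := hs k hk P (Q.take (p0 - c k)) _ v τ hPl hP hb
    show τ = act v (thX X) + nuB (X.take p0) (th (X.drop p0))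
    rw [hth X hXl, e2, e3]
    exact e4

theorem compB [Monoid T]
    (hn : D.n ≤ z0) (hW : 2 * p0 + 2 * N1 + 1 ≤ D.W) (hz2 : 2 * p0 ≤ z0)
    (hcp : ∀ k < K, c k ≤ p0) (C0 R : ℕ) (hR : 1 + 3 * C0 < R)
    (hres : ∀ i < K, ∀ j < K, ∀ k < K, ∀ l < K, i ≠ j → k ≠ l →
      c i + c l ≤ c k + c j + 2 * N1 → c k + c j ≤ c i + c l + 2 * N1 → i = k ∧ j = l)
    (hthin : ∀ T : ℕ, (∀ k < K, c k ≤ T) →
      ∀ A : Finset (ℕ × ℕ), (∀ a ∈ A, a.1 < K ∧ a.2 < K ∧ a.1 ≠ a.2 ∧ BadT (T + c a.2 - c a.1)) →
        A.card ≤ C0)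
    (hex : ∀ (u : List α) (y : T) (v : Tok T), (∀ k < K, c k ≤ u.length) →
      ∃ I : Finset ℕ, R ≤ I.card ∧ ∀ k ∈ I, k < K ∧ lamB k (u.take (c k)) = some v ∧
        (rhoB k (u.drop (c k)) y).isSome)
    (X : List α) (hX : X ∈ ZC D z0 N1 p0 BadT) (v : Tok T) :
    Cut (LB K c lamB) (RB D z0 N1 p0 BadT K c th rhoB) v X := by
  classical
  obtain ⟨tX, hB, hbad⟩ := hX
  have hXF := hB.1
  have hXz := hXF.1
  have hXl := hB.2.1
  have hXN := hB.2.2
  have hul : (X.take p0).length = p0 := by rw [List.length_take]; omega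
  obtain ⟨I, hI, hIk⟩ := hex (X.take p0) (th (X.drop p0)) v (by rw [hul]; exact hcp)
  by_cases hun : ∃ k ∈ I, ∀ j t', j < K → Cand D z0 N1 p0 BadT c j (X.drop (c k)) t' → j = k
  · obtain ⟨k, hk, hu⟩ := hun
    obtain ⟨hkK, hl, hr⟩ := hIk k hk
    have hck := hcp k hkK
    obtain ⟨b, hb⟩ := Option.isSome_iff_exists.1 hr
    have hPl : (X.take (c k)).length = c k := by rw [List.length_take]; omega
    refine ⟨X.take (c k), X.drop (c k), b, (List.take_append_drop _ _).symm,
      ⟨k, hkK, hPl, ?_⟩, ⟨k, tX - c k, hkK, ?_, ?_, ?_, hu, ?_⟩⟩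
    · rw [List.take_take, Nat.min_eq_left hck] at hl
      exact hl
    · refine cand_true (x := []) (y := []) hn (by omega) hPl hck hB hbad ?_ ?_
      · rw [List.take_append_drop]
      · rw [hPl, List.length_drop]; omega
    · rw [List.length_drop]; omega
    · have h1 : Fst D (tX + 1) (X.take (c k) ++ X.drop (c k))
          ((X.take (c k)).length + (X.drop (c k)).length) := by
        rw [List.take_append_drop, hPl, List.length_drop]
        have : c k + (X.length - c k) = X.length := by omega
        rw [this]; exact hXN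
      exact (Fst.suf (by omega) (by omega)).1 h1
    · have e1 : (X.drop (c k)).take (p0 - c k) = (X.take p0).drop (c k) := by
        rw [List.drop_take]
      have e2 : (X.drop (c k)).drop (p0 - c k) = X.drop p0 := by
        rw [List.drop_drop]; congr 1; omega
      rw [e1, e2]; exact hb
  · exfalso
    push Not at hun
    -- the three walls
    obtain ⟨s0, hs0z, hs0⟩ : ∃ s0, z0 + N1 ≤ s0 ∧ ∀ s, D.Wa X s → z0 + N1 ≤ s →
        s < z0 + N1 + p0 → s = s0 := by
      by_cases h : ∃ s, D.Wa X s ∧ z0 + N1 ≤ s ∧ s < z0 + N1 + p0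
      · obtain ⟨s, h1, h2, h3⟩ := h
        refine ⟨s, h2, fun s' h4 h5 h6 => ?_⟩
        rcases Nat.lt_trichotomy s' s with h | h | h
        · have := D.gap X s' s h h4 h1
          omega
        · exact h
        · have := D.gap X s s' h h1 h4
          omega
      · refine ⟨z0 + N1, le_rfl, fun s h1 h2 h3 => absurd ⟨s, h1, h2, h3⟩ h⟩
    let PE : Finset (ℕ × ℕ) := (Finset.range K ×ˢ Finset.range K).filter
      (fun a => a.1 ≠ a.2 ∧ ∃ s, D.Wa X s ∧ z0 + p0 + c a.1 ≤ s + c a.2 ∧
        s + c a.2 < z0 + p0 + 2 * N1 + c a.1)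
    let PB : ℕ → Finset (ℕ × ℕ) := fun s => (Finset.range K ×ˢ Finset.range K).filter
      (fun a => a.1 ≠ a.2 ∧ BadT (s - p0 + c a.2 - c a.1))
    have hPE : PE.card ≤ 1 := by
      rw [Finset.card_le_one]
      rintro ⟨i, j⟩ h1 ⟨k, l⟩ h2
      simp only [PE, Finset.mem_filter, Finset.mem_product, Finset.mem_range] at h1 h2
      obtain ⟨⟨hi, hj⟩, hij, s, hs1, hs2, hs3⟩ := h1
      obtain ⟨⟨hk, hl⟩, hkl, s', hs1', hs2', hs3'⟩ := h2
      have a1 := hcp i hi
      have a2 := hcp j hj
      have a3 := hcp k hk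
      have a4 := hcp l hl
      have hss : s = s' := by
        rcases Nat.lt_trichotomy s s' with h | h | h
        · have := D.gap X s s' h hs1 hs1'
          omega
        · exact h
        · have := D.gap X s' s h hs1' hs1
          omega
      subst hss
      obtain ⟨e1, e2⟩ := hres i hi j hj k hk l hl hij hkl (by omega) (by omega)
      rw [e1, e2]
    have hPB : ∀ s, z0 + N1 ≤ s → (PB s).card ≤ C0 := by
      intro s hs
      refine hthin (s - p0) (fun k hk => by have := hcp k hk; omega) (PB s) ?_
      intro a ha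
      simp only [PB, Finset.mem_filter, Finset.mem_product, Finset.mem_range] at ha
      exact ⟨ha.1.1, ha.1.2, ha.2.1, ha.2.2⟩
    have hsub : I ⊆ (PE ∪ (PB s0 ∪ (PB tX ∪ PB X.length))).image Prod.fst := by
      intro k hk
      obtain ⟨hkK, -, -⟩ := hIk k hk
      obtain ⟨j, t', hjK, hc, hjk⟩ := hun k hk
      have hck := hcp k hkK
      have hcj := hcp j hjK
      have hsuf : ∀ s, D.n ≤ s → (D.Wa X (c k + s) ↔ D.Wa (X.drop (c k)) s) := by
        intro s hs
        have := D.suf (X.take (c k)) (X.drop (c k)) s hs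
        rw [List.take_append_drop] at this
        have h2 : (X.take (c k)).length = c k := by rw [List.length_take]; omega
        rw [h2] at this
        exact this
      rw [Finset.mem_image]
      refine ⟨(k, j), ?_, rfl⟩
      rw [Finset.mem_union, Finset.mem_union, Finset.mem_union]
      obtain ⟨hF, hE | hT⟩ := hc
      · left
        obtain ⟨s, h1, h2, h3⟩ := hE
        simp only [PE, Finset.mem_filter, Finset.mem_product, Finset.mem_range]
        exact ⟨⟨hkK, hjK⟩, fun e => hjk e.symm, c k + s, (hsuf s (by omega)).2 h3, by omega,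
          by omega⟩
      · right
        have hFz := hF.1
        have hw : D.Wa X (c k + t') := (hsuf t' (by omega)).2 hF.2.1
        have hmem : ∀ s, s = c k + t' → (k, j) ∈ PB s := by
          rintro s rfl
          simp only [PB, Finset.mem_filter, Finset.mem_product, Finset.mem_range]
          refine ⟨⟨hkK, hjK⟩, fun e => hjk e.symm, ?_⟩
          have : c k + t' - p0 + c j - c k = t' + c j - p0 := by omega
          rw [this]; exact hT
        by_cases h1 : c k + t' < z0 + N1 + p0
        · left
          exact hmem s0 (hs0 _ hw (by omega) h1).symm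
        · right
          by_cases h2 : c k + t' = tX
          · left; exact hmem tX h2.symm
          · right
            refine hmem _ ?_
            have h3 : tX ≤ c k + t' := by
              by_contra hh
              exact hXF.2.2 _ (by omega) (by omega) hw
            have h4 := D.len _ _ hw
            by_contra h5
            exact hXN.2.2 _ (by omega) (by omega) hw
    have h1 := Finset.card_le_card hsub
    have h2 := Finset.card_image_le (s := PE ∪ (PB s0 ∪ (PB tX ∪ PB X.length))) (f := Prod.fst)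
    have h3 := Finset.card_union_le PE (PB s0 ∪ (PB tX ∪ PB X.length))
    have h4 := Finset.card_union_le (PB s0) (PB tX ∪ PB X.length)
    have h5 := Finset.card_union_le (PB tX) (PB X.length)
    have h6 := hPB s0 hs0z
    have h7 := hPB tX (by omega)
    have h8 := hPB X.length (by omega)
    omega

end B

end Crest.Agent.R320.Geo_890
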