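import Crest.Agent.R320.Main_621
import Crest.Agent.R320.ExactT_580

/-! Row 320: geometry and the two schemes for `Main_621.Data` from an abstract gadget (helper633). -/

set_option autoImplicit false

namespace Crest.Agent.R320.GeoD_633

open Crest.Agent.R320.Hk_851 Crest.Agent.R320.Star_621 Crest.Agent.R320.Two_621
  Crest.Agent.R320.Main_621

universe u

variable {α : Type u}

/-- first wall at a place `≥ z` -/
def FW (Wo : List α → Prop) (z : ℕ) (X : List α) (t : ℕ) : Prop :=
  z ≤ t ∧ t ≤ X.length ∧ Wo (X.take t) ∧ ∀ s, z ≤ s → s < t → ¬ Wo (X.take s)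

theorem FW.unique {Wo : List α → Prop} {z : ℕ} {X : List α} {t t' : ℕ} (h : FW Wo z X t)
    (h' : FW Wo z X t') : t = t' := by
  rcases lt_trichotomy t t' with h1 | h1 | h1
  · exact absurd h.2.2.1 (h'.2.2.2 t h.1 h1)
  · exact h1
  · exact absurd h'.2.2.1 (h.2.2.2 t' h'.1 h1)

theorem take_app {X Y : List α} {s : ℕ} (h : s ≤ X.length) : (X ++ Y).take s = X.take s :=
  List.take_append_of_le_length h

theorem FW.app {Wo : List α → Prop} {z : ℕ} {X : List α} {t : ℕ} (Y : List α)
    (h : FW Wo z X t) : FW Wo z (X ++ Y) t :=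
  ⟨h.1, by rw [List.length_append]; have := h.2.1; omega,
    by rw [take_app h.2.1]; exact h.2.2.1,
    fun s h1 h2 => by
      rw [take_app (by have := h.2.1; omega)]; exact h.2.2.2 s h1 h2⟩

theorem FW.of_app {Wo : List α → Prop} {z : ℕ} {X Y : List α} {t : ℕ}
    (h : FW Wo z (X ++ Y) t) (ht : t ≤ X.length) : FW Wo z X t :=
  ⟨h.1, ht, by have := h.2.2.1; rwa [take_app ht] at this,
    fun s h1 h2 => by
      have := h.2.2.2 s h1 h2
      rwa [take_app (by omega)] at this⟩

variable {n W : ℕ} {Wo : List α → Prop}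

theorem wloc (hloc : ∀ P Q : List α, n ≤ Q.length → (Wo (P ++ Q) ↔ Wo Q)) (P Q : List α) {s : ℕ}
    (h1 : n ≤ s) (h2 : s ≤ Q.length) :
    Wo ((P ++ Q).take (P.length + s)) ↔ Wo (Q.take s) := by
  have e : (P ++ Q).take (P.length + s) = P ++ Q.take s := by
    rw [List.take_append, List.take_of_length_le (by omega)]
    congr 2
    omega
  rw [e]
  exact hloc _ _ (by rw [List.length_take]; omega)

theorem FW.shift (hloc : ∀ P Q : List α, n ≤ Q.length → (Wo (P ++ Q) ↔ Wo Q)) (P Q : List α)
    {z t : ℕ} (h1 : n ≤ z) : FW Wo (P.length + z) (P ++ Q) (P.length + t) ↔ FW Wo z Q t := by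
  constructor
  · rintro ⟨a, b, c, d⟩
    rw [List.length_append] at b
    refine ⟨by omega, by omega, (wloc hloc P Q (by omega) (by omega)).1 c, fun s h3 h4 h5 => ?_⟩
    exact d (P.length + s) (by omega) (by omega) ((wloc hloc P Q (by omega) (by omega)).2 h5)
  · rintro ⟨a, b, c, d⟩
    refine ⟨by omega, by rw [List.length_append]; omega,
      (wloc hloc P Q (by omega) (by omega)).2 c, fun s h3 h4 h5 => ?_⟩
    have e : s = P.length + (s - P.length) := by omega
    rw [e] at h5
    exact d (s - P.length) (by omega) (by omega) ((wloc hloc P Q (by omega) (by omega)).1 h5)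

theorem FW.shift' (hloc : ∀ P Q : List α, n ≤ Q.length → (Wo (P ++ Q) ↔ Wo Q)) (P Q : List α)
    {m z t : ℕ} (hm : P.length = m) (h1 : n + m ≤ z) (ht : m ≤ t) :
    FW Wo z (P ++ Q) t ↔ FW Wo (z - m) Q (t - m) := by
  subst hm
  have e1 : z = P.length + (z - P.length) := by omega
  have e2 : t = P.length + (t - P.length) := by omega
  conv_lhs => rw [e1, e2]
  exact FW.shift hloc P Q (by omega)

theorem wgap (hgap : ∀ (P : List α) (d : ℕ), Wo P → 0 < d → d ≤ W → ¬ Wo (P.take (P.length - d)))
    {X : List α} {s s' : ℕ} (h1 : Wo (X.take s)) (h2 : Wo (X.take s')) (hs : s < s')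
    (hs' : s' ≤ X.length) : s + W < s' := by
  by_contra hc
  have hl : (X.take s').length = s' := by rw [List.length_take]; omega
  refine hgap (X.take s') (s' - s) h2 (by omega) (by omega) ?_
  rw [hl, List.take_take]
  have : min (s' - (s' - s)) s' = s := by omega
  rw [this]; exact h1

/-- blocks: end = next wall after the accepted wall -/
def Blk (Wo : List α → Prop) (z : ℕ) : Language α :=
  {X | ∃ t, FW Wo z X t ∧ FW Wo (t + 1) X X.length}

theorem blk_code (z : ℕ) : Code (Blk Wo z) := by
  constructor
  · rintro ⟨t, h1, h2⟩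
    have := h2.1
    simp at this
  · rintro X X' x x' ⟨t, h1, h2⟩ ⟨t', h1', h2'⟩ e
    have a1 := FW.app x h1
    have a2 := FW.app x' h1'
    rw [← e] at a2
    have := FW.unique a1 a2
    subst this
    have b1 := FW.app x h2
    have b2 := FW.app x' h2'
    rw [← e] at b2
    have hl := FW.unique b1 b2
    exact (List.append_inj e hl).1

section schemeA

variable {S : Type u} [Monoid S] (ph : List α → S)
  (p0 N q : ℕ) (lam rho : List α → Option (Tok S)) (nu : List α → Tok S)

/-- left words of scheme A -/
def LA (v : Tok S) : Language α :=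
  {P | p0 ≤ P.length ∧ lam (P.drop p0) = some (act v (ph (P.take p0)))}

variable (Wo)

/-- right words of scheme A -/
def RA (τ : Tok S) : Language α :=
  {Q | (∀ s, q ≤ s → s < q + N → s ≤ Q.length → ¬ Wo (Q.take s)) ∧
    ∃ t r, FW Wo (q + N) Q t ∧ FW Wo (t + 1) Q Q.length ∧ rho (Q.take t) = some r ∧
      τ = act r (ph (Q.drop t))}

open Classical in
/-- accepted wall -/
noncomputable def acc (z : ℕ) (X : List α) : ℕ :=
  if h : ∃ t, FW Wo z X t then h.choose else 0

variable {Wo}

theorem acc_eq {z t : ℕ} {X : List α} (h : FW Wo z X t) : acc Wo z X = t := by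
  unfold acc
  have h' : ∃ t, FW Wo z X t := ⟨t, h⟩
  rw [dif_pos h']
  exact FW.unique h'.choose_spec h

variable (Wo)

/-- noise of scheme A as a function of the part behind `p0` -/
noncomputable def dY (Y : List α) : Tok S :=
  act (nu (Y.take (acc Wo (N + q) Y))) (ph (Y.drop (acc Wo (N + q) Y)))

noncomputable def dA (X : List α) : Tok S := dY Wo ph N q nu (X.drop p0)

variable {Wo}

theorem splitL {X : List α} {m : ℕ} (h : m ≤ X.length) :
    ∃ X1 Y, X = X1 ++ Y ∧ X1.length = m ∧ X1 = X.take m ∧ Y = X.drop m :=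
  ⟨X.take m, X.drop m, (List.take_append_drop m X).symm, by rw [List.length_take]; omega,
    rfl, rfl⟩

/-- **soundness of scheme A** -/
theorem soundA (hloc : ∀ P Q : List α, n ≤ Q.length → (Wo (P ++ Q) ↔ Wo Q))
    (hm : ∀ a b, ph (a ++ b) = ph a * ph b) (hp : 0 < p0) (hq : n ≤ q)
    (g1 : ∀ p v, lam p = some v → p.length ≤ N)
    (g2 : ∀ p q v r, lam p = some v → rho q = some r → r = act v (ph (p ++ q)) + nu (p ++ q)) :
    Sound (Blk Wo (p0 + N + q)) (aff ph (dA Wo ph p0 N q nu)) (LA ph p0 lam)
      (RA Wo ph N q rho) := by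
  constructor
  · rintro ω ⟨h, _⟩
    simp at h; omega
  · rintro ω τ P Q z x y ⟨hP1, hP2⟩ ⟨hQ1, t, r, hQ2, hQ3, hQ4, hQ5⟩ hz e
    have hPl : P.length ≤ p0 + N := by
      have := g1 _ _ hP2
      rw [List.length_drop] at this; omega
    have f1 : FW Wo (p0 + N + q) (P ++ Q) (P.length + t) := by
      obtain ⟨a, b, c, d⟩ := hQ2
      refine ⟨by omega, by rw [List.length_append]; omega,
        (wloc hloc P Q (by omega) b).2 c, fun s h3 h4 h5 => ?_⟩
      have e : s = P.length + (s - P.length) := by omega
      rw [e] at h5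
      have h6 := (wloc hloc P Q (by omega) (by omega)).1 h5
      by_cases h7 : s - P.length < q + N
      · exact hQ1 (s - P.length) (by omega) h7 (by omega) h6
      · exact d (s - P.length) (by omega) (by omega) h6
    have f2 : FW Wo (P.length + t + 1) (P ++ Q) (P ++ Q).length := by
      have := (FW.shift hloc P Q (z := t + 1) (t := Q.length) (by have := hQ2.1; omega)).2 hQ3
      rw [List.length_append]
      exact this
    have hPQ : P ++ Q ∈ Blk Wo (p0 + N + q) := ⟨P.length + t, f1, f2⟩
    have e1 : P ++ Q = z := (blk_code _).2 _ _ _ _ hPQ hz e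
    refine ⟨e1, ?_⟩
    rw [← e1]
    have hdrop : (P ++ Q).drop p0 = P.drop p0 ++ Q := List.drop_append_of_le_length hP1
    have hlen : (P.drop p0).length = P.length - p0 := List.length_drop
    have f3 : FW Wo (N + q) (P.drop p0 ++ Q) (P.length - p0 + t) := by
      have hh := (FW.shift' hloc (P.take p0) (P.drop p0 ++ Q) (m := p0)
        (z := p0 + N + q) (t := P.length + t) (by rw [List.length_take]; omega)
        (by omega) (by omega)).1 (by
          rw [← List.append_assoc, List.take_append_drop]; exact f1)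
      have e3 : p0 + N + q - p0 = N + q := by omega
      have e4 : P.length + t - p0 = P.length - p0 + t := by omega
      rw [e3, e4] at hh
      exact hh
    have ha := acc_eq f3
    have ht1 : (P.drop p0 ++ Q).take (P.length - p0 + t) = P.drop p0 ++ Q.take t := by
      rw [List.take_append, List.take_of_length_le (by omega), hlen]
      congr 2; omega
    have ht2 : (P.drop p0 ++ Q).drop (P.length - p0 + t) = Q.drop t := by
      rw [List.drop_append, List.drop_of_length_le (by omega), hlen, List.nil_append]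
      congr 1; omega
    have h4 := g2 _ _ _ _ hP2 hQ4
    unfold aff dA dY
    rw [hdrop, ha, ht1, ht2, hQ5, h4, act_add, act_mul, act_mul]
    congr 2
    rw [← hm, ← hm]
    congr 1
    rw [← List.append_assoc, ← List.append_assoc, List.take_append_drop, List.append_assoc,
      List.take_append_drop]

/-- badness of a zone, read on `Q = zone without its first `k` letters` -/
def Bq (Wo : List α → Prop) (z N p0 : ℕ) (BadT : ℕ → Prop) (k : ℕ) (Q : List α) (t : ℕ) : Prop :=
  t + k < z + N ∨ (∃ s, z ≤ s + k + N ∧ s + k < z ∧ s ≤ Q.length ∧ Wo (Q.take s)) ∨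
    BadT (t + k - p0)

/-- **completeness of scheme A** -/
theorem compA (hloc : ∀ P Q : List α, n ≤ Q.length → (Wo (P ++ Q) ↔ Wo Q))
    (hm : ∀ a b, ph (a ++ b) = ph a * ph b) (hq : n ≤ q) (BadT : ℕ → Prop) (N' : ℕ)
    (hN' : N' ≤ N + q)
    (g1 : ∀ p v, lam p = some v → p.length ≤ N)
    (g3 : ∀ u : List α, N' ≤ u.length → ¬ BadT u.length → ∀ v, ∃ p q, p ++ q = u ∧
      lam p = some v ∧ (rho q).isSome)
    (X : List α) (t : ℕ) (h1 : FW Wo (p0 + N + q) X t) (h2 : FW Wo (t + 1) X X.length)
    (hb : ¬ Bq Wo (p0 + N + q) N p0 BadT 0 X t) (v : Tok S) :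
    Cut (LA ph p0 lam) (RA Wo ph N q rho) v X := by
  unfold Bq at hb
  push Not at hb
  obtain ⟨hb1, hb2, hb3⟩ := hb
  simp only [add_zero] at hb1 hb2 hb3
  have ht := h1.2.1
  have ht0 := h1.1
  obtain ⟨P', Q', e, hP', hQ'⟩ := g3 ((X.take t).drop p0)
    (by rw [List.length_drop, List.length_take]; omega)
    (by
      have : ((X.take t).drop p0).length = t - p0 := by
        rw [List.length_drop, List.length_take]; omega
      rw [this]; exact hb3)
    (act v (ph (X.take p0)))
  obtain ⟨r, hr⟩ := Option.isSome_iff_exists.1 hQ'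
  have hPl := g1 _ _ hP'
  have hX : X = (X.take p0 ++ P') ++ (Q' ++ X.drop t) := by
    have a1 : X.take p0 ++ (X.take t).drop p0 = X.take t := by
      have := List.take_append_drop p0 (X.take t)
      rw [List.take_take, min_eq_left (by omega)] at this
      exact this
    calc X = X.take t ++ X.drop t := (List.take_append_drop t X).symm
      _ = (X.take p0 ++ (P' ++ Q')) ++ X.drop t := by rw [e, a1]
      _ = _ := by simp [List.append_assoc]
  have hl0 : (X.take p0).length = p0 := by rw [List.length_take]; omega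
  have hlPQ : P'.length + Q'.length = t - p0 := by
    have := congrArg List.length e
    rw [List.length_append, List.length_drop, List.length_take] at this
    omega
  set P := X.take p0 ++ P' with hPdef
  set Q := Q' ++ X.drop t with hQdef
  have hlP : P.length = p0 + P'.length := by rw [hPdef, List.length_append, hl0]
  refine ⟨P, Q, act r (ph (X.drop t)), hX, ⟨by omega, ?_⟩, ⟨?_, Q'.length, r, ?_, ?_, ?_, ?_⟩⟩
  · have a1 : P.drop p0 = P' := by
      rw [hPdef, List.drop_append_of_le_length (by omega), List.drop_of_length_le (by omega),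
        List.nil_append]
    have a2 : P.take p0 = X.take p0 := by
      rw [hPdef, List.take_append_of_le_length (by omega), List.take_of_length_le (by omega)]
    rw [a1, a2]; exact hP'
  · intro s hs1 hs2 hs3 hW
    have hW2 := (wloc hloc P Q (s := s) (by omega) hs3).2 hW
    rw [← hX] at hW2
    by_cases h3 : P.length + s < p0 + N + q
    · refine hb2 (P.length + s) (by omega) h3 ?_ hW2
      omega
    · exact h1.2.2.2 (P.length + s) (by omega) (by omega) hW2
  · have h5 := h1
    rw [hX] at h5
    have h6 : FW Wo (P.length + (q + N)) (P ++ Q) (P.length + Q'.length) := by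
      have e5 : t = P.length + Q'.length := by omega
      rw [e5] at h5
      refine ⟨by omega, h5.2.1, h5.2.2.1, fun s h7 h8 => h5.2.2.2 s (by omega) h8⟩
    exact (FW.shift hloc P Q (by omega)).1 h6
  · have h5 := h2
    rw [hX] at h5
    have e5 : t + 1 = P.length + (Q'.length + 1) := by omega
    have e6 : (P ++ Q).length = P.length + Q.length := List.length_append
    rw [e5, e6] at h5
    exact (FW.shift hloc P Q (by omega)).1 h5
  · have : Q.take Q'.length = Q' := by rw [hQdef, List.take_left]
    rw [this]; exact hr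
  · have : Q.drop Q'.length = X.drop t := by rw [hQdef, List.drop_left]
    rw [this]

end schemeA

end Crest.Agent.R320.GeoD_633
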