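import Crest.Agent.R320.GeoB_633

/-! Row 320: the spoil count for scheme B (helper633). -/

set_option autoImplicit false

namespace Crest.Agent.R320.GeoS_633

open Crest.Agent.R320.GeoD_633 Crest.Agent.R320.GeoB_633 Finset

universe u

variable {α : Type u} {Wo : List α → Prop}

/-- pairs spoiled by the thin set at the wall `τ` -/
noncomputable def PB (BadT : ℕ → Prop) (K : ℕ) (c : ℕ → ℕ) (T : ℕ) : Finset (ℕ × ℕ) := by
  classical
  exact (range K ×ˢ range K).filter (fun ab => ab.1 ≠ ab.2 ∧ BadT (T + c ab.2 - c ab.1))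

theorem mem_PB {BadT : ℕ → Prop} {K : ℕ} {c : ℕ → ℕ} {T : ℕ} {ab : ℕ × ℕ} :
    ab ∈ PB BadT K c T ↔ (ab.1 < K ∧ ab.2 < K) ∧ ab.1 ≠ ab.2 ∧ BadT (T + c ab.2 - c ab.1) := by
  classical
  unfold PB
  rw [mem_filter, mem_product, mem_range, mem_range]

theorem spoil {n W : ℕ} (hloc : ∀ P Q : List α, n ≤ Q.length → (Wo (P ++ Q) ↔ Wo Q))
    (hgap : ∀ (P : List α) (d : ℕ), Wo P → 0 < d → d ≤ W → ¬ Wo (P.take (P.length - d)))
    (p0 N q : ℕ) (BadT : ℕ → Prop) (K : ℕ) (c : ℕ → ℕ) (hq : n ≤ q)
    (hW : 2 * (p0 + N) ≤ W) (hc1 : ∀ k < K, c k ≤ p0) (N2 C1 : ℕ) (hq2 : p0 + N2 ≤ q)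
    (hres : ∀ a b a' b', a < K → b < K → a' < K → b' < K → a ≠ b → a' ≠ b' →
      c a + c b' ≤ c b + c a' + 2 * N → c b + c a' ≤ c a + c b' + 2 * N → a = a' ∧ b = b')
    (hthin : ∀ T, N2 ≤ T → (PB BadT K c T).card ≤ C1)
    (X : List α) (hX : X ∈ Zc Wo p0 N BadT (p0 + N + q)) :
    ∃ J : Finset ℕ, J.card ≤ 1 + 3 * C1 ∧
      ∀ k < K, ∀ k' < K, k' ≠ k → BadK Wo p0 N BadT (p0 + N + q) (c k') (X.drop (c k)) →
        k ∈ J := by
  classical
  obtain ⟨T, hX1, hX2, -⟩ := hX
  set z := p0 + N + q with hz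
  have hT := hX1.2.1
  have hT0 := hX1.1
  -- pairs spoiled by a wall near `z`
  let PE : Finset (ℕ × ℕ) := (range K ×ˢ range K).filter (fun ab => ab.1 ≠ ab.2 ∧
    ∃ σ, z + c ab.1 ≤ σ + c ab.2 + N ∧ σ + c ab.2 < z + c ab.1 + N ∧ σ ≤ X.length ∧
      Wo (X.take σ))
  have hPE : PE.card ≤ 1 := by
    rw [card_le_one]
    rintro ⟨a, b⟩ h1 ⟨a', b'⟩ h2
    simp only [PE, mem_filter, mem_product, mem_range] at h1 h2
    obtain ⟨⟨ha, hb⟩, hab, σ, s1, s2, s3, s4⟩ := h1
    obtain ⟨⟨ha', hb'⟩, hab', σ', s1', s2', s3', s4'⟩ := h2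
    have := hc1 a ha
    have := hc1 b hb
    have := hc1 a' ha'
    have := hc1 b' hb'
    have hσ : σ = σ' := by
      rcases lt_trichotomy σ σ' with h | h | h
      · have := wgap hgap s4 s4' h s3'
        omega
      · exact h
      · have := wgap hgap s4' s4 h s3
        omega
    subst hσ
    obtain ⟨e1, e2⟩ := hres a b a' b' ha hb ha' hb' hab hab' (by omega) (by omega)
    rw [e1, e2]
  -- the wall before `z`
  let PM : Finset (ℕ × ℕ) := if h : ∃ σ, z ≤ σ + p0 ∧ σ < z ∧ σ ≤ X.length ∧ Wo (X.take σ) then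
    PB BadT K c (h.choose - p0) else ∅
  have hPM : PM.card ≤ C1 := by
    by_cases h : ∃ σ, z ≤ σ + p0 ∧ σ < z ∧ σ ≤ X.length ∧ Wo (X.take σ)
    · have e : PM = PB BadT K c (h.choose - p0) := dif_pos h
      rw [e]
      have := h.choose_spec.1
      exact hthin _ (by omega)
    · have e : PM = ∅ := dif_neg h
      rw [e]; simp
  refine ⟨(PE ∪ (PB BadT K c (T - p0) ∪ (PB BadT K c (X.length - p0) ∪ PM))).image Prod.fst,
    ?_, ?_⟩
  · refine card_image_le.trans ?_
    have h1 := card_union_le PE (PB BadT K c (T - p0) ∪ (PB BadT K c (X.length - p0) ∪ PM))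
    have h2 := card_union_le (PB BadT K c (T - p0)) (PB BadT K c (X.length - p0) ∪ PM)
    have h3 := card_union_le (PB BadT K c (X.length - p0)) PM
    have h4 := hthin (T - p0) (by omega)
    have h5 := hthin (X.length - p0) (by omega)
    omega
  · intro k hk k' hk' hne ⟨t, f1, hB⟩
    have hck := hc1 k hk
    have hck' := hc1 k' hk'
    rw [mem_image]
    refine ⟨(k, k'), ?_, rfl⟩
    have hPl : (X.take (c k)).length = c k := by rw [List.length_take]; omega
    have hXe : X.take (c k) ++ X.drop (c k) = X := List.take_append_drop _ _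
    have hdl : (X.drop (c k)).length = X.length - c k := List.length_drop
    have hf1l := f1.2.1
    have hf10 := f1.1
    rw [mem_union, mem_union, mem_union]
    rcases hB with h | ⟨s, h1, h2, h3, h4⟩ | h
    · left
      simp only [PE, mem_filter, mem_product, mem_range]
      refine ⟨⟨hk, hk'⟩, hne.symm, c k + t, by omega, by omega, by omega, ?_⟩
      have h6 := (wloc hloc (X.take (c k)) (X.drop (c k)) (s := t) (by omega) hf1l).2 f1.2.2.1
      rw [hPl, hXe] at h6
      exact h6
    · left
      simp only [PE, mem_filter, mem_product, mem_range]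
      refine ⟨⟨hk, hk'⟩, hne.symm, c k + s, by omega, by omega, by omega, ?_⟩
      have h6 := (wloc hloc (X.take (c k)) (X.drop (c k)) (s := s) (by omega) h3).2 h4
      rw [hPl, hXe] at h6
      exact h6
    · right
      have hτ : Wo (X.take (c k + t)) := by
        have h6 := (wloc hloc (X.take (c k)) (X.drop (c k)) (s := t) (by omega) hf1l).2 f1.2.2.1
        rw [hPl, hXe] at h6
        exact h6
      by_cases hzτ : z ≤ c k + t
      · have hTτ : T ≤ c k + t := by
          by_contra hcon
          exact hX1.2.2.2 (c k + t) hzτ (by omega) hτ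
        rcases Nat.eq_or_lt_of_le hTτ with h7 | h7
        · left
          rw [mem_PB]
          refine ⟨⟨hk, hk'⟩, hne.symm, ?_⟩
          have e : T - p0 + c k' - c k = t + c k' - p0 := by omega
          show BadT (T - p0 + c k' - c k)
          rw [e]; exact h
        · right; left
          have h8 : X.length ≤ c k + t := by
            by_contra hcon
            exact hX2.2.2.2 (c k + t) (by omega) (by omega) hτ
          rw [mem_PB]
          refine ⟨⟨hk, hk'⟩, hne.symm, ?_⟩
          have e : X.length - p0 + c k' - c k = t + c k' - p0 := by omega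
          show BadT (X.length - p0 + c k' - c k)
          rw [e]; exact h
      · right; right
        have hex : ∃ σ, z ≤ σ + p0 ∧ σ < z ∧ σ ≤ X.length ∧ Wo (X.take σ) :=
          ⟨c k + t, by omega, by omega, by omega, hτ⟩
        have e : PM = PB BadT K c (hex.choose - p0) := dif_pos hex
        rw [e]
        obtain ⟨u1, u2, u3, u4⟩ := hex.choose_spec
        have hσ : hex.choose = c k + t := by
          rcases lt_trichotomy hex.choose (c k + t) with h9 | h9 | h9
          · have := wgap hgap u4 hτ h9 (by omega)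
            omega
          · exact h9
          · have := wgap hgap hτ u4 h9 u3
            omega
        rw [mem_PB, hσ]
        refine ⟨⟨hk, hk'⟩, hne.symm, ?_⟩
        have e : c k + t - p0 + c k' - c k = t + c k' - p0 := by omega
        show BadT (c k + t - p0 + c k' - c k)
        rw [e]; exact h

end Crest.Agent.R320.GeoS_633
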