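import Crest.Agent.R320.Top5_110

/-!
# Row 320: both completeness statements of `Top5_110.top_sem` for the natural chain (helper978)
-/

set_option autoImplicit false

namespace Crest.Agent.R320.GeoT_978

open Finset Crest.Agent.R320.Code110

open Classical in
structure G (α S V : Type) [Monoid S] [AddCommGroup V] where
  φ : List α → S
  act : V → S → V
  Wo : List α → Prop
  n : ℕ
  W : ℕ
  z : ℕ
  p0 : ℕ
  N1 : ℕ
  La : ℕ
  loc : ∀ P Q, n ≤ Q.length → (Wo (P ++ Q) ↔ Wo Q)
  gap : ∀ (X : List α) s t, s < t → t ≤ X.length → Wo (X.take s) → Wo (X.take t) → W < t - s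
  hz : p0 + N1 + n + p0 + La < z
  hW : 2 * p0 + 2 * N1 ≤ W
  L : List α → Option V
  R : List α → Option V
  nu1 : List α → V
  BadT : ℕ → Prop
  g1s : ∀ P Q v b, L P = some v → R Q = some b → La ≤ Q.length →
    b = act v (φ (P ++ Q)) + nu1 (P ++ Q)
  g1L : ∀ P v, L P = some v → P.length ≤ N1
  g1c : ∀ Y : List α, La ≤ Y.length → ¬ BadT Y.length → ∀ v, ∃ P Q, P ++ Q = Y ∧ L P = some v ∧
    (R Q).isSome
  K : ℕ
  c : ℕ → ℕ
  hcp : ∀ k < K, c k ≤ p0
  golomb : ∀ i j k l, i < K → j < K → k < K → l < K → i ≠ j → (i, j) ≠ (k, l) →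
      c i + c l + 4 * N1 < c k + c j ∨ c k + c j + 4 * N1 < c i + c l
  C0 : ℕ
  count : ∀ T, La ≤ T → (((range K ×ˢ range K).filter
      fun ab => ab.1 ≠ ab.2 ∧ BadT (T + c ab.2 - c ab.1))).card ≤ C0
  lam2 : ℕ → List α → Option V
  rho2 : ℕ → List α → Option V
  nu2 : List α → V
  e1 : ∀ k < K, ∀ P Q v b, P.length = c k → lam2 k P = some v →
    rho2 k Q = some b → b = act v (φ (P ++ Q)) + nu2 (P ++ Q)
  e2 : ∀ (u : List α) v, (∀ k < K, c k ≤ u.length) → ∃ I : Finset ℕ, 2 + 2 * C0 ≤ I.card ∧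
    ∀ k ∈ I, k < K ∧ lam2 k (u.take (c k)) = some v ∧ (rho2 k (u.drop (c k))).isSome

variable {α S V : Type} [Monoid S] [AddCommGroup V] (D : G α S V)

namespace G

def XX : Language α :=
  {X | D.z ≤ X.length ∧ D.Wo X ∧ ∀ t, D.z ≤ t → t < X.length → ¬ D.Wo (X.take t)}

def T (X : List α) (v : V) : V :=
  D.act (D.act v (D.φ (X.take D.p0)) + D.nu2 (X.take D.p0)) (D.φ (X.drop D.p0)) +
    D.nu1 (X.drop D.p0)

def BadX (X : List α) : Prop :=
  (∃ t, t ≤ X.length ∧ D.Wo (X.take t) ∧ D.z ≤ t + D.N1 ∧ t < D.z + D.N1) ∨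
    D.BadT (X.length - D.p0)

def Bad : Language α := {X | X ∈ D.XX ∧ D.BadX X}

def L1 (v : V) : Language α :=
  {P | D.p0 ≤ P.length ∧ P.length ≤ D.p0 + D.N1 ∧
    D.L (P.drop D.p0) = some (D.act v (D.φ (P.take D.p0)) + D.nu2 (P.take D.p0))}

def L2 (v : V) : Language α := {P | ∃ k, k < D.K ∧ P.length = D.c k ∧ D.lam2 k P = some v}

theorem pc : PC D.XX where
  ne := fun h => by
    have h1 := h.1
    have := D.hz
    simp at h1
    omega
  pf := by
    rintro X ⟨hX1, hX2, hX3⟩ Y ⟨hY1, hY2, hY3⟩ ⟨E, rfl⟩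
    by_contra hne
    have hE : E ≠ [] := by
      rintro rfl
      simp at hne
    have hl : 0 < E.length := List.length_pos_iff.2 hE
    refine hY3 X.length hX1 (by rw [List.length_append]; omega) ?_
    rw [List.take_left]
    exact hX2

theorem ex1 {Z : Language α} {τ : List α → V → V} {u : List α} {x y : V} (hu : u ∈ Z)
    (h : τ u x = y) : u ∈ Exactly Z τ 1 x y :=
  ⟨y, Language.mem_mul.2 ⟨u, ⟨hu, h⟩, [], ⟨rfl, rfl⟩, by simp⟩⟩

theorem ex2 {Z : Language α} {τ : List α → V → V} {u t : List α} {x y : V} (hu : u ∈ Z)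
    (ht : t ∈ Z) (h : τ t (τ u x) = y) : u ++ t ∈ Exactly Z τ 2 x y :=
  ⟨τ u x, Language.mem_mul.2 ⟨u, ⟨hu, rfl⟩, t, ex1 ht h, rfl⟩⟩

/-- walls of `P ++ Q` behind `P` -/
theorem wall_app (P Q : List α) (t : ℕ) (ht : D.n ≤ t) (htQ : t ≤ Q.length) :
    D.Wo ((P ++ Q).take (P.length + t)) ↔ D.Wo (Q.take t) := by
  have : (P ++ Q).take (P.length + t) = P ++ Q.take t := by
    rw [List.take_length_add_append]
  rw [this]
  exact D.loc P (Q.take t) (by rw [List.length_take]; omega)

theorem mem_of (P Q : List α) (hP : P.length + D.n < D.z) (hW : D.Wo Q)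
    (hl : D.z ≤ P.length + Q.length)
    (hno : ∀ t, D.z ≤ P.length + t → t < Q.length → ¬ D.Wo (Q.take t)) : P ++ Q ∈ D.XX := by
  refine ⟨by rw [List.length_append]; exact hl, (D.loc P Q (by omega)).2 hW, ?_⟩
  intro t ht1 ht2 hw
  rw [List.length_append] at ht2
  have e : t = P.length + (t - P.length) := by omega
  rw [e, D.wall_app P Q (t - P.length) (by omega) (by omega)] at hw
  exact hno _ (by omega) (by omega) hw

theorem take_app (u P : List α) (h : D.p0 ≤ u.length) :
    (u.take D.p0 ++ P).take D.p0 = u.take D.p0 := by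
  have hX0 : (u.take D.p0).length = D.p0 := by rw [List.length_take]; omega
  rw [List.take_append_of_le_length (by omega), List.take_of_length_le (by omega)]

theorem drop_app (u P : List α) (h : D.p0 ≤ u.length) :
    (u.take D.p0 ++ P).drop D.p0 = P := by
  have hX0 : (u.take D.p0).length = D.p0 := by rw [List.length_take]; omega
  rw [List.drop_append, List.drop_eq_nil_of_le hX0.le, List.nil_append, hX0, Nat.sub_self,
    List.drop_zero]

theorem C1 (u : List α) (hu : u ∈ D.XX) (hb : u ∉ D.Bad) (x : V) (t : List α)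
    (ht : t ∈ D.XX ^ 0) :
    ∃ p q y, u ++ t = p ++ q ∧ p ∈ D.L1 x ∧ q ∈ Rsem D.XX D.XX D.T 0 D.L1 y := by
  have ht' : t = [] := by
    rw [pow_zero] at ht
    exact ht
  subst ht'
  have hz := D.hz
  have hnb : ¬ D.BadX u := fun h => hb ⟨hu, h⟩
  have h1 : ∀ t, t ≤ u.length → D.Wo (u.take t) → D.z ≤ t + D.N1 → D.z + D.N1 ≤ t := by
    intro t a b c
    by_contra hlt
    exact hnb (Or.inl ⟨t, a, b, c, by omega⟩)
  have h2 : ¬ D.BadT (u.length - D.p0) := fun h => hnb (Or.inr h)
  have hul := h1 u.length le_rfl (by rw [List.take_length]; exact hu.2.1)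
    (by have := hu.1; omega)
  obtain ⟨P', Q, e, hL, hR⟩ := D.g1c (u.drop D.p0) (by rw [List.length_drop]; omega)
    (by rw [List.length_drop]; exact h2) (D.act x (D.φ (u.take D.p0)) + D.nu2 (u.take D.p0))
  have hN := D.g1L _ _ hL
  have hX0 : (u.take D.p0).length = D.p0 := by rw [List.length_take]; omega
  have hXe : u = (u.take D.p0 ++ P') ++ Q := by
    rw [List.append_assoc, e, List.take_append_drop]
  have hlen : u.length = D.p0 + P'.length + Q.length := by
    conv_lhs => rw [hXe]
    simp only [List.length_append, hX0]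
  obtain ⟨b, hb'⟩ := Option.isSome_iff_exists.1 hR
  have hPl : (u.take D.p0 ++ P').length = D.p0 + P'.length := by
    rw [List.length_append, hX0]
  have hTu : D.T u x = b := by
    unfold T
    rw [D.g1s P' Q _ b hL hb' (by omega), e]
  refine ⟨u.take D.p0 ++ P', Q, b, by rw [List.append_nil]; exact hXe, ⟨by omega, by omega, ?_⟩,
    ?_⟩
  · rw [D.take_app u P' (by omega), D.drop_app u P' (by omega)]
    exact hL
  · intro x' p' hp'
    left
    obtain ⟨q1, q2, q3⟩ := hp'
    refine ex1 (D.mem_of p' Q (by omega) ?_ (by omega) ?_) ?_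
    · have := hu.2.1
      rw [hXe] at this
      exact (D.loc _ Q (by omega)).1 this
    · intro t ht1 ht2 hw
      have hw' := (D.wall_app (u.take D.p0 ++ P') Q t (by omega) (by omega)).2 hw
      rw [← hXe, hPl] at hw'
      have h3 := h1 _ (by omega) hw' (by omega)
      exact hu.2.2 _ (by omega) (by omega) hw'
    · unfold T
      rw [List.take_append_of_le_length q1, List.drop_append_of_le_length q1]
      exact (D.g1s _ _ _ _ q3 hb' (by omega)).symm

/-! ## scheme 2 -/

/-- the block of the candidate which starts `κ` letters before `Q` ends at the place `e` of `Q` -/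
def E (κ : ℕ) (Q : List α) (e : ℕ) : Prop :=
  D.z ≤ κ + e ∧ e ≤ Q.length ∧ D.Wo (Q.take e) ∧ ∀ t, D.z ≤ κ + t → t < e → ¬ D.Wo (Q.take t)

theorem E_unique {κ : ℕ} {Q : List α} {e e' : ℕ} (h : D.E κ Q e) (h' : D.E κ Q e') : e = e' := by
  rcases lt_trichotomy e e' with hlt | rfl | hlt
  · exact absurd h.2.2.1 (h'.2.2.2 e h.1 hlt)
  · rfl
  · exact absurd h'.2.2.1 (h.2.2.2 e' h'.1 hlt)

theorem E_exists {κ : ℕ} {Q : List α} (h1 : D.z ≤ κ + Q.length) (h2 : D.Wo Q) :
    ∃ e, D.E κ Q e := by
  classical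
  have hex : ∃ e, D.z ≤ κ + e ∧ e ≤ Q.length ∧ D.Wo (Q.take e) :=
    ⟨Q.length, h1, le_rfl, by rw [List.take_length]; exact h2⟩
  obtain ⟨a, b, c⟩ := Nat.find_spec hex
  refine ⟨Nat.find hex, a, b, c, ?_⟩
  intro t ht1 ht2 hw
  exact Nat.find_min hex ht2 ⟨ht1, by omega, hw⟩

def BadE (κ : ℕ) (Q : List α) : Prop :=
  ∃ e t, D.E κ Q e ∧ t ≤ e ∧ D.Wo (Q.take t) ∧ D.z ≤ κ + t + D.N1 ∧ κ + t < D.z + D.N1

def BadB (κ : ℕ) (Q : List α) : Prop :=
  ∃ e, D.E κ Q e ∧ D.BadT (κ + e - D.p0)

theorem bad_of (P Q : List α) (e : ℕ) (hP : P.length ≤ D.p0) (hE : D.E P.length Q e)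
    (hB : D.BadX (P ++ Q.take e)) : D.BadE P.length Q ∨ D.BadB P.length Q := by
  have hz := D.hz
  have hE' := hE
  obtain ⟨h1, h2, h3, h4⟩ := hE
  have hl : (P ++ Q.take e).length = P.length + e := by
    rw [List.length_append, List.length_take]; omega
  rcases hB with ⟨t, ht0, ht, ht1, ht2⟩ | hB
  · left
    rw [hl] at ht0
    refine ⟨e, t - P.length, hE', by omega, ?_, by omega, by omega⟩
    have e1 : t = P.length + (t - P.length) := by omega
    rw [e1, D.wall_app P (Q.take e) (t - P.length) (by omega)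
      (by rw [List.length_take]; omega), List.take_take, Nat.min_eq_left (by omega)] at ht
    exact ht
  · right
    rw [hl] at hB
    exact ⟨e, hE', hB⟩

theorem block_of_E (P Q : List α) (e : ℕ) (hP : P.length ≤ D.p0) (hE : D.E P.length Q e) :
    P ++ Q.take e ∈ D.XX := by
  have hz := D.hz
  obtain ⟨h1, h2, h3, h4⟩ := hE
  have hl : (Q.take e).length = e := by rw [List.length_take]; omega
  refine D.mem_of P (Q.take e) (by omega) h3 (by omega) ?_
  intro t ht1 ht2 hw
  rw [List.take_take, Nat.min_eq_left (by omega)] at hw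
  exact h4 _ ht1 (by omega) hw

/-- wall of `Q = U.drop a` seen in `U` -/
theorem wall_drop (U : List α) (a t : ℕ) (ht : D.n ≤ t) (h : a + t ≤ U.length)
    (hw : D.Wo ((U.drop a).take t)) : D.Wo (U.take (a + t)) := by
  have h1 := (D.wall_app (U.take a) (U.drop a) t ht (by rw [List.length_drop]; omega)).2 hw
  rw [List.take_append_drop, List.length_take, Nat.min_eq_left (by omega)] at h1
  exact h1

theorem wall_drop' (U : List α) (a t : ℕ) (ht : D.n ≤ t) (h : a + t ≤ U.length)
    (hw : D.Wo (U.take (a + t))) : D.Wo ((U.drop a).take t) := by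
  refine (D.wall_app (U.take a) (U.drop a) t ht (by rw [List.length_drop]; omega)).1 ?_
  rw [List.take_append_drop, List.length_take, Nat.min_eq_left (by omega)]
  exact hw

open Classical in
theorem spoilE (U : List α) :
    ((range D.K).filter fun i => ∃ j, j < D.K ∧ j ≠ i ∧ D.BadE (D.c j) (U.drop (D.c i))).card
      ≤ 1 := by
  have hz := D.hz
  rw [Finset.card_le_one]
  intro i hi i' hi'
  rw [mem_filter, mem_range] at hi hi'
  obtain ⟨hiK, j, hj, hji, e, t, ⟨a1, a2, a3, a4⟩, b1, b2, b3, b4⟩ := hi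
  obtain ⟨hiK', j', hj', hji', e', t', ⟨a1', a2', a3', a4'⟩, b1', b2', b3', b4'⟩ := hi'
  have hci := D.hcp i hiK
  have hcj := D.hcp j hj
  have hci' := D.hcp i' hiK'
  have hcj' := D.hcp j' hj'
  rw [List.length_drop] at a2 a2'
  have w1 := D.wall_drop U (D.c i) t (by omega) (by omega) b2
  have w2 := D.wall_drop U (D.c i') t' (by omega) (by omega) b2'
  have hW := D.hW
  have heq : D.c i + t = D.c i' + t' := by
    rcases lt_trichotomy (D.c i + t) (D.c i' + t') with h | h | h
    · have := D.gap U _ _ h (by omega) w1 w2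
      omega
    · exact h
    · have := D.gap U _ _ h (by omega) w2 w1
      omega
  by_contra hne
  rcases D.golomb i j i' j' hiK hj hiK' hj' (Ne.symm hji)
    (fun h => hne (congrArg Prod.fst h)) with h | h <;> omega

open Classical in
theorem spoilB (U : List α) (h1 : ∃ a, D.z ≤ a ∧ a < U.length ∧ D.Wo (U.take a))
    (h2 : D.Wo U) :
    ((range D.K).filter fun i => ∃ j, j < D.K ∧ j ≠ i ∧ D.BadB (D.c j) (U.drop (D.c i))).card
      ≤ 2 * D.C0 := by
  have hz := D.hz
  have hW := D.hW
  obtain ⟨a, ha1, ha2, ha3⟩ := h1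
  have hex1 : ∃ w, D.z ≤ w + D.p0 ∧ w ≤ U.length ∧ D.Wo (U.take w) := ⟨a, by omega, by omega, ha3⟩
  obtain ⟨x1, x2, x3⟩ := Nat.find_spec hex1
  have xmin := fun m (hm : m < Nat.find hex1) => Nat.find_min hex1 hm
  set w1 := Nat.find hex1 with hw1
  have hw1a : w1 ≤ a := Nat.find_min' hex1 ⟨by omega, by omega, ha3⟩
  have hex2 : ∃ w, w1 < w ∧ w ≤ U.length ∧ D.Wo (U.take w) :=
    ⟨U.length, by omega, le_rfl, by rw [List.take_length]; exact h2⟩
  obtain ⟨y1, y2, y3⟩ := Nat.find_spec hex2
  have ymin := fun m (hm : m < Nat.find hex2) => Nat.find_min hex2 hm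
  set w2 := Nat.find hex2 with hw2
  have hgap := D.gap U w1 w2 y1 y2 x3 y3
  let F : ℕ → Finset ℕ := fun T => ((range D.K ×ˢ range D.K).filter
      fun ab => ab.1 ≠ ab.2 ∧ D.BadT (T + D.c ab.2 - D.c ab.1)).image Prod.fst
  have hF : ∀ T, D.La ≤ T → (F T).card ≤ D.C0 := fun T hT =>
    Finset.card_image_le.trans (D.count T hT)
  have hsub : ((range D.K).filter fun i => ∃ j, j < D.K ∧ j ≠ i ∧
      D.BadB (D.c j) (U.drop (D.c i))) ⊆ F (w1 - D.p0) ∪ F (w2 - D.p0) := by
    intro i hi
    rw [mem_filter, mem_range] at hi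
    obtain ⟨hiK, j, hj, hji, e, ⟨a1, a2, a3, a4⟩, hB⟩ := hi
    have hci := D.hcp i hiK
    have hcj := D.hcp j hj
    rw [List.length_drop] at a2
    have hw := D.wall_drop U (D.c i) e (by omega) (by omega) a3
    have hge : w1 ≤ D.c i + e := by
      by_contra hlt
      exact xmin _ (by omega) ⟨by omega, by omega, hw⟩
    have key : ∀ w, D.c i + e = w → i ∈ F (w - D.p0) := by
      intro w hew
      refine mem_image.2 ⟨(i, j), ?_, rfl⟩
      rw [mem_filter, mem_product, mem_range, mem_range]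
      refine ⟨⟨hiK, hj⟩, Ne.symm hji, ?_⟩
      have : w - D.p0 + D.c j - D.c i = D.c j + e - D.p0 := by omega
      show D.BadT (w - D.p0 + D.c j - D.c i)
      rw [this]
      exact hB
    rw [mem_union]
    by_cases h : D.c i + e = w1
    · left; exact key _ h
    · right
      apply key
      by_contra hne
      have hgt : w2 < D.c i + e := by
        by_contra hle
        exact ymin (D.c i + e) (by omega) ⟨by omega, by omega, hw⟩
      have hw2' := D.wall_drop' U (D.c i) (w2 - D.c i) (by omega) (by omega)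
        (by rw [show D.c i + (w2 - D.c i) = w2 by omega]; exact y3)
      exact a4 (w2 - D.c i) (by omega) (by omega) hw2'
  calc _ ≤ (F (w1 - D.p0) ∪ F (w2 - D.p0)).card := card_le_card hsub
    _ ≤ (F (w1 - D.p0)).card + (F (w2 - D.p0)).card := card_union_le _ _
    _ ≤ D.C0 + D.C0 := Nat.add_le_add (hF _ (by omega)) (hF _ (by omega))
    _ = 2 * D.C0 := by ring

theorem C2 (u : List α) (hu : u ∈ D.Bad) (x : V) (t : List α) (ht : t ∈ D.Bad ^ 1) :
    ∃ p q y, u ++ t = p ++ q ∧ p ∈ D.L2 x ∧ q ∈ Rsem D.XX D.Bad D.T 1 D.L2 y := by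
  classical
  rw [pow_one] at ht
  have hz := D.hz
  have hul := hu.1.1
  have htl := ht.1.1
  have hX0 : (u.take D.p0).length = D.p0 := by rw [List.length_take]; omega
  obtain ⟨I, hI, hIk⟩ := D.e2 (u.take D.p0) x (fun k hk => by rw [hX0]; exact D.hcp k hk)
  have hUw : D.Wo (u ++ t) := (D.loc u t (by omega)).2 ht.1.2.1
  have s1 := D.spoilE (u ++ t)
  have s2 := D.spoilB (u ++ t) ⟨u.length, hul, by rw [List.length_append]; omega,
    by rw [List.take_left]; exact hu.1.2.1⟩ hUw
  obtain ⟨k, hkI, hk1, hk2⟩ : ∃ k ∈ I,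
      k ∉ ((range D.K).filter fun i => ∃ j, j < D.K ∧ j ≠ i ∧
        D.BadE (D.c j) ((u ++ t).drop (D.c i))) ∧
      k ∉ ((range D.K).filter fun i => ∃ j, j < D.K ∧ j ≠ i ∧
        D.BadB (D.c j) ((u ++ t).drop (D.c i))) := by
    by_contra hcon
    have hsub : I ⊆ ((range D.K).filter fun i => ∃ j, j < D.K ∧ j ≠ i ∧
        D.BadE (D.c j) ((u ++ t).drop (D.c i))) ∪
        ((range D.K).filter fun i => ∃ j, j < D.K ∧ j ≠ i ∧
        D.BadB (D.c j) ((u ++ t).drop (D.c i))) := by
      intro k hk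
      by_contra hno
      rw [mem_union] at hno
      exact hcon ⟨k, hk, fun h => hno (Or.inl h), fun h => hno (Or.inr h)⟩
    have := (card_le_card hsub).trans (card_union_le _ _)
    omega
  obtain ⟨hkK, hlam, hrho⟩ := hIk k hkI
  have hck := D.hcp k hkK
  obtain ⟨r, hr⟩ := Option.isSome_iff_exists.1 hrho
  rw [mem_filter, mem_range] at hk1 hk2
  have hd : (u ++ t).drop (D.c k) = u.drop (D.c k) ++ t :=
    List.drop_append_of_le_length (by omega)
  rw [hd] at hk1 hk2
  have htk : (u.take D.p0).take (D.c k) = u.take (D.c k) := by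
    rw [List.take_take, Nat.min_eq_left hck]
  rw [htk] at hlam
  have hrr : r = D.act x (D.φ (u.take D.p0)) + D.nu2 (u.take D.p0) := by
    have := D.e1 k hkK (u.take (D.c k)) ((u.take D.p0).drop (D.c k)) x r
      (by rw [List.length_take]; omega) hlam hr
    rw [← htk, List.take_append_drop] at this
    exact this
  refine ⟨u.take (D.c k), u.drop (D.c k) ++ t, D.T t (D.T u x), ?_, ⟨k, hkK,
    by rw [List.length_take]; omega, hlam⟩, ?_⟩
  · rw [← List.append_assoc, List.take_append_drop]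
  · intro x' p' hp'
    obtain ⟨j, hj, hpj, hlj⟩ := hp'
    have hcj := D.hcp j hj
    set q := u.drop (D.c k) ++ t with hq
    have hql : q.length = u.length - D.c k + t.length := by
      rw [hq, List.length_append, List.length_drop]
    have hqw : D.Wo q := (D.loc _ t (by omega)).2 ht.1.2.1
    obtain ⟨e, he⟩ := D.E_exists (κ := p'.length) (Q := q) (by omega) hqw
    have hblk := D.block_of_E p' q e (by omega) he
    have hpre : p' ++ q.take e <+: p' ++ q :=
      ⟨q.drop e, by rw [List.append_assoc, List.take_append_drop]⟩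
    by_cases hbad : D.BadX (p' ++ q.take e)
    · have hjk : j = k := by
        by_contra hne
        rcases D.bad_of p' q e (by omega) he hbad with h | h
        · exact hk1 ⟨hkK, j, hj, hne, by rw [← hpj]; exact h⟩
        · exact hk2 ⟨hkK, j, hj, hne, by rw [← hpj]; exact h⟩
      subst hjk
      have hE2 : D.E p'.length q (u.length - D.c j) := by
        have htake : ∀ s, s ≤ u.length - D.c j → q.take s = (u.drop (D.c j)).take s := by
          intro s hs
          rw [hq, List.take_append_of_le_length (by rw [List.length_drop]; exact hs)]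
        refine ⟨by omega, by omega, ?_, ?_⟩
        · rw [htake _ le_rfl]
          refine D.wall_drop' u (D.c j) _ (by omega) (by omega) ?_
          rw [show D.c j + (u.length - D.c j) = u.length by omega, List.take_length]
          exact hu.1.2.1
        · intro s hs1 hs2 hw
          rw [htake s hs2.le] at hw
          have := D.wall_drop u (D.c j) s (by omega) (by omega) hw
          exact hu.1.2.2 _ (by omega) (by omega) this
      have hee := D.E_unique he hE2
      have hqt : q.take e = u.drop (D.c j) := by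
        rw [hee, hq, List.take_append_of_le_length (by rw [List.length_drop]),
          List.take_of_length_le (by rw [List.length_drop])]
      rw [hqt] at hblk hbad
      left
      show p' ++ q ∈ Exactly D.Bad D.T 2 x' _
      rw [hq, ← List.append_assoc]
      refine ex2 ⟨hblk, hbad⟩ ht ?_
      congr 1
      have a1 : (p' ++ u.drop (D.c j)).take D.p0 = p' ++ (u.take D.p0).drop (D.c j) := by
        rw [List.take_append, List.take_of_length_le (by omega), List.drop_take, hpj]
      have a2 : (p' ++ u.drop (D.c j)).drop D.p0 = u.drop D.p0 := by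
        rw [List.drop_append, List.drop_eq_nil_of_le (by omega), List.nil_append,
          List.drop_drop, hpj, show D.c j + (D.p0 - D.c j) = D.p0 by omega]
      have h5 := D.e1 j hj p' ((u.take D.p0).drop (D.c j)) x' r hpj hlj hr
      unfold T
      rw [a1, a2, ← h5, hrr]
    · right
      left
      exact ⟨_, hblk, fun h => hbad h.2, hpre⟩

theorem F1 [Finite α] (v : V) : {p | p ∈ D.L1 v}.Finite :=
  (List.finite_length_le α (D.p0 + D.N1)).subset fun _ h => h.2.1

theorem F2 [Finite α] (v : V) : {p | p ∈ D.L2 v}.Finite :=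
  (List.finite_length_le α D.p0).subset fun p h => by
    obtain ⟨k, hk, h1, -⟩ := h
    show p.length ≤ D.p0
    rw [h1]
    exact D.hcp k hk

end G

end Crest.Agent.R320.GeoT_978
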