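import Crest.Agent.R320.CoreOne_37

/-!
# Row 320: geometry of the threshold blocks for the promise ruler (helper37)

Blocks `XX Wo M th` of CoreOne_37.  A candidate anchor is shifted against the true anchor; its block
ends at one of two walls `u1, u2` which do not depend on the candidate (`key`), and its band condition
concerns `u1` only.
-/

set_option autoImplicit false

namespace Crest.Agent.R320.GeoU_37

open Crest.Agent.R320.Blk467 Crest.Agent.R320.CoreOne_37

universe u
variable {α : Type u}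

/-- constants of the threshold rule -/
structure Geo (Wo : List α → Prop) (n W M N Z0 Z1 : ℕ) (th : ℕ → ℕ) : Prop where
  loc : ∀ P Q : List α, n ≤ Q.length → (Wo (P ++ Q) ↔ Wo Q)
  len : ∀ Q : List α, Wo Q → n ≤ Q.length
  gap : ∀ (P : List α) (d : ℕ), Wo P → 0 < d → d ≤ W → ¬ Wo (P.take (P.length - d))
  lo : ∀ r, Z0 ≤ th r
  hi : ∀ r, th r ≤ Z1
  hZ0 : 4 * N + n + 1 ≤ Z0
  hW : Z1 + 4 * N ≤ Z0 + W

variable {Wo : List α → Prop} {n W M N Z0 Z1 : ℕ} {th : ℕ → ℕ}

theorem Geo.gap' (g : Geo Wo n W M N Z0 Z1 th) {X : List α} {s t : ℕ} (hst : s < t)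
    (ht : t ≤ X.length) (h1 : Wo (X.take s)) (h2 : Wo (X.take t)) : s + W < t := by
  by_contra hc
  push Not at hc
  refine g.gap (X.take t) (t - s) h2 (by omega) (by omega) ?_
  rw [List.take_take, List.length_take]
  rwa [show min (min t X.length - (t - s)) t = s by omega]

/-- replace the first letters of a block -/
theorem Geo.swap (g : Geo Wo n W M N Z0 Z1 th) {A A' C : List α} (hA : A.length = A'.length)
    (hlen : A.length + n ≤ Z0) (hX : A ++ C ∈ XX Wo M th) : A' ++ C ∈ XX Wo M th := by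
  obtain ⟨h1, h2, h3⟩ := hX
  have hlo := g.lo ((A ++ C).length % M)
  have hC : n ≤ C.length := by
    rw [List.length_append] at h2 hlo; omega
  have hl : (A' ++ C).length = (A ++ C).length := by simp [hA]
  refine ⟨(g.loc _ _ hC).2 ((g.loc _ _ hC).1 h1), by rw [hl]; exact h2, ?_⟩
  intro t ht hwall hth
  have h4 := g.lo (t % M)
  obtain ⟨s, rfl⟩ : ∃ s, t = A'.length + s := ⟨t - A'.length, by omega⟩
  have hs : s ≤ C.length := by rw [List.length_append] at ht; omega
  have hns : n ≤ s := by omega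
  rw [List.take_append, List.take_of_length_le (by omega), Nat.add_sub_cancel_left,
    g.loc _ _ (by rw [List.length_take]; omega)] at hwall
  rw [← hA] at hth
  refine h3 (A.length + s) (by rw [hl] at ht; omega) ?_ hth
  rw [List.take_append, List.take_of_length_le (by omega), Nat.add_sub_cancel_left,
    g.loc _ _ (by rw [List.length_take]; omega)]
  exact hwall

/-- the two walls -/
theorem Geo.key (g : Geo Wo n W M N Z0 Z1 th) {X X2 : List α} (hX : X ∈ XX Wo M th)
    (hX2 : X2 ∈ XX Wo M th) :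
    ∃ u1 u2 : ℕ, Z0 ≤ u1 + 2 * N ∧ u1 ≤ u2 ∧
      ∀ (a b : ℕ) (P' r X'' : List α), a ≤ N → b ≤ N → P'.length = b → X'' ∈ XX Wo M th →
        X'' <+: P' ++ (X.drop a ++ X2) ++ r →
        (X''.length + a = u1 + b ∨ X''.length + a = u2 + b) ∧
        (E Wo M N th X'' → ∃ t', t' + a = u1 + b ∧ t' < th (t' % M) + N ∧
          th (t' % M) ≤ t' + N) := by
  classical
  set w0 := X ++ X2 with hw0
  have hZ0 := g.hZ0
  have hW := g.hW
  have hXl : Z0 ≤ X.length := (g.lo _).trans hX.2.1
  have hX2l : Z0 ≤ X2.length := (g.lo _).trans hX2.2.1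
  have hw0l : w0.length = X.length + X2.length := by rw [hw0, List.length_append]
  have hwX : Wo (w0.take X.length) := by
    rw [hw0, List.take_append, List.take_length, Nat.sub_self, List.take_zero, List.append_nil]
    exact hX.1
  have hwE : Wo (w0.take w0.length) := by
    rw [List.take_length, hw0]
    exact (g.loc _ _ (by omega)).2 hX2.1
  have hex1 : ∃ t, Z0 ≤ t + 2 * N ∧ t ≤ w0.length ∧ Wo (w0.take t) :=
    ⟨X.length, by omega, by omega, hwX⟩
  obtain ⟨p1, p2, p3⟩ := Nat.find_spec hex1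
  set u1 := Nat.find hex1 with hu1
  have u1min : ∀ t, Z0 ≤ t + 2 * N → t ≤ w0.length → Wo (w0.take t) → u1 ≤ t := fun t h1 h2 h3 =>
    Nat.find_min' hex1 ⟨h1, h2, h3⟩
  obtain ⟨u2, hu12, hu2min⟩ : ∃ u2, u1 ≤ u2 ∧ (∀ t, u1 < t → t ≤ w0.length → Wo (w0.take t) →
      u1 < u2 ∧ u2 ≤ t ∧ Wo (w0.take u2)) := by
    by_cases h : ∃ t, u1 < t ∧ t ≤ w0.length ∧ Wo (w0.take t)
    · obtain ⟨q1, q2, q3⟩ := Nat.find_spec h
      exact ⟨Nat.find h, q1.le, fun t h1 h2 h3 => ⟨q1, Nat.find_min' h ⟨h1, h2, h3⟩, q3⟩⟩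
    · exact ⟨u1, le_rfl, fun t h1 h2 h3 => absurd ⟨t, h1, h2, h3⟩ h⟩
  refine ⟨u1, u2, p1, hu12, ?_⟩
  intro a b P' r X'' ha hb hP' hX'' hpre
  set C0 := X.drop a ++ X2 with hC0
  have hC0l : C0.length + a = w0.length := by
    rw [hC0, List.length_append, List.length_drop]; omega
  have hw0' : w0 = X.take a ++ C0 := by rw [hC0, ← List.append_assoc, List.take_append_drop]
  -- walls of `w0` and of the shifted text
  have tw0 : ∀ s, n ≤ s → s ≤ C0.length → (Wo (w0.take (a + s)) ↔ Wo (C0.take s)) := by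
    intro s h1 h2
    have hta : (X.take a).length = a := by rw [List.length_take]; omega
    rw [hw0', List.take_append, List.take_of_length_le (by omega), hta, Nat.add_sub_cancel_left]
    exact g.loc _ _ (by rw [List.length_take]; omega)
  have tw1 : ∀ s, n ≤ s → s ≤ C0.length → b + s ≤ X''.length →
      (Wo (X''.take (b + s)) ↔ Wo (C0.take s)) := by
    intro s h1 h2 h3
    have e1 : X''.take (b + s) = (P' ++ C0 ++ r).take (b + s) := by
      obtain ⟨R', hR'⟩ := hpre
      rw [← hR', List.take_append_of_le_length h3]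
    rw [e1, List.append_assoc, List.take_append, List.take_of_length_le (by omega), hP',
      Nat.add_sub_cancel_left, List.take_append_of_le_length h2]
    exact g.loc _ _ (by rw [List.length_take]; omega)
  obtain ⟨k1, k2, k3⟩ := hX''
  have hlo := g.lo (X''.length % M)
  -- every wall of `w0` whose shifted place is late enough is not before the end of `X''`
  have late : ∀ t, t ≤ w0.length → Wo (w0.take t) → a + n ≤ t → Z1 + a ≤ t + b →
      X''.length + a ≤ t + b := by
    intro t h1 h2 h3 h4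
    by_contra hc
    push Not at hc
    obtain ⟨s, rfl⟩ : ∃ s, t = a + s := ⟨t - a, by omega⟩
    have hw : Wo (X''.take (b + s)) :=
      (tw1 s (by omega) (by omega) (by omega)).2 ((tw0 s (by omega) (by omega)).1 h2)
    exact k3 (b + s) (by omega) hw ((g.hi _).trans (by omega))
  have hend : X''.length + a ≤ w0.length + b := by
    refine late w0.length le_rfl hwE (by omega) ?_
    have := g.gap' (X := w0) (s := X.length) (t := w0.length) (by omega) le_rfl hwX hwE
    omega
  -- places of `X''` which are walls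
  have trans : ∀ t', t' ≤ X''.length → Z0 ≤ t' + N → Wo (X''.take t') →
      ∃ t, t + b = t' + a ∧ t ≤ w0.length ∧ Wo (w0.take t) := by
    intro t' h1 h2 h3
    obtain ⟨s, rfl⟩ : ∃ s, t' = b + s := ⟨t' - b, by omega⟩
    refine ⟨a + s, by omega, by omega, ?_⟩
    exact (tw0 s (by omega) (by omega)).2 ((tw1 s (by omega) (by omega) h1).1 h3)
  refine ⟨?_, ?_⟩
  · obtain ⟨t, e1, e2, e3⟩ := trans X''.length le_rfl (by omega) (by rw [List.take_length]; exact k1)
    have h5 : u1 ≤ t := u1min t (by omega) e2 e3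
    rcases eq_or_lt_of_le h5 with h6 | h6
    · left; omega
    · right
      obtain ⟨q1, q2, q3⟩ := hu2min t h6 e2 e3
      have h7 := g.gap' (X := w0) q1 (q2.trans e2) p3 q3
      have := late u2 (q2.trans e2) q3 (by omega) (by omega)
      omega
  · rintro ⟨t', h1, h2, h3, h4⟩
    have hlo' := g.lo (t' % M)
    have hhi' := g.hi (t' % M)
    obtain ⟨t, e1, e2, e3⟩ := trans t' h1 (by omega) h2
    have h5 : u1 ≤ t := u1min t (by omega) e2 e3
    rcases eq_or_lt_of_le h5 with h6 | h6
    · exact ⟨t', by omega, h3, h4⟩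
    · exfalso
      have h7 := g.gap' (X := w0) h6 e2 p3 e3
      omega

end Crest.Agent.R320.GeoU_37
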