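import Mathlib

/-!
# Row 320: geometry and spoil count of the threshold block code (all words, left-looking walls)
Only lists and natural numbers.
-/

namespace Crest.Agent.R320.GeoU_511

variable {α : Type*}

structure Geo (α : Type*) where
  Wo : List α → Prop
  n : ℕ
  W : ℕ
  Mp : ℕ
  p0 : ℕ
  N : ℕ
  z0 : ℕ
  Zm : ℕ
  thr : ℕ → ℕ
  loc : ∀ P Q : List α, n ≤ Q.length → (Wo (P ++ Q) ↔ Wo Q)
  len : ∀ P : List α, Wo P → n ≤ P.length
  gap : ∀ (P : List α) (d : ℕ), Wo P → 0 < d → d ≤ W → ¬ Wo (P.take (P.length - d))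
  thr_lo : ∀ r, z0 ≤ thr r
  thr_hi : ∀ r, thr r ≤ Zm
  pos : p0 + N + n < z0

namespace Geo

variable (G : Geo α)

/-- wall of `w` at place `t` -/
def Wl (w : List α) (t : ℕ) : Prop := t ≤ w.length ∧ G.Wo (w.take t)

/-- qualifying wall -/
def Adm (w : List α) (t : ℕ) : Prop := G.Wl w t ∧ G.thr (t % G.Mp) ≤ t

/-- the block code -/
def Z : Set (List α) := {z | G.Adm z z.length ∧ ∀ t < z.length, ¬ G.Adm z t}

/-- (E)-bad -/
def Eb (z : List α) : Prop :=
  ∃ t, G.Wl z t ∧ t ≤ G.thr (t % G.Mp) + G.N ∧ G.thr (t % G.Mp) ≤ t + G.N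

/-- bad blocks -/
def Bd (BadT : ℕ → Prop) : Set (List α) := {z | z ∈ G.Z ∧ (G.Eb z ∨ BadT (z.length - G.p0))}

variable {G}

theorem wl_app (p q : List α) (j : ℕ) (hj : G.n ≤ j) :
    G.Wl (p ++ q) (p.length + j) ↔ (j ≤ q.length ∧ G.Wo (q.take j)) := by
  unfold Wl
  have h1 : (p ++ q).take (p.length + j) = p ++ q.take j := by
    simp [List.take_append]
  rw [h1]
  constructor
  · rintro ⟨a, b⟩
    have h2 : j ≤ q.length := by simpa using a
    exact ⟨h2, (G.loc p (q.take j) (by simp; omega)).1 b⟩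
  · rintro ⟨a, b⟩
    exact ⟨by simpa using a, (G.loc p (q.take j) (by simp; omega)).2 b⟩

theorem wl_take {w : List α} {s t : ℕ} (hs : t ≤ s) (hsw : s ≤ w.length) :
    G.Wl (w.take s) t ↔ G.Wl w t := by
  unfold Wl
  rw [List.take_take, min_eq_left hs]
  simp only [List.length_take]
  constructor
  · rintro ⟨a, b⟩; exact ⟨by omega, b⟩
  · rintro ⟨a, b⟩; exact ⟨by omega, b⟩

theorem adm_take {w : List α} {s t : ℕ} (hs : t ≤ s) (hsw : s ≤ w.length) :
    G.Adm (w.take s) t ↔ G.Adm w t := by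
  unfold Adm
  rw [wl_take hs hsw]

theorem take_mem {w : List α} {s : ℕ} (h : G.Adm w s) (hm : ∀ t < s, ¬ G.Adm w t) :
    w.take s ∈ G.Z := by
  have hs : s ≤ w.length := h.1.1
  have hl : (w.take s).length = s := by simp [hs]
  refine ⟨?_, ?_⟩
  · rw [hl, adm_take le_rfl hs]; exact h
  · intro t ht
    rw [hl] at ht
    rw [adm_take ht.le hs]
    exact hm t ht

theorem adm_lo {w : List α} {t : ℕ} (h : G.Adm w t) : G.z0 ≤ t := (G.thr_lo _).trans h.2

theorem exists_block {w : List α} {s : ℕ} (h : G.Adm w s) :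
    ∃ z ∈ G.Z, z <+: w ∧ z.length ≤ s := by
  classical
  have hex : ∃ t, G.Adm w t := ⟨s, h⟩
  refine ⟨w.take (Nat.find hex), take_mem (Nat.find_spec hex) (fun t ht => Nat.find_min hex ht),
    List.take_prefix _ _, ?_⟩
  have := Nat.find_min' hex h
  exact (List.length_take_le _ _).trans this

theorem mem_len {z : List α} (h : z ∈ G.Z) : G.z0 ≤ z.length := adm_lo h.1

theorem nil_notMem : ([] : List α) ∉ G.Z := by
  intro h
  have := mem_len h
  have := G.pos
  simp at *
  omega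

/-- (G1) prefix code -/
theorem prefix_code {z z' : List α} (h : z ∈ G.Z) (h' : z' ∈ G.Z) (hp : z <+: z') : z = z' := by
  by_contra hne
  have hlt : z.length < z'.length := by
    rcases Nat.lt_or_ge z.length z'.length with h1 | h1
    · exact h1
    · exact absurd (List.IsPrefix.eq_of_length_le hp h1) hne
  apply h'.2 _ hlt
  have h1 : z = z'.take z.length := List.prefix_iff_eq_take.1 hp
  have h2 := h.1
  rw [← adm_take (le_refl z.length) hlt.le, ← h1]
  exact h2

theorem wl_gap {w : List α} {t t' : ℕ} (h : G.Wl w t) (h' : G.Wl w t') (hlt : t < t') :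
    G.W < t' - t := by
  by_contra hcon
  have h1 := G.gap (w.take t') (t' - t) h'.2 (by omega) (by omega)
  apply h1
  have h2 : (w.take t').length = t' := by simp [h'.1]
  rw [h2, List.take_take]
  have h3 : min (t' - (t' - t)) t' = t := by omega
  rw [h3]
  exact h.2

/-- (G2) junction of scheme 1 -/
theorem junction {p q p' : List α} {om om' : ℕ} (h : p ++ q ∈ G.Z) (hE : ¬ G.Eb (p ++ q))
    (hp : p.length = G.p0 + G.Mp * om) (hp' : p'.length = G.p0 + G.Mp * om')
    (h1 : p.length ≤ G.p0 + G.N) (h2 : p'.length ≤ G.p0 + G.N) : p' ++ q ∈ G.Z := by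
  have hpos := G.pos
  have hlen := mem_len h
  simp only [List.length_append] at hlen
  have hres : ∀ j, (p.length + j) % G.Mp = (p'.length + j) % G.Mp := by
    intro j
    rw [hp, hp', show G.p0 + G.Mp * om + j = (G.p0 + j) + G.Mp * om by ring,
      show G.p0 + G.Mp * om' + j = (G.p0 + j) + G.Mp * om' by ring,
      Nat.add_mul_mod_self_left, Nat.add_mul_mod_self_left]
  -- decisions agree
  have hdec : ∀ j, G.n ≤ j → (G.Adm (p' ++ q) (p'.length + j) ↔ G.Adm (p ++ q) (p.length + j)) := by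
    intro j hj
    unfold Adm
    rw [wl_app p' q j hj, ← wl_app p q j hj, ← hres j]
    constructor
    · rintro ⟨a, b⟩
      refine ⟨a, ?_⟩
      by_contra hcon
      exact hE ⟨p.length + j, a, by omega, by omega⟩
    · rintro ⟨a, b⟩
      refine ⟨a, ?_⟩
      by_contra hcon
      exact hE ⟨p.length + j, a, by omega, by omega⟩
  refine ⟨?_, ?_⟩
  · have h3 : (p' ++ q).length = p'.length + q.length := by simp
    rw [h3, hdec _ (by omega)]
    have h4 := h.1
    rwa [List.length_append] at h4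
  · intro t ht hA
    have hlo := adm_lo hA
    obtain ⟨j, rfl⟩ : ∃ j, t = p'.length + j := ⟨t - p'.length, by omega⟩
    rw [hdec j (by omega)] at hA
    refine h.2 _ ?_ hA
    simp only [List.length_append] at ht ⊢
    omega

theorem adm_same {p q p' : List α} (hp : p'.length = p.length) (hn : p.length + G.n ≤ G.z0)
    (t : ℕ) : G.Adm (p' ++ q) t ↔ G.Adm (p ++ q) t := by
  constructor
  · intro h
    have hlo := adm_lo h
    obtain ⟨j, rfl⟩ : ∃ j, t = p'.length + j := ⟨t - p'.length, by omega⟩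
    unfold Adm at h ⊢
    rw [wl_app p' q j (by omega)] at h
    rw [hp, wl_app p q j (by omega)]
    rw [hp] at h
    exact h
  · intro h
    have hlo := adm_lo h
    obtain ⟨j, rfl⟩ : ∃ j, t = p.length + j := ⟨t - p.length, by omega⟩
    unfold Adm at h ⊢
    rw [wl_app p q j (by omega)] at h
    rw [← hp, wl_app p' q j (by omega)]
    rw [← hp] at h
    exact h

/-- (G3) the first `p0` letters may be changed -/
theorem mem_same {p q p' : List α} (hp : p'.length = p.length) (hn : p.length + G.n ≤ G.z0) :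
    p' ++ q ∈ G.Z ↔ p ++ q ∈ G.Z := by
  unfold Z
  simp only [Set.mem_ofPred_eq, adm_same hp hn, List.length_append, hp]

theorem eb_same {p q p' : List α} (hp : p'.length = p.length)
    (hn : p.length + G.n + G.N ≤ G.z0) : G.Eb (p' ++ q) ↔ G.Eb (p ++ q) := by
  have key : ∀ a b : List α, a.length = b.length → b.length + G.n + G.N ≤ G.z0 →
      G.Eb (a ++ q) → G.Eb (b ++ q) := by
    intro a b hab hb hE
    obtain ⟨t, h1, h2, h3⟩ := hE
    have hlo := G.thr_lo (t % G.Mp)
    obtain ⟨j, rfl⟩ : ∃ j, t = a.length + j := ⟨t - a.length, by omega⟩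
    refine ⟨a.length + j, ?_, h2, h3⟩
    rw [wl_app a q j (by omega)] at h1
    rw [hab, wl_app b q j (by omega)]
    exact h1
  exact ⟨key _ _ hp hn, key _ _ hp.symm (by omega)⟩

theorem bd_same {BadT : ℕ → Prop} {p q p' : List α} (hp : p'.length = p.length)
    (hn : p.length + G.n + G.N ≤ G.z0) : p' ++ q ∈ G.Bd BadT ↔ p ++ q ∈ G.Bd BadT := by
  unfold Bd
  simp only [Set.mem_ofPred_eq, mem_same hp (by omega : p.length + G.n ≤ G.z0), eb_same hp hn,
    List.length_append, hp]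

/-- (G5) -/
theorem no_wall {w : List α} (h : ∀ z ∈ G.Z, ¬ z <+: w) {t : ℕ} (ht : G.Wl w t) : t < G.Zm := by
  by_contra hcon
  have hA : G.Adm w t := ⟨ht, (G.thr_hi _).trans (by omega)⟩
  obtain ⟨z, hz, hp, -⟩ := exists_block hA
  exact h z hz hp

theorem no_wall' {z : List α} (h : z ∈ G.Z) {t : ℕ} (ht : G.Wl z t) (h1 : t < z.length) :
    t < G.Zm := by
  by_contra hcon
  exact h.2 t h1 ⟨ht, (G.thr_hi _).trans (by omega)⟩

/-- (G4) the spoil count -/
theorem spoil {BadT : ℕ → Prop} {K C0 T0 : ℕ} {c : ℕ → ℕ} (hc : ∀ k < K, c k ≤ G.p0)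
    (hsep : ∀ r r', r < G.Mp → r' < G.Mp → r ≠ r' →
      G.thr r + 2 * (G.N + G.p0) < G.thr r' ∨ G.thr r' + 2 * (G.N + G.p0) < G.thr r)
    (hMp : 0 < G.Mp)
    (hgol : ∀ a b e d, a < K → b < K → e < K → d < K → a ≠ b →
      (c a + c d) % G.Mp = (c e + c b) % G.Mp → a = e ∧ b = d)
    (hthin : ∀ T, T0 ≤ T → ∀ S : Finset (ℕ × ℕ), (∀ ab ∈ S, ab.1 < K ∧ ab.2 < K ∧ ab.1 ≠ ab.2 ∧
      BadT (T + c ab.1 - c ab.2)) → S.card ≤ C0)
    (hW : G.Zm + 2 * G.p0 + 2 * G.N ≤ G.W + G.z0) (hz0 : T0 + 2 * G.p0 + G.n + G.N < G.z0)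
    {z1 z2 : List α} (h1 : z1 ∈ G.Z) (h2 : z2 ∈ G.Z) :
    ∃ Sp : Finset (ℕ × ℕ), Sp.card ≤ 1 + 2 * C0 ∧ ∀ k k', k < K → k' < K → k ≠ k' →
      (k, k') ∉ Sp → ∀ p' : List α, p'.length = c k' →
        ∃ z' ∈ G.Z, z' <+: p' ++ (z1 ++ z2).drop (c k) ∧ z' ∉ G.Bd BadT := by
  classical
  have hpos := G.pos
  have hl1 := mem_len h1
  have hl2 := mem_len h2
  set w := z1 ++ z2 with hw
  have hwl : w.length = z1.length + z2.length := by simp [hw]
  have hT1 : G.Wl w z1.length := by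
    refine ⟨by omega, ?_⟩
    have : w.take z1.length = z1 := by simp [hw]
    rw [this]
    have h3 := h1.1.1.2
    simpa using h3
  have hT2 : G.Wl w w.length := by
    refine ⟨le_rfl, ?_⟩
    rw [List.take_length, hw, G.loc z1 z2 (by omega)]
    have h3 := h2.1.1.2
    simpa using h3
  have hex0 : ∃ t, G.z0 ≤ t + G.p0 ∧ G.Wl w t := ⟨z1.length, by omega, hT1⟩
  obtain ⟨t0, ⟨ht0a, ht0b⟩, ht0min, ht0le⟩ : ∃ t0, (G.z0 ≤ t0 + G.p0 ∧ G.Wl w t0) ∧
      (∀ t, G.z0 ≤ t + G.p0 → G.Wl w t → t0 ≤ t) ∧ t0 ≤ z1.length :=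
    ⟨Nat.find hex0, Nat.find_spec hex0, fun t a b => Nat.find_min' hex0 ⟨a, b⟩,
      Nat.find_min' hex0 ⟨by omega, hT1⟩⟩
  have hex1 : ∃ t, t0 < t ∧ G.Wl w t := ⟨w.length, by omega, hT2⟩
  obtain ⟨t1, ⟨ht1a, ht1b⟩, ht1min⟩ : ∃ t1, (t0 < t1 ∧ G.Wl w t1) ∧
      (∀ t, t0 < t → G.Wl w t → t1 ≤ t) :=
    ⟨Nat.find hex1, Nat.find_spec hex1, fun t a b => Nat.find_min' hex1 ⟨a, b⟩⟩
  have hgap01 := wl_gap ht0b ht1b ht1a
  -- the (E) pairs
  let PE : ℕ × ℕ → Prop := fun kk => kk.1 ≠ kk.2 ∧ ∃ t, G.Wl w t ∧ G.z0 ≤ t + G.p0 + G.N ∧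
    t + c kk.2 - c kk.1 ≤ G.thr ((t + c kk.2 - c kk.1) % G.Mp) + G.N ∧
    G.thr ((t + c kk.2 - c kk.1) % G.Mp) ≤ (t + c kk.2 - c kk.1) + G.N
  let SE := (Finset.range K ×ˢ Finset.range K).filter PE
  let SB : ℕ → Finset (ℕ × ℕ) := fun T => ((Finset.range K ×ˢ Finset.range K).filter
      (fun ab : ℕ × ℕ => ab.1 ≠ ab.2 ∧ BadT (T + c ab.1 - c ab.2))).image Prod.swap
  have hSE : SE.card ≤ 1 := by
    rw [Finset.card_le_one]
    rintro ⟨k, k'⟩ ha ⟨l, l'⟩ hb
    simp only [SE, PE, Finset.mem_filter, Finset.mem_product, Finset.mem_range] at ha hb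
    obtain ⟨⟨hk, hk'⟩, hne, t, ht, ht1, ht2, ht3⟩ := ha
    obtain ⟨⟨hl, hl'⟩, hne', s, hs, hs1, hs2, hs3⟩ := hb
    have e1 := hc k hk
    have e2 := hc k' hk'
    have e3 := hc l hl
    have e4 := hc l' hl'
    have b1 := G.thr_hi ((t + c k' - c k) % G.Mp)
    have b2 := G.thr_hi ((s + c l' - c l) % G.Mp)
    have hts : t = s := by
      rcases lt_trichotomy t s with h | h | h
      · have := wl_gap ht hs h
        omega
      · exact h
      · have := wl_gap hs ht h
        omega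
    subst hts
    have hr : (t + c k' - c k) % G.Mp = (t + c l' - c l) % G.Mp := by
      by_contra hne2
      rcases hsep _ _ (Nat.mod_lt _ hMp) (Nat.mod_lt _ hMp) hne2 with h | h
      · omega
      · omega
    have hr2 : (c k' + c l) % G.Mp = (c l' + c k) % G.Mp := by
      have h5 : (t + c k' - c k) + (c k + c l) ≡ (t + c l' - c l) + (c k + c l) [MOD G.Mp] :=
        Nat.ModEq.add_right _ hr
      have h6 : (t + c k' - c k) + (c k + c l) = t + (c k' + c l) := by omega
      have h7 : (t + c l' - c l) + (c k + c l) = t + (c l' + c k) := by omega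
      rw [h6, h7] at h5
      exact Nat.ModEq.add_left_cancel' t h5
    obtain ⟨e, e'⟩ := hgol k' k l' l hk' hk hl' hl hne.symm hr2
    rw [e, e']
  have hSB : ∀ T, T0 ≤ T → (SB T).card ≤ C0 := fun T hT =>
    Finset.card_image_le.trans (hthin T hT _ (fun ab hab => by
      simp only [Finset.mem_filter, Finset.mem_product, Finset.mem_range] at hab
      exact ⟨hab.1.1, hab.1.2, hab.2.1, hab.2.2⟩))
  refine ⟨SE ∪ (SB (t0 - G.p0) ∪ SB (t1 - G.p0)), ?_, ?_⟩
  · have a1 := Finset.card_union_le SE (SB (t0 - G.p0) ∪ SB (t1 - G.p0))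
    have a2 := Finset.card_union_le (SB (t0 - G.p0)) (SB (t1 - G.p0))
    have a3 := hSB (t0 - G.p0) (by omega)
    have a4 := hSB (t1 - G.p0) (by omega)
    omega
  intro k k' hk hk' hne hnot p' hp'
  have e1 := hc k hk
  have e2 := hc k' hk'
  set u := p' ++ w.drop (c k) with hu
  have htr : ∀ j, G.n ≤ j → (G.Wl u (c k' + j) ↔ G.Wl w (c k + j)) := by
    intro j hj
    have h3 : w = w.take (c k) ++ w.drop (c k) := (List.take_append_drop _ _).symm
    have h4 : (w.take (c k)).length = c k := by simp; omega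
    rw [hu, ← hp', wl_app p' (w.drop (c k)) j hj]
    conv_rhs => rw [h3]
    have h5 := wl_app (G := G) (w.take (c k)) (w.drop (c k)) j hj
    rw [h4] at h5
    rw [h5]
  have htr2 : ∀ s, G.z0 ≤ s + G.N → G.Wl u s → G.Wl w (s - c k' + c k) := by
    intro s hs hws
    have h3 := (htr (s - c k') (by omega)).1 (by rwa [show c k' + (s - c k') = s by omega])
    rwa [show s - c k' + c k = c k + (s - c k') by omega]
  have htr3 : ∀ t, G.z0 ≤ t + G.p0 → G.Wl w t → G.Wl u (t - c k + c k') := by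
    intro t ht hwt
    have h3 := (htr (t - c k) (by omega)).2 (by rwa [show c k + (t - c k) = t by omega])
    rwa [show t - c k + c k' = c k' + (t - c k) by omega]
  -- the first block of u
  obtain ⟨i, hi, hA, hm⟩ : ∃ i, (i = t0 ∨ i = t1) ∧ G.Adm u (i - c k + c k') ∧
      ∀ s < i - c k + c k', ¬ G.Adm u s := by
    by_cases hA0 : G.Adm u (t0 - c k + c k')
    · refine ⟨t0, Or.inl rfl, hA0, ?_⟩
      intro s hs hAs
      have hlo := adm_lo hAs
      have h3 := htr2 s (by omega) hAs.1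
      have h4 := ht0min _ (by omega) h3
      omega
    · refine ⟨t1, Or.inr rfl, ⟨htr3 t1 (by omega) ht1b, (G.thr_hi _).trans (by omega)⟩, ?_⟩
      intro s hs hAs
      have hlo := adm_lo hAs
      have h3 := htr2 s (by omega) hAs.1
      have h4 := ht0min _ (by omega) h3
      rcases Nat.eq_or_lt_of_le h4 with h5 | h5
      · apply hA0
        rwa [show t0 - c k + c k' = s by omega]
      · have h6 := ht1min _ h5 h3
        omega
  have hzmem := take_mem hA hm
  have hile : i - c k + c k' ≤ u.length := hA.1.1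
  have hzlen : (u.take (i - c k + c k')).length = i - c k + c k' := by simp [hile]
  have hi0 : G.z0 ≤ i + G.p0 := by rcases hi with rfl | rfl <;> omega
  refine ⟨u.take (i - c k + c k'), hzmem, List.take_prefix _ _, ?_⟩
  rintro ⟨-, hE | hB⟩
  · apply hnot
    obtain ⟨s, hs1, hs2, hs3⟩ := hE
    have hsle : s ≤ i - c k + c k' := by have := hs1.1; omega
    rw [wl_take hsle hile] at hs1
    have hlo := G.thr_lo (s % G.Mp)
    have h3 := htr2 s (by omega) hs1
    rw [Finset.mem_union]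
    left
    simp only [SE, PE, Finset.mem_filter, Finset.mem_product, Finset.mem_range]
    refine ⟨⟨hk, hk'⟩, hne, s - c k' + c k, h3, by omega, ?_, ?_⟩
    · rw [show s - c k' + c k + c k' - c k = s by omega]; exact hs2
    · rw [show s - c k' + c k + c k' - c k = s by omega]; exact hs3
  · apply hnot
    rw [hzlen] at hB
    have hmem : (k, k') ∈ SB (i - G.p0) := by
      simp only [SB, Finset.mem_image, Finset.mem_filter, Finset.mem_product, Finset.mem_range]
      refine ⟨(k', k), ⟨⟨hk', hk⟩, hne.symm, ?_⟩, rfl⟩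
      rwa [show i - G.p0 + c k' - c k = i - c k + c k' - G.p0 by omega]
    rw [Finset.mem_union, Finset.mem_union]
    right
    rcases hi with rfl | rfl
    · exact Or.inl hmem
    · exact Or.inr hmem

end Geo

end Crest.Agent.R320.GeoU_511
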