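import Mathlib

/-!
Row 320, geometry of the natural block code of left-looking walls (helper131), all words.
-/

set_option autoImplicit false

namespace Crest.Agent.R320.Geo131

variable {A : Type}

/-- blocks: end = first wall at a place `≥ z`. -/
def XX (Wo : List A → Prop) (z : ℕ) : Set (List A) :=
  {X | z ≤ X.length ∧ Wo X ∧ ∀ t, z ≤ t → t < X.length → ¬ Wo (X.take t)}

/-- concrete bad blocks. -/
def BadC (Wo : List A → Prop) (z p0 N1 : ℕ) (Bad : ℕ → Prop) (X : List A) : Prop :=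
  (∃ t, z ≤ t + N1 ∧ t < z + N1 ∧ t ≤ X.length ∧ Wo (X.take t)) ∨ Bad (X.length - p0)

theorem take_loc {Wo : List A → Prop} {n : ℕ}
    (hloc : ∀ P Q : List A, n ≤ Q.length → (Wo (P ++ Q) ↔ Wo Q)) (u Q : List A) (s : ℕ)
    (hs : n ≤ s) (hsl : s ≤ Q.length) : Wo ((u ++ Q).take (u.length + s)) ↔ Wo (Q.take s) := by
  have e : (u ++ Q).take (u.length + s) = u ++ Q.take s := by
    rw [List.take_append, List.take_of_length_le (by omega)]
    congr 2
    omega
  rw [e]
  exact hloc _ _ (by rw [List.length_take]; omega)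

theorem shift_mem {Wo : List A → Prop} {n z : ℕ}
    (hloc : ∀ P Q : List A, n ≤ Q.length → (Wo (P ++ Q) ↔ Wo Q)) (B N : ℕ) (u u' Q : List A)
    (h1 : u.length ≤ B) (h2 : u'.length ≤ B) (h3 : u.length ≤ u'.length + N)
    (h4 : u'.length ≤ u.length + N) (hz : B + N + n ≤ z) (hX : u ++ Q ∈ XX Wo z)
    (hband : ∀ t, z ≤ t + N → t < z + N → t ≤ (u ++ Q).length → ¬ Wo ((u ++ Q).take t)) :
    u' ++ Q ∈ XX Wo z := by
  obtain ⟨a1, a2, a3⟩ := hX
  have hlen : z + N ≤ (u ++ Q).length := by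
    by_contra hcon
    push Not at hcon
    refine hband (u ++ Q).length (by omega) hcon le_rfl ?_
    rw [List.take_length]; exact a2
  rw [List.length_append] at hlen a1
  refine ⟨by rw [List.length_append]; omega, ?_, ?_⟩
  · rw [hloc _ _ (by omega)]
    exact (hloc u Q (by omega)).1 a2
  · intro t ht1 ht2 hw
    rw [List.length_append] at ht2
    have e : t = u'.length + (t - u'.length) := by omega
    rw [e, take_loc hloc u' Q _ (by omega) (by omega)] at hw
    have hw2 := (take_loc hloc u Q (t - u'.length) (by omega) (by omega)).2 hw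
    by_cases h : z ≤ u.length + (t - u'.length)
    · exact a3 _ h (by rw [List.length_append]; omega) hw2
    · exact hband _ (by omega) (by omega) (by rw [List.length_append]; omega) hw2

theorem pcode {Wo : List A → Prop} {z : ℕ} : ∀ X ∈ XX Wo z, ∀ Y ∈ XX Wo z, X <+: Y → X = Y := by
  intro X hX Y hY h
  obtain ⟨r, rfl⟩ := h
  rcases Nat.eq_zero_or_pos r.length with h0 | h0
  · rw [List.length_eq_zero_iff.1 h0]; simp
  · exfalso
    refine hY.2.2 X.length hX.1 (by rw [List.length_append]; omega) ?_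
    rw [List.take_left]
    exact hX.2.1

theorem exists_first {Wo : List A → Prop} {z : ℕ} (w : List A) (h1 : z ≤ w.length) (h2 : Wo w) :
    ∃ X ∈ XX Wo z, X <+: w := by
  classical
  have hex : ∃ t, z ≤ t ∧ t ≤ w.length ∧ Wo (w.take t) :=
    ⟨w.length, h1, le_rfl, by rw [List.take_length]; exact h2⟩
  obtain ⟨b1, b2, b3⟩ := Nat.find_spec hex
  have hl : (w.take (Nat.find hex)).length = Nat.find hex := by
    rw [List.length_take]; omega
  refine ⟨w.take (Nat.find hex), ⟨by rw [hl]; exact b1, b3, ?_⟩, List.take_prefix _ _⟩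
  intro t ht1 ht2 hw
  rw [hl] at ht2
  rw [List.take_take, min_eq_left ht2.le] at hw
  exact Nat.find_min hex ht2 ⟨ht1, by omega, hw⟩

/-- the spoil count. -/
theorem count {Wo : List A → Prop} {n z W : ℕ}
    (hloc : ∀ P Q : List A, n ≤ Q.length → (Wo (P ++ Q) ↔ Wo Q))
    (hgap : ∀ (w : List A) (s t : ℕ), s < t → t ≤ w.length → Wo (w.take s) → Wo (w.take t) →
      s + W ≤ t)
    (K C0 N1 La p0 : ℕ) (c : ℕ → ℕ) (Bad : ℕ → Prop) (hcp : ∀ k < K, c k ≤ p0)
    (hgol : ∀ i < K, ∀ j < K, ∀ k < K, ∀ l < K, i ≠ j → k ≠ l →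
      c i + c l ≤ c k + c j + 2 * N1 → c k + c j ≤ c i + c l + 2 * N1 → i = k ∧ j = l)
    (hcount : ∀ T, La ≤ T → ∀ I : Finset (ℕ × ℕ),
      (∀ p ∈ I, p.1 < K ∧ p.2 < K ∧ p.1 ≠ p.2 ∧ Bad (T + c p.2 - c p.1)) → I.card ≤ C0)
    (hW : 2 * (N1 + p0) < W) (hz : 3 * p0 + N1 + n + La ≤ z) (Z : List A) (hZ : p0 ≤ Z.length)
    (I : Finset ℕ) (hI : ∀ k ∈ I, k < K) (hR : 2 + 2 * C0 ≤ I.card) :
    ∃ k ∈ I, ∀ k' < K, (∃ u X : List A, u.length = c k' ∧ X ∈ XX Wo z ∧
      X <+: u ++ Z.drop (c k) ∧ BadC Wo z p0 N1 Bad X) → k' = k := by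
  classical
  by_contra hcon
  push Not at hcon
  -- walls of Z
  let WZ : ℕ → Prop := fun t => t ≤ Z.length ∧ Wo (Z.take t)
  have hWZ : ∀ s t, s < t → WZ s → WZ t → s + W ≤ t := fun s t h hs ht =>
    hgap Z s t h ht.1 hs.2 ht.2
  have hfacts : ∀ k ∈ I, ∃ k' t, k' < K ∧ k' ≠ k ∧ z ≤ t ∧ WZ (t + c k - c k') ∧
      (∀ s, z ≤ s → s < t → ¬ WZ (s + c k - c k')) ∧
      ((∃ t0, z ≤ t0 + N1 ∧ t0 < z + N1 ∧ WZ (t0 + c k - c k')) ∨ Bad (t - p0)) := by
    intro k hk
    obtain ⟨k', hk', ⟨u, X, hu, hX, hXp, hB⟩, hne⟩ := hcon k hk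
    have hkp := hcp k (hI k hk)
    have hkp' := hcp k' hk'
    obtain ⟨a1, a2, a3⟩ := hX
    have hXl : X.length ≤ c k' + (Z.length - c k) := by
      have := hXp.length_le
      rw [List.length_append, List.length_drop, hu] at this
      exact this
    have htr : ∀ s, c k' + n ≤ s → s ≤ X.length → (Wo (X.take s) ↔ WZ (s + c k - c k')) := by
      intro s hs1 hs2
      have e1 : X.take s = (u ++ Z.drop (c k)).take s := by
        obtain ⟨r, hr⟩ := hXp
        rw [← hr, List.take_append_of_le_length hs2]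
      have e2 : s = u.length + (s - c k') := by omega
      have e3 : Z.take (s + c k - c k') = Z.take (c k) ++ (Z.drop (c k)).take (s - c k') := by
        have h0 : s + c k - c k' = c k + (s - c k') := by omega
        rw [h0, List.take_add]
      rw [e1, e2, take_loc hloc u _ _ (by omega) (by rw [List.length_drop]; omega), ← e2]
      show _ ↔ (_ ∧ _)
      rw [e3, hloc _ _ (by rw [List.length_take, List.length_drop]; omega)]
      constructor
      · intro h; exact ⟨by omega, h⟩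
      · intro h; exact h.2
    refine ⟨k', X.length, hk', hne, a1, ?_, ?_, ?_⟩
    · rw [← htr X.length (by omega) le_rfl, List.take_length]; exact a2
    · intro s hs1 hs2 hw
      exact a3 s hs1 hs2 ((htr s (by omega) hs2.le).2 hw)
    · rcases hB with ⟨t0, b1, b2, b3, b4⟩ | hB
      · exact Or.inl ⟨t0, b1, b2, (htr t0 (by omega) b3).1 b4⟩
      · exact Or.inr hB
  choose! g t hg using hfacts
  -- the three classes
  let IE : Finset ℕ := I.filter fun k => ∃ t0, z ≤ t0 + N1 ∧ t0 < z + N1 ∧ WZ (t0 + c k - c (g k))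
  let IL : Finset ℕ := I.filter fun k => Bad (t k - p0) ∧ t k + c k - c (g k) < z + p0
  let IH : Finset ℕ := I.filter fun k => Bad (t k - p0) ∧ z + p0 ≤ t k + c k - c (g k)
  have hsub : I ⊆ IE ∪ (IL ∪ IH) := by
    intro k hk
    rw [Finset.mem_union, Finset.mem_union]
    rcases (hg k hk).2.2.2.2.2 with h | h
    · exact Or.inl (Finset.mem_filter.2 ⟨hk, h⟩)
    · by_cases h' : t k + c k - c (g k) < z + p0
      · exact Or.inr (Or.inl (Finset.mem_filter.2 ⟨hk, h, h'⟩))
      · exact Or.inr (Or.inr (Finset.mem_filter.2 ⟨hk, h, by omega⟩))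
  have hE : IE.card ≤ 1 := by
    rw [Finset.card_le_one]
    intro k hk l hl
    obtain ⟨hkI, t0, p1, p2, p3⟩ := Finset.mem_filter.1 hk
    obtain ⟨hlI, t1, q1, q2, q3⟩ := Finset.mem_filter.1 hl
    obtain ⟨k1, k2, -⟩ := hg k hkI
    obtain ⟨l1, l2, -⟩ := hg l hlI
    have m1 := hcp k (hI k hkI)
    have m2 := hcp l (hI l hlI)
    have m3 := hcp _ k1
    have m4 := hcp _ l1
    have heq : t0 + c k - c (g k) = t1 + c l - c (g l) := by
      rcases lt_trichotomy (t0 + c k - c (g k)) (t1 + c l - c (g l)) with h | h | h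
      · have := hWZ _ _ h p3 q3
        omega
      · exact h
      · have := hWZ _ _ h q3 p3
        omega
    exact (hgol k (hI k hkI) (g k) k1 l (hI l hlI) (g l) l1 (Ne.symm k2) (Ne.symm l2)
      (by omega) (by omega)).1
  have hclass : ∀ J : Finset ℕ, J ⊆ I → (∀ k ∈ J, Bad (t k - p0)) →
      (∀ k ∈ J, ∀ l ∈ J, t k + c k - c (g k) = t l + c l - c (g l)) → J.card ≤ C0 := by
    intro J hJ hJB hJE
    rcases J.eq_empty_or_nonempty with h | ⟨k0, hk0⟩
    · rw [h]; simp
    · obtain ⟨r1, r2, r3, -⟩ := hg k0 (hJ hk0)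
      have m1 := hcp k0 (hI k0 (hJ hk0))
      have m3 := hcp _ r1
      have := hcount (t k0 + c k0 - c (g k0) - p0) (by omega) (J.image fun k => (k, g k)) (by
        intro p hp
        obtain ⟨k, hk, rfl⟩ := Finset.mem_image.1 hp
        obtain ⟨s1, s2, s3, -⟩ := hg k (hJ hk)
        have n1 := hcp k (hI k (hJ hk))
        have n3 := hcp _ s1
        refine ⟨hI k (hJ hk), s1, Ne.symm s2, ?_⟩
        have e := hJE k0 hk0 k hk
        have e2 : t k0 + c k0 - c (g k0) - p0 + c (g k) - c k = t k - p0 := by omega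
        show Bad (t k0 + c k0 - c (g k0) - p0 + c (g k) - c k)
        rw [e2]
        exact hJB k hk)
      rw [Finset.card_image_of_injective _ (fun a b h => by simpa using (congrArg Prod.fst h))] at this
      exact this
  have hL : IL.card ≤ C0 := by
    refine hclass IL (Finset.filter_subset _ _) (fun k hk => (Finset.mem_filter.1 hk).2.1) ?_
    intro k hk l hl
    obtain ⟨hkI, -, p2⟩ := Finset.mem_filter.1 hk
    obtain ⟨hlI, -, q2⟩ := Finset.mem_filter.1 hl
    obtain ⟨k1, k2, k3, k4, -⟩ := hg k hkI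
    obtain ⟨l1, l2, l3, l4, -⟩ := hg l hlI
    have m1 := hcp k (hI k hkI)
    have m2 := hcp l (hI l hlI)
    have m3 := hcp _ k1
    have m4 := hcp _ l1
    rcases lt_trichotomy (t k + c k - c (g k)) (t l + c l - c (g l)) with h | h | h
    · have := hWZ _ _ h k4 l4
      omega
    · exact h
    · have := hWZ _ _ h l4 k4
      omega
  have hH : IH.card ≤ C0 := by
    refine hclass IH (Finset.filter_subset _ _) (fun k hk => (Finset.mem_filter.1 hk).2.1) ?_
    have aux : ∀ k ∈ IH, ∀ l ∈ IH, ¬ (t k + c k - c (g k) < t l + c l - c (g l)) := by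
      intro k hk l hl h
      obtain ⟨hkI, -, p2⟩ := Finset.mem_filter.1 hk
      obtain ⟨hlI, -, q2⟩ := Finset.mem_filter.1 hl
      obtain ⟨k1, k2, k3, k4, -⟩ := hg k hkI
      obtain ⟨l1, l2, l3, l4, l5, -⟩ := hg l hlI
      have m1 := hcp k (hI k hkI)
      have m2 := hcp l (hI l hlI)
      have m3 := hcp _ k1
      have m4 := hcp _ l1
      refine l5 (t k + c k - c (g k) + c (g l) - c l) (by omega) (by omega) ?_
      have e : t k + c k - c (g k) + c (g l) - c l + c l - c (g l) = t k + c k - c (g k) := by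
        omega
      rw [e]
      exact k4
    intro k hk l hl
    have := aux k hk l hl
    have := aux l hl k hk
    omega
  have := Finset.card_le_card hsub
  have h2 := Finset.card_union_le IE (IL ∪ IH)
  have h3 := Finset.card_union_le IL IH
  omega

end Crest.Agent.R320.Geo131
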