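import Crest.Agent.R320.Hgt1_903

/-!
Cut automata (lead #12748): the nested star theorem.

`run δ θ w = w.foldl δ θ`.  `C θ w` : the word `w` may be read from the state `θ` (a class closed under
prefixes and suffixes; promise).  `CutL θ` : the state is left-legal.  `ρ r` for `|r| = D` : the state
after `r`, read from `r` alone (right-legal words).  SOUND: after a left-legal state the right reading
is true.  `Uncut θ w` : no place of `w` read from `θ` is a cut.
THEOREM `nested`: uncut words are computed at height `n` ⟹ all words of the class at height `n + 1`.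
-/

set_option autoImplicit false

namespace Crest.Agent.R320.Star_903

open Crest.RegLang Crest.Agent.R320.Hgt1_903

variable {α Θ : Type*}

/-- the run of a deterministic automaton. -/
def run (δ : Θ → α → Θ) (θ : Θ) (w : List α) : Θ := w.foldl δ θ

@[simp] theorem run_nil (δ : Θ → α → Θ) (θ : Θ) : run δ θ [] = θ := rfl

theorem run_append (δ : Θ → α → Θ) (θ : Θ) (u v : List α) :
    run δ θ (u ++ v) = run δ (run δ θ u) v := by
  unfold run; rw [List.foldl_append]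

/-- a cut at the place `p | r s`. -/
def CutAt (δ : Θ → α → Θ) (CutL : Θ → Prop) (D : ℕ) (ρ : List α → Option Θ) (θ : Θ)
    (p r : List α) : Prop :=
  r.length = D ∧ CutL (run δ θ p) ∧ (ρ r).isSome

/-- no cut inside `w`. -/
def Uncut (δ : Θ → α → Θ) (CutL : Θ → Prop) (D : ℕ) (ρ : List α → Option Θ) (θ : Θ)
    (w : List α) : Prop :=
  ∀ p r s, p ++ r ++ s = w → ¬ CutAt δ CutL D ρ θ p r

theorem Uncut.prefix {δ : Θ → α → Θ} {CutL : Θ → Prop} {D : ℕ} {ρ : List α → Option Θ} {θ : Θ}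
    {u v : List α} (h : Uncut δ CutL D ρ θ (u ++ v)) : Uncut δ CutL D ρ θ u :=
  fun p r s e => h p r (s ++ v) (by rw [← e]; simp [List.append_assoc])

/-- the first cut. -/
theorem exists_first {δ : Θ → α → Θ} {CutL : Θ → Prop} {D : ℕ} (hD : 0 < D)
    {ρ : List α → Option Θ} {θ : Θ} {w : List α} (h : ¬ Uncut δ CutL D ρ θ w) :
    ∃ p r s, p ++ r ++ s = w ∧ CutAt δ CutL D ρ θ p r ∧ Uncut δ CutL D ρ θ p := by
  classical
  have hex : ∃ k, ∃ p r s, p ++ r ++ s = w ∧ CutAt δ CutL D ρ θ p r ∧ p.length = k := by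
    unfold Uncut at h
    push Not at h
    obtain ⟨p, r, s, e, hc⟩ := h
    exact ⟨p.length, p, r, s, e, hc, rfl⟩
  obtain ⟨p, r, s, e, hc, hk⟩ := Nat.find_spec hex
  refine ⟨p, r, s, e, hc, fun p' r' s' e' hc' => ?_⟩
  have hl : p'.length + r'.length + s'.length = p.length := by
    rw [← e']; simp; omega
  have hr : r'.length = D := hc'.1
  have hlt : p'.length < Nat.find hex := by rw [← hk]; omega
  exact Nat.find_min hex hlt ⟨p', r', s' ++ (r ++ s), by
    rw [← e, ← e']; simp [List.append_assoc], hc', rfl⟩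

/-- `RC n C θ`: all end states are computed at height `n` on the words of the class `C` from `θ`. -/
def RC (n : ℕ) (δ : Θ → α → Θ) (C : Θ → List α → Prop) : Prop :=
  ∃ R : Θ → Θ → Language α, (∀ θ θ', H n (R θ θ')) ∧
    ∀ θ w, C θ w → ∀ θ', (w ∈ R θ θ' ↔ run δ θ w = θ')

theorem RC.mono {m n : ℕ} (h : m ≤ n) {δ : Θ → α → Θ} {C : Θ → List α → Prop} (hC : RC m δ C) :
    RC n δ C := by
  obtain ⟨R, hR, hs⟩ := hC
  exact ⟨R, fun θ θ' => (hR θ θ').mono h, hs⟩

theorem RC.weaken {n : ℕ} {δ : Θ → α → Θ} {C C' : Θ → List α → Prop} (hC : RC n δ C)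
    (h : ∀ θ w, C' θ w → C θ w) : RC n δ C' := by
  obtain ⟨R, hR, hs⟩ := hC
  exact ⟨R, hR, fun θ w hw => hs θ w (h θ w hw)⟩

/-- bounded words are computed at height `0`. -/
theorem RC.bounded [Finite α] (n M : ℕ) {δ : Θ → α → Θ} {C : Θ → List α → Prop}
    (hC : ∀ θ w, C θ w → w.length ≤ M) : RC n δ C := by
  refine ⟨fun θ θ' => {w | w.length ≤ M ∧ run δ θ w = θ'},
    fun θ θ' => H.bounded n M fun w hw => hw.1, fun θ w hw θ' => ?_⟩
  exact ⟨fun h => h.2, fun h => ⟨hC θ w hw, h⟩⟩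

/-- **NESTED STAR THEOREM.** -/
theorem nested [Finite α] [Finite Θ] {n : ℕ} (δ : Θ → α → Θ) (C : Θ → List α → Prop)
    (hpre : ∀ θ u v, C θ (u ++ v) → C θ u)
    (hsuf : ∀ θ u v, C θ (u ++ v) → C (run δ θ u) v)
    (CutL : Θ → Prop) (D : ℕ) (hD : 0 < D) (ρ : List α → Option Θ)
    (sound : ∀ θ r θ', C θ r → CutL θ → r.length = D → ρ r = some θ' → run δ θ r = θ')
    (hunc : RC n δ (fun θ w => C θ w ∧ Uncut δ CutL D ρ θ w)) :
    RC (n + 1) δ C := by
  classical
  obtain ⟨R, hR, hs⟩ := hunc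
  -- right readings
  let V : Θ → Language α := fun θ' => {r | r.length = D ∧ ρ r = some θ'}
  have hV : ∀ θ', H n (V θ') := fun θ' => H.bounded n D fun w hw => hw.1.le
  -- claimed left-legal words
  let A : Θ → Language α := fun θ => {w | ∃ θ', w ∈ ({w | CutL θ' ∧ w ∈ R θ θ'} : Language α)}
  have hA : ∀ θ, H n (A θ) := fun θ => H.exists_fintype _ fun θ' => H.inter (H.const n _) (hR θ θ')
  let Vs : Language α := {r | ∃ θ', r ∈ V θ'}
  have hVs : H n Vs := H.exists_fintype _ hV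
  -- uncut words, exactly on the class
  let N : Θ → Language α := fun θ => {w | ¬ w ∈ ({w | ∃ u v, u ++ v = w ∧
    u ∈ ({w | ∃ u v, u ++ v = w ∧ u ∈ A θ ∧ v ∈ Vs} : Language α) ∧ v ∈ (⊤ : Language α)} :
    Language α)}
  have hN : ∀ θ, H n (N θ) := fun θ => H.not (H.cat (H.cat (hA θ) hVs) (H.univ n))
  have hAiff : ∀ θ p, C θ p → Uncut δ CutL D ρ θ p → (p ∈ A θ ↔ CutL (run δ θ p)) := by
    intro θ p hc hu
    constructor
    · rintro ⟨θ', h1, h2⟩
      rw [(hs θ p ⟨hc, hu⟩ θ').1 h2]; exact h1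
    · intro h; exact ⟨_, h, (hs θ p ⟨hc, hu⟩ _).2 rfl⟩
  have hNiff : ∀ θ w, C θ w → (w ∈ N θ ↔ Uncut δ CutL D ρ θ w) := by
    intro θ w hc
    constructor
    · intro h
      by_contra hu
      obtain ⟨p, r, s, rfl, ⟨hr, hL, hρ⟩, hup⟩ := exists_first hD hu
      obtain ⟨θ', hθ'⟩ := Option.isSome_iff_exists.1 hρ
      have hcp : C θ p := hpre θ p (r ++ s) (by rwa [← List.append_assoc])
      exact h ⟨p ++ r, s, rfl, ⟨p, r, rfl, (hAiff θ p hcp hup).2 hL, θ', hr, hθ'⟩, trivial⟩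
    · rintro hu ⟨_, s, rfl, ⟨p, r, rfl, hp, θ', hr, hθ'⟩, -⟩
      have hcp : C θ p := hpre θ p (r ++ s) (by rwa [← List.append_assoc])
      have hup : Uncut δ CutL D ρ θ p := by
        rw [List.append_assoc] at hu; exact hu.prefix
      exact hu p r s rfl ⟨hr, (hAiff θ p hcp hup).1 hp, by rw [hθ']; rfl⟩
  -- the pieces
  let P : Θ → Language α := fun θ => {w | w ∈ N θ ∧ w ∈ A θ}
  have hP : ∀ θ, H n (P θ) := fun θ => H.inter (hN θ) (hA θ)
  let U : Θ → Θ → Language α := fun θ θ' => {w | w ∈ N θ ∧ w ∈ R θ θ'}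
  have hU : ∀ θ θ', H n (U θ θ') := fun θ θ' => H.inter (hN θ) (hR θ θ')
  let K : Language α := {w | ∃ θ', w ∈ ({w | ∃ u v, u ++ v = w ∧ u ∈ V θ' ∧ v ∈ P θ'} : Language α)}
  have hK : H n K := H.exists_fintype _ fun θ' => H.cat (hV θ') (hP θ')
  let S : Θ → Language α := fun θ'' =>
    {w | ∃ θ', w ∈ ({w | ∃ u v, u ++ v = w ∧ u ∈ V θ' ∧ v ∈ U θ' θ''} : Language α)}
  have hS : ∀ θ'', H n (S θ'') := fun θ'' =>
    H.exists_fintype _ fun θ' => H.cat (hV θ') (hU θ' θ'')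
  have hPiff : ∀ θ p, C θ p → (p ∈ P θ ↔ Uncut δ CutL D ρ θ p ∧ CutL (run δ θ p)) := by
    intro θ p hc
    constructor
    · rintro ⟨h1, h2⟩
      have hu := (hNiff θ p hc).1 h1
      exact ⟨hu, (hAiff θ p hc hu).1 h2⟩
    · rintro ⟨h1, h2⟩
      exact ⟨(hNiff θ p hc).2 h1, (hAiff θ p hc h1).2 h2⟩
  have hUiff : ∀ θ p θ', C θ p → (p ∈ U θ θ' ↔ Uncut δ CutL D ρ θ p ∧ run δ θ p = θ') := by
    intro θ p θ' hc
    constructor
    · rintro ⟨h1, h2⟩
      have hu := (hNiff θ p hc).1 h1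
      exact ⟨hu, (hs θ p ⟨hc, hu⟩ θ').1 h2⟩
    · rintro ⟨h1, h2⟩
      exact ⟨(hNiff θ p hc).2 h1, (hs θ p ⟨hc, h1⟩ θ').2 h2⟩
  refine ⟨fun θ θ'' => {w | w ∈ U θ θ'' ∨ w ∈ ({w | ∃ u v, u ++ v = w ∧ u ∈ P θ ∧
    v ∈ ({w | ∃ u v, u ++ v = w ∧ u ∈ KStar.kstar K ∧ v ∈ S θ''} : Language α)} : Language α)},
    fun θ θ'' => H.union ((hU θ θ'').mono (Nat.le_succ n))
      (H.cat ((hP θ).mono (Nat.le_succ n)) (H.cat hK.star ((hS θ'').mono (Nat.le_succ n)))), ?_⟩
  -- soundness of the star part, from a left-legal state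
  have hsound : ∀ (L : List (List α)), (∀ y ∈ L, y ∈ K) → ∀ s θ'', s ∈ S θ'' →
      ∀ θ, CutL θ → C θ (L.flatten ++ s) → run δ θ (L.flatten ++ s) = θ'' := by
    intro L
    induction L with
    | nil =>
      rintro - s θ'' ⟨θ', r, m, rfl, ⟨hr, hθ'⟩, hm⟩ θ hL hc
      rw [List.flatten_nil, List.nil_append] at hc ⊢
      have h1 : run δ θ r = θ' := sound θ r θ' (hpre θ r m hc) hL hr hθ'
      have h2 : C θ' m := by have := hsuf θ r m hc; rwa [h1] at this
      rw [run_append, h1]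
      exact ((hUiff θ' m θ'' h2).1 hm).2
    | cons k L ih =>
      intro hLK s θ'' hsS θ hL hc
      obtain ⟨θ', r, m, hk, ⟨hr, hθ'⟩, hm⟩ := hLK k List.mem_cons_self
      have hk' : r ++ m = k := hk
      subst hk'
      have e : ((r ++ m) :: L).flatten ++ s = r ++ (m ++ (L.flatten ++ s)) := by
        simp [List.append_assoc]
      rw [e] at hc ⊢
      have h1 : run δ θ r = θ' := sound θ r θ' (hpre θ r _ hc) hL hr hθ'
      have h2 : C θ' (m ++ (L.flatten ++ s)) := by have := hsuf θ r _ hc; rwa [h1] at this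
      have h3 := (hPiff θ' m (hpre θ' m _ h2)).1 hm
      have h4 : C (run δ θ' m) (L.flatten ++ s) := hsuf θ' m _ h2
      rw [run_append, h1, run_append]
      exact ih (fun y hy => hLK y (List.mem_cons_of_mem _ hy)) s θ'' hsS _ h3.2 h4
  -- completeness
  have hcomp : ∀ (l : ℕ) (w : List α), w.length = l → ∀ θ, C θ w →
      w ∈ U θ (run δ θ w) ∨ ∃ p k s, p ++ (k ++ s) = w ∧ p ∈ P θ ∧ k ∈ KStar.kstar K ∧
        s ∈ S (run δ θ w) := by
    intro l
    induction l using Nat.strong_induction_on with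
    | _ l ih =>
      intro w hl θ hc
      by_cases hu : Uncut δ CutL D ρ θ w
      · exact Or.inl ((hUiff θ w _ hc).2 ⟨hu, rfl⟩)
      · right
        obtain ⟨p, r, t, rfl, ⟨hr, hL, hρ⟩, hup⟩ := exists_first hD hu
        obtain ⟨θ', hθ'⟩ := Option.isSome_iff_exists.1 hρ
        rw [List.append_assoc] at hc
        have hcp : C θ p := hpre θ p _ hc
        have hc1 : C (run δ θ p) (r ++ t) := hsuf θ p _ hc
        have h1 : run δ (run δ θ p) r = θ' := sound _ r θ' (hpre _ r t hc1) hL hr hθ'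
        have h2 : C θ' t := by have := hsuf _ r t hc1; rwa [h1] at this
        have hrun : run δ θ (p ++ r ++ t) = run δ θ' t := by
          rw [run_append, run_append, h1]
        have hlt : t.length < l := by
          rw [← hl]; simp; omega
        rw [hrun]
        have hpP : p ∈ P θ := (hPiff θ p hcp).2 ⟨hup, hL⟩
        rcases ih t.length hlt t rfl θ' h2 with h | ⟨m, k, s, rfl, hm, hk, hs'⟩
        · exact ⟨p, [], r ++ t, by simp [List.append_assoc], hpP, Language.nil_mem_kstar K,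
            θ', r, t, rfl, ⟨hr, hθ'⟩, h⟩
        · refine ⟨p, (r ++ m) ++ k, s, by simp [List.append_assoc], hpP, ?_, hs'⟩
          obtain ⟨L, rfl, hLK⟩ := Language.mem_kstar.1 hk
          refine Language.mem_kstar.2 ⟨(r ++ m) :: L, by rw [List.flatten_cons], ?_⟩
          intro y hy
          rcases List.mem_cons.1 hy with rfl | hy
          · exact ⟨θ', r, m, rfl, ⟨hr, hθ'⟩, hm⟩
          · exact hLK y hy
  intro θ w hc θ''
  change (w ∈ U θ θ'' ∨ ∃ u v, u ++ v = w ∧ u ∈ P θ ∧ ∃ k s, k ++ s = v ∧ k ∈ KStar.kstar K ∧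
    s ∈ S θ'') ↔ run δ θ w = θ''
  constructor
  · rintro (h | ⟨p, _, rfl, hp, k, s, rfl, hk, hs'⟩)
    · exact ((hUiff θ w θ'' hc).1 h).2
    · obtain ⟨L, rfl, hLK⟩ := Language.mem_kstar.1 hk
      have hp' := (hPiff θ p (hpre θ p _ hc)).1 hp
      rw [run_append]
      exact hsound L hLK s θ'' hs' _ hp'.2 (hsuf θ p _ hc)
  · rintro rfl
    rcases hcomp w.length w rfl θ hc with h | ⟨p, k, s, rfl, hp, hk, hs'⟩
    · exact Or.inl h
    · exact Or.inr ⟨p, k ++ s, rfl, hp, k, s, rfl, hk, hs'⟩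

end Crest.Agent.R320.Star_903
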