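import Mathlib
import Crest.Agent.R320.Star_903

/-! Row 320, helper199: block machine and the two level theorem (HALF 1). -/

set_option autoImplicit false
set_option linter.unusedSectionVars false

namespace Crest.Agent.R320.Mach_199

open Crest.RegLang Crest.Agent.R320.Hgt1_903 Crest.Agent.R320.Star_903

universe u

variable {α : Type u} {V V' : Type}

/-- states: text since the last anchor, token at the last anchor. -/
abbrev St (α : Type u) (Bm : ℕ) (V : Type) := {P : List α // P.length ≤ Bm} × V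

open Classical in
/-- the block machine. -/
noncomputable def dl (E : List α → Prop) (Bm : ℕ) (T : List α → V → V) (θ : St α Bm V) (x : α) :
    St α Bm V :=
  if E (θ.1.1 ++ [x]) then (⟨[], Nat.zero_le _⟩, T (θ.1.1 ++ [x]) θ.2)
  else if h : (θ.1.1 ++ [x]).length ≤ Bm then (⟨θ.1.1 ++ [x], h⟩, θ.2) else θ

/-- hypotheses on blocks -/
structure Hyp (E : List α → Prop) (Bm : ℕ) (G : List α → Prop) : Prop where
  gl : ∀ u v, G (u ++ v) → G u
  gr : ∀ u v, G (u ++ v) → G v
  e0 : ¬ E []
  bd : ∀ Q, G Q → (∀ t, ¬ E (Q.take t)) → Q.length ≤ Bm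

/-- the class. -/
def Cl (E : List α → Prop) (G : List α → Prop) (P w : List α) : Prop :=
  G (P ++ w) ∧ ∀ t, ¬ E (P.take t)

variable {E : List α → Prop} {Bm : ℕ} {G : List α → Prop}

theorem take_snoc_no {P : List α} {x : α} (h : ∀ t, ¬ E (P.take t)) (hx : ¬ E (P ++ [x])) :
    ∀ t, ¬ E ((P ++ [x]).take t) := by
  intro t
  rcases Nat.lt_or_ge P.length t with h1 | h1
  · rw [List.take_of_length_le (by simp; omega)]; exact hx
  · rw [List.take_append_of_le_length h1]; exact h t

theorem dl_yes (T : List α → V → V) {θ : St α Bm V} {x : α} (h : E (θ.1.1 ++ [x])) :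
    dl E Bm T θ x = (⟨[], Nat.zero_le _⟩, T (θ.1.1 ++ [x]) θ.2) := by
  unfold dl; rw [if_pos h]

theorem dl_no (T : List α → V → V) {θ : St α Bm V} {x : α} (h : ¬ E (θ.1.1 ++ [x]))
    (hl : (θ.1.1 ++ [x]).length ≤ Bm) : dl E Bm T θ x = (⟨θ.1.1 ++ [x], hl⟩, θ.2) := by
  unfold dl; rw [if_neg h, dif_pos hl]

theorem Cl.pre {P u v : List α} (hH : Hyp E Bm G) (h : Cl E G P (u ++ v)) : Cl E G P u :=
  ⟨hH.gl (P ++ u) v (by rw [List.append_assoc]; exact h.1), h.2⟩

theorem Cl.len {P : List α} {x : α} {w : List α} (hH : Hyp E Bm G) (h : Cl E G P (x :: w))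
    (hx : ¬ E (P ++ [x])) : (P ++ [x]).length ≤ Bm := by
  refine hH.bd _ (hH.gl (P ++ [x]) w (by rw [List.append_assoc]; exact h.1)) ?_
  exact take_snoc_no h.2 hx

theorem Cl.step {θ : St α Bm V} {x : α} {w : List α} (hH : Hyp E Bm G) (T : List α → V → V)
    (h : Cl E G θ.1.1 (x :: w)) : Cl E G (dl E Bm T θ x).1.1 w := by
  by_cases hx : E (θ.1.1 ++ [x])
  · rw [dl_yes T hx]
    refine ⟨?_, ?_⟩
    · have : G ((θ.1.1 ++ [x]) ++ w) := by rw [List.append_assoc]; exact h.1
      exact hH.gr _ _ this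
    · intro t; simpa using hH.e0
  · rw [dl_no T hx (h.len hH hx)]
    refine ⟨?_, take_snoc_no h.2 hx⟩
    show G ((θ.1.1 ++ [x]) ++ w)
    rw [List.append_assoc]; exact h.1

theorem Cl.run {w' : List α} (hH : Hyp E Bm G) (T : List α → V → V) :
    ∀ (w : List α) (θ : St α Bm V), Cl E G θ.1.1 (w ++ w') →
      Cl E G (run (dl E Bm T) θ w).1.1 w' := by
  intro w
  induction w with
  | nil => intro θ h; exact h
  | cons x w ih =>
    intro θ h
    exact ih _ (Cl.step hH T h)

/-- no block end: the text is appended. -/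
theorem run_no (hH : Hyp E Bm G) (T : List α → V → V) :
    ∀ (w : List α) (θ : St α Bm V), Cl E G θ.1.1 w → (∀ t, t ≤ w.length → ¬ E (θ.1.1 ++ w.take t)) →
      ∃ h : (θ.1.1 ++ w).length ≤ Bm, run (dl E Bm T) θ w = (⟨θ.1.1 ++ w, h⟩, θ.2) := by
  intro w
  induction w with
  | nil =>
    intro θ h h2
    refine ⟨by simpa using θ.1.2, ?_⟩
    simp
  | cons x w ih =>
    intro θ h h2
    have hx : ¬ E (θ.1.1 ++ [x]) := by have := h2 1 (by simp); simpa using this
    have hl := h.len hH hx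
    have hs := Cl.step hH T h
    have hd := dl_no T hx hl
    have h3 : ∀ t, t ≤ w.length → ¬ E ((dl E Bm T θ x).1.1 ++ w.take t) := by
      intro t ht
      rw [hd]
      have := h2 (t + 1) (by simp; omega)
      simpa using this
    obtain ⟨h4, h5⟩ := ih _ hs h3
    have e1 : (dl E Bm T θ x).1.1 ++ w = θ.1.1 ++ x :: w := by rw [hd]; simp
    refine ⟨by rw [← e1]; exact h4, ?_⟩
    have : run (dl E Bm T) θ (x :: w) = run (dl E Bm T) (dl E Bm T θ x) w := rfl
    rw [this, h5]
    ext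
    · simp [e1]
    · simp [hd]

/-- first block end. -/
theorem run_yes (hH : Hyp E Bm G) (T : List α → V → V) {w : List α} {θ : St α Bm V}
    (h : Cl E G θ.1.1 w) {b : ℕ} (hb : 0 < b) (hbl : b ≤ w.length)
    (he : E (θ.1.1 ++ w.take b)) (hn : ∀ t, t < b → ¬ E (θ.1.1 ++ w.take t)) :
    run (dl E Bm T) θ w =
      run (dl E Bm T) (⟨[], Nat.zero_le _⟩, T (θ.1.1 ++ w.take b) θ.2) (w.drop b) := by
  obtain ⟨c, rfl⟩ : ∃ c, b = c + 1 := ⟨b - 1, by omega⟩
  have hw : w = w.take c ++ (w[c]'(by omega) :: w.drop (c + 1)) := by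
    rw [← List.drop_eq_getElem_cons, List.take_append_drop]
  have h1 : Cl E G θ.1.1 (w.take c) := by
    rw [hw] at h; exact h.pre hH
  obtain ⟨h2, h3⟩ := run_no hH T (w.take c) θ h1 (by
    intro t ht
    rw [List.take_take]
    exact hn _ (by simp at ht; omega))
  have e1 : w.take (c + 1) = w.take c ++ [w[c]'(by omega)] := by
    rw [List.take_succ_eq_append_getElem]
  conv_lhs => rw [hw]
  rw [run_append, h3]
  have he' : E ((θ.1.1 ++ w.take c) ++ [w[c]'(by omega)]) := by
    rw [List.append_assoc, ← e1]; exact he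
  have : ∀ (θ' : St α Bm V) (x : α) (l : List α),
    run (dl E Bm T) θ' (x :: l) = run (dl E Bm T) (dl E Bm T θ' x) l := fun _ _ _ => rfl
  rw [this, dl_yes T he']
  simp only [e1, List.append_assoc]

/-- the text part does not depend on tokens. -/
theorem run_fst (T : List α → V → V) (T' : List α → V' → V') :
    ∀ (w : List α) (θ : St α Bm V) (θ' : St α Bm V'), θ.1 = θ'.1 →
      (run (dl E Bm T) θ w).1 = (run (dl E Bm T') θ' w).1 := by
  intro w
  induction w with
  | nil => intro θ θ' h; exact h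
  | cons x w ih =>
    intro θ θ' h
    refine ih _ _ ?_
    unfold dl
    rw [h]
    split_ifs <;> first | rfl | exact h

end Crest.Agent.R320.Mach_199
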