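import Mathlib
import Crest.Agent.R320.Mach_199
import Crest.Agent.R320.Gad1_420
import Crest.Agent.R320.Ruler_302

/-! Row 320, helper199: geometry of the two wall schemes (HALF 1). -/

set_option autoImplicit false
set_option linter.unusedSectionVars false

namespace Crest.Agent.R320.Geo_199

open Crest.Agent.R320.Mach_199
open Crest.Agent.R320.Gad1_420 (Rule)

universe u

structure PP (α : Type u) where
  Ro : List α → Prop
  no : ℕ
  Rs : List α → Prop
  ns : ℕ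
  G : List α → Prop
  Go : ℕ
  Gs : ℕ
  Wo : ℕ
  Ws : ℕ
  th : ℤ → ℤ
  z : ℕ
  Sb : ℕ
  M' : ℕ
  M : ℕ
  p0 : ℕ
  N1 : ℕ
  U : ℕ
  k : ℕ
  m : ℕ
  A : ℕ → ℕ
  ms : Finset ℕ
  t0 : ℕ

variable {α : Type u} (p : PP α)

structure PH : Prop where
  ro : Rule p.Ro p.no
  rs : Rule p.Rs p.ns
  gl : ∀ u v, p.G (u ++ v) → p.G u
  gr : ∀ u v, p.G (u ++ v) → p.G v
  grev : ∀ Q, p.G Q → p.G Q.reverse
  seps : ∀ Q d, p.Rs Q → 0 < d → d ≤ p.Ws → ¬ p.Rs (Q.drop d)
  sepo : ∀ Q d, p.Ro Q → 0 < d → d ≤ p.Wo → ¬ p.Ro (Q.drop d)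
  denso : ∀ Q, p.G Q → p.Go + p.no ≤ Q.length → ∃ i < p.Go, p.Ro (Q.drop i)
  denss : ∀ Q, p.G Q → p.Gs + p.ns ≤ Q.length → ∃ i < p.Gs, p.Rs (Q.drop i)
  th0 : ∀ i, 0 ≤ p.th i
  thS : ∀ i, p.th i ≤ p.Sb
  thD : ∀ i j, 0 ≤ i → i < (p.M' : ℤ) → 0 ≤ j → j < (p.M' : ℤ) →
    |p.th i - p.th j| ≤ 2 * p.N1 + 2 * p.p0 → i = j
  hWo : p.Sb + 2 * p.p0 + 2 * p.N1 + 1 ≤ p.Wo
  hWs : 2 * (p.M' * p.M) + 2 * p.p0 ≤ p.Ws
  hz : p.p0 + p.N1 + p.no + p.Gs + p.ns + 1 ≤ p.z
  hp0 : p.p0 = p.U * 4 ^ p.k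
  hM' : 4 ^ p.k ≤ p.M'
  hU : p.U = p.M' * (1 + p.M * p.t0) + 1
  hU2 : 2 * (p.M' * p.M) < p.U
  hms : ∀ q ∈ p.ms, 2 * 4 ^ p.k + 2 ≤ q ∧ q ∣ p.M

/-- outer wall at `t` (left-looking). -/
def OW (w : List α) (t : ℕ) : Prop := t ≤ w.length ∧ p.Ro (w.take t).reverse

def Ok (t : ℕ) : Prop := p.th (((t : ℤ) - p.z) % p.M') ≤ (t : ℤ) - p.z

def E (X : List α) : Prop := p.Ro X.reverse ∧ Ok p X.length

def First (o : ℕ) (r : List α) (b : ℕ) : Prop :=
  OW p r b ∧ Ok p (o + b) ∧ ∀ s, s < b → OW p r s → ¬ Ok p (o + s)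

def LLo (o : ℕ) : Prop := ∃ q, o = p.p0 + p.M' * q ∧ p.M' * q ≤ p.N1

def Fs (r : List α) (b : ℕ) : Prop :=
  OW p r b ∧ (∀ o, LLo p o → Ok p (o + b)) ∧ ∀ s, s < b → OW p r s → ∀ o, LLo p o → ¬ Ok p (o + s)

def good (T : ℕ) : Prop := ∀ q ∈ p.ms, ¬ q ∣ T

def BE (o : ℕ) (r : List α) : Prop :=
  ∃ s, OW p r s ∧ |(((o + s : ℕ) : ℤ) - p.z) - p.th ((((o + s : ℕ) : ℤ) - p.z) % p.M')| ≤ p.N1

def BD (o : ℕ) (r : List α) : Prop :=
  ∃ k ≤ p.m, ∃ s, p.Rs (r.drop s) ∧ p.p0 + p.A k ≤ o + s + p.M' * p.M ∧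
    o + s < p.p0 + p.A k + p.M' * p.M

def BB (o : ℕ) (r : List α) : Prop :=
  ∃ b, First p o r b ∧ ¬ good p ((o + b - p.p0) / p.M')

def Bad (o : ℕ) (r : List α) : Prop := BE p o r ∨ BD p o r ∨ BB p o r

variable {p}

theorem OW_len (hp : PH p) {w : List α} {t : ℕ} (h : OW p w t) : p.no ≤ t := by
  have h1 := hp.ro.len _ h.2
  rw [List.length_reverse, List.length_take] at h1
  omega

theorem OW_app (hp : PH p) {P Q : List α} {s : ℕ} (hs : p.no ≤ s) :
    OW p (P ++ Q) (P.length + s) ↔ OW p Q s := by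
  unfold OW
  have e : (P ++ Q).take (P.length + s) = P ++ Q.take s := by
    simp [List.take_append]
  rw [e, List.reverse_append, List.length_append]
  constructor
  · rintro ⟨h1, h2⟩
    have h3 : s ≤ Q.length := by omega
    refine ⟨h3, (hp.ro.app ?_).1 h2⟩
    rw [List.length_reverse, List.length_take]; omega
  · rintro ⟨h1, h2⟩
    refine ⟨by omega, (hp.ro.app ?_).2 h2⟩
    rw [List.length_reverse, List.length_take]; omega

theorem OW_take {w : List α} {t c : ℕ} (h : t ≤ c) : OW p (w.take c) t ↔ OW p w t := by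
  unfold OW
  rw [List.take_take, Nat.min_eq_left h, List.length_take]
  constructor
  · rintro ⟨h1, h2⟩; exact ⟨by omega, h2⟩
  · rintro ⟨h1, h2⟩; exact ⟨by omega, h2⟩

theorem OW_drop (hp : PH p) {w : List α} {c s : ℕ} (hc : c ≤ w.length) (hs : p.no ≤ s) :
    OW p (w.drop c) s ↔ OW p w (c + s) := by
  have h := OW_app (p := p) hp (P := w.take c) (Q := w.drop c) hs
  rw [List.take_append_drop, List.length_take, Nat.min_eq_left hc] at h
  exact h.symm

theorem OW_sep (hp : PH p) {w : List α} {t t' : ℕ} (h : OW p w t) (h' : OW p w t') (hlt : t < t')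
    (hW : t' ≤ t + p.Wo) : False := by
  refine hp.sepo _ (t' - t) h'.2 (by omega) (by omega) ?_
  have e : (w.take t').reverse.drop (t' - t) = (w.take t).reverse := by
    rw [List.drop_reverse, List.take_take, List.length_take]
    congr 2
    have := h'.1
    omega
  rw [e]; exact h.2

theorem OW_uniq (hp : PH p) {w : List α} {t t' : ℕ} (h : OW p w t) (h' : OW p w t')
    (h1 : t ≤ t' + p.Wo) (h2 : t' ≤ t + p.Wo) : t = t' := by
  rcases lt_trichotomy t t' with h3 | h3 | h3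
  · exact (OW_sep hp h h' h3 h2).elim
  · exact h3
  · exact (OW_sep hp h' h h3 h1).elim

theorem OW_dens (hp : PH p) {w : List α} (hw : p.G w) {t : ℕ} (ht : t + p.Go + p.no ≤ w.length) :
    ∃ s, t ≤ s ∧ s ≤ t + p.Go + p.no ∧ OW p w s := by
  set Q := (w.drop t).take (p.Go + p.no) with hQ
  have hG : p.G Q := by
    have h1 : p.G (w.drop t) := hp.gr (w.take t) _ (by rwa [List.take_append_drop])
    exact hp.gl _ ((w.drop t).drop (p.Go + p.no)) (by rwa [List.take_append_drop])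
  have hl : Q.length = p.Go + p.no := by
    rw [hQ, List.length_take, List.length_drop]; omega
  obtain ⟨i, hi, h2⟩ := hp.denso Q.reverse (hp.grev _ hG) (by rw [List.length_reverse]; omega)
  rw [List.drop_reverse] at h2
  have h3 : OW p Q (Q.length - i) := ⟨by omega, h2⟩
  have h4 := OW_len hp h3
  have h5 : OW p (w.drop t) (Q.length - i) := (OW_take (by omega)).1 h3
  refine ⟨t + (Q.length - i), by omega, by omega, (OW_drop hp (by omega) h4).1 h5⟩

theorem Ok_ge (hp : PH p) {t : ℕ} (h : Ok p t) : p.z ≤ t := by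
  unfold Ok at h
  have := hp.th0 (((t : ℤ) - p.z) % p.M')
  omega

theorem Ok_of_ge (hp : PH p) {t : ℕ} (h : p.z + p.Sb ≤ t) : Ok p t := by
  unfold Ok
  have := hp.thS (((t : ℤ) - p.z) % p.M')
  omega

theorem E_app (hp : PH p) {P r : List α} {t : ℕ} (ht : p.no ≤ t) (htl : t ≤ r.length) :
    E p (P ++ r.take t) ↔ OW p r t ∧ Ok p (P.length + t) := by
  unfold E
  have e : (P ++ r.take t).length = P.length + t := by simp; omega
  rw [e]
  have h := OW_app (p := p) hp (P := P) (Q := r) ht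
  have e2 : (P ++ r).take (P.length + t) = P ++ r.take t := by
    simp [List.take_append]
  unfold OW at h ⊢
  rw [e2] at h
  constructor
  · rintro ⟨h1, h2⟩
    exact ⟨h.1 ⟨by simp; omega, h1⟩, h2⟩
  · rintro ⟨h1, h2⟩
    exact ⟨(h.2 h1).2, h2⟩

theorem E_ge (hp : PH p) {X : List α} (h : E p X) : p.z ≤ X.length := Ok_ge hp h.2

theorem first_block (hp : PH p) {P r : List α} {b : ℕ} (hP : P.length + p.no ≤ p.z)
    (h : First p P.length r b) :
    0 < b ∧ b ≤ r.length ∧ E p (P ++ r.take b) ∧ ∀ t, t < b → ¬ E p (P ++ r.take t) := by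
  obtain ⟨h1, h2, h3⟩ := h
  have h4 := OW_len hp h1
  have h5 := hp.ro.pos
  refine ⟨by omega, h1.1, (E_app hp h4 h1.1).2 ⟨h1, h2⟩, ?_⟩
  intro t ht hE
  have h6 := E_ge hp hE
  rw [List.length_append, List.length_take] at h6
  have h7 := h1.1
  obtain ⟨h8, h9⟩ := (E_app hp (by omega) (by omega)).1 hE
  exact h3 t ht h8 h9

theorem exists_first (hp : PH p) {r : List α} (hr : p.G r) (o : ℕ)
    (hl : p.z + p.Sb + p.Go + p.no ≤ r.length) :
    ∃ b, First p o r b ∧ b ≤ p.z + p.Sb + p.Go + p.no := by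
  classical
  obtain ⟨s, h1, h2, h3⟩ := OW_dens hp hr (t := p.z + p.Sb) hl
  have hex : ∃ b, OW p r b ∧ Ok p (o + b) := ⟨s, h3, Ok_of_ge hp (by omega)⟩
  refine ⟨Nat.find hex, ⟨(Nat.find_spec hex).1, (Nat.find_spec hex).2, ?_⟩, ?_⟩
  · intro t ht h4 h5
    exact Nat.find_min hex ht ⟨h4, h5⟩
  · exact (Nat.find_min' hex ⟨h3, Ok_of_ge hp (by omega)⟩).trans (by omega)

/-- block length bound -/
def Bm (p : PP α) : ℕ := p.z + p.Sb + p.Go + p.no

theorem hyp (hp : PH p) : Hyp (E p) (Bm p) p.G where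
  gl := hp.gl
  gr := hp.gr
  e0 := by
    intro h
    have := E_ge hp h
    have := hp.hz
    simp at *
    omega
  bd := by
    intro Q hQ hn
    by_contra hlt
    push Not at hlt
    unfold Bm at hlt
    obtain ⟨b, h1, h2⟩ := exists_first hp hQ 0 (by omega)
    have := first_block (P := []) hp (by have := hp.hz; simp; omega) (by simpa using h1)
    apply hn b
    simpa using this.2.2.1

theorem Fs_First {P r : List α} {b : ℕ} (h : Fs p r b) (hP : LLo p P.length) :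
    First p P.length r b := ⟨h.1, h.2.1 _ hP, fun s hs hw => h.2.2 s hs hw _ hP⟩

/-- the rule is the same at all comb places if there is no wall near a threshold. -/
theorem Fs_of_notE (hp : PH p) {r : List α} {o x b : ℕ} (hb : First p o r b)
    (hE : ¬ BE p o r) (hx : LLo p (o + x)) (hxb : o + x + p.no ≤ p.z) (hxr : x ≤ r.length) :
    Fs p (r.drop x) (b - x) := by
  have hbz := Ok_ge hp hb.2.1
  have hE' : ∀ s, OW p r s →
      (p.N1 : ℤ) < |(((o + s : ℕ) : ℤ) - p.z) - p.th ((((o + s : ℕ) : ℤ) - p.z) % p.M')| := by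
    intro s hs
    by_contra h
    push Not at h
    exact hE ⟨s, hs, h⟩
  -- residues agree at all comb places
  obtain ⟨q0, hq0, hq0'⟩ := hx
  have hres : ∀ o', LLo p o' → ∀ s, x ≤ s → ((((o' + (s - x) : ℕ) : ℤ) - p.z) % p.M') =
      ((((o + s : ℕ) : ℤ) - p.z) % p.M') ∧
      |(((o' + (s - x) : ℕ) : ℤ)) - ((o + s : ℕ) : ℤ)| ≤ p.N1 := by
    rintro o' ⟨q, hq, hq'⟩ s hs
    have e : (((o' + (s - x) : ℕ) : ℤ)) = ((o + s : ℕ) : ℤ) + p.M' * ((q : ℤ) - q0) := by
      have h1 : ((s - x : ℕ) : ℤ) = (s : ℤ) - x := by omega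
      have h2 : ((o : ℤ) + x) = p.p0 + p.M' * q0 := by exact_mod_cast hq0
      push_cast
      rw [h1, hq]
      push_cast
      linarith
    constructor
    · rw [e]
      have : ((o + s : ℕ) : ℤ) + p.M' * ((q : ℤ) - q0) - p.z =
        (((o + s : ℕ) : ℤ) - p.z) + p.M' * ((q : ℤ) - q0) := by ring
      rw [this, Int.add_mul_emod_self_left]
    · rw [e]
      have h3 : ((p.M' * q : ℕ) : ℤ) ≤ p.N1 := by exact_mod_cast hq'
      have h4 : ((p.M' * q0 : ℕ) : ℤ) ≤ p.N1 := by exact_mod_cast hq0'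
      have h5 : (0 : ℤ) ≤ ((p.M' * q : ℕ) : ℤ) := by positivity
      have h6 : (0 : ℤ) ≤ ((p.M' * q0 : ℕ) : ℤ) := by positivity
      push_cast at h3 h4 h5 h6
      rw [abs_le]
      constructor <;> nlinarith
  have hOk : ∀ o', LLo p o' → ∀ s, x ≤ s → OW p r s → (Ok p (o' + (s - x)) ↔ Ok p (o + s)) := by
    intro o' ho' s hs hw
    obtain ⟨h1, h2⟩ := hres o' ho' s hs
    have h3 := hE' s hw
    unfold Ok
    rw [h1]
    set θ := p.th ((((o + s : ℕ) : ℤ) - p.z) % p.M')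
    rw [abs_le] at h2
    constructor
    · intro h
      by_contra h4
      push Not at h4
      rw [abs_of_neg (by linarith)] at h3
      linarith
    · intro h
      rw [abs_of_nonneg (by linarith)] at h3
      linarith
  have hxb' : x + p.no ≤ b := by omega
  refine ⟨(OW_drop hp hxr (by omega)).2 (by rw [Nat.add_sub_cancel' (by omega)]; exact hb.1), ?_, ?_⟩
  · intro o' ho'
    exact (hOk o' ho' b (by omega) hb.1).2 hb.2.1
  · intro s hs hw o' ho' hok
    have h1 := OW_len hp hw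
    have h2 : OW p r (x + s) := (OW_drop hp hxr h1).1 hw
    have h3 := hOk o' ho' (x + s) (by omega) h2
    rw [Nat.add_sub_cancel_left] at h3
    exact hb.2.2 (x + s) (by omega) h2 (h3.1 hok)

end Crest.Agent.R320.Geo_199
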