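import Crest.Agent.R320.Main_621
import Crest.Agent.R320.ExactT_580

/-!
# Row 320: the block geometry of the two schemes for the natural chain rule (helper216)
-/

set_option autoImplicit false

namespace Crest.Agent.R320.Geo_216

open Crest.Agent.R320.Hk_851 Crest.Agent.R320.Star_621 Crest.Agent.R320.Two_621
open Crest.Agent.R320.Main_621

variable {α : Type}

/-- wall at the end of `u` (left-looking, window `n`) -/
def wl (n : ℕ) (Ws : Set (List α)) (u : List α) : Prop :=
  n ≤ u.length ∧ u.drop (u.length - n) ∈ Ws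

/-- wall at position `t` of `w` -/
def WA (n : ℕ) (Ws : Set (List α)) (w : List α) (t : ℕ) : Prop :=
  t ≤ w.length ∧ wl n Ws (w.take t)

theorem WA.le {n : ℕ} {Ws : Set (List α)} {w : List α} {t : ℕ} (h : WA n Ws w t) : t ≤ w.length :=
  h.1

theorem WA.n_le {n : ℕ} {Ws : Set (List α)} {w : List α} {t : ℕ} (h : WA n Ws w t) : n ≤ t := by
  have h1 := h.2.1
  rw [List.length_take] at h1
  omega

theorem WA_iff {n : ℕ} {Ws : Set (List α)} {w : List α} {t : ℕ} :
    WA n Ws w t ↔ n ≤ t ∧ t ≤ w.length ∧ (w.drop (t - n)).take n ∈ Ws := by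
  constructor
  · intro h
    have h0 := h.n_le
    have h1 := h.1
    refine ⟨h0, h1, ?_⟩
    have h2 := h.2.2
    rw [List.length_take, min_eq_left h1, List.drop_take] at h2
    have e : t - (t - n) = n := by omega
    rwa [e] at h2
  · rintro ⟨h0, h1, h2⟩
    refine ⟨h1, ?_, ?_⟩
    · rw [List.length_take]; omega
    · rw [List.length_take, min_eq_left h1, List.drop_take]
      have e : t - (t - n) = n := by omega
      rwa [e]

theorem WA_append_left {n : ℕ} {Ws : Set (List α)} {u v : List α} {t : ℕ} (ht : t ≤ u.length) :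
    WA n Ws (u ++ v) t ↔ WA n Ws u t := by
  unfold WA
  rw [List.take_append_of_le_length ht]
  constructor
  · rintro ⟨-, h⟩; exact ⟨ht, h⟩
  · rintro ⟨-, h⟩
    refine ⟨?_, h⟩
    rw [List.length_append]; omega

theorem WA_append_right {n : ℕ} {Ws : Set (List α)} {u v : List α} {s : ℕ} (hs : n ≤ s) :
    WA n Ws (u ++ v) (u.length + s) ↔ WA n Ws v s := by
  rw [WA_iff, WA_iff]
  have e : u.length + s - n = u.length + (s - n) := by omega
  rw [e, List.drop_length_add_append]
  constructor
  · rintro ⟨-, h1, h2⟩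
    rw [List.length_append] at h1
    exact ⟨hs, by omega, h2⟩
  · rintro ⟨-, h1, h2⟩
    refine ⟨by omega, ?_, h2⟩
    rw [List.length_append]; omega

/-- `t` is the only wall of `w` at positions in `[z, |w|)`, and `|w|` is a wall -/
structure Bl (n : ℕ) (Ws : Set (List α)) (z : ℕ) (w : List α) (t : ℕ) : Prop where
  zt : z ≤ t
  lt : t < w.length
  wt : WA n Ws w t
  we : WA n Ws w w.length
  un : ∀ s, z ≤ s → s < w.length → WA n Ws w s → s = t

/-- the blocks -/
def ZZ (n : ℕ) (Ws : Set (List α)) (z : ℕ) : Language α := {X | ∃ t, Bl n Ws z X t}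

theorem Bl.uniq {n : ℕ} {Ws : Set (List α)} {z : ℕ} {w : List α} {t t' : ℕ}
    (h : Bl n Ws z w t) (h' : Bl n Ws z w t') : t = t' :=
  h'.un t h.zt h.lt h.wt

theorem Bl.len_le {n : ℕ} {Ws : Set (List α)} {z : ℕ} {X X' x x' : List α} {t t' : ℕ}
    (h : Bl n Ws z X t) (h' : Bl n Ws z X' t') (e : X ++ x = X' ++ x') :
    X.length ≤ X'.length := by
  by_contra hlt
  rw [not_le] at hlt
  have h1 : WA n Ws X X'.length := by
    rw [← WA_append_left (v := x) (by omega), e, WA_append_left le_rfl]
    exact h'.we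
  have h2 : WA n Ws X t' := by
    have := h'.lt
    rw [← WA_append_left (v := x) (by omega), e, WA_append_left (by omega)]
    exact h'.wt
  have h3 := h'.lt
  have h4 := h'.zt
  have e1 := h.un _ (by omega) hlt h1
  have e2 := h.un _ h4 (by omega) h2
  omega

theorem Bl.eq {n : ℕ} {Ws : Set (List α)} {z : ℕ} {X X' x x' : List α} {t t' : ℕ}
    (h : Bl n Ws z X t) (h' : Bl n Ws z X' t') (e : X ++ x = X' ++ x') : X = X' := by
  have h1 : X.length = X'.length := le_antisymm (h.len_le h' e) (h'.len_le h e.symm)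
  exact (List.append_inj e h1).1

theorem code {n : ℕ} {Ws : Set (List α)} {z : ℕ} : Code (ZZ n Ws z) := by
  constructor
  · rintro ⟨t, ht⟩
    exact absurd ht.lt (by simp)
  · rintro X X' x x' ⟨t, h⟩ ⟨t', h'⟩ e
    exact h.eq h' e

section A

variable {S : Type} [Monoid S] (ph : List α → S) (n : ℕ) (Ws : Set (List α)) (z p0 N1 : ℕ)
  (lam rho : List α → Option (Tok S)) (nu : List α → Tok S)

/-- the same data seen from position `p0` -/
structure BlY (Y : List α) (t : ℕ) : Prop where
  zt : z ≤ t + p0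
  lt : t < Y.length
  wt : WA n Ws Y t
  we : WA n Ws Y Y.length
  un : ∀ s, z ≤ s + p0 → s < Y.length → WA n Ws Y s → s = t

open Classical in
/-- noise of the outer scheme, as a function of the text behind `p0` -/
noncomputable def dY (Y : List α) : Tok S :=
  if h : ∃ t, BlY n Ws z p0 Y t then act (nu (Y.take h.choose)) (ph (Y.drop h.choose)) else 0

theorem dY_eq {Y : List α} {t : ℕ} (h : BlY n Ws z p0 Y t) :
    dY ph n Ws z p0 nu Y = act (nu (Y.take t)) (ph (Y.drop t)) := by
  have hex : ∃ t, BlY n Ws z p0 Y t := ⟨t, h⟩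
  have e : hex.choose = t := h.un _ hex.choose_spec.zt hex.choose_spec.lt hex.choose_spec.wt
  unfold dY
  rw [dif_pos hex, e]

/-- left words of the outer scheme -/
def LA (v : Tok S) : Language α :=
  {P | p0 ≤ P.length ∧ lam (P.drop p0) = some (act v (ph (P.take p0)))}

/-- right words of the outer scheme -/
def RA (τ : Tok S) : Language α :=
  {Q | ∃ t r, z ≤ p0 + t ∧ t < Q.length ∧ WA n Ws Q t ∧ WA n Ws Q Q.length ∧
    (∀ s, z ≤ s + p0 + N1 → s < Q.length → WA n Ws Q s → s = t) ∧
    rho (Q.take t) = some r ∧ τ = act r (ph (Q.drop t))}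

theorem BlY_of_Bl {X : List α} {t : ℕ} (hz : n + p0 ≤ z) (h : Bl n Ws z X t) :
    BlY n Ws z p0 (X.drop p0) (t - p0) := by
  have hl : p0 ≤ X.length := by have := h.zt; have := h.lt; omega
  have hX : X.take p0 ++ X.drop p0 = X := List.take_append_drop p0 X
  have hlen : (X.take p0).length = p0 := by rw [List.length_take]; omega
  have key : ∀ s, n ≤ s → (WA n Ws X (p0 + s) ↔ WA n Ws (X.drop p0) s) := by
    intro s hs
    have := WA_append_right (n := n) (Ws := Ws) (u := X.take p0) (v := X.drop p0) hs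
    rwa [hX, hlen] at this
  have h1 := h.zt
  have h2 := h.lt
  have hd : (X.drop p0).length = X.length - p0 := List.length_drop
  refine ⟨by omega, by omega, ?_, ?_, ?_⟩
  · rw [← key _ (by omega)]
    have e : p0 + (t - p0) = t := by omega
    rw [e]; exact h.wt
  · rw [hd, ← key _ (by omega)]
    have e : p0 + (X.length - p0) = X.length := by omega
    rw [e]; exact h.we
  · intro s hs1 hs2 hs3
    have h3 := (key s hs3.n_le).2 hs3
    have := h.un _ (by omega) (by omega) h3
    omega

theorem Bl_of_RA {P Q : List α} {t : ℕ} (hz : n + p0 + N1 ≤ z) (hP1 : p0 ≤ P.length)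
    (hP2 : P.length ≤ p0 + N1) (h1 : z ≤ p0 + t) (h2 : t < Q.length) (h3 : WA n Ws Q t)
    (h4 : WA n Ws Q Q.length)
    (h5 : ∀ s, z ≤ s + p0 + N1 → s < Q.length → WA n Ws Q s → s = t) :
    Bl n Ws z (P ++ Q) (P.length + t) := by
  have hl : (P ++ Q).length = P.length + Q.length := List.length_append
  refine ⟨by omega, by omega, (WA_append_right h3.n_le).2 h3, ?_, ?_⟩
  · rw [hl]; exact (WA_append_right h4.n_le).2 h4
  · intro s hs1 hs2 hs3
    obtain ⟨s', rfl⟩ : ∃ s', s = P.length + s' := ⟨s - P.length, by omega⟩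
    have h6 := (WA_append_right (by omega)).1 hs3
    have := h5 s' (by omega) (by omega) h6
    omega

variable (hm : ∀ a b, ph (a ++ b) = ph a * ph b) (hz : n + p0 + N1 ≤ z)
  (hlam : ∀ p v, lam p = some v → p.length ≤ N1)
  (hex : ∀ p q v r, lam p = some v → rho q = some r → r = act v (ph (p ++ q)) + nu (p ++ q))

include hm hz hlam hex

theorem soundA (hp0 : 0 < p0) : Sound (ZZ n Ws z) (aff ph fun X => dY ph n Ws z p0 nu (X.drop p0))
    (LA ph p0 lam) (RA ph n Ws z p0 N1 rho) := by
  constructor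
  · intro ω h
    have := h.1
    simp at this
    omega
  · rintro ω τ P Q X x y ⟨hP1, hP2⟩ ⟨t, r, h1, h2, h3, h4, h5, h6, rfl⟩ ⟨t', hX⟩ he
    have hl := hlam _ _ hP2
    rw [List.length_drop] at hl
    have hB := Bl_of_RA n Ws z p0 N1 hz hP1 (by omega) h1 h2 h3 h4 h5
    have e : P ++ Q = X := hB.eq hX he
    refine ⟨e, ?_⟩
    subst e
    have hY := BlY_of_Bl n Ws z p0 (by omega) hB
    show act r (ph (Q.drop t)) = act ω (ph (P ++ Q)) + dY ph n Ws z p0 nu ((P ++ Q).drop p0)
    rw [dY_eq ph n Ws z p0 nu hY]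
    have e1 : (P ++ Q).drop p0 = P.drop p0 ++ Q := List.drop_append_of_le_length hP1
    have e2 : P.length + t - p0 = (P.drop p0).length + t := by rw [List.length_drop]; omega
    rw [e1, e2, List.take_length_add_append, List.drop_length_add_append]
    have h7 := hex _ _ _ _ hP2 h6
    rw [h7, act_add, act_mul, act_mul, ← hm, ← hm]
    congr 2
    congr 1
    rw [← List.append_assoc, ← List.append_assoc, List.take_append_drop,
      List.append_assoc, List.take_append_drop]

end A

end Crest.Agent.R320.Geo_216
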