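import Mathlib

/-!
# Row 320: geometry of natural blocks (left-looking walls), helper410

Block = up to the second wall at a position `≥ z0` (182's form): `IsZ z t`, `t` = first wall.
-/

set_option autoImplicit false

namespace Crest.Agent.R320.Geo_410

/-- left-looking walls -/
structure Walls (α : Type) where
  Wo : List α → Prop
  n : ℕ
  W : ℕ
  loc : ∀ P Q : List α, n ≤ Q.length → (Wo (P ++ Q) ↔ Wo Q)
  len : ∀ P : List α, Wo P → n ≤ P.length
  gap : ∀ (P : List α) (d : ℕ), Wo P → 0 < d → d ≤ W → ¬ Wo (P.take (P.length - d))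

variable {α : Type} (R : Walls α)

/-- wall at position `τ` of `u` -/
def Wat (u : List α) (τ : ℕ) : Prop := τ ≤ u.length ∧ R.Wo (u.take τ)

theorem wat_shift {P P' Q : List α} {τ τ' : ℕ} (h : τ + P'.length = τ' + P.length)
    (hn : P.length + R.n ≤ τ) : Wat R (P ++ Q) τ ↔ Wat R (P' ++ Q) τ' := by
  obtain ⟨j, rfl⟩ : ∃ j, τ = P.length + j := ⟨τ - P.length, by omega⟩
  obtain rfl : τ' = P'.length + j := by omega
  unfold Wat
  rw [List.length_append, List.length_append, List.take_length_add_append,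
    List.take_length_add_append]
  constructor
  · rintro ⟨h1, h2⟩
    have hl : (Q.take j).length = j := by rw [List.length_take]; omega
    exact ⟨by omega, (R.loc P' _ (by omega)).2 ((R.loc P _ (by omega)).1 h2)⟩
  · rintro ⟨h1, h2⟩
    have hl : (Q.take j).length = j := by rw [List.length_take]; omega
    exact ⟨by omega, (R.loc P _ (by omega)).2 ((R.loc P' _ (by omega)).1 h2)⟩

theorem wat_append {u x : List α} {τ : ℕ} (h : τ ≤ u.length) :
    Wat R (u ++ x) τ ↔ Wat R u τ := by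
  unfold Wat
  rw [List.take_append_of_le_length h, List.length_append]
  constructor
  · rintro ⟨_, h2⟩; exact ⟨h, h2⟩
  · rintro ⟨_, h2⟩; exact ⟨by omega, h2⟩

theorem wat_take {u : List α} {t τ : ℕ} (h : τ ≤ t) (ht : t ≤ u.length) :
    Wat R (u.take t) τ ↔ Wat R u τ := by
  unfold Wat
  rw [List.take_take, Nat.min_eq_left h, List.length_take]
  constructor
  · rintro ⟨h1, h2⟩; exact ⟨by omega, h2⟩
  · rintro ⟨h1, h2⟩; exact ⟨by omega, h2⟩

theorem wat_gap {u : List α} {s t : ℕ} (hs : Wat R u s) (ht : Wat R u t) (h : s < t) :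
    s + R.W < t := by
  by_contra hc
  obtain ⟨h1, h2⟩ := hs
  obtain ⟨h3, h4⟩ := ht
  refine R.gap (u.take t) (t - s) h4 (by omega) (by omega) ?_
  have hl : (u.take t).length - (t - s) = s := by rw [List.length_take]; omega
  rw [hl, List.take_take, Nat.min_eq_left h.le]
  exact h2

variable (z0 : ℕ)

/-- first wall at a position `≥ z0` -/
def IsF (u : List α) (t : ℕ) : Prop :=
  Wat R u t ∧ z0 ≤ t ∧ ∀ s, z0 ≤ s → s < t → ¬ Wat R u s

/-- block: ends at the second wall `≥ z0`; `t` = first one -/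
def IsZ (z : List α) (t : ℕ) : Prop :=
  t < z.length ∧ IsF R z0 z t ∧ Wat R z z.length ∧ ∀ s, t < s → s < z.length → ¬ Wat R z s

variable {R z0}

theorem IsF.unique {u : List α} {t t' : ℕ} (h : IsF R z0 u t) (h' : IsF R z0 u t') : t = t' := by
  rcases lt_trichotomy t t' with hlt | he | hlt
  · exact absurd h.1 (h'.2.2 t h.2.1 hlt)
  · exact he
  · exact absurd h'.1 (h.2.2 t' h'.2.1 hlt)

theorem IsF.append {u : List α} {t : ℕ} (h : IsF R z0 u t) (x : List α) :
    IsF R z0 (u ++ x) t := by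
  have hl := h.1.1
  refine ⟨(wat_append R hl).2 h.1, h.2.1, fun s h1 h2 h3 => h.2.2 s h1 h2 ?_⟩
  exact (wat_append R (by omega)).1 h3

theorem IsF.of_append {u x : List α} {t : ℕ} (h : IsF R z0 (u ++ x) t) (hl : t ≤ u.length) :
    IsF R z0 u t := by
  refine ⟨(wat_append R hl).1 h.1, h.2.1, fun s h1 h2 h3 => h.2.2 s h1 h2 ?_⟩
  exact (wat_append R (by omega)).2 h3

theorem IsF.take {u : List α} {t : ℕ} (h : IsF R z0 u t) : IsF R z0 (u.take t) t := by
  have e : u = u.take t ++ u.drop t := (List.take_append_drop t u).symm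
  rw [e] at h
  refine h.of_append ?_
  have := h.1.1
  rw [← e] at this
  rw [List.length_take]; omega

theorem exists_isF {u : List α} {t : ℕ} (h : Wat R u t) (h0 : z0 ≤ t) :
    ∃ t', IsF R z0 u t' ∧ t' ≤ t := by
  classical
  have hex : ∃ t, Wat R u t ∧ z0 ≤ t := ⟨t, h, h0⟩
  refine ⟨Nat.find hex, ⟨(Nat.find_spec hex).1, (Nat.find_spec hex).2, ?_⟩,
    Nat.find_min' hex ⟨h, h0⟩⟩
  intro s h1 h2 h3
  exact Nat.find_min hex h2 ⟨h3, h1⟩

theorem isZ_unique {z z' x x' : List α} {t t' : ℕ} (h : IsZ R z0 z t) (h' : IsZ R z0 z' t')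
    (e : z ++ x = z' ++ x') : z = z' := by
  have key : ∀ (z z' x x' : List α) (t t' : ℕ), IsZ R z0 z t → IsZ R z0 z' t' →
      z ++ x = z' ++ x' → z.length < z'.length → False := by
    intro z z' x x' t t' h h' e hlt
    have ht : t = t' := by
      have h1 := h.2.1.append x
      rw [e] at h1
      exact h1.unique (h'.2.1.append x')
    subst ht
    refine h'.2.2.2 z.length h.1 hlt ?_
    have h2 := (wat_append R (x := x) le_rfl).2 h.2.2.1
    rw [e] at h2
    exact (wat_append R hlt.le).1 h2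
  rcases lt_trichotomy z.length z'.length with hlt | he | hlt
  · exact (key z z' x x' t t' h h' e hlt).elim
  · exact (List.append_inj e he).1
  · exact (key z' z x' x t' t h' h e.symm hlt).elim

/-- no wall in `[z0 - N, z0 + N)`: the block does not depend on the prefix -/
theorem isZ_shift {P P' Q : List α} {t t' N : ℕ} (h : IsZ R z0 (P ++ Q) t)
    (ht : t' + P.length = t + P'.length)
    (h1 : P.length + R.n + N ≤ z0)
    (h3 : P.length ≤ P'.length + N) (h4 : P'.length ≤ P.length + N)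
    (hE : ∀ τ, z0 ≤ τ + N → τ < z0 + N → ¬ Wat R (P ++ Q) τ) :
    IsZ R z0 (P' ++ Q) t' ∧ ∀ τ, z0 ≤ τ → Wat R (P' ++ Q) τ →
      ∃ τ₀, τ₀ + P'.length = τ + P.length ∧ Wat R (P ++ Q) τ₀ ∧ z0 + N ≤ τ₀ := by
  obtain ⟨hlt, ⟨hf1, hf2, hf3⟩, hw, hno⟩ := h
  rw [List.length_append] at hlt hno hw
  have htN : z0 + N ≤ t := by
    by_contra hc
    exact hE t (by omega) (by omega) hf1
  have tr : ∀ τ, z0 ≤ τ → Wat R (P' ++ Q) τ →
      ∃ τ₀, τ₀ + P'.length = τ + P.length ∧ Wat R (P ++ Q) τ₀ ∧ z0 + N ≤ τ₀ := by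
    intro τ h5 h6
    have h7 := (wat_shift R (P := P) (P' := P') (Q := Q) (τ := τ + P.length - P'.length) (τ' := τ)
      (by omega) (by omega)).2 h6
    refine ⟨τ + P.length - P'.length, by omega, h7, ?_⟩
    by_contra hc
    exact hE _ (by omega) (by omega) h7
  refine ⟨⟨?_, ⟨?_, ?_, ?_⟩, ?_, ?_⟩, tr⟩
  · rw [List.length_append]; omega
  · exact (wat_shift R (by omega) (by omega)).1 hf1
  · omega
  · intro s h5 h6 h7
    obtain ⟨s0, e, h8, h9⟩ := tr s h5 h7
    exact hf3 s0 (by omega) (by omega) h8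
  · rw [List.length_append]
    exact (wat_shift R (by omega) (by omega)).1 hw
  · intro s h5 h6 h7
    rw [List.length_append] at h6
    obtain ⟨s0, e, h8, h9⟩ := tr s (by omega) h7
    exact hno s0 (by omega) (by omega) h8

/-- same length: nothing changes -/
theorem isZ_same {P P' Q : List α} {t : ℕ} (h : IsZ R z0 (P ++ Q) t)
    (hl : P'.length = P.length) (h1 : P.length + R.n ≤ z0) : IsZ R z0 (P' ++ Q) t := by
  obtain ⟨hlt, ⟨hf1, hf2, hf3⟩, hw, hno⟩ := h
  have tr : ∀ τ, z0 ≤ τ → (Wat R (P' ++ Q) τ ↔ Wat R (P ++ Q) τ) := by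
    intro τ h5
    exact (wat_shift R (by omega) (by omega))
  have el : (P' ++ Q).length = (P ++ Q).length := by simp [hl]
  refine ⟨by rw [el]; exact hlt, ⟨(tr t hf2).2 hf1, hf2, fun s h5 h6 h7 => hf3 s h5 h6 ((tr s h5).1 h7)⟩,
    ?_, ?_⟩
  · rw [el]; exact (tr _ (by omega)).2 hw
  · intro s h5 h6 h7
    rw [el] at h6
    exact hno s h5 h6 ((tr s (by omega)).1 h7)

/-- first wall of a shifted text -/
theorem isF_shift {P P' Q : List α} {t L : ℕ} (h : IsZ R z0 (P ++ Q) t)
    (h1 : P.length + R.n + L ≤ z0)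
    (h3 : P.length ≤ P'.length + L) (h4 : P'.length ≤ P.length + L) (hW : 2 * L ≤ R.W) :
    ∃ t' τ, IsF R z0 (P' ++ Q) t' ∧ t' + P.length = τ + P'.length ∧
      Wat R (P ++ Q) τ ∧ z0 ≤ τ + L ∧
      (τ = t ∨ (τ < z0) ∨ (τ = (P ++ Q).length ∧ ∀ s, z0 ≤ s + L → s < z0 → ¬ Wat R (P ++ Q) s)) := by
  obtain ⟨hlt, ⟨hf1, hf2, hf3⟩, hw, hno⟩ := h
  have hg := wat_gap R hf1 hw hlt
  rw [List.length_append] at hlt hno hw hg
  have hw' : Wat R (P' ++ Q) (P'.length + Q.length) :=
    (wat_shift R (by omega) (by omega)).1 hw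
  obtain ⟨t', ht', hle⟩ := exists_isF (z0 := z0) hw' (by omega)
  have h7 : Wat R (P ++ Q) (t' + P.length - P'.length) :=
    (wat_shift R (P := P) (P' := P') (Q := Q) (τ := t' + P.length - P'.length) (τ' := t')
      (by have := ht'.2.1; omega) (by have := ht'.2.1; omega)).2 ht'.1
  have h0 := ht'.2.1
  refine ⟨t', t' + P.length - P'.length, ht', by omega, h7, by omega, ?_⟩
  by_cases hc : t' + P.length - P'.length < z0
  · exact Or.inr (Or.inl hc)
  by_cases he : t' + P.length - P'.length = t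
  · exact Or.inl he
  right; right
  have hgt : t < t' + P.length - P'.length := by
    by_contra hcc
    exact hf3 _ (by omega) (by omega) h7
  constructor
  · rw [List.length_append]
    by_contra hne
    exact hno _ hgt (by have := h7.1; rw [List.length_append] at this; omega) h7
  · -- then the first wall `t` is not visible as ≥ z0 in the shifted text
    intro s h5 h6 h8
    -- `s < z0 ≤ t`, gap: `t > s + W ≥ z0 - L + W ≥ z0 + L`, so `t` shifted is `≥ z0`
    have hg2 := wat_gap R h8 hf1 (by omega)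
    have h9 : Wat R (P' ++ Q) (t + P'.length - P.length) :=
      (wat_shift R (by omega) (by omega)).1 hf1
    exact ht'.2.2 _ (by omega) (by omega) h9

end Crest.Agent.R320.Geo_410
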