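import Crest.Agent.R320.Main_621
import Crest.Agent.R320.WallU_228
import Crest.Agent.R320.Reg_852

/-!
# Row 320: geometry of left-looking walls, blocks, regularity combinators (helper429)
-/

set_option autoImplicit false

namespace Crest.Agent.R320.Geo_429

universe u

variable {α : Type u}

/-- `U` ends at the first wall at distance at least `j` -/
def fw (Wo : List α → Prop) (j : ℕ) (U : List α) : Prop :=
  j ≤ U.length ∧ Wo U ∧ ∀ s, j ≤ s → s < U.length → ¬ Wo (U.take s)

/-- `U ++ E` ends at the next wall after `U` -/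
def Nx (Wo : List α → Prop) (U E : List α) : Prop :=
  E ≠ [] ∧ Wo (U ++ E) ∧ ∀ s, 0 < s → s < E.length → ¬ Wo (U ++ E.take s)

theorem take_add' (P U : List α) (s : ℕ) : (P ++ U).take (P.length + s) = P ++ U.take s := by
  rw [List.take_append]; simp

theorem fw_uniq {Wo : List α → Prop} {j : ℕ} {U U' x x' : List α} (h : fw Wo j U)
    (h' : fw Wo j U') (e : U ++ x = U' ++ x') : U = U' := by
  rcases lt_trichotomy U.length U'.length with hl | hl | hl
  · exfalso
    have : U'.take U.length = U := by
      have := congrArg (List.take U.length) e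
      rw [List.take_left, List.take_append_of_le_length hl.le] at this
      exact this.symm
    exact h'.2.2 U.length h.1 hl (by rw [this]; exact h.2.1)
  · exact (List.append_inj e hl).1
  · exfalso
    have : U.take U'.length = U' := by
      have := congrArg (List.take U'.length) e
      rw [List.take_append_of_le_length hl.le, List.take_left] at this
      exact this
    exact h.2.2 U'.length h'.1 hl (by rw [this]; exact h'.2.1)

theorem nx_uniq {Wo : List α → Prop} {U E E' x x' : List α} (h : Nx Wo U E) (h' : Nx Wo U E')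
    (e : E ++ x = E' ++ x') : E = E' := by
  have p : 0 < E.length := List.length_pos_iff.2 h.1
  have p' : 0 < E'.length := List.length_pos_iff.2 h'.1
  rcases lt_trichotomy E.length E'.length with hl | hl | hl
  · exfalso
    have : E'.take E.length = E := by
      have := congrArg (List.take E.length) e
      rw [List.take_left, List.take_append_of_le_length hl.le] at this
      exact this.symm
    exact h'.2.2 E.length p hl (by rw [this]; exact h.2.1)
  · exact (List.append_inj e hl).1
  · exfalso
    have : E.take E'.length = E' := by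
      have := congrArg (List.take E'.length) e
      rw [List.take_append_of_le_length hl.le, List.take_left] at this
      exact this
    exact h.2.2 E'.length p' hl (by rw [this]; exact h'.2.1)

/-- block: `U` up to the first wall at distance at least `j`, `E` up to the next one -/
def Bk (Wo : List α → Prop) (j : ℕ) (U E : List α) : Prop := fw Wo j U ∧ Nx Wo U E

theorem bk_uniq {Wo : List α → Prop} {j : ℕ} {U E U' E' x x' : List α} (h : Bk Wo j U E)
    (h' : Bk Wo j U' E') (e : U ++ E ++ x = U' ++ E' ++ x') : U = U' ∧ E = E' := by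
  rw [List.append_assoc, List.append_assoc] at e
  have := fw_uniq h.1 h'.1 e
  subst this
  exact ⟨rfl, nx_uniq h.2 h'.2 (List.append_cancel_left e)⟩

section
variable {Wo : List α → Prop} {n : ℕ} (loc : ∀ P Q : List α, n ≤ Q.length → (Wo (P ++ Q) ↔ Wo Q))
include loc

theorem fw_shift {j : ℕ} {P U : List α} (hj : P.length + n ≤ j) :
    fw Wo j (P ++ U) ↔ fw Wo (j - P.length) U := by
  constructor
  · rintro ⟨h1, h2, h3⟩
    rw [List.length_append] at h1
    refine ⟨by omega, (loc P U (by omega)).1 h2, fun s hs1 hs2 hw => ?_⟩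
    refine h3 (P.length + s) (by omega) (by rw [List.length_append]; omega) ?_
    rw [take_add']
    exact (loc P _ (by rw [List.length_take]; omega)).2 hw
  · rintro ⟨h1, h2, h3⟩
    refine ⟨by rw [List.length_append]; omega, (loc P U (by omega)).2 h2, fun s hs1 hs2 hw => ?_⟩
    rw [List.length_append] at hs2
    obtain ⟨r, rfl⟩ : ∃ r, s = P.length + r := ⟨s - P.length, by omega⟩
    rw [take_add'] at hw
    exact h3 r (by omega) (by omega) ((loc P _ (by rw [List.length_take]; omega)).1 hw)

theorem nx_shift {P U E : List α} (hU : n ≤ U.length) : Nx Wo (P ++ U) E ↔ Nx Wo U E := by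
  unfold Nx
  refine and_congr Iff.rfl (and_congr ?_ ?_)
  · rw [List.append_assoc]
    exact loc P (U ++ E) (by rw [List.length_append]; omega)
  · refine forall_congr' fun s => forall_congr' fun _ => forall_congr' fun _ => not_congr ?_
    rw [List.append_assoc]
    exact loc P (U ++ E.take s) (by rw [List.length_append]; omega)

theorem bk_shift {j : ℕ} {P U E : List α} (hj : P.length + n ≤ j) :
    Bk Wo j (P ++ U) E ↔ Bk Wo (j - P.length) U E := by
  constructor
  · rintro ⟨h1, h2⟩
    have h3 := (fw_shift loc hj).1 h1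
    exact ⟨h3, (nx_shift loc (by have := h3.1; omega)).1 h2⟩
  · rintro ⟨h1, h2⟩
    exact ⟨(fw_shift loc hj).2 h1, (nx_shift loc (by have := h1.1; omega)).2 h2⟩

end

/-! ### regularity combinators -/

abbrev Rg (p : List α → Prop) : Prop := Language.IsRegular ({w | p w} : Language α)

theorem rAnd {p q : List α → Prop} (hp : Rg p) (hq : Rg q) : Rg (fun w => p w ∧ q w) :=
  hp.inf hq

theorem rNot {p : List α → Prop} (hp : Rg p) : Rg (fun w => ¬ p w) := hp.compl

theorem rOr {p q : List α → Prop} (hp : Rg p) (hq : Rg q) : Rg (fun w => p w ∨ q w) :=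
  hp.add hq

theorem rTrue : Rg (fun _ : List α => True) := by
  have h : Language.IsRegular ((0 : Language α)ᶜ) := Crest.Agent.R320.Reg_852.isRegular_zero.compl
  convert h using 1
  ext w
  constructor
  · intro _ h'; exact Language.notMem_zero w h'
  · intro _; trivial

theorem rFalse : Rg (fun _ : List α => False) := by
  have h := rNot (rTrue (α := α))
  convert h using 3
  simp

theorem rConst (c : Prop) : Rg (fun _ : List α => c) := by
  by_cases h : c
  · simp only [h]; exact rTrue
  · simp only [h]; exact rFalse

theorem rCongr {p q : List α → Prop} (hp : Rg p) (h : ∀ w, p w ↔ q w) : Rg q := by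
  have : p = q := funext fun w => propext (h w)
  exact this ▸ hp

theorem rCat {p q : List α → Prop} (hp : Rg p) (hq : Rg q) :
    Rg (fun w => ∃ a b, w = a ++ b ∧ p a ∧ q b) := by
  have h := Crest.Agent.R320.Reg_852.IsRegular.mul hp hq
  refine (congrArg Language.IsRegular (Set.ext fun w => ?_)).mp h
  refine Language.mem_mul.trans ?_
  constructor
  · rintro ⟨a, ha, b, hb, rfl⟩; exact ⟨a, b, rfl, ha, hb⟩
  · rintro ⟨a, b, rfl, ha, hb⟩; exact ⟨a, ha, b, hb, rfl⟩

theorem rEx {ι : Type*} [Finite ι] {p : ι → List α → Prop} (hp : ∀ i, Rg (p i)) :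
    Rg (fun w => ∃ i, p i w) := by
  classical
  obtain ⟨m, ⟨e⟩⟩ := Finite.exists_equiv_fin ι
  have key : ∀ k : ℕ, Rg (fun w => ∃ i, (e i).1 < k ∧ p i w) := by
    intro k
    induction k with
    | zero => exact rCongr rFalse fun w => by simp
    | succ k ih =>
      by_cases hk : k < m
      · refine rCongr (rOr ih (hp (e.symm ⟨k, hk⟩))) fun w => ?_
        constructor
        · rintro (⟨i, h1, h2⟩ | h)
          · exact ⟨i, by omega, h2⟩
          · exact ⟨_, by simp, h⟩
        · rintro ⟨i, h1, h2⟩
          rcases Nat.lt_succ_iff_lt_or_eq.1 h1 with h | h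
          · exact Or.inl ⟨i, h, h2⟩
          · refine Or.inr ?_
            have : e i = ⟨k, hk⟩ := Fin.ext h
            rw [← this]; simpa using h2
      · refine rCongr ih fun w => ?_
        constructor
        · rintro ⟨i, h1, h2⟩; exact ⟨i, by omega, h2⟩
        · rintro ⟨i, h1, h2⟩; exact ⟨i, by have := (e i).2; omega, h2⟩
  exact rCongr (key m) fun w => ⟨fun ⟨i, _, h⟩ => ⟨i, h⟩, fun ⟨i, h⟩ => ⟨i, (e i).2, h⟩⟩

theorem rAll {ι : Type*} [Finite ι] {p : ι → List α → Prop} (hp : ∀ i, Rg (p i)) :
    Rg (fun w => ∀ i, p i w) :=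
  rCongr (rNot (rEx fun i => rNot (hp i))) fun w => by simp

theorem rMon {S : Type*} [Monoid S] [Finite S] (φ : α → S) (p : S → Prop) :
    Rg (fun w : List α => p ((w.map φ).prod)) := by
  refine rCongr (rEx (ι := S) (p := fun s w => p s ∧ (w.map φ).prod = s) fun s =>
    rAnd (rConst _) (Crest.Agent.R320.Reg_852.isRegular_prod φ s)) fun w => ?_
  constructor
  · rintro ⟨s, h1, rfl⟩; exact h1
  · intro h; exact ⟨_, h, rfl⟩

theorem rMod (D : ℕ) (hD : 0 < D) (p : ℕ → Prop) (hp : ∀ t, p (t + D) ↔ p t) :
    Rg (fun w : List α => p w.length) := by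
  have : NeZero D := ⟨hD.ne'⟩
  refine rCongr (rMon (S := Multiplicative (ZMod D))
    (fun _ : α => Multiplicative.ofAdd (1 : ZMod D))
    (fun s => p (ZMod.val (Multiplicative.toAdd s)))) fun w => ?_
  have h1 : ((w.map (fun _ : α => Multiplicative.ofAdd (1 : ZMod D))).prod)
      = Multiplicative.ofAdd ((w.length : ZMod D)) := by
    rw [List.map_const', List.prod_replicate, ← ofAdd_nsmul]; simp
  have h2 : ∀ k t, p (t + D * k) ↔ p t := by
    intro k
    induction k with
    | zero => intro t; simp
    | succ k ih => intro t; rw [Nat.mul_succ, ← add_assoc, hp, ih]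
  rw [h1]
  show p (ZMod.val ((w.length : ℕ) : ZMod D)) ↔ _
  rw [ZMod.val_natCast]
  rw [← h2 (w.length / D) (w.length % D), Nat.mod_add_div]

theorem rFin [Finite α] {p : List α → Prop} (N : ℕ) (h : ∀ w, p w → w.length ≤ N) : Rg p := by
  have hf : Set.Finite {w : List α | w.length ≤ N} := List.finite_length_le α N
  have one : ∀ w : List α, Rg (fun x => x = w) := by
    intro w
    induction w with
    | nil =>
      refine rCongr (p := fun x => x ∈ (1 : Language α))
        Crest.Agent.R320.Reg_852.isRegular_one fun x => ?_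
      rw [Language.mem_one]
    | cons a w ih =>
      refine rCongr (rCat (p := fun x => x = [a])
        (Crest.Agent.R320.Reg_852.isRegular_char a) ih) fun x => ?_
      constructor
      · rintro ⟨_, _, rfl, rfl, rfl⟩; rfl
      · rintro rfl; exact ⟨[a], w, rfl, rfl, rfl⟩
  have : Finite {w : List α // w.length ≤ N} := hf
  refine rCongr (rEx (ι := {w : List α // w.length ≤ N}) (p := fun i w => p i.1 ∧ w = i.1)
    fun i => rAnd (rConst _) (one i.1)) fun w => ?_
  constructor
  · rintro ⟨i, h1, rfl⟩; exact h1
  · intro hw; exact ⟨⟨w, h w hw⟩, hw, rfl⟩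

theorem rLenLe [Finite α] (N : ℕ) : Rg (fun w : List α => w.length ≤ N) := rFin N fun _ h => h

theorem rLenGe [Finite α] (N : ℕ) : Rg (fun w : List α => N ≤ w.length) := by
  cases N with
  | zero => exact rCongr rTrue fun w => by simp
  | succ N => exact rCongr (rNot (rLenLe N)) fun w => by omega

end Crest.Agent.R320.Geo_429
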