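import Crest.Agent.R320.Block_467

/-!
# Row 320: block code from left-looking walls on all words (geometry)

`Wa n A w t`: the `n` letters of `w` which end at `t` are in `A`.  `XXz`: words which end at their
first wall at a place `≥ z`.
-/

set_option autoImplicit false

namespace Crest.Agent.R320.Geo_522

open Crest.Agent.R320.Blk467

variable {α : Type*}

/-- left-looking wall at the place `t` -/
def Wa (n : ℕ) (A : Set (List α)) (w : List α) (t : ℕ) : Prop :=
  n ≤ t ∧ t ≤ w.length ∧ (w.drop (t - n)).take n ∈ A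

theorem wa_append {n : ℕ} {A : Set (List α)} (P Q : List α) {s : ℕ} (hs : n ≤ s) :
    Wa n A (P ++ Q) (P.length + s) ↔ Wa n A Q s := by
  have e : (P ++ Q).drop (P.length + s - n) = Q.drop (s - n) := by
    rw [show P.length + s - n = P.length + (s - n) by omega, ← List.drop_drop,
      List.drop_left]
  unfold Wa
  rw [e, List.length_append]
  constructor
  · rintro ⟨h1, h2, h3⟩
    exact ⟨hs, by omega, h3⟩
  · rintro ⟨h1, h2, h3⟩
    exact ⟨by omega, by omega, h3⟩

theorem wa_left {n : ℕ} {A : Set (List α)} (P Q : List α) {t : ℕ} (ht : t ≤ P.length) :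
    Wa n A (P ++ Q) t ↔ Wa n A P t := by
  unfold Wa
  by_cases hn : n ≤ t
  · have e : ((P ++ Q).drop (t - n)).take n = (P.drop (t - n)).take n := by
      rw [List.drop_append_of_le_length (by omega), List.take_append_of_le_length
        (by rw [List.length_drop]; omega)]
    rw [e, List.length_append]
    constructor
    · rintro ⟨h1, h2, h3⟩
      exact ⟨h1, ht, h3⟩
    · rintro ⟨h1, h2, h3⟩
      exact ⟨h1, by omega, h3⟩
  · constructor
    · rintro ⟨h1, _⟩
      exact absurd h1 hn
    · rintro ⟨h1, _⟩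
      exact absurd h1 hn

theorem wa_take {n : ℕ} {A : Set (List α)} (w : List α) {t m : ℕ} (ht : t ≤ m)
    (hm : m ≤ w.length) : Wa n A (w.take m) t ↔ Wa n A w t := by
  have := wa_left (n := n) (A := A) (w.take m) (w.drop m) (t := t)
    (by rw [List.length_take]; omega)
  rw [List.take_append_drop] at this
  exact this.symm

/-- words which end at their first wall at a place `≥ z` -/
def XXz (n : ℕ) (A : Set (List α)) (z : ℕ) : Set (List α) :=
  {X | z ≤ X.length ∧ Wa n A X X.length ∧ ∀ t, z ≤ t → t < X.length → ¬ Wa n A X t}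

theorem pcode {n : ℕ} {A : Set (List α)} {z : ℕ} (hz : 0 < z) : PCode (XXz n A z) := by
  refine ⟨fun h => ?_, ?_⟩
  · have := h.1
    simp at this
    omega
  · rintro X ⟨h1, h2, h3⟩ Y ⟨g1, g2, g3⟩ ⟨R, rfl⟩
    by_cases hR : R = []
    · simp [hR]
    · exfalso
      have hlen := List.length_pos_iff.2 hR
      refine g3 X.length h1 (by rw [List.length_append]; omega) ?_
      exact (wa_left X R le_rfl).2 h2

theorem exists_first {n : ℕ} {A : Set (List α)} {z : ℕ} (w : List α)
    (h : ∃ t, z ≤ t ∧ Wa n A w t) :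
    ∃ t, z ≤ t ∧ Wa n A w t ∧ (∀ s, z ≤ s → s < t → ¬ Wa n A w s) := by
  classical
  refine ⟨Nat.find h, (Nat.find_spec h).1, (Nat.find_spec h).2, fun s hs hst hw => ?_⟩
  exact Nat.find_min h hst ⟨hs, hw⟩

theorem take_mem {n : ℕ} {A : Set (List α)} {z t : ℕ} {w : List α} (h1 : z ≤ t)
    (h2 : Wa n A w t) (h3 : ∀ s, z ≤ s → s < t → ¬ Wa n A w s) : w.take t ∈ XXz n A z := by
  have ht : t ≤ w.length := h2.2.1
  have hl : (w.take t).length = t := by rw [List.length_take]; omega
  refine ⟨by rw [hl]; exact h1, ?_, ?_⟩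
  · rw [hl]
    exact (wa_take w le_rfl ht).2 h2
  · intro s hs hst
    rw [hl] at hst
    rw [wa_take w hst.le ht]
    exact h3 s hs hst

end Crest.Agent.R320.Geo_522
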