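import Crest.Agent.R320.Sc2_524

/-!
Row 320: block code over left-looking walls, right-legal words of scheme 1, bad blocks
(852 #13483 form: modes (E), (B) only).
-/

set_option autoImplicit false

namespace Crest.Agent.R320.Geo_524

open Crest.Agent.R320.ExactR_237 Crest.Agent.R320.Sc2_524

variable {α : Type}

/-- block code -/
def XX (Wo : List α → Prop) (z : ℕ) (X : List α) : Prop :=
  Wo X ∧ z ≤ X.length ∧ ∀ t, z ≤ t → t < X.length → ¬ Wo (X.take t)

/-- right-legal for scheme 1 -/
def Rleg (Wo : List α → Prop) (z p0 N1 : ℕ) (Q : List α) : Prop :=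
  Wo Q ∧ z ≤ Q.length + p0 ∧ ∀ t, z < t + p0 + N1 → t < Q.length → ¬ Wo (Q.take t)

/-- wall mode -/
def BadE (Wo : List α → Prop) (z N1 : ℕ) (X : List α) : Prop :=
  X.length < z + N1 ∨ ∃ t, z < t + N1 ∧ t < z ∧ Wo (X.take t)

/-- bad blocks -/
def Bad (Wo : List α → Prop) (z p0 N1 : ℕ) (Bt : ℕ → Prop) (X : List α) : Prop :=
  XX Wo z X ∧ (BadE Wo z N1 X ∨ Bt (X.length - p0))

/-- left-looking local walls with gap `> W` -/
structure Walls (Wo : List α → Prop) (n W : ℕ) : Prop where
  loc : ∀ P Q : List α, n ≤ Q.length → (Wo (P ++ Q) ↔ Wo Q)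
  gap : ∀ (P : List α) (d : ℕ), Wo P → 0 < d → d ≤ W → ¬ Wo (P.take (P.length - d))

variable {Wo : List α → Prop} {n W z p0 N1 : ℕ} {Bt : ℕ → Prop}

theorem take_app (P Q : List α) {t : ℕ} (h : P.length ≤ t) :
    (P ++ Q).take t = P ++ Q.take (t - P.length) := by
  rw [List.take_append, List.take_of_length_le h]

/-- walls of `P ++ Q` deep in `Q` do not depend on `P`. -/
theorem wo_tr (hW : Walls Wo n W) (P P' Q : List α) {t : ℕ} (h : n ≤ t) (ht : t ≤ Q.length) :
    Wo ((P ++ Q).take (P.length + t)) ↔ Wo ((P' ++ Q).take (P'.length + t)) := by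
  rw [take_app P Q (by omega), take_app P' Q (by omega)]
  have e1 : P.length + t - P.length = t := by omega
  have e2 : P'.length + t - P'.length = t := by omega
  rw [e1, e2, hW.loc _ _ (by rw [List.length_take]; omega),
    hW.loc _ _ (by rw [List.length_take]; omega)]

theorem xx_tr (hW : Walls Wo n W) (hz : p0 + n ≤ z) (P P' Q : List α)
    (h : P.length = P'.length) (hp : P.length ≤ p0) (hX : XX Wo z (P ++ Q)) :
    XX Wo z (P' ++ Q) := by
  obtain ⟨h1, h2, h3⟩ := hX
  rw [List.length_append] at h2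
  refine ⟨?_, by rw [List.length_append]; omega, fun t ht1 ht2 hw => ?_⟩
  · rw [hW.loc _ _ (by omega)] at h1 ⊢
    exact h1
  · rw [List.length_append] at ht2
    refine h3 t ht1 (by rw [List.length_append]; omega) ?_
    have := wo_tr hW P P' Q (t := t - P.length) (by omega) (by omega)
    have e1 : P.length + (t - P.length) = t := by omega
    have e2 : P'.length + (t - P.length) = t := by omega
    rw [e1, e2] at this
    exact this.2 hw

theorem bad_tr (hW : Walls Wo n W) (hz : p0 + N1 + n ≤ z) (P P' Q : List α)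
    (h : P.length = P'.length) (hp : P.length ≤ p0) (hX : Bad Wo z p0 N1 Bt (P ++ Q)) :
    Bad Wo z p0 N1 Bt (P' ++ Q) := by
  obtain ⟨h1, h2⟩ := hX
  refine ⟨xx_tr hW (by omega) P P' Q h hp h1, ?_⟩
  rcases h2 with (h2 | ⟨t, ht1, ht2, hw⟩) | h2
  · left; left; rw [List.length_append] at h2 ⊢; omega
  · left; right
    have hl := h1.2.1
    rw [List.length_append] at hl
    refine ⟨t, ht1, ht2, ?_⟩
    have := wo_tr hW P P' Q (t := t - P.length) (by omega) (by omega)
    have e1 : P.length + (t - P.length) = t := by omega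
    have e2 : P'.length + (t - P.length) = t := by omega
    rw [e1, e2] at this
    exact this.1 hw
  · right
    rw [List.length_append] at h2 ⊢
    rw [← h]; exact h2

theorem xx_pcode {X Y : List α} (hX : XX Wo z X) (hY : XX Wo z Y) (h : X <+: Y) : X = Y := by
  obtain ⟨R, rfl⟩ := h
  by_contra hne
  have hR : R ≠ [] := by rintro rfl; simp at hne
  have hl : 0 < R.length := List.length_pos_iff.2 hR
  refine hY.2.2 X.length hX.2.1 (by rw [List.length_append]; omega) ?_
  rw [List.take_left]; exact hX.1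

/-- a wall at a length `≥ z` gives a block prefix -/
theorem xx_exists {U : List α} {t : ℕ} (ht : z ≤ t) (htU : t ≤ U.length) (hw : Wo (U.take t)) :
    ∃ s, s ≤ t ∧ XX Wo z (U.take s) ∧ (U.take s).length = s := by
  classical
  have hex : ∃ s, z ≤ s ∧ s ≤ U.length ∧ Wo (U.take s) := ⟨t, ht, htU, hw⟩
  obtain ⟨h1, h2, h3⟩ := Nat.find_spec hex
  have hl : (U.take (Nat.find hex)).length = Nat.find hex := by
    rw [List.length_take]; omega
  refine ⟨Nat.find hex, Nat.find_min' hex ⟨ht, htU, hw⟩, ⟨h3, by rw [hl]; exact h1, ?_⟩, hl⟩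
  intro s hs1 hs2 hs3
  rw [hl] at hs2
  rw [List.take_take, min_eq_left hs2.le] at hs3
  exact Nat.find_min hex hs2 ⟨hs1, by omega, hs3⟩

/-- scheme 1: every right-legal word closes a block. -/
theorem rleg_xx (hW : Walls Wo n W) (hz : p0 + N1 + n ≤ z) {P Q : List α}
    (hP1 : p0 ≤ P.length) (hP2 : P.length < p0 + N1) (hQ : Rleg Wo z p0 N1 Q) :
    XX Wo z (P ++ Q) := by
  obtain ⟨h1, h2, h3⟩ := hQ
  refine ⟨(hW.loc _ _ (by omega)).2 h1, by rw [List.length_append]; omega, ?_⟩
  intro t ht1 ht2 hw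
  rw [List.length_append] at ht2
  rw [take_app P Q (by omega), hW.loc _ _ (by rw [List.length_take]; omega)] at hw
  exact h3 (t - P.length) (by omega) (by omega) hw

theorem rleg_of_not_bad (hW : Walls Wo n W) (hz : p0 + N1 + n ≤ z) {X : List α}
    (hX : XX Wo z X) (hE : ¬ BadE Wo z N1 X) {k : ℕ} (hk1 : p0 ≤ k) (hk2 : k < p0 + N1) :
    Rleg Wo z p0 N1 (X.drop k) := by
  unfold BadE at hE
  push Not at hE
  obtain ⟨hE1, hE2⟩ := hE
  have hk : k ≤ X.length := by omega
  have hlk : (X.take k).length = k := by rw [List.length_take]; omega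
  have hld : (X.drop k).length = X.length - k := List.length_drop
  have hXe : X = X.take k ++ X.drop k := (List.take_append_drop _ _).symm
  refine ⟨?_, by omega, ?_⟩
  · have := hX.1
    rw [hXe, hW.loc _ _ (by omega)] at this
    exact this
  · intro t ht1 ht2 hw
    have hw' : Wo (X.take (k + t)) := by
      have e : X.take (k + t) = X.take k ++ (X.drop k).take t := by
        conv_lhs => rw [hXe]
        rw [take_app _ _ (by omega), hlk]
        congr 2; omega
      rw [e, hW.loc _ _ (by rw [List.length_take]; omega)]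
      exact hw
    rcases Nat.lt_or_ge (k + t) z with h | h
    · exact hE2 (k + t) (by omega) h hw'
    · exact hX.2.2 (k + t) h (by omega) hw'

end Crest.Agent.R320.Geo_524
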