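import Mathlib

/-!
# Row 320: zone geometry for the two schemes (no small walls), helper573

Left-looking walls, blocks = words ending in the first wall at a place `>= z`.
Scheme 1 = any gadget for all lengths off a thin set `BadT`; scheme 2 = exact gadget in the first
`p0` letters at the places `c k` of a ruler, promise "the block is bad".
-/

set_option autoImplicit false

namespace Crest.Agent.R320.Geo_573

open Finset

variable {α V S : Type*}

/-- all the data of the geometry -/
structure Dat (α V S : Type*) [Monoid S] [AddCommGroup V] where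
  φ : List α → S
  act : V → S → V
  Wl : List α → Prop
  n : ℕ
  g : ℕ
  p0 : ℕ
  N1 : ℕ
  z : ℕ
  lam : List α → Option V
  rho : List α → Option V
  nu : List α → V
  BadT : ℕ → Prop
  l0 : ℕ
  K : ℕ
  c : ℕ → ℕ
  lam2 : ℕ → List α → Option V
  rho2 : ℕ → List α → Option V
  nu2 : List α → V
  KB : ℕ
  R : ℕ

variable [Monoid S] [AddCommGroup V]

namespace Dat

variable (D : Dat α V S)

/-- `j` is the first wall place `>= d` of `Q` -/
def F (d : ℕ) (Q : List α) (j : ℕ) : Prop :=
  d ≤ j ∧ j ≤ Q.length ∧ D.Wl (Q.take j) ∧ ∀ i, d ≤ i → i < j → ¬ D.Wl (Q.take i)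

/-- the block code -/
def XX (X : List α) : Prop := D.F D.z X X.length

/-- hypotheses -/
structure Ok : Prop where
  hφ1 : D.φ [] = 1
  hφ : ∀ u v, D.φ (u ++ v) = D.φ u * D.φ v
  act_mul : ∀ v s s', D.act (D.act v s) s' = D.act v (s * s')
  act_add : ∀ v w s, D.act (v + w) s = D.act v s + D.act w s
  loc : ∀ (P Q : List α), D.n ≤ Q.length → (D.Wl (P ++ Q) ↔ D.Wl Q)
  gap : ∀ (P E : List α), D.Wl P → D.Wl (P ++ E) → 0 < E.length → E.length ≤ D.g → False
  hg : 2 * (D.p0 + D.N1) ≤ D.g
  hz : 3 * D.p0 + D.N1 + D.n + D.l0 + 1 ≤ D.z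
  sound : ∀ P Q v b, D.lam P = some v → D.rho Q = some b →
    b = D.act v (D.φ (P ++ Q)) + D.nu (P ++ Q)
  compl : ∀ Y : List α, D.l0 ≤ Y.length → ¬ D.BadT Y.length → ∀ v, ∃ P Q, Y = P ++ Q ∧
    P.length ≤ D.N1 ∧ D.lam P = some v ∧ (D.rho Q).isSome
  hc : ∀ k < D.K, D.c k ≤ D.p0
  ex2 : ∀ k < D.K, ∀ (P Q : List α) (v b : V), P.length = D.c k → (P ++ Q).length = D.p0 →
    D.lam2 k P = some v → D.rho2 k Q = some b → b = D.act v (D.φ (P ++ Q)) + D.nu2 (P ++ Q)
  cp2 : ∀ (X : List α) (v : V), X.length = D.p0 → ∃ I : Finset ℕ, D.R ≤ I.card ∧ ∀ k ∈ I, k < D.K ∧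
    D.lam2 k (X.take (D.c k)) = some v ∧ (D.rho2 k (X.drop (D.c k))).isSome
  rul : ∀ a b a' b', a < D.K → b < D.K → a' < D.K → b' < D.K → a ≠ b → a' ≠ b' →
    ((D.c a : ℤ) - D.c b) - (D.c a' - D.c b') < 2 * D.N1 →
    ((D.c a' : ℤ) - D.c b') - (D.c a - D.c b) < 2 * D.N1 → a = a' ∧ b = b'
  thin : ∀ T, D.p0 ≤ T → ∀ A : Finset (ℕ × ℕ), (∀ x ∈ A, x.1 < D.K ∧ x.2 < D.K ∧ x.1 ≠ x.2 ∧
    D.BadT (T + D.c x.1 - D.c x.2)) → A.card ≤ D.KB
  hR : 1 + 2 * D.KB < D.R

open Classical in
/-- token map of a block -/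
noncomputable def T (v : V) (X : List α) : V :=
  D.act (D.act v (D.φ (X.take D.p0)) + D.nu2 (X.take D.p0)) (D.φ (X.drop D.p0)) +
    D.nu (X.drop D.p0)

def LP1 (P : List α) (v : V) : Prop :=
  D.p0 ≤ P.length ∧ P.length ≤ D.p0 + D.N1 ∧
    D.lam (P.drop D.p0) = some (D.act v (D.φ (P.take D.p0)) + D.nu2 (P.take D.p0))

open Classical in
noncomputable def R1 (Q : List α) : Option V :=
  if D.z - D.p0 ≤ Q.length ∧ D.F (D.z - D.p0 - D.N1) Q Q.length then D.rho Q else none

def LP2 (P : List α) (v : V) : Prop := ∃ k < D.K, P.length = D.c k ∧ D.lam2 k P = some v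

/-- hypothesis `k` is bad, read from the right word -/
def BadQ (k : ℕ) (Q : List α) : Prop :=
  ∃ j, D.F (D.z - D.c k) Q j ∧
    ((∃ i, D.z - D.N1 ≤ i + D.c k ∧ i + D.c k < D.z + D.N1 ∧ i ≤ Q.length ∧ D.Wl (Q.take i)) ∨
      D.BadT (j + D.c k - D.p0))

/-- legality and value of the right word of scheme 2 -/
def R2spec (Q : List α) (b : V) : Prop :=
  ∃ k < D.K, D.BadQ k Q ∧ (∀ k' < D.K, D.BadQ k' Q → k' = k) ∧
    ∃ Q1 X2 b1, Q = Q1 ++ X2 ∧ D.F (D.z - D.c k) Q Q1.length ∧ D.XX X2 ∧
      D.rho2 k (Q1.take (D.p0 - D.c k)) = some b1 ∧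
      b = D.T (D.act b1 (D.φ (Q1.drop (D.p0 - D.c k))) + D.nu (Q1.drop (D.p0 - D.c k))) X2

open Classical in
noncomputable def R2 (Q : List α) : Option V :=
  if h : ∃ b, D.R2spec Q b then some h.choose else none

theorem F_unique {d : ℕ} {Q : List α} {i j : ℕ} (h : D.F d Q i) (h' : D.F d Q j) : i = j := by
  rcases lt_trichotomy i j with hl | hl | hl
  · exact absurd h.2.2.1 (h'.2.2.2 i h.1 hl)
  · exact hl
  · exact absurd h'.2.2.1 (h.2.2.2 j h'.1 hl)

theorem R2spec_unique {Q : List α} {b b' : V} (h : D.R2spec Q b) (h' : D.R2spec Q b') : b = b' := by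
  obtain ⟨k, hk, h1, h2, Q1, X2, b1, e, hF, hX, hr, hb⟩ := h
  obtain ⟨k', hk', h1', h2', Q1', X2', b1', e', hF', hX', hr', hb'⟩ := h'
  have hkk : k' = k := h2 k' hk' h1'
  subst hkk
  have hl : Q1.length = Q1'.length := D.F_unique hF hF'
  have := List.append_inj (e.symm.trans e') hl
  obtain ⟨rfl, rfl⟩ := this
  rw [hr] at hr'
  cases hr'
  rw [hb, hb']

theorem R2_eq_some {Q : List α} {b : V} (h : D.R2 Q = some b) : D.R2spec Q b := by
  unfold R2 at h
  split at h
  · rename_i h'
    cases h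
    exact h'.choose_spec
  · cases h

theorem R2_isSome {Q : List α} {b : V} (h : D.R2spec Q b) : (D.R2 Q).isSome := by
  unfold R2
  rw [dif_pos ⟨b, h⟩]
  rfl

variable {D}

theorem wl_take (hD : D.Ok) {P Q : List α} {i : ℕ} (hi : D.n ≤ i) (hi' : i ≤ Q.length) :
    D.Wl ((P ++ Q).take (P.length + i)) ↔ D.Wl (Q.take i) := by
  rw [List.take_append, List.take_of_length_le (by omega)]
  have : P.length + i - P.length = i := by omega
  rw [this]
  exact hD.loc P (Q.take i) (by simp; omega)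

theorem nil_not_mem (hD : D.Ok) : ¬ D.XX [] := by
  rintro ⟨h, -⟩
  have := hD.hz
  simp at h
  omega

theorem prefix_code {X Y : List α} (hX : D.XX X) (hXY : D.XX (X ++ Y)) : Y = [] := by
  by_contra hne
  have hY : 0 < Y.length := List.length_pos_iff.2 hne
  have h1 := hXY.2.2.2 X.length hX.1 (by simp; omega)
  apply h1
  have := hX.2.2.1
  rw [List.take_length] at this
  rw [List.take_left]
  exact this

theorem T_eq (hD : D.Ok) (X : List α) (v : V) : D.T v X = D.act v (D.φ X) +
    (D.act (D.nu2 (X.take D.p0)) (D.φ (X.drop D.p0)) + D.nu (X.drop D.p0)) := by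
  unfold T
  rw [hD.act_add, hD.act_mul, ← hD.hφ, List.take_append_drop, add_assoc]

/-- the junction of scheme 1 is in the block code -/
theorem junction1 (hD : D.Ok) {P Q : List α} (h1 : D.p0 ≤ P.length) (h2 : P.length ≤ D.p0 + D.N1)
    (h3 : D.z - D.p0 ≤ Q.length) (h4 : D.F (D.z - D.p0 - D.N1) Q Q.length) : D.XX (P ++ Q) := by
  have hz := hD.hz
  refine ⟨by simp; omega, le_rfl, ?_, ?_⟩
  · rw [List.take_length]
    have := h4.2.2.1
    rw [List.take_length] at this
    exact (hD.loc P Q (by omega)).2 this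
  · intro t ht ht' hw
    simp only [List.length_append] at ht'
    have e : t = P.length + (t - P.length) := by omega
    rw [e, wl_take hD (by omega) (by omega)] at hw
    exact h4.2.2.2 (t - P.length) (by omega) (by omega) hw

theorem s1 (hD : D.Ok) (P : List α) (v : V) (Q : List α) (b : V) (hP : D.LP1 P v)
    (hQ : D.R1 Q = some b) : D.XX (P ++ Q) ∧ D.T v (P ++ Q) = b := by
  obtain ⟨h1, h2, h3⟩ := hP
  unfold R1 at hQ
  split at hQ
  · rename_i h
    refine ⟨junction1 hD h1 h2 h.1 h.2, ?_⟩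
    unfold T
    rw [List.take_append_of_le_length h1, List.drop_append_of_le_length h1]
    exact (hD.sound _ _ _ _ h3 hQ).symm
  · cases hQ

/-- a block which is not bad is cut by scheme 1 -/
theorem cut1 (hD : D.Ok) {X : List α} (hX : D.XX X)
    (hE : ¬ ∃ i, D.z - D.N1 ≤ i ∧ i < D.z + D.N1 ∧ i ≤ X.length ∧ D.Wl (X.take i))
    (hB : ¬ D.BadT (X.length - D.p0)) (v : V) :
    ∃ P Q, X = P ++ Q ∧ D.p0 ≤ P.length ∧ D.LP1 P v ∧ (D.R1 Q).isSome := by
  have hz := hD.hz
  have hXl : D.z ≤ X.length := hX.1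
  obtain ⟨P', Q, e, hl, hlam, hrho⟩ := hD.compl (X.drop D.p0) (by simp; omega)
    (by rw [List.length_drop]; exact hB)
    (D.act v (D.φ (X.take D.p0)) + D.nu2 (X.take D.p0))
  have hXw : D.Wl X := by
    have := hX.2.2.1
    rwa [List.take_length] at this
  have hXl' : D.z + D.N1 ≤ X.length := by
    by_contra hh
    exact hE ⟨X.length, by omega, by omega, le_rfl, by rw [List.take_length]; exact hXw⟩
  have hlen : X.length - D.p0 = P'.length + Q.length := by
    have := congrArg List.length e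
    simpa using this
  have eX : X = (X.take D.p0 ++ P') ++ Q := by
    rw [List.append_assoc, ← e, List.take_append_drop]
  have hPl : (X.take D.p0 ++ P').length = D.p0 + P'.length := by simp; omega
  have htk : (X.take D.p0 ++ P').take D.p0 = X.take D.p0 := by
    rw [List.take_append_of_le_length (by simp; omega), List.take_take]
    simp
  have hdr : (X.take D.p0 ++ P').drop D.p0 = P' := by
    rw [List.drop_append]
    have h1 : (X.take D.p0).length = D.p0 := by simp; omega
    rw [h1, List.drop_eq_nil_of_le (by omega)]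
    simp
  refine ⟨X.take D.p0 ++ P', Q, eX, by omega, ⟨by omega, by omega, ?_⟩, ?_⟩
  · rw [htk, hdr]; exact hlam
  · unfold R1
    rw [if_pos]
    · exact hrho
    · refine ⟨by omega, by omega, le_rfl, ?_, ?_⟩
      · rw [List.take_length]
        rw [eX] at hXw
        exact (hD.loc _ Q (by omega)).1 hXw
      · intro i hi hi' hw
        have h1 := (wl_take (P := X.take D.p0 ++ P') hD (by omega) (by omega : i ≤ Q.length)).2 hw
        rw [← eX] at h1
        by_cases hlt : (X.take D.p0 ++ P').length + i < D.z + D.N1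
        · exact hE ⟨_, by omega, hlt, by omega, h1⟩
        · exact hX.2.2.2 _ (by omega) (by omega) h1

/-- the badness of a block is read from the right word of the true hypothesis -/
theorem badQ_of (hD : D.Ok) {X P Q Y : List α} {k : ℕ} (hk : k < D.K) (hP : P.length = D.c k)
    (e : X = P ++ Q) (hX : D.XX X)
    (h : (∃ i, D.z - D.N1 ≤ i ∧ i < D.z + D.N1 ∧ i ≤ X.length ∧ D.Wl (X.take i)) ∨
      D.BadT (X.length - D.p0)) : D.BadQ k (Q ++ Y) ∧ D.F (D.z - D.c k) (Q ++ Y) Q.length := by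
  have hz := hD.hz
  have hck := hD.hc k hk
  have hXl : D.z ≤ X.length := hX.1
  have hlen : X.length = D.c k + Q.length := by rw [e]; simp [hP]
  have hF : D.F (D.z - D.c k) (Q ++ Y) Q.length := by
    refine ⟨by omega, by simp, ?_, ?_⟩
    · rw [List.take_left]
      have := hX.2.2.1
      rw [List.take_length, e] at this
      exact (hD.loc P Q (by omega)).1 this
    · intro i hi hi' hw
      rw [List.take_append_of_le_length (by omega)] at hw
      have := (wl_take (P := P) hD (by omega) (by omega : i ≤ Q.length)).2 hw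
      rw [← e] at this
      exact hX.2.2.2 _ (by omega) (by omega) this
  refine ⟨⟨Q.length, hF, ?_⟩, hF⟩
  rcases h with ⟨i, h1, h2, h3, h4⟩ | h
  · left
    refine ⟨i - D.c k, by omega, by omega, by simp; omega, ?_⟩
    rw [List.take_append_of_le_length (by omega)]
    have ei : i = P.length + (i - D.c k) := by omega
    rw [e, ei] at h4
    rw [wl_take hD (by omega) (by omega)] at h4
    exact h4
  · right
    have : Q.length + D.c k - D.p0 = X.length - D.p0 := by omega
    rw [this]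
    exact h

theorem s2 (hD : D.Ok) (P : List α) (v : V) (Q : List α) (b : V) (hP : D.LP2 P v)
    (hQ : D.R2 Q = some b)
    (hun : ∀ X, D.XX X → X <+: P ++ Q → ∀ P' Q', X = P' ++ Q' → P.length ≤ P'.length →
      D.LP1 P' v → (D.R1 Q').isSome → False) :
    ∃ Q1 X2, Q = Q1 ++ X2 ∧ Q1 ≠ [] ∧ D.XX (P ++ Q1) ∧ D.XX X2 ∧
      D.T (D.T v (P ++ Q1)) X2 = b := by
  classical
  have hz := hD.hz
  obtain ⟨k, hk, hPl, hlam⟩ := hP
  have hck := hD.hc k hk
  obtain ⟨k', hk', hb', hu', Q1, X2, b1, e, hF, hX2, hr, hb⟩ := D.R2_eq_some hQ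
  -- the first block of `P ++ Q`
  have hX2l : D.z ≤ X2.length := hX2.1
  have hX2w : D.Wl X2 := by
    have := hX2.2.2.1
    rwa [List.take_length] at this
  have hQw : D.Wl Q := by
    rw [e]; exact (hD.loc Q1 X2 (by omega)).2 hX2w
  have hex : ∃ j, D.z - D.c k ≤ j ∧ j ≤ Q.length ∧ D.Wl (Q.take j) :=
    ⟨Q.length, by rw [e]; simp; omega, le_rfl, by rw [List.take_length]; exact hQw⟩
  obtain ⟨hj1, hj2, hj3⟩ := Nat.find_spec hex
  set j := Nat.find hex with hjdef
  have hFj : D.F (D.z - D.c k) Q j := by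
    refine ⟨hj1, hj2, hj3, ?_⟩
    intro i hi hi' hw
    exact Nat.find_min hex hi' ⟨hi, by omega, hw⟩
  have hXX : D.XX (P ++ Q.take j) := by
    refine ⟨by simp; omega, le_rfl, ?_, ?_⟩
    · rw [List.take_length]
      exact (hD.loc P _ (by simp; omega)).2 hj3
    · intro t ht ht' hw
      simp only [List.length_append, List.length_take] at ht'
      have et : t = P.length + (t - P.length) := by omega
      rw [et, wl_take hD (by omega) (by simp; omega), List.take_take,
        min_eq_left (by omega)] at hw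
      exact hFj.2.2.2 (t - P.length) (by omega) (by omega) hw
  have hpre : P ++ Q.take j <+: P ++ Q := (List.prefix_append_right_inj P).2 (List.take_prefix j Q)
  have hbad : (∃ i, D.z - D.N1 ≤ i ∧ i < D.z + D.N1 ∧ i ≤ (P ++ Q.take j).length ∧
      D.Wl ((P ++ Q.take j).take i)) ∨ D.BadT ((P ++ Q.take j).length - D.p0) := by
    by_contra hcon
    rw [not_or] at hcon
    obtain ⟨P', Q', e', hp', h1, h2⟩ := cut1 hD hXX hcon.1 hcon.2 v
    exact hun _ hXX hpre P' Q' e' (by omega) h1 h2
  have hbk := badQ_of (Y := Q.drop j) hD hk hPl rfl hXX hbad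
  rw [List.take_append_drop] at hbk
  have hkk : k = k' := hu' k hk hbk.1
  subst hkk
  have hjQ : j = Q1.length := D.F_unique hFj hF
  have hQ1 : Q.take j = Q1 := by rw [hjQ, e, List.take_left]
  rw [hQ1] at hXX
  have hQ1l : D.z - D.c k ≤ Q1.length := hF.1
  refine ⟨Q1, X2, e, ?_, hXX, hX2, ?_⟩
  · intro h0
    rw [h0] at hQ1l
    simp at hQ1l
    omega
  · rw [hb]
    congr 1
    have h1 : (P ++ Q1).take D.p0 = P ++ Q1.take (D.p0 - D.c k) := by
      rw [List.take_append, List.take_of_length_le (by omega), hPl]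
    have h2 : (P ++ Q1).drop D.p0 = Q1.drop (D.p0 - D.c k) := by
      rw [List.drop_append, List.drop_eq_nil_of_le (by omega), hPl]
      simp
    unfold T
    rw [h1, h2]
    congr 2
    exact (hD.ex2 k hk P (Q1.take (D.p0 - D.c k)) v b1 hPl (by simp; omega) hlam hr).symm

/-- the spoiled places -/
theorem spoil (hD : D.Ok) {X X2 : List α} (hX : D.XX X) (A : Finset ℕ)
    (hA : ∀ k ∈ A, k < D.K ∧ ∃ k' < D.K, k' ≠ k ∧ D.BadQ k' ((X ++ X2).drop (D.c k))) :
    A.card ≤ 1 + 2 * D.KB := by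
  classical
  have hz := hD.hz
  have hg := hD.hg
  have hXl : D.z ≤ X.length := hX.1
  have hA' : ∀ k ∈ A, ∃ k', k < D.K ∧ k' < D.K ∧ k' ≠ k ∧
      D.BadQ k' ((X ++ X2).drop (D.c k)) := by
    intro k hk
    obtain ⟨h1, k', h2, h3, h4⟩ := hA k hk
    exact ⟨k', h1, h2, h3, h4⟩
  choose! f hf using hA'
  set Z := X ++ X2 with hZ
  have hZl : D.z ≤ Z.length := by rw [hZ]; simp; omega
  -- walls of `Z`
  let W : ℕ → Prop := fun t => t ≤ Z.length ∧ D.Wl (Z.take t)
  have hgap : ∀ t t', W t → W t' → t < t' → D.g < t' - t := by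
    intro t t' h h' hlt
    by_contra hcon
    have e : Z.take t' = Z.take t ++ (Z.take t').drop t := by
      conv_lhs => rw [← List.take_append_drop t (Z.take t')]
      rw [List.take_take, min_eq_left (by omega)]
    have h1 := h'.2
    rw [e] at h1
    have h2 := h'.1
    refine hD.gap _ _ h.2 h1 ?_ ?_
    · simp; omega
    · simp; omega
  have hdrop : ∀ k < D.K, ∀ i, D.n ≤ i → i + D.c k ≤ Z.length →
      (D.Wl ((Z.drop (D.c k)).take i) ↔ D.Wl (Z.take (D.c k + i))) := by
    intro k hk i hi hi'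
    have hck := hD.hc k hk
    have h1 := wl_take (P := Z.take (D.c k)) (Q := Z.drop (D.c k)) (i := i) hD hi
      (by simp; omega)
    rw [List.take_append_drop] at h1
    rw [← h1]
    have : (Z.take (D.c k)).length = D.c k := by simp; omega
    rw [this]
  -- first kind
  let EP : ℕ → Prop := fun k => ∃ i, D.z - D.N1 ≤ i + D.c (f k) ∧ i + D.c (f k) < D.z + D.N1 ∧
    i ≤ (Z.drop (D.c k)).length ∧ D.Wl ((Z.drop (D.c k)).take i)
  let BP : ℕ → ℕ → Prop := fun k j => D.F (D.z - D.c (f k)) (Z.drop (D.c k)) j ∧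
    D.BadT (j + D.c (f k) - D.p0)
  have hcase : ∀ k ∈ A, EP k ∨ ∃ j, BP k j := by
    intro k hk
    obtain ⟨j, hj, h⟩ := (hf k hk).2.2.2
    rcases h with h | h
    · exact Or.inl h
    · exact Or.inr ⟨j, hj, h⟩
  -- at most one of the first kind
  have hEcard : (A.filter EP).card ≤ 1 := by
    refine Finset.card_le_one.2 ?_
    intro a ha b hb
    rw [Finset.mem_filter] at ha hb
    obtain ⟨haA, i, h1, h2, h3, h4⟩ := ha
    obtain ⟨hbA, i', h1', h2', h3', h4'⟩ := hb
    obtain ⟨hak, hfa, hne, -⟩ := hf a haA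
    obtain ⟨hbk, hfb, hne', -⟩ := hf b hbA
    have hca := hD.hc a hak
    have hcb := hD.hc b hbk
    have hcfa := hD.hc _ hfa
    have hcfb := hD.hc _ hfb
    simp only [List.length_drop] at h3 h3'
    have w1 : W (D.c a + i) := ⟨by omega, (hdrop a hak i (by omega) (by omega)).1 h4⟩
    have w2 : W (D.c b + i') := ⟨by omega, (hdrop b hbk i' (by omega) (by omega)).1 h4'⟩
    have heq : D.c a + i = D.c b + i' := by
      rcases lt_trichotomy (D.c a + i) (D.c b + i') with hl | hl | hl
      · have := hgap _ _ w1 w2 hl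
        omega
      · exact hl
      · have := hgap _ _ w2 w1 hl
        omega
    exact (hD.rul a (f a) b (f b) hak hfa hbk hfb (fun h => hne h.symm) (fun h => hne' h.symm)
      (by omega) (by omega)).1
  -- the second kind: the wall is one of two
  have hBcard : ∀ t0 : ℕ, (A.filter (fun k => ∃ j, BP k j ∧ D.c k + j = t0)).card ≤ D.KB := by
    intro t0
    by_cases hne : (A.filter (fun k => ∃ j, BP k j ∧ D.c k + j = t0)).Nonempty
    swap
    · rw [Finset.not_nonempty_iff_eq_empty] at hne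
      rw [hne]; simp
    have ht0 : D.z - D.p0 ≤ t0 := by
      obtain ⟨k, hk⟩ := hne
      rw [Finset.mem_filter] at hk
      obtain ⟨hkA, j, hj, e⟩ := hk
      have := hD.hc _ (hf k hkA).2.1
      have h1 := hj.1.1
      omega
    let g : ℕ → ℕ × ℕ := fun k => (f k, k)
    have hinj : Function.Injective g := fun a b h => (Prod.mk.inj h).2
    rw [← Finset.card_image_of_injective _ hinj]
    refine hD.thin (t0 - D.p0) (by omega) _ ?_
    intro x hx
    rw [Finset.mem_image] at hx
    obtain ⟨k, hk, rfl⟩ := hx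
    rw [Finset.mem_filter] at hk
    obtain ⟨hkA, j, hj, e⟩ := hk
    obtain ⟨hkk, hfk, hnek, -⟩ := hf k hkA
    refine ⟨hfk, hkk, hnek, ?_⟩
    have h1 := hj.2
    have hck := hD.hc k hkk
    have : t0 - D.p0 + D.c (f k) - D.c k = j + D.c (f k) - D.p0 := by omega
    show D.BadT (t0 - D.p0 + D.c (f k) - D.c k)
    rw [this]
    exact h1
  have hB2 : ∀ k ∈ A, ∀ j, BP k j → W (D.c k + j) ∧ D.z - D.p0 ≤ D.c k + j ∧
      ∀ t, D.z + D.p0 ≤ t → t < D.c k + j → ¬ W t := by
    intro k hk j hj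
    obtain ⟨hkk, hfk, hnek, -⟩ := hf k hk
    have hck := hD.hc k hkk
    have hcf := hD.hc _ hfk
    have h1 := hj.1.1
    have h2 := hj.1.2.1
    simp only [List.length_drop] at h2
    refine ⟨⟨by omega, (hdrop k hkk j (by omega) (by omega)).1 hj.1.2.2.1⟩, by omega, ?_⟩
    intro t ht ht' hw
    refine hj.1.2.2.2 (t - D.c k) (by omega) (by omega) ?_
    refine (hdrop k hkk _ (by omega) (by omega)).2 ?_
    have : D.c k + (t - D.c k) = t := by omega
    rw [this]
    exact hw.2
  -- two candidates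
  have hcover : ∃ t1 t2 : ℕ, ∀ k ∈ A, ∀ j, BP k j → D.c k + j = t1 ∨ D.c k + j = t2 := by
    by_cases h1 : ∃ t, W t ∧ D.z - D.p0 ≤ t ∧ t < D.z + D.p0
    · obtain ⟨t1, w1, a1, a2⟩ := h1
      by_cases h2 : ∃ t, W t ∧ D.z + D.p0 ≤ t
      · refine ⟨t1, Nat.find h2, ?_⟩
        intro k hk j hj
        obtain ⟨b1, b2, b3⟩ := hB2 k hk j hj
        by_cases hlt : D.c k + j < D.z + D.p0
        · left
          rcases lt_trichotomy (D.c k + j) t1 with hl | hl | hl
          · have := hgap _ _ b1 w1 hl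
            omega
          · exact hl
          · have := hgap _ _ w1 b1 hl
            omega
        · right
          rcases lt_trichotomy (D.c k + j) (Nat.find h2) with hl | hl | hl
          · exact absurd ⟨b1, by omega⟩ (Nat.find_min h2 hl)
          · exact hl
          · exact absurd (Nat.find_spec h2).1 (b3 _ (Nat.find_spec h2).2 hl)
      · refine ⟨t1, t1, ?_⟩
        intro k hk j hj
        obtain ⟨b1, b2, b3⟩ := hB2 k hk j hj
        have hlt : D.c k + j < D.z + D.p0 := by
          by_contra hcon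
          exact h2 ⟨_, b1, by omega⟩
        left
        rcases lt_trichotomy (D.c k + j) t1 with hl | hl | hl
        · have := hgap _ _ b1 w1 hl
          omega
        · exact hl
        · have := hgap _ _ w1 b1 hl
          omega
    · by_cases h2 : ∃ t, W t ∧ D.z + D.p0 ≤ t
      · refine ⟨Nat.find h2, Nat.find h2, ?_⟩
        intro k hk j hj
        obtain ⟨b1, b2, b3⟩ := hB2 k hk j hj
        left
        have hge : D.z + D.p0 ≤ D.c k + j := by
          by_contra hcon
          exact h1 ⟨_, b1, b2, by omega⟩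
        rcases lt_trichotomy (D.c k + j) (Nat.find h2) with hl | hl | hl
        · exact absurd ⟨b1, hge⟩ (Nat.find_min h2 hl)
        · exact hl
        · exact absurd (Nat.find_spec h2).1 (b3 _ (Nat.find_spec h2).2 hl)
      · refine ⟨0, 0, ?_⟩
        intro k hk j hj
        obtain ⟨b1, b2, b3⟩ := hB2 k hk j hj
        exfalso
        by_cases hlt : D.c k + j < D.z + D.p0
        · exact h1 ⟨_, b1, b2, hlt⟩
        · exact h2 ⟨_, b1, by omega⟩
  obtain ⟨t1, t2, hcov⟩ := hcover
  have hsub : A ⊆ A.filter EP ∪ (A.filter (fun k => ∃ j, BP k j ∧ D.c k + j = t1) ∪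
      A.filter (fun k => ∃ j, BP k j ∧ D.c k + j = t2)) := by
    intro k hk
    rw [Finset.mem_union, Finset.mem_union, Finset.mem_filter, Finset.mem_filter,
      Finset.mem_filter]
    rcases hcase k hk with h | ⟨j, h⟩
    · exact Or.inl ⟨hk, h⟩
    · rcases hcov k hk j h with e | e
      · exact Or.inr (Or.inl ⟨hk, j, h, e⟩)
      · exact Or.inr (Or.inr ⟨hk, j, h, e⟩)
  have h1 := Finset.card_le_card hsub
  have h2 := Finset.card_union_le (A.filter EP)
    (A.filter (fun k => ∃ j, BP k j ∧ D.c k + j = t1) ∪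
      A.filter (fun k => ∃ j, BP k j ∧ D.c k + j = t2))
  have h3 := Finset.card_union_le (A.filter (fun k => ∃ j, BP k j ∧ D.c k + j = t1))
      (A.filter (fun k => ∃ j, BP k j ∧ D.c k + j = t2))
  have h4 := hBcard t1
  have h5 := hBcard t2
  omega

/-- completeness: a block followed by a block is cut by one of the schemes -/
theorem cc (hD : D.Ok) (X : List α) (hX : D.XX X) (X2 : List α) (hX2 : D.XX X2) (v : V) :
    (∃ P Q, X = P ++ Q ∧ D.LP1 P v ∧ (D.R1 Q).isSome) ∨
      (∃ P Q, X ++ X2 = P ++ Q ∧ P.length < X.length ∧ D.LP2 P v ∧ (D.R2 Q).isSome) := by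
  classical
  have hz := hD.hz
  have hXl : D.z ≤ X.length := hX.1
  by_cases hbad : (∃ i, D.z - D.N1 ≤ i ∧ i < D.z + D.N1 ∧ i ≤ X.length ∧ D.Wl (X.take i)) ∨
      D.BadT (X.length - D.p0)
  swap
  · rw [not_or] at hbad
    obtain ⟨P, Q, e, -, h1, h2⟩ := cut1 hD hX hbad.1 hbad.2 v
    exact Or.inl ⟨P, Q, e, h1, h2⟩
  · right
    obtain ⟨I, hI, hk⟩ := hD.cp2 (X.take D.p0) v (by simp; omega)
    -- an unspoiled place
    have hex : ∃ k ∈ I, ∀ k' < D.K, D.BadQ k' ((X ++ X2).drop (D.c k)) → k' = k := by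
      by_contra hcon
      push Not at hcon
      have := spoil (X2 := X2) hD hX I (fun k hkI => by
        obtain ⟨k', h1, h2, h3⟩ := hcon k hkI
        exact ⟨(hk k hkI).1, k', h1, h3, h2⟩)
      have := hD.hR
      omega
    obtain ⟨k, hkI, hu⟩ := hex
    obtain ⟨hkK, hlam, hrho⟩ := hk k hkI
    have hck := hD.hc k hkK
    have hPl : (X.take (D.c k)).length = D.c k := by simp; omega
    have eX : X = X.take (D.c k) ++ X.drop (D.c k) := (List.take_append_drop _ _).symm
    have eZ : (X ++ X2).drop (D.c k) = X.drop (D.c k) ++ X2 :=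
      List.drop_append_of_le_length (by omega)
    have hbq := badQ_of (Y := X2) hD hkK hPl eX hX hbad
    refine ⟨X.take (D.c k), X.drop (D.c k) ++ X2, ?_, by omega, ⟨k, hkK, hPl, ?_⟩, ?_⟩
    · rw [← List.append_assoc, List.take_append_drop]
    · rw [List.take_take, min_eq_left hck] at hlam
      exact hlam
    · obtain ⟨b1, hb1⟩ := Option.isSome_iff_exists.1 hrho
      refine D.R2_isSome (b := _) ⟨k, hkK, hbq.1, ?_, X.drop (D.c k), X2, b1, rfl, hbq.2, hX2,
        ?_, rfl⟩
      · intro k' hk' hb'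
        exact hu k' hk' (by rw [eZ]; exact hb')
      · rw [← hb1]
        congr 1
        rw [List.drop_take]

end Dat

end Crest.Agent.R320.Geo_573
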