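import Mathlib

/-!
# Row 320: geometry of the natural chain rule with left-looking walls (helper678)

`FW Wo h u s` : `s` is the first wall of `u` at a place `≥ h`;
`ZnAt Wo h u e` : `e` is the wall after the first wall at a place `≥ h`.
-/

set_option autoImplicit false

namespace Crest.Agent.R320.Geo_678

variable {α : Type*} {Wo : List α → Prop}

/-- `s` is the first wall of `u` at a place `≥ h`. -/
def FW (Wo : List α → Prop) (h : ℕ) (u : List α) (s : ℕ) : Prop :=
  h ≤ s ∧ s ≤ u.length ∧ Wo (u.take s) ∧ ∀ t, h ≤ t → t < s → ¬ Wo (u.take t)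

theorem FW.uniq {h s s' : ℕ} {u : List α} (a : FW Wo h u s) (b : FW Wo h u s') : s = s' := by
  obtain ⟨a1, a2, a3, a4⟩ := a
  obtain ⟨b1, b2, b3, b4⟩ := b
  rcases Nat.lt_trichotomy s s' with h1 | h1 | h1
  · exact absurd a3 (b4 s a1 h1)
  · exact h1
  · exact absurd b3 (a4 s' b1 h1)

theorem FW.exists {h t : ℕ} {u : List α} (h1 : h ≤ t) (h2 : t ≤ u.length)
    (h3 : Wo (u.take t)) : ∃ s, s ≤ t ∧ FW Wo h u s := by
  classical
  have hex : ∃ s, h ≤ s ∧ Wo (u.take s) := ⟨t, h1, h3⟩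
  have hle : Nat.find hex ≤ t := Nat.find_le ⟨h1, h3⟩
  refine ⟨Nat.find hex, hle, (Nat.find_spec hex).1, hle.trans h2, (Nat.find_spec hex).2, ?_⟩
  intro r hr1 hr2 hr3
  exact Nat.find_min hex hr2 ⟨hr1, hr3⟩

theorem FW_append {h s : ℕ} {u x : List α} (hs : s ≤ u.length) :
    FW Wo h (u ++ x) s ↔ FW Wo h u s := by
  have e : ∀ t, t ≤ u.length → (u ++ x).take t = u.take t := fun t ht =>
    List.take_append_of_le_length ht
  constructor
  · rintro ⟨a, b, c, d⟩
    refine ⟨a, hs, e s hs ▸ c, fun t h1 h2 => ?_⟩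
    have := d t h1 h2
    rwa [e t (by omega)] at this
  · rintro ⟨a, b, c, d⟩
    refine ⟨a, by rw [List.length_append]; omega, (e s hs).symm ▸ c, fun t h1 h2 => ?_⟩
    rw [e t (by omega)]
    exact d t h1 h2

theorem take_add (P Q : List α) (t : ℕ) : (P ++ Q).take (P.length + t) = P ++ Q.take t := by
  rw [List.take_append]
  simp

theorem FW_drop {n g s : ℕ} {P Q : List α}
    (loc : ∀ P Q : List α, n ≤ Q.length → (Wo (P ++ Q) ↔ Wo Q)) (hg : n ≤ g) :
    FW Wo (P.length + g) (P ++ Q) (P.length + s) ↔ FW Wo g Q s := by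
  constructor
  · rintro ⟨a, b, c, d⟩
    rw [List.length_append] at b
    have hs : s ≤ Q.length := by omega
    refine ⟨by omega, hs, ?_, fun t h1 h2 => ?_⟩
    · rw [take_add] at c
      exact (loc _ _ (by rw [List.length_take]; omega)).1 c
    · intro hw
      refine d (P.length + t) (by omega) (by omega) ?_
      rw [take_add]
      exact (loc _ _ (by rw [List.length_take]; omega)).2 hw
  · rintro ⟨a, b, c, d⟩
    refine ⟨by omega, by rw [List.length_append]; omega, ?_, fun t h1 h2 => ?_⟩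
    · rw [take_add]
      exact (loc _ _ (by rw [List.length_take]; omega)).2 c
    · intro hw
      obtain ⟨t', rfl⟩ : ∃ t', t = P.length + t' := ⟨t - P.length, by omega⟩
      rw [take_add] at hw
      exact d t' (by omega) (by omega) ((loc _ _ (by rw [List.length_take]; omega)).1 hw)

/-- `e` is the wall after the first wall at a place `≥ h`. -/
def ZnAt (Wo : List α → Prop) (h : ℕ) (u : List α) (e : ℕ) : Prop :=
  ∃ s, FW Wo h u s ∧ FW Wo (s + 1) u e

theorem ZnAt_append {h e : ℕ} {u x : List α} (he : e ≤ u.length) :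
    ZnAt Wo h (u ++ x) e ↔ ZnAt Wo h u e := by
  constructor
  · rintro ⟨s, h1, h2⟩
    have := h2.1
    exact ⟨s, (FW_append (by omega)).1 h1, (FW_append he).1 h2⟩
  · rintro ⟨s, h1, h2⟩
    have := h2.1
    exact ⟨s, (FW_append (by omega)).2 h1, (FW_append he).2 h2⟩

theorem ZnAt_drop {n g e : ℕ} {P Q : List α}
    (loc : ∀ P Q : List α, n ≤ Q.length → (Wo (P ++ Q) ↔ Wo Q)) (hg : n ≤ g) :
    ZnAt Wo (P.length + g) (P ++ Q) (P.length + e) ↔ ZnAt Wo g Q e := by
  constructor
  · rintro ⟨s, h1, h2⟩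
    have h3 := h1.1
    obtain ⟨s', rfl⟩ : ∃ t', s = P.length + t' := ⟨s - P.length, by omega⟩
    refine ⟨s', (FW_drop loc hg).1 h1, ?_⟩
    have := (FW_drop (n := n) (g := s' + 1) (s := e) (P := P) (Q := Q) loc (by omega))
    exact this.1 (by rwa [← Nat.add_assoc])
  · rintro ⟨s, h1, h2⟩
    have h3 := h1.1
    refine ⟨P.length + s, (FW_drop loc hg).2 h1, ?_⟩
    have := (FW_drop (n := n) (g := s + 1) (s := e) (P := P) (Q := Q) loc (by omega))
    rw [Nat.add_assoc]
    exact this.2 h2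

theorem ZnAt.uniq {h e e' : ℕ} {u : List α} (a : ZnAt Wo h u e) (b : ZnAt Wo h u e') :
    e = e' := by
  obtain ⟨s, a1, a2⟩ := a
  obtain ⟨s', b1, b2⟩ := b
  have := a1.uniq b1
  subst this
  exact a2.uniq b2

/-- the zones -/
def Zn (Wo : List α → Prop) (h : ℕ) (z : List α) : Prop := ZnAt Wo h z z.length

theorem Zn_code {h : ℕ} {z z' x x' : List α} (a : Zn Wo h z) (b : Zn Wo h z')
    (e : z ++ x = z' ++ x') : z = z' := by
  have h1 : ZnAt Wo h (z ++ x) z.length := (ZnAt_append le_rfl).2 a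
  have h2 : ZnAt Wo h (z ++ x) z'.length := by
    rw [e]; exact (ZnAt_append le_rfl).2 b
  exact (List.append_inj e (h1.uniq h2)).1

end Crest.Agent.R320.Geo_678
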