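import Crest.Agent.R320.Main_621
import Crest.Agent.R320.ExactR_237

/-!
# Row 320: geometry of the two schemes over left-looking walls (helper890)

Zones = up to the wall after the first wall `≥ z`, `z = z0 + N1 + p0`.
-/

set_option autoImplicit false

namespace Crest.Agent.R320.Geo_890

open Crest.Agent.R320.Star_621 Crest.Agent.R320.Two_621

variable {α : Type}

/-- left-looking walls -/
structure Walls (α : Type) where
  Wa : List α → ℕ → Prop
  n : ℕ
  W : ℕ
  len : ∀ w t, Wa w t → t ≤ w.length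
  pre : ∀ w x t, t ≤ w.length → (Wa (w ++ x) t ↔ Wa w t)
  suf : ∀ p w t, n ≤ t → (Wa (p ++ w) (p.length + t) ↔ Wa w t)
  gap : ∀ w s t, s < t → Wa w s → Wa w t → s + W ≤ t

section geo

variable (D : Walls α)

/-- first wall `≥ z` -/
def Fst (z : ℕ) (w : List α) (t : ℕ) : Prop :=
  z ≤ t ∧ D.Wa w t ∧ ∀ s, z ≤ s → s < t → ¬ D.Wa w s

variable {D}

theorem Fst.uniq {z : ℕ} {w : List α} {s t : ℕ} (h1 : Fst D z w s) (h2 : Fst D z w t) :
    s = t := by
  rcases Nat.lt_trichotomy s t with h | h | h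
  · exact absurd h1.2.1 (h2.2.2 s h1.1 h)
  · exact h
  · exact absurd h2.2.1 (h1.2.2 t h2.1 h)

theorem Fst.pre {z : ℕ} {w x : List α} {t : ℕ} (ht : t ≤ w.length) :
    Fst D z (w ++ x) t ↔ Fst D z w t := by
  unfold Fst
  rw [D.pre w x t ht]
  refine and_congr_right fun _ => and_congr_right fun _ => ?_
  constructor
  · intro h s h1 h2 h3
    exact h s h1 h2 ((D.pre w x s (by omega)).2 h3)
  · intro h s h1 h2 h3
    exact h s h1 h2 ((D.pre w x s (by omega)).1 h3)

theorem Fst.suf {z z' : ℕ} {p w : List α} {t : ℕ} (hz : z = p.length + z') (hn : D.n ≤ z') :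
    Fst D z (p ++ w) (p.length + t) ↔ Fst D z' w t := by
  subst hz
  unfold Fst
  constructor
  · rintro ⟨h1, h2, h3⟩
    refine ⟨by omega, (D.suf p w t (by omega)).1 h2, fun s h4 h5 h6 => ?_⟩
    exact h3 (p.length + s) (by omega) (by omega) ((D.suf p w s (by omega)).2 h6)
  · rintro ⟨h1, h2, h3⟩
    refine ⟨by omega, (D.suf p w t (by omega)).2 h2, fun s h4 h5 h6 => ?_⟩
    obtain ⟨s', rfl⟩ : ∃ s', s = p.length + s' := ⟨s - p.length, by omega⟩
    exact h3 s' (by omega) (by omega) ((D.suf p w s' (by omega)).1 h6)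

/-- block with first wall `t` -/
def Blk (D : Walls α) (z : ℕ) (w : List α) (t : ℕ) : Prop :=
  Fst D z w t ∧ t < w.length ∧ Fst D (t + 1) w w.length

theorem Blk.eq {z : ℕ} {X X' x x' : List α} {t t' : ℕ} (h : Blk D z X t) (h' : Blk D z X' t')
    (e : X ++ x = X' ++ x') : X = X' ∧ t = t' := by
  obtain ⟨a1, a2, a3⟩ := h
  obtain ⟨b1, b2, b3⟩ := h'
  have e1 : t = t' := by
    have h1 := (Fst.pre (x := x) a2.le).2 a1
    have h2 := (Fst.pre (x := x') b2.le).2 b1
    rw [e] at h1
    exact h1.uniq h2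
  subst e1
  have e2 : X.length = X'.length := by
    have h1 := (Fst.pre (x := x) le_rfl).2 a3
    have h2 := (Fst.pre (x := x') le_rfl).2 b3
    rw [e] at h1
    exact h1.uniq h2
  exact ⟨(List.append_inj e e2).1, rfl⟩

theorem Blk.code (D : Walls α) (z : ℕ) : Code ({X | ∃ t, Blk D z X t} : Language α) := by
  constructor
  · rintro ⟨t, -, h, -⟩
    simp at h
  · rintro X X' x x' ⟨t, h⟩ ⟨t', h'⟩ e
    exact (h.eq h' e).1

end geo

/-! ### scheme A -/

section A

variable {S : Type} [Monoid S]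
variable (D : Walls α) (z0 N1 p0 : ℕ) (ph : List α → S)
variable (lam rho : List α → Option (Tok S)) (nu : List α → Tok S) (BadT : ℕ → Prop)

def ZZ : Language α := {X | ∃ t, Blk D (z0 + N1 + p0) X t}

/-- bad block -/
def BadX (X : List α) (t : ℕ) : Prop :=
  (∃ s, z0 + p0 ≤ s ∧ s < z0 + p0 + 2 * N1 ∧ D.Wa X s) ∨ BadT (t - p0)

def ZC : Language α := {X | ∃ t, Blk D (z0 + N1 + p0) X t ∧ BadX D z0 N1 p0 BadT X t}

def LA (v : Tok S) : Language α :=
  {P | p0 ≤ P.length ∧ lam (P.drop p0) = some (act v (ph (P.take p0)))}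

def RA (b : Tok S) : Language α :=
  {Q | ∃ t b', Fst D z0 Q t ∧ z0 + N1 ≤ t ∧ t < Q.length ∧ Fst D (t + 1) Q Q.length ∧
    rho (Q.take t) = some b' ∧ b = act b' (ph (Q.drop t))}

open Classical in
/-- noise of the outer scheme, read on the zone without its first `p0` letters -/
noncomputable def dR (R : List α) : Tok S :=
  if h : ∃ t, Fst D (z0 + N1) R t then act (nu (R.take h.choose)) (ph (R.drop h.choose)) else 0

noncomputable def dA (X : List α) : Tok S := dR D z0 N1 ph nu (X.drop p0)

variable {D z0 N1 p0 ph lam rho nu BadT}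

theorem dR_eq {R : List α} {t : ℕ} (h : Fst D (z0 + N1) R t) :
    dR D z0 N1 ph nu R = act (nu (R.take t)) (ph (R.drop t)) := by
  classical
  have hex : ∃ t, Fst D (z0 + N1) R t := ⟨t, h⟩
  unfold dR
  rw [dif_pos hex, hex.choose_spec.uniq h]

theorem soundA (hn : D.n ≤ z0) (hp0 : 0 < p0) (happ : ∀ u v, ph (u ++ v) = ph u * ph v)
    (hlen : ∀ P v, lam P = some v → P.length ≤ N1)
    (hs : ∀ P Q v b, lam P = some v → rho Q = some b → b = act v (ph (P ++ Q)) + nu (P ++ Q)) :
    Sound (ZZ D z0 N1 p0) (aff ph (dA D z0 N1 p0 ph nu)) (LA p0 ph lam) (RA D z0 N1 ph rho) := by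
  refine ⟨fun v h => ?_, ?_⟩
  · have : p0 ≤ ([] : List α).length := h.1
    simp at this; omega
  · rintro v τ P Q X x y ⟨hP1, hP2⟩ ⟨t, b', hF, ht, htQ, hN, hb', hτ⟩ ⟨tX, hX⟩ e
    have hPl : P.length ≤ p0 + N1 := by
      have := hlen _ _ hP2
      rw [List.length_drop] at this
      omega
    have hB : Blk D (z0 + N1 + p0) (P ++ Q) (P.length + t) := by
      refine ⟨⟨by omega, (D.suf P Q t (by have := hF.1; omega)).2 hF.2.1, ?_⟩, by
        rw [List.length_append]; omega, ?_⟩
      · intro s h1 h2 h3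
        obtain ⟨s', rfl⟩ : ∃ s', s = P.length + s' := ⟨s - P.length, by omega⟩
        exact hF.2.2 s' (by omega) (by omega) ((D.suf P Q s' (by omega)).1 h3)
      · rw [List.length_append]
        exact (Fst.suf (by omega) (by have := hF.1; omega)).2 hN
    obtain ⟨e1, e2⟩ := hB.eq hX e
    refine ⟨e1, ?_⟩
    have hR : X.drop p0 = P.drop p0 ++ Q := by
      rw [← e1, List.drop_append_of_le_length hP1]
    have hFR : Fst D (z0 + N1) (P.drop p0 ++ Q) ((P.drop p0).length + t) := by
      have h1 : Fst D (z0 + N1 + p0) (P.take p0 ++ (P.drop p0 ++ Q))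
          ((P.take p0).length + ((P.drop p0).length + t)) := by
        rw [← List.append_assoc, List.take_append_drop]
        have : (P.take p0).length + ((P.drop p0).length + t) = P.length + t := by
          rw [List.length_take, List.length_drop]; omega
        rw [this]
        exact hB.1
      refine (Fst.suf ?_ ?_).1 h1
      · rw [List.length_take]; omega
      · omega
    have e3 : dA D z0 N1 p0 ph nu X = act (nu (P.drop p0 ++ Q.take t)) (ph (Q.drop t)) := by
      unfold dA
      rw [hR, dR_eq hFR, List.take_length_add_append, List.drop_length_add_append]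
    have e4 := hs _ _ _ _ hP2 hb'
    show τ = act v (ph X) + dA D z0 N1 p0 ph nu X
    rw [e3, hτ, e4, act_add, act_mul, act_mul, ← happ, ← happ, ← e1]
    congr 3
    rw [← List.append_assoc, ← List.append_assoc, List.take_append_drop, List.append_assoc,
      List.take_append_drop]

theorem compA (hn : D.n ≤ z0) (hT : ∀ R : List α, z0 ≤ R.length → ¬ BadT R.length → ∀ v,
      ∃ P Q, R = P ++ Q ∧ lam P = some v ∧ ∃ b, rho Q = some b)
    (hlen : ∀ P v, lam P = some v → P.length ≤ N1)
    (X : List α) (hX : X ∈ ZZ D z0 N1 p0) (hC : X ∉ ZC D z0 N1 p0 BadT) (v : Tok S) :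
    Cut (LA p0 ph lam) (RA D z0 N1 ph rho) v X := by
  obtain ⟨t, hB⟩ := hX
  have hbad : ¬ BadX D z0 N1 p0 BadT X t := fun h => hC ⟨t, hB, h⟩
  have hE : ∀ s, z0 + p0 ≤ s → s < z0 + p0 + 2 * N1 → ¬ D.Wa X s :=
    fun s h1 h2 h3 => hbad (Or.inl ⟨s, h1, h2, h3⟩)
  have hTt : ¬ BadT (t - p0) := fun h => hbad (Or.inr h)
  obtain ⟨hF, htX, hN⟩ := hB
  have ht1 := hF.1
  have hRl : ((X.drop p0).take (t - p0)).length = t - p0 := by
    rw [List.length_take, List.length_drop]; omega
  obtain ⟨P, Q, e, hP, b, hQ⟩ := hT ((X.drop p0).take (t - p0)) (by rw [hRl]; omega)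
    (by rw [hRl]; exact hTt) (act v (ph (X.take p0)))
  have hPl := hlen _ _ hP
  have hPQ : P.length + Q.length = t - p0 := by
    rw [← hRl, e, List.length_append]
  have hXe : X = (X.take p0 ++ P) ++ (Q ++ X.drop t) := by
    have h1 : X.drop t = (X.drop p0).drop (t - p0) := by
      rw [List.drop_drop]; congr 1; omega
    rw [h1, List.append_assoc, ← List.append_assoc P, ← e, List.take_append_drop,
      List.take_append_drop]
  have hl1 : (X.take p0 ++ P).length = p0 + P.length := by
    rw [List.length_append, List.length_take]; omega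
  have htw : D.Wa X t := hF.2.1
  have htE : z0 + p0 + 2 * N1 ≤ t := by
    by_contra hh
    exact hE t (by omega) (by omega) htw
  have hWaQ : ∀ s, D.n ≤ s → (D.Wa X (p0 + P.length + s) ↔ D.Wa (Q ++ X.drop t) s) := by
    intro s hs
    have := D.suf (X.take p0 ++ P) (Q ++ X.drop t) s hs
    rw [← hXe, hl1] at this
    exact this
  refine ⟨X.take p0 ++ P, Q ++ X.drop t, act b (ph (X.drop t)), hXe, ⟨?_, ?_⟩, ?_⟩
  · rw [hl1]; omega
  · have h0 : (X.take p0).length = p0 := by rw [List.length_take]; omega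
    have e5 : (X.take p0 ++ P).drop p0 = P := by
      have := List.drop_left (l₁ := X.take p0) (l₂ := P)
      rwa [h0] at this
    have e6 : (X.take p0 ++ P).take p0 = X.take p0 := by
      have := List.take_left (l₁ := X.take p0) (l₂ := P)
      rwa [h0] at this
    rw [e5, e6]; exact hP
  · have hlenQ : (Q ++ X.drop t).length = X.length - p0 - P.length := by
      rw [List.length_append, List.length_drop]; omega
    refine ⟨Q.length, b, ⟨by omega, ?_, ?_⟩, by omega, by omega, ⟨by omega, ?_, ?_⟩, ?_, ?_⟩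
    · refine (hWaQ _ (by omega)).1 ?_
      have : p0 + P.length + Q.length = t := by omega
      rw [this]; exact htw
    · intro s h1 h2 h3
      have h4 := (hWaQ s (by omega)).2 h3
      by_cases h5 : p0 + P.length + s < z0 + N1 + p0
      · exact hE _ (by omega) (by omega) h4
      · exact hF.2.2 _ (by omega) (by omega) h4
    · refine (hWaQ _ (by omega)).1 ?_
      have : p0 + P.length + (Q ++ X.drop t).length = X.length := by omega
      rw [this]; exact hN.2.1
    · intro s h1 h2 h3
      exact hN.2.2 (p0 + P.length + s) (by omega) (by omega) ((hWaQ s (by omega)).2 h3)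
    · rw [List.take_left]; exact hQ
    · rw [List.drop_left]

end A

end Crest.Agent.R320.Geo_890
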