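import Crest.Agent.R320.Star_903

/-!
Row 320, HALF 1 glue (helper131): one lazily re-anchoring finite automaton, two cut levels
(118's one-token-system form, 570's lazy re-anchoring, 903's nested star theorem).
-/

set_option autoImplicit false

namespace Crest.Agent.R320.Glue131

open Crest.RegLang Crest.Agent.R320.Hgt1_903 Crest.Agent.R320.Star_903

variable {α V : Type*}

/-- chain data on buffers of length `Bm`. -/
structure Dat (α V : Type*) where
  Bm : ℕ
  hBm : 0 < Bm
  N : List α → ℕ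
  hN : ∀ y, 0 < N y ∧ N y ≤ Bm
  zm : List α → V → V

/-- states : text since the anchor, token. -/
def St (D : Dat α V) : Type _ := {p : List α × V // p.1.length < D.Bm}

instance (D : Dat α V) [Finite α] [Finite V] : Finite (St D) := by
  have h1 : Finite {l : List α // l.length < D.Bm} := (List.finite_length_lt α D.Bm).to_subtype
  exact Finite.of_injective (β := {l : List α // l.length < D.Bm} × V)
    (fun p => (⟨p.1.1, p.2⟩, p.1.2)) (by
      rintro ⟨⟨a, b⟩, h⟩ ⟨⟨c, d⟩, h'⟩ e
      simp only [Prod.mk.injEq, Subtype.mk.injEq] at e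
      obtain ⟨rfl, rfl⟩ := e
      rfl)

/-- one letter. -/
def stp (D : Dat α V) (θ : St D) (c : α) : St D :=
  if h : (θ.1.1 ++ [c]).length < D.Bm then ⟨(θ.1.1 ++ [c], θ.1.2), h⟩
  else ⟨((θ.1.1 ++ [c]).drop (D.N (θ.1.1 ++ [c])), D.zm (θ.1.1 ++ [c]) θ.1.2), by
    have h1 := θ.2
    have h2 := (D.hN (θ.1.1 ++ [c])).1
    simp only [List.length_append, List.length_cons, List.length_nil, List.length_drop] at *
    omega⟩

/-- the start state of a token at an anchor. -/
def ini (D : Dat α V) (v : V) : St D := ⟨([], v), by simpa using D.hBm⟩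

theorem run_small (D : Dat α V) (s : List α) : ∀ (t : List α) (v : V) (ht : t.length < D.Bm)
    (h : (t ++ s).length < D.Bm),
    run (stp D) ⟨(t, v), ht⟩ s = ⟨(t ++ s, v), h⟩ := by
  induction s with
  | nil => intro t v ht h; simp [run]
  | cons c s ih =>
    intro t v ht h
    have h1 : (t ++ [c]).length < D.Bm := by
      simp only [List.length_append, List.length_cons, List.length_nil] at *; omega
    have h2 : stp D ⟨(t, v), ht⟩ c = ⟨(t ++ [c], v), h1⟩ := by
      unfold stp; exact dif_pos h1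
    have h3 : ((t ++ [c]) ++ s).length < D.Bm := by simpa using h
    have := ih (t ++ [c]) v h1 h3
    show run (stp D) (stp D ⟨(t, v), ht⟩ c) s = _
    rw [h2, this]
    apply Subtype.ext; simp

theorem run_ini_small (D : Dat α V) (s : List α) (v : V) (h : s.length < D.Bm) :
    run (stp D) (ini D v) s = ⟨(s, v), h⟩ := by
  have := run_small D s [] v (by simpa using D.hBm) (by simpa using h)
  unfold ini; rw [this]; apply Subtype.ext; simp

/-- the state is reached from its anchor. -/
theorem run_state (D : Dat α V) (θ : St D) (s : List α) :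
    run (stp D) θ s = run (stp D) (ini D θ.1.2) (θ.1.1 ++ s) := by
  rw [run_append, run_ini_small D θ.1.1 θ.1.2 θ.2]
  rfl

theorem run_full (D : Dat α V) (t : List α) (v : V) (ht : t.length = D.Bm) :
    run (stp D) (ini D v) t = run (stp D) (ini D (D.zm t v)) (t.drop (D.N t)) := by
  rcases List.eq_nil_or_concat t with rfl | ⟨u, c, rfl⟩
  · simp at ht; have := D.hBm; omega
  rw [List.concat_eq_append] at *
  have hu : u.length < D.Bm := by
    simp only [List.length_append, List.length_cons, List.length_nil] at ht; omega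
  have h1 : ¬ (u ++ [c]).length < D.Bm := by omega
  have hd : ((u ++ [c]).drop (D.N (u ++ [c]))).length < D.Bm := by
    have := (D.hN (u ++ [c])).1
    have := D.hBm
    rw [List.length_drop]; omega
  rw [run_append, run_ini_small D u v hu]
  rw [run_ini_small D _ _ hd]
  show stp D ⟨(u, v), hu⟩ c = _
  unfold stp
  rw [dif_neg h1]

theorem run_unfold (D : Dat α V) (t : List α) (v : V) (ht : D.Bm ≤ t.length) :
    run (stp D) (ini D v) t
      = run (stp D) (ini D (D.zm (t.take D.Bm) v)) (t.drop (D.N (t.take D.Bm))) := by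
  have hl : (t.take D.Bm).length = D.Bm := by rw [List.length_take]; omega
  have hN := (D.hN (t.take D.Bm)).2
  have e : t.drop (D.N (t.take D.Bm)) = (t.take D.Bm).drop (D.N (t.take D.Bm)) ++ t.drop D.Bm := by
    have h0 : ∀ k, k ≤ (t.take D.Bm).length →
        t.drop k = (t.take D.Bm).drop k ++ t.drop D.Bm := by
      intro k hk
      have h1 : t.drop k = ((t.take D.Bm) ++ t.drop D.Bm).drop k := by
        rw [List.take_append_drop]
      rw [h1, List.drop_append_of_le_length hk]
    exact h0 _ (by omega)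
  have h2 : run (stp D) (ini D v) t
      = run (stp D) (run (stp D) (ini D v) (t.take D.Bm)) (t.drop D.Bm) := by
    rw [← run_append, List.take_append_drop]
  rw [h2, run_full D _ v hl, ← run_append, ← e]

/-- a cut of a thread, read on the text `t` from the anchor. -/
theorem cutAt_of (D : Dat α V) (L : List α → V → Prop) (R : List α → Option (ℕ × V)) (Dl : ℕ)
    (θ : St D) (s : List α) (x : ℕ) (hx1 : θ.1.1.length ≤ x) (hx2 : x < D.Bm)
    (hlen : x + Dl ≤ (θ.1.1 ++ s).length)
    (hL : L ((θ.1.1 ++ s).take x) θ.1.2)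
    (ρ : List α → Option (St D))
    (hρ : (R (((θ.1.1 ++ s).drop x).take Dl)).isSome → (ρ (((θ.1.1 ++ s).drop x).take Dl)).isSome)
    (hR : (R (((θ.1.1 ++ s).drop x).take Dl)).isSome) :
    ¬ Uncut (stp D) (fun η => L η.1.1 η.1.2) Dl ρ θ s := by
  intro hu
  set u := θ.1.1 with hu'
  have e1 : (u ++ s).take x = u ++ s.take (x - u.length) := by
    rw [List.take_append]
    rw [List.take_of_length_le hx1]
  have e2 : (u ++ s).drop x = s.drop (x - u.length) := by
    rw [List.drop_append]
    rw [List.drop_of_length_le hx1, List.nil_append]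
  refine hu (s.take (x - u.length)) ((s.drop (x - u.length)).take Dl)
    ((s.drop (x - u.length)).drop Dl) ?_ ⟨?_, ?_, ?_⟩
  · rw [List.append_assoc, List.take_append_drop, List.take_append_drop]
  · rw [List.length_take, List.length_drop]
    simp only [List.length_append] at hlen
    omega
  · have hl : (u ++ s.take (x - u.length)).length < D.Bm := by
      rw [← e1, List.length_take]; omega
    have := run_small D (s.take (x - u.length)) u θ.1.2 θ.2 hl
    show L _ _
    have e3 : θ = ⟨(u, θ.1.2), θ.2⟩ := by apply Subtype.ext; rfl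
    rw [e3, this]
    show L (u ++ s.take (x - u.length)) θ.1.2
    rw [← e1]; exact hL
  · rw [← e2]; exact hρ hR

/-- **TWO LEVELS.** -/
theorem two [Finite α] [Finite V] (D : Dat α V) (Cl : List α → Prop)
    (hCl : ∀ x y z, Cl (x ++ y ++ z) → Cl y)
    (p0 q0 D₁ D₂ : ℕ) (hqp : q0 ≤ p0) (hp : p0 < D.Bm) (hD₁ : D.Bm ≤ D₁) (hD₂ : D.Bm + D₁ ≤ D₂)
    (hq : ∀ y, y.length = D.Bm → Cl y → D.Bm - D.N y ≤ q0)
    (Bad : List α → Prop) (L₁ L₂ : List α → V → Prop) (R₁ R₂ : List α → Option (ℕ × V))
    (SC1 : ∀ u v r d b, Cl (u ++ r) → u.length < D.Bm → r.length = D₁ → L₁ u v →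
      R₁ r = some (d, b) → D.N ((u ++ r).take D.Bm) = u.length + d ∧
        D.zm ((u ++ r).take D.Bm) v = b)
    (SC2 : ∀ u v r d b, Cl (u ++ r) → u.length ≤ p0 → r.length = D₂ → L₂ u v →
      Bad ((u ++ r).take D.Bm) →
      R₂ r = some (d, b) → D.N ((u ++ r).take D.Bm) = u.length + d ∧
        D.zm ((u ++ r).take D.Bm) v = b)
    (L2 : ∀ u v, L₂ u v → u.length ≤ p0)
    (CP1 : ∀ t v, Cl t → D.Bm + D₁ ≤ t.length → ¬ Bad (t.take D.Bm) →
      ∃ x, p0 ≤ x ∧ x < D.Bm ∧ L₁ (t.take x) v ∧ (R₁ ((t.drop x).take D₁)).isSome)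
    (CP2 : ∀ t v, Cl t → D.Bm + D₂ ≤ t.length → Bad (t.take D.Bm) →
      ∃ x, q0 ≤ x ∧ x ≤ p0 ∧ L₂ (t.take x) v ∧ (R₂ ((t.drop x).take D₂)).isSome) :
    RC 2 (stp D) (fun θ w => Cl (θ.1.1 ++ w)) := by
  classical
  -- right readings
  let ρ : (List α → Option (ℕ × V)) → List α → Option (St D) := fun R r =>
    (R r).map (fun p => run (stp D) (ini D p.2) (r.drop p.1))
  have hρ : ∀ R r, (R r).isSome → (ρ R r).isSome := by
    intro R r h; simp only [ρ, Option.isSome_map]; exact h
  -- the class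
  have hCs : ∀ (x y : List α), Cl (x ++ y) → Cl y := fun x y h => hCl x y [] (by simpa using h)
  have hCp : ∀ (x y : List α), Cl (x ++ y) → Cl x := fun x y h => hCl [] x y (by simpa using h)
  -- buffer is a suffix
  have hbuf : ∀ (n : ℕ) (w : List α) (θ : St D), w.length = n →
      ∃ x, θ.1.1 ++ w = x ++ (run (stp D) θ w).1.1 := by
    intro n
    induction n with
    | zero =>
      intro w θ hw
      obtain rfl := List.length_eq_zero_iff.1 hw
      exact ⟨[], by simp⟩
    | succ n ih =>
      intro w θ hw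
      rcases List.eq_nil_or_concat w with rfl | ⟨w', c, rfl⟩
      · simp at hw
      rw [List.concat_eq_append] at *
      obtain ⟨x, hx⟩ := ih w' θ (by simpa using hw)
      rw [run_append]
      set η := run (stp D) θ w' with hη
      show ∃ x, θ.1.1 ++ (w' ++ [c]) = x ++ (stp D η c).1.1
      unfold stp
      split_ifs with h
      · exact ⟨x, by rw [← List.append_assoc, hx, List.append_assoc]⟩
      · refine ⟨x ++ (η.1.1 ++ [c]).take (D.N (η.1.1 ++ [c])), ?_⟩
        show _ = _ ++ (η.1.1 ++ [c]).drop _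
        rw [List.append_assoc, List.take_append_drop, ← List.append_assoc, hx, List.append_assoc]
  have hsufC : ∀ (θ : St D) (u v : List α), Cl (θ.1.1 ++ (u ++ v)) →
      Cl ((run (stp D) θ u).1.1 ++ v) := by
    intro θ u v h
    obtain ⟨x, hx⟩ := hbuf _ u θ rfl
    rw [← List.append_assoc, hx, List.append_assoc] at h
    exact hCs _ _ h
  have hpreC : ∀ (θ : St D) (u v : List α), Cl (θ.1.1 ++ (u ++ v)) → Cl (θ.1.1 ++ u) := by
    intro θ u v h
    rw [← List.append_assoc] at h
    exact hCp _ _ h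
  -- uncut is suffix closed
  have hunsuf : ∀ (CutL : St D → Prop) (Dl : ℕ) (r : List α → Option (St D)) (θ : St D)
      (u v : List α), Uncut (stp D) CutL Dl r θ (u ++ v) →
      Uncut (stp D) CutL Dl r (run (stp D) θ u) v := by
    intro CutL Dl r θ u v h p q s e hc
    refine h (u ++ p) q s (by rw [← e]; simp [List.append_assoc]) ?_
    unfold CutAt at hc ⊢
    rw [run_append]; exact hc
  let CL₁ : St D → Prop := fun η => L₁ η.1.1 η.1.2
  let CL₂ : St D → Prop := fun η => L₂ η.1.1 η.1.2
  -- general soundness computation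
  have hsound : ∀ (θ : St D) (r : List α) (d : ℕ) (b : V), D.Bm ≤ (θ.1.1 ++ r).length →
      D.N ((θ.1.1 ++ r).take D.Bm) = θ.1.1.length + d →
      D.zm ((θ.1.1 ++ r).take D.Bm) θ.1.2 = b →
      run (stp D) θ r = run (stp D) (ini D b) (r.drop d) := by
    intro θ r d b hl h1 h2
    rw [run_state D θ r, run_unfold D _ _ hl, h1, h2]
    congr 1
    rw [List.drop_append]
    simp
  refine nested (n := 1) (stp D) (fun θ w => Cl (θ.1.1 ++ w)) hpreC hsufC CL₁ D₁
    (by have := D.hBm; omega) (ρ R₁) ?_ ?_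
  · intro θ r θ' hc hL hr he
    simp only [ρ, Option.map_eq_some_iff] at he
    obtain ⟨⟨d, b⟩, h1, rfl⟩ := he
    obtain ⟨h2, h3⟩ := SC1 θ.1.1 θ.1.2 r d b hc θ.2 hr hL h1
    exact hsound θ r d b (by rw [List.length_append]; omega) h2 h3
  refine nested (n := 0) (stp D) _ ?_ ?_ CL₂ D₂
    (by have := D.hBm; omega) (ρ R₂) ?_ ?_
  · rintro θ u v ⟨h1, h2⟩
    exact ⟨hpreC θ u v h1, h2.prefix⟩
  · rintro θ u v ⟨h1, h2⟩
    exact ⟨hsufC θ u v h1, hunsuf _ _ _ _ _ _ h2⟩
  · rintro θ r θ' ⟨hc, hu⟩ hL hr he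
    simp only [ρ, Option.map_eq_some_iff] at he
    obtain ⟨⟨d, b⟩, h1, rfl⟩ := he
    have hle : θ.1.1.length ≤ p0 := L2 _ _ hL
    have hbad : Bad ((θ.1.1 ++ r).take D.Bm) := by
      by_contra hb
      obtain ⟨x, hx1, hx2, hx3, hx4⟩ := CP1 (θ.1.1 ++ r) θ.1.2 hc
        (by rw [List.length_append]; omega) hb
      exact cutAt_of D L₁ R₁ D₁ θ r x (by omega) hx2 (by rw [List.length_append]; omega) hx3
        (ρ R₁) (hρ R₁ _) hx4 hu
    obtain ⟨h2, h3⟩ := SC2 θ.1.1 θ.1.2 r d b hc hle hr hL hbad h1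
    exact hsound θ r d b (by rw [List.length_append]; omega) h2 h3
  · refine RC.bounded 0 (2 * D.Bm + D₂) ?_
    rintro θ w ⟨⟨hc, hu1⟩, hu2⟩
    by_contra hw
    push Not at hw
    have hθ := θ.2
    -- the next anchor
    set w1 := w.take (D.Bm - θ.1.1.length) with hw1
    set w2 := w.drop (D.Bm - θ.1.1.length) with hw2
    have hww : w1 ++ w2 = w := List.take_append_drop _ _
    have hl1 : w1.length = D.Bm - θ.1.1.length := by rw [hw1, List.length_take]; omega
    have hlb : (θ.1.1 ++ w1).length = D.Bm := by rw [List.length_append]; omega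
    set y := θ.1.1 ++ w1 with hy
    have hCy : Cl y := by
      have : Cl (θ.1.1 ++ (w1 ++ w2)) := by rw [hww]; exact hc
      exact hpreC θ w1 w2 this
    set η := run (stp D) θ w1 with hη
    have hηe : η = run (stp D) (ini D (D.zm y θ.1.2)) (y.drop (D.N y)) := by
      rw [hη, run_state, ← hy, run_full D y _ hlb]
    have hdl : (y.drop (D.N y)).length < D.Bm := by
      have := (D.hN y).1
      have := D.hBm
      rw [List.length_drop]; omega
    have hη1 : η.1.1 = y.drop (D.N y) := by
      rw [hηe, run_ini_small D _ _ hdl]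
    have hηl : η.1.1.length ≤ q0 := by
      rw [hη1, List.length_drop, hlb]; exact hq y hlb hCy
    have hCη : Cl (η.1.1 ++ w2) := by
      have : Cl (θ.1.1 ++ (w1 ++ w2)) := by rw [hww]; exact hc
      exact hsufC θ w1 w2 this
    have hu1' : Uncut (stp D) CL₁ D₁ (ρ R₁) η w2 := by
      apply hunsuf; rw [hww]; exact hu1
    have hu2' : Uncut (stp D) CL₂ D₂ (ρ R₂) η w2 := by
      apply hunsuf; rw [hww]; exact hu2
    have hlen2 : D.Bm + D₂ ≤ (η.1.1 ++ w2).length := by
      rw [List.length_append, hw2, List.length_drop]; omega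
    by_cases hb : Bad ((η.1.1 ++ w2).take D.Bm)
    · obtain ⟨x, hx1, hx2, hx3, hx4⟩ := CP2 _ η.1.2 hCη hlen2 hb
      exact cutAt_of D L₂ R₂ D₂ η w2 x (by omega) (by omega) (by omega) hx3
        (ρ R₂) (hρ R₂ _) hx4 hu2'
    · obtain ⟨x, hx1, hx2, hx3, hx4⟩ := CP1 _ η.1.2 hCη (by omega) hb
      exact cutAt_of D L₁ R₁ D₁ η w2 x (by omega) hx2 (by omega) hx3
        (ρ R₁) (hρ R₁ _) hx4 hu1'

end Crest.Agent.R320.Glue131
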