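import Mathlib

/-!
# Row 320: concrete chain form of the thread calculus (helper609)

Walls of a word are given by a right-looking rule `R` with window `n`: there is a wall at `t` iff
`R (w.drop t)`.  `FirstWall R w y b`: `b` is the first wall at a position `≥ y`.
A scheme has a chain step `z`, a right reading distance `q`, a zone context `m`, partial labels
`lam` (left word from the anchor to the cut), `rho` (right word), and a zone map
`step : zone text → V → V` (the noisy transport of a token across a zone).

Main results:
* `Path.append`, `Path.shift`, `Path.restrict`, `Path.unshift`: the noisy run along the chain;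
* `K_append`: junction words are closed under concatenation (exactness only on the promise `Pr`,
  inside the class `G Pr` of words all of whose chain zones satisfy `Pr`);
* `K_flatten`: words of the class which are products of junction words are junction words;
* `K_split`: a junction word one of whose zones has a legal cut is a product of two junction words.
-/

set_option autoImplicit false

namespace Crest.Agent.R320.Glue_609

variable {α V : Type*}

/-- `b` is the first wall at a position `≥ y` -/
def FirstWall (R : List α → Prop) (w : List α) (y b : ℕ) : Prop :=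
  y ≤ b ∧ R (w.drop b) ∧ ∀ t, y ≤ t → t < b → ¬ R (w.drop t)

structure Scheme (α V : Type*) where
  n : ℕ
  R : List α → Prop
  z : ℕ
  q : ℕ
  m : ℕ
  lam : List α → Option V
  rho : List α → Option V
  step : List α → V → V
  n_pos : 0 < n
  R_len : ∀ Q, R Q → n ≤ Q.length
  R_take : ∀ Q, R Q ↔ R (Q.take n)
  n_le : n ≤ m
  lam_len : ∀ P v, lam P = some v → m ≤ P.length
  rho_loc : ∀ Q Q' b0, FirstWall R Q q b0 → b0 + m ≤ Q.length → rho (Q ++ Q') = rho Q

namespace Scheme

variable (S : Scheme α V)

theorem R_append {Q : List α} (h : S.n ≤ Q.length) (Q' : List α) : S.R (Q ++ Q') ↔ S.R Q := by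
  rw [S.R_take (Q ++ Q'), S.R_take Q, List.take_append_of_le_length h]

theorem drop_append_le {w w' : List α} {t : ℕ} (h : t ≤ w.length) :
    (w ++ w').drop t = w.drop t ++ w' := List.drop_append_of_le_length h

theorem wall_bound {w : List α} {b : ℕ} (h : S.R (w.drop b)) : b + S.n ≤ w.length := by
  have h1 := S.R_len _ h
  have h2 := S.n_pos
  rw [List.length_drop] at h1
  omega

theorem fw_append {w : List α} {y b : ℕ} (h : FirstWall S.R w y b) (w' : List α) :
    FirstWall S.R (w ++ w') y b := by
  obtain ⟨h1, h2, h3⟩ := h
  have hb := S.wall_bound h2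
  refine ⟨h1, ?_, ?_⟩
  · rw [drop_append_le (by omega), S.R_append (by rw [List.length_drop]; omega)]
    exact h2
  · intro t ht1 ht2
    rw [drop_append_le (by omega), S.R_append (by rw [List.length_drop]; omega)]
    exact h3 t ht1 ht2

theorem fw_restrict {w w' : List α} {y b : ℕ} (h : FirstWall S.R (w ++ w') y b)
    (hb : b + S.n ≤ w.length) : FirstWall S.R w y b := by
  obtain ⟨h1, h2, h3⟩ := h
  refine ⟨h1, ?_, ?_⟩
  · rw [drop_append_le (by omega), S.R_append (by rw [List.length_drop]; omega)] at h2
    exact h2
  · intro t ht1 ht2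
    have := h3 t ht1 ht2
    rw [drop_append_le (by omega), S.R_append (by rw [List.length_drop]; omega)] at this
    exact this

theorem drop_shift (u w : List α) (t : ℕ) : (u ++ w).drop (u.length + t) = w.drop t := by
  rw [← List.drop_drop, List.drop_left]

theorem fw_shift {w : List α} {y b : ℕ} (u : List α) :
    FirstWall S.R (u ++ w) (u.length + y) (u.length + b) ↔ FirstWall S.R w y b := by
  unfold FirstWall
  constructor
  · rintro ⟨h1, h2, h3⟩
    rw [drop_shift] at h2
    refine ⟨by omega, h2, fun t ht1 ht2 => ?_⟩
    have := h3 (u.length + t) (by omega) (by omega)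
    rwa [drop_shift] at this
  · rintro ⟨h1, h2, h3⟩
    refine ⟨by omega, by rw [drop_shift]; exact h2, fun t ht1 ht2 => ?_⟩
    obtain ⟨s, rfl⟩ : ∃ s, t = u.length + s := ⟨t - u.length, by omega⟩
    rw [drop_shift]
    exact h3 s (by omega) (by omega)

theorem fw_unique {w : List α} {y b b' : ℕ} (h : FirstWall S.R w y b)
    (h' : FirstWall S.R w y b') : b = b' := by
  rcases Nat.lt_trichotomy b b' with hlt | heq | hgt
  · exact absurd h.2.1 (h'.2.2 b h.1 hlt)
  · exact heq
  · exact absurd h'.2.1 (h.2.2 b' h'.1 hgt)

theorem fw_exists {w : List α} {y c : ℕ} (h1 : y ≤ c) (h2 : S.R (w.drop c)) :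
    ∃ b, b ≤ c ∧ FirstWall S.R w y b := by
  classical
  have hex : ∃ b, y ≤ b ∧ S.R (w.drop b) := ⟨c, h1, h2⟩
  refine ⟨Nat.find hex, Nat.find_min' hex ⟨h1, h2⟩, (Nat.find_spec hex).1,
    (Nat.find_spec hex).2, fun t ht1 ht2 ht3 => ?_⟩
  exact Nat.find_min hex ht2 ⟨ht1, ht3⟩

/-- a complete zone `[a, b)` of `w`, with its context -/
def Zone (w : List α) (a b : ℕ) : Prop := FirstWall S.R w (a + S.z) b ∧ b + S.m ≤ w.length

/-- the text of a zone, with its context -/
def text (w : List α) (a b : ℕ) : List α := (w.drop a).take (b - a + S.m)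

theorem Zone.le {w : List α} {a b : ℕ} (h : S.Zone w a b) : a ≤ b := by
  have := h.1.1; omega

theorem text_append {w : List α} {a b : ℕ} (hab : a ≤ b) (hb : b + S.m ≤ w.length)
    (w' : List α) : S.text (w ++ w') a b = S.text w a b := by
  unfold text
  rw [drop_append_le (by omega), List.take_append_of_le_length]
  rw [List.length_drop]; omega

theorem text_shift (u w : List α) (a b : ℕ) :
    S.text (u ++ w) (u.length + a) (u.length + b) = S.text w a b := by
  unfold text
  rw [drop_shift]
  congr 1
  omega

theorem Zone.append {w : List α} {a b : ℕ} (h : S.Zone w a b) (w' : List α) :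
    S.Zone (w ++ w') a b :=
  ⟨S.fw_append h.1 w', by rw [List.length_append]; have := h.2; omega⟩

theorem Zone.restrict {w w' : List α} {a b : ℕ} (h : S.Zone (w ++ w') a b)
    (hb : b + S.m ≤ w.length) : S.Zone w a b :=
  ⟨S.fw_restrict h.1 (by have := S.n_le; omega), hb⟩

theorem zone_shift {w : List α} {a b : ℕ} (u : List α) :
    S.Zone (u ++ w) (u.length + a) (u.length + b) ↔ S.Zone w a b := by
  unfold Zone
  rw [Nat.add_assoc, S.fw_shift, List.length_append]
  constructor
  · rintro ⟨h1, h2⟩; exact ⟨h1, by omega⟩
  · rintro ⟨h1, h2⟩; exact ⟨h1, by omega⟩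

theorem Zone.unique {w : List α} {a b b' : ℕ} (h : S.Zone w a b) (h' : S.Zone w a b') : b = b' :=
  S.fw_unique h.1 h'.1

/-- the noisy run along the chain -/
inductive Path (w : List α) : ℕ → V → ℕ → V → Prop
  | refl (a : ℕ) (v : V) : Path w a v a v
  | tail {a : ℕ} {v : V} {b : ℕ} {v' : V} (c : ℕ) : Path w a v b v' → S.Zone w b c →
      Path w a v c (S.step (S.text w b c) v')

theorem Path.le {w : List α} {a b : ℕ} {v v' : V} (h : S.Path w a v b v') : a ≤ b := by
  induction h with
  | refl => exact le_rfl
  | tail c _ hz ih => exact ih.trans (Zone.le S hz)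

theorem Path.trans {w : List α} {a b c : ℕ} {v v' v'' : V} (h : S.Path w a v b v')
    (h' : S.Path w b v' c v'') : S.Path w a v c v'' := by
  induction h' with
  | refl => exact h
  | tail c _ hz ih => exact Path.tail c ih hz

theorem Path.single {w : List α} {a b : ℕ} (v : V) (h : S.Zone w a b) :
    S.Path w a v b (S.step (S.text w a b) v) := Path.tail b (Path.refl a v) h

theorem Path.append {w : List α} {a b : ℕ} {v v' : V} (h : S.Path w a v b v') (w' : List α) :
    S.Path (w ++ w') a v b v' := by
  induction h with
  | refl => exact Path.refl _ _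
  | tail c _ hz ih =>
    have := Path.tail c ih (Zone.append S hz w')
    rwa [S.text_append (Zone.le S hz) hz.2 w'] at this

theorem Path.restrict {w w' : List α} {a b : ℕ} {v v' : V} (h : S.Path (w ++ w') a v b v')
    (hb : b + S.m ≤ w.length) : S.Path w a v b v' := by
  induction h with
  | refl => exact Path.refl _ _
  | tail c hp hz ih =>
    have hle := Zone.le S hz
    have hz' := Zone.restrict S hz hb
    have := Path.tail c (ih (by omega)) hz'
    rwa [← S.text_append hle hb w'] at this

theorem Path.shift {w : List α} {a b : ℕ} {v v' : V} (u : List α) (h : S.Path w a v b v') :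
    S.Path (u ++ w) (u.length + a) v (u.length + b) v' := by
  induction h with
  | refl => exact Path.refl _ _
  | tail c _ hz ih =>
    have := Path.tail (u.length + c) ih ((S.zone_shift u).2 hz)
    rwa [S.text_shift] at this

theorem Path.unshift {w u : List α} {a b : ℕ} {v v' : V}
    (h : S.Path (u ++ w) a v b v') (ha : u.length ≤ a) :
    S.Path w (a - u.length) v (b - u.length) v' := by
  induction h with
  | refl => exact Path.refl _ _
  | @tail b v' c hp hz ih =>
    have hab := Path.le S hp
    have hbc := Zone.le S hz
    have h1 := ih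
    have hz' : S.Zone w (b - u.length) (c - u.length) := by
      rw [← S.zone_shift u]
      have e1 : u.length + (b - u.length) = b := by omega
      have e2 : u.length + (c - u.length) = c := by omega
      rw [e1, e2]; exact hz
    have h2 := Path.tail (c - u.length) h1 hz'
    have e : S.text w (b - u.length) (c - u.length) = S.text (u ++ w) b c := by
      rw [← S.text_shift u]
      have e1 : u.length + (b - u.length) = b := by omega
      have e2 : u.length + (c - u.length) = c := by omega
      rw [e1, e2]
    rwa [e] at h2

/-- junction words -/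
def K (u : List α) : Prop :=
  ∃ (e : V) (b0 : ℕ) (a : ℕ) (v : V), S.rho u = some e ∧ FirstWall S.R u S.q b0 ∧
    b0 + S.m ≤ u.length ∧ S.Path u b0 e a v ∧ S.lam (u.drop a) = some v

/-- chain reachability -/
inductive Reach (w : List α) : ℕ → ℕ → Prop
  | refl (a : ℕ) : Reach w a a
  | tail {a b : ℕ} (c : ℕ) : Reach w a b → S.Zone w b c → Reach w a c

theorem Path.reach {w : List α} {a b : ℕ} {v v' : V} (h : S.Path w a v b v') :
    S.Reach w a b := by
  induction h with
  | refl => exact Reach.refl _
  | tail c _ hz ih => exact Reach.tail c ih hz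

theorem Reach.append {w : List α} {a b : ℕ} (h : S.Reach w a b) (w' : List α) :
    S.Reach (w ++ w') a b := by
  induction h with
  | refl => exact Reach.refl _
  | tail c _ hz ih => exact Reach.tail c ih (Zone.append S hz w')

/-- every reachable zone of the chain of `u` satisfies the promise -/
def G (Pr : List α → Prop) (u : List α) : Prop :=
  ∀ b0, FirstWall S.R u S.q b0 → ∀ a b, S.Reach u b0 a → S.Zone u a b → Pr (S.text u a b)

theorem G_prefix {Pr : List α → Prop} {u w : List α} (h : S.G Pr (u ++ w)) : S.G Pr u := by
  intro b0 hb0 a b hr hz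
  have := h b0 (S.fw_append hb0 w) a b (Reach.append S hr w) (Zone.append S hz w)
  rwa [S.text_append (Zone.le S hz) hz.2 w] at this

/-- exactness of the junctions on the promise -/
def Exact (Pr : List α → Prop) : Prop :=
  ∀ (P Q : List α) (v e : V) (b0 c : ℕ), S.lam P = some v → S.rho Q = some e →
    FirstWall S.R Q S.q b0 → b0 + S.m ≤ Q.length → FirstWall S.R (P ++ Q) S.z c →
    Pr (S.text (P ++ Q) 0 c) → c = P.length + b0 ∧ S.step (S.text (P ++ Q) 0 c) v = e

/-- the chain map never jumps over the wall announced by the right side -/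
def Reachable : Prop :=
  ∀ (P Q : List α) (v e : V) (b0 : ℕ), S.lam P = some v → S.rho Q = some e →
    FirstWall S.R Q S.q b0 → b0 + S.m ≤ Q.length → S.z ≤ P.length + b0

theorem K_append {Pr : List α → Prop} (hE : S.Exact Pr) (hR : S.Reachable) {u u' : List α}
    (hu : S.K u) (hu' : S.K u') (hG : S.G Pr (u ++ u')) : S.K (u ++ u') := by
  obtain ⟨e, b0, a, v, h1, h2, h3, h4, h5⟩ := hu
  obtain ⟨e', b0', a', v', h1', h2', h3', h4', h5'⟩ := hu'
  have hm := S.lam_len _ _ h5
  rw [List.length_drop] at hm
  have hn := S.n_le
  have hnp := S.n_pos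
  have haL : a ≤ u.length := by omega
  set P := u.drop a with hP
  have hPlen : P.length = u.length - a := by rw [hP, List.length_drop]
  -- the zone of the junction
  have hz0 := hR P u' v e' b0' h5 h1' h2' h3'
  have hwall : S.R ((P ++ u').drop (P.length + b0')) := by
    rw [drop_shift]; exact h2'.2.1
  obtain ⟨c, hc1, hc2⟩ := S.fw_exists hz0 hwall
  -- transport to the whole word
  have hdrop : (u ++ u').drop a = P ++ u' := drop_append_le haL
  have hcm : c + S.m ≤ (P ++ u').length := by
    rw [List.length_append]; omega
  have hwhole : u ++ u' = u.take a ++ (P ++ u') := by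
    rw [hP, ← List.append_assoc, List.take_append_drop]
  have htl : (u.take a).length = a := by rw [List.length_take]; omega
  have hzone : S.Zone (u ++ u') a (a + c) := by
    rw [hwhole]
    have hz : S.Zone (P ++ u') 0 c := ⟨by rw [Nat.zero_add]; exact hc2, hcm⟩
    have := (S.zone_shift (u.take a)).2 hz
    rw [htl, Nat.add_zero] at this
    exact this
  have htext : S.text (u ++ u') a (a + c) = S.text (P ++ u') 0 c := by
    rw [hwhole]
    have := S.text_shift (u.take a) (P ++ u') 0 c
    rw [htl, Nat.add_zero] at this
    exact this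
  have hpath1 : S.Path (u ++ u') b0 e a v := Path.append S h4 u'
  have hPr : Pr (S.text (P ++ u') 0 c) := by
    rw [← htext]
    exact hG b0 (S.fw_append h2 u') a (a + c) (Path.reach S hpath1) hzone
  obtain ⟨hc, hstep⟩ := hE P u' v e' b0' c h5 h1' h2' h3' hc2 hPr
  have hac : a + c = u.length + b0' := by omega
  have hpath2 : S.Path (u ++ u') b0 e (u.length + b0') e' := by
    have := Path.tail (a + c) hpath1 hzone
    rw [htext, hstep, hac] at this
    exact this
  have hpath3 : S.Path (u ++ u') (u.length + b0') e' (u.length + a') v' := Path.shift S u h4'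
  refine ⟨e, b0, u.length + a', v', ?_, S.fw_append h2 u', ?_, Path.trans S hpath2 hpath3, ?_⟩
  · rw [S.rho_loc u u' b0 h2 h3]; exact h1
  · rw [List.length_append]; omega
  · rw [drop_shift]; exact h5'

theorem K_ne_nil {u : List α} (hu : S.K u) : u ≠ [] := by
  obtain ⟨e, b0, a, v, h1, h2, h3, h4, h5⟩ := hu
  rintro rfl
  have := S.n_le
  have := S.n_pos
  simp at h3
  omega

theorem K_flatten {Pr : List α → Prop} (hE : S.Exact Pr) (hR : S.Reachable) (l : List (List α)) :
    l ≠ [] → (∀ u ∈ l, S.K u) → S.G Pr l.flatten → S.K l.flatten := by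
  induction l using List.reverseRecOn with
  | nil => intro h; exact absurd rfl h
  | append_singleton l u ih =>
    intro _ hl hG
    rw [List.flatten_append, List.flatten_cons, List.flatten_nil, List.append_nil] at hG ⊢
    by_cases hnil : l = []
    · subst hnil
      simpa using hl u (by simp)
    · exact S.K_append hE hR (ih hnil (fun x hx => hl x (by simp [hx])) (S.G_prefix hG))
        (hl u (by simp)) hG

/-- a junction word with a legal cut in one of its zones is a product of two junction words -/
theorem K_split {u : List α} {e : V} {b0 c d a x : ℕ} {vc v : V}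
    (h1 : S.rho u = some e) (h2 : FirstWall S.R u S.q b0)
    (h4 : S.Path u b0 e c vc) (hz : S.Zone u c d)
    (h4' : S.Path u d (S.step (S.text u c d) vc) a v) (h5 : S.lam (u.drop a) = some v)
    (hxu : x ≤ u.length)
    (hlam : S.lam ((u.take x).drop c) = some vc)
    (hrho : S.rho (u.drop x) = some (S.step (S.text u c d) vc)) (hxd : x ≤ d)
    (hfw : FirstWall S.R (u.drop x) S.q (d - x)) :
    S.K (u.take x) ∧ S.K (u.drop x) := by
  have hlen := S.lam_len _ _ hlam
  rw [List.length_drop, List.length_take] at hlen
  have hmin : min x u.length = x := by omega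
  rw [hmin] at hlen
  have hn := S.n_le
  have hnp := S.n_pos
  have hb0c := Path.le S h4
  have hu : u = u.take x ++ u.drop x := (List.take_append_drop x u).symm
  have htl : (u.take x).length = x := by rw [List.length_take]; omega
  constructor
  · refine ⟨e, b0, c, vc, ?_, ?_, by rw [htl]; omega, ?_, hlam⟩
    · have hfw0 : FirstWall S.R (u.take x) S.q b0 := by
        rw [hu] at h2
        exact S.fw_restrict h2 (by rw [htl]; omega)
      have := S.rho_loc (u.take x) (u.drop x) b0 hfw0 (by rw [htl]; omega)
      rw [← hu] at this
      rw [← this]; exact h1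
    · rw [hu] at h2
      exact S.fw_restrict h2 (by rw [htl]; omega)
    · rw [hu] at h4
      exact Path.restrict S h4 (by rw [htl]; omega)
  · have had := Path.le S h4'
    refine ⟨_, d - x, a - x, v, hrho, hfw, ?_, ?_, ?_⟩
    · rw [List.length_drop]
      have := hz.2
      omega
    · have h4'' : S.Path (u.take x ++ u.drop x) d (S.step (S.text u c d) vc) a v := by
        rw [← hu]; exact h4'
      have := Path.unshift S h4'' (by rw [htl]; exact hxd)
      rwa [htl] at this
    · rw [List.drop_drop]
      have : x + (a - x) = a := by omega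
      rw [this]; exact h5

end Scheme

end Crest.Agent.R320.Glue_609
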