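import Mathlib

/-!
# Row 320: the natural chain (left-looking walls) with two cut schemes (helper761)

`Dat` = walls, scheme 1 gadget (sound for all splits, complete off `BadT`), exact gadget with a ruler.
Conclusions `s1`, `s2`, `cc` are the hypotheses of helper163's `top` (post 13363).
-/

set_option autoImplicit false

namespace Crest.Agent.R320.Glue_761

open List

structure Dat (α S V : Type*) [Monoid S] [AddCommGroup V] where
  φ : List α → S
  act : V → S → V
  Wo : List α → Prop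
  n : ℕ
  W : ℕ
  N1 : ℕ
  T0 : ℕ
  Lam : ℕ
  p0 : ℕ
  q0 : ℕ
  lam1 : List α → Option V
  rho1 : List α → Option V
  nu1 : List α → V
  BadT : ℕ → Prop
  K : ℕ
  c : ℕ → ℕ
  lam2 : ℕ → List α → Option V
  rho2 : ℕ → List α → Option V
  nu2 : List α → V
  C0 : ℕ
  loc : ∀ P Q : List α, n ≤ Q.length → (Wo (P ++ Q) ↔ Wo Q)
  gap : ∀ (X : List α) (s t : ℕ), n ≤ s → s < t → t ≤ X.length → Wo (X.take s) →
    Wo (X.take t) → s + W < t
  hq0 : n + T0 + 2 * Lam + 1 ≤ q0
  hW : 2 * (N1 + Lam) ≤ W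
  hp0 : Lam ≤ p0
  c_le : ∀ k < K, c k ≤ Lam
  golomb : ∀ a < K, ∀ b < K, ∀ a' < K, ∀ b' < K, a ≠ b → a' ≠ b' →
    ((c a : ℤ) - c b) - ((c a' : ℤ) - c b') ≤ 2 * N1 →
    ((c a' : ℤ) - c b') - ((c a : ℤ) - c b) ≤ 2 * N1 → a = a' ∧ b = b'
  spoilT : ∀ T : ℕ, T0 + Lam ≤ T → {ab : ℕ × ℕ | ab.1 < K ∧ ab.2 < K ∧ ab.1 ≠ ab.2 ∧
    BadT (T + c ab.1 - c ab.2)}.ncard ≤ C0
  lam1_len : ∀ p v, lam1 p = some v → p.length ≤ N1
  sound1g : ∀ p q v r, lam1 p = some v → rho1 q = some r →
    r = act v (φ (p ++ q)) + nu1 (p ++ q)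
  compl1g : ∀ u : List α, T0 ≤ u.length → ¬ BadT u.length → ∀ v, ∃ p q, p ++ q = u ∧
    lam1 p = some v ∧ (rho1 q).isSome
  sound2g : ∀ k < K, ∀ (P Q : List α) (v b : V), P.length = c k → (P ++ Q).length = p0 →
    lam2 k P = some v → rho2 k Q = some b → b = act v (φ (P ++ Q)) + nu2 (P ++ Q)
  compl2g : ∀ (u : List α) (v : V), u.length = p0 → ∃ I : Finset ℕ, 2 + 2 * C0 ≤ I.card ∧
    ∀ k ∈ I, k < K ∧ lam2 k (u.take (c k)) = some v ∧ (rho2 k (u.drop (c k))).isSome

namespace Dat

variable {α S V : Type*} [Monoid S] [AddCommGroup V] (D : Dat α S V)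

def z : ℕ := D.p0 + D.q0 + D.N1

def XX : Set (List α) :=
  {X | D.z ≤ X.length ∧ D.Wo X ∧ ∀ t, D.z ≤ t → t < X.length → ¬ D.Wo (X.take t)}

def nu (X : List α) : V :=
  D.act (D.nu2 (X.take D.p0)) (D.φ (X.drop D.p0)) + D.nu1 (X.drop D.p0)

def T (v : V) (X : List α) : V :=
  D.act (D.act v (D.φ (X.take D.p0)) + D.nu2 (X.take D.p0)) (D.φ (X.drop D.p0))
    + D.nu1 (X.drop D.p0)

def LP1 (P : List α) (v : V) : Prop :=
  D.p0 ≤ P.length ∧ D.lam1 (P.drop D.p0) =
    some (D.act v (D.φ (P.take D.p0)) + D.nu2 (P.take D.p0))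

def R1w (Q : List α) : Prop :=
  D.Wo Q ∧ D.q0 + D.N1 ≤ Q.length ∧ ∀ t, D.q0 ≤ t → t < Q.length → ¬ D.Wo (Q.take t)

open Classical in
noncomputable def R1 (Q : List α) : Option V := if D.R1w Q then D.rho1 Q else none

def E (X : List α) : Prop :=
  ∃ t ≤ X.length, D.z ≤ t + D.N1 ∧ t ≤ D.z + D.N1 ∧ D.Wo (X.take t)

def Bad (X : List α) : Prop := D.E X ∨ D.BadT (X.length - D.p0)

/-- first wall of candidate `k` in the text `Q` right of the cut -/
def FW (Q : List α) (k t : ℕ) : Prop :=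
  D.z ≤ t + D.c k ∧ t ≤ Q.length ∧ D.Wo (Q.take t) ∧
    ∀ s, D.z ≤ s + D.c k → s < t → ¬ D.Wo (Q.take s)

def BadC (Q : List α) (k : ℕ) : Prop :=
  (∃ t ≤ Q.length, D.z ≤ t + D.c k + D.N1 ∧ t + D.c k ≤ D.z + D.N1 ∧ D.Wo (Q.take t)) ∨
    ∃ t, D.FW Q k t ∧ D.BadT (t + D.c k - D.p0)

def R2rel (Q : List α) (b : V) : Prop :=
  ∃ k t, k < D.K ∧ D.FW Q k t ∧ D.BadC Q k ∧
    (∀ k' < D.K, k' ≠ k → ¬ D.BadC Q k' ∧ ∃ t', D.FW Q k' t') ∧
    Q.drop t ∈ D.XX ∧ ∃ r, D.rho2 k (Q.take (D.p0 - D.c k)) = some r ∧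
      b = D.T (D.act r (D.φ ((Q.take t).drop (D.p0 - D.c k)))
        + D.nu1 ((Q.take t).drop (D.p0 - D.c k))) (Q.drop t)

open Classical in
noncomputable def R2 (Q : List α) : Option V :=
  if h : ∃ b, D.R2rel Q b then some h.choose else none

def LP2 (P : List α) (v : V) : Prop := ∃ k < D.K, P.length = D.c k ∧ D.lam2 k P = some v

variable {D}

theorem wo_app {P Q : List α} {t : ℕ} (h : D.n ≤ t) (ht : t ≤ Q.length) :
    D.Wo ((P ++ Q).take (P.length + t)) ↔ D.Wo (Q.take t) := by
  have : (P ++ Q).take (P.length + t) = P ++ Q.take t := by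
    rw [List.take_append]; simp
  rw [this]
  apply D.loc
  rw [List.length_take]; omega

theorem hPC {X Y : List α} (hX : X ∈ D.XX) (hXY : X ++ Y ∈ D.XX) : Y = [] := by
  by_contra hY
  have hl : 0 < Y.length := List.length_pos_iff.2 hY
  have := hXY.2.2 X.length hX.1 (by simp; omega)
  simp at this
  exact this hX.2.1

theorem R1_some {Q : List α} {b : V} (h : D.R1 Q = some b) : D.R1w Q ∧ D.rho1 Q = some b := by
  unfold R1 at h
  split_ifs at h with h1
  exact ⟨h1, h⟩

theorem s1 (P : List α) (v : V) (Q : List α) (b : V) (hP : D.LP1 P v) (hQ : D.R1 Q = some b) :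
    P ++ Q ∈ D.XX ∧ D.T v (P ++ Q) = b := by
  obtain ⟨⟨hw1, hw2, hw3⟩, hr⟩ := R1_some hQ
  obtain ⟨hp, hl⟩ := hP
  have hlen := D.lam1_len _ _ hl
  rw [List.length_drop] at hlen
  have hz : D.z = D.p0 + D.q0 + D.N1 := rfl
  have hq := D.hq0
  refine ⟨⟨by rw [List.length_append]; omega, ?_, ?_⟩, ?_⟩
  · exact (D.loc P Q (by omega)).2 hw1
  · intro t ht1 ht2 hwo
    rw [List.length_append] at ht2
    obtain ⟨s, rfl⟩ : ∃ s, t = P.length + s := ⟨t - P.length, by omega⟩
    rw [wo_app (by omega) (by omega)] at hwo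
    exact hw3 s (by omega) (by omega) hwo
  · have h1 : (P ++ Q).take D.p0 = P.take D.p0 := by
      rw [List.take_append_of_le_length hp]
    have h2 : (P ++ Q).drop D.p0 = P.drop D.p0 ++ Q := by
      rw [List.drop_append_of_le_length hp]
    unfold T
    rw [h1, h2]
    exact (D.sound1g _ _ _ _ hl hr).symm

/-- scheme 1 is complete on good blocks -/
theorem compl1 {X : List α} (hX : X ∈ D.XX) (hb : ¬ D.Bad X) (v : V) :
    ∃ P Q, X = P ++ Q ∧ D.p0 ≤ P.length ∧ D.LP1 P v ∧ (D.R1 Q).isSome := by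
  obtain ⟨hx1, hx2, hx3⟩ := hX
  have hz : D.z = D.p0 + D.q0 + D.N1 := rfl
  have hq := D.hq0
  have hE : ¬ D.E X := fun h => hb (.inl h)
  have hT : ¬ D.BadT (X.length - D.p0) := fun h => hb (.inr h)
  have hlen : D.z + D.N1 < X.length := by
    by_contra h
    exact hE ⟨X.length, le_rfl, by omega, by omega, by simpa using hx2⟩
  obtain ⟨p, q, hpq, h1, h2⟩ := D.compl1g (X.drop D.p0) (by rw [List.length_drop]; omega)
    (by rw [List.length_drop]; exact hT)
    (D.act v (D.φ (X.take D.p0)) + D.nu2 (X.take D.p0))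
  have hlp := D.lam1_len _ _ h1
  have hX : X = (X.take D.p0 ++ p) ++ q := by
    rw [List.append_assoc, hpq, List.take_append_drop]
  have hl0 : (X.take D.p0).length = D.p0 := by rw [List.length_take]; omega
  have hPl : (X.take D.p0 ++ p).length = D.p0 + p.length := by
    rw [List.length_append, hl0]
  have hpql : p.length + q.length = X.length - D.p0 := by
    rw [← List.length_append, hpq, List.length_drop]
  refine ⟨X.take D.p0 ++ p, q, hX, by omega, ⟨by omega, ?_⟩, ?_⟩
  · rw [List.drop_append_of_le_length (by omega), List.take_append_of_le_length (by omega)]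
    simpa [hl0, List.take_take] using h1
  · have hw : D.R1w q := by
      refine ⟨?_, by omega, ?_⟩
      · rw [hX] at hx2
        exact (D.loc _ _ (by omega)).1 hx2
      · intro t ht1 ht2 hwo
        have h3 : D.Wo (X.take ((X.take D.p0 ++ p).length + t)) := by
          have h3' : D.Wo (((X.take D.p0 ++ p) ++ q).take ((X.take D.p0 ++ p).length + t)) :=
            (wo_app (by omega) (by omega)).2 hwo
          rwa [← hX] at h3'
        by_cases h4 : D.z ≤ (X.take D.p0 ++ p).length + t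
        · exact hx3 _ h4 (by omega) h3
        · exact hE ⟨(X.take D.p0 ++ p).length + t, by omega, by omega, by omega, h3⟩
    unfold R1
    rw [if_pos hw]
    exact h2

theorem FW_unique {Q : List α} {k t t' : ℕ} (h : D.FW Q k t) (h' : D.FW Q k t') : t = t' := by
  rcases lt_trichotomy t t' with h1 | h1 | h1
  · exact (h'.2.2.2 t h.1 h1 h.2.2.1).elim
  · exact h1
  · exact (h.2.2.2 t' h'.1 h1 h'.2.2.1).elim

theorem R2rel_unique {Q : List α} {b b' : V} (h : D.R2rel Q b) (h' : D.R2rel Q b') : b = b' := by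
  obtain ⟨k, t, hk, hf, hb, ho, -, r, hr, rfl⟩ := h
  obtain ⟨k', t', hk', hf', hb', ho', -, r', hr', rfl⟩ := h'
  have : k = k' := by
    by_contra hne
    exact (ho' k hk hne).1 hb
  subst this
  have := FW_unique hf hf'
  subst this
  rw [hr] at hr'
  cases hr'
  rfl

theorem R2_some {Q : List α} {b : V} (h : D.R2 Q = some b) : D.R2rel Q b := by
  unfold R2 at h
  split_ifs at h with h1
  cases h
  exact h1.choose_spec

theorem R2_isSome {Q : List α} {b : V} (h : D.R2rel Q b) : (D.R2 Q).isSome := by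
  unfold R2
  rw [dif_pos ⟨b, h⟩]; rfl

theorem s2 (P : List α) (v : V) (Q : List α) (b : V) (hP : D.LP2 P v) (hQ : D.R2 Q = some b)
    (H : ∀ X ∈ D.XX, X <+: P ++ Q → ∀ P' Q', X = P' ++ Q' → P.length ≤ P'.length →
      D.LP1 P' v → (D.R1 Q').isSome → False) :
    ∃ Q1 X2, Q = Q1 ++ X2 ∧ Q1 ≠ [] ∧ P ++ Q1 ∈ D.XX ∧ X2 ∈ D.XX ∧
      D.T (D.T v (P ++ Q1)) X2 = b := by
  obtain ⟨k0, hk0, hPl, hlam⟩ := hP
  obtain ⟨k, t, hk, hf, hbc, ho, hX2, r, hr, rfl⟩ := R2_some hQ
  have hz : D.z = D.p0 + D.q0 + D.N1 := rfl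
  have hq := D.hq0
  have hp0 := D.hp0
  have hc0 := D.c_le k0 hk0
  -- the true block
  obtain ⟨t0, hf0⟩ : ∃ t0, D.FW Q k0 t0 := by
    by_cases h : k0 = k
    · subst h; exact ⟨t, hf⟩
    · exact (ho k0 hk0 h).2
  obtain ⟨g1, g2, g3, g4⟩ := hf0
  have hXl : (P ++ Q.take t0).length = D.c k0 + t0 := by
    rw [List.length_append, List.length_take]; omega
  have hXX : P ++ Q.take t0 ∈ D.XX := by
    refine ⟨by omega, ?_, ?_⟩
    · refine (D.loc P _ ?_).2 g3
      rw [List.length_take]; omega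
    · intro s hs1 hs2 hwo
      obtain ⟨s', rfl⟩ : ∃ s', s = P.length + s' := ⟨s - P.length, by omega⟩
      rw [wo_app (by omega) (by rw [List.length_take]; omega), List.take_take,
        min_eq_left (by omega)] at hwo
      exact g4 s' (by omega) (by omega) hwo
  have hpre : P ++ Q.take t0 <+: P ++ Q := by
    rw [List.prefix_append_right_inj]; exact List.take_prefix _ _
  have hBad : D.Bad (P ++ Q.take t0) := by
    by_contra hb
    obtain ⟨P', Q', h1, h2, h3, h4⟩ := compl1 hXX hb v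
    exact H _ hXX hpre P' Q' h1 (by omega) h3 h4
  have hBC : D.BadC Q k0 := by
    rcases hBad with ⟨s, hs1, hs2, hs3, hs4⟩ | hb
    · rw [hXl] at hs1
      obtain ⟨s', rfl⟩ : ∃ s', s = P.length + s' := ⟨s - P.length, by omega⟩
      rw [wo_app (by omega) (by rw [List.length_take]; omega), List.take_take,
        min_eq_left (by omega)] at hs4
      exact .inl ⟨s', by omega, by omega, by omega, hs4⟩
    · refine .inr ⟨t0, ⟨g1, g2, g3, g4⟩, ?_⟩
      rw [hXl] at hb
      rwa [add_comm] at hb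
  have hkk : k0 = k := by
    by_contra h
    exact (ho k0 hk0 h).1 hBC
  subst hkk
  have htt : t = t0 := FW_unique hf ⟨g1, g2, g3, g4⟩
  subst htt
  have hml : D.p0 - D.c k0 ≤ t := by omega
  refine ⟨Q.take t, Q.drop t, (List.take_append_drop _ _).symm, ?_, hXX, hX2, ?_⟩
  · intro h
    have := congrArg List.length h
    rw [List.length_take] at this
    simp at this
    rcases this with h1 | h1
    · omega
    · rw [h1] at g2; simp at g2; omega
  · congr 1
    have e1 : (P ++ Q.take t).take D.p0 = P ++ Q.take (D.p0 - D.c k0) := by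
      rw [List.take_append, List.take_of_length_le (by omega), List.take_take, hPl,
        min_eq_left hml]
    have e2 : (P ++ Q.take t).drop D.p0 = (Q.take t).drop (D.p0 - D.c k0) := by
      rw [List.drop_append, List.drop_eq_nil_of_le (by omega), hPl, List.nil_append]
    unfold T
    rw [e1, e2]
    have e3 := D.sound2g k0 hk P (Q.take (D.p0 - D.c k0)) v r hPl
      (by rw [List.length_append, List.length_take]; omega) hlam hr
    rw [← e3]

theorem bad_drop {Y : List α} {k t : ℕ} (hk : D.c k ≤ Y.length) (ht : D.n ≤ t)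
    (htl : t ≤ (Y.drop (D.c k)).length) :
    D.Wo ((Y.drop (D.c k)).take t) ↔ D.Wo (Y.take (D.c k + t)) := by
  have h1 : (Y.take (D.c k)).length = D.c k := by rw [List.length_take]; omega
  have h2 := wo_app (D := D) (P := Y.take (D.c k)) (Q := Y.drop (D.c k)) ht htl
  rw [List.take_append_drop, h1] at h2
  exact h2.symm

open Classical in
/-- number of spoiled places -/
theorem spoil {Y : List α} {m : ℕ} (hm : D.z + D.Lam < m) (hmY : m ≤ Y.length)
    (hx : ∃ t, D.z ≤ t ∧ t + D.Lam + 1 ≤ m ∧ D.Wo (Y.take t)) (hy : D.Wo (Y.take m)) :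
    ((Finset.range D.K).filter fun k => ∃ k' < D.K, k' ≠ k ∧
      D.BadC (Y.drop (D.c k)) k').card ≤ 1 + 2 * D.C0 := by
  have hz : D.z = D.p0 + D.q0 + D.N1 := rfl
  have hq := D.hq0
  have hW := D.hW
  have hp0 := D.hp0
  obtain ⟨tx, htx1, htx2, htx3⟩ := hx
  -- first wall w0 ≥ z - Lam
  have ex0 : ∃ t, D.z ≤ t + D.Lam ∧ D.Wo (Y.take t) := ⟨tx, by omega, htx3⟩
  let w0 := Nat.find ex0
  obtain ⟨hw01, hw02⟩ : D.z ≤ w0 + D.Lam ∧ D.Wo (Y.take w0) := Nat.find_spec ex0
  have hw0m : ∀ t, D.z ≤ t + D.Lam → D.Wo (Y.take t) → w0 ≤ t := fun t h1 h2 =>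
    Nat.find_min' ex0 ⟨h1, h2⟩
  have hw0tx : w0 ≤ tx := hw0m tx (by omega) htx3
  have ex1 : ∃ t, w0 < t ∧ D.Wo (Y.take t) := ⟨m, by omega, hy⟩
  let w1 := Nat.find ex1
  obtain ⟨hw11, hw12⟩ : w0 < w1 ∧ D.Wo (Y.take w1) := Nat.find_spec ex1
  have hw1m : ∀ t, w0 < t → D.Wo (Y.take t) → w1 ≤ t := fun t h1 h2 =>
    Nat.find_min' ex1 ⟨h1, h2⟩
  have hw1le : w1 ≤ m := hw1m m (by omega) hy
  have hgap := D.gap Y w0 w1 (by omega) hw11 (by omega) hw02 hw12
  let F0 : Finset (ℕ × ℕ) := ((Finset.range D.K ×ˢ Finset.range D.K).filter fun ab =>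
    ab.1 ≠ ab.2 ∧ D.BadT (w0 - D.p0 + D.c ab.1 - D.c ab.2))
  let F1 : Finset (ℕ × ℕ) := ((Finset.range D.K ×ˢ Finset.range D.K).filter fun ab =>
    ab.1 ≠ ab.2 ∧ D.BadT (w1 - D.p0 + D.c ab.1 - D.c ab.2))
  have cF : ∀ w, D.T0 + D.Lam ≤ w →
      (((Finset.range D.K ×ˢ Finset.range D.K).filter fun ab =>
        ab.1 ≠ ab.2 ∧ D.BadT (w + D.c ab.1 - D.c ab.2)).card ≤ D.C0) := by
    intro w hw
    have h1 := D.spoilT w hw
    have h2 : {ab : ℕ × ℕ | ab.1 < D.K ∧ ab.2 < D.K ∧ ab.1 ≠ ab.2 ∧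
        D.BadT (w + D.c ab.1 - D.c ab.2)} =
        (((Finset.range D.K ×ˢ Finset.range D.K).filter fun ab =>
        ab.1 ≠ ab.2 ∧ D.BadT (w + D.c ab.1 - D.c ab.2) : Finset (ℕ × ℕ)) : Set (ℕ × ℕ)) := by
      ext ab
      simp [and_assoc]
    rw [h2, Set.ncard_coe_finset] at h1
    exact h1
  let SE : Finset ℕ := (Finset.range D.K).filter fun k => ∃ k' < D.K, k' ≠ k ∧
    ∃ τ ≤ Y.length, D.Wo (Y.take τ) ∧ D.z + D.c k ≤ τ + D.c k' + D.N1 ∧
      τ + D.c k' ≤ D.z + D.N1 + D.c k
  have hSE : SE.card ≤ 1 := by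
    rw [Finset.card_le_one]
    intro a ha a' ha'
    simp only [SE, Finset.mem_filter, Finset.mem_range] at ha ha'
    obtain ⟨hak, b, hb, hne, τ, h1, h2, h3, h4⟩ := ha
    obtain ⟨hak', b', hb', hne', τ', h1', h2', h3', h4'⟩ := ha'
    have c1 := D.c_le a hak
    have c2 := D.c_le b hb
    have c3 := D.c_le a' hak'
    have c4 := D.c_le b' hb'
    have hττ : τ = τ' := by
      rcases lt_trichotomy τ τ' with h | h | h
      · have := D.gap Y τ τ' (by omega) h h1' h2 h2'
        omega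
      · exact h
      · have := D.gap Y τ' τ (by omega) h h1 h2' h2
        omega
    subst hττ
    exact (D.golomb a hak b hb a' hak' b' hb' (Ne.symm hne) (Ne.symm hne')
      (by omega) (by omega)).1
  have hsub : ((Finset.range D.K).filter fun k => ∃ k' < D.K, k' ≠ k ∧
      D.BadC (Y.drop (D.c k)) k') ⊆ SE ∪ (F0.image Prod.snd ∪ F1.image Prod.snd) := by
    intro k hk
    simp only [Finset.mem_filter, Finset.mem_range] at hk
    obtain ⟨hkK, k', hk', hne, hbc⟩ := hk
    have c1 := D.c_le k hkK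
    have c2 := D.c_le k' hk'
    have hQl : (Y.drop (D.c k)).length = Y.length - D.c k := List.length_drop
    rcases hbc with ⟨t, h1, h2, h3, h4⟩ | ⟨t, ⟨f1, f2, f3, f4⟩, h2⟩
    · rw [bad_drop (by omega) (by omega) h1] at h4
      apply Finset.mem_union_left
      simp only [SE, Finset.mem_filter, Finset.mem_range]
      exact ⟨hkK, k', hk', hne, D.c k + t, by omega, h4, by omega, by omega⟩
    · apply Finset.mem_union_right
      have f3' := (bad_drop (D := D) (k := k) (by omega) (by omega) f2).1 f3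
      have hw0τ : w0 ≤ D.c k + t := hw0m _ (by omega) f3'
      have key : D.c k + t = w0 ∨ D.c k + t = w1 := by
        by_cases hc : D.z + D.c k ≤ w0 + D.c k'
        · left
          by_contra hne2
          have hlt : w0 - D.c k < t := by omega
          refine f4 (w0 - D.c k) (by omega) hlt ?_
          rw [bad_drop (by omega) (by omega) (by omega)]
          have : D.c k + (w0 - D.c k) = w0 := by omega
          rw [this]; exact hw02
        · right
          have h5 : w1 ≤ D.c k + t := hw1m _ (by omega) f3'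
          by_contra hne2
          have hlt : w1 - D.c k < t := by omega
          refine f4 (w1 - D.c k) (by omega) hlt ?_
          rw [bad_drop (by omega) (by omega) (by omega)]
          have : D.c k + (w1 - D.c k) = w1 := by omega
          rw [this]; exact hw12
      rcases key with h5 | h5
      · apply Finset.mem_union_left
        rw [Finset.mem_image]
        refine ⟨(k', k), ?_, rfl⟩
        simp only [F0, Finset.mem_filter, Finset.mem_product, Finset.mem_range]
        refine ⟨⟨hk', hkK⟩, hne, ?_⟩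
        have : w0 - D.p0 + D.c k' - D.c k = t + D.c k' - D.p0 := by omega
        rw [this]; exact h2
      · apply Finset.mem_union_right
        rw [Finset.mem_image]
        refine ⟨(k', k), ?_, rfl⟩
        simp only [F1, Finset.mem_filter, Finset.mem_product, Finset.mem_range]
        refine ⟨⟨hk', hkK⟩, hne, ?_⟩
        have : w1 - D.p0 + D.c k' - D.c k = t + D.c k' - D.p0 := by omega
        rw [this]; exact h2
  have h0 : F0.card ≤ D.C0 := cF (w0 - D.p0) (by omega)
  have h1 : F1.card ≤ D.C0 := cF (w1 - D.p0) (by omega)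
  calc _ ≤ (SE ∪ (F0.image Prod.snd ∪ F1.image Prod.snd)).card := Finset.card_le_card hsub
    _ ≤ SE.card + (F0.image Prod.snd ∪ F1.image Prod.snd).card := Finset.card_union_le _ _
    _ ≤ SE.card + ((F0.image Prod.snd).card + (F1.image Prod.snd).card) := by
        gcongr; exact Finset.card_union_le _ _
    _ ≤ 1 + (D.C0 + D.C0) := by
        have a1 : (F0.image Prod.snd).card ≤ F0.card := Finset.card_image_le
        have a2 : (F1.image Prod.snd).card ≤ F1.card := Finset.card_image_le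
        omega
    _ = 1 + 2 * D.C0 := by ring

theorem cc (X : List α) (hX : X ∈ D.XX) (X2 : List α) (hX2 : X2 ∈ D.XX) (v : V) :
    (∃ P Q, X = P ++ Q ∧ D.LP1 P v ∧ (D.R1 Q).isSome) ∨
    (∃ P Q, X ++ X2 = P ++ Q ∧ P.length < X.length ∧ D.LP2 P v ∧ (D.R2 Q).isSome) := by
  classical
  by_cases hb : D.Bad X
  swap
  · obtain ⟨P, Q, h1, -, h2, h3⟩ := compl1 hX hb v
    exact .inl ⟨P, Q, h1, h2, h3⟩
  right
  have hz : D.z = D.p0 + D.q0 + D.N1 := rfl
  have hq := D.hq0
  have hW := D.hW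
  have hp0 := D.hp0
  have hx1 := hX.1
  have hy1 := hX2.1
  have hl0 : (X.take D.p0).length = D.p0 := by rw [List.length_take]; omega
  obtain ⟨I, hI, hI2⟩ := D.compl2g (X.take D.p0) v hl0
  have hxw : D.Wo ((X ++ X2).take X.length) := by simpa using hX.2.1
  have hyw : D.Wo ((X ++ X2).take (X ++ X2).length) := by
    rw [List.take_length]
    exact (D.loc X X2 (by omega)).2 hX2.2.1
  have hlY : (X ++ X2).length = X.length + X2.length := List.length_append
  have hsp := spoil (D := D) (Y := X ++ X2) (m := (X ++ X2).length) (by omega) le_rfl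
    ⟨X.length, hx1, by omega, hxw⟩ hyw
  obtain ⟨k, hkI, hks⟩ : ∃ k ∈ I, k ∉ ((Finset.range D.K).filter fun k => ∃ k' < D.K, k' ≠ k ∧
      D.BadC ((X ++ X2).drop (D.c k)) k') := by
    by_contra hno
    push Not at hno
    have := Finset.card_le_card (show I ⊆ _ from hno)
    omega
  obtain ⟨hkK, hlam, hrho⟩ := hI2 k hkI
  have hck := D.c_le k hkK
  have hns : ∀ k' < D.K, k' ≠ k → ¬ D.BadC ((X ++ X2).drop (D.c k)) k' := by
    intro k' h1 h2 h3
    exact hks (by simp only [Finset.mem_filter, Finset.mem_range]; exact ⟨hkK, k', h1, h2, h3⟩)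
  obtain ⟨r, hr⟩ := Option.isSome_iff_exists.1 hrho
  have hQl : ((X ++ X2).drop (D.c k)).length = X.length + X2.length - D.c k := by
    rw [List.length_drop, hlY]
  have hwY : ∀ t, D.n ≤ t → D.c k + t ≤ X.length →
      (D.Wo (((X ++ X2).drop (D.c k)).take t) ↔ D.Wo (X.take (D.c k + t))) := by
    intro t ht1 ht2
    rw [bad_drop (by omega) ht1 (by omega), List.take_append_of_le_length ht2]
  have hFW : D.FW ((X ++ X2).drop (D.c k)) k (X.length - D.c k) := by
    refine ⟨by omega, by omega, ?_, ?_⟩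
    · rw [hwY _ (by omega) (by omega)]
      have : D.c k + (X.length - D.c k) = X.length := by omega
      rw [this, List.take_length]; exact hX.2.1
    · intro s hs1 hs2 hwo
      rw [hwY _ (by omega) (by omega)] at hwo
      exact hX.2.2 _ (by omega) (by omega) hwo
  refine ⟨X.take (D.c k), (X ++ X2).drop (D.c k), ?_, ?_, ⟨k, hkK, ?_, ?_⟩, ?_⟩
  · rw [List.drop_append_of_le_length (by omega), ← List.append_assoc, List.take_append_drop]
  · rw [List.length_take]; omega
  · rw [List.length_take]; omega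
  · rw [List.take_take, min_eq_left (by omega)] at hlam
    exact hlam
  · refine R2_isSome (b := _) ⟨k, X.length - D.c k, hkK, hFW, ?_, ?_, ?_, r, ?_, rfl⟩
    · rcases hb with ⟨s, hs1, hs2, hs3, hs4⟩ | hb
      · refine .inl ⟨s - D.c k, by omega, by omega, by omega, ?_⟩
        rw [hwY _ (by omega) (by omega)]
        have : D.c k + (s - D.c k) = s := by omega
        rw [this]; exact hs4
      · refine .inr ⟨_, hFW, ?_⟩
        have : X.length - D.c k + D.c k - D.p0 = X.length - D.p0 := by omega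
        rw [this]; exact hb
    · intro k' h1 h2
      refine ⟨hns k' h1 h2, ?_⟩
      have hck' := D.c_le k' h1
      have ex : ∃ t, D.z ≤ t + D.c k' ∧ D.Wo (((X ++ X2).drop (D.c k)).take t) := by
        refine ⟨X.length + X2.length - D.c k, by omega, ?_⟩
        rw [List.take_of_length_le (by omega)]
        rw [List.drop_append_of_le_length (by omega)]
        exact (D.loc _ X2 (by omega)).2 hX2.2.1
      refine ⟨Nat.find ex, (Nat.find_spec ex).1, ?_, (Nat.find_spec ex).2, ?_⟩
      · have := Nat.find_min' ex (m := X.length + X2.length - D.c k) ⟨by omega, by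
          rw [List.take_of_length_le (by omega)]
          rw [List.drop_append_of_le_length (by omega)]
          exact (D.loc _ X2 (by omega)).2 hX2.2.1⟩
        omega
      · intro s hs1 hs2 hwo
        exact Nat.find_min ex hs2 ⟨hs1, hwo⟩
    · have : ((X ++ X2).drop (D.c k)).drop (X.length - D.c k) = X2 := by
        rw [List.drop_drop]
        have : D.c k + (X.length - D.c k) = X.length := by omega
        rw [this]; simp
      rw [this]; exact hX2
    · have : ((X ++ X2).drop (D.c k)).take (D.p0 - D.c k) = (X.take D.p0).drop (D.c k) := by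
        rw [List.drop_append_of_le_length (by omega), List.take_append_of_le_length
          (by rw [List.length_drop]; omega), List.drop_take]
      rw [this]; exact hr

end Dat

end Crest.Agent.R320.Glue_761
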