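import Crest.Agent.R320.Nest_85

/-! # Row 320: one run, two levels (118's glue) with lazy re-anchoring (570). Seat 823. -/

set_option autoImplicit false

namespace Crest.Agent.R320.Glue_823

open Crest.RegLang Crest.Agent.R320.Hgt1_903 Crest.Agent.R320.Nest_85

variable {α V : Type*}

/-- The data of a chain with lazy re-anchoring. -/
structure Dat (α V : Type*) where
  Bm : ℕ
  N : List α → ℕ
  A : V → List α → V
  RF : List α → Prop
  n0 : ℕ
  D1 : ℕ
  D2 : ℕ
  L1 : V → List α → Prop
  R1 : List α → Option (ℕ × V)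
  L2 : V → List α → Prop
  R2 : List α → Option (ℕ × V)

namespace Dat

variable (Z : Dat α V)

/-- letter step: read until `Bm` letters since the anchor are known, then re-anchor -/
def step (q : V × List α) (a : α) : V × List α :=
  if q.2.length + 1 < Z.Bm then (q.1, q.2 ++ [a])
  else (Z.A q.1 ((q.2 ++ [a]).take (Z.N (q.2 ++ [a]))), (q.2 ++ [a]).drop (Z.N (q.2 ++ [a])))

theorem run_short (v : V) (u w : List α) (h : u.length + w.length < Z.Bm) :
    run Z.step (v, u) w = (v, u ++ w) := by
  induction w generalizing u with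
  | nil => simp [run]
  | cons a w ih =>
    rw [List.length_cons] at h
    have h1 : u.length + 1 < Z.Bm := by omega
    change run Z.step (Z.step (v, u) a) w = _
    rw [show Z.step (v, u) a = (v, u ++ [a]) from if_pos h1, ih (u ++ [a]) (by simp; omega)]
    simp

/-- one re-anchoring -/
theorem run_turn (v : V) (u w : List α) (hu : u.length < Z.Bm)
    (h : Z.Bm ≤ u.length + w.length) :
    run Z.step (v, u) w = run Z.step
      (Z.A v (((u ++ w).take Z.Bm).take (Z.N ((u ++ w).take Z.Bm))),
        ((u ++ w).take Z.Bm).drop (Z.N ((u ++ w).take Z.Bm)))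
      ((u ++ w).drop Z.Bm) := by
  obtain ⟨k, hk⟩ : ∃ k, k = Z.Bm - u.length - 1 := ⟨_, rfl⟩
  obtain ⟨x, a, y, hw, hx⟩ : ∃ x a y, w = x ++ a :: y ∧ x.length = k := by
    refine ⟨w.take k, w[k]'(by omega), w.drop (k + 1), ?_, by rw [List.length_take]; omega⟩
    rw [List.cons_getElem_drop_succ, List.take_append_drop]
  subst hw
  have h1 : (u ++ (x ++ a :: y)).take Z.Bm = u ++ x ++ [a] := by
    have : u ++ (x ++ a :: y) = (u ++ x ++ [a]) ++ y := by simp
    rw [this, List.take_left']
    simp only [List.length_append, List.length_singleton]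
    omega
  have h2 : (u ++ (x ++ a :: y)).drop Z.Bm = y := by
    have : u ++ (x ++ a :: y) = (u ++ x ++ [a]) ++ y := by simp
    rw [this, List.drop_left']
    simp only [List.length_append, List.length_singleton]
    omega
  have h3 : run Z.step (v, u) (x ++ a :: y) = run Z.step (Z.step (v, u ++ x) a) y := by
    rw [run_append, Z.run_short v u x (by omega)]
    rfl
  rw [h3, h1, h2]
  have h4 : ¬ (u ++ x).length + 1 < Z.Bm := by
    rw [List.length_append]
    omega
  have h5 : Z.step (v, u ++ x) a = (Z.A v ((u ++ x ++ [a]).take (Z.N (u ++ x ++ [a]))),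
      (u ++ x ++ [a]).drop (Z.N (u ++ x ++ [a]))) := if_neg h4
  rw [h5]

/-- reading from a fresh anchor -/
theorem run_turn' (v : V) (u w : List α) (hu : u.length < Z.Bm)
    (h : Z.Bm ≤ u.length + w.length) {T : ℕ} (hT : Z.N ((u ++ w).take Z.Bm) = T)
    (hT0 : 0 < T) (hTB : T ≤ Z.Bm) :
    run Z.step (v, u) w = run Z.step (Z.A v ((u ++ w).take T), []) ((u ++ w).drop T) := by
  rw [Z.run_turn v u w hu h, hT, List.take_take, min_eq_left hTB]
  have h1 : (u ++ w).drop T = ((u ++ w).take Z.Bm).drop T ++ (u ++ w).drop Z.Bm := by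
    have h2 : (u ++ w).drop Z.Bm = ((u ++ w).drop T).drop (Z.Bm - T) := by
      rw [List.drop_drop]; congr 1; omega
    have h3 : ((u ++ w).take Z.Bm).drop T = ((u ++ w).drop T).take (Z.Bm - T) := by
      rw [List.drop_take]
    rw [h2, h3, List.take_append_drop]
  rw [h1, run_append, Z.run_short _ [] _ (by
    simp only [List.length_nil, List.length_drop, List.length_take, List.length_append]
    omega)]
  simp

/-- the text of a reached state is a suffix of the text read -/
theorem run_suffix (q : V × List α) (w : List α) :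
    ∃ x, q.2 ++ w = x ++ (run Z.step q w).2 := by
  induction w generalizing q with
  | nil => exact ⟨[], by simp [run]⟩
  | cons a w ih =>
    obtain ⟨x, hx⟩ := ih (Z.step q a)
    change ∃ y, q.2 ++ a :: w = y ++ (run Z.step (Z.step q a) w).2
    have h1 : q.2 ++ a :: w = (q.2 ++ [a]) ++ w := by simp
    obtain ⟨y, hy⟩ : ∃ y, q.2 ++ [a] = y ++ (Z.step q a).2 := by
      unfold step
      split_ifs
      · exact ⟨[], by simp⟩
      · exact ⟨_, (List.take_append_drop _ _).symm⟩
    refine ⟨y ++ x, ?_⟩
    rw [h1, hy, List.append_assoc, hx, List.append_assoc]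

/-- the hypotheses -/
structure Ok : Prop where
  fac : ∀ x y z, Z.RF (x ++ y ++ z) → Z.RF y
  posN : ∀ Q, Z.RF Q → Q.length = Z.Bm → 0 < Z.N Q ∧ Z.N Q ≤ Z.Bm ∧ Z.Bm ≤ Z.N Q + Z.n0
  n0 : Z.n0 < Z.Bm
  D1pos : Z.Bm ≤ Z.D1
  D2pos : Z.Bm + Z.D1 ≤ Z.D2
  left1 : ∀ v P, Z.L1 v P → P.length < Z.Bm
  left2 : ∀ v P, Z.L2 v P → P.length < Z.Bm
  len1 : ∀ r d b, Z.R1 r = some (d, b) → r.length = Z.D1
  len2 : ∀ r d b, Z.R2 r = some (d, b) → r.length = Z.D2
  sound1 : ∀ v P r d b, Z.RF (P ++ r) → Z.L1 v P → Z.R1 r = some (d, b) →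
    Z.N ((P ++ r).take Z.Bm) = P.length + d ∧ Z.A v ((P ++ r).take (P.length + d)) = b
  sound2 : ∀ v P r d b, Z.RF (P ++ r) → Z.L2 v P → Z.R2 r = some (d, b) →
    (∀ P' r' y, P' ++ r' ++ y = P ++ r → P.length ≤ P'.length → Z.L1 v P' →
      (Z.R1 r').isSome → False) →
    Z.N ((P ++ r).take Z.Bm) = P.length + d ∧ Z.A v ((P ++ r).take (P.length + d)) = b
  complete : ∀ v Q, Z.RF Q → Z.Bm + Z.D2 ≤ Q.length → ∃ P r y, P ++ r ++ y = Q ∧
    Z.n0 ≤ P.length ∧ ((Z.L1 v P ∧ (Z.R1 r).isSome) ∨ (Z.L2 v P ∧ (Z.R2 r).isSome))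

variable {Z}

theorem step_len (hZ : Z.Ok) (q : V × List α) (a : α) (hq : q.2.length < Z.Bm)
    (hR : Z.RF (q.2 ++ [a])) : (Z.step q a).2.length < Z.Bm := by
  unfold step
  split_ifs with h
  · simp only [List.length_append, List.length_singleton]
    omega
  · have h1 : (q.2 ++ [a]).length = Z.Bm := by
      simp only [List.length_append, List.length_singleton]
      omega
    have := (hZ.posN _ hR h1).1
    rw [List.length_drop, h1]
    omega

theorem run_len (hZ : Z.Ok) (q : V × List α) (w : List α) (hq : q.2.length < Z.Bm)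
    (hR : Z.RF (q.2 ++ w)) : (run Z.step q w).2.length < Z.Bm := by
  induction w generalizing q with
  | nil => exact hq
  | cons a w ih =>
    have h1 : Z.RF (q.2 ++ [a]) := hZ.fac [] _ w (by simpa using hR)
    change (run Z.step (Z.step q a) w).2.length < Z.Bm
    refine ih _ (step_len hZ q a hq h1) ?_
    obtain ⟨x, hx⟩ := Z.run_suffix q [a]
    change q.2 ++ [a] = x ++ (Z.step q a).2 at hx
    have h2 : q.2 ++ a :: w = x ++ ((Z.step q a).2 ++ w) ++ [] := by
      rw [List.append_nil, ← List.append_assoc, ← hx]; simp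
    rw [h2] at hR
    exact hZ.fac _ _ _ hR

/-- reset value -/
def cc (Z : Dat α V) (R : List α → Option (ℕ × V)) (v0 : V) (r : List α) : V × List α :=
  match R r with
  | some (d, b) => run Z.step (b, []) (r.drop d)
  | none => (v0, [])

def lev (Z : Dat α V) (L : V → List α → Prop) (R : List α → Option (ℕ × V)) (v0 : V) :
    Level α (V × List α) where
  Lg q := L q.1 q.2
  R := {r | (R r).isSome}
  c := cc Z R v0

theorem two (hZ : Z.Ok) [Finite α] (v0 : V) (q : V × List α) (hq : q.2.length < Z.Bm)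
    (T : V × List α → Prop) :
    ∃ E : Language α, H 2 E ∧ ∀ w, Z.RF (q.2 ++ w) → (w ∈ E ↔ T (run Z.step q w)) := by
  classical
  let St : V × List α → Prop := fun _ => True
  let Prom : V × List α → List α → Prop := fun q w => q.2.length < Z.Bm ∧ Z.RF (q.2 ++ w)
  let A1 := lev Z Z.L1 Z.R1 v0
  let A2 := lev Z Z.L2 Z.R2 v0
  have pre : ∀ q u v, Prom q (u ++ v) → Prom q u := by
    intro q u v h
    exact ⟨h.1, hZ.fac [] _ v (by simpa [Prom] using h.2)⟩
  have promrun : ∀ q p u, Prom q (p ++ u) → Prom (run Z.step q p) u := by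
    intro q p u h
    refine ⟨run_len hZ q p h.1 (hZ.fac [] _ u (by simpa [Prom] using h.2)), ?_⟩
    obtain ⟨x, hx⟩ := Z.run_suffix q p
    have h2 : q.2 ++ (p ++ u) = x ++ ((run Z.step q p).2 ++ u) ++ [] := by
      rw [List.append_nil, ← List.append_assoc, hx, List.append_assoc]
    exact hZ.fac x _ [] (by rw [← h2]; exact h.2)
  have hfin : ∀ (R : List α → Option (ℕ × V)) (D : ℕ), (∀ r d b, R r = some (d, b) → r.length = D) →
      {r : List α | (R r).isSome}.Finite := by
    intro R D h
    refine (List.finite_length_eq α D).subset fun r hr => ?_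
    obtain ⟨⟨d, b⟩, hdb⟩ := Option.isSome_iff_exists.1 hr
    exact h r d b hdb
  have hB : 0 < Z.Bm := lt_of_le_of_lt (Nat.zero_le _) hZ.n0
  -- the reset identity
  have reset : ∀ (v : V) (P r : List α) (d : ℕ) (b : V) (R : List α → Option (ℕ × V)),
      R r = some (d, b) → P.length < Z.Bm → Z.Bm ≤ r.length → Z.RF (P ++ r) →
      Z.N ((P ++ r).take Z.Bm) = P.length + d → Z.A v ((P ++ r).take (P.length + d)) = b →
      run Z.step (v, P) r = cc Z R v0 r := by
    intro v P r d b R hR hP hr hF h1 h2
    have hF' : Z.RF ((P ++ r).take Z.Bm) :=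
      hZ.fac [] _ ((P ++ r).drop Z.Bm) (by simpa using hF)
    have hl : ((P ++ r).take Z.Bm).length = Z.Bm := by
      rw [List.length_take, List.length_append]; omega
    have h3 := hZ.posN _ hF' hl
    rw [h1] at h3
    rw [Z.run_turn' v P r hP (by omega) h1 h3.1 h3.2.1, h2]
    unfold cc
    rw [hR]
    have h4 : (P ++ r).drop (P.length + d) = r.drop d := by
      rw [List.drop_append]; simp
    rw [h4]
  -- level 1
  have ok1 : A1.Ok Z.step St Prom := by
    refine ⟨hfin _ Z.D1 hZ.len1, ?_, fun _ _ => trivial, ?_⟩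
    · intro s hs h0
      obtain ⟨⟨d, b⟩, hdb⟩ := Option.isSome_iff_exists.1 hs
      have := hZ.len1 s d b hdb
      have h1 := hZ.D1pos
      rw [h0] at this
      simp at this
      omega
    · intro q _ p s u hp hs hl
      obtain ⟨⟨d, b⟩, hdb⟩ := Option.isSome_iff_exists.1 (show (Z.R1 s).isSome from hs)
      have hps : Prom (run Z.step q p) (s ++ u) := promrun q p (s ++ u) (by
        rw [← List.append_assoc]; exact hp)
      have hps' := pre _ _ _ hps
      have hls := hZ.len1 s d b hdb
      have h1 := hZ.D1pos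
      obtain ⟨e1, e2⟩ := hZ.sound1 _ _ s d b hps'.2 hl hdb
      have h2 : run Z.step (run Z.step q p) s = cc Z Z.R1 v0 s :=
        reset (run Z.step q p).1 (run Z.step q p).2 s d b Z.R1 hdb hps.1 (by omega) hps'.2 e1 e2
      refine ⟨h2, ?_⟩
      change Prom (cc Z Z.R1 v0 s) u
      rw [← h2]
      exact promrun _ s u hps
  -- level 2 under the promise "no cut of level 1"
  have ok2 : A2.Ok Z.step St (fun q w => Prom q w ∧ ¬ Cut Z.step A1 q w) := by
    refine ⟨hfin _ Z.D2 hZ.len2, ?_, fun _ _ => trivial, ?_⟩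
    · intro s hs h0
      obtain ⟨⟨d, b⟩, hdb⟩ := Option.isSome_iff_exists.1 hs
      have := hZ.len2 s d b hdb
      have h1 := hZ.D2pos
      rw [h0] at this
      simp at this
      omega
    · intro q _ p s u hpc hs hl
      obtain ⟨hp, hc⟩ := hpc
      obtain ⟨⟨d, b⟩, hdb⟩ := Option.isSome_iff_exists.1 (show (Z.R2 s).isSome from hs)
      have hps : Prom (run Z.step q p) (s ++ u) := promrun q p (s ++ u) (by
        rw [← List.append_assoc]; exact hp)
      have hps' := pre _ _ _ hps
      have hls := hZ.len2 s d b hdb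
      have h1 := hZ.D2pos
      obtain ⟨e1, e2⟩ := hZ.sound2 _ _ s d b hps'.2 hl hdb (by
        intro P' r' y he hle hL1 hR1
        apply hc
        obtain ⟨z, rfl⟩ : ∃ z, P' = (run Z.step q p).2 ++ z := by
          have h3 : (run Z.step q p).2 <+: P' := by
            refine List.prefix_of_prefix_length_le (l₃ := (run Z.step q p).2 ++ s)
              (List.prefix_append _ _) ?_ hle
            rw [← he, List.append_assoc]
            exact List.prefix_append _ _
          obtain ⟨z, hz⟩ := h3
          exact ⟨z, hz.symm⟩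
        rw [List.append_assoc, List.append_assoc, List.append_cancel_left_eq] at he
        refine ⟨p ++ z, r', y ++ u, ?_, hR1, ?_⟩
        · rw [← he]; simp
        · change Z.L1 _ _
          rw [run_append]
          have h5 := Z.run_short (run Z.step q p).1 (run Z.step q p).2 z (by
            have := hZ.left1 _ _ hL1
            rwa [List.length_append] at this)
          rw [h5]
          exact hL1)
      have h2 : run Z.step (run Z.step q p) s = cc Z Z.R2 v0 s :=
        reset (run Z.step q p).1 (run Z.step q p).2 s d b Z.R2 hdb hps.1 (by omega) hps'.2 e1 e2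
      refine ⟨h2, ?_, ?_⟩
      · change Prom (cc Z Z.R2 v0 s) u
        rw [← h2]
        exact promrun _ s u hps
      · intro hcu
        apply hc
        apply Cut.prepend
        rw [run_append]
        have h3 : run Z.step (run Z.step q p) s = A2.c s := h2
        rw [h3]
        exact hcu
  have uncut : ∀ q w, Prom q w → ¬ Cut Z.step A1 q w → ¬ Cut Z.step A2 q w →
      w.length < 3 * Z.Bm + Z.D2 := by
    intro q w hp h1 h2
    by_contra hlen
    push Not at hlen
    -- re-anchor once
    have hF : Z.RF ((q.2 ++ w).take Z.Bm) :=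
      hZ.fac [] _ ((q.2 ++ w).drop Z.Bm) (by simpa using hp.2)
    have hl : ((q.2 ++ w).take Z.Bm).length = Z.Bm := by
      rw [List.length_take, List.length_append]; omega
    have hN := hZ.posN _ hF hl
    set Tn := Z.N ((q.2 ++ w).take Z.Bm) with hTn
    set Q := (q.2 ++ w).drop Tn with hQ
    have hqB := hp.1
    -- the position where the state has anchor `Tn`
    set x := w.take (Z.Bm - q.2.length) with hx
    have hxl : x.length = Z.Bm - q.2.length := by
      rw [hx, List.length_take]; omega
    have hw : w = x ++ w.drop (Z.Bm - q.2.length) := (List.take_append_drop _ _).symm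
    have hqx : (q.2 ++ x) = (q.2 ++ w).take Z.Bm := by
      rw [List.take_append, List.take_of_length_le hqB.le, hx]
    have hstate : run Z.step q x = (Z.A q.1 ((q.2 ++ x).take Tn), (q.2 ++ x).drop Tn) := by
      have h3 := Z.run_turn' q.1 q.2 x hqB (by omega) (T := Tn) (by
        rw [List.take_of_length_le (by rw [hqx, hl]), hqx]) hN.1 hN.2.1
      rw [show run Z.step q x = run Z.step (q.1, q.2) x from rfl, h3,
        Z.run_short _ [] _ (by
          simp only [List.length_nil, List.length_drop, hqx, hl]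
          omega)]
      simp
    set v1 := Z.A q.1 ((q.2 ++ x).take Tn) with hv1
    set u1 := (q.2 ++ x).drop Tn with hu1
    have hu1l : u1.length = Z.Bm - Tn := by
      rw [hu1, List.length_drop, hqx, hl]
    have hQe : Q = u1 ++ w.drop (Z.Bm - q.2.length) := by
      rw [hQ, hu1]
      conv_lhs => rw [hw, ← List.append_assoc]
      rw [List.drop_append_of_le_length (by rw [hqx, hl]; exact hN.2.1)]
    have hQF : Z.RF Q := by
      refine hZ.fac ((q.2 ++ w).take Tn) _ [] ?_
      rw [List.append_nil, hQ, List.take_append_drop]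
      exact hp.2
    obtain ⟨P, r, y, he, hP0, hcut⟩ := hZ.complete v1 Q hQF (by
      rw [hQ, List.length_drop, List.length_append]; omega)
    obtain ⟨z, rfl⟩ : ∃ z, P = u1 ++ z := by
      have h3 : u1 <+: P := by
        refine List.prefix_of_prefix_length_le (l₃ := Q) ?_ ?_ (by rw [hu1l]; omega)
        · rw [hQe]; exact List.prefix_append _ _
        · rw [← he, List.append_assoc]; exact List.prefix_append _ _
      obtain ⟨z, hz⟩ := h3
      exact ⟨z, hz.symm⟩
    have he2 : w.drop (Z.Bm - q.2.length) = z ++ r ++ y := by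
      rw [hQe, List.append_assoc, List.append_assoc, List.append_cancel_left_eq] at he
      rw [← he, List.append_assoc]
    have hpos : (u1 ++ z).length < Z.Bm → run Z.step q (x ++ z) = (v1, u1 ++ z) := by
      intro h3
      rw [run_append, hstate]
      exact Z.run_short _ _ _ (by rwa [List.length_append] at h3)
    rcases hcut with ⟨hL, hR⟩ | ⟨hL, hR⟩
    · apply h1
      refine ⟨x ++ z, r, y, ?_, hR, ?_⟩
      · rw [hw, he2]; simp
      · rw [hpos (hZ.left1 _ _ hL)]; exact hL
    · apply h2
      refine ⟨x ++ z, r, y, ?_, hR, ?_⟩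
      · rw [hw, he2]; simp
      · rw [hpos (hZ.left2 _ _ hL)]; exact hL
  have hin := nest Z.step St (fun q w => Prom q w ∧ ¬ Cut Z.step A1 q w)
    (fun q u v h => ⟨pre q u v h.1, fun hc => h.2 hc.append⟩) A2 ok2 0 (fun _ => True) trivial
    (fun q _ T _ => ⟨({w | (Prom q w ∧ ¬ Cut Z.step A1 q w ∧ ¬ Cut Z.step A2 q w) ∧
        T (run Z.step q w)} : Language α),
      H.finite 0 ((List.finite_length_lt α (3 * Z.Bm + Z.D2)).subset
        fun w hw => uncut q w hw.1.1 hw.1.2.1 hw.1.2.2),
      fun w hw hc => ⟨fun h => h.2, fun h => ⟨⟨hw.1, hw.2, hc⟩, h⟩⟩⟩)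
  have hout := nest Z.step St Prom pre A1 ok1 1 (fun _ => True) trivial
    (fun q hq T hT => by
      obtain ⟨E, h1, h2⟩ := hin q hq T hT
      exact ⟨E, h1, fun w hw hc => h2 w ⟨hw, hc⟩⟩)
  obtain ⟨E, h1, h2⟩ := hout q trivial T trivial
  exact ⟨E, h1, fun w hw => h2 w ⟨hq, hw⟩⟩

end Dat

end Crest.Agent.R320.Glue_823
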