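import Crest.Agent.R320.Cut2_561

/-!
# Row 320: statement S0495 from a two-level cut automaton (helper561)
-/

set_option autoImplicit false

namespace Crest.Agent.R320.Goal_561

open Crest.RegLang Crest.Agent.R320.Hk_851 Crest.Agent.R320.Fin_561 Crest.Agent.R320.Cut2_561

universe u

/-- a two-level cut automaton with tokens for the action `act` -/
def TwoLevel (α : Type u) (V : Type) [AddCommGroup V] (act : List α → V →+ V) (k : ℕ) : Prop :=
  ∃ (Om : Type) (_ : Finite Om) (step : Om → α → Om) (init : V → Om) (tok : Om → V)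
    (D : List α → V) (C0 C1 : Set Om) (R0 R1 : Om → Language α),
    (∀ w v, tok (run step (init v) w) = act w v + D w) ∧
    (∀ q, [] ∉ R0 q) ∧ (∀ q, [] ∉ R1 q) ∧
    (∀ q, HL (k + 1) (R0 q)) ∧ (∀ q, HL k (R1 q)) ∧
    (∀ p ∈ C0, ∀ q, ∀ Q ∈ R0 q, run step p Q = q) ∧
    (∀ p ∈ C1, ∀ q, ∀ Q ∈ R1 q, ¬ Cut step C0 R0 p Q → run step p Q = q) ∧
    (∀ p p', HL k {w | ¬ Cut step C0 R0 p w ∧ ¬ Cut step C1 R1 p w ∧ run step p w = p'})

/-- **The top.** `k = 1` gives height three. -/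
theorem of_twoLevel {α : Type u} {k : ℕ}
    (h : ∀ (V : Type) [AddCommGroup V] [Finite V] (act : List α → V →+ V),
      (∀ x, act [] x = x) → (∀ u w x, act (u ++ w) x = act w (act u x)) → TwoLevel α V act k)
    (L : Language α) (hL : L.IsRegular) :
    ∃ e : GRegExp α, e.height ≤ k + 2 ∧ e.lang = L := by
  refine top ?_ L hL
  intro V _ _ act h0 h1
  obtain ⟨Om, fO, step, init, tok, D, C0, C1, R0, R1, a1, a2, a3, a4, a5, a6, a7, a8⟩ :=
    h V act h0 h1
  exact ⟨Om, fO, step, init, tok, D, a1, fun v q =>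
    two_level step C0 C1 R0 R1 a2 a3 a4 a5 a6 a7 a8 (init v) q⟩

end Crest.Agent.R320.Goal_561
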