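import Mathlib

/-!
Row 320, piece (8): Golomb rulers.

`ruler c k` is the set `{(c+1) * 2^i : i < k}`.  It has `k` elements, two different elements are more
than `c` apart, and for every modulus `m > 4 * (c+1) * 2^k` all differences of two different elements
are pairwise different modulo `m`.  Consequence (112's remark): if the right clock is wrong by a fixed
amount `r` which is not `0` modulo `m`, then at most one place of the ruler is legal on both sides.
-/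

set_option autoImplicit false

namespace Crest.Agent.R320.Golomb68

/-- the ruler -/
def ruler (c k : ℕ) : Finset ℕ := (Finset.range k).image (fun i => (c + 1) * 2 ^ i)

theorem mem_ruler {c k x : ℕ} : x ∈ ruler c k ↔ ∃ i, i < k ∧ x = (c + 1) * 2 ^ i := by
  unfold ruler
  simp only [Finset.mem_image, Finset.mem_range]
  constructor
  · rintro ⟨i, hi, rfl⟩; exact ⟨i, hi, rfl⟩
  · rintro ⟨i, hi, rfl⟩; exact ⟨i, hi, rfl⟩

theorem inj_ruler (c : ℕ) : Function.Injective (fun i : ℕ => (c + 1) * 2 ^ i) := by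
  intro i j h
  have h1 : 2 ^ i = 2 ^ j := Nat.eq_of_mul_eq_mul_left (Nat.succ_pos c) h
  exact Nat.pow_right_injective (le_refl 2) h1

theorem card_ruler (c k : ℕ) : (ruler c k).card = k := by
  unfold ruler
  rw [Finset.card_image_of_injective _ (inj_ruler c), Finset.card_range]

theorem pos_of_mem {c k x : ℕ} (h : x ∈ ruler c k) : c < x := by
  obtain ⟨i, _, rfl⟩ := mem_ruler.1 h
  have : 1 ≤ 2 ^ i := Nat.one_le_two_pow
  nlinarith

theorem le_of_mem {c k x : ℕ} (h : x ∈ ruler c k) : 2 * x ≤ (c + 1) * 2 ^ k := by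
  obtain ⟨i, hi, rfl⟩ := mem_ruler.1 h
  have h1 : 2 ^ (i + 1) ≤ 2 ^ k := Nat.pow_le_pow_right (by norm_num) hi
  have h2 : 2 * ((c + 1) * 2 ^ i) = (c + 1) * 2 ^ (i + 1) := by ring
  rw [h2]
  exact Nat.mul_le_mul_left _ h1

/-- two elements are more than `c` apart -/
theorem spaced {c k x y : ℕ} (hx : x ∈ ruler c k) (hy : y ∈ ruler c k) (h : x < y) : x + c < y := by
  obtain ⟨i, _, rfl⟩ := mem_ruler.1 hx
  obtain ⟨j, _, rfl⟩ := mem_ruler.1 hy
  have hij : i < j := by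
    by_contra hc
    have h1 : 2 ^ j ≤ 2 ^ i := Nat.pow_le_pow_right (by norm_num) (not_lt.1 hc)
    have := Nat.mul_le_mul_left (c + 1) h1
    omega
  have h2 : 2 ^ (i + 1) ≤ 2 ^ j := Nat.pow_le_pow_right (by norm_num) hij
  have h3 : (c + 1) * 2 ^ (i + 1) ≤ (c + 1) * 2 ^ j := Nat.mul_le_mul_left _ h2
  have h4 : (c + 1) * 2 ^ (i + 1) = (c + 1) * 2 ^ i + (c + 1) * 2 ^ i := by ring
  have h5 : 1 ≤ 2 ^ i := Nat.one_le_two_pow
  have h6 : c + 1 ≤ (c + 1) * 2 ^ i := by nlinarith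
  omega

/-- a sum of two powers of two determines the two exponents -/
theorem two_pow_add {a b c d : ℕ} (hab : a ≤ b) (hcd : c ≤ d) (h : 2 ^ a + 2 ^ b = 2 ^ c + 2 ^ d) :
    a = c ∧ b = d := by
  have key : ∀ {a b c d : ℕ}, a ≤ b → c ≤ d → 2 ^ a + 2 ^ b = 2 ^ c + 2 ^ d → ¬ b < d := by
    intro a b c d hab hcd h hbd
    have h1 : 2 ^ a ≤ 2 ^ b := Nat.pow_le_pow_right (by norm_num) hab
    have h2 : 2 ^ (b + 1) ≤ 2 ^ d := Nat.pow_le_pow_right (by norm_num) hbd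
    have h3 : 2 ^ (b + 1) = 2 ^ b + 2 ^ b := by ring
    have h4 : 1 ≤ 2 ^ c := Nat.one_le_two_pow
    omega
  have hbd : b = d := by
    rcases lt_trichotomy b d with hlt | heq | hgt
    · exact absurd hlt (key hab hcd h)
    · exact heq
    · exact absurd hgt (key hcd hab h.symm)
  subst hbd
  have h1 : 2 ^ a = 2 ^ c := by omega
  exact ⟨Nat.pow_right_injective (le_refl 2) h1, rfl⟩

theorem two_pow_cross {i j i' j' : ℕ} (hij : i ≠ j) (h : 2 ^ i + 2 ^ j' = 2 ^ i' + 2 ^ j) :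
    i = i' ∧ j = j' := by
  rcases le_total i j' with h1 | h1 <;> rcases le_total i' j with h2 | h2
  · obtain ⟨ha, hb⟩ := two_pow_add h1 h2 h
    exact ⟨ha, hb.symm⟩
  · obtain ⟨ha, _⟩ := two_pow_add h1 h2 (by rw [h]; ring)
    exact absurd ha hij
  · obtain ⟨_, hb⟩ := two_pow_add h1 h2 (by rw [← h]; ring)
    exact absurd hb hij
  · obtain ⟨ha, hb⟩ := two_pow_add h1 h2 (by linarith)
    exact ⟨hb, ha.symm⟩

/-- all differences of the ruler are different modulo every large modulus -/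
theorem golomb {c k m : ℕ} (hm : 4 * ((c + 1) * 2 ^ k) < m) {x y x' y' : ℕ}
    (hx : x ∈ ruler c k) (hy : y ∈ ruler c k) (hx' : x' ∈ ruler c k) (hy' : y' ∈ ruler c k)
    (hne : x ≠ y) (h : ((x : ℤ) - y) ≡ ((x' : ℤ) - y') [ZMOD m]) : x = x' ∧ y = y' := by
  have e : (x : ℤ) - y = (x' : ℤ) - y' := by
    have h0 : (m : ℤ) ∣ ((x' : ℤ) - y') - ((x : ℤ) - y) := h.dvd
    have b1 := le_of_mem hx
    have b2 := le_of_mem hy
    have b3 := le_of_mem hx'
    have b4 := le_of_mem hy'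
    have habs : |((x' : ℤ) - y') - ((x : ℤ) - y)| < (m : ℤ) := by
      rw [abs_lt]
      constructor <;> omega
    have := Int.eq_zero_of_abs_lt_dvd h0 habs
    linarith
  obtain ⟨i, _, rfl⟩ := mem_ruler.1 hx
  obtain ⟨j, _, rfl⟩ := mem_ruler.1 hy
  obtain ⟨i', _, rfl⟩ := mem_ruler.1 hx'
  obtain ⟨j', _, rfl⟩ := mem_ruler.1 hy'
  have hij : i ≠ j := by
    rintro rfl
    exact hne rfl
  have e2 : (c + 1) * (2 ^ i + 2 ^ j') = (c + 1) * (2 ^ i' + 2 ^ j) := by
    zify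
    push_cast at e
    linarith
  have e3 : 2 ^ i + 2 ^ j' = 2 ^ i' + 2 ^ j := Nat.eq_of_mul_eq_mul_left (Nat.succ_pos c) e2
  obtain ⟨r1, r2⟩ := two_pow_cross hij e3
  exact ⟨by rw [r1], by rw [r2]⟩

/-- **Wrong clock.**  If the right clock is shifted by `r`, not `0` modulo `m`, at most one place of
the ruler is legal on both sides. -/
theorem wrong_clock {c k m : ℕ} (hm : 4 * ((c + 1) * 2 ^ k) < m) {r : ℤ} (hr : ¬ (m : ℤ) ∣ r)
    {x y x' y' : ℕ} (hx : x ∈ ruler c k) (hy : y ∈ ruler c k) (hx' : x' ∈ ruler c k)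
    (hy' : y' ∈ ruler c k) (h : (y : ℤ) ≡ x + r [ZMOD m]) (h' : (y' : ℤ) ≡ x' + r [ZMOD m]) :
    x = x' ∧ y = y' := by
  have hne : y ≠ x := by
    rintro rfl
    apply hr
    have := h.dvd
    simpa using this
  have h1 : ((y : ℤ) - x) ≡ r [ZMOD m] := by
    have := h.sub_right (x : ℤ)
    simpa using this
  have h2 : ((y' : ℤ) - x') ≡ r [ZMOD m] := by
    have := h'.sub_right (x' : ℤ)
    simpa using this
  obtain ⟨a, b⟩ := golomb hm hy hx hy' hx' hne (h1.trans h2.symm)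
  exact ⟨b, a⟩

/-- existence form -/
theorem exists_ruler (c k : ℕ) : ∃ J : Finset ℕ, J.card = k ∧
    (∀ x ∈ J, ∀ y ∈ J, x < y → x + c < y) ∧ ∃ m0 : ℕ, (∀ x ∈ J, x < m0) ∧
    ∀ m : ℕ, m0 < m → ∀ x ∈ J, ∀ y ∈ J, ∀ x' ∈ J, ∀ y' ∈ J, x ≠ y →
      ((x : ℤ) - y) ≡ ((x' : ℤ) - y') [ZMOD m] → x = x' ∧ y = y' := by
  refine ⟨ruler c k, card_ruler c k, fun x hx y hy h => spaced hx hy h, 4 * ((c + 1) * 2 ^ k), ?_, ?_⟩
  · intro x hx
    have h1 := le_of_mem hx
    have h2 := pos_of_mem hx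
    omega
  · intro m hm x hx y hy x' hx' y' hy' hne h
    exact golomb hm hx hy hx' hy' hne h

end Crest.Agent.R320.Golomb68
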