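import Mathlib
import Crest.Agent.R320.Golomb_68

/-!
Row 320, piece (8), second form: one ruler `C = {U * 2^i : i < k}` which is Golomb
* modulo every `m` in a finite set `ms` which is prime to `1 + 5 * M'`,
* modulo `M'` (`2 * 2^k ≤ M'`),
* modulo `m * M'` at resolution `M'` for every `m` in `ms` (`13 * 2^k ≤ m`, no coprimality needed),
* in the integers at resolution `R`,
where the size `k` is fixed first, then the moduli, then `R`.
-/

set_option autoImplicit false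

namespace Crest.Agent.R320.Golomb68

/-- four-term combination of powers of two -/
def dl (a b c d : ℕ) : ℤ := ((2 : ℤ) ^ a - 2 ^ b) - (2 ^ c - 2 ^ d)

theorem two_pow_le {a k : ℕ} (h : a < k) : (2 : ℤ) * 2 ^ a ≤ 2 ^ k := by
  have h1 : (2 : ℤ) ^ (a + 1) ≤ 2 ^ k := pow_le_pow_right₀ (by norm_num) h
  have h2 : (2 : ℤ) ^ (a + 1) = 2 * 2 ^ a := by ring
  linarith

theorem dl_bound {a b c d k : ℕ} (ha : a < k) (hb : b < k) (hc : c < k) (hd : d < k) :
    |dl a b c d| < 2 * 2 ^ k := by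
  have h1 := two_pow_le ha
  have h2 := two_pow_le hb
  have h3 := two_pow_le hc
  have h4 := two_pow_le hd
  have p1 : (0 : ℤ) < 2 ^ a := by positivity
  have p2 : (0 : ℤ) < 2 ^ b := by positivity
  have p3 : (0 : ℤ) < 2 ^ c := by positivity
  have p4 : (0 : ℤ) < 2 ^ d := by positivity
  unfold dl
  rw [abs_lt]
  constructor <;> linarith

theorem dl_zero {a b c d : ℕ} (h : dl a b c d = 0) : (a = c ∧ b = d) ∨ (a = b ∧ c = d) := by
  unfold dl at h
  by_cases hab : a = b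
  · right
    subst hab
    refine ⟨rfl, ?_⟩
    have h1 : (2 : ℤ) ^ c = 2 ^ d := by linarith
    have h2 : (2 : ℕ) ^ c = 2 ^ d := by exact_mod_cast h1
    exact Nat.pow_right_injective (le_refl 2) h2
  · left
    have h1 : (2 : ℤ) ^ a + 2 ^ d = 2 ^ c + 2 ^ b := by linarith
    have h2 : (2 : ℕ) ^ a + 2 ^ d = 2 ^ c + 2 ^ b := by exact_mod_cast h1
    obtain ⟨r1, r2⟩ := two_pow_cross hab h2
    exact ⟨r1, r2⟩

/-- an integer which is small and not zero is not divisible by `m` -/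
theorem dl_dvd {a b c d k m : ℕ} (ha : a < k) (hb : b < k) (hc : c < k) (hd : d < k)
    (hm : 2 * 2 ^ k ≤ m) (h : (m : ℤ) ∣ dl a b c d) : dl a b c d = 0 := by
  apply Int.eq_zero_of_abs_lt_dvd h
  have h1 := dl_bound ha hb hc hd
  have h2 : ((2 * 2 ^ k : ℕ) : ℤ) ≤ (m : ℤ) := by exact_mod_cast hm
  push_cast at h2
  linarith

/-- **the multi-modulus ruler** -/
theorem exists_ruler_multi (k : ℕ) (M' : ℕ) (hM' : 2 * 2 ^ k ≤ M') (ms : Finset ℕ)
    (hms : ∀ m ∈ ms, 13 * 2 ^ k ≤ m) (R : ℕ) :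
    ∃ C : ℕ → ℕ, Function.Injective C ∧
      (∀ a b c d : ℕ, a < k → b < k → c < k → d < k → ∀ m ∈ ms, Nat.Coprime m (1 + 5 * M') →
        (m : ℤ) ∣ ((C a : ℤ) - C b) - (C c - C d) → (a = c ∧ b = d) ∨ (a = b ∧ c = d)) ∧
      (∀ a b c d : ℕ, a < k → b < k → c < k → d < k →
        (M' : ℤ) ∣ ((C a : ℤ) - C b) - (C c - C d) → (a = c ∧ b = d) ∨ (a = b ∧ c = d)) ∧
      (∀ a b c d : ℕ, a < k → b < k → c < k → d < k → ∀ m ∈ ms, ∀ e : ℤ, |e| ≤ M' →
        (m : ℤ) * M' ∣ (((C a : ℤ) - C b) - (C c - C d)) - e →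
        (a = c ∧ b = d) ∨ (a = b ∧ c = d)) ∧
      (∀ a b c d : ℕ, a < k → b < k → c < k → d < k →
        |((C a : ℤ) - C b) - (C c - C d)| ≤ R → (a = c ∧ b = d) ∨ (a = b ∧ c = d)) := by
  have hk : 0 < 2 ^ k := by positivity
  obtain ⟨M, hM0, hM⟩ : ∃ M : ℕ, 0 < M ∧ ∀ m ∈ ms, m ∣ M := by
    refine ⟨∏ m ∈ ms, m, ?_, fun m hm => Finset.dvd_prod_of_mem _ hm⟩
    apply Finset.prod_pos
    intro m hm
    have := hms m hm
    omega
  have hM'0 : 0 < M' := by omega
  -- the unit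
  obtain ⟨V, hV⟩ : ∃ V : ℕ, V = 1 + M' * (5 + M * R) := ⟨_, rfl⟩
  have hR : R < V := by
    have h1 : R ≤ M * R := Nat.le_mul_of_pos_left R hM0
    have h2 : M * R ≤ M' * (5 + M * R) := by nlinarith
    omega
  have hVz : (V : ℤ) = 1 + (M' : ℤ) * (5 + M * R) := by rw [hV]; push_cast; ring
  have hdiff : ∀ a b c d : ℕ,
      (((V * 2 ^ a : ℕ) : ℤ) - ((V * 2 ^ b : ℕ) : ℤ)) - (((V * 2 ^ c : ℕ) : ℤ) - ((V * 2 ^ d : ℕ) : ℤ))
        = (V : ℤ) * dl a b c d := by
    intro a b c d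
    unfold dl
    push_cast
    ring
  refine ⟨fun i => V * 2 ^ i, ?_, ?_, ?_, ?_, ?_⟩
  · intro i j h
    have hVpos : 0 < V := by omega
    exact Nat.pow_right_injective (le_refl 2) (Nat.eq_of_mul_eq_mul_left hVpos h)
  · intro a b c d ha hb hc hd m hm hco h
    rw [hdiff] at h
    apply dl_zero
    have hmk := hms m hm
    obtain ⟨t, ht⟩ : (m : ℤ) ∣ (M : ℤ) := by exact_mod_cast hM m hm
    have h1 : (m : ℤ) ∣ (V : ℤ) * dl a b c d - m * (M' * t * R * dl a b c d) :=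
      dvd_sub h (dvd_mul_right _ _)
    have h2 : (V : ℤ) * dl a b c d - m * (M' * t * R * dl a b c d)
        = ((1 + 5 * M' : ℕ) : ℤ) * dl a b c d := by
      rw [hVz, ht]; push_cast; ring
    rw [h2] at h1
    have h3 : IsCoprime (m : ℤ) ((1 + 5 * M' : ℕ) : ℤ) := Nat.isCoprime_iff_coprime.2 hco
    exact dl_dvd ha hb hc hd (by omega) (h3.dvd_of_dvd_mul_left h1)
  · intro a b c d ha hb hc hd h
    rw [hdiff] at h
    apply dl_zero
    apply dl_dvd ha hb hc hd hM'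
    have h1 : (M' : ℤ) ∣ (V : ℤ) * dl a b c d - M' * ((5 + M * R) * dl a b c d) :=
      dvd_sub h (dvd_mul_right _ _)
    have h2 : (V : ℤ) * dl a b c d - M' * ((5 + M * R) * dl a b c d) = dl a b c d := by
      rw [hVz]; ring
    rwa [h2] at h1
  · intro a b c d ha hb hc hd m hm e he h
    rw [hdiff] at h
    apply dl_zero
    by_contra hne
    have hmk := hms m hm
    obtain ⟨t, ht⟩ : (m : ℤ) ∣ (M : ℤ) := by exact_mod_cast hM m hm
    have h1 : (m : ℤ) * M' ∣ ((V : ℤ) * dl a b c d - e) - (m : ℤ) * M' * (t * R * dl a b c d) :=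
      dvd_sub h (dvd_mul_right _ _)
    have h2 : ((V : ℤ) * dl a b c d - e) - (m : ℤ) * M' * (t * R * dl a b c d)
        = (1 + 5 * M') * dl a b c d - e := by
      rw [hVz, ht]; ring
    rw [h2] at h1
    have hb1 := dl_bound ha hb hc hd
    have hM'z : (0 : ℤ) < (M' : ℤ) := by exact_mod_cast hM'0
    have hmz : (13 : ℤ) * 2 ^ k ≤ (m : ℤ) := by exact_mod_cast hmk
    have hkz : (1 : ℤ) ≤ 2 ^ k := one_le_pow₀ (by norm_num)
    have habs1 : 1 ≤ |dl a b c d| := Int.one_le_abs hne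
    have habs2 : |dl a b c d| ≤ 2 * 2 ^ k - 1 := by linarith
    have hx1 : |(1 + 5 * (M' : ℤ)) * dl a b c d| = (1 + 5 * M') * |dl a b c d| := by
      rw [abs_mul, abs_of_pos (by linarith : (0 : ℤ) < 1 + 5 * M')]
    have hup : |(1 + 5 * (M' : ℤ)) * dl a b c d - e| < (m : ℤ) * M' := by
      have h3 : |(1 + 5 * (M' : ℤ)) * dl a b c d - e| ≤ |(1 + 5 * (M' : ℤ)) * dl a b c d| + |e| :=
        abs_sub _ _
      rw [hx1] at h3
      have h4 : (1 + 5 * (M' : ℤ)) * |dl a b c d| ≤ (6 * M') * (2 * 2 ^ k - 1) := by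
        apply mul_le_mul _ habs2 (by linarith) (by linarith)
        linarith
      have h5 : (13 : ℤ) * 2 ^ k * M' ≤ (m : ℤ) * M' := mul_le_mul_of_nonneg_right hmz hM'z.le
      nlinarith
    have hz := Int.eq_zero_of_abs_lt_dvd h1 hup
    have h6 : (1 + 5 * (M' : ℤ)) * dl a b c d = e := by linarith
    rw [← h6, hx1] at he
    nlinarith
  · intro a b c d ha hb hc hd h
    rw [hdiff] at h
    apply dl_zero
    by_contra hne
    have habs1 : 1 ≤ |dl a b c d| := Int.one_le_abs hne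
    have hVpos : (0 : ℤ) < V := by
      have : 0 < V := by omega
      exact_mod_cast this
    rw [abs_mul, abs_of_pos hVpos] at h
    have hRz : (R : ℤ) < V := by exact_mod_cast hR
    nlinarith

end Crest.Agent.R320.Golomb68
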