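import Crest.Agent.R320.UG_219

/-!
# Row 320: abstract scheme-1 gadget with the two cases of the clock total separated
(variant of UG_219.ugadget, for the b-anchored grids of 693 #13203)
-/

set_option autoImplicit false

namespace Crest.Agent.R320.Grid1_166

open Crest.Agent.R320.UG219

theorem per {β : Type*} {M : ℕ} {f : ℕ → β} (h : ∀ t, f (t + M) = f t) (t k : ℕ) :
    f (t + M * k) = f t := by
  induction k with
  | zero => simp
  | succ k ih => rw [Nat.mul_succ, ← add_assoc, h, ih]

theorem per_mod {β : Type*} {M : ℕ} {f : ℕ → β} (h : ∀ t, f (t + M) = f t) (t : ℕ) :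
    f t = f (t % M) := by
  conv_lhs => rw [← Nat.mod_add_div t M]
  exact per h _ _

theorem ug2 (S V : Type*) [Monoid S] [Finite S] [AddCommGroup V] [Finite V]
    (act : V → S → V) :
    ∃ (m r : ℕ), 0 < m ∧ ∀ Bd : ℕ, ∃ (Ms : Finset ℕ) (L : ℕ → S → List S → ℕ → Option V)
      (R : (ℕ → Option (List S × S)) → ℕ → Option V) (D0 : ℕ → S → V)
      (D1 : S → List S → S → V),
      Ms.card ≤ r ∧ (∀ p ∈ Ms, p.Prime ∧ Bd < p) ∧
      (∀ i x zl t, L i x zl (t + ∏ p ∈ Ms, p) = L i x zl t) ∧
      (∀ vw t, R vw (t + ∏ p ∈ Ms, p) = R vw t) ∧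
      (∀ t s, D0 (t + ∏ p ∈ Ms, p) s = D0 t s) ∧
      (∀ (t t' i : ℕ) (x : S) (zl : List S) (vw : ℕ → Option (List S × S)) (v b : V) (s : S),
        (∃ p ∈ Ms, p ∣ t + t') → L i x zl t = some v → R vw t' = some b →
        b = act v s + D0 (t + t') s) ∧
      (∀ (t t' i : ℕ) (x : S) (zl : List S) (vw : ℕ → Option (List S × S)) (v b : V),
        (∀ p ∈ Ms, ¬ p ∣ t + t') → L i x zl t = some v → R vw t' = some b →
        i < m ∧ ∃ zr y, vw i = some (zr, y) ∧ ∀ z, zl.length = i →
          b = act v (x * zl.prod * z * (zr.prod * y)) + D1 x (zl ++ z :: zr) y) ∧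
      (∀ (T : ℕ) (x : S) (zs : List S) (y : S) (v : V), zs.length = m →
        (∀ p ∈ Ms, ¬ p ∣ T) → ∏ p ∈ Ms, p ≤ T + 1 → ∃ i < m,
          ∃ t, t < ∏ p ∈ Ms, p ∧ t ≤ T ∧ L i x (zs.take i) t = some v ∧
            ∀ vw : ℕ → Option (List S × S), vw i = some (zs.drop (i + 1), y) →
              ∃ b, R vw (T - t) = some b) := by
  classical
  have := Fintype.ofFinite S
  have := Fintype.ofFinite V
  obtain ⟨m, N, e, F, hN, hF⟩ := RandF808.exists_noise S V act
  have : NeZero N := ⟨hN.ne'⟩
  let WW := ZMod N × ZMod N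
  have hm : 0 < m := by
    obtain ⟨i, hi, -⟩ := hF 1 0 0
    omega
  let col : Nm m S V WW → V × V := fun c => (c.v, lab act e F c)
  obtain ⟨r, hr⟩ := Names_570.exists_names col
  refine ⟨m, r, hm, fun Bd => ?_⟩
  obtain ⟨Ms, nmL, nmR, hcard, hp, hperL, hperR, h1, h2, h3⟩ := hr Bd
  let M := ∏ p ∈ Ms, p
  -- the junctions of a bad clock total
  let J : ℕ → Prop := fun T => ∃ q : (ℕ × ℕ) × (Nm m S V WW × Nm m S V WW),
    (q.1.1 + q.1.2) % M = T ∧ nmL q.1.1 = some q.2.1 ∧ nmR q.1.2 = some q.2.2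
  let D0 : ℕ → S → V := fun T s =>
      (if h : J (T % M) then lab act e F h.choose.2.2 - act h.choose.2.1.v s else 0)
  let D1 : S → List S → S → V := fun x zs y => F (x * zs.prod * y) (ws e 0 zs)
  refine ⟨Ms, Lb act e F nmL, Rb act e F nmR, D0, D1, hcard, hp, ?_, ?_, ?_, ?_, ?_, ?_⟩
  · intro i x zl t
    unfold Lb
    rw [hperL]
  · intro vw t
    unfold Rb
    rw [hperR]
  · intro t s
    simp only [D0]
    have : (t + ∏ p ∈ Ms, p) % M = t % M := Nat.add_mod_right _ _
    rw [this]
  · -- soundness, bad totals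
    intro t t' i x zl vw v b s hT hL hR
    obtain ⟨c, c1, c2, c3, c4, c5, c6⟩ := Lb_some hL
    obtain ⟨c', c1', c2', -, c6'⟩ := Rb_some hR
    have hJ : J ((t + t') % M) := ⟨((t, t'), (c, c')), rfl, c1, c1'⟩
    have hD : D0 (t + t') s = lab act e F hJ.choose.2.2 - act hJ.choose.2.1.v s := by
      simp only [D0]
      rw [dif_pos hJ]
    have hsp := hJ.choose_spec
    obtain ⟨e1, e2, e3⟩ := hsp
    set q := hJ.choose with hq
    have hsum : q.1.1 + (q.1.2 + M * ((t + t') / M)) = t + (t' + M * ((q.1.1 + q.1.2) / M)) := by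
      have a1 := Nat.mod_add_div (t + t') M
      have a2 := Nat.mod_add_div (q.1.1 + q.1.2) M
      rw [e1] at a2
      omega
    have hdv : ∃ p ∈ Ms, p ∣ q.1.1 + (q.1.2 + M * ((t + t') / M)) := by
      obtain ⟨p, hpm, hd⟩ := hT
      refine ⟨p, hpm, ?_⟩
      rw [hsum, ← add_assoc]
      exact dvd_add hd (dvd_mul_of_dvd_left (Finset.dvd_prod_of_mem _ hpm) _)
    have key := h3 q.1.1 (q.1.2 + M * ((t + t') / M)) t (t' + M * ((q.1.1 + q.1.2) / M))
      q.2.1 q.2.2 c c' hsum hdv e2 (by rw [per hperR]; exact e3) c1 (by rw [per hperR]; exact c1')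
    rw [hD, ← c6, ← c6']
    rcases key with ⟨k1, k2⟩ | ⟨k1, k2, k3⟩
    · rw [k1, k2]; abel
    · have kv : c.v = c'.v := by
        have := congrArg Prod.fst k3
        simp only [col] at this
        rw [k1, k2] at this
        exact this.symm
      have kl : lab act e F c = lab act e F c' := by
        have := congrArg Prod.snd k3
        simp only [col] at this
        rw [k1, k2] at this
        exact this.symm
      rw [k1, k2, kv, kl]; abel
  · -- soundness, good totals
    intro t t' i x zl vw v b hT hL hR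
    obtain ⟨c, c1, c2, c3, c4, c5, c6⟩ := Lb_some hL
    obtain ⟨c', c1', c2', ⟨zr', y', c3', c4', c5'⟩, c6'⟩ := Rb_some hR
    have hcc : c = c' := h1 t t' c c' hT c1 c1'
    subst hcc
    refine ⟨by rw [← c3]; exact c.i.2, zr', y', by rw [← c3]; exact c3', fun z hlen => ?_⟩
    have hprod : x * (zl ++ z :: zr').prod * y' = x * zl.prod * z * (zr'.prod * y') := by
      simp only [List.prod_append, List.prod_cons, mul_assoc]
    have hg := c2 z
    have hws : ws e 0 (zl ++ z :: zr') = c.wl + e c.i z + c.wr := by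
      rw [ws_append, c5, c5', c3, hlen]
      simp only [ws, Nat.zero_add]
      rw [add_assoc]
    have hs : x * (zl ++ z :: zr').prod * y' = c.g * z * c.h := by
      rw [hprod, c4, c4']
    show b = act v (x * zl.prod * z * (zr'.prod * y')) +
      F (x * (zl ++ z :: zr').prod * y') (ws e 0 (zl ++ z :: zr'))
    rw [hws, ← hprod, hs, ← c6', ← c6, ← hg]
    abel
  · -- completeness
    intro T x zs y v hlen hT hTM
    obtain ⟨i, hi, hgood⟩ := hF (x * zs.prod * y) (ws e 0 zs) v
    refine ⟨i, hi, ?_⟩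
    have hi' : i < zs.length := by omega
    have hsplit : zs = zs.take i ++ zs[i] :: zs.drop (i + 1) := by
      rw [← List.drop_eq_getElem_cons hi', List.take_append_drop]
    let c : Nm m S V WW := ⟨⟨i, hi⟩, x * (zs.take i).prod, ws e 0 (zs.take i),
      (zs.drop (i + 1)).prod * y, ws e (i + 1) (zs.drop (i + 1)), v⟩
    have hs : x * zs.prod * y = c.g * zs[i] * c.h := by
      conv_lhs => rw [hsplit]
      simp only [List.prod_append, List.prod_cons, mul_assoc, c]
    have hw : ws e 0 zs = c.wl + e i zs[i] + c.wr := by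
      conv_lhs => rw [hsplit]
      rw [ws_append]
      have hl : (zs.take i).length = i := by rw [List.length_take]; omega
      rw [hl]
      simp only [ws, Nat.zero_add, c]
      rw [add_assoc]
    have hall : ∀ z : S, F (c.g * z * c.h) (c.wl + e i z + c.wr) + act v (c.g * z * c.h)
        = F (x * zs.prod * y) (ws e 0 zs) + act v (x * zs.prod * y) := by
      intro z
      have := hgood c.g zs[i] c.h hs.symm z
      rw [← this]
      have : ws e 0 zs - e i zs[i] + e i z = c.wl + e i z + c.wr := by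
        rw [hw]; abel
      rw [this]
    have hgc : Good act e F c := by
      intro z
      have a1 := hall z
      have a2 := hall 1
      show F (c.g * z * c.h) (c.wl + e i z + c.wr) + act v (c.g * z * c.h)
        = F (c.g * 1 * c.h) (c.wl + e i 1 + c.wr) + act v (c.g * 1 * c.h)
      rw [a1, a2]
    obtain ⟨t, t1, t2, t3, t4, t5⟩ := h2 T c 0 hT (by omega)
    refine ⟨t, by omega, t3, ?_, fun vw hvw => ⟨lab act e F c, ?_⟩⟩
    · exact Lb_of c t4 hgc rfl rfl rfl
    · exact Rb_of c t5 hgc _ _ hvw rfl rfl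

end Crest.Agent.R320.Grid1_166
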