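import Crest.Agent.R320.Grid_193

/-!
# Row 320: 693's grid gadget: labels, soundness, completeness (helper193)
-/

set_option autoImplicit false

namespace Crest.Agent.R320.Grid_193

open Finset

section

variable {S W V : Type*} [Monoid S] [AddCommGroup W] [AddCommGroup V]

/-- what is needed of the names -/
structure Names (K : Con) (act : V → S → V) (e : ℕ → S → W) (F : S → W → V) (Ms : Finset ℕ)
    (nmL nmR : ℕ → Option (Nm K.m S W V)) : Prop where
  perL : ∀ t, nmL (t + K.M) = nmL t
  perR : ∀ t, nmR (t + K.M) = nmR t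
  dvd : ∀ k ∈ Ms, k ∣ K.M
  same : ∀ t t' c c', (∀ k ∈ Ms, ¬ k ∣ t + t') → nmL t = some c → nmR t' = some c' → c = c'
  ex : ∀ T c s, (∀ k ∈ Ms, ¬ k ∣ T) → s + K.M ≤ T + 1 →
    ∃ t, s ≤ t ∧ t < s + K.M ∧ t ≤ T ∧ nmL t = some c ∧ nmR (T - t) = some c
  mis : ∀ t1 t1' t2 t2' c1 c1' c2 c2', t1 + t1' = t2 + t2' → (∃ k ∈ Ms, k ∣ t1 + t1') →
    nmL t1 = some c1 → nmR t1' = some c1' → nmL t2 = some c2 → nmR t2' = some c2' →
    vv K c1 = vv K c2 ∧ bb K act e F c1' = bb K act e F c2'

variable {K : Con} {act : V → S → V} {e : ℕ → S → W} {F : S → W → V} {Ms : Finset ℕ}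
  {nmL nmR : ℕ → Option (Nm K.m S W V)}

theorem per_mul {X : Type*} {f : ℕ → X} {M : ℕ} (h : ∀ t, f (t + M) = f t) (t k : ℕ) :
    f (t + M * k) = f t := by
  induction k with
  | zero => rfl
  | succ k ih => rw [Nat.mul_succ, ← Nat.add_assoc, h, ih]

theorem per_mod {X : Type*} {f : ℕ → X} {M : ℕ} (h : ∀ t, f (t + M) = f t) {t t' : ℕ}
    (e : t % M = t' % M) : f t = f t' := by
  rw [← Nat.mod_add_div t M, ← Nat.mod_add_div t' M, per_mul h, per_mul h, e]

/-- mismatching pair of names at residue `r` -/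
def Mis (K : Con) (nmL nmR : ℕ → Option (Nm K.m S W V)) (r : ℕ)
    (cc : Nm K.m S W V × Nm K.m S W V) : Prop :=
  ∃ t t', (t + t') % K.M = r ∧ nmL t = some cc.1 ∧ nmR t' = some cc.2

theorem Names.mis' (hN : Names K act e F Ms nmL nmR) {r : ℕ} {c d : Nm K.m S W V × Nm K.m S W V}
    (h1 : Mis K nmL nmR r c) (h2 : Mis K nmL nmR r d) (hb : ∃ k ∈ Ms, k ∣ r) :
    vv K c.1 = vv K d.1 ∧ bb K act e F c.2 = bb K act e F d.2 := by
  obtain ⟨t1, t1', e1, l1, r1⟩ := h1
  obtain ⟨t2, t2', e2, l2, r2⟩ := h2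
  obtain ⟨k, hk, hkr⟩ := hb
  refine hN.mis t1 (t1' + K.M * ((t2 + t2') / K.M)) t2 (t2' + K.M * ((t1 + t1') / K.M)) c.1 c.2
    d.1 d.2 ?_ ⟨k, hk, ?_⟩ l1 ?_ l2 ?_
  · have a := Nat.mod_add_div (t1 + t1') K.M
    have b := Nat.mod_add_div (t2 + t2') K.M
    rw [e1] at a
    rw [e2] at b
    omega
  · have a := Nat.mod_add_div (t1 + t1') K.M
    rw [e1] at a
    have : t1 + (t1' + K.M * ((t2 + t2') / K.M)) =
        r + K.M * ((t1 + t1') / K.M + (t2 + t2') / K.M) := by
      rw [mul_add]; omega
    rw [this]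
    exact Dvd.dvd.add hkr (Dvd.dvd.mul_right (hN.dvd k hk) _)
  · rw [per_mul hN.perR]; exact r1
  · rw [per_mul hN.perR]; exact r2

variable {A : Type*} (phi : A → S)

open Classical in
/-- left label -/
noncomputable def lam (K : Con) (act : V → S → V) (e : ℕ → S → W) (F : S → W → V)
    (nmL : ℕ → Option (Nm K.m S W V)) (phi : A → S) (p : List A) : Option V :=
  (nmL p.length).bind fun c => if LD K act e F phi p c then some (vv K c) else none

open Classical in
/-- right label -/
noncomputable def rho (K : Con) (act : V → S → V) (e : ℕ → S → W) (F : S → W → V)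
    (nmR : ℕ → Option (Nm K.m S W V)) (phi : A → S) (q : List A) : Option V :=
  (nmR q.length).bind fun c => if RD K e phi q c then some (bb K act e F c) else none

open Classical in
/-- noise of a zone -/
noncomputable def nu (K : Con) (act : V → S → V) (e : ℕ → S → W) (F : S → W → V) (Ms : Finset ℕ)
    (nmL nmR : ℕ → Option (Nm K.m S W V)) (phi : A → S) (u : List A) : V :=
  if ∃ k ∈ Ms, k ∣ u.length % K.M then
    if h : ∃ cc : Nm K.m S W V × Nm K.m S W V, Mis K nmL nmR (u.length % K.M) cc then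
      bb K act e F (Classical.choose h).2 - act (vv K (Classical.choose h).1) (pr phi u)
    else 0
  else F (pr phi u) (wt K e phi u)

theorem lam_some {p : List A} {v : V} (h : lam K act e F nmL phi p = some v) :
    ∃ c, nmL p.length = some c ∧ LD K act e F phi p c ∧ vv K c = v := by
  unfold lam at h
  cases hc : nmL p.length with
  | none => rw [hc] at h; simp at h
  | some c =>
    rw [hc] at h
    simp only [Option.bind_some] at h
    split_ifs at h with h1
    exact ⟨c, rfl, h1, Option.some.inj h⟩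

theorem rho_some {q : List A} {v : V} (h : rho K act e F nmR phi q = some v) :
    ∃ c, nmR q.length = some c ∧ RD K e phi q c ∧ bb K act e F c = v := by
  unfold rho at h
  cases hc : nmR q.length with
  | none => rw [hc] at h; simp at h
  | some c =>
    rw [hc] at h
    simp only [Option.bind_some] at h
    split_ifs at h with h1
    exact ⟨c, rfl, h1, Option.some.inj h⟩

theorem lam_eq {p : List A} {c : Nm K.m S W V} (h : nmL p.length = some c)
    (h1 : LD K act e F phi p c) : lam K act e F nmL phi p = some (vv K c) := by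
  unfold lam
  rw [h, Option.bind_some, if_pos h1]

theorem rho_eq {q : List A} {c : Nm K.m S W V} (h : nmR q.length = some c)
    (h1 : RD K e phi q c) : rho K act e F nmR phi q = some (bb K act e F c) := by
  unfold rho
  rw [h, Option.bind_some, if_pos h1]

theorem dvd_mod {k M T : ℕ} (h : k ∣ M) : k ∣ T % M ↔ k ∣ T := by
  exact Nat.dvd_mod_iff h

theorem sound (hN : Names K act e F Ms nmL nmR) {p q : List A} {v b : V}
    (hl : lam K act e F nmL phi p = some v) (hr : rho K act e F nmR phi q = some b) :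
    b = act v (pr phi (p ++ q)) + nu K act e F Ms nmL nmR phi (p ++ q) := by
  obtain ⟨c, h1, h2, rfl⟩ := lam_some phi hl
  obtain ⟨c', h1', h2', rfl⟩ := rho_some phi hr
  unfold nu
  by_cases hb : ∃ k ∈ Ms, k ∣ (p ++ q).length % K.M
  · rw [if_pos hb]
    have hm : Mis K nmL nmR ((p ++ q).length % K.M) (c, c') :=
      ⟨p.length, q.length, by rw [List.length_append], h1, h1'⟩
    have hex : ∃ cc : Nm K.m S W V × Nm K.m S W V, Mis K nmL nmR ((p ++ q).length % K.M) cc :=
      ⟨_, hm⟩
    rw [dif_pos hex]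
    obtain ⟨a1, a2⟩ := hN.mis' hm (Classical.choose_spec hex) hb
    rw [← a1, ← a2]
    simp
  · rw [if_neg hb]
    have hcc : c = c' := by
      refine hN.same p.length q.length c c' ?_ h1 h1'
      intro k hk hd
      exact hb ⟨k, hk, by rw [dvd_mod (hN.dvd k hk), List.length_append]; exact hd⟩
    subst hcc
    exact same_sound K act e F phi h2 h2'

/-- bad totals -/
def BadT (K : Con) (Ms : Finset ℕ) (T : ℕ) : Prop :=
  (∃ k ∈ Ms, k ∣ T) ∨ ∃ j, 1 ≤ j ∧ j ≤ K.m ∧
    (T % K.G j < K.M * K.G (j - 1) ∨ K.G j < T % K.G j + K.M * K.G (j - 1))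

/-- minimal length -/
def La (K : Con) : ℕ := K.L * (K.m + 1)

theorem La_ge : K.M ≤ La K := by
  have h1 : K.M * 1 ≤ K.M * K.Gam ^ K.m := Nat.mul_le_mul_left _ (Nat.pow_pos K.hG)
  have h2 : K.L = 2 * (K.M * K.Gam ^ K.m) := by unfold Con.L; ring
  have h3 : K.L * 1 ≤ K.L * (K.m + 1) := Nat.mul_le_mul_left _ (by omega)
  unfold La
  omega

theorem complete (hN : Names K act e F Ms nmL nmR)
    (hF : ∀ (s : S) (w : W) (v : V), ∃ i < K.m, ∀ g x h : S, g * x * h = s → ∀ z : S,
        F (g * z * h) (w - e i x + e i z) + act v (g * z * h) = F s w + act v s)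
    {u : List A} (hu : La K ≤ u.length) (hB : ¬ BadT K Ms u.length) (v : V) :
    ∃ p q, p ++ q = u ∧ lam K act e F nmL phi p = some v ∧
      (rho K act e F nmR phi q).isSome := by
  obtain ⟨i, hi, hz⟩ := hF (pr phi u) (wt K e phi u) v
  set g := pr phi (u.take (K.be u.length i)) with hg
  set x := pr phi ((u.take (K.be u.length (i + 1))).drop (K.be u.length i)) with hx
  set h := pr phi (u.drop (K.be u.length (i + 1))) with hh
  set wl := ws e phi u (K.be u.length) (range i) with hwl
  set wr := ws e phi u (K.be u.length) (Ico (i + 1) K.m) with hwr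
  have hs : g * x * h = pr phi u := (split_val K phi u hi).symm
  have hw : wt K e phi u = wl + e i x + wr := split_ws e phi u (K.be u.length) hi
  have hz' := hz g x h hs
  have key : ∀ z, F (g * z * h) (wl + e i z + wr) + act v (g * z * h) =
      F (pr phi u) (wt K e phi u) + act v (pr phi u) := by
    intro z
    rw [← hz' z]
    congr 2
    rw [hw]; abel
  let c : Nm K.m S W V := (⟨i, hi⟩, g, wl, h, wr, v)
  have hU : Used K act e F c := fun z => (key z).trans (key 1).symm
  have hnd : ∀ k ∈ Ms, ¬ k ∣ u.length := fun k hk hd => hB (Or.inl ⟨k, hk, hd⟩)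
  obtain ⟨t0, -, -, ht0, hL0, hR0⟩ := hN.ex u.length c 0 hnd (by
    have := La_ge (K := K); omega)
  -- CRT
  have hcop : Nat.Coprime K.M (K.G i) := Nat.Coprime.pow_right _ K.cop
  obtain ⟨k, hk1, hk2⟩ := Nat.chineseRemainder hcop t0 u.length
  have hKK : 0 < K.M * K.G i := Nat.mul_pos K.hM (K.G_pos i)
  have hGi : K.G i ≤ K.M * K.G i := Nat.le_mul_of_pos_left _ K.hM
  set r := (k + (K.M * K.G i - K.G i)) % (K.M * K.G i) with hr
  have hrlt : r < K.M * K.G i := Nat.mod_lt _ hKK
  set o := K.L * i + K.G i + r with ho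
  have hok : o ≡ k [MOD (K.M * K.G i)] := by
    have h1 : K.L * i ≡ 0 [MOD (K.M * K.G i)] :=
      (Nat.modEq_zero_iff_dvd.2 (Dvd.dvd.mul_right (K.MG_dvd_L hi.le) i))
    have h2 : r ≡ k + (K.M * K.G i - K.G i) [MOD (K.M * K.G i)] := Nat.mod_modEq _ _
    have h3 : K.L * i + K.G i + r ≡ 0 + K.G i + (k + (K.M * K.G i - K.G i))
        [MOD (K.M * K.G i)] := (h1.add_right _).add h2
    have h4 : 0 + K.G i + (k + (K.M * K.G i - K.G i)) = k + K.M * K.G i := by omega
    rw [h4] at h3
    exact h3.trans (by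
      have : k + K.M * K.G i ≡ k + 0 [MOD (K.M * K.G i)] :=
        Nat.ModEq.add_left _ (Nat.modEq_zero_iff_dvd.2 dvd_rfl)
      simpa using this)
  have hoM : o ≡ t0 [MOD K.M] := (hok.of_mul_right _).trans hk1
  have hoG : o ≡ u.length [MOD K.G i] := (hok.of_mul_left _).trans hk2
  have hCell : K.Cell i o := ⟨by omega, by omega⟩
  have hoL : o < K.L * (i + 1) := K.o_lt hi.le hCell
  have hLa : K.L * (i + 1) ≤ La K := Nat.mul_le_mul_left _ (by omega)
  have hou : o ≤ u.length := by omega
  have hplen : (u.take o).length = o := by rw [List.length_take]; omega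
  have hqlen : (u.drop o).length = u.length - o := List.length_drop
  have hRL : K.RLeg i (u.length - o) := by
    refine ⟨(Nat.modEq_iff_dvd' hou).1 hoG, fun j hij hj => ?_⟩
    have hnb : ¬ (u.length % K.G j < K.M * K.G (j - 1) ∨
        K.G j < u.length % K.G j + K.M * K.G (j - 1)) :=
      fun hh => hB (Or.inr ⟨j, by omega, hj, hh⟩)
    have hGG : K.M * K.G i ≤ K.M * K.G (j - 1) :=
      Nat.mul_le_mul_left _ (Nat.le_of_dvd (K.G_pos _) (K.G_dvd (by omega)))
    have h1 : r ≤ u.length % K.G j := by omega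
    obtain ⟨c0, hc0⟩ := K.G_dvd_L hj
    have h2 : (u.length - o + K.G i) % K.G j = u.length % K.G j - r := by
      have a1 := Nat.mod_add_div u.length (K.G j)
      have a2 : u.length - o + K.G i + K.G j * (c0 * i) =
          (u.length % K.G j - r) + K.G j * (u.length / K.G j) := by
        have : K.G j * (c0 * i) = K.L * i := by rw [hc0]; ring
        rw [this]
        omega
      have a3 : (u.length - o + K.G i + K.G j * (c0 * i)) % K.G j =
          (u.length - o + K.G i) % K.G j := Nat.add_mul_mod_self_left _ _ _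
      rw [← a3, a2, Nat.add_mul_mod_self_left]
      exact Nat.mod_eq_of_lt (by have := Nat.mod_lt u.length (K.G_pos j); omega)
    rw [h2]
    omega
  have hcat : u.take o ++ u.drop o = u := List.take_append_drop o u
  have hCell' : K.Cell i (u.take o).length := by rw [hplen]; exact hCell
  have hRL' : K.RLeg i (u.drop o).length := by rw [hqlen]; exact hRL
  obtain ⟨a1, a2⟩ := transL (e := e) K phi hCell' hRL' hi
  obtain ⟨b1, b2⟩ := transR (e := e) K phi hCell' hRL' hi
  rw [hcat] at a1 a2 b1 b2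
  have hLD : LD K act e F phi (u.take o) c := ⟨hCell', hU, a1.symm, a2.symm⟩
  have hRD : RD K e phi (u.drop o) c := ⟨hRL', b1.symm, b2.symm⟩
  have hn1 : nmL (u.take o).length = some c := by
    rw [hplen, ← hL0]
    exact per_mod hN.perL hoM
  have hn2 : nmR (u.drop o).length = some c := by
    rw [hqlen, ← hR0]
    refine per_mod hN.perR ?_
    have h1 : (u.length - o) + o ≡ (u.length - t0) + o [MOD K.M] := by
      have : (u.length - t0) + o ≡ (u.length - t0) + t0 [MOD K.M] := Nat.ModEq.add_left _ hoM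
      rw [Nat.sub_add_cancel ht0] at this
      rw [Nat.sub_add_cancel hou]
      exact this.symm
    exact Nat.ModEq.add_right_cancel' o h1
  refine ⟨u.take o, u.drop o, hcat, lam_eq phi hn1 hLD, ?_⟩
  rw [rho_eq phi hn2 hRD]
  rfl

theorem lam_len {p : List A} {v : V} (h : lam K act e F nmL phi p = some v) :
    p.length ≤ La K := by
  obtain ⟨c, -, h2, -⟩ := lam_some phi h
  have h3 := K.o_lt c.1.2.le h2.1
  have h4 : K.L * ((c.1 : ℕ) + 1) ≤ La K := Nat.mul_le_mul_left _ (by have := c.1.2; omega)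
  omega

end

end Crest.Agent.R320.Grid_193
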