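import Crest.Agent.R320.Grid_219

/-!
# Row 320: the grid gadget with the finite-state clause, and the dependence lemmas
-/

set_option autoImplicit false
set_option linter.unusedSectionVars false

namespace Crest.Agent.R320.Grid219

theorem grid_gadget2 (S V : Type*) [Monoid S] [Finite S] [AddCommGroup V] [Finite V]
    (act : V → S → V) :
    ∃ (m r : ℕ), 0 < m ∧ ∀ Bd : ℕ, ∃ Ms : Finset ℕ, Ms.card ≤ r ∧
      (∀ p ∈ Ms, p.Prime ∧ Bd < p) ∧
      ∀ (P : Par), P.m = m → P.M = ∏ p ∈ Ms, p → (∀ j, Nat.Coprime (P.G j) P.M) →
      ∀ {α : Type*} (φ : List α → S), (∀ u v, φ (u ++ v) = φ u * φ v) →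
      ∃ (lam rho : List α → Option V) (nu : List α → V),
        (∀ p q v b, lam p = some v → rho q = some b →
          b = act v (φ (p ++ q)) + nu (p ++ q)) ∧
        (∀ p v, lam p = some v → P.A 0 ≤ p.length ∧ p.length < P.Am m) ∧
        (∀ q b, rho q = some b → P.Am m ≤ q.length) ∧
        (∀ q q' : List α, (P.Am m ≤ q.length ↔ P.Am m ≤ q'.length) →
          q.length % P.M = q'.length % P.M →
          (∀ i < m, view φ P q i = view φ P q' i) → rho q = rho q') ∧
        (∀ u u' : List α, u.length % P.M = u'.length % P.M →
          xT φ P u.length u = xT φ P u'.length u' → zT φ P u.length u = zT φ P u'.length u' →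
          yT φ P u.length u = yT φ P u'.length u' → nu u = nu u') ∧
        (∀ u : List α, P.Am m + P.Am m ≤ u.length → (∀ p ∈ Ms, ¬ p ∣ u.length) →
          ¬ P.BadG u.length → ∀ v, ∃ p q b, u = p ++ q ∧ lam p = some v ∧ rho q = some b) := by
  classical
  obtain ⟨m, r, hm, hmain⟩ := UG219.ugadget2 S V act
  refine ⟨m, r, hm, fun Bd => ?_⟩
  obtain ⟨Ms, L, R, D, hcard, hp, hLper, hRper, hRloc, hsound, hcomp⟩ := hmain Bd
  refine ⟨Ms, hcard, hp, fun P hPm hPM hcop α φ hφ => ?_⟩
  subst hPm
  let zl : List α → ℕ → List S := fun p i =>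
    (List.range i).map fun j => seg φ p (P.be p.length j) (P.be p.length (j + 1))
  let lam : List α → Option V := fun p =>
    if h : ∃ i, i < P.m ∧ P.A i ≤ p.length ∧ p.length < P.A i + P.c i then
      L h.choose (xT φ P p.length p) (zl p h.choose) p.length else none
  let rho : List α → Option V := fun q =>
    if P.Am P.m ≤ q.length then R (view φ P q) q.length else none
  let nu : List α → V := fun u =>
    D (u.length % P.M + P.M) (xT φ P u.length u) (zT φ P u.length u) (yT φ P u.length u)
  have hlam : ∀ p v, lam p = some v → ∃ i, i < P.m ∧ P.A i ≤ p.length ∧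
      p.length < P.A i + P.c i ∧ L i (xT φ P p.length p) (zl p i) p.length = some v := by
    intro p v hv
    by_cases h : ∃ i, i < P.m ∧ P.A i ≤ p.length ∧ p.length < P.A i + P.c i
    · have hv' : L h.choose (xT φ P p.length p) (zl p h.choose) p.length = some v := by
        have : lam p = L h.choose (xT φ P p.length p) (zl p h.choose) p.length := by
          simp only [lam]
          rw [dif_pos h]
        rw [← this]; exact hv
      exact ⟨h.choose, h.choose_spec.1, h.choose_spec.2.1, h.choose_spec.2.2, hv'⟩
    · have : lam p = none := by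
        simp only [lam]
        rw [dif_neg h]
      rw [this] at hv
      exact absurd hv (by simp)
  have hlam' : ∀ p i, i < P.m → P.A i ≤ p.length → p.length < P.A i + P.c i →
      lam p = L i (xT φ P p.length p) (zl p i) p.length := by
    intro p i h1 h2 h3
    have h : ∃ i, i < P.m ∧ P.A i ≤ p.length ∧ p.length < P.A i + P.c i := ⟨i, h1, h2, h3⟩
    have he : h.choose = i := P.cell_unique h.choose_spec.2.1 h.choose_spec.2.2 h2 h3
    simp only [lam]
    rw [dif_pos h, he]
  refine ⟨lam, rho, nu, ?_, ?_, ?_, ?_, ?_, ?_⟩
  · -- soundness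
    intro p q v b hv hb
    obtain ⟨i, hi, h1, h2, hL⟩ := hlam p v hv
    have hq : P.Am P.m ≤ q.length := by
      by_contra hq
      simp only [rho] at hb
      rw [if_neg hq] at hb
      exact absurd hb (by simp)
    have hR : R (view φ P q) q.length = some b := by
      simp only [rho] at hb
      rwa [if_pos hq] at hb
    have hMpos := P.hM
    have hpm : p.length % P.M < P.M := Nat.mod_lt _ hMpos
    have hmod1 : (p.length % P.M) % P.M = p.length % P.M := Nat.mod_mod _ _
    have hmod2 : ((p ++ q).length % P.M + P.M - p.length % P.M) % P.M = q.length % P.M := by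
      have h3 : ((p ++ q).length % P.M + P.M - p.length % P.M) + p.length % P.M
          = (p ++ q).length % P.M + P.M := by omega
      have h4 : ((p ++ q).length % P.M + P.M - p.length % P.M) + p.length % P.M
          ≡ q.length + p.length % P.M [MOD P.M] := by
        rw [h3]
        show ((p ++ q).length % P.M + P.M) % P.M = _
        rw [Nat.add_mod_right, Nat.mod_mod, List.length_append, add_comm, Nat.add_mod_mod]
      exact Nat.ModEq.add_right_cancel' _ h4
    have hL' : L i (xT φ P p.length p) (zl p i) (p.length % P.M) = some v := by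
      rw [← hL]
      exact per_eq (L i (xT φ P p.length p) (zl p i)) _ (hLper _ _ _) (by rw [← hPM]; exact hmod1)
    have hR' : R (view φ P q) ((p ++ q).length % P.M + P.M - p.length % P.M) = some b := by
      rw [← hR]
      exact per_eq (R (view φ P q)) _ (hRper _) (by rw [← hPM]; exact hmod2)
    have key := hsound i (p.length % P.M) ((p ++ q).length % P.M + P.M - p.length % P.M)
      (xT φ P p.length p) (zl p i)
      (xT φ P (p ++ q).length (p ++ q)) (zT φ P (p ++ q).length (p ++ q))
      (yT φ P (p ++ q).length (p ++ q)) (view φ P q) v b hi (length_zT _ _) ?_ hL' hR'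
    · rw [key, prod_total hφ]
      have h5 : p.length % P.M + ((p ++ q).length % P.M + P.M - p.length % P.M)
          = (p ++ q).length % P.M + P.M := by omega
      rw [h5]
    · intro q' hq'
      have hcond : P.G i ∣ q.length ∧ ∀ j, i < j → j ≤ P.m → P.Cl i q.length j := by
        by_contra hc
        unfold view at hq'
        rw [if_neg hc] at hq'
        exact absurd hq' (by simp)
      obtain ⟨a1, a2⟩ := left_true (φ := φ) (q := q) hi hcond.1 h1
      have a3 := right_true (φ := φ) hi h1 h2 hq hcond.1 hcond.2
      rw [a3] at hq'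
      exact ⟨a1, a2, (Option.some.inj hq').symm⟩
  · intro p v hv
    obtain ⟨i, hi, h1, h2, -⟩ := hlam p v hv
    refine ⟨?_, ?_⟩
    · have := P.Am_mono (Nat.zero_le i)
      have h3 : P.G 0 ≤ P.G i := Nat.le_of_dvd (P.hG i) (P.G_dvd (Nat.zero_le i))
      unfold Par.A at *
      omega
    · have := P.A_le_Am hi
      omega
  · intro q b hb
    by_contra hq
    simp only [rho] at hb
    rw [if_neg hq] at hb
    exact absurd hb (by simp)
  · intro q q' h1 h2 h3
    simp only [rho]
    by_cases hq : P.Am P.m ≤ q.length
    · rw [if_pos hq, if_pos (h1.1 hq), hRloc _ _ _ h3]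
      exact per_eq (R (view φ P q')) _ (hRper _) (by rw [← hPM]; exact h2)
    · rw [if_neg hq, if_neg (fun h => hq (h1.2 h))]
  · intro u u' h1 h2 h3 h4
    show D (u.length % P.M + P.M) _ _ _ = D (u'.length % P.M + P.M) _ _ _
    rw [h1, h2, h3, h4]
  · -- completeness
    intro u hu hMs hbad v
    set T := u.length with hT
    obtain ⟨i, hi, hcell⟩ := hcomp T (xT φ P T u) (zT φ P T u) (yT φ P T u) v (length_zT _ _) hMs
    have hMle : P.M ≤ T := by
      have h1 := P.A_le_Am hi
      have h2 : P.M ≤ P.c i := by
        unfold Par.c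
        exact Nat.le_mul_of_pos_right _ (P.hG i)
      omega
    obtain ⟨t, -, htM, htT, hLt, hRt⟩ := hcell 0 (by rw [← hPM]; omega)
    -- the place
    obtain ⟨k, hk1, hk2⟩ := Nat.chineseRemainder (hcop i) T t
    obtain ⟨o, ho1, ho2, ho3⟩ := Names_570.exists_shift k (P.A i) (P.M * P.G i)
      (Nat.mul_pos P.hM (P.hG i))
    have hoG : o ≡ T [MOD P.G i] := by
      have : o ≡ k [MOD P.G i] := by
        have h : o ≡ k [MOD P.M * P.G i] := ho3
        exact h.of_mul_left _
      exact this.trans hk1
    have hoM : o ≡ t [MOD P.M] := by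
      have : o ≡ k [MOD P.M] := by
        have h : o ≡ k [MOD P.M * P.G i] := ho3
        exact h.of_mul_right _
      exact this.trans hk2
    have hocell : o < P.A i + P.c i := by unfold Par.c; exact ho2
    have hoAm : o < P.Am P.m := by
      have := P.A_le_Am hi
      omega
    have hoT : o ≤ T := by omega
    have hlenp : (u.take o).length = o := by rw [List.length_take]; omega
    have hlenq : (u.drop o).length = T - o := by rw [List.length_drop]
    have hdvd : P.G i ∣ (u.drop o).length := by
      rw [hlenq]
      exact (Nat.modEq_iff_dvd' hoT).1 hoG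
    have hcl : ∀ j, i < j → j ≤ P.m → P.Cl i (u.drop o).length j := by
      intro j h1 h2
      rw [hlenq]
      have := P.Am_mono h2
      exact P.cl_of_not_bad hbad h1 h2 ho1 hocell (by omega)
    have hleft := left_true (φ := φ) (P := P) (p := u.take o) (q := u.drop o) hi hdvd
      (by rw [hlenp]; exact ho1)
    have hright := right_true (φ := φ) (P := P) (p := u.take o) (q := u.drop o) hi
      (by rw [hlenp]; exact ho1) (by rw [hlenp]; exact hocell) (by rw [hlenq]; omega) hdvd hcl
    rw [List.take_append_drop, ← hT] at hleft hright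
    obtain ⟨b, hb⟩ := hRt (view φ P (u.drop o)) hright
    refine ⟨u.take o, u.drop o, b, (List.take_append_drop o u).symm, ?_, ?_⟩
    · rw [hlam' (u.take o) i hi (by rw [hlenp]; exact ho1) (by rw [hlenp]; exact hocell)]
      rw [hleft.1]
      show L i (xT φ P T u) ((List.range i).map fun j =>
        seg φ (u.take o) (P.be (u.take o).length j) (P.be (u.take o).length (j + 1)))
        (u.take o).length = some v
      rw [hleft.2, hlenp, ← hLt]
      exact per_eq (L i (xT φ P T u) ((zT φ P T u).take i)) _ (hLper _ _ _)
        (by rw [← hPM]; exact hoM)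
    · simp only [rho]
      rw [if_pos (by rw [hlenq]; omega), hlenq, ← hb]
      refine per_eq (R (view φ P (u.drop o))) _ (hRper _) ?_
      rw [← hPM]
      have h1 : (T - o) + o ≡ (T - t) + t [MOD P.M] := by
        rw [Nat.sub_add_cancel hoT, Nat.sub_add_cancel htT]
      exact Nat.ModEq.add_right_cancel hoM h1

end Crest.Agent.R320.Grid219
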