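import Crest.Agent.R320.Grid_337
import Crest.Agent.R320.Golomb2_68
import Crest.Agent.R320.Names_755
import Crest.Agent.R320.RandF_808

/-!
# Row 320: ruler, spoil count, noise, final theorem of the grid gadget (693 #13203; helper337)
-/

set_option autoImplicit false

namespace Crest.Agent.R320.Grid_337

open Crest.Agent.R320.Golomb68

/-- a natural number in a band of width `Wd` around `0` modulo `G0` -/
def Band (G0 Wd n : ℕ) : Prop := n % G0 < Wd ∨ G0 < n % G0 + Wd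

theorem band_eps {G0 Wd n : ℕ} (h0 : 0 < G0) (h : Band G0 Wd n) :
    ∃ ε : ℤ, |ε| < Wd ∧ (G0 : ℤ) ∣ n - ε := by
  have h1 := Nat.mod_lt n h0
  have h2 : (G0 : ℤ) * ((n / G0 : ℕ) : ℤ) + ((n % G0 : ℕ) : ℤ) = n := by
    exact_mod_cast Nat.div_add_mod n G0
  rcases h with h | h
  · refine ⟨((n % G0 : ℕ) : ℤ), ?_, ((n / G0 : ℕ) : ℤ), by linarith⟩
    rw [abs_of_nonneg (by positivity)]
    exact_mod_cast h
  · refine ⟨((n % G0 : ℕ) : ℤ) - G0, ?_, ((n / G0 : ℕ) : ℤ) + 1, by linarith⟩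
    rw [abs_lt]
    constructor
    · have : (G0 : ℤ) < ((n % G0 : ℕ) : ℤ) + Wd := by exact_mod_cast h
      linarith
    · have : ((n % G0 : ℕ) : ℤ) < G0 := by exact_mod_cast h1
      have h3 : (0 : ℤ) < Wd := by
        have : (G0 : ℤ) < ((n % G0 : ℕ) : ℤ) + Wd := by exact_mod_cast h
        linarith
      linarith

theorem band_unique {K G0 Wd s' : ℕ} {σ : ℤ} (h0 : 0 < G0) (hσ : (G0 : ℤ) ∣ σ - s')
    (hW : 4 * Wd ≤ s') (h2 : s' * (2 * 2 ^ K) + 2 * Wd ≤ G0) {a b c d : ℕ} (ha : a < K)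
    (hb : b < K) (hc : c < K) (hd : d < K) {n1 n2 : ℕ}
    (hn : (n1 : ℤ) - n2 = σ * dl a b c d) (B1 : Band G0 Wd n1) (B2 : Band G0 Wd n2) :
    dl a b c d = 0 := by
  obtain ⟨ε1, e1, d1⟩ := band_eps h0 B1
  obtain ⟨ε2, e2, d2⟩ := band_eps h0 B2
  set X := dl a b c d with hX
  have hXb : |X| < 2 * 2 ^ K := dl_bound ha hb hc hd
  have hdvd : (G0 : ℤ) ∣ (s' : ℤ) * X - (ε1 - ε2) := by
    have h3 : (s' : ℤ) * X - (ε1 - ε2) = ((n1 : ℤ) - ε1) - (n2 - ε2) - (σ - s') * X := by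
      have : (n1 : ℤ) - n2 = σ * X := hn
      linarith [this, sub_mul σ (s' : ℤ) X]
    rw [h3]
    exact dvd_sub (dvd_sub d1 d2) (hσ.mul_right X)
  have hs0 : (0 : ℤ) ≤ s' := by positivity
  have hE : |ε1 - ε2| < 2 * (Wd : ℤ) := by
    rw [abs_lt] at e1 e2 ⊢
    constructor <;> linarith [e1.1, e1.2, e2.1, e2.2]
  have hsX : |(s' : ℤ) * X| ≤ s' * (2 * 2 ^ K) := by
    rw [abs_mul, abs_of_nonneg hs0]
    exact mul_le_mul_of_nonneg_left hXb.le hs0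
  have h2' : (s' : ℤ) * (2 * 2 ^ K) + 2 * Wd ≤ G0 := by exact_mod_cast h2
  have hz : (s' : ℤ) * X - (ε1 - ε2) = 0 := by
    apply Int.eq_zero_of_abs_lt_dvd hdvd
    rw [abs_lt]
    rw [abs_lt] at hE
    rw [abs_le] at hsX
    constructor <;> linarith [hE.1, hE.2, hsX.1, hsX.2]
  by_contra hne
  have h1X : (1 : ℤ) ≤ |X| := Int.one_le_abs hne
  have h5 : (s' : ℤ) ≤ |(s' : ℤ) * X| := by
    rw [abs_mul, abs_of_nonneg hs0]
    nlinarith
  have h6 : (s' : ℤ) * X = ε1 - ε2 := by linarith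
  rw [h6] at h5
  have h7 : (4 : ℤ) * Wd ≤ s' := by exact_mod_cast hW
  have h8 : (0 : ℤ) ≤ |ε1| := abs_nonneg _
  linarith

theorem mod_unique {K k : ℕ} {σ : ℤ} (hσ : (k : ℤ) ∣ σ - 1) (hk : 2 * 2 ^ K ≤ k)
    {a b c d : ℕ} (ha : a < K) (hb : b < K) (hc : c < K) (hd : d < K) {n1 n2 : ℕ}
    (hn : (n1 : ℤ) - n2 = σ * dl a b c d) (B1 : k ∣ n1) (B2 : k ∣ n2) :
    dl a b c d = 0 := by
  apply dl_dvd ha hb hc hd hk
  have h1 : (k : ℤ) ∣ (n1 : ℤ) - n2 := dvd_sub (Int.natCast_dvd_natCast.2 B1)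
    (Int.natCast_dvd_natCast.2 B2)
  have h2 : dl a b c d = ((n1 : ℤ) - n2) - (σ - 1) * dl a b c d := by rw [hn]; ring
  rw [h2]
  exact dvd_sub h1 (hσ.mul_right _)

/-- bad totals -/
def BadT (G : ℕ → ℕ) (m M : ℕ) (Ms : Finset ℕ) (T : ℕ) : Prop :=
  (∃ k ∈ Ms, k ∣ T) ∨ ∃ j < m, Band (G (j + 1)) ((M + 2) * G j) T

theorem not_badT {G : ℕ → ℕ} {m M : ℕ} {Ms : Finset ℕ} {T : ℕ} (h : ¬ BadT G m M Ms T) :
    (∀ k ∈ Ms, ¬ k ∣ T) ∧ Clear G m M T := by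
  refine ⟨fun k hk hd => h (Or.inl ⟨k, hk, hd⟩), fun j hj => ?_⟩
  by_contra hc
  refine h (Or.inr ⟨j, hj, ?_⟩)
  unfold Band
  by_contra h2
  push Not at h2
  exact hc h2

/-- parameters of the ruler -/
structure RulerP (G : ℕ → ℕ) (m M K : ℕ) (Ms : Finset ℕ) (σ : ℕ) (s : ℕ → ℕ) : Prop where
  kdvd : ∀ k ∈ Ms, (k : ℤ) ∣ (σ : ℤ) - 1
  kbig : ∀ k ∈ Ms, 2 * 2 ^ K ≤ k
  gdvd : ∀ j < m, ((G (j + 1) : ℕ) : ℤ) ∣ (σ : ℤ) - s j
  gpos : ∀ j, 0 < G j
  sbig : ∀ j < m, 4 * ((M + 2) * G j) ≤ s j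
  ssml : ∀ j < m, s j * (2 * 2 ^ K) + 2 * ((M + 2) * G j) ≤ G (j + 1)

theorem card_le_one_of {K : ℕ} {σ : ℕ} {T : ℕ} (hT : 2 ^ K * σ ≤ T) (B : ℕ → Prop)
    [DecidablePred B]
    (hB : ∀ a b c d : ℕ, a < K → b < K → c < K → d < K → ∀ n1 n2 : ℕ,
      (n1 : ℤ) - n2 = σ * dl a b c d → B n1 → B n2 → dl a b c d = 0) :
    ((Finset.range K ×ˢ Finset.range K).filter
      (fun p => p.1 ≠ p.2 ∧ B (T + 2 ^ p.1 * σ - 2 ^ p.2 * σ))).card ≤ 1 := by
  rw [Finset.card_le_one]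
  rintro ⟨a, b⟩ h1 ⟨c, d⟩ h2
  simp only [Finset.mem_filter, Finset.mem_product, Finset.mem_range] at h1 h2
  obtain ⟨⟨ha, hb⟩, hab, B1⟩ := h1
  obtain ⟨⟨hc, hd⟩, hcd, B2⟩ := h2
  have hle : ∀ b, b < K → 2 ^ b * σ ≤ T := fun b hb =>
    (Nat.mul_le_mul_right σ (Nat.pow_le_pow_right (by omega) hb.le)).trans hT
  have e1 : ((T + 2 ^ a * σ - 2 ^ b * σ : ℕ) : ℤ) = T + 2 ^ a * σ - 2 ^ b * σ := by
    rw [Nat.cast_sub (by have := hle b hb; omega)]; push_cast; ring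
  have e2 : ((T + 2 ^ c * σ - 2 ^ d * σ : ℕ) : ℤ) = T + 2 ^ c * σ - 2 ^ d * σ := by
    rw [Nat.cast_sub (by have := hle d hd; omega)]; push_cast; ring
  have h3 := hB a b c d ha hb hc hd _ _ (by rw [e1, e2]; unfold dl; ring) B1 B2
  rcases dl_zero h3 with ⟨rfl, rfl⟩ | ⟨h4, -⟩
  · rfl
  · exact absurd h4 hab

theorem spoil {G : ℕ → ℕ} {m M K : ℕ} {Ms : Finset ℕ} {σ : ℕ} {s : ℕ → ℕ}
    (h : RulerP G m M K Ms σ s) {T : ℕ} (hT : 2 ^ K * σ ≤ T)
    [DecidablePred fun p : ℕ × ℕ => p.1 ≠ p.2 ∧ BadT G m M Ms (T + 2 ^ p.1 * σ - 2 ^ p.2 * σ)] :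
    ((Finset.range K ×ˢ Finset.range K).filter
      (fun p => p.1 ≠ p.2 ∧ BadT G m M Ms (T + 2 ^ p.1 * σ - 2 ^ p.2 * σ))).card
      ≤ Ms.card + m := by
  classical
  let A : ℕ → Finset (ℕ × ℕ) := fun k => (Finset.range K ×ˢ Finset.range K).filter
      (fun p => p.1 ≠ p.2 ∧ k ∣ (T + 2 ^ p.1 * σ - 2 ^ p.2 * σ))
  let B : ℕ → Finset (ℕ × ℕ) := fun j => (Finset.range K ×ˢ Finset.range K).filter
      (fun p => p.1 ≠ p.2 ∧ Band (G (j + 1)) ((M + 2) * G j) (T + 2 ^ p.1 * σ - 2 ^ p.2 * σ))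
  have hsub : ((Finset.range K ×ˢ Finset.range K).filter
      (fun p => p.1 ≠ p.2 ∧ BadT G m M Ms (T + 2 ^ p.1 * σ - 2 ^ p.2 * σ))) ⊆
      Ms.biUnion A ∪ (Finset.range m).biUnion B := by
    intro p hp
    rw [Finset.mem_filter] at hp
    obtain ⟨hp1, hp2, hp3⟩ := hp
    rw [Finset.mem_union, Finset.mem_biUnion, Finset.mem_biUnion]
    rcases hp3 with ⟨k, hk, hd⟩ | ⟨j, hj, hd⟩
    · exact Or.inl ⟨k, hk, Finset.mem_filter.2 ⟨hp1, hp2, hd⟩⟩
    · exact Or.inr ⟨j, Finset.mem_range.2 hj, Finset.mem_filter.2 ⟨hp1, hp2, hd⟩⟩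
  refine (Finset.card_le_card hsub).trans ((Finset.card_union_le _ _).trans ?_)
  have h1 : (Ms.biUnion A).card ≤ Ms.card * 1 := by
    apply Finset.card_biUnion_le_card_mul
    intro k hk
    exact card_le_one_of hT (fun n => k ∣ n) fun a b c d ha hb hc hd n1 n2 hn B1 B2 =>
      mod_unique (h.kdvd k hk) (h.kbig k hk) ha hb hc hd hn B1 B2
  have h2 : ((Finset.range m).biUnion B).card ≤ (Finset.range m).card * 1 := by
    apply Finset.card_biUnion_le_card_mul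
    intro j hj
    have hj' := Finset.mem_range.1 hj
    exact card_le_one_of hT (fun n => Band (G (j + 1)) ((M + 2) * G j) n)
      fun a b c d ha hb hc hd n1 n2 hn B1 B2 =>
      band_unique (h.gpos _) (h.gdvd j hj') (h.sbig j hj') (h.ssml j hj') ha hb hc hd hn B1 B2
  rw [Finset.card_range] at h2
  omega

/-- existence of all parameters, `K` given first, then the moduli -/
theorem exists_params (m K M : ℕ) (hM : 0 < M) (Ms : Finset ℕ) (hMs : ∀ k ∈ Ms, k ∣ M)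
    (hb : ∀ k ∈ Ms, 2 * 2 ^ K ≤ k) :
    ∃ (G : ℕ → ℕ) (σ : ℕ) (s : ℕ → ℕ), Grid m M G ∧ RulerP G m M K Ms σ s ∧
      4 * ((M + 2) * G m) < σ := by
  classical
  let L : ℕ := (m + 3) * (8 * (M + 2) * (M + 2)) * (4 * 2 ^ K)
  let Γ : ℕ := M * L + 1
  let G : ℕ → ℕ := fun j => Γ ^ (j + 1)
  have hΓ : 0 < Γ := Nat.succ_pos _
  have hG : ∀ j, 0 < G j := fun j => Nat.pow_pos hΓ
  have hGs : ∀ j, G (j + 1) = Γ * G j := fun j => by
    show Γ ^ (j + 1 + 1) = Γ * Γ ^ (j + 1); rw [pow_succ' Γ (j + 1)]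
  have hGd : ∀ i j, i ≤ j → G i ∣ G j := fun i j hij => Nat.pow_dvd_pow Γ (by omega)
  have hGle : ∀ i j, i ≤ j → G i ≤ G j := fun i j hij => Nat.le_of_dvd (hG j) (hGd i j hij)
  have hLΓ : L ≤ Γ := by
    show L ≤ M * L + 1
    nlinarith [Nat.zero_le L]
  have hK1 : 1 ≤ 2 ^ K := Nat.one_le_two_pow
  have hML : M + 2 ≤ L := by
    show M + 2 ≤ (m + 3) * (8 * (M + 2) * (M + 2)) * (4 * 2 ^ K)
    have h1 : M + 2 ≤ 8 * (M + 2) * (M + 2) := by nlinarith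
    have h2 : 8 * (M + 2) * (M + 2) ≤ (m + 3) * (8 * (M + 2) * (M + 2)) :=
      Nat.le_mul_of_pos_left _ (by omega)
    have h3 : (m + 3) * (8 * (M + 2) * (M + 2)) ≤ (m + 3) * (8 * (M + 2) * (M + 2)) * (4 * 2 ^ K) :=
      Nat.le_mul_of_pos_right _ (by omega)
    omega
  let s : ℕ → ℕ := fun j => 1 + ∑ l ∈ Finset.range (j + 1), 4 * M * (M + 2) * G l
  let σ : ℕ := 1 + (∑ l ∈ Finset.range m, 4 * M * (M + 2) * G l) + 8 * M * (M + 2) * G m
  have hgrid : Grid m M G := by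
    refine ⟨hM, hG, hGd, ?_, ?_⟩
    · intro i j hij
      have h1 : (M + 2) * G i ≤ Γ * G i := Nat.mul_le_mul_right _ (hML.trans hLΓ)
      have h2 : Γ * G i = G (i + 1) := (hGs i).symm
      rw [h2] at h1
      exact h1.trans (hGle (i + 1) j hij)
    · intro i
      show Nat.Coprime M (Γ ^ (i + 1))
      apply Nat.Coprime.pow_right
      show Nat.Coprime M (M * L + 1)
      simp
  refine ⟨G, σ, s, hgrid, ⟨?_, hb, ?_, hG, ?_, ?_⟩, ?_⟩
  · intro k hk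
    obtain ⟨q, hq⟩ := hMs k hk
    have e1 : (σ : ℤ) - 1 = (M : ℤ) * (((∑ l ∈ Finset.range m, 4 * (M + 2) * G l) +
        8 * (M + 2) * G m : ℕ) : ℤ) := by
      have h1 : (∑ l ∈ Finset.range m, 4 * M * (M + 2) * G l)
          = M * ∑ l ∈ Finset.range m, 4 * (M + 2) * G l := by
        rw [Finset.mul_sum]
        exact Finset.sum_congr rfl fun l _ => by ring
      have h2 : σ = 1 + M * ((∑ l ∈ Finset.range m, 4 * (M + 2) * G l) + 8 * (M + 2) * G m) := by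
        show 1 + (∑ l ∈ Finset.range m, 4 * M * (M + 2) * G l) + 8 * M * (M + 2) * G m = _
        rw [h1]; ring
      rw [h2, Nat.cast_add, Nat.cast_mul, Nat.cast_one]
      ring
    rw [e1]
    exact (Int.natCast_dvd_natCast.2 ⟨q, hq⟩).mul_right _
  · intro j hj
    have e1 : (σ : ℤ) - s j = (((∑ l ∈ Finset.Ico (j + 1) m, 4 * M * (M + 2) * G l) +
        8 * M * (M + 2) * G m : ℕ) : ℤ) := by
      have h1 : (∑ l ∈ Finset.range (j + 1), 4 * M * (M + 2) * G l) +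
          (∑ l ∈ Finset.Ico (j + 1) m, 4 * M * (M + 2) * G l)
          = ∑ l ∈ Finset.range m, 4 * M * (M + 2) * G l :=
        Finset.sum_range_add_sum_Ico _ (by omega)
      have h2 : σ = s j + ((∑ l ∈ Finset.Ico (j + 1) m, 4 * M * (M + 2) * G l) +
        8 * M * (M + 2) * G m) := by
        show 1 + (∑ l ∈ Finset.range m, 4 * M * (M + 2) * G l) + 8 * M * (M + 2) * G m =
          (1 + ∑ l ∈ Finset.range (j + 1), 4 * M * (M + 2) * G l) + _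
        omega
      rw [h2]; push_cast; ring
    rw [e1]
    apply Int.natCast_dvd_natCast.2
    refine dvd_add (Finset.dvd_sum fun l hl => ?_) ?_
    · exact (hGd (j + 1) l (Finset.mem_Ico.1 hl).1).mul_left _
    · exact (hGd (j + 1) m (by omega)).mul_left _
  · intro j hj
    show 4 * ((M + 2) * G j) ≤ 1 + ∑ l ∈ Finset.range (j + 1), 4 * M * (M + 2) * G l
    rw [Finset.sum_range_succ]
    have : 4 * ((M + 2) * G j) ≤ 4 * M * (M + 2) * G j := by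
      have h1 : 1 * ((M + 2) * G j) ≤ M * ((M + 2) * G j) := Nat.mul_le_mul_right _ hM
      nlinarith
    omega
  · intro j hj
    have h1 : (∑ l ∈ Finset.range (j + 1), 4 * M * (M + 2) * G l)
        ≤ (j + 1) * (4 * M * (M + 2) * G j) := by
      have := Finset.sum_le_card_nsmul (Finset.range (j + 1))
        (fun l => 4 * M * (M + 2) * G l) (4 * M * (M + 2) * G j) (fun l hl =>
          Nat.mul_le_mul_left _ (hGle l j (by have := Finset.mem_range.1 hl; omega)))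
      simpa using this
    have hGj : 1 ≤ G j := hG j
    set X := (M + 2) * (M + 2) * G j with hX
    have hX1 : 1 ≤ X := Nat.mul_pos (Nat.mul_pos (by omega) (by omega)) hGj
    have h2 : 4 * M * (M + 2) * G j ≤ 4 * X := by
      have : M * ((M + 2) * G j) ≤ (M + 2) * ((M + 2) * G j) := Nat.mul_le_mul_right _ (by omega)
      rw [hX]; nlinarith
    have h3 : s j ≤ (m + 1) * (4 * X) + 1 := by
      have h4 : (j + 1) * (4 * M * (M + 2) * G j) ≤ (m + 1) * (4 * X) :=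
        Nat.mul_le_mul (by omega) h2
      show 1 + (∑ l ∈ Finset.range (j + 1), 4 * M * (M + 2) * G l) ≤ _
      omega
    have h5 : s j ≤ (m + 2) * (4 * X) := by
      have : (m + 2) * (4 * X) = (m + 1) * (4 * X) + 4 * X := by ring
      omega
    have h6 : 2 * ((M + 2) * G j) ≤ 2 * X := by
      have : 1 * ((M + 2) * G j) ≤ (M + 2) * ((M + 2) * G j) := Nat.mul_le_mul_right _ (by omega)
      rw [hX]; nlinarith
    have h7 : L * G j ≤ G (j + 1) := by rw [hGs]; exact Nat.mul_le_mul_right _ hLΓ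
    have h8 : L * G j = (m + 3) * (8 * X) * (4 * 2 ^ K) := by rw [hX]; show _ * _ = _; ring
    have h9 : s j * (2 * 2 ^ K) ≤ (m + 2) * (4 * X) * (2 * 2 ^ K) := Nat.mul_le_mul_right _ h5
    have h10 : (m + 2) * (4 * X) * (2 * 2 ^ K) + 2 * X ≤ (m + 3) * (8 * X) * (4 * 2 ^ K) := by
      have a1 : (m + 2) * (4 * X) * (2 * 2 ^ K) = (m + 2) * (8 * X) * 2 ^ K := by ring
      have a2 : (m + 3) * (8 * X) * (4 * 2 ^ K) = (m + 2) * (8 * X) * 2 ^ K +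
        ((3 * (m + 2) + 4) * (8 * X)) * 2 ^ K := by ring
      have a3 : 2 * X ≤ ((3 * (m + 2) + 4) * (8 * X)) * 2 ^ K := by
        have b1 : 8 * X ≤ (3 * (m + 2) + 4) * (8 * X) := Nat.le_mul_of_pos_left _ (by omega)
        have b2 : (3 * (m + 2) + 4) * (8 * X) ≤ ((3 * (m + 2) + 4) * (8 * X)) * 2 ^ K :=
          Nat.le_mul_of_pos_right _ (by omega)
        omega
      omega
    omega
  · show 4 * ((M + 2) * G m) < 1 + (∑ l ∈ Finset.range m, 4 * M * (M + 2) * G l) +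
      8 * M * (M + 2) * G m
    have h1 : 1 * ((M + 2) * G m) ≤ M * ((M + 2) * G m) := Nat.mul_le_mul_right _ hM
    have h2 : 8 * M * (M + 2) * G m = 8 * (M * ((M + 2) * G m)) := by ring
    omega

end Crest.Agent.R320.Grid_337
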