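import Crest.Agent.R320.Grid_381

/-!
Row 320, helper381: closed form of the grid gadget (helper693 #13203) in helper446's literal #13873.
-/

set_option autoImplicit false
set_option linter.unusedSectionVars false

namespace Crest.Agent.R320.Grid2_381

open Finset Crest.Agent.R320.Grid_381

theorem names_mod {Nm C : Type*} {col : Nm → C} {Ms : Finset ℕ} {M : ℕ} (hM : 0 < M)
    (hMs : ∀ k ∈ Ms, k ∣ M) {nmL nmR : ℕ → Option Nm}
    (hL : ∀ t, nmL (t + M) = nmL t) (hR : ∀ t, nmR (t + M) = nmR t)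
    (h : ∀ t1 t1' t2 t2' c1 c1' c2 c2', t1 + t1' = t2 + t2' → (∃ m ∈ Ms, m ∣ t1 + t1') →
        nmL t1 = some c1 → nmR t1' = some c1' → nmL t2 = some c2 → nmR t2' = some c2' →
        (c1 = c2 ∧ c1' = c2') ∨ (c1 = c2' ∧ c1' = c2 ∧ col c1 = col c1'))
    {t1 t1' t2 t2' : ℕ} {c1 c1' c2 c2' : Nm} (he : t1 + t1' ≡ t2 + t2' [MOD M])
    (hd : ∃ m ∈ Ms, m ∣ t1 + t1') (h1 : nmL t1 = some c1) (h1' : nmR t1' = some c1')
    (h2 : nmL t2 = some c2) (h2' : nmR t2' = some c2') :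
    (c1 = c2 ∧ c1' = c2') ∨ (c1 = c2' ∧ c1' = c2 ∧ col c1 = col c1') := by
  have hle : t2 + t2' ≤ (t1 + t1') + M * (t2 + t2') := by
    have := Nat.le_mul_of_pos_left (t2 + t2') hM
    omega
  have hmod : t2 + t2' ≡ (t1 + t1') + M * (t2 + t2') [MOD M] := by
    refine he.symm.trans ?_
    unfold Nat.ModEq
    rw [Nat.add_mul_mod_self_left]
  obtain ⟨l, hl⟩ := (Nat.modEq_iff_dvd' hle).1 hmod
  have hsh : ∀ t k, t + M * k ≡ t [MOD M] := by
    intro t k
    unfold Nat.ModEq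
    rw [Nat.add_mul_mod_self_left]
  refine h (t1 + M * (t2 + t2')) t1' (t2 + M * l) t2' _ _ _ _ (by omega) ?_ ?_ h1' ?_ h2'
  · obtain ⟨m, hm, hdm⟩ := hd
    refine ⟨m, hm, ?_⟩
    rw [show t1 + M * (t2 + t2') + t1' = t1 + t1' + M * (t2 + t2') by ring]
    exact dvd_add hdm ((hMs m hm).mul_right _)
  · rw [per_congr hL (hsh t1 _), h1]
  · rw [per_congr hL (hsh t2 _), h2]

theorem sum_pow_le {g : ℕ} (hg : 2 ≤ g) (l : ℕ) : ∑ i ∈ range (l + 1), g ^ i ≤ 2 * g ^ l := by
  induction l with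
  | zero => simp
  | succ l ih =>
    rw [Finset.sum_range_succ, pow_succ]
    have : 2 * g ^ l ≤ g ^ l * g := by rw [Nat.mul_comm 2]; exact Nat.mul_le_mul_left _ hg
    omega

/-- the thin sets -/
def BT (Ms : Finset ℕ) (M g r : ℕ) (j : ℕ) (T : ℤ) : Prop :=
  if j < r then ∃ k, (Ms.toList)[j]? = some k ∧ (k : ℤ) ∣ T
  else ∃ x : ℤ, |T - (Am M (fun i => g ^ i) (j - r + 1) : ℕ) - x * ((g ^ (j - r + 1) : ℕ) : ℤ)| <
    ((M * g ^ (j - r) : ℕ) : ℤ)

theorem BT_period {Ms : Finset ℕ} {M g r m : ℕ} (hMs : ∀ k ∈ Ms, k ∣ M) {j : ℕ} (hj : j < r + m)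
    (T : ℤ) : BT Ms M g r j (T + ((M * g ^ m : ℕ) : ℤ)) ↔ BT Ms M g r j T := by
  unfold BT
  split_ifs with hjr
  · constructor
    · rintro ⟨k, hk, hd⟩
      refine ⟨k, hk, ?_⟩
      have hkM : k ∣ M * g ^ m := (hMs k (Finset.mem_toList.1 (List.mem_of_getElem? hk))).mul_right _
      exact (dvd_add_left (Int.natCast_dvd_natCast.2 hkM)).1 hd
    · rintro ⟨k, hk, hd⟩
      refine ⟨k, hk, ?_⟩
      have hkM : k ∣ M * g ^ m := (hMs k (Finset.mem_toList.1 (List.mem_of_getElem? hk))).mul_right _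
      exact dvd_add hd (Int.natCast_dvd_natCast.2 hkM)
  · have hdv : g ^ (j - r + 1) ∣ M * g ^ m := (pow_dvd_pow g (by omega)).mul_left _
    obtain ⟨y, hy⟩ := hdv
    have hy' : ((M * g ^ m : ℕ) : ℤ) = ((g ^ (j - r + 1) : ℕ) : ℤ) * (y : ℤ) := by
      rw [hy]; push_cast; ring
    constructor
    · rintro ⟨x, hx⟩
      refine ⟨x - y, ?_⟩
      rw [hy'] at hx
      convert hx using 2
      ring
    · rintro ⟨x, hx⟩
      refine ⟨x + y, ?_⟩
      rw [hy']
      convert hx using 2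
      ring

theorem BT_thin {Ms : Finset ℕ} {M g r m Γ : ℕ} (hM : 0 < M) (hMs : ∀ k ∈ Ms, k ∣ M)
    (hMs2 : ∀ k ∈ Ms, 2 * Γ < k) (hg2 : 2 ≤ g) (hg : (16 * Γ + 2) * M < g)
    (hcop : Nat.Coprime M (g ^ m)) (U0 : ℕ) :
    ∃ U : ℕ, U0 ≤ U ∧ ∀ j < r + m, ∀ T d d' : ℤ, |d| ≤ Γ → |d'| ≤ Γ →
      BT Ms M g r j (T + U * d) → BT Ms M g r j (T + U * d') → d = d' := by
  obtain ⟨U', h1, h2⟩ := Nat.chineseRemainder hcop 1 (4 * M * ∑ i ∈ range m, g ^ i)
  have hgm : 0 < g ^ m := by positivity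
  refine ⟨U' + (M * g ^ m) * U0, ?_, ?_⟩
  · have := Nat.le_mul_of_pos_left U0 (Nat.mul_pos hM hgm)
    omega
  set U := U' + (M * g ^ m) * U0 with hU
  have hUM : U ≡ 1 [MOD M] := by
    refine Nat.ModEq.trans ?_ h1
    rw [hU, Nat.mul_assoc]
    unfold Nat.ModEq
    rw [Nat.add_mul_mod_self_left]
  have hUG : U ≡ 4 * M * ∑ i ∈ range m, g ^ i [MOD g ^ m] := by
    refine Nat.ModEq.trans ?_ h2
    rw [hU, Nat.mul_comm M, Nat.mul_assoc]
    unfold Nat.ModEq
    rw [Nat.add_mul_mod_self_left]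
  intro j hj T d d' hd hd' hb hb'
  have hdd : |d - d'| ≤ 2 * Γ := by
    rw [abs_le] at hd hd' ⊢
    constructor <;> linarith [hd.1, hd.2, hd'.1, hd'.2]
  unfold BT at hb hb'
  split_ifs at hb hb' with hjr
  · obtain ⟨k, hk, h3⟩ := hb
    obtain ⟨k', hk', h3'⟩ := hb'
    rw [hk] at hk'
    obtain rfl : k = k' := by simpa using hk'
    have hkm := Finset.mem_toList.1 (List.mem_of_getElem? hk)
    have h4 : (k : ℤ) ∣ (U : ℤ) * (d - d') := by
      have := dvd_sub h3 h3'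
      have e : T + (U : ℤ) * d - (T + (U : ℤ) * d') = (U : ℤ) * (d - d') := by ring
      rwa [e] at this
    have h5 : (k : ℤ) ∣ (U : ℤ) - 1 := by
      have := (Nat.modEq_iff_dvd.1 (hUM.of_dvd (hMs k hkm)).symm)
      simpa using this
    have h6 : (k : ℤ) ∣ d - d' := by
      have := dvd_sub h4 (h5.mul_right (d - d'))
      have e : (U : ℤ) * (d - d') - ((U : ℤ) - 1) * (d - d') = d - d' := by ring
      rwa [e] at this
    have h7 : d - d' = 0 := by
      apply Int.eq_zero_of_abs_lt_dvd h6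
      have := hMs2 k hkm
      have h8 : ((2 * Γ : ℕ) : ℤ) < (k : ℤ) := by exact_mod_cast this
      push_cast at h8
      linarith
    linarith
  · obtain ⟨x, hx⟩ := hb
    obtain ⟨x', hx'⟩ := hb'
    set l := j - r with hl
    have hlm : l < m := by omega
    set G : ℕ := g ^ (l + 1) with hG
    set c : ℕ := M * g ^ l with hc
    have hcpos : 0 < c := Nat.mul_pos hM (by positivity)
    set X : ℕ := 4 * M * ∑ i ∈ range (l + 1), g ^ i with hX
    have hX1 : 4 * c ≤ X := by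
      have : g ^ l ≤ ∑ i ∈ range (l + 1), g ^ i := by
        rw [Finset.sum_range_succ]; exact Nat.le_add_left _ _
      calc 4 * c = 4 * M * g ^ l := by rw [hc]; ring
        _ ≤ X := Nat.mul_le_mul_left _ this
    have hX2 : X ≤ 8 * c := by
      calc X ≤ 4 * M * (2 * g ^ l) := Nat.mul_le_mul_left _ (sum_pow_le hg2 l)
        _ = 8 * c := by rw [hc]; ring
    have hGc : (16 * Γ + 2) * c < G := by
      calc (16 * Γ + 2) * c = ((16 * Γ + 2) * M) * g ^ l := by rw [hc]; ring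
        _ < g * g ^ l := Nat.mul_lt_mul_of_pos_right hg (by positivity)
        _ = G := by rw [hG, pow_succ]; ring
    have hUX : (G : ℤ) ∣ (U : ℤ) - X := by
      have e1 : U ≡ 4 * M * ∑ i ∈ range m, g ^ i [MOD G] :=
        hUG.of_dvd (pow_dvd_pow g (by omega))
      have e2 : 4 * M * ∑ i ∈ range m, g ^ i ≡ X [MOD G] := by
        have e3 : ∑ i ∈ range m, g ^ i = ∑ i ∈ range (l + 1), g ^ i +
            ∑ i ∈ Ico (l + 1) m, g ^ i := by
          rw [range_eq_Ico, range_eq_Ico, Finset.sum_Ico_consecutive _ (Nat.zero_le _) (by omega)]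
        have e4 : G ∣ ∑ i ∈ Ico (l + 1) m, g ^ i :=
          Finset.dvd_sum fun i hi => pow_dvd_pow g (Finset.mem_Ico.1 hi).1
        obtain ⟨y, hy⟩ := e4
        rw [e3, hy, hX, Nat.mul_add]
        unfold Nat.ModEq
        rw [show 4 * M * (G * y) = G * (4 * M * y) by ring, Nat.add_mul_mod_self_left]
      exact Nat.modEq_iff_dvd.1 (e1.trans e2).symm
    obtain ⟨y, hy⟩ := hUX
    by_contra hne
    have he : d - d' ≠ 0 := sub_ne_zero.2 hne
    have he1 : 1 ≤ |d - d'| := Int.one_le_abs he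
    -- |X e - z G| < 2 c
    have key : |(X : ℤ) * (d - d') - ((x - x') - y * (d - d')) * G| < 2 * c := by
      have e1 : (X : ℤ) * (d - d') - ((x - x') - y * (d - d')) * G =
          (T + U * d - (Am M (fun i => g ^ i) (l + 1) : ℕ) - x * G) -
          (T + U * d' - (Am M (fun i => g ^ i) (l + 1) : ℕ) - x' * G) := by
        have : (U : ℤ) = X + G * y := by linarith
        rw [this]; ring
      rw [e1]
      refine lt_of_le_of_lt (abs_sub _ _) ?_
      have hx1 := hx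
      have hx2 := hx'
      linarith
    set z := (x - x') - y * (d - d') with hz
    have hXe1 : 4 * (c : ℤ) ≤ |(X : ℤ) * (d - d')| := by
      rw [abs_mul]
      have h1 : |(X : ℤ)| = X := abs_of_nonneg (by positivity)
      rw [h1]
      have h2 : (4 * c : ℤ) ≤ X := by exact_mod_cast hX1
      nlinarith [hcpos]
    have hXe2 : |(X : ℤ) * (d - d')| ≤ 16 * Γ * c := by
      rw [abs_mul]
      have h1 : |(X : ℤ)| = X := abs_of_nonneg (by positivity)
      rw [h1]
      have h2 : (X : ℤ) ≤ 8 * c := by exact_mod_cast hX2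
      calc (X : ℤ) * |d - d'| ≤ (8 * c) * (2 * Γ) :=
            mul_le_mul h2 hdd (abs_nonneg _) (by positivity)
        _ = 16 * Γ * c := by ring
    have hGc' : (16 * Γ + 2) * (c : ℤ) < G := by exact_mod_cast hGc
    have k1 := abs_lt.1 key
    by_cases hz0 : z = 0
    · rw [hz0, zero_mul, sub_zero] at key
      have : (0 : ℤ) < c := by exact_mod_cast hcpos
      linarith
    · have h1 : 1 ≤ |z| := Int.one_le_abs hz0
      have h2 : (G : ℤ) ≤ |z * G| := by
        rw [abs_mul]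
        have h3 : |(G : ℤ)| = G := abs_of_nonneg (by positivity)
        rw [h3]
        have : (0 : ℤ) ≤ G := by positivity
        nlinarith
      have h3 : |z * G| ≤ |(X : ℤ) * (d - d')| + |(X : ℤ) * (d - d') - z * G| := by
        have := abs_sub ((X : ℤ) * (d - d')) ((X : ℤ) * (d - d') - z * G)
        have e : (X : ℤ) * (d - d') - ((X : ℤ) * (d - d') - z * G) = z * G := by ring
        rw [e] at this
        exact this
      linarith

end Crest.Agent.R320.Grid2_381
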