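import Crest.Agent.R320.Zone132_898

/-!
# Row 320, grid gadget of 693 #13203 on words (scheme 1 without small walls)

Adapted from 898's `Zone132_898`.  The boundaries of the segments are the places
`H k = A k + n % G k` (`n = |Z|`, so `n - H k` is a multiple of `G k`: the grid is anchored at the
right end).  A cut of level `i` is at `o` in `[lo i, lo i + M * G i)` and the right side is legal
only if `G i ∣ n - o`.  Then the left side knows `H 0, .., H i` and the right side knows
`H (i+1), .., H m` unless a multiple of `G k` is in a short interval (then it is not legal).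
-/

namespace Crest.Agent.R320.Grid2_536

open Finset Crest.Agent.R320.Zone132_898

variable {α S V W : Type*}

/-- the data of the grid gadget -/
structure GData (α S V W : Type*) [Monoid S] [AddCommGroup V] [AddCommGroup W] where
  phi : List α → S
  hphi : ∀ u v, phi (u ++ v) = phi u * phi v
  act : V → S → V
  M : ℕ
  hM : 0 < M
  m : ℕ
  A : ℕ → ℕ
  G : ℕ → ℕ
  lo : ℕ → ℕ
  monoA : Monotone A
  hG : ∀ k, 0 < G k
  dG : ∀ j k, j ≤ k → G j ∣ G k
  geo1 : ∀ i, i < m → A i + G i ≤ lo i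
  geo2 : ∀ i, i < m → lo i + M * G i ≤ A (i + 1)
  e : ℕ → S → W
  F : S → W → V
  LN : ℕ → Option (Ctx S V W)
  RN : ℕ → Option (Ctx S V W)
  B : ℕ → Prop

variable [Monoid S] [AddCommGroup V] [AddCommGroup W]

namespace GData

variable (D : GData α S V W)

/-- boundary number `k` of a zone of length `n` -/
def Hb (n k : ℕ) : ℕ := D.A k + n % D.G k

/-- the same place counted from a cut of level `i` with right part of length `n'` -/
def Yb (i n' k : ℕ) : ℕ := n' + D.A k - D.G k * ((n' + D.lo i) / D.G k)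

/-- value of the sum when the hole is filled with `z` -/
def val (c : Ctx S V W) (z : S) : V :=
  D.F (c.g * z * c.h) (c.wl + D.e c.i z + c.wr) + D.act c.v (c.g * z * c.h)

/-- the value shown by the right side -/
def bval (c : Ctx S V W) : V := D.val c 1

/-- the name hides the hole -/
def Good (c : Ctx S V W) : Prop := ∀ z, D.val c z = D.bval c

/-- left legal -/
def LL (P : List α) (v : V) : Prop :=
  ∃ c : Ctx S V W, c.i < D.m ∧ D.lo c.i ≤ P.length ∧ P.length < D.lo c.i + D.M * D.G c.i ∧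
    D.LN P.length = some c ∧ D.Good c ∧ c.g = D.phi (P.take (D.Hb P.length c.i)) ∧
    c.wl = ∑ k ∈ range c.i, D.e k (zt D.phi P (D.Hb P.length k) (D.Hb P.length (k + 1))) ∧
    v = c.v

/-- right legal -/
def RR (Q : List α) (b : V) : Prop :=
  ∃ c : Ctx S V W, c.i < D.m ∧ D.RN Q.length = some c ∧ D.Good c ∧ D.G c.i ∣ Q.length ∧
    D.A D.m + D.G D.m ≤ Q.length + D.lo c.i ∧
    (∀ k, c.i < k → k ≤ D.m → (Q.length + D.lo c.i) / D.G k =
      (Q.length + D.lo c.i + D.M * D.G c.i - 1) / D.G k) ∧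
    c.h = D.phi (Q.drop (D.Yb c.i Q.length (c.i + 1))) ∧
    c.wr = ∑ k ∈ Ico (c.i + 1) D.m,
      D.e k (zt D.phi Q (D.Yb c.i Q.length k) (D.Yb c.i Q.length (k + 1))) ∧ b = D.bval c

/-- a legal pair of names over the length `n` -/
def Pair (n : ℕ) (p : Ctx S V W × Ctx S V W) : Prop :=
  ∃ o o', o + o' = n ∧ D.LN o = some p.1 ∧ D.RN o' = some p.2

open Classical in
/-- the noise -/
noncomputable def nu (Z : List α) : V :=
  if D.B Z.length then
    (if h : ∃ p : Ctx S V W × Ctx S V W, D.Pair Z.length p then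
      D.bval h.choose.2 - D.act h.choose.1.v (D.phi Z) else 0)
  else
    D.F (D.phi Z) (∑ k ∈ range D.m, D.e k (zt D.phi Z (D.Hb Z.length k) (D.Hb Z.length (k + 1))))

/-- names outside `B`: one name only -/
def N1 : Prop := ∀ o o' c c', ¬ D.B (o + o') → D.LN o = some c → D.RN o' = some c' → c = c'

/-- names inside `B`: the colour is a function of the length -/
def N2 : Prop := ∀ n p p', D.B n → D.Pair n p → D.Pair n p' →
  p.1.v = p'.1.v ∧ D.bval p.2 = D.bval p'.2

/-- every good name of level `< m` occurs in every cell -/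
def N3 : Prop := ∀ n c s, ¬ D.B n → D.Good c → c.i < D.m → s + D.M * D.G c.i ≤ n + 1 →
  ∃ o, s ≤ o ∧ o < s + D.M * D.G c.i ∧ o ≤ n ∧ D.LN o = some c ∧ D.RN (n - o) = some c ∧
    D.G c.i ∣ n - o

/-- the property of the noise function `F` (237, 808) -/
def Hides : Prop := ∀ (s : S) (w : W) (v : V), ∃ i, i < D.m ∧ ∀ g x h : S, g * x * h = s →
  ∀ z, D.F (g * z * h) (w - D.e i x + D.e i z) + D.act v (g * z * h) = D.F s w + D.act v s

theorem monoG {j k : ℕ} (h : j ≤ k) : D.G j ≤ D.G k :=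
  Nat.le_of_dvd (D.hG k) (D.dG j k h)

theorem Hb_lt (n k : ℕ) : D.Hb n k < D.A k + D.G k := by
  have := Nat.mod_lt n (D.hG k)
  unfold Hb; omega

theorem Hb_left {o o' i k : ℕ} (hk : k ≤ i) (h : D.G i ∣ o') : D.Hb (o + o') k = D.Hb o k := by
  unfold Hb
  have h1 : D.G k ∣ o' := (D.dG k i hk).trans h
  rw [Nat.add_mod, Nat.mod_eq_zero_of_dvd h1, Nat.add_zero, Nat.mod_mod]

theorem Hb_le_lo {n i k : ℕ} (hi : i < D.m) (hk : k ≤ i) : D.Hb n k ≤ D.lo i := by
  have h1 := D.Hb_lt n k
  have h2 := D.monoA hk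
  have h3 := D.monoG hk
  have h4 := D.geo1 i hi
  omega

theorem A_right {i k : ℕ} (hi : i < D.m) (hk : i < k) : D.lo i + D.M * D.G i ≤ D.A k :=
  le_trans (D.geo2 i hi) (D.monoA (by omega))

theorem Hb_right {o o' i k : ℕ} (hi : i < D.m) (hk : i < k) (h1 : D.lo i ≤ o)
    (h2 : o < D.lo i + D.M * D.G i)
    (h3 : (o' + D.lo i) / D.G k = (o' + D.lo i + D.M * D.G i - 1) / D.G k) :
    D.Hb (o + o') k = o + D.Yb i o' k := by
  have h4 : (o + o') / D.G k = (o' + D.lo i) / D.G k := by
    apply le_antisymm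
    · rw [h3]
      exact Nat.div_le_div_right (by omega)
    · exact Nat.div_le_div_right (by omega)
  have h5 := Nat.div_add_mod (o + o') (D.G k)
  have h6 := D.A_right hi hk
  have h7 : D.G k * ((o' + D.lo i) / D.G k) ≤ o' + D.lo i := Nat.mul_div_le _ _
  unfold Hb Yb
  rw [h4] at h5
  omega

theorem sound (h1 : D.N1) (h2 : D.N2) {P Q : List α} {v b : V} (hL : D.LL P v)
    (hR : D.RR Q b) : b = D.act v (D.phi (P ++ Q)) + D.nu (P ++ Q) := by
  classical
  obtain ⟨c, hi, hlo, hhi, hLN, hg, hcg, hcw, rfl⟩ := hL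
  obtain ⟨c', hi', hRN, hg', hdv, hvis, ht, hch, hcwr, rfl⟩ := hR
  have hlen : (P ++ Q).length = P.length + Q.length := List.length_append
  by_cases hB : D.B (P ++ Q).length
  · have hpair : D.Pair (P ++ Q).length (c, c') := ⟨P.length, Q.length, hlen.symm, hLN, hRN⟩
    have hex : ∃ p : Ctx S V W × Ctx S V W, D.Pair (P ++ Q).length p := ⟨_, hpair⟩
    unfold nu
    rw [if_pos hB, dif_pos hex]
    obtain ⟨h3, h4⟩ := h2 _ _ _ hB hpair hex.choose_spec
    rw [← h3, ← h4]
    simp
  · have hcc : c = c' := h1 _ _ c c' (by rw [← hlen]; exact hB) hLN hRN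
    subst hcc
    unfold nu
    rw [if_neg hB]
    have hHl : ∀ k, k ≤ c.i → D.Hb (P ++ Q).length k = D.Hb P.length k := by
      intro k hk; rw [hlen]; exact D.Hb_left hk hdv
    have hHr : ∀ k, c.i < k → k ≤ D.m →
        D.Hb (P ++ Q).length k = P.length + D.Yb c.i Q.length k := by
      intro k hk hk'; rw [hlen]; exact D.Hb_right hi hk hlo hhi (ht k hk hk')
    have hHle : ∀ k, k ≤ c.i → D.Hb P.length k ≤ P.length := fun k hk =>
      le_trans (D.Hb_le_lo hi hk) hlo
    set x : S := zt D.phi (P ++ Q) (D.Hb P.length c.i)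
      (P.length + D.Yb c.i Q.length (c.i + 1)) with hx
    have hprod : c.g * x * c.h = D.phi (P ++ Q) := by
      have h5 : c.g = D.phi ((P ++ Q).take (D.Hb P.length c.i)) := by
        rw [hcg, List.take_append_of_le_length (hHle c.i le_rfl)]
      have h6 : c.h = D.phi ((P ++ Q).drop (P.length + D.Yb c.i Q.length (c.i + 1))) := by
        rw [hch, drop_add]
      rw [h5, h6, hx]
      exact zt_split D.hphi _ (by have := hHle c.i le_rfl; omega)
    have hw : ∑ k ∈ range D.m, D.e k (zt D.phi (P ++ Q) (D.Hb (P ++ Q).length k)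
        (D.Hb (P ++ Q).length (k + 1))) = c.wl + D.e c.i x + c.wr := by
      rw [Data.sum_split hi, hcw, hcwr]
      congr 1
      · congr 1
        · apply Finset.sum_congr rfl
          intro k hk
          rw [Finset.mem_range] at hk
          rw [hHl k (by omega), hHl (k + 1) (by omega), zt_left D.phi (hHle (k + 1) (by omega))]
        · rw [hHl c.i le_rfl, hHr (c.i + 1) (by omega) (by omega), hx]
      · apply Finset.sum_congr rfl
        intro k hk
        rw [Finset.mem_Ico] at hk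
        rw [hHr k (by omega) (by omega), hHr (k + 1) (by omega) (by omega), zt_right]
    rw [hw, ← hg x]
    unfold val
    rw [hprod, add_comm]

/-- completeness -/
theorem complete (h3 : D.N3) (hF : D.Hides) {Z : List α} (hB : ¬ D.B Z.length)
    (hgrid : ∀ i k, i < k → k ≤ D.m → D.M * D.G i ≤ Z.length % D.G k ∧
      Z.length % D.G k + D.M * D.G i ≤ D.G k)
    (hZ : D.A D.m + D.G D.m + D.M * D.G D.m ≤ Z.length) (v : V) :
    ∃ (P Q : List α) (i : ℕ), Z = P ++ Q ∧ i < D.m ∧ D.lo i ≤ P.length ∧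
      P.length < D.lo i + D.M * D.G i ∧ D.LL P v ∧ ∃ b, D.RR Q b := by
  classical
  set n := Z.length with hn
  set w : W := ∑ k ∈ range D.m, D.e k (zt D.phi Z (D.Hb n k) (D.Hb n (k + 1))) with hw
  obtain ⟨i, hi, hhide⟩ := hF (D.phi Z) w v
  have hii : D.Hb n i ≤ D.Hb n (i + 1) := by
    have h4 := D.Hb_le_lo (n := n) hi le_rfl
    have h5 := D.A_right hi (show i < i + 1 by omega)
    have h6 : D.A (i + 1) ≤ D.Hb n (i + 1) := Nat.le_add_right _ _
    omega
  let c : Ctx S V W :=
    { i := i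
      g := D.phi (Z.take (D.Hb n i))
      wl := ∑ k ∈ range i, D.e k (zt D.phi Z (D.Hb n k) (D.Hb n (k + 1)))
      h := D.phi (Z.drop (D.Hb n (i + 1)))
      wr := ∑ k ∈ Ico (i + 1) D.m, D.e k (zt D.phi Z (D.Hb n k) (D.Hb n (k + 1)))
      v := v }
  have hprod := zt_split D.hphi Z hii
  have hws : w = c.wl + D.e i (zt D.phi Z (D.Hb n i) (D.Hb n (i + 1))) + c.wr := by
    rw [hw, Data.sum_split hi]
  have hval : ∀ z, D.val c z = D.F (D.phi Z) w + D.act v (D.phi Z) := by
    intro z
    have h5 := hhide _ _ _ hprod z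
    rw [← h5]
    unfold val
    have h6 : c.wl + D.e c.i z + c.wr
        = w - D.e i (zt D.phi Z (D.Hb n i) (D.Hb n (i + 1))) + D.e i z := by
      rw [hws]; abel
    rw [h6]
  have hgood : D.Good c := by
    intro z
    unfold bval
    rw [hval z, hval 1]
  have hAm : D.A (i + 1) ≤ D.A D.m := D.monoA (by omega)
  have hcell := D.geo2 i hi
  obtain ⟨o, h4, h5, h6, h7, h8, h9⟩ := h3 n c (D.lo i) hB hgood hi (by
    change D.lo i + D.M * D.G i ≤ n + 1
    omega)
  change o < D.lo i + D.M * D.G i at h5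
  change D.G i ∣ n - o at h9
  have hsplit : o + (n - o) = n := by omega
  have hPlen : (Z.take o).length = o := by
    rw [List.length_take]; omega
  have hQlen : (Z.drop o).length = n - o := by
    rw [List.length_drop]
  have hZPQ : Z.take o ++ Z.drop o = Z := List.take_append_drop _ _
  have hHl : ∀ k, k ≤ i → D.Hb n k = D.Hb o k := by
    intro k hk
    have g0 := D.Hb_left (o := o) hk h9
    rwa [hsplit] at g0
  have hMi : D.M * D.G i ≤ D.M * D.G D.m := Nat.mul_le_mul_left _ (D.monoG (by omega))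
  have hMpos : 0 < D.M * D.G i := Nat.mul_pos D.hM (D.hG i)
  have hdiv : ∀ k, i < k → k ≤ D.m → (n - o + D.lo i) / D.G k =
      (n - o + D.lo i + D.M * D.G i - 1) / D.G k := by
    intro k hk hk'
    obtain ⟨g1, g2⟩ := hgrid i k hk hk'
    have g3 := Nat.div_add_mod n (D.G k)
    have g4 := D.hG k
    have g5 := Nat.mod_lt n g4
    have key : ∀ y, n < y + D.M * D.G i → y < n + D.M * D.G i → y / D.G k = n / D.G k := by
      intro y hy1 hy2
      apply Nat.div_eq_of_lt_le
      · rw [Nat.mul_comm]; omega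
      · rw [Nat.add_mul, Nat.mul_comm (n / D.G k)]; omega
    rw [key (n - o + D.lo i) (by omega) (by omega),
      key (n - o + D.lo i + D.M * D.G i - 1) (by omega) (by omega)]
  have hHr : ∀ k, i < k → k ≤ D.m → D.Hb n k = o + D.Yb i (n - o) k := by
    intro k hk hk'
    have g0 := D.Hb_right hi hk h4 h5 (hdiv k hk hk')
    rwa [hsplit] at g0
  refine ⟨Z.take o, Z.drop o, i, hZPQ.symm, hi, by rw [hPlen]; exact h4, by rw [hPlen]; exact h5,
    ?_, ?_⟩
  · refine ⟨c, hi, by rw [hPlen]; exact h4, by rw [hPlen]; exact h5, by rw [hPlen]; exact h7,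
      hgood, ?_, ?_, rfl⟩
    · rw [hPlen]
      change D.phi (Z.take (D.Hb n i)) = D.phi ((Z.take o).take (D.Hb o i))
      rw [hHl i le_rfl, List.take_take, min_eq_left]
      have := D.Hb_le_lo (n := o) hi le_rfl
      omega
    · rw [hPlen]
      change ∑ k ∈ range i, D.e k (zt D.phi Z (D.Hb n k) (D.Hb n (k + 1)))
        = ∑ k ∈ range i, D.e k (zt D.phi (Z.take o) (D.Hb o k) (D.Hb o (k + 1)))
      apply Finset.sum_congr rfl
      intro k hk
      rw [Finset.mem_range] at hk
      rw [hHl k (by omega), hHl (k + 1) (by omega)]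
      have g9 := zt_left D.phi (P := Z.take o) (Q := Z.drop o) (a := D.Hb o k)
        (b := D.Hb o (k + 1)) (by
          rw [hPlen]
          have := D.Hb_le_lo (n := o) hi (show k + 1 ≤ i by omega)
          omega)
      rw [hZPQ] at g9
      rw [g9]
  · refine ⟨D.bval c, c, hi, by rw [hQlen]; exact h8, hgood, by rw [hQlen]; exact h9, ?_, ?_, ?_,
      ?_, rfl⟩
    · rw [hQlen]
      change D.A D.m + D.G D.m ≤ n - o + D.lo i
      omega
    · intro k hk hk'
      rw [hQlen]
      exact hdiv k hk hk'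
    · rw [hQlen]
      change D.phi (Z.drop (D.Hb n (i + 1))) = D.phi ((Z.drop o).drop (D.Yb i (n - o) (i + 1)))
      rw [List.drop_drop, hHr (i + 1) (by omega) (by omega)]
    · rw [hQlen]
      change ∑ k ∈ Ico (i + 1) D.m, D.e k (zt D.phi Z (D.Hb n k) (D.Hb n (k + 1)))
        = ∑ k ∈ Ico (i + 1) D.m, D.e k
          (zt D.phi (Z.drop o) (D.Yb i (n - o) k) (D.Yb i (n - o) (k + 1)))
      apply Finset.sum_congr rfl
      intro k hk
      rw [Finset.mem_Ico] at hk
      have g9 := zt_right D.phi (P := Z.take o) (Q := Z.drop o)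
        (a := D.Yb i (n - o) k) (b := D.Yb i (n - o) (k + 1))
      rw [hZPQ, hPlen, ← hHr k (by omega) (by omega), ← hHr (k + 1) (by omega) (by omega)] at g9
      rw [g9]

theorem complete' (h1 : D.N1) (h2 : D.N2) (h3 : D.N3) (hF : D.Hides) {Z : List α}
    (hB : ¬ D.B Z.length)
    (hgrid : ∀ i k, i < k → k ≤ D.m → D.M * D.G i ≤ Z.length % D.G k ∧
      Z.length % D.G k + D.M * D.G i ≤ D.G k)
    (hZ : D.A D.m + D.G D.m + D.M * D.G D.m ≤ Z.length) (v : V) :
    ∃ (P Q : List α) (i : ℕ), Z = P ++ Q ∧ i < D.m ∧ D.lo i ≤ P.length ∧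
      P.length < D.lo i + D.M * D.G i ∧ D.LL P v ∧ D.RR Q (D.act v (D.phi Z) + D.nu Z) := by
  obtain ⟨P, Q, i, rfl, hi, hl, hu, hL, b, hR⟩ := D.complete h3 hF hB hgrid hZ v
  have hb := D.sound h1 h2 hL hR
  subst hb
  exact ⟨P, Q, i, rfl, hi, hl, hu, hL, hR⟩

end GData

end Crest.Agent.R320.Grid2_536
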