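import Mathlib
import Crest.Agent.R320.Names_755
import Crest.Agent.R320.RandF_808

/-!
Row 320, scheme 1 without small walls (693 #13203): hole ends on b-anchored nested grids.
Words only, every total, every content.
-/

set_option autoImplicit false

namespace Crest.Agent.R320.Grid_669

open Finset

section geo
variable (M Gam N0 : ℕ)

def Am : ℕ → ℕ
  | 0 => N0
  | l + 1 => Am l + (M + 1) * Gam ^ l

/-- boundary `l` of a zone of length `T` -/
def bl (T l : ℕ) : ℕ := Am M Gam N0 l + (T - Am M Gam N0 l) % Gam ^ l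

/-- start of the cell of level `i` -/
def cs (i : ℕ) : ℕ := Am M Gam N0 i + Gam ^ i

theorem Am_succ (l : ℕ) : Am M Gam N0 (l + 1) = Am M Gam N0 l + (M + 1) * Gam ^ l := rfl

theorem Am_mono {l l' : ℕ} (h : l ≤ l') : Am M Gam N0 l ≤ Am M Gam N0 l' := by
  induction h with
  | refl => exact le_rfl
  | step _ ih => exact ih.trans (by rw [Am_succ]; omega)

variable {M Gam N0}

theorem bl_ge (T l : ℕ) : Am M Gam N0 l ≤ bl M Gam N0 T l := Nat.le_add_right _ _

theorem bl_lt (hG : 0 < Gam) (T l : ℕ) : bl M Gam N0 T l < Am M Gam N0 l + Gam ^ l :=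
  Nat.add_lt_add_left (Nat.mod_lt _ (pow_pos hG l)) _

theorem cs_add (i : ℕ) : cs M Gam N0 i + M * Gam ^ i = Am M Gam N0 (i + 1) := by
  rw [cs, Am_succ]; ring

theorem bl_lt_cs (hG : 0 < Gam) (T l : ℕ) : bl M Gam N0 T l < cs M Gam N0 l := bl_lt hG T l

theorem bl_mono_succ (hG : 0 < Gam) (T l : ℕ) : bl M Gam N0 T l ≤ bl M Gam N0 T (l + 1) := by
  have h1 := bl_lt (M := M) (N0 := N0) hG T l
  have h2 := bl_ge (M := M) (Gam := Gam) (N0 := N0) T (l + 1)
  have h3 : Am M Gam N0 l + Gam ^ l ≤ Am M Gam N0 (l + 1) := by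
    rw [Am_succ]; have := Nat.zero_le (M * Gam ^ l); nlinarith
  omega

theorem bl_mono (hG : 0 < Gam) (T : ℕ) {l l' : ℕ} (h : l ≤ l') :
    bl M Gam N0 T l ≤ bl M Gam N0 T l' := by
  induction h with
  | refl => exact le_rfl
  | step _ ih => exact ih.trans (bl_mono_succ hG T _)

theorem bl_congr {t t' i l : ℕ} (hl : l ≤ i) (hd : Gam ^ i ∣ t') (ht : Am M Gam N0 l ≤ t) :
    bl M Gam N0 (t + t') l = bl M Gam N0 t l := by
  obtain ⟨q, rfl⟩ := (pow_dvd_pow Gam hl).trans hd
  unfold bl
  rw [show t + Gam ^ l * q - Am M Gam N0 l = (t - Am M Gam N0 l) + Gam ^ l * q by omega,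
    Nat.add_mul_mod_self_left]

theorem bl_congr' {T t i l : ℕ} (hl : l ≤ i) (hd : Gam ^ i ∣ T - t) (htT : t ≤ T)
    (ht : Am M Gam N0 l ≤ t) :
    bl M Gam N0 T l = bl M Gam N0 t l := by
  have := bl_congr (M := M) (N0 := N0) hl hd ht
  rwa [Nat.add_sub_cancel' htT] at this

theorem sub_bl {T l : ℕ} (h : Am M Gam N0 l ≤ T) :
    T - bl M Gam N0 T l = Gam ^ l * ((T - Am M Gam N0 l) / Gam ^ l) := by
  have := Nat.mod_add_div (T - Am M Gam N0 l) (Gam ^ l)
  unfold bl
  omega

theorem bl_le {T l : ℕ} (h : Am M Gam N0 l ≤ T) : bl M Gam N0 T l ≤ T := by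
  have := Nat.mod_le (T - Am M Gam N0 l) (Gam ^ l)
  unfold bl
  omega

/-- the place of boundary `l` in the right word, as the right word computes it -/
def pr (t' i l : ℕ) : ℕ :=
  t' - Gam ^ l * ((t' + cs M Gam N0 i - Am M Gam N0 l) / Gam ^ l)

/-- no doubt about boundary `l` -/
def nd (t' i l : ℕ) : Prop :=
  (t' + cs M Gam N0 i - Am M Gam N0 l) / Gam ^ l =
    (t' + cs M Gam N0 i + M * Gam ^ i - 1 - Am M Gam N0 l) / Gam ^ l

theorem pr_eq {t t' i l : ℕ} (hG : 0 < Gam) (hil : i < l) (hnd : nd (M := M) (Gam := Gam) (N0 := N0) t' i l)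
    (h1 : cs M Gam N0 i ≤ t) (h2 : t < cs M Gam N0 i + M * Gam ^ i)
    (h3 : Am M Gam N0 l ≤ t') :
    pr (M := M) (Gam := Gam) (N0 := N0) t' i l = bl M Gam N0 (t + t') l - t := by
  have hA : Am M Gam N0 (i + 1) ≤ Am M Gam N0 l := Am_mono M Gam N0 hil
  have hcs := cs_add (M := M) (Gam := Gam) (N0 := N0) i
  have e1 : (t' + cs M Gam N0 i - Am M Gam N0 l) / Gam ^ l = (t + t' - Am M Gam N0 l) / Gam ^ l := by
    apply le_antisymm
    · exact Nat.div_le_div_right (by omega)
    · unfold nd at hnd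
      rw [hnd]
      exact Nat.div_le_div_right (by omega)
  have e2 := sub_bl (M := M) (Gam := Gam) (N0 := N0) (T := t + t') (l := l) (by omega)
  have e3 := bl_le (M := M) (Gam := Gam) (N0 := N0) (T := t + t') (l := l) (by omega)
  have e4 := bl_ge (M := M) (Gam := Gam) (N0 := N0) (t + t') l
  unfold pr
  rw [e1, ← e2]
  omega

end geo

section words
variable {α : Type*}

def seg (u : List α) (a b : ℕ) : List α := (u.take b).drop a

theorem seg_left {P Q : List α} {a b : ℕ} (h : b ≤ P.length) : seg (P ++ Q) a b = seg P a b := by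
  unfold seg
  rw [List.take_append_of_le_length h]

theorem seg_right {P Q : List α} {a b : ℕ} (h : P.length ≤ a) (hb : a ≤ b) :
    seg (P ++ Q) a b = seg Q (a - P.length) (b - P.length) := by
  unfold seg
  rw [List.take_append, List.drop_append, List.take_of_length_le (h.trans hb),
    List.drop_eq_nil_of_le h, List.nil_append]

theorem split3 (u : List α) {a b : ℕ} (h : a ≤ b) : u.take a ++ (seg u a b ++ u.drop b) = u := by
  unfold seg
  have h1 : u.take a = (u.take b).take a := by rw [List.take_take, min_eq_left h]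
  rw [h1, ← List.append_assoc, List.take_append_drop, List.take_append_drop]

end words

end Crest.Agent.R320.Grid_669
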