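import Mathlib
import Crest.Agent.R320.Grid_669

/-!
Row 320, scheme 1 without small walls (693 #13203): the gadget on words.
-/

set_option autoImplicit false
set_option linter.unusedVariables false

namespace Crest.Agent.R320.Grid_669

open Finset

structure Dat (α S V W C : Type*) where
  φ : List α → S
  act : V → S → V
  m : ℕ
  e : ℕ → S → W
  F : S → W → V
  M : ℕ
  Gam : ℕ
  N0 : ℕ
  nmL : ℕ → Option C
  nmR : ℕ → Option C
  lv : C → ℕ
  gg : C → S
  wl : C → W
  hh : C → S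
  wr : C → W
  vv : C → V
  bb : C → V
  Ms : Finset ℕ

namespace Dat

variable {α S V W C : Type*} [Monoid S] [AddCommGroup V] [AddCommGroup W] (D : Dat α S V W C)

def B (T l : ℕ) : ℕ := bl D.M D.Gam D.N0 T l
def A (l : ℕ) : ℕ := Am D.M D.Gam D.N0 l
def K (i : ℕ) : ℕ := cs D.M D.Gam D.N0 i
def pR (t' i l : ℕ) : ℕ := pr (M := D.M) (Gam := D.Gam) (N0 := D.N0) t' i l

def LegL (P : List α) (c : C) : Prop :=
  D.nmL P.length = some c ∧ D.K (D.lv c) ≤ P.length ∧
  P.length < D.K (D.lv c) + D.M * D.Gam ^ D.lv c ∧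
  D.φ (P.take (D.B P.length (D.lv c))) = D.gg c ∧
  ∑ j ∈ range (D.lv c), D.e j (D.φ (seg P (D.B P.length j) (D.B P.length (j + 1)))) = D.wl c

def LegR (Q : List α) (c : C) : Prop :=
  D.nmR Q.length = some c ∧ D.A (D.m + 1) ≤ Q.length ∧ D.Gam ^ D.lv c ∣ Q.length ∧
  (∀ l, D.lv c < l → l ≤ D.m → nd (M := D.M) (Gam := D.Gam) (N0 := D.N0) Q.length (D.lv c) l) ∧
  D.φ (Q.drop (D.pR Q.length (D.lv c) (D.lv c + 1))) = D.hh c ∧
  ∑ j ∈ Ico (D.lv c + 1) D.m,
    D.e j (D.φ (seg Q (D.pR Q.length (D.lv c) j) (D.pR Q.length (D.lv c) (j + 1)))) = D.wr c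

def Wt (u : List α) : W :=
  ∑ j ∈ range D.m, D.e j (D.φ (seg u (D.B u.length j) (D.B u.length (j + 1))))

def good (T : ℕ) : Prop := ∀ k ∈ D.Ms, ¬ k ∣ T

structure Ok : Prop where
  hφ : ∀ u v, D.φ (u ++ v) = D.φ u * D.φ v
  hG : 0 < D.Gam
  hlv : ∀ c, D.lv c < D.m
  hbb : ∀ c z, D.F (D.gg c * z * D.hh c) (D.wl c + D.e (D.lv c) z + D.wr c) +
    D.act (D.vv c) (D.gg c * z * D.hh c) = D.bb c
  hgood : ∀ t t' c c', D.nmL t = some c → D.nmR t' = some c' → (∀ k ∈ D.Ms, ¬ k ∣ t + t') → c = c'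
  hbad : ∀ t₁ t₁' t₂ t₂' c₁ c₁' c₂ c₂', D.nmL t₁ = some c₁ → D.nmR t₁' = some c₁' →
    D.nmL t₂ = some c₂ → D.nmR t₂' = some c₂' → t₁ + t₁' = t₂ + t₂' →
    (∃ k ∈ D.Ms, k ∣ t₁ + t₁') → (D.vv c₁ = D.vv c₂ ∧ D.bb c₁ = D.bb c₂) ∧
      (D.vv c₁' = D.vv c₂' ∧ D.bb c₁' = D.bb c₂')

variable {D}

theorem core (h : D.Ok) {P Q : List α} {c : C} (hL : D.LegL P c) (hR : D.LegR Q c) :
    ∃ z, D.φ (P ++ Q) = D.gg c * z * D.hh c ∧
      D.Wt (P ++ Q) = D.wl c + D.e (D.lv c) z + D.wr c := by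
  obtain ⟨hL1, hL2, hL3, hL4, hL5⟩ := hL
  obtain ⟨hR1, hR2, hR3, hR4, hR5, hR6⟩ := hR
  set i := D.lv c with hi
  have him : i < D.m := h.hlv c
  have hAmono : ∀ {a b : ℕ}, a ≤ b → D.A a ≤ D.A b := fun hab => Am_mono _ _ _ hab
  have hKA : D.K i + D.M * D.Gam ^ i = D.A (i + 1) := cs_add i
  have hAK : D.A i ≤ D.K i := Nat.le_add_right _ _
  -- left boundaries
  have hbL : ∀ l, l ≤ i → D.B (P ++ Q).length l = D.B P.length l := by
    intro l hl
    rw [List.length_append]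
    exact bl_congr hl hR3 ((hAmono hl).trans (hAK.trans hL2))
  have hbLle : D.B P.length i ≤ P.length := bl_le (hAK.trans hL2)
  have hbmono : ∀ T {a b : ℕ}, a ≤ b → D.B T a ≤ D.B T b := fun T a b hab => bl_mono h.hG T hab
  -- right boundaries
  have hbR : ∀ l, i < l → l ≤ D.m → D.pR Q.length i l = D.B (P ++ Q).length l - P.length := by
    intro l hl hlm
    rw [List.length_append]
    exact pr_eq h.hG hl (hR4 l hl hlm) hL2 hL3 ((hAmono (by omega : l ≤ D.m + 1)).trans hR2)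
  have hbRge : ∀ l, i < l → P.length ≤ D.B (P ++ Q).length l := by
    intro l hl
    have h1 : D.A (i + 1) ≤ D.A l := hAmono hl
    have h2 : D.A l ≤ D.B (P ++ Q).length l := bl_ge _ _
    omega
  refine ⟨D.φ (seg (P ++ Q) (D.B (P ++ Q).length i) (D.B (P ++ Q).length (i + 1))), ?_, ?_⟩
  · have h3 := split3 (P ++ Q) (hbmono (P ++ Q).length (Nat.le_succ i))
    conv_lhs => rw [← h3]
    rw [h.hφ, h.hφ, ← mul_assoc]
    congr 1
    · congr 1
      rw [hbL i le_rfl, List.take_append_of_le_length hbLle, hL4]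
    · rw [List.drop_append, List.drop_eq_nil_of_le (hbRge (i + 1) (Nat.lt_succ_self i)),
        List.nil_append, ← hbR (i + 1) (Nat.lt_succ_self i) (by omega), hR5]
  · unfold Wt
    rw [← Finset.sum_range_add_sum_Ico _ (by omega : i + 1 ≤ D.m), Finset.sum_range_succ]
    congr 1
    · congr 1
      rw [← hL5]
      refine Finset.sum_congr rfl fun j hj => ?_
      have hj' : j < i := Finset.mem_range.1 hj
      rw [hbL j hj'.le, hbL (j + 1) hj', seg_left ((hbmono _ hj').trans hbLle)]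
    · rw [← hR6]
      refine Finset.sum_congr rfl fun j hj => ?_
      have hj' := Finset.mem_Ico.1 hj
      rw [seg_right (hbRge j (by omega)) (hbmono _ (Nat.le_succ j)),
        hbR j (by omega) (by omega), hbR (j + 1) (by omega) (by omega)]

open Classical in
noncomputable def lam (D : Dat α S V W C) (P : List α) : Option V :=
  if h : ∃ c, D.LegL P c then some (D.vv h.choose) else none

open Classical in
noncomputable def rho (D : Dat α S V W C) (Q : List α) : Option V :=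
  if h : ∃ c, D.LegR Q c then some (D.bb h.choose) else none

def Pair (D : Dat α S V W C) (T : ℕ) (x : C × C) : Prop :=
  ∃ t t', D.nmL t = some x.1 ∧ D.nmR t' = some x.2 ∧ t + t' = T

open Classical in
noncomputable def nu (D : Dat α S V W C) (u : List α) : V :=
  if D.good u.length then D.F (D.φ u) (D.Wt u)
  else if h : ∃ x, D.Pair u.length x then D.bb h.choose.2 - D.act (D.vv h.choose.1) (D.φ u) else 0

theorem lam_eq {P : List α} {v : V} (h : D.lam P = some v) : ∃ c, D.LegL P c ∧ D.vv c = v := by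
  classical
  unfold lam at h
  split_ifs at h with hc
  exact ⟨_, hc.choose_spec, Option.some.inj h⟩

theorem rho_eq {Q : List α} {b : V} (h : D.rho Q = some b) : ∃ c, D.LegR Q c ∧ D.bb c = b := by
  classical
  unfold rho at h
  split_ifs at h with hc
  exact ⟨_, hc.choose_spec, Option.some.inj h⟩

theorem lam_of {P : List α} {c : C} (h : D.LegL P c) : D.lam P = some (D.vv c) := by
  classical
  have hc : ∃ c, D.LegL P c := ⟨c, h⟩
  unfold lam
  rw [dif_pos hc]
  have : hc.choose = c := Option.some.inj (hc.choose_spec.1.symm.trans h.1)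
  rw [this]

theorem rho_of {Q : List α} {c : C} (h : D.LegR Q c) : D.rho Q = some (D.bb c) := by
  classical
  have hc : ∃ c, D.LegR Q c := ⟨c, h⟩
  unfold rho
  rw [dif_pos hc]
  have : hc.choose = c := Option.some.inj (hc.choose_spec.1.symm.trans h.1)
  rw [this]

theorem sound (h : D.Ok) {P Q : List α} {v b : V} (hP : D.lam P = some v) (hQ : D.rho Q = some b) :
    b = D.act v (D.φ (P ++ Q)) + D.nu (P ++ Q) := by
  classical
  obtain ⟨c, hL, rfl⟩ := lam_eq hP
  obtain ⟨c', hR, rfl⟩ := rho_eq hQ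
  unfold nu
  by_cases hg : D.good (P ++ Q).length
  · rw [if_pos hg]
    have hcc : c = c' := h.hgood _ _ _ _ hL.1 hR.1 (by
      intro k hk; have := hg k hk; rwa [List.length_append] at this)
    subst hcc
    obtain ⟨z, hz1, hz2⟩ := core h hL hR
    rw [hz1, hz2, add_comm]
    exact (h.hbb c z).symm
  · rw [if_neg hg]
    have hx : ∃ x, D.Pair (P ++ Q).length x :=
      ⟨(c, c'), P.length, Q.length, hL.1, hR.1, (List.length_append).symm⟩
    rw [dif_pos hx]
    obtain ⟨t, t', h1, h2, h3⟩ := hx.choose_spec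
    have hb : ∃ k ∈ D.Ms, k ∣ P.length + Q.length := by
      unfold good at hg
      push_neg at hg
      obtain ⟨k, hk, hk'⟩ := hg
      exact ⟨k, hk, by rwa [List.length_append] at hk'⟩
    obtain ⟨⟨e1, e2⟩, e3, e4⟩ := h.hbad _ _ _ _ _ _ _ _ hL.1 hR.1 h1 h2
      (by rw [h3, List.length_append]) hb
    rw [e1, e4]
    abel

/-- the totals for which scheme 1 may be incomplete -/
def Bad (D : Dat α S V W C) (T : ℕ) : Prop :=
  (∃ k ∈ D.Ms, k ∣ T) ∨ ∃ l, l < D.m ∧
    ((T - D.A (l + 1)) % D.Gam ^ (l + 1) < D.M * D.Gam ^ l ∨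
      D.Gam ^ (l + 1) ≤ (T - D.A (l + 1)) % D.Gam ^ (l + 1) + D.M * D.Gam ^ l)

structure Avail (D : Dat α S V W C) : Prop where
  M0 : 0 < D.M
  cop : Nat.Coprime D.M D.Gam
  perL : ∀ t, D.nmL (t + D.M) = D.nmL t
  av : ∀ T, (∀ k ∈ D.Ms, ¬ k ∣ T) → ∀ c, ∃ t < D.M, D.nmL t = some c ∧
    ∀ t', t + t' ≡ T [MOD D.M] → D.nmR t' = some c
  full : ∀ i < D.m, ∀ (g : S) (a : W) (h : S) (b : W) (v : V),
    (∃ r, ∀ z, D.F (g * z * h) (a + D.e i z + b) + D.act v (g * z * h) = r) →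
    ∃ c, D.lv c = i ∧ D.gg c = g ∧ D.wl c = a ∧ D.hh c = h ∧ D.wr c = b ∧ D.vv c = v
  noise : ∀ (s : S) (w : W) (v : V), ∃ i < D.m, ∀ g x h : S, g * x * h = s → ∀ z : S,
    D.F (g * z * h) (w - D.e i x + D.e i z) + D.act v (g * z * h) = D.F s w + D.act v s

theorem per_mul {f : ℕ → Option C} {M : ℕ} (h : ∀ t, f (t + M) = f t) (t q : ℕ) :
    f (t + M * q) = f t := by
  induction q with
  | zero => simp
  | succ q ih => rw [Nat.mul_succ, ← add_assoc, h, ih]

theorem per_modEq {f : ℕ → Option C} {M : ℕ} (h : ∀ t, f (t + M) = f t) {t t' : ℕ}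
    (hm : t ≡ t' [MOD M]) : f t = f t' := by
  rw [← Nat.mod_add_div t M, ← Nat.mod_add_div t' M, per_mul h, per_mul h, hm]

theorem exists_place {M G a T K : ℕ} (hM : 0 < M) (hG : 0 < G) (hc : Nat.Coprime M G) :
    ∃ t, K ≤ t ∧ t < K + M * G ∧ t ≡ a [MOD M] ∧ t ≡ T [MOD G] := by
  obtain ⟨x, hx1, hx2⟩ := Nat.chineseRemainder hc a T
  have hMG : 0 < M * G := Nat.mul_pos hM hG
  -- the element of [K, K + MG) congruent to x
  refine ⟨K + (x + M * G * K - K) % (M * G), Nat.le_add_right _ _,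
    Nat.add_lt_add_left (Nat.mod_lt _ hMG) _, ?_, ?_⟩
  all_goals
    have hle : K ≤ x + M * G * K := by nlinarith
    have e : K + (x + M * G * K - K) % (M * G) ≡ x [MOD M * G] := by
      calc K + (x + M * G * K - K) % (M * G) ≡ K + (x + M * G * K - K) [MOD M * G] :=
            Nat.ModEq.add_left _ (Nat.mod_modEq _ _)
        _ = x + M * G * K := by omega
        _ ≡ x [MOD M * G] := by
            have : x + M * G * K ≡ x + 0 [MOD M * G] :=
              Nat.ModEq.add_left _ ((Nat.modEq_zero_iff_dvd).2 (Dvd.intro _ rfl))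
            simpa using this
  · exact (e.of_dvd (Dvd.intro _ rfl)).trans hx1
  · exact (e.of_dvd (Dvd.intro_left _ rfl)).trans hx2

theorem complete (h : D.Ok) (hA : D.Avail) (u : List α) (hu : 2 * D.A (D.m + 1) ≤ u.length)
    (hb : ¬ D.Bad u.length) (v : V) :
    ∃ P Q, P ++ Q = u ∧ D.lam P = some v ∧ (D.rho Q).isSome := by
  classical
  have hgd : ∀ k ∈ D.Ms, ¬ k ∣ u.length := fun k hk hkd => hb (Or.inl ⟨k, hk, hkd⟩)
  have hband : ∀ l, l < D.m → D.M * D.Gam ^ l ≤ (u.length - D.A (l + 1)) % D.Gam ^ (l + 1) ∧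
      (u.length - D.A (l + 1)) % D.Gam ^ (l + 1) + D.M * D.Gam ^ l < D.Gam ^ (l + 1) := by
    intro l hl
    by_contra hcon
    apply hb
    refine Or.inr ⟨l, hl, ?_⟩
    omega
  set T := u.length with hT
  obtain ⟨i, him, hi⟩ := hA.noise (D.φ u) (D.Wt u) v
  have hAmono : ∀ {a b : ℕ}, a ≤ b → D.A a ≤ D.A b := fun hab => Am_mono _ _ _ hab
  have hKA : D.K i + D.M * D.Gam ^ i = D.A (i + 1) := cs_add i
  have hAK : D.A i ≤ D.K i := Nat.le_add_right _ _
  have hbmono : ∀ T {a b : ℕ}, a ≤ b → D.B T a ≤ D.B T b := fun T a b hab => bl_mono h.hG T hab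
  have hAi : D.A (i + 1) ≤ D.A (D.m + 1) := hAmono (by omega)
  -- the context
  set g := D.φ (u.take (D.B T i)) with hg
  set x := D.φ (seg u (D.B T i) (D.B T (i + 1))) with hx
  set hh := D.φ (u.drop (D.B T (i + 1))) with hhh
  set wl := ∑ j ∈ range i, D.e j (D.φ (seg u (D.B T j) (D.B T (j + 1)))) with hwl
  set wr := ∑ j ∈ Ico (i + 1) D.m, D.e j (D.φ (seg u (D.B T j) (D.B T (j + 1)))) with hwr
  have hprod : g * x * hh = D.φ u := by
    have h3 := split3 u (hbmono T (Nat.le_succ i))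
    conv_rhs => rw [← h3]
    rw [h.hφ, h.hφ, ← mul_assoc]
  have hWt : D.Wt u = wl + D.e i x + wr := by
    unfold Wt
    rw [← Finset.sum_range_add_sum_Ico _ (by omega : i + 1 ≤ D.m), Finset.sum_range_succ]
  obtain ⟨c, hc1, hc2, hc3, hc4, hc5, hc6⟩ := hA.full i him g wl hh wr v
    ⟨D.F (D.φ u) (D.Wt u) + D.act v (D.φ u), fun z => by
      have := hi g x hh hprod z
      rw [hWt] at this
      rw [hWt, ← this]
      congr 2
      abel⟩
  obtain ⟨tc, htc1, htc2, htc3⟩ := hA.av T hgd c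
  obtain ⟨t, ht1, ht2, ht3, ht4⟩ := exists_place (a := tc) (T := T) (K := D.K i) hA.M0
    (pow_pos h.hG i) (Nat.Coprime.pow_right i hA.cop)
  have htT : t ≤ T := by omega
  have hPlen : (u.take t).length = t := by rw [List.length_take]; omega
  have hQlen : (u.drop t).length = T - t := by rw [List.length_drop]
  have hdvd : D.Gam ^ i ∣ T - t := (Nat.modEq_iff_dvd' htT).1 ht4
  have hAt : ∀ l, l ≤ i → D.A l ≤ t := fun l hl => (hAmono hl).trans (hAK.trans ht1)
  have hbL : ∀ l, l ≤ i → D.B t l = D.B T l := fun l hl => (bl_congr' hl hdvd htT (hAt l hl)).symm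
  have hbLle : D.B T i ≤ t := by rw [← hbL i le_rfl]; exact bl_le (hAt i le_rfl)
  have hLeg : D.LegL (u.take t) c := by
    refine ⟨?_, ?_, ?_, ?_, ?_⟩
    · rw [hPlen, per_modEq hA.perL ht3, htc2]
    · rw [hPlen, hc1]; exact ht1
    · rw [hPlen, hc1]; exact ht2
    · rw [hPlen, hc1, hc2, hbL i le_rfl, List.take_take, min_eq_left hbLle]
    · rw [hPlen, hc1, hc3]
      refine Finset.sum_congr rfl fun j hj => ?_
      have hj' : j < i := Finset.mem_range.1 hj
      rw [hbL j hj'.le, hbL (j + 1) hj']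
      have h1 : D.B T (j + 1) ≤ t := (hbmono T hj').trans hbLle
      congr 2
      unfold seg
      rw [List.take_take, min_eq_left h1]
  have hnd : ∀ l, i < l → l ≤ D.m →
      nd (M := D.M) (Gam := D.Gam) (N0 := D.N0) (T - t) i l := by
    intro l hl hlm
    obtain ⟨l, rfl⟩ : ∃ l', l = l' + 1 := ⟨l - 1, by omega⟩
    obtain ⟨hb1, hb2⟩ := hband l (by omega)
    have hcle : D.M * D.Gam ^ i ≤ D.M * D.Gam ^ l :=
      Nat.mul_le_mul_left _ (Nat.pow_le_pow_right h.hG (by omega))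
    have hAl : D.A (l + 1) ≤ D.A (D.m + 1) := hAmono (by omega)
    have hAl' : D.A (i + 1) ≤ D.A (l + 1) := hAmono (by omega)
    unfold nd
    set q := (T - D.A (l + 1)) / D.Gam ^ (l + 1) with hq
    have hdm := Nat.mod_add_div (T - D.A (l + 1)) (D.Gam ^ (l + 1))
    rw [← hq] at hdm
    have hGp : 0 < D.Gam ^ (l + 1) := pow_pos h.hG _
    have e1 : (T - t + D.K i - D.A (l + 1)) / D.Gam ^ (l + 1) = q := by
      rw [Nat.div_eq_iff hGp]
      constructor
      · have : q * D.Gam ^ (l + 1) = D.Gam ^ (l + 1) * q := Nat.mul_comm _ _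
        omega
      · have : (q + 1) * D.Gam ^ (l + 1) = D.Gam ^ (l + 1) * q + D.Gam ^ (l + 1) := by ring
        have h' : q * D.Gam ^ (l + 1) = D.Gam ^ (l + 1) * q := Nat.mul_comm _ _
        omega
    have e2 : (T - t + D.K i + D.M * D.Gam ^ i - 1 - D.A (l + 1)) / D.Gam ^ (l + 1) = q := by
      rw [Nat.div_eq_iff hGp]
      constructor
      · have : q * D.Gam ^ (l + 1) = D.Gam ^ (l + 1) * q := Nat.mul_comm _ _
        omega
      · have : (q + 1) * D.Gam ^ (l + 1) = D.Gam ^ (l + 1) * q + D.Gam ^ (l + 1) := by ring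
        have h' : q * D.Gam ^ (l + 1) = D.Gam ^ (l + 1) * q := Nat.mul_comm _ _
        omega
    exact e1.trans e2.symm
  have hbR : ∀ l, i < l → l ≤ D.m → D.pR (T - t) i l = D.B T l - t := by
    intro l hl hlm
    have h1 := pr_eq (t := t) h.hG hl (hnd l hl hlm) ht1 ht2
      ((hAmono (by omega : l ≤ D.m + 1)).trans (by omega))
    rw [Nat.add_sub_cancel' htT] at h1
    exact h1
  have hbRge : ∀ l, i < l → t ≤ D.B T l := by
    intro l hl
    have h1 : D.A (i + 1) ≤ D.A l := hAmono hl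
    have h2 : D.A l ≤ D.B T l := bl_ge _ _
    omega
  have hLegR : D.LegR (u.drop t) c := by
    refine ⟨?_, ?_, ?_, ?_, ?_, ?_⟩
    · rw [hQlen]
      apply htc3
      have : tc + (T - t) ≡ t + (T - t) [MOD D.M] := Nat.ModEq.add_right _ ht3.symm
      rwa [Nat.add_sub_cancel' htT] at this
    · rw [hQlen]; omega
    · rw [hQlen, hc1]; exact hdvd
    · rw [hQlen, hc1]; exact hnd
    · rw [hQlen, hc1, hc4, hbR (i + 1) (Nat.lt_succ_self i) (by omega), List.drop_drop]
      congr 2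
      have := hbRge (i + 1) (Nat.lt_succ_self i)
      omega
    · rw [hQlen, hc1, hc5]
      refine Finset.sum_congr rfl fun j hj => ?_
      have hj' := Finset.mem_Ico.1 hj
      rw [hbR j (by omega) (by omega), hbR (j + 1) (by omega) (by omega)]
      have h1 := hbRge j (by omega)
      have h2 := hbRge (j + 1) (by omega)
      have h3 : u = u.take t ++ u.drop t := (List.take_append_drop t u).symm
      conv_rhs => rw [h3]
      rw [seg_right (by rw [hPlen]; exact h1) (hbmono T (Nat.le_succ j)), hPlen]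
  refine ⟨u.take t, u.drop t, List.take_append_drop t u, ?_, ?_⟩
  · rw [lam_of hLeg, hc6]
  · rw [rho_of hLegR]; rfl

end Dat

end Crest.Agent.R320.Grid_669
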