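import Crest.Agent.R320.RandF_808
import Crest.Agent.R320.Names_570

/-!
Row 320: helper693's scheme 1 WITHOUT small walls (post 13203): hole ends on `b`-anchored nested
grids.  Pure words, arbitrary contents, sound for every zone length `T`, complete for every `T`
outside an explicit thin set.
-/

set_option autoImplicit false

namespace Crest.Agent.R320.Grid2_737

open Finset

section slices

variable {α : Type*}

/-- slice `[a, b)` -/
def sl (X : List α) (a b : ℕ) : List α := (X.drop a).take (b - a)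

theorem sl_left (P Q : List α) {a b : ℕ} (hb : b ≤ P.length) : sl (P ++ Q) a b = sl P a b := by
  unfold sl
  rw [List.drop_append, List.take_append]
  have : b - a - (P.drop a).length = 0 := by
    rw [List.length_drop]; omega
  rw [this, List.take_zero, List.append_nil]

theorem sl_right (P Q : List α) {a b : ℕ} (ha : P.length ≤ a) (hab : a ≤ b) :
    sl (P ++ Q) a b = sl Q (a - P.length) (b - P.length) := by
  unfold sl
  rw [List.drop_append, List.drop_eq_nil_of_le ha, List.nil_append]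
  congr 1
  omega

theorem fact {S : Type*} [Monoid S] (φ : List α → S) (hφ : ∀ u v, φ (u ++ v) = φ u * φ v)
    (X : List α) {a b : ℕ} (hab : a ≤ b) :
    φ X = φ (X.take a) * φ (sl X a b) * φ (X.drop b) := by
  have h : X.take a ++ sl X a b ++ X.drop b = X := by
    unfold sl
    have h1 : (X.drop a).drop (b - a) = X.drop b := by
      rw [List.drop_drop]; congr 1; omega
    rw [List.append_assoc, ← h1, List.take_append_drop, List.take_append_drop]
  conv_lhs => rw [← h]
  rw [hφ, hφ]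

end slices

/-- boundary: least `y >= Am l` with `y = x mod G l` (for `Am l <= x`) -/
def bt (Am G : ℕ → ℕ) (x l : ℕ) : ℕ := Am l + (x - Am l) % G l

/-- distance of the boundary from the end -/
def La (Am G : ℕ → ℕ) (x l : ℕ) : ℕ := G l * ((x - Am l) / G l)

theorem bt_add_La {Am G : ℕ → ℕ} {x l : ℕ} (h : Am l ≤ x) : bt Am G x l + La Am G x l = x := by
  unfold bt La
  have := Nat.mod_add_div (x - Am l) (G l)
  omega

theorem bt_congr {Am G : ℕ → ℕ} {o o' l : ℕ} (h : Am l ≤ o) (hd : G l ∣ o') :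
    bt Am G (o + o') l = bt Am G o l := by
  unfold bt
  obtain ⟨k, rfl⟩ := hd
  have : o + G l * k - Am l = (o - Am l) + G l * k := by omega
  rw [this, Nat.add_mul_mod_self_left]

theorem La_congr {Am G : ℕ → ℕ} {x y z l : ℕ} (h1 : x ≤ y) (h2 : y ≤ z)
    (h : (x - Am l) / G l = (z - Am l) / G l) : La Am G y l = La Am G x l := by
  unfold La
  have a1 : (x - Am l) / G l ≤ (y - Am l) / G l := Nat.div_le_div_right (by omega)
  have a2 : (y - Am l) / G l ≤ (z - Am l) / G l := Nat.div_le_div_right (by omega)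
  rw [le_antisymm (h ▸ a2) a1]

/-- all the data -/
structure Dat (S V W : Type*) [Monoid S] [AddCommGroup V] [AddCommGroup W] where
  act : V → S → V
  m : ℕ
  e : ℕ → S → W
  F : S → W → V
  noise : ∀ (s : S) (w : W) (v : V), ∃ i < m, ∀ g x h : S, g * x * h = s → ∀ z : S,
        F (g * z * h) (w - e i x + e i z) + act v (g * z * h) = F s w + act v s
  M : ℕ
  Ms : Finset ℕ
  nmL : ℕ → Option (Fin m × S × W × S × W × V)
  nmR : ℕ → Option (Fin m × S × W × S × W × V)
  perL : ∀ t, nmL (t + M) = nmL t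
  perR : ∀ t, nmR (t + M) = nmR t
  hM : 0 < M
  hMs : ∀ k ∈ Ms, k ∣ M
  good : ∀ t t' c c', (∀ k ∈ Ms, ¬ k ∣ t + t') → nmL t = some c → nmR t' = some c' → c = c'
  avail : ∀ T c s, (∀ k ∈ Ms, ¬ k ∣ T) → s + M ≤ T + 1 →
        ∃ t, s ≤ t ∧ t < s + M ∧ t ≤ T ∧ nmL t = some c ∧ nmR (T - t) = some c
  bd : ∀ t₁ t₁' t₂ t₂' c₁ c₁' c₂ c₂', t₁ + t₁' = t₂ + t₂' → (∃ k ∈ Ms, k ∣ t₁ + t₁') →
        nmL t₁ = some c₁ → nmR t₁' = some c₁' → nmL t₂ = some c₂ → nmR t₂' = some c₂' →
        (c₁.2.2.2.2.2 = c₂.2.2.2.2.2) ∧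
        (F (c₁'.2.1 * 1 * c₁'.2.2.2.1) (c₁'.2.2.1 + e c₁'.1 1 + c₁'.2.2.2.2.1) +
          act c₁'.2.2.2.2.2 (c₁'.2.1 * 1 * c₁'.2.2.2.1) =
         F (c₂'.2.1 * 1 * c₂'.2.2.2.1) (c₂'.2.2.1 + e c₂'.1 1 + c₂'.2.2.2.2.1) +
          act c₂'.2.2.2.2.2 (c₂'.2.1 * 1 * c₂'.2.2.2.1))
  Am : ℕ → ℕ
  A : ℕ → ℕ
  G : ℕ → ℕ
  hG : ∀ l, 0 < G l
  hA : ∀ l, A l = Am l + G l
  hAm : ∀ l, Am (l + 1) = A l + M * G l
  hdvd : ∀ l, G l ∣ G (l + 1)
  cop : ∀ l, Nat.Coprime M (G l)

namespace Dat

variable {S V W : Type*} [Monoid S] [AddCommGroup V] [AddCommGroup W] (D : Dat S V W)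

/-- label of a context -/
def bv (c : Fin D.m × S × W × S × W × V) : V :=
  D.F (c.2.1 * 1 * c.2.2.2.1) (c.2.2.1 + D.e c.1 1 + c.2.2.2.2.1) +
          D.act c.2.2.2.2.2 (c.2.1 * 1 * c.2.2.2.1)

/-- used contexts -/
def Used (c : Fin D.m × S × W × S × W × V) : Prop :=
  ∀ z : S, D.F (c.2.1 * z * c.2.2.2.1) (c.2.2.1 + D.e c.1 z + c.2.2.2.2.1) +
          D.act c.2.2.2.2.2 (c.2.1 * z * c.2.2.2.1) = D.bv c

theorem dvd_le {l i : ℕ} (h : l ≤ i) : D.G l ∣ D.G i := by
  induction i with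
  | zero =>
    have : l = 0 := by omega
    subst this; exact dvd_rfl
  | succ i ih =>
    rcases Nat.lt_or_ge l (i + 1) with h1 | h1
    · exact (ih (by omega)).trans (D.hdvd i)
    · have : l = i + 1 := by omega
      subst this; exact dvd_rfl

theorem A_mono {l i : ℕ} (h : l ≤ i) : D.A l ≤ D.A i ∧ D.Am l ≤ D.Am i := by
  induction i with
  | zero =>
    have : l = 0 := by omega
    subst this; exact ⟨le_rfl, le_rfl⟩
  | succ i ih =>
    rcases Nat.lt_or_ge l (i + 1) with h1 | h1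
    · have h2 := ih (by omega)
      have a1 := D.hAm i
      have a2 := D.hA i
      have a3 := D.hA (i + 1)
      constructor
      · have := h2.1; omega
      · have := h2.2; omega
    · have : l = i + 1 := by omega
      subst this; exact ⟨le_rfl, le_rfl⟩

theorem Am_gt {l i : ℕ} (h : i < l) : D.A i + D.M * D.G i ≤ D.Am l := by
  have := (D.A_mono (show i + 1 ≤ l from h)).2
  have := D.hAm i
  omega

theorem bt_lt (x l : ℕ) : bt D.Am D.G x l < D.A l := by
  unfold bt
  have := Nat.mod_lt (x - D.Am l) (D.hG l)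
  have := D.hA l
  omega

theorem Am_le_bt (x l : ℕ) : D.Am l ≤ bt D.Am D.G x l := by
  unfold bt; omega

theorem bt_mono (x l : ℕ) : bt D.Am D.G x l ≤ bt D.Am D.G x (l + 1) := by
  have h1 := D.bt_lt x l
  have h2 := D.Am_le_bt x (l + 1)
  have h3 := D.hAm l
  omega

variable {α : Type*} (φ : List α → S)

/-- base data of a zone -/
def ww (u : List α) : W :=
  ∑ l ∈ range D.m, D.e l (φ (sl u (bt D.Am D.G u.length l) (bt D.Am D.G u.length (l + 1))))

/-- left reading -/
def LLeg (P : List α) (c : Fin D.m × S × W × S × W × V) : Prop :=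
  D.nmL P.length = some c ∧ D.Used c ∧ D.A c.1 ≤ P.length ∧
    P.length < D.A c.1 + D.M * D.G c.1 ∧
    φ (P.take (bt D.Am D.G P.length c.1)) = c.2.1 ∧
    ∑ l ∈ range (c.1 : ℕ), D.e l (φ (sl P (bt D.Am D.G P.length l) (bt D.Am D.G P.length (l + 1))))
      = c.2.2.1

/-- right reading -/
def RLeg (Q : List α) (c : Fin D.m × S × W × S × W × V) : Prop :=
  D.nmR Q.length = some c ∧ D.G c.1 ∣ Q.length ∧ D.Am D.m ≤ Q.length + D.A c.1 ∧
    (∀ l, (c.1 : ℕ) < l → l ≤ D.m → (Q.length + D.A c.1 - D.Am l) / D.G l =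
      (Q.length + D.A c.1 + D.M * D.G c.1 - 1 - D.Am l) / D.G l) ∧
    φ (Q.drop (Q.length - La D.Am D.G (Q.length + D.A c.1) (c.1 + 1))) = c.2.2.2.1 ∧
    ∑ l ∈ Ico ((c.1 : ℕ) + 1) D.m, D.e l (φ (sl Q
      (Q.length - La D.Am D.G (Q.length + D.A c.1) l)
      (Q.length - La D.Am D.G (Q.length + D.A c.1) (l + 1)))) = c.2.2.2.2.1

/-- good length -/
def GoodT (T : ℕ) : Prop := ∀ k ∈ D.Ms, ¬ k ∣ T

/-- a legal pair of names with total length `r` mod `M` -/
def PairAt (r : ℕ) (p : ℕ × ℕ × (Fin D.m × S × W × S × W × V) × (Fin D.m × S × W × S × W × V)) :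
    Prop :=
  (p.1 + p.2.1) % D.M = r ∧ D.nmL p.1 = some p.2.2.1 ∧ D.nmR p.2.1 = some p.2.2.2

open Classical in
/-- the noise at a bad residue -/
noncomputable def nuBad (r : ℕ) (s : S) : V :=
  if h : ∃ p, D.PairAt r p then D.bv h.choose.2.2.2 - D.act h.choose.2.2.1.2.2.2.2.2 s else 0

open Classical in
/-- the noise of scheme 1 -/
noncomputable def nu (u : List α) : V :=
  if D.GoodT u.length then D.F (φ u) (D.ww φ u) else D.nuBad (u.length % D.M) (φ u)

/-- **readings at one place of one zone** (matched contexts). -/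
theorem matched {P Q : List α}
    {i : ℕ} (him : i < D.m) (h1 : D.A i ≤ P.length) (h2 : P.length < D.A i + D.M * D.G i)
    (h3 : D.G i ∣ Q.length) (h4 : D.Am D.m ≤ Q.length + D.A i)
    (h5 : ∀ l, i < l → l ≤ D.m → (Q.length + D.A i - D.Am l) / D.G l =
      (Q.length + D.A i + D.M * D.G i - 1 - D.Am l) / D.G l) :
    φ (P.take (bt D.Am D.G P.length i)) =
      φ ((P ++ Q).take (bt D.Am D.G (P ++ Q).length i)) ∧
    (∑ l ∈ range i, D.e l (φ (sl P (bt D.Am D.G P.length l) (bt D.Am D.G P.length (l + 1)))) =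
      ∑ l ∈ range i, D.e l (φ (sl (P ++ Q) (bt D.Am D.G (P ++ Q).length l)
        (bt D.Am D.G (P ++ Q).length (l + 1))))) ∧
    φ (Q.drop (Q.length - La D.Am D.G (Q.length + D.A i) (i + 1))) =
      φ ((P ++ Q).drop (bt D.Am D.G (P ++ Q).length (i + 1))) ∧
    (∑ l ∈ Ico (i + 1) D.m, D.e l (φ (sl Q
      (Q.length - La D.Am D.G (Q.length + D.A i) l)
      (Q.length - La D.Am D.G (Q.length + D.A i) (l + 1)))) =
      ∑ l ∈ Ico (i + 1) D.m, D.e l (φ (sl (P ++ Q) (bt D.Am D.G (P ++ Q).length l)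
        (bt D.Am D.G (P ++ Q).length (l + 1))))) := by
  have hT : (P ++ Q).length = P.length + Q.length := List.length_append
  -- left boundaries
  have hb : ∀ l, l ≤ i → bt D.Am D.G (P ++ Q).length l = bt D.Am D.G P.length l := by
    intro l hl
    rw [hT]
    apply bt_congr
    · have := (D.A_mono hl).2
      have := D.hA i
      omega
    · exact (D.dvd_le hl).trans h3
  have hbP : ∀ l, l ≤ i → bt D.Am D.G (P ++ Q).length l ≤ P.length := by
    intro l hl
    have := D.bt_lt (P ++ Q).length l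
    have := (D.A_mono hl).1
    omega
  -- right boundaries
  have hc : ∀ l, i < l → l ≤ D.m →
      bt D.Am D.G (P ++ Q).length l - P.length =
        Q.length - La D.Am D.G (Q.length + D.A i) l ∧
      P.length ≤ bt D.Am D.G (P ++ Q).length l := by
    intro l hl hlm
    have hAl : D.Am l ≤ (P ++ Q).length := by
      have := (D.A_mono hlm).2
      omega
    have e1 := bt_add_La (Am := D.Am) (G := D.G) (x := (P ++ Q).length) (l := l) hAl
    have e2 : La D.Am D.G (P ++ Q).length l = La D.Am D.G (Q.length + D.A i) l := by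
      apply La_congr (z := Q.length + D.A i + D.M * D.G i - 1)
      · omega
      · omega
      · exact h5 l hl hlm
    have e3 := D.Am_le_bt (P ++ Q).length l
    have e4 := D.Am_gt hl
    rw [← e2]
    constructor <;> omega
  refine ⟨?_, ?_, ?_, ?_⟩
  · rw [hb i le_rfl, List.take_append_of_le_length]
    rw [← hb i le_rfl]
    exact hbP i le_rfl
  · apply Finset.sum_congr rfl
    intro l hl
    rw [Finset.mem_range] at hl
    rw [sl_left P Q (hbP (l + 1) hl), hb l hl.le, hb (l + 1) hl]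
  · obtain ⟨c1, c2⟩ := hc (i + 1) (by omega) (by omega)
    rw [List.drop_append, List.drop_eq_nil_of_le c2, List.nil_append, c1]
  · apply Finset.sum_congr rfl
    intro l hl
    rw [Finset.mem_Ico] at hl
    obtain ⟨c1, c2⟩ := hc l (by omega) (by omega)
    obtain ⟨d1, d2⟩ := hc (l + 1) (by omega) (by omega)
    rw [sl_right P Q c2 (D.bt_mono _ l), c1, d1]

theorem ww_split {i : ℕ} (him : i < D.m) (u : List α) :
    D.ww φ u = ∑ l ∈ range i, D.e l (φ (sl u (bt D.Am D.G u.length l)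
        (bt D.Am D.G u.length (l + 1)))) +
      D.e i (φ (sl u (bt D.Am D.G u.length i) (bt D.Am D.G u.length (i + 1)))) +
      ∑ l ∈ Ico (i + 1) D.m, D.e l (φ (sl u (bt D.Am D.G u.length l)
        (bt D.Am D.G u.length (l + 1)))) := by
  unfold ww
  rw [← Finset.sum_range_succ, Finset.sum_range_add_sum_Ico _ him]

/-- **Soundness**, every zone length, every content. -/
theorem sound (hφ : ∀ u v, φ (u ++ v) = φ u * φ v) {P Q : List α}
    {c c' : Fin D.m × S × W × S × W × V} (hL : D.LLeg φ P c) (hR : D.RLeg φ Q c') :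
    D.bv c' = D.act c.2.2.2.2.2 (φ (P ++ Q)) + D.nu φ (P ++ Q) := by
  classical
  have hT : (P ++ Q).length = P.length + Q.length := List.length_append
  by_cases hg : D.GoodT (P ++ Q).length
  · have hcc : c = c' := D.good P.length Q.length c c' (by rw [← hT]; exact hg) hL.1 hR.1
    subst hcc
    obtain ⟨-, hU, l1, l2, l3, l4⟩ := hL
    obtain ⟨-, r1, r2, r3, r4, r5⟩ := hR
    obtain ⟨m1, m2, m3, m4⟩ := D.matched φ c.1.2 l1 l2 r1 r2 r3
    unfold nu
    rw [if_pos hg]
    have hz := hU (φ (sl (P ++ Q) (bt D.Am D.G (P ++ Q).length c.1)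
      (bt D.Am D.G (P ++ Q).length (c.1 + 1))))
    have hf : c.2.1 * (φ (sl (P ++ Q) (bt D.Am D.G (P ++ Q).length c.1)
      (bt D.Am D.G (P ++ Q).length (c.1 + 1)))) * c.2.2.2.1 = φ (P ++ Q) := by
      rw [← l3, ← r4, m1, m3, ← fact φ hφ _ (D.bt_mono _ _)]
    have hw : c.2.2.1 + D.e c.1 (φ (sl (P ++ Q) (bt D.Am D.G (P ++ Q).length c.1)
      (bt D.Am D.G (P ++ Q).length (c.1 + 1)))) + c.2.2.2.2.1 = D.ww φ (P ++ Q) := by
      rw [← l4, ← r5, m2, m4, ← D.ww_split φ c.1.2]
    rw [hf, hw] at hz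
    rw [← hz]; abel
  · unfold nu
    rw [if_neg hg]
    have hex : ∃ p, D.PairAt ((P ++ Q).length % D.M) p :=
      ⟨(P.length, Q.length, c, c'), by rw [hT], hL.1, hR.1⟩
    unfold nuBad
    rw [dif_pos hex]
    obtain ⟨q1, q2, q3⟩ := hex.choose_spec
    have hdiv : ∃ k ∈ D.Ms, k ∣ P.length + Q.length := by
      by_contra h
      apply hg
      intro k hk hd
      exact h ⟨k, hk, by rw [← hT]; exact hd⟩
    have key : ∀ a q, D.nmR (a + D.M * q) = D.nmR a := by
      intro a q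
      induction q with
      | zero => simp
      | succ q ih => rw [Nat.mul_succ, ← Nat.add_assoc, D.perR, ih]
    obtain ⟨k, hk, hkd⟩ := hdiv
    have q1' : (hex.choose.1 + hex.choose.2.1) % D.M = (P.length + Q.length) % D.M :=
      q1.trans (by rw [hT])
    have e1 := Nat.mod_add_div (P.length + Q.length) D.M
    have e2 := Nat.mod_add_div (hex.choose.1 + hex.choose.2.1) D.M
    obtain ⟨b1, b2⟩ := D.bd P.length
      (Q.length + D.M * ((hex.choose.1 + hex.choose.2.1) / D.M))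
      hex.choose.1 (hex.choose.2.1 + D.M * ((P.length + Q.length) / D.M)) c c'
      hex.choose.2.2.1 hex.choose.2.2.2
      (by rw [q1'] at e2; omega)
      ⟨k, hk, by
        rw [← Nat.add_assoc]
        exact dvd_add hkd ((D.hMs k hk).trans (dvd_mul_right _ _))⟩
      hL.1 (by rw [key]; exact hR.1) q2 (by rw [key]; exact q3)
    have b2' : D.bv c' = D.bv hex.choose.2.2.2 := b2
    rw [← b1, ← b2']; abel

/-- **Locality of the noise.** -/
theorem nu_local (hφ : ∀ u v, φ (u ++ v) = φ u * φ v) {La : ℕ} (hLa : D.A D.m ≤ La)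
    {u u' : List α} (h1 : La ≤ u.length) (h2 : La ≤ u'.length) (h3 : u.take La = u'.take La)
    (h4 : u.length % (D.M * D.G D.m) = u'.length % (D.M * D.G D.m))
    (h5 : φ (u.drop La) = φ (u'.drop La)) : D.nu φ u = D.nu φ u' := by
  have hφu : φ u = φ u' := by
    rw [← List.take_append_drop La u, ← List.take_append_drop La u', hφ, hφ, h3, h5]
  have hM4 : u.length % D.M = u'.length % D.M :=
    Nat.ModEq.of_dvd (dvd_mul_right _ _) h4
  have hG4 : ∀ l, l ≤ D.m → u.length % D.G l = u'.length % D.G l := fun l hl =>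
    Nat.ModEq.of_dvd ((D.dvd_le hl).trans (dvd_mul_left _ _)) h4
  have hgood : D.GoodT u.length ↔ D.GoodT u'.length := by
    unfold GoodT
    constructor
    · intro h k hk hd
      apply h k hk
      have e : u.length % k = u'.length % k := Nat.ModEq.of_dvd (D.hMs k hk) hM4
      rw [Nat.dvd_iff_mod_eq_zero] at hd ⊢
      omega
    · intro h k hk hd
      apply h k hk
      have e : u.length % k = u'.length % k := Nat.ModEq.of_dvd (D.hMs k hk) hM4
      rw [Nat.dvd_iff_mod_eq_zero] at hd ⊢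
      omega
  have hbt : ∀ l, l ≤ D.m → bt D.Am D.G u.length l = bt D.Am D.G u'.length l := by
    intro l hl
    have a1 := (D.A_mono hl).2
    have a2 := D.hA D.m
    have a3 : (u.length - D.Am l) ≡ (u'.length - D.Am l) [MOD D.G l] := by
      have b1 : (u.length - D.Am l) + D.Am l ≡ (u'.length - D.Am l) + D.Am l [MOD D.G l] := by
        rw [Nat.sub_add_cancel (by omega), Nat.sub_add_cancel (by omega)]
        exact hG4 l hl
      exact Nat.ModEq.add_right_cancel' _ b1
    unfold bt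
    rw [a3]
  have hsl : ∀ a b, b ≤ La → sl u a b = sl u' a b := by
    intro a b hb
    rw [← List.take_append_drop La u, ← List.take_append_drop La u',
      sl_left _ _ (by rw [List.length_take]; omega), sl_left _ _ (by rw [List.length_take]; omega),
      h3]
  have hww : D.ww φ u = D.ww φ u' := by
    unfold ww
    apply Finset.sum_congr rfl
    intro l hl
    rw [Finset.mem_range] at hl
    rw [hbt l hl.le, hbt (l + 1) hl, hsl]
    have := D.bt_lt u'.length (l + 1)
    have := (D.A_mono (show l + 1 ≤ D.m from hl)).1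
    omega
  unfold nu
  by_cases hg : D.GoodT u.length
  · rw [if_pos hg, if_pos (hgood.1 hg), hφu, hww]
  · rw [if_neg hg, if_neg (fun h => hg (hgood.2 h)), hφu, hM4]

/-- the doubt set of a length -/
def Doubt (T : ℕ) : Prop :=
  ∃ l, 0 < l ∧ l ≤ D.m ∧ ((T - D.Am l) % D.G l < D.M * D.G (l - 1) ∨
    D.G l < (T - D.Am l) % D.G l + D.M * D.G (l - 1))

/-- **Completeness.** -/
theorem complete (hφ : ∀ u v, φ (u ++ v) = φ u * φ v) {u : List α}
    (hlen : D.Am D.m + D.A D.m ≤ u.length) (hg : D.GoodT u.length) (hd : ¬ D.Doubt u.length)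
    (v : V) : ∃ P Q c, u = P ++ Q ∧ D.LLeg φ P c ∧ c.2.2.2.2.2 = v ∧ D.RLeg φ Q c ∧
      P.length ≤ D.Am D.m := by
  classical
  set T := u.length with hT
  obtain ⟨i, him, hi⟩ := D.noise (φ u) (D.ww φ u) v
  let g := φ (u.take (bt D.Am D.G T i))
  let z := φ (sl u (bt D.Am D.G T i) (bt D.Am D.G T (i + 1)))
  let h := φ (u.drop (bt D.Am D.G T (i + 1)))
  let wl := ∑ l ∈ range i, D.e l (φ (sl u (bt D.Am D.G T l) (bt D.Am D.G T (l + 1))))
  let wr := ∑ l ∈ Ico (i + 1) D.m, D.e l (φ (sl u (bt D.Am D.G T l) (bt D.Am D.G T (l + 1))))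
  have hgzh : g * z * h = φ u := (fact φ hφ u (D.bt_mono _ _)).symm
  have hw : D.ww φ u = wl + D.e i z + wr := D.ww_split φ him u
  let c : Fin D.m × S × W × S × W × V := (⟨i, him⟩, g, wl, h, wr, v)
  have hused' : ∀ z' : S, D.F (g * z' * h) (wl + D.e i z' + wr) + D.act v (g * z' * h) =
      D.F (φ u) (D.ww φ u) + D.act v (φ u) := by
    intro z'
    have := hi g z h hgzh z'
    rw [← this, hw]
    congr 2
    abel
  have hU : D.Used c := by
    intro z'
    show D.F (g * z' * h) (wl + D.e i z' + wr) + D.act v (g * z' * h) =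
      D.F (g * 1 * h) (wl + D.e i 1 + wr) + D.act v (g * 1 * h)
    rw [hused' z', hused' 1]
  -- sizes
  have hcell : D.A i + D.M * D.G i ≤ D.Am D.m := D.Am_gt him
  have hGi := D.hG i
  have hM := D.hM
  have hMG : D.M ≤ D.M * D.G i := Nat.le_mul_of_pos_right _ hGi
  -- the name
  obtain ⟨t, t1, t2, t3, t4, t5⟩ := D.avail T c (D.A i) hg (by omega)
  -- the place
  obtain ⟨k, k1, k2⟩ := Nat.chineseRemainder (D.cop i) t T
  set N := D.M * D.G i with hN
  have hNpos : 0 < N := Nat.mul_pos hM hGi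
  set o := D.A i + (k + N * D.A i - D.A i) % N with ho
  have ho1 : D.A i ≤ o := by omega
  have ho2 : o < D.A i + N := by
    have := Nat.mod_lt (k + N * D.A i - D.A i) hNpos
    omega
  have hok : o ≡ k [MOD N] := by
    have e1 : o ≡ D.A i + (k + N * D.A i - D.A i) [MOD N] := by
      rw [ho]
      exact Nat.ModEq.add_left _ (Nat.mod_modEq _ _)
    have e2 : D.A i + (k + N * D.A i - D.A i) = k + N * D.A i := by
      have : D.A i ≤ N * D.A i := Nat.le_mul_of_pos_left _ hNpos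
      omega
    rw [e2] at e1
    refine e1.trans ?_
    have : k + N * D.A i ≡ k + 0 [MOD N] :=
      Nat.ModEq.add_left _ ((Nat.modEq_zero_iff_dvd).2 (dvd_mul_right _ _))
    simpa using this
  have hoM : o ≡ t [MOD D.M] := (Nat.ModEq.of_dvd (dvd_mul_right _ _) hok).trans k1
  have hoG : o ≡ T [MOD D.G i] := (Nat.ModEq.of_dvd (dvd_mul_left _ _) hok).trans k2
  have hoT : o ≤ T := by omega
  have perL' : ∀ a b, a ≡ b [MOD D.M] → D.nmL a = D.nmL b := by
    have key : ∀ a q, D.nmL (a + D.M * q) = D.nmL a := by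
      intro a q
      induction q with
      | zero => simp
      | succ q ih => rw [Nat.mul_succ, ← Nat.add_assoc, D.perL, ih]
    intro a b hab
    rw [← Nat.mod_add_div a D.M, ← Nat.mod_add_div b D.M, key, key, hab]
  have perR' : ∀ a b, a ≡ b [MOD D.M] → D.nmR a = D.nmR b := by
    have key : ∀ a q, D.nmR (a + D.M * q) = D.nmR a := by
      intro a q
      induction q with
      | zero => simp
      | succ q ih => rw [Nat.mul_succ, ← Nat.add_assoc, D.perR, ih]
    intro a b hab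
    rw [← Nat.mod_add_div a D.M, ← Nat.mod_add_div b D.M, key, key, hab]
  have hPl : (u.take o).length = o := by
    rw [List.length_take]; omega
  have hQl : (u.drop o).length = T - o := by
    rw [List.length_drop]
  have hPQ : u.take o ++ u.drop o = u := List.take_append_drop _ _
  have hLn : D.nmL (u.take o).length = some c := by
    rw [hPl, perL' o t hoM, t4]
  have hRn : D.nmR (u.drop o).length = some c := by
    rw [hQl, perR' (T - o) (T - t) ?_, t5]
    have : (T - o) + o ≡ (T - t) + t [MOD D.M] := by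
      rw [Nat.sub_add_cancel hoT, Nat.sub_add_cancel t3]
    exact Nat.ModEq.add_right_cancel hoM this
  have hGd : D.G i ∣ (u.drop o).length := by
    rw [hQl]
    exact (Nat.modEq_iff_dvd' hoT).1 hoG
  have h4 : D.Am D.m ≤ (u.drop o).length + D.A i := by
    rw [hQl]
    have e0 := D.hA D.m
    omega
  have h5 : ∀ l, i < l → l ≤ D.m → ((u.drop o).length + D.A i - D.Am l) / D.G l =
      ((u.drop o).length + D.A i + N - 1 - D.Am l) / D.G l := by
    intro l hl hlm
    rw [hQl]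
    have hGl := D.hG l
    have hAl : D.Am l ≤ D.Am D.m := (D.A_mono hlm).2
    have hnd : D.M * D.G (l - 1) ≤ (T - D.Am l) % D.G l ∧
        (T - D.Am l) % D.G l + D.M * D.G (l - 1) ≤ D.G l := by
      constructor
      · by_contra hc
        exact hd ⟨l, by omega, hlm, Or.inl (by omega)⟩
      · by_contra hc
        exact hd ⟨l, by omega, hlm, Or.inr (by omega)⟩
    have hle : N ≤ D.M * D.G (l - 1) := by
      rw [hN]
      exact Nat.mul_le_mul_left _ (Nat.le_of_dvd (D.hG _) (D.dvd_le (by omega)))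
    have hdm := Nat.div_add_mod (T - D.Am l) (D.G l)
    set q := (T - D.Am l) / D.G l with hq
    set r := (T - D.Am l) % D.G l with hr
    have hb1 : D.G l * q + (r - N) ≤ T - o + D.A i - D.Am l := by omega
    have x1 : (T - o + D.A i - D.Am l) / D.G l = q := by
      apply Nat.div_eq_of_lt_le
      · rw [Nat.mul_comm]; omega
      · rw [Nat.succ_mul, Nat.mul_comm]; omega
    have x2 : (T - o + D.A i + N - 1 - D.Am l) / D.G l = q := by
      apply Nat.div_eq_of_lt_le
      · rw [Nat.mul_comm]; omega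
      · rw [Nat.succ_mul, Nat.mul_comm]; omega
    rw [x1, x2]
  have hm := D.matched φ (P := u.take o) (Q := u.drop o) him (by rw [hPl]; exact ho1)
    (by rw [hPl]; exact ho2) hGd h4 h5
  rw [hPQ] at hm
  obtain ⟨m1, m2, m3, m4⟩ := hm
  refine ⟨u.take o, u.drop o, c, hPQ.symm, ⟨hLn, hU, by rw [hPl]; exact ho1,
    by rw [hPl]; exact ho2, m1, m2⟩, rfl, ⟨hRn, hGd, h4, h5, m3, m4⟩, ?_⟩
  rw [hPl]; omega

end Dat

/-- starts of the grid windows -/
def AmF (M Gam : ℕ) : ℕ → ℕ
  | 0 => 0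
  | l + 1 => AmF M Gam l + Gam ^ l + M * Gam ^ l

/-- bad lengths, over the integers -/
def BadZ (Ms : Finset ℕ) (m M Gam : ℕ) (Am : ℕ → ℕ) (T : ℤ) : Prop :=
  (∃ p ∈ Ms, (p : ℤ) ∣ T) ∨ ∃ j, 1 ≤ j ∧ j ≤ m ∧ ∃ k : ℤ,
    |T - (Am j : ℤ) - k * (Gam : ℤ) ^ j| ≤ M * (Gam : ℤ) ^ (j - 1)

theorem exists_grid {S V : Type*} [Monoid S] [Finite S] [AddCommGroup V] [Finite V]
    (act : V → S → V) :
    ∃ m r : ℕ, ∀ B : ℕ, ∃ (Ms : Finset ℕ) (M : ℕ), Ms.card ≤ r ∧ 0 < M ∧
      (∀ q ∈ Ms, q.Prime ∧ B < q ∧ q ∣ M) ∧ ∀ Gam : ℕ, 0 < Gam → Nat.Coprime M Gam →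
      ∀ {α : Type*} (φ : List α → S), (∀ u v, φ (u ++ v) = φ u * φ v) →
      ∃ (L R : List α → V → Prop) (nu : List α → V),
        (∀ P Q v b, L P v → R Q b → b = act v (φ (P ++ Q)) + nu (P ++ Q)) ∧
        (∀ P v, L P v → P.length ≤ AmF M Gam m) ∧
        (∀ (u : List α) (v : V), 2 * AmF M Gam m + Gam ^ m ≤ u.length →
          ¬ BadZ Ms m M Gam (AmF M Gam) u.length → ∃ P Q b, u = P ++ Q ∧ L P v ∧ R Q b) ∧
        (∀ (La : ℕ), AmF M Gam m + Gam ^ m ≤ La → ∀ u u' : List α, La ≤ u.length →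
          La ≤ u'.length → u.take La = u'.take La →
          u.length % (M * Gam ^ m) = u'.length % (M * Gam ^ m) →
          φ (u.drop La) = φ (u'.drop La) → nu u = nu u') := by
  classical
  haveI := Fintype.ofFinite S
  haveI := Fintype.ofFinite V
  obtain ⟨m, N, e, F, hN, hF⟩ := Crest.Agent.R320.RandF808.exists_noise S V act
  haveI : NeZero N := ⟨hN.ne'⟩
  let W := ZMod N × ZMod N
  let Γ := Fin m × S × W × S × W × V
  let bvf : Γ → V := fun c => F (c.2.1 * 1 * c.2.2.2.1) (c.2.2.1 + e c.1 1 + c.2.2.2.2.1) +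
          act c.2.2.2.2.2 (c.2.1 * 1 * c.2.2.2.1)
  obtain ⟨r, hr⟩ := Crest.Agent.R320.Names_570.exists_names (N := Γ) (C := V × V) (fun c => (c.2.2.2.2.2, bvf c))
  refine ⟨m, r, fun B => ?_⟩
  obtain ⟨Ms, nmL, nmR, h1, h2, h3, h4, h5, h6, h7⟩ := hr B
  have hMpos : 0 < ∏ q ∈ Ms, q := Finset.prod_pos fun q hq => (h2 q hq).1.pos
  refine ⟨Ms, ∏ q ∈ Ms, q, h1, hMpos,
    fun q hq => ⟨(h2 q hq).1, (h2 q hq).2, Finset.dvd_prod_of_mem _ hq⟩, ?_⟩
  intro Gam hGam hcop α φ hφ
  let M := ∏ q ∈ Ms, q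
  let D : Dat S V W :=
    { act := act, m := m, e := e, F := F, noise := hF, M := M, Ms := Ms, nmL := nmL, nmR := nmR
      perL := h3, perR := h4, hM := hMpos
      hMs := fun k hk => Finset.dvd_prod_of_mem _ hk
      good := fun t t' c c' hg a b => h5 t t' c c' hg a b
      avail := fun T c s hg hs => h6 T c s hg hs
      bd := by
        intro t₁ t₁' t₂ t₂' c₁ c₁' c₂ c₂' ht hk a1 a2 a3 a4
        rcases h7 t₁ t₁' t₂ t₂' c₁ c₁' c₂ c₂' ht hk a1 a2 a3 a4 with ⟨b1, b2⟩ | ⟨b1, b2, b3⟩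
        · subst b1; subst b2; exact ⟨rfl, rfl⟩
        · subst b1; subst b2
          have c1 := congrArg Prod.fst b3
          have c2 := congrArg Prod.snd b3
          exact ⟨c1, c2.symm⟩
      Am := AmF M Gam
      A := fun l => AmF M Gam l + Gam ^ l
      G := fun l => Gam ^ l
      hG := fun l => pow_pos hGam l
      hA := fun l => rfl
      hAm := fun l => rfl
      hdvd := fun l => pow_dvd_pow _ (Nat.le_succ l)
      cop := fun l => hcop.pow_right l }
  refine ⟨fun P v => ∃ c, D.LLeg φ P c ∧ c.2.2.2.2.2 = v, fun Q b => ∃ c, D.RLeg φ Q c ∧ D.bv c = b,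
    D.nu φ, ?_, ?_, ?_, ?_⟩
  · rintro P Q v b ⟨c, hc, rfl⟩ ⟨c', hc', rfl⟩
    exact D.sound φ hφ hc hc'
  · rintro P v ⟨c, hc, rfl⟩
    have := hc.2.2.2.1
    have := D.Am_gt (l := D.m) (i := c.1) c.1.2
    show P.length ≤ D.Am D.m
    omega
  · intro u v hu hb
    have hg : D.GoodT u.length := by
      intro k hk hd
      exact hb (Or.inl ⟨k, hk, by exact_mod_cast hd⟩)
    have hd : ¬ D.Doubt u.length := by
      rintro ⟨l, hl0, hlm, hl⟩
      apply hb
      right
      have hAl : D.Am l ≤ D.Am D.m := (D.A_mono hlm).2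
      have hAl' : AmF M Gam l ≤ AmF M Gam m := hAl
      have hu' : 2 * AmF M Gam m + Gam ^ m ≤ u.length := hu
      have hle : AmF M Gam l ≤ u.length := by
        omega
      have hdm := Nat.div_add_mod (u.length - AmF M Gam l) (Gam ^ l)
      have hrl := Nat.mod_lt (u.length - AmF M Gam l) (show Gam ^ l > 0 from pow_pos hGam l)
      have hl' : (u.length - AmF M Gam l) % Gam ^ l < M * Gam ^ (l - 1) ∨
        Gam ^ l < (u.length - AmF M Gam l) % Gam ^ l + M * Gam ^ (l - 1) := hl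
      set q := (u.length - AmF M Gam l) / Gam ^ l with hq
      set r' := (u.length - AmF M Gam l) % Gam ^ l with hr'
      have hz : (u.length : ℤ) - (AmF M Gam l : ℤ) = (q : ℤ) * (Gam : ℤ) ^ l + r' := by
        have : (u.length : ℤ) - (AmF M Gam l : ℤ) = ((u.length - AmF M Gam l : ℕ) : ℤ) := by
          rw [Nat.cast_sub hle]
        rw [this, ← hdm]
        push_cast
        ring
      rcases hl' with hl' | hl'
      · refine ⟨l, hl0, hlm, q, ?_⟩
        rw [hz]
        have e1 : (q : ℤ) * (Gam : ℤ) ^ l + r' - q * (Gam : ℤ) ^ l = r' := by ring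
        rw [e1, abs_of_nonneg (by positivity)]
        have : (r' : ℤ) ≤ ((M * Gam ^ (l - 1) : ℕ) : ℤ) := by exact_mod_cast hl'.le
        push_cast at this
        exact this
      · refine ⟨l, hl0, hlm, q + 1, ?_⟩
        rw [hz]
        have e1 : (q : ℤ) * (Gam : ℤ) ^ l + r' - (q + 1) * (Gam : ℤ) ^ l = r' - (Gam : ℤ) ^ l := by
          ring
        have a1 : (r' : ℤ) ≤ (Gam : ℤ) ^ l := by exact_mod_cast hrl.le
        have a2 : ((Gam ^ l : ℕ) : ℤ) ≤ ((r' + M * Gam ^ (l - 1) : ℕ) : ℤ) := by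
          exact_mod_cast hl'.le
        push_cast at a2
        rw [e1, abs_le]
        constructor
        · linarith
        · have : (0 : ℤ) ≤ M * (Gam : ℤ) ^ (l - 1) := by positivity
          linarith
    have hlen : D.Am D.m + D.A D.m ≤ u.length := by
      show AmF M Gam m + (AmF M Gam m + Gam ^ m) ≤ u.length
      have : 2 * AmF M Gam m + Gam ^ m ≤ u.length := hu
      omega
    obtain ⟨P, Q, c, hPQ, hL, hv, hR, -⟩ := D.complete φ hφ hlen hg hd v
    exact ⟨P, Q, _, hPQ, ⟨c, hL, hv⟩, ⟨c, hR, rfl⟩⟩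
  · intro La hLa u u' a1 a2 a3 a4 a5
    exact D.nu_local φ hφ hLa a1 a2 a3 a4 a5

end Crest.Agent.R320.Grid2_737
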