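import Mathlib

/-!
Row 320, helper821: the zone gadget of scheme 1 with b-anchored nested grids (693 #13203).
Pure statement on lists, arbitrary contents, no small walls (edit of helper420's Gad1_420).
-/

set_option autoImplicit false
set_option linter.unusedSectionVars false

namespace Crest.Agent.R320.Grid_821

open Finset

variable {α : Type*}

theorem drop_app_left {P Q : List α} {s : ℕ} (h : s ≤ P.length) :
    (P ++ Q).drop s = P.drop s ++ Q := List.drop_append_of_le_length h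

theorem drop_app_right {P Q : List α} {s : ℕ} :
    (P ++ Q).drop (P.length + s) = Q.drop s := by
  simp [List.drop_append]

/-- the factor `[a, b)`. -/
def seg (Y : List α) (a b : ℕ) : List α := (Y.drop a).take (b - a)

theorem seg_left {P Q : List α} {a b : ℕ} (hab : a ≤ b) (hb : b ≤ P.length) :
    seg (P ++ Q) a b = seg P a b := by
  unfold seg
  rw [drop_app_left (by omega), List.take_append_of_le_length (by rw [List.length_drop]; omega)]

theorem seg_right {P Q : List α} {a b : ℕ} :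
    seg (P ++ Q) (P.length + a) (P.length + b) = seg Q a b := by
  unfold seg
  rw [drop_app_right, Nat.add_sub_add_left]

theorem seg_split {Y : List α} {a b : ℕ} (hab : a ≤ b) :
    Y.take a ++ seg Y a b ++ Y.drop b = Y := by
  have : Y.drop b = (Y.drop a).drop (b - a) := by
    rw [List.drop_drop]; congr 1; omega
  unfold seg
  rw [this, List.append_assoc, List.take_append_drop, List.take_append_drop]

/-- The data of the gadget. -/
structure Dat (α S V W : Type*) where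
  φ : List α → S
  act : V → S → V
  m : ℕ
  e : ℕ → S → W
  F : S → W → V
  M : ℕ
  A : ℕ → ℕ
  A' : ℕ → ℕ
  Gr : ℕ → ℕ
  LN : ℕ → Fin m × S × W × S × W × V → Prop
  RN : ℕ → Fin m × S × W × S × W × V → Prop

variable {S V W : Type*} [Monoid S] [AddCommGroup V] [AddCommGroup W] (D : Dat α S V W)

/-- position of level `k` in a zone (or in a left part). -/
def Dat.H (Y : List α) (k : ℕ) : ℕ := D.A k + (Y.length - D.A k) % D.Gr k

/-- product of the hole `k`. -/
def Dat.zz (Y : List α) (k : ℕ) : S := D.φ (seg Y (D.H Y k) (D.H Y (k + 1)))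

/-- weight of a zone. -/
def Dat.ww (Y : List α) : W := ∑ k ∈ range D.m, D.e k (D.zz Y k)

/-- end value of a name. -/
def Dat.bb (i : ℕ) (g : S) (wl : W) (h : S) (wr : W) (v : V) : V :=
  D.F (g * 1 * h) (wl + D.e i 1 + wr) + D.act v (g * 1 * h)

/-- good names. -/
def Dat.ok (i : ℕ) (g : S) (wl : W) (h : S) (wr : W) (v : V) : Prop :=
  ∀ z, D.F (g * z * h) (wl + D.e i z + wr) + D.act v (g * z * h) = D.bb i g wl h wr v

/-- left legality for a name. -/
def Dat.LL (i : Fin D.m) (g : S) (wl : W) (h : S) (wr : W) (v : V) (P : List α) : Prop :=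
  D.ok i g wl h wr v ∧ D.A' i ≤ P.length ∧ P.length < D.A' i + D.M * D.Gr i ∧
  D.LN P.length (i, g, wl, h, wr, v) ∧
  g = D.φ (P.take (D.H P i)) ∧ wl = ∑ k ∈ range i, D.e k (D.zz P k)

/-- level `k` as seen from the right, for a name of level `i`. -/
def Dat.HQ (i : ℕ) (Q : List α) (k : ℕ) : ℕ :=
  (D.A k - D.A' i) + (D.A' i + Q.length - D.A k) % D.Gr k

/-- visibility from the right at level `i`. -/
def Dat.Vis (i : ℕ) (Q : List α) : Prop :=
  ∀ k, i < k → k ≤ D.m → (D.A' i + Q.length - D.A k) / D.Gr k =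
    (D.A' i + D.M * D.Gr i + Q.length - D.A k) / D.Gr k

/-- right legality for a name. -/
def Dat.RR (i : Fin D.m) (g : S) (wl : W) (h : S) (wr : W) (v : V) (Q : List α) : Prop :=
  D.ok i g wl h wr v ∧ D.Gr i ∣ Q.length ∧ D.A D.m ≤ Q.length ∧
  D.RN Q.length (i, g, wl, h, wr, v) ∧ D.Vis i Q ∧
  h = D.φ (Q.drop (D.HQ i Q (i + 1))) ∧
  wr = ∑ k ∈ Ico ((i : ℕ) + 1) D.m, D.e k (D.φ (seg Q (D.HQ i Q k) (D.HQ i Q (k + 1))))

/-- The geometric hypotheses. -/
structure Geo (D : Dat α S V W) : Prop where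
  hφ : ∀ u v, D.φ (u ++ v) = D.φ u * D.φ v
  gpos : ∀ k, 0 < D.Gr k
  gdvd : ∀ k, D.Gr k ∣ D.Gr (k + 1)
  cell : ∀ k, D.A k + D.Gr k ≤ D.A' k
  next : ∀ k, D.A' k + D.M * D.Gr k ≤ D.A (k + 1)

variable {D}

theorem Geo.monoA (hD : Geo D) {i k : ℕ} (h : i ≤ k) : D.A i ≤ D.A k :=
  monotone_nat_of_le_succ (fun k => by have := hD.cell k; have := hD.next k; omega) h

theorem Geo.dvdle (hD : Geo D) {i k : ℕ} (h : i ≤ k) : D.Gr i ∣ D.Gr k := by
  induction h with
  | refl => exact dvd_rfl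
  | step _ ih => exact ih.trans (hD.gdvd _)

theorem H_left (hD : Geo D) {P Q : List α} {i k : ℕ} (hk : k ≤ i) (h1 : D.A' i ≤ P.length)
    (hQ : D.Gr i ∣ Q.length) : D.H (P ++ Q) k = D.H P k := by
  have h2 := hD.cell i
  have h3 := hD.monoA hk
  obtain ⟨c, hc⟩ := (hD.dvdle hk).trans hQ
  unfold Dat.H
  rw [List.length_append, hc, show P.length + D.Gr k * c - D.A k =
    (P.length - D.A k) + D.Gr k * c by omega, Nat.add_mul_mod_self_left]

theorem H_le (hD : Geo D) {P : List α} {i k : ℕ} (hk : k ≤ i) (h1 : D.A' i ≤ P.length) :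
    D.H P k ≤ P.length := by
  have h2 := hD.cell i
  have h3 := hD.monoA hk
  have := Nat.mod_le (P.length - D.A k) (D.Gr k)
  unfold Dat.H
  omega

theorem H_mono (hD : Geo D) {Y : List α} {k : ℕ} : D.H Y k ≤ D.H Y (k + 1) := by
  have h1 := hD.cell k
  have h2 := hD.next k
  have := Nat.mod_lt (Y.length - D.A k) (hD.gpos k)
  unfold Dat.H
  omega

theorem H_right (hD : Geo D) {P Q : List α} {i k : ℕ} (hik : i < k) (hkm : k ≤ D.m)
    (h1 : D.A' i ≤ P.length) (h2 : P.length < D.A' i + D.M * D.Gr i)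
    (hQ : D.A D.m ≤ Q.length) (hv : D.Vis i Q) :
    D.H (P ++ Q) k = P.length + D.HQ i Q k := by
  have h3 := hD.next i
  have h4 := hD.monoA (show i + 1 ≤ k from hik)
  have h5 := hD.monoA hkm
  have h6 := hv k hik hkm
  have hg := hD.gpos k
  obtain ⟨x, hx⟩ : ∃ x, D.A' i + Q.length - D.A k = x := ⟨_, rfl⟩
  have hx' : (P ++ Q).length - D.A k = x + (P.length - D.A' i) := by
    rw [List.length_append]; omega
  have hq : (x + (P.length - D.A' i)) / D.Gr k = x / D.Gr k := by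
    apply le_antisymm
    · rw [← hx, h6]
      exact Nat.div_le_div_right (by omega)
    · exact Nat.div_le_div_right (by omega)
  have e1 := Nat.div_add_mod x (D.Gr k)
  have e2 := Nat.div_add_mod (x + (P.length - D.A' i)) (D.Gr k)
  rw [hq] at e2
  unfold Dat.H Dat.HQ
  rw [hx', hx]
  omega

/-- reading a junction whose two sides see the level structure at level `i`. -/
theorem read (hD : Geo D) {P Q : List α} {i : ℕ} (him : i < D.m)
    (h1 : D.A' i ≤ P.length) (h2 : P.length < D.A' i + D.M * D.Gr i)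
    (hQd : D.Gr i ∣ Q.length) (hQ : D.A D.m ≤ Q.length) (hv : D.Vis i Q) :
    D.φ ((P ++ Q).take (D.H (P ++ Q) i)) = D.φ (P.take (D.H P i)) ∧
    (∑ k ∈ range i, D.e k (D.zz (P ++ Q) k)) = (∑ k ∈ range i, D.e k (D.zz P k)) ∧
    D.φ ((P ++ Q).drop (D.H (P ++ Q) (i + 1))) = D.φ (Q.drop (D.HQ i Q (i + 1))) ∧
    (∑ k ∈ Ico (i + 1) D.m, D.e k (D.zz (P ++ Q) k)) =
      ∑ k ∈ Ico (i + 1) D.m, D.e k (D.φ (seg Q (D.HQ i Q k) (D.HQ i Q (k + 1)))) ∧
    D.φ (P ++ Q) = D.φ ((P ++ Q).take (D.H (P ++ Q) i)) * D.zz (P ++ Q) i *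
      D.φ ((P ++ Q).drop (D.H (P ++ Q) (i + 1))) ∧
    D.ww (P ++ Q) = (∑ k ∈ range i, D.e k (D.zz (P ++ Q) k)) + D.e i (D.zz (P ++ Q) i) +
      ∑ k ∈ Ico (i + 1) D.m, D.e k (D.zz (P ++ Q) k) := by
  have hH : ∀ k, k ≤ i → D.H (P ++ Q) k = D.H P k := fun k hk => H_left hD hk h1 hQd
  have hHf : ∀ k, k ≤ i → D.H P k ≤ P.length := fun k hk => H_le hD hk h1
  have hHr : ∀ k, i < k → k ≤ D.m → D.H (P ++ Q) k = P.length + D.HQ i Q k :=
    fun k hk hkm => H_right hD hk hkm h1 h2 hQ hv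
  refine ⟨?_, ?_, ?_, ?_, ?_, ?_⟩
  · rw [hH i le_rfl, List.take_append_of_le_length (hHf i le_rfl)]
  · refine Finset.sum_congr rfl fun k hk => ?_
    have hk' := Finset.mem_range.1 hk
    have h3 := hH k hk'.le
    have h4 := hH (k + 1) hk'
    unfold Dat.zz
    rw [h3, h4, seg_left (H_mono hD) (hHf (k + 1) hk')]
  · rw [hHr (i + 1) (Nat.lt_succ_self i) him, drop_app_right]
  · refine Finset.sum_congr rfl fun k hk => ?_
    obtain ⟨hk1, hk2⟩ := Finset.mem_Ico.1 hk
    have h3 := hHr k (by omega) (by omega)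
    have h4 := hHr (k + 1) (by omega) (by omega)
    unfold Dat.zz
    rw [h3, h4, seg_right]
  · have h5 : D.H (P ++ Q) i ≤ D.H (P ++ Q) (i + 1) := H_mono hD
    have h6 := seg_split (Y := P ++ Q) h5
    conv_lhs => rw [← h6]
    rw [hD.hφ, hD.hφ]
    rfl
  · unfold Dat.ww
    rw [← Finset.sum_range_add_sum_Ico _ (show i + 1 ≤ D.m from him), Finset.sum_range_succ]

open Classical in
/-- left label. -/
noncomputable def Dat.Lf (D : Dat α S V W) (P : List α) : Option V :=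
  if h : ∃ c : Fin D.m × S × W × S × W × V,
      D.LL c.1 c.2.1 c.2.2.1 c.2.2.2.1 c.2.2.2.2.1 c.2.2.2.2.2 P then
    some h.choose.2.2.2.2.2 else none

open Classical in
/-- right label. -/
noncomputable def Dat.Rf (D : Dat α S V W) (Q : List α) : Option V :=
  if h : ∃ c : Fin D.m × S × W × S × W × V,
      D.RR c.1 c.2.1 c.2.2.1 c.2.2.2.1 c.2.2.2.2.1 c.2.2.2.2.2 Q then
    some (D.bb h.choose.1 h.choose.2.1 h.choose.2.2.1 h.choose.2.2.2.1 h.choose.2.2.2.2.1
      h.choose.2.2.2.2.2) else none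

theorem Lf_some {P : List α} {v : V} (h : D.Lf P = some v) :
    ∃ (i : Fin D.m) (g : S) (wl : W) (h : S) (wr : W), D.LL i g wl h wr v P := by
  classical
  unfold Dat.Lf at h
  split_ifs at h with h1
  · have := h1.choose_spec
    rw [Option.some.injEq] at h
    rw [h] at this
    exact ⟨_, _, _, _, _, this⟩

theorem Rf_some {Q : List α} {r : V} (h : D.Rf Q = some r) :
    ∃ (i : Fin D.m) (g : S) (wl : W) (h : S) (wr : W) (v : V),
      D.RR i g wl h wr v Q ∧ r = D.bb i g wl h wr v := by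
  classical
  unfold Dat.Rf at h
  split_ifs at h with h1
  · have := h1.choose_spec
    rw [Option.some.injEq] at h
    exact ⟨_, _, _, _, _, _, this, h.symm⟩

theorem Lf_isSome {P : List α} {i : Fin D.m} {g : S} {wl : W} {h : S} {wr : W} {v : V}
    (hc : D.LL i g wl h wr v P) : ∃ v', D.Lf P = some v' := by
  classical
  unfold Dat.Lf
  rw [dif_pos ⟨(i, g, wl, h, wr, v), hc⟩]
  exact ⟨_, rfl⟩

theorem Rf_isSome {Q : List α} {i : Fin D.m} {g : S} {wl : W} {h : S} {wr : W} {v : V}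
    (hc : D.RR i g wl h wr v Q) : (D.Rf Q).isSome := by
  classical
  unfold Dat.Rf
  rw [dif_pos ⟨(i, g, wl, h, wr, v), hc⟩]
  rfl

/-- The name system. -/
structure Names (D : Dat α S V W) (good : ℕ → Prop) : Prop where
  n1 : ∀ T, good T → ∀ o o' c c', o + o' = T → D.LN o c → D.RN o' c' → c = c'
  n2 : ∀ T, good T → ∀ c s i, i < D.m → s + D.M * D.Gr i ≤ T → ∃ o, s ≤ o ∧
    o < s + D.M * D.Gr i ∧ D.Gr i ∣ T - o ∧ D.LN o c ∧ D.RN (T - o) c
  n3 : ∀ T, ¬ good T → ∃ v0 r0 : V, ∀ o o' c c', o + o' = T → D.LN o c → D.RN o' c' →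
    c.2.2.2.2.2 = v0 ∧ D.bb c'.1 c'.2.1 c'.2.2.1 c'.2.2.2.1 c'.2.2.2.2.1 c'.2.2.2.2.2 = r0

/-- no grid point in doubt at level `k`. -/
def Dat.Clear (D : Dat α S V W) (T k : ℕ) : Prop :=
  ∀ i < k, D.M * D.Gr i ≤ (T - D.A k) % D.Gr k ∧ (T - D.A k) % D.Gr k + D.M * D.Gr i < D.Gr k

theorem div_aux {g x c a b : ℕ} (hg : 0 < g) (h1 : c ≤ x % g) (h2 : x % g + c < g)
    (ha : x ≤ a + c) (hb : b ≤ x + c) (hab : a ≤ b) : a / g = b / g := by
  have e := Nat.div_add_mod x g
  apply le_antisymm (Nat.div_le_div_right hab)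
  have h3 : b / g < x / g + 1 := by
    rw [Nat.div_lt_iff_lt_mul hg]
    nlinarith
  have h4 : x / g ≤ a / g := by
    rw [Nat.le_div_iff_mul_le hg]
    nlinarith
  omega

/-- GRID GADGET: existence of exact labels and noise for ALL pairs, completeness outside the
thin bad events (which depend on the length only). -/
theorem grid (D : Dat α S V W) (good : ℕ → Prop) (hD : Geo D) (hN : Names D good)
    (hF : ∀ s w v, ∃ i < D.m, ∀ g x h, g * x * h = s → ∀ z,
      D.F (g * z * h) (w - D.e i x + D.e i z) + D.act v (g * z * h) = D.F s w + D.act v s) :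
    ∃ nu : List α → V,
      (∀ P Q v r, D.Lf P = some v → D.Rf Q = some r →
        r = D.act v (D.φ (P ++ Q)) + nu (P ++ Q)) ∧
      (∀ P v, D.Lf P = some v → P.length < D.A D.m) ∧
      (∀ Q r, D.Rf Q = some r → D.A D.m ≤ Q.length) ∧
      (∀ Y : List α, good Y.length → 2 * D.A D.m ≤ Y.length →
        (∀ k, k ≤ D.m → D.Clear Y.length k) →
        ∀ v, ∃ P Q, P ++ Q = Y ∧ D.Lf P = some v ∧ (D.Rf Q).isSome) := by
  classical
  have hn3 : ∀ T, ∃ v0 r0 : V, ¬ good T → ∀ o o' c c', o + o' = T → D.LN o c → D.RN o' c' →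
    c.2.2.2.2.2 = v0 ∧ D.bb c'.1 c'.2.1 c'.2.2.1 c'.2.2.2.1 c'.2.2.2.2.1 c'.2.2.2.2.2 = r0 := by
    intro T
    by_cases h : good T
    · exact ⟨0, 0, fun h' => absurd h h'⟩
    · obtain ⟨v0, r0, h0⟩ := hN.n3 T h
      exact ⟨v0, r0, fun _ => h0⟩
  choose v0 r0 h0 using hn3
  refine ⟨fun Y => if good Y.length then D.F (D.φ Y) (D.ww Y) else
    r0 Y.length - D.act (v0 Y.length) (D.φ Y), ?_, ?_, ?_, ?_⟩
  · intro P Q v r hP hQ
    obtain ⟨i, g, wl, h, wr, hL⟩ := Lf_some hP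
    obtain ⟨i', g', wl', h', wr', v', hR, hr⟩ := Rf_some hQ
    have hcl : P.length + Q.length = (P ++ Q).length := (List.length_append).symm
    beta_reduce
    by_cases hg : good (P ++ Q).length
    · rw [if_pos hg]
      have hcc := hN.n1 _ hg _ _ _ _ hcl hL.2.2.2.1 hR.2.2.2.1
      simp only [Prod.mk.injEq] at hcc
      obtain ⟨rfl, rfl, rfl, rfl, rfl, rfl⟩ := hcc
      obtain ⟨hok, ha1, ha2, -, hg1, hwl1⟩ := hL
      obtain ⟨-, hdv, hAm, -, hvis, hh1, hwr1⟩ := hR
      obtain ⟨e1, e2, e3, e4, e5, e6⟩ := read hD i.2 ha1 ha2 hdv hAm hvis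
      have := hok (D.zz (P ++ Q) i)
      rw [e5, e6, e1, e2, e3, e4, ← hg1, ← hh1, ← hwl1, ← hwr1, hr, ← this, add_comm]
    · rw [if_neg hg]
      obtain ⟨q1, q2⟩ := h0 _ hg _ _ _ _ hcl hL.2.2.2.1 hR.2.2.2.1
      simp only at q1 q2
      rw [hr, q2, ← q1]
      abel
  · intro P v hP
    obtain ⟨i, g, wl, h, wr, hL⟩ := Lf_some hP
    have h3 := hD.next i
    have h4 := hD.monoA (show (i : ℕ) + 1 ≤ D.m from i.2)
    have := hL.2.2.1
    omega
  · intro Q r hQ
    obtain ⟨i, g, wl, h, wr, v, hR, -⟩ := Rf_some hQ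
    exact hR.2.2.1
  · intro Y hg hlen hclr v
    obtain ⟨i, him, hi⟩ := hF (D.φ Y) (D.ww Y) v
    -- the data of the level `i`
    set g := D.φ (Y.take (D.H Y i)) with hgdef
    set wl := ∑ k ∈ range i, D.e k (D.zz Y k) with hwldef
    set h := D.φ (Y.drop (D.H Y (i + 1))) with hhdef
    set wr := ∑ k ∈ Ico (i + 1) D.m, D.e k (D.zz Y k) with hwrdef
    have hn := hD.next i
    have hmA := hD.monoA (show i + 1 ≤ D.m from him)
    obtain ⟨o, ho1, ho2, hod, ho3, ho4⟩ :=
      hN.n2 _ hg (⟨i, him⟩, g, wl, h, wr, v) (D.A' i) i him (by omega)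
    have hoY : o ≤ Y.length := by omega
    set P := Y.take o with hP
    set Q := Y.drop o with hQ
    have hPQ : P ++ Q = Y := List.take_append_drop _ _
    have hPl : P.length = o := by
      rw [hP, List.length_take]; omega
    have hQl : Q.length = Y.length - o := by rw [hQ, List.length_drop]
    have hQd : D.Gr i ∣ Q.length := by rw [hQl]; exact hod
    have hQA : D.A D.m ≤ Q.length := by omega
    have hP1 : D.A' i ≤ P.length := by omega
    have hP2 : P.length < D.A' i + D.M * D.Gr i := by omega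
    -- walls seen from the right
    have hv : D.Vis i Q := by
      intro k hk hkm
      have h4 := hD.monoA hkm
      have h5 := hD.monoA (show i + 1 ≤ k from hk)
      obtain ⟨c1, c2⟩ := hclr k hkm i hk
      exact div_aux (hD.gpos k) c1 c2 (by omega) (by omega) (by omega)
    obtain ⟨e1, e2, e3, e4, e5, e6⟩ := read hD him hP1 hP2 hQd hQA hv
    rw [hPQ] at e1 e2 e3 e4 e5 e6
    rw [← hgdef, ← hhdef] at e5
    rw [← hwldef, ← hwrdef] at e6
    have hall : ∀ z, D.F (g * z * h) (wl + D.e i z + wr) + D.act v (g * z * h) =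
        D.F (D.φ Y) (D.ww Y) + D.act v (D.φ Y) := by
      intro z
      have := hi g (D.zz Y i) h e5.symm z
      rw [← this, e6]
      congr 2
      abel
    have hok : D.ok i g wl h wr v := by
      intro z
      rw [hall z]
      exact (hall 1).symm
    have hLL : D.LL ⟨i, him⟩ g wl h wr v P :=
      ⟨hok, hP1, hP2, by rw [hPl]; exact ho3, e1, e2⟩
    have hRR : D.RR ⟨i, him⟩ g wl h wr v Q :=
      ⟨hok, hQd, hQA, by rw [hQl]; exact ho4, hv, e3, e4⟩
    refine ⟨P, Q, hPQ, ?_, Rf_isSome hRR⟩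
    obtain ⟨v', hv'⟩ := Lf_isSome hLL
    obtain ⟨i2, g2, wl2, h2, wr2, hL2⟩ := Lf_some hv'
    have hcl : P.length + Q.length = Y.length := by omega
    have hcc := hN.n1 _ hg _ _ _ _ hcl hL2.2.2.2.1 hRR.2.2.2.1
    simp only [Prod.mk.injEq] at hcc
    rw [hv', hcc.2.2.2.2.2]

end Crest.Agent.R320.Grid_821
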