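import Mathlib
import Crest.Agent.R320.Grid_821
import Crest.Agent.R320.Names_570
import Crest.Agent.R320.RandF_808

/-!
Row 320, helper821: instance of the grid gadget (names 570, noise 808, explicit grids).
-/

set_option autoImplicit false

namespace Crest.Agent.R320.Grid2_821

open Finset Crest.Agent.R320.Grid_821

/-- the grids -/
def gr (κ : ℕ) (k : ℕ) : ℕ := 2 ^ (κ * (k + 1))

/-- the level positions -/
def aa (M κ : ℕ) : ℕ → ℕ
  | 0 => 0
  | k + 1 => aa M κ k + gr κ k + M * gr κ k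

theorem per {X : Type*} {M : ℕ} {f : ℕ → X} (hf : ∀ t, f (t + M) = f t) {a b : ℕ}
    (h : a ≡ b [MOD M]) : f a = f b := by
  have hk : ∀ t k, f (t + M * k) = f t := by
    intro t k
    induction k with
    | zero => simp
    | succ k ih => rw [Nat.mul_succ, ← add_assoc, hf, ih]
  have h1 : f a = f (a % M) := by
    conv_lhs => rw [← Nat.mod_add_div a M]
    exact hk _ _
  have h2 : f b = f (b % M) := by
    conv_lhs => rw [← Nat.mod_add_div b M]
    exact hk _ _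
  rw [h1, h2, h]

theorem crt_window {M g : ℕ} (hM : 0 < M) (hg : 0 < g) (hc : M.Coprime g) (s a b : ℕ) :
    ∃ o, s ≤ o ∧ o < s + M * g ∧ o ≡ a [MOD M] ∧ o ≡ b [MOD g] := by
  obtain ⟨x, hx1, hx2⟩ := Nat.chineseRemainder hc a b
  have hpos : 0 < M * g := Nat.mul_pos hM hg
  -- shift `x` into the window
  let y := s + (x + (M * g) * s - s) % (M * g)
  have hs : s ≤ x + (M * g) * s := by nlinarith
  have hy : y ≡ x [MOD (M * g)] := by
    have h1 : y ≡ s + (x + (M * g) * s - s) [MOD (M * g)] :=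
      Nat.ModEq.add_left _ (Nat.mod_modEq _ _)
    have h2 : s + (x + (M * g) * s - s) = x + (M * g) * s := by omega
    rw [h2] at h1
    refine h1.trans ?_
    have := (Nat.modEq_zero_iff_dvd.2 (Dvd.intro s rfl : (M * g) ∣ (M * g) * s)).add_left x
    simpa using this
  refine ⟨y, Nat.le_add_right _ _, ?_, ?_, ?_⟩
  · exact Nat.add_lt_add_left (Nat.mod_lt _ hpos) _
  · exact (hy.of_dvd (Dvd.intro _ rfl)).trans hx1
  · exact (hy.of_dvd (Dvd.intro_left _ rfl)).trans hx2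

theorem inst (S V : Type) [Monoid S] [Finite S] [AddCommGroup V] [Finite V] (act : V → S → V) :
    ∃ (m N : ℕ) (e : ℕ → S → ZMod N × ZMod N) (F : S → ZMod N × ZMod N → V), 0 < N ∧
      (∀ (s : S) (w : ZMod N × ZMod N) (v : V), ∃ i < m, ∀ g x h : S, g * x * h = s → ∀ z : S,
        F (g * z * h) (w - e i x + e i z) + act v (g * z * h) = F s w + act v s) ∧
      ∃ r : ℕ, ∀ B : ℕ, ∃ (Ms : Finset ℕ) (LN RN : ℕ → Fin m × S × (ZMod N × ZMod N) × S ×
          (ZMod N × ZMod N) × V → Prop),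
        Ms.card ≤ r ∧ (∀ p ∈ Ms, p.Prime ∧ B < p) ∧ (∏ p ∈ Ms, p).Coprime 2 ∧
        0 < ∏ p ∈ Ms, p ∧
        (∀ t c, LN (t + ∏ p ∈ Ms, p) c ↔ LN t c) ∧ (∀ t c, RN (t + ∏ p ∈ Ms, p) c ↔ RN t c) ∧
        ∀ (κ : ℕ) {α : Type} (φ : List α → S), Names (⟨φ, act, m, e, F, ∏ p ∈ Ms, p,
          aa (∏ p ∈ Ms, p) κ, fun k => aa (∏ p ∈ Ms, p) κ k + gr κ k, gr κ, LN, RN⟩ :
          Dat α S V (ZMod N × ZMod N)) (fun T => ∀ p ∈ Ms, ¬ p ∣ T) := by
  classical
  haveI := Fintype.ofFinite S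
  haveI := Fintype.ofFinite V
  obtain ⟨m, N, e, F, hN, hF⟩ := RandF808.exists_noise S V act
  haveI : NeZero N := ⟨hN.ne'⟩
  haveI : Finite (ZMod N) := inferInstance
  refine ⟨m, N, e, F, hN, hF, ?_⟩
  let Ctx := Fin m × S × (ZMod N × ZMod N) × S × (ZMod N × ZMod N) × V
  let bb : Ctx → V := fun c => F (c.2.1 * 1 * c.2.2.2.1) (c.2.2.1 + e c.1 1 + c.2.2.2.2.1) +
    act c.2.2.2.2.2 (c.2.1 * 1 * c.2.2.2.1)
  let col : Ctx → V × V := fun c => (c.2.2.2.2.2, bb c)
  obtain ⟨r, hr⟩ := Names_570.exists_names col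
  refine ⟨r, fun B => ?_⟩
  obtain ⟨Ms, nmL, nmR, h1, h2, h3, h4, h5, h6, h7⟩ := hr (max B 2)
  have hpos : 0 < ∏ p ∈ Ms, p := Finset.prod_pos fun p hp => (h2 p hp).1.pos
  have hcop : (∏ p ∈ Ms, p).Coprime 2 := by
    apply Nat.Coprime.prod_left
    intro p hp
    have h8 := h2 p hp
    rw [Nat.coprime_primes h8.1 Nat.prime_two]
    have := (le_max_right B 2).trans_lt h8.2
    omega
  refine ⟨Ms, fun t c => nmL t = some c, fun t c => nmR t = some c, h1,
    fun p hp => ⟨(h2 p hp).1, (le_max_left B 2).trans_lt (h2 p hp).2⟩, hcop, hpos,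
    fun t c => by simp only [h3], fun t c => by simp only [h4], ?_⟩
  intro κ α φ
  refine ⟨?_, ?_, ?_⟩
  · intro T hT o o' c c' ho hl hr'
    refine h5 o o' c c' ?_ hl hr'
    rw [ho]; exact hT
  · intro T hT c s i hi hs
    have hg : 0 < gr κ i := by unfold gr; positivity
    have hs' : s + (∏ p ∈ Ms, p) * gr κ i ≤ T := hs
    have hM1 : (∏ p ∈ Ms, p) ≤ (∏ p ∈ Ms, p) * gr κ i := Nat.le_mul_of_pos_right _ hg
    obtain ⟨t, ht1, ht2, ht3, ht4, ht5⟩ := h6 T c s hT (by omega)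
    have hcg : (∏ p ∈ Ms, p).Coprime (gr κ i) := hcop.pow_right _
    obtain ⟨o, ho1, ho2, ho3, ho4⟩ := crt_window hpos hg hcg s t T
    have hoT : o ≤ T := by omega
    refine ⟨o, ho1, ho2, ?_, ?_, ?_⟩
    · exact (Nat.modEq_iff_dvd' hoT).1 ho4
    · show nmL o = some c
      rw [per h3 ho3]; exact ht4
    · show nmR (T - o) = some c
      have : T - o ≡ T - t [MOD (∏ p ∈ Ms, p)] := by
        apply Nat.ModEq.add_right_cancel' o
        have e1 : T - o + o = T := by omega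
        rw [e1]
        have e2 : T - t + o ≡ T - t + t [MOD (∏ p ∈ Ms, p)] := Nat.ModEq.add_left _ ho3
        have e3 : T - t + t = T := by omega
        rw [e3] at e2
        exact e2.symm
      rw [per h4 this]; exact ht5
  · intro T hT
    by_cases hex : ∃ (o o' : ℕ) (c c' : Ctx), o + o' = T ∧ nmL o = some c ∧ nmR o' = some c'
    · obtain ⟨o, o', c, c', ho, hl, hr'⟩ := hex
      refine ⟨c.2.2.2.2.2, bb c', ?_⟩
      intro o2 o2' c2 c2' ho2 hl2 hr2
      have hT' : ∃ p ∈ Ms, p ∣ o2 + o2' := by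
        rw [ho2]
        by_contra hcon
        exact hT fun p hp hd => hcon ⟨p, hp, hd⟩
      rcases h7 o2 o2' o o' c2 c2' c c' (by omega) hT' hl2 hr2 hl hr' with ⟨q1, q2⟩ | ⟨q1, q2, q3⟩
      · subst q1; subst q2
        exact ⟨rfl, rfl⟩
      · subst q1; subst q2
        have e1 := congrArg Prod.fst q3
        have e2 := congrArg Prod.snd q3
        exact ⟨e1, e2.symm⟩
    · refine ⟨0, 0, fun o o' c c' ho hl hr' => ?_⟩
      exact absurd ⟨o, o', c, c', ho, hl, hr'⟩ hex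

end Crest.Agent.R320.Grid2_821
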