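import Crest.Agent.R320.Grid_84
import Crest.Agent.R320.Names_570
import Crest.Agent.R320.RandF_808

/-!
Row 320: the grid gadget (693 #13203), part 2: the gadget on words.
-/

set_option autoImplicit false
set_option linter.all false

namespace Crest.Agent.R320.Grid2_84

open Finset Crest.Agent.R320.Grid_84
open scoped Classical

/-- data of the gadget -/
structure Dat (α S V W : Type*) [Monoid S] [AddCommGroup V] [AddCommGroup W] where
  p : Gr
  φ : List α → S
  act : V → S → V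
  e : ℕ → S → W
  F : S → W → V
  nmL : ℕ → Option (Fin p.m × S × W × S × W × V)
  nmR : ℕ → Option (Fin p.m × S × W × S × W × V)
  Ms : Finset ℕ

namespace Dat
variable {α S V W : Type*} [Monoid S] [AddCommGroup V] [AddCommGroup W]
variable (D : Dat α S V W)

abbrev Nm := Fin D.p.m × S × W × S × W × V

/-- constant of a name -/
noncomputable def bb (n : Fin D.p.m × S × W × S × W × V) : V :=
  D.F (n.2.1 * 1 * n.2.2.2.1) (n.2.2.1 + D.e n.1 1 + n.2.2.2.2.1) + D.act n.2.2.2.2.2 (n.2.1 * 1 * n.2.2.2.1)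

def used (n : Fin D.p.m × S × W × S × W × V) : Prop :=
  ∀ z, D.F (n.2.1 * z * n.2.2.2.1) (n.2.2.1 + D.e n.1 z + n.2.2.2.2.1)
    + D.act n.2.2.2.2.2 (n.2.1 * z * n.2.2.2.1) = D.bb n

/-- weight of the holes left of hole `i`, clock `T` -/
noncomputable def wL (i T : ℕ) (u : List α) : W :=
  ∑ j ∈ range i, D.e j (D.φ (hol u (D.p.bt j T) (D.p.bt (j+1) T)))

/-- weight of the holes right of hole `i`, clock `T`, offset `o` -/
noncomputable def wR (i T o : ℕ) (u : List α) : W :=
  ∑ j ∈ Ico (i+1) D.p.m, D.e j (D.φ (hol u (D.p.bt j T - o) (D.p.bt (j+1) T - o)))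

def LegL (n : Fin D.p.m × S × W × S × W × V) (P : List α) : Prop :=
  D.p.A n.1 ≤ P.length ∧ P.length < D.p.A n.1 + D.p.c n.1 ∧
  n.2.1 = D.φ (P.take (D.p.bt n.1 P.length)) ∧ n.2.2.1 = D.wL n.1 P.length P

def LegR (n : Fin D.p.m × S × W × S × W × V) (Q : List α) : Prop :=
  D.used n ∧ D.p.G ^ (n.1 : ℕ) ∣ Q.length ∧
  (∀ j, (n.1 : ℕ) < j → j ≤ D.p.m → D.p.R j (D.p.A n.1 + Q.length) + D.p.c n.1 ≤ D.p.G ^ j) ∧
  n.2.2.2.1 = D.φ (Q.drop (D.p.bt (n.1+1) (D.p.A n.1 + Q.length) - D.p.A n.1)) ∧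
  n.2.2.2.2.1 = D.wR n.1 (D.p.A n.1 + Q.length) (D.p.A n.1) Q ∧
  D.p.Am D.p.m + D.p.G ^ D.p.m ≤ Q.length

noncomputable def lam (P : List α) : Option V :=
  match D.nmL P.length with
  | some n => if D.LegL n P then some n.2.2.2.2.2 else none
  | none => none

noncomputable def rho (Q : List α) : Option V :=
  match D.nmR Q.length with
  | some n => if D.LegR n Q then some (D.bb n) else none
  | none => none

theorem lam_eq {P : List α} {v : V} (h : D.lam P = some v) :
    ∃ n, D.nmL P.length = some n ∧ D.LegL n P ∧ n.2.2.2.2.2 = v := by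
  unfold lam at h
  cases hn : D.nmL P.length with
  | none => rw [hn] at h; simp at h
  | some n =>
    rw [hn] at h
    by_cases hl : D.LegL n P
    · simp [hl] at h
      exact ⟨n, rfl, hl, h⟩
    · simp [hl] at h

theorem lam_mk {P : List α} {n} (h : D.nmL P.length = some n) (hl : D.LegL n P) :
    D.lam P = some n.2.2.2.2.2 := by
  unfold lam
  rw [h]; simp [hl]

theorem rho_eq {Q : List α} {v : V} (h : D.rho Q = some v) :
    ∃ n, D.nmR Q.length = some n ∧ D.LegR n Q ∧ D.bb n = v := by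
  unfold rho at h
  cases hn : D.nmR Q.length with
  | none => rw [hn] at h; simp at h
  | some n =>
    rw [hn] at h
    by_cases hl : D.LegR n Q
    · simp [hl] at h
      exact ⟨n, rfl, hl, h⟩
    · simp [hl] at h

theorem rho_mk {Q : List α} {n} (h : D.nmR Q.length = some n) (hl : D.LegR n Q) :
    D.rho Q = some (D.bb n) := by
  unfold rho
  rw [h]; simp [hl]

/-- pair of names of a bad clock value -/
noncomputable def prs (r : ℕ) : Option ((Fin D.p.m × S × W × S × W × V) × (Fin D.p.m × S × W × S × W × V)) :=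
  if h : ∃ c : (Fin D.p.m × S × W × S × W × V) × (Fin D.p.m × S × W × S × W × V),
      ∃ t t', (t + t') % D.p.M = r ∧ D.nmL t = some c.1 ∧ D.nmR t' = some c.2 then some h.choose else none

noncomputable def nu (u : List α) : V :=
  if ∀ q ∈ D.Ms, ¬ q ∣ u.length % D.p.M then D.F (D.φ u) (D.wL D.p.m u.length u)
  else match D.prs (u.length % D.p.M) with
    | some c => D.bb c.2 - D.act c.1.2.2.2.2.2 (D.φ u)
    | none => 0

/-- hypotheses on the data -/
structure Ok : Prop where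
  hφ : ∀ u v, D.φ (u ++ v) = D.φ u * D.φ v
  hMs : ∀ q ∈ D.Ms, q ∣ D.p.M
  perL : ∀ t, D.nmL (t + D.p.M) = D.nmL t
  perR : ∀ t, D.nmR (t + D.p.M) = D.nmR t
  same : ∀ t t' c c', (∀ q ∈ D.Ms, ¬ q ∣ t + t') → D.nmL t = some c → D.nmR t' = some c' → c = c'
  compl : ∀ T c s, (∀ q ∈ D.Ms, ¬ q ∣ T) → s + D.p.M ≤ T + 1 →
        ∃ t, s ≤ t ∧ t < s + D.p.M ∧ t ≤ T ∧ D.nmL t = some c ∧ D.nmR (T - t) = some c
  swap : ∀ t1 t1' t2 t2' c1 c1' c2 c2', t1 + t1' = t2 + t2' → (∃ q ∈ D.Ms, q ∣ t1 + t1') →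
        D.nmL t1 = some c1 → D.nmR t1' = some c1' → D.nmL t2 = some c2 → D.nmR t2' = some c2' →
        (c1 = c2 ∧ c1' = c2') ∨ (c1 = c2' ∧ c1' = c2 ∧
          ((c1.2.2.2.2.2, D.bb c1) : V × V) = (c1'.2.2.2.2.2, D.bb c1'))

variable {D}

theorem perL' (h : D.Ok) (t k : ℕ) : D.nmL (t + D.p.M * k) = D.nmL t := by
  induction k with
  | zero => simp
  | succ k ih => rw [Nat.mul_succ, ← add_assoc, h.perL, ih]

theorem perR' (h : D.Ok) (t k : ℕ) : D.nmR (t + D.p.M * k) = D.nmR t := by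
  induction k with
  | zero => simp
  | succ k ih => rw [Nat.mul_succ, ← add_assoc, h.perR, ih]

theorem dvd_mod (h : D.Ok) {q T : ℕ} (hq : q ∈ D.Ms) : q ∣ T % D.p.M ↔ q ∣ T :=
  Nat.dvd_mod_iff (h.hMs q hq)

/-- weights of the two sides -/
theorem weight_split (h : D.Ok) {P Q : List α} {n} (hL : D.LegL n P) (hR : D.LegR n Q) :
    D.φ (P ++ Q) = n.2.1 * D.φ (hol (P ++ Q) (D.p.bt n.1 (P ++ Q).length) (D.p.bt (n.1+1) (P ++ Q).length))
        * n.2.2.2.1 ∧
    D.wL D.p.m (P ++ Q).length (P ++ Q) = n.2.2.1 +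
      D.e n.1 (D.φ (hol (P ++ Q) (D.p.bt n.1 (P ++ Q).length) (D.p.bt (n.1+1) (P ++ Q).length))) + n.2.2.2.2.1 := by
  obtain ⟨hl1, hl2, hl3, hl4⟩ := hL
  obtain ⟨hr0, hr1, hr2, hr3, hr4, _⟩ := hR
  set i : ℕ := (n.1 : ℕ) with hi
  have him : i < D.p.m := n.1.2
  have hlen : (P ++ Q).length = P.length + Q.length := List.length_append
  set T := (P ++ Q).length with hT
  -- left boundaries
  have hbl : ∀ j ≤ i, D.p.bt j T = D.p.bt j P.length := by
    intro j hj
    rw [hlen]
    exact D.p.bt_add (Dvd.dvd.trans (pow_dvd_pow _ hj) hr1)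
  -- right boundaries
  obtain ⟨d, hd⟩ : ∃ d, P.length = D.p.A i + d := ⟨P.length - D.p.A i, by omega⟩
  have hdc : d < D.p.c i := by omega
  have hbr : ∀ j, i < j → j ≤ D.p.m → D.p.bt j T - P.length = D.p.bt j (D.p.A i + Q.length) - D.p.A i := by
    intro j hj hjm
    have h1 := D.p.bt_shift (hr2 j hj hjm) hdc
    rw [hlen, hd, show D.p.A i + d + Q.length = D.p.A i + Q.length + d by ring, h1]
    omega
  have hbr' : ∀ j, i < j → j ≤ D.p.m → P.length ≤ D.p.bt j T := by
    intro j hj hjm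
    have h1 := D.p.le_bt j T
    have h2 := D.p.cell_le hj
    omega
  have hbA : D.p.bt i T < D.p.A i := D.p.bt_lt i T
  have hmono : ∀ j, D.p.bt j T ≤ D.p.bt (j+1) T := fun j => le_of_lt (D.p.bt_lt_bt j T T)
  constructor
  · conv_lhs => rw [split3 (P ++ Q) (hmono i)]
    rw [h.hφ, h.hφ, ← mul_assoc]
    congr 1
    · congr 1
      rw [hl3, hbl i le_rfl, List.take_append_of_le_length]
      have := D.p.bt_lt i P.length
      omega
    · rw [hr3, drop_right P Q (hbr' (i+1) (Nat.lt_succ_self i) him), hbr (i+1) (Nat.lt_succ_self i) him]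
  · rw [hl4, hr4]
    unfold wL wR
    rw [← Finset.sum_range_add_sum_Ico _ (show i ≤ D.p.m by omega)]
    rw [Finset.sum_eq_sum_Ico_succ_bot him, ← add_assoc]
    congr 1
    · congr 1
      refine Finset.sum_congr rfl ?_
      intro j hj
      rw [Finset.mem_range] at hj
      have h1 : D.p.bt (j+1) T = D.p.bt (j+1) P.length := hbl (j+1) hj
      rw [hbl j (by omega), h1, hol_left]
      have h2 := D.p.bt_lt (j+1) P.length
      have h3 : D.p.A (j+1) ≤ D.p.A i := by
        rcases Nat.lt_or_ge (j+1) i with h4 | h4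
        · have h5 := D.p.cell_le h4
          have h6 := D.p.le_A i
          omega
        · have : j + 1 = i := by omega
          rw [this]
      omega
    · refine Finset.sum_congr rfl ?_
      intro j hj
      rw [Finset.mem_Ico] at hj
      rw [hol_right P Q (hbr' j (by omega) (by omega)) (hmono j), hbr j (by omega) (by omega),
        hbr (j+1) (by omega) (by omega)]

theorem sound (h : D.Ok) {P Q : List α} {v r : V} (hP : D.lam P = some v) (hQ : D.rho Q = some r) :
    r = D.act v (D.φ (P ++ Q)) + D.nu (P ++ Q) := by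
  obtain ⟨n, hn, hL, rfl⟩ := D.lam_eq hP
  obtain ⟨n', hn', hR, rfl⟩ := D.rho_eq hQ
  have hlen : (P ++ Q).length = P.length + Q.length := List.length_append
  by_cases hg : ∀ q ∈ D.Ms, ¬ q ∣ (P ++ Q).length % D.p.M
  · have hg' : ∀ q ∈ D.Ms, ¬ q ∣ P.length + Q.length := by
      intro q hq hd
      exact hg q hq ((dvd_mod h hq).2 (by rw [hlen]; exact hd))
    have := h.same _ _ _ _ hg' hn hn'
    subst this
    unfold nu
    rw [if_pos hg]
    obtain ⟨h1, h2⟩ := weight_split h hL hR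
    rw [h2, h1, add_comm]
    exact (hR.1 _).symm
  · unfold nu
    rw [if_neg hg]
    have hex : ∃ c : (Fin D.p.m × S × W × S × W × V) × (Fin D.p.m × S × W × S × W × V),
      ∃ t t', (t + t') % D.p.M = (P ++ Q).length % D.p.M ∧ D.nmL t = some c.1 ∧ D.nmR t' = some c.2 :=
      ⟨(n, n'), P.length, Q.length, by rw [hlen], hn, hn'⟩
    have hprs : D.prs ((P ++ Q).length % D.p.M) = some hex.choose := by
      unfold prs
      rw [dif_pos hex]
    rw [hprs]
    obtain ⟨t, t', ht, hc1, hc2⟩ := hex.choose_spec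
    set c := hex.choose with hc
    -- adjust the totals
    push Not at hg
    obtain ⟨q, hq, hqd⟩ := hg
    have hqd' : q ∣ P.length + Q.length := by rw [← hlen]; exact (dvd_mod h hq).1 hqd
    have hadj : ∃ k k', P.length + (Q.length + D.p.M * k) = t + (t' + D.p.M * k') := by
      rw [hlen] at ht
      refine ⟨(t + t') / D.p.M, (P.length + Q.length) / D.p.M, ?_⟩
      have e1 := Nat.div_add_mod (t + t') D.p.M
      have e2 := Nat.div_add_mod (P.length + Q.length) D.p.M
      omega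
    obtain ⟨k, k', hk⟩ := hadj
    have hd1 : ∃ q ∈ D.Ms, q ∣ P.length + (Q.length + D.p.M * k) := by
      refine ⟨q, hq, ?_⟩
      rw [← add_assoc]
      exact (Nat.dvd_add hqd' (Dvd.dvd.mul_right (h.hMs q hq) _))
    have := h.swap P.length (Q.length + D.p.M * k) t (t' + D.p.M * k') n n' c.1 c.2 hk hd1 hn
      (by rw [perR' h]; exact hn') hc1 (by rw [perR' h]; exact hc2)
    show D.bb n' = D.act n.2.2.2.2.2 (D.φ (P ++ Q)) + (D.bb c.2 - D.act c.1.2.2.2.2.2 (D.φ (P ++ Q)))
    rcases this with ⟨h1, h2⟩ | ⟨h1, h2, h3⟩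
    · rw [← h1, ← h2]; abel
    · have h4 : n.2.2.2.2.2 = n'.2.2.2.2.2 := congrArg Prod.fst h3
      have h5 : D.bb n = D.bb n' := congrArg Prod.snd h3
      rw [← h1, ← h2, h5, h4]; abel

end Dat

end Crest.Agent.R320.Grid2_84
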