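import Crest.Agent.R320.Grid1_859

set_option autoImplicit false

namespace Crest.Agent.R320.Grid859

/-! ### arithmetic of the grids -/

def G (κ i : ℕ) : ℕ := 2 ^ (κ * (i + 1))

def Am (κ M : ℕ) : ℕ → ℕ
  | 0 => 0
  | i + 1 => Am κ M i + G κ i + M * G κ i

def A (κ M i : ℕ) : ℕ := Am κ M i + G κ i

/-- boundary number `j` of a zone of length `T` -/
def be (κ M j T : ℕ) : ℕ := Am κ M j + (T - Am κ M j) % G κ j

def kk (κ M i j o' : ℕ) : ℕ := (o' + A κ M i - Am κ M j) / G κ j

def ga (κ M i j o' : ℕ) : ℕ := o' - G κ j * kk κ M i j o'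

def Cond (κ M m i o' : ℕ) : Prop :=
  G κ i ∣ o' ∧ ∀ j, i < j → j ≤ m → Am κ M j ≤ o' + A κ M i ∧
    (o' + A κ M i + M * G κ i - 1 - Am κ M j) / G κ j = kk κ M i j o'

lemma G_pos (κ i : ℕ) : 0 < G κ i := by unfold G; positivity

lemma G_dvd (κ : ℕ) {i j : ℕ} (h : i ≤ j) : G κ i ∣ G κ j := by
  unfold G
  exact pow_dvd_pow 2 (Nat.mul_le_mul_left κ (by omega))

lemma Am_succ (κ M i : ℕ) : Am κ M (i + 1) = A κ M i + M * G κ i := rfl

lemma Am_mono (κ M : ℕ) {i j : ℕ} (h : i ≤ j) : Am κ M i ≤ Am κ M j := by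
  induction h with
  | refl => exact le_rfl
  | step _ ih =>
    refine ih.trans ?_
    simp only [Am]
    omega

lemma A_le (κ M : ℕ) {i j : ℕ} (h : i < j) : A κ M i ≤ Am κ M j := by
  refine le_trans ?_ (Am_mono κ M h)
  rw [Am_succ]; omega

lemma Am_le_A (κ M i : ℕ) : Am κ M i ≤ A κ M i := by unfold A; omega

lemma be_ge (κ M j T : ℕ) : Am κ M j ≤ be κ M j T := by unfold be; omega

lemma be_lt (κ M j T : ℕ) : be κ M j T < A κ M j := by
  unfold be A
  have := Nat.mod_lt (T - Am κ M j) (G_pos κ j)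
  omega

lemma be_mono (κ M T : ℕ) (j : ℕ) : be κ M j T ≤ be κ M (j + 1) T := by
  have h1 := be_lt κ M j T
  have h2 := be_ge κ M (j + 1) T
  have h3 := A_le κ M (show j < j + 1 by omega)
  omega

lemma be_left (κ M i j o o' : ℕ) (hj : j ≤ i) (ho : A κ M i ≤ o) (hd : G κ i ∣ o') :
    be κ M j (o + o') = be κ M j o := by
  unfold be
  have h1 : Am κ M j ≤ o := (Am_mono κ M hj).trans ((Am_le_A κ M i).trans ho)
  have h2 : o + o' - Am κ M j = (o - Am κ M j) + o' := by omega
  obtain ⟨q, hq⟩ := (G_dvd κ hj).trans hd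
  rw [h2, hq, Nat.add_mul_mod_self_left]

lemma be_right (κ M m i j o o' : ℕ) (hj : i < j) (hjm : j ≤ m) (ho : A κ M i ≤ o)
    (ho2 : o < Am κ M (i + 1)) (hc : Cond κ M m i o') :
    be κ M j (o + o') = o + ga κ M i j o' := by
  obtain ⟨-, h⟩ := hc
  obtain ⟨h1, h2⟩ := h j hj hjm
  rw [Am_succ] at ho2
  have hle : (o' + A κ M i - Am κ M j) ≤ o + o' - Am κ M j := by omega
  have hle2 : o + o' - Am κ M j ≤ o' + A κ M i + M * G κ i - 1 - Am κ M j := by omega
  have e1 : (o + o' - Am κ M j) / G κ j = kk κ M i j o' := by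
    apply le_antisymm
    · rw [← h2]; exact Nat.div_le_div_right hle2
    · exact Nat.div_le_div_right hle
  have e2 := Nat.mod_add_div (o + o' - Am κ M j) (G κ j)
  rw [e1] at e2
  have e3 := be_ge κ M j (o + o')
  have e4 := Am_mono κ M (show i + 1 ≤ j by omega)
  rw [Am_succ] at e4
  unfold be at e3 ⊢
  unfold ga
  omega

lemma exists_modEq (a n k : ℕ) (hn : 0 < n) : ∃ o, a ≤ o ∧ o < a + n ∧ o ≡ k [MOD n] := by
  refine ⟨a + (k + n * a - a) % n, by omega, by have := Nat.mod_lt (k + n * a - a) hn; omega, ?_⟩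
  have h1 : a ≤ n * a := Nat.le_mul_of_pos_left a hn
  have h2 : a + (k + n * a - a) = k + n * a := by omega
  calc a + (k + n * a - a) % n ≡ a + (k + n * a - a) [MOD n] :=
        (Nat.ModEq.refl a).add (Nat.mod_modEq _ _)
    _ = k + n * a := h2
    _ ≡ k [MOD n] := by
        show (k + n * a) % n = k % n
        rw [Nat.add_mul_mod_self_left]

/-! ### contents -/

section content

variable {α S : Type*} [Monoid S] (φ : List α → S)

def zl (b : ℕ → ℕ) (u : List α) (m : ℕ) : List S :=
  (List.range m).map fun j => φ ((u.take (b (j + 1))).drop (b j))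

lemma zl_length (b : ℕ → ℕ) (u : List α) (m : ℕ) : (zl φ b u m).length = m := by
  simp [zl]

variable {φ}

lemma zl_prod (hφ : ∀ u v, φ (u ++ v) = φ u * φ v) (b : ℕ → ℕ) (hb : ∀ j, b j ≤ b (j + 1))
    (u : List α) (m : ℕ) : φ (u.take (b 0)) * (zl φ b u m).prod = φ (u.take (b m)) := by
  induction m with
  | zero =>
    have : (zl φ b u 0).prod = 1 := by simp [zl]
    rw [this, mul_one]
  | succ m ih =>
    have h1 : zl φ b u (m + 1) = zl φ b u m ++ [φ ((u.take (b (m + 1))).drop (b m))] := by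
      simp [zl, List.range_succ]
    rw [h1, List.prod_append, List.prod_singleton, ← mul_assoc, ih, ← hφ]
    congr 1
    have h2 : u.take (b m) = (u.take (b (m + 1))).take (b m) := by
      rw [List.take_take, min_eq_left (hb m)]
    rw [h2, List.take_append_drop]

lemma zl_full (hφ : ∀ u v, φ (u ++ v) = φ u * φ v) (b : ℕ → ℕ) (hb : ∀ j, b j ≤ b (j + 1))
    (u : List α) (m : ℕ) : φ (u.take (b 0)) * (zl φ b u m).prod * φ (u.drop (b m)) = φ u := by
  rw [zl_prod hφ b hb, ← hφ, List.take_append_drop]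

lemma take_range (m i : ℕ) (h : i ≤ m) : (List.range m).take i = List.range i := by
  rw [List.take_range, min_eq_left h]

lemma zl_take (b : ℕ → ℕ) (u : List α) {m i : ℕ} (h : i ≤ m) :
    (zl φ b u m).take i = zl φ b u i := by
  unfold zl
  rw [← List.map_take, take_range m i h]

/-- left side -/
lemma zl_left (κ M m i : ℕ) (him : i < m) (P Q : List α) (ho : A κ M i ≤ P.length)
    (hd : G κ i ∣ Q.length) :
    φ ((P ++ Q).take (be κ M 0 (P ++ Q).length)) = φ (P.take (be κ M 0 P.length)) ∧
    (zl φ (fun j => be κ M j (P ++ Q).length) (P ++ Q) m).take i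
      = zl φ (fun j => be κ M j P.length) P i := by
  have hle : ∀ j ≤ i, be κ M j P.length ≤ P.length := by
    intro j hj
    have h1 := be_lt κ M j P.length
    rcases Nat.lt_or_ge j i with h | h
    · have := A_le κ M h
      have := Am_le_A κ M i
      omega
    · have : j = i := le_antisymm hj h
      subst this; omega
  have he : ∀ j ≤ i, be κ M j (P ++ Q).length = be κ M j P.length := by
    intro j hj
    rw [List.length_append]
    exact be_left κ M i j _ _ hj ho hd
  refine ⟨?_, ?_⟩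
  · rw [he 0 (Nat.zero_le _), List.take_append_of_le_length (hle 0 (Nat.zero_le _))]
  · rw [zl_take _ _ him.le]
    unfold zl
    apply List.map_congr_left
    intro j hj
    have hj' : j < i := List.mem_range.1 hj
    simp only
    rw [he j hj'.le, he (j + 1) hj', List.take_append_of_le_length (hle (j + 1) hj')]

def rl (κ M i m : ℕ) (Q : List α) (φ : List α → S) : List S :=
  ((List.range m).drop (i + 1)).map fun j =>
    φ ((Q.take (ga κ M i (j + 1) Q.length)).drop (ga κ M i j Q.length))

/-- right side -/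
lemma zl_right (κ M m i : ℕ) (him : i < m) (P Q : List α) (ho : A κ M i ≤ P.length)
    (ho2 : P.length < Am κ M (i + 1)) (hc : Cond κ M m i Q.length) :
    (zl φ (fun j => be κ M j (P ++ Q).length) (P ++ Q) m).drop (i + 1) = rl κ M i m Q φ ∧
    φ ((P ++ Q).drop (be κ M m (P ++ Q).length)) = φ (Q.drop (ga κ M i m Q.length)) := by
  have he : ∀ j, i < j → j ≤ m → be κ M j (P ++ Q).length = P.length + ga κ M i j Q.length := by
    intro j hj hjm
    rw [List.length_append]
    exact be_right κ M m i j _ _ hj hjm ho ho2 hc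
  refine ⟨?_, ?_⟩
  · unfold zl rl
    rw [← List.map_drop]
    apply List.map_congr_left
    intro j hj
    have hj1 : j < m := List.mem_range.1 (List.mem_of_mem_drop hj)
    have hj2 : i < j := by
      obtain ⟨n, hn, rfl⟩ := List.mem_iff_getElem.1 hj
      rw [List.getElem_drop, List.getElem_range]
      omega
    simp only
    rw [he j hj2 hj1.le, he (j + 1) (by omega) hj1, List.take_length_add_append,
      List.drop_length_add_append]
  · rw [he m him le_rfl, List.drop_length_add_append]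

end content

end Crest.Agent.R320.Grid859
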