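import Crest.Agent.R320.Grid2_337

/-!
# Row 320: final theorem of the grid gadget (693 #13203; helper337)
-/

set_option autoImplicit false

namespace Crest.Agent.R320.Grid_337

open Crest.Agent.R320.Golomb68

universe u

/-- **THE GRID GADGET**: scheme 1 on all words, all contents, all lengths. -/
theorem grid (S V : Type) [Monoid S] [Finite S] [AddCommGroup V] [Finite V]
    (act : V → S → V) :
    ∃ R0 : ℕ, ∀ K : ℕ, ∃ (N M0 : ℕ) (x : ℕ → ℕ) (Bad : ℕ → Prop), 0 < N ∧ 0 < M0 ∧
      (∀ T, Bad (T + M0) ↔ Bad T) ∧ StrictMono x ∧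
      (∀ a b c d, a < K → b < K → c < K → d < K → a ≠ b → ¬ (a = c ∧ b = d) →
        4 * (N : ℤ) < |((x a : ℤ) - x b) - ((x c : ℤ) - x d)|) ∧
      (∀ T, x K ≤ T → ∀ f : Finset (ℕ × ℕ),
        (∀ p ∈ f, p.1 < K ∧ p.2 < K ∧ p.1 ≠ p.2 ∧ Bad (T + x p.1 - x p.2)) → f.card ≤ R0) ∧
      ∀ (α : Type u) (φ : List α → S), (∀ u v, φ (u ++ v) = φ u * φ v) →
        ∃ (lam rho : List α → Option V) (nu : List α → V),
          (∀ P v, lam P = some v → P.length ≤ N) ∧
          (∀ Q b, rho Q = some b → N ≤ Q.length) ∧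
          (∀ P Q v b, lam P = some v → rho Q = some b →
            b = act v (φ (P ++ Q)) + nu (P ++ Q)) ∧
          (∀ u, 2 * N ≤ u.length → ¬ Bad u.length → ∀ v, ∃ P Q, u = P ++ Q ∧ lam P = some v ∧
            (rho Q).isSome) ∧
          (∀ u u', N ≤ u.length → N ≤ u'.length → u.take N = u'.take N →
            u.length % M0 = u'.length % M0 → φ u = φ u' → nu u = nu u') ∧
          (∀ Q Q', N ≤ Q.length → N ≤ Q'.length → Q.take N = Q'.take N →
            Q.length % M0 = Q'.length % M0 → φ (Q.drop N) = φ (Q'.drop N) → rho Q = rho Q') := by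
  classical
  haveI := Fintype.ofFinite S
  haveI := Fintype.ofFinite V
  obtain ⟨m, Nz, e, F, hNz, hF⟩ := RandF808.exists_noise S V act
  haveI : NeZero Nz := ⟨by omega⟩
  obtain ⟨r, hr⟩ := Names755.names (Nm m S (ZMod Nz × ZMod Nz) V)
    (V × V) (fun c => (c.2.2.2.2.2, bb act e F c))
  refine ⟨r + m, fun K => ?_⟩
  obtain ⟨Ms, M, nmL, nmR, h1, h2, h3, h4, h5, h6, h7, h8⟩ := hr (2 * 2 ^ K)
  obtain ⟨G, σ, s, hG, hR, hσ⟩ := exists_params m K M h3 Ms (fun k hk => (h2 k hk).2.2)
    (fun k hk => (h2 k hk).1.le)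
  have hGm : ∀ j, j ≤ m → G j ∣ M * G m := fun j hj => (hG.dvd j m hj).mul_left _
  have hkM : ∀ k ∈ Ms, k ∣ M * G m := fun k hk => (h2 k hk).2.2.mul_right _
  have hNpos : 0 < (M + 2) * G m := Nat.mul_pos (by omega) (hG.pos m)
  refine ⟨(M + 2) * G m, M * G m, fun a => 2 ^ a * σ, BadT G m M Ms, hNpos,
    Nat.mul_pos h3 (hG.pos m), ?_, ?_, ?_, ?_, ?_⟩
  · intro T
    have hk : ∀ k ∈ Ms, (k ∣ T + M * G m ↔ k ∣ T) := fun k hk =>
      (Nat.dvd_add_left (hkM k hk))
    have hj : ∀ j < m, (Band (G (j + 1)) ((M + 2) * G j) (T + M * G m) ↔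
        Band (G (j + 1)) ((M + 2) * G j) T) := by
      intro j hj
      obtain ⟨q, hq⟩ := hGm (j + 1) (by omega)
      unfold Band
      rw [hq, Nat.add_mul_mod_self_left]
    constructor
    · rintro (⟨k, hk', hd⟩ | ⟨j, hj', hd⟩)
      · exact Or.inl ⟨k, hk', (hk k hk').1 hd⟩
      · exact Or.inr ⟨j, hj', (hj j hj').1 hd⟩
    · rintro (⟨k, hk', hd⟩ | ⟨j, hj', hd⟩)
      · exact Or.inl ⟨k, hk', (hk k hk').2 hd⟩
      · exact Or.inr ⟨j, hj', (hj j hj').2 hd⟩
  · have hσ0 : 0 < σ := by omega
    intro a b hab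
    exact Nat.mul_lt_mul_of_pos_right (Nat.pow_lt_pow_right (by omega) hab) hσ0
  · intro a b c d ha hb hc hd hab hne
    have e1 : ((((2 ^ a * σ : ℕ) : ℤ)) - ((2 ^ b * σ : ℕ) : ℤ)) -
        ((((2 ^ c * σ : ℕ) : ℤ)) - ((2 ^ d * σ : ℕ) : ℤ)) = σ * dl a b c d := by
      unfold dl; push_cast; ring
    show 4 * (((M + 2) * G m : ℕ) : ℤ) < |((((2 ^ a * σ : ℕ) : ℤ)) - ((2 ^ b * σ : ℕ) : ℤ)) -
        ((((2 ^ c * σ : ℕ) : ℤ)) - ((2 ^ d * σ : ℕ) : ℤ))|
    rw [e1, abs_mul]
    have hne' : dl a b c d ≠ 0 := by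
      intro h0
      rcases dl_zero h0 with h | ⟨h, -⟩
      · exact hne h
      · exact hab h
    have h9 : (1 : ℤ) ≤ |dl a b c d| := Int.one_le_abs hne'
    have h10 : |(σ : ℤ)| = σ := abs_of_nonneg (by positivity)
    have h11 : 4 * (((M + 2) * G m : ℕ) : ℤ) < σ := by exact_mod_cast hσ
    have h12 : (0 : ℤ) ≤ σ := by positivity
    rw [h10]
    nlinarith
  · intro T hT f hf
    refine le_trans (Finset.card_le_card ?_) ((spoil hR hT).trans (by omega))
    intro p hp
    obtain ⟨p1, p2, p3, p4⟩ := hf p hp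
    exact Finset.mem_filter.2 ⟨Finset.mem_product.2 ⟨Finset.mem_range.2 p1,
      Finset.mem_range.2 p2⟩, p3, p4⟩
  · intro α φ hφ
    -- colours of bad totals
    have hchi : ∀ ρ : ℕ, ∃ p : V × V, (∃ k ∈ Ms, k ∣ ρ) → ∀ t t' c c', (t + t') % M = ρ →
        nmL t = some c → nmR t' = some c' → c.2.2.2.2.2 = p.1 ∧ bb act e F c' = p.2 := by
      intro ρ
      by_cases hex : ∃ t t' c c', (t + t') % M = ρ ∧ nmL t = some c ∧ nmR t' = some c'
      · obtain ⟨t1, t1', c1, c1', a1, a2, a3⟩ := hex
        refine ⟨(c1.2.2.2.2.2, bb act e F c1'), ?_⟩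
        rintro ⟨k, hk, hkd⟩ t2 t2' c2 c2' b1 b2 b3
        have hper : ∀ t q, nmL (t + M * q) = nmL t := by
          intro t q
          exact per_mod h4 (by unfold Nat.ModEq; rw [Nat.add_mul_mod_self_left])
        have d1 := Nat.div_add_mod (t1 + t1') M
        have d2 := Nat.div_add_mod (t2 + t2') M
        have hsum : (t1 + M * ((t2 + t2') / M)) + t1' = (t2 + M * ((t1 + t1') / M)) + t2' := by
          rw [a1] at d1
          rw [b1] at d2
          omega
        have hdv : k ∣ (t1 + M * ((t2 + t2') / M)) + t1' := by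
          have : (t1 + M * ((t2 + t2') / M)) + t1' = ρ + M * ((t1 + t1') / M + (t2 + t2') / M) := by
            rw [a1] at d1
            rw [Nat.mul_add]; omega
          rw [this]
          exact dvd_add hkd ((h2 k hk).2.2.mul_right _)
        have := h8 _ _ _ _ c1 c1' c2 c2' ((hper _ _).trans a2) a3 ((hper _ _).trans b2) b3 hsum
          ⟨k, hk, hdv⟩
        simp only [Prod.mk.injEq] at this
        exact ⟨this.1.1.symm, this.2.2.symm⟩
      · refine ⟨0, fun _ t t' c c' b1 b2 b3 => ?_⟩
        exact absurd ⟨t, t', c, c', b1, b2, b3⟩ hex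
    choose chi hchi using hchi
    let gdT : ℕ → Prop := fun T => ∀ k ∈ Ms, ¬ k ∣ T
    let nu : List α → V := fun u =>
      if gdT u.length then F (φ u) (wt e φ G m u)
      else (chi (u.length % M)).2 - act (chi (u.length % M)).1 (φ u)
    let lam : List α → Option V := fun P =>
      if h : ∃ c, LL act e F φ G M nmL P c then some (Classical.choose h).2.2.2.2.2 else none
    let rho : List α → Option V := fun Q =>
      if h : ∃ c, RR act e F φ G M ((M + 2) * G m) nmR Q c
        then some (bb act e F (Classical.choose h)) else none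
    have hlam : ∀ P v, lam P = some v → ∃ c, LL act e F φ G M nmL P c ∧ c.2.2.2.2.2 = v := by
      intro P v h
      by_cases hh : ∃ c, LL act e F φ G M nmL P c
      · have : lam P = some (Classical.choose hh).2.2.2.2.2 := dif_pos hh
        rw [this] at h
        exact ⟨_, Classical.choose_spec hh, Option.some.inj h⟩
      · have : lam P = none := dif_neg hh
        rw [this] at h; cases h
    have hlam' : ∀ P c, LL act e F φ G M nmL P c → lam P = some c.2.2.2.2.2 := by
      intro P c h
      have hh : ∃ c, LL act e F φ G M nmL P c := ⟨c, h⟩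
      have h9 : lam P = some (Classical.choose hh).2.2.2.2.2 := dif_pos hh
      have h10 : Classical.choose hh = c :=
        Option.some.inj ((Classical.choose_spec hh).2.1.symm.trans h.2.1)
      rw [h9, h10]
    have hrho : ∀ Q b, rho Q = some b → ∃ c, RR act e F φ G M ((M + 2) * G m) nmR Q c ∧
        bb act e F c = b := by
      intro Q b h
      by_cases hh : ∃ c, RR act e F φ G M ((M + 2) * G m) nmR Q c
      · have : rho Q = some (bb act e F (Classical.choose hh)) := dif_pos hh
        rw [this] at h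
        exact ⟨_, Classical.choose_spec hh, Option.some.inj h⟩
      · have : rho Q = none := dif_neg hh
        rw [this] at h; cases h
    have hrho' : ∀ Q c, RR act e F φ G M ((M + 2) * G m) nmR Q c →
        rho Q = some (bb act e F c) := by
      intro Q c h
      have hh : ∃ c, RR act e F φ G M ((M + 2) * G m) nmR Q c := ⟨c, h⟩
      have h9 : rho Q = some (bb act e F (Classical.choose hh)) := dif_pos hh
      have h10 : Classical.choose hh = c :=
        Option.some.inj ((Classical.choose_spec hh).2.1.symm.trans h.2.1)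
      rw [h9, h10]
    have hbetaN : ∀ n j, j ≤ m → beta G n j ≤ (M + 2) * G m := by
      intro n j hj
      have a1 := hG.beta_le n j
      have a2 : G j ≤ G m := Nat.le_of_dvd (hG.pos m) (hG.dvd j m hj)
      have a3 : 2 * G m ≤ (M + 2) * G m := Nat.mul_le_mul_right _ (by omega)
      omega
    have hbetaM : ∀ a b, a % (M * G m) = b % (M * G m) → ∀ j, j ≤ m →
        beta G a j = beta G b j := by
      intro a b hab j hj
      unfold beta
      have : a ≡ b [MOD G j] := Nat.ModEq.of_dvd (hGm j hj) hab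
      rw [this]
    have hblk : ∀ u u' : List α, u.take ((M + 2) * G m) = u'.take ((M + 2) * G m) →
        u.length % (M * G m) = u'.length % (M * G m) → ∀ j, j < m →
        blk G u.length u j = blk G u'.length u' j := by
      intro u u' ht hl j hj
      have key : ∀ (y : List α) (p q n : ℕ), p ≤ q → q ≤ n →
          (y.drop p).take (q - p) = ((y.take n).drop p).take (q - p) := by
        intro y p q n h1 h2
        rw [List.drop_take, List.take_take, Nat.min_eq_left (by omega)]
      unfold blk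
      rw [hbetaM _ _ hl j hj.le, hbetaM _ _ hl (j + 1) hj,
        key u _ _ _ (hG.beta_mono _ (Nat.le_succ j)) (hbetaN _ (j + 1) hj),
        key u' _ _ _ (hG.beta_mono _ (Nat.le_succ j)) (hbetaN _ (j + 1) hj), ht]
    have hmodM : ∀ a b : ℕ, a % (M * G m) = b % (M * G m) → a % M = b % M := fun a b h =>
      (Nat.ModEq.of_dvd (Nat.dvd_mul_right M (G m)) h : a ≡ b [MOD M])
    refine ⟨lam, rho, nu, ?_, ?_, ?_, ?_, ?_, ?_⟩
    · intro P v h
      obtain ⟨c, hc, -⟩ := hlam P v h
      have a2 : G c.1 ≤ G m := Nat.le_of_dvd (hG.pos m) (hG.dvd _ m c.1.2.le)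
      have a3 : (M + 2) * G c.1 ≤ (M + 2) * G m := Nat.mul_le_mul_left _ a2
      have := hc.2.2.2.1
      omega
    · intro Q b h
      obtain ⟨c, hc, -⟩ := hrho Q b h
      exact hc.2.2.2.1
    · intro P Q v b hl hr
      obtain ⟨c, hc, rfl⟩ := hlam P v hl
      obtain ⟨c', hc', rfl⟩ := hrho Q b hr
      by_cases hg : gdT (P ++ Q).length
      · have hcc : c = c' := h6 _ _ c c' hc.2.1 hc'.2.1 (by
          have := hg
          rwa [List.length_append] at this)
        subst hcc
        have h9 : nu (P ++ Q) = F (φ (P ++ Q)) (wt e φ G m (P ++ Q)) := if_pos hg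
        rw [h9]
        exact sound_same hG hφ hc hc'
      · have h9 : nu (P ++ Q) = (chi ((P ++ Q).length % M)).2 -
          act (chi ((P ++ Q).length % M)).1 (φ (P ++ Q)) := if_neg hg
        have hg' : ∃ k ∈ Ms, k ∣ (P ++ Q).length % M := by
          have : ∃ k ∈ Ms, k ∣ (P ++ Q).length := by
            by_contra hc
            push Not at hc
            exact hg hc
          obtain ⟨k, hk, hd⟩ := this
          exact ⟨k, hk, (Nat.dvd_mod_iff (h2 k hk).2.2).2 hd⟩
        have := hchi _ hg' P.length Q.length c c' (by rw [List.length_append]) hc.2.1 hc'.2.1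
        rw [h9, this.1, this.2]
        abel
    · intro u hu hb v
      obtain ⟨g1, g2⟩ := not_badT hb
      obtain ⟨P, Q, c, huc, hv, hL, hRR⟩ := complete (act := act) (e := e) (F := F)
        (N := (M + 2) * G m) hG hφ hF h4 u v (fun c => h7 _ g1 c) (by omega) g2
      exact ⟨P, Q, huc, by rw [hlam' P c hL, hv], by rw [hrho' Q c hRR]; rfl⟩
    · intro u u' hu hu' ht hl hφu
      have hM1 := hmodM _ _ hl
      have hgd : gdT u.length ↔ gdT u'.length := by
        refine forall₂_congr fun k hk => not_congr ?_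
        have : u.length ≡ u'.length [MOD k] := Nat.ModEq.of_dvd (hkM k hk) hl
        exact this.dvd_iff dvd_rfl
      have hw : wt e φ G m u = wt e φ G m u' := by
        unfold wt
        refine Finset.sum_congr rfl fun j hj => ?_
        rw [hblk u u' ht hl j (Finset.mem_range.1 hj)]
      show (if gdT u.length then _ else _) = (if gdT u'.length then _ else _)
      simp only [hgd, hφu, hw, hM1]
    · intro Q Q' hQ hQ' ht hl hφQ
      have hRRR : ∀ c, RR act e F φ G M ((M + 2) * G m) nmR Q c ↔
          RR act e F φ G M ((M + 2) * G m) nmR Q' c := by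
        have one : ∀ Q Q' : List α, (M + 2) * G m ≤ Q.length → (M + 2) * G m ≤ Q'.length →
            Q.take ((M + 2) * G m) = Q'.take ((M + 2) * G m) →
            Q.length % (M * G m) = Q'.length % (M * G m) →
            φ (Q.drop ((M + 2) * G m)) = φ (Q'.drop ((M + 2) * G m)) → ∀ c,
            RR act e F φ G M ((M + 2) * G m) nmR Q c →
            RR act e F φ G M ((M + 2) * G m) nmR Q' c := by
          intro Q Q' hQ hQ' ht hl hφQ c hc
          obtain ⟨c1, c2, c3, c4, c5, c6, c7⟩ := hc
          have hmodj : ∀ j, j ≤ m → Q.length % G j = Q'.length % G j := fun j hj =>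
            (Nat.ModEq.of_dvd (hGm j hj) hl : Q.length ≡ Q'.length [MOD G j])
          have him : (c.1 : ℕ) < m := c.1.2
          refine ⟨c1, ?_, ?_, hQ', ?_, ?_, ?_⟩
          · rw [← per_mod h5 (hmodM _ _ hl)]; exact c2
          · rw [Nat.dvd_iff_mod_eq_zero, ← hmodj _ him.le, ← Nat.dvd_iff_mod_eq_zero]; exact c3
          · intro j j1 j2
            rw [← hmodj j j2]; exact c5 j j1 j2
          · rw [← c6, hbetaM _ _ hl.symm (c.1 + 1) him]
            have key : ∀ y : List α, (M + 2) * G m ≤ y.length →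
                φ (y.drop (beta G Q.length (c.1 + 1))) =
                φ ((y.take ((M + 2) * G m)).drop (beta G Q.length (c.1 + 1))) *
                  φ (y.drop ((M + 2) * G m)) := by
              intro y hy
              rw [← hφ]
              congr 1
              conv_lhs => rw [← List.take_append_drop ((M + 2) * G m) y]
              rw [List.drop_append_of_le_length]
              rw [List.length_take, Nat.min_eq_left hy]
              exact hbetaN _ _ him
            rw [key Q' hQ', key Q hQ, ht, hφQ]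
          · rw [← c7]
            refine Finset.sum_congr rfl fun j hj => ?_
            rw [hblk Q' Q ht.symm hl.symm j (Finset.mem_Ico.1 hj).2]
        exact fun c => ⟨one Q Q' hQ hQ' ht hl hφQ c, one Q' Q hQ' hQ ht.symm hl.symm hφQ.symm c⟩
      by_cases hh : ∃ c, RR act e F φ G M ((M + 2) * G m) nmR Q c
      · obtain ⟨c, hc⟩ := hh
        rw [hrho' Q c hc, hrho' Q' c ((hRRR c).1 hc)]
      · have hh' : ¬ ∃ c, RR act e F φ G M ((M + 2) * G m) nmR Q' c :=
          fun ⟨c, hc⟩ => hh ⟨c, (hRRR c).2 hc⟩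
        have a1 : rho Q = none := dif_neg hh
        have a2 : rho Q' = none := dif_neg hh'
        rw [a1, a2]

end Crest.Agent.R320.Grid_337
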