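import Crest.Agent.R320.Grid2_381

/-!
Row 320, helper381: the grid gadget of helper693 #13203 as one closed theorem, literal of helper446 #13873.
-/

set_option autoImplicit false
set_option linter.unusedSectionVars false

namespace Crest.Agent.R320.Grid3_381

open Finset Crest.Agent.R320 Crest.Agent.R320.Grid_381 Crest.Agent.R320.Grid2_381

universe u

theorem doubt_BT {Ms : Finset ℕ} {M g r m T : ℕ} (hg : 0 < g) (hT : Am M (fun i => g ^ i) m ≤ T)
    (h : Doubt M (fun i => g ^ i) m T) : ∃ j < r + m, BT Ms M g r j (T : ℤ) := by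
  obtain ⟨j, hj1, hjm, hd⟩ := h
  refine ⟨r + (j - 1), by omega, ?_⟩
  unfold BT
  rw [if_neg (by omega), show r + (j - 1) - r + 1 = j by omega,
    show r + (j - 1) - r = j - 1 by omega]
  have hle := Am_mono M (fun i => g ^ i) hjm
  set A := Am M (fun i => g ^ i) j with hA
  obtain ⟨y, hy⟩ : ∃ y, T = A + y := ⟨T - A, by omega⟩
  have h5 := Nat.div_add_mod (T - A) (g ^ j)
  have hyT : T - A = y := by omega
  simp only [hyT] at h5 hd
  have h6 : (y : ℤ) = ((g ^ j : ℕ) : ℤ) * ((y / g ^ j : ℕ) : ℤ) + ((y % g ^ j : ℕ) : ℤ) := by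
    exact_mod_cast h5.symm
  have hT' : (T : ℤ) = (A : ℤ) + y := by exact_mod_cast hy
  rcases hd with h1 | h1
  · refine ⟨((y / g ^ j : ℕ) : ℤ), ?_⟩
    have e : (T : ℤ) - (A : ℤ) - ((y / g ^ j : ℕ) : ℤ) * ((g ^ j : ℕ) : ℤ) =
        ((y % g ^ j : ℕ) : ℤ) := by rw [hT']; linarith
    rw [e, abs_of_nonneg (by positivity)]
    exact_mod_cast h1
  · refine ⟨((y / g ^ j : ℕ) : ℤ) + 1, ?_⟩
    have e : (T : ℤ) - (A : ℤ) - (((y / g ^ j : ℕ) : ℤ) + 1) * ((g ^ j : ℕ) : ℤ) =
        -(((g ^ j : ℕ) : ℤ) - ((y % g ^ j : ℕ) : ℤ)) := by rw [hT']; linarith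
    have h7 : y % g ^ j ≤ g ^ j := (Nat.mod_lt _ (pow_pos hg j)).le
    have h7' : ((y % g ^ j : ℕ) : ℤ) ≤ ((g ^ j : ℕ) : ℤ) := by exact_mod_cast h7
    rw [e, abs_neg, abs_of_nonneg (by linarith)]
    have h1' : ((g ^ j : ℕ) : ℤ) < ((y % g ^ j : ℕ) : ℤ) + ((M * g ^ (j - 1) : ℕ) : ℤ) := by
      exact_mod_cast h1
    linarith

open Classical in
/-- option from a functional relation -/
noncomputable def opt {A V : Type*} (R : A → V → Prop) (a : A) : Option V :=
  if h : ∃ v, R a v then some h.choose else none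

theorem opt_iff {A V : Type*} {R : A → V → Prop} (hR : ∀ a v v', R a v → R a v' → v = v')
    (a : A) (v : V) : opt R a = some v ↔ R a v := by
  classical
  unfold opt
  constructor
  · intro h
    split_ifs at h with h1
    have := h1.choose_spec
    rw [Option.some_inj] at h
    rwa [h] at this
  · intro h
    have h1 : ∃ v, R a v := ⟨v, h⟩
    rw [dif_pos h1, hR a _ _ h1.choose_spec h]

theorem grid (S V : Type) [Monoid S] [Finite S] [AddCommGroup V] [Finite V] (act : V → S → V) :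
    ∃ J : ℕ, ∀ Γ : ℕ, ∃ (BT : ℕ → ℤ → Prop) (N1 A0 Md : ℕ), 0 < Md ∧
      (∀ j < J, ∀ T : ℤ, BT j (T + Md) ↔ BT j T) ∧
      (∀ U0 : ℕ, ∃ U : ℕ, U0 ≤ U ∧ ∀ j < J, ∀ T d d' : ℤ, |d| ≤ Γ → |d'| ≤ Γ →
        BT j (T + U * d) → BT j (T + U * d') → d = d') ∧
      ∀ (α : Type u) (f : α → S), ∃ (L R : List α → Option V) (ν : List α → V),
        (∀ P Q v b, L P = some v → R Q = some b →
          b = act v ((P ++ Q).map f).prod + ν (P ++ Q)) ∧
        (∀ P v, L P = some v → P.length ≤ N1) ∧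
        (∀ Y v, N1 ≤ Y.length → (∀ j < J, ¬ BT j Y.length) →
          ∃ P Q, Y = P ++ Q ∧ L P = some v ∧ (R Q).isSome) ∧
        (∀ Q Q', A0 ≤ Q.length → A0 ≤ Q'.length → Q.take A0 = Q'.take A0 →
          ((Q.drop A0).map f).prod = ((Q'.drop A0).map f).prod →
          Q.length % Md = Q'.length % Md → R Q = R Q' ∧ ν Q = ν Q') := by
  classical
  have := Fintype.ofFinite S
  have := Fintype.ofFinite V
  obtain ⟨m, N, e, F, hN0, hF⟩ := RandF808.exists_noise S V act
  have : NeZero N := ⟨hN0.ne'⟩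
  -- the type of names (independent of M, G)
  let D0 : Dat S V (ZMod N × ZMod N) := ⟨m, e, F, act, 1, fun _ => 1⟩
  let Nm : Type := {c : Ctx D0 // Good D0 c}
  have : Finite (Ctx D0) := inferInstanceAs (Finite (Fin m × S × (ZMod N × ZMod N) × S × (ZMod N × ZMod N) × V))
  have : Finite Nm := inferInstanceAs (Finite {c : Ctx D0 // Good D0 c})
  let col : Nm → V × V := fun n => (n.1.2.2.2.2.2, bv D0 n.1)
  obtain ⟨r, hr⟩ := Names_570.exists_names col
  refine ⟨r + m, fun Γ => ?_⟩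
  obtain ⟨Ms, nmL, nmR, hcard, hprime, hLp, hRp, hsame, hcompl, hdouble⟩ := hr (2 * Γ + 2)
  set M := ∏ k ∈ Ms, k with hMdef
  have hM : 0 < M := Finset.prod_pos fun k hk => (hprime k hk).1.pos
  have hMs : ∀ k ∈ Ms, k ∣ M := fun k hk => Finset.dvd_prod_of_mem _ hk
  set kk := (16 * Γ + 2) * M + 1 with hkk
  set g := 2 ^ kk with hgdef
  have hg : (16 * Γ + 2) * M < g := lt_of_lt_of_le (Nat.lt_succ_self _) (Nat.lt_two_pow_self).le
  have hg2 : 2 ≤ g := by
    have : 2 ^ 1 ≤ 2 ^ kk := Nat.pow_le_pow_right (by norm_num) (by omega)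
    simpa using this
  have hMg : ∀ i, Nat.Coprime M (g ^ i) := by
    intro i
    apply Nat.Coprime.pow_right
    apply Nat.Coprime.pow_right
    rw [hMdef]
    apply Nat.Coprime.prod_left
    intro k hk
    have h1 := hprime k hk
    exact (Nat.coprime_primes h1.1 Nat.prime_two).2 (by omega)
  let D : Dat S V (ZMod N × ZMod N) := ⟨m, e, F, act, M, fun i => g ^ i⟩
  have hG : ∀ i, 0 < D.G i := fun i => pow_pos (by omega) _
  have hdv : ∀ i, D.G i ∣ D.G (i + 1) := fun i => pow_dvd_pow g (Nat.le_succ i)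
  have hAcm : Ac D D.m = Am M (fun i => g ^ i) m + g ^ m := rfl
  refine ⟨BT Ms M g r, 2 * Ac D D.m, Ac D D.m, M * g ^ m, Nat.mul_pos hM (pow_pos (by omega) _),
    fun j hj T => BT_period hMs hj T,
    fun U0 => BT_thin hM hMs (fun k hk => by have := (hprime k hk).2; omega) hg2 hg (hMg m) U0, ?_⟩
  intro α f
  let phi : List α → S := fun w => (w.map f).prod
  have hphi : ∀ u v, phi (u ++ v) = phi u * phi v := by intro u v; simp [phi]
  -- relations
  let LL : List α → V → Prop := fun p v => ∃ n : Nm, nmL p.length = some n ∧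
    LeftOK D phi p n.1 ∧ n.1.2.2.2.2.2 = v
  let RR : List α → V → Prop := fun q b => ∃ n : Nm, nmR q.length = some n ∧
    RightOK D phi q n.1 ∧ bv D n.1 = b
  have hLLu : ∀ a v v', LL a v → LL a v' → v = v' := by
    rintro a v v' ⟨n, h1, -, h3⟩ ⟨n', h1', -, h3'⟩
    rw [h1] at h1'
    obtain rfl : n = n' := by simpa using h1'
    rw [← h3, ← h3']
  have hRRu : ∀ a v v', RR a v → RR a v' → v = v' := by
    rintro a v v' ⟨n, h1, -, h3⟩ ⟨n', h1', -, h3'⟩
    rw [h1] at h1'
    obtain rfl : n = n' := by simpa using h1'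
    rw [← h3, ← h3']
  let Pr : ℕ → Nm × Nm → Prop := fun T x => ∃ t t', t + t' ≡ T [MOD M] ∧ nmL t = some x.1 ∧
    nmR t' = some x.2
  let nu : List α → V := fun u => if ∀ k ∈ Ms, ¬ k ∣ u.length then F (phi u) (wtT D phi u)
    else if h : ∃ x, Pr u.length x then bv D h.choose.2.1 - act h.choose.1.1.2.2.2.2.2 (phi u)
    else 0
  have hgood : ∀ n : Nm, Good D n.1 := fun n => n.2
  refine ⟨opt LL, opt RR, nu, ?_, ?_, ?_, ?_⟩
  · -- sound
    intro P Q v b hP hQ
    rw [opt_iff hLLu] at hP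
    rw [opt_iff hRRu] at hQ
    obtain ⟨n, hn1, hn2, rfl⟩ := hP
    obtain ⟨n', hn1', hn2', rfl⟩ := hQ
    show bv D n'.1 = act n.1.2.2.2.2.2 (phi (P ++ Q)) + nu (P ++ Q)
    have hlen : (P ++ Q).length = P.length + Q.length := List.length_append
    by_cases hk : ∀ k ∈ Ms, ¬ k ∣ (P ++ Q).length
    · have hnn : n = n' := hsame _ _ _ _ (by rw [← hlen]; exact hk) hn1 hn1'
      subst hnn
      have := matched hphi hG hdv hn2 hn2' (hgood n)
      simp only [nu, if_pos hk]
      rw [this]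
      exact add_comm _ _
    · have hex : ∃ x, Pr (P ++ Q).length x := ⟨(n, n'), P.length, Q.length, by rw [hlen], hn1, hn1'⟩
      simp only [nu, if_neg hk, dif_pos hex]
      obtain ⟨t, t', ht, h1, h2⟩ := hex.choose_spec
      have hk' : ∃ k ∈ Ms, k ∣ P.length + Q.length := by
        push Not at hk
        rwa [hlen] at hk
      rcases names_mod hM hMs hLp hRp hdouble (t1 := P.length) (t1' := Q.length) (t2 := t)
        (t2' := t') (by rw [← hlen]; exact ht.symm) hk' hn1 hn1' h1 h2 with ⟨e1, e2⟩ | ⟨e1, e2, e3⟩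
      · rw [← e1, ← e2]; abel
      · have e4 : n.1.2.2.2.2.2 = n'.1.2.2.2.2.2 := congrArg Prod.fst e3
        have e5 : bv D n.1 = bv D n'.1 := congrArg Prod.snd e3
        rw [← e1, ← e2, e4, e5]; abel
  · -- length
    intro P v hP
    rw [opt_iff hLLu] at hP
    obtain ⟨n, -, hn2, -⟩ := hP
    have h1 := hn2.2.1
    have h2 : Ac D n.1.1 + D.M * D.G n.1.1 = Am D.M D.G (n.1.1 + 1) := rfl
    have h3 : Am D.M D.G (n.1.1 + 1) ≤ Am D.M D.G D.m := Am_mono _ _ n.1.1.2
    have h4 : Ac D D.m = Am D.M D.G D.m + D.G D.m := rfl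
    omega
  · -- complete
    intro Y v hY hB
    have hnd : ¬ Doubt D.M D.G D.m Y.length := by
      intro hdt
      obtain ⟨j, hj, hb⟩ := doubt_BT (Ms := Ms) (r := r) (by omega : 0 < g) (by
        show Am M (fun i => g ^ i) m ≤ Y.length
        have h4 : Ac D D.m = Am M (fun i => g ^ i) m + g ^ m := rfl
        omega) hdt
      exact hB j hj hb
    have hkd : ∀ k ∈ Ms, ¬ k ∣ Y.length := by
      intro k hk hd
      have hkl : k ∈ Ms.toList := Finset.mem_toList.2 hk
      obtain ⟨j, hj, hjk⟩ := List.getElem_of_mem hkl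
      have hjr : j < r := by
        rw [Finset.length_toList] at hj
        omega
      apply hB j (by omega)
      unfold BT
      rw [if_pos hjr]
      refine ⟨k, ?_, Int.natCast_dvd_natCast.2 hd⟩
      rw [List.getElem?_eq_getElem hj, hjk]
    obtain ⟨c, hc1, hc2, hc3⟩ := complete_pt (D := D) (phi := phi) hphi hG hdv hM hMg nmL nmR hLp hRp
      (u := Y) hY hnd (fun c s hs => hcompl Y.length c s hkd hs) hF v
    obtain ⟨p, q, hpq, h1, h2, h3, h4⟩ := hc3 ⟨c, hc1⟩
    refine ⟨p, q, hpq.symm, ?_, ?_⟩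
    · rw [opt_iff hLLu]
      exact ⟨⟨c, hc1⟩, h1, h3, hc2⟩
    · rw [Option.isSome_iff_exists]
      refine ⟨bv D c, ?_⟩
      rw [opt_iff hRRu]
      exact ⟨⟨c, hc1⟩, h2, h4, rfl⟩
  · -- locality
    intro Q Q' hQ hQ' ht hp hl
    have hlM : Q.length ≡ Q'.length [MOD M] := (show Q.length ≡ Q'.length [MOD M * g ^ m] from hl).of_dvd
      (Nat.dvd_mul_right _ _)
    have hlG : Q.length ≡ Q'.length [MOD D.G D.m] :=
      (show Q.length ≡ Q'.length [MOD M * g ^ m] from hl).of_dvd (Nat.dvd_mul_left _ _)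
    have hphiQ : phi Q = phi Q' := by
      rw [← List.take_append_drop (Ac D D.m) Q, ← List.take_append_drop (Ac D D.m) Q', hphi, hphi, ht]
      congr 1
    constructor
    · have key : ∀ b, RR Q b ↔ RR Q' b := by
        intro b
        constructor
        · rintro ⟨n, h1, h2, h3⟩
          exact ⟨n, by rw [← h1]; exact per_congr hRp hlM.symm,
            RightOK_local hphi hG hdv hQ hQ' ht hp hlG _ h2, h3⟩
        · rintro ⟨n, h1, h2, h3⟩
          exact ⟨n, by rw [← h1]; exact per_congr hRp hlM,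
            RightOK_local hphi hG hdv hQ' hQ ht.symm hp.symm hlG.symm _ h2, h3⟩
      apply Option.ext
      intro b
      rw [opt_iff hRRu, opt_iff hRRu]
      exact key b
    · have hk : (∀ k ∈ Ms, ¬ k ∣ Q.length) ↔ (∀ k ∈ Ms, ¬ k ∣ Q'.length) := by
        constructor
        · intro h k hk hd
          exact h k hk (((hlM.of_dvd (hMs k hk)).dvd_iff dvd_rfl).2 hd)
        · intro h k hk hd
          exact h k hk (((hlM.of_dvd (hMs k hk)).dvd_iff dvd_rfl).1 hd)
      have hPr : Pr Q.length = Pr Q'.length := by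
        funext x
        apply propext
        constructor
        · rintro ⟨t, t', h1, h2, h3⟩
          exact ⟨t, t', h1.trans hlM, h2, h3⟩
        · rintro ⟨t, t', h1, h2, h3⟩
          exact ⟨t, t', h1.trans hlM.symm, h2, h3⟩
      simp only [nu, hPr, hphiQ, wtT_local hG hdv hQ hQ' ht hlG, hk]

end Crest.Agent.R320.Grid3_381
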