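import Crest.Agent.R320.Grid2_84

/-!
Row 320: the grid gadget (693 #13203), part 3: completeness and dependence.
-/

set_option autoImplicit false
set_option linter.all false

namespace Crest.Agent.R320.Grid3_84

open Finset Crest.Agent.R320.Grid_84 Crest.Agent.R320.Grid2_84
open scoped Classical

variable {α S V W : Type*} [Monoid S] [AddCommGroup V] [AddCommGroup W]
variable {D : Dat α S V W}

theorem nmL_mod (h : D.Ok) {t t' : ℕ} (ht : t ≡ t' [MOD D.p.M]) : D.nmL t = D.nmL t' := by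
  have e1 := Dat.perL' h (t % D.p.M) (t / D.p.M)
  have e2 := Dat.perL' h (t' % D.p.M) (t' / D.p.M)
  rw [Nat.mod_add_div] at e1 e2
  rw [e1, e2, show t % D.p.M = t' % D.p.M from ht]

theorem nmR_mod (h : D.Ok) {t t' : ℕ} (ht : t ≡ t' [MOD D.p.M]) : D.nmR t = D.nmR t' := by
  have e1 := Dat.perR' h (t % D.p.M) (t / D.p.M)
  have e2 := Dat.perR' h (t' % D.p.M) (t' / D.p.M)
  rw [Nat.mod_add_div] at e1 e2
  rw [e1, e2, show t % D.p.M = t' % D.p.M from ht]

theorem c_mono (p : Gr) {i j : ℕ} (h : i ≤ j) : p.c i ≤ p.c j := by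
  unfold Gr.c
  exact Nat.mul_le_mul_left _ (Nat.pow_le_pow_right p.hG h)

theorem exists_place (p : Gr) (i t T : ℕ) (hcop : Nat.Coprime p.M (p.G ^ i)) :
    ∃ o, p.A i ≤ o ∧ o < p.A i + p.c i ∧ o ≡ t [MOD p.M] ∧ o ≡ T [MOD p.G ^ i] := by
  obtain ⟨k, hk1, hk2⟩ := Nat.chineseRemainder hcop t T
  have hpos : 0 < p.M * p.G ^ i := Nat.mul_pos p.hM (p.Gpow i)
  set P0 := p.M * p.G ^ i with hP0
  refine ⟨p.A i + (k + (P0 - 1) * p.A i) % P0, by omega, ?_, ?_, ?_⟩
  · have := Nat.mod_lt (k + (P0 - 1) * p.A i) hpos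
    unfold Gr.c; omega
  all_goals
    have h1 : p.A i + (k + (P0 - 1) * p.A i) % P0 ≡ p.A i + (k + (P0 - 1) * p.A i) [MOD P0] :=
      Nat.ModEq.add_left _ (Nat.mod_modEq _ _)
    have h2 : p.A i + (k + (P0 - 1) * p.A i) = k + P0 * p.A i := by
      obtain ⟨q, hq⟩ : ∃ q, P0 = q + 1 := ⟨P0 - 1, by omega⟩
      rw [hq]; simp; ring
    rw [h2] at h1
    have h3 : k + P0 * p.A i ≡ k [MOD P0] := by
      unfold Nat.ModEq
      exact Nat.add_mul_mod_self_left _ _ _
    have h4 := h1.trans h3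
  · exact (Nat.ModEq.of_mul_right _ h4).trans hk1
  · exact (Nat.ModEq.of_mul_left _ h4).trans hk2

/-- length bound of the gadget -/
def NN (p : Gr) : ℕ := p.Am p.m + p.G ^ p.m

theorem complete (h : D.Ok) (hcop : Nat.Coprime D.p.M D.p.G)
    (hF : ∀ (s : S) (w : W) (v : V), ∃ i < D.p.m, ∀ g x k : S, g * x * k = s → ∀ z : S,
        D.F (g * z * k) (w - D.e i x + D.e i z) + D.act v (g * z * k) = D.F s w + D.act v s)
    (u : List α) (hlen : 2 * NN D.p ≤ u.length)
    (hgood : ∀ q ∈ D.Ms, ¬ q ∣ u.length)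
    (hband : ∀ j, 1 ≤ j → j ≤ D.p.m →
      D.p.c (j-1) ≤ D.p.R j u.length ∧ D.p.R j u.length + D.p.c (j-1) ≤ D.p.G ^ j) (v : V) :
    ∃ P Q, P ++ Q = u ∧ D.lam P = some v ∧ (D.rho Q).isSome := by
  set T := u.length with hT
  obtain ⟨i, him, hi⟩ := hF (D.φ u) (D.wL D.p.m T u) v
  have hmono : ∀ j, D.p.bt j T ≤ D.p.bt (j+1) T := fun j => le_of_lt (D.p.bt_lt_bt j T T)
  set g := D.φ (u.take (D.p.bt i T)) with hg
  set x := D.φ (hol u (D.p.bt i T) (D.p.bt (i+1) T)) with hx
  set k := D.φ (u.drop (D.p.bt (i+1) T)) with hk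
  set wr : W := ∑ j ∈ Ico (i+1) D.p.m, D.e j (D.φ (hol u (D.p.bt j T) (D.p.bt (j+1) T))) with hwr
  have hs : g * x * k = D.φ u := by
    conv_rhs => rw [split3 u (hmono i)]
    rw [h.hφ, h.hφ, ← mul_assoc]
  have hw : D.wL D.p.m T u = D.wL i T u + D.e i x + wr := by
    unfold Dat.wL
    rw [← Finset.sum_range_add_sum_Ico _ (show i ≤ D.p.m by omega),
      Finset.sum_eq_sum_Ico_succ_bot him, ← add_assoc]
  let n : Fin D.p.m × S × W × S × W × V := (⟨i, him⟩, g, D.wL i T u, k, wr, v)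
  have hval : ∀ z, D.F (g * z * k) (D.wL i T u + D.e i z + wr) + D.act v (g * z * k)
      = D.F (D.φ u) (D.wL D.p.m T u) + D.act v (D.φ u) := by
    intro z
    have := hi g x k hs z
    rw [← this, hw]
    congr 2
    abel
  have hused : D.used n := by
    intro z
    show D.F (g * z * k) (D.wL i T u + D.e i z + wr) + D.act v (g * z * k)
      = D.F (g * 1 * k) (D.wL i T u + D.e i 1 + wr) + D.act v (g * 1 * k)
    rw [hval, hval]
  -- the place
  have hcell : D.p.A i + D.p.c i ≤ D.p.Am D.p.m := D.p.cell_le him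
  have hc0 : D.p.M ≤ D.p.c i := by
    unfold Gr.c; exact Nat.le_mul_of_pos_right _ (D.p.Gpow i)
  have hN : NN D.p = D.p.Am D.p.m + D.p.G ^ D.p.m := rfl
  obtain ⟨t, _, _, htT, ht1, ht2⟩ := h.compl T n 0 hgood (by omega)
  obtain ⟨o, ho1, ho2, ho3, ho4⟩ := exists_place D.p i t T (Nat.Coprime.pow_right i hcop)
  have hoT : o ≤ T := by omega
  have hdvd : D.p.G ^ i ∣ T - o := (Nat.modEq_iff_dvd' hoT).1 ho4
  have hnL : D.nmL o = some n := by rw [nmL_mod h ho3]; exact ht1
  have hnR : D.nmR (T - o) = some n := by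
    rw [← ht2]
    refine nmR_mod h ?_
    refine Nat.ModEq.add_right_cancel ho3 ?_
    rw [Nat.sub_add_cancel hoT, Nat.sub_add_cancel htT]
  set P := u.take o with hP
  set Q := u.drop o with hQ
  have hPQ : P ++ Q = u := List.take_append_drop o u
  have hPl : P.length = o := by rw [hP, List.length_take]; omega
  have hQl : Q.length = T - o := by rw [hQ, List.length_drop]
  have hTo : T = o + (T - o) := by omega
  have hbl : ∀ j ≤ i, D.p.bt j T = D.p.bt j o := by
    intro j hj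
    conv_lhs => rw [hTo]
    exact D.p.bt_add (Dvd.dvd.trans (pow_dvd_pow _ hj) hdvd)
  have hR : ∀ j, i < j → j ≤ D.p.m → D.p.R j (D.p.A i + Q.length) + D.p.c (j-1) ≤ D.p.G ^ j := by
    intro j hj hjm
    obtain ⟨b1, b2⟩ := hband j (by omega) hjm
    have hcc : D.p.c i ≤ D.p.c (j-1) := c_mono D.p (by omega)
    have e1 : T = D.p.A i + Q.length + (o - D.p.A i) := by omega
    rw [e1] at b1 b2
    exact D.p.R_back b1 b2 (by omega)
  have hR' : ∀ j, i < j → j ≤ D.p.m → D.p.R j (D.p.A i + Q.length) + D.p.c i ≤ D.p.G ^ j := by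
    intro j hj hjm
    have h1 := hR j hj hjm
    have hcc : D.p.c i ≤ D.p.c (j-1) := c_mono D.p (by omega)
    omega
  have hbr : ∀ j, i < j → j ≤ D.p.m → D.p.bt j T - o = D.p.bt j (D.p.A i + Q.length) - D.p.A i := by
    intro j hj hjm
    have h1 := D.p.bt_shift (hR' j hj hjm) (show o - D.p.A i < D.p.c i by omega)
    have e1 : T = D.p.A i + Q.length + (o - D.p.A i) := by omega
    rw [← e1] at h1
    rw [h1]; omega
  have hbr' : ∀ j, i < j → o ≤ D.p.bt j T := by
    intro j hj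
    have h1 := D.p.le_bt j T
    have h2 := D.p.cell_le hj
    omega
  refine ⟨P, Q, hPQ, ?_, ?_⟩
  · refine D.lam_mk (n := n) (by rw [hPl]; exact hnL) ⟨?_, ?_, ?_, ?_⟩
    · rw [hPl]; exact ho1
    · rw [hPl]; exact ho2
    · rw [hPl]
      show g = D.φ (P.take (D.p.bt i o))
      rw [hg, hbl i le_rfl, hP, List.take_take]
      congr 2
      have := D.p.bt_lt i o
      omega
    · rw [hPl]
      show D.wL i T u = D.wL i o P
      unfold Dat.wL
      refine Finset.sum_congr rfl ?_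
      intro j hj
      rw [Finset.mem_range] at hj
      have h1 : D.p.bt (j+1) T = D.p.bt (j+1) o := hbl (j+1) hj
      rw [hbl j (by omega), h1, ← hPQ, hol_left]
      rw [hPl]
      have h2 := D.p.bt_lt (j+1) o
      have h3 : D.p.A (j+1) ≤ D.p.A i := by
        rcases Nat.lt_or_ge (j+1) i with h4 | h4
        · have h5 := D.p.cell_le h4
          have h6 := D.p.le_A i
          omega
        · have : j + 1 = i := by omega
          rw [this]
      omega
  · have hl : D.rho Q = some (D.bb n) := by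
      refine D.rho_mk (n := n) (by rw [hQl]; exact hnR) ⟨hused, ?_, ?_, ?_, ?_, ?_⟩
      · rw [hQl]; exact hdvd
      · intro j hj hjm; exact hR' j hj hjm
      · show k = D.φ (Q.drop (D.p.bt (i+1) (D.p.A i + Q.length) - D.p.A i))
        rw [hk, ← hbr (i+1) (Nat.lt_succ_self i) him, ← hPQ, drop_right P Q (by
          rw [hPl]; exact hbr' (i+1) (Nat.lt_succ_self i)), hPl]
      · show wr = D.wR i (D.p.A i + Q.length) (D.p.A i) Q
        rw [hwr]
        unfold Dat.wR
        refine Finset.sum_congr rfl ?_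
        intro j hj
        rw [Finset.mem_Ico] at hj
        rw [← hbr j (by omega) (by omega), ← hbr (j+1) (by omega) (by omega)]
        conv_lhs => rw [← hPQ]
        rw [hol_right P Q (by rw [hPl]; exact hbr' j (by omega)) (hmono j), hPl]
      · have hN2 : o ≤ D.p.Am D.p.m := by omega
        show D.p.Am D.p.m + D.p.G ^ D.p.m ≤ Q.length
        omega
    rw [hl]; rfl

theorem lam_le {P : List α} {v : V} (h : D.lam P = some v) : P.length ≤ NN D.p := by
  obtain ⟨n, hn, hL, rfl⟩ := D.lam_eq h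
  have h1 := hL.2.1
  have h2 : D.p.A n.1 + D.p.c n.1 ≤ D.p.Am D.p.m := D.p.cell_le n.1.2
  unfold NN
  omega

theorem rho_le {Q : List α} {r : V} (h : D.rho Q = some r) : NN D.p ≤ Q.length := by
  obtain ⟨n, hn, hR, rfl⟩ := D.rho_eq h
  exact hR.2.2.2.2.2


theorem R_congr (p : Gr) {j T T' : ℕ} (hj : j ≤ p.m) (h : T ≡ T' [MOD p.M * p.G ^ p.m]) :
    p.R j T = p.R j T' := by
  have h1 : T ≡ T' [MOD p.G ^ j] :=
    Nat.ModEq.of_dvd (Dvd.dvd.mul_left (pow_dvd_pow _ hj) _) h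
  exact h1.add_right _

theorem bt_congr (p : Gr) {j T T' : ℕ} (hj : j ≤ p.m) (h : T ≡ T' [MOD p.M * p.G ^ p.m]) :
    p.bt j T = p.bt j T' := by
  unfold Gr.bt; rw [R_congr p hj h]

theorem A_le (p : Gr) {j : ℕ} (hj : j ≤ p.m) : p.A j ≤ NN p := by
  rcases Nat.lt_or_ge j p.m with h4 | h4
  · have h5 := p.cell_le h4
    unfold NN; omega
  · have : j = p.m := by omega
    subst this
    unfold NN Gr.A; exact le_rfl

/-- `hol` only looks at the first `NN` letters -/
theorem hol_take (u : List α) {N a b : ℕ} (h : N ≤ u.length) (hb : b ≤ N) :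
    hol u a b = hol (u.take N) a b := by
  conv_lhs => rw [← List.take_append_drop N u]
  exact hol_left _ _ (by rw [List.length_take]; omega)

theorem φ_drop (h : D.Ok) (u : List α) {N a : ℕ} (hN : N ≤ u.length) (ha : a ≤ N) :
    D.φ (u.drop a) = D.φ ((u.take N).drop a) * D.φ (u.drop N) := by
  rw [← h.hφ]
  congr 1
  conv_lhs => rw [← List.take_append_drop N u]
  rw [List.drop_append_of_le_length]
  rw [List.length_take]; omega

theorem nu_dep (h : D.Ok) {u u' : List α} (h1 : NN D.p ≤ u.length) (h2 : NN D.p ≤ u'.length)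
    (ht : u.take (NN D.p) = u'.take (NN D.p)) (hd : D.φ (u.drop (NN D.p)) = D.φ (u'.drop (NN D.p)))
    (hl : u.length ≡ u'.length [MOD D.p.M * D.p.G ^ D.p.m]) : D.nu u = D.nu u' := by
  have hM : u.length % D.p.M = u'.length % D.p.M := Nat.ModEq.of_mul_right _ hl
  have hφ : D.φ u = D.φ u' := by
    rw [← List.take_append_drop (NN D.p) u, ← List.take_append_drop (NN D.p) u', h.hφ, h.hφ, ht, hd]
  have hw : D.wL D.p.m u.length u = D.wL D.p.m u'.length u' := by
    unfold Dat.wL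
    refine Finset.sum_congr rfl ?_
    intro j hj
    rw [Finset.mem_range] at hj
    have hb : D.p.bt (j+1) u'.length ≤ NN D.p := le_trans (le_of_lt (D.p.bt_lt _ _)) (A_le D.p hj)
    rw [bt_congr D.p (show j ≤ D.p.m by omega) hl, bt_congr D.p (show j+1 ≤ D.p.m by omega) hl,
      hol_take u h1 hb, hol_take u' h2 hb, ht]
  unfold Dat.nu
  rw [hM, hφ, hw]

theorem rho_dep (h : D.Ok) {u u' : List α} (h1 : NN D.p ≤ u.length) (h2 : NN D.p ≤ u'.length)
    (ht : u.take (NN D.p) = u'.take (NN D.p)) (hd : D.φ (u.drop (NN D.p)) = D.φ (u'.drop (NN D.p)))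
    (hl : u.length ≡ u'.length [MOD D.p.M * D.p.G ^ D.p.m]) : D.rho u = D.rho u' := by
  have hM : u.length ≡ u'.length [MOD D.p.M] := Nat.ModEq.of_mul_right _ hl
  have key : ∀ n, D.LegR n u ↔ D.LegR n u' := by
    intro n
    have hi : (n.1 : ℕ) < D.p.m := n.1.2
    have hls : D.p.A n.1 + u.length ≡ D.p.A n.1 + u'.length [MOD D.p.M * D.p.G ^ D.p.m] :=
      hl.add_left _
    have e1 : (D.p.G ^ (n.1 : ℕ) ∣ u.length) ↔ (D.p.G ^ (n.1 : ℕ) ∣ u'.length) := by
      have : u.length ≡ u'.length [MOD D.p.G ^ (n.1 : ℕ)] :=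
        Nat.ModEq.of_dvd (Dvd.dvd.mul_left (pow_dvd_pow _ (le_of_lt hi)) _) hl
      exact this.dvd_iff dvd_rfl
    have e2 : (∀ j, (n.1 : ℕ) < j → j ≤ D.p.m →
        D.p.R j (D.p.A n.1 + u.length) + D.p.c n.1 ≤ D.p.G ^ j) ↔
        (∀ j, (n.1 : ℕ) < j → j ≤ D.p.m →
        D.p.R j (D.p.A n.1 + u'.length) + D.p.c n.1 ≤ D.p.G ^ j) := by
      constructor
      · intro hh j hj hjm
        rw [← R_congr D.p hjm hls]; exact hh j hj hjm
      · intro hh j hj hjm
        rw [R_congr D.p hjm hls]; exact hh j hj hjm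
    have hb : ∀ j, j ≤ D.p.m → D.p.bt j (D.p.A n.1 + u'.length) - D.p.A n.1 ≤ NN D.p := by
      intro j hj
      have h3 := D.p.bt_lt j (D.p.A n.1 + u'.length)
      have h4 := A_le D.p hj
      omega
    have e3 : D.φ (u.drop (D.p.bt (n.1+1) (D.p.A n.1 + u.length) - D.p.A n.1))
        = D.φ (u'.drop (D.p.bt (n.1+1) (D.p.A n.1 + u'.length) - D.p.A n.1)) := by
      rw [bt_congr D.p (show (n.1:ℕ)+1 ≤ D.p.m by omega) hls,
        φ_drop h u h1 (hb _ (by omega)), φ_drop h u' h2 (hb _ (by omega)), ht, hd]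
    have e4 : D.wR n.1 (D.p.A n.1 + u.length) (D.p.A n.1) u
        = D.wR n.1 (D.p.A n.1 + u'.length) (D.p.A n.1) u' := by
      unfold Dat.wR
      refine Finset.sum_congr rfl ?_
      intro j hj
      rw [Finset.mem_Ico] at hj
      rw [bt_congr D.p (show j ≤ D.p.m by omega) hls, bt_congr D.p (show j+1 ≤ D.p.m by omega) hls,
        hol_take u h1 (hb _ (by omega)), hol_take u' h2 (hb _ (by omega)), ht]
    unfold Dat.LegR
    rw [e1, e2, e3, e4]
    constructor
    · rintro ⟨a1, a2, a3, a4, a5, a6⟩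
      exact ⟨a1, a2, a3, a4, a5, h2⟩
    · rintro ⟨a1, a2, a3, a4, a5, a6⟩
      exact ⟨a1, a2, a3, a4, a5, h1⟩
  unfold Dat.rho
  rw [nmR_mod h hM]
  cases D.nmR u'.length with
  | none => rfl
  | some n =>
    by_cases hk : D.LegR n u
    · have hk' := (key n).1 hk
      simp [hk, hk']
    · have hk' : ¬ D.LegR n u' := fun hh => hk ((key n).2 hh)
      simp [hk, hk']

end Crest.Agent.R320.Grid3_84
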