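import Crest.Agent.R320.Grid3_859

set_option autoImplicit false

namespace Crest.Agent.R320.Grid859

universe w

theorem ugadgetP (S V : Type*) [Monoid S] [Finite S] [AddCommGroup V] [Finite V]
    (act : V → S → V) :
    ∃ (m r : ℕ), 0 < m ∧ ∀ Bd : ℕ, ∃ (Ms : Finset ℕ) (L : ℕ → S → List S → ℕ → Option V)
      (R : (ℕ → Option (List S × S)) → ℕ → Option V) (D : ℕ → S → List S → S → V),
      Ms.card ≤ r ∧ (∀ p ∈ Ms, p.Prime ∧ Bd < p) ∧
      (∀ i x zl t, L i x zl (t + ∏ p ∈ Ms, p) = L i x zl t) ∧
      (∀ vw t, R vw (t + ∏ p ∈ Ms, p) = R vw t) ∧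
      (∀ T x zs y, D (T + ∏ p ∈ Ms, p) x zs y = D T x zs y) ∧
      (∀ (t t' : ℕ) (x : S) (zl : List S) (z : S) (zr : List S) (y : S)
        (vw : ℕ → Option (List S × S)) (v b : V), (zl ++ z :: zr).length = m →
        (∀ q, vw zl.length = some q → q = (zr, y)) →
        L zl.length x zl t = some v → R vw t' = some b →
        b = act v (x * zl.prod * z * (zr.prod * y)) + D (t + t') x (zl ++ z :: zr) y) ∧
      (∀ (T : ℕ) (x : S) (zs : List S) (y : S) (v : V), zs.length = m →
        (∀ p ∈ Ms, ¬ p ∣ T) → ∃ i < m, ∀ c0 : ℕ, c0 + ∏ p ∈ Ms, p ≤ T + 1 →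
          ∃ t, c0 ≤ t ∧ t < c0 + ∏ p ∈ Ms, p ∧ t ≤ T ∧ L i x (zs.take i) t = some v ∧
            ∀ vw : ℕ → Option (List S × S), vw i = some (zs.drop (i + 1), y) →
              ∃ b, R vw (T - t) = some b) ∧
      (∀ i x zl t v vw t' b, L i x zl t = some v → R vw t' = some b → vw i = none →
        ∃ p ∈ Ms, p ∣ t + t') ∧
      (∀ T x zs y x' zs' y', (∃ p ∈ Ms, p ∣ T) → x * zs.prod * y = x' * zs'.prod * y' →
        D T x zs y = D T x' zs' y') := by
  classical
  obtain ⟨m, r, hm, hU⟩ := ugadget' S V act
  refine ⟨m, r, hm, fun Bd => ?_⟩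
  obtain ⟨Ms, L, R, D, hcard, hp, hLper, hRper, -, hsound, hcomp, hE1, hE2⟩ := hU Bd
  set M := ∏ p ∈ Ms, p with hMdef
  have hMpos : 0 < M := Finset.prod_pos fun p hpm => (hp p hpm).1.pos
  refine ⟨Ms, L, R, fun T => D (T % M + M), hcard, hp, hLper, hRper, ?_, ?_, hcomp, hE1, ?_⟩
  · intro T x zs y
    simp only [← hMdef, Nat.add_mod_right]
  · intro t t' x zl z zr y vw v b h1 h2 h3 h4
    have hs : t % M < M := Nat.mod_lt _ hMpos
    have e1 : L zl.length x zl (t % M) = some v := by
      rw [← h3]
      exact per (fun t => L _ _ _ t) M (fun t => hLper _ _ _ t) (Nat.mod_modEq t M)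
    have e2 : R vw ((t + t') % M + M - t % M) = some b := by
      rw [← h4]
      refine per (fun t => R vw t) M (fun t => hRper _ t) ?_
      apply Nat.ModEq.add_left_cancel (Nat.mod_modEq t M)
      rw [Nat.add_sub_cancel' (by omega)]
      simp [Nat.ModEq]
    have key := hsound (t % M) ((t + t') % M + M - t % M) x zl z zr y vw v b h1 h2 e1 e2
    rw [Nat.add_sub_cancel' (by omega)] at key
    exact key
  · intro T x zs y x' zs' y' h1 h2
    apply hE2 _ _ _ _ _ _ _ _ h2
    obtain ⟨p, hpm, hd⟩ := h1
    refine ⟨p, hpm, ?_⟩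
    have hpM : p ∣ M := Finset.dvd_prod_of_mem _ hpm
    exact Dvd.dvd.add ((Nat.dvd_mod_iff hpM).2 hd) hpM

/-- **693's grid gadget on words.** -/
theorem gridp (S V : Type*) [Monoid S] [Finite S] [AddCommGroup V] [Finite V]
    (act : V → S → V) :
    ∃ (m r : ℕ), 0 < m ∧ ∀ Bd : ℕ, 2 ≤ Bd → ∃ (Ms : Finset ℕ),
      Ms.card ≤ r ∧ (∀ p ∈ Ms, p.Prime ∧ Bd < p) ∧
      ∀ (κ : ℕ) (α : Type w) (φ : List α → S), (∀ u v, φ (u ++ v) = φ u * φ v) → φ [] = 1 →
      ∃ (LL : List α → V → Prop) (rho : List α → Option V) (nu : List α → V),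
        (∀ P v, LL P v → ∃ i < m, A κ (∏ p ∈ Ms, p) i ≤ P.length ∧
          P.length < Am κ (∏ p ∈ Ms, p) (i + 1)) ∧
        (∀ P v v', LL P v → LL P v' → v = v') ∧
        (∀ P Q v b, LL P v → rho Q = some b → b = act v (φ (P ++ Q)) + nu (P ++ Q)) ∧
        (∀ u v, Am κ (∏ p ∈ Ms, p) m + (∏ p ∈ Ms, p) * G κ m ≤ u.length →
          ¬ BadT κ (∏ p ∈ Ms, p) m Ms u.length →
          ∃ P Q, u = P ++ Q ∧ LL P v ∧ ∃ b, rho Q = some b) ∧
        (∀ u u', A κ (∏ p ∈ Ms, p) m ≤ u.length → A κ (∏ p ∈ Ms, p) m ≤ u'.length →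
          u.take (A κ (∏ p ∈ Ms, p) m) = u'.take (A κ (∏ p ∈ Ms, p) m) →
          φ (u.drop (A κ (∏ p ∈ Ms, p) m)) = φ (u'.drop (A κ (∏ p ∈ Ms, p) m)) →
          u.length ≡ u'.length [MOD (∏ p ∈ Ms, p) * G κ m] → nu u = nu u') := by
  classical
  obtain ⟨m, r, hm, hU⟩ := ugadgetP S V act
  refine ⟨m, r, hm, fun Bd hBd => ?_⟩
  obtain ⟨Ms, L, R, D, hcard, hp, hLper, hRper, hDper, hsound, hcomp, hE1, hE2⟩ := hU Bd
  refine ⟨Ms, hcard, hp, fun κ α φ hφ hφ1 => ?_⟩
  set M := ∏ p ∈ Ms, p with hMdef
  have hMpos : 0 < M := Finset.prod_pos fun p hpm => (hp p hpm).1.pos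
  have hodd : ∀ i, Nat.Coprime M (G κ i) := by
    intro i
    unfold G
    apply Nat.Coprime.pow_right
    rw [hMdef]
    apply Nat.Coprime.prod_left
    intro p hpm
    obtain ⟨h1, h2⟩ := hp p hpm
    rw [Nat.coprime_primes h1 Nat.prime_two]
    omega
  let LL : List α → V → Prop := fun P v => ∃ i < m, A κ M i ≤ P.length ∧
    P.length < Am κ M (i + 1) ∧
    L i (φ (P.take (be κ M 0 P.length))) (zl φ (fun j => be κ M j P.length) P i) P.length = some v
  let vw : List α → ℕ → Option (List S × S) := fun Q i =>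
    if Cond κ M m i Q.length then some (rl κ M i m Q φ, φ (Q.drop (ga κ M i m Q.length)))
    else none
  let nu : List α → V := fun u => D u.length (φ (u.take (be κ M 0 u.length)))
    (zl φ (fun j => be κ M j u.length) u m) (φ (u.drop (be κ M m u.length)))
  have hbm : ∀ T, ∀ j, (fun j => be κ M j T) j ≤ (fun j => be κ M j T) (j + 1) :=
    fun T j => be_mono κ M T j
  refine ⟨LL, fun Q => R (vw Q) Q.length, nu, ?_, ?_, ?_, ?_, ?_⟩
  · rintro P v ⟨i, him, h1, h2, -⟩
    exact ⟨i, him, h1, h2⟩
  · rintro P v v' ⟨i, him, h1, h2, h3⟩ ⟨i', him', h1', h2', h3'⟩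
    have hii : i = i' := by
      rcases lt_trichotomy i i' with h | h | h
      · have a1 := Am_mono κ M (show i + 1 ≤ i' from h)
        have a2 := Am_le_A κ M i'
        omega
      · exact h
      · have a1 := Am_mono κ M (show i' + 1 ≤ i from h)
        have a2 := Am_le_A κ M i
        omega
    subst hii
    rw [h3] at h3'
    exact Option.some.inj h3'
  · rintro P Q v b ⟨i, him, h1, h2, h3⟩ hR
    have hT : (P ++ Q).length = P.length + Q.length := List.length_append
    by_cases hc : Cond κ M m i Q.length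
    · obtain ⟨l1, l2⟩ := zl_left (φ := φ) κ M m i him P Q h1 hc.1
      obtain ⟨r1, r2⟩ := zl_right (φ := φ) κ M m i him P Q h1 h2 hc
      set zs := zl φ (fun j => be κ M j (P ++ Q).length) (P ++ Q) m with hzs
      have hlen : zs.length = m := zl_length _ _ _ _
      have hi' : i < zs.length := by omega
      have hsplit : zs = zs.take i ++ zs[i] :: zs.drop (i + 1) := by
        rw [← List.drop_eq_getElem_cons hi', List.take_append_drop]
      have hl2 : (zl φ (fun j => be κ M j P.length) P i).length = i := zl_length _ _ _ _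
      have key := hsound P.length Q.length (φ (P.take (be κ M 0 P.length)))
        (zl φ (fun j => be κ M j P.length) P i) zs[i] (rl κ M i m Q φ)
        (φ (Q.drop (ga κ M i m Q.length))) (vw Q) v b
        (by rw [← l2, ← r1, ← hsplit, hlen])
        (by
          intro q hq
          rw [hl2] at hq
          simp only [vw] at hq
          rw [if_pos hc] at hq
          exact (Option.some.inj hq).symm)
        (by rw [hl2]; exact h3) hR
      rw [key]
      have e1 : zl φ (fun j => be κ M j P.length) P i ++ zs[i] :: rl κ M i m Q φ = zs := by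
        rw [← l2, ← r1, ← hsplit]
      have e2 : D (P.length + Q.length) (φ (P.take (be κ M 0 P.length)))
          (zl φ (fun j => be κ M j P.length) P i ++ zs[i] :: rl κ M i m Q φ)
          (φ (Q.drop (ga κ M i m Q.length))) = nu (P ++ Q) := by
        simp only [nu]
        rw [e1, ← l1, ← r2, ← hT]
      have e3 : φ (P.take (be κ M 0 P.length)) * (zl φ (fun j => be κ M j P.length) P i).prod *
          zs[i] * ((rl κ M i m Q φ).prod * φ (Q.drop (ga κ M i m Q.length))) = φ (P ++ Q) := by
        have f := zl_full (φ := φ) hφ (fun j => be κ M j (P ++ Q).length) (hbm _) (P ++ Q) m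
        rw [← hzs, ← e1] at f
        simp only [List.prod_append, List.prod_cons] at f
        rw [l1] at f
        rw [r2] at f
        rw [← f]
        simp only [mul_assoc]
      rw [e2, e3]
    · have hn : vw Q i = none := by
        simp only [vw]
        rw [if_neg hc]
      have hl2 : (zl φ (fun j => be κ M j P.length) P i).length = i := zl_length _ _ _ _
      have hbad := hE1 i _ _ _ v (vw Q) Q.length b h3 hR hn
      have key := hsound P.length Q.length (φ (P.take (be κ M 0 P.length)))
        (zl φ (fun j => be κ M j P.length) P i) (φ (P.drop (be κ M i P.length) ++ Q))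
        (List.replicate (m - 1 - i) 1) 1 (vw Q) v b
        (by simp only [List.length_append, List.length_cons, List.length_replicate, hl2]; omega)
        (by
          intro q hq
          rw [hl2, hn] at hq
          exact absurd hq (by simp))
        (by rw [hl2]; exact h3) hR
      have e3 : φ (P.take (be κ M 0 P.length)) * (zl φ (fun j => be κ M j P.length) P i).prod *
          φ (P.drop (be κ M i P.length) ++ Q) * ((List.replicate (m - 1 - i) (1 : S)).prod * 1)
          = φ (P ++ Q) := by
        have f := zl_prod (φ := φ) hφ (fun j => be κ M j P.length) (hbm _) P i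
        rw [f, ← hφ, ← List.append_assoc, List.take_append_drop]
        simp
      rw [key, e3]
      congr 1
      simp only [nu]
      rw [hT]
      apply hE2 _ _ _ _ _ _ _ hbad
      have f := zl_full (φ := φ) hφ (fun j => be κ M j (P.length + Q.length)) (hbm _) (P ++ Q) m
      rw [f, ← e3]
      simp [mul_assoc]
  · intro u v hlen hb
    obtain ⟨i, him, hi⟩ := hcomp u.length (φ (u.take (be κ M 0 u.length)))
      (zl φ (fun j => be κ M j u.length) u m) (φ (u.drop (be κ M m u.length))) v
      (zl_length _ _ _ _) (fun p hpm hd => hb (Or.inl ⟨p, hpm, hd⟩))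
    have hMle : M ≤ u.length + 1 := by
      have : M ≤ M * G κ m := Nat.le_mul_of_pos_right M (G_pos κ m)
      omega
    obtain ⟨t, -, t2, t3, t4, t5⟩ := hi 0 (by rw [Nat.zero_add]; exact hMle)
    obtain ⟨k, hk1, hk2⟩ := Nat.chineseRemainder (hodd i) t u.length
    obtain ⟨o, o1, o2, o3⟩ := exists_modEq (A κ M i) (M * G κ i) k
      (Nat.mul_pos hMpos (G_pos κ i))
    have om : o ≡ t [MOD M] := (o3.of_dvd (Dvd.intro _ rfl)).trans hk1
    have og : o ≡ u.length [MOD G κ i] := (o3.of_dvd (Dvd.intro_left _ rfl)).trans hk2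
    have hAi : Am κ M (i + 1) ≤ Am κ M m := Am_mono κ M (by omega)
    rw [Am_succ] at hAi
    have hle : o ≤ u.length := by
      omega
    have hd : G κ i ∣ u.length - o := (Nat.modEq_iff_dvd' hle).1 og
    have hPl : (u.take o).length = o := by rw [List.length_take]; omega
    have hQl : (u.drop o).length = u.length - o := List.length_drop
    have hc : Cond κ M m i (u.drop o).length := by
      rw [hQl]
      apply cond_of κ M m i o (u.length - o) hMpos Ms
      · rw [Nat.add_sub_cancel' hle]; exact hlen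
      · rw [Nat.add_sub_cancel' hle]; exact hb
      · exact o1
      · exact o2
      · exact hd
    have hu : u.take o ++ u.drop o = u := List.take_append_drop o u
    obtain ⟨l1, l2⟩ := zl_left (φ := φ) κ M m i him (u.take o) (u.drop o) (by rw [hPl]; exact o1)
      hc.1
    obtain ⟨r1, r2⟩ := zl_right (φ := φ) κ M m i him (u.take o) (u.drop o)
      (by rw [hPl]; exact o1) (by rw [hPl, Am_succ]; exact o2) hc
    rw [hu] at l1 l2 r1 r2
    refine ⟨u.take o, u.drop o, hu.symm, ⟨i, him, by rw [hPl]; exact o1,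
      by rw [hPl, Am_succ]; exact o2, ?_⟩, ?_⟩
    · rw [← l1, ← l2, hPl, ← t4]
      exact per (fun t => L i _ _ t) M (fun t => hLper i _ _ t) om
    · obtain ⟨b, hbb⟩ := t5 (vw (u.drop o)) (by
        simp only [vw]
        rw [if_pos hc, r1, r2])
      refine ⟨b, ?_⟩
      rw [← hbb]
      refine per (fun t => R (vw (u.drop o)) t) M (fun t => hRper _ t) ?_
      rw [hQl]
      apply Nat.ModEq.add_right_cancel om
      rw [Nat.sub_add_cancel hle, Nat.sub_add_cancel t3]

  · intro u u' hu hu' ht hd hmod
    have hb : ∀ j, j ≤ m → be κ M j u.length = be κ M j u'.length := by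
      intro j hj
      unfold be
      congr 1
      have h1 : Am κ M j ≤ u.length := (Am_mono κ M hj).trans ((Am_le_A κ M m).trans hu)
      have h2 : Am κ M j ≤ u'.length := (Am_mono κ M hj).trans ((Am_le_A κ M m).trans hu')
      have h3 : u.length ≡ u'.length [MOD G κ j] :=
        hmod.of_dvd ((G_dvd κ hj).trans (Dvd.intro_left _ rfl))
      apply Nat.ModEq.add_left_cancel (Nat.ModEq.refl (Am κ M j))
      rw [Nat.add_sub_cancel' h1, Nat.add_sub_cancel' h2]
      exact h3
    have hble : ∀ j, j ≤ m → be κ M j u.length ≤ A κ M m := by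
      intro j hj
      rcases Nat.lt_or_ge j m with h | h
      · exact ((be_lt κ M j u.length).le.trans (A_le κ M h)).trans (Am_le_A κ M m)
      · have : j = m := by omega
        subst this
        exact (be_lt κ M j u.length).le
    have htk : ∀ c, c ≤ A κ M m → u.take c = u'.take c := by
      intro c hc
      have := congrArg (fun l => l.take c) ht
      simpa only [List.take_take, min_eq_left hc] using this
    simp only [nu]
    have e0 : D u.length = D u'.length := by
      refine per (fun t => D t) M (fun t => ?_) (hmod.of_dvd (Dvd.intro _ rfl))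
      funext x zs y
      exact hDper t x zs y
    have e1 : u.take (be κ M 0 u.length) = u'.take (be κ M 0 u'.length) := by
      rw [← hb 0 (Nat.zero_le _)]
      exact htk _ (hble 0 (Nat.zero_le _))
    have e2 : zl φ (fun j => be κ M j u.length) u m = zl φ (fun j => be κ M j u'.length) u' m := by
      unfold zl
      apply List.map_congr_left
      intro j hj
      rw [List.mem_range] at hj
      beta_reduce
      rw [← hb j (by omega), ← hb (j + 1) (by omega), htk _ (hble (j + 1) (by omega))]
    have e3 : φ (u.drop (be κ M m u.length)) = φ (u'.drop (be κ M m u'.length)) := by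
      rw [← hb m le_rfl]
      have hc := hble m le_rfl
      set c := be κ M m u.length with hcdef
      have hs : ∀ w : List α, w.drop c = (w.take (A κ M m)).drop c ++ w.drop (A κ M m) := by
        intro w
        conv_lhs => rw [← List.take_append_drop (A κ M m) w]
        rw [List.drop_append]
        congr 1
        by_cases hw : A κ M m ≤ w.length
        · rw [List.length_take, min_eq_left hw]
          rw [Nat.sub_eq_zero_of_le hc, List.drop_zero]
        · rw [List.drop_eq_nil_of_le (by omega : w.length ≤ A κ M m)]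
          simp
      rw [hs u, hs u', hφ, hφ, ht, hd]
    rw [e0, e1, e2, e3]

end Crest.Agent.R320.Grid859
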