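import Mathlib

/-!
Row 320: arithmetic of 693's nested grids (#13203), comb units.
-/

set_option autoImplicit false

namespace Crest.Agent.R320.GridA_605

structure P where
  m : ℕ
  M : ℕ
  Q : ℕ
  hM : 0 < M
  hQ : 1 < Q
  hc : Nat.Coprime Q M

namespace P

variable (p : P)

def G (l : ℕ) : ℕ := p.Q ^ (l + 1)
def lo (l : ℕ) : ℕ := p.G p.m * (p.M + 1) * l
def beta (n l : ℕ) : ℕ := p.lo l + n % p.G l
def cell (i t : ℕ) : Prop := p.lo i + p.G i ≤ t ∧ t < p.lo i + p.G i + p.M * p.G i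
def top : ℕ := p.lo (p.m + 1)
def RK (i t : ℕ) : Prop := p.top ≤ t ∧ p.G i ∣ t ∧ ∀ l, i < l → l ≤ p.m →
  (t + p.lo i + p.G i) / p.G l = (t + p.lo i + p.G i + p.M * p.G i) / p.G l
def bR (i t l : ℕ) : ℕ := p.G l * ((t + p.lo i + p.G i) / p.G l) - p.lo l
def Band (n : ℕ) : Prop := ∃ l, 1 ≤ l ∧ l ≤ p.m ∧
  (n % p.G l < p.M * p.G (l - 1) ∨ p.G l ≤ n % p.G l + p.M * p.G (l - 1))

theorem G_pos (l : ℕ) : 0 < p.G l := by
  have := p.hQ
  unfold G; positivity

theorem G_dvd {l l' : ℕ} (h : l ≤ l') : p.G l ∣ p.G l' := by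
  unfold G; exact pow_dvd_pow _ (by omega)

theorem G_le {l l' : ℕ} (h : l ≤ l') : p.G l ≤ p.G l' :=
  Nat.le_of_dvd (p.G_pos l') (p.G_dvd h)

theorem G_succ (l : ℕ) : p.G (l + 1) = p.Q * p.G l := by
  unfold G; rw [pow_succ]; ring

theorem lo_succ (l : ℕ) : p.lo (l + 1) = p.lo l + (p.M + 1) * p.G p.m := by
  unfold lo; ring

theorem lo_mono {l l' : ℕ} (h : l ≤ l') : p.lo l ≤ p.lo l' := by
  unfold lo; exact Nat.mul_le_mul_left _ h

theorem G_dvd_lo {l j : ℕ} (h : l ≤ p.m) : p.G l ∣ p.lo j := by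
  unfold lo
  rw [mul_assoc]
  exact (p.G_dvd h).mul_right _

theorem cell_lt {i t : ℕ} (hi : i ≤ p.m) (h : p.cell i t) : t < p.lo (i + 1) := by
  rw [lo_succ]
  have h1 := h.2
  have h2 := Nat.mul_le_mul_left (p.M + 1) (p.G_le hi)
  have h3 : (p.M + 1) * p.G i = p.G i + p.M * p.G i := by ring
  omega

theorem cell_uniq {i j t : ℕ} (hi : i ≤ p.m) (hj : j ≤ p.m) (h : p.cell i t)
    (h' : p.cell j t) : i = j := by
  rcases lt_trichotomy i j with h1 | h1 | h1
  · have h2 := p.cell_lt hi h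
    have h3 := p.lo_mono (show i + 1 ≤ j by omega)
    have h4 := h'.1
    omega
  · exact h1
  · have h2 := p.cell_lt hj h'
    have h3 := p.lo_mono (show j + 1 ≤ i by omega)
    have h4 := h.1
    omega

theorem cell_top {i t : ℕ} (hi : i ≤ p.m) (h : p.cell i t) : t < p.top := by
  have h1 := p.cell_lt hi h
  have h2 := p.lo_mono (show i + 1 ≤ p.m + 1 by omega)
  unfold top
  omega

theorem beta_left {i t t' l : ℕ} (h' : p.RK i t') (hl : l ≤ i) :
    p.lo l + t % p.G l = p.beta (t + t') l := by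
  obtain ⟨k, hk⟩ := dvd_trans (p.G_dvd hl) h'.2.1
  unfold beta
  rw [hk, Nat.add_mul_mod_self_left]

theorem quot_eq {i t t' l : ℕ} (h : p.cell i t) (h' : p.RK i t') (hl : i < l) (hl' : l ≤ p.m) :
    (t + t') / p.G l = (t' + p.lo i + p.G i) / p.G l := by
  apply le_antisymm
  · rw [h'.2.2 l hl hl']
    exact Nat.div_le_div_right (by have := h.2; omega)
  · exact Nat.div_le_div_right (by have := h.1; omega)

theorem beta_right {i t t' l : ℕ} (h : p.cell i t) (h' : p.RK i t') (hl : i < l)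
    (hl' : l ≤ p.m) : p.bR i t' l + p.beta (t + t') l = t + t' := by
  unfold bR beta
  rw [← p.quot_eq h h' hl hl']
  have h1 := Nat.div_add_mod (t + t') (p.G l)
  have h2 := Nat.mod_lt (t + t') (p.G_pos l)
  have h3 : p.lo l + p.G p.m ≤ p.top := by
    unfold top
    have h4 := p.lo_mono hl'
    rw [p.lo_succ]
    have : 1 * p.G p.m ≤ (p.M + 1) * p.G p.m := Nat.mul_le_mul_right _ (by omega)
    omega
  have h4 := h'.1
  have h5 := p.G_le hl'
  omega

theorem beta_lt (n l : ℕ) : p.beta n l < p.lo l + p.G l := by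
  unfold beta
  have := Nat.mod_lt n (p.G_pos l)
  omega

theorem lo_le_beta (n l : ℕ) : p.lo l ≤ p.beta n l := by unfold beta; omega

theorem beta_le_cell {n i t : ℕ} (h : p.cell i t) : p.beta n i ≤ t := by
  have := p.beta_lt n i
  have := h.1
  omega

theorem cell_le_beta {n i t : ℕ} (hi : i ≤ p.m) (h : p.cell i t) : t ≤ p.beta n (i + 1) := by
  have := p.cell_lt hi h
  have := p.lo_le_beta n (i + 1)
  omega

theorem beta_mono {n l l' : ℕ} (h : l ≤ l') (hl' : l' ≤ p.m) : p.beta n l ≤ p.beta n l' := by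
  rcases Nat.lt_or_ge l l' with h1 | h1
  · have h2 := p.beta_lt n l
    have h3 := p.lo_mono (show l + 1 ≤ l' by omega)
    have h4 := p.lo_le_beta n l'
    have h5 := p.G_le (show l ≤ p.m by omega)
    rw [p.lo_succ] at h3
    have : 1 * p.G p.m ≤ (p.M + 1) * p.G p.m := Nat.mul_le_mul_right _ (by omega)
    omega
  · have : l = l' := by omega
    rw [this]

/-- the completeness of the clocks (CRT) -/
theorem exists_cut {n i t₀ : ℕ} (hn : 2 * p.top ≤ n) (hi : i ≤ p.m) (hB : ¬ p.Band n) :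
    ∃ t t', t + t' = n ∧ p.cell i t ∧ p.RK i t' ∧ t ≡ t₀ [MOD p.M] := by
  have hcop : Nat.Coprime (p.G i) p.M := Nat.Coprime.pow_left _ p.hc
  obtain ⟨k, hk1, hk2⟩ := Nat.chineseRemainder hcop n t₀
  -- move into the cell
  set L := p.M * p.G i with hL
  have hLpos : 0 < L := Nat.mul_pos p.hM (p.G_pos i)
  set a := p.lo i + p.G i with ha
  -- t ≡ k mod L in [a, a+L)
  set t := a + (k + (L - a % L)) % L with ht
  have htmod : t ≡ k [MOD L] := by
    have h1 : (k + (L - a % L)) % L ≡ k + (L - a % L) [MOD L] := Nat.mod_modEq _ _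
    have h2 : a + (k + (L - a % L)) % L ≡ a + (k + (L - a % L)) [MOD L] :=
      Nat.ModEq.add_left a h1
    have h3 : a + (k + (L - a % L)) = k + L * (a / L + 1) := by
      have h4 := Nat.div_add_mod a L
      have h5 := Nat.mod_lt a hLpos
      have h6 : L * (a / L + 1) = L * (a / L) + L := by ring
      omega
    rw [h3] at h2
    have h7 : k + L * (a / L + 1) ≡ k [MOD L] := by
      unfold Nat.ModEq
      rw [Nat.add_mul_mod_self_left]
    exact h2.trans h7
  have hcell : p.cell i t := by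
    constructor
    · omega
    · have := Nat.mod_lt (k + (L - a % L)) hLpos
      omega
  have htG : t ≡ n [MOD p.G i] := by
    have h1 : t ≡ k [MOD p.G i] := htmod.of_dvd (Dvd.intro_left _ rfl)
    exact h1.trans hk1
  have htM : t ≡ t₀ [MOD p.M] := by
    have h1 : t ≡ k [MOD p.M] := htmod.of_dvd (Dvd.intro _ rfl)
    exact h1.trans hk2
  have htop := p.cell_top hi hcell
  have htn : t ≤ n := by omega
  refine ⟨t, n - t, by omega, hcell, ⟨by omega, ?_, ?_⟩, htM⟩
  · exact (Nat.modEq_iff_dvd' htn).1 htG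
  · intro l hl hl'
    have hnb : ¬ (n % p.G l < p.M * p.G (l - 1) ∨ p.G l ≤ n % p.G l + p.M * p.G (l - 1)) :=
      fun h => hB ⟨l, by omega, hl', h⟩
    push Not at hnb
    have h1 : L ≤ p.M * p.G (l - 1) := Nat.mul_le_mul_left _ (p.G_le (by omega))
    have h2 := hcell.2
    have h3 := hcell.1
    have h4 := Nat.div_add_mod n (p.G l)
    have e1 : (n - t + p.lo i + p.G i) / p.G l = n / p.G l := by
      apply le_antisymm
      · exact Nat.div_le_div_right (by omega)
      · rw [Nat.le_div_iff_mul_le (p.G_pos l), mul_comm]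
        omega
    have e2 : (n - t + p.lo i + p.G i + p.M * p.G i) / p.G l = n / p.G l := by
      apply le_antisymm
      · have : (n - t + p.lo i + p.G i + p.M * p.G i) / p.G l < n / p.G l + 1 := by
          rw [Nat.div_lt_iff_lt_mul (p.G_pos l)]
          have : (n / p.G l + 1) * p.G l = p.G l * (n / p.G l) + p.G l := by ring
          omega
        omega
      · exact Nat.div_le_div_right (by omega)
    rw [e1, e2]

/-- Periodicity. -/
theorem Band_add (n k : ℕ) : p.Band (n + p.G p.m * k) ↔ p.Band n := by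
  have key : ∀ l, l ≤ p.m → (n + p.G p.m * k) % p.G l = n % p.G l := by
    intro l hl
    obtain ⟨c, hc⟩ := p.G_dvd hl
    rw [hc, mul_assoc, Nat.add_mul_mod_self_left]
  unfold Band
  constructor
  · rintro ⟨l, h1, h2, h3⟩
    rw [key l h2] at h3
    exact ⟨l, h1, h2, h3⟩
  · rintro ⟨l, h1, h2, h3⟩
    refine ⟨l, h1, h2, ?_⟩
    rw [key l h2]
    exact h3

theorem beta_add {n k l : ℕ} (hl : l ≤ p.m) : p.beta (n + p.G p.m * k) l = p.beta n l := by
  obtain ⟨c, hc⟩ := p.G_dvd hl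
  unfold beta
  rw [hc, mul_assoc, Nat.add_mul_mod_self_left]

end P

end Crest.Agent.R320.GridA_605
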