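import Mathlib

/-!
# Row 320: grid gadget (693), arithmetic part: the ruler and thinness
-/

set_option autoImplicit false

namespace Crest.Agent.R320.GridUG639

theorem pow2_aux {a b c d : ℕ} (hab : a ≤ d) (hbc : b ≤ c) (hlt : a < b)
    (h : 2 ^ a + 2 ^ d = 2 ^ b + 2 ^ c) : False := by
  have h1 : 2 ^ (a + 1) ∣ 2 ^ b := pow_dvd_pow 2 hlt
  have h2 : 2 ^ (a + 1) ∣ 2 ^ c := pow_dvd_pow 2 (hlt.trans_le hbc)
  have h3 : 2 ^ (a + 1) ∣ 2 ^ a + 2 ^ d := h ▸ dvd_add h1 h2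
  rcases hab.eq_or_lt with e | e
  · subst e
    have h4 := Nat.le_of_dvd (by positivity) h1
    have h5 := Nat.le_of_dvd (by positivity) h2
    have h6 : 0 < 2 ^ a := by positivity
    rw [pow_succ] at h4 h5
    omega
  · have h4 : 2 ^ (a + 1) ∣ 2 ^ d := pow_dvd_pow 2 e
    have h5 : 2 ^ (a + 1) ∣ 2 ^ a := (Nat.dvd_add_left h4).1 h3
    have h6 := Nat.le_of_dvd (by positivity) h5
    have h7 : 0 < 2 ^ a := by positivity
    rw [pow_succ] at h6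
    omega

theorem pow2_sorted {a b c d : ℕ} (hab : a ≤ d) (hbc : b ≤ c)
    (h : 2 ^ a + 2 ^ d = 2 ^ b + 2 ^ c) : a = b ∧ d = c := by
  rcases lt_trichotomy a b with e | e | e
  · exact (pow2_aux hab hbc e h).elim
  · subst e
    exact ⟨rfl, Nat.pow_right_injective (le_refl 2) (by simpa using h)⟩
  · exact (pow2_aux hbc hab e h.symm).elim

theorem pow2_inj {a b c d : ℕ} (h : 2 ^ a + 2 ^ d = 2 ^ b + 2 ^ c) (hne : a ≠ b) :
    a = c ∧ b = d := by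
  rcases le_total a d with h1 | h1 <;> rcases le_total b c with h2 | h2
  · exact absurd (pow2_sorted h1 h2 h).1 hne
  · have := pow2_sorted h1 h2 (by rw [h]; ring)
    exact ⟨this.1, this.2.symm⟩
  · have := pow2_sorted h1 h2 (by rw [← h]; ring)
    exact ⟨this.2, this.1.symm⟩
  · have := pow2_sorted h1 h2 (by rw [add_comm, h]; ring)
    exact absurd this.2 hne

/-- at most one pair hits the band of half width `w` around `0` modulo `Q` -/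
theorem atmost1 {K : ℕ} {Q w σ n : ℤ} {y : ℕ → ℤ} {nn : ℕ → ℕ → ℤ}
    (hw : 0 ≤ w) (hσ : w + 1 < 2 * σ) (hQ : 2 ^ (K + 4) * σ + 2 * w + 2 < Q)
    (hy : ∀ a, Q ∣ y a - 4 * 2 ^ a * σ)
    (hn : ∀ a b, a < K → b < K → ∃ ε : ℤ, |ε| ≤ 1 ∧ nn a b = n + y a - y b + ε)
    {a b c d : ℕ} (ha : a < K) (hb : b < K) (hc : c < K) (hd : d < K) (hab : a ≠ b)
    (h1 : ∃ δ : ℤ, |δ| ≤ w ∧ Q ∣ nn a b + δ) (h2 : ∃ δ : ℤ, |δ| ≤ w ∧ Q ∣ nn c d + δ) :
    a = c ∧ b = d := by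
  obtain ⟨δ1, hδ1, hd1⟩ := h1
  obtain ⟨δ2, hδ2, hd2⟩ := h2
  obtain ⟨e1, he1, hn1⟩ := hn a b ha hb
  obtain ⟨e2, he2, hn2⟩ := hn c d hc hd
  rw [hn1] at hd1
  rw [hn2] at hd2
  set D : ℤ := 2 ^ a + 2 ^ d - 2 ^ b - 2 ^ c with hD
  have hdiv : Q ∣ 4 * D * σ + (e1 - e2) + (δ1 - δ2) := by
    have h := ((((hd1.sub hd2).sub (hy a)).add (hy b)).add (hy c)).sub (hy d)
    have e : n + y a - y b + e1 + δ1 - (n + y c - y d + e2 + δ2) - (y a - 4 * 2 ^ a * σ)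
        + (y b - 4 * 2 ^ b * σ) + (y c - 4 * 2 ^ c * σ) - (y d - 4 * 2 ^ d * σ)
        = 4 * D * σ + (e1 - e2) + (δ1 - δ2) := by
      rw [hD]; ring
    rwa [e] at h
  have hpow : ∀ i, i < K → (1 : ℤ) ≤ 2 ^ i ∧ (2 : ℤ) ^ i ≤ 2 ^ K := fun i hi =>
    ⟨one_le_pow₀ (by norm_num), pow_le_pow_right₀ (by norm_num) hi.le⟩
  have pa := hpow a ha
  have pb := hpow b hb
  have pc := hpow c hc
  have pd := hpow d hd
  have hK : (2 : ℤ) ^ (K + 4) = 16 * 2 ^ K := by rw [pow_add]; ring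
  have hDle : |D| ≤ 2 * 2 ^ K := by
    rw [abs_le]; constructor <;> linarith [pa.1, pa.2, pb.1, pb.2, pc.1, pc.2, pd.1, pd.2]
  have hσ0 : 0 < σ := by linarith
  have b1 := abs_le.1 he1
  have b2 := abs_le.1 he2
  have b3 := abs_le.1 hδ1
  have b4 := abs_le.1 hδ2
  have hlt : |4 * D * σ + (e1 - e2) + (δ1 - δ2)| < Q := by
    have h4 : |4 * D * σ| ≤ 2 ^ (K + 4) * σ := by
      rw [abs_mul, abs_mul, abs_of_pos hσ0, hK]
      have : |(4 : ℤ)| = 4 := by norm_num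
      rw [this]
      have h5 : 4 * |D| ≤ 16 * 2 ^ K := by
        have : (0:ℤ) < 2 ^ K := by positivity
        linarith
      exact mul_le_mul_of_nonneg_right h5 hσ0.le
    have h6 := abs_le.1 h4
    rw [abs_lt]
    constructor <;> linarith [h6.1, h6.2, b1.1, b1.2, b2.1, b2.2, b3.1, b3.2, b4.1, b4.2]
  have hz : 4 * D * σ + (e1 - e2) + (δ1 - δ2) = 0 := Int.eq_zero_of_abs_lt_dvd hdiv hlt
  have hD0 : D = 0 := by
    by_contra hne
    rcases lt_or_gt_of_ne hne with hneg | hpos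
    · have : D ≤ -1 := by omega
      nlinarith
    · have : 1 ≤ D := by omega
      nlinarith
  apply pow2_inj _ hab
  have h7 : (2 : ℤ) ^ a + 2 ^ d = 2 ^ b + 2 ^ c := by rw [hD] at hD0; linarith
  exact_mod_cast h7

/-- the scale sums -/
def sig (M G j : ℕ) : ℕ := 1 + ∑ l ∈ Finset.range j, M * G ^ l

/-- the ruler, in units -/
def yy (M G m a : ℕ) : ℕ := 4 * 2 ^ a * sig M G m

/-- the ruler, in letters -/
def xx (Mp M G m a : ℕ) : ℕ := Mp * yy M G m a + 2 ^ a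

/-- the bad lengths, in units -/
def BadN (M G m : ℕ) (Ms : Finset ℕ) (n : ℕ) : Prop :=
  (∃ k ∈ Ms, k ∣ n) ∨
    ∃ j < m, n % G ^ (j + 1) < M * G ^ j ∨ G ^ (j + 1) < n % G ^ (j + 1) + M * G ^ j

theorem sum_pow_le {G : ℕ} (hG : 2 ≤ G) (j : ℕ) :
    ∑ l ∈ Finset.range (j + 1), G ^ l ≤ 2 * G ^ j := by
  induction j with
  | zero => simp
  | succ j ih =>
    rw [Finset.sum_range_succ]
    have h1 : 2 * G ^ j ≤ G ^ (j + 1) := by
      rw [pow_succ, mul_comm]; exact Nat.mul_le_mul_left _ hG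
    omega

theorem sig_le {M G : ℕ} (hM : 0 < M) (hG : 2 ≤ G) (j : ℕ) : sig M G (j + 1) ≤ 3 * (M * G ^ j) := by
  unfold sig
  rw [← Finset.mul_sum]
  have h1 := Nat.mul_le_mul_left M (sum_pow_le hG j)
  have h2 : 0 < M * G ^ j := Nat.mul_pos hM (by positivity)
  have h3 : M * (2 * G ^ j) = 2 * (M * G ^ j) := by ring
  omega

theorem le_sig {M G : ℕ} (j : ℕ) : 1 + M * G ^ j ≤ sig M G (j + 1) := by
  unfold sig
  rw [Finset.sum_range_succ]
  omega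

theorem yy_mod_prime {M G m a k : ℕ} (hk : k ∣ M) :
    ((k : ℕ) : ℤ) ∣ ((yy M G m a : ℕ) : ℤ) - 4 * 2 ^ a * 1 := by
  have h1 : k ∣ ∑ l ∈ Finset.range m, M * G ^ l :=
    Finset.dvd_sum fun l _ => Dvd.dvd.mul_right hk _
  obtain ⟨c, hc⟩ := h1
  refine ⟨4 * 2 ^ a * c, ?_⟩
  unfold yy sig
  rw [hc]
  push_cast
  ring

theorem yy_mod_grid {M G m a j : ℕ} (hj : j < m) :
    ((G ^ (j + 1) : ℕ) : ℤ) ∣ ((yy M G m a : ℕ) : ℤ) - 4 * 2 ^ a * ((sig M G (j + 1) : ℕ) : ℤ) := by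
  have h1 : sig M G m = sig M G (j + 1) + ∑ l ∈ Finset.Ico (j + 1) m, M * G ^ l := by
    unfold sig
    rw [add_assoc]
    simp only [Finset.range_eq_Ico]
    rw [Finset.sum_Ico_consecutive _ (Nat.zero_le _) (Nat.succ_le_of_lt hj)]
  have h2 : G ^ (j + 1) ∣ ∑ l ∈ Finset.Ico (j + 1) m, M * G ^ l :=
    Finset.dvd_sum fun l hl => Dvd.dvd.mul_left (pow_dvd_pow G (Finset.mem_Ico.1 hl).1) _
  obtain ⟨c, hc⟩ := h2
  refine ⟨4 * 2 ^ a * c, ?_⟩
  unfold yy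
  rw [h1, hc]
  push_cast
  ring

theorem carry {K Mp M G m T : ℕ} (hMp : 2 ^ (K + 10) ≤ Mp) {a b : ℕ} (ha : a < K) (hb : b < K)
    (hT : xx Mp M G m b ≤ T) :
    ∃ ε : ℤ, |ε| ≤ 1 ∧ (((T + xx Mp M G m a - xx Mp M G m b) / Mp : ℕ) : ℤ)
      = ((T / Mp : ℕ) : ℤ) + (yy M G m a : ℤ) - (yy M G m b : ℤ) + ε := by
  have hMp0 : 0 < Mp := lt_of_lt_of_le (by positivity) hMp
  have hp : ∀ i, i < K → 2 ^ i < Mp := fun i hi =>
    lt_of_lt_of_le (Nat.pow_lt_pow_right (by norm_num) (by omega)) hMp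
  have pa := hp a ha
  have pb := hp b hb
  have qa : 0 < 2 ^ a := by positivity
  have qb : 0 < 2 ^ b := by positivity
  obtain ⟨t', ht'⟩ : ∃ t', t' = T + xx Mp M G m a - xx Mp M G m b := ⟨_, rfl⟩
  rw [← ht']
  have h1 : t' + xx Mp M G m b = T + xx Mp M G m a := by omega
  have d1 := Nat.div_add_mod t' Mp
  have d2 := Nat.div_add_mod T Mp
  have m1 := Nat.mod_lt t' hMp0
  have m2 := Nat.mod_lt T hMp0
  refine ⟨((t' / Mp : ℕ) : ℤ) - ((T / Mp : ℕ) : ℤ) - (yy M G m a : ℤ) + (yy M G m b : ℤ), ?_, by ring⟩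
  unfold xx at h1
  set A := yy M G m a
  set B := yy M G m b
  set q1 := t' / Mp
  set q2 := T / Mp
  set r1 := t' % Mp
  set r2 := T % Mp
  have e1 : (Mp : ℤ) * ((q1 : ℤ) - q2 - A + B) = (r2 : ℤ) - r1 + 2 ^ a - 2 ^ b := by
    have h1' : ((t' : ℕ) : ℤ) + ((Mp : ℤ) * B + 2 ^ b) = T + (Mp * A + 2 ^ a) := by exact_mod_cast h1
    have d1' : (Mp : ℤ) * q1 + r1 = t' := by exact_mod_cast d1
    have d2' : (Mp : ℤ) * q2 + r2 = T := by exact_mod_cast d2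
    linarith
  have pa' : (2 : ℤ) ^ a < Mp := by exact_mod_cast pa
  have pb' : (2 : ℤ) ^ b < Mp := by exact_mod_cast pb
  have qa' : (0 : ℤ) < 2 ^ a := by positivity
  have qb' : (0 : ℤ) < 2 ^ b := by positivity
  have m1' : (r1 : ℤ) < Mp := by exact_mod_cast m1
  have m2' : (r2 : ℤ) < Mp := by exact_mod_cast m2
  have z1 : (0 : ℤ) ≤ r1 := by positivity
  have z2 : (0 : ℤ) ≤ r2 := by positivity
  have hM' : (0 : ℤ) < Mp := by exact_mod_cast hMp0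
  rw [abs_le]
  constructor
  · by_contra hc
    have : (q1 : ℤ) - q2 - A + B ≤ -2 := by omega
    nlinarith
  · by_contra hc
    have : 2 ≤ (q1 : ℤ) - q2 - A + B := by omega
    nlinarith

theorem hQ_aux {K M G j : ℕ} (hM : 0 < M) (hG : G = 2 ^ (K + 10) * M + 1) :
    (2 : ℤ) ^ (K + 4) * ((sig M G (j + 1) : ℕ) : ℤ) + 2 * ((M * G ^ j : ℕ) : ℤ) + 2
      < ((G ^ (j + 1) : ℕ) : ℤ) := by
  have hG2 : 2 ≤ G := by
    have : 0 < 2 ^ (K + 10) * M := by positivity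
    omega
  have h1 := sig_le hM hG2 j
  have h2 : 0 < M * G ^ j := Nat.mul_pos hM (by positivity)
  have h3 : 2 ^ (K + 4) * sig M G (j + 1) + 2 * (M * G ^ j) + 2 < G ^ (j + 1) := by
    have h4 : 2 ^ (K + 4) * sig M G (j + 1) ≤ 2 ^ (K + 4) * (3 * (M * G ^ j)) :=
      Nat.mul_le_mul_left _ h1
    have h5 : G ^ (j + 1) = 2 ^ (K + 10) * (M * G ^ j) + G ^ j := by
      rw [pow_succ]
      conv_lhs => rw [hG]
      conv_rhs => rw [hG]
      ring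
    have h6 : 2 ^ (K + 10) = 64 * 2 ^ (K + 4) := by rw [pow_add, pow_add]; ring
    have h7 : 16 ≤ 2 ^ (K + 4) := by
      rw [pow_add]
      have : 0 < 2 ^ K := by positivity
      omega
    rw [h5, h6]
    set Y := M * G ^ j
    set P := 2 ^ (K + 4)
    have h8 : 0 < G ^ j := by positivity
    have h9 : 64 * P * Y = 3 * (P * Y) + 61 * (P * Y) := by ring
    have h10 : P * (3 * Y) = 3 * (P * Y) := by ring
    have h11 : 16 * Y ≤ P * Y := Nat.mul_le_mul_right _ h7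
    omega
  exact_mod_cast h3

theorem spoil {K m r Mp M G : ℕ} {Ms : Finset ℕ} (hMp : 2 ^ (K + 10) ≤ Mp) (hM : 0 < M)
    (hG : G = 2 ^ (K + 10) * M + 1) (hMs : ∀ k ∈ Ms, 2 ^ (K + 10) < k ∧ k ∣ M)
    (hc : Ms.card ≤ r) {T : ℕ} (hT : ∀ b < K, xx Mp M G m b ≤ T) (P : ℕ × ℕ → Prop)
    [DecidablePred P]
    (hP : ∀ ab, P ab → ab.1 ≠ ab.2 ∧
      BadN M G m Ms ((T + xx Mp M G m ab.1 - xx Mp M G m ab.2) / Mp)) :
    ((Finset.range K ×ˢ Finset.range K).filter P).card ≤ r + m := by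
  classical
  have hcarry : ∀ a b, a < K → b < K → ∃ ε : ℤ, |ε| ≤ 1 ∧
      (fun a b => (((T + xx Mp M G m a - xx Mp M G m b) / Mp : ℕ) : ℤ)) a b
      = ((T / Mp : ℕ) : ℤ) + (fun a => (yy M G m a : ℤ)) a - (fun a => (yy M G m a : ℤ)) b + ε :=
    fun a b ha hb => carry hMp ha hb (hT b hb)
  let S1 : ℕ → Finset (ℕ × ℕ) := fun k => (Finset.range K ×ˢ Finset.range K).filter
    (fun ab => ab.1 ≠ ab.2 ∧ k ∣ (T + xx Mp M G m ab.1 - xx Mp M G m ab.2) / Mp)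
  let S2 : ℕ → Finset (ℕ × ℕ) := fun j => (Finset.range K ×ˢ Finset.range K).filter
    (fun ab => ab.1 ≠ ab.2 ∧
      (((T + xx Mp M G m ab.1 - xx Mp M G m ab.2) / Mp) % G ^ (j + 1) < M * G ^ j ∨
        G ^ (j + 1) < ((T + xx Mp M G m ab.1 - xx Mp M G m ab.2) / Mp) % G ^ (j + 1) + M * G ^ j))
  have hsub : (Finset.range K ×ˢ Finset.range K).filter P ⊆
      Ms.biUnion S1 ∪ (Finset.range m).biUnion S2 := by
    intro ab hab
    rw [Finset.mem_filter] at hab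
    obtain ⟨hne, hbad⟩ := hP ab hab.2
    rw [Finset.mem_union, Finset.mem_biUnion, Finset.mem_biUnion]
    rcases hbad with ⟨k, hk, hd⟩ | ⟨j, hj, hd⟩
    · exact Or.inl ⟨k, hk, Finset.mem_filter.2 ⟨hab.1, hne, hd⟩⟩
    · exact Or.inr ⟨j, Finset.mem_range.2 hj, Finset.mem_filter.2 ⟨hab.1, hne, hd⟩⟩
  have h1 : (Ms.biUnion S1).card ≤ r := by
    refine (Finset.card_biUnion_le_card_mul _ _ 1 ?_).trans (by omega)
    intro k hk
    rw [Finset.card_le_one]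
    rintro ⟨a, b⟩ h ⟨c, d⟩ h'
    rw [Finset.mem_filter, Finset.mem_product, Finset.mem_range, Finset.mem_range] at h h'
    have hk1 := (hMs k hk).1
    have hQ : (2 : ℤ) ^ (K + 4) * 1 + 2 * 0 + 2 < (k : ℤ) := by
      have h6 : 2 ^ (K + 10) = 64 * 2 ^ (K + 4) := by rw [pow_add, pow_add]; ring
      have h7 : 0 < 2 ^ (K + 4) := by positivity
      have h8 : 2 ^ (K + 4) * 1 + 2 * 0 + 2 < k := by omega
      exact_mod_cast h8
    have := atmost1 (K := K) (Q := (k : ℤ)) (w := 0) (σ := 1) (le_refl 0) (by norm_num) hQ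
      (fun a => yy_mod_prime (a := a) (hMs k hk).2) hcarry h.1.1 h.1.2 h'.1.1 h'.1.2 h.2.1
      ⟨0, by simp, by rw [add_zero]; exact Int.natCast_dvd_natCast.2 h.2.2⟩
      ⟨0, by simp, by rw [add_zero]; exact Int.natCast_dvd_natCast.2 h'.2.2⟩
    exact Prod.ext this.1 this.2
  have h2 : ((Finset.range m).biUnion S2).card ≤ m := by
    refine (Finset.card_biUnion_le_card_mul _ _ 1 ?_).trans (by simp)
    intro j hj
    have hj' := Finset.mem_range.1 hj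
    rw [Finset.card_le_one]
    rintro ⟨a, b⟩ h ⟨c, d⟩ h'
    rw [Finset.mem_filter, Finset.mem_product, Finset.mem_range, Finset.mem_range] at h h'
    have hGpos : 0 < G ^ (j + 1) := by rw [hG]; positivity
    have hit : ∀ n : ℕ, (n % G ^ (j + 1) < M * G ^ j ∨ G ^ (j + 1) < n % G ^ (j + 1) + M * G ^ j) →
        ∃ δ : ℤ, |δ| ≤ ((M * G ^ j : ℕ) : ℤ) ∧ ((G ^ (j + 1) : ℕ) : ℤ) ∣ (n : ℤ) + δ := by
      intro n hn
      have hdm := Nat.div_add_mod n (G ^ (j + 1))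
      have hml := Nat.mod_lt n hGpos
      set Q := G ^ (j + 1)
      set w := M * G ^ j
      rcases hn with hn | hn
      · refine ⟨-((n % Q : ℕ) : ℤ), ?_, ⟨((n / Q : ℕ) : ℤ), ?_⟩⟩
        · rw [abs_neg, abs_of_nonneg (by positivity)]
          exact_mod_cast hn.le
        · have : ((Q : ℕ) : ℤ) * ((n / Q : ℕ) : ℤ) + ((n % Q : ℕ) : ℤ) = n := by exact_mod_cast hdm
          linarith
      · refine ⟨((Q : ℕ) : ℤ) - ((n % Q : ℕ) : ℤ), ?_, ⟨((n / Q : ℕ) : ℤ) + 1, ?_⟩⟩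
        · have hml' : ((n % Q : ℕ) : ℤ) < Q := by exact_mod_cast hml
          have hn' : ((Q : ℕ) : ℤ) < ((n % Q : ℕ) : ℤ) + w := by exact_mod_cast hn
          rw [abs_of_nonneg (by linarith)]
          linarith
        · have : ((Q : ℕ) : ℤ) * ((n / Q : ℕ) : ℤ) + ((n % Q : ℕ) : ℤ) = n := by exact_mod_cast hdm
          linarith
    have hσ : ((M * G ^ j : ℕ) : ℤ) + 1 < 2 * ((sig M G (j + 1) : ℕ) : ℤ) := by
      have h3 := le_sig (M := M) (G := G) j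
      have h4 : M * G ^ j + 1 < 2 * sig M G (j + 1) := by omega
      exact_mod_cast h4
    have := atmost1 (K := K) (Q := ((G ^ (j + 1) : ℕ) : ℤ)) (w := ((M * G ^ j : ℕ) : ℤ))
      (σ := ((sig M G (j + 1) : ℕ) : ℤ)) (by positivity) hσ (hQ_aux hM hG)
      (fun a => yy_mod_grid (a := a) hj') hcarry h.1.1 h.1.2 h'.1.1 h'.1.2 h.2.1
      (hit _ h.2.2) (hit _ h'.2.2)
    exact Prod.ext this.1 this.2
  calc _ ≤ _ := Finset.card_le_card hsub
    _ ≤ _ := Finset.card_union_le _ _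
    _ ≤ r + m := Nat.add_le_add h1 h2

theorem golomb {K Mp M G m : ℕ} (hMp : 2 ^ (K + 10) ≤ Mp) {a b c d : ℕ} (ha : a < K) (hb : b < K)
    (hc : c < K) (hd : d < K) (hab : a ≠ b)
    (h : (xx Mp M G m a + xx Mp M G m d) % Mp = (xx Mp M G m c + xx Mp M G m b) % Mp) :
    a = c ∧ b = d := by
  have hp : ∀ i, i < K → 2 ^ i ≤ 2 ^ K := fun i hi => Nat.pow_le_pow_right (by norm_num) hi.le
  have hK : 2 ^ (K + 10) = 1024 * 2 ^ K := by rw [pow_add]; ring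
  have h0 : 0 < 2 ^ K := by positivity
  have e : ∀ i j, i < K → j < K → (xx Mp M G m i + xx Mp M G m j) % Mp = 2 ^ i + 2 ^ j := by
    intro i j hi hj
    unfold xx
    rw [show Mp * yy M G m i + 2 ^ i + (Mp * yy M G m j + 2 ^ j)
      = (2 ^ i + 2 ^ j) + Mp * (yy M G m i + yy M G m j) by ring, Nat.add_mul_mod_self_left]
    apply Nat.mod_eq_of_lt
    have := hp i hi
    have := hp j hj
    omega
  rw [e a d ha hd, e c b hc hb] at h
  exact pow2_inj (by rw [h]; ring) hab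

theorem badN_periodic {M G m : ℕ} {Ms : Finset ℕ} (hMs : ∀ k ∈ Ms, k ∣ M) (n : ℕ) :
    BadN M G m Ms (n + M * G ^ m) ↔ BadN M G m Ms n := by
  unfold BadN
  have h1 : ∀ k ∈ Ms, (k ∣ n + M * G ^ m ↔ k ∣ n) := fun k hk =>
    Nat.dvd_add_left (Dvd.dvd.mul_right (hMs k hk) _)
  have h2 : ∀ j < m, (n + M * G ^ m) % G ^ (j + 1) = n % G ^ (j + 1) := by
    intro j hj
    obtain ⟨c, hc⟩ : G ^ (j + 1) ∣ M * G ^ m := Dvd.dvd.mul_left (pow_dvd_pow G hj) _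
    rw [hc, Nat.add_mul_mod_self_left]
  constructor
  · rintro (⟨k, hk, hd⟩ | ⟨j, hj, hd⟩)
    · exact Or.inl ⟨k, hk, (h1 k hk).1 hd⟩
    · rw [h2 j hj] at hd; exact Or.inr ⟨j, hj, hd⟩
  · rintro (⟨k, hk, hd⟩ | ⟨j, hj, hd⟩)
    · exact Or.inl ⟨k, hk, (h1 k hk).2 hd⟩
    · rw [← h2 j hj] at hd; exact Or.inr ⟨j, hj, hd⟩

end Crest.Agent.R320.GridUG639
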