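import Mathlib
import Crest.Agent.R320.RandF_808
import Crest.Agent.R320.Names_755

/-!
# Row 320: scheme 1 with SEMANTIC legality (helper781)

Whole pieces `Y ∈ YY`; at level `i < m` the data `gd i Y` (product before hole `i`), `z i Y`
(product of hole `i`), `hd i Y` (product behind).  Clocks `cl`, `cr` with `cl P + cr Q = T (P ++ Q)`
for `P` on the comb.  Left / right legality quantify over all continuations, so soundness needs no
geometry; completeness needs, at one piece `Y`, that the data are locally determined.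
-/

set_option autoImplicit false

namespace Crest.Agent.R320.Sem1_781

open Finset

universe u

/-- the fixed finite data of scheme 1 -/
structure Dat (S V : Type) [Monoid S] [AddCommGroup V] where
  m : ℕ
  N : ℕ
  e : ℕ → S → ZMod N × ZMod N
  F : S → ZMod N × ZMod N → V
  act : V → S → V
  good : ∀ (s : S) (w : ZMod N × ZMod N) (v : V), ∃ i < m, ∀ g x h : S, g * x * h = s →
    ∀ z : S, F (g * z * h) (w - e i x + e i z) + act v (g * z * h) = F s w + act v s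

theorem exists_dat (S V : Type) [Monoid S] [Fintype S] [AddCommGroup V] [Fintype V]
    (act : V → S → V) : ∃ D : Dat S V, D.act = act ∧ 0 < D.N := by
  obtain ⟨m, N, e, F, hN, h⟩ := RandF808.exists_noise S V act
  exact ⟨⟨m, N, e, F, act, h⟩, rfl, hN⟩

variable {S V : Type} [Monoid S] [AddCommGroup V]

/-- contexts = names -/
@[ext] structure Ctx (D : Dat S V) where
  i : Fin D.m
  g : S
  wl : ZMod D.N × ZMod D.N
  h : S
  wr : ZMod D.N × ZMod D.N
  v : V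

theorem Ctx.finite (D : Dat S V) [Finite S] [Finite V] (hN : 0 < D.N) : Finite (Ctx D) := by
  have : NeZero D.N := ⟨by omega⟩
  let f : Ctx D → (Fin D.m × S × (ZMod D.N × ZMod D.N) × S × (ZMod D.N × ZMod D.N) × V) :=
    fun c => (c.i, c.g, c.wl, c.h, c.wr, c.v)
  refine Finite.of_injective f ?_
  intro a b hab
  simp only [f, Prod.mk.injEq] at hab
  obtain ⟨h1, h2, h3, h4, h5, h6⟩ := hab
  exact Ctx.ext h1 h2 h3 h4 h5 h6

/-- value of the line at `z` -/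
def Ctx.val {D : Dat S V} (c : Ctx D) (z : S) : V :=
  D.F (c.g * z * c.h) (c.wl + D.e c.i z + c.wr) + D.act c.v (c.g * z * c.h)

/-- right label -/
def Ctx.b {D : Dat S V} (c : Ctx D) : V := c.val 1

def Ctx.used {D : Dat S V} (c : Ctx D) : Prop := ∀ z, c.val z = c.b

/-- the colour of a name: (left label, right label) -/
def Ctx.col {D : Dat S V} (c : Ctx D) : V × V := (c.v, c.b)

/-- the names package (from `Names755.names`) -/
structure Nms (D : Dat S V) where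
  Ms : Finset ℕ
  M : ℕ
  nmL : ℕ → Option (Ctx D)
  nmR : ℕ → Option (Ctx D)
  Mpos : 0 < M
  perL : ∀ t, nmL (t + M) = nmL t
  perR : ∀ t, nmR (t + M) = nmR t
  eq_of_good : ∀ t t' c c', nmL t = some c → nmR t' = some c' → (∀ k ∈ Ms, ¬ k ∣ t + t') → c = c'
  compl : ∀ T, (∀ k ∈ Ms, ¬ k ∣ T) → ∀ c, ∃ t < M, nmL t = some c ∧
    ∀ t', t + t' ≡ T [MOD M] → nmR t' = some c
  colour : ∀ t₁ t₁' t₂ t₂' c₁ c₁' c₂ c₂', nmL t₁ = some c₁ → nmR t₁' = some c₁' →
    nmL t₂ = some c₂ → nmR t₂' = some c₂' → t₁ + t₁' = t₂ + t₂' →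
    (∃ k ∈ Ms, k ∣ t₁ + t₁') → c₁.col = c₂.col ∧ c₁'.col = c₂'.col

theorem exists_nms [Finite S] [Finite V] (D : Dat S V) (hN : 0 < D.N) :
    ∃ r : ℕ, ∀ B : ℕ, ∃ R : Nms D, R.Ms.card ≤ r ∧ ∀ k ∈ R.Ms, B < k ∧ Nat.Prime k ∧ k ∣ R.M := by
  have := Ctx.finite D hN
  obtain ⟨r, hr⟩ := Names755.names (Ctx D) (V × V) Ctx.col
  refine ⟨r, fun B => ?_⟩
  obtain ⟨Ms, M, nmL, nmR, h1, h2, h3, h4, h5, h6, h7, h8⟩ := hr B
  exact ⟨⟨Ms, M, nmL, nmR, h3, h4, h5, h6, h7, h8⟩, h1, h2⟩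

/-- the word side -/
structure Geo (α : Type u) (D : Dat S V) where
  YY : Set (List α)
  φ : List α → S
  z : ℕ → List α → S
  gd : ℕ → List α → S
  hd : ℕ → List α → S
  hfac : ∀ Y ∈ YY, ∀ i < D.m, gd i Y * z i Y * hd i Y = φ Y
  comb : List α → Prop
  win : List α → Prop
  cell : ℕ → List α → Prop
  hcell : ∀ i P, cell i P → win P
  cl : List α → ℕ
  cr : List α → ℕ
  T : List α → ℕ
  hT : ∀ P Q, comb P → cl P + cr Q = T (P ++ Q)

variable {α : Type u} {D : Dat S V}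

namespace Geo

variable (G : Geo α D) (R : Nms D)

def wl (i : ℕ) (Y : List α) : ZMod D.N × ZMod D.N := ∑ j ∈ range i, D.e j (G.z j Y)
def wr (i : ℕ) (Y : List α) : ZMod D.N × ZMod D.N := ∑ j ∈ Ico (i + 1) D.m, D.e j (G.z j Y)
def w (Y : List α) : ZMod D.N × ZMod D.N := ∑ j ∈ range D.m, D.e j (G.z j Y)

theorem w_split (Y : List α) {i : ℕ} (hi : i < D.m) :
    G.w Y = G.wl i Y + D.e i (G.z i Y) + G.wr i Y := by
  unfold w wl wr
  rw [← Finset.sum_range_succ, Finset.sum_range_add_sum_Ico _ (by omega)]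

/-- left-legal for the name `c` -/
def LP (c : Ctx D) : Set (List α) :=
  {P | c.used ∧ G.comb P ∧ G.cell c.i P ∧ R.nmL (G.cl P) = some c ∧
    ∀ Q, P ++ Q ∈ G.YY → G.gd c.i (P ++ Q) = c.g ∧ G.wl c.i (P ++ Q) = c.wl}

/-- right-legal for the name `c` -/
def RQ (c : Ctx D) : Set (List α) :=
  {Q | c.used ∧ R.nmR (G.cr Q) = some c ∧ (∀ P, G.comb P → G.win P → P ++ Q ∈ G.YY) ∧
    ∀ P, G.comb P → G.cell c.i P → G.hd c.i (P ++ Q) = c.h ∧ G.wr c.i (P ++ Q) = c.wr}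

/-- `T` good: no modulus divides it -/
def Tgood (Y : List α) : Prop := ∀ k ∈ R.Ms, ¬ k ∣ G.T Y

open Classical in
/-- the noise of scheme 1 -/
noncomputable def nu (Y : List α) : V :=
  if G.Tgood R Y then D.F (G.φ Y) (G.w Y)
  else if h : ∃ cc : Ctx D × Ctx D, ∃ P ∈ G.LP R cc.1, ∃ Q ∈ G.RQ R cc.2, P ++ Q = Y then
    h.choose.2.b - D.act h.choose.1.v (G.φ Y)
  else 0

/-- **Soundness of scheme 1**: any legal past, any legal future. -/
theorem sound {c c' : Ctx D} {P Q : List α} (hP : P ∈ G.LP R c) (hQ : Q ∈ G.RQ R c') :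
    P ++ Q ∈ G.YY ∧ c'.b = D.act c.v (G.φ (P ++ Q)) + G.nu R (P ++ Q) := by
  obtain ⟨hu, hco, hce, hnm, hdat⟩ := hP
  obtain ⟨hu', hnm', hwin, hdat'⟩ := hQ
  have hY : P ++ Q ∈ G.YY := hwin P hco (G.hcell _ _ hce)
  have hT := G.hT P Q hco
  refine ⟨hY, ?_⟩
  by_cases hg : G.Tgood R (P ++ Q)
  · have hcc : c = c' := R.eq_of_good _ _ _ _ hnm hnm' (by rw [hT]; exact hg)
    subst hcc
    obtain ⟨e1, e2⟩ := hdat Q hY
    obtain ⟨e3, e4⟩ := hdat' P hco hce
    have h1 := hu (G.z c.i (P ++ Q))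
    unfold Ctx.val at h1
    have e5 : c.g * G.z c.i (P ++ Q) * c.h = G.φ (P ++ Q) := by
      rw [← e1, ← e3]; exact G.hfac _ hY _ c.i.2
    have e6 : c.wl + D.e c.i (G.z c.i (P ++ Q)) + c.wr = G.w (P ++ Q) := by
      rw [← e2, ← e4]; exact (G.w_split _ c.i.2).symm
    rw [e5, e6] at h1
    unfold nu
    rw [if_pos hg, ← h1, add_comm]
  · unfold nu
    rw [if_neg hg]
    have hex : ∃ cc : Ctx D × Ctx D, ∃ P' ∈ G.LP R cc.1, ∃ Q' ∈ G.RQ R cc.2, P' ++ Q' = P ++ Q :=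
      ⟨(c, c'), P, ⟨hu, hco, hce, hnm, hdat⟩, Q, ⟨hu', hnm', hwin, hdat'⟩, rfl⟩
    rw [dif_pos hex]
    obtain ⟨P', hP', Q', hQ', he⟩ := hex.choose_spec
    have hT' := G.hT P' Q' hP'.2.1
    have hb : ∃ k ∈ R.Ms, k ∣ G.cl P + G.cr Q := by
      unfold Tgood at hg
      push Not at hg
      rw [hT]; exact hg
    have hcol := R.colour _ _ _ _ _ _ _ _ hnm hnm' hP'.2.2.2.1 hQ'.2.1
      (by rw [hT, hT', he]) hb
    have h1 : c.v = hex.choose.1.v := congrArg Prod.fst hcol.1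
    have h2 : c'.b = hex.choose.2.b := congrArg Prod.snd hcol.2
    rw [← h1, ← h2]
    abel

/-- a split of `Y` at which the data of level `i` are determined by the left part alone and by the
right part alone -/
def SplitOK (Y : List α) (i t : ℕ) : Prop :=
  ∃ P Q, P ++ Q = Y ∧ G.comb P ∧ G.cell i P ∧ G.cl P % R.M = t % R.M ∧
    (∀ Q', P ++ Q' ∈ G.YY → G.gd i (P ++ Q') = G.gd i Y ∧ G.wl i (P ++ Q') = G.wl i Y) ∧
    (∀ P', G.comb P' → G.win P' → P' ++ Q ∈ G.YY) ∧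
    (∀ P', G.comb P' → G.cell i P' → G.hd i (P' ++ Q) = G.hd i Y ∧ G.wr i (P' ++ Q) = G.wr i Y)

theorem nmL_mod (t : ℕ) : R.nmL t = R.nmL (t % R.M) := by
  have : ∀ k r, R.nmL (r + R.M * k) = R.nmL r := by
    intro k
    induction k with
    | zero => intro r; simp
    | succ k ih => intro r; rw [Nat.mul_succ, ← Nat.add_assoc, R.perL, ih]
  conv_lhs => rw [← Nat.mod_add_div t R.M]
  exact this _ _

/-- **Completeness of scheme 1** at a piece with good `T`. -/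
theorem complete {Y : List α} (hY : Y ∈ G.YY) (hg : G.Tgood R Y)
    (hs : ∀ i < D.m, ∀ t, G.SplitOK R Y i t) (v : V) :
    ∃ c : Ctx D, c.v = v ∧ ∃ P ∈ G.LP R c, ∃ Q ∈ G.RQ R c, P ++ Q = Y := by
  obtain ⟨i, hi, h⟩ := D.good (G.φ Y) (G.w Y) v
  let c : Ctx D := ⟨⟨i, hi⟩, G.gd i Y, G.wl i Y, G.hd i Y, G.wr i Y, v⟩
  have hu : c.used := by
    have h1 : ∀ z, c.val z = D.F (G.φ Y) (G.w Y) + D.act v (G.φ Y) := by
      intro z
      have h2 := h (G.gd i Y) (G.z i Y) (G.hd i Y) (G.hfac Y hY i hi) z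
      have h3 : G.w Y - D.e i (G.z i Y) + D.e i z = G.wl i Y + D.e i z + G.wr i Y := by
        rw [G.w_split Y hi]; abel
      rw [h3] at h2
      exact h2
    intro z
    unfold Ctx.b
    rw [h1, h1]
  obtain ⟨t, -, ht, ht'⟩ := R.compl (G.T Y) hg c
  obtain ⟨P, Q, rfl, hco, hce, hcl, hl, hw, hr⟩ := hs i hi t
  have hnm : R.nmL (G.cl P) = some c := by
    rw [nmL_mod, hcl, ← nmL_mod]; exact ht
  have hnm' : R.nmR (G.cr Q) = some c := by
    refine ht' _ ?_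
    have h1 : t ≡ G.cl P [MOD R.M] := hcl.symm
    calc t + G.cr Q ≡ G.cl P + G.cr Q [MOD R.M] := h1.add_right _
      _ = G.T (P ++ Q) := G.hT P Q hco
  exact ⟨c, rfl, P, ⟨hu, hco, hce, hnm, hl⟩, Q, ⟨hu, hnm', hw, hr⟩, rfl⟩

end Geo

end Crest.Agent.R320.Sem1_781
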