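import Mathlib
import Crest.Agent.R320.Sem1_781

/-!
# Row 320: scheme 1 on `b`-anchored nested grids (693's scheme, semantic legality of 781), helper706

`ZR` zones, `T` clock (`a m + Γ^m ≤ T R`).  Boundaries `bt i T = a i + (T - a i) % Γ^i`.
-/

set_option autoImplicit false

namespace Crest.Agent.R320.GridA_706

open Finset Crest.Agent.R320.Sem1_781

/-- lower ends of the boundary bands -/
def aa (M Γ : ℕ) : ℕ → ℕ
  | 0 => 1
  | i + 1 => aa M Γ i + Γ ^ i + M * Γ ^ i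

/-- boundary number `i` for the clock value `T` -/
def bt (M Γ i T : ℕ) : ℕ := aa M Γ i + (T - aa M Γ i) % Γ ^ i

theorem aa_mono {M Γ : ℕ} {i j : ℕ} (h : i ≤ j) : aa M Γ i ≤ aa M Γ j := by
  induction j with
  | zero => have : i = 0 := by omega
            subst this; exact le_rfl
  | succ j ih =>
    rcases Nat.lt_or_ge i (j + 1) with h1 | h1
    · have := ih (by omega)
      show _ ≤ aa M Γ j + Γ ^ j + M * Γ ^ j
      omega
    · have : i = j + 1 := by omega
      subst this; exact le_rfl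

theorem aa_pos (M Γ i : ℕ) : 1 ≤ aa M Γ i := aa_mono (i := 0) (Nat.zero_le i)

theorem bt_ge (M Γ i T : ℕ) : aa M Γ i ≤ bt M Γ i T := Nat.le_add_right _ _

theorem bt_lt {M Γ : ℕ} (hG : 0 < Γ) (i T : ℕ) : bt M Γ i T < aa M Γ i + Γ ^ i :=
  Nat.add_lt_add_left (Nat.mod_lt _ (pow_pos hG i)) _

theorem bt_mono {M Γ : ℕ} (hG : 0 < Γ) (T T' : ℕ) {i j : ℕ} (h : i < j) :
    bt M Γ i T ≤ bt M Γ j T' := by
  have h1 := bt_lt (M := M) hG i T
  have h2 : aa M Γ (i + 1) ≤ aa M Γ j := aa_mono h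
  have h3 : aa M Γ (i + 1) = aa M Γ i + Γ ^ i + M * Γ ^ i := rfl
  have h4 := bt_ge M Γ j T'
  omega

/-- the left side knows the boundaries up to its own level -/
theorem bt_left {M Γ : ℕ} {i k T T' : ℕ} (hik : i ≤ k) (h1 : aa M Γ i ≤ T)
    (h2 : aa M Γ i ≤ T') (h : T ≡ T' [MOD Γ ^ k]) : bt M Γ i T = bt M Γ i T' := by
  unfold bt
  congr 1
  have h3 : T ≡ T' [MOD Γ ^ i] := h.of_dvd (pow_dvd_pow Γ hik)
  have h4 : T - aa M Γ i ≡ T' - aa M Γ i [MOD Γ ^ i] := by
    have h5 : aa M Γ i + (T - aa M Γ i) ≡ aa M Γ i + (T' - aa M Γ i) [MOD Γ ^ i] := by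
      rw [Nat.add_sub_cancel' h1, Nat.add_sub_cancel' h2]; exact h3
    exact Nat.ModEq.add_left_cancel' _ h5
  exact h4

/-- `T` is outside the band at boundary `i + 1` -/
def Band (M Γ : ℕ) (i T : ℕ) : Prop :=
  M * Γ ^ i ≤ (T - aa M Γ (i + 1)) % Γ ^ (i + 1) ∧
    (T - aa M Γ (i + 1)) % Γ ^ (i + 1) + M * Γ ^ i ≤ Γ ^ (i + 1)

/-- the right side knows the higher boundaries, measured from the end -/
theorem bt_right {M Γ : ℕ} (hG : 0 < Γ) {i k T T' : ℕ} (hik : k ≤ i)
    (h1 : aa M Γ (i + 1) + Γ ^ (i + 1) ≤ T) (h2 : aa M Γ (i + 1) + Γ ^ (i + 1) ≤ T')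
    (hb : Band M Γ i T) (h3 : T < T' + M * Γ ^ k) (h4 : T' < T + M * Γ ^ k) :
    bt M Γ (i + 1) T + T' = bt M Γ (i + 1) T' + T := by
  have h5 : M * Γ ^ k ≤ M * Γ ^ i := Nat.mul_le_mul_left _ (Nat.pow_le_pow_right hG hik)
  unfold Band at hb
  unfold bt
  generalize aa M Γ (i + 1) = A at *
  generalize Γ ^ (i + 1) = G at *
  generalize M * Γ ^ i = D at *
  generalize M * Γ ^ k = D' at *
  obtain ⟨x, hx⟩ : ∃ x, T = A + x := ⟨T - A, by omega⟩
  obtain ⟨y, hy⟩ : ∃ y, T' = A + y := ⟨T' - A, by omega⟩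
  subst hx hy
  rw [Nat.add_sub_cancel_left] at hb ⊢
  rw [Nat.add_sub_cancel_left]
  have e1 := Nat.div_add_mod x G
  have e2 := Nat.div_add_mod y G
  have hGp : 0 < G := by
    rcases Nat.eq_zero_or_pos G with h | h
    · subst h
      have : D = 0 := by omega
      omega
    · exact h
  have l1 := Nat.mod_lt x hGp
  have l2 := Nat.mod_lt y hGp
  have hq : x / G = y / G := by
    rcases lt_trichotomy (x / G) (y / G) with h | h | h
    · have : G * (x / G) + G ≤ G * (y / G) := by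
        calc G * (x / G) + G = G * (x / G + 1) := by ring
          _ ≤ G * (y / G) := Nat.mul_le_mul_left _ h
      omega
    · exact h
    · have : G * (y / G) + G ≤ G * (x / G) := by
        calc G * (y / G) + G = G * (y / G + 1) := by ring
          _ ≤ G * (x / G) := Nat.mul_le_mul_left _ h
      omega
  rw [hq] at e1
  omega

section word

variable {α : Type}

def sg (R : List α) (x y : ℕ) : List α := (R.take y).drop x

theorem sg_left {P Q : List α} {x y : ℕ} (h : y ≤ P.length) : sg (P ++ Q) x y = sg P x y := by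
  unfold sg; rw [List.take_append_of_le_length h]

theorem sg_right {P Q : List α} {x y : ℕ} (h : P.length ≤ x) (hy : P.length ≤ y) :
    sg (P ++ Q) x y = sg Q (x - P.length) (y - P.length) := by
  unfold sg
  rw [List.take_append, List.take_of_length_le hy, List.drop_append,
    List.drop_eq_nil_of_le h, List.nil_append]

variable {S V : Type} [Monoid S] [AddCommGroup V] {D : Dat S V}

/-- scheme 1 on grids -/
structure Grid (α : Type) (D : Dat S V) where
  f : α → S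
  R : Nms D
  Γ : ℕ
  hG : 0 < Γ
  ZR : Set (List α)
  T : List α → ℕ
  hT : ∀ z ∈ ZR, aa R.M Γ D.m + Γ ^ D.m ≤ T z ∧ T z ≤ z.length
  hco : Nat.Coprime R.M Γ

namespace Grid

variable (G : Grid α D)

def ph (w : List α) : S := (w.map G.f).prod

theorem ph_append (u v : List α) : G.ph (u ++ v) = G.ph u * G.ph v := by simp [ph]

def b (i : ℕ) (z : List α) : ℕ := bt G.R.M G.Γ i (G.T z)
def zz (i : ℕ) (z : List α) : S := G.ph (sg z (G.b i z) (G.b (i + 1) z))
def gd (i : ℕ) (z : List α) : S := G.ph (z.take (G.b i z))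
def hd (i : ℕ) (z : List α) : S := G.ph (z.drop (G.b (i + 1) z))

def wl (i : ℕ) (z : List α) : ZMod D.N × ZMod D.N := ∑ j ∈ range i, D.e j (G.zz j z)
def wr (i : ℕ) (z : List α) : ZMod D.N × ZMod D.N := ∑ j ∈ Ico (i + 1) D.m, D.e j (G.zz j z)
def w (z : List α) : ZMod D.N × ZMod D.N := ∑ j ∈ range D.m, D.e j (G.zz j z)

theorem w_split (z : List α) {i : ℕ} (hi : i < D.m) :
    G.w z = G.wl i z + D.e i (G.zz i z) + G.wr i z := by
  unfold w wl wr
  rw [← Finset.sum_range_succ, Finset.sum_range_add_sum_Ico _ (by omega)]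

theorem hfac (z : List α) (i : ℕ) : G.gd i z * G.zz i z * G.hd i z = G.ph z := by
  unfold gd zz hd
  have h : G.b i z ≤ G.b (i + 1) z := bt_mono G.hG _ _ (Nat.lt_succ_self i)
  rw [← G.ph_append, ← G.ph_append]
  congr 1
  have h1 : z.take (G.b i z) ++ sg z (G.b i z) (G.b (i + 1) z) = z.take (G.b (i + 1) z) := by
    unfold sg
    conv_rhs => rw [← List.take_append_drop (G.b i z) (z.take (G.b (i + 1) z))]
    rw [List.take_take, min_eq_left h]
  rw [h1, List.take_append_drop]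

def cell (i : ℕ) (P : List α) : Prop :=
  aa G.R.M G.Γ i + G.Γ ^ i ≤ P.length ∧ P.length < aa G.R.M G.Γ (i + 1)

def win (P : List α) : Prop := P.length < aa G.R.M G.Γ D.m

theorem cell_win {i : ℕ} (hi : i < D.m) {P : List α} (h : G.cell i P) : G.win P :=
  lt_of_lt_of_le h.2 (aa_mono hi)

def LP (c : Ctx D) : Set (List α) :=
  {P | c.used ∧ G.cell c.i P ∧ G.R.nmL P.length = some c ∧
    ∀ Q, P ++ Q ∈ G.ZR → G.Γ ^ (c.i : ℕ) ∣ G.T (P ++ Q) - P.length →
      G.gd c.i (P ++ Q) = c.g ∧ G.wl c.i (P ++ Q) = c.wl}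

def RQ (c : Ctx D) : Set (List α) :=
  {Q | c.used ∧ (∀ P, G.win P → P ++ Q ∈ G.ZR ∧ G.R.nmR (G.T (P ++ Q) - P.length) = some c ∧
      G.Γ ^ (c.i : ℕ) ∣ G.T (P ++ Q) - P.length) ∧
    ∀ P, G.cell c.i P → G.hd c.i (P ++ Q) = c.h ∧ G.wr c.i (P ++ Q) = c.wr}

def Tgood (z : List α) : Prop := ∀ k ∈ G.R.Ms, ¬ k ∣ G.T z

open Classical in
noncomputable def nu (z : List α) : V :=
  if G.Tgood z then D.F (G.ph z) (G.w z)
  else if h : ∃ cc : Ctx D × Ctx D, ∃ P ∈ G.LP cc.1, ∃ Q ∈ G.RQ cc.2, P ++ Q = z then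
    h.choose.2.b - D.act h.choose.1.v (G.ph z)
  else 0

theorem cl_cr {P Q : List α} (hP : G.win P) (hz : P ++ Q ∈ G.ZR) :
    P.length + (G.T (P ++ Q) - P.length) = G.T (P ++ Q) := by
  have := (G.hT _ hz).1
  have h2 : P.length < aa G.R.M G.Γ D.m := hP
  omega

theorem sound {c c' : Ctx D} {P Q : List α} (hP : P ∈ G.LP c) (hQ : Q ∈ G.RQ c') :
    P ++ Q ∈ G.ZR ∧ c'.b = D.act c.v (G.ph (P ++ Q)) + G.nu (P ++ Q) := by
  obtain ⟨hu, hce, hnm, hdat⟩ := hP
  obtain ⟨hu', hwin, hdat'⟩ := hQ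
  have hwP : G.win P := G.cell_win c.i.2 hce
  obtain ⟨hY, hnm', hdv⟩ := hwin P hwP
  have hT := G.cl_cr hwP hY
  refine ⟨hY, ?_⟩
  by_cases hg : G.Tgood (P ++ Q)
  · have hcc : c = c' := G.R.eq_of_good _ _ _ _ hnm hnm' (by rw [hT]; exact hg)
    subst hcc
    obtain ⟨e1, e2⟩ := hdat Q hY hdv
    obtain ⟨e3, e4⟩ := hdat' P hce
    have h1 := hu (G.zz c.i (P ++ Q))
    unfold Ctx.val at h1
    have e5 : c.g * G.zz c.i (P ++ Q) * c.h = G.ph (P ++ Q) := by
      rw [← e1, ← e3]; exact G.hfac _ _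
    have e6 : c.wl + D.e c.i (G.zz c.i (P ++ Q)) + c.wr = G.w (P ++ Q) := by
      rw [← e2, ← e4]; exact (G.w_split _ c.i.2).symm
    rw [e5, e6] at h1
    unfold nu
    rw [if_pos hg, ← h1, add_comm]
  · unfold nu
    rw [if_neg hg]
    have hex : ∃ cc : Ctx D × Ctx D, ∃ P' ∈ G.LP cc.1, ∃ Q' ∈ G.RQ cc.2, P' ++ Q' = P ++ Q :=
      ⟨(c, c'), P, ⟨hu, hce, hnm, hdat⟩, Q, ⟨hu', hwin, hdat'⟩, rfl⟩
    rw [dif_pos hex]
    obtain ⟨P', hP', Q', hQ', he⟩ := hex.choose_spec
    have hwP' : G.win P' := G.cell_win (Fin.is_lt _) hP'.2.1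
    obtain ⟨hY', hnm2, -⟩ := hQ'.2.1 P' hwP'
    have hT' := G.cl_cr hwP' hY'
    have hb : ∃ k ∈ G.R.Ms, k ∣ P.length + (G.T (P ++ Q) - P.length) := by
      unfold Tgood at hg
      push Not at hg
      rw [hT]; exact hg
    have hcol := G.R.colour _ _ _ _ _ _ _ _ hnm hnm' hP'.2.2.1 hnm2
      (by rw [hT, hT', he]) hb
    have h1 : c.v = hex.choose.1.v := congrArg Prod.fst hcol.1
    have h2 : c'.b = hex.choose.2.b := congrArg Prod.snd hcol.2
    rw [← h1, ← h2]
    abel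

theorem nmL_mod (t : ℕ) : G.R.nmL t = G.R.nmL (t % G.R.M) := by
  have : ∀ k r, G.R.nmL (r + G.R.M * k) = G.R.nmL r := by
    intro k
    induction k with
    | zero => intro r; simp
    | succ k ih => intro r; rw [Nat.mul_succ, ← Nat.add_assoc, G.R.perL, ih]
  conv_lhs => rw [← Nat.mod_add_div t G.R.M]
  exact this _ _

/-- a cut place in cell `i` with prescribed residues -/
theorem exists_place (i t T : ℕ) : ∃ o, aa G.R.M G.Γ i + G.Γ ^ i ≤ o ∧
    o < aa G.R.M G.Γ (i + 1) ∧ o ≡ t [MOD G.R.M] ∧ o ≡ T [MOD G.Γ ^ i] := by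
  have hco : Nat.Coprime G.R.M (G.Γ ^ i) := G.hco.pow_right i
  obtain ⟨k, hk1, hk2⟩ := Nat.chineseRemainder hco t T
  set L := aa G.R.M G.Γ i + G.Γ ^ i with hL
  set p := G.R.M * G.Γ ^ i with hp
  have hpp : 0 < p := Nat.mul_pos G.R.Mpos (pow_pos G.hG i)
  have hpL : L ≤ p * L := Nat.le_mul_of_pos_left _ hpp
  have hlt := Nat.mod_lt (k + p * L - L) hpp
  have hmod : L + (k + p * L - L) % p ≡ k [MOD p] := by
    have h1 : L + (k + p * L - L) % p ≡ L + (k + p * L - L) [MOD p] :=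
      Nat.ModEq.add_left _ (Nat.mod_modEq _ _)
    have h2 : L + (k + p * L - L) = k + p * L := by omega
    rw [h2] at h1
    exact h1.trans (Nat.add_modulus_mul_modEq_iff.2 rfl)
  refine ⟨L + (k + p * L - L) % p, by omega, ?_, ?_, ?_⟩
  · show _ < aa G.R.M G.Γ i + G.Γ ^ i + G.R.M * G.Γ ^ i
    omega
  · exact (hmod.of_dvd (Dvd.intro _ rfl)).trans hk1
  · exact (hmod.of_dvd (Dvd.intro_left _ rfl)).trans hk2

/-- **Completeness of scheme 1.** -/
theorem complete {z : List α} (hz : z ∈ G.ZR) (hg : G.Tgood z)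
    (hshift : ∀ P Q P' : List α, P ++ Q = z → G.win P → G.win P' → P' ++ Q ∈ G.ZR ∧
      G.T (P' ++ Q) + P.length = G.T z + P'.length)
    (hband : ∀ i < D.m, Band G.R.M G.Γ i (G.T z)) (v : V) :
    ∃ c : Ctx D, c.v = v ∧ ∃ P ∈ G.LP c, ∃ Q ∈ G.RQ c, P ++ Q = z := by
  obtain ⟨i, hi, h⟩ := D.good (G.ph z) (G.w z) v
  let c : Ctx D := ⟨⟨i, hi⟩, G.gd i z, G.wl i z, G.hd i z, G.wr i z, v⟩
  have hu : c.used := by
    have h1 : ∀ x, c.val x = D.F (G.ph z) (G.w z) + D.act v (G.ph z) := by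
      intro x
      have h2 := h (G.gd i z) (G.zz i z) (G.hd i z) (G.hfac z i) x
      have h3 : G.w z - D.e i (G.zz i z) + D.e i x = G.wl i z + D.e i x + G.wr i z := by
        rw [G.w_split z hi]; abel
      rw [h3] at h2
      exact h2
    intro x
    unfold Ctx.b
    rw [h1, h1]
  obtain ⟨t, -, ht, ht'⟩ := G.R.compl (G.T z) hg c
  obtain ⟨o, ho1, ho2, ho3, ho4⟩ := G.exists_place i t (G.T z)
  have hTz := G.hT z hz
  have haim : aa G.R.M G.Γ (i + 1) ≤ aa G.R.M G.Γ D.m := aa_mono hi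
  have hoz : o ≤ z.length := by omega
  have hPl : (z.take o).length = o := by rw [List.length_take]; exact min_eq_left hoz
  have hce : G.cell i (z.take o) := by
    unfold cell; rw [hPl]; exact ⟨ho1, ho2⟩
  have hwP := G.cell_win hi hce
  have hPQ : z.take o ++ z.drop o = z := List.take_append_drop o z
  have hTo : o ≤ G.T z := by omega
  have hdv : G.Γ ^ i ∣ G.T z - o := (Nat.modEq_iff_dvd' hTo).1 ho4
  have hnm : G.R.nmL (z.take o).length = some c := by
    rw [hPl, nmL_mod, show o % G.R.M = t % G.R.M from ho3, ← nmL_mod]; exact ht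
  have hnm' : G.R.nmR (G.T z - o) = some c := by
    refine ht' _ ?_
    have h1 : t ≡ o [MOD G.R.M] := ho3.symm
    calc t + (G.T z - o) ≡ o + (G.T z - o) [MOD G.R.M] := h1.add_right _
      _ = G.T z := by omega
  refine ⟨c, rfl, z.take o, ⟨hu, hce, hnm, ?_⟩, z.drop o, ⟨hu, ?_, ?_⟩, hPQ⟩
  · intro Q hQ hd
    have hTQ := G.hT _ hQ
    have hmod : G.T (z.take o ++ Q) ≡ G.T z [MOD G.Γ ^ i] := by
      rw [hPl] at hd
      have h1 : o ≡ G.T (z.take o ++ Q) [MOD G.Γ ^ i] := (Nat.modEq_iff_dvd' (by omega)).2 hd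
      exact h1.symm.trans ho4
    have hb : ∀ j ≤ i, G.b j (z.take o ++ Q) = G.b j z := fun j hj => by
      have h2 : aa G.R.M G.Γ j ≤ aa G.R.M G.Γ D.m := aa_mono (by omega)
      exact bt_left hj (by omega) (by omega) hmod
    have hbo : ∀ j ≤ i, G.b j z ≤ o := fun j hj => by
      have h3 := bt_lt (M := G.R.M) G.hG j (G.T z)
      have h4 : aa G.R.M G.Γ j ≤ aa G.R.M G.Γ i := aa_mono hj
      have h5 : G.Γ ^ j ≤ G.Γ ^ i := Nat.pow_le_pow_right G.hG hj
      unfold b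
      omega
    constructor
    · show G.gd i (z.take o ++ Q) = G.gd i z
      unfold gd
      rw [hb i le_rfl, List.take_append_of_le_length (by rw [hPl]; exact hbo i le_rfl),
        List.take_take, min_eq_left (hbo i le_rfl)]
    · show G.wl i (z.take o ++ Q) = G.wl i z
      unfold wl
      refine Finset.sum_congr rfl fun j hj => ?_
      have hj' := Finset.mem_range.1 hj
      congr 1
      unfold zz
      rw [hb j (by omega), hb (j + 1) (by omega),
        sg_left (by rw [hPl]; exact hbo (j + 1) (by omega))]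
      unfold sg
      rw [List.take_take, min_eq_left (hbo (j + 1) (by omega))]
  · intro P hP
    obtain ⟨h1, h2⟩ := hshift _ _ P hPQ hwP hP
    rw [hPl] at h2
    have h3 := (G.hT _ h1).1
    have h3' : P.length < aa G.R.M G.Γ D.m := hP
    have e : G.T (P ++ z.drop o) - P.length = G.T z - o := by omega
    refine ⟨h1, ?_, ?_⟩
    · rw [e]; exact hnm'
    · show G.Γ ^ i ∣ _
      rw [e]; exact hdv
  · intro P hP
    obtain ⟨h1, h2⟩ := hshift _ _ P hPQ hwP (G.cell_win hi hP)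
    rw [hPl] at h2
    have h3 := (G.hT _ h1).1
    obtain ⟨hP1, hP2⟩ := hP
    change aa G.R.M G.Γ i + G.Γ ^ i ≤ P.length at hP1
    change P.length < aa G.R.M G.Γ (i + 1) at hP2
    have hcs : aa G.R.M G.Γ (i + 1) = aa G.R.M G.Γ i + G.Γ ^ i + G.R.M * G.Γ ^ i := rfl
    have hb : ∀ j, i ≤ j → j < D.m → G.b (j + 1) (P ++ z.drop o) + o = G.b (j + 1) z + P.length := by
      intro j hij hj
      have h6 : aa G.R.M G.Γ (j + 1) ≤ aa G.R.M G.Γ D.m := aa_mono hj
      have h7 : G.Γ ^ (j + 1) ≤ G.Γ ^ D.m := Nat.pow_le_pow_right G.hG hj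
      have h8 := bt_right (M := G.R.M) (T := G.T z) (T' := G.T (P ++ z.drop o)) G.hG
        (i := j) (k := i) hij (by omega) (by omega) (hband j hj) (by omega) (by omega)
      unfold b
      omega
    have hge : ∀ j, i ≤ j → P.length ≤ G.b (j + 1) (P ++ z.drop o) := by
      intro j hij
      have h6 : aa G.R.M G.Γ (i + 1) ≤ aa G.R.M G.Γ (j + 1) := aa_mono (by omega)
      have h7 := bt_ge G.R.M G.Γ (j + 1) (G.T (P ++ z.drop o))
      unfold b
      omega
    have hgz : ∀ j, i ≤ j → o ≤ G.b (j + 1) z := by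
      intro j hij
      have h6 : aa G.R.M G.Γ (i + 1) ≤ aa G.R.M G.Γ (j + 1) := aa_mono (by omega)
      have h7 := bt_ge G.R.M G.Γ (j + 1) (G.T z)
      unfold b
      omega
    constructor
    · show G.hd i (P ++ z.drop o) = G.hd i z
      unfold hd
      congr 1
      rw [List.drop_append, List.drop_eq_nil_of_le (hge i le_rfl), List.nil_append, List.drop_drop]
      congr 1
      have := hb i le_rfl hi
      have := hge i le_rfl
      have := hgz i le_rfl
      omega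
    · show G.wr i (P ++ z.drop o) = G.wr i z
      unfold wr
      refine Finset.sum_congr rfl fun j hj => ?_
      have hj' := Finset.mem_Ico.1 hj
      obtain ⟨j', rfl⟩ : ∃ j', j = j' + 1 := ⟨j - 1, by omega⟩
      congr 1
      unfold zz
      congr 1
      have a1 := hb j' (by omega) (by omega)
      have a2 := hb (j' + 1) (by omega) (by omega)
      have a3 := hge j' (by omega)
      have a4 := hge (j' + 1) (by omega)
      have a5 := hgz j' (by omega)
      have a6 := hgz (j' + 1) (by omega)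
      rw [sg_right a3 a4]
      have hz2 : sg z (G.b (j' + 1) z) (G.b (j' + 1 + 1) z) =
          sg (z.take o ++ z.drop o) (G.b (j' + 1) z) (G.b (j' + 1 + 1) z) := by rw [hPQ]
      rw [hz2, sg_right (by rw [hPl]; exact a5) (by rw [hPl]; exact a6), hPl]
      congr 1 <;> omega

end Grid

end word

end Crest.Agent.R320.GridA_706
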