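import Mathlib
import Crest.Agent.R320.Names_755
import Crest.Agent.R320.RandF_808

/-!
Row 320: scheme 1 without small walls (693 #13203): hole ends on nested grids anchored at the
right end, `G_j = Γ^(j+1)`, `β_j(T) = G_j + T % G_j`.  Pure words, all contents, all lengths.
-/

namespace Crest.Agent.R320.GridU_95

open Finset

/-! ### geometry -/

def bnd (Γ j T : ℕ) : ℕ := Γ ^ (j + 1) + T % Γ ^ (j + 1)

theorem bnd_ge (Γ j T : ℕ) : Γ ^ (j + 1) ≤ bnd Γ j T := Nat.le_add_right _ _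

theorem bnd_lt {Γ : ℕ} (h : 0 < Γ) (j T : ℕ) : bnd Γ j T < 2 * Γ ^ (j + 1) := by
  have := Nat.mod_lt T (Nat.pow_pos (n := j + 1) h)
  unfold bnd; omega

theorem bnd_step {Γ : ℕ} (h : 2 ≤ Γ) (j T : ℕ) : bnd Γ j T ≤ bnd Γ (j + 1) T := by
  have h1 := bnd_lt (by omega : 0 < Γ) j T
  have h2 := bnd_ge Γ (j + 1) T
  have h3 : 2 * Γ ^ (j + 1) ≤ Γ ^ (j + 1 + 1) := by
    rw [pow_succ Γ (j + 1), mul_comm]
    exact Nat.mul_le_mul_left _ h
  omega

theorem bnd_mono {Γ : ℕ} (h : 2 ≤ Γ) (T : ℕ) : Monotone (fun j => bnd Γ j T) :=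
  monotone_nat_of_le_succ fun j => bnd_step h j T

theorem bnd_congr {Γ j i T o : ℕ} (hij : j ≤ i) (h : T % Γ ^ (i + 1) = o % Γ ^ (i + 1)) :
    bnd Γ j T = bnd Γ j o := by
  unfold bnd
  have hd : Γ ^ (j + 1) ∣ Γ ^ (i + 1) := pow_dvd_pow _ (by omega)
  have h1 : T % Γ ^ (j + 1) = o % Γ ^ (j + 1) := by
    rw [← Nat.mod_mod_of_dvd T hd, h, Nat.mod_mod_of_dvd o hd]
  rw [h1]

def seg {α : Type*} (u : List α) (a b : ℕ) : List α := (u.take b).drop a

theorem seg_left {α : Type*} (P Q : List α) {a b : ℕ} (h : b ≤ P.length) :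
    seg (P ++ Q) a b = seg P a b := by
  unfold seg
  rw [List.take_append_of_le_length h]

theorem seg_right {α : Type*} (P Q : List α) {a b : ℕ} (h : P.length ≤ a) (hab : a ≤ b) :
    seg (P ++ Q) a b = seg Q (a - P.length) (b - P.length) := by
  unfold seg
  obtain ⟨a', rfl⟩ := Nat.exists_eq_add_of_le h
  obtain ⟨b', rfl⟩ := Nat.exists_eq_add_of_le (h.trans hab)
  rw [List.take_length_add_append, List.drop_length_add_append]
  simp

theorem phi_split {α : Type*} {S : Type} [Monoid S] (phi : List α → S)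
    (hphi : ∀ u v, phi (u ++ v) = phi u * phi v) (u : List α) {a b : ℕ} (hab : a ≤ b) :
    phi (u.take a) * phi (seg u a b) * phi (u.drop b) = phi u := by
  unfold seg
  have h1 : u.take a = (u.take b).take a := by rw [List.take_take, min_eq_left hab]
  rw [h1, ← hphi, List.take_append_drop, ← hphi, List.take_append_drop]

/-! ### the gadget -/

abbrev Nm (m : ℕ) (S W V : Type) := Fin m × (S × W) × (S × W) × (V × V)

section defs

variable {α : Type*} {S W V : Type} [Monoid S] [AddCommGroup W] [AddCommGroup V]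
variable (phi : List α → S) (act : V → S → V) (e : ℕ → S → W) (F : S → W → V) (Γ M m : ℕ)

/-- weight of the blocks `a ≤ j < b`, positions measured from `off` on. -/
def wsum (u : List α) (T off a b : ℕ) : W :=
  ∑ j ∈ Ico a b, e j (phi (seg u (bnd Γ j T - off) (bnd Γ (j + 1) T - off)))

def Good (c : Nm m S W V) : Prop :=
  ∀ z, F (c.2.1.1 * z * c.2.2.1.1) (c.2.1.2 + e c.1 z + c.2.2.1.2) +
    act c.2.2.2.1 (c.2.1.1 * z * c.2.2.1.1) = c.2.2.2.2

def Cell (i o : ℕ) : Prop := 2 * Γ ^ (i + 1) ≤ o ∧ o < (2 + M) * Γ ^ (i + 1)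

def LL (P : List α) (c : Nm m S W V) : Prop :=
  Good act e F m c ∧ Cell Γ M c.1 P.length ∧ phi (P.take (bnd Γ c.1 P.length)) = c.2.1.1 ∧
    wsum phi e Γ P P.length 0 0 c.1 = c.2.1.2

def RR (Q : List α) (c : Nm m S W V) : Prop :=
  Good act e F m c ∧ Γ ^ ((c.1 : ℕ) + 1) ∣ Q.length ∧
    ∀ o, Cell Γ M c.1 o →
      phi (Q.drop (bnd Γ ((c.1 : ℕ) + 1) (o + Q.length) - o)) = c.2.2.1.1 ∧
      wsum phi e Γ Q (o + Q.length) o ((c.1 : ℕ) + 1) m = c.2.2.1.2

variable {phi act e F Γ M m}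

theorem wsum_split (u : List α) (T : ℕ) (i : Fin m) :
    wsum phi e Γ u T 0 0 m = wsum phi e Γ u T 0 0 i +
      e i (phi (seg u (bnd Γ i T) (bnd Γ ((i : ℕ) + 1) T))) +
      wsum phi e Γ u T 0 ((i : ℕ) + 1) m := by
  unfold wsum
  rw [← Finset.sum_Ico_consecutive _ (Nat.zero_le (i : ℕ)) (le_of_lt i.2),
    Finset.sum_eq_sum_Ico_succ_bot i.2]
  simp [add_assoc]

/-- true left data -/
theorem wsum_left (h2 : 2 ≤ Γ) {P Q : List α} {i : ℕ} (ho : 2 * Γ ^ (i + 1) ≤ P.length)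
    (hQ : Γ ^ (i + 1) ∣ Q.length) :
    wsum phi e Γ (P ++ Q) (P ++ Q).length 0 0 i = wsum phi e Γ P P.length 0 0 i := by
  unfold wsum
  refine Finset.sum_congr rfl fun j hj => ?_
  rw [Finset.mem_Ico] at hj
  have hm : (P ++ Q).length % Γ ^ (i + 1) = P.length % Γ ^ (i + 1) := by
    rw [List.length_append]
    obtain ⟨k, hk⟩ := hQ
    rw [hk, Nat.add_mul_mod_self_left]
  rw [bnd_congr (by omega : j ≤ i) hm, bnd_congr (by omega : j + 1 ≤ i) hm, seg_left]
  have h3 := bnd_mono h2 P.length (by omega : j + 1 ≤ i)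
  have h4 := bnd_lt (by omega : 0 < Γ) i P.length
  simp only at h3
  omega

theorem wsum_right (h2 : 2 ≤ Γ) {P Q : List α} {i : ℕ} (hΓ : 2 + M ≤ Γ)
    (ho : P.length < (2 + M) * Γ ^ (i + 1)) (T : ℕ) :
    wsum phi e Γ (P ++ Q) T 0 (i + 1) m = wsum phi e Γ Q T P.length (i + 1) m := by
  unfold wsum
  refine Finset.sum_congr rfl fun j hj => ?_
  rw [Finset.mem_Ico] at hj
  have h1 : Γ ^ (i + 1 + 1) ≤ bnd Γ j T :=
    (Nat.pow_le_pow_right (by omega) (by omega)).trans (bnd_ge Γ j T)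
  have h3 : (2 + M) * Γ ^ (i + 1) ≤ Γ ^ (i + 1 + 1) := by
    rw [pow_succ Γ (i + 1), mul_comm]
    exact Nat.mul_le_mul_left _ hΓ
  rw [Nat.sub_zero, Nat.sub_zero, seg_right P Q (by omega) (bnd_step h2 j T)]

/-- **agreement**: legal on both sides with the same name. -/
theorem agree (hphi : ∀ u v, phi (u ++ v) = phi u * phi v) (hΓ : 2 + M ≤ Γ)
    {P Q : List α} {c : Nm m S W V} (hL : LL phi act e F Γ M m P c)
    (hR : RR phi act e F Γ M m Q c) :
    F (phi (P ++ Q)) (wsum phi e Γ (P ++ Q) (P ++ Q).length 0 0 m) +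
      act c.2.2.2.1 (phi (P ++ Q)) = c.2.2.2.2 := by
  obtain ⟨hG, ⟨ho1, ho2⟩, hg, hwl⟩ := hL
  obtain ⟨-, hd, hr⟩ := hR
  obtain ⟨hh, hwr⟩ := hr P.length ⟨ho1, ho2⟩
  have h2 : 2 ≤ Γ := by omega
  set i := c.1 with hi
  have hm : (P ++ Q).length % Γ ^ ((i : ℕ) + 1) = P.length % Γ ^ ((i : ℕ) + 1) := by
    rw [List.length_append]
    obtain ⟨k, hk⟩ := hd
    rw [hk, Nat.add_mul_mod_self_left]
  have hlen : (P ++ Q).length = P.length + Q.length := List.length_append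
  have hb1 : bnd Γ i (P ++ Q).length = bnd Γ i P.length := bnd_congr le_rfl hm
  have hb2 : bnd Γ i P.length ≤ P.length := by
    have := bnd_lt (by omega : 0 < Γ) i P.length
    omega
  have hb3 : P.length ≤ bnd Γ ((i : ℕ) + 1) (P ++ Q).length := by
    have h1 := bnd_ge Γ ((i : ℕ) + 1) (P ++ Q).length
    have h3 : (2 + M) * Γ ^ ((i : ℕ) + 1) ≤ Γ ^ ((i : ℕ) + 1 + 1) := by
      rw [pow_succ Γ ((i : ℕ) + 1), mul_comm]
      exact Nat.mul_le_mul_left _ hΓ
    omega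
  have hs := phi_split phi hphi (P ++ Q) (bnd_step h2 i (P ++ Q).length)
  have ht : (P ++ Q).take (bnd Γ i (P ++ Q).length) = P.take (bnd Γ i P.length) := by
    rw [hb1, List.take_append_of_le_length hb2]
  have hdr : (P ++ Q).drop (bnd Γ ((i : ℕ) + 1) (P ++ Q).length) =
      Q.drop (bnd Γ ((i : ℕ) + 1) (P.length + Q.length) - P.length) := by
    rw [List.drop_append, List.drop_eq_nil_of_le hb3, List.nil_append, hlen]
  have hw := wsum_split (phi := phi) (e := e) (Γ := Γ) (P ++ Q) (P ++ Q).length i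
  rw [wsum_left h2 ho1 hd, hwl, wsum_right h2 hΓ ho2, hlen, hwr] at hw
  rw [ht, hdr, hg, hh] at hs
  have := hG (phi (seg (P ++ Q) (bnd Γ i (P ++ Q).length) (bnd Γ ((i : ℕ) + 1) (P ++ Q).length)))
  rw [hs] at this
  rw [hlen, hw, ← hlen]
  exact this

end defs

section noise

variable {α : Type*} {S W V : Type} [Monoid S] [AddCommGroup W] [AddCommGroup V]
variable (phi : List α → S) (act : V → S → V) (e : ℕ → S → W) (F : S → W → V) (Γ M m : ℕ)
variable (nmL nmR : ℕ → Option (Nm m S W V)) (Ms : Finset ℕ)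

/-- left-legal with name `c` -/
def LN (P : List α) (c : Nm m S W V) : Prop := nmL P.length = some c ∧ LL phi act e F Γ M m P c

/-- right-legal with name `c` -/
def RN (Q : List α) (c : Nm m S W V) : Prop := nmR Q.length = some c ∧ RR phi act e F Γ M m Q c

open Classical in
/-- the noise of a zone -/
noncomputable def nu (u : List α) : V :=
  if (∃ k ∈ Ms, k ∣ u.length) then
    if h : ∃ x : (List α × List α) × (Nm m S W V × Nm m S W V), x.1.1 ++ x.1.2 = u ∧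
        LN phi act e F Γ M m nmL x.1.1 x.2.1 ∧ RN phi act e F Γ M m nmR x.1.2 x.2.2 then
      h.choose.2.2.2.2.2.2 - act h.choose.2.1.2.2.2.1 (phi u)
    else 0
  else F (phi u) (wsum phi e Γ u u.length 0 0 m)

variable {phi act e F Γ M m nmL nmR Ms}

theorem sound (hphi : ∀ u v, phi (u ++ v) = phi u * phi v) (hΓ : 2 + M ≤ Γ)
    (hn1 : ∀ t t' c c', nmL t = some c → nmR t' = some c' → (∀ k ∈ Ms, ¬ k ∣ t + t') → c = c')
    (hn3 : ∀ t₁ t₁' t₂ t₂' (c₁ c₁' c₂ c₂' : Nm m S W V), nmL t₁ = some c₁ → nmR t₁' = some c₁' →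
      nmL t₂ = some c₂ → nmR t₂' = some c₂' → t₁ + t₁' = t₂ + t₂' → (∃ k ∈ Ms, k ∣ t₁ + t₁') →
      c₁.2.2.2 = c₂.2.2.2 ∧ c₁'.2.2.2 = c₂'.2.2.2)
    {P Q : List α} {c c' : Nm m S W V} (hL : LN phi act e F Γ M m nmL P c)
    (hR : RN phi act e F Γ M m nmR Q c') :
    act c.2.2.2.1 (phi (P ++ Q)) + nu phi act e F Γ M m nmL nmR Ms (P ++ Q) = c'.2.2.2.2 := by
  classical
  unfold nu
  by_cases hb : ∃ k ∈ Ms, k ∣ (P ++ Q).length
  · rw [if_pos hb]
    have hex : ∃ x : (List α × List α) × (Nm m S W V × Nm m S W V), x.1.1 ++ x.1.2 = P ++ Q ∧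
        LN phi act e F Γ M m nmL x.1.1 x.2.1 ∧ RN phi act e F Γ M m nmR x.1.2 x.2.2 :=
      ⟨((P, Q), (c, c')), rfl, hL, hR⟩
    rw [dif_pos hex]
    have h := hex.choose_spec
    have hlen : hex.choose.1.1.length + hex.choose.1.2.length = P.length + Q.length := by
      rw [← List.length_append, h.1, List.length_append]
    rw [List.length_append] at hb
    have := hn3 _ _ _ _ _ _ _ _ hL.1 hR.1 h.2.1.1 h.2.2.1 hlen.symm hb
    rw [← this.1, ← this.2]
    abel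
  · rw [if_neg hb]
    push Not at hb
    rw [List.length_append] at hb
    have hc : c = c' := hn1 _ _ _ _ hL.1 hR.1 hb
    subst hc
    rw [add_comm]
    exact agree hphi hΓ hL.2 hR.2

theorem exists_shift (k s N : ℕ) (hN : 0 < N) : ∃ o, s ≤ o ∧ o < s + N ∧ o % N = k % N := by
  refine ⟨s + (k + s * (N - 1)) % N, by omega, ?_, ?_⟩
  · have := Nat.mod_lt (k + s * (N - 1)) hN
    omega
  · rw [Nat.add_mod, Nat.mod_mod, ← Nat.add_mod]
    have : s + (k + s * (N - 1)) = k + s * N := by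
      obtain ⟨n, rfl⟩ := Nat.exists_eq_succ_of_ne_zero hN.ne'
      simp only [Nat.succ_eq_add_one, Nat.add_sub_cancel]
      ring
    rw [this, Nat.add_mul_mod_self_right]

/-- the boundaries seen from the right do not depend on the candidate clock `o'`. -/
theorem bnd_doubt {i j T o o' L : ℕ} (hij : i ≤ j) (hT : T = o + L)
    (ho : 2 * Γ ^ (i + 1) ≤ o ∧ o < (2 + M) * Γ ^ (i + 1))
    (ho' : 2 * Γ ^ (i + 1) ≤ o' ∧ o' < (2 + M) * Γ ^ (i + 1)) (hΓ : 2 + M ≤ Γ)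
    (hg : M * Γ ^ (j + 1) ≤ T % Γ ^ (j + 2) ∧ T % Γ ^ (j + 2) + M * Γ ^ (j + 1) < Γ ^ (j + 2)) :
    bnd Γ (j + 1) (o' + L) - o' = bnd Γ (j + 1) T - o := by
  have h1 : M * Γ ^ (i + 1) ≤ M * Γ ^ (j + 1) :=
    Nat.mul_le_mul_left _ (Nat.pow_le_pow_right (by omega) (by omega))
  have h3 : (2 + M) * Γ ^ (i + 1) ≤ Γ ^ (j + 2) := by
    have h4 : (2 + M) * Γ ^ (i + 1) ≤ Γ ^ (i + 1 + 1) := by
      rw [pow_succ Γ (i + 1), mul_comm]
      exact Nat.mul_le_mul_left _ hΓ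
    exact h4.trans (Nat.pow_le_pow_right (by omega) (by omega))
  have h5 : (2 + M) * Γ ^ (i + 1) = 2 * Γ ^ (i + 1) + M * Γ ^ (i + 1) := by ring
  have hq : Γ ^ (j + 2) * (T / Γ ^ (j + 2)) + T % Γ ^ (j + 2) = T := Nat.div_add_mod _ _
  unfold bnd
  have e2 : j + 1 + 1 = j + 2 := rfl
  rw [e2]
  set G := Γ ^ (j + 2) with hG
  set q := G * (T / G) with hqd
  have h6 : (o' + L) % G = T % G + o' - o := by
    have h7 : o' + L = q + (T % G + o' - o) := by omega
    rw [h7, hqd, Nat.mul_add_mod, Nat.mod_eq_of_lt (by omega)]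
  rw [h6]
  omega

theorem complete [Finite V] (hphi : ∀ u v, phi (u ++ v) = phi u * phi v) (hΓ : 2 + M ≤ Γ)
    (hM : 0 < M) (hcop : Nat.Coprime M Γ)
    (hF : ∀ (s : S) (w : W) (v : V), ∃ i < m, ∀ g x h : S, g * x * h = s → ∀ z : S,
        F (g * z * h) (w - e i x + e i z) + act v (g * z * h) = F s w + act v s)
    (hLp : ∀ t, nmL (t + M) = nmL t)
    (hn2 : ∀ T, (∀ k ∈ Ms, ¬ k ∣ T) → ∀ c, ∃ t < M, nmL t = some c ∧
        ∀ t', t + t' ≡ T [MOD M] → nmR t' = some c)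
    (u : List α) (hlong : Γ ^ (m + 1) ≤ u.length) (hgood : ∀ k ∈ Ms, ¬ k ∣ u.length)
    (hgrid : ∀ j < m, M * Γ ^ (j + 1) ≤ u.length % Γ ^ (j + 2) ∧
      u.length % Γ ^ (j + 2) + M * Γ ^ (j + 1) < Γ ^ (j + 2)) (v : V) :
    ∃ P Q c, P ++ Q = u ∧ P.length < Γ ^ (m + 1) ∧ LN phi act e F Γ M m nmL P c ∧
      RN phi act e F Γ M m nmR Q c ∧ c.2.2.2.1 = v := by
  classical
  have h2 : 2 ≤ Γ := by omega
  set T := u.length with hT
  set w := wsum phi e Γ u T 0 0 m with hw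
  obtain ⟨i, hi, hFi⟩ := hF (phi u) w v
  set ii : Fin m := ⟨i, hi⟩ with hii
  set g := phi (u.take (bnd Γ i T)) with hg
  set x := phi (seg u (bnd Γ i T) (bnd Γ (i + 1) T)) with hx
  set h := phi (u.drop (bnd Γ (i + 1) T)) with hh
  set wl := wsum phi e Γ u T 0 0 i with hwl
  set wr := wsum phi e Γ u T 0 (i + 1) m with hwr
  set b := F (phi u) w + act v (phi u) with hb
  have hs : g * x * h = phi u := phi_split phi hphi u (bnd_step h2 i T)
  have hwe : w = wl + e i x + wr := wsum_split u T ii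
  let c : Nm m S W V := (ii, (g, wl), (h, wr), (v, b))
  have hgc : Good act e F m c := by
    intro z
    have := hFi g x h hs z
    have e1 : w - e i x + e i z = wl + e i z + wr := by rw [hwe]; abel
    rw [e1] at this
    exact this
  obtain ⟨t, htM, htL, htR⟩ := hn2 T hgood c
  have hcop' : Nat.Coprime M (Γ ^ (i + 1)) := hcop.pow_right _
  have hGpos : 0 < Γ ^ (i + 1) := Nat.pow_pos (by omega)
  obtain ⟨k, hk⟩ := Nat.chineseRemainder hcop' t T
  obtain ⟨o, ho1, ho2, ho3⟩ := exists_shift k (2 * Γ ^ (i + 1)) (M * Γ ^ (i + 1))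
    (Nat.mul_pos hM hGpos)
  have hoM : o % M = t % M := by
    rw [← Nat.mod_mod_of_dvd o (Dvd.intro _ rfl : M ∣ M * Γ ^ (i + 1)), ho3,
      Nat.mod_mod_of_dvd k (Dvd.intro _ rfl)]
    exact hk.1
  have hoG : o % Γ ^ (i + 1) = T % Γ ^ (i + 1) := by
    rw [← Nat.mod_mod_of_dvd o (Dvd.intro_left _ rfl : Γ ^ (i + 1) ∣ M * Γ ^ (i + 1)), ho3,
      Nat.mod_mod_of_dvd k (Dvd.intro_left _ rfl)]
    exact hk.2
  have h5 : (2 + M) * Γ ^ (i + 1) = 2 * Γ ^ (i + 1) + M * Γ ^ (i + 1) := by ring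
  have hcell : 2 * Γ ^ (i + 1) ≤ o ∧ o < (2 + M) * Γ ^ (i + 1) := ⟨ho1, by omega⟩
  have hoT : o < Γ ^ (m + 1) := by
    have h4 : (2 + M) * Γ ^ (i + 1) ≤ Γ ^ (i + 1 + 1) := by
      rw [pow_succ Γ (i + 1), mul_comm]
      exact Nat.mul_le_mul_left _ hΓ
    have h6 : Γ ^ (i + 1 + 1) ≤ Γ ^ (m + 1) := Nat.pow_le_pow_right (by omega) (by omega)
    omega
  have hoT' : o ≤ T := by omega
  have hPl : (u.take o).length = o := by rw [List.length_take]; omega
  have hQl : (u.drop o).length = T - o := by rw [List.length_drop]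
  have hPQ : u.take o ++ u.drop o = u := List.take_append_drop o u
  have hdvd : Γ ^ (i + 1) ∣ T - o := (Nat.modEq_iff_dvd' hoT').mp hoG
  have hdvd' : Γ ^ (i + 1) ∣ (u.drop o).length := by rw [hQl]; exact hdvd
  have hbeq : ∀ j, j ≤ i → bnd Γ j T = bnd Γ j o := fun j hj => bnd_congr hj hoG.symm
  have hLper : nmL o = nmL t := by
    have hp : Function.Periodic nmL M := hLp
    rw [← hp.map_mod_nat o, ← hp.map_mod_nat t, hoM]
  refine ⟨u.take o, u.drop o, c, hPQ, by rw [hPl]; exact hoT, ⟨?_, hgc, ?_, ?_, ?_⟩,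
    ⟨?_, hgc, hdvd', ?_⟩, rfl⟩
  · rw [hPl, hLper]; exact htL
  · show Cell Γ M i (u.take o).length
    rw [hPl]; exact hcell
  · show phi ((u.take o).take (bnd Γ i (u.take o).length)) = g
    rw [hPl, List.take_take, min_eq_left, hg, hbeq i le_rfl]
    have := bnd_lt (by omega : 0 < Γ) i o
    omega
  · show wsum phi e Γ (u.take o) (u.take o).length 0 0 i = wl
    have := wsum_left (phi := phi) (e := e) h2 (P := u.take o) (Q := u.drop o) (i := i)
      (by rw [hPl]; exact ho1) hdvd'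
    rw [hPQ] at this
    rw [← this]
  · apply htR
    rw [hQl]
    have h7 : t + (T - o) ≡ o + (T - o) [MOD M] := Nat.ModEq.add_right _ hoM.symm
    rw [Nat.add_sub_cancel' hoT'] at h7
    exact h7
  · intro o' ho'
    have hTe : T = o + (T - o) := by omega
    have hd : ∀ j, i ≤ j → j < m →
        bnd Γ (j + 1) (o' + (T - o)) - o' = bnd Γ (j + 1) T - o := fun j hj hjm =>
      bnd_doubt hj hTe hcell ho' hΓ (hgrid j hjm)
    have hge : ∀ j, i + 1 ≤ j → o ≤ bnd Γ j T := by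
      intro j hj
      have h4 : (2 + M) * Γ ^ (i + 1) ≤ Γ ^ (i + 1 + 1) := by
        rw [pow_succ Γ (i + 1), mul_comm]
        exact Nat.mul_le_mul_left _ hΓ
      have h6 : Γ ^ (i + 1 + 1) ≤ Γ ^ (j + 1) := Nat.pow_le_pow_right (by omega) (by omega)
      have h8 := bnd_ge Γ j T
      omega
    refine ⟨?_, ?_⟩
    · show phi ((u.drop o).drop (bnd Γ (i + 1) (o' + (u.drop o).length) - o')) = h
      rw [hQl, hd i le_rfl hi, List.drop_drop, hh]
      congr 2
      have := hge (i + 1) le_rfl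
      omega
    · show wsum phi e Γ (u.drop o) (o' + (u.drop o).length) o' (i + 1) m = wr
      rw [hQl, hwr]
      unfold wsum
      refine Finset.sum_congr rfl fun j hj => ?_
      rw [Finset.mem_Ico] at hj
      obtain ⟨j', rfl⟩ : ∃ j', j = j' + 1 := ⟨j - 1, by omega⟩
      rw [hd j' (by omega) (by omega), hd (j' + 1) (by omega) (by omega), Nat.sub_zero,
        Nat.sub_zero]
      have := seg_right (u.take o) (u.drop o) (a := bnd Γ (j' + 1) T) (b := bnd Γ (j' + 1 + 1) T)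
        (by rw [hPl]; exact hge _ (by omega)) (bnd_step h2 _ T)
      rw [hPQ, hPl] at this
      rw [this]

end noise

end Crest.Agent.R320.GridU_95
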