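import Mathlib
import Crest.Agent.R320.GridU_95

/-!
Row 320: the grid gadget (693 #13203) in closed form (446 #13873).
-/

namespace Crest.Agent.R320.GridC_95

open Finset Crest.Agent.R320.GridU_95

universe u

/-! ### the right data depend on little -/

section sim

variable {α : Type*} {S W V : Type} [Monoid S] [AddCommGroup W] [AddCommGroup V]

def Sim (phi : List α → S) (a Md : ℕ) (Q Q' : List α) : Prop :=
  a ≤ Q.length ∧ a ≤ Q'.length ∧ Q.take a = Q'.take a ∧ phi (Q.drop a) = phi (Q'.drop a) ∧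
    Q.length % Md = Q'.length % Md

variable {phi : List α → S} {act : V → S → V} {e : ℕ → S → W} {F : S → W → V} {Γ M m : ℕ}

theorem Sim.symm {a Md : ℕ} {Q Q' : List α} (h : Sim phi a Md Q Q') : Sim phi a Md Q' Q :=
  ⟨h.2.1, h.1, h.2.2.1.symm, h.2.2.2.1.symm, h.2.2.2.2.symm⟩

theorem Sim.drop (hphi : ∀ u v, phi (u ++ v) = phi u * phi v) {a Md : ℕ} {Q Q' : List α}
    (h : Sim phi a Md Q Q') {x : ℕ} (hx : x ≤ a) : phi (Q.drop x) = phi (Q'.drop x) := by
  have h1 : ∀ R : List α, phi (R.drop x) = phi ((R.take a).drop x) * phi (R.drop a) := by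
    intro R
    rw [← hphi]
    congr 1
    have h2 : R = R.take a ++ R.drop a := (List.take_append_drop a R).symm
    by_cases hR : a ≤ R.length
    · conv_lhs => rw [h2]
      rw [List.drop_append_of_le_length (by rw [List.length_take]; omega)]
    · have h3 : R.drop a = [] := List.drop_eq_nil_of_le (by omega)
      have h4 : R.take a = R := List.take_of_length_le (by omega)
      rw [h3, h4, List.append_nil]
  rw [h1 Q, h1 Q', h.2.2.1, h.2.2.2.1]

theorem Sim.seg {a Md : ℕ} {Q Q' : List α} (h : Sim phi a Md Q Q') {x y : ℕ} (hy : y ≤ a) :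
    seg Q x y = seg Q' x y := by
  unfold GridU_95.seg
  have h1 : ∀ R : List α, R.take y = (R.take a).take y := by
    intro R; rw [List.take_take, min_eq_left hy]
  rw [h1 Q, h1 Q', h.2.2.1]

theorem bnd_per {Md j t t' : ℕ} (hd : Γ ^ (j + 1) ∣ Md) (h : t % Md = t' % Md) :
    bnd Γ j t = bnd Γ j t' := by
  unfold bnd
  rw [← Nat.mod_mod_of_dvd t hd, h, Nat.mod_mod_of_dvd t' hd]

theorem add_mod_congr {Md o t t' : ℕ} (h : t % Md = t' % Md) : (o + t) % Md = (o + t') % Md := by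
  rw [Nat.add_mod, h, ← Nat.add_mod]

theorem RR_sim (hphi : ∀ u v, phi (u ++ v) = phi u * phi v) (hΓ : 0 < Γ) {a Md : ℕ}
    (ha : 2 * Γ ^ (m + 1) ≤ a) (hMd : Γ ^ (m + 1) ∣ Md) {Q Q' : List α}
    (h : Sim phi a Md Q Q') {c : Nm m S W V} (hR : RR phi act e F Γ M m Q c) :
    RR phi act e F Γ M m Q' c := by
  obtain ⟨h1, h2, h3⟩ := hR
  have hi := c.1.2
  have hpw : ∀ j, j ≤ m → Γ ^ (j + 1) ∣ Md := fun j hj => (pow_dvd_pow Γ (by omega)).trans hMd
  have hpl : ∀ j, j ≤ m → Γ ^ (j + 1) ≤ Γ ^ (m + 1) := fun j hj =>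
    Nat.pow_le_pow_right hΓ (by omega)
  refine ⟨h1, ?_, ?_⟩
  · have h4 := hpw c.1 (le_of_lt hi)
    rw [Nat.dvd_iff_mod_eq_zero] at h2 ⊢
    rw [← Nat.mod_mod_of_dvd _ h4, ← h.2.2.2.2, Nat.mod_mod_of_dvd _ h4, h2]
  · intro o ho
    obtain ⟨h5, h6⟩ := h3 o ho
    have hb : ∀ j, j ≤ m → bnd Γ j (o + Q'.length) = bnd Γ j (o + Q.length) := fun j hj =>
      bnd_per (hpw j hj) (add_mod_congr h.2.2.2.2.symm)
    have hle : ∀ j, j ≤ m → bnd Γ j (o + Q.length) - o ≤ a := by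
      intro j hj
      have := bnd_lt hΓ j (o + Q.length)
      have := hpl j hj
      omega
    refine ⟨?_, ?_⟩
    · rw [hb _ (by omega), ← h.drop hphi (hle _ (by omega)), h5]
    · rw [← h6]
      unfold wsum
      refine Finset.sum_congr rfl fun j hj => ?_
      rw [Finset.mem_Ico] at hj
      rw [hb j (by omega), hb (j + 1) (by omega), h.seg (hle (j + 1) (by omega))]

variable {nmL nmR : ℕ → Option (Nm m S W V)} {Ms : Finset ℕ}

theorem RN_sim (hphi : ∀ u v, phi (u ++ v) = phi u * phi v) (hΓ : 0 < Γ) {a Md : ℕ}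
    (ha : 2 * Γ ^ (m + 1) ≤ a) (hMd : Γ ^ (m + 1) ∣ Md) (hMM : M ∣ Md)
    (hRp : ∀ t, nmR (t + M) = nmR t) {Q Q' : List α}
    (h : Sim phi a Md Q Q') {c : Nm m S W V} (hR : RN phi act e F Γ M m nmR Q c) :
    RN phi act e F Γ M m nmR Q' c := by
  refine ⟨?_, RR_sim hphi hΓ ha hMd h hR.2⟩
  rw [← hR.1]
  have hp : Function.Periodic nmR M := hRp
  rw [← hp.map_mod_nat Q'.length, ← hp.map_mod_nat Q.length, ← Nat.mod_mod_of_dvd Q'.length hMM,
    ← h.2.2.2.2, Nat.mod_mod_of_dvd _ hMM]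

open Classical in
theorem nu_sim (hphi : ∀ u v, phi (u ++ v) = phi u * phi v) (hΓ : 2 + M ≤ Γ) {a Md : ℕ}
    (ha : 3 * Γ ^ (m + 1) ≤ a) (hMd : Γ ^ (m + 1) ∣ Md) (hMM : M ∣ Md)
    (hk : ∀ k ∈ Ms, k ∣ M)
    (hRp : ∀ t, nmR (t + M) = nmR t)
    (hn3 : ∀ t₁ t₁' t₂ t₂' (c₁ c₁' c₂ c₂' : Nm m S W V), nmL t₁ = some c₁ → nmR t₁' = some c₁' →
      nmL t₂ = some c₂ → nmR t₂' = some c₂' → t₁ + t₁' = t₂ + t₂' → (∃ k ∈ Ms, k ∣ t₁ + t₁') →
      c₁.2.2.2 = c₂.2.2.2 ∧ c₁'.2.2.2 = c₂'.2.2.2)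
    {u u' : List α} (h : Sim phi a Md u u') :
    nu phi act e F Γ M m nmL nmR Ms u = nu phi act e F Γ M m nmL nmR Ms u' := by
  have hΓ0 : 0 < Γ := by omega
  have hphu : phi u = phi u' := by
    have := h.drop hphi (Nat.zero_le a)
    simpa using this
  have hkd : ∀ k ∈ Ms, (k ∣ u.length ↔ k ∣ u'.length) := by
    intro k hkm
    have h1 := (hk k hkm).trans hMM
    rw [Nat.dvd_iff_mod_eq_zero, Nat.dvd_iff_mod_eq_zero, ← Nat.mod_mod_of_dvd u.length h1,
      h.2.2.2.2, Nat.mod_mod_of_dvd _ h1]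
  have hiff : (∃ k ∈ Ms, k ∣ u.length) ↔ (∃ k ∈ Ms, k ∣ u'.length) :=
    ⟨fun ⟨k, h1, h2⟩ => ⟨k, h1, (hkd k h1).1 h2⟩, fun ⟨k, h1, h2⟩ => ⟨k, h1, (hkd k h1).2 h2⟩⟩
  -- transfer of legal splits
  have tr : ∀ w w' : List α, Sim phi a Md w w' → ∀ P Q (c c' : Nm m S W V), P ++ Q = w →
      LN phi act e F Γ M m nmL P c → RN phi act e F Γ M m nmR Q c' →
      ∃ Q', P ++ Q' = w' ∧ RN phi act e F Γ M m nmR Q' c' := by
    intro w w' hw P Q c c' hPQ hL hR
    have hP : P.length < Γ ^ (m + 1) := by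
      have h1 := hL.2.2.1.2
      have h4 : (2 + M) * Γ ^ ((c.1 : ℕ) + 1) ≤ Γ ^ ((c.1 : ℕ) + 1 + 1) := by
        rw [pow_succ Γ ((c.1 : ℕ) + 1), mul_comm]
        exact Nat.mul_le_mul_left _ hΓ
      have h6 : Γ ^ ((c.1 : ℕ) + 1 + 1) ≤ Γ ^ (m + 1) :=
        Nat.pow_le_pow_right hΓ0 (by have := c.1.2; omega)
      omega
    have hPt : P = w.take P.length := by rw [← hPQ]; simp
    have hQd : Q = w.drop P.length := by rw [← hPQ]; simp
    have hPt' : P = w'.take P.length := by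
      have h1 : w'.take P.length = (w'.take a).take P.length := by
        rw [List.take_take, min_eq_left (by omega)]
      have h2 : w.take P.length = (w.take a).take P.length := by
        rw [List.take_take, min_eq_left (by omega)]
      rw [h1, ← hw.2.2.1, ← h2, ← hPt]
    refine ⟨w'.drop P.length, ?_, ?_⟩
    · conv_lhs => rw [hPt']
      have : (w'.take P.length).length = P.length := by rw [← hPt']
      rw [this]
      exact List.take_append_drop _ _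
    · refine RN_sim hphi hΓ0 (a := 2 * Γ ^ (m + 1)) le_rfl hMd hMM hRp ?_ hR
      have hwl := hw.1
      have hwl' := hw.2.1
      refine ⟨?_, ?_, ?_, ?_, ?_⟩
      · rw [hQd, List.length_drop]; omega
      · rw [List.length_drop]; omega
      · rw [hQd, List.take_drop, List.take_drop]
        have h1 : ∀ R : List α, R.take (P.length + 2 * Γ ^ (m + 1)) =
            (R.take a).take (P.length + 2 * Γ ^ (m + 1)) := by
          intro R; rw [List.take_take, min_eq_left (by omega)]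
        rw [h1 w, h1 w', hw.2.2.1]
      · rw [hQd, List.drop_drop, List.drop_drop]
        exact hw.drop hphi (by omega)
      · rw [hQd, List.length_drop, List.length_drop]
        have h1 := hw.2.2.2.2
        have h2 : (w.length - P.length) ≡ (w'.length - P.length) [MOD Md] := by
          have h3 : w.length ≡ w'.length [MOD Md] := h1
          refine Nat.ModEq.add_right_cancel' P.length ?_
          rw [Nat.sub_add_cancel (by omega), Nat.sub_add_cancel (by omega)]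
          exact h3
        exact h2
  unfold nu
  by_cases hb : ∃ k ∈ Ms, k ∣ u.length
  · rw [if_pos hb, if_pos (hiff.1 hb)]
    by_cases hex : ∃ x : (List α × List α) × (Nm m S W V × Nm m S W V), x.1.1 ++ x.1.2 = u ∧
        LN phi act e F Γ M m nmL x.1.1 x.2.1 ∧ RN phi act e F Γ M m nmR x.1.2 x.2.2
    · have hex' : ∃ x : (List α × List α) × (Nm m S W V × Nm m S W V), x.1.1 ++ x.1.2 = u' ∧
          LN phi act e F Γ M m nmL x.1.1 x.2.1 ∧ RN phi act e F Γ M m nmR x.1.2 x.2.2 := by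
        obtain ⟨x, hx1, hx2, hx3⟩ := hex
        obtain ⟨Q', hQ1, hQ2⟩ := tr u u' h _ _ _ _ hx1 hx2 hx3
        exact ⟨((x.1.1, Q'), x.2), hQ1, hx2, hQ2⟩
      rw [dif_pos hex, dif_pos hex', hphu]
      have h1 := hex.choose_spec
      have h2 := hex'.choose_spec
      obtain ⟨Q', hQ1, hQ2⟩ := tr u u' h _ _ _ _ h1.1 h1.2.1 h1.2.2
      have hlen : hex.choose.1.1.length + Q'.length =
          hex'.choose.1.1.length + hex'.choose.1.2.length := by
        rw [← List.length_append, hQ1, ← List.length_append, h2.1]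
      have hb' : ∃ k ∈ Ms, k ∣ hex.choose.1.1.length + Q'.length := by
        rw [← List.length_append, hQ1]; exact hiff.1 hb
      have := hn3 _ _ _ _ _ _ _ _ h1.2.1.1 hQ2.1 h2.2.1.1 h2.2.2.1 hlen hb'
      rw [this.1, this.2]
    · have hex' : ¬ ∃ x : (List α × List α) × (Nm m S W V × Nm m S W V), x.1.1 ++ x.1.2 = u' ∧
          LN phi act e F Γ M m nmL x.1.1 x.2.1 ∧ RN phi act e F Γ M m nmR x.1.2 x.2.2 := by
        intro hex'
        apply hex
        obtain ⟨x, hx1, hx2, hx3⟩ := hex'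
        obtain ⟨Q', hQ1, hQ2⟩ := tr u' u h.symm _ _ _ _ hx1 hx2 hx3
        exact ⟨((x.1.1, Q'), x.2), hQ1, hx2, hQ2⟩
      rw [dif_neg hex, dif_neg hex']
  · rw [if_neg hb, if_neg (fun hh => hb (hiff.2 hh)), hphu]
    congr 1
    unfold wsum
    refine Finset.sum_congr rfl fun j hj => ?_
    rw [Finset.mem_Ico] at hj
    have hb' : ∀ j, j ≤ m → bnd Γ j u.length = bnd Γ j u'.length := fun j hj =>
      bnd_per ((pow_dvd_pow Γ (by omega)).trans hMd) h.2.2.2.2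
    rw [hb' j (by omega), hb' (j + 1) (by omega), Nat.sub_zero, Nat.sub_zero, h.seg]
    have h1 := bnd_lt hΓ0 (j + 1) u'.length
    have h2 : Γ ^ (j + 1 + 1) ≤ Γ ^ (m + 1) := Nat.pow_le_pow_right hΓ0 (by omega)
    omega

end sim

/-! ### the ruler step -/

def Xs (M g : ℕ) : ℕ → ℕ
  | 0 => 4 * M * g
  | l + 1 => Xs M g l + 4 * M * g ^ (l + 2)

theorem Xs_ge (M g l : ℕ) : 4 * (M * g ^ (l + 1)) ≤ Xs M g l := by
  cases l with
  | zero => simp [Xs, mul_assoc]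
  | succ l =>
    simp only [Xs]
    have : 4 * (M * g ^ (l + 1 + 1)) = 4 * M * g ^ (l + 2) := by ring
    omega

theorem Xs_le {M g : ℕ} (hg : 2 ≤ g) (l : ℕ) : Xs M g l ≤ 8 * (M * g ^ (l + 1)) := by
  induction l with
  | zero =>
    have : 4 * M * g = 4 * (M * g ^ (0 + 1)) := by ring
    simp only [Xs]
    omega
  | succ l ih =>
    simp only [Xs]
    have h1 : 4 * M * g ^ (l + 2) = 4 * (M * g ^ (l + 1)) * g := by ring
    have h2 : 8 * (M * g ^ (l + 1 + 1)) = 8 * (M * g ^ (l + 1)) * g := by ring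
    have h3 : 4 * (M * g ^ (l + 1)) * 2 ≤ 4 * (M * g ^ (l + 1)) * g := Nat.mul_le_mul_left _ hg
    rw [h1, h2]
    have h4 : 8 * (M * g ^ (l + 1)) * g = 4 * (M * g ^ (l + 1)) * g + 4 * (M * g ^ (l + 1)) * g := by
      ring
    omega

theorem Xs_mod (M g l k : ℕ) : ∃ y, Xs M g (l + k) = Xs M g l + g ^ (l + 2) * y := by
  induction k with
  | zero => exact ⟨0, by simp⟩
  | succ k ih =>
    obtain ⟨y, hy⟩ := ih
    refine ⟨y + 4 * M * g ^ k, ?_⟩
    have : l + (k + 1) = (l + k) + 1 := by ring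
    rw [this]
    simp only [Xs]
    rw [hy]
    ring

/-- band event at level `l` -/
def Bd (M g l : ℕ) (T : ℤ) : Prop := ∃ z : ℤ, |T - (g ^ (l + 2) : ℕ) * z| ≤ (M * g ^ (l + 1) : ℕ)

theorem Bd_not {M g l T : ℕ} (hg : 0 < g) (h : ¬ Bd M g l (T : ℤ)) :
    M * g ^ (l + 1) ≤ T % g ^ (l + 2) ∧ T % g ^ (l + 2) + M * g ^ (l + 1) < g ^ (l + 2) := by
  unfold Bd at h
  push Not at h
  have hG : 0 < g ^ (l + 2) := Nat.pow_pos hg
  have h0 := Nat.div_add_mod T (g ^ (l + 2))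
  have h1 := h (T / g ^ (l + 2) : ℕ)
  have h2 := h ((T / g ^ (l + 2) : ℕ) + 1)
  set G := g ^ (l + 2) with hGd
  set q := T / G with hq
  set c := M * g ^ (l + 1) with hc
  have hm := Nat.mod_lt T hG
  have e0 : (T : ℤ) = (G : ℤ) * (q : ℤ) + ((T % G : ℕ) : ℤ) := by exact_mod_cast h0.symm
  have e1 : (T : ℤ) - (G : ℤ) * (q : ℤ) = ((T % G : ℕ) : ℤ) := by rw [e0]; ring
  have e2 : (T : ℤ) - (G : ℤ) * ((q : ℤ) + 1) = ((T % G : ℕ) : ℤ) - (G : ℤ) := by rw [e0]; ring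
  rw [e1] at h1
  rw [e2] at h2
  rw [abs_of_nonneg (by positivity)] at h1
  rw [abs_of_neg (by omega)] at h2
  omega

theorem Bd_per {M g l m : ℕ} (hl : l < m) (K : ℕ) (T : ℤ) :
    Bd M g l (T + (K * g ^ (m + 1) : ℕ)) ↔ Bd M g l T := by
  have hd : ∃ y : ℕ, K * g ^ (m + 1) = g ^ (l + 2) * y := by
    obtain ⟨k, hk⟩ := Nat.exists_eq_add_of_lt hl
    refine ⟨K * g ^ k, ?_⟩
    rw [hk]
    ring
  obtain ⟨y, hy⟩ := hd
  unfold Bd
  rw [hy]
  push_cast
  constructor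
  · rintro ⟨z, hz⟩
    refine ⟨z - y, ?_⟩
    have : T - (g : ℤ) ^ (l + 2) * (z - y) = T + (g : ℤ) ^ (l + 2) * y - (g : ℤ) ^ (l + 2) * z := by
      ring
    rw [this]; exact hz
  · rintro ⟨z, hz⟩
    refine ⟨z + y, ?_⟩
    have : T + (g : ℤ) ^ (l + 2) * y - (g : ℤ) ^ (l + 2) * (z + y) = T - (g : ℤ) ^ (l + 2) * z := by
      ring
    rw [this]; exact hz

theorem Bd_golomb {M g l m B U : ℕ} (hl : l < m) (hM : 0 < M) (hg : 16 * B * M + 2 * M < g)
    (hU : U % g ^ (m + 1) = Xs M g m % g ^ (m + 1)) {T d d' : ℤ} (hd : |d| ≤ B) (hd' : |d'| ≤ B)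
    (h : Bd M g l (T + U * d)) (h' : Bd M g l (T + U * d')) : d = d' := by
  by_contra hne
  wlog hlt : d' < d generalizing d d'
  · exact this hd' hd h' h (Ne.symm hne) (lt_of_le_of_ne (not_lt.mp hlt) hne)
  obtain ⟨z, hz⟩ := h
  obtain ⟨z', hz'⟩ := h'
  have hg2 : 2 ≤ g := by
    rcases Nat.lt_or_ge g 2 with h1 | h1
    · omega
    · exact h1
  set c : ℕ := M * g ^ (l + 1) with hc
  set G : ℕ := g ^ (l + 2) with hG
  have hc0 : 0 < c := Nat.mul_pos hM (Nat.pow_pos (by omega))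
  have hX1 := Xs_ge M g l
  have hX2 := Xs_le (M := M) hg2 l
  rw [← hc] at hX1 hX2
  have hGc : 16 * B * c + 2 * c < G := by
    have h1 : G = g * g ^ (l + 1) := by rw [hG]; ring
    have h2 : 16 * B * c + 2 * c = (16 * B * M + 2 * M) * g ^ (l + 1) := by rw [hc]; ring
    rw [h1, h2]
    exact Nat.mul_lt_mul_of_pos_right hg (Nat.pow_pos (by omega))
  -- U = X_l + G * y as integers
  obtain ⟨y, hy⟩ : ∃ y : ℤ, (U : ℤ) = (Xs M g l : ℤ) + (G : ℤ) * y := by
    obtain ⟨k, hk⟩ := Nat.exists_eq_add_of_lt hl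
    obtain ⟨y1, hy1⟩ := Xs_mod M g l (k + 1)
    have h3 : (Xs M g m : ℤ) ≡ U [ZMOD (g ^ (m + 1) : ℕ)] := by
      have : Xs M g m ≡ U [MOD g ^ (m + 1)] := hU.symm
      exact (Int.natCast_modEq_iff).mpr this
    have h4 : ((G : ℕ) : ℤ) ∣ ((g ^ (m + 1) : ℕ) : ℤ) := by
      rw [Int.natCast_dvd_natCast]
      exact pow_dvd_pow g (by omega)
    have h5 := (h3.of_dvd h4).dvd
    obtain ⟨y2, hy2⟩ := h5
    refine ⟨y1 + y2, ?_⟩
    have h6 : (Xs M g m : ℤ) = Xs M g l + (G : ℤ) * y1 := by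
      have : m = l + (k + 1) := by omega
      rw [this, hy1, hG]
      push_cast
      ring
    have : (U : ℤ) = Xs M g m + (G : ℤ) * y2 := by linarith
    rw [this, h6]
    ring
  set X : ℕ := Xs M g l with hX
  set δ : ℤ := d - d' with hδ
  have hδ1 : 1 ≤ δ := by omega
  have hδ2 : δ ≤ 2 * B := by
    have := abs_le.mp hd
    have := abs_le.mp hd'
    omega
  -- |X δ - G z''| ≤ 2 c
  have hkey : |(X : ℤ) * δ - (G : ℤ) * (z - z' - y * δ)| ≤ 2 * c := by
    have e1 : (X : ℤ) * δ - (G : ℤ) * (z - z' - y * δ) =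
        (T + U * d - (G : ℤ) * z) - (T + U * d' - (G : ℤ) * z') := by
      rw [hy, hδ]; ring
    rw [e1]
    calc |(T + U * d - (G : ℤ) * z) - (T + U * d' - (G : ℤ) * z')|
        ≤ |T + U * d - (G : ℤ) * z| + |T + U * d' - (G : ℤ) * z'| := abs_sub _ _
      _ ≤ c + c := add_le_add hz hz'
      _ = 2 * c := by ring
  have hX1' : (4 * (c : ℤ)) ≤ X := by exact_mod_cast hX1
  have hX2' : (X : ℤ) ≤ 8 * c := by exact_mod_cast hX2
  have hGc' : 16 * (B : ℤ) * c + 2 * c < G := by exact_mod_cast hGc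
  have hc0' : (0 : ℤ) < c := by exact_mod_cast hc0
  have l1 : 4 * (c : ℤ) ≤ X * δ := by nlinarith
  have l2 : (X : ℤ) * δ ≤ 16 * B * c := by
    have : (X : ℤ) * δ ≤ (8 * c) * (2 * B) :=
      mul_le_mul hX2' hδ2 (by omega) (by positivity)
    linarith
  obtain ⟨k1, k2⟩ := abs_le.mp hkey
  rcases le_or_gt (z - z' - y * δ) 0 with hneg | hpos
  · have : (G : ℤ) * (z - z' - y * δ) ≤ 0 := mul_nonpos_of_nonneg_of_nonpos (by positivity) hneg
    linarith
  · have : (G : ℤ) * 1 ≤ (G : ℤ) * (z - z' - y * δ) :=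
      mul_le_mul_of_nonneg_left (by omega) (by positivity)
    linarith

end Crest.Agent.R320.GridC_95
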