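import Mathlib
import Crest.Agent.R320.Noise_513
import Crest.Agent.R320.Names_570

set_option autoImplicit false

/-!
Row 320: scheme 1 for ALL words (no small walls, no promise on runs): 693 #13203 (b-anchored
nested grids) + 638 #13273 (comb form).  Part A: gadget on words from abstract clocks.
-/

namespace Crest.Agent.R320.Grid7

open Finset

/-- Clocks: `t` = left clock, `t'` = right clock, `n = t + t'` unknown to both. -/
structure Clk {Γ C : Type} (m : ℕ) (lv : Γ → ℕ) (col : Γ → C) where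
  N : ℕ
  nmL : ℕ → Option Γ
  nmR : ℕ → Option Γ
  bL : ℕ → ℕ → ℕ
  bR : ℕ → ℕ → ℕ
  beta : ℕ → ℕ → ℕ
  Gd : ℕ → Prop
  Bad : ℕ → Prop
  left_lt : ∀ t g, nmL t = some g → t < N
  right_ge : ∀ t g, nmR t = some g → N ≤ t
  good : ∀ t t' g g', Gd (t + t') → nmL t = some g → nmR t' = some g' →
    g = g' ∧ (∀ l ≤ lv g, bL t l = beta (t + t') l ∧ beta (t + t') l ≤ t) ∧
    (∀ l, lv g < l → l ≤ m → bR t' l + beta (t + t') l = t + t' ∧ t ≤ beta (t + t') l)
  bad : ∀ t₁ t₁' t₂ t₂' g₁ g₁' g₂ g₂', ¬ Gd (t₁ + t₁') → t₁ + t₁' = t₂ + t₂' →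
    nmL t₁ = some g₁ → nmR t₁' = some g₁' → nmL t₂ = some g₂ → nmR t₂' = some g₂' →
    col g₁ = col g₂ ∧ col g₁' = col g₂'
  complete : ∀ n, 2 * N ≤ n → ¬ Bad n → Gd n ∧ ∀ g, ∃ t t', t + t' = n ∧ nmL t = some g ∧
    nmR t' = some g
  beta_mono : ∀ n, N ≤ n → ∀ l < m, beta n l ≤ beta n (l + 1)
  beta_le : ∀ n, N ≤ n → ∀ l ≤ m, beta n l ≤ n

section words

variable {α S V : Type} [Monoid S] [AddCommGroup V]

/-- piece of `u` between positions `a` and `b` -/
def pc (u : List α) (a b : ℕ) : List α := (u.drop a).take (b - a)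

/-- piece of `q` between the suffixes of length `a` and `b`, `b ≤ a` -/
def sc (q : List α) (a b : ℕ) : List α := (q.drop (q.length - a)).take (a - b)

theorem pc_append_left {p q : List α} {a b : ℕ} (ha : a ≤ b) (hb : b ≤ p.length) :
    pc (p ++ q) a b = pc p a b := by
  unfold pc
  rw [List.drop_append_of_le_length (ha.trans hb), List.take_append_of_le_length]
  simp; omega

theorem pc_append_right {p q : List α} {a b : ℕ} (hp : p.length ≤ a) (hab : a ≤ b)
    (hb : b ≤ (p ++ q).length) :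
    pc (p ++ q) a b = sc q ((p ++ q).length - a) ((p ++ q).length - b) := by
  unfold pc sc
  rw [List.drop_append, List.drop_eq_nil_of_le hp, List.nil_append]
  simp only [List.length_append] at *
  have h1 : q.length - (p.length + q.length - a) = a - p.length := by omega
  have h2 : p.length + q.length - a - (p.length + q.length - b) = b - a := by omega
  rw [h1, h2]

theorem drop_append_right {p q : List α} {a : ℕ} (hp : p.length ≤ a)
    (ha : a ≤ (p ++ q).length) :
    (p ++ q).drop a = q.drop (q.length - ((p ++ q).length - a)) := by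
  rw [List.drop_append, List.drop_eq_nil_of_le hp, List.nil_append]
  simp only [List.length_append] at *
  congr 1; omega

theorem ph_split (φ : List α → S) (hφ : ∀ u v, φ (u ++ v) = φ u * φ v) (u : List α) {a b : ℕ}
    (hab : a ≤ b) : φ u = φ (u.take a) * φ (pc u a b) * φ (u.drop b) := by
  rw [← hφ, ← hφ]
  congr 1
  unfold pc
  have h1 : u.drop b = (u.drop a).drop (b - a) := by
    rw [List.drop_drop]; congr 1; omega
  rw [h1, List.append_assoc, List.take_append_drop, List.take_append_drop]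

end words


section gadget

variable {α S V W : Type} [Monoid S] [AddCommGroup V] [AddCommGroup W] {m : ℕ}

/-- context: level, left product, left weight, right product, right weight, token -/
abbrev Pre (m : ℕ) (S W V : Type) := Fin m × S × W × S × W × V

def val (e : Fin m → S → W) (F : S → W → V) (act : V → S → V) (c : Pre m S W V) (z : S) : V :=
  F (c.2.1 * z * c.2.2.2.1) (c.2.2.1 + e c.1 z + c.2.2.2.2.1) +
    act c.2.2.2.2.2 (c.2.1 * z * c.2.2.2.1)

/-- good contexts -/
def Cx (e : Fin m → S → W) (F : S → W → V) (act : V → S → V) : Type :=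
  {c : Pre m S W V // ∀ z z' : S, val e F act c z = val e F act c z'}

instance (e : Fin m → S → W) (F : S → W → V) (act : V → S → V) [Finite S] [Finite W] [Finite V] :
    Finite (Cx e F act) := Subtype.finite

def Cx.lv {e : Fin m → S → W} {F : S → W → V} {act : V → S → V} (c : Cx e F act) : ℕ := c.1.1

def Cx.col {e : Fin m → S → W} {F : S → W → V} {act : V → S → V} (c : Cx e F act) : V × V :=
  (c.1.2.2.2.2.2, val e F act c.1 1)

variable (e : Fin m → S → W) (F : S → W → V) (act : V → S → V)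
  (K : Clk m (Cx.lv (e := e) (F := F) (act := act)) Cx.col) (Mp : ℕ) (φ : List α → S)

/-- left legal -/
def LRel (p : List α) (v : V) : Prop :=
  Mp ∣ p.length ∧ ∃ c, K.nmL (p.length / Mp) = some c ∧ c.1.2.2.2.2.2 = v ∧
    φ (p.take (Mp * K.bL (p.length / Mp) c.1.1)) = c.1.2.1 ∧
    (∑ l : Fin m, if l < c.1.1 then e l (φ (pc p (Mp * K.bL (p.length / Mp) l)
      (Mp * K.bL (p.length / Mp) (l + 1)))) else 0) = c.1.2.2.1

/-- right legal -/
def RRel (q : List α) (b : V) : Prop :=
  ∃ c, K.nmR (q.length / Mp) = some c ∧ val e F act c.1 1 = b ∧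
    φ (q.drop (q.length - (Mp * K.bR (q.length / Mp) (c.1.1 + 1) + q.length % Mp))) =
      c.1.2.2.2.1 ∧
    (∑ l : Fin m, if c.1.1 < l then e l (φ (sc q (Mp * K.bR (q.length / Mp) l + q.length % Mp)
      (Mp * K.bR (q.length / Mp) (l + 1) + q.length % Mp))) else 0) = c.1.2.2.2.2.1

/-- total weight -/
def wt (u : List α) : W :=
  ∑ l : Fin m, e l (φ (pc u (Mp * K.beta (u.length / Mp) l) (Mp * K.beta (u.length / Mp) (l + 1))))

/-- colour pairs seen at the total `n` -/
def seen (n : ℕ) : Set (V × V) :=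
  {x | ∃ t t' g g', t + t' = n ∧ K.nmL t = some g ∧ K.nmR t' = some g' ∧
    x = ((Cx.col g).1, (Cx.col g').2)}

open Classical in
/-- noise -/
noncomputable def nu (u : List α) : V :=
  if K.Gd (u.length / Mp) then F (φ u) (wt e F act K Mp φ u)
  else if h : (seen e F act K (u.length / Mp)).Nonempty then h.some.2 - act h.some.1 (φ u) else 0

theorem LRel_unique {p : List α} {v v' : V} (h : LRel e F act K Mp φ p v)
    (h' : LRel e F act K Mp φ p v') : v = v' := by
  obtain ⟨_, c, hc, hv, _⟩ := h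
  obtain ⟨_, c', hc', hv', _⟩ := h'
  rw [hc] at hc'; cases hc'; rw [← hv, ← hv']

theorem RRel_unique {q : List α} {b b' : V} (h : RRel e F act K Mp φ q b)
    (h' : RRel e F act K Mp φ q b') : b = b' := by
  obtain ⟨c, hc, hv, _⟩ := h
  obtain ⟨c', hc', hv', _⟩ := h'
  rw [hc] at hc'; cases hc'; rw [← hv, ← hv']

theorem sum_split (i : Fin m) (f : Fin m → W) :
    ∑ l, f l = (∑ l, if l < i then f l else 0) + f i + ∑ l, if i < l then f l else 0 := by
  have h : ∀ l, f l = (if l < i then f l else 0) + (if l = i then f l else 0) +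
      (if i < l then f l else 0) := by
    intro l
    rcases lt_trichotomy l i with h | h | h
    · simp [h, h.ne, h.le.not_gt]
    · subst h; simp
    · simp [h, h.ne', h.le.not_gt]
  conv_lhs => rw [Finset.sum_congr rfl (fun l _ => h l)]
  rw [Finset.sum_add_distrib, Finset.sum_add_distrib]
  simp

/-- **Soundness**, every text, every total. -/
theorem sound (hMp : 0 < Mp) (hφ : ∀ u v, φ (u ++ v) = φ u * φ v) (p q : List α) (v b : V)
    (hl : LRel e F act K Mp φ p v) (hr : RRel e F act K Mp φ q b) :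
    b = act v (φ (p ++ q)) + nu e F act K Mp φ (p ++ q) := by
  obtain ⟨hd, c, hc, hv, hg, hwl⟩ := hl
  obtain ⟨c', hc', hb, hh, hwr⟩ := hr
  have hn : (p ++ q).length / Mp = p.length / Mp + q.length / Mp := by
    rw [List.length_append, Nat.add_div_of_dvd_right hd]
  by_cases hG : K.Gd ((p ++ q).length / Mp)
  · rw [nu, if_pos hG]
    rw [hn] at hG
    obtain ⟨hcc, hL, hR⟩ := K.good _ _ _ _ hG hc hc'
    subst hcc
    rw [← hn] at hL hR
    set n := (p ++ q).length / Mp with hndef
    set t := p.length / Mp with ht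
    set t' := q.length / Mp with ht'
    have hpt : p.length = Mp * t := (Nat.mul_div_cancel' hd).symm
    have hqt : q.length = Mp * t' + q.length % Mp := (Nat.div_add_mod _ _).symm
    have hlen : (p ++ q).length = Mp * n + q.length % Mp := by
      rw [List.length_append, hpt, hn]; rw [Nat.mul_add]; omega
    have hN : K.N ≤ n := (K.right_ge _ _ hc').trans (by rw [hn]; exact Nat.le_add_left _ _)
    have hm0 : ∀ l, l ≤ c.lv → Mp * K.beta n l ≤ p.length := by
      intro l hl; rw [hpt]; exact Nat.mul_le_mul_left _ (hL l hl).2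
    have hm1 : ∀ l, c.lv < l → l ≤ m → p.length ≤ Mp * K.beta n l := by
      intro l hl hl'; rw [hpt]; exact Nat.mul_le_mul_left _ (hR l hl hl').2
    have hm2 : ∀ l, c.lv < l → l ≤ m → (p ++ q).length - Mp * K.beta n l =
        Mp * K.bR t' l + q.length % Mp := by
      intro l hl hl'
      have h1 := (hR l hl hl').1
      have h2 : Mp * n = Mp * K.bR t' l + Mp * K.beta n l := by rw [← Nat.mul_add, h1]
      rw [hlen]; omega
    have hm3 : ∀ l, l ≤ m → Mp * K.beta n l ≤ (p ++ q).length := by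
      intro l hl
      rw [hlen]
      exact (Nat.mul_le_mul_left _ (K.beta_le n hN l hl)).trans (Nat.le_add_right _ _)
    have hmono : ∀ l < m, Mp * K.beta n l ≤ Mp * K.beta n (l + 1) := fun l hl =>
      Nat.mul_le_mul_left _ (K.beta_mono n hN l hl)
    have him : (c.1.1 : ℕ) < m := c.1.1.2
    have hi1 : (c.1.1 : ℕ) + 1 ≤ m := him
    have hlv : c.lv = (c.1.1 : ℕ) := rfl
    -- the products
    have eg : φ ((p ++ q).take (Mp * K.beta n c.1.1)) = c.1.2.1 := by
      rw [List.take_append_of_le_length (hm0 (c.1.1 : ℕ) (le_of_eq rfl)), ← hg,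
        (hL (c.1.1 : ℕ) (le_of_eq rfl)).1]
    have eh : φ ((p ++ q).drop (Mp * K.beta n (c.1.1 + 1))) = c.1.2.2.2.1 := by
      rw [drop_append_right (hm1 _ (by rw [hlv]; omega) hi1) (hm3 _ hi1),
        hm2 _ (by rw [hlv]; omega) hi1, hh]
    have ephi : φ (p ++ q) = c.1.2.1 * φ (pc (p ++ q) (Mp * K.beta n c.1.1)
        (Mp * K.beta n (c.1.1 + 1))) * c.1.2.2.2.1 := by
      rw [ph_split φ hφ (p ++ q) (hmono _ him), eg, eh]
    have ewl : (∑ l : Fin m, if l < c.1.1 then e l (φ (pc (p ++ q) (Mp * K.beta n l)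
        (Mp * K.beta n (l + 1)))) else 0) = c.1.2.2.1 := by
      rw [← hwl]
      apply Finset.sum_congr rfl
      intro l _
      by_cases hli : l < c.1.1
      · rw [if_pos hli, if_pos hli]
        have h1 : (l : ℕ) < c.1.1 := hli
        rw [(hL l (by rw [hlv]; omega)).1, (hL (l + 1) (by rw [hlv]; omega)).1,
          pc_append_left (hmono _ (by omega)) (hm0 _ (by rw [hlv]; omega))]
      · rw [if_neg hli, if_neg hli]
    have ewr : (∑ l : Fin m, if c.1.1 < l then e l (φ (pc (p ++ q) (Mp * K.beta n l)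
        (Mp * K.beta n (l + 1)))) else 0) = c.1.2.2.2.2.1 := by
      rw [← hwr]
      apply Finset.sum_congr rfl
      intro l _
      by_cases hli : c.1.1 < l
      · rw [if_pos hli, if_pos hli]
        have h1 : (c.1.1 : ℕ) < l := hli
        have h2 : (l : ℕ) < m := l.2
        rw [pc_append_right (hm1 _ (by rw [hlv]; omega) (by omega)) (hmono _ h2)
          (hm3 _ (by omega)), hm2 _ (by rw [hlv]; omega) (by omega),
          hm2 _ (by rw [hlv]; omega) (by omega)]
      · rw [if_neg hli, if_neg hli]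
    have ew : wt e F act K Mp φ (p ++ q) = c.1.2.2.1 + e c.1.1 (φ (pc (p ++ q)
        (Mp * K.beta n c.1.1) (Mp * K.beta n (c.1.1 + 1)))) + c.1.2.2.2.2.1 := by
      unfold wt
      rw [sum_split c.1.1, ← hndef, ewl, ewr]
    rw [ew, ephi, ← hb, ← hv]
    have := c.2 1 (φ (pc (p ++ q) (Mp * K.beta n c.1.1) (Mp * K.beta n (c.1.1 + 1))))
    rw [this]
    unfold val
    abel
  · rw [nu, if_neg hG]
    have hs : ((Cx.col c).1, (Cx.col c').2) ∈ seen e F act K ((p ++ q).length / Mp) :=
      ⟨_, _, c, c', hn.symm, hc, hc', rfl⟩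
    have hne : (seen e F act K ((p ++ q).length / Mp)).Nonempty := ⟨_, hs⟩
    rw [dif_pos hne]
    obtain ⟨t1, t1', g1, g1', h1, h2, h3, h4⟩ := hne.some_mem
    have hG' : ¬ K.Gd (p.length / Mp + q.length / Mp) := by rwa [← hn]
    have hbad := K.bad _ _ _ _ _ _ _ _ hG' (hn.symm.trans h1.symm) hc hc' h2 h3
    rw [h4]
    simp only
    rw [← hbad.1, ← hbad.2]
    show b = act v _ + (val e F act c'.1 1 - act c.1.2.2.2.2.2 _)
    rw [hb, hv]
    abel

/-- **Completeness** -/
theorem complete (hMp : 0 < Mp) (hφ : ∀ u v, φ (u ++ v) = φ u * φ v)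
    (hF : ∀ (s : S) (w : W) (v : V), ∃ i : Fin m, ∀ g x h : S, g * x * h = s →
        ∀ z : S, F (g * z * h) (w - e i x + e i z) + act v (g * z * h) = F s w + act v s)
    (u : List α) (hu : 2 * K.N ≤ u.length / Mp) (hB : ¬ K.Bad (u.length / Mp)) (v : V) :
    ∃ p q b, p ++ q = u ∧ LRel e F act K Mp φ p v ∧ RRel e F act K Mp φ q b := by
  obtain ⟨hG, hcomp⟩ := K.complete _ hu hB
  set n := u.length / Mp with hn
  obtain ⟨i, hi⟩ := hF (φ u) (wt e F act K Mp φ u) v
  have hN : K.N ≤ n := by omega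
  have him : (i : ℕ) < m := i.2
  have hi1 : (i : ℕ) + 1 ≤ m := him
  have hmono : ∀ l < m, Mp * K.beta n l ≤ Mp * K.beta n (l + 1) := fun l hl =>
      Nat.mul_le_mul_left _ (K.beta_mono n hN l hl)
  set f : Fin m → W := fun l => e l (φ (pc u (Mp * K.beta n l) (Mp * K.beta n (l + 1)))) with hf
  set x := φ (pc u (Mp * K.beta n i) (Mp * K.beta n (i + 1))) with hx
  have hw : wt e F act K Mp φ u = (∑ l, if l < i then f l else 0) + e i x +
      ∑ l, if i < l then f l else 0 := by
    unfold wt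
    rw [sum_split i]
  have hphi := ph_split φ hφ u (hmono i him)
  let c0 : Pre m S W V := (i, φ (u.take (Mp * K.beta n i)), ∑ l, if l < i then f l else 0,
    φ (u.drop (Mp * K.beta n (i + 1))), ∑ l, if i < l then f l else 0, v)
  have hval : ∀ z, val e F act c0 z = F (φ u) (wt e F act K Mp φ u) + act v (φ u) := by
    intro z
    rw [← hi _ x _ hphi.symm z]
    unfold val
    simp only [c0]
    congr 2
    rw [hw]; abel
  let c : Cx e F act := ⟨c0, fun z z' => by rw [hval, hval]⟩
  obtain ⟨t, t', htt, hL, hR⟩ := hcomp c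
  have hG' : K.Gd (t + t') := by rw [htt]; exact hG
  obtain ⟨-, hL1, hR1⟩ := K.good _ _ _ _ hG' hL hR
  rw [htt] at hL1 hR1
  have hlv : c.lv = (i : ℕ) := rfl
  have hlen : u.length = Mp * n + u.length % Mp := (Nat.div_add_mod _ _).symm
  have hpl : (u.take (Mp * t)).length = Mp * t := by
    rw [List.length_take, min_eq_left]
    rw [hlen]; exact (Nat.mul_le_mul_left _ (by omega)).trans (Nat.le_add_right _ _)
  have hql : (u.drop (Mp * t)).length = Mp * t' + u.length % Mp := by
    rw [List.length_drop]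
    have : Mp * n = Mp * t + Mp * t' := by rw [← htt, Nat.mul_add]
    omega
  have hpt : (u.take (Mp * t)).length / Mp = t := by rw [hpl, Nat.mul_div_cancel_left _ hMp]
  have hmodlt := Nat.mod_lt u.length hMp
  have hqt : (u.drop (Mp * t)).length / Mp = t' := by
    rw [hql, Nat.mul_add_div hMp, Nat.div_eq_of_lt hmodlt, add_zero]
  have hqm : (u.drop (Mp * t)).length % Mp = u.length % Mp := by
    rw [hql, Nat.mul_add_mod, Nat.mod_mod]
  have hup : u = u.take (Mp * t) ++ u.drop (Mp * t) := (List.take_append_drop _ _).symm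
  have hm0 : ∀ l, l ≤ (i : ℕ) → Mp * K.beta n l ≤ (u.take (Mp * t)).length := by
    intro l hl; rw [hpl]; exact Nat.mul_le_mul_left _ (hL1 l (by rw [hlv]; omega)).2
  have hm1 : ∀ l, (i : ℕ) < l → l ≤ m → (u.take (Mp * t)).length ≤ Mp * K.beta n l := by
    intro l hl hl'; rw [hpl]; exact Nat.mul_le_mul_left _ (hR1 l (by rw [hlv]; omega) hl').2
  have hm2 : ∀ l, (i : ℕ) < l → l ≤ m → (u.take (Mp * t) ++ u.drop (Mp * t)).length -
      Mp * K.beta n l = Mp * K.bR t' l + u.length % Mp := by
    intro l hl hl'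
    have h1 := (hR1 l (by rw [hlv]; omega) hl').1
    have h2 : Mp * n = Mp * K.bR t' l + Mp * K.beta n l := by rw [← Nat.mul_add, h1]
    rw [← hup]; omega
  have hm3 : ∀ l, l ≤ m → Mp * K.beta n l ≤ (u.take (Mp * t) ++ u.drop (Mp * t)).length := by
    intro l hl
    rw [← hup, hlen]
    exact (Nat.mul_le_mul_left _ (K.beta_le n hN l hl)).trans (Nat.le_add_right _ _)
  refine ⟨u.take (Mp * t), u.drop (Mp * t), _, List.take_append_drop _ _, ⟨?_, c, ?_, rfl, ?_, ?_⟩,
    ⟨c, ?_, rfl, ?_, ?_⟩⟩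
  · rw [hpl]; exact Nat.dvd_mul_right _ _
  · rw [hpt]; exact hL
  · rw [hpt]
    show φ (List.take (Mp * K.bL t i) (List.take (Mp * t) u)) = φ (u.take (Mp * K.beta n i))
    rw [(hL1 i (le_of_eq rfl)).1, ← List.take_append_of_le_length
      (l₂ := u.drop (Mp * t)) (hm0 i le_rfl), ← hup]
  · rw [hpt]
    show (∑ l : Fin m, if l < i then _ else 0) = ∑ l, if l < i then f l else 0
    apply Finset.sum_congr rfl
    intro l _
    by_cases hli : l < i
    · rw [if_pos hli, if_pos hli]
      have h1 : (l : ℕ) < i := hli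
      rw [(hL1 l (by rw [hlv]; omega)).1, (hL1 (l + 1) (by rw [hlv]; omega)).1,
        ← pc_append_left (q := u.drop (Mp * t)) (hmono _ (by omega)) (hm0 _ (by omega)), ← hup]
    · rw [if_neg hli, if_neg hli]
  · rw [hqt]; exact hR
  · rw [hqt, hqm]
    show φ (List.drop (_ - (Mp * K.bR t' (i + 1) + _)) (u.drop (Mp * t))) =
      φ (u.drop (Mp * K.beta n (i + 1)))
    rw [← hm2 (i + 1) (by omega) hi1, ← drop_append_right (hm1 _ (by omega) hi1) (hm3 _ hi1),
      ← hup]
  · rw [hqt, hqm]
    show (∑ l : Fin m, if i < l then _ else 0) = ∑ l, if i < l then f l else 0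
    apply Finset.sum_congr rfl
    intro l _
    by_cases hli : i < l
    · rw [if_pos hli, if_pos hli]
      have h1 : (i : ℕ) < l := hli
      have h2 : (l : ℕ) < m := l.2
      rw [← hm2 l (by omega) (by omega), ← hm2 (l + 1) (by omega) (by omega),
        ← pc_append_right (hm1 _ (by omega) (by omega)) (hmono _ h2) (hm3 _ (by omega)), ← hup]
    · rw [if_neg hli, if_neg hli]

end gadget

end Crest.Agent.R320.Grid7
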