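import Mathlib
import Crest.Agent.R320.Grid_7

set_option autoImplicit false

/-! Row 320: grid clocks (693 #13203) as an instance of `Grid7.Clk`. -/

namespace Crest.Agent.R320.Grid7

open Finset

section clk

variable (Gam PM : ℕ)

def G (l : ℕ) : ℕ := Gam ^ l

def Am : ℕ → ℕ
  | 0 => 0
  | l + 1 => Am l + (PM + 1) * G Gam l

def A (l : ℕ) : ℕ := Am Gam PM l + G Gam l

theorem Am_succ (l : ℕ) : Am Gam PM (l + 1) = A Gam PM l + PM * G Gam l := by
  show Am Gam PM l + (PM + 1) * G Gam l = Am Gam PM l + G Gam l + PM * G Gam l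
  ring

theorem G_pos (hG : 0 < Gam) (l : ℕ) : 0 < G Gam l := Nat.pow_pos hG

theorem G_dvd {i l : ℕ} (h : i ≤ l) : G Gam i ∣ G Gam l := Nat.pow_dvd_pow _ h

theorem Am_mono {i l : ℕ} (h : i ≤ l) : Am Gam PM i ≤ Am Gam PM l := by
  induction h with
  | refl => exact le_rfl
  | step _ ih => exact ih.trans (Nat.le_add_right _ _)

/-- thin set of totals -/
def BadN (m : ℕ) (Ms : Finset ℕ) (n : ℕ) : Prop :=
  (∃ k ∈ Ms, k ∣ n) ∨ ∃ j, 1 ≤ j ∧ j ≤ m ∧
    ¬ (PM * G Gam (j - 1) ≤ (n - Am Gam PM j) % G Gam j ∧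
      (n - Am Gam PM j) % G Gam j + PM * G Gam (j - 1) ≤ G Gam j)

variable {Γ C : Type} (m : ℕ) (lv : Γ → ℕ) (col : Γ → C)
  (Ms : Finset ℕ) (nmL nmR : ℕ → Option Γ)

open Classical in
noncomputable def nL (t : ℕ) : Option Γ :=
  (nmL t).bind fun g => if A Gam PM (lv g) ≤ t ∧ t < Am Gam PM (lv g + 1) then some g else none

open Classical in
noncomputable def nR (t : ℕ) : Option Γ :=
  (nmR t).bind fun g => if Am Gam PM m ≤ t ∧ G Gam (lv g) ∣ t ∧
    (∀ j, lv g < j → j ≤ m → (t + A Gam PM (lv g) - Am Gam PM j) % G Gam j +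
      PM * G Gam (lv g) ≤ G Gam j) then some g else none

theorem nL_iff {t : ℕ} {g : Γ} : nL Gam PM lv nmL t = some g ↔
    nmL t = some g ∧ A Gam PM (lv g) ≤ t ∧ t < Am Gam PM (lv g + 1) := by
  unfold nL
  rw [Option.bind_eq_some_iff]
  constructor
  · rintro ⟨g', h, h'⟩
    split_ifs at h' with hc
    cases h'
    exact ⟨h, hc⟩
  · rintro ⟨h, h'⟩
    exact ⟨g, h, by rw [if_pos h']⟩

theorem nR_iff {t : ℕ} {g : Γ} : nR Gam PM m lv nmR t = some g ↔
    nmR t = some g ∧ Am Gam PM m ≤ t ∧ G Gam (lv g) ∣ t ∧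
    (∀ j, lv g < j → j ≤ m → (t + A Gam PM (lv g) - Am Gam PM j) % G Gam j +
      PM * G Gam (lv g) ≤ G Gam j) := by
  unfold nR
  rw [Option.bind_eq_some_iff]
  constructor
  · rintro ⟨g', h, h'⟩
    split_ifs at h' with hc
    cases h'
    exact ⟨h, hc⟩
  · rintro ⟨h, h'⟩
    exact ⟨g, h, by rw [if_pos h']⟩

open Classical in
noncomputable def bR (t l : ℕ) : ℕ :=
  match nR Gam PM m lv nmR t with
  | some g => G Gam l * ((t + A Gam PM (lv g) - Am Gam PM l) / G Gam l)
  | none => 0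

def bt (n l : ℕ) : ℕ := Am Gam PM l + (n - Am Gam PM l) % G Gam l

/-- The grid clocks. -/
noncomputable def gridClk (hGam : 0 < Gam) (hPM : PM = ∏ k ∈ Ms, k) (hPM0 : 0 < PM)
    (hcop : Nat.Coprime PM Gam)
    (hlv : ∀ g, lv g < m)
    (h1 : ∀ t, nmL (t + ∏ k ∈ Ms, k) = nmL t) (h2 : ∀ t, nmR (t + ∏ k ∈ Ms, k) = nmR t)
    (h3 : ∀ t t' c c', (∀ k ∈ Ms, ¬ k ∣ t + t') → nmL t = some c → nmR t' = some c' → c = c')
    (h4 : ∀ T c s, (∀ k ∈ Ms, ¬ k ∣ T) → s + ∏ k ∈ Ms, k ≤ T + 1 →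
        ∃ t, s ≤ t ∧ t < s + ∏ k ∈ Ms, k ∧ t ≤ T ∧ nmL t = some c ∧ nmR (T - t) = some c)
    (h5 : ∀ t1 t1' t2 t2' c1 c1' c2 c2', t1 + t1' = t2 + t2' → (∃ k ∈ Ms, k ∣ t1 + t1') →
        nmL t1 = some c1 → nmR t1' = some c1' → nmL t2 = some c2 → nmR t2' = some c2' →
        (c1 = c2 ∧ c1' = c2') ∨ (c1 = c2' ∧ c1' = c2 ∧ col c1 = col c1')) :
    Clk m lv col where
  N := Am Gam PM m
  nmL := nL Gam PM lv nmL
  nmR := nR Gam PM m lv nmR
  bL := bt Gam PM
  bR := bR Gam PM m lv nmR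
  beta := bt Gam PM
  Gd := fun n => ∀ k ∈ Ms, ¬ k ∣ n
  Bad := BadN Gam PM m Ms
  left_lt := by
    intro t g h
    rw [nL_iff] at h
    exact h.2.2.trans_le (Am_mono _ _ (hlv g))
  right_ge := by
    intro t g h
    rw [nR_iff] at h
    exact h.2.1
  good := by
    intro t t' g g' hG hL hR
    have hR0 := hR
    rw [nL_iff] at hL
    rw [nR_iff] at hR
    obtain ⟨hL1, hL2, hL3⟩ := hL
    obtain ⟨hR1, hR2, hR3, hR4⟩ := hR
    obtain rfl := h3 _ _ _ _ hG hL1 hR1
    refine ⟨rfl, ?_, ?_⟩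
    · intro l hl
      have ha : Am Gam PM l ≤ t := (Am_mono _ _ hl).trans ((Nat.le_add_right _ _).trans hL2)
      have he : bt Gam PM (t + t') l = bt Gam PM t l := by
        unfold bt
        obtain ⟨x, hx⟩ := (G_dvd Gam hl).trans hR3
        have : t + t' - Am Gam PM l = (t - Am Gam PM l) + G Gam l * x := by omega
        rw [this, Nat.add_mul_mod_self_left]
      refine ⟨he.symm, ?_⟩
      rw [he]
      unfold bt
      have := Nat.mod_le (t - Am Gam PM l) (G Gam l)
      omega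
    · intro l hl hl'
      have hb : bR Gam PM m lv nmR t' l =
          G Gam l * ((t' + A Gam PM (lv g) - Am Gam PM l) / G Gam l) := by
        unfold bR; rw [hR0]
      have hAl : Am Gam PM l ≤ t' := (Am_mono _ _ hl').trans hR2
      have hlt : t < Am Gam PM l := hL3.trans_le (Am_mono _ _ hl)
      refine ⟨?_, ?_⟩
      · rw [hb]
        unfold bt
        set lo := t' + A Gam PM (lv g) - Am Gam PM l with hlo
        have hd : t + t' - Am Gam PM l = lo + (t - A Gam PM (lv g)) := by omega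
        have hdelta : t - A Gam PM (lv g) < PM * G Gam (lv g) := by
          rw [Am_succ] at hL3; omega
        have hc := hR4 l hl hl'
        rw [← hlo] at hc
        have hGl := G_pos Gam hGam l
        have hdm := Nat.div_add_mod lo (G Gam l)
        have hmod : (lo + (t - A Gam PM (lv g))) % G Gam l =
            lo % G Gam l + (t - A Gam PM (lv g)) := by
          conv_lhs => rw [← hdm, Nat.add_assoc, Nat.mul_add_mod]
          exact Nat.mod_eq_of_lt (by omega)
        rw [hd, hmod]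
        omega
      · unfold bt
        omega
  bad := by
    intro t₁ t₁' t₂ t₂' g₁ g₁' g₂ g₂' hG ht a1 a2 a3 a4
    rw [nL_iff] at a1 a3
    rw [nR_iff] at a2 a4
    push Not at hG
    rcases h5 _ _ _ _ _ _ _ _ ht hG a1.1 a2.1 a3.1 a4.1 with ⟨x, y⟩ | ⟨x, y, z⟩
    · rw [x, y]; exact ⟨rfl, rfl⟩
    · subst x; subst y; exact ⟨z, z.symm⟩
  complete := by
    intro n hn hB
    unfold BadN at hB
    push Not at hB
    obtain ⟨hB1, hB2⟩ := hB
    refine ⟨hB1, fun g => ?_⟩
    have hm : lv g + 1 ≤ m := hlv g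
    have hAm : Am Gam PM (lv g + 1) ≤ Am Gam PM m := Am_mono _ _ hm
    have hGi := G_pos Gam hGam (lv g)
    have hPMle : PM ≤ Am Gam PM (lv g + 1) := by
      rw [Am_succ]
      calc PM = PM * 1 := (Nat.mul_one _).symm
        _ ≤ PM * G Gam (lv g) := Nat.mul_le_mul_left _ hGi
        _ ≤ _ := Nat.le_add_left _ _
    obtain ⟨t0, -, ht0, ht0n, hL, hR⟩ := h4 n g 0 hB1 (by rw [← hPM]; omega)
    rw [← hPM] at ht0
    have hcop' : Nat.Coprime PM (G Gam (lv g)) := Nat.Coprime.pow_right _ hcop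
    obtain ⟨k, hk1, hk2⟩ := Nat.chineseRemainder hcop' t0 n
    obtain ⟨t, ht1, ht2, ht3⟩ := Names_570.exists_shift k (A Gam PM (lv g)) (PM * G Gam (lv g))
      (Nat.mul_pos hPM0 hGi)
    have htk : t ≡ k [MOD PM * G Gam (lv g)] := ht3
    have hta : t ≡ t0 [MOD PM] := (Nat.ModEq.of_mul_right _ htk).trans hk1
    have htb : t ≡ n [MOD G Gam (lv g)] := (Nat.ModEq.of_mul_left _ htk).trans hk2
    have htn : t ≤ n := by rw [Am_succ] at hAm; omega
    have hperL : Function.Periodic nmL PM := fun x => by rw [hPM]; exact h1 x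
    have hperR : Function.Periodic nmR PM := fun x => by rw [hPM]; exact h2 x
    have eL : nmL t = some g := by
      rw [← hL, ← hperL.map_mod_nat t, ← hperL.map_mod_nat t0, hta]
    have hta' : n - t ≡ n - t0 [MOD PM] := by
      have e1 : (n - t) + t ≡ (n - t0) + t0 [MOD PM] := by
        rw [Nat.sub_add_cancel htn, Nat.sub_add_cancel ht0n]
      exact Nat.ModEq.add_right_cancel hta e1
    have eR : nmR (n - t) = some g := by
      rw [← hR, ← hperR.map_mod_nat (n - t), ← hperR.map_mod_nat (n - t0), hta']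
    refine ⟨t, n - t, by omega, ?_, ?_⟩
    · rw [nL_iff]
      exact ⟨eL, ht1, by rw [Am_succ]; exact ht2⟩
    · rw [nR_iff]
      refine ⟨eR, by rw [Am_succ] at hAm; omega, (Nat.modEq_iff_dvd' htn).1 htb, ?_⟩
      intro j hj hj'
      obtain ⟨c1, c2⟩ := hB2 j (by omega) hj'
      have hGG : PM * G Gam (lv g) ≤ PM * G Gam (j - 1) :=
        Nat.mul_le_mul_left _ (Nat.pow_le_pow_right hGam (by omega))
      have hAj : Am Gam PM j ≤ Am Gam PM m := Am_mono _ _ hj'
      have hdm := Nat.div_add_mod (n - Am Gam PM j) (G Gam j)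
      have hGj := G_pos Gam hGam j
      have hmlt := Nat.mod_lt (n - Am Gam PM j) hGj
      have hAAm := hAm
      rw [Am_succ] at hAAm
      have e1 : n - t + A Gam PM (lv g) - Am Gam PM j = G Gam j * ((n - Am Gam PM j) / G Gam j) +
          ((n - Am Gam PM j) % G Gam j - (t - A Gam PM (lv g))) := by omega
      rw [e1, Nat.mul_add_mod, Nat.mod_eq_of_lt (by omega)]
      omega
  beta_mono := by
    intro n hn l hl
    unfold bt
    have hGl := G_pos Gam hGam l
    have := Nat.mod_lt (n - Am Gam PM l) hGl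
    have h := Am_succ Gam PM l
    unfold A at h
    omega
  beta_le := by
    intro n hn l hl
    unfold bt
    have := Nat.mod_le (n - Am Gam PM l) (G Gam l)
    have := (Am_mono Gam PM hl).trans hn
    omega

end clk

end Crest.Agent.R320.Grid7
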