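import Mathlib
import Crest.Agent.R320.Noise_513
import Crest.Agent.R320.Names_570

/-!
# Row 320: the grid gadget of helper693 (#13203) in helper638's UG form
No small walls; all contents; hole ends on nested grids anchored at the right end of the zone.
-/

namespace Crest.Agent.R320.Grid791

open Finset

set_option linter.unusedSectionVars false

/-- grid sizes -/
def G (Γ j : ℕ) : ℕ := Γ ^ (j + 1)

/-- lower ends of the windows of the levels -/
def lo (Γ M : ℕ) : ℕ → ℕ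
  | 0 => 0
  | j + 1 => lo Γ M j + G Γ j + M * G Γ j

/-- the `j`-th boundary of a zone with `T` units -/
def beta (Γ M T j : ℕ) : ℕ := lo Γ M j + (T - lo Γ M j) % G Γ j

theorem G_pos {Γ : ℕ} (h : 0 < Γ) (j : ℕ) : 0 < G Γ j := Nat.pow_pos h

theorem G_dvd (Γ : ℕ) {i j : ℕ} (h : i ≤ j) : G Γ i ∣ G Γ j :=
  Nat.pow_dvd_pow _ (by omega)

theorem G_mono {Γ : ℕ} (h : 0 < Γ) {i j : ℕ} (hij : i ≤ j) : G Γ i ≤ G Γ j :=
  Nat.le_of_dvd (G_pos h j) (G_dvd Γ hij)

theorem lo_succ (Γ M j : ℕ) : lo Γ M (j + 1) = lo Γ M j + G Γ j + M * G Γ j := rfl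

theorem lo_mono (Γ M : ℕ) {i j : ℕ} (h : i ≤ j) : lo Γ M i ≤ lo Γ M j := by
  induction j, h using Nat.le_induction with
  | base => exact le_rfl
  | succ j _ ih => rw [lo_succ]; omega

theorem lo_lt (Γ M : ℕ) {i j : ℕ} (h : i < j) :
    lo Γ M i + G Γ i + M * G Γ i ≤ lo Γ M j := by
  have := lo_mono Γ M (show i + 1 ≤ j from h)
  rwa [lo_succ] at this

theorem le_beta (Γ M T j : ℕ) : lo Γ M j ≤ beta Γ M T j := Nat.le_add_right _ _

theorem beta_lt {Γ : ℕ} (h : 0 < Γ) (M T j : ℕ) : beta Γ M T j < lo Γ M j + G Γ j :=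
  Nat.add_lt_add_left (Nat.mod_lt _ (G_pos h j)) _

theorem beta_mono {Γ : ℕ} (h : 0 < Γ) (M T : ℕ) {i j : ℕ} (hij : i < j) :
    beta Γ M T i ≤ beta Γ M T j := by
  have h1 := beta_lt h M T i
  have h2 := le_beta Γ M T j
  have h3 := lo_lt Γ M hij
  omega

/-- what the left side knows -/
theorem beta_left {Γ M i j o o' : ℕ} (hji : j ≤ i) (ho : lo Γ M i ≤ o) (ho' : G Γ i ∣ o') :
    beta Γ M (o + o') j = beta Γ M o j := by
  have h1 : lo Γ M j ≤ o := (lo_mono Γ M hji).trans ho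
  obtain ⟨q, hq⟩ := (G_dvd Γ hji).trans ho'
  unfold beta
  rw [show o + o' - lo Γ M j = (o - lo Γ M j) + G Γ j * q by omega, Nat.add_mul_mod_self_left]

/-- what the right side knows -/
theorem beta_right {Γ M i j o o' : ℕ}
    (ho1 : lo Γ M i + G Γ i ≤ o) (ho2 : o < lo Γ M i + G Γ i + M * G Γ i)
    (hj : lo Γ M j ≤ o')
    (hcr : (lo Γ M i + G Γ i + o' - lo Γ M j) / G Γ j =
      (lo Γ M i + G Γ i + o' + M * G Γ i - lo Γ M j) / G Γ j) :
    beta Γ M (o + o') j + G Γ j * ((lo Γ M i + G Γ i + o' - lo Γ M j) / G Γ j) = o + o' := by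
  have h1 : (o + o' - lo Γ M j) / G Γ j = (lo Γ M i + G Γ i + o' - lo Γ M j) / G Γ j := by
    apply le_antisymm
    · rw [hcr]; exact Nat.div_le_div_right (by omega)
    · exact Nat.div_le_div_right (by omega)
  rw [← h1]
  have h2 := Nat.mod_add_div (o + o' - lo Γ M j) (G Γ j)
  unfold beta
  omega

/-- an element of a residue class in a window -/
theorem exists_window {L : ℕ} (hL : 0 < L) (A k : ℕ) : ∃ o, A ≤ o ∧ o < A + L ∧ o ≡ k [MOD L] := by
  refine ⟨A + (k + L * A - A) % L, by omega, Nat.add_lt_add_left (Nat.mod_lt _ hL) _, ?_⟩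
  have hA : A ≤ L * A := Nat.le_mul_of_pos_left A hL
  have h1 : A + (k + L * A - A) % L ≡ A + (k + L * A - A) [MOD L] :=
    Nat.ModEq.add_left A (Nat.mod_modEq _ _)
  have h2 : A + (k + L * A - A) = k + L * A := by omega
  rw [h2] at h1
  refine h1.trans ?_
  simp [Nat.ModEq]

theorem per_congr {β : Type*} {M : ℕ} {f : ℕ → β} (hf : ∀ t, f (t + M) = f t) {s t : ℕ}
    (h : s ≡ t [MOD M]) : f s = f t := by
  have hp : Function.Periodic f M := hf
  rw [← hp.map_mod_nat s, ← hp.map_mod_nat t, h]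

/-- the place of a name in the cell -/
theorem exists_place {β : Type*} {M g A T t : ℕ} (hM : 0 < M) (hg : 0 < g)
    (hc : Nat.Coprime M g) {nmL nmR : ℕ → β} (hL : ∀ t, nmL (t + M) = nmL t)
    (hR : ∀ t, nmR (t + M) = nmR t) (ht : t ≤ T) (hT : A + M * g ≤ T + 1) :
    ∃ o, A ≤ o ∧ o < A + M * g ∧ o ≤ T ∧ g ∣ T - o ∧ nmL o = nmL t ∧
      nmR (T - o) = nmR (T - t) := by
  obtain ⟨k, hk1, hk2⟩ := Nat.chineseRemainder hc t T
  obtain ⟨o, ho1, ho2, ho3⟩ := exists_window (Nat.mul_pos hM hg) A k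
  have h1 : o ≡ t [MOD M] := (ho3.of_mul_right g).trans hk1
  have h2 : o ≡ T [MOD g] := (ho3.of_mul_left M).trans hk2
  have ho : o ≤ T := by omega
  refine ⟨o, ho1, ho2, ho, (Nat.modEq_iff_dvd' ho).1 h2, per_congr hL h1, per_congr hR ?_⟩
  have h3 : (T - o) + o = (T - t) + t := by omega
  exact Nat.ModEq.add_right_cancel h1 (by rw [h3])

/-- no multiple of the grid near `T`: the quotient is constant -/
theorem no_cross {g x l u c : ℕ} (hg : 0 < g) (hlx : l ≤ x) (hxu : x ≤ u) (hul : u ≤ l + c)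
    (h : ∀ z : ℤ, ¬ |(x : ℤ) - g * z| ≤ c) : l / g = u / g := by
  refine le_antisymm (Nat.div_le_div_right (hlx.trans hxu)) ?_
  by_contra hcon
  push Not at hcon
  have h1 : l < g * (u / g) := by
    have := Nat.lt_mul_div_succ l hg
    have h2 : g * (l / g + 1) ≤ g * (u / g) := Nat.mul_le_mul_left g hcon
    omega
  have h3 : g * (u / g) ≤ u := Nat.mul_div_le u g
  refine h (u / g : ℕ) ?_
  have h4 : ((g * (u / g) : ℕ) : ℤ) = (g : ℤ) * ((u / g : ℕ) : ℤ) := by push_cast; ring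
  rw [← h4, abs_le]
  constructor <;> omega

section words

variable {α S V W : Type}

/-- `j`-th block of a text cut at `Mp * b j` -/
def blk (Mp : ℕ) (phi : List α → S) (b : ℕ → ℕ) (u : List α) (j : ℕ) : S :=
  phi ((u.take (Mp * b (j + 1))).drop (Mp * b j))

theorem split3 (u : List α) {p q : ℕ} (h : p ≤ q) :
    u = u.take p ++ (u.take q).drop p ++ u.drop q := by
  have h1 : u.take p = (u.take q).take p := by rw [List.take_take, min_eq_left h]
  rw [h1, List.take_append_drop, List.take_append_drop]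

theorem seg_left (P Q : List α) {p q : ℕ} (h : q ≤ P.length) :
    ((P ++ Q).take q).drop p = (P.take q).drop p := by
  rw [List.take_append_of_le_length h]

theorem seg_right (P Q : List α) {p q : ℕ} :
    ((P ++ Q).take (P.length + q)).drop (P.length + p) = (Q.take q).drop p := by
  rw [List.take_append, List.drop_append]
  simp

theorem drop_right (P Q : List α) {p : ℕ} :
    (P ++ Q).drop (P.length + p) = Q.drop p := by
  rw [List.drop_append]
  simp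

/-- contexts -/
abbrev Ctx (m : ℕ) (S V W : Type) := Fin m × S × W × S × W × V

variable [Monoid S] [AddCommGroup V] [AddCommGroup W]

structure Dat (α S V W : Type) (m : ℕ) where
  Γ : ℕ
  M : ℕ
  Mp : ℕ
  e : ℕ → S → W
  F : S → W → V
  act : V → S → V
  phi : List α → S
  nmL : ℕ → Option (Ctx m S V W)
  nmR : ℕ → Option (Ctx m S V W)

namespace Dat

variable {m : ℕ} (D : Dat α S V W m)

def good (c : Ctx m S V W) : Prop :=
  ∃ b, ∀ z, D.F (c.2.1 * z * c.2.2.2.1) (c.2.2.1 + D.e c.1 z + c.2.2.2.2.1) +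
    D.act c.2.2.2.2.2 (c.2.1 * z * c.2.2.2.1) = b

open Classical in
noncomputable def bb (c : Ctx m S V W) : V := if h : D.good c then h.choose else 0

theorem bb_spec {c : Ctx m S V W} (h : D.good c) (z : S) :
    D.F (c.2.1 * z * c.2.2.2.1) (c.2.2.1 + D.e c.1 z + c.2.2.2.2.1) +
    D.act c.2.2.2.2.2 (c.2.1 * z * c.2.2.2.1) = D.bb c := by
  unfold bb
  rw [dif_pos h]
  exact h.choose_spec z

/-- bound for the lengths of left words -/
def N : ℕ := D.Mp * (lo D.Γ D.M m + G D.Γ m)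

/-- boundaries measured from a cut with `o'` units to the right, level `i` -/
def gam (i o' j : ℕ) : ℕ :=
  o' - G D.Γ j * ((lo D.Γ D.M i + G D.Γ i + o' - lo D.Γ D.M j) / G D.Γ j)

structure LL (P : List α) (c : Ctx m S V W) : Prop where
  dvd : D.Mp ∣ P.length
  nm : D.nmL (P.length / D.Mp) = some c
  h1 : lo D.Γ D.M c.1 + G D.Γ c.1 ≤ P.length / D.Mp
  h2 : P.length / D.Mp < lo D.Γ D.M c.1 + G D.Γ c.1 + D.M * G D.Γ c.1
  hg : D.phi (P.take (D.Mp * beta D.Γ D.M (P.length / D.Mp) c.1)) = c.2.1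
  hw : ∑ j ∈ range c.1, D.e j (blk D.Mp D.phi (beta D.Γ D.M (P.length / D.Mp)) P j) = c.2.2.1
  gd : D.good c

structure RR (Q : List α) (c : Ctx m S V W) : Prop where
  len : D.N ≤ Q.length
  nm : D.nmR (Q.length / D.Mp) = some c
  gr : G D.Γ c.1 ∣ Q.length / D.Mp
  cr : ∀ j, (c.1 : ℕ) < j → j ≤ m →
    (lo D.Γ D.M c.1 + G D.Γ c.1 + Q.length / D.Mp - lo D.Γ D.M j) / G D.Γ j =
      (lo D.Γ D.M c.1 + G D.Γ c.1 + Q.length / D.Mp + D.M * G D.Γ c.1 - lo D.Γ D.M j) / G D.Γ j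
  hh : D.phi (Q.drop (D.Mp * D.gam c.1 (Q.length / D.Mp) (c.1 + 1))) = c.2.2.2.1
  hw : ∑ j ∈ Ico (c.1 + 1 : ℕ) m, D.e j (blk D.Mp D.phi (D.gam c.1 (Q.length / D.Mp)) Q j) =
    c.2.2.2.2.1

/-- weight of a zone -/
def wt (u : List α) : W :=
  ∑ j ∈ range m, D.e j (blk D.Mp D.phi (beta D.Γ D.M (u.length / D.Mp)) u j)

/-- the zone seen from a cut of level `i` -/
theorem zone_eq (hΓ : 0 < D.Γ) (hMp : 0 < D.Mp)
    {P Q : List α} {o o' i : ℕ} (hi : i < m) (hP : P.length = D.Mp * o)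
    (hQ : Q.length / D.Mp = o') (hN : D.N ≤ Q.length)
    (h1 : lo D.Γ D.M i + G D.Γ i ≤ o) (h2 : o < lo D.Γ D.M i + G D.Γ i + D.M * G D.Γ i)
    (gr : G D.Γ i ∣ o')
    (cr : ∀ j, i < j → j ≤ m →
      (lo D.Γ D.M i + G D.Γ i + o' - lo D.Γ D.M j) / G D.Γ j =
      (lo D.Γ D.M i + G D.Γ i + o' + D.M * G D.Γ i - lo D.Γ D.M j) / G D.Γ j) :
    (P ++ Q).length / D.Mp = o + o' ∧
    (P ++ Q).take (D.Mp * beta D.Γ D.M (o + o') i) = P.take (D.Mp * beta D.Γ D.M o i) ∧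
    (P ++ Q).drop (D.Mp * beta D.Γ D.M (o + o') (i + 1)) = Q.drop (D.Mp * D.gam i o' (i + 1)) ∧
    (∀ j < i, blk D.Mp D.phi (beta D.Γ D.M (o + o')) (P ++ Q) j =
      blk D.Mp D.phi (beta D.Γ D.M o) P j) ∧
    (∀ j, i < j → j < m → blk D.Mp D.phi (beta D.Γ D.M (o + o')) (P ++ Q) j =
      blk D.Mp D.phi (D.gam i o') Q j) := by
  have hT : (P ++ Q).length / D.Mp = o + o' := by
    rw [List.length_append, hP, ← hQ, Nat.mul_add_div hMp]
  have ho' : lo D.Γ D.M m + G D.Γ m ≤ o' := by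
    rw [← hQ, Nat.le_div_iff_mul_le hMp, mul_comm]
    exact hN
  have hbl : ∀ j ≤ i, beta D.Γ D.M (o + o') j = beta D.Γ D.M o j := fun j hj =>
    beta_left hj (by omega) gr
  have hbo : ∀ j ≤ i, beta D.Γ D.M o j ≤ o := fun j hj => by
    have h3 := beta_lt hΓ D.M o j
    have h4 := lo_mono D.Γ D.M hj
    have h5 := G_mono hΓ hj
    omega
  have hbr : ∀ j, i < j → j ≤ m → beta D.Γ D.M (o + o') j = o + D.gam i o' j := fun j hj hjm => by
    have h3 := beta_right h1 h2 (show lo D.Γ D.M j ≤ o' by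
      have := lo_mono D.Γ D.M hjm; omega) (cr j hj hjm)
    have h4 := le_beta D.Γ D.M (o + o') j
    have h5 := lo_lt D.Γ D.M hj
    unfold gam
    omega
  have hle : D.Mp * beta D.Γ D.M o i ≤ P.length := by
    rw [hP]; exact Nat.mul_le_mul_left _ (hbo i le_rfl)
  refine ⟨hT, ?_, ?_, ?_, ?_⟩
  · rw [hbl i le_rfl, List.take_append_of_le_length hle]
  · rw [hbr (i + 1) (by omega) hi, mul_add, ← hP, drop_right]
  · intro j hj
    unfold blk
    rw [hbl j hj.le, hbl (j + 1) hj, seg_left]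
    rw [hP]; exact Nat.mul_le_mul_left _ (hbo (j + 1) hj)
  · intro j hj hjm
    unfold blk
    rw [hbr j hj hjm.le, hbr (j + 1) (by omega) hjm, mul_add, mul_add, ← hP, seg_right]

theorem phi_split (hphi : ∀ u v, D.phi (u ++ v) = D.phi u * D.phi v) (hΓ : 0 < D.Γ) (u : List α)
    (T i : ℕ) :
    D.phi u = D.phi (u.take (D.Mp * beta D.Γ D.M T i)) * blk D.Mp D.phi (beta D.Γ D.M T) u i *
      D.phi (u.drop (D.Mp * beta D.Γ D.M T (i + 1))) := by
  unfold blk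
  rw [← hphi, ← hphi, ← split3 u (Nat.mul_le_mul_left _ (beta_mono hΓ D.M T (Nat.lt_succ_self i)))]

theorem wt_split (u : List α) {i : ℕ} (hi : i < m) (b : ℕ → ℕ) :
    ∑ j ∈ range m, D.e j (blk D.Mp D.phi b u j) =
      ∑ j ∈ range i, D.e j (blk D.Mp D.phi b u j) + D.e i (blk D.Mp D.phi b u i) +
        ∑ j ∈ Ico (i + 1) m, D.e j (blk D.Mp D.phi b u j) := by
  rw [← Finset.sum_range_succ, Finset.sum_range_add_sum_Ico _ hi]

theorem sound (hphi : ∀ u v, D.phi (u ++ v) = D.phi u * D.phi v) (hΓ : 0 < D.Γ) (hMp : 0 < D.Mp)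
    {P Q : List α} {c : Ctx m S V W} (hL : D.LL P c) (hR : D.RR Q c) :
    D.F (D.phi (P ++ Q)) (D.wt (P ++ Q)) + D.act c.2.2.2.2.2 (D.phi (P ++ Q)) = D.bb c := by
  obtain ⟨hT, ht, hd, hl, hr⟩ := D.zone_eq hΓ hMp c.1.2 (P := P) (Q := Q) (o := P.length / D.Mp)
    (by rw [Nat.mul_div_cancel' hL.dvd]) rfl hR.len hL.h1 hL.h2 hR.gr hR.cr
  have h1 := D.phi_split hphi hΓ (P ++ Q) (P.length / D.Mp + Q.length / D.Mp) c.1
  rw [ht, hd, hL.hg, hR.hh] at h1
  have h2 : D.wt (P ++ Q) = c.2.2.1 +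
      D.e c.1 (blk D.Mp D.phi (beta D.Γ D.M (P.length / D.Mp + Q.length / D.Mp)) (P ++ Q) c.1) +
      c.2.2.2.2.1 := by
    unfold wt
    rw [hT, D.wt_split _ c.1.2, ← hL.hw, ← hR.hw]
    congr 1
    · congr 1
      exact Finset.sum_congr rfl fun j hj => by rw [hl j (Finset.mem_range.1 hj)]
    · exact Finset.sum_congr rfl fun j hj => by
        rw [hr j (by have := (Finset.mem_Ico.1 hj).1; omega) (Finset.mem_Ico.1 hj).2]
  rw [h2, h1]
  exact D.bb_spec hL.gd _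

theorem complete (hphi : ∀ u v, D.phi (u ++ v) = D.phi u * D.phi v) (hΓ : 0 < D.Γ)
    (hMp : 0 < D.Mp) (hM : 0 < D.M) (hc : ∀ j, Nat.Coprime D.M (G D.Γ j))
    (hL : ∀ t, D.nmL (t + D.M) = D.nmL t) (hR : ∀ t, D.nmR (t + D.M) = D.nmR t)
    (hF : ∀ (s : S) (w : W) (v : V), ∃ i : Fin m, ∀ g x h : S, g * x * h = s →
        ∀ z : S, D.F (g * z * h) (w - D.e i x + D.e i z) + D.act v (g * z * h) =
          D.F s w + D.act v s)
    (u : List α) (hu : 2 * D.N ≤ u.length)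
    (hnm : ∀ c, ∃ t ≤ u.length / D.Mp, D.nmL t = some c ∧ D.nmR (u.length / D.Mp - t) = some c)
    (hg : ∀ j < m, ∀ z : ℤ, ¬ |((u.length / D.Mp : ℕ) : ℤ) - lo D.Γ D.M (j + 1) -
      (G D.Γ (j + 1) : ℕ) * z| ≤ ((D.M * G D.Γ j : ℕ) : ℤ)) (v : V) :
    ∃ P Q c, P ++ Q = u ∧ D.LL P c ∧ D.RR Q c ∧ c.2.2.2.2.2 = v := by
  obtain ⟨i, hi⟩ := hF (D.phi u) (D.wt u) v
  set T := u.length / D.Mp with hTdef
  let c : Ctx m S V W := (i, D.phi (u.take (D.Mp * beta D.Γ D.M T i)),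
    ∑ j ∈ range i, D.e j (blk D.Mp D.phi (beta D.Γ D.M T) u j),
    D.phi (u.drop (D.Mp * beta D.Γ D.M T (i + 1))),
    ∑ j ∈ Ico (i + 1 : ℕ) m, D.e j (blk D.Mp D.phi (beta D.Γ D.M T) u j), v)
  have hgood : D.good c := by
    refine ⟨D.F (D.phi u) (D.wt u) + D.act v (D.phi u), fun z => ?_⟩
    have h1 := hi _ _ _ (D.phi_split hphi hΓ u T i).symm z
    rw [← h1]
    have h2 : D.wt u - D.e i (blk D.Mp D.phi (beta D.Γ D.M T) u i) + D.e i z =
        c.2.2.1 + D.e c.1 z + c.2.2.2.2.1 := by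
      unfold wt
      rw [← hTdef, D.wt_split u i.2]
      simp only [c]
      abel
    rw [h2]
  obtain ⟨t, ht, hnL, hnR⟩ := hnm c
  have hNT : 2 * (lo D.Γ D.M m + G D.Γ m) ≤ T := by
    rw [hTdef, Nat.le_div_iff_mul_le hMp]
    unfold N at hu
    calc 2 * (lo D.Γ D.M m + G D.Γ m) * D.Mp = 2 * (D.Mp * (lo D.Γ D.M m + G D.Γ m)) := by ring
      _ ≤ _ := hu
  have hlom : lo D.Γ D.M i + G D.Γ i + D.M * G D.Γ i ≤ lo D.Γ D.M m := lo_lt D.Γ D.M i.2
  obtain ⟨o, ho1, ho2, ho3, ho4, ho5, ho6⟩ := exists_place (A := lo D.Γ D.M i + G D.Γ i)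
    hM (G_pos hΓ i) (hc i) hL hR ht (by omega)
  have hTu : D.Mp * T ≤ u.length := Nat.mul_div_le _ _
  have hou : D.Mp * o ≤ u.length := (Nat.mul_le_mul_left _ ho3).trans hTu
  have hPl : (u.take (D.Mp * o)).length = D.Mp * o := by
    rw [List.length_take, min_eq_left hou]
  have hQl : (u.drop (D.Mp * o)).length = u.length - D.Mp * o := List.length_drop
  have hQd : (u.drop (D.Mp * o)).length / D.Mp = T - o := by
    rw [hQl, Nat.sub_mul_div, ← hTdef]
  have hPd : (u.take (D.Mp * o)).length / D.Mp = o := by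
    rw [hPl, Nat.mul_div_cancel_left _ hMp]
  have hQN : D.N ≤ (u.drop (D.Mp * o)).length := by
    rw [hQl]
    have h1 : D.Mp * o ≤ D.N := Nat.mul_le_mul_left _ (by omega)
    omega
  have hcr : ∀ j, (i : ℕ) < j → j ≤ m →
      (lo D.Γ D.M i + G D.Γ i + (T - o) - lo D.Γ D.M j) / G D.Γ j =
      (lo D.Γ D.M i + G D.Γ i + (T - o) + D.M * G D.Γ i - lo D.Γ D.M j) / G D.Γ j := by
    intro j hj hjm
    obtain ⟨j', rfl⟩ : ∃ j', j = j' + 1 := ⟨j - 1, by omega⟩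
    have hloj := lo_mono D.Γ D.M hjm
    refine no_cross (x := T - lo D.Γ D.M (j' + 1)) (c := D.M * G D.Γ i) (G_pos hΓ _)
      (by omega) (by omega) (by omega) fun z hz => hg j' (by omega) z ?_
    have h1 : D.M * G D.Γ i ≤ D.M * G D.Γ j' := Nat.mul_le_mul_left _ (G_mono hΓ (by omega))
    rw [Nat.cast_sub (by omega)] at hz
    exact hz.trans (by exact_mod_cast h1)
  have hsp : u.take (D.Mp * o) ++ u.drop (D.Mp * o) = u := List.take_append_drop _ _
  have hoT : o + (T - o) = T := by omega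
  obtain ⟨hT', ht', hd', hl', hr'⟩ := D.zone_eq hΓ hMp i.2 (P := u.take (D.Mp * o))
    (Q := u.drop (D.Mp * o)) (o := o) (o' := T - o) hPl hQd hQN ho1 ho2 ho4 hcr
  rw [hsp, hoT] at ht' hd'
  simp only [hsp, hoT] at hl' hr'
  refine ⟨u.take (D.Mp * o), u.drop (D.Mp * o), c, hsp, ?_, ?_, rfl⟩
  · refine ⟨by rw [hPl]; exact Dvd.intro _ rfl, by rw [hPd, ho5, hnL], by rw [hPd]; exact ho1,
      by rw [hPd]; exact ho2, ?_, ?_, hgood⟩
    · rw [hPd]
      show D.phi (List.take (D.Mp * beta D.Γ D.M o i) (u.take (D.Mp * o))) = _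
      rw [← ht']
    · rw [hPd]
      show ∑ j ∈ range (i : ℕ), _ = ∑ j ∈ range (i : ℕ), _
      exact Finset.sum_congr rfl fun j hj => by rw [hl' j (Finset.mem_range.1 hj)]
  · refine ⟨hQN, by rw [hQd, ho6, hnR], by rw [hQd]; exact ho4, by rw [hQd]; exact hcr, ?_, ?_⟩
    · rw [hQd]
      show D.phi (List.drop (D.Mp * D.gam i (T - o) (i + 1)) (u.drop (D.Mp * o))) = _
      rw [← hd']
    · rw [hQd]
      show ∑ j ∈ Ico (i + 1 : ℕ) m, _ = ∑ j ∈ Ico (i + 1 : ℕ) m, _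
      exact Finset.sum_congr rfl fun j hj => by
        rw [hr' j (by have := (Finset.mem_Ico.1 hj).1; omega) (Finset.mem_Ico.1 hj).2]

end Dat

end words

end Crest.Agent.R320.Grid791
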