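import Mathlib
import Crest.Agent.R320.Grid_791

/-! Row 320: spoil count for the grid gadget (693 #13203 (4)) -/

namespace Crest.Agent.R320.Grid791

open Finset

theorem two_pow_add {a d b c : ℕ} (had : a ≤ d) (hbc : b ≤ c) (h : 2 ^ a + 2 ^ d = 2 ^ b + 2 ^ c) :
    a ≤ b := by
  by_contra hlt
  push Not at hlt
  -- b < a
  obtain ⟨k, rfl⟩ := Nat.exists_eq_add_of_lt hlt
  obtain ⟨l, rfl⟩ := Nat.exists_eq_add_of_le had
  obtain ⟨n, rfl⟩ := Nat.exists_eq_add_of_le hbc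
  have hx : 0 < 2 ^ b := Nat.pow_pos (by norm_num)
  have h1 : 2 ^ b * (2 ^ (k + 1) + 2 ^ (k + 1 + l)) = 2 ^ b * (1 + 2 ^ n) := by
    have e1 : 2 ^ b * (2 ^ (k + 1) + 2 ^ (k + 1 + l)) = 2 ^ (b + k + 1) + 2 ^ (b + k + 1 + l) := by
      rw [mul_add, ← pow_add, ← pow_add]; congr 2 <;> ring
    have e2 : 2 ^ b * (1 + 2 ^ n) = 2 ^ b + 2 ^ (b + n) := by rw [mul_add, ← pow_add]; ring
    rw [e1, e2, h]
  have h2 := Nat.eq_of_mul_eq_mul_left hx h1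
  have e3 : 2 ^ (k + 1) = 2 * 2 ^ k := by ring
  have e4 : 2 ^ (k + 1 + l) = 2 * 2 ^ (k + l) := by ring
  have p1 : 0 < 2 ^ k := Nat.pow_pos (by norm_num)
  have p2 : 0 < 2 ^ (k + l) := Nat.pow_pos (by norm_num)
  rcases n with _ | n
  · simp at h2
    omega
  · have e5 : 2 ^ (n + 1) = 2 * 2 ^ n := by ring
    omega

theorem two_pow_add' {a d b c : ℕ} (had : a ≤ d) (hbc : b ≤ c) (h : 2 ^ a + 2 ^ d = 2 ^ b + 2 ^ c) :
    a = b ∧ d = c := by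
  have h1 := two_pow_add had hbc h
  have h2 := two_pow_add hbc had h.symm
  obtain rfl : a = b := le_antisymm h1 h2
  exact ⟨rfl, Nat.pow_right_injective le_rfl (by simpa using h)⟩

theorem sidon {a b c d : ℕ} (hab : a ≠ b) (h : (2 : ℤ) ^ a - 2 ^ b = 2 ^ c - 2 ^ d) :
    a = c ∧ b = d := by
  have h' : 2 ^ a + 2 ^ d = 2 ^ b + 2 ^ c := by
    have : (2 : ℤ) ^ a + 2 ^ d = 2 ^ b + 2 ^ c := by linarith
    exact_mod_cast this
  rcases le_total a d with h1 | h1 <;> rcases le_total b c with h2 | h2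
  · exact absurd (two_pow_add' h1 h2 h').1 hab
  · obtain ⟨e1, e2⟩ := two_pow_add' h1 h2 (by rw [h', add_comm])
    exact ⟨e1, e2.symm⟩
  · obtain ⟨e1, e2⟩ := two_pow_add' h1 h2 (by rw [add_comm, h'])
    exact ⟨e2, e1.symm⟩
  · obtain ⟨e1, e2⟩ := two_pow_add' h1 h2 (by rw [add_comm, h', add_comm])
    exact absurd e2 hab

/-- rounding -/
theorem q_mono {T r r' Mp : ℤ} (hMp : 0 < Mp) (h : r ≤ r') :
    (T + r) / Mp ≤ (T + r') / Mp ∧ (T + r') / Mp - (T + r) / Mp ≤ r' - r := by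
  refine ⟨Int.ediv_le_ediv hMp (by linarith), ?_⟩
  have h1 : (T + r') / Mp < (T + r) / Mp + 1 + (r' - r) := by
    rw [Int.ediv_lt_iff_lt_mul hMp]
    have h2 := Int.lt_mul_ediv_self_add (x := T + r) hMp
    have h3 : r' - r ≤ (r' - r) * Mp := by nlinarith
    nlinarith
  linarith

def sumG (Γ j : ℕ) : ℕ := ∑ l ∈ range (j + 1), G Γ l

theorem sumG_le {Γ : ℕ} (hΓ : 2 ≤ Γ) (j : ℕ) : sumG Γ j ≤ 2 * G Γ j := by
  induction j with
  | zero => simp [sumG]; omega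
  | succ j ih =>
    have h1 : sumG Γ (j + 1) = sumG Γ j + G Γ (j + 1) := by
      unfold sumG; rw [Finset.sum_range_succ]
    have h2 : G Γ (j + 1) = G Γ j * Γ := by unfold G; ring
    have h3 : G Γ j * 2 ≤ G Γ j * Γ := Nat.mul_le_mul_left _ hΓ
    omega

theorem sumG_split (Γ : ℕ) {j m : ℕ} (h : j < m) : ∃ t, sumG Γ m = sumG Γ j + G Γ (j + 1) * t := by
  have h1 : G Γ (j + 1) ∣ ∑ l ∈ Ico (j + 1) (m + 1), G Γ l :=
    Finset.dvd_sum fun l hl => G_dvd Γ (Finset.mem_Ico.1 hl).1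
  obtain ⟨t, ht⟩ := h1
  refine ⟨t, ?_⟩
  rw [← ht]
  unfold sumG
  rw [Finset.sum_range_add_sum_Ico _ (by omega)]

/-- the spacing -/
def XX (Γ M m : ℕ) : ℕ := 4 + 4 * M * sumG Γ m

/-- the ruler -/
def xr (Mp X a : ℕ) : ℕ := 2 ^ a * (1 + Mp * X)

def Bad1 (Γ M m : ℕ) (Ms : Finset ℕ) (T : ℕ) : Prop :=
  (∃ k ∈ Ms, k ∣ T) ∨ ∃ j < m, ∃ z : ℤ, |(T : ℤ) - lo Γ M (j + 1) -
      (G Γ (j + 1) : ℕ) * z| ≤ ((M * G Γ j : ℕ) : ℤ)

theorem cast_quot {Mp X T a b K : ℕ} (hb : b < K) (hT : 2 ^ K * (1 + Mp * X) ≤ T)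
    (hMp : 0 < Mp) :
    (((T + xr Mp X a - xr Mp X b) / Mp : ℕ) : ℤ) =
      ((T : ℤ) + ((2 : ℤ) ^ a - 2 ^ b)) / Mp + ((2 : ℤ) ^ a - 2 ^ b) * X := by
  have h1 : xr Mp X b ≤ T := by
    refine le_trans ?_ hT
    exact Nat.mul_le_mul_right _ (Nat.pow_le_pow_right (by norm_num) hb.le)
  rw [Int.natCast_div, Nat.cast_sub (by omega)]
  have h2 : ((T + xr Mp X a : ℕ) : ℤ) - (xr Mp X b : ℕ) =
      ((T : ℤ) + ((2 : ℤ) ^ a - 2 ^ b)) + (Mp : ℤ) * (((2 : ℤ) ^ a - 2 ^ b) * X) := by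
    unfold xr
    push_cast
    ring
  rw [h2, Int.add_mul_ediv_left _ _ (by exact_mod_cast hMp.ne')]

/-- the key separation -/
theorem sep {T Mp r r' : ℤ} (hMp : 0 < Mp) {R Y Gj w X t z : ℤ} (hrr : r < r') (hR : r' - r ≤ R)
    (hX : X = Y + Gj * t) (hY : 0 ≤ Y) (hw : 2 * w < Y) (hG : R * (Y + 1) + 2 * w < Gj)
    (h : |((T + r') / Mp + r' * X) - ((T + r) / Mp + r * X) - Gj * z| ≤ 2 * w) : False := by
  obtain ⟨h1, h2⟩ := q_mono hMp hrr.le (T := T)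
  set q := (T + r) / Mp
  set q' := (T + r') / Mp
  have hd : 1 ≤ r' - r := by linarith
  have hGj : 0 < Gj := by nlinarith [abs_nonneg (q' + r' * X - (q + r * X) - Gj * z)]
  have hE1 : Y ≤ (q' - q) + (r' - r) * Y := by nlinarith
  have hE2 : (q' - q) + (r' - r) * Y ≤ R * (Y + 1) := by nlinarith
  have e : q' + r' * X - (q + r * X) - Gj * z = ((q' - q) + (r' - r) * Y) - Gj * (z - (r' - r) * t) := by
    rw [hX]; ring
  rw [e, abs_le] at h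
  rcases le_or_gt (z - (r' - r) * t) 0 with hz | hz
  · nlinarith
  · have : Gj * 1 ≤ Gj * (z - (r' - r) * t) := mul_le_mul_of_nonneg_left (by linarith) hGj.le
    linarith

theorem abs_sub_le' {x y c g z z' w : ℤ} (h1 : |x - c - g * z| ≤ w) (h2 : |y - c - g * z'| ≤ w) :
    |x - y - g * (z - z')| ≤ 2 * w := by
  rw [abs_le] at *
  constructor <;> nlinarith

theorem rle {a b K : ℕ} (ha : a < K) (hb : b < K) :
    (2 : ℤ) ^ a - 2 ^ b ≤ 2 ^ K ∧ -(2 : ℤ) ^ K ≤ (2 : ℤ) ^ a - 2 ^ b := by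
  have h1 : (2 : ℤ) ^ a ≤ 2 ^ K := pow_le_pow_right₀ (by norm_num) ha.le
  have h2 : (2 : ℤ) ^ b ≤ 2 ^ K := pow_le_pow_right₀ (by norm_num) hb.le
  have h3 : (0 : ℤ) < 2 ^ a := by positivity
  have h4 : (0 : ℤ) < 2 ^ b := by positivity
  constructor <;> linarith

/-- two pairs with the same witness are equal -/
theorem pair_eq {K Mp T a b c d : ℕ} {Y Gj w X t z z' c0 : ℤ} (hMp : 0 < Mp) (ha : a < K) (hb : b < K)
    (hc : c < K) (hd : d < K) (hab : a ≠ b)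
    (hX : X = Y + Gj * t) (hY : 0 ≤ Y) (hw : 2 * w < Y) (hG : 2 ^ (K + 1) * (Y + 1) + 2 * w < Gj)
    (h1 : |((T : ℤ) + ((2 : ℤ) ^ a - 2 ^ b)) / Mp + ((2 : ℤ) ^ a - 2 ^ b) * X - c0 - Gj * z| ≤ w)
    (h2 : |((T : ℤ) + ((2 : ℤ) ^ c - 2 ^ d)) / Mp + ((2 : ℤ) ^ c - 2 ^ d) * X - c0 - Gj * z'| ≤ w) :
    a = c ∧ b = d := by
  have hMp' : (0 : ℤ) < Mp := by exact_mod_cast hMp
  obtain ⟨r1, r2⟩ := rle ha hb
  obtain ⟨r3, r4⟩ := rle hc hd
  have e : (2 : ℤ) ^ (K + 1) = 2 * 2 ^ K := by ring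
  rcases lt_trichotomy ((2 : ℤ) ^ a - 2 ^ b) (2 ^ c - 2 ^ d) with h | h | h
  · exact (sep hMp' h (R := 2 ^ (K + 1)) (by linarith) hX hY hw hG (abs_sub_le' h2 h1)).elim
  · exact sidon hab h
  · exact (sep hMp' h (R := 2 ^ (K + 1)) (by linarith) hX hY hw hG (abs_sub_le' h1 h2)).elim

open Classical in
theorem count {Γ M m K Mp : ℕ} {Ms : Finset ℕ} (hMp : 0 < Mp) (hM : 0 < M)
    (hMs : ∀ k ∈ Ms, 5 * 2 ^ (K + 1) < k ∧ k ∣ M)
    (hΓ : 2 ^ (K + 1) * (14 * M) + 2 * M < Γ) {T : ℕ} (hT : 2 ^ K * (1 + Mp * XX Γ M m) ≤ T) :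
    (((range K ×ˢ range K).filter fun ab => ab.1 ≠ ab.2 ∧
      Bad1 Γ M m Ms ((T + xr Mp (XX Γ M m) ab.1 - xr Mp (XX Γ M m) ab.2) / Mp)).card) ≤
      Ms.card + m := by
  set X := XX Γ M m with hX
  let f : ℕ × ℕ → ℕ := fun ab => (T + xr Mp X ab.1 - xr Mp X ab.2) / Mp
  let S1 : ℕ → Finset (ℕ × ℕ) := fun k =>
    (range K ×ˢ range K).filter fun ab => ab.1 ≠ ab.2 ∧ k ∣ f ab
  let S2 : ℕ → Finset (ℕ × ℕ) := fun j =>
    (range K ×ˢ range K).filter fun ab => ab.1 ≠ ab.2 ∧ ∃ z : ℤ, |((f ab : ℕ) : ℤ) - lo Γ M (j + 1) -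
      (G Γ (j + 1) : ℕ) * z| ≤ ((M * G Γ j : ℕ) : ℤ)
  have hsub : ((range K ×ˢ range K).filter fun ab => ab.1 ≠ ab.2 ∧
      Bad1 Γ M m Ms ((T + xr Mp X ab.1 - xr Mp X ab.2) / Mp)) ⊆
      Ms.biUnion S1 ∪ (range m).biUnion S2 := by
    intro ab hab
    rw [mem_filter] at hab
    obtain ⟨h0, h1, h2⟩ := hab
    rw [mem_union, mem_biUnion, mem_biUnion]
    rcases h2 with ⟨k, hk, hkd⟩ | ⟨j, hj, z, hz⟩
    · exact Or.inl ⟨k, hk, mem_filter.2 ⟨h0, h1, hkd⟩⟩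
    · exact Or.inr ⟨j, mem_range.2 hj, mem_filter.2 ⟨h0, h1, z, hz⟩⟩
  have hΓ2 : 2 ≤ Γ := by omega
  have c1 : ∀ k ∈ Ms, (S1 k).card ≤ 1 := by
    intro k hk
    rw [Finset.card_le_one]
    rintro ⟨a, b⟩ h1 ⟨c, d⟩ h2
    simp only [S1, mem_filter, mem_product, mem_range] at h1 h2
    obtain ⟨⟨ha, hb⟩, hab, hd1⟩ := h1
    obtain ⟨⟨hc, hd⟩, hcd, hd2⟩ := h2
    obtain ⟨z, hz⟩ := Int.natCast_dvd_natCast.2 hd1
    obtain ⟨z', hz'⟩ := Int.natCast_dvd_natCast.2 hd2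
    simp only [f] at hz hz'
    rw [cast_quot hb hT hMp] at hz
    rw [cast_quot hd hT hMp] at hz'
    obtain ⟨q, hq⟩ := (hMs k hk).2
    have hk5 := (hMs k hk).1
    have := pair_eq (K := K) (Mp := Mp) (T := T) (a := a) (b := b) (c := c) (d := d) (Y := 4)
      (Gj := k) (w := 0) (X := X) (t := 4 * q * sumG Γ m) (z := z) (z' := z') (c0 := 0) hMp ha hb hc hd
      hab (by
        rw [hX]; unfold XX; rw [hq]; push_cast; ring) (by norm_num) (by norm_num)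
        (by
          have : (5 * 2 ^ (K + 1) : ℤ) < k := by exact_mod_cast hk5
          linarith)
        (by rw [hz]; simp) (by rw [hz']; simp)
    rw [this.1, this.2]
  have c2 : ∀ j ∈ range m, (S2 j).card ≤ 1 := by
    intro j hj
    rw [mem_range] at hj
    rw [Finset.card_le_one]
    rintro ⟨a, b⟩ h1 ⟨c, d⟩ h2
    simp only [S2, mem_filter, mem_product, mem_range] at h1 h2
    obtain ⟨⟨ha, hb⟩, hab, z, hz⟩ := h1
    obtain ⟨⟨hc, hd⟩, hcd, z', hz'⟩ := h2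
    simp only [f] at hz hz'
    rw [cast_quot hb hT hMp] at hz
    rw [cast_quot hd hT hMp] at hz'
    obtain ⟨t, ht⟩ := sumG_split Γ hj
    have hs := sumG_le hΓ2 j
    have hs1 : G Γ j ≤ sumG Γ j := by
      unfold sumG
      exact Finset.single_le_sum (f := fun l => G Γ l) (fun _ _ => Nat.zero_le _)
        (Finset.mem_range.2 (Nat.lt_succ_self j))
    have hGp : 0 < G Γ j := G_pos (by omega) j
    have hGs : G Γ (j + 1) = Γ * G Γ j := by unfold G; ring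
    have := pair_eq (K := K) (Mp := Mp) (T := T) (a := a) (b := b) (c := c) (d := d)
      (Y := ((4 + 4 * M * sumG Γ j : ℕ) : ℤ))
      (Gj := ((G Γ (j + 1) : ℕ) : ℤ)) (w := ((M * G Γ j : ℕ) : ℤ)) (X := X) (t := 4 * M * t)
      (z := z) (z' := z') (c0 := lo Γ M (j + 1)) hMp ha hb hc hd
      hab (by
        rw [hX]; unfold XX; rw [ht]; push_cast; ring) (by positivity)
        (by
          have : 2 * (M * G Γ j) < 4 + 4 * M * sumG Γ j := by nlinarith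
          exact_mod_cast this)
        (by
          have h3 : 2 ^ (K + 1) * ((4 + 4 * M * sumG Γ j) + 1) + 2 * (M * G Γ j) < G Γ (j + 1) := by
            have h4 : (4 + 4 * M * sumG Γ j) + 1 ≤ 14 * M * G Γ j := by
              have h5 : M * sumG Γ j ≤ M * (2 * G Γ j) := Nat.mul_le_mul_left _ hs
              have h6 : 1 ≤ M * G Γ j := Nat.mul_pos hM hGp
              nlinarith
            calc 2 ^ (K + 1) * ((4 + 4 * M * sumG Γ j) + 1) + 2 * (M * G Γ j)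
                ≤ 2 ^ (K + 1) * (14 * M * G Γ j) + 2 * (M * G Γ j) :=
                  Nat.add_le_add_right (Nat.mul_le_mul_left _ h4) _
              _ = (2 ^ (K + 1) * (14 * M) + 2 * M) * G Γ j := by ring
              _ < Γ * G Γ j := Nat.mul_lt_mul_of_pos_right hΓ hGp
              _ = G Γ (j + 1) := hGs.symm
          exact_mod_cast h3)
        hz hz'
    rw [this.1, this.2]
  calc _ ≤ (Ms.biUnion S1 ∪ (range m).biUnion S2).card := Finset.card_le_card hsub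
    _ ≤ (Ms.biUnion S1).card + ((range m).biUnion S2).card := Finset.card_union_le _ _
    _ ≤ Ms.card * 1 + (range m).card * 1 :=
      Nat.add_le_add (Finset.card_biUnion_le_card_mul _ _ _ c1)
        (Finset.card_biUnion_le_card_mul _ _ _ c2)
    _ = Ms.card + m := by simp

end Crest.Agent.R320.Grid791
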