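import Crest.Agent.R320.Grid_646

/-!
Row 320, helper646: the grid gadget with 570's names and 808's noise, closed form.
-/

set_option autoImplicit false

namespace Crest.Agent.R320.GridI_646

open Crest.Agent.R320.Grid_646

/-- The start value and the end value of a name. -/
def colour {S V W : Type*} [Monoid S] [AddCommGroup V] [AddCommGroup W] (act : V → S → V) {m : ℕ}
    (e : ℕ → S → W) (F : S → W → V) (c : Fin m × S × W × S × W × V) : V × V :=
  (c.2.2.2.2.2, F (c.2.1 * 1 * c.2.2.2.1) (c.2.2.1 + e c.1 1 + c.2.2.2.2.1) +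
    act c.2.2.2.2.2 (c.2.1 * 1 * c.2.2.2.1))

/-- **The grid gadget, closed form.**  Labels `lam`, `rho`, noise `nu`: exact for all pairs;
complete for all long words whose length avoids the thin bad set. -/
theorem gadget {S V : Type*} [Monoid S] [Finite S] [AddCommGroup V] [Finite V]
    (act : V → S → V) :
    ∃ m r : ℕ, 0 < m ∧ ∀ B : ℕ, ∃ (Ms : Finset ℕ) (M : ℕ), Ms.card ≤ r ∧
      (∀ k ∈ Ms, k.Prime ∧ B < k) ∧ M = ∏ k ∈ Ms, k ∧
      ∀ (G Am : ℕ → ℕ), (∀ j, 0 < G j) → (∀ j, G j ∣ G (j + 1)) → (∀ j, Nat.Coprime (G j) M) →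
        (∀ j, Am j + G j + M * G j ≤ Am (j + 1)) →
        ∀ {α : Type*} (φ : List α → S), (∀ u v, φ (u ++ v) = φ u * φ v) →
          ∃ (lam rho : List α → Option V) (nu : List α → V),
            (∀ P Q v r, lam P = some v → rho Q = some r → r = act v (φ (P ++ Q)) + nu (P ++ Q)) ∧
            (∀ P v, lam P = some v → P.length < Am m) ∧
            (∀ Q r, rho Q = some r → Am m ≤ Q.length) ∧
            (∀ Y : List α, (∀ k ∈ Ms, ¬ k ∣ Y.length) → 2 * Am m ≤ Y.length →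
              (∀ k, k < m → M * G k ≤ (Y.length - Am (k + 1)) % G (k + 1) ∧
                (Y.length - Am (k + 1)) % G (k + 1) + M * G k ≤ G (k + 1)) →
              ∀ v, ∃ P Q, P ++ Q = Y ∧ lam P = some v ∧ (rho Q).isSome) := by
  classical
  have := Fintype.ofFinite S
  have := Fintype.ofFinite V
  obtain ⟨m, N, e, F, hN, hF⟩ := RandF808.exists_noise S V act
  have hm : 0 < m := by
    obtain ⟨i, hi, -⟩ := hF 1 0 0
    omega
  have : NeZero N := ⟨by omega⟩
  obtain ⟨r, hr⟩ := Names_570.exists_names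
    (N := Fin m × S × (ZMod N × ZMod N) × S × (ZMod N × ZMod N) × V) (C := V × V)
    (colour act e F)
  refine ⟨m, r, hm, fun B => ?_⟩
  obtain ⟨Ms, nmL, nmR, h1, h2, h3, h4, h5, h6, h7⟩ := hr B
  refine ⟨Ms, ∏ k ∈ Ms, k, h1, h2, rfl, ?_⟩
  intro G Am hG1 hG2 hG3 hG4 α φ hφ
  let D : Grid S V (ZMod N × ZMod N) :=
    ⟨act, m, e, F, G, Am, ∏ k ∈ Ms, k, fun o c => nmL o = some c, fun o c => nmR o = some c⟩
  have hD : Geo D := ⟨hG1, hG2, hG3, Finset.prod_pos fun k hk => (h2 k hk).1.pos, hG4⟩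
  have hNm : Names D (fun T => ∀ k ∈ Ms, ¬ k ∣ T) := by
    refine ⟨?_, ?_, ?_, ?_, ?_⟩
    · intro t c
      show nmL (t + ∏ k ∈ Ms, k) = some c ↔ nmL t = some c
      rw [h3]
    · intro t c
      show nmR (t + ∏ k ∈ Ms, k) = some c ↔ nmR t = some c
      rw [h4]
    · intro T hT o o' c c' ho hL hR
      exact h5 o o' c c' (by rw [ho]; exact hT) hL hR
    · intro T hT c s hs
      obtain ⟨t, t1, t2, t3, t4, t5⟩ := h6 T c s hT (by exact hs.trans (Nat.le_succ _))
      exact ⟨t, t1, t2, t4, t5⟩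
    · intro T hT
      have hT' : ∃ k ∈ Ms, k ∣ T := by
        by_contra hcon
        exact hT fun k hk hd => hcon ⟨k, hk, hd⟩
      by_cases hex : ∃ o o' c c', o + o' = T ∧ nmL o = some c ∧ nmR o' = some c'
      · obtain ⟨o, o', c, c', ho, hL, hR⟩ := hex
        refine ⟨(colour act e F c).1, (colour act e F c').2, ?_⟩
        intro o2 o2' c2 c2' ho2 hL2 hR2
        rcases h7 o o' o2 o2' c c' c2 c2' (by rw [ho, ho2]) (by rw [ho]; exact hT') hL hR hL2 hR2
          with ⟨q1, q2⟩ | ⟨q1, q2, q3⟩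
        · subst q1 q2
          exact ⟨rfl, rfl⟩
        · subst q1 q2
          have e1 := congrArg Prod.fst q3
          have e2 := congrArg Prod.snd q3
          exact ⟨e1.symm, e2⟩
      · refine ⟨0, 0, ?_⟩
        intro o o' c c' ho hL hR
        exact absurd ⟨o, o', c, c', ho, hL, hR⟩ hex
  obtain ⟨nu, k1, k2, k3, k4⟩ := gadget0 D (fun T => ∀ k ∈ Ms, ¬ k ∣ T) hD hNm hF φ hφ
  exact ⟨D.Lf φ, D.Rf φ, nu, k1, k2, k3, k4⟩

end Crest.Agent.R320.GridI_646
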