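import Mathlib
import Crest.Agent.R320.Gad1_420
import Crest.Agent.R320.Names_570
import Crest.Agent.R320.RandF_808

/-!
Row 320: GRID GADGET of helper693 (post 13203) on words: scheme 1 without small walls.
Hole ends `bt j T = Γ^j + T % Γ^j` (anchored at the END of the zone), cells
`[2 Γ^i, (2 + M) Γ^i)`; the right side is legal at level `i` only if `Γ^i ∣ |Q|`.
-/

set_option autoImplicit false
set_option linter.unusedSectionVars false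

namespace Crest.Agent.R320.Grid_551

open Finset Crest.Agent.R320.Gad1_420

variable {α : Type*}

/-- data -/
structure GDat (α S V W : Type*) where
  φ : List α → S
  act : V → S → V
  m : ℕ
  e : ℕ → S → W
  F : S → W → V
  M : ℕ
  Γ : ℕ
  nL : ℕ → Option (Fin m × S × W × S × W × V)
  nR : ℕ → Option (Fin m × S × W × S × W × V)

variable {S V W : Type*} [Monoid S] [AddCommGroup V] [AddCommGroup W] (D : GDat α S V W)

/-- hole end `j` for the total `x` -/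
def GDat.bt (j x : ℕ) : ℕ := D.Γ ^ j + x % D.Γ ^ j

/-- hole product -/
def GDat.zz (Y : List α) (j : ℕ) : S := D.φ (seg Y (D.bt j Y.length) (D.bt (j + 1) Y.length))

/-- weight -/
def GDat.ww (Y : List α) : W := ∑ j ∈ range D.m, D.e j (D.zz Y j)

/-- end value of a name -/
def GDat.bb (c : Fin D.m × S × W × S × W × V) : V :=
  D.F (c.2.1 * 1 * c.2.2.2.1) (c.2.2.1 + D.e c.1 1 + c.2.2.2.2.1) +
    D.act c.2.2.2.2.2 (c.2.1 * 1 * c.2.2.2.1)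

/-- good names -/
def GDat.ok (c : Fin D.m × S × W × S × W × V) : Prop :=
  ∀ z, D.F (c.2.1 * z * c.2.2.2.1) (c.2.2.1 + D.e c.1 z + c.2.2.2.2.1) +
    D.act c.2.2.2.2.2 (c.2.1 * z * c.2.2.2.1) = D.bb c

/-- left legality -/
def GDat.LL (c : Fin D.m × S × W × S × W × V) (P : List α) : Prop :=
  D.ok c ∧ 2 * D.Γ ^ (c.1 : ℕ) ≤ P.length ∧ P.length < (2 + D.M) * D.Γ ^ (c.1 : ℕ) ∧
  D.nL P.length = some c ∧ c.2.1 = D.φ (P.take (D.bt c.1 P.length)) ∧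
  c.2.2.1 = ∑ j ∈ range (c.1 : ℕ), D.e j (D.φ (seg P (D.bt j P.length) (D.bt (j + 1) P.length)))

/-- hole end `j` as seen from the right at level `i` -/
def GDat.pq (i o j : ℕ) : ℕ := o - D.Γ ^ j * ((o + 2 * D.Γ ^ i) / D.Γ ^ j - 1)

/-- the grid condition -/
def GDat.NC (i o : ℕ) : Prop :=
  ∀ j, i < j → j ≤ D.m → 1 ≤ (o + 2 * D.Γ ^ i) / D.Γ ^ j ∧
    (o + (2 + D.M) * D.Γ ^ i) / D.Γ ^ j = (o + 2 * D.Γ ^ i) / D.Γ ^ j

/-- right legality -/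
def GDat.RR (c : Fin D.m × S × W × S × W × V) (Q : List α) : Prop :=
  D.ok c ∧ D.nR Q.length = some c ∧ D.Γ ^ (c.1 : ℕ) ∣ Q.length ∧ D.NC c.1 Q.length ∧
  c.2.2.2.1 = D.φ (Q.drop (D.pq c.1 Q.length ((c.1 : ℕ) + 1))) ∧
  c.2.2.2.2.1 = ∑ j ∈ Ico ((c.1 : ℕ) + 1) D.m,
    D.e j (D.φ (seg Q (D.pq c.1 Q.length j) (D.pq c.1 Q.length (j + 1))))

variable {D}

theorem pow_pos' (hΓ : D.M + 2 ≤ D.Γ) (j : ℕ) : 0 < D.Γ ^ j := pow_pos (by omega) j

theorem pow_mono' (hΓ : D.M + 2 ≤ D.Γ) {i j : ℕ} (h : i ≤ j) : D.Γ ^ i ≤ D.Γ ^ j :=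
  Nat.pow_le_pow_right (by omega) h

theorem pow_next (hΓ : D.M + 2 ≤ D.Γ) {i j : ℕ} (h : i < j) :
    (2 + D.M) * D.Γ ^ i ≤ D.Γ ^ j := by
  calc (2 + D.M) * D.Γ ^ i ≤ D.Γ * D.Γ ^ i := Nat.mul_le_mul_right _ (by omega)
    _ = D.Γ ^ (i + 1) := by rw [pow_succ, mul_comm]
    _ ≤ D.Γ ^ j := pow_mono' hΓ h

/-- hole ends on the left of the cut -/
theorem bt_left {i j o o' : ℕ} (hji : j ≤ i) (hd : D.Γ ^ i ∣ o') : D.bt j (o + o') = D.bt j o := by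
  unfold GDat.bt
  obtain ⟨k, hk⟩ := (pow_dvd_pow D.Γ hji).trans hd
  rw [hk, Nat.add_mul_mod_self_left]

theorem bt_le (hΓ : D.M + 2 ≤ D.Γ) {i j o : ℕ} (hji : j ≤ i) (ho : 2 * D.Γ ^ i ≤ o) :
    D.bt j o ≤ o := by
  unfold GDat.bt
  have h1 := Nat.mod_lt o (pow_pos' hΓ j)
  have h2 := pow_mono' hΓ hji
  omega

/-- hole ends on the right of the cut -/
theorem bt_right (hΓ : D.M + 2 ≤ D.Γ) {i j o o' : ℕ} (hij : i < j) (hjm : j ≤ D.m)
    (h1 : 2 * D.Γ ^ i ≤ o) (h2 : o < (2 + D.M) * D.Γ ^ i) (hN : D.NC i o') :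
    D.bt j (o + o') = o + D.pq i o' j := by
  obtain ⟨h3, h4⟩ := hN j hij hjm
  have hG := pow_pos' hΓ j
  have h5 : (o + o') / D.Γ ^ j = (o' + 2 * D.Γ ^ i) / D.Γ ^ j := by
    apply le_antisymm
    · rw [← h4]; exact Nat.div_le_div_right (by omega)
    · exact Nat.div_le_div_right (by omega)
  have h6 := Nat.div_add_mod (o + o') (D.Γ ^ j)
  have h7 := pow_next hΓ hij
  unfold GDat.bt GDat.pq
  rw [← h5]
  rw [h5] at h6
  rw [← h5] at h3 h6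
  obtain ⟨k, hk⟩ : ∃ k, (o + o') / D.Γ ^ j = k + 1 := ⟨(o + o') / D.Γ ^ j - 1, by omega⟩
  rw [hk] at h6 ⊢
  rw [Nat.add_sub_cancel]
  rw [Nat.mul_add, Nat.mul_one] at h6
  generalize (o + o') % D.Γ ^ j = r at h6 ⊢
  have h8 : D.Γ ^ j * k ≤ o' := by
    omega
  omega

/-- reading a junction -/
theorem read (hφ : ∀ u v, D.φ (u ++ v) = D.φ u * D.φ v) (hΓ : D.M + 2 ≤ D.Γ) {P Q : List α}
    {i : ℕ} (him : i < D.m) (h1 : 2 * D.Γ ^ i ≤ P.length) (h2 : P.length < (2 + D.M) * D.Γ ^ i)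
    (hd : D.Γ ^ i ∣ Q.length) (hN : D.NC i Q.length) :
    D.φ ((P ++ Q).take (D.bt i (P ++ Q).length)) = D.φ (P.take (D.bt i P.length)) ∧
    (∑ k ∈ range i, D.e k (D.zz (P ++ Q) k)) =
      (∑ k ∈ range i, D.e k (D.φ (seg P (D.bt k P.length) (D.bt (k + 1) P.length)))) ∧
    D.φ ((P ++ Q).drop (D.bt (i + 1) (P ++ Q).length)) =
      D.φ (Q.drop (D.pq i Q.length (i + 1))) ∧
    (∑ k ∈ Ico (i + 1) D.m, D.e k (D.zz (P ++ Q) k)) =
      ∑ k ∈ Ico (i + 1) D.m, D.e k (D.φ (seg Q (D.pq i Q.length k) (D.pq i Q.length (k + 1)))) ∧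
    D.φ (P ++ Q) = D.φ ((P ++ Q).take (D.bt i (P ++ Q).length)) * D.zz (P ++ Q) i *
      D.φ ((P ++ Q).drop (D.bt (i + 1) (P ++ Q).length)) ∧
    D.ww (P ++ Q) = (∑ k ∈ range i, D.e k (D.zz (P ++ Q) k)) + D.e i (D.zz (P ++ Q) i) +
      ∑ k ∈ Ico (i + 1) D.m, D.e k (D.zz (P ++ Q) k) := by
  have hlen : (P ++ Q).length = P.length + Q.length := List.length_append
  have hL : ∀ k, k ≤ i → D.bt k (P ++ Q).length = D.bt k P.length := fun k hk => by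
    rw [hlen]; exact bt_left hk hd
  have hLf : ∀ k, k ≤ i → D.bt k P.length ≤ P.length := fun k hk => bt_le hΓ hk h1
  have hR : ∀ k, i < k → k ≤ D.m →
      D.bt k (P ++ Q).length = P.length + D.pq i Q.length k := fun k hk hkm => by
    rw [hlen]; exact bt_right hΓ hk hkm h1 h2 hN
  have hmono : ∀ k, D.bt k P.length ≤ D.bt (k + 1) P.length := fun k => by
    have a1 := Nat.mod_lt P.length (pow_pos' hΓ k)
    have a2 := pow_next hΓ (show k < k + 1 by omega)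
    have a3 : 2 * D.Γ ^ k ≤ (2 + D.M) * D.Γ ^ k := Nat.mul_le_mul_right _ (by omega)
    unfold GDat.bt
    generalize P.length % D.Γ ^ k = r1 at a1 ⊢
    generalize P.length % D.Γ ^ (k + 1) = r2
    omega
  refine ⟨?_, ?_, ?_, ?_, ?_, ?_⟩
  · rw [hL i le_rfl, List.take_append_of_le_length (hLf i le_rfl)]
  · refine Finset.sum_congr rfl fun k hk => ?_
    have hk' := Finset.mem_range.1 hk
    unfold GDat.zz
    rw [hL k hk'.le, hL (k + 1) hk', seg_left (hmono k) (hLf (k + 1) hk')]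
  · rw [hR (i + 1) (Nat.lt_succ_self i) him, drop_app_right]
  · refine Finset.sum_congr rfl fun k hk => ?_
    obtain ⟨hk1, hk2⟩ := Finset.mem_Ico.1 hk
    unfold GDat.zz
    rw [hR k (by omega) (by omega), hR (k + 1) (by omega) (by omega), seg_right]
  · have h5 : D.bt i (P ++ Q).length ≤ D.bt (i + 1) (P ++ Q).length := by
      rw [hL i le_rfl, hR (i + 1) (Nat.lt_succ_self i) him]
      exact (hLf i le_rfl).trans (Nat.le_add_right _ _)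
    have h6 := seg_split (Y := P ++ Q) h5
    conv_lhs => rw [← h6]
    rw [hφ, hφ]
    rfl
  · unfold GDat.ww
    rw [← Finset.sum_range_add_sum_Ico _ (show i + 1 ≤ D.m from him), Finset.sum_range_succ]

/-- names -/
structure GNames (D : GDat α S V W) (good : ℕ → Prop) (v0 r0 : ℕ → V) : Prop where
  n1 : ∀ o o' c c', good (o + o') → D.nL o = some c → D.nR o' = some c' → c = c'
  n2 : ∀ T, good T → ∀ (i : Fin D.m) c, (2 + D.M) * D.Γ ^ (i : ℕ) ≤ T →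
    ∃ o, 2 * D.Γ ^ (i : ℕ) ≤ o ∧ o < (2 + D.M) * D.Γ ^ (i : ℕ) ∧ D.Γ ^ (i : ℕ) ∣ T - o ∧
      D.nL o = some c ∧ D.nR (T - o) = some c
  n3 : ∀ o o' c c', ¬ good (o + o') → D.nL o = some c → D.nR o' = some c' →
    c.2.2.2.2.2 = v0 (o + o') ∧ D.bb c' = r0 (o + o')

open Classical in
/-- the noise -/
noncomputable def GDat.nu (D : GDat α S V W) (good : ℕ → Prop) (v0 r0 : ℕ → V) (Y : List α) : V :=
  if good Y.length then D.F (D.φ Y) (D.ww Y) else r0 Y.length - D.act (v0 Y.length) (D.φ Y)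

/-- left words of the token `v` -/
def GDat.LP (D : GDat α S V W) (v : V) : Set (List α) := {P | ∃ c, c.2.2.2.2.2 = v ∧ D.LL c P}

/-- right words with label `b` -/
def GDat.RQ (D : GDat α S V W) (b : V) : Set (List α) := {Q | ∃ c, b = D.bb c ∧ D.RR c Q}

/-- SOUND for all words -/
theorem sound (hφ : ∀ u v, D.φ (u ++ v) = D.φ u * D.φ v) (hΓ : D.M + 2 ≤ D.Γ)
    {good : ℕ → Prop} {v0 r0 : ℕ → V} (hN : GNames D good v0 r0) {P Q : List α} {v b : V}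
    (hP : P ∈ D.LP v) (hQ : Q ∈ D.RQ b) :
    b = D.act v (D.φ (P ++ Q)) + D.nu good v0 r0 (P ++ Q) := by
  classical
  obtain ⟨c, rfl, hL⟩ := hP
  obtain ⟨c', rfl, hR⟩ := hQ
  have hlen : (P ++ Q).length = P.length + Q.length := List.length_append
  unfold GDat.nu
  by_cases hg : good (P ++ Q).length
  · rw [if_pos hg]
    have hcc := hN.n1 _ _ _ _ (hlen ▸ hg) hL.2.2.2.1 hR.2.1
    subst hcc
    obtain ⟨hok, ha1, ha2, -, hg1, hw1⟩ := hL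
    obtain ⟨-, -, hd, hnc, hh1, hr1⟩ := hR
    obtain ⟨e1, e2, e3, e4, e5, e6⟩ := read hφ hΓ c.1.2 ha1 ha2 hd hnc
    have := hok (D.zz (P ++ Q) c.1)
    rw [e5, e6, e1, e2, e3, e4, ← hg1, ← hh1, ← hw1, ← hr1, ← this, add_comm]
  · rw [if_neg hg]
    obtain ⟨q1, q2⟩ := hN.n3 _ _ _ _ (hlen ▸ hg) hL.2.2.2.1 hR.2.1
    rw [hlen, ← q1, ← q2]
    abel

theorem LP_lt {P : List α} {v : V} (hP : P ∈ D.LP v) :
    ∃ i < D.m, 2 * D.Γ ^ i ≤ P.length ∧ P.length < (2 + D.M) * D.Γ ^ i := by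
  obtain ⟨c, -, hL⟩ := hP
  exact ⟨c.1, c.1.2, hL.2.1, hL.2.2.1⟩

/-- the thin condition on the total is absent -/
def GDat.Clean (D : GDat α S V W) (T : ℕ) : Prop :=
  ∀ j, j < D.m → D.M * D.Γ ^ j ≤ T % D.Γ ^ (j + 1) ∧ T % D.Γ ^ (j + 1) + D.M * D.Γ ^ j < D.Γ ^ (j + 1)

theorem NC_of_clean (hΓ : D.M + 2 ≤ D.Γ) {T o i : ℕ} (hT : D.Clean T)
    (hlen : 2 * D.Γ ^ D.m ≤ T) (h1 : 2 * D.Γ ^ i ≤ o) (h2 : o < (2 + D.M) * D.Γ ^ i)
    (hoT : o ≤ T) : D.NC i (T - o) := by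
  intro j hij hjm
  obtain ⟨k, rfl⟩ : ∃ k, j = k + 1 := ⟨j - 1, by omega⟩
  obtain ⟨c1, c2⟩ := hT k (by omega)
  have hG := pow_pos' hΓ (k + 1)
  have hik : D.M * D.Γ ^ i ≤ D.M * D.Γ ^ k := Nat.mul_le_mul_left _ (pow_mono' hΓ (by omega))
  have h6 := Nat.div_add_mod T (D.Γ ^ (k + 1))
  set q := T / D.Γ ^ (k + 1) with hq
  have e1 : (2 + D.M) * D.Γ ^ i = 2 * D.Γ ^ i + D.M * D.Γ ^ i := by ring
  rw [e1] at h2 ⊢
  rw [mul_comm] at h6
  have e2 : (q + 1) * D.Γ ^ (k + 1) = q * D.Γ ^ (k + 1) + D.Γ ^ (k + 1) := by ring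
  generalize T % D.Γ ^ (k + 1) = r at c1 c2 h6
  have a1 : (T - o + 2 * D.Γ ^ i) / D.Γ ^ (k + 1) = q := by
    apply Nat.div_eq_of_lt_le
    · omega
    · rw [e2]; omega
  have a2 : (T - o + (2 * D.Γ ^ i + D.M * D.Γ ^ i)) / D.Γ ^ (k + 1) = q := by
    apply Nat.div_eq_of_lt_le
    · omega
    · rw [e2]; omega
  rw [a1, a2]
  refine ⟨?_, rfl⟩
  rw [hq, Nat.one_le_div_iff hG]
  have := pow_mono' hΓ hjm
  omega

/-- COMPLETE -/
theorem complete (hφ : ∀ u v, D.φ (u ++ v) = D.φ u * D.φ v) (hΓ : D.M + 2 ≤ D.Γ)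
    {good : ℕ → Prop} {v0 r0 : ℕ → V} (hN : GNames D good v0 r0)
    (hF : ∀ s w v, ∃ i < D.m, ∀ g x h, g * x * h = s → ∀ z,
      D.F (g * z * h) (w - D.e i x + D.e i z) + D.act v (g * z * h) = D.F s w + D.act v s)
    (Y : List α) (hg : good Y.length) (hc : D.Clean Y.length) (hlen : 2 * D.Γ ^ D.m ≤ Y.length)
    (v : V) : ∃ P Q b, P ++ Q = Y ∧ P ∈ D.LP v ∧ Q ∈ D.RQ b := by
  obtain ⟨i, him, hi⟩ := hF (D.φ Y) (D.ww Y) v
  set g := D.φ (Y.take (D.bt i Y.length)) with hgdef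
  set wl := ∑ k ∈ range i, D.e k (D.zz Y k) with hwldef
  set h := D.φ (Y.drop (D.bt (i + 1) Y.length)) with hhdef
  set wr := ∑ k ∈ Ico (i + 1) D.m, D.e k (D.zz Y k) with hwrdef
  have hpn := pow_next hΓ him
  obtain ⟨o, ho1, ho2, ho3, ho4, ho5⟩ :=
    hN.n2 _ hg ⟨i, him⟩ (⟨i, him⟩, g, wl, h, wr, v) (by
      show (2 + D.M) * D.Γ ^ i ≤ Y.length
      omega)
  change 2 * D.Γ ^ i ≤ o at ho1
  change o < (2 + D.M) * D.Γ ^ i at ho2
  change D.Γ ^ i ∣ Y.length - o at ho3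
  have hoY : o ≤ Y.length := by omega
  set P := Y.take o with hP
  set Q := Y.drop o with hQ
  have hPQ : P ++ Q = Y := List.take_append_drop _ _
  have hPl : P.length = o := by rw [hP, List.length_take]; omega
  have hQl : Q.length = Y.length - o := by rw [hQ, List.length_drop]
  have hnc : D.NC i Q.length := by
    rw [hQl]; exact NC_of_clean hΓ hc hlen ho1 ho2 hoY
  obtain ⟨e1, e2, e3, e4, e5, e6⟩ := read hφ hΓ him (P := P) (Q := Q) (by rw [hPl]; exact ho1)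
    (by rw [hPl]; exact ho2) (by rw [hQl]; exact ho3) hnc
  rw [hPQ] at e1 e2 e3 e4 e5 e6
  rw [← hgdef, ← hhdef] at e5
  rw [← hwldef, ← hwrdef] at e6
  have hall : ∀ z, D.F (g * z * h) (wl + D.e i z + wr) + D.act v (g * z * h) =
      D.F (D.φ Y) (D.ww Y) + D.act v (D.φ Y) := by
    intro z
    have := hi g (D.zz Y i) h e5.symm z
    rw [← this, e6]
    congr 2
    abel
  have hok : D.ok (⟨i, him⟩, g, wl, h, wr, v) := by
    intro z
    show D.F (g * z * h) (wl + D.e i z + wr) + D.act v (g * z * h) = _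
    rw [hall z]
    exact (hall 1).symm
  refine ⟨P, Q, _, hPQ, ⟨(⟨i, him⟩, g, wl, h, wr, v), rfl, hok, ?_, ?_, ?_, ?_, ?_⟩,
    ⟨(⟨i, him⟩, g, wl, h, wr, v), rfl, hok, ?_, ?_, ?_, ?_, ?_⟩⟩
  · show 2 * D.Γ ^ i ≤ P.length
    rw [hPl]; exact ho1
  · show P.length < (2 + D.M) * D.Γ ^ i
    rw [hPl]; exact ho2
  · rw [hPl]; exact ho4
  · exact e1
  · exact e2
  · rw [hQl]; exact ho5
  · show D.Γ ^ i ∣ Q.length
    rw [hQl]; exact ho3
  · exact hnc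
  · exact e3
  · exact e4

end Crest.Agent.R320.Grid_551
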