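import Mathlib
import Crest.Agent.R320.Grid_551

/-!
Row 320: the grid gadget (693) in closed form: names of Names_570, noise of RandF_808,
`M = ∏ Ms` odd, `Γ = 2 ^ κ`.
-/

set_option autoImplicit false
set_option linter.unusedSectionVars false

namespace Crest.Agent.R320.GridInst_551

open Finset Crest.Agent.R320.Gad1_420 Crest.Agent.R320.Grid_551

theorem per_mod {β : Type*} {f : ℕ → β} {M : ℕ} (h : ∀ t, f (t + M) = f t) {a b : ℕ}
    (hab : a % M = b % M) : f a = f b := by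
  have hp : Function.Periodic f M := h
  rw [← hp.map_mod_nat a, ← hp.map_mod_nat b, hab]

theorem per_mul {β : Type*} {f : ℕ → β} {M : ℕ} (h : ∀ t, f (t + M) = f t) (a k : ℕ) :
    f (a + k * M) = f a := per_mod h (by simp)

theorem sub_mod_eq {M T o t : ℕ} (ho : o ≤ T) (ht : t ≤ T) (h : o % M = t % M) :
    (T - o) % M = (T - t) % M := by
  have h1 : (T - o) + o = (T - t) + t := by omega
  have h2 : (T - o) + o ≡ (T - t) + o [MOD M] := by
    rw [h1]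
    exact Nat.ModEq.add_left _ (Nat.ModEq.symm h)
  exact Nat.ModEq.add_right_cancel' o h2

theorem exists_GNames (S V W : Type*) [Monoid S] [Finite S] [AddCommGroup V] [Finite V]
    [AddCommGroup W] [Finite W] (act : V → S → V) (m : ℕ) (e : ℕ → S → W) (F : S → W → V) :
    ∃ r : ℕ, ∀ B0 : ℕ, ∃ Ms : Finset ℕ, Ms.card ≤ r ∧ (∀ p ∈ Ms, p.Prime ∧ B0 < p ∧ 2 < p) ∧
      ∃ (nL nR : ℕ → Option (Fin m × S × W × S × W × V)) (v0 r0 : ℕ → V),
        (∀ t, nL (t + ∏ p ∈ Ms, p) = nL t) ∧ (∀ t, nR (t + ∏ p ∈ Ms, p) = nR t) ∧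
        (∀ t, v0 (t + ∏ p ∈ Ms, p) = v0 t) ∧ (∀ t, r0 (t + ∏ p ∈ Ms, p) = r0 t) ∧
        ∀ κ : ℕ, ∀ {α : Type*} (φ : List α → S),
          GNames (⟨φ, act, m, e, F, ∏ p ∈ Ms, p, 2 ^ κ, nL, nR⟩ : GDat α S V W)
            (fun T => ∀ p ∈ Ms, ¬ p ∣ T) v0 r0 := by
  classical
  let Nm := Fin m × S × W × S × W × V
  let bbf : Nm → V := fun c => F (c.2.1 * 1 * c.2.2.2.1) (c.2.2.1 + e c.1 1 + c.2.2.2.2.1) +
    act c.2.2.2.2.2 (c.2.1 * 1 * c.2.2.2.1)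
  obtain ⟨r, hr⟩ := Names_570.exists_names (N := Nm) (C := V × V)
    (fun c => (c.2.2.2.2.2, bbf c))
  refine ⟨r, fun B0 => ?_⟩
  obtain ⟨Ms, nL, nR, h1, h2, h3, h4, h5, h6, h7⟩ := hr (max B0 2)
  set M := ∏ p ∈ Ms, p with hM
  have hMpos : 0 < M := Finset.prod_pos fun p hp => (h2 p hp).1.pos
  have hdvd : ∀ p ∈ Ms, p ∣ M := fun p hp => Finset.dvd_prod_of_mem _ hp
  have huniq : ∀ t1 t1' t2 t2' c1 c1' c2 c2', (t1 + t1') % M = (t2 + t2') % M →
      ¬ (∀ p ∈ Ms, ¬ p ∣ t1 + t1') → nL t1 = some c1 → nR t1' = some c1' →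
      nL t2 = some c2 → nR t2' = some c2' →
      c1.2.2.2.2.2 = c2.2.2.2.2.2 ∧ bbf c1' = bbf c2' := by
    intro t1 t1' t2 t2' c1 c1' c2 c2' hT hb a1 a2 a3 a4
    push Not at hb
    obtain ⟨p, hp, hpd⟩ := hb
    obtain ⟨a, b, hab⟩ : ∃ a b : ℕ, t1 + (t1' + a * M) = t2 + (t2' + b * M) := by
      refine ⟨(t2 + t2') / M, (t1 + t1') / M, ?_⟩
      have e1 := Nat.div_add_mod (t1 + t1') M
      have e2 := Nat.div_add_mod (t2 + t2') M
      rw [mul_comm] at e1 e2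
      omega
    have hper1 : nR (t1' + a * M) = some c1' := by rw [per_mul h4, a2]
    have hper2 : nR (t2' + b * M) = some c2' := by rw [per_mul h4, a4]
    have hbad : ∃ m ∈ Ms, m ∣ t1 + (t1' + a * M) := by
      refine ⟨p, hp, ?_⟩
      rw [← add_assoc]
      exact dvd_add hpd ((hdvd p hp).mul_left a)
    rcases h7 _ _ _ _ _ _ _ _ hab hbad a1 hper1 a3 hper2 with ⟨e1, e2⟩ | ⟨e1, e2, e3⟩
    · rw [e1, e2]; exact ⟨rfl, rfl⟩
    · have e3a := congrArg Prod.fst e3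
      have e3b := congrArg Prod.snd e3
      simp only at e3a e3b
      exact ⟨by rw [e3a, e2], by rw [← e3b, e1]⟩
  have hex : ∀ T : ℕ, ∃ xy : V × V, ∀ o o' c c', (o + o') % M = T % M →
      ¬ (∀ p ∈ Ms, ¬ p ∣ o + o') → nL o = some c → nR o' = some c' →
      c.2.2.2.2.2 = xy.1 ∧ bbf c' = xy.2 := by
    intro T
    by_cases hw : ∃ o o' c c', (o + o') % M = T % M ∧ ¬ (∀ p ∈ Ms, ¬ p ∣ o + o') ∧
        nL o = some c ∧ nR o' = some c'
    · obtain ⟨o, o', c, c', b1, b2, b3, b4⟩ := hw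
      refine ⟨(c.2.2.2.2.2, bbf c'), fun q q' d d' d1 d2 d3 d4 => ?_⟩
      exact huniq _ _ _ _ _ _ _ _ (d1.trans b1.symm) d2 d3 d4 b3 b4
    · refine ⟨(0, 0), fun q q' d d' d1 d2 d3 d4 => ?_⟩
      exact absurd ⟨q, q', d, d', d1, d2, d3, d4⟩ hw
  choose xy hxy using hex
  refine ⟨Ms, h1, fun p hp => ⟨(h2 p hp).1, lt_of_le_of_lt (le_max_left _ _) (h2 p hp).2,
    lt_of_le_of_lt (le_max_right _ _) (h2 p hp).2⟩, nL, nR, fun T => (xy (T % M)).1,
    fun T => (xy (T % M)).2, h3, h4,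
    fun t => by rw [← hM]; simp only [Nat.add_mod_right],
    fun t => by rw [← hM]; simp only [Nat.add_mod_right], ?_⟩
  intro κ α φ
  refine ⟨?_, ?_, ?_⟩
  · intro o o' c c' hg a1 a2
    exact h5 _ _ _ _ hg a1 a2
  · intro T hg i c hlen
    change (2 + M) * (2 ^ κ) ^ (i : ℕ) ≤ T at hlen
    show ∃ o, 2 * (2 ^ κ) ^ (i : ℕ) ≤ o ∧ o < (2 + M) * (2 ^ κ) ^ (i : ℕ) ∧
      (2 ^ κ) ^ (i : ℕ) ∣ T - o ∧ nL o = some c ∧ nR (T - o) = some c
    set G := (2 ^ κ) ^ (i : ℕ) with hG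
    have hGpos : 0 < G := by positivity
    obtain ⟨t, -, -, ht3, ht4, ht5⟩ := h6 T c 0 hg (by nlinarith)
    have hcop : Nat.Coprime M G := by
      rw [hG, ← pow_mul]
      apply Nat.Coprime.pow_right
      rw [hM]
      apply Nat.Coprime.prod_left
      intro p hp
      have h22 : 2 < p := lt_of_le_of_lt (le_max_right _ _) (h2 p hp).2
      exact (Nat.coprime_primes (h2 p hp).1 Nat.prime_two).2 (by omega)
    obtain ⟨k, hk1, hk2⟩ := Nat.chineseRemainder hcop t T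
    obtain ⟨o, ho1, ho2, ho3⟩ := Names_570.exists_shift k (2 * G) (M * G) (Nat.mul_pos hMpos hGpos)
    have hoT : o ≤ T := by nlinarith
    have hoM : o % M = t % M := by
      have : o ≡ k [MOD M] := (Nat.ModEq.of_mul_right G ho3)
      exact this.trans hk1
    have hoG : o ≡ T [MOD G] := by
      have : o ≡ k [MOD G] := (Nat.ModEq.of_mul_left M ho3)
      exact this.trans hk2
    refine ⟨o, ho1, by nlinarith, (Nat.modEq_iff_dvd' hoT).1 hoG, ?_, ?_⟩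
    · rw [per_mod h3 hoM, ht4]
    · rw [per_mod h4 (sub_mod_eq hoT ht3 hoM), ht5]
  · intro o o' c c' hb a1 a2
    exact hxy ((o + o') % M) o o' c c' (by simp) hb a1 a2

end Crest.Agent.R320.GridInst_551
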