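import Crest.Agent.R320.Grid_899

/-!
Row 320: 899's gadget of scheme 1 on all words, with the finite-state clause also for the noise.
-/

set_option autoImplicit false

namespace Crest.Agent.R320.GridNu_835

open Crest.Agent.R320.Grid_899

section FS

variable {α S V : Type*} [Monoid S] [AddCommGroup V]

/-- the class of a word: first `A` letters, value of the rest, length mod `Pm` -/
def Sim (phi : List α → S) (A Pm : ℕ) (Q Q' : List α) : Prop :=
  A ≤ Q.length ∧ A ≤ Q'.length ∧ Q.take A = Q'.take A ∧ phi (Q.drop A) = phi (Q'.drop A) ∧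
    Q.length ≡ Q'.length [MOD Pm]

omit [Monoid S] in
theorem Sim.symm {phi : List α → S} {A Pm : ℕ} {Q Q' : List α} (h : Sim phi A Pm Q Q') :
    Sim phi A Pm Q' Q := ⟨h.2.1, h.1, h.2.2.1.symm, h.2.2.2.1.symm, h.2.2.2.2.symm⟩

theorem Sim.drop {phi : List α → S} (hphi : ∀ u v, phi (u ++ v) = phi u * phi v) {A B Pm i : ℕ}
    {Q Q' : List α} (h : Sim phi (A + B) Pm Q Q') (hi : i ≤ A) :
    Sim phi B Pm (Q.drop i) (Q'.drop i) ∧ Q.take i = Q'.take i ∧ phi Q = phi Q' := by
  obtain ⟨h1, h2, h3, h4, h5⟩ := h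
  have key : ∀ X : List α, X.drop (i + B) = (X.take (A + B)).drop (i + B) ++ X.drop (A + B) := by
    intro X
    conv_lhs => rw [← List.take_append_drop (A + B) X]
    rw [List.drop_append]
    congr 1
    rw [List.length_take]
    by_cases hX : A + B ≤ X.length
    · rw [min_eq_left hX, show i + B - (A + B) = 0 by omega, List.drop_zero]
    · have : X.drop (A + B) = [] := List.drop_of_length_le (by omega)
      rw [this, List.drop_nil]
  refine ⟨⟨?_, ?_, ?_, ?_, ?_⟩, ?_, ?_⟩
  · rw [List.length_drop]; omega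
  · rw [List.length_drop]; omega
  · have e : ∀ X : List α, (X.drop i).take B = ((X.take (A + B)).drop i).take B := by
      intro X
      rw [List.drop_take, List.take_take, min_eq_left (by omega)]
    rw [e Q, e Q', h3]
  · rw [List.drop_drop, List.drop_drop, key Q, key Q', hphi, hphi, h3, h4]
  · rw [List.length_drop, List.length_drop]
    exact (Nat.ModEq.add_right_cancel' i (by
      rw [Nat.sub_add_cancel (by omega), Nat.sub_add_cancel (by omega)]; exact h5))
  · have e : ∀ X : List α, X.take i = (X.take (A + B)).take i := by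
      intro X
      rw [List.take_take, min_eq_left (by omega)]
    rw [e Q, e Q', h3]
  · rw [← List.take_append_drop (A + B) Q, ← List.take_append_drop (A + B) Q', hphi, hphi, h3, h4]

/-- **canonical noise**: from soundness and the finite-state clause of `rho` alone one gets a noise
with the finite-state clause. -/
theorem exists_noise_fs (act : V → S → V) (phi : List α → S)
    (hphi : ∀ u v, phi (u ++ v) = phi u * phi v) (A B Pm : ℕ)
    (lam rho : List α → Option V) (nu : List α → V)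
    (hlam : ∀ P v, lam P = some v → P.length ≤ A)
    (hs : ∀ P Q v b, lam P = some v → rho Q = some b → b = act v (phi (P ++ Q)) + nu (P ++ Q))
    (hfs : ∀ Q Q', Sim phi B Pm Q Q' → rho Q = rho Q') :
    ∃ nu' : List α → V,
      (∀ P Q v b, lam P = some v → rho Q = some b →
        b = act v (phi (P ++ Q)) + nu' (P ++ Q)) ∧
      (∀ Q Q', Sim phi (A + B) Pm Q Q' → nu' Q = nu' Q') := by
  classical
  refine ⟨fun u => if (∃ P Q v b, u = P ++ Q ∧ lam P = some v ∧ rho Q = some b) then nu u else 0,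
    ?_, ?_⟩
  · intro P Q v b h1 h2
    have : ∃ P' Q' v' b', P ++ Q = P' ++ Q' ∧ lam P' = some v' ∧ rho Q' = some b' :=
      ⟨P, Q, v, b, rfl, h1, h2⟩
    simp only [if_pos this]
    exact hs P Q v b h1 h2
  · have main : ∀ Q Q' : List α, Sim phi (A + B) Pm Q Q' →
        (∃ P R v b, Q = P ++ R ∧ lam P = some v ∧ rho R = some b) →
        (∃ P R v b, Q' = P ++ R ∧ lam P = some v ∧ rho R = some b) ∧ nu Q = nu Q' := by
      rintro Q Q' hQ ⟨P, R, v, b, rfl, h1, h2⟩
      have hP := hlam P v h1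
      obtain ⟨g1, g2, g3⟩ := hQ.drop hphi hP
      rw [List.drop_left] at g1
      rw [List.take_left] at g2
      have h3 : rho (Q'.drop P.length) = some b := by rw [← hfs _ _ g1]; exact h2
      have h4 : lam (Q'.take P.length) = some v := by rw [← g2]; exact h1
      refine ⟨⟨_, _, v, b, (List.take_append_drop P.length Q').symm, h4, h3⟩, ?_⟩
      have e1 := hs _ _ _ _ h1 h2
      have e2 := hs _ _ _ _ h4 h3
      rw [List.take_append_drop, ← g3] at e2
      rw [e1] at e2
      exact add_left_cancel e2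
    intro Q Q' hQ
    by_cases hx : ∃ P R v b, Q = P ++ R ∧ lam P = some v ∧ rho R = some b
    · obtain ⟨h1, h2⟩ := main Q Q' hQ hx
      simp only [if_pos hx, if_pos h1]
      exact h2
    · have hx' : ¬ ∃ P R v b, Q' = P ++ R ∧ lam P = some v ∧ rho R = some b := fun h =>
        hx (main Q' Q hQ.symm h).1
      simp only [if_neg hx, if_neg hx']

end FS

/-- **899's gadget with all finite-state clauses.** -/
theorem grid_full (S V : Type*) [Monoid S] [Finite S] [AddCommGroup V] [Finite V]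
    (act : V → S → V) :
    ∃ (k m : ℕ), ∀ q : Fin k → ℕ, (∀ j, Odd (q j)) →
      Pairwise (fun i j => Nat.Coprime (q i) (q j)) → ∀ κ : ℕ,
      ∀ (α : Type*) (phi : List α → S), (∀ u v, phi (u ++ v) = phi u * phi v) →
      ∃ (lam rho : List α → Option V) (nu : List α → V),
        (∀ P v, lam P = some v → P.length < Am (∏ j, q j) κ m ∧ P ≠ []) ∧
        (∀ Q b, rho Q = some b → Am (∏ j, q j) κ (m + 1) ≤ Q.length) ∧
        (∀ P Q v b, lam P = some v → rho Q = some b → b = act v (phi (P ++ Q)) + nu (P ++ Q)) ∧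
        (∀ u : List α, 2 * Am (∏ j, q j) κ (m + 1) ≤ u.length → (∀ j, ¬ q j ∣ u.length) →
          (∀ j, 1 ≤ j → j ≤ m →
            (∏ j, q j) * G κ (j - 1) ≤ (u.length - Am (∏ j, q j) κ j) % G κ j ∧
            (u.length - Am (∏ j, q j) κ j) % G κ j + (∏ j, q j) * G κ (j - 1) ≤ G κ j) →
          ∀ v, ∃ P Q, u = P ++ Q ∧ lam P = some v ∧ (rho Q).isSome) ∧
        (∀ Q Q' : List α, Sim phi (Am (∏ j, q j) κ (m + 1)) ((∏ j, q j) * G κ m) Q Q' →
          rho Q = rho Q') ∧
        (∀ Q Q' : List α, Sim phi (Am (∏ j, q j) κ m + Am (∏ j, q j) κ (m + 1))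
          ((∏ j, q j) * G κ m) Q Q' → nu Q = nu Q') := by
  obtain ⟨k, m, H⟩ := grid_gadget_reg S V act
  refine ⟨k, m, fun q hq hc κ α phi hphi => ?_⟩
  obtain ⟨lam, rho, nu, h1, h2, h3, h4, h5⟩ := H q hq hc κ α phi hphi
  obtain ⟨nu', g1, g2⟩ := exists_noise_fs act phi hphi (Am (∏ j, q j) κ m)
    (Am (∏ j, q j) κ (m + 1)) ((∏ j, q j) * G κ m) lam rho nu
    (fun P v hP => (h1 P v hP).1.le) h3
    (fun Q Q' h => h5 Q Q' h.1 h.2.1 h.2.2.1 h.2.2.2.1 h.2.2.2.2)
  exact ⟨lam, rho, nu', h1, h2, g1, h4, fun Q Q' h => h5 Q Q' h.1 h.2.1 h.2.2.1 h.2.2.2.1 h.2.2.2.2,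
    g2⟩

end Crest.Agent.R320.GridNu_835
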