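import Mathlib

set_option autoImplicit false

namespace Crest.Agent.R320.GridRuler_363

/-- bad totals of the grid gadget -/
def BadG (Ms : Finset ℕ) (kap m : ℕ) (Am : ℕ → ℕ) (t : ℕ) : Prop :=
  (∃ k ∈ Ms, k ∣ t) ∨ ∃ j, 1 ≤ j ∧ j ≤ m ∧
    ¬ ((∏ p ∈ Ms, p) * 2 ^ (kap * (j - 1)) ≤ (t - Am j) % 2 ^ (kap * j) ∧
      (t - Am j) % 2 ^ (kap * j) < 2 ^ (kap * j) - (∏ p ∈ Ms, p) * 2 ^ (kap * (j - 1)))

theorem four_lt {i j : ℕ} (h : i < j) : 4 * 4 ^ i ≤ 4 ^ j := by
  calc 4 * 4 ^ i = 4 ^ (i + 1) := by ring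
    _ ≤ 4 ^ j := Nat.pow_le_pow_right (by norm_num) h

theorem golomb {a b c d : ℕ} (h1 : a ≠ b) (h2 : c ≠ d)
    (h : ((4:ℤ) ^ a - 4 ^ b) = 4 ^ c - 4 ^ d) : a = c ∧ b = d := by
  have h' : (4:ℕ) ^ a + 4 ^ d = 4 ^ c + 4 ^ b := by
    have : ((4:ℕ):ℤ) ^ a + ((4:ℕ):ℤ) ^ d = ((4:ℕ):ℤ) ^ c + ((4:ℕ):ℤ) ^ b := by push_cast; linarith
    exact_mod_cast this
  have inj : ∀ i j : ℕ, (4:ℕ) ^ i = 4 ^ j → i = j := fun i j hij =>
    Nat.pow_right_injective (le_refl 4 |>.trans' (by norm_num)) hij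
  have pa : 0 < 4 ^ a := by positivity
  have pb : 0 < 4 ^ b := by positivity
  have pc : 0 < 4 ^ c := by positivity
  have pd : 0 < 4 ^ d := by positivity
  rcases lt_trichotomy a c with hac | hac | hac
  · exfalso
    have e1 := four_lt hac
    have e2 : c < d := by
      rcases lt_trichotomy c d with h3 | h3 | h3
      · exact h3
      · exact absurd h3 h2
      · have := four_lt h3; omega
    have e3 := four_lt e2
    rcases lt_trichotomy b d with h3 | h3 | h3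
    · have := four_lt h3; omega
    · subst h3; omega
    · have := four_lt h3; omega
  · subst hac
    refine ⟨rfl, inj _ _ (by omega)⟩
  · exfalso
    have e1 := four_lt hac
    have e2 : a < b := by
      rcases lt_trichotomy a b with h3 | h3 | h3
      · exact h3
      · exact absurd h3 h1
      · have := four_lt h3; omega
    have e3 := four_lt e2
    rcases lt_trichotomy d b with h3 | h3 | h3
    · have := four_lt h3; omega
    · subst h3; omega
    · have := four_lt h3; omega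

theorem sum_bound (kap j : ℕ) (hk : 1 ≤ kap) :
    (∑ i ∈ Finset.range (j+1), 2 ^ (kap * i)) ≤ 2 * 2 ^ (kap * j) := by
  induction j with
  | zero => simp
  | succ j ih =>
    rw [Finset.sum_range_succ]
    have : 2 * 2 ^ (kap * j) ≤ 2 ^ (kap * (j+1)) := by
      calc 2 * 2 ^ (kap * j) = 2 ^ (kap * j + 1) := by ring
        _ ≤ 2 ^ (kap * (j+1)) := Nat.pow_le_pow_right (by norm_num) (by rw [mul_add]; omega)
    omega

set_option maxHeartbeats 8000000 in
open Classical in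
theorem grid_ruler (m K : ℕ) : ∃ B0 : ℕ, ∀ (Ms : Finset ℕ), (∀ p ∈ Ms, Nat.Prime p ∧ B0 < p) →
    ∃ kap0 : ℕ, ∀ kap, kap0 ≤ kap → ∀ D : ℕ, ∃ x : ℕ → ℕ,
      (∀ a b, a < b → x a + D < x b) ∧
      ∀ (Am : ℕ → ℕ) (T : ℕ), (∀ b < K, x b ≤ T) → (∀ b < K, ∀ j ≤ m, x b + Am j ≤ T) →
        ((Finset.range K ×ˢ Finset.range K).filter
          (fun ab => ab.1 ≠ ab.2 ∧ BadG Ms kap m Am (T + x ab.1 - x ab.2))).card ≤ Ms.card + m := by
  refine ⟨2 * 4 ^ K + 2, fun Ms hMs => ?_⟩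
  set M : ℕ := ∏ p ∈ Ms, p with hM
  have hMpos : 0 < M := Finset.prod_pos (fun p hp => (hMs p hp).1.pos)
  refine ⟨M * (16 * 4 ^ K + 2) + 1, fun kap hkap D => ?_⟩
  have hk1 : 1 ≤ kap := by omega
  have h2kap : M * (16 * 4 ^ K + 2) < 2 ^ kap := by
    calc M * (16 * 4 ^ K + 2) < kap := by omega
      _ < 2 ^ kap := Nat.lt_two_pow_self
  have hcop : Nat.Coprime M (2 ^ (kap * m)) := by
    apply Nat.Coprime.pow_right
    rw [hM]
    apply Nat.Coprime.prod_left
    intro p hp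
    obtain ⟨hp1, hp2⟩ := hMs p hp
    rw [Nat.coprime_primes hp1 Nat.prime_two]
    omega
  set Y : ℕ := 4 * ∑ i ∈ Finset.range m, M * 2 ^ (kap * i) with hY
  obtain ⟨X0, hX1, hX2⟩ := Nat.chineseRemainder hcop 1 Y
  set X : ℕ := X0 + (D + 1) * (M * 2 ^ (kap * m)) with hX
  have hXD : D < X := by
    have : D + 1 ≤ (D + 1) * (M * 2 ^ (kap * m)) := Nat.le_mul_of_pos_right _ (by positivity)
    omega
  have hXM : (M:ℤ) ∣ (X:ℤ) - 1 := by
    have h1 : (M:ℤ) ∣ (X0:ℤ) - 1 := by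
      have := (Nat.modEq_iff_dvd.mp hX1.symm)
      exact_mod_cast this
    have h2 : (X:ℤ) - 1 = ((X0:ℤ) - 1) + M * ((D+1) * 2 ^ (kap * m)) := by
      rw [hX]; push_cast; ring
    rw [h2]
    exact dvd_add h1 (dvd_mul_right _ _)
  have hXG : ((2 ^ (kap * m) : ℕ):ℤ) ∣ (X:ℤ) - Y := by
    have h1 : ((2 ^ (kap * m) : ℕ):ℤ) ∣ (X0:ℤ) - Y := Nat.modEq_iff_dvd.mp hX2.symm
    have h2 : (X:ℤ) - Y = ((X0:ℤ) - Y) + ((2 ^ (kap * m) : ℕ):ℤ) * ((D+1) * M) := by
      rw [hX]; push_cast; ring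
    rw [h2]
    exact dvd_add h1 (dvd_mul_right _ _)
  refine ⟨fun j => X * 4 ^ j, ?_, ?_⟩
  · intro a b hab
    have h1 := four_lt hab
    have h2 : 1 ≤ 4 ^ a := Nat.one_le_pow _ _ (by norm_num)
    have h3 : X * (4 * 4 ^ a) ≤ X * 4 ^ b := Nat.mul_le_mul_left _ h1
    have h4 : X * 1 ≤ X * 4 ^ a := Nat.mul_le_mul_left _ h2
    have h5 : X * (4 * 4 ^ a) = 4 * (X * 4 ^ a) := by ring
    show X * 4 ^ a + D < X * 4 ^ b
    omega
  intro Am T hT1 hT2
  -- events
  let EVs : Finset (ℕ ⊕ ℕ) := Ms.disjSum (Finset.Icc 1 m)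
  have hcard : EVs.card = Ms.card + m := by
    simp [EVs, Finset.card_disjSum]
  let P : (ℕ × ℕ) → (ℕ ⊕ ℕ) → Prop := fun ab e => match e with
    | Sum.inl k => k ∣ (T + X * 4 ^ ab.1 - X * 4 ^ ab.2)
    | Sum.inr j => ¬ (M * 2 ^ (kap * (j - 1)) ≤
        ((T + X * 4 ^ ab.1 - X * 4 ^ ab.2) - Am j) % 2 ^ (kap * j) ∧
      ((T + X * 4 ^ ab.1 - X * 4 ^ ab.2) - Am j) % 2 ^ (kap * j) <
        2 ^ (kap * j) - M * 2 ^ (kap * (j - 1)))
  have key : ∀ e ∈ EVs, ∀ a b c d, a < K → b < K → c < K → d < K → a ≠ b → c ≠ d →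
      P (a, b) e → P (c, d) e → a = c ∧ b = d := by
    intro e he a b c d ha hb hc hd hab hcd h1 h2
    have hpow : ∀ i < K, (4:ℤ) ^ i < 4 ^ K ∧ 0 < (4:ℤ) ^ i := fun i hi =>
      ⟨pow_lt_pow_right₀ (by norm_num) hi, by positivity⟩
    obtain ⟨a1, a2⟩ := hpow a ha
    obtain ⟨b1, b2⟩ := hpow b hb
    obtain ⟨c1, c2⟩ := hpow c hc
    obtain ⟨d1, d2⟩ := hpow d hd
    have hb' : X * 4 ^ b ≤ T := hT1 b hb
    have hd' : X * 4 ^ d ≤ T := hT1 d hd
    have ct1 : ((T + X * 4 ^ a - X * 4 ^ b : ℕ) : ℤ) = T + X * (4 ^ a - 4 ^ b) := by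
      rw [Nat.cast_sub (by omega)]; push_cast; ring
    have ct2 : ((T + X * 4 ^ c - X * 4 ^ d : ℕ) : ℤ) = T + X * (4 ^ c - 4 ^ d) := by
      rw [Nat.cast_sub (by omega)]; push_cast; ring
    set δ : ℤ := (4:ℤ) ^ a - 4 ^ b with hδ
    set δ' : ℤ := (4:ℤ) ^ c - 4 ^ d with hδ'
    suffices hs : δ - δ' = 0 from golomb hab hcd (by linarith)
    rcases e with k | j
    · -- prime event
      have hk : k ∈ Ms := by simpa [EVs] using he
      obtain ⟨hk1, hk2⟩ := hMs k hk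
      have h1' : (k:ℤ) ∣ T + X * δ := by rw [← ct1]; exact_mod_cast h1
      have h2' : (k:ℤ) ∣ T + X * δ' := by rw [← ct2]; exact_mod_cast h2
      have h3 : (k:ℤ) ∣ X * (δ - δ') := by
        have := dvd_sub h1' h2'
        have e : (T + X * δ) - (T + X * δ') = X * (δ - δ') := by ring
        rwa [e] at this
      have h4 : (k:ℤ) ∣ (X - 1) * (δ - δ') := by
        have : (k:ℤ) ∣ (M:ℤ) := by
          have : k ∣ M := Finset.dvd_prod_of_mem _ hk
          exact_mod_cast this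
        exact Dvd.dvd.mul_right (this.trans hXM) _
      have h5 : (k:ℤ) ∣ δ - δ' := by
        have := dvd_sub h3 h4
        have e : X * (δ - δ') - (X - 1) * (δ - δ') = δ - δ' := by ring
        rwa [e] at this
      apply Int.eq_zero_of_abs_lt_dvd h5
      have hk2' : ((2 * 4 ^ K + 2 : ℕ):ℤ) < k := by exact_mod_cast hk2
      push_cast at hk2'
      rw [abs_lt]
      constructor <;> linarith
    · -- grid event
      have hj : 1 ≤ j ∧ j ≤ m := by simpa [EVs] using he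
      obtain ⟨hj1, hj2⟩ := hj
      set Gj : ℕ := 2 ^ (kap * j) with hGj
      set cc : ℕ := M * 2 ^ (kap * (j - 1)) with hcc
      have hGpos : 0 < Gj := by positivity
      have hccpos : 0 < cc := by positivity
      -- near a multiple
      have near : ∀ t : ℕ, ¬ (cc ≤ t % Gj ∧ t % Gj < Gj - cc) →
          ∃ q ε : ℤ, (t:ℤ) = q * Gj + ε ∧ -(cc:ℤ) ≤ ε ∧ ε < cc := by
        intro t ht
        have h3 := Nat.div_add_mod t Gj
        have h4 := Nat.mod_lt t hGpos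
        have h3' : (Gj:ℤ) * (t / Gj : ℕ) + (t % Gj : ℕ) = t := by exact_mod_cast h3
        by_cases h5 : t % Gj < cc
        · refine ⟨(t / Gj : ℕ), (t % Gj : ℕ), ?_, ?_, ?_⟩
          · rw [← h3']; ring
          · have : (0:ℤ) ≤ ((t % Gj : ℕ):ℤ) := Int.natCast_nonneg _
            have : (0:ℤ) ≤ (cc:ℤ) := Int.natCast_nonneg _
            linarith
          · exact_mod_cast h5
        · have h6 : Gj - cc ≤ t % Gj := by
            by_contra hc
            exact ht ⟨by omega, by omega⟩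
          refine ⟨(t / Gj : ℕ) + 1, (t % Gj : ℕ) - Gj, ?_, ?_, ?_⟩
          · rw [← h3']; ring
          · have : Gj ≤ t % Gj + cc := by omega
            have : (Gj:ℤ) ≤ ((t % Gj : ℕ):ℤ) + cc := by exact_mod_cast this
            linarith
          · have h7 : ((t % Gj : ℕ):ℤ) < Gj := by exact_mod_cast h4
            have : (0:ℤ) < (cc:ℤ) := by exact_mod_cast hccpos
            linarith
      obtain ⟨q1, ε1, e1, e2, e3⟩ := near _ h1
      obtain ⟨q2, ε2, e4, e5, e6⟩ := near _ h2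
      have hAb : X * 4 ^ b + Am j ≤ T := hT2 b hb j hj2
      have hAd : X * 4 ^ d + Am j ≤ T := hT2 d hd j hj2
      have ct1' : ((T + X * 4 ^ a - X * 4 ^ b - Am j : ℕ) : ℤ) = T + X * δ - Am j := by
        rw [Nat.cast_sub (by omega), ct1]
      have ct2' : ((T + X * 4 ^ c - X * 4 ^ d - Am j : ℕ) : ℤ) = T + X * δ' - Am j := by
        rw [Nat.cast_sub (by omega), ct2]
      rw [ct1'] at e1
      rw [ct2'] at e4
      -- X mod Gj
      set Yj : ℕ := 4 * ∑ i ∈ Finset.range j, M * 2 ^ (kap * i) with hYj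
      have hXj : (Gj:ℤ) ∣ (X:ℤ) - Yj := by
        have h3 : (Gj:ℤ) ∣ (X:ℤ) - Y := by
          refine Dvd.dvd.trans ?_ hXG
          have : Gj ∣ 2 ^ (kap * m) := pow_dvd_pow 2 (Nat.mul_le_mul_left _ hj2)
          exact_mod_cast this
        have h4 : (Gj:ℤ) ∣ (Y:ℤ) - Yj := by
          have h5 : Y = Yj + 4 * ∑ i ∈ Finset.Ico j m, M * 2 ^ (kap * i) := by
            rw [hY, hYj, ← mul_add, Finset.sum_range_add_sum_Ico _ hj2]
          have h6 : Gj ∣ 4 * ∑ i ∈ Finset.Ico j m, M * 2 ^ (kap * i) := by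
            apply Dvd.dvd.mul_left
            apply Finset.dvd_sum
            intro i hi
            rw [Finset.mem_Ico] at hi
            apply Dvd.dvd.mul_left
            exact pow_dvd_pow 2 (Nat.mul_le_mul_left _ hi.1)
          have h7 : (Y:ℤ) - Yj = ((4 * ∑ i ∈ Finset.Ico j m, M * 2 ^ (kap * i) : ℕ):ℤ) := by
            rw [h5]; push_cast; ring
          rw [h7]
          exact_mod_cast h6
        have := dvd_add h3 h4
        have e : (X:ℤ) - Y + (Y - Yj) = X - Yj := by ring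
        rwa [e] at this
      obtain ⟨u, hu⟩ := hXj
      have hYlow : 4 * cc ≤ Yj := by
        rw [hYj]
        apply Nat.mul_le_mul_left
        rw [hcc]
        exact Finset.single_le_sum (f := fun i => M * 2 ^ (kap * i)) (fun _ _ => Nat.zero_le _)
          (Finset.mem_range.mpr (by omega))
      have hYup : Yj ≤ 8 * cc := by
        rw [hYj, ← Finset.mul_sum, hcc]
        have h3 := sum_bound kap (j - 1) hk1
        have h4 : j - 1 + 1 = j := by omega
        rw [h4] at h3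
        calc 4 * (M * ∑ i ∈ Finset.range j, 2 ^ (kap * i))
            ≤ 4 * (M * (2 * 2 ^ (kap * (j - 1)))) := by gcongr
          _ = 8 * (M * 2 ^ (kap * (j - 1))) := by ring
      have hGbig : cc * (16 * 4 ^ K + 2) < Gj := by
        have h3 : Gj = 2 ^ kap * 2 ^ (kap * (j - 1)) := by
          rw [hGj, ← pow_add]
          congr 1
          obtain ⟨j', rfl⟩ : ∃ j', j = j' + 1 := ⟨j - 1, by omega⟩
          simp [mul_add, add_comm]
        rw [h3, hcc]
        calc M * 2 ^ (kap * (j - 1)) * (16 * 4 ^ K + 2)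
            = (M * (16 * 4 ^ K + 2)) * 2 ^ (kap * (j - 1)) := by ring
          _ < 2 ^ kap * 2 ^ (kap * (j - 1)) := by
            exact Nat.mul_lt_mul_of_pos_right h2kap (by positivity)
      -- the equation
      have hYlow' : (4:ℤ) * cc ≤ Yj := by exact_mod_cast hYlow
      have hYup' : (Yj:ℤ) ≤ 8 * cc := by exact_mod_cast hYup
      have hG' : (cc:ℤ) * (16 * 4 ^ K + 2) < Gj := by exact_mod_cast hGbig
      have hcc' : (0:ℤ) < cc := by exact_mod_cast hccpos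
      have heq : (Yj:ℤ) * (δ - δ') = Gj * (q1 - q2 - u * (δ - δ')) + (ε1 - ε2) := by
        have h3 : (X:ℤ) = Yj + Gj * u := by linarith
        have h4 : (X:ℤ) * (δ - δ') = (q1 - q2) * Gj + (ε1 - ε2) := by linarith
        rw [h3] at h4
        linarith
      have hΔ : |δ - δ'| ≤ 2 * 4 ^ K := by
        rw [abs_le]; constructor <;> linarith
      have hYΔ : |(Yj:ℤ) * (δ - δ')| ≤ cc * (16 * 4 ^ K) := by
        rw [abs_mul, abs_of_nonneg (by positivity : (0:ℤ) ≤ (Yj:ℤ))]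
        calc (Yj:ℤ) * |δ - δ'| ≤ (8 * cc) * (2 * 4 ^ K) := by
              apply mul_le_mul hYup' hΔ (abs_nonneg _) (by positivity)
          _ = cc * (16 * 4 ^ K) := by ring
      have hq0 : (Gj:ℤ) * (q1 - q2 - u * (δ - δ')) = 0 := by
        apply Int.eq_zero_of_abs_lt_dvd (dvd_mul_right _ _)
        have h3 : (Gj:ℤ) * (q1 - q2 - u * (δ - δ')) = Yj * (δ - δ') - (ε1 - ε2) := by linarith
        rw [h3]
        rw [abs_le] at hYΔ
        have h4 : (cc:ℤ) * (16 * 4 ^ K + 2) = cc * (16 * 4 ^ K) + 2 * cc := by ring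
        rw [abs_lt]
        constructor <;> linarith
      rw [hq0, zero_add] at heq
      by_contra hne
      have h3 : 1 ≤ |δ - δ'| := Int.one_le_abs hne
      have h4 : |(Yj:ℤ) * (δ - δ')| < 2 * cc := by
        rw [heq, abs_lt]
        constructor <;> linarith
      rw [abs_mul, abs_of_nonneg (by positivity : (0:ℤ) ≤ (Yj:ℤ))] at h4
      have h5 : (Yj:ℤ) * 1 ≤ Yj * |δ - δ'| := mul_le_mul_of_nonneg_left h3 (by positivity)
      linarith
  rw [← hcard]
  set F := (Finset.range K ×ˢ Finset.range K).filter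
    (fun ab => ab.1 ≠ ab.2 ∧ BadG Ms kap m Am (T + (fun j => X * 4 ^ j) ab.1 - (fun j => X * 4 ^ j) ab.2)) with hF
  have hex : ∀ ab ∈ F, ∃ e ∈ EVs, P ab e := by
    intro ab hab
    rw [hF, Finset.mem_filter] at hab
    obtain ⟨-, -, ⟨k, hk, h⟩ | ⟨j, hj1, hj2, h⟩⟩ := hab
    · exact ⟨Sum.inl k, by simp [EVs, hk], h⟩
    · exact ⟨Sum.inr j, by simp [EVs]; omega, h⟩
  choose! ev hev using hex
  apply Finset.card_le_card_of_injOn ev (fun ab hab => (hev ab hab).1)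
  intro p hp q hq hpq
  obtain ⟨h1, h2⟩ := hev p hp
  obtain ⟨h3, h4⟩ := hev q hq
  rw [Finset.mem_coe, hF, Finset.mem_filter, Finset.mem_product, Finset.mem_range,
    Finset.mem_range] at hp hq
  rw [← hpq] at h4
  obtain ⟨e1, e2⟩ := key (ev p) h1 p.1 p.2 q.1 q.2 hp.1.1 hp.1.2 hq.1.1 hq.1.2 hp.2.1 hq.2.1 h2 h4
  exact Prod.ext e1 e2

end Crest.Agent.R320.GridRuler_363
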