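import Mathlib
import Crest.Agent.R320.GridC_95

/-!
Row 320: the grid gadget (693 #13203) in closed form, literal of 446 #13873.
-/

namespace Crest.Agent.R320.GridT_95

open Finset Crest.Agent.R320.GridU_95 Crest.Agent.R320.GridC_95

universe u

theorem grid (S V : Type) [Monoid S] [Finite S] [AddCommGroup V] [Finite V] (act : V → S → V) :
    ∃ J : ℕ, ∀ B : ℕ, ∃ (BT : ℕ → ℤ → Prop) (N1 A0 Md : ℕ), 0 < Md ∧ 0 < N1 ∧ N1 ≤ A0 ∧
      (∀ j < J, ∀ T : ℤ, BT j (T + Md) ↔ BT j T) ∧
      (∀ U0 : ℕ, ∃ U : ℕ, U0 ≤ U ∧ ∀ j < J, ∀ T d d' : ℤ, |d| ≤ B → |d'| ≤ B →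
        BT j (T + U * d) → BT j (T + U * d') → d = d') ∧
      ∀ (α : Type u) (f : α → S), ∃ (L R : List α → Option V) (ν : List α → V),
        (∀ P Q v b, L P = some v → R Q = some b →
          b = act v ((P ++ Q).map f).prod + ν (P ++ Q)) ∧
        (∀ P v, L P = some v → 0 < P.length ∧ P.length ≤ N1) ∧
        (∀ Y v, N1 ≤ Y.length → (∀ j < J, ¬ BT j Y.length) →
          ∃ P Q, Y = P ++ Q ∧ L P = some v ∧ (R Q).isSome) ∧
        (∀ Q Q', A0 ≤ Q.length → A0 ≤ Q'.length → Q.take A0 = Q'.take A0 →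
          ((Q.drop A0).map f).prod = ((Q'.drop A0).map f).prod →
          Q.length % Md = Q'.length % Md → R Q = R Q' ∧ ν Q = ν Q') := by
  classical
  haveI : Fintype S := Fintype.ofFinite S
  haveI : Fintype V := Fintype.ofFinite V
  obtain ⟨m, N, e, F, hN, hF⟩ := RandF808.exists_noise S V act
  haveI : NeZero N := ⟨hN.ne'⟩
  obtain ⟨r, hr⟩ := Names755.names (Nm m S (ZMod N × ZMod N) V) (V × V) (fun c => c.2.2.2)
  refine ⟨r + m, fun B => ?_⟩
  obtain ⟨Ms, M, nmL, nmR, hcard, hk, hM, hLp, hRp, hn1, hn2, hn3⟩ := hr (2 * B)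
  obtain ⟨g, hg⟩ : ∃ g, g = M * (16 * B + 4) + 1 := ⟨_, rfl⟩
  have hgx : g = 16 * B * M + 4 * M + 1 := by rw [hg]; ring
  have hΓ : 2 + M ≤ g := by omega
  have hg0 : 0 < g := by omega
  have hgB : 16 * B * M + 2 * M < g := by omega
  have hcop : Nat.Coprime M g := by
    rw [hg]
    simp
  have hGm : 0 < g ^ (m + 1) := Nat.pow_pos hg0
  let BT : ℕ → ℤ → Prop := fun j T =>
    if j < r then ∃ p : ℕ, Ms.toList[j]? = some p ∧ (p : ℤ) ∣ T else Bd M g (j - r) T
  refine ⟨BT, g ^ (m + 1), 3 * g ^ (m + 1), M * g ^ (m + 1), Nat.mul_pos hM hGm, hGm, by omega,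
    ?_, ?_, ?_⟩
  · intro j hj T
    by_cases hjr : j < r
    · simp only [BT, if_pos hjr]
      constructor
      · rintro ⟨p, hp, hd⟩
        have hpm : p ∈ Ms := Finset.mem_toList.mp (List.mem_of_getElem? hp)
        refine ⟨p, hp, ?_⟩
        have : (p : ℤ) ∣ ((M * g ^ (m + 1) : ℕ) : ℤ) := by
          rw [Int.natCast_dvd_natCast]
          exact ((hk p hpm).2.2).mul_right _
        exact (Int.dvd_add_left this).mp hd
      · rintro ⟨p, hp, hd⟩
        have hpm : p ∈ Ms := Finset.mem_toList.mp (List.mem_of_getElem? hp)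
        refine ⟨p, hp, ?_⟩
        have : (p : ℤ) ∣ ((M * g ^ (m + 1) : ℕ) : ℤ) := by
          rw [Int.natCast_dvd_natCast]
          exact ((hk p hpm).2.2).mul_right _
        exact (Int.dvd_add_left this).mpr hd
    · simp only [BT, if_neg hjr]
      exact Bd_per (by omega) M T
  · intro U0
    obtain ⟨k, hk1, hk2⟩ := Nat.chineseRemainder (hcop.pow_right (m + 1)) 1 (Xs M g m)
    obtain ⟨U, hU1, -, hU3⟩ := exists_shift k U0 (M * g ^ (m + 1)) (Nat.mul_pos hM hGm)
    have hUM : U % M = 1 % M := by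
      rw [← Nat.mod_mod_of_dvd U (Dvd.intro _ rfl : M ∣ M * g ^ (m + 1)), hU3,
        Nat.mod_mod_of_dvd k (Dvd.intro _ rfl)]
      exact hk1
    have hUG : U % g ^ (m + 1) = Xs M g m % g ^ (m + 1) := by
      rw [← Nat.mod_mod_of_dvd U (Dvd.intro_left _ rfl : g ^ (m + 1) ∣ M * g ^ (m + 1)), hU3,
        Nat.mod_mod_of_dvd k (Dvd.intro_left _ rfl)]
      exact hk2
    refine ⟨U, hU1, ?_⟩
    intro j hj T d d' hd hd' h1 h2
    by_cases hjr : j < r
    · simp only [BT, if_pos hjr] at h1 h2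
      obtain ⟨p, hp, hp1⟩ := h1
      obtain ⟨p', hp', hp2⟩ := h2
      have hpp : p' = p := by
        rw [hp] at hp'
        exact (Option.some.inj hp').symm
      subst hpp
      have hpm : p' ∈ Ms := Finset.mem_toList.mp (List.mem_of_getElem? hp)
      obtain ⟨hpB, -, hpM⟩ := hk p' hpm
      have h3 : (p' : ℤ) ∣ (U : ℤ) * (d - d') := by
        have := dvd_sub hp1 hp2
        have e1 : (T + U * d) - (T + U * d') = (U : ℤ) * (d - d') := by ring
        rwa [e1] at this
      have h4 : (p' : ℤ) ∣ (U : ℤ) - 1 := by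
        have h5 : (1 : ℤ) ≡ U [ZMOD (p' : ℕ)] := by
          have : 1 ≡ U [MOD p'] := Nat.ModEq.of_dvd hpM hUM.symm
          exact_mod_cast (Int.natCast_modEq_iff).mpr this
        exact h5.dvd
      have h6 : (p' : ℤ) ∣ (d - d') := by
        have h7 : (p' : ℤ) ∣ (U : ℤ) * (d - d') - ((U : ℤ) - 1) * (d - d') :=
          dvd_sub h3 (h4.mul_right _)
        have e1 : (U : ℤ) * (d - d') - ((U : ℤ) - 1) * (d - d') = d - d' := by ring
        rwa [e1] at h7
      have h8 : |d - d'| < (p' : ℤ) := by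
        have h9 : |d - d'| ≤ |d| + |d'| := abs_sub _ _
        have h10 : (2 * B : ℤ) < p' := by exact_mod_cast hpB
        linarith
      have := Int.eq_zero_of_abs_lt_dvd h6 h8
      linarith
    · simp only [BT, if_neg hjr] at h1 h2
      exact Bd_golomb (by omega : j - r < m) hM hgB hUG hd hd' h1 h2
  · intro α f
    set phi : List α → S := fun l => (l.map f).prod with hphid
    have hphi : ∀ u v, phi (u ++ v) = phi u * phi v := fun u v => by simp [hphid]
    have hnn3 : ∀ t₁ t₁' t₂ t₂' (c₁ c₁' c₂ c₂' : Nm m S (ZMod N × ZMod N) V),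
        nmL t₁ = some c₁ → nmR t₁' = some c₁' →
        nmL t₂ = some c₂ → nmR t₂' = some c₂' → t₁ + t₁' = t₂ + t₂' →
        (∃ k ∈ Ms, k ∣ t₁ + t₁') → c₁.2.2.2 = c₂.2.2.2 ∧ c₁'.2.2.2 = c₂'.2.2.2 :=
      fun t₁ t₁' t₂ t₂' c₁ c₁' c₂ c₂' a1 a2 a3 a4 a5 a6 => hn3 t₁ t₁' t₂ t₂' c₁ c₁' c₂ c₂' a1 a2 a3 a4 a5 a6
    let L : List α → Option V := fun P =>
      if h : ∃ c, LN phi act e F g M m nmL P c then some h.choose.2.2.2.1 else none
    let R : List α → Option V := fun Q =>
      if h : ∃ c, RN phi act e F g M m nmR Q c then some h.choose.2.2.2.2 else none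
    have hLs : ∀ P v, L P = some v → ∃ c, LN phi act e F g M m nmL P c ∧ c.2.2.2.1 = v := by
      intro P v h
      simp only [L] at h
      split_ifs at h with hc
      exact ⟨hc.choose, hc.choose_spec, by simpa using h⟩
    have hRs : ∀ Q b, R Q = some b → ∃ c, RN phi act e F g M m nmR Q c ∧ c.2.2.2.2 = b := by
      intro P v h
      simp only [R] at h
      split_ifs at h with hc
      exact ⟨hc.choose, hc.choose_spec, by simpa using h⟩
    have hLc : ∀ P c, LN phi act e F g M m nmL P c → L P = some c.2.2.2.1 := by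
      intro P c h
      have hex : ∃ c, LN phi act e F g M m nmL P c := ⟨c, h⟩
      simp only [L, dif_pos hex]
      have : hex.choose = c := by
        have h1 := hex.choose_spec.1
        rw [h.1] at h1
        exact (Option.some.inj h1).symm
      rw [this]
    have hRc : ∀ Q c, RN phi act e F g M m nmR Q c → R Q = some c.2.2.2.2 := by
      intro P c h
      have hex : ∃ c, RN phi act e F g M m nmR P c := ⟨c, h⟩
      simp only [R, dif_pos hex]
      have : hex.choose = c := by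
        have h1 := hex.choose_spec.1
        rw [h.1] at h1
        exact (Option.some.inj h1).symm
      rw [this]
    refine ⟨L, R, nu phi act e F g M m nmL nmR Ms, ?_, ?_, ?_, ?_⟩
    · intro P Q v b h1 h2
      obtain ⟨c, hc, rfl⟩ := hLs P v h1
      obtain ⟨c', hc', rfl⟩ := hRs Q b h2
      exact (sound hphi hΓ hn1 hnn3 hc hc').symm
    · intro P v h1
      obtain ⟨c, hc, rfl⟩ := hLs P v h1
      have h2 := hc.2.2.1
      have h4 : (2 + M) * g ^ ((c.1 : ℕ) + 1) ≤ g ^ ((c.1 : ℕ) + 1 + 1) := by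
        rw [pow_succ g ((c.1 : ℕ) + 1), mul_comm]
        exact Nat.mul_le_mul_left _ hΓ
      have h6 : g ^ ((c.1 : ℕ) + 1 + 1) ≤ g ^ (m + 1) :=
        Nat.pow_le_pow_right hg0 (by have := c.1.2; omega)
      have h7 : 0 < g ^ ((c.1 : ℕ) + 1) := Nat.pow_pos hg0
      have h8 := h2.1
      have h9 := h2.2
      omega
    · intro Y v hY hbt
      have hgood : ∀ k ∈ Ms, ¬ k ∣ Y.length := by
        intro p hp hd
        obtain ⟨j, hj⟩ := List.mem_iff_getElem?.mp (Finset.mem_toList.mpr hp)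
        have hjl : j < Ms.toList.length := by
          by_contra hcon
          rw [List.getElem?_eq_none (by omega)] at hj
          exact absurd hj (by simp)
        rw [Finset.length_toList] at hjl
        have hjr : j < r := by omega
        apply hbt j (by omega)
        simp only [BT, if_pos hjr]
        exact ⟨p, hj, Int.natCast_dvd_natCast.mpr hd⟩
      have hgrid : ∀ j < m, M * g ^ (j + 1) ≤ Y.length % g ^ (j + 2) ∧
          Y.length % g ^ (j + 2) + M * g ^ (j + 1) < g ^ (j + 2) := by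
        intro j hj
        apply Bd_not hg0
        have := hbt (r + j) (by omega)
        simp only [BT, if_neg (by omega : ¬ r + j < r), Nat.add_sub_cancel_left] at this
        exact this
      obtain ⟨P, Q, c, hPQ, -, hL, hR, hv⟩ := complete hphi hΓ hM hcop hF hLp hn2 Y hY hgood hgrid v
      refine ⟨P, Q, hPQ.symm, ?_, ?_⟩
      · rw [hLc P c hL, hv]
      · rw [hRc Q c hR]; rfl
    · intro Q Q' h1 h2 h3 h4 h5
      have hsim : Sim phi (3 * g ^ (m + 1)) (M * g ^ (m + 1)) Q Q' := ⟨h1, h2, h3, h4, h5⟩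
      refine ⟨?_, nu_sim hphi hΓ le_rfl (Dvd.intro_left _ rfl) (Dvd.intro _ rfl)
        (fun k hkm => (hk k hkm).2.2) hRp hnn3 hsim⟩
      by_cases hex : ∃ c, RN phi act e F g M m nmR Q c
      · obtain ⟨c, hc⟩ := hex
        rw [hRc Q c hc, hRc Q' c (RN_sim hphi hg0 (by omega) (Dvd.intro_left _ rfl)
          (Dvd.intro _ rfl) hRp hsim hc)]
      · have hex' : ¬ ∃ c, RN phi act e F g M m nmR Q' c := by
          rintro ⟨c, hc⟩
          exact hex ⟨c, RN_sim hphi hg0 (by omega) (Dvd.intro_left _ rfl)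
            (Dvd.intro _ rfl) hRp hsim.symm hc⟩
        simp only [R, dif_neg hex, dif_neg hex']

end Crest.Agent.R320.GridT_95
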