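import Mathlib
import Crest.Agent.R320.GridCnt_791

/-! Row 320: the grid gadget (693 #13203) in 638's UG form -/

namespace Crest.Agent.R320.Grid791

open Finset

set_option linter.unusedSectionVars false

theorem lo_le_G {Γ M : ℕ} (h : 2 + M ≤ Γ) (j : ℕ) : lo Γ M j ≤ G Γ j := by
  induction j with
  | zero => exact Nat.zero_le _
  | succ j ih =>
    rw [lo_succ]
    have h2 : G Γ (j + 1) = Γ * G Γ j := by unfold G; ring
    have h3 : (2 + M) * G Γ j ≤ Γ * G Γ j := Nat.mul_le_mul_right _ h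
    rw [h2]
    calc lo Γ M j + G Γ j + M * G Γ j ≤ G Γ j + G Γ j + M * G Γ j := by omega
      _ = (2 + M) * G Γ j := by ring
      _ ≤ _ := h3

theorem bad1_add {Γ M m : ℕ} {Ms : Finset ℕ} (hMs : ∀ k ∈ Ms, k ∣ M) (T : ℕ) :
    Bad1 Γ M m Ms (T + M * G Γ m) ↔ Bad1 Γ M m Ms T := by
  unfold Bad1
  refine or_congr ?_ ?_
  · refine exists_congr fun k => and_congr_right fun hk => ?_
    exact Nat.dvd_add_left ((hMs k hk).mul_right _)
  · refine exists_congr fun j => and_congr_right fun hj => ?_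
    obtain ⟨t, ht⟩ := G_dvd Γ (show j + 1 ≤ m from hj)
    constructor
    · rintro ⟨z, hz⟩
      refine ⟨z - M * t, ?_⟩
      rw [ht] at hz
      push_cast at hz ⊢
      convert hz using 2
      ring
    · rintro ⟨z, hz⟩
      refine ⟨z + M * t, ?_⟩
      rw [ht]
      push_cast at hz ⊢
      convert hz using 2
      ring

namespace Dat

variable {α S V W : Type} [Monoid S] [AddCommGroup V] [AddCommGroup W] {m : ℕ}
  (D : Dat α S V W m)

def PS (Q : ℕ) (cc : Ctx m S V W × Ctx m S V W) : Prop :=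
  ∃ t t', (t + t') % D.M = Q ∧ D.nmL t = some cc.1 ∧ D.nmR t' = some cc.2

open Classical in
noncomputable def nu (Ms : Finset ℕ) (u : List α) : V :=
  if ∀ k ∈ Ms, ¬ k ∣ u.length / D.Mp then D.F (D.phi u) (D.wt u)
  else if h : ∃ cc, D.PS ((u.length / D.Mp) % D.M) cc then
    D.bb h.choose.2 - D.act h.choose.1.2.2.2.2.2 (D.phi u) else 0

open Classical in
noncomputable def lam (P : List α) : Option V :=
  if h : ∃ c, D.LL P c then some h.choose.2.2.2.2.2 else none

open Classical in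
noncomputable def rho (Q : List α) : Option V :=
  if h : ∃ c, D.RR Q c then some (D.bb h.choose) else none

theorem lam_spec {P : List α} {v : V} (h : D.lam P = some v) : ∃ c, D.LL P c ∧ c.2.2.2.2.2 = v := by
  unfold lam at h
  split_ifs at h with h1
  exact ⟨h1.choose, h1.choose_spec, by simpa using h⟩

theorem rho_spec {Q : List α} {r : V} (h : D.rho Q = some r) : ∃ c, D.RR Q c ∧ D.bb c = r := by
  unfold rho at h
  split_ifs at h with h1
  exact ⟨h1.choose, h1.choose_spec, by simpa using h⟩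

theorem lam_eq {P : List α} {c : Ctx m S V W} (h : D.LL P c) : D.lam P = some c.2.2.2.2.2 := by
  unfold lam
  have h1 : ∃ c, D.LL P c := ⟨c, h⟩
  rw [dif_pos h1]
  have h2 := h1.choose_spec.nm
  rw [h.nm] at h2
  rw [← Option.some.inj h2]

theorem rho_isSome {Q : List α} {c : Ctx m S V W} (h : D.RR Q c) : (D.rho Q).isSome := by
  unfold rho
  rw [dif_pos ⟨c, h⟩]
  rfl

theorem lam_len (hΓ : 0 < D.Γ) {P : List α} {c : Ctx m S V W} (h : D.LL P c) : P.length ≤ D.N := by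
  have h1 := h.h2
  have h2 := lo_lt D.Γ D.M c.1.2
  rw [← Nat.mul_div_cancel' h.dvd]
  exact Nat.mul_le_mul_left _ (by omega)

theorem nu_exact (hphi : ∀ u v, D.phi (u ++ v) = D.phi u * D.phi v) (hΓ : 0 < D.Γ)
    (hMp : 0 < D.Mp) {Ms : Finset ℕ}
    (hsame : ∀ t t' c c', (∀ k ∈ Ms, ¬ k ∣ t + t') → D.nmL t = some c → D.nmR t' = some c' → c = c')
    (hamb : ∀ t1 t1' t2 t2' c1 c1' c2 c2', (t1 + t1') % D.M = (t2 + t2') % D.M →
      (∃ k ∈ Ms, k ∣ t1 + t1') →
      D.nmL t1 = some c1 → D.nmR t1' = some c1' → D.nmL t2 = some c2 → D.nmR t2' = some c2' →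
      c1.2.2.2.2.2 = c2.2.2.2.2.2 ∧ D.bb c1' = D.bb c2')
    {P Q : List α} {v r : V} (hl : D.lam P = some v) (hr : D.rho Q = some r) :
    r = D.act v (D.phi (P ++ Q)) + D.nu Ms (P ++ Q) := by
  obtain ⟨c, hc, rfl⟩ := D.lam_spec hl
  obtain ⟨c', hc', rfl⟩ := D.rho_spec hr
  have hT : (P ++ Q).length / D.Mp = P.length / D.Mp + Q.length / D.Mp := by
    rw [List.length_append, Nat.add_div_of_dvd_right hc.dvd]
  unfold nu
  rw [hT]
  split_ifs with h1 h2
  · have := hsame _ _ _ _ h1 hc.nm hc'.nm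
    subst this
    rw [← D.sound hphi hΓ hMp hc hc', add_comm]
  · obtain ⟨t, t', h3, h4, h5⟩ := h2.choose_spec
    push Not at h1
    obtain ⟨e1, e2⟩ := hamb _ _ t t' c c' _ _ h3.symm h1 hc.nm hc'.nm h4 h5
    rw [e1, e2]
    abel
  · exact absurd ⟨(c, c'), _, _, rfl, hc.nm, hc'.nm⟩ h2

theorem nu_fin (hΓ : 0 < D.Γ) (hMp : 0 < D.Mp) {Ms : Finset ℕ} (hMs : ∀ k ∈ Ms, k ∣ D.M)
    {u u' : List α} (hu : 2 * D.N ≤ u.length) (hu' : 2 * D.N ≤ u'.length)
    (ht : u.take (2 * D.N) = u'.take (2 * D.N))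
    (hm : u.length % (D.Mp * (D.M * G D.Γ m)) = u'.length % (D.Mp * (D.M * G D.Γ m)))
    (hp : D.phi u = D.phi u') : D.nu Ms u = D.nu Ms u' := by
  have h1 : u.length / D.Mp ≡ u'.length / D.Mp [MOD D.M * G D.Γ m] := by
    unfold Nat.ModEq
    rw [← Nat.mod_mul_right_div_self, ← Nat.mod_mul_right_div_self, hm]
  have hN : ∀ {w : List α}, 2 * D.N ≤ w.length → lo D.Γ D.M m ≤ w.length / D.Mp := by
    intro w hw
    rw [Nat.le_div_iff_mul_le hMp]
    unfold N at hw
    have : lo D.Γ D.M m * D.Mp ≤ D.Mp * (lo D.Γ D.M m + G D.Γ m) := by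
      rw [mul_comm]; exact Nat.mul_le_mul_left _ (Nat.le_add_right _ _)
    omega
  have hb : ∀ j ≤ m, beta D.Γ D.M (u.length / D.Mp) j = beta D.Γ D.M (u'.length / D.Mp) j := by
    intro j hj
    unfold beta
    have h2 := lo_mono D.Γ D.M hj
    have h3 := hN hu
    have h4 := hN hu'
    have h5 : u.length / D.Mp ≡ u'.length / D.Mp [MOD G D.Γ j] :=
      h1.of_dvd ((G_dvd D.Γ hj).mul_left _)
    have h6 : u.length / D.Mp - lo D.Γ D.M j ≡ u'.length / D.Mp - lo D.Γ D.M j [MOD G D.Γ j] := by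
      apply Nat.ModEq.add_right_cancel' (lo D.Γ D.M j)
      rwa [Nat.sub_add_cancel (h2.trans h3), Nat.sub_add_cancel (h2.trans h4)]
    rw [h6]
  have hw : D.wt u = D.wt u' := by
    unfold wt
    refine Finset.sum_congr rfl fun j hj => ?_
    rw [Finset.mem_range] at hj
    unfold blk
    rw [hb j hj.le, hb (j + 1) hj]
    have h7 : D.Mp * beta D.Γ D.M (u'.length / D.Mp) (j + 1) ≤ 2 * D.N := by
      have h8 := beta_lt hΓ D.M (u'.length / D.Mp) (j + 1)
      have h9 := lo_mono D.Γ D.M (show j + 1 ≤ m from hj)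
      have h10 := G_mono hΓ (show j + 1 ≤ m from hj)
      have : D.Mp * beta D.Γ D.M (u'.length / D.Mp) (j + 1) ≤ D.N :=
        Nat.mul_le_mul_left _ (by omega)
      omega
    have h8 : ∀ w : List α, w.take (D.Mp * beta D.Γ D.M (u'.length / D.Mp) (j + 1)) =
        (w.take (2 * D.N)).take (D.Mp * beta D.Γ D.M (u'.length / D.Mp) (j + 1)) := by
      intro w
      rw [List.take_take, min_eq_left h7]
    rw [h8 u, h8 u', ht]
  have hM : (u.length / D.Mp) % D.M = (u'.length / D.Mp) % D.M := h1.of_mul_right _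
  have hgd : (∀ k ∈ Ms, ¬ k ∣ u.length / D.Mp) ↔ (∀ k ∈ Ms, ¬ k ∣ u'.length / D.Mp) := by
    refine forall₂_congr fun k hk => not_congr ?_
    exact h1.dvd_iff ((hMs k hk).mul_right _)
  unfold nu
  rw [hp, hw, hM]
  simp only [hgd]

end Dat

open Classical in
/-- **GRID GADGET** (693 #13203, in the form of 638 #13151; `Mp = 1` is the natural chain rule). -/
theorem grid (S V : Type) [Monoid S] [Finite S] [AddCommGroup V] [Finite V] (act : V → S → V) :
    ∃ C0 : ℕ, ∀ K Mp : ℕ, 0 < Mp → ∃ (N M0 X : ℕ) (Bad : ℕ → Prop),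
      0 < N ∧ 0 < M0 ∧ 4 * N < Mp * X ∧ (∀ T, Bad (T + M0) ↔ Bad T) ∧
      (∀ T, 2 ^ K * (1 + Mp * X) ≤ T → (((range K ×ˢ range K).filter fun ab => ab.1 ≠ ab.2 ∧
        Bad (T + 2 ^ ab.1 * (1 + Mp * X) - 2 ^ ab.2 * (1 + Mp * X))).card) ≤ C0) ∧
      ∀ (α : Type) (phi : List α → S), (∀ u v, phi (u ++ v) = phi u * phi v) →
        ∃ (lam rho : List α → Option V) (nu : List α → V),
          (∀ p v, lam p = some v → Mp ∣ p.length ∧ p.length ≤ N) ∧
          (∀ q r, rho q = some r → N ≤ q.length) ∧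
          (∀ p q v r, lam p = some v → rho q = some r → r = act v (phi (p ++ q)) + nu (p ++ q)) ∧
          (∀ u, 2 * N ≤ u.length → ¬ Bad u.length → ∀ v, ∃ p q, p ++ q = u ∧ lam p = some v ∧
            (rho q).isSome) ∧
          (∀ u u', 2 * N ≤ u.length → 2 * N ≤ u'.length → u.take (2 * N) = u'.take (2 * N) →
            u.length % M0 = u'.length % M0 → phi u = phi u' → nu u = nu u') := by
  obtain ⟨W, iW, fW, m, e0, F, hF⟩ := Noise513.explicit_noise S V act
  let e : ℕ → S → W := fun j z => if h : j < m then e0 ⟨j, h⟩ z else 0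
  let D0 : Dat Unit S V W m := ⟨1, 1, 1, e, F, act, fun _ => 1, fun _ => none, fun _ => none⟩
  have : Finite W := Finite.of_fintype W
  obtain ⟨r, hr⟩ := Names_570.exists_names (N := Ctx m S V W) (C := V × V)
    (fun c => (c.2.2.2.2.2, D0.bb c))
  refine ⟨r + m, fun K Mp hMp => ?_⟩
  obtain ⟨Ms, nmL, nmR, hcard, hprime, hL, hR, hsame, hplace, hamb⟩ := hr (5 * 2 ^ (K + 1) + 2)
  set Mq := ∏ k ∈ Ms, k with hMq
  have hMq0 : 0 < Mq := Finset.prod_pos fun k hk => (hprime k hk).1.pos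
  let M := Mq * 3
  have hM0 : 0 < M := by omega
  let κ := 2 ^ (K + 1) * (14 * M) + 2 * M
  let Γ := 2 ^ κ
  have hΓκ : κ < Γ := Nat.lt_two_pow_self
  have hΓ : 0 < Γ := by omega
  have hL' : ∀ t, nmL (t + M) = nmL t := fun t => by
    show nmL (t + Mq * 3) = nmL t
    rw [show t + Mq * 3 = t + Mq + Mq + Mq by ring, hL, hL, hL]
  have hR' : ∀ t, nmR (t + M) = nmR t := fun t => by
    show nmR (t + Mq * 3) = nmR t
    rw [show t + Mq * 3 = t + Mq + Mq + Mq by ring, hR, hR, hR]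
  have hkM : ∀ k ∈ Ms, k ∣ M := fun k hk => (Finset.dvd_prod_of_mem (fun k => k) hk).mul_right 3
  have hcop2 : Nat.Coprime M 2 := by
    refine Nat.Coprime.mul_left ?_ (by norm_num)
    refine Nat.Coprime.prod_left fun k hk => ?_
    exact (Nat.coprime_primes (hprime k hk).1 Nat.prime_two).2 (by
      have := (hprime k hk).2; omega)
  have hcop : ∀ j, Nat.Coprime M (G Γ j) := fun j => (hcop2.pow_right κ).pow_right (j + 1)
  have hG : ∀ j, 0 < G Γ j := G_pos hΓ
  have hloG : lo Γ M m ≤ G Γ m := lo_le_G (by omega) m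
  let N := Mp * (lo Γ M m + G Γ m)
  refine ⟨N, Mp * (M * G Γ m), XX Γ M m, fun T => Bad1 Γ M m Ms (T / Mp), ?_, ?_, ?_, ?_, ?_, ?_⟩
  · exact Nat.mul_pos hMp (by have := hG m; omega)
  · exact Nat.mul_pos hMp (Nat.mul_pos hM0 (hG m))
  · show 4 * (Mp * (lo Γ M m + G Γ m)) < Mp * XX Γ M m
    rw [mul_left_comm]
    refine Nat.mul_lt_mul_of_pos_left ?_ hMp
    unfold XX
    have h1 : G Γ m ≤ sumG Γ m := by
      unfold sumG
      exact Finset.single_le_sum (f := fun l => G Γ l) (fun _ _ => Nat.zero_le _)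
        (Finset.mem_range.2 (Nat.lt_succ_self m))
    have h2 : 2 * sumG Γ m ≤ M * sumG Γ m := Nat.mul_le_mul_right _ (by omega)
    nlinarith
  · intro T
    show Bad1 Γ M m Ms ((T + Mp * (M * G Γ m)) / Mp) ↔ _
    rw [Nat.add_mul_div_left _ _ hMp]
    exact bad1_add hkM _
  · intro T hT
    refine (count (Γ := Γ) (M := M) (m := m) (K := K) (Mp := Mp) (Ms := Ms) hMp hM0
      (fun k hk => ⟨by have := (hprime k hk).2; omega, hkM k hk⟩) hΓκ hT).trans ?_
    omega
  · intro α phi hphi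
    let D : Dat α S V W m := ⟨Γ, M, Mp, e, F, act, phi, nmL, nmR⟩
    have hbb : ∀ c, D.bb c = D0.bb c := fun c => rfl
    have hamb' : ∀ t1 t1' t2 t2' c1 c1' c2 c2', (t1 + t1') % D.M = (t2 + t2') % D.M →
      (∃ k ∈ Ms, k ∣ t1 + t1') →
      D.nmL t1 = some c1 → D.nmR t1' = some c1' → D.nmL t2 = some c2 → D.nmR t2' = some c2' →
      c1.2.2.2.2.2 = c2.2.2.2.2.2 ∧ D.bb c1' = D.bb c2' := by
      intro t1 t1' t2 t2' c1 c1' c2 c2' hmod hbad h1 h1' h2 h2'
      have key : ∀ s1 s2 : ℕ, s1 + t1' = s2 + t2' → s1 ≡ t1 [MOD M] → s2 ≡ t2 [MOD M] →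
          c1.2.2.2.2.2 = c2.2.2.2.2.2 ∧ D.bb c1' = D.bb c2' := by
        intro s1 s2 hs e1 e2
        have hb1 : ∃ k ∈ Ms, k ∣ s1 + t1' := by
          obtain ⟨k, hk, hkd⟩ := hbad
          exact ⟨k, hk, ((e1.add_right t1').dvd_iff (hkM k hk)).2 hkd⟩
        rcases hamb s1 t1' s2 t2' c1 c1' c2 c2' hs hb1
          ((per_congr hL' e1).trans h1) h1' ((per_congr hL' e2).trans h2) h2' with
          ⟨a1, a2⟩ | ⟨a1, a2, a3⟩
        · rw [a1, a2]; exact ⟨rfl, rfl⟩
        · have a4 := congrArg Prod.fst a3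
          have a5 := congrArg Prod.snd a3
          simp only at a4 a5
          rw [hbb, hbb]
          exact ⟨by rw [a4, a2], by rw [← a5, a1]⟩
      have hmod' : t1 + t1' ≡ t2 + t2' [MOD M] := hmod
      rcases le_total (t1 + t1') (t2 + t2') with hle | hle
      · refine key (t1 + ((t2 + t2') - (t1 + t1'))) t2 (by omega) ?_ rfl
        have hd : M ∣ (t2 + t2') - (t1 + t1') := (Nat.modEq_iff_dvd' hle).1 hmod'
        obtain ⟨q, hq⟩ := hd
        rw [hq]
        simp [Nat.ModEq]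
      · refine key t1 (t2 + ((t1 + t1') - (t2 + t2'))) (by omega) rfl ?_
        have hd : M ∣ (t1 + t1') - (t2 + t2') := (Nat.modEq_iff_dvd' hle).1 hmod'.symm
        obtain ⟨q, hq⟩ := hd
        rw [hq]
        simp [Nat.ModEq]
    refine ⟨D.lam, D.rho, D.nu Ms, ?_, ?_, ?_, ?_, ?_⟩
    · intro p v hp
      obtain ⟨c, hc, _⟩ := D.lam_spec hp
      exact ⟨hc.dvd, D.lam_len hΓ hc⟩
    · intro q r hq
      obtain ⟨c, hc, _⟩ := D.rho_spec hq
      exact hc.len
    · intro p q v r hp hq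
      exact D.nu_exact hphi hΓ hMp hsame hamb' hp hq
    · intro u hu hbad v
      have hbad' : (∀ k ∈ Ms, ¬ k ∣ u.length / Mp) ∧ ∀ j < m, ∀ z : ℤ,
          ¬ |((u.length / Mp : ℕ) : ℤ) - lo Γ M (j + 1) - (G Γ (j + 1) : ℕ) * z| ≤
            ((M * G Γ j : ℕ) : ℤ) := by
        constructor
        · intro k hk hkd
          exact hbad (Or.inl ⟨k, hk, hkd⟩)
        · intro j hj z hz
          exact hbad (Or.inr ⟨j, hj, z, hz⟩)
      obtain ⟨P, Q, c, hPQ, hLc, hRc, hv⟩ := D.complete hphi hΓ hMp hM0 hcop hL' hR' (by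
        intro s w v
        obtain ⟨i, hi⟩ := hF s w v
        refine ⟨i, fun g x h hgxh z => ?_⟩
        have he : ∀ z, D.e i z = e0 i z := fun z => by
          show (if h : (i : ℕ) < m then e0 ⟨i, h⟩ z else 0) = _
          rw [dif_pos i.2]
        rw [he, he]
        exact hi g x h hgxh z) u hu (by
        intro c
        obtain ⟨t, _, _, h3, h4, h5⟩ := hplace (u.length / Mp) c 0 hbad'.1 (by
          have h1 : lo Γ M m + G Γ m ≤ u.length / Mp := by
            rw [Nat.le_div_iff_mul_le hMp]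
            have : (lo Γ M m + G Γ m) * Mp = N := mul_comm _ _
            have h3 : 2 * N ≤ u.length := hu
            omega
          have h2 : M ≤ G Γ m := by
            calc M ≤ κ := by show M ≤ 2 ^ (K + 1) * (14 * M) + 2 * M; omega
              _ ≤ Γ := hΓκ.le
              _ = G Γ 0 := by unfold G; ring
              _ ≤ G Γ m := G_mono hΓ (Nat.zero_le m)
          have h3 : Mq * 3 = M := rfl
          omega)
        exact ⟨t, h3, h4, h5⟩) hbad'.2 v
      exact ⟨P, Q, hPQ, by rw [← hv]; exact D.lam_eq hLc, D.rho_isSome hRc⟩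
    · intro u u' h1 h2 h3 h4 h5
      exact D.nu_fin hΓ hMp hkM h1 h2 h3 h4 h5

end Crest.Agent.R320.Grid791
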