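import Crest.Agent.R320.GridU_323

/-!
Row 320: scheme 1's gadget (693 #13203) as partial functions, with locality: closed form.
-/

set_option autoImplicit false

namespace Crest.Agent.R320.GridU_323

open Finset Crest.Agent.R320.Zone132_898 Crest.Agent.R320.NameGad808

section Opt

open Classical in
/-- a predicate as an option -/
noncomputable def opt {V : Type*} (p : V → Prop) : Option V :=
  if h : ∃ v, p v then some h.choose else none

theorem opt_some {V : Type*} {p : V → Prop} {v : V} (h : opt p = some v) : p v := by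
  unfold opt at h
  split at h
  · next hx =>
    have := hx.choose_spec
    rwa [Option.some.inj h] at this
  · simp at h

theorem opt_isSome {V : Type*} {p : V → Prop} (h : ∃ v, p v) : (opt p).isSome := by
  unfold opt
  rw [dif_pos h]
  rfl

theorem opt_eq {V : Type*} {p : V → Prop} {v : V} (h : p v) (hu : ∀ w, p w → w = v) :
    opt p = some v := by
  unfold opt
  have hx : ∃ v, p v := ⟨v, h⟩
  rw [dif_pos hx, hu _ hx.choose_spec]

end Opt

theorem div_eq_iff {G : ℕ} (hG : 0 < G) (x c : ℕ) : x / G = (x + c) / G ↔ x % G + c < G := by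
  have h1 := Nat.mod_add_div x G
  have h2 : (x + c) / G = x / G + (x % G + c) / G := by
    rw [← Nat.mul_add_div hG]
    congr 1
    omega
  rw [h2]
  constructor
  · intro h
    have h3 : (x % G + c) / G = 0 := by omega
    exact (Nat.div_eq_zero_iff_lt hG).1 h3
  · intro h
    rw [Nat.div_eq_of_lt h]
    rfl

section Words

variable {α S V : Type*} [Monoid S] [AddCommGroup V] {N k : ℕ} {q : Fin k → ℕ} {M : ℕ}

theorem LamR.unique {g : Geo M} {m : ℕ} {phi : List α → S} {e : ℕ → S → ZMod N × ZMod N}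
    {L : ℕ → (∀ j, ZMod (q j)) → S → ZMod N × ZMod N → Option V} {P : List α} {v v' : V}
    (h : LamR g m phi e L P v) (h' : LamR g m phi e L P v') : v = v' := by
  obtain ⟨i, hi, h1, h2, h3⟩ := h
  obtain ⟨i', hi', h1', h2', h3'⟩ := h'
  have : i = i' := by
    rcases lt_trichotomy i i' with h | h | h
    · have h4 := g.hi_le h
      have h5 := g.alo i'
      omega
    · exact h
    · have h4 := g.hi_le h
      have h5 := g.alo i
      omega
  subst this
  rw [h3] at h3'
  exact Option.some.inj h3'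

theorem mod_sub {n n' a b G : ℕ} (h : n ≡ n' [MOD G]) (h1 : b ≤ n + a) (h2 : b ≤ n' + a) :
    (n + a - b) % G = (n' + a - b) % G := by
  have h3 : (n + a - b) + b ≡ (n' + a - b) + b [MOD G] := by
    rw [Nat.sub_add_cancel h1, Nat.sub_add_cancel h2]
    exact h.add_right a
  exact Nat.ModEq.add_right_cancel' b h3

/-- position of the boundary `j` seen from a level `i` place -/
theorem pos_eq (g : Geo M) {i j n : ℕ} (hij : i < j) (h1 : g.A j ≤ n + g.lo i) :
    n - g.ep j (n + g.lo i) = (g.A j - g.lo i) + (n + g.lo i - g.A j) % g.G j := by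
  have h2 := g.hi_le hij
  have h3 := Nat.mod_add_div (n + g.lo i - g.A j) (g.G j)
  have h4 := g.ep_le (n' := n) hij
  unfold Geo.ep at h4 ⊢
  omega

theorem zt_take (phi : List α → S) {u u' : List α} {La a b : ℕ} (hb : b ≤ La) (hu : La ≤ u.length)
    (hu' : La ≤ u'.length) (h : u.take La = u'.take La) : zt phi u a b = zt phi u' a b := by
  have h1 : zt phi u a b = zt phi (u.take La) a b := by
    conv_lhs => rw [← List.take_append_drop La u]
    exact zt_left phi (by rw [List.length_take]; omega)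
  have h2 : zt phi u' a b = zt phi (u'.take La) a b := by
    conv_lhs => rw [← List.take_append_drop La u']
    exact zt_left phi (by rw [List.length_take]; omega)
  rw [h1, h2, h]

theorem phi_drop {phi : List α → S} (hphi : ∀ u v, phi (u ++ v) = phi u * phi v)
    {u u' : List α} {La a : ℕ} (ha : a ≤ La) (hu : La ≤ u.length)
    (hu' : La ≤ u'.length) (h : u.take La = u'.take La) (h' : phi (u.drop La) = phi (u'.drop La)) :
    phi (u.drop a) = phi (u'.drop a) := by
  have h1 : ∀ w : List α, La ≤ w.length → w.drop a = (w.take La).drop a ++ w.drop La := by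
    intro w hw
    conv_lhs => rw [← List.take_append_drop La w]
    rw [List.drop_append_of_le_length (by rw [List.length_take]; omega)]
  rw [h1 u hu, h1 u' hu', hphi, hphi, h, h']

theorem rs_congr {n n' X : ℕ} (h : n ≡ n' [MOD X]) (hq : ∀ j, q j ∣ X) : rs q n = rs q n' := by
  funext j
  exact (ZMod.natCast_eq_natCast_iff _ _ _).2 (h.of_dvd (hq j))

/-- locality of the right label, one direction -/
theorem RhoR.local {g : Geo M} {m : ℕ} {phi : List α → S}
    (hphi : ∀ u v, phi (u ++ v) = phi u * phi v) {e : ℕ → S → ZMod N × ZMod N}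
    {R : ℕ → (∀ j, ZMod (q j)) → S → ZMod N × ZMod N → Option V} (hMpos : 0 < M)
    (hq : ∀ j, q j ∣ M) {Q Q' : List α} {b : V} {La : ℕ} (hLa : g.A m + g.G m ≤ La)
    (h1 : La ≤ Q.length) (h2 : La ≤ Q'.length) (h3 : Q.take La = Q'.take La)
    (h4 : Q.length ≡ Q'.length [MOD (M * g.G m)]) (h5 : phi (Q.drop La) = phi (Q'.drop La))
    (h : RhoR g m phi e R Q b) : RhoR g m phi e R Q' b := by
  obtain ⟨i, hi, hd, hc, hR⟩ := h
  have hGm : ∀ j, j ≤ m → g.G j ∣ M * g.G m := fun j hj =>
    (g.Gdvd j m hj).trans (Nat.dvd_mul_left _ _)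
  have hAm : ∀ j, j ≤ m → g.A j ≤ g.A m := fun j hj => g.Amono hj
  have hGle : ∀ a b, a ≤ b → g.G a ≤ g.G b := fun a b hab =>
    Nat.le_of_dvd (g.Gpos b) (g.Gdvd a b hab)
  have hMG : 0 < M * g.G i := Nat.mul_pos hMpos (g.Gpos i)
  have hA : ∀ j, j ≤ m → g.A j ≤ Q.length + g.lo i := fun j hj => by have := hAm j hj; omega
  have hA' : ∀ j, j ≤ m → g.A j ≤ Q'.length + g.lo i := fun j hj => by have := hAm j hj; omega
  have hmod : ∀ j, j ≤ m → (Q.length + g.lo i - g.A j) % g.G j =
      (Q'.length + g.lo i - g.A j) % g.G j := fun j hj =>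
    mod_sub (h4.of_dvd (hGm j hj)) (hA j hj) (hA' j hj)
  have hpos : ∀ j, i < j → j ≤ m → Q.length - g.ep j (Q.length + g.lo i) =
      Q'.length - g.ep j (Q'.length + g.lo i) := fun j hj hj' => by
    rw [pos_eq g hj (hA j hj'), pos_eq g hj (hA' j hj'), hmod j hj']
  have hposle : ∀ j, i < j → j ≤ m → Q.length - g.ep j (Q.length + g.lo i) ≤ La :=
    fun j hj hj' => by
    rw [pos_eq g hj (hA j hj')]
    have h6 := Nat.mod_lt (Q.length + g.lo i - g.A j) (g.Gpos j)
    have h7 := hAm j hj'
    have h8 := hGle j m hj'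
    omega
  refine ⟨i, hi, ?_, ?_, ?_⟩
  · exact (Nat.ModEq.dvd_iff h4 (hGm i hi.le)).1 hd
  · intro j hj hj'
    refine ⟨hA' j hj', ?_⟩
    obtain ⟨-, h7⟩ := hc j hj hj'
    have e1 : Q.length + g.lo i + M * g.G i - 1 - g.A j =
        (Q.length + g.lo i - g.A j) + (M * g.G i - 1) := by
      have := hA j hj'
      omega
    have e2 : Q'.length + g.lo i + M * g.G i - 1 - g.A j =
        (Q'.length + g.lo i - g.A j) + (M * g.G i - 1) := by
      have := hA' j hj'
      omega
    rw [e1] at h7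
    rw [e2, div_eq_iff (g.Gpos j), ← hmod j hj']
    exact (div_eq_iff (g.Gpos j) _ _).1 h7
  · rw [← rs_congr h4 (fun j => (hq j).trans (Nat.dvd_mul_right _ _)), ← hpos (i + 1) (by omega) (by omega),
      ← phi_drop hphi (hposle (i + 1) (by omega) (by omega)) h1 h2 h3 h5, ← hR]
    congr 1
    apply Finset.sum_congr rfl
    intro l hl
    rw [Finset.mem_Ico] at hl
    rw [← hpos l (by omega) (by omega), ← hpos (l + 1) (by omega) (by omega)]
    rw [zt_take phi (hposle (l + 1) (by omega) (by omega)) h1 h2 h3]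

theorem nuR_local {g : Geo M} {m : ℕ} {phi : List α → S}
    (hphi : ∀ u v, phi (u ++ v) = phi u * phi v) {e : ℕ → S → ZMod N × ZMod N}
    {D : (∀ j, ZMod (q j)) → S → ZMod N × ZMod N → V}
    (hq : ∀ j, q j ∣ M) {Q Q' : List α} {La : ℕ} (hLa : g.A m + g.G m ≤ La)
    (h1 : La ≤ Q.length) (h2 : La ≤ Q'.length) (h3 : Q.take La = Q'.take La)
    (h4 : Q.length ≡ Q'.length [MOD (M * g.G m)]) (h5 : phi (Q.drop La) = phi (Q'.drop La)) :
    nuR g m phi e D Q = nuR g m phi e D Q' := by
  have hGm : ∀ j, j ≤ m → g.G j ∣ M * g.G m := fun j hj =>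
    (g.Gdvd j m hj).trans (Nat.dvd_mul_left _ _)
  have hAm : ∀ j, j ≤ m → g.A j ≤ g.A m := fun j hj => g.Amono hj
  have hGle : ∀ a b, a ≤ b → g.G a ≤ g.G b := fun a b hab =>
    Nat.le_of_dvd (g.Gpos b) (g.Gdvd a b hab)
  have hbt : ∀ j, j ≤ m → g.bt j Q.length = g.bt j Q'.length := fun j hj => by
    unfold Geo.bt
    have h6 := hAm j hj
    have h7 := mod_sub (a := 0) (b := g.A j) (h4.of_dvd (hGm j hj)) (by omega) (by omega)
    simpa using h7
  have hle : ∀ j, j ≤ m → g.bt j Q.length ≤ La := fun j hj => by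
    have h6 := g.bt_lt j Q.length
    have h7 := hAm j hj
    have h8 := hGle j m hj
    omega
  unfold nuR WW
  rw [rs_congr h4 (fun j => (hq j).trans (Nat.dvd_mul_right _ _))]
  have h6 : phi Q = phi Q' := by
    simpa using phi_drop hphi (Nat.zero_le La) h1 h2 h3 h5
  rw [h6]
  congr 1
  apply Finset.sum_congr rfl
  intro l hl
  rw [Finset.mem_range] at hl
  rw [← hbt l (by omega), ← hbt (l + 1) (by omega), zt_take phi (hle (l + 1) (by omega)) h1 h2 h3]

end Words

/-- **the gadget of scheme 1 (693 #13203), closed form** -/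
theorem gadget (S V : Type*) [Monoid S] [Finite S] [AddCommGroup V] [Finite V]
    (act : V → S → V) :
    ∃ m k : ℕ, ∀ (q : Fin k → ℕ) (M : ℕ), (∀ j, Odd (q j)) →
      Pairwise (fun i j => Nat.Coprime (q i) (q j)) → M = ∏ j, q j →
      ∀ g : Geo M, (∀ i j, Nat.Coprime (g.G i) (q j)) →
      ∀ (α : Type*) (phi : List α → S), (∀ u v, phi (u ++ v) = phi u * phi v) →
      ∃ (lam rho : List α → Option V) (nu : List α → V),
        (∀ P v, lam P = some v → P.length < g.A m) ∧
        (∀ P Q v b, lam P = some v → rho Q = some b →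
          b = act v (phi (P ++ Q)) + nu (P ++ Q)) ∧
        (∀ u : List α, g.A m + M * g.G m ≤ u.length → (∀ j, ¬ q j ∣ u.length) →
          (∀ j, 1 ≤ j → j ≤ m → M * g.G (j - 1) ≤ (u.length - g.A j) % g.G j ∧
            (u.length - g.A j) % g.G j + M * g.G (j - 1) ≤ g.G j) →
          ∀ v, ∃ P Q, u = P ++ Q ∧ lam P = some v ∧ (rho Q).isSome) ∧
        (∀ Q Q' : List α, g.A m + g.G m ≤ Q.length → g.A m + g.G m ≤ Q'.length →
          Q.take (g.A m + g.G m) = Q'.take (g.A m + g.G m) →
          Q.length % (M * g.G m) = Q'.length % (M * g.G m) →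
          phi (Q.drop (g.A m + g.G m)) = phi (Q'.drop (g.A m + g.G m)) →
          rho Q = rho Q' ∧ nu Q = nu Q') := by
  obtain ⟨m, N, k, e, hN, hq⟩ := unknownT_gadget S V act
  refine ⟨m, k, fun q M hodd hcop hM g hG α phi hphi => ?_⟩
  obtain ⟨L, R, lev, D, hlev, hs, hc⟩ := hq q hodd
  have hqpos : ∀ j, 0 < q j := fun j => (hodd j).pos
  have hMpos : 0 < M := by rw [hM]; exact Finset.prod_pos (fun j _ => hqpos j)
  have hqM : ∀ j, q j ∣ M := fun j => by rw [hM]; exact Finset.dvd_prod_of_mem q (Finset.mem_univ j)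
  refine ⟨fun P => opt (LamR g m phi e L P), fun Q => opt (RhoR g m phi e R Q),
    nuR g m phi e D, ?_, ?_, ?_, ?_⟩
  · intro P v h
    obtain ⟨i, hi, h1, h2, -⟩ := opt_some h
    exact lt_of_lt_of_le h2 (g.hi_le hi)
  · intro P Q v b h h'
    exact sound g hphi e act hs (opt_some h) (opt_some h')
  · intro u hu hT hgrid v
    obtain ⟨P, Q, hPQ, hL, hR⟩ := complete g hphi e hc hM hqpos hcop hG hu hT hgrid v
    exact ⟨P, Q, hPQ, opt_eq hL (fun w hw => hw.unique hL), opt_isSome hR⟩
  · intro Q Q' h1 h2 h3 h4 h5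
    refine ⟨?_, nuR_local hphi hqM le_rfl h1 h2 h3 h4 h5⟩
    have : RhoR g m phi e R Q = RhoR g m phi e R Q' := by
      funext b
      apply propext
      constructor
      · exact RhoR.local hphi hMpos hqM le_rfl h1 h2 h3 h4 h5
      · exact RhoR.local hphi hMpos hqM le_rfl h2 h1 h3.symm h4.symm h5.symm
    simp only [this]

end Crest.Agent.R320.GridU_323
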