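import Crest.Agent.R320.Grid_319
import Crest.Agent.R320.Ruler_302

/-!
Row 320, helper319: closed form of 693's gadget: ruler, spoiling count, finite-state clause.
-/

set_option autoImplicit false
set_option linter.unusedSectionVars false

namespace Crest.Agent.R320.GridUG_319

open Finset Crest.Agent.R320.Grid_319 Crest.Agent.R320.Gad1_420

/-- sum of the grids -/
def sg (Γ : ℕ) : ℕ → ℕ
  | 0 => 0
  | i + 1 => sg Γ i + Γ ^ i

theorem sg_mul (g m : ℕ) : g * sg (1 + g) m + 1 = (1 + g) ^ m := by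
  induction m with
  | zero => simp [sg]
  | succ m ih =>
    rw [sg, Nat.mul_add, add_right_comm, ih, pow_succ]
    ring

theorem Am_eq (Γ M i : ℕ) : Am Γ M i = (1 + M) * sg Γ i := by
  induction i with
  | zero => simp [Am, sg]
  | succ i ih => rw [Am_succ, ih, sg]; ring

theorem sg_split {Γ j m : ℕ} (h : j ≤ m) : ∃ x, sg Γ m = sg Γ j + Γ ^ j * x := by
  induction h with
  | refl => exact ⟨0, by simp⟩
  | @step m hm ih =>
    obtain ⟨x, hx⟩ := ih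
    refine ⟨x + Γ ^ (m - j), ?_⟩
    have h1 : Γ ^ m = Γ ^ j * Γ ^ (m - j) := by
      rw [← pow_add]; congr 1
      have : j ≤ m := hm
      omega
    rw [Nat.succ_eq_add_one, sg, hx, h1]
    ring

theorem sg_ge {Γ j : ℕ} (hj : 0 < j) : Γ ^ (j - 1) ≤ sg Γ j := by
  obtain ⟨i, rfl⟩ : ∃ i, j = i + 1 := ⟨j - 1, by omega⟩
  rw [sg, Nat.add_sub_cancel]
  omega

theorem lvl {M s G g KK D l q : ℤ} (hM : 0 < M) (hq : 0 < q) (hs : q ≤ s) (hg1 : g * s < G)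
    (hgK : g = M * (8 * KK + 2)) (hKK : 0 ≤ KK) (hD : |D| ≤ 2 * KK)
    (h : |4 * M * s * D - l * G| ≤ 2 * (M * q)) : D = 0 := by
  by_contra hD0
  have h1 : 1 ≤ |D| := Int.one_le_abs hD0
  have hMs : 0 < M * s := mul_pos hM (lt_of_lt_of_le hq hs)
  have hMq : M * q ≤ M * s := mul_le_mul_of_nonneg_left hs hM.le
  have hMq0 : 0 < M * q := mul_pos hM hq
  have e1 : |4 * M * s * D| = 4 * (M * s) * |D| := by
    rw [abs_mul, abs_of_pos (by nlinarith : (0:ℤ) < 4 * M * s)]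
    ring
  have hG : 8 * (M * s) * KK + 2 * (M * s) < G := by
    have : g * s = 8 * (M * s) * KK + 2 * (M * s) := by rw [hgK]; ring
    linarith
  have hMD1 : (M * s) * |D| ≤ (M * s) * (2 * KK) := mul_le_mul_of_nonneg_left hD hMs.le
  have hMD2 : (M * s) * 1 ≤ (M * s) * |D| := mul_le_mul_of_nonneg_left h1 hMs.le
  have hMK : 0 ≤ (M * s) * KK := mul_nonneg hMs.le hKK
  by_cases hl : l = 0
  · rw [hl, zero_mul, sub_zero, e1] at h
    nlinarith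
  · have h2 : 1 ≤ |l| := Int.one_le_abs hl
    have hG0 : 0 < G := by nlinarith
    have h3 : |l * G| ≤ |4 * M * s * D| + |4 * M * s * D - l * G| := by
      have := abs_sub_abs_le_abs_sub (l * G) (4 * M * s * D)
      rw [abs_sub_comm (l * G)] at this
      linarith
    rw [e1, abs_mul, abs_of_pos hG0] at h3
    have h4 : 1 * G ≤ |l| * G := mul_le_mul_of_nonneg_right h2 hG0.le
    nlinarith

/-- not thin: close to the grid -/
theorem near_of_not_thin {Γ M X j : ℕ} (hΓ : 0 < Γ) (hX : Am Γ M j ≤ X) (h : ¬ Thin Γ M X j) :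
    ∃ l : ℤ, |(X : ℤ) - Am Γ M j - l * (Γ ^ j : ℕ)| ≤ ((M * Γ ^ (j - 1) : ℕ) : ℤ) := by
  obtain ⟨Y, rfl⟩ := Nat.exists_eq_add_of_le hX
  unfold Thin at h
  rw [Nat.add_sub_cancel_left] at h
  have h1 := Nat.div_add_mod Y (Γ ^ j)
  have h2 := Nat.mod_lt Y (pow_pos hΓ j)
  set G := Γ ^ j
  set d := M * Γ ^ (j - 1)
  set r := Y % G
  set l := Y / G
  have h1' : (G : ℤ) * l + r = Y := by exact_mod_cast h1
  by_cases hr : r < d
  · refine ⟨l, ?_⟩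
    have : ((Am Γ M j + Y : ℕ) : ℤ) - Am Γ M j - l * G = r := by
      push_cast
      linarith
    rw [this, abs_of_nonneg (by positivity)]
    exact_mod_cast hr.le
  · refine ⟨l + 1, ?_⟩
    have : ((Am Γ M j + Y : ℕ) : ℤ) - Am Γ M j - (l + 1) * G = r - G := by
      push_cast
      linarith
    rw [this, abs_of_nonpos (by
      have : (r : ℤ) < G := by exact_mod_cast h2
      linarith)]
    have h3 : G < r + d := by
      by_contra hc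
      exact h ⟨by omega, by omega⟩
    have : (G : ℤ) < r + d := by exact_mod_cast h3
    linarith

theorem four_bd {K a b a' b' : ℕ} (ha : a < K) (hb : b < K) (ha' : a' < K) (hb' : b' < K) :
    |((4 : ℤ) ^ a - 4 ^ b) - (4 ^ a' - 4 ^ b')| ≤ 2 * 4 ^ K := by
  have h : ∀ x, x < K → (0 : ℤ) < 4 ^ x ∧ (4 : ℤ) ^ x ≤ 4 ^ K := fun x hx =>
    ⟨by positivity, pow_le_pow_right₀ (by norm_num) hx.le⟩
  have h1 := h a ha
  have h2 := h b hb
  have h3 := h a' ha'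
  have h4 := h b' hb'
  rw [abs_le]
  constructor <;> linarith [h1.1, h1.2, h2.1, h2.2, h3.1, h3.2, h4.1, h4.2]

/-- the ruler unit -/
def U (Γ M m : ℕ) : ℕ := 4 * M * sg Γ m + Γ ^ m

theorem U_split {Γ M j m : ℕ} (h : j ≤ m) : ∃ y, U Γ M m = 4 * M * sg Γ j + Γ ^ j * y := by
  obtain ⟨x, hx⟩ := sg_split (Γ := Γ) h
  refine ⟨4 * M * x + Γ ^ (m - j), ?_⟩
  have h1 : Γ ^ m = Γ ^ j * Γ ^ (m - j) := by
    rw [← pow_add]; congr 1; omega
  unfold U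
  rw [hx, h1]
  ring

/-- level uniqueness -/
theorem lvl_unique {M K m j T X X' a b a' b' : ℕ} (hM : 0 < M) (hj : 0 < j) (hjm : j ≤ m)
    (ha : a < K) (hb : b < K) (ha' : a' < K) (hb' : b' < K) (hab : a ≠ b)
    (hX : (X : ℤ) = T + (U (1 + M * (8 * 4 ^ K + 2)) M m : ℤ) * (4 ^ a - 4 ^ b))
    (hX' : (X' : ℤ) = T + (U (1 + M * (8 * 4 ^ K + 2)) M m : ℤ) * (4 ^ a' - 4 ^ b'))
    (hXA : Am (1 + M * (8 * 4 ^ K + 2)) M j ≤ X) (hXA' : Am (1 + M * (8 * 4 ^ K + 2)) M j ≤ X')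
    (h : ¬ Thin (1 + M * (8 * 4 ^ K + 2)) M X j) (h' : ¬ Thin (1 + M * (8 * 4 ^ K + 2)) M X' j) :
    a = a' ∧ b = b' := by
  set g := M * (8 * 4 ^ K + 2) with hg
  set Γ := 1 + g with hΓ
  have hΓ0 : 0 < Γ := by omega
  obtain ⟨l, hl⟩ := near_of_not_thin hΓ0 hXA h
  obtain ⟨l', hl'⟩ := near_of_not_thin hΓ0 hXA' h'
  obtain ⟨y, hy⟩ := U_split (Γ := Γ) (M := M) hjm
  have hD : ((4 : ℤ) ^ a - 4 ^ b) - (4 ^ a' - 4 ^ b') = 0 := by
    refine lvl (M := M) (s := sg Γ j) (G := (Γ ^ j : ℕ)) (g := g) (KK := 4 ^ K)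
      (q := (Γ ^ (j - 1) : ℕ))
      (l := l - l' - y * (((4 : ℤ) ^ a - 4 ^ b) - (4 ^ a' - 4 ^ b')))
      (by exact_mod_cast hM) (by exact_mod_cast pow_pos hΓ0 _) (by exact_mod_cast sg_ge hj) ?_ ?_
      (by positivity) (four_bd ha hb ha' hb') ?_
    · have := sg_mul g j
      rw [← hΓ] at this
      have h2 : g * sg Γ j < Γ ^ j := by omega
      exact_mod_cast h2
    · rw [hg]; push_cast; ring
    · have e : 4 * (M : ℤ) * (sg Γ j) * (((4 : ℤ) ^ a - 4 ^ b) - (4 ^ a' - 4 ^ b')) -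
          (l - l' - y * (((4 : ℤ) ^ a - 4 ^ b) - (4 ^ a' - 4 ^ b'))) * (Γ ^ j : ℕ) =
          ((X : ℤ) - Am Γ M j - l * (Γ ^ j : ℕ)) - ((X' : ℤ) - Am Γ M j - l' * (Γ ^ j : ℕ)) := by
        have hy' : (U Γ M m : ℤ) = 4 * M * sg Γ j + (Γ ^ j : ℕ) * y := by exact_mod_cast hy
        rw [hX, hX', hy']
        ring
      rw [e]
      refine (abs_sub _ _).trans ?_
      have : ((M * Γ ^ (j - 1) : ℕ) : ℤ) = (M : ℤ) * (Γ ^ (j - 1) : ℕ) := by push_cast; ring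
      rw [this] at hl hl'
      linarith
  exact Crest.Agent.R320.Ruler_302.sidon hab (by linarith)

theorem prime_unique {M K m k T X X' a b a' b' : ℕ} (hkM : k ∣ M) (hk : 4 ^ (K + 1) < k)
    (ha : a < K) (hb : b < K) (ha' : a' < K) (hb' : b' < K) (hab : a ≠ b)
    (hX : (X : ℤ) = T + (U (1 + M * (8 * 4 ^ K + 2)) M m : ℤ) * (4 ^ a - 4 ^ b))
    (hX' : (X' : ℤ) = T + (U (1 + M * (8 * 4 ^ K + 2)) M m : ℤ) * (4 ^ a' - 4 ^ b'))
    (h : k ∣ X) (h' : k ∣ X') : a = a' ∧ b = b' := by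
  set Γ := 1 + M * (8 * 4 ^ K + 2) with hΓ
  have hU : (k : ℤ) ∣ (U Γ M m : ℤ) - 1 := by
    have h1 : Γ ^ m ≡ 1 [MOD M] := by
      have h2 : Γ ≡ 1 [MOD M] := by
        rw [hΓ]; exact Nat.add_mul_mod_self_left _ _ _
      have := h2.pow m
      rwa [one_pow] at this
    have h3 : (M : ℤ) ∣ ((Γ ^ m : ℕ) : ℤ) - 1 := by
      have := (Nat.modEq_iff_dvd.1 h1.symm)
      simpa using this
    have h4 : (M : ℤ) ∣ (U Γ M m : ℤ) - 1 := by
      unfold U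
      have : ((4 * M * sg Γ m + Γ ^ m : ℕ) : ℤ) - 1 =
          (M : ℤ) * (4 * sg Γ m) + (((Γ ^ m : ℕ) : ℤ) - 1) := by push_cast; ring
      rw [this]
      exact dvd_add (dvd_mul_right _ _) h3
    exact (Int.natCast_dvd_natCast.2 hkM).trans h4
  have hd : (k : ℤ) ∣ (X : ℤ) - X' :=
    dvd_sub (Int.natCast_dvd_natCast.2 h) (Int.natCast_dvd_natCast.2 h')
  have hD : (k : ℤ) ∣ ((4 : ℤ) ^ a - 4 ^ b) - (4 ^ a' - 4 ^ b') := by
    have e : ((4 : ℤ) ^ a - 4 ^ b) - (4 ^ a' - 4 ^ b') = ((X : ℤ) - X') -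
        ((U Γ M m : ℤ) - 1) * (((4 : ℤ) ^ a - 4 ^ b) - (4 ^ a' - 4 ^ b')) := by
      rw [hX, hX']; ring
    rw [e]
    exact dvd_sub hd (hU.mul_right _)
  have hb1 := four_bd ha hb ha' hb'
  have hlt : |((4 : ℤ) ^ a - 4 ^ b) - (4 ^ a' - 4 ^ b')| < k := by
    have h1 : ((4 ^ (K + 1) : ℕ) : ℤ) < k := by exact_mod_cast hk
    have h2 : ((4 ^ (K + 1) : ℕ) : ℤ) = 4 * 4 ^ K := by push_cast; ring
    have h3 : (0 : ℤ) < 4 ^ K := by positivity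
    linarith
  have h0 := Int.eq_zero_of_abs_lt_dvd hD hlt
  exact Crest.Agent.R320.Ruler_302.sidon hab (by linarith)

/-- bad totals (periodic form) -/
def BadT (Γ M m : ℕ) (Ms : Finset ℕ) (X : ℕ) : Prop :=
  (∃ k ∈ Ms, k ∣ X) ∨ ∃ j, 0 < j ∧ j ≤ m ∧ ¬ Thin Γ M (X + M * Γ ^ m * Am Γ M m) j

theorem thin_shift {Γ M m X j : ℕ} (A : ℕ) (hX : Am Γ M j ≤ X) (hj : j ≤ m) :
    Thin Γ M (X + M * Γ ^ m * A) j ↔ Thin Γ M X j := by
  have h1 : Γ ^ m = Γ ^ j * Γ ^ (m - j) := by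
    rw [← pow_add]; congr 1; omega
  have h2 : X + M * Γ ^ m * A - Am Γ M j = (X - Am Γ M j) + Γ ^ j * (M * Γ ^ (m - j) * A) := by
    have : M * Γ ^ m * A = Γ ^ j * (M * Γ ^ (m - j) * A) := by rw [h1]; ring
    omega
  unfold Thin
  rw [h2, Nat.add_mul_mod_self_left]

theorem thin_shift' {Γ M m X j : ℕ} (A n : ℕ) (hX : Am Γ M j ≤ X) (hj : j ≤ m) :
    Thin Γ M (X + M * Γ ^ m * A + M * Γ ^ m * n) j ↔ Thin Γ M (X + M * Γ ^ m * A) j := by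
  rw [thin_shift _ (by omega) hj]

theorem BadT_per {Γ M m : ℕ} (hM : 0 < M) (hΓ : 0 < Γ) {Ms : Finset ℕ} (hk : ∀ k ∈ Ms, k ∣ M)
    (X : ℕ) :
    BadT Γ M m Ms (X + M * Γ ^ m) ↔ BadT Γ M m Ms X := by
  have hP : 0 < M * Γ ^ m := Nat.mul_pos hM (pow_pos hΓ m)
  have hA : Am Γ M m ≤ M * Γ ^ m * Am Γ M m := Nat.le_mul_of_pos_left _ hP
  unfold BadT
  refine or_congr ?_ ?_
  · refine exists_congr fun k => and_congr_right fun hk' => ?_
    exact (Nat.dvd_add_iff_left ((hk k hk').mul_right _)).symm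
  · refine exists_congr fun j => and_congr_right fun _ => and_congr_right fun hj => not_congr ?_
    have h1 : Am Γ M j ≤ Am Γ M m := Am_mono hj
    have h2 : X + M * Γ ^ m + M * Γ ^ m * Am Γ M m =
        (X + M * Γ ^ m * Am Γ M m) + M * Γ ^ m * 1 := by ring
    rw [h2]
    exact thin_shift 1 (by omega) hj

open Classical in
theorem spoil {M K m T : ℕ} {Ms : Finset ℕ} (hM : 0 < M)
    (hk : ∀ k ∈ Ms, 4 ^ (K + 1) < k ∧ k ∣ M)
    (hT : Am (1 + M * (8 * 4 ^ K + 2)) M m + U (1 + M * (8 * 4 ^ K + 2)) M m * 4 ^ K ≤ T) :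
    ((range K ×ˢ range K).filter (fun p : ℕ × ℕ => p.1 ≠ p.2 ∧
      BadT (1 + M * (8 * 4 ^ K + 2)) M m Ms
        (T + U (1 + M * (8 * 4 ^ K + 2)) M m * 4 ^ p.2 -
          U (1 + M * (8 * 4 ^ K + 2)) M m * 4 ^ p.1))).card ≤ Ms.card + m := by
  set Γ := 1 + M * (8 * 4 ^ K + 2) with hΓ
  set u := U Γ M m with hu
  have hpow : ∀ x, x < K → u * 4 ^ x ≤ u * 4 ^ K := fun x hx =>
    Nat.mul_le_mul_left _ (Nat.pow_le_pow_right (by norm_num) hx.le)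
  have hXc : ∀ a b, a < K → b < K → ((T + u * 4 ^ b - u * 4 ^ a : ℕ) : ℤ) =
      T + (u : ℤ) * (4 ^ b - 4 ^ a) := by
    intro a b ha hb
    have := hpow a ha
    rw [Nat.cast_sub (by omega)]
    push_cast
    ring
  have hge : ∀ a b, a < K → Am Γ M m ≤ T + u * 4 ^ b - u * 4 ^ a := by
    intro a b ha
    have := hpow a ha
    omega
  let A1 : ℕ → Finset (ℕ × ℕ) := fun k => (range K ×ˢ range K).filter (fun p : ℕ × ℕ =>
    p.1 ≠ p.2 ∧ k ∣ T + u * 4 ^ p.2 - u * 4 ^ p.1)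
  let A2 : ℕ → Finset (ℕ × ℕ) := fun j => (range K ×ˢ range K).filter (fun p : ℕ × ℕ =>
    p.1 ≠ p.2 ∧ ¬ Thin Γ M (T + u * 4 ^ p.2 - u * 4 ^ p.1) j)
  have hsub : ((range K ×ˢ range K).filter (fun p : ℕ × ℕ => p.1 ≠ p.2 ∧
      BadT Γ M m Ms (T + u * 4 ^ p.2 - u * 4 ^ p.1))) ⊆
      Ms.biUnion A1 ∪ (Icc 1 m).biUnion A2 := by
    intro p hp
    rw [mem_filter, mem_product, mem_range, mem_range] at hp
    obtain ⟨⟨h1, h2⟩, h3, h4⟩ := hp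
    rw [mem_union, mem_biUnion, mem_biUnion]
    rcases h4 with ⟨k, hk1, hk2⟩ | ⟨j, hj1, hj2, hj3⟩
    · exact Or.inl ⟨k, hk1, mem_filter.2 ⟨mem_product.2 ⟨mem_range.2 h1, mem_range.2 h2⟩, h3, hk2⟩⟩
    · refine Or.inr ⟨j, mem_Icc.2 ⟨hj1, hj2⟩,
        mem_filter.2 ⟨mem_product.2 ⟨mem_range.2 h1, mem_range.2 h2⟩, h3, ?_⟩⟩
      rwa [thin_shift _ ((Am_mono hj2).trans (hge p.1 p.2 h1)) hj2] at hj3
  have c1 : (Ms.biUnion A1).card ≤ Ms.card * 1 := by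
    refine card_biUnion_le_card_mul _ _ _ fun k hk1 => ?_
    rw [card_le_one]
    intro p hp p' hp'
    rw [mem_filter, mem_product, mem_range, mem_range] at hp hp'
    obtain ⟨⟨h1, h2⟩, h3, h4⟩ := hp
    obtain ⟨⟨h1', h2'⟩, h3', h4'⟩ := hp'
    obtain ⟨e1, e2⟩ := prime_unique (m := m) (T := T) (hk k hk1).2 (hk k hk1).1 h2 h1 h2' h1'
      (Ne.symm h3) (hXc p.1 p.2 h1 h2) (hXc p'.1 p'.2 h1' h2') h4 h4'
    exact Prod.ext e2 e1
  have c2 : ((Icc 1 m).biUnion A2).card ≤ (Icc 1 m).card * 1 := by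
    refine card_biUnion_le_card_mul _ _ _ fun j hj => ?_
    obtain ⟨hj1, hj2⟩ := mem_Icc.1 hj
    rw [card_le_one]
    intro p hp p' hp'
    rw [mem_filter, mem_product, mem_range, mem_range] at hp hp'
    obtain ⟨⟨h1, h2⟩, h3, h4⟩ := hp
    obtain ⟨⟨h1', h2'⟩, h3', h4'⟩ := hp'
    obtain ⟨e1, e2⟩ := lvl_unique (m := m) (T := T) hM hj1 hj2 h2 h1 h2' h1'
      (Ne.symm h3) (hXc p.1 p.2 h1 h2) (hXc p'.1 p'.2 h1' h2')
      ((Am_mono hj2).trans (hge p.1 p.2 h1)) ((Am_mono hj2).trans (hge p'.1 p'.2 h1')) h4 h4'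
    exact Prod.ext e2 e1
  have c3 := (card_le_card hsub).trans (card_union_le _ _)
  rw [Nat.card_Icc] at c2
  omega

/-- spacing of the ruler -/
theorem spaced {Γ M m K i j k l : ℕ} (hΓ : 5 ≤ Γ) (hi : i < K) (hj : j < K) (hk : k < K)
    (hl : l < K) (hij : i ≠ j) (hne : (i, j) ≠ (k, l)) :
    U Γ M m * 4 ^ i + U Γ M m * 4 ^ l + 4 * Am Γ M m < U Γ M m * 4 ^ k + U Γ M m * 4 ^ j ∨
      U Γ M m * 4 ^ k + U Γ M m * 4 ^ j + 4 * Am Γ M m < U Γ M m * 4 ^ i + U Γ M m * 4 ^ l := by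
  have hU : 4 * Am Γ M m < U Γ M m := by
    obtain ⟨g, rfl⟩ : ∃ g, Γ = 1 + g := ⟨Γ - 1, by omega⟩
    have h1 := sg_mul g m
    have h2 : 4 * sg (1 + g) m ≤ g * sg (1 + g) m := Nat.mul_le_mul_right _ (by omega)
    rw [Am_eq]
    unfold U
    nlinarith
  have hne' : 4 ^ i + 4 ^ l ≠ 4 ^ k + 4 ^ j := by
    intro h
    have h' : (4 : ℤ) ^ i - 4 ^ j = 4 ^ k - 4 ^ l := by
      have : (4 : ℤ) ^ i + 4 ^ l = 4 ^ k + 4 ^ j := by exact_mod_cast h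
      linarith
    obtain ⟨e1, e2⟩ := Crest.Agent.R320.Ruler_302.sidon hij h'
    exact hne (by rw [e1, e2])
  rcases lt_or_gt_of_ne hne' with h | h
  · left
    have : U Γ M m * (4 ^ i + 4 ^ l + 1) ≤ U Γ M m * (4 ^ k + 4 ^ j) := Nat.mul_le_mul_left _ h
    nlinarith
  · right
    have : U Γ M m * (4 ^ k + 4 ^ j + 1) ≤ U Γ M m * (4 ^ i + 4 ^ l) := Nat.mul_le_mul_left _ h
    nlinarith

end Crest.Agent.R320.GridUG_319
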