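import Crest.Agent.R320.GridA_639
import Crest.Agent.R320.Names_755
import Crest.Agent.R320.Noise_513

/-!
# Row 320: the complete scheme-1 gadget `UG` on all words (693's nested grids, 755's names,
513's noise), in 845's form
-/

set_option autoImplicit false

namespace Crest.Agent.R320.GridUG639

open Finset

universe u

section lists

variable {α : Type u}

theorem seg_left {p q : List α} {A B : ℕ} (hB : B ≤ p.length) :
    ((p ++ q).take B).drop A = (p.take B).drop A := by
  rw [List.take_append_of_le_length hB]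

theorem seg_right {p q : List α} {A B : ℕ} :
    ((p ++ q).take (p.length + B)).drop (p.length + A) = (q.take B).drop A := by
  rw [List.take_append, List.drop_append]
  have h1 : (p.take (p.length + B)) = p := List.take_of_length_le (by omega)
  rw [h1, List.drop_eq_nil_of_le (by omega)]
  simp

theorem drop_right {p q : List α} {A : ℕ} :
    (p ++ q).drop (p.length + A) = q.drop A := by
  rw [List.drop_append, List.drop_eq_nil_of_le (by omega)]
  simp

theorem three {S : Type} [Monoid S] {phi : List α → S}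
    (hphi : ∀ u v, phi (u ++ v) = phi u * phi v) (u : List α) {A B : ℕ} (h : A ≤ B) :
    phi u = phi (u.take A) * phi ((u.take B).drop A) * phi (u.drop B) := by
  rw [← hphi, ← hphi]
  congr 1
  have h1 : u.take A = (u.take B).take A := by rw [List.take_take, min_eq_left h]
  rw [h1, List.take_append_drop, List.take_append_drop]

end lists

theorem split_sum {m : ℕ} {W : Type} [AddCommGroup W] (i : Fin m) (f : Fin m → W) :
    ∑ j, f j = (∑ j ∈ univ.filter (· < i), f j) + f i + ∑ j ∈ univ.filter (i < ·), f j := by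
  classical
  have h1 : (univ : Finset (Fin m)) = (univ.filter (· < i)) ∪ ({i} ∪ univ.filter (i < ·)) := by
    ext j
    simp only [mem_univ, mem_union, mem_filter, true_and, mem_singleton, true_iff]
    exact lt_trichotomy j i
  conv_lhs => rw [h1]
  rw [sum_union, sum_union, sum_singleton, add_assoc]
  · rw [disjoint_left]; intro j hj; simp at hj; simp [hj]
  · rw [disjoint_left]; intro j hj
    simp only [mem_filter, mem_univ, true_and] at hj
    simp only [mem_union, mem_singleton, mem_filter, mem_univ, true_and, not_or, not_lt]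
    exact ⟨hj.ne, hj.le⟩

/-- the boundary `j` of a zone of `n` units -/
def bet (M G m n j : ℕ) : ℕ := M * G ^ m * (2 * j + 1) + n % G ^ j

/-- the boundary `j` seen from the cut at level `i` -/
def del (M G m i t j : ℕ) : ℕ := M * G ^ m * (2 * (j - i) - 1) + t % G ^ j

section clocks

variable {M G m : ℕ}

theorem bet_left {i j n t t' : ℕ} (hij : j ≤ i) (hd : G ^ i ∣ t') (hn : n = t + t') :
    bet M G m n j = bet M G m t j := by
  obtain ⟨c, hc⟩ := (pow_dvd_pow G hij).trans hd
  unfold bet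
  rw [hn, hc, Nat.add_mul_mod_self_left]

theorem bet_right {i j n t t' : ℕ} (hij : i < j) (hjm : j ≤ m) (h1 : M * G ^ m * (2 * i + 2) ≤ t)
    (h2 : t < M * G ^ m * (2 * i + 2) + M * G ^ i) (h3 : t' % G ^ j + M * G ^ i ≤ G ^ j)
    (hn : n = t + t') : bet M G m n j = t + del M G m i t' j := by
  unfold bet del
  obtain ⟨ω, hω⟩ := Nat.exists_eq_add_of_le h1
  obtain ⟨c, hc⟩ : G ^ j ∣ M * G ^ m * (2 * i + 2) :=
    Dvd.dvd.mul_right (Dvd.dvd.mul_left (pow_dvd_pow G hjm) _) _
  have e1 : n % G ^ j = ω + t' % G ^ j := by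
    have hdm := Nat.div_add_mod t' (G ^ j)
    have e2 : n = (ω + t' % G ^ j) + G ^ j * (c + t' / G ^ j) := by
      rw [Nat.mul_add, ← hc]
      omega
    rw [e2, Nat.add_mul_mod_self_left]
    apply Nat.mod_eq_of_lt
    omega
  obtain ⟨d, rfl⟩ := Nat.exists_eq_add_of_lt hij
  have e3 : 2 * (i + d + 1 - i) - 1 = 2 * d + 1 := by omega
  rw [e1, e3, hω]
  ring

theorem bet_mono {n j : ℕ} (hM : 0 < M) (hG : 0 < G) (hj : j < m) :
    bet M G m n j ≤ bet M G m n (j + 1) := by
  unfold bet
  have h1 : n % G ^ j < G ^ j := Nat.mod_lt _ (by positivity)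
  have h2 : G ^ j ≤ G ^ m := Nat.pow_le_pow_right hG hj.le
  have h3 : G ^ m ≤ M * G ^ m := Nat.le_mul_of_pos_left _ hM
  have h4 : M * G ^ m * (2 * (j + 1) + 1) = M * G ^ m * (2 * j + 1) + 2 * (M * G ^ m) := by ring
  have h5 : 0 ≤ n % G ^ (j + 1) := Nat.zero_le _
  rw [h4]
  generalize n % G ^ (j + 1) = a1 at *
  generalize n % G ^ j = a2 at *
  generalize M * G ^ m * (2 * j + 1) = a3 at *
  generalize M * G ^ m = a4 at *
  omega

theorem bet_lt {n j : ℕ} (hM : 0 < M) (hG : 0 < G) (hj : j ≤ m) :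
    bet M G m n j < M * G ^ m * (2 * j + 2) := by
  unfold bet
  have h1 : n % G ^ j < G ^ j := Nat.mod_lt _ (by positivity)
  have h2 : G ^ j ≤ G ^ m := Nat.pow_le_pow_right hG hj
  have h3 : G ^ m ≤ M * G ^ m := Nat.le_mul_of_pos_left _ hM
  have h4 : M * G ^ m * (2 * j + 2) = M * G ^ m * (2 * j + 1) + (M * G ^ m) := by ring
  omega

theorem window_le {i : ℕ} (hG : 0 < G) (hi : i ≤ m) : M * G ^ i ≤ M * G ^ m :=
  Nat.mul_le_mul_left _ (Nat.pow_le_pow_right hG hi)

theorem del_mono {i t j : ℕ} (hM : 0 < M) (hG : 0 < G) (hij : i < j) (hj : j < m) :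
    del M G m i t j ≤ del M G m i t (j + 1) := by
  unfold del
  have h1 : t % G ^ j < G ^ j := Nat.mod_lt _ (by positivity)
  have h2 : G ^ j ≤ G ^ m := Nat.pow_le_pow_right hG hj.le
  have h3 : G ^ m ≤ M * G ^ m := Nat.le_mul_of_pos_left _ hM
  obtain ⟨d, rfl⟩ := Nat.exists_eq_add_of_lt hij
  have e3 : 2 * (i + d + 1 - i) - 1 = 2 * d + 1 := by omega
  have e4 : 2 * (i + d + 1 + 1 - i) - 1 = 2 * d + 3 := by omega
  rw [e3, e4]
  have h4 : M * G ^ m * (2 * d + 3) = M * G ^ m * (2 * d + 1) + 2 * (M * G ^ m) := by ring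
  rw [h4]
  generalize t % G ^ (i + d + 1 + 1) = a1 at *
  generalize t % G ^ (i + d + 1) = a2 at *
  generalize M * G ^ m * (2 * d + 1) = a3 at *
  generalize M * G ^ m = a4 at *
  omega

theorem per_mul {β : Type} {f : ℕ → β} {P : ℕ} (h : ∀ t, f (t + P) = f t) (t c : ℕ) :
    f (t + P * c) = f t := by
  induction c with
  | zero => simp
  | succ c ih => rw [Nat.mul_succ, ← Nat.add_assoc, h, ih]

theorem per_mod {β : Type} {f : ℕ → β} {P : ℕ} (h : ∀ t, f (t + P) = f t) {t t' : ℕ}
    (e : t ≡ t' [MOD P]) : f t = f t' := by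
  have h1 : ∀ t, f t = f (t % P) := fun t => by
    conv_lhs => rw [← Nat.mod_add_div t P]
    exact per_mul h _ _
  rw [h1 t, h1 t', e]

end clocks

section gadget

variable {S V W : Type} [Monoid S] [AddCommGroup V] [AddCommGroup W] {m : ℕ}

/-- names: level, left product, left weight, right product, right weight, token -/
abbrev Ctx (m : ℕ) (S W V : Type) := Fin m × S × W × S × W × V

def lab (act : V → S → V) (e : Fin m → S → W) (F : S → W → V) (a : Ctx m S W V) : V :=
  F (a.2.1 * 1 * a.2.2.2.1) (a.2.2.1 + e a.1 1 + a.2.2.2.2.1)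
    + act a.2.2.2.2.2 (a.2.1 * 1 * a.2.2.2.1)

def Good (act : V → S → V) (e : Fin m → S → W) (F : S → W → V) (a : Ctx m S W V) : Prop :=
  ∀ z, F (a.2.1 * z * a.2.2.2.1) (a.2.2.1 + e a.1 z + a.2.2.2.2.1)
    + act a.2.2.2.2.2 (a.2.1 * z * a.2.2.2.1) = lab act e F a

variable {α : Type u} (act : V → S → V) (e : Fin m → S → W) (F : S → W → V)
  (M G Mp N : ℕ) (nmL nmR : ℕ → Option (Ctx m S W V)) (phi : List α → S)

structure LamP (p : List α) (a : Ctx m S W V) : Prop where
  dvd : Mp ∣ p.length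
  nm : nmL (p.length / Mp) = some a
  good : Good act e F a
  lo : M * G ^ m * (2 * (a.1 : ℕ) + 2) ≤ p.length / Mp
  hi : p.length / Mp < M * G ^ m * (2 * (a.1 : ℕ) + 2) + M * G ^ (a.1 : ℕ)
  hg : phi (p.take (Mp * bet M G m (p.length / Mp) a.1)) = a.2.1
  hw : ∑ j ∈ univ.filter (· < a.1), e j (phi ((p.take (Mp * bet M G m (p.length / Mp) (j + 1))).drop
    (Mp * bet M G m (p.length / Mp) j))) = a.2.2.1

structure RhoP (q : List α) (a : Ctx m S W V) : Prop where
  len : N ≤ q.length
  nm : nmR (q.length / Mp) = some a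
  good : Good act e F a
  dvd : G ^ (a.1 : ℕ) ∣ q.length / Mp
  band : ∀ j, (a.1 : ℕ) < j → j ≤ m → (q.length / Mp) % G ^ j + M * G ^ (a.1 : ℕ) ≤ G ^ j
  hh : phi (q.drop (Mp * del M G m a.1 (q.length / Mp) (a.1 + 1))) = a.2.2.2.1
  hw : ∑ j ∈ univ.filter (a.1 < ·), e j (phi ((q.take (Mp * del M G m a.1 (q.length / Mp) (j + 1))).drop
    (Mp * del M G m a.1 (q.length / Mp) j))) = a.2.2.2.2.1

/-- the full weight -/
def wsum (u : List α) (n : ℕ) : W :=
  ∑ j : Fin m, e j (phi ((u.take (Mp * bet M G m n (j + 1))).drop (Mp * bet M G m n j)))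

def Pair (r : ℕ) (a a' : Ctx m S W V) : Prop :=
  ∃ t t', nmL t = some a ∧ nmR t' = some a' ∧ (t + t') % M = r

open Classical in
noncomputable def lam (p : List α) : Option V :=
  if h : ∃ a, LamP act e F M G Mp nmL phi p a then some h.choose.2.2.2.2.2 else none

open Classical in
noncomputable def rho (q : List α) : Option V :=
  if h : ∃ a, RhoP act e F M G Mp N nmR phi q a then some (lab act e F h.choose) else none

open Classical in
noncomputable def nu (Ms : Finset ℕ) (u : List α) : V :=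
  if ∀ k ∈ Ms, ¬ k ∣ u.length / Mp then F (phi u) (wsum e M G Mp phi u (u.length / Mp))
  else if h : ∃ aa : Ctx m S W V × Ctx m S W V, Pair M nmL nmR ((u.length / Mp) % M) aa.1 aa.2 then
    lab act e F h.choose.2 - act h.choose.1.2.2.2.2.2 (phi u) else 0

variable {act e F M G Mp N nmL nmR phi}

theorem lam_some {p : List α} {v : V} (h : lam act e F M G Mp nmL phi p = some v) :
    ∃ a, LamP act e F M G Mp nmL phi p a ∧ a.2.2.2.2.2 = v := by
  classical
  unfold lam at h
  split_ifs at h with h1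
  exact ⟨_, h1.choose_spec, Option.some.inj h⟩

theorem lam_of {p : List α} {a : Ctx m S W V} (h : LamP act e F M G Mp nmL phi p a) :
    lam act e F M G Mp nmL phi p = some a.2.2.2.2.2 := by
  classical
  have h1 : ∃ a, LamP act e F M G Mp nmL phi p a := ⟨a, h⟩
  unfold lam
  rw [dif_pos h1]
  have h2 := h1.choose_spec.nm.symm.trans h.nm
  rw [Option.some.inj h2]

theorem rho_some {q : List α} {r : V} (h : rho act e F M G Mp N nmR phi q = some r) :
    ∃ a, RhoP act e F M G Mp N nmR phi q a ∧ lab act e F a = r := by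
  classical
  unfold rho at h
  split_ifs at h with h1
  exact ⟨_, h1.choose_spec, Option.some.inj h⟩

theorem rho_of {q : List α} {a : Ctx m S W V} (h : RhoP act e F M G Mp N nmR phi q a) :
    (rho act e F M G Mp N nmR phi q).isSome := by
  classical
  have h1 : ∃ a, RhoP act e F M G Mp N nmR phi q a := ⟨a, h⟩
  unfold rho
  rw [dif_pos h1]
  rfl

/-- the zone read by the two sides of a level-`i` cut -/
theorem parts (hphi : ∀ u v, phi (u ++ v) = phi u * phi v) (hM : 0 < M) (hG : 0 < G)
    {p q : List α} (i : Fin m) {t t' n : ℕ} (hp : p.length = Mp * t)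
    (hn : n = t + t') (hd : G ^ (i : ℕ) ∣ t')
    (lo : M * G ^ m * (2 * (i : ℕ) + 2) ≤ t)
    (hi : t < M * G ^ m * (2 * (i : ℕ) + 2) + M * G ^ (i : ℕ))
    (band : ∀ j, (i : ℕ) < j → j ≤ m → t' % G ^ j + M * G ^ (i : ℕ) ≤ G ^ j) :
    ∃ x, phi (p ++ q) = phi (p.take (Mp * bet M G m t i)) * x *
        phi (q.drop (Mp * del M G m i t' (i + 1))) ∧
      wsum e M G Mp phi (p ++ q) n =
        (∑ j ∈ univ.filter (· < i), e j (phi ((p.take (Mp * bet M G m t (j + 1))).drop
          (Mp * bet M G m t j)))) + e i x +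
        ∑ j ∈ univ.filter (i < ·), e j (phi ((q.take (Mp * del M G m i t' (j + 1))).drop
          (Mp * del M G m i t' j))) := by
  have hL : ∀ j, j ≤ (i : ℕ) → bet M G m n j = bet M G m t j := fun j hj => bet_left hj hd hn
  have hR : ∀ j, (i : ℕ) < j → j ≤ m → bet M G m n j = t + del M G m i t' j :=
    fun j hj hjm => bet_right hj hjm lo hi (band j hj hjm) hn
  have hle : ∀ j, j ≤ (i : ℕ) → Mp * bet M G m t j ≤ p.length := by
    intro j hj
    rw [hp]
    apply Nat.mul_le_mul_left
    have h1 := bet_lt (M := M) (G := G) (m := m) (n := t) hM hG (hj.trans i.2.le)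
    have h2 : M * G ^ m * (2 * j + 2) ≤ M * G ^ m * (2 * (i : ℕ) + 2) :=
      Nat.mul_le_mul_left _ (by omega)
    omega
  refine ⟨phi (((p ++ q).take (Mp * bet M G m n (i + 1))).drop (Mp * bet M G m n i)), ?_, ?_⟩
  · rw [three hphi (p ++ q) (Nat.mul_le_mul_left Mp (bet_mono (n := n) hM hG i.2))]
    congr 2
    · congr 1
      rw [hL i le_rfl, List.take_append_of_le_length (hle i le_rfl)]
    · rw [hR (i + 1) (Nat.lt_succ_self _) i.2, Nat.mul_add, ← hp, drop_right]
  · unfold wsum
    rw [split_sum i]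
    congr 1
    · congr 1
      apply sum_congr rfl
      intro j hj
      simp only [mem_filter, mem_univ, true_and] at hj
      have hj' : (j : ℕ) < i := hj
      rw [hL j hj'.le, hL (j + 1) hj', seg_left (hle (j + 1) hj')]
    · apply sum_congr rfl
      intro j hj
      simp only [mem_filter, mem_univ, true_and] at hj
      have hj' : (i : ℕ) < j := hj
      rw [hR j hj' j.2.le, hR (j + 1) (by omega) j.2, Nat.mul_add, Nat.mul_add, ← hp, seg_right]

/-- **UG**: the complete scheme-1 gadget. -/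
theorem UG (S V : Type) [Monoid S] [Finite S] [AddCommGroup V] [Finite V] (act : V → S → V) :
    ∃ C0 : ℕ, ∀ K Mp : ℕ, 2 ^ (K + 10) ≤ Mp →
    ∃ (N M0 : ℕ) (x : ℕ → ℕ) (Bad : ℕ → Prop),
      0 < M0 ∧ (∀ T, Bad (T + M0) ↔ Bad T) ∧
      (∀ a < K, x a ≤ N) ∧
      (∀ a b c d, a < K → b < K → c < K → d < K → a ≠ b →
        (x a + x d) % Mp = (x c + x b) % Mp → a = c ∧ b = d) ∧
      (∀ T, N ≤ T → ∀ (P : ℕ × ℕ → Prop) [DecidablePred P],
        (∀ ab, P ab → ab.1 ≠ ab.2 ∧ Bad (T + x ab.1 - x ab.2)) →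
        ((Finset.range K ×ˢ Finset.range K).filter P).card ≤ C0) ∧
      ∀ (α : Type u) (phi : List α → S), (∀ u v, phi (u ++ v) = phi u * phi v) →
      ∃ (lam rho : List α → Option V) (nu : List α → V),
        (∀ p v, lam p = some v → Mp ∣ p.length ∧ p.length ≤ N) ∧
        (∀ q r, rho q = some r → N ≤ q.length) ∧
        (∀ p q v r, lam p = some v → rho q = some r →
          r = act v (phi (p ++ q)) + nu (p ++ q)) ∧
        (∀ u, 2 * N ≤ u.length → ¬ Bad u.length → ∀ v, ∃ p q, p ++ q = u ∧ lam p = some v ∧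
          (rho q).isSome) ∧
        (∀ u u', 2 * N ≤ u.length → 2 * N ≤ u'.length → u.take (2 * N) = u'.take (2 * N) →
          u.length % M0 = u'.length % M0 → phi u = phi u' → nu u = nu u') := by
  classical
  obtain ⟨W, iW, fW, m, e, F, hF⟩ := Noise513.explicit_noise S V act
  have : Finite W := Finite.of_fintype W
  obtain ⟨r, hr⟩ := Names755.names (Ctx m S W V) (V × V)
    (fun a => (a.2.2.2.2.2, lab act e F a))
  refine ⟨r + m, ?_⟩
  intro K Mp hMp
  obtain ⟨Ms, M, nmL, nmR, hcard, hMs, hM, perL, perR, hsame, hcomp, hdiff⟩ := hr (2 ^ (K + 10))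
  obtain ⟨G, hGdef⟩ : ∃ G, G = 2 ^ (K + 10) * M + 1 := ⟨_, rfl⟩
  have hG : 0 < G := by rw [hGdef]; positivity
  have hMp0 : 0 < Mp := lt_of_lt_of_le (by positivity) hMp
  obtain ⟨N, hN⟩ : ∃ N, N = Mp * (M * G ^ m * (2 * m + 4)) +
    ∑ a ∈ Finset.range K, xx Mp M G m a := ⟨_, rfl⟩
  have hxN : ∀ a < K, xx Mp M G m a ≤ N := by
    intro a ha
    have h1 : xx Mp M G m a ≤ ∑ a ∈ Finset.range K, xx Mp M G m a :=
      Finset.single_le_sum (f := fun a => xx Mp M G m a) (fun _ _ => Nat.zero_le _)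
        (Finset.mem_range.2 ha)
    omega
  have hNN : Mp * (M * G ^ m * (2 * m + 4)) ≤ N := by omega
  have hGM : G ^ m ∣ M * G ^ m := Dvd.intro_left _ rfl
  refine ⟨N, Mp * (M * G ^ m), xx Mp M G m, fun T => BadN M G m Ms (T / Mp), by positivity,
    ?_, hxN, ?_, ?_, ?_⟩
  · intro T
    show BadN M G m Ms ((T + Mp * (M * G ^ m)) / Mp) ↔ _
    rw [Nat.add_mul_div_left _ _ hMp0]
    exact badN_periodic (fun k hk => (hMs k hk).2.2) _
  · intro a b c d ha hb hc hd hab h
    exact golomb hMp ha hb hc hd hab h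
  · intro T hT P _ hP
    exact spoil hMp hM hGdef (fun k hk => ⟨(hMs k hk).1, (hMs k hk).2.2⟩) hcard
      (fun b hb => (hxN b hb).trans hT) P hP
  intro α phi hphi
  refine ⟨lam act e F M G Mp nmL phi, rho act e F M G Mp N nmR phi,
    nu act e F M G Mp nmL nmR phi Ms, ?_, ?_, ?_, ?_, ?_⟩
  · intro p v hp
    obtain ⟨a, ha, _⟩ := lam_some hp
    refine ⟨ha.dvd, ?_⟩
    have h1 := ha.hi
    have h2 := window_le (M := M) hG a.1.2.le
    have h3 : p.length = Mp * (p.length / Mp) := (Nat.mul_div_cancel' ha.dvd).symm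
    rw [h3]
    refine le_trans (Nat.mul_le_mul_left _ ?_) hNN
    have h4 : M * G ^ m * (2 * (a.1 : ℕ) + 2) + M * G ^ m ≤ M * G ^ m * (2 * m + 4) := by
      have : M * G ^ m * (2 * (a.1 : ℕ) + 2) + M * G ^ m = M * G ^ m * (2 * (a.1 : ℕ) + 3) := by ring
      rw [this]
      exact Nat.mul_le_mul_left _ (by have := a.1.2; omega)
    omega
  · intro q r hq
    obtain ⟨a, ha, _⟩ := rho_some hq
    exact ha.len
  · intro p q v r0 hp hq
    obtain ⟨a, ha, rfl⟩ := lam_some hp
    obtain ⟨a', ha', rfl⟩ := rho_some hq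
    have hpl : p.length = Mp * (p.length / Mp) := (Nat.mul_div_cancel' ha.dvd).symm
    have hn : (p ++ q).length / Mp = p.length / Mp + q.length / Mp := by
      rw [List.length_append]
      conv_lhs => rw [hpl]
      rw [Nat.mul_add_div hMp0]
    by_cases hg : ∀ k ∈ Ms, ¬ k ∣ p.length / Mp + q.length / Mp
    · have haa := hsame _ _ _ _ ha.nm ha'.nm hg
      subst haa
      obtain ⟨x, hx1, hx2⟩ := parts (e := e) hphi hM hG a.1 hpl hn ha'.dvd ha.lo ha.hi ha'.band
      rw [ha.hg, ha'.hh] at hx1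
      rw [ha.hw, ha'.hw] at hx2
      have h3 : nu act e F M G Mp nmL nmR phi Ms (p ++ q) =
          F (phi (p ++ q)) (wsum e M G Mp phi (p ++ q) ((p ++ q).length / Mp)) := by
        unfold nu
        rw [if_pos (by rw [hn]; exact hg)]
      rw [h3, hx1, hx2, add_comm]
      exact (ha.good x).symm
    · have h3 : ∃ aa : Ctx m S W V × Ctx m S W V,
          Pair M nmL nmR (((p ++ q).length / Mp) % M) aa.1 aa.2 :=
        ⟨(a, a'), _, _, ha.nm, ha'.nm, by rw [hn]⟩
      have h4 : nu act e F M G Mp nmL nmR phi Ms (p ++ q) =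
          lab act e F h3.choose.2 - act h3.choose.1.2.2.2.2.2 (phi (p ++ q)) := by
        unfold nu
        rw [if_neg (by rw [hn]; exact hg), dif_pos h3]
      rw [h4]
      obtain ⟨t, t', n1, n2, n3⟩ := h3.choose_spec
      have hcol : (a.2.2.2.2.2, lab act e F a) =
          (h3.choose.1.2.2.2.2.2, lab act e F h3.choose.1) ∧
          (a'.2.2.2.2.2, lab act e F a') =
          (h3.choose.2.2.2.2.2.2, lab act e F h3.choose.2) := by
        push Not at hg
        rw [hn] at n3
        rcases le_total (t + t') (p.length / Mp + q.length / Mp) with hle | hle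
        · obtain ⟨c, hc⟩ := (Nat.modEq_iff_dvd' hle).1 n3
          refine hdiff _ _ t (t' + M * c) _ _ _ _ ha.nm ha'.nm n1
            (by rw [per_mul perR]; exact n2) (by omega) hg
        · obtain ⟨c, hc⟩ := (Nat.modEq_iff_dvd' hle).1 n3.symm
          obtain ⟨k, hk, hkd⟩ := hg
          refine hdiff (p.length / Mp) (q.length / Mp + M * c) t t' _ _ _ _ ha.nm
            (by rw [per_mul perR]; exact ha'.nm) n1 n2 (by omega) ⟨k, hk, ?_⟩
          rw [← Nat.add_assoc]
          exact dvd_add hkd (Dvd.dvd.mul_right (hMs k hk).2.2 _)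
      have c1 := congrArg Prod.fst hcol.1
      have c2 := congrArg Prod.snd hcol.2
      simp only at c1 c2
      rw [← c1, ← c2]
      abel
  · intro u hu hbad v
    obtain ⟨n, hndef⟩ : ∃ n, n = u.length / Mp := ⟨_, rfl⟩
    obtain ⟨i, hi⟩ := hF (phi u) (wsum e M G Mp phi u n) v
    set g := phi (u.take (Mp * bet M G m n i)) with hgdef
    set x := phi ((u.take (Mp * bet M G m n (i + 1))).drop (Mp * bet M G m n i)) with hxdef
    set h := phi (u.drop (Mp * bet M G m n (i + 1))) with hhdef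
    set wl := ∑ j ∈ univ.filter (· < i), e j (phi ((u.take (Mp * bet M G m n (j + 1))).drop
      (Mp * bet M G m n j))) with hwl
    set wr := ∑ j ∈ univ.filter (i < ·), e j (phi ((u.take (Mp * bet M G m n (j + 1))).drop
      (Mp * bet M G m n j))) with hwr
    have hprod : g * x * h = phi u :=
      (three hphi u (Nat.mul_le_mul_left Mp (bet_mono (n := n) hM hG i.2))).symm
    have hsum : wsum e M G Mp phi u n = wl + e i x + wr := by
      unfold wsum
      rw [split_sum i]
    have hi' := hi g x h hprod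
    let a : Ctx m S W V := (i, g, wl, h, wr, v)
    have hgood : Good act e F a := by
      intro z
      show F (g * z * h) (wl + e i z + wr) + act v (g * z * h) =
        F (g * 1 * h) (wl + e i 1 + wr) + act v (g * 1 * h)
      have h1 := hi' z
      have h2 := hi' 1
      have h3 : ∀ z, wsum e M G Mp phi u n - e i x + e i z = wl + e i z + wr := by
        intro z; rw [hsum]; abel
      rw [h3] at h1 h2
      rw [h1, h2]
    have hb1 : ∀ k ∈ Ms, ¬ k ∣ n := by
      intro k hk hd
      exact hbad (Or.inl ⟨k, hk, by rw [← hndef]; exact hd⟩)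
    have hb2 : ∀ j < m, M * G ^ j ≤ n % G ^ (j + 1) ∧ n % G ^ (j + 1) + M * G ^ j ≤ G ^ (j + 1) := by
      intro j hj
      by_contra hc
      apply hbad
      refine Or.inr ⟨j, hj, ?_⟩
      rw [← hndef]
      omega
    obtain ⟨t, _, ht1, ht2⟩ := hcomp n hb1 a
    have hco : Nat.Coprime M (G ^ (i : ℕ)) := by
      apply Nat.Coprime.pow_right
      rw [hGdef, Nat.coprime_mul_right_add_right]
      exact Nat.coprime_one_right M
    have hω := (Nat.chineseRemainder hco t n).2
    have hωlt := Nat.chineseRemainder_lt_mul hco t n hM.ne' (by positivity)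
    obtain ⟨ω, hωdef⟩ : ∃ ω, ω = ((Nat.chineseRemainder hco t n : {k // _}) : ℕ) := ⟨_, rfl⟩
    rw [← hωdef] at hω hωlt
    obtain ⟨τ, hτ⟩ : ∃ τ, τ = M * G ^ m * (2 * (i : ℕ) + 2) + ω := ⟨_, rfl⟩
    have hwin := window_le (M := M) hG i.2.le
    have hτle : τ ≤ M * G ^ m * (2 * m + 4) := by
      have h4 : M * G ^ m * (2 * (i : ℕ) + 2) + M * G ^ m ≤ M * G ^ m * (2 * m + 4) := by
        have : M * G ^ m * (2 * (i : ℕ) + 2) + M * G ^ m = M * G ^ m * (2 * (i : ℕ) + 3) := by ring
        rw [this]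
        exact Nat.mul_le_mul_left _ (by have := i.2; omega)
      omega
    have hMτ : Mp * τ ≤ N := (Nat.mul_le_mul_left _ hτle).trans hNN
    have hdm := Nat.div_add_mod u.length Mp
    rw [← hndef] at hdm
    have hτn : τ ≤ n := by
      rw [hndef]
      rw [Nat.le_div_iff_mul_le hMp0, mul_comm]
      omega
    obtain ⟨τ', hτ'⟩ : ∃ τ', τ' = n - τ := ⟨_, rfl⟩
    have hsplit : n = τ + τ' := by omega
    have hpl : (u.take (Mp * τ)).length = Mp * τ := by
      rw [List.length_take]; omega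
    have hpd : (u.take (Mp * τ)).length / Mp = τ := by
      rw [hpl, Nat.mul_div_cancel_left _ hMp0]
    have hql : (u.drop (Mp * τ)).length / Mp = τ' := by
      rw [List.length_drop, ← hdm, hsplit]
      rw [show Mp * (τ + τ') + u.length % Mp - Mp * τ = Mp * τ' + u.length % Mp by
        rw [Nat.mul_add]; omega]
      rw [Nat.mul_add_div hMp0, Nat.div_eq_of_lt (Nat.mod_lt _ hMp0), Nat.add_zero]
    have hGL : ∀ j, j ≤ m → G ^ j ∣ M * G ^ m * (2 * (i : ℕ) + 2) := fun j hj =>
      Dvd.dvd.mul_right (Dvd.dvd.mul_left (pow_dvd_pow G hj) _) _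
    have hτω : ∀ j, j ≤ m → τ ≡ ω [MOD G ^ j] := by
      intro j hj
      obtain ⟨c, hc⟩ := hGL j hj
      rw [hτ, hc, Nat.add_comm]
      show (ω + G ^ j * c) % _ = _
      rw [Nat.add_mul_mod_self_left]
    have hτM : τ ≡ t [MOD M] := by
      refine Nat.ModEq.trans ?_ hω.1
      rw [hτ, Nat.add_comm]
      show (ω + M * G ^ m * (2 * (i : ℕ) + 2)) % M = ω % M
      rw [Nat.mul_assoc, Nat.add_mul_mod_self_left]
    have hdvd : G ^ (i : ℕ) ∣ τ' := by
      rw [hτ']
      exact (Nat.modEq_iff_dvd' hτn).1 ((hτω i i.2.le).trans hω.2)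
    have hlo : M * G ^ m * (2 * (i : ℕ) + 2) ≤ τ := by omega
    have hhi : τ < M * G ^ m * (2 * (i : ℕ) + 2) + M * G ^ (i : ℕ) := by omega
    have hband : ∀ j, (i : ℕ) < j → j ≤ m → τ' % G ^ j + M * G ^ (i : ℕ) ≤ G ^ j := by
      intro j hij hjm
      obtain ⟨j', rfl⟩ : ∃ j', j = j' + 1 := ⟨j - 1, by omega⟩
      obtain ⟨q1, q2⟩ := hb2 j' hjm
      have h1 : M * G ^ (i : ℕ) ≤ M * G ^ j' :=
        Nat.mul_le_mul_left _ (Nat.pow_le_pow_right hG (by omega))
      have h2 : n % G ^ (j' + 1) < G ^ (j' + 1) := Nat.mod_lt _ (by positivity)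
      have h3 : τ' % G ^ (j' + 1) = n % G ^ (j' + 1) - ω := by
        have h4 : τ' ≡ n % G ^ (j' + 1) - ω [MOD G ^ (j' + 1)] := by
          apply Nat.ModEq.add_right_cancel' ω
          rw [Nat.sub_add_cancel (by omega)]
          have h5 : τ' + ω ≡ τ' + τ [MOD G ^ (j' + 1)] :=
            Nat.ModEq.add_left _ (hτω _ hjm).symm
          refine h5.trans ?_
          rw [Nat.add_comm τ' τ, ← hsplit]
          exact (Nat.mod_modEq _ _).symm
        have h6 : τ' % G ^ (j' + 1) = (n % G ^ (j' + 1) - ω) % G ^ (j' + 1) := h4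
        rw [h6, Nat.mod_eq_of_lt (by omega)]
      omega
    have hLe : ∀ j, j ≤ (i : ℕ) → bet M G m n j = bet M G m τ j := fun j hj =>
      bet_left hj hdvd hsplit
    have hRe : ∀ j, (i : ℕ) < j → j ≤ m → bet M G m n j = τ + del M G m i τ' j :=
      fun j hj hjm => bet_right hj hjm hlo hhi (hband j hj hjm) hsplit
    have hsub : ∀ j, j ≤ (i : ℕ) → Mp * bet M G m n j ≤ Mp * τ := by
      intro j hj
      apply Nat.mul_le_mul_left
      have h1 := bet_lt (M := M) (G := G) (m := m) (n := n) hM hG (hj.trans i.2.le)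
      have h2 : M * G ^ m * (2 * j + 2) ≤ M * G ^ m * (2 * (i : ℕ) + 2) :=
        Nat.mul_le_mul_left _ (by omega)
      omega
    have hnR : nmR τ' = some a := ht2 τ' (by
      have h1 : t + τ' ≡ τ + τ' [MOD M] := Nat.ModEq.add_right _ hτM.symm
      rw [← hsplit] at h1
      exact h1)
    have hnL : nmL τ = some a := by rw [per_mod perL hτM]; exact ht1
    refine ⟨u.take (Mp * τ), u.drop (Mp * τ), List.take_append_drop _ _, ?_, ?_⟩
    · refine lam_of (a := a) ⟨?_, ?_, hgood, ?_, ?_, ?_, ?_⟩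
      · rw [hpl]; exact Dvd.intro _ rfl
      · rw [hpd]; exact hnL
      · rw [hpd]; exact hlo
      · rw [hpd]; exact hhi
      · rw [hpd]
        show phi ((u.take (Mp * τ)).take (Mp * bet M G m τ i)) = g
        rw [← hLe i le_rfl, List.take_take, min_eq_left (hsub i le_rfl)]
      · rw [hpd]
        show ∑ j ∈ univ.filter (· < i), _ = wl
        rw [hwl]
        apply sum_congr rfl
        intro j hj
        simp only [mem_filter, mem_univ, true_and] at hj
        have hj' : (j : ℕ) < i := hj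
        rw [← hLe j hj'.le, ← hLe (j + 1) hj', List.take_take, min_eq_left (hsub (j + 1) hj')]
    · refine rho_of (a := a) ⟨?_, ?_, hgood, ?_, ?_, ?_, ?_⟩
      · rw [List.length_drop]; omega
      · rw [hql]; exact hnR
      · rw [hql]; exact hdvd
      · rw [hql]; exact hband
      · rw [hql]
        show phi ((u.drop (Mp * τ)).drop (Mp * del M G m i τ' (i + 1))) = h
        rw [List.drop_drop, hhdef, hRe (i + 1) (Nat.lt_succ_self _) i.2, Nat.mul_add]
      · rw [hql]
        show ∑ j ∈ univ.filter (i < ·), _ = wr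
        rw [hwr]
        apply sum_congr rfl
        intro j hj
        simp only [mem_filter, mem_univ, true_and] at hj
        have hj' : (i : ℕ) < j := hj
        rw [hRe j hj' j.2.le, hRe (j + 1) (by omega) j.2, Nat.mul_add, Nat.mul_add]
        conv_rhs => rw [← List.take_append_drop (Mp * τ) u]
        have := seg_right (p := u.take (Mp * τ)) (q := u.drop (Mp * τ))
          (A := Mp * del M G m i τ' j) (B := Mp * del M G m i τ' (j + 1))
        rw [hpl] at this
        rw [this]
  · intro u u' hu hu' htake hmod hph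
    have e1 : (u.length / Mp) % (M * G ^ m) = (u'.length / Mp) % (M * G ^ m) := by
      rw [← Nat.mod_mul_right_div_self, hmod, Nat.mod_mul_right_div_self]
    have hmodd : ∀ k, k ∣ M * G ^ m → (u.length / Mp) % k = (u'.length / Mp) % k := by
      intro k hk
      exact Nat.ModEq.of_dvd hk e1
    have hbet : ∀ j, j ≤ m → bet M G m (u.length / Mp) j = bet M G m (u'.length / Mp) j := by
      intro j hj
      unfold bet
      rw [hmodd _ (Dvd.dvd.mul_left (pow_dvd_pow G hj) _)]
    have hbN : ∀ n j, j ≤ m → Mp * bet M G m n j ≤ 2 * N := by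
      intro n j hj
      have h1 := bet_lt (M := M) (G := G) (m := m) (n := n) hM hG hj
      have h2 : M * G ^ m * (2 * j + 2) ≤ M * G ^ m * (2 * m + 4) :=
        Nat.mul_le_mul_left _ (by omega)
      have h3 : Mp * bet M G m n j ≤ Mp * (M * G ^ m * (2 * m + 4)) :=
        Nat.mul_le_mul_left _ (by omega)
      omega
    have htk : ∀ B, B ≤ 2 * N → u.take B = u'.take B := by
      intro B hB
      have h1 : u.take B = (u.take (2 * N)).take B := by rw [List.take_take, min_eq_left hB]
      have h2 : u'.take B = (u'.take (2 * N)).take B := by rw [List.take_take, min_eq_left hB]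
      rw [h1, h2, htake]
    have hws : wsum e M G Mp phi u (u.length / Mp) = wsum e M G Mp phi u' (u'.length / Mp) := by
      unfold wsum
      apply sum_congr rfl
      intro j _
      rw [hbet j j.2.le, hbet (j + 1) j.2, htk _ (hbN _ _ j.2)]
    have hk : (∀ k ∈ Ms, ¬ k ∣ u.length / Mp) ↔ (∀ k ∈ Ms, ¬ k ∣ u'.length / Mp) := by
      have : ∀ k ∈ Ms, (k ∣ u.length / Mp ↔ k ∣ u'.length / Mp) := by
        intro k hk
        rw [Nat.dvd_iff_mod_eq_zero, Nat.dvd_iff_mod_eq_zero,
          hmodd k (Dvd.dvd.mul_right (hMs k hk).2.2 _)]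
      constructor
      · intro h k hk hd; exact h k hk ((this k hk).2 hd)
      · intro h k hk hd; exact h k hk ((this k hk).1 hd)
    have hMm : (u.length / Mp) % M = (u'.length / Mp) % M := hmodd M (Dvd.intro _ rfl)
    unfold nu
    simp only [hk, hws, hph, hMm]

end gadget

end Crest.Agent.R320.GridUG639
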