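import Crest.Agent.R320.NameGad_808
import Crest.Agent.R320.Zone132_898

/-!
Row 320: scheme 1's gadget without small walls (693 #13203): hole ends on nested grids anchored
at the right end; names, colours and noise from `NameGad_808.unknownT_gadget`.
-/

set_option autoImplicit false

namespace Crest.Agent.R320.GridU_323

open Finset Crest.Agent.R320.Zone132_898 Crest.Agent.R320.NameGad808

/-- geometry of the grids and cells -/
structure Geo (M : ℕ) where
  G : ℕ → ℕ
  A : ℕ → ℕ
  lo : ℕ → ℕ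
  Gpos : ∀ i, 0 < G i
  Gdvd : ∀ i j, i ≤ j → G i ∣ G j
  alo : ∀ i, A i + G i ≤ lo i
  loA : ∀ i, lo i + M * G i ≤ A (i + 1)

namespace Geo

variable {M : ℕ} (g : Geo M)

/-- boundary `j` of a word of length `n` -/
def bt (j n : ℕ) : ℕ := g.A j + (n - g.A j) % g.G j

/-- its distance from the end -/
def ep (j n : ℕ) : ℕ := g.G j * ((n - g.A j) / g.G j)

theorem bt_add_ep {j n : ℕ} (h : g.A j ≤ n) : g.bt j n + g.ep j n = n := by
  unfold bt ep
  have := Nat.mod_add_div (n - g.A j) (g.G j)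
  omega

theorem bt_lt (j n : ℕ) : g.bt j n < g.A j + g.G j := by
  unfold bt
  have := Nat.mod_lt (n - g.A j) (g.Gpos j)
  omega

theorem le_bt (j n : ℕ) : g.A j ≤ g.bt j n := Nat.le_add_right _ _

theorem bt_lt_lo (j n : ℕ) : g.bt j n < g.lo j := lt_of_lt_of_le (g.bt_lt j n) (g.alo j)

theorem Amono : Monotone g.A := by
  apply monotone_nat_of_le_succ
  intro i
  have h1 := g.alo i
  have h2 := g.loA i
  omega

theorem lomono : Monotone g.lo := by
  apply monotone_nat_of_le_succ
  intro i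
  have h1 := g.alo (i + 1)
  have h2 := g.loA i
  omega

theorem bt_left {i l o n' : ℕ} (hl : l ≤ i) (ho : g.A l ≤ o) (hd : g.G i ∣ n') :
    g.bt l (o + n') = g.bt l o := by
  unfold bt
  obtain ⟨c, rfl⟩ := (g.Gdvd l i hl).trans hd
  rw [show o + g.G l * c - g.A l = (o - g.A l) + g.G l * c by omega, Nat.add_mul_mod_self_left]

theorem hi_le {i j : ℕ} (h : i < j) : g.lo i + M * g.G i ≤ g.A j :=
  le_trans (g.loA i) (g.Amono h)

theorem ep_right {i j o n' : ℕ} (h1 : g.lo i ≤ o) (h2 : o < g.lo i + M * g.G i)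
    (h4 : (n' + g.lo i - g.A j) / g.G j = (n' + g.lo i + M * g.G i - 1 - g.A j) / g.G j) :
    g.ep j (o + n') = g.ep j (n' + g.lo i) := by
  unfold ep
  congr 1
  apply le_antisymm
  · rw [h4]; exact Nat.div_le_div_right (by omega)
  · exact Nat.div_le_div_right (by omega)

theorem ep_le {i j n' : ℕ} (h : i < j) : g.ep j (n' + g.lo i) ≤ n' := by
  unfold ep
  have h1 := Nat.mul_div_le (n' + g.lo i - g.A j) (g.G j)
  have h2 := g.hi_le h
  omega

end Geo

section Words

variable {α S V : Type*} [Monoid S] [AddCommGroup V] {N k : ℕ} {q : Fin k → ℕ} {M : ℕ}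

/-- residues of a length -/
def rs (q : Fin k → ℕ) (n : ℕ) : ∀ j, ZMod (q j) := fun j => (n : ZMod (q j))

/-- weight of the segments of a word -/
def WW (g : Geo M) (m : ℕ) (phi : List α → S) (e : ℕ → S → ZMod N × ZMod N) (u : List α) :
    ZMod N × ZMod N :=
  ∑ l ∈ range m, e l (zt phi u (g.bt l u.length) (g.bt (l + 1) u.length))

def LamR (g : Geo M) (m : ℕ) (phi : List α → S) (e : ℕ → S → ZMod N × ZMod N)
    (L : ℕ → (∀ j, ZMod (q j)) → S → ZMod N × ZMod N → Option V) (P : List α) (v : V) : Prop :=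
  ∃ i < m, g.lo i ≤ P.length ∧ P.length < g.lo i + M * g.G i ∧
    L i (rs q P.length) (phi (P.take (g.bt i P.length)))
      (∑ l ∈ range i, e l (zt phi P (g.bt l P.length) (g.bt (l + 1) P.length))) = some v

def RhoR (g : Geo M) (m : ℕ) (phi : List α → S) (e : ℕ → S → ZMod N × ZMod N)
    (R : ℕ → (∀ j, ZMod (q j)) → S → ZMod N × ZMod N → Option V) (Q : List α) (b : V) : Prop :=
  ∃ i < m, g.G i ∣ Q.length ∧ (∀ j, i < j → j ≤ m → g.A j ≤ Q.length + g.lo i ∧
      (Q.length + g.lo i - g.A j) / g.G j =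
        (Q.length + g.lo i + M * g.G i - 1 - g.A j) / g.G j) ∧
    R i (rs q Q.length) (phi (Q.drop (Q.length - g.ep (i + 1) (Q.length + g.lo i))))
      (∑ l ∈ Ico (i + 1) m, e l (zt phi Q (Q.length - g.ep l (Q.length + g.lo i))
        (Q.length - g.ep (l + 1) (Q.length + g.lo i)))) = some b

theorem sum_split3 {W : Type*} [AddCommGroup W] {m i : ℕ} (hi : i < m) (f : ℕ → W) :
    ∑ k ∈ range i, f k + f i + ∑ k ∈ Ico (i + 1) m, f k = ∑ k ∈ range m, f k := by
  rw [← Finset.sum_range_succ, Finset.sum_range_add_sum_Ico f (by omega : i + 1 ≤ m)]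

/-- the data of a junction inside one cell -/
theorem data_split (g : Geo M) {m : ℕ} {phi : List α → S}
    (e : ℕ → S → ZMod N × ZMod N) {P Q : List α} {i : ℕ} (hi : i < m)
    (h1 : g.lo i ≤ P.length) (h2 : P.length < g.lo i + M * g.G i) (h3 : g.G i ∣ Q.length)
    (h4 : ∀ j, i < j → j ≤ m → g.A j ≤ Q.length + g.lo i ∧
      (Q.length + g.lo i - g.A j) / g.G j =
        (Q.length + g.lo i + M * g.G i - 1 - g.A j) / g.G j) :
    phi (P.take (g.bt i P.length)) = phi ((P ++ Q).take (g.bt i (P ++ Q).length)) ∧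
    (∑ l ∈ range i, e l (zt phi P (g.bt l P.length) (g.bt (l + 1) P.length)) =
      ∑ l ∈ range i, e l (zt phi (P ++ Q) (g.bt l (P ++ Q).length)
        (g.bt (l + 1) (P ++ Q).length))) ∧
    phi (Q.drop (Q.length - g.ep (i + 1) (Q.length + g.lo i))) =
      phi ((P ++ Q).drop (g.bt (i + 1) (P ++ Q).length)) ∧
    (∑ l ∈ Ico (i + 1) m, e l (zt phi Q (Q.length - g.ep l (Q.length + g.lo i))
        (Q.length - g.ep (l + 1) (Q.length + g.lo i))) =
      ∑ l ∈ Ico (i + 1) m, e l (zt phi (P ++ Q) (g.bt l (P ++ Q).length)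
        (g.bt (l + 1) (P ++ Q).length))) ∧
    g.bt i (P ++ Q).length ≤ g.bt (i + 1) (P ++ Q).length := by
  have hlen : (P ++ Q).length = P.length + Q.length := List.length_append
  have hAl : ∀ l, l ≤ i → g.A l ≤ P.length := fun l hl => by
    have h5 := g.alo l
    have h6 := g.lomono hl
    omega
  have hbl : ∀ l, l ≤ i → g.bt l (P ++ Q).length = g.bt l P.length := fun l hl => by
    rw [hlen]
    exact g.bt_left hl (hAl l hl) h3
  have hbP : ∀ l, l ≤ i → g.bt l P.length ≤ P.length := fun l hl => by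
    have h5 := g.bt_lt_lo l P.length
    have h6 := g.lomono hl
    omega
  have hbr : ∀ j, i < j → j ≤ m → g.bt j (P ++ Q).length =
      P.length + (Q.length - g.ep j (Q.length + g.lo i)) := fun j hj hj' => by
    obtain ⟨h5, h6⟩ := h4 j hj hj'
    have h7 := g.ep_right (j := j) h1 h2 h6
    have h8 : g.A j ≤ P.length + Q.length := by omega
    have h9 := g.bt_add_ep h8
    have h10 := g.ep_le (n' := Q.length) hj
    rw [hlen]
    rw [h7] at h9
    omega
  refine ⟨?_, ?_, ?_, ?_, ?_⟩
  · rw [hbl i le_rfl, List.take_append_of_le_length (hbP i le_rfl)]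
  · apply Finset.sum_congr rfl
    intro l hl
    rw [Finset.mem_range] at hl
    rw [hbl l (by omega), hbl (l + 1) (by omega), zt_left phi (hbP (l + 1) (by omega))]
  · rw [hbr (i + 1) (by omega) (by omega), drop_add]
  · apply Finset.sum_congr rfl
    intro l hl
    rw [Finset.mem_Ico] at hl
    rw [hbr l (by omega) (by omega), hbr (l + 1) (by omega) (by omega), zt_right]
  · rw [hbl i le_rfl, hbr (i + 1) (by omega) (by omega)]
    have := hbP i le_rfl
    omega

theorem rs_add (q : Fin k → ℕ) (a b : ℕ) : rs q (a + b) = rs q a + rs q b := by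
  funext j
  simp [rs]

/-- the noise of a word -/
def nuR (g : Geo M) (m : ℕ) (phi : List α → S) (e : ℕ → S → ZMod N × ZMod N)
    (D : (∀ j, ZMod (q j)) → S → ZMod N × ZMod N → V) (u : List α) : V :=
  D (rs q u.length) (phi u) (WW g m phi e u)

/-- soundness: no hypothesis on the words -/
theorem sound (g : Geo M) {m : ℕ} {phi : List α → S} (hphi : ∀ u v, phi (u ++ v) = phi u * phi v)
    (e : ℕ → S → ZMod N × ZMod N) (act : V → S → V)
    {L R : ℕ → (∀ j, ZMod (q j)) → S → ZMod N × ZMod N → Option V}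
    {D : (∀ j, ZMod (q j)) → S → ZMod N × ZMod N → V}
    (hs : ∀ (i i' : ℕ) (t t' : ∀ j, ZMod (q j)) (g h s : S) (wl wr w : ZMod N × ZMod N) (v b : V),
          (i = i' → ∃ z, g * z * h = s ∧ wl + e i z + wr = w) →
          L i t g wl = some v → R i' t' h wr = some b → b = act v s + D (t + t') s w)
    {P Q : List α} {v b : V} (hL : LamR g m phi e L P v) (hR : RhoR g m phi e R Q b) :
    b = act v (phi (P ++ Q)) + nuR g m phi e D (P ++ Q) := by
  obtain ⟨i, hi, h1, h2, h3⟩ := hL
  obtain ⟨i', hi', h4, h5, h6⟩ := hR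
  have h7 := hs i i' _ _ _ _ (phi (P ++ Q)) _ _ (WW g m phi e (P ++ Q)) v b ?_ h3 h6
  · rw [h7]
    unfold nuR
    rw [List.length_append, rs_add]
  · rintro rfl
    obtain ⟨e1, e2, e3, e4, e5⟩ := data_split g (phi := phi) e hi h1 h2 h4 h5
    refine ⟨zt phi (P ++ Q) (g.bt i (P ++ Q).length) (g.bt (i + 1) (P ++ Q).length), ?_, ?_⟩
    · rw [e1, e3]
      exact zt_split hphi _ e5
    · rw [e2, e4]
      exact sum_split3 hi (fun l => e l (zt phi (P ++ Q) (g.bt l (P ++ Q).length)
        (g.bt (l + 1) (P ++ Q).length)))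

/-- completeness off the thin set of lengths -/
theorem complete (g : Geo M) {m : ℕ} {phi : List α → S}
    (hphi : ∀ u v, phi (u ++ v) = phi u * phi v) (e : ℕ → S → ZMod N × ZMod N)
    {L R : ℕ → (∀ j, ZMod (q j)) → S → ZMod N × ZMod N → Option V}
    (hc : ∀ T : ∀ j, ZMod (q j), (∀ j, T j ≠ 0) → ∀ (s : S) (w : ZMod N × ZMod N) (v : V),
          ∃ i < m, ∀ (g z h : S) (wl wr : ZMod N × ZMod N), g * z * h = s →
            wl + e i z + wr = w → ∃ t t', t + t' = T ∧ L i t g wl = some v ∧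
              (R i t' h wr).isSome = true)
    (hM : M = ∏ j, q j) (hq : ∀ j, 0 < q j)
    (hcop : Pairwise (fun i j => Nat.Coprime (q i) (q j)))
    (hG : ∀ i j, Nat.Coprime (g.G i) (q j)) {u : List α}
    (hu : g.A m + M * g.G m ≤ u.length) (hT : ∀ j, ¬ q j ∣ u.length)
    (hgrid : ∀ j, 1 ≤ j → j ≤ m → M * g.G (j - 1) ≤ (u.length - g.A j) % g.G j ∧
      (u.length - g.A j) % g.G j + M * g.G (j - 1) ≤ g.G j) (v : V) :
    ∃ P Q, u = P ++ Q ∧ LamR g m phi e L P v ∧ ∃ b, RhoR g m phi e R Q b := by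
  obtain ⟨i, hi, hx⟩ := hc (rs q u.length) (fun j hj => hT j ((ZMod.natCast_eq_zero_iff _ _).1 hj))
    (phi u) (WW g m phi e u) v
  have hAm : ∀ j, j ≤ m → g.A j ≤ g.A m := fun j hj => g.Amono hj
  have hloi : g.lo i + M * g.G i ≤ g.A m := g.hi_le hi
  have hGle : ∀ a b, a ≤ b → g.G a ≤ g.G b := fun a b hab => Nat.le_of_dvd (g.Gpos b) (g.Gdvd a b hab)
  have hMpos : 0 < M := by rw [hM]; exact Finset.prod_pos (fun j _ => hq j)
  set T := u.length with hTdef
  have hGm : M * g.G i ≤ M * g.G m := Nat.mul_le_mul_left _ (hGle i m hi.le)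
  have hGi1 : g.G i ≤ M * g.G i := Nat.le_mul_of_pos_left _ hMpos
  -- the boundaries of the level
  have hbb : g.bt i T ≤ g.bt (i + 1) T := by
    have h1 := g.bt_lt_lo i T
    have h2 := g.le_bt (i + 1) T
    have h3 := g.loA i
    omega
  obtain ⟨t, t', htt, hLt, hRt⟩ := hx (phi (u.take (g.bt i T)))
    (zt phi u (g.bt i T) (g.bt (i + 1) T)) (phi (u.drop (g.bt (i + 1) T)))
    (∑ l ∈ range i, e l (zt phi u (g.bt l T) (g.bt (l + 1) T)))
    (∑ l ∈ Ico (i + 1) m, e l (zt phi u (g.bt l T) (g.bt (l + 1) T)))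
    (zt_split hphi u hbb)
    (sum_split3 hi (fun l => e l (zt phi u (g.bt l T) (g.bt (l + 1) T))))
  -- the cut place
  set base := g.lo i + (T - g.lo i) % g.G i with hbase
  have hbase2 : base < g.lo i + g.G i := by
    have := Nat.mod_lt (T - g.lo i) (g.Gpos i)
    omega
  obtain ⟨om, -, hom, homj⟩ := crt_hit q hq hcop
    (fun j => ((g.G i : ℕ) : ZMod (q j))⁻¹ * (t j - (base : ZMod (q j)))) 0
  rw [zero_add, ← hM] at hom
  set o := base + g.G i * om with ho
  have ho1 : g.lo i ≤ o := by omega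
  have ho2 : o < g.lo i + M * g.G i := by
    have h1 : g.G i * (om + 1) ≤ g.G i * M := Nat.mul_le_mul_left _ hom
    rw [Nat.mul_comm (g.G i) M, Nat.mul_add, Nat.mul_one] at h1
    omega
  have hoT : o ≤ T := by omega
  have hores : ∀ j, (o : ZMod (q j)) = t j := by
    intro j
    rw [ho, Nat.cast_add, Nat.cast_mul, homj j, ← mul_assoc,
      ZMod.coe_mul_inv_eq_one _ (hG i j), one_mul]
    ring
  have hPl : (u.take o).length = o := by rw [List.length_take]; omega
  have hQl : (u.drop o).length = T - o := by rw [List.length_drop]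
  have hPQ : u.take o ++ u.drop o = u := List.take_append_drop _ _
  have hdvd : g.G i ∣ (u.drop o).length := by
    rw [hQl]
    have h1 := Nat.mod_add_div (T - g.lo i) (g.G i)
    refine ⟨(T - g.lo i) / g.G i - om, ?_⟩
    rw [Nat.mul_sub]
    omega
  have hright : ∀ j, i < j → j ≤ m → g.A j ≤ (u.drop o).length + g.lo i ∧
      ((u.drop o).length + g.lo i - g.A j) / g.G j =
        ((u.drop o).length + g.lo i + M * g.G i - 1 - g.A j) / g.G j := by
    intro j hj hj'
    obtain ⟨h1, h2⟩ := hgrid j (by omega) hj'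
    have h3 : M * g.G i ≤ M * g.G (j - 1) := Nat.mul_le_mul_left _ (hGle i (j - 1) (by omega))
    have h4 := Nat.mod_add_div (T - g.A j) (g.G j)
    have h5 := hAm j hj'
    set r := (T - g.A j) % g.G j
    set K := (T - g.A j) / g.G j
    rw [hQl]
    refine ⟨by omega, ?_⟩
    have e1 : T - o + g.lo i - g.A j = g.G j * K + (r - (o - g.lo i)) := by omega
    have e2 : T - o + g.lo i + M * g.G i - 1 - g.A j =
        g.G j * K + (r + (M * g.G i - 1 - (o - g.lo i))) := by omega
    rw [e1, e2, Nat.mul_add_div (g.Gpos j), Nat.mul_add_div (g.Gpos j),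
      Nat.div_eq_of_lt (by omega), Nat.div_eq_of_lt (by omega)]
  have hds := data_split g (phi := phi) e hi (P := u.take o) (Q := u.drop o) (by omega)
    (by omega) hdvd hright
  rw [hPQ] at hds
  obtain ⟨e1, e2, e3, e4, e5⟩ := hds
  refine ⟨u.take o, u.drop o, hPQ.symm, ⟨i, hi, by omega, by omega, ?_⟩, ?_⟩
  · rw [e1, e2]
    have : rs q (u.take o).length = t := by
      funext j
      unfold rs
      rw [hPl]
      exact hores j
    rw [this]
    exact hLt
  · obtain ⟨b, hb⟩ := Option.isSome_iff_exists.1 hRt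
    refine ⟨b, i, hi, hdvd, hright, ?_⟩
    rw [e3, e4]
    have : rs q (u.drop o).length = t' := by
      have h6 : rs q T = rs q o + rs q (u.drop o).length := by
        rw [← rs_add, hQl]
        congr 1
        omega
      have h7 : rs q o = t := by
        funext j
        exact hores j
      rw [h7, ← htt] at h6
      exact (add_left_cancel h6).symm
    rw [this]
    exact hb

end Words

end Crest.Agent.R320.GridU_323
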