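import Mathlib
import Crest.Agent.R320.UG2_809

/-!
Row 320: helper693's grid gadget (post 13203) on words, with the finite-state clause.
-/

set_option autoImplicit false

namespace Crest.Agent.R320.GridU_809

/-- geometry of the grid -/
structure Geo where
  m : ℕ
  M : ℕ
  G : ℕ → ℕ
  Am : ℕ → ℕ
  hM : 0 < M
  hG : ∀ j, 0 < G j
  hdvd : ∀ j, G j ∣ G (j + 1)
  hA : ∀ j, Am (j + 1) = Am j + G j + M * G j

namespace Geo

variable (P : Geo)

theorem dvd_of_le {i j : ℕ} (h : i ≤ j) : P.G i ∣ P.G j := by
  induction j, h using Nat.le_induction with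
  | base => exact dvd_rfl
  | succ j _ ih => exact ih.trans (P.hdvd j)

theorem Am_le {i j : ℕ} (h : i ≤ j) : P.Am i ≤ P.Am j := by
  induction j, h using Nat.le_induction with
  | base => exact le_rfl
  | succ j _ ih => rw [P.hA j]; omega

/-- cells of different levels are disjoint -/
theorem cell_le {i j : ℕ} (h : i < j) : P.Am i + P.G i + P.M * P.G i ≤ P.Am j := by
  have := P.Am_le (Nat.succ_le_of_lt h)
  rw [P.hA i] at this
  exact this

/-- the end of hole `j` in a zone of length `T` -/
def be (T j : ℕ) : ℕ := P.Am j + (T - P.Am j) % P.G j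

theorem le_be (T j : ℕ) : P.Am j ≤ P.be T j := Nat.le_add_right _ _

theorem be_lt (T j : ℕ) : P.be T j < P.Am j + P.G j :=
  Nat.add_lt_add_left (Nat.mod_lt _ (P.hG j)) _

theorem be_lt_cell (T : ℕ) {i j : ℕ} (h : i < j) : P.be T i < P.Am j := by
  have := P.be_lt T i
  have := P.cell_le h
  have : 0 ≤ P.M * P.G i := Nat.zero_le _
  omega

theorem be_mono (T : ℕ) {i j : ℕ} (h : i ≤ j) : P.be T i ≤ P.be T j := by
  rcases Nat.lt_or_ge i j with h1 | h1
  · exact (P.be_lt_cell T h1).le.trans (P.le_be T j)
  · have : i = j := by omega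
    rw [this]

theorem be_congr {T T' j : ℕ} (h1 : P.Am j ≤ T) (h2 : P.Am j ≤ T') (h : T ≡ T' [MOD P.G j]) :
    P.be T j = P.be T' j := by
  unfold be
  congr 1
  obtain ⟨a, rfl⟩ := Nat.exists_eq_add_of_le h1
  obtain ⟨b, rfl⟩ := Nat.exists_eq_add_of_le h2
  rw [Nat.add_sub_cancel_left, Nat.add_sub_cancel_left]
  exact Nat.ModEq.add_left_cancel' _ h

/-- shifting a zone inside the clean range -/
theorem be_shift {T T' j : ℕ} (d : ℕ) (h1 : P.Am j ≤ T)
    (hlo : T' = T + d ∨ T = T' + d)
    (h2 : d ≤ (T - P.Am j) % P.G j) (h3 : (T - P.Am j) % P.G j + d < P.G j) :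
    P.be T' j + T = P.be T j + T' := by
  unfold be
  obtain ⟨a, rfl⟩ := Nat.exists_eq_add_of_le h1
  rw [Nat.add_sub_cancel_left] at h2 h3 ⊢
  have hda := Nat.div_add_mod a (P.G j)
  rcases hlo with rfl | h
  · have e : P.Am j + a + d - P.Am j = a + d := by omega
    rw [e]
    have e2 : (a + d) % P.G j = a % P.G j + d := by
      rw [← Nat.mod_eq_of_lt h3, Nat.add_mod, Nat.mod_eq_of_lt (show d < P.G j by omega)]
    rw [e2]; omega
  · have e : T' - P.Am j = a - d := by omega
    have hd : d ≤ a := h2.trans (Nat.mod_le _ _)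
    rw [e]
    have e2 : (a - d) % P.G j = a % P.G j - d := by
      have : a - d = (a % P.G j - d) + P.G j * (a / P.G j) := by omega
      rw [this, Nat.add_mul_mod_self_left, Nat.mod_eq_of_lt (by omega)]
    rw [e2]; omega

end Geo

section words

variable {A S : Type*} [Monoid S]

/-- value of a word -/
def ph (f : A → S) (w : List A) : S := (w.map f).prod

theorem ph_append (f : A → S) (u v : List A) : ph f (u ++ v) = ph f u * ph f v := by
  simp [ph]

/-- the part between two places -/
def sg (f : A → S) (w : List A) (a b : ℕ) : S := ph f ((w.take b).drop a)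

theorem ph_take_sg (f : A → S) (w : List A) {a b : ℕ} (h : a ≤ b) :
    ph f (w.take a) * sg f w a b = ph f (w.take b) := by
  unfold sg
  rw [← ph_append]
  congr 1
  have h1 : w.take a = (w.take b).take a := by rw [List.take_take, min_eq_left h]
  rw [h1, List.take_append_drop]

theorem sg_ph_drop (f : A → S) (w : List A) {a b : ℕ} (h : a ≤ b) :
    sg f w a b * ph f (w.drop b) = ph f (w.drop a) := by
  unfold sg
  rw [← ph_append]
  congr 1
  rcases Nat.le_total b w.length with hb | hb
  · rw [← List.drop_append_of_le_length (by rw [List.length_take]; omega), List.take_append_drop]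
  · rw [List.drop_of_length_le hb, List.take_of_length_le hb, List.append_nil]

theorem sg_left (f : A → S) (p q : List A) {a b : ℕ} (h : b ≤ p.length) :
    sg f (p ++ q) a b = sg f p a b := by
  unfold sg
  rw [List.take_append_of_le_length h]

theorem sg_right (f : A → S) (p q : List A) {a b : ℕ} :
    sg f (p ++ q) (p.length + a) (p.length + b) = sg f q a b := by
  unfold sg
  congr 1
  rw [List.take_append, List.drop_append]
  simp [List.take_of_length_le]

theorem drop_right (p q : List A) (a : ℕ) : (p ++ q).drop (p.length + a) = q.drop a := by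
  rw [List.drop_append]
  simp

variable (P : Geo) (f : A → S)

/-- contents of the zone `w` read with the hole ends of a zone of length `T` -/
def cs (T : ℕ) (w : List A) (l : List ℕ) : List S :=
  l.map fun j => sg f w (P.be T j) (P.be T (j + 1))

theorem prod_cs_range (T : ℕ) (w : List A) (k : ℕ) :
    ph f (w.take (P.be T 0)) * (cs P f T w (List.range k)).prod = ph f (w.take (P.be T k)) := by
  induction k with
  | zero => simp [cs]
  | succ k ih =>
    have : cs P f T w (List.range (k + 1)) = cs P f T w (List.range k) ++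
        [sg f w (P.be T k) (P.be T (k + 1))] := by
      simp [cs, List.range_succ]
    rw [this, List.prod_append, List.prod_singleton, ← mul_assoc, ih,
      ph_take_sg f w (P.be_mono T (Nat.le_succ k))]

/-- the tail contents -/
theorem prod_cs_tail (T : ℕ) (w : List A) (m i : ℕ) (h : i ≤ m) :
    (cs P f T w ((List.range m).drop i)).prod * ph f (w.drop (P.be T m))
      = ph f (w.drop (P.be T i)) := by
  induction m, h using Nat.le_induction with
  | base =>
    have : (List.range i).drop i = [] := by
      apply List.drop_of_length_le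
      simp
    rw [this]; simp [cs]
  | succ m hm ih =>
    have : cs P f T w ((List.range (m + 1)).drop i) = cs P f T w ((List.range m).drop i) ++
        [sg f w (P.be T m) (P.be T (m + 1))] := by
      rw [List.range_succ, List.drop_append_of_le_length (by simpa using hm)]
      simp [cs]
    rw [this, List.prod_append, List.prod_singleton, mul_assoc,
      sg_ph_drop f w (P.be_mono T (Nat.le_succ m)), ih]

/-- place (in the right word) of hole end `j`, for a right word of length `n` at level `i` -/
def st (i j n : ℕ) : ℕ := P.be (P.Am i + P.G i + n) j - (P.Am i + P.G i)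

/-- the right word of length `n` knows the hole ends `> i` at level `i` -/
def Kn (i n : ℕ) : Prop :=
  ∀ o, P.Am i + P.G i ≤ o → o < P.Am i + P.G i + P.M * P.G i → ∀ j, i < j → j ≤ P.m →
    P.be (o + n) j = o + st P i j n

open Classical in
/-- the right view -/
noncomputable def vw (q : List A) (i : ℕ) : Option (List S × S) :=
  if P.G i ∣ q.length ∧ Kn P i q.length then
    some (((List.range P.m).drop (i + 1)).map fun j =>
        sg f q (st P i j q.length) (st P i (j + 1) q.length),
      ph f (q.drop (st P i P.m q.length)))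
  else none

variable {P f}

theorem mem_drop_range {m i j : ℕ} (h : j ∈ (List.range m).drop i) : i ≤ j ∧ j < m := by
  rw [List.mem_iff_getElem] at h
  obtain ⟨k, hk, rfl⟩ := h
  rw [List.length_drop, List.length_range] at hk
  rw [List.getElem_drop, List.getElem_range]
  omega

theorem vw_eq {p q : List A} {i : ℕ} (hi : i < P.m) (h1 : P.Am i + P.G i ≤ p.length)
    (h2 : p.length < P.Am i + P.G i + P.M * P.G i) {x : List S × S} (h : vw P f q i = some x) :
    x = (cs P f (p ++ q).length (p ++ q) ((List.range P.m).drop (i + 1)),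
      ph f ((p ++ q).drop (P.be (p ++ q).length P.m))) := by
  unfold vw at h
  split_ifs at h with hc
  obtain ⟨hc1, hc2⟩ := hc
  rw [Option.some.injEq] at h
  rw [← h]
  have key : ∀ j, i < j → j ≤ P.m → P.be (p ++ q).length j = p.length + st P i j q.length := by
    intro j h3 h4
    rw [List.length_append]
    exact hc2 p.length h1 h2 j h3 h4
  congr 1
  · unfold cs
    apply List.map_congr_left
    intro j hj
    obtain ⟨h3, h4⟩ := mem_drop_range hj
    rw [key j (by omega) h4.le, key (j + 1) (by omega) (by omega), sg_right]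
  · rw [key P.m hi le_rfl, drop_right]

theorem per_congr {X : Type*} {g : ℕ → X} {M : ℕ} (h : ∀ t, g (t + M) = g t) {t t' : ℕ}
    (ht : t ≡ t' [MOD M]) : g t = g t' := by
  have hp : Function.Periodic g M := h
  rw [← hp.map_mod_nat t, ← hp.map_mod_nat t', ht]

theorem window (N c a : ℕ) (hN : 0 < N) : ∃ o, c ≤ o ∧ o < c + N ∧ o ≡ a [MOD N] := by
  refine ⟨c + (a + c * (N - 1)) % N, Nat.le_add_right _ _,
    Nat.add_lt_add_left (Nat.mod_lt _ hN) _, ?_⟩
  have h1 : c + (a + c * (N - 1)) % N ≡ c + (a + c * (N - 1)) [MOD N] :=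
    Nat.ModEq.add_left _ (Nat.mod_modEq _ _)
  refine h1.trans ?_
  have h2 : c + (a + c * (N - 1)) = a + c * N := by
    obtain ⟨n, rfl⟩ := Nat.exists_eq_succ_of_ne_zero hN.ne'
    simp only [Nat.succ_sub_one]
    rw [Nat.mul_succ]; omega
  rw [h2]
  show (a + c * N) % N = a % N
  exact Nat.add_mul_mod_self_right _ _ _

theorem crt_window {M G c t T : ℕ} (hM : 0 < M) (hG : 0 < G) (hc : Nat.Coprime M G) :
    ∃ o, c ≤ o ∧ o < c + M * G ∧ o ≡ t [MOD M] ∧ o ≡ T [MOD G] := by
  obtain ⟨a, ha1, ha2⟩ := Nat.chineseRemainder hc t T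
  obtain ⟨o, h1, h2, h3⟩ := window (M * G) c a (Nat.mul_pos hM hG)
  refine ⟨o, h1, h2, ?_, ?_⟩
  · exact (h3.of_mul_right G).trans ha1
  · exact (h3.of_mul_left M).trans ha2

/-- left relation -/
def LamRel {V : Type*} (P : Geo) (f : A → S) (L : ℕ → S → List S → ℕ → Option V) (p : List A)
    (v : V) : Prop :=
  ∃ i, i < P.m ∧ P.Am i + P.G i ≤ p.length ∧ p.length < P.Am i + P.G i + P.M * P.G i ∧
    L i (ph f (p.take (P.be p.length 0))) (cs P f p.length p (List.range i)) p.length = some v

theorem LamRel.unique {V : Type*} {L : ℕ → S → List S → ℕ → Option V} {p : List A} {v v' : V}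
    (h : LamRel P f L p v) (h' : LamRel P f L p v') : v = v' := by
  obtain ⟨i, h1, h2, h3, h4⟩ := h
  obtain ⟨i', h1', h2', h3', h4'⟩ := h'
  have hii : i = i' := by
    rcases lt_trichotomy i i' with hlt | heq | hgt
    · have := P.cell_le hlt; omega
    · exact heq
    · have := P.cell_le hgt; omega
  subst hii
  rw [h4] at h4'
  exact Option.some.inj h4'

open Classical in
/-- left label -/
noncomputable def lamF {V : Type*} (P : Geo) (f : A → S) (L : ℕ → S → List S → ℕ → Option V)
    (p : List A) : Option V :=
  if h : ∃ v, LamRel P f L p v then some h.choose else none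

theorem lamF_iff {V : Type*} {L : ℕ → S → List S → ℕ → Option V} {p : List A} {v : V} :
    lamF P f L p = some v ↔ LamRel P f L p v := by
  unfold lamF
  constructor
  · intro h
    split_ifs at h with hc
    rw [← Option.some.inj h]
    exact hc.choose_spec
  · intro h
    have hc : ∃ v, LamRel P f L p v := ⟨v, h⟩
    rw [dif_pos hc]
    exact congrArg some (hc.choose_spec.unique h)

theorem cs_congr {T T' : ℕ} {w w' : List A} {l : List ℕ}
    (h : ∀ j ∈ l, sg f w (P.be T j) (P.be T (j + 1)) = sg f w' (P.be T' j) (P.be T' (j + 1))) :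
    cs P f T w l = cs P f T' w' l := List.map_congr_left h

/-- the left word knows its contents -/
theorem left_know {p q : List A} {i : ℕ} (h1 : P.Am i + P.G i ≤ p.length)
    (hd : P.G i ∣ q.length) :
    ph f ((p ++ q).take (P.be (p ++ q).length 0)) = ph f (p.take (P.be p.length 0)) ∧
    cs P f (p ++ q).length (p ++ q) (List.range i) = cs P f p.length p (List.range i) ∧
    P.be (p ++ q).length i = P.be p.length i := by
  have hbe : ∀ j, j ≤ i → P.be (p ++ q).length j = P.be p.length j := by
    intro j hj
    have hA := P.Am_le hj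
    rw [List.length_append]
    apply P.be_congr (by omega) (by omega)
    obtain ⟨k, hk⟩ := (P.dvd_of_le hj).trans hd
    rw [hk]
    show (p.length + P.G j * k) % P.G j = p.length % P.G j
    exact Nat.add_mul_mod_self_left _ _ _
  have hle : ∀ j, j ≤ i → P.be p.length j ≤ p.length := by
    intro j hj
    have := P.be_mono p.length hj
    have := P.be_lt p.length i
    omega
  refine ⟨?_, ?_, hbe i le_rfl⟩
  · rw [hbe 0 (Nat.zero_le _), List.take_append_of_le_length (hle 0 (Nat.zero_le _))]
  · apply cs_congr
    intro j hj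
    rw [List.mem_range] at hj
    rw [hbe j (by omega), hbe (j + 1) (by omega), sg_left f p q (hle (j + 1) (by omega))]

theorem cs_split (T : ℕ) (w : List A) {i m : ℕ} (hi : i < m) :
    cs P f T w (List.range m) = cs P f T w (List.range i) ++
      sg f w (P.be T i) (P.be T (i + 1)) :: cs P f T w ((List.range m).drop (i + 1)) := by
  have h : List.range m = List.range i ++ i :: (List.range m).drop (i + 1) := by
    conv_lhs => rw [← List.take_append_drop i (List.range m)]
    congr 1
    · rw [List.take_range, min_eq_left hi.le]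
    · rw [List.drop_eq_getElem_cons (by simpa using hi)]
      simp
  conv_lhs => rw [h]
  simp [cs]

theorem kn_of_clean {T o i : ℕ} (hi : i < P.m) (h1 : P.Am i + P.G i ≤ o)
    (h2 : o < P.Am i + P.G i + P.M * P.G i) (hT : P.Am P.m ≤ T) (hoT : o ≤ T)
    (hcl : ∀ j, 1 ≤ j → j ≤ P.m → P.M * P.G (j - 1) ≤ (T - P.Am j) % P.G j ∧
      (T - P.Am j) % P.G j + P.M * P.G (j - 1) ≤ P.G j) : Kn P i (T - o) := by
  intro o1 ho1 ho2 j hj hjm
  obtain ⟨c1, c2⟩ := hcl j (by omega) hjm
  have hAj := P.Am_le hjm
  have hcell := P.cell_le hj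
  have hG : P.M * P.G i ≤ P.M * P.G (j - 1) :=
    Nat.mul_le_mul_left _ (Nat.le_of_dvd (P.hG _) (P.dvd_of_le (by omega)))
  have key : ∀ o2, P.Am i + P.G i ≤ o2 → o2 < P.Am i + P.G i + P.M * P.G i →
      P.be (o2 + (T - o)) j + T = P.be T j + (o2 + (T - o)) := by
    intro o2 a1 a2
    rcases Nat.le_total o o2 with h | h
    · exact P.be_shift (o2 - o) (by omega) (Or.inl (by omega)) (by omega) (by omega)
    · exact P.be_shift (o - o2) (by omega) (Or.inr (by omega)) (by omega) (by omega)
  have k1 := key o1 ho1 ho2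
  have hMG : 0 < P.M * P.G i := Nat.mul_pos P.hM (P.hG i)
  have k2 := key (P.Am i + P.G i) le_rfl (by omega)
  have hb := P.le_be (P.Am i + P.G i + (T - o)) j
  unfold st
  omega

end words

end Crest.Agent.R320.GridU_809
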