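import Mathlib
import Crest.Agent.R320.GridU_809

/-!
Row 320: the grid gadget on words, closed form with the finite-state clause.
-/

set_option autoImplicit false

namespace Crest.Agent.R320.GridV_809

open Crest.Agent.R320.GridU_809

theorem sg_ext {A S : Type*} [Monoid S] (f : A → S) {q q' : List A} {La a b : ℕ}
    (h : q.take La = q'.take La) (hb : b ≤ La) : sg f q a b = sg f q' a b := by
  unfold sg
  have e1 : q.take b = (q.take La).take b := by rw [List.take_take, min_eq_left hb]
  have e2 : q'.take b = (q'.take La).take b := by rw [List.take_take, min_eq_left hb]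
  rw [e1, e2, h]

theorem ph_drop_ext {A S : Type*} [Monoid S] (f : A → S) {q q' : List A} {La a : ℕ}
    (h : q.take La = q'.take La) (h2 : ph f (q.drop La) = ph f (q'.drop La)) (ha : a ≤ La) :
    ph f (q.drop a) = ph f (q'.drop a) := by
  rw [← sg_ph_drop f q ha, ← sg_ph_drop f q' ha, sg_ext f h le_rfl, h2]

theorem ph_take_ext {A S : Type*} [Monoid S] (f : A → S) {q q' : List A} {La a : ℕ}
    (h : q.take La = q'.take La) (ha : a ≤ La) : ph f (q.take a) = ph f (q'.take a) := by
  have e1 : q.take a = (q.take La).take a := by rw [List.take_take, min_eq_left ha]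
  have e2 : q'.take a = (q'.take La).take a := by rw [List.take_take, min_eq_left ha]
  rw [e1, e2, h]

/-- **The grid gadget** (helper693, post 13203). -/
theorem grid (S V : Type*) [Monoid S] [Finite S] [AddCommGroup V] [Finite V] (act : V → S → V) :
    ∃ (m r : ℕ), 0 < m ∧ ∀ Bd : ℕ, ∃ Ms : Finset ℕ, Ms.card ≤ r ∧
      (∀ p ∈ Ms, p.Prime ∧ Bd < p) ∧
      ∀ (P : Geo), P.m = m → P.M = ∏ p ∈ Ms, p → (∀ j, Nat.Coprime (P.G j) P.M) →
      ∀ {A : Type*} (f : A → S),
      ∃ (lam rho : List A → Option V) (nu : List A → V),
        (∀ p v, lam p = some v → p.length < P.Am P.m) ∧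
        (∀ p q v b, lam p = some v → rho q = some b →
          b = act v (ph f (p ++ q)) + nu (p ++ q)) ∧
        (∀ u : List A, P.Am P.m ≤ u.length → (∀ p ∈ Ms, ¬ p ∣ u.length) →
          (∀ j, 1 ≤ j → j ≤ P.m → P.M * P.G (j - 1) ≤ (u.length - P.Am j) % P.G j ∧
            (u.length - P.Am j) % P.G j + P.M * P.G (j - 1) ≤ P.G j) →
          ∀ v, ∃ p q b, p ++ q = u ∧ lam p = some v ∧ rho q = some b) ∧
        (∀ q q' : List A, P.Am P.m + P.G P.m ≤ q.length → P.Am P.m + P.G P.m ≤ q'.length →
          q.take (P.Am P.m + P.G P.m) = q'.take (P.Am P.m + P.G P.m) →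
          q.length ≡ q'.length [MOD P.M * P.G P.m] →
          ph f (q.drop (P.Am P.m + P.G P.m)) = ph f (q'.drop (P.Am P.m + P.G P.m)) →
          rho q = rho q' ∧ nu q = nu q') := by
  classical
  obtain ⟨m, r, hm, hmain⟩ := UG2_809.ugadget2 S V act
  refine ⟨m, r, hm, fun Bd => ?_⟩
  obtain ⟨Ms, L, R, D, hcard, hp, hLper, hRper, hRloc, hsound, hbad, hcomp⟩ := hmain Bd
  refine ⟨Ms, hcard, hp, fun P hPm hPM hcop A f => ?_⟩
  subst hPm
  rw [← hPM] at hLper hRper hcomp
  have hMpos := P.hM
  have hpM : ∀ p ∈ Ms, p ∣ P.M := by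
    intro p hp1
    rw [hPM]
    exact Finset.dvd_prod_of_mem (fun p => p) hp1
  let D' : ℕ → S → List S → S → V := fun T => D (T % P.M + P.M)
  have hdvd1 : ∀ T, ∀ p ∈ Ms, (p ∣ T % P.M + P.M ↔ p ∣ T) := by
    intro T p hp1
    rw [Nat.dvd_add_left (hpM p hp1), Nat.dvd_mod_iff (hpM p hp1)]
  -- soundness with the periodic noise
  have hsound' : ∀ (t t' : ℕ) (x : S) (zl : List S) (z : S) (zr : List S) (y : S)
      (vw : ℕ → Option (List S × S)) (v b : V), (zl ++ z :: zr).length = P.m →
      (∀ q, vw zl.length = some q → q = (zr, y)) →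
      L zl.length x zl t = some v → R vw t' = some b →
      b = act v (x * zl.prod * z * (zr.prod * y)) + D' (t + t') x (zl ++ z :: zr) y ∧
        ((∀ p ∈ Ms, ¬ p ∣ t + t') → (vw zl.length).isSome) := by
    intro t t' x zl z zr y vw v b h1 h2 h3 h4
    have hlt : t % P.M < P.M := Nat.mod_lt _ hMpos
    have e1 : L zl.length x zl (t % P.M) = some v := by
      rw [← h3]
      exact per_congr (g := fun t => L zl.length x zl t) (hLper _ _ _) (Nat.mod_modEq _ _)
    have e2 : R vw ((t + t') % P.M + P.M - t % P.M) = some b := by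
      rw [← h4]
      apply per_congr (g := fun t => R vw t) (hRper _)
      have a1 : (t + t') % P.M + P.M - t % P.M + t % P.M ≡ t' + t [MOD P.M] := by
        have : (t + t') % P.M + P.M - t % P.M + t % P.M = (t + t') % P.M + P.M := by omega
        rw [this, Nat.add_comm t' t]
        show ((t + t') % P.M + P.M) % P.M = (t + t') % P.M
        rw [Nat.add_mod_right, Nat.mod_mod]
      exact Nat.ModEq.add_right_cancel (Nat.mod_modEq t P.M) a1
    have e3 : t % P.M + ((t + t') % P.M + P.M - t % P.M) = (t + t') % P.M + P.M := by omega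
    have := hsound (t % P.M) ((t + t') % P.M + P.M - t % P.M) x zl z zr y vw v b h1 h2 e1 e2
    rw [e3] at this
    refine ⟨this.1, fun hn => this.2 fun p hp1 hd => hn p hp1 ((hdvd1 _ p hp1).1 hd)⟩
  have hbad' : ∀ (T : ℕ) (x y x' y' : S) (zs zs' : List S), (∃ p ∈ Ms, p ∣ T) →
      x * zs.prod * y = x' * zs'.prod * y' → D' T x zs y = D' T x' zs' y' := by
    rintro T x y x' y' zs zs' ⟨p, hp1, hp2⟩ h
    exact hbad _ x y x' y' zs zs' ⟨p, hp1, (hdvd1 T p hp1).2 hp2⟩ h
  refine ⟨lamF P f L, fun q => R (vw P f q) q.length,
    fun w => D' w.length (ph f (w.take (P.be w.length 0)))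
      (cs P f w.length w (List.range P.m)) (ph f (w.drop (P.be w.length P.m))), ?_, ?_, ?_, ?_⟩
  · -- length of left words
    intro p v h
    obtain ⟨i, h1, h2, h3, h4⟩ := lamF_iff.1 h
    have := P.cell_le h1
    omega
  · -- soundness
    intro p q v b hl hr
    obtain ⟨i, h1, h2, h3, h4⟩ := lamF_iff.1 hl
    set u := p ++ q with hu
    set T := u.length with hT
    have hTl : T = p.length + q.length := by rw [hT, hu, List.length_append]
    have hzl : (cs P f p.length p (List.range i)).length = i := by simp [cs]
    have hbi := P.be_lt p.length i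
    have hbT := P.le_be T (i + 1)
    have hci := P.cell_le (Nat.lt_succ_self i)
    have hmid : P.be p.length i ≤ P.be T (i + 1) := by
      have h0 : 0 ≤ P.M * P.G i := Nat.zero_le _
      have : P.Am i + P.G i ≤ P.Am (i + 1) := by
        have := P.hA i
        omega
      omega
    obtain ⟨g1, g2⟩ := hsound' p.length q.length (ph f (p.take (P.be p.length 0)))
      (cs P f p.length p (List.range i)) (sg f u (P.be p.length i) (P.be T (i + 1)))
      (cs P f T u ((List.range P.m).drop (i + 1))) (ph f (u.drop (P.be T P.m)))
      (vw P f q) v b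
      (by
        rw [List.length_append, List.length_cons, hzl]
        simp only [cs, List.length_map, List.length_drop, List.length_range]
        omega)
      (by
        intro x hx
        rw [hzl] at hx
        exact vw_eq h1 h2 h3 hx)
      (by rw [hzl]; exact h4) hr
    rw [← hTl] at g1 g2
    rw [hzl] at g2
    have hpt : ph f (p.take (P.be p.length 0)) * (cs P f p.length p (List.range i)).prod
        = ph f (u.take (P.be p.length i)) := by
      rw [prod_cs_range, hu, List.take_append_of_le_length (by omega)]
    have htail : (cs P f T u ((List.range P.m).drop (i + 1))).prod * ph f (u.drop (P.be T P.m))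
        = ph f (u.drop (P.be T (i + 1))) := prod_cs_tail P f T u P.m (i + 1) h1
    have hall : ∀ a c : ℕ, a ≤ c → ph f (u.take a) * sg f u a c * ph f (u.drop c) = ph f u := by
      intro a c hac
      rw [ph_take_sg f u hac, ← ph_append, List.take_append_drop]
    have htot : ph f (p.take (P.be p.length 0)) * (cs P f p.length p (List.range i)).prod *
        sg f u (P.be p.length i) (P.be T (i + 1)) *
        ((cs P f T u ((List.range P.m).drop (i + 1))).prod * ph f (u.drop (P.be T P.m)))
        = ph f u := by
      rw [hpt, htail, hall _ _ hmid]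
    rw [htot] at g1
    rw [g1]
    congr 1
    show D' T _ _ _ = D' T _ _ _
    by_cases hbd : ∃ p ∈ Ms, p ∣ T
    · apply hbad' T _ _ _ _ _ _ hbd
      have e1 : ph f (u.take (P.be T 0)) * (cs P f T u (List.range P.m)).prod *
          ph f (u.drop (P.be T P.m)) = ph f u := by
        rw [prod_cs_range, ← ph_append, List.take_append_drop]
      rw [e1, ← htot]
      simp only [List.prod_append, List.prod_cons, mul_assoc]
    · have hdv : P.G i ∣ q.length := by
        have hs := g2 (fun p hp1 hd => hbd ⟨p, hp1, hd⟩)
        unfold vw at hs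
        split_ifs at hs with hc
        · exact hc.1
        · simp at hs
      obtain ⟨k1, k2, k3⟩ := left_know (P := P) (f := f) (p := p) (q := q) h2 hdv
      rw [← hu, ← hT] at k1 k2 k3
      rw [cs_split T u h1, k1, k2, k3]
  · -- completeness
    intro u hT hnp hcl v
    set T := u.length with hTd
    obtain ⟨i, hi, hc⟩ := hcomp T (ph f (u.take (P.be T 0))) (cs P f T u (List.range P.m))
      (ph f (u.drop (P.be T P.m))) v (by simp [cs]) hnp
    have hcell := P.cell_le hi
    have hMG : P.M ≤ P.M * P.G i := Nat.le_mul_of_pos_right _ (P.hG i)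
    obtain ⟨t, t1, t2, t3, t4, t5⟩ := hc (P.Am i + P.G i) (by omega)
    obtain ⟨o, o1, o2, o3, o4⟩ := crt_window (c := P.Am i + P.G i) (t := t) (T := T) hMpos
      (P.hG i) (hcop i).symm
    have hoT : o ≤ T := by omega
    have hpl : (u.take o).length = o := by rw [List.length_take]; omega
    have hql : (u.drop o).length = T - o := by rw [List.length_drop]
    have hpq : u.take o ++ u.drop o = u := List.take_append_drop o u
    have hdv : P.G i ∣ (u.drop o).length := by
      rw [hql]
      exact (Nat.modEq_iff_dvd' hoT).1 o4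
    have hkn : Kn P i (u.drop o).length := by
      rw [hql]
      exact kn_of_clean hi o1 o2 hT hoT hcl
    obtain ⟨k1, k2, k3⟩ := left_know (P := P) (f := f) (p := u.take o) (q := u.drop o)
      (by rw [hpl]; exact o1) hdv
    rw [hpq, ← hTd] at k1 k2 k3
    have htk : (cs P f T u (List.range P.m)).take i = cs P f T u (List.range i) := by
      unfold cs
      rw [← List.map_take, List.take_range, min_eq_left hi.le]
    have hdr : (cs P f T u (List.range P.m)).drop (i + 1)
        = cs P f T u ((List.range P.m).drop (i + 1)) := by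
      unfold cs
      rw [← List.map_drop]
    have hL : lamF P f L (u.take o) = some v := by
      rw [lamF_iff]
      refine ⟨i, hi, by rw [hpl]; exact o1, by rw [hpl]; exact o2, ?_⟩
      rw [← k1, ← k2, ← htk, hpl, ← t4]
      exact per_congr (g := fun t => L i _ _ t) (hLper _ _ _) o3
    have hvw : vw P f (u.drop o) i = some ((cs P f T u (List.range P.m)).drop (i + 1),
        ph f (u.drop (P.be T P.m))) := by
      have hsome : ∃ x, vw P f (u.drop o) i = some x := by
        unfold vw
        rw [if_pos ⟨hdv, hkn⟩]
        exact ⟨_, rfl⟩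
      obtain ⟨x, hx⟩ := hsome
      have := vw_eq (p := u.take o) hi (by rw [hpl]; exact o1) (by rw [hpl]; exact o2) hx
      rw [hpq, ← hTd] at this
      rw [hx, this, hdr]
    obtain ⟨b, hb⟩ := t5 (vw P f (u.drop o)) hvw
    refine ⟨u.take o, u.drop o, b, hpq, hL, ?_⟩
    show R (vw P f (u.drop o)) (u.drop o).length = some b
    rw [hql, ← hb]
    apply per_congr (g := fun t => R (vw P f (u.drop o)) t) (hRper _)
    apply Nat.ModEq.add_right_cancel o3
    have e1 : T - o + o = T - t + t := by omega
    rw [e1]
  · -- finite state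
    intro q q' hq hq' htk hmod hdr
    have hmodM : q.length ≡ q'.length [MOD P.M] := hmod.of_mul_right _
    have hmodG : ∀ j, j ≤ P.m → q.length ≡ q'.length [MOD P.G j] := by
      intro j hj
      exact (hmod.of_mul_left P.M).of_dvd (P.dvd_of_le hj)
    have hbe : ∀ c j, j ≤ P.m → P.be (c + q.length) j = P.be (c + q'.length) j := by
      intro c j hj
      have := P.Am_le hj
      exact P.be_congr (by omega) (by omega) (Nat.ModEq.add_left c (hmodG j hj))
    have hbe0 : ∀ j, j ≤ P.m → P.be q.length j = P.be q'.length j := by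
      intro j hj
      have := hbe 0 j hj
      simpa using this
    have hbl : ∀ T j, j ≤ P.m → P.be T j ≤ P.Am P.m + P.G P.m := by
      intro T j hj
      have h1 := P.be_mono T hj
      have h2 := P.be_lt T P.m
      omega
    have hst : ∀ i j, j ≤ P.m → st P i j q.length = st P i j q'.length := by
      intro i j hj
      unfold st
      rw [hbe _ j hj]
    have hstl : ∀ i j n, j ≤ P.m → st P i j n ≤ P.Am P.m + P.G P.m := by
      intro i j n hj
      unfold st
      exact (Nat.sub_le _ _).trans (hbl _ j hj)
    have hvw : ∀ i < P.m, vw P f q i = vw P f q' i := by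
      intro i hi
      have hd : P.G i ∣ q.length ↔ P.G i ∣ q'.length := by
        have h := hmodG i hi.le
        rw [Nat.dvd_iff_mod_eq_zero, Nat.dvd_iff_mod_eq_zero, h]
      have hk : Kn P i q.length ↔ Kn P i q'.length := by
        unfold Kn
        constructor
        · intro h o a1 a2 j a3 a4
          rw [← hbe o j a4, ← hst i j a4]
          exact h o a1 a2 j a3 a4
        · intro h o a1 a2 j a3 a4
          rw [hbe o j a4, hst i j a4]
          exact h o a1 a2 j a3 a4
      have hval : (((List.range P.m).drop (i + 1)).map fun j =>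
            sg f q (st P i j q.length) (st P i (j + 1) q.length),
          ph f (q.drop (st P i P.m q.length)))
        = (((List.range P.m).drop (i + 1)).map fun j =>
            sg f q' (st P i j q'.length) (st P i (j + 1) q'.length),
          ph f (q'.drop (st P i P.m q'.length))) := by
        congr 1
        · apply List.map_congr_left
          intro j hj
          obtain ⟨h3, h4⟩ := mem_drop_range hj
          rw [hst i j h4.le, hst i (j + 1) h4]
          exact sg_ext f htk (hstl i (j + 1) _ h4)
        · rw [hst i P.m le_rfl]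
          exact ph_drop_ext f htk hdr (hstl i P.m _ le_rfl)
      unfold vw
      by_cases hc : P.G i ∣ q.length ∧ Kn P i q.length
      · rw [if_pos hc, if_pos ⟨hd.1 hc.1, hk.1 hc.2⟩, hval]
      · rw [if_neg hc, if_neg (fun h => hc ⟨hd.2 h.1, hk.2 h.2⟩)]
    constructor
    · show R (vw P f q) q.length = R (vw P f q') q'.length
      rw [hRloc (vw P f q) (vw P f q') q.length hvw]
      exact per_congr (g := fun t => R (vw P f q') t) (hRper _) hmodM
    · show D' q.length _ _ _ = D' q'.length _ _ _
      have e0 : D' q.length = D' q'.length := by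
        show D (q.length % P.M + P.M) = D (q'.length % P.M + P.M)
        rw [hmodM]
      have e1 : ph f (q.take (P.be q.length 0)) = ph f (q'.take (P.be q'.length 0)) := by
        rw [hbe0 0 (Nat.zero_le _)]
        exact ph_take_ext f htk (hbl _ 0 (Nat.zero_le _))
      have e2 : cs P f q.length q (List.range P.m) = cs P f q'.length q' (List.range P.m) := by
        apply cs_congr
        intro j hj
        rw [List.mem_range] at hj
        rw [hbe0 j hj.le, hbe0 (j + 1) hj]
        exact sg_ext f htk (hbl _ (j + 1) hj)
      have e3 : ph f (q.drop (P.be q.length P.m)) = ph f (q'.drop (P.be q'.length P.m)) := by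
        rw [hbe0 P.m le_rfl]
        exact ph_drop_ext f htk hdr (hbl _ P.m le_rfl)
      rw [e0, e1, e2, e3]

end Crest.Agent.R320.GridV_809
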