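import Crest.Agent.R320.Names_755
import Crest.Agent.R320.RandF_808

/-!
# Row 320: the grid gadget (693 #13203), every content, every total length (helper127)
-/

set_option autoImplicit false

namespace Crest.Agent.R320.Grid_127

open Classical

section seg

variable {α : Type}

def seg (u : List α) (a b : ℕ) : List α := (u.take b).drop a

theorem seg_left {P Q : List α} {a b : ℕ} (h : b ≤ P.length) :
    seg (P ++ Q) a b = seg P a b := by
  unfold seg
  rw [List.take_append_of_le_length h]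

theorem seg_right {P Q : List α} {a b : ℕ} :
    seg (P ++ Q) (P.length + a) (P.length + b) = seg Q a b := by
  unfold seg
  rw [List.take_length_add_append, List.drop_length_add_append]

theorem seg_append {u : List α} {a b c : ℕ} (hab : a ≤ b) (hbc : b ≤ c) (hc : c ≤ u.length) :
    seg u a b ++ seg u b c = seg u a c := by
  unfold seg
  have h1 : u.take b = (u.take c).take b := by rw [List.take_take, min_eq_left hbc]
  have h2 : (u.take c).drop a = ((u.take c).take b).drop a ++ (u.take c).drop b := by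
    conv_lhs => rw [← List.take_append_drop b (u.take c)]
    rw [List.drop_append_of_le_length]
    rw [List.length_take, List.length_take]
    omega
  rw [h1, ← h2]

theorem take_seg_drop {u : List α} {a b : ℕ} (hab : a ≤ b) :
    u.take a ++ (seg u a b ++ u.drop b) = u := by
  unfold seg
  have h1 : u.take a = (u.take b).take a := by rw [List.take_take, min_eq_left hab]
  rw [h1, ← List.append_assoc, List.take_append_drop, List.take_append_drop]

end seg

/-- boundary numbers: `be Ga T j = Ga^(j+1) + T % Ga^(j+1)` -/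
def be (Ga : ℕ) (T j : ℕ) : ℕ := Ga ^ (j + 1) + T % Ga ^ (j + 1)

theorem be_lt {Ga T j : ℕ} (h : 0 < Ga) : be Ga T j < 2 * Ga ^ (j + 1) := by
  unfold be
  have := Nat.mod_lt T (pow_pos h (j + 1))
  omega

theorem le_be {Ga T j : ℕ} : Ga ^ (j + 1) ≤ be Ga T j := Nat.le_add_right _ _

theorem pow_le {Ga i j : ℕ} (h : 0 < Ga) (hij : i ≤ j) : Ga ^ i ≤ Ga ^ j :=
  Nat.pow_le_pow_right h hij

theorem be_le {M Ga T i j : ℕ} (h : M + 2 ≤ Ga) (hij : i < j) :
    (M + 2) * Ga ^ (i + 1) ≤ be Ga T j := by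
  have h1 : (M + 2) * Ga ^ (i + 1) ≤ Ga * Ga ^ (i + 1) := Nat.mul_le_mul_right _ h
  have h2 : Ga * Ga ^ (i + 1) = Ga ^ (i + 2) := by ring
  have h3 : Ga ^ (i + 2) ≤ Ga ^ (j + 1) := pow_le (by omega) (by omega)
  have := @le_be Ga T j
  omega

theorem be_mono {M Ga T i j : ℕ} (h : M + 2 ≤ Ga) (hij : i ≤ j) : be Ga T i ≤ be Ga T j := by
  rcases Nat.lt_or_eq_of_le hij with h1 | h1
  · have h2 := @be_le M Ga T i j h h1
    have h3 := @be_lt Ga T i (by omega)
    have h4 : 2 * Ga ^ (i + 1) ≤ (M + 2) * Ga ^ (i + 1) := Nat.mul_le_mul_right _ (by omega)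
    omega
  · rw [h1]

/-- left reading of the boundaries -/
theorem be_left {Ga o o' i j : ℕ} (hd : Ga ^ (i + 1) ∣ o') (hj : j ≤ i) :
    be Ga (o + o') j = be Ga o j := by
  unfold be
  have h1 : Ga ^ (j + 1) ∣ o' := (pow_dvd_pow Ga (by omega)).trans hd
  obtain ⟨c, rfl⟩ := h1
  rw [Nat.add_mul_mod_self_left]

/-- right reading -/
def rr (Ga o' i j : ℕ) : ℕ := Ga ^ (j + 1) + o' - Ga ^ (j + 1) * ((o' + 2 * Ga ^ (i + 1)) / Ga ^ (j + 1))

theorem be_right {M Ga o o' i j : ℕ} (hG : M + 2 ≤ Ga) (hij : i < j)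
    (h1 : 2 * Ga ^ (i + 1) ≤ o) (h2 : o < (M + 2) * Ga ^ (i + 1))
    (hf : (o' + 2 * Ga ^ (i + 1)) / Ga ^ (j + 1) = (o' + (M + 2) * Ga ^ (i + 1)) / Ga ^ (j + 1)) :
    be Ga (o + o') j = o + rr Ga o' i j := by
  have hpos : 0 < Ga ^ (j + 1) := pow_pos (by omega) _
  have e : (o + o') / Ga ^ (j + 1) = (o' + 2 * Ga ^ (i + 1)) / Ga ^ (j + 1) := by
    apply le_antisymm
    · rw [hf]; exact Nat.div_le_div_right (by omega)
    · exact Nat.div_le_div_right (by omega)
  have h3 := Nat.div_add_mod (o + o') (Ga ^ (j + 1))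
  rw [e] at h3
  have h4 : o ≤ be Ga (o + o') j := by
    have := @be_le M Ga (o + o') i j hG hij
    omega
  unfold be at h4 ⊢
  unfold rr
  have h5 := Nat.mod_lt (o + o') hpos
  omega


/-- value of a word -/
def ph {α S : Type} [Monoid S] (f : α → S) (u : List α) : S := (u.map f).prod

theorem ph_append {α S : Type} [Monoid S] (f : α → S) (u v : List α) :
    ph f (u ++ v) = ph f u * ph f v := by simp [ph]

theorem ph_split {α S : Type} [Monoid S] (f : α → S) {u : List α} {a b : ℕ} (hab : a ≤ b) :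
    ph f u = ph f (u.take a) * ph f (seg u a b) * ph f (u.drop b) := by
  conv_lhs => rw [← take_seg_drop (u := u) hab]
  rw [ph_append, ph_append, mul_assoc]

structure Dat (N S V W : Type) [Monoid S] [AddCommGroup V] [AddCommGroup W] where
  act : V → S → V
  m : ℕ
  M : ℕ
  Ga : ℕ
  e : ℕ → S → W
  F : S → W → V
  Ms : Finset ℕ
  nmL : ℕ → Option N
  nmR : ℕ → Option N
  lev : N → ℕ
  g : N → S
  wl : N → W
  h : N → S
  wr : N → W
  vv : N → V
  bb : N → V
  lev_lt : ∀ c, lev c < m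
  good : ∀ c z, F (g c * z * h c) (wl c + e (lev c) z + wr c) + act (vv c) (g c * z * h c) = bb c
  surj : ∀ i < m, ∀ (a : S) (x : W) (b : S) (y : W) (v : V) (r : V),
    (∀ z, F (a * z * b) (x + e i z + y) + act v (a * z * b) = r) →
    ∃ c, lev c = i ∧ g c = a ∧ wl c = x ∧ h c = b ∧ wr c = y ∧ vv c = v
  hGa : M + 2 ≤ Ga
  hM : 0 < M
  cop : Nat.Coprime M Ga
  perL : ∀ t, nmL (t + M) = nmL t
  nm_eq : ∀ t t' c c', nmL t = some c → nmR t' = some c' → (∀ k ∈ Ms, ¬ k ∣ t + t') → c = c'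
  nm_ex : ∀ T, (∀ k ∈ Ms, ¬ k ∣ T) → ∀ c, ∃ t < M, nmL t = some c ∧
        ∀ t', t + t' ≡ T [MOD M] → nmR t' = some c
  nm_bad : ∀ t₁ t₁' t₂ t₂' c₁ c₁' c₂ c₂', nmL t₁ = some c₁ → nmR t₁' = some c₁' →
        nmL t₂ = some c₂ → nmR t₂' = some c₂' → t₁ + t₁' = t₂ + t₂' →
        (∃ k ∈ Ms, k ∣ t₁ + t₁') → vv c₁ = vv c₂ ∧ bb c₁' = bb c₂'

namespace Dat

variable {N S V W : Type} [Monoid S] [AddCommGroup V] [AddCommGroup W] (D : Dat N S V W)
variable {α : Type} (f : α → S)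

/-- weight of the blocks `a ≤ j < b` -/
noncomputable def ws (u : List α) (β : ℕ → ℕ) (a b : ℕ) : W :=
  ∑ j ∈ Finset.Ico a b, D.e j (ph f (seg u (β j) (β (j + 1))))

def LL (P : List α) (c : N) : Prop :=
  D.nmL P.length = some c ∧ 2 * D.Ga ^ (D.lev c + 1) ≤ P.length ∧
    P.length < (D.M + 2) * D.Ga ^ (D.lev c + 1) ∧
    ph f (P.take (be D.Ga P.length (D.lev c))) = D.g c ∧
    D.ws f P (be D.Ga P.length) 0 (D.lev c) = D.wl c

def RR (Q : List α) (c : N) : Prop :=
  D.nmR Q.length = some c ∧ D.Ga ^ (D.lev c + 1) ∣ Q.length ∧ 2 * D.Ga ^ (D.m + 1) ≤ Q.length ∧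
    (∀ j, D.lev c < j → j ≤ D.m →
      (Q.length + 2 * D.Ga ^ (D.lev c + 1)) / D.Ga ^ (j + 1) =
        (Q.length + (D.M + 2) * D.Ga ^ (D.lev c + 1)) / D.Ga ^ (j + 1)) ∧
    ph f (Q.drop (rr D.Ga Q.length (D.lev c) (D.lev c + 1))) = D.h c ∧
    D.ws f Q (rr D.Ga Q.length (D.lev c)) (D.lev c + 1) D.m = D.wr c

noncomputable def lam (P : List α) : Option V :=
  if h : ∃ c, D.LL f P c then some (D.vv h.choose) else none

noncomputable def rho (Q : List α) : Option V :=
  if h : ∃ c, D.RR f Q c then some (D.bb h.choose) else none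

def Pair (T : ℕ) (p : ℕ × ℕ × N × N) : Prop :=
  p.1 + p.2.1 = T ∧ D.nmL p.1 = some p.2.2.1 ∧ D.nmR p.2.1 = some p.2.2.2

noncomputable def nu (u : List α) : V :=
  if ∀ k ∈ D.Ms, ¬ k ∣ u.length then D.F (ph f u) (D.ws f u (be D.Ga u.length) 0 D.m)
  else if h : ∃ p, D.Pair u.length p then D.bb h.choose.2.2.2 - D.act (D.vv h.choose.2.2.1) (ph f u)
  else 0

theorem lam_eq {P : List α} {v : V} (h : D.lam f P = some v) : ∃ c, D.LL f P c ∧ D.vv c = v := by
  unfold lam at h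
  split_ifs at h with h1
  exact ⟨h1.choose, h1.choose_spec, by simpa using h⟩

theorem rho_eq {Q : List α} {v : V} (h : D.rho f Q = some v) : ∃ c, D.RR f Q c ∧ D.bb c = v := by
  unfold rho at h
  split_ifs at h with h1
  exact ⟨h1.choose, h1.choose_spec, by simpa using h⟩

theorem lam_of {P : List α} {c : N} (h : D.LL f P c) : D.lam f P = some (D.vv c) := by
  unfold lam
  have h1 : ∃ c, D.LL f P c := ⟨c, h⟩
  rw [dif_pos h1]
  have h2 := h1.choose_spec
  have h3 := h2.1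
  rw [h.1] at h3
  rw [← Option.some.inj h3]

theorem rho_of {Q : List α} {c : N} (h : D.RR f Q c) : D.rho f Q = some (D.bb c) := by
  unfold rho
  have h1 : ∃ c, D.RR f Q c := ⟨c, h⟩
  rw [dif_pos h1]
  have h2 := h1.choose_spec
  have h3 := h2.1
  rw [h.1] at h3
  rw [← Option.some.inj h3]

theorem len_of_LL {P : List α} {c : N} (h : D.LL f P c) :
    P.length < (D.M + 2) * D.Ga ^ (D.m + 1) := by
  refine lt_of_lt_of_le h.2.2.1 (Nat.mul_le_mul_left _ (pow_le (by have := D.hGa; omega) ?_))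
  have := D.lev_lt c
  omega

theorem sound {P Q : List α} {v b : V} (hP : D.lam f P = some v) (hQ : D.rho f Q = some b) :
    b = D.act v (ph f (P ++ Q)) + D.nu f (P ++ Q) := by
  obtain ⟨c, hc, rfl⟩ := D.lam_eq f hP
  obtain ⟨c', hc', rfl⟩ := D.rho_eq f hQ
  by_cases hT : ∀ k ∈ D.Ms, ¬ k ∣ (P ++ Q).length
  · have hT' : ∀ k ∈ D.Ms, ¬ k ∣ P.length + Q.length := by simpa using hT
    obtain rfl := D.nm_eq _ _ _ _ hc.1 hc'.1 hT'
    obtain ⟨-, l1, l2, l3, l4⟩ := hc
    obtain ⟨-, r1, r2, r3, r4, r5⟩ := hc'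
    set i := D.lev c with hi
    have him : i < D.m := D.lev_lt c
    have hGa := D.hGa
    have hG0 : 0 < D.Ga := by omega
    have hlen : (P ++ Q).length = P.length + Q.length := List.length_append
    unfold nu
    rw [if_pos hT, hlen]
    have hbl : ∀ j ≤ i, be D.Ga (P.length + Q.length) j = be D.Ga P.length j :=
      fun j hj => be_left r1 hj
    have hbr : ∀ j, i < j → j ≤ D.m → be D.Ga (P.length + Q.length) j
        = P.length + rr D.Ga Q.length i j := fun j h1 h2 => be_right hGa h1 l1 l2 (r3 j h1 h2)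
    have hbi : be D.Ga P.length i ≤ P.length := by
      have := @be_lt D.Ga P.length i hG0
      omega
    have s1 : D.ws f (P ++ Q) (be D.Ga (P.length + Q.length)) 0 i = D.wl c := by
      rw [← l4]
      unfold ws
      refine Finset.sum_congr rfl fun j hj => ?_
      rw [Finset.mem_Ico] at hj
      rw [hbl j (by omega), hbl (j + 1) (by omega), seg_left]
      refine le_trans (@be_mono D.M D.Ga P.length (j + 1) i hGa (by omega)) hbi
    have s3 : D.ws f (P ++ Q) (be D.Ga (P.length + Q.length)) (i + 1) D.m = D.wr c := by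
      rw [← r5]
      unfold ws
      refine Finset.sum_congr rfl fun j hj => ?_
      rw [Finset.mem_Ico] at hj
      rw [hbr j (by omega) (by omega), hbr (j + 1) (by omega) (by omega), seg_right]
    have s2 : D.ws f (P ++ Q) (be D.Ga (P.length + Q.length)) 0 D.m
        = D.wl c + D.e i (ph f (seg (P ++ Q) (be D.Ga (P.length + Q.length) i)
            (be D.Ga (P.length + Q.length) (i + 1)))) + D.wr c := by
      rw [← s1, ← s3]
      unfold ws
      rw [← Finset.sum_Ico_consecutive _ (Nat.zero_le i) him.le,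
        Finset.sum_eq_sum_Ico_succ_bot him, add_assoc]
    have p1 : ph f ((P ++ Q).take (be D.Ga (P.length + Q.length) i)) = D.g c := by
      rw [← l3, hbl i le_rfl, List.take_append_of_le_length hbi]
    have p3 : ph f ((P ++ Q).drop (be D.Ga (P.length + Q.length) (i + 1))) = D.h c := by
      rw [← r4, hbr (i + 1) (by omega) (by omega), List.drop_length_add_append]
    have p2 := ph_split f (u := P ++ Q) (a := be D.Ga (P.length + Q.length) i)
      (b := be D.Ga (P.length + Q.length) (i + 1)) (@be_mono D.M _ _ _ _ hGa (by omega))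
    rw [p1, p3] at p2
    rw [s2, p2, ← D.good c, add_comm]
  · unfold nu
    rw [if_neg hT]
    have h1 : ∃ p, D.Pair (P ++ Q).length p :=
      ⟨(P.length, Q.length, c, c'), by simp, hc.1, hc'.1⟩
    rw [dif_pos h1]
    obtain ⟨q1, q2, q3⟩ := h1.choose_spec
    push Not at hT
    obtain ⟨k, hk, hk'⟩ := hT
    have := D.nm_bad _ _ _ _ _ _ _ _ hc.1 hc'.1 q2 q3 (by rw [q1]; simp) ⟨k, hk, by simpa using hk'⟩
    rw [← this.1, ← this.2]
    abel

/-- the bad totals -/
def Bad (T : ℕ) : Prop := (∃ k ∈ D.Ms, k ∣ T) ∨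
  ∃ j, 1 ≤ j ∧ j ≤ D.m ∧ (T - D.M * D.Ga ^ j) / D.Ga ^ (j + 1) ≠ (T + D.M * D.Ga ^ j) / D.Ga ^ (j + 1)

theorem exists_between {M G o1 t T : ℕ} (hM : 0 < M) (hG : 0 < G) (hc : Nat.Coprime M G) :
    ∃ o, o1 ≤ o ∧ o < o1 + M * G ∧ o ≡ t [MOD M] ∧ o ≡ T [MOD G] := by
  obtain ⟨x, hx1, hx2⟩ := Nat.chineseRemainder hc t T
  have hMG : 0 < M * G := Nat.mul_pos hM hG
  -- o = o1 + ((x - o1) mod MG)
  obtain ⟨y, hy⟩ : ∃ y, y = x + M * G * o1 - o1 := ⟨_, rfl⟩
  have hle : o1 ≤ x + M * G * o1 := by nlinarith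
  refine ⟨o1 + y % (M * G), Nat.le_add_right _ _, by have := Nat.mod_lt y hMG; omega, ?_, ?_⟩
  · have h1 : o1 + y % (M * G) ≡ o1 + y [MOD M * G] :=
      Nat.ModEq.add_left _ (Nat.mod_modEq _ _)
    have h2 : o1 + y = x + M * G * o1 := by omega
    rw [h2] at h1
    have h3 : x + M * G * o1 ≡ x [MOD M * G] := by
      simp [Nat.ModEq, Nat.add_mul_mod_self_left]
    exact ((h1.trans h3).of_mul_right G).trans hx1
  · have h1 : o1 + y % (M * G) ≡ o1 + y [MOD M * G] :=
      Nat.ModEq.add_left _ (Nat.mod_modEq _ _)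
    have h2 : o1 + y = x + M * G * o1 := by omega
    rw [h2] at h1
    have h3 : x + M * G * o1 ≡ x [MOD M * G] := by
      simp [Nat.ModEq, Nat.add_mul_mod_self_left]
    exact ((h1.trans h3).of_mul_left M).trans hx2


theorem perL_mod (t : ℕ) : D.nmL t = D.nmL (t % D.M) :=
  (Function.Periodic.map_mod_nat (f := D.nmL) D.perL t).symm

theorem nmL_congr {o t : ℕ} (h : o ≡ t [MOD D.M]) : D.nmL o = D.nmL t := by
  rw [D.perL_mod o, D.perL_mod t]
  exact congrArg _ h

theorem complete (hs : ∀ (s : S) (w : W) (v : V), ∃ i < D.m, ∀ g x h : S, g * x * h = s →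
      ∀ z : S, D.F (g * z * h) (w - D.e i x + D.e i z) + D.act v (g * z * h)
        = D.F s w + D.act v s)
    {u : List α} (hlen : (D.M + 4) * D.Ga ^ (D.m + 1) ≤ u.length) (hb : ¬ D.Bad u.length) (v : V) :
    ∃ P Q, P ++ Q = u ∧ D.lam f P = some v ∧ ∃ b, D.rho f Q = some b := by
  have hGa := D.hGa
  have hG0 : 0 < D.Ga := by omega
  obtain ⟨T, hTdef⟩ : ∃ T, T = u.length := ⟨_, rfl⟩
  rw [← hTdef] at hlen hb
  obtain ⟨i, him, hi⟩ := hs (ph f u) (D.ws f u (be D.Ga T) 0 D.m) v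
  have hbm : be D.Ga T i ≤ be D.Ga T (i + 1) := @be_mono D.M _ _ _ _ hGa (by omega)
  have hsplit := ph_split f (u := u) hbm
  have key := hi _ _ _ hsplit.symm
  have hw : D.ws f u (be D.Ga T) 0 D.m = D.ws f u (be D.Ga T) 0 i
      + D.e i (ph f (seg u (be D.Ga T i) (be D.Ga T (i + 1)))) + D.ws f u (be D.Ga T) (i + 1) D.m := by
    unfold ws
    rw [← Finset.sum_Ico_consecutive _ (Nat.zero_le i) him.le,
      Finset.sum_eq_sum_Ico_succ_bot him, add_assoc]
  obtain ⟨c, hc1, hc2, hc3, hc4, hc5, hc6⟩ := D.surj i him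
    (ph f (u.take (be D.Ga T i))) (D.ws f u (be D.Ga T) 0 i)
    (ph f (u.drop (be D.Ga T (i + 1)))) (D.ws f u (be D.Ga T) (i + 1) D.m) v
    (D.F (ph f u) (D.ws f u (be D.Ga T) 0 D.m) + D.act v (ph f u)) (by
      intro z
      rw [← key z]
      congr 2
      rw [hw]
      abel)
  have hnd : ∀ k ∈ D.Ms, ¬ k ∣ T := fun k hk hd => hb (Or.inl ⟨k, hk, hd⟩)
  obtain ⟨t, ht, hL, hR⟩ := D.nm_ex T hnd c
  have hcop : Nat.Coprime D.M (D.Ga ^ (i + 1)) := Nat.Coprime.pow_right _ D.cop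
  obtain ⟨o, o1, o2, o3, o4⟩ := exists_between (o1 := 2 * D.Ga ^ (i + 1)) (t := t) (T := T)
    D.hM (pow_pos hG0 (i + 1)) hcop
  have o2' : o < (D.M + 2) * D.Ga ^ (i + 1) := by
    have : (D.M + 2) * D.Ga ^ (i + 1) = 2 * D.Ga ^ (i + 1) + D.M * D.Ga ^ (i + 1) := by ring
    omega
  have hmi : D.Ga ^ (i + 1) ≤ D.Ga ^ (D.m + 1) := pow_le hG0 (by omega)
  have o5 : o < (D.M + 2) * D.Ga ^ (D.m + 1) := lt_of_lt_of_le o2' (Nat.mul_le_mul_left _ hmi)
  have hexp : (D.M + 4) * D.Ga ^ (D.m + 1) = (D.M + 2) * D.Ga ^ (D.m + 1) + 2 * D.Ga ^ (D.m + 1) := by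
    ring
  have hoT : o ≤ T := by omega
  have hd : D.Ga ^ (i + 1) ∣ T - o := (Nat.modEq_iff_dvd' hoT).1 o4
  obtain ⟨o', ho'⟩ : ∃ o', o' = T - o := ⟨_, rfl⟩
  rw [← ho'] at hd
  have hTo : T = o + o' := by omega
  have lP : (u.take o).length = o := by rw [List.length_take, ← hTdef]; omega
  have lQ : (u.drop o).length = o' := by rw [List.length_drop, ← hTdef]; omega
  have hbl : ∀ j ≤ i, be D.Ga T j = be D.Ga o j := fun j hj => by rw [hTo]; exact be_left hd hj
  have hfl : ∀ j, i < j → j ≤ D.m → (o' + 2 * D.Ga ^ (i + 1)) / D.Ga ^ (j + 1)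
      = (o' + (D.M + 2) * D.Ga ^ (i + 1)) / D.Ga ^ (j + 1) := by
    intro j h1 h2
    have h3 : (T - D.M * D.Ga ^ j) / D.Ga ^ (j + 1) = (T + D.M * D.Ga ^ j) / D.Ga ^ (j + 1) := by
      by_contra hne
      exact hb (Or.inr ⟨j, by omega, h2, hne⟩)
    have h4 : D.M * D.Ga ^ (i + 1) ≤ D.M * D.Ga ^ j := Nat.mul_le_mul_left _ (pow_le hG0 (by omega))
    have h5 : (D.M + 2) * D.Ga ^ (i + 1) = 2 * D.Ga ^ (i + 1) + D.M * D.Ga ^ (i + 1) := by ring
    apply le_antisymm
    · exact Nat.div_le_div_right (by omega)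
    · calc (o' + (D.M + 2) * D.Ga ^ (i + 1)) / D.Ga ^ (j + 1)
          ≤ (T + D.M * D.Ga ^ j) / D.Ga ^ (j + 1) := Nat.div_le_div_right (by omega)
        _ = (T - D.M * D.Ga ^ j) / D.Ga ^ (j + 1) := h3.symm
        _ ≤ _ := Nat.div_le_div_right (by omega)
  have hbr : ∀ j, i < j → j ≤ D.m → be D.Ga T j = o + rr D.Ga o' i j := fun j h1 h2 => by
    rw [hTo]; exact be_right hGa h1 o1 o2' (hfl j h1 h2)
  have hbi : be D.Ga o i ≤ o := by
    have := @be_lt D.Ga o i hG0
    omega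
  have hPQ : u.take o ++ u.drop o = u := List.take_append_drop o u
  have hLL : D.LL f (u.take o) c := by
    refine ⟨by rw [lP, D.nmL_congr o3, hL], by rw [lP, hc1]; exact o1, by rw [lP, hc1]; exact o2', ?_, ?_⟩
    · rw [lP, hc1, hc2, hbl i le_rfl, List.take_take, min_eq_left hbi]
    · rw [lP, hc1, hc3]
      unfold ws
      refine Finset.sum_congr rfl fun j hj => ?_
      rw [Finset.mem_Ico] at hj
      rw [hbl j (by omega), hbl (j + 1) (by omega)]
      conv_rhs => rw [← hPQ]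
      rw [seg_left]
      rw [lP]
      exact le_trans (@be_mono D.M D.Ga o (j + 1) i hGa (by omega)) hbi
  have hRR : D.RR f (u.drop o) c := by
    refine ⟨?_, by rw [lQ, hc1]; exact hd, by rw [lQ]; omega, by rw [lQ, hc1]; exact hfl, ?_, ?_⟩
    · rw [lQ]
      apply hR
      have h1 : o + o' = T := hTo.symm
      calc t + o' ≡ o + o' [MOD D.M] := Nat.ModEq.add_right _ o3.symm
        _ = T := h1
    · rw [lQ, hc1, hc4, hbr (i + 1) (by omega) (by omega)]
      rw [List.drop_drop]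
    · rw [lQ, hc1, hc5]
      unfold ws
      refine Finset.sum_congr rfl fun j hj => ?_
      rw [Finset.mem_Ico] at hj
      rw [hbr j (by omega) (by omega), hbr (j + 1) (by omega) (by omega)]
      conv_rhs => rw [← hPQ]
      have h9 := @seg_right α (u.take o) (u.drop o) (rr D.Ga o' i j) (rr D.Ga o' i (j + 1))
      rw [lP] at h9
      rw [h9]
  exact ⟨u.take o, u.drop o, hPQ, by rw [D.lam_of f hLL, hc6], _, D.rho_of f hRR⟩

end Dat

end Crest.Agent.R320.Grid_127
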