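import Crest.Agent.R320.Names_570
import Crest.Agent.R320.RandF_808

/-!
# Row 320: the all-words zone gadget on b-anchored nested grids (693 #13203), word form (helper149)
-/

set_option autoImplicit false

namespace Crest.Agent.R320.Grid_149

open Finset

section basic

variable {α S : Type*}

/-- the type of the factor of `Z` between the places `a` and `b` -/
def zt (phi : List α → S) (Z : List α) (a b : ℕ) : S := phi ((Z.drop a).take (b - a))

theorem drop_add (P Q : List α) (t : ℕ) : (P ++ Q).drop (P.length + t) = Q.drop t := by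
  rw [← List.drop_drop, List.drop_left]

theorem zt_left (phi : List α → S) {P Q : List α} {a b : ℕ} (h : b ≤ P.length) :
    zt phi (P ++ Q) a b = zt phi P a b := by
  unfold zt
  rcases le_or_gt a b with h1 | h1
  · rw [List.drop_append_of_le_length (by omega), List.take_append_of_le_length]
    rw [List.length_drop]; omega
  · rw [show b - a = 0 by omega]; simp

theorem zt_right (phi : List α → S) {P Q : List α} {a b : ℕ} :
    zt phi (P ++ Q) (P.length + a) (P.length + b) = zt phi Q a b := by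
  unfold zt
  rw [drop_add, show P.length + b - (P.length + a) = b - a by omega]

variable [Monoid S]

theorem zt_split {phi : List α → S} (hphi : ∀ u v, phi (u ++ v) = phi u * phi v) (Z : List α)
    {a b : ℕ} (h : a ≤ b) : phi (Z.take a) * zt phi Z a b * phi (Z.drop b) = phi Z := by
  unfold zt
  rw [← hphi, ← hphi, List.append_assoc]
  congr 1
  have h1 : Z.drop b = (Z.drop a).drop (b - a) := by
    rw [List.drop_drop]; congr 1; omega
  rw [h1, List.take_append_drop, List.take_append_drop]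

end basic

/-- grid parameters -/
structure Par where
  m : ℕ
  M : ℕ
  hM : 0 < M
  G : ℕ → ℕ
  hG : ∀ k, 0 < G k
  dvd : ∀ i k, i ≤ k → G i ∣ G k
  cop : ∀ k, Nat.Coprime M (G k)
  A : ℕ → ℕ
  hA : ∀ k, A (k + 1) = A k + G k + M * G k

namespace Par

variable (p : Par)

/-- the boundary `k` of a zone of length `T` -/
def beta (k T : ℕ) : ℕ := p.A k + (T - p.A k) % p.G k

/-- start of the cell of level `i` -/
def st (i : ℕ) : ℕ := p.A i + p.G i

/-- the boundary `k` seen by the right word of length `o'` at level `i` -/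
def qp (i k o' : ℕ) : ℕ := (p.A k - p.st i) + (o' + p.st i - p.A k) % p.G k

/-- right legality at level `i` with respect to the boundary `k` -/
def Vis (i k o' : ℕ) : Prop :=
  p.A k ≤ o' + p.st i ∧ (o' + p.st i - p.A k) % p.G k + (p.M * p.G i - 1) < p.G k

theorem A_mono {i k : ℕ} (h : i ≤ k) : p.A i ≤ p.A k := by
  induction k, h using Nat.le_induction with
  | base => exact le_rfl
  | succ n _ ih => rw [p.hA]; omega

theorem A_succ_le {i k : ℕ} (h : i < k) : p.st i + p.M * p.G i ≤ p.A k := by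
  have h1 := p.A_mono (show i + 1 ≤ k by omega)
  rw [p.hA] at h1
  unfold st
  omega

theorem st_mono {i k : ℕ} (h : i ≤ k) : p.st i ≤ p.st k := by
  rcases eq_or_lt_of_le h with rfl | h
  · exact le_rfl
  · have := p.A_succ_le h
    unfold st at *
    omega

theorem beta_lt (k T : ℕ) : p.beta k T < p.st k := by
  unfold beta st
  have := Nat.mod_lt (T - p.A k) (p.hG k)
  omega

theorem le_beta (k T : ℕ) : p.A k ≤ p.beta k T := by unfold beta; omega

/-- the left side knows the boundaries of the levels `≤ i` -/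
theorem beta_left {i k o o' : ℕ} (hk : k ≤ i) (ho : p.st i ≤ o) (hd : p.G i ∣ o') :
    p.beta k (o + o') = p.beta k o := by
  unfold beta
  have h1 : p.A k ≤ o := by
    have := p.st_mono hk
    unfold st at *
    omega
  have h2 : p.G k ∣ o' := (p.dvd k i hk).trans hd
  obtain ⟨c, hc⟩ := h2
  rw [show o + o' - p.A k = (o - p.A k) + o' by omega, hc, Nat.add_mul_mod_self_left]

/-- the right side knows the boundaries of the levels `> i` -/
theorem beta_right {i k o o' : ℕ} (hk : i < k) (ho : p.st i ≤ o) (ho2 : o < p.st i + p.M * p.G i)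
    (hv : p.Vis i k o') : p.beta k (o + o') = o + p.qp i k o' := by
  obtain ⟨h1, h2⟩ := hv
  have h3 := p.A_succ_le hk
  unfold beta qp
  obtain ⟨j, rfl⟩ : ∃ j, o = p.st i + j := ⟨o - p.st i, by omega⟩
  have h4 : p.st i + j + o' - p.A k = (o' + p.st i - p.A k) + j := by omega
  rw [h4]
  have h5 : ((o' + p.st i - p.A k) + j) % p.G k = (o' + p.st i - p.A k) % p.G k + j := by
    rw [Nat.add_mod]
    have h6 : j < p.G k := by omega
    rw [Nat.mod_eq_of_lt h6, Nat.mod_eq_of_lt (by omega)]
  rw [h5]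
  omega

/-- bad lengths (bands) -/
def Band (T : ℕ) : Prop :=
  ∃ k, k < p.m ∧ ((T - p.A (k + 1)) % p.G (k + 1) < p.M * p.G k ∨
    p.G (k + 1) ≤ (T - p.A (k + 1)) % p.G (k + 1) + p.M * p.G k)

theorem G_mono {i k : ℕ} (h : i ≤ k) : p.G i ≤ p.G k := Nat.le_of_dvd (p.hG k) (p.dvd i k h)

theorem vis_of {i k o T : ℕ} (hi : i < k) (hk : k ≤ p.m) (hT : p.st p.m ≤ T)
    (hB : ¬ p.Band T) (ho : p.st i ≤ o) (ho2 : o < p.st i + p.M * p.G i) :
    p.Vis i k (T - o) := by
  obtain ⟨k, rfl⟩ : ∃ k', k = k' + 1 := ⟨k - 1, by omega⟩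
  have h1 : ¬ ((T - p.A (k + 1)) % p.G (k + 1) < p.M * p.G k ∨
    p.G (k + 1) ≤ (T - p.A (k + 1)) % p.G (k + 1) + p.M * p.G k) := fun h => hB ⟨k, by omega, h⟩
  push Not at h1
  obtain ⟨h1, h2⟩ := h1
  have h3 : p.M * p.G i ≤ p.M * p.G k := Nat.mul_le_mul_left _ (p.G_mono (by omega))
  have h4 := p.A_succ_le hi
  have h5 : p.A (k + 1) ≤ T := by
    have := p.st_mono hk
    have h6 : p.A (k + 1) ≤ p.st (k + 1) := by unfold st; omega
    omega
  set r := (T - p.A (k + 1)) % p.G (k + 1) with hr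
  obtain ⟨j, rfl⟩ : ∃ j, o = p.st i + j := ⟨o - p.st i, by omega⟩
  have h6 := Nat.div_add_mod (T - p.A (k + 1)) (p.G (k + 1))
  rw [← hr] at h6
  have h7 : p.A (k + 1) ≤ (T - (p.st i + j)) + p.st i := by omega
  have h8 : (T - (p.st i + j)) + p.st i - p.A (k + 1)
      = p.G (k + 1) * ((T - p.A (k + 1)) / p.G (k + 1)) + (r - j) := by omega
  refine ⟨h7, ?_⟩
  rw [h8, Nat.mul_add_mod, Nat.mod_eq_of_lt (by omega)]
  omega

end Par

/-- the context (name) -/
structure Ctx (S V W : Type*) where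
  i : ℕ
  g : S
  wl : W
  h : S
  wr : W
  v : V

/-- the data of the zone gadget -/
structure Data (α S V W : Type*) [Monoid S] [AddCommGroup V] [AddCommGroup W] extends Par where
  phi : List α → S
  hphi : ∀ u v, phi (u ++ v) = phi u * phi v
  act : V → S → V
  e : ℕ → S → W
  F : S → W → V
  LN : ℕ → Option (Ctx S V W)
  RN : ℕ → Option (Ctx S V W)
  B : ℕ → Prop

variable {α S V W : Type*} [Monoid S] [AddCommGroup V] [AddCommGroup W]

namespace Data

variable (D : Data α S V W)

def val (c : Ctx S V W) (z : S) : V :=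
  D.F (c.g * z * c.h) (c.wl + D.e c.i z + c.wr) + D.act c.v (c.g * z * c.h)

def bval (c : Ctx S V W) : V := D.val c 1

def Good (c : Ctx S V W) : Prop := ∀ z, D.val c z = D.bval c

/-- the left part is legal with vector `v` -/
def LL (P : List α) (v : V) : Prop :=
  ∃ c : Ctx S V W, c.i < D.m ∧ D.st c.i ≤ P.length ∧ P.length < D.st c.i + D.M * D.G c.i ∧
    D.LN P.length = some c ∧ D.Good c ∧ c.g = D.phi (P.take (D.beta c.i P.length)) ∧
    c.wl = ∑ k ∈ range c.i, D.e k (zt D.phi P (D.beta k P.length) (D.beta (k + 1) P.length)) ∧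
    v = c.v

/-- the right part is legal with value `b` -/
def RR (Q : List α) (b : V) : Prop :=
  ∃ c : Ctx S V W, c.i < D.m ∧ D.RN Q.length = some c ∧ D.Good c ∧ D.G c.i ∣ Q.length ∧
    (∀ k, c.i < k → k ≤ D.m → D.Vis c.i k Q.length) ∧
    c.h = D.phi (Q.drop (D.qp c.i (c.i + 1) Q.length)) ∧
    c.wr = ∑ k ∈ Ico (c.i + 1) D.m,
      D.e k (zt D.phi Q (D.qp c.i k Q.length) (D.qp c.i (k + 1) Q.length)) ∧ b = D.bval c

/-- a legal pair of names over the length `n` -/
def Pair (n : ℕ) (p : Ctx S V W × Ctx S V W) : Prop :=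
  ∃ om om', om + om' = n ∧ D.LN om = some p.1 ∧ D.Good p.1 ∧ D.RN om' = some p.2 ∧ D.Good p.2

/-- the total weight of a zone word -/
def wt (Z : List α) : W :=
  ∑ k ∈ range D.m, D.e k (zt D.phi Z (D.beta k Z.length) (D.beta (k + 1) Z.length))

open Classical in
/-- the noise, a function of the zone word -/
noncomputable def nu (Z : List α) : V :=
  if D.B Z.length then
    (if h : ∃ p : Ctx S V W × Ctx S V W, D.Pair Z.length p then
      D.bval h.choose.2 - D.act h.choose.1.v (D.phi Z) else 0)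
  else D.F (D.phi Z) (D.wt Z)

def N1 : Prop := ∀ om om' c c', ¬ D.B (om + om') → D.LN om = some c → D.RN om' = some c' → c = c'

def N2 : Prop := ∀ n p p', D.B n → D.Pair n p → D.Pair n p' →
  p.1.v = p'.1.v ∧ D.bval p.2 = D.bval p'.2

def N3 : Prop := ∀ T c, ¬ D.B T → D.Good c → c.i < D.m → D.M ≤ T →
  ∃ t, t ≤ T ∧ D.LN t = some c ∧ D.RN (T - t) = some c

def Hides : Prop := ∀ (s : S) (w : W) (v : V), ∃ i, i < D.m ∧ ∀ g x h : S, g * x * h = s →
  ∀ z, D.F (g * z * h) (w - D.e i x + D.e i z) + D.act v (g * z * h) = D.F s w + D.act v s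

def PerL : Prop := ∀ t t', t % D.M = t' % D.M → D.LN t = D.LN t'
def PerR : Prop := ∀ t t', t % D.M = t' % D.M → D.RN t = D.RN t'

theorem sum_split {m i : ℕ} (hi : i < m) (f : ℕ → W) :
    ∑ k ∈ range m, f k = ∑ k ∈ range i, f k + f i + ∑ k ∈ Ico (i + 1) m, f k := by
  rw [← Finset.sum_range_succ, Finset.sum_range_add_sum_Ico f (by omega : i + 1 ≤ m)]

/-- the total weight from the two sides -/
theorem wt_eq {i : ℕ} (hi : i < D.m) (P Q : List α) (ho : D.st i ≤ P.length)
    (ho2 : P.length < D.st i + D.M * D.G i) (hd : D.G i ∣ Q.length)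
    (hv : ∀ k, i < k → k ≤ D.m → D.Vis i k Q.length) :
    ∃ x : S, D.phi (P.take (D.beta i P.length)) * x *
        D.phi (Q.drop (D.qp i (i + 1) Q.length)) = D.phi (P ++ Q) ∧
      D.wt (P ++ Q) = (∑ k ∈ range i, D.e k (zt D.phi P (D.beta k P.length)
        (D.beta (k + 1) P.length))) + D.e i x +
        ∑ k ∈ Ico (i + 1) D.m, D.e k (zt D.phi Q (D.qp i k Q.length) (D.qp i (k + 1) Q.length)) := by
  have hbl : ∀ k, k ≤ i → D.beta k (P ++ Q).length = D.beta k P.length := by
    intro k hk
    rw [List.length_append]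
    exact D.beta_left hk ho hd
  have hbr : ∀ k, i < k → k ≤ D.m →
      D.beta k (P ++ Q).length = P.length + D.qp i k Q.length := by
    intro k hk hk'
    rw [List.length_append]
    exact D.beta_right hk ho ho2 (hv k hk hk')
  have hble : ∀ k, k ≤ i → D.beta k P.length ≤ P.length := by
    intro k hk
    have h1 := D.beta_lt k P.length
    have h2 := D.st_mono hk
    omega
  refine ⟨zt D.phi (P ++ Q) (D.beta i P.length) (P.length + D.qp i (i + 1) Q.length), ?_, ?_⟩
  · have h5 : D.phi (P.take (D.beta i P.length)) = D.phi ((P ++ Q).take (D.beta i P.length)) := by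
      rw [List.take_append_of_le_length (hble i le_rfl)]
    have h6 : D.phi (Q.drop (D.qp i (i + 1) Q.length))
        = D.phi ((P ++ Q).drop (P.length + D.qp i (i + 1) Q.length)) := by
      rw [drop_add]
    rw [h5, h6]
    exact zt_split D.hphi _ (by have := hble i le_rfl; omega)
  · unfold wt
    rw [sum_split hi]
    congr 1
    · congr 1
      · apply Finset.sum_congr rfl
        intro k hk
        rw [Finset.mem_range] at hk
        rw [hbl k (by omega), hbl (k + 1) (by omega), zt_left D.phi (hble (k + 1) (by omega))]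
      · rw [hbl i le_rfl, hbr (i + 1) (by omega) (by omega)]
    · apply Finset.sum_congr rfl
      intro k hk
      rw [Finset.mem_Ico] at hk
      rw [hbr k (by omega) (by omega), hbr (k + 1) (by omega) (by omega), zt_right]

/-- **soundness** -/
theorem sound (h1 : D.N1) (h2 : D.N2) {P Q : List α} {v b : V} (hL : D.LL P v)
    (hR : D.RR Q b) : b = D.act v (D.phi (P ++ Q)) + D.nu (P ++ Q) := by
  classical
  obtain ⟨c, hi, hlo, hhi, hLN, hg, hcg, hcw, rfl⟩ := hL
  obtain ⟨c', hi', hRN, hg', hd, hv, hch, hcwr, rfl⟩ := hR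
  by_cases hB : D.B (P ++ Q).length
  · have hpair : D.Pair (P ++ Q).length (c, c') :=
      ⟨P.length, Q.length, by rw [List.length_append], hLN, hg, hRN, hg'⟩
    have hex : ∃ p : Ctx S V W × Ctx S V W, D.Pair (P ++ Q).length p := ⟨_, hpair⟩
    unfold nu
    rw [if_pos hB, dif_pos hex]
    obtain ⟨h3, h4⟩ := h2 _ _ _ hB hpair hex.choose_spec
    rw [← h3, ← h4]
    simp
  · have hcc : c = c' := h1 _ _ c c' (by rw [← List.length_append]; exact hB) hLN hRN
    subst hcc
    obtain ⟨x, hx1, hx2⟩ := D.wt_eq hi P Q hlo hhi hd hv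
    unfold nu
    rw [if_neg hB, hx2, ← hcw, ← hcwr, ← hg x]
    unfold val
    rw [hcg, hch, hx1, add_comm]

/-- **completeness** -/
theorem complete (h3 : D.N3) (hF : D.Hides) (hpl : D.PerL) (hpr : D.PerR) {Z : List α}
    (hB : ¬ D.B Z.length) (hb : ¬ D.Band Z.length) (hZ : D.st D.m ≤ Z.length)
    (hMZ : D.M ≤ Z.length) (v : V) :
    ∃ P Q : List α, Z = P ++ Q ∧ P.length ≤ D.st D.m ∧ D.LL P v ∧ ∃ b, D.RR Q b := by
  classical
  obtain ⟨i, hi, hhide⟩ := hF (D.phi Z) (D.wt Z) v
  -- the name, computed from the whole zone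
  set T := Z.length with hT
  have hii : D.beta i T ≤ D.beta (i + 1) T := by
    have h4 := D.beta_lt i T
    have h5 := D.le_beta (i + 1) T
    have h6 := D.A_succ_le (show i < i + 1 by omega)
    omega
  let c : Ctx S V W :=
    { i := i
      g := D.phi (Z.take (D.beta i T))
      wl := ∑ k ∈ range i, D.e k (zt D.phi Z (D.beta k T) (D.beta (k + 1) T))
      h := D.phi (Z.drop (D.beta (i + 1) T))
      wr := ∑ k ∈ Ico (i + 1) D.m, D.e k (zt D.phi Z (D.beta k T) (D.beta (k + 1) T))
      v := v }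
  have hprod := zt_split D.hphi Z hii
  have hws : D.wt Z = c.wl + D.e i (zt D.phi Z (D.beta i T) (D.beta (i + 1) T)) + c.wr := by
    unfold wt
    rw [sum_split hi]
  have hval : ∀ z, D.val c z = D.F (D.phi Z) (D.wt Z) + D.act v (D.phi Z) := by
    intro z
    have h5 := hhide _ _ _ hprod z
    rw [← h5]
    unfold val
    have h6 : c.wl + D.e c.i z + c.wr
        = D.wt Z - D.e i (zt D.phi Z (D.beta i T) (D.beta (i + 1) T)) + D.e i z := by
      rw [hws]; abel
    rw [h6]
  have hgood : D.Good c := by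
    intro z
    unfold bval
    rw [hval z, hval 1]
  obtain ⟨t, ht, hL, hR⟩ := h3 T c hB hgood hi hMZ
  -- the place by CRT
  obtain ⟨x, hx1, hx2⟩ := Nat.chineseRemainder (D.cop i) t T
  obtain ⟨o, ho1, ho2, ho3⟩ : ∃ o, D.st i ≤ o ∧ o < D.st i + D.M * D.G i ∧
      o ≡ x [MOD D.M * D.G i] := by
    have hN : 0 < D.M * D.G i := Nat.mul_pos D.hM (D.hG i)
    refine ⟨D.st i + (x + D.M * D.G i * D.st i - D.st i) % (D.M * D.G i), by omega, ?_, ?_⟩
    · have := Nat.mod_lt (x + D.M * D.G i * D.st i - D.st i) hN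
      omega
    · have hle : D.st i ≤ D.M * D.G i * D.st i := Nat.le_mul_of_pos_left _ hN
      have h7 : D.st i + (x + D.M * D.G i * D.st i - D.st i) % (D.M * D.G i)
          ≡ D.st i + (x + D.M * D.G i * D.st i - D.st i) [MOD D.M * D.G i] :=
        Nat.ModEq.add_left _ (Nat.mod_modEq _ _)
      refine h7.trans ?_
      rw [show D.st i + (x + D.M * D.G i * D.st i - D.st i) = x + D.M * D.G i * D.st i by omega]
      unfold Nat.ModEq
      rw [Nat.add_mul_mod_self_left]
  have hoM : o ≡ t [MOD D.M] := (ho3.of_mul_right _).trans hx1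
  have hoG : o ≡ T [MOD D.G i] := (ho3.of_mul_left _).trans hx2
  have h8 := D.A_succ_le hi
  have hAst : D.A D.m ≤ D.st D.m := by unfold Par.st; omega
  have hoT : o ≤ T := by omega
  have hLo : D.LN o = some c := by rw [hpl o t hoM]; exact hL
  have hRo : D.RN (T - o) = some c := by
    rw [hpr (T - o) (T - t) ?_]
    · exact hR
    · have h9 : (T - o) + o ≡ (T - t) + o [MOD D.M] := by
        have h10 : (T - t) + t ≡ (T - t) + o [MOD D.M] := Nat.ModEq.add_left _ hoM.symm
        rw [Nat.sub_add_cancel hoT]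
        rw [Nat.sub_add_cancel ht] at h10
        exact h10
      exact Nat.ModEq.add_right_cancel' o h9
  have hdvd : D.G i ∣ T - o := (Nat.modEq_iff_dvd' hoT).1 hoG
  have hPl : (Z.take o).length = o := by rw [List.length_take]; omega
  have hQl : (Z.drop o).length = T - o := by rw [List.length_drop]
  have hZPQ : Z.take o ++ Z.drop o = Z := List.take_append_drop _ _
  have hbl : ∀ k, k ≤ i → D.beta k T = D.beta k o := by
    intro k hk
    have := D.beta_left hk ho1 hdvd
    rwa [show o + (T - o) = T by omega] at this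
  have hvis : ∀ k, i < k → k ≤ D.m → D.Vis i k (T - o) := fun k hk hk' =>
    D.vis_of hk hk' hZ hb ho1 ho2
  have hbr : ∀ k, i < k → k ≤ D.m → D.beta k T = o + D.qp i k (T - o) := by
    intro k hk hk'
    have := D.beta_right hk ho1 ho2 (hvis k hk hk')
    rwa [show o + (T - o) = T by omega] at this
  have hble : ∀ k, k ≤ i → D.beta k o ≤ o := by
    intro k hk
    have h1 := D.beta_lt k o
    have h2 := D.st_mono hk
    omega
  refine ⟨Z.take o, Z.drop o, hZPQ.symm, by omega, ⟨c, hi, ?_, ?_, ?_, hgood, ?_, ?_, rfl⟩,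
    D.bval c, c, hi, ?_, hgood, ?_, ?_, ?_, ?_, rfl⟩
  · rw [hPl]; exact ho1
  · rw [hPl]; exact ho2
  · rw [hPl]; exact hLo
  · rw [hPl]
    change D.phi (Z.take (D.beta i T)) = D.phi ((Z.take o).take (D.beta i o))
    rw [List.take_take, min_eq_left (hble i le_rfl), hbl i le_rfl]
  · rw [hPl]
    change ∑ k ∈ range i, D.e k (zt D.phi Z (D.beta k T) (D.beta (k + 1) T))
      = ∑ k ∈ range i, D.e k (zt D.phi (Z.take o) (D.beta k o) (D.beta (k + 1) o))
    apply Finset.sum_congr rfl
    intro k hk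
    rw [Finset.mem_range] at hk
    have h9 := zt_left D.phi (P := Z.take o) (Q := Z.drop o) (a := D.beta k o)
      (b := D.beta (k + 1) o) (by rw [hPl]; exact hble (k + 1) (by omega))
    rw [hZPQ] at h9
    rw [hbl k (by omega), hbl (k + 1) (by omega), h9]
  · rw [hQl]; exact hRo
  · rw [hQl]; exact hdvd
  · rw [hQl]; exact hvis
  · rw [hQl]
    change D.phi (Z.drop (D.beta (i + 1) T))
      = D.phi ((Z.drop o).drop (D.qp i (i + 1) (T - o)))
    rw [List.drop_drop, hbr (i + 1) (by omega) (by omega)]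
  · rw [hQl]
    change ∑ k ∈ Ico (i + 1) D.m, D.e k (zt D.phi Z (D.beta k T) (D.beta (k + 1) T))
      = ∑ k ∈ Ico (i + 1) D.m, D.e k (zt D.phi (Z.drop o) (D.qp i k (T - o))
        (D.qp i (k + 1) (T - o)))
    apply Finset.sum_congr rfl
    intro k hk
    rw [Finset.mem_Ico] at hk
    have h9 := zt_right D.phi (P := Z.take o) (Q := Z.drop o) (a := D.qp i k (T - o))
      (b := D.qp i (k + 1) (T - o))
    rw [hZPQ, hPl] at h9
    rw [hbr k (by omega) (by omega), hbr (k + 1) (by omega) (by omega), h9]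

end Data

end Crest.Agent.R320.Grid_149
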