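import Crest.Agent.R320.Grid1_166

/-!
# Row 320: scheme-1 gadget on words without small walls (693 #13203): holes between
b-anchored nested grids.
-/

set_option autoImplicit false

namespace Crest.Agent.R320.Grid_166

open Crest.Agent.R320.Grid1_166

/-! ### the grids -/

/-- lower end of the range of the boundary `j` -/
def Am (M Γ : ℕ) : ℕ → ℕ
  | 0 => 0
  | j + 1 => Am M Γ j + Γ ^ j + M * Γ ^ j

/-- start of the cell `j` -/
def Ac (M Γ j : ℕ) : ℕ := Am M Γ j + Γ ^ j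

theorem Am_succ (M Γ j : ℕ) : Am M Γ (j + 1) = Ac M Γ j + M * Γ ^ j := rfl

theorem Am_mono (M Γ : ℕ) : Monotone (Am M Γ) :=
  monotone_nat_of_le_succ fun j => by
    rw [Am_succ, Ac, Nat.add_assoc]; exact Nat.le_add_right _ _

theorem Ac_le {M Γ i j : ℕ} (h : i < j) : Ac M Γ i + M * Γ ^ i ≤ Am M Γ j := by
  rw [← Am_succ]; exact Am_mono _ _ h

/-- the boundary `j` of a zone of length `T` -/
def bt (M Γ j T : ℕ) : ℕ := Am M Γ j + (T - Am M Γ j) % Γ ^ j

theorem bt_lt {M Γ : ℕ} (hΓ : 0 < Γ) (j T : ℕ) : bt M Γ j T < Ac M Γ j := by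
  unfold bt Ac
  have := Nat.mod_lt (T - Am M Γ j) (Nat.pow_pos hΓ : 0 < Γ ^ j)
  omega

theorem Am_le_bt (M Γ j T : ℕ) : Am M Γ j ≤ bt M Γ j T := Nat.le_add_right _ _

theorem bt_zero (M Γ T : ℕ) : bt M Γ 0 T = 0 := by simp [bt, Am, Nat.mod_one]

theorem bt_le {M Γ : ℕ} (hΓ : 0 < Γ) {i j : ℕ} (h : i < j) (T : ℕ) :
    bt M Γ i T ≤ bt M Γ j T := by
  have h1 := bt_lt (M := M) hΓ i T
  have h2 := Ac_le (M := M) (Γ := Γ) h
  have h3 := Am_le_bt M Γ j T
  omega

theorem bt_congr {M Γ i j o q : ℕ} (hj : j ≤ i) (ho : Ac M Γ i ≤ o) (hd : Γ ^ i ∣ q) :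
    bt M Γ j o = bt M Γ j (o + q) := by
  unfold bt
  have h0 : Am M Γ j ≤ o := by
    have := Am_mono M Γ hj
    unfold Ac at ho
    omega
  have hd' : Γ ^ j ∣ q := (pow_dvd_pow Γ hj).trans hd
  obtain ⟨k, rfl⟩ := hd'
  rw [show o + Γ ^ j * k - Am M Γ j = (o - Am M Γ j) + Γ ^ j * k by omega, Nat.add_mul_mod_self_left]

/-- boundary `j` seen from a cut in the cell `i < j` with `q` letters on the right -/
def gm (M Γ i j q : ℕ) : ℕ := (Am M Γ j - Ac M Γ i) + (q + Ac M Γ i - Am M Γ j) % Γ ^ j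

/-- right legality of level `i` -/
def Cn (M Γ m i q : ℕ) : Prop :=
  Ac M Γ m ≤ q ∧ Γ ^ i ∣ q ∧
    ∀ j, i < j → j ≤ m → (q + Ac M Γ i - Am M Γ j) % Γ ^ j + M * Γ ^ i < Γ ^ j

theorem gm_eq {M Γ m i j o q : ℕ} (hij : i < j) (hjm : j ≤ m) (h1 : Ac M Γ i ≤ o)
    (h2 : o < Am M Γ (i + 1)) (hC : Cn M Γ m i q) : gm M Γ i j q = bt M Γ j (o + q) - o := by
  obtain ⟨hq, -, hc⟩ := hC
  have hc := hc j hij hjm
  have ha : Am M Γ j ≤ q := by
    have := Am_mono M Γ hjm
    unfold Ac at hq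
    omega
  have hb : Am M Γ (i + 1) ≤ Am M Γ j := Am_mono M Γ hij
  rw [Am_succ] at h2 hb
  unfold gm bt
  obtain ⟨δ, rfl⟩ := Nat.exists_eq_add_of_le h1
  have hδ : δ < M * Γ ^ i := by omega
  set e := q + Ac M Γ i - Am M Γ j with he
  have h3 : Ac M Γ i + δ + q - Am M Γ j = e + δ := by omega
  rw [h3]
  obtain ⟨ρ, hρ⟩ : ∃ ρ, ρ = e % Γ ^ j := ⟨_, rfl⟩
  rw [← hρ] at hc
  have hδG : δ < Γ ^ j := by omega
  have hδG2 : ρ + δ < Γ ^ j := by omega
  have h4 : (e + δ) % Γ ^ j = ρ + δ := by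
    rw [Nat.add_mod, Nat.mod_eq_of_lt hδG, ← hρ, Nat.mod_eq_of_lt hδG2]
  rw [h4, ← hρ]
  omega

theorem bt_ge {M Γ i j o T : ℕ} (hij : i < j) (h2 : o < Am M Γ (i + 1)) : o ≤ bt M Γ j T := by
  have hb : Am M Γ (i + 1) ≤ Am M Γ j := Am_mono M Γ hij
  have := Am_le_bt M Γ j T
  omega

/-- bad lengths -/
def BadT (Ms : Finset ℕ) (Γ m : ℕ) (T : ℕ) : Prop :=
  (∃ p ∈ Ms, p ∣ T) ∨ ∃ j < m, (T - Am (∏ p ∈ Ms, p) Γ (j + 1)) % Γ ^ (j + 1) < (∏ p ∈ Ms, p) * Γ ^ j ∨
    Γ ^ (j + 1) ≤ (T - Am (∏ p ∈ Ms, p) Γ (j + 1)) % Γ ^ (j + 1) + (∏ p ∈ Ms, p) * Γ ^ j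

/-! ### words -/

section words

variable {α S V : Type*} [Monoid S] (f : α → S)

/-- value of a word -/
def ph (w : List α) : S := (w.map f).prod

theorem ph_append (u v : List α) : ph f (u ++ v) = ph f u * ph f v := by
  simp [ph]

theorem ph_nil : ph f [] = 1 := by simp [ph]

/-- factor of a word -/
def seg (X : List α) (a b : ℕ) : List α := (X.take b).drop a

theorem take_seg {X : List α} {a b : ℕ} (h : a ≤ b) : X.take a ++ seg X a b = X.take b := by
  unfold seg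
  conv_rhs => rw [← List.take_append_drop a (X.take b), List.take_take, Nat.min_eq_left h]

/-- contents of the holes `i .. i + k - 1` -/
def cts (b : ℕ → ℕ) (X : List α) (i k : ℕ) : List S :=
  (List.range' i k).map fun j => ph f (seg X (b j) (b (j + 1)))

theorem cts_length (b : ℕ → ℕ) (X : List α) (i k : ℕ) : (cts f b X i k).length = k := by
  simp [cts]

theorem cts_prod (b : ℕ → ℕ) (X : List α) (i k : ℕ) (hb : ∀ j, i ≤ j → j < i + k → b j ≤ b (j + 1)) :
    ph f (X.take (b i)) * (cts f b X i k).prod = ph f (X.take (b (i + k))) := by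
  induction k with
  | zero => simp [cts]
  | succ k ih =>
    unfold cts at ih ⊢
    rw [List.range'_concat, List.map_append, List.prod_append, ← mul_assoc,
      ih fun j h1 h2 => hb j h1 (by omega)]
    simp only [List.map_cons, List.map_nil, List.prod_cons, List.prod_nil, mul_one, one_mul]
    rw [← ph_append, take_seg (hb _ (by omega) (by omega)), Nat.add_assoc]

theorem cts_congr {b b' : ℕ → ℕ} {X X' : List α} {i k : ℕ}
    (h : ∀ j, i ≤ j → j < i + k → seg X (b j) (b (j + 1)) = seg X' (b' j) (b' (j + 1))) :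
    cts f b X i k = cts f b' X' i k := by
  unfold cts
  refine List.map_congr_left fun j hj => ?_
  rw [List.mem_range'_1] at hj
  rw [h j hj.1 hj.2]

theorem seg_take {X : List α} {a b o : ℕ} (h : b ≤ o) : seg (X.take o) a b = seg X a b := by
  unfold seg; rw [List.take_take, Nat.min_eq_left h]

theorem seg_left {P Q : List α} {a b : ℕ} (h : b ≤ P.length) : seg P a b = seg (P ++ Q) a b := by
  unfold seg; rw [List.take_append_of_le_length h]

theorem seg_right {P Q : List α} {a b : ℕ} (h : P.length ≤ a) (hab : a ≤ b) :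
    seg Q (a - P.length) (b - P.length) = seg (P ++ Q) a b := by
  unfold seg
  rw [List.take_append, List.drop_append, List.take_of_length_le (by omega : P.length ≤ b),
    List.drop_of_length_le h, List.nil_append]

/-- relation "left-legal with token": cell `i`, clock `|P|` -/
def LL (M Γ m : ℕ) (L : ℕ → S → List S → ℕ → Option V) (P : List α) (v : V) : Prop :=
  ∃ i < m, Ac M Γ i ≤ P.length ∧ P.length < Am M Γ (i + 1) ∧
    L i 1 (cts f (fun j => bt M Γ j P.length) P 0 i) P.length = some v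

open Classical in
/-- what the right side sees at level `i` -/
noncomputable def vw (M Γ m : ℕ) (Q : List α) (i : ℕ) : Option (List S × S) :=
  if i < m ∧ Cn M Γ m i Q.length then
    some (cts f (fun j => gm M Γ i j Q.length) Q (i + 1) (m - (i + 1)),
      ph f (Q.drop (gm M Γ i m Q.length)))
  else none

open Classical in
noncomputable def rho (M Γ m : ℕ) (R : (ℕ → Option (List S × S)) → ℕ → Option V) (Q : List α) :
    Option V :=
  if Ac M Γ m ≤ Q.length then R (vw f M Γ m Q) Q.length else none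

open Classical in
noncomputable def nu (Ms : Finset ℕ) (Γ m : ℕ) (D0 : ℕ → S → V) (D1 : S → List S → S → V)
    (X : List α) : V :=
  if ∃ p ∈ Ms, p ∣ X.length then D0 X.length (ph f X)
  else D1 1 (cts f (fun j => bt (∏ p ∈ Ms, p) Γ j X.length) X 0 m)
    (ph f (X.drop (bt (∏ p ∈ Ms, p) Γ m X.length)))

/-- the view of level `i` is the truth -/
theorem vw_true {M Γ m i : ℕ} (hΓ : 0 < Γ) {P Q : List α} (him : i < m)
    (h1 : Ac M Γ i ≤ P.length) (h2 : P.length < Am M Γ (i + 1)) (hC : Cn M Γ m i Q.length) :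
    cts f (fun j => gm M Γ i j Q.length) Q (i + 1) (m - (i + 1)) =
      cts f (fun j => bt M Γ j (P ++ Q).length) (P ++ Q) (i + 1) (m - (i + 1)) ∧
    Q.drop (gm M Γ i m Q.length) = (P ++ Q).drop (bt M Γ m (P ++ Q).length) ∧
    cts f (fun j => bt M Γ j P.length) P 0 i =
      cts f (fun j => bt M Γ j (P ++ Q).length) (P ++ Q) 0 i := by
  have hg : ∀ j, i < j → j ≤ m → gm M Γ i j Q.length = bt M Γ j (P ++ Q).length - P.length := by
    intro j hj hjm
    rw [List.length_append]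
    exact gm_eq hj hjm h1 h2 hC
  refine ⟨cts_congr f fun j hj1 hj2 => ?_, ?_, cts_congr f fun j _ hj2 => ?_⟩
  · have e1 := hg j (by omega) (by omega)
    have e2 := hg (j + 1) (by omega) (by omega)
    simp only [e1, e2]
    exact seg_right (bt_ge (by omega) h2) (bt_le hΓ (Nat.lt_succ_self j) _)
  · rw [hg m him le_rfl, List.drop_append,
      List.drop_of_length_le (bt_ge him h2 : P.length ≤ bt M Γ m (P ++ Q).length), List.nil_append]
  · have e1 : bt M Γ j P.length = bt M Γ j (P ++ Q).length := by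
      rw [List.length_append]; exact bt_congr (by omega) h1 hC.2.1
    have e2 : bt M Γ (j + 1) P.length = bt M Γ (j + 1) (P ++ Q).length := by
      rw [List.length_append]; exact bt_congr (by omega) h1 hC.2.1
    simp only [e1, e2]
    refine seg_left ?_
    rw [← e2]
    have h3 := bt_lt (M := M) hΓ (j + 1) P.length
    rcases Nat.lt_or_ge (j + 1) i with h4 | h4
    · have := Ac_le (M := M) (Γ := Γ) h4
      unfold Ac at *
      omega
    · have : j + 1 = i := by omega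
      subst this
      omega

theorem cts_split {b : ℕ → ℕ} {X : List α} {i m : ℕ} (him : i < m) :
    cts f b X 0 m = cts f b X 0 i ++ ph f (seg X (b i) (b (i + 1))) ::
      cts f b X (i + 1) (m - (i + 1)) := by
  unfold cts
  have h : List.range' 0 m = List.range' 0 i ++ i :: List.range' (i + 1) (m - (i + 1)) := by
    conv_lhs => rw [show m = i + (1 + (m - (i + 1))) by omega]
    rw [← List.range'_append_1, ← List.range'_append_1]
    simp
  rw [h, List.map_append, List.map_cons]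

theorem cts_take {b : ℕ → ℕ} {X : List α} {i m : ℕ} (him : i < m) :
    (cts f b X 0 m).take i = cts f b X 0 i := by
  rw [cts_split f him]
  exact List.take_left' (cts_length _ _ _ _ _)

theorem cts_drop {b : ℕ → ℕ} {X : List α} {i m : ℕ} (him : i < m) :
    (cts f b X 0 m).drop (i + 1) = cts f b X (i + 1) (m - (i + 1)) := by
  rw [cts_split f him, ← List.drop_drop, List.drop_left' (cts_length _ _ _ _ _)]
  rfl

theorem total {M Γ m : ℕ} (hΓ : 0 < Γ) (X : List α) :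
    (cts f (fun j => bt M Γ j X.length) X 0 m).prod * ph f (X.drop (bt M Γ m X.length)) = ph f X := by
  have h := cts_prod f (fun j => bt M Γ j X.length) X 0 m
    (fun j _ _ => bt_le hΓ (Nat.lt_succ_self j) _)
  simp only [bt_zero, List.take_zero, ph_nil, one_mul, Nat.zero_add] at h
  rw [h, ← ph_append, List.take_append_drop]

theorem sub_mod' {a δ G : ℕ} (hG : 0 < G) (h : δ ≤ a % G) : (a - δ) % G = a % G - δ := by
  have h1 := Nat.div_add_mod a G
  have h2 := Nat.mod_lt a hG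
  have h3 : a - δ = G * (a / G) + (a % G - δ) := by omega
  rw [h3, Nat.mul_add_mod]
  exact Nat.mod_eq_of_lt (by omega)

/-- a place of the cell `i` with given residues -/
theorem place {M Γ i : ℕ} (hM : 0 < M) (hΓ : 0 < Γ) (hco : Nat.Coprime M (Γ ^ i)) (t T : ℕ) :
    ∃ o, Ac M Γ i ≤ o ∧ o < Am M Γ (i + 1) ∧ o ≡ t [MOD M] ∧ o ≡ T [MOD Γ ^ i] := by
  obtain ⟨o0, h1, h2⟩ := Nat.chineseRemainder hco t T
  have hN : 0 < M * Γ ^ i := Nat.mul_pos hM (Nat.pow_pos hΓ)
  set N := M * Γ ^ i with hNd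
  refine ⟨Ac M Γ i + (o0 + (N - 1) * Ac M Γ i) % N, Nat.le_add_right _ _, ?_, ?_⟩
  · rw [Am_succ]
    exact Nat.add_lt_add_left (Nat.mod_lt _ hN) _
  · have h3 : Ac M Γ i + (o0 + (N - 1) * Ac M Γ i) % N ≡ o0 [MOD N] := by
      have h4 : Ac M Γ i + (o0 + (N - 1) * Ac M Γ i) % N ≡
          Ac M Γ i + (o0 + (N - 1) * Ac M Γ i) [MOD N] := (Nat.mod_modEq _ _).add_left _
      have h5 : Ac M Γ i + (o0 + (N - 1) * Ac M Γ i) = o0 + N * Ac M Γ i := by
        obtain ⟨k, hk⟩ : ∃ k, N = k + 1 := ⟨N - 1, by omega⟩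
        rw [hk]
        simp only [Nat.add_sub_cancel]
        ring
      rw [h5] at h4
      refine h4.trans ?_
      show (o0 + N * Ac M Γ i) % N = o0 % N
      exact Nat.add_mul_mod_self_left _ _ _
    exact ⟨(h3.of_dvd (Dvd.intro _ rfl)).trans h1, (h3.of_dvd (Dvd.intro_left _ rfl)).trans h2⟩

theorem cond_of {M Γ m i o T : ℕ} (hΓ : 0 < Γ) (him : i < m) (h1 : Ac M Γ i ≤ o)
    (h2 : o < Am M Γ (i + 1)) (hT : 2 * Ac M Γ m ≤ T) (hmod : o ≡ T [MOD Γ ^ i])
    (hgood : ∀ j < m, M * Γ ^ j ≤ (T - Am M Γ (j + 1)) % Γ ^ (j + 1) ∧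
      (T - Am M Γ (j + 1)) % Γ ^ (j + 1) + M * Γ ^ j < Γ ^ (j + 1)) :
    Cn M Γ m i (T - o) := by
  have h0 : Am M Γ (i + 1) ≤ Am M Γ m := Am_mono _ _ him
  have hA : Am M Γ m ≤ Ac M Γ m := Nat.le_add_right _ _
  refine ⟨by omega, (Nat.modEq_iff_dvd' (by omega)).1 hmod, fun j hij hjm => ?_⟩
  obtain ⟨j, rfl⟩ : ∃ k, j = k + 1 := ⟨j - 1, by omega⟩
  obtain ⟨g1, g2⟩ := hgood j (by omega)
  have hAj : Am M Γ (j + 1) ≤ Am M Γ m := Am_mono _ _ hjm
  obtain ⟨δ, rfl⟩ := Nat.exists_eq_add_of_le h1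
  have hle : M * Γ ^ i ≤ M * Γ ^ j := Nat.mul_le_mul_left _ (Nat.pow_le_pow_right hΓ (by omega))
  rw [Am_succ] at h2 h0
  have hδ : δ < M * Γ ^ i := by omega
  have he : T - (Ac M Γ i + δ) + Ac M Γ i - Am M Γ (j + 1) = T - Am M Γ (j + 1) - δ := by omega
  obtain ⟨ρ, hρ⟩ : ∃ ρ, ρ = (T - Am M Γ (j + 1)) % Γ ^ (j + 1) := ⟨_, rfl⟩
  rw [← hρ] at g1 g2
  rw [he, sub_mod' (Nat.pow_pos hΓ) (by rw [← hρ]; omega), ← hρ]
  omega

theorem Ac_mono {M Γ : ℕ} (hΓ : 0 < Γ) {i j : ℕ} (h : i ≤ j) : Ac M Γ i ≤ Ac M Γ j :=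
  Nat.add_le_add (Am_mono _ _ h) (Nat.pow_le_pow_right hΓ h)

theorem gm_le {M Γ : ℕ} (hΓ : 0 < Γ) (i j q : ℕ) : gm M Γ i j q ≤ Ac M Γ j := by
  unfold gm Ac
  have := Nat.mod_lt (q + (Am M Γ i + Γ ^ i) - Am M Γ j) (Nat.pow_pos hΓ : 0 < Γ ^ j)
  omega

theorem mod_shift {G q q' a c : ℕ} (h : q ≡ q' [MOD G]) (h1 : a ≤ q) (h2 : a ≤ q') :
    (q + c - a) % G = (q' + c - a) % G := by
  have e1 : q + c - a = (q - a) + c := by omega
  have e2 : q' + c - a = (q' - a) + c := by omega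
  rw [e1, e2]
  have : q - a ≡ q' - a [MOD G] := Nat.ModEq.add_right_cancel' a (by
    rw [Nat.sub_add_cancel h1, Nat.sub_add_cancel h2]; exact h)
  exact this.add_right c

theorem seg_congr {Q Q' : List α} {N a b : ℕ} (h : Q.take N = Q'.take N) (hb : b ≤ N) :
    seg Q a b = seg Q' a b := by
  rw [← seg_take (X := Q) (o := N) hb, h, seg_take hb]

theorem ph_drop {Q : List α} {g N : ℕ} (h : g ≤ N) (hN : N ≤ Q.length) :
    ph f (Q.drop g) = ph f ((Q.take N).drop g) * ph f (Q.drop N) := by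
  conv_lhs => rw [← List.take_append_drop N Q]
  rw [List.drop_append_of_le_length (by rw [List.length_take]; omega), ph_append]

theorem Cn_congr {M Γ m i q q' : ℕ} (him : i < m) (hq : Ac M Γ m ≤ q) (hq' : Ac M Γ m ≤ q')
    (h : q ≡ q' [MOD M * Γ ^ m]) (hC : Cn M Γ m i q) : Cn M Γ m i q' := by
  have hd : ∀ j, j ≤ m → q ≡ q' [MOD Γ ^ j] := fun j hj =>
    h.of_dvd ((pow_dvd_pow Γ hj).trans (Dvd.intro_left _ rfl))
  refine ⟨hq', ?_, fun j h1 h2 => ?_⟩
  · exact (Nat.ModEq.dvd_iff (hd i him.le) dvd_rfl).1 hC.2.1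
  · have h3 : Am M Γ j ≤ Ac M Γ m := (Am_mono _ _ h2).trans (Nat.le_add_right _ _)
    rw [← mod_shift (hd j h2) (h3.trans hq) (h3.trans hq')]
    exact hC.2.2 j h1 h2

theorem vw_congr {M Γ m : ℕ} (hΓ : 0 < Γ) {Q Q' : List α} (hq : Ac M Γ m ≤ Q.length)
    (hq' : Ac M Γ m ≤ Q'.length) (ht : Q.take (Ac M Γ m) = Q'.take (Ac M Γ m))
    (hd : ph f (Q.drop (Ac M Γ m)) = ph f (Q'.drop (Ac M Γ m)))
    (hm : Q.length ≡ Q'.length [MOD M * Γ ^ m]) : vw f M Γ m Q = vw f M Γ m Q' := by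
  have hg : ∀ i j, j ≤ m → gm M Γ i j Q.length = gm M Γ i j Q'.length := by
    intro i j hj
    have h3 : Am M Γ j ≤ Ac M Γ m := (Am_mono _ _ hj).trans (Nat.le_add_right _ _)
    unfold gm
    rw [mod_shift (hm.of_dvd ((pow_dvd_pow Γ hj).trans (Dvd.intro_left _ rfl))) (h3.trans hq)
      (h3.trans hq')]
  funext i
  unfold vw
  by_cases hC : i < m ∧ Cn M Γ m i Q.length
  · have hC' : i < m ∧ Cn M Γ m i Q'.length := ⟨hC.1, Cn_congr hC.1 hq hq' hm hC.2⟩
    rw [if_pos hC, if_pos hC']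
    have him := hC.1
    congr 2
    · refine cts_congr f fun j h1 h2 => ?_
      simp only [hg i j (by omega), hg i (j + 1) (by omega)]
      exact seg_congr ht ((gm_le hΓ _ _ _).trans (Ac_mono hΓ (by omega)))
    · rw [hg i m le_rfl, ph_drop f (gm_le hΓ _ _ _) hq, ph_drop f (gm_le hΓ _ _ _) hq', ht, hd]
  · have hC' : ¬ (i < m ∧ Cn M Γ m i Q'.length) := fun h =>
      hC ⟨h.1, Cn_congr h.1 hq' hq hm.symm h.2⟩
    rw [if_neg hC, if_neg hC']

theorem bt_congr' {M Γ m j q q' : ℕ} (hj : j ≤ m) (hq : Ac M Γ m ≤ q) (hq' : Ac M Γ m ≤ q')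
    (h : q ≡ q' [MOD M * Γ ^ m]) : bt M Γ j q = bt M Γ j q' := by
  have h3 : Am M Γ j ≤ Ac M Γ m := (Am_mono _ _ hj).trans (Nat.le_add_right _ _)
  unfold bt
  have := mod_shift (c := 0) (h.of_dvd ((pow_dvd_pow Γ hj).trans (Dvd.intro_left _ rfl)))
    (h3.trans hq) (h3.trans hq')
  simp only [Nat.add_zero] at this
  rw [this]

theorem bt_le' {M Γ : ℕ} (hΓ : 0 < Γ) {j m : ℕ} (h : j ≤ m) (T : ℕ) : bt M Γ j T ≤ Ac M Γ m :=
  (bt_lt hΓ _ _).le.trans (Ac_mono hΓ h)

end words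

universe u

/-- **Scheme-1 gadget on words** (693 #13203). -/
theorem grid (S V : Type*) [Monoid S] [Finite S] [AddCommGroup V] [Finite V]
    (act : V → S → V) :
    ∃ (m r : ℕ), 0 < m ∧ ∀ Bd : ℕ, 2 ≤ Bd → ∃ (Ms : Finset ℕ), Ms.card ≤ r ∧
      (∀ p ∈ Ms, p.Prime ∧ Bd < p) ∧
      ∀ (κ : ℕ) (Γ : ℕ), Γ = 2 ^ κ → ∀ (α : Type u) (f : α → S),
      ∃ (lam : List α → V → Prop) (rho : List α → Option V) (nu : List α → V),
        (∀ P Q v b, lam P v → rho Q = some b → b = act v (ph f (P ++ Q)) + nu (P ++ Q)) ∧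
        (∀ P v, lam P v → P.length < Am (∏ p ∈ Ms, p) Γ m) ∧
        (∀ Q b, rho Q = some b → Ac (∏ p ∈ Ms, p) Γ m ≤ Q.length) ∧
        (∀ Q Q', Ac (∏ p ∈ Ms, p) Γ m ≤ Q.length → Ac (∏ p ∈ Ms, p) Γ m ≤ Q'.length →
          Q.take (Ac (∏ p ∈ Ms, p) Γ m) = Q'.take (Ac (∏ p ∈ Ms, p) Γ m) →
          ph f (Q.drop (Ac (∏ p ∈ Ms, p) Γ m)) = ph f (Q'.drop (Ac (∏ p ∈ Ms, p) Γ m)) →
          Q.length ≡ Q'.length [MOD (∏ p ∈ Ms, p) * Γ ^ m] → rho Q = rho Q' ∧ nu Q = nu Q') ∧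
        (∀ X v, 2 * Ac (∏ p ∈ Ms, p) Γ m ≤ X.length → ¬ BadT Ms Γ m X.length →
          ∃ P Q b, X = P ++ Q ∧ lam P v ∧ rho Q = some b) := by
  classical
  obtain ⟨m, r, hm, H⟩ := ug2 S V act
  refine ⟨m, r, hm, fun Bd hBd => ?_⟩
  obtain ⟨Ms, L, R, D0, D1, hcard, hp, hL, hR, hD, hbad, hgood, hcomp⟩ := H Bd
  refine ⟨Ms, hcard, hp, fun κ Γ hΓ α f => ?_⟩
  have hΓ0 : 0 < Γ := by rw [hΓ]; positivity
  set M := ∏ p ∈ Ms, p with hMd
  have hM0 : 0 < M := Finset.prod_pos fun p h => (hp p h).1.pos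
  have hco : ∀ i, Nat.Coprime M (Γ ^ i) := by
    intro i
    rw [hΓ]
    refine Nat.Coprime.pow_right _ (Nat.Coprime.pow_right _ ?_)
    refine Nat.Coprime.prod_left fun p h => ?_
    have := (hp p h)
    exact (Nat.coprime_primes this.1 Nat.prime_two).2 (by omega)
  refine ⟨LL f M Γ m L, rho f M Γ m R, nu f Ms Γ m D0 D1, ?_, ?_, ?_, ?_, ?_⟩
  · rintro P Q v b ⟨i, him, h1, h2, hLv⟩ hr
    unfold rho at hr
    split_ifs at hr with hq
    unfold nu
    by_cases hb : ∃ p ∈ Ms, p ∣ (P ++ Q).length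
    · rw [if_pos hb]
      rw [List.length_append] at hb ⊢
      exact hbad _ _ _ _ _ _ _ _ _ hb hLv hr
    · rw [if_neg hb]
      push Not at hb
      have hb' := hb
      rw [List.length_append] at hb
      obtain ⟨-, zr, y, hv, hz⟩ := hgood _ _ _ _ _ _ _ _ hb hLv hr
      unfold vw at hv
      split_ifs at hv with hC
      simp only [Option.some.injEq, Prod.mk.injEq] at hv
      obtain ⟨hv1, hv2⟩ := hv
      obtain ⟨t1, t2, t3⟩ := vw_true f hΓ0 him h1 h2 hC.2
      have hz := hz (ph f (seg (P ++ Q) (bt M Γ i (P ++ Q).length)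
        (bt M Γ (i + 1) (P ++ Q).length))) (cts_length _ _ _ _ _)
      rw [hz, ← hv1, ← hv2, t1, t2, t3, ← cts_split f him]
      congr 2
      have htot := total f (m := m) (M := M) hΓ0 (P ++ Q)
      rw [cts_split f him] at htot
      rw [← htot]
      simp only [List.prod_append, List.prod_cons, one_mul, mul_assoc]
  · rintro P v ⟨i, him, -, h2, -⟩
    exact lt_of_lt_of_le h2 (Am_mono _ _ him)
  · intro Q b hr
    unfold rho at hr
    split_ifs at hr with hq
    exact hq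
  · intro Q Q' hq hq' ht hd hm'
    refine ⟨?_, ?_⟩
    · unfold rho
      rw [if_pos hq, if_pos hq', vw_congr f hΓ0 hq hq' ht hd hm', per_mod (hR _) Q.length,
        per_mod (hR _) Q'.length]
      congr 1
      exact hm'.of_dvd (Dvd.intro _ rfl)
    · have hM' : Q.length ≡ Q'.length [MOD M] := hm'.of_dvd (Dvd.intro _ rfl)
      have hph : ph f Q = ph f Q' := by
        have e1 := ph_drop f (Nat.zero_le (Ac M Γ m)) hq
        have e2 := ph_drop f (Nat.zero_le (Ac M Γ m)) hq'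
        simp only [List.drop_zero] at e1 e2
        rw [e1, e2, ht, hd]
      have hiff : (∃ p ∈ Ms, p ∣ Q.length) ↔ (∃ p ∈ Ms, p ∣ Q'.length) := by
        refine exists_congr fun p => and_congr_right fun hpm => ?_
        exact Nat.ModEq.dvd_iff (hM'.of_dvd (Finset.dvd_prod_of_mem _ hpm)) dvd_rfl
      unfold nu
      by_cases hb : ∃ p ∈ Ms, p ∣ Q.length
      · rw [if_pos hb, if_pos (hiff.1 hb), hph]
        have e1 := per_mod (f := fun t => D0 t (ph f Q')) (fun t => hD t _) Q.length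
        have e2 := per_mod (f := fun t => D0 t (ph f Q')) (fun t => hD t _) Q'.length
        have e3 : Q.length % M = Q'.length % M := hM'
        show D0 Q.length (ph f Q') = D0 Q'.length (ph f Q')
        exact e1.trans ((congrArg (fun t => D0 t (ph f Q')) e3).trans e2.symm)
      · rw [if_neg hb, if_neg fun h => hb (hiff.2 h)]
        have hbt : ∀ j, j ≤ m → bt M Γ j Q.length = bt M Γ j Q'.length :=
          fun j hj => bt_congr' hj hq hq' hm'
        show D1 1 (cts f (fun j => bt M Γ j Q.length) Q 0 m) (ph f (Q.drop (bt M Γ m Q.length))) =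
          D1 1 (cts f (fun j => bt M Γ j Q'.length) Q' 0 m) (ph f (Q'.drop (bt M Γ m Q'.length)))
        congr 1
        · refine cts_congr f fun j h1 h2 => ?_
          simp only [hbt j (by omega), hbt (j + 1) (by omega)]
          exact seg_congr ht (bt_le' hΓ0 (by omega) _)
        · rw [hbt m le_rfl, ph_drop f (bt_le' hΓ0 le_rfl _) hq,
            ph_drop f (bt_le' hΓ0 le_rfl _) hq', ht, hd]
  · intro X v hX hBT
    unfold BadT at hBT
    push Not at hBT
    obtain ⟨hB1, hB2⟩ := hBT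
    have hAm1 : Am M Γ 1 ≤ Am M Γ m := Am_mono _ _ hm
    have hAm1' : Am M Γ 1 = 1 + M := by simp [Am]
    have hAmc : Am M Γ m ≤ Ac M Γ m := Nat.le_add_right _ _
    obtain ⟨i, him, t, htM, htT, hLt, hRt⟩ := hcomp X.length 1
      (cts f (fun j => bt M Γ j X.length) X 0 m) (ph f (X.drop (bt M Γ m X.length))) v
      (cts_length _ _ _ _ _) hB1 (by omega)
    obtain ⟨o, o1, o2, o3, o4⟩ := place hM0 hΓ0 (hco i) t X.length
    have hoT : o ≤ X.length := by
      have : Am M Γ (i + 1) ≤ Am M Γ m := Am_mono M Γ him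
      omega
    have hC := cond_of hΓ0 him o1 o2 hX o4 (fun j hj => by
      have := hB2 j hj
      exact this)
    have hPl : (X.take o).length = o := by rw [List.length_take]; omega
    have hQl : (X.drop o).length = X.length - o := by rw [List.length_drop]
    obtain ⟨t1, t2, t3⟩ := vw_true f hΓ0 (P := X.take o) (Q := X.drop o) him
      (by rw [hPl]; exact o1) (by rw [hPl]; exact o2) (by rw [hQl]; exact hC)
    rw [List.take_append_drop] at t1 t2 t3
    have hoM : o % M = t := by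
      have : o % M = t % M := o3
      rw [this, Nat.mod_eq_of_lt htM]
    obtain ⟨b, hb⟩ := hRt (vw f M Γ m (X.drop o)) (by
      unfold vw
      rw [if_pos ⟨him, by rw [hQl]; exact hC⟩, t1, t2, cts_drop f him])
    refine ⟨X.take o, X.drop o, b, (List.take_append_drop _ _).symm, ?_, ?_⟩
    · refine ⟨i, him, by rw [hPl]; exact o1, by rw [hPl]; exact o2, ?_⟩
      rw [t3, hPl, per_mod (hL i 1 _) o, hoM, ← hLt]
      rw [cts_take f him]
    · unfold rho
      rw [if_pos (by rw [hQl]; exact hC.1), hQl, ← hb, per_mod (hR _) (X.length - o),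
        per_mod (hR _) (X.length - t)]
      congr 1
      have : X.length - o ≡ X.length - t [MOD M] :=
        Nat.ModEq.add_right_cancel o3 (by
          rw [Nat.sub_add_cancel hoT, Nat.sub_add_cancel htT])
      exact this

end Crest.Agent.R320.Grid_166
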