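import Crest.Agent.R320.Names_570
import Crest.Agent.R320.RandF_808

/-!
# Row 320: 693's grid gadget (scheme 1 on all words, no walls inside), abstract part (helper193)
-/

set_option autoImplicit false

namespace Crest.Agent.R320.Grid_193

open Finset

/-- value of a word -/
def pr {A S : Type*} [Monoid S] (phi : A → S) (u : List A) : S := (u.map phi).prod

theorem pr_append {A S : Type*} [Monoid S] (phi : A → S) (u v : List A) :
    pr phi (u ++ v) = pr phi u * pr phi v := by
  simp [pr]

/-- constants of the gadget -/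
structure Con where
  m : ℕ
  M : ℕ
  Gam : ℕ
  hM : 0 < M
  hG : 0 < Gam
  cop : Nat.Coprime M Gam

namespace Con

variable (K : Con)

/-- grid sizes -/
def G (j : ℕ) : ℕ := K.Gam ^ j

/-- big unit -/
def L : ℕ := 2 * K.M * K.Gam ^ K.m

/-- the boundaries -/
def be (T j : ℕ) : ℕ := K.L * j + T % K.G j

/-- boundaries seen from the right -/
def bR (i t j : ℕ) : ℕ := K.L * (j - i) - K.G i + (t + K.G i) % K.G j

/-- the cell of level `i` -/
def Cell (i o : ℕ) : Prop := K.L * i + K.G i ≤ o ∧ o < K.L * i + K.G i + K.M * K.G i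

/-- position part of right legality -/
def RLeg (i t : ℕ) : Prop :=
  K.G i ∣ t ∧ ∀ j, i < j → j ≤ K.m → (t + K.G i) % K.G j + K.M * K.G i ≤ K.G j

theorem G_pos (j : ℕ) : 0 < K.G j := Nat.pow_pos K.hG

theorem G_dvd {i j : ℕ} (h : i ≤ j) : K.G i ∣ K.G j := Nat.pow_dvd_pow _ h

theorem MG_dvd_L {i : ℕ} (h : i ≤ K.m) : K.M * K.G i ∣ K.L := by
  unfold L
  rw [mul_assoc]
  exact Dvd.dvd.mul_left (Nat.mul_dvd_mul_left _ (K.G_dvd h)) 2

theorem G_dvd_L {i : ℕ} (h : i ≤ K.m) : K.G i ∣ K.L :=
  (Dvd.intro_left K.M rfl).trans (K.MG_dvd_L h)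

theorem cell_le {i : ℕ} (h : i ≤ K.m) : K.G i + K.M * K.G i ≤ K.L := by
  have h1 : K.G i ≤ K.G K.m := Nat.le_of_dvd (K.G_pos _) (K.G_dvd h)
  have h2 : K.M * K.G i ≤ K.M * K.G K.m := Nat.mul_le_mul_left _ h1
  have h3 : K.G i ≤ K.M * K.G K.m := h1.trans (Nat.le_mul_of_pos_left _ K.hM)
  have h4 : K.L = 2 * (K.M * K.G K.m) := by unfold L G; ring
  omega

theorem G_le_L {i : ℕ} (h : i ≤ K.m) : K.G i ≤ K.L := by
  have := K.cell_le h
  omega

theorem be_lt {T j : ℕ} (h : j ≤ K.m) : K.be T j < K.L * (j + 1) := by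
  unfold be
  have h1 := Nat.mod_lt T (K.G_pos j)
  have h2 := K.G_le_L h
  rw [mul_add]
  omega

theorem le_be {T j : ℕ} : K.L * j ≤ K.be T j := by
  unfold be; omega

theorem left_eq {i o t j : ℕ} (hR : K.RLeg i t) (hj : j ≤ i) :
    K.be o j = K.be (o + t) j := by
  unfold be
  obtain ⟨c, hc⟩ := (K.G_dvd hj).trans hR.1
  rw [hc, Nat.add_mul_mod_self_left]

theorem left_le {i o T : ℕ} (hC : K.Cell i o) : K.be T i ≤ o := by
  have h1 := Nat.mod_lt T (K.G_pos i)
  have h2 := hC.1
  unfold be
  omega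

theorem o_lt {i o : ℕ} (hi : i ≤ K.m) (hC : K.Cell i o) : o < K.L * (i + 1) := by
  have h1 := K.cell_le hi
  have h2 := hC.2
  rw [mul_add]
  omega

theorem mono {T j : ℕ} (h : j ≤ K.m) : K.be T j ≤ K.be T (j + 1) :=
  (K.be_lt h).le.trans K.le_be

theorem right_eq {i o t j : ℕ} (hC : K.Cell i o) (hR : K.RLeg i t)
    (hij : i < j) (hj : j ≤ K.m) : K.be (o + t) j = o + K.bR i t j := by
  obtain ⟨r, hr⟩ : ∃ r, o = K.L * i + K.G i + r := ⟨o - (K.L * i + K.G i), by have := hC.1; omega⟩
  have hr2 : r < K.M * K.G i := by have := hC.2; omega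
  have h1 := hR.2 j hij hj
  obtain ⟨c, hc⟩ := K.G_dvd_L hj
  have h2 : (o + t) % K.G j = (t + K.G i) % K.G j + r := by
    have e1 : o + t = (t + K.G i) + r + K.G j * (c * i) := by
      rw [hr, hc]; ring
    rw [e1, Nat.add_mul_mod_self_left]
    have e2 : (t + K.G i + r) % K.G j = ((t + K.G i) % K.G j + r) % K.G j := by
      rw [Nat.add_mod, Nat.add_mod ((t + K.G i) % K.G j) r, Nat.mod_mod]
    rw [e2]
    exact Nat.mod_eq_of_lt (by omega)
  unfold be bR
  rw [h2]
  obtain ⟨d, hd⟩ : ∃ d, j = i + 1 + d := ⟨j - (i + 1), by omega⟩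
  have h3 : j - i = 1 + d := by omega
  have h4 := K.G_le_L (i := i) (by omega)
  have h5 : K.L * j = K.L * i + K.L * (1 + d) := by rw [hd]; ring
  have h6 : K.L * (1 + d) = K.L + K.L * d := by ring
  rw [h3, h5, hr]
  omega

end Con

/-! ### word lemmas -/

theorem seg_left {A : Type*} (p q : List A) {a b : ℕ} (hb : b ≤ p.length) :
    ((p ++ q).take b).drop a = (p.take b).drop a := by
  rw [List.take_append_of_le_length hb]

theorem seg_right {A : Type*} (p q : List A) (a b : ℕ) :
    ((p ++ q).take (p.length + b)).drop (p.length + a) = (q.take b).drop a := by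
  rw [List.take_length_add_append, List.drop_length_add_append]

theorem drop_right {A : Type*} (p q : List A) (a : ℕ) :
    (p ++ q).drop (p.length + a) = q.drop a := by
  rw [List.drop_length_add_append]

theorem split3 {A : Type*} (u : List A) {a b : ℕ} (h : a ≤ b) :
    u = u.take a ++ ((u.take b).drop a ++ u.drop b) := by
  have h1 : u.take a = (u.take b).take a := by rw [List.take_take, Nat.min_eq_left h]
  rw [← List.append_assoc, h1, List.take_append_drop, List.take_append_drop]

/-- names -/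
abbrev Nm (m : ℕ) (S W V : Type*) := Fin m × S × W × S × W × V

section

variable {S W V : Type*} [Monoid S] [AddCommGroup W] [AddCommGroup V]
variable (K : Con) (act : V → S → V) (e : ℕ → S → W) (F : S → W → V)

/-- value of a name -/
def bb (c : Nm K.m S W V) : V :=
  F (c.2.1 * 1 * c.2.2.2.1) (c.2.2.1 + e c.1 1 + c.2.2.2.2.1) + act c.2.2.2.2.2 (c.2.1 * 1 * c.2.2.2.1)

/-- token of a name -/
def vv (c : Nm K.m S W V) : V := c.2.2.2.2.2

/-- usable names -/
def Used (c : Nm K.m S W V) : Prop :=
  ∀ z, F (c.2.1 * z * c.2.2.2.1) (c.2.2.1 + e c.1 z + c.2.2.2.2.1) +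
    act c.2.2.2.2.2 (c.2.1 * z * c.2.2.2.1) = bb K act e F c

variable {A : Type*} (phi : A → S)

/-- digit sum -/
def ws (u : List A) (b : ℕ → ℕ) (I : Finset ℕ) : W :=
  ∑ j ∈ I, e j (pr phi ((u.take (b (j + 1))).drop (b j)))

/-- left data agree with the name -/
def LD (p : List A) (c : Nm K.m S W V) : Prop :=
  K.Cell c.1 p.length ∧ Used K act e F c ∧
  pr phi (p.take (K.be p.length c.1)) = c.2.1 ∧
  ws e phi p (K.be p.length) (range c.1) = c.2.2.1

/-- right data agree with the name -/
def RD (q : List A) (c : Nm K.m S W V) : Prop :=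
  K.RLeg c.1 q.length ∧
  pr phi (q.drop (K.bR c.1 q.length (c.1 + 1))) = c.2.2.2.1 ∧
  ws e phi q (K.bR c.1 q.length) (Ico ((c.1 : ℕ) + 1) K.m) = c.2.2.2.2.1

/-- the digit sum of a zone -/
def wt (u : List A) : W := ws e phi u (K.be u.length) (range K.m)

theorem transL {p q : List A} {i : ℕ} (hC : K.Cell i p.length) (hR : K.RLeg i q.length)
    (hi : i < K.m) :
    pr phi ((p ++ q).take (K.be (p ++ q).length i)) = pr phi (p.take (K.be p.length i)) ∧
    ws e phi (p ++ q) (K.be (p ++ q).length) (range i) = ws e phi p (K.be p.length) (range i) := by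
  have hle : K.be (p ++ q).length i ≤ p.length := K.left_le hC
  have hmono : ∀ j, j ≤ i → K.be (p ++ q).length j ≤ p.length := by
    intro j hj
    rcases Nat.lt_or_ge j i with h | h
    · have h1 := K.be_lt (T := (p ++ q).length) (j := j) (by omega)
      have h2 : K.L * (j + 1) ≤ K.L * i := Nat.mul_le_mul_left _ h
      have h3 := hC.1
      omega
    · have : j = i := by omega
      rw [this]; exact hle
  constructor
  · rw [List.length_append, ← K.left_eq hR le_rfl, List.take_append_of_le_length]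
    have := K.left_le (T := p.length) hC
    exact this
  · unfold ws
    refine Finset.sum_congr rfl fun j hj => ?_
    have hj' := Finset.mem_range.1 hj
    rw [List.length_append, ← K.left_eq hR (j := j + 1) hj', ← K.left_eq hR (j := j) hj'.le,
      seg_left]
    have := hmono (j + 1) hj'
    rw [List.length_append, ← K.left_eq hR (j := j + 1) hj'] at this
    exact this

theorem transR {p q : List A} {i : ℕ} (hC : K.Cell i p.length) (hR : K.RLeg i q.length)
    (hi : i < K.m) :
    pr phi ((p ++ q).drop (K.be (p ++ q).length (i + 1))) =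
      pr phi (q.drop (K.bR i q.length (i + 1))) ∧
    ws e phi (p ++ q) (K.be (p ++ q).length) (Ico (i + 1) K.m) =
      ws e phi q (K.bR i q.length) (Ico (i + 1) K.m) := by
  constructor
  · rw [List.length_append, K.right_eq hC hR (Nat.lt_succ_self i) hi, drop_right]
  · unfold ws
    refine Finset.sum_congr rfl fun j hj => ?_
    have hj' := Finset.mem_Ico.1 hj
    rw [List.length_append, K.right_eq hC hR (j := j + 1) (by omega) (by omega),
      K.right_eq hC hR (j := j) (by omega) (by omega), seg_right]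

/-- splitting of a zone at level `i` -/
theorem split_val (u : List A) {i : ℕ} (hi : i < K.m) :
    pr phi u = pr phi (u.take (K.be u.length i)) *
      pr phi ((u.take (K.be u.length (i + 1))).drop (K.be u.length i)) *
      pr phi (u.drop (K.be u.length (i + 1))) := by
  have h := split3 u (K.mono (T := u.length) hi.le)
  conv_lhs => rw [h]
  rw [pr_append, pr_append, mul_assoc]

theorem split_ws (u : List A) (b : ℕ → ℕ) {i m : ℕ} (hi : i < m) :
    ws e phi u b (range m) = ws e phi u b (range i) +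
      e i (pr phi ((u.take (b (i + 1))).drop (b i))) + ws e phi u b (Ico (i + 1) m) := by
  unfold ws
  rw [← Finset.sum_range_succ, Finset.range_eq_Ico, Finset.range_eq_Ico,
    Finset.sum_Ico_consecutive _ (Nat.zero_le _) (by omega)]

/-- **main equation**: same name on both sides. -/
theorem same_sound {p q : List A} {c : Nm K.m S W V} (hL : LD K act e F phi p c)
    (hR : RD K e phi q c) :
    bb K act e F c = act (vv K c) (pr phi (p ++ q)) + F (pr phi (p ++ q)) (wt K e phi (p ++ q)) := by
  obtain ⟨hC, hU, hg, hwl⟩ := hL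
  obtain ⟨hR, hh, hwr⟩ := hR
  have hi : (c.1 : ℕ) < K.m := c.1.2
  obtain ⟨a1, a2⟩ := transL (e := e) K phi hC hR hi
  obtain ⟨b1, b2⟩ := transR (e := e) K phi hC hR hi
  set z := pr phi (((p ++ q).take (K.be (p ++ q).length (c.1 + 1))).drop
    (K.be (p ++ q).length c.1)) with hz
  have e1 : pr phi (p ++ q) = c.2.1 * z * c.2.2.2.1 := by
    rw [split_val K phi (p ++ q) hi, a1, b1, hg, hh]
  have e2 : wt K e phi (p ++ q) = c.2.2.1 + e c.1 z + c.2.2.2.2.1 := by
    unfold wt
    rw [split_ws e phi (p ++ q) (K.be (p ++ q).length) hi, a2, b2, hwl, hwr]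
  rw [e1, e2, ← hU z, add_comm]
  rfl

end

end Crest.Agent.R320.Grid_193
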