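import Crest.Agent.R320.UG2_219

/-!
# Row 320: the grid gadget on words (scheme 1 without small walls, after helper693)

Hole ends on nested grids anchored at the right end: `β j = Am j + (T - Am j) % G j`.
-/

set_option autoImplicit false

namespace Crest.Agent.R320.Grid219

/-- grid constants: `G j = Γ^j`-like steps, each dividing the next one -/
structure Par where
  m : ℕ
  M : ℕ
  G : ℕ → ℕ
  Am : ℕ → ℕ
  hM : 0 < M
  hG : ∀ j, 0 < G j
  hdvd : ∀ j, G j ∣ G (j + 1)
  hA : ∀ j, Am (j + 1) = Am j + G j + M * G j

namespace Par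

variable (P : Par)

/-- start of the cell of level `j` -/
def A (j : ℕ) : ℕ := P.Am j + P.G j
/-- length of the cell of level `j` -/
def c (j : ℕ) : ℕ := P.M * P.G j
/-- hole end `j` in a zone of length `T` -/
def be (T j : ℕ) : ℕ := P.Am j + (T - P.Am j) % P.G j
/-- distance of the hole end `j` from the right end -/
def ga (T j : ℕ) : ℕ := T - P.be T j

lemma G_dvd {i j : ℕ} (h : i ≤ j) : P.G i ∣ P.G j := by
  induction j, h using Nat.le_induction with
  | base => exact dvd_rfl
  | succ j _ ih => exact ih.trans (P.hdvd j)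

lemma Am_mono {i j : ℕ} (h : i ≤ j) : P.Am i ≤ P.Am j := by
  induction j, h using Nat.le_induction with
  | base => exact le_rfl
  | succ j _ ih => rw [P.hA]; omega

lemma A_le_Am {i j : ℕ} (h : i < j) : P.A i + P.c i ≤ P.Am j := by
  have h1 : P.Am (i + 1) ≤ P.Am j := P.Am_mono h
  have h2 := P.hA i
  unfold A c
  omega

lemma be_lt (T j : ℕ) : P.be T j < P.A j := by
  unfold be A
  have := Nat.mod_lt (T - P.Am j) (P.hG j)
  omega

lemma Am_le_be (T j : ℕ) : P.Am j ≤ P.be T j := by unfold be; omega

lemma be_mono {T i j : ℕ} (h : i ≤ j) : P.be T i ≤ P.be T j := by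
  rcases Nat.eq_or_lt_of_le h with h | h
  · rw [h]
  · have h1 := P.be_lt T i
    have h2 := P.A_le_Am h
    have h3 := P.Am_le_be T j
    omega

lemma be_le {T j : ℕ} (h : P.Am j ≤ T) : P.be T j ≤ T := by
  unfold be
  have := Nat.mod_le (T - P.Am j) (P.G j)
  omega

/-- the left side knows the hole ends up to its level -/
lemma be_left {T o i j : ℕ} (hj : j ≤ i) (hoT : o ≤ T) (ho : P.Am j ≤ o)
    (hd : P.G i ∣ T - o) : P.be T j = P.be o j := by
  unfold be
  have h1 : P.G j ∣ T - o := (P.G_dvd hj).trans hd
  obtain ⟨k, hk⟩ := h1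
  have h2 : T - P.Am j = (o - P.Am j) + P.G j * k := by omega
  rw [h2, Nat.add_mul_mod_self_left]

/-- the distance of the hole end from the right end is the largest multiple of `G j` which is
`≤ T - Am j` -/
lemma ga_eq {T j : ℕ} (h : P.Am j ≤ T) : P.ga T j = P.G j * ((T - P.Am j) / P.G j) := by
  unfold ga be
  have := Nat.div_add_mod (T - P.Am j) (P.G j)
  omega

/-- what the right side at distance `q` from the right end computes on level `i` -/
def gaR (i q j : ℕ) : ℕ := P.G j * ((q - (P.Am j - P.A i)) / P.G j)

/-- no ambiguity for the hole end `j` on level `i` -/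
def Cl (i q j : ℕ) : Prop :=
  (q - (P.Am j - P.A i)) / P.G j = (q - (P.Am j - P.A i) + P.c i) / P.G j

lemma ga_right {T o q i j : ℕ} (hij : i < j) (hT : T = o + q) (h1 : P.A i ≤ o)
    (h2 : o < P.A i + P.c i) (h3 : P.Am j ≤ q) (hcl : P.Cl i q j) :
    P.ga T j = P.gaR i q j := by
  have hA := P.A_le_Am hij
  rw [P.ga_eq (by omega)]
  unfold gaR
  unfold Cl at hcl
  set b := q - (P.Am j - P.A i) with hb
  have e1 : T - P.Am j = b + (o - P.A i) := by omega
  rw [e1]
  congr 1
  apply le_antisymm
  · rw [hcl]
    exact Nat.div_le_div_right (by omega)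
  · exact Nat.div_le_div_right (by omega)

end Par

section words

variable {α S V : Type*} [Monoid S] (φ : List α → S)

/-- product of the factor `u[a,b)` -/
def seg (u : List α) (a b : ℕ) : S := φ ((u.take b).drop a)

/-- product of the factor between the distances `g` and `g'` (`g ≥ g'`) from the right end -/
def segR (q : List α) (g g' : ℕ) : S := φ ((q.take (q.length - g')).drop (q.length - g))

variable (P : Par)

def xT (T : ℕ) (u : List α) : S := φ (u.take (P.be T 0))
def zT (T : ℕ) (u : List α) : List S := (List.range P.m).map fun j => seg φ u (P.be T j) (P.be T (j + 1))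
def yT (T : ℕ) (u : List α) : S := φ (u.drop (P.be T P.m))

open Classical in
/-- view of the right side -/
noncomputable def view (q : List α) (i : ℕ) : Option (List S × S) :=
  if P.G i ∣ q.length ∧ ∀ j, i < j → j ≤ P.m → P.Cl i q.length j then
    some (((List.range P.m).drop (i + 1)).map fun j =>
        segR φ q (P.gaR i q.length j) (P.gaR i q.length (j + 1)),
      φ (q.drop (q.length - P.gaR i q.length P.m)))
  else none

variable {φ P}

lemma prod_take_aux (hφ : ∀ u v, φ (u ++ v) = φ u * φ v) (T : ℕ) (u : List α) (k : ℕ) :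
    xT φ P T u * ((List.range k).map fun j => seg φ u (P.be T j) (P.be T (j + 1))).prod
      = φ (u.take (P.be T k)) := by
  induction k with
  | zero => simp [xT]
  | succ k ih =>
    rw [List.range_succ, List.map_append, List.prod_append, ← mul_assoc, ih]
    simp only [List.map_cons, List.map_nil, List.prod_cons, List.prod_nil, mul_one]
    unfold seg
    rw [← hφ]
    congr 1
    have h := P.be_mono (T := T) (Nat.le_succ k)
    have : u.take (P.be T k) = (u.take (P.be T (k + 1))).take (P.be T k) := by
      rw [List.take_take, min_eq_left h]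
    rw [this, List.take_append_drop]

lemma prod_total (hφ : ∀ u v, φ (u ++ v) = φ u * φ v) (T : ℕ) (u : List α) :
    xT φ P T u * (zT φ P T u).prod * yT φ P T u = φ u := by
  unfold zT yT
  rw [prod_take_aux hφ, ← hφ, List.take_append_drop]

lemma length_zT (T : ℕ) (u : List α) : (zT φ P T u).length = P.m := by simp [zT]

lemma zT_take (T : ℕ) (u : List α) {i : ℕ} (hi : i ≤ P.m) :
    (zT φ P T u).take i = (List.range i).map fun j => seg φ u (P.be T j) (P.be T (j + 1)) := by
  unfold zT
  rw [← List.map_take, List.take_range, min_eq_left hi]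

lemma zT_drop (T : ℕ) (u : List α) (i : ℕ) :
    (zT φ P T u).drop i = ((List.range P.m).drop i).map
      fun j => seg φ u (P.be T j) (P.be T (j + 1)) := by
  unfold zT
  rw [← List.map_drop]

lemma mem_drop_range {m i j : ℕ} (h : j ∈ (List.range m).drop i) : i ≤ j ∧ j < m := by
  obtain ⟨k, hk, rfl⟩ := List.mem_iff_getElem.1 h
  rw [List.getElem_drop, List.getElem_range]
  rw [List.length_drop, List.length_range] at hk
  omega

/-- left data are true if `G i ∣ |q|` -/
lemma left_true {p q : List α} {i : ℕ} (hi : i < P.m) (hd : P.G i ∣ q.length)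
    (hp : P.A i ≤ p.length) :
    xT φ P p.length p = xT φ P (p ++ q).length (p ++ q) ∧
      (List.range i).map (fun j => seg φ p (P.be p.length j) (P.be p.length (j + 1)))
        = (zT φ P (p ++ q).length (p ++ q)).take i := by
  have hlen : (p ++ q).length = p.length + q.length := List.length_append
  have hbe : ∀ j ≤ i, P.be (p ++ q).length j = P.be p.length j := by
    intro j hj
    apply P.be_left hj
    · omega
    · have := P.Am_mono hj
      unfold Par.A at hp
      omega
    · rw [hlen]; simpa using hd
  have hle : ∀ j ≤ i, P.be p.length j ≤ p.length := by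
    intro j hj
    apply P.be_le
    have := P.Am_mono hj
    unfold Par.A at hp
    omega
  constructor
  · unfold xT
    rw [hbe 0 (Nat.zero_le _), List.take_append_of_le_length (hle 0 (Nat.zero_le _))]
  · rw [zT_take _ _ hi.le]
    apply List.map_congr_left
    intro j hj
    rw [List.mem_range] at hj
    unfold seg
    rw [hbe j (by omega), hbe (j + 1) (by omega),
      List.take_append_of_le_length (hle (j + 1) (by omega))]

lemma drop_tail {p q : List α} {g : ℕ} (h : g ≤ q.length) :
    (p ++ q).drop ((p ++ q).length - g) = q.drop (q.length - g) := by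
  rw [List.length_append, List.drop_append]
  have h1 : p.drop (p.length + q.length - g) = [] := List.drop_eq_nil_of_le (by omega)
  rw [h1, List.nil_append]
  congr 1
  omega

lemma segR_tail {p q : List α} {g g' : ℕ} (h : g ≤ q.length) (h' : g' ≤ g) :
    segR φ (p ++ q) g g' = segR φ q g g' := by
  unfold segR
  congr 1
  rw [List.length_append, List.take_append, List.drop_append]
  have h1 : (p.take (p.length + q.length - g')).drop (p.length + q.length - g) = [] :=
    List.drop_eq_nil_of_le (by rw [List.length_take]; omega)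
  rw [h1, List.nil_append, List.length_take]
  congr 1
  · omega
  · congr 1; omega

/-- right data are true -/
lemma right_true {p q : List α} {i : ℕ} (hi : i < P.m) (h1 : P.A i ≤ p.length)
    (h2 : p.length < P.A i + P.c i) (hq : P.Am P.m ≤ q.length)
    (hd : P.G i ∣ q.length) (hcl : ∀ j, i < j → j ≤ P.m → P.Cl i q.length j) :
    view φ P q i = some ((zT φ P (p ++ q).length (p ++ q)).drop (i + 1),
      yT φ P (p ++ q).length (p ++ q)) := by
  have hlen : (p ++ q).length = p.length + q.length := List.length_append
  set T := (p ++ q).length with hT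
  have hga : ∀ j, i < j → j ≤ P.m → P.ga T j = P.gaR i q.length j := by
    intro j h3 h4
    have := P.Am_mono h4
    exact P.ga_right h3 hlen h1 h2 (by omega) (hcl j h3 h4)
  have hbe : ∀ j, j ≤ P.m → P.be T j = T - P.ga T j := by
    intro j h4
    have := P.Am_mono h4
    have := P.be_le (T := T) (j := j) (by omega)
    unfold Par.ga
    omega
  have hgale : ∀ j, i < j → j ≤ P.m → P.ga T j ≤ q.length := by
    intro j h3 h4
    have hA := P.A_le_Am h3
    have := P.Am_le_be T j
    unfold Par.ga
    omega
  have hgamono : ∀ j, P.ga T (j + 1) ≤ P.ga T j := by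
    intro j
    have := P.be_mono (T := T) (Nat.le_succ j)
    unfold Par.ga
    simp only [Nat.succ_eq_add_one] at this
    omega
  unfold view
  rw [if_pos ⟨hd, hcl⟩]
  congr 2
  · rw [zT_drop]
    apply List.map_congr_left
    intro j hj
    obtain ⟨h3, h4⟩ := mem_drop_range hj
    rw [← hga j (by omega) (by omega), ← hga (j + 1) (by omega) (by omega),
      ← segR_tail (p := p) (hgale j (by omega) (by omega)) (hgamono j)]
    unfold segR seg
    rw [← hT, hbe j (by omega), hbe (j + 1) (by omega)]
  · unfold yT
    rw [← hga P.m hi le_rfl, hbe P.m le_rfl, ← drop_tail (p := p) (hgale P.m hi le_rfl), ← hT]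

end words

/-! ### the gadget -/

namespace Par

variable (P : Par)

/-- thin set of zone lengths for which a hole end is ambiguous -/
def BadG (T : ℕ) : Prop :=
  ∃ j, 1 ≤ j ∧ j ≤ P.m ∧ ∃ k, P.Am j + P.G j * k ≤ T + P.c (j - 1) ∧
    T ≤ P.Am j + P.G j * k + P.c (j - 1)

lemma c_mono {i j : ℕ} (h : i ≤ j) : P.c i ≤ P.c j := by
  unfold c
  exact Nat.mul_le_mul_left _ (Nat.le_of_dvd (P.hG j) (P.G_dvd h))

lemma cl_of_not_bad {T o i j : ℕ} (hb : ¬ P.BadG T) (hij : i < j) (hj : j ≤ P.m)
    (h1 : P.A i ≤ o) (h2 : o < P.A i + P.c i) (h3 : o + P.Am j ≤ T) : P.Cl i (T - o) j := by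
  by_contra hcl
  unfold Cl at hcl
  have hA := P.A_le_Am hij
  set b := T - o - (P.Am j - P.A i) with hbd
  have hlt : b / P.G j < (b + P.c i) / P.G j :=
    lt_of_le_of_ne (Nat.div_le_div_right (Nat.le_add_right _ _)) hcl
  have h4 : P.G j * ((b + P.c i) / P.G j) ≤ b + P.c i := Nat.mul_div_le _ _
  have h5 : b < P.G j * ((b + P.c i) / P.G j) := by
    have h6 : b < P.G j * (b / P.G j + 1) := by
      have := Nat.lt_mul_div_succ b (P.hG j)
      simpa using this
    exact h6.trans_le (Nat.mul_le_mul_left _ hlt)
  have h7 : P.c i ≤ P.c (j - 1) := P.c_mono (by omega)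
  refine hb ⟨j, by omega, hj, (b + P.c i) / P.G j, ?_, ?_⟩
  · omega
  · omega

lemma cell_unique {i i' o : ℕ} (h1 : P.A i ≤ o) (h2 : o < P.A i + P.c i)
    (h1' : P.A i' ≤ o) (h2' : o < P.A i' + P.c i') : i = i' := by
  rcases lt_trichotomy i i' with h | h | h
  · have := P.A_le_Am h
    unfold A at *
    omega
  · exact h
  · have := P.A_le_Am h
    unfold A at *
    omega

end Par

lemma per_eq {β : Type*} (f : ℕ → β) (M : ℕ) (hf : ∀ t, f (t + M) = f t) {a b : ℕ}
    (h : a % M = b % M) : f a = f b := by
  have key : ∀ k t, f (t + M * k) = f t := by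
    intro k
    induction k with
    | zero => intro t; simp
    | succ k ih =>
      intro t
      rw [Nat.mul_succ, ← add_assoc, hf, ih]
  have h1 : f a = f (a % M) := by
    conv_lhs => rw [← Nat.mod_add_div a M]
    exact key _ _
  have h2 : f b = f (b % M) := by
    conv_lhs => rw [← Nat.mod_add_div b M]
    exact key _ _
  rw [h1, h2, h]

theorem grid_gadget (S V : Type*) [Monoid S] [Finite S] [AddCommGroup V] [Finite V]
    (act : V → S → V) :
    ∃ (m r : ℕ), 0 < m ∧ ∀ Bd : ℕ, ∃ Ms : Finset ℕ, Ms.card ≤ r ∧
      (∀ p ∈ Ms, p.Prime ∧ Bd < p) ∧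
      ∀ (P : Par), P.m = m → P.M = ∏ p ∈ Ms, p → (∀ j, Nat.Coprime (P.G j) P.M) →
      ∀ {α : Type*} (φ : List α → S), (∀ u v, φ (u ++ v) = φ u * φ v) →
      ∃ (lam rho : List α → Option V) (nu : List α → V),
        (∀ p q v b, lam p = some v → rho q = some b →
          b = act v (φ (p ++ q)) + nu (p ++ q)) ∧
        (∀ p v, lam p = some v → P.A 0 ≤ p.length ∧ p.length < P.Am m) ∧
        (∀ q b, rho q = some b → P.Am m ≤ q.length) ∧
        (∀ q q' : List α, (P.Am m ≤ q.length ↔ P.Am m ≤ q'.length) →
          q.length % P.M = q'.length % P.M →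
          (∀ i < m, view φ P q i = view φ P q' i) → rho q = rho q') ∧
        (∀ u : List α, P.Am m + P.Am m ≤ u.length → (∀ p ∈ Ms, ¬ p ∣ u.length) →
          ¬ P.BadG u.length → ∀ v, ∃ p q b, u = p ++ q ∧ lam p = some v ∧ rho q = some b) := by
  classical
  obtain ⟨m, r, hm, hmain⟩ := UG219.ugadget2 S V act
  refine ⟨m, r, hm, fun Bd => ?_⟩
  obtain ⟨Ms, L, R, D, hcard, hp, hLper, hRper, hRloc, hsound, hcomp⟩ := hmain Bd
  refine ⟨Ms, hcard, hp, fun P hPm hPM hcop α φ hφ => ?_⟩
  subst hPm
  let zl : List α → ℕ → List S := fun p i =>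
    (List.range i).map fun j => seg φ p (P.be p.length j) (P.be p.length (j + 1))
  let lam : List α → Option V := fun p =>
    if h : ∃ i, i < P.m ∧ P.A i ≤ p.length ∧ p.length < P.A i + P.c i then
      L h.choose (xT φ P p.length p) (zl p h.choose) p.length else none
  let rho : List α → Option V := fun q =>
    if P.Am P.m ≤ q.length then R (view φ P q) q.length else none
  let nu : List α → V := fun u =>
    D u.length (xT φ P u.length u) (zT φ P u.length u) (yT φ P u.length u)
  have hlam : ∀ p v, lam p = some v → ∃ i, i < P.m ∧ P.A i ≤ p.length ∧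
      p.length < P.A i + P.c i ∧ L i (xT φ P p.length p) (zl p i) p.length = some v := by
    intro p v hv
    by_cases h : ∃ i, i < P.m ∧ P.A i ≤ p.length ∧ p.length < P.A i + P.c i
    · have hv' : L h.choose (xT φ P p.length p) (zl p h.choose) p.length = some v := by
        have : lam p = L h.choose (xT φ P p.length p) (zl p h.choose) p.length := by
          simp only [lam]
          rw [dif_pos h]
        rw [← this]; exact hv
      exact ⟨h.choose, h.choose_spec.1, h.choose_spec.2.1, h.choose_spec.2.2, hv'⟩
    · have : lam p = none := by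
        simp only [lam]
        rw [dif_neg h]
      rw [this] at hv
      exact absurd hv (by simp)
  have hlam' : ∀ p i, i < P.m → P.A i ≤ p.length → p.length < P.A i + P.c i →
      lam p = L i (xT φ P p.length p) (zl p i) p.length := by
    intro p i h1 h2 h3
    have h : ∃ i, i < P.m ∧ P.A i ≤ p.length ∧ p.length < P.A i + P.c i := ⟨i, h1, h2, h3⟩
    have he : h.choose = i := P.cell_unique h.choose_spec.2.1 h.choose_spec.2.2 h2 h3
    simp only [lam]
    rw [dif_pos h, he]
  refine ⟨lam, rho, nu, ?_, ?_, ?_, ?_, ?_⟩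
  · -- soundness
    intro p q v b hv hb
    obtain ⟨i, hi, h1, h2, hL⟩ := hlam p v hv
    have hq : P.Am P.m ≤ q.length := by
      by_contra hq
      simp only [rho] at hb
      rw [if_neg hq] at hb
      exact absurd hb (by simp)
    have hR : R (view φ P q) q.length = some b := by
      simp only [rho] at hb
      rwa [if_pos hq] at hb
    have key := hsound i p.length q.length (xT φ P p.length p) (zl p i)
      (xT φ P (p ++ q).length (p ++ q)) (zT φ P (p ++ q).length (p ++ q))
      (yT φ P (p ++ q).length (p ++ q)) (view φ P q) v b hi (length_zT _ _) ?_ hL hR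
    · rw [key, prod_total hφ]
      simp only [nu, List.length_append]
    · intro q' hq'
      have hcond : P.G i ∣ q.length ∧ ∀ j, i < j → j ≤ P.m → P.Cl i q.length j := by
        by_contra hc
        unfold view at hq'
        rw [if_neg hc] at hq'
        exact absurd hq' (by simp)
      obtain ⟨a1, a2⟩ := left_true (φ := φ) (q := q) hi hcond.1 h1
      have a3 := right_true (φ := φ) hi h1 h2 hq hcond.1 hcond.2
      rw [a3] at hq'
      exact ⟨a1, a2, (Option.some.inj hq').symm⟩
  · intro p v hv
    obtain ⟨i, hi, h1, h2, -⟩ := hlam p v hv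
    refine ⟨?_, ?_⟩
    · have := P.Am_mono (Nat.zero_le i)
      have h3 : P.G 0 ≤ P.G i := Nat.le_of_dvd (P.hG i) (P.G_dvd (Nat.zero_le i))
      unfold Par.A at *
      omega
    · have := P.A_le_Am hi
      omega
  · intro q b hb
    by_contra hq
    simp only [rho] at hb
    rw [if_neg hq] at hb
    exact absurd hb (by simp)
  · intro q q' h1 h2 h3
    simp only [rho]
    by_cases hq : P.Am P.m ≤ q.length
    · rw [if_pos hq, if_pos (h1.1 hq), hRloc _ _ _ h3]
      exact per_eq (R (view φ P q')) _ (hRper _) (by rw [← hPM]; exact h2)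
    · rw [if_neg hq, if_neg (fun h => hq (h1.2 h))]
  · -- completeness
    intro u hu hMs hbad v
    set T := u.length with hT
    obtain ⟨i, hi, hcell⟩ := hcomp T (xT φ P T u) (zT φ P T u) (yT φ P T u) v (length_zT _ _) hMs
    have hMle : P.M ≤ T := by
      have h1 := P.A_le_Am hi
      have h2 : P.M ≤ P.c i := by
        unfold Par.c
        exact Nat.le_mul_of_pos_right _ (P.hG i)
      omega
    obtain ⟨t, -, htM, htT, hLt, hRt⟩ := hcell 0 (by rw [← hPM]; omega)
    -- the place
    obtain ⟨k, hk1, hk2⟩ := Nat.chineseRemainder (hcop i) T t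
    obtain ⟨o, ho1, ho2, ho3⟩ := Names_570.exists_shift k (P.A i) (P.M * P.G i)
      (Nat.mul_pos P.hM (P.hG i))
    have hoG : o ≡ T [MOD P.G i] := by
      have : o ≡ k [MOD P.G i] := by
        have h : o ≡ k [MOD P.M * P.G i] := ho3
        exact h.of_mul_left _
      exact this.trans hk1
    have hoM : o ≡ t [MOD P.M] := by
      have : o ≡ k [MOD P.M] := by
        have h : o ≡ k [MOD P.M * P.G i] := ho3
        exact h.of_mul_right _
      exact this.trans hk2
    have hocell : o < P.A i + P.c i := by unfold Par.c; exact ho2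
    have hoAm : o < P.Am P.m := by
      have := P.A_le_Am hi
      omega
    have hoT : o ≤ T := by omega
    have hlenp : (u.take o).length = o := by rw [List.length_take]; omega
    have hlenq : (u.drop o).length = T - o := by rw [List.length_drop]
    have hdvd : P.G i ∣ (u.drop o).length := by
      rw [hlenq]
      exact (Nat.modEq_iff_dvd' hoT).1 hoG
    have hcl : ∀ j, i < j → j ≤ P.m → P.Cl i (u.drop o).length j := by
      intro j h1 h2
      rw [hlenq]
      have := P.Am_mono h2
      exact P.cl_of_not_bad hbad h1 h2 ho1 hocell (by omega)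
    have hleft := left_true (φ := φ) (P := P) (p := u.take o) (q := u.drop o) hi hdvd
      (by rw [hlenp]; exact ho1)
    have hright := right_true (φ := φ) (P := P) (p := u.take o) (q := u.drop o) hi
      (by rw [hlenp]; exact ho1) (by rw [hlenp]; exact hocell) (by rw [hlenq]; omega) hdvd hcl
    rw [List.take_append_drop, ← hT] at hleft hright
    obtain ⟨b, hb⟩ := hRt (view φ P (u.drop o)) hright
    refine ⟨u.take o, u.drop o, b, (List.take_append_drop o u).symm, ?_, ?_⟩
    · rw [hlam' (u.take o) i hi (by rw [hlenp]; exact ho1) (by rw [hlenp]; exact hocell)]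
      rw [hleft.1]
      show L i (xT φ P T u) ((List.range i).map fun j =>
        seg φ (u.take o) (P.be (u.take o).length j) (P.be (u.take o).length (j + 1)))
        (u.take o).length = some v
      rw [hleft.2, hlenp, ← hLt]
      exact per_eq (L i (xT φ P T u) ((zT φ P T u).take i)) _ (hLper _ _ _)
        (by rw [← hPM]; exact hoM)
    · simp only [rho]
      rw [if_pos (by rw [hlenq]; omega), hlenq, ← hb]
      refine per_eq (R (view φ P (u.drop o))) _ (hRper _) ?_
      rw [← hPM]
      have h1 : (T - o) + o ≡ (T - t) + t [MOD P.M] := by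
        rw [Nat.sub_add_cancel hoT, Nat.sub_add_cancel htT]
      exact Nat.ModEq.add_right_cancel hoM h1

end Crest.Agent.R320.Grid219
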