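import Crest.Agent.R320.UG_219

/-!
# Row 320: grid gadget (693 #13203) on words, arbitrary contents, no small walls

Hole ends on grids anchored at the right end of the zone. Sound for all words and all lengths,
complete for all lengths outside a thin set `Bad`; explicit ruler `Ξ * 2 ^ k`.
-/

set_option autoImplicit false

namespace Crest.Agent.R320.Grid231

open UG219

/-- lower ends of the level windows -/
def Am (M G : ℕ) : ℕ → ℕ
  | 0 => 0
  | j + 1 => Am M G j + (M + 1) * G ^ j

/-- hole boundary `j` of a zone of length `T` -/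
def be (M G T j : ℕ) : ℕ := Am M G j + (T - Am M G j) % G ^ j

/-- first place of the window of level `i` -/
def Ai (M G i : ℕ) : ℕ := Am M G i + G ^ i

/-- the same boundary seen from a right word of length `o'`, level `i` -/
def po (M G i o' j : ℕ) : ℕ := (Am M G j - Ai M G i) + (o' + Ai M G i - Am M G j) % G ^ j

lemma Am_succ (M G i : ℕ) : Am M G (i + 1) = Ai M G i + M * G ^ i := by
  simp only [Am, Ai]; ring

lemma Am_le {M G i j : ℕ} (h : i ≤ j) : Am M G i ≤ Am M G j := by
  induction h with
  | refl => exact le_rfl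
  | step _ ih => exact ih.trans (by simp only [Am]; omega)

lemma Ai_le {M G i j : ℕ} (h : i < j) : Ai M G i + M * G ^ i ≤ Am M G j := by
  rw [← Am_succ]; exact Am_le h

lemma be_lt {M G : ℕ} (hG : 0 < G) (T j : ℕ) : be M G T j < Ai M G j := by
  unfold be Ai
  have := Nat.mod_lt (T - Am M G j) (pow_pos hG j)
  omega

lemma be_le_succ {M G : ℕ} (hG : 0 < G) (T j : ℕ) : be M G T j ≤ be M G T (j + 1) := by
  have h1 := be_lt (M := M) hG T j
  have h2 : Ai M G j + M * G ^ j ≤ Am M G (j + 1) := Ai_le (Nat.lt_succ_self j)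
  have h3 : Am M G (j + 1) ≤ be M G T (j + 1) := Nat.le_add_right _ _
  omega

lemma be_left {M G T o j : ℕ} (ho : Am M G j ≤ o) (hT : o ≤ T) (hd : G ^ j ∣ T - o) :
    be M G T j = be M G o j := by
  unfold be
  obtain ⟨k, hk⟩ := hd
  have : T - Am M G j = (o - Am M G j) + G ^ j * k := by omega
  rw [this, Nat.add_mul_mod_self_left]

lemma be_right {M G o o' i j : ℕ} (hij : i < j) (h1 : Ai M G i ≤ o) (h2 : o < Am M G (i + 1))
    (h3 : Am M G j ≤ o') (hl : (o' + Ai M G i - Am M G j) % G ^ j + M * G ^ i < G ^ j) :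
    be M G (o + o') j = o + po M G i o' j := by
  have h4 := Ai_le (M := M) (G := G) hij
  rw [Am_succ] at h2
  unfold be po
  have h5 : o + o' - Am M G j = (o' + Ai M G i - Am M G j) + (o - Ai M G i) := by omega
  generalize hx : o' + Ai M G i - Am M G j = x at *
  have h6 : (x + (o - Ai M G i)) % G ^ j = x % G ^ j + (o - Ai M G i) := by
    generalize hr : x % G ^ j = r at *
    generalize hd : o - Ai M G i = d at *
    have h7 : r + d < G ^ j := by omega
    rw [Nat.add_mod, hr, Nat.mod_eq_of_lt (a := d) (by omega), Nat.mod_eq_of_lt h7]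
  rw [h5, h6]
  generalize x % G ^ j = r at *
  omega

/-- factor of a word between two places -/
def seg {α : Type*} (u : List α) (a b : ℕ) : List α := (u.take b).drop a

lemma seg_left {α : Type*} (P Q : List α) {a b : ℕ} (h : b ≤ P.length) :
    seg (P ++ Q) a b = seg P a b := by
  unfold seg
  rw [List.take_append_of_le_length h]

lemma seg_right {α : Type*} (P Q : List α) (a b : ℕ) :
    seg (P ++ Q) (P.length + a) (P.length + b) = seg Q a b := by
  unfold seg
  rw [List.take_append, List.drop_append]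
  simp

lemma take_seg_drop {α : Type*} (u : List α) {a b : ℕ} (h : a ≤ b) :
    u.take a ++ seg u a b ++ u.drop b = u := by
  unfold seg
  have : u.take a = (u.take b).take a := by rw [List.take_take, Nat.min_eq_left h]
  rw [this, List.take_append_drop, List.take_append_drop]

section

variable {α S V W : Type*} [Monoid S] [AddCommGroup V] [AddCommGroup W]
  {m : ℕ} (M G : ℕ) (act : V → S → V) (e : ℕ → S → W) (F : S → W → V)
  (nmL nmR : ℕ → Option (Nm m S V W)) (φ : List α → S)

/-- left word `P` shows the name `c` -/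
structure Lf (P : List α) (c : Nm m S V W) : Prop where
  nm : nmL P.length = some c
  good : Good act e F c
  lo : Ai M G c.i ≤ P.length
  hi : P.length < Am M G (c.i + 1)
  g : c.g = φ (P.take (be M G P.length c.i))
  wl : c.wl = ∑ j ∈ Finset.range c.i,
    e j (φ (seg P (be M G P.length j) (be M G P.length (j + 1))))

/-- right word `Q` shows the name `c` -/
structure Rt (Q : List α) (c : Nm m S V W) : Prop where
  nm : nmR Q.length = some c
  good : Good act e F c
  big : Am M G m ≤ Q.length
  dvd : G ^ (c.i : ℕ) ∣ Q.length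
  leg : ∀ j, (c.i : ℕ) < j → j ≤ m →
    (Q.length + Ai M G c.i - Am M G j) % G ^ j + M * G ^ (c.i : ℕ) < G ^ j
  h : c.h = φ (Q.drop (po M G c.i Q.length (c.i + 1)))
  wr : c.wr = ∑ j ∈ Finset.Ico ((c.i : ℕ) + 1) m,
    e j (φ (seg Q (po M G c.i Q.length j) (po M G c.i Q.length (j + 1))))

/-- weight of a zone -/
def wt (m : ℕ) (u : List α) : W :=
  ∑ j ∈ Finset.range m, e j (φ (seg u (be M G u.length j) (be M G u.length (j + 1))))

variable {M G act e F nmL nmR φ}

lemma match_sound (hG : 0 < G) (hφ : ∀ u v, φ (u ++ v) = φ u * φ v) {P Q : List α}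
    {c : Nm m S V W}
    (hL : Lf M G act e F nmL φ P c) (hR : Rt M G act e F nmR φ Q c) :
    F (φ (P ++ Q)) (wt M G e φ m (P ++ Q)) + act c.v (φ (P ++ Q)) = lab act e F c := by
  have hi : (c.i : ℕ) < m := c.i.2
  have hlen : (P ++ Q).length = P.length + Q.length := List.length_append
  have hA : ∀ j ≤ (c.i : ℕ), Am M G j ≤ P.length := fun j hj =>
    (Am_le hj).trans (le_trans (by unfold Ai; omega) hL.lo)
  have hbl : ∀ j ≤ (c.i : ℕ), be M G (P ++ Q).length j = be M G P.length j := by
    intro j hj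
    rw [hlen]
    refine be_left (hA j hj) (by omega) ?_
    rw [Nat.add_sub_cancel_left]
    exact (pow_dvd_pow G hj).trans hR.dvd
  have hbr : ∀ j, (c.i : ℕ) < j → j ≤ m →
      be M G (P ++ Q).length j = P.length + po M G c.i Q.length j := by
    intro j hj hj'
    rw [hlen]
    exact be_right hj hL.lo hL.hi ((Am_le hj').trans hR.big) (hR.leg j hj hj')
  have hble : ∀ j ≤ (c.i : ℕ), be M G P.length j ≤ P.length := by
    intro j hj
    have := be_lt (M := M) hG P.length j
    have h2 : Ai M G j ≤ Ai M G c.i := by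
      rcases Nat.lt_or_ge j c.i with h | h
      · have := Ai_le (M := M) (G := G) h
        have h3 : Am M G c.i ≤ Ai M G c.i := by unfold Ai; omega
        omega
      · rw [le_antisymm hj h]
    have := hL.lo
    omega
  set u := P ++ Q with hu
  set z := φ (seg u (be M G u.length c.i) (be M G u.length (c.i + 1))) with hz
  have h1 : c.g * z * c.h = φ u := by
    rw [hL.g, hR.h, hz]
    have e1 : P.take (be M G P.length c.i) = u.take (be M G u.length c.i) := by
      rw [hbl _ le_rfl, hu, List.take_append_of_le_length (hble _ le_rfl)]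
    have e2 : Q.drop (po M G c.i Q.length (c.i + 1)) = u.drop (be M G u.length (c.i + 1)) := by
      rw [hbr _ (Nat.lt_succ_self _) hi, hu, List.drop_append]
      simp
    rw [e1, e2, ← hφ, ← hφ, take_seg_drop u (be_le_succ hG _ _)]
  have h2 : c.wl + e c.i z + c.wr = wt M G e φ m u := by
    unfold wt
    have e1 : c.wl = ∑ j ∈ Finset.range c.i,
        e j (φ (seg u (be M G u.length j) (be M G u.length (j + 1)))) := by
      rw [hL.wl]
      refine Finset.sum_congr rfl fun j hj => ?_
      have hj' := Finset.mem_range.1 hj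
      rw [hbl j hj'.le, hbl (j + 1) hj', hu, seg_left P Q (hble (j + 1) hj')]
    have e2 : c.wr = ∑ j ∈ Finset.Ico ((c.i : ℕ) + 1) m,
        e j (φ (seg u (be M G u.length j) (be M G u.length (j + 1)))) := by
      rw [hR.wr]
      refine Finset.sum_congr rfl fun j hj => ?_
      obtain ⟨hj1, hj2⟩ := Finset.mem_Ico.1 hj
      rw [hbr j hj1 hj2.le, hbr (j + 1) (by omega) hj2, hu, seg_right]
    rw [e1, e2, hz, ← Finset.sum_range_succ
      (fun j => e j (φ (seg u (be M G u.length j) (be M G u.length (j + 1)))))]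
    rw [Finset.range_eq_Ico, Finset.range_eq_Ico]
    exact Finset.sum_Ico_consecutive _ (Nat.zero_le _) hi
  rw [← h1, ← h2]
  exact hL.good z

end

/-- lengths for which the gadget need not be complete -/
def Bad (M G m : ℕ) (Ms : Finset ℕ) (T : ℕ) : Prop :=
  (∃ p ∈ Ms, p ∣ T) ∨ ∃ l < m, (T - Am M G (l + 1)) % G ^ (l + 1) < M * G ^ l ∨
    G ^ (l + 1) ≤ (T - Am M G (l + 1)) % G ^ (l + 1) + M * G ^ l

/-- the gadget for given moduli -/
theorem gadget_aux {S V W : Type*} [Monoid S] [AddCommGroup V] [AddCommGroup W]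
    {m : ℕ} {G : ℕ} (act : V → S → V) (e : ℕ → S → W) (F : S → W → V)
    (hF : ∀ (s : S) (w : W) (v : V), ∃ i < m, ∀ g x h : S, g * x * h = s → ∀ z : S,
        F (g * z * h) (w - e i x + e i z) + act v (g * z * h) = F s w + act v s)
    (Ms : Finset ℕ) (nmL nmR : ℕ → Option (Nm m S V W))
    (hG : 0 < G) (hM : 0 < ∏ p ∈ Ms, p) (hcop : Nat.Coprime (∏ p ∈ Ms, p) G)
    (hL : ∀ t, nmL (t + ∏ p ∈ Ms, p) = nmL t) (hR : ∀ t, nmR (t + ∏ p ∈ Ms, p) = nmR t)
    (hu : ∀ t t' c c', (∀ m ∈ Ms, ¬ m ∣ t + t') → nmL t = some c → nmR t' = some c' → c = c')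
    (hex : ∀ T c s, (∀ m ∈ Ms, ¬ m ∣ T) → s + ∏ m ∈ Ms, m ≤ T + 1 →
        ∃ t, s ≤ t ∧ t < s + ∏ m ∈ Ms, m ∧ t ≤ T ∧ nmL t = some c ∧ nmR (T - t) = some c)
    (hcol : ∀ t1 t1' t2 t2' c1 c1' c2 c2', t1 + t1' = t2 + t2' → (∃ m ∈ Ms, m ∣ t1 + t1') →
        nmL t1 = some c1 → nmR t1' = some c1' → nmL t2 = some c2 → nmR t2' = some c2' →
        (c1 = c2 ∧ c1' = c2') ∨ (c1 = c2' ∧ c1' = c2 ∧
          (c1.v, lab act e F c1) = (c1'.v, lab act e F c1')))
    {α : Type*} (φ : List α → S) (hφ : ∀ u v, φ (u ++ v) = φ u * φ v) :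
    ∃ nu : List α → V,
      (∀ P Q c c', Lf (∏ p ∈ Ms, p) G act e F nmL φ P c → Rt (∏ p ∈ Ms, p) G act e F nmR φ Q c' →
        act c.v (φ (P ++ Q)) + nu (P ++ Q) = lab act e F c') ∧
      (∀ u : List α, 2 * Am (∏ p ∈ Ms, p) G m ≤ u.length → ¬ Bad (∏ p ∈ Ms, p) G m Ms u.length →
        ∀ v, ∃ P Q c c', u = P ++ Q ∧ Lf (∏ p ∈ Ms, p) G act e F nmL φ P c ∧ c.v = v ∧
          Rt (∏ p ∈ Ms, p) G act e F nmR φ Q c') := by
  classical
  set M := ∏ p ∈ Ms, p with hMdef
  let K : ℕ → V × V := fun T =>
    if h : ∃ (x : ℕ × ℕ × Nm m S V W × Nm m S V W), x.1 + x.2.1 = T ∧ nmL x.1 = some x.2.2.1 ∧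
      nmR x.2.1 = some x.2.2.2 then (h.choose.2.2.1.v, lab act e F h.choose.2.2.2) else (0, 0)
  have hK : ∀ (t t' : ℕ) (c c' : Nm m S V W), (∃ m ∈ Ms, m ∣ t + t') → nmL t = some c →
      nmR t' = some c' → K (t + t') = (c.v, lab act e F c') := by
    intro t t' c c' hd h1 h2
    have hx : ∃ (x : ℕ × ℕ × Nm m S V W × Nm m S V W), x.1 + x.2.1 = t + t' ∧
      nmL x.1 = some x.2.2.1 ∧ nmR x.2.1 = some x.2.2.2 := ⟨(t, t', c, c'), rfl, h1, h2⟩
    have : K (t + t') = (hx.choose.2.2.1.v, lab act e F hx.choose.2.2.2) := dif_pos hx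
    rw [this]
    obtain ⟨g1, g2, g3⟩ := hx.choose_spec
    rcases hcol t t' _ _ c c' _ _ g1.symm hd h1 h2 g2 g3 with ⟨a, b⟩ | ⟨a, b, d⟩
    · rw [a, b]
    · rw [← a, ← b]
      have d1 := congrArg Prod.fst d
      have d2 := congrArg Prod.snd d
      simp only at d1 d2
      rw [← d1, d2]
  refine ⟨fun u => if ∃ p ∈ Ms, p ∣ u.length then
      (K u.length).2 - act (K u.length).1 (φ u) else F (φ u) (wt M G e φ m u), ?_, ?_⟩
  · intro P Q c c' hP hQ
    have hlen : (P ++ Q).length = P.length + Q.length := List.length_append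
    by_cases hd : ∃ p ∈ Ms, p ∣ (P ++ Q).length
    · simp only [if_pos hd]
      rw [hlen] at hd ⊢
      rw [hK _ _ c c' hd hP.nm hQ.nm]
      abel
    · simp only [if_neg hd]
      have hcc : c = c' := by
        refine hu _ _ _ _ ?_ hP.nm hQ.nm
        intro p hp hpd
        exact hd ⟨p, hp, by rw [hlen]; exact hpd⟩
      subst hcc
      rw [add_comm]
      exact match_sound hG hφ hP hQ
  · intro u hlen hbad v
    set T := u.length with hT
    have hnd : ∀ p ∈ Ms, ¬ p ∣ T := fun p hp hpd => hbad (Or.inl ⟨p, hp, hpd⟩)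
    obtain ⟨i, him, hi⟩ := hF (φ u) (wt M G e φ m u) v
    set x := φ (seg u (be M G T i) (be M G T (i + 1))) with hx
    set g := φ (u.take (be M G T i)) with hg
    set h := φ (u.drop (be M G T (i + 1))) with hh
    have hprod : g * x * h = φ u := by
      rw [hg, hx, hh, ← hφ, ← hφ, take_seg_drop u (be_le_succ hG _ _)]
    set wl : W := ∑ j ∈ Finset.range i, e j (φ (seg u (be M G T j) (be M G T (j + 1)))) with hwl
    set wr : W := ∑ j ∈ Finset.Ico (i + 1) m, e j (φ (seg u (be M G T j) (be M G T (j + 1))))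
      with hwr
    have hw : wt M G e φ m u = wl + e i x + wr := by
      unfold wt
      rw [← hT, hwl, hwr, hx, ← Finset.sum_range_succ
        (fun j => e j (φ (seg u (be M G T j) (be M G T (j + 1)))))]
      rw [Finset.range_eq_Ico, Finset.range_eq_Ico]
      exact (Finset.sum_Ico_consecutive _ (Nat.zero_le _) him).symm
    let c : Nm m S V W := ⟨⟨i, him⟩, g, wl, h, wr, v⟩
    have key : ∀ z : S, F (g * z * h) (wl + e i z + wr) + act v (g * z * h) =
        F (φ u) (wt M G e φ m u) + act v (φ u) := by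
      intro z
      have := hi g x h hprod z
      rw [← this, hw]
      congr 2
      abel
    have hgood : Good act e F c := by
      intro z
      show F (g * z * h) (wl + e i z + wr) + act v (g * z * h) =
        F (g * 1 * h) (wl + e i 1 + wr) + act v (g * 1 * h)
      rw [key z, key 1]
    -- the clock
    have hAim : Am M G (i + 1) ≤ Am M G m := Am_le him
    have hAs : Am M G (i + 1) = Ai M G i + M * G ^ i := Am_succ M G i
    have hMle : M ≤ M * G ^ i := Nat.le_mul_of_pos_right _ (pow_pos hG i)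
    obtain ⟨t, -, -, htT, ht1, ht2⟩ := hex T c 0 hnd (by omega)
    have hcop' : Nat.Coprime M (G ^ i) := hcop.pow_right i
    obtain ⟨o0, ho1, ho2⟩ := Nat.chineseRemainder hcop' t T
    have hMG : 0 < M * G ^ i := Nat.mul_pos hM (pow_pos hG i)
    -- shift into the window
    obtain ⟨o, hol, hoh, ho⟩ : ∃ o, Ai M G i ≤ o ∧ o < Ai M G i + M * G ^ i ∧
        o ≡ o0 [MOD M * G ^ i] := by
      refine ⟨Ai M G i + (o0 + (M * G ^ i) * Ai M G i - Ai M G i) % (M * G ^ i),
        Nat.le_add_right _ _, ?_, ?_⟩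
      · have := Nat.mod_lt (o0 + (M * G ^ i) * Ai M G i - Ai M G i) hMG
        omega
      · have h1 : Ai M G i ≤ (M * G ^ i) * Ai M G i := Nat.le_mul_of_pos_left _ hMG
        unfold Nat.ModEq
        rw [Nat.add_mod_mod, show Ai M G i + (o0 + (M * G ^ i) * Ai M G i - Ai M G i) =
          o0 + (M * G ^ i) * Ai M G i by omega, Nat.add_mul_mod_self_left]
    have hoM : o ≡ t [MOD M] := (ho.of_mul_right _).trans ho1
    have hoG : o ≡ T [MOD G ^ i] := (ho.of_mul_left _).trans ho2
    have hoT : o ≤ T := by omega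
    have hGi : G ^ i ∣ T - o := (Nat.modEq_iff_dvd' hoT).1 hoG
    have perL : ∀ k t, nmL (t + M * k) = nmL t := by
      intro k
      induction k with
      | zero => intro t; simp
      | succ k ih => intro t; rw [Nat.mul_succ, ← add_assoc, hL, ih]
    have perR : ∀ k t, nmR (t + M * k) = nmR t := by
      intro k
      induction k with
      | zero => intro t; simp
      | succ k ih => intro t; rw [Nat.mul_succ, ← add_assoc, hR, ih]
    have congL : ∀ a b, a ≡ b [MOD M] → nmL a = nmL b := by
      intro a b hab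
      rcases Nat.le_total a b with h' | h'
      · obtain ⟨k, hk⟩ := (Nat.modEq_iff_dvd' h').1 hab
        rw [show b = a + M * k by omega, perL]
      · obtain ⟨k, hk⟩ := (Nat.modEq_iff_dvd' h').1 hab.symm
        rw [show a = b + M * k by omega, perL]
    have congR : ∀ a b, a ≡ b [MOD M] → nmR a = nmR b := by
      intro a b hab
      rcases Nat.le_total a b with h' | h'
      · obtain ⟨k, hk⟩ := (Nat.modEq_iff_dvd' h').1 hab
        rw [show b = a + M * k by omega, perR]
      · obtain ⟨k, hk⟩ := (Nat.modEq_iff_dvd' h').1 hab.symm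
        rw [show a = b + M * k by omega, perR]
    have hTo : T - o ≡ T - t [MOD M] := by
      have h1 : (T - o) + o ≡ (T - t) + t [MOD M] := by
        rw [Nat.sub_add_cancel hoT, Nat.sub_add_cancel htT]
      exact Nat.ModEq.add_right_cancel hoM h1
    have hPl : (u.take o).length = o := by rw [List.length_take]; omega
    have hQl : (u.drop o).length = T - o := by rw [List.length_drop]
    have hsp : u.take o ++ u.drop o = u := List.take_append_drop o u
    have hbl : ∀ j ≤ i, be M G T j = be M G o j := by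
      intro j hj
      have : Am M G j ≤ Am M G i := Am_le hj
      have h3 : Am M G i ≤ Ai M G i := by unfold Ai; omega
      exact be_left (by omega) hoT ((pow_dvd_pow G hj).trans hGi)
    have hble : ∀ j ≤ i, be M G T j ≤ o := by
      intro j hj
      have := be_lt (M := M) hG T j
      rcases Nat.lt_or_ge j i with h' | h'
      · have h4 := Ai_le (M := M) (G := G) h'
        have h3 : Am M G i ≤ Ai M G i := by unfold Ai; omega
        omega
      · rw [le_antisymm hj h'] at this ⊢
        omega
    have hleg : ∀ j, i < j → j ≤ m →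
        ((T - o) + Ai M G i - Am M G j) % G ^ j + M * G ^ i < G ^ j := by
      intro j hij hjm
      obtain ⟨l, rfl⟩ : ∃ l, j = l + 1 := ⟨j - 1, by omega⟩
      have hb1 : ¬ ((T - Am M G (l + 1)) % G ^ (l + 1) < M * G ^ l) := fun h' =>
        hbad (Or.inr ⟨l, by omega, Or.inl h'⟩)
      have hb2 : ¬ (G ^ (l + 1) ≤ (T - Am M G (l + 1)) % G ^ (l + 1) + M * G ^ l) := fun h' =>
        hbad (Or.inr ⟨l, by omega, Or.inr h'⟩)
      have hil : M * G ^ i ≤ M * G ^ l := Nat.mul_le_mul_left _ (Nat.pow_le_pow_right hG (by omega))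
      have hAl : Am M G (l + 1) ≤ Am M G m := Am_le hjm
      have h4 := Ai_le (M := M) (G := G) hij
      generalize hx : (T - o) + Ai M G i - Am M G (l + 1) = x at *
      have h5 : T - Am M G (l + 1) = x + (o - Ai M G i) := by omega
      rw [h5] at hb1 hb2
      generalize hd : o - Ai M G i = d at *
      have hdl : d < M * G ^ i := by omega
      have h6 : x % G ^ (l + 1) + d < G ^ (l + 1) := by
        by_contra hcon
        have hxl := Nat.mod_lt x (pow_pos hG (l + 1))
        generalize hr : x % G ^ (l + 1) = r at *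
        have hgl : M * G ^ l < G ^ (l + 1) := by omega
        have h7 : (x + d) % G ^ (l + 1) = r + d - G ^ (l + 1) := by
          rw [Nat.add_mod, hr, Nat.mod_eq_of_lt (a := d) (by omega),
            Nat.mod_eq_sub_mod (by omega), Nat.mod_eq_of_lt (by omega)]
        rw [h7] at hb1
        omega
      have h7 : (x + d) % G ^ (l + 1) = x % G ^ (l + 1) + d := by
        generalize hr : x % G ^ (l + 1) = r at *
        rw [Nat.add_mod, hr, Nat.mod_eq_of_lt (a := d) (by omega), Nat.mod_eq_of_lt h6]
      rw [h7] at hb2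
      generalize x % G ^ (l + 1) = r at *
      omega
    have hbr : ∀ j, i < j → j ≤ m → be M G T j = o + po M G i (T - o) j := by
      intro j hj hjm
      have h3 : Am M G j ≤ Am M G m := Am_le hjm
      have := be_right (M := M) (G := G) (o := o) (o' := T - o) hj hol (by omega) (by omega)
        (hleg j hj hjm)
      rw [← this]
      congr 1
      omega
    refine ⟨u.take o, u.drop o, c, c, hsp.symm, ?_, rfl, ?_⟩
    · refine ⟨?_, hgood, ?_, ?_, ?_, ?_⟩
      · rw [hPl, congL o t hoM, ht1]
      · rw [hPl]; exact hol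
      · rw [hPl, show Am M G (c.i + 1) = Ai M G i + M * G ^ i from hAs]; exact hoh
      · rw [hPl]
        show g = _
        rw [hg, List.take_take, Nat.min_eq_left, ← hbl i le_rfl]
        · rw [← hbl i le_rfl]; exact hble i le_rfl
      · rw [hPl]
        show wl = _
        rw [hwl]
        refine Finset.sum_congr rfl fun j hj => ?_
        have hj' : j < i := Finset.mem_range.1 hj
        rw [← hbl j hj'.le, ← hbl (j + 1) hj']
        have : seg (u.take o) (be M G T j) (be M G T (j + 1)) =
            seg u (be M G T j) (be M G T (j + 1)) := by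
          unfold seg
          rw [List.take_take, Nat.min_eq_left (hble (j + 1) hj')]
        rw [this]
    · refine ⟨?_, hgood, ?_, ?_, ?_, ?_, ?_⟩
      · rw [hQl, congR _ _ hTo, ht2]
      · rw [hQl]; omega
      · rw [hQl]; exact hGi
      · rw [hQl]; exact hleg
      · rw [hQl]
        show h = _
        rw [hh, hbr (i + 1) (Nat.lt_succ_self i) him, List.drop_drop]
      · rw [hQl]
        show wr = _
        rw [hwr]
        refine Finset.sum_congr rfl fun j hj => ?_
        obtain ⟨hj1, hj2⟩ := Finset.mem_Ico.1 hj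
        have hj1' : i + 1 ≤ j := hj1
        rw [hbr j hj1 hj2.le, hbr (j + 1) (by omega) hj2]
        have : seg u (o + po M G i (T - o) j) (o + po M G i (T - o) (j + 1)) =
            seg (u.drop o) (po M G i (T - o) j) (po M G i (T - o) (j + 1)) := by
          conv_lhs => rw [← hsp]
          have := seg_right (u.take o) (u.drop o) (po M G i (T - o) j) (po M G i (T - o) (j + 1))
          rw [hPl] at this
          exact this
        rw [this]

end Crest.Agent.R320.Grid231
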