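import Crest.Agent.R320.Lvl_274

/-!
# Row 320: scheme 1's gadget on words without small walls (693 #13203: b-anchored nested grids)

`gadget2`: content level (names + random noise), number of moduli bounded before they are chosen.
`grid`: the gadget on words: sound for all words, complete outside a thin set of lengths.
-/

set_option autoImplicit false
set_option linter.unusedSectionVars false

namespace Crest.Agent.R320.Grid_274

open Crest.Agent.R320.Names_274 Crest.Agent.R320.Lvl_274

section core

variable {S V W : Type*} [Monoid S] [AddCommGroup V] [AddCommGroup W]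
variable {m : ℕ} (act : V → S → V) (e : ℕ → S → W) (F : S → W → V)

theorem sound2 (q q' : Nm m S V W → ℕ) (μ : V × V → ℕ) {M : ℕ}
    (hM : ∀ l, q l ∣ M ∧ q' l ∣ M) (hM' : ∀ j, μ j ∣ M)
    (z pre : List S) {i : ℕ} (om om' : ℕ) (cont : ℕ → Option (List S)) (v r : V) (hi : i < m)
    (hz : i + 1 < z.length)
    (hc : ∀ post, cont i = some post → post = z.drop (i + 2) ∧ pre = z.take (i + 1))
    (hL : LL act e F (mkNS act e F q q' μ) i pre om = some v)
    (hR : RR act e F (mkNS act e F q q' μ) om' cont = some r) :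
    r = nu act e F (mkNS act e F q q' μ) M (om + om') z + act v z.prod := by
  classical
  set D := mkNS act e F q q' μ with hD
  unfold LL pick at hL
  unfold RR pick at hR
  split_ifs at hL with h1
  split_ifs at hR with h2
  obtain ⟨a1, a2, a3, a4, a5⟩ := h1.choose_spec
  obtain ⟨b1, b2, post, b3, b4, b5⟩ := h2.choose_spec
  set c := h1.choose with hcdef
  set c' := h2.choose with hcdef'
  have hv : c.2.2.2.2.2.1 = v := Option.some.inj hL
  have hr : bval act e F c' = r := Option.some.inj hR
  have hPr : Pr D M (om + om') c c' := ⟨om, om', a1, b1, rfl⟩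
  by_cases hcc : c = c'
  · have hno : ¬ ∃ p : Nm m S V W × Nm m S V W, p.1 ≠ p.2 ∧ Pr D M (om + om') p.1 p.2 := by
      rintro ⟨p, hp1, hp2⟩
      rw [← hcc] at hPr
      exact hp1 (same' (D := D) hM hM' hPr hp2)
    unfold nu nuA
    rw [dif_neg hno]
    rw [← hcc] at b3 b4 b5 hr
    rw [a2] at b3 b5
    obtain ⟨hpost, hpre⟩ := hc _ b3
    rw [hpost] at b4 b5
    rw [hpre] at a3 a4
    obtain ⟨t1, t2⟩ := totals e z hi hz
    have hci : (c.1 : ℕ) = i := a2
    have hU := a5 z[i + 1]
    rw [← hr, ← hU, ← hv, t1, t2, a3, a4, b4, b5, hci]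
  · have hex : ∃ p : Nm m S V W × Nm m S V W, p.1 ≠ p.2 ∧ Pr D M (om + om') p.1 p.2 :=
      ⟨(c, c'), hcc, hPr⟩
    unfold nu nuA
    rw [dif_pos hex]
    obtain ⟨p1, p2⟩ := hex.choose_spec
    set p := hex.choose with hp
    rcases pair' (D := D) hM hM' hcc hPr p2 with ⟨e1, e2⟩ | ⟨e1, e2⟩
    · rw [e1, e2, hv, hr]; abel
    · have hcol := swap' (D := D) hM hM' hPr (by rw [← e1, ← e2]; exact p2)
      obtain ⟨k1, k2⟩ := col_eq act e F q q' μ hcol
      rw [e1, e2, ← k1, k2, hv, hr]; abel

end core

theorem gadget2 (S V : Type*) [Monoid S] [Finite S] [AddCommGroup V] [Finite V]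
    (act : V → S → V) :
    ∃ (m r : ℕ), ∀ B : ℕ, ∃ (M : ℕ) (mods : Finset ℕ) (L : ℕ → List S → ℕ → Option V)
      (R : ℕ → (ℕ → Option (List S)) → Option V) (nu : ℕ → List S → V),
      mods.card ≤ r ∧ 0 < M ∧ M % 2 = 1 ∧ (∀ μ ∈ mods, B < μ ∧ μ ∣ M) ∧
      (∀ i pre om, L i pre (om + M) = L i pre om) ∧
      (∀ om cont, R (om + M) cont = R om cont) ∧ (∀ n z, nu (n + M) z = nu n z) ∧
      (∀ (z pre : List S) (i om om' : ℕ) (cont : ℕ → Option (List S)) (v r : V), i < m →
        i + 1 < z.length →
        (∀ post, cont i = some post → post = z.drop (i + 2) ∧ pre = z.take (i + 1)) →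
        L i pre om = some v →
        R om' cont = some r → r = nu (om + om') z + act v z.prod) ∧
      (∀ (z : List S), m + 1 ≤ z.length → ∀ (v : V) (n : ℕ), (∀ μ ∈ mods, ¬ μ ∣ n) →
        ∃ i < m, ∀ x0, x0 + M ≤ n + 1 → ∃ om, x0 ≤ om ∧ om < x0 + M ∧ om ≤ n ∧
          L i (z.take (i + 1)) om = some v ∧
          ∀ cont : ℕ → Option (List S), cont i = some (z.drop (i + 2)) →
            (R (n - om) cont).isSome) := by
  classical
  have : Fintype S := Fintype.ofFinite S
  have : Fintype V := Fintype.ofFinite V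
  obtain ⟨m, N, e, F, hN, hF⟩ := RandF808.exists_noise S V act
  have : NeZero N := ⟨hN.ne'⟩
  refine ⟨m, Fintype.card (Nm m S V (ZMod N × ZMod N) ⊕
    Nm m S V (ZMod N × ZMod N) ⊕ (V × V)), fun B => ?_⟩
  obtain ⟨μ, hco, hμ⟩ := exists_moduli (Nm m S V (ZMod N × ZMod N) ⊕
    Nm m S V (ZMod N × ZMod N) ⊕ (V × V)) B
  set D := mkNS (m := m) act e F (fun l => μ (Sum.inl l)) (fun l => μ (Sum.inr (Sum.inl l)))
    (fun j => μ (Sum.inr (Sum.inr j))) with hD
  have hmod : D.mod = μ := by
    funext i
    rcases i with l | l | j <;> rfl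
  have hdvd : ∀ i, μ i ∣ D.M := fun i => by
    rw [← hmod]; exact Finset.dvd_prod_of_mem _ (Finset.mem_univ i)
  have hM1 : ∀ l, D.q l ∣ D.M ∧ D.q' l ∣ D.M := fun l =>
    ⟨hdvd (Sum.inl l), hdvd (Sum.inr (Sum.inl l))⟩
  have hM2 : ∀ j, D.m j ∣ D.M := fun j => hdvd (Sum.inr (Sum.inr j))
  have hL1 : ∀ c t, LOK D c (t + D.M) ↔ LOK D c t := fun c t => by
    simpa using LOK_add (D := D) hM1 hM2 c t 1
  have hR1 : ∀ c t, ROK D c (t + D.M) ↔ ROK D c t := fun c t => by
    simpa using ROK_add (D := D) hM1 hM2 c t 1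
  refine ⟨D.M, Finset.image μ Finset.univ, LL act e F D, RR act e F D, nu act e F D D.M,
    ?_, ?_, ?_, ?_, ?_, ?_, ?_, ?_, ?_⟩
  · exact Finset.card_image_le.trans (by rw [Finset.card_univ])
  · exact Finset.prod_pos (fun i _ => by rw [hmod]; have := (hμ i).2.2; omega)
  · have h : Odd D.M := by
      unfold NS.M
      rw [hmod]
      refine Finset.prod_induction _ Odd (fun a b ha hb => ha.mul hb) odd_one ?_
      intro i _
      exact Nat.odd_iff.2 (hμ i).2.1
    exact Nat.odd_iff.1 h
  · intro x hx
    obtain ⟨i, -, rfl⟩ := Finset.mem_image.1 hx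
    exact ⟨(hμ i).1, hdvd i⟩
  · intro i pre om
    have h2 : LProp act e F D i pre (om + D.M) = LProp act e F D i pre om := by
      funext c
      simp only [LProp, hL1]
    unfold LL
    rw [h2]
  · intro om cont
    have h2 : RProp act e F D (om + D.M) cont = RProp act e F D om cont := by
      funext c
      simp only [RProp, hR1]
    unfold RR
    rw [h2]
  · intro n z
    have h2 : Pr D D.M (n + D.M) = Pr D D.M n := by
      funext c c'
      simp only [Pr, Nat.add_mod_right]
    unfold nu
    rw [h2]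
  · intro z pre i om om' cont v r hi hz hc hL hR
    exact sound2 act e F _ _ _ (fun l => hM1 l) (fun j => hM2 j) z pre om om' cont v r hi hz hc
      hL hR
  · intro z hz v n hn
    refine Lvl_274.complete act e F _ _ _ hF (fun i => ?_) ?_ (fun j => (hμ _).2.1) z hz v n
      (fun i => ?_)
    · have h3 : D.mod i ≠ 0 := by rw [hmod]; have := (hμ i).2.2; omega
      exact h3
    · have h3 : Pairwise (Function.onFun Nat.Coprime D.mod) := by rw [hmod]; exact hco
      exact h3
    · have h3 : ¬ D.mod i ∣ n := by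
        rw [hmod]; exact hn _ (Finset.mem_image_of_mem _ (Finset.mem_univ i))
      exact h3

section arith

theorem crt_window (g M T om lo : ℕ) (hco : Nat.Coprime g M) (hg : 0 < g) (hM : 0 < M) :
    ∃ o, lo ≤ o ∧ o < lo + g * M ∧ o ≡ T [MOD g] ∧ o ≡ om [MOD M] := by
  obtain ⟨r, hr1, hr2⟩ := Nat.chineseRemainder hco T om
  have hpos : 0 < g * M := Nat.mul_pos hg hM
  have hle : lo ≤ lo * (g * M) := Nat.le_mul_of_pos_right _ hpos
  have h1 : lo + (r + lo * (g * M) - lo) % (g * M) ≡ r [MOD g * M] := by
    have h2 : (r + lo * (g * M) - lo) % (g * M) ≡ r + lo * (g * M) - lo [MOD g * M] :=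
      Nat.mod_modEq _ _
    have h3 := h2.add_left lo
    have h4 : lo + (r + lo * (g * M) - lo) = r + lo * (g * M) := by omega
    rw [h4] at h3
    refine h3.trans ?_
    unfold Nat.ModEq
    rw [Nat.add_mul_mod_self_right]
  refine ⟨lo + (r + lo * (g * M) - lo) % (g * M), by omega, ?_, ?_, ?_⟩
  · have := Nat.mod_lt (r + lo * (g * M) - lo) hpos
    omega
  · exact (h1.of_mul_right M).trans hr1
  · exact (h1.of_mul_left g).trans hr2

theorem div_band {x y c g : ℕ} (h1 : c ≤ x % g) (h2 : x % g + c < g)
    (hy1 : x ≤ y + c) (hy2 : y ≤ x + c) : y / g = x / g := by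
  have h3 := Nat.div_add_mod x g
  apply Nat.div_eq_of_lt_le
  · rw [Nat.mul_comm]; omega
  · rw [Nat.add_mul, Nat.mul_comm, Nat.one_mul]; omega

/-- the grid boundary: the least `y ≥ a k` with `y = T` modulo `G k`. -/
def be (G a : ℕ → ℕ) (T k : ℕ) : ℕ := T - G k * ((T - a k) / G k)

variable {G a : ℕ → ℕ}

theorem be_le {T k : ℕ} : be G a T k ≤ T := Nat.sub_le _ _

theorem be_ge {T k : ℕ} (h : a k ≤ T) : a k ≤ be G a T k := by
  unfold be
  have := Nat.mul_div_le (T - a k) (G k)
  omega

theorem be_lt {T k : ℕ} (hG : 0 < G k) (h : a k ≤ T) : be G a T k < a k + G k := by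
  unfold be
  have h1 := Nat.div_add_mod (T - a k) (G k)
  have h2 := Nat.mod_lt (T - a k) hG
  omega

theorem be_big {T k : ℕ} (h : T ≤ a k) : be G a T k = T := by
  unfold be
  rw [Nat.sub_eq_zero_of_le h]; simp

theorem be_left {o o' k : ℕ} (hG : 0 < G k) (ha : a k ≤ o) (hd : G k ∣ o') :
    be G a (o + o') k = be G a o k := by
  obtain ⟨j, rfl⟩ := hd
  unfold be
  have h1 : o + G k * j - a k = (o - a k) + G k * j := by omega
  rw [h1, Nat.add_mul_div_left _ _ hG, Nat.mul_add]
  have h2 : G k * ((o - a k) / G k) ≤ o - a k := Nat.mul_div_le _ _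
  omega

theorem be_right {T k y y' : ℕ} (hlo : y ≤ T) (hhi : T ≤ y')
    (h : (y - a k) / G k = (y' - a k) / G k) :
    be G a T k = T - G k * ((y - a k) / G k) := by
  have h1 : (T - a k) / G k = (y - a k) / G k :=
    le_antisymm (h ▸ Nat.div_le_div_right (by omega)) (Nat.div_le_div_right (by omega))
  unfold be
  rw [h1]

end arith

section words

variable {α S : Type*} (φ : List α → S) (G a : ℕ → ℕ) (m : ℕ)

/-- all boundaries of a zone of length `T`. -/
def bx (T : ℕ) : ℕ → ℕ
  | 0 => 0
  | k + 1 => if k ≤ m then be G a T k else T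

/-- the type of the `k`-th piece. -/
def seg (u : List α) (b : ℕ → ℕ) (k : ℕ) : S := φ ((u.drop (b k)).take (b (k + 1) - b k))

/-- the list of the types of the pieces. -/
def zz (u : List α) : List S := (List.range (m + 2)).map (seg φ u (bx G a m u.length))

/-- boundaries seen from the left. -/
def bl (n : ℕ) : ℕ → ℕ
  | 0 => 0
  | k + 1 => be G a n k

def pre (P : List α) (i : ℕ) : List S :=
  (List.range (i + 1)).map (seg φ P (bl G a P.length))

/-- distances of the boundaries from the end, seen from the right. -/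
def dr (y : ℕ) (k : ℕ) : ℕ := if k ≤ m then G k * ((y - a k) / G k) else 0

def post (Q : List α) (i : ℕ) : List S :=
  (List.range (m - i)).map (fun j =>
    φ ((Q.drop (Q.length - dr G a m (Q.length + (a i + G i)) (i + 1 + j))).take
      (dr G a m (Q.length + (a i + G i)) (i + 1 + j) -
        dr G a m (Q.length + (a i + G i)) (i + 2 + j))))

/-- the right part (a length) is legal for the level `i`. -/
def RLeg (n i : ℕ) : Prop :=
  G i ∣ n ∧ ∀ k, i < k → k ≤ m → a k ≤ n + (a i + G i) ∧
    (n + (a i + G i) - a k) / G k = (n + a (i + 1) - a k) / G k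

variable {φ G a m}

theorem length_zz (u : List α) : (zz φ G a m u).length = m + 2 := by simp [zz]

theorem prod_segs [Monoid S] (hφ : ∀ u v, φ (u ++ v) = φ u * φ v) (hφ1 : φ [] = 1)
    (u : List α) (b : ℕ → ℕ) (n : ℕ)
    (hb : ∀ k < n, b k ≤ b (k + 1)) (h0 : b 0 = 0) :
    ((List.range n).map (seg φ u b)).prod = φ (u.take (b n)) := by
  induction n with
  | zero => simp [h0, hφ1]
  | succ n ih =>
    rw [List.range_succ, List.map_append, List.prod_append, ih (fun k hk => hb k (by omega))]
    simp only [List.map_cons, List.map_nil, List.prod_cons, List.prod_nil, mul_one, seg]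
    rw [← hφ]
    congr 1
    have h1 := hb n (by omega)
    rw [← List.take_add]
    congr 1; omega

theorem bx_mono (hG : ∀ k, 0 < G k) (ha : ∀ k, a k + G k ≤ a (k + 1)) (T k : ℕ)
    (hk : k < m + 2) : bx G a m T k ≤ bx G a m T (k + 1) := by
  cases k with
  | zero => exact Nat.zero_le _
  | succ k =>
    simp only [bx]
    rw [if_pos (by omega : k ≤ m)]
    split_ifs with h1
    · rcases Nat.le_total (a (k + 1)) T with h2 | h2
      · have h3 := ha k
        have h4 := be_lt (G := G) (a := a) (T := T) (hG k) (by omega)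
        have h5 := be_ge (G := G) (a := a) (T := T) (k := k + 1) h2
        omega
      · rw [be_big h2]
        exact be_le
    · exact be_le

theorem zz_prod [Monoid S] (hφ : ∀ u v, φ (u ++ v) = φ u * φ v) (hφ1 : φ [] = 1)
    (hG : ∀ k, 0 < G k) (ha : ∀ k, a k + G k ≤ a (k + 1)) (u : List α) :
    (zz φ G a m u).prod = φ u := by
  unfold zz
  rw [prod_segs hφ hφ1 u (bx G a m u.length) (m + 2) (fun k hk => bx_mono hG ha _ _ hk) rfl]
  congr 1
  simp [bx]

theorem pre_eq {P Q : List α} {i : ℕ} (him : i < m) (hG : ∀ k, 0 < G k)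
    (hd : ∀ k ≤ i, G k ∣ Q.length) (ha : ∀ k ≤ i, a k ≤ P.length) :
    pre φ G a P i = (zz φ G a m (P ++ Q)).take (i + 1) := by
  unfold pre zz
  rw [← List.map_take, List.take_range, min_eq_left (by omega)]
  apply List.map_congr_left
  intro k hk
  rw [List.mem_range] at hk
  have hb : ∀ j ≤ i + 1, bx G a m (P ++ Q).length j = bl G a P.length j ∧
      bl G a P.length j ≤ P.length := by
    intro j hj
    cases j with
    | zero => exact ⟨rfl, Nat.zero_le _⟩
    | succ j =>
      simp only [bx, bl]
      rw [if_pos (by omega), List.length_append, be_left (hG j) (ha j (by omega))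
        (hd j (by omega))]
      exact ⟨rfl, be_le⟩
  unfold seg
  rw [(hb k (by omega)).1, (hb (k + 1) (by omega)).1]
  have h1 := (hb k (by omega)).2
  have h2 := (hb (k + 1) (by omega)).2
  rw [List.drop_append_of_le_length h1,
    List.take_append_of_le_length (by rw [List.length_drop]; omega)]

theorem post_eq {P Q : List α} {i : ℕ} (him : i < m)
    (hP1 : a i + G i ≤ P.length) (hP2 : P.length ≤ a (i + 1))
    (hmono : ∀ k, i < k → a (i + 1) ≤ a k) (hR : RLeg G a m Q.length i) :
    post φ G a m Q i = (zz φ G a m (P ++ Q)).drop (i + 2) := by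
  have hb : ∀ k, i < k → k ≤ m + 1 →
      bx G a m (P ++ Q).length (k + 1) =
        (P ++ Q).length - dr G a m (Q.length + (a i + G i)) k ∧
      dr G a m (Q.length + (a i + G i)) k ≤ Q.length := by
    intro k hk hk'
    simp only [bx, dr]
    split_ifs with h1
    · obtain ⟨h2, h3⟩ := hR.2 k hk h1
      have h4 := be_right (G := G) (a := a) (T := (P ++ Q).length) (k := k)
        (y := Q.length + (a i + G i)) (y' := Q.length + a (i + 1))
        (by rw [List.length_append]; omega) (by rw [List.length_append]; omega) h3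
      have h5 := Nat.mul_div_le (Q.length + (a i + G i) - a k) (G k)
      have h6 := be_ge (G := G) (a := a) (T := (P ++ Q).length) (k := k)
        (by rw [List.length_append]; omega)
      have h7 := hmono k hk
      refine ⟨h4, ?_⟩
      rw [h4, List.length_append] at h6
      omega
    · exact ⟨(Nat.sub_zero _).symm, Nat.zero_le _⟩
  apply List.ext_getElem
  · simp [post, zz]
  · intro j h1 h2
    have hj : j < m - i := by simpa [post] using h1
    simp only [post, zz, List.getElem_map, List.getElem_range, List.getElem_drop, seg]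
    have e1 := hb (i + 1 + j) (by omega) (by omega)
    have e2 := hb (i + 2 + j) (by omega) (by omega)
    rw [show i + 2 + j = i + 1 + j + 1 by omega] at e2 ⊢
    rw [e1.1, e2.1]
    have e3 := e1.2
    have e4 := e2.2
    rw [List.length_append]
    congr 1
    rw [show P.length + Q.length - dr G a m (Q.length + (a i + G i)) (i + 1 + j) =
      P.length + (Q.length - dr G a m (Q.length + (a i + G i)) (i + 1 + j)) by omega]
    rw [← List.drop_drop, List.drop_left]
    congr 1
    omega

end words

/-- the bad lengths. -/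
def BadT (G a : ℕ → ℕ) (m M : ℕ) (mods : Finset ℕ) (T : ℕ) : Prop :=
  (∃ μ ∈ mods, μ ∣ T) ∨ ∃ k < m, (T - a (k + 1)) % G (k + 1) < M * G k ∨
    G (k + 1) ≤ (T - a (k + 1)) % G (k + 1) + M * G k

section final

variable {α S V : Type*} (φ : List α → S) (G a : ℕ → ℕ) (m : ℕ)
variable (L : ℕ → List S → ℕ → Option V) (R : ℕ → (ℕ → Option (List S)) → Option V)
  (nu : ℕ → List S → V)

/-- left legal with token `v`. -/
def LLw (P : List α) (v : V) : Prop :=
  ∃ i < m, a i + G i ≤ P.length ∧ P.length < a (i + 1) ∧ L i (pre φ G a P i) P.length = some v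

open Classical in
noncomputable def contw (Q : List α) : ℕ → Option (List S) :=
  fun i => if RLeg G a m Q.length i then some (post φ G a m Q i) else none

/-- right legal with value `b`. -/
def RRw (Q : List α) (b : V) : Prop := R Q.length (contw φ G a m Q) = some b

def nuw (u : List α) : V := nu u.length (zz φ G a m u)

end final

theorem per_L {M : ℕ} {V : Type*} {f : ℕ → V} (h : ∀ x, f (x + M) = f x) {x y : ℕ}
    (hxy : x ≡ y [MOD M]) : f x = f y := by
  have h1 : ∀ x k, f (x + k * M) = f x := by
    intro x k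
    induction k with
    | zero => simp
    | succ k ih => rw [Nat.add_mul, Nat.one_mul, ← Nat.add_assoc, h, ih]
  have h2 : ∀ x, f x = f (x % M) := by
    intro x
    conv_lhs => rw [← Nat.mod_add_div x M, Nat.mul_comm]
    exact h1 _ _
  rw [h2 x, h2 y, hxy]

/-- **The gadget of scheme 1 on words (693's grids).** Sound for all words, complete outside the
thin set `BadT` of lengths. The number of levels `m` and the bound `r` of the number of moduli are
fixed before the moduli (all `> B`), the grids `G` come last. -/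
theorem grid (S V : Type*) [Monoid S] [Finite S] [AddCommGroup V] [Finite V]
    (act : V → S → V) :
    ∃ (m r : ℕ), ∀ B : ℕ, ∃ (M : ℕ) (mods : Finset ℕ),
      mods.card ≤ r ∧ 0 < M ∧ M % 2 = 1 ∧ (∀ μ ∈ mods, B < μ ∧ μ ∣ M) ∧
      ∀ (G a : ℕ → ℕ), (∀ k, 0 < G k) → (∀ k, G k ∣ G (k + 1)) →
        (∀ k, a (k + 1) = a k + G k + M * G k) → (∀ k, Nat.Coprime (G k) M) →
      ∀ {α : Type*} (φ : List α → S), (∀ u v, φ (u ++ v) = φ u * φ v) → φ [] = 1 →
      ∃ (LL : List α → V → Prop) (RR : List α → V → Prop) (nu : List α → V),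
        (∀ P v, LL P v → G 0 ≤ P.length ∧ P.length < a m) ∧
        (∀ P Q v b, LL P v → RR Q b → b = act v (φ (P ++ Q)) + nu (P ++ Q)) ∧
        (∀ Q b b', RR Q b → RR Q b' → b = b') ∧
        (∀ P v v', LL P v → LL P v' → v = v') ∧
        (∀ u : List α, 2 * a m ≤ u.length → ¬ BadT G a m M mods u.length → ∀ v,
          ∃ o, o < a m ∧ LL (u.take o) v ∧ ∃ b, RR (u.drop o) b) := by
  classical
  obtain ⟨m, r, hall⟩ := gadget2 S V act
  refine ⟨m, r, fun B => ?_⟩
  obtain ⟨M, mods, L, R, nu, hcard, hMpos, hModd, hmods, hLper, hRper, -, hsound, hcomp⟩ := hall B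
  refine ⟨M, mods, hcard, hMpos, hModd, hmods, ?_⟩
  intro G a hG hGd ha hco α φ hφ hφ1
  have hGdvd : ∀ i k, k ≤ i → G k ∣ G i := by
    intro i k hki
    induction i, hki using Nat.le_induction with
    | base => exact dvd_rfl
    | succ i _ ih => exact ih.trans (hGd i)
  have hGmono : ∀ i k, k ≤ i → G k ≤ G i := fun i k h => Nat.le_of_dvd (hG i) (hGdvd i k h)
  have ha' : ∀ k, a k + G k ≤ a (k + 1) := fun k => by rw [ha]; exact Nat.le_add_right _ _
  have hamono : Monotone a := monotone_nat_of_le_succ (fun k => by have := ha' k; omega)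
  refine ⟨LLw φ G a m L, RRw φ G a m R, nuw φ G a m nu, ?_, ?_, ?_, ?_, ?_⟩
  · rintro P v ⟨i, hi, h1, h2, -⟩
    have h3 := hGmono i 0 (Nat.zero_le _)
    have h4 := hamono (show i + 1 ≤ m by omega)
    exact ⟨by omega, by omega⟩
  · rintro P Q v b ⟨i, hi, h1, h2, hL⟩ hR
    have key := hsound (zz φ G a m (P ++ Q)) (pre φ G a P i) i P.length Q.length
      (contw φ G a m Q) v b hi (by rw [length_zz]; omega) ?_ hL hR
    · rw [key, zz_prod hφ hφ1 hG ha', add_comm]
      unfold nuw
      rw [List.length_append]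
    · intro ps hps
      unfold contw at hps
      split_ifs at hps with hleg
      obtain rfl := Option.some.inj hps
      refine ⟨post_eq hi h1 h2.le (fun k hk => hamono (by omega)) hleg,
        pre_eq hi hG (fun k hk => (hGdvd i k hk).trans hleg.1) (fun k hk => ?_)⟩
      have := hamono hk
      omega
  · intro Q b b' h h'
    exact Option.some.inj (h.symm.trans h')
  · rintro P v v' ⟨i, hi, h1, h2, hL⟩ ⟨j, hj, k1, k2, kL⟩
    have hij : i = j := by
      rcases lt_trichotomy i j with h | h | h
      · have := hamono (show i + 1 ≤ j by omega); omega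
      · exact h
      · have := hamono (show j + 1 ≤ i by omega); omega
    subst hij
    exact Option.some.inj (hL.symm.trans kL)
  · intro u hu hbad v
    have hbad1 : ∀ μ ∈ mods, ¬ μ ∣ u.length := fun μ hμ hd => hbad (Or.inl ⟨μ, hμ, hd⟩)
    have hbad2 : ∀ k < m, M * G k ≤ (u.length - a (k + 1)) % G (k + 1) ∧
        (u.length - a (k + 1)) % G (k + 1) + M * G k < G (k + 1) := by
      intro k hk
      constructor
      · by_contra h
        exact hbad (Or.inr ⟨k, hk, Or.inl (by omega)⟩)
      · by_contra h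
        exact hbad (Or.inr ⟨k, hk, Or.inr (by omega)⟩)
    obtain ⟨i, hi, hc⟩ := hcomp (zz φ G a m u) (by rw [length_zz]; omega) v u.length hbad1
    have hai := ha i
    have ham := hamono (show i + 1 ≤ m by omega)
    have hMG : M ≤ M * G i := Nat.le_mul_of_pos_right _ (hG i)
    obtain ⟨om, -, h2, h3, h4, h5⟩ := hc 0 (by omega)
    obtain ⟨o, o1, o2, o3, o4⟩ := crt_window (G i) M u.length om (a i + G i) (hco i) (hG i) hMpos
    rw [Nat.mul_comm (G i) M] at o2
    have hoT : o ≤ u.length := by omega
    have hPlen : (u.take o).length = o := by rw [List.length_take]; omega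
    have hQlen : (u.drop o).length = u.length - o := by rw [List.length_drop]
    have hGi : G i ∣ (u.drop o).length := by
      rw [hQlen]; exact (Nat.modEq_iff_dvd' hoT).1 o3
    have hleg : RLeg G a m (u.drop o).length i := by
      refine ⟨hGi, fun k hk hkm => ?_⟩
      obtain ⟨j, rfl⟩ : ∃ j, k = j + 1 := ⟨k - 1, by omega⟩
      obtain ⟨b1, b2⟩ := hbad2 j (by omega)
      have hak := hamono hkm
      have hMj : M * G i ≤ M * G j := Nat.mul_le_mul_left _ (hGmono j i (by omega))
      refine ⟨by rw [hQlen]; omega, ?_⟩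
      rw [hQlen]
      rw [div_band (x := u.length - a (j + 1)) b1 b2 (by omega) (by omega),
        div_band (x := u.length - a (j + 1)) (y := u.length - o + a (i + 1) - a (j + 1)) b1 b2
          (by omega) (by omega)]
    have hpost : post φ G a m (u.drop o) i = (zz φ G a m u).drop (i + 2) := by
      have := post_eq (φ := φ) (G := G) (a := a) (m := m) (P := u.take o) (Q := u.drop o) hi
        (by omega) (by omega) (fun k hk => hamono (by omega)) hleg
      rwa [List.take_append_drop] at this
    have hpre : pre φ G a (u.take o) i = (zz φ G a m u).take (i + 1) := by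
      have := pre_eq (φ := φ) (G := G) (a := a) (m := m) (P := u.take o) (Q := u.drop o) hi hG
        (fun k hk => (hGdvd i k hk).trans hGi)
        (fun k hk => by have := hamono hk; rw [hPlen]; omega)
      rwa [List.take_append_drop] at this
    refine ⟨o, by omega, ⟨i, hi, by omega, by omega, ?_⟩, ?_⟩
    · rw [hpre, hPlen, ← h4]
      exact per_L (hLper i _) o4
    · have hcont : contw φ G a m (u.drop o) i = some ((zz φ G a m u).drop (i + 2)) := by
        unfold contw
        rw [if_pos hleg, hpost]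
      obtain ⟨b, hb⟩ := Option.isSome_iff_exists.1 (h5 _ hcont)
      refine ⟨b, ?_⟩
      unfold RRw
      rw [← hb]
      refine per_L (f := fun x => R x (contw φ G a m (u.drop o))) (fun x => hRper x _) ?_
      rw [hQlen]
      refine Nat.ModEq.add_right_cancel o4 ?_
      rw [Nat.sub_add_cancel hoT, Nat.sub_add_cancel h3]

end Crest.Agent.R320.Grid_274
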