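import Crest.Agent.R320.Gad1_420
import Crest.Agent.R320.Names_755
import Crest.Agent.R320.RandF_808

/-!
Row 320, helper319: 693's gadget 1 (post 13203) on words: hole ends on nested grids anchored at the
right end; no small walls, all contents, sound for every total length.
-/

set_option autoImplicit false
set_option linter.unusedSectionVars false

namespace Crest.Agent.R320.Grid_319

open Finset Crest.Agent.R320.Gad1_420

/-- lower end of level `i` (grid `Γ ^ i`) -/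
def Am (Γ M : ℕ) : ℕ → ℕ
  | 0 => 0
  | i + 1 => Am Γ M i + Γ ^ i + M * Γ ^ i

/-- boundary `i` at total `T` -/
def bt (Γ M T i : ℕ) : ℕ := Am Γ M i + (T - Am Γ M i) % Γ ^ i

section arith

variable {Γ M : ℕ}

theorem Am_succ (i : ℕ) : Am Γ M (i + 1) = Am Γ M i + Γ ^ i + M * Γ ^ i := rfl

theorem Am_mono {i j : ℕ} (h : i ≤ j) : Am Γ M i ≤ Am Γ M j := by
  induction h with
  | refl => exact le_rfl
  | step _ ih => rw [Nat.succ_eq_add_one, Am_succ]; omega

theorem bt_ge (T i : ℕ) : Am Γ M i ≤ bt Γ M T i := Nat.le_add_right _ _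

theorem bt_lt (hΓ : 0 < Γ) (T i : ℕ) : bt Γ M T i < Am Γ M i + Γ ^ i :=
  Nat.add_lt_add_left (Nat.mod_lt _ (pow_pos hΓ i)) _

theorem bt_mono (hΓ : 0 < Γ) (T i : ℕ) : bt Γ M T i ≤ bt Γ M T (i + 1) := by
  have h1 := bt_lt (M := M) hΓ T i
  have h2 := bt_ge (Γ := Γ) (M := M) T (i + 1)
  rw [Am_succ] at h2
  omega

theorem bt_congr {T T' i : ℕ} (h1 : Am Γ M i ≤ T) (h2 : Am Γ M i ≤ T')
    (h : T ≡ T' [MOD Γ ^ i]) : bt Γ M T i = bt Γ M T' i := by
  obtain ⟨a, rfl⟩ := Nat.exists_eq_add_of_le h1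
  obtain ⟨b, rfl⟩ := Nat.exists_eq_add_of_le h2
  have h3 : a ≡ b [MOD Γ ^ i] := Nat.ModEq.add_left_cancel' _ h
  unfold bt
  rw [Nat.add_sub_cancel_left, Nat.add_sub_cancel_left, h3]

/-- thinness at level `j` -/
def Thin (Γ M T j : ℕ) : Prop :=
  M * Γ ^ (j - 1) ≤ (T - Am Γ M j) % Γ ^ j ∧ (T - Am Γ M j) % Γ ^ j + M * Γ ^ (j - 1) ≤ Γ ^ j

theorem doubt {T j o o₁ q d : ℕ} (hT : o + q = T) (hA : Am Γ M j ≤ T)
    (ho : o < Am Γ M j) (ho₁ : o₁ < Am Γ M j)
    (hd : o₁ < o + d) (hd' : o < o₁ + d) (hdc : d ≤ M * Γ ^ (j - 1)) (ht : Thin Γ M T j) :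
    bt Γ M (o₁ + q) j - o₁ = bt Γ M T j - o := by
  obtain ⟨t1, t2⟩ := ht
  obtain ⟨X, hX⟩ := Nat.exists_eq_add_of_le hA
  have e0 : T - Am Γ M j = X := by omega
  rw [e0] at t1 t2
  set G := Γ ^ j with hG
  have hdm := Nat.div_add_mod X G
  set r := X % G with hr
  set l := X / G with hl
  have hGr : r + d ≤ G := by omega
  have e1 : o₁ + q - Am Γ M j = G * l + (r + o₁ - o) := by omega
  have e2 : (o₁ + q - Am Γ M j) % G = r + o₁ - o := by
    rw [e1, Nat.mul_add_mod]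
    exact Nat.mod_eq_of_lt (by omega)
  unfold bt
  rw [← hG, e2, e0]
  omega

end arith

section words

variable {α S V W : Type*} [Monoid S] [AddCommGroup V] [AddCommGroup W]

/-- the data of the gadget -/
structure Dt (α S V W : Type*) where
  φ : List α → S
  act : V → S → V
  m : ℕ
  e : ℕ → S → W
  F : S → W → V
  Γ : ℕ
  M : ℕ
  Ms : Finset ℕ
  nmL : ℕ → Option (Fin m × S × W × S × W × V)
  nmR : ℕ → Option (Fin m × S × W × S × W × V)

variable (D : Dt α S V W)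

/-- end value of a name -/
def Dt.bb (c : Fin D.m × S × W × S × W × V) : V :=
  D.F (c.2.1 * 1 * c.2.2.2.1) (c.2.2.1 + D.e c.1 1 + c.2.2.2.2.1) +
    D.act c.2.2.2.2.2 (c.2.1 * 1 * c.2.2.2.1)

/-- usable names -/
def Dt.ok (c : Fin D.m × S × W × S × W × V) : Prop :=
  ∀ z, D.F (c.2.1 * z * c.2.2.2.1) (c.2.2.1 + D.e c.1 z + c.2.2.2.2.1) +
    D.act c.2.2.2.2.2 (c.2.1 * z * c.2.2.2.1) = D.bb c

/-- boundary -/
def Dt.b (T j : ℕ) : ℕ := bt D.Γ D.M T j

/-- cell of level `i` -/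
def Dt.cell (i o : ℕ) : Prop :=
  Am D.Γ D.M i + D.Γ ^ i ≤ o ∧ o < Am D.Γ D.M i + D.Γ ^ i + D.M * D.Γ ^ i

/-- weight of a word at total `T` -/
def Dt.ww (Y : List α) (T : ℕ) : W :=
  ∑ j ∈ range D.m, D.e j (D.φ (seg Y (D.b T j) (D.b T (j + 1))))

/-- left legality -/
def Dt.LL (c : Fin D.m × S × W × S × W × V) (P : List α) : Prop :=
  D.ok c ∧ D.cell c.1 P.length ∧ c.2.1 = D.φ (P.take (D.b P.length c.1)) ∧
  c.2.2.1 = ∑ j ∈ range (c.1 : ℕ), D.e j (D.φ (seg P (D.b P.length j) (D.b P.length (j + 1))))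

/-- right legality -/
def Dt.RR (c : Fin D.m × S × W × S × W × V) (Q : List α) : Prop :=
  D.ok c ∧ D.Γ ^ (c.1 : ℕ) ∣ Q.length ∧ ∀ o, D.cell c.1 o →
    c.2.2.2.1 = D.φ (Q.drop (D.b (o + Q.length) (c.1 + 1) - o)) ∧
    c.2.2.2.2.1 = ∑ j ∈ Ico ((c.1 : ℕ) + 1) D.m,
      D.e j (D.φ (seg Q (D.b (o + Q.length) j - o) (D.b (o + Q.length) (j + 1) - o)))

open Classical in
/-- left label -/
noncomputable def Dt.lam (P : List α) : Option V :=
  (D.nmL P.length).bind fun c => if D.LL c P then some c.2.2.2.2.2 else none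

open Classical in
/-- right label -/
noncomputable def Dt.rho (Q : List α) : Option V :=
  (D.nmR Q.length).bind fun c => if D.RR c Q then some (D.bb c) else none

variable {D}

theorem lam_some {P : List α} {v : V} : D.lam P = some v ↔
    ∃ c, D.nmL P.length = some c ∧ D.LL c P ∧ c.2.2.2.2.2 = v := by
  classical
  unfold Dt.lam
  rw [Option.bind_eq_some_iff]
  constructor
  · rintro ⟨c, hc, h⟩
    split_ifs at h with h1
    exact ⟨c, hc, h1, Option.some.inj h⟩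
  · rintro ⟨c, hc, h1, h2⟩
    exact ⟨c, hc, by rw [if_pos h1, h2]⟩

theorem rho_some {Q : List α} {r : V} : D.rho Q = some r ↔
    ∃ c, D.nmR Q.length = some c ∧ D.RR c Q ∧ D.bb c = r := by
  classical
  unfold Dt.rho
  rw [Option.bind_eq_some_iff]
  constructor
  · rintro ⟨c, hc, h⟩
    split_ifs at h with h1
    exact ⟨c, hc, h1, Option.some.inj h⟩
  · rintro ⟨c, hc, h1, h2⟩
    exact ⟨c, hc, by rw [if_pos h1, h2]⟩

/-- splitting the product and the weight at level `i` -/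
theorem split_at (hφ : ∀ u v, D.φ (u ++ v) = D.φ u * D.φ v) (hΓ : 0 < D.Γ) (Y : List α) (T i : ℕ)
    (hi : i < D.m) :
    D.φ Y = D.φ (Y.take (D.b T i)) * D.φ (seg Y (D.b T i) (D.b T (i + 1))) *
      D.φ (Y.drop (D.b T (i + 1))) ∧
    D.ww Y T = (∑ j ∈ range i, D.e j (D.φ (seg Y (D.b T j) (D.b T (j + 1))))) +
      D.e i (D.φ (seg Y (D.b T i) (D.b T (i + 1)))) +
      ∑ j ∈ Ico (i + 1) D.m, D.e j (D.φ (seg Y (D.b T j) (D.b T (j + 1)))) := by
  constructor
  · have h5 : D.b T i ≤ D.b T (i + 1) := bt_mono hΓ T i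
    have h6 := seg_split (Y := Y) h5
    conv_lhs => rw [← h6]
    rw [hφ, hφ]
  · unfold Dt.ww
    rw [← Finset.sum_range_add_sum_Ico _ (show i + 1 ≤ D.m from hi), Finset.sum_range_succ]

/-- reading a junction of level `i` -/
theorem read (hΓ : 0 < D.Γ) {P Q : List α} {i : ℕ} (hc : D.cell i P.length)
    (hd : D.Γ ^ i ∣ Q.length) :
    D.φ ((P ++ Q).take (D.b (P.length + Q.length) i)) = D.φ (P.take (D.b P.length i)) ∧
    (∑ j ∈ range i, D.e j (D.φ (seg (P ++ Q) (D.b (P.length + Q.length) j)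
      (D.b (P.length + Q.length) (j + 1))))) =
      (∑ j ∈ range i, D.e j (D.φ (seg P (D.b P.length j) (D.b P.length (j + 1))))) ∧
    D.φ ((P ++ Q).drop (D.b (P.length + Q.length) (i + 1))) =
      D.φ (Q.drop (D.b (P.length + Q.length) (i + 1) - P.length)) ∧
    (∑ j ∈ Ico (i + 1) D.m, D.e j (D.φ (seg (P ++ Q) (D.b (P.length + Q.length) j)
      (D.b (P.length + Q.length) (j + 1))))) =
      ∑ j ∈ Ico (i + 1) D.m, D.e j (D.φ (seg Q (D.b (P.length + Q.length) j - P.length)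
        (D.b (P.length + Q.length) (j + 1) - P.length))) := by
  obtain ⟨hc1, hc2⟩ := hc
  have hle : ∀ j, j ≤ i → D.b (P.length + Q.length) j = D.b P.length j := by
    intro j hj
    have h1 : Am D.Γ D.M j ≤ Am D.Γ D.M i := Am_mono hj
    refine bt_congr (by omega) (by omega) ?_
    have h2 : D.Γ ^ j ∣ Q.length := (pow_dvd_pow _ hj).trans hd
    exact (Nat.modEq_iff_dvd' (by omega)).2 (by simpa using h2) |>.symm
  have hfit : ∀ j, j ≤ i → D.b P.length j ≤ P.length := by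
    intro j hj
    have h1 := bt_lt (M := D.M) hΓ P.length j
    have h2 : Am D.Γ D.M j ≤ Am D.Γ D.M i := Am_mono hj
    have h3 : D.Γ ^ j ≤ D.Γ ^ i := Nat.pow_le_pow_right hΓ hj
    unfold Dt.b
    omega
  have hgt : ∀ j, i < j → P.length ≤ D.b (P.length + Q.length) j := by
    intro j hj
    have h1 := bt_ge (Γ := D.Γ) (M := D.M) (P.length + Q.length) j
    have h2 : Am D.Γ D.M (i + 1) ≤ Am D.Γ D.M j := Am_mono hj
    rw [Am_succ] at h2
    unfold Dt.b
    omega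
  have hgt' : ∀ j, i < j → D.b (P.length + Q.length) j =
      P.length + (D.b (P.length + Q.length) j - P.length) := fun j hj => by
    have := hgt j hj
    omega
  refine ⟨?_, ?_, ?_, ?_⟩
  · rw [hle i le_rfl, List.take_append_of_le_length (hfit i le_rfl)]
  · refine Finset.sum_congr rfl fun j hj => ?_
    have hj' := Finset.mem_range.1 hj
    rw [hle j hj'.le, hle (j + 1) hj',
      seg_left (show D.b P.length j ≤ D.b P.length (j + 1) from bt_mono hΓ _ _) (hfit (j + 1) hj')]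
  · conv_lhs => rw [hgt' (i + 1) (Nat.lt_succ_self i)]
    rw [drop_app_right]
  · refine Finset.sum_congr rfl fun j hj => ?_
    obtain ⟨hj1, hj2⟩ := Finset.mem_Ico.1 hj
    conv_lhs => rw [hgt' j (by omega), hgt' (j + 1) (by omega)]
    rw [seg_right]

/-- standing assumptions -/
structure Dt.Ok (D : Dt α S V W) : Prop where
  hφ : ∀ u v, D.φ (u ++ v) = D.φ u * D.φ v
  hΓ : 0 < D.Γ
  hΓM : D.Γ ≡ 1 [MOD D.M]
  hM : 0 < D.M
  hF : ∀ s w v, ∃ i < D.m, ∀ g x h, g * x * h = s → ∀ z,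
    D.F (g * z * h) (w - D.e i x + D.e i z) + D.act v (g * z * h) = D.F s w + D.act v s
  dvd : ∀ k ∈ D.Ms, k ∣ D.M
  perL : ∀ t, D.nmL (t + D.M) = D.nmL t
  perR : ∀ t, D.nmR (t + D.M) = D.nmR t
  n1 : ∀ t t' c c', D.nmL t = some c → D.nmR t' = some c' → (∀ k ∈ D.Ms, ¬ k ∣ t + t') → c = c'
  n2 : ∀ T, (∀ k ∈ D.Ms, ¬ k ∣ T) → ∀ c, ∃ t < D.M, D.nmL t = some c ∧
        ∀ t', t + t' ≡ T [MOD D.M] → D.nmR t' = some c
  n3 : ∀ t₁ t₁' t₂ t₂' c₁ c₁' c₂ c₂', D.nmL t₁ = some c₁ → D.nmR t₁' = some c₁' →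
        D.nmL t₂ = some c₂ → D.nmR t₂' = some c₂' → t₁ + t₁' = t₂ + t₂' →
        (∃ k ∈ D.Ms, k ∣ t₁ + t₁') → c₁.2.2.2.2.2 = c₂.2.2.2.2.2 ∧ D.bb c₁' = D.bb c₂'

open Classical in
/-- common values at a bad residue -/
noncomputable def Dt.kk (D : Dt α S V W) (x : ℕ) : V × V :=
  if h : ∃ t t' c c', (t + t') % D.M = x ∧ D.nmL t = some c ∧ D.nmR t' = some c' then
    (h.choose_spec.choose_spec.choose.2.2.2.2.2,
      D.bb h.choose_spec.choose_spec.choose_spec.choose) else (0, 0)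

open Classical in
/-- the noise -/
noncomputable def Dt.nu (D : Dt α S V W) (Y : List α) : V :=
  if ∀ k ∈ D.Ms, ¬ k ∣ Y.length then D.F (D.φ Y) (D.ww Y Y.length)
  else (D.kk (Y.length % D.M)).2 - D.act (D.kk (Y.length % D.M)).1 (D.φ Y)

theorem per_add {β : Type*} {f : ℕ → β} {M : ℕ} (h : ∀ t, f (t + M) = f t) (t k : ℕ) :
    f (t + M * k) = f t := by
  induction k with
  | zero => simp
  | succ k ih => rw [Nat.mul_succ, ← add_assoc, h, ih]

theorem per_mod {β : Type*} {f : ℕ → β} {M : ℕ} (h : ∀ t, f (t + M) = f t) {a b : ℕ}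
    (hab : a ≡ b [MOD M]) : f a = f b := by
  rw [← Nat.mod_add_div a M, ← Nat.mod_add_div b M, per_add h, per_add h, hab]

theorem kk_spec (hD : D.Ok) {t t' : ℕ} {c c'} (h1 : D.nmL t = some c) (h2 : D.nmR t' = some c')
    (hb : ∃ k ∈ D.Ms, k ∣ t + t') :
    (D.kk ((t + t') % D.M)).1 = c.2.2.2.2.2 ∧ (D.kk ((t + t') % D.M)).2 = D.bb c' := by
  classical
  have h : ∃ s s' d d', (s + s') % D.M = (t + t') % D.M ∧ D.nmL s = some d ∧ D.nmR s' = some d' :=
    ⟨t, t', c, c', rfl, h1, h2⟩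
  unfold Dt.kk
  rw [dif_pos h]
  have hs := h.choose_spec.choose_spec.choose_spec.choose_spec
  set s := h.choose
  set s' := h.choose_spec.choose
  set d := h.choose_spec.choose_spec.choose
  set d' := h.choose_spec.choose_spec.choose_spec.choose
  obtain ⟨e1, e2, e3⟩ := hs
  show d.2.2.2.2.2 = _ ∧ D.bb d' = _
  rcases le_total (s + s') (t + t') with hle | hle
  · obtain ⟨k, hk⟩ := (Nat.modEq_iff_dvd' hle).1 e1
    have e4 : D.nmR (s' + D.M * k) = some d' := by rw [per_add hD.perR]; exact e3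
    obtain ⟨a1, a2⟩ := hD.n3 t t' s (s' + D.M * k) c c' d d' h1 h2 e2 e4 (by omega) hb
    exact ⟨a1.symm, a2.symm⟩
  · obtain ⟨k, hk⟩ := (Nat.modEq_iff_dvd' hle).1 (Eq.symm e1)
    have e4 : D.nmR (t' + D.M * k) = some c' := by rw [per_add hD.perR]; exact h2
    obtain ⟨q, hq, hq2⟩ := hb
    have hq3 : q ∣ t + (t' + D.M * k) := by
      rw [← add_assoc]
      exact Nat.dvd_add hq2 ((hD.dvd q hq).mul_right k)
    obtain ⟨a1, a2⟩ := hD.n3 t (t' + D.M * k) s s' c c' d d' h1 e4 e2 e3 (by omega) ⟨q, hq, hq3⟩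
    exact ⟨a1.symm, a2.symm⟩

/-- **SOUNDNESS** for all words -/
theorem sound (hD : D.Ok) {P Q : List α} {v r : V} (hP : D.lam P = some v)
    (hQ : D.rho Q = some r) : r = D.act v (D.φ (P ++ Q)) + D.nu (P ++ Q) := by
  classical
  obtain ⟨c, hc, ⟨hok, hcell, hg, hwl⟩, hv⟩ := lam_some.1 hP
  obtain ⟨c', hc', ⟨hok', hdv, hR⟩, hr⟩ := rho_some.1 hQ
  unfold Dt.nu
  rw [List.length_append]
  by_cases hgood : ∀ k ∈ D.Ms, ¬ k ∣ P.length + Q.length
  · rw [if_pos hgood]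
    have hcc := hD.n1 _ _ _ _ hc hc' hgood
    subst hcc
    obtain ⟨hh, hwr⟩ := hR _ hcell
    obtain ⟨r1, r2, r3, r4⟩ := read hD.hΓ hcell hdv
    obtain ⟨s1, s2⟩ := split_at hD.hφ hD.hΓ (P ++ Q) (P.length + Q.length) c.1 c.1.2
    rw [r1, r3, ← hg, ← hh] at s1
    rw [r2, r4, ← hwl, ← hwr] at s2
    rw [s1, s2, ← hr, ← hv, ← hok, add_comm]
  · rw [if_neg hgood]
    push Not at hgood
    obtain ⟨k1, k2⟩ := kk_spec hD hc hc' hgood
    rw [k1, k2, hv, hr]
    abel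

/-- **COMPLETENESS** -/
theorem complete (hD : D.Ok) (Y : List α) (hY : Am D.Γ D.M D.m + D.Γ ^ D.m ≤ Y.length)
    (hgood : ∀ k ∈ D.Ms, ¬ k ∣ Y.length)
    (hthin : ∀ j, 0 < j → j ≤ D.m → Thin D.Γ D.M Y.length j) (v : V) :
    ∃ P Q, Y = P ++ Q ∧ D.lam P = some v ∧ (D.rho Q).isSome := by
  classical
  set T := Y.length with hT
  obtain ⟨i, him, hi⟩ := hD.hF (D.φ Y) (D.ww Y T) v
  obtain ⟨s1, s2⟩ := split_at hD.hφ hD.hΓ Y T i him
  set g := D.φ (Y.take (D.b T i)) with hg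
  set x := D.φ (seg Y (D.b T i) (D.b T (i + 1))) with hx
  set h := D.φ (Y.drop (D.b T (i + 1))) with hh
  set wl := ∑ j ∈ range i, D.e j (D.φ (seg Y (D.b T j) (D.b T (j + 1)))) with hwl
  set wr := ∑ j ∈ Ico (i + 1) D.m, D.e j (D.φ (seg Y (D.b T j) (D.b T (j + 1)))) with hwr
  let c : Fin D.m × S × W × S × W × V := (⟨i, him⟩, g, wl, h, wr, v)
  have hw : D.ww Y T - D.e i x = wl + wr := by rw [s2]; abel
  have hok : D.ok c := by
    have key : ∀ z, D.F (g * z * h) (wl + D.e i z + wr) + D.act v (g * z * h) =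
        D.F (D.φ Y) (D.ww Y T) + D.act v (D.φ Y) := by
      intro z
      have h1 := hi g x h s1.symm z
      rw [hw] at h1
      rw [← h1]
      congr 2
      abel
    intro z
    exact (key z).trans (key 1).symm
  -- the place
  obtain ⟨t, htM, ht1, ht2⟩ := hD.n2 T hgood c
  have hΓ := hD.hΓ
  have hAm : Am D.Γ D.M (i + 1) ≤ Am D.Γ D.M D.m := Am_mono him
  rw [Am_succ] at hAm
  set A := Am D.Γ D.M i + D.Γ ^ i with hA
  have hGpos : 0 < D.Γ ^ i := pow_pos hΓ i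
  obtain ⟨rr, hrr⟩ : ∃ rr, rr = (T - A) % D.Γ ^ i := ⟨_, rfl⟩
  have hrrl : rr < D.Γ ^ i := by rw [hrr]; exact Nat.mod_lt _ hGpos
  set o0 := A + rr with ho0
  have ho0l : o0 < A + D.Γ ^ i := by omega
  set k := (t + (D.M - o0 % D.M)) % D.M with hk
  have hkM : k < D.M := Nat.mod_lt _ hD.hM
  set o := o0 + D.Γ ^ i * k with ho
  have hkle : D.Γ ^ i * k + D.Γ ^ i ≤ D.M * D.Γ ^ i := by
    have : D.Γ ^ i * (k + 1) ≤ D.Γ ^ i * D.M := Nat.mul_le_mul_left _ hkM
    rw [Nat.mul_succ] at this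
    rw [mul_comm D.M]
    exact this
  have hcell : D.cell i o := ⟨by omega, by omega⟩
  have hoT : o ≤ T := by
    have := hcell.2
    omega
  -- congruences
  have hΓi : D.Γ ^ i ≡ 1 [MOD D.M] := by
    have := hD.hΓM.pow i
    rwa [one_pow] at this
  have hot : o ≡ t [MOD D.M] := by
    have h1 : o ≡ o0 + 1 * k [MOD D.M] := (Nat.ModEq.refl o0).add (hΓi.mul_right k)
    refine h1.trans ?_
    rw [one_mul]
    have h2 : k ≡ t + (D.M - o0 % D.M) [MOD D.M] := Nat.mod_modEq _ _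
    refine ((Nat.ModEq.refl o0).add h2).trans ?_
    have h3 : o0 % D.M < D.M := Nat.mod_lt _ hD.hM
    have h4 : o0 + (t + (D.M - o0 % D.M)) = t + D.M * (o0 / D.M + 1) := by
      have := Nat.div_add_mod o0 D.M
      rw [Nat.mul_succ]
      omega
    rw [h4]
    exact Nat.add_mul_mod_self_left _ _ _
  have hdv : D.Γ ^ i ∣ T - o := by
    have h1 : T - A = D.Γ ^ i * ((T - A) / D.Γ ^ i) + rr := by
      rw [hrr]; exact (Nat.div_add_mod _ _).symm
    refine ⟨(T - A) / D.Γ ^ i - k, ?_⟩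
    rw [Nat.mul_sub]
    omega
  have hmoT : t + (T - o) ≡ T [MOD D.M] := by
    have h1 : o + (T - o) = T := by omega
    have h2 : t + (T - o) ≡ o + (T - o) [MOD D.M] := hot.symm.add_right _
    rwa [h1] at h2
  have hPl : (Y.take o).length = o := by rw [List.length_take]; omega
  have hQl : (Y.drop o).length = T - o := by rw [List.length_drop]
  have hYe : Y = Y.take o ++ Y.drop o := (List.take_append_drop _ _).symm
  have hcell' : D.cell i (Y.take o).length := by rw [hPl]; exact hcell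
  have hdv' : D.Γ ^ i ∣ (Y.drop o).length := by rw [hQl]; exact hdv
  obtain ⟨r1, r2, r3, r4⟩ := read hD.hΓ hcell' hdv'
  have hTT : (Y.take o).length + (Y.drop o).length = T := by rw [hPl, hQl]; omega
  rw [hTT, ← hYe] at r1 r2 r3 r4
  refine ⟨Y.take o, Y.drop o, hYe, ?_, ?_⟩
  · rw [lam_some]
    refine ⟨c, ?_, ⟨hok, hcell', ?_, ?_⟩, rfl⟩
    · rw [hPl, per_mod hD.perL hot]; exact ht1
    · show g = _
      rw [hg, r1]
    · show wl = _
      rw [hwl, r2]
  · rw [Option.isSome_iff_exists]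
    refine ⟨D.bb c, ?_⟩
    rw [rho_some]
    refine ⟨c, ?_, ⟨hok, hdv', ?_⟩, rfl⟩
    · rw [hQl]; exact ht2 _ hmoT
    · intro o1 ho1
      have hdb : ∀ j, i < j → j ≤ D.m →
          D.b (o1 + (Y.drop o).length) j - o1 = D.b T j - (Y.take o).length := by
        intro j hij hjm
        have h1 : Am D.Γ D.M (i + 1) ≤ Am D.Γ D.M j := Am_mono hij
        rw [Am_succ] at h1
        have h2 : Am D.Γ D.M j ≤ Am D.Γ D.M D.m := Am_mono hjm
        have ho1' : D.cell i o1 := ho1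
        obtain ⟨q1, q2⟩ := ho1'
        obtain ⟨q3, q4⟩ := hcell
        rw [hPl]
        refine doubt (d := D.M * D.Γ ^ i) (by rw [hQl]; omega) (by omega) (by omega) (by omega)
          (by omega) (by omega) ?_ (hthin j (by omega) hjm)
        exact Nat.mul_le_mul_left _ (Nat.pow_le_pow_right hΓ (by omega))
      constructor
      · show h = _
        rw [hh, r3]
        congr 2
        exact (hdb (i + 1) (Nat.lt_succ_self i) him).symm
      · show wr = _
        rw [hwr, r4]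
        refine Finset.sum_congr rfl fun j hj => ?_
        obtain ⟨hj1, hj2⟩ := Finset.mem_Ico.1 hj
        have hj1' : i + 1 ≤ j := hj1
        rw [← hdb j (by omega) (by omega), ← hdb (j + 1) (by omega) (by omega)]

end words

end Crest.Agent.R320.Grid_319
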