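import Mathlib.Data.List.Basic
import Mathlib.Algebra.BigOperators.Group.Finset.Basic
import Mathlib.Algebra.BigOperators.Intervals
import Mathlib.Data.Nat.ChineseRemainder
import Mathlib.Tactic

/-!
# Row 320: the grid gadget of helper693 (#13203), all contents, all lengths (helper337)

`beta G n j = G j + n % G j`; a cut of level `i` is at `o = |P|` with `2 * G i ≤ o < (M+2) * G i`,
`G i ∣ |Q|`.
-/

set_option autoImplicit false

namespace Crest.Agent.R320.Grid_337

universe u

def beta (G : ℕ → ℕ) (n j : ℕ) : ℕ := G j + n % G j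

variable {α : Type u} {S V W : Type} [Monoid S] [AddCommGroup V] [AddCommGroup W]

/-- block `j` of a word -/
def blk (G : ℕ → ℕ) (n : ℕ) (u : List α) (j : ℕ) : List α :=
  (u.drop (beta G n j)).take (beta G n (j + 1) - beta G n j)

/-- names -/
abbrev Nm (m : ℕ) (S W V : Type) := Fin m × S × W × S × W × V

/-- value of a name -/
def bb {m : ℕ} (act : V → S → V) (e : ℕ → S → W) (F : S → W → V) (c : Nm m S W V) : V :=
  F (c.2.1 * 1 * c.2.2.2.1) (c.2.2.1 + e c.1 1 + c.2.2.2.2.1) +
      act c.2.2.2.2.2 (c.2.1 * 1 * c.2.2.2.1)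

/-- good names -/
def gd {m : ℕ} (act : V → S → V) (e : ℕ → S → W) (F : S → W → V) (c : Nm m S W V) : Prop :=
  ∀ z, F (c.2.1 * z * c.2.2.2.1) (c.2.2.1 + e c.1 z + c.2.2.2.2.1) +
      act c.2.2.2.2.2 (c.2.1 * z * c.2.2.2.1) = bb act e F c

/-- left legality -/
def LL {m : ℕ} (act : V → S → V) (e : ℕ → S → W) (F : S → W → V) (φ : List α → S)
    (G : ℕ → ℕ) (M : ℕ) (nmL : ℕ → Option (Nm m S W V)) (P : List α) (c : Nm m S W V) : Prop :=
  gd act e F c ∧ nmL P.length = some c ∧ 2 * G c.1 ≤ P.length ∧ P.length < (M + 2) * G c.1 ∧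
    φ (P.take (beta G P.length c.1)) = c.2.1 ∧
    ∑ j ∈ Finset.range c.1, e j (φ (blk G P.length P j)) = c.2.2.1

/-- right legality -/
def RR {m : ℕ} (act : V → S → V) (e : ℕ → S → W) (F : S → W → V) (φ : List α → S)
    (G : ℕ → ℕ) (M N : ℕ) (nmR : ℕ → Option (Nm m S W V)) (Q : List α) (c : Nm m S W V) : Prop :=
  gd act e F c ∧ nmR Q.length = some c ∧ G c.1 ∣ Q.length ∧ N ≤ Q.length ∧
    (∀ j, (c.1 : ℕ) < j → j ≤ m → Q.length % G j + (M + 2) * G c.1 ≤ G j) ∧
    φ (Q.drop (beta G Q.length (c.1 + 1))) = c.2.2.2.1 ∧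
    ∑ j ∈ Finset.Ico ((c.1 : ℕ) + 1) m, e j (φ (blk G Q.length Q j)) = c.2.2.2.2.1

structure Grid (m M : ℕ) (G : ℕ → ℕ) : Prop where
  Mpos : 0 < M
  pos : ∀ j, 0 < G j
  dvd : ∀ i j, i ≤ j → G i ∣ G j
  big : ∀ i j, i < j → (M + 2) * G i ≤ G j
  cop : ∀ i, Nat.Coprime M (G i)

namespace Grid

variable {m M : ℕ} {G : ℕ → ℕ}

theorem beta_mono (h : Grid m M G) (n : ℕ) {i j : ℕ} (hij : i ≤ j) : beta G n i ≤ beta G n j := by
  rcases Nat.lt_or_ge i j with h1 | h1
  · have a1 := h.big i j h1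
    have a2 : n % G i < G i := Nat.mod_lt _ (h.pos i)
    have a3 : 2 * G i ≤ (M + 2) * G i := Nat.mul_le_mul_right _ (by omega)
    unfold beta
    omega
  · have : i = j := by omega
    subst this; exact le_rfl

theorem beta_le (h : Grid m M G) (n i : ℕ) : beta G n i ≤ 2 * G i := by
  have a2 : n % G i < G i := Nat.mod_lt _ (h.pos i)
  unfold beta
  omega

/-- left boundaries are read correctly -/
theorem left (h : Grid m M G) {o o' i j : ℕ} (hd : G i ∣ o') (hj : j ≤ i) :
    beta G (o + o') j = beta G o j := by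
  obtain ⟨k, hk⟩ := (h.dvd j i hj).trans hd
  unfold beta
  rw [hk, Nat.add_mul_mod_self_left]

/-- right boundaries are read correctly -/
theorem right (h : Grid m M G) {o o' i j : ℕ} (ho : o < (M + 2) * G i)
    (hr : o' % G j + (M + 2) * G i ≤ G j) :
    beta G (o + o') j = o + beta G o' j := by
  unfold beta
  have : (o + o') % G j = o + o' % G j := by
    rw [Nat.add_mod_of_add_mod_lt] 
    · have : o % G j = o := Nat.mod_eq_of_lt (by omega)
      rw [this]
    · have : o % G j = o := Nat.mod_eq_of_lt (by omega)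
      rw [this]; omega
  omega

end Grid

theorem blk_left {m M : ℕ} {G : ℕ → ℕ} (h : Grid m M G) {P Q : List α} {i j : ℕ}
    (hd : G i ∣ Q.length) (hj : j < i) (hP : 2 * G i ≤ P.length) :
    blk G (P ++ Q).length (P ++ Q) j = blk G P.length P j := by
  have e1 := h.left (o := P.length) hd hj.le
  have e2 : beta G (P.length + Q.length) (j + 1) = beta G P.length (j + 1) :=
    h.left (o := P.length) hd hj
  have h1 : beta G P.length (j + 1) ≤ P.length :=
    (h.beta_mono _ (Nat.succ_le_of_lt hj)).trans ((h.beta_le _ i).trans hP)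
  have h0 : beta G P.length j ≤ beta G P.length (j + 1) := h.beta_mono _ (Nat.le_succ j)
  unfold blk
  rw [List.length_append, e1, e2, List.drop_append_of_le_length (h0.trans h1),
    List.take_append_of_le_length]
  rw [List.length_drop]; omega

theorem blk_right {m M : ℕ} {G : ℕ → ℕ} (h : Grid m M G) {P Q : List α} {i j : ℕ}
    (hP : P.length < (M + 2) * G i) (hj : i < j)
    (hr : Q.length % G j + (M + 2) * G i ≤ G j)
    (hr' : Q.length % G (j + 1) + (M + 2) * G i ≤ G (j + 1)) :
    blk G (P ++ Q).length (P ++ Q) j = blk G Q.length Q j := by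
  have e1 := h.right hP hr
  have e2 := h.right hP hr'
  unfold blk
  rw [List.length_append, e1, e2, List.drop_append, List.drop_eq_nil_of_le (by omega)]
  simp only [List.nil_append]
  congr 1
  · omega
  · congr 1; omega

theorem three {m M : ℕ} {G : ℕ → ℕ} (h : Grid m M G) (u : List α) (n i : ℕ) :
    u = u.take (beta G n i) ++ (blk G n u i ++ u.drop (beta G n (i + 1))) := by
  have h0 : beta G n i ≤ beta G n (i + 1) := h.beta_mono _ (Nat.le_succ i)
  unfold blk
  have e : u.drop (beta G n (i + 1))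
      = (u.drop (beta G n i)).drop (beta G n (i + 1) - beta G n i) := by
    rw [List.drop_drop]; congr 1; omega
  rw [e, List.take_append_drop, List.take_append_drop]

/-- sum over the levels splits at level `i` -/
theorem sum_split {m : ℕ} {A : Type} [AddCommGroup A] (f : ℕ → A) (i : ℕ) (hi : i < m) :
    ∑ j ∈ Finset.range m, f j = ∑ j ∈ Finset.range i, f j + f i +
      ∑ j ∈ Finset.Ico (i + 1) m, f j := by
  rw [← Finset.sum_range_succ, Finset.sum_range_add_sum_Ico]
  omega

variable {m : ℕ} {act : V → S → V} {e : ℕ → S → W} {F : S → W → V} {φ : List α → S}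
  {G : ℕ → ℕ} {M N : ℕ} {nmL nmR : ℕ → Option (Nm m S W V)}

/-- weight of a word -/
def wt (e : ℕ → S → W) (φ : List α → S) (G : ℕ → ℕ) (m : ℕ) (u : List α) : W :=
  ∑ j ∈ Finset.range m, e j (φ (blk G u.length u j))

/-- **same name**: exactness -/
theorem sound_same (h : Grid m M G) (hφ : ∀ u v, φ (u ++ v) = φ u * φ v) {P Q : List α}
    {c : Nm m S W V} (hL : LL act e F φ G M nmL P c) (hR : RR act e F φ G M N nmR Q c) :
    bb act e F c = act c.2.2.2.2.2 (φ (P ++ Q)) + F (φ (P ++ Q)) (wt e φ G m (P ++ Q)) := by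
  obtain ⟨g1, -, hP1, hP2, hg, hwl⟩ := hL
  obtain ⟨-, -, hd, -, hr, hh, hwr⟩ := hR
  have hi : (c.1 : ℕ) < m := c.1.2
  have key := three h (P ++ Q) (P ++ Q).length c.1
  have e1 := h.left (o := P.length) hd (le_refl (c.1 : ℕ))
  have e2 := h.right hP2 (hr (c.1 + 1) (Nat.lt_succ_self _) hi)
  have f1 : (P ++ Q).take (beta G (P ++ Q).length c.1) = P.take (beta G P.length c.1) := by
    rw [List.length_append, e1, List.take_append_of_le_length]
    exact (h.beta_le _ _).trans hP1
  have f2 : (P ++ Q).drop (beta G (P ++ Q).length (c.1 + 1))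
      = Q.drop (beta G Q.length (c.1 + 1)) := by
    rw [List.length_append, e2, List.drop_append, List.drop_eq_nil_of_le (by omega)]
    simp only [List.nil_append]
    congr 1; omega
  have hs : φ (P ++ Q) = c.2.1 * φ (blk G (P ++ Q).length (P ++ Q) c.1) * c.2.2.2.1 := by
    conv_lhs => rw [key]
    rw [hφ, hφ, f1, f2, hg, hh, mul_assoc]
  have hw : wt e φ G m (P ++ Q) = c.2.2.1 + e c.1 (φ (blk G (P ++ Q).length (P ++ Q) c.1))
      + c.2.2.2.2.1 := by
    unfold wt
    rw [sum_split _ (c.1 : ℕ) hi, ← hwl, ← hwr]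
    congr 1
    · congr 1
      refine Finset.sum_congr rfl fun j hj => ?_
      rw [blk_left h hd (Finset.mem_range.1 hj) hP1]
    · refine Finset.sum_congr rfl fun j hj => ?_
      have hj' := Finset.mem_Ico.1 hj
      rw [blk_right h hP2 (by omega) (hr j (by omega) (by omega))
        (hr (j + 1) (by omega) (by omega))]
  have := g1 (φ (blk G (P ++ Q).length (P ++ Q) c.1))
  rw [hs, hw, ← this, add_comm]

theorem per_mod {A : Type} {f : ℕ → A} (hf : ∀ t, f (t + M) = f t) {a b : ℕ}
    (hab : a ≡ b [MOD M]) : f a = f b := by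
  have hp : Function.Periodic f M := hf
  rw [← hp.map_mod_nat a, ← hp.map_mod_nat b, hab]

theorem window {L : ℕ} (hL : 0 < L) (z s : ℕ) : ∃ o, s ≤ o ∧ o < s + L ∧ o ≡ z [MOD L] := by
  refine ⟨s + (z + (L - s % L)) % L, by omega, by
    have := Nat.mod_lt (z + (L - s % L)) hL; omega, ?_⟩
  have h9 : s % L < L := Nat.mod_lt _ hL
  unfold Nat.ModEq
  rw [Nat.add_mod, Nat.mod_mod, ← Nat.add_mod]
  have : s + (z + (L - s % L)) = z + L * (s / L + 1) := by
    have h10 := Nat.div_add_mod s L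
    rw [Nat.mul_add, Nat.mul_one]
    omega
  rw [this, Nat.add_mul_mod_self_left]

theorem exists_cut {Nn : Type} {nmL nmR : ℕ → Option Nn} (h : Grid m M G) {T : ℕ} {c : Nn}
    (hLp : ∀ t, nmL (t + M) = nmL t)
    (h7 : ∃ t < M, nmL t = some c ∧ ∀ t', t + t' ≡ T [MOD M] → nmR t' = some c)
    (i : ℕ) (hT : (M + 2) * G i ≤ T) :
    ∃ o, 2 * G i ≤ o ∧ o < (M + 2) * G i ∧ nmL o = some c ∧ nmR (T - o) = some c ∧
      G i ∣ T - o := by
  obtain ⟨t, -, hl, hr⟩ := h7
  obtain ⟨z, hz1, hz2⟩ := Nat.chineseRemainder (h.cop i) t T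
  obtain ⟨o, ho1, ho2, ho3⟩ := window (Nat.mul_pos h.Mpos (h.pos i)) z (2 * G i)
  have e1 : o ≡ t [MOD M] := (ho3.of_mul_right _).trans hz1
  have e2 : o ≡ T [MOD G i] := (ho3.of_mul_left _).trans hz2
  have hoT : o < (M + 2) * G i := by rw [Nat.add_mul]; omega
  refine ⟨o, ho1, hoT, ?_, ?_, ?_⟩
  · rw [per_mod hLp e1]; exact hl
  · apply hr
    have h9 : o + (T - o) = T := by omega
    have h10 : t + (T - o) ≡ o + (T - o) [MOD M] := Nat.ModEq.add_right _ e1.symm
    rw [h9] at h10
    exact h10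
  · exact (Nat.modEq_iff_dvd' (by omega)).1 e2

/-- `T` is not in the band of any level -/
def Clear (G : ℕ → ℕ) (m M T : ℕ) : Prop :=
  ∀ j < m, (M + 2) * G j ≤ T % G (j + 1) ∧ T % G (j + 1) + (M + 2) * G j ≤ G (j + 1)

/-- **completeness** -/
theorem complete (h : Grid m M G) (hφ : ∀ u v, φ (u ++ v) = φ u * φ v)
    (hF : ∀ (s : S) (w : W) (v : V), ∃ i < m, ∀ g x h : S, g * x * h = s → ∀ z : S,
        F (g * z * h) (w - e i x + e i z) + act v (g * z * h) = F s w + act v s)
    (hLp : ∀ t, nmL (t + M) = nmL t) (u : List α) (v : V)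
    (h7 : ∀ c, ∃ t < M, nmL t = some c ∧
      ∀ t', t + t' ≡ u.length [MOD M] → nmR t' = some c)
    (hN : N + (M + 2) * G m ≤ u.length) (hcl : Clear G m M u.length) :
    ∃ P Q c, u = P ++ Q ∧ c.2.2.2.2.2 = v ∧ LL act e F φ G M nmL P c ∧
      RR act e F φ G M N nmR Q c := by
  obtain ⟨i, him, hi⟩ := hF (φ u) (wt e φ G m u) v
  have key := three h u u.length i
  have hs : φ (u.take (beta G u.length i)) * φ (blk G u.length u i) *
      φ (u.drop (beta G u.length (i + 1))) = φ u := by
    conv_rhs => rw [key]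
    rw [hφ, hφ, mul_assoc]
  have hi' := hi _ _ _ hs
  let c : Nm m S W V := (⟨i, him⟩, φ (u.take (beta G u.length i)),
    ∑ j ∈ Finset.range i, e j (φ (blk G u.length u j)),
    φ (u.drop (beta G u.length (i + 1))),
    ∑ j ∈ Finset.Ico (i + 1) m, e j (φ (blk G u.length u j)), v)
  have hw : wt e φ G m u = ∑ j ∈ Finset.range i, e j (φ (blk G u.length u j)) +
      e i (φ (blk G u.length u i)) + ∑ j ∈ Finset.Ico (i + 1) m, e j (φ (blk G u.length u j)) :=
    sum_split _ i him
  have hz : ∀ z, F (c.2.1 * z * c.2.2.2.1) (c.2.2.1 + e c.1 z + c.2.2.2.2.1) +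
      act c.2.2.2.2.2 (c.2.1 * z * c.2.2.2.1) = F (φ u) (wt e φ G m u) + act v (φ u) := by
    intro z
    rw [← hi' z]
    have : c.2.2.1 + e c.1 z + c.2.2.2.2.1
        = wt e φ G m u - e i (φ (blk G u.length u i)) + e i z := by
      rw [hw]
      show (∑ j ∈ Finset.range i, e j (φ (blk G u.length u j))) + e i z +
        (∑ j ∈ Finset.Ico (i + 1) m, e j (φ (blk G u.length u j))) = _
      abel
    rw [this]
  have hgd : gd act e F c := by
    intro z
    rw [hz z]
    exact (hz 1).symm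
  have hGm : (M + 2) * G i ≤ (M + 2) * G m :=
    Nat.mul_le_mul_left _ (Nat.le_of_dvd (h.pos m) (h.dvd i m him.le))
  obtain ⟨o, o1, o2, o3, o4, o5⟩ := exists_cut h hLp (h7 c) i (by omega)
  have hPl : (u.take o).length = o := by rw [List.length_take]; omega
  have hQl : (u.drop o).length = u.length - o := List.length_drop
  have hu : u.take o ++ u.drop o = u := List.take_append_drop o u
  have hlen : o + (u.length - o) = u.length := by omega
  have hband : ∀ j, i < j → j ≤ m → (u.length - o) % G j + (M + 2) * G i ≤ G j := by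
    intro j h1 h2
    obtain ⟨k, rfl⟩ : ∃ k, j = k + 1 := ⟨j - 1, by omega⟩
    obtain ⟨c1, c2⟩ := hcl k (by omega)
    have c3 : (M + 2) * G i ≤ (M + 2) * G k :=
      Nat.mul_le_mul_left _ (Nat.le_of_dvd (h.pos k) (h.dvd i k (by omega)))
    have c4 : (u.length - o) % G (k + 1) = u.length % G (k + 1) - o := by
      have a1 := Nat.div_add_mod u.length (G (k + 1))
      have a2 : u.length - o = (u.length % G (k + 1) - o) + G (k + 1) * (u.length / G (k + 1)) := by
        omega
      rw [a2, Nat.add_mul_mod_self_left]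
      apply Nat.mod_eq_of_lt
      have := Nat.mod_lt u.length (h.pos (k + 1))
      omega
    rw [c4]
    omega
  refine ⟨u.take o, u.drop o, c, hu.symm, rfl, ⟨hgd, ?_, ?_, ?_, ?_, ?_⟩, ⟨hgd, ?_, ?_, ?_, ?_, ?_, ?_⟩⟩
  · rw [hPl]; exact o3
  · rw [hPl]; exact o1
  · rw [hPl]; exact o2
  · have e1 := h.left (o := o) (o' := u.length - o) (i := i) o5 (le_refl i)
    rw [hlen] at e1
    rw [hPl]
    show φ ((u.take o).take (beta G o i)) = φ (u.take (beta G u.length i))
    rw [e1, List.take_take, Nat.min_eq_left ((h.beta_le _ _).trans o1)]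
  · refine Finset.sum_congr rfl fun j hj => ?_
    have := blk_left (P := u.take o) (Q := u.drop o) h (i := i) (j := j)
      (by rw [hQl]; exact o5) (Finset.mem_range.1 hj) (by rw [hPl]; exact o1)
    rw [← this, hu]
  · rw [hQl]; exact o4
  · rw [hQl]; exact o5
  · rw [hQl]; omega
  · intro j h1 h2
    rw [hQl]; exact hband j h1 h2
  · have e2 := h.right (o' := u.length - o) o2 (hband (i + 1) (by omega) (by omega))
    rw [hlen] at e2
    rw [hQl]
    show φ ((u.drop o).drop (beta G (u.length - o) (i + 1))) = φ (u.drop (beta G u.length (i + 1)))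
    rw [e2, List.drop_drop]
  · refine Finset.sum_congr rfl fun j hj => ?_
    have hj' : i + 1 ≤ j ∧ j < m := Finset.mem_Ico.1 hj
    have := blk_right (P := u.take o) (Q := u.drop o) h (i := i) (j := j)
      (by rw [hPl]; exact o2) (by omega)
      (by rw [hQl]; exact hband j (by omega) (by omega))
      (by rw [hQl]; exact hband (j + 1) (by omega) (by omega))
    rw [← this, hu]

end Crest.Agent.R320.Grid_337
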