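import Crest.Agent.R320.Names_570
import Crest.Agent.R320.RandF_808

/-!
# Row 320: the grid gadget (helper693 #13203) on words, closed form

No small walls, every content, every length `T`: hole ends on nested grids anchored at the right end.
-/

set_option autoImplicit false

namespace Crest.Agent.R320.Grid_375

/-- level starts -/
def A (M g : ℕ) : ℕ → ℕ
  | 0 => 0
  | k + 1 => A M g k + g ^ k + M * g ^ k

theorem A_succ (M g k : ℕ) : A M g (k + 1) = A M g k + g ^ k + M * g ^ k := rfl

theorem A_mono {M g : ℕ} {i k : ℕ} (h : i ≤ k) : A M g i ≤ A M g k := by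
  induction h with
  | refl => exact le_rfl
  | step _ ih => rw [A_succ]; omega

/-- boundary of level `k` in a zone of length `t` (known from `t` modulo `g ^ k`) -/
def bet (M g k t : ℕ) : ℕ := A M g k + (t - A M g k) % g ^ k

/-- the distance of the boundary `k` to the right end, read by the right side at level `i` -/
def gam (M g i k t' : ℕ) : ℕ :=
  g ^ k * ((t' - (A M g k - A M g i - g ^ i)) / g ^ k)

variable {M g : ℕ}

theorem bet_left {i k t t' : ℕ} (hk : k ≤ i) (hd : g ^ i ∣ t') (ht : A M g k ≤ t) :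
    bet M g k (t + t') = bet M g k t := by
  obtain ⟨y, rfl⟩ := (pow_dvd_pow g hk).trans hd
  have e : t + g ^ k * y - A M g k = (t - A M g k) + g ^ k * y := by omega
  rw [bet, bet, e, Nat.add_mul_mod_self_left]

theorem bet_lt (hg : 0 < g) (k t : ℕ) : bet M g k t < A M g k + g ^ k := by
  have := Nat.mod_lt (t - A M g k) (pow_pos hg k)
  rw [bet]; omega

theorem le_bet (k t : ℕ) : A M g k ≤ bet M g k t := Nat.le_add_right _ _

theorem bet_le {k t : ℕ} (h : A M g k ≤ t) : bet M g k t ≤ t := by
  have := Nat.mod_le (t - A M g k) (g ^ k)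
  rw [bet]; omega

theorem bet_mono (hg : 0 < g) {k l : ℕ} (h : k < l) (t t' : ℕ) :
    bet M g k t ≤ bet M g l t' := by
  have h1 := bet_lt (M := M) hg k t
  have h2 := le_bet (M := M) (g := g) l t'
  have h3 := A_mono (M := M) (g := g) (show k + 1 ≤ l from h)
  rw [A_succ] at h3
  omega

theorem bet_right (hg : 0 < g) {i k t t' : ℕ} (hk : i < k) (h1 : A M g i + g ^ i ≤ t)
    (h2 : t < A M g (i + 1)) (h3 : A M g k - A M g i - g ^ i ≤ t')
    (h4 : (t' - (A M g k - A M g i - g ^ i)) % g ^ k + M * g ^ i ≤ g ^ k) :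
    t + t' - bet M g k (t + t') = gam M g i k t' := by
  have hA : A M g (i + 1) ≤ A M g k := A_mono hk
  rw [A_succ] at hA h2
  set D := A M g k - A M g i - g ^ i with hD
  set G := g ^ k with hG
  have hG0 : 0 < G := pow_pos hg k
  obtain ⟨d, hd⟩ : ∃ d, t = A M g i + g ^ i + d := ⟨t - (A M g i + g ^ i), by omega⟩
  have hd2 : d < M * g ^ i := by omega
  have e : t + t' - A M g k = (t' - D) + d := by omega
  have h5 := Nat.div_add_mod (t' - D) G
  have h6 := Nat.div_add_mod (t' - D + d) G
  have h7 : (t' - D + d) / G = (t' - D) / G := by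
    have : t' - D + d = ((t' - D) % G + d) + G * ((t' - D) / G) := by omega
    rw [this, Nat.add_mul_div_left _ _ hG0, Nat.div_eq_of_lt (by omega), Nat.zero_add]
  rw [bet, gam, e, ← hG, ← hD]
  rw [h7] at h6
  have h8 : (t' - D + d) % G ≤ t' - D + d := Nat.mod_le _ _
  omega

theorem gam_le {i k t' : ℕ} : gam M g i k t' ≤ t' := by
  have := Nat.mul_div_le (t' - (A M g k - A M g i - g ^ i)) (g ^ k)
  rw [gam]; omega

/-- segment of a word -/
def seg {α : Type*} (u : List α) (x y : ℕ) : List α := (u.drop x).take (y - x)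

theorem seg_left {α : Type*} (p q : List α) {x y : ℕ} (h : y ≤ p.length) :
    seg (p ++ q) x y = seg p x y := by
  rw [seg, seg]
  by_cases hx : x ≤ p.length
  · rw [List.drop_append_of_le_length hx, List.take_append_of_le_length]
    rw [List.length_drop]; omega
  · have : y - x = 0 := by omega
    rw [this, List.take_zero, List.take_zero]

theorem seg_right {α : Type*} (p q : List α) {x y : ℕ} (h : p.length ≤ x) :
    seg (p ++ q) x y = seg q (x - p.length) (y - p.length) := by
  rw [seg, seg, List.drop_append, List.drop_of_length_le h, List.nil_append]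
  congr 1
  omega

theorem seg_split {α : Type*} (u : List α) {x y : ℕ} (h : x ≤ y) :
    u = u.take x ++ (seg u x y ++ u.drop y) := by
  have h1 : seg u x y ++ u.drop y = u.drop x := by
    have : u.drop y = (u.drop x).drop (y - x) := by rw [List.drop_drop]; congr 1; omega
    rw [seg, this, List.take_append_drop]
  rw [h1, List.take_append_drop]

/-- a context -/
structure Ctx {S V W : Type*} [Monoid S] [AddCommGroup V] [AddCommGroup W] (act : V → S → V)
    (m : ℕ) (e : ℕ → S → W) (F : S → W → V) where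
  i : Fin m
  gl : S
  wl : W
  h : S
  wr : W
  v : V
  b : V
  ok : ∀ z : S, F (gl * z * h) (wl + e i z + wr) + act v (gl * z * h) = b

instance {S V W : Type*} [Monoid S] [AddCommGroup V] [AddCommGroup W] (act : V → S → V)
    (m : ℕ) (e : ℕ → S → W) (F : S → W → V) [Finite S] [Finite V] [Finite W] :
    Finite (Ctx act m e F) := by
  refine Finite.of_injective
    (fun c : Ctx act m e F => (c.i, c.gl, c.wl, c.h, c.wr, c.v, c.b)) ?_
  rintro ⟨i, gl, wl, h, wr, v, b, ok⟩ ⟨i', gl', wl', h', wr', v', b', ok'⟩ hh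
  simp only [Prod.mk.injEq] at hh
  obtain ⟨rfl, rfl, rfl, rfl, rfl, rfl, rfl⟩ := hh
  rfl

/-- the exceptional lengths -/
def Bad (Ms : Finset ℕ) (M g m T : ℕ) : Prop :=
  (∃ k ∈ Ms, k ∣ T) ∨ ∃ k, 1 ≤ k ∧ k ≤ m ∧
    ¬ (M * g ^ (k - 1) ≤ (T - A M g k) % g ^ k ∧
      (T - A M g k) % g ^ k + M * g ^ (k - 1) ≤ g ^ k)

theorem crt_interval {a b : ℕ} (hab : Nat.Coprime a b) (ha : 0 < a) (hb : 0 < b) (s x y : ℕ) :
    ∃ o, s ≤ o ∧ o < s + a * b ∧ o ≡ x [MOD a] ∧ o ≡ y [MOD b] := by
  obtain ⟨z, hz1, hz2⟩ := Nat.chineseRemainder hab x y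
  have hab0 : 0 < a * b := Nat.mul_pos ha hb
  have hs : s ≤ z + a * b * s := by nlinarith
  have key : s + (z + a * b * s - s) % (a * b) ≡ z [MOD a * b] := by
    have h1 : (z + a * b * s - s) % (a * b) ≡ z + a * b * s - s [MOD a * b] := Nat.mod_modEq _ _
    have h2 : s + (z + a * b * s - s) % (a * b) ≡ s + (z + a * b * s - s) [MOD a * b] :=
      Nat.ModEq.add_left s h1
    have h3 : s + (z + a * b * s - s) = z + a * b * s := by omega
    rw [h3] at h2
    refine h2.trans ?_
    have : z + a * b * s ≡ z + 0 [MOD a * b] :=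
      Nat.ModEq.add_left z ((Nat.modEq_zero_iff_dvd).2 (Dvd.intro _ rfl))
    simp at this ⊢
  refine ⟨s + (z + a * b * s - s) % (a * b), Nat.le_add_right _ _, ?_, ?_, ?_⟩
  · have := Nat.mod_lt (z + a * b * s - s) hab0
    omega
  · exact (key.of_mul_right b).trans hz1
  · exact (key.of_mul_left a).trans hz2

section main

variable {α : Type*} {S V W : Type*} [Monoid S] [AddCommGroup V] [AddCommGroup W]
  {act : V → S → V} {m : ℕ} {e : ℕ → S → W} {F : S → W → V}

/-- left-legal words -/
def lam (M g : ℕ) (nmL : ℕ → Option (Ctx act m e F)) (φ : List α → S) (p : List α) (v : V) :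
    Prop :=
  ∃ c : Ctx act m e F, nmL p.length = some c ∧ A M g c.i + g ^ (c.i : ℕ) ≤ p.length ∧
    p.length < A M g (c.i + 1) ∧ c.v = v ∧ φ (p.take (bet M g c.i p.length)) = c.gl ∧
    (∑ k : Fin m, if k < c.i then
      e k (φ (seg p (bet M g k p.length) (bet M g (k + 1) p.length))) else 0) = c.wl

/-- right-legal words -/
def rho (M g : ℕ) (nmR : ℕ → Option (Ctx act m e F)) (φ : List α → S) (q : List α) (b : V) :
    Prop :=
  ∃ c : Ctx act m e F, nmR q.length = some c ∧ g ^ (c.i : ℕ) ∣ q.length ∧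
    (∀ k, (c.i : ℕ) < k → k ≤ m → A M g k - A M g c.i - g ^ (c.i : ℕ) ≤ q.length ∧
      (q.length - (A M g k - A M g c.i - g ^ (c.i : ℕ))) % g ^ k + M * g ^ (c.i : ℕ) ≤ g ^ k) ∧
    c.b = b ∧ φ (q.drop (q.length - gam M g c.i (c.i + 1) q.length)) = c.h ∧
    (∑ k : Fin m, if c.i < k then
      e k (φ (seg q (q.length - gam M g c.i k q.length)
        (q.length - gam M g c.i (k + 1) q.length))) else 0) = c.wr

/-- total weight of a zone -/
def wt (M g : ℕ) (m : ℕ) (e : ℕ → S → W) (φ : List α → S) (u : List α) : W :=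
  ∑ k : Fin m, e k (φ (seg u (bet M g k u.length) (bet M g (k + 1) u.length)))

/-- a meeting pair of names of total length `T` -/
def Meet (nmL nmR : ℕ → Option (Ctx act m e F)) (T : ℕ) (x : V × V) : Prop :=
  ∃ t t' c c', t + t' = T ∧ nmL t = some c ∧ nmR t' = some c' ∧ c.v = x.1 ∧ c'.b = x.2

open Classical in
/-- the noise of a zone -/
noncomputable def nu (M g : ℕ) (Ms : Finset ℕ) (nmL nmR : ℕ → Option (Ctx act m e F))
    (φ : List α → S) (u : List α) : V :=
  if ∀ k ∈ Ms, ¬ k ∣ u.length then F (φ u) (wt M g m e φ u)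
  else if h : ∃ x : V × V, Meet nmL nmR u.length x then
    (Classical.choose h).2 - act (Classical.choose h).1 (φ u) else 0

theorem sum_split {X : Type*} [AddCommGroup X] (i : Fin m) (f : Fin m → X) :
    ∑ k, f k = (∑ k, if k < i then f k else 0) + f i + ∑ k, if i < k then f k else 0 := by
  classical
  have h : ∀ k : Fin m, f k = ((if k < i then f k else 0) + (if k = i then f k else 0)) +
      (if i < k then f k else 0) := by
    intro k
    rcases lt_trichotomy k i with h | h | h
    · simp [h, h.ne, h.not_gt]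
    · simp [h]
    · simp [h, h.ne', h.not_gt]
  rw [Finset.sum_congr rfl fun k _ => h k, Finset.sum_add_distrib, Finset.sum_add_distrib]
  simp

theorem good_sound (hg : 0 < g) (φ : List α → S) (hφ : ∀ a b, φ (a ++ b) = φ a * φ b)
    (c : Ctx act m e F) (p q : List α)
    (h1 : A M g c.i + g ^ (c.i : ℕ) ≤ p.length) (h2 : p.length < A M g (c.i + 1))
    (h3 : φ (p.take (bet M g c.i p.length)) = c.gl)
    (h4 : (∑ k : Fin m, if k < c.i then
      e k (φ (seg p (bet M g k p.length) (bet M g (k + 1) p.length))) else 0) = c.wl)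
    (h5 : g ^ (c.i : ℕ) ∣ q.length)
    (h6 : ∀ k, (c.i : ℕ) < k → k ≤ m → A M g k - A M g c.i - g ^ (c.i : ℕ) ≤ q.length ∧
      (q.length - (A M g k - A M g c.i - g ^ (c.i : ℕ))) % g ^ k + M * g ^ (c.i : ℕ) ≤ g ^ k)
    (h7 : φ (q.drop (q.length - gam M g c.i (c.i + 1) q.length)) = c.h)
    (h8 : (∑ k : Fin m, if c.i < k then
      e k (φ (seg q (q.length - gam M g c.i k q.length)
        (q.length - gam M g c.i (k + 1) q.length))) else 0) = c.wr) :
    F (φ (p ++ q)) (wt M g m e φ (p ++ q)) + act c.v (φ (p ++ q)) = c.b := by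
  have hT : (p ++ q).length = p.length + q.length := List.length_append
  set i := c.i with hi
  have hiA : A M g i ≤ p.length := by omega
  -- left boundaries
  have hL : ∀ k : ℕ, k ≤ (i : ℕ) → bet M g k (p.length + q.length) = bet M g k p.length :=
    fun k hk => bet_left hk h5 ((A_mono hk).trans hiA)
  have hLle : ∀ k : ℕ, k ≤ (i : ℕ) → bet M g k p.length ≤ p.length :=
    fun k hk => bet_le ((A_mono hk).trans hiA)
  -- right boundaries
  have hR : ∀ k : ℕ, (i : ℕ) < k → k ≤ m →
      bet M g k (p.length + q.length) - p.length = q.length - gam M g i k q.length ∧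
      p.length ≤ bet M g k (p.length + q.length) := by
    intro k hk hkm
    obtain ⟨ha, hb⟩ := h6 k hk hkm
    have h := bet_right (M := M) hg hk h1 h2 ha hb
    have hAk : A M g (i + 1) ≤ A M g k := A_mono hk
    have hAk' := hAk
    rw [A_succ] at hAk'
    have hle : A M g k ≤ p.length + q.length := by omega
    have hb1 := bet_le hle
    have hb2 := le_bet (M := M) (g := g) k (p.length + q.length)
    have hg1 : gam M g i k q.length ≤ q.length := gam_le
    omega
  have him : (i : ℕ) < m := i.2
  -- the pieces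
  have e1 : φ ((p ++ q).take (bet M g i (p ++ q).length)) = c.gl := by
    rw [hT, hL i le_rfl, List.take_append_of_le_length (hLle i le_rfl), h3]
  have e2 : φ ((p ++ q).drop (bet M g (i + 1) (p ++ q).length)) = c.h := by
    obtain ⟨ha, hb⟩ := hR (i + 1) (Nat.lt_succ_self _) him
    rw [hT, List.drop_append, List.drop_of_length_le hb, List.nil_append, ha, h7]
  set z := φ (seg (p ++ q) (bet M g i (p ++ q).length) (bet M g (i + 1) (p ++ q).length)) with hz
  have e3 : φ (p ++ q) = c.gl * z * c.h := by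
    have := seg_split (p ++ q)
      (bet_mono (M := M) hg (Nat.lt_succ_self (i : ℕ)) (p ++ q).length (p ++ q).length)
    calc φ (p ++ q) = φ ((p ++ q).take (bet M g i (p ++ q).length) ++
          (seg (p ++ q) (bet M g i (p ++ q).length) (bet M g (i + 1) (p ++ q).length) ++
            (p ++ q).drop (bet M g (i + 1) (p ++ q).length))) := by rw [← this]
      _ = c.gl * z * c.h := by rw [hφ, hφ, e1, e2, mul_assoc]
  have e4 : wt M g m e φ (p ++ q) = c.wl + e i z + c.wr := by
    rw [wt, sum_split i]
    congr 1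
    · congr 1
      rw [← h4]
      refine Finset.sum_congr rfl fun k _ => ?_
      split_ifs with hk
      · have hk1 : (k : ℕ) < i := hk
        rw [hT, hL k hk1.le, hL (k + 1) hk1, seg_left _ _ (hLle (k + 1) hk1)]
      · rfl
    · rw [← h8]
      refine Finset.sum_congr rfl fun k _ => ?_
      split_ifs with hk
      · have hk1 : (i : ℕ) < k := hk
        obtain ⟨ha, hb⟩ := hR k hk1 k.2.le
        obtain ⟨ha', hb'⟩ := hR (k + 1) (by omega) k.2
        rw [hT, seg_right _ _ hb, ha, ha']
      · rfl
  have := c.ok z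
  rw [← hi] at this
  rw [e4, e3]
  exact this

end main

theorem seg_take {α : Type*} (q : List α) {x y L : ℕ} (h : y ≤ L) :
    seg (q.take L) x y = seg q x y := by
  rw [seg, seg, List.drop_take, List.take_take]
  congr 1
  omega

theorem pos_eq {i k t : ℕ} (hD : A M g k - A M g i - g ^ i ≤ t) :
    t - gam M g i k t = (A M g k - A M g i - g ^ i) +
      (t - (A M g k - A M g i - g ^ i)) % g ^ k := by
  have h1 := Nat.div_add_mod (t - (A M g k - A M g i - g ^ i)) (g ^ k)
  rw [gam]
  generalize A M g k - A M g i - g ^ i = D at *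
  generalize g ^ k * ((t - D) / g ^ k) = Q at *
  generalize (t - D) % g ^ k = R at *
  omega

theorem sub_mod_congr {a b d n : ℕ} (ha : d ≤ a) (hb : d ≤ b) (h : a ≡ b [MOD n]) :
    (a - d) % n = (b - d) % n := by
  have h1 : a - d + d ≡ b - d + d [MOD n] := by
    rw [Nat.sub_add_cancel ha, Nat.sub_add_cancel hb]; exact h
  exact Nat.ModEq.add_right_cancel' d h1

/-- **The grid gadget.** -/
theorem gadget {S V : Type*} [Monoid S] [Finite S] [AddCommGroup V] [Finite V]
    (act : V → S → V) : ∃ m r : ℕ, ∀ B : ℕ, ∃ (Ms : Finset ℕ), Ms.card ≤ r ∧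
      (∀ k ∈ Ms, k.Prime ∧ B < k) ∧ ∀ g, 0 < g → Nat.Coprime (∏ k ∈ Ms, k) g →
      ∀ {α : Type*} (φ : List α → S), (∀ a b, φ (a ++ b) = φ a * φ b) →
      ∃ (lam rho : List α → V → Prop) (nu : List α → V),
        (∀ p v, lam p v → 0 < p.length ∧ p.length < A (∏ k ∈ Ms, k) g m) ∧
        (∀ p q v b, lam p v → rho q b → b = act v (φ (p ++ q)) + nu (p ++ q)) ∧
        (∀ u : List α, A (∏ k ∈ Ms, k) g (m + 1) ≤ u.length →
          ¬ Bad Ms (∏ k ∈ Ms, k) g m u.length →
          ∀ v, ∃ p q b, u = p ++ q ∧ lam p v ∧ rho q b) ∧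
        (∀ q q' : List α, A (∏ k ∈ Ms, k) g (m + 1) ≤ q.length →
          A (∏ k ∈ Ms, k) g (m + 1) ≤ q'.length →
          q.take (A (∏ k ∈ Ms, k) g (m + 1)) = q'.take (A (∏ k ∈ Ms, k) g (m + 1)) →
          φ (q.drop (A (∏ k ∈ Ms, k) g (m + 1))) = φ (q'.drop (A (∏ k ∈ Ms, k) g (m + 1))) →
          q.length ≡ q'.length [MOD (∏ k ∈ Ms, k) * g ^ m] → ∀ b, rho q b → rho q' b) := by
  classical
  have := Fintype.ofFinite S
  have := Fintype.ofFinite V
  obtain ⟨m, N, e, F, hN, hF⟩ := RandF808.exists_noise S V act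
  have : NeZero N := ⟨hN.ne'⟩
  obtain ⟨r, hr⟩ := Names_570.exists_names (N := Ctx act m e F) (C := V × V)
    (fun c => (c.v, c.b))
  refine ⟨m, r, fun B => ?_⟩
  obtain ⟨Ms, nmL, nmR, hc, hp, hpL, hpR, hn1, hn2, hn3⟩ := hr B
  refine ⟨Ms, hc, hp, ?_⟩
  set M := ∏ k ∈ Ms, k with hM
  have hM0 : 0 < M := Finset.prod_pos fun k hk => (hp k hk).1.pos
  intro g hg hcop α φ hφ
  have perL : ∀ a b, a ≡ b [MOD M] → nmL a = nmL b := by
    have h0 : ∀ n a, nmL (a + M * n) = nmL a := by
      intro n
      induction n with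
      | zero => intro a; simp
      | succ n ih => intro a; rw [Nat.mul_succ, ← Nat.add_assoc, hpL, ih]
    intro a b h
    have h1 : nmL a = nmL (a % M) := by
      conv_lhs => rw [← Nat.mod_add_div a M]
      exact h0 _ _
    have h2 : nmL b = nmL (b % M) := by
      conv_lhs => rw [← Nat.mod_add_div b M]
      exact h0 _ _
    rw [h1, h2, h]
  have perR : ∀ a b, a ≡ b [MOD M] → nmR a = nmR b := by
    have h0 : ∀ n a, nmR (a + M * n) = nmR a := by
      intro n
      induction n with
      | zero => intro a; simp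
      | succ n ih => intro a; rw [Nat.mul_succ, ← Nat.add_assoc, hpR, ih]
    intro a b h
    have h1 : nmR a = nmR (a % M) := by
      conv_lhs => rw [← Nat.mod_add_div a M]
      exact h0 _ _
    have h2 : nmR b = nmR (b % M) := by
      conv_lhs => rw [← Nat.mod_add_div b M]
      exact h0 _ _
    rw [h1, h2, h]
  refine ⟨lam M g nmL φ, rho M g nmR φ, nu M g Ms nmL nmR φ, ?_, ?_, ?_, ?_⟩
  · rintro p v ⟨c, -, h1, h2, -⟩
    have := pow_pos hg (c.i : ℕ)
    have h3 : A M g (c.i + 1) ≤ A M g m := A_mono c.i.2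
    omega
  · rintro p q v b ⟨c, hc1, hc2, hc3, hc4, hc5, hc6⟩ ⟨c', hd1, hd2, hd3, hd4, hd5, hd6⟩
    have hT : (p ++ q).length = p.length + q.length := List.length_append
    by_cases hgood : ∀ k ∈ Ms, ¬ k ∣ (p ++ q).length
    · have hcc : c = c' := hn1 _ _ _ _ (by rw [← hT]; exact hgood) hc1 hd1
      subst hcc
      have := good_sound (M := M) hg φ hφ c p q hc2 hc3 hc5 hc6 hd2 hd3 hd5 hd6
      rw [nu, if_pos hgood, ← hd4, ← this, ← hc4, add_comm]
    · have hbad : ∃ k ∈ Ms, k ∣ p.length + q.length := by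
        push Not at hgood
        rw [← hT]; exact hgood
      have hex : ∃ x : V × V, Meet nmL nmR (p ++ q).length x :=
        ⟨(c.v, c'.b), p.length, q.length, c, c', hT.symm, hc1, hd1, rfl, rfl⟩
      rw [nu, if_neg hgood, dif_pos hex]
      obtain ⟨t, t', c1, c1', h1, h2, h3, h4, h5⟩ := Classical.choose_spec hex
      have h6 := hn3 p.length q.length t t' c c' c1 c1' (by rw [h1, hT]) hbad hc1 hd1 h2 h3
      rw [← h4, ← h5, ← hc4, ← hd4]
      rcases h6 with ⟨rfl, rfl⟩ | ⟨rfl, rfl, hcol⟩
      · abel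
      · simp only [Prod.mk.injEq] at hcol
        rw [← hcol.1, hcol.2]
        abel
  · intro u hu hbad v
    set T := u.length with hTu
    have hgood : ∀ k ∈ Ms, ¬ k ∣ T := fun k hk hd => hbad (Or.inl ⟨k, hk, hd⟩)
    have hband : ∀ k, 1 ≤ k → k ≤ m → M * g ^ (k - 1) ≤ (T - A M g k) % g ^ k ∧
        (T - A M g k) % g ^ k + M * g ^ (k - 1) ≤ g ^ k := by
      intro k h1 h2
      by_contra h
      exact hbad (Or.inr ⟨k, h1, h2, h⟩)
    obtain ⟨i, him, hi⟩ := hF (φ u) (wt M g m e φ u) v
    have hAT : ∀ k ≤ m, A M g k + g ^ k + M * g ^ k ≤ T := by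
      intro k hk
      have := A_mono (M := M) (g := g) (show k + 1 ≤ m + 1 by omega)
      rw [A_succ] at this
      omega
    -- the context
    set gl := φ (u.take (bet M g i T)) with hgl
    set z := φ (seg u (bet M g i T) (bet M g (i + 1) T)) with hz
    set h := φ (u.drop (bet M g (i + 1) T)) with hh
    set x : Fin m → ZMod N × ZMod N := fun k => e k (φ (seg u (bet M g k T) (bet M g (k + 1) T)))
      with hx
    set I : Fin m := ⟨i, him⟩ with hI
    set wl := ∑ k : Fin m, if k < I then x k else 0 with hwl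
    set wr := ∑ k : Fin m, if I < k then x k else 0 with hwr
    have hw : wt M g m e φ u = wl + e i z + wr := by
      rw [wt, sum_split I]
    have hs : gl * z * h = φ u := by
      have := seg_split u (bet_mono (M := M) hg (Nat.lt_succ_self i) T T)
      calc gl * z * h = φ (u.take (bet M g i T) ++ (seg u (bet M g i T) (bet M g (i + 1) T) ++
            u.drop (bet M g (i + 1) T))) := by rw [hφ, hφ, mul_assoc]
        _ = φ u := by rw [← this]
    let c : Ctx act m e F := ⟨I, gl, wl, h, wr, v, F (φ u) (wt M g m e φ u) + act v (φ u), by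
      intro z'
      have := hi gl z h hs z'
      rw [hw] at this
      have e1 : wl + e i z + wr - e i z + e i z' = wl + e i z' + wr := by abel
      rw [e1] at this
      rw [hw]
      exact this⟩
    -- the place
    obtain ⟨t0, -, ht0, ht0T, hnL, hnR⟩ := hn2 T c 0 hgood (by
      have := hAT m le_rfl
      have : M * 1 ≤ M * g ^ m := Nat.mul_le_mul_left _ (Nat.one_le_pow _ _ hg)
      omega)
    obtain ⟨o, ho1, ho2, ho3, ho4⟩ := crt_interval (Nat.Coprime.pow_right i hcop) hM0
      (pow_pos hg i) (A M g i + g ^ i) t0 T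
    have hoT : o ≤ T := by have := hAT i him.le; omega
    have hdv : g ^ i ∣ T - o := (Nat.modEq_iff_dvd' hoT).1 ho4
    have hnLo : nmL o = some c := by rw [perL o t0 ho3, hnL]
    have hnRo : nmR (T - o) = some c := by
      rw [perR (T - o) (T - t0), hnR]
      have h1 : T - o + o ≡ T - t0 + o [MOD M] := by
        rw [Nat.sub_add_cancel hoT]
        have : T - t0 + t0 ≡ T - t0 + o [MOD M] := Nat.ModEq.add_left _ ho3.symm
        rwa [Nat.sub_add_cancel ht0T] at this
      exact Nat.ModEq.add_right_cancel' o h1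
    have hpl : (u.take o).length = o := by rw [List.length_take]; omega
    have hql : (u.drop o).length = T - o := by rw [List.length_drop]
    have hcond : ∀ k, i < k → k ≤ m → A M g k - A M g i - g ^ i ≤ T - o ∧
        (T - o - (A M g k - A M g i - g ^ i)) % g ^ k + M * g ^ i ≤ g ^ k := by
      intro k hk hkm
      have h1 := hAT k hkm
      have h2 := A_mono (M := M) (g := g) (show i + 1 ≤ k from hk)
      rw [A_succ] at h2
      have h3 := hband k (by omega) hkm
      have h4 : g ^ i ≤ g ^ (k - 1) := Nat.pow_le_pow_right hg (by omega)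
      have h5 : M * g ^ i ≤ M * g ^ (k - 1) := Nat.mul_le_mul_left _ h4
      have h6 : g ^ i ≤ g ^ k := Nat.pow_le_pow_right hg (by omega)
      have h7 : M * g ^ i ≤ M * g ^ k := Nat.mul_le_mul_left _ h6
      refine ⟨by omega, ?_⟩
      obtain ⟨d, hd⟩ : ∃ d, o = A M g i + g ^ i + d := ⟨o - (A M g i + g ^ i), by omega⟩
      have hd2 : d < M * g ^ i := by omega
      have e1 : T - o - (A M g k - A M g i - g ^ i) = T - A M g k - d := by omega
      rw [e1]
      have h8 := Nat.div_add_mod (T - A M g k) (g ^ k)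
      have h9 : (T - A M g k - d) % g ^ k = (T - A M g k) % g ^ k - d := by
        have : T - A M g k - d = ((T - A M g k) % g ^ k - d) + g ^ k * ((T - A M g k) / g ^ k) := by
          omega
        rw [this, Nat.add_mul_mod_self_left, Nat.mod_eq_of_lt]
        have := Nat.mod_lt (T - A M g k) (pow_pos hg k)
        omega
      rw [h9]
      omega
    have hpq : u = u.take o ++ u.drop o := (List.take_append_drop _ _).symm
    have hA1 : A M g i ≤ o := by omega
    have hLle : ∀ k : ℕ, k ≤ i → bet M g k o ≤ o := fun k hk => bet_le ((A_mono hk).trans hA1)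
    have hL : ∀ k : ℕ, k ≤ i → bet M g k T = bet M g k o := by
      intro k hk
      have h1 := bet_left (M := M) (t := o) (t' := T - o) hk hdv ((A_mono hk).trans hA1)
      rwa [Nat.add_sub_cancel' hoT] at h1
    have hR : ∀ k : ℕ, i < k → k ≤ m →
        bet M g k T - o = (T - o) - gam M g i k (T - o) ∧ o ≤ bet M g k T := by
      intro k hk hkm
      obtain ⟨ha, hb⟩ := hcond k hk hkm
      have h1 := bet_right (M := M) hg hk ho1 (by rw [A_succ]; omega) ha hb
      rw [Nat.add_sub_cancel' hoT] at h1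
      have hAk := A_mono (M := M) (g := g) (show i + 1 ≤ k from hk)
      rw [A_succ] at hAk
      have hle : A M g k ≤ T := by have := hAT k hkm; omega
      have hb1 := bet_le hle
      have hb2 := le_bet (M := M) (g := g) k T
      have hg1 : gam M g i k (T - o) ≤ T - o := gam_le
      omega
    refine ⟨u.take o, u.drop o, c.b, hpq, ?_, ?_⟩
    · refine ⟨c, by rw [hpl]; exact hnLo, by rw [hpl]; exact ho1,
        by rw [hpl]; change o < A M g (i + 1); rw [A_succ]; omega, rfl, ?_, ?_⟩
      · rw [hpl]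
        change φ ((u.take o).take (bet M g i o)) = gl
        rw [List.take_take, min_eq_left (hLle i le_rfl), hgl, hL i le_rfl]
      · rw [hpl]
        change (∑ k : Fin m, if k < I then _ else 0) = wl
        rw [hwl]
        refine Finset.sum_congr rfl fun k _ => ?_
        split_ifs with hk
        · have hk1 : (k : ℕ) < i := hk
          rw [hx]
          simp only
          rw [hL k hk1.le, hL (k + 1) hk1, seg_take _ (hLle (k + 1) hk1)]
        · rfl
    · refine ⟨c, by rw [hql]; exact hnRo, by rw [hql]; exact hdv, ?_, rfl, ?_, ?_⟩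
      · intro k hk hkm
        rw [hql]
        exact hcond k hk hkm
      · rw [hql]
        change φ ((u.drop o).drop (T - o - gam M g i (i + 1) (T - o))) = h
        obtain ⟨ha, hb⟩ := hR (i + 1) (Nat.lt_succ_self _) him
        rw [List.drop_drop, ← ha, hh]
        congr 2
        omega
      · rw [hql]
        change (∑ k : Fin m, if I < k then _ else 0) = wr
        rw [hwr]
        refine Finset.sum_congr rfl fun k _ => ?_
        split_ifs with hk
        · have hk1 : i < (k : ℕ) := hk
          obtain ⟨ha, hb⟩ := hR k hk1 k.2.le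
          obtain ⟨ha', hb'⟩ := hR (k + 1) (by omega) k.2
          change e k (φ (seg (u.drop o) (T - o - gam M g i k (T - o))
            (T - o - gam M g i (k + 1) (T - o)))) = _
          rw [← ha, ← ha', hx]
          simp only
          have e1 : o + (bet M g k T - o) = bet M g k T := by omega
          have e2 : bet M g (k + 1) T - o - (bet M g k T - o) =
              bet M g (k + 1) T - bet M g k T := by omega
          rw [seg, seg, List.drop_drop, e1, e2]
        · rfl
  · intro q q' hq hq' htake hdrop hlen b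
    rintro ⟨c, h1, h2, h3, h4, h5, h6⟩
    have hmm : ∀ k ≤ m, q.length ≡ q'.length [MOD g ^ k] := fun k hk =>
      hlen.of_dvd ((pow_dvd_pow g hk).trans (Dvd.intro_left _ rfl))
    have him : (c.i : ℕ) < m := c.i.2
    have hLa : ∀ k ≤ m, A M g k + g ^ k ≤ A M g (m + 1) := by
      intro k hk
      have := A_mono (M := M) (g := g) (show k + 1 ≤ m + 1 by omega)
      rw [A_succ] at this
      omega
    have hD : ∀ k ≤ m, A M g k - A M g c.i - g ^ (c.i : ℕ) ≤ q.length ∧
        A M g k - A M g c.i - g ^ (c.i : ℕ) ≤ q'.length := by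
      intro k hk
      have := hLa k hk
      constructor <;> omega
    have hpos : ∀ k ≤ m, q'.length - gam M g c.i k q'.length = q.length - gam M g c.i k q.length ∧
        q.length - gam M g c.i k q.length ≤ A M g (m + 1) := by
      intro k hk
      rw [pos_eq (hD k hk).1, pos_eq (hD k hk).2,
        sub_mod_congr (hD k hk).2 (hD k hk).1 (hmm k hk).symm]
      refine ⟨rfl, ?_⟩
      have := Nat.mod_lt (q.length - (A M g k - A M g c.i - g ^ (c.i : ℕ))) (pow_pos hg k)
      have := hLa k hk
      omega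
    have hdr : ∀ x ≤ A M g (m + 1), φ (q'.drop x) = φ (q.drop x) := by
      intro x hx
      have key : ∀ y : List α, A M g (m + 1) ≤ y.length →
          φ (y.drop x) = φ ((y.take (A M g (m + 1))).drop x) * φ (y.drop (A M g (m + 1))) := by
        intro y hy
        rw [← hφ]
        congr 1
        rw [← List.drop_append_of_le_length (by rw [List.length_take]; omega),
          List.take_append_drop]
      rw [key q hq, key q' hq', htake, hdrop]
    refine ⟨c, by rw [← h1]; exact perR _ _ (hlen.of_dvd (Dvd.intro _ rfl)).symm, ?_, ?_, h4, ?_, ?_⟩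
    · exact ((hmm c.i him.le).dvd_iff (dvd_refl _)).1 h2
    · intro k hk hkm
      refine ⟨(hD k hkm).2, ?_⟩
      rw [← sub_mod_congr (hD k hkm).1 (hD k hkm).2 (hmm k hkm)]
      exact (h3 k hk hkm).2
    · obtain ⟨ha, hb⟩ := hpos (c.i + 1) him
      rw [ha, hdr _ hb, h5]
    · rw [← h6]
      refine Finset.sum_congr rfl fun k _ => ?_
      split_ifs with hk
      · obtain ⟨ha, hb⟩ := hpos k k.2.le
        obtain ⟨ha', hb'⟩ := hpos (k + 1) k.2
        rw [ha, ha', ← seg_take q' hb', ← seg_take q hb', htake]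
      · rfl

end Crest.Agent.R320.Grid_375
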