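import Crest.Agent.R320.RandF_808
import Crest.Agent.R320.Names_570

/-!
Row 320, helper381: the outer gadget of helper693 #13203 (holes on nested grids anchored at the right end):
no small walls, arbitrary contents, sound for every length, complete for every length outside a thin set.
-/

set_option autoImplicit false
set_option linter.unusedSectionVars false

namespace Crest.Agent.R320.Grid_381

open Finset

/-- lower ends of the levels -/
def Am (M : ℕ) (G : ℕ → ℕ) : ℕ → ℕ
  | 0 => 0
  | i + 1 => Am M G i + G i + M * G i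

theorem Am_succ (M : ℕ) (G : ℕ → ℕ) (i : ℕ) : Am M G (i + 1) = Am M G i + G i + M * G i := rfl

theorem Am_mono (M : ℕ) (G : ℕ → ℕ) {i j : ℕ} (h : i ≤ j) : Am M G i ≤ Am M G j := by
  induction j, h using Nat.le_induction with
  | base => exact le_rfl
  | succ j _ ih => rw [Am_succ]; omega

/-- boundary number `j` in a text of length `T` -/
def bt (M : ℕ) (G : ℕ → ℕ) (j T : ℕ) : ℕ := Am M G j + (T - Am M G j) % G j

theorem bt_ge (M : ℕ) (G : ℕ → ℕ) (j T : ℕ) : Am M G j ≤ bt M G j T := Nat.le_add_right _ _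

theorem bt_lt (M : ℕ) {G : ℕ → ℕ} (hG : ∀ i, 0 < G i) (j T : ℕ) : bt M G j T < Am M G j + G j := by
  have := Nat.mod_lt (T - Am M G j) (hG j)
  unfold bt; omega

theorem bt_left {M : ℕ} {G : ℕ → ℕ} {j o o' : ℕ} (h : G j ∣ o') (ho : Am M G j ≤ o) :
    bt M G j (o + o') = bt M G j o := by
  obtain ⟨k, rfl⟩ := h
  unfold bt
  rw [show o + G j * k - Am M G j = (o - Am M G j) + G j * k by omega, Nat.add_mul_mod_self_left]

theorem div_shift {g y d x : ℕ} (hd : d ≤ y % g) (hx : y % g + x < g) :
    (y - d + x) / g = y / g := by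
  have h := Nat.div_add_mod y g
  have h1 : y - d + x = (y % g - d + x) + g * (y / g) := by
    generalize g * (y / g) = k at h ⊢
    omega
  rw [h1, Nat.add_mul_div_left _ _ (by omega), Nat.div_eq_of_lt (by omega), Nat.zero_add]

theorem dvd_G {G : ℕ → ℕ} (h : ∀ i, G i ∣ G (i + 1)) {i j : ℕ} (hij : i ≤ j) : G i ∣ G j := by
  induction j, hij using Nat.le_induction with
  | base => exact dvd_rfl
  | succ j _ ih => exact ih.trans (h j)

/-- the data of the gadget -/
structure Dat (S V W : Type*) where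
  m : ℕ
  e : ℕ → S → W
  F : S → W → V
  act : V → S → V
  M : ℕ
  G : ℕ → ℕ

section

variable {α S V W : Type*} [Monoid S] [AddCommGroup V] [AddCommGroup W]

/-- contexts -/
abbrev Ctx (D : Dat S V W) : Type _ := Fin D.m × S × W × S × W × V

variable (D : Dat S V W)

/-- the value of a context -/
def bv (c : Ctx D) : V :=
  D.F (c.2.1 * 1 * c.2.2.2.1) (c.2.2.1 + D.e c.1 1 + c.2.2.2.2.1) +
    D.act c.2.2.2.2.2 (c.2.1 * 1 * c.2.2.2.1)

/-- a good context -/
def Good (c : Ctx D) : Prop := ∀ z : S,
  D.F (c.2.1 * z * c.2.2.2.1) (c.2.2.1 + D.e c.1 z + c.2.2.2.2.1) +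
    D.act c.2.2.2.2.2 (c.2.1 * z * c.2.2.2.1) = bv D c

variable (phi : List α → S)

/-- lower end of the cell of level `i` -/
def Ac (i : ℕ) : ℕ := Am D.M D.G i + D.G i

/-- type of a list read at the boundaries `b` -/
def tp (b : ℕ → ℕ) (u : List α) (s : Finset ℕ) : W :=
  ∑ j ∈ s, D.e j (phi ((u.take (b (j + 1))).drop (b j)))

/-- left data -/
def LeftOK (p : List α) (c : Ctx D) : Prop :=
  Ac D c.1 ≤ p.length ∧ p.length < Ac D c.1 + D.M * D.G c.1 ∧
    phi (p.take (bt D.M D.G c.1 p.length)) = c.2.1 ∧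
    tp D phi (fun j => bt D.M D.G j p.length) p (range c.1) = c.2.2.1

/-- position of the boundary `j` in the right word, seen from level `i` -/
def pos (i : ℕ) (o' : ℕ) (j : ℕ) : ℕ := o' - D.G j * ((o' + Ac D i - Am D.M D.G j) / D.G j)

/-- right data -/
def RightOK (q : List α) (c : Ctx D) : Prop :=
  D.G c.1 ∣ q.length ∧ Ac D D.m ≤ q.length ∧
    (∀ j, (c.1 : ℕ) < j → j ≤ D.m → ∀ x < D.M * D.G c.1,
      (q.length + Ac D c.1 + x - Am D.M D.G j) / D.G j =
        (q.length + Ac D c.1 - Am D.M D.G j) / D.G j) ∧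
    phi (q.drop (pos D c.1 q.length (c.1 + 1))) = c.2.2.2.1 ∧
    tp D phi (pos D c.1 q.length) q (Ico (c.1 + 1) D.m) = c.2.2.2.2.1

/-- total type -/
def wtT (u : List α) : W := tp D phi (fun j => bt D.M D.G j u.length) u (range D.m)

variable {D} {phi}

theorem slice_left {p q : List α} {a b : ℕ} (h : b ≤ p.length) :
    ((p ++ q).take b).drop a = (p.take b).drop a := by
  rw [List.take_append_of_le_length h]

theorem slice_right {p q : List α} {a b : ℕ} (hb : p.length ≤ b) (ha : p.length ≤ a) :
    ((p ++ q).take b).drop a = (q.take (b - p.length)).drop (a - p.length) := by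
  rw [List.take_append, List.take_of_length_le hb, List.drop_append, List.drop_of_length_le ha,
    List.nil_append]

theorem matched (hphi : ∀ u v, phi (u ++ v) = phi u * phi v) (hG : ∀ i, 0 < D.G i)
    (hd : ∀ i, D.G i ∣ D.G (i + 1)) {p q : List α} {c : Ctx D}
    (hp : LeftOK D phi p c) (hq : RightOK D phi q c) (hc : Good D c) :
    bv D c = D.F (phi (p ++ q)) (wtT D phi (p ++ q)) + D.act c.2.2.2.2.2 (phi (p ++ q)) := by
  obtain ⟨i, g, wl, h, wr, v⟩ := c
  obtain ⟨p1, p2, p3, p4⟩ := hp
  obtain ⟨q1, q2, q3, q4, q5⟩ := hq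
  simp only at p1 p2 p3 p4 q1 q2 q3 q4 q5 ⊢
  have hT : (p ++ q).length = p.length + q.length := List.length_append
  have hA : ∀ j ≤ (i : ℕ), Am D.M D.G j ≤ p.length := by
    intro j hj
    have := Am_mono D.M D.G hj
    unfold Ac at p1
    omega
  have hbl : ∀ j ≤ (i : ℕ), bt D.M D.G j (p ++ q).length = bt D.M D.G j p.length := by
    intro j hj
    rw [hT]
    exact bt_left ((dvd_G hd hj).trans q1) (hA j hj)
  have hbl2 : ∀ j ≤ (i : ℕ), bt D.M D.G j p.length ≤ p.length := by
    intro j hj
    have h1 := bt_lt D.M hG j p.length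
    rcases eq_or_lt_of_le hj with h2 | h2
    · subst h2; unfold Ac at p1; omega
    · have := Am_mono D.M D.G (show j + 1 ≤ (i : ℕ) from h2)
      rw [Am_succ] at this
      unfold Ac at p1
      omega
  have hi : (i : ℕ) < D.m := i.2
  have hAm1 : p.length < Am D.M D.G (i + 1) := by
    rw [Am_succ]; unfold Ac at p2; omega
  have hbr : ∀ j, (i : ℕ) < j → j ≤ D.m →
      bt D.M D.G j (p ++ q).length = p.length + pos D i q.length j := by
    intro j hj hjm
    have h1 := q3 j hj hjm (p.length - Ac D i) (by omega)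
    have h2 := Am_mono D.M D.G (show (i : ℕ) + 1 ≤ j from hj)
    have h3 := Am_mono D.M D.G hjm
    have h4 : q.length + Ac D i + (p.length - Ac D i) - Am D.M D.G j
        = p.length + q.length - Am D.M D.G j := by omega
    rw [h4] at h1
    have h5 := Nat.div_add_mod (p.length + q.length - Am D.M D.G j) (D.G j)
    unfold pos bt
    rw [hT, ← h1]
    unfold Ac at q2
    generalize D.G j * ((p.length + q.length - Am D.M D.G j) / D.G j) = k at h5 ⊢
    omega
  have hab : bt D.M D.G i (p ++ q).length ≤ p.length := by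
    rw [hbl i le_rfl]; exact hbl2 i le_rfl
  have hbb : p.length ≤ bt D.M D.G (i + 1) (p ++ q).length := by
    rw [hbr (i + 1) (Nat.lt_succ_self _) hi]; omega
  -- product
  have hprod : phi (p ++ q) = g * phi (((p ++ q).take (bt D.M D.G (i + 1) (p ++ q).length)).drop
      (bt D.M D.G i (p ++ q).length)) * h := by
    rw [← p3, ← q4, ← hbl i le_rfl]
    have e1 : p.take (bt D.M D.G i (p ++ q).length) =
        (p ++ q).take (bt D.M D.G i (p ++ q).length) := by
      rw [List.take_append_of_le_length hab]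
    have e2 : q.drop (pos D i q.length (i + 1)) =
        (p ++ q).drop (bt D.M D.G (i + 1) (p ++ q).length) := by
      rw [hbr (i + 1) (Nat.lt_succ_self _) hi, List.drop_append,
        List.drop_of_length_le (l := p) (by omega), List.nil_append, Nat.add_sub_cancel_left]
    rw [e1, e2, ← hphi, ← hphi]
    congr 1
    have e3 : (p ++ q).take (bt D.M D.G i (p ++ q).length) =
        ((p ++ q).take (bt D.M D.G (i + 1) (p ++ q).length)).take
          (bt D.M D.G i (p ++ q).length) := by
      rw [List.take_take, min_eq_left (hab.trans hbb)]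
    rw [e3, List.take_append_drop, List.take_append_drop]
  -- weight
  have hwt : wtT D phi (p ++ q) = wl + D.e i (phi (((p ++ q).take
      (bt D.M D.G (i + 1) (p ++ q).length)).drop (bt D.M D.G i (p ++ q).length))) + wr := by
    unfold wtT tp
    have e0 : range D.m = Ico 0 D.m := by rw [range_eq_Ico]
    rw [e0, ← Finset.sum_Ico_consecutive _ (Nat.zero_le ((i : ℕ) + 1)) (by omega),
      ← range_eq_Ico, Finset.sum_range_succ, ← p4, ← q5]
    unfold tp
    congr 1
    · congr 1
      refine Finset.sum_congr rfl fun j hj => ?_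
      rw [Finset.mem_range] at hj
      beta_reduce
      rw [hbl j hj.le, hbl (j + 1) hj, slice_left (hbl2 (j + 1) hj)]
    · refine Finset.sum_congr rfl fun j hj => ?_
      rw [Finset.mem_Ico] at hj
      have h1 := hbr j (by omega) (by omega)
      have h2 := hbr (j + 1) (by omega) (by omega)
      beta_reduce
      rw [h1, h2, slice_right (by omega) (by omega), Nat.add_sub_cancel_left,
        Nat.add_sub_cancel_left]
  rw [hwt, hprod]
  exact (hc _).symm

/-- lengths for which some later boundary is in doubt -/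
def Doubt (M : ℕ) (G : ℕ → ℕ) (m T : ℕ) : Prop :=
  ∃ j, 1 ≤ j ∧ j ≤ m ∧
    ((T - Am M G j) % G j < M * G (j - 1) ∨ G j < (T - Am M G j) % G j + M * G (j - 1))

theorem exists_place {f : ℕ → Prop} (A K k : ℕ) (hK : 0 < K) (hf : ∀ t, t ≡ k [MOD K] → f t) :
    ∃ t, A ≤ t ∧ t < A + K ∧ f t := by
  refine ⟨A + (k + K * A - A) % K, Nat.le_add_right _ _, ?_, hf _ ?_⟩
  · have := Nat.mod_lt (k + K * A - A) hK
    omega
  · have h1 : (k + K * A - A) % K ≡ k + K * A - A [MOD K] := Nat.mod_modEq _ _
    have h2 : A + (k + K * A - A) = k + K * A := by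
      have : A ≤ K * A := Nat.le_mul_of_pos_left A hK
      omega
    have h3 := Nat.ModEq.add_left A h1
    rw [h2] at h3
    refine h3.trans ?_
    have : k + K * A ≡ k [MOD K] := by
      unfold Nat.ModEq
      rw [Nat.add_mul_mod_self_left]
    exact this

theorem per_congr {β : Type*} {f : ℕ → β} {M : ℕ} (hf : ∀ t, f (t + M) = f t) {a b : ℕ}
    (h : a ≡ b [MOD M]) : f a = f b := by
  have hp : Function.Periodic f M := hf
  rw [← hp.map_mod_nat a, ← hp.map_mod_nat b, h]

theorem complete_pt (hphi : ∀ u v, phi (u ++ v) = phi u * phi v) (hG : ∀ i, 0 < D.G i)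
    (hd : ∀ i, D.G i ∣ D.G (i + 1)) (hM : 0 < D.M) (hcop : ∀ i, Nat.Coprime D.M (D.G i))
    {Nm : Type*} (nmL nmR : ℕ → Option Nm)
    (hL : ∀ t, nmL (t + D.M) = nmL t) (hR : ∀ t, nmR (t + D.M) = nmR t)
    {u : List α} (hu : 2 * Ac D D.m ≤ u.length) (hnd : ¬ Doubt D.M D.G D.m u.length)
    (hnames : ∀ c s, s + D.M ≤ u.length + 1 →
      ∃ t, s ≤ t ∧ t < s + D.M ∧ t ≤ u.length ∧ nmL t = some c ∧ nmR (u.length - t) = some c)
    (hF : ∀ (s : S) (w : W) (v : V), ∃ i < D.m, ∀ g x h : S, g * x * h = s → ∀ z : S,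
        D.F (g * z * h) (w - D.e i x + D.e i z) + D.act v (g * z * h) = D.F s w + D.act v s)
    (v : V) : ∃ c : Ctx D, Good D c ∧ c.2.2.2.2.2 = v ∧ ∀ n : Nm, ∃ p q, p ++ q = u ∧
      nmL p.length = some n ∧ nmR q.length = some n ∧ LeftOK D phi p c ∧ RightOK D phi q c := by
  obtain ⟨i, hi, hgood⟩ := hF (phi u) (wtT D phi u) v
  have hA1 : Am D.M D.G (i + 1) ≤ Am D.M D.G D.m := Am_mono _ _ hi
  have hAs : Am D.M D.G (i + 1) = Ac D i + D.M * D.G i := rfl
  have hAm : Ac D D.m = Am D.M D.G D.m + D.G D.m := rfl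
  set T := u.length with hT
  set a := bt D.M D.G i T with ha
  set b := bt D.M D.G (i + 1) T with hb
  have ha1 : a < Ac D i := bt_lt D.M hG i T
  have hb1 : Am D.M D.G (i + 1) ≤ b := bt_ge _ _ _ _
  have hGm : D.G (i + 1) ≤ D.G D.m := Nat.le_of_dvd (hG _) (dvd_G hd hi)
  have hb2 : b < Am D.M D.G (i + 1) + D.G (i + 1) := bt_lt D.M hG (i + 1) T
  let c : Ctx D := (⟨i, hi⟩, phi (u.take a), tp D phi (fun j => bt D.M D.G j T) u (range i),
    phi (u.drop b), tp D phi (fun j => bt D.M D.G j T) u (Ico (i + 1) D.m), v)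
  have hprod : phi (u.take a) * phi ((u.take b).drop a) * phi (u.drop b) = phi u := by
    rw [← hphi, ← hphi]
    congr 1
    have e3 : u.take a = (u.take b).take a := by
      rw [List.take_take, min_eq_left (by omega)]
    rw [e3, List.take_append_drop, List.take_append_drop]
  have hw : wtT D phi u = tp D phi (fun j => bt D.M D.G j T) u (range i) +
      D.e i (phi ((u.take b).drop a)) + tp D phi (fun j => bt D.M D.G j T) u (Ico (i + 1) D.m) := by
    unfold wtT tp
    have e0 : range D.m = Ico 0 D.m := by rw [range_eq_Ico]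
    rw [e0, ← Finset.sum_Ico_consecutive _ (Nat.zero_le (i + 1)) hi,
      ← range_eq_Ico, Finset.sum_range_succ]
  have hval : ∀ z : S, D.F (phi (u.take a) * z * phi (u.drop b))
      (tp D phi (fun j => bt D.M D.G j T) u (range i) + D.e i z +
        tp D phi (fun j => bt D.M D.G j T) u (Ico (i + 1) D.m)) +
      D.act v (phi (u.take a) * z * phi (u.drop b)) =
      D.F (phi u) (wtT D phi u) + D.act v (phi u) := by
    intro z
    have := hgood _ _ _ hprod z
    rw [← this]
    congr 2
    rw [hw]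
    abel
  refine ⟨c, ?_, rfl, ?_⟩
  · intro z
    show _ = _
    unfold bv
    exact (hval z).trans (hval 1).symm
  · intro n
    -- the place
    obtain ⟨t, ht1, ht2, ht3, ht4, ht5⟩ := hnames n (Ac D i) (by
      have : D.M ≤ D.M * D.G i := Nat.le_mul_of_pos_right _ (hG i)
      omega)
    obtain ⟨k, hk1, hk2⟩ := Nat.chineseRemainder (hcop i) t T
    obtain ⟨o, ho1, ho2, ho3, ho4⟩ := exists_place (f := fun o => o ≡ t [MOD D.M] ∧ o ≡ T [MOD D.G i])
      (Ac D i) (D.M * D.G i) k (Nat.mul_pos hM (hG i)) (fun o ho =>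
        ⟨(ho.of_dvd (Nat.dvd_mul_right _ _)).trans hk1, (ho.of_dvd (Nat.dvd_mul_left _ _)).trans hk2⟩)
    have hoT : o ≤ T := by omega
    have hpl : (u.take o).length = o := by rw [List.length_take]; omega
    have hql : (u.drop o).length = T - o := by rw [List.length_drop]
    have hpq : u.take o ++ u.drop o = u := List.take_append_drop _ _
    refine ⟨u.take o, u.drop o, hpq, ?_, ?_, ?_, ?_⟩
    · rw [hpl, per_congr hL ho3, ht4]
    · rw [hql, per_congr hR (a := T - o) (b := T - t), ht5]
      have h1 : (T - o) + o ≡ (T - t) + t [MOD D.M] := by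
        rw [Nat.sub_add_cancel hoT, Nat.sub_add_cancel ht3]
      exact Nat.ModEq.add_right_cancel ho3 h1
    · have hdo : D.G i ∣ T - o := (Nat.modEq_iff_dvd' hoT).1 ho4
      have hbl : ∀ j ≤ i, bt D.M D.G j T = bt D.M D.G j o := by
        intro j hj
        have h1 := Am_mono D.M D.G hj
        have h2 : Am D.M D.G i ≤ Ac D i := Nat.le_add_right _ _
        have := bt_left (M := D.M) (G := D.G) (o := o) ((dvd_G hd hj).trans hdo) (by omega)
        rwa [Nat.add_sub_cancel' hoT] at this
      have hbo : ∀ j ≤ i, bt D.M D.G j o ≤ o := by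
        intro j hj
        have h1 := bt_lt D.M hG j o
        rcases eq_or_lt_of_le hj with h2 | h2
        · subst h2
          have : Ac D j = Am D.M D.G j + D.G j := rfl
          omega
        · have := Am_mono D.M D.G (show j + 1 ≤ i from h2)
          rw [Am_succ] at this
          have h3 : Am D.M D.G i ≤ Ac D i := Nat.le_add_right _ _
          omega
      refine ⟨by rw [hpl]; exact ho1, by rw [hpl]; exact ho2, ?_, ?_⟩
      · show phi ((u.take o).take (bt D.M D.G i (u.take o).length)) = phi (u.take a)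
        rw [hpl, List.take_take, ← hbl i le_rfl, ← ha, min_eq_left (by omega)]
      · show tp D phi (fun j => bt D.M D.G j (u.take o).length) (u.take o) (range i) =
          tp D phi (fun j => bt D.M D.G j T) u (range i)
        unfold tp
        refine Finset.sum_congr rfl fun j hj => ?_
        rw [Finset.mem_range] at hj
        beta_reduce
        rw [hpl, ← hbl j hj.le, ← hbl (j + 1) hj, List.take_take, min_eq_left (by
          rw [hbl (j + 1) hj]; exact hbo (j + 1) hj)]
    · have hdo : D.G i ∣ T - o := (Nat.modEq_iff_dvd' hoT).1 ho4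
      have key : ∀ j, i < j → j ≤ D.m → ∀ x < D.M * D.G i,
          (T - o + Ac D i + x - Am D.M D.G j) / D.G j = (T - Am D.M D.G j) / D.G j := by
        intro j hj hjm x hx
        have hnj : D.M * D.G (j - 1) ≤ (T - Am D.M D.G j) % D.G j ∧
            (T - Am D.M D.G j) % D.G j + D.M * D.G (j - 1) ≤ D.G j := by
          constructor
          · by_contra hc
            exact hnd ⟨j, by omega, hjm, Or.inl (by omega)⟩
          · by_contra hc
            exact hnd ⟨j, by omega, hjm, Or.inr (by omega)⟩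
        have hle : D.M * D.G i ≤ D.M * D.G (j - 1) :=
          Nat.mul_le_mul_left _ (Nat.le_of_dvd (hG _) (dvd_G hd (by omega)))
        have hjA := Am_mono D.M D.G hjm
        have := div_shift (g := D.G j) (y := T - Am D.M D.G j) (d := o - Ac D i) (x := x)
          (by omega) (by omega)
        rw [← this]
        congr 1
        omega
      have hpos : ∀ j, i < j → j ≤ D.m → bt D.M D.G j T = o + pos D i (T - o) j := by
        intro j hj hjm
        have h1 := key j hj hjm 0 (Nat.mul_pos hM (hG i))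
        rw [Nat.add_zero] at h1
        have h2 := Am_mono D.M D.G (show i + 1 ≤ j from hj)
        have h3 := Am_mono D.M D.G hjm
        have h5 := Nat.div_add_mod (T - Am D.M D.G j) (D.G j)
        unfold pos bt
        rw [h1]
        generalize D.G j * ((T - Am D.M D.G j) / D.G j) = k' at h5 ⊢
        omega
      refine ⟨by rw [hql]; exact hdo, by rw [hql]; omega, ?_, ?_, ?_⟩
      · intro j hj hjm x hx
        show ((u.drop o).length + Ac D i + x - Am D.M D.G j) / D.G j =
          ((u.drop o).length + Ac D i - Am D.M D.G j) / D.G j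
        have h0 := key j hj hjm 0 (Nat.mul_pos hM (hG i))
        rw [Nat.add_zero] at h0
        rw [hql, key j hj hjm x hx, h0]
      · show phi ((u.drop o).drop (pos D i (u.drop o).length (i + 1))) = phi (u.drop b)
        rw [hql, List.drop_drop, ← hpos (i + 1) (Nat.lt_succ_self _) hi]
      · show tp D phi (pos D i (u.drop o).length) (u.drop o) (Ico (i + 1) D.m) =
          tp D phi (fun j => bt D.M D.G j T) u (Ico (i + 1) D.m)
        unfold tp
        refine Finset.sum_congr rfl fun j hj => ?_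
        rw [Finset.mem_Ico] at hj
        beta_reduce
        have h1 := hpos j (by omega) (by omega)
        have h2 := hpos (j + 1) (by omega) (by omega)
        rw [hql, h1, h2]
        conv_rhs => rw [← hpq]
        rw [slice_right (by omega) (by omega), hpl, Nat.add_sub_cancel_left,
          Nat.add_sub_cancel_left]

/-! ### locality -/

theorem pos_eq (hAm : ∀ {i j}, i < j → Ac D i ≤ Am D.M D.G j) {i j o' : ℕ} (hij : i < j)
    (ho : Am D.M D.G j ≤ o') :
    pos D i o' j = Am D.M D.G j - Ac D i + (o' + Ac D i - Am D.M D.G j) % D.G j := by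
  have h1 := hAm hij
  have h5 := Nat.div_add_mod (o' + Ac D i - Am D.M D.G j) (D.G j)
  unfold pos
  generalize D.G j * ((o' + Ac D i - Am D.M D.G j) / D.G j) = k at h5 ⊢
  omega

theorem mod_shift {a b A g : ℕ} (c : ℕ) (ha : A ≤ a) (hb : A ≤ b) (h : a ≡ b [MOD g]) :
    (a + c - A) % g = (b + c - A) % g := by
  have h1 : (a + c - A) + A ≡ (b + c - A) + A [MOD g] := by
    rw [Nat.sub_add_cancel (by omega), Nat.sub_add_cancel (by omega)]
    exact h.add_right c
  exact Nat.ModEq.add_right_cancel' A h1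

theorem Ac_le_Am {M : ℕ} {G : ℕ → ℕ} {i j : ℕ} (h : i < j) :
    Am M G i + G i ≤ Am M G j := by
  have := Am_mono M G (show i + 1 ≤ j from h)
  rw [Am_succ] at this
  omega

theorem G_le (hG : ∀ i, 0 < D.G i) (hd : ∀ i, D.G i ∣ D.G (i + 1)) {j k : ℕ} (h : j ≤ k) :
    D.G j ≤ D.G k := Nat.le_of_dvd (hG _) (dvd_G hd h)

theorem slice_take {q : List α} {a b A : ℕ} (hb : b ≤ A) :
    (q.take b).drop a = (((q.take A).take b)).drop a := by
  rw [List.take_take, min_eq_left hb]

theorem drop_split {q : List α} {a A : ℕ} (ha : a ≤ A) :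
    q.drop a = (q.take A).drop a ++ q.drop A := by
  by_cases hA : A ≤ q.length
  · have h1 : (q.take A).length = A := by rw [List.length_take]; omega
    conv_lhs => rw [← List.take_append_drop A q]
    rw [List.drop_append_of_le_length (by omega)]
  · rw [List.take_of_length_le (by omega), List.drop_of_length_le (l := q) (i := A) (by omega),
      List.append_nil]

theorem RightOK_local (hphi : ∀ u v, phi (u ++ v) = phi u * phi v) (hG : ∀ i, 0 < D.G i)
    (hd : ∀ i, D.G i ∣ D.G (i + 1)) {q q' : List α}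
    (hq : Ac D D.m ≤ q.length) (hq' : Ac D D.m ≤ q'.length)
    (ht : q.take (Ac D D.m) = q'.take (Ac D D.m))
    (hp : phi (q.drop (Ac D D.m)) = phi (q'.drop (Ac D D.m)))
    (hl : q.length ≡ q'.length [MOD D.G D.m]) (c : Ctx D) (h : RightOK D phi q c) :
    RightOK D phi q' c := by
  obtain ⟨i, g, wl, hh, wr, v⟩ := c
  obtain ⟨q1, q2, q3, q4, q5⟩ := h
  simp only at q1 q2 q3 q4 q5 ⊢
  have hi : (i : ℕ) < D.m := i.2
  have hA : Ac D D.m = Am D.M D.G D.m + D.G D.m := rfl
  have hml : ∀ j ≤ D.m, q.length ≡ q'.length [MOD D.G j] := fun j hj => hl.of_dvd (dvd_G hd hj)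
  have hAj : ∀ j ≤ D.m, Am D.M D.G j ≤ q.length ∧ Am D.M D.G j ≤ q'.length := by
    intro j hj
    have := Am_mono D.M D.G hj
    omega
  have hmod : ∀ j ≤ D.m, (q.length + Ac D i - Am D.M D.G j) % D.G j =
      (q'.length + Ac D i - Am D.M D.G j) % D.G j := fun j hj =>
    mod_shift _ (hAj j hj).1 (hAj j hj).2 (hml j hj)
  have hpos : ∀ j, (i : ℕ) < j → j ≤ D.m → pos D i q.length j = pos D i q'.length j := by
    intro j hj hjm
    rw [pos_eq (fun {_ _} h => Ac_le_Am h) hj (hAj j hjm).1,
      pos_eq (fun {_ _} h => Ac_le_Am h) hj (hAj j hjm).2, hmod j hjm]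
  have hposle : ∀ j, (i : ℕ) < j → j ≤ D.m → pos D i q'.length j ≤ Ac D D.m := by
    intro j hj hjm
    rw [pos_eq (fun {_ _} h => Ac_le_Am h) hj (hAj j hjm).2]
    have h1 := Nat.mod_lt (q'.length + Ac D i - Am D.M D.G j) (hG j)
    have h2 := Am_mono D.M D.G hjm
    have h3 := G_le hG hd hjm
    omega
  have iff_div : ∀ (y x g : ℕ), 0 < g → ((y + x) / g = y / g ↔ y % g + x < g) := by
    intro y x g hg
    have h1 := Nat.div_add_mod y g
    constructor
    · intro h
      have h2 := Nat.div_add_mod (y + x) g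
      have h3 := Nat.mod_lt (y + x) hg
      rw [h] at h2
      generalize g * (y / g) = k at h1 h2
      omega
    · intro h
      have := div_shift (g := g) (y := y) (d := 0) (x := x) (Nat.zero_le _) h
      simpa using this
  refine ⟨?_, hq', ?_, ?_, ?_⟩
  · have := hml i hi.le
    exact (this.dvd_iff dvd_rfl).1 q1
  · intro j hj hjm x hx
    have h1 := q3 j hj hjm x hx
    have e1 : ∀ l : ℕ, Am D.M D.G j ≤ l →
        l + Ac D i + x - Am D.M D.G j = (l + Ac D i - Am D.M D.G j) + x := by intro l hl; omega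
    rw [e1 _ (hAj j hjm).1, iff_div _ _ _ (hG j)] at h1
    rw [e1 _ (hAj j hjm).2, iff_div _ _ _ (hG j), ← hmod j hjm]
    exact h1
  · rw [← q4, hpos (i + 1) (Nat.lt_succ_self _) hi,
      drop_split (q := q) (hposle (i + 1) (Nat.lt_succ_self _) hi),
      drop_split (q := q') (hposle (i + 1) (Nat.lt_succ_self _) hi), hphi, hphi, ht, hp]
  · rw [← q5]
    unfold tp
    refine Finset.sum_congr rfl fun j hj0 => ?_
    have hj : (i : ℕ) + 1 ≤ j ∧ j < D.m := Finset.mem_Ico.1 hj0
    rw [hpos j (by omega) (by omega), hpos (j + 1) (by omega) (by omega),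
      slice_take (q := q) (hposle (j + 1) (by omega) (by omega)),
      slice_take (q := q') (hposle (j + 1) (by omega) (by omega)), ht]

theorem wtT_local (hG : ∀ i, 0 < D.G i)
    (hd : ∀ i, D.G i ∣ D.G (i + 1)) {q q' : List α}
    (hq : Ac D D.m ≤ q.length) (hq' : Ac D D.m ≤ q'.length)
    (ht : q.take (Ac D D.m) = q'.take (Ac D D.m))
    (hl : q.length ≡ q'.length [MOD D.G D.m]) : wtT D phi q = wtT D phi q' := by
  have hA : Ac D D.m = Am D.M D.G D.m + D.G D.m := rfl
  have hbt : ∀ j ≤ D.m, bt D.M D.G j q.length = bt D.M D.G j q'.length := by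
    intro j hj
    have h2 := Am_mono D.M D.G hj
    have := mod_shift (a := q.length) (b := q'.length) (A := Am D.M D.G j) (g := D.G j) 0
      (by omega) (by omega) (hl.of_dvd (dvd_G hd hj))
    unfold bt
    simpa using this
  have hble : ∀ j ≤ D.m, bt D.M D.G j q'.length ≤ Ac D D.m := by
    intro j hj
    have h1 := bt_lt D.M hG j q'.length
    have h2 := Am_mono D.M D.G hj
    have h3 := G_le hG hd hj
    omega
  unfold wtT tp
  refine Finset.sum_congr rfl fun j hj => ?_
  rw [Finset.mem_range] at hj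
  beta_reduce
  rw [hbt j hj.le, hbt (j + 1) hj, slice_take (q := q) (hble (j + 1) hj),
    slice_take (q := q') (hble (j + 1) hj), ht]

end

end Crest.Agent.R320.Grid_381
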