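import Crest.Agent.R320.Inst_409

/-!
Row 320, helper409: the zone gadget of scheme 1 on `b`-anchored nested grids (693 #13203), pure words,
no walls inside the zone, all contents, all lengths.  Names are taken as a black box (727).
-/

set_option autoImplicit false
set_option linter.unusedSectionVars false

namespace Crest.Agent.R320.Grid_409

open Finset Crest.Agent.R320.Gad1_420

/-- The data of the grid gadget. -/
structure GDat (α S V W : Type*) where
  φ : List α → S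
  act : V → S → V
  m : ℕ
  e : ℕ → S → W
  F : S → W → V
  M : ℕ
  Γ : ℕ
  LN : ℕ → Fin m × S × W × S × W × V → Prop
  RN : ℕ → Fin m × S × W × S × W × V → Prop

variable {α S V W : Type*} [Monoid S] [AddCommGroup V] [AddCommGroup W] (D : GDat α S V W)

/-- lower ends of the levels. -/
def GDat.A : ℕ → ℕ
  | 0 => 0
  | i + 1 => GDat.A i + D.Γ ^ i + D.M * D.Γ ^ i

theorem GDat.A_succ (i : ℕ) : D.A (i + 1) = D.A i + D.Γ ^ i + D.M * D.Γ ^ i := rfl

theorem GDat.A_mono {i j : ℕ} (h : i ≤ j) : D.A i ≤ D.A j :=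
  monotone_nat_of_le_succ (fun k => by rw [D.A_succ]; omega) h

/-- boundary `j` of a zone of length `T`: the least `y ≥ A j` with `y ≡ T` modulo `Γ ^ j`. -/
def GDat.beta (T j : ℕ) : ℕ := D.A j + (T - D.A j) % D.Γ ^ j

theorem GDat.beta_ge (T j : ℕ) : D.A j ≤ D.beta T j := Nat.le_add_right _ _

theorem GDat.beta_lt (hΓ : 0 < D.Γ) (T j : ℕ) : D.beta T j < D.A j + D.Γ ^ j :=
  Nat.add_lt_add_left (Nat.mod_lt _ (pow_pos hΓ j)) _

theorem GDat.beta_succ (hΓ : 0 < D.Γ) (T T' j : ℕ) : D.beta T j ≤ D.beta T' (j + 1) := by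
  have h1 := D.beta_lt hΓ T j
  have h2 := D.beta_ge T' (j + 1)
  rw [D.A_succ] at h2
  omega

/-- the left side knows the boundaries up to its level. -/
theorem GDat.beta_left {i j o o' : ℕ} (hj : j ≤ i) (ho : D.A j ≤ o) (hd : D.Γ ^ i ∣ o') :
    D.beta (o + o') j = D.beta o j := by
  unfold GDat.beta
  congr 1
  obtain ⟨u, hu⟩ := (pow_dvd_pow D.Γ hj).trans hd
  rw [show o + o' - D.A j = (o - D.A j) + D.Γ ^ j * u by omega, Nat.add_mul_mod_self_left]

/-- segment product `j` of a zone. -/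
def GDat.zz (Y : List α) (j : ℕ) : S := D.φ (seg Y (D.beta Y.length j) (D.beta Y.length (j + 1)))

/-- weight of a zone. -/
def GDat.ww (Y : List α) : W := ∑ k ∈ range D.m, D.e k (D.zz Y k)

/-- end value of a name. -/
def GDat.bb (i : ℕ) (g : S) (wl : W) (h : S) (wr : W) (v : V) : V :=
  D.F (g * 1 * h) (wl + D.e i 1 + wr) + D.act v (g * 1 * h)

/-- good names. -/
def GDat.ok (i : ℕ) (g : S) (wl : W) (h : S) (wr : W) (v : V) : Prop :=
  ∀ z, D.F (g * z * h) (wl + D.e i z + wr) + D.act v (g * z * h) = D.bb i g wl h wr v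

/-- left legality. -/
def GDat.LL (i : Fin D.m) (g : S) (wl : W) (h : S) (wr : W) (v : V) (P : List α) : Prop :=
  D.ok i g wl h wr v ∧ D.A i + D.Γ ^ (i : ℕ) ≤ P.length ∧
  P.length < D.A i + D.Γ ^ (i : ℕ) + D.M * D.Γ ^ (i : ℕ) ∧
  D.LN P.length (i, g, wl, h, wr, v) ∧
  g = D.φ (P.take (D.beta P.length i)) ∧
  wl = ∑ k ∈ range i, D.e k (D.φ (seg P (D.beta P.length k) (D.beta P.length (k + 1))))

/-- right data for the candidate `o` of the left clock. -/
def GDat.rh (Q : List α) (i o : ℕ) : S := D.φ (Q.drop (D.beta (o + Q.length) (i + 1) - o))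

/-- right weight for the candidate `o` of the left clock. -/
def GDat.rw (Q : List α) (i o : ℕ) : W :=
  ∑ k ∈ Ico (i + 1) D.m, D.e k (D.φ (seg Q (D.beta (o + Q.length) k - o)
    (D.beta (o + Q.length) (k + 1) - o)))

/-- right legality. -/
def GDat.RR (i : Fin D.m) (g : S) (wl : W) (h : S) (wr : W) (v : V) (Q : List α) : Prop :=
  D.ok i g wl h wr v ∧ D.Γ ^ (i : ℕ) ∣ Q.length ∧ D.RN Q.length (i, g, wl, h, wr, v) ∧
  ∀ o, D.A i + D.Γ ^ (i : ℕ) ≤ o → o < D.A i + D.Γ ^ (i : ℕ) + D.M * D.Γ ^ (i : ℕ) →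
    h = D.rh Q i o ∧ wr = D.rw Q i o

variable {D}

/-- reading of a junction. -/
theorem read (hφ : ∀ u v, D.φ (u ++ v) = D.φ u * D.φ v) (hΓ : 0 < D.Γ) {P Q : List α} {i : ℕ}
    (him : i < D.m) (h1 : D.A i + D.Γ ^ i ≤ P.length)
    (h2 : P.length < D.A i + D.Γ ^ i + D.M * D.Γ ^ i) (hd : D.Γ ^ i ∣ Q.length) :
    D.φ ((P ++ Q).take (D.beta (P ++ Q).length i)) = D.φ (P.take (D.beta P.length i)) ∧
    (∑ k ∈ range i, D.e k (D.zz (P ++ Q) k)) =
      (∑ k ∈ range i, D.e k (D.φ (seg P (D.beta P.length k) (D.beta P.length (k + 1))))) ∧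
    D.φ ((P ++ Q).drop (D.beta (P ++ Q).length (i + 1))) = D.rh Q i P.length ∧
    (∑ k ∈ Ico (i + 1) D.m, D.e k (D.zz (P ++ Q) k)) = D.rw Q i P.length ∧
    D.φ (P ++ Q) = D.φ ((P ++ Q).take (D.beta (P ++ Q).length i)) * D.zz (P ++ Q) i *
      D.φ ((P ++ Q).drop (D.beta (P ++ Q).length (i + 1))) ∧
    D.ww (P ++ Q) = (∑ k ∈ range i, D.e k (D.zz (P ++ Q) k)) + D.e i (D.zz (P ++ Q) i) +
      ∑ k ∈ Ico (i + 1) D.m, D.e k (D.zz (P ++ Q) k) := by
  have hlen : (P ++ Q).length = P.length + Q.length := List.length_append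
  have hL : ∀ k, k ≤ i → D.beta (P ++ Q).length k = D.beta P.length k := by
    intro k hk
    rw [hlen]
    refine D.beta_left hk ?_ hd
    have := D.A_mono hk
    omega
  have hLle : ∀ k, k ≤ i → D.beta P.length k ≤ P.length := by
    intro k hk
    have h3 := D.beta_lt hΓ P.length k
    rcases Nat.lt_or_ge k i with h4 | h4
    · have h5 := D.A_mono (show k + 1 ≤ i from h4)
      rw [D.A_succ] at h5
      omega
    · obtain rfl : k = i := le_antisymm hk h4
      omega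
  have hR : ∀ k, i < k → P.length ≤ D.beta (P ++ Q).length k := by
    intro k hk
    have h3 := D.beta_ge (P ++ Q).length k
    have h4 := D.A_mono (show i + 1 ≤ k from hk)
    rw [D.A_succ] at h4
    omega
  refine ⟨?_, ?_, ?_, ?_, ?_, ?_⟩
  · rw [hL i le_rfl, List.take_append_of_le_length (hLle i le_rfl)]
  · refine Finset.sum_congr rfl fun k hk => ?_
    have hk' := Finset.mem_range.1 hk
    unfold GDat.zz
    rw [hL k hk'.le, hL (k + 1) hk', seg_left (D.beta_succ hΓ _ _ k) (hLle (k + 1) hk')]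
  · unfold GDat.rh
    have h3 := hR (i + 1) (Nat.lt_succ_self i)
    rw [← hlen]
    obtain ⟨u, hu⟩ := Nat.exists_eq_add_of_le h3
    rw [hu, drop_app_right, Nat.add_sub_cancel_left]
  · unfold GDat.rw
    refine Finset.sum_congr rfl fun k hk => ?_
    obtain ⟨hk1, hk2⟩ := Finset.mem_Ico.1 hk
    have h3 := hR k (by omega)
    have h4 := hR (k + 1) (by omega)
    unfold GDat.zz
    rw [← hlen]
    obtain ⟨u, hu⟩ := Nat.exists_eq_add_of_le h3
    obtain ⟨u', hu'⟩ := Nat.exists_eq_add_of_le h4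
    rw [hu, hu', seg_right, Nat.add_sub_cancel_left, Nat.add_sub_cancel_left]
  · have h5 := D.beta_succ hΓ (P ++ Q).length (P ++ Q).length i
    have h6 := seg_split (Y := P ++ Q) h5
    conv_lhs => rw [← h6]
    rw [hφ, hφ]
    rfl
  · unfold GDat.ww
    rw [← Finset.sum_range_add_sum_Ico _ (show i + 1 ≤ D.m from him), Finset.sum_range_succ]

/-- The name system (black box). -/
structure GNames (D : GDat α S V W) (good : ℕ → Prop) : Prop where
  n1 : ∀ T, good T → ∀ o o' c c', o + o' = T → D.LN o c → D.RN o' c' → c = c'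
  n2 : ∀ T, good T → ∀ c s, s + D.M ≤ T → ∃ o, s ≤ o ∧ o < s + D.M ∧ D.LN o c ∧ D.RN (T - o) c
  n3 : ∀ T, ¬ good T → ∃ v0 r0 : V, ∀ o o' c c', o + o' = T → D.LN o c → D.RN o' c' →
    c.2.2.2.2.2 = v0 ∧ D.bb c'.1 c'.2.1 c'.2.2.1 c'.2.2.2.1 c'.2.2.2.2.1 c'.2.2.2.2.2 = r0
  lu : ∀ o c c', D.LN o c → D.LN o c' → c = c'
  ru : ∀ o c c', D.RN o c → D.RN o c' → c = c'
  lp : ∀ o c, D.LN (o + D.M) c ↔ D.LN o c
  rp : ∀ o c, D.RN (o + D.M) c ↔ D.RN o c
  M0 : 0 < D.M

theorem GNames.lp_mod {good : ℕ → Prop} (h : GNames D good) {o o' : ℕ} (hm : o ≡ o' [MOD D.M])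
    (c : Fin D.m × S × W × S × W × V) : D.LN o c ↔ D.LN o' c := by
  have key : ∀ k o, D.LN (o + D.M * k) c ↔ D.LN o c := by
    intro k
    induction k with
    | zero => intro o; rfl
    | succ k ih => intro o; rw [Nat.mul_succ, ← add_assoc, h.lp, ih]
  have h1 : ∀ o, D.LN o c ↔ D.LN (o % D.M) c := by
    intro o
    conv_lhs => rw [← Nat.mod_add_div o D.M]
    exact key _ _
  rw [h1 o, h1 o']
  have : o % D.M = o' % D.M := hm
  rw [this]

theorem GNames.rp_mod {good : ℕ → Prop} (h : GNames D good) {o o' : ℕ} (hm : o ≡ o' [MOD D.M])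
    (c : Fin D.m × S × W × S × W × V) : D.RN o c ↔ D.RN o' c := by
  have key : ∀ k o, D.RN (o + D.M * k) c ↔ D.RN o c := by
    intro k
    induction k with
    | zero => intro o; rfl
    | succ k ih => intro o; rw [Nat.mul_succ, ← add_assoc, h.rp, ih]
  have h1 : ∀ o, D.RN o c ↔ D.RN (o % D.M) c := by
    intro o
    conv_lhs => rw [← Nat.mod_add_div o D.M]
    exact key _ _
  rw [h1 o, h1 o']
  have : o % D.M = o' % D.M := hm
  rw [this]

/-- every name has a place on the grid. -/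
theorem GNames.place {good : ℕ → Prop} (h : GNames D good) (hΓ : 0 < D.Γ)
    (hcop : Nat.Coprime D.Γ D.M) {T : ℕ} (hT : good T) (c : Fin D.m × S × W × S × W × V)
    (i s : ℕ) (hs : s + D.M * D.Γ ^ i ≤ T) :
    ∃ o, s ≤ o ∧ o < s + D.M * D.Γ ^ i ∧ D.Γ ^ i ∣ T - o ∧ D.LN o c ∧ D.RN (T - o) c := by
  have hG : 0 < D.Γ ^ i := pow_pos hΓ i
  have hMG : D.M ≤ D.M * D.Γ ^ i := Nat.le_mul_of_pos_right _ hG
  obtain ⟨o0, -, h2, h3, h4⟩ := h.n2 T hT c s (le_trans (Nat.add_le_add_left hMG s) hs)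
  have ho0 : o0 ≤ T := by omega
  -- residue
  have hc : Nat.Coprime D.M (D.Γ ^ i) := (hcop.pow_left i).symm
  obtain ⟨k, hk1, hk2⟩ := Nat.chineseRemainder hc o0 T
  obtain ⟨o, ho1, ho2, ho3⟩ :=
    Names_727.exists_window (D.M * D.Γ ^ i) k s (Nat.mul_pos h.M0 hG)
  have hoT : o ≤ T := by omega
  have e1 : o ≡ o0 [MOD D.M] := (ho3.of_mul_right _).trans hk1
  have e2 : o ≡ T [MOD D.Γ ^ i] := (ho3.of_mul_left _).trans hk2
  refine ⟨o, ho1, ho2, (Nat.modEq_iff_dvd' hoT).1 e2, (h.lp_mod e1 c).2 h3, ?_⟩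
  refine (h.rp_mod ?_ c).2 h4
  -- `T - o ≡ T - o0`
  have e3 : (T - o) + o ≡ (T - o0) + o [MOD D.M] := by
    have : (T - o0) + o ≡ (T - o0) + o0 [MOD D.M] := Nat.ModEq.add_left _ e1
    rw [Nat.sub_add_cancel ho0] at this
    rw [Nat.sub_add_cancel hoT]
    exact this.symm
  exact Nat.ModEq.add_right_cancel' _ e3

/-- no doubt at the total `T`. -/
def Clean (D : GDat α S V W) (T : ℕ) : Prop :=
  ∀ j, 1 ≤ j → j ≤ D.m → D.M * D.Γ ^ (j - 1) ≤ (T - D.A j) % D.Γ ^ j ∧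
    (T - D.A j) % D.Γ ^ j + D.M * D.Γ ^ (j - 1) ≤ D.Γ ^ j

/-- shifting the total by less than the doubt does not change the distance to the end. -/
theorem beta_shift (hΓ : 0 < D.Γ) {T j w d d' : ℕ} (hA : D.A j + w ≤ T)
    (h1 : w ≤ (T - D.A j) % D.Γ ^ j) (h2 : (T - D.A j) % D.Γ ^ j + w ≤ D.Γ ^ j)
    (hd : d ≤ w) (hd' : d' < w ∨ d' = 0) :
    D.beta (T + d' - d) j + d = D.beta T j + d' := by
  unfold GDat.beta
  have hG : 0 < D.Γ ^ j := pow_pos hΓ j
  have e1 : T + d' - d - D.A j = (T - D.A j) + d' - d := by omega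
  rw [e1]
  set U := T - D.A j with hU
  have hmod : (U + d' - d) % D.Γ ^ j = U % D.Γ ^ j + d' - d := by
    have e2 : U + d' - d = D.Γ ^ j * (U / D.Γ ^ j) + (U % D.Γ ^ j + d' - d) := by
      have := Nat.div_add_mod U (D.Γ ^ j)
      omega
    rw [e2, Nat.mul_add_mod]
    apply Nat.mod_eq_of_lt
    have h3 := Nat.mod_lt U hG
    rcases hd' with h | h <;> omega
  rw [hmod]
  omega

/-- **The grid gadget.** -/
theorem gadget (D : GDat α S V W) (good : ℕ → Prop) (hN : GNames D good)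
    (hφ : ∀ u v, D.φ (u ++ v) = D.φ u * D.φ v) (hΓ : 0 < D.Γ) (hcop : Nat.Coprime D.Γ D.M)
    (hF : ∀ s w v, ∃ i < D.m, ∀ g x h, g * x * h = s → ∀ z,
      D.F (g * z * h) (w - D.e i x + D.e i z) + D.act v (g * z * h) = D.F s w + D.act v s) :
    ∃ nu : List α → V,
      (∀ P Q (c c' : Fin D.m × S × W × S × W × V),
        D.LL c.1 c.2.1 c.2.2.1 c.2.2.2.1 c.2.2.2.2.1 c.2.2.2.2.2 P →
        D.RR c'.1 c'.2.1 c'.2.2.1 c'.2.2.2.1 c'.2.2.2.2.1 c'.2.2.2.2.2 Q →
        D.bb c'.1 c'.2.1 c'.2.2.1 c'.2.2.2.1 c'.2.2.2.2.1 c'.2.2.2.2.2 =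
          D.act c.2.2.2.2.2 (D.φ (P ++ Q)) + nu (P ++ Q)) ∧
      (∀ Y : List α, good Y.length → Clean D Y.length →
        D.A (D.m + 1) + D.M * D.Γ ^ D.m ≤ Y.length →
        ∀ v, ∃ P Q, ∃ (i : Fin D.m) (g : S) (wl : W) (h : S) (wr : W), P ++ Q = Y ∧
          D.LL i g wl h wr v P ∧ D.RR i g wl h wr v Q) := by
  classical
  have hn3 : ∀ T, ∃ v0 r0 : V, ¬ good T → ∀ o o' c c', o + o' = T → D.LN o c → D.RN o' c' →
    c.2.2.2.2.2 = v0 ∧ D.bb c'.1 c'.2.1 c'.2.2.1 c'.2.2.2.1 c'.2.2.2.2.1 c'.2.2.2.2.2 = r0 := by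
    intro T
    by_cases h : good T
    · exact ⟨0, 0, fun h' => absurd h h'⟩
    · obtain ⟨v0, r0, h0⟩ := hN.n3 T h
      exact ⟨v0, r0, fun _ => h0⟩
  choose v0 r0 h0 using hn3
  refine ⟨fun Y => if good Y.length then D.F (D.φ Y) (D.ww Y) else
    r0 Y.length - D.act (v0 Y.length) (D.φ Y), ?_, ?_⟩
  · rintro P Q ⟨i, g, wl, h, wr, v⟩ ⟨i', g', wl', h', wr', v'⟩ hL hR
    simp only at hL hR ⊢
    have hlen : P.length + Q.length = (P ++ Q).length := List.length_append.symm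
    by_cases hg : good (P ++ Q).length
    · rw [if_pos hg]
      have hcc := hN.n1 _ hg _ _ _ _ hlen hL.2.2.2.1 hR.2.2.1
      simp only [Prod.mk.injEq] at hcc
      obtain ⟨rfl, rfl, rfl, rfl, rfl, rfl⟩ := hcc
      obtain ⟨hok, ha1, ha2, -, hg1, hwl1⟩ := hL
      obtain ⟨-, hdv, -, hall⟩ := hR
      obtain ⟨hh1, hwr1⟩ := hall P.length ha1 ha2
      obtain ⟨e1, e2, e3, e4, e5, e6⟩ := read hφ hΓ i.2 ha1 ha2 hdv
      have := hok (D.zz (P ++ Q) i)
      rw [e5, e6, e1, e2, e3, e4, ← hg1, ← hh1, ← hwl1, ← hwr1, ← this, add_comm]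
    · rw [if_neg hg]
      obtain ⟨q1, q2⟩ := h0 _ hg _ _ _ _ hlen hL.2.2.2.1 hR.2.2.1
      simp only at q1 q2
      rw [q2, ← q1]
      abel
  · intro Y hg hcl hlen v
    obtain ⟨i, him, hi⟩ := hF (D.φ Y) (D.ww Y) v
    set g := D.φ (Y.take (D.beta Y.length i)) with hgdef
    set wl := ∑ k ∈ range i, D.e k (D.zz Y k) with hwldef
    set h := D.φ (Y.drop (D.beta Y.length (i + 1))) with hhdef
    set wr := ∑ k ∈ Ico (i + 1) D.m, D.e k (D.zz Y k) with hwrdef
    have hAi : D.A i + D.Γ ^ i + D.M * D.Γ ^ i ≤ D.A (D.m + 1) := by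
      rw [← D.A_succ]; exact D.A_mono (by omega)
    have hs : (D.A i + D.Γ ^ i) + D.M * D.Γ ^ i ≤ Y.length := by omega
    obtain ⟨o, ho1, ho2, ho3, ho4, ho5⟩ :=
      hN.place hΓ hcop hg (⟨i, him⟩, g, wl, h, wr, v) i (D.A i + D.Γ ^ i) hs
    have hoY : o ≤ Y.length := by omega
    set P := Y.take o with hP
    set Q := Y.drop o with hQ
    have hPQ : P ++ Q = Y := List.take_append_drop _ _
    have hPl : P.length = o := by rw [hP, List.length_take]; omega
    have hQl : Q.length = Y.length - o := by rw [hQ, List.length_drop]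
    have hdv : D.Γ ^ i ∣ Q.length := by rw [hQl]; exact ho3
    have h1 : D.A i + D.Γ ^ i ≤ P.length := by rw [hPl]; exact ho1
    have h2 : P.length < D.A i + D.Γ ^ i + D.M * D.Γ ^ i := by rw [hPl]; exact ho2
    obtain ⟨e1, e2, e3, e4, e5, e6⟩ := read hφ hΓ him h1 h2 hdv
    rw [hPQ] at e1 e2 e3 e4 e5 e6
    rw [← hgdef, ← hhdef] at e5
    rw [← hwldef, ← hwrdef] at e6
    have hall : ∀ z, D.F (g * z * h) (wl + D.e i z + wr) + D.act v (g * z * h) =
        D.F (D.φ Y) (D.ww Y) + D.act v (D.φ Y) := by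
      intro z
      have := hi g (D.zz Y i) h e5.symm z
      rw [← this, e6]
      congr 2
      abel
    have hok : D.ok i g wl h wr v := by
      intro z
      rw [hall z]
      exact (hall 1).symm
    -- the right data do not depend on the candidate
    have hmono : ∀ j, i < j → j ≤ D.m → ∀ o'', D.A i + D.Γ ^ i ≤ o'' →
        o'' < D.A i + D.Γ ^ i + D.M * D.Γ ^ i →
        D.beta (o'' + Q.length) j - o'' = D.beta (o + Q.length) j - o := by
      intro j hij hjm o'' ho1'' ho2''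
      have hw : D.M * D.Γ ^ i ≤ D.M * D.Γ ^ (j - 1) :=
        Nat.mul_le_mul_left _ (Nat.pow_le_pow_right hΓ (by omega))
      obtain ⟨c1, c2⟩ := hcl j (by omega) hjm
      have hT : o + Q.length = Y.length := by rw [hQl]; omega
      have hpm : D.M * D.Γ ^ (j - 1) ≤ D.M * D.Γ ^ D.m :=
        Nat.mul_le_mul_left _ (Nat.pow_le_pow_right hΓ (by omega))
      have hAj : D.A j ≤ D.A (D.m + 1) := D.A_mono (by omega)
      have hAij : D.A i + D.Γ ^ i + D.M * D.Γ ^ i ≤ D.A j := by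
        rw [← D.A_succ]; exact D.A_mono (by omega)
      have b1 := D.beta_ge (o + Q.length) j
      have b2 := D.beta_ge (o'' + Q.length) j
      rcases Nat.le_total o o'' with hle | hle
      · have := beta_shift (D := D) hΓ (T := Y.length) (j := j) (w := D.M * D.Γ ^ (j - 1))
          (d := 0) (d' := o'' - o) (by omega) c1 c2 (by omega) (Or.inl (by omega))
        rw [show Y.length + (o'' - o) - 0 = o'' + Q.length by omega] at this
        rw [hT] at b1 ⊢
        omega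
      · have := beta_shift (D := D) hΓ (T := Y.length) (j := j) (w := D.M * D.Γ ^ (j - 1))
          (d := o - o'') (d' := 0) (by omega) c1 c2 (by omega) (Or.inr rfl)
        rw [show Y.length + 0 - (o - o'') = o'' + Q.length by omega] at this
        rw [hT] at b1 ⊢
        omega
    refine ⟨P, Q, ⟨i, him⟩, g, wl, h, wr, hPQ, ⟨hok, h1, h2, by rw [hPl]; exact ho4, ?_, ?_⟩,
      ⟨hok, hdv, by rw [hQl]; exact ho5, ?_⟩⟩
    · exact e1
    · exact e2
    · intro o'' ho1'' ho2''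
      constructor
      · rw [hhdef, e3, hPl]
        unfold GDat.rh
        rw [hmono (i + 1) (by omega) him o'' ho1'' ho2'']
      · rw [hwrdef, e4, hPl]
        unfold GDat.rw
        refine Finset.sum_congr rfl fun k hk => ?_
        obtain ⟨hk1, hk2⟩ := Finset.mem_Ico.1 hk
        have hk1' : i < k := hk1
        rw [hmono k hk1' hk2.le o'' ho1'' ho2'',
          hmono (k + 1) (Nat.lt_succ_of_lt hk1') hk2 o'' ho1'' ho2'']

end Crest.Agent.R320.Grid_409
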