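import Crest.Agent.R320.Names_570
import Crest.Agent.R320.Noise_513

/-! Row 320, scheme 1 on ALL words (helper693's b-anchored nested grids). -/

set_option autoImplicit false

namespace Crest.Agent.R320.Grid_43

open Finset

/-- lower ends of the levels -/
def Am (Γ M : ℕ) : ℕ → ℕ
  | 0 => 0
  | (l + 1) => Am Γ M l + (M + 1) * Γ ^ l

/-- start of the window of level `i` -/
def Aa (Γ M i : ℕ) : ℕ := Am Γ M i + Γ ^ i

/-- boundary number `l` of a zone of length `T` -/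
def bet (Γ M T l : ℕ) : ℕ := Am Γ M l + (T - Am Γ M l) % Γ ^ l

theorem Am_succ (Γ M l : ℕ) : Am Γ M (l + 1) = Aa Γ M l + M * Γ ^ l := by
  simp only [Am, Aa]; ring

theorem Am_mono (Γ M : ℕ) : Monotone (Am Γ M) :=
  monotone_nat_of_le_succ fun l => by rw [Am_succ, Aa]; omega

theorem bet_lt {Γ M T l : ℕ} (hΓ : 0 < Γ) : bet Γ M T l < Aa Γ M l := by
  have := Nat.mod_lt (T - Am Γ M l) (pow_pos hΓ l)
  simp only [bet, Aa]; omega

theorem le_bet (Γ M T l : ℕ) : Am Γ M l ≤ bet Γ M T l := Nat.le_add_right _ _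

theorem bet_mono {Γ M : ℕ} (hΓ : 0 < Γ) (T l : ℕ) : bet Γ M T l ≤ bet Γ M T (l + 1) := by
  have h1 := bet_lt (M := M) (T := T) (l := l) hΓ
  have h2 := le_bet Γ M T (l + 1)
  rw [Am_succ] at h2
  omega

theorem bet_left {Γ M o T l : ℕ} (h1 : Am Γ M l ≤ o) (h2 : o ≤ T) (h3 : Γ ^ l ∣ T - o) :
    bet Γ M o l = bet Γ M T l := by
  obtain ⟨k, hk⟩ := h3
  have : T - Am Γ M l = (o - Am Γ M l) + Γ ^ l * k := by omega
  simp only [bet]
  rw [this, Nat.add_mul_mod_self_left]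

/-- position of boundary `l` inside the right word, when the cut is a cut of level `i` -/
def posR (Γ M i q l : ℕ) : ℕ := q - Γ ^ l * ((q + Aa Γ M i - Am Γ M l) / Γ ^ l)

theorem pos_right {Γ M i o q l : ℕ} (hil : i < l) (ho1 : Aa Γ M i ≤ o)
    (ho2 : o < Aa Γ M i + M * Γ ^ i) (hq : Am Γ M l ≤ q)
    (hfl : (q + Aa Γ M i - Am Γ M l + M * Γ ^ i) / Γ ^ l = (q + Aa Γ M i - Am Γ M l) / Γ ^ l) :
    bet Γ M (o + q) l = o + posR Γ M i q l := by
  have hA : Aa Γ M i + M * Γ ^ i ≤ Am Γ M l := by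
    rw [← Am_succ]; exact Am_mono Γ M hil
  set x := q + Aa Γ M i - Am Γ M l with hx
  have h1 : o + q - Am Γ M l = x + (o - Aa Γ M i) := by omega
  have h2 : (x + (o - Aa Γ M i)) / Γ ^ l = x / Γ ^ l := by
    apply le_antisymm
    · rw [← hfl]; exact Nat.div_le_div_right (by omega)
    · exact Nat.div_le_div_right (by omega)
  have h3 := Nat.mod_add_div (x + (o - Aa Γ M i)) (Γ ^ l)
  rw [h2] at h3
  have h4 : Γ ^ l * (x / Γ ^ l) ≤ x := Nat.mul_div_le _ _
  simp only [bet, posR]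
  rw [h1, ← hx]
  have h5 : x ≤ q := by omega
  omega

section words

variable {α : Type*}

def seg (Y : List α) (a b : ℕ) : List α := (Y.drop a).take (b - a)

theorem seg_left {P Q : List α} {a b : ℕ} (hab : a ≤ b) (hb : b ≤ P.length) :
    seg (P ++ Q) a b = seg P a b := by
  simp only [seg]
  rw [List.drop_append_of_le_length (by omega), List.take_append_of_le_length]
  rw [List.length_drop]; omega

theorem seg_right {P Q : List α} {a b : ℕ} :
    seg (P ++ Q) (P.length + a) (P.length + b) = seg Q a b := by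
  simp only [seg]
  rw [List.drop_append, List.drop_eq_nil_of_le (by omega), List.nil_append]
  congr 1
  · omega
  · congr 1; omega

theorem drop_right {P Q : List α} {n : ℕ} : (P ++ Q).drop (P.length + n) = Q.drop n := by
  rw [List.drop_append, List.drop_eq_nil_of_le (by omega), List.nil_append]
  congr 1; omega

theorem seg_split {Y : List α} {a b : ℕ} (hab : a ≤ b) :
    Y.take a ++ (seg Y a b ++ Y.drop b) = Y := by
  simp only [seg]
  have h1 : (Y.drop a).take (b - a) ++ Y.drop b = Y.drop a := by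
    have : Y.drop b = (Y.drop a).drop (b - a) := by
      rw [List.drop_drop]; congr 1; omega
    rw [this, List.take_append_drop]
  rw [h1, List.take_append_drop]

end words

section gadget

variable {α S V W : Type} [Monoid S] [AddCommGroup V] [AddCommGroup W]
  (Γ M m : ℕ) (φ : List α → S) (act : V → S → V) (e : ℕ → S → W) (F : S → W → V)

/-- parts of a zone seen at level `i` -/
def gg (u : List α) (i : ℕ) : S := φ (u.take (bet Γ M u.length i))
def hh (u : List α) (i : ℕ) : S := φ (u.drop (bet Γ M u.length (i + 1)))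
def zz (u : List α) (i : ℕ) : S :=
  φ (seg u (bet Γ M u.length i) (bet Γ M u.length (i + 1)))
def wa (u : List α) (i : ℕ) : W := ∑ l ∈ range i, e l (zz Γ M φ u l)
def wb (u : List α) (i : ℕ) : W := ∑ l ∈ Ico (i + 1) m, e l (zz Γ M φ u l)
/-- total weight of a zone -/
def ww (u : List α) : W := ∑ l ∈ range m, e l (zz Γ M φ u l)

/-- right reading -/
def wr (i : ℕ) (Q : List α) : W :=
  ∑ l ∈ Ico (i + 1) m, e l (φ (seg Q (posR Γ M i Q.length l) (posR Γ M i Q.length (l + 1))))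

/-- geometry of a junction of level `i` -/
structure Junc (i o q : ℕ) : Prop where
  him : i < m
  lo : Aa Γ M i ≤ o
  hi : o < Aa Γ M i + M * Γ ^ i
  dv : Γ ^ i ∣ q
  big : Am Γ M m ≤ q
  fl : ∀ l, i < l → l ≤ m →
    (q + Aa Γ M i - Am Γ M l + M * Γ ^ i) / Γ ^ l = (q + Aa Γ M i - Am Γ M l) / Γ ^ l

variable {Γ M m φ e}

theorem total_phi (hΓ : 0 < Γ) (hφ : ∀ u v, φ (u ++ v) = φ u * φ v) (u : List α) (i : ℕ) :
    φ u = gg Γ M φ u i * zz Γ M φ u i * hh Γ M φ u i := by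
  have h1 := seg_split (Y := u) (bet_mono (M := M) hΓ u.length i)
  conv_lhs => rw [← h1]
  rw [hφ, hφ, ← mul_assoc]
  rfl

theorem total_w {i : ℕ} (him : i < m) (u : List α) :
    ww Γ M m φ e u = wa Γ M φ e u i + e i (zz Γ M φ u i) + wb Γ M m φ e u i := by
  simp only [ww, wa, wb]
  rw [range_eq_Ico, ← sum_Ico_consecutive _ (Nat.zero_le i) him.le,
    sum_eq_sum_Ico_succ_bot him, ← range_eq_Ico, ← add_assoc]

theorem read (hΓ : 0 < Γ) {i : ℕ} {P Q : List α} (hJ : Junc Γ M m i P.length Q.length) :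
    φ (P.take (bet Γ M P.length i)) = gg Γ M φ (P ++ Q) i ∧
    wa Γ M φ e P i = wa Γ M φ e (P ++ Q) i ∧
    φ (Q.drop (posR Γ M i Q.length (i + 1))) = hh Γ M φ (P ++ Q) i ∧
    wr Γ M m φ e i Q = wb Γ M m φ e (P ++ Q) i := by
  obtain ⟨him, lo, hi, dv, big, fl⟩ := hJ
  have hT : (P ++ Q).length = P.length + Q.length := List.length_append
  simp only [gg, wa, hh, wb, wr, zz, hT]
  set o := P.length with ho
  set q := Q.length with hq
  have hAm : ∀ l ≤ i, Am Γ M l ≤ o := fun l hl =>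
    (Am_mono Γ M hl).trans ((Nat.le_add_right _ _).trans lo)
  have hL : ∀ l ≤ i, bet Γ M o l = bet Γ M (o + q) l := fun l hl =>
    bet_left (hAm l hl) (by omega) ((pow_dvd_pow Γ hl).trans (by simpa using dv))
  have hR : ∀ l, i < l → l ≤ m → bet Γ M (o + q) l = o + posR Γ M i q l := fun l h1 h2 =>
    pos_right h1 lo hi ((Am_mono Γ M h2).trans big) (fl l h1 h2)
  have hmono := bet_mono (M := M) hΓ (o + q)
  have hLo : bet Γ M (o + q) i ≤ o := by
    have := bet_lt (M := M) (T := o + q) (l := i) hΓ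
    omega
  refine ⟨?_, ?_, ?_, ?_⟩
  · rw [hL i le_rfl, List.take_append_of_le_length hLo]
  · refine sum_congr rfl fun l hl => ?_
    have hl' : l < i := mem_range.1 hl
    have h4 : bet Γ M (o + q) (l + 1) ≤ o := by
      rw [← hL (l + 1) hl']
      have := bet_lt (M := M) (T := o) (l := l + 1) hΓ
      have h5 : Aa Γ M (l + 1) ≤ Aa Γ M i := by
        simp only [Aa]
        exact Nat.add_le_add (Am_mono Γ M hl') (Nat.pow_le_pow_right hΓ hl')
      omega
    rw [seg_left (hmono l) h4, hL l hl'.le, hL (l + 1) hl']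
  · rw [hR (i + 1) (Nat.lt_succ_self i) him, ho, drop_right]
  · refine sum_congr rfl fun l hl => ?_
    obtain ⟨h4, h5⟩ := mem_Ico.1 hl
    rw [hR l h4 h5.le, hR (l + 1) (by omega) h5, ho, seg_right]

end gadget

/-- names: level, left product, left weight, right product, right weight, token -/
abbrev Ctx (m : ℕ) (S W V : Type) := Fin m × S × W × S × W × V

section labels

variable {α S V W : Type} [Monoid S] [AddCommGroup V] [AddCommGroup W]
  (m : ℕ) (act : V → S → V) (e : ℕ → S → W) (F : S → W → V)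

def Val (c : Ctx m S W V) : V :=
  F (c.2.1 * 1 * c.2.2.2.1) (c.2.2.1 + e c.1 1 + c.2.2.2.2.1) +
    act c.2.2.2.2.2 (c.2.1 * 1 * c.2.2.2.1)

def Used (c : Ctx m S W V) : Prop := ∀ z : S,
  F (c.2.1 * z * c.2.2.2.1) (c.2.2.1 + e c.1 z + c.2.2.2.2.1) +
    act c.2.2.2.2.2 (c.2.1 * z * c.2.2.2.1) = Val m act e F c

variable (Γ M : ℕ) (φ : List α → S) (nmL nmR : ℕ → Option (Ctx m S W V))

/-- left label -/
def LL (P : List α) (v : V) : Prop := ∃ c : Ctx m S W V, nmL P.length = some c ∧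
  c.2.2.2.2.2 = v ∧ Used m act e F c ∧ Aa Γ M c.1 ≤ P.length ∧
  P.length < Aa Γ M c.1 + M * Γ ^ (c.1 : ℕ) ∧
  φ (P.take (bet Γ M P.length c.1)) = c.2.1 ∧ wa Γ M φ e P c.1 = c.2.2.1

/-- right label -/
def RR (Q : List α) (r : V) : Prop := ∃ c : Ctx m S W V, nmR Q.length = some c ∧
  Val m act e F c = r ∧ Used m act e F c ∧ Γ ^ (c.1 : ℕ) ∣ Q.length ∧ Am Γ M m ≤ Q.length ∧
  (∀ l, (c.1 : ℕ) < l → l ≤ m →
    (Q.length + Aa Γ M c.1 - Am Γ M l + M * Γ ^ (c.1 : ℕ)) / Γ ^ l =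
      (Q.length + Aa Γ M c.1 - Am Γ M l) / Γ ^ l) ∧
  φ (Q.drop (posR Γ M c.1 Q.length (c.1 + 1))) = c.2.2.2.1 ∧
  wr Γ M m φ e c.1 Q = c.2.2.2.2.1

open Classical in
/-- the noise of a zone -/
noncomputable def nu (Ms : Finset ℕ) (u : List α) : V :=
  if ∀ k ∈ Ms, ¬ k ∣ u.length then F (φ u) (ww Γ M m φ e u)
  else if h : ∃ x : (ℕ × ℕ) × (Ctx m S W V × Ctx m S W V), x.1.1 + x.1.2 = u.length ∧
      nmL x.1.1 = some x.2.1 ∧ nmR x.1.2 = some x.2.2 then
    Val m act e F h.choose.2.2 - act h.choose.2.1.2.2.2.2.2 (φ u)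
  else 0

end labels

theorem periodic_modEq {β : Type*} {f : ℕ → β} {M : ℕ} (h : ∀ t, f (t + M) = f t) {a b : ℕ}
    (hab : a ≡ b [MOD M]) : f a = f b := by
  have h' : Function.Periodic f M := h
  rw [← h'.map_mod_nat a, ← h'.map_mod_nat b, hab]

/-- **693's gadget**: scheme 1 on all words. -/
theorem grid (S V : Type) [Monoid S] [Finite S] [AddCommGroup V] [Finite V] (act : V → S → V) :
    ∃ m r : ℕ, ∀ B : ℕ, ∃ Ms : Finset ℕ, Ms.card ≤ r ∧ (∀ k ∈ Ms, k.Prime ∧ B < k) ∧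
      ∀ Γ : ℕ, 0 < Γ → Nat.Coprime (∏ k ∈ Ms, k) Γ →
      ∃ cL cR : ℕ → Prop, ∀ (α : Type) (φ : List α → S), (∀ u v, φ (u ++ v) = φ u * φ v) →
      ∃ (L R : List α → V → Prop) (ν : List α → V),
        (∀ P v, L P v → P.length < Am Γ (∏ k ∈ Ms, k) m) ∧
        (∀ P v v', L P v → L P v' → v = v') ∧
        (∀ Q r, R Q r → Am Γ (∏ k ∈ Ms, k) m ≤ Q.length) ∧
        (∀ Q r r', R Q r → R Q r' → r = r') ∧
        (∀ P Q v r, L P v → R Q r → r = act v (φ (P ++ Q)) + ν (P ++ Q)) ∧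
        (∀ u, 2 * Am Γ (∏ k ∈ Ms, k) m ≤ u.length → (∀ k ∈ Ms, ¬ k ∣ u.length) →
          (∀ l, 1 ≤ l → l ≤ m →
            (∏ k ∈ Ms, k) * Γ ^ (l - 1) ≤
              (u.length - Am Γ (∏ k ∈ Ms, k) l) % Γ ^ l ∧
            (u.length - Am Γ (∏ k ∈ Ms, k) l) % Γ ^ l + (∏ k ∈ Ms, k) * Γ ^ (l - 1) < Γ ^ l) →
          ∀ v, ∃ P Q r, P ++ Q = u ∧ L P v ∧ R Q r) := by
  classical
  obtain ⟨W, iW, fW, m, e0, F, hF⟩ := Noise513.explicit_noise S V act
  let e : ℕ → S → W := fun l z => if h : l < m then e0 ⟨l, h⟩ z else 0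
  have he : ∀ i : Fin m, ∀ z, e i z = e0 i z := fun i z => by simp [e]
  haveI : Finite W := Fintype.finite fW
  obtain ⟨r, hr⟩ := Names_570.exists_names (N := Ctx m S W V) (C := V × V)
    (fun c => (c.2.2.2.2.2, Val m act e F c))
  refine ⟨m, r, fun B => ?_⟩
  obtain ⟨Ms, nmL, nmR, h1, h2, h3, h4, h5, h6, h7⟩ := hr B
  refine ⟨Ms, h1, h2, fun Γ hΓ hco => ⟨fun _ => True, fun _ => True, fun α φ hφ => ?_⟩⟩
  set M := ∏ k ∈ Ms, k with hM
  have hMpos : 0 < M := prod_pos fun k hk => (h2 k hk).1.pos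
  refine ⟨LL m act e F Γ M φ nmL, RR m act e F Γ M φ nmR,
    nu m act e F Γ M φ nmL nmR Ms, ?_, ?_, ?_, ?_, ?_, ?_⟩
  · rintro P v ⟨c, -, -, -, -, h, -, -⟩
    refine h.trans_le ?_
    rw [← Am_succ]
    exact Am_mono Γ M c.1.2
  · rintro P v v' ⟨c, hc, rfl, -⟩ ⟨c', hc', rfl, -⟩
    rw [hc] at hc'
    rw [Option.some.inj hc']
  · rintro Q r ⟨c, -, -, -, -, h, -⟩
    exact h
  · rintro Q r r' ⟨c, hc, rfl, -⟩ ⟨c', hc', rfl, -⟩
    rw [hc] at hc'
    rw [Option.some.inj hc']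
  · -- soundness
    rintro P Q v r ⟨c, hc, hv, hU, hlo, hhi, hg, hwl⟩ ⟨c', hc', hr', hU', hdv, hbig, hfl, hh', hwr⟩
    have hlen : (P ++ Q).length = P.length + Q.length := List.length_append
    by_cases hgood : ∀ k ∈ Ms, ¬ k ∣ (P ++ Q).length
    · have hcc : c = c' := h5 P.length Q.length c c' (by rwa [hlen] at hgood) hc hc'
      subst hcc
      have hJ : Junc Γ M m c.1 P.length Q.length := ⟨c.1.2, hlo, hhi, hdv, hbig, hfl⟩
      obtain ⟨e1, e2, e3, e4⟩ := read (φ := φ) (e := e) hΓ hJ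
      have e5 := total_phi (M := M) hΓ hφ (P ++ Q) c.1
      have e6 := total_w (Γ := Γ) (M := M) (φ := φ) (e := e) c.1.2 (P ++ Q)
      rw [← e1, hg, ← e3, hh'] at e5
      rw [← e2, hwl, ← e4, hwr] at e6
      rw [nu, if_pos hgood, ← hr', ← hU (zz Γ M φ (P ++ Q) c.1), e6, ← e5, hv, add_comm]
    · have hex : ∃ x : (ℕ × ℕ) × (Ctx m S W V × Ctx m S W V),
          x.1.1 + x.1.2 = (P ++ Q).length ∧ nmL x.1.1 = some x.2.1 ∧ nmR x.1.2 = some x.2.2 :=
        ⟨((P.length, Q.length), (c, c')), hlen.symm, hc, hc'⟩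
      obtain ⟨s1, s2, s3⟩ := hex.choose_spec
      have hbad : ∃ k ∈ Ms, k ∣ P.length + Q.length := by
        push Not at hgood
        rwa [hlen] at hgood
      have hcol : c.2.2.2.2.2 = hex.choose.2.1.2.2.2.2.2 ∧
          Val m act e F c' = Val m act e F hex.choose.2.2 := by
        rcases h7 _ _ _ _ _ _ _ _ (hlen.symm.trans s1.symm) hbad hc hc' s2 s3 with
          ⟨a, b⟩ | ⟨a, b, d⟩
        · rw [← a, ← b]; exact ⟨rfl, rfl⟩
        · have d1 := congrArg Prod.fst d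
          have d2 := congrArg Prod.snd d
          rw [← a, ← b]
          exact ⟨d1, d2.symm⟩
      rw [nu, if_neg hgood, dif_pos hex, ← hr', ← hcol.1, hcol.2, hv]
      abel
  · -- completeness
    intro u hu hgood hthin v
    obtain ⟨i, hi⟩ := hF (φ u) (ww Γ M m φ e u) v
    have e5 := total_phi (M := M) hΓ hφ u (i : ℕ)
    have e6 := total_w (Γ := Γ) (M := M) (φ := φ) (e := e) i.2 u
    set g := gg Γ M φ u i
    set x := zz Γ M φ u i
    set h := hh Γ M φ u i
    set a := wa Γ M φ e u i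
    set b := wb Γ M m φ e u i
    let c : Ctx m S W V := (i, g, a, h, b, v)
    have hz : ∀ z : S, F (g * z * h) (a + e i z + b) + act v (g * z * h) =
        F (φ u) (ww Γ M m φ e u) + act v (φ u) := by
      intro z
      have h8 := hi g x h e5.symm z
      rw [← he, ← he] at h8
      have h9 : ww Γ M m φ e u - e i x + e i z = a + e i z + b := by
        rw [e6]; abel
      rwa [h9] at h8
    have hval : Val m act e F c = F (φ u) (ww Γ M m φ e u) + act v (φ u) := hz 1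
    have hused : Used m act e F c := fun z => (hz z).trans hval.symm
    have hAm0 : Am Γ M (i + 1) ≤ Am Γ M m := Am_mono Γ M i.2
    have hAs := Am_succ Γ M i
    have hpg : 0 < Γ ^ (i : ℕ) := pow_pos hΓ _
    have hMG : M ≤ M * Γ ^ (i : ℕ) := Nat.le_mul_of_pos_right _ hpg
    obtain ⟨t, ht1, ht2, ht3, ht4, ht5⟩ := h6 u.length c 0 hgood (by omega)
    obtain ⟨k, hk1, hk2⟩ := Nat.chineseRemainder (hco.pow_right (i : ℕ)) t u.length
    have hMGpos : 0 < M * Γ ^ (i : ℕ) := Nat.mul_pos hMpos hpg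
    have hk' : Aa Γ M i ≤ k + Aa Γ M i * (M * Γ ^ (i : ℕ)) :=
      (Nat.le_mul_of_pos_right _ hMGpos).trans (Nat.le_add_left _ _)
    set o := Aa Γ M i + (k + Aa Γ M i * (M * Γ ^ (i : ℕ)) - Aa Γ M i) % (M * Γ ^ (i : ℕ)) with ho
    have homod : o ≡ k [MOD (M * Γ ^ (i : ℕ))] := by
      have h10 : o ≡ Aa Γ M i + (k + Aa Γ M i * (M * Γ ^ (i : ℕ)) - Aa Γ M i)
          [MOD (M * Γ ^ (i : ℕ))] := (Nat.ModEq.refl _).add (Nat.mod_modEq _ _)
      rw [Nat.add_sub_of_le hk'] at h10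
      exact h10.trans (by simp [Nat.ModEq])
    have ho1 : Aa Γ M i ≤ o := Nat.le_add_right _ _
    have ho2 : o < Aa Γ M i + M * Γ ^ (i : ℕ) := by
      have := Nat.mod_lt (k + Aa Γ M i * (M * Γ ^ (i : ℕ)) - Aa Γ M i) hMGpos
      omega
    have hoT : o ≤ u.length := by omega
    have hoM : o ≡ t [MOD M] := (homod.of_dvd (Dvd.intro _ rfl)).trans hk1
    have hoG : o ≡ u.length [MOD Γ ^ (i : ℕ)] := (homod.of_dvd (Dvd.intro_left _ rfl)).trans hk2
    have hnL : nmL o = some c := (periodic_modEq h3 hoM).trans ht4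
    have hnR : nmR (u.length - o) = some c := by
      refine (periodic_modEq h4 ?_).trans ht5
      have h11 : u.length - o + o ≡ u.length - t + o [MOD M] := by
        rw [Nat.sub_add_cancel hoT]
        have h12 : u.length - t + t ≡ u.length - t + o [MOD M] := (Nat.ModEq.refl _).add hoM.symm
        rwa [Nat.sub_add_cancel ht3] at h12
      exact Nat.ModEq.add_right_cancel' _ h11
    have hlP : (u.take o).length = o := by rw [List.length_take]; omega
    have hlQ : (u.drop o).length = u.length - o := List.length_drop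
    have hbig : Am Γ M m ≤ u.length - o := by omega
    have hdv : Γ ^ (i : ℕ) ∣ u.length - o := (Nat.modEq_iff_dvd' hoT).1 hoG
    have hfl : ∀ l, (i : ℕ) < l → l ≤ m →
        (u.length - o + Aa Γ M i - Am Γ M l + M * Γ ^ (i : ℕ)) / Γ ^ l =
          (u.length - o + Aa Γ M i - Am Γ M l) / Γ ^ l := by
      intro l hl hlm
      obtain ⟨q1, q2⟩ := hthin l (by omega) hlm
      have hAl : Am Γ M l ≤ Am Γ M m := Am_mono Γ M hlm
      have hAl2 : Am Γ M (i + 1) ≤ Am Γ M l := Am_mono Γ M hl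
      have hpow : M * Γ ^ (i : ℕ) ≤ M * Γ ^ (l - 1) :=
        Nat.mul_le_mul_left _ (Nat.pow_le_pow_right hΓ (by omega))
      have hda := Nat.mod_add_div (u.length - Am Γ M l) (Γ ^ l)
      set y := (u.length - Am Γ M l) / Γ ^ l
      set ρ := (u.length - Am Γ M l) % Γ ^ l
      have hxe : u.length - o + Aa Γ M i - Am Γ M l = (ρ - (o - Aa Γ M i)) + Γ ^ l * y := by
        omega
      have hpl : 0 < Γ ^ l := pow_pos hΓ l
      rw [hxe, show ρ - (o - Aa Γ M i) + Γ ^ l * y + M * Γ ^ (i : ℕ) =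
        (ρ - (o - Aa Γ M i) + M * Γ ^ (i : ℕ)) + Γ ^ l * y by ring,
        Nat.add_mul_div_left _ _ hpl, Nat.add_mul_div_left _ _ hpl,
        Nat.div_eq_of_lt (by omega), Nat.div_eq_of_lt (by omega)]
    have hJ : Junc Γ M m i (u.take o).length (u.drop o).length := by
      rw [hlP, hlQ]
      exact ⟨i.2, ho1, ho2, hdv, hbig, hfl⟩
    obtain ⟨f1, f2, f3, f4⟩ := read (φ := φ) (e := e) hΓ hJ
    rw [List.take_append_drop] at f1 f2 f3 f4
    refine ⟨u.take o, u.drop o, Val m act e F c, List.take_append_drop _ _,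
      ⟨c, by rw [hlP]; exact hnL, rfl, hused, by rw [hlP]; exact ho1, by rw [hlP]; exact ho2,
        f1, f2⟩,
      ⟨c, by rw [hlQ]; exact hnR, rfl, hused, by rw [hlQ]; exact hdv, by rw [hlQ]; exact hbig,
        by rw [hlQ]; exact hfl, f3, f4⟩⟩

end Crest.Agent.R320.Grid_43
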