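import Crest.Agent.R320.UG2_219

/-!
# Row 320: the grid gadget on words (helper450)
-/

set_option autoImplicit false

namespace Crest.Agent.R320.Grid450

/-- segment of a word -/
def seg {A : Type*} (u : List A) (a b : ℕ) : List A := (u.take b).drop a

lemma seg_append_left {A : Type*} (p q : List A) (a b : ℕ) (h : b ≤ p.length) :
    seg (p ++ q) a b = seg p a b := by
  unfold seg
  rw [List.take_append_of_le_length h]

lemma seg_append_right {A : Type*} (p q : List A) (a b : ℕ) (h : p.length ≤ a) (hb : p.length ≤ b) :
    seg (p ++ q) a b = seg q (a - p.length) (b - p.length) := by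
  unfold seg
  obtain ⟨b', rfl⟩ := Nat.exists_eq_add_of_le hb
  obtain ⟨a', rfl⟩ := Nat.exists_eq_add_of_le h
  rw [List.take_append, List.take_of_length_le (by omega), List.drop_append,
    List.drop_of_length_le (by omega)]
  simp

lemma drop_shift {A : Type*} (p q : List A) (k : ℕ) : (p ++ q).drop (p.length + k) = q.drop k := by
  rw [← List.drop_drop, List.drop_left]

lemma drop_split {A : Type*} (u : List A) (k N : ℕ) (hk : k ≤ N) (hN : N ≤ u.length) :
    u.drop k = (u.take N).drop k ++ u.drop N := by
  conv_lhs => rw [← List.take_append_drop N u]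
  rw [List.drop_append_of_le_length]
  rw [List.length_take]
  omega

lemma sub_mod {n n' e g : ℕ} (h1 : e ≤ n) (h2 : e ≤ n') (h : n % g = n' % g) :
    (n - e) % g = (n' - e) % g := by
  have : (n - e) + e ≡ (n' - e) + e [MOD g] := by
    rw [Nat.sub_add_cancel h1, Nat.sub_add_cancel h2]
    exact h
  exact Nat.ModEq.add_right_cancel' _ this

lemma seg_take {A : Type*} (u : List A) (a b N : ℕ) (h : b ≤ N) :
    seg (u.take N) a b = seg u a b := by
  unfold seg
  rw [List.take_take, min_eq_left h]

lemma take_seg {A : Type*} (u : List A) (a b : ℕ) (h : a ≤ b) :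
    u.take b = u.take a ++ seg u a b := by
  unfold seg
  conv_lhs => rw [← List.take_append_drop a (u.take b)]
  rw [List.take_take, min_eq_left h]

section

variable (G B : ℕ → ℕ)

/-- boundary `j` of a word of length `T` -/
def bet (T j : ℕ) : ℕ := B j + (T - B j) % G j

/-- offset of boundary `j` seen from a right word cut at level `i` -/
def ee (i j : ℕ) : ℕ := B j - (B i + G i)

/-- position of boundary `j` in the right word of length `n` cut at level `i` -/
def pos (n i j : ℕ) : ℕ := ee G B i j + (n - ee G B i j) % G j

end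

section

variable {A S : Type*} [Monoid S] (G B : ℕ → ℕ) (m : ℕ) (phi : List A → S)

def zs (u : List A) : List S :=
  (List.range m).map fun j => phi (seg u (bet G B u.length j) (bet G B u.length (j + 1)))

def rz (q : List A) (i : ℕ) : List S :=
  ((List.range m).drop (i + 1)).map fun j => phi (seg q (pos G B q.length i j) (pos G B q.length i (j + 1)))

end


structure GB (G B : ℕ → ℕ) (Pi : ℕ) : Prop where
  gpos : ∀ j, 0 < G j
  gdvd : ∀ j, G j ∣ G (j + 1)
  step : ∀ j, B (j + 1) = B j + G j + G j * Pi
  cop : ∀ j, (G j).Coprime Pi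
  hPi : 0 < Pi

namespace GB

variable {G B : ℕ → ℕ} {Pi : ℕ} (h : GB G B Pi)
include h

lemma dvd_le {i j : ℕ} (hij : i ≤ j) : G i ∣ G j := by
  induction j, hij using Nat.le_induction with
  | base => exact dvd_rfl
  | succ n _ ih => exact ih.trans (h.gdvd n)

lemma B_mono {i j : ℕ} (hij : i ≤ j) : B i ≤ B j := by
  induction j, hij using Nat.le_induction with
  | base => exact le_rfl
  | succ n _ ih => have := h.step n; omega

lemma B_lt {i j : ℕ} (hij : i < j) : B i + G i + G i * Pi ≤ B j := by
  have := h.B_mono (Nat.succ_le_of_lt hij)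
  rw [Nat.succ_eq_add_one, h.step i] at this
  exact this

lemma bet_ge (T j : ℕ) : B j ≤ bet G B T j := Nat.le_add_right _ _

lemma bet_lt (T j : ℕ) : bet G B T j < B j + G j :=
  Nat.add_lt_add_left (Nat.mod_lt _ (h.gpos j)) _

lemma bet_le_succ (T j : ℕ) : bet G B T j ≤ bet G B T (j + 1) := by
  have h1 := h.bet_lt T j
  have h2 := h.bet_ge T (j + 1)
  have h3 := h.step j
  omega

lemma bet_le {i j : ℕ} (T : ℕ) (hij : i ≤ j) : bet G B T i ≤ bet G B T j := by
  induction j, hij using Nat.le_induction with
  | base => exact le_rfl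
  | succ n _ ih => exact ih.trans (h.bet_le_succ T n)

lemma bet_left {o o' i j : ℕ} (hji : j ≤ i) (ho : B i ≤ o) (ho' : G i ∣ o') :
    bet G B (o + o') j = bet G B o j := by
  unfold bet
  congr 1
  obtain ⟨k, rfl⟩ := (h.dvd_le hji).trans ho'
  have := h.B_mono hji
  rw [show o + G j * k - B j = (o - B j) + G j * k by omega, Nat.add_mul_mod_self_left]

lemma bet_right {o o' i j : ℕ} (hij : i < j) (ho : B i + G i ≤ o) (ho2 : o < B (i + 1))
    (ho' : B j ≤ o') (hw : (o' - ee G B i j) % G j + G i * Pi ≤ G j) :
    bet G B (o + o') j = o + pos G B o' i j := by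
  have h1 := h.B_lt hij
  have h2 := h.step i
  unfold bet pos
  have he : ee G B i j = B j - (B i + G i) := rfl
  obtain ⟨d, rfl⟩ := Nat.exists_eq_add_of_le ho
  have h3 : B i + G i + d + o' - B j = (o' - ee G B i j) + d := by omega
  have hd : d < G i * Pi := by omega
  have h4 : d % G j = d := Nat.mod_eq_of_lt (by omega)
  rw [h3, Nat.add_mod_of_add_mod_lt (by omega), h4]
  omega

end GB

section words

variable {A S : Type*} [Monoid S] {G B : ℕ → ℕ} {Pi : ℕ} (h : GB G B Pi) (m : ℕ)
  {phi : List A → S} (hphi : ∀ u v, phi (u ++ v) = phi u * phi v)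
include h hphi

lemma prod_take (u : List A) (n : ℕ) :
    phi (u.take (bet G B u.length n)) = phi (u.take (bet G B u.length 0)) *
      (zs G B n phi u).prod := by
  induction n with
  | zero => simp [zs]
  | succ n ih =>
    rw [take_seg u _ _ (h.bet_le_succ u.length n), hphi, ih]
    unfold zs
    rw [List.range_succ, List.map_append, List.prod_append, mul_assoc]
    simp

lemma prod_all (u : List A) :
    phi u = phi (u.take (bet G B u.length 0)) * (zs G B m phi u).prod *
      phi (u.drop (bet G B u.length m)) := by
  rw [← prod_take h hphi, ← hphi, List.take_append_drop]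

omit hphi in
lemma zs_left (p q : List A) {i : ℕ} (him : i ≤ m) (ho : B i + G i ≤ p.length)
    (hq : G i ∣ q.length) :
    (zs G B m phi (p ++ q)).take i =
      (List.range i).map fun j => phi (seg p (bet G B p.length j) (bet G B p.length (j + 1))) := by
  unfold zs
  rw [← List.map_take, List.take_range, min_eq_left him]
  refine List.map_congr_left fun j hj => ?_
  have hj' : j < i := List.mem_range.1 hj
  rw [List.length_append, h.bet_left (i := i) hj'.le (by omega) hq,
    h.bet_left (i := i) (show j + 1 ≤ i from hj') (by omega) hq, seg_append_left]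
  have h1 := h.bet_lt p.length (j + 1)
  have h2 := h.B_mono (show j + 1 ≤ i from hj')
  have h3 : G (j + 1) ≤ G i := Nat.le_of_dvd (h.gpos i) (h.dvd_le hj')
  omega

omit hphi in
lemma zs_right (p q : List A) {i : ℕ} (ho : B i + G i ≤ p.length) (ho2 : p.length < B (i + 1))
    (hq : B m ≤ q.length)
    (hw : ∀ j, i < j → j ≤ m → (q.length - ee G B i j) % G j + G i * Pi ≤ G j) :
    (zs G B m phi (p ++ q)).drop (i + 1) = rz G B m phi q i := by
  unfold zs rz
  rw [← List.map_drop]
  refine List.map_congr_left fun j hj => ?_
  obtain ⟨k, hk, rfl⟩ := List.mem_iff_getElem.1 hj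
  rw [List.getElem_drop, List.getElem_range]
  have hk' : k < m - (i + 1) := by simpa using hk
  have e1 : bet G B (p.length + q.length) (i + 1 + k) = p.length + pos G B q.length i (i + 1 + k) :=
    h.bet_right (by omega) ho ho2 ((h.B_mono (by omega)).trans hq) (hw _ (by omega) (by omega))
  have e2 : bet G B (p.length + q.length) (i + 1 + k + 1) =
      p.length + pos G B q.length i (i + 1 + k + 1) :=
    h.bet_right (by omega) ho ho2 ((h.B_mono (by omega)).trans hq) (hw _ (by omega) (by omega))
  rw [List.length_append, e1, e2, seg_append_right _ _ _ _ (by omega) (by omega)]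
  simp

end words

section main

variable {A S V : Type*} [Monoid S] (G B : ℕ → ℕ) (Pi : ℕ) (m : ℕ) (phi : List A → S)

open Classical in
noncomputable def lamF (L : ℕ → S → List S → ℕ → Option V) (p : List A) : Option V :=
  if hi : ∃ i, i < m ∧ B i + G i ≤ p.length ∧ p.length < B (i + 1) then
    L hi.choose (phi (p.take (bet G B p.length 0)))
      ((List.range hi.choose).map fun j => phi (seg p (bet G B p.length j) (bet G B p.length (j + 1))))
      p.length
  else none

open Classical in
noncomputable def vwF (q : List A) (i : ℕ) : Option (List S × S) :=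
  if G i ∣ q.length ∧ ∀ j, i < j → j ≤ m → (q.length - ee G B i j) % G j + G i * Pi ≤ G j then
    some (rz G B m phi q i, phi (q.drop (pos G B q.length i m)))
  else none

open Classical in
noncomputable def rhoF (R : (ℕ → Option (List S × S)) → ℕ → Option V) (q : List A) : Option V :=
  if B m ≤ q.length then R (vwF G B Pi m phi q) q.length else none

def nuF (D : ℕ → S → List S → S → V) (u : List A) : V :=
  D (u.length % Pi + 2 * Pi) (phi (u.take (bet G B u.length 0))) (zs G B m phi u)
    (phi (u.drop (bet G B u.length m)))

end main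

lemma per_eq {β : Type*} {f : ℕ → β} {Pi : ℕ} (hf : ∀ t, f (t + Pi) = f t) {a b : ℕ}
    (hab : a % Pi = b % Pi) : f a = f b := by
  have key : ∀ k t, f (t + Pi * k) = f t := by
    intro k
    induction k with
    | zero => intro t; simp
    | succ k ih =>
      intro t
      rw [show t + Pi * (k + 1) = (t + Pi * k) + Pi by ring, hf, ih]
  rw [← Nat.mod_add_div a Pi, ← Nat.mod_add_div b Pi, key, key, hab]

/-- **the grid gadget on words.** -/
theorem grid (S V : Type*) [Monoid S] [Finite S] [AddCommGroup V] [Finite V]
    (act : V → S → V) :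
    ∃ (m r : ℕ), 0 < m ∧ ∀ Bd : ℕ, ∃ Ms : Finset ℕ, Ms.card ≤ r ∧
      (∀ p ∈ Ms, p.Prime ∧ Bd < p) ∧
      ∀ (G B : ℕ → ℕ), GB G B (∏ p ∈ Ms, p) → ∀ {A : Type*} (phi : List A → S),
      (∀ u v, phi (u ++ v) = phi u * phi v) →
      ∃ (lam rho : List A → Option V) (nu : List A → V),
        (∀ p v, lam p = some v → p.length < B m) ∧
        (∀ p q v b, lam p = some v → rho q = some b → b = act v (phi (p ++ q)) + nu (p ++ q)) ∧
        (∀ u, 2 * B m ≤ u.length → (∀ p ∈ Ms, ¬ p ∣ u.length) →
          (∀ j, j < m → G j * (∏ p ∈ Ms, p) ≤ (u.length - B (j + 1)) % G (j + 1) ∧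
            (u.length - B (j + 1)) % G (j + 1) + G j * (∏ p ∈ Ms, p) ≤ G (j + 1)) →
          ∀ v, ∃ p q, p ++ q = u ∧ lam p = some v ∧ (rho q).isSome) ∧
        (∀ q q', B m + G m ≤ q.length → B m + G m ≤ q'.length →
          q.take (B m + G m) = q'.take (B m + G m) →
          q.length % (G m * ∏ p ∈ Ms, p) = q'.length % (G m * ∏ p ∈ Ms, p) →
          phi (q.drop (B m + G m)) = phi (q'.drop (B m + G m)) →
          rho q = rho q' ∧ nu q = nu q') := by
  classical
  obtain ⟨m, r, hm, hr⟩ := UG219.ugadget2 S V act
  refine ⟨m, r, hm, fun Bd => ?_⟩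
  obtain ⟨Ms, L, R, D, hcard, hprime, hL, hR, hR2, hsound, hcomp⟩ := hr Bd
  refine ⟨Ms, hcard, hprime, fun G B h A phi hphi => ?_⟩
  set Pi := ∏ p ∈ Ms, p with hPi
  have hPpos : 0 < Pi := h.hPi
  -- uniqueness of the level
  have huniq : ∀ {i i' o : ℕ}, B i + G i ≤ o → o < B (i + 1) → B i' + G i' ≤ o → o < B (i' + 1) →
      i = i' := by
    intro i i' o a1 a2 a3 a4
    rcases lt_trichotomy i i' with hlt | heq | hlt
    · have := h.B_mono (show i + 1 ≤ i' from hlt)
      omega
    · exact heq
    · have := h.B_mono (show i' + 1 ≤ i from hlt)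
      omega
  refine ⟨lamF G B m phi L, rhoF G B Pi m phi R, nuF G B Pi m phi D, ?_, ?_, ?_, ?_⟩
  · intro p v hv
    unfold lamF at hv
    split_ifs at hv with hi
    obtain ⟨h1, h2, h3⟩ := hi.choose_spec
    have := h.B_mono (show hi.choose + 1 ≤ m from h1)
    omega
  · -- soundness
    intro p q v b hv hb
    unfold lamF at hv
    split_ifs at hv with hi
    obtain ⟨h1, h2, h3⟩ := hi.choose_spec
    set i := hi.choose with hidef
    unfold rhoF at hb
    split_ifs at hb with hq
    have hclock : ∃ t', p.length % Pi + t' = (p ++ q).length % Pi + 2 * Pi ∧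
        t' % Pi = q.length % Pi := by
      have a1 := Nat.mod_lt p.length hPpos
      refine ⟨(p ++ q).length % Pi + 2 * Pi - p.length % Pi, by omega, ?_⟩
      have a2 : (p ++ q).length = p.length + q.length := List.length_append
      rw [a2]
      have e1 : (p.length + q.length) % Pi + 2 * Pi - p.length % Pi + p.length % Pi
          = (p.length + q.length) % Pi + 2 * Pi := by omega
      have e2 : ((p.length + q.length) % Pi + 2 * Pi - p.length % Pi) + p.length
          ≡ q.length + p.length [MOD Pi] := by
        calc ((p.length + q.length) % Pi + 2 * Pi - p.length % Pi) + p.length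
            ≡ ((p.length + q.length) % Pi + 2 * Pi - p.length % Pi) + p.length % Pi [MOD Pi] :=
              Nat.ModEq.add_left _ (Nat.mod_modEq _ _).symm
          _ = (p.length + q.length) % Pi + 2 * Pi := e1
          _ ≡ (p.length + q.length) % Pi + 0 [MOD Pi] := Nat.ModEq.add_left _ (by
              unfold Nat.ModEq; simp)
          _ ≡ q.length + p.length [MOD Pi] := by
              rw [add_zero, add_comm q.length]; exact Nat.mod_modEq _ _
      exact Nat.ModEq.add_right_cancel' _ e2
    obtain ⟨t', ht1, ht2⟩ := hclock
    have hLv : L i (phi (p.take (bet G B p.length 0)))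
        ((List.range i).map fun j => phi (seg p (bet G B p.length j) (bet G B p.length (j + 1))))
        (p.length % Pi) = some v := by
      rw [← hv]
      exact per_eq (f := fun t => L i _ _ t) (fun t => hL _ _ _ t) (Nat.mod_mod _ _)
    have hRb : R (vwF G B Pi m phi q) t' = some b := by
      rw [← hb]
      exact per_eq (f := fun t => R _ t) (fun t => hR _ t) ht2
    have := hsound i (p.length % Pi) t' _ _ (phi ((p ++ q).take (bet G B (p ++ q).length 0)))
      (zs G B m phi (p ++ q)) (phi ((p ++ q).drop (bet G B (p ++ q).length m)))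
      (vwF G B Pi m phi q) v b h1 (by simp [zs]) ?_ hLv hRb
    · rw [this, ht1, ← prod_all h m hphi]
      rfl
    · intro x hx
      unfold vwF at hx
      split_ifs at hx with hc
      obtain ⟨c1, c2⟩ := hc
      rw [Option.some.injEq] at hx
      have hBi : B i ≤ p.length := by omega
      refine ⟨?_, ?_, ?_⟩
      · rw [List.length_append, h.bet_left (i := i) (Nat.zero_le _) hBi c1,
          List.take_append_of_le_length]
        have g1 := h.bet_lt p.length 0
        have g2 := h.B_mono (Nat.zero_le i)
        have g3 := Nat.le_of_dvd (h.gpos i) (h.dvd_le (Nat.zero_le i))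
        omega
      · exact (zs_left h m p q h1.le h2 c1).symm
      · rw [← hx, zs_right h m p q h2 h3 hq c2]
        congr 2
        rw [List.length_append, h.bet_right h1 h2 h3 hq (c2 m h1 le_rfl), drop_shift]
  · -- completeness
    intro u hu hpr hband v
    obtain ⟨i, him, hi⟩ := hcomp u.length (phi (u.take (bet G B u.length 0)))
      (zs G B m phi u) (phi (u.drop (bet G B u.length m))) v (by simp [zs]) hpr
    have hBm := h.B_lt him
    have hGP : Pi ≤ G i * Pi := Nat.le_mul_of_pos_left _ (h.gpos i)
    obtain ⟨t, -, ht2, ht3, hLt, hRt⟩ := hi 0 (by omega)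
    let a := B i + G i
    let cr := Nat.chineseRemainder (h.cop i) (u.length - a) (t + Pi * a - a)
    have hcr := cr.2
    have hcl : (cr : ℕ) < G i * Pi := Nat.chineseRemainder_lt_mul _ _ _ (h.gpos i).ne' hPpos.ne'
    set d : ℕ := (cr : ℕ) with hd
    have hstep := h.step i
    have hod1 : a + d ≡ u.length [MOD G i] := by
      have := Nat.ModEq.add_left a hcr.1
      rwa [show a + (u.length - a) = u.length by simp only [a]; omega] at this
    have haP : a ≤ Pi * a := Nat.le_mul_of_pos_left _ hPpos
    have hod2 : a + d ≡ t [MOD Pi] := by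
      have := Nat.ModEq.add_left a hcr.2
      rw [show a + (t + Pi * a - a) = t + Pi * a by omega] at this
      refine this.trans ?_
      unfold Nat.ModEq
      rw [Nat.add_mul_mod_self_left]
    have hoT : a + d ≤ u.length := by simp only [a]; omega
    have hGi := h.bet_lt u.length 0
    obtain ⟨p, q, hpq, hlenp⟩ : ∃ p q, p ++ q = u ∧ p.length = a + d :=
      ⟨u.take (a + d), u.drop (a + d), List.take_append_drop _ _, by rw [List.length_take]; omega⟩
    subst hpq
    have hlen : (p ++ q).length = p.length + q.length := List.length_append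
    have hGq : G i ∣ q.length := by
      have := (Nat.modEq_iff_dvd' hoT).1 hod1
      rwa [hlen, ← hlenp, Nat.add_sub_cancel_left] at this
    have h2 : B i + G i ≤ p.length := by rw [hlenp]; simp only [a]; omega
    have h3 : p.length < B (i + 1) := by rw [hlenp]; simp only [a]; omega
    have hq : B m ≤ q.length := by omega
    have hw : ∀ j, i < j → j ≤ m → (q.length - ee G B i j) % G j + G i * Pi ≤ G j := by
      intro j hij hjm
      obtain ⟨j, rfl⟩ : ∃ j', j = j' + 1 := ⟨j - 1, by omega⟩
      obtain ⟨b1, b2⟩ := hband j (by omega)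
      have k1 : G i * Pi ≤ G j * Pi :=
        Nat.mul_le_mul_right _ (Nat.le_of_dvd (h.gpos j) (h.dvd_le (by omega)))
      have k2 := h.B_lt hij
      have k3 := h.B_mono hjm
      have he : ee G B i (j + 1) = B (j + 1) - (B i + G i) := rfl
      have k4 : (p ++ q).length - B (j + 1) = (q.length - ee G B i (j + 1)) + d := by
        simp only [a] at hlenp
        omega
      rw [k4] at b1 b2
      set X := q.length - ee G B i (j + 1) with hX
      have hdm := Nat.div_add_mod (X + d) (G (j + 1))
      have hlt := Nat.mod_lt (X + d) (h.gpos (j + 1))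
      have hXe : X = G (j + 1) * ((X + d) / G (j + 1)) + ((X + d) % G (j + 1) - d) := by omega
      have hXm : X % G (j + 1) = (X + d) % G (j + 1) - d := by
        conv_lhs => rw [hXe]
        rw [Nat.mul_add_mod]
        exact Nat.mod_eq_of_lt (by omega)
      rw [hXm]
      omega
    refine ⟨p, q, rfl, ?_, ?_⟩
    · have hc : ∃ i', i' < m ∧ B i' + G i' ≤ p.length ∧ p.length < B (i' + 1) := ⟨i, him, h2, h3⟩
      have hch : hc.choose = i := huniq hc.choose_spec.2.1 hc.choose_spec.2.2 h2 h3
      unfold lamF
      rw [dif_pos hc, hch]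
      rw [zs_left h m p q him.le h2 hGq, hlen, h.bet_left (i := i) (Nat.zero_le _) (by omega) hGq,
        List.take_append_of_le_length] at hLt
      · rw [← hLt]
        exact per_eq (f := fun t => L i _ _ t) (fun t => hL _ _ _ t) (by rw [hlenp]; exact hod2)
      · have g1 := h.bet_lt p.length 0
        have g2 := h.B_mono (Nat.zero_le i)
        have g3 := Nat.le_of_dvd (h.gpos i) (h.dvd_le (Nat.zero_le i))
        omega
    · unfold rhoF
      rw [if_pos hq]
      have hvw : vwF G B Pi m phi q i = some ((zs G B m phi (p ++ q)).drop (i + 1),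
          phi ((p ++ q).drop (bet G B (p ++ q).length m))) := by
        unfold vwF
        rw [if_pos ⟨hGq, hw⟩, zs_right h m p q h2 h3 hq hw, hlen,
          h.bet_right him h2 h3 hq (hw m him le_rfl), drop_shift]
      obtain ⟨b, hb⟩ := hRt _ hvw
      have : R (vwF G B Pi m phi q) q.length = some b := by
        rw [← hb]
        refine per_eq (f := fun t => R _ t) (fun t => hR _ t) ?_
        have e1 : q.length + p.length ≡ ((p ++ q).length - t) + t [MOD Pi] := by
          rw [Nat.sub_add_cancel ht3, hlen, add_comm]
        have e2 : q.length + p.length ≡ ((p ++ q).length - t) + p.length [MOD Pi] :=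
          e1.trans (Nat.ModEq.add_left _ (by rw [hlenp]; exact hod2.symm))
        exact Nat.ModEq.add_right_cancel' _ e2
      rw [this]
      rfl
  · -- finite state
    intro q q' hq hq' htake hmod hphid
    have hmP : q.length % Pi = q'.length % Pi := by
      rw [← Nat.mod_mod_of_dvd q.length (Dvd.intro_left (G m) rfl),
        ← Nat.mod_mod_of_dvd q'.length (Dvd.intro_left (G m) rfl), hmod]
    have hmG : ∀ j, j ≤ m → q.length % G j = q'.length % G j := by
      intro j hj
      have : G j ∣ G m * Pi := (h.dvd_le hj).mul_right _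
      rw [← Nat.mod_mod_of_dvd q.length this, ← Nat.mod_mod_of_dvd q'.length this, hmod]
    have hseg : ∀ a b, b ≤ B m + G m → seg q a b = seg q' a b := by
      intro a b hb
      rw [← seg_take q a b _ hb, htake, seg_take q' a b _ hb]
    have hdrop : ∀ k, k ≤ B m + G m → phi (q.drop k) = phi (q'.drop k) := by
      intro k hk
      rw [drop_split q k _ hk hq, drop_split q' k _ hk hq', hphi, hphi, htake, hphid]
    have hGle : ∀ j, j ≤ m → G j ≤ G m := fun j hj => Nat.le_of_dvd (h.gpos m) (h.dvd_le hj)
    constructor
    · unfold rhoF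
      rw [if_pos (by omega), if_pos (by omega)]
      have e1 : R (vwF G B Pi m phi q) q.length = R (vwF G B Pi m phi q) q'.length :=
        per_eq (f := fun t => R _ t) (fun t => hR _ t) hmP
      rw [e1]
      refine hR2 _ _ _ fun i hi => ?_
      have hpos : ∀ j, j ≤ m → pos G B q.length i j = pos G B q'.length i j ∧
          pos G B q.length i j ≤ B m + G m ∧
          (q.length - ee G B i j) % G j = (q'.length - ee G B i j) % G j := by
        intro j hj
        have he : ee G B i j ≤ B m := (Nat.sub_le _ _).trans (h.B_mono hj)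
        have e : (q.length - ee G B i j) % G j = (q'.length - ee G B i j) % G j :=
          sub_mod (by omega) (by omega) (hmG j hj)
        refine ⟨?_, ?_, e⟩
        · unfold pos; rw [e]
        · unfold pos
          have := Nat.mod_lt (q.length - ee G B i j) (h.gpos j)
          have := hGle j hj
          omega
      unfold vwF
      have hcond : (G i ∣ q.length ∧ ∀ j, i < j → j ≤ m →
          (q.length - ee G B i j) % G j + G i * Pi ≤ G j) ↔
          (G i ∣ q'.length ∧ ∀ j, i < j → j ≤ m →
          (q'.length - ee G B i j) % G j + G i * Pi ≤ G j) := by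
        refine and_congr ?_ ?_
        · rw [Nat.dvd_iff_mod_eq_zero, Nat.dvd_iff_mod_eq_zero, hmG i hi.le]
        · refine forall_congr' fun j => forall_congr' fun _ => forall_congr' fun hj => ?_
          rw [(hpos j hj).2.2]
      have hval : (rz G B m phi q i, phi (q.drop (pos G B q.length i m))) =
          (rz G B m phi q' i, phi (q'.drop (pos G B q'.length i m))) := by
        refine Prod.ext ?_ ?_
        · unfold rz
          refine List.map_congr_left fun j hj => ?_
          obtain ⟨k, hk, rfl⟩ := List.mem_iff_getElem.1 hj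
          rw [List.getElem_drop, List.getElem_range]
          have hk' : k < m - (i + 1) := by simpa using hk
          rw [hseg _ _ (hpos (i + 1 + k + 1) (by omega)).2.1, (hpos (i + 1 + k) (by omega)).1,
            (hpos (i + 1 + k + 1) (by omega)).1]
        · show phi _ = phi _
          rw [hdrop _ (hpos m le_rfl).2.1, (hpos m le_rfl).1]
      rw [hval]
      exact if_congr hcond rfl rfl
    · have hbet : ∀ j, j ≤ m → bet G B q.length j = bet G B q'.length j ∧
          bet G B q.length j ≤ B m + G m := by
        intro j hj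
        have hBj := h.B_mono hj
        refine ⟨?_, ?_⟩
        · unfold bet
          rw [sub_mod (by omega) (by omega) (hmG j hj)]
        · have := h.bet_lt q.length j
          have := hGle j hj
          omega
      unfold nuF
      have z1 : phi (q.take (bet G B q.length 0)) = phi (q'.take (bet G B q'.length 0)) := by
        have g := (hbet 0 (Nat.zero_le _)).2
        rw [← (hbet 0 (Nat.zero_le _)).1]
        have : q.take (bet G B q.length 0) = (q.take (B m + G m)).take (bet G B q.length 0) := by
          rw [List.take_take, min_eq_left g]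
        rw [this, htake, List.take_take, min_eq_left g]
      have z2 : zs G B m phi q = zs G B m phi q' := by
        unfold zs
        refine List.map_congr_left fun j hj => ?_
        have hj' : j < m := List.mem_range.1 hj
        rw [hseg _ _ (hbet (j + 1) hj').2, (hbet j hj'.le).1, (hbet (j + 1) hj').1]
      rw [hmP, z1, z2, hdrop _ (hbet m le_rfl).2, (hbet m le_rfl).1]

end Crest.Agent.R320.Grid450
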