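import Crest.Agent.R320.Gad1_420
import Crest.Agent.R320.Names_570
import Crest.Agent.R320.RandF_808

/-!
Row 320, helper451: scheme 1 of 693 (post 13203) on words: holes on nested grids anchored at the
END of the zone; no small walls, every content, every length.

`be T k = G k + T % G k` (`k <= m`), level `i` cut: `2 G i <= |P| < (M + 2) G i` and `G i | |Q|`,
and the quotients `(|Q| + 2 G i) / G k = (|Q| + (M + 2) G i) / G k` for `i < k <= m`.
-/

set_option autoImplicit false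
set_option linter.unusedSectionVars false

namespace Crest.Agent.R320.Grid_451

open Finset
open Crest.Agent.R320.Gad1_420 (seg seg_left seg_right seg_split drop_app_left drop_app_right)

/-- The data of the gadget. -/
structure Dat (α S V W : Type*) where
  φ : List α → S
  act : V → S → V
  m : ℕ
  e : ℕ → S → W
  F : S → W → V
  M : ℕ
  G : ℕ → ℕ
  nL : ℕ → Option (Fin m × S × W × S × W × V)
  nR : ℕ → Option (Fin m × S × W × S × W × V)

variable {α S V W : Type*} [Monoid S] [AddCommGroup V] [AddCommGroup W] (D : Dat α S V W)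

/-- hole end `k` in a zone of length `T`. -/
def Dat.be (T k : ℕ) : ℕ := D.G k + T % D.G k

/-- product of the hole `k`. -/
def Dat.zz (Y : List α) (k : ℕ) : S := D.φ (seg Y (D.be Y.length k) (D.be Y.length (k + 1)))

/-- weight of a zone. -/
def Dat.ww (Y : List α) : W := ∑ k ∈ range D.m, D.e k (D.zz Y k)

/-- end value of a name. -/
def Dat.bb (c : Fin D.m × S × W × S × W × V) : V :=
  D.F (c.2.1 * 1 * c.2.2.2.1) (c.2.2.1 + D.e c.1 1 + c.2.2.2.2.1) +
    D.act c.2.2.2.2.2 (c.2.1 * 1 * c.2.2.2.1)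

/-- good names. -/
def Dat.ok (c : Fin D.m × S × W × S × W × V) : Prop :=
  ∀ z, D.F (c.2.1 * z * c.2.2.2.1) (c.2.2.1 + D.e c.1 z + c.2.2.2.2.1) +
    D.act c.2.2.2.2.2 (c.2.1 * z * c.2.2.2.1) = D.bb c

/-- left legality for a name. -/
def Dat.LL (P : List α) (c : Fin D.m × S × W × S × W × V) : Prop :=
  D.ok c ∧ 2 * D.G c.1 ≤ P.length ∧ P.length < (D.M + 2) * D.G c.1 ∧
  D.nL P.length = some c ∧ c.2.1 = D.φ (P.take (D.be P.length c.1)) ∧
  c.2.2.1 = ∑ k ∈ range c.1, D.e k (D.zz P k)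

/-- hole end `k` as a place of the right part. -/
def Dat.la (i : ℕ) (Q : List α) (k : ℕ) : ℕ :=
  Q.length - D.G k * ((Q.length + 2 * D.G i) / D.G k - 1)

/-- visibility from the right. -/
def Dat.vis (i T' : ℕ) : Prop :=
  ∀ k, i < k → k ≤ D.m → (T' + 2 * D.G i) / D.G k = (T' + (D.M + 2) * D.G i) / D.G k

/-- right legality for a name. -/
def Dat.RR (Q : List α) (c : Fin D.m × S × W × S × W × V) : Prop :=
  D.ok c ∧ D.nR Q.length = some c ∧ D.G c.1 ∣ Q.length ∧ 2 * D.G D.m ≤ Q.length ∧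
  D.vis c.1 Q.length ∧ c.2.2.2.1 = D.φ (Q.drop (D.la c.1 Q (c.1 + 1))) ∧
  c.2.2.2.2.1 = ∑ k ∈ Ico ((c.1 : ℕ) + 1) D.m, D.e k (D.φ (seg Q (D.la c.1 Q k) (D.la c.1 Q (k + 1))))

/-- The geometric hypotheses. -/
structure Geo (D : Dat α S V W) : Prop where
  hφ : ∀ u v, D.φ (u ++ v) = D.φ u * D.φ v
  pos : 0 < D.G 0
  dvd : ∀ k, D.G k ∣ D.G (k + 1)
  big : ∀ k, (D.M + 2) * D.G k ≤ D.G (k + 1)

variable {D}

theorem Geo.dvdle (hD : Geo D) {i k : ℕ} (h : i ≤ k) : D.G i ∣ D.G k := by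
  induction h with
  | refl => exact dvd_refl _
  | step _ ih => exact ih.trans (hD.dvd _)

theorem Geo.Gpos (hD : Geo D) (k : ℕ) : 0 < D.G k := by
  induction k with
  | zero => exact hD.pos
  | succ k ih =>
    have := hD.big k
    have h2 : D.G k ≤ (D.M + 2) * D.G k := Nat.le_mul_of_pos_left _ (by omega)
    omega

theorem Geo.mono (hD : Geo D) {i k : ℕ} (h : i ≤ k) : D.G i ≤ D.G k :=
  Nat.le_of_dvd (hD.Gpos k) (hD.dvdle h)

theorem Geo.big' (hD : Geo D) {i k : ℕ} (h : i < k) : (D.M + 2) * D.G i ≤ D.G k :=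
  (hD.big i).trans (hD.mono h)

theorem Geo.two (hD : Geo D) (k : ℕ) : 2 * D.G k ≤ D.G (k + 1) := by
  have := hD.big k
  nlinarith

theorem be_lt (hD : Geo D) (T k : ℕ) : D.be T k < 2 * D.G k := by
  have := Nat.mod_lt T (hD.Gpos k)
  unfold Dat.be
  omega

theorem be_mono (hD : Geo D) (T k : ℕ) : D.be T k ≤ D.be T (k + 1) := by
  have h1 := be_lt hD T k
  have h2 := hD.two k
  unfold Dat.be at *
  omega

theorem be_left (hD : Geo D) {i k p q : ℕ} (hk : k ≤ i) (hq : D.G i ∣ q) :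
    D.be (p + q) k = D.be p k := by
  obtain ⟨x, hx⟩ := (hD.dvdle hk).trans hq
  unfold Dat.be
  rw [hx, Nat.add_mul_mod_self_left]

theorem be_right (hD : Geo D) {P Q : List α} {i k : ℕ} (hik : i < k) (hkm : k ≤ D.m)
    (h1 : 2 * D.G i ≤ P.length) (h2 : P.length < (D.M + 2) * D.G i)
    (h3 : 2 * D.G D.m ≤ Q.length) (hv : D.vis i Q.length) :
    D.be (P.length + Q.length) k = P.length + D.la i Q k := by
  have hv' := hv k hik hkm
  have hG := hD.Gpos k
  have hmk := hD.mono hkm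
  have hb := hD.big' hik
  unfold Dat.be Dat.la
  set κ := (Q.length + 2 * D.G i) / D.G k with hκ
  have e1 : κ ≤ (P.length + Q.length) / D.G k := Nat.div_le_div_right (by omega)
  have e2 : (P.length + Q.length) / D.G k ≤ κ := by
    rw [hv']
    exact Nat.div_le_div_right (by omega)
  have e3 : (P.length + Q.length) / D.G k = κ := le_antisymm e2 e1
  have e4 := Nat.div_add_mod (P.length + Q.length) (D.G k)
  rw [e3] at e4
  have e5 : 1 ≤ κ := by
    rw [hκ, Nat.le_div_iff_mul_le hG]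
    omega
  obtain ⟨c, hc⟩ := Nat.exists_eq_add_of_le e5
  have e6 : D.G k * κ = D.G k + D.G k * (κ - 1) := by
    rw [hc, Nat.add_sub_cancel_left]; ring
  omega

theorem la_le (hD : Geo D) {P Q : List α} {i k : ℕ} (hik : i < k) (hkm : k ≤ D.m)
    (h1 : 2 * D.G i ≤ P.length) (h2 : P.length < (D.M + 2) * D.G i)
    (h3 : 2 * D.G D.m ≤ Q.length) (hv : D.vis i Q.length) : P.length ≤ D.be (P.length + Q.length) k := by
  rw [be_right hD hik hkm h1 h2 h3 hv]
  omega

/-- reading a junction. -/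
theorem read (hD : Geo D) {P Q : List α} {i : ℕ} (him : i < D.m)
    (h1 : 2 * D.G i ≤ P.length) (h2 : P.length < (D.M + 2) * D.G i)
    (hd : D.G i ∣ Q.length) (h3 : 2 * D.G D.m ≤ Q.length) (hv : D.vis i Q.length) :
    D.φ ((P ++ Q).take (D.be (P ++ Q).length i)) = D.φ (P.take (D.be P.length i)) ∧
    (∑ k ∈ range i, D.e k (D.zz (P ++ Q) k)) = (∑ k ∈ range i, D.e k (D.zz P k)) ∧
    D.φ ((P ++ Q).drop (D.be (P ++ Q).length (i + 1))) = D.φ (Q.drop (D.la i Q (i + 1))) ∧
    (∑ k ∈ Ico (i + 1) D.m, D.e k (D.zz (P ++ Q) k)) =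
      ∑ k ∈ Ico (i + 1) D.m, D.e k (D.φ (seg Q (D.la i Q k) (D.la i Q (k + 1)))) ∧
    D.φ (P ++ Q) = D.φ ((P ++ Q).take (D.be (P ++ Q).length i)) * D.zz (P ++ Q) i *
      D.φ ((P ++ Q).drop (D.be (P ++ Q).length (i + 1))) ∧
    D.ww (P ++ Q) = (∑ k ∈ range i, D.e k (D.zz (P ++ Q) k)) + D.e i (D.zz (P ++ Q) i) +
      ∑ k ∈ Ico (i + 1) D.m, D.e k (D.zz (P ++ Q) k) := by
  have hH : ∀ k, k ≤ i → D.be (P ++ Q).length k = D.be P.length k := fun k hk => by
    rw [List.length_append]; exact be_left hD hk hd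
  have hHf : ∀ k, k ≤ i → D.be P.length k ≤ P.length := fun k hk => by
    have := be_lt hD P.length k
    have := hD.mono hk
    omega
  have hHr : ∀ k, i < k → k ≤ D.m → D.be (P ++ Q).length k = P.length + D.la i Q k :=
    fun k hk hkm => by
      rw [List.length_append]; exact be_right hD hk hkm h1 h2 h3 hv
  refine ⟨?_, ?_, ?_, ?_, ?_, ?_⟩
  · rw [hH i le_rfl, List.take_append_of_le_length (hHf i le_rfl)]
  · refine Finset.sum_congr rfl fun k hk => ?_
    have hk' := Finset.mem_range.1 hk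
    have h3 := hH k hk'.le
    have h4 := hH (k + 1) hk'
    unfold Dat.zz
    rw [h3, h4, seg_left (be_mono hD _ k) (hHf (k + 1) hk')]
  · rw [hHr (i + 1) (Nat.lt_succ_self i) him, drop_app_right]
  · refine Finset.sum_congr rfl fun k hk => ?_
    obtain ⟨hk1, hk2⟩ := Finset.mem_Ico.1 hk
    have h3 := hHr k (by omega) (by omega)
    have h4 := hHr (k + 1) (by omega) (by omega)
    unfold Dat.zz
    rw [h3, h4, seg_right]
  · have h6 := seg_split (Y := P ++ Q) (be_mono hD (P ++ Q).length i)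
    conv_lhs => rw [← h6]
    rw [hD.hφ, hD.hφ]
    rfl
  · unfold Dat.ww
    rw [← Finset.sum_range_add_sum_Ico _ (show i + 1 ≤ D.m from him), Finset.sum_range_succ]

open Classical in
/-- left label. -/
noncomputable def Dat.lam (D : Dat α S V W) (P : List α) : Option V :=
  if h : ∃ c, D.LL P c then some h.choose.2.2.2.2.2 else none

open Classical in
/-- right label. -/
noncomputable def Dat.rho (D : Dat α S V W) (Q : List α) : Option V :=
  if h : ∃ c, D.RR Q c then some (D.bb h.choose) else none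

theorem lam_iff {P : List α} {v : V} : D.lam P = some v ↔ ∃ c, D.LL P c ∧ c.2.2.2.2.2 = v := by
  classical
  unfold Dat.lam
  constructor
  · intro h
    split_ifs at h with h1
    exact ⟨_, h1.choose_spec, Option.some.inj h⟩
  · rintro ⟨c, hc, rfl⟩
    have hex : ∃ c, D.LL P c := ⟨c, hc⟩
    rw [dif_pos hex]
    have h1 := hex.choose_spec.2.2.2.1
    have h2 := hc.2.2.2.1
    rw [h1, Option.some.injEq] at h2
    rw [h2]

theorem rho_iff {Q : List α} {r : V} : D.rho Q = some r ↔ ∃ c, D.RR Q c ∧ D.bb c = r := by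
  classical
  unfold Dat.rho
  constructor
  · intro h
    split_ifs at h with h1
    exact ⟨_, h1.choose_spec, Option.some.inj h⟩
  · rintro ⟨c, hc, rfl⟩
    have hex : ∃ c, D.RR Q c := ⟨c, hc⟩
    rw [dif_pos hex]
    have h1 := hex.choose_spec.2.1
    have h2 := hc.2.1
    rw [h1, Option.some.injEq] at h2
    rw [h2]

/-- The name system. -/
structure Names (D : Dat α S V W) (good : ℕ → Prop) : Prop where
  n1 : ∀ o o' c c', good (o + o') → D.nL o = some c → D.nR o' = some c' → c = c'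
  n2 : ∀ T, good T → ∀ c : Fin D.m × S × W × S × W × V, (D.M + 2) * D.G c.1 ≤ T →
    ∃ o, 2 * D.G c.1 ≤ o ∧ o < (D.M + 2) * D.G c.1 ∧ D.G c.1 ∣ T - o ∧
      D.nL o = some c ∧ D.nR (T - o) = some c
  n3 : ∀ T, ¬ good T → ∃ v0 r0 : V, ∀ o o' c c', o + o' = T → D.nL o = some c →
    D.nR o' = some c' → c.2.2.2.2.2 = v0 ∧ D.bb c' = r0

theorem gadget (D : Dat α S V W) (good : ℕ → Prop) (hD : Geo D) (hN : Names D good)
    (hF : ∀ s w v, ∃ i < D.m, ∀ g x h, g * x * h = s → ∀ z,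
      D.F (g * z * h) (w - D.e i x + D.e i z) + D.act v (g * z * h) = D.F s w + D.act v s) :
    ∃ nu : List α → V,
      (∀ P Q v r, D.lam P = some v → D.rho Q = some r →
        r = D.act v (D.φ (P ++ Q)) + nu (P ++ Q)) ∧
      (∀ Y : List α, good Y.length → (D.M + 4) * D.G D.m ≤ Y.length →
        (∀ i k, i < k → k ≤ D.m →
          (Y.length - D.M * D.G i) / D.G k = (Y.length + D.M * D.G i) / D.G k) →
        ∀ v, ∃ P Q, P ++ Q = Y ∧ D.lam P = some v ∧ (D.rho Q).isSome) := by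
  classical
  have hn3 : ∀ T, ∃ v0 r0 : V, ¬ good T → ∀ o o' c c', o + o' = T → D.nL o = some c →
    D.nR o' = some c' → c.2.2.2.2.2 = v0 ∧ D.bb c' = r0 := by
    intro T
    by_cases h : good T
    · exact ⟨0, 0, fun h' => absurd h h'⟩
    · obtain ⟨v0, r0, h0⟩ := hN.n3 T h
      exact ⟨v0, r0, fun _ => h0⟩
  choose v0 r0 h0 using hn3
  refine ⟨fun Y => if good Y.length then D.F (D.φ Y) (D.ww Y) else
    r0 Y.length - D.act (v0 Y.length) (D.φ Y), ?_, ?_⟩
  · intro P Q v r hP hQ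
    obtain ⟨c, ⟨hok, ha1, ha2, hnL, hg1, hwl1⟩, rfl⟩ := lam_iff.1 hP
    obtain ⟨c', ⟨-, hnR, hdv, hq2, hvis, hh1, hwr1⟩, rfl⟩ := rho_iff.1 hQ
    beta_reduce
    by_cases hg : good (P ++ Q).length
    · rw [if_pos hg]
      have hcc := hN.n1 _ _ _ _ (by rwa [List.length_append] at hg) hnL hnR
      subst hcc
      obtain ⟨e1, e2, e3, e4, e5, e6⟩ := read hD c.1.2 ha1 ha2 hdv hq2 hvis
      have := hok (D.zz (P ++ Q) c.1)
      rw [e5, e6, e1, e2, e3, e4, ← hg1, ← hh1, ← hwl1, ← hwr1, ← this, add_comm]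
    · rw [if_neg hg]
      obtain ⟨q1, q2⟩ := h0 _ hg _ _ _ _ (List.length_append).symm hnL hnR
      rw [q2, q1]
      abel
  · intro Y hg hlen hb v
    obtain ⟨i, him, hi⟩ := hF (D.φ Y) (D.ww Y) v
    set g := D.φ (Y.take (D.be Y.length i)) with hgdef
    set wl := ∑ k ∈ range i, D.e k (D.zz Y k) with hwldef
    set h := D.φ (Y.drop (D.be Y.length (i + 1))) with hhdef
    set wr := ∑ k ∈ Ico (i + 1) D.m, D.e k (D.zz Y k) with hwrdef
    have hGm := hD.mono him.le
    have hlen' : (D.M + 2) * D.G i + 2 * D.G D.m ≤ Y.length := by nlinarith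
    obtain ⟨o, ho1, ho2, ho3, ho4, ho5⟩ := hN.n2 _ hg (⟨i, him⟩, g, wl, h, wr, v)
      (show (D.M + 2) * D.G i ≤ Y.length by omega)
    simp only at ho1 ho2 ho3
    set P := Y.take o with hP
    set Q := Y.drop o with hQ
    have hPQ : P ++ Q = Y := List.take_append_drop _ _
    have hPl : P.length = o := by rw [hP, List.length_take]; omega
    have hQl : Q.length = Y.length - o := by rw [hQ, List.length_drop]
    have hP1 : 2 * D.G i ≤ P.length := by omega
    have hP2 : P.length < (D.M + 2) * D.G i := by omega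
    have hq2 : 2 * D.G D.m ≤ Q.length := by omega
    have hdv : D.G i ∣ Q.length := by rw [hQl]; exact ho3
    have hexp : (D.M + 2) * D.G i = D.M * D.G i + 2 * D.G i := by ring
    have hv : D.vis i Q.length := by
      intro k hk hkm
      have hb' := hb i k hk hkm
      have f1 : (Y.length - D.M * D.G i) / D.G k ≤ (Q.length + 2 * D.G i) / D.G k :=
        Nat.div_le_div_right (by omega)
      have f2 : (Q.length + 2 * D.G i) / D.G k ≤ (Q.length + (D.M + 2) * D.G i) / D.G k :=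
        Nat.div_le_div_right (by omega)
      have f3 : (Q.length + (D.M + 2) * D.G i) / D.G k ≤ (Y.length + D.M * D.G i) / D.G k :=
        Nat.div_le_div_right (by omega)
      omega
    obtain ⟨e1, e2, e3, e4, e5, e6⟩ := read hD him hP1 hP2 hdv hq2 hv
    rw [hPQ] at e1 e2 e3 e4 e5 e6
    have hok : D.ok (⟨i, him⟩, g, wl, h, wr, v) := by
      intro z
      have k1 := hi g (D.zz Y i) h (by rw [← e5])
      have k2 : ∀ z, wl + D.e i z + wr = D.ww Y - D.e i (D.zz Y i) + D.e i z := by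
        intro z; rw [e6]; abel
      have k3 := k1 z
      have k4 := k1 1
      rw [← k2] at k3 k4
      show _ = D.F (g * 1 * h) (wl + D.e i 1 + wr) + D.act v (g * 1 * h)
      rw [k4]; exact k3
    refine ⟨P, Q, hPQ, lam_iff.2 ⟨(⟨i, him⟩, g, wl, h, wr, v), ⟨hok, hP1, hP2, ?_, ?_, ?_⟩, rfl⟩, ?_⟩
    · rw [hPl]; exact ho4
    · exact e1
    · exact e2
    · have hR : D.RR Q (⟨i, him⟩, g, wl, h, wr, v) := by
        refine ⟨hok, ?_, hdv, hq2, hv, e3, e4⟩
        rw [hQl]; exact ho5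
      rw [rho_iff.2 ⟨_, hR, rfl⟩]
      rfl

end Crest.Agent.R320.Grid_451
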