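import Crest.Agent.R320.RandF_808
import Crest.Agent.R320.Names_755

/-!
# Row 320: helper693's gadget (#13203) on `b`-anchored nested grids, as one black box (helper464)

No small walls, all words, all lengths.  Grid steps `G j = Γ ^ j` with `Γ ≡ 1` modulo the period
`M` of the names.  Boundary `β T j` = least `y ≥ A j` with `y ≡ T` modulo `G j`.
-/

set_option autoImplicit false

namespace Crest.Agent.R320.Grid_464

variable {α S V Wt Nm : Type*}

/-- parameters -/
structure Par (α S V Wt Nm : Type*) where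
  ph : List α → S
  act : V → S → V
  m : ℕ
  G : ℕ → ℕ
  A : ℕ → ℕ
  e : ℕ → S → Wt
  F : S → Wt → V
  nL : ℕ → Option Nm
  nR : ℕ → Option Nm
  lv : Nm → ℕ
  gg : Nm → S
  wl : Nm → Wt
  hh : Nm → S
  wr : Nm → Wt
  vv : Nm → V
  bb : Nm → V

variable (p : Par α S V Wt Nm)

/-- boundary `j` of a word of length `T` -/
def Par.β (T j : ℕ) : ℕ := p.A j + (T - p.A j) % p.G j

/-- product of the letters with places in `[a, b)` -/
def Par.seg (U : List α) (a b : ℕ) : S := p.ph ((U.take b).drop a)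

variable [Monoid S] [AddCommGroup V] [AddCommGroup Wt]

/-- usable name -/
def Par.Good (c : Nm) : Prop :=
  ∀ z, p.F (p.gg c * z * p.hh c) (p.wl c + p.e (p.lv c) z + p.wr c) +
    p.act (p.vv c) (p.gg c * z * p.hh c) = p.bb c

/-- left-legal with name `c` -/
def Par.LL (P : List α) (c : Nm) : Prop :=
  p.Good c ∧ p.nL P.length = some c ∧ p.A (p.lv c) + p.G (p.lv c) ≤ P.length ∧
    P.length < p.A (p.lv c + 1) ∧ p.ph (P.take (p.β P.length (p.lv c))) = p.gg c ∧
    ∑ j ∈ Finset.range (p.lv c), p.e j (p.seg P (p.β P.length j) (p.β P.length (j + 1))) = p.wl c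

/-- right-legal with name `c` -/
def Par.RR (Q : List α) (c : Nm) : Prop :=
  p.Good c ∧ p.nR Q.length = some c ∧ p.G (p.lv c) ∣ Q.length ∧ p.lv c < p.m ∧
    p.A p.m + p.G p.m ≤ Q.length ∧
    ∀ o, p.A (p.lv c) + p.G (p.lv c) ≤ o → o < p.A (p.lv c + 1) →
      p.ph (Q.drop (p.β (o + Q.length) (p.lv c + 1) - o)) = p.hh c ∧
      ∑ j ∈ Finset.Ico (p.lv c + 1) p.m,
        p.e j (p.seg Q (p.β (o + Q.length) j - o) (p.β (o + Q.length) (j + 1) - o)) = p.wr c

/-- total weight of a word -/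
def Par.wt (U : List α) : Wt :=
  ∑ j ∈ Finset.range p.m, p.e j (p.seg U (p.β U.length j) (p.β U.length (j + 1)))

/-- standing assumptions -/
structure Par.Ok : Prop where
  mul : ∀ u v, p.ph (u ++ v) = p.ph u * p.ph v
  Gpos : ∀ j, 0 < p.G j
  Gdvd : ∀ j, p.G j ∣ p.G (j + 1)
  Astep : ∀ j, p.A j + p.G j ≤ p.A (j + 1)
  names : ∀ c c' d d' o o' q q', p.nL o = some c → p.nR o' = some c' → p.nL q = some d →
    p.nR q' = some d' → o + o' = q + q' →
    (c = c' ∧ d = d') ∨ (p.vv c = p.vv d ∧ p.bb c' = p.bb d')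

variable {p}

theorem Par.Ok.G_dvd (h : p.Ok) {i j : ℕ} (hij : i ≤ j) : p.G i ∣ p.G j := by
  induction hij with
  | refl => exact dvd_rfl
  | step _ ih => exact ih.trans (h.Gdvd _)

theorem Par.Ok.A_mono (h : p.Ok) {i j : ℕ} (hij : i ≤ j) : p.A i ≤ p.A j := by
  induction hij with
  | refl => exact le_rfl
  | step _ ih => exact ih.trans ((Nat.le_add_right _ _).trans (h.Astep _))

theorem Par.Ok.β_le (h : p.Ok) (T j : ℕ) : p.A j ≤ p.β T j ∧ p.β T j < p.A j + p.G j := by
  have := Nat.mod_lt (T - p.A j) (h.Gpos j)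
  unfold Par.β
  omega

theorem Par.Ok.β_mono (h : p.Ok) (T : ℕ) {i j : ℕ} (hij : i < j) : p.β T i ≤ p.β T j := by
  have h1 := (h.β_le T i).2
  have h2 := (h.β_le T j).1
  have h3 := h.A_mono (Nat.succ_le_of_lt hij)
  have h4 := h.Astep i
  simp only [Nat.succ_eq_add_one] at h3
  omega

theorem Par.Ok.β_left (h : p.Ok) {o q i j : ℕ} (hj : j ≤ i) (hq : p.G i ∣ q) (ho : p.A i ≤ o) :
    p.β (o + q) j = p.β o j := by
  obtain ⟨k, rfl⟩ := (h.G_dvd hj).trans hq
  have h1 := h.A_mono hj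
  have h2 : o + p.G j * k - p.A j = (o - p.A j) + p.G j * k := by omega
  unfold Par.β
  rw [h2, Nat.add_mul_mod_self_left]

omit [Monoid S] [AddCommGroup V] [AddCommGroup Wt] in
theorem seg_left {P Q : List α} {a b : ℕ} (hb : b ≤ P.length) :
    p.seg (P ++ Q) a b = p.seg P a b := by
  unfold Par.seg
  rw [List.take_append_of_le_length hb]

omit [Monoid S] [AddCommGroup V] [AddCommGroup Wt] in
theorem seg_right {P Q : List α} {a b : ℕ} (ha : P.length ≤ a) (hab : a ≤ b) :
    p.seg (P ++ Q) a b = p.seg Q (a - P.length) (b - P.length) := by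
  unfold Par.seg
  rw [List.take_append, List.take_of_length_le (ha.trans hab), List.drop_append,
    List.drop_eq_nil_of_le ha, List.nil_append]

theorem Par.Ok.split (h : p.Ok) (U : List α) {a b : ℕ} (hab : a ≤ b) :
    p.ph U = p.ph (U.take a) * p.seg U a b * p.ph (U.drop b) := by
  unfold Par.seg
  rw [← h.mul, ← h.mul]
  congr 1
  have h1 : U.take a = (U.take b).take a := by rw [List.take_take, min_eq_left hab]
  rw [h1, List.take_append_drop, List.take_append_drop]

/-- data of the whole word at a matched junction -/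
theorem Par.Ok.data (h : p.Ok) {P Q : List α} {c : Nm} (hL : p.LL P c) (hR : p.RR Q c) :
    ∃ z : S, p.ph (P ++ Q) = p.gg c * z * p.hh c ∧
      p.wt (P ++ Q) = p.wl c + p.e (p.lv c) z + p.wr c := by
  obtain ⟨-, -, hl1, hl2, hg, hw⟩ := hL
  obtain ⟨-, -, hq, hm, -, hr⟩ := hR
  obtain ⟨hh, hwr⟩ := hr P.length hl1 hl2
  set i := p.lv c with hi
  set T := (P ++ Q).length with hT
  have hTe : T = P.length + Q.length := by rw [hT, List.length_append]
  have hbl : ∀ j ≤ i, p.β T j = p.β P.length j := fun j hj => by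
    rw [hTe]; exact h.β_left hj hq (by omega)
  have hbi : ∀ j ≤ i, p.β T j ≤ P.length := fun j hj => by
    have h1 := (h.β_le T j).2
    have h2 := h.Astep j
    rcases Nat.lt_or_ge j i with h3 | h3
    · have h4 := h.A_mono (Nat.succ_le_of_lt h3)
      simp only [Nat.succ_eq_add_one] at h4
      omega
    · have : j = i := le_antisymm hj h3
      subst this
      omega
  have hbr : ∀ j, i + 1 ≤ j → P.length ≤ p.β T j := fun j hj => by
    have h1 := (h.β_le T j).1
    have h2 := h.A_mono hj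
    omega
  refine ⟨p.seg (P ++ Q) (p.β T i) (p.β T (i + 1)), ?_, ?_⟩
  · rw [h.split (P ++ Q) (h.β_mono T (Nat.lt_succ_self i))]
    congr 1
    · congr 1
      rw [List.take_append_of_le_length (hbi i le_rfl), hbl i le_rfl, hg]
    · rw [List.drop_append, List.drop_eq_nil_of_le (hbr _ le_rfl), List.nil_append, ← hh, hTe]
  · have e1 : p.wt (P ++ Q) = ∑ j ∈ Finset.range i, p.e j (p.seg (P ++ Q) (p.β T j) (p.β T (j + 1)))
        + (p.e i (p.seg (P ++ Q) (p.β T i) (p.β T (i + 1))) +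
          ∑ j ∈ Finset.Ico (i + 1) p.m, p.e j (p.seg (P ++ Q) (p.β T j) (p.β T (j + 1)))) := by
      unfold Par.wt
      rw [← hT]
      simp only [Finset.range_eq_Ico]
      rw [← Finset.sum_Ico_consecutive _ (Nat.zero_le i) hm.le,
        Finset.sum_eq_sum_Ico_succ_bot hm]
    have e2 : ∑ j ∈ Finset.range i, p.e j (p.seg (P ++ Q) (p.β T j) (p.β T (j + 1))) = p.wl c := by
      rw [← hw]
      refine Finset.sum_congr rfl fun j hj => ?_
      have hj' := Finset.mem_range.1 hj
      rw [seg_left (hbi (j + 1) hj'), hbl j hj'.le, hbl (j + 1) hj']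
    have e3 : ∑ j ∈ Finset.Ico (i + 1) p.m, p.e j (p.seg (P ++ Q) (p.β T j) (p.β T (j + 1))) =
        p.wr c := by
      rw [← hwr]
      refine Finset.sum_congr rfl fun j hj => ?_
      have hj' := (Finset.mem_Ico.1 hj).1
      rw [seg_right (hbr j hj') (h.β_mono T (Nat.lt_succ_self j)), hTe]
    rw [e1, e2, e3]
    abel

/-- value prescribed at a junction -/
def Par.val (p : Par α S V Wt Nm) (U : List α) (c c' : Nm) : V :=
  p.bb c' - p.act (p.vv c) (p.ph U)

theorem Par.Ok.val_same (h : p.Ok) {P Q : List α} {c : Nm} (hL : p.LL P c) (hR : p.RR Q c) :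
    p.val (P ++ Q) c c = p.F (p.ph (P ++ Q)) (p.wt (P ++ Q)) := by
  obtain ⟨z, h1, h2⟩ := h.data hL hR
  unfold Par.val
  rw [h1, h2, ← hL.1 z]
  abel

theorem Par.Ok.unique (h : p.Ok) {P Q P' Q' : List α} (e : P ++ Q = P' ++ Q') {c c' d d' : Nm}
    (hL : p.LL P c) (hR : p.RR Q c') (hL' : p.LL P' d) (hR' : p.RR Q' d') :
    p.val (P ++ Q) c c' = p.val (P' ++ Q') d d' := by
  have hT : P.length + Q.length = P'.length + Q'.length := by
    rw [← List.length_append, ← List.length_append, e]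
  rcases h.names c c' d d' _ _ _ _ hL.2.1 hR.2.1 hL'.2.1 hR'.2.1 hT with ⟨rfl, rfl⟩ | ⟨h1, h2⟩
  · rw [h.val_same hL hR, h.val_same hL' hR', e]
  · unfold Par.val
    rw [h1, h2, e]

open Classical in
/-- the noise -/
noncomputable def Par.nu (p : Par α S V Wt Nm) (Y : List α) : V :=
  if h : ∃ x : V, ∃ P Q c c', P ++ Q = Y ∧ p.LL P c ∧ p.RR Q c' ∧ x = p.val Y c c' then h.choose
  else 0

theorem Par.Ok.sound0 (h : p.Ok) {P Q : List α} {c c' : Nm} (hL : p.LL P c) (hR : p.RR Q c') :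
    p.bb c' = p.act (p.vv c) (p.ph (P ++ Q)) + p.nu (P ++ Q) := by
  have hex : ∃ x : V, ∃ P' Q' d d', P' ++ Q' = P ++ Q ∧ p.LL P' d ∧ p.RR Q' d' ∧
      x = p.val (P ++ Q) d d' := ⟨_, P, Q, c, c', rfl, hL, hR, rfl⟩
  have hn : p.nu (P ++ Q) = p.val (P ++ Q) c c' := by
    unfold Par.nu
    rw [dif_pos hex]
    obtain ⟨P', Q', d, d', e, h1, h2, h3⟩ := hex.choose_spec
    rw [h3]
    have := h.unique e.symm hL hR h1 h2
    rw [this, ← e]
  rw [hn]
  unfold Par.val
  abel

open Classical in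
/-- left label -/
noncomputable def Par.lam (p : Par α S V Wt Nm) (P : List α) : Option V :=
  if h : ∃ c, p.LL P c then some (p.vv h.choose) else none

open Classical in
/-- right label -/
noncomputable def Par.rho (p : Par α S V Wt Nm) (Q : List α) : Option V :=
  if h : ∃ c, p.RR Q c then some (p.bb h.choose) else none

theorem lam_spec {P : List α} {v : V} (h : p.lam P = some v) : ∃ c, p.LL P c ∧ p.vv c = v := by
  unfold Par.lam at h
  split_ifs at h with h1
  exact ⟨_, h1.choose_spec, Option.some.inj h⟩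

theorem rho_spec {Q : List α} {v : V} (h : p.rho Q = some v) : ∃ c, p.RR Q c ∧ p.bb c = v := by
  unfold Par.rho at h
  split_ifs at h with h1
  exact ⟨_, h1.choose_spec, Option.some.inj h⟩

theorem lam_eq {P : List α} {c : Nm} (h : p.LL P c) : p.lam P = some (p.vv c) := by
  have h1 : ∃ c, p.LL P c := ⟨c, h⟩
  unfold Par.lam
  rw [dif_pos h1]
  have := h1.choose_spec.2.1.symm.trans h.2.1
  rw [Option.some.inj this]

theorem rho_isSome {Q : List α} {c : Nm} (h : p.RR Q c) : (p.rho Q).isSome := by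
  have h1 : ∃ c, p.RR Q c := ⟨c, h⟩
  unfold Par.rho
  rw [dif_pos h1]
  rfl

theorem Par.Ok.sound (h : p.Ok) {P Q : List α} {v b : V} (hL : p.lam P = some v)
    (hR : p.rho Q = some b) : b = p.act v (p.ph (P ++ Q)) + p.nu (P ++ Q) := by
  obtain ⟨c, h1, rfl⟩ := lam_spec hL
  obtain ⟨c', h2, rfl⟩ := rho_spec hR
  exact h.sound0 h1 h2

/-- completeness -/
theorem Par.Ok.complete (h : p.Ok) (u : List α) (v : V) (hlen : 2 * (p.A p.m + p.G p.m) ≤ u.length)
    (hF : ∃ i < p.m, ∀ g x k : S, g * x * k = p.ph u → ∀ z : S,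
      p.F (g * z * k) (p.wt u - p.e i x + p.e i z) + p.act v (g * z * k) =
        p.F (p.ph u) (p.wt u) + p.act v (p.ph u))
    (hN : ∀ i < p.m, ∀ (g : S) (wl : Wt) (k : S) (wr : Wt) (b : V),
      ∃ c, p.lv c = i ∧ p.gg c = g ∧ p.wl c = wl ∧ p.hh c = k ∧ p.wr c = wr ∧ p.vv c = v ∧
        p.bb c = b)
    (hav : ∀ c, p.lv c < p.m → ∃ o, p.A (p.lv c) + p.G (p.lv c) ≤ o ∧ o < p.A (p.lv c + 1) ∧
      p.nL o = some c ∧ p.G (p.lv c) ∣ u.length - o ∧ p.nR (u.length - o) = some c)
    (hd : ∀ i j o o', i < j → j ≤ p.m → p.A i + p.G i ≤ o → o < p.A (i + 1) →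
      p.A i + p.G i ≤ o' → o' < p.A (i + 1) →
      p.β (o' + (u.length - o)) j - o' = p.β u.length j - o) :
    ∃ P Q, P ++ Q = u ∧ p.lam P = some v ∧ (p.rho Q).isSome := by
  obtain ⟨i, hi, hF⟩ := hF
  set T := u.length with hT
  set g := p.ph (u.take (p.β T i)) with hg
  set x := p.seg u (p.β T i) (p.β T (i + 1)) with hx
  set k := p.ph (u.drop (p.β T (i + 1))) with hk
  have hs : g * x * k = p.ph u := (h.split u (h.β_mono T (Nat.lt_succ_self i))).symm
  set wl := ∑ j ∈ Finset.range i, p.e j (p.seg u (p.β T j) (p.β T (j + 1))) with hwl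
  set wr := ∑ j ∈ Finset.Ico (i + 1) p.m, p.e j (p.seg u (p.β T j) (p.β T (j + 1))) with hwr
  have hw : p.wt u = wl + p.e i x + wr := by
    rw [hwl, hwr, hx]
    unfold Par.wt
    rw [← hT]
    simp only [Finset.range_eq_Ico]
    rw [← Finset.sum_Ico_consecutive _ (Nat.zero_le i) hi.le,
      Finset.sum_eq_sum_Ico_succ_bot hi, ← add_assoc]
  obtain ⟨c, c1, c2, c3, c4, c5, c6, c7⟩ := hN i hi g wl k wr (p.F (p.ph u) (p.wt u) +
    p.act v (p.ph u))
  have hgood : p.Good c := by
    intro z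
    rw [c1, c2, c3, c4, c5, c6, c7]
    have := hF g x k hs z
    rw [← this]
    congr 2
    rw [hw]
    abel
  obtain ⟨o, o1, o2, o3, o4, o5⟩ := hav c (by rw [c1]; exact hi)
  rw [c1] at o1 o2 o4
  have hAm : p.A (i + 1) ≤ p.A p.m := h.A_mono hi
  have hoT : o ≤ T := by omega
  have hPl : (u.take o).length = o := by rw [List.length_take]; omega
  have hQl : (u.drop o).length = T - o := by rw [List.length_drop]
  have hTo : o + (T - o) = T := by omega
  have hbl : ∀ j ≤ i, p.β T j = p.β o j := fun j hj => by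
    have := h.β_left (o := o) (q := T - o) hj o4 (by omega)
    rw [hTo] at this
    exact this
  have hbi : ∀ j ≤ i, p.β T j ≤ o := fun j hj => by
    have h1 := (h.β_le T j).2
    have h2 := h.Astep j
    rcases Nat.lt_or_ge j i with h3 | h3
    · have h4 := h.A_mono (Nat.succ_le_of_lt h3)
      simp only [Nat.succ_eq_add_one] at h4
      omega
    · have : j = i := le_antisymm hj h3
      subst this
      omega
  have hbr : ∀ j, i + 1 ≤ j → o ≤ p.β T j := fun j hj => by
    have h1 := (h.β_le T j).1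
    have h2 := h.A_mono hj
    omega
  have hue : u.take o ++ u.drop o = u := List.take_append_drop _ _
  have hLL : p.LL (u.take o) c := by
    refine ⟨hgood, ?_, ?_, ?_, ?_, ?_⟩
    · rw [hPl]; exact o3
    · rw [hPl, c1]; exact o1
    · rw [hPl, c1]; exact o2
    · rw [hPl, c1, c2, ← hbl i le_rfl, List.take_take, min_eq_left (hbi i le_rfl)]
    · rw [hPl, c1, c3, hwl]
      refine Finset.sum_congr rfl fun j hj => ?_
      have hj' := Finset.mem_range.1 hj
      rw [← hbl j hj'.le, ← hbl (j + 1) hj']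
      have := seg_left (p := p) (P := u.take o) (Q := u.drop o) (a := p.β T j)
        (b := p.β T (j + 1)) (by rw [hPl]; exact hbi (j + 1) hj')
      rw [hue] at this
      rw [this]
  have hRR : p.RR (u.drop o) c := by
    refine ⟨hgood, ?_, ?_, ?_, ?_, ?_⟩
    · rw [hQl]; exact o5
    · rw [hQl, c1]; exact o4
    · rw [c1]; exact hi
    · rw [hQl]; omega
    · intro o' ho1 ho2
      rw [c1] at ho1 ho2 ⊢
      rw [hQl]
      constructor
      · rw [hd i (i + 1) o o' (Nat.lt_succ_self i) hi o1 o2 ho1 ho2, List.drop_drop, c4, hk]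
        congr 2
        have := hbr (i + 1) le_rfl
        omega
      · rw [c5, hwr]
        refine Finset.sum_congr rfl fun j hj => ?_
        have hj' := Finset.mem_Ico.1 hj
        rw [hd i j o o' hj'.1 hj'.2.le o1 o2 ho1 ho2,
          hd i (j + 1) o o' (by omega) hj'.2 o1 o2 ho1 ho2]
        have := seg_right (p := p) (P := u.take o) (Q := u.drop o) (a := p.β T j)
          (b := p.β T (j + 1)) (by rw [hPl]; exact hbr j hj'.1) (h.β_mono T (Nat.lt_succ_self j))
        rw [hue, hPl] at this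
        rw [this]
  exact ⟨u.take o, u.drop o, hue, by rw [lam_eq hLL, c6], rho_isSome hRR⟩

end Crest.Agent.R320.Grid_464
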