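import Crest.Agent.R320.Gad1_420
import Crest.Agent.R320.Names_570
import Crest.Agent.R320.RandF_808

/-!
Row 320, helper646: the grid gadget of 693 on words (no small walls, all contents, all lengths).
-/

set_option autoImplicit false
set_option linter.unusedSectionVars false
set_option linter.unusedVariables false

namespace Crest.Agent.R320.Grid_646

open Finset
open Crest.Agent.R320.Gad1_420 (seg seg_left seg_right seg_split drop_app_right)

variable {α S V W : Type*}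

/-- data of the grid gadget -/
structure Grid (S V W : Type*) where
  act : V → S → V
  m : ℕ
  e : ℕ → S → W
  F : S → W → V
  G : ℕ → ℕ
  Am : ℕ → ℕ
  M : ℕ
  LN : ℕ → Fin m × S × W × S × W × V → Prop
  RN : ℕ → Fin m × S × W × S × W × V → Prop

variable [Monoid S] [AddCommGroup V] [AddCommGroup W] (D : Grid S V W)

/-- boundary `j` of a word of length `T`. -/
def Grid.bt (T j : ℕ) : ℕ := T - D.G j * ((T - D.Am j) / D.G j)

/-- hole `j` -/
def Grid.zz (φ : List α → S) (Y : List α) (j : ℕ) : S :=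
  φ (seg Y (D.bt Y.length j) (D.bt Y.length (j + 1)))

/-- weight -/
def Grid.ww (φ : List α → S) (Y : List α) : W := ∑ k ∈ range D.m, D.e k (D.zz φ Y k)

/-- end value of a name -/
def Grid.bb (i : ℕ) (g : S) (wl : W) (h : S) (wr : W) (v : V) : V :=
  D.F (g * 1 * h) (wl + D.e i 1 + wr) + D.act v (g * 1 * h)

/-- good names -/
def Grid.ok (i : ℕ) (g : S) (wl : W) (h : S) (wr : W) (v : V) : Prop :=
  ∀ z, D.F (g * z * h) (wl + D.e i z + wr) + D.act v (g * z * h) = D.bb i g wl h wr v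

/-- left legality -/
def Grid.LL (φ : List α → S) (i : Fin D.m) (g : S) (wl : W) (h : S) (wr : W) (v : V)
    (P : List α) : Prop :=
  D.ok i g wl h wr v ∧ D.Am i + D.G i ≤ P.length ∧ P.length < D.Am i + D.G i + D.M * D.G i ∧
  D.LN P.length (i, g, wl, h, wr, v) ∧ g = φ (P.take (D.bt P.length i)) ∧
  wl = ∑ k ∈ range i, D.e k (D.zz φ P k)

/-- distance from the right end of boundary `k`, as computed by the right side at level `i` -/
def Grid.rq (i n k : ℕ) : ℕ := D.G k * ((D.Am i + D.G i + n - D.Am k) / D.G k)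

/-- the right side knows all later boundaries -/
def Grid.Vis (i n : ℕ) : Prop :=
  ∀ k, i < k → k ≤ D.m → ∀ t < D.M * D.G i,
    (D.Am i + D.G i + t + n - D.Am k) / D.G k = (D.Am i + D.G i + n - D.Am k) / D.G k

/-- right legality -/
def Grid.RR (φ : List α → S) (i : Fin D.m) (g : S) (wl : W) (h : S) (wr : W) (v : V)
    (Q : List α) : Prop :=
  D.ok i g wl h wr v ∧ D.G i ∣ Q.length ∧ D.Am D.m ≤ Q.length ∧
  D.RN Q.length (i, g, wl, h, wr, v) ∧ D.Vis i Q.length ∧
  h = φ (Q.drop (Q.length - D.rq i Q.length (i + 1))) ∧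
  wr = ∑ k ∈ Ico ((i : ℕ) + 1) D.m, D.e k (φ (seg Q (Q.length - D.rq i Q.length k)
    (Q.length - D.rq i Q.length (k + 1))))

/-- geometry -/
structure Geo (D : Grid S V W) : Prop where
  Gpos : ∀ j, 0 < D.G j
  Gdvd : ∀ j, D.G j ∣ D.G (j + 1)
  cop : ∀ j, Nat.Coprime (D.G j) D.M
  Mpos : 0 < D.M
  step : ∀ j, D.Am j + D.G j + D.M * D.G j ≤ D.Am (j + 1)

variable {D}

theorem Geo.dvd (hD : Geo D) {i j : ℕ} (h : i ≤ j) : D.G i ∣ D.G j := by
  induction h with
  | refl => exact dvd_rfl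
  | step _ ih => exact ih.trans (hD.Gdvd _)

theorem Geo.Gle (hD : Geo D) {i j : ℕ} (h : i ≤ j) : D.G i ≤ D.G j :=
  Nat.le_of_dvd (hD.Gpos j) (hD.dvd h)

theorem Geo.mono (hD : Geo D) {i j : ℕ} (h : i ≤ j) : D.Am i ≤ D.Am j :=
  monotone_nat_of_le_succ (fun k => by have := hD.step k; omega) h

theorem Geo.lt (hD : Geo D) {i j : ℕ} (h : i < j) :
    D.Am i + D.G i + D.M * D.G i ≤ D.Am j := (hD.step i).trans (hD.mono h)

theorem mul_div_le' (a b : ℕ) : b * (a / b) ≤ a := Nat.mul_div_le a b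

theorem bt_le (T j : ℕ) : D.bt T j ≤ T := Nat.sub_le _ _

theorem bt_ge {T j : ℕ} (h : D.Am j ≤ T) : D.Am j ≤ D.bt T j := by
  unfold Grid.bt
  have := mul_div_le' (T - D.Am j) (D.G j)
  omega

theorem bt_lt (hD : Geo D) {T j : ℕ} (h : D.Am j ≤ T) : D.bt T j < D.Am j + D.G j := by
  unfold Grid.bt
  have h1 := Nat.mod_add_div (T - D.Am j) (D.G j)
  have h2 := Nat.mod_lt (T - D.Am j) (hD.Gpos j)
  have h3 := hD.Gpos j
  omega

theorem bt_mono (hD : Geo D) {T j : ℕ} (h : D.Am (j + 1) ≤ T) : D.bt T j ≤ D.bt T (j + 1) := by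
  have h1 := hD.step j
  have h2 := bt_lt hD (T := T) (j := j) (by omega)
  have h3 := bt_ge (D := D) h
  omega

/-- the left side knows the boundaries up to its level. -/
theorem bt_left (hD : Geo D) {o o' j : ℕ} (h1 : D.Am j ≤ o) (h2 : D.G j ∣ o') :
    D.bt (o + o') j = D.bt o j := by
  obtain ⟨q, rfl⟩ := h2
  unfold Grid.bt
  have h3 : o + D.G j * q - D.Am j = (o - D.Am j) + D.G j * q := by omega
  rw [h3, Nat.add_mul_div_left _ _ (hD.Gpos j), mul_add]
  have := mul_div_le' (o - D.Am j) (D.G j)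
  omega

/-- the right side knows the later boundaries. -/
theorem bt_right (hD : Geo D) {i k o n : ℕ} (hik : i < k) (hkm : k ≤ D.m) (hn : D.Am D.m ≤ n)
    (h1 : D.Am i + D.G i ≤ o) (h2 : o < D.Am i + D.G i + D.M * D.G i) (hv : D.Vis i n) :
    D.rq i n k ≤ n ∧ D.bt (o + n) k = o + (n - D.rq i n k) := by
  obtain ⟨t, rfl⟩ := Nat.exists_eq_add_of_le h1
  have h3 := hv k hik hkm t (by omega)
  have h4 := hD.lt hik
  have h5 := hD.mono hkm
  have h6 := mul_div_le' (D.Am i + D.G i + n - D.Am k) (D.G k)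
  have h7 : D.rq i n k ≤ n := by
    unfold Grid.rq
    omega
  refine ⟨h7, ?_⟩
  unfold Grid.bt
  rw [h3]
  have h8 : D.G k * ((D.Am i + D.G i + n - D.Am k) / D.G k) = D.rq i n k := rfl
  rw [h8]
  omega

/-- reading a junction -/
theorem read (hD : Geo D) {φ : List α → S} (hφ : ∀ u v, φ (u ++ v) = φ u * φ v) {P Q : List α}
    {i : ℕ} (him : i < D.m) (h1 : D.Am i + D.G i ≤ P.length)
    (h2 : P.length < D.Am i + D.G i + D.M * D.G i) (h3 : D.G i ∣ Q.length)
    (h4 : D.Am D.m ≤ Q.length) (hv : D.Vis i Q.length) :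
    φ ((P ++ Q).take (D.bt (P ++ Q).length i)) = φ (P.take (D.bt P.length i)) ∧
    (∑ k ∈ range i, D.e k (D.zz φ (P ++ Q) k)) = (∑ k ∈ range i, D.e k (D.zz φ P k)) ∧
    φ ((P ++ Q).drop (D.bt (P ++ Q).length (i + 1))) =
      φ (Q.drop (Q.length - D.rq i Q.length (i + 1))) ∧
    (∑ k ∈ Ico (i + 1) D.m, D.e k (D.zz φ (P ++ Q) k)) =
      ∑ k ∈ Ico (i + 1) D.m, D.e k (φ (seg Q (Q.length - D.rq i Q.length k)
        (Q.length - D.rq i Q.length (k + 1)))) ∧
    φ (P ++ Q) = φ ((P ++ Q).take (D.bt (P ++ Q).length i)) * D.zz φ (P ++ Q) i *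
      φ ((P ++ Q).drop (D.bt (P ++ Q).length (i + 1))) ∧
    D.ww φ (P ++ Q) = (∑ k ∈ range i, D.e k (D.zz φ (P ++ Q) k)) + D.e i (D.zz φ (P ++ Q) i) +
      ∑ k ∈ Ico (i + 1) D.m, D.e k (D.zz φ (P ++ Q) k) := by
  have hl : (P ++ Q).length = P.length + Q.length := List.length_append
  have hB : ∀ k, k ≤ i → D.bt (P ++ Q).length k = D.bt P.length k := fun k hk => by
    rw [hl]
    have := hD.mono hk
    exact bt_left hD (by omega) ((hD.dvd hk).trans h3)
  have hR : ∀ k, i < k → k ≤ D.m →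
      D.bt (P ++ Q).length k = P.length + (Q.length - D.rq i Q.length k) := fun k hk hkm => by
    rw [hl]
    exact (bt_right hD hk hkm h4 h1 h2 hv).2
  have hi1 := hB i le_rfl
  have hle : D.bt P.length i ≤ P.length := bt_le _ _
  refine ⟨?_, ?_, ?_, ?_, ?_, ?_⟩
  · rw [hi1, List.take_append_of_le_length hle]
  · refine Finset.sum_congr rfl fun k hk => ?_
    have hk' := Finset.mem_range.1 hk
    have h5 := hD.mono (show k + 1 ≤ i from hk')
    unfold Grid.zz
    rw [hB k hk'.le, hB (k + 1) hk', seg_left (bt_mono hD (by omega)) (bt_le _ _)]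
  · rw [hR (i + 1) (Nat.lt_succ_self i) him, drop_app_right]
  · refine Finset.sum_congr rfl fun k hk => ?_
    obtain ⟨hk1, hk2⟩ := Finset.mem_Ico.1 hk
    unfold Grid.zz
    rw [hR k (by omega) (by omega), hR (k + 1) (by omega) (by omega), seg_right]
  · have h5 : D.bt (P ++ Q).length i ≤ D.bt (P ++ Q).length (i + 1) := by
      rw [hi1, hR (i + 1) (Nat.lt_succ_self i) him]
      omega
    have h6 := seg_split (Y := P ++ Q) h5
    conv_lhs => rw [← h6]
    rw [hφ, hφ]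
    rfl
  · unfold Grid.ww
    rw [← Finset.sum_range_add_sum_Ico _ (show i + 1 ≤ D.m from him), Finset.sum_range_succ]

open Classical in
/-- left label -/
noncomputable def Grid.Lf (D : Grid S V W) (φ : List α → S) (P : List α) : Option V :=
  if h : ∃ c : Fin D.m × S × W × S × W × V,
      D.LL φ c.1 c.2.1 c.2.2.1 c.2.2.2.1 c.2.2.2.2.1 c.2.2.2.2.2 P then
    some h.choose.2.2.2.2.2 else none

open Classical in
/-- right label -/
noncomputable def Grid.Rf (D : Grid S V W) (φ : List α → S) (Q : List α) : Option V :=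
  if h : ∃ c : Fin D.m × S × W × S × W × V,
      D.RR φ c.1 c.2.1 c.2.2.1 c.2.2.2.1 c.2.2.2.2.1 c.2.2.2.2.2 Q then
    some (D.bb h.choose.1 h.choose.2.1 h.choose.2.2.1 h.choose.2.2.2.1 h.choose.2.2.2.2.1
      h.choose.2.2.2.2.2) else none

theorem Lf_some {φ : List α → S} {P : List α} {v : V} (h : D.Lf φ P = some v) :
    ∃ (i : Fin D.m) (g : S) (wl : W) (h : S) (wr : W), D.LL φ i g wl h wr v P := by
  classical
  unfold Grid.Lf at h
  split_ifs at h with h1
  · have := h1.choose_spec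
    rw [Option.some.injEq] at h
    rw [h] at this
    exact ⟨_, _, _, _, _, this⟩

theorem Rf_some {φ : List α → S} {Q : List α} {r : V} (h : D.Rf φ Q = some r) :
    ∃ (i : Fin D.m) (g : S) (wl : W) (h : S) (wr : W) (v : V),
      D.RR φ i g wl h wr v Q ∧ r = D.bb i g wl h wr v := by
  classical
  unfold Grid.Rf at h
  split_ifs at h with h1
  · have := h1.choose_spec
    rw [Option.some.injEq] at h
    exact ⟨_, _, _, _, _, _, this, h.symm⟩

theorem Lf_isSome {φ : List α → S} {P : List α} {i : Fin D.m} {g : S} {wl : W} {h : S} {wr : W}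
    {v : V} (hc : D.LL φ i g wl h wr v P) : ∃ v', D.Lf φ P = some v' := by
  classical
  unfold Grid.Lf
  rw [dif_pos ⟨(i, g, wl, h, wr, v), hc⟩]
  exact ⟨_, rfl⟩

theorem Rf_isSome {φ : List α → S} {Q : List α} {i : Fin D.m} {g : S} {wl : W} {h : S} {wr : W}
    {v : V} (hc : D.RR φ i g wl h wr v Q) : (D.Rf φ Q).isSome := by
  classical
  unfold Grid.Rf
  rw [dif_pos ⟨(i, g, wl, h, wr, v), hc⟩]
  rfl

/-- the name system -/
structure Names (D : Grid S V W) (good : ℕ → Prop) : Prop where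
  perL : ∀ t c, D.LN (t + D.M) c ↔ D.LN t c
  perR : ∀ t c, D.RN (t + D.M) c ↔ D.RN t c
  n1 : ∀ T, good T → ∀ o o' c c', o + o' = T → D.LN o c → D.RN o' c' → c = c'
  n2 : ∀ T, good T → ∀ c s, s + D.M ≤ T → ∃ o, s ≤ o ∧ o < s + D.M ∧ D.LN o c ∧ D.RN (T - o) c
  n3 : ∀ T, ¬ good T → ∃ v0 r0 : V, ∀ o o' c c', o + o' = T → D.LN o c → D.RN o' c' →
    c.2.2.2.2.2 = v0 ∧ D.bb c'.1 c'.2.1 c'.2.2.1 c'.2.2.2.1 c'.2.2.2.2.1 c'.2.2.2.2.2 = r0

theorem per_iff {M : ℕ} {p : ℕ → Prop} (h : ∀ t, p (t + M) ↔ p t) {a b : ℕ}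
    (hab : a ≡ b [MOD M]) : p a ↔ p b := by
  have h1 : ∀ k t, p (t + M * k) ↔ p t := by
    intro k
    induction k with
    | zero => intro t; simp
    | succ k ih =>
      intro t
      rw [Nat.mul_succ, ← add_assoc, h]
      exact ih t
  have h2 : ∀ t, p t ↔ p (t % M) := by
    intro t
    conv_lhs => rw [← Nat.mod_add_div t M]
    exact h1 _ _
  rw [h2 a, h2 b, hab]

/-- availability of a name on the grid -/
theorem avail {good : ℕ → Prop} (hD : Geo D) (hN : Names D good) {T i s : ℕ} (hg : good T)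
    (c : Fin D.m × S × W × S × W × V) (hs : s + D.M * D.G i ≤ T) :
    ∃ o, s ≤ o ∧ o < s + D.M * D.G i ∧ D.G i ∣ T - o ∧ D.LN o c ∧ D.RN (T - o) c := by
  have hGp := hD.Gpos i
  have hMp := hD.Mpos
  have hMG : D.M ≤ D.M * D.G i := Nat.le_mul_of_pos_right _ hGp
  obtain ⟨t, t1, t2, t3, t4⟩ := hN.n2 T hg c s (by omega)
  have hcop : Nat.Coprime D.M (D.G i) := (hD.cop i).symm
  obtain ⟨k, hk1, hk2⟩ := Nat.chineseRemainder hcop t T
  set L := D.M * D.G i with hL
  have hLp : 0 < L := Nat.mul_pos hMp hGp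
  -- shift `k` into the window
  let o := s + (k + L * s - s) % L
  have ho1 : s ≤ o := Nat.le_add_right _ _
  have ho2 : o < s + L := by
    have := Nat.mod_lt (k + L * s - s) hLp
    show s + _ < _
    omega
  have hsL : s ≤ L * s := Nat.le_mul_of_pos_left _ hLp
  have ho3 : o ≡ k [MOD L] := by
    show s + (k + L * s - s) % L ≡ k [MOD L]
    have e1 : s + (k + L * s - s) % L ≡ s + (k + L * s - s) [MOD L] :=
      Nat.ModEq.add_left _ (Nat.mod_modEq _ _)
    have e2 : s + (k + L * s - s) = k + L * s := by omega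
    rw [e2] at e1
    exact e1.trans (by
      unfold Nat.ModEq
      rw [Nat.add_mul_mod_self_left])
  have ho4 : o ≡ t [MOD D.M] := (ho3.of_mul_right _).trans hk1
  have ho5 : o ≡ T [MOD D.G i] := (ho3.of_mul_left _).trans hk2
  refine ⟨o, ho1, ho2, (Nat.modEq_iff_dvd' (by omega)).1 ho5, ?_, ?_⟩
  · exact (per_iff (p := fun t => D.LN t c) (fun t => hN.perL t c) ho4).2 t3
  · refine (per_iff (p := fun t => D.RN t c) (fun t => hN.perR t c) ?_).2 t4
    have e1 : T - o + o ≡ T - t + t [MOD D.M] := by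
      rw [Nat.sub_add_cancel (by omega), Nat.sub_add_cancel (by omega)]
    exact Nat.ModEq.add_right_cancel ho4 e1

/-- visibility off the bad band -/
theorem vis_of (hD : Geo D) {T i o : ℕ} (h1 : D.Am i + D.G i ≤ o)
    (h2 : o < D.Am i + D.G i + D.M * D.G i) (hT : 2 * D.Am D.m ≤ T) (him : i < D.m)
    (hb : ∀ k, k < D.m → D.M * D.G k ≤ (T - D.Am (k + 1)) % D.G (k + 1) ∧
      (T - D.Am (k + 1)) % D.G (k + 1) + D.M * D.G k ≤ D.G (k + 1)) :
    D.Vis i (T - o) := by
  intro k hik hkm t ht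
  obtain ⟨k, rfl⟩ : ∃ k', k = k' + 1 := ⟨k - 1, by omega⟩
  obtain ⟨b1, b2⟩ := hb k (by omega)
  have h3 : D.M * D.G i ≤ D.M * D.G k := Nat.mul_le_mul_left _ (hD.Gle (by omega))
  have h4 := hD.lt hik
  have h5 := hD.mono hkm
  have hGp := hD.Gpos (k + 1)
  set X := T - D.Am (k + 1) with hX
  have hXe := Nat.mod_add_div X (D.G (k + 1))
  have key : ∀ t < D.M * D.G i, (D.Am i + D.G i + t + (T - o) - D.Am (k + 1)) / D.G (k + 1) =
      X / D.G (k + 1) := by
    intro t ht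
    have e : D.Am i + D.G i + t + (T - o) - D.Am (k + 1) = X + t + (D.Am i + D.G i) - o := by omega
    rw [e, Nat.div_eq_iff hGp]
    rw [mul_comm (X / D.G (k + 1))]
    constructor <;> omega
  have e0 := key 0 (by have := hD.Mpos; have := hD.Gpos i; positivity)
  rw [key t ht]
  rw [add_zero] at e0
  exact e0.symm

/-- **GRID GADGET** -/
theorem gadget0 (D : Grid S V W) (good : ℕ → Prop) (hD : Geo D) (hN : Names D good)
    (hF : ∀ s w v, ∃ i < D.m, ∀ g x h, g * x * h = s → ∀ z,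
      D.F (g * z * h) (w - D.e i x + D.e i z) + D.act v (g * z * h) = D.F s w + D.act v s)
    (φ : List α → S) (hφ : ∀ u v, φ (u ++ v) = φ u * φ v) :
    ∃ nu : List α → V,
      (∀ P Q v r, D.Lf φ P = some v → D.Rf φ Q = some r →
        r = D.act v (φ (P ++ Q)) + nu (P ++ Q)) ∧
      (∀ P v, D.Lf φ P = some v → P.length < D.Am D.m) ∧
      (∀ Q r, D.Rf φ Q = some r → D.Am D.m ≤ Q.length) ∧
      (∀ Y : List α, good Y.length → 2 * D.Am D.m ≤ Y.length →
        (∀ k, k < D.m → D.M * D.G k ≤ (Y.length - D.Am (k + 1)) % D.G (k + 1) ∧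
          (Y.length - D.Am (k + 1)) % D.G (k + 1) + D.M * D.G k ≤ D.G (k + 1)) →
        ∀ v, ∃ P Q, P ++ Q = Y ∧ D.Lf φ P = some v ∧ (D.Rf φ Q).isSome) := by
  classical
  have hn3 : ∀ T, ∃ v0 r0 : V, ¬ good T → ∀ o o' c c', o + o' = T → D.LN o c → D.RN o' c' →
    c.2.2.2.2.2 = v0 ∧ D.bb c'.1 c'.2.1 c'.2.2.1 c'.2.2.2.1 c'.2.2.2.2.1 c'.2.2.2.2.2 = r0 := by
    intro T
    by_cases h : good T
    · exact ⟨0, 0, fun h' => absurd h h'⟩
    · obtain ⟨v0, r0, h0⟩ := hN.n3 T h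
      exact ⟨v0, r0, fun _ => h0⟩
  choose v0 r0 h0 using hn3
  refine ⟨fun Y => if good Y.length then D.F (φ Y) (D.ww φ Y) else
    r0 Y.length - D.act (v0 Y.length) (φ Y), ?_, ?_, ?_, ?_⟩
  · intro P Q v r hP hQ
    obtain ⟨i, g, wl, h, wr, hL⟩ := Lf_some hP
    obtain ⟨i', g', wl', h', wr', v', hR, hr⟩ := Rf_some hQ
    have hcl : P.length + Q.length = (P ++ Q).length := List.length_append.symm
    beta_reduce
    by_cases hg : good (P ++ Q).length
    · rw [if_pos hg]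
      have hcc := hN.n1 _ hg _ _ _ _ hcl hL.2.2.2.1 hR.2.2.2.1
      simp only [Prod.mk.injEq] at hcc
      obtain ⟨rfl, rfl, rfl, rfl, rfl, rfl⟩ := hcc
      obtain ⟨hok, ha1, ha2, -, hg1, hwl1⟩ := hL
      obtain ⟨-, hdv, hge, -, hvis, hh1, hwr1⟩ := hR
      obtain ⟨e1, e2, e3, e4, e5, e6⟩ := read hD hφ i.2 ha1 ha2 hdv hge hvis
      have := hok (D.zz φ (P ++ Q) i)
      rw [e5, e6, e1, e2, e3, e4, ← hg1, ← hh1, ← hwl1, ← hwr1, hr, ← this, add_comm]
    · rw [if_neg hg]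
      obtain ⟨q1, q2⟩ := h0 _ hg _ _ _ _ hcl hL.2.2.2.1 hR.2.2.2.1
      simp only at q1 q2
      rw [hr, q2, ← q1]
      abel
  · intro P v hP
    obtain ⟨i, g, wl, h, wr, hL⟩ := Lf_some hP
    have := hD.lt i.2
    have := hL.2.2.1
    omega
  · intro Q r hQ
    obtain ⟨i', g', wl', h', wr', v', hR, hr⟩ := Rf_some hQ
    exact hR.2.2.1
  · intro Y hg hlen hb v
    obtain ⟨i, him, hi⟩ := hF (φ Y) (D.ww φ Y) v
    set g := φ (Y.take (D.bt Y.length i)) with hgdef
    set wl := ∑ k ∈ range i, D.e k (D.zz φ Y k) with hwldef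
    set h := φ (Y.drop (D.bt Y.length (i + 1))) with hhdef
    set wr := ∑ k ∈ Ico (i + 1) D.m, D.e k (D.zz φ Y k) with hwrdef
    have h3 := hD.lt him
    obtain ⟨o, ho1, ho2, ho3, ho4, ho5⟩ := avail hD hN (T := Y.length) (i := i)
      (s := D.Am i + D.G i) hg (⟨i, him⟩, g, wl, h, wr, v) (by omega)
    set P := Y.take o with hP
    set Q := Y.drop o with hQ
    have hPQ : P ++ Q = Y := List.take_append_drop _ _
    have hPl : P.length = o := by rw [hP, List.length_take]; omega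
    have hQl : Q.length = Y.length - o := by rw [hQ, List.length_drop]
    have hv : D.Vis i Q.length := by
      rw [hQl]
      exact vis_of hD ho1 ho2 hlen him hb
    have hQge : D.Am D.m ≤ Q.length := by rw [hQl]; omega
    obtain ⟨e1, e2, e3, e4, e5, e6⟩ := read hD hφ (P := P) (Q := Q) him (by rw [hPl]; exact ho1)
      (by rw [hPl]; exact ho2) (by rw [hQl]; exact ho3) hQge hv
    rw [hPQ] at e1 e2 e3 e4 e5 e6
    rw [← hgdef, ← hhdef] at e5
    rw [← hwldef, ← hwrdef] at e6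
    have hall : ∀ z, D.F (g * z * h) (wl + D.e i z + wr) + D.act v (g * z * h) =
        D.F (φ Y) (D.ww φ Y) + D.act v (φ Y) := by
      intro z
      have := hi g (D.zz φ Y i) h e5.symm z
      rw [← this, e6]
      congr 2
      abel
    have hok : D.ok i g wl h wr v := by
      intro z
      rw [hall z]
      exact (hall 1).symm
    have hLL : D.LL φ ⟨i, him⟩ g wl h wr v P :=
      ⟨hok, by rw [hPl]; exact ho1, by rw [hPl]; exact ho2, by rw [hPl]; exact ho4, e1, e2⟩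
    have hRR : D.RR φ ⟨i, him⟩ g wl h wr v Q :=
      ⟨hok, by rw [hQl]; exact ho3, hQge, by rw [hQl]; exact ho5, hv, e3, e4⟩
    refine ⟨P, Q, hPQ, ?_, Rf_isSome hRR⟩
    obtain ⟨v', hv'⟩ := Lf_isSome hLL
    obtain ⟨i2, g2, wl2, h2, wr2, hL2⟩ := Lf_some hv'
    have hcl : P.length + Q.length = Y.length := by rw [hPl, hQl]; omega
    have hcc := hN.n1 _ hg _ _ _ _ hcl hL2.2.2.2.1 hRR.2.2.2.1
    simp only [Prod.mk.injEq] at hcc
    rw [hv', hcc.2.2.2.2.2]

end Crest.Agent.R320.Grid_646
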