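import Crest.Agent.R320.NestInf_163
import Crest.Agent.R320.ExactR_237
import Crest.Agent.R320.FewVal_228

/-!
# Row 320: the interface of scheme 1 (pure words, no walls) for the assembly of helper745

`Grid` = scheme 1 of 693 #13203 / 638 UG as a black box.
-/

set_option autoImplicit false

namespace Crest.Agent.R320.Grid_745

open Crest.RegLang Crest.Agent.R320.Hgt1_903 Crest.Agent.R320.Three_427

/-- scheme 1 as a black box: places counted from the start of `Y`, `Bad` periodic mod `M`,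
`c` = ruler of scheme 2 (`K` places). -/
structure Grid (α S V : Type) [Monoid S] [AddCommGroup V] (φ : α → S) (act : V → S → V)
    (R0 K : ℕ) where
  N1 : ℕ
  M : ℕ
  Z : ℕ
  c : ℕ → ℕ
  LL : List α → V → Prop
  rho : List α → Option V
  nu : List α → V
  Bad : ℕ → Prop
  hM : 0 < M
  mono : ∀ i j, i < j → j < K → c i < c j
  ruler : ∀ i j k l, i < K → j < K → k < K → l < K → i ≠ j → k ≠ l →
    (c i : ℤ) - c j ≤ (c k : ℤ) - c l + 2 * N1 → (c k : ℤ) - c l ≤ (c i : ℤ) - c j + 2 * N1 →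
    i = k ∧ j = l
  len : ∀ P v, LL P v → P.length ≤ N1
  ne : ∀ Q, (rho Q).isSome → Q ≠ []
  sound : ∀ P Q v b, LL P v → rho Q = some b →
    b = act v ((P ++ Q).map φ).prod + nu (P ++ Q)
  complete : ∀ Y : List α, Z ≤ Y.length → ¬ Bad Y.length → ∀ v, ∃ P Q, Y = P ++ Q ∧ LL P v ∧
    (rho Q).isSome
  per : ∀ T, Bad (T + M) ↔ Bad T
  spoil : ∀ T, (∀ i < K, c i ≤ T) → ∃ s : Finset (ℕ × ℕ), s.card ≤ R0 ∧
    ∀ i < K, ∀ j < K, i ≠ j → Bad (T + c j - c i) → (i, j) ∈ s
  regρ : ∀ b, Language.IsRegular ({Q | rho Q = some b} : Language α)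
  regν : ∀ x, Language.IsRegular ({Y | nu Y = x} : Language α)

end Crest.Agent.R320.Grid_745
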