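import Crest.Agent.R320.NameGad_808
import Crest.Agent.R320.Gad1_420

/-!
Row 320, helper760: the U-gadget on ALL words (no small walls, no run-free promise), 693's
b-anchored nested grids `G k = (2^kap)^k` on top of 808's `unknownT_gadget` (clock = residues of the
length modulo odd pairwise coprime `q j`).

`UG`: labels `lam`, `rho`, noise `nu`, exact for ALL pairs, complete for every `u` whose length is
large and not in the thin set `Bad`.
-/

set_option autoImplicit false

namespace Crest.Agent.R320.Grid760

open Finset Crest.Agent.R320.Gad1_420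

/-- the geometry -/
structure Geo where
  m : ℕ
  G : ℕ → ℕ
  c : ℕ → ℕ
  a : ℕ → ℕ
  Gpos : ∀ k, 0 < G k
  Gdvd : ∀ i k, i ≤ k → G i ∣ G k
  cmono : ∀ i k, i ≤ k → c i ≤ c k
  a_succ : ∀ k, a (k + 1) = a k + G k + c k

namespace Geo

variable (D : Geo)

/-- start of the cell `i` -/
def A (i : ℕ) : ℕ := D.a i + D.G i

theorem a_mono {i k : ℕ} (h : i ≤ k) : D.a i ≤ D.a k := by
  induction h with
  | refl => exact le_rfl
  | step _ ih => rw [D.a_succ]; omega

theorem A_le {i k : ℕ} (h : i < k) : D.A i + D.c i ≤ D.a k := by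
  have h1 := D.a_succ i
  have h2 := D.a_mono (show i + 1 ≤ k from h)
  unfold A; omega

/-- the boundary `k` of a zone of length `T` -/
def be (T k : ℕ) : ℕ := D.a k + (T - D.a k) % D.G k

theorem be_lt (T k : ℕ) : D.be T k < D.A k := by
  have := Nat.mod_lt (T - D.a k) (D.Gpos k)
  unfold be A; omega

theorem be_ge (T k : ℕ) : D.a k ≤ D.be T k := Nat.le_add_right _ _

theorem be_left {o o' i k : ℕ} (hk : k ≤ i) (ho : D.A i ≤ o) (hd : D.G i ∣ o') :
    D.be (o + o') k = D.be o k := by
  have h1 := D.a_mono hk
  have h2 : D.a k ≤ o := by unfold A at ho; omega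
  obtain ⟨x, hx⟩ := (D.Gdvd k i hk).trans hd
  unfold be
  rw [show o + o' - D.a k = (o - D.a k) + D.G k * x by rw [← hx]; omega, Nat.add_mul_mod_self_left]

/-- visibility of the later boundaries from the right word of length `o'`, cell `i` -/
def Vis (i o' : ℕ) : Prop := ∀ k, i < k → k ≤ D.m → D.a k ≤ o' + D.A i ∧
  (o' + D.A i + D.c i - D.a k) / D.G k = (o' + D.A i - D.a k) / D.G k

/-- distance of the boundary `k` from the end, as seen from the right -/
def rb (i o' k : ℕ) : ℕ := D.G k * ((o' + D.A i - D.a k) / D.G k)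

theorem be_right {o o' i k : ℕ} (hik : i < k) (hkm : k ≤ D.m) (ho : D.A i ≤ o)
    (ho2 : o < D.A i + D.c i) (hv : D.Vis i o') :
    D.be (o + o') k = o + (o' - D.rb i o' k) ∧ D.rb i o' k ≤ o' := by
  obtain ⟨h1, h2⟩ := hv k hik hkm
  have h3 := D.A_le hik
  have h4 : (o + o' - D.a k) / D.G k = (o' + D.A i - D.a k) / D.G k := by
    apply le_antisymm
    · rw [← h2]; exact Nat.div_le_div_right (by omega)
    · exact Nat.div_le_div_right (by omega)
  have h5 := Nat.div_add_mod (o + o' - D.a k) (D.G k)
  have h6 := D.be_ge (o + o') k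
  rw [h4] at h5
  unfold rb be at *
  constructor <;> omega

/-- the doubtful lengths -/
def Doubt (T : ℕ) : Prop := ∃ k, k < D.m ∧
  (T + D.c k - D.a (k + 1)) / D.G (k + 1) ≠ (T - D.c k - D.a (k + 1)) / D.G (k + 1)

theorem vis_of {o T i : ℕ} (ho : D.A i ≤ o) (ho2 : o < D.A i + D.c i)
    (hT : D.a D.m + D.c D.m ≤ T) (hd : ¬ D.Doubt T) (him : i < D.m) : D.Vis i (T - o) := by
  intro k hik hkm
  have h0 := D.A_le hik
  have h1 := D.a_mono hkm
  have h2 := D.cmono i D.m him.le
  obtain ⟨l, rfl⟩ : ∃ l, k = l + 1 := ⟨k - 1, by omega⟩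
  have h3 := D.cmono i l (by omega)
  have h3' := D.cmono l D.m (by omega)
  refine ⟨by omega, ?_⟩
  have h4 : (T + D.c l - D.a (l + 1)) / D.G (l + 1) =
      (T - D.c l - D.a (l + 1)) / D.G (l + 1) := by
    by_contra hne
    exact hd ⟨l, by omega, hne⟩
  have h5 : (T - o + D.A i - D.a (l + 1)) / D.G (l + 1) ≤
      (T - o + D.A i + D.c i - D.a (l + 1)) / D.G (l + 1) :=
    Nat.div_le_div_right (by omega)
  have h6 : (T - o + D.A i + D.c i - D.a (l + 1)) / D.G (l + 1) ≤
      (T + D.c l - D.a (l + 1)) / D.G (l + 1) := Nat.div_le_div_right (by omega)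
  have h7 : (T - D.c l - D.a (l + 1)) / D.G (l + 1) ≤
      (T - o + D.A i - D.a (l + 1)) / D.G (l + 1) := Nat.div_le_div_right (by omega)
  omega

end Geo

section Words

variable {α S : Type*} [Monoid S] {N : ℕ} (D : Geo) (phi : List α → S)
  (e : ℕ → S → ZMod N × ZMod N)

/-- weight of the zone -/
def ww (u : List α) : ZMod N × ZMod N :=
  ∑ k ∈ range D.m, e k (phi (seg u (D.be u.length k) (D.be u.length (k + 1))))

/-- weight seen from the left -/
def wL (i : ℕ) (P : List α) : ZMod N × ZMod N :=
  ∑ k ∈ range i, e k (phi (seg P (D.be P.length k) (D.be P.length (k + 1))))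

/-- weight seen from the right -/
def wR (i : ℕ) (Q : List α) : ZMod N × ZMod N :=
  ∑ k ∈ Ico (i + 1) D.m, e k (phi (seg Q (Q.length - D.rb i Q.length k)
    (Q.length - D.rb i Q.length (k + 1))))

def gL (i : ℕ) (P : List α) : S := phi (P.take (D.be P.length i))

def hR (i : ℕ) (Q : List α) : S := phi (Q.drop (Q.length - D.rb i Q.length (i + 1)))

def zM (i : ℕ) (u : List α) : S := phi (seg u (D.be u.length i) (D.be u.length (i + 1)))

theorem read (hphi : ∀ u v, phi (u ++ v) = phi u * phi v) {P Q : List α} {i : ℕ}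
    (him : i < D.m) (ho : D.A i ≤ P.length) (ho2 : P.length < D.A i + D.c i)
    (hd : D.G i ∣ Q.length) (hv : D.Vis i Q.length) :
    gL D phi i P * zM D phi i (P ++ Q) * hR D phi i Q = phi (P ++ Q) ∧
    wL D phi e i P + e i (zM D phi i (P ++ Q)) + wR D phi e i Q = ww D phi e (P ++ Q) := by
  have hlen : (P ++ Q).length = P.length + Q.length := List.length_append
  have hl : ∀ k, k ≤ i → D.be (P ++ Q).length k = D.be P.length k := fun k hk => by
    rw [hlen]; exact D.be_left hk ho hd
  have hlb : ∀ k, k ≤ i → D.be P.length k ≤ P.length := fun k hk => by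
    have h1 := D.be_lt P.length k
    have h2 := D.a_mono hk
    rcases Nat.lt_or_ge k i with h | h
    · have h3 := D.A_le h
      have h4 : D.a i ≤ D.A i := Nat.le_add_right _ _
      omega
    · obtain rfl : k = i := le_antisymm hk h
      omega
  have hr : ∀ k, i < k → k ≤ D.m → D.be (P ++ Q).length k =
      P.length + (Q.length - D.rb i Q.length k) := fun k h1 h2 => by
    rw [hlen]; exact (D.be_right h1 h2 ho ho2 hv).1
  have hmono : ∀ k, D.be (P ++ Q).length k ≤ D.be (P ++ Q).length (k + 1) := fun k => by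
    have h1 := D.be_lt (P ++ Q).length k
    have h2 := D.be_ge (P ++ Q).length (k + 1)
    have h3 := D.A_le (show k < k + 1 from Nat.lt_succ_self k)
    omega
  constructor
  · have h1 := seg_split (Y := P ++ Q) (hmono i)
    conv_rhs => rw [← h1]
    rw [hphi, hphi]
    unfold gL zM hR
    rw [hl i le_rfl, hr (i + 1) (Nat.lt_succ_self i) him, drop_app_right,
      List.take_append_of_le_length (hlb i le_rfl)]
  · unfold ww wL wR zM
    rw [← Finset.sum_range_add_sum_Ico _ (show i + 1 ≤ D.m from him), Finset.sum_range_succ]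
    congr 1
    · congr 1
      refine Finset.sum_congr rfl fun k hk => ?_
      have hk' := Finset.mem_range.1 hk
      have hm := hmono k
      rw [hl k hk'.le, hl (k + 1) hk'] at hm ⊢
      rw [seg_left hm (hlb (k + 1) hk')]
    · refine Finset.sum_congr rfl fun k hk => ?_
      obtain ⟨hk1, hk2⟩ := Finset.mem_Ico.1 hk
      rw [hr k (by omega) (by omega), hr (k + 1) (by omega) (by omega), seg_right]

end Words

/-- the geometry of 693: `G k = g ^ k`, `c k = M * g ^ k` -/
def geo (m g M : ℕ) (hg : 0 < g) : Geo where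
  m := m
  G := fun k => g ^ k
  c := fun k => M * g ^ k
  a := fun k => ∑ j ∈ range k, (g ^ j + M * g ^ j)
  Gpos := fun k => pow_pos hg k
  Gdvd := fun i k h => pow_dvd_pow g h
  cmono := fun i k h => Nat.mul_le_mul_left _ (Nat.pow_le_pow_right hg h)
  a_succ := fun k => by rw [Finset.sum_range_succ]; ring

/-- **the U-gadget on all words** -/
theorem UG (S V : Type*) [Monoid S] [Finite S] [AddCommGroup V] [Finite V] (act : V → S → V) :
    ∃ m k : ℕ, ∀ q : Fin k → ℕ, (∀ j, Odd (q j)) →
      Pairwise (fun i j => Nat.Coprime (q i) (q j)) → ∀ (kap : ℕ),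
      ∃ (N1 : ℕ), ∀ (α : Type*) (phi : List α → S), (∀ u v, phi (u ++ v) = phi u * phi v) →
      ∃ (lam rho : List α → Option V) (nu : List α → V),
        (∀ P v, lam P = some v → P.length ≤ N1) ∧
        (∀ P Q v b, lam P = some v → rho Q = some b →
          b = act v (phi (P ++ Q)) + nu (P ++ Q)) ∧
        (∀ u : List α, N1 ≤ u.length → (∀ j, ¬ q j ∣ u.length) →
          ¬ (geo m (2 ^ kap) (∏ j, q j) (by positivity)).Doubt u.length →
          ∀ v, ∃ P Q, P ++ Q = u ∧ lam P = some v ∧ (rho Q).isSome) := by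
  classical
  obtain ⟨m, N, k, e, hN, hmain⟩ := Crest.Agent.R320.NameGad808.unknownT_gadget S V act
  refine ⟨m, k, fun q hq hc kap => ?_⟩
  obtain ⟨L, R, lev, Dn, hlev, hsound, hcomp⟩ := hmain q hq
  have hqpos : ∀ j, 0 < q j := fun j => (hq j).pos
  set M := ∏ j, q j with hM
  have hMpos : 0 < M := Finset.prod_pos fun j _ => hqpos j
  set D := geo m (2 ^ kap) M (by positivity) with hD
  have hDm : D.m = m := rfl
  refine ⟨D.a D.m + D.c D.m, fun α phi hphi => ?_⟩
  -- residues
  let rs : ℕ → (∀ j, ZMod (q j)) := fun o j => (o : ZMod (q j))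
  let LL : List α → V → Prop := fun P v => ∃ i < m, D.A i ≤ P.length ∧ P.length < D.A i + D.c i ∧
    L i (rs P.length) (gL D phi i P) (wL D phi e i P) = some v
  let RR : List α → V → Prop := fun Q b => ∃ i, D.G i ∣ Q.length ∧ D.Vis i Q.length ∧
    R i (rs Q.length) (hR D phi i Q) (wR D phi e i Q) = some b
  have cell_uniq : ∀ {i i' o : ℕ}, D.A i ≤ o → o < D.A i + D.c i → D.A i' ≤ o →
      o < D.A i' + D.c i' → i = i' := by
    intro i i' o h1 h2 h3 h4
    rcases lt_trichotomy i i' with h | h | h
    · have := D.A_le h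
      have h5 : D.a i' ≤ D.A i' := Nat.le_add_right _ _
      omega
    · exact h
    · have := D.A_le h
      have h5 : D.a i ≤ D.A i := Nat.le_add_right _ _
      omega
  have LLu : ∀ {P v v'}, LL P v → LL P v' → v = v' := by
    rintro P v v' ⟨i, -, h1, h2, h3⟩ ⟨i', -, h1', h2', h3'⟩
    obtain rfl := cell_uniq h1 h2 h1' h2'
    rw [h3] at h3'
    exact Option.some.inj h3'
  have RRu : ∀ {Q b b'}, RR Q b → RR Q b' → b = b' := by
    rintro Q b b' ⟨i, -, -, h3⟩ ⟨i', -, -, h3'⟩
    obtain ⟨e1, -⟩ := hlev _ _ _ _ _ h3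
    obtain ⟨e2, -⟩ := hlev _ _ _ _ _ h3'
    obtain rfl : i = i' := by rw [e1, e2]
    rw [h3] at h3'
    exact Option.some.inj h3'
  let lam : List α → Option V := fun P => if h : ∃ v, LL P v then some h.choose else none
  let rho : List α → Option V := fun Q => if h : ∃ b, RR Q b then some h.choose else none
  have hlam : ∀ {P v}, lam P = some v ↔ LL P v := by
    intro P v
    by_cases h : ∃ v, LL P v
    · have e1 : lam P = some h.choose := dif_pos h
      rw [e1, Option.some.injEq]
      exact ⟨fun h' => h' ▸ h.choose_spec, fun h' => LLu h.choose_spec h'⟩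
    · have e1 : lam P = none := dif_neg h
      rw [e1]
      exact ⟨fun h' => by simp at h', fun h' => absurd ⟨v, h'⟩ h⟩
  have hrho : ∀ {Q b}, rho Q = some b ↔ RR Q b := by
    intro P v
    by_cases h : ∃ v, RR P v
    · have e1 : rho P = some h.choose := dif_pos h
      rw [e1, Option.some.injEq]
      exact ⟨fun h' => h' ▸ h.choose_spec, fun h' => RRu h.choose_spec h'⟩
    · have e1 : rho P = none := dif_neg h
      rw [e1]
      exact ⟨fun h' => by simp at h', fun h' => absurd ⟨v, h'⟩ h⟩
  refine ⟨lam, rho, fun u => Dn (rs u.length) (phi u) (ww D phi e u), ?_, ?_, ?_⟩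
  · intro P v h
    obtain ⟨i, him, -, h2, -⟩ := hlam.1 h
    have h3 := D.A_le (show i < D.m from him)
    omega
  · intro P Q v b hP hQ
    obtain ⟨i, him, h1, h2, h3⟩ := hlam.1 hP
    obtain ⟨i', h4, h5, h6⟩ := hrho.1 hQ
    have e1 : rs (P ++ Q).length = rs P.length + rs Q.length := by
      funext j
      simp only [rs, List.length_append, Nat.cast_add, Pi.add_apply]
    show b = act v (phi (P ++ Q)) + Dn (rs (P ++ Q).length) (phi (P ++ Q)) (ww D phi e (P ++ Q))
    rw [e1]
    refine hsound i i' _ _ _ _ _ _ _ _ _ _ ?_ h3 h6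
    rintro rfl
    exact ⟨_, read D phi e hphi him h1 h2 h4 h5⟩
  · intro u hu hqu hdu v
    have hT : ∀ j, rs u.length j ≠ 0 := by
      intro j h
      exact hqu j ((ZMod.natCast_eq_zero_iff _ _).1 h)
    obtain ⟨i, him, hi⟩ := hcomp (rs u.length) hT (phi u) (ww D phi e u) v
    -- the true data at the level `i`, for any place `o` of the cell with `G i ∣ T - o`
    have hal := D.A_le (show i < D.m from him)
    have hcm := D.cmono i D.m (le_of_lt him)
    have hAle : D.A i + D.c i ≤ u.length := by omega
    -- data do not depend on `o`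
    let g0 : S := phi (u.take (D.be u.length i))
    let z0 : S := zM D phi i u
    let h0 : S := phi (u.drop (D.be u.length (i + 1)))
    let wl0 := ∑ k ∈ range i, e k (phi (seg u (D.be u.length k) (D.be u.length (k + 1))))
    let wr0 := ∑ k ∈ Ico (i + 1) D.m,
      e k (phi (seg u (D.be u.length k) (D.be u.length (k + 1))))
    have hmono : ∀ k, D.be u.length k ≤ D.be u.length (k + 1) := fun k => by
      have h1 := D.be_lt u.length k
      have h2 := D.be_ge u.length (k + 1)
      have h3 := D.A_le (show k < k + 1 from Nat.lt_succ_self k)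
      omega
    have hs : g0 * z0 * h0 = phi u := by
      have h1 := seg_split (Y := u) (hmono i)
      show phi _ * phi _ * phi _ = _
      rw [← hphi, ← hphi, h1]
    have hw : wl0 + e i z0 + wr0 = ww D phi e u := by
      show _ = ∑ k ∈ range D.m, e k (phi (seg u (D.be u.length k) (D.be u.length (k + 1))))
      rw [← Finset.sum_range_add_sum_Ico _ (show i + 1 ≤ D.m from him), Finset.sum_range_succ]
      rfl
    obtain ⟨t, t', htt, hL, hR'⟩ := hi g0 z0 h0 wl0 wr0 hs hw
    -- the place
    set o0 := D.A i + (u.length - D.A i) % D.G i with ho0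
    have hcop : ∀ j, Nat.Coprime (D.G i) (q j) := fun j =>
      Nat.Coprime.pow_left _ (Nat.Coprime.pow_left _ (Nat.coprime_two_left.2 (hq j)))
    obtain ⟨om, -, hom, homr⟩ := Crest.Agent.R320.NameGad808.crt_hit q hqpos hc
      (fun j => (((ZMod.unitOfCoprime (D.G i) (hcop j))⁻¹ : (ZMod (q j))ˣ) : ZMod (q j)) *
        (t j - (o0 : ZMod (q j)))) 0
    rw [zero_add] at hom
    set o := o0 + D.G i * om with ho
    have hmod := Nat.mod_lt (u.length - D.A i) (D.Gpos i)
    have hcdef : D.c i = M * D.G i := rfl
    have ho1 : D.A i ≤ o := by rw [ho, ho0]; omega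
    have ho2 : o < D.A i + D.c i := by
      have h1 : D.G i * om + D.G i ≤ D.G i * M := by
        rw [← Nat.mul_succ]; exact Nat.mul_le_mul_left _ hom
      rw [ho, ho0, hcdef, mul_comm M]
      omega
    have hoT : o ≤ u.length := by omega
    have hdvd : D.G i ∣ u.length - o := by
      have h1 : u.length - D.A i = D.G i * ((u.length - D.A i) / D.G i) +
          (u.length - D.A i) % D.G i := (Nat.div_add_mod _ _).symm
      have h2 : u.length - o + D.G i * om = D.G i * ((u.length - D.A i) / D.G i) := by
        rw [ho, ho0] at hoT ⊢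
        omega
      exact (Nat.dvd_add_left (Dvd.intro _ rfl)).1 (h2 ▸ Dvd.intro _ rfl)
    have hor : rs o = t := by
      funext j
      have h1 := homr j
      show ((o : ℕ) : ZMod (q j)) = t j
      rw [ho, Nat.cast_add, Nat.cast_mul, h1]
      have h2 : ((D.G i : ℕ) : ZMod (q j)) *
          (((ZMod.unitOfCoprime (D.G i) (hcop j))⁻¹ : (ZMod (q j))ˣ) : ZMod (q j)) = 1 := by
        have := (ZMod.unitOfCoprime (D.G i) (hcop j)).mul_inv
        rwa [ZMod.coe_unitOfCoprime] at this
      rw [← mul_assoc, h2, one_mul]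
      ring
    have hor' : rs (u.length - o) = t' := by
      have h1 : rs u.length = rs o + rs (u.length - o) := by
        funext j
        show ((u.length : ℕ) : ZMod (q j)) = (o : ZMod (q j)) + ((u.length - o : ℕ) : ZMod (q j))
        rw [← Nat.cast_add, Nat.add_sub_cancel' hoT]
      rw [← htt, hor] at h1
      exact (add_left_cancel h1).symm
    have hvis := D.vis_of ho1 ho2 hu hdu him
    refine ⟨u.take o, u.drop o, List.take_append_drop _ _, ?_, ?_⟩
    · have hPl : (u.take o).length = o := by rw [List.length_take]; omega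
      rw [hlam]
      refine ⟨i, him, by rw [hPl]; exact ho1, by rw [hPl]; exact ho2, ?_⟩
      have hbe : ∀ k, k ≤ i → D.be u.length k = D.be o k := fun k hk => by
        have := D.be_left (o := o) (o' := u.length - o) hk ho1 hdvd
        rwa [Nat.add_sub_cancel' hoT] at this
      have hbo : ∀ k, k ≤ i → D.be o k ≤ o := fun k hk => by
        have h1 := D.be_lt o k
        rcases Nat.lt_or_ge k i with h | h
        · have h3 := D.A_le h
          have h4 : D.a i ≤ D.A i := Nat.le_add_right _ _
          omega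
        · obtain rfl : k = i := le_antisymm hk h
          omega
      have e1 : gL D phi i (u.take o) = g0 := by
        show phi _ = phi _
        rw [hPl, ← hbe i le_rfl, List.take_take, min_eq_left (by rw [hbe i le_rfl]; exact hbo i le_rfl)]
      have e2 : wL D phi e i (u.take o) = wl0 := by
        show (∑ k ∈ range i, _) = ∑ k ∈ range i, _
        refine Finset.sum_congr rfl fun k hk => ?_
        have hk' := Finset.mem_range.1 hk
        rw [hPl, hbe k hk'.le, hbe (k + 1) hk']
        have h1 := hmono k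
        rw [hbe k hk'.le, hbe (k + 1) hk'] at h1
        have h2 := seg_left (P := u.take o) (Q := u.drop o) h1
          (by rw [hPl]; exact hbo (k + 1) hk')
        rw [List.take_append_drop] at h2
        rw [h2]
      rw [hPl, e1, e2, hor]
      exact hL
    · have hQl : (u.drop o).length = u.length - o := List.length_drop
      have hbe : ∀ k, i < k → k ≤ D.m → D.be u.length k =
          o + (u.length - o - D.rb i (u.length - o) k) := fun k h1 h2 => by
        have := (D.be_right (o := o) (o' := u.length - o) h1 h2 ho1 ho2 hvis).1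
        rwa [Nat.add_sub_cancel' hoT] at this
      have hPl : (u.take o).length = o := by rw [List.length_take]; omega
      have e1 : hR D phi i (u.drop o) = h0 := by
        show phi _ = phi _
        rw [hQl, hbe (i + 1) (Nat.lt_succ_self i) him, List.drop_drop]
      have e2 : wR D phi e i (u.drop o) = wr0 := by
        show (∑ k ∈ Ico (i + 1) D.m, _) = ∑ k ∈ Ico (i + 1) D.m, _
        refine Finset.sum_congr rfl fun k hk => ?_
        obtain ⟨hk1, hk2⟩ := Finset.mem_Ico.1 hk
        rw [hQl, hbe k (by omega) (by omega), hbe (k + 1) (by omega) (by omega)]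
        have h2 := seg_right (P := u.take o) (Q := u.drop o)
          (a := u.length - o - D.rb i (u.length - o) k)
          (b := u.length - o - D.rb i (u.length - o) (k + 1))
        rw [List.take_append_drop, hPl] at h2
        rw [h2]
      obtain ⟨b, hb⟩ := Option.isSome_iff_exists.1 hR'
      have : RR (u.drop o) b := by
        refine ⟨i, by rw [hQl]; exact hdvd, by rw [hQl]; exact hvis, ?_⟩
        rw [hQl, e1, e2, hor']
        exact hb
      rw [hrho.2 this]
      rfl

end Crest.Agent.R320.Grid760
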