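import Crest.Agent.R320.Zone132b_898

/-!
# Row 320, scheme 1 on `b`-anchored nested grids (693 #13203), word form (helper767)

Text adapted from helper898's `Zone132_898` with `q = 1` and without small walls: the boundary of
level `k` in a zone of length `T` is `T - G k * ((T - A k) / G k)`.
-/

set_option autoImplicit false

namespace Crest.Agent.R320.Grid_767

open Finset Crest.Agent.R320.Zone132_898

universe u

/-- boundary anchored at the right end -/
def Hb (G A T : ℕ) : ℕ := T - G * ((T - A) / G)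

theorem Hb_le (G A T : ℕ) : Hb G A T ≤ T := Nat.sub_le _ _

theorem Hb_eq {G A T : ℕ} (h : A ≤ T) : Hb G A T = A + (T - A) % G := by
  unfold Hb
  have h1 := Nat.div_add_mod (T - A) G
  omega

theorem Hb_left {G A o x : ℕ} (hG : 0 < G) (hA : A ≤ o) (hx : G ∣ x) :
    Hb G A (o + x) = Hb G A o := by
  obtain ⟨y, rfl⟩ := hx
  rw [Hb_eq hA, Hb_eq (by omega), show o + G * y - A = (o - A) + G * y by omega,
    Nat.add_mul_mod_self_left]

theorem Hb_right {G A Ai n o L : ℕ} (h1 : Ai ≤ o) (h2 : o < Ai + L) (hA : Ai + L ≤ A)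
    (hc : (n + Ai - A) / G = (n + Ai + L - 1 - A) / G) :
    Hb G A (o + n) = o + (n - G * ((n + Ai - A) / G)) := by
  unfold Hb
  have h3 : (n + Ai - A) / G ≤ (o + n - A) / G := Nat.div_le_div_right (by omega)
  have h4 : (o + n - A) / G ≤ (n + Ai + L - 1 - A) / G := Nat.div_le_div_right (by omega)
  have h5 : (o + n - A) / G = (n + Ai - A) / G := by omega
  rw [h5]
  have := Nat.mul_div_le (n + Ai - A) G
  omega

theorem div_const {x g L a : ℕ} (hg : 0 < g) (h1 : L ≤ x % g) (h2 : x % g + L ≤ g) (ha : a < L) :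
    (x - a) / g = x / g ∧ (x + (L - 1 - a)) / g = x / g := by
  have h3 := Nat.div_add_mod x g
  constructor
  · rw [show x - a = (x % g - a) + g * (x / g) by omega, Nat.add_mul_div_left _ _ hg,
      Nat.div_eq_of_lt (by omega), Nat.zero_add]
  · rw [show x + (L - 1 - a) = (x % g + (L - 1 - a)) + g * (x / g) by omega,
      Nat.add_mul_div_left _ _ hg, Nat.div_eq_of_lt (by omega), Nat.zero_add]

/-- the data of the zone gadget -/
structure Gd (α S V W : Type*) [Monoid S] [AddCommGroup V] [AddCommGroup W] where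
  phi : List α → S
  hphi : ∀ u v, phi (u ++ v) = phi u * phi v
  act : V → S → V
  m : ℕ
  M : ℕ
  hM : 0 < M
  G : ℕ → ℕ
  hG : ∀ k, 0 < G k
  hdiv : ∀ i k, i ≤ k → G i ∣ G k
  A : ℕ → ℕ
  hA : ∀ i k, i < k → k ≤ m → A i + M * G i ≤ A k
  e : ℕ → S → W
  F : S → W → V
  LN : ℕ → Option (Ctx S V W)
  RN : ℕ → Option (Ctx S V W)
  B : ℕ → Prop

namespace Gd

variable {α S V W : Type*} [Monoid S] [AddCommGroup V] [AddCommGroup W] (D : Gd α S V W)

/-- value of the sum when the hole is filled with `z` -/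
def val (c : Ctx S V W) (z : S) : V :=
  D.F (c.g * z * c.h) (c.wl + D.e c.i z + c.wr) + D.act c.v (c.g * z * c.h)

/-- the value shown by the right side -/
def bval (c : Ctx S V W) : V := D.val c 1

/-- the name hides the hole -/
def Good (c : Ctx S V W) : Prop := ∀ z, D.val c z = D.bval c

/-- boundary of level `k` in a zone of length `T` -/
def H (k T : ℕ) : ℕ := Hb (D.G k) (D.A k) T

/-- boundary of level `k` seen from the cut of level `i`, `n` letters before the end -/
def tt (i n k : ℕ) : ℕ := n - D.G k * ((n + D.A i - D.A k) / D.G k)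

/-- the boundary of level `k` does not depend on the place of the cut in the cell of level `i` -/
def Cst (i n k : ℕ) : Prop :=
  (n + D.A i - D.A k) / D.G k = (n + D.A i + D.M * D.G i - 1 - D.A k) / D.G k

/-- the left part is legal with vector `v` -/
def LL (P : List α) (v : V) : Prop :=
  ∃ c : Ctx S V W, c.i < D.m ∧ D.A c.i ≤ P.length ∧ P.length < D.A c.i + D.M * D.G c.i ∧
    D.LN P.length = some c ∧ D.Good c ∧ c.g = D.phi (P.take (D.H c.i P.length)) ∧
    c.wl = ∑ k ∈ range c.i, D.e k (zt D.phi P (D.H k P.length) (D.H (k + 1) P.length)) ∧ v = c.v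

/-- the right part is legal with value `b` -/
def RR (Q : List α) (b : V) : Prop :=
  ∃ c : Ctx S V W, c.i < D.m ∧ D.G c.i ∣ Q.length ∧ D.RN Q.length = some c ∧ D.Good c ∧
    (∀ k, c.i < k → k ≤ D.m → D.Cst c.i Q.length k) ∧
    c.h = D.phi (Q.drop (D.tt c.i Q.length (c.i + 1))) ∧
    c.wr = ∑ k ∈ Ico (c.i + 1) D.m,
      D.e k (zt D.phi Q (D.tt c.i Q.length k) (D.tt c.i Q.length (k + 1))) ∧ b = D.bval c

/-- a legal pair of names over the length `n` modulo `M` -/
def Pair (n : ℕ) (p : Ctx S V W × Ctx S V W) : Prop :=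
  ∃ om om' a b, om + om' + D.M * a = n + D.M * b ∧ D.LN om = some p.1 ∧ D.Good p.1 ∧
    D.RN om' = some p.2 ∧ D.Good p.2

open Classical in
/-- the colours of a pair -/
noncomputable def pick (X : Ctx S V W × Ctx S V W → Prop) : V × V :=
  if h : ∃ p, X p then (h.choose.1.v, D.bval h.choose.2) else 0

/-- total weight of a zone -/
def wt (Z : List α) : W :=
  ∑ k ∈ range D.m, D.e k (zt D.phi Z (D.H k Z.length) (D.H (k + 1) Z.length))

open Classical in
/-- the noise, a function of the zone word -/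
noncomputable def nu (Z : List α) : V :=
  if D.B Z.length then
    (if ∃ p, D.Pair Z.length p then
      (D.pick (D.Pair Z.length)).2 - D.act (D.pick (D.Pair Z.length)).1 (D.phi Z) else 0)
  else D.F (D.phi Z) (D.wt Z)

/-- names outside `B`: one name only -/
def N1 : Prop := ∀ om om' c c', ¬ D.B (om + om') → D.LN om = some c → D.RN om' = some c' → c = c'

/-- names inside `B`: the colour is a function of the length -/
def N2 : Prop := ∀ n p p', D.B n → D.Pair n p → D.Pair n p' →
  p.1.v = p'.1.v ∧ D.bval p.2 = D.bval p'.2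

/-- every good name of level `< m` occurs in every window of `M` steps -/
def N3 : Prop := ∀ n c s, ¬ D.B n → D.Good c → c.i < D.m → s + D.M ≤ n + 1 →
  ∃ om, s ≤ om ∧ om < s + D.M ∧ om ≤ n ∧ D.LN om = some c ∧ D.RN (n - om) = some c

def Hides : Prop := ∀ (s : S) (w : W) (v : V), ∃ i, i < D.m ∧ ∀ g x h : S, g * x * h = s →
  ∀ z, D.F (g * z * h) (w - D.e i x + D.e i z) + D.act v (g * z * h) = D.F s w + D.act v s

theorem LL_unique {P : List α} {v v' : V} (h : D.LL P v) (h' : D.LL P v') : v = v' := by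
  obtain ⟨c, -, -, -, h1, -, -, -, rfl⟩ := h
  obtain ⟨c', -, -, -, h2, -, -, -, rfl⟩ := h'
  rw [h1] at h2
  cases h2
  rfl

theorem RR_unique {P : List α} {v v' : V} (h : D.RR P v) (h' : D.RR P v') : v = v' := by
  obtain ⟨c, -, -, h1, -, -, -, -, rfl⟩ := h
  obtain ⟨c', -, -, h2, -, -, -, -, rfl⟩ := h'
  rw [h1] at h2
  cases h2
  rfl

theorem H_left {k i o n : ℕ} (hk : k ≤ i) (hAk : D.A k ≤ o) (hn : D.G i ∣ n) :
    D.H k (o + n) = D.H k o :=
  Hb_left (D.hG k) hAk ((D.hdiv k i hk).trans hn)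

theorem H_right {k i o n : ℕ} (hk : i < k) (hkm : k ≤ D.m) (h1 : D.A i ≤ o)
    (h2 : o < D.A i + D.M * D.G i) (hc : D.Cst i n k) : D.H k (o + n) = o + D.tt i n k :=
  Hb_right h1 h2 (D.hA i k hk hkm) hc

theorem A_mono {k i : ℕ} (hk : k ≤ i) (hi : i ≤ D.m) : D.A k ≤ D.A i := by
  rcases Nat.eq_or_lt_of_le hk with rfl | h
  · exact le_rfl
  · have := D.hA k i h hi
    omega

theorem sum_split {m i : ℕ} (hi : i < m) (f : ℕ → W) :
    ∑ k ∈ range m, f k = ∑ k ∈ range i, f k + f i + ∑ k ∈ Ico (i + 1) m, f k := by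
  rw [← Finset.sum_range_succ, Finset.sum_range_add_sum_Ico f (by omega : i + 1 ≤ m)]

/-- **soundness** -/
theorem sound (h1 : D.N1) (h2 : D.N2) {P Q : List α} {v b : V} (hL : D.LL P v)
    (hR : D.RR Q b) : b = D.act v (D.phi (P ++ Q)) + D.nu (P ++ Q) := by
  classical
  obtain ⟨c, hi, hlo, hhi, hLN, hg, hcg, hcw, rfl⟩ := hL
  obtain ⟨c', hi', hdvd, hRN, hg', ht, hch, hcwr, rfl⟩ := hR
  have hlen : (P ++ Q).length = P.length + Q.length := List.length_append
  by_cases hB : D.B (P ++ Q).length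
  · have hpair : D.Pair (P ++ Q).length (c, c') :=
      ⟨P.length, Q.length, 0, 0, by rw [hlen], hLN, hg, hRN, hg'⟩
    have hex : ∃ p, D.Pair (P ++ Q).length p := ⟨_, hpair⟩
    unfold nu pick
    rw [if_pos hB, if_pos hex, dif_pos hex]
    obtain ⟨h3, h4⟩ := h2 _ _ _ hB hpair hex.choose_spec
    simp only
    rw [← h3, ← h4]
    simp
  · have hcc : c = c' := h1 _ _ c c' (by rw [← hlen]; exact hB) hLN hRN
    subst hcc
    have hk1 : ∀ k, k ≤ c.i → D.H k (P ++ Q).length = D.H k P.length := by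
      intro k hk
      rw [hlen]
      exact D.H_left hk (le_trans (D.A_mono hk hi.le) hlo) hdvd
    have hk2 : ∀ k, c.i < k → k ≤ D.m →
        D.H k (P ++ Q).length = P.length + D.tt c.i Q.length k := by
      intro k hk hkm
      rw [hlen]
      exact D.H_right hk hkm hlo hhi (ht k hk hkm)
    unfold nu
    rw [if_neg hB]
    set x : S := zt D.phi (P ++ Q) (D.H c.i P.length) (P.length + D.tt c.i Q.length (c.i + 1))
      with hx
    have hle : ∀ k, D.H k P.length ≤ P.length := fun k => Hb_le _ _ _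
    have hprod : c.g * x * c.h = D.phi (P ++ Q) := by
      have h5 : c.g = D.phi ((P ++ Q).take (D.H c.i P.length)) := by
        rw [hcg, List.take_append_of_le_length (hle c.i)]
      have h6 : c.h = D.phi ((P ++ Q).drop (P.length + D.tt c.i Q.length (c.i + 1))) := by
        rw [hch, drop_add]
      rw [h5, h6, hx]
      exact zt_split D.hphi _ (by have := hle c.i; omega)
    have hw : D.wt (P ++ Q) = c.wl + D.e c.i x + c.wr := by
      unfold wt
      rw [sum_split hi, hcw, hcwr]
      congr 1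
      · congr 1
        · apply Finset.sum_congr rfl
          intro k hk
          rw [Finset.mem_range] at hk
          rw [hk1 k (by omega), hk1 (k + 1) (by omega)]
          rw [zt_left D.phi (hle (k + 1))]
        · rw [hk1 c.i le_rfl, hk2 (c.i + 1) (by omega) (by omega)]
      · apply Finset.sum_congr rfl
        intro k hk
        rw [Finset.mem_Ico] at hk
        rw [hk2 k (by omega) (by omega), hk2 (k + 1) (by omega) (by omega), zt_right]
    rw [hw, ← hg x]
    unfold val
    rw [hprod, add_comm]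

theorem per {f : ℕ → Option (Ctx S V W)} {M : ℕ} (hf : ∀ t, f (t + M) = f t) (t j : ℕ) :
    f (t + M * j) = f t := by
  induction j with
  | zero => rfl
  | succ j ih => rw [Nat.mul_succ, ← Nat.add_assoc, hf, ih]

theorem per_mod {f : ℕ → Option (Ctx S V W)} {M : ℕ} (hf : ∀ t, f (t + M) = f t) {s t : ℕ}
    (h : s ≡ t [MOD M]) : f s = f t := by
  have h1 : f s = f (s % M) := by
    conv_lhs => rw [← Nat.mod_add_div s M]
    exact per hf _ _
  have h2 : f t = f (t % M) := by
    conv_lhs => rw [← Nat.mod_add_div t M]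
    exact per hf _ _
  rw [h1, h2, h]

/-- availability of a name in the cell of level `i` with the grid condition -/
theorem avail (h3 : D.N3) (hL : ∀ t, D.LN (t + D.M) = D.LN t) (hR : ∀ t, D.RN (t + D.M) = D.RN t)
    (hcop : ∀ k, Nat.Coprime D.M (D.G k)) {T : ℕ} (hB : ¬ D.B T) {c : Ctx S V W}
    (hg : D.Good c) (hi : c.i < D.m) (hT : D.A c.i + D.M * D.G c.i ≤ T) :
    ∃ om, D.A c.i ≤ om ∧ om < D.A c.i + D.M * D.G c.i ∧ om ≤ T ∧ D.G c.i ∣ T - om ∧
      D.LN om = some c ∧ D.RN (T - om) = some c := by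
  have hMG : D.M ≤ D.M * D.G c.i := Nat.le_mul_of_pos_right _ (D.hG _)
  obtain ⟨t0, -, -, ht0, hl, hr⟩ := h3 T c (D.A c.i) hB hg hi (by omega)
  obtain ⟨z, hz1, hz2⟩ := Nat.chineseRemainder (hcop c.i) t0 T
  set N := D.M * D.G c.i with hN
  have hNpos : 0 < N := Nat.mul_pos D.hM (D.hG _)
  set om := D.A c.i + (z + N * D.A c.i - D.A c.i) % N with hom
  have h4 : (z + N * D.A c.i - D.A c.i) % N < N := Nat.mod_lt _ hNpos
  have hAN : D.A c.i ≤ N * D.A c.i := Nat.le_mul_of_pos_left _ hNpos
  have h5 : om ≡ z [MOD N] := by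
    have h6 : om ≡ D.A c.i + (z + N * D.A c.i - D.A c.i) [MOD N] := by
      rw [hom]
      exact Nat.ModEq.add_left _ (Nat.mod_modEq _ _)
    refine h6.trans ?_
    rw [show D.A c.i + (z + N * D.A c.i - D.A c.i) = z + N * D.A c.i by omega]
    unfold Nat.ModEq
    rw [Nat.add_mul_mod_self_left]
  have h6 : om ≡ t0 [MOD D.M] := (h5.of_mul_right _).trans hz1
  have h7 : om ≡ T [MOD D.G c.i] := (h5.of_mul_left _).trans hz2
  have homT : om ≤ T := by omega
  refine ⟨om, by omega, by omega, homT, (Nat.modEq_iff_dvd' homT).1 h7, ?_, ?_⟩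
  · rw [per_mod hL h6]; exact hl
  · rw [← hr]
    apply per_mod hR
    apply Nat.ModEq.add_right_cancel h6
    rw [Nat.sub_add_cancel homT, Nat.sub_add_cancel ht0]

/-- **completeness** -/
theorem complete (h3 : D.N3) (hF : D.Hides) (hL : ∀ t, D.LN (t + D.M) = D.LN t)
    (hR : ∀ t, D.RN (t + D.M) = D.RN t) (hcop : ∀ k, Nat.Coprime D.M (D.G k)) {Z : List α}
    (hB : ¬ D.B Z.length)
    (hgrid : ∀ k, 0 < k → k ≤ D.m → D.M * D.G (k - 1) ≤ (Z.length - D.A k) % D.G k ∧
      (Z.length - D.A k) % D.G k + D.M * D.G (k - 1) ≤ D.G k)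
    (hZ : D.A D.m ≤ Z.length) (v : V) :
    ∃ P Q : List α, P ++ Q = Z ∧ D.LL P v ∧ ∃ b, D.RR Q b := by
  classical
  set T := Z.length with hT
  obtain ⟨i, hi, hhide⟩ := hF (D.phi Z) (D.wt Z) v
  have hcell := D.hA i (i + 1) (by omega) (by omega)
  have hAT : ∀ k, k ≤ D.m → D.A k ≤ T := fun k hk => le_trans (D.A_mono hk le_rfl) hZ
  have hGi : D.G i ≤ D.M * D.G i := Nat.le_mul_of_pos_left _ D.hM
  have hii : D.H i T ≤ D.H (i + 1) T := by
    unfold H
    rw [Hb_eq (hAT i hi.le), Hb_eq (hAT (i + 1) hi)]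
    have := Nat.mod_lt (T - D.A i) (D.hG i)
    omega
  let c : Ctx S V W :=
    { i := i
      g := D.phi (Z.take (D.H i T))
      wl := ∑ k ∈ range i, D.e k (zt D.phi Z (D.H k T) (D.H (k + 1) T))
      h := D.phi (Z.drop (D.H (i + 1) T))
      wr := ∑ k ∈ Ico (i + 1) D.m, D.e k (zt D.phi Z (D.H k T) (D.H (k + 1) T))
      v := v }
  have hprod := zt_split D.hphi Z hii
  have hws : D.wt Z = c.wl + D.e i (zt D.phi Z (D.H i T) (D.H (i + 1) T)) + c.wr := by
    unfold wt
    rw [sum_split hi]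
  have hval : ∀ z, D.val c z = D.F (D.phi Z) (D.wt Z) + D.act v (D.phi Z) := by
    intro z
    have h5 := hhide _ _ _ hprod z
    rw [← h5]
    unfold val
    have h6 : c.wl + D.e c.i z + c.wr
        = D.wt Z - D.e i (zt D.phi Z (D.H i T) (D.H (i + 1) T)) + D.e i z := by
      rw [hws]; abel
    rw [h6]
  have hgood : D.Good c := by
    intro z
    unfold bval
    rw [hval z, hval 1]
  obtain ⟨om, h4, h5, h6, hdvd, h7, h8⟩ := D.avail h3 hL hR hcop hB hgood hi
    (le_trans hcell (hAT (i + 1) hi))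
  change D.A i ≤ om at h4
  change om < D.A i + D.M * D.G i at h5
  change D.G i ∣ T - om at hdvd
  have hPlen : (Z.take om).length = om := by
    rw [List.length_take]; omega
  have hQlen : (Z.drop om).length = T - om := by
    rw [List.length_drop]
  have hZPQ : Z.take om ++ Z.drop om = Z := List.take_append_drop _ _
  have hTo : T = om + (T - om) := by omega
  have hk1 : ∀ k, k ≤ i → D.H k T = D.H k om := by
    intro k hk
    conv_lhs => rw [hTo]
    exact D.H_left hk (le_trans (D.A_mono hk hi.le) h4) hdvd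
  have hcst : ∀ k, i < k → k ≤ D.m → D.Cst i (T - om) k := by
    intro k hk hkm
    obtain ⟨h9, h10⟩ := hgrid k (by omega) hkm
    have h11 : D.M * D.G i ≤ D.M * D.G (k - 1) :=
      Nat.mul_le_mul_left _ (Nat.le_of_dvd (D.hG _) (D.hdiv i (k - 1) (by omega)))
    have h12 := hAT k hkm
    have h13 := Nat.mod_le (T - D.A k) (D.G k)
    obtain ⟨h14, h15⟩ := div_const (x := T - D.A k) (g := D.G k) (L := D.M * D.G i)
      (a := om - D.A i) (D.hG k) (le_trans h11 h9) (by omega) (by omega)
    have hAik := D.A_mono hk.le hkm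
    unfold Cst
    rw [show T - om + D.A i - D.A k = T - D.A k - (om - D.A i) by omega,
      show T - om + D.A i + D.M * D.G i - 1 - D.A k
        = T - D.A k + (D.M * D.G i - 1 - (om - D.A i)) by omega, h14, h15]
  have hk2 : ∀ k, i < k → k ≤ D.m → D.H k T = om + D.tt i (T - om) k := by
    intro k hk hkm
    conv_lhs => rw [hTo]
    exact D.H_right hk hkm h4 h5 (hcst k hk hkm)
  have hle : ∀ k, D.H k om ≤ om := fun k => Hb_le _ _ _
  refine ⟨Z.take om, Z.drop om, hZPQ, ?_, D.bval c, ?_⟩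
  · refine ⟨c, hi, by rw [hPlen]; exact h4, by rw [hPlen]; exact h5, by rw [hPlen]; exact h7,
      hgood, ?_, ?_, rfl⟩
    · change D.phi (Z.take (D.H i T)) = D.phi ((Z.take om).take (D.H i (Z.take om).length))
      rw [hPlen, List.take_take, min_eq_left (hle i), hk1 i le_rfl]
    · change ∑ k ∈ range i, D.e k (zt D.phi Z (D.H k T) (D.H (k + 1) T)) = _
      apply Finset.sum_congr rfl
      intro k hk
      rw [Finset.mem_range] at hk
      have h9 := zt_left D.phi (P := Z.take om) (Q := Z.drop om) (a := D.H k om)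
        (b := D.H (k + 1) om) (by rw [hPlen]; exact hle _)
      rw [hZPQ] at h9
      rw [hPlen, hk1 k (by omega), hk1 (k + 1) (by omega), h9]
  · refine ⟨c, hi, by rw [hQlen]; exact hdvd, by rw [hQlen]; exact h8, hgood,
      fun k hk hkm => by rw [hQlen]; exact hcst k hk hkm, ?_, ?_, rfl⟩
    · change D.phi (Z.drop (D.H (i + 1) T))
        = D.phi ((Z.drop om).drop (D.tt i (Z.drop om).length (i + 1)))
      rw [hQlen, List.drop_drop, hk2 (i + 1) (by omega) (by omega)]
    · change ∑ k ∈ Ico (i + 1) D.m, D.e k (zt D.phi Z (D.H k T) (D.H (k + 1) T))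
        = ∑ k ∈ Ico (i + 1) D.m, D.e k (zt D.phi (Z.drop om)
          (D.tt i (Z.drop om).length k) (D.tt i (Z.drop om).length (k + 1)))
      apply Finset.sum_congr rfl
      intro k hk
      rw [Finset.mem_Ico] at hk
      have h9 := zt_right D.phi (P := Z.take om) (Q := Z.drop om)
        (a := D.tt i (T - om) k) (b := D.tt i (T - om) (k + 1))
      rw [hZPQ, hPlen] at h9
      rw [hQlen, hk2 k (by omega) (by omega), hk2 (k + 1) (by omega) (by omega), h9]

end Gd

end Crest.Agent.R320.Grid_767
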