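import Mathlib
import Crest.Agent.R320.Names_755
import Crest.Agent.R320.Noise_513

set_option autoImplicit false
set_option linter.all false

/-!
Row 320: scheme 1 without small walls (693 #13203, 638 #12974): b-anchored nested grids.
A zone is a word `u`, cut `u = P ++ Q`; the left side sees `P`, the right side sees `Q`.
Grids `G j = Γ^j`, cells `[A i, A i + M * G i)`.  Sound for ALL lengths and contents.
-/

namespace Crest.Agent.R320.Grid777

open Classical

section pos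
variable (M Γ m : ℕ)

def G (j : ℕ) : ℕ := Γ ^ j

def Am : ℕ → ℕ
  | 0 => 0
  | j + 1 => Am j + (M + 1) * G Γ j

def A (j : ℕ) : ℕ := Am M Γ j + G Γ j
def c (j : ℕ) : ℕ := M * G Γ j

theorem Am_succ (j : ℕ) : Am M Γ (j + 1) = A M Γ j + c M Γ j := by
  simp only [Am, A, c]; ring

theorem Am_mono {i j : ℕ} (h : i ≤ j) : Am M Γ i ≤ Am M Γ j := by
  induction h with
  | refl => exact le_rfl
  | step _ ih => exact ih.trans (by simp only [Am]; exact Nat.le_add_right _ _)

theorem Am_le_A (j : ℕ) : Am M Γ j ≤ A M Γ j := Nat.le_add_right _ _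

theorem A_c_le {i j : ℕ} (h : i < j) : A M Γ i + c M Γ i ≤ Am M Γ j := by
  rw [← Am_succ]; exact Am_mono M Γ h

theorem G_pos (hΓ : 0 < Γ) (j : ℕ) : 0 < G Γ j := Nat.pow_pos hΓ

theorem G_dvd {i j : ℕ} (h : i ≤ j) : G Γ i ∣ G Γ j := Nat.pow_dvd_pow Γ h

theorem c_mono (hΓ : 0 < Γ) {i j : ℕ} (h : i ≤ j) : c M Γ i ≤ c M Γ j :=
  Nat.mul_le_mul_left _ (Nat.pow_le_pow_right hΓ h)

/-- boundary of the piece `j` for the total length `T` -/
def bt (T j : ℕ) : ℕ := Am M Γ j + (T - Am M Γ j) % G Γ j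

def bd (T j : ℕ) : ℕ := if j < m then bt M Γ T j else T

/-- distance of the boundary `j` from the right end, seen from the right at level `i` -/
def rb (o' i j : ℕ) : ℕ := if j < m then G Γ j * ((o' + A M Γ i - Am M Γ j) / G Γ j) else 0

theorem bt_lt (hΓ : 0 < Γ) (T j : ℕ) : bt M Γ T j < A M Γ j := by
  have := Nat.mod_lt (T - Am M Γ j) (G_pos Γ hΓ j)
  simp only [bt, A]; omega

theorem Am_le_bt (T j : ℕ) : Am M Γ j ≤ bt M Γ T j := Nat.le_add_right _ _

/-- the left side knows the boundaries `j ≤ i` -/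
theorem left_bt {i j o o' : ℕ} (hij : j ≤ i) (ho : A M Γ i ≤ o) (hd : G Γ i ∣ o') :
    bt M Γ (o + o') j = bt M Γ o j := by
  have h1 : Am M Γ j ≤ o := (Am_mono M Γ hij).trans ((Am_le_A M Γ i).trans ho)
  obtain ⟨k, hk⟩ := (G_dvd Γ hij).trans hd
  have h2 : o + o' - Am M Γ j = (o - Am M Γ j) + G Γ j * k := by omega
  simp only [bt]
  rw [h2, Nat.add_mul_mod_self_left]

/-- the right side knows the boundaries `j > i` -/
theorem right_bt {i j o o' : ℕ} (hij : i < j) (ho : A M Γ i ≤ o) (ho2 : o ≤ A M Γ i + c M Γ i)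
    (hl : Am M Γ j ≤ o')
    (hc : (o' + A M Γ i - Am M Γ j) / G Γ j = (o' + A M Γ i + c M Γ i - Am M Γ j) / G Γ j) :
    o + o' = bt M Γ (o + o') j + G Γ j * ((o' + A M Γ i - Am M Γ j) / G Γ j) := by
  have h1 : (o' + A M Γ i - Am M Γ j) / G Γ j ≤ (o + o' - Am M Γ j) / G Γ j :=
    Nat.div_le_div_right (by omega)
  have h2 : (o + o' - Am M Γ j) / G Γ j ≤ (o' + A M Γ i + c M Γ i - Am M Γ j) / G Γ j :=
    Nat.div_le_div_right (by omega)
  have h3 : (o + o' - Am M Γ j) / G Γ j = (o' + A M Γ i - Am M Γ j) / G Γ j := by omega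
  rw [← h3]
  have h4 := Nat.mod_add_div (o + o' - Am M Γ j) (G Γ j)
  simp only [bt]
  omega

structure Pos (i o o' : ℕ) : Prop where
  hm : i < m
  lo : A M Γ i ≤ o
  hi : o < A M Γ i + c M Γ i
  dv : G Γ i ∣ o'
  big : ∀ j, i < j → j < m → Am M Γ j ≤ o'
  cst : ∀ j, i < j → j < m →
    (o' + A M Γ i - Am M Γ j) / G Γ j = (o' + A M Γ i + c M Γ i - Am M Γ j) / G Γ j

variable {M Γ m}

theorem Pos.left {i o o' : ℕ} (h : Pos M Γ m i o o') {j : ℕ} (hj : j ≤ i) :
    bd M Γ m (o + o') j = bt M Γ o j := by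
  have : j < m := lt_of_le_of_lt hj h.hm
  rw [bd, if_pos this, left_bt M Γ hj h.lo h.dv]

theorem Pos.right {i o o' : ℕ} (h : Pos M Γ m i o o') {j : ℕ} (hj : i < j) :
    o + o' = bd M Γ m (o + o') j + rb M Γ m o' i j := by
  by_cases hjm : j < m
  · rw [bd, rb, if_pos hjm, if_pos hjm]
    exact right_bt M Γ hj h.lo h.hi.le (h.big j hj hjm) (h.cst j hj hjm)
  · rw [bd, rb, if_neg hjm, if_neg hjm]; rfl

theorem Pos.left_le {i o o' : ℕ} (h : Pos M Γ m i o o') (hΓ : 0 < Γ) {j : ℕ} (hj : j ≤ i) :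
    bd M Γ m (o + o') j ≤ o := by
  rw [h.left hj]
  have h1 := bt_lt M Γ hΓ o j
  have h2 : A M Γ j ≤ A M Γ i := by
    rcases Nat.lt_or_ge j i with h3 | h3
    · exact (Nat.le_add_right _ _).trans ((A_c_le M Γ h3).trans (Am_le_A M Γ i))
    · have : j = i := le_antisymm hj h3
      rw [this]
  have := h.lo
  omega

theorem Pos.right_ge {i o o' : ℕ} (h : Pos M Γ m i o o') {j : ℕ} (hj : i < j) :
    o ≤ bd M Γ m (o + o') j := by
  by_cases hjm : j < m
  · rw [bd, if_pos hjm]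
    have h1 := A_c_le M Γ hj
    have h2 := Am_le_bt M Γ (o + o') j
    have := h.hi
    omega
  · rw [bd, if_neg hjm]; omega

theorem Pos.rb_le {i o o' : ℕ} (h : Pos M Γ m i o o') {j : ℕ} (hj : i < j) :
    rb M Γ m o' i j ≤ o' := by
  have h1 := h.right hj
  have h2 := h.right_ge hj
  omega

end pos

section words
variable {α : Type}

def seg (u : List α) (a b : ℕ) : List α := (u.drop a).take (b - a)

theorem seg_split (u : List α) {a b : ℕ} (h : a ≤ b) :
    u.take a ++ (seg u a b ++ u.drop b) = u := by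
  have h1 : u.drop b = (u.drop a).drop (b - a) := by
    rw [List.drop_drop]; congr 1; omega
  rw [seg, h1, List.take_append_drop, List.take_append_drop]

theorem seg_left (P Q : List α) {a b : ℕ} (hb : b ≤ P.length) :
    seg (P ++ Q) a b = seg P a b := by
  by_cases ha : a ≤ P.length
  · rw [seg, seg, List.drop_append_of_le_length ha, List.take_append_of_le_length]
    rw [List.length_drop]; omega
  · have : b - a = 0 := by omega
    rw [seg, seg, this, List.take_zero, List.take_zero]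

theorem seg_right (P Q : List α) {a b : ℕ} (ha : P.length ≤ a) :
    seg (P ++ Q) a b = seg Q (a - P.length) (b - P.length) := by
  have h1 : (P ++ Q).drop a = Q.drop (a - P.length) := by
    rw [List.drop_append, List.drop_eq_nil_of_le ha, List.nil_append]
  rw [seg, seg, h1]; congr 1; omega

theorem drop_right (P Q : List α) {a : ℕ} (ha : P.length ≤ a) :
    (P ++ Q).drop a = Q.drop (a - P.length) := by
  rw [List.drop_append, List.drop_eq_nil_of_le ha, List.nil_append]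

end words

section gad
variable {α S V W : Type} [Monoid S] [AddCommGroup V] [AddCommGroup W] {m : ℕ}
  (M Γ : ℕ) (ph : List α → S) (act : V → S → V) (e : Fin m → S → W) (F : S → W → V)

/-- contexts: level, (g, wl), (h, wr), token -/
abbrev Ctx (S V W : Type) (m : ℕ) := Fin m × (S × W) × (S × W) × V

def val (x : Ctx S V W m) (z : S) : V :=
  F (x.2.1.1 * z * x.2.2.1.1) (x.2.1.2 + e x.1 z + x.2.2.1.2) +
    act x.2.2.2 (x.2.1.1 * z * x.2.2.1.1)

def GoodC (x : Ctx S V W m) : Prop := ∀ z, val act e F x z = val act e F x 1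

def bb (x : Ctx S V W m) : V := val act e F x 1

/-- data of a word `u` cut at its boundaries -/
def wl (i : Fin m) (u : List α) (bdf : ℕ → ℕ) : W :=
  ∑ j : Fin m, if j < i then e j (ph (seg u (bdf j) (bdf (j + 1)))) else 0

def wr (i : Fin m) (u : List α) (bdf : ℕ → ℕ) : W :=
  ∑ j : Fin m, if i < j then e j (ph (seg u (bdf j) (bdf (j + 1)))) else 0

def ww (u : List α) (bdf : ℕ → ℕ) : W :=
  ∑ j : Fin m, e j (ph (seg u (bdf j) (bdf (j + 1))))

theorem ww_split (i : Fin m) (u : List α) (bdf : ℕ → ℕ) :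
    ww ph e u bdf = wl ph e i u bdf + e i (ph (seg u (bdf i) (bdf (i + 1)))) +
      wr ph e i u bdf := by
  have h1 : e i (ph (seg u (bdf i) (bdf (i + 1)))) =
      ∑ j : Fin m, if j = i then e j (ph (seg u (bdf j) (bdf (j + 1)))) else 0 := by
    rw [Finset.sum_ite_eq' Finset.univ i]; simp
  rw [h1, ww, wl, wr, ← Finset.sum_add_distrib, ← Finset.sum_add_distrib]
  apply Finset.sum_congr rfl
  intro j _
  rcases lt_trichotomy j i with h | h | h
  · rw [if_pos h, if_neg (ne_of_lt h), if_neg (not_lt_of_gt h)]; simp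
  · subst h; simp
  · rw [if_neg (not_lt_of_gt h), if_neg (ne_of_gt h), if_pos h]; simp

variable (nmL nmR : ℕ → Option (Ctx S V W m))

def LL (P : List α) (x : Ctx S V W m) : Prop :=
  nmL P.length = some x ∧ A M Γ x.1 ≤ P.length ∧ P.length < A M Γ x.1 + c M Γ x.1 ∧
  GoodC act e F x ∧ x.2.1.1 = ph (P.take (bt M Γ P.length x.1)) ∧
  x.2.1.2 = wl ph e x.1 P (bt M Γ P.length)

def RR (Q : List α) (x : Ctx S V W m) : Prop :=
  nmR Q.length = some x ∧ G Γ x.1 ∣ Q.length ∧
  (∀ j, (x.1 : ℕ) < j → j < m → Am M Γ j ≤ Q.length) ∧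
  (∀ j, (x.1 : ℕ) < j → j < m →
    (Q.length + A M Γ x.1 - Am M Γ j) / G Γ j =
      (Q.length + A M Γ x.1 + c M Γ x.1 - Am M Γ j) / G Γ j) ∧
  x.2.2.1.1 = ph (Q.drop (Q.length - rb M Γ m Q.length x.1 (x.1 + 1))) ∧
  x.2.2.1.2 = wr ph e x.1 Q (fun j => Q.length - rb M Γ m Q.length x.1 j)

variable {M Γ ph act e F nmL nmR}

theorem data_left (hΓ : 0 < Γ) {P Q : List α} {i : Fin m}
    (h : Pos M Γ m i P.length Q.length) :
    ph ((P ++ Q).take (bd M Γ m (P.length + Q.length) i)) = ph (P.take (bt M Γ P.length i)) ∧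
    wl ph e i (P ++ Q) (bd M Γ m (P.length + Q.length)) = wl ph e i P (bt M Γ P.length) := by
  constructor
  · rw [List.take_append_of_le_length (h.left_le hΓ le_rfl), h.left le_rfl]
  · rw [wl, wl]
    apply Finset.sum_congr rfl
    intro j _
    by_cases hj : j < i
    · have h1 : (j : ℕ) ≤ i := le_of_lt hj
      have h2 : (j : ℕ) + 1 ≤ i := hj
      rw [if_pos hj, if_pos hj, seg_left P Q (h.left_le hΓ h2), h.left h1, h.left h2]
    · rw [if_neg hj, if_neg hj]

theorem data_right {P Q : List α} {i : Fin m}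
    (h : Pos M Γ m i P.length Q.length) :
    ph ((P ++ Q).drop (bd M Γ m (P.length + Q.length) (i + 1))) =
      ph (Q.drop (Q.length - rb M Γ m Q.length i (i + 1))) ∧
    wr ph e i (P ++ Q) (bd M Γ m (P.length + Q.length)) =
      wr ph e i Q (fun j => Q.length - rb M Γ m Q.length i j) := by
  have key : ∀ j, (i : ℕ) < j → bd M Γ m (P.length + Q.length) j - P.length =
      Q.length - rb M Γ m Q.length i j := by
    intro j hj
    have h1 := h.right hj
    have h2 := h.right_ge hj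
    have h3 := h.rb_le hj
    omega
  constructor
  · rw [drop_right P Q (h.right_ge (Nat.lt_succ_self _)), key _ (Nat.lt_succ_self _)]
  · rw [wr, wr]
    apply Finset.sum_congr rfl
    intro j _
    by_cases hj : i < j
    · have h1 : (i : ℕ) < j := hj
      have h2 : (i : ℕ) < j + 1 := by omega
      rw [if_pos hj, if_pos hj, seg_right P Q (h.right_ge h1), key _ h1, key _ h2]
    · rw [if_neg hj, if_neg hj]

theorem pos_of {P Q : List α} {x : Ctx S V W m} (hL : LL M Γ ph act e F nmL P x)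
    (hR : RR M Γ ph e nmR Q x) : Pos M Γ m x.1 P.length Q.length :=
  ⟨x.1.2, hL.2.1, hL.2.2.1, hR.2.1, hR.2.2.1, hR.2.2.2.1⟩

theorem bd_mono (hΓ : 0 < Γ) {P Q : List α} {i : Fin m}
    (h : Pos M Γ m i P.length Q.length) :
    bd M Γ m (P.length + Q.length) i ≤ bd M Γ m (P.length + Q.length) (i + 1) :=
  (h.left_le hΓ le_rfl).trans (h.right_ge (Nat.lt_succ_self _))

theorem ph_split (hph : ∀ u v, ph (u ++ v) = ph u * ph v) (u : List α) {a b : ℕ} (h : a ≤ b) :
    ph u = ph (u.take a) * ph (seg u a b) * ph (u.drop b) := by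
  conv_lhs => rw [← seg_split u h]
  rw [hph, hph, mul_assoc]

/-- soundness at equal names -/
theorem sound_eq (hph : ∀ u v, ph (u ++ v) = ph u * ph v) (hΓ : 0 < Γ) {P Q : List α}
    {x : Ctx S V W m} (hL : LL M Γ ph act e F nmL P x) (hR : RR M Γ ph e nmR Q x) :
    bb act e F x = act x.2.2.2 (ph (P ++ Q)) +
      F (ph (P ++ Q)) (ww ph e (P ++ Q) (bd M Γ m (P ++ Q).length)) := by
  have hp := pos_of hL hR
  have h1 := data_left (ph := ph) (e := e) hΓ hp
  have h2 := data_right (ph := ph) (e := e) hp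
  rw [List.length_append, ww_split ph e x.1,
    ph_split hph (P ++ Q) (bd_mono hΓ hp), h1.1, h1.2, h2.1, h2.2,
    ← hL.2.2.2.2.1, ← hL.2.2.2.2.2, ← hR.2.2.2.2.1, ← hR.2.2.2.2.2]
  have h3 := hL.2.2.2.1 (ph (seg (P ++ Q) (bd M Γ m (P.length + Q.length) x.1)
    (bd M Γ m (P.length + Q.length) (x.1 + 1))))
  rw [bb, ← h3, val, add_comm]

theorem mk_both (hΓ : 0 < Γ) {P Q : List α} {i : Fin m} {v : V}
    (hp : Pos M Γ m i P.length Q.length) {x : Ctx S V W m}
    (hx : x = (i, (ph ((P ++ Q).take (bd M Γ m (P.length + Q.length) i)),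
        wl ph e i (P ++ Q) (bd M Γ m (P.length + Q.length))),
      (ph ((P ++ Q).drop (bd M Γ m (P.length + Q.length) (i + 1))),
        wr ph e i (P ++ Q) (bd M Γ m (P.length + Q.length))), v))
    (hg : GoodC act e F x) (hL : nmL P.length = some x) (hR : nmR Q.length = some x) :
    LL M Γ ph act e F nmL P x ∧ RR M Γ ph e nmR Q x := by
  have h1 := data_left (ph := ph) (e := e) hΓ hp
  have h2 := data_right (ph := ph) (e := e) hp
  have hx1 : x.1 = i := by rw [hx]
  refine ⟨⟨hL, ?_, ?_, hg, ?_, ?_⟩, ⟨hR, ?_, ?_, ?_, ?_, ?_⟩⟩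
  · rw [hx1]; exact hp.lo
  · rw [hx1]; exact hp.hi
  · rw [hx1, ← h1.1, hx]
  · rw [hx1, ← h1.2, hx]
  · rw [hx1]; exact hp.dv
  · rw [hx1]; exact hp.big
  · rw [hx1]; exact hp.cst
  · rw [hx1, ← h2.1, hx]
  · rw [hx1, ← h2.2, hx]

theorem exists_pos (hΓ : 0 < Γ) (hM : 0 < M) (hco : Nat.Coprime M Γ) {T t0 i : ℕ} (hi : i < m)
    (hT : 2 * Am M Γ m ≤ T)
    (hband : ∀ j, 0 < j → j < m → c M Γ (j - 1) ≤ (T - Am M Γ j) % G Γ j ∧
      (T - Am M Γ j) % G Γ j + c M Γ (j - 1) < G Γ j) :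
    ∃ o, o ≤ T ∧ o ≡ t0 [MOD M] ∧ Pos M Γ m i o (T - o) := by
  have hco' : Nat.Coprime M (G Γ i) := Nat.Coprime.pow_right _ hco
  obtain ⟨x0, hx1, hx2⟩ := Nat.chineseRemainder hco' t0 T
  have hN : 0 < M * G Γ i := Nat.mul_pos hM (G_pos Γ hΓ i)
  obtain ⟨N0, hN0⟩ : ∃ N0, N0 = M * G Γ i := ⟨_, rfl⟩
  obtain ⟨a, ha⟩ : ∃ a, a = A M Γ i := ⟨_, rfl⟩
  rw [← hN0] at hN
  have h0 : a + (x0 + N0 * a - a) = x0 + N0 * a := by
    have : a ≤ N0 * a := Nat.le_mul_of_pos_left _ hN
    omega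
  obtain ⟨o, ho⟩ : ∃ o, o = a + (x0 + N0 * a - a) % N0 := ⟨_, rfl⟩
  have h1 : o ≡ x0 [MOD N0] := by
    rw [ho]
    calc a + (x0 + N0 * a - a) % N0 ≡ a + (x0 + N0 * a - a) [MOD N0] :=
          Nat.ModEq.add_left _ (Nat.mod_modEq _ _)
      _ = x0 + N0 * a := h0
      _ ≡ x0 [MOD N0] := by simp [Nat.ModEq, Nat.add_mul_mod_self_left]
  rw [hN0] at h1
  have h2 : o ≡ t0 [MOD M] := (h1.of_mul_right _).trans hx1
  have h3 : o ≡ T [MOD G Γ i] := (h1.of_mul_left _).trans hx2
  have hlo : a ≤ o := by rw [ho]; exact Nat.le_add_right _ _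
  have hhi : o < a + c M Γ i := by
    have := Nat.mod_lt (x0 + N0 * a - a) hN
    rw [c, ← hN0, ho]; omega
  have hAc := A_c_le M Γ hi
  rw [← ha] at hAc
  have hoT : o ≤ T := by omega
  refine ⟨o, hoT, h2, ⟨hi, ha ▸ hlo, ha ▸ hhi, (Nat.modEq_iff_dvd' hoT).1 h3, ?_, ?_⟩⟩
  · intro j _ hjm
    have := Am_mono M Γ hjm.le
    omega
  · intro j hij hjm
    obtain ⟨hb1, hb2⟩ := hband j (by omega) hjm
    have hcc : c M Γ i ≤ c M Γ (j - 1) := c_mono M Γ hΓ (by omega)
    have hAj := A_c_le M Γ hij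
    rw [← ha] at hAj
    have hAjm := Am_mono M Γ hjm.le
    have hD := Nat.div_add_mod (T - Am M Γ j) (G Γ j)
    have hG := G_pos Γ hΓ j
    rw [← ha]
    have e1 : T - o + a - Am M Γ j =
        G Γ j * ((T - Am M Γ j) / G Γ j) + ((T - Am M Γ j) % G Γ j - (o - a)) := by omega
    have e2 : T - o + a + c M Γ i - Am M Γ j =
        G Γ j * ((T - Am M Γ j) / G Γ j) + ((T - Am M Γ j) % G Γ j + (c M Γ i - (o - a))) := by omega
    have d1 : ((T - Am M Γ j) % G Γ j - (o - a)) / G Γ j = 0 := Nat.div_eq_of_lt (by omega)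
    have d2 : ((T - Am M Γ j) % G Γ j + (c M Γ i - (o - a))) / G Γ j = 0 :=
      Nat.div_eq_of_lt (by omega)
    rw [e1, e2, Nat.mul_add_div hG, Nat.mul_add_div hG, d1, d2]

/-- completeness -/
theorem complete (hph : ∀ u v, ph (u ++ v) = ph u * ph v) (hΓ : 0 < Γ) (hM : 0 < M)
    (hco : Nat.Coprime M Γ)
    (hF : ∀ (s : S) (w : W) (v : V), ∃ i : Fin m, ∀ g x h : S, g * x * h = s →
      ∀ z : S, F (g * z * h) (w - e i x + e i z) + act v (g * z * h) = F s w + act v s)
    (hper : ∀ t, nmL (t + M) = nmL t) {u : List α}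
    (hnm : ∀ x, ∃ t < M, nmL t = some x ∧ ∀ t', t + t' ≡ u.length [MOD M] → nmR t' = some x)
    (hT : 2 * Am M Γ m ≤ u.length)
    (hband : ∀ j, 0 < j → j < m → c M Γ (j - 1) ≤ (u.length - Am M Γ j) % G Γ j ∧
      (u.length - Am M Γ j) % G Γ j + c M Γ (j - 1) < G Γ j) (v : V) :
    ∃ P Q x, u = P ++ Q ∧ P.length < Am M Γ m ∧ LL M Γ ph act e F nmL P x ∧
      RR M Γ ph e nmR Q x ∧ x.2.2.2 = v := by
  obtain ⟨i, hi⟩ := hF (ph u) (ww ph e u (bd M Γ m u.length)) v
  obtain ⟨x, hx⟩ : ∃ x : Ctx S V W m, x = (i, (ph (u.take (bd M Γ m u.length i)),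
        wl ph e i u (bd M Γ m u.length)),
      (ph (u.drop (bd M Γ m u.length (i + 1))),
        wr ph e i u (bd M Γ m u.length)), v) := ⟨_, rfl⟩
  obtain ⟨t0, ht0, hL, hR⟩ := hnm x
  obtain ⟨o, hoT, ho, hp⟩ := exists_pos (m := m) (t0 := t0) hΓ hM hco i.2 hT hband
  have hPl : (u.take o).length = o := by rw [List.length_take]; omega
  have hQl : (u.drop o).length = u.length - o := by rw [List.length_drop]
  have hPQ : u.take o ++ u.drop o = u := List.take_append_drop _ _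
  have hp' : Pos M Γ m i (u.take o).length (u.drop o).length := by rw [hPl, hQl]; exact hp
  have hsum : (u.take o).length + (u.drop o).length = u.length := by omega
  have hbd := bd_mono hΓ hp'
  rw [hsum] at hbd
  have hg : GoodC act e F x := by
    have hall : ∀ z, val act e F x z = F (ph u) (ww ph e u (bd M Γ m u.length)) + act v (ph u) := by
      intro z
      have h1 := hi _ _ _ (ph_split hph u hbd).symm z
      rw [← h1, val, hx]
      have h2 := ww_split ph e i u (bd M Γ m u.length)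
      congr 2
      rw [h2]; abel
    intro z; rw [hall z, hall 1]
  have hoL : nmL o = some x := by
    have hP : Function.Periodic nmL M := hper
    have h1 : o % M = t0 := by
      have : o % M = t0 % M := ho
      rw [this, Nat.mod_eq_of_lt ht0]
    rw [← hP.map_mod_nat, h1, hL]
  have hoR : nmR (u.length - o) = some x := by
    apply hR
    have h1 : t0 + (u.length - o) ≡ o + (u.length - o) [MOD M] := ho.symm.add_right _
    have h2 : o + (u.length - o) = u.length := by omega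
    rwa [h2] at h1
  have hb := mk_both (v := v) (nmL := nmL) (nmR := nmR) hΓ hp'
    (by rw [hPQ, hsum]; exact hx) hg (by rw [hPl]; exact hoL) (by rw [hQl]; exact hoR)
  refine ⟨u.take o, u.drop o, x, hPQ.symm, ?_, hb.1, hb.2, by rw [hx]⟩
  have h1 := A_c_le M Γ i.2
  have h2 := hp.hi
  rw [hPl]; omega

end gad

/-- bad total lengths -/
def Bad (M Γ m : ℕ) (Ms : Finset ℕ) (T : ℕ) : Prop :=
  (∃ k ∈ Ms, k ∣ T) ∨ ∃ j, 0 < j ∧ j < m ∧
    ((T - Am M Γ j) % G Γ j < c M Γ (j - 1) ∨ G Γ j ≤ (T - Am M Γ j) % G Γ j + c M Γ (j - 1))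

/-- THE GADGET: one scheme for zones of arbitrary content and arbitrary unknown length. -/
theorem gadget (S V : Type) [Monoid S] [Finite S] [AddCommGroup V] [Finite V] (act : V → S → V) :
    ∃ r m : ℕ, ∀ B : ℕ, ∃ (Ms : Finset ℕ) (M : ℕ), Ms.card ≤ r ∧
      (∀ k ∈ Ms, B < k ∧ Nat.Prime k ∧ k ∣ M) ∧ 0 < M ∧
      ∀ Γ : ℕ, 0 < Γ → Nat.Coprime M Γ → ∀ (α : Type) (ph : List α → S),
      (∀ u v, ph (u ++ v) = ph u * ph v) →
      ∃ (lam rho : List α → Option V) (nu : List α → V),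
        (∀ P v, lam P = some v → P.length < Am M Γ m) ∧
        (∀ P Q v b, lam P = some v → rho Q = some b → b = act v (ph (P ++ Q)) + nu (P ++ Q)) ∧
        (∀ u : List α, 2 * Am M Γ m ≤ u.length → ¬ Bad M Γ m Ms u.length →
          ∀ v, ∃ P Q, u = P ++ Q ∧ lam P = some v ∧ (rho Q).isSome) := by
  classical
  obtain ⟨W, _, _, m, e, F, hF⟩ := Crest.Agent.R320.Noise513.explicit_noise S V act
  let col : Ctx S V W m → V × V := fun x => (x.2.2.2, bb act e F x)
  obtain ⟨r, hr⟩ := Names755.names (Ctx S V W m) (V × V) col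
  refine ⟨r, m, fun B => ?_⟩
  obtain ⟨Ms, M, nmL, nmR, h1, h2, h3, h4, h5, h6, h7, h8⟩ := hr B
  refine ⟨Ms, M, h1, h2, h3, fun Γ hΓ hco α ph hph => ?_⟩
  have uL : ∀ P x y, LL M Γ ph act e F nmL P x → LL M Γ ph act e F nmL P y → x = y := by
    intro P x y hx hy
    exact Option.some.inj (hx.1.symm.trans hy.1)
  have uR : ∀ Q x y, RR M Γ ph e nmR Q x → RR M Γ ph e nmR Q y → x = y := by
    intro Q x y hx hy
    exact Option.some.inj (hx.1.symm.trans hy.1)
  let lam : List α → Option V := fun P =>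
    if h : ∃ x, LL M Γ ph act e F nmL P x then some h.choose.2.2.2 else none
  let rho : List α → Option V := fun Q =>
    if h : ∃ x, RR M Γ ph e nmR Q x then some (bb act e F h.choose) else none
  have hlam : ∀ P v, lam P = some v → ∃ x, LL M Γ ph act e F nmL P x ∧ x.2.2.2 = v := by
    intro P v h
    simp only [lam] at h
    split_ifs at h with h0
    exact ⟨h0.choose, h0.choose_spec, Option.some.inj h⟩
  have hlam' : ∀ P x, LL M Γ ph act e F nmL P x → lam P = some x.2.2.2 := by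
    intro P x h
    have h0 : ∃ x, LL M Γ ph act e F nmL P x := ⟨x, h⟩
    simp only [lam]
    rw [dif_pos h0, uL P _ _ h0.choose_spec h]
  have hrho : ∀ Q b, rho Q = some b → ∃ x, RR M Γ ph e nmR Q x ∧ bb act e F x = b := by
    intro Q b h
    simp only [rho] at h
    split_ifs at h with h0
    exact ⟨h0.choose, h0.choose_spec, Option.some.inj h⟩
  have hrho' : ∀ Q x, RR M Γ ph e nmR Q x → (rho Q).isSome := by
    intro Q x h
    have h0 : ∃ x, RR M Γ ph e nmR Q x := ⟨x, h⟩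
    simp only [rho]
    rw [dif_pos h0]; rfl
  let nu : List α → V := fun u =>
    if ∀ k ∈ Ms, ¬ k ∣ u.length then F (ph u) (ww ph e u (bd M Γ m u.length))
    else if h : ∃ d : (List α × List α) × (Ctx S V W m × Ctx S V W m),
        u = d.1.1 ++ d.1.2 ∧ LL M Γ ph act e F nmL d.1.1 d.2.1 ∧ RR M Γ ph e nmR d.1.2 d.2.2 then
      bb act e F h.choose.2.2 - act h.choose.2.1.2.2.2 (ph u)
    else 0
  refine ⟨lam, rho, nu, ?_, ?_, ?_⟩
  · intro P v h
    obtain ⟨x, hx, _⟩ := hlam P v h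
    have h9 := A_c_le M Γ x.1.2
    have h10 := hx.2.2.1
    omega
  · intro P Q v b hl hb
    obtain ⟨x, hx, rfl⟩ := hlam P v hl
    obtain ⟨y, hy, rfl⟩ := hrho Q b hb
    by_cases hT : ∀ k ∈ Ms, ¬ k ∣ (P ++ Q).length
    · have hnu : nu (P ++ Q) = F (ph (P ++ Q)) (ww ph e (P ++ Q) (bd M Γ m (P ++ Q).length)) := by
        simp only [nu]; rw [if_pos hT]
      have hxy : x = y := h6 _ _ _ _ hx.1 hy.1 (by rwa [List.length_append] at hT)
      subst hxy
      rw [hnu]
      exact sound_eq hph hΓ hx hy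
    · have h0 : ∃ d : (List α × List α) × (Ctx S V W m × Ctx S V W m),
          P ++ Q = d.1.1 ++ d.1.2 ∧ LL M Γ ph act e F nmL d.1.1 d.2.1 ∧
            RR M Γ ph e nmR d.1.2 d.2.2 := ⟨((P, Q), (x, y)), rfl, hx, hy⟩
      have hnu : nu (P ++ Q) = bb act e F h0.choose.2.2 -
          act h0.choose.2.1.2.2.2 (ph (P ++ Q)) := by
        simp only [nu]; rw [if_neg hT, dif_pos h0]
      obtain ⟨e1, e2, e3⟩ := h0.choose_spec
      have hlen : P.length + Q.length =
          h0.choose.1.1.length + h0.choose.1.2.length := by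
        have := congrArg List.length e1
        simpa [List.length_append] using this
      have hbad : ∃ k ∈ Ms, k ∣ P.length + Q.length := by
        push_neg at hT
        rwa [List.length_append] at hT
      obtain ⟨c1, c2⟩ := h8 _ _ _ _ _ _ _ _ hx.1 hy.1 e2.1 e3.1 hlen hbad
      have c3 : x.2.2.2 = h0.choose.2.1.2.2.2 := congrArg Prod.fst c1
      have c4 : bb act e F y = bb act e F h0.choose.2.2 := congrArg Prod.snd c2
      rw [hnu, c4, c3]; abel
  · intro u hu hB v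
    simp only [Bad, not_or] at hB
    obtain ⟨hB1, hB2⟩ := hB
    push_neg at hB1 hB2
    obtain ⟨P, Q, x, hPQ, _, hL, hR, hv⟩ := complete (nmR := nmR) hph hΓ h3 hco hF h4
      (h7 u.length hB1) hu (fun j hj1 hj2 => (hB2 j hj1 hj2)) v
    exact ⟨P, Q, hPQ, by rw [hlam' P x hL, hv], hrho' Q x hR⟩

end Crest.Agent.R320.Grid777
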