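import Mathlib

/-!
Row 320: the grid gadget (693 #13203), part 1: grids and words.
-/

set_option autoImplicit false
set_option linter.all false

namespace Crest.Agent.R320.Grid_84

open Finset

/-- grid parameters: `m` levels, grids `G ^ j`, cells `M * G ^ i`. -/
structure Gr where
  m : ℕ
  G : ℕ
  M : ℕ
  hG : 0 < G
  hM : 0 < M

namespace Gr
variable (p : Gr)

def Am : ℕ → ℕ
  | 0 => 0
  | (i+1) => Am i + p.G ^ i + p.M * p.G ^ i

def A (i : ℕ) : ℕ := p.Am i + p.G ^ i
def c (i : ℕ) : ℕ := p.M * p.G ^ i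
def R (j T : ℕ) : ℕ := (T + (p.G ^ p.m - 1) * p.Am j) % p.G ^ j
def bt (j T : ℕ) : ℕ := p.Am j + p.R j T

theorem Am_succ (i : ℕ) : p.Am (i+1) = p.A i + p.c i := rfl

theorem Gpow (j : ℕ) : 0 < p.G ^ j := Nat.pow_pos p.hG

theorem R_lt (j T : ℕ) : p.R j T < p.G ^ j := Nat.mod_lt _ (p.Gpow j)

theorem Am_mono : Monotone p.Am := by
  refine monotone_nat_of_le_succ ?_
  intro i
  rw [Am_succ]; unfold A; omega

theorem le_A (i : ℕ) : p.Am i ≤ p.A i := by unfold A; omega

theorem bt_lt (j T : ℕ) : p.bt j T < p.A j := by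
  have := p.R_lt j T
  unfold bt A; omega

theorem le_bt (j T : ℕ) : p.Am j ≤ p.bt j T := by unfold bt; omega

theorem cell_le {i j : ℕ} (h : i < j) : p.A i + p.c i ≤ p.Am j := by
  rw [← Am_succ]; exact p.Am_mono h

theorem bt_lt_bt (j T T' : ℕ) : p.bt j T < p.bt (j+1) T' := by
  have h1 := p.bt_lt j T
  have h2 := p.le_bt (j+1) T'
  have h3 : p.A j + p.c j ≤ p.Am (j+1) := p.cell_le (Nat.lt_succ_self j)
  omega

theorem R_add {j o o' : ℕ} (h : p.G ^ j ∣ o') : p.R j (o + o') = p.R j o := by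
  obtain ⟨k, rfl⟩ := h
  unfold R
  rw [show o + p.G ^ j * k + (p.G ^ p.m - 1) * p.Am j
      = o + (p.G ^ p.m - 1) * p.Am j + p.G ^ j * k by ring]
  exact Nat.add_mul_mod_self_left _ _ _

theorem bt_add {j o o' : ℕ} (h : p.G ^ j ∣ o') : p.bt j (o + o') = p.bt j o := by
  unfold bt; rw [p.R_add h]

theorem R_shift {j T d c : ℕ} (h : p.R j T + c ≤ p.G ^ j) (hd : d < c) :
    p.R j (T + d) = p.R j T + d := by
  unfold R at *
  rw [show T + d + (p.G ^ p.m - 1) * p.Am j = (T + (p.G ^ p.m - 1) * p.Am j) + d by ring]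
  rw [Nat.add_mod]
  have hlt : (T + (p.G ^ p.m - 1) * p.Am j) % p.G ^ j + d < p.G ^ j := by omega
  have hdn : d < p.G ^ j := lt_of_le_of_lt (Nat.le_add_left _ _) hlt
  have hd' : d % p.G ^ j = d := Nat.mod_eq_of_lt hdn
  rw [hd', Nat.mod_eq_of_lt hlt]

theorem bt_shift {j T d c : ℕ} (h : p.R j T + c ≤ p.G ^ j) (hd : d < c) :
    p.bt j (T + d) = p.bt j T + d := by
  unfold bt; rw [p.R_shift h hd]; ring

/-- bad zone lengths (grid part) -/
def BadR (j T : ℕ) : Prop := ¬ (p.c (j-1) ≤ p.R j T ∧ p.R j T + p.c (j-1) ≤ p.G ^ j)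

theorem R_back {j T d c : ℕ} (h1 : c ≤ p.R j (T + d)) (h2 : p.R j (T + d) + c ≤ p.G ^ j)
    (hd : d < c) : p.R j T + c ≤ p.G ^ j := by
  unfold R at *
  set n := p.G ^ j with hn
  set X := T + (p.G ^ p.m - 1) * p.Am j with hX
  rw [show T + d + (p.G ^ p.m - 1) * p.Am j = X + d by rw [hX]; ring] at h1 h2
  have hpos : 0 < n := p.Gpow j
  have hr := Nat.mod_lt X hpos
  rcases lt_or_ge (X % n + d) n with h | h
  · have : (X + d) % n = X % n + d := by
      rw [Nat.add_mod, Nat.mod_eq_of_lt (show d < n by omega), Nat.mod_eq_of_lt h]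
    omega
  · exfalso
    have hdn : d < n := by
      have := Nat.mod_lt (X + d) hpos
      omega
    have : (X + d) % n = X % n + d - n := by
      rw [Nat.add_mod, Nat.mod_eq_of_lt hdn]
      rw [Nat.mod_eq_sub_mod h, Nat.mod_eq_of_lt (by omega)]
    omega

end Gr

section words
variable {α : Type*}

def hol (u : List α) (a b : ℕ) : List α := (u.drop a).take (b - a)

theorem hol_left (P Q : List α) {a b : ℕ} (h : b ≤ P.length) :
    hol (P ++ Q) a b = hol P a b := by
  unfold hol
  rcases le_or_gt a P.length with ha | ha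
  · rw [List.drop_append_of_le_length ha, List.take_append_of_le_length]
    rw [List.length_drop]; omega
  · have : b - a = 0 := by omega
    rw [this]; simp

theorem hol_right (P Q : List α) {a b : ℕ} (h : P.length ≤ a) (hab : a ≤ b) :
    hol (P ++ Q) a b = hol Q (a - P.length) (b - P.length) := by
  unfold hol
  rw [show b - P.length - (a - P.length) = b - a by omega]
  congr 1
  conv_lhs => rw [show a = P.length + (a - P.length) by omega]
  rw [List.drop_append]
  simp

theorem split3 (u : List α) {a b : ℕ} (h : a ≤ b) :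
    u = u.take a ++ (hol u a b ++ u.drop b) := by
  unfold hol
  have h1 : (u.drop a).take (b - a) ++ u.drop b = u.drop a := by
    conv_rhs => rw [← List.take_append_drop (b - a) (u.drop a)]
    rw [List.drop_drop, show a + (b - a) = b by omega]
  rw [h1, List.take_append_drop]

theorem drop_right (P Q : List α) {a : ℕ} (h : P.length ≤ a) :
    (P ++ Q).drop a = Q.drop (a - P.length) := by
  conv_lhs => rw [show a = P.length + (a - P.length) by omega]
  rw [List.drop_append]
  simp

end words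

end Crest.Agent.R320.Grid_84
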