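import Crest.Agent.R320.Zone132_898

/-!
# Row 320, zone gadget of scheme 1 WITHOUT small walls (helper693 #13203), word form (helper850)

Hole ends are read on the `b`-anchored nested grids `G 0 ∣ G 1 ∣ ..`; contents are arbitrary.
`Am k` = level `k`, cell of level `i` = `[Am i + G i, Am (i+1))`, `Am (i+1) = Am i + G i + M * G i`.
`bt T k = Am k + (T - Am k) % G k` = hole end `k` of a zone of length `T`.
-/

set_option autoImplicit false

namespace Crest.Agent.R320.Grid_850

open Finset Crest.Agent.R320.Zone132_898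

variable {α S V W : Type*}

/-- level `k` -/
def Am (G : ℕ → ℕ) (M : ℕ) : ℕ → ℕ
  | 0 => 0
  | k + 1 => Am G M k + G k + M * G k

/-- hole end `k` of a zone of length `T` -/
def bt (G : ℕ → ℕ) (M T k : ℕ) : ℕ := Am G M k + (T - Am G M k) % G k

theorem Am_succ (G : ℕ → ℕ) (M k : ℕ) : Am G M (k + 1) = Am G M k + G k + M * G k := rfl

theorem Am_mono (G : ℕ → ℕ) (M : ℕ) : Monotone (Am G M) :=
  monotone_nat_of_le_succ fun k => by rw [Am_succ]; omega

/-- the data of the gadget -/
structure GD (α S V W : Type*) [Monoid S] [AddCommGroup V] [AddCommGroup W] where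
  phi : List α → S
  hphi : ∀ u v, phi (u ++ v) = phi u * phi v
  act : V → S → V
  m : ℕ
  M : ℕ
  hM : 0 < M
  G : ℕ → ℕ
  hG : ∀ k, 0 < G k
  dvdG : ∀ k, G k ∣ G (k + 1)
  e : ℕ → S → W
  F : S → W → V
  LN : ℕ → Option (Ctx S V W)
  RN : ℕ → Option (Ctx S V W)
  B : ℕ → Prop

variable [Monoid S] [AddCommGroup V] [AddCommGroup W]

namespace GD

variable (D : GD α S V W)

def A (k : ℕ) : ℕ := Am D.G D.M k
def H (T k : ℕ) : ℕ := bt D.G D.M T k

theorem A_succ (k : ℕ) : D.A (k + 1) = D.A k + D.G k + D.M * D.G k := rfl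

theorem A_mono : Monotone D.A := Am_mono _ _

theorem H_ge (T k : ℕ) : D.A k ≤ D.H T k := Nat.le_add_right _ _

theorem H_lt (T k : ℕ) : D.H T k < D.A k + D.G k := by
  have := Nat.mod_lt (T - D.A k) (D.hG k)
  exact Nat.add_lt_add_left this _

theorem dvdG' {i j : ℕ} (h : i ≤ j) : D.G i ∣ D.G j := by
  induction h with
  | refl => exact dvd_rfl
  | step _ ih => exact ih.trans (D.dvdG _)

/-- the hole end depends on the residue only -/
theorem H_congr {T T' k : ℕ} (h : D.A k ≤ T') (d : D.G k ∣ T - T') (hle : T' ≤ T) :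
    D.H T k = D.H T' k := by
  unfold H bt
  congr 1
  obtain ⟨c, hc⟩ := d
  have h1 : T - Am D.G D.M k = (T' - Am D.G D.M k) + D.G k * c := by
    have : D.A k = Am D.G D.M k := rfl
    omega
  rw [h1, Nat.add_mul_mod_self_left]

theorem H_eq_sub {T k : ℕ} (h : D.A k ≤ T) :
    D.H T k + D.G k * ((T - D.A k) / D.G k) = T := by
  have := Nat.div_add_mod (T - D.A k) (D.G k)
  have h1 : D.H T k = D.A k + (T - D.A k) % D.G k := rfl
  omega

/-- value when the hole is filled with `z` -/
def val (c : Ctx S V W) (z : S) : V :=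
  D.F (c.g * z * c.h) (c.wl + D.e c.i z + c.wr) + D.act c.v (c.g * z * c.h)

def bval (c : Ctx S V W) : V := D.val c 1

def Good (c : Ctx S V W) : Prop := ∀ z, D.val c z = D.bval c

/-- left legal -/
def LL (P : List α) (v : V) : Prop :=
  ∃ c : Ctx S V W, c.i < D.m ∧ D.A c.i + D.G c.i ≤ P.length ∧ P.length < D.A (c.i + 1) ∧
    D.LN P.length = some c ∧ D.Good c ∧ c.g = D.phi (P.take (D.H P.length c.i)) ∧
    c.wl = ∑ k ∈ range c.i, D.e k (zt D.phi P (D.H P.length k) (D.H P.length (k + 1))) ∧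
    v = c.v

/-- right legal; `R k` = place of the hole end `k` in `Q` (the same for every clock of the cell) -/
def RR (Q : List α) (b : V) : Prop :=
  ∃ (c : Ctx S V W) (R : ℕ → ℕ), c.i < D.m ∧ D.RN Q.length = some c ∧ D.Good c ∧
    D.G c.i ∣ Q.length ∧ D.A (D.m + 1) ≤ Q.length ∧
    (∀ o, D.A c.i + D.G c.i ≤ o → o < D.A (c.i + 1) → ∀ k, c.i < k → k ≤ D.m →
      D.H (o + Q.length) k = o + R k) ∧
    c.h = D.phi (Q.drop (R (c.i + 1))) ∧
    c.wr = ∑ k ∈ Ico (c.i + 1) D.m, D.e k (zt D.phi Q (R k) (R (k + 1))) ∧ b = D.bval c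

/-- a legal pair of names over the length `n` -/
def Pair (n : ℕ) (p : Ctx S V W × Ctx S V W) : Prop :=
  ∃ o o', o + o' = n ∧ D.LN o = some p.1 ∧ D.Good p.1 ∧ D.RN o' = some p.2 ∧ D.Good p.2

open Classical in
/-- the noise -/
noncomputable def nu (Z : List α) : V :=
  if D.B Z.length then
    (if h : ∃ p : Ctx S V W × Ctx S V W, D.Pair Z.length p then
      D.bval h.choose.2 - D.act h.choose.1.v (D.phi Z) else 0)
  else D.F (D.phi Z)
    (∑ k ∈ range D.m, D.e k (zt D.phi Z (D.H Z.length k) (D.H Z.length (k + 1))))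

def N1 : Prop := ∀ o o' c c', ¬ D.B (o + o') → D.LN o = some c → D.RN o' = some c' → c = c'

def N2 : Prop := ∀ n p p', D.B n → D.Pair n p → D.Pair n p' →
  p.1.v = p'.1.v ∧ D.bval p.2 = D.bval p'.2

/-- every good name of level `i` occurs in the cell on the grid -/
def N3 : Prop := ∀ n c, ¬ D.B n → D.Good c → c.i < D.m → D.A (c.i + 1) ≤ n →
  ∃ o, D.A c.i + D.G c.i ≤ o ∧ o < D.A (c.i + 1) ∧ D.G c.i ∣ n - o ∧ D.LN o = some c ∧
    D.RN (n - o) = some c

def Hides : Prop := ∀ (s : S) (w : W) (v : V), ∃ i, i < D.m ∧ ∀ g x h : S, g * x * h = s →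
  ∀ z, D.F (g * z * h) (w - D.e i x + D.e i z) + D.act v (g * z * h) = D.F s w + D.act v s

theorem sound (h1 : D.N1) (h2 : D.N2) {P Q : List α} {v b : V} (hL : D.LL P v)
    (hR : D.RR Q b) : b = D.act v (D.phi (P ++ Q)) + D.nu (P ++ Q) := by
  classical
  obtain ⟨c, hi, hlo, hhi, hLN, hg, hcg, hcw, rfl⟩ := hL
  obtain ⟨c', R, hi', hRN, hg', hdv, -, hJ, hch, hcwr, rfl⟩ := hR
  have hlen : (P ++ Q).length = P.length + Q.length := List.length_append
  by_cases hB : D.B (P ++ Q).length
  · have hpair : D.Pair (P ++ Q).length (c, c') :=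
      ⟨P.length, Q.length, hlen.symm, hLN, hg, hRN, hg'⟩
    have hex : ∃ p : Ctx S V W × Ctx S V W, D.Pair (P ++ Q).length p := ⟨_, hpair⟩
    unfold nu
    rw [if_pos hB, dif_pos hex]
    obtain ⟨h3, h4⟩ := h2 _ _ _ hB hpair hex.choose_spec
    rw [← h3, ← h4]
    simp
  · have hcc : c = c' := h1 _ _ c c' (by rw [← hlen]; exact hB) hLN hRN
    subst hcc
    -- hole ends
    have hHl : ∀ k, k ≤ c.i → D.H (P ++ Q).length k = D.H P.length k := by
      intro k hk
      refine D.H_congr ?_ ?_ (by omega)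
      · have := D.A_mono hk
        omega
      · rw [hlen, Nat.add_sub_cancel_left]
        exact (D.dvdG' hk).trans hdv
    have hHlt : ∀ k, k ≤ c.i → D.H P.length k ≤ P.length := by
      intro k hk
      have h5 := D.H_lt P.length k
      rcases Nat.lt_or_ge k c.i with h6 | h6
      · have h7 := D.A_mono (show k + 1 ≤ c.i by omega)
        have h8 := D.A_succ k
        omega
      · have : k = c.i := by omega
        subst this
        omega
    have hHr : ∀ k, c.i < k → k ≤ D.m → D.H (P ++ Q).length k = P.length + R k := by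
      intro k hk hk'
      rw [hlen]
      exact hJ P.length hlo hhi k hk hk'
    unfold nu
    rw [if_neg hB]
    set x : S := zt D.phi (P ++ Q) (D.H (P ++ Q).length c.i) (D.H (P ++ Q).length (c.i + 1))
      with hx
    have hr1 := hHr (c.i + 1) (by omega) (by omega)
    have hprod : c.g * x * c.h = D.phi (P ++ Q) := by
      have h5 : c.g = D.phi ((P ++ Q).take (D.H (P ++ Q).length c.i)) := by
        rw [hcg, hHl c.i le_rfl, List.take_append_of_le_length (hHlt c.i le_rfl)]
      have h6 : c.h = D.phi ((P ++ Q).drop (D.H (P ++ Q).length (c.i + 1))) := by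
        rw [hch, hr1, drop_add]
      rw [h5, h6, hx]
      refine zt_split D.hphi _ ?_
      rw [hHl c.i le_rfl, hr1]
      have := hHlt c.i le_rfl
      omega
    have hw : ∑ k ∈ range D.m, D.e k (zt D.phi (P ++ Q) (D.H (P ++ Q).length k)
        (D.H (P ++ Q).length (k + 1))) = c.wl + D.e c.i x + c.wr := by
      rw [Zone132_898.Data.sum_split hi, hcw, hcwr]
      congr 1
      · congr 1
        apply Finset.sum_congr rfl
        intro k hk
        rw [Finset.mem_range] at hk
        rw [hHl k (by omega), hHl (k + 1) (by omega), zt_left D.phi (hHlt (k + 1) (by omega))]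
      · apply Finset.sum_congr rfl
        intro k hk
        rw [Finset.mem_Ico] at hk
        rw [hHr k (by omega) (by omega), hHr (k + 1) (by omega) (by omega), zt_right]
    rw [hw, ← hg x]
    unfold val
    rw [hprod, add_comm]

/-- the residue condition: no multiple of `G k` in the doubt interval of length `M * G i`. -/
def NoDoubt (T : ℕ) : Prop := ∀ i k, i < k → k ≤ D.m → D.M * D.G i ≤ (T - D.A k) % D.G k ∧
  (T - D.A k) % D.G k + D.M * D.G i < D.G k

theorem complete (h3 : D.N3) (hF : D.Hides) {Z : List α} (hB : ¬ D.B Z.length)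
    (hD : D.NoDoubt Z.length) (hZ : 2 * D.A (D.m + 1) ≤ Z.length) (v : V) :
    ∃ P Q : List α, Z = P ++ Q ∧ D.LL P v ∧ ∃ b, D.RR Q b := by
  classical
  set T := Z.length with hT
  set w : W := ∑ k ∈ range D.m, D.e k (zt D.phi Z (D.H T k) (D.H T (k + 1))) with hw
  obtain ⟨i, hi, hhide⟩ := hF (D.phi Z) w v
  have hAT : ∀ k, k ≤ D.m + 1 → D.A k ≤ T := fun k hk => (D.A_mono hk).trans (by omega)
  have hii : D.H T i ≤ D.H T (i + 1) := by
    have h5 := D.H_lt T i
    have h6 := D.H_ge T (i + 1)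
    have h7 := D.A_succ i
    omega
  let c : Ctx S V W :=
    { i := i
      g := D.phi (Z.take (D.H T i))
      wl := ∑ k ∈ range i, D.e k (zt D.phi Z (D.H T k) (D.H T (k + 1)))
      h := D.phi (Z.drop (D.H T (i + 1)))
      wr := ∑ k ∈ Ico (i + 1) D.m, D.e k (zt D.phi Z (D.H T k) (D.H T (k + 1)))
      v := v }
  have hprod := zt_split D.hphi Z hii
  have hws : w = c.wl + D.e i (zt D.phi Z (D.H T i) (D.H T (i + 1))) + c.wr := by
    rw [hw, Zone132_898.Data.sum_split hi]
  have hval : ∀ z, D.val c z = D.F (D.phi Z) w + D.act v (D.phi Z) := by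
    intro z
    have h5 := hhide _ _ _ hprod z
    rw [← h5]
    unfold val
    have h6 : c.wl + D.e c.i z + c.wr
        = w - D.e i (zt D.phi Z (D.H T i) (D.H T (i + 1))) + D.e i z := by
      rw [hws]; abel
    rw [h6]
  have hgood : D.Good c := by
    intro z
    unfold bval
    rw [hval z, hval 1]
  obtain ⟨o, ho1, ho2, ho3, ho4, ho5⟩ := h3 T c hB hgood hi (hAT _ (by
    have : c.i = i := rfl
    omega))
  have hci : c.i = i := rfl
  rw [hci] at ho1 ho2 ho3
  have hoT : o ≤ T := by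
    have := hAT (i + 1) (by omega)
    omega
  have hPl : (Z.take o).length = o := by rw [List.length_take]; omega
  have hQl : (Z.drop o).length = T - o := by rw [List.length_drop]
  have hZe : Z.take o ++ Z.drop o = Z := List.take_append_drop _ _
  have hHl : ∀ k, k ≤ i → D.H T k = D.H o k := by
    intro k hk
    refine D.H_congr ?_ ((D.dvdG' hk).trans ho3) hoT
    have := D.A_mono hk
    omega
  have hHlt : ∀ k, k ≤ i → D.H T k ≤ o := by
    intro k hk
    have h5 := D.H_lt T k
    rcases Nat.lt_or_ge k i with h6 | h6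
    · have h7 := D.A_mono (show k + 1 ≤ i by omega)
      have h8 := D.A_succ k
      omega
    · have : k = i := by omega
      subst this
      omega
  have hHr : ∀ k, i < k → k ≤ D.m + 1 → o ≤ D.H T k := by
    intro k hk _
    have h5 := D.H_ge T k
    have h6 := D.A_mono (show i + 1 ≤ k by omega)
    omega
  refine ⟨Z.take o, Z.drop o, hZe.symm, ?_, D.bval c, c, fun k => D.H T k - o, hi, ?_, hgood, ?_, ?_,
    ?_, ?_, ?_, rfl⟩
  · refine ⟨c, hi, by rw [hPl, hci]; exact ho1, by rw [hPl, hci]; exact ho2,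
      by rw [hPl]; exact ho4, hgood, ?_, ?_, rfl⟩
    · change D.phi (Z.take (D.H T i)) = D.phi ((Z.take o).take (D.H (Z.take o).length i))
      rw [hPl, ← hHl i le_rfl, List.take_take, min_eq_left (hHlt i le_rfl)]
    · change ∑ k ∈ range i, D.e k (zt D.phi Z (D.H T k) (D.H T (k + 1))) =
        ∑ k ∈ range i, D.e k (zt D.phi (Z.take o) (D.H (Z.take o).length k)
          (D.H (Z.take o).length (k + 1)))
      apply Finset.sum_congr rfl
      intro k hk
      rw [Finset.mem_range] at hk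
      have h9 := zt_left D.phi (P := Z.take o) (Q := Z.drop o) (a := D.H T k)
        (b := D.H T (k + 1)) (by rw [hPl]; exact hHlt (k + 1) (by omega))
      rw [hZe] at h9
      rw [h9, hPl, ← hHl k (by omega), ← hHl (k + 1) (by omega)]
  · rw [hQl]; exact ho5
  · rw [hQl]; exact ho3
  · rw [hQl]
    have := D.A_mono (show i + 1 ≤ D.m + 1 by omega)
    omega
  · intro o1 h5 h6 k hk hk'
    rw [hci] at h5 h6 hk
    rw [hQl]
    have h7 := hAT k (by omega)
    have h8 := (hD i k hk hk')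
    have h9 := D.A_succ i
    have h10 := Nat.div_add_mod (T - D.A k) (D.G k)
    have hGk := D.hG k
    have hHT : D.H T k = D.A k + (T - D.A k) % D.G k := rfl
    have hH1 : D.H (o1 + (T - o)) k = D.A k + (o1 + (T - o) - D.A k) % D.G k := rfl
    have h14 := hHr k hk (by omega)
    set q := (T - D.A k) / D.G k with hq
    set rr := (T - D.A k) % D.G k with hrr
    have h11 : o1 ≤ o + D.M * D.G i := by omega
    have h12 : o ≤ o1 + D.M * D.G i := by omega
    have h13 : (o1 + (T - o) - D.A k) % D.G k = rr + o1 - o := by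
      have h15 : o1 + (T - o) - D.A k = (rr + o1 - o) + D.G k * q := by omega
      rw [h15, Nat.add_mul_mod_self_left, Nat.mod_eq_of_lt (by omega)]
    change D.H (o1 + (T - o)) k = o1 + (D.H T k - o)
    rw [hH1, h13]
    omega
  · change D.phi (Z.drop (D.H T (i + 1))) = D.phi ((Z.drop o).drop (D.H T (i + 1) - o))
    rw [List.drop_drop]
    congr 2
    have := hHr (i + 1) (by omega) (by omega)
    omega
  · change ∑ k ∈ Ico (i + 1) D.m, D.e k (zt D.phi Z (D.H T k) (D.H T (k + 1))) =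
      ∑ k ∈ Ico (i + 1) D.m, D.e k (zt D.phi (Z.drop o) (D.H T k - o) (D.H T (k + 1) - o))
    apply Finset.sum_congr rfl
    intro k hk
    rw [Finset.mem_Ico] at hk
    have h9 := zt_right D.phi (P := Z.take o) (Q := Z.drop o) (a := D.H T k - o)
      (b := D.H T (k + 1) - o)
    have h10 := hHr k (by omega) (by omega)
    have h11 := hHr (k + 1) (by omega) (by omega)
    rw [hZe, hPl, show o + (D.H T k - o) = D.H T k by omega,
      show o + (D.H T (k + 1) - o) = D.H T (k + 1) by omega] at h9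
    rw [h9]

theorem H_mod {T T' k : ℕ} (h : D.A k ≤ T) (h' : D.A k ≤ T') (d : T ≡ T' [MOD D.G k]) :
    D.H T k = D.H T' k := by
  rcases le_total T' T with hle | hle
  · exact D.H_congr h' ((Nat.modEq_iff_dvd' hle).1 d.symm) hle
  · exact (D.H_congr h ((Nat.modEq_iff_dvd' hle).1 d) hle).symm

theorem zt_take (phi : List α → S) {Z Z' : List α} {n a b : ℕ} (h : Z.take n = Z'.take n)
    (hb : b ≤ n) (hZ : n ≤ Z.length) (hZ' : n ≤ Z'.length) : zt phi Z a b = zt phi Z' a b := by
  have h1 : ∀ X : List α, n ≤ X.length → zt phi X a b = zt phi (X.take n) a b := by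
    intro X hX
    have := zt_left phi (P := X.take n) (Q := X.drop n) (a := a) (b := b)
      (by rw [List.length_take]; omega)
    rwa [List.take_append_drop] at this
  rw [h1 Z hZ, h1 Z' hZ', h]

theorem phi_take (hphi : ∀ u v, D.phi (u ++ v) = D.phi u * D.phi v) {Z Z' : List α} {n a : ℕ}
    (h : Z.take n = Z'.take n) (hd : D.phi (Z.drop n) = D.phi (Z'.drop n)) (ha : a ≤ n) :
    D.phi (Z.drop a) = D.phi (Z'.drop a) := by
  have h1 : ∀ X : List α, D.phi (X.drop a) = D.phi ((X.take n).drop a) * D.phi (X.drop n) := by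
    intro X
    rw [← hphi]
    congr 1
    have h2 : X.drop n = (X.drop a).drop (n - a) := by
      rw [List.drop_drop]; congr 1; omega
    rw [h2, List.drop_take, List.take_append_drop]
  rw [h1 Z, h1 Z', h, hd]

/-- same bounded prefix, same residue of the length, same product of the rest -/
def Sim (Mo : ℕ) (Z Z' : List α) : Prop :=
  D.A (D.m + 1) ≤ Z.length ∧ D.A (D.m + 1) ≤ Z'.length ∧
    Z.take (D.A (D.m + 1)) = Z'.take (D.A (D.m + 1)) ∧
    D.phi (Z.drop (D.A (D.m + 1))) = D.phi (Z'.drop (D.A (D.m + 1))) ∧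
    Z.length ≡ Z'.length [MOD Mo]

theorem H_le_A {T k : ℕ} (h : k ≤ D.m) : D.H T k ≤ D.A (D.m + 1) := by
  have h1 := D.H_lt T k
  have h2 := D.A_succ k
  have h3 := D.A_mono (show k + 1 ≤ D.m + 1 by omega)
  omega

theorem nu_congr {Mo : ℕ} (hMo : ∀ k, k ≤ D.m → D.G k ∣ Mo)
    (hB : ∀ n n', n ≡ n' [MOD Mo] → (D.B n ↔ D.B n'))
    (hP : ∀ n n' p, D.A (D.m + 1) ≤ n → D.A (D.m + 1) ≤ n' → n ≡ n' [MOD Mo] →
      (D.Pair n p ↔ D.Pair n' p))
    {Z Z' : List α} (h : D.Sim Mo Z Z') : D.nu Z = D.nu Z' := by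
  classical
  obtain ⟨h1, h2, h3, h4, h5⟩ := h
  have hphi : D.phi Z = D.phi Z' := by
    have := D.phi_take D.hphi h3 h4 (Nat.zero_le _)
    simpa using this
  have hP' : ∀ p, D.Pair Z.length p ↔ D.Pair Z'.length p := fun p => hP _ _ p h1 h2 h5
  have hP2 : D.Pair Z.length = D.Pair Z'.length := by
    funext p; exact propext (hP' p)
  have hH : ∀ k, k ≤ D.m → D.H Z.length k = D.H Z'.length k := by
    intro k hk
    have h6 := D.A_mono (show k ≤ D.m + 1 by omega)
    exact D.H_mod (h6.trans h1) (h6.trans h2) (h5.of_dvd (hMo k hk))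
  unfold nu
  rw [hP2, hphi, if_congr (hB _ _ h5) rfl rfl]
  congr 2
  apply Finset.sum_congr rfl
  intro k hk
  rw [Finset.mem_range] at hk
  rw [hH k (by omega), hH (k + 1) (by omega),
    zt_take D.phi h3 (D.H_le_A (show k + 1 ≤ D.m by omega)) h1 h2]

theorem RR_congr {Mo : ℕ} (hMo : ∀ k, k ≤ D.m → D.G k ∣ Mo)
    (hRN : ∀ n n', n ≡ n' [MOD Mo] → D.RN n = D.RN n')
    {Q Q' : List α} (h : D.Sim Mo Q Q') {b : V} (hQ : D.RR Q b) : D.RR Q' b := by
  obtain ⟨h1, h2, h3, h4, h5⟩ := h
  obtain ⟨c, R, hi, hR, hg, hdv, -, hJ, hch, hcwr, rfl⟩ := hQ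
  have hRle : ∀ k, c.i < k → k ≤ D.m → R k ≤ D.A (D.m + 1) := by
    intro k hk hk'
    have h6 := hJ (D.A c.i + D.G c.i) le_rfl (by
      have := D.A_succ c.i
      have := Nat.mul_pos D.hM (D.hG c.i)
      omega) k hk hk'
    have h7 := D.H_le_A (T := D.A c.i + D.G c.i + Q.length) hk'
    omega
  refine ⟨c, R, hi, by rw [← hRN _ _ h5]; exact hR, hg, ?_, h2, ?_, ?_, ?_, rfl⟩
  · exact (Nat.modEq_zero_iff_dvd).1
      (((h5.of_dvd (hMo c.i hi.le)).symm).trans ((Nat.modEq_zero_iff_dvd).2 hdv))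
  · intro o ho1 ho2 k hk hk'
    rw [← hJ o ho1 ho2 k hk hk']
    have h6 := D.A_mono (show k ≤ D.m + 1 by omega)
    exact D.H_mod (by omega) (by omega) ((h5.symm.of_dvd (hMo k hk')).add_left o)
  · rw [hch]
    exact D.phi_take D.hphi h3 h4 (hRle (c.i + 1) (by omega) (by omega))
  · rw [hcwr]
    apply Finset.sum_congr rfl
    intro k hk
    rw [Finset.mem_Ico] at hk
    rw [zt_take D.phi h3 (hRle (k + 1) (by omega) (by omega)) h1 h2]

end GD

end Crest.Agent.R320.Grid_850
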