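import Mathlib
import Crest.Agent.R320.Names_570
import Crest.Agent.R320.Noise_513

/-!
Row 320, helper880: the zone gadget of scheme 1 of 693 #13203 (`b`-anchored nested grids, no walls,
arbitrary contents), over Names_570 and Noise_513.
-/

set_option autoImplicit false

namespace Crest.Agent.R320.Grid_880

open Finset

/-- the factor `[a, b)`. -/
def seg {α : Type*} (Y : List α) (a b : ℕ) : List α := (Y.drop a).take (b - a)

theorem seg_left {α : Type*} {P Q : List α} {a b : ℕ} (hb : b ≤ P.length) :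
    seg (P ++ Q) a b = seg P a b := by
  unfold seg
  rcases le_total a b with hab | hab
  · rw [List.drop_append_of_le_length (by omega),
      List.take_append_of_le_length (by rw [List.length_drop]; omega)]
  · rw [Nat.sub_eq_zero_of_le hab, List.take_zero, List.take_zero]

theorem drop_app_right {α : Type*} {P Q : List α} {s : ℕ} :
    (P ++ Q).drop (P.length + s) = Q.drop s := by
  simp [List.drop_append]

theorem seg_right {α : Type*} {P Q : List α} {a b : ℕ} :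
    seg (P ++ Q) (P.length + a) (P.length + b) = seg Q a b := by
  unfold seg
  rw [drop_app_right, Nat.add_sub_add_left]

theorem seg_split {α : Type*} {Y : List α} {a b : ℕ} (hab : a ≤ b) :
    Y.take a ++ seg Y a b ++ Y.drop b = Y := by
  have : Y.drop b = (Y.drop a).drop (b - a) := by
    rw [List.drop_drop]; congr 1; omega
  unfold seg
  rw [this, List.append_assoc, List.take_append_drop, List.take_append_drop]

/-- names -/
abbrev Nm (m : ℕ) (S V W : Type) := Fin m × S × W × S × W × V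

structure Dat (S V W : Type) where
  m : ℕ
  e : ℕ → S → W
  F : S → W → V
  act : V → S → V
  M : ℕ
  G : ℕ → ℕ
  A : ℕ → ℕ
  nL : ℕ → Option (Nm m S V W)
  nR : ℕ → Option (Nm m S V W)
  Bd : ℕ → Prop

variable {α : Type*} {S V W : Type} [Monoid S] [AddCommGroup V] [AddCommGroup W]
  (D : Dat S V W) (φ : List α → S)

/-- end value of a name. -/
def Dat.bb (c : Nm D.m S V W) : V :=
  D.F (c.2.1 * 1 * c.2.2.2.1) (c.2.2.1 + D.e c.1 1 + c.2.2.2.2.1) +
    D.act c.2.2.2.2.2 (c.2.1 * 1 * c.2.2.2.1)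

/-- good names. -/
def Dat.ok (c : Nm D.m S V W) : Prop :=
  ∀ z, D.F (c.2.1 * z * c.2.2.2.1) (c.2.2.1 + D.e c.1 z + c.2.2.2.2.1) +
    D.act c.2.2.2.2.2 (c.2.1 * z * c.2.2.2.1) = D.bb c

structure Ok (D : Dat S V W) : Prop where
  Gpos : ∀ i, 0 < D.G i
  Gdvd : ∀ i, D.G i ∣ D.G (i + 1)
  cop : ∀ i, Nat.Coprime D.M (D.G i)
  Mpos : 0 < D.M
  hA : ∀ i, D.A i + D.G i + D.M * D.G i ≤ D.A (i + 1)
  perL : ∀ t, D.nL (t + D.M) = D.nL t
  perR : ∀ t, D.nR (t + D.M) = D.nR t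
  n1 : ∀ t t' c c', ¬ D.Bd (t + t') → D.nL t = some c → D.nR t' = some c' → c = c'
  n2 : ∀ T c, D.M ≤ T + 1 → ¬ D.Bd T → ∃ t, t ≤ T ∧ D.nL t = some c ∧ D.nR (T - t) = some c
  n3 : ∀ t1 t1' t2 t2' c1 c1' c2 c2', t1 + t1' = t2 + t2' → D.Bd (t1 + t1') →
    D.nL t1 = some c1 → D.nR t1' = some c1' → D.nL t2 = some c2 → D.nR t2' = some c2' →
    c1.2.2.2.2.2 = c2.2.2.2.2.2 ∧ D.bb c1' = D.bb c2'
  hF : ∀ (s : S) (w : W) (v : V), ∃ i < D.m, ∀ g x h : S, g * x * h = s → ∀ z : S,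
    D.F (g * z * h) (w - D.e i x + D.e i z) + D.act v (g * z * h) = D.F s w + D.act v s

/-- boundary `k` in a zone of length `T`. -/
def Dat.be (T k : ℕ) : ℕ := D.A k + (T - D.A k) % D.G k

def Dat.zz (Y : List α) (k : ℕ) : S := φ (seg Y (D.be Y.length k) (D.be Y.length (k + 1)))

def Dat.ww (Y : List α) : W := ∑ k ∈ range D.m, D.e k (D.zz φ Y k)

/-- residue seen from the right -/
def Dat.rr (i T' k : ℕ) : ℕ := (T' + (D.A i + D.G i) - D.A k) % D.G k

/-- boundary seen from the right -/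
def Dat.yy (i T' k : ℕ) : ℕ := D.A k + D.rr i T' k - (D.A i + D.G i)

/-- left legal -/
def Dat.LL (P : List α) (c : Nm D.m S V W) : Prop :=
  D.nL P.length = some c ∧ D.ok c ∧ D.A c.1 + D.G c.1 ≤ P.length ∧
  P.length < D.A c.1 + D.G c.1 + D.M * D.G c.1 ∧
  c.2.1 = φ (P.take (D.be P.length c.1)) ∧
  c.2.2.1 = ∑ k ∈ range c.1, D.e k (φ (seg P (D.be P.length k) (D.be P.length (k + 1))))

/-- right legal -/
def Dat.RR (Q : List α) (c : Nm D.m S V W) : Prop :=
  D.nR Q.length = some c ∧ D.ok c ∧ D.A D.m + D.G D.m ≤ Q.length ∧ D.G c.1 ∣ Q.length ∧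
  (∀ k, (c.1 : ℕ) < k → k ≤ D.m → D.rr c.1 Q.length k + D.M * D.G c.1 ≤ D.G k) ∧
  c.2.2.2.1 = φ (Q.drop (D.yy c.1 Q.length (c.1 + 1))) ∧
  c.2.2.2.2.1 = ∑ k ∈ Ico ((c.1 : ℕ) + 1) D.m,
    D.e k (φ (seg Q (D.yy c.1 Q.length k) (D.yy c.1 Q.length (k + 1))))

variable {D φ}

theorem Ok.mono (h : Ok D) {i k : ℕ} (hik : i ≤ k) : D.A i ≤ D.A k :=
  monotone_nat_of_le_succ (fun i => by have := h.hA i; omega) hik

theorem Ok.lt (h : Ok D) {i k : ℕ} (hik : i < k) : D.A i + D.G i + D.M * D.G i ≤ D.A k :=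
  (h.hA i).trans (h.mono hik)

theorem Ok.dvd (h : Ok D) {i k : ℕ} (hik : i ≤ k) : D.G i ∣ D.G k := by
  induction k, hik using Nat.le_induction with
  | base => exact dvd_rfl
  | succ k _ ih => exact ih.trans (h.Gdvd k)

theorem be_lt (h : Ok D) (T k : ℕ) : D.be T k < D.A k + D.G k := by
  have := Nat.mod_lt (T - D.A k) (h.Gpos k)
  unfold Dat.be
  omega

theorem be_ge (T k : ℕ) : D.A k ≤ D.be T k := Nat.le_add_right _ _

theorem be_mono (h : Ok D) (T T' k : ℕ) : D.be T k ≤ D.be T' (k + 1) := by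
  have h1 := be_lt h T k
  have h2 := be_ge (D := D) T' (k + 1)
  have h3 := h.hA k
  omega

theorem be_left (h : Ok D) {i k o o' : ℕ} (hk : k ≤ i) (ho : D.A i + D.G i ≤ o)
    (hd : D.G i ∣ o') : D.be (o + o') k = D.be o k := by
  have h1 := h.mono hk
  obtain ⟨q, hq⟩ := (h.dvd hk).trans hd
  unfold Dat.be
  have : o + o' - D.A k = (o - D.A k) + D.G k * q := by omega
  rw [this, Nat.add_mul_mod_self_left]

theorem be_left_le (h : Ok D) {i k o : ℕ} (hk : k ≤ i) (ho : D.A i + D.G i ≤ o) :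
    D.be o k ≤ o := by
  have h1 := be_lt h o k
  rcases Nat.lt_or_ge k i with h2 | h2
  · have := h.lt h2; omega
  · have : k = i := by omega
    subst this
    omega

theorem be_right (h : Ok D) {i k o o' : ℕ} (hk : i < k) (hkm : k ≤ D.m)
    (h1 : D.A i + D.G i ≤ o) (h2 : o < D.A i + D.G i + D.M * D.G i)
    (h3 : D.A D.m + D.G D.m ≤ o') (h4 : D.rr i o' k + D.M * D.G i ≤ D.G k) :
    D.be (o + o') k = o + D.yy i o' k := by
  have h5 := h.lt hk
  have h6 := h.mono hkm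
  obtain ⟨d, rfl⟩ := Nat.exists_eq_add_of_le h1
  unfold Dat.yy Dat.be
  unfold Dat.rr at h4 ⊢
  have e1 : D.A i + D.G i + d + o' - D.A k = (o' + (D.A i + D.G i) - D.A k) + d := by omega
  rw [e1]
  set x := o' + (D.A i + D.G i) - D.A k with hx
  have e2 : (x + d) % D.G k = x % D.G k + d := by
    conv_lhs => rw [← Nat.div_add_mod x (D.G k), add_assoc, Nat.mul_add_mod]
    exact Nat.mod_eq_of_lt (by omega)
  rw [e2]
  omega

theorem read (h : Ok D) (hφ : ∀ u v, φ (u ++ v) = φ u * φ v) {P Q : List α} {i : ℕ}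
    (him : i < D.m)
    (h1 : D.A i + D.G i ≤ P.length) (h2 : P.length < D.A i + D.G i + D.M * D.G i)
    (h3 : D.A D.m + D.G D.m ≤ Q.length) (hd : D.G i ∣ Q.length)
    (h4 : ∀ k, i < k → k ≤ D.m → D.rr i Q.length k + D.M * D.G i ≤ D.G k) :
    φ ((P ++ Q).take (D.be (P ++ Q).length i)) = φ (P.take (D.be P.length i)) ∧
    (∑ k ∈ range i, D.e k (D.zz φ (P ++ Q) k)) =
      (∑ k ∈ range i, D.e k (φ (seg P (D.be P.length k) (D.be P.length (k + 1))))) ∧
    φ ((P ++ Q).drop (D.be (P ++ Q).length (i + 1))) = φ (Q.drop (D.yy i Q.length (i + 1))) ∧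
    (∑ k ∈ Ico (i + 1) D.m, D.e k (D.zz φ (P ++ Q) k)) =
      ∑ k ∈ Ico (i + 1) D.m,
        D.e k (φ (seg Q (D.yy i Q.length k) (D.yy i Q.length (k + 1)))) ∧
    φ (P ++ Q) = φ ((P ++ Q).take (D.be (P ++ Q).length i)) * D.zz φ (P ++ Q) i *
      φ ((P ++ Q).drop (D.be (P ++ Q).length (i + 1))) ∧
    D.ww φ (P ++ Q) = (∑ k ∈ range i, D.e k (D.zz φ (P ++ Q) k)) + D.e i (D.zz φ (P ++ Q) i) +
      ∑ k ∈ Ico (i + 1) D.m, D.e k (D.zz φ (P ++ Q) k) := by
  have hL : ∀ k, k ≤ i → D.be (P ++ Q).length k = D.be P.length k := fun k hk => by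
    rw [List.length_append]; exact be_left h hk h1 hd
  have hLle : ∀ k, k ≤ i → D.be P.length k ≤ P.length := fun k hk => be_left_le h hk h1
  have hR : ∀ k, i < k → k ≤ D.m → D.be (P ++ Q).length k = P.length + D.yy i Q.length k :=
    fun k hk hkm => by
      rw [List.length_append]; exact be_right h hk hkm h1 h2 h3 (h4 k hk hkm)
  refine ⟨?_, ?_, ?_, ?_, ?_, ?_⟩
  · rw [hL i le_rfl, List.take_append_of_le_length (hLle i le_rfl)]
  · refine Finset.sum_congr rfl fun k hk => ?_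
    have hk' := Finset.mem_range.1 hk
    unfold Dat.zz
    rw [hL k hk'.le, hL (k + 1) hk', seg_left (hLle (k + 1) hk')]
  · rw [hR (i + 1) (Nat.lt_succ_self i) him, drop_app_right]
  · refine Finset.sum_congr rfl fun k hk => ?_
    obtain ⟨hk1, hk2⟩ := Finset.mem_Ico.1 hk
    unfold Dat.zz
    rw [hR k (by omega) (by omega), hR (k + 1) (by omega) (by omega), seg_right]
  · conv_lhs => rw [← seg_split (Y := P ++ Q) (be_mono h (P ++ Q).length (P ++ Q).length i)]
    rw [hφ, hφ]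
    rfl
  · unfold Dat.ww
    rw [← Finset.sum_range_add_sum_Ico _ (show i + 1 ≤ D.m from him), Finset.sum_range_succ]


open Classical in
/-- left label. -/
noncomputable def Dat.lam (D : Dat S V W) (φ : List α → S) (P : List α) : Option V :=
  if h : ∃ c, D.LL φ P c then some h.choose.2.2.2.2.2 else none

open Classical in
/-- right label. -/
noncomputable def Dat.rho (D : Dat S V W) (φ : List α → S) (Q : List α) : Option V :=
  if h : ∃ c, D.RR φ Q c then some (D.bb h.choose) else none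

theorem lam_some {P : List α} {v : V} (h : D.lam φ P = some v) :
    ∃ c, D.LL φ P c ∧ c.2.2.2.2.2 = v := by
  classical
  unfold Dat.lam at h
  split_ifs at h with h1
  rw [Option.some.injEq] at h
  exact ⟨_, h1.choose_spec, h⟩

theorem rho_some {Q : List α} {b : V} (h : D.rho φ Q = some b) :
    ∃ c, D.RR φ Q c ∧ D.bb c = b := by
  classical
  unfold Dat.rho at h
  split_ifs at h with h1
  rw [Option.some.injEq] at h
  exact ⟨_, h1.choose_spec, h⟩

theorem lam_of {P : List α} {c : Nm D.m S V W} (h : D.LL φ P c) :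
    D.lam φ P = some c.2.2.2.2.2 := by
  classical
  have h1 : ∃ c, D.LL φ P c := ⟨c, h⟩
  unfold Dat.lam
  rw [dif_pos h1]
  have h2 := h1.choose_spec.1
  rw [h.1, Option.some.injEq] at h2
  rw [← h2]

theorem rho_of {Q : List α} {c : Nm D.m S V W} (h : D.RR φ Q c) :
    D.rho φ Q = some (D.bb c) := by
  classical
  have h1 : ∃ c, D.RR φ Q c := ⟨c, h⟩
  unfold Dat.rho
  rw [dif_pos h1]
  have h2 := h1.choose_spec.1
  rw [h.1, Option.some.injEq] at h2
  rw [← h2]

theorem per_congr {β : Type*} {f : ℕ → β} {M : ℕ} (hf : ∀ t, f (t + M) = f t) {a b : ℕ}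
    (h : a ≡ b [MOD M]) : f a = f b := by
  have hp : Function.Periodic f M := hf
  rw [← hp.map_mod_nat a, ← hp.map_mod_nat b, h]

/-- **SOUNDNESS** -/
theorem sound (h : Ok D) (hφ : ∀ u v, φ (u ++ v) = φ u * φ v) :
    ∃ nu : List α → V, ∀ P Q v b, D.lam φ P = some v → D.rho φ Q = some b →
      b = D.act v (φ (P ++ Q)) + nu (P ++ Q) := by
  classical
  have hn3 : ∀ T, ∃ v0 b0 : V, D.Bd T → ∀ t t' c c', t + t' = T → D.nL t = some c →
      D.nR t' = some c' → c.2.2.2.2.2 = v0 ∧ D.bb c' = b0 := by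
    intro T
    by_cases hex : ∃ t t' c c', t + t' = T ∧ D.nL t = some c ∧ D.nR t' = some c'
    · obtain ⟨t, t', c, c', e, e1, e2⟩ := hex
      refine ⟨c.2.2.2.2.2, D.bb c', fun hB s s' d d' f f1 f2 => ?_⟩
      exact h.n3 s s' t t' d d' c c' (by omega) (by rw [f]; exact hB) f1 f2 e1 e2
    · exact ⟨0, 0, fun _ t t' c c' e e1 e2 => absurd ⟨t, t', c, c', e, e1, e2⟩ hex⟩
  choose v0 b0 h0 using hn3
  refine ⟨fun Y => if D.Bd Y.length then b0 Y.length - D.act (v0 Y.length) (φ Y) else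
    D.F (φ Y) (D.ww φ Y), ?_⟩
  intro P Q v b hP hQ
  obtain ⟨c, hc, rfl⟩ := lam_some hP
  obtain ⟨c', hc', rfl⟩ := rho_some hQ
  have hl : P.length + Q.length = (P ++ Q).length := List.length_append.symm
  beta_reduce
  by_cases hB : D.Bd (P ++ Q).length
  · rw [if_pos hB]
    obtain ⟨q1, q2⟩ := h0 _ hB _ _ _ _ hl hc.1 hc'.1
    rw [q1, q2]
    abel
  · rw [if_neg hB]
    rw [← hl] at hB
    have hcc := h.n1 _ _ _ _ hB hc.1 hc'.1
    subst hcc
    obtain ⟨-, hok, a1, a2, a3, a4⟩ := hc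
    obtain ⟨-, -, b1, b2, b3, b4, b5⟩ := hc'
    obtain ⟨e1, e2, e3, e4, e5, e6⟩ := read h hφ c.1.2 a1 a2 b1 b2 b3
    have := hok (D.zz φ (P ++ Q) c.1)
    rw [e5, e6, e1, e2, e3, e4, ← a3, ← a4, ← b4, ← b5, ← this, add_comm]

theorem sub_mod {X G x : ℕ} (h : x ≤ X % G) : (X - x) % G = X % G - x := by
  rcases Nat.eq_zero_or_pos G with hG | hG
  · subst hG; simp
  · have h1 := Nat.mod_lt X hG
    have h2 : X - x = G * (X / G) + (X % G - x) := by
      have := Nat.div_add_mod X G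
      omega
    conv_lhs => rw [h2, Nat.mul_add_mod]
    exact Nat.mod_eq_of_lt (by omega)

/-- **COMPLETENESS** -/
theorem complete (h : Ok D) (hφ : ∀ u v, φ (u ++ v) = φ u * φ v) (Y : List α)
    (hY : 2 * (D.A D.m + D.G D.m) ≤ Y.length) (hB : ¬ D.Bd Y.length)
    (hk : ∀ k, 1 ≤ k → k ≤ D.m → D.M * D.G (k - 1) ≤ (Y.length - D.A k) % D.G k ∧
      (Y.length - D.A k) % D.G k + D.M * D.G (k - 1) ≤ D.G k) (v : V) :
    ∃ P Q b, P ++ Q = Y ∧ D.lam φ P = some v ∧ D.rho φ Q = some b := by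
  obtain ⟨i, him, hi⟩ := h.hF (φ Y) (D.ww φ Y) v
  have hA := h.lt him
  have hGi := h.Gpos i
  have hMi : D.M ≤ D.M * D.G i := Nat.le_mul_of_pos_right _ hGi
  set T := Y.length with hT
  set g := φ (Y.take (D.be T i)) with hg
  set wl := ∑ k ∈ range i, D.e k (D.zz φ Y k) with hwl
  set hh := φ (Y.drop (D.be T (i + 1))) with hhh
  set wr := ∑ k ∈ Ico (i + 1) D.m, D.e k (D.zz φ Y k) with hwr
  set c : Nm D.m S V W := (⟨i, him⟩, g, wl, hh, wr, v) with hc
  obtain ⟨t, ht, ht1, ht2⟩ := h.n2 T c (by omega) hB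
  -- CRT
  set s := D.A i + D.G i with hs
  have hMs : s ≤ D.M * s := Nat.le_mul_of_pos_left _ h.Mpos
  have hGs : s ≤ D.G i * s := Nat.le_mul_of_pos_left _ hGi
  obtain ⟨x, hx1, hx2, hx3⟩ : ∃ x, x ≡ t + (D.M * s - s) [MOD D.M] ∧
      x ≡ T + (D.G i * s - s) [MOD D.G i] ∧ x < D.M * D.G i := by
    have hx := (Nat.chineseRemainder (h.cop i) (t + (D.M * s - s)) (T + (D.G i * s - s)))
    exact ⟨_, (Nat.chineseRemainder (h.cop i) (t + (D.M * s - s)) (T + (D.G i * s - s))).2.1,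
      (Nat.chineseRemainder (h.cop i) (t + (D.M * s - s)) (T + (D.G i * s - s))).2.2,
      Nat.chineseRemainder_lt_mul (h.cop i) _ _ h.Mpos.ne' hGi.ne'⟩
  set o := s + x with ho
  have ho1 : o ≡ t [MOD D.M] := by
    have e1 : o ≡ s + (t + (D.M * s - s)) [MOD D.M] := Nat.ModEq.add_left s hx1
    have e2 : s + (t + (D.M * s - s)) = t + D.M * s := by omega
    rw [e2] at e1
    exact e1.trans (by unfold Nat.ModEq; rw [Nat.add_mul_mod_self_left])
  have ho2 : o ≡ T [MOD D.G i] := by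
    have e1 : o ≡ s + (T + (D.G i * s - s)) [MOD D.G i] := Nat.ModEq.add_left s hx2
    have e2 : s + (T + (D.G i * s - s)) = T + D.G i * s := by omega
    rw [e2] at e1
    exact e1.trans (by unfold Nat.ModEq; rw [Nat.add_mul_mod_self_left])
  have hoT : o ≤ T := by omega
  have hdv : D.G i ∣ T - o := (Nat.modEq_iff_dvd' hoT).1 ho2
  have hnL : D.nL o = some c := by rw [per_congr h.perL ho1]; exact ht1
  have hnR : D.nR (T - o) = some c := by
    have : T - o ≡ T - t [MOD D.M] := by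
      apply Nat.ModEq.add_right_cancel ho1
      rw [Nat.sub_add_cancel hoT, Nat.sub_add_cancel ht]
    rw [per_congr h.perR this]; exact ht2
  have hband : ∀ k, i < k → k ≤ D.m → D.rr i (T - o) k + D.M * D.G i ≤ D.G k := by
    intro k h1 h2
    obtain ⟨q1, q2⟩ := hk k (by omega) h2
    have h3 : D.G i ≤ D.G (k - 1) := Nat.le_of_dvd (h.Gpos _) (h.dvd (by omega))
    have h4 : D.M * D.G i ≤ D.M * D.G (k - 1) := Nat.mul_le_mul_left _ h3
    have h5 := h.mono h2
    have e : T - o + (D.A i + D.G i) - D.A k = (T - D.A k) - x := by omega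
    unfold Dat.rr
    rw [e, sub_mod (by omega)]
    omega
  have hPl : (Y.take o).length = o := by rw [List.length_take]; omega
  have hQl : (Y.drop o).length = T - o := by rw [List.length_drop]
  have hPQ : Y.take o ++ Y.drop o = Y := List.take_append_drop _ _
  obtain ⟨e1, e2, e3, e4, e5, e6⟩ := read (P := Y.take o) (Q := Y.drop o) h hφ him
    (by rw [hPl]; omega) (by rw [hPl]; omega) (by rw [hQl]; omega) (by rw [hQl]; exact hdv)
    (by rw [hQl]; exact hband)
  rw [hPQ] at e1 e2 e3 e4 e5 e6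
  have hconst : ∀ z, D.F (g * z * hh) (wl + D.e i z + wr) + D.act v (g * z * hh) =
      D.F (φ Y) (D.ww φ Y) + D.act v (φ Y) := by
    intro z
    rw [← hi g (D.zz φ Y i) hh e5.symm z, e6]
    congr 2
    abel
  have hok : D.ok c := by
    intro z
    exact (hconst z).trans (hconst 1).symm
  have hLL : D.LL φ (Y.take o) c := by
    refine ⟨by rw [hPl]; exact hnL, hok, ?_, ?_, e1, e2⟩
    · rw [hPl]
      show s ≤ o
      omega
    · rw [hPl]
      show o < s + D.M * D.G i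
      omega
  have hRR : D.RR φ (Y.drop o) c := by
    refine ⟨by rw [hQl]; exact hnR, hok, by rw [hQl]; omega, by rw [hQl]; exact hdv, ?_, e3, e4⟩
    rw [hQl]
    exact hband
  exact ⟨_, _, _, hPQ, lam_of hLL, rho_of hRR⟩

theorem lam_len (h : Ok D) {P : List α} {v : V} (hP : D.lam φ P = some v) :
    P.length < D.A D.m := by
  obtain ⟨c, hc, -⟩ := lam_some hP
  have h1 := h.lt c.1.2
  have h2 := hc.2.2.2.1
  omega

theorem rho_len {Q : List α} {b : V} (hQ : D.rho φ Q = some b) :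
    D.A D.m + D.G D.m ≤ Q.length := by
  obtain ⟨c, hc, -⟩ := rho_some hQ
  exact hc.2.2.1

theorem RR_congr (h : Ok D) (hφ : ∀ u v, φ (u ++ v) = φ u * φ v) {Q Q' : List α}
    (hQ' : D.A D.m + D.G D.m ≤ Q'.length)
    (htake : Q.take (D.A D.m + D.G D.m) = Q'.take (D.A D.m + D.G D.m))
    (hmod : Q.length ≡ Q'.length [MOD D.M * D.G D.m])
    (hdrop : φ (Q.drop (D.A D.m + D.G D.m)) = φ (Q'.drop (D.A D.m + D.G D.m)))
    {c : Nm D.m S V W} (hc : D.RR φ Q c) : D.RR φ Q' c := by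
  obtain ⟨c1, c2, c3, c4, c5, c6, c7⟩ := hc
  have hm1 : Q.length ≡ Q'.length [MOD D.M] := hmod.of_mul_right _
  have hm2 : Q.length ≡ Q'.length [MOD D.G D.m] := hmod.of_mul_left _
  have hmk : ∀ k, k ≤ D.m → Q.length ≡ Q'.length [MOD D.G k] := fun k hk =>
    hm2.of_dvd (h.dvd hk)
  have hrr : ∀ k, k ≤ D.m → D.rr c.1 Q.length k = D.rr c.1 Q'.length k := by
    intro k hk
    have h5 := h.mono hk
    unfold Dat.rr
    have : Q.length + (D.A c.1 + D.G c.1) - D.A k ≡
        Q'.length + (D.A c.1 + D.G c.1) - D.A k [MOD D.G k] := by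
      apply Nat.ModEq.add_right_cancel' (D.A k)
      rw [Nat.sub_add_cancel (by omega), Nat.sub_add_cancel (by omega)]
      exact (hmk k hk).add_right _
    exact this
  have hyy : ∀ k, k ≤ D.m → D.yy c.1 Q.length k = D.yy c.1 Q'.length k := by
    intro k hk
    unfold Dat.yy
    rw [hrr k hk]
  have hyle : ∀ k, k ≤ D.m → D.yy c.1 Q'.length k ≤ D.A D.m + D.G D.m := by
    intro k hk
    have h1 : D.rr c.1 Q'.length k < D.G k := Nat.mod_lt _ (h.Gpos k)
    unfold Dat.yy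
    rcases Nat.lt_or_ge k D.m with h2 | h2
    · have := h.lt h2; omega
    · have : k = D.m := by omega
      subst this
      omega
  have hdr : ∀ y, y ≤ D.A D.m + D.G D.m → φ (Q.drop y) = φ (Q'.drop y) := by
    intro y hy
    have t1 : Q.drop y = (Q.take (D.A D.m + D.G D.m)).drop y ++ Q.drop (D.A D.m + D.G D.m) := by
      conv_lhs => rw [← List.take_append_drop (D.A D.m + D.G D.m) Q]
      rw [List.drop_append_of_le_length (by rw [List.length_take]; omega)]
    have t2 : Q'.drop y =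
        (Q'.take (D.A D.m + D.G D.m)).drop y ++ Q'.drop (D.A D.m + D.G D.m) := by
      conv_lhs => rw [← List.take_append_drop (D.A D.m + D.G D.m) Q']
      rw [List.drop_append_of_le_length (by rw [List.length_take]; omega)]
    rw [t1, t2, hφ, hφ, htake, hdrop]
  have hsg : ∀ a b, b ≤ D.A D.m + D.G D.m → seg Q a b = seg Q' a b := by
    intro a b hb
    have t1 : seg Q a b = seg (Q.take (D.A D.m + D.G D.m)) a b := by
      conv_lhs => rw [← List.take_append_drop (D.A D.m + D.G D.m) Q]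
      rw [seg_left (by rw [List.length_take]; omega)]
    have t2 : seg Q' a b = seg (Q'.take (D.A D.m + D.G D.m)) a b := by
      conv_lhs => rw [← List.take_append_drop (D.A D.m + D.G D.m) Q']
      rw [seg_left (by rw [List.length_take]; omega)]
    rw [t1, t2, htake]
  have him := c.1.2
  refine ⟨by rw [← per_congr h.perR hm1]; exact c1, c2, hQ',
    ((hmk c.1 him.le).dvd_iff dvd_rfl).1 c4, ?_, ?_, ?_⟩
  · intro k hk hkm
    rw [← hrr k hkm]
    exact c5 k hk hkm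
  · rw [c6, hyy _ him, hdr _ (hyle _ him)]
  · rw [c7]
    refine Finset.sum_congr rfl fun k hk => ?_
    obtain ⟨hk1, hk2⟩ := Finset.mem_Ico.1 hk
    rw [hyy k hk2.le, hyy (k + 1) hk2, hsg _ _ (hyle _ hk2)]

theorem rho_congr (h : Ok D) (hφ : ∀ u v, φ (u ++ v) = φ u * φ v) {Q Q' : List α}
    (hQ : D.A D.m + D.G D.m ≤ Q.length) (hQ' : D.A D.m + D.G D.m ≤ Q'.length)
    (htake : Q.take (D.A D.m + D.G D.m) = Q'.take (D.A D.m + D.G D.m))
    (hmod : Q.length ≡ Q'.length [MOD D.M * D.G D.m])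
    (hdrop : φ (Q.drop (D.A D.m + D.G D.m)) = φ (Q'.drop (D.A D.m + D.G D.m))) :
    D.rho φ Q = D.rho φ Q' := by
  rcases hc : D.rho φ Q with _ | b
  · rcases hc' : D.rho φ Q' with _ | b'
    · rfl
    · obtain ⟨c, hc1, -⟩ := rho_some hc'
      have := rho_of (RR_congr h hφ hQ htake.symm hmod.symm hdrop.symm hc1)
      rw [hc] at this
      exact absurd this (by simp)
  · obtain ⟨c, hc1, hc2⟩ := rho_some hc
    rw [rho_of (RR_congr h hφ hQ' htake hmod hdrop hc1), hc2]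


/-- **THE GADGET** (693 #13203): exact for all pairs of words; complete for every content as soon
as the length of the zone avoids the thin set. -/
theorem gadget (S V : Type) [Monoid S] [Finite S] [AddCommGroup V] [Finite V] (act : V → S → V) :
    ∃ m r : ℕ, ∀ B, 2 ≤ B → ∃ Ms : Finset ℕ, Ms.card ≤ r ∧ (∀ p ∈ Ms, p.Prime ∧ B < p) ∧
      ∀ G A : ℕ → ℕ, (∀ i, 0 < G i) → (∀ i, G i ∣ G (i + 1)) →
        (∀ i, Nat.Coprime (∏ p ∈ Ms, p) (G i)) →
        (∀ i, A i + G i + (∏ p ∈ Ms, p) * G i ≤ A (i + 1)) →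
        ∀ (α : Type*) (φ : List α → S), (∀ u v, φ (u ++ v) = φ u * φ v) →
        ∃ (lam rho : List α → Option V) (nu : List α → V),
          (∀ P Q v b, lam P = some v → rho Q = some b → b = act v (φ (P ++ Q)) + nu (P ++ Q)) ∧
          (∀ P v, lam P = some v → P.length < A m) ∧
          (∀ Q b, rho Q = some b → A m + G m ≤ Q.length) ∧
          (∀ Y : List α, 2 * (A m + G m) ≤ Y.length → (∀ p ∈ Ms, ¬ p ∣ Y.length) →
            (∀ k, 1 ≤ k → k ≤ m → (∏ p ∈ Ms, p) * G (k - 1) ≤ (Y.length - A k) % G k ∧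
              (Y.length - A k) % G k + (∏ p ∈ Ms, p) * G (k - 1) ≤ G k) →
            ∀ v, ∃ P Q b, P ++ Q = Y ∧ lam P = some v ∧ rho Q = some b) ∧
          (∀ Q Q' : List α, A m + G m ≤ Q.length → A m + G m ≤ Q'.length →
            Q.take (A m + G m) = Q'.take (A m + G m) →
            Q.length ≡ Q'.length [MOD (∏ p ∈ Ms, p) * G m] →
            φ (Q.drop (A m + G m)) = φ (Q'.drop (A m + G m)) → rho Q = rho Q') := by
  classical
  obtain ⟨W, iW, fW, m, e0, F, hF⟩ := Noise513.explicit_noise S V act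
  let e : ℕ → S → W := fun k z => if hk : k < m then e0 ⟨k, hk⟩ z else 0
  have he : ∀ i : Fin m, e i = e0 i := by
    intro i; funext z
    show (if hk : (i : ℕ) < m then e0 ⟨i, hk⟩ z else 0) = _
    rw [dif_pos i.2]
  let D0 : Dat S V W :=
    ⟨m, e, F, act, 0, (fun _ => 0), (fun _ => 0), (fun _ => none), (fun _ => none), (fun _ => False)⟩
  haveI : Finite W := Finite.of_fintype W
  obtain ⟨r, hr⟩ := Names_570.exists_names
    (fun c : Nm m S V W => (c.2.2.2.2.2, D0.bb c))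
  refine ⟨m, r, fun B hB2 => ?_⟩
  obtain ⟨Ms, nL, nR, g1, g2, g3, g4, g5, g6, g7⟩ := hr B
  refine ⟨Ms, g1, g2, fun G A hG1 hG2 hG3 hA α φ hφ => ?_⟩
  let D : Dat S V W :=
    ⟨m, e, F, act, (∏ p ∈ Ms, p), G, A, nL, nR, (fun T => ∃ p ∈ Ms, p ∣ T)⟩
  have hD : Ok D := by
    refine ⟨hG1, hG2, hG3, Finset.prod_pos fun p hp => (g2 p hp).1.pos, hA, g3, g4, ?_, ?_, ?_, ?_⟩
    · intro t t' c c' h1 h2 h3
      refine g5 t t' c c' (fun p hp hd => h1 ⟨p, hp, hd⟩) h2 h3
    · intro T c h1 h2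
      obtain ⟨t, -, -, t1, t2, t3⟩ := g6 T c 0 (fun p hp hd => h2 ⟨p, hp, hd⟩) (by
        rw [Nat.zero_add]; exact h1)
      exact ⟨t, t1, t2, t3⟩
    · intro t1 t1' t2 t2' c1 c1' c2 c2' h0 h1 h2 h3 h4 h5
      rcases g7 t1 t1' t2 t2' c1 c1' c2 c2' h0 h1 h2 h3 h4 h5 with ⟨q1, q2⟩ | ⟨q1, q2, q3⟩
      · rw [q1, q2]; exact ⟨rfl, rfl⟩
      · have q4 : c1.2.2.2.2.2 = c1'.2.2.2.2.2 := congrArg Prod.fst q3
        have q5 : D0.bb c1 = D0.bb c1' := congrArg Prod.snd q3
        refine ⟨by rw [q4, q2], ?_⟩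
        rw [← q1]
        exact q5.symm
    · intro s w v
      obtain ⟨i, hi⟩ := hF s w v
      refine ⟨i, i.2, fun g x h hs z => ?_⟩
      show F (g * z * h) (w - e i x + e i z) + act v (g * z * h) = F s w + act v s
      rw [he]
      exact hi g x h hs z
  obtain ⟨nu, hnu⟩ := sound hD hφ
  exact ⟨D.lam φ, D.rho φ, nu, hnu, fun P v hP => lam_len hD hP, fun Q b hQ => rho_len hQ,
    fun Y h1 h2 h3 v => complete hD hφ Y h1 (fun ⟨p, hp, hd⟩ => h2 p hp hd) h3 v,
    fun Q Q' h1 h2 h3 h4 h5 => rho_congr hD hφ h1 h2 h3 h4 h5⟩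

end Crest.Agent.R320.Grid_880
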