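import Crest.Agent.R320.UG2_919

set_option autoImplicit false
set_option linter.unusedSectionVars false
set_option linter.unusedVariables false

/-!
Row 320: scheme-1 gadget on words WITHOUT small walls (693 #13203): nested grids `Γ ^ j`,
all contents, all totals.
-/

namespace Crest.Agent.R320.Grid_919

open Crest.Agent.R320

section Words

variable {α S : Type*} [Monoid S]

/-- content of the segment `[a, b)` -/
def seg (φ : List α → S) (u : List α) (a b : ℕ) : S := φ ((u.take b).drop a)

variable {φ : List α → S} (hφ : ∀ u v, φ (u ++ v) = φ u * φ v)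

include hφ in
lemma take_mul_seg (u : List α) {a b : ℕ} (hab : a ≤ b) :
    φ (u.take a) * seg φ u a b = φ (u.take b) := by
  unfold seg
  rw [← hφ]
  congr 1
  have h := List.take_append_drop a (u.take b)
  rwa [List.take_take, min_eq_left hab] at h

include hφ in
lemma prod_segs (u : List α) (β : ℕ → ℕ) (k : ℕ) (hβ : ∀ j < k, β j ≤ β (j + 1)) :
    φ (u.take (β 0)) * ((List.range k).map (fun j => seg φ u (β j) (β (j + 1)))).prod
      = φ (u.take (β k)) := by
  induction k with
  | zero => simp
  | succ k ih =>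
    rw [List.range_succ, List.map_append, List.prod_append, ← mul_assoc,
      ih (fun j hj => hβ j (by omega))]
    simp only [List.map_cons, List.map_nil, List.prod_cons, List.prod_nil, mul_one]
    exact take_mul_seg hφ u (hβ k (by omega))

include hφ in
lemma total (u : List α) (β : ℕ → ℕ) (k : ℕ) (hβ : ∀ j < k, β j ≤ β (j + 1)) :
    φ (u.take (β 0)) * ((List.range k).map (fun j => seg φ u (β j) (β (j + 1)))).prod
      * φ (u.drop (β k)) = φ u := by
  rw [prod_segs hφ u β k hβ, ← hφ, List.take_append_drop]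

lemma seg_left (P Q : List α) {a b : ℕ} (hb : b ≤ P.length) :
    seg φ (P ++ Q) a b = seg φ P a b := by
  unfold seg
  rw [List.take_append_of_le_length hb]

lemma seg_right (P Q : List α) (a b : ℕ) :
    seg φ (P ++ Q) (P.length + a) (P.length + b) = seg φ Q a b := by
  unfold seg
  rw [List.take_length_add_append, List.drop_length_add_append]

lemma range_split (f : ℕ → S) (i r : ℕ) :
    (List.range (i + (1 + r))).map f =
      (List.range i).map f ++ f i :: (List.range r).map (fun k => f (i + 1 + k)) := by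
  rw [List.range_add, List.range_add]
  simp [Function.comp_def, add_assoc]

end Words

section Geometry

variable (M Γ B m : ℕ)

/-- boundary `j` of a zone of length `T` -/
def bt (j T : ℕ) : ℕ := 2 * j * B + T % Γ ^ j

/-- position of boundary `j` in the right part, seen by a right part of length `n`, cut of
level `i < j` -/
def pi' (i n j : ℕ) : ℕ := (2 * j * B - (2 * i + 1) * B) + n % Γ ^ j

/-- level of a left part -/
def lv (n : ℕ) : ℕ := n / B / 2

/-- cell of level `i` -/
def cell (i n : ℕ) : Prop := (2 * i + 1) * B ≤ n ∧ n < (2 * i + 1) * B + M * Γ ^ i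

/-- the right part `n` may be cut at level `i` -/
def vis (i n : ℕ) : Prop := Γ ^ i ∣ n ∧ ∀ j, i < j → j ≤ m → n % Γ ^ j + M * Γ ^ i ≤ Γ ^ j

/-- the bad totals -/
def BadT (Ms : Finset ℕ) (T : ℕ) : Prop :=
  (∃ p ∈ Ms, p ∣ T) ∨ ∃ j, 1 ≤ j ∧ j ≤ m ∧
    (T % Γ ^ j < M * Γ ^ (j - 1) ∨ Γ ^ j < T % Γ ^ j + M * Γ ^ (j - 1))

variable {M Γ B m}

lemma lv_cell {i n : ℕ} (hB : 0 < B) (hi : M * Γ ^ i ≤ B) (h : cell M Γ B i n) :
    lv B n = i := by
  obtain ⟨h1, h2⟩ := h
  have : n / B = 2 * i + 1 := by
    apply Nat.div_eq_of_lt_le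
    · exact h1
    · calc n < (2 * i + 1) * B + M * Γ ^ i := h2
        _ ≤ (2 * i + 1) * B + B := by omega
        _ = (2 * i + 1 + 1) * B := by ring
  unfold lv
  rw [this]
  omega

lemma bt_mono (hΓ : 0 < Γ) (hG : ∀ j ≤ m, Γ ^ j ≤ B) (T : ℕ) {j : ℕ} (hj : j ≤ m) :
    bt Γ B j T ≤ bt Γ B (j + 1) T := by
  unfold bt
  have h1 : T % Γ ^ j < Γ ^ j := Nat.mod_lt _ (pow_pos hΓ _)
  have h2 := hG j hj
  have h3 : 2 * (j + 1) * B = 2 * j * B + 2 * B := by ring
  rw [h3]
  generalize T % Γ ^ (j + 1) = c
  omega

end Geometry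

/-- **Grid gadget on words.** -/
theorem grid (S V : Type*) [Monoid S] [Finite S] [AddCommGroup V] [Finite V]
    (act : V → S → V) :
    ∃ (m r : ℕ), 0 < m ∧ ∀ Bd : ℕ, ∃ (Ms : Finset ℕ), Ms.card ≤ r ∧
      (∀ p ∈ Ms, p.Prime ∧ Bd < p) ∧ ∀ (Γ : ℕ), 0 < Γ → (∀ p ∈ Ms, Nat.Coprime p Γ) →
      ∀ (B : ℕ), 0 < B → (∀ j ≤ m, Γ ^ j ∣ B) → (∀ j ≤ m, (∏ p ∈ Ms, p) * Γ ^ j ≤ B) →
      ∀ (α : Type*) (φ : List α → S), (∀ u v, φ (u ++ v) = φ u * φ v) →
      ∃ (lam rho : List α → Option V) (nu : List α → V),
        (∀ p v, lam p = some v → B ≤ p.length ∧ p.length ≤ 2 * m * B) ∧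
        (∀ p q v b, lam p = some v → rho q = some b → b = act v (φ (p ++ q)) + nu (p ++ q)) ∧
        (∀ u, 2 * m * B + B ≤ u.length → ¬ BadT (∏ p ∈ Ms, p) Γ m Ms u.length → ∀ v,
          ∃ p q, p ++ q = u ∧ lam p = some v ∧ (rho q).isSome) ∧
        (∀ q q' : List α, 2 * m * B + B ≤ q.length → 2 * m * B + B ≤ q'.length →
          q.take (2 * m * B + B) = q'.take (2 * m * B + B) →
          q.length % ((∏ p ∈ Ms, p) * Γ ^ m) = q'.length % ((∏ p ∈ Ms, p) * Γ ^ m) →
          φ (q.drop (2 * m * B + B)) = φ (q'.drop (2 * m * B + B)) →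
          rho q = rho q' ∧ nu q = nu q') := by
  classical
  obtain ⟨m, r, hm, H⟩ := UG2_919.ugadget' S V act
  refine ⟨m, r, hm, fun Bd => ?_⟩
  obtain ⟨Ms, L, R, D, hcard, hp, hLp, hRp, hRv, hDp, hS1, hS2, hC⟩ := H Bd
  refine ⟨Ms, hcard, hp, fun Γ hΓ hcop B hB hdB hMB α φ hφ => ?_⟩
  set M := ∏ p ∈ Ms, p with hMdef
  have hM : 0 < M := Finset.prod_pos (fun p hp' => (hp p hp').1.pos)
  have hGB : ∀ j ≤ m, Γ ^ j ≤ B := fun j hj => Nat.le_of_dvd hB (hdB j hj)
  have hbtm : ∀ T j, j < m → bt Γ B j T ≤ bt Γ B (j + 1) T :=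
    fun T j hj => bt_mono hΓ hGB T hj.le
  -- definitions
  let xx : List α → ℕ → S := fun u T => φ (u.take (bt Γ B 0 T))
  let cnt : List α → ℕ → ℕ → List S := fun u T k =>
    (List.range k).map (fun j => seg φ u (bt Γ B j T) (bt Γ B (j + 1) T))
  let lam : List α → Option V := fun P =>
    if lv B P.length < m ∧ cell M Γ B (lv B P.length) P.length then
      L (lv B P.length) (xx P P.length) (cnt P P.length (lv B P.length)) P.length else none
  let vw : List α → ℕ → Option (List S × S) := fun Q i =>
    if vis M Γ m i Q.length then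
      some ((List.range (m - 1 - i)).map (fun k =>
          seg φ Q (pi' Γ B i Q.length (i + 1 + k)) (pi' Γ B i Q.length (i + 1 + k + 1))),
        φ (Q.drop (pi' Γ B i Q.length m))) else none
  let rho : List α → Option V := fun Q => R (vw Q) Q.length
  let nu : List α → V := fun u =>
    D u.length (xx u u.length) (cnt u u.length m) (φ (u.drop (bt Γ B m u.length)))
  have htot : ∀ u : List α, xx u u.length * (cnt u u.length m).prod *
      φ (u.drop (bt Γ B m u.length)) = φ u := fun u =>
    total hφ u (fun j => bt Γ B j u.length) m (fun j hj => hbtm _ j hj)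
  have hdd : ∀ {i j : ℕ}, i ≤ j → Γ ^ i ∣ Γ ^ j := fun h => pow_dvd_pow Γ h
  -- left data
  have hleft : ∀ (P Q : List α) (i : ℕ), i < m → cell M Γ B i P.length → Γ ^ i ∣ Q.length →
      xx P P.length = xx (P ++ Q) (P ++ Q).length ∧
      cnt P P.length i = cnt (P ++ Q) (P ++ Q).length i := by
    intro P Q i hi hc hd
    have hbt : ∀ j ≤ i, bt Γ B j (P ++ Q).length = bt Γ B j P.length := by
      intro j hj
      unfold bt
      obtain ⟨k, hk⟩ := (hdd hj).trans hd
      rw [List.length_append, hk, Nat.add_mul_mod_self_left]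
    have hle : ∀ j ≤ i, bt Γ B j P.length ≤ P.length := by
      intro j hj
      unfold bt
      have h1 := Nat.mod_lt P.length (pow_pos hΓ j)
      have h2 := hGB j (by omega)
      have h3 : 2 * j * B ≤ 2 * i * B := by gcongr
      have h4 : (2 * i + 1) * B = 2 * i * B + B := by ring
      have h5 := hc.1
      rw [h4] at h5
      omega
    constructor
    · simp only [xx]
      rw [hbt 0 (by omega), List.take_append_of_le_length (hle 0 (by omega))]
    · simp only [cnt]
      apply List.map_congr_left
      intro j hj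
      rw [List.mem_range] at hj
      rw [hbt j (by omega), hbt (j + 1) (by omega), seg_left _ _ (hle (j + 1) (by omega))]
  -- right data
  have hright : ∀ (P Q : List α) (i : ℕ), i < m → cell M Γ B i P.length →
      vis M Γ m i Q.length →
      ∀ j, i < j → j ≤ m → P.length + pi' Γ B i Q.length j = bt Γ B j (P ++ Q).length := by
    intro P Q i hi hc hv j hij hjm
    unfold pi' bt
    obtain ⟨h1, h2⟩ := hc
    have h3 := hv.2 j hij hjm
    have h4 : (2 * i + 1) * B ≤ 2 * j * B := by
      have : 2 * i + 1 ≤ 2 * j := by omega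
      exact Nat.mul_le_mul_right B this
    obtain ⟨s, hs⟩ : ∃ s, P.length = (2 * i + 1) * B + s := ⟨P.length - (2 * i + 1) * B, by omega⟩
    obtain ⟨b, hb⟩ := hdB j hjm
    have h5 : (P ++ Q).length % Γ ^ j = Q.length % Γ ^ j + s := by
      rw [List.length_append, hs]
      have e1 : (2 * i + 1) * B + s + Q.length = Q.length + s + Γ ^ j * ((2 * i + 1) * b) := by
        rw [hb]; ring
      rw [e1, Nat.add_mul_mod_self_left, Nat.add_mod]
      have h6 : s < M * Γ ^ i := by omega
      generalize Q.length % Γ ^ j = n at h3 ⊢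
      have h7 : s % Γ ^ j = s := Nat.mod_eq_of_lt (by omega)
      rw [h7]
      exact Nat.mod_eq_of_lt (by omega)
    rw [h5, hs]
    omega
  have hvw : ∀ (P Q : List α) (i : ℕ), i < m → cell M Γ B i P.length →
      vis M Γ m i Q.length → ∃ zr, vw Q i = some (zr, φ ((P ++ Q).drop (bt Γ B m (P ++ Q).length)))
        ∧ cnt (P ++ Q) (P ++ Q).length m = cnt (P ++ Q) (P ++ Q).length i ++
          seg φ (P ++ Q) (bt Γ B i (P ++ Q).length) (bt Γ B (i + 1) (P ++ Q).length) :: zr := by
    intro P Q i hi hc hv
    refine ⟨(List.range (m - 1 - i)).map (fun k =>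
      seg φ (P ++ Q) (bt Γ B (i + 1 + k) (P ++ Q).length)
        (bt Γ B (i + 1 + k + 1) (P ++ Q).length)), ?_, ?_⟩
    rotate_left
    · simp only [cnt]
      have : m = i + (1 + (m - 1 - i)) := by omega
      conv_lhs => rw [this]
      exact range_split (fun j => seg φ (P ++ Q) (bt Γ B j (P ++ Q).length)
        (bt Γ B (j + 1) (P ++ Q).length)) i (m - 1 - i)
    · simp only [vw]
      rw [if_pos hv]
      congr 1
      rw [Prod.mk.injEq]
      constructor
      · apply List.map_congr_left
        intro k hk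
        rw [List.mem_range] at hk
        rw [← hright P Q i hi hc hv (i + 1 + k) (by omega) (by omega),
          ← hright P Q i hi hc hv (i + 1 + k + 1) (by omega) (by omega), seg_right]
      · rw [← hright P Q i hi hc hv m hi le_rfl, List.drop_length_add_append]
  refine ⟨lam, rho, nu, ?_, ?_, ?_, ?_⟩
  · -- window
    intro P v h
    simp only [lam] at h
    split_ifs at h with hc
    obtain ⟨h1, h2, h3⟩ := hc
    have h4 := hMB (lv B P.length) h1.le
    have h5 : (2 * lv B P.length + 1) * B + B ≤ 2 * m * B := by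
      have : 2 * lv B P.length + 1 + 1 ≤ 2 * m := by omega
      calc (2 * lv B P.length + 1) * B + B = (2 * lv B P.length + 1 + 1) * B := by ring
        _ ≤ 2 * m * B := Nat.mul_le_mul_right B this
    have h6 : 1 * B ≤ (2 * lv B P.length + 1) * B := Nat.mul_le_mul_right B (by omega)
    constructor <;> omega
  · -- soundness
    intro P Q v b hP hQ
    simp only [lam] at hP
    split_ifs at hP with hc
    obtain ⟨hi, hc⟩ := hc
    generalize hie : lv B P.length = i at hP hi hc
    simp only [rho] at hQ
    by_cases hT : ∃ p ∈ Ms, p ∣ P.length + Q.length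
    · have := hS1 P.length Q.length i _ _ (vw Q) v b (xx (P ++ Q) (P ++ Q).length)
        (cnt (P ++ Q) (P ++ Q).length m) (φ ((P ++ Q).drop (bt Γ B m (P ++ Q).length))) hT hP hQ
      rw [this, htot]
      simp only [nu, List.length_append]
    · have hT' : ∀ p ∈ Ms, ¬ p ∣ P.length + Q.length := fun p hp' hd => hT ⟨p, hp', hd⟩
      obtain ⟨zr, y, hv, hz⟩ := hS2 P.length Q.length i _ _ (vw Q) v b hT' hP hQ
      have hvis : vis M Γ m i Q.length := by
        by_contra hcon
        simp only [vw] at hv
        rw [if_neg hcon] at hv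
        cases hv
      obtain ⟨zr', hv', hcnt⟩ := hvw P Q i hi hc hvis
      rw [hv] at hv'
      simp only [Option.some.injEq, Prod.mk.injEq] at hv'
      obtain ⟨rfl, rfl⟩ := hv'
      obtain ⟨e1, e2⟩ := hleft P Q i hi hc hvis.1
      have := hz (seg φ (P ++ Q) (bt Γ B i (P ++ Q).length) (bt Γ B (i + 1) (P ++ Q).length))
        (by simp [cnt])
      rw [this, e1, e2, ← hcnt, htot]
      simp only [nu, List.length_append]
  · -- completeness
    intro u hu hbad v
    have hgood : ∀ p ∈ Ms, ¬ p ∣ u.length := fun p hp' hd => hbad (Or.inl ⟨p, hp', hd⟩)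
    obtain ⟨i, hi, hci⟩ := hC u.length (xx u u.length) (cnt u u.length m)
      (φ (u.drop (bt Γ B m u.length))) v (by simp [cnt]) hgood
    -- the place
    have hMle : M ≤ u.length + 1 := by
      have := hMB 0 (by omega)
      simp only [pow_zero, mul_one] at this
      omega
    obtain ⟨t, ht1, ht2, ht3, ht4, ht5⟩ := hci 0 (by omega)
    have hco : Nat.Coprime M (Γ ^ i) :=
      Nat.Coprime.pow_right i (Nat.Coprime.prod_left hcop)
    set b0 := (2 * i + 1) * B with hb0
    have hM1 : (M - 1) * b0 + b0 = M * b0 := by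
      obtain ⟨M', hM'⟩ : ∃ M', M = M' + 1 := ⟨M - 1, by omega⟩
      rw [hM']; simp only [Nat.add_sub_cancel]; ring
    obtain ⟨k, hk1, hk2, hk3⟩ : ∃ k, k ≡ t + (M - 1) * b0 [MOD M] ∧ k ≡ u.length [MOD Γ ^ i] ∧
        k < M * Γ ^ i :=
      ⟨(Nat.chineseRemainder hco (t + (M - 1) * b0) u.length).1,
        (Nat.chineseRemainder hco (t + (M - 1) * b0) u.length).2.1,
        (Nat.chineseRemainder hco (t + (M - 1) * b0) u.length).2.2,
        Nat.chineseRemainder_lt_mul hco _ _ hM.ne' (pow_pos hΓ i).ne'⟩
    have hbB : b0 + B ≤ 2 * m * B := by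
      have : 2 * i + 1 + 1 ≤ 2 * m := by omega
      calc b0 + B = (2 * i + 1 + 1) * B := by rw [hb0]; ring
        _ ≤ 2 * m * B := Nat.mul_le_mul_right B this
    have hMi := hMB i hi.le
    have hcell : cell M Γ B i (b0 + k) := ⟨by omega, by omega⟩
    have hlen : (u.take (b0 + k)).length = b0 + k := by
      rw [List.length_take]; omega
    have hlenQ : (u.drop (b0 + k)).length = u.length - (b0 + k) := List.length_drop
    have hlv : lv B (b0 + k) = i := lv_cell hB hMi hcell
    have hPQ : u.take (b0 + k) ++ u.drop (b0 + k) = u := List.take_append_drop _ _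
    have hvis : vis M Γ m i (u.drop (b0 + k)).length := by
      rw [hlenQ]
      constructor
      · have e1 : b0 + k ≡ u.length [MOD Γ ^ i] := by
          obtain ⟨c, hc⟩ := hdB i hi.le
          have : b0 = Γ ^ i * ((2 * i + 1) * c) := by rw [hb0, hc]; ring
          rw [this, add_comm]
          show (k + Γ ^ i * ((2 * i + 1) * c)) % Γ ^ i = u.length % Γ ^ i
          rw [Nat.add_mul_mod_self_left]
          exact hk2
        exact (Nat.modEq_iff_dvd' (by omega)).1 e1
      · intro j hij hjm
        have hnb : ¬ (u.length % Γ ^ j < M * Γ ^ (j - 1) ∨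
            Γ ^ j < u.length % Γ ^ j + M * Γ ^ (j - 1)) := fun h =>
          hbad (Or.inr ⟨j, by omega, hjm, h⟩)
        have hpw : M * Γ ^ i ≤ M * Γ ^ (j - 1) :=
          Nat.mul_le_mul_left M (Nat.pow_le_pow_right hΓ (by omega))
        obtain ⟨c, hc⟩ := hdB j hjm
        have hb0' : b0 = Γ ^ j * ((2 * i + 1) * c) := by rw [hb0, hc]; ring
        have hdm := Nat.div_add_mod u.length (Γ ^ j)
        have hlt := Nat.mod_lt u.length (pow_pos hΓ j)
        generalize hr : u.length % Γ ^ j = r at *
        generalize hq : u.length / Γ ^ j = q at *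
        have hqc : (2 * i + 1) * c ≤ q := by
          by_contra hcon
          push Not at hcon
          have h1 : Γ ^ j * (q + 1) ≤ Γ ^ j * ((2 * i + 1) * c) :=
            Nat.mul_le_mul_left _ hcon
          rw [← hb0'] at h1
          have h2 : Γ ^ j * (q + 1) = Γ ^ j * q + Γ ^ j := by ring
          omega
        obtain ⟨e, he⟩ := Nat.exists_eq_add_of_le hqc
        have h3 : u.length - (b0 + k) = (r - k) + Γ ^ j * e := by
          rw [he, mul_add, ← hb0'] at hdm
          omega
        rw [h3, Nat.add_mul_mod_self_left, Nat.mod_eq_of_lt (by omega)]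
        omega
    obtain ⟨zr, hv', hcnt⟩ := hvw (u.take (b0 + k)) (u.drop (b0 + k)) i hi
      (by rw [hlen]; exact hcell) hvis
    obtain ⟨e1, e2⟩ := hleft (u.take (b0 + k)) (u.drop (b0 + k)) i hi
      (by rw [hlen]; exact hcell) hvis.1
    rw [hPQ] at hv' hcnt e1 e2
    have hci' : (cnt u u.length i).length = i := by simp [cnt]
    refine ⟨u.take (b0 + k), u.drop (b0 + k), hPQ, ?_, ?_⟩
    · simp only [lam]
      rw [hlen, hlv, if_pos ⟨hi, hcell⟩]
      rw [hlen] at e1 e2
      rw [e1, e2]
      rw [hcnt, List.take_left' hci'] at ht4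
      have hper : Function.Periodic (L i (xx u u.length) (cnt u u.length i)) M := fun t => hLp _ _ _ t
      rw [← hper.map_mod_nat, ← ht4, ← hper.map_mod_nat t]
      congr 1
      have : b0 + k ≡ b0 + (t + (M - 1) * b0) [MOD M] := Nat.ModEq.add_left b0 hk1
      have h2 : b0 + (t + (M - 1) * b0) = t + M * b0 := by omega
      rw [h2] at this
      have h3 : t + M * b0 ≡ t [MOD M] := by
        show (t + M * b0) % M = t % M
        rw [Nat.add_mul_mod_self_left]
      exact this.trans h3
    · have h4 : vw (u.drop (b0 + k)) i = some ((cnt u u.length m).drop (i + 1),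
          φ (u.drop (bt Γ B m u.length))) := by
        rw [hv', hcnt, List.drop_append, hci']
        simp [hci']
      obtain ⟨b, hb⟩ := ht5 _ h4
      rw [Option.isSome_iff_exists]
      refine ⟨b, ?_⟩
      simp only [rho]
      rw [← hb]
      have hper : Function.Periodic (R (vw (u.drop (b0 + k)))) M := fun t => hRp _ t
      rw [← hper.map_mod_nat, ← hper.map_mod_nat (u.length - t), hlenQ]
      congr 1
      have : b0 + k ≡ b0 + (t + (M - 1) * b0) [MOD M] := Nat.ModEq.add_left b0 hk1
      have h2 : b0 + (t + (M - 1) * b0) = t + M * b0 := by omega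
      rw [h2] at this
      have h3 : t + M * b0 ≡ t [MOD M] := by
        show (t + M * b0) % M = t % M
        rw [Nat.add_mul_mod_self_left]
      have h5 : b0 + k ≡ t [MOD M] := this.trans h3
      have h6 : u.length - (b0 + k) + (b0 + k) ≡ u.length - t + t [MOD M] := by
        rw [Nat.sub_add_cancel (by omega), Nat.sub_add_cancel (by omega)]
      exact Nat.ModEq.add_right_cancel h5 h6
  · -- finite state
    intro q q' hq hq' htake hmod hdrop
    have hmodj : ∀ j ≤ m, q.length % Γ ^ j = q'.length % Γ ^ j := fun j hj =>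
      Nat.ModEq.of_dvd ((hdd hj).trans (Dvd.intro_left M rfl)) hmod
    have hmodM : q.length % M = q'.length % M :=
      Nat.ModEq.of_dvd (Dvd.intro (Γ ^ m) rfl) hmod
    have hseg : ∀ a b, b ≤ 2 * m * B + B → seg φ q a b = seg φ q' a b := by
      intro a b hb
      have h1 : ∀ w : List α, w.take b = (w.take (2 * m * B + B)).take b := by
        intro w
        rw [List.take_take, min_eq_left hb]
      unfold seg
      rw [h1 q, h1 q', htake]
    have htk : ∀ b, b ≤ 2 * m * B + B → q.take b = q'.take b := by
      intro b hb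
      have h1 : ∀ w : List α, w.take b = (w.take (2 * m * B + B)).take b := by
        intro w
        rw [List.take_take, min_eq_left hb]
      rw [h1 q, h1 q', htake]
    have hdr : ∀ a, a ≤ 2 * m * B + B → φ (q.drop a) = φ (q'.drop a) := by
      intro a ha
      have h1 : ∀ w : List α, 2 * m * B + B ≤ w.length →
          w.drop a = (w.take (2 * m * B + B)).drop a ++ w.drop (2 * m * B + B) := by
        intro w hw
        conv_lhs => rw [← List.take_append_drop (2 * m * B + B) w]
        rw [List.drop_append_of_le_length (by rw [List.length_take]; omega)]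
      rw [h1 q hq, h1 q' hq', hφ, hφ, htake, hdrop]
    have hbtK : ∀ j ≤ m, ∀ T, bt Γ B j T ≤ 2 * m * B + B := by
      intro j hj T
      unfold bt
      have h1 := Nat.mod_lt T (pow_pos hΓ j)
      have h2 := hGB j hj
      have h3 : 2 * j * B ≤ 2 * m * B := by gcongr
      omega
    have hbtq : ∀ j ≤ m, bt Γ B j q.length = bt Γ B j q'.length := by
      intro j hj
      unfold bt
      rw [hmodj j hj]
    have hpiK : ∀ i j, j ≤ m → ∀ T, pi' Γ B i T j ≤ 2 * m * B + B := by
      intro i j hj T
      unfold pi'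
      have h1 := Nat.mod_lt T (pow_pos hΓ j)
      have h2 := hGB j hj
      have h3 : 2 * j * B ≤ 2 * m * B := by gcongr
      omega
    have hpiq : ∀ i j, j ≤ m → pi' Γ B i q.length j = pi' Γ B i q'.length j := by
      intro i j hj
      unfold pi'
      rw [hmodj j hj]
    have hvisq : ∀ i < m, (vis M Γ m i q.length ↔ vis M Γ m i q'.length) := by
      intro i hi
      unfold vis
      rw [Nat.dvd_iff_mod_eq_zero, Nat.dvd_iff_mod_eq_zero, hmodj i hi.le]
      constructor
      · rintro ⟨a1, a2⟩
        exact ⟨a1, fun j hij hj => by rw [← hmodj j hj]; exact a2 j hij hj⟩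
      · rintro ⟨a1, a2⟩
        exact ⟨a1, fun j hij hj => by rw [hmodj j hj]; exact a2 j hij hj⟩
    constructor
    · simp only [rho]
      have h1 : ∀ i < m, vw q i = vw q' i := by
        intro i hi
        simp only [vw]
        apply if_congr (hvisq i hi) _ rfl
        congr 1
        rw [Prod.mk.injEq]
        constructor
        · apply List.map_congr_left
          intro k hk
          rw [List.mem_range] at hk
          rw [hpiq i _ (by omega), hpiq i _ (by omega)]
          exact hseg _ _ (hpiK _ _ (by omega) _)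
        · rw [hpiq i m le_rfl]
          exact hdr _ (hpiK _ _ le_rfl _)
      rw [hRv _ _ _ h1]
      have hper : Function.Periodic (R (vw q')) M := fun t => hRp _ t
      rw [← hper.map_mod_nat, ← hper.map_mod_nat q'.length, hmodM]
    · simp only [nu]
      have hDk : ∀ (k T : ℕ) (x : S) (zs : List S) (y : S), 2 * M ≤ T →
          D (T + k * M) x zs y = D T x zs y := by
        intro k
        induction k with
        | zero => intro T x zs y hT; simp
        | succ k ih =>
          intro T x zs y hT
          rw [show T + (k + 1) * M = T + k * M + M by ring, hDp _ _ _ _ (by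
            have : 0 ≤ k * M := Nat.zero_le _
            omega), ih _ _ _ _ hT]
      have hDm : ∀ (T : ℕ) (x : S) (zs : List S) (y : S), 2 * M ≤ T →
          D T x zs y = D (2 * M + T % M) x zs y := by
        intro T x zs y hT
        have h2 : 2 ≤ T / M := (Nat.le_div_iff_mul_le hM).2 hT
        have h3 := Nat.div_add_mod T M
        obtain ⟨e, he⟩ := Nat.exists_eq_add_of_le h2
        have h4 : T = (2 * M + T % M) + e * M := by
          rw [he] at h3
          have : M * (2 + e) = 2 * M + e * M := by ring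
          rw [this] at h3
          generalize T % M = c at *
          omega
        conv_lhs => rw [h4]
        exact hDk _ _ _ _ _ (by omega)
      have hMK : 2 * M ≤ 2 * m * B + B := by
        have h1 := hMB 0 (by omega)
        simp only [pow_zero, mul_one] at h1
        have h2 : 2 * 1 * B ≤ 2 * m * B := by gcongr; omega
        omega
      have e1 : xx q q.length = xx q' q'.length := by
        simp only [xx]
        rw [hbtq 0 (by omega), htk _ (hbtK 0 (by omega) _)]
      have e2 : cnt q q.length m = cnt q' q'.length m := by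
        simp only [cnt]
        apply List.map_congr_left
        intro j hj
        rw [List.mem_range] at hj
        rw [hbtq j (by omega), hbtq (j + 1) (by omega)]
        exact hseg _ _ (hbtK _ (by omega) _)
      rw [hDm _ _ _ _ (hMK.trans hq), hDm q'.length _ _ _ (hMK.trans hq'), hmodM, e1, e2,
        hbtq m le_rfl, hdr _ (hbtK m le_rfl _)]

end Crest.Agent.R320.Grid_919
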