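import Crest.Agent.R320.UG2_219

/-!
# Row 320: the grid gadget (693 #13203) on words, in the form UGI (772 #13437)
No small walls, all contents, all lengths.
-/

set_option autoImplicit false

namespace Crest.Agent.R320.Grid_948

open Finset

section arith
variable (M Γ : ℕ)

/-- start of the boundary window of level `j` -/
def Am : ℕ → ℕ
  | 0 => 0
  | j + 1 => Am j + Γ ^ j + M * Γ ^ j

/-- cell of level `i` starts at `Ac i` and has length `M * Γ ^ i` -/
def Ac (i : ℕ) : ℕ := Am M Γ i + Γ ^ i

/-- the boundary: least place `≥ Am j` which is congruent to `t` modulo `Γ ^ j` -/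
def bt (j t : ℕ) : ℕ := Am M Γ j + (t + Am M Γ j * (Γ ^ j - 1)) % Γ ^ j

variable {M Γ}

lemma Am_succ (j : ℕ) : Am M Γ (j + 1) = Ac M Γ j + M * Γ ^ j := rfl

lemma Am_mono : Monotone (Am M Γ) := by
  refine monotone_nat_of_le_succ fun j => ?_
  rw [Am_succ, Ac]; omega

lemma Ac_le_Am {i j : ℕ} (h : i < j) : Ac M Γ i + M * Γ ^ i ≤ Am M Γ j := by
  rw [← Am_succ]; exact Am_mono h

lemma le_bt (j t : ℕ) : Am M Γ j ≤ bt M Γ j t := Nat.le_add_right _ _

lemma bt_lt (hΓ : 0 < Γ) (j t : ℕ) : bt M Γ j t < Ac M Γ j := by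
  unfold bt Ac
  have := Nat.mod_lt (t + Am M Γ j * (Γ ^ j - 1)) (pow_pos hΓ j)
  omega

lemma bt_congr {j t t' : ℕ} (h : t ≡ t' [MOD Γ ^ j]) : bt M Γ j t = bt M Γ j t' := by
  unfold bt
  have : t + Am M Γ j * (Γ ^ j - 1) ≡ t' + Am M Γ j * (Γ ^ j - 1) [MOD Γ ^ j] :=
    h.add_right _
  rw [this]

lemma bt_mono (hΓ : 0 < Γ) {j k : ℕ} (h : j ≤ k) (t : ℕ) : bt M Γ j t ≤ bt M Γ k t := by
  rcases h.eq_or_lt with rfl | h
  · exact le_rfl
  · have h1 := bt_lt (M := M) hΓ j t
    have h2 := Ac_le_Am (M := M) (Γ := Γ) h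
    have h3 := le_bt (M := M) (Γ := Γ) k t
    omega

/-- not near a grid point -/
def Near (M Γ j T : ℕ) : Prop :=
  (T + Am M Γ j * (Γ ^ j - 1)) % Γ ^ j < M * Γ ^ (j - 1) ∨
    Γ ^ j < (T + Am M Γ j * (Γ ^ j - 1)) % Γ ^ j + M * Γ ^ (j - 1)

lemma bt_shift (hΓ : 0 < Γ) {i j T o o2 : ℕ} (hij : i < j) (hn : ¬ Near M Γ j T)
    (ho : Ac M Γ i ≤ o) (ho' : o < Ac M Γ i + M * Γ ^ i)
    (ho2 : Ac M Γ i ≤ o2) (ho2' : o2 < Ac M Γ i + M * Γ ^ i) (n : ℕ) (hT : T = o + n) :
    bt M Γ j (o2 + n) + o = bt M Γ j T + o2 := by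
  unfold Near at hn
  rw [not_or, Nat.not_lt, Nat.not_lt] at hn
  obtain ⟨h1, h2⟩ := hn
  unfold bt
  set B := Am M Γ j * (Γ ^ j - 1) with hB
  have hc : M * Γ ^ i ≤ M * Γ ^ (j - 1) :=
    Nat.mul_le_mul_left _ (Nat.pow_le_pow_right hΓ (by omega))
  have hG : 0 < Γ ^ j := pow_pos hΓ j
  set G := Γ ^ j with hGdef
  set c := M * Γ ^ (j - 1) with hcdef
  -- write T + B = G * k + r
  have e1 : T + B = G * ((T + B) / G) + (T + B) % G := (Nat.div_add_mod _ _).symm
  have hr : (T + B) % G < G := Nat.mod_lt _ hG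
  set r := (T + B) % G with hrdef
  set k := (T + B) / G with hk
  have e2 : o2 + n + B = (r + o2 - o) + G * k := by
    have : o ≤ r + o2 := by omega
    omega
  have e3 : (o2 + n + B) % G = r + o2 - o := by
    rw [e2, Nat.add_mul_mod_self_left, Nat.mod_eq_of_lt (by omega)]
  rw [e3]
  omega

end arith


section words

variable {A S : Type*} [Monoid S] (f : A → S) (M Γ : ℕ)

/-- product of a word -/
def pr (w : List A) : S := (w.map f).prod

@[simp] lemma pr_append (u v : List A) : pr f (u ++ v) = pr f u * pr f v := by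
  simp [pr, List.prod_append]

lemma pr_nil : pr f ([] : List A) = 1 := by simp [pr]

/-- the factor from `a` to `b` -/
def seg (w : List A) (a b : ℕ) : List A := (w.take b).drop a

lemma seg_append_right (p q : List A) (a b : ℕ) :
    seg (p ++ q) (p.length + a) (p.length + b) = seg q a b := by
  unfold seg
  rw [List.take_length_add_append, List.drop_length_add_append]

lemma seg_append_left (p q : List A) (a b : ℕ) (h : b ≤ p.length) :
    seg (p ++ q) a b = seg p a b := by
  unfold seg
  rw [List.take_append_of_le_length h]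

/-- blocks of the zone, `T` = its length -/
def zT (m : ℕ) (T : ℕ) (u : List A) : List S :=
  (List.range m).map fun j => pr f (seg u (bt M Γ j T) (bt M Γ (j + 1) T))

/-- left blocks -/
def zL (i : ℕ) (p : List A) : List S :=
  (List.range i).map fun j => pr f (seg p (bt M Γ j p.length) (bt M Γ (j + 1) p.length))

/-- place of boundary `j` in the right word, seen from level `i` -/
def ps (i j n : ℕ) : ℕ := bt M Γ j (Ac M Γ i + n) - Ac M Γ i

/-- right blocks -/
def zR (m i : ℕ) (q : List A) : List S :=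
  (List.range' (i + 1) (m - (i + 1))).map fun j =>
    pr f (seg q (ps M Γ i j q.length) (ps M Γ i (j + 1) q.length))

def yR (m i : ℕ) (q : List A) : S := pr f (q.drop (ps M Γ i m q.length))

/-- the right side at level `i` is legal -/
def Cond (m i n : ℕ) : Prop :=
  Γ ^ i ∣ n ∧ ∀ o, Ac M Γ i ≤ o → o < Ac M Γ i + M * Γ ^ i → ∀ j, i < j → j ≤ m →
    bt M Γ j (o + n) + Ac M Γ i = bt M Γ j (Ac M Γ i + n) + o

variable {f M Γ}

lemma pr_split (u : List A) (a b : ℕ) (h : a ≤ b) :
    pr f (u.take a) * pr f (seg u a b) = pr f (u.take b) := by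
  unfold seg
  rw [← pr_append]
  congr 1
  have : u.take a = (u.take b).take a := by
    rw [List.take_take, min_eq_left h]
  rw [this, List.take_append_drop]

lemma zT_prod (hΓ : 0 < Γ) (m T : ℕ) (u : List A) :
    pr f (u.take (bt M Γ 0 T)) * (zT f M Γ m T u).prod = pr f (u.take (bt M Γ m T)) := by
  induction m with
  | zero => simp [zT]
  | succ m ih =>
    have : zT f M Γ (m + 1) T u
        = zT f M Γ m T u ++ [pr f (seg u (bt M Γ m T) (bt M Γ (m + 1) T))] := by
      simp [zT, List.range_succ]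
    rw [this, List.prod_append, ← mul_assoc, ih, List.prod_singleton]
    exact pr_split u _ _ (bt_mono hΓ (by omega) T)

lemma zT_total (hΓ : 0 < Γ) (m T : ℕ) (u : List A) :
    pr f (u.take (bt M Γ 0 T)) * (zT f M Γ m T u).prod * pr f (u.drop (bt M Γ m T)) = pr f u := by
  rw [zT_prod hΓ, ← pr_append, List.take_append_drop]

/-- all views are right as soon as the right side is legal at the level of the left side -/
lemma views (hΓ : 0 < Γ) {m i : ℕ} (hi : i < m) (p q : List A)
    (hp : Ac M Γ i ≤ p.length) (hp' : p.length < Ac M Γ i + M * Γ ^ i)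
    (hc : Cond M Γ m i q.length) :
    pr f (p.take (bt M Γ 0 p.length)) = pr f ((p ++ q).take (bt M Γ 0 (p ++ q).length)) ∧
    zL f M Γ i p = (zT f M Γ m (p ++ q).length (p ++ q)).take i ∧
    zR f M Γ m i q = (zT f M Γ m (p ++ q).length (p ++ q)).drop (i + 1) ∧
    yR f M Γ m i q = pr f ((p ++ q).drop (bt M Γ m (p ++ q).length)) := by
  obtain ⟨hd, hu⟩ := hc
  have hlen : (p ++ q).length = p.length + q.length := List.length_append
  have hleft : ∀ j ≤ i, bt M Γ j (p ++ q).length = bt M Γ j p.length := by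
    intro j hj
    rw [hlen]
    refine bt_congr ?_
    have : Γ ^ j ∣ q.length := (pow_dvd_pow Γ hj).trans hd
    have h0 : q.length ≡ 0 [MOD Γ ^ j] := (Nat.modEq_zero_iff_dvd).2 this
    simpa using h0.add_left p.length
  have hle : ∀ j ≤ i, bt M Γ j p.length ≤ p.length := by
    intro j hj
    have h1 := bt_mono (M := M) hΓ hj p.length
    have h2 := bt_lt (M := M) hΓ i p.length
    omega
  have hright : ∀ j, i < j → j ≤ m →
      bt M Γ j (p ++ q).length = p.length + ps M Γ i j q.length := by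
    intro j h1 h2
    have h3 := hu p.length hp hp' j h1 h2
    have h4 := le_bt (M := M) (Γ := Γ) j (Ac M Γ i + q.length)
    have h5 := Ac_le_Am (M := M) (Γ := Γ) h1
    rw [hlen]
    unfold ps
    omega
  refine ⟨?_, ?_, ?_, ?_⟩
  · rw [hleft 0 (Nat.zero_le _), List.take_append_of_le_length (hle 0 (Nat.zero_le _))]
  · unfold zL zT
    rw [← List.map_take, List.take_range, min_eq_left hi.le]
    refine List.map_congr_left fun j hj => ?_
    rw [List.mem_range] at hj
    rw [hleft j hj.le, hleft (j + 1) hj, seg_append_left _ _ _ _ (hle (j + 1) hj)]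
  · unfold zR zT
    rw [← List.map_drop, List.range_eq_range', List.drop_range']
    simp only [mul_one, Nat.zero_add]
    refine List.map_congr_left fun j hj => ?_
    rw [List.mem_range'] at hj
    obtain ⟨k, hk, rfl⟩ := hj
    rw [hright _ (by omega) (by omega), hright _ (by omega) (by omega), seg_append_right]
  · unfold yR
    rw [hright m hi le_rfl, List.drop_length_add_append]


lemma Cond_congr {m i n n' : ℕ} (hi : i ≤ m) (h : n ≡ n' [MOD Γ ^ m]) :
    Cond M Γ m i n ↔ Cond M Γ m i n' := by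
  have key : ∀ {n n' : ℕ}, n ≡ n' [MOD Γ ^ m] → Cond M Γ m i n → Cond M Γ m i n' := by
    intro n n' h ⟨h1, h2⟩
    refine ⟨?_, ?_⟩
    · have : n ≡ n' [MOD Γ ^ i] := h.of_dvd (pow_dvd_pow Γ hi)
      exact (this.dvd_iff dvd_rfl).1 h1
    · intro o ho ho' j hj hj'
      have e1 : bt M Γ j (o + n) = bt M Γ j (o + n') :=
        bt_congr ((h.of_dvd (pow_dvd_pow Γ hj')).add_left o)
      have e2 : bt M Γ j (Ac M Γ i + n) = bt M Γ j (Ac M Γ i + n') :=
        bt_congr ((h.of_dvd (pow_dvd_pow Γ hj')).add_left _)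
      rw [← e1, ← e2]
      exact h2 o ho ho' j hj hj'
  exact ⟨key h, key h.symm⟩

lemma ps_congr {m i j n n' : ℕ} (hj : j ≤ m) (h : n ≡ n' [MOD Γ ^ m]) :
    ps M Γ i j n = ps M Γ i j n' := by
  unfold ps
  rw [bt_congr ((h.of_dvd (pow_dvd_pow Γ hj)).add_left _)]

lemma seg_take (q : List A) {a b l : ℕ} (h : b ≤ l) : seg q a b = seg (q.take l) a b := by
  unfold seg
  rw [List.take_take, min_eq_left h]

lemma pr_drop (q : List A) {k l : ℕ} (h : k ≤ l) (hl : l ≤ q.length) :
    pr f (q.drop k) = pr f ((q.take l).drop k) * pr f (q.drop l) := by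
  rw [← pr_append]
  congr 1
  conv_lhs => rw [← List.take_append_drop l q]
  rw [List.drop_append_of_le_length]
  rw [List.length_take]; omega

end words

lemma exists_interval (a k n : ℕ) (hn : 0 < n) : ∃ o, a ≤ o ∧ o < a + n ∧ o ≡ k [MOD n] := by
  refine ⟨a + (k + a * (n - 1)) % n, by omega, ?_, ?_⟩
  · have := Nat.mod_lt (k + a * (n - 1)) hn; omega
  · have h1 : a + (k + a * (n - 1)) % n ≡ a + (k + a * (n - 1)) [MOD n] :=
      (Nat.mod_modEq _ _).add_left a
    have h2 : a + (k + a * (n - 1)) = k + n * a := by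
      obtain ⟨n, rfl⟩ : ∃ c, n = c + 1 := ⟨n - 1, by omega⟩
      rw [Nat.add_sub_cancel]; ring
    rw [h2] at h1
    exact h1.trans (by simp [Nat.ModEq])

open Classical in
/-- **The grid gadget.** -/
theorem grid (S V : Type*) [Monoid S] [Finite S] [AddCommGroup V] [Finite V]
    (act : V → S → V) :
    ∃ (m r : ℕ), 0 < m ∧ ∀ Bd : ℕ, ∃ Ms : Finset ℕ, Ms.card ≤ r ∧ (∀ p ∈ Ms, p.Prime ∧ Bd < p) ∧
      ∀ Γ : ℕ, 0 < Γ → Nat.Coprime (∏ p ∈ Ms, p) Γ → ∀ (A : Type*) (f : A → S),
      ∃ (lam rho : List A → Option V) (nu : List A → V),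
        (∀ p v, lam p = some v → p.length < Am (∏ p ∈ Ms, p) Γ m) ∧
        (∀ p q v b, lam p = some v → rho q = some b →
          b = act v (pr f (p ++ q)) + nu (p ++ q)) ∧
        (∀ (u : List A) (v : V), Am (∏ p ∈ Ms, p) Γ m ≤ u.length →
          (∀ p ∈ Ms, ¬ p ∣ u.length) →
          (∀ j, 1 ≤ j → j ≤ m → ¬ Near (∏ p ∈ Ms, p) Γ j u.length) →
          ∃ p q, p ++ q = u ∧ lam p = some v ∧ (rho q).isSome) ∧
        (∀ (q q2 : List A) (La : ℕ), Ac (∏ p ∈ Ms, p) Γ m ≤ La → La ≤ q.length →
          La ≤ q2.length → q.take La = q2.take La →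
          q.length ≡ q2.length [MOD (∏ p ∈ Ms, p) * Γ ^ m] →
          pr f (q.drop La) = pr f (q2.drop La) → rho q = rho q2 ∧ nu q = nu q2) := by
  obtain ⟨m, r, hm, H⟩ := UG219.ugadget2 S V act
  refine ⟨m, r, hm, fun Bd => ?_⟩
  obtain ⟨Ms, L, R, D, hcard, hp, hL, hR, hRc, hS, hC⟩ := H Bd
  refine ⟨Ms, hcard, hp, fun Γ hΓ hcop A f => ?_⟩
  set M := ∏ p ∈ Ms, p with hM
  have hM0 : 0 < M := Finset.prod_pos fun p hp' => (hp p hp').1.pos
  -- periodicity
  have pL : ∀ i x zl t t', t ≡ t' [MOD M] → L i x zl t = L i x zl t' := by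
    intro i x zl t t' h
    have hper : Function.Periodic (L i x zl) M := fun t => hL i x zl t
    rw [← hper.map_mod_nat t, ← hper.map_mod_nat t', h]
  have pR : ∀ vw t t', t ≡ t' [MOD M] → R vw t = R vw t' := by
    intro vw t t' h
    have hper : Function.Periodic (R vw) M := fun t => hR vw t
    rw [← hper.map_mod_nat t, ← hper.map_mod_nat t', h]
  let vw : List A → ℕ → Option (List S × S) := fun q i =>
    if Cond M Γ m i q.length then some (zR f M Γ m i q, yR f M Γ m i q) else none
  let lam : List A → Option V := fun p =>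
    if h : ∃ i, i < m ∧ Ac M Γ i ≤ p.length ∧ p.length < Ac M Γ i + M * Γ ^ i then
      L h.choose (pr f (p.take (bt M Γ 0 p.length))) (zL f M Γ h.choose p) p.length
    else none
  let rho : List A → Option V := fun q => R (vw q) q.length
  let nu : List A → V := fun u => D (u.length % M + M * Am M Γ m)
    (pr f (u.take (bt M Γ 0 u.length))) (zT f M Γ m u.length u)
    (pr f (u.drop (bt M Γ m u.length)))
  -- the cell is unique
  have cell : ∀ {i i' o : ℕ}, Ac M Γ i ≤ o → o < Ac M Γ i + M * Γ ^ i → Ac M Γ i' ≤ o →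
      o < Ac M Γ i' + M * Γ ^ i' → i = i' := by
    intro i i' o h1 h2 h3 h4
    have aux : ∀ {i i' : ℕ}, i < i' → o < Ac M Γ i + M * Γ ^ i → Ac M Γ i' ≤ o → False := by
      intro i i' h h5 h6
      have := Ac_le_Am (M := M) (Γ := Γ) h
      unfold Ac at h6 h5 this
      omega
    rcases lt_trichotomy i i' with h | h | h
    · exact (aux h h2 h3).elim
    · exact h
    · exact (aux h h4 h1).elim
  have lam_some : ∀ {p v}, lam p = some v → ∃ i, i < m ∧ Ac M Γ i ≤ p.length ∧
      p.length < Ac M Γ i + M * Γ ^ i ∧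
      L i (pr f (p.take (bt M Γ 0 p.length))) (zL f M Γ i p) p.length = some v := by
    intro p v h
    by_cases hc : ∃ i, i < m ∧ Ac M Γ i ≤ p.length ∧ p.length < Ac M Γ i + M * Γ ^ i
    · simp only [lam] at h
      rw [dif_pos hc] at h
      exact ⟨hc.choose, hc.choose_spec.1, hc.choose_spec.2.1, hc.choose_spec.2.2, h⟩
    · simp only [lam] at h
      rw [dif_neg hc] at h
      cases h
  have lam_of : ∀ {p : List A} {i : ℕ} {v : V}, i < m → Ac M Γ i ≤ p.length →
      p.length < Ac M Γ i + M * Γ ^ i →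
      L i (pr f (p.take (bt M Γ 0 p.length))) (zL f M Γ i p) p.length = some v →
      lam p = some v := by
    intro p i v h1 h2 h3 h4
    have hc : ∃ i, i < m ∧ Ac M Γ i ≤ p.length ∧ p.length < Ac M Γ i + M * Γ ^ i :=
      ⟨i, h1, h2, h3⟩
    have he : hc.choose = i := cell hc.choose_spec.2.1 hc.choose_spec.2.2 h2 h3
    simp only [lam]
    rw [dif_pos hc, he]
    exact h4
  have len_lt : ∀ {p v}, lam p = some v → p.length < Am M Γ m := by
    intro p v h
    obtain ⟨i, h1, h2, h3, -⟩ := lam_some h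
    have := Ac_le_Am (M := M) (Γ := Γ) h1
    omega
  refine ⟨lam, rho, nu, fun p v h => len_lt h, ?_, ?_, ?_⟩
  · -- sound
    intro p q v b hv hb
    have hlt := len_lt hv
    obtain ⟨i, h1, h2, h3, h4⟩ := lam_some hv
    set T := (p ++ q).length with hT
    have hTl : T = p.length + q.length := List.length_append
    have hge : p.length ≤ T % M + M * Am M Γ m := by
      have : Am M Γ m ≤ M * Am M Γ m := Nat.le_mul_of_pos_left _ hM0
      omega
    have hmod : q.length ≡ T % M + M * Am M Γ m - p.length [MOD M] := by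
      have e1 : T % M + M * Am M Γ m ≡ T [MOD M] := by
        have : T % M + M * Am M Γ m ≡ T % M + 0 [MOD M] :=
          (Nat.modEq_zero_iff_dvd.2 (dvd_mul_right M _)).add_left _
        exact this.trans (by simpa using Nat.mod_modEq T M)
      refine Nat.ModEq.add_left_cancel' p.length ?_
      rw [Nat.add_sub_cancel' hge, ← hTl]
      exact e1.symm
    have hb' : R (vw q) (T % M + M * Am M Γ m - p.length) = some b := by
      rw [← pR _ _ _ hmod]; exact hb
    have key := hS i p.length (T % M + M * Am M Γ m - p.length)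
      (pr f (p.take (bt M Γ 0 p.length))) (zL f M Γ i p)
      (pr f ((p ++ q).take (bt M Γ 0 T))) (zT f M Γ m T (p ++ q))
      (pr f ((p ++ q).drop (bt M Γ m T))) (vw q) v b h1 (by simp [zT]) ?_ h4 hb'
    · rw [zT_total hΓ] at key
      rw [key]
      simp only [nu]
      rw [Nat.add_sub_cancel' hge]
    · intro w hw
      simp only [vw] at hw
      split_ifs at hw with hc
      · obtain ⟨a1, a2, a3, a4⟩ := views (f := f) hΓ h1 p q h2 h3 hc
        refine ⟨a1, a2, ?_⟩
        rw [← a3, ← a4]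
        exact (Option.some.inj hw).symm
  · -- complete
    intro u v hlen hpr hnear
    set T := u.length with hT
    have hAT : Am M Γ m ≤ T := hlen
    obtain ⟨i, hi, hi2⟩ := hC T (pr f (u.take (bt M Γ 0 T))) (zT f M Γ m T u)
      (pr f (u.drop (bt M Γ m T))) v (by simp [zT]) hpr
    have hMT : M ≤ T := by
      have h1 := Ac_le_Am (M := M) (Γ := Γ) hm
      have h2 : Ac M Γ 0 + M * Γ ^ 0 = 1 + M := by simp [Ac, Am]
      omega
    obtain ⟨t0, -, ht0, ht0T, hLt, hRt⟩ := hi2 0 (by omega)
    have hcop' : Nat.Coprime M (Γ ^ i) := Nat.Coprime.pow_right i hcop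
    obtain ⟨k, hk1, hk2⟩ := Nat.chineseRemainder hcop' t0 T
    obtain ⟨o, ho1, ho2, ho3⟩ := exists_interval (Ac M Γ i) k (M * Γ ^ i)
      (Nat.mul_pos hM0 (pow_pos hΓ i))
    have hot : o ≡ t0 [MOD M] := (ho3.of_mul_right _).trans hk1
    have hoT : o ≡ T [MOD Γ ^ i] := (ho3.of_mul_left _).trans hk2
    have hoT' : o < T := by
      have := Ac_le_Am (M := M) (Γ := Γ) hi
      omega
    have lp : (u.take o).length = o := by rw [List.length_take]; omega
    have lq : (u.drop o).length = T - o := by rw [List.length_drop]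
    have hpq : u.take o ++ u.drop o = u := List.take_append_drop o u
    have hc : Cond M Γ m i (u.drop o).length := by
      rw [lq]
      refine ⟨(Nat.modEq_iff_dvd' hoT'.le).1 hoT, ?_⟩
      intro o2 h1 h2 j hj hj'
      have n1 := bt_shift hΓ hj (hnear j (by omega) hj') ho1 ho2 h1 h2 (T - o) (by omega)
      have n2 := bt_shift hΓ hj (hnear j (by omega) hj') ho1 ho2 le_rfl
        (Nat.lt_add_of_pos_right (Nat.mul_pos hM0 (pow_pos hΓ i))) (T - o) (by omega)
      omega
    obtain ⟨a1, a2, a3, a4⟩ := views (f := f) hΓ hi (u.take o) (u.drop o) (by rw [lp]; exact ho1)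
      (by rw [lp]; exact ho2) hc
    rw [hpq] at a1 a2 a3 a4
    refine ⟨u.take o, u.drop o, hpq, ?_, ?_⟩
    · refine lam_of hi (by rw [lp]; exact ho1) (by rw [lp]; exact ho2) ?_
      rw [a1, a2, lp, pL _ _ _ _ _ hot]
      exact hLt
    · obtain ⟨b, hb⟩ := hRt (vw (u.drop o)) (by
        simp only [vw]
        rw [if_pos hc, a3, a4])
      have : R (vw (u.drop o)) (u.drop o).length = some b := by
        rw [lq, ← hb]
        refine pR _ _ _ ?_
        refine Nat.ModEq.add_left_cancel' o ?_
        rw [Nat.add_sub_cancel' hoT'.le]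
        have : t0 + (T - t0) ≡ o + (T - t0) [MOD M] := hot.symm.add_right _
        rw [Nat.add_sub_cancel' ht0T] at this
        exact this
      simp only [rho]
      rw [this]; rfl
  · -- dependence
    intro q q2 La hLa hq hq2 htake hlen hprod
    have hlenM : q.length ≡ q2.length [MOD M] := hlen.of_mul_right _
    have hlenG : q.length ≡ q2.length [MOD Γ ^ m] := hlen.of_mul_left _
    have hb : ∀ j ≤ m, bt M Γ j q.length = bt M Γ j q2.length := fun j hj =>
      bt_congr (hlenG.of_dvd (pow_dvd_pow Γ hj))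
    have hbl : ∀ j ≤ m, ∀ t, bt M Γ j t ≤ La := by
      intro j hj t
      have h1 := bt_mono (M := M) hΓ hj t
      have h2 := bt_lt (M := M) hΓ m t
      omega
    have hsegs : ∀ a b, b ≤ La → seg q a b = seg q2 a b := by
      intro a b hb
      rw [seg_take q hb, seg_take q2 hb, htake]
    have hdr : ∀ k, k ≤ La → pr f (q.drop k) = pr f (q2.drop k) := by
      intro k hk
      rw [pr_drop q hk hq, pr_drop q2 hk hq2, htake, hprod]
    refine ⟨?_, ?_⟩
    · have hv : ∀ i < m, vw q i = vw q2 i := by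
        intro i hi
        simp only [vw]
        have hcc := Cond_congr (M := M) (Γ := Γ) hi.le hlenG
        by_cases hc : Cond M Γ m i q.length
        · rw [if_pos hc, if_pos (hcc.1 hc)]
          have e1 : zR f M Γ m i q = zR f M Γ m i q2 := by
            unfold zR
            refine List.map_congr_left fun j hj => ?_
            rw [List.mem_range'] at hj
            obtain ⟨k, hk, rfl⟩ := hj
            rw [ps_congr (by omega) hlenG, ps_congr (by omega) hlenG, hsegs _ _ ?_]
            unfold ps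
            have := hbl (i + 1 + 1 * k + 1) (by omega) (Ac M Γ i + q2.length)
            omega
          have e2 : yR f M Γ m i q = yR f M Γ m i q2 := by
            unfold yR
            rw [ps_congr le_rfl hlenG, hdr _ ?_]
            unfold ps
            have := hbl m le_rfl (Ac M Γ i + q2.length)
            omega
          rw [e1, e2]
        · rw [if_neg hc, if_neg (fun h => hc (hcc.2 h))]
      simp only [rho]
      rw [hRc _ _ _ hv, pR _ _ _ hlenM]
    · simp only [nu]
      have e0 : q.length % M = q2.length % M := hlenM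
      have e1 : q.take (bt M Γ 0 q.length) = q2.take (bt M Γ 0 q2.length) := by
        rw [hb 0 (Nat.zero_le _)]
        have := hbl 0 (Nat.zero_le _) q2.length
        rw [← min_eq_left this, ← List.take_take, ← List.take_take, htake]
      have e2 : zT f M Γ m q.length q = zT f M Γ m q2.length q2 := by
        unfold zT
        refine List.map_congr_left fun j hj => ?_
        rw [List.mem_range] at hj
        rw [hb j hj.le, hb (j + 1) hj, hsegs _ _ (hbl (j + 1) hj _)]
      rw [e0, e1, e2, hb m le_rfl, hdr _ (hbl m le_rfl _)]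

end Crest.Agent.R320.Grid_948
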