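import Crest.Agent.R320.WallU_228
import Crest.Agent.R320.Top5_110

/-!
# Row 320: the hypotheses H1 - H4 of `Top5_110.top_sem` for the natural zones (helper909)

Zone = word of length at least `z` which ends in an outer wall and has no earlier wall at a place
at least `z`.  Walls are those of `FewVal_228.exists_walls` (left-looking form of `WallU_228`).
-/

set_option autoImplicit false

namespace Crest.Agent.R320.H14_909

open Crest.Agent.R320.Hk_851 Crest.Agent.R320.FewWalls_228 Crest.Agent.R320.WallU_228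
  Crest.Agent.R320.FewVal_228 Crest.Agent.R320.Code110

universe u

variable {α : Type u}

/-- the zones -/
def Zn (n : ℕ) (S : Set (List α)) (z : ℕ) : Language α :=
  {X | z ≤ X.length ∧ Wo n S X ∧ ∀ t, z ≤ t → t < X.length → ¬ Wo n S (X.take t)}

/-- a wall near the place `z` -/
def EB (n : ℕ) (S : Set (List α)) (z N : ℕ) (X : List α) : Prop :=
  ∃ t, z ≤ t + N ∧ t < z + N ∧ t ≤ X.length ∧ Wo n S (X.take t)

/-- bad zones -/
def Bd (n : ℕ) (S : Set (List α)) (z N p0 : ℕ) (BadT : ℕ → Prop) : Language α :=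
  {X | X ∈ Zn n S z ∧ (EB n S z N X ∨ BadT (X.length - p0))}

theorem Zn_PC {n z : ℕ} {S : Set (List α)} (hz : 0 < z) : PC (Zn n S z) where
  ne := by
    intro h
    have h1 : z ≤ ([] : List α).length := h.1
    simp at h1
    omega
  pf := by
    intro u hu v hv huv
    obtain ⟨w, rfl⟩ := huv
    by_contra hne
    have hw : w ≠ [] := fun h => hne (by simp [h])
    have hl := List.length_pos_iff.2 hw
    have h1 := hv.2.2 u.length hu.1 (by rw [List.length_append]; omega)
    rw [List.take_left] at h1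
    exact h1 hu.2.1

theorem HL_Wo [Finite α] {k : ℕ} (n : ℕ) (S : Set (List α)) :
    HL k ({X | Wo n S X} : Language α) := by
  have hf : {v : List α | v.length = n ∧ v ∈ S}.Finite :=
    (List.finite_length_eq α n).subset fun v hv => hv.1
  refine (HL.finite (k := k) hf).suffix.congr fun w => ?_
  constructor
  · rintro ⟨h1, h2⟩
    refine ⟨w.drop (w.length - n), ⟨?_, h2⟩, List.drop_suffix _ _⟩
    rw [List.length_drop]; omega
  · rintro ⟨v, ⟨h1, h2⟩, t, rfl⟩
    refine ⟨by rw [List.length_append]; omega, ?_⟩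
    have : (t ++ v).length - n = t.length := by rw [List.length_append]; omega
    rw [this, List.drop_left]
    exact h2

theorem HL_Zn [Finite α] {k : ℕ} (n : ℕ) (S : Set (List α)) (z : ℕ) :
    HL k (Zn n S z) := by
  have h0 : HL k ({X : List α | z ≤ X.length ∧ Wo n S X} : Language α) :=
    HL.setOf_and (HL.length_ge z) (HL_Wo n S)
  have h1 : HL k ({X : List α | 1 ≤ X.length} : Language α) := HL.length_ge 1
  refine (h0.sdiff (h0.mul h1)).congr fun w => ?_
  constructor
  · rintro ⟨h2, h3, h4⟩
    refine ⟨⟨h2, h3⟩, ?_⟩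
    intro hm
    obtain ⟨a, ⟨ha1, ha2⟩, b, hb, rfl⟩ := Language.mem_mul.1 hm
    have hb' : 1 ≤ b.length := hb
    have h5 := h4 a.length ha1 (by rw [List.length_append]; omega)
    rw [List.take_left] at h5
    exact h5 ha2
  · rintro ⟨⟨h2, h3⟩, h4⟩
    refine ⟨h2, h3, fun t ht1 ht2 ht3 => h4 ?_⟩
    refine Language.mem_mul.2 ⟨w.take t, ⟨?_, ht3⟩, w.drop t, ?_, List.take_append_drop _ _⟩
    · rw [List.length_take]; omega
    · show 1 ≤ (w.drop t).length
      rw [List.length_drop]; omega

theorem HL_EB [Finite α] {k : ℕ} (n : ℕ) (S : Set (List α)) (z N : ℕ) :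
    HL k ({X | EB n S z N X} : Language α) := by
  have hf : {v : List α | z ≤ v.length + N ∧ v.length < z + N ∧ Wo n S v}.Finite :=
    (List.finite_length_lt α (z + N)).subset fun v hv => hv.2.1
  refine (HL.finite (k := k) hf).prefix.congr fun w => ?_
  constructor
  · rintro ⟨t, h1, h2, h3, h4⟩
    have hl : (w.take t).length = t := by rw [List.length_take]; omega
    exact ⟨w.take t, ⟨by rw [hl]; exact h1, by rw [hl]; exact h2, h4⟩, List.take_prefix _ _⟩
  · rintro ⟨v, ⟨h1, h2, h3⟩, t, rfl⟩
    refine ⟨v.length, h1, h2, by rw [List.length_append]; omega, ?_⟩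
    rw [List.take_left]
    exact h3

/-! ### lengths modulo `P` -/

def lenL (c : ℕ) : Language α := {v | v.length = c}

def modQ (P r : ℕ) (q : Prop) : Language α := {v | v.length % P = r ∧ q}

theorem mem_star_len {P : ℕ} : ∀ (q : ℕ) (w : List α), w.length = P * q →
    w ∈ KStar.kstar (lenL P : Language α) := by
  intro q
  induction q with
  | zero =>
    intro w hw
    have : w = [] := List.length_eq_zero_iff.1 (by simpa using hw)
    subst this
    exact Language.nil_mem_kstar _
  | succ q ih =>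
    intro w hw
    have hw' : w.length = P * q + P := by rw [hw]; ring
    have h1 := ih (w.drop P) (by rw [List.length_drop]; omega)
    rw [Language.mem_kstar] at h1 ⊢
    obtain ⟨T, h2, h3⟩ := h1
    refine ⟨w.take P :: T, ?_, ?_⟩
    · rw [List.flatten_cons, ← h2, List.take_append_drop]
    · intro y hy
      rcases List.mem_cons.1 hy with rfl | hy
      · show (w.take P).length = P
        rw [List.length_take]; omega
      · exact h3 y hy

theorem len_of_star {P : ℕ} {w : List α}
    (h : w ∈ KStar.kstar (lenL P : Language α)) : P ∣ w.length := by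
  rw [Language.mem_kstar] at h
  obtain ⟨T, rfl, h2⟩ := h
  clear * - h2
  induction T with
  | nil => simp
  | cons a T ih =>
    rw [List.flatten_cons, List.length_append]
    have ha : a.length = P := h2 a (List.mem_cons_self ..)
    rw [ha]
    exact Dvd.dvd.add (dvd_refl P) (ih fun y hy => h2 y (List.mem_cons_of_mem _ hy))

theorem HL_mod [Finite α] {P r : ℕ} (hr : r < P) :
    HL 1 ({w : List α | w.length % P = r} : Language α) := by
  have h1 : HL 1 (KStar.kstar (lenL P : Language α)) :=
    HL.star (L := lenL P) (HL.length_eq (k := 0) P)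
  have h2 : HL 1 (lenL r : Language α) := HL.length_eq r
  refine (h1.mul h2).congr fun w => ?_
  constructor
  · intro hw
    have hw' : w.length % P = r := hw
    have hd := Nat.div_add_mod w.length P
    refine Language.mem_mul.2 ⟨w.take (P * (w.length / P)), mem_star_len (w.length / P) _ ?_,
      w.drop (P * (w.length / P)), ?_, List.take_append_drop _ _⟩
    · rw [List.length_take]; omega
    · show (w.drop (P * (w.length / P))).length = r
      rw [List.length_drop]; omega
  · intro hw
    obtain ⟨a, ha, b, hb, rfl⟩ := Language.mem_mul.1 hw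
    obtain ⟨c, hc⟩ := len_of_star ha
    have hb' : b.length = r := hb
    show (a ++ b).length % P = r
    rw [List.length_append, hc, hb', Nat.mul_add_mod, Nat.mod_eq_of_lt hr]

/-- auxiliary names (product of languages) -/
def mulL (A B : Language α) : Language α := A * B

theorem HL_lenP [Finite α] {P c : ℕ} (hP : 0 < P) (Q : ℕ → Prop)
    (hQ : ∀ T, c ≤ T → (Q (T + P) ↔ Q T)) :
    HL 1 ({w : List α | c ≤ w.length ∧ Q w.length} : Language α) := by
  have key : ∀ q T, c ≤ T → (Q (T + P * q) ↔ Q T) := by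
    intro q
    induction q with
    | zero => intro T _; simp
    | succ q ih =>
      intro T hT
      have : T + P * (q + 1) = (T + P * q) + P := by ring
      rw [this, hQ _ (by omega), ih T hT]
  have h1 : HL 1 ({w : List α | ∃ r : Fin P, w ∈ mulL (lenL c) (modQ P r (Q (c + r)))} :
      Language α) := by
    refine HL.iUnion fun r => HL.mul (HL.length_eq c) ?_
    exact HL.setOf_and (HL_mod r.2) (HL.const _)
  refine h1.congr fun w => ?_
  constructor
  · rintro ⟨h2, h3⟩
    refine ⟨⟨(w.length - c) % P, Nat.mod_lt _ hP⟩, ?_⟩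
    refine Language.mem_mul.2 ⟨w.take c, ?_, w.drop c, ⟨?_, ?_⟩, List.take_append_drop _ _⟩
    · show (w.take c).length = c
      rw [List.length_take]; omega
    · rw [List.length_drop]
    · have hd := Nat.div_add_mod (w.length - c) P
      have := key ((w.length - c) / P) (c + (w.length - c) % P) (by omega)
      have e : c + (w.length - c) % P + P * ((w.length - c) / P) = w.length := by omega
      rw [e] at this
      exact this.1 h3
  · rintro ⟨r, hr⟩
    obtain ⟨a, ha, b, ⟨hb1, hb2⟩, rfl⟩ := Language.mem_mul.1 hr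
    have ha' : a.length = c := ha
    refine ⟨by rw [List.length_append]; omega, ?_⟩
    have hd := Nat.div_add_mod b.length P
    have h3 := (key (b.length / P) (c + r) (by omega)).2 hb2
    have e : (a ++ b).length = c + r + P * (b.length / P) := by
      rw [List.length_append]; omega
    rw [e]
    exact h3

/-! ### H2 -/

theorem HL_Bd [Finite α] {n z N p0 La P : ℕ} {S : Set (List α)} {BadT : ℕ → Prop}
    (hP : 0 < P) (hper : ∀ T, La ≤ T → (BadT (T + P) ↔ BadT T)) (hz : p0 + La ≤ z) :
    HL 1 (Bd n S z N p0 BadT) := by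
  have h1 : HL 1 (Zn n S z) := HL_Zn n S z
  have h2 : HL 1 ({X | EB n S z N X} : Language α) := HL_EB n S z N
  have h3 : HL 1 ({w : List α | p0 + La ≤ w.length ∧ BadT (w.length - p0)} : Language α) := by
    refine HL_lenP (Q := fun T => BadT (T - p0)) hP ?_
    intro T hT
    have e : T + P - p0 = (T - p0) + P := by omega
    show BadT (T + P - p0) ↔ BadT (T - p0)
    rw [e]
    exact hper _ (by omega)
  refine (h1.inf (h2.sup h3)).congr fun w => ?_
  constructor
  · rintro ⟨h4, h5 | h5⟩
    · exact ⟨h4, Or.inl h5⟩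
    · exact ⟨h4, Or.inr ⟨by have := h4.1; omega, h5⟩⟩
  · rintro ⟨h4, h5 | h5⟩
    · exact ⟨h4, Or.inl h5⟩
    · exact ⟨h4, Or.inr h5.2⟩

/-! ### few walls -/

theorem nw_le {n z m : ℕ} {S : Set (List α)} {u : List α} (hm : m ≤ u.length)
    (hu : ∀ t, z ≤ t → t < u.length → ¬ Wo n S (u.take t)) : nw n S (u.drop m) ≤ z + 1 := by
  classical
  unfold nw
  have hsub : (Finset.range ((u.drop m).length + 1)).filter (fun x => Wl n S (u.drop m) x) ⊆
      insert (u.length - m - n) (Finset.range z) := by
    intro x hx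
    rw [Finset.mem_filter] at hx
    have h1 := (wl_drop hm).1 hx.2
    obtain ⟨h2, h3⟩ := wo_take.1 h1
    rw [Finset.mem_insert, Finset.mem_range]
    by_contra hcon
    push Not at hcon
    obtain ⟨h4, h5⟩ := hcon
    exact hu (m + x + n) (by omega) (by omega) h3
  refine (Finset.card_le_card hsub).trans ((Finset.card_insert_le _ _).trans ?_)
  rw [Finset.card_range]

section val

variable {M : Type*} [Monoid M] [Finite M] {φ : List α → M}

theorem phi_eq (hφ0 : φ [] = 1) (hφ : ∀ u w, φ (u ++ w) = φ u * φ w) (w : List α) :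
    φ w = (w.map fun a => φ [a]).prod := by
  induction w with
  | nil => simpa using hφ0
  | cons a w ih =>
    have : a :: w = [a] ++ w := rfl
    rw [this, hφ, ih]
    simp

variable {n c P z : ℕ} {S : Set (List α)}

theorem HL_val [Finite α] (hn : 0 < n) (hP : 0 < P) (hper : PerOff n c P S)
    (hφ0 : φ [] = 1) (hφ : ∀ u w, φ (u ++ w) = φ u * φ w) (r : ℕ) (s : M) :
    HL 1 ({w | nw n S w ≤ r ∧ φ w = s} : Language α) := by
  refine (HL_few_value hn hP hper r (fun a => φ [a]) s).congr fun w => ?_
  constructor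
  · rintro ⟨h1, h2⟩
    exact ⟨h1, by rw [← phi_eq hφ0 hφ]; exact h2⟩
  · rintro ⟨h1, h2⟩
    exact ⟨h1, by rw [phi_eq hφ0 hφ]; exact h2⟩

/-! ### H4 -/

theorem HL_tail [Finite α] (hn : 0 < n) (hP : 0 < P) (hper : PerOff n c P S)
    (hφ0 : φ [] = 1) (hφ : ∀ u w, φ (u ++ w) = φ u * φ w) (s : M) :
    HL 1 ({w | (∀ u ∈ Zn n S z, ¬ u <+: w) ∧ φ w = s} : Language α) := by
  classical
  have h1 : HL 1 ({w | ¬ ∃ v ∈ Zn n S z, v <+: w} : Language α) :=
    (HL_Zn (k := 1) n S z).prefix.setOf_not
  have h2 := HL_val (φ := φ) hn hP hper hφ0 hφ (z + 1) s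
  refine (h1.inf h2).congr fun w => ?_
  constructor
  · rintro ⟨h3, h4⟩
    refine ⟨fun ⟨v, hv, hvw⟩ => h3 v hv hvw, ?_, h4⟩
    have h5 : ∀ t, z ≤ t → t < w.length → ¬ Wo n S (w.take t) := by
      intro t ht1 ht2 ht3
      have hex : ∃ t, z ≤ t ∧ t ≤ w.length ∧ Wo n S (w.take t) := ⟨t, ht1, ht2.le, ht3⟩
      obtain ⟨a1, a2, a3⟩ := Nat.find_spec hex
      have hmin : ∀ t', t' < Nat.find hex → ¬ (z ≤ t' ∧ t' ≤ w.length ∧ Wo n S (w.take t')) :=
        fun t' ht' => Nat.find_min hex ht'
      refine h3 (w.take (Nat.find hex)) ⟨?_, a3, ?_⟩ (List.take_prefix _ _)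
      · rw [List.length_take]; omega
      · intro t' h6 h7 h8
        rw [List.length_take] at h7
        rw [List.take_take, min_eq_left (by omega)] at h8
        exact hmin t' (by omega) ⟨h6, by omega, h8⟩
    have := nw_le (m := 0) (u := w) (by omega) h5
    simpa using this
  · rintro ⟨h3, h4, h5⟩
    exact ⟨fun u hu huw => h3 ⟨u, hu, huw⟩, h5⟩

/-! ### H3 -/

/-- auxiliary language -/
def auxL (n : ℕ) (S : Set (List α)) (z Pm La : ℕ) (φ : List α → M) (r : ℕ) (s : M)
    (Y0 : List α) (q : List α → Prop) : Language α :=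
  {Y | ((Y0 <+: Y ∧ Y.length % Pm = r) ∧ (nw n S Y ≤ z + 1 ∧ φ Y = s)) ∧
    (∃ Y', La ≤ Y'.length ∧ Y'.take La = Y0 ∧ Y'.length % Pm = r ∧ φ Y' = s ∧ q Y')}

theorem HL_ZT [Finite α] {V : Type*} {p0 La Pm : ℕ} (hn : 0 < n) (hP : 0 < P)
    (hper : PerOff n c P S) (hPm : 0 < Pm)
    (hφ0 : φ [] = 1) (hφ : ∀ u w, φ (u ++ w) = φ u * φ w)
    (hz : p0 + La ≤ z) (T : List α → V → V)
    (hT : ∀ X0 Y Y' : List α, X0.length = p0 → La ≤ Y.length → La ≤ Y'.length →
      Y.take La = Y'.take La → Y.length % Pm = Y'.length % Pm → φ Y = φ Y' →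
      T (X0 ++ Y) = T (X0 ++ Y')) (x y : V) :
    HL 1 (ZT (Zn n S z) T x y) := by
  classical
  have hfX : {v : List α | v.length = p0}.Finite := List.finite_length_eq α p0
  have hfY : {v : List α | v.length = La}.Finite := List.finite_length_eq α La
  have h1 : HL 1 ({u | ∃ X0 ∈ {v : List α | v.length = p0}, u ∈
      ({u | ∃ Y0 ∈ {v : List α | v.length = La}, u ∈
        ({u | ∃ q : Fin Pm × M, u ∈ mulL {X0} (auxL n S z Pm La φ q.1 q.2 Y0
          (fun Y' => T (X0 ++ Y') x = y))} : Language α)} : Language α)} :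
      Language α) := by
    refine HL.biUnion hfX fun X0 _ => HL.biUnion hfY fun Y0 _ => HL.iUnion fun q => ?_
    refine HL.mul (HL.word X0) ?_
    refine HL.setOf_and (HL.setOf_and (HL.setOf_and ?_ (HL_mod q.1.2)) ?_) (HL.const _)
    · refine (HL.word (k := 1) Y0).prefix.congr fun w => ?_
      constructor
      · intro h; exact ⟨Y0, rfl, h⟩
      · rintro ⟨v, hv, hvw⟩
        have hv' : v = Y0 := hv
        subst hv'
        exact hvw
    · exact HL_val hn hP hper hφ0 hφ (z + 1) q.2
  refine ((HL_Zn (k := 1) n S z).inf h1).congr fun u => ?_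
  constructor
  · rintro ⟨hu, huT⟩
    have hlu : z ≤ u.length := hu.1
    refine ⟨hu, u.take p0, ?_, (u.drop p0).take La, ?_,
      (⟨(u.drop p0).length % Pm, Nat.mod_lt _ hPm⟩, φ (u.drop p0)), ?_⟩
    · show (u.take p0).length = p0
      rw [List.length_take]; omega
    · show ((u.drop p0).take La).length = La
      rw [List.length_take, List.length_drop]; omega
    · refine Language.mem_mul.2 ⟨u.take p0, rfl, u.drop p0, ?_, List.take_append_drop _ _⟩
      refine ⟨⟨⟨List.take_prefix _ _, rfl⟩, nw_le (by omega) hu.2.2, rfl⟩,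
        u.drop p0, ?_, rfl, rfl, rfl, ?_⟩
      · rw [List.length_drop]; omega
      · show T (List.take p0 u ++ List.drop p0 u) x = y
        rw [List.take_append_drop]; exact huT
  · rintro ⟨hu, X0, hX0, Y0, hY0, q, hq⟩
    obtain ⟨a, ha, Y, ⟨⟨⟨hp, hmod⟩, hnw, hval⟩, Y', h2, h3, h4, h5, h6⟩, rfl⟩ :=
      Language.mem_mul.1 hq
    have ha' : a = X0 := ha
    subst ha'
    have hX0' : a.length = p0 := hX0
    have hY0' : Y0.length = La := hY0
    obtain ⟨R, hR⟩ := hp
    have hYl : La ≤ Y.length := by rw [← hR, List.length_append]; omega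
    have hYt : Y.take La = Y0 := by rw [← hR, ← hY0', List.take_left]
    have h6' : T (a ++ Y') x = y := h6
    refine ⟨hu, ?_⟩
    rw [← h6', hT a Y Y' hX0' hYl h2 (by rw [hYt, h3]) (by rw [hmod, h4]) (by rw [hval, h5])]

end val

end Crest.Agent.R320.H14_909
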