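import Crest.Agent.R320.Nest_85

/-! Row 320, HALF 1 (run-free words, height two), part a: block runs (helper203). -/

set_option autoImplicit false

namespace Crest.Agent.R320.H1_203

open Crest.Agent.R320.Nest_85

variable {α S V : Type*}

/-- data of the block run -/
structure Par (α S V : Type*) where
  φ : List α → S
  act : V → S → V
  Wo : List α → Prop
  no : ℕ
  M' : ℕ
  thr : ℕ → ℕ
  p0 : ℕ
  nu1 : List α → V
  nu2 : List α → V

variable [AddCommGroup V] (p : Par α S V)

/-- admissible distance of a wall -/
def Par.Ok (t : ℕ) : Prop := p.thr (t % p.M') ≤ t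

/-- the block ends here -/
def Par.Blk (X : List α) : Prop := p.Wo X ∧ p.Ok X.length

/-- complete block -/
def Par.Full (X : List α) : Prop := p.Blk X ∧ ∀ t, t < X.length → ¬ p.Blk (X.take t)

/-- zone map -/
def Par.T (v : V) (X : List α) : V :=
  p.act (p.act v (p.φ (X.take p.p0)) + p.nu2 (X.take p.p0)) (p.φ (X.drop p.p0)) + p.nu1 (X.drop p.p0)

open Classical in
/-- step of the run -/
noncomputable def Par.step (q : V × List α) (a : α) : V × List α :=
  if p.Blk (q.2 ++ [a]) then (p.T q.1 (q.2 ++ [a]), []) else (q.1, q.2 ++ [a])

theorem run_noblk (v : V) (Q : List α) : ∀ P : List α,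
    (∀ t, 0 < t → t ≤ Q.length → ¬ p.Blk (P ++ Q.take t)) → run p.step (v, P) Q = (v, P ++ Q) := by
  induction Q with
  | nil => intro P _; simp [run]
  | cons a Q ih =>
    intro P h
    have h1 : ¬ p.Blk (P ++ [a]) := by
      have := h 1 one_pos (by simp)
      simpa using this
    change run p.step (p.step (v, P) a) Q = _
    have h2 : p.step (v, P) a = (v, P ++ [a]) := by
      unfold Par.step
      rw [if_neg h1]
    rw [h2, ih (P ++ [a])]
    · simp
    · intro t ht htl
      have := h (t + 1) (by omega) (by simp; omega)
      simpa using this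

theorem run_blk (v : V) (P Q : List α) (hQ : Q ≠ [])
    (h : ∀ t, 0 < t → t < Q.length → ¬ p.Blk (P ++ Q.take t)) (hB : p.Blk (P ++ Q)) :
    run p.step (v, P) Q = (p.T v (P ++ Q), []) := by
  obtain ⟨Q', a, rfl⟩ : ∃ Q' a, Q = Q' ++ [a] := by
    exact ⟨Q.dropLast, Q.getLast hQ, (List.dropLast_append_getLast hQ).symm⟩
  have h0 : run p.step (v, P) Q' = (v, P ++ Q') := by
    apply run_noblk
    intro t ht htl
    have := h t ht (by simp; omega)
    rwa [List.take_append_of_le_length htl] at this
  rw [run_append, h0]
  change p.step (v, P ++ Q') a = _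
  unfold Par.step
  have hB' : p.Blk (P ++ Q' ++ [a]) := by simpa using hB
  simp only
  rw [if_pos hB']
  simp

/-- a full block from an anchor -/
theorem run_full (v : V) (X : List α) (hX : X ≠ []) (h : p.Full X) :
    run p.step (v, []) X = (p.T v X, []) := by
  have := run_blk p v [] X hX (fun t _ ht => by simpa using h.2 t ht) (by simpa using h.1)
  simpa using this

/-- shape of a reached state -/
theorem run_shape (v : V) (w : List α) : ∃ w1 P, w = w1 ++ P ∧
    run p.step (v, []) w1 = ((run p.step (v, []) w).1, []) ∧ (run p.step (v, []) w).2 = P ∧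
    (∀ t, 0 < t → t ≤ P.length → ¬ p.Blk (P.take t)) := by
  induction w using List.reverseRecOn with
  | nil => exact ⟨[], [], rfl, rfl, rfl, fun t h1 h2 => by simp at h2; omega⟩
  | append_singleton w a ih =>
    obtain ⟨w1, P, e, h1, h2, h3⟩ := ih
    have hr : run p.step (v, []) (w ++ [a]) = p.step (run p.step (v, []) w) a := by
      rw [run_append]; rfl
    have hs : run p.step (v, []) w = ((run p.step (v, []) w).1, P) := by
      rw [← h2]
    by_cases hB : p.Blk (P ++ [a])
    · have h4 : run p.step (v, []) (w ++ [a]) = (p.T (run p.step (v, []) w).1 (P ++ [a]), []) := by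
        rw [hr, hs]
        unfold Par.step
        simp only
        rw [if_pos hB]
      refine ⟨w ++ [a], [], by simp, ?_, ?_, fun t h1 h2 => by simp at h2; omega⟩
      · rw [h4]
      · rw [h4]
    · have h4 : run p.step (v, []) (w ++ [a]) = ((run p.step (v, []) w).1, P ++ [a]) := by
        rw [hr]
        conv_lhs => rw [hs]
        unfold Par.step
        simp only
        rw [if_neg hB]
      refine ⟨w1, P ++ [a], by rw [e]; simp, ?_, ?_, ?_⟩
      · rw [h4]; exact h1
      · rw [h4]
      · intro t ht htl
        rcases Nat.lt_or_ge P.length t with hlt | hge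
        · have : t = P.length + 1 := by simp at htl; omega
          rw [this, List.take_of_length_le (by simp)]
          exact hB
        · rw [List.take_append_of_le_length hge]
          exact h3 t ht hge

end Crest.Agent.R320.H1_203
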