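import Mathlib

/-!
# Row 320, zone gadget of scheme 1 of the two scheme chain (132 #12664, 811 #12631), word form

Claim #12847.  Everything is on WORDS, no token system.

* `Rule`: the right looking small wall rule (291 format): `R Q` depends on `Q.take n` only and
  needs `n ≤ |Q|`.
* `FW R Z y t`: the first place `t ≥ y` of `Z` where the rule holds.
* `Data`: type map `phi`, action `act`, segment weights `e`, noise function `F` (237 / 808), fixed
  levels `A k`, cells `[lo i, lo i + M)` in units of the comb modulus `q`, names `LN`, `RN`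
  (101 / 570 / 755), the set `B` of exceptional lengths.
* `LL P v`: the left part `P` (from the anchor) is legal and shows the vector `v`.
* `RR Q b`: the right part `Q` (up to the next anchor) is legal and shows the value `b`; the
  bound `t k ≤ A k + G` makes it a regular condition (see `Zone132b_898`).
* `nu Z`: the noise, a function of the whole zone word only.

Theorems: `sound` (no hypothesis on the zone: if left legal meets right legal then the two values
agree with the noise) and `complete` (outside `B`, if no small wall of `Z` is near a level, every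
vector `v` is cut inside the window).
-/

namespace Crest.Agent.R320.Zn_884

open Finset

section Basic

variable {α : Type*} {S : Type*}

/-- the small wall rule: right looking, `n` letters -/
structure Rule (α : Type*) where
  R : List α → Prop
  n : ℕ
  pos : 1 ≤ n
  take_iff : ∀ Q, R Q ↔ R (Q.take n)
  len : ∀ Q, R Q → n ≤ Q.length

/-- the first place `≥ y` of `Z` where the rule holds -/
def FW (r : Rule α) (Z : List α) (y t : ℕ) : Prop :=
  y ≤ t ∧ r.R (Z.drop t) ∧ ∀ t', y ≤ t' → t' < t → ¬ r.R (Z.drop t')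

theorem Rule.app (r : Rule α) {X Y : List α} (h : r.n ≤ X.length) : r.R (X ++ Y) ↔ r.R X := by
  rw [r.take_iff (X ++ Y), r.take_iff X, List.take_append_of_le_length h]

theorem FW.len {r : Rule α} {Z : List α} {y t : ℕ} (h : FW r Z y t) : t + r.n ≤ Z.length := by
  have h1 := r.len _ h.2.1
  have h2 := r.pos
  rw [List.length_drop] at h1
  omega

theorem FW.unique {r : Rule α} {Z : List α} {y t t' : ℕ} (h : FW r Z y t) (h' : FW r Z y t') :
    t = t' := by
  rcases lt_trichotomy t t' with h1 | h1 | h1
  · exact absurd h.2.1 (h'.2.2 t h.1 h1)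
  · exact h1
  · exact absurd h'.2.1 (h.2.2 t' h'.1 h1)

theorem R_left (r : Rule α) {P Q : List α} {t : ℕ} (h : t + r.n ≤ P.length) :
    r.R ((P ++ Q).drop t) ↔ r.R (P.drop t) := by
  rw [List.drop_append_of_le_length (by omega)]
  exact r.app (by rw [List.length_drop]; omega)

theorem drop_add (P Q : List α) (t : ℕ) : (P ++ Q).drop (P.length + t) = Q.drop t := by
  rw [← List.drop_drop, List.drop_left]

theorem FW.left {r : Rule α} {P Q : List α} {y t : ℕ} (h : FW r P y t) : FW r (P ++ Q) y t := by
  have h1 := h.len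
  refine ⟨h.1, (R_left r h1).2 h.2.1, fun t' h2 h3 h4 => h.2.2 t' h2 h3 ?_⟩
  exact (R_left r (by omega)).1 h4

theorem FW.of_left {r : Rule α} {P Q : List α} {y t : ℕ} (h : FW r (P ++ Q) y t)
    (h1 : t + r.n ≤ P.length) : FW r P y t := by
  refine ⟨h.1, (R_left r h1).1 h.2.1, fun t' h2 h3 h4 => h.2.2 t' h2 h3 ?_⟩
  exact (R_left r (by omega)).2 h4

theorem FW.right {r : Rule α} {P Q : List α} {y t : ℕ} (h : FW r Q y t) :
    FW r (P ++ Q) (P.length + y) (P.length + t) := by
  refine ⟨by have := h.1; omega, by rw [drop_add]; exact h.2.1, fun t' h2 h3 h4 => ?_⟩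
  obtain ⟨u, rfl⟩ : ∃ u, t' = P.length + u := ⟨t' - P.length, by omega⟩
  rw [drop_add] at h4
  exact h.2.2 u (by omega) (by omega) h4

theorem FW.of_right {r : Rule α} {P Q : List α} {y t : ℕ} (h : FW r (P ++ Q) y t)
    (h1 : P.length ≤ y) : FW r Q (y - P.length) (t - P.length) := by
  have h0 := h.1
  refine ⟨by omega, ?_, fun t' h2 h3 h4 => h.2.2 (P.length + t') (by omega) (by omega) ?_⟩
  · have := h.2.1
    rwa [show t = P.length + (t - P.length) by omega, drop_add] at this
  · rwa [drop_add]

theorem FW.later {r : Rule α} {Z : List α} {y y' t : ℕ} (h : FW r Z y t) (h1 : y ≤ y')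
    (h2 : y' ≤ t) : FW r Z y' t :=
  ⟨h2, h.2.1, fun t' h3 h4 => h.2.2 t' (by omega) h4⟩

theorem FW.earlier {r : Rule α} {Z : List α} {y y' t : ℕ} (h : FW r Z y t) (h1 : y' ≤ y)
    (h2 : ∀ t', y' ≤ t' → t' < y → ¬ r.R (Z.drop t')) : FW r Z y' t := by
  refine ⟨le_trans h1 h.1, h.2.1, fun t' h3 h4 => ?_⟩
  rcases lt_or_ge t' y with h5 | h5
  · exact h2 t' h3 h5
  · exact h.2.2 t' h5 h4

/-- the type of the factor of `Z` between the places `a` and `b` -/
def zt (phi : List α → S) (Z : List α) (a b : ℕ) : S := phi ((Z.drop a).take (b - a))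

theorem zt_left (phi : List α → S) {P Q : List α} {a b : ℕ} (h : b ≤ P.length) :
    zt phi (P ++ Q) a b = zt phi P a b := by
  unfold zt
  rcases le_or_gt a b with h1 | h1
  · rw [List.drop_append_of_le_length (by omega), List.take_append_of_le_length]
    rw [List.length_drop]; omega
  · rw [show b - a = 0 by omega]; simp

theorem zt_right (phi : List α → S) {P Q : List α} {a b : ℕ} :
    zt phi (P ++ Q) (P.length + a) (P.length + b) = zt phi Q a b := by
  unfold zt
  rw [drop_add, show P.length + b - (P.length + a) = b - a by omega]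

variable [Monoid S]

theorem zt_split {phi : List α → S} (hphi : ∀ u v, phi (u ++ v) = phi u * phi v) (Z : List α)
    {a b : ℕ} (h : a ≤ b) : phi (Z.take a) * zt phi Z a b * phi (Z.drop b) = phi Z := by
  unfold zt
  rw [← hphi, ← hphi, List.append_assoc]
  congr 1
  have h1 : Z.drop b = (Z.drop a).drop (b - a) := by
    rw [List.drop_drop]; congr 1; omega
  rw [h1, List.take_append_drop, List.take_append_drop]

end Basic

section Gadget

variable (α S V W : Type*)

/-- the context (name): level, product left of the hole, weight of the left segments, product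
right of the hole, weight of the right segments, vector -/
structure Ctx (S V W : Type*) where
  i : ℕ
  g : S
  wl : W
  h : S
  wr : W
  v : V

/-- the data of the zone gadget -/
structure Data (α S V W : Type*) [Monoid S] [AddCommGroup V] [AddCommGroup W] where
  phi : List α → S
  hphi : ∀ u v, phi (u ++ v) = phi u * phi v
  act : V → S → V
  r : Rule α
  q : ℕ
  hq : 0 < q
  M : ℕ
  m : ℕ
  A : ℕ → ℕ
  monoA : Monotone A
  lo : ℕ → ℕ
  /-- bound of the small gaps -/
  G : ℕ
  e : ℕ → S → W
  F : S → W → V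
  LN : ℕ → Option (Ctx S V W)
  RN : ℕ → Option (Ctx S V W)
  B : ℕ → Prop
  /-- the cell of `i` ends before the next level -/
  cell_le : ∀ i, i < m → q * (lo i + M) ≤ A (i + 1)

variable {α S V W}
variable [Monoid S] [AddCommGroup V] [AddCommGroup W]

namespace Data

variable (D : Data α S V W)

/-- value of the sum when the hole is filled with `z` -/
def val (c : Ctx S V W) (z : S) : V :=
  D.F (c.g * z * c.h) (c.wl + D.e c.i z + c.wr) + D.act c.v (c.g * z * c.h)

/-- the value shown by the right side -/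
def bval (c : Ctx S V W) : V := D.val c 1

/-- the name hides the hole: the value does not depend on the filling -/
def Good (c : Ctx S V W) : Prop := ∀ z, D.val c z = D.bval c

/-- the left part is legal with vector `v` -/
def LL (P : List α) (v : V) : Prop :=
  ∃ (c : Ctx S V W) (om : ℕ) (H : ℕ → ℕ), P.length = D.q * om ∧ c.i < D.m ∧ D.lo c.i ≤ om ∧
    om < D.lo c.i + D.M ∧ D.LN om = some c ∧ D.Good c ∧
    (∀ k, k ≤ c.i → FW D.r P (D.A k) (H k)) ∧ c.g = D.phi (P.take (H c.i)) ∧
    c.wl = ∑ k ∈ range c.i, D.e k (zt D.phi P (H k) (H (k + 1))) ∧ v = c.v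

/-- the right part is legal with value `b` -/
def RR (Q : List α) (b : V) : Prop :=
  ∃ (c : Ctx S V W) (t : ℕ → ℕ), c.i < D.m ∧ D.RN (Q.length / D.q) = some c ∧ D.Good c ∧
    (∀ k, c.i < k → k ≤ D.m → FW D.r Q (D.A k - D.q * (D.lo c.i + D.M - 1)) (t k) ∧
      D.A k - D.q * D.lo c.i ≤ t k ∧ t k ≤ D.A k + D.G) ∧ c.h = D.phi (Q.drop (t (c.i + 1))) ∧
    c.wr = ∑ k ∈ Ico (c.i + 1) D.m, D.e k (zt D.phi Q (t k) (t (k + 1))) ∧ b = D.bval c

/-- a legal pair of names over the length `n` -/
def Pair (n : ℕ) (p : Ctx S V W × Ctx S V W) : Prop :=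
  ∃ om om', om + om' = n ∧ D.LN om = some p.1 ∧ D.Good p.1 ∧ D.RN om' = some p.2 ∧ D.Good p.2

open Classical in
/-- the noise, a function of the zone word -/
noncomputable def nu (Z : List α) : V :=
  if D.B (Z.length / D.q) then
    (if h : ∃ p : Ctx S V W × Ctx S V W, D.Pair (Z.length / D.q) p then
      D.bval h.choose.2 - D.act h.choose.1.v (D.phi Z) else 0)
  else
    (if h : ∃ H : ℕ → ℕ, ∀ k, k ≤ D.m → FW D.r Z (D.A k) (H k) then
      D.F (D.phi Z) (∑ k ∈ range D.m, D.e k (zt D.phi Z (h.choose k) (h.choose (k + 1))))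
      else 0)

/-- names outside `B`: one name only -/
def N1 : Prop := ∀ om om' c c', ¬ D.B (om + om') → D.LN om = some c → D.RN om' = some c' → c = c'

/-- names inside `B`: the colour is a function of the length -/
def N2 : Prop := ∀ n p p', D.B n → D.Pair n p → D.Pair n p' →
  p.1.v = p'.1.v ∧ D.bval p.2 = D.bval p'.2

/-- every good name of level `< m` occurs in every window of `M` comb steps -/
def N3 : Prop := ∀ n c s, ¬ D.B n → D.Good c → c.i < D.m → s + D.M ≤ n + 1 →
  ∃ om, s ≤ om ∧ om < s + D.M ∧ om ≤ n ∧ D.LN om = some c ∧ D.RN (n - om) = some c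

/-- the property of the noise function `F` (237, 808): every vector finds a level that hides the
hole -/
def Hides : Prop := ∀ (s : S) (w : W) (v : V), ∃ i, i < D.m ∧ ∀ g x h : S, g * x * h = s →
  ∀ z, D.F (g * z * h) (w - D.e i x + D.e i z) + D.act v (g * z * h) = D.F s w + D.act v s

theorem nu_of_not (Z : List α) (hB : ¬ D.B (Z.length / D.q)) (H : ℕ → ℕ)
    (hH : ∀ k, k ≤ D.m → FW D.r Z (D.A k) (H k)) :
    D.nu Z = D.F (D.phi Z) (∑ k ∈ range D.m, D.e k (zt D.phi Z (H k) (H (k + 1)))) := by
  classical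
  unfold nu
  rw [if_neg hB]
  have hex : ∃ H : ℕ → ℕ, ∀ k, k ≤ D.m → FW D.r Z (D.A k) (H k) := ⟨H, hH⟩
  rw [dif_pos hex]
  congr 1
  apply Finset.sum_congr rfl
  intro k hk
  rw [Finset.mem_range] at hk
  have h1 := (hex.choose_spec k (by omega)).unique (hH k (by omega))
  have h2 := (hex.choose_spec (k + 1) (by omega)).unique (hH (k + 1) (by omega))
  rw [h1, h2]

theorem sum_split {m i : ℕ} (hi : i < m) (f : ℕ → W) :
    ∑ k ∈ range m, f k = ∑ k ∈ range i, f k + f i + ∑ k ∈ Ico (i + 1) m, f k := by
  rw [← Finset.sum_range_succ, Finset.sum_range_add_sum_Ico f (by omega : i + 1 ≤ m)]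

/-- **soundness**: left legal meets right legal, then the shown values agree with the noise of
the zone word; no hypothesis on the zone -/
theorem sound (h1 : D.N1) (h2 : D.N2) {P Q : List α} {v b : V} (hL : D.LL P v)
    (hR : D.RR Q b) : b = D.act v (D.phi (P ++ Q)) + D.nu (P ++ Q) := by
  classical
  obtain ⟨c, om, H, hP, hi, hlo, hhi, hLN, hg, hH, hcg, hcw, rfl⟩ := hL
  obtain ⟨c', t, hi', hRN, hg', ht, hch, hcwr, rfl⟩ := hR
  have hdiv : (P ++ Q).length / D.q = om + Q.length / D.q := by
    rw [List.length_append, hP, Nat.mul_add_div D.hq]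
  by_cases hB : D.B ((P ++ Q).length / D.q)
  · have hpair : D.Pair ((P ++ Q).length / D.q) (c, c') :=
      ⟨om, Q.length / D.q, hdiv.symm, hLN, hg, hRN, hg'⟩
    have hex : ∃ p : Ctx S V W × Ctx S V W, D.Pair ((P ++ Q).length / D.q) p := ⟨_, hpair⟩
    unfold nu
    rw [if_pos hB, dif_pos hex]
    obtain ⟨h3, h4⟩ := h2 _ _ _ hB hpair hex.choose_spec
    rw [← h3, ← h4]
    simp
  · have hcc : c = c' := h1 om _ c c' (by rw [← hdiv]; exact hB) hLN hRN
    subst hcc
    have hA1 : ∀ k, c.i < k → P.length ≤ D.A k := by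
      intro k hk
      have h5 := D.cell_le c.i hi
      have h6 := D.monoA (show c.i + 1 ≤ k by omega)
      have h7 : D.q * om ≤ D.q * (D.lo c.i + D.M) := Nat.mul_le_mul_left _ (by omega)
      omega
    have htk : ∀ k, c.i < k → k ≤ D.m → FW D.r (P ++ Q) (D.A k) (P.length + t k) := by
      intro k hk hk'
      obtain ⟨h5, h6, -⟩ := ht k hk hk'
      have h7 : D.q * D.lo c.i ≤ P.length := by
        rw [hP]; exact Nat.mul_le_mul_left _ hlo
      have h8 : P.length ≤ D.q * (D.lo c.i + D.M - 1) := by
        rw [hP]; exact Nat.mul_le_mul_left _ (by omega)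
      have h9 := hA1 k hk
      have h10 : FW D.r Q (D.A k - P.length) (t k) := h5.later (by omega) (by omega)
      have h11 := h10.right (P := P)
      rwa [show P.length + (D.A k - P.length) = D.A k by omega] at h11
    have hHk : ∀ k, k ≤ c.i → FW D.r (P ++ Q) (D.A k) (H k) := fun k hk => (hH k hk).left
    let H' : ℕ → ℕ := fun k => if k ≤ c.i then H k else P.length + t k
    have hH' : ∀ k, k ≤ D.m → FW D.r (P ++ Q) (D.A k) (H' k) := by
      intro k hk
      by_cases hk' : k ≤ c.i
      · simp only [H', if_pos hk']; exact hHk k hk'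
      · simp only [H', if_neg hk']; exact htk k (by omega) hk
    rw [D.nu_of_not (P ++ Q) hB H' hH']
    have hHle : ∀ k, k ≤ c.i → H k ≤ P.length := by
      intro k hk
      have := (hH k hk).len
      omega
    set x : S := zt D.phi (P ++ Q) (H c.i) (P.length + t (c.i + 1)) with hx
    have hprod : c.g * x * c.h = D.phi (P ++ Q) := by
      have h5 : c.g = D.phi ((P ++ Q).take (H c.i)) := by
        rw [hcg, List.take_append_of_le_length (hHle c.i le_rfl)]
      have h6 : c.h = D.phi ((P ++ Q).drop (P.length + t (c.i + 1))) := by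
        rw [hch, drop_add]
      rw [h5, h6, hx]
      exact zt_split D.hphi _ (by have := hHle c.i le_rfl; omega)
    have hw : ∑ k ∈ range D.m, D.e k (zt D.phi (P ++ Q) (H' k) (H' (k + 1)))
        = c.wl + D.e c.i x + c.wr := by
      rw [sum_split hi, hcw, hcwr]
      congr 1
      · congr 1
        · apply Finset.sum_congr rfl
          intro k hk
          rw [Finset.mem_range] at hk
          simp only [H', if_pos (show k ≤ c.i by omega), if_pos (show k + 1 ≤ c.i by omega)]
          rw [zt_left D.phi (hHle (k + 1) (by omega))]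
        · simp only [H', if_pos (le_refl c.i), if_neg (show ¬ c.i + 1 ≤ c.i by omega)]
          rw [hx]
      · apply Finset.sum_congr rfl
        intro k hk
        rw [Finset.mem_Ico] at hk
        simp only [H', if_neg (show ¬ k ≤ c.i by omega), if_neg (show ¬ k + 1 ≤ c.i by omega)]
        rw [zt_right]
    rw [hw, ← hg x]
    unfold val
    rw [hprod, add_comm]

/-- **completeness**: outside `B`, if no small wall of `Z` is near a level, every vector is cut
inside the window -/
theorem complete (h3 : D.N3) (hF : D.Hides) {Z : List α}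
    (hB : ¬ D.B (Z.length / D.q)) (H : ℕ → ℕ)
    (hH : ∀ k, k ≤ D.m → FW D.r Z (D.A k) (H k))
    (hG : ∀ k, k ≤ D.m → H k ≤ D.A k + D.G)
    (hlo : ∀ i, i < D.m → D.A i + D.G + D.r.n ≤ D.q * D.lo i)
    (hnear : ∀ k, k ≤ D.m → ∀ t, D.A k ≤ t + D.q * D.M → t < D.A k + D.q * D.M →
      ¬ D.r.R (Z.drop t))
    (hZ : ∀ i, i < D.m → D.q * (D.lo i + D.M) ≤ Z.length) (v : V) :
    ∃ (P Q : List α) (i om : ℕ), Z = P ++ Q ∧ i < D.m ∧ P.length = D.q * om ∧ D.lo i ≤ om ∧
      om < D.lo i + D.M ∧ D.LL P v ∧ ∃ b, D.RR Q b := by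
  classical
  set w : W := ∑ k ∈ range D.m, D.e k (zt D.phi Z (H k) (H (k + 1))) with hw
  obtain ⟨i, hi, hhide⟩ := hF (D.phi Z) w v
  have hAH : ∀ k, k ≤ D.m → D.A k + D.q * D.M ≤ H k := by
    intro k hk
    by_contra hlt
    push Not at hlt
    exact hnear k hk (H k) (by have := (hH k hk).1; omega) hlt (hH k hk).2.1
  have hcell := D.cell_le i hi
  have hloi := hlo i hi
  have hqM : D.q * (D.lo i + D.M) = D.q * D.lo i + D.q * D.M := Nat.mul_add _ _ _
  have hHi : H i ≤ D.A i + D.G := hG i (by omega)
  have hHi1 := hAH (i + 1) (by omega)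
  have hii : H i ≤ H (i + 1) := by omega
  let c : Ctx S V W :=
    { i := i
      g := D.phi (Z.take (H i))
      wl := ∑ k ∈ range i, D.e k (zt D.phi Z (H k) (H (k + 1)))
      h := D.phi (Z.drop (H (i + 1)))
      wr := ∑ k ∈ Ico (i + 1) D.m, D.e k (zt D.phi Z (H k) (H (k + 1)))
      v := v }
  have hprod := zt_split D.hphi Z hii
  have hws : w = c.wl + D.e i (zt D.phi Z (H i) (H (i + 1))) + c.wr := by
    rw [hw, sum_split hi]
  have hval : ∀ z, D.val c z = D.F (D.phi Z) w + D.act v (D.phi Z) := by
    intro z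
    have h5 := hhide _ _ _ hprod z
    rw [← h5]
    unfold val
    have h6 : c.wl + D.e c.i z + c.wr
        = w - D.e i (zt D.phi Z (H i) (H (i + 1))) + D.e i z := by
      rw [hws]; abel
    rw [h6]
  have hgood : D.Good c := by
    intro z
    unfold bval
    rw [hval z, hval 1]
  have hn : D.lo i + D.M ≤ Z.length / D.q := by
    rw [Nat.le_div_iff_mul_le D.hq, Nat.mul_comm]
    exact hZ i hi
  obtain ⟨om, h4, h5, h6, h7, h8⟩ := h3 (Z.length / D.q) c (D.lo i) hB hgood hi (by omega)
  have hom : D.q * om ≤ Z.length :=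
    le_trans (Nat.mul_le_mul_left _ (by omega)) (hZ i hi)
  have homlo : D.q * D.lo i ≤ D.q * om := Nat.mul_le_mul_left _ h4
  have homhi : D.q * om ≤ D.q * (D.lo i + D.M - 1) := Nat.mul_le_mul_left _ (by omega)
  have hhi' : D.q * (D.lo i + D.M - 1) ≤ D.q * (D.lo i + D.M) :=
    Nat.mul_le_mul_left _ (by omega)
  have hPlen : (Z.take (D.q * om)).length = D.q * om := by
    rw [List.length_take]; omega
  have hZPQ : Z.take (D.q * om) ++ Z.drop (D.q * om) = Z := List.take_append_drop _ _
  have hleft : ∀ k, k ≤ i → H k + D.r.n ≤ D.q * om := by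
    intro k hk
    have h9 := hG k (by omega)
    have h10 := D.monoA hk
    omega
  have hright : ∀ k, i < k → D.q * (D.lo i + D.M) ≤ D.A k := by
    intro k hk
    exact le_trans hcell (D.monoA (by omega))
  have hAHk : ∀ k, i < k → k ≤ D.m → D.q * om ≤ H k := by
    intro k hk hk'
    have h9 := hright k hk
    have h10 := hAH k hk'
    omega
  refine ⟨Z.take (D.q * om), Z.drop (D.q * om), i, om, hZPQ.symm, hi, hPlen, h4, h5, ?_, ?_⟩
  · refine ⟨c, om, H, hPlen, hi, h4, h5, h7, hgood, ?_, ?_, ?_, rfl⟩
    · intro k hk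
      have h9 := hH k (by have : c.i = i := rfl; omega)
      rw [← hZPQ] at h9
      exact h9.of_left (by rw [hPlen]; exact hleft k hk)
    · change D.phi (Z.take (H i)) = D.phi ((Z.take (D.q * om)).take (H i))
      rw [List.take_take, min_eq_left (by have := hleft i le_rfl; omega)]
    · change ∑ k ∈ range i, D.e k (zt D.phi Z (H k) (H (k + 1)))
        = ∑ k ∈ range i, D.e k (zt D.phi (Z.take (D.q * om)) (H k) (H (k + 1)))
      apply Finset.sum_congr rfl
      intro k hk
      rw [Finset.mem_range] at hk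
      have h9 := zt_left D.phi (P := Z.take (D.q * om)) (Q := Z.drop (D.q * om)) (a := H k)
        (b := H (k + 1)) (by rw [hPlen]; have := hleft (k + 1) (by omega); omega)
      rw [hZPQ] at h9
      rw [h9]
  · refine ⟨D.bval c, c, fun k => H k - D.q * om, hi, ?_, hgood, ?_, ?_, ?_, rfl⟩
    · have h9 : (Z.drop (D.q * om)).length / D.q = Z.length / D.q - om := by
        rw [List.length_drop, Nat.sub_mul_div_of_le]
        exact hom
      rw [h9]
      exact h8
    · intro k hk hk'
      have h9 := hH k hk'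
      rw [← hZPQ] at h9
      have h10 := hright k hk
      have h11 := h9.of_right (by rw [hPlen]; omega)
      rw [hPlen] at h11
      have h12 := hAH k hk'
      refine ⟨?_, ?_, ?_⟩
      · apply h11.earlier
        · change D.A k - D.q * (D.lo i + D.M - 1) ≤ D.A k - D.q * om
          omega
        · intro t' h13 h14 h15
          change D.A k - D.q * (D.lo i + D.M - 1) ≤ t' at h13
          rw [List.drop_drop] at h15
          refine hnear k hk' (D.q * om + t') ?_ ?_ h15
          · omega
          · omega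
      · change D.A k - D.q * D.lo i ≤ H k - D.q * om
        omega
      · change H k - D.q * om ≤ D.A k + D.G
        have h16 := hG k hk'
        omega
    · change D.phi (Z.drop (H (i + 1))) = D.phi ((Z.drop (D.q * om)).drop (H (i + 1) - D.q * om))
      have h9 := hAHk (i + 1) (by omega) (by omega)
      rw [List.drop_drop]
      congr 2
      omega
    · change ∑ k ∈ Ico (i + 1) D.m, D.e k (zt D.phi Z (H k) (H (k + 1)))
        = ∑ k ∈ Ico (i + 1) D.m, D.e k
          (zt D.phi (Z.drop (D.q * om)) (H k - D.q * om) (H (k + 1) - D.q * om))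
      apply Finset.sum_congr rfl
      intro k hk
      rw [Finset.mem_Ico] at hk
      have h9 := zt_right D.phi (P := Z.take (D.q * om)) (Q := Z.drop (D.q * om))
        (a := H k - D.q * om) (b := H (k + 1) - D.q * om)
      have h10 := hAHk k (by omega) (by omega)
      have h11 := hAHk (k + 1) (by omega) (by omega)
      rw [hZPQ, hPlen, show D.q * om + (H k - D.q * om) = H k by omega,
        show D.q * om + (H (k + 1) - D.q * om) = H (k + 1) by omega] at h9
      rw [h9]

/-- both together: every vector is cut in the window and the right value is the noisy one -/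
theorem complete' (h1 : D.N1) (h2 : D.N2) (h3 : D.N3) (hF : D.Hides) {Z : List α}
    (hB : ¬ D.B (Z.length / D.q)) (H : ℕ → ℕ)
    (hH : ∀ k, k ≤ D.m → FW D.r Z (D.A k) (H k))
    (hG : ∀ k, k ≤ D.m → H k ≤ D.A k + D.G)
    (hlo : ∀ i, i < D.m → D.A i + D.G + D.r.n ≤ D.q * D.lo i)
    (hnear : ∀ k, k ≤ D.m → ∀ t, D.A k ≤ t + D.q * D.M → t < D.A k + D.q * D.M →
      ¬ D.r.R (Z.drop t))
    (hZ : ∀ i, i < D.m → D.q * (D.lo i + D.M) ≤ Z.length) (v : V) :
    ∃ (P Q : List α) (i om : ℕ), Z = P ++ Q ∧ i < D.m ∧ P.length = D.q * om ∧ D.lo i ≤ om ∧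
      om < D.lo i + D.M ∧ D.LL P v ∧ D.RR Q (D.act v (D.phi Z) + D.nu Z) := by
  obtain ⟨P, Q, i, om, rfl, hi, hP, hl, hu, hL, b, hR⟩ :=
    D.complete h3 hF hB H hH hG hlo hnear hZ v
  have hb := D.sound h1 h2 hL hR
  subst hb
  exact ⟨P, Q, i, om, rfl, hi, hP, hl, hu, hL, hR⟩

end Data

end Gadget

end Crest.Agent.R320.Zn_884
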