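import Crest.Agent.R320.Nest_85
import Crest.Agent.R320.Zn_884
import Crest.Agent.R320.ExactR_237
import Crest.Agent.R320.Wall_291

/-! Row 320, half 1 (run-free words, two wall schemes), word level; helper884.
Definitions of the post `R320/H1_884`. -/

set_option autoImplicit false

namespace Crest.Agent.R320.H1_884

open Crest.Agent.R320.Zn_884 Crest.Agent.R320.Nest_85

/-- all parameters -/
structure Par (α S V W : Type) [Monoid S] [AddCommGroup V] [AddCommGroup W] where
  D : Data α S V W
  ro : Rule α
  p0 : ℕ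
  N1 : ℕ
  th : ℕ → ℕ
  thmin : ℕ
  hthmin : ∀ r, thmin ≤ th r
  hmin : p0 + N1 < thmin
  nu2 : List α → V

variable {α S V W : Type} [Monoid S] [AddCommGroup V] [AddCommGroup W]

namespace Par

variable (A : Par α S V W)

/-- the outer wall at `t` letters behind `x` qualifies, the anchor being `c` letters before `x` -/
def Qual (c : ℕ) (s : List α) (t : ℕ) : Prop :=
  A.ro.R (s.drop t) ∧ A.th ((t + c) % A.D.q) ≤ t + c

def Nxt (c : ℕ) (s : List α) (t : ℕ) : Prop :=
  A.Qual c s t ∧ ∀ t', t' < t → ¬ A.Qual c s t'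

theorem Nxt.unique {c : ℕ} {s : List α} {t t' : ℕ} (h : A.Nxt c s t) (h' : A.Nxt c s t') :
    t = t' := by
  rcases lt_trichotomy t t' with h1 | h1 | h1
  · exact absurd h.1 (h'.2 t h1)
  · exact h1
  · exact absurd h'.1 (h.2 t' h1)

theorem Nxt.len {c : ℕ} {s : List α} {t : ℕ} (h : A.Nxt c s t) : t + A.ro.n ≤ s.length := by
  have h1 := A.ro.len _ h.1.1
  have h2 := A.ro.pos
  rw [List.length_drop] at h1
  omega

theorem qual_app {c : ℕ} {s r : List α} {t : ℕ} (h : t + A.ro.n ≤ s.length) :
    A.Qual c (s ++ r) t ↔ A.Qual c s t := by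
  unfold Qual
  rw [R_left A.ro h]

theorem Nxt.app {c : ℕ} {s r : List α} {t : ℕ} (h : A.Nxt c s t) : A.Nxt c (s ++ r) t := by
  have h1 := h.len A
  refine ⟨(A.qual_app h1).2 h.1, fun t' h2 h3 => h.2 t' h2 ?_⟩
  exact (A.qual_app (by omega)).1 h3

theorem Nxt.of_app {c : ℕ} {s r : List α} {t : ℕ} (h : A.Nxt c (s ++ r) t)
    (h1 : t + A.ro.n ≤ s.length) : A.Nxt c s t := by
  refine ⟨(A.qual_app h1).1 h.1, fun t' h2 h3 => h.2 t' h2 ?_⟩
  exact (A.qual_app (by omega)).2 h3

/-- shift of the reading point -/
theorem nxt_shift {c : ℕ} {u s : List α} {t : ℕ} (h : c + u.length < A.thmin) :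
    A.Nxt c (u ++ s) (u.length + t) ↔ A.Nxt (c + u.length) s t := by
  have hq : ∀ t', A.Qual c (u ++ s) (u.length + t') ↔ A.Qual (c + u.length) s t' := by
    intro t'
    unfold Qual
    rw [drop_add, show u.length + t' + c = t' + (c + u.length) by omega]
  unfold Nxt
  rw [hq]
  constructor
  · rintro ⟨h1, h2⟩
    refine ⟨h1, fun t' h3 h4 => h2 (u.length + t') (by omega) ((hq t').2 h4)⟩
  · rintro ⟨h1, h2⟩
    refine ⟨h1, fun t' h3 h4 => ?_⟩
    rcases lt_or_ge t' u.length with h5 | h5
    · have := A.hthmin ((t' + c) % A.D.q)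
      have := h4.2
      omega
    · obtain ⟨k, rfl⟩ : ∃ k, t' = u.length + k := ⟨t' - u.length, by omega⟩
      exact h2 k (by omega) ((hq k).1 h4)

theorem Nxt.ge {c : ℕ} {s : List α} {t : ℕ} (h : A.Nxt c s t) : A.thmin ≤ t + c :=
  le_trans (A.hthmin _) h.1.2

/-- zone map -/
noncomputable def T (Z : List α) (v : V) : V :=
  A.D.act (A.D.act v (A.D.phi (Z.take A.p0)) + A.nu2 (Z.take A.p0)) (A.D.phi (Z.drop A.p0))
    + A.D.nu (Z.drop A.p0)

open Classical in
/-- step of the thread automaton -/
noncomputable def step (σ : List α × V) (a : α) : List α × V :=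
  if h : ∃ d, A.Nxt 0 (σ.1 ++ [a]) d then
    ((σ.1 ++ [a]).drop h.choose, A.T ((σ.1 ++ [a]).take h.choose) σ.2)
  else (σ.1 ++ [a], σ.2)

/-- no zone end visible -/
def Inv (σ : List α × V) : Prop := ∀ d, ¬ A.Nxt 0 σ.1 d

theorem step_of {u : List α} {v : V} {a : α} {d : ℕ} (h : A.Nxt 0 (u ++ [a]) d) :
    A.step (u, v) a = ((u ++ [a]).drop d, A.T ((u ++ [a]).take d) v) := by
  have hex : ∃ d, A.Nxt 0 (u ++ [a]) d := ⟨d, h⟩
  unfold step
  rw [dif_pos hex, hex.choose_spec.unique A h]

theorem step_not {u : List α} {v : V} {a : α} (h : ∀ d, ¬ A.Nxt 0 (u ++ [a]) d) :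
    A.step (u, v) a = (u ++ [a], v) := by
  unfold step
  rw [dif_neg]
  rintro ⟨d, hd⟩
  exact h d hd

theorem Inv.prefix {u w : List α} {v : V} (h : A.Inv (u ++ w, v)) : A.Inv (u, v) :=
  fun d hd => h d (hd.app A)

theorem inv_short {u : List α} {v : V} (h : u.length ≤ A.ro.n) : A.Inv (u, v) := by
  intro d hd
  have h1 := hd.len A
  have h2 := hd.ge A
  have := A.hmin
  simp only at h1
  omega

/-- reading without a visible zone end -/
theorem run_none (v : V) : ∀ (w u : List α), A.Inv (u ++ w, v) →
    run A.step (u, v) w = (u ++ w, v) := by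
  intro w
  induction w with
  | nil => intro u _; simp [run]
  | cons a w ih =>
    intro u h
    have h1 : A.Inv (u ++ [a], v) := by
      apply Inv.prefix A (w := w)
      simpa using h
    have h2 : A.step (u, v) a = (u ++ [a], v) := A.step_not h1
    have h3 : run A.step (u, v) (a :: w) = run A.step (u ++ [a], v) w := by
      simp [run, h2]
    rw [h3, ih (u ++ [a]) (by simpa using h)]
    simp

/-- reading through a zone end -/
theorem run_zone (v : V) {d : ℕ} : ∀ (w u : List α), A.Inv (u, v) → A.Nxt 0 (u ++ w) d →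
    run A.step (u, v) w = run A.step ([], A.T ((u ++ w).take d) v) ((u ++ w).drop d) := by
  intro w
  induction w with
  | nil =>
    intro u h h'
    exact absurd (by simpa using h') (h d)
  | cons a w ih =>
    intro u h h'
    have hl := h'.len A
    by_cases h1 : ∃ d', A.Nxt 0 (u ++ [a]) d'
    · obtain ⟨d', hd'⟩ := h1
      have hdd : d' = d := by
        have h2 := Nxt.app A (r := w) hd'
        exact Nxt.unique A (by simpa using h2) h'
      subst hdd
      have hl' := hd'.len A
      have h3 : run A.step (u, v) (a :: w)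
          = run A.step ((u ++ [a]).drop d', A.T ((u ++ [a]).take d') v) w := by
        simp [run, A.step_of hd']
      have hn : (u ++ [a]).length = d' + A.ro.n := by
        by_contra hne
        have h4 : A.Nxt 0 u d' := by
          apply Nxt.of_app A (r := [a]) hd'
          simp only [List.length_append, List.length_cons, List.length_nil] at hl' hne ⊢
          omega
        exact h d' h4
      rw [h3]
      have h5 : (u ++ a :: w).drop d' = (u ++ [a]).drop d' ++ w := by
        rw [show u ++ a :: w = (u ++ [a]) ++ w by simp,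
          List.drop_append_of_le_length (by omega)]
      have h6 : (u ++ a :: w).take d' = (u ++ [a]).take d' := by
        rw [show u ++ a :: w = (u ++ [a]) ++ w by simp,
          List.take_append_of_le_length (by omega)]
      rw [h5, h6, run_append]
      congr 1
      have h7 : A.Inv (([] : List α) ++ (u ++ [a]).drop d', A.T ((u ++ [a]).take d') v) := by
        apply A.inv_short
        simp only [List.nil_append, List.length_drop]
        omega
      rw [A.run_none _ _ _ h7]
      simp
    · push Not at h1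
      have h3 : run A.step (u, v) (a :: w) = run A.step (u ++ [a], v) w := by
        simp [run, A.step_not h1]
      rw [h3, ih (u ++ [a]) h1 (by simpa using h')]
      simp

theorem inv_step {σ : List α × V} {a : α} (h : A.Inv σ) : A.Inv (A.step σ a) := by
  obtain ⟨u, v⟩ := σ
  by_cases h1 : ∃ d', A.Nxt 0 (u ++ [a]) d'
  · obtain ⟨d', hd'⟩ := h1
    rw [A.step_of hd']
    have hl' := hd'.len A
    apply A.inv_short
    by_contra hne
    have h4 : A.Nxt 0 u d' := by
      apply Nxt.of_app A (r := [a]) hd'
      simp only [List.length_append, List.length_cons, List.length_nil, List.length_drop] at hl' hne ⊢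
      omega
    exact h d' h4
  · push Not at h1
    rw [A.step_not h1]
    exact h1

theorem inv_run : ∀ (w : List α) (σ : List α × V), A.Inv σ → A.Inv (run A.step σ w) := by
  intro w
  induction w with
  | nil => intro σ h; exact h
  | cons a w ih => intro σ h; exact ih _ (A.inv_step h)

end Par

end Crest.Agent.R320.H1_884
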