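import Mathlib

/-! Row 320 (S0495), architecture items (3)+(4): the ZONE AUTOMATON and its cuts, abstract form.
A text is read from the last anchor on; `nxt X` is the position of the next anchor as soon as it is
visible in `X`; `stp v X` is the value at the next anchor when the value at the last one was `v`. -/

set_option autoImplicit false

namespace Crest.Agent.R320.Zone_716

/-- Zone data. -/
structure ZData (α V : Type*) where
  nxt : List α → Option ℕ
  stp : V → List α → V
  pos : ∀ X b, nxt X = some b → 0 < b
  le : ∀ X b, nxt X = some b → b ≤ X.length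
  mono : ∀ X Y b, nxt X = some b → nxt (X ++ Y) = some b
  stp_mono : ∀ v X Y b, nxt X = some b → stp v (X ++ Y) = stp v X

variable {α V : Type*}

/-- The canonical run: content since the last visible anchor, and the value there. -/
noncomputable def run (Z : ZData α V) (v : V) (X : List α) : List α × V :=
  match h : Z.nxt X with
  | some b => run Z (Z.stp v X) (X.drop b)
  | none => (X, v)
termination_by X.length
decreasing_by
  have h1 := Z.pos X b h
  have h2 := Z.le X b h
  simp only [List.length_drop]
  omega

variable (Z : ZData α V)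

theorem run_some {v : V} {X : List α} {b : ℕ} (h : Z.nxt X = some b) :
    run Z v X = run Z (Z.stp v X) (X.drop b) := by
  rw [run]
  split
  · rename_i b' h'
    rw [h] at h'
    cases h'
    rfl
  · rename_i h'
    rw [h] at h'
    cases h'

theorem run_none {v : V} {X : List α} (h : Z.nxt X = none) : run Z v X = (X, v) := by
  rw [run]
  split
  · rename_i b' h'
    rw [h] at h'
    cases h'
  · rfl

theorem nxt_nil : Z.nxt [] = none := by
  rcases h : Z.nxt [] with _ | b
  · rfl
  · have h1 := Z.pos _ _ h
    have h2 := Z.le _ _ h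
    simp at h2
    omega

theorem run_append (Y : List α) : ∀ (n : ℕ) (X : List α) (v : V), X.length ≤ n →
    run Z v (X ++ Y) = run Z (run Z v X).2 ((run Z v X).1 ++ Y) := by
  intro n
  induction n with
  | zero =>
    intro X v hX
    have : X = [] := List.eq_nil_of_length_eq_zero (by omega)
    subst this
    rw [run_none Z (nxt_nil Z)]
  | succ n ih =>
    intro X v hX
    rcases h : Z.nxt X with _ | b
    · rw [run_none Z h]
    · have h1 := Z.pos _ _ h
      have h2 := Z.le _ _ h
      rw [run_some Z (Z.mono X Y b h), Z.stp_mono v X Y b h, run_some Z h,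
        List.drop_append_of_le_length h2]
      apply ih
      simp only [List.length_drop]
      omega

theorem run_app (v : V) (X Y : List α) :
    run Z v (X ++ Y) = run Z (run Z v X).2 ((run Z v X).1 ++ Y) :=
  run_append Z Y X.length X v le_rfl

theorem run_spec : ∀ (n : ℕ) (X : List α) (v : V), X.length ≤ n →
    Z.nxt (run Z v X).1 = none ∧ (run Z v X).1 <:+ X := by
  intro n
  induction n with
  | zero =>
    intro X v hX
    have : X = [] := List.eq_nil_of_length_eq_zero (by omega)
    subst this
    rw [run_none Z (nxt_nil Z)]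
    exact ⟨nxt_nil Z, List.suffix_refl _⟩
  | succ n ih =>
    intro X v hX
    rcases h : Z.nxt X with _ | b
    · rw [run_none Z h]
      exact ⟨h, List.suffix_refl _⟩
    · have h1 := Z.pos _ _ h
      have h2 := Z.le _ _ h
      rw [run_some Z h]
      have := ih (X.drop b) (Z.stp v X) (by simp only [List.length_drop]; omega)
      exact ⟨this.1, this.2.trans (List.drop_suffix b X)⟩

theorem nxt_run (v : V) (X : List α) : Z.nxt (run Z v X).1 = none :=
  (run_spec Z X.length X v le_rfl).1

theorem run_suffix (v : V) (X : List α) : (run Z v X).1 <:+ X :=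
  (run_spec Z X.length X v le_rfl).2

/-- The letter automaton. -/
noncomputable def dl (s : List α × V) (c : α) : List α × V := run Z s.2 (s.1 ++ [c])

theorem foldl_dl (X : List α) : ∀ (w : List α) (v : V), Z.nxt w = none →
    List.foldl (dl Z) (w, v) X = run Z v (w ++ X) := by
  induction X with
  | nil =>
    intro w v h
    simp only [List.foldl_nil, List.append_nil]
    rw [run_none Z h]
  | cons c X ih =>
    intro w v h
    rw [List.foldl_cons]
    have e : w ++ c :: X = (w ++ [c]) ++ X := by simp
    rw [e, run_app Z v (w ++ [c]) X]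
    have : dl Z (w, v) c = ((run Z v (w ++ [c])).1, (run Z v (w ++ [c])).2) := rfl
    rw [this]
    exact ih _ _ (nxt_run Z v (w ++ [c]))

theorem foldl_dl_nil (v : V) (X : List α) : List.foldl (dl Z) ([], v) X = run Z v X := by
  rw [foldl_dl Z X [] v (nxt_nil Z)]
  simp

/-- The CUT: if the right word knows the next anchor and the value there, the state is reset. -/
theorem cut (w r : List α) (v R : V) (b : ℕ) (hw : Z.nxt w = none)
    (hb : Z.nxt (w ++ r) = some (w.length + b)) (hR : Z.stp v (w ++ r) = R) :
    List.foldl (dl Z) (w, v) r = run Z R (r.drop b) := by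
  rw [foldl_dl Z r w v hw, run_some Z hb, hR]
  congr 1
  rw [List.drop_append]
  simp

/-! ### Finite version -/

/-- Finite states. -/
abbrev Th (α V : Type*) (B : ℕ) := {w : List α // w.length ≤ B} × V

open Classical in
/-- Finite letter automaton (junk value when the content gets too long). -/
noncomputable def dlF (B : ℕ) (s : Th α V B) (c : α) : Th α V B :=
  if h : (run Z s.2 (s.1.1 ++ [c])).1.length ≤ B then
    (⟨(run Z s.2 (s.1.1 ++ [c])).1, h⟩, (run Z s.2 (s.1.1 ++ [c])).2)
  else (⟨[], by simp⟩, (run Z s.2 (s.1.1 ++ [c])).2)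

/-- forget the bound -/
def toS {B : ℕ} (s : Th α V B) : List α × V := (s.1.1, s.2)

theorem toS_inj {B : ℕ} {s t : Th α V B} (h : toS s = toS t) : s = t := by
  unfold toS at h
  rw [Prod.mk.injEq] at h
  exact Prod.ext (Subtype.ext h.1) h.2

theorem foldl_dlF (C : Set (List α)) (hC : ∀ X ∈ C, ∀ Y, Y <:+: X → Y ∈ C) (B : ℕ)
    (hB : ∀ X ∈ C, B < X.length → Z.nxt X ≠ none) (X : List α) :
    ∀ s : Th α V B, Z.nxt s.1.1 = none → s.1.1 ++ X ∈ C →
      toS (List.foldl (dlF Z B) s X) = run Z s.2 (s.1.1 ++ X) := by
  induction X with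
  | nil =>
    intro s hs _
    simp only [List.foldl_nil, List.append_nil]
    rw [run_none Z hs]
    rfl
  | cons c X ih =>
    intro s hs hX
    rw [List.foldl_cons]
    have e : s.1.1 ++ c :: X = (s.1.1 ++ [c]) ++ X := by simp
    have hpre : s.1.1 ++ [c] ∈ C := hC _ hX _ (by rw [e]; exact (List.prefix_append _ _).isInfix)
    have hsuf : (run Z s.2 (s.1.1 ++ [c])).1 <:+ s.1.1 ++ [c] := run_suffix Z _ _
    have hmem : (run Z s.2 (s.1.1 ++ [c])).1 ∈ C := hC _ hpre _ hsuf.isInfix
    have hn := nxt_run Z s.2 (s.1.1 ++ [c])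
    have hlen : (run Z s.2 (s.1.1 ++ [c])).1.length ≤ B := by
      by_contra hh
      exact hB _ hmem (by omega) hn
    have hd : dlF Z B s c = (⟨(run Z s.2 (s.1.1 ++ [c])).1, hlen⟩, (run Z s.2 (s.1.1 ++ [c])).2) := by
      unfold dlF
      rw [dif_pos hlen]
    rw [hd, ih _ hn ?_, e, run_app Z s.2 (s.1.1 ++ [c]) X]
    obtain ⟨p, hp⟩ := hsuf
    refine hC _ hX _ ?_
    refine ⟨p, [], ?_⟩
    show p ++ ((run Z s.2 (s.1.1 ++ [c])).1 ++ X) ++ [] = s.1.1 ++ c :: X
    rw [e, List.append_nil, ← List.append_assoc, hp]

theorem foldl_dlF_nil (C : Set (List α)) (hC : ∀ X ∈ C, ∀ Y, Y <:+: X → Y ∈ C) (B : ℕ)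
    (hB : ∀ X ∈ C, B < X.length → Z.nxt X ≠ none) (v : V) (X : List α) (hX : X ∈ C) :
    toS (List.foldl (dlF Z B) (⟨[], by simp⟩, v) X) = run Z v X := by
  have := foldl_dlF Z C hC B hB X (⟨[], by simp⟩, v) (nxt_nil Z) (by simpa using hX)
  simpa using this

/-- finite form of the cut -/
theorem cutF (C : Set (List α)) (hC : ∀ X ∈ C, ∀ Y, Y <:+: X → Y ∈ C) (B : ℕ)
    (hB : ∀ X ∈ C, B < X.length → Z.nxt X ≠ none) (s : Th α V B) (r : List α) (R : V) (b : ℕ)
    (hs : Z.nxt s.1.1 = none) (hX : s.1.1 ++ r ∈ C)
    (hb : Z.nxt (s.1.1 ++ r) = some (s.1.1.length + b)) (hR : Z.stp s.2 (s.1.1 ++ r) = R) :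
    List.foldl (dlF Z B) s r = List.foldl (dlF Z B) (⟨[], by simp⟩, R) (r.drop b) := by
  apply toS_inj
  rw [foldl_dlF Z C hC B hB r s hs hX]
  have hr : r ∈ C := hC _ hX _ (List.suffix_append _ _).isInfix
  have hr2 : r.drop b ∈ C := hC _ hr _ (List.drop_suffix _ _).isInfix
  rw [foldl_dlF_nil Z C hC B hB R (r.drop b) hr2, run_some Z hb, hR]
  congr 1
  rw [List.drop_append]
  simp

instance instFiniteTh [Finite α] [Finite V] (B : ℕ) : Finite (Th α V B) := by
  have : Finite {w : List α // w.length ≤ B} := by
    have := List.finite_length_le α B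
    exact this.to_subtype
  exact inferInstance

/-! ### Reading the product from the runs -/

/-- If every zone step is `v ↦ act v (phi zone) + nu`, the whole run is of this form, with the same
anchor and the same garbage for all values. -/
theorem run_affine [AddCommGroup V] {S : Type*} [Monoid S] (phi : List α → S)
    (phi_nil : phi [] = 1) (phi_app : ∀ X Y, phi (X ++ Y) = phi X * phi Y)
    (act : V → S → V) (act_one : ∀ v, act v 1 = v) (act_mul : ∀ v s t, act v (s * t) = act (act v s) t)
    (act_add : ∀ u v s, act (u + v) s = act u s + act v s)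
    (nu : List α → V)
    (hst : ∀ X b, Z.nxt X = some b → ∀ v, Z.stp v X = act v (phi (X.take b)) + nu X) :
    ∀ (n : ℕ) (X : List α), X.length ≤ n →
      ∃ (k : ℕ) (g : V), k ≤ X.length ∧
        ∀ v, run Z v X = (X.drop k, act v (phi (X.take k)) + g) := by
  intro n
  induction n with
  | zero =>
    intro X hX
    have : X = [] := List.eq_nil_of_length_eq_zero (by omega)
    subst this
    refine ⟨0, 0, by simp, ?_⟩
    intro v
    rw [run_none Z (nxt_nil Z)]
    simp [phi_nil, act_one]
  | succ n ih =>
    intro X hX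
    rcases h : Z.nxt X with _ | b
    · refine ⟨0, 0, by simp, ?_⟩
      intro v
      rw [run_none Z h]
      simp [phi_nil, act_one]
    · have h1 := Z.pos _ _ h
      have h2 := Z.le _ _ h
      obtain ⟨k, g, hk, hg⟩ := ih (X.drop b) (by simp only [List.length_drop]; omega)
      simp only [List.length_drop] at hk
      refine ⟨b + k, act (nu X) (phi ((X.drop b).take k)) + g, by omega, ?_⟩
      intro v
      rw [run_some Z h, hg, hst X b h v, act_add, List.drop_drop]
      congr 1
      have : X.take (b + k) = X.take b ++ (X.drop b).take k := by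
        rw [List.take_add]
      rw [this, phi_app, act_mul]
      abel

/-- the anchor reached does not depend on the value (no structure on V needed) -/
theorem run_fst_indep : ∀ (n : ℕ) (X : List α), X.length ≤ n →
    ∀ u v : V, (run Z u X).1 = (run Z v X).1 := by
  intro n
  induction n with
  | zero =>
    intro X hX u v
    have : X = [] := List.eq_nil_of_length_eq_zero (by omega)
    subst this
    rw [run_none Z (nxt_nil Z), run_none Z (nxt_nil Z)]
  | succ n ih =>
    intro X hX u v
    rcases h : Z.nxt X with _ | b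
    · rw [run_none Z h, run_none Z h]
    · have h1 := Z.pos _ _ h
      have h2 := Z.le _ _ h
      rw [run_some Z h, run_some Z h]
      exact ih _ (by simp only [List.length_drop]; omega) _ _

end Crest.Agent.R320.Zone_716
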