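import Crest.Agent.R320.Nest_85
import Crest.Agent.R320.Zone_716
import Crest.Agent.R320.Gad1_420

/-! Row 320: the two wall schemes (132 #12664, 118 #13043) as two levels of Nest_85 over the zone
automaton of Zone_716.  Everything about gadgets, rulers and walls is a hypothesis. -/

set_option autoImplicit false

namespace Crest.Agent.R320.H1a_992

open Crest.Agent.R320.Gad1_420 (Rule)
open Crest.Agent.R320

/-- outer chain data; positions are measured from `anchor + p0`. -/
structure Out (α : Type) where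
  Ro : List α → Prop
  no : ℕ
  rule : Rule Ro no
  M' : ℕ
  th : ℕ → ℕ
  N1 : ℕ
  p0 : ℕ
  hth : ∀ r, N1 < th r

variable {α S V : Type} (O : Out α)

def Qu (Y : List α) (t : ℕ) : Prop := O.Ro (Y.drop t) ∧ O.th (t % O.M') ≤ t

open Classical in
noncomputable def nY (Y : List α) : Option ℕ :=
  if h : ∃ t, Qu O Y t then some (Nat.find h) else none

variable {O}

theorem nY_iff {Y : List α} {t : ℕ} :
    nY O Y = some t ↔ Qu O Y t ∧ ∀ s < t, ¬ Qu O Y s := by
  classical
  unfold nY
  split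
  · rename_i h
    constructor
    · intro e
      have e' : Nat.find h = t := Option.some.inj e
      subst e'
      exact ⟨Nat.find_spec h, fun s hs => Nat.find_min h hs⟩
    · rintro ⟨h1, h2⟩
      congr 1
      exact (Nat.find_eq_iff h).2 ⟨h1, h2⟩
  · rename_i h
    constructor
    · intro e; cases e
    · rintro ⟨h1, _⟩; exact absurd ⟨t, h1⟩ h

theorem Qu_fit {Y : List α} {t : ℕ} (h : Qu O Y t) : t + O.no ≤ Y.length :=
  O.rule.wall_fit h.1

theorem Qu_app {Y X : List α} {t : ℕ} (h : t + O.no ≤ Y.length) :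
    Qu O (Y ++ X) t ↔ Qu O Y t := by
  unfold Qu
  rw [O.rule.wall_left h]

theorem nY_app_iff {Y X : List α} {t : ℕ} (h : t + O.no ≤ Y.length) :
    nY O (Y ++ X) = some t ↔ nY O Y = some t := by
  rw [nY_iff, nY_iff, Qu_app h]
  refine and_congr_right fun _ => forall_congr' fun s => forall_congr' fun hs => ?_
  rw [Qu_app (by omega)]

theorem nY_fit {Y : List α} {t : ℕ} (h : nY O Y = some t) : t + O.no ≤ Y.length :=
  Qu_fit (nY_iff.1 h).1

theorem nY_app {Y : List α} (X : List α) {t : ℕ} (h : nY O Y = some t) :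
    nY O (Y ++ X) = some t := (nY_app_iff (nY_fit h)).2 h

theorem nY_gt {Y : List α} {t : ℕ} (h : nY O Y = some t) : O.N1 < t :=
  lt_of_lt_of_le (O.hth _) (nY_iff.1 h).1.2

theorem nY_short {Y : List α} (h : Y.length ≤ O.N1) : nY O Y = none := by
  rcases e : nY O Y with _ | t
  · rfl
  · have := nY_fit e
    have := nY_gt e
    omega

variable (O)
variable (pr : List α → S) (act : V → S → V) [AddCommGroup V] (nu1 nu2 : List α → V)

def zmap (v : V) (X0 Y : List α) : V := act (act v (pr X0) + nu2 X0) (pr Y) + nu1 Y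

theorem map_some {X : List α} {b : ℕ}
    (h : (nY O (X.drop O.p0)).map (O.p0 + ·) = some b) :
    ∃ t, nY O (X.drop O.p0) = some t ∧ b = O.p0 + t ∧ O.p0 < X.length ∧ b + O.no ≤ X.length := by
  rcases e : nY O (X.drop O.p0) with _ | t
  · rw [e] at h; cases h
  · rw [e] at h
    have hb : O.p0 + t = b := Option.some.inj h
    have h1 := nY_fit e
    have h2 := O.rule.pos
    rw [List.length_drop] at h1
    exact ⟨t, rfl, hb.symm, by omega, by omega⟩

noncomputable def Z : Zone_716.ZData α V where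
  nxt X := (nY O (X.drop O.p0)).map (O.p0 + ·)
  stp v X := zmap pr act nu1 nu2 v (X.take O.p0)
    ((X.drop O.p0).take ((nY O (X.drop O.p0)).getD 0))
  pos X b h := by
    obtain ⟨t, h1, h2, h3, h4⟩ := map_some O h
    have := nY_gt h1
    omega
  le X b h := by
    obtain ⟨t, h1, h2, h3, h4⟩ := map_some O h
    omega
  mono X Y b h := by
    obtain ⟨t, h1, h2, h3, h4⟩ := map_some O h
    rw [List.drop_append_of_le_length h3.le, nY_app Y h1, h2]
    rfl
  stp_mono v X Y b h := by
    obtain ⟨t, h1, h2, h3, h4⟩ := map_some O h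
    have h5 := nY_fit h1
    rw [List.drop_append_of_le_length h3.le, nY_app Y h1, h1,
      List.take_append_of_le_length h3.le]
    simp only [Option.getD_some]
    rw [List.take_append_of_le_length (by omega)]

variable {O pr act nu1 nu2}

theorem nxt_eq {X : List α} {t : ℕ} (h : nY O (X.drop O.p0) = some t) :
    (Z O pr act nu1 nu2).nxt X = some (O.p0 + t) := by
  change (nY O (X.drop O.p0)).map (O.p0 + ·) = _
  rw [h]; rfl

theorem nxt_none {X : List α} (h : nY O (X.drop O.p0) = none) :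
    (Z O pr act nu1 nu2).nxt X = none := by
  change (nY O (X.drop O.p0)).map (O.p0 + ·) = _
  rw [h]; rfl

theorem nxt_none_of_short {X : List α} (h : X.length ≤ O.p0 + O.N1) :
    (Z O pr act nu1 nu2).nxt X = none :=
  nxt_none (nY_short (by rw [List.length_drop]; omega))

theorem stp_eq {v : V} {X : List α} {t : ℕ} (h : nY O (X.drop O.p0) = some t) :
    (Z O pr act nu1 nu2).stp v X = zmap pr act nu1 nu2 v (X.take O.p0) ((X.drop O.p0).take t) := by
  change zmap pr act nu1 nu2 v (X.take O.p0)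
    ((X.drop O.p0).take ((nY O (X.drop O.p0)).getD 0)) = _
  rw [h]; rfl

variable (O)

/-- right reading of scheme 1 -/
def RL (r : List α) (s : ℕ) : Prop :=
  O.Ro (r.drop s) ∧ O.th (s % O.M') ≤ s ∧
    ∀ s' < s, O.Ro (r.drop s') → s' + O.N1 < O.th (s' % O.M')

variable {O}

theorem junction {P r : List α} {s : ℕ} (hP : P.length ≤ O.N1) (hd : O.M' ∣ P.length)
    (h : RL O r s) : nY O (P ++ r) = some (P.length + s) := by
  obtain ⟨h1, h2, h3⟩ := h
  have hmod : ∀ s', (P.length + s') % O.M' = s' % O.M' := by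
    intro s'
    obtain ⟨c, hc⟩ := hd
    rw [hc, Nat.mul_add_mod]
  rw [nY_iff]
  refine ⟨⟨?_, ?_⟩, ?_⟩
  · rw [Gad1_420.drop_app_right]; exact h1
  · rw [hmod]; omega
  · rintro t ht ⟨h4, h5⟩
    by_cases hlt : t < P.length
    · have := O.hth (t % O.M')
      omega
    · obtain ⟨s', rfl⟩ : ∃ s', t = P.length + s' := ⟨t - P.length, by omega⟩
      rw [Gad1_420.drop_app_right] at h4
      rw [hmod] at h5
      have := h3 s' (by omega) h4
      omega

variable (O pr act nu1 nu2)

/-- All hypotheses. -/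
structure Hyp (RF : List α → Prop) where
  RFi : ∀ X Y, RF X → Y <:+: X → RF Y
  Lf : List α → Option V
  Rf : List α → Option V
  g1 : ∀ P Q v r, Lf P = some v → Rf Q = some r → r = act v (pr (P ++ Q)) + nu1 (P ++ Q)
  g1' : ∀ P v, Lf P = some v → O.M' ∣ P.length ∧ P.length ≤ O.N1
  K : ℕ
  pl : ℕ → ℕ
  plno : ∀ k < K, O.no ≤ pl k
  plp : ∀ k < K, pl k ≤ O.p0
  nop : O.no ≤ O.p0
  lam : ℕ → List α → Option V
  rho : ℕ → List α → Option V
  g2 : ∀ k < K, ∀ P Q v b, P.length = pl k → lam k P = some v → rho k Q = some b →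
    b = act v (pr (P ++ Q)) + nu2 (P ++ Q)
  Bad : List α → Prop
  Lc : ℕ
  bad_app : ∀ Y X, Lc ≤ Y.length → (Bad (Y ++ X) ↔ Bad Y)
  D1 : ℕ
  D2 : ℕ
  D1pos : 0 < D1
  By : ℕ
  ex : ∀ Y, RF Y → By ≤ Y.length → ∃ t, nY O Y = some t ∧ t + O.no ≤ By
  comp1 : ∀ Y, RF Y → O.N1 + D1 ≤ Y.length → ¬ Bad Y → ∀ v, ∃ P r, P ++ r = Y ∧
    Lf P = some v ∧ ∃ s R, RL O (r.take D1) s ∧ Rf ((r.take D1).take s) = some R
  hD2 : O.p0 + O.N1 + D1 + By + Lc ≤ D2
  comp2 : ∀ X, RF X → O.p0 + D2 ≤ X.length → Bad (X.drop O.p0) → ∀ v, ∃ k < K,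
    lam k (X.take (pl k)) = some v ∧
    (∀ k' < K, k' ≠ k → ¬ Bad ((X.drop (pl k)).drop (O.p0 - pl k'))) ∧
    ∃ b, rho k ((X.drop (pl k)).take (O.p0 - pl k)) = some b

variable {O pr act nu1 nu2} {RF : List α → Prop} (H : Hyp O pr act nu1 nu2 RF)

local notation "ZZ" => Z O pr act nu1 nu2

open Classical in
noncomputable def L1 : Nest_85.Level α (List α × V) where
  Lg q := O.p0 ≤ q.1.length ∧
    H.Lf (q.1.drop O.p0) = some (act q.2 (pr (q.1.take O.p0)) + nu2 (q.1.take O.p0))
  R := {r | r.length = H.D1 ∧ ∃ p : ℕ × V, RL O r p.1 ∧ H.Rf (r.take p.1) = some p.2}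
  c r := if h : ∃ p : ℕ × V, RL O r p.1 ∧ H.Rf (r.take p.1) = some p.2 then
    Zone_716.run (Z O pr act nu1 nu2) h.choose.2 (r.drop h.choose.1) else ([], 0)

/-- right reading of scheme 2 -/
def RD (r : List α) (p : ℕ × ℕ × V) : Prop :=
  p.1 < H.K ∧ H.Bad (r.drop (O.p0 - H.pl p.1)) ∧
    (∀ k' < H.K, k' ≠ p.1 → ¬ H.Bad (r.drop (O.p0 - H.pl k'))) ∧
    nY O (r.drop (O.p0 - H.pl p.1)) = some p.2.1 ∧
    H.rho p.1 (r.take (O.p0 - H.pl p.1)) = some p.2.2

open Classical in
noncomputable def L2 : Nest_85.Level α (List α × V) where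
  Lg q := ∃ k < H.K, q.1.length = H.pl k ∧ H.lam k q.1 = some q.2
  R := {r | r.length = H.D2 ∧ ∃ p, RD H r p}
  c r := if h : ∃ p, RD H r p then
    Zone_716.run (Z O pr act nu1 nu2)
      (act h.choose.2.2 (pr ((r.drop (O.p0 - H.pl h.choose.1)).take h.choose.2.1)) +
        nu1 ((r.drop (O.p0 - H.pl h.choose.1)).take h.choose.2.1))
      (r.drop (O.p0 - H.pl h.choose.1 + h.choose.2.1)) else ([], 0)

abbrev St (q : List α × V) : Prop := (Z O pr act nu1 nu2).nxt q.1 = none
noncomputable abbrev stepZ : List α × V → α → List α × V := Zone_716.dl (Z O pr act nu1 nu2)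
abbrev Prom (RF : List α → Prop) (q : List α × V) (w : List α) : Prop := RF (q.1 ++ w)

theorem run_eq {q : List α × V} (hq : (ZZ).nxt q.1 = none) (w : List α) :
    Nest_85.run (stepZ (O := O) (pr := pr) (act := act) (nu1 := nu1) (nu2 := nu2)) q w =
      Zone_716.run ZZ q.2 (q.1 ++ w) := by
  unfold Nest_85.run
  exact Zone_716.foldl_dl ZZ w q.1 q.2 hq

theorem run_run {v : V} (X w : List α) :
    Zone_716.run ZZ (Zone_716.run ZZ v X).2 ((Zone_716.run ZZ v X).1 ++ w) =
      Zone_716.run ZZ v (X ++ w) := (Zone_716.run_app ZZ v X w).symm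

include H in
theorem prom_next {q : List α × V} {p s u : List α}
    (hP : RF (q.1 ++ (p ++ s ++ u))) {v : V} {w : List α}
    (hs : (Zone_716.run ZZ v w).1 <:+ q.1 ++ (p ++ s)) :
    RF ((Zone_716.run ZZ v w).1 ++ u) := by
  refine H.RFi _ _ hP ?_
  obtain ⟨x, hx⟩ := hs
  refine ⟨x, [], ?_⟩
  rw [List.append_nil, ← List.append_assoc, hx]
  simp

theorem ok1 : (L1 H).Ok (stepZ (O := O) (pr := pr) (act := act) (nu1 := nu1) (nu2 := nu2))
    (St (O := O) (pr := pr) (act := act) (nu1 := nu1) (nu2 := nu2)) (Prom RF) ∨ ¬ Finite α := by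
  by_cases hfin : Finite α
  swap
  · exact Or.inr hfin
  left
  refine ⟨?_, ?_, ?_, ?_⟩
  · exact (List.finite_length_eq α H.D1).subset fun r hr => hr.1
  · intro s hs h0
    have := hs.1
    rw [h0] at this
    simp only [List.length_nil] at this
    have := H.D1pos
    omega
  · intro s hs
    have h := hs.2
    change (ZZ).nxt (((L1 H).c s).1) = none
    unfold L1
    simp only
    rw [dif_pos h]
    exact Zone_716.nxt_run ZZ _ _
  · intro q hq p s u hP hs hl
    have h := hs.2
    rw [run_eq hq p] at hl ⊢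
    set q' := Zone_716.run ZZ q.2 (q.1 ++ p) with hq'
    have hn : (ZZ).nxt q'.1 = none := Zone_716.nxt_run ZZ _ _
    have hsuf : q'.1 <:+ q.1 ++ p := Zone_716.run_suffix ZZ _ _
    obtain ⟨hl1, hl2⟩ := hl
    obtain ⟨c1, c2⟩ := H.g1' _ _ hl2
    have hc := h.choose_spec
    set a := h.choose with ha
    have hj := junction c2 c1 hc.1
    have hlen : (q'.1.drop O.p0).length = q'.1.length - O.p0 := by rw [List.length_drop]
    have hdr : (q'.1 ++ s).drop O.p0 = q'.1.drop O.p0 ++ s := List.drop_append_of_le_length hl1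
    have hnY : nY O ((q'.1 ++ s).drop O.p0) = some ((q'.1.drop O.p0).length + a.1) := by
      rw [hdr]; exact hj
    have hnx : (ZZ).nxt (q'.1 ++ s) = some (q'.1.length + a.1) := by
      rw [nxt_eq hnY, hlen]
      congr 1
      omega
    have hval : (ZZ).stp q'.2 (q'.1 ++ s) = a.2 := by
      rw [stp_eq hnY, hdr, List.take_append_of_le_length hl1]
      have e1 : (q'.1.drop O.p0 ++ s).take ((q'.1.drop O.p0).length + a.1) =
          q'.1.drop O.p0 ++ s.take a.1 := by
        rw [List.take_append]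
        simp
      rw [e1]
      unfold zmap
      exact (H.g1 _ _ _ _ hl2 hc.2).symm
    have hcut := Zone_716.cut ZZ q'.1 s q'.2 a.2 a.1 hn hnx hval
    have hcs : (L1 H).c s = Zone_716.run ZZ a.2 (s.drop a.1) := by
      unfold L1
      simp only
      rw [dif_pos h]
    constructor
    · rw [hcs, ← hcut]
      rfl
    · rw [hcs]
      change RF ((Zone_716.run ZZ a.2 (s.drop a.1)).1 ++ u)
      refine prom_next H hP ?_
      refine (Zone_716.run_suffix ZZ _ _).trans ?_
      refine (List.drop_suffix _ _).trans ?_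
      exact ⟨q.1 ++ p, by simp⟩

end Crest.Agent.R320.H1a_992
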