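import Crest.Agent.R320.Block_467

/-!
Row 320, HALF 1 in the block calculus (helper996): thread languages which are sound in `C*` and
complete on products of blocks of `B` which lie in a factor closed class `G`.
-/

set_option autoImplicit false

namespace Crest.Agent.R320.H1_996

open Crest.RegLang Crest.Agent.R320.Hk_851 Crest.Agent.R320.Blk467

variable {α : Type} {k : ℕ}

/-- sound in `C*`, complete on products of blocks of `B` lying in `G` -/
def Cmp (k : ℕ) (C B G : Set (List α)) {V : Type} (T : V → List α → V) : Prop :=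
  ∀ v v', ∃ E : Language α, HL k E ∧ (∀ w ∈ E, w ∈ Lg C T v v') ∧
    ∀ l : List (List α), (∀ X ∈ l, X ∈ B) → l.flatten ∈ G → l.foldl T v = v' → l.flatten ∈ E

theorem mem_infix_flatten {l : List (List α)} {X : List α} (h : X ∈ l) : X <:+: l.flatten :=
  List.infix_of_mem_flatten h

/-- one star -/
theorem star_cmp {V : Type} [Finite V] (C Bad G : Set (List α)) (T : V → List α → V)
    (LP RQ : V → Language α) (hG : ∀ u w : List α, u <:+: w → w ∈ G → u ∈ G)
    (sound : ∀ v v' P Q, P ∈ LP v → Q ∈ RQ v' → P ++ Q ∈ Lg C T v v')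
    (compl : ∀ X ∈ C, X ∉ Bad → X ∈ G → ∀ v, ∃ P Q, P ++ Q = X ∧ P ∈ LP v ∧ Q ∈ RQ (T v X))
    (hB : Cmp k C Bad G T) (hP : ∀ v, HL k (LP v)) (hQ : ∀ v, HL k (RQ v)) :
    Cmp (k + 1) C C G T := by
  classical
  choose E hE1 hE2 hE3 using hB
  have hE3' : ∀ (a b : V) (m : List α), m ∈ Lg Bad T a b → m ∈ G → m ∈ E a b := by
    rintro a b m ⟨l, hl, rfl, hf⟩ hm
    exact hE3 a b l hl hm hf
  let KE : Language α :=
    {x | ∃ p : V × V, ∃ Q ∈ RQ p.1, ∃ m ∈ E p.1 p.2, ∃ P ∈ LP p.2, Q ++ m ++ P = x}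
  have hKE : HL k KE := by
    refine (HL.iUnion (k := k) (ι := V × V)
      (L := fun p => RQ p.1 * E p.1 p.2 * LP p.2)
      (fun p => ((hQ p.1).mul (hE1 p.1 p.2)).mul (hP p.2))).congr fun w => ?_
    constructor
    · rintro ⟨p, Q, hQ', m, hm, P, hP', rfl⟩
      exact ⟨p, mem_mul3.2 ⟨Q, hQ', m, hm, P, hP', rfl⟩⟩
    · intro h
      obtain ⟨p, hp⟩ := h
      obtain ⟨Q, hQ', m, hm, P, hP', rfl⟩ := mem_mul3.1 hp
      exact ⟨p, Q, hQ', m, hm, P, hP', rfl⟩
  have hK : HL (k + 1) (KStar.kstar KE) := hKE.star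
  intro v v'
  have hS : HL (k + 1) ({x | ∃ u : V, ∃ m ∈ E v u, ∃ P ∈ LP u, m ++ P = x} :
      Language α) := by
    refine (HL.mono (Nat.le_succ k) (HL.iUnion (k := k) (ι := V)
      (L := fun u => E v u * LP u) (fun u => (hE1 v u).mul (hP u)))).congr fun w => ?_
    constructor
    · rintro ⟨u, m, hm, P, hP', rfl⟩
      exact ⟨u, Language.mem_mul.2 ⟨m, hm, P, hP', rfl⟩⟩
    · intro h
      obtain ⟨u, hu⟩ := h
      obtain ⟨m, hm, P, hP', rfl⟩ := Language.mem_mul.1 hu
      exact ⟨u, m, hm, P, hP', rfl⟩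
  have hEd : HL (k + 1) ({x | ∃ u : V, ∃ Q ∈ RQ u, ∃ m ∈ E u v', Q ++ m = x} :
      Language α) := by
    refine (HL.mono (Nat.le_succ k) (HL.iUnion (k := k) (ι := V)
      (L := fun u => RQ u * E u v') (fun u => (hQ u).mul (hE1 u v')))).congr fun w => ?_
    constructor
    · rintro ⟨u, m, hm, P, hP', rfl⟩
      exact ⟨u, Language.mem_mul.2 ⟨m, hm, P, hP', rfl⟩⟩
    · intro h
      obtain ⟨u, hu⟩ := h
      obtain ⟨m, hm, P, hP', rfl⟩ := Language.mem_mul.1 hu
      exact ⟨u, m, hm, P, hP', rfl⟩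
  refine ⟨_, (HL.mono (Nat.le_succ k) (hE1 v v')).add ((hS.mul hK).mul hEd), ?_, ?_⟩
  · -- soundness
    intro w hw
    rcases hw with h | h
    · exact hE2 v v' w h
    · obtain ⟨x, hx, y, hy, z, hz, rfl⟩ := mem_mul3.1 h
      obtain ⟨ks, rfl, hks⟩ := Language.mem_kstar.1 hy
      have main : ∀ (ks : List (List α)) (x : List α), (∀ y ∈ ks, y ∈ KE) →
          (∃ u : V, ∃ m ∈ Lg C T v u, ∃ P ∈ LP u, m ++ P = x) →
          (∃ u : V, ∃ m ∈ Lg C T v u, ∃ P ∈ LP u, m ++ P = x ++ ks.flatten) := by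
        intro ks
        induction ks with
        | nil => intro x _ h; simpa using h
        | cons y ks ih =>
          intro x hks hx
          have hy : y ∈ KE := hks y (by simp)
          have hks' : ∀ z ∈ ks, z ∈ KE := fun z hz => hks z (by simp [hz])
          obtain ⟨u, m, hm, P, hP', rfl⟩ := hx
          obtain ⟨⟨a, b⟩, Q, hQ', m', hm', P', hP'', rfl⟩ := hy
          have h1 : m ++ (P ++ Q) ++ m' ∈ Lg C T v b :=
            Lg.append (Lg.append hm (sound u a P Q hP' hQ')) (hE2 _ _ _ hm')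
          have := ih (m ++ (P ++ Q) ++ m' ++ P') hks' ⟨b, _, h1, P', hP'', rfl⟩
          rw [List.flatten_cons]
          simpa [List.append_assoc] using this
      have hx' : ∃ u : V, ∃ m ∈ Lg C T v u, ∃ P ∈ LP u, m ++ P = x := by
        obtain ⟨u, m, hm, P, hP', e⟩ := hx
        exact ⟨u, m, hE2 _ _ _ hm, P, hP', e⟩
      obtain ⟨u, m, hm, P, hP', e⟩ := main ks x hks hx'
      obtain ⟨a, Q, hQ', m', hm', rfl⟩ := hz
      have h1 : m ++ (P ++ Q) ++ m' ∈ Lg C T v v' :=
        Lg.append (Lg.append hm (sound u a P Q hP' hQ')) (hE2 _ _ _ hm')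
      have e2 : x ++ ks.flatten ++ (Q ++ m') = m ++ (P ++ Q) ++ m' := by
        rw [← e]; simp [List.append_assoc]
      rw [e2]
      exact h1
  · -- completeness
    intro l hl hlG hf
    have main : ∀ (l : List (List α)) (v : V), (∀ X ∈ l, X ∈ C ∧ X ∈ G) → l.foldl T v = v' →
        l.flatten ∈ Lg Bad T v v' ∨
        ∃ u : V, ∃ m ∈ Lg Bad T v u, ∃ P ∈ LP u, ∃ ks : List (List α),
          (∀ x ∈ ks, x ∈ KK Bad T LP RQ) ∧ ∃ a : V, ∃ Q ∈ RQ a, ∃ m' ∈ Lg Bad T a v',
            m ++ P ++ ks.flatten ++ (Q ++ m') = l.flatten := by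
      intro l
      induction l with
      | nil =>
        intro v _ h
        left
        exact ⟨[], by simp, rfl, h⟩
      | cons X l ih =>
        intro v hC hf
        have hX : X ∈ C := (hC X (by simp)).1
        have hXG : X ∈ G := (hC X (by simp)).2
        have hC' : ∀ Y ∈ l, Y ∈ C ∧ Y ∈ G := fun Y hY => hC Y (by simp [hY])
        have hf' : l.foldl T (T v X) = v' := hf
        rcases ih (T v X) hC' hf' with h | ⟨u, m, hm, P, hP', ks, hks, a, Q, hQ', m', hm', e⟩
        · by_cases hb : X ∈ Bad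
          · left
            rw [List.flatten_cons]
            exact Lg.append (Lg.single hb v) h
          · right
            obtain ⟨P, Q, e, hP', hQ'⟩ := compl X hX hb hXG v
            refine ⟨v, [], Lg.nil _ _ _, P, hP', [], by simp, T v X, Q, hQ', l.flatten, h, ?_⟩
            rw [List.flatten_cons, ← e]
            simp
        · right
          by_cases hb : X ∈ Bad
          · refine ⟨u, X ++ m, Lg.append (Lg.single hb v) hm, P, hP', ks, hks, a, Q, hQ', m',
              hm', ?_⟩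
            rw [List.flatten_cons, ← e]
            simp [List.append_assoc]
          · obtain ⟨P1, Q1, e1, hP1, hQ1⟩ := compl X hX hb hXG v
            refine ⟨v, [], Lg.nil _ _ _, P1, hP1, (Q1 ++ m ++ P) :: ks, ?_, a, Q, hQ', m',
              hm', ?_⟩
            · intro x hx
              rcases List.mem_cons.1 hx with rfl | hx
              · exact ⟨(T v X, u), Q1, hQ1, m, hm, P, hP', rfl⟩
              · exact hks x hx
            · have e2 : (X :: l).flatten = (P1 ++ Q1) ++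
                  (m ++ P ++ ks.flatten ++ (Q ++ m')) := by
                rw [List.flatten_cons, e, e1]
              rw [e2]
              simp [List.append_assoc]
    rcases main l v (fun X hX => ⟨hl X hX, hG _ _ (mem_infix_flatten hX) hlG⟩) hf with
      h | ⟨u, m, hm, P, hP', ks, hks, a, Q, hQ', m', hm', e⟩
    · exact Or.inl (hE3' _ _ _ h hlG)
    · right
      have hGi : ∀ y : List α, y <:+: m ++ P ++ ks.flatten ++ (Q ++ m') → y ∈ G := fun y hy =>
        hG _ _ hy (e ▸ hlG)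
      refine mem_mul3.2 ⟨m ++ P, ⟨u, m, hE3' _ _ _ hm (hGi _ ⟨[], P ++ ks.flatten ++ (Q ++ m'),
        by simp⟩), P, hP', rfl⟩, ks.flatten,
        Language.mem_kstar.2 ⟨ks, rfl, ?_⟩, Q ++ m', ⟨a, Q, hQ', m', hE3' _ _ _ hm'
        (hGi _ ⟨m ++ P ++ ks.flatten ++ Q, [], by simp⟩), rfl⟩, e⟩
      intro x hx
      have hxi : x <:+: ks.flatten := mem_infix_flatten hx
      obtain ⟨p, Q1, hQ1, m1, hm1, P1, hP1, e1⟩ := hks x hx
      refine ⟨p, Q1, hQ1, m1, hE3' _ _ _ hm1 (hGi _ ?_), P1, hP1, e1⟩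
      have h1 : m1 <:+: x := ⟨Q1, P1, e1⟩
      have h2 : ks.flatten <:+: m ++ P ++ ks.flatten ++ (Q ++ m') :=
        ⟨m ++ P, Q ++ m', by simp [List.append_assoc]⟩
      exact h1.trans (hxi.trans h2)

end Crest.Agent.R320.H1_996
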