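import Crest.Agent.R320.H1a_203
import Crest.Agent.R320.Gad1_420

/-! Row 320, HALF 1, part b: the two levels (helper203). -/

set_option autoImplicit false
set_option linter.unusedSectionVars false

namespace Crest.Agent.R320.H1_203

open Crest.Agent.R320.Nest_85 Crest.Agent.R320.Gad1_420

variable {α S V W : Type*} [Monoid S] [AddCommGroup V] [AddCommGroup W]

/-- all data -/
structure Dt (α S V W : Type*) [Monoid S] [AddCommGroup V] [AddCommGroup W] extends Par α S V where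
  D : Dat α S V W
  good : ℕ → Prop
  N1 : ℕ
  Z : ℕ
  K : ℕ
  x : ℕ → ℕ
  lam : List α → Option V
  rho : List α → Option V
  rf : List α → Prop

variable (d : Dt α S V W)

/-- `t` is within `N1` of its threshold -/
def Dt.close (t : ℕ) : Prop := d.thr (t % d.M') ≤ t + d.N1 ∧ t ≤ d.thr (t % d.M') + d.N1

/-- bad block -/
def Dt.BadX (X : List α) : Prop :=
  (∃ t, t ≤ X.length ∧ d.p0 + d.no ≤ t ∧ d.Wo (X.take t) ∧ d.close t) ∨
  ¬ d.good ((X.length - d.p0) / d.M') ∨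
  (∃ k, k ≤ d.D.m ∧ ∃ s, d.D.A k ≤ s + d.M' * d.D.M ∧ s < d.D.A k + d.M' * d.D.M ∧
    d.D.R ((X.drop d.p0).drop s))

/-- end of the block of candidate `j`, seen from the right -/
def Dt.IsEnd (j : ℕ) (Q : List α) (b : ℕ) : Prop :=
  b ≤ Q.length ∧ d.no ≤ b ∧ d.Wo (Q.take b) ∧ d.Ok (d.x j + b) ∧
    ∀ t, d.no ≤ t → t < b → d.Wo (Q.take t) → ¬ d.Ok (d.x j + t)

/-- badness of the block of candidate `j`, seen from the right -/
def Dt.BadAt (j : ℕ) (Q : List α) (b : ℕ) : Prop :=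
  (∃ t, t ≤ b ∧ d.p0 + d.no ≤ d.x j + t ∧ d.Wo (Q.take t) ∧ d.close (d.x j + t)) ∨
  ¬ d.good ((d.x j + b - d.p0) / d.M') ∨
  (∃ k, k ≤ d.D.m ∧ ∃ s, d.D.A k ≤ s + d.M' * d.D.M ∧ s < d.D.A k + d.M' * d.D.M ∧
    d.D.R (((Q.take b).drop (d.p0 - d.x j)).drop s))

/-- level of scheme 1 -/
noncomputable def Dt.A1 : Level α (V × List α) where
  Lg q := d.p0 ≤ q.2.length ∧
    d.D.Lf (q.2.drop d.p0) = some (d.act q.1 (d.φ (q.2.take d.p0)) + d.nu2 (q.2.take d.p0))
  R := {Q | Q ≠ [] ∧ Q.length ≤ d.Z ∧ (d.D.Rf Q).isSome ∧ d.Wo Q ∧ d.no ≤ Q.length ∧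
    ∀ o, d.p0 ≤ o → o ≤ d.p0 + d.N1 → d.M' ∣ o - d.p0 → d.Ok (o + Q.length) ∧
      ∀ t, d.no ≤ t → t < Q.length → d.Wo (Q.take t) → ¬ d.Ok (o + t)}
  c Q := ((d.D.Rf Q).getD 0, [])

/-- right-legality of scheme 2 for the candidate `j` with end `b` -/
def Dt.RL (Q : List α) (j b : ℕ) : Prop :=
  j < d.K ∧ d.IsEnd j Q b ∧ (d.rho (Q.take (d.p0 - d.x j))).isSome ∧ d.Full (Q.drop b) ∧
    Q.drop b ≠ [] ∧ ∀ j', j' < d.K → j' ≠ j → ∃ b', d.IsEnd j' Q b' ∧ ¬ d.BadAt j' Q b'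

/-- value after the two blocks -/
def Dt.val2 (Q : List α) (j b : ℕ) : V :=
  d.T (d.act ((d.rho (Q.take (d.p0 - d.x j))).getD 0) (d.φ ((Q.take b).drop (d.p0 - d.x j))) +
    d.nu1 ((Q.take b).drop (d.p0 - d.x j))) (Q.drop b)

open Classical in
/-- level of scheme 2 -/
noncomputable def Dt.A2 : Level α (V × List α) where
  Lg q := ∃ j, j < d.K ∧ q.2.length = d.x j ∧ d.lam q.2 = some q.1
  R := {Q | Q ≠ [] ∧ Q.length ≤ 3 * d.Z ∧ ∃ j b, d.RL Q j b}
  c Q := if h : ∃ jb : ℕ × ℕ, d.RL Q jb.1 jb.2 then (d.val2 Q h.choose.1 h.choose.2, []) else (0, [])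

/-- the hypotheses -/
structure Dt.Hyp : Prop where
  hφD : d.D.φ = d.φ
  haD : d.D.act = d.act
  hMD : d.D.M' = d.M'
  hφ : ∀ u v, d.φ (u ++ v) = d.φ u * d.φ v
  g1 : ∀ P Q v r, d.D.Lf P = some v → d.D.Rf Q = some r →
        r = d.act v (d.φ (P ++ Q)) + d.nu1 (P ++ Q)
  g2 : ∀ P v, d.D.Lf P = some v → d.M' ∣ P.length ∧ P.length ≤ d.N1
  g3 : ∀ Y : List α, d.good (Y.length / d.M') → d.N1 ≤ Y.length →
        (∀ t, t ≤ d.D.A d.D.m + d.M' * d.D.M → ∃ s, t ≤ s ∧ s < t + d.D.G ∧ d.D.R (Y.drop s)) →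
        (∀ k, k ≤ d.D.m → ∀ s, d.D.A k ≤ s + d.M' * d.D.M → s < d.D.A k + d.M' * d.D.M →
          ¬ d.D.R (Y.drop s)) →
        ∀ v, ∃ P Q, P ++ Q = Y ∧ d.D.Lf P = some v ∧ (d.D.Rf Q).isSome
  Mpos : 0 < d.M'
  wloc : ∀ P Q, d.no ≤ Q.length → (d.Wo (P ++ Q) ↔ d.Wo Q)
  thr : ∀ r, r < d.M' → d.p0 + d.N1 + d.no < d.thr r
  inf : ∀ u v w, d.rf (u ++ v ++ w) → d.rf v
  full : ∀ w, d.rf w → d.Z ≤ w.length → ∃ t, 0 < t ∧ t ≤ d.Z ∧ d.Full (w.take t)
  sm : ∀ X, d.rf X → d.Full X →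
    ∀ t, t ≤ d.D.A d.D.m + d.M' * d.D.M → ∃ s, t ≤ s ∧ s < t + d.D.G ∧ d.D.R ((X.drop d.p0).drop s)
  xp0 : ∀ j, j < d.K → d.x j ≤ d.p0
  e1 : ∀ (p q : List α) (v b : V), p.length + q.length = d.p0 → d.lam p = some v →
    d.rho q = some b → b = d.act v (d.φ (p ++ q)) + d.nu2 (p ++ q)
  /-- completeness of the exact gadget together with the spoiling count -/
  e2 : ∀ X X2 : List α, d.Full X → d.Full X2 → X2 ≠ [] → ∀ v, ∃ j, j < d.K ∧
    d.lam (X.take (d.x j)) = some v ∧ (d.rho ((X.take d.p0).drop (d.x j))).isSome ∧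
    ∀ j', j' < d.K → j' ≠ j →
      ∃ b', d.IsEnd j' (X.drop (d.x j) ++ X2) b' ∧ ¬ d.BadAt j' (X.drop (d.x j) ++ X2) b'

variable {d}

theorem Full.len (h : d.Hyp) {X : List α} (hX : d.Full X) : d.p0 + d.N1 + d.no < X.length :=
  lt_of_lt_of_le (h.thr _ (Nat.mod_lt _ h.Mpos)) hX.1.2

theorem notOk (h : d.Hyp) {t : ℕ} (ht : t ≤ d.p0 + d.N1 + d.no) : ¬ d.Ok t := by
  intro hO
  have := h.thr _ (Nat.mod_lt t h.Mpos)
  have h2 : d.thr (t % d.M') ≤ t := hO
  omega

/-- soundness of level 1 -/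
theorem A1_sound (h : d.Hyp) {v : V} {P Q : List α} (hL : d.A1.Lg (v, P)) (hQ : Q ∈ d.A1.R) :
    run d.step (v, P) Q = d.A1.c Q := by
  obtain ⟨hp, hl⟩ := hL
  obtain ⟨hne, -, hsome, hw, hno, hall⟩ := hQ
  simp only at hp hl
  obtain ⟨r, hr⟩ := Option.isSome_iff_exists.1 hsome
  obtain ⟨h1, h2⟩ := h.g2 _ _ hl
  rw [List.length_drop] at h1 h2
  obtain ⟨hO, hn⟩ := hall P.length hp (by omega) h1
  have hB : d.Blk (P ++ Q) := ⟨(h.wloc P Q hno).2 hw, by rw [List.length_append]; exact hO⟩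
  rw [run_blk d.toPar v P Q hne ?_ hB]
  · have e : d.A1.c Q = (r, []) := by
      change ((d.D.Rf Q).getD 0, []) = _
      rw [hr]; rfl
    rw [e]
    congr 1
    have := h.g1 _ _ _ _ hl hr
    rw [this]
    unfold Par.T
    rw [List.take_append_of_le_length hp, List.drop_append_of_le_length hp]
  · intro t ht htl hB
    have hlen : (P ++ Q.take t).length = P.length + t := by
      rw [List.length_append, List.length_take]; omega
    have h3 : d.Ok (P.length + t) := by have := hB.2; rwa [hlen] at this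
    by_cases htn : d.no ≤ t
    · refine hn t htn htl ?_ h3
      exact (h.wloc P _ (by rw [List.length_take]; omega)).1 hB.1
    · exact notOk h (by omega) h3

/-- completeness of level 1 on a block which is not bad -/
theorem A1_complete (h : d.Hyp) {X : List α} (hX : d.Full X) (hrf : d.rf X) (hZ : X.length ≤ d.Z)
    (hb : ¬ d.BadX X) (v : V) :
    ∃ P Q, X = P ++ Q ∧ d.A1.Lg (v, P) ∧ Q ∈ d.A1.R := by
  unfold Dt.BadX at hb
  push Not at hb
  obtain ⟨hE, hg, hDD⟩ := hb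
  have hlen := Full.len h hX
  obtain ⟨P', Q, hPQ, hL, hR⟩ := h.g3 (X.drop d.p0) (by rw [List.length_drop]; exact hg)
    (by rw [List.length_drop]; omega) (h.sm X hrf hX) hDD
    (d.act v (d.φ (X.take d.p0)) + d.nu2 (X.take d.p0))
  obtain ⟨h1, h2⟩ := h.g2 _ _ hL
  have hXe : X = X.take d.p0 ++ P' ++ Q := by
    rw [List.append_assoc, hPQ, List.take_append_drop]
  have htl : (X.take d.p0).length = d.p0 := by rw [List.length_take]; omega
  have hPl : (X.take d.p0 ++ P').length = d.p0 + P'.length := by rw [List.length_append, htl]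
  have hQl : X.length = d.p0 + P'.length + Q.length := by
    conv_lhs => rw [hXe]
    rw [List.length_append, hPl]
  have hnoQ : d.no < Q.length := by omega
  have hpre : ∀ t, (X.take d.p0 ++ P') ++ Q.take t = X.take (d.p0 + P'.length + t) := by
    intro t
    conv_rhs => rw [hXe]
    have e1 : d.p0 + P'.length + t - (d.p0 + P'.length) = t := by omega
    rw [List.take_append, hPl, List.take_of_length_le (l := X.take d.p0 ++ P') (by rw [hPl]; omega),
      e1]
  have hQZ : Q.length ≤ d.Z := by omega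
  have hpl : d.p0 ≤ (X.take d.p0 ++ P').length := by omega
  have htk : (X.take d.p0 ++ P').take d.p0 = X.take d.p0 := by
    rw [List.take_append_of_le_length (by rw [htl]), List.take_of_length_le (by rw [htl])]
  have hdr : (X.take d.p0 ++ P').drop d.p0 = P' := by
    rw [List.drop_append_of_le_length (by rw [htl]), List.drop_of_length_le (by rw [htl]),
      List.nil_append]
  refine ⟨X.take d.p0 ++ P', Q, hXe, ⟨hpl, ?_⟩, ?_, hQZ, hR, ?_, hnoQ.le, ?_⟩
  · simp only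
    rw [htk, hdr]
    exact hL
  · intro h0; rw [h0] at hnoQ; simp at hnoQ
  · have := hX.1.1
    rw [hXe] at this
    exact (h.wloc _ Q hnoQ.le).1 this
  · intro o ho1 ho2 ho3
    have key : ∀ t, d.no ≤ t → t ≤ Q.length → d.Wo (Q.take t) →
        (d.Ok (o + t) ↔ d.Ok (d.p0 + P'.length + t)) := by
      intro t ht1 ht2 hw
      have hW : d.Wo (X.take (d.p0 + P'.length + t)) := by
        rw [← hpre t]
        exact (h.wloc _ _ (by rw [List.length_take]; omega)).2 hw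
      have hnc := hE (d.p0 + P'.length + t) (by omega) (by omega) hW
      have hmod : (o + t) % d.M' = (d.p0 + P'.length + t) % d.M' := by
        obtain ⟨a, ha⟩ := ho3
        obtain ⟨b, hb⟩ := h1
        have e1 : o + t = (d.p0 + t) + d.M' * a := by omega
        have e2 : d.p0 + P'.length + t = (d.p0 + t) + d.M' * b := by omega
        rw [e1, e2, Nat.add_mul_mod_self_left, Nat.add_mul_mod_self_left]
      unfold Dt.close at hnc
      unfold Par.Ok
      rw [hmod]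
      omega
    constructor
    · have hw : d.Wo (Q.take Q.length) := by
        rw [List.take_length]
        have := hX.1.1
        rw [hXe] at this
        exact (h.wloc _ Q hnoQ.le).1 this
      refine (key Q.length hnoQ.le le_rfl hw).2 ?_
      have := hX.1.2
      rwa [hQl] at this
    · intro t ht1 ht2 hw hO
      have h3 := (key t ht1 ht2.le hw).1 hO
      refine hX.2 (d.p0 + P'.length + t) (by omega) ⟨?_, ?_⟩
      · rw [← hpre t]
        exact (h.wloc _ _ (by rw [List.length_take]; omega)).2 hw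
      · rw [List.length_take, Nat.min_eq_left (by omega)]
        exact h3

end Crest.Agent.R320.H1_203
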