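import Crest.Agent.R320.H1a_884

/-! Row 320, half 1, level 1 (scheme 1 of 132 #12664) on the thread automaton; helper884. -/

set_option autoImplicit false

namespace Crest.Agent.R320.H1_884

open Crest.Agent.R320.Zn_884 Crest.Agent.R320.Nest_85 Crest.Agent.R320.Wall_291

variable {α S V W : Type} [Monoid S] [AddCommGroup V] [AddCommGroup W]

namespace Par

variable (A : Par α S V W)

/-- the zone seen from `x` (with `c` letters before `x`) is good for scheme 1 -/
def Gd (c : ℕ) (s : List α) (t : ℕ) : Prop :=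
  (∀ τ, τ < t → A.ro.R (s.drop τ) → τ + c + A.N1 < A.th ((τ + c) % A.D.q)) ∧
  A.th ((t + c) % A.D.q) + A.N1 ≤ t + c ∧
  ¬ A.D.B ((t + c - A.p0) / A.D.q) ∧
  (∀ k, k ≤ A.D.m → ∀ y, A.D.A k ≤ y + A.D.q * A.D.M → y < A.D.A k + A.D.q * A.D.M →
    ¬ A.D.r.R (((s.take t).drop (A.p0 - c)).drop y))

def Lg1 (σ : List α × V) : Prop :=
  A.p0 ≤ σ.1.length ∧ σ.1.length ≤ A.p0 + A.N1 ∧
  A.D.LL (σ.1.drop A.p0) (A.D.act σ.2 (A.D.phi (σ.1.take A.p0)) + A.nu2 (σ.1.take A.p0))

def Leg1 (s : List α) (t : ℕ) : Prop :=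
  A.Nxt A.p0 s t ∧ ∀ τ, τ < t → A.ro.R (s.drop τ) →
    τ + A.p0 + A.N1 < A.th ((τ + A.p0) % A.D.q)

def R1 (D1 : ℕ) : Set (List α) :=
  {s | s.length = D1 ∧ ∃ tb : ℕ × V, A.Leg1 s tb.1 ∧ A.D.RR (s.take tb.1) tb.2}

open Classical in
noncomputable def c1 (s : List α) : List α × V :=
  if h : ∃ tb : ℕ × V, A.Leg1 s tb.1 ∧ A.D.RR (s.take tb.1) tb.2 then
    run A.step ([], h.choose.2) (s.drop h.choose.1) else ([], 0)

noncomputable def Lvl1 (D1 : ℕ) : Level α (List α × V) := ⟨A.Lg1, A.R1 D1, A.c1⟩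

/-- promise -/
def Prom (e b : ℕ) (σ : List α × V) (w : List α) : Prop := A.Inv σ ∧ RF e b (σ.1 ++ w)

theorem Prom.pre {e b : ℕ} {σ : List α × V} {u v : List α} (h : A.Prom e b σ (u ++ v)) :
    A.Prom e b σ u :=
  ⟨h.1, h.2.infix (by rw [← List.append_assoc]; exact (List.prefix_append _ _).isInfix)⟩

theorem step_suffix (σ : List α × V) (a : α) : (A.step σ a).1 <:+ σ.1 ++ [a] := by
  obtain ⟨u, v⟩ := σ
  by_cases h1 : ∃ d', A.Nxt 0 (u ++ [a]) d'
  · obtain ⟨d', hd'⟩ := h1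
    rw [A.step_of hd']
    exact List.drop_suffix _ _
  · push Not at h1
    rw [A.step_not h1]

theorem run_suffix : ∀ (w : List α) (σ : List α × V), (run A.step σ w).1 <:+ σ.1 ++ w := by
  intro w
  induction w with
  | nil => intro σ; simp [run]
  | cons a w ih =>
    intro σ
    have h1 : run A.step σ (a :: w) = run A.step (A.step σ a) w := by simp [run]
    rw [h1]
    refine (ih (A.step σ a)).trans ?_
    obtain ⟨x, hx⟩ := A.step_suffix σ a
    refine ⟨x, ?_⟩
    rw [← List.append_assoc, hx]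
    simp

theorem Prom.run {e b : ℕ} {σ : List α × V} {p w : List α} (h : A.Prom e b σ (p ++ w)) :
    A.Prom e b (run A.step σ p) w := by
  refine ⟨A.inv_run p σ h.1, h.2.infix ?_⟩
  obtain ⟨x, hx⟩ := A.run_suffix p σ
  refine ⟨x, [], ?_⟩
  rw [← List.append_assoc, hx]
  simp

/-- the junction lemma at places of window 1 -/
theorem jun1 {u s : List α} {om t : ℕ} (hu : u.length = A.p0 + A.D.q * om)
    (hom : A.D.q * om ≤ A.N1) (h : A.Leg1 s t) : A.Nxt 0 (u ++ s) (u.length + t) := by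
  have hm := A.hmin
  rw [A.nxt_shift (by omega)]
  have hmod : ∀ t', (t' + (0 + u.length)) % A.D.q = (t' + A.p0) % A.D.q := by
    intro t'
    rw [hu, show t' + (0 + (A.p0 + A.D.q * om)) = t' + A.p0 + A.D.q * om by omega,
      Nat.add_mul_mod_self_left]
  refine ⟨⟨h.1.1.1, ?_⟩, ?_⟩
  · rw [hmod]
    have := h.1.1.2
    omega
  · intro t' ht' hq
    have h1 := hq.2
    rw [hmod] at h1
    have := h.2 t' ht' hq.1
    omega

/-- effect of crossing the junction, scheme 1 -/
theorem cross1 (hN1 : A.D.N1) (hN2 : A.D.N2) {u s : List α} {v b : V} {t : ℕ}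
    (hi : A.Inv (u, v)) (hL : A.Lg1 (u, v)) (h : A.Leg1 s t) (hR : A.D.RR (s.take t) b) :
    run A.step (u, v) s = run A.step ([], b) (s.drop t) := by
  obtain ⟨h1, h2, h3⟩ := hL
  simp only at h1 h2 h3
  obtain ⟨om, hom⟩ : ∃ om, (u.drop A.p0).length = A.D.q * om := by
    obtain ⟨_, om, _, h4, _⟩ := h3
    exact ⟨om, h4⟩
  rw [List.length_drop] at hom
  have hj := A.jun1 (u := u) (om := om) (by omega) (by omega) h
  rw [A.run_zone v s u hi hj]
  have e1 : (u ++ s).drop (u.length + t) = s.drop t := drop_add u s t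
  have e2 : (u ++ s).take (u.length + t) = u ++ s.take t := by
    rw [List.take_length_add_append]
  rw [e1, e2]
  congr 2
  unfold T
  have e3 : (u ++ s.take t).take A.p0 = u.take A.p0 :=
    List.take_append_of_le_length h1
  have e4 : (u ++ s.take t).drop A.p0 = u.drop A.p0 ++ s.take t :=
    List.drop_append_of_le_length h1
  rw [e3, e4, ← A.D.sound hN1 hN2 h3 hR]

theorem ok1 [Finite α] (hN1 : A.D.N1) (hN2 : A.D.N2) {D1 : ℕ} (hD1 : 0 < D1) (e b : ℕ) :
    (A.Lvl1 D1).Ok A.step A.Inv (A.Prom e b) where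
  fin := (List.finite_length_eq α D1).subset fun s hs => hs.1
  ne := by
    intro s hs h
    have := hs.1
    rw [h] at this
    simp at this
    omega
  st := by
    intro s hs
    change A.Inv (A.c1 s)
    unfold c1
    split_ifs with h
    · exact A.inv_run _ _ (A.inv_short (by simp))
    · exact A.inv_short (by simp)
  closed := by
    intro σ hσ p s u hw hs hl
    have hP := Prom.run A (show A.Prom e b σ (p ++ (s ++ u)) by rw [← List.append_assoc]; exact hw)
    have hex := hs.2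
    have hc : (A.Lvl1 D1).c s = run A.step ([], hex.choose.2) (s.drop hex.choose.1) := by
      change A.c1 s = _
      unfold c1
      rw [dif_pos hex]
    have hrun : run A.step (run A.step σ p) s = (A.Lvl1 D1).c s := by
      rw [hc]
      have hspec := hex.choose_spec
      exact A.cross1 hN1 hN2 hP.1 hl hspec.1 hspec.2
    refine ⟨hrun, ?_⟩
    rw [← hrun]
    exact Prom.run A hP

/-- arithmetic of scheme 1 -/
structure Ar1 (e b Bz : ℕ) : Prop where
  hlo : ∀ i, i < A.D.m → A.D.A i + A.D.G + A.D.r.n ≤ A.D.q * A.D.lo i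
  hwin : ∀ i, i < A.D.m → A.D.q * (A.D.lo i + A.D.M) ≤ A.N1
  hAm : A.p0 + A.D.A A.D.m + A.D.G + A.D.r.n ≤ A.thmin
  small : ∀ Q : List α, RF e b Q → A.D.G + A.D.r.n ≤ Q.length → ∃ i < A.D.G, A.D.r.R (Q.drop i)
  zone : ∀ (c : ℕ) (Q : List α), c ≤ A.p0 → RF e b Q → Bz ≤ Q.length →
    ∃ d, A.Nxt c Q d ∧ d + A.ro.n ≤ Bz

/-- completeness of scheme 1 on a good zone -/
theorem cut1 (hN1 : A.D.N1) (hN2 : A.D.N2) (hN3 : A.D.N3) (hF : A.D.Hides) {e b Bz D1 : ℕ}
    (ar : A.Ar1 e b Bz) (hD1 : Bz ≤ D1) {Q : List α} {d : ℕ} (v : V) (hRF : RF e b Q)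
    (hd : A.Nxt 0 Q d) (hg : A.Gd 0 Q d) (hdB : d + A.ro.n ≤ Bz) (hlen : d + D1 ≤ Q.length) :
    ∃ x, A.p0 ≤ x ∧ x ≤ A.p0 + A.N1 ∧ A.Lg1 (Q.take x, v) ∧ (Q.drop x).take D1 ∈ A.R1 D1 := by
  classical
  obtain ⟨g1, g2, g3, g4⟩ := hg
  have hdge := hd.ge A
  have hm := A.hmin
  have hdn := hd.len A
  set Y := (Q.take d).drop A.p0 with hY
  have hYlen : Y.length = d - A.p0 := by
    rw [hY, List.length_drop, List.length_take]; omega
  have hmono := A.D.monoA
  -- small walls
  have hex : ∀ k, k ≤ A.D.m → ∃ H, FW A.D.r Y (A.D.A k) H ∧ H ≤ A.D.A k + A.D.G := by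
    intro k hk
    have hk' := hmono hk
    have h1 := ar.hAm
    have h2 : A.D.G + A.D.r.n ≤ (Y.drop (A.D.A k)).length := by
      rw [List.length_drop, hYlen]; omega
    have h3 : RF e b (Y.drop (A.D.A k)) :=
      RF.drop (by rw [hY]; exact RF.drop (RF.take hRF _) _) _
    obtain ⟨i, hi, hR⟩ := ar.small _ h3 h2
    rw [List.drop_drop] at hR
    have hex : ∃ t, A.D.A k ≤ t ∧ A.D.r.R (Y.drop t) := ⟨A.D.A k + i, by omega, hR⟩
    refine ⟨Nat.find hex, ⟨(Nat.find_spec hex).1, (Nat.find_spec hex).2, ?_⟩, ?_⟩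
    · intro t' h4 h5 h6
      exact Nat.find_min hex h5 ⟨h4, h6⟩
    · exact le_trans (Nat.find_min' hex ⟨by omega, hR⟩) (by omega)
  choose! H hH1 hH2 using hex
  have h3' : ¬ A.D.B (Y.length / A.D.q) := by rw [hYlen]; simpa using g3
  have h4' : ∀ k, k ≤ A.D.m → ∀ t, A.D.A k ≤ t + A.D.q * A.D.M →
      t < A.D.A k + A.D.q * A.D.M → ¬ A.D.r.R (Y.drop t) := by
    intro k hk t h5 h6
    have := g4 k hk t h5 h6
    rwa [Nat.sub_zero] at this
  have h5' : ∀ i, i < A.D.m → A.D.q * (A.D.lo i + A.D.M) ≤ Y.length := by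
    intro i hi
    have := ar.hwin i hi
    rw [hYlen]; omega
  obtain ⟨P, Qy, i, om, hYP, hi, hP, hl, hu, hLL, hRR⟩ :=
    A.D.complete' hN1 hN2 hN3 hF h3' H hH1 hH2 ar.hlo h4' h5'
      (A.D.act v (A.D.phi (Q.take A.p0)) + A.nu2 (Q.take A.p0))
  have hom : A.D.q * om ≤ A.N1 :=
    le_trans (Nat.mul_le_mul_left _ (by omega)) (ar.hwin i hi)
  set x := A.p0 + A.D.q * om with hx
  have hxd : x ≤ d := by omega
  have eX : (Q.take x).take A.p0 = Q.take A.p0 := by
    rw [List.take_take, min_eq_left (by omega)]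
  have eP : (Q.take x).drop A.p0 = P := by
    have h7 : (Q.take x).drop A.p0 = Y.take (A.D.q * om) := by
      rw [hY, List.drop_take, List.drop_take, List.take_take]
      congr 1
      omega
    rw [h7, hYP, ← hP, List.take_left]
  have eQ : (Q.drop x).take (d - x) = Qy := by
    have h7 : (Q.drop x).take (d - x) = Y.drop (A.D.q * om) := by
      rw [hY, List.drop_drop, List.drop_take]
    rw [h7, hYP, ← hP, List.drop_left]
  obtain ⟨bb, hbb⟩ : ∃ bb, A.D.RR Qy bb := ⟨_, hRR⟩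
  refine ⟨x, by omega, by omega, ⟨?_, ?_, ?_⟩, ?_, ⟨(d - x, bb), ⟨⟨⟨?_, ?_⟩, ?_⟩, ?_⟩, ?_⟩⟩
  · simp only [List.length_take]; omega
  · simp only [List.length_take]; omega
  · simp only
    rw [eX, eP]
    exact hLL
  · rw [List.length_take, List.length_drop]; omega
  · -- wall at d
    have h8 : ((Q.drop x).take D1).drop (d - x) = (Q.drop d).take (D1 - (d - x)) := by
      rw [List.drop_take, List.drop_drop]
      congr 2
      omega
    simp only
    rw [h8]
    have h9 := hd.1.1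
    rw [A.ro.take_iff] at h9 ⊢
    rw [List.take_take, min_eq_left (by omega)]
    exact h9
  · simp only
    have h10 : (d - x + A.p0) % A.D.q = (d + 0) % A.D.q := by
      have h11 : d + 0 = (d - x + A.p0) + A.D.q * om := by omega
      rw [h11, Nat.add_mul_mod_self_left]
    rw [h10]
    omega
  · simp only
    intro τ hτ hq
    have h12 : A.ro.R (Q.drop (x + τ)) := by
      have h13 := hq.1
      rw [List.drop_take, List.drop_drop] at h13
      rw [A.ro.take_iff] at h13 ⊢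
      rw [List.take_take] at h13
      rwa [min_eq_left (by omega)] at h13
    have h14 := g1 (x + τ) (by omega) h12
    have h15 : (x + τ + 0) % A.D.q = (τ + A.p0) % A.D.q := by
      rw [show x + τ + 0 = τ + A.p0 + A.D.q * om by omega, Nat.add_mul_mod_self_left]
    rw [h15] at h14
    have := hq.2
    omega
  · simp only
    intro τ hτ hq
    have h12 : A.ro.R (Q.drop (x + τ)) := by
      have h13 := hq
      rw [List.drop_take, List.drop_drop] at h13
      rw [A.ro.take_iff] at h13 ⊢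
      rw [List.take_take] at h13
      rwa [min_eq_left (by omega)] at h13
    have h14 := g1 (x + τ) (by omega) h12
    have h15 : (x + τ + 0) % A.D.q = (τ + A.p0) % A.D.q := by
      rw [show x + τ + 0 = τ + A.p0 + A.D.q * om by omega, Nat.add_mul_mod_self_left]
    rw [h15] at h14
    omega
  · simp only
    rw [List.take_take, min_eq_left (by omega), eQ]
    exact hbb

end Par

end Crest.Agent.R320.H1_884
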