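import Crest.Agent.R320.H1a_992

set_option autoImplicit false

namespace Crest.Agent.R320.H1a_992

open Crest.Agent.R320.Gad1_420 (Rule)
open Crest.Agent.R320

variable {α S V : Type} {O : Out α}
variable {pr : List α → S} {act : V → S → V} [AddCommGroup V] {nu1 nu2 : List α → V}
variable {RF : List α → Prop} (H : Hyp O pr act nu1 nu2 RF)

local notation "ZZ" => Z O pr act nu1 nu2
local notation "stp'" => stepZ (O := O) (pr := pr) (act := act) (nu1 := nu1) (nu2 := nu2)
local notation "St'" => St (O := O) (pr := pr) (act := act) (nu1 := nu1) (nu2 := nu2)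

theorem dd (l : List α) {i j k : ℕ} (h : i + j = k) : l.drop k = (l.drop i).drop j := by
  rw [List.drop_drop, h]

theorem cut1 {q : List α × V} (hq : (ZZ).nxt q.1 = none) {w : List α} (hRF : RF (q.1 ++ w))
    (hlen : q.1.length ≤ O.p0) (hbig : O.p0 + O.N1 + H.D1 ≤ (q.1 ++ w).length)
    (hb : ¬ H.Bad ((q.1 ++ w).drop O.p0)) : Nest_85.Cut stp' (L1 H) q w := by
  set X := q.1 ++ w with hX
  have hRFY : RF (X.drop O.p0) := H.RFi _ _ hRF (List.drop_suffix _ _).isInfix
  obtain ⟨P, r, hPr, hL, s, R, hs, hR⟩ := H.comp1 (X.drop O.p0) hRFY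
    (by rw [List.length_drop]; omega) hb (act q.2 (pr (X.take O.p0)) + nu2 (X.take O.p0))
  obtain ⟨-, hPN⟩ := H.g1' _ _ hL
  have hlenY : P.length + r.length = X.length - O.p0 := by
    rw [← List.length_append, hPr, List.length_drop]
  have hXr : X.take O.p0 ++ (P ++ r) = X := by rw [hPr, List.take_append_drop]
  have htake : X.take (O.p0 + P.length) = X.take O.p0 ++ P := by
    conv_lhs => rw [← hXr]
    rw [← List.append_assoc, List.take_append_of_le_length]
    · rw [List.take_of_length_le]
      rw [List.length_append, List.length_take]; omega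
    · rw [List.length_append, List.length_take]; omega
  have hqp : q.1 ++ w.take (O.p0 + P.length - q.1.length) = X.take (O.p0 + P.length) := by
    rw [hX, List.take_append, List.take_of_length_le (l := q.1) (by omega)]
  have hdropX : X.drop (O.p0 + P.length) = r := by
    rw [← List.drop_drop, ← hPr]
    simp
  have hw : w.drop (O.p0 + P.length - q.1.length) = r := by
    rw [← hdropX, hX, List.drop_append, List.drop_of_length_le (l := q.1) (by omega),
      List.nil_append]
  refine ⟨w.take (O.p0 + P.length - q.1.length), r.take H.D1, r.drop H.D1, ?_, ?_, ?_⟩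
  · rw [List.append_assoc, List.take_append_drop, ← hw, List.take_append_drop]
  · refine ⟨?_, (s, R), hs, hR⟩
    rw [List.length_take]; omega
  · rw [run_eq hq, hqp]
    have hl2 : (X.take (O.p0 + P.length)).length = O.p0 + P.length := by
      rw [List.length_take]; omega
    rw [Zone_716.run_none ZZ (nxt_none_of_short (by omega))]
    refine ⟨by change O.p0 ≤ (X.take (O.p0 + P.length)).length; omega, ?_⟩
    change H.Lf ((X.take (O.p0 + P.length)).drop O.p0) =
      some (act q.2 (pr ((X.take (O.p0 + P.length)).take O.p0)) +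
        nu2 ((X.take (O.p0 + P.length)).take O.p0))
    rw [List.take_take, min_eq_left (by omega), htake, List.drop_append,
      List.drop_of_length_le (l := X.take O.p0) (by rw [List.length_take]; omega)]
    have : O.p0 - (X.take O.p0).length = 0 := by rw [List.length_take]; omega
    rw [this]
    simpa using hL

theorem ok2 [Finite α] : (L2 H).Ok stp' St'
    (fun q w => Prom RF q w ∧ ¬ Nest_85.Cut stp' (L1 H) q w) := by
  refine ⟨?_, ?_, ?_, ?_⟩
  · exact (List.finite_length_eq α H.D2).subset fun r hr => hr.1
  · intro s hs h0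
    have := hs.1
    rw [h0] at this
    simp only [List.length_nil] at this
    have := H.D1pos
    have := H.hD2
    omega
  · intro s hs
    have h := hs.2
    change (ZZ).nxt (((L2 H).c s).1) = none
    unfold L2
    simp only
    rw [dif_pos h]
    exact Zone_716.nxt_run ZZ _ _
  · intro q hq p s u hP hs hl
    obtain ⟨hP, hnc⟩ := hP
    have h := hs.2
    rw [run_eq hq p] at hl ⊢
    have hnc' : ¬ Nest_85.Cut stp' (L1 H) (Zone_716.run ZZ q.2 (q.1 ++ p)) (s ++ u) := by
      intro hc
      apply hnc
      rw [List.append_assoc]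
      apply Nest_85.Cut.prepend
      rw [run_eq hq p]
      exact hc
    set q' := Zone_716.run ZZ q.2 (q.1 ++ p) with hq'
    have hn : (ZZ).nxt q'.1 = none := Zone_716.nxt_run ZZ _ _
    have hsuf : q'.1 <:+ q.1 ++ p := Zone_716.run_suffix ZZ _ _
    obtain ⟨k, hk, hkl, hlam⟩ := hl
    have hD2 := H.hD2
    have hslen : s.length = H.D2 := hs.1
    have hplp := H.plp k hk
    have hRF' : RF (q'.1 ++ (s ++ u)) := by
      refine H.RFi _ _ hP ?_
      obtain ⟨x, hx⟩ := hsuf
      refine ⟨x, [], ?_⟩
      rw [List.append_nil, ← List.append_assoc, hx]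
      simp
    have hbad : H.Bad ((q'.1 ++ (s ++ u)).drop O.p0) := by
      by_contra hb
      refine hnc' (cut1 H hn hRF' (by omega) ?_ hb)
      simp only [List.length_append]
      omega
    have hdrop : ∀ y : List α, (q'.1 ++ y).drop O.p0 = y.drop (O.p0 - H.pl k) := by
      intro y
      rw [List.drop_append, List.drop_of_length_le (l := q'.1) (by omega), List.nil_append, hkl]
    have hbad2 : H.Bad (s.drop (O.p0 - H.pl k)) := by
      rw [hdrop, List.drop_append_of_le_length (by omega)] at hbad
      exact (H.bad_app _ _ (by rw [List.length_drop]; omega)).1 hbad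
    have hc := h.choose_spec
    set a := h.choose with ha
    obtain ⟨a1, a2, a3, a4, a5⟩ := hc
    have hka : k = a.1 := by
      by_contra hne
      exact a3 k hk hne hbad2
    rw [← hka] at a4 a5
    have hnY : nY O ((q'.1 ++ s).drop O.p0) = some a.2.1 := by rw [hdrop]; exact a4
    have hnx : (ZZ).nxt (q'.1 ++ s) = some (q'.1.length + (O.p0 - H.pl k + a.2.1)) := by
      rw [nxt_eq hnY]
      congr 1
      omega
    have hX0 : (q'.1 ++ s).take O.p0 = q'.1 ++ s.take (O.p0 - H.pl k) := by
      rw [List.take_append, List.take_of_length_le (l := q'.1) (by omega), hkl]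
    have hval : (ZZ).stp q'.2 (q'.1 ++ s) =
        act a.2.2 (pr ((s.drop (O.p0 - H.pl k)).take a.2.1)) +
          nu1 ((s.drop (O.p0 - H.pl k)).take a.2.1) := by
      rw [stp_eq hnY, hdrop, hX0]
      unfold zmap
      rw [← H.g2 k hk _ _ _ _ hkl hlam a5]
    have hcut := Zone_716.cut ZZ q'.1 s q'.2 _ _ hn hnx hval
    have hcs : (L2 H).c s = Zone_716.run ZZ
        (act a.2.2 (pr ((s.drop (O.p0 - H.pl k)).take a.2.1)) +
          nu1 ((s.drop (O.p0 - H.pl k)).take a.2.1))
        (s.drop (O.p0 - H.pl k + a.2.1)) := by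
      unfold L2
      simp only
      rw [dif_pos h, hka]
    have hRF2 : RF (((L2 H).c s).1 ++ u) := by
      rw [hcs]
      refine prom_next H hP ?_
      refine (Zone_716.run_suffix ZZ _ _).trans ?_
      refine (List.drop_suffix _ _).trans ?_
      exact ⟨q.1 ++ p, by simp⟩
    have hrun : Nest_85.run stp' q' s = (L2 H).c s := by
      rw [hcs, ← hcut]
      rfl
    refine ⟨hrun, hRF2, ?_⟩
    intro hc
    apply hnc'
    apply Nest_85.Cut.prepend
    rw [hrun]
    exact hc

theorem short {q : List α × V} (hq : (ZZ).nxt q.1 = none) {w : List α} (hRF : RF (q.1 ++ w))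
    (h1 : ¬ Nest_85.Cut stp' (L1 H) q w) (h2 : ¬ Nest_85.Cut stp' (L2 H) q w) :
    w.length < 2 * O.p0 + H.By + H.D2 := by
  by_contra hlong
  have hD2 := H.hD2
  have hnop := H.nop
  set X := q.1 ++ w with hX
  have hXl : X.length = q.1.length + w.length := by rw [hX, List.length_append]
  obtain ⟨t, ht, htB⟩ := H.ex (X.drop O.p0) (H.RFi _ _ hRF (List.drop_suffix _ _).isInfix)
    (by rw [List.length_drop]; omega)
  have hbn : (ZZ).nxt X = some (O.p0 + t) := nxt_eq ht
  set b := O.p0 + t with hb
  have hlt : q.1.length < b + O.no := by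
    by_contra hge
    have hle : O.p0 ≤ q.1.length := by omega
    rw [hX, List.drop_append_of_le_length hle] at ht
    have := (nY_app_iff (by rw [List.length_drop]; omega)).1 ht
    rw [nxt_eq this] at hq
    cases hq
  set X2 := X.drop b with hX2
  set v2 := (ZZ).stp q.2 X with hv2
  have hX2l : X2.length = X.length - b := by rw [hX2, List.length_drop]
  have hRF2 : RF X2 := H.RFi _ _ hRF (List.drop_suffix _ _).isInfix
  set w1 := w.take (b + O.no - q.1.length) with hw1
  have hqw : q.1 ++ w1 = X.take (b + O.no) := by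
    rw [hX, List.take_append, List.take_of_length_le (l := q.1) (by omega)]
  have hwr : w.drop (b + O.no - q.1.length) = X2.drop O.no := by
    rw [hX2, List.drop_drop, hX, List.drop_append,
      List.drop_of_length_le (l := q.1) (by omega), List.nil_append]
  have hww : w1 ++ X2.drop O.no = w := by rw [← hwr, hw1, List.take_append_drop]
  have hnx1 : (ZZ).nxt (X.take (b + O.no)) = some b := by
    have e1 : (X.take (b + O.no)).drop O.p0 ++ X.drop (b + O.no) = X.drop O.p0 := by
      rw [← List.drop_append_of_le_length, List.take_append_drop]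
      rw [List.length_take]; omega
    rw [← e1] at ht
    exact nxt_eq ((nY_app_iff (by rw [List.length_drop, List.length_take]; omega)).1 ht)
  have hst : (ZZ).stp q.2 (X.take (b + O.no)) = v2 := by
    have := (ZZ).stp_mono q.2 (X.take (b + O.no)) (X.drop (b + O.no)) b hnx1
    rw [List.take_append_drop] at this
    exact this.symm
  have hdt : (X.take (b + O.no)).drop b = X2.take O.no := by
    rw [hX2, List.drop_take]
    congr 1
    omega
  have hrun : Nest_85.run stp' q w1 = (X2.take O.no, v2) := by
    rw [run_eq hq, hqw, Zone_716.run_some ZZ hnx1, hst, hdt,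
      Zone_716.run_none ZZ (nxt_none_of_short (by rw [List.length_take]; omega))]
  have hn2 : (ZZ).nxt (X2.take O.no) = none :=
    nxt_none_of_short (by rw [List.length_take]; omega)
  have hsplit : X2.take O.no ++ X2.drop O.no = X2 := List.take_append_drop _ _
  by_cases hbad : H.Bad (X2.drop O.p0)
  · obtain ⟨k, hk, hlam, huniq, bb, hrho⟩ := H.comp2 X2 hRF2 (by omega) hbad v2
    have hplp := H.plp k hk
    have hplno := H.plno k hk
    apply h2
    rw [← hww]
    apply Nest_85.Cut.prepend
    rw [hrun]
    set s := (X2.drop (H.pl k)).take H.D2 with hs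
    have hsl : s.length = H.D2 := by
      rw [hs, List.length_take, List.length_drop]; omega
    have hdk : ∀ y, y ≤ O.p0 → (X2.drop (H.pl k)).drop y =
        s.drop y ++ (X2.drop (H.pl k)).drop H.D2 := by
      intro y hy
      rw [← List.drop_append_of_le_length (by omega), hs, List.take_append_drop]
    have hRFs : RF s := H.RFi _ _ hRF2
      ((List.take_prefix _ _).isInfix.trans (List.drop_suffix _ _).isInfix)
    refine ⟨(X2.drop O.no).take (H.pl k - O.no), s, (X2.drop (H.pl k)).drop H.D2, ?_, ?_, ?_⟩
    · rw [List.append_assoc, hs, List.take_append_drop]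
      rw [dd X2 (show O.no + (H.pl k - O.no) = H.pl k by omega), List.take_append_drop]
    · obtain ⟨t', ht', htB'⟩ := H.ex (s.drop (O.p0 - H.pl k))
        (H.RFi _ _ hRFs (List.drop_suffix _ _).isInfix) (by rw [List.length_drop]; omega)
      refine ⟨hsl, (k, t', bb), hk, ?_, ?_, ht', ?_⟩
      · rw [dd X2 (show H.pl k + (O.p0 - H.pl k) = O.p0 by omega), hdk _ (by omega)] at hbad
        exact (H.bad_app _ _ (by rw [List.length_drop]; omega)).1 hbad
      · intro k' hk' hne hb'
        apply huniq k' hk' hne
        rw [hdk _ (by omega)]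
        exact (H.bad_app _ _ (by rw [List.length_drop]; omega)).2 hb'
      · have e : (X2.drop (H.pl k)).take (O.p0 - H.pl k) = s.take (O.p0 - H.pl k) := by
          rw [hs, List.take_take, min_eq_left (by omega)]
        rw [← e]
        exact hrho
    · rw [run_eq hn2]
      have e : X2.take O.no ++ (X2.drop O.no).take (H.pl k - O.no) = X2.take (H.pl k) := by
        have := List.take_add (l := X2) (i := O.no) (j := H.pl k - O.no)
        rw [← this]
        congr 1
        omega
      change ∃ k' < H.K, _
      rw [e, Zone_716.run_none ZZ (nxt_none_of_short (by rw [List.length_take]; omega))]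
      exact ⟨k, hk, by rw [List.length_take]; omega, hlam⟩
  · apply h1
    rw [← hww]
    apply Nest_85.Cut.prepend
    rw [hrun]
    refine cut1 H hn2 ?_ (by rw [List.length_take]; omega) ?_ ?_
    · change RF (X2.take O.no ++ X2.drop O.no)
      rw [hsplit]; exact hRF2
    · change _ ≤ (X2.take O.no ++ X2.drop O.no).length
      rw [hsplit]; omega
    · change ¬ H.Bad ((X2.take O.no ++ X2.drop O.no).drop O.p0)
      rw [hsplit]; exact hbad

/-- two stars: every property of the state reached is computed at height 2 on `RF`. -/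
theorem two [Finite α] (H : Hyp O pr act nu1 nu2 RF) :
    ∀ q, St' q → ∀ T : List α × V → Prop, ∃ E : Language α, Hgt1_903.H 2 E ∧
      ∀ w, RF (q.1 ++ w) → (w ∈ E ↔ T (Nest_85.run stp' q w)) := by
  have pre : ∀ (q : List α × V) (u v : List α), Prom RF q (u ++ v) → Prom RF q u := by
    intro q u v h
    refine H.RFi _ _ h ?_
    exact ⟨[], v, by simp⟩
  have inner := Nest_85.nest stp' St' (fun q w => Prom RF q w ∧ ¬ Nest_85.Cut stp' (L1 H) q w)
    (fun q u v h => ⟨pre q u v h.1, fun hc => h.2 hc.append⟩) (L2 H) (ok2 H) 0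
    (fun _ => True) trivial
    (fun q hq T _ => ⟨({w | (Prom RF q w ∧ ¬ Nest_85.Cut stp' (L1 H) q w ∧
        ¬ Nest_85.Cut stp' (L2 H) q w) ∧ T (Nest_85.run stp' q w)} : Language α),
      Hgt1_903.H.finite 0 ((List.finite_length_le α (2 * O.p0 + H.By + H.D2)).subset
        fun w hw => (short H hq hw.1.1 hw.1.2.1 hw.1.2.2).le),
      fun w hw hc => ⟨fun h => h.2, fun h => ⟨⟨hw.1, hw.2, hc⟩, h⟩⟩⟩)
  have ok1' := (ok1 H).resolve_right (fun h => h inferInstance)
  have outer := Nest_85.nest stp' St' (Prom RF) pre (L1 H) ok1' 1 (fun _ => True) trivial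
    (fun q hq T hT => by
      obtain ⟨E, h1, h2⟩ := inner q hq T hT
      exact ⟨E, h1, fun w hw hc => h2 w ⟨hw, hc⟩⟩)
  intro q hq T
  exact outer q hq T trivial

end Crest.Agent.R320.H1a_992
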