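import Crest.Agent.R320.H1a_996

/-!
Row 320, HALF 1 in the block calculus (helper996): the promise step (one star) and the fibre step.
-/

set_option autoImplicit false

namespace Crest.Agent.R320.H1_996

open Crest.RegLang Crest.Agent.R320.Hk_851 Crest.Agent.R320.Blk467

variable {α : Type} {k : ℕ}

theorem HL_len [Finite α] (p : List α → Prop) (B : ℕ) (h : ∀ w, p w → w.length ≤ B) :
    HL k ({w | p w} : Language α) :=
  HL.finite (s := {w | p w}) ((List.finite_length_le α B).subset fun w hw => h w hw)

/-- the promise step: labels exact when the block is in `Bad` -/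
theorem promise_cmp {V : Type} [Finite V] [Finite α] (C Bad G : Set (List α))
    (T : V → List α → V) (Bd n0 : ℕ) (hBC : Bad ⊆ C) (hC : PCode C)
    (hBd : ∀ X ∈ Bad, X.length ≤ Bd)
    (hG : ∀ u w : List α, u <:+: w → w ∈ G → u ∈ G)
    (lam : List α → V → Prop) (rd : List α → ℕ → V → Prop)
    (hext : ∀ y y' d r, rd y d r → rd (y ++ y') d r)
    (hvis : ∀ y d r, rd y d r → d ≤ y.length)
    (hshort : ∀ P v, lam P v → ∀ X ∈ Bad, P.length ≤ X.length)
    (hlong : ∀ P v, lam P v → n0 ≤ P.length)
    (sound : ∀ X ∈ Bad, ∀ P Q y v d r, P ++ Q = X → lam P v → rd (Q ++ y) d r →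
      d = Q.length ∧ r = T v X)
    (compl : ∀ X ∈ Bad, ∀ X' ∈ Bad, X ++ X' ∈ G → ∀ v, ∃ P Q r, P ++ Q = X ∧ lam P v ∧
      rd (Q ++ X'.take n0) Q.length r) :
    Cmp 1 C Bad G T := by
  classical
  have hU : UParse Bad := (PCode.mono hBC hC).uparse
  intro v v'
  let K : Language α := {x | x.length ≤ 2 * Bd ∧ ∃ d r, rd x d r ∧ lam (x.drop d) r}
  let St : V → Language α := fun v => {x | x.length ≤ Bd ∧ lam x v}
  let En : V → Language α := fun v' => {y | y.length ≤ 2 * Bd ∧ ∃ d r, rd y d r ∧
    y.drop d ∈ Bad ∧ T r (y.drop d) = v'}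
  have hKs : HL 1 (KStar.kstar K) := HL.star (k := 0) (HL_len _ (2 * Bd) fun w h => h.1)
  have hBs : HL 1 (KStar.kstar (Bad : Language α)) :=
    HL.star (k := 0) (HL_len (fun w => w ∈ Bad) Bd hBd)
  have h1 : HL 1 ({w | (w = [] ∧ v = v') ∨ (w ∈ Bad ∧ T v w = v')} : Language α) :=
    HL_len _ Bd (by
      rintro w (⟨rfl, -⟩ | ⟨h, -⟩)
      · simp
      · exact hBd _ h)
  refine ⟨_, h1.add (hBs.inf (((HL_len (k := 1) _ Bd fun w h => h.1 : HL 1 (St v)).mul hKs).mul
    (HL_len (k := 1) _ (2 * Bd) fun w h => h.1 : HL 1 (En v')))), ?_, ?_⟩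
  · -- sound
    have main : ∀ (ks : List (List α)) (l : List (List α)) (v : V) (P y : List α),
        (∀ X ∈ l, X ∈ Bad) → (∀ x ∈ ks, x ∈ K) → lam P v → y ∈ En v' →
        l.flatten = P ++ (ks.flatten ++ y) → l.foldl T v = v' := by
      intro ks
      induction ks with
      | nil =>
        intro l v P y hl _ hP hy e
        obtain ⟨hyl, d, r, hrd, hyB, hT⟩ := hy
        rw [List.flatten_nil, List.nil_append] at e
        have hyne : y.drop d ≠ [] := fun h => hC.1 (hBC (h ▸ hyB))
        cases l with
        | nil =>
          exfalso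
          have : y = [] := by
            have := (List.append_eq_nil_iff.1 e.symm).2
            exact this
          rw [this] at hyne; simp at hyne
        | cons X l =>
          have hX := hl X (by simp)
          have hlen := hshort P v hP X hX
          have hpre : P <+: X := by
            rw [List.flatten_cons] at e
            exact List.prefix_of_prefix_length_le ⟨_, e.symm⟩ (List.prefix_append X _) hlen
          obtain ⟨Q, rfl⟩ := hpre
          rw [List.flatten_cons, List.append_assoc] at e
          have e1 : Q ++ l.flatten = y := List.append_cancel_left e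
          obtain ⟨hd, hr⟩ := sound _ hX P Q l.flatten v d r rfl hP (by rw [e1]; exact hrd)
          have e2 : y.drop d = l.flatten := by rw [← e1, hd]; simp
          have e3 : l = [y.drop d] := hU _ _ (fun Y hY => hl Y (by simp [hY]))
            (by simpa using hyB) (by simp [e2])
          rw [List.foldl_cons, e3, ← hr]
          simpa using hT
      | cons x ks ih =>
        intro l v P y hl hks hP hy e
        have hx : x ∈ K := hks x (by simp)
        obtain ⟨hxl, d, r, hrd, hlx⟩ := hx
        have hdx := hvis _ _ _ hrd
        cases l with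
        | nil =>
          exfalso
          obtain ⟨hyl, d', r', hrd', hyB, hT⟩ := hy
          have hyne : y.drop d' ≠ [] := fun h => hC.1 (hBC (h ▸ hyB))
          have h0 : y = [] := by
            have h2 := (List.append_eq_nil_iff.1 e.symm).2
            exact (List.append_eq_nil_iff.1 h2).2
          rw [h0] at hyne; simp at hyne
        | cons X l =>
          have hX := hl X (by simp)
          have hlen := hshort P v hP X hX
          have hpre : P <+: X := by
            rw [List.flatten_cons] at e
            exact List.prefix_of_prefix_length_le ⟨_, e.symm⟩ (List.prefix_append X _) hlen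
          obtain ⟨Q, rfl⟩ := hpre
          rw [List.flatten_cons, List.append_assoc] at e
          have e1 : Q ++ l.flatten = (x :: ks).flatten ++ y := List.append_cancel_left e
          have e1' : Q ++ l.flatten = x ++ (ks.flatten ++ y) := by
            rw [e1, List.flatten_cons, List.append_assoc]
          obtain ⟨hd, hr⟩ := sound _ hX P Q l.flatten v d r rfl hP
            (by rw [e1']; exact hext _ _ _ _ hrd)
          have e2 : l.flatten = x.drop d ++ (ks.flatten ++ y) := by
            have := congrArg (List.drop d) e1'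
            rw [List.drop_append_of_le_length hdx] at this
            rw [← this, hd]; simp
          rw [List.foldl_cons, ← hr]
          exact ih l r (x.drop d) y (fun Y hY => hl Y (by simp [hY]))
            (fun z hz => hks z (by simp [hz])) hlx hy e2
    intro w hw
    rcases hw with h | h
    · rcases h with ⟨rfl, rfl⟩ | ⟨h, rfl⟩
      · exact Lg.nil _ _ _
      · exact Lg.single (hBC h) v
    · obtain ⟨hwB, hw⟩ := h
      obtain ⟨l, rfl, hl⟩ := Language.mem_kstar.1 hwB
      obtain ⟨x, hx, y, hy, z, hz, e⟩ := mem_mul3.1 hw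
      obtain ⟨ks, rfl, hks⟩ := Language.mem_kstar.1 hy
      refine ⟨l, fun X hX => hBC (hl X hX), rfl, main ks l v x z hl hks hx.2 hz ?_⟩
      rw [← e, List.append_assoc]
  · -- complete
    intro l hl hlG hf
    have main : ∀ (l : List (List α)) (v : V) (X : List α), l ≠ [] → (∀ Y ∈ X :: l, Y ∈ Bad) →
        (X :: l).flatten ∈ G → (X :: l).foldl T v = v' →
        ∃ P ∈ St v, ∃ ks : List (List α), (∀ x ∈ ks, x ∈ K) ∧ ∃ y ∈ En v',
          P ++ ks.flatten ++ y = (X :: l).flatten := by
      intro l
      induction l with
      | nil => intro v X h; exact absurd rfl h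
      | cons X' l ih =>
        intro v X _ hl hlG hf
        have hX := hl X (by simp)
        have hX' := hl X' (by simp)
        have hXX : X ++ X' ∈ G := hG _ _ ⟨[], l.flatten, by simp⟩ hlG
        obtain ⟨P, Q, r, hPQ, hP, hrd⟩ := compl X hX X' hX' hXX v
        obtain ⟨-, hr⟩ := sound X hX P Q (X'.take n0) v Q.length r hPQ hP hrd
        have hPl : P.length ≤ Bd := (hshort P v hP X hX).trans (hBd X hX)
        have hQl : Q.length ≤ Bd := by
          have := hBd X hX
          rw [← hPQ, List.length_append] at this
          omega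
        by_cases hl0 : l = []
        · subst hl0
          refine ⟨P, ⟨hPl, hP⟩, [], by simp, Q ++ X', ⟨?_, Q.length, r, ?_, by simpa using hX', ?_⟩,
            ?_⟩
          · rw [List.length_append]; have := hBd X' hX'; omega
          · have := hext _ (X'.drop n0) _ _ hrd
            rwa [List.append_assoc, List.take_append_drop] at this
          · simp only [List.drop_left]
            rw [hr]; simpa using hf
          · simp [← hPQ]
        · obtain ⟨P', hP', ks, hks, y, hy, e⟩ := ih (T v X) X' hl0 (fun Y hY => hl Y
            (List.mem_cons_of_mem _ hY)) (hG _ _ ⟨X, [], by simp⟩ hlG) (by simpa using hf)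
          have hlen := hshort P' _ hP'.2 X' hX'
          have hn0 := hlong P' _ hP'.2
          have hpre : P' <+: X' := by
            refine List.prefix_of_prefix_length_le (l₃ := (X' :: l).flatten) ⟨ks.flatten ++ y, ?_⟩
              ⟨l.flatten, by simp⟩ hlen
            rw [← e, List.append_assoc]
          have htake : X'.take n0 = P'.take n0 := by
            obtain ⟨Z, rfl⟩ := hpre
            rw [List.take_append_of_le_length hn0]
          refine ⟨P, ⟨hPl, hP⟩, (Q ++ P') :: ks, ?_, y, hy, ?_⟩
          · intro x hx
            rcases List.mem_cons.1 hx with rfl | hx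
            · refine ⟨?_, Q.length, r, ?_, ?_⟩
              · rw [List.length_append]; have := hP'.1; omega
              · have := hext _ (P'.drop n0) _ _ hrd
                rwa [htake, List.append_assoc, List.take_append_drop] at this
              · rw [List.drop_left, hr]; exact hP'.2
            · exact hks x hx
          · rw [List.flatten_cons (l := X), ← e, ← hPQ]
            simp [List.append_assoc]
    cases l with
    | nil =>
      left; left
      exact ⟨rfl, hf⟩
    | cons X l =>
      by_cases hl0 : l = []
      · subst hl0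
        left; right
        exact ⟨by simpa using hl X (by simp), by simpa using hf⟩
      · right
        obtain ⟨P, hP, ks, hks, y, hy, e⟩ := main l v X hl0 hl hlG hf
        refine ⟨Language.mem_kstar.2 ⟨X :: l, rfl, hl⟩, ?_⟩
        exact mem_mul3.2 ⟨P, hP, ks.flatten, Language.mem_kstar.2 ⟨ks, rfl, hks⟩, y, hy, e⟩

/-- the fibre step -/
theorem fibre_cmp {Γ V V2 : Type} [Monoid Γ] [Finite Γ] [Finite V2] [AddCommGroup V2]
    (C Bad G : Set (List α)) (hC : PCode C) (hBC : Bad ⊆ C) (γ : List α → Γ)
    (ap : V → Γ → V) (hap1 : ∀ v, ap v 1 = v) (hapm : ∀ v g h, ap v (g * h) = ap (ap v g) h)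
    (T : V → List α → V) (hT : ∀ v X, T v X = ap v (γ X))
    (act : V2 → Γ → V2) (hadd : ∀ a b s, act (a + b) s = act a s + act b s)
    (hone : ∀ v, act v 1 = v) (hmul : ∀ v s t, act v (s * t) = act (act v s) t)
    (hfaith : ∀ s t, (∀ v, act v s = act v t) → s = t) (nu : List α → V2)
    (h : Cmp k C Bad G (fun v X => act v (γ X) + nu X)) : Cmp k C Bad G T := by
  classical
  choose E hE1 hE2 hE3 using h
  have hU : UParse C := hC.uparse
  have aff : ∀ (l : List (List α)) (a b : V2),
      l.foldl (fun v X => act v (γ X) + nu X) (a + b) =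
        act a (l.map γ).prod + l.foldl (fun v X => act v (γ X) + nu X) b := by
    intro l
    induction l with
    | nil => intro a b; simp [hone]
    | cons X l ih =>
      intro a b
      rw [List.foldl_cons, List.foldl_cons, hadd, add_assoc, ih, List.map_cons, List.prod_cons,
        hmul]
  have hfT : ∀ (l : List (List α)) (v : V), l.foldl T v = ap v (l.map γ).prod := by
    intro l
    induction l with
    | nil => intro v; simp [hap1]
    | cons X l ih => intro v; rw [List.foldl_cons, ih, List.map_cons, List.prod_cons, hapm, hT]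
  intro v v'
  have key : HL k ({w | ∃ g : {g : Γ // ap v g = v'}, ∀ a : V2, ∃ c : V2,
      w ∈ (E 0 c ⊓ E a (act a g + c) : Language α)} : Language α) :=
    HL.iUnion (fun g => HL.iInter (fun a => HL.iUnion (fun c => (hE1 0 c).inf (hE1 a _))))
  refine ⟨_, key, ?_, ?_⟩
  · rintro w ⟨⟨g, hg⟩, hw⟩
    obtain ⟨c0, hw0, -⟩ := hw 0
    obtain ⟨l, hl, e, -⟩ := hE2 _ _ _ hw0
    have hp : (l.map γ).prod = g := by
      apply hfaith
      intro a
      obtain ⟨c, h1, h2⟩ := hw a
      obtain ⟨l1, hl1, e1, f1⟩ := hE2 _ _ _ h1
      obtain ⟨l2, hl2, e2, f2⟩ := hE2 _ _ _ h2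
      have q1 : l1 = l := hU _ _ hl1 hl (e1.trans e.symm)
      have q2 : l2 = l := hU _ _ hl2 hl (e2.trans e.symm)
      subst q1
      subst q2
      have := aff l2 a 0
      rw [add_zero, f2, f1] at this
      exact (add_right_cancel this).symm
    refine ⟨l, hl, e, ?_⟩
    rw [hfT, hp, hg]
  · intro l hl hlG hf
    refine ⟨⟨(l.map γ).prod, by rw [← hfT, hf]⟩, fun a => ?_⟩
    refine ⟨l.foldl (fun v X => act v (γ X) + nu X) 0, hE3 _ _ l hl hlG rfl,
      hE3 _ _ l hl hlG ?_⟩
    have := aff l a 0
    rw [add_zero] at this
    exact this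

end Crest.Agent.R320.H1_996
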