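import Crest.Agent.R320.H1b_203

/-! Row 320, HALF 1, part c: soundness of scheme 2, nesting (helper203). -/

set_option autoImplicit false
set_option linter.unusedSectionVars false

namespace Crest.Agent.R320.H1_203

open Crest.Agent.R320.Nest_85 Crest.Agent.R320.Gad1_420 Crest.Agent.R320.Hgt1_903

universe u

variable {α S V W : Type*} [Monoid S] [AddCommGroup V] [AddCommGroup W]
variable {d : Dt α S V W}

theorem take_app' {P Q : List α} (t : ℕ) : (P ++ Q).take (P.length + t) = P ++ Q.take t := by
  rw [List.take_append, List.take_of_length_le (by omega), Nat.add_sub_cancel_left]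

theorem isEnd_full (h : d.Hyp) {P Q : List α} {j b : ℕ} (hj : j < d.K) (hP : P.length = d.x j)
    (hE : d.IsEnd j Q b) : d.Full (P ++ Q.take b) := by
  obtain ⟨h1, h2, h3, h4, h5⟩ := hE
  have hx := h.xp0 j hj
  have hl : (Q.take b).length = b := by rw [List.length_take]; omega
  refine ⟨⟨(h.wloc _ _ (by omega)).2 h3, ?_⟩, ?_⟩
  · rw [List.length_append, hl, hP]; exact h4
  · intro t ht hB
    rw [List.length_append, hl, hP] at ht
    have hlt : ((P ++ Q.take b).take t).length = t := by
      rw [List.length_take, List.length_append, hl, hP]; omega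
    have hO : d.Ok t := by have := hB.2; rwa [hlt] at this
    rcases Nat.lt_or_ge t (d.x j + d.no) with hlt' | hge
    · exact notOk h (by omega) hO
    · obtain ⟨t', rfl⟩ : ∃ t', t = P.length + t' := ⟨t - P.length, by omega⟩
      rw [take_app'] at hB
      rw [List.take_take, Nat.min_eq_left (by omega)] at hB
      have hw := (h.wloc P (Q.take t') (by rw [List.length_take]; omega)).1 hB.1
      exact h5 t' (by omega) (by omega) hw (by rw [← hP]; exact hO)

theorem bad_link (h : d.Hyp) {P Q : List α} {j b : ℕ} (hj : j < d.K) (hP : P.length = d.x j)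
    (hb : b ≤ Q.length) (hX : d.BadX (P ++ Q.take b)) : d.BadAt j Q b := by
  have hx := h.xp0 j hj
  have hl : (Q.take b).length = b := by rw [List.length_take]; omega
  have hXl : (P ++ Q.take b).length = d.x j + b := by rw [List.length_append, hl, hP]
  rcases hX with ⟨t, h1, h2, h3, h4⟩ | h1 | ⟨k, hk, s, h1, h2, h3⟩
  · left
    rw [hXl] at h1
    obtain ⟨t', rfl⟩ : ∃ t', t = P.length + t' := ⟨t - P.length, by omega⟩
    rw [take_app', List.take_take, Nat.min_eq_left (by omega)] at h3
    refine ⟨t', by omega, by omega, ?_, by rw [← hP]; exact h4⟩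
    exact (h.wloc P (Q.take t') (by rw [List.length_take]; omega)).1 h3
  · right; left
    rwa [hXl] at h1
  · right; right
    refine ⟨k, hk, s, h1, h2, ?_⟩
    have hPd : P.drop d.p0 = [] := List.drop_of_length_le (by omega)
    rw [List.drop_append, hPd, List.nil_append, hP] at h3
    exact h3

theorem full_le (h : d.Hyp) {X : List α} (hr : d.rf X) (hX : d.Full X) : X.length ≤ d.Z := by
  by_contra hc
  obtain ⟨t, h1, h2, h3⟩ := h.full X hr (by omega)
  exact hX.2 t (by omega) h3.1

theorem full_ne (h : d.Hyp) {X : List α} (hX : d.Full X) : X ≠ [] := by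
  intro h0
  have := Full.len h hX
  rw [h0] at this
  simp at this

theorem run_take (h : d.Hyp) {v : V} {X : List α} (hX : d.Full X) {t : ℕ} (ht : t < X.length) :
    run d.step (v, []) (X.take t) = (v, X.take t) := by
  have := run_noblk d.toPar v (X.take t) [] (fun s hs hsl => by
    rw [List.nil_append, List.take_take]
    rw [List.length_take] at hsl
    rw [Nat.min_eq_left (by omega)]
    exact hX.2 s (by omega))
  simpa using this

/-- a good block gives a cut of level 1 -/
theorem cut1 (h : d.Hyp) {v0 v : V} {w w1 X u : List α} (hw : w = w1 ++ X ++ u)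
    (h1 : run d.step (v0, []) w1 = (v, [])) (hX : d.Full X) (hr : d.rf w) (hb : ¬ d.BadX X) :
    Cut d.step d.A1 (v0, []) w := by
  have hrX : d.rf X := h.inf w1 X u (hw ▸ hr)
  obtain ⟨P, Q, hPQ, hL, hR⟩ := A1_complete h hX hrX (full_le h hrX hX) hb v
  have hQ : Q ≠ [] := hR.1
  have hPl : P.length < X.length := by
    rw [hPQ, List.length_append]
    have := List.length_pos_of_ne_nil hQ
    omega
  refine ⟨w1 ++ P, Q, u, by rw [hw, hPQ]; simp, hR, ?_⟩
  rw [run_append, h1]
  have := run_take h (v := v) hX hPl
  have e : X.take P.length = P := by rw [hPQ]; simp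
  rw [e] at this
  rw [this]
  exact hL

/-- soundness of scheme 2 under the promise -/
theorem A2_sound (h : d.Hyp) {v0 : V} {p s u : List α} (hr : d.rf (p ++ s ++ u))
    (hc : ¬ Cut d.step d.A1 (v0, []) (p ++ s ++ u)) (hL : d.A2.Lg (run d.step (v0, []) p))
    (hs : s ∈ d.A2.R) : run d.step (run d.step (v0, []) p) s = d.A2.c s := by
  classical
  obtain ⟨w1, P, e, h1, h2, h3⟩ := run_shape d.toPar v0 p
  set v := (run d.step (v0, []) p).1 with hv
  have hst : run d.step (v0, []) p = (v, P) := by rw [← h2]
  rw [hst] at hL ⊢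
  obtain ⟨j0, hj0, hPl, hlam⟩ := hL
  simp only at hPl hlam
  -- it is enough to treat any legal pair
  have main : ∀ j b, d.RL s j b → run d.step (v, P) s = (d.val2 s j b, []) := by
    intro j b hRL
    obtain ⟨hj, hE, hrho, hF2, hne2, hun⟩ := hRL
    have hjj : j0 = j := by
      by_contra hne
      obtain ⟨b0, hE0, hnb⟩ := hun j0 hj0 hne
      have hX := isEnd_full h hj0 hPl hE0
      apply hc
      refine cut1 h (w1 := w1) (X := P ++ s.take b0) (u := s.drop b0 ++ u) (v := v) ?_ h1 hX hr ?_
      · rw [e]
        simp only [List.append_assoc]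
        rw [← List.append_assoc (s.take b0), List.take_append_drop]
      · exact fun hb => hnb (bad_link h hj0 hPl hE0.1 hb)
    subst hjj
    have hX := isEnd_full h hj hPl hE
    have hlen := Full.len h hX
    have hbl : b ≤ s.length := hE.1
    have hl : (s.take b).length = b := by rw [List.length_take]; omega
    rw [List.length_append, hl, hPl] at hlen
    have hx := h.xp0 j0 hj
    conv_lhs => rw [← List.take_append_drop b s]
    rw [run_append]
    have hr1 : run d.step (v, P) (s.take b) = (d.T v (P ++ s.take b), []) := by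
      apply run_blk d.toPar v P (s.take b)
      · intro h0; rw [h0] at hl; simp at hl; omega
      · intro t ht1 ht2
        have := hX.2 (P.length + t) (by rw [List.length_append]; omega)
        rwa [take_app'] at this
      · exact hX.1
    rw [hr1, run_full d.toPar _ _ hne2 hF2]
    unfold Dt.val2
    congr 2
    obtain ⟨r, hrr⟩ := Option.isSome_iff_exists.1 hrho
    have e1 : (P ++ s.take b).take d.p0 = P ++ s.take (d.p0 - d.x j0) := by
      have : d.p0 = P.length + (d.p0 - d.x j0) := by omega
      conv_lhs => rw [this]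
      rw [take_app', List.take_take, Nat.min_eq_left (by omega)]
    have e2 : (P ++ s.take b).drop d.p0 = (s.take b).drop (d.p0 - d.x j0) := by
      have hPd : P.drop d.p0 = [] := List.drop_of_length_le (by omega)
      rw [List.drop_append, hPd, List.nil_append, hPl]
    unfold Par.T
    rw [e1, e2, hrr]
    have := h.e1 P (s.take (d.p0 - d.x j0)) v r (by rw [List.length_take]; omega) hlam hrr
    rw [← this]
    rfl
  obtain ⟨-, -, j, b, hRL⟩ := hs
  have hex : ∃ jb : ℕ × ℕ, d.RL s jb.1 jb.2 := ⟨(j, b), hRL⟩
  have ec : d.A2.c s = (d.val2 s hex.choose.1 hex.choose.2, []) := by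
    change (if h : ∃ jb : ℕ × ℕ, d.RL s jb.1 jb.2 then
      (d.val2 s h.choose.1 h.choose.2, []) else (0, [])) = _
    rw [dif_pos hex]
  rw [ec]
  exact main _ _ hex.choose_spec

/-- every long word has a cut of level 2 -/
theorem cut2 (h : d.Hyp) {v : V} {w : List α} (hr : d.rf w) (hl : 2 * d.Z ≤ w.length) :
    Cut d.step d.A2 (v, []) w := by
  obtain ⟨t1, ha1, ha2, ha3⟩ := h.full w hr (by omega)
  have hr' : d.rf (w.drop t1) := by
    apply h.inf (w.take t1) (w.drop t1) []
    simpa using hr
  obtain ⟨t2, hb1, hb2, hb3⟩ := h.full (w.drop t1) hr' (by rw [List.length_drop]; omega)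
  set X := w.take t1 with hX
  set X2 := (w.drop t1).take t2 with hX2
  have hw : w = X ++ X2 ++ (w.drop t1).drop t2 := by
    rw [hX, hX2, List.append_assoc, List.take_append_drop, List.take_append_drop]
  have hXl : X.length = t1 := by rw [hX, List.length_take]; omega
  have hX2l : X2.length = t2 := by rw [hX2, List.length_take, List.length_drop]; omega
  have hne2 : X2 ≠ [] := by intro h0; rw [h0] at hX2l; simp at hX2l; omega
  have hlen := Full.len h ha3
  obtain ⟨j, hj, hlam, hrho, hun⟩ := h.e2 X X2 ha3 hb3 hne2 v
  have hx := h.xp0 j hj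
  have hdl : (X.drop (d.x j)).length = t1 - d.x j := by rw [List.length_drop, hXl]
  have htkl : (X.take (d.x j)).length = d.x j := by rw [List.length_take]; omega
  have hdd : (X.drop (d.x j)).drop (t1 - d.x j) = [] := List.drop_of_length_le (by omega)
  refine ⟨X.take (d.x j), X.drop (d.x j) ++ X2, (w.drop t1).drop t2, ?_, ⟨?_, ?_, j, t1 - d.x j, ?_⟩, ?_⟩
  · conv_rhs => rw [hw]
    rw [← List.append_assoc, List.take_append_drop]
  · intro h0; exact hne2 (List.append_eq_nil_iff.1 h0).2
  · rw [List.length_append, hdl, hX2l]; omega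
  · have hQt : ∀ t, t ≤ t1 - d.x j → X.take (d.x j) ++ (X.drop (d.x j) ++ X2).take t =
        X.take (d.x j + t) := by
      intro t ht
      rw [List.take_append_of_le_length (by omega), List.take_add]
    refine ⟨hj, ⟨by rw [List.length_append]; omega, by omega, ?_, ?_, ?_⟩, ?_, ?_, ?_, hun⟩
    · have h4 := hQt (t1 - d.x j) le_rfl
      have h5 : d.x j + (t1 - d.x j) = X.length := by omega
      rw [h5, List.take_length] at h4
      have h6 := ha3.1.1
      rw [← h4] at h6
      exact (h.wloc _ _ (by rw [List.length_take, List.length_append]; omega)).1 h6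
    · have h5 : d.x j + (t1 - d.x j) = X.length := by omega
      rw [h5]; exact ha3.1.2
    · intro t ht1 ht2 hwo hO
      refine ha3.2 (d.x j + t) (by omega) ⟨?_, ?_⟩
      · rw [← hQt t ht2.le]
        exact (h.wloc _ _ (by rw [List.length_take, List.length_append]; omega)).2 hwo
      · rw [List.length_take, Nat.min_eq_left (by omega)]; exact hO
    · have e : (X.drop (d.x j) ++ X2).take (d.p0 - d.x j) = (X.take d.p0).drop (d.x j) := by
        rw [List.take_append_of_le_length (by omega)]
        exact (List.drop_take ..).symm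
      rw [e]; exact hrho
    · rw [List.drop_append_of_le_length (by omega), hdd, List.nil_append]
      exact hb3
    · rw [List.drop_append_of_le_length (by omega), hdd, List.nil_append]
      exact hne2
  · rw [run_take h ha3 (by omega)]
    exact ⟨j, hj, htkl, hlam⟩

/-- the nested level theorem -/
theorem levels [Finite α] (h : d.Hyp) (v : V) (T : V × List α → Prop) :
    ∃ E : Language α, H 2 E ∧ ∀ w, d.rf w → (w ∈ E ↔ T (run d.step (v, []) w)) := by
  classical
  let St : V × List α → Prop := fun q => q.2 = []
  let Prom : V × List α → List α → Prop := fun _ w => d.rf w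
  let Prom' : V × List α → List α → Prop := fun q w => d.rf w ∧ ¬ Cut d.step d.A1 q w
  have hpre : ∀ u v : List α, d.rf (u ++ v) → d.rf u := fun u v hu => by
    apply h.inf [] u v
    simpa using hu
  have hsuf : ∀ u v w : List α, d.rf (u ++ v ++ w) → d.rf w := fun u v w hu => by
    apply h.inf (u ++ v) w []
    simpa using hu
  have hst : ∀ q : V × List α, St q → q = (q.1, []) := by
    intro q hq
    have : q.2 = [] := hq
    rw [← this]
  have hA1 : d.A1.Ok d.step St Prom := by
    refine ⟨(List.finite_length_le α d.Z).subset fun w hw => hw.2.1, fun s hs => hs.1,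
      fun s _ => rfl, ?_⟩
    intro q _ p s u hw hs hl
    exact ⟨A1_sound h (v := (run d.step q p).1) (P := (run d.step q p).2) hl hs, hsuf p s u hw⟩
  have hA2 : d.A2.Ok d.step St Prom' := by
    refine ⟨(List.finite_length_le α (3 * d.Z)).subset fun w hw => hw.2.1, fun s hs => hs.1,
      ?_, ?_⟩
    · intro s hs
      obtain ⟨-, -, j, b, hRL⟩ := hs
      have hex : ∃ jb : ℕ × ℕ, d.RL s jb.1 jb.2 := ⟨(j, b), hRL⟩
      change (if h : ∃ jb : ℕ × ℕ, d.RL s jb.1 jb.2 then
        (d.val2 s h.choose.1 h.choose.2, ([] : List α)) else (0, [])).2 = []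
      rw [dif_pos hex]
    · intro q hq p s u hw hs hl
      have hq' := hst q hq
      have key : run d.step (run d.step q p) s = d.A2.c s := by
        rw [hq'] at hl hw ⊢
        exact A2_sound h hw.1 hw.2 hl hs
      refine ⟨key, hsuf p s u hw.1, fun hc => hw.2 ?_⟩
      apply Cut.prepend
      rw [run_append, key]
      exact hc
  have step1 := nest d.step St Prom' (fun q u v hq => ⟨hpre u v hq.1, fun hc => hq.2 hc.append⟩)
    d.A2 hA2 0 (fun _ => True) trivial (by
      intro q hq T _
      refine ⟨({w | (d.rf w ∧ w.length < 2 * d.Z) ∧ T (run d.step q w)} : Language α), ?_, ?_⟩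
      · exact H.finite 0 ((List.finite_length_lt α (2 * d.Z)).subset fun w hw => hw.1.2)
      · intro w hw hc
        have hlt : w.length < 2 * d.Z := by
          by_contra hge
          apply hc
          rw [hst q hq]
          exact cut2 h hw.1 (by omega)
        exact ⟨fun h => h.2, fun h => ⟨⟨hw.1, hlt⟩, h⟩⟩)
  have step2 := nest d.step St Prom (fun q u v hq => hpre u v hq) d.A1 hA1 1 (fun _ => True) trivial
    (by
      intro q hq T _
      obtain ⟨E, h1, h2⟩ := step1 q hq T trivial
      exact ⟨E, h1, fun w hw hc => h2 w ⟨hw, hc⟩⟩)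
  obtain ⟨E, h1, h2⟩ := step2 (v, []) rfl T trivial
  exact ⟨E, h1, h2⟩

end Crest.Agent.R320.H1_203
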