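import Crest.Agent.R320.H1b_884

/-! Row 320, half 1, level 2 (promise ruler of 132 #12664) and the two stars; helper884. -/

set_option autoImplicit false

namespace Crest.Agent.R320.H1_884

open Crest.Agent.R320.Zn_884 Crest.Agent.R320.Nest_85 Crest.Agent.R320.Wall_291
open Crest.RegLang Crest.Agent.R320.Hgt1_903

variable {α S V W : Type} [Monoid S] [AddCommGroup V] [AddCommGroup W]

/-- data of scheme 2 -/
structure Ex (α S V : Type) where
  K : ℕ
  c : ℕ → ℕ
  lam : ℕ → List α → Option V
  rho : ℕ → List α → S → Option V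

namespace Par

variable (A : Par α S V W) (X : Ex α S V)

theorem gd_shift {u s : List α} {t : ℕ} (hu : u.length ≤ A.p0) :
    A.Gd 0 (u ++ s) (u.length + t) ↔ A.Gd u.length s t := by
  have hm := A.hmin
  unfold Gd
  have e1 : ((u ++ s).take (u.length + t)).drop (A.p0 - 0) = (s.take t).drop (A.p0 - u.length) := by
    rw [List.take_length_add_append, Nat.sub_zero, List.drop_append]
    rw [List.drop_eq_nil_of_le hu, List.nil_append]
  rw [e1]
  have e2 : u.length + t + 0 = t + u.length := by omega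
  rw [e2]
  refine and_congr ?_ Iff.rfl
  constructor
  · intro h τ hτ hR
    have := h (u.length + τ) (by omega) (by rw [drop_add]; exact hR)
    rw [show u.length + τ + 0 = τ + u.length by omega] at this
    exact this
  · intro h τ hτ hR
    rcases lt_or_ge τ u.length with h5 | h5
    · have := A.hthmin ((τ + 0) % A.D.q)
      omega
    · obtain ⟨k, rfl⟩ : ∃ k, τ = u.length + k := ⟨τ - u.length, by omega⟩
      rw [drop_add] at hR
      have := h k (by omega) hR
      rw [show u.length + k + 0 = k + u.length by omega]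
      exact this

theorem gd_app {c : ℕ} {s r : List α} {t : ℕ} (h : t + A.ro.n ≤ s.length) :
    A.Gd c (s ++ r) t ↔ A.Gd c s t := by
  unfold Gd
  rw [List.take_append_of_le_length (by omega : t ≤ s.length)]
  refine and_congr ?_ Iff.rfl
  constructor
  · intro h1 τ hτ hR
    exact h1 τ hτ ((R_left A.ro (by omega)).2 hR)
  · intro h1 τ hτ hR
    exact h1 τ hτ ((R_left A.ro (by omega)).1 hR)

def Lg2 (σ : List α × V) : Prop := ∃ k, k < X.K ∧ σ.1.length = X.c k ∧ X.lam k σ.1 = some σ.2

def Leg2 (s : List α) (w : ℕ × ℕ × V) : Prop :=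
  w.1 < X.K ∧ A.Nxt (X.c w.1) s w.2.1 ∧ ¬ A.Gd (X.c w.1) s w.2.1 ∧
    (∀ k', k' < X.K → ∀ t', A.Nxt (X.c k') s t' → ¬ A.Gd (X.c k') s t' → k' = w.1) ∧
    X.rho w.1 (s.take (A.p0 - X.c w.1)) 1 = some w.2.2

def R2 (D2 : ℕ) : Set (List α) := {s | s.length = D2 ∧ ∃ w : ℕ × ℕ × V, A.Leg2 X s w}

/-- value at the next anchor -/
noncomputable def val2 (s : List α) (w : ℕ × ℕ × V) : V :=
  A.D.act w.2.2 (A.D.phi ((s.take w.2.1).drop (A.p0 - X.c w.1)))
    + A.D.nu ((s.take w.2.1).drop (A.p0 - X.c w.1))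

open Classical in
noncomputable def c2 (s : List α) : List α × V :=
  if h : ∃ w : ℕ × ℕ × V, A.Leg2 X s w then
    run A.step ([], A.val2 X s h.choose) (s.drop h.choose.2.1) else ([], 0)

noncomputable def Lvl2 (D2 : ℕ) : Level α (List α × V) := ⟨Lg2 X, A.R2 X D2, A.c2 X⟩

/-- hypotheses on scheme 2 -/
structure Ar2 (e b Bz D1 D2 R0 : ℕ) : Prop where
  hc : ∀ k, k < X.K → X.c k ≤ A.p0
  hcn : ∀ k, k < X.K → A.ro.n ≤ X.c k
  sound : ∀ k, k < X.K → ∀ (P Q : List α) (v b : V), P.length = X.c k →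
    X.lam k P = some v → X.rho k Q 1 = some b →
    b = A.D.act v (A.D.phi (P ++ Q)) + A.nu2 (P ++ Q)
  complete : ∀ (u : List α) (v : V), (∀ k < X.K, X.c k ≤ u.length) →
    ∃ I : Finset ℕ, R0 < I.card ∧ ∀ k ∈ I, k < X.K ∧ X.lam k (u.take (X.c k)) = some v ∧
      (X.rho k (u.drop (X.c k)) 1).isSome
  hD1 : 0 < D1
  hBD1 : Bz ≤ D1
  hD2 : Bz + D1 ≤ D2
  spoil : ∀ Q : List α, RF e b Q → A.p0 + D2 ≤ Q.length → ∃ Sp : Finset ℕ, Sp.card ≤ R0 ∧
    ∀ j, j < X.K → j ∉ Sp → ∀ k, k < X.K → ∀ t,
      A.Nxt (X.c k) ((Q.drop (X.c j)).take D2) t →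
      ¬ A.Gd (X.c k) ((Q.drop (X.c j)).take D2) t → k = j

variable {A X}

theorem inv_take {Q : List α} {d x : ℕ} {v : V} (hd : A.Nxt 0 Q d) (hx : x < d + A.ro.n) :
    A.Inv (Q.take x, v) := by
  intro d' hd'
  have h1 := Nxt.app A (r := Q.drop x) hd'
  simp only [List.take_append_drop] at h1
  have h2 := h1.unique A hd
  have h3 := hd'.len A
  simp only [List.length_take] at h3
  omega

theorem cross2 {e b Bz D1 D2 R0 : ℕ} (ar2 : A.Ar2 X e b Bz D1 D2 R0) {u s : List α} {v : V}
    {k t : ℕ} {b0 : V} (hk : k < X.K) (hi : A.Inv (u, v)) (hu : u.length = X.c k)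
    (hL : X.lam k u = some v) (hN : A.Nxt (X.c k) s t)
    (hR : X.rho k (s.take (A.p0 - X.c k)) 1 = some b0) :
    run A.step (u, v) s = run A.step ([], A.val2 X s (k, t, b0)) (s.drop t) := by
  have hm := A.hmin
  have hcp := ar2.hc k hk
  have hj : A.Nxt 0 (u ++ s) (u.length + t) := by
    rw [A.nxt_shift (by omega), Nat.zero_add, hu]; exact hN
  have hge := hN.ge A
  rw [A.run_zone v s u hi hj, drop_add, List.take_length_add_append]
  congr 2
  unfold T val2
  have e3 : (u ++ s.take t).take A.p0 = u ++ s.take (A.p0 - X.c k) := by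
    rw [List.take_append, List.take_of_length_le (by omega), List.take_take,
      min_eq_left (by omega), hu]
  have e4 : (u ++ s.take t).drop A.p0 = (s.take t).drop (A.p0 - X.c k) := by
    rw [List.drop_append, List.drop_eq_nil_of_le (by omega), List.nil_append, hu]
  rw [e3, e4, ← ar2.sound k hk u _ v b0 hu hL hR]

theorem cutPos {D1 : ℕ} {σ : List α × V} {p s u : List α} {x : ℕ}
    (hx1 : (run A.step σ p).1.length ≤ x)
    (hinv : A.Inv (((run A.step σ p).1 ++ s).take x, (run A.step σ p).2))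
    (hL : A.Lg1 (((run A.step σ p).1 ++ s).take x, (run A.step σ p).2))
    (hR : (((run A.step σ p).1 ++ s).drop x).take D1 ∈ A.R1 D1) :
    Cut A.step (A.Lvl1 D1) σ (p ++ s ++ u) := by
  set u' := (run A.step σ p).1 with hu'
  set v := (run A.step σ p).2 with hv
  have e1 : (u' ++ s).take x = u' ++ s.take (x - u'.length) := by
    rw [List.take_append, List.take_of_length_le hx1]
  have e2 : (u' ++ s).drop x = s.drop (x - u'.length) := by
    rw [List.drop_append, List.drop_eq_nil_of_le hx1, List.nil_append]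
  rw [e1] at hinv hL
  rw [e2] at hR
  refine ⟨p ++ s.take (x - u'.length), (s.drop (x - u'.length)).take D1,
    (s.drop (x - u'.length)).drop D1 ++ u, ?_, hR, ?_⟩
  · simp only [List.append_assoc]
    rw [← List.append_assoc (List.take D1 _), List.take_append_drop,
      ← List.append_assoc (List.take _ s), List.take_append_drop]
  · rw [run_append]
    have h3 : run A.step σ p = (u', v) := rfl
    rw [h3, A.run_none v _ u' hinv]
    exact hL

theorem ok2 [Finite α] (hN1 : A.D.N1) (hN2 : A.D.N2) (hN3 : A.D.N3) (hF : A.D.Hides)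
    {e b Bz D1 D2 R0 : ℕ} (ar : A.Ar1 e b Bz) (ar2 : A.Ar2 X e b Bz D1 D2 R0) :
    (A.Lvl2 X D2).Ok A.step A.Inv
      (fun σ w => A.Prom e b σ w ∧ ¬ Cut A.step (A.Lvl1 D1) σ w) where
  fin := (List.finite_length_eq α D2).subset fun s hs => hs.1
  ne := by
    intro s hs h
    have := hs.1
    rw [h] at this
    simp only [List.length_nil] at this
    have := ar2.hD1
    have := ar2.hD2
    omega
  st := by
    intro s hs
    change A.Inv (A.c2 X s)
    unfold c2
    split_ifs with h
    · exact A.inv_run _ _ (A.inv_short (by simp))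
    · exact A.inv_short (by simp)
  closed := by
    intro σ hσ p s u hw hs hl
    obtain ⟨hw, hnc⟩ := hw
    have hP := Prom.run A (show A.Prom e b σ (p ++ (s ++ u)) by rw [← List.append_assoc]; exact hw)
    have hex := hs.2
    have hslen := hs.1
    have hc : (A.Lvl2 X D2).c s = run A.step ([], A.val2 X s hex.choose) (s.drop hex.choose.2.1) := by
      change A.c2 X s = _
      unfold c2
      rw [dif_pos hex]
    obtain ⟨w1, w2, w3, w4, w5⟩ := hex.choose_spec
    have hD2 := ar2.hD2
    have hBD1 := ar2.hBD1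
    have hm := A.hmin
    have hrun : run A.step (run A.step σ p) s = (A.Lvl2 X D2).c s := by
      rw [hc]
      obtain ⟨k0, hk0, hlen, hlam⟩ := hl
      set u' := (run A.step σ p).1 with hu'
      set v := (run A.step σ p).2 with hv
      have hRF : RF e b (u' ++ s) :=
        hP.2.infix (by rw [← List.append_assoc]; exact (List.prefix_append _ _).isInfix)
      obtain ⟨t0, ht0, ht0B⟩ := ar.zone (X.c k0) s (ar2.hc k0 hk0)
        (hRF.infix (List.suffix_append _ _).isInfix) (by omega)
      have hcp := ar2.hc k0 hk0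
      have hnx : A.Nxt 0 (u' ++ s) (u'.length + t0) := by
        rw [A.nxt_shift (by omega), Nat.zero_add, hlen]; exact ht0
      have hng : ¬ A.Gd (X.c k0) s t0 := by
        intro hg
        rw [← hlen, ← A.gd_shift (by omega)] at hg
        obtain ⟨d', hd', hd'B⟩ := ar.zone 0 (u' ++ s) (by omega) hRF
          (by rw [List.length_append]; omega)
        have hdd := hd'.unique A hnx
        obtain ⟨x, hx1, hx2, hx3, hx4⟩ := A.cut1 hN1 hN2 hN3 hF ar ar2.hBD1 v hRF hnx hg
          (by omega) (by rw [List.length_append]; omega)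
        apply hnc
        have hge := hnx.ge A
        exact cutPos (D1 := D1) (σ := σ) (p := p) (s := s) (u := u) (x := x)
          (show u'.length ≤ x by omega) (inv_take hnx (by omega)) hx3 hx4
      have hk : k0 = hex.choose.1 := w4 k0 hk0 t0 ht0 hng
      have h9 : run A.step σ p = (u', v) := rfl
      have hlen' : u'.length = X.c hex.choose.1 := by rw [← hk]; exact hlen
      have hlam' : X.lam hex.choose.1 u' = some v := by rw [← hk]; exact hlam
      rw [h9]
      exact cross2 ar2 w1 hP.1 hlen' hlam' w2 w5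
    refine ⟨hrun, ?_, ?_⟩
    · rw [← hrun]
      exact Prom.run A hP
    · intro hcut
      apply hnc
      apply Cut.prepend
      rw [run_append, hrun]
      exact hcut

theorem short [Finite α] (hN1 : A.D.N1) (hN2 : A.D.N2) (hN3 : A.D.N3) (hF : A.D.Hides)
    {e b Bz D1 D2 R0 : ℕ} (ar : A.Ar1 e b Bz) (ar2 : A.Ar2 X e b Bz D1 D2 R0) :
    ∀ σ : List α × V, A.Inv σ → ∀ w, (A.Prom e b σ w ∧ ¬ Cut A.step (A.Lvl1 D1) σ w) →
      ¬ Cut A.step (A.Lvl2 X D2) σ w → w.length < Bz + A.p0 + Bz + D1 + D2 + Bz := by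
  rintro ⟨u0, v0⟩ hσ w ⟨hP, hnc1⟩ hnc2
  by_contra hlen
  push Not at hlen
  have hm := A.hmin
  have hD2 := ar2.hD2
  have hBD1 := ar2.hBD1
  have hRF := hP.2
  simp only at hRF
  obtain ⟨d0, hd0, hd0B⟩ := ar.zone 0 (u0 ++ w) (by omega) hRF
    (by rw [List.length_append]; omega)
  set Q1 := (u0 ++ w).drop d0 with hQ1
  have hu0 : u0.length < d0 + A.ro.n := by
    by_contra hcon
    have h1 : A.Nxt 0 u0 d0 := hd0.of_app A (by omega)
    exact hσ d0 h1
  have hQ1len : Q1.length = u0.length + w.length - d0 := by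
    rw [hQ1, List.length_drop, List.length_append]
  have hRF1 : RF e b Q1 := hRF.drop d0
  set v1 := A.T ((u0 ++ w).take d0) v0 with hv1
  -- state after reading `y` letters of `Q1`, `y ≥ n`
  have hst : ∀ y, A.ro.n ≤ y → y ≤ Q1.length →
      run A.step (u0, v0) (w.take (d0 + y - u0.length)) = run A.step ([], v1) (Q1.take y) := by
    intro y hy hy'
    have e1 : u0 ++ w.take (d0 + y - u0.length) = (u0 ++ w).take (d0 + y) := by
      rw [List.take_append, List.take_of_length_le (show u0.length ≤ d0 + y by omega)]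
    have h1 : A.Nxt 0 (u0 ++ w.take (d0 + y - u0.length)) d0 := by
      rw [e1]
      apply Nxt.of_app A (r := (u0 ++ w).drop (d0 + y))
      · rw [List.take_append_drop]; exact hd0
      · rw [List.length_take, List.length_append]; omega
    rw [A.run_zone v0 _ u0 hσ h1, e1]
    have e2 : ((u0 ++ w).take (d0 + y)).take d0 = (u0 ++ w).take d0 := by
      rw [List.take_take, min_eq_left (by omega)]
    have e3 : ((u0 ++ w).take (d0 + y)).drop d0 = Q1.take y := by
      rw [List.drop_take, hQ1]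
      congr 1
      omega
    rw [e2, e3]
  obtain ⟨d1, hd1, hd1B⟩ := ar.zone 0 Q1 (by omega) hRF1 (by omega)
  have hd1ge := hd1.ge A
  have hst2 : ∀ y, A.ro.n ≤ y → y ≤ A.p0 + A.N1 →
      run A.step (u0, v0) (w.take (d0 + y - u0.length)) = (Q1.take y, v1) := by
    intro y hy hy'
    rw [hst y hy (by omega), A.run_none v1 (Q1.take y) [] (by
      rw [List.nil_append]
      exact inv_take hd1 (by omega))]
    simp
  have hsplit : ∀ y D', w.take (d0 + y - u0.length) ++ (Q1.drop y).take D' ++ (Q1.drop y).drop D'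
      = w ∨ ¬ (A.ro.n ≤ y) := by
    intro y D'
    by_cases hy : A.ro.n ≤ y
    · left
      rw [List.append_assoc, List.take_append_drop, hQ1, List.drop_drop]
      have e1 : (u0 ++ w).drop (d0 + y) = w.drop (d0 + y - u0.length) := by
        rw [List.drop_append, List.drop_eq_nil_of_le (by omega), List.nil_append]
      rw [e1, List.take_append_drop]
    · right; exact hy
  have hnp : A.ro.n ≤ A.p0 := by
    obtain ⟨I, hI, hI'⟩ := ar2.complete (Q1.take A.p0) v1 (by
      intro k hk
      have := ar2.hc k hk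
      rw [List.length_take]; omega)
    obtain ⟨k, hk⟩ := Finset.card_pos.1 (by omega : 0 < I.card)
    have h1 := (hI' k hk).1
    exact le_trans (ar2.hcn k h1) (ar2.hc k h1)
  by_cases hg : A.Gd 0 Q1 d1
  · obtain ⟨x, hx1, hx2, hx3, hx4⟩ := A.cut1 hN1 hN2 hN3 hF ar ar2.hBD1 v1 hRF1 hd1 hg
      hd1B (by omega)
    apply hnc1
    refine ⟨w.take (d0 + x - u0.length), (Q1.drop x).take D1, (Q1.drop x).drop D1, ?_, hx4, ?_⟩
    · rcases hsplit x D1 with h | h
      · exact h
      · exact absurd (by omega) h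
    · rw [hst2 x (by omega) hx2]
      exact hx3
  · obtain ⟨I, hI, hI'⟩ := ar2.complete (Q1.take A.p0) v1 (by
      intro k hk
      have := ar2.hc k hk
      rw [List.length_take]; omega)
    obtain ⟨Sp, hSp, hSp'⟩ := ar2.spoil Q1 hRF1 (by omega)
    obtain ⟨j, hjI, hjS⟩ : ∃ j ∈ I, j ∉ Sp := by
      by_contra hcon
      push Not at hcon
      have := Finset.card_le_card (show I ⊆ Sp from hcon)
      omega
    obtain ⟨hjK, hlam, hrho⟩ := hI' j hjI
    have hcj := ar2.hc j hjK
    have hcnj := ar2.hcn j hjK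
    obtain ⟨b0, hb0⟩ := Option.isSome_iff_exists.1 hrho
    apply hnc2
    have hd1' : d1 + A.ro.n ≤ X.c j + D2 := by omega
    refine ⟨w.take (d0 + X.c j - u0.length), (Q1.drop (X.c j)).take D2,
      (Q1.drop (X.c j)).drop D2, ?_, ⟨?_, (j, d1 - X.c j, b0), hjK, ?_, ?_, ?_, ?_⟩, ?_⟩
    · rcases hsplit (X.c j) D2 with h | h
      · exact h
      · exact absurd hcnj h
    · rw [List.length_take, List.length_drop]; omega
    · -- Nxt
      have hlt : (Q1.take (X.c j)).length = X.c j := by rw [List.length_take]; omega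
      have h1 : A.Nxt 0 (Q1.take (X.c j) ++ Q1.drop (X.c j))
          ((Q1.take (X.c j)).length + (d1 - X.c j)) := by
        rw [List.take_append_drop, hlt, show X.c j + (d1 - X.c j) = d1 by omega]
        exact hd1
      rw [A.nxt_shift (by omega), Nat.zero_add, hlt] at h1
      apply Nxt.of_app A (r := (Q1.drop (X.c j)).drop D2)
      · rw [List.take_append_drop]; exact h1
      · simp only [List.length_take, List.length_drop]; omega
    · -- not good
      intro hg'
      apply hg
      have hlt : (Q1.take (X.c j)).length = X.c j := by rw [List.length_take]; omega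
      have h2 : A.Gd (X.c j) (Q1.drop (X.c j)) (d1 - X.c j) := by
        rw [← List.take_append_drop D2 (Q1.drop (X.c j))]
        rw [A.gd_app (by simp only [List.length_take, List.length_drop]; omega)]
        exact hg'
      have h3 := (A.gd_shift (u := Q1.take (X.c j)) (s := Q1.drop (X.c j)) (t := d1 - X.c j)
        (by omega)).2 (by rw [hlt]; exact h2)
      rw [List.take_append_drop, hlt, show X.c j + (d1 - X.c j) = d1 by omega] at h3
      exact h3
    · intro k' hk' t' h1 h2
      exact hSp' j hjK hjS k' hk' t' h1 h2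
    · simp only
      rw [List.take_take, min_eq_left (by omega)]
      have e5 : (Q1.drop (X.c j)).take (A.p0 - X.c j) = (Q1.take A.p0).drop (X.c j) := by
        rw [List.drop_take]
      rw [e5]
      exact hb0
    · rw [hst2 (X.c j) hcnj (by omega)]
      refine ⟨j, hjK, ?_, ?_⟩
      · simp only [List.length_take]; omega
      · simp only
        have e6 : Q1.take (X.c j) = (Q1.take A.p0).take (X.c j) := by
          rw [List.take_take, min_eq_left hcj]
        rw [e6]
        exact hlam

/-- **two stars** for the thread automaton on run-free words -/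
theorem two_stars [Finite α] (hN1 : A.D.N1) (hN2 : A.D.N2) (hN3 : A.D.N3) (hF : A.D.Hides)
    {e b Bz D1 D2 R0 : ℕ} (ar : A.Ar1 e b Bz) (ar2 : A.Ar2 X e b Bz D1 D2 R0) :
    ∀ σ : List α × V, A.Inv σ → ∀ T : List α × V → Prop, ∃ E : Language α, H 2 E ∧
      ∀ w, A.Prom e b σ w → (w ∈ E ↔ T (run A.step σ w)) := by
  intro σ hσ T
  have h2 : ∀ σ : List α × V, A.Inv σ → ∀ T : List α × V → Prop, True →
      ∃ E : Language α, H 1 E ∧ ∀ w, A.Prom e b σ w → ¬ Cut A.step (A.Lvl1 D1) σ w →
        (w ∈ E ↔ T (run A.step σ w)) := by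
    intro σ hσ T _
    obtain ⟨E, h1, h2⟩ := nest A.step A.Inv
      (fun σ w => A.Prom e b σ w ∧ ¬ Cut A.step (A.Lvl1 D1) σ w)
      (fun q u v h => ⟨Prom.pre A h.1, fun hc => h.2 hc.append⟩)
      (A.Lvl2 X D2) (ok2 hN1 hN2 hN3 hF ar ar2) 0 (fun _ => True) trivial
      (by
        intro q hq T' _
        refine ⟨({w | ((A.Prom e b q w ∧ ¬ Cut A.step (A.Lvl1 D1) q w) ∧
          ¬ Cut A.step (A.Lvl2 X D2) q w) ∧ T' (run A.step q w)} : Language α),
          H.finite 0 ((List.finite_length_le α (Bz + A.p0 + Bz + D1 + D2 + Bz)).subset ?_),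
          fun w hw hc => ⟨fun h => h.2, fun h => ⟨⟨hw, hc⟩, h⟩⟩⟩
        rintro w ⟨⟨h3, h4⟩, _⟩
        exact (short hN1 hN2 hN3 hF ar ar2 q hq w h3 h4).le)
      σ hσ T trivial
    exact ⟨E, h1, fun w hw hc => h2 w ⟨hw, hc⟩⟩
  obtain ⟨E, h3, h4⟩ := nest A.step A.Inv (A.Prom e b) (fun q u v h => Prom.pre A h)
    (A.Lvl1 D1) (A.ok1 hN1 hN2 ar2.hD1 e b) 1 (fun _ => True) trivial
    (fun q hq T' h => h2 q hq T' h) σ hσ T trivial
  exact ⟨E, h3, h4⟩

end Par

end Crest.Agent.R320.H1_884
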