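import Crest.Agent.R320.H1b_996
import Crest.Agent.R320.Ruler2_537
import Crest.Agent.R320.Wall_291

/-!
Row 320, HALF 1 in the block calculus (helper996): left-looking walls, blocks, locality.
-/

set_option autoImplicit false

namespace Crest.Agent.R320.H1_996

open Crest.Agent.R320.ThrChain260 Crest.Agent.R320.Ruler2_537

variable {α : Type}

/-- left-looking walls -/
theorem exists_left_walls (α : Type) [Finite α] (e W : ℕ) :
    ∃ (n G : ℕ) (Wo : List α → Prop),
      (∀ P Q : List α, n ≤ Q.length → (Wo (P ++ Q) ↔ Wo Q)) ∧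
      (∀ Q, Wo Q → n ≤ Q.length) ∧
      (∀ u y : List α, Wo (u ++ y) → 0 < y.length → y.length ≤ W → ¬ Wo u) ∧
      (∀ Q, Wall_291.RF e W Q → G + n ≤ Q.length → ∃ i < G, Wo (Q.take (Q.length - i))) := by
  obtain ⟨n, G, R, h1, h2, h3, h4⟩ := Wall_291.exists_walls α e W
  refine ⟨n, G, fun u => R u.reverse, ?_, ?_, ?_, ?_⟩
  · intro P Q hQ
    show R _ ↔ R _
    rw [h1 (P ++ Q).reverse, h1 Q.reverse, List.reverse_append,
      List.take_append_of_le_length (by simpa using hQ)]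
  · intro Q h
    simpa using h2 _ h
  · intro u y h hy hyW hu
    have := h3 _ y.length h hy hyW
    rw [List.reverse_append] at this
    apply this
    have e1 : (y.reverse ++ u.reverse).drop y.length = u.reverse := by
      have : y.length = y.reverse.length := by simp
      rw [this, List.drop_left]
    rw [e1]
    exact hu
  · intro Q hRF hlen
    have hr : Wall_291.RF e W Q.reverse := by
      intro x hx hxl hi
      apply hRF x.reverse (by simpa using hx) (by simpa using hxl)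
      have := List.reverse_infix.2 hi
      rw [List.reverse_reverse] at this
      convert this using 1
      rw [List.reverse_flatten]
      simp
    obtain ⟨i, hi, hR⟩ := h4 _ hr (by simpa using hlen)
    refine ⟨i, hi, ?_⟩
    rwa [List.drop_reverse] at hR

/-- walls of the text `y` which starts at `x` -/
def WT (Wo : List α → Prop) (x : ℤ) (y : List α) (t : ℤ) : Prop :=
  ∃ j : ℕ, t = x + j ∧ j ≤ y.length ∧ Wo (y.take j)

/-- small walls (right-looking) of the text `y` which starts at `x` -/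
def WS (Rs : List α → Prop) (x : ℤ) (y : List α) (t : ℤ) : Prop :=
  ∃ j : ℕ, t = x + j ∧ Rs (y.drop j)

section walls

variable {Wo : List α → Prop} {n : ℕ}

theorem WT.ge (hlen : ∀ Q, Wo Q → n ≤ Q.length) {x t : ℤ} {y : List α} (h : WT Wo x y t) :
    x + n ≤ t := by
  obtain ⟨j, rfl, hj, hw⟩ := h
  have := hlen _ hw
  rw [List.length_take] at this
  have : n ≤ j := by omega
  omega

theorem WT.le {x t : ℤ} {y : List α} (h : WT Wo x y t) : t ≤ x + y.length := by
  obtain ⟨j, rfl, hj, hw⟩ := h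
  omega

theorem WT.app {x t : ℤ} {y y' : List α} (h : WT Wo x y t) : WT Wo x (y ++ y') t := by
  obtain ⟨j, rfl, hj, hw⟩ := h
  exact ⟨j, rfl, by rw [List.length_append]; omega, by rwa [List.take_append_of_le_length hj]⟩

theorem WT.of_app {x t : ℤ} {y y' : List α} (h : WT Wo x (y ++ y') t) (ht : t ≤ x + y.length) :
    WT Wo x y t := by
  obtain ⟨j, rfl, hj, hw⟩ := h
  have hj' : j ≤ y.length := by omega
  exact ⟨j, rfl, hj', by rwa [List.take_append_of_le_length hj'] at hw⟩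

theorem WT.pre (hloc : ∀ P Q : List α, n ≤ Q.length → (Wo (P ++ Q) ↔ Wo Q))
    (hlen : ∀ Q, Wo Q → n ≤ Q.length) {x t : ℤ} {P Q : List α} (h : WT Wo (x + P.length) Q t) :
    WT Wo x (P ++ Q) t := by
  obtain ⟨j, rfl, hj, hw⟩ := h
  refine ⟨P.length + j, by push_cast; ring, by rw [List.length_append]; omega, ?_⟩
  rw [List.take_append, List.take_of_length_le (by omega)]
  rw [show P.length + j - P.length = j by omega, hloc _ _ (hlen _ hw)]
  exact hw

theorem WT.of_pre (hloc : ∀ P Q : List α, n ≤ Q.length → (Wo (P ++ Q) ↔ Wo Q))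
    {x t : ℤ} {P Q : List α} (h : WT Wo x (P ++ Q) t) (ht : x + P.length + n ≤ t) :
    WT Wo (x + P.length) Q t := by
  obtain ⟨j, rfl, hj, hw⟩ := h
  rw [List.length_append] at hj
  have h1 : P.length + n ≤ j := by omega
  refine ⟨j - P.length, by omega, by omega, ?_⟩
  rw [List.take_append, List.take_of_length_le (by omega), hloc _ _
    (by rw [List.length_take]; omega)] at hw
  exact hw

theorem WT.shift {x t : ℤ} {y : List α} (c : ℤ) : WT Wo (x + c) y (t + c) ↔ WT Wo x y t := by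
  constructor
  · rintro ⟨j, e, hj, hw⟩
    exact ⟨j, by linarith, hj, hw⟩
  · rintro ⟨j, e, hj, hw⟩
    exact ⟨j, by linarith, hj, hw⟩

theorem WT.gap {W : ℕ} (hgap : ∀ u y : List α, Wo (u ++ y) → 0 < y.length → y.length ≤ W → ¬ Wo u)
    {x s t : ℤ} {y : List α} (h : WT Wo x y s) (h' : WT Wo x y t) (hst : s < t) :
    (W : ℤ) < t - s := by
  obtain ⟨i, rfl, hi, hw⟩ := h
  obtain ⟨j, rfl, hj, hw'⟩ := h'
  by_contra hc
  have h1 : i < j := by omega
  have e1 : y.take j = y.take i ++ (y.drop i).take (j - i) := by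
    conv_lhs => rw [show j = i + (j - i) by omega]
    rw [List.take_add]
  rw [e1] at hw'
  have hl : ((y.drop i).take (j - i)).length = j - i := by
    rw [List.length_take, List.length_drop]; omega
  exact hgap _ _ hw' (by omega) (by omega) hw

theorem WS.shift {Rs : List α → Prop} {x t : ℤ} {y : List α} (c : ℤ) :
    WS Rs (x + c) y (t + c) ↔ WS Rs x y t := by
  constructor
  · rintro ⟨j, e, hw⟩
    exact ⟨j, by linarith, hw⟩
  · rintro ⟨j, e, hw⟩
    exact ⟨j, by linarith, hw⟩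

theorem WS.app {Rs : List α → Prop} {ns : ℕ} (hloc : ∀ Q, Rs Q ↔ Rs (Q.take ns))
    (hlen : ∀ Q, Rs Q → ns ≤ Q.length) {x t : ℤ} {y y' : List α} (hj0 : 0 < ns)
    (h : WS Rs x y t) : WS Rs x (y ++ y') t := by
  obtain ⟨j, rfl, hw⟩ := h
  have h1 := hlen _ hw
  rw [List.length_drop] at h1
  refine ⟨j, rfl, ?_⟩
  rw [List.drop_append_of_le_length (by omega), hloc, List.take_append_of_le_length
    (by rw [List.length_drop]; omega), ← hloc]
  exact hw

theorem WS.of_app {Rs : List α → Prop} {ns : ℕ} (hloc : ∀ Q, Rs Q ↔ Rs (Q.take ns))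
    {x t : ℤ} {y y' : List α} (h : WS Rs x (y ++ y') t) (ht : t + ns ≤ x + y.length) :
    WS Rs x y t := by
  obtain ⟨j, rfl, hw⟩ := h
  refine ⟨j, rfl, ?_⟩
  rw [List.drop_append_of_le_length (by omega), hloc, List.take_append_of_le_length
    (by rw [List.length_drop]; omega), ← hloc] at hw
  exact hw

theorem WS.pre {Rs : List α → Prop} {x t : ℤ} {P Q : List α} (h : WS Rs (x + P.length) Q t) :
    WS Rs x (P ++ Q) t := by
  obtain ⟨j, rfl, hw⟩ := h
  refine ⟨P.length + j, by push_cast; ring, ?_⟩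
  rwa [← List.drop_drop, List.drop_left]

theorem WS.of_pre {Rs : List α → Prop} {x t : ℤ} {P Q : List α} (h : WS Rs x (P ++ Q) t)
    (ht : x + P.length ≤ t) : WS Rs (x + P.length) Q t := by
  obtain ⟨j, rfl, hw⟩ := h
  refine ⟨j - P.length, by omega, ?_⟩
  rw [show j = P.length + (j - P.length) by omega, ← List.drop_drop, List.drop_left] at hw
  exact hw

theorem WS.gap {Rs : List α → Prop} {W : ℕ} (hgap : ∀ Q d, Rs Q → 0 < d → d ≤ W → ¬ Rs (Q.drop d))
    {x s t : ℤ} {y : List α} (h : WS Rs x y s) (h' : WS Rs x y t) (hst : s < t) :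
    (W : ℤ) < t - s := by
  obtain ⟨i, rfl, hw⟩ := h
  obtain ⟨j, rfl, hw'⟩ := h'
  by_contra hc
  apply hgap _ (j - i) hw (by omega) (by omega)
  rw [List.drop_drop, show i + (j - i) = j by omega]
  exact hw'

end walls

section chain

variable {Pr : Par}

theorem isN_mono {Wl Wl' : ℤ → Prop} {a b : ℤ}
    (h : ∀ t, a + Pr.z - (Pr.S - Pr.N1) ≤ t → t ≤ b → (Wl t ↔ Wl' t)) (hN : IsN Pr Wl a b) :
    IsN Pr Wl' a b := by
  obtain ⟨h1, h2⟩ := hN
  have hg := qual_ge h1
  refine ⟨⟨(h b hg le_rfl).1 h1.1, h1.2⟩, fun t ht hq => ?_⟩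
  exact h2 t ht ⟨(h t (qual_ge hq) ht.le).2 hq.1, hq.2⟩

theorem isN_shift {Wl Wl' : ℤ → Prop} {a b : ℤ} (c : ℤ) (h : ∀ t, Wl' (t + c) ↔ Wl t) :
    IsN Pr Wl' (a + c) (b + c) ↔ IsN Pr Wl a b := by
  have hq : ∀ t, Qual Pr Wl' (a + c) (t + c) ↔ Qual Pr Wl a t := by
    intro t
    unfold Qual
    rw [h t, show t + c - (a + c) = t - a by ring]
  unfold IsN
  rw [hq b]
  constructor
  · rintro ⟨h1, h2⟩
    exact ⟨h1, fun t ht hh => h2 (t + c) (by linarith) ((hq t).2 hh)⟩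
  · rintro ⟨h1, h2⟩
    refine ⟨h1, fun t ht hh => h2 (t - c) (by linarith) ((hq (t - c)).1 ?_)⟩
    rwa [sub_add_cancel]

theorem isB_shift {Wl Wl' : ℤ → Prop} {a b : ℤ} (c : ℤ) (h : ∀ t, Wl' (t + c) ↔ Wl t) :
    IsB Pr Wl' (a + c) (b + c) ↔ IsB Pr Wl a b := by
  have hq : ∀ t, QualR Pr Wl' (a + c) (t + c) ↔ QualR Pr Wl a t := by
    intro t
    unfold QualR
    rw [h t, show t + c - (a + c) = t - a by ring]
  unfold IsB
  rw [hq b]
  constructor
  · rintro ⟨h1, h2⟩
    exact ⟨h1, fun t ht hh => h2 (t + c) (by linarith) ((hq t).2 hh)⟩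
  · rintro ⟨h1, h2⟩
    refine ⟨h1, fun t ht hh => h2 (t - c) (by linarith) ((hq (t - c)).1 ?_)⟩
    rwa [sub_add_cancel]

theorem legal_shift {Wl Wl' : ℤ → Prop} {a : ℤ} (c : ℤ) (h : ∀ t, Wl' (t + c) ↔ Wl t) :
    Legal Pr Wl' (a + c) ↔ Legal Pr Wl a := by
  unfold Legal
  constructor
  · intro hl t ht
    have := hl (t + c) ((h t).2 ht)
    rwa [show t + c - (a + c) = t - a by ring] at this
  · intro hl t ht
    have := hl (t - c) ((h (t - c)).1 (by rwa [sub_add_cancel]))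
    rwa [show t - c - a = t - (a + c) by ring] at this

theorem bad_shift {Wl Wl' Ws Ws' : ℤ → Prop} {A : ℕ → ℤ} {D : ℤ} {K : ℕ} {m : ℕ → ℤ} {r : ℕ}
    {a : ℤ} (c : ℤ) (h : ∀ t, Wl' (t + c) ↔ Wl t) (hs : ∀ t, Ws' (t + c) ↔ Ws t)
    (hb : Bad Pr Wl Ws A D K m r a) : Bad Pr Wl' Ws' A D K m r (a + c) := by
  rcases hb with ⟨t, ht, h1⟩ | ⟨k, hk, u, hu, h1⟩ | ⟨i, hi, b, hN, h1⟩
  · left
    refine ⟨t + c, (h t).2 ht, ?_⟩
    rwa [show t + c - (a + c) = t - a by ring]
  · right; left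
    refine ⟨k, hk, u + c, (hs u).2 hu, ?_⟩
    rwa [show u + c - (a + c) = u - a by ring]
  · right; right
    refine ⟨i, hi, b + c, (isN_shift c h).2 hN, ?_⟩
    rwa [show b + c - (a + c) = b - a by ring]

/-- `Bad` only needs the walls from `a + z - S` on, and the small walls near the levels -/
theorem bad_mono {Wl Wl' Ws Ws' : ℤ → Prop} {A : ℕ → ℤ} {D : ℤ} {K : ℕ} {m : ℕ → ℤ} {r : ℕ}
    {a : ℤ}
    (h1 : ∀ t, a + Pr.z - Pr.S ≤ t → t ≤ a + Pr.z + Pr.S → Wl t → Wl' t)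
    (h2 : ∀ b, IsN Pr Wl a b → ∀ t, a + Pr.z - Pr.S ≤ t → t ≤ b → (Wl t ↔ Wl' t))
    (hs : ∀ k < K, ∀ u, |u - a - A k| ≤ D → Ws u → Ws' u)
    (hb : Bad Pr Wl Ws A D K m r a) : Bad Pr Wl' Ws' A D K m r a := by
  have hN1 := Pr.hN
  rcases hb with ⟨t, ht, h3⟩ | ⟨k, hk, u, hu, h3⟩ | ⟨i, hi, b, hN, h3⟩
  · left
    refine ⟨t, h1 t ?_ ?_ ht, h3⟩
    · have := abs_le.1 h3
      have := s_ge (P := Pr) ((t - a - Pr.z) % Pr.M)
      linarith
    · have := abs_le.1 h3
      have := s_le (P := Pr) ((t - a - Pr.z) % Pr.M)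
      linarith
  · right; left
    exact ⟨k, hk, u, hs k hk u h3 hu, h3⟩
  · right; right
    exact ⟨i, hi, b, isN_mono (fun t h4 h5 => h2 b hN t (by linarith) h5) hN, h3⟩

end chain

end Crest.Agent.R320.H1_996
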