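import Crest.Agent.R320.H1c_203

/-! Row 320, HALF 1, part d: reading the product (helper203). -/

set_option autoImplicit false
set_option linter.unusedSectionVars false

namespace Crest.Agent.R320.H1_203

open Crest.Agent.R320.Nest_85 Crest.Agent.R320.Gad1_420 Crest.Agent.R320.Hgt1_903

variable {α S V W : Type*} [Monoid S] [AddCommGroup V] [AddCommGroup W]
variable {d : Dt α S V W}

theorem run_affine (hφ : ∀ u v, d.φ (u ++ v) = d.φ u * d.φ v) (hφ0 : d.φ [] = 1)
    (ha : ∀ v v' s, d.act (v + v') s = d.act v s + d.act v' s)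
    (hm : ∀ v s t, d.act (d.act v s) t = d.act v (s * t)) (h1 : ∀ v, d.act v 1 = v)
    (w : List α) : ∃ w1 P c, w = w1 ++ P ∧
      ∀ v, run d.step (v, []) w = (d.act v (d.φ w1) + c, P) := by
  classical
  induction w using List.reverseRecOn with
  | nil => exact ⟨[], [], 0, rfl, fun v => by rw [hφ0, h1, add_zero]; rfl⟩
  | append_singleton w a ih =>
    obtain ⟨w1, P, c, e, hr⟩ := ih
    by_cases hB : d.Blk (P ++ [a])
    · refine ⟨w ++ [a], [], d.T c (P ++ [a]), by simp, fun v => ?_⟩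
      rw [run_append, hr v]
      change d.step (d.act v (d.φ w1) + c, P) a = _
      unfold Par.step
      simp only
      rw [if_pos hB]
      congr 1
      have hX : d.φ (w ++ [a]) = d.φ w1 * (d.φ ((P ++ [a]).take d.p0) * d.φ ((P ++ [a]).drop d.p0)) := by
        rw [← hφ, List.take_append_drop, ← hφ, e, List.append_assoc]
      rw [hX]
      unfold Par.T
      simp only [ha, hm, mul_assoc]
      abel
    · refine ⟨w1, P ++ [a], c, by rw [e]; simp, fun v => ?_⟩
      rw [run_append, hr v]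
      change d.step (d.act v (d.φ w1) + c, P) a = _
      unfold Par.step
      simp only
      rw [if_neg hB]

/-- HALF 1 from the hypotheses -/
theorem half_of_hyp [Finite α] [Finite S] [Finite V] (h : d.Hyp) (hφ0 : d.φ [] = 1)
    (ha : ∀ v v' s, d.act (v + v') s = d.act v s + d.act v' s)
    (hm : ∀ v s t, d.act (d.act v s) t = d.act v (s * t)) (h1 : ∀ v, d.act v 1 = v)
    (v1 : V) (hf : ∀ s t, d.act v1 s = d.act v1 t → s = t)
    (hrf : H 2 ({w | d.rf w} : Language α)) (s : S) :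
    H 2 ({w | d.rf w ∧ d.φ w = s} : Language α) := by
  classical
  have hE1 : ∀ (a : V) (g : S), ∃ E : Language α, H 2 E ∧ ∀ w, d.rf w →
      (w ∈ E ↔ ((run d.step (v1, []) w).1 = a ∧ d.φ (run d.step (v1, []) w).2 = g)) := fun a g =>
    levels h v1 (fun q => q.1 = a ∧ d.φ q.2 = g)
  have hE0 : ∀ (a : V), ∃ E : Language α, H 2 E ∧ ∀ w, d.rf w →
      (w ∈ E ↔ (run d.step (0, []) w).1 = a) := fun a => levels h 0 (fun q => q.1 = a)
  choose E1 hE1h hE1 using hE1
  choose E0 hE0h hE0 using hE0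
  have key : H 2 ({w | ∃ x : V × V × S × S, w ∈ ({w | (w ∈ E1 x.1 x.2.2.1 ∧ w ∈ E0 x.2.1) ∧
      w ∈ ({_w | d.act v1 x.2.2.2 = x.1 - x.2.1 ∧ x.2.2.2 * x.2.2.1 = s} : Language α)} :
        Language α)} : Language α) :=
    H.exists_fintype _ fun x => H.inter (H.inter (hE1h _ _) (hE0h _)) (H.const 2 _)
  refine H.congr (H.inter hrf key) fun w => ?_
  change (d.rf w ∧ ∃ x : V × V × S × S, (w ∈ E1 x.1 x.2.2.1 ∧ w ∈ E0 x.2.1) ∧
    (d.act v1 x.2.2.2 = x.1 - x.2.1 ∧ x.2.2.2 * x.2.2.1 = s)) ↔ (d.rf w ∧ d.φ w = s)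
  refine and_congr_right fun hw => ?_
  obtain ⟨w1, P, c, e, hr⟩ := run_affine h.hφ hφ0 ha hm h1 w
  have hz : ∀ t, d.act 0 t = 0 := by
    intro t
    have := ha 0 0 t
    rw [add_zero] at this
    simpa using this.symm
  have hw' : d.φ w = d.φ w1 * d.φ P := by rw [e, h.hφ]
  constructor
  · rintro ⟨⟨a1, a0, g, k⟩, ⟨hx1, hx0⟩, hx2, hx3⟩
    rw [hE1 _ _ w hw, hr v1] at hx1
    rw [hE0 _ w hw, hr 0] at hx0
    simp only at hx1 hx0 hx2 hx3
    rw [← hx1.1, ← hx0, hz] at hx2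
    have : d.act v1 k = d.act v1 (d.φ w1) := by rw [hx2]; abel
    rw [hw', ← hf _ _ this, hx1.2, hx3]
  · intro hs
    refine ⟨(d.act v1 (d.φ w1) + c, d.act 0 (d.φ w1) + c, d.φ P, d.φ w1), ⟨?_, ?_⟩, ?_, ?_⟩
    · rw [hE1 _ _ w hw, hr v1]; exact ⟨rfl, rfl⟩
    · rw [hE0 _ w hw, hr 0]
    · simp only; rw [hz]; abel
    · simp only; rw [← hw', hs]

end Crest.Agent.R320.H1_203
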