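import Crest.Agent.R320.H1c_996

/-!
Row 320, HALF 1 in the block calculus (helper996): the two schemes on blocks.
-/

set_option autoImplicit false

namespace Crest.Agent.R320.H1_996

open Crest.Agent.R320.ThrChain260 Crest.Agent.R320.Ruler2_537 Crest.Agent.R320.Hk_851
  Crest.Agent.R320.Blk467

/-- the parameters -/
structure Cfg (α : Type) where
  Pr : Par
  Wo : List α → Prop
  no : ℕ
  hWl : ∀ P Q : List α, no ≤ Q.length → (Wo (P ++ Q) ↔ Wo Q)
  hWn : ∀ Q, Wo Q → no ≤ Q.length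
  Rs : List α → Prop
  ns : ℕ
  hns : 0 < ns
  hRl : ∀ Q, Rs Q ↔ Rs (Q.take ns)
  hRn : ∀ Q, Rs Q → ns ≤ Q.length
  p0 : ℕ
  hp0 : Pr.p0 = p0
  n0 : ℕ
  A : ℕ → ℤ
  D : ℤ
  K : ℕ
  mm : ℕ → ℤ
  r : ℕ
  Kp : ℕ
  xp : ℕ → ℕ
  hx1 : ∀ j < Kp, n0 ≤ xp j
  hx2 : ∀ j < Kp, xp j ≤ p0
  hA1 : ∀ k < K, ∀ j < Kp, (xp j : ℤ) + D ≤ A k
  hA2 : ∀ k < K, A k + D + ns ≤ Pr.z
  hz : (p0 : ℤ) + p0 + no + n0 + 2 * Pr.S + 1 ≤ Pr.z

namespace Cfg

variable {α : Type} (c : Cfg α)

/-- the block code -/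
def Blk : Set (List α) := {X | IsN c.Pr (WT c.Wo 0 X) 0 X.length}

theorem S_nonneg : 0 ≤ c.Pr.S := by
  have := c.Pr.hs 0
  have h1 := abs_nonneg (c.Pr.s 0)
  have h2 := c.Pr.hN
  linarith

theorem Blk_len {X : List α} (h : X ∈ c.Blk) : c.Pr.z - c.Pr.S ≤ X.length := by
  have := qual_ge h.1
  have := c.Pr.hN
  linarith

theorem Blk_pcode : PCode c.Blk := by
  have hS := c.S_nonneg
  have hz := c.hz
  constructor
  · intro h
    have := c.Blk_len h
    simp only [List.length_nil, Nat.cast_zero] at this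
    linarith
  · intro X hX Y hY hXY
    obtain ⟨y, rfl⟩ := hXY
    by_contra hne
    have hy : y ≠ [] := fun h => hne (by simp [h])
    have hy' : 0 < y.length := List.length_pos_iff.2 hy
    refine hY.2 X.length (by rw [List.length_append]; push_cast; linarith
      [show (0:ℤ) < y.length by exact_mod_cast hy']) ⟨WT.app hX.1.1, hX.1.2⟩

/-- chain end inside the right part -/
theorem isN_right {P Q : List α} {b : ℤ} (hP : (P.length : ℤ) + c.no ≤ c.Pr.z - c.Pr.S)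
    (h : IsN c.Pr (WT c.Wo 0 (P ++ Q)) 0 b) : IsN c.Pr (WT c.Wo P.length Q) 0 b := by
  have hN := c.Pr.hN
  refine isN_mono (fun t h1 h2 => ⟨fun h => ?_, fun h => ?_⟩) h
  · have := WT.of_pre c.hWl h (by linarith)
    rwa [zero_add] at this
  · exact WT.pre c.hWl c.hWn (by rwa [zero_add])

theorem isN_left {P Q : List α} {b : ℤ} (hP : (P.length : ℤ) + c.no ≤ c.Pr.z - c.Pr.S + c.Pr.N1)
    (h : IsN c.Pr (WT c.Wo P.length Q) 0 b) : IsN c.Pr (WT c.Wo 0 (P ++ Q)) 0 b := by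
  have hN := c.Pr.hN
  refine isN_mono (fun t h1 h2 => ⟨fun h => ?_, fun h => ?_⟩) h
  · exact WT.pre c.hWl c.hWn (by rwa [zero_add])
  · have := WT.of_pre c.hWl h (by linarith)
    rwa [zero_add] at this

section scheme1

variable {S V : Type} [Monoid S] [AddCommGroup V] (act : V → S → V) (f : α → S)
  (Lf Rf : List α → Option V) (nu : List α → V)

/-- the zone map of scheme 1 -/
def T (v : V) (X : List α) : V := act v (X.map f).prod + nu (X.drop c.p0)

/-- left words of scheme 1 -/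
def LP (v : V) : Language α :=
  {P | P.length ≤ c.p0 + c.Pr.N1.toNat ∧ c.p0 ≤ P.length ∧
    Lf (P.drop c.p0) = some (act v ((P.take c.p0).map f).prod)}

/-- right words of scheme 1 -/
def RQ (B : ℕ) (v : V) : Language α :=
  {Q | Q.length ≤ B ∧ Legal c.Pr (WT c.Wo 0 Q) 0 ∧ IsB c.Pr (WT c.Wo 0 Q) 0 Q.length ∧
    Rf Q = some v}

theorem sound1 (hmul : ∀ v s t, act v (s * t) = act (act v s) t)
    (g1 : ∀ P Q v r, Lf P = some v → Rf Q = some r →
      r = act v ((P ++ Q).map f).prod + nu (P ++ Q))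
    (g2 : ∀ P v, Lf P = some v → c.Pr.M ∣ (P.length : ℤ) ∧ (P.length : ℤ) ≤ c.Pr.N1)
    (B : ℕ) {v v' : V} {P Q : List α} (hP : P ∈ c.LP act f Lf v) (hQ : Q ∈ c.RQ Rf B v') :
    P ++ Q ∈ c.Blk ∧ c.T act f nu v (P ++ Q) = v' := by
  obtain ⟨hP1, hP2, hP3⟩ := hP
  obtain ⟨hQ1, hQ2, hQ3, hQ4⟩ := hQ
  have hS := c.S_nonneg
  have hz := c.hz
  obtain ⟨q1, q2⟩ := g2 _ _ hP3
  rw [List.length_drop] at q1 q2
  have hcast : ((P.length - c.p0 : ℕ) : ℤ) = P.length - c.p0 := by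
    rw [Nat.cast_sub hP2]
  rw [hcast] at q1 q2
  have hwin : InWin c.Pr (-(P.length : ℤ)) 0 := by
    unfold InWin
    rw [c.hp0]
    have e : (0:ℤ) - c.p0 - (-(P.length : ℤ)) = P.length - c.p0 := by ring
    rw [e]
    exact ⟨by have : (c.p0 : ℤ) ≤ P.length := by exact_mod_cast hP2
              linarith, q2, q1⟩
  have h1 := (isN_iff_isB hQ2 hwin _).2 hQ3
  have h2 : IsN c.Pr (WT c.Wo (0 + P.length) Q) (-(P.length : ℤ) + P.length)
      ((Q.length : ℤ) + P.length) :=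
    (isN_shift (P.length : ℤ) (fun t => WT.shift (P.length : ℤ))).2 h1
  rw [neg_add_cancel, zero_add] at h2
  constructor
  · have h3 := c.isN_left (by linarith [Nat.zero_le c.n0, (Nat.cast_nonneg c.n0 : (0:ℤ) ≤ c.n0),
      (Nat.cast_nonneg c.p0 : (0:ℤ) ≤ c.p0)]) h2
    show IsN c.Pr _ 0 _
    rw [List.length_append]
    push_cast
    rw [add_comm]
    exact h3
  · have h4 := g1 _ _ _ _ hP3 hQ4
    unfold T
    rw [h4]
    have e1 : (P ++ Q).drop c.p0 = P.drop c.p0 ++ Q := List.drop_append_of_le_length hP2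
    rw [e1]
    have e4 : ((P ++ Q).map f).prod =
        ((P.take c.p0).map f).prod * ((P.drop c.p0 ++ Q).map f).prod := by
      rw [← List.prod_append, ← List.map_append, ← List.append_assoc, List.take_append_drop]
    rw [e4, hmul]

theorem compl1 [Finite V] (B : ℕ)
    (g1 : ∀ P Q v r, Lf P = some v → Rf Q = some r →
      r = act v ((P ++ Q).map f).prod + nu (P ++ Q))
    (hmul : ∀ v s t, act v (s * t) = act (act v s) t)
    (g2 : ∀ P v, Lf P = some v → c.Pr.M ∣ (P.length : ℤ) ∧ (P.length : ℤ) ≤ c.Pr.N1)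
    (hzN : (c.p0 : ℤ) + c.Pr.N1 + c.no ≤ c.Pr.z - c.Pr.S)
    {X : List α} (hX : X ∈ c.Blk) (hXB : X.length ≤ B) (hE : ¬ E c.Pr (WT c.Wo 0 X) 0)
    (hcut : ∀ v, ∃ P Q, P ++ Q = X.drop c.p0 ∧ Lf P = some v ∧ (Rf Q).isSome) (v : V) :
    ∃ P Q, P ++ Q = X ∧ P ∈ c.LP act f Lf v ∧ Q ∈ c.RQ Rf B (c.T act f nu v X) := by
  have hS := c.S_nonneg
  have hz := c.hz
  have hN := c.Pr.hN
  have hXl := c.Blk_len hX
  have hp0X : c.p0 ≤ X.length := by
    have : (c.p0 : ℤ) ≤ X.length := by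
      linarith [(Nat.cast_nonneg c.n0 : (0:ℤ) ≤ c.n0), (Nat.cast_nonneg c.no : (0:ℤ) ≤ c.no)]
    exact_mod_cast this
  obtain ⟨P1, Q, hPQ, hL, hR⟩ := hcut (act v ((X.take c.p0).map f).prod)
  obtain ⟨r, hr⟩ := Option.isSome_iff_exists.1 hR
  obtain ⟨q1, q2⟩ := g2 _ _ hL
  have hX0 : (X.take c.p0).length = c.p0 := by rw [List.length_take]; omega
  have eX : (X.take c.p0 ++ P1) ++ Q = X := by
    rw [List.append_assoc, hPQ, List.take_append_drop]
  have hPl : ((X.take c.p0 ++ P1).length : ℤ) = c.p0 + P1.length := by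
    rw [List.length_append, hX0]; push_cast; ring
  have hLP : X.take c.p0 ++ P1 ∈ c.LP act f Lf v := by
    refine ⟨?_, ?_, ?_⟩
    · have : (P1.length : ℤ) ≤ c.Pr.N1.toNat := by rw [Int.toNat_of_nonneg hN]; exact q2
      have h2 : P1.length ≤ c.Pr.N1.toNat := by exact_mod_cast this
      rw [List.length_append, hX0]; omega
    · rw [List.length_append, hX0]; omega
    · have e1 : (X.take c.p0 ++ P1).drop c.p0 = P1 := by
        conv_lhs => rw [← hX0]
        rw [hX0]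
        exact List.drop_left' hX0
      have e2 : (X.take c.p0 ++ P1).take c.p0 = X.take c.p0 := List.take_left' hX0
      rw [e1, e2]; exact hL
  have hwin : InWin c.Pr 0 ((X.take c.p0 ++ P1).length : ℤ) := by
    unfold InWin
    rw [c.hp0, hPl]
    have e : (c.p0 : ℤ) + P1.length - c.p0 - 0 = P1.length := by ring
    rw [e]
    exact ⟨by positivity, q2, q1⟩
  have hleg := legal_of_not_E hE hwin
  have hleg2 : Legal c.Pr (WT c.Wo ((X.take c.p0 ++ P1).length : ℤ) Q)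
      ((X.take c.p0 ++ P1).length : ℤ) := by
    intro t ht
    apply hleg t
    rw [← eX]
    exact WT.pre c.hWl c.hWn (by rwa [zero_add])
  have hN2 : IsN c.Pr (WT c.Wo ((X.take c.p0 ++ P1).length : ℤ) Q) 0 X.length := by
    apply c.isN_right
    · rw [hPl]; linarith
    · rw [eX]; exact hX
  have hB2 := (isN_iff_isB hleg2 hwin _).1 hN2
  have hsh : ∀ t : ℤ, WT c.Wo ((X.take c.p0 ++ P1).length : ℤ) Q
      (t + ((X.take c.p0 ++ P1).length : ℤ)) ↔ WT c.Wo 0 Q t := by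
    intro t
    have := WT.shift (Wo := c.Wo) (x := 0) (t := t) (y := Q) ((X.take c.p0 ++ P1).length : ℤ)
    rwa [zero_add] at this
  have hleg3 : Legal c.Pr (WT c.Wo 0 Q) 0 := by
    rw [← legal_shift ((X.take c.p0 ++ P1).length : ℤ) hsh, zero_add]
    exact hleg2
  have hlen : (X.length : ℤ) = Q.length + ((X.take c.p0 ++ P1).length : ℤ) := by
    conv_lhs => rw [← eX]
    rw [List.length_append (as := X.take c.p0 ++ P1)]
    push_cast; ring
  have hB3 : IsB c.Pr (WT c.Wo 0 Q) 0 Q.length := by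
    rw [← isB_shift ((X.take c.p0 ++ P1).length : ℤ) hsh, zero_add, ← hlen]
    exact hB2
  have hRQ : Q ∈ c.RQ Rf B r := ⟨by
    have h5 : X.length = (X.take c.p0 ++ P1).length + Q.length := by
      conv_lhs => rw [← eX]
      rw [List.length_append (as := X.take c.p0 ++ P1)]
    omega, hleg3, hB3, hr⟩
  refine ⟨_, Q, eX, hLP, ?_⟩
  have := (c.sound1 act f Lf Rf nu hmul g1 g2 B hLP hRQ).2
  rw [eX] at this
  rw [this]
  exact hRQ

end scheme1

end Cfg

end Crest.Agent.R320.H1_996
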