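import Mathlib
import Crest.Agent.R320.Ruler_302

set_option autoImplicit false

namespace Crest.Agent.R320.Spoil_203

/-- `Ev j j'` : candidate `j'` looks bad from the cut `j`. -/
def Ev (M' M U N1 p0 no mm : ℕ) (thr A : ℕ → ℕ) (Ms : Finset ℕ) (Wt Sm : ℕ → Prop) (j j' : ℕ) : Prop :=
  ∃ τ, U * 4 ^ j + no ≤ τ ∧ Wt τ ∧
    thr ((τ + U * 4 ^ j' - U * 4 ^ j) % M') ≤ τ + U * 4 ^ j' - U * 4 ^ j ∧
    (∀ t, U * 4 ^ j + no ≤ t → t < τ → Wt t →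
      ¬ thr ((t + U * 4 ^ j' - U * 4 ^ j) % M') ≤ t + U * 4 ^ j' - U * 4 ^ j) ∧
    ((∃ t, U * 4 ^ j + no ≤ t ∧ t ≤ τ ∧ Wt t ∧
        thr ((t + U * 4 ^ j' - U * 4 ^ j) % M') ≤ t + U * 4 ^ j' - U * 4 ^ j + N1 ∧
        t + U * 4 ^ j' - U * 4 ^ j ≤ thr ((t + U * 4 ^ j' - U * 4 ^ j) % M') + N1) ∨
      (∃ k ∈ Ms, k ∣ (τ + U * 4 ^ j' - U * 4 ^ j - p0) / M') ∨
      (∃ k, k ≤ mm ∧ ∃ s, A k ≤ s + M' * M ∧ s < A k + M' * M ∧
        Sm (U * 4 ^ j + (p0 - U * 4 ^ j' + s))))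

section
variable {K M' M U N1 p0 no mm z0 L : ℕ} {thr A : ℕ → ℕ} {Ms : Finset ℕ} {Wt Sm : ℕ → Prop}

theorem thr_le {D : ℕ} (hM' : 0 < M') (hthr : ∀ r, r < M' → thr r = z0 + r * D) (x : ℕ) :
    z0 ≤ thr (x % M') ∧ thr (x % M') ≤ z0 + M' * D := by
  have h := Nat.mod_lt x hM'
  rw [hthr _ h]
  have := Nat.mul_le_mul_right D h.le
  omega

theorem lemE {a1 b1 a2 b2 t1 t2 : ℕ} (hM' : 0 < M')
    (hthr : ∀ r, r < M' → thr r = z0 + r * (2 * N1 + 2 * L + 1)) (hz0 : p0 + N1 + no + 2 * L ≤ z0)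
    (hW : ∀ s t, Wt s → Wt t → s < t → M' * (2 * N1 + 2 * L + 1) + 2 * L + 2 * N1 < t - s)
    (ha1 : a1 < L) (hb1 : b1 < L) (ha2 : a2 < L) (hb2 : b2 < L)
    (h1 : b1 + no ≤ t1) (h2 : b2 + no ≤ t2) (w1 : Wt t1) (w2 : Wt t2)
    (c1 : thr ((t1 + a1 - b1) % M') ≤ t1 + a1 - b1 + N1)
    (d1 : t1 + a1 - b1 ≤ thr ((t1 + a1 - b1) % M') + N1)
    (c2 : thr ((t2 + a2 - b2) % M') ≤ t2 + a2 - b2 + N1)
    (d2 : t2 + a2 - b2 ≤ thr ((t2 + a2 - b2) % M') + N1) :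
    (M' : ℤ) ∣ ((a1 : ℤ) - b1) - ((a2 : ℤ) - b2) := by
  obtain ⟨e1, f1⟩ := thr_le hM' hthr (t1 + a1 - b1)
  obtain ⟨e2, f2⟩ := thr_le hM' hthr (t2 + a2 - b2)
  have ht : t1 = t2 := by
    rcases lt_trichotomy t1 t2 with h | h | h
    · have := hW _ _ w1 w2 h; omega
    · exact h
    · have := hW _ _ w2 w1 h; omega
  subst ht
  have hr : (t1 + a1 - b1) % M' = (t1 + a2 - b2) % M' := by
    have g1 := hthr _ (Nat.mod_lt (t1 + a1 - b1) hM')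
    have g2 := hthr _ (Nat.mod_lt (t1 + a2 - b2) hM')
    rw [g1] at c1 d1
    rw [g2] at c2 d2
    generalize (t1 + a1 - b1) % M' = r1 at *
    generalize (t1 + a2 - b2) % M' = r2 at *
    rcases lt_trichotomy r1 r2 with h | h | h
    · have := Nat.mul_le_mul_right (2 * N1 + 2 * L + 1) (Nat.succ_le_of_lt h)
      rw [Nat.succ_mul] at this
      omega
    · exact h
    · have := Nat.mul_le_mul_right (2 * N1 + 2 * L + 1) (Nat.succ_le_of_lt h)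
      rw [Nat.succ_mul] at this
      omega
  have h3 : ((t1 + a1 - b1 : ℕ) : ℤ) ≡ ((t1 + a2 - b2 : ℕ) : ℤ) [ZMOD M'] :=
    Int.natCast_modEq_iff.2 hr
  have h4 := h3.symm.dvd
  have h5 : ((t1 + a1 - b1 : ℕ) : ℤ) - ((t1 + a2 - b2 : ℕ) : ℤ) = ((a1 : ℤ) - b1) - ((a2 : ℤ) - b2) := by
    omega
  rwa [h5] at h4

theorem lemB {a1 b1 a2 b2 t1 t2 k : ℕ} (hM' : 0 < M')
    (hthr : ∀ r, r < M' → thr r = z0 + r * (2 * N1 + 2 * L + 1)) (hz0 : p0 + N1 + no + 2 * L ≤ z0)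
    (hW : ∀ s t, Wt s → Wt t → s < t → M' * (2 * N1 + 2 * L + 1) + 2 * L + 2 * N1 < t - s)
    (ha1 : a1 < L) (hb1 : b1 < L) (ha2 : a2 < L) (hb2 : b2 < L)
    (h1 : b1 + no ≤ t1) (h2 : b2 + no ≤ t2) (w1 : Wt t1) (w2 : Wt t2)
    (c1 : thr ((t1 + a1 - b1) % M') ≤ t1 + a1 - b1)
    (c2 : thr ((t2 + a2 - b2) % M') ≤ t2 + a2 - b2)
    (f1 : ∀ t, b1 + no ≤ t → t < t1 → Wt t → ¬ thr ((t + a1 - b1) % M') ≤ t + a1 - b1)
    (f2 : ∀ t, b2 + no ≤ t → t < t2 → Wt t → ¬ thr ((t + a2 - b2) % M') ≤ t + a2 - b2)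
    (hb : t1 ≤ z0 + M' * (2 * N1 + 2 * L + 1) + L ↔ t2 ≤ z0 + M' * (2 * N1 + 2 * L + 1) + L)
    (k1 : k ∣ (t1 + a1 - b1 - p0) / M') (k2 : k ∣ (t2 + a2 - b2 - p0) / M') :
    ∃ r : ℤ, |r| < M' ∧ (k : ℤ) * M' ∣ ((a1 : ℤ) - b1) - ((a2 : ℤ) - b2) - r := by
  obtain ⟨e1, g1⟩ := thr_le hM' hthr (t1 + a1 - b1)
  obtain ⟨e2, g2⟩ := thr_le hM' hthr (t2 + a2 - b2)
  have ht : t1 = t2 := by
    by_cases hc : t1 ≤ z0 + M' * (2 * N1 + 2 * L + 1) + L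
    · have hc2 := hb.1 hc
      rcases lt_trichotomy t1 t2 with h | h | h
      · have := hW _ _ w1 w2 h; omega
      · exact h
      · have := hW _ _ w2 w1 h; omega
    · have hc2 : ¬ t2 ≤ z0 + M' * (2 * N1 + 2 * L + 1) + L := fun h => hc (hb.2 h)
      rcases lt_trichotomy t1 t2 with h | h | h
      · have := f2 t1 (by omega) h w1
        have h3 := (thr_le hM' hthr (t1 + a2 - b2)).2
        omega
      · exact h
      · have := f1 t2 (by omega) h w2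
        have h3 := (thr_le hM' hthr (t2 + a1 - b1)).2
        omega
  subst ht
  obtain ⟨q1, hq1⟩ := k1
  obtain ⟨q2, hq2⟩ := k2
  have i1 := Nat.div_add_mod (t1 + a1 - b1 - p0) M'
  have i2 := Nat.div_add_mod (t1 + a2 - b2 - p0) M'
  have j1 := Nat.mod_lt (t1 + a1 - b1 - p0) hM'
  have j2 := Nat.mod_lt (t1 + a2 - b2 - p0) hM'
  rw [hq1] at i1
  rw [hq2] at i2
  generalize (t1 + a1 - b1 - p0) % M' = r1 at *
  generalize (t1 + a2 - b2 - p0) % M' = r2 at *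
  refine ⟨(r1 : ℤ) - r2, by rw [abs_lt]; constructor <;> omega, (q1 : ℤ) - q2, ?_⟩
  have l1 : ((t1 + a1 - b1 - p0 : ℕ) : ℤ) = M' * (k * q1) + r1 := by exact_mod_cast i1.symm
  have l2 : ((t1 + a2 - b2 - p0 : ℕ) : ℤ) = M' * (k * q2) + r2 := by exact_mod_cast i2.symm
  have m1 : ((t1 + a1 - b1 - p0 : ℕ) : ℤ) = t1 + a1 - b1 - p0 := by omega
  have m2 : ((t1 + a2 - b2 - p0 : ℕ) : ℤ) = t1 + a2 - b2 - p0 := by omega
  rw [m1] at l1
  rw [m2] at l2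
  linear_combination l1 - l2

theorem lemD {a1 b1 a2 b2 s1 s2 X : ℕ} (hp : L ≤ p0)
    (hS : ∀ s t, Sm s → Sm t → s < t → 2 * L + 2 * X < t - s)
    (ha1 : a1 < L) (hb1 : b1 < L) (ha2 : a2 < L) (hb2 : b2 < L) {B : ℕ}
    (c1 : B ≤ s1 + X) (d1 : s1 < B + X) (c2 : B ≤ s2 + X) (d2 : s2 < B + X)
    (w1 : Sm (b1 + (p0 - a1 + s1))) (w2 : Sm (b2 + (p0 - a2 + s2))) :
    |((a1 : ℤ) - b1) - ((a2 : ℤ) - b2)| < 2 * X := by
  have ht : b1 + (p0 - a1 + s1) = b2 + (p0 - a2 + s2) := by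
    rcases lt_trichotomy (b1 + (p0 - a1 + s1)) (b2 + (p0 - a2 + s2)) with h | h | h
    · have := hS _ _ w1 w2 h; omega
    · exact h
    · have := hS _ _ w2 w1 h; omega
  rw [abs_lt]
  constructor <;> omega

end

theorem spoil (K M' M U N1 p0 no mm z0 : ℕ) (thr A : ℕ → ℕ) (Ms : Finset ℕ) (Wt Sm : ℕ → Prop)
    (hK : 4 ^ K ≤ M') (hM : 0 < M) (hMs : ∀ k ∈ Ms, 2 * 4 ^ K + 2 ≤ k ∧ k ∣ M)
    (hU : U = M' * (1 + M * 2) + 1) (hp0 : U * 4 ^ K ≤ p0)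
    (hthr : ∀ r, r < M' → thr r = z0 + r * (2 * N1 + 2 * (U * 4 ^ K) + 1))
    (hz0 : p0 + N1 + no + 2 * (U * 4 ^ K) ≤ z0)
    (hW : ∀ s t, Wt s → Wt t → s < t →
      M' * (2 * N1 + 2 * (U * 4 ^ K) + 1) + 2 * (U * 4 ^ K) + 2 * N1 < t - s)
    (hS : ∀ s t, Sm s → Sm t → s < t → 2 * (U * 4 ^ K) + 2 * (M' * M) < t - s)
    (J : Finset ℕ) (hJ : ∀ j ∈ J, j < K) (hc : 1 + 2 * Ms.card + (mm + 1) < J.card) :
    ∃ j ∈ J, ∀ j', j' < K → j' ≠ j → ¬ Ev M' M U N1 p0 no mm thr A Ms Wt Sm j j' := by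
  classical
  by_contra hcon
  push Not at hcon
  have hM'0 : 0 < M' := lt_of_lt_of_le (by positivity) hK
  have hU0 : 0 < U := by rw [hU]; omega
  set L := U * 4 ^ K with hL
  have hlt : ∀ j, j < K → U * 4 ^ j < L := fun j hj =>
    Nat.mul_lt_mul_of_pos_left (Nat.pow_lt_pow_right (by norm_num) hj) hU0
  let B0 := z0 + M' * (2 * N1 + 2 * L + 1) + L
  -- property of a tag
  let PE : ℕ → ℕ → Prop := fun j j' => ∃ t, U * 4 ^ j + no ≤ t ∧ Wt t ∧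
        thr ((t + U * 4 ^ j' - U * 4 ^ j) % M') ≤ t + U * 4 ^ j' - U * 4 ^ j + N1 ∧
        t + U * 4 ^ j' - U * 4 ^ j ≤ thr ((t + U * 4 ^ j' - U * 4 ^ j) % M') + N1
  let PB : ℕ → Bool → ℕ → ℕ → Prop := fun k b j j' => ∃ τ, U * 4 ^ j + no ≤ τ ∧ Wt τ ∧
    thr ((τ + U * 4 ^ j' - U * 4 ^ j) % M') ≤ τ + U * 4 ^ j' - U * 4 ^ j ∧
    (∀ t, U * 4 ^ j + no ≤ t → t < τ → Wt t →
      ¬ thr ((t + U * 4 ^ j' - U * 4 ^ j) % M') ≤ t + U * 4 ^ j' - U * 4 ^ j) ∧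
    k ∣ (τ + U * 4 ^ j' - U * 4 ^ j - p0) / M' ∧ (b = true ↔ τ ≤ B0)
  let PD : ℕ → ℕ → ℕ → Prop := fun k j j' => ∃ s, A k ≤ s + M' * M ∧ s < A k + M' * M ∧
        Sm (U * 4 ^ j + (p0 - U * 4 ^ j' + s))
  let P : ℕ × ℕ × Bool → ℕ → ℕ → Prop := fun c j j' =>
    if c.1 = 0 then PE j j' else if c.1 = 1 then PB c.2.1 c.2.2 j j' else PD c.2.1 j j'
  let tags : Finset (ℕ × ℕ × Bool) := insert (0, 0, false)
    (((Ms ×ˢ (Finset.univ : Finset Bool)).image fun x => (1, x.1, x.2)) ∪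
      ((Finset.range (mm + 1)).image fun x => (2, x, false)))
  have hcard : tags.card ≤ 1 + 2 * Ms.card + (mm + 1) := by
    have h1 : tags.card ≤ _ := Finset.card_insert_le _ _
    have h2 := Finset.card_union_le ((Ms ×ˢ (Finset.univ : Finset Bool)).image
      fun x => ((1 : ℕ), x.1, x.2)) ((Finset.range (mm + 1)).image fun x => ((2 : ℕ), x, false))
    have h3 : ((Ms ×ˢ (Finset.univ : Finset Bool)).image fun x => ((1 : ℕ), x.1, x.2)).card ≤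
        (Ms ×ˢ (Finset.univ : Finset Bool)).card := Finset.card_image_le
    have h4 : ((Finset.range (mm + 1)).image fun x => ((2 : ℕ), x, false)).card ≤
        (Finset.range (mm + 1)).card := Finset.card_image_le
    rw [Finset.card_product, Finset.card_univ, Fintype.card_bool] at h3
    rw [Finset.card_range] at h4
    omega
  have hex : ∀ j ∈ J, ∃ c ∈ tags, ∃ j', j' < K ∧ j' ≠ j ∧ P c j j' := by
    intro j hj
    obtain ⟨j', hj', hne, τ, g1, g2, g3, g4, g5⟩ := hcon j hj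
    rcases g5 with ⟨t, t1, _, t3, t4, t5⟩ | ⟨k, hk, hd⟩ | ⟨k, hk, s, s1, s2, s3⟩
    · exact ⟨(0, 0, false), by simp [tags], j', hj', hne, by simp only [P, if_true]; exact ⟨t, t1, t3, t4, t5⟩⟩
    · refine ⟨(1, k, decide (τ ≤ B0)), ?_, j', hj', hne, ?_⟩
      · apply Finset.mem_insert_of_mem
        apply Finset.mem_union_left
        exact Finset.mem_image.2 ⟨(k, decide (τ ≤ B0)), Finset.mem_product.2 ⟨hk, Finset.mem_univ _⟩, rfl⟩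
      · simp only [P, one_ne_zero, if_false, if_true]
        exact ⟨τ, g1, g2, g3, g4, hd, by simp⟩
    · refine ⟨(2, k, false), ?_, j', hj', hne, ?_⟩
      · apply Finset.mem_insert_of_mem
        apply Finset.mem_union_right
        exact Finset.mem_image.2 ⟨k, by simp; omega, rfl⟩
      · simp only [P]
        norm_num
        exact ⟨s, s1, s2, s3⟩
  choose! f hf using hex
  obtain ⟨x, hx, y, hy, hxy, he⟩ := Finset.exists_ne_map_eq_of_card_lt_of_maps_to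
    (lt_of_le_of_lt hcard hc) (fun j hj => (hf j hj).1)
  obtain ⟨-, x', hx', hxx, hPx⟩ := hf x hx
  obtain ⟨-, y', hy', hyy, hPy⟩ := hf y hy
  rw [← he] at hPy
  have hxK := hJ x hx
  have hyK := hJ y hy
  have lx := hlt x hxK
  have ly := hlt y hyK
  have lx' := hlt x' hx'
  have ly' := hlt y' hy'
  have ecast : (((U * 4 ^ x' : ℕ) : ℤ) - ((U * 4 ^ x : ℕ) : ℤ)) - (((U * 4 ^ y' : ℕ) : ℤ) - ((U * 4 ^ y : ℕ) : ℤ)) =
      (U : ℤ) * (4 ^ x' - 4 ^ x) - U * (4 ^ y' - 4 ^ y) := by push_cast; ring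
  have hUz : (U : ℤ) = (M' : ℤ) * (1 + M * 2) + 1 := by rw [hU]; push_cast; ring
  simp only [P] at hPx hPy
  split_ifs at hPx hPy with h0 h1
  · obtain ⟨t1, a1, a2, a3, a4⟩ := hPx
    obtain ⟨t2, b1, b2, b3, b4⟩ := hPy
    have := lemE hM'0 hthr hz0 hW lx' lx ly' ly a1 b1 a2 b2 a3 a4 b3 b4
    rw [ecast] at this
    have := Ruler_302.dist_mod (k := K) (M' := (M' : ℤ)) (U := (U : ℤ)) (by exact_mod_cast hK)
      ⟨1 + M * 2, by rw [hUz]; ring⟩ hx' hxK hy' hyK hxx this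
    exact hxy this.2
  · obtain ⟨t1, a1, a2, a3, a4, a5, a6⟩ := hPx
    obtain ⟨t2, b1, b2, b3, b4, b5, b6⟩ := hPy
    obtain ⟨r, hr1, hr2⟩ := lemB hM'0 hthr hz0 hW lx' lx ly' ly a1 b1 a2 b2 a3 b3 a4 b4
      (a6.symm.trans b6) a5 b5
    rw [ecast] at hr2
    have hk : (f x).2.1 ∈ Ms := by
      have := (hf x hx).1
      simp only [tags, Finset.mem_insert, Finset.mem_union, Finset.mem_image] at this
      rcases this with h | ⟨z, hz, h⟩ | ⟨z, hz, h⟩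
      · rw [h] at h1; simp at h1
      · rw [← h]; exact (Finset.mem_product.1 hz).1
      · rw [← h] at h1; simp at h1
    obtain ⟨m1, m2⟩ := hMs _ hk
    have := Ruler_302.dist_mod_floor (k := K) (M' := (M' : ℤ)) (M := (M : ℤ)) (t := 2)
      (U := (U : ℤ)) (m := ((f x).2.1 : ℤ)) (r := r) (by exact_mod_cast hM'0)
      (by exact_mod_cast m1) (by exact_mod_cast m2) hUz hx' hxK hy' hyK hxx hr1 hr2
    exact hxy this.2
  · obtain ⟨s1, a1, a2, a3⟩ := hPx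
    obtain ⟨s2, b1, b2, b3⟩ := hPy
    have := lemD (X := M' * M) hp0 hS lx' lx ly' ly a1 a2 b1 b2 a3 b3
    rw [ecast] at this
    have := Ruler_302.resol (U := (U : ℤ)) (by exact_mod_cast hU0) hxx
      (lt_of_lt_of_le this (by rw [hUz]; push_cast; nlinarith [hM'0, hM]))
    exact hxy this.2

end Crest.Agent.R320.Spoil_203
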