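import Crest.Agent.R320.H1c_203
import Crest.Agent.R320.Spoil_203
import Crest.Agent.R320.Wall_291
import Crest.Agent.R320.Names_755

/-! Row 320, HALF 1, part e: walls, names, spoiling at word level (helper203). -/

set_option autoImplicit false
set_option linter.unusedSectionVars false

namespace Crest.Agent.R320.H1_203

open Crest.Agent.R320.Nest_85 Crest.Agent.R320.Gad1_420 Crest.Agent.R320.Hgt1_903
open Crest.Agent.R320.Wall_291

/-- walls with positive window -/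
theorem walls' (α : Type*) [Finite α] (e W : ℕ) :
    ∃ (n G : ℕ) (R : List α → Prop), 0 < n ∧
      (∀ Q, R Q ↔ R (Q.take n)) ∧
      (∀ Q, R Q → n ≤ Q.length) ∧
      (∀ Q d, R Q → 0 < d → d ≤ W → ¬ R (Q.drop d)) ∧
      (∀ Q, RF e W Q → G + n ≤ Q.length → ∃ i < G, R (Q.drop i)) := by
  obtain ⟨n, G, R, h1, h2, h3, h4⟩ := exists_walls α e W
  refine ⟨n + 1, G, fun Q => R Q ∧ n + 1 ≤ Q.length, Nat.succ_pos n, ?_, fun Q h => h.2, ?_, ?_⟩
  · intro Q
    have e1 : R (Q.take (n + 1)) ↔ R Q := by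
      rw [h1 (Q.take (n + 1)), h1 Q, List.take_take, Nat.min_eq_left (Nat.le_succ n)]
    change (R Q ∧ n + 1 ≤ Q.length) ↔ (R (Q.take (n + 1)) ∧ n + 1 ≤ (Q.take (n + 1)).length)
    rw [e1, List.length_take]
    constructor
    · rintro ⟨a, b⟩; exact ⟨a, by omega⟩
    · rintro ⟨a, b⟩; exact ⟨a, by omega⟩
  · intro Q d hQ hd hdW h
    exact h3 Q d hQ.1 hd hdW h.1
  · intro Q hQ hl
    obtain ⟨i, hi, hR⟩ := h4 (Q.take (Q.length - 1)) (hQ.take _) (by rw [List.length_take]; omega)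
    have hn := h2 _ hR
    rw [List.length_drop, List.length_take] at hn
    have hn2 : n + 1 ≤ (Q.drop i).length := by
      rw [List.length_drop]
      rcases Nat.eq_zero_or_pos n with h0 | h0
      · omega
      · omega
    refine ⟨i, hi, ?_, hn2⟩
    rw [h1] at hR ⊢
    rw [List.drop_take, List.take_take, Nat.min_eq_left (by omega)] at hR
    exact hR

theorem RF_reverse {α : Type*} {e p : ℕ} {Q : List α} (h : RF e p Q) : RF e p Q.reverse := by
  intro x hx hl hi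
  apply h x.reverse (by simpa using hx) (by simpa using hl)
  have h2 := List.reverse_infix.2 hi
  rw [List.reverse_reverse, List.reverse_flatten, List.map_replicate, List.reverse_replicate] at h2
  exact h2

section names
variable {S V W : Type} [Monoid S] [AddCommGroup V] [AddCommGroup W]

theorem per_mul {N : Type} {f : ℕ → Option N} {M : ℕ} (h : ∀ t, f (t + M) = f t) (t k : ℕ) :
    f (t + M * k) = f t := by
  induction k with
  | zero => simp
  | succ k ih => rw [Nat.mul_succ, ← Nat.add_assoc, h, ih]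

theorem names_ok {α : Type*} (D : Dat α S V W) (Ms : Finset ℕ)
    (nmL nmR : ℕ → Option (Fin D.m × S × W × S × W × V)) (hM : 0 < D.M)
    (hLN : ∀ t c, D.LN t c ↔ nmL t = some c) (hRN : ∀ t c, D.RN t c ↔ nmR t = some c)
    (hpL : ∀ t, nmL (t + D.M) = nmL t)
    (h1 : ∀ t t' c c', nmL t = some c → nmR t' = some c' → (∀ k ∈ Ms, ¬ k ∣ t + t') → c = c')
    (h2 : ∀ T, (∀ k ∈ Ms, ¬ k ∣ T) → ∀ c, ∃ t < D.M, nmL t = some c ∧
        ∀ t', t + t' ≡ T [MOD D.M] → nmR t' = some c)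
    (h3 : ∀ t₁ t₁' t₂ t₂' c₁ c₁' c₂ c₂', nmL t₁ = some c₁ → nmR t₁' = some c₁' →
        nmL t₂ = some c₂ → nmR t₂' = some c₂' → t₁ + t₁' = t₂ + t₂' →
        (∃ k ∈ Ms, k ∣ t₁ + t₁') →
        (c₁.2.2.2.2.2, D.bb c₁.1 c₁.2.1 c₁.2.2.1 c₁.2.2.2.1 c₁.2.2.2.2.1 c₁.2.2.2.2.2) =
        (c₂.2.2.2.2.2, D.bb c₂.1 c₂.2.1 c₂.2.2.1 c₂.2.2.2.1 c₂.2.2.2.2.1 c₂.2.2.2.2.2) ∧
        (c₁'.2.2.2.2.2, D.bb c₁'.1 c₁'.2.1 c₁'.2.2.1 c₁'.2.2.2.1 c₁'.2.2.2.2.1 c₁'.2.2.2.2.2) =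
        (c₂'.2.2.2.2.2, D.bb c₂'.1 c₂'.2.1 c₂'.2.2.1 c₂'.2.2.2.1 c₂'.2.2.2.2.1 c₂'.2.2.2.2.2)) :
    Names D (fun T => ∀ k ∈ Ms, ¬ k ∣ T) where
  n1 := by
    intro T hT o o' c c' ho hl hr
    exact h1 o o' c c' ((hLN _ _).1 hl) ((hRN _ _).1 hr) (by rw [ho]; exact hT)
  n2 := by
    intro T hT c s hs
    obtain ⟨t, ht, hl, hr⟩ := h2 T hT c
    -- o = s + ((t + D.M - s % D.M) % D.M)
    set u := (t + D.M - s % D.M) % D.M with hu
    have hu1 : u < D.M := Nat.mod_lt _ hM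
    have hs1 : s % D.M < D.M := Nat.mod_lt _ hM
    have hmod : (s + u) % D.M = t := by
      rw [hu, Nat.add_mod, Nat.mod_mod, ← Nat.add_mod]
      have e1 := Nat.mod_add_div s D.M
      have : s + (t + D.M - s % D.M) = t + D.M * (s / D.M + 1) := by
        rw [Nat.mul_add, Nat.mul_one]; omega
      rw [this, Nat.add_mul_mod_self_left]
      exact Nat.mod_eq_of_lt ht
    have hL : nmL (s + u) = some c := by
      have e1 := Nat.mod_add_div (s + u) D.M
      rw [hmod] at e1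
      rw [← e1, per_mul hpL, hl]
    refine ⟨s + u, by omega, by omega, (hLN _ _).2 hL, (hRN _ _).2 (hr _ ?_)⟩
    have : s + u + (T - (s + u)) = T := by omega
    calc t + (T - (s + u)) ≡ s + u + (T - (s + u)) [MOD D.M] := by
          apply Nat.ModEq.add_right
          unfold Nat.ModEq
          rw [hmod, Nat.mod_eq_of_lt ht]
      _ = T := this
  n3 := by
    intro T hT
    push Not at hT
    by_cases hex : ∃ o o' c c', o + o' = T ∧ D.LN o c ∧ D.RN o' c'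
    · obtain ⟨o, o', c, c', ho, hl, hr⟩ := hex
      refine ⟨c.2.2.2.2.2, D.bb c'.1 c'.2.1 c'.2.2.1 c'.2.2.2.1 c'.2.2.2.2.1 c'.2.2.2.2.2, ?_⟩
      intro o2 o2' c2 c2' ho2 hl2 hr2
      obtain ⟨g1, g2⟩ := h3 o2 o2' o o' c2 c2' c c' ((hLN _ _).1 hl2) ((hRN _ _).1 hr2)
        ((hLN _ _).1 hl) ((hRN _ _).1 hr) (by omega) (by rw [ho2]; exact hT)
      exact ⟨(Prod.mk.inj g1).1, (Prod.mk.inj g2).2⟩
    · refine ⟨0, 0, fun o o' c c' ho hl hr => (hex ⟨o, o', c, c', ho, hl, hr⟩).elim⟩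

end names

end Crest.Agent.R320.H1_203
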