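import Crest.Agent.R320.H1d_996

/-!
Row 320, HALF 1 in the block calculus (helper996): scheme 2 on blocks.
-/

set_option autoImplicit false

namespace Crest.Agent.R320.H1_996

open Crest.Agent.R320.ThrChain260 Crest.Agent.R320.Ruler2_537 Crest.Agent.R320.Hk_851
  Crest.Agent.R320.Blk467

namespace Cfg

variable {α : Type} (c : Cfg α)

/-- bad texts: text `y` at `x`, anchor `a` -/
def BadT (x : ℤ) (y : List α) (a : ℤ) : Prop :=
  Bad c.Pr (WT c.Wo x y) (WS c.Rs x y) c.A c.D c.K c.mm c.r a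

theorem badT_shift {x a : ℤ} {y : List α} (d : ℤ) (h : c.BadT x y a) :
    c.BadT (x + d) y (a + d) :=
  bad_shift d (fun _ => WT.shift d) (fun _ => WS.shift d) h

theorem badT_app {x a : ℤ} {y y' : List α} (h : c.BadT x y a) : c.BadT x (y ++ y') a := by
  refine bad_mono (fun t _ _ => WT.app) (fun b hb t _ h2 => ⟨WT.app, fun h3 => ?_⟩)
    (fun k _ u _ => WS.app c.hRl c.hRn c.hns) h
  exact WT.of_app h3 (h2.trans (WT.le hb.1.1))

theorem badT_of_app {x a t1 : ℤ} {y y' : List α} (h1 : WT c.Wo x y t1)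
    (h2 : a + c.Pr.z + c.Pr.S ≤ t1) (h : c.BadT x (y ++ y') a) : c.BadT x y a := by
  have hle := WT.le h1
  have hN := c.Pr.hN
  have hS := c.S_nonneg
  refine bad_mono (fun t _ h3 h4 => WT.of_app h4 (by linarith)) (fun b hb t _ h3 =>
    ⟨fun h4 => WT.of_app h4 ?_, WT.app⟩) (fun k hk u h3 h4 => WS.of_app c.hRl h4 ?_) h
  · have hq : Qual c.Pr (WT c.Wo x (y ++ y')) a t1 := qual_of_ge (WT.app h1) (by linarith)
    have hb1 : b ≤ t1 := by
      by_contra hc
      exact hb.2 t1 (not_le.1 hc) hq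
    linarith
  · have := abs_le.1 h3
    have := c.hA2 k hk
    linarith

/-- from the whole block to the right part -/
theorem badT_right {P Q : List α} {a : ℤ} (hPn : (P.length : ℤ) + c.no ≤ a + c.Pr.z - c.Pr.S)
    (hPA : ∀ k < c.K, (P.length : ℤ) ≤ a + c.A k - c.D)
    (h : c.BadT 0 (P ++ Q) a) : c.BadT P.length Q a := by
  refine bad_mono (fun t h1 _ h4 => ?_) (fun b hb t h1 _ => ⟨fun h4 => ?_, fun h4 => ?_⟩)
    (fun k hk u h3 h4 => ?_) h
  · have := WT.of_pre c.hWl h4 (by linarith)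
    rwa [zero_add] at this
  · have := WT.of_pre c.hWl h4 (by linarith)
    rwa [zero_add] at this
  · exact WT.pre c.hWl c.hWn (by rwa [zero_add])
  · have h5 := abs_le.1 h3
    have := WS.of_pre h4 (by have := hPA k hk; linarith)
    rwa [zero_add] at this

theorem badT_left {P Q : List α} {a : ℤ} (hPn : (P.length : ℤ) + c.no ≤ a + c.Pr.z - c.Pr.S)
    (h : c.BadT P.length Q a) : c.BadT 0 (P ++ Q) a := by
  refine bad_mono (fun t h1 _ h4 => ?_) (fun b hb t h1 _ => ⟨fun h4 => ?_, fun h4 => ?_⟩)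
    (fun k hk u h3 h4 => ?_) h
  · exact WT.pre c.hWl c.hWn (by rwa [zero_add])
  · exact WT.pre c.hWl c.hWn (by rwa [zero_add])
  · have := WT.of_pre c.hWl h4 (by linarith)
    rwa [zero_add] at this
  · exact WS.pre (by rwa [zero_add])

section scheme2

variable {Γ V2 : Type} [Monoid Γ] [AddCommGroup V2] (act2 : V2 → Γ → V2)
  (γl : α → Γ) (γY : List α → Γ) (lam2 rho2 : List Γ → Option V2) (nu2 : List Γ → V2)

/-- the word over `Γ` of a block -/
def uX (X : List α) : List Γ := (X.take c.p0).map γl ++ [γY (X.drop c.p0)]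

def lam (P : List α) (v : V2) : Prop :=
  ∃ j < c.Kp, P.length = c.xp j ∧ lam2 (P.map γl) = some v

def rd (y : List α) (d : ℕ) (r : V2) : Prop :=
  ∃ j < c.Kp, IsN c.Pr (WT c.Wo 0 y) (-(c.xp j : ℤ)) d ∧
    (∃ t1, WT c.Wo 0 y t1 ∧ c.Pr.z + c.Pr.S - c.n0 ≤ t1) ∧
    c.BadT 0 y (-(c.xp j : ℤ)) ∧
    (∀ j' < c.Kp, j' ≠ j → ¬ c.BadT 0 y (-(c.xp j' : ℤ))) ∧
    rho2 ((y.take (c.p0 - c.xp j)).map γl ++ [γY ((y.take d).drop (c.p0 - c.xp j))]) = some r

theorem rd_vis {y : List α} {d : ℕ} {r : V2} (h : c.rd γl γY rho2 y d r) : d ≤ y.length := by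
  obtain ⟨j, hj, h1, -⟩ := h
  have := WT.le h1.1.1
  omega

theorem isN_app {x a b : ℤ} {y y' : List α} (h : IsN c.Pr (WT c.Wo x y) a b) :
    IsN c.Pr (WT c.Wo x (y ++ y')) a b :=
  isN_mono (fun t _ h2 => ⟨WT.app, fun h3 => WT.of_app h3 (h2.trans (WT.le h.1.1))⟩) h

theorem rd_ext {y y' : List α} {d : ℕ} {r : V2} (h : c.rd γl γY rho2 y d r) :
    c.rd γl γY rho2 (y ++ y') d r := by
  have hd := c.rd_vis γl γY rho2 h
  obtain ⟨j, hj, h1, ⟨t1, h2, h3⟩, h4, h5, h6⟩ := h
  have hz := c.hz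
  have hS := c.S_nonneg
  refine ⟨j, hj, c.isN_app h1, ⟨t1, WT.app h2, h3⟩, c.badT_app h4, fun j' hj' hne h7 => ?_, ?_⟩
  · apply h5 j' hj' hne
    refine c.badT_of_app h2 ?_ h7
    have := c.hx1 j' hj'
    have : (c.n0 : ℤ) ≤ c.xp j' := by exact_mod_cast this
    linarith
  · have hle : c.p0 - c.xp j ≤ y.length := by
      have h8 := WT.le h2
      have h9 := c.hx2 j hj
      have h10 := c.hx1 j hj
      have h11 : (c.p0 : ℤ) ≤ y.length := by
        linarith [(Nat.cast_nonneg c.p0 : (0:ℤ) ≤ c.p0), (Nat.cast_nonneg c.no : (0:ℤ) ≤ c.no)]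
      have h12 : c.p0 ≤ y.length := by exact_mod_cast h11
      omega
    rw [List.take_append_of_le_length hle, List.take_append_of_le_length hd]
    exact h6

theorem sound2 (e1 : ∀ p q v b, p.length + q.length = c.p0 + 1 → lam2 p = some v →
      rho2 q = some b → b = act2 v (p ++ q).prod + nu2 (p ++ q))
    {X : List α} (hX : X ∈ c.Blk) (hXb : c.BadT 0 X 0) {P Q y : List α} {v : V2} {d : ℕ} {r : V2}
    (hPQ : P ++ Q = X) (hP : c.lam γl lam2 P v) (h : c.rd γl γY rho2 (Q ++ y) d r) :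
    d = Q.length ∧ r = act2 v (c.uX γl γY X).prod + nu2 (c.uX γl γY X) := by
  obtain ⟨j0, hj0, hPl, hlam⟩ := hP
  obtain ⟨j, hj, h1, -, h4, h5, h6⟩ := h
  have hz := c.hz
  have hS := c.S_nonneg
  have hN := c.Pr.hN
  have hx2 : (c.xp j0 : ℤ) ≤ c.p0 := by exact_mod_cast c.hx2 j0 hj0
  have hPl' : (P.length : ℤ) = c.xp j0 := by rw [hPl]
  have hn0 : (0:ℤ) ≤ c.n0 := Nat.cast_nonneg _
  have hp0n : (0:ℤ) ≤ c.p0 := Nat.cast_nonneg _
  subst hPQ
  have hb0 : c.BadT P.length Q 0 := c.badT_right (by rw [hPl']; linarith)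
    (fun k hk => by have := c.hA1 k hk j0 hj0; rw [hPl']; linarith) hXb
  have hb1 : c.BadT 0 Q (-(c.xp j0 : ℤ)) := by
    have := c.badT_shift (-(P.length : ℤ)) hb0
    rwa [add_neg_cancel, zero_add, hPl'] at this
  have hjj : j0 = j := by
    by_contra hne
    exact h5 j0 hj0 hne (c.badT_app hb1)
  subst hjj
  have hN1 : IsN c.Pr (WT c.Wo P.length Q) 0 (P ++ Q).length :=
    c.isN_right (by rw [hPl']; linarith) hX
  have hN2 : IsN c.Pr (WT c.Wo 0 Q) (-(c.xp j0 : ℤ)) Q.length := by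
    have h7 : IsN c.Pr (WT c.Wo (P.length + (-(P.length : ℤ))) Q) (0 + (-(P.length : ℤ)))
        ((P ++ Q).length + (-(P.length : ℤ))) :=
      (isN_shift _ (fun _ => WT.shift _)).2 hN1
    rw [add_neg_cancel, zero_add, hPl'] at h7
    have h8 : ((P ++ Q).length : ℤ) + -(c.xp j0 : ℤ) = Q.length := by
      rw [List.length_append, hPl]; push_cast; ring
    rwa [h8] at h7
  have hd : (d : ℤ) = Q.length := isN_unique h1 (c.isN_app hN2)
  have hd' : d = Q.length := by exact_mod_cast hd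
  refine ⟨hd', ?_⟩
  subst hd'
  have hXl := c.Blk_len hX
  rw [List.length_append] at hXl
  push_cast at hXl
  have hQl : c.p0 - c.xp j0 ≤ Q.length := by
    have : (c.p0 : ℤ) ≤ P.length + Q.length := by
      linarith [(Nat.cast_nonneg c.no : (0:ℤ) ≤ c.no)]
    have : c.p0 ≤ P.length + Q.length := by exact_mod_cast this
    omega
  have hxj := c.hx2 j0 hj0
  rw [List.take_append_of_le_length hQl, List.take_left] at h6
  have e2 : c.uX γl γY (P ++ Q) = P.map γl ++ ((Q.take (c.p0 - c.xp j0)).map γl ++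
      [γY (Q.drop (c.p0 - c.xp j0))]) := by
    unfold uX
    rw [List.take_append, List.take_of_length_le (by omega), List.drop_append,
      List.drop_of_length_le (by omega), hPl, List.map_append, List.append_assoc, List.nil_append]
  rw [e2]
  refine e1 _ _ _ _ ?_ hlam h6
  simp only [List.length_map, List.length_append, List.length_take, List.length_singleton]
  omega

theorem compl2 (G : Set (List α)) (C0 : ℕ)
    (e2 : ∀ (u : List Γ) (v : V2), u.length = c.p0 + 1 → ∃ Js : Finset ℕ, C0 < Js.card ∧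
      ∀ j ∈ Js, j < c.Kp ∧ lam2 (u.take (c.xp j)) = some v ∧
        (rho2 (u.drop (c.xp j))).isSome = true)
    (hspoil : ∀ (y : List α) (Js : Finset ℕ), C0 < Js.card → (∀ j ∈ Js, j < c.Kp) →
      ∃ j ∈ Js, ∀ j' < c.Kp, j' ≠ j → ¬ c.BadT 0 y (0 + ((c.xp j : ℤ) - c.xp j')))
    (Go : ℕ) (hwall : ∀ y ∈ G, Go + c.no ≤ y.length → ∃ i < Go, c.Wo (y.take (y.length - i)))
    (Lb : ℕ) (hLb : ∀ j < c.Kp, c.xp j ≤ c.n0 + Lb)
    (hn0 : (2 : ℤ) * c.Pr.S + Go + Lb + c.no ≤ c.n0)
    {X X' : List α} (hX : X ∈ c.Blk) (hXb : c.BadT 0 X 0) (hX' : X' ∈ c.Blk)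
    (hG : ∀ u w : List α, u <:+: w → w ∈ G → u ∈ G) (hXX : X ++ X' ∈ G) (v : V2) :
    ∃ P Q r, P ++ Q = X ∧ c.lam γl lam2 P v ∧ c.rd γl γY rho2 (Q ++ X'.take c.n0) Q.length r := by
  have hz := c.hz
  have hS := c.S_nonneg
  have hN := c.Pr.hN
  have hn0' : (0:ℤ) ≤ c.n0 := Nat.cast_nonneg _
  have hp0n : (0:ℤ) ≤ c.p0 := Nat.cast_nonneg _
  have hnon : (0:ℤ) ≤ c.no := Nat.cast_nonneg _
  have hXl := c.Blk_len hX
  have hXl' := c.Blk_len hX'
  have hp0X : c.p0 ≤ X.length := by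
    have : (c.p0 : ℤ) ≤ X.length := by linarith
    exact_mod_cast this
  have hn0X' : c.n0 ≤ X'.length := by
    have : (c.n0 : ℤ) ≤ X'.length := by linarith
    exact_mod_cast this
  have hul : (c.uX γl γY X).length = c.p0 + 1 := by
    simp [uX, hp0X]
  obtain ⟨Js, hJ, hJs⟩ := e2 (c.uX γl γY X) v hul
  obtain ⟨j, hjJ, hjs⟩ := hspoil (X ++ X'.take c.n0) Js hJ (fun j hj => (hJs j hj).1)
  obtain ⟨hj, hlam, hrho⟩ := hJs j hjJ
  have hxj := c.hx2 j hj
  have hxj' : (c.xp j : ℤ) ≤ c.p0 := by exact_mod_cast hxj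
  obtain ⟨r, hr⟩ := Option.isSome_iff_exists.1 hrho
  have hPl : (X.take (c.xp j)).length = c.xp j := by rw [List.length_take]; omega
  set P := X.take (c.xp j) with hP
  set Q := X.drop (c.xp j) with hQ
  have hPQ : P ++ Q = X := List.take_append_drop _ _
  have hPl' : (P.length : ℤ) = c.xp j := by rw [hPl]
  have hQl : Q.length = X.length - c.xp j := by rw [hQ, List.length_drop]
  have hb0 : c.BadT P.length Q 0 := c.badT_right (by rw [hPl']; linarith)
    (fun k hk => by have := c.hA1 k hk j hj; rw [hPl']; linarith) (by rw [hPQ]; exact hXb)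
  have hb1 : c.BadT 0 Q (-(c.xp j : ℤ)) := by
    have := c.badT_shift (-(P.length : ℤ)) hb0
    rwa [add_neg_cancel, zero_add, hPl'] at this
  have hN1 : IsN c.Pr (WT c.Wo P.length Q) 0 X.length := by
    apply c.isN_right (by rw [hPl']; linarith)
    rw [hPQ]; exact hX
  have hN2 : IsN c.Pr (WT c.Wo 0 Q) (-(c.xp j : ℤ)) Q.length := by
    have h7 : IsN c.Pr (WT c.Wo (P.length + (-(P.length : ℤ))) Q) (0 + (-(P.length : ℤ)))
        ((X.length : ℤ) + (-(P.length : ℤ))) :=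
      (isN_shift _ (fun _ => WT.shift _)).2 hN1
    rw [add_neg_cancel, zero_add, hPl'] at h7
    have h8 : (X.length : ℤ) + -(c.xp j : ℤ) = Q.length := by
      rw [hQl, Nat.cast_sub (by omega)]; ring
    rwa [h8] at h7
  have hUX : P ++ (Q ++ X'.take c.n0) = X ++ X'.take c.n0 := by rw [← List.append_assoc, hPQ]
  refine ⟨P, Q, r, hPQ, ⟨j, hj, hPl, ?_⟩, j, hj, c.isN_app hN2, ?_, c.badT_app hb1, ?_, ?_⟩
  · have : (c.uX γl γY X).take (c.xp j) = P.map γl := by
      unfold uX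
      rw [List.take_append_of_le_length (by rw [List.length_map, List.length_take]; omega),
        ← List.map_take, List.take_take, Nat.min_eq_left hxj]
    rw [← this]; exact hlam
  · -- settled
    have hUG : X ++ X'.take c.n0 ∈ G := by
      apply hG _ _ _ hXX
      refine ⟨[], X'.drop c.n0, ?_⟩
      rw [List.nil_append, List.append_assoc, List.take_append_drop]
    have hUl : (X ++ X'.take c.n0).length = X.length + c.n0 := by
      rw [List.length_append, List.length_take]; omega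
    have hGo : (0:ℤ) ≤ Go := Nat.cast_nonneg _
    have hLb0 : (0:ℤ) ≤ Lb := Nat.cast_nonneg _
    have hUl2 : Go + c.no ≤ (X ++ X'.take c.n0).length := by
      rw [hUl]
      have : ((Go + c.no : ℕ) : ℤ) ≤ ((X.length + c.n0 : ℕ) : ℤ) := by push_cast; linarith
      exact_mod_cast this
    obtain ⟨i, hi, hw⟩ := hwall _ hUG hUl2
    have hi' : (i : ℤ) < Go := by exact_mod_cast hi
    have hxjL : (c.xp j : ℤ) ≤ c.n0 + Lb := by exact_mod_cast hLb j hj
    have hW0 : WT c.Wo 0 (P ++ (Q ++ X'.take c.n0)) ((X.length + c.n0 - i : ℕ) : ℤ) := by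
      rw [hUX]
      refine ⟨X.length + c.n0 - i, by simp, by rw [hUl]; omega, ?_⟩
      rwa [hUl] at hw
    have hcast : ((X.length + c.n0 - i : ℕ) : ℤ) = X.length + c.n0 - i := by
      rw [Nat.cast_sub (by omega)]; push_cast; ring
    have hW1 := WT.of_pre c.hWl hW0 (by rw [hcast, hPl']; linarith)
    have hW2 := (WT.shift (Wo := c.Wo) (x := 0) (t := ((X.length + c.n0 - i : ℕ) : ℤ) - P.length)
      (y := Q ++ X'.take c.n0) (P.length : ℤ)).1 (by rwa [sub_add_cancel])
    refine ⟨_, hW2, ?_⟩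
    rw [hcast, hPl']
    linarith
  · -- the other places
    intro j' hj' hne hbad
    apply hjs j' hj' hne
    have h1 := c.badT_shift (P.length : ℤ) hbad
    rw [zero_add] at h1
    have h2 : -(c.xp j' : ℤ) + P.length = 0 + ((c.xp j : ℤ) - c.xp j') := by rw [hPl']; ring
    rw [h2] at h1
    rw [← hUX]
    refine c.badT_left ?_ h1
    have hxj2 : (c.xp j' : ℤ) ≤ c.p0 := by exact_mod_cast c.hx2 j' hj'
    rw [hPl']
    have : (0:ℤ) ≤ c.xp j := Nat.cast_nonneg _
    linarith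
  · have hQp : c.p0 - c.xp j ≤ Q.length := by omega
    rw [List.take_append_of_le_length hQp, List.take_left]
    have : (c.uX γl γY X).drop (c.xp j) = (Q.take (c.p0 - c.xp j)).map γl ++
        [γY (Q.drop (c.p0 - c.xp j))] := by
      unfold uX
      rw [List.drop_append_of_le_length (by rw [List.length_map, List.length_take]; omega),
        ← List.map_drop, List.drop_take, hQ, List.drop_drop,
        show c.xp j + (c.p0 - c.xp j) = c.p0 by omega]
    rw [← this]; exact hr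

end scheme2

end Cfg

end Crest.Agent.R320.H1_996
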