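import Crest.Agent.R320.H1d_203
import Crest.Agent.R320.H1e_203
import Crest.Agent.R320.Exact_808

/-! Row 320, HALF 1, part f: spoiling at word level (helper203). -/

set_option autoImplicit false
set_option linter.unusedSectionVars false

namespace Crest.Agent.R320.H1_203

open Crest.Agent.R320.Nest_85 Crest.Agent.R320.Gad1_420 Crest.Agent.R320.Hgt1_903
open Crest.Agent.R320.Wall_291

variable {α S V W : Type*} [Monoid S] [AddCommGroup V] [AddCommGroup W]

/-- the spoiling count for words -/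
theorem spoil_word (d : Dt α S V W) (U M : ℕ) (Ms : Finset ℕ) (z0 Wg Ws : ℕ)
    (hx : ∀ j, d.x j = U * 4 ^ j) (hK : 4 ^ d.K ≤ d.M') (hM : 0 < M) (hMD : d.D.M = M)
    (hMs : ∀ k ∈ Ms, 2 * 4 ^ d.K + 2 ≤ k ∧ k ∣ M) (hgood : ∀ T, d.good T ↔ ∀ k ∈ Ms, ¬ k ∣ T)
    (hU : U = d.M' * (1 + M * 2) + 1) (hp0 : U * 4 ^ d.K = d.p0)
    (hthr : ∀ r, r < d.M' → d.thr r = z0 + r * (2 * d.N1 + 2 * (U * 4 ^ d.K) + 1))
    (hz0 : d.p0 + d.N1 + d.no + 2 * (U * 4 ^ d.K) ≤ z0)
    (hz1 : d.M' * (2 * d.N1 + 2 * (U * 4 ^ d.K) + 1) + (U * 4 ^ d.K) ≤ z0)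
    (hWg : d.M' * (2 * d.N1 + 2 * (U * 4 ^ d.K) + 1) + 2 * (U * 4 ^ d.K) + 2 * d.N1 ≤ Wg)
    (hWs : 2 * (U * 4 ^ d.K) + 2 * (d.M' * M) ≤ Ws)
    (wloc : ∀ P Q, d.no ≤ Q.length → (d.Wo (P ++ Q) ↔ d.Wo Q))
    (hno : 0 < d.no)
    (wgap : ∀ (Q : List α) s t, s < t → t ≤ Q.length → d.Wo (Q.take s) → d.Wo (Q.take t) → Wg < t - s)
    (rule : Rule d.D.R d.D.n)
    (sgap : ∀ (Q : List α) s t, s < t → d.D.R (Q.drop s) → d.D.R (Q.drop t) → Ws < t - s)
    (X X2 : List α) (hX : d.Full X) (hX2 : d.Full X2)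
    (J : Finset ℕ) (hJ : ∀ j ∈ J, j < d.K) (hc : 1 + 2 * Ms.card + (d.D.m + 1) < J.card) :
    ∃ j ∈ J, ∀ j', j' < d.K → j' ≠ j →
      ∃ b', d.IsEnd j' (X.drop (d.x j) ++ X2) b' ∧ ¬ d.BadAt j' (X.drop (d.x j) ++ X2) b' := by
  classical
  have hM'0 : 0 < d.M' := lt_of_lt_of_le (by positivity) hK
  have hU0 : 0 < U := by rw [hU]; omega
  set Zt := X ++ X2 with hZt
  let Wt : ℕ → Prop := fun t => t ≤ Zt.length ∧ d.Wo (Zt.take t)
  let Sm : ℕ → Prop := fun t => d.D.R (Zt.drop t)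
  obtain ⟨j, hj, hun⟩ := Spoil_203.spoil d.K d.M' M U d.N1 d.p0 d.no d.D.m z0 d.thr d.D.A Ms Wt Sm
    hK hM hMs hU hp0.le hthr hz0
    (fun s t hs ht hst => lt_of_le_of_lt hWg (wgap Zt s t hst ht.1 hs.2 ht.2))
    (fun s t hs ht hst => lt_of_le_of_lt hWs (sgap Zt s t hst hs ht)) J hJ hc
  have hlt : ∀ j, j < d.K → U * 4 ^ j < U * 4 ^ d.K := fun j hj =>
    Nat.mul_lt_mul_of_pos_left (Nat.pow_lt_pow_right (by norm_num) hj) hU0
  have thr_b : ∀ x, z0 ≤ d.thr (x % d.M') ∧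
      d.thr (x % d.M') ≤ z0 + d.M' * (2 * d.N1 + 2 * (U * 4 ^ d.K) + 1) :=
    Spoil_203.thr_le hM'0 hthr
  have hXl : z0 ≤ X.length := le_trans (thr_b _).1 hX.1.2
  have hX2l : z0 ≤ X2.length := le_trans (thr_b _).1 hX2.1.2
  refine ⟨j, hj, fun j' hj' hne => ?_⟩
  have hjK := hJ j hj
  have l1 := hlt j hjK
  have l2 := hlt j' hj'
  have hxj := hx j
  have hxj' := hx j'
  set Q := X.drop (d.x j) ++ X2 with hQ
  have hQl : Q.length = X.length - d.x j + X2.length := by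
    rw [hQ, List.length_append, List.length_drop]
  have hZl : Zt.length = X.length + X2.length := by rw [hZt, List.length_append]
  have hZQ : Zt = X.take (d.x j) ++ Q := by
    rw [hZt, hQ, ← List.append_assoc, List.take_append_drop]
  have htl : (X.take (d.x j)).length = d.x j := by rw [List.length_take]; omega
  have htake : ∀ t, Zt.take (d.x j + t) = X.take (d.x j) ++ Q.take t := by
    intro t
    rw [hZQ]
    have := take_app' (P := X.take (d.x j)) (Q := Q) t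
    rwa [htl] at this
  have hdrop : ∀ t, Zt.drop (d.x j + t) = Q.drop t := by
    intro t
    rw [hZQ, List.drop_append, List.drop_of_length_le (l := X.take (d.x j)) (by omega), htl,
      List.nil_append, Nat.add_sub_cancel_left]
  have hwt : ∀ t, d.no ≤ t → t ≤ Q.length → (Wt (d.x j + t) ↔ d.Wo (Q.take t)) := by
    intro t h1 h2
    change (d.x j + t ≤ Zt.length ∧ d.Wo (Zt.take (d.x j + t))) ↔ _
    rw [htake, wloc _ _ (by rw [List.length_take]; omega)]
    constructor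
    · exact fun h => h.2
    · exact fun h => ⟨by omega, h⟩
  -- the end exists
  have hex : ∃ b, b ≤ Q.length ∧ d.no ≤ b ∧ d.Wo (Q.take b) ∧ d.Ok (d.x j' + b) := by
    refine ⟨Q.length, le_rfl, by omega, ?_, ?_⟩
    · rw [List.take_length, hQ]
      exact (wloc _ _ (by omega)).2 hX2.1.1
    · have := (thr_b (d.x j' + Q.length)).2
      change d.thr _ ≤ _
      omega
  let b := Nat.find hex
  obtain ⟨b1, b2, b3, b4⟩ := Nat.find_spec hex
  have hE : d.IsEnd j' Q b := by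
    refine ⟨b1, b2, b3, b4, ?_⟩
    intro t ht1 ht2 hw hO
    exact Nat.find_min hex ht2 ⟨by omega, ht1, hw, hO⟩
  refine ⟨b, hE, fun hbad => hun j' hj' hne ?_⟩
  have hb1 : b ≤ Q.length := b1
  have hb2 : d.no ≤ b := b2
  have cv : ∀ t, d.x j + t + U * 4 ^ j' - U * 4 ^ j = d.x j' + t := by intro t; omega
  refine ⟨d.x j + b, by omega, (hwt b hb2 hb1).2 b3, ?_, ?_, ?_⟩
  · rw [cv]; exact b4
  · intro t ht1 ht2 hw
    obtain ⟨t', rfl⟩ : ∃ t', t = d.x j + t' := ⟨t - d.x j, by omega⟩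
    rw [cv]
    exact hE.2.2.2.2 t' (by omega) (by omega) ((hwt t' (by omega) (by omega)).1 hw)
  · rcases hbad with ⟨t, h1, h2, h3, h4⟩ | h1 | ⟨k, hk, s, h1, h2, h3⟩
    · left
      refine ⟨d.x j + t, by omega, by omega, (hwt t (by omega) (by omega)).2 h3, ?_, ?_⟩
      · rw [cv]; exact h4.1
      · rw [cv]; exact h4.2
    · right; left
      rw [hgood] at h1
      push Not at h1
      obtain ⟨k, hk, hd⟩ := h1
      exact ⟨k, hk, by rw [cv]; exact hd⟩
    · right; right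
      rw [hMD] at h1 h2
      refine ⟨k, hk, s, h1, h2, ?_⟩
      change d.D.R (Zt.drop _)
      rw [← hxj, ← hxj', hdrop]
      rw [List.drop_drop] at h3
      have h5 := rule.wall_fit h3
      rw [List.length_take] at h5
      have h6 : Q.drop (d.p0 - d.x j' + s) = (Q.take b).drop (d.p0 - d.x j' + s) ++ Q.drop b := by
        conv_lhs => rw [← List.take_append_drop b Q]
        rw [List.drop_append_of_le_length (by rw [List.length_take]; omega)]
      rw [h6]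
      exact (rule.app (by rw [List.length_drop, List.length_take]; omega)).2 h3

end Crest.Agent.R320.H1_203
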