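import Crest.Agent.R320.H1e_996

/-!
Row 320, HALF 1 in the block calculus (helper996): assembly for a configuration.
-/

set_option autoImplicit false

namespace Crest.Agent.R320.H1_996

open Crest.Agent.R320.ThrChain260 Crest.Agent.R320.Ruler2_537 Crest.Agent.R320.Hk_851
  Crest.Agent.R320.Blk467

theorem unop_prod {α S V : Type} [Monoid S] (act : V → S → V) (hone : ∀ v, act v 1 = v)
    (hmul : ∀ v s t, act v (s * t) = act (act v s) t) (f : α → S) (l : List α) :
    ∀ v : V, ((l.map (fun a => (MulOpposite.op (fun v => act v (f a)) :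
      (Function.End V)ᵐᵒᵖ))).prod).unop v = act v (l.map f).prod := by
  induction l with
  | nil => intro v; simp only [List.map_nil, List.prod_nil, MulOpposite.unop_one]; rw [hone]; rfl
  | cons a l ih =>
    intro v
    rw [List.map_cons, List.prod_cons, MulOpposite.unop_mul, List.map_cons, List.prod_cons, hmul,
      ← ih]
    rfl

theorem half1_of_cfg {α : Type} [Finite α] (c : Cfg α) (G : Set (List α))
    (hG : ∀ u w : List α, u <:+: w → w ∈ G → u ∈ G)
    {S V : Type} [Monoid S] [Finite S] [AddCommGroup V] [Finite V] (act : V → S → V)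
    (hadd : ∀ a b s, act (a + b) s = act a s + act b s) (hone : ∀ v, act v 1 = v)
    (hmul : ∀ v s t, act v (s * t) = act (act v s) t)
    (hfaith : ∀ s t, (∀ v, act v s = act v t) → s = t) (f : α → S)
    (Lf Rf : List α → Option V) (nu : List α → V)
    (g1 : ∀ P Q v r, Lf P = some v → Rf Q = some r →
      r = act v ((P ++ Q).map f).prod + nu (P ++ Q))
    (g2 : ∀ P v, Lf P = some v → c.Pr.M ∣ (P.length : ℤ) ∧ (P.length : ℤ) ≤ c.Pr.N1)
    (g3 : ∀ X ∈ c.Blk, X ∈ G → ¬ c.BadT 0 X 0 → ∀ v, ∃ P Q, P ++ Q = X.drop c.p0 ∧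
      Lf P = some v ∧ (Rf Q).isSome)
    (hzN : (c.p0 : ℤ) + c.Pr.N1 + c.no ≤ c.Pr.z - c.Pr.S)
    {V2 : Type} [AddCommGroup V2] [Finite V2]
    (act2 : V2 → (Function.End V)ᵐᵒᵖ → V2)
    (hadd2 : ∀ a b s, act2 (a + b) s = act2 a s + act2 b s) (hone2 : ∀ v, act2 v 1 = v)
    (hmul2 : ∀ v s t, act2 v (s * t) = act2 (act2 v s) t)
    (hfaith2 : ∀ s t, (∀ v, act2 v s = act2 v t) → s = t)
    (lam2 rho2 : List (Function.End V)ᵐᵒᵖ → Option V2) (nu2 : List (Function.End V)ᵐᵒᵖ → V2)
    (e1 : ∀ p q v b, p.length + q.length = c.p0 + 1 → lam2 p = some v →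
      rho2 q = some b → b = act2 v (p ++ q).prod + nu2 (p ++ q)) (C0 : ℕ)
    (e2 : ∀ (u : List (Function.End V)ᵐᵒᵖ) (v : V2), u.length = c.p0 + 1 →
      ∃ Js : Finset ℕ, C0 < Js.card ∧ ∀ j ∈ Js, j < c.Kp ∧ lam2 (u.take (c.xp j)) = some v ∧
        (rho2 (u.drop (c.xp j))).isSome = true)
    (hspoil : ∀ (y : List α) (Js : Finset ℕ), C0 < Js.card → (∀ j ∈ Js, j < c.Kp) →
      ∃ j ∈ Js, ∀ j' < c.Kp, j' ≠ j → ¬ c.BadT 0 y (0 + ((c.xp j : ℤ) - c.xp j')))
    (Go : ℕ) (hwall : ∀ y ∈ G, Go + c.no ≤ y.length → ∃ i < Go, c.Wo (y.take (y.length - i)))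
    (Lb : ℕ) (hLb : ∀ j < c.Kp, c.xp j ≤ c.n0 + Lb)
    (hn0 : (2 : ℤ) * c.Pr.S + Go + Lb + c.no ≤ c.n0)
    (B : ℕ) (hB : c.Pr.z + c.Pr.S + Go + c.no + 1 ≤ B) (s : S) :
    ∃ L : Language α, HL 2 L ∧ (∀ w ∈ L, (w.map f).prod = s) ∧
      ∀ w ∈ G, (w.map f).prod = s → w ∈ L := by
  classical
  have hz := c.hz
  have hS := c.S_nonneg
  have hN := c.Pr.hN
  have hn0' : (0:ℤ) ≤ c.n0 := Nat.cast_nonneg _
  have hp0n : (0:ℤ) ≤ c.p0 := Nat.cast_nonneg _
  have hnon : (0:ℤ) ≤ c.no := Nat.cast_nonneg _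
  have hGon : (0:ℤ) ≤ Go := Nat.cast_nonneg _
  haveI : Finite (Function.End V)ᵐᵒᵖ := by
    haveI : Finite (Function.End V) := inferInstanceAs (Finite (V → V))
    exact Finite.of_injective MulOpposite.unop MulOpposite.unop_injective
  let Γ := (Function.End V)ᵐᵒᵖ
  let γl : α → Γ := fun a => MulOpposite.op (fun v => act v (f a))
  let γY : List α → Γ := fun Y => MulOpposite.op (fun v => act v (Y.map f).prod + nu Y)
  -- a long text has a block prefix
  have hpre : ∀ w ∈ G, (B : ℤ) < w.length → ∃ X w', X ++ w' = w ∧ X ∈ c.Blk ∧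
      X.length ≤ B := by
    intro w hw hl
    have hwB : B ≤ w.length := by exact_mod_cast hl.le
    have hw2 : w.take B ∈ G := hG _ _ ⟨[], w.drop B, by simp⟩ hw
    have hlB : (w.take B).length = B := by rw [List.length_take]; omega
    obtain ⟨i, hi, hwi⟩ := hwall _ hw2 (by
      rw [hlB]
      have : ((Go + c.no : ℕ) : ℤ) ≤ B := by push_cast; linarith
      exact_mod_cast this)
    rw [hlB] at hwi
    have hi' : (i : ℤ) < Go := by exact_mod_cast hi
    have hW : WT c.Wo 0 (w.take B) ((B - i : ℕ) : ℤ) := ⟨B - i, by simp, by omega, hwi⟩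
    have hcast : ((B - i : ℕ) : ℤ) = B - i := by
      rw [Nat.cast_sub]
      have : (i : ℤ) ≤ B := by linarith
      exact_mod_cast this
    obtain ⟨t, ht, ht1, ht2⟩ := exists_isN (P := c.Pr) (a := 0) hW (by rw [hcast]; linarith)
    have ht0 : 0 ≤ t := by linarith
    obtain ⟨b, rfl⟩ := Int.eq_ofNat_of_zero_le ht0
    have hbB : b ≤ B := by
      have : (b : ℤ) ≤ B := by rw [hcast] at ht2; linarith
      exact_mod_cast this
    have hbl : ((w.take B).take b).length = b := by rw [List.length_take, hlB]; omega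
    refine ⟨(w.take B).take b, w.drop b, ?_, ?_, by rw [hbl]; exact hbB⟩
    · rw [List.take_take, Nat.min_eq_left hbB, List.take_append_drop]
    · show IsN c.Pr _ 0 _
      rw [hbl]
      refine isN_mono (fun t _ h2 => ⟨fun h => ?_, fun h => ?_⟩) ht
      · rw [← List.take_append_drop b (w.take B)] at h
        exact WT.of_app h (by rw [hbl]; linarith)
      · rw [← List.take_append_drop b (w.take B)]
        exact WT.app h
  have hBlkG : ∀ X ∈ c.Blk, X ∈ G → X.length ≤ B := by
    intro X hX hXG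
    by_contra hc
    obtain ⟨Y, w', e, hY, hYB⟩ := hpre X hXG (by exact_mod_cast not_le.1 hc)
    have := c.Blk_pcode.2 Y hY X hX ⟨w', e⟩
    rw [this] at hYB
    exact hc hYB
  let Bad : Set (List α) := {X | X ∈ c.Blk ∧ X.length ≤ B ∧ c.BadT 0 X 0}
  have hBC : Bad ⊆ c.Blk := fun X hX => hX.1
  -- scheme 2
  have s1 : Cmp 1 c.Blk Bad G (fun v X => act2 v (c.uX γl γY X).prod + nu2 (c.uX γl γY X)) := by
    refine promise_cmp c.Blk Bad G _ B c.n0 hBC c.Blk_pcode (fun X hX => hX.2.1) hG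
      (c.lam γl lam2) (c.rd γl γY rho2) (fun y y' d r h => c.rd_ext γl γY rho2 h)
      (fun y d r h => c.rd_vis γl γY rho2 h) ?_ ?_ ?_ ?_
    · rintro P v ⟨j, hj, hP, -⟩ X hX
      have h1 := c.Blk_len hX.1
      have h2 : (c.xp j : ℤ) ≤ c.p0 := by exact_mod_cast c.hx2 j hj
      have : (P.length : ℤ) ≤ X.length := by rw [hP]; linarith
      exact_mod_cast this
    · rintro P v ⟨j, hj, hP, -⟩
      rw [hP]; exact c.hx1 j hj
    · intro X hX P Q y v d r hPQ hP hrd
      exact c.sound2 act2 γl γY lam2 rho2 nu2 e1 hX.1 hX.2.2 hPQ hP hrd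
    · intro X hX X' hX' hXX v
      exact c.compl2 γl γY lam2 rho2 G C0 e2 hspoil Go hwall Lb hLb hn0 hX.1 hX.2.2 hX'.1 hG hXX v
  -- threads of scheme 1 on `Bad`
  have hT1 : ∀ (v : V) (X : List α), c.T act f nu v X = ((c.uX γl γY X).prod).unop v := by
    intro v X
    have e3 : (c.uX γl γY X).prod = ((X.take c.p0).map γl).prod * γY (X.drop c.p0) := by
      unfold Cfg.uX
      rw [List.prod_append, List.prod_singleton]
    rw [e3, MulOpposite.unop_mul]
    show _ = (γY (X.drop c.p0)).unop ((((X.take c.p0).map γl).prod).unop v)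
    have e4 := unop_prod act hone hmul f (X.take c.p0) v
    rw [show (((X.take c.p0).map γl).prod).unop v = act v ((X.take c.p0).map f).prod from e4]
    show act v (X.map f).prod + nu (X.drop c.p0) = act (act v ((X.take c.p0).map f).prod)
      ((X.drop c.p0).map f).prod + nu (X.drop c.p0)
    rw [← hmul, ← List.prod_append, ← List.map_append, List.take_append_drop]
  have s2 : Cmp 1 c.Blk Bad G (c.T act f nu) :=
    fibre_cmp c.Blk Bad G c.Blk_pcode hBC (fun X => (c.uX γl γY X).prod)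
      (fun v g => g.unop v) (fun v => rfl) (fun v g h => rfl) (c.T act f nu) hT1 act2 hadd2 hone2
      hmul2 hfaith2 (fun X => nu2 (c.uX γl γY X)) s1
  -- scheme 1
  have s3 : Cmp 2 c.Blk c.Blk G (c.T act f nu) := by
    refine star_cmp c.Blk Bad G (c.T act f nu) (c.LP act f Lf) (c.RQ Rf B) hG ?_ ?_ s2
      (fun v => HL_len _ (c.p0 + c.Pr.N1.toNat) fun w h => h.1) (fun v => HL_len _ B fun w h => h.1)
    · intro v v' P Q hP hQ
      obtain ⟨h1, h2⟩ := c.sound1 act f Lf Rf nu hmul g1 g2 B hP hQ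
      have := Lg.single (T := c.T act f nu) h1 v
      rwa [h2] at this
    · intro X hX hXb hXG v
      have hXB := hBlkG X hX hXG
      have hnb : ¬ c.BadT 0 X 0 := fun h => hXb ⟨hX, hXB, h⟩
      exact c.compl1 act f Lf Rf nu B g1 hmul g2 hzN hX hXB (fun h => hnb (Or.inl h))
        (g3 X hX hXG hnb) v
  have s4 : Cmp 2 c.Blk c.Blk G (fun (v : S) (X : List α) => v * (X.map f).prod) :=
    fibre_cmp c.Blk c.Blk G c.Blk_pcode (fun _ h => h) (fun X => (X.map f).prod)
      (fun v g => v * g) (fun v => mul_one v) (fun v g h => (mul_assoc v g h).symm) _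
      (fun _ _ => rfl) act hadd hone hmul hfaith (fun X => nu (X.drop c.p0)) s3
  choose E hE1 hE2 hE3 using s4
  have hfold : ∀ (l : List (List α)) (v : S), l.foldl (fun (v : S) (X : List α) =>
      v * (X.map f).prod) v = v * (l.flatten.map f).prod := by
    intro l
    induction l with
    | nil => intro v; simp
    | cons X l ih =>
      intro v
      rw [List.foldl_cons, ih, List.flatten_cons, List.map_append, List.prod_append, mul_assoc]
  haveI : Finite {x : List α // x.length ≤ B} := (List.finite_length_le α B).to_subtype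
  let ι := {p : {x : List α // x.length ≤ B} × S // p.2 * (p.1.1.map f).prod = s}
  haveI : Finite ι := inferInstance
  have key : HL 2 ({w | ∃ i : ι, w ∈ (E 1 i.1.2 * ({i.1.1.1} : Language α) : Language α)} :
      Language α) := HL.iUnion fun i => (hE1 _ _).mul (HL.word _)
  refine ⟨_, key, ?_, ?_⟩
  · rintro w ⟨⟨⟨⟨x, hx⟩, s'⟩, hs'⟩, hw⟩
    obtain ⟨a, ha, b, hb, rfl⟩ := Language.mem_mul.1 hw
    have hb' : b = x := hb
    subst hb'
    obtain ⟨l, hl, rfl, hf⟩ := hE2 _ _ _ ha
    rw [hfold, one_mul] at hf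
    rw [List.map_append, List.prod_append, hf]
    exact hs'
  · have dec : ∀ (n : ℕ) (w : List α), w.length ≤ n → w ∈ G → ∃ (l : List (List α)) (x : List α),
        (∀ X ∈ l, X ∈ c.Blk) ∧ x.length ≤ B ∧ l.flatten ++ x = w := by
      intro n
      induction n with
      | zero =>
        intro w hw _
        exact ⟨[], w, by simp, by omega, by simp⟩
      | succ n ih =>
        intro w hw hwG
        by_cases hwB : w.length ≤ B
        · exact ⟨[], w, by simp, hwB, by simp⟩
        · obtain ⟨X, w', e, hX, -⟩ := hpre w hwG (by exact_mod_cast not_le.1 hwB)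
          have hX0 : X ≠ [] := fun h => c.Blk_pcode.1 (h ▸ hX)
          have hXl : 0 < X.length := List.length_pos_iff.2 hX0
          obtain ⟨l, x, h1, h2, h3⟩ := ih w' (by
            have := congrArg List.length e
            rw [List.length_append] at this
            omega) (hG _ _ ⟨X, [], by simpa using e⟩ hwG)
          refine ⟨X :: l, x, ?_, h2, ?_⟩
          · intro Y hY
            rcases List.mem_cons.1 hY with rfl | hY
            · exact hX
            · exact h1 Y hY
          · rw [List.flatten_cons, List.append_assoc, h3, e]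
    intro w hwG hws
    obtain ⟨l, x, h1, h2, rfl⟩ := dec _ w le_rfl hwG
    rw [List.map_append, List.prod_append] at hws
    refine ⟨⟨⟨⟨x, h2⟩, (l.flatten.map f).prod⟩, hws⟩, Language.mem_mul.2 ⟨l.flatten, ?_, x, rfl,
      rfl⟩⟩
    exact hE3 _ _ l h1 (hG _ _ ⟨[], x, by simp⟩ hwG) (by rw [hfold, one_mul])

end Crest.Agent.R320.H1_996
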