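import Crest.Agent.R320.H1f_203
import Crest.Agent.R320.Hk2_851

/-! Row 320, HALF 1, part g: auxiliary facts for the constants (helper203). -/

set_option autoImplicit false
set_option linter.unusedSectionVars false

namespace Crest.Agent.R320.H1_203

open Crest.Agent.R320.Nest_85 Crest.Agent.R320.Gad1_420 Crest.Agent.R320.Hgt1_903
open Crest.Agent.R320.Wall_291 Finset

section reg
variable {S : Type} [Monoid S] [Fintype S] [DecidableEq S]

def actV (v : S → ZMod 2) (s : S) : S → ZMod 2 := fun y => ∑ x, if x * s = y then v x else 0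

theorem actV_add (v v' : S → ZMod 2) (s : S) : actV (v + v') s = actV v s + actV v' s := by
  funext y
  simp only [actV, Pi.add_apply, ← Finset.sum_add_distrib]
  refine Finset.sum_congr rfl fun x _ => ?_
  split_ifs <;> simp

theorem actV_mul (v : S → ZMod 2) (s t : S) : actV (actV v s) t = actV v (s * t) := by
  funext y
  simp only [actV]
  have : ∀ x, (if x * t = y then ∑ z, (if z * s = x then v z else 0) else 0) =
      ∑ z, (if x * t = y then (if z * s = x then v z else 0) else 0) := by
    intro x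
    split_ifs <;> simp
  rw [Finset.sum_congr rfl fun x _ => this x, Finset.sum_comm]
  refine Finset.sum_congr rfl fun z _ => ?_
  rw [Finset.sum_eq_single (z * s)]
  · simp [mul_assoc]
  · intro b _ hb
    split_ifs with h1 h2
    · exact absurd h2.symm hb
    · rfl
    · rfl
  · intro h; exact absurd (Finset.mem_univ _) h

theorem actV_one (v : S → ZMod 2) : actV v 1 = v := by
  funext y
  simp [actV]

theorem actV_inj (s t : S) (h : actV (Pi.single (1 : S) (1 : ZMod 2)) s =
    actV (Pi.single (1 : S) (1 : ZMod 2)) t) : s = t := by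
  have key : ∀ a y : S, actV (Pi.single (1 : S) (1 : ZMod 2)) a y = if a = y then 1 else 0 := by
    intro a y
    simp only [actV]
    rw [Finset.sum_eq_single (1 : S)]
    · simp
    · intro b _ hb
      simp [Pi.single_apply, hb]
    · intro h; exact absurd (Finset.mem_univ _) h
  have h1 := congrFun h s
  rw [key, key] at h1
  simp only [if_true] at h1
  by_contra hne
  rw [if_neg (Ne.symm hne)] at h1
  exact one_ne_zero h1

end reg

section geo
/-- block boundaries of the exact gadget -/
def Bf (U m2 c L : ℕ) (i : ℕ) : ℕ := if i = 0 then 0 else if m2 ≤ i then L else U * 4 ^ (i * c)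

theorem Bf_mono {U m2 c L K : ℕ} (hL : L = U * 4 ^ K) (hK : K = m2 * c) : Monotone (Bf U m2 c L) := by
  apply monotone_nat_of_le_succ
  intro i
  unfold Bf
  rcases Nat.eq_zero_or_pos i with h0 | h0
  · rw [if_pos h0]; exact Nat.zero_le _
  · rw [if_neg (show ¬ i = 0 by omega), if_neg (show ¬ i + 1 = 0 by omega)]
    by_cases h1 : m2 ≤ i
    · rw [if_pos h1, if_pos (show m2 ≤ i + 1 by omega)]
    · rw [if_neg h1]
      by_cases h2 : m2 ≤ i + 1
      · rw [if_pos h2, hL]
        apply Nat.mul_le_mul_left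
        apply Nat.pow_le_pow_right (by norm_num)
        rw [hK]; exact Nat.mul_le_mul_right _ (by omega)
      · rw [if_neg h2]
        apply Nat.mul_le_mul_left
        apply Nat.pow_le_pow_right (by norm_num)
        exact Nat.mul_le_mul_right _ (by omega)

open Classical in
/-- contexts of the places -/
noncomputable def ctxf (U K k2 κ : ℕ) (hk : 0 < k2) (x : ℕ) : Option (ℕ × Fin k2) :=
  if h : ∃ j, j < K ∧ x = U * 4 ^ j then
    some (h.choose / (k2 * κ), ⟨(h.choose / κ) % k2, Nat.mod_lt _ hk⟩) else none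

theorem ctxf_spec {U m2 K k2 κ L : ℕ} (hk : 0 < k2) (hL : L = U * 4 ^ K)
    (hK : K = m2 * (k2 * κ)) (x i : ℕ) (c : Fin k2) (h : ctxf U K k2 κ hk x = some (i, c)) :
    i < m2 ∧ Bf U m2 (k2 * κ) L i ≤ x ∧ x ≤ Bf U m2 (k2 * κ) L (i + 1) := by
  classical
  unfold ctxf at h
  split_ifs at h with hex
  · obtain ⟨h1, h2⟩ := hex.choose_spec
    have h3 : hex.choose / (k2 * κ) = i := (Prod.mk.inj (Option.some.inj h)).1
    obtain ⟨j, hjj⟩ : ∃ j, j = hex.choose := ⟨_, rfl⟩
    rw [← hjj] at h1 h2 h3
    have hc0 : 0 < k2 * κ := by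
      rcases Nat.eq_zero_or_pos (k2 * κ) with h0 | h0
      · rw [h0] at hK; omega
      · exact h0
    have hi : i < m2 := by
      rw [← h3, Nat.div_lt_iff_lt_mul hc0, ← hK]; exact h1
    have hle : i * (k2 * κ) ≤ j := by rw [← h3]; exact Nat.div_mul_le_self _ _
    have hlt : j < (i + 1) * (k2 * κ) := by
      rw [← h3, Nat.succ_mul]
      have := Nat.div_add_mod j (k2 * κ)
      have h5 := Nat.mod_lt j hc0
      rw [Nat.mul_comm] at this
      omega
    refine ⟨hi, ?_, ?_⟩
    · unfold Bf
      split_ifs with h4 h5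
      · exact Nat.zero_le _
      · omega
      · rw [h2]
        exact Nat.mul_le_mul_left _ (Nat.pow_le_pow_right (by norm_num) hle)
    · unfold Bf
      rw [if_neg (by omega)]
      split_ifs with h5
      · rw [hL, h2]
        exact Nat.mul_le_mul_left _ (Nat.pow_le_pow_right (by norm_num) h1.le)
      · rw [h2]
        exact Nat.mul_le_mul_left _ (Nat.pow_le_pow_right (by norm_num) hlt.le)

theorem ctxf_eq {U K k2 κ i t : ℕ} (hk : 0 < k2) (hU : 0 < U) (c : Fin k2) (ht : t < κ)
    (hj : (i * k2 + c) * κ + t < K) :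
    ctxf U K k2 κ hk (U * 4 ^ ((i * k2 + c) * κ + t)) = some (i, c) := by
  classical
  have hex : ∃ j, j < K ∧ U * 4 ^ ((i * k2 + c) * κ + t) = U * 4 ^ j := ⟨_, hj, rfl⟩
  unfold ctxf
  rw [dif_pos hex]
  obtain ⟨h1, h2⟩ := hex.choose_spec
  have h3 := Nat.eq_of_mul_eq_mul_left hU h2
  have h4 := Nat.pow_right_injective (le_refl 2 |>.trans (by norm_num : 2 ≤ 4)) h3
  have hκ : 0 < κ := by omega
  have e1 : ((i * k2 + c) * κ + t) / κ = i * k2 + c := by
    rw [Nat.add_comm, Nat.add_mul_div_right _ _ hκ, Nat.div_eq_of_lt ht, Nat.zero_add]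
  have e2 : ((i * k2 + c) * κ + t) / (k2 * κ) = i := by
    rw [Nat.mul_comm k2 κ, ← Nat.div_div_eq_div_mul, e1, Nat.add_comm, Nat.add_mul_div_right _ _ hk,
      Nat.div_eq_of_lt c.2, Nat.zero_add]
  have e3 : ((i * k2 + c) * κ + t) / κ % k2 = c := by
    rw [e1, Nat.add_comm, Nat.add_mul_mod_self_right, Nat.mod_eq_of_lt c.2]
  refine congrArg some (Prod.ext ?_ (Fin.ext ?_))
  · change hex.choose / (k2 * κ) = i
    rw [← h4]; exact e2
  · change hex.choose / κ % k2 = c
    rw [← h4]; exact e3

end geo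

/-- existence of a full block -/
theorem exists_full {α : Type*} {S V W : Type*} [Monoid S] [AddCommGroup V] [AddCommGroup W]
    (d : Dt α S V W) (Ro : List α → Prop) (Go D0 e z1 : ℕ) (hWo : ∀ X, d.Wo X ↔ Ro X.reverse)
    (hthr : ∀ x, d.thr (x % d.M') ≤ z1) (hz : 0 < z1)
    (hlow : ∀ x, 0 < d.thr (x % d.M'))
    (hRo : ∀ Q, RF e D0 Q → Go + d.no ≤ Q.length → ∃ i < Go, Ro (Q.drop i))
    (hZ : z1 + Go + d.no ≤ d.Z) (w : List α) (hw : RF e D0 w) (hl : d.Z ≤ w.length) :
    ∃ t, 0 < t ∧ t ≤ d.Z ∧ d.Full (w.take t) := by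
  classical
  obtain ⟨i, hi, hR⟩ := hRo (w.take (z1 + Go + d.no)).reverse (RF_reverse (hw.take _))
    (by rw [List.length_reverse, List.length_take]; omega)
  have hex : ∃ t, t ≤ z1 + Go + d.no ∧ d.Blk (w.take t) := by
    refine ⟨z1 + Go + d.no - i, by omega, ?_, ?_⟩
    · rw [hWo]
      rw [List.drop_reverse, List.take_take] at hR
      convert hR using 3
      rw [List.length_take]
      omega
    · have := hthr ((w.take (z1 + Go + d.no - i)).length)
      rw [List.length_take] at this
      change d.thr _ ≤ _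
      rw [List.length_take]
      omega
  refine ⟨Nat.find hex, ?_, ?_, (Nat.find_spec hex).2, ?_⟩
  · have h1 := (Nat.find_spec hex).2.2
    change d.thr _ ≤ _ at h1
    have h2 := hlow ((w.take (Nat.find hex)).length)
    rw [List.length_take] at h1 h2
    omega
  · have := (Nat.find_spec hex).1
    omega
  · intro t ht hB
    rw [List.length_take] at ht
    rw [List.take_take, Nat.min_eq_left (by omega)] at hB
    exact Nat.find_min hex (show t < Nat.find hex by omega) ⟨by have := (Nat.find_spec hex).1; omega, hB⟩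

end Crest.Agent.R320.H1_203
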