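import Crest.Agent.R320.H1f_996
import Crest.Agent.R320.Exact_808

/-!
Row 320, HALF 1 in the block calculus (helper996): the exact gadget on given places.
-/

set_option autoImplicit false

namespace Crest.Agent.R320.H1_996

theorem gadget2 (Γ V2 : Type) [Monoid Γ] [Finite Γ] [AddCommGroup V2] [Finite V2] :
    ∃ m2 k2 : ℕ, ∀ (C0 : ℕ) (xp : ℕ → ℕ) (p0 : ℕ),
      (∀ i j, i < j → j < m2 * (k2 * (C0 + 1)) → xp i < xp j) →
      (∀ j < m2 * (k2 * (C0 + 1)), xp j ≤ p0) → ∀ act2 : V2 → Γ → V2,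
      ∃ (lam2 rho2 : List Γ → Option V2) (nu2 : List Γ → V2),
        (∀ p q v b, p.length + q.length = p0 + 1 → lam2 p = some v →
          rho2 q = some b → b = act2 v (p ++ q).prod + nu2 (p ++ q)) ∧
        (∀ (u : List Γ) (v : V2), u.length = p0 + 1 →
          ∃ Js : Finset ℕ, C0 < Js.card ∧ ∀ j ∈ Js, j < m2 * (k2 * (C0 + 1)) ∧
            lam2 (u.take (xp j)) = some v ∧ (rho2 (u.drop (xp j))).isSome = true) := by
  classical
  obtain ⟨m2, k2, h⟩ := Exact808.exact_gadget Γ V2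
  refine ⟨m2, k2, fun C0 xp p0 hmono hle act2 => ?_⟩
  set Lk := k2 * (C0 + 1) with hLk
  set Kp := m2 * Lk with hKp
  have hm2 : 0 < m2 := by
    obtain ⟨lam, hl⟩ := h Γ List.prod (fun u v => List.prod_append) (fun _ => 0) (fun _ => none)
      (fun _ _ _ => le_rfl) rfl (by intro x i c h; simp at h)
    obtain ⟨rho, nu, -, h2⟩ := hl act2
    obtain ⟨i, hi, -⟩ := h2 [] 0 rfl
    omega
  have hmono' : ∀ i j, i ≤ j → j < Kp → xp i ≤ xp j := by
    intro i j hij hj
    rcases Nat.eq_or_lt_of_le hij with rfl | h1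
    · exact le_rfl
    · exact (hmono i j h1 hj).le
  let B : ℕ → ℕ := fun i => if i = 0 then 0 else if i < m2 ∧ 0 < Lk then xp (i * Lk) else p0 + 1
  have hBm : B m2 = p0 + 1 := by
    simp only [B]
    rw [if_neg (by omega), if_neg (by omega)]
  have hBmono : Monotone B := by
    apply monotone_nat_of_le_succ
    intro i
    simp only [B]
    by_cases hi : i = 0
    · rw [if_pos hi]; exact Nat.zero_le _
    · rw [if_neg hi, if_neg (Nat.succ_ne_zero i)]
      by_cases h1 : i < m2 ∧ 0 < Lk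
      · have hik : i * Lk < Kp := Nat.mul_lt_mul_of_pos_right h1.1 h1.2
        rw [if_pos h1]
        by_cases h2 : i + 1 < m2 ∧ 0 < Lk
        · rw [if_pos h2]
          exact hmono' _ _ (Nat.mul_le_mul_right _ (Nat.le_succ i))
            (Nat.mul_lt_mul_of_pos_right h2.1 h2.2)
        · rw [if_neg h2]
          exact (hle _ hik).trans (Nat.le_succ _)
      · have h2 : ¬ (i + 1 < m2 ∧ 0 < Lk) := fun h => h1 ⟨by omega, h.2⟩
        rw [if_neg h1, if_neg h2]
  let ctx : ℕ → Option (ℕ × Fin k2) := fun x =>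
    if h : ∃ j, j < Kp ∧ xp j = x then
      (if hk : 0 < k2 then some (h.choose / Lk, ⟨h.choose / (C0 + 1) % k2, Nat.mod_lt _ hk⟩)
        else none) else none
  have hch : ∀ j, j < Kp → ∀ h : ∃ j', j' < Kp ∧ xp j' = xp j, h.choose = j := by
    intro j hj h
    obtain ⟨h1, h2⟩ := h.choose_spec
    rcases lt_trichotomy h.choose j with h3 | h3 | h3
    · have := hmono _ _ h3 hj; omega
    · exact h3
    · have := hmono _ _ h3 h1; omega
  have hctx : ∀ x i c, ctx x = some (i, c) → i < m2 ∧ B i ≤ x ∧ x ≤ B (i + 1) := by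
    intro x i c hx
    simp only [ctx] at hx
    split_ifs at hx with h1 hk
    obtain ⟨hj, hxj⟩ := h1.choose_spec
    have hi : i = h1.choose / Lk := by
      have := congrArg (Option.map Prod.fst) hx
      simpa using this.symm
    set j := h1.choose with hjdef
    have hLpos : 0 < Lk := by
      by_contra hc
      have : Lk = 0 := by omega
      rw [hKp, this] at hj
      simp at hj
    have hdm := Nat.div_add_mod j Lk
    have hml := Nat.mod_lt j hLpos
    rw [← hi] at hdm
    have him : i < m2 := by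
      rw [hi]; exact Nat.div_lt_of_lt_mul (by rw [mul_comm]; exact hj)
    have hcomm : i * Lk = Lk * i := mul_comm _ _
    refine ⟨him, ?_, ?_⟩
    · simp only [B]
      by_cases hi0 : i = 0
      · rw [if_pos hi0]; exact Nat.zero_le _
      · rw [if_neg hi0, if_pos ⟨him, hLpos⟩, ← hxj]
        exact hmono' _ _ (by omega) hj
    · simp only [B]
      rw [if_neg (by omega), ← hxj]
      by_cases h2 : i + 1 < m2 ∧ 0 < Lk
      · rw [if_pos h2]
        have : (i + 1) * Lk = Lk * i + Lk := by ring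
        exact hmono' _ _ (by omega) (Nat.mul_lt_mul_of_pos_right h2.1 h2.2)
      · rw [if_neg h2]
        exact (hle _ hj).trans (Nat.le_succ _)
  obtain ⟨lam, hl⟩ := h Γ List.prod (fun u v => List.prod_append) B ctx hBmono
    (by simp [B]) hctx
  obtain ⟨rho, nu, h1, h2⟩ := hl act2
  refine ⟨lam, rho, nu, fun p q v b hpq => h1 p q v b (by rw [hBm]; exact hpq), ?_⟩
  intro u v hu
  obtain ⟨i, hi, c, hc⟩ := h2 u v (by rw [hBm]; exact hu)
  have hk2 : 0 < k2 := Nat.lt_of_le_of_lt (Nat.zero_le _) c.2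
  have hLpos : 0 < Lk := Nat.mul_pos hk2 (Nat.succ_pos _)
  refine ⟨(Finset.range (C0 + 1)).image (fun t => i * Lk + (c : ℕ) * (C0 + 1) + t), ?_, ?_⟩
  · rw [Finset.card_image_of_injective _ (fun a b h => by simpa using h), Finset.card_range]
    exact Nat.lt_succ_self _
  · intro j hj
    obtain ⟨t, ht, rfl⟩ := Finset.mem_image.1 hj
    have ht' := Finset.mem_range.1 ht
    have hcl : (c : ℕ) * (C0 + 1) + t < Lk := by
      have h3 : ((c : ℕ) + 1) * (C0 + 1) ≤ k2 * (C0 + 1) := Nat.mul_le_mul_right _ c.2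
      have h4 : ((c : ℕ) + 1) * (C0 + 1) = (c : ℕ) * (C0 + 1) + (C0 + 1) := by ring
      omega
    have hjK : i * Lk + (c : ℕ) * (C0 + 1) + t < Kp := by
      have h3 : (i + 1) * Lk ≤ m2 * Lk := Nat.mul_le_mul_right _ hi
      have h4 : (i + 1) * Lk = i * Lk + Lk := by ring
      omega
    refine ⟨hjK, ?_⟩
    apply hc
    simp only [ctx]
    have hex : ∃ j', j' < Kp ∧ xp j' = xp (i * Lk + (c : ℕ) * (C0 + 1) + t) := ⟨_, hjK, rfl⟩
    rw [dif_pos hex, dif_pos hk2]
    have hcj := hch _ hjK hex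
    simp only [hcj]
    have e1 : (i * Lk + (c : ℕ) * (C0 + 1) + t) / Lk = i := by
      rw [add_assoc, mul_comm i Lk, Nat.mul_add_div hLpos, Nat.div_eq_of_lt hcl, add_zero]
    have e2 : (i * Lk + (c : ℕ) * (C0 + 1) + t) / (C0 + 1) % k2 = c := by
      have h5 : i * Lk + (c : ℕ) * (C0 + 1) + t = (C0 + 1) * (i * k2 + c) + t := by
        rw [hLk]; ring
      rw [h5, Nat.mul_add_div (Nat.succ_pos _), Nat.div_eq_of_lt ht', add_zero,
        Nat.mul_add_mod_self_right, Nat.mod_eq_of_lt c.2]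
    rw [Option.some.injEq, Prod.mk.injEq]
    exact ⟨e1, Fin.ext e2⟩

end Crest.Agent.R320.H1_996
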