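import Crest.Agent.R320.H1f_996
import Crest.Agent.R320.Gad1_420
import Crest.Agent.R320.Names_755
import Crest.Agent.R320.Ruler_265

/-!
Row 320, HALF 1 in the block calculus (helper996): the constants.
-/

set_option autoImplicit false

namespace Crest.Agent.R320.H1_996

open Crest.Agent.R320.ThrChain260 Crest.Agent.R320.Ruler2_537 Crest.Agent.R320.Hk_851
  Crest.Agent.R320.Blk467

theorem exists_small_walls (α : Type) [Finite α] (e W : ℕ) (hW : 0 < W) :
    ∃ (n G : ℕ) (R : List α → Prop), 0 < n ∧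
      (∀ Q, R Q ↔ R (Q.take n)) ∧
      (∀ Q, R Q → n ≤ Q.length) ∧
      (∀ Q d, R Q → 0 < d → d ≤ W → ¬ R (Q.drop d)) ∧
      (∀ Q, Wall_291.RF e W Q → G + n ≤ Q.length → ∃ i < G, R (Q.drop i)) := by
  obtain ⟨n, G, R, h1, h2, h3, h4⟩ := Wall_291.exists_walls α e W
  by_cases hn : 0 < n
  · exact ⟨n, G, R, hn, h1, h2, h3, h4⟩
  · have hn0 : n = 0 := by omega
    subst hn0
    have hno : ∀ Q, ¬ R Q := by
      intro Q hQ
      have h5 : R [] := by have := (h1 Q).1 hQ; simpa using this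
      exact h3 Q 1 hQ Nat.one_pos hW ((h1 _).2 (by simpa using h5))
    refine ⟨1, G, R, Nat.one_pos, fun Q => ⟨fun h => absurd h (hno _), fun h => absurd h (hno _)⟩,
      fun Q h => absurd h (hno _), h3, fun Q hQ hl => ?_⟩
    obtain ⟨i, hi, h⟩ := h4 Q hQ (by omega)
    exact absurd h (hno _)

/-- the parameters of the threshold chain -/
noncomputable def mkPar (M' : ℕ) (hM : 0 < M') (z p0 N1 L : ℕ) : Par where
  M := M'
  z := z
  p0 := p0
  N1 := N1
  S := N1 + M' * (2 * (N1 + L) + 1)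
  L := L
  s := fun r => (r % M') * (2 * (N1 + L) + 1)
  hM := by exact_mod_cast hM
  hN := Nat.cast_nonneg _
  hL := Nat.cast_nonneg _
  hs := by
    intro r
    have h0 : (0:ℤ) < M' := by exact_mod_cast hM
    have h1 := Int.emod_nonneg r h0.ne'
    have h2 := Int.emod_lt_of_pos r h0
    have h3 : (0:ℤ) ≤ 2 * ((N1:ℤ) + L) + 1 := by positivity
    rw [abs_of_nonneg (mul_nonneg h1 h3)]
    have h4 : r % (M':ℤ) * (2 * ((N1:ℤ) + L) + 1) ≤ M' * (2 * ((N1:ℤ) + L) + 1) :=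
      mul_le_mul_of_nonneg_right h2.le h3
    linarith
  sep := by
    intro r r' h1 h2 h3 h4 hne
    show 2 * ((N1:ℤ) + L) < |r % (M':ℤ) * (2 * ((N1:ℤ) + L) + 1) - r' % (M':ℤ) * (2 * ((N1:ℤ) + L) + 1)|
    rw [Int.emod_eq_of_lt h1 h2, Int.emod_eq_of_lt h3 h4]
    have h5 : (0:ℤ) < 2 * ((N1:ℤ) + L) + 1 := by positivity
    have e : r * (2 * ((N1:ℤ) + L) + 1) - r' * (2 * ((N1:ℤ) + L) + 1) =
        (r - r') * (2 * ((N1:ℤ) + L) + 1) := by ring
    rw [e, abs_mul, abs_of_pos h5]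
    have h6 : 1 ≤ |r - r'| := Int.one_le_abs (sub_ne_zero.2 hne)
    nlinarith

/-- spoiling, index form -/
theorem spoil_idx {Pr : Par} {D : ℤ} {mm : ℕ → ℤ} {r K Kp C0 : ℕ} {xp : ℕ → ℕ} {A : ℕ → ℤ}
    (hxinj : ∀ i < Kp, ∀ j < Kp, xp i = xp j → i = j)
    (hR : Ruler2 Pr D mm r ((Finset.range Kp).image (fun j => (xp j : ℤ))))
    (hC0 : 1 + K + 2 * r ≤ C0) (Wl Ws : ℤ → Prop)
    (gap : ∀ t t', Wl t → Wl t' → t < t' → 2 * (Pr.S + Pr.L) < t' - t)
    (gapS : ∀ t t', Ws t → Ws t' → t < t' → 2 * (D + Pr.L) < t' - t)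
    (Js : Finset ℕ) (hJ : C0 < Js.card) (hJs : ∀ j ∈ Js, j < Kp) :
    ∃ j ∈ Js, ∀ j' < Kp, j' ≠ j → ¬ Bad Pr Wl Ws A D K mm r (0 + ((xp j : ℤ) - xp j')) := by
  classical
  by_contra hc
  push Not at hc
  have hcs := card_spoiled (K := K) (A := A) hR gap gapS 0
  have hsub : Js.image (fun j => (xp j : ℤ)) ⊆ (((Finset.range Kp).image
      (fun j => (xp j : ℤ))).filter fun c => ∃ c' ∈ (Finset.range Kp).image (fun j => (xp j : ℤ)),
        c' ≠ c ∧ Bad Pr Wl Ws A D K mm r (0 + (c - c'))) := by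
    intro x hx
    obtain ⟨j, hj, rfl⟩ := Finset.mem_image.1 hx
    obtain ⟨j', hj', hne, hb⟩ := hc j hj
    refine Finset.mem_filter.2 ⟨Finset.mem_image.2 ⟨j, Finset.mem_range.2 (hJs j hj), rfl⟩,
      (xp j' : ℤ), Finset.mem_image.2 ⟨j', Finset.mem_range.2 hj', rfl⟩, ?_, hb⟩
    intro h
    apply hne
    exact hxinj j' hj' j (hJs j hj) (by exact_mod_cast h)
  have h1 := Finset.card_le_card hsub
  rw [Finset.card_image_of_injOn (by
    intro a ha b hb h
    exact hxinj a (hJs a ha) b (hJs b hb) (by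
      have : (xp a : ℤ) = xp b := h
      exact_mod_cast this))] at h1
  omega

theorem HL_RF {α : Type} [Finite α] {k : ℕ} (e b : ℕ) :
    HL k ({w | Wall_291.RF e b w} : Language α) := by
  have hfin : {x : List α | x ≠ [] ∧ x.length ≤ b}.Finite :=
    (List.finite_length_le α b).subset fun x hx => hx.2
  refine (HL.biInter (k := k) hfin (L := fun x => ({w | ¬ (List.replicate e x).flatten <:+: w} :
    Language α)) (fun x _ => ?_)).congr fun w => ?_
  · refine HL.compl (HL.congr (HL.infix (HL.word (List.replicate e x).flatten)) fun w => ?_)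
    constructor
    · intro h
      exact ⟨_, rfl, h⟩
    · rintro ⟨v, hv, h⟩
      have : v = (List.replicate e x).flatten := hv
      rw [← this]; exact h
  · constructor
    · intro h x hx
      exact h x hx.1 hx.2
    · intro h x hx1 hx2
      exact h x ⟨hx1, hx2⟩

end Crest.Agent.R320.H1_996
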