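import Crest.Agent.R320.Inst_8

/-!
# Row 320: heights of all languages of the instance (helper8)
-/

set_option autoImplicit false
set_option linter.unusedSectionVars false

namespace Crest.Agent.R320.HLI_8

open Crest.RegLang Crest.Agent.R320.Hk_851 Crest.Agent.R320.FW_8 Crest.Agent.R320.FewWalls_228
  Crest.Agent.R320.WallU_228 Crest.Agent.R320.Star_621 Crest.Agent.R320.Two_621
  Crest.Agent.R320.Inst_8

universe u v

variable {α : Type u} {S : Type v} [Monoid S]

theorem HL_Zq [Finite α] [Finite S] {k p0 z1 g : ℕ} {W : List α → Prop} {ph : List α → S}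
    {nuB nuA : List α → Tok S} (hm : ∀ a b, ph (a ++ b) = ph a * ph b)
    (q : List α → Prop) (Z : Language α)
    (hZ : ∀ z, z ∈ Z ↔ ∃ X Y r, z = X ++ (Y ++ r) ∧ X.length = p0 ∧ Y ∈ FW W z1 ∧
      r ∈ FW W g ∧ q Y)
    (hY : ∀ b s, HL k ({Y | Y ∈ FW W z1 ∧ q Y ∧ nuA Y = b ∧ ph Y = s} : Language α))
    (hr : ∀ s, HL k ({r | r ∈ FW W g ∧ ph r = s} : Language α)) (v τ : Tok S) :
    HL k ({z | z ∈ Z ∧ aff ph (dd W p0 z1 ph nuB nuA) z v = τ} : Language α) := by
  have h1 := List.finite_length_eq α p0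
  refine (HL.biUnion h1 fun X _ => HL.iUnion fun i : {i : Tok S × S × S //
    act (act (gg ph nuB X v) i.2.1 + i.1) i.2.2 = τ} =>
      (HL.word (k := k) X).mul ((hY i.1.1 i.1.2.1).mul (hr i.1.2.2))).congr fun z => ?_
  constructor
  · rintro ⟨hz, he⟩
    obtain ⟨X, Y, r, rfl, hX, hYF, hrF, hq⟩ := (hZ z).1 hz
    rw [aff_eq hm r hX hYF] at he
    refine ⟨X, hX, ⟨(nuA Y, ph Y, ph r), he⟩, ?_⟩
    exact Language.mem_mul.2 ⟨X, rfl, Y ++ r, Language.mem_mul.2 ⟨Y, ⟨hYF, hq, rfl, rfl⟩, r,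
      ⟨hrF, rfl⟩, rfl⟩, rfl⟩
  · rintro ⟨X, hX, ⟨⟨b, s, s'⟩, hi⟩, hz⟩
    obtain ⟨X', hX', y, hy, rfl⟩ := Language.mem_mul.1 hz
    obtain ⟨Y, ⟨hYF, hq, h2, h3⟩, r, ⟨hrF, h4⟩, rfl⟩ := Language.mem_mul.1 hy
    have hXX : X' = X := hX'
    subst hXX
    refine ⟨(hZ _).2 ⟨_, Y, r, rfl, hX, hYF, hrF, hq⟩, ?_⟩
    rw [aff_eq hm r hX hYF]
    show act (act _ (ph Y) + nuA Y) (ph r) = τ
    rw [h2, h3, h4]
    exact hi

theorem HL_all [Finite α] {k p0 z1 g : ℕ} {W : List α → Prop}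
    (q : List α → Prop) (Z : Language α)
    (hZ : ∀ z, z ∈ Z ↔ ∃ X Y r, z = X ++ (Y ++ r) ∧ X.length = p0 ∧ Y ∈ FW W z1 ∧
      r ∈ FW W g ∧ q Y)
    (hY : HL k ({Y | Y ∈ FW W z1 ∧ q Y} : Language α)) (hr : HL k (FW W g)) :
    HL k Z := by
  refine ((HL.length_eq (k := k) p0).mul (hY.mul hr)).congr fun z => ?_
  rw [hZ]
  constructor
  · rintro ⟨X, Y, r, rfl, hX, hYF, hrF, hq⟩
    exact Language.mem_mul.2 ⟨X, hX, Y ++ r, Language.mem_mul.2 ⟨Y, ⟨hYF, hq⟩, r, hrF, rfl⟩, rfl⟩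
  · intro hz
    obtain ⟨X, hX, y, hy, rfl⟩ := Language.mem_mul.1 hz
    obtain ⟨Y, ⟨hYF, hq⟩, r, hrF, rfl⟩ := Language.mem_mul.1 hy
    exact ⟨X, Y, r, rfl, hX, hYF, hrF, hq⟩

theorem HL_NC [Finite α] {k p0 z1 : ℕ} {W : List α → Prop} {cr : List α → Prop}
    (hY : HL k ({Y | Y ∈ FW W z1 ∧ ¬ cr Y} : Language α)) :
    HL k (NC W p0 z1 cr) := by
  refine ((HL.length_eq (k := k) p0).mul (hY.mul HL.top)).congr fun z => ?_
  constructor
  · rintro ⟨X, Y, r, rfl, hX, hYF, hq⟩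
    exact Language.mem_mul.2 ⟨X, hX, Y ++ r, Language.mem_mul.2 ⟨Y, ⟨hYF, hq⟩, r, trivial, rfl⟩,
      rfl⟩
  · intro hz
    obtain ⟨X, hX, y, hy, rfl⟩ := Language.mem_mul.1 hz
    obtain ⟨Y, ⟨hYF, hq⟩, r, -, rfl⟩ := Language.mem_mul.1 hy
    exact ⟨X, Y, r, rfl, hX, hYF, hq⟩

theorem HL_E [Finite α] {k z1 N1 : ℕ} {W : List α → Prop}
    (hW : HL k ({P | W P} : Language α)) :
    HL k ({Y | ∃ s, z1 ≤ s + N1 ∧ s ≤ z1 + N1 ∧ s ≤ Y.length ∧ W (Y.take s)} : Language α) := by
  have h1 : ({s | z1 ≤ s + N1 ∧ s ≤ z1 + N1} : Set ℕ).Finite :=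
    (Set.finite_Iic (z1 + N1)).subset fun s h => h.2
  refine (HL.biUnion h1 fun s _ => ((HL.length_eq (k := k) s).setOf_and hW).prefix).congr
    fun Y => ?_
  constructor
  · rintro ⟨s, h1, h2, h3, h4⟩
    refine ⟨s, ⟨h1, h2⟩, Y.take s, ⟨?_, h4⟩, List.take_prefix _ _⟩
    rw [List.length_take]; omega
  · rintro ⟨s, ⟨h1, h2⟩, v, ⟨h3, h4⟩, h5⟩
    have h6 := h5.length_le
    have h7 : Y.take s = v := by
      obtain ⟨t, rfl⟩ := h5
      rw [← h3, List.take_left]
    exact ⟨s, h1, h2, by omega, by rw [h7]; exact h4⟩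

/-- words without zone in front have few walls -/
theorem nw_rest {n p0 z1 g : ℕ} {Sw : Set (List α)} (hnz : n ≤ z1) (hng : n ≤ g) {w : List α}
    (h : ∀ z ∈ ZZ (Wo n Sw) p0 z1 g, ¬ z <+: w) : nw n Sw w ≤ p0 + z1 + g := by
  classical
  have loc : ∀ P Q : List α, n ≤ Q.length → (Wo n Sw (P ++ Q) ↔ Wo n Sw Q) :=
    fun P Q h => wo_append P Q h
  have hsub : ∃ t, (Finset.range (w.length + 1)).filter (fun x => Wl n Sw w x) ⊆
      (Finset.range (p0 + z1)) ∪ (Finset.range g).image (fun i => t + i - n) := by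
    by_cases hex : ∃ t, z1 ≤ t ∧ p0 + t ≤ w.length ∧ Wo n Sw (w.take (p0 + t))
    · obtain ⟨h1, h2, h3⟩ := Nat.find_spec hex
      have hmin : ∀ m, m < Nat.find hex → ¬ (z1 ≤ m ∧ p0 + m ≤ w.length ∧
        Wo n Sw (w.take (p0 + m))) := fun m hm => Nat.find_min hex hm
      generalize Nat.find hex = t at *
      refine ⟨p0 + t, ?_⟩
      intro x hx
      rw [Finset.mem_filter] at hx
      obtain ⟨h4, h5⟩ := wo_take.1 hx.2
      rw [Finset.mem_union, Finset.mem_range, Finset.mem_image]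
      by_contra hcon
      push Not at hcon
      obtain ⟨h6, h7⟩ := hcon
      have hxt : p0 + t ≤ x + n := by
        by_contra hlt
        exact hmin (x + n - p0) (by omega) ⟨by omega, by omega, by
          have : p0 + (x + n - p0) = x + n := by omega
          rw [this]; exact h5⟩
      have hxg : p0 + t + g ≤ x + n := by
        by_contra hlt
        exact h7 (x + n - (p0 + t)) (Finset.mem_range.2 (by omega)) (by omega)
      -- then there is a zone in front
      have hw1 : Wo n Sw ((w.drop (p0 + t)).take (x + n - (p0 + t))) := by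
        rw [wdrop loc (by omega) (by omega)]
        have : p0 + t + (x + n - (p0 + t)) = x + n := by omega
        rw [this]; exact h5
      obtain ⟨s, s1, s2, s3⟩ := exists_FW (W := Wo n Sw) (g := g)
        (s := x + n - (p0 + t)) (u := w.drop (p0 + t)) (by omega)
        (by rw [List.length_drop]; omega) hw1
      have hYF : (w.drop p0).take t ∈ FW (Wo n Sw) z1 := by
        refine ⟨by rw [List.length_take, List.length_drop]; omega, ?_, ?_⟩
        · rw [wdrop loc (by omega) (by omega)]; exact h3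
        · intro s' h8 h9
          rw [List.length_take, List.length_drop] at h9
          rw [List.take_take, min_eq_left (by omega), wdrop loc (by omega) (by omega)]
          intro h10
          exact hmin s' (by omega) ⟨h8, by omega, h10⟩
      refine h (w.take p0 ++ ((w.drop p0).take t ++ (w.drop (p0 + t)).take s))
        ⟨w.take p0, (w.drop p0).take t, (w.drop (p0 + t)).take s, rfl,
          by rw [List.length_take]; omega, hYF, s3⟩ ?_
      have e : w.take p0 ++ ((w.drop p0).take t ++ (w.drop (p0 + t)).take s)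
          = w.take (p0 + t + s) := by
        rw [List.take_add, List.take_add, List.append_assoc]
      rw [e]; exact List.take_prefix _ _
    · refine ⟨0, ?_⟩
      intro x hx
      rw [Finset.mem_filter] at hx
      obtain ⟨h4, h5⟩ := wo_take.1 hx.2
      rw [Finset.mem_union, Finset.mem_range]
      left
      by_contra hcon
      exact hex ⟨x + n - p0, by omega, by omega, by
        have : p0 + (x + n - p0) = x + n := by omega
        rw [this]; exact h5⟩
  obtain ⟨t, ht⟩ := hsub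
  unfold nw
  refine (Finset.card_le_card ht).trans ((Finset.card_union_le _ _).trans ?_)
  have := Finset.card_image_le (s := Finset.range g) (f := fun i => t + i - n)
  rw [Finset.card_range] at this ⊢
  omega

end Crest.Agent.R320.HLI_8
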