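import Crest.Agent.R320.SpoilN_106
import Crest.Agent.R320.WallU_228

/-!
# Row 320: heights for the natural chain rule, `final` from `Dt` (helper106)
-/

set_option autoImplicit false

namespace Crest.Agent.R320.HLN_106

open Crest.Agent.R320.CoreN_106 Crest.Agent.R320.Hk_851 Crest.Agent.R320.Code110
  Crest.Agent.R320.FewWalls_228 Finset

universe u

variable {α : Type u} {S V : Type} [Monoid S] [AddCommGroup V] (D : Dt α S V)

theorem hl_Wo [Finite α] {k : ℕ} : HL k ({X | D.Wo X} : Language α) := by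
  have hfin : ({s : List α | s.length = D.n ∧ D.Wo s}).Finite :=
    (List.finite_length_eq α D.n).subset fun s hs => hs.1
  refine (HL.suffix (HL.finite (k := k) hfin)).congr fun w => ?_
  constructor
  · intro hw
    have h1 := D.hlen w hw
    refine ⟨w.drop (w.length - D.n), ⟨by rw [List.length_drop]; omega, ?_⟩,
      List.drop_suffix _ _⟩
    have h2 : w.take (w.length - D.n) ++ w.drop (w.length - D.n) = w := List.take_append_drop _ _
    have hw' : D.Wo w := hw
    rw [← h2] at hw'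
    exact (D.hloc _ _ (by rw [List.length_drop]; omega)).1 hw'
  · rintro ⟨v, ⟨hv1, hv2⟩, ⟨r, rfl⟩⟩
    exact (D.hloc _ _ (by omega)).2 hv2

theorem hl_XX [Finite α] {k : ℕ} : HL k D.XX := by
  have hA : HL k ({X | D.z ≤ X.length ∧ D.Wo X} : Language α) :=
    HL.setOf_and (HL.length_ge _) (hl_Wo D)
  refine (hA.sdiff (hA.mul (HL.length_ge (k := k) 1))).congr fun w => ?_
  constructor
  · rintro ⟨h1, h2, h3⟩
    refine ⟨⟨h1, h2⟩, ?_⟩
    intro hm
    obtain ⟨a, ⟨ha1, ha2⟩, b, hb, rfl⟩ := Language.mem_mul.1 hm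
    have hb' : 1 ≤ b.length := hb
    have := h3 a.length (by rw [List.length_append]; omega) (by rw [List.take_left]; exact ha2)
    omega
  · rintro ⟨⟨h1, h2⟩, h3⟩
    refine ⟨h1, h2, fun t ht hw => ?_⟩
    by_contra hlt
    apply h3
    refine Language.mem_mul.2 ⟨w.take t, ⟨by rw [List.length_take]; omega, hw⟩, w.drop t, ?_,
      List.take_append_drop _ _⟩
    show 1 ≤ (w.drop t).length
    rw [List.length_drop]; omega

theorem hl_BE [Finite α] {k : ℕ} : HL k ({X | D.BE X} : Language α) := by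
  have hfin : ({v : List α | v.length ≤ D.z + D.N1 ∧ D.Wo v ∧ D.z ≤ v.length + D.N1}).Finite :=
    (List.finite_length_le α (D.z + D.N1)).subset fun s hs => hs.1
  refine (HL.prefix (HL.finite (k := k) hfin)).congr fun w => ?_
  constructor
  · rintro ⟨t, h1, h2, h3, h4⟩
    have hl : (w.take t).length = t := by rw [List.length_take]; omega
    exact ⟨w.take t, ⟨by omega, h2, by omega⟩, List.take_prefix _ _⟩
  · rintro ⟨v, ⟨h1, h2, h3⟩, ⟨r, rfl⟩⟩
    exact ⟨v.length, by rw [List.length_append]; omega, by rw [List.take_left]; exact h2, h3, h1⟩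

theorem nw_XX {Sw : Set (List α)} (hWo : ∀ P, D.Wo P ↔ WallU_228.Wo D.n Sw P)
    {w : List α} (hw : w ∈ D.XX) : nw D.n Sw w ≤ D.z + 1 := by
  classical
  obtain ⟨h1, h2, h3⟩ := hw
  unfold nw
  refine le_trans (card_le_card (t := range D.z ∪ {w.length - D.n}) ?_) ?_
  · intro x hx
    rw [mem_filter] at hx
    obtain ⟨h4, h5⟩ := WallU_228.wo_take.1 hx.2
    rw [mem_union, mem_range, mem_singleton]
    by_cases h6 : x + D.n = w.length
    · right; omega
    · left
      have := h3 (x + D.n) (by omega) ((hWo _).2 h5)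
      omega
  · refine le_trans (card_union_le _ _) ?_
    rw [card_range, card_singleton]

theorem nw_free {Sw : Set (List α)} (hWo : ∀ P, D.Wo P ↔ WallU_228.Wo D.n Sw P)
    {w : List α} (hw : ∀ u ∈ D.XX, ¬ u <+: w) : nw D.n Sw w ≤ D.z + 1 := by
  classical
  unfold nw
  refine le_trans (card_le_card (t := range D.z) ?_) (by rw [card_range]; omega)
  intro x hx
  rw [mem_filter] at hx
  obtain ⟨h4, h5⟩ := WallU_228.wo_take.1 hx.2
  rw [mem_range]
  by_contra h6
  obtain ⟨X, hX, hp⟩ := D.exists_block (w.take (x + D.n)) (by rw [List.length_take]; omega)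
    ((hWo _).2 h5)
  exact hw X hX (hp.trans (List.take_prefix _ _))

/-- **from `Dt` to height three** -/
theorem final [Finite α] [Finite S] [Finite V] {Sw : Set (List α)}
    (hWo : ∀ P, D.Wo P ↔ WallU_228.Wo D.n Sw P)
    (hfew : ∀ (L : Language α), L.IsRegular → ∀ r,
      HL 1 ({w | w ∈ L ∧ nw D.n Sw w ≤ r} : Language α))
    (hfaith : ∀ s t : S, (∀ v, D.act v s = D.act v t) → s = t)
    (hTr : ∀ v v', Language.IsRegular ({X | D.T X v = v'} : Language α))
    (hφr : ∀ s, Language.IsRegular ({X | D.φ X = s} : Language α))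
    (Lb : Language α) (hLb : Lb.IsRegular)
    (hLb' : ∀ X : List α, D.z ≤ X.length → (X ∈ Lb ↔ D.BT (X.length - D.p0)))
    {W B0 : ℕ} (hW : 2 * D.p0 + 2 * D.N1 < W)
    (hgap : ∀ (X : List α) (s t : ℕ), s < t → t ≤ X.length → D.Wo (X.take s) → D.Wo (X.take t) →
      W < t - s)
    (r1 : ∀ k k' l l', k < D.K → k' < D.K → l < D.K → l' < D.K → k' ≠ k → l' ≠ l →
      D.c k + D.c l' ≤ D.c l + D.c k' + 2 * D.N1 → D.c l + D.c k' ≤ D.c k + D.c l' + 2 * D.N1 →
      k = l ∧ k' = l')
    (r2 : ∀ e, D.z ≤ e + D.p0 → (SpoilN_106.SB D e).card ≤ B0) (hR : 1 + 3 * B0 < D.R) (s : S) :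
    HL 3 ({w | D.φ w = s} : Language α) := by
  have H2 : HL 1 D.Bad := by
    refine ((hl_XX D).inf ((hl_BE D).sup (hfew Lb hLb (D.z + 1)))).congr fun w => ?_
    constructor
    · rintro ⟨h1, h2 | h2⟩
      · exact ⟨h1, Or.inl h2⟩
      · exact ⟨h1, Or.inr ⟨(hLb' w h1.1).2 h2, nw_XX D hWo h1⟩⟩
    · rintro ⟨h1, h2 | ⟨h2, _⟩⟩
      · exact ⟨h1, Or.inl h2⟩
      · exact ⟨h1, Or.inr ((hLb' w h1.1).1 h2)⟩
  have H3 : ∀ x y, HL 1 (ZT D.XX D.T x y) := by
    intro x y
    refine ((hl_XX D).inf (hfew _ (hTr x y) (D.z + 1))).congr fun w => ?_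
    constructor
    · rintro ⟨h1, h2⟩
      exact ⟨h1, h2, nw_XX D hWo h1⟩
    · rintro ⟨h1, h2, _⟩
      exact ⟨h1, h2⟩
  have H4 : ∀ s, HL 3 ({w | (∀ u ∈ D.XX, ¬ u <+: w) ∧ D.φ w = s} : Language α) := by
    intro s
    have h0 : HL 1 ({w | (∀ u ∈ D.XX, ¬ u <+: w) ∧ D.φ w = s} : Language α) := by
      refine ((HL.prefix (hl_XX D)).compl.inf (hfew _ (hφr s) (D.z + 1))).congr fun w => ?_
      constructor
      · rintro ⟨h1, h2⟩
        refine ⟨?_, h2, nw_free D hWo h1⟩
        rintro ⟨u, hu, hp⟩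
        exact h1 u hu hp
      · rintro ⟨h1, h2, _⟩
        exact ⟨fun u hu hp => h1 ⟨u, hu, hp⟩, h2⟩
    exact h0.mono (by norm_num)
  have F1 : ∀ v, {p | p ∈ D.L1 v}.Finite := by
    intro v
    refine (List.finite_length_le α (D.p0 + D.N1)).subset ?_
    rintro p ⟨h1, h2⟩
    have := D.g2 _ _ h2
    rw [List.length_drop] at this
    show p.length ≤ D.p0 + D.N1
    omega
  have F2 : ∀ v, {p | p ∈ D.L2 v}.Finite := by
    intro v
    refine (List.finite_length_le α D.p0).subset ?_
    rintro p ⟨k, hk, h1, h2⟩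
    have := D.hc k hk
    show p.length ≤ D.p0
    omega
  exact Top5_110.top_sem D.hφ0 D.hφ D.hact1 D.hactm hfaith D.pc D.sub
    (fun u _ v v' => D.hT u v v') (hl_XX D) H2 H3 H4 F1 F2 D.C1
    (D.C2 (SpoilN_106.spoil D hW hgap r1 r2 hR)) s

/-- a function of a bounded prefix and of the product in a finite monoid is regular -/
theorem regular_fn [Finite α] {M : Type} [Monoid M] [Finite M] (ψ : α → M) (A : ℕ)
    (p : List α → Prop)
    (h : ∀ X Y : List α, X.take A = Y.take A → (X.map ψ).prod = (Y.map ψ).prod → (p X ↔ p Y)) :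
    Language.IsRegular ({X | p X} : Language α) := by
  classical
  let Q := {l : List α // l.length ≤ A} × M
  haveI : Finite {l : List α // l.length ≤ A} := (List.finite_length_le α A).to_subtype
  haveI : Fintype Q := Fintype.ofFinite Q
  let st : Q → α → Q := fun q a =>
    (⟨(q.1.1 ++ [a]).take A, by rw [List.length_take]; omega⟩, q.2 * ψ a)
  let q0 : Q := (⟨[], by simp⟩, 1)
  let D' : DFA α Q := ⟨st, q0, {q | ∃ X : List α, X.take A = q.1.1 ∧ (X.map ψ).prod = q.2 ∧ p X}⟩
  have key : ∀ w : List α, w.foldl st q0 =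
      (⟨w.take A, by rw [List.length_take]; omega⟩, (w.map ψ).prod) := by
    intro w
    induction w using List.reverseRecOn with
    | nil => simp [q0]
    | append_singleton w a ih =>
      rw [List.foldl_append, ih]
      simp only [List.foldl_cons, List.foldl_nil, st]
      refine Prod.ext (Subtype.ext ?_) ?_
      · show (w.take A ++ [a]).take A = (w ++ [a]).take A
        rw [List.take_append, List.take_append, List.take_take, min_self, List.length_take]
        congr 1
        rcases le_total A w.length with h1 | h1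
        · rw [min_eq_left h1]
          have e1 : A - A = 0 := by omega
          have e2 : A - w.length = 0 := by omega
          rw [e1, e2]
        · rw [min_eq_right h1]
      · simp
  have hD : D'.accepts = ({X | p X} : Language α) := by
    ext w
    rw [DFA.mem_accepts]
    show w.foldl st q0 ∈ ({q | ∃ X : List α, X.take A = q.1.1 ∧ (X.map ψ).prod = q.2 ∧ p X} :
      Set Q) ↔ p w
    rw [key]
    constructor
    · rintro ⟨X, h1, h2, h3⟩
      exact (h X w h1 h2).1 h3
    · intro h3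
      exact ⟨w, rfl, rfl, h3⟩
  obtain ⟨σ, hσ, D'', hD''⟩ : ∃ σ : Type, ∃ _ : Fintype σ, ∃ D'' : DFA α σ,
      D''.accepts = D'.accepts := by
    let e := Fintype.equivFin Q
    exact ⟨Fin (Fintype.card Q), inferInstance, D'.reindex e, DFA.accepts_reindex D' e⟩
  exact ⟨σ, hσ, D'', hD''.trans hD⟩

end Crest.Agent.R320.HLN_106
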