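import Crest.Agent.R320.InstB_11
import Crest.Agent.R320.WallU_228
import Crest.Agent.R320.Hk2_851

/-!
# Row 320: the four height-one facts of 110's `top_sem` for the natural chain (helper348)
-/

set_option autoImplicit false
set_option linter.unusedVariables false

namespace Crest.Agent.R320.HLf_348

open Crest.Agent.R320.Hk_851 Crest.Agent.R320.FewWalls_228 Crest.Agent.R320.WallU_228

universe u

variable {α : Type u}

theorem finite_len [Finite α] (l : ℕ) : {x : List α | x.length = l}.Finite :=
  List.finite_length_eq α l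

/-- words ending in a wall -/
theorem hl_wo [Finite α] (n : ℕ) (S : Set (List α)) :
    HL 0 ({w | Wo n S w} : Language α) := by
  let F : Language α := {s | s.length = n ∧ s ∈ S}
  have hF : HL 0 F := HL.finite ((finite_len n).subset fun s hs => hs.1)
  refine ((HL.top (k := 0)).mul hF).congr fun w => ?_
  constructor
  · rintro ⟨h1, h2⟩
    refine Language.mem_mul.2 ⟨w.take (w.length - n), trivial, w.drop (w.length - n), ⟨?_, h2⟩,
      List.take_append_drop _ _⟩
    rw [List.length_drop]; omega
  · intro h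
    obtain ⟨a, -, b, ⟨hb1, hb2⟩, rfl⟩ := Language.mem_mul.1 h
    refine ⟨by rw [List.length_append]; omega, ?_⟩
    rw [List.length_append, hb1, Nat.add_sub_cancel, List.drop_left]
    exact hb2

theorem hl_wall_at [Finite α] (n : ℕ) (S : Set (List α)) (t : ℕ) :
    HL 0 ({w | t ≤ w.length ∧ Wo n S (w.take t)} : Language α) := by
  let F : Language α := {a | a.length = t ∧ Wo n S a}
  have hF : HL 0 F := HL.finite ((finite_len t).subset fun s hs => hs.1)
  refine (hF.mul (HL.top (k := 0))).congr fun w => ?_
  constructor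
  · rintro ⟨h1, h2⟩
    exact Language.mem_mul.2 ⟨w.take t, ⟨by rw [List.length_take]; omega, h2⟩, w.drop t, trivial,
      List.take_append_drop _ _⟩
  · intro h
    obtain ⟨a, ⟨ha1, ha2⟩, b, -, rfl⟩ := Language.mem_mul.1 h
    refine ⟨by rw [List.length_append]; omega, ?_⟩
    rw [← ha1, List.take_left]
    exact ha2

abbrev XX (n : ℕ) (S : Set (List α)) (z : ℕ) : Language α :=
  Crest.Agent.R320.InstB_11.XX (Wo n S) z

theorem hl_XX [Finite α] (n : ℕ) (S : Set (List α)) (z : ℕ) : HL 0 (XX n S z) := by
  let A : Language α := {w | z ≤ w.length ∧ Wo n S w}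
  let E : Language α := {w | w ≠ []}
  have hA : HL 0 A := (HL.length_ge z).setOf_and (hl_wo n S)
  have hE : HL 0 E := (HL.one.congr fun w => (Language.mem_one w).symm :
    HL 0 ({w | w = []} : Language α)).setOf_not
  refine (((HL.length_ge z).setOf_and (hl_wo n S)).setOf_and
    ((hA.mul hE).setOf_not)).congr fun w => ?_
  constructor
  · rintro ⟨h1, h2, h3⟩
    refine ⟨⟨h1, h2⟩, ?_⟩
    intro h
    obtain ⟨a, ⟨ha1, ha2⟩, b, hb, rfl⟩ := Language.mem_mul.1 h
    have hb' : b ≠ [] := hb
    have hlb : 0 < b.length := List.length_pos_iff.2 hb'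
    refine h3 a.length ha1 (by rw [List.length_append]; omega) ?_
    rw [List.take_left]
    exact ha2
  · rintro ⟨⟨h1, h2⟩, h3⟩
    refine ⟨h1, h2, fun t ht htl hw => h3 ?_⟩
    refine Language.mem_mul.2 ⟨w.take t, ⟨by rw [List.length_take]; omega, hw⟩, w.drop t, ?_,
      List.take_append_drop _ _⟩
    show w.drop t ≠ []
    intro h
    have := congrArg List.length h
    rw [List.length_drop, List.length_nil] at this
    omega

theorem nw_XX {n : ℕ} {S : Set (List α)} {z : ℕ} {w : List α} (hw : w ∈ XX n S z) :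
    nw n S w ≤ z + 1 := by
  classical
  obtain ⟨h1, h2, h3⟩ := hw
  unfold nw
  have hsub : ((Finset.range (w.length + 1)).filter (fun x => Wl n S w x)) ⊆
      insert (w.length - n) (Finset.range z) := by
    intro x hx
    obtain ⟨-, hx⟩ := Finset.mem_filter.1 hx
    obtain ⟨hx1, hx2⟩ := wo_take.1 hx
    rw [Finset.mem_insert, Finset.mem_range]
    by_contra hne
    push Not at hne
    exact h3 (x + n) (by omega) (by omega) hx2
  calc _ ≤ _ := Finset.card_le_card hsub
    _ ≤ _ := Finset.card_insert_le _ _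
    _ = z + 1 := by rw [Finset.card_range]

theorem nw_noprefix {n : ℕ} {S : Set (List α)} {z : ℕ} {w : List α}
    (hw : ∀ u ∈ XX n S z, ¬ u <+: w) : nw n S w ≤ z := by
  classical
  unfold nw
  have hno : ∀ t, z ≤ t → t ≤ w.length → ¬ Wo n S (w.take t) := by
    intro t ht htl hwo
    have hex : ∃ t, z ≤ t ∧ t ≤ w.length ∧ Wo n S (w.take t) := ⟨t, ht, htl, hwo⟩
    obtain ⟨h1, h2, h3⟩ := Nat.find_spec hex
    refine hw (w.take (Nat.find hex)) ⟨?_, h3, ?_⟩ (List.take_prefix _ _)
    · rw [List.length_take]; omega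
    · intro s hs hsl
      rw [List.length_take] at hsl
      rw [List.take_take, Nat.min_eq_left (by omega)]
      intro hc
      exact Nat.find_min hex (m := s) (by omega) ⟨hs, by omega, hc⟩
  have hsub : ((Finset.range (w.length + 1)).filter (fun x => Wl n S w x)) ⊆
      Finset.range z := by
    intro x hx
    obtain ⟨-, hx⟩ := Finset.mem_filter.1 hx
    obtain ⟨hx1, hx2⟩ := wo_take.1 hx
    rw [Finset.mem_range]
    by_contra hne
    exact hno (x + n) (by omega) (by omega) hx2
  calc _ ≤ _ := Finset.card_le_card hsub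
    _ = z := by rw [Finset.card_range]

theorem nw_drop {n : ℕ} {S : Set (List α)} (w : List α) (m : ℕ) (hm : m ≤ w.length) :
    nw n S (w.drop m) ≤ nw n S w := by
  classical
  unfold nw
  refine Finset.card_le_card_of_injOn (fun x => m + x) ?_ ?_
  · intro x hx
    have hx' := Finset.mem_filter.1 hx
    have hw := (wl_drop hm).1 hx'.2
    refine Finset.mem_coe.2 (Finset.mem_filter.2 ⟨Finset.mem_range.2 ?_, hw⟩)
    have := hw.1
    show m + x < w.length + 1
    omega
  · intro x _ y _ h
    have h' : m + x = m + y := h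
    omega

/-- the few-walls values in a finite monoid -/
def FewVal (α : Type u) (n : ℕ) (S : Set (List α)) : Prop :=
  ∀ (r : ℕ) (M : Type) [Monoid M] [Finite M] (μ : α → M) (m : M),
    HL 1 ({w | nw n S w ≤ r ∧ (w.map μ).prod = m} : Language α)

/-- everything which depends on a prefix of fixed length and the value of the rest -/
theorem gen [Finite α] {n : ℕ} {S : Set (List α)} (hfew : FewVal α n S) {Z : Language α}
    (hZ : HL 1 Z) (r l : ℕ) (hr : ∀ w ∈ Z, nw n S w ≤ r) (hl : ∀ w ∈ Z, l ≤ w.length)
    (M : Type) [Monoid M] [Finite M] (μ : α → M) (G : List α → M → Prop) :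
    HL 1 ({w | w ∈ Z ∧ G (w.take l) ((w.drop l).map μ).prod} : Language α) := by
  let W : List α → Language α := fun x => {x}
  let F : M → Language α := fun m => {w | nw n S w ≤ r ∧ (w.map μ).prod = m}
  have h1 : HL 1 ({w | ∃ x ∈ {x : List α | x.length = l}, w ∈ ({w | ∃ m : M, w ∈
      ({w | G x m ∧ w ∈ W x * F m} : Language α)} : Language α)} : Language α) :=
    HL.biUnion (finite_len l) fun x _ => HL.iUnion fun m =>
      (HL.const (G x m)).setOf_and ((HL.word x).mul (hfew r M μ m))
  refine (hZ.setOf_and h1).congr fun w => ?_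
  constructor
  · rintro ⟨hw, hG⟩
    have hlen := hl w hw
    refine ⟨hw, w.take l, ?_, ((w.drop l).map μ).prod, hG, ?_⟩
    · show (w.take l).length = l
      rw [List.length_take]; omega
    · exact Language.mem_mul.2 ⟨w.take l, rfl, w.drop l,
        ⟨(nw_drop w l hlen).trans (hr w hw), rfl⟩, List.take_append_drop _ _⟩
  · rintro ⟨hw, x, hx, m, hG, hm⟩
    have hx' : x.length = l := hx
    obtain ⟨a, ha, b, ⟨-, hb⟩, rfl⟩ := Language.mem_mul.1 hm
    have ha' : a = x := ha
    subst ha'
    refine ⟨hw, ?_⟩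
    rw [← hx', List.take_left, List.drop_left, hb]
    exact hG

end Crest.Agent.R320.HLf_348
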