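import Crest.Agent.R320.Asm3_720

/-!
# Row 320: regular languages with few walls have height at most 1 (helper204), over 720's `crit_long`
-/

set_option autoImplicit false

namespace Crest.Agent.R320.HLfew_204

open Crest.Agent.R320.Hk_851 Crest.Agent.R320.Asm3_720

universe u
variable {A : Type u}

/-- a regular language which contains no word with high powers of a word that is not itself a power
of a word of length `≤ b` has height at most one -/
theorem HL1_few [Finite A] {L : Language A} (hL : L.IsRegular) (b : ℕ)
    (hfew : ∀ w, Long b w → ∃ N : ℕ, ∀ x y, x ++ (rep N w ++ y) ∉ L) : HL 1 L := by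
  refine crit_long le_rfl b (ι := PEmpty.{u+1}) (fun e => e.elim) (fun e => e.elim) hL ?_
  intro w hw ho
  obtain ⟨N, hN⟩ := hfew w hw
  obtain ⟨x, y, h1, -⟩ := ho
  obtain ⟨k, hk, hm⟩ := h1 N
  obtain ⟨d, rfl⟩ := Nat.exists_eq_add_of_le hk
  refine (hN x (rep d w ++ y) ?_).elim
  have e : rep (N + d) w = rep N w ++ rep d w := by
    simp only [rep, List.replicate_add, List.flatten_append]
  rw [e] at hm
  simpa [List.append_assoc] using hm

/-- relative form: `L` regular, `C` arbitrary regular language with few walls -/
theorem HL1_few_inter [Finite A] {L C : Language A} (hL : L.IsRegular) (hC : C.IsRegular) (b : ℕ)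
    (hfew : ∀ w, Long b w → ∃ N : ℕ, ∀ x y, x ++ (rep N w ++ y) ∉ C) : HL 1 (L ⊓ C) :=
  HL1_few (hL.inf hC) b fun w hw => by
    obtain ⟨N, hN⟩ := hfew w hw
    exact ⟨N, fun x y h => hN x y h.2⟩

end Crest.Agent.R320.HLfew_204
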