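import Crest.Agent.R320.Asm_621
import Crest.Agent.R320.FS_479

/-!
# Row 320: height one of all languages of `Asm_621` (helper479)
-/

set_option autoImplicit false

namespace Crest.Agent.R320.H_479

open Crest.Agent.R320.Hk_851 Crest.Agent.R320.Star_621 Crest.Agent.R320.Two_621
open Crest.Agent.R320.Shared_621 Crest.Agent.R320.Asm_621 Crest.Agent.R320.FS_479

variable {α S : Type} [Monoid S] {P : Par α S}

/-- some wall at a place in `[k, |w|)` -/
def A1 (P : Par α S) (k : ℕ) (w : List α) : Prop :=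
  ∃ a b, a ++ b = w ∧ ((k ≤ a.length ∧ P.Wo a) ∧ b ≠ [])

/-- two walls at places in `[k, |w|)` -/
def A2 (P : Par α S) (k : ℕ) (w : List α) : Prop :=
  ∃ a b, a ++ b = w ∧ ((A1 P k a ∧ P.Wo a) ∧ b ≠ [])

theorem fs_ne : FS (fun b : List α => b ≠ []) :=
  (FS.lenle 1).iff fun w => by rw [← List.length_pos_iff]; rfl

theorem a1_iff (k : ℕ) (w : List α) :
    A1 P k w ↔ ∃ u, k ≤ u ∧ u < w.length ∧ P.Wo (w.take u) := by
  constructor
  · rintro ⟨a, b, rfl, ⟨h1, h2⟩, h3⟩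
    have := List.length_pos_iff.2 h3
    exact ⟨a.length, h1, by simp; omega, by rw [List.take_left' rfl]; exact h2⟩
  · rintro ⟨u, h1, h2, h3⟩
    refine ⟨w.take u, w.drop u, List.take_append_drop _ _, ⟨by simp; omega, h3⟩, ?_⟩
    rw [← List.length_pos_iff, List.length_drop]; omega

theorem fs_a1 (hw : FS P.Wo) (k : ℕ) : FS (A1 P k) :=
  FS.cut ((FS.lenle k).and hw) fs_ne fun x y => x ∧ y

theorem fs_a2 (hw : FS P.Wo) (k : ℕ) : FS (A2 P k) :=
  FS.cut ((fs_a1 hw k).and hw) fs_ne fun x y => x ∧ y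

theorem uq_iff (k : ℕ) (G : List α → List α → Prop) (w : List α) :
    (∃ s, k ≤ s ∧ s < w.length ∧ P.Wo (w.take s) ∧
      (∀ u, k ≤ u → u < w.length → P.Wo (w.take u) → u = s) ∧ G (w.take s) (w.drop s)) ↔
      ¬ A2 P k w ∧ ∃ a b, a ++ b = w ∧ ((k ≤ a.length ∧ P.Wo a) ∧ b ≠ [] ∧ G a b) := by
  constructor
  · rintro ⟨s, h1, h2, h3, h4, h5⟩
    refine ⟨?_, w.take s, w.drop s, List.take_append_drop _ _, ⟨by simp; omega, h3⟩, ?_, h5⟩
    · rintro ⟨a, b, rfl, ⟨h6, h7⟩, h8⟩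
      obtain ⟨u, h9, h10, h11⟩ := (a1_iff k a).1 h6
      have hb := List.length_pos_iff.2 h8
      have e1 : u = s := h4 u h9 (by simp; omega) (by
        rw [List.take_append_of_le_length h10.le]; exact h11)
      have e2 : a.length = s := h4 a.length (by omega) (by simp; omega) (by
        rw [List.take_left' rfl]; exact h7)
      omega
    · rw [← List.length_pos_iff, List.length_drop]; omega
  · rintro ⟨h1, a, b, rfl, ⟨h2, h3⟩, h4, h5⟩
    have hb := List.length_pos_iff.2 h4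
    refine ⟨a.length, h2, by simp; omega, by rw [List.take_left' rfl]; exact h3, ?_, ?_⟩
    · intro u h6 h7 h8
      by_contra hne
      rcases Nat.lt_or_gt_of_ne hne with hlt | hgt
      · refine h1 ⟨a, b, rfl, ⟨(a1_iff k a).2 ⟨u, h6, hlt, ?_⟩, h3⟩, h4⟩
        rwa [List.take_append_of_le_length hlt.le] at h8
      · refine h1 ⟨(a ++ b).take u, (a ++ b).drop u, List.take_append_drop _ _,
          ⟨(a1_iff k _).2 ⟨a.length, h2, ?_, ?_⟩, h8⟩, ?_⟩
        · rw [List.length_take]; omega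
        · rw [List.take_take, Nat.min_eq_left (by omega), List.take_left' rfl]; exact h3
        · rw [← List.length_pos_iff, List.length_drop]; omega
    · rw [List.take_left' rfl, List.drop_left' rfl]; exact h5

theorem fs_uq (hw : FS P.Wo) {X Y : Type*} (k : ℕ) {g : List α → X} {h : List α → Y} (hg : FS g)
    (hh : FS h) (r : X → Y → Prop) :
    FS (fun w => ∃ s, k ≤ s ∧ s < w.length ∧ P.Wo (w.take s) ∧
      (∀ u, k ≤ u → u < w.length → P.Wo (w.take u) → u = s) ∧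
        r (g (w.take s)) (h (w.drop s))) := by
  have h1 : FS (fun w => ∃ a b, a ++ b = w ∧ ((k ≤ a.length ∧ P.Wo a) ∧ b ≠ [] ∧ r (g a) (h b))) :=
    FS.cut (((FS.lenle k).and hw).pair hg) (fs_ne.pair hh) fun x y => x.1 ∧ y.1 ∧ r x.2 y.2
  exact ((fs_a2 hw k).not.and h1).iff fun w => uq_iff k (fun a b => r (g a) (h b)) w

theorem fs_Z (hw : FS P.Wo) : FS (fun z => z ∈ P.Z) := by
  have h := fs_uq hw P.z0 (FS.const (α := α) ()) (FS.const (α := α) ()) fun _ _ => True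
  refine (hw.and h).iff fun z => ?_
  constructor
  · rintro ⟨t, h1, h2, h3, h4, h5⟩
    exact ⟨h4, t, h1, h2, h3, h5, trivial⟩
  · rintro ⟨h4, t, h1, h2, h3, h5, -⟩
    exact ⟨t, h1, h2, h3, h4, h5⟩

/-- some wall at a place in a window -/
theorem fs_win (hw : FS P.Wo) (c : ℕ) : FS (fun Q => ∃ u ≤ Q.length, P.z0 ≤ u + c + P.N1 ∧
    u + c < P.z0 + P.N1 ∧ P.Wo (Q.take u)) := by
  have h : FS (fun Q => ∃ a b, a ++ b = Q ∧ (P.z0 - c - P.N1 ≤ a.length ∧
      ¬ (P.z0 + P.N1 - c ≤ a.length) ∧ P.Wo a)) :=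
    FS.pre ((FS.lenle (P.z0 - c - P.N1)).and ((FS.lenle (P.z0 + P.N1 - c)).not.and hw))
  refine h.iff fun Q => ?_
  constructor
  · rintro ⟨u, h1, h2, h3, h4⟩
    have hl : (Q.take u).length = u := by simp; omega
    refine ⟨Q.take u, Q.drop u, List.take_append_drop _ _, by omega, by omega, h4⟩
  · rintro ⟨a, b, rfl, h2, h3, h4⟩
    exact ⟨a.length, by simp, by omega, by omega, by rw [List.take_left' rfl]; exact h4⟩

theorem fs_E (hw : FS P.Wo) : FS (fun z => P.E z) :=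
  (fs_win hw 0).iff fun z => by
    unfold Par.E
    simp only [Nat.add_zero]

theorem fs_BT (hR : P.Reg) (k : ℕ) : FS (fun q : List α => P.BT (q.length + k - P.p0)) :=
  FS.of_reg (hR.bt k)

theorem fs_Zc (hR : P.Reg) : FS (fun z => z ∈ P.Zc) := by
  have hw : FS P.Wo := FS.of_reg hR.wo
  have h := fs_uq hw P.z0 (fs_BT hR 0) (FS.const (α := α) ()) fun x _ => x
  refine (((fs_Z hw).and (fs_E hw)).or (hw.and h)).iff fun z => ?_
  constructor
  · rintro ⟨t, ⟨h1, h2, h3, h4, h5⟩, h6 | h6⟩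
    · exact Or.inl ⟨⟨t, h1, h2, h3, h4, h5⟩, h6⟩
    · refine Or.inr ⟨h4, t, h1, h2, h3, h5, ?_⟩
      have : (z.take t).length = t := by simp; omega
      show P.BT ((z.take t).length + 0 - P.p0)
      rw [this, Nat.add_zero]; exact h6
  · rintro (⟨⟨t, ht⟩, h6⟩ | ⟨h4, t, h1, h2, h3, h5, h6⟩)
    · exact ⟨t, ht, Or.inl h6⟩
    · refine ⟨t, ⟨h1, h2, h3, h4, h5⟩, Or.inr ?_⟩
      have : (z.take t).length = t := by simp; omega
      have h7 : P.BT ((z.take t).length + 0 - P.p0) := h6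
      rwa [this, Nat.add_zero] at h7

theorem fs_ph [Finite S] : FS (fun w : List α => P.ph w) := FS.prod P.f

theorem fs_rho [Finite S] (hR : P.Reg) : FS P.rho := by
  refine FS.of_fibres fun x => ?_
  rcases x with _ | b
  · have h : FS (fun q => ∃ b, P.rho q = some b) :=
      FS.exists fun b => FS.of_reg (hR.rho b)
    exact (h.not.iff fun w => by
      constructor
      · rintro h1 ⟨b, h2⟩
        rw [h1] at h2; cases h2
      · intro h1
        rcases h2 : P.rho w with _ | b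
        · rfl
        · exact absurd ⟨b, h2⟩ h1).reg
  · exact hR.rho b

theorem fs_nu [Finite S] (hR : P.Reg) : FS P.nu := FS.of_fibres fun x => hR.nu x

theorem fs_RA [Finite S] (hR : P.Reg) (τ : Tok S) : FS (fun Q => Q ∈ P.RA τ) := by
  have hw : FS P.Wo := FS.of_reg hR.wo
  have h := fs_uq hw (P.z0 - P.p0 - P.N1) ((FS.lenle (P.z0 - P.p0)).pair (fs_rho hR)) (fs_ph (P := P))
    fun x y => x.1 ∧ ∃ b, x.2 = some b ∧ τ = act b y
  refine (hw.and h).iff fun Q => ?_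
  constructor
  · rintro ⟨s, b, ⟨h1, h2, h3, h4, h5⟩, h6, h7⟩
    refine ⟨h4, s, by omega, h2, h3, fun u h8 h9 h10 => h5 u (by omega) h9 h10, ?_, b, h6, h7⟩
    have : (Q.take s).length = s := by simp; omega
    rw [this]; omega
  · rintro ⟨h4, s, h1, h2, h3, h5, h8, b, h6, h7⟩
    have : (Q.take s).length = s := by simp; omega
    have h8' : P.z0 - P.p0 ≤ (Q.take s).length := h8
    rw [this] at h8'
    exact ⟨s, b, ⟨by omega, h2, h3, h4, fun u h8 h9 h10 => h5 u (by omega) h9 h10⟩, h6, h7⟩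

theorem fs_FT (hR : P.Reg) (k j : ℕ) :
    FS (fun Q => ∃ s, P.FT k Q s ∧ P.BT (s + P.c k - P.p0)) := by
  have hw : FS P.Wo := FS.of_reg hR.wo
  have h : FS (fun Q => ∃ a b, a ++ b = Q ∧ ((P.z0 - P.c k ≤ a.length ∧ P.Wo a) ∧
      ¬ A1 P (P.z0 - P.c k) a ∧ P.BT (a.length + P.c k - P.p0))) :=
    FS.pre (((FS.lenle (P.z0 - P.c k)).and hw).and ((fs_a1 hw _).not.and (fs_BT hR _)))
  refine h.iff fun Q => ?_
  constructor
  · rintro ⟨s, ⟨h1, h2, h3, h4⟩, h5⟩
    have hl : (Q.take s).length = s := by simp; omega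
    refine ⟨Q.take s, Q.drop s, List.take_append_drop _ _, ⟨by omega, h3⟩, ?_, by rw [hl]; exact h5⟩
    rw [a1_iff]
    rintro ⟨u, h6, h7, h8⟩
    rw [hl] at h7
    rw [List.take_take, Nat.min_eq_left h7.le] at h8
    exact h4 u (by omega) h7 h8
  · rintro ⟨a, b, rfl, ⟨h1, h2⟩, h3, h4⟩
    refine ⟨a.length, ⟨by omega, by simp, by rw [List.take_left' rfl]; exact h2, ?_⟩, h4⟩
    intro u h5 h6 h7
    rw [a1_iff] at h3
    rw [List.take_append_of_le_length h6.le] at h7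
    exact h3 ⟨u, by omega, h6, h7⟩

theorem fs_BadC (hR : P.Reg) (k : ℕ) : FS (fun Q => P.BadC k Q) :=
  (fs_win (FS.of_reg hR.wo) (P.c k)).or (fs_FT hR k 0)

theorem fs_RB [Finite α] [Finite S] (hR : P.Reg) (τ : Tok S) : FS (fun Q => Q ∈ P.RB τ) := by
  have hw : FS P.Wo := FS.of_reg hR.wo
  have h1 : ∀ (k : ℕ) (y : Tok S) (m : S), FS (fun Q => ∃ s, P.z0 - P.c k ≤ s ∧ s < Q.length ∧
      P.Wo (Q.take s) ∧ (∀ u, P.z0 - P.c k ≤ u → u < Q.length → P.Wo (Q.take u) → u = s) ∧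
      τ = act y m + act (P.nu ((Q.take s).drop (P.p0 - P.c k))) (P.ph (Q.drop s))) := by
    intro k y m
    exact fs_uq hw (P.z0 - P.c k) ((fs_nu hR).drop (P.p0 - P.c k)) (fs_ph (P := P))
      fun x z => τ = act y m + act x z
  have h2 : ∀ k : ℕ, FS (fun Q => ∃ x : Tok S × S, ((P.Wo Q ∧
      (∀ k' < P.K, (¬ (k' ≠ k) ∨ ¬ P.BadC k' Q))) ∧
      (P.rho2 k (Q.take (P.p0 - P.c k)) = some x.1 ∧ P.ph (Q.drop (P.p0 - P.c k)) = x.2)) ∧
      ∃ s, P.z0 - P.c k ≤ s ∧ s < Q.length ∧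
      P.Wo (Q.take s) ∧ (∀ u, P.z0 - P.c k ≤ u → u < Q.length → P.Wo (Q.take u) → u = s) ∧
      τ = act x.1 x.2 + act (P.nu ((Q.take s).drop (P.p0 - P.c k))) (P.ph (Q.drop s))) := by
    intro k
    refine FS.exists fun x => ?_
    refine ((hw.and (FS.forallLt fun k' => ?_)).and (?_)).and (h1 k x.1 x.2)
    · exact (FS.const (α := α) (¬ (k' ≠ k))).or (fs_BadC hR k').not
    · exact (((FS.take (α := α) (P.p0 - P.c k)).comp fun l => P.rho2 k l = some x.1)).and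
        (((fs_ph (P := P)).drop (P.p0 - P.c k)).eq x.2)
  refine (FS.existsLt (K := P.K) h2).iff fun Q => ?_
  constructor
  · rintro ⟨k, hk, s, y, ⟨h3, h4, h5, h6⟩, h7, h8, h9, h10, h11, h12⟩
    refine ⟨k, hk, (y, P.ph (Q.drop (P.p0 - P.c k))), ⟨⟨h8, fun k' hk' => ?_⟩, h11, rfl⟩, s,
      by omega, h7, h5, ?_, h12⟩
    · rcases Classical.em (k' ≠ k) with h | h
      · exact Or.inr (h10 k' hk' h)
      · exact Or.inl h
    · intro u h13 h14 h15
      by_contra hne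
      rcases Nat.lt_or_gt_of_ne hne with hlt | hgt
      · exact h6 u (by omega) hlt h15
      · exact h9 u hgt h14 h15
  · rintro ⟨k, hk, ⟨y, m⟩, ⟨⟨h8, h10⟩, h11, hm⟩, s, h3, h7, h5, h6, h12⟩
    refine ⟨k, hk, s, y, ⟨by omega, h7.le, h5, ?_⟩, h7, h8, ?_, ?_, h11, ?_⟩
    · intro u h13 h14 h15
      have := h6 u (by omega) (by omega) h15
      omega
    · intro u h13 h14 h15
      have := h6 u (by omega) h14 h15
      omega
    · intro k' hk' hne
      rcases h10 k' hk' with h | h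
      · exact absurd hne h
      · exact h
    · have hm' : P.ph (Q.drop (P.p0 - P.c k)) = m := hm
      rw [hm']; exact h12

theorem fs_Rest [Finite S] (hR : P.Reg) (s : S) : FS (fun w => w ∈ P.Rest s) := by
  have hw : FS P.Wo := FS.of_reg hR.wo
  have h : FS (fun w => ∃ a b, a ++ b = w ∧ a ∈ P.Z) := FS.pre (fs_Z hw)
  refine (h.not.and ((fs_ph (P := P)).eq s)).iff fun w => ?_
  constructor
  · rintro ⟨h1, h2⟩
    refine ⟨?_, h2⟩
    rintro ⟨a, b, hab, ha⟩
    exact h1 a ha ⟨b, hab⟩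
  · rintro ⟨h1, h2⟩
    exact ⟨fun z hz ⟨b, hb⟩ => h1 ⟨z, b, hb, hz⟩, h2⟩

/-- few walls: at most `m` walls at places `≥ z0` -/
theorem hl_of (hR : P.Reg) {p : List α → Prop} (hp : FS p)
    (h : ∀ w, p w → ∃ s s', ∀ t ≤ w.length, P.z0 ≤ t → P.Wo (w.take t) → t = s ∨ t = s') :
    HL 1 ({w | p w} : Language α) := by
  refine hR.few _ (P.z0 + 2) hp.reg fun w hw => ?_
  obtain ⟨s, s', hs⟩ := h w hw
  refine ⟨Finset.range P.z0 ∪ {s, s'}, ?_, fun t ht h2 => ?_⟩
  · refine (Finset.card_union_le _ _).trans ?_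
    rw [Finset.card_range]
    have := Finset.card_le_two (a := s) (b := s')
    omega
  · rw [Finset.mem_union, Finset.mem_range, Finset.mem_insert, Finset.mem_singleton]
    rcases Nat.lt_or_ge t P.z0 with h3 | h3
    · exact Or.inl h3
    · exact Or.inr (hs t ht h3 h2)

theorem hl_Z (hR : P.Reg) : HL 1 P.Z := by
  refine (hl_of hR (fs_Z (FS.of_reg hR.wo)) fun w hw => ?_)
  obtain ⟨t, h1, h2, h3, h4, h5⟩ := hw
  refine ⟨t, w.length, fun u hu h6 h7 => ?_⟩
  rcases hu.lt_or_eq with h | h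
  · exact Or.inl (h5 u h6 h h7)
  · exact Or.inr h

theorem hl_Zc (hR : P.Reg) : HL 1 P.Zc := by
  refine (hl_of hR (fs_Zc hR) fun w hw => ?_)
  obtain ⟨t, ⟨h1, h2, h3, h4, h5⟩, -⟩ := hw
  refine ⟨t, w.length, fun u hu h6 h7 => ?_⟩
  rcases hu.lt_or_eq with h | h
  · exact Or.inl (h5 u h6 h h7)
  · exact Or.inr h

theorem hl_RA [Finite S] (hR : P.Reg) (τ : Tok S) : HL 1 (P.RA τ) := by
  refine (hl_of hR (fs_RA hR τ) fun w hw => ?_)
  obtain ⟨t, b, ⟨h1, h2, h3, h4, h5⟩, -⟩ := hw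
  refine ⟨t, w.length, fun u hu h6 h7 => ?_⟩
  rcases hu.lt_or_eq with h | h
  · exact Or.inl (h5 u (by omega) h h7)
  · exact Or.inr h

theorem hl_RB [Finite α] [Finite S] (hR : P.Reg) (τ : Tok S) : HL 1 (P.RB τ) := by
  refine (hl_of hR (fs_RB hR τ) fun w hw => ?_)
  obtain ⟨k, hk, s, y, ⟨h3, h4, h5, h6⟩, h7, h8, h9, -⟩ := hw
  refine ⟨s, w.length, fun u hu h10 h11 => ?_⟩
  rcases hu.lt_or_eq with h | h
  · left
    by_contra hne
    rcases Nat.lt_or_gt_of_ne hne with hlt | hgt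
    · exact h6 u (by omega) hlt h11
    · exact h9 u hgt h h11
  · exact Or.inr h

theorem hl_Rest [Finite S] (hR : P.Reg) (s : S) : HL 1 (P.Rest s) := by
  classical
  refine (hl_of hR (fs_Rest hR s) fun w hw => ?_)
  obtain ⟨h1, -⟩ := hw
  by_cases hex : ∃ t, P.z0 ≤ t ∧ t ≤ w.length ∧ P.Wo (w.take t)
  · have hs := Nat.find_spec hex
    have hmin : ∀ u, u < Nat.find hex → ¬ (P.z0 ≤ u ∧ u ≤ w.length ∧ P.Wo (w.take u)) :=
      fun u hu => Nat.find_min hex hu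
    generalize Nat.find hex = t1 at hs hmin
    obtain ⟨h2, h3, h4⟩ := hs
    refine ⟨t1, t1, fun u hu h5 h6 => ?_⟩
    left
    by_contra hne
    have hlt : t1 < u := by
      rcases Nat.lt_or_gt_of_ne hne with h | h
      · exact absurd ⟨h5, hu, h6⟩ (hmin u h)
      · exact h
    have hex2 : ∃ t, t1 < t ∧ t ≤ w.length ∧ P.Wo (w.take t) := ⟨u, hlt, hu, h6⟩
    have hs2 := Nat.find_spec hex2
    have hmin2 : ∀ u, u < Nat.find hex2 → ¬ (t1 < u ∧ u ≤ w.length ∧ P.Wo (w.take u)) :=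
      fun u hu => Nat.find_min hex2 hu
    generalize Nat.find hex2 = t2 at hs2 hmin2
    obtain ⟨h7, h8, h9⟩ := hs2
    have hl : (w.take t2).length = t2 := by simp; omega
    refine h1 (w.take t2) ⟨t1, h2, by omega, ?_, h9, ?_⟩ (List.take_prefix _ _)
    · rw [List.take_take, Nat.min_eq_left h7.le]; exact h4
    · intro v hv1 hv2 hv3
      rw [hl] at hv2
      rw [List.take_take, Nat.min_eq_left hv2.le] at hv3
      by_contra hv4
      rcases Nat.lt_or_gt_of_ne hv4 with h | h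
      · exact hmin v h ⟨hv1, by omega, hv3⟩
      · exact hmin2 v hv2 ⟨h, by omega, hv3⟩
  · refine ⟨0, 0, fun u hu h5 h6 => ?_⟩
    exact absurd ⟨u, h5, hu, h6⟩ hex

theorem hl_LA [Finite α] {R : ℕ} (hO : P.Ok R) (v : Tok S) : HL 1 (P.LA v) := by
  refine HL.finite ((List.finite_length_le α (P.p0 + P.N1)).subset fun Q hQ => ?_)
  obtain ⟨h1, h2⟩ := hQ
  have := hO.lam_len _ _ h2
  rw [List.length_drop] at this
  show Q.length ≤ _
  omega

theorem hl_LB [Finite α] {R : ℕ} (hO : P.Ok R) (v : Tok S) : HL 1 (P.LB v) := by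
  refine HL.finite ((List.finite_length_le α P.p0).subset fun Q hQ => ?_)
  obtain ⟨k, hk, h1, -⟩ := hQ
  show Q.length ≤ _
  rw [h1]
  exact (hO.hc k hk).2

end Crest.Agent.R320.H_479
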