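import Crest.Agent.R320.Star_903
import Crest.Agent.R320.Gad1_420

/-!
Row 320, helper229: HALF 1, part A: the block automaton and the two nested cut systems.
-/

set_option autoImplicit false

namespace Crest.Agent.R320.Half1_229

open Crest.Agent.R320.Star_903 Crest.Agent.R320.Hgt1_903

universe u

section aut

variable {α : Type u} {V : Type} (QZ : List α → Prop) (A : V → List α → V) (Bm : ℕ)

/-- states: the text since the last anchor, and the value at the last anchor. -/
abbrev St (α : Type u) (V : Type) (Bm : ℕ) := {u : List α // u.length < Bm} × V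

open Classical in
noncomputable def dl (hB : 0 < Bm) (θ : St α V Bm) (c : α) : St α V Bm :=
  if QZ (θ.1.1 ++ [c]) then (⟨[], by simpa using hB⟩, A θ.2 (θ.1.1 ++ [c]))
  else if h : (θ.1.1 ++ [c]).length < Bm then (⟨θ.1.1 ++ [c], h⟩, θ.2)
  else (⟨[], by simpa using hB⟩, θ.2)

variable {QZ A Bm} (hB : 0 < Bm)

theorem run_cons {Θ : Type*} (δ : Θ → α → Θ) (θ : Θ) (c : α) (w : List α) :
    run δ θ (c :: w) = run δ (δ θ c) w := rfl

theorem dl_pos (θ : St α V Bm) (c : α) (h : QZ (θ.1.1 ++ [c])) :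
    dl QZ A Bm hB θ c = (⟨[], by simpa using hB⟩, A θ.2 (θ.1.1 ++ [c])) := by
  unfold dl
  rw [if_pos h]

theorem run_short : ∀ (w : List α) (θ : St α V Bm),
    (∀ q, θ.1.1.length < q → q ≤ (θ.1.1 ++ w).length → ¬ QZ ((θ.1.1 ++ w).take q)) →
    (θ.1.1 ++ w).length < Bm →
    (run (dl QZ A Bm hB) θ w).1.1 = θ.1.1 ++ w ∧ (run (dl QZ A Bm hB) θ w).2 = θ.2 := by
  intro w
  induction w with
  | nil => intro θ _ _; simp
  | cons c w ih =>
    intro θ h1 h2
    have e : θ.1.1 ++ c :: w = (θ.1.1 ++ [c]) ++ w := by simp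
    have hq : ¬ QZ (θ.1.1 ++ [c]) := by
      have := h1 (θ.1.1.length + 1) (by omega) (by simp)
      rw [e] at this
      rwa [List.take_left' (by simp)] at this
    have hlen : (θ.1.1 ++ [c]).length < Bm := by
      simp only [List.length_append, List.length_cons, List.length_nil] at h2 ⊢
      omega
    have hd : dl QZ A Bm hB θ c = (⟨θ.1.1 ++ [c], hlen⟩, θ.2) := by
      unfold dl
      rw [if_neg hq, dif_pos hlen]
    rw [run_cons, hd]
    have := ih (⟨θ.1.1 ++ [c], hlen⟩, θ.2) (by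
      intro q hq1 hq2
      have := h1 q (by simp at hq1; omega) (by rw [e]; exact hq2)
      rwa [e] at this) (by rw [e] at h2; exact h2)
    rw [e]
    exact this

theorem run_block (θ : St α V Bm) (w : List α) (hw : w ≠ []) (hq : QZ (θ.1.1 ++ w))
    (h : ∀ q, θ.1.1.length < q → q < (θ.1.1 ++ w).length → ¬ QZ ((θ.1.1 ++ w).take q))
    (hl : (θ.1.1 ++ w).length ≤ Bm) :
    run (dl QZ A Bm hB) θ w = (⟨[], by simpa using hB⟩, A θ.2 (θ.1.1 ++ w)) := by
  obtain ⟨w', c, rfl⟩ : ∃ w' c, w = w' ++ [c] := ⟨w.dropLast, w.getLast hw,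
    (List.dropLast_append_getLast hw).symm⟩
  rw [run_append]
  have e : θ.1.1 ++ (w' ++ [c]) = (θ.1.1 ++ w') ++ [c] := by simp
  have hl' : (θ.1.1 ++ w').length < Bm := by
    rw [e] at hl
    simp only [List.length_append, List.length_cons, List.length_nil] at hl ⊢
    omega
  obtain ⟨r1, r2⟩ := run_short (A := A) hB w' θ (by
    intro q h1 h2
    have := h q h1 (by rw [e]; simp only [List.length_append, List.length_cons, List.length_nil] at h2 ⊢; omega)
    rw [e, List.take_append_of_le_length h2] at this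
    exact this) hl'
  have hd := dl_pos (QZ := QZ) (A := A) hB (run (dl QZ A Bm hB) θ w') c (by rw [r1, ← e]; exact hq)
  rw [r1, r2, ← e] at hd
  exact hd

theorem exists_anchor : ∀ (n : ℕ) (θ : St α V Bm) (w : List α), Bm ≤ θ.1.1.length + n →
    n ≤ w.length → ∃ w1 w2, w1 ++ w2 = w ∧ w1.length ≤ n ∧ (run (dl QZ A Bm hB) θ w1).1.1 = [] := by
  intro n
  induction n with
  | zero =>
    intro θ w h1 _
    have := θ.1.2
    omega
  | succ n ih =>
    intro θ w h1 h2
    obtain ⟨c, w', rfl⟩ : ∃ c w', w = c :: w' := by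
      cases w with
      | nil => simp at h2
      | cons c w' => exact ⟨c, w', rfl⟩
    by_cases hc : (dl QZ A Bm hB θ c).1.1 = []
    · exact ⟨[c], w', rfl, by simp, hc⟩
    · have hc' : (dl QZ A Bm hB θ c).1.1 = θ.1.1 ++ [c] := by
        unfold dl at hc ⊢
        split_ifs at hc ⊢ with q1 q2
        · exact absurd rfl hc
        · rfl
        · exact absurd rfl hc
      obtain ⟨w1, w2, e, hl, hr⟩ := ih (dl QZ A Bm hB θ c) w' (by
        rw [hc']; simp only [List.length_append, List.length_cons, List.length_nil]; omega)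
        (by simp at h2; omega)
      exact ⟨c :: w1, w2, by rw [List.cons_append, e], by simp; omega, hr⟩

theorem run_suffix : ∀ (w : List α) (θ : St α V Bm),
    ∃ t, t ++ (run (dl QZ A Bm hB) θ w).1.1 = θ.1.1 ++ w := by
  intro w
  induction w with
  | nil => intro θ; exact ⟨[], by simp⟩
  | cons c w ih =>
    intro θ
    obtain ⟨t, ht⟩ := ih (dl QZ A Bm hB θ c)
    have hs : ∃ t', t' ++ (dl QZ A Bm hB θ c).1.1 = θ.1.1 ++ [c] := by
      unfold dl
      split_ifs
      · exact ⟨θ.1.1 ++ [c], by simp⟩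
      · exact ⟨[], rfl⟩
      · exact ⟨θ.1.1 ++ [c], by simp⟩
    obtain ⟨t', ht'⟩ := hs
    refine ⟨t' ++ t, ?_⟩
    rw [run_cons, List.append_assoc, ht, ← List.append_assoc, ht']
    simp

end aut

/-- a qualifying word -/
def Qual {α : Type u} (Ro : List α → Prop) (th : ℕ → ℕ) (M' : ℕ) (y : ℕ) (Y : List α) : Prop :=
  Ro Y.reverse ∧ th ((y + Y.length) % M') ≤ y + Y.length

/-- first qualifying -/
def Fst {α : Type u} (Ro : List α → Prop) (th : ℕ → ℕ) (M' : ℕ) (y : ℕ) (Y : List α) : Prop :=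
  Qual Ro th M' y Y ∧ ∀ q < Y.length, ¬ Qual Ro th M' y (Y.take q)

structure Cfg (α : Type u) (S V : Type) [Monoid S] [AddCommGroup V] where
  φ : List α → S
  act : V → S → V
  hφ : ∀ u v, φ (u ++ v) = φ u * φ v
  hact : ∀ v s t, act v (s * t) = act (act v s) t
  Ro : List α → Prop
  no : ℕ
  Ro_loc : ∀ Q, Ro Q ↔ Ro (Q.take no)
  th : ℕ → ℕ
  M' : ℕ
  N1 : ℕ
  p0 : ℕ
  BY : ℕ
  th_low : ∀ r, N1 + no < th r
  Lf : List α → Option V
  Rf : List α → Option V
  nu1 : List α → V
  exact1 : ∀ P Q v r, Lf P = some v → Rf Q = some r → r = act v (φ (P ++ Q)) + nu1 (P ++ Q)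
  Lf_len : ∀ P v, Lf P = some v → M' ∣ P.length ∧ P.length ≤ N1
  K : ℕ
  c : ℕ → ℕ
  hc : ∀ k < K, c k < p0
  lam : ℕ → List α → Option V
  rho : ℕ → List α → Option V
  nu2 : List α → V
  exact2 : ∀ k < K, ∀ P Q v b, P.length = c k → lam k P = some v → rho k Q = some b →
    b = act v (φ (P ++ Q)) + nu2 (P ++ Q)
  Bad : List α → Prop
  RFl : List α → Prop
  RFl_infix : ∀ u v, u <:+: v → RFl v → RFl u
  blk : ∀ τ, RFl τ → BY ≤ τ.length → ∃ q ≤ BY, Fst Ro th M' 0 (τ.take q)
  comp1 : ∀ Y, RFl Y → Fst Ro th M' 0 Y → ¬ Bad Y → ∀ v, ∃ P Q, P ++ Q = Y ∧ Lf P = some v ∧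
    (Rf Q).isSome ∧ ∀ y ≤ N1, M' ∣ y → Fst Ro th M' y Q
  comp2 : ∀ w, RFl w → ∀ Y E, w.drop p0 = Y ++ E → Fst Ro th M' 0 Y → Bad Y →
    ∀ v, ∃ k < K, lam k (w.take (c k)) = some v ∧
      (rho k ((w.drop (c k)).take (p0 - c k))).isSome ∧
      ∀ k' < K, (∃ Y' E', (w.drop (c k)).drop (p0 - c k') = Y' ++ E' ∧ Fst Ro th M' 0 Y' ∧ Bad Y') →
        k' = k

namespace Cfg

variable {α : Type u} {S V : Type} [Monoid S] [AddCommGroup V] (G : Cfg α S V)

/-- first qualifying words are unique prefixes -/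
theorem Fst_unique {Ro : List α → Prop} {th : ℕ → ℕ} {M' y : ℕ} {Y E Y' E' : List α}
    (h : Fst Ro th M' y Y) (h' : Fst Ro th M' y Y') (e : Y ++ E = Y' ++ E') : Y = Y' := by
  rcases lt_trichotomy Y.length Y'.length with hl | hl | hl
  · exfalso
    apply h'.2 _ hl
    have : Y'.take Y.length = Y := by
      have := congrArg (List.take Y.length) e
      rw [List.take_left' rfl, List.take_append_of_le_length hl.le] at this
      exact this.symm
    rw [this]; exact h.1
  · exact (List.append_inj e hl).1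
  · exfalso
    apply h.2 _ hl
    have : Y.take Y'.length = Y' := by
      have := congrArg (List.take Y'.length) e
      rw [List.take_left' rfl, List.take_append_of_le_length hl.le] at this
      exact this
    rw [this]; exact h'.1

def QZ (u : List α) : Prop := G.p0 ≤ u.length ∧ Qual G.Ro G.th G.M' 0 (u.drop G.p0)

def A (v : V) (Z : List α) : V :=
  G.act (G.act v (G.φ (Z.take G.p0)) + G.nu2 (Z.take G.p0)) (G.φ (Z.drop G.p0)) +
    G.nu1 (Z.drop G.p0)

def Bm : ℕ := G.p0 + G.BY + G.N1 + G.no + 1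

theorem Bm_pos : 0 < G.Bm := by unfold Bm; omega

noncomputable def δ : St α V G.Bm → α → St α V G.Bm := dl G.QZ G.A G.Bm G.Bm_pos

def z : {u : List α // u.length < G.Bm} := ⟨[], by simpa using G.Bm_pos⟩

/-- the block `X ++ Y` is read from an inner state -/
theorem run_zone {θ : St α V G.Bm} {w X Y : List α} (hX : X.length = G.p0)
    (hu : θ.1.1.length ≤ G.p0 + G.N1) (h : θ.1.1 ++ w = X ++ Y) (hY : Fst G.Ro G.th G.M' 0 Y)
    (hl : Y.length ≤ G.BY + G.N1) :
    run G.δ θ w = (G.z, G.A θ.2 (X ++ Y)) := by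
  have hY1 : G.N1 + G.no < Y.length := by
    have h1 := hY.1.2
    have h2 := G.th_low ((0 + Y.length) % G.M')
    omega
  have hlen := congrArg List.length h
  rw [List.length_append, List.length_append] at hlen
  have hq : G.QZ (X ++ Y) := ⟨by rw [List.length_append]; omega, by
    rw [List.drop_left' hX]; exact hY.1⟩
  have := run_block (QZ := G.QZ) (A := G.A) G.Bm_pos θ w (by
      rintro rfl
      simp only [List.length_nil] at hlen
      omega) (by rw [h]; exact hq) (by
      rw [h]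
      intro q h1 h2 h3
      obtain ⟨h4, h5⟩ := h3
      have h6 : ((X ++ Y).take q).drop G.p0 = Y.take (q - G.p0) := by
        rw [List.drop_take, List.drop_left' hX]
      rw [h6] at h5
      rw [List.length_take] at h4
      rw [List.length_append] at h2
      exact hY.2 (q - G.p0) (by omega) h5) (by
      rw [h, List.length_append]; unfold Bm; omega)
  rw [h] at this
  exact this

/-- short texts are not blocks -/
theorem run_inner {θ : St α V G.Bm} {w X Y P : List α} (hX : X.length = G.p0)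
    (h : θ.1.1 ++ w = X ++ P) (hP : ∃ Q, Q ≠ [] ∧ P ++ Q = Y) (hY : Fst G.Ro G.th G.M' 0 Y)
    (hl : Y.length ≤ G.BY) :
    (run G.δ θ w).1.1 = X ++ P ∧ (run G.δ θ w).2 = θ.2 := by
  obtain ⟨Q, hQ, hPQ⟩ := hP
  have hPl : P.length < Y.length := by
    rw [← hPQ, List.length_append]
    have := List.length_pos_iff.2 hQ
    omega
  have := run_short (QZ := G.QZ) (A := G.A) G.Bm_pos w θ (by
      rw [h]
      intro q h1 h2 h3
      obtain ⟨h4, h5⟩ := h3
      have h6 : ((X ++ P).take q).drop G.p0 = Y.take (q - G.p0) := by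
        rw [List.drop_take, List.drop_left' hX, ← hPQ, List.take_append_of_le_length]
        rw [List.length_append] at h2
        omega
      rw [h6] at h5
      rw [List.length_append] at h2
      exact hY.2 (q - G.p0) (by omega) h5) (by
      rw [h, List.length_append]; unfold Bm; omega)
  rw [h] at this
  exact this

/-- the same before `X` is complete -/
theorem run_inX {θ : St α V G.Bm} {w : List α} (h : (θ.1.1 ++ w).length ≤ G.p0) :
    (run G.δ θ w).1.1 = θ.1.1 ++ w ∧ (run G.δ θ w).2 = θ.2 := by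
  refine run_short (QZ := G.QZ) (A := G.A) G.Bm_pos w θ ?_ (by unfold Bm; omega)
  intro q h1 h2 h3
  obtain ⟨h4, h5⟩ := h3
  have h6 : ((θ.1.1 ++ w).take q).drop G.p0 = [] := by
    rw [List.drop_eq_nil_iff, List.length_take]; omega
  rw [h6] at h5
  have h7 := h5.2
  have h8 := G.th_low ((0 + ([] : List α).length) % G.M')
  simp only [List.length_nil] at h7 h8
  omega

/-- scheme 1, left -/
def CutL1 (θ : St α V G.Bm) : Prop :=
  G.p0 ≤ θ.1.1.length ∧ G.Lf (θ.1.1.drop G.p0) =
    some (G.act θ.2 (G.φ (θ.1.1.take G.p0)) + G.nu2 (θ.1.1.take G.p0))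

def D1 : ℕ := G.BY + 1

def Ok1 (r : List α) (p : List α × List α × V) : Prop :=
  r = p.1 ++ p.2.1 ∧ G.Rf p.1 = some p.2.2 ∧ p.1.length ≤ G.BY ∧
    ∀ y ≤ G.N1, G.M' ∣ y → Fst G.Ro G.th G.M' y p.1

open Classical in
noncomputable def ρ1 (r : List α) : Option (St α V G.Bm) :=
  if h : ∃ p, G.Ok1 r p then some (run G.δ (G.z, h.choose.2.2) h.choose.2.1) else none

theorem app_Fst {P Q : List α} (h1 : P.length ≤ G.N1)
    (h : Fst G.Ro G.th G.M' P.length Q) : Fst G.Ro G.th G.M' 0 (P ++ Q) := by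
  have key : ∀ Q', Qual G.Ro G.th G.M' 0 (P ++ Q') ↔ Qual G.Ro G.th G.M' P.length Q' := by
    intro Q'
    have h3 := G.th_low ((P.length + Q'.length) % G.M')
    unfold Qual
    rw [List.length_append, Nat.zero_add]
    constructor
    · rintro ⟨a, b⟩
      refine ⟨?_, b⟩
      rw [G.Ro_loc, List.reverse_append, List.take_append_of_le_length (by
        rw [List.length_reverse]; omega), ← G.Ro_loc] at a
      exact a
    · rintro ⟨a, b⟩
      refine ⟨?_, b⟩
      rw [G.Ro_loc, List.reverse_append, List.take_append_of_le_length (by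
        rw [List.length_reverse]; omega), ← G.Ro_loc]
      exact a
  refine ⟨(key Q).2 h.1, fun q hq hq2 => ?_⟩
  by_cases hqP : q ≤ P.length
  · have h3 := hq2.2
    have h4 := G.th_low ((0 + ((P ++ Q).take q).length) % G.M')
    rw [List.length_take] at h3 h4
    omega
  · have e : (P ++ Q).take q = P ++ Q.take (q - P.length) := by
      rw [List.take_append, List.take_of_length_le (by omega)]
    rw [e] at hq2
    rw [List.length_append] at hq
    exact h.2 _ (by omega) ((key _).1 hq2)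

theorem A_app (v : V) {X Y : List α} (hX : X.length = G.p0) :
    G.A v (X ++ Y) = G.act (G.act v (G.φ X) + G.nu2 X) (G.φ Y) + G.nu1 Y := by
  unfold A
  rw [List.take_left' hX, List.drop_left' hX]

theorem sound1 {θ : St α V G.Bm} {r : List α} {θ' : St α V G.Bm} (h1 : G.CutL1 θ)
    (h2 : G.ρ1 r = some θ') : run G.δ θ r = θ' := by
  unfold ρ1 at h2
  split_ifs at h2 with h
  have hp := h.choose_spec
  set p := h.choose
  obtain ⟨e1, e2, e3, e4⟩ := hp
  rw [Option.some.injEq] at h2
  rw [← h2, e1, run_append]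
  congr 1
  obtain ⟨l1, l2⟩ := h1
  obtain ⟨m1, m2⟩ := G.Lf_len _ _ l2
  have hF := G.app_Fst m2 (e4 _ m2 m1)
  have hXl : (θ.1.1.take G.p0).length = G.p0 := by rw [List.length_take]; omega
  have hPl : (θ.1.1.drop G.p0).length = θ.1.1.length - G.p0 := List.length_drop
  have hlY : (θ.1.1.drop G.p0 ++ p.1).length ≤ G.BY + G.N1 := by
    rw [List.length_append]; omega
  have hz := G.run_zone (θ := θ) (w := p.1) (X := θ.1.1.take G.p0) (Y := θ.1.1.drop G.p0 ++ p.1)
    hXl (by omega) (by rw [← List.append_assoc, List.take_append_drop]) hF hlY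
  rw [hz, G.A_app _ hXl, ← G.exact1 _ _ _ _ l2 e2]

/-- a good block is cut by scheme 1 -/
theorem cut1 {θ : St α V G.Bm} {x Y E : List α} (hX : (θ.1.1 ++ x).length = G.p0)
    (hY : Fst G.Ro G.th G.M' 0 Y) (hl : Y.length ≤ G.BY) (hR : G.RFl Y) (hg : ¬ G.Bad Y)
    (hE : G.D1 ≤ E.length) : ¬ Uncut G.δ G.CutL1 G.D1 G.ρ1 θ (x ++ (Y ++ E)) := by
  intro hu
  obtain ⟨P, Q, hPQ, hP, hQ, hQ2⟩ := G.comp1 Y hR hY hg
    (G.act θ.2 (G.φ (θ.1.1 ++ x)) + G.nu2 (θ.1.1 ++ x))
  have hQl : Q.length ≤ G.BY := by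
    rw [← hPQ, List.length_append] at hl; omega
  have hQ0 : Q ≠ [] := by
    rintro rfl
    have h3 := (hQ2 0 (Nat.zero_le _) (dvd_zero _)).1.2
    have h4 := G.th_low ((0 + ([] : List α).length) % G.M')
    simp only [List.length_nil] at h3 h4
    omega
  refine hu (x ++ P) ((Q ++ E).take G.D1) ((Q ++ E).drop G.D1) ?_ ⟨?_, ?_, ?_⟩
  · rw [List.append_assoc, List.take_append_drop, ← hPQ]
    simp [List.append_assoc]
  · rw [List.length_take, List.length_append]; omega
  · obtain ⟨r1, r2⟩ := G.run_inner (θ := θ) (w := x ++ P) (X := θ.1.1 ++ x) (Y := Y) (P := P) hX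
      (by simp [List.append_assoc]) ⟨Q, hQ0, hPQ⟩ hY hl
    refine ⟨?_, ?_⟩
    · rw [r1, List.length_append]; omega
    · rw [r1, r2, List.drop_left' hX, List.take_left' hX]
      exact hP
  · have hD : G.BY < G.D1 := by unfold D1; omega
    have e : (Q ++ E).take G.D1 = Q ++ E.take (G.D1 - Q.length) := by
      rw [List.take_append, List.take_of_length_le (by omega)]
    unfold ρ1
    obtain ⟨b, hb⟩ := Option.isSome_iff_exists.1 hQ
    rw [dif_pos ⟨(Q, E.take (G.D1 - Q.length), b), e, hb, hQl, hQ2⟩]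
    rfl

/-! ### scheme 2 -/

def CutL2 (θ : St α V G.Bm) : Prop :=
  ∃ k < G.K, θ.1.1.length = G.c k ∧ G.lam k θ.1.1 = some θ.2

def D2 : ℕ := G.p0 + G.BY + G.D1

def Bk (k : ℕ) (r : List α) : Prop :=
  ∃ Y E, r.drop (G.p0 - G.c k) = Y ++ E ∧ Fst G.Ro G.th G.M' 0 Y ∧ G.Bad Y

def Ok2 (r : List α) (p : ℕ × List α × List α × V) : Prop :=
  p.1 < G.K ∧ r.drop (G.p0 - G.c p.1) = p.2.1 ++ p.2.2.1 ∧ Fst G.Ro G.th G.M' 0 p.2.1 ∧
    p.2.1.length ≤ G.BY ∧
    (∀ k' < G.K, G.Bk k' r → k' = p.1) ∧ G.rho p.1 (r.take (G.p0 - G.c p.1)) = some p.2.2.2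

open Classical in
noncomputable def ρ2 (r : List α) : Option (St α V G.Bm) :=
  if h : ∃ p, G.Ok2 r p then
    some (run G.δ (G.z, G.act h.choose.2.2.2 (G.φ h.choose.2.1) + G.nu1 h.choose.2.1)
      h.choose.2.2.1) else none

/-- the class -/
def Cl (θ : St α V G.Bm) (w : List α) : Prop := G.RFl (θ.1.1 ++ w)

theorem sound2 {θ : St α V G.Bm} {r : List α} {θ' : St α V G.Bm} (hC : G.Cl θ r)
    (hU : Uncut G.δ G.CutL1 G.D1 G.ρ1 θ r) (h1 : G.CutL2 θ) (hr : r.length = G.D2)
    (h2 : G.ρ2 r = some θ') : run G.δ θ r = θ' := by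
  unfold ρ2 at h2
  split_ifs at h2 with h
  have hp := h.choose_spec
  set p := h.choose
  obtain ⟨e1, e2, e3, e4, e5, e6⟩ := hp
  rw [Option.some.injEq] at h2
  obtain ⟨k, hk, l1, l2⟩ := h1
  have hck := G.hc k hk
  have hD2 : G.D2 = G.p0 + G.BY + G.D1 := rfl
  -- the block after the cut
  have hτ : (r.drop (G.p0 - G.c k)).length = G.D2 - (G.p0 - G.c k) := by
    rw [List.length_drop, hr]
  have hXl : (θ.1.1 ++ r.take (G.p0 - G.c k)).length = G.p0 := by
    rw [List.length_append, List.length_take, l1]; omega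
  have hkp : k = p.1 := by
    obtain ⟨q, hq1, hq2⟩ := G.blk (r.drop (G.p0 - G.c k))
      (G.RFl_infix _ _ ((List.drop_suffix _ _).isInfix.trans (List.suffix_append _ _).isInfix) hC)
      (by rw [hτ]; omega)
    have hsplit : r = r.take (G.p0 - G.c k) ++ ((r.drop (G.p0 - G.c k)).take q ++
        (r.drop (G.p0 - G.c k)).drop q) := by
      rw [List.take_append_drop, List.take_append_drop]
    by_cases hb : G.Bad ((r.drop (G.p0 - G.c k)).take q)
    · exact e5 k hk ⟨_, (r.drop (G.p0 - G.c k)).drop q, (List.take_append_drop _ _).symm, hq2, hb⟩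
    · exfalso
      rw [hsplit] at hU
      refine G.cut1 hXl hq2 (by rw [List.length_take]; omega) (G.RFl_infix _ _ ?_ hC) hb
        (by rw [List.length_drop, hτ]; omega) hU
      exact ((List.take_prefix _ _).isInfix.trans (List.drop_suffix _ _).isInfix).trans
        (List.suffix_append _ _).isInfix
  rw [← hkp] at e2 e6
  have hb := G.exact2 k hk _ _ _ _ l1 l2 e6
  have hsplit : r = (r.take (G.p0 - G.c k) ++ p.2.1) ++ p.2.2.1 := by
    rw [List.append_assoc, ← e2, List.take_append_drop]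
  have hz := G.run_zone (θ := θ) (w := r.take (G.p0 - G.c k) ++ p.2.1)
    (X := θ.1.1 ++ r.take (G.p0 - G.c k)) (Y := p.2.1) hXl (by omega)
    (by simp [List.append_assoc]) e3 (by omega)
  rw [← h2]
  conv_lhs => rw [hsplit]
  rw [run_append, hz, G.A_app _ hXl, ← hb]

theorem uncut_suf {CutL : St α V G.Bm → Prop} {D : ℕ} {ρ : List α → Option (St α V G.Bm)}
    {θ : St α V G.Bm} {u v : List α} (h : Uncut G.δ CutL D ρ θ (u ++ v)) :
    Uncut G.δ CutL D ρ (run G.δ θ u) v := by
  intro p r s e hc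
  refine h (u ++ p) r s (by rw [← e]; simp [List.append_assoc]) ⟨hc.1, ?_, hc.2.2⟩
  rw [run_append]
  exact hc.2.1

theorem Cl_suf {θ : St α V G.Bm} {u v : List α} (h : G.Cl θ (u ++ v)) :
    G.Cl (run G.δ θ u) v := by
  obtain ⟨t, ht⟩ := run_suffix (QZ := G.QZ) (A := G.A) G.Bm_pos u θ
  refine G.RFl_infix _ _ ?_ h
  have e : θ.1.1 ++ (u ++ v) = t ++ ((run G.δ θ u).1.1 ++ v) := by
    rw [← List.append_assoc, ← ht]
    exact List.append_assoc _ _ _
  rw [e]
  exact (List.suffix_append _ _).isInfix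

theorem bound {θ : St α V G.Bm} {w : List α} (hC : G.Cl θ w)
    (hU1 : Uncut G.δ G.CutL1 G.D1 G.ρ1 θ w) (hU2 : Uncut G.δ G.CutL2 G.D2 G.ρ2 θ w) :
    w.length ≤ G.Bm + G.p0 + G.D2 := by
  by_contra hlt
  push Not at hlt
  obtain ⟨w1, w2, rfl, hw1, hr⟩ := exists_anchor (QZ := G.QZ) (A := G.A) G.Bm_pos G.Bm θ w
    (by omega) (by omega)
  rw [List.length_append] at hlt
  have hC' := G.Cl_suf hC
  have hU1' := G.uncut_suf hU1
  have hU2' := G.uncut_suf hU2
  set θ1 := run G.δ θ w1 with hθ1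
  have hr' : θ1.1.1 = [] := hr
  have hRw : G.RFl w2 := by
    have := hC'
    unfold Cl at this
    rwa [hr', List.nil_append] at this
  have hD2 : G.D2 = G.p0 + G.BY + G.D1 := rfl
  have hXl : (θ1.1.1 ++ w2.take G.p0).length = G.p0 := by
    rw [hr', List.nil_append, List.length_take]; omega
  obtain ⟨q, hq1, hq2⟩ := G.blk (w2.drop G.p0)
    (G.RFl_infix _ _ (List.drop_suffix _ _).isInfix hRw) (by rw [List.length_drop]; omega)
  have hsplit : w2 = w2.take G.p0 ++ ((w2.drop G.p0).take q ++ (w2.drop G.p0).drop q) := by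
    rw [List.take_append_drop, List.take_append_drop]
  by_cases hb : G.Bad ((w2.drop G.p0).take q)
  · obtain ⟨k, hk, k1, k2, k3⟩ := G.comp2 w2 hRw _ _ (List.take_append_drop q (w2.drop G.p0)).symm
      hq2 hb θ1.2
    have hck := G.hc k hk
    have hrl : ((w2.drop (G.c k)).take G.D2).length = G.D2 := by
      rw [List.length_take, List.length_drop]; omega
    refine hU2' (w2.take (G.c k)) ((w2.drop (G.c k)).take G.D2) ((w2.drop (G.c k)).drop G.D2)
      (by rw [List.append_assoc, List.take_append_drop, List.take_append_drop]) ⟨hrl, ?_, ?_⟩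
    · obtain ⟨r1, r2⟩ := G.run_inX (θ := θ1) (w := w2.take (G.c k)) (by
        rw [hr', List.nil_append, List.length_take]; omega)
      rw [hr', List.nil_append] at r1
      refine ⟨k, hk, ?_, ?_⟩
      · rw [r1, List.length_take]; omega
      · rw [r1, r2]; exact k1
    · obtain ⟨b, hb2⟩ := Option.isSome_iff_exists.1 k2
      have e0 : (w2.drop (G.c k)).drop (G.p0 - G.c k) = w2.drop G.p0 := by
        rw [List.drop_drop]; congr 1; omega
      have hq3 : ((w2.drop G.p0).take q).length ≤ G.BY := by rw [List.length_take]; omega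
      have : G.Ok2 ((w2.drop (G.c k)).take G.D2) (k, (w2.drop G.p0).take q,
          ((w2.drop G.p0).drop q).take (G.D2 - (G.p0 - G.c k) - ((w2.drop G.p0).take q).length), b) := by
        refine ⟨hk, ?_, hq2, hq3, ?_, ?_⟩
        · change List.drop (G.p0 - G.c k) (List.take G.D2 (List.drop (G.c k) w2)) = _
          rw [List.drop_take, e0]
          conv_lhs => rw [← List.take_append_drop q (w2.drop G.p0)]
          rw [List.take_append, List.take_of_length_le (by omega)]
        · rintro k' hk' ⟨Y', E', y1, y2, y3⟩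
          refine k3 k' hk' ⟨Y', E' ++ ((w2.drop (G.c k)).drop G.D2), ?_, y2, y3⟩
          have hck' := G.hc k' hk'
          have e2 : (w2.drop (G.c k)).drop (G.p0 - G.c k') =
              ((w2.drop (G.c k)).take G.D2).drop (G.p0 - G.c k') ++ (w2.drop (G.c k)).drop G.D2 := by
            rw [← List.drop_append_of_le_length (by rw [hrl]; omega), List.take_append_drop]
          rw [e2, y1, List.append_assoc]
        · change G.rho k (List.take (G.p0 - G.c k) (List.take G.D2 (List.drop (G.c k) w2))) = some b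
          rw [List.take_take, min_eq_left (by omega)]
          exact hb2
      unfold ρ2
      rw [dif_pos ⟨_, this⟩]
      rfl
  · rw [hsplit] at hU1'
    exact G.cut1 hXl hq2 (by rw [List.length_take]; omega)
      (G.RFl_infix _ _ ((List.take_prefix _ _).isInfix.trans (List.drop_suffix _ _).isInfix) hRw) hb
      (by rw [List.length_drop, List.length_drop]; omega) hU1'

theorem main [Finite α] [Finite V] : RC 2 G.δ G.Cl := by
  have : Finite {u : List α // u.length < G.Bm} :=
    (List.finite_length_lt α G.Bm).to_subtype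
  refine nested G.δ G.Cl (fun θ u v h => G.RFl_infix _ _ ?_ h) (fun θ u v h => G.Cl_suf h)
    G.CutL1 G.D1 (by unfold D1; omega) G.ρ1 (fun θ r θ' _ h1 _ h2 => G.sound1 h1 h2) ?_
  · rw [← List.append_assoc]
    exact (List.prefix_append _ _).isInfix
  refine nested G.δ _ (fun θ u v h => ⟨G.RFl_infix _ _ ?_ h.1, h.2.prefix⟩)
    (fun θ u v h => ⟨G.Cl_suf h.1, G.uncut_suf h.2⟩)
    G.CutL2 G.D2 (by unfold D2 D1; omega) G.ρ2
    (fun θ r θ' h0 h1 hr h2 => G.sound2 h0.1 h0.2 h1 hr h2) ?_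
  · rw [← List.append_assoc]
    exact (List.prefix_append _ _).isInfix
  exact RC.bounded 0 (G.Bm + G.p0 + G.D2) fun θ w h => G.bound h.1.1 h.1.2 h.2

end Cfg

end Crest.Agent.R320.Half1_229
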