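import Crest.Agent.R320.Half1A_229
import Crest.Agent.R320.Gad1_420
import Crest.Agent.R320.ExactR_237
import Crest.Agent.R320.Names_755
import Crest.Agent.R320.RandF_808
import Crest.Agent.R320.Wall_291
import Crest.Agent.R320.Ruler_302

/-!
Row 320, helper229: HALF 1, part B: existence of the configuration.
-/

set_option autoImplicit false

namespace Crest.Agent.R320.Half1_229

open Crest.Agent.R320.Wall_291 (RF)

universe u

/-- walls with positive window -/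
theorem walls' (α : Type u) [Finite α] (e W : ℕ) :
    ∃ (n G : ℕ) (R : List α → Prop), 0 < n ∧
      (∀ Q, R Q ↔ R (Q.take n)) ∧
      (∀ Q, R Q → n ≤ Q.length) ∧
      (∀ Q d, R Q → 0 < d → d ≤ W → ¬ R (Q.drop d)) ∧
      (∀ Q, RF e W Q → G + n ≤ Q.length → ∃ i < G, R (Q.drop i)) := by
  obtain ⟨n, G, R, h1, h2, h3, h4⟩ := Wall_291.exists_walls α e W
  refine ⟨n + 1, G, fun Q => R Q ∧ n + 1 ≤ Q.length, by omega, ?_, fun Q h => h.2, ?_, ?_⟩
  · intro Q
    constructor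
    · rintro ⟨a, b⟩
      refine ⟨?_, by rw [List.length_take]; omega⟩
      rw [h1, List.take_take, min_eq_left (by omega), ← h1]; exact a
    · rintro ⟨a, b⟩
      rw [List.length_take] at b
      refine ⟨?_, by omega⟩
      rw [h1, List.take_take, min_eq_left (by omega), ← h1] at a; exact a
  · rintro Q d ⟨a, b⟩ hd hd2 ⟨c, _⟩
    exact h3 Q d a hd hd2 c
  · intro Q hQ hl
    obtain ⟨i, hi, hi2⟩ := h4 Q hQ (by omega)
    exact ⟨i, hi, hi2, by rw [List.length_drop]; omega⟩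

theorem RF_reverse {α : Type u} {e p : ℕ} {Q : List α} (h : RF e p Q) : RF e p Q.reverse := by
  intro x hx hl hi
  refine h x.reverse (by simpa using hx) (by simpa using hl) ?_
  have h2 := List.reverse_infix.2 hi
  rw [List.reverse_reverse] at h2
  have e2 : (List.replicate e x).flatten.reverse = (List.replicate e x.reverse).flatten := by
    rw [List.reverse_flatten]
    simp
  rwa [e2] at h2

section walls

variable {α : Type u} {Ro Rs : List α → Prop} {no W g : ℕ}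

theorem gapL (hs : ∀ Q d, Ro Q → 0 < d → d ≤ W → ¬ Ro (Q.drop d)) {w : List α} {a b : ℕ}
    (ha : Ro (w.take a).reverse) (hb : Ro (w.take b).reverse) (hb' : b ≤ w.length) (hab : a ≤ b)
    (hW : b ≤ a + W) : a = b := by
  by_contra hne
  have h1 := hs _ (b - a) hb (by omega) (by omega)
  apply h1
  rw [List.drop_reverse, List.length_take, min_eq_left hb', List.take_take,
    min_eq_left (by omega), show b - (b - a) = a by omega]
  exact ha

theorem gapR (hs : ∀ Q d, Rs Q → 0 < d → d ≤ g → ¬ Rs (Q.drop d)) {w : List α} {a b : ℕ}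
    (ha : Rs (w.drop a)) (hb : Rs (w.drop b)) (hab : a ≤ b) (hW : b ≤ a + g) : a = b := by
  by_contra hne
  have h1 := hs _ (b - a) ha (by omega) (by omega)
  apply h1
  rw [List.drop_drop, show a + (b - a) = b by omega]
  exact hb

theorem shiftL (hloc : ∀ Q, Ro Q ↔ Ro (Q.take no)) {w : List α} {x q : ℕ} (hq : no ≤ q)
    (hx : x + q ≤ w.length) :
    Ro ((w.drop x).take q).reverse ↔ Ro (w.take (x + q)).reverse := by
  rw [List.take_add, List.reverse_append, hloc (_ ++ _), List.take_append_of_le_length, ← hloc]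
  rw [List.length_reverse, List.length_take, List.length_drop]
  omega

end walls

section spoil

variable {α : Type u} (Ro Rs : List α → Prop) (no : ℕ) (th : ℕ → ℕ) (M' N1 : ℕ) (Aw : ℕ → ℕ)
  (dd m Reg : ℕ) (Ms : Finset ℕ)

/-- (E) -/
def EE (Y : List α) : Prop :=
  ∃ q ≤ Y.length, Ro (Y.take q).reverse ∧ q ≤ th (q % M') + N1 ∧ th (q % M') ≤ q + N1

/-- (D) -/
def DD (k : ℕ) (Y : List α) : Prop := ∃ s, Aw k ≤ s + dd ∧ s < Aw k + dd ∧ Rs (Y.drop s)

def Badd (Y : List α) : Prop :=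
  EE Ro th M' N1 Y ∨ (∃ k ≤ m, DD Rs Aw dd k Y) ∨ ∃ μ ∈ Ms, μ ∣ Y.length / M'

def PE (w : List α) (x : ℕ) : Prop :=
  ∃ q, no ≤ q ∧ x + q ≤ w.length ∧ Ro (w.take (x + q)).reverse ∧ q ≤ th (q % M') + N1 ∧
    th (q % M') ≤ q + N1

def PD (w : List α) (k x : ℕ) : Prop := ∃ s, Aw k ≤ s + dd ∧ s < Aw k + dd ∧ Rs (w.drop (x + s))

def PB (w : List α) (μ : ℕ) (ε : Bool) (x : ℕ) : Prop :=
  ∃ q, no ≤ q ∧ x + q ≤ w.length ∧ Ro (w.take (x + q)).reverse ∧ th (q % M') ≤ q ∧ μ ∣ q / M' ∧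
    ε = decide (x + q ≤ Reg) ∧
    ∀ q' < q, no ≤ q' → Ro (w.take (x + q')).reverse → ¬ th (q' % M') ≤ q'

def BadPos (w : List α) (x : ℕ) : Prop :=
  PE Ro no th M' N1 w x ∨ (∃ k ≤ m, PD Rs Aw dd w k x) ∨ ∃ μ ∈ Ms, ∃ ε, PB Ro no th M' Reg w μ ε x

variable {Ro Rs no th M' N1 Aw dd m Reg Ms}

theorem to_pos {ns : ℕ} (hlo : ∀ Q, Ro Q ↔ Ro (Q.take no)) (hle : ∀ Q, Ro Q → no ≤ Q.length)
    (hns : 0 < ns) (hls : ∀ Q, Rs Q ↔ Rs (Q.take ns)) (hles : ∀ Q, Rs Q → ns ≤ Q.length)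
    {w Y E : List α} {x : ℕ} (hx : x ≤ w.length) (h : w.drop x = Y ++ E) (hF : Fst Ro th M' 0 Y)
    (hb : Badd Ro Rs th M' N1 Aw dd m Ms Y) : BadPos Ro Rs no th M' N1 Aw dd m Reg Ms w x := by
  have hlen := congrArg List.length h
  rw [List.length_drop, List.length_append] at hlen
  have htk : ∀ q ≤ Y.length, Y.take q = (w.drop x).take q := by
    intro q hq
    rw [h, List.take_append_of_le_length hq]
  have hwl : ∀ q ≤ Y.length, Ro (Y.take q).reverse → no ≤ q ∧ Ro (w.take (x + q)).reverse := by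
    intro q hq hR
    have h1 := hle _ hR
    rw [List.length_reverse, List.length_take] at h1
    refine ⟨by omega, ?_⟩
    rw [htk q hq] at hR
    exact (shiftL hlo (by omega) (by omega)).1 hR
  rcases hb with ⟨q, q1, q2, q3, q4⟩ | ⟨k, hk, s, s1, s2, s3⟩ | ⟨μ, hμ, hd⟩
  · obtain ⟨a, b⟩ := hwl q q1 q2
    exact Or.inl ⟨q, a, by omega, b, q3, q4⟩
  · refine Or.inr (Or.inl ⟨k, hk, s, s1, s2, ?_⟩)
    have h1 := hles _ s3
    rw [List.length_drop] at h1
    rw [← List.drop_drop, h, List.drop_append_of_le_length (by omega), hls,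
      List.take_append_of_le_length (by rw [List.length_drop]; omega), ← hls]
    exact s3
  · refine Or.inr (Or.inr ⟨μ, hμ, decide (x + Y.length ≤ Reg), Y.length, ?_⟩)
    obtain ⟨⟨f1, f2⟩, f3⟩ := hF
    have e : Y = Y.take Y.length := by simp
    rw [e] at f1
    obtain ⟨a, b⟩ := hwl _ le_rfl f1
    rw [Nat.zero_add] at f2
    refine ⟨a, by omega, b, f2, hd, rfl, ?_⟩
    intro q' hq' hn hw hth
    apply f3 q' hq'
    refine ⟨?_, ?_⟩
    · rw [htk q' hq'.le]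
      exact (shiftL hlo hn (by omega)).2 hw
    · rw [Nat.zero_add, List.length_take, min_eq_left hq'.le]
      exact hth

theorem PE_PE {W z0 Δ P : ℕ} (hs : ∀ Q d, Ro Q → 0 < d → d ≤ W → ¬ Ro (Q.drop d))
    (hth : ∀ r, th r = z0 + r * Δ) (hM : 0 < M') (hΔ : 2 * N1 + P < Δ)
    (hW : M' * Δ + 2 * N1 + P ≤ W) {w : List α} {x x2 : ℕ} (h : PE Ro no th M' N1 w x)
    (h2 : PE Ro no th M' N1 w x2) (hx : x ≤ x2 + P) (hx2 : x2 ≤ x + P) :
    (M' : ℤ) ∣ (x : ℤ) - x2 := by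
  obtain ⟨q, q1, q2, q3, q4, q5⟩ := h
  obtain ⟨p, p1, p2, p3, p4, p5⟩ := h2
  rw [hth] at q4 q5 p4 p5
  have r1 := Nat.mod_lt q hM
  have r2 := Nat.mod_lt p hM
  have k1 : (q % M') * Δ ≤ M' * Δ := Nat.mul_le_mul_right _ r1.le
  have k2 : (p % M') * Δ ≤ M' * Δ := Nat.mul_le_mul_right _ r2.le
  have ht : x + q = x2 + p := by
    rcases le_total (x + q) (x2 + p) with h | h
    · exact gapL hs q3 p3 p2 h (by omega)
    · exact (gapL hs p3 q3 q2 h (by omega)).symm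
  have hr : q % M' = p % M' := by
    rcases lt_trichotomy (q % M') (p % M') with h | h | h
    · exfalso
      have : (q % M' + 1) * Δ ≤ (p % M') * Δ := Nat.mul_le_mul_right _ h
      rw [add_mul, one_mul] at this
      omega
    · exact h
    · exfalso
      have : (p % M' + 1) * Δ ≤ (q % M') * Δ := Nat.mul_le_mul_right _ h
      rw [add_mul, one_mul] at this
      omega
  have := (Nat.modEq_iff_dvd (n := M') (a := q) (b := p)).1 hr
  have e : (x : ℤ) - x2 = p - q := by omega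
  rw [e]; exact this

theorem PD_PD {g P k : ℕ} (hs : ∀ Q d, Rs Q → 0 < d → d ≤ g → ¬ Rs (Q.drop d))
    (hg : 2 * dd + P ≤ g) {w : List α} {x x2 : ℕ} (h : PD Rs Aw dd w k x)
    (h2 : PD Rs Aw dd w k x2) (hx : x ≤ x2 + P) (hx2 : x2 ≤ x + P) :
    |(x : ℤ) - x2| < 2 * dd := by
  obtain ⟨q, q1, q2, q3⟩ := h
  obtain ⟨p, p1, p2, p3⟩ := h2
  have ht : x + q = x2 + p := by
    rcases le_total (x + q) (x2 + p) with h | h
    · exact gapR hs q3 p3 h (by omega)
    · exact (gapR hs p3 q3 h (by omega)).symm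
  rw [abs_lt]
  omega

theorem PB_PB {W z0 Δ P X0 μ : ℕ} {ε : Bool}
    (hs : ∀ Q d, Ro Q → 0 < d → d ≤ W → ¬ Ro (Q.drop d))
    (hth : ∀ r, th r = z0 + r * Δ) (hM : 0 < M') (hno : no ≤ z0)
    (hReg : Reg = X0 + P + z0 + M' * Δ)
    (hW : M' * Δ + P ≤ W) {w : List α} {x x2 : ℕ} (h : PB Ro no th M' Reg w μ ε x)
    (h2 : PB Ro no th M' Reg w μ ε x2) (hx : X0 ≤ x) (hx' : x ≤ X0 + P) (hx2 : X0 ≤ x2)
    (hx2' : x2 ≤ X0 + P) :
    ∃ ρ : ℤ, |ρ| < M' ∧ (μ : ℤ) * M' ∣ ((x : ℤ) - x2) - ρ := by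
  obtain ⟨q, q1, q2, q3, q4, q5, q6, q7⟩ := h
  obtain ⟨p, p1, p2, p3, p4, p5, p6, p7⟩ := h2
  have q4' := q4
  have p4' := p4
  rw [hth] at q4' p4'
  have big : ∀ t, M' * Δ + z0 ≤ t → th (t % M') ≤ t := by
    intro t ht
    have k1 : (t % M') * Δ ≤ M' * Δ := Nat.mul_le_mul_right _ (Nat.mod_lt t hM).le
    rw [hth]; omega
  have ht : x + q = x2 + p := by
    have h6 : decide (x + q ≤ Reg) = decide (x2 + p ≤ Reg) := by rw [← q6, ← p6]
    rw [decide_eq_decide] at h6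
    by_cases hr : x + q ≤ Reg
    · have hr2 := h6.1 hr
      rcases le_total (x + q) (x2 + p) with h | h
      · exact gapL hs q3 p3 p2 h (by omega)
      · exact (gapL hs p3 q3 q2 h (by omega)).symm
    · have hr2 : ¬ x2 + p ≤ Reg := fun h => hr (h6.2 h)
      rcases lt_trichotomy (x + q) (x2 + p) with h | h | h
      · exfalso
        refine p7 (x + q - x2) (by omega) (by omega) ?_ (big _ (by omega))
        rw [show x2 + (x + q - x2) = x + q by omega]; exact q3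
      · exact h
      · exfalso
        refine q7 (x2 + p - x) (by omega) (by omega) ?_ (big _ (by omega))
        rw [show x + (x2 + p - x) = x2 + p by omega]; exact p3
  obtain ⟨a, ha⟩ := q5
  obtain ⟨b, hb⟩ := p5
  have e1 := Nat.div_add_mod q M'
  have e2 := Nat.div_add_mod p M'
  have r1 := Nat.mod_lt q hM
  have r2 := Nat.mod_lt p hM
  refine ⟨(p % M' : ℕ) - (q % M' : ℕ), ?_, ?_⟩
  · rw [abs_lt]; omega
  · have e3 : (x : ℤ) - x2 = p - q := by omega
    rw [e3]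
    refine ⟨(b : ℤ) - a, ?_⟩
    rw [ha] at e1
    rw [hb] at e2
    have e1' : (q : ℤ) = M' * (μ * a) + (q % M' : ℕ) := by exact_mod_cast e1.symm
    have e2' : (p : ℤ) = M' * (μ * b) + (p % M' : ℕ) := by exact_mod_cast e2.symm
    linear_combination e2' - e1'

theorem spoil {W z0 Δ g K M U p0 : ℕ}
    (hs : ∀ Q d, Ro Q → 0 < d → d ≤ W → ¬ Ro (Q.drop d))
    (hss : ∀ Q d, Rs Q → 0 < d → d ≤ g → ¬ Rs (Q.drop d))
    (hth : ∀ r, th r = z0 + r * Δ) (hM' : M' = 4 ^ K) (hno : no ≤ z0)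
    (hU : U = M' * (1 + M * 2) + 1) (hp0 : p0 = U * 4 ^ K) (hM0 : 0 < M)
    (hdd : dd = M' * M)
    (hΔ : 2 * N1 + 2 * p0 < Δ) (hW : M' * Δ + 2 * N1 + 2 * p0 ≤ W)
    (hg : 2 * dd + 2 * p0 ≤ g) (hReg : Reg = 2 * p0 + z0 + M' * Δ)
    (hMs : ∀ μ ∈ Ms, 2 * 4 ^ K + 2 < μ ∧ μ ∣ M)
    (I : Finset ℕ) (hI : 1 + (m + 1) + 2 * Ms.card < I.card) (hIK : ∀ k ∈ I, k < K)
    (w : List α) :
    ∃ k ∈ I, ∀ k' < K,
      BadPos Ro Rs no th M' N1 Aw dd m Reg Ms w (U * 4 ^ k + (p0 - U * 4 ^ k')) → k' = k := by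
  classical
  by_contra hcon
  push Not at hcon
  let T := Unit ⊕ (Fin (m + 1) ⊕ (↥Ms × Bool))
  let PT : T → ℕ → Prop := fun t x => match t with
    | .inl _ => PE Ro no th M' N1 w x
    | .inr (.inl i) => PD Rs Aw dd w i x
    | .inr (.inr p) => PB Ro no th M' Reg w p.1.1 p.2 x
  have h1 : ∀ k ∈ I, ∃ k', k' < K ∧ k' ≠ k ∧ ∃ t : T, PT t (U * 4 ^ k + (p0 - U * 4 ^ k')) := by
    intro k hk
    obtain ⟨k', hk', hb, hne⟩ := hcon k hk
    refine ⟨k', hk', hne, ?_⟩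
    rcases hb with hb | ⟨i, hi, hb⟩ | ⟨μ, hμ, ε, hb⟩
    · exact ⟨.inl (), hb⟩
    · exact ⟨.inr (.inl ⟨i, by omega⟩), hb⟩
    · exact ⟨.inr (.inr (⟨μ, hμ⟩, ε)), hb⟩
  choose! f hf1 hf2 t ht using h1
  obtain ⟨k, hk, l, hl, hkl, htt⟩ := Finset.exists_ne_map_eq_of_card_lt_of_maps_to
    (s := I) (t := (Finset.univ : Finset T)) (f := t) (by
      rw [Finset.card_univ]
      simp only [T, Fintype.card_sum, Fintype.card_unit, Fintype.card_fin, Fintype.card_prod,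
        Fintype.card_coe, Fintype.card_bool]
      omega) (fun a _ => Finset.mem_univ _)
  have hkK := hIK k hk
  have hlK := hIK l hl
  have a1 := hf1 k hk
  have a2 := hf1 l hl
  have b1 := hf2 k hk
  have c1 := ht k hk
  have c2 := ht l hl
  rw [← htt] at c2
  have hlt : ∀ j < K, U * 4 ^ j < p0 := by
    intro j hj
    rw [hp0]
    have : 4 ^ j < 4 ^ K := Nat.pow_lt_pow_right (by norm_num) hj
    exact Nat.mul_lt_mul_of_pos_left this (by omega)
  have l1 := hlt k hkK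
  have l2 := hlt l hlK
  have l3 := hlt _ a1
  have l4 := hlt _ a2
  have hM'pos : 0 < M' := by rw [hM']; positivity
  have ex : ((U * 4 ^ k + (p0 - U * 4 ^ f k) : ℕ) : ℤ) - ((U * 4 ^ l + (p0 - U * 4 ^ f l) : ℕ) : ℤ)
      = (U : ℤ) * (4 ^ k - 4 ^ f k) - (U : ℤ) * (4 ^ l - 4 ^ f l) := by
    push_cast [Nat.cast_sub l3.le, Nat.cast_sub l4.le]
    ring
  have hMZ : (4 : ℤ) ^ K ≤ (M' : ℤ) := by rw [hM']; push_cast; exact le_rfl
  generalize t k = tk at c1 c2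
  rcases tk with _ | i | p
  · have h5 := PE_PE (P := 2 * p0) hs hth hM'pos hΔ hW c1 c2 (by omega) (by omega)
    rw [ex] at h5
    refine hkl (Ruler_302.dist_mod hMZ ?_ hkK a1 hlK a2 b1.symm h5).1
    rw [hU]; push_cast
    exact ⟨1 + M * 2, by ring⟩
  · have h5 := PD_PD (P := 2 * p0) hss hg c1 c2 (by omega) (by omega)
    rw [ex] at h5
    refine hkl (Ruler_302.resol (U := (U : ℤ)) (by omega) b1.symm (lt_of_lt_of_le h5 ?_)).1
    rw [hdd, hU]
    push_cast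
    nlinarith [Nat.zero_le M', Nat.zero_le M]
  · obtain ⟨ρ, hρ, h5⟩ := PB_PB (P := 2 * p0) (X0 := 0) hs hth hM'pos hno (by omega) (by omega)
      c1 c2 (by omega) (by omega) (by omega) (by omega)
    rw [ex] at h5
    obtain ⟨m1, m2⟩ := hMs p.1.1 p.1.2
    refine hkl (Ruler_302.dist_mod_floor (M := (M : ℤ)) (t := 2) (U := (U : ℤ)) (by exact_mod_cast hM'pos)
      (by exact_mod_cast m1.le) (by exact_mod_cast m2) (by rw [hU]; push_cast; ring)
      hkK a1 hlK a2 b1.symm hρ h5).1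

end spoil

end Crest.Agent.R320.Half1_229
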