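import Crest.Agent.R320.Half1B_229

/-!
Row 320, helper229: HALF 1, part C: existence of the configuration.
-/

set_option autoImplicit false

namespace Crest.Agent.R320.Half1_229

open Crest.Agent.R320.Wall_291 (RF)
open Crest.Agent.R320.Gad1_420 (Dat Geo Names Rule)

universe u

theorem pr_eq {α : Type u} {S : Type} [Monoid S] (φ : List α → S) (h1 : φ [] = 1)
    (hφ : ∀ u v, φ (u ++ v) = φ u * φ v) (u : List α) :
    ExactR_237.pr (id : S → S) (u.map fun a => φ [a]) = φ u := by
  unfold ExactR_237.pr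
  induction u with
  | nil => simp [h1]
  | cons a u ih =>
    simp only [List.map_cons, List.prod_cons, id]
    rw [ih, ← hφ]
    rfl

/-- first block -/
theorem blk_aux {α : Type u} {Ro : List α → Prop} {no Go E W z0 Δ M' : ℕ} {th : ℕ → ℕ}
    (hex : ∀ Q, RF E W Q → Go + no ≤ Q.length → ∃ i < Go, Ro (Q.drop i))
    (hth : ∀ r, th r = z0 + r * Δ) (hM : 0 < M') {τ : List α} (hR : RF E W τ)
    (hl : z0 + M' * Δ + Go + no ≤ τ.length) :
    ∃ q ≤ z0 + M' * Δ + Go + no, Fst Ro th M' 0 (τ.take q) := by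
  classical
  obtain ⟨i, hi, hi2⟩ := hex (τ.take (z0 + M' * Δ + Go + no)).reverse
    (RF_reverse (hR.take _)) (by rw [List.length_reverse, List.length_take]; omega)
  rw [List.drop_reverse, List.length_take, min_eq_left hl, List.take_take,
    min_eq_left (by omega)] at hi2
  have hex2 : ∃ q, q ≤ z0 + M' * Δ + Go + no ∧ Qual Ro th M' 0 (τ.take q) := by
    refine ⟨z0 + M' * Δ + Go + no - i, by omega, hi2, ?_⟩
    rw [List.length_take, min_eq_left (by omega), hth, Nat.zero_add]
    have k1 : ((z0 + M' * Δ + Go + no - i) % M') * Δ ≤ M' * Δ :=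
      Nat.mul_le_mul_right _ (Nat.mod_lt _ hM).le
    omega
  obtain ⟨h1, h2⟩ := Nat.find_spec hex2
  refine ⟨Nat.find hex2, h1, h2, fun q hq hq2 => ?_⟩
  rw [List.length_take] at hq
  rw [List.take_take, min_eq_left (by omega)] at hq2
  exact Nat.find_min hex2 (by omega) ⟨by omega, hq2⟩

/-- not (E): the right side is legal at every place -/
theorem legal_aux {α : Type u} {Ro : List α → Prop} {no N1 M' : ℕ} {th : ℕ → ℕ}
    (hlo : ∀ Q, Ro Q ↔ Ro (Q.take no)) (hle : ∀ Q, Ro Q → no ≤ Q.length)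
    (hlow : ∀ r, N1 + no < th r)
    {P Q : List α} (hF : Fst Ro th M' 0 (P ++ Q)) (hE : ¬ EE Ro th M' N1 (P ++ Q))
    (hP : P.length ≤ N1) (hP2 : M' ∣ P.length) : ∀ y ≤ N1, M' ∣ y → Fst Ro th M' y Q := by
  intro y hy hyM
  have hmod : ∀ q, (y + q) % M' = (P.length + q) % M' := by
    intro q
    obtain ⟨a, rfl⟩ := hyM
    obtain ⟨b, hb⟩ := hP2
    rw [hb]
    simp [Nat.mul_add_mod]
  have hw : ∀ q ≤ Q.length, no ≤ q → (Ro (Q.take q).reverse ↔
      Ro ((P ++ Q).take (P.length + q)).reverse) := by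
    intro q hq hn
    have := shiftL (w := P ++ Q) (x := P.length) (q := q) hlo hn (by
      rw [List.length_append]; omega)
    rw [List.drop_left' rfl] at this
    exact this
  obtain ⟨⟨f1, f2⟩, f3⟩ := hF
  rw [Nat.zero_add, List.length_append] at f2
  have hlow' := hlow ((P.length + Q.length) % M')
  have hQr : Ro Q.reverse := by
    have := (hw Q.length le_rfl (by omega)).2 (by
      rw [← List.length_append, List.take_of_length_le le_rfl]; exact f1)
    rwa [List.take_of_length_le le_rfl] at this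
  refine ⟨⟨hQr, ?_⟩, ?_⟩
  · rw [hmod]
    by_contra hc
    apply hE
    refine ⟨(P ++ Q).length, le_rfl, by rwa [List.take_of_length_le le_rfl], ?_, ?_⟩
    · rw [List.length_append]; omega
    · rw [List.length_append]; omega
  · rintro q hq ⟨g1, g2⟩
    rw [List.length_take, min_eq_left hq.le] at g2
    have hn := hle _ g1
    rw [List.length_reverse, List.length_take, min_eq_left hq.le] at hn
    have g3 := (hw q hq.le hn).1 g1
    rw [hmod] at g2
    by_cases hc : th ((P.length + q) % M') ≤ P.length + q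
    · apply f3 (P.length + q) (by rw [List.length_append]; omega)
      refine ⟨g3, ?_⟩
      rw [Nat.zero_add, List.length_take, min_eq_left (by rw [List.length_append]; omega)]
      exact hc
    · apply hE
      refine ⟨P.length + q, by rw [List.length_append]; omega, g3, by omega, by omega⟩

theorem exists_cfg (α : Type u) [Finite α] (S V : Type) [Monoid S] [Finite S] [AddCommGroup V]
    [Finite V] (φ : List α → S) (h1 : φ [] = 1) (hφ : ∀ u v, φ (u ++ v) = φ u * φ v)
    (act : V → S → V) (hact : ∀ v s t, act v (s * t) = act (act v s) t) (E : ℕ) :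
    ∃ (W : ℕ) (G : Cfg α S V), G.φ = φ ∧ G.act = act ∧ G.RFl = RF E W := by
  classical
  cases nonempty_fintype S
  cases nonempty_fintype V
  obtain ⟨m, N0, e, F, hN0, hF⟩ := RandF808.exists_noise S V act
  have : NeZero N0 := ⟨by omega⟩
  let W0 := ZMod N0 × ZMod N0
  let Nm := Fin m × S × W0 × S × W0 × V
  let col : Nm → V × V := fun c => (c.2.2.2.2.2,
    F (c.2.1 * 1 * c.2.2.2.1) (c.2.2.1 + e c.1 1 + c.2.2.2.2.1) +
      act c.2.2.2.2.2 (c.2.1 * 1 * c.2.2.2.1))
  obtain ⟨r, hr⟩ := Names755.names Nm (V × V) col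
  obtain ⟨K, hK⟩ := ExactR_237.exact_gadget S S V id act (1 + (m + 1) + 2 * r + 1)
  obtain ⟨Ms, M, nmL, nmR, hMs, hMp, hM0, pL, pR, n1, n2, n3⟩ := hr (2 * 4 ^ K + 2)
  obtain ⟨M', hM'⟩ : ∃ M', M' = 4 ^ K := ⟨_, rfl⟩
  have hM'0 : 0 < M' := by rw [hM']; positivity
  obtain ⟨U, hU⟩ : ∃ U, U = M' * (1 + M * 2) + 1 := ⟨_, rfl⟩
  have hU0 : 0 < U := by omega
  obtain ⟨p0, hp0⟩ : ∃ p0, p0 = U * 4 ^ K := ⟨_, rfl⟩
  have hcp : ∀ k < K, U * 4 ^ k < p0 := by
    intro k hk
    rw [hp0]
    exact Nat.mul_lt_mul_of_pos_left (Nat.pow_lt_pow_right (by norm_num) hk) hU0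
  obtain ⟨lam, rho, nu, ex, co⟩ := hK (fun k => U * 4 ^ k) (fun i j hij _ =>
    Nat.mul_lt_mul_of_pos_left (Nat.pow_lt_pow_right (by norm_num) hij) hU0)
  obtain ⟨dd, hdd⟩ : ∃ dd, dd = M' * M := ⟨_, rfl⟩
  obtain ⟨g, hg⟩ : ∃ g, g = 2 * dd + 2 * p0 + 1 := ⟨_, rfl⟩
  obtain ⟨ns, Gs, Rs, s0, s1, s2, s3, s4⟩ := walls' α E g
  obtain ⟨L, hL⟩ : ∃ L, L = M' * (Gs + ns + M) := ⟨_, rfl⟩
  have hL2 : L = M' * (Gs + ns) + dd := by rw [hL, hdd]; ring
  have hL3 : Gs + ns ≤ M' * (Gs + ns) := Nat.le_mul_of_pos_left _ hM'0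
  obtain ⟨N1, hN1⟩ : ∃ N1, N1 = L * (m + 2) := ⟨_, rfl⟩
  let D : Dat α S V W0 :=
    { φ := φ, act := act, m := m, e := e, F := F, R := Rs, n := ns, G := Gs, M := M, M' := M'
      A := fun k => L * (k + 1), A' := fun k => L * (k + 1) + M' * (Gs + ns)
      LN := fun o c => nmL o = some c, RN := fun o c => nmR o = some c }
  let good : ℕ → Prop := fun T => ∀ k ∈ Ms, ¬ k ∣ T
  have hgeo : Geo D :=
    { hφ := hφ
      rule := ⟨s0, s1, s2⟩
      mono := fun k => Nat.mul_le_mul_left _ (by omega)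
      next := by
        intro i k hik
        change L * (i + 1) + M' * (Gs + ns) + M' * M ≤ L * (k + 1)
        have h5 : L * (i + 1 + 1) ≤ L * (k + 1) := Nat.mul_le_mul_left _ (by omega)
        rw [Nat.mul_add L (i + 1) 1, mul_one] at h5
        omega
      cell := by
        intro k
        change L * (k + 1) + Gs + ns ≤ L * (k + 1) + M' * (Gs + ns)
        omega
      dvd := by
        intro k
        refine Dvd.dvd.add ?_ (dvd_mul_right _ _)
        rw [hL]
        exact Dvd.dvd.mul_right (dvd_mul_right _ _) _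
      M'pos := hM'0 }
  have hnames : Names D good :=
    { n1 := fun T hT o o' c c' ho hl hr => n1 o o' c c' hl hr (by rw [ho]; exact hT)
      n2 := by
        intro T hT c s hs
        obtain ⟨t, ht, ht1, ht2⟩ := n2 T hT c
        have hper : ∀ a j, nmL (a + j * M) = nmL a := by
          intro a j
          induction j with
          | zero => simp
          | succ j ih => rw [← ih, Nat.succ_mul, ← add_assoc, pL]
        have hper2 : ∀ a, nmL a = nmL (a % M) := by
          intro a
          conv_lhs => rw [← Nat.mod_add_div a M, mul_comm M (a / M)]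
          exact hper _ _
        obtain ⟨q, hq⟩ : ∃ q, q = (t + (M - 1) * s) % M := ⟨_, rfl⟩
        have hqM : q < M := by rw [hq]; exact Nat.mod_lt _ hM0
        have hot : s + q ≡ t [MOD M] := by
          have e1 : q ≡ t + (M - 1) * s [MOD M] := by rw [hq]; exact Nat.mod_modEq _ _
          have e2 : s + q ≡ s + (t + (M - 1) * s) [MOD M] := Nat.ModEq.add_left _ e1
          have e3 : s + (t + (M - 1) * s) = t + M * s := by
            obtain ⟨M2, rfl⟩ : ∃ M2, M = M2 + 1 := ⟨M - 1, by omega⟩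
            rw [Nat.add_sub_cancel]; ring
          rw [e3] at e2
          refine e2.trans ?_
          have : t + M * s ≡ t + 0 [MOD M] :=
            Nat.ModEq.add_left _ ((Nat.modEq_zero_iff_dvd).2 (dvd_mul_right _ _))
          rwa [Nat.add_zero] at this
        change s + M ≤ T at hs
        refine ⟨s + q, by omega, Nat.add_lt_add_left hqM s, ?_, ?_⟩
        · change nmL (s + q) = some c
          rw [hper2, hot, ← hper2]; exact ht1
        · change nmR (T - (s + q)) = some c
          apply ht2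
          have e4 : t + (T - (s + q)) ≡ (s + q) + (T - (s + q)) [MOD M] :=
            Nat.ModEq.add_right _ hot.symm
          rwa [show (s + q) + (T - (s + q)) = T by omega] at e4
      n3 := by
        intro T hT
        by_cases hx : ∃ o o' c c', o + o' = T ∧ nmL o = some c ∧ nmR o' = some c'
        · obtain ⟨o, o', c, c', ho, hl, hr'⟩ := hx
          refine ⟨(col c).1, (col c').2, fun o2 o2' c2 c2' ho2 hl2 hr2 => ?_⟩
          have hb : ∃ k ∈ Ms, k ∣ o2 + o2' := by
            by_contra hcon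
            push Not at hcon
            exact hT (by rw [← ho2]; exact hcon)
          obtain ⟨a1, a2⟩ := n3 o2 o2' o o' c2 c2' c c' hl2 hr2 hl hr' (by omega) hb
          exact ⟨congrArg Prod.fst a1, congrArg Prod.snd a2⟩
        · refine ⟨0, 0, fun o o' c c' ho hl hr' => ?_⟩
          exact absurd ⟨o, o', c, c', ho, hl, hr'⟩ hx }
  obtain ⟨nu1, ex1, len1, co1⟩ := Gad1_420.gadget1 D good hgeo hnames hF
  obtain ⟨Δ, hΔ⟩ : ∃ Δ, Δ = 2 * N1 + 2 * p0 + 1 := ⟨_, rfl⟩
  obtain ⟨W, hW⟩ : ∃ W, W = M' * Δ + 2 * N1 + 2 * p0 + g := ⟨_, rfl⟩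
  obtain ⟨no, Go, Ro, o0, o1, o2, o3, o4⟩ := walls' α E W
  obtain ⟨z0, hz0⟩ : ∃ z0, z0 = N1 + no + 1 := ⟨_, rfl⟩
  let th : ℕ → ℕ := fun r => z0 + r * Δ
  let Aw : ℕ → ℕ := fun k => L * (k + 1)
  let Bad : List α → Prop := Badd Ro Rs th M' N1 Aw dd m Ms
  have hth : ∀ r, th r = z0 + r * Δ := fun r => rfl
  have hlow : ∀ r, N1 + no < th r := by
    intro r
    rw [hth]; omega
  have hlen0 : ∀ Y, Fst Ro th M' 0 Y → N1 + no < Y.length := by
    intro Y hY
    have a := hY.1.2
    have b := hlow ((0 + Y.length) % M')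
    omega
  let ℓ : α → S := fun a => φ [a]
  refine ⟨W,
    { φ := φ, act := act, hφ := hφ, hact := hact, Ro := Ro, no := no, Ro_loc := o1, th := th
      M' := M', N1 := N1, p0 := p0, BY := z0 + M' * Δ + Go + no, th_low := hlow
      Lf := D.Lf, Rf := D.Rf, nu1 := nu1, exact1 := ex1
      Lf_len := ?_
      K := K, c := fun k => U * 4 ^ k, hc := hcp
      lam := fun k P => lam k (P.map ℓ), rho := fun k Q => rho k (Q.map ℓ) 1
      nu2 := fun X => nu (X.map ℓ) 1
      exact2 := ?_
      Bad := Bad, RFl := RF E W, RFl_infix := fun u v h h' => RF.infix h' h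
      blk := fun τ hR hl => blk_aux o4 hth hM'0 hR hl
      comp1 := ?_, comp2 := ?_ }, rfl, rfl, rfl⟩
  · intro P v h
    obtain ⟨i, hi, a, b, c⟩ := len1 P v h
    refine ⟨a, ?_⟩
    change P.length < L * (i + 1) + M' * (Gs + ns) + M' * M at c
    have hi' : i < m := hi
    have h5 : L * (i + 2) ≤ L * (m + 2) := Nat.mul_le_mul_left _ (by omega)
    have h6 : L * (i + 2) = L * (i + 1) + L := by ring
    rw [hN1]
    omega
  · intro k hk P Q v b hP h2 h3
    have h4 := ex k hk (P.map ℓ) (Q.map ℓ) 1 v b (by rw [List.length_map]; exact hP) h2 h3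
    rw [← List.map_append, pr_eq φ h1 hφ, mul_one] at h4
    exact h4
  · intro Y hR hF1 hB v
    have hB' : ¬ Badd Ro Rs th M' N1 Aw dd m Ms Y := hB
    unfold Badd at hB'
    push Not at hB'
    obtain ⟨b1, b2, b3⟩ := hB'
    have hl0 := hlen0 Y hF1
    have h7 : L * (m + 2) = L * (m + 1) + L := by ring
    obtain ⟨P, Q, hPQ, hP, hQ⟩ := co1 Y b3 (by
        intro i hi
        change L * (i + 1) + M' * (Gs + ns) + M' * M ≤ Y.length
        have hi' : i < m := hi
        have h5 : L * (i + 2) ≤ L * (m + 2) := Nat.mul_le_mul_left _ (by omega)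
        have h6 : L * (i + 2) = L * (i + 1) + L := by ring
        omega) (by
        intro t ht
        change t ≤ L * (m + 1) + M' * M at ht
        obtain ⟨i, hi, hi2⟩ := s4 (Y.drop t) ((hR.drop t).mono (by omega)) (by
          rw [List.length_drop]; omega)
        refine ⟨t + i, by omega, ?_, ?_⟩
        · change t + i < t + Gs; omega
        · rwa [List.drop_drop] at hi2) (by
        intro k hk s hs1 hs2 hs3
        refine b2 k hk ⟨s, ?_, ?_, hs3⟩
        · rw [hdd]; exact hs1
        · rw [hdd]; exact hs2) v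
    refine ⟨P, Q, hPQ, hP, hQ, ?_⟩
    obtain ⟨i, hi, a, b, c⟩ := len1 P v hP
    change P.length < L * (i + 1) + M' * (Gs + ns) + M' * M at c
    have h5 : L * (i + 2) ≤ L * (m + 2) := Nat.mul_le_mul_left _ (by
      have hi' : i < m := hi
      omega)
    have h6 : L * (i + 2) = L * (i + 1) + L := by ring
    rw [← hPQ] at hF1 b1
    exact legal_aux o1 o2 hlow hF1 b1 (by omega) a
  · intro w hR Y E' hsp hF1 hB v
    have hl0 := hlen0 Y hF1
    have hlw := congrArg List.length hsp
    rw [List.length_drop, List.length_append] at hlw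
    obtain ⟨I, hI, hI2⟩ := co ((w.take p0).map ℓ) 1 v (by
      intro k hk
      have := hcp k hk
      rw [List.length_map, List.length_take]; omega)
    obtain ⟨k, hk, hk2⟩ := spoil (Reg := 2 * p0 + z0 + M' * Δ) (Aw := Aw) (m := m) (Ms := Ms)
      (th := th) (M' := M') (N1 := N1) (dd := dd) (no := no) (Ro := Ro) (Rs := Rs)
      (W := W) (z0 := z0) (Δ := Δ) (g := g) (K := K) (M := M) (U := U) (p0 := p0)
      o3 s3 hth hM' (by omega) hU hp0 hM0 hdd (by omega) (by omega) (by omega) rfl
      (fun μ hμ => ⟨(hMp μ hμ).1, (hMp μ hμ).2.2⟩) I (by omega) (fun k hk => (hI2 k hk).1) w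
    obtain ⟨c1, c2, c3⟩ := hI2 k hk
    have hck := hcp k c1
    refine ⟨k, c1, ?_, ?_, ?_⟩
    · change lam k ((w.take (U * 4 ^ k)).map ℓ) = some v
      rw [← List.map_take, List.take_take, min_eq_left hck.le] at c2
      exact c2
    · change (rho k (((w.drop (U * 4 ^ k)).take (p0 - U * 4 ^ k)).map ℓ) 1).isSome
      rw [← List.map_drop, List.drop_take] at c3
      exact c3
    · rintro k' hk' ⟨Y', E2, y1, y2, y3⟩
      have hl1 := hlen0 Y' y2
      have hlw2 := congrArg List.length y1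
      rw [List.length_drop, List.length_drop, List.length_append] at hlw2
      rw [List.drop_drop] at y1
      exact hk2 k' hk' (to_pos o1 o2 s0 s1 s2 (by omega) y1 y2 y3)

end Crest.Agent.R320.Half1_229
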