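import Crest.Agent.R320.Half1_147

/-!
Row 320, HALF 1, definitions of the two cut systems over `Half1_147.Par`.
-/

set_option autoImplicit false

namespace Crest.Agent.R320.Half1_147

open Crest.Agent.R320.Thresh997

variable {α S V ι : Type*} [Monoid S] [AddCommGroup V]

/-- everything -/
structure Par2 (α S V ι : Type*) [Monoid S] [AddCommGroup V] extends Par α S V ι where
  /-- the class (words without high powers) -/
  G : List α → Prop
  hG : ∀ u v, G (u ++ v) → G u ∧ G v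
  /-- small walls: density and gap -/
  gs : ℕ
  hgs : gs + M' * M + 1 ≤ Gs
  dens_s : ∀ Q, G Q → gs + n ≤ Q.length → ∃ i < gs, Rs (Q.drop i)
  go : ℕ
  dens_o : ∀ Q, G Q → go + n ≤ Q.length → ∃ i < go, Ro (Q.drop i)
  comp1 : ∀ (u : List S), m ≤ u.length → ∀ (v : V) (k : ℕ), (∀ l, ¬ q l ∣ k) →
          ∃ i < m, ∀ p, p + M ≤ k → ∃ o, p ≤ o ∧ o < p + M ∧ lam1 (u.take i) o = some v ∧
            ∀ Q : ℕ → Option (List S), Q i = some (u.drop (i + 1)) →
              (rho1 Q (k - o)).isSome = true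
  /-- scheme 2: ruler `C 0, .., C (K-1)` and the exact gadget -/
  K : ℕ
  C : ℕ → ℕ
  hC : ∀ c < K, n ≤ C c ∧ C c ≤ p0
  lam2 : List α → Option V
  rho2 : List α → Option V
  sound2 : ∀ (p q : List α) (v b : V), p.length + q.length = p0 → lam2 p = some v →
    rho2 q = some b → b = act v (φ (p ++ q)) + nu2 (p ++ q)
  kap : ℕ
  comp2 : ∀ (u : List α) (v : V), u.length = p0 → ∃ T : Fin (kap + 1) → ℕ, Function.Injective T ∧
    ∀ j, T j < K ∧ lam2 (u.take (C (T j))) = some v ∧ (rho2 (u.drop (C (T j)))).isSome = true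
  hD0 : z + S0 + go + n ≤ D0
  hD0' : N1 + M' * M + Gs + n ≤ D0
  hD1 : p0 + N1 + D0 ≤ D1
  hBm2 : p0 + N1 + D0 + D1 + n < Bm

variable (P : Par2 α S V ι)

namespace Par2

/-- (E), for the frame text -/
def EB (Y : List α) : Prop := Ebad (wl P.Ro Y) P.th P.M' P.z P.N1 0

/-- (D) -/
def DB (Y : List α) : Prop := ∃ j, 1 ≤ j ∧ j ≤ P.m ∧ ∃ t : ℤ, wl P.Rs Y t ∧
  |t - P.toPar.A j| ≤ P.M' * P.M

/-- (B) -/
def BB (Y : List α) : Prop := ∃ (b : ℤ) (l : ι), P.toPar.Nf Y b ∧ (P.q l : ℤ) ∣ b / P.M'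

/-- bad frame text -/
def BadF (Y : List α) : Prop := P.EB Y ∨ P.DB Y ∨ P.BB Y

/-- left-legal states of level 0 -/
def C0 (p : V × List α) : Prop := ∃ i o, i < P.m ∧ P.toPar.cell i ≤ o ∧ o < P.toPar.cell i + P.M ∧
  p.2.length = P.p0 + P.M' * o ∧
  P.lam1 ((List.range i).map (P.toPar.ty (p.2.drop P.p0) 0)) o
    = some (P.act p.1 (P.φ (p.2.take P.p0)) + P.nu2 (p.2.take P.p0))

/-- the right side of level 0 -/
def legal0 (Q : List α) (b : ℕ) (y : V) : Prop :=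
  IsB (wl P.Ro Q) P.th P.M' P.z 0 0 b ∧ LegR (wl P.Ro Q) P.th P.M' P.z 0 P.N1 0 ∧
  P.rho1 (P.toPar.Qf Q b) (b / P.M') = some y

def R0 (Q : List α) : Prop := Q.length = P.D0 ∧ P.G Q ∧ ∃ b y, P.legal0 Q b y

/-- left-legal states of level 1 -/
def C1 (p : V × List α) : Prop := ∃ c < P.K, p.2.length = P.C c ∧ P.lam2 p.2 = some p.1

/-- the right side of level 1 -/
def legal1 (Q : List α) (c b : ℕ) (y : V) : Prop :=
  c < P.K ∧ (∀ c' < P.K, P.BadF (Q.drop (P.p0 - P.C c')) → c' = c) ∧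
  P.rho2 (Q.take (P.p0 - P.C c)) = some y ∧ P.toPar.Nf (Q.drop (P.p0 - P.C c)) b

def R1 (Q : List α) : Prop := Q.length = P.D1 ∧ P.G Q ∧ ∃ c b y, P.legal1 Q c b y

/-- a usable cut of level 0 somewhere in the run of `p` on `w` -/
def Cut0 (p : V × List α) (w : List α) : Prop :=
  ∃ x Q t, x ++ (Q ++ t) = w ∧ P.C0 (P.toPar.rn x p) ∧ P.R0 Q

def Cut1 (p : V × List α) (w : List α) : Prop :=
  ∃ x Q t, x ++ (Q ++ t) = w ∧ P.C1 (P.toPar.rn x p) ∧ P.R1 Q

end Par2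

end Crest.Agent.R320.Half1_147
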