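import Crest.Agent.R320.Hgt1_903

/-!
# Row 320: nested cut systems relative to a factor-closed class (helper147, after Three_427)

A finite automaton `step : Ω → α → Ω` with `N` levels of cut systems.  Level `i` has cut states `C`,
right-legal words `R` (non-empty, bounded length) and a state `c Q` for every right-legal `Q`.
A *usable cut* of level `i` at the start of `(p, w)`: `C p` and a prefix of `w` is right-legal.
`Live i p w`: no usable cut of a level `< i` in the run of `p` on `w`.

Soundness of level `i` is only asked for live pairs: `C p`, `R Q`, `Live i p Q` imply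
`run Q p = c Q` (all left cut states merge).  If every word that is live for all `N` levels is short,
then `{w | run w p = p'}` has generalized star height at most `N` for all `p`, `p'`.
-/

set_option autoImplicit false

namespace Crest.Agent.R320.Rel_147

open Crest.RegLang Crest.Agent.R320.Hgt1_903

variable {α Ω : Type*}

/-- run of the automaton -/
def run (step : Ω → α → Ω) (w : List α) (p : Ω) : Ω := w.foldl step p

theorem run_append (step : Ω → α → Ω) (u v : List α) (p : Ω) :
    run step (u ++ v) p = run step v (run step u p) := by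
  unfold run; rw [List.foldl_append]

theorem run_nil (step : Ω → α → Ω) (p : Ω) : run step [] p = p := rfl

/-- a cut system -/
structure Lvl (Ω α : Type*) where
  C : Ω → Prop
  R : List α → Prop
  c : List α → Ω

/-- usable cut at the start of `(p, w)` -/
def Usable (l : Lvl Ω α) (p : Ω) (w : List α) : Prop :=
  l.C p ∧ ∃ Q t, Q ++ t = w ∧ l.R Q

/-- no usable cut of a level `< i` in the run of `p` on `w` -/
def Live (G : List α → Prop) (step : Ω → α → Ω) (L : ℕ → Lvl Ω α) (i : ℕ) (p : Ω) (w : List α) : Prop :=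
  G w ∧ ∀ j, j < i → ∀ x y, x ++ y = w → ¬ Usable (L j) (run step x p) y

variable {step : Ω → α → Ω} {L : ℕ → Lvl Ω α} {G : List α → Prop}

/-- factor closed -/
def FC (G : List α → Prop) : Prop := ∀ u v, G (u ++ v) → G u ∧ G v

theorem Usable.append {l : Lvl Ω α} {p : Ω} {w : List α} (h : Usable l p w) (v : List α) :
    Usable l p (w ++ v) := by
  obtain ⟨hc, Q, t, rfl, hR⟩ := h
  exact ⟨hc, Q, t ++ v, by rw [List.append_assoc], hR⟩

theorem Live.mono {i j : ℕ} (h : j ≤ i) {p : Ω} {w : List α} (hl : Live G step L i p w) :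
    Live G step L j p w := ⟨hl.1, fun k hk => hl.2 k (lt_of_lt_of_le hk h)⟩

theorem Live.left (hG : FC G) {i : ℕ} {p : Ω} {u v : List α} (h : Live G step L i p (u ++ v)) :
    Live G step L i p u := by
  refine ⟨(hG _ _ h.1).1, ?_⟩
  intro j hj x y e hu
  exact h.2 j hj x (y ++ v) (by rw [← List.append_assoc, e]) (hu.append v)

theorem Live.right (hG : FC G) {i : ℕ} {p : Ω} {u v : List α} (h : Live G step L i p (u ++ v)) :
    Live G step L i (run step u p) v := by
  refine ⟨(hG _ _ h.1).2, ?_⟩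
  intro j hj x y e hu
  refine h.2 j hj (u ++ x) y (by rw [List.append_assoc, e]) ?_
  rw [run_append]; exact hu

theorem live_succ {i : ℕ} {p : Ω} {w : List α} (h : Live G step L i p w)
    (h' : ∀ x y, x ++ y = w → ¬ Usable (L i) (run step x p) y) : Live G step L (i + 1) p w := by
  refine ⟨h.1, ?_⟩
  intro j hj
  rcases Nat.lt_succ_iff_lt_or_eq.1 hj with h1 | rfl
  · exact h.2 j h1
  · exact h'

/-- first usable cut of level `i`. -/
theorem first_cut (hG : FC G) {i : ℕ} (hne : ∀ Q, (L i).R Q → Q ≠ []) {p : Ω} {w : List α}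
    (h : Live G step L i p w) (hn : ¬ Live G step L (i + 1) p w) :
    ∃ x y, x ++ y = w ∧ Live G step L (i + 1) p x ∧ Usable (L i) (run step x p) y := by
  classical
  have hex : ∃ n, ∃ x y, x ++ y = w ∧ x.length = n ∧ Usable (L i) (run step x p) y := by
    by_contra hc
    push Not at hc
    exact hn (live_succ h fun x y e hu => hc x.length x y e rfl hu)
  obtain ⟨x, y, e, hx, hu⟩ := Nat.find_spec hex
  refine ⟨x, y, e, ?_, hu⟩
  have hlx : Live G step L i p x := by rw [← e] at h; exact h.left hG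
  refine live_succ hlx ?_
  intro a b eab hab
  rcases b with _ | ⟨b0, b⟩
  · obtain ⟨_, Q, t, hQ, hR⟩ := hab
    exact hne Q hR (List.append_eq_nil_iff.1 hQ).1
  · have hlt : a.length < Nat.find hex := by
      rw [← hx, ← eab, List.length_append, List.length_cons]; omega
    refine Nat.find_min hex hlt ⟨a, (b0 :: b) ++ y, ?_, rfl, hab.append y⟩
    rw [← List.append_assoc, eab, e]

/-- live words with prescribed end -/
def X (G : List α → Prop) (step : Ω → α → Ω) (L : ℕ → Lvl Ω α) (i : ℕ) (p p' : Ω) : Language α :=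
  {w | Live G step L i p w ∧ run step w p = p'}

/-- cut-to-cut words of level `i` -/
def K (G : List α → Prop) (step : Ω → α → Ω) (L : ℕ → Lvl Ω α) (i : ℕ) : Language α :=
  {w | ∃ Q, (L i).R Q ∧ ∃ p', (L i).C p' ∧ ∃ r, Q ++ r = w ∧ r ∈ X G step L (i + 1) ((L i).c Q) p'}

/-- words from a cut to the end -/
def S (G : List α → Prop) (step : Ω → α → Ω) (L : ℕ → Lvl Ω α) (i : ℕ) (p' : Ω) : Language α :=
  {w | ∃ Q, (L i).R Q ∧ ∃ r, Q ++ r = w ∧ r ∈ X G step L (i + 1) ((L i).c Q) p'}

/-- words from the start to a cut -/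
def P (G : List α → Prop) (step : Ω → α → Ω) (L : ℕ → Lvl Ω α) (i : ℕ) (p : Ω) : Language α :=
  {w | ∃ p', (L i).C p' ∧ w ∈ X G step L (i + 1) p p'}

/-- the expression -/
def E (G : List α → Prop) (step : Ω → α → Ω) (L : ℕ → Lvl Ω α) (i : ℕ) (p p' : Ω) : Language α :=
  {w | w ∈ X G step L (i + 1) p p' ∨ ∃ u v, u ++ v = w ∧ u ∈ P G step L i p ∧
    ∃ k s, k ++ s = v ∧ k ∈ KStar.kstar (K G step L i) ∧ s ∈ S G step L i p'}

theorem star_sound (hG : FC G) {i : ℕ}
    (hs : ∀ p Q, (L i).C p → (L i).R Q → Live G step L i p Q → run step Q p = (L i).c Q) :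
    ∀ k ∈ KStar.kstar (K G step L i), ∀ p, (L i).C p → Live G step L i p k →
      (L i).C (run step k p) := by
  intro k hk
  obtain ⟨l, rfl, hl⟩ := Language.mem_kstar.1 hk
  clear hk
  induction l with
  | nil => intro p hp _; simpa [run] using hp
  | cons m l ih =>
    intro p hp hlive
    rw [List.flatten_cons] at hlive ⊢
    rw [run_append]
    obtain ⟨Q, hR, p', hp', r, e, hr⟩ := hl m List.mem_cons_self
    have hm : run step m p = p' := by
      have h1 : Live G step L i p m := (hlive.left hG)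
      rw [← e] at h1 ⊢
      rw [run_append, hs p Q hp hR (h1.left hG)]
      exact hr.2
    refine ih (fun y hy => hl y (List.mem_cons_of_mem _ hy)) _ ?_ (hlive.right hG)
    rw [hm]; exact hp'

theorem E_sound (hG : FC G) {i : ℕ}
    (hs : ∀ p Q, (L i).C p → (L i).R Q → Live G step L i p Q → run step Q p = (L i).c Q)
    {p p' : Ω} {w : List α} (hl : Live G step L i p w) (hw : w ∈ E G step L i p p') :
    run step w p = p' := by
  rcases hw with h | ⟨u, v, rfl, ⟨q, hq, hu⟩, k, s, rfl, hk, Q, hR, r, rfl, hr⟩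
  · exact h.2
  · have h1 : run step u p = q := hu.2
    have h2 := (hl.right hG)
    rw [h1] at h2
    have h3 := star_sound hG hs k hk q hq (h2.left hG)
    have h4 := (h2.right hG)
    rw [run_append, h1, run_append, run_append, hs _ Q h3 hR (h4.left hG)]
    exact hr.2

theorem star_complete (hG : FC G) {i : ℕ} (hne : ∀ Q, (L i).R Q → Q ≠ [])
    (hs : ∀ p Q, (L i).C p → (L i).R Q → Live G step L i p Q → run step Q p = (L i).c Q) :
    ∀ (n : ℕ) (w : List α), w.length = n → ∀ p, Live G step L i p w → Usable (L i) p w →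
      ∃ k s, k ++ s = w ∧ k ∈ KStar.kstar (K G step L i) ∧ s ∈ S G step L i (run step w p) := by
  intro n
  induction n using Nat.strong_induction_on with
  | _ n ih =>
    intro w hw p hl hu
    obtain ⟨hC, Q, t, rfl, hR⟩ := hu
    have hQ : run step Q p = (L i).c Q := hs p Q hC hR (hl.left hG)
    have hlt := (hl.right hG)
    rw [hQ] at hlt
    by_cases h : Live G step L (i + 1) ((L i).c Q) t
    · refine ⟨[], Q ++ t, rfl, Language.nil_mem_kstar _, Q, hR, t, rfl, h, ?_⟩
      rw [run_append, hQ]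
    · obtain ⟨x, y, rfl, hx, hy⟩ := first_cut hG hne hlt h
      have hlen : y.length < n := by
        have := List.length_pos_of_ne_nil (hne Q hR)
        rw [← hw, List.length_append, List.length_append]; omega
      obtain ⟨k, s, e, hk, hss⟩ := ih y.length hlen y rfl _ (hlt.right hG) hy
      refine ⟨(Q ++ x) ++ k, s, ?_, ?_, ?_⟩
      · rw [List.append_assoc, e, List.append_assoc]
      · obtain ⟨l, rfl, hl'⟩ := Language.mem_kstar.1 hk
        refine Language.mem_kstar.2 ⟨(Q ++ x) :: l, by rw [List.flatten_cons], ?_⟩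
        intro z hz
        rcases List.mem_cons.1 hz with rfl | hz
        · exact ⟨Q, hR, _, hy.1, x, rfl, hx, rfl⟩
        · exact hl' z hz
      · rw [run_append, hQ, run_append]; exact hss

theorem E_complete (hG : FC G) {i : ℕ} (hne : ∀ Q, (L i).R Q → Q ≠ [])
    (hs : ∀ p Q, (L i).C p → (L i).R Q → Live G step L i p Q → run step Q p = (L i).c Q)
    {p : Ω} {w : List α} (hl : Live G step L i p w) : w ∈ E G step L i p (run step w p) := by
  by_cases h : Live G step L (i + 1) p w
  · exact Or.inl ⟨h, rfl⟩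
  · obtain ⟨x, y, rfl, hx, hy⟩ := first_cut hG hne hl h
    obtain ⟨k, s, e, hk, hss⟩ := star_complete hG hne hs y.length y rfl _ (hl.right hG) hy
    refine Or.inr ⟨x, y, rfl, ⟨_, hy.1, hx, rfl⟩, k, s, e, hk, ?_⟩
    rw [run_append]; exact hss

/-- words containing (after a solved prefix) a usable cut of a level `< i`. -/
def Dd (G : List α → Prop) (step : Ω → α → Ω) (L : ℕ → Lvl Ω α) (i : ℕ) (p : Ω) : Language α :=
  {w | ∃ j ∈ Finset.range i, w ∈ ({w | ∃ Q, (L j).R Q ∧ ∃ p', (L j).C p' ∧
    ∃ x t, x ++ t = w ∧ x ∈ E G step L i p p' ∧ ∃ u v, u ++ v = t ∧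
      u ∈ ({Q} : Language α) ∧ v ∈ (⊤ : Language α)} : Language α)}

theorem live_iff (hG : FC G) {i : ℕ} (hne : ∀ j ≤ i, ∀ Q, (L j).R Q → Q ≠ [])
    (hs : ∀ p Q, (L i).C p → (L i).R Q → Live G step L i p Q → run step Q p = (L i).c Q)
    (p : Ω) (w : List α) : Live G step L i p w ↔ G w ∧ ¬ w ∈ Dd G step L i p := by
  classical
  constructor
  · intro hl
    refine ⟨hl.1, ?_⟩
    rintro ⟨j, hj, Q, hR, p', hp', x, _, rfl, hx, u, v, rfl, hu, -⟩
    have hu' : u = Q := hu
    subst hu'
    have h1 : run step x p = p' := E_sound hG hs (hl.left hG) hx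
    refine hl.2 j (Finset.mem_range.1 hj) x (u ++ v) rfl ?_
    rw [h1]
    exact ⟨hp', u, v, rfl, hR⟩
  · rintro ⟨hGw, hD⟩
    by_contra hn
    have hex : ∃ n, ∃ x Q t, x ++ (Q ++ t) = w ∧ x.length + Q.length = n ∧
        ∃ j, j < i ∧ (L j).R Q ∧ (L j).C (run step x p) := by
      unfold Live at hn
      push Not at hn
      replace hn := hn hGw
      obtain ⟨j, hj, x, y, e, hC, Q, t, e', hR⟩ := hn
      exact ⟨_, x, Q, t, by rw [e', e], rfl, j, hj, hR, hC⟩
    obtain ⟨x, Q, t, e, hlen, j, hj, hR, hC⟩ := Nat.find_spec hex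
    have hxl : Live G step L i p x := by
      refine ⟨(hG _ _ (by rw [e]; exact hGw)).1, ?_⟩
      intro j' hj' a b eab hab
      obtain ⟨hC', Q', t', e', hR'⟩ := hab
      have hlt : a.length + Q'.length < Nat.find hex := by
        have := List.length_pos_of_ne_nil (hne j (le_of_lt hj) Q hR)
        have h2 : x.length = a.length + (Q'.length + t'.length) := by
          rw [← eab, ← e', List.length_append, List.length_append]
        omega
      refine Nat.find_min hex hlt ⟨a, Q', t' ++ (Q ++ t), ?_, rfl, j', hj', hR', hC'⟩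
      rw [← e, ← eab, ← e']; simp [List.append_assoc]
    refine hD ⟨j, Finset.mem_range.2 hj, Q, hR, _, hC, x, Q ++ t, e,
      E_complete hG (hne i le_rfl) hs hxl, Q, t, rfl, rfl, trivial⟩

theorem H.exists_finite {n : ℕ} {p : List α → Prop} (hp : {Q | p Q}.Finite)
    (f : List α → Language α) (h : ∀ Q, p Q → H n (f Q)) :
    H n ({w | ∃ Q, p Q ∧ w ∈ f Q} : Language α) := by
  refine H.congr (H.exists_finset hp.toFinset f fun Q hQ => h Q (hp.mem_toFinset.1 hQ)) fun w => ?_
  change (∃ Q ∈ hp.toFinset, w ∈ f Q) ↔ ∃ Q, p Q ∧ w ∈ f Q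
  constructor
  · rintro ⟨Q, hQ, h⟩; exact ⟨Q, hp.mem_toFinset.1 hQ, h⟩
  · rintro ⟨Q, hQ, h⟩; exact ⟨Q, hp.mem_toFinset.2 hQ, h⟩

theorem H.exists_cond {n : ℕ} [Finite Ω] (q : Ω → Prop) (f : Ω → Language α)
    (h : ∀ p, q p → H n (f p)) : H n ({w | ∃ p, q p ∧ w ∈ f p} : Language α) := by
  classical
  refine H.congr (H.exists_fintype (fun p : Ω => ({w | q p ∧ w ∈ f p} : Language α))
    fun p => ?_) fun w => Iff.rfl
  by_cases hq : q p
  · exact H.congr (h p hq) fun w => ⟨fun h => ⟨hq, h⟩, fun h => h.2⟩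
  · exact H.congr (H.empty n) fun w => ⟨fun h => h.elim, fun h => (hq h.1).elim⟩

/-- one level -/
theorem level (hG : FC G) (hG0 : H 0 ({w | G w} : Language α)) {n i D : ℕ} [Finite α] [Finite Ω] (hne : ∀ j ≤ i, ∀ Q, (L j).R Q → Q ≠ [])
    (hb : ∀ j ≤ i, ∀ Q, (L j).R Q → Q.length ≤ D)
    (hs : ∀ p Q, (L i).C p → (L i).R Q → Live G step L i p Q → run step Q p = (L i).c Q)
    (hX : ∀ p p', H n (X G step L (i + 1) p p')) (p p' : Ω) : H (n + 1) (X G step L i p p') := by
  have hfin : ∀ j ≤ i, {Q | (L j).R Q}.Finite := fun j hj =>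
    (List.finite_length_le α D).subset fun Q hQ => hb j hj Q hQ
  have hK : H n (K G step L i) := by
    refine H.exists_finite (hfin i le_rfl) _ fun Q _ => ?_
    refine H.exists_cond _ _ fun q _ => ?_
    refine H.congr (H.cat (H.word n Q) (hX ((L i).c Q) q)) fun w => ?_
    constructor
    · rintro ⟨u, v, e, hu, hv⟩
      have hu' : u = Q := hu
      subst hu'
      exact ⟨v, e, hv⟩
    · rintro ⟨r, e, hr⟩
      exact ⟨Q, r, e, rfl, hr⟩
  have hS : ∀ q, H n (S G step L i q) := by
    intro q
    refine H.exists_finite (hfin i le_rfl) _ fun Q _ => ?_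
    refine H.congr (H.cat (H.word n Q) (hX ((L i).c Q) q)) fun w => ?_
    constructor
    · rintro ⟨u, v, e, hu, hv⟩
      have hu' : u = Q := hu
      subst hu'
      exact ⟨v, e, hv⟩
    · rintro ⟨r, e, hr⟩
      exact ⟨Q, r, e, rfl, hr⟩
  have hP : ∀ q, H n (P G step L i q) := fun q => H.exists_cond _ _ fun q' _ => hX q q'
  have hE : ∀ q q', H (n + 1) (E G step L i q q') := fun q q' =>
    H.union ((hX q q').mono (Nat.le_succ n))
      (H.cat ((hP q).mono (Nat.le_succ n)) (H.cat hK.star ((hS q').mono (Nat.le_succ n))))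
  have hD : ∀ q, H (n + 1) (Dd G step L i q) := by
    intro q
    refine H.exists_finset _ _ fun j hj => ?_
    refine H.exists_finite (hfin j (le_of_lt (Finset.mem_range.1 hj))) _ fun Q _ => ?_
    refine H.exists_cond _ _ fun q' _ => ?_
    exact H.cat (hE q q') (H.cat (H.word _ Q) (H.univ _))
  refine H.congr (H.inter (H.inter (hG0.mono (Nat.zero_le _)) (H.not (hD p))) (hE p p')) fun w => ?_
  change ((G w ∧ ¬ w ∈ Dd G step L i p) ∧ w ∈ E G step L i p p') ↔ (Live G step L i p w ∧ run step w p = p')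
  rw [← live_iff hG hne hs p w]
  constructor
  · rintro ⟨h1, h2⟩; exact ⟨h1, E_sound hG hs h1 h2⟩
  · rintro ⟨h1, rfl⟩; exact ⟨h1, E_complete hG (hne i le_rfl) hs h1⟩

/-- **`N` nested cut systems give generalized star height `≤ N`.** -/
theorem nested (hG : FC G) (hG0 : H 0 ({w | G w} : Language α)) [Finite α] [Finite Ω] (step : Ω → α → Ω) (L : ℕ → Lvl Ω α) (N D B : ℕ)
    (hne : ∀ j < N, ∀ Q, (L j).R Q → Q ≠ [])
    (hb : ∀ j < N, ∀ Q, (L j).R Q → Q.length ≤ D)
    (hs : ∀ i < N, ∀ p Q, (L i).C p → (L i).R Q → Live G step L i p Q →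
      run step Q p = (L i).c Q)
    (hfin : ∀ p w, Live G step L N p w → w.length ≤ B) (p p' : Ω) :
    H N ({w | G w ∧ run step w p = p'} : Language α) := by
  have key : ∀ k i, i + k = N → ∀ p p', H k (X G step L i p p') := by
    intro k
    induction k with
    | zero =>
      intro i hi p p'
      have hi' : i = N := by omega
      subst hi'
      exact H.bounded 0 B fun w hw => hfin p w hw.1
    | succ k ih =>
      intro i hi p p'
      exact level hG hG0 (fun j hj => hne j (by omega)) (fun j hj => hb j (by omega))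
        (hs i (by omega)) (ih (i + 1) (by omega)) p p'
  refine H.congr (key N 0 (by omega) p p') fun w => ?_
  constructor
  · rintro ⟨h', h⟩; exact ⟨h'.1, h⟩
  · rintro ⟨h', h⟩
    exact ⟨⟨h', fun j hj => absurd hj (Nat.not_lt_zero j)⟩, h⟩

end Crest.Agent.R320.Rel_147
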