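import Mathlib
import Crest.Agent.R320.Rel_147
import Crest.Agent.R320.Wall_291
import Crest.Agent.R320.Thresh_997

/-!
Row 320: HALF 1 = the two concrete wall schemes of 132 #12664 on words without high powers
(relative to the class `RF e W`), two nested cut systems.  Part 1: texts, walls, zones, the run.
-/

set_option autoImplicit false

namespace Crest.Agent.R320.Half1_147

open Crest.Agent.R320.Thresh997

variable {α S V : Type*}

/-- walls of a text, as integers -/
def wl (R : List α → Prop) (Q : List α) (t : ℤ) : Prop := 0 ≤ t ∧ R (Q.drop t.toNat)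

theorem R_append {n : ℕ} {R : List α → Prop} (h1 : ∀ Q, R Q ↔ R (Q.take n)) (Q Y : List α)
    (h : n ≤ Q.length) : R (Q ++ Y) ↔ R Q := by
  rw [h1 (Q ++ Y), h1 Q, List.take_append_of_le_length h]

theorem wl_le {n : ℕ} {R : List α → Prop} (h2 : ∀ Q, R Q → n ≤ Q.length) (hn : 0 < n)
    {Q : List α} {t : ℤ} (h : wl R Q t) : t + n ≤ Q.length := by
  obtain ⟨h0, h⟩ := h
  have := h2 _ h
  rw [List.length_drop] at this
  omega

theorem wl_append {n : ℕ} {R : List α → Prop} (h1 : ∀ Q, R Q ↔ R (Q.take n)) (Q Y : List α)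
    {t : ℤ} (h : t + n ≤ Q.length) : wl R (Q ++ Y) t ↔ wl R Q t := by
  unfold wl
  constructor
  · rintro ⟨h0, h'⟩
    refine ⟨h0, ?_⟩
    rw [List.drop_append_of_le_length (by omega), R_append h1 _ _ (by rw [List.length_drop]; omega)] at h'
    exact h'
  · rintro ⟨h0, h'⟩
    refine ⟨h0, ?_⟩
    rw [List.drop_append_of_le_length (by omega), R_append h1 _ _ (by rw [List.length_drop]; omega)]
    exact h'

theorem wl_drop {R : List α → Prop} (Q : List α) (k : ℕ) (t : ℤ) :
    wl R (Q.drop k) t ↔ 0 ≤ t ∧ wl R Q (t + k) := by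
  unfold wl
  rw [List.drop_drop]
  constructor
  · rintro ⟨h0, h⟩
    refine ⟨h0, by omega, ?_⟩
    have : (t + k).toNat = k + t.toNat := by omega
    rw [this]; exact h
  · rintro ⟨h0, _, h⟩
    refine ⟨h0, ?_⟩
    have : (t + k).toNat = k + t.toNat := by omega
    rw [this] at h; exact h

/-- a factor `[a, b)` of `Q` -/
def seg (Q : List α) (a b : ℕ) : List α := (Q.drop a).take (b - a)

theorem seg_append (Q Y : List α) (a b : ℕ) (h : b ≤ Q.length) : seg (Q ++ Y) a b = seg Q a b := by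
  unfold seg
  rcases le_total a b with hab | hab
  · rw [List.drop_append_of_le_length (by omega), List.take_append_of_le_length]
    rw [List.length_drop]; omega
  · have : b - a = 0 := by omega
    rw [this]; simp

theorem seg_shift (Q Y : List α) (a b : ℕ) :
    seg (Q ++ Y) (Q.length + a) (Q.length + b) = seg Y a b := by
  unfold seg
  rw [← List.drop_drop, List.drop_left]
  congr 1; omega

theorem seg_mul [Monoid S] (φ : List α → S) (hφ : ∀ u v, φ (u ++ v) = φ u * φ v) (Q : List α)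
    {a b c : ℕ} (h1 : a ≤ b) (h2 : b ≤ c) : φ (seg Q a b) * φ (seg Q b c) = φ (seg Q a c) := by
  rw [← hφ]
  congr 1
  unfold seg
  have e1 : c - a = (b - a) + (c - b) := by omega
  rw [e1, List.take_add, List.drop_drop]
  congr 3
  omega

/-- all constants and gadgets -/
structure Par (α S V ι : Type*) [Monoid S] [AddCommGroup V] where
  φ : List α → S
  hφ : ∀ u v, φ (u ++ v) = φ u * φ v
  act : V → S → V
  n : ℕ
  n0 : 0 < n
  Rs : List α → Prop
  Ro : List α → Prop
  Rs1 : ∀ Q, Rs Q ↔ Rs (Q.take n)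
  Rs2 : ∀ Q, Rs Q → n ≤ Q.length
  Ro1 : ∀ Q, Ro Q ↔ Ro (Q.take n)
  Ro2 : ∀ Q, Ro Q → n ≤ Q.length
  m : ℕ
  M : ℕ
  M' : ℕ
  M0 : 0 < M'
  P' : ℕ
  Gs : ℕ
  hP' : Gs + n ≤ M' * P'
  th : ℤ → ℤ
  S0 : ℤ
  z : ℤ
  N1 : ℤ
  hN1 : N1 = (M' : ℤ) * (m * (P' + M + 1))
  hth : ∀ r, -S0 + N1 ≤ th r
  hth' : ∀ r, th r ≤ S0 - N1
  hz : N1 + S0 + Gs + n < z
  p0 : ℕ
  q : ι → ℕ
  lam1 : List S → ℕ → Option V
  rho1 : (ℕ → Option (List S)) → ℕ → Option V
  nu1 : List S → ℕ → V
  sound1 : ∀ (X : List S) (z : S) (Y : List S) (Q : ℕ → Option (List S)) (o o' : ℕ) (v r : V),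
          (∀ Y', Q X.length = some Y' → Y' = Y) → lam1 X o = some v → rho1 Q o' = some r →
          r = act v (X ++ z :: Y).prod + nu1 (X ++ z :: Y) (o + o')
  nu2 : List α → V
  Bm : ℕ
  D0 : ℕ
  D1 : ℕ
  hBm : z + S0 + n + p0 < Bm

variable {ι : Type*} [Monoid S] [AddCommGroup V] (P : Par α S V ι)

namespace Par

/-- `b` is the next anchor, for the frame text `Y` -/
def Nf (Y : List α) (b : ℤ) : Prop := IsN (wl P.Ro Y) P.th P.M' P.z 0 b

theorem N1_nonneg : 0 ≤ P.N1 := by
  rw [P.hN1]; positivity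

theorem S0_nonneg : 0 ≤ P.S0 := by
  have h1 := P.hth 0
  have h2 := P.hth' 0
  have := P.N1_nonneg
  linarith

theorem Nf_ge {Y : List α} {b : ℤ} (h : P.Nf Y b) : P.z - P.S0 ≤ b := by
  have h1 := h.1.2
  have h2 := P.hth ((b - 0 - P.z) % P.M')
  have := P.N1_nonneg
  linarith

theorem Nf_le {Y : List α} {b : ℤ} (h : P.Nf Y b) : b + P.n ≤ Y.length :=
  wl_le P.Ro2 P.n0 h.1.1

theorem Nf_append {Y : List α} {b : ℤ} (h : P.Nf Y b) (Y' : List α) : P.Nf (Y ++ Y') b := by
  have hle := P.Nf_le h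
  refine ⟨⟨(wl_append P.Ro1 _ _ hle).2 h.1.1, h.1.2⟩, fun t ht hq => ?_⟩
  exact h.2 t ht ⟨(wl_append P.Ro1 _ _ (by omega)).1 hq.1, hq.2⟩

theorem Nf_unique {Y : List α} {b b' : ℤ} (h : P.Nf Y b) (h' : P.Nf Y b') : b = b' :=
  IsN.unique h h'

/-- if the anchor of the long text is visible in the short one -/
theorem Nf_of_append {Y Y' : List α} {b : ℤ} (h : P.Nf (Y ++ Y') b) (hb : b + P.n ≤ Y.length) :
    P.Nf Y b := by
  refine ⟨⟨(wl_append P.Ro1 _ _ hb).1 h.1.1, h.1.2⟩, fun t ht hq => ?_⟩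
  exact h.2 t ht ⟨(wl_append P.Ro1 _ _ (by omega)).2 hq.1, hq.2⟩

/-- next anchor of the zone text `Z` -/
def Nx (Z : List α) (b : ℕ) : Prop := P.Nf (Z.drop P.p0) ((b : ℤ) - P.p0)

theorem Nx_ge {Z : List α} {b : ℕ} (h : P.Nx Z b) : P.p0 + P.z - P.S0 ≤ b := by
  have := P.Nf_ge h; linarith

theorem Nx_le {Z : List α} {b : ℕ} (h : P.Nx Z b) : b + P.n ≤ Z.length := by
  have h1 := P.Nf_le h
  have h2 := P.Nf_ge h
  have h3 := P.hz
  have h4 := P.S0_nonneg
  have h5 := P.N1_nonneg
  rw [List.length_drop] at h1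
  have := P.n0
  omega

theorem Nx_append {Z : List α} {b : ℕ} (h : P.Nx Z b) (Y : List α) : P.Nx (Z ++ Y) b := by
  have h1 := P.Nx_le h
  have h2 := P.Nx_ge h
  have h3 := P.hz
  have h4 := P.S0_nonneg
  have h5 := P.N1_nonneg
  unfold Nx
  rw [List.drop_append_of_le_length (by omega)]
  exact P.Nf_append h Y

theorem Nx_of_append {Z Y : List α} {b : ℕ} (h : P.Nx (Z ++ Y) b) (hb : b + P.n ≤ Z.length) :
    P.Nx Z b := by
  have h2 := P.Nx_ge h
  have h3 := P.hz
  have h4 := P.S0_nonneg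
  have h5 := P.N1_nonneg
  unfold Nx at h ⊢
  rw [List.drop_append_of_le_length (by omega)] at h
  exact P.Nf_of_append h (by rw [List.length_drop]; omega)

theorem Nx_unique {Z : List α} {b b' : ℕ} (h : P.Nx Z b) (h' : P.Nx Z b') : b = b' := by
  have := P.Nf_unique h h'
  omega

open Classical in
/-- first small wall in the first `Gs` places -/
noncomputable def fs (Q : List α) : ℕ :=
  if h : ∃ t, t < P.Gs ∧ P.Rs (Q.drop t) then Nat.find h else 0

theorem fs_le (Q : List α) : P.fs Q ≤ P.Gs := by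
  classical
  unfold fs
  split_ifs with h
  · exact (Nat.find_spec h).1.le
  · exact Nat.zero_le _

theorem fs_congr {Q Q' : List α} (h : ∀ t < P.Gs, (P.Rs (Q.drop t) ↔ P.Rs (Q'.drop t))) :
    P.fs Q = P.fs Q' := by
  classical
  unfold fs
  have hiff : ∀ t, (t < P.Gs ∧ P.Rs (Q.drop t)) ↔ (t < P.Gs ∧ P.Rs (Q'.drop t)) := by
    intro t
    constructor
    · rintro ⟨h1, h2⟩; exact ⟨h1, (h t h1).1 h2⟩
    · rintro ⟨h1, h2⟩; exact ⟨h1, (h t h1).2 h2⟩
  by_cases hc : ∃ t, t < P.Gs ∧ P.Rs (Q.drop t)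
  · have hc' : ∃ t, t < P.Gs ∧ P.Rs (Q'.drop t) := by
      obtain ⟨t, ht⟩ := hc; exact ⟨t, (hiff t).1 ht⟩
    rw [dif_pos hc, dif_pos hc']
    exact le_antisymm (Nat.find_min' hc ((hiff _).2 (Nat.find_spec hc')))
      (Nat.find_min' hc' ((hiff _).1 (Nat.find_spec hc)))
  · have hc' : ¬ ∃ t, t < P.Gs ∧ P.Rs (Q'.drop t) := by
      rintro ⟨t, ht⟩; exact hc ⟨t, (hiff t).2 ht⟩
    rw [dif_neg hc, dif_neg hc']

theorem fs_append (Q Y : List α) (h : P.Gs + P.n ≤ Q.length) : P.fs (Q ++ Y) = P.fs Q := by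
  apply P.fs_congr
  intro t ht
  rw [List.drop_append_of_le_length (by omega), R_append P.Rs1]
  rw [List.length_drop]; omega

/-- first wall seen from the left end of an interval of doubt -/
theorem fs_shift {Q : List α} {e : ℕ} (h0 : ∀ t < e, ¬ P.Rs (Q.drop t))
    (h1 : ∃ t, t < P.Gs ∧ P.Rs (Q.drop t)) : P.fs Q = e + P.fs (Q.drop e) := by
  classical
  have hspec := Nat.find_spec h1
  have hge : e ≤ Nat.find h1 := by
    by_contra hc
    exact h0 _ (by omega) hspec.2
  have h2 : ∃ t, t < P.Gs ∧ P.Rs ((Q.drop e).drop t) := by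
    refine ⟨Nat.find h1 - e, by omega, ?_⟩
    rw [List.drop_drop]
    have : e + (Nat.find h1 - e) = Nat.find h1 := by omega
    rw [this]; exact hspec.2
  have e1 : P.fs Q = Nat.find h1 := by unfold fs; rw [dif_pos h1]
  have e2 : P.fs (Q.drop e) = Nat.find h2 := by unfold fs; rw [dif_pos h2]
  rw [e1, e2]
  apply le_antisymm
  · have hs2 := Nat.find_spec h2
    rw [List.drop_drop] at hs2
    by_cases hlt : e + Nat.find h2 < P.Gs
    · exact Nat.find_min' h1 ⟨hlt, hs2.2⟩
    · have := hspec.1; omega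
  · have : Nat.find h2 ≤ Nat.find h1 - e := by
      apply Nat.find_min' h2
      refine ⟨by omega, ?_⟩
      rw [List.drop_drop]
      have : e + (Nat.find h1 - e) = Nat.find h1 := by omega
      rw [this]; exact hspec.2
    omega

/-- level positions (in letters, frame) -/
def A (j : ℕ) : ℕ := P.M' * (j * (P.P' + P.M + 1))

/-- cell of level `i` starts here (in units of `M'`) -/
def cell (i : ℕ) : ℕ := i * (P.P' + P.M + 1) + P.P'

/-- boundaries of the types in the frame text `Y` with next anchor `b` -/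
noncomputable def hp (Y : List α) (b : ℕ) (j : ℕ) : ℕ :=
  if j = 0 then 0 else if j ≤ P.m then P.A j + P.fs (Y.drop (P.A j)) else b

noncomputable def ty (Y : List α) (b : ℕ) (j : ℕ) : S :=
  P.φ (seg Y (P.hp Y b j) (P.hp Y b (j + 1)))

noncomputable def tys (Y : List α) (b : ℕ) : List S := (List.range (P.m + 1)).map (P.ty Y b)

/-- lowest possible place of level `j` seen from a junction in the cell of level `i` -/
def lo (i j : ℕ) : ℕ := P.A j - P.M' * (P.cell i + P.M)

/-- boundaries seen from the right side -/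
noncomputable def hr (i : ℕ) (Q : List α) (b : ℕ) (j : ℕ) : ℕ :=
  if j ≤ P.m then P.lo i j + P.fs (Q.drop (P.lo i j)) else b

noncomputable def tr (i : ℕ) (Q : List α) (b : ℕ) (j : ℕ) : S :=
  P.φ (seg Q (P.hr i Q b j) (P.hr i Q b (j + 1)))

/-- the right side is sure of the levels `> i` -/
def Sure (i : ℕ) (Q : List α) : Prop := ∀ j, i < j → j ≤ P.m →
  (∀ t, t ≤ P.M' * P.M → ¬ P.Rs (Q.drop (P.lo i j + t))) ∧
  ∃ t, t < P.Gs ∧ P.Rs (Q.drop (P.lo i j + t))

open Classical in
noncomputable def Qf (Q : List α) (b : ℕ) (i : ℕ) : Option (List S) :=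
  if P.Sure i Q then some ((List.range (P.m - i)).map (fun k => P.tr i Q b (i + 1 + k))) else none

/-- second half of the zone map -/
noncomputable def zf (Y : List α) (b : ℕ) (y : V) : V :=
  P.act y (P.tys Y b).prod + P.nu1 (P.tys Y b) (b / P.M')

/-- zone map of a zone text `Z` with next anchor `b` -/
noncomputable def zm (Z : List α) (b : ℕ) (v : V) : V :=
  P.zf (Z.drop P.p0) (b - P.p0) (P.act v (P.φ (Z.take P.p0)) + P.nu2 (Z.take P.p0))

theorem A_mono {i j : ℕ} (h : i ≤ j) : P.A i ≤ P.A j :=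
  Nat.mul_le_mul_left _ (Nat.mul_le_mul_right _ h)

theorem A_m : (P.A P.m : ℤ) = P.N1 := by
  rw [P.hN1]; unfold A; push_cast; ring

theorem hp_append (Y Y' : List α) (b j : ℕ) (h : P.A P.m + P.Gs + P.n ≤ Y.length) :
    P.hp (Y ++ Y') b j = P.hp Y b j := by
  unfold hp
  split_ifs with h1 h2
  · rfl
  · have hA := P.A_mono h2
    rw [List.drop_append_of_le_length (by omega), P.fs_append]
    rw [List.length_drop]; omega
  · rfl

theorem hp_le (Y : List α) (b j : ℕ) (hb : P.A P.m + P.Gs ≤ b) : P.hp Y b j ≤ b := by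
  unfold hp
  split_ifs with h1 h2
  · exact Nat.zero_le _
  · have hA := P.A_mono h2
    have := P.fs_le (Y.drop (P.A j))
    omega
  · exact le_refl _

theorem tys_append (Y Y' : List α) (b : ℕ) (h : P.A P.m + P.Gs + P.n ≤ Y.length)
    (hb : P.A P.m + P.Gs ≤ b) (hbY : b ≤ Y.length) : P.tys (Y ++ Y') b = P.tys Y b := by
  unfold tys
  apply List.map_congr_left
  intro j _
  unfold ty
  rw [P.hp_append _ _ _ _ h, P.hp_append _ _ _ _ h, seg_append]
  exact le_trans (P.hp_le _ _ _ hb) hbY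

theorem zm_append {Z : List α} {b : ℕ} (h : P.Nx Z b) (Y : List α) (v : V) :
    P.zm (Z ++ Y) b v = P.zm Z b v := by
  have h1 := P.Nx_le h
  have h2 := P.Nx_ge h
  have h3 := P.hz
  have h4 := P.S0_nonneg
  have h5 := P.N1_nonneg
  have h6 := P.A_m
  unfold zm zf
  rw [List.take_append_of_le_length (by omega), List.drop_append_of_le_length (by omega),
    P.tys_append]
  · rw [List.length_drop]; omega
  · omega
  · rw [List.length_drop]; omega

open Classical in
/-- one letter -/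
noncomputable def st (p : V × List α) (a : α) : V × List α :=
  if h : ∃ b, P.Nx (p.2 ++ [a]) b then (P.zm (p.2 ++ [a]) h.choose p.1, (p.2 ++ [a]).drop h.choose)
  else if (p.2 ++ [a]).length < P.Bm then (p.1, p.2 ++ [a]) else (p.1, [])

noncomputable def rn (w : List α) (p : V × List α) : V × List α := w.foldl P.st p

theorem rn_append (u v : List α) (p : V × List α) : P.rn (u ++ v) p = P.rn v (P.rn u p) := by
  unfold rn; rw [List.foldl_append]

theorem st_pos {v : V} {r : List α} {a : α} {b : ℕ} (h : P.Nx (r ++ [a]) b) :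
    P.st (v, r) a = (P.zm (r ++ [a]) b v, (r ++ [a]).drop b) := by
  classical
  have hex : ∃ b, P.Nx (r ++ [a]) b := ⟨b, h⟩
  have hb : hex.choose = b := P.Nx_unique hex.choose_spec h
  unfold st
  simp only [dif_pos hex, hb]

theorem st_quiet {v : V} {r : List α} {a : α} (h : ∀ b, ¬ P.Nx (r ++ [a]) b)
    (hl : (r ++ [a]).length < P.Bm) : P.st (v, r) a = (v, r ++ [a]) := by
  classical
  have hex : ¬ ∃ b, P.Nx (r ++ [a]) b := by rintro ⟨b, hb⟩; exact h b hb
  unfold st
  simp only [dif_neg hex, if_pos hl]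

theorem rn_quiet (w : List α) : ∀ (v : V) (r : List α), (∀ b, ¬ P.Nx (r ++ w) b) →
    (r ++ w).length < P.Bm → P.rn w (v, r) = (v, r ++ w) := by
  induction w with
  | nil => intro v r _ _; simp [rn]
  | cons a w ih =>
    intro v r h hl
    have e : r ++ a :: w = (r ++ [a]) ++ w := by simp
    rw [e] at h hl
    have h1 : P.st (v, r) a = (v, r ++ [a]) := by
      apply P.st_quiet
      · intro b hb; exact h b (P.Nx_append hb w)
      · rw [List.length_append] at hl; omega
    show P.rn w (P.st (v, r) a) = _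
    rw [h1, ih v (r ++ [a]) h hl, e]

/-- a zone is read -/
theorem rn_zone {w : List α} {v : V} {r : List α} {b : ℕ} (h : P.Nx (r ++ w) b)
    (hr : ∀ b, ¬ P.Nx r b) (hb : b + P.n < P.Bm) :
    P.rn w (v, r) = P.rn ((r ++ w).drop b) (P.zm (r ++ w) b v, []) := by
  have h1 := P.Nx_le h
  have h2 := P.Nx_ge h
  have h3 := P.hz
  have h4 := P.S0_nonneg
  have h5 := P.N1_nonneg
  have hn := P.n0
  have hrl : r.length < b + P.n := by
    by_contra hc
    exact hr b (P.Nx_of_append h (by omega))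
  -- split `w`
  have hwl : b + P.n - r.length - 1 < w.length := by
    rw [List.length_append] at h1; omega
  obtain ⟨w1, a, w2, e, hw1⟩ : ∃ w1 a w2, w = w1 ++ a :: w2 ∧ r.length + w1.length + 1 = b + P.n := by
    refine ⟨w.take (b + P.n - r.length - 1), w[b + P.n - r.length - 1],
      w.drop (b + P.n - r.length - 1 + 1), ?_, ?_⟩
    · rw [List.getElem_cons_drop, List.take_append_drop]
    · rw [List.length_take]; omega
  subst e
  have hq1 : ∀ b', ¬ P.Nx (r ++ w1) b' := by
    intro b' hb'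
    have e1 : r ++ (w1 ++ a :: w2) = (r ++ w1) ++ (a :: w2) := by simp
    have h6 := P.Nx_append hb' (a :: w2)
    rw [← e1] at h6
    have h7 := P.Nx_unique h6 h
    subst h7
    have := P.Nx_le hb'
    rw [List.length_append] at this
    omega
  have hN : P.Nx (r ++ w1 ++ [a]) b := by
    have e1 : r ++ (w1 ++ a :: w2) = (r ++ w1 ++ [a]) ++ w2 := by simp
    rw [e1] at h
    exact P.Nx_of_append h (by simp only [List.length_append, List.length_singleton]; omega)
  have s1 : P.rn w1 (v, r) = (v, r ++ w1) := P.rn_quiet w1 v r hq1 (by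
    rw [List.length_append]; omega)
  have s2 : P.st (v, r ++ w1) a = (P.zm (r ++ w1 ++ [a]) b v, (r ++ w1 ++ [a]).drop b) := P.st_pos hN
  have hlen : ((r ++ w1 ++ [a]).drop b).length = P.n := by
    rw [List.length_drop]; simp only [List.length_append, List.length_singleton]; omega
  have s3 : P.rn ((r ++ w1 ++ [a]).drop b) (P.zm (r ++ w1 ++ [a]) b v, [])
      = (P.zm (r ++ w1 ++ [a]) b v, (r ++ w1 ++ [a]).drop b) := by
    rw [P.rn_quiet]
    · rw [List.nil_append]
    · intro b' hb'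
      have h6 := P.Nx_le hb'
      have h7 := P.Nx_ge hb'
      rw [List.nil_append] at h6
      omega
    · rw [List.nil_append]; omega
  have e2 : (r ++ (w1 ++ a :: w2)).drop b = (r ++ w1 ++ [a]).drop b ++ w2 := by
    have e1 : r ++ (w1 ++ a :: w2) = (r ++ w1 ++ [a]) ++ w2 := by simp
    rw [e1, List.drop_append_of_le_length]
    simp only [List.length_append, List.length_singleton]; omega
  have e3 : P.zm (r ++ (w1 ++ a :: w2)) b v = P.zm (r ++ w1 ++ [a]) b v := by
    have e1 : r ++ (w1 ++ a :: w2) = (r ++ w1 ++ [a]) ++ w2 := by simp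
    rw [e1, P.zm_append hN]
  rw [e2, e3, P.rn_append, P.rn_append, s1, s3]
  show P.rn w2 (P.st (v, r ++ w1) a) = _
  rw [s2]

end Par

end Crest.Agent.R320.Half1_147
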