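import Crest.Agent.R320.Hk2_851

/-!
# Row 320: abstract assembly of two schemes over a prefix code of blocks (helper180)

`XX` is a prefix free set of nonempty blocks; a system is a finite state set `Γ` with a block map
`t : List α → Γ → Γ`.  `Cert k XX t C`: the transition languages of `t` are certified at height `k`
on the words in `C`.
* `step`    : a scheme (`LP`, `RQ`) sound on `XX`, complete on `Good`, certificates on `Bad*`
              give certificates on `(Good ∪ Bad)*`, one star more;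
* `promise` : a scheme which is sound and complete only on `Bad` blocks, `Bad` of height `k`;
* `readoff` : from the noisy linear system `push (t X) a + ν X` to `t`;
* `half1`   : two schemes give height `k + 2`.
-/

set_option autoImplicit false

namespace Crest.Agent.R320.Half1_180

open Crest.RegLang Crest.Agent.R320.Hk_851

universe u

variable {α : Type u}

/-- a language given by a predicate -/
def Lg (p : List α → Prop) : Language α := {w | p w}

/-- a set of words as a language -/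
def Lof (s : Set (List α)) : Language α := s

/-- transitions along blocks -/
inductive Tr {Γ : Type*} (XX : Set (List α)) (t : List α → Γ → Γ) : Γ → List α → Γ → Prop
  | nil (x : Γ) : Tr XX t x [] x
  | cons {X w : List α} {x y : Γ} : X ∈ XX → Tr XX t (t X x) w y → Tr XX t x (X ++ w) y

/-- products of blocks of `D` -/
inductive Bs (D : Set (List α)) : List α → Prop
  | nil : Bs D []
  | cons {X w : List α} : X ∈ D → Bs D w → Bs D (X ++ w)

/-- prefix free sets of nonempty words -/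
def PF (XX : Set (List α)) : Prop :=
  (∀ X ∈ XX, X ≠ []) ∧ ∀ X ∈ XX, ∀ Y ∈ XX, X <+: Y → X = Y

theorem PF.eq {XX : Set (List α)} (h : PF XX) {X Y w w' : List α} (hX : X ∈ XX) (hY : Y ∈ XX)
    (e : X ++ w = Y ++ w') : X = Y ∧ w = w' := by
  have h1 : X <+: X ++ w := List.prefix_append _ _
  have h2 : Y <+: X ++ w := by rw [e]; exact List.prefix_append _ _
  have h3 : X = Y := by
    rcases List.prefix_or_prefix_of_prefix h1 h2 with h4 | h4
    · exact h.2 X hX Y hY h4
    · exact (h.2 Y hY X hX h4).symm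
  refine ⟨h3, ?_⟩
  subst h3
  exact List.append_cancel_left e

section Tr

variable {Γ : Type*} {XX : Set (List α)} {t : List α → Γ → Γ}

theorem Tr.append {x y z : Γ} {w w' : List α} (h : Tr XX t x w y) (h' : Tr XX t y w' z) :
    Tr XX t x (w ++ w') z := by
  induction h with
  | nil x => simpa using h'
  | cons hX _ ih =>
    rw [List.append_assoc]
    exact Tr.cons hX (ih h')

theorem Tr.single {x : Γ} {X : List α} (hX : X ∈ XX) : Tr XX t x X (t X x) := by
  have h := Tr.cons (t := t) hX (Tr.nil (XX := XX) (t := t) (t X x))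
  simpa using h

theorem Tr.inv (h : PF XX) {x y : Γ} {X w : List α} (hX : X ∈ XX) (hT : Tr XX t x (X ++ w) y) :
    Tr XX t (t X x) w y := by
  generalize hu : X ++ w = u at hT
  cases hT with
  | nil =>
    exact absurd (List.append_eq_nil_iff.1 hu).1 (h.1 X hX)
  | cons hY hT' =>
    obtain ⟨rfl, rfl⟩ := h.eq hX hY hu
    exact hT'

theorem Tr.inv_nil (h : PF XX) {x y : Γ} (hT : Tr XX t x [] y) : x = y := by
  generalize hu : ([] : List α) = u at hT
  cases hT with
  | nil => rfl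
  | cons hY _ =>
    exact absurd (List.append_eq_nil_iff.1 hu.symm).1 (h.1 _ hY)

theorem Bs.mono {D D' : Set (List α)} (h : D ⊆ D') {w : List α} (hw : Bs D w) : Bs D' w := by
  induction hw with
  | nil => exact Bs.nil
  | cons hX _ ih => exact Bs.cons (h hX) ih

theorem Tr.exists {w : List α} (hw : Bs XX w) (x : Γ) : ∃ y, Tr XX t x w y := by
  induction hw generalizing x with
  | nil => exact ⟨x, Tr.nil x⟩
  | cons hX _ ih =>
    obtain ⟨y, hy⟩ := ih (t _ x)
    exact ⟨y, Tr.cons hX hy⟩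

theorem Tr.bs {w : List α} {x y : Γ} (h : Tr XX t x w y) : Bs XX w := by
  induction h with
  | nil x => exact Bs.nil
  | cons hX _ ih => exact Bs.cons hX ih

theorem Tr.split (h : PF XX) {w w' : List α} (hw : Bs XX w) {x y : Γ}
    (hT : Tr XX t x (w ++ w') y) : ∃ m, Tr XX t x w m ∧ Tr XX t m w' y := by
  induction hw generalizing x with
  | nil => exact ⟨x, Tr.nil x, by simpa using hT⟩
  | cons hX _ ih =>
    rw [List.append_assoc] at hT
    obtain ⟨m, h1, h2⟩ := ih (Tr.inv h hX hT)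
    exact ⟨m, Tr.cons hX h1, h2⟩

/-- parallel runs -/
theorem Tr.par {Γ' : Type*} {t' : List α → Γ' → Γ'} (h : PF XX) (R : Γ → Γ' → Prop)
    (hR : ∀ X ∈ XX, ∀ x x', R x x' → R (t X x) (t' X x')) {w : List α} {x y : Γ} {x' y' : Γ'}
    (hT : Tr XX t x w y) (hT' : Tr XX t' x' w y') (h0 : R x x') : R y y' := by
  induction hT generalizing x' with
  | nil x =>
    have := Tr.inv_nil h hT'
    subst this
    exact h0
  | cons hX _ ih => exact ih (Tr.inv h hX hT') (hR _ hX _ _ h0)

theorem Tr.unique (h : PF XX) {w : List α} {x y y' : Γ} (hT : Tr XX t x w y)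
    (hT' : Tr XX t x w y') : y = y' :=
  Tr.par h (fun a b => a = b) (fun X _ a b e => by rw [e]) hT hT' rfl

end Tr

/-- the transition languages are certified at height `k` on `C` -/
def Cert {Γ : Type*} (k : ℕ) (XX : Set (List α)) (t : List α → Γ → Γ) (C : List α → Prop) : Prop :=
  ∀ x y : Γ, ∃ L : Language α, HL k L ∧ (∀ w ∈ L, Tr XX t x w y) ∧
    ∀ w, C w → Tr XX t x w y → w ∈ L

theorem Bs.cases_good {Good Bad : Set (List α)} {w : List α} (hw : Bs (Good ∪ Bad) w) :
    Bs Bad w ∨ ∃ M X w', w = M ++ (X ++ w') ∧ Bs Bad M ∧ X ∈ Good ∧ Bs (Good ∪ Bad) w' := by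
  induction hw with
  | nil => exact Or.inl Bs.nil
  | @cons X w hX hw ih =>
    rcases hX with hX | hX
    · exact Or.inr ⟨[], X, w, rfl, Bs.nil, hX, hw⟩
    · rcases ih with ih | ⟨M, Y, w', rfl, hM, hY, hw'⟩
      · exact Or.inl (Bs.cons hX ih)
      · exact Or.inr ⟨X ++ M, Y, w', by simp, Bs.cons hX hM, hY, hw'⟩

theorem HL.iUnion2 {k : ℕ} {ι κ : Type*} [Finite ι] [Finite κ] {L : ι → κ → Language α}
    (h : ∀ i j, HL k (L i j)) : HL k ({w | ∃ i j, w ∈ L i j} : Language α) := by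
  have h1 := HL.iUnion (k := k) (fun i => HL.iUnion (k := k) (fun j => h i j))
  exact h1.congr fun w => Iff.rfl

/-- **step lemma**: one unconditionally sound scheme -/
theorem step {V : Type*} [Finite V] {k : ℕ} {XX Good Bad : Set (List α)} (h : PF XX)
    (hG : Good ⊆ XX) (hB : Bad ⊆ XX) (T : List α → V → V) (LP RQ : V → Language α)
    (hLP : ∀ v, HL k (LP v)) (hRQ : ∀ v, HL k (RQ v))
    (sound : ∀ v v' P Q, P ∈ LP v → Q ∈ RQ v' → P ++ Q ∈ XX ∧ T (P ++ Q) v = v')
    (compl : ∀ X ∈ Good, ∀ v, ∃ P Q, X = P ++ Q ∧ P ∈ LP v ∧ Q ∈ RQ (T X v))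
    (hBad : Cert k XX T (Bs Bad)) : Cert (k + 1) XX T (Bs (Good ∪ Bad)) := by
  choose B hB1 hB2 hB3 using hBad
  have hGB : Good ∪ Bad ⊆ XX := Set.union_subset hG hB
  let K : Language α := {u | ∃ v' v, u ∈ RQ v' * (B v' v * LP v)}
  have hK : HL k K := HL.iUnion2 fun v' v => (hRQ v').mul ((hB1 v' v).mul (hLP v))
  have hS : HL (k + 1) (KStar.kstar K) := hK.star
  -- soundness of the star
  have hsound : ∀ s ∈ KStar.kstar K, ∀ v v' P Q, P ∈ LP v → Q ∈ RQ v' →
      Tr XX T v (P ++ (s ++ Q)) v' := by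
    intro s hs
    rw [Language.mem_kstar] at hs
    obtain ⟨L, rfl, hL⟩ := hs
    induction L with
    | nil =>
      intro v v' P Q hP hQ
      obtain ⟨h1, h2⟩ := sound v v' P Q hP hQ
      have h3 := Tr.single (t := T) (x := v) h1
      rw [h2] at h3
      simpa using h3
    | cons u L ih =>
      intro v v' P Q hP hQ
      have hu : u ∈ K := hL u (by simp)
      obtain ⟨v1, v2, hu⟩ := hu
      obtain ⟨Q1, hQ1, r, hr, rfl⟩ := Language.mem_mul.1 hu
      obtain ⟨M, hM, P1, hP1, rfl⟩ := Language.mem_mul.1 hr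
      obtain ⟨h1, h2⟩ := sound v v1 P Q1 hP hQ1
      have h3 := Tr.single (t := T) (x := v) h1
      rw [h2] at h3
      have h4 := ih (fun y hy => hL y (by simp [hy])) v2 v' P1 Q hP1 hQ
      have h5 := (h3.append (hB2 _ _ M hM)).append h4
      simpa [List.append_assoc] using h5
  -- completeness behind a cut
  have hcomp : ∀ n : ℕ, ∀ w : List α, w.length ≤ n → Bs (Good ∪ Bad) w → ∀ v v1 Q, Q ∈ RQ v →
      Tr XX T v w v1 → ∃ s ∈ KStar.kstar K, ∃ v', ∃ Q' ∈ RQ v', ∃ M ∈ B v' v1,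
        Q ++ w = s ++ (Q' ++ M) := by
    intro n
    induction n with
    | zero =>
      intro w hn hw v v1 Q hQ hT
      have : w = [] := List.length_eq_zero_iff.1 (Nat.le_zero.1 hn)
      subst this
      exact ⟨[], Language.nil_mem_kstar _, v, Q, hQ, [], hB3 _ _ _ Bs.nil hT, by simp⟩
    | succ n ih =>
      intro w hn hw v v1 Q hQ hT
      rcases hw.cases_good with hw' | ⟨M, X, w', rfl, hM, hX, hw'⟩
      · exact ⟨[], Language.nil_mem_kstar _, v, Q, hQ, w, hB3 _ _ _ hw' hT, by simp⟩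
      · obtain ⟨v2, h1, h2⟩ := Tr.split h (hM.mono hB) hT
        have h3 := Tr.inv h (hG hX) h2
        obtain ⟨P, Q2, hPQ, hP, hQ2⟩ := compl X hX v2
        have hlen : w'.length ≤ n := by
          have h0 : X ≠ [] := h.1 X (hG hX)
          have h00 : 0 < X.length := List.length_pos_iff.2 h0
          simp only [List.length_append] at hn
          omega
        obtain ⟨s, hs, v', Q', hQ', M1, hM1, e⟩ := ih w' hlen hw' _ v1 Q2 hQ2 h3
        refine ⟨(Q ++ (M ++ P)) ++ s, ?_, v', Q', hQ', M1, hM1, ?_⟩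
        · have hu : Q ++ (M ++ P) ∈ K :=
            ⟨v, v2, Language.append_mem_mul hQ (Language.append_mem_mul (hB3 _ _ _ hM h1) hP)⟩
          rw [Language.mem_kstar] at hs ⊢
          obtain ⟨L, rfl, hL⟩ := hs
          refine ⟨(Q ++ (M ++ P)) :: L, by simp, ?_⟩
          intro y hy
          rcases List.mem_cons.1 hy with rfl | hy
          · exact hu
          · exact hL y hy
        · rw [hPQ]
          have : Q ++ (M ++ (P ++ Q2 ++ w')) = (Q ++ (M ++ P)) ++ (Q2 ++ w') := by simp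
          rw [this, e]
          simp
  intro v0 v1
  refine ⟨B v0 v1 + Lg (fun w => ∃ v v', w ∈ (B v0 v * LP v) *
    (KStar.kstar K * (RQ v' * B v' v1))), ?_, ?_, ?_⟩
  · refine HL.add ((hB1 _ _).mono (Nat.le_succ k)) (HL.iUnion2 fun v v' => ?_)
    exact (((hB1 _ _).mul (hLP v)).mono (Nat.le_succ k)).mul
      (hS.mul (((hRQ v').mul (hB1 _ _)).mono (Nat.le_succ k)))
  · intro w hw
    rcases hw with hw | ⟨v, v', hw⟩
    · exact hB2 _ _ w hw
    · obtain ⟨a, ha, b, hb, rfl⟩ := Language.mem_mul.1 hw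
      obtain ⟨M0, hM0, P, hP, rfl⟩ := Language.mem_mul.1 ha
      obtain ⟨s, hs, c, hc, rfl⟩ := Language.mem_mul.1 hb
      obtain ⟨Q, hQ, M1, hM1, rfl⟩ := Language.mem_mul.1 hc
      have h5 := ((hB2 _ _ M0 hM0).append (hsound s hs v v' P Q hP hQ)).append (hB2 _ _ M1 hM1)
      simpa [List.append_assoc] using h5
  · intro w hw hT
    rcases hw.cases_good with hw' | ⟨M, X, w', rfl, hM, hX, hw'⟩
    · exact Or.inl (hB3 _ _ _ hw' hT)
    · refine Or.inr ?_
      obtain ⟨v2, h1, h2⟩ := Tr.split h (hM.mono hB) hT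
      have h3 := Tr.inv h (hG hX) h2
      obtain ⟨P, Q2, hPQ, hP, hQ2⟩ := compl X hX v2
      obtain ⟨s, hs, v', Q', hQ', M1, hM1, e⟩ := hcomp _ w' le_rfl hw' _ v1 Q2 hQ2 h3
      refine ⟨v2, v', ?_⟩
      have e2 : M ++ (X ++ w') = (M ++ P) ++ (s ++ (Q' ++ M1)) := by
        rw [← e, hPQ]; simp
      rw [e2]
      exact Language.append_mem_mul (Language.append_mem_mul (hB3 _ _ _ hM h1) hP)
        (Language.append_mem_mul hs (Language.append_mem_mul hQ' hM1))

/-! ### Read-off -/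

section Readoff

open Classical in
/-- push forward of a vector -/
noncomputable def push {Γ : Type*} [Fintype Γ] (f : Γ → Γ) (a : Γ → ZMod 2) : Γ → ZMod 2 :=
  fun y => ∑ x, if f x = y then a x else 0

open Classical in
/-- basis vectors -/
noncomputable def bv {Γ : Type*} (x : Γ) : Γ → ZMod 2 := fun y => if x = y then 1 else 0

theorem push_sub {Γ : Type*} [Fintype Γ] (f : Γ → Γ) (a b : Γ → ZMod 2) :
    push f (a - b) = push f a - push f b := by
  classical
  funext y
  simp only [push, Pi.sub_apply]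
  rw [← Finset.sum_sub_distrib]
  refine Finset.sum_congr rfl fun x _ => ?_
  split_ifs <;> simp

theorem push_bv {Γ : Type*} [Fintype Γ] (f : Γ → Γ) (x : Γ) : push f (bv x) = bv (f x) := by
  classical
  funext y
  simp only [push, bv]
  have : ∀ z : Γ, (if f z = y then (if x = z then (1 : ZMod 2) else 0) else 0)
      = if x = z then (if f x = y then 1 else 0) else 0 := by
    intro z
    by_cases hz : x = z
    · subst hz; simp
    · simp [hz]
  rw [Finset.sum_congr rfl fun z _ => this z]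
  simp

theorem bv_inj {Γ : Type*} {x y : Γ} (h : bv x = bv y) : x = y := by
  classical
  have := congrFun h y
  simp only [bv, if_true] at this
  by_contra hn
  rw [if_neg hn] at this
  exact zero_ne_one this

theorem readoff {Γ : Type*} [Fintype Γ] {k : ℕ} {XX : Set (List α)} (h : PF XX)
    (t : List α → Γ → Γ) (nu : List α → Γ → ZMod 2) {C : List α → Prop}
    (hC : ∀ w, C w → Bs XX w)
    (hc : Cert k XX (fun X (a : Γ → ZMod 2) => push (t X) a + nu X) C) : Cert k XX t C := by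
  classical
  intro x y
  choose Z hZ1 hZ2 hZ3 using hc
  have key : ∀ {w : List α} {x' y' : Γ} {a b : Γ → ZMod 2},
      Tr XX (fun X (a : Γ → ZMod 2) => push (t X) a + nu X) (bv x') w a →
      Tr XX (fun X (a : Γ → ZMod 2) => push (t X) a + nu X) 0 w b →
      Tr XX t x' w y' → a - b = bv y' := by
    intro w x' y' a b h1 h2 h3
    have h12 : Tr XX (fun X (c : (Γ → ZMod 2) × (Γ → ZMod 2)) =>
        ((push (t X) c.1 + nu X, push (t X) c.2 + nu X) : (Γ → ZMod 2) × (Γ → ZMod 2)))
        (bv x', 0) w (a, b) := by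
      obtain ⟨c, hc⟩ := Tr.exists (t := fun X (c : (Γ → ZMod 2) × (Γ → ZMod 2)) =>
        ((push (t X) c.1 + nu X, push (t X) c.2 + nu X) : (Γ → ZMod 2) × (Γ → ZMod 2)))
        h1.bs (bv x', 0)
      have e1 : c.1 = a := Tr.par h (fun c a => c.1 = a)
        (fun X _ c a e => by simp only; rw [e]) hc h1 rfl
      have e2 : c.2 = b := Tr.par h (fun c a => c.2 = a)
        (fun X _ c a e => by simp only; rw [e]) hc h2 rfl
      have e3 : c = (a, b) := Prod.ext e1 e2
      rw [e3] at hc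
      exact hc
    refine Tr.par h (fun (c : (Γ → ZMod 2) × (Γ → ZMod 2)) (g : Γ) => c.1 - c.2 = bv g) ?_ h12 h3
      (by simp)
    intro X _ c g e
    simp only
    rw [add_sub_add_right_eq_sub, ← push_sub, e, push_bv]
  refine ⟨{w | ∃ c : Γ → ZMod 2, w ∈ Z (bv x) (c + bv y) ⊓ Z 0 c}, ?_, ?_, ?_⟩
  · exact HL.iUnion fun c => (hZ1 _ _).inf (hZ1 _ _)
  · rintro w ⟨c, h1, h2⟩
    have h1' := hZ2 _ _ w h1
    have h2' := hZ2 _ _ w h2
    obtain ⟨y', hy'⟩ := Tr.exists (t := t) h1'.bs x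
    have e := key h1' h2' hy'
    rw [add_sub_cancel_left] at e
    rw [bv_inj e]
    exact hy'
  · intro w hw hT
    obtain ⟨a, ha⟩ := Tr.exists (t := fun X (a : Γ → ZMod 2) => push (t X) a + nu X) (hC w hw) (bv x)
    obtain ⟨b, hb⟩ := Tr.exists (t := fun X (a : Γ → ZMod 2) => push (t X) a + nu X) (hC w hw) 0
    have e := key ha hb hT
    refine ⟨b, ?_, hZ3 _ _ w hw hb⟩
    have : a = b + bv y := by rw [← e]; abel
    rw [← this]
    exact hZ3 _ _ w hw ha

end Readoff

/-! ### The promise scheme -/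

theorem bs_iff_kstar {Bad : Set (List α)} {w : List α} :
    Bs Bad w ↔ w ∈ KStar.kstar (Lof Bad) := by
  constructor
  · intro h
    rw [Language.mem_kstar]
    induction h with
    | nil => exact ⟨[], rfl, by simp⟩
    | @cons X w hX _ ih =>
      obtain ⟨L, rfl, hL⟩ := ih
      refine ⟨X :: L, by simp, ?_⟩
      intro y hy
      rcases List.mem_cons.1 hy with rfl | hy
      · exact hX
      · exact hL y hy
  · intro h
    rw [Language.mem_kstar] at h
    obtain ⟨L, rfl, hL⟩ := h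
    induction L with
    | nil => exact Bs.nil
    | cons X L ih =>
      rw [List.flatten_cons]
      exact Bs.cons (hL X (by simp)) (ih fun y hy => hL y (by simp [hy]))

theorem Bs.inv {XX Bad : Set (List α)} (h : PF XX) (hB : Bad ⊆ XX) {w : List α} (hw : Bs Bad w) :
    w = [] ∨ ∃ Y ∈ Bad, ∃ w', w = Y ++ w' ∧ Bs Bad w' := by
  cases hw with
  | nil => exact Or.inl rfl
  | cons hX hw' => exact Or.inr ⟨_, hX, _, rfl, hw'⟩

/-- **promise scheme**: sound and complete on `Bad` blocks only -/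
theorem promise {V : Type*} [Finite V] {k : ℕ} {XX Bad : Set (List α)} (h : PF XX)
    (hB : Bad ⊆ XX) (hBk : HL k (Lof Bad)) (T : List α → V → V) (LP RQ : V → Language α)
    (hLP : ∀ v, HL k (LP v)) (hRQ : ∀ v, HL k (RQ v)) (hne : ∀ v, [] ∉ LP v)
    (sound : ∀ Y ∈ Bad, ∀ v v' P Q R R', P ∈ LP v → Q ∈ RQ v' → P ++ (Q ++ R) = Y ++ R' →
      P ++ Q = Y ∧ T Y v = v')
    (compl : ∀ X ∈ Bad, ∀ v, ∃ P Q, X = P ++ Q ∧ P ∈ LP v ∧ Q ∈ RQ (T X v)) :
    Cert (k + 1) XX T (Bs Bad) := by
  classical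
  let K : Language α := {u | ∃ v, u ∈ RQ v * LP v}
  have hK : HL k K := HL.iUnion fun v => (hRQ v).mul (hLP v)
  have hsound : ∀ s ∈ KStar.kstar K, ∀ v v' P Q, P ∈ LP v → Q ∈ RQ v' →
      Bs Bad (P ++ (s ++ Q)) → Tr XX T v (P ++ (s ++ Q)) v' := by
    intro s hs
    rw [Language.mem_kstar] at hs
    obtain ⟨L, rfl, hL⟩ := hs
    induction L with
    | nil =>
      intro v v' P Q hP hQ hw
      rcases Bs.inv h hB hw with e | ⟨Y, hY, w', e, hw'⟩
      · have : P = [] := (List.append_eq_nil_iff.1 e).1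
        subst this
        exact absurd hP (hne v)
      · obtain ⟨h1, h2⟩ := sound Y hY v v' P Q [] w' hP hQ (by simpa using e)
        have h3 := Tr.single (t := T) (x := v) (hB hY)
        rw [h2, ← h1] at h3
        simpa using h3
    | cons u L ih =>
      intro v v' P Q hP hQ hw
      obtain ⟨v1, hu⟩ := hL u (by simp)
      obtain ⟨Q1, hQ1, P1, hP1, rfl⟩ := Language.mem_mul.1 hu
      rcases Bs.inv h hB hw with e | ⟨Y, hY, w', e, hw'⟩
      · have : P = [] := (List.append_eq_nil_iff.1 e).1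
        subst this
        exact absurd hP (hne v)
      · have e' : P ++ (Q1 ++ (P1 ++ (L.flatten ++ Q))) = Y ++ w' := by
          rw [← e]; simp
        obtain ⟨h1, h2⟩ := sound Y hY v v1 P Q1 _ w' hP hQ1 e'
        have e3 : P1 ++ (L.flatten ++ Q) = w' := by
          rw [← h1, List.append_assoc] at e'
          exact List.append_cancel_left (List.append_cancel_left e')
        have h4 := ih (fun y hy => hL y (by simp [hy])) v1 v' P1 Q hP1 hQ (by rw [e3]; exact hw')
        have h3 := Tr.single (t := T) (x := v) (hB hY)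
        rw [h2, ← h1] at h3
        have h5 := h3.append h4
        simpa [List.append_assoc] using h5
  have hcomp : ∀ w, Bs Bad w → w ≠ [] → ∀ v v', Tr XX T v w v' →
      ∃ P ∈ LP v, ∃ s ∈ KStar.kstar K, ∃ Q ∈ RQ v', w = P ++ (s ++ Q) := by
    intro w hw
    induction hw with
    | nil => intro hn; exact absurd rfl hn
    | @cons X w hX hw ih =>
      intro _ v v' hT
      have hT' := Tr.inv h (hB hX) hT
      obtain ⟨P, Q, hPQ, hP, hQ⟩ := compl X hX v
      by_cases hwn : w = []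
      · subst hwn
        have e := Tr.inv_nil h hT'
        rw [e] at hQ
        exact ⟨P, hP, [], Language.nil_mem_kstar _, Q, hQ, by simp [hPQ]⟩
      · obtain ⟨P', hP', s, hs, Q', hQ', e⟩ := ih hwn _ v' hT'
        refine ⟨P, hP, (Q ++ P') ++ s, ?_, Q', hQ', ?_⟩
        · rw [Language.mem_kstar] at hs ⊢
          obtain ⟨L, rfl, hL⟩ := hs
          refine ⟨(Q ++ P') :: L, by simp, ?_⟩
          intro y hy
          rcases List.mem_cons.1 hy with rfl | hy
          · exact ⟨_, Language.append_mem_mul hQ hP'⟩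
          · exact hL y hy
        · rw [e, hPQ]; simp
  intro v v'
  have hbad : HL (k + 1) (KStar.kstar (Lof Bad)) := hBk.star
  refine ⟨((KStar.kstar (Lof Bad)) ⊓ (LP v * (KStar.kstar K * RQ v'))) +
    Lg (fun w => w = [] ∧ v = v'), ?_, ?_, ?_⟩
  · refine HL.add (hbad.inf (((hLP v).mono (Nat.le_succ k)).mul
      (hK.star.mul ((hRQ v').mono (Nat.le_succ k))))) ?_
    exact (HL.one.inf (HL.const (v = v'))).congr fun w => Iff.rfl
  · intro w hw
    rcases hw with ⟨hw1, hw2⟩ | ⟨rfl, rfl⟩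
    · have hw1' := bs_iff_kstar.2 hw1
      obtain ⟨P, hP, c, hc, rfl⟩ := Language.mem_mul.1 hw2
      obtain ⟨s, hs, Q, hQ, rfl⟩ := Language.mem_mul.1 hc
      exact hsound s hs v v' P Q hP hQ hw1'
    · exact Tr.nil _
  · intro w hw hT
    by_cases hn : w = []
    · subst hn
      exact Or.inr ⟨rfl, Tr.inv_nil h hT⟩
    · obtain ⟨P, hP, s, hs, Q, hQ, rfl⟩ := hcomp w hw hn v v' hT
      exact Or.inl ⟨bs_iff_kstar.1 hw,
        Language.append_mem_mul hP (Language.append_mem_mul hs hQ)⟩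

/-! ### Two schemes -/

/-- **assembly of two schemes** -/
theorem half1 [Finite α] {S : Type*} [Monoid S] [Fintype S] [DecidableEq S] {k : ℕ} (φ : α → S)
    (XX Good Bad : Set (List α)) (h : PF XX) (hG : Good ⊆ XX) (hB : Bad ⊆ XX)
    (hBk : HL k (Lof Bad))
    -- scheme 1
    (nu1 : List α → S → ZMod 2) (LP1 RQ1 : (S → ZMod 2) → Language α)
    (hLP1 : ∀ v, HL (k + 1) (LP1 v)) (hRQ1 : ∀ v, HL (k + 1) (RQ1 v))
    (sound1 : ∀ v v' P Q, P ∈ LP1 v → Q ∈ RQ1 v' → P ++ Q ∈ XX ∧
      push (fun s => s * ((P ++ Q).map φ).prod) v + nu1 (P ++ Q) = v')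
    (compl1 : ∀ X ∈ Good, ∀ v, ∃ P Q, X = P ++ Q ∧ P ∈ LP1 v ∧
      Q ∈ RQ1 (push (fun s => s * (X.map φ).prod) v + nu1 X))
    -- scheme 2
    (nu2 : List α → (S → ZMod 2) → ZMod 2) (LP2 RQ2 : ((S → ZMod 2) → ZMod 2) → Language α)
    (hLP2 : ∀ v, HL k (LP2 v)) (hRQ2 : ∀ v, HL k (RQ2 v)) (hne : ∀ v, [] ∉ LP2 v)
    (sound2 : ∀ Y ∈ Bad, ∀ v v' P Q R R', P ∈ LP2 v → Q ∈ RQ2 v' → P ++ (Q ++ R) = Y ++ R' →
      P ++ Q = Y ∧
      push (fun u : S → ZMod 2 => push (fun s => s * (Y.map φ).prod) u + nu1 Y) v + nu2 Y = v')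
    (compl2 : ∀ X ∈ Bad, ∀ v, ∃ P Q, X = P ++ Q ∧ P ∈ LP2 v ∧
      Q ∈ RQ2 (push (fun u : S → ZMod 2 => push (fun s => s * (X.map φ).prod) u + nu1 X) v
        + nu2 X))
    -- covering
    (RF : Language α) (hRF : HL (k + 2) RF) (B : ℕ)
    (cover : ∀ w ∈ RF, ∃ M E, w = M ++ E ∧ Bs (Good ∪ Bad) M ∧ E.length ≤ B) (s : S) :
    HL (k + 2) ({w | w ∈ RF ∧ (w.map φ).prod = s} : Language α) := by
  classical
  have c2 : Cert (k + 1) XX (fun X (v : (S → ZMod 2) → ZMod 2) =>
      push (fun u : S → ZMod 2 => push (fun s => s * (X.map φ).prod) u + nu1 X) v + nu2 X)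
      (Bs Bad) :=
    promise h hB hBk _ LP2 RQ2 hLP2 hRQ2 hne sound2 compl2
  have c1 : Cert (k + 1) XX (fun X (u : S → ZMod 2) =>
      push (fun s => s * (X.map φ).prod) u + nu1 X) (Bs Bad) :=
    readoff h _ nu2 (fun w hw => hw.mono hB) c2
  have c0 : Cert (k + 2) XX (fun X (u : S → ZMod 2) =>
      push (fun s => s * (X.map φ).prod) u + nu1 X) (Bs (Good ∪ Bad)) :=
    step h hG hB _ LP1 RQ1 hLP1 hRQ1 sound1 compl1 c1
  have c : Cert (k + 2) XX (fun X (s : S) => s * (X.map φ).prod) (Bs (Good ∪ Bad)) :=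
    readoff h (fun X (s : S) => s * (X.map φ).prod) nu1
      (fun w hw => hw.mono (Set.union_subset hG hB)) c0
  have hval : ∀ {w : List α} {x y : S}, Tr XX (fun X (s : S) => s * (X.map φ).prod) x w y →
      y = x * (w.map φ).prod := by
    intro w x y hT
    induction hT with
    | nil x => simp
    | cons _ _ ih => rw [ih]; simp [mul_assoc]
  choose L hL1 hL2 hL3 using c
  have hfin : {E : List α | E.length ≤ B}.Finite := List.finite_length_le α B
  have hE := HL.biUnion (k := k + 2) hfin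
    (L := fun E => Lg (fun w => ∃ s' : S, w ∈ (Lg (fun _ => s' * (E.map φ).prod = s)) ⊓
      (L 1 s' * ({E} : Language α))))
    (fun E _ => HL.iUnion fun s' => (HL.const _).inf ((hL1 1 s').mul (HL.word E)))
  refine (hRF.inf hE).congr fun w => ?_
  constructor
  · rintro ⟨hw, hs⟩
    refine ⟨hw, ?_⟩
    obtain ⟨M, E, rfl, hM, hE⟩ := cover w hw
    obtain ⟨y, hy⟩ := Tr.exists (t := fun X (s : S) => s * (X.map φ).prod)
      (hM.mono (Set.union_subset hG hB)) (1 : S)
    have e := hval hy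
    refine ⟨E, hE, y, ?_, Language.append_mem_mul (hL3 _ _ M hM hy) rfl⟩
    change y * (E.map φ).prod = s
    rw [e, one_mul, ← hs]; simp
  · rintro ⟨hw, E, _, s', hs', hw'⟩
    refine ⟨hw, ?_⟩
    obtain ⟨M, hM, E', hE', rfl⟩ := Language.mem_mul.1 hw'
    have e0 : E' = E := hE'
    subst e0
    have e := hval (hL2 _ _ M hM)
    rw [one_mul] at e
    have hs'' : s' * (E'.map φ).prod = s := hs'
    rw [← hs'', e]; simp

end Crest.Agent.R320.Half1_180
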