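import Crest.Agent.R320.H1g_203

/-! Row 320: HALF 1 = run-free words in height two (helper203). -/

set_option autoImplicit false
set_option linter.unusedSectionVars false

namespace Crest.Agent.R320.H1_203

open Crest.Agent.R320.Nest_85 Crest.Agent.R320.Gad1_420 Crest.Agent.R320.Hgt1_903
open Crest.Agent.R320.Wall_291 Crest.Agent.R320.Hk_851

universe u

theorem H_RF {α : Type u} [Finite α] (e p : ℕ) : H 2 ({w | RF e p w} : Language α) := by
  have hfin : Set.Finite {y : List α | ∃ x : List α, x ≠ [] ∧ x.length ≤ p ∧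
      y = (List.replicate e x).flatten} := by
    refine ((List.finite_length_le α p).image (fun x => (List.replicate e x).flatten)).subset ?_
    rintro y ⟨x, -, hx, rfl⟩
    exact ⟨x, hx, rfl⟩
  have h1 : HL 2 ({w | ∀ v, v <:+: w → v ∈ (({y : List α | ∃ x : List α, x ≠ [] ∧ x.length ≤ p ∧
      y = (List.replicate e x).flatten} : Language α)ᶜ)} : Language α) :=
    HL.allInfix (HL.compl (HL.finite hfin))
  refine HL.congr h1 fun w => ?_
  constructor
  · intro h v hv
    rintro ⟨x, hx, hl, rfl⟩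
    exact h x hx hl hv
  · intro h x hx hl hi
    exact h _ hi ⟨x, hx, hl, rfl⟩

theorem half1 {α : Type u} [Finite α] (S : Type) [Monoid S] [Finite S] (f : α → S) (e : ℕ) :
    ∃ b, ∀ s, HL 2 ({w | RF e b w ∧ (w.map f).prod = s} : Language α) := by
  classical
  haveI := Fintype.ofFinite S
  let φ : List α → S := fun w => (w.map f).prod
  have hφ : ∀ u v, φ (u ++ v) = φ u * φ v := fun u v => by
    simp only [φ, List.map_append, List.prod_append]
  obtain ⟨m, N, e', hN, hF'⟩ := Exact808.exists_noise_unif S (S → ZMod 2)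
  obtain ⟨F, hF⟩ := hF' actV
  haveI : NeZero N := ⟨hN.ne'⟩
  obtain ⟨r, hr⟩ := Names755.names
    (Fin m × S × (ZMod N × ZMod N) × S × (ZMod N × ZMod N) × (S → ZMod 2))
    ((S → ZMod 2) × (S → ZMod 2))
    (fun c => (c.2.2.2.2.2, F (c.2.1 * 1 * c.2.2.2.1) (c.2.2.1 + e' c.1 1 + c.2.2.2.2.1) +
      actV c.2.2.2.2.2 (c.2.1 * 1 * c.2.2.2.1)))
  obtain ⟨m2, k2, hG⟩ := Exact808.exact_gadget S (S → ZMod 2)
  -- the exact gadget is not empty
  obtain ⟨hm2, hk2⟩ : 0 < m2 ∧ 0 < k2 := by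
    obtain ⟨lam, hl⟩ := hG α (fun _ => 1) (fun _ _ => (mul_one _).symm) (fun _ => 0)
      (fun _ => none) monotone_const rfl (fun _ _ _ h => by cases h)
    obtain ⟨rho, nu, -, hc⟩ := hl actV
    obtain ⟨i, hi, c, -⟩ := hc [] 0 rfl
    exact ⟨by omega, lt_of_le_of_lt (Nat.zero_le _) c.2⟩
  obtain ⟨κ, hκ⟩ : ∃ κ, κ = 2 * r + m + 3 := ⟨_, rfl⟩
  obtain ⟨K, hK⟩ : ∃ K, K = m2 * (k2 * κ) := ⟨_, rfl⟩
  obtain ⟨M', hM'⟩ : ∃ M', M' = 4 ^ K := ⟨_, rfl⟩
  have hM'0 : 0 < M' := by rw [hM']; positivity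
  obtain ⟨Ms, M, nmL, nmR, hcard, hMs, hM, hpL, hpR, hn1, hn2, hn3⟩ := hr (2 * 4 ^ K + 1)
  obtain ⟨U, hU⟩ : ∃ U, U = M' * (1 + M * 2) + 1 := ⟨_, rfl⟩
  have hU0 : 0 < U := by rw [hU]; omega
  obtain ⟨L, hL⟩ : ∃ L, L = U * 4 ^ K := ⟨_, rfl⟩
  obtain ⟨n, G, R, hn0, hR1, hR2, hR3, hR4⟩ := walls' α e (2 * L + 2 * (M' * M))
  obtain ⟨c0, hc0⟩ : ∃ c0, c0 = G + n + M := ⟨_, rfl⟩
  let D : Dat α S (S → ZMod 2) (ZMod N × ZMod N) :=
    { φ := φ, act := actV, m := m, e := e', F := F, R := R, n := n, G := G, M := M, M' := M'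
      A := fun k => M' * (k * c0)
      A' := fun k => M' * (k * c0) + M' * (G + n)
      LN := fun t c => nmL t = some c
      RN := fun t c => nmR t = some c }
  have hrule : Rule D.R D.n := ⟨hn0, hR1, hR2⟩
  have hAs : ∀ k, M' * ((k + 1) * c0) = M' * (k * c0) + M' * (G + n) + M' * M := by
    intro k; rw [hc0]; ring
  have hAm : ∀ j k, j ≤ k → M' * (j * c0) ≤ M' * (k * c0) := fun j k h =>
    Nat.mul_le_mul_left _ (Nat.mul_le_mul_right _ h)
  have hGeo : Geo D := by
    refine ⟨hφ, hrule, ?_, ?_, ?_, ?_, hM'0⟩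
    · intro k; exact hAm _ _ (Nat.le_succ k)
    · intro i k hik
      change M' * (i * c0) + M' * (G + n) + M' * M ≤ M' * (k * c0)
      rw [← hAs]; exact hAm _ _ hik
    · intro k
      change M' * (k * c0) + G + n ≤ M' * (k * c0) + M' * (G + n)
      have := Nat.mul_le_mul_right (G + n) (Nat.succ_le_of_lt hM'0)
      omega
    · intro k
      exact Dvd.dvd.add (Nat.dvd_mul_right _ _) (Nat.dvd_mul_right _ _)
  have hNames : Names D (fun T => ∀ k ∈ Ms, ¬ k ∣ T) :=
    names_ok D Ms nmL nmR hM (fun _ _ => Iff.rfl) (fun _ _ => Iff.rfl) hpL hn1 hn2 hn3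
  obtain ⟨nu1, g1, g2, g3⟩ := gadget1 D _ hGeo hNames hF
  obtain ⟨N1, hN1⟩ : ∃ N1, N1 = M' * (m * c0) := ⟨_, rfl⟩
  obtain ⟨D1, hD1⟩ : ∃ D1, D1 = M' * (2 * N1 + 2 * L + 1) := ⟨_, rfl⟩
  obtain ⟨D0, hD0⟩ : ∃ D0, D0 = D1 + 2 * L + 2 * N1 + (2 * L + 2 * (M' * M)) := ⟨_, rfl⟩
  obtain ⟨no, Go, Ro, hno, hRo1, hRo2, hRo3, hRo4⟩ := walls' α e D0
  obtain ⟨z0, hz0⟩ : ∃ z0, z0 = L + N1 + no + 2 * L + D1 + L + M' * M + G + n + 1 := ⟨_, rfl⟩
  obtain ⟨lam, hlam⟩ := hG α φ hφ (Bf U m2 (k2 * κ) L) (ctxf U K k2 κ hk2) (Bf_mono hL hK) rfl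
    (ctxf_spec hk2 hL hK)
  obtain ⟨rho, nu2, hx1, hx2⟩ := hlam actV
  have hBm : Bf U m2 (k2 * κ) L m2 = L := by
    unfold Bf; rw [if_neg hm2.ne', if_pos le_rfl]
  rw [hBm] at hx1 hx2
  obtain ⟨Zb, hZb⟩ : ∃ Zb, Zb = z0 + D1 + Go + no + 1 := ⟨_, rfl⟩
  let d : Dt α S (S → ZMod 2) (ZMod N × ZMod N) :=
    { φ := φ, act := actV, Wo := fun X => Ro X.reverse, no := no, M' := M'
      thr := fun r => z0 + r * (2 * N1 + 2 * L + 1)
      p0 := L, nu1 := nu1, nu2 := nu2, D := D, good := fun T => ∀ k ∈ Ms, ¬ k ∣ T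
      N1 := N1, Z := Zb, K := K, x := fun j => U * 4 ^ j, lam := lam, rho := rho
      rf := RF e D0 }
  have hthr_b : ∀ x, z0 ≤ d.thr (x % M') ∧ d.thr (x % M') ≤ z0 + D1 := by
    intro x
    rw [hD1]
    exact Spoil_203.thr_le hM'0 (fun _ _ => rfl) x
  have wloc : ∀ P Q : List α, no ≤ Q.length → (Ro (P ++ Q).reverse ↔ Ro Q.reverse) := by
    intro P Q h
    rw [hRo1, hRo1 Q.reverse, List.reverse_append,
      List.take_append_of_le_length (by rw [List.length_reverse]; exact h)]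
  have hmono : ∀ Q : List α, RF e D0 Q → RF e (2 * L + 2 * (M' * M)) Q := fun Q h =>
    h.mono (by omega)
  have hlt : ∀ j, j < K → U * 4 ^ j < L := fun j hj => by
    rw [hL]
    exact Nat.mul_lt_mul_of_pos_left (Nat.pow_lt_pow_right (by norm_num) hj) hU0
  have hyp : d.Hyp := by
    refine
      { hφD := rfl, haD := rfl, hMD := rfl, hφ := hφ, g1 := g1, g2 := ?_, g3 := ?_, Mpos := hM'0
        wloc := wloc, thr := ?_, inf := ?_, full := ?_, sm := ?_, xp0 := ?_, e1 := ?_, e2 := ?_ }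
    · intro P v h
      obtain ⟨i, hi, h1, h2, h3⟩ := g2 P v h
      refine ⟨h1, ?_⟩
      change P.length < M' * (i * c0) + M' * (G + n) + M' * M at h3
      rw [← hAs] at h3
      have := hAm (i + 1) m hi
      change P.length ≤ N1
      omega
    · intro Y hg hN hs hnd v
      refine g3 Y hg ?_ hs hnd v
      intro i hi
      change M' * (i * c0) + M' * (G + n) + M' * M ≤ Y.length
      rw [← hAs]
      have := hAm (i + 1) m hi
      change N1 ≤ Y.length at hN
      omega
    · intro r hr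
      have := (hthr_b r).1
      rw [Nat.mod_eq_of_lt hr] at this
      change L + N1 + no < d.thr r
      omega
    · intro u v w h
      exact h.infix ⟨u, w, rfl⟩
    · intro w hw hl
      exact exists_full d Ro Go D0 e (z0 + D1) (fun _ => Iff.rfl) (fun x => (hthr_b x).2)
        (by omega) (fun x => lt_of_lt_of_le (by omega) (hthr_b x).1) hRo4
        (by change z0 + D1 + Go + no ≤ Zb; omega) w hw hl
    · intro X hX hF t ht
      change t ≤ M' * (m * c0) + M' * M at ht
      have hXl : z0 ≤ X.length := le_trans (hthr_b _).1 hF.1.2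
      obtain ⟨i, hi, hRi⟩ := hR4 ((X.drop L).drop t) (((hmono X hX).drop _).drop _)
        (by rw [List.length_drop, List.length_drop]; omega)
      rw [List.drop_drop] at hRi
      exact ⟨t + i, by omega, by change t + i < t + G; omega, hRi⟩
    · intro j hj
      exact (hlt j hj).le
    · intro p q v b h1 h2 h3
      exact hx1 p q v b h1 h2 h3
    · intro X X2 hX hX2 hne v
      have hXl : z0 ≤ X.length := le_trans (hthr_b _).1 hX.1.2
      obtain ⟨i, hi, c, hc⟩ := hx2 (X.take L) v (by rw [List.length_take]; omega)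
      have hcm : ∀ t, t < κ → (i * k2 + c) * κ + t < K := by
        intro t ht
        have h1 : i * k2 + c + 1 ≤ m2 * k2 := by
          have h2 : (i + 1) * k2 ≤ m2 * k2 := Nat.mul_le_mul_right _ hi
          have h3 := c.2
          rw [Nat.succ_mul] at h2
          omega
        have h4 := Nat.mul_le_mul_right κ h1
        rw [Nat.succ_mul] at h4
        rw [hK, ← Nat.mul_assoc]
        omega
      obtain ⟨j, hj, hun⟩ := spoil_word d U M Ms z0 D0 (2 * L + 2 * (M' * M)) (fun _ => rfl)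
        hM'.ge hM rfl (fun k hk => ⟨(hMs k hk).1, (hMs k hk).2.2⟩) (fun _ => Iff.rfl) hU hL.symm
        (fun r _ => by rw [← hL]) (by rw [← hL]; change L + N1 + no + 2 * L ≤ z0; omega)
        (by rw [← hL]; change M' * (2 * N1 + 2 * L + 1) + L ≤ z0; omega)
        (by rw [← hL]; change M' * (2 * N1 + 2 * L + 1) + 2 * L + 2 * N1 ≤ D0; omega)
        (by rw [← hL]) wloc hno
        (by
          intro Q s t hst ht hs hw
          by_contra hcon
          have hs' : Ro (Q.take s).reverse := hs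
          have hw' : Ro (Q.take t).reverse := hw
          refine hRo3 _ (t - s) hw' (by omega) (by omega) ?_
          rw [List.drop_reverse, List.take_take, List.length_take]
          convert hs' using 3
          omega)
        hrule
        (by
          intro Q s t hst hs ht
          by_contra hcon
          refine hR3 _ (t - s) hs (by omega) (by omega) ?_
          rw [List.drop_drop]
          convert ht using 2
          omega)
        X X2 hX hX2 ((Finset.range κ).image fun t => (i * k2 + c) * κ + t)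
        (by
          intro j hj
          obtain ⟨t, ht, rfl⟩ := Finset.mem_image.1 hj
          exact hcm t (Finset.mem_range.1 ht))
        (by
          rw [Finset.card_image_of_injective _ (fun a b h => by simpa using h), Finset.card_range]
          change 1 + 2 * Ms.card + (m + 1) < κ
          omega)
      obtain ⟨t, ht, rfl⟩ := Finset.mem_image.1 hj
      have ht' := Finset.mem_range.1 ht
      have hctx := ctxf_eq hk2 hU0 c ht' (hcm t ht')
      obtain ⟨hl1, hl2⟩ := hc _ hctx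
      have hle := hlt _ (hcm t ht')
      refine ⟨(i * k2 + c) * κ + t, hcm t ht', ?_, hl2, hun⟩
      rw [List.take_take, Nat.min_eq_left hle.le] at hl1
      exact hl1
  refine ⟨D0, fun s => ?_⟩
  exact half_of_hyp hyp rfl actV_add actV_mul actV_one (Pi.single 1 1) actV_inj (H_RF e D0) s

end Crest.Agent.R320.H1_203
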