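import Crest.Agent.R320.Asm_505

/-!
# Row 320: HALF 1 from the single-block data (helper261)

On top of helper505's `Asm_505` (prefix-code form): the two nested levels relative to a factor
closed class `G` (the run-free words), and with right words of the inner scheme which reach over
the next block (`sound2` / `compl2` speak about PAIRS of bad blocks).  Nothing about finiteness or
height of the label languages is assumed: they are cut at the length bound of the blocks.
-/

set_option autoImplicit false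

namespace Crest.Agent.R320.Half1_261

open Crest.RegLang Crest.Agent.R320.Hk_851 Crest.Agent.R320.Asm_505

universe u v

variable {α : Type u} {Ω : Type v} {k : ℕ}

/-- factor closed class -/
structure FC (G : List α → Prop) : Prop where
  left : ∀ u v, G (u ++ v) → G u
  right : ∀ u v, G (u ++ v) → G v

/-- soundness half of a level -/
structure Snd (V : Language α) (eps : List α → Ω → Ω) (P R : Ω → Language α) : Prop where
  pne : ∀ x, [] ∉ P x
  sound : ∀ z ∈ V, ∀ x y, ∀ p ∈ P x, ∀ q ∈ R y, (z <+: p ++ q ∨ p ++ q <+: z) →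
    z = p ++ q ∧ eps z x = y

/-- completeness half of a level on the class `G`, outside `B` -/
def Cpl (G : List α → Prop) (V B : Language α) (eps : List α → Ω → Ω)
    (P R : Ω → Language α) : Prop :=
  ∀ z ∈ V, G z → z ∉ B → ∀ x, ∃ p ∈ P x, ∃ q ∈ R (eps z x), z = p ++ q

theorem fwd {G : List α → Prop} (hG : FC G) {V B : Language α} {eps : List α → Ω → Ω}
    {P R : Ω → Language α} (C : Cpl G V B eps P R) {W : Ω → Ω → Language α}
    (W1 : ∀ x w y, G w → Path B eps x w y → w ∈ W x y) :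
    ∀ (l : List (List α)) (x0 x : Ω) (w0 : List α), (∀ z ∈ l, z ∈ V) → G (w0 ++ l.flatten) →
      Path B eps x0 w0 x → w0 ++ l.flatten ∈ Rhs P R W x0 (Run eps x l) := by
  intro l
  induction l with
  | nil =>
    intro x0 x w0 _ hg h0
    left
    have := W1 _ _ _ (hG.left _ _ hg) h0
    simpa [Run] using this
  | cons z l ih =>
    intro x0 x w0 hl hg h0
    have hz : z ∈ V := hl z (by simp)
    have hl' : ∀ t ∈ l, t ∈ V := fun t ht => hl t (by simp [ht])
    by_cases hB : z ∈ B
    · have h1 : Path B eps x0 (w0 ++ z) (eps z x) := by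
        have : Path B eps x z (eps z x) := by
          have := Path.cons (eps := eps) (x := x) hB (Path.nil B eps (eps z x))
          simpa using this
        exact h0.append this
      have := ih x0 (eps z x) (w0 ++ z) hl' (by simpa using hg) h1
      simpa [Run_cons] using this
    · have hgz : G z := by
        have h1 : G (w0 ++ (z ++ l.flatten)) := by simpa using hg
        exact hG.left _ _ (hG.right _ _ h1)
      obtain ⟨p, hp, q, hq, rfl⟩ := C z hz hgz hB x
      have h2 := ih (eps (p ++ q) x) (eps (p ++ q) x) [] hl' (by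
        have h1 : G ((w0 ++ (p ++ q)) ++ l.flatten) := by simpa using hg
        simpa using hG.right _ _ h1) (Path.nil _ _ _)
      rw [List.nil_append] at h2
      rw [Run_cons]
      have h3 : w0 ∈ W x0 x := W1 _ _ _ (hG.left _ _ hg) h0
      right
      rcases h2 with h2 | ⟨x1, y1, w1, hw1, p1, hp1, k, hk, q1, hq1, w2, hw2, he⟩
      · refine ⟨x, eps (p ++ q) x, w0, h3, p, hp, [], ?_, q, hq, l.flatten, h2, ?_⟩
        · exact mem_kstar.2 ⟨[], by simp, rfl⟩
        · simp
      · refine ⟨x, y1, w0, h3, p, hp, (q ++ w1 ++ p1) ++ k, ?_, q1, hq1, w2, hw2, ?_⟩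
        · exact kstar_cons ⟨_, _, q, hq, w1, hw1, p1, hp1, rfl⟩ hk
        · simp [he]

theorem bwd {V : Language α} {eps : List α → Ω → Ω} {P R : Ω → Language α}
    (hV : PC V) (S : Snd V eps P R) {W : Ω → Ω → Language α}
    (W2 : ∀ x y w, w ∈ W x y → Path V eps x w y) (x y : Ω) (w : List α)
    (hw : w ∈ KStar.kstar V) (h : w ∈ Rhs P R W x y) : Path V eps x w y := by
  have L : Level V V eps P R := ⟨S.pne, S.sound, fun z hz h => absurd hz h⟩
  rcases h with h | ⟨x1, y1, w1, hw1, p, hp, k, hk, q, hq, w2, hw2, rfl⟩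
  · exact W2 _ _ _ h
  · have h7 : Path V eps x w1 x1 := W2 _ _ _ hw1
    obtain ⟨ks, g1, g2⟩ := mem_kstar.1 hk
    subst g2
    have h8 : p ++ ks.flatten ++ q ++ w2 ∈ KStar.kstar V := by
      obtain ⟨l1, g1, g2, _⟩ := h7
      refine pc_cancel hV l1 _ g1 ?_
      rw [g2]
      simpa using hw
    have h9 := level_bwd hV L W2 ks x1 y1 y p q w2 g1 hp hq hw2 h8
    have := h7.append h9
    simpa using this

/-- `L` is between: a language of height `k`, contained in `L` and equal to `L` on `G` -/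
def Btw (G : List α → Prop) (k : ℕ) (L : List α → Prop) : Prop :=
  ∃ Y : Language α, HL k Y ∧ (∀ w ∈ Y, L w) ∧ ∀ w, G w → L w → w ∈ Y

theorem Btw.path [Finite Ω] {G : List α → Prop} (hG : FC G) {V B : Language α}
    {eps : List α → Ω → Ω} {P R : Ω → Language α} (hV : PC V) (hBV : ∀ z ∈ B, z ∈ V)
    (S : Snd V eps P R) (C : Cpl G V B eps P R)
    (hW : ∀ x y, Btw G k (fun w => Path B eps x w y))
    (hV' : HL k V) (hP : ∀ x, HL k (P x)) (hR : ∀ x, HL k (R x)) (x y : Ω) :
    Btw G (k + 1) (fun w => Path V eps x w y) := by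
  choose W h1 h2 h3 using hW
  refine ⟨KStar.kstar V ⊓ Rhs P R W x y, hV'.star.inf (HL.Rhs hP hR h1 x y), ?_, ?_⟩
  · rintro w ⟨g1, g2⟩
    exact bwd hV S (fun x y w hw => Path.mono hBV (h2 x y w hw)) x y w g1 g2
  · rintro w hg ⟨l, g1, g2, g3⟩
    refine ⟨mem_kstar.2 ⟨l, g1, g2⟩, ?_⟩
    have := fwd hG C (W := W) (fun x w y hg hp => h3 x y w hg hp) l x x [] g1
      (by simpa [g2] using hg) (Path.nil _ _ _)
    rw [List.nil_append, g3, g2] at this
    exact this

/-- decoding one thread system by another one on the same code -/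
theorem Btw.decode [Finite Ω] {G : List α → Prop} {V : Language α} (hV : PC V)
    {eps : List α → Ω → Ω} {X : Type*} (g : List (List α) → X)
    (dec : ∀ l l', (∀ z ∈ l, z ∈ V) → (∀ z ∈ l', z ∈ V) →
      (∀ x, Run eps x l = Run eps x l') → g l = g l')
    (hVs : HL k (KStar.kstar V))
    (hp : ∀ x y, Btw G k (fun w => Path V eps x w y)) (c : X) :
    Btw G k (fun w => ∃ l : List (List α), (∀ z ∈ l, z ∈ V) ∧ l.flatten = w ∧ g l = c) := by
  choose Y h1 h2 h3 using hp
  refine ⟨KStar.kstar V ⊓ ({w | ∃ f : {f : Ω → Ω // ∃ l : List (List α), (∀ z ∈ l, z ∈ V) ∧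
      (∀ x, Run eps x l = f x) ∧ g l = c}, ∀ x, w ∈ Y x (f.1 x)} : Language α), ?_, ?_, ?_⟩
  · exact hVs.inf (HL.exists' fun f => HL.forall' fun x => h1 x (f.1 x))
  · rintro w ⟨g1, ⟨f, l', hl', hf, hg⟩, h4⟩
    obtain ⟨l, hl, hw⟩ := mem_kstar.1 g1
    refine ⟨l, hl, hw, ?_⟩
    rw [← hg]
    refine dec l l' hl hl' fun x => ?_
    obtain ⟨l'', g1, g2, g3⟩ := h2 _ _ _ (h4 x)
    have : l'' = l := pc_unique hV _ _ g1 hl (g2.trans hw.symm)
    subst this
    rw [g3, hf]
  · rintro w hG ⟨l, hl, hw, hg⟩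
    exact ⟨mem_kstar.2 ⟨l, hl, hw⟩, ⟨fun x => Run eps x l, l, hl, fun _ => rfl, hg⟩,
      fun x => h3 _ _ _ hG ⟨l, hl, hw, rfl⟩⟩

open Classical in
/-- token map of a pair of blocks -/
noncomputable def epsP (B : Language α) (eps : List α → Ω → Ω) (w : List α) (a : Ω) : Ω :=
  if h : ∃ zz : List α × List α, zz.1 ∈ B ∧ zz.2 ∈ B ∧ zz.1 ++ zz.2 = w then
    eps h.choose.2 (eps h.choose.1 a) else a

theorem epsP_eq {B : Language α} (hB : PC B) {eps : List α → Ω → Ω} {z z' : List α} (hz : z ∈ B)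
    (hz' : z' ∈ B) (a : Ω) : epsP B eps (z ++ z') a = eps z' (eps z a) := by
  have h : ∃ zz : List α × List α, zz.1 ∈ B ∧ zz.2 ∈ B ∧ zz.1 ++ zz.2 = z ++ z' :=
    ⟨(z, z'), hz, hz', rfl⟩
  unfold epsP
  rw [dif_pos h]
  have hs := h.choose_spec
  obtain ⟨h1, h2⟩ := pc_head hB hs.1 hz hs.2.2
  rw [h1, h2]

theorem PC.mul {B : Language α} (hB : PC B) : PC (B * B) := by
  constructor
  · intro h
    obtain ⟨z, hz, z', hz', he⟩ := Language.mem_mul.1 h
    exact hB.ne ((List.append_eq_nil_iff.1 he).1 ▸ hz)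
  · rintro z hz z' hz' ⟨t, ht⟩
    obtain ⟨z1, h1, z2, h2, rfl⟩ := Language.mem_mul.1 hz
    obtain ⟨y1, g1, y2, g2, rfl⟩ := Language.mem_mul.1 hz'
    have h3 : z1 ++ (z2 ++ t) = y1 ++ y2 := by simpa using ht
    obtain ⟨rfl, h4⟩ := pc_head hB h1 g1 h3
    rw [hB.pc z2 h2 y2 g2 ⟨t, h4⟩]

theorem pair_fwd {B : Language α} (hB : PC B) {eps : List α → Ω → Ω} :
    ∀ (n : ℕ) (l : List (List α)), l.length ≤ n → (∀ z ∈ l, z ∈ B) → ∀ x,
      Path (B * B) (epsP B eps) x l.flatten (Run eps x l) ∨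
      ∃ w1 z x1, Path (B * B) (epsP B eps) x w1 x1 ∧ z ∈ B ∧ l.flatten = w1 ++ z ∧
        eps z x1 = Run eps x l := by
  intro n
  induction n with
  | zero =>
    intro l hl _ x
    have : l = [] := List.length_eq_zero_iff.1 (Nat.le_zero.1 hl)
    subst this
    exact Or.inl (Path.nil _ _ _)
  | succ n ih =>
    intro l hl hz x
    match l, hl, hz with
    | [], _, _ => exact Or.inl (Path.nil _ _ _)
    | [z], _, hz => exact Or.inr ⟨[], z, x, Path.nil _ _ _, hz z (by simp), by simp, rfl⟩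
    | z :: z' :: l, hl, hz =>
      have h1 : z ∈ B := hz z (by simp)
      have h2 : z' ∈ B := hz z' (by simp)
      have h3 : z ++ z' ∈ B * B := Language.mem_mul.2 ⟨z, h1, z', h2, rfl⟩
      have hl' : l.length ≤ n := by
        simp only [List.length_cons] at hl
        omega
      rcases ih l hl' (fun t ht => hz t (by simp [ht])) (eps z' (eps z x)) with h | h
      · left
        have := Path.cons (eps := epsP B eps) (x := x) h3 (by
          rw [epsP_eq hB h1 h2]
          exact h)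
        simpa [Run_cons] using this
      · right
        obtain ⟨w1, t, x1, g1, g2, g3, g4⟩ := h
        refine ⟨(z ++ z') ++ w1, t, x1, ?_, g2, by simp [g3], by rw [g4]; rfl⟩
        exact Path.cons h3 (by rw [epsP_eq hB h1 h2]; exact g1)

theorem pair_bwd {B : Language α} (hB : PC B) {eps : List α → Ω → Ω} {x y : Ω} {w : List α}
    (h : Path (B * B) (epsP B eps) x w y) : Path B eps x w y := by
  obtain ⟨l, h1, h2, h3⟩ := h
  induction l generalizing x w with
  | nil =>
    subst h2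
    subst h3
    exact Path.nil _ _ _
  | cons t l ih =>
    subst h2
    obtain ⟨z, hz, z', hz', rfl⟩ := Language.mem_mul.1 (h1 t (by simp))
    rw [Run_cons, epsP_eq hB hz hz'] at h3
    have := ih (fun t ht => h1 t (by simp [ht])) rfl h3
    have h5 := Path.cons hz (Path.cons hz' this)
    simpa using h5

/-- single bad blocks leading from `x` to `y` -/
def One (B : Language α) (eps : List α → Ω → Ω) (x y : Ω) : Language α :=
  {z | z ∈ B ∧ eps z x = y}

/-- words of the class without a prefix in `U`, with product `c` -/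
def RestG {M : Type*} [Monoid M] (φ : α → M) (G : List α → Prop) (U : Language α) (c : M) :
    Language α :=
  {r | G r ∧ (∀ z ∈ U, ¬ z <+: r) ∧ (r.map φ).prod = c}

theorem Btw.pair [Finite Ω] {G : List α → Prop} (hG : FC G) {B : Language α} (hB : PC B)
    {eps : List α → Ω → Ω}
    (h : ∀ x y, Btw G k (fun w => Path (B * B) (epsP B eps) x w y))
    (hf : ∀ x y, HL k (One B eps x y)) (x y : Ω) :
    Btw G k (fun w => Path B eps x w y) := by
  choose Y h1 h2 h3 using h
  refine ⟨({w | w ∈ Y x y ∨ ∃ x1, w ∈ (Y x x1 * One B eps x1 y : Language α)} : Language α),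
    ?_, ?_, ?_⟩
  · exact (h1 x y).setOf_or (HL.exists' fun x1 => (h1 x x1).mul (hf x1 y))
  · rintro w (hw | ⟨x1, hw⟩)
    · exact pair_bwd hB (h2 _ _ _ hw)
    · obtain ⟨w1, hw1, z, ⟨hz, rfl⟩, rfl⟩ := Language.mem_mul.1 hw
      refine (pair_bwd hB (h2 _ _ _ hw1)).append ?_
      have := Path.cons (eps := eps) (x := x1) hz (Path.nil B eps (eps z x1))
      simpa using this
  · rintro w hg ⟨l, g1, g2, g3⟩
    subst g2
    subst g3
    rcases pair_fwd hB l.length l le_rfl g1 x with h | ⟨w1, z, x1, g1, g2, g3, g4⟩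
    · exact Or.inl (h3 _ _ _ hg h)
    · refine Or.inr ⟨x1, ?_⟩
      rw [g3] at hg ⊢
      exact Language.mem_mul.2 ⟨w1, h3 _ _ _ (hG.left _ _ hg) g1, z, ⟨g2, g4⟩, rfl⟩

/-- **two nested levels relative to a class**, inner scheme on pairs of bad blocks -/
theorem two_levels {Ω₁ Ω₂ : Type*} [Finite Ω₁] [Finite Ω₂] {M : Type*} [Monoid M] [Finite M]
    (φ : α → M) {G : List α → Prop} (hG : FC G) (hGk : HL (k + 2) ({w | G w} : Language α))
    {U B : Language α} (hU : PC U) (hBU : ∀ z ∈ B, z ∈ U)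
    {eps₁ : List α → Ω₁ → Ω₁} {P₁ R₁ : Ω₁ → Language α} (S1 : Snd U eps₁ P₁ R₁)
    (C1 : Cpl G U B eps₁ P₁ R₁)
    {eps₂ : List α → Ω₂ → Ω₂} {P₂ R₂ : Ω₂ → Language α} (S2 : Snd (B * B) (epsP B eps₂) P₂ R₂)
    (C2 : Cpl G (B * B) 0 (epsP B eps₂) P₂ R₂)
    (dec₁ : ∀ l l', (∀ z ∈ l, z ∈ U) → (∀ z ∈ l', z ∈ U) →
      (∀ x, Run eps₁ x l = Run eps₁ x l') →
        (l.flatten.map φ).prod = (l'.flatten.map φ).prod)
    (dec₂ : ∀ l l', (∀ z ∈ l, z ∈ B) → (∀ z ∈ l', z ∈ B) →
      (∀ x, Run eps₂ x l = Run eps₂ x l') → ∀ x, Run eps₁ x l = Run eps₁ x l')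
    (hHU : HL k U) (hHB : HL k B) (hP₁ : ∀ x, HL k (P₁ x)) (hR₁ : ∀ x, HL k (R₁ x))
    (hP₂ : ∀ x, HL k (P₂ x)) (hR₂ : ∀ x, HL k (R₂ x))
    (hf : ∀ x y, HL k (One B eps₂ x y)) (hrest : ∀ m, HL k (RestG φ G U m))
    (m : M) :
    HL (k + 2) ({w | G w ∧ (w.map φ).prod = m} : Language α) := by
  classical
  have hB : PC B := ⟨fun h => hU.ne (hBU _ h),
    fun z hz z' hz' h => hU.pc z (hBU z hz) z' (hBU z' hz') h⟩
  have up : ∀ {L : Language α}, HL k L → HL (k + 1) L := fun h => h.mono (Nat.le_succ k)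
  -- scheme 2 on pairs of bad blocks
  have s0 : ∀ x y, Btw G (k + 1) (fun w => Path (B * B) (epsP B eps₂) x w y) := by
    intro x y
    refine Btw.path hG (PC.mul hB) (B := 0) (fun z hz => absurd hz (Language.notMem_zero z)) S2 C2
      ?_ (hHB.mul hHB) hP₂ hR₂ x y
    intro x y
    refine ⟨({w | x = y ∧ w = []} : Language α),
      (HL.const (k := k) (x = y)).setOf_and ((HL.one (α := α) (k := k))), ?_, ?_⟩
    · rintro w ⟨rfl, rfl⟩
      exact Path.nil _ _ _
    · rintro w _ ⟨l, h1, h2, h3⟩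
      cases l with
      | nil => exact ⟨h3, h2.symm⟩
      | cons z l => exact absurd (h1 z (by simp)) (Language.notMem_zero z)
  have s1 : ∀ x y, Btw G (k + 1) (fun w => Path B eps₂ x w y) := fun x y =>
    Btw.pair hG hB s0 (fun x y => up (hf x y)) x y
  -- threads of scheme 1 on bad blocks
  have s2 : ∀ x y, Btw G (k + 1) (fun w => Path B eps₁ x w y) := by
    intro x y
    exact Btw.decode hB (fun l => Run eps₁ x l)
      (fun l l' hl hl' h => dec₂ l l' hl hl' h x) hHB.star s1 y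
  have s3 : ∀ x y, Btw G (k + 1 + 1) (fun w => Path U eps₁ x w y) := fun x y =>
    Btw.path hG hU hBU S1 C1 s2 (up hHU) (fun x => up (hP₁ x)) (fun x => up (hR₁ x)) x y
  have s4 : ∀ c : M, Btw G (k + 2) (fun w => ∃ l : List (List α), (∀ z ∈ l, z ∈ U) ∧
      l.flatten = w ∧ (l.flatten.map φ).prod = c) := fun c =>
    Btw.decode hU (fun l : List (List α) => (l.flatten.map φ).prod) dec₁
      (hHU.star.mono (Nat.le_succ _)) s3 c
  choose Z z1 z2 z3 using s4
  have s5 : HL (k + 2) ({w | G w ∧ ∃ ab : {ab : M × M // ab.1 * ab.2 = m}, w ∈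
      Z ab.1.1 * RestG φ G U ab.1.2} : Language α) :=
    hGk.setOf_and (HL.exists' fun ab => (z1 ab.1.1).mul ((hrest ab.1.2).mono (by omega)))
  refine s5.congr fun w => Iff.symm ?_
  constructor
  · intro hh
    obtain ⟨hg, ab, h⟩ := hh
    obtain ⟨x, hx, r, h45, h6⟩ := Language.mem_mul.1 h
    obtain ⟨_, h4, h5⟩ := h45
    obtain ⟨l, g1, g2, g3⟩ := z2 _ _ hx
    refine ⟨hg, ?_⟩
    rw [← h6, List.map_append, List.prod_append, h5, ← g2, g3]
    exact ab.2
  · rintro ⟨hg, hw⟩
    have key : ∀ n (w : List α), w.length ≤ n → ∃ (l : List (List α)) (r : List α),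
        (∀ z ∈ l, z ∈ U) ∧ (∀ z ∈ U, ¬ z <+: r) ∧ l.flatten ++ r = w := by
      intro n
      induction n with
      | zero =>
        intro w hn
        have : w = [] := List.length_eq_zero_iff.1 (Nat.le_zero.1 hn)
        subst this
        refine ⟨[], [], by simp, ?_, rfl⟩
        intro z hz h
        have : z = [] := List.prefix_nil.1 h
        exact hU.ne (this ▸ hz)
      | succ n ih =>
        intro w hn
        by_cases h : ∃ z ∈ U, z <+: w
        · obtain ⟨z, hz, w', rfl⟩ := h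
          have hz0 : z ≠ [] := fun h => hU.ne (h ▸ hz)
          have hzl : 0 < z.length := List.length_pos_iff.2 hz0
          obtain ⟨l, r, h1, h2, h3⟩ := ih w' (by rw [List.length_append] at hn; omega)
          refine ⟨z :: l, r, ?_, h2, by simp [h3]⟩
          intro t ht
          rcases List.mem_cons.1 ht with rfl | ht
          · exact hz
          · exact h1 t ht
        · push Not at h
          exact ⟨[], w, by simp, h, by simp⟩
    obtain ⟨l, r, h1, h2, h3⟩ := key w.length w le_rfl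
    subst h3
    have hm : (l.flatten.map φ).prod * (r.map φ).prod = m := by
      rw [← hw, List.map_append, List.prod_append]
    exact ⟨hg, ⟨((l.flatten.map φ).prod, (r.map φ).prod), hm⟩, Language.mem_mul.2 ⟨l.flatten,
      z3 _ _ (hG.left _ _ hg) ⟨l, h1, rfl, rfl⟩, r, ⟨hG.right _ _ hg, h2, rfl⟩, rfl⟩⟩

end Crest.Agent.R320.Half1_261
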