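import Crest.Agent.R320.Nest_85
import Crest.Agent.R320.Zone_716

/-!
# Row 320, HALF 1: the two-scheme assembly (118 #13043 over 85's nest and 716's zone automaton)

One zone automaton `Z : ZData α V`, one run, two cut systems.  Scheme 1 (outer) is exact on all texts
of the class `C`, scheme 2 (inner) only on bad zones; scheme 1 cuts every token in every zone which is
not bad, scheme 2 in every bad zone.  Then every predicate of the run is of height 2 on `C`.
-/

set_option autoImplicit false

namespace Crest.Agent.R320.Half1_291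

open Crest.RegLang Crest.Agent.R320.Hgt1_903
open Crest.Agent.R320

variable {α V : Type*}

/-- A cut system on zone texts: `LL r v` = the place `r.length` behind the anchor is left-legal for the
value `v`; `R Q` = the right word is legal; it says: next anchor `b Q` letters to the right, value `c Q`. -/
structure Sch (α V : Type*) where
  LL : List α → V → Prop
  R : List α → Prop
  D : ℕ
  hD : 0 < D
  hR : ∀ Q, R Q → Q.length = D
  b : List α → ℕ
  c : List α → V

/-- a legal cut of the token `v` in the zone text `X` (at least `n` letters behind the anchor) -/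
def Sch.Cuts (S : Sch α V) (Z : Zone_716.ZData α V) (n : ℕ) (X : List α) (v : V) : Prop :=
  ∃ r Q t, r ++ (Q ++ t) = X ∧ Z.nxt r = none ∧ n ≤ r.length ∧ S.LL r v ∧ S.R Q

/-- the level of 85's nest -/
noncomputable def lvl (Z : Zone_716.ZData α V) (S : Sch α V) : Nest_85.Level α (List α × V) where
  Lg q := S.LL q.1 q.2
  R := {Q | S.R Q}
  c Q := Zone_716.run Z (S.c Q) (Q.drop (S.b Q))

variable (Z : Zone_716.ZData α V)

/-- start states -/
def St (q : List α × V) : Prop := Z.nxt q.1 = none

theorem run_eq (q : List α × V) (hq : St Z q) (w : List α) :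
    Nest_85.run (Zone_716.dl Z) q w = Zone_716.run Z q.2 (q.1 ++ w) := by
  obtain ⟨r, v⟩ := q
  exact Zone_716.foldl_dl Z w r v hq

theorem St_run (q : List α × V) (hq : St Z q) (w : List α) :
    St Z (Nest_85.run (Zone_716.dl Z) q w) := by
  rw [run_eq Z q hq]
  exact Zone_716.nxt_run Z _ _

/-- a cut of the zone text of the current anchor, to the right of the current place, is a cut of the run -/
theorem cut_of_cuts (S : Sch α V) (n : ℕ) (q : List α × V) (hq : St Z q) (w : List α)
    (hlen : ∀ r v, S.LL r v → q.1.length ≤ r.length)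
    (h : S.Cuts Z n (q.1 ++ w) q.2) : Nest_85.Cut (Zone_716.dl Z) (lvl Z S) q w := by
  obtain ⟨r, Q, t, e, hn, -, hL, hR⟩ := h
  have hle : q.1.length ≤ r.length := hlen r q.2 hL
  obtain ⟨p, hp⟩ : ∃ p, r = q.1 ++ p := by
    have h1 : q.1 <+: q.1 ++ w := List.prefix_append _ _
    have h2 : r <+: q.1 ++ w := ⟨Q ++ t, e⟩
    obtain ⟨p, hp⟩ := List.prefix_of_prefix_length_le h1 h2 hle
    exact ⟨p, hp.symm⟩
  subst hp
  refine ⟨p, Q, t, ?_, hR, ?_⟩
  · have e' : q.1 ++ (p ++ (Q ++ t)) = q.1 ++ w := by rw [← e]; simp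
    have := List.append_cancel_left e'
    rw [← this]; simp
  · change S.LL (Nest_85.run (Zone_716.dl Z) q p).1 (Nest_85.run (Zone_716.dl Z) q p).2
    rw [run_eq Z q hq, Zone_716.run_none Z hn]
    exact hL

/-- a cut in the next zone is a cut of the run -/
theorem cut_of_cuts_next (S : Sch α V) (n : ℕ)
    (hvis : ∀ X b m, Z.nxt X = some b → b + n ≤ m → Z.nxt (X.take m) = some b)
    (q : List α × V) (hq : St Z q) (w : List α) (b : ℕ) (hb : Z.nxt (q.1 ++ w) = some b)
    (h : S.Cuts Z n ((q.1 ++ w).drop b) (Z.stp q.2 (q.1 ++ w))) :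
    Nest_85.Cut (Zone_716.dl Z) (lvl Z S) q w := by
  obtain ⟨r, Q, t, e, hn, hlen, hL, hR⟩ := h
  -- the anchor is visible at the cut place
  have hbn : q.1.length < b + n := by
    by_contra hc
    push Not at hc
    have h1 := hvis _ _ q.1.length hb hc
    rw [List.take_left' rfl] at h1
    rw [St] at hq
    rw [hq] at h1
    cases h1
  have hble : b ≤ (q.1 ++ w).length := Z.le _ _ hb
  have hX : q.1 ++ w = (q.1 ++ w).take b ++ (r ++ (Q ++ t)) := by
    rw [e]; exact (List.take_append_drop b _).symm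
  set Y := (q.1 ++ w).take b with hY
  have hYl : Y.length = b := by rw [hY, List.length_take]; omega
  have hle : q.1.length ≤ (Y ++ r).length := by rw [List.length_append, hYl]; omega
  obtain ⟨p, hp⟩ : ∃ p, Y ++ r = q.1 ++ p := by
    have h1 : q.1 <+: q.1 ++ w := List.prefix_append _ _
    have h2 : Y ++ r <+: q.1 ++ w := ⟨Q ++ t, by rw [hX]; simp⟩
    obtain ⟨p, hp⟩ := List.prefix_of_prefix_length_le h1 h2 hle
    exact ⟨p, hp.symm⟩
  have hw : w = p ++ (Q ++ t) := by
    have : q.1 ++ w = q.1 ++ (p ++ (Q ++ t)) := by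
      rw [hX, ← List.append_assoc, hp, List.append_assoc]
    exact List.append_cancel_left this
  have htake : (q.1 ++ w).take (b + r.length) = Y ++ r := by
    rw [hX, ← List.append_assoc]
    exact List.take_left' (by rw [List.length_append, hYl])
  have hb' : Z.nxt (Y ++ r) = some b := by
    have := hvis _ _ (b + r.length) hb (by omega)
    rwa [htake] at this
  have hst : Z.stp q.2 (Y ++ r) = Z.stp q.2 (q.1 ++ w) := by
    have := Z.stp_mono q.2 (Y ++ r) (Q ++ t) b hb'
    rw [← this, hX]
    congr 1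
    simp
  refine ⟨p, Q, t, by rw [hw]; simp, hR, ?_⟩
  change S.LL (Nest_85.run (Zone_716.dl Z) q p).1 (Nest_85.run (Zone_716.dl Z) q p).2
  have hrun : Zone_716.run Z q.2 (q.1 ++ p) = (r, Z.stp q.2 (q.1 ++ w)) := by
    rw [← hp, Zone_716.run_some Z hb', hst, List.drop_left' hYl, Zone_716.run_none Z hn]
  rw [run_eq Z q hq, hrun]
  exact hL

/-- **HALF 1, abstract form.** -/
theorem two_scheme [Finite α] (C : List α → Prop) (hC : ∀ X Y : List α, Y <:+: X → C X → C Y)
    (B n L0 p0 : ℕ)
    (hB : ∀ X, C X → B < X.length → Z.nxt X ≠ none)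
    (hvis : ∀ X b m, Z.nxt X = some b → b + n ≤ m → Z.nxt (X.take m) = some b)
    (S1 S2 : Sch α V) (Bad : List α → Prop)
    (ex1 : ∀ r v Q, Z.nxt r = none → C (r ++ Q) → S1.LL r v → S1.R Q →
      Z.nxt (r ++ Q) = some (r.length + S1.b Q) ∧ Z.stp v (r ++ Q) = S1.c Q)
    (ex2 : ∀ r v Q, Z.nxt r = none → C (r ++ Q) → S2.LL r v → S2.R Q → Bad (r ++ Q) →
      Z.nxt (r ++ Q) = some (r.length + S2.b Q) ∧ Z.stp v (r ++ Q) = S2.c Q)
    (cp1 : ∀ X v, C X → L0 ≤ X.length → ¬ Bad X → S1.Cuts Z n X v)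
    (cp2 : ∀ X v, C X → L0 ≤ X.length → Bad X → S2.Cuts Z n X v)
    (h1 : ∀ r v, S1.LL r v → p0 ≤ r.length) (h2 : ∀ r v, S2.LL r v → r.length ≤ p0)
    (hL0 : L0 ≤ S2.D) (v : V) (T : List α × V → Prop) :
    ∃ E : Language α, H 2 E ∧ ∀ w, C w → (w ∈ E ↔ T (Zone_716.run Z v w)) := by
  classical
  set Prom : List α × V → List α → Prop := fun q w => C (q.1 ++ w) with hProm
  have pre : ∀ q u w, Prom q (u ++ w) → Prom q u := by
    intro q u w h
    refine hC _ _ ?_ h
    refine List.IsPrefix.isInfix ⟨w, ?_⟩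
    simp
  -- exactness of a level gives the reset
  have reset : ∀ (S : Sch α V) (r : List α) (v : V) (Q : List α), Z.nxt r = none →
      (Z.nxt (r ++ Q) = some (r.length + S.b Q) ∧ Z.stp v (r ++ Q) = S.c Q) →
      Nest_85.run (Zone_716.dl Z) (r, v) Q = (lvl Z S).c Q := by
    intro S r v Q hr h
    exact Zone_716.cut Z r Q v (S.c Q) (S.b Q) hr h.1 h.2
  -- the promise after a reset
  have promReset : ∀ (S : Sch α V) (q : List α × V) (p s u : List α), Prom q (p ++ s ++ u) →
      Prom ((lvl Z S).c s) u := by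
    intro S q p s u h
    have hs : ((lvl Z S).c s).1 <:+ s.drop (S.b s) := Zone_716.run_suffix Z _ _
    have hs' : ((lvl Z S).c s).1 <:+ s := hs.trans (List.drop_suffix _ _)
    obtain ⟨x, hx⟩ := hs'
    refine hC _ _ ?_ h
    refine ⟨q.1 ++ p ++ x, [], ?_⟩
    have : s = x ++ ((lvl Z S).c s).1 := hx.symm
    calc q.1 ++ p ++ x ++ (((lvl Z S).c s).1 ++ u) ++ []
        = q.1 ++ (p ++ (x ++ ((lvl Z S).c s).1) ++ u) := by simp
      _ = q.1 ++ (p ++ s ++ u) := by rw [← this]
  have Sne : ∀ (S : Sch α V), ∀ s ∈ (lvl Z S).R, s ≠ [] := by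
    intro S s hs h
    have := S.hR s hs
    rw [h] at this
    have h0 := S.hD
    simp at this
    omega
  have Sfin : ∀ (S : Sch α V), (lvl Z S).R.Finite := by
    intro S
    exact (List.finite_length_eq α S.D).subset fun s hs => S.hR s hs
  have Sst : ∀ (S : Sch α V), ∀ s ∈ (lvl Z S).R, St Z ((lvl Z S).c s) := by
    intro S s _
    exact Zone_716.nxt_run Z _ _
  have Cpre : ∀ (q : List α × V) (p s u : List α), St Z q → Prom q (p ++ s ++ u) →
      C ((Nest_85.run (Zone_716.dl Z) q p).1 ++ s) := by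
    intro q p s u hq h
    rw [run_eq Z q hq]
    obtain ⟨x, hx⟩ := Zone_716.run_suffix Z q.2 (q.1 ++ p)
    refine hC _ _ ?_ h
    refine ⟨x, u, ?_⟩
    calc x ++ ((Zone_716.run Z q.2 (q.1 ++ p)).1 ++ s) ++ u
        = (x ++ (Zone_716.run Z q.2 (q.1 ++ p)).1) ++ (s ++ u) := by simp
      _ = q.1 ++ (p ++ s ++ u) := by rw [hx]; simp
  -- level 1
  have ok1 : (lvl Z S1).Ok (Zone_716.dl Z) (St Z) Prom := by
    refine ⟨Sfin S1, Sne S1, Sst S1, ?_⟩
    intro q hq p s u hp hs hl
    refine ⟨?_, promReset S1 q p s u hp⟩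
    exact reset S1 _ _ s (St_run Z q hq p)
      (ex1 _ _ s (St_run Z q hq p) (Cpre q p s u hq hp) hl hs)
  -- level 2
  set Prom' : List α × V → List α → Prop := fun q w =>
    Prom q w ∧ ¬ Nest_85.Cut (Zone_716.dl Z) (lvl Z S1) q w with hProm'
  have pre' : ∀ q u w, Prom' q (u ++ w) → Prom' q u := by
    intro q u w h
    exact ⟨pre q u w h.1, fun hc => h.2 hc.append⟩
  have ok2 : (lvl Z S2).Ok (Zone_716.dl Z) (St Z) Prom' := by
    refine ⟨Sfin S2, Sne S2, Sst S2, ?_⟩
    intro q hq p s u hp hs hl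
    have hst := St_run Z q hq p
    have hbad : Bad ((Nest_85.run (Zone_716.dl Z) q p).1 ++ s) := by
      by_contra hnb
      have hc := cp1 _ (Nest_85.run (Zone_716.dl Z) q p).2 (Cpre q p s u hq hp.1)
        (by have := S2.hR s hs; rw [List.length_append]; omega) hnb
      have hc' := cut_of_cuts Z S1 n (Nest_85.run (Zone_716.dl Z) q p) hst s
        (fun r v' hr => (h2 _ _ hl).trans (h1 _ _ hr)) hc
      have := (hc'.append (v := u)).prepend
      rw [← List.append_assoc] at this
      exact hp.2 this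
    have hres := reset S2 _ _ s hst (ex2 _ _ s hst (Cpre q p s u hq hp.1) hl hs hbad)
    refine ⟨hres, promReset S2 q p s u hp.1, fun hc => hp.2 ?_⟩
    rw [← hres, ← Nest_85.run_append] at hc
    exact hc.prepend
  have base := Nest_85.nestBounded (Zone_716.dl Z) (St Z) [lvl Z S2] Prom' pre'
    (by intro L hL; rw [List.mem_singleton] at hL; subst hL; exact ok2)
    (B + 1 + L0 + 1)
    (by
      intro q hq w hp hno
      by_contra hlen
      push Not at hlen
      have hCX : C (q.1 ++ w) := hp.1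
      have hBX : B < (q.1 ++ w).length := by rw [List.length_append]; omega
      -- the next anchor is at most at B + 1
      have hCt : C ((q.1 ++ w).take (B + 1)) := hC _ _ (List.take_prefix _ _).isInfix hCX
      have hBt : B < ((q.1 ++ w).take (B + 1)).length := by rw [List.length_take]; omega
      obtain ⟨b, hb⟩ := Option.ne_none_iff_exists'.1 (hB _ hCt hBt)
      have hb1 : b ≤ B + 1 := by
        have := Z.le _ _ hb
        rw [List.length_take] at this
        omega
      have hbX : Z.nxt (q.1 ++ w) = some b := by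
        have := Z.mono _ ((q.1 ++ w).drop (B + 1)) b hb
        rwa [List.take_append_drop] at this
      have hCd : C ((q.1 ++ w).drop b) := hC _ _ (List.drop_suffix _ _).isInfix hCX
      have hLd : L0 ≤ ((q.1 ++ w).drop b).length := by
        rw [List.length_drop, List.length_append]; omega
      by_cases hbad : Bad ((q.1 ++ w).drop b)
      · exact hno (lvl Z S2) (List.mem_singleton.2 rfl)
          (cut_of_cuts_next Z S2 n hvis q hq w b hbX (cp2 _ _ hCd hLd hbad))
      · exact hp.2 (cut_of_cuts_next Z S1 n hvis q hq w b hbX (cp1 _ _ hCd hLd hbad)))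
  have main := Nest_85.nest (Zone_716.dl Z) (St Z) Prom pre (lvl Z S1) ok1 1 (fun _ => True)
    trivial (by
      intro q hq T _
      obtain ⟨E, h1, h2⟩ := base q hq T
      exact ⟨E, h1, fun w hw hc => h2 w ⟨hw, hc⟩⟩)
  obtain ⟨E, hE, hE'⟩ := main ([], v) (Zone_716.nxt_nil Z) T trivial
  refine ⟨E, hE, fun w hw => ?_⟩
  rw [hE' w (by simpa [hProm] using hw), run_eq Z ([], v) (Zone_716.nxt_nil Z)]
  simp

end Crest.Agent.R320.Half1_291
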