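import Crest.Agent.R320.Lazy_296

/-!
# Row 320: assembly of two nested schemes with bounded zones (helper296)
-/

set_option autoImplicit false
set_option linter.unusedSectionVars false

namespace Crest.Agent.R320.Half1_296

open Crest.RegLang Crest.Agent.R320.Hk_851 Crest.Agent.R320.Thr_285

universe u

open scoped Classical in
/-- push-forward of a token vector -/
noncomputable def push {V : Type*} [Fintype V] (g : V → V) (x : V → ZMod 2) : V → ZMod 2 :=
  fun v' => ∑ v, if g v = v' then x v else 0

open scoped Classical in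
/-- basis vector -/
noncomputable def sg {V : Type*} (v : V) : V → ZMod 2 := fun v' => if v = v' then 1 else 0

theorem sg_inj {V : Type*} {v v' : V} (h : (sg v : V → ZMod 2) = sg v') : v = v' := by
  by_contra hne
  have h1 := congrFun h v
  unfold sg at h1
  rw [if_pos rfl, if_neg (fun h => hne h.symm)] at h1
  exact one_ne_zero h1

theorem push_add {V : Type*} [Fintype V] (g : V → V) (x y : V → ZMod 2) :
    push g (x + y) = push g x + push g y := by
  funext v'
  unfold push
  simp only [Pi.add_apply]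
  rw [← Finset.sum_add_distrib]
  refine Finset.sum_congr rfl fun v _ => ?_
  split_ifs <;> simp

theorem push_sg {V : Type*} [Fintype V] (g : V → V) (v : V) : push g (sg v) = sg (g v) := by
  classical
  funext v'
  unfold push sg
  rw [Finset.sum_eq_single v]
  · simp
  · intro b _ hb
    rw [if_neg (fun h : v = b => hb h.symm)]
    split_ifs <;> rfl
  · intro h; exact absurd (Finset.mem_univ v) h

/-- data of the two schemes -/
structure Dat (α : Type u) (V : Type*) where
  RF : List α → Prop
  Bad : List α → Prop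
  N : List α → ℕ
  g : List α → V → V
  ν2 : List α → (V → ZMod 2)
  Lg1 : List α → V → Prop
  Lg2 : List α → (V → ZMod 2) → Prop
  B1 : ℕ
  B2 : ℕ
  Nmin : ℕ
  p1 : ℕ
  p2 : ℕ
  L2 : ℕ

variable {α : Type u} {V : Type*} [Fintype V]

/-- hypotheses -/
structure Hyp (D : Dat α V) : Prop where
  hB : 0 < D.B2
  hB12 : D.B2 ≤ D.B1
  rf : ∀ x y z, D.RF (x ++ y ++ z) → D.RF y
  N0 : ∀ U : List α, U.length = D.B2 → D.Nmin ≤ D.N U ∧ 0 < D.N U ∧ D.N U ≤ D.B2
  q1 : D.B2 ≤ D.Nmin + D.p1
  q2 : D.B1 ≤ D.Nmin + D.p2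
  r1 : D.p1 < D.B2
  r2 : D.p2 < D.B1
  l1 : ∀ P v, D.Lg1 P v → D.p1 ≤ P.length ∧ P.length < D.B2
  l2 : ∀ P x, D.Lg2 P x → D.p2 ≤ P.length ∧ P.length < D.B1
  L2B : D.B1 ≤ D.L2
  /-- scheme 1 -/
  SC1 : ∀ U : List α, U.length = D.B1 → D.RF U → ¬ D.Bad U → ∀ v, ∃ P Q, U = P ++ Q ∧
    D.Lg1 P v ∧ D.B2 ≤ D.p1 + Q.length ∧ ∃ (d : ℕ) (R : V), ∀ P' v', D.Lg1 P' v' →
      D.N ((P' ++ Q).take D.B2) = P'.length + d ∧ D.g ((P' ++ Q).take D.B2) v' = R
  /-- scheme 2 -/
  SC2 : ∀ U : List α, D.L2 ≤ U.length → D.RF (U.take D.B1) → D.Bad (U.take D.B1) → ∀ x,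
    ∃ P Q, U = P ++ Q ∧ D.Lg2 P x ∧ D.B1 ≤ D.p2 + Q.length ∧ ∃ (d : ℕ) (R : V → ZMod 2),
      ∀ P' x', D.Lg2 P' x' → D.RF ((P' ++ Q).take D.B1) → D.Bad ((P' ++ Q).take D.B1) →
        D.N ((P' ++ Q).take D.B2) = P'.length + d ∧
        push (D.g ((P' ++ Q).take D.B2)) x' + D.ν2 ((P' ++ Q).take D.B1) = R

variable (D : Dat α V)

/-- next anchor -/
def Dat.M (U : List α) : ℕ := D.N (U.take D.B2)

/-- outer zone map -/
def Dat.f2 (U : List α) (v : V) : V := D.g (U.take D.B2) v

open scoped Classical in
/-- inner zone map (with failure; `true` = fresh) -/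
noncomputable def Dat.f1 (U : List α) (t : Option (Bool × (V → ZMod 2))) :
    Option (Bool × (V → ZMod 2)) :=
  match t with
  | none => none
  | some (b, x) => if b = true ∨ (D.RF U ∧ D.Bad U) then
      some (false, push (D.g (U.take D.B2)) x + D.ν2 U) else none

/-- outer run -/
def Dat.G2 (v : V) (U : List α) : List α × V := G D.B2 D.M D.f2 v U

/-- inner run -/
noncomputable def Dat.G1 (t : Option (Bool × (V → ZMod 2))) (U : List α) :
    List α × Option (Bool × (V → ZMod 2)) := G D.B1 D.M D.f1 t U

variable {D}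

theorem M_congr {U W : List α} (h : U.take D.B2 = W.take D.B2) : D.M U = D.M W :=
  congrArg D.N h

theorem M_take {U : List α} {B : ℕ} (hB : D.B2 ≤ B) : D.M (U.take B) = D.M U := by
  unfold Dat.M; rw [List.take_take, min_eq_left hB]

theorem Hyp.M0 (hD : Hyp D) {U : List α} (h : D.B2 ≤ U.length) :
    D.Nmin ≤ D.M U ∧ 0 < D.M U ∧ D.M U ≤ D.B2 :=
  hD.N0 _ (by rw [List.length_take]; omega)

theorem Hyp.M1 (hD : Hyp D) : ∀ U : List α, U.length = D.B1 → 0 < D.M U :=
  fun _ hU => (hD.M0 (hU ▸ hD.hB12)).2.1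

theorem Hyp.M2 (hD : Hyp D) : ∀ U : List α, U.length = D.B2 → 0 < D.M U :=
  fun _ hU => (hD.M0 (le_of_eq hU.symm)).2.1

theorem G2_short {v : V} {U : List α} (h : U.length < D.B2) : D.G2 v U = (U, v) := G_short h

theorem G1_short {t} {U : List α} (h : U.length < D.B1) : D.G1 t U = (U, t) := G_short h

theorem G2_long (hD : Hyp D) {v : V} {U : List α} (h : D.B2 ≤ U.length) :
    D.G2 v U = D.G2 (D.f2 U v) (U.drop (D.M U)) := by
  have h1 := hD.M0 h
  have e : D.M (U.take D.B2) = D.M U := M_take le_rfl
  unfold Dat.G2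
  rw [G_long h hD.hB (by rw [e]; exact h1.2.1) (by rw [e]; exact h1.2.2), e]
  unfold Dat.f2
  rw [List.take_take, min_self]

theorem G1_long (hD : Hyp D) {t} {U : List α} (h : D.B1 ≤ U.length) :
    D.G1 t U = D.G1 (D.f1 (U.take D.B1) t) (U.drop (D.M U)) := by
  have h1 := hD.M0 (hD.hB12.trans h)
  have e : D.M (U.take D.B1) = D.M U := M_take hD.hB12
  unfold Dat.G1
  rw [G_long h (lt_of_lt_of_le hD.hB hD.hB12) (by rw [e]; exact h1.2.1)
    (by rw [e]; exact h1.2.2.trans hD.hB12), e]

theorem f1_none (U : List α) : D.f1 U none = none := rfl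

theorem f1_some {U : List α} {b : Bool} {x : V → ZMod 2} (h : b = true ∨ (D.RF U ∧ D.Bad U)) :
    D.f1 U (some (b, x)) = some (false, push (D.g (U.take D.B2)) x + D.ν2 U) := by
  unfold Dat.f1; simp only; rw [if_pos h]

theorem f1_fail {U : List α} {b : Bool} {x : V → ZMod 2} (h : ¬ (b = true ∨ (D.RF U ∧ D.Bad U))) :
    D.f1 U (some (b, x)) = none := by
  unfold Dat.f1; simp only; rw [if_neg h]

theorem G1_none (U : List α) : (D.G1 none U).2 = none := by
  have key : ∀ (w : List α) (s : List α × Option (Bool × (V → ZMod 2))), s.2 = none →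
      (w.foldl (dl D.B1 D.M D.f1) s).2 = none := by
    intro w
    induction w with
    | nil => intro s h; exact h
    | cons c w ih =>
      intro s h
      rw [List.foldl_cons]
      apply ih
      unfold dl
      split
      · exact h
      · change D.f1 _ s.2 = none
        rw [h]; rfl
  exact key U _ rfl

/-- where a non-bad zone occurs, the outer thread has a cut -/
theorem cut_of_fail (hD : Hyp D) : ∀ (n : ℕ) (U : List α), U.length ≤ n → D.RF U →
    ∀ (v : V) (x : V → ZMod 2), (D.G1 (some (false, x)) U).2 = none →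
    ∃ X P Q v', U = X ++ P ++ Q ∧ D.G2 v (X ++ P) = (P, v') ∧ D.Lg1 P v' ∧
      D.B2 ≤ D.p1 + Q.length ∧ ∃ (d : ℕ) (R : V), ∀ P' v', D.Lg1 P' v' →
      D.N ((P' ++ Q).take D.B2) = P'.length + d ∧ D.g ((P' ++ Q).take D.B2) v' = R := by
  intro n
  induction n with
  | zero =>
    intro U hU _ v x h
    rw [G1_short (by have := hD.hB; have := hD.hB12; omega)] at h
    exact absurd h (by simp)
  | succ n ih =>
    intro U hU hrf v x h
    by_cases hs : U.length < D.B1
    · rw [G1_short hs] at h
      exact absurd h (by simp)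
    · push Not at hs
      have hrf1 : D.RF (U.take D.B1) :=
        hD.rf [] (U.take D.B1) (U.drop D.B1) (by simpa using hrf)
      have hM := hD.M0 (hD.hB12.trans hs)
      by_cases hb : D.Bad (U.take D.B1)
      · rw [G1_long hD hs, f1_some (Or.inr ⟨hrf1, hb⟩)] at h
        have hrf2 : D.RF (U.drop (D.M U)) :=
          hD.rf (U.take (D.M U)) (U.drop (D.M U)) [] (by simpa using hrf)
        obtain ⟨X, P, Q, v', e1, e2, e3, e4, e5⟩ := ih (U.drop (D.M U))
          (by rw [List.length_drop]; omega) hrf2 (D.f2 U v) _ h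
        refine ⟨U.take (D.M U) ++ X, P, Q, v', ?_, ?_, e3, e4, e5⟩
        · conv_lhs => rw [← List.take_append_drop (D.M U) U, e1]
          simp [List.append_assoc]
        · have hl : (U.take (D.M U)).length = D.M U := by
            rw [List.length_take]; have := hD.hB12; omega
          have hP := hD.l1 _ _ e3
          have hU' : U = (U.take (D.M U) ++ X ++ P) ++ Q := by
            conv_lhs => rw [← List.take_append_drop (D.M U) U, e1]
            simp [List.append_assoc]
          have hlong : D.B2 ≤ (U.take (D.M U) ++ X ++ P).length := by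
            simp only [List.length_append]
            rw [hl]
            have := hD.q1
            omega
          have ht : (U.take (D.M U) ++ X ++ P).take D.B2 = U.take D.B2 := by
            conv_rhs => rw [hU']
            rw [List.take_append_of_le_length hlong]
          have hMe : D.M (U.take (D.M U) ++ X ++ P) = D.M U := M_congr ht
          have hfe : D.f2 (U.take (D.M U) ++ X ++ P) v = D.f2 U v := by
            unfold Dat.f2; rw [ht]
          rw [G2_long hD hlong, hMe, hfe, ← e2]
          congr 1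
          rw [List.append_assoc, List.drop_left' hl]
      · obtain ⟨P, Q, e1, e2, e3, d, R, e4⟩ := hD.SC1 (U.take D.B1)
          (by rw [List.length_take]; omega) hrf1 hb v
        have hP := hD.l1 _ _ e2
        refine ⟨[], P, Q ++ U.drop D.B1, v, ?_, ?_, e2, by rw [List.length_append]; omega, d, R, ?_⟩
        · conv_lhs => rw [← List.take_append_drop D.B1 U, e1]
          simp [List.append_assoc]
        · rw [List.nil_append, G2_short hP.2]
        · intro P' v' hl
          have hP' := hD.l1 _ _ hl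
          have := e4 P' v' hl
          rw [← List.append_assoc, List.take_append_of_le_length (by
            rw [List.length_append]; omega)]
          exact this

/-- the outer automaton -/
noncomputable def A2 (hD : Hyp D) : St α V D.B2 → α → St α V D.B2 := dS D.f2 hD.M2

/-- the inner automaton -/
noncomputable def A1 (hD : Hyp D) : St α (Option (Bool × (V → ZMod 2))) D.B1 → α →
    St α (Option (Bool × (V → ZMod 2))) D.B1 := dS D.f1 hD.M1

theorem run2 (hD : Hyp D) (s : St α V D.B2) (w : List α) :
    (run (A2 hD) s w).1 = D.G2 s.1.2 (s.1.1 ++ w) := run_G hD.M2 s w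

theorem run1 (hD : Hyp D) (s : St α (Option (Bool × (V → ZMod 2))) D.B1) (w : List α) :
    (run (A1 hD) s w).1 = D.G1 s.1.2 (s.1.1 ++ w) := run_G hD.M1 s w

/-- failure states -/
def bad1 (D : Dat α V) : Set (St α (Option (Bool × (V → ZMod 2))) D.B1) := {s | s.1.2 = none}

/-- cut states -/
def C2 (D : Dat α V) : Set (St α V D.B2) := {s | D.Lg1 s.1.1 s.1.2}

/-- inner cut states -/
def C1 (D : Dat α V) : Set (St α (Option (Bool × (V → ZMod 2))) D.B1) :=
  {s | ∃ x, s.1.2 = some (false, x) ∧ D.Lg2 s.1.1 x}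

theorem absorb1 (hD : Hyp D) : Absorb (A1 hD) (bad1 D) := by
  intro s hs a
  have h := run1 hD s [a]
  change (A1 hD s a).1.2 = none
  have h2 : (run (A1 hD) s [a]) = A1 hD s a := rfl
  rw [h2] at h
  rw [h]
  have hs' : s.1.2 = none := hs
  rw [hs']
  exact G1_none _

/-- inner threads which do not fail and have no junction are short -/
theorem hc1 (hD : Hyp D) (s : St α (Option (Bool × (V → ZMod 2))) D.B1) (w : List α)
    (hnf : run (A1 hD) s w ∉ bad1 D) (hno : NoJ (A1 hD) (bad1 D) (C1 D) (D.B1 - D.p2) s w) :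
    w.length < D.L2 + D.B2 := by
  by_contra hlen
  push Not at hlen
  obtain ⟨⟨u0, t0⟩, hu0⟩ := s
  have hu0' : u0.length < D.B1 := hu0
  set U := u0 ++ w with hU
  have hUl : D.L2 + D.B2 ≤ U.length := by rw [hU, List.length_append]; omega
  have hL2B := hD.L2B
  have hnf' : (D.G1 t0 U).2 ≠ none := by
    intro h
    apply hnf
    change (run (A1 hD) _ w).1.2 = none
    rw [run1]; exact h
  have hM := hD.M0 (U := U) (by have := hD.hB12; omega)
  have hB1U : D.B1 ≤ U.length := by omega
  have e0 := G1_long hD (t := t0) hB1U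
  -- second zone
  obtain ⟨x1, hx1⟩ : ∃ x1, D.f1 (U.take D.B1) t0 = some (false, x1) := by
    rcases t0 with _ | ⟨b, x⟩
    · exact absurd (G1_none _) hnf'
    · by_cases hc : b = true ∨ (D.RF (U.take D.B1) ∧ D.Bad (U.take D.B1))
      · exact ⟨_, f1_some hc⟩
      · rw [e0, f1_fail hc] at hnf'
        exact absurd (G1_none _) hnf'
  set U' := U.drop (D.M U) with hU'
  have hU'l : D.L2 ≤ U'.length := by rw [hU', List.length_drop]; omega
  rw [e0, hx1] at hnf'
  have hB1U' : D.B1 ≤ U'.length := by omega
  have hcond : D.RF (U'.take D.B1) ∧ D.Bad (U'.take D.B1) := by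
    by_contra hc
    rw [G1_long hD hB1U', f1_fail (by simpa using hc)] at hnf'
    exact hnf' (G1_none _)
  obtain ⟨P, Q, e1, e2, e3, d, R, e4⟩ := hD.SC2 U' hU'l hcond.1 hcond.2 x1
  have hP := hD.l2 _ _ e2
  -- the junction
  have hMl : (U.take (D.M U)).length = D.M U := by rw [List.length_take]; omega
  have hUeq : U = U.take (D.M U) ++ P ++ Q := by
    conv_lhs => rw [← List.take_append_drop (D.M U) U, ← hU', e1]
    simp [List.append_assoc]
  have hXP : D.B1 ≤ (U.take (D.M U) ++ P).length := by
    rw [List.length_append, hMl]; have := hD.q2; omega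
  have hw : w = ((U.take (D.M U) ++ P).drop u0.length) ++ Q := by
    have h1 : w = U.drop u0.length := by rw [hU]; simp
    rw [h1]
    conv_lhs => rw [hUeq]
    rw [List.drop_append_of_le_length (by omega)]
  set x0 := (U.take (D.M U) ++ P).drop u0.length with hx0
  have hux : u0 ++ x0 = U.take (D.M U) ++ P := by
    have h1 : (U.take (D.M U) ++ P).take u0.length = u0 := by
      have h2 : (U.take (D.M U) ++ P ++ Q).take u0.length = u0 := by
        rw [← hUeq]; simp [hU]
      rwa [List.take_append_of_le_length (by omega)] at h2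
    calc u0 ++ x0 = (U.take (D.M U) ++ P).take u0.length ++
          (U.take (D.M U) ++ P).drop u0.length := by rw [h1]
      _ = U.take (D.M U) ++ P := List.take_append_drop _ _
  -- state at the junction
  have hst : D.G1 t0 (U.take (D.M U) ++ P) = (P, some (false, x1)) := by
    have ht : (U.take (D.M U) ++ P).take D.B1 = U.take D.B1 := by
      conv_rhs => rw [hUeq]
      rw [List.take_append_of_le_length hXP]
    have hMe : D.M (U.take (D.M U) ++ P) = D.M U := by
      have : (U.take (D.M U) ++ P).take D.B2 = U.take D.B2 := by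
        conv_rhs => rw [hUeq]
        rw [List.take_append_of_le_length (hD.hB12.trans hXP)]
      exact M_congr this
    rw [G1_long hD hXP, hMe, ht, hx1, List.drop_left' hMl, G1_short hP.2]
  have hst1 : (run (A1 hD) ⟨(u0, t0), hu0⟩ x0).1 = (P, some (false, x1)) := by
    rw [run1]
    change D.G1 t0 (u0 ++ x0) = _
    rw [hux, hst]
  -- sync
  have hn1 : D.B1 ≤ D.p2 + (Q.take (D.B1 - D.p2)).length := by
    rw [List.length_take]; have := hD.r2; omega
  have hQl : (Q.take (D.B1 - D.p2)).length = D.B1 - D.p2 := by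
    rw [List.length_take]; have := hD.r2; omega
  set q := Q.take (D.B1 - D.p2) with hq
  have hread : ∀ (P' : List α) (x' : V → ZMod 2), D.Lg2 P' x' →
      (D.RF ((P' ++ q).take D.B1) ∧ D.Bad ((P' ++ q).take D.B1)) →
      D.G1 (some (false, x')) (P' ++ q) = D.G1 (some (false, R)) (q.drop d) := by
    intro P' x' hl hc
    have hP' := hD.l2 _ _ hl
    have hlen' : D.B1 ≤ (P' ++ q).length := by rw [List.length_append]; omega
    have ht1 : (P' ++ Q).take D.B1 = (P' ++ q).take D.B1 := by
      conv_lhs => rw [← List.take_append_drop (D.B1 - D.p2) Q, ← hq, ← List.append_assoc]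
      rw [List.take_append_of_le_length hlen']
    have ht2 : (P' ++ Q).take D.B2 = (P' ++ q).take D.B2 := by
      conv_lhs => rw [← List.take_append_drop (D.B1 - D.p2) Q, ← hq, ← List.append_assoc]
      rw [List.take_append_of_le_length (hD.hB12.trans hlen')]
    have h5 := e4 P' x' hl (by rw [ht1]; exact hc.1) (by rw [ht1]; exact hc.2)
    rw [ht1, ht2] at h5
    have hM' : D.M (P' ++ q) = P'.length + d := h5.1
    have hf' : D.f1 ((P' ++ q).take D.B1) (some (false, x')) = some (false, R) := by
      rw [f1_some (Or.inr hc), ← h5.2, List.take_take, min_eq_left hD.hB12]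
    rw [G1_long hD hlen', hM', hf']
    congr 1
    simp [List.drop_append]
  have hcq : D.RF ((P ++ q).take D.B1) ∧ D.Bad ((P ++ q).take D.B1) := by
    have hlen' : D.B1 ≤ (P ++ q).length := by rw [List.length_append]; omega
    have ht1 : (P ++ Q).take D.B1 = (P ++ q).take D.B1 := by
      conv_lhs => rw [← List.take_append_drop (D.B1 - D.p2) Q, ← hq, ← List.append_assoc]
      rw [List.take_append_of_le_length hlen']
    rw [← ht1, ← e1]
    exact hcond
  refine hno x0 q (Q.drop (D.B1 - D.p2)) (run (A1 hD) ⟨(u0, t0), hu0⟩ (x0 ++ q)) ?_ hQl ?_ rfl ?_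
  · rw [hw, hq, List.append_assoc, List.take_append_drop]
  · exact ⟨x1, by rw [hst1], by rw [hst1]; exact e2⟩
  · rintro c ⟨x', hc1, hc2⟩
    have htarget : run (A1 hD) ⟨(u0, t0), hu0⟩ (x0 ++ q) = run (A1 hD) (run (A1 hD) ⟨(u0, t0), hu0⟩ x0) q := by
      rw [run_append]
    have h7 : (run (A1 hD) ⟨(u0, t0), hu0⟩ (x0 ++ q)).1 = D.G1 (some (false, R)) (q.drop d) := by
      rw [htarget, run1, hst1]
      exact hread P x1 e2 hcq
    by_cases hc : D.RF ((c.1.1 ++ q).take D.B1) ∧ D.Bad ((c.1.1 ++ q).take D.B1)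
    · left
      apply Subtype.ext
      rw [h7, run1, hc1]
      exact hread _ _ hc2 hc
    · right
      change (run (A1 hD) c q).1.2 = none
      have hP' := hD.l2 _ _ hc2
      rw [run1, hc1, G1_long hD (by rw [List.length_append]; omega),
        f1_fail (by simpa using hc)]
      exact G1_none _

/-- the outer thread without junction: the inner threads do not fail -/
theorem hc2 (hD : Hyp D) (s : St α V D.B2) (w : List α) (hrf : D.RF (s.1.1 ++ w))
    (hno : NoJ (A2 hD) ∅ (C2 D) (D.B2 - D.p1) s w) (x : V → ZMod 2)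
    (hs : s.1.1.length < D.B1) :
    run (A1 hD) ⟨(s.1.1, some (true, x)), hs⟩ w ∉ bad1 D := by
  intro hbad
  obtain ⟨⟨u0, v0⟩, hu0⟩ := s
  have hu0' : u0.length < D.B2 := hu0
  have hbad' : (D.G1 (some (true, x)) (u0 ++ w)).2 = none := by
    have h1 : (run (A1 hD) ⟨(u0, some (true, x)), hs⟩ w).1.2 = none := hbad
    rw [run1] at h1; exact h1
  set U := u0 ++ w with hU
  have hrf' : D.RF U := hrf
  by_cases hsm : U.length < D.B1
  · rw [G1_short hsm] at hbad'
    exact absurd hbad' (by simp)
  push Not at hsm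
  rw [G1_long hD hsm, f1_some (Or.inl rfl)] at hbad'
  have hM := hD.M0 (hD.hB12.trans hsm)
  have hB12 := hD.hB12
  have hrf2 : D.RF (U.drop (D.M U)) :=
    hD.rf (U.take (D.M U)) (U.drop (D.M U)) [] (by simpa using hrf')
  obtain ⟨X, P, Q, v', e1, e2, e3, e4, d, R, e5⟩ := cut_of_fail hD _ (U.drop (D.M U)) le_rfl hrf2
    (D.f2 U v0) _ hbad'
  have hP := hD.l1 _ _ e3
  have hMl : (U.take (D.M U)).length = D.M U := by rw [List.length_take]; omega
  have hUeq : U = (U.take (D.M U) ++ X ++ P) ++ Q := by
    conv_lhs => rw [← List.take_append_drop (D.M U) U, e1]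
    simp [List.append_assoc]
  set Z := U.take (D.M U) ++ X ++ P with hZ
  have hZl : D.B2 ≤ Z.length := by
    rw [hZ]; simp only [List.length_append]; rw [hMl]; have := hD.q1; omega
  have hstZ : D.G2 v0 Z = (P, v') := by
    have ht : Z.take D.B2 = U.take D.B2 := by
      conv_rhs => rw [hUeq]
      rw [List.take_append_of_le_length hZl]
    have hMe : D.M Z = D.M U := M_congr ht
    have hfe : D.f2 Z v0 = D.f2 U v0 := by unfold Dat.f2; rw [ht]
    rw [G2_long hD hZl, hMe, hfe, ← e2]
    congr 1
    rw [hZ, List.append_assoc, List.drop_left' hMl]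
  have hw : w = (Z.drop u0.length) ++ Q := by
    have h1 : w = U.drop u0.length := by rw [hU]; simp
    rw [h1]
    conv_lhs => rw [hUeq]
    rw [List.drop_append_of_le_length (by omega)]
  set x0 := Z.drop u0.length with hx0
  have hux : u0 ++ x0 = Z := by
    have h1 : Z.take u0.length = u0 := by
      have h2 : (Z ++ Q).take u0.length = u0 := by
        rw [← hUeq]; simp [hU]
      rwa [List.take_append_of_le_length (by omega)] at h2
    calc u0 ++ x0 = Z.take u0.length ++ Z.drop u0.length := by rw [h1]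
      _ = Z := List.take_append_drop _ _
  have hst1 : (run (A2 hD) ⟨(u0, v0), hu0⟩ x0).1 = (P, v') := by
    rw [run2]
    change D.G2 v0 (u0 ++ x0) = _
    rw [hux, hstZ]
  have hQl : (Q.take (D.B2 - D.p1)).length = D.B2 - D.p1 := by
    rw [List.length_take]; have := hD.r1; omega
  set q := Q.take (D.B2 - D.p1) with hq
  have hread : ∀ (P' : List α) (v'' : V), D.Lg1 P' v'' →
      D.G2 v'' (P' ++ q) = D.G2 R (q.drop d) := by
    intro P' v'' hl
    have hP' := hD.l1 _ _ hl
    have hlen' : D.B2 ≤ (P' ++ q).length := by rw [List.length_append]; omega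
    have ht2 : (P' ++ Q).take D.B2 = (P' ++ q).take D.B2 := by
      conv_lhs => rw [← List.take_append_drop (D.B2 - D.p1) Q, ← hq, ← List.append_assoc]
      rw [List.take_append_of_le_length hlen']
    have h5 := e5 P' v'' hl
    rw [ht2] at h5
    have hM' : D.M (P' ++ q) = P'.length + d := h5.1
    have hf' : D.f2 (P' ++ q) v'' = R := h5.2
    rw [G2_long hD hlen', hM', hf']
    congr 1
    simp [List.drop_append]
  refine hno x0 q (Q.drop (D.B2 - D.p1)) (run (A2 hD) ⟨(u0, v0), hu0⟩ (x0 ++ q)) ?_ hQl ?_ rfl ?_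
  · rw [hw, hq, List.append_assoc, List.take_append_drop]
  · change D.Lg1 (run (A2 hD) _ x0).1.1 (run (A2 hD) _ x0).1.2
    rw [hst1]; exact e3
  · rintro c hc
    left
    apply Subtype.ext
    rw [run_append, run2, run2, hst1, hread _ _ hc]
    exact (hread _ _ e3).symm

/-- a pair of inner threads follows the outer thread -/
theorem follow (hD : Hyp D) : ∀ (n : ℕ) (U : List α), U.length ≤ n → ∀ (b : Bool) (v : V)
    (c : V → ZMod 2), (D.G1 (some (b, c)) U).2 ≠ none →
    (D.G1 (some (b, sg v + c)) U).2 ≠ none →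
    ∃ u' b' c' v', D.G1 (some (b, c)) U = (u', some (b', c')) ∧
      D.G1 (some (b, sg v + c)) U = (u', some (b', sg v' + c')) ∧ D.G2 v U = D.G2 v' u' := by
  intro n
  induction n with
  | zero =>
    intro U hU b v c _ _
    have h : U.length < D.B1 := by have := hD.hB; have := hD.hB12; omega
    exact ⟨U, b, c, v, G1_short h, G1_short h, rfl⟩
  | succ n ih =>
    intro U hU b v c h1 h2
    by_cases hs : U.length < D.B1
    · exact ⟨U, b, c, v, G1_short hs, G1_short hs, rfl⟩
    · push Not at hs
      have hM := hD.M0 (hD.hB12.trans hs)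
      by_cases hc : b = true ∨ (D.RF (U.take D.B1) ∧ D.Bad (U.take D.B1))
      · rw [G1_long hD hs, f1_some hc] at h1 h2
        rw [G1_long hD hs, f1_some hc, G1_long (t := some (b, sg v + c)) hD hs, f1_some hc,
          G2_long hD (hD.hB12.trans hs)]
        have e : push (D.g ((U.take D.B1).take D.B2)) (sg v + c) + D.ν2 (U.take D.B1) =
            sg (D.f2 U v) + (push (D.g ((U.take D.B1).take D.B2)) c + D.ν2 (U.take D.B1)) := by
          rw [push_add, push_sg, add_assoc]
          congr 2
          unfold Dat.f2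
          rw [List.take_take, min_eq_left hD.hB12]
        rw [e] at h2 ⊢
        exact ih (U.drop (D.M U)) (by rw [List.length_drop]; omega) false _ _ h1 h2
      · rw [G1_long hD hs, f1_fail hc] at h1
        exact absurd (G1_none _) h1

open scoped Classical in
/-- decoding of the outer state from the two inner states -/
noncomputable def decode (hD : Hyp D) (_s : St α V D.B2)
    (τ : Bool → St α (Option (Bool × (V → ZMod 2))) D.B1) : Option (St α V D.B2) :=
  if h : (∀ i, τ i ∉ bad1 D) ∧ ∃ u' b' c' v', (τ false).1 = (u', some (b', c')) ∧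
      (τ true).1 = (u', some (b', sg v' + c')) then
    some ⟨D.G2 h.2.choose_spec.choose_spec.choose_spec.choose h.2.choose,
      G_lt hD.M2 hD.hB _ _⟩
  else none

/-- start states of the inner threads -/
noncomputable def beta (hD : Hyp D) (s : St α V D.B2) (i : Bool) :
    St α (Option (Bool × (V → ZMod 2))) D.B1 :=
  ⟨(s.1.1, some (true, if i then sg s.1.2 + 0 else 0)), lt_of_lt_of_le s.2 hD.hB12⟩

theorem decode_run (hD : Hyp D) (s : St α V D.B2) (w : List α)
    (h : ∀ i, run (A1 hD) (beta hD s i) w ∉ bad1 D) :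
    decode hD s (fun i => run (A1 hD) (beta hD s i) w) = some (run (A2 hD) s w) := by
  have hf : (D.G1 (some (true, 0)) (s.1.1 ++ w)).2 ≠ none := by
    intro h0
    apply h false
    change (run (A1 hD) (beta hD s false) w).1.2 = none
    rw [run1]; exact h0
  have ht : (D.G1 (some (true, sg s.1.2 + 0)) (s.1.1 ++ w)).2 ≠ none := by
    intro h0
    apply h true
    change (run (A1 hD) (beta hD s true) w).1.2 = none
    rw [run1]; exact h0
  obtain ⟨u', b', c', v', e1, e2, e3⟩ := follow hD _ (s.1.1 ++ w) le_rfl true s.1.2 0 hf ht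
  have e1' : (run (A1 hD) (beta hD s false) w).1 = (u', some (b', c')) := by rw [run1]; exact e1
  have e2' : (run (A1 hD) (beta hD s true) w).1 = (u', some (b', sg v' + c')) := by
    rw [run1]; exact e2
  have hcond : (∀ i, run (A1 hD) (beta hD s i) w ∉ bad1 D) ∧ ∃ u' b' c' v',
      (run (A1 hD) (beta hD s false) w).1 = (u', some (b', c')) ∧
      (run (A1 hD) (beta hD s true) w).1 = (u', some (b', sg v' + c')) :=
    ⟨h, u', b', c', v', e1', e2'⟩
  unfold decode
  rw [dif_pos hcond]
  congr 1
  apply Subtype.ext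
  have s1 := hcond.2.choose_spec.choose_spec.choose_spec.choose_spec
  change D.G2 hcond.2.choose_spec.choose_spec.choose_spec.choose hcond.2.choose = _
  rw [run2, e3]
  generalize hcond.2.choose_spec.choose_spec.choose_spec.choose = v'' at *
  generalize hcond.2.choose_spec.choose_spec.choose = c'' at *
  generalize hcond.2.choose_spec.choose = b'' at *
  generalize hcond.2.choose = u'' at *
  obtain ⟨s1a, s1b⟩ := s1
  rw [e1'] at s1a
  rw [e2'] at s1b
  simp only [Prod.mk.injEq, Option.some.injEq] at s1a s1b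
  obtain ⟨rfl, rfl, rfl⟩ := s1a
  have : v' = v'' := sg_inj (add_right_cancel s1b.2.2)
  rw [this]

/-- **two nested schemes: height 2 on the promise** -/
theorem comp2 [Finite α] (hD : Hyp D) :
    Comp 2 (A2 hD) ∅ (fun s w => D.RF (s.1.1 ++ w)) := by
  haveI : Finite (St α V D.B2) := finite_St
  haveI : Finite (St α (Option (Bool × (V → ZMod 2))) D.B1) := finite_St
  -- level 1
  have e1 : Comp 1 (A1 hD) (bad1 D) (fun s w => run (A1 hD) s w ∉ bad1 D) := by
    refine step (h := 0) (C := C1 D) (n := D.B1 - D.p2) (by have := hD.r2; omega)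
      (absorb1 hD) ?_ ?_
    · intro s x y z hxyz hbad
      apply hxyz
      simp only [run_append]
      exact (absorb1 hD).run _ _ hbad
    · exact (comp_short (A1 hD) (bad1 D) (D.L2 + D.B2)).weaken
        fun s w hw => hc1 hD s w hw.1 hw.2
  obtain ⟨F, hF, hex⟩ := exact_of_nonfail (absorb1 hD) e1
  have hdec : ∀ s τ t, decode hD s τ = some t → ∀ i, τ i ∉ bad1 D := by
    intro s τ t h
    unfold decode at h
    split at h
    · next hc => exact hc.1
    · exact absurd h (by simp)
  have hβ : ∀ s i, beta hD s i ∉ bad1 D := by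
    intro s i h
    have h' : (beta hD s i).1.2 = none := h
    exact absurd h' (by unfold beta; simp)
  have e2 : Comp 1 (A2 hD) ∅ (fun s w => ∀ i, run (A1 hD) (beta hD s i) w ∉ bad1 D) := by
    refine sim (badA := bad1 D) (badB := bad1 D) rfl (beta hD) (decode hD) ?_ F hF hex hβ hdec ?_
    · intro s w t h
      have h1 := decode_run hD s w (hdec _ _ _ h)
      rw [h] at h1
      exact (Option.some.inj h1).symm
    · intro s w h
      exact decode_run hD s w h
  refine step (h := 1) (C := C2 D) (n := D.B2 - D.p1) (by have := hD.r1; omega)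
    (absorb_empty _) ?_ ?_
  · intro s x y z hxyz
    change D.RF ((run (A2 hD) s x).1.1 ++ y)
    rw [run2]
    have hsuf : ∀ (n : ℕ) (U : List α), U.length ≤ n → ∀ v : V, ∃ X, U = X ++ (D.G2 v U).1 := by
      intro n
      induction n with
      | zero =>
        intro U hU v
        exact ⟨[], by rw [G2_short (by have := hD.hB; omega)]; rfl⟩
      | succ n ih =>
        intro U hU v
        by_cases hs : U.length < D.B2
        · exact ⟨[], by rw [G2_short hs]; rfl⟩
        · push Not at hs
          have hM := hD.M0 hs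
          obtain ⟨X, hX⟩ := ih (U.drop (D.M U)) (by rw [List.length_drop]; omega) (D.f2 U v)
          refine ⟨U.take (D.M U) ++ X, ?_⟩
          rw [G2_long hD hs, List.append_assoc, ← hX, List.take_append_drop]
    obtain ⟨X, hX⟩ := hsuf _ (s.1.1 ++ x) le_rfl s.1.2
    refine hD.rf X _ z ?_
    have h2 : D.RF (s.1.1 ++ (x ++ y ++ z)) := hxyz
    have h3 : s.1.1 ++ (x ++ y ++ z) = X ++ ((D.G2 s.1.2 (s.1.1 ++ x)).1 ++ y) ++ z := by
      have : s.1.1 ++ (x ++ y ++ z) = (s.1.1 ++ x) ++ y ++ z := by simp [List.append_assoc]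
      rw [this]
      conv_lhs => rw [hX]
      simp [List.append_assoc]
    rwa [h3] at h2
  · refine e2.weaken fun s w hw i => ?_
    exact hc2 hD s w hw.1 hw.2 _ _

end Crest.Agent.R320.Half1_296
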