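import Crest.Agent.R320.Star_903

/-!
HALF 1 (words of a class `P`, e.g. run-free words) from ONE statement about anchored views.
Lazy re-anchoring automaton: state = (text since the anchor, token); both cut systems reset the
full state.  `ZoneSys` = next anchor, zone map, two cut systems with exactness, completeness.
-/

set_option autoImplicit false

namespace Crest.Agent.R320.Half1_349

open Crest.RegLang Crest.Agent.R320.Hgt1_903 Crest.Agent.R320.Star_903

variable {α V : Type*}

/-- two cut systems on the zones of one chain, on the words of the class `P`. -/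
structure ZoneSys (α V : Type*) (P : List α → Prop) where
  B : ℕ
  q0 : ℕ
  D1 : ℕ
  D2 : ℕ
  K : ℕ
  N : List α → ℕ
  m : List α → V → V
  L1 : List α → V → Prop
  L2 : List α → V → Prop
  R1 : List α → Option (ℕ × V)
  R2 : List α → Option (ℕ × V)
  hB : 0 < B
  hN : ∀ y : List α, y.length = B → 0 < N y ∧ N y ≤ B ∧ B ≤ N y + q0
  hD1 : B ≤ D1
  hD2 : B ≤ D2
  ex1 : ∀ (u r : List α) (v : V) (b : ℕ) (R : V), P (u ++ r) → u.length < B → L1 u v →
    r.length = D1 → R1 r = some (b, R) →
    N ((u ++ r).take B) = u.length + b ∧ m ((u ++ r).take B) v = R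
  ex2 : ∀ (u r : List α) (v : V) (b : ℕ) (R : V), P (u ++ r) → u.length < B → L2 u v →
    r.length = D2 → R2 r = some (b, R) →
    (∀ x t z : List α, x ++ t ++ z = r → t.length = D1 → (u ++ x).length < B →
      ¬ (L1 (u ++ x) v ∧ (R1 t).isSome)) →
    N ((u ++ r).take B) = u.length + b ∧ m ((u ++ r).take B) v = R
  comp : ∀ (y : List α) (v : V), P y → y.length = K → ∃ x t z : List α, x ++ t ++ z = y ∧
    q0 ≤ x.length ∧ x.length < B ∧
      ((t.length = D1 ∧ L1 x v ∧ (R1 t).isSome) ∨ (t.length = D2 ∧ L2 x v ∧ (R2 t).isSome))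

variable {P : List α → Prop} (Z : ZoneSys α V P)

namespace ZoneSys

/-- raw step. -/
def st (p : List α × V) (c : α) : List α × V :=
  if p.1.length + 1 < Z.B then (p.1 ++ [c], p.2)
  else ((p.1 ++ [c]).drop (Z.N (p.1 ++ [c])), Z.m (p.1 ++ [c]) p.2)

theorem st_lt (p : List α × V) (c : α) (hp : p.1.length < Z.B) : (Z.st p c).1.length < Z.B := by
  unfold st
  split_ifs with h
  · simpa using h
  · have hl : (p.1 ++ [c]).length = Z.B := by simp; omega
    have := Z.hN _ hl
    simp only [List.length_drop, hl]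
    omega

/-- the states. -/
abbrev Th : Type _ := {p : List α × V // p.1.length < Z.B}

instance [Finite α] [Finite V] : Finite Z.Th := by
  have h1 : Set.Finite {l : List α | l.length < Z.B} := List.finite_length_lt α Z.B
  have : Set.Finite {p : List α × V | p.1.length < Z.B} := by
    refine (h1.prod (Set.finite_univ (α := V))).subset ?_
    rintro ⟨l, v⟩ h
    exact ⟨h, trivial⟩
  exact this.to_subtype

/-- the automaton. -/
def dl (θ : Z.Th) (c : α) : Z.Th := ⟨Z.st θ.1 c, Z.st_lt _ c θ.2⟩

theorem run_val (θ : Z.Th) (w : List α) : (run Z.dl θ w).1 = w.foldl Z.st θ.1 := by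
  induction w generalizing θ with
  | nil => rfl
  | cons c w ih =>
    change (run Z.dl (Z.dl θ c) w).1 = _
    rw [ih]; rfl

theorem fold_lt (w : List α) (p : List α × V) (hp : p.1.length < Z.B) :
    (w.foldl Z.st p).1.length < Z.B := by
  induction w generalizing p with
  | nil => exact hp
  | cons c w ih => exact ih _ (Z.st_lt p c hp)

/-- short reading: only append. -/
theorem fold_short (w : List α) (u : List α) (v : V) (h : u.length + w.length < Z.B) :
    w.foldl Z.st (u, v) = (u ++ w, v) := by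
  induction w generalizing u with
  | nil => simp
  | cons c w ih =>
    rw [List.length_cons] at h
    rw [List.foldl_cons]
    have : Z.st (u, v) c = (u ++ [c], v) := by
      unfold st; rw [if_pos (by simp only; omega)]
    rw [this, ih (u ++ [c]) (by simp; omega)]
    simp

/-- reading up to the full view. -/
theorem fold_full (w : List α) (u : List α) (v : V) (hu : u.length < Z.B)
    (h : u.length + w.length = Z.B) :
    w.foldl Z.st (u, v) = ((u ++ w).drop (Z.N (u ++ w)), Z.m (u ++ w) v) := by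
  have hne : w ≠ [] := by rintro rfl; simp at h; omega
  obtain ⟨w', c, rfl⟩ : ∃ w' c, w = w' ++ [c] := ⟨w.dropLast, w.getLast hne, (List.dropLast_append_getLast hne).symm⟩
  rw [List.foldl_append, Z.fold_short w' u v (by simp at h; omega)]
  simp only [List.foldl_cons, List.foldl_nil]
  unfold st
  have h' : u.length + (w'.length + 1) = Z.B := by simpa using h
  have : ¬ ((u ++ w').length + 1 < Z.B) := by rw [List.length_append]; omega
  rw [if_neg this]
  simp [List.append_assoc]

/-- the text of the state is a suffix of everything read. -/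
theorem fold_suffix (w : List α) (p : List α × V) : ∃ s, s ++ (w.foldl Z.st p).1 = p.1 ++ w := by
  induction w generalizing p with
  | nil => exact ⟨[], by simp⟩
  | cons c w ih =>
    obtain ⟨s, hs⟩ := ih (Z.st p c)
    have : ∃ s', s' ++ (Z.st p c).1 = p.1 ++ [c] := by
      unfold st
      split_ifs with h
      · exact ⟨[], by simp⟩
      · exact ⟨(p.1 ++ [c]).take (Z.N (p.1 ++ [c])), by simp only [List.take_append_drop]⟩
    obtain ⟨s', hs'⟩ := this
    refine ⟨s' ++ s, ?_⟩
    rw [List.foldl_cons, List.append_assoc, hs, ← List.append_assoc, hs']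
    simp

/-- the core: a right reading with the right next anchor and token is the run. -/
theorem fold_right (u r : List α) (v : V) (b : ℕ) (R : V) (hu : u.length < Z.B)
    (hr : Z.B ≤ r.length) (hN : Z.N ((u ++ r).take Z.B) = u.length + b)
    (hm : Z.m ((u ++ r).take Z.B) v = R) :
    r.foldl Z.st (u, v) = (r.drop b).foldl Z.st ([], R) := by
  set i := Z.B - u.length with hi
  have hyl : ((u ++ r).take Z.B).length = Z.B := by simp; omega
  have hy : (u ++ r).take Z.B = u ++ r.take i := by
    rw [List.take_append, List.take_of_length_le (by omega)]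
  have hb := Z.hN _ hyl
  rw [hN] at hb
  have hbi : b ≤ i := by omega
  have h1 : (r.take i).foldl Z.st (u, v) = ((r.take i).drop b, R) := by
    have hl : (r.take i).length = i := by simp; omega
    rw [Z.fold_full (r.take i) u v hu (by rw [hl]; omega), ← hy, hN, hm, hy]
    congr 1
    rw [List.drop_append]
    simp
  have h2 : (r.drop b) = (r.take i).drop b ++ r.drop i := by
    conv_lhs => rw [← List.take_append_drop i r]
    rw [List.drop_append_of_le_length (by simp; omega)]
  rw [h2, List.foldl_append]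
  conv_lhs => rw [← List.take_append_drop i r]
  rw [List.foldl_append, h1]
  congr 1
  rw [Z.fold_short _ [] R (by simp; omega)]
  simp

/-- right readings as automaton readings. -/
noncomputable def rho (R : List α → Option (ℕ × V)) (r : List α) : Option Z.Th :=
  (R r).map fun q => ⟨(r.drop q.1).foldl Z.st ([], q.2), Z.fold_lt _ _ Z.hB⟩

theorem rho_isSome (R : List α → Option (ℕ × V)) (r : List α) :
    (Z.rho R r).isSome ↔ (R r).isSome := by
  unfold rho; cases R r <;> simp

theorem run_rho {R : List α → Option (ℕ × V)} {θ θ' : Z.Th} {r : List α}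
    (hr : Z.B ≤ r.length) (h : Z.rho R r = some θ')
    (hex : ∀ b R', R r = some (b, R') → Z.N ((θ.1.1 ++ r).take Z.B) = θ.1.1.length + b ∧
      Z.m ((θ.1.1 ++ r).take Z.B) θ.1.2 = R') : run Z.dl θ r = θ' := by
  unfold rho at h
  rw [Option.map_eq_some_iff] at h
  obtain ⟨⟨b, R'⟩, h1, rfl⟩ := h
  obtain ⟨h2, h3⟩ := hex b R' h1
  apply Subtype.ext
  rw [Z.run_val]
  exact Z.fold_right θ.1.1 r θ.1.2 b R' θ.2 hr h2 h3

/-- the class. -/
def Cls (P : List α → Prop) (Z : ZoneSys α V P) (θ : Z.Th) (w : List α) : Prop := P (θ.1.1 ++ w)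

theorem cls_suf (hsP : ∀ u v, P (u ++ v) → P v) (θ : Z.Th) (u v : List α)
    (h : Cls P Z θ (u ++ v)) : Cls P Z (run Z.dl θ u) v := by
  unfold Cls at h ⊢
  rw [Z.run_val]
  obtain ⟨s, hs⟩ := Z.fold_suffix u θ.1
  refine hsP s _ ?_
  rw [← List.append_assoc, hs, List.append_assoc]
  exact h

/-- a cut exists in every long word. -/
theorem long_cut (hpP : ∀ u v, P (u ++ v) → P u) (hsP : ∀ u v, P (u ++ v) → P v)
    (θ : Z.Th) (w : List α) (hw : Cls P Z θ w) (hl : Z.B + Z.K ≤ w.length) :
    ∃ p t z : List α, p ++ t ++ z = w ∧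
      ((t.length = Z.D1 ∧ Z.L1 (run Z.dl θ p).1.1 (run Z.dl θ p).1.2 ∧ (Z.R1 t).isSome) ∨
       (t.length = Z.D2 ∧ Z.L2 (run Z.dl θ p).1.1 (run Z.dl θ p).1.2 ∧ (Z.R2 t).isSome)) := by
  obtain ⟨⟨u, v⟩, hθ⟩ := θ
  simp only at hθ
  set i := Z.B - u.length with hi
  set w1 := w.take i with hw1
  have hl1 : w1.length = i := by simp [hw1]; omega
  have hy : (u ++ w1).length = Z.B := by simp [hl1]; omega
  have hb := Z.hN _ hy
  set u' := (u ++ w1).drop (Z.N (u ++ w1)) with hu'
  set v' := Z.m (u ++ w1) v with hv'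
  have hrun1 : (run Z.dl (⟨(u, v), hθ⟩ : Z.Th) w1).1 = (u', v') := by
    rw [Z.run_val]; exact Z.fold_full w1 u v hθ (by rw [hl1]; omega)
  have hu'l : u'.length ≤ Z.q0 := by
    rw [hu', List.length_drop, hy]; omega
  have hc2 : P (u' ++ w.drop i) := by
    have h := Z.cls_suf hsP (⟨(u, v), hθ⟩ : Z.Th) w1 (w.drop i)
      (by rw [hw1, List.take_append_drop]; exact hw)
    unfold Cls at h
    rw [hrun1] at h
    exact h
  have hlen : Z.K ≤ (u' ++ w.drop i).length := by simp; omega
  have hP3 : P ((u' ++ w.drop i).take Z.K) :=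
    hpP _ ((u' ++ w.drop i).drop Z.K) (by rw [List.take_append_drop]; exact hc2)
  obtain ⟨x, t, z, he, hx0, hxB, hcut⟩ := Z.comp _ v' hP3 (by simp at hlen ⊢; omega)
  -- `x = u' ++ x'`
  have hpre : u' <+: x := by
    have h1 : u' <+: u' ++ w.drop i := ⟨_, rfl⟩
    have h2 : x <+: u' ++ w.drop i := by
      refine ⟨t ++ z ++ (u' ++ w.drop i).drop Z.K, ?_⟩
      rw [← List.append_assoc, ← List.append_assoc, he, List.take_append_drop]
    exact List.prefix_of_prefix_length_le h1 h2 (by omega)
  obtain ⟨x', rfl⟩ := hpre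
  have he2 : x' ++ t ++ (z ++ (u' ++ w.drop i).drop Z.K) = w.drop i := by
    have : u' ++ (x' ++ t ++ (z ++ (u' ++ w.drop i).drop Z.K)) = u' ++ w.drop i := by
      conv_rhs => rw [← List.take_append_drop Z.K (u' ++ w.drop i), ← he]
      simp [List.append_assoc]
    exact List.append_cancel_left this
  have hrun2 : (run Z.dl (⟨(u, v), hθ⟩ : Z.Th) (w1 ++ x')).1 = (u' ++ x', v') := by
    rw [run_append, Z.run_val, hrun1]
    exact Z.fold_short x' u' v' (by simpa using hxB)
  refine ⟨w1 ++ x', t, z ++ (u' ++ w.drop i).drop Z.K, ?_, ?_⟩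
  · rw [List.append_assoc w1, List.append_assoc w1, he2, hw1, List.take_append_drop]
  · rw [hrun2]; exact hcut

/-- **the class is computed at height 2.** -/
theorem rc_two [Finite α] [Finite V] (hpP : ∀ u v, P (u ++ v) → P u)
    (hsP : ∀ u v, P (u ++ v) → P v) : RC 2 Z.dl (Cls P Z) := by
  have hpre : ∀ (θ : Z.Th) (u v : List α), Cls P Z θ (u ++ v) → Cls P Z θ u := fun θ u v h =>
    hpP _ v (by unfold Cls at h; rw [List.append_assoc]; exact h)
  refine nested (n := 1) Z.dl (Cls P Z) hpre (Z.cls_suf hsP) (fun θ => Z.L1 θ.1.1 θ.1.2) Z.D1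
    (lt_of_lt_of_le Z.hB Z.hD1) (Z.rho Z.R1) ?_ ?_
  · intro θ r θ' hc hL hr hρ
    refine Z.run_rho (by rw [hr]; exact Z.hD1) hρ fun b R' hR => ?_
    exact Z.ex1 θ.1.1 r θ.1.2 b R' hc θ.2 hL hr hR
  · refine nested (n := 0) Z.dl _ ?_ ?_ (fun θ => Z.L2 θ.1.1 θ.1.2) Z.D2
      (lt_of_lt_of_le Z.hB Z.hD2) (Z.rho Z.R2) ?_ ?_
    · rintro θ u v ⟨h1, h2⟩
      exact ⟨hpre θ u v h1, h2.prefix⟩
    · rintro θ u v ⟨h1, h2⟩
      refine ⟨Z.cls_suf hsP θ u v h1, fun p r s e hcut => ?_⟩
      refine h2 (u ++ p) r s (by rw [← e]; simp [List.append_assoc]) ?_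
      unfold CutAt at hcut ⊢
      rw [run_append]; exact hcut
    · rintro θ r θ' ⟨hc, hun⟩ hL hr hρ
      refine Z.run_rho (by rw [hr]; exact Z.hD2) hρ fun b R' hR => ?_
      refine Z.ex2 θ.1.1 r θ.1.2 b R' hc θ.2 hL hr hR fun x t z e ht hlt hcon => ?_
      refine hun x t z e ⟨ht, ?_, (Z.rho_isSome _ _).2 hcon.2⟩
      have : (run Z.dl θ x).1 = (θ.1.1 ++ x, θ.1.2) := by
        rw [Z.run_val]
        exact Z.fold_short x θ.1.1 θ.1.2 (by simpa using hlt)
      show Z.L1 (run Z.dl θ x).1.1 (run Z.dl θ x).1.2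
      rw [this]
      exact hcon.1
    · refine RC.bounded 0 (Z.B + Z.K) ?_
      rintro θ w ⟨⟨hc, h1⟩, h2⟩
      by_contra hlt
      obtain ⟨p, t, z, e, h | h⟩ := Z.long_cut hpP hsP θ w hc (by omega)
      · exact h1 p t z e ⟨h.1, h.2.1, (Z.rho_isSome _ _).2 h.2.2⟩
      · exact h2 p t z e ⟨h.1, h.2.1, (Z.rho_isSome _ _).2 h.2.2⟩

/-! ### reading -/

/-- a finite faithful additive action. -/
structure Act (S V : Type*) [Monoid S] [AddCommGroup V] where
  a : V → S → V
  one : ∀ v, a v 1 = v
  mul : ∀ v s t, a (a v s) t = a v (s * t)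
  add : ∀ v w s, a (v + w) s = a v s + a w s
  faithful : ∀ s t, (∀ v, a v s = a v t) → s = t

theorem Act.zero {S V : Type*} [Monoid S] [AddCommGroup V] (A : Act S V) (s : S) :
    A.a 0 s = 0 := by
  have := A.add 0 0 s
  rw [add_zero] at this
  exact left_eq_add.1 this

/-- the value of a word. -/
def val {S : Type*} [Monoid S] (ψ : α → S) (w : List α) : S := (w.map ψ).prod

theorem val_append {S : Type*} [Monoid S] (ψ : α → S) (u w : List α) :
    val ψ (u ++ w) = val ψ u * val ψ w := by
  unfold val; rw [List.map_append, List.prod_append]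

theorem fold_affine {S : Type*} [Monoid S] [AddCommGroup V] (A : Act S V) (ψ : α → S)
    (ν : List α → V)
    (hm : ∀ (y : List α) (v : V), y.length = Z.B →
      Z.m y v = A.a v (val ψ (y.take (Z.N y))) + ν y) (w : List α) :
    ∀ (u : List α), u.length < Z.B → ∃ (s t : List α) (c : V), s ++ t = u ++ w ∧
      t.length < Z.B ∧ ∀ v, w.foldl Z.st (u, v) = (t, A.a v (val ψ s) + c) := by
  induction w with
  | nil =>
    intro u hu
    refine ⟨[], u, 0, by simp, hu, fun v => ?_⟩
    simp [val, A.one]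
  | cons x w ih =>
    intro u hu
    by_cases h : u.length + 1 < Z.B
    · obtain ⟨s, t, c, h1, h2, h3⟩ := ih (u ++ [x]) (by simpa using h)
      refine ⟨s, t, c, by rw [h1]; simp, h2, fun v => ?_⟩
      rw [List.foldl_cons]
      have : Z.st (u, v) x = (u ++ [x], v) := by unfold st; rw [if_pos h]
      rw [this, h3]
    · have hl : (u ++ [x]).length = Z.B := by simp; omega
      have hb := Z.hN _ hl
      obtain ⟨s, t, c, h1, h2, h3⟩ := ih ((u ++ [x]).drop (Z.N (u ++ [x])))
        (by rw [List.length_drop, hl]; omega)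
      refine ⟨(u ++ [x]).take (Z.N (u ++ [x])) ++ s, t, A.a (ν (u ++ [x])) (val ψ s) + c, ?_, h2,
        fun v => ?_⟩
      · rw [List.append_assoc, h1, ← List.append_assoc, List.take_append_drop]
        simp
      · rw [List.foldl_cons]
        have : Z.st (u, v) x = ((u ++ [x]).drop (Z.N (u ++ [x])), Z.m (u ++ [x]) v) := by
          unfold st; rw [if_neg h]
        rw [this, h3, hm _ _ hl, A.add, A.mul, ← val_append, add_assoc]

/-- **HALF 1**: every value is computed at height 2 on the class `P`. -/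
theorem half1 [Finite α] {S : Type*} [Monoid S] [Finite S] [AddCommGroup V] [Finite V]
    (hpP : ∀ u v, P (u ++ v) → P u) (hsP : ∀ u v, P (u ++ v) → P v)
    (A : Act S V) (ψ : α → S) (ν : List α → V)
    (hm : ∀ (y : List α) (v : V), y.length = Z.B →
      Z.m y v = A.a v (val ψ (y.take (Z.N y))) + ν y) (g : S) :
    ∃ L : Language α, H 2 L ∧ ∀ w, P w → (w ∈ L ↔ val ψ w = g) := by
  classical
  obtain ⟨R, hR, hs⟩ := Z.rc_two hpP hsP
  let T := {u : List α // u.length < Z.B}
  haveI : Finite T := (List.finite_length_lt α Z.B).to_subtype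
  let q (v : V) : Z.Th := ⟨([], v), Z.hB⟩
  let q' (t : T) (v : V) : Z.Th := ⟨(t.1, v), t.2⟩
  let Gd (i : T × (V → V)) : Prop :=
    ∃ (s : S) (c : V), (∀ v, i.2 v = A.a v s + c) ∧ s * val ψ i.1.1 = g
  refine ⟨{w | ∃ i : T × (V → V), w ∈ ({w | Gd i ∧ w ∈ ({w | ∀ v : V,
    w ∈ R (q v) (q' i.1 (i.2 v))} : Language α)} : Language α)}, ?_, ?_⟩
  · exact H.exists_fintype _ fun i => H.inter (H.const 2 _)
      (H.forall_fintype _ fun v => hR _ _)
  · intro w hw
    obtain ⟨s0, t0, c0, h1, h2, h3⟩ := Z.fold_affine A ψ ν hm w [] Z.hB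
    rw [List.nil_append] at h1
    have hrun : ∀ v, run Z.dl (q v) w = q' ⟨t0, h2⟩ (A.a v (val ψ s0) + c0) := fun v => by
      apply Subtype.ext
      rw [Z.run_val]
      exact h3 v
    have hc : ∀ v, Cls P Z (q v) w := fun v => by unfold Cls; exact hw
    constructor
    · rintro ⟨⟨t, f⟩, ⟨s, c, hf, hg⟩, hall⟩
      have h4 : ∀ v, q' t (f v) = q' ⟨t0, h2⟩ (A.a v (val ψ s0) + c0) := fun v => by
        rw [← hrun v]
        exact ((hs _ w (hc v) _).1 (hall v)).symm
      have h5 : ∀ v, t.1 = t0 ∧ f v = A.a v (val ψ s0) + c0 := fun v => by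
        have := congrArg Subtype.val (h4 v)
        exact Prod.ext_iff.1 this
      have h6 : c = c0 := by
        have h7 := (h5 0).2
        have h8 := hf 0
        simp only at h8
        rw [h8, A.zero, A.zero, zero_add, zero_add] at h7
        exact h7
      have h7 : s = val ψ s0 := A.faithful _ _ fun v => by
        have h7 := (h5 v).2
        have h8 := hf v
        simp only at h8
        rw [h8, h6] at h7
        exact add_right_cancel h7
      rw [← h1, val_append, ← h7, ← (h5 0).1]
      exact hg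
    · intro hg
      refine ⟨(⟨t0, h2⟩, fun v => A.a v (val ψ s0) + c0), ⟨val ψ s0, c0, fun _ => rfl, ?_⟩, ?_⟩
      · rw [← val_append, h1]; exact hg
      · intro v
        exact (hs _ w (hc v) _).2 (hrun v)

end ZoneSys

end Crest.Agent.R320.Half1_349
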