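import Crest.Agent.R320.Nest_85
import Crest.Agent.R320.Wall_291

/-! Row 320: BOX C in `nest` form.  Two cut levels on the block chain of a prefix code give height
two on the words without high powers.  The right words of the second level are all words of one
fixed length `Lam` (so they may look behind the end of the block); the promise of the second level
is "no cut of the first level in this block". -/

set_option autoImplicit false

namespace Crest.Agent.R320.Half1_373

open Crest.RegLang Crest.Agent.R320.Hgt1_903 Crest.Agent.R320.Nest_85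
open Crest.Agent.R320.Wall_291 (RF)

variable {α : Type*} {V : Type*}

open Classical in
/-- chain automaton: state = (token at the active node, text since the node) -/
noncomputable def stp (XX : Set (List α)) (T : V → List α → V) (q : V × List α) (a : α) :
    V × List α :=
  if q.2 ++ [a] ∈ XX then (T q.1 (q.2 ++ [a]), []) else (q.1, q.2 ++ [a])

section chain

variable {XX : Set (List α)} {T : V → List α → V}

theorem run_no (w : List α) : ∀ (v : V) (r : List α),
    (∀ w', w' <+: w → w' ≠ [] → r ++ w' ∉ XX) → run (stp XX T) (v, r) w = (v, r ++ w) := by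
  induction w with
  | nil => intro v r _; simp [run]
  | cons a w ih =>
    intro v r h
    have h1 : r ++ [a] ∉ XX := h [a] (by simp) (by simp)
    have h2 : stp XX T (v, r) a = (v, r ++ [a]) := by simp [stp, h1]
    have h3 : run (stp XX T) (v, r) (a :: w) = run (stp XX T) (stp XX T (v, r) a) w := rfl
    rw [h3, h2, ih v (r ++ [a])]
    · simp
    · intro w' hw' hne
      have := h (a :: w') (by simpa using hw') (by simp)
      simpa using this

theorem run_block (pc : ∀ X ∈ XX, ∀ Y ∈ XX, X <+: Y → X = Y) {v : V} {r w : List α}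
    (hw : w ≠ []) (h : r ++ w ∈ XX) : run (stp XX T) (v, r) w = (T v (r ++ w), []) := by
  obtain ⟨w', a, rfl⟩ : ∃ w' a, w = w' ++ [a] := by
    rcases List.eq_nil_or_concat w with h | ⟨w', a, h⟩
    · exact absurd h hw
    · exact ⟨w', a, by simpa using h⟩
  rw [run_append, run_no w' v r]
  · have : r ++ w' ++ [a] ∈ XX := by simpa using h
    simp only [List.append_assoc] at this
    simp [run, stp, this]
  · intro w'' hw'' _ hc
    have h1 : r ++ w'' <+: r ++ (w' ++ [a]) :=
      (List.prefix_append_right_inj r).2 (hw''.trans (List.prefix_append _ _))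
    have h2 := pc _ hc _ h h1
    have h3 : w'' = w' ++ [a] := List.append_cancel_left h2
    have h4 := hw''.length_le
    rw [h3] at h4
    simp at h4

/-- shape of a run: parsed blocks and a rest, the same for all tokens -/
theorem run_spec (w : List α) : ∀ (r : List α), ∃ (Ms : List (List α)) (r' : List α),
    (∀ X ∈ Ms, X ∈ XX) ∧ Ms.flatten ++ r' = r ++ w ∧
    ∀ v : V, run (stp XX T) (v, r) w = (Ms.foldl T v, r') := by
  induction w with
  | nil => intro r; exact ⟨[], r, by simp, by simp, fun v => rfl⟩
  | cons a w ih =>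
    intro r
    by_cases h : r ++ [a] ∈ XX
    · obtain ⟨Ms, r', h1, h2, h3⟩ := ih []
      refine ⟨(r ++ [a]) :: Ms, r', ?_, ?_, ?_⟩
      · intro X hX
        rcases List.mem_cons.1 hX with rfl | hX
        · exact h
        · exact h1 X hX
      · simp only [List.flatten_cons, List.append_assoc, h2]
        simp
      · intro v
        have h4 : stp XX T (v, r) a = (T v (r ++ [a]), []) := by simp [stp, h]
        have h5 : run (stp XX T) (v, r) (a :: w) = run (stp XX T) (stp XX T (v, r) a) w := rfl
        rw [h5, h4, h3]
        rfl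
    · obtain ⟨Ms, r', h1, h2, h3⟩ := ih (r ++ [a])
      refine ⟨Ms, r', h1, by rw [h2]; simp, ?_⟩
      intro v
      have h4 : stp XX T (v, r) a = (v, r ++ [a]) := by simp [stp, h]
      have h5 : run (stp XX T) (v, r) (a :: w) = run (stp XX T) (stp XX T (v, r) a) w := rfl
      rw [h5, h4, h3]

/-- no block is a prefix of the text since the node -/
def Cln (XX : Set (List α)) (r : List α) : Prop := ∀ Y ∈ XX, ¬ Y <+: r

theorem cln_run (hne : [] ∉ XX) (w : List α) : ∀ (v : V) (r : List α), Cln XX r →
    Cln XX (run (stp XX T) (v, r) w).2 := by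
  induction w with
  | nil => intro v r h; exact h
  | cons a w ih =>
    intro v r h
    have h5 : run (stp XX T) (v, r) (a :: w) = run (stp XX T) (stp XX T (v, r) a) w := rfl
    rw [h5]
    by_cases h1 : r ++ [a] ∈ XX
    · have h4 : stp XX T (v, r) a = (T v (r ++ [a]), []) := by simp [stp, h1]
      rw [h4]
      apply ih
      intro Y hY hp
      rw [List.prefix_nil.1 hp] at hY
      exact hne hY
    · have h4 : stp XX T (v, r) a = (v, r ++ [a]) := by simp [stp, h1]
      rw [h4]
      apply ih
      intro Y hY hp
      rcases List.prefix_concat_iff.1 hp with h6 | h6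
      · exact h1 (h6 ▸ hY)
      · exact h Y hY h6

end chain

theorem finite_len [Finite α] (L : ℕ) : {s : List α | s.length = L}.Finite :=
  (List.finite_length_le α L).subset fun _ h => le_of_eq h

/-- words without high powers are star-free -/
theorem H_RF [Finite α] (n e b : ℕ) : H n ({w : List α | RF e b w} : Language α) := by
  have hfin : ({v : List α | ∃ x : List α, x ≠ [] ∧ x.length ≤ b ∧ v = (List.replicate e x).flatten}).Finite := by
    apply ((List.finite_length_le α b).image fun x => (List.replicate e x).flatten).subset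
    rintro v ⟨x, -, hx, rfl⟩
    exact ⟨x, hx, rfl⟩
  refine H.congr (H.noFactor (H.finite n (L := ({v : List α | ∃ x : List α, x ≠ [] ∧ x.length ≤ b ∧
    v = (List.replicate e x).flatten} : Language α)) hfin)) fun w => ?_
  constructor
  · intro h x hx hl hi
    obtain ⟨u, t, e'⟩ := hi
    exact h u _ t e' ⟨x, hx, hl, rfl⟩
  · rintro h u v t e' ⟨x, hx, hl, rfl⟩
    exact h x hx hl ⟨u, t, e'⟩

section main

variable {S : Type*} [Monoid S] [AddCommGroup V]

/-- tokens moved over a list of blocks: affine -/
theorem foldl_affine (φ : α → S) (act : V → S → V) (hadd : ∀ v w s, act (v + w) s = act v s + act w s)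
    (hone : ∀ v, act v 1 = v) (hmul : ∀ v s t, act (act v s) t = act v (s * t)) (nu : List α → V)
    (Ms : List (List α)) : ∃ g : V, ∀ v : V,
      Ms.foldl (fun v X => act v (X.map φ).prod + nu X) v = act v (Ms.flatten.map φ).prod + g := by
  induction Ms using List.reverseRecOn with
  | nil => exact ⟨0, fun v => by simp [hone]⟩
  | append_singleton Ms X ih =>
    obtain ⟨g, hg⟩ := ih
    refine ⟨act g (X.map φ).prod + nu X, fun v => ?_⟩
    rw [List.foldl_append, hg]
    simp only [List.foldl_cons, List.foldl_nil, List.flatten_append, List.flatten_cons,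
      List.flatten_nil, List.append_nil, List.map_append, List.prod_append, ← hmul, hadd]
    rw [add_assoc]

theorem half1 [Finite α] [Finite S] [Finite V] (φ : α → S) (act : V → S → V)
    (hadd : ∀ v w s, act (v + w) s = act v s + act w s)
    (hone : ∀ v, act v 1 = v) (hmul : ∀ v s t, act (act v s) t = act v (s * t))
    (hfaith : ∀ s t, (∀ v, act v s = act v t) → s = t)
    (e b : ℕ) (XX : Set (List α)) (hne : [] ∉ XX) (pc : ∀ X ∈ XX, ∀ Y ∈ XX, X <+: Y → X = Y)
    (nu : List α → V) (B : ℕ) (hB : ∀ w, RF e b w → B ≤ w.length → ∃ X ∈ XX, X <+: w ∧ X.length ≤ B)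
    (L1 R1 : V → List α → Prop) (hR1 : ∀ v Q, R1 v Q → Q ≠ [])
    (sound1 : ∀ v v' P Q, L1 v P → R1 v' Q →
      P ++ Q ∈ XX ∧ act v ((P ++ Q).map φ).prod + nu (P ++ Q) = v')
    (L2 : V → List α → Prop) (Lam : ℕ) (hLam : 0 < Lam) (r2 : List α → Option (ℕ × V))
    (sound2 : ∀ v P s β c, L2 v P → s.length = Lam → r2 s = some (β, c) → RF e b (P ++ s) →
      (∀ P1 Q1 v', L1 v P1 → R1 v' Q1 → Q1.length ≤ B → P <+: P1 → ¬ (P1 ++ Q1 <+: P ++ s)) →
      0 < β ∧ β ≤ Lam ∧ P ++ s.take β ∈ XX ∧
        act v ((P ++ s.take β).map φ).prod + nu (P ++ s.take β) = c)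
    (B2 : ℕ)
    (compl : ∀ v w, RF e b w → B2 ≤ w.length →
      (∃ P Q v', P ++ Q <+: w ∧ Q.length ≤ B ∧ L1 v P ∧ R1 v' Q) ∨
      (∃ P s, P ++ s <+: w ∧ s.length = Lam ∧ (r2 s).isSome ∧ L2 v P ∧ ∀ Y ∈ XX, ¬ Y <+: P)) :
    ∀ m, H 2 ({w | RF e b w ∧ (w.map φ).prod = m} : Language α) := by
  classical
  set T : V → List α → V := fun v X => act v (X.map φ).prod + nu X with hT
  set step := stp XX T with hstep
  -- levels
  let c1 : List α → V × List α := fun Q => if h : ∃ v', R1 v' Q then (h.choose, []) else (0, [])
  let A1 : Level α (V × List α) :=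
    ⟨fun q => L1 q.1 q.2 ∧ Cln XX q.2, {Q | Q.length ≤ B ∧ ∃ v', R1 v' Q}, c1⟩
  let c2 : List α → V × List α := fun s =>
    match r2 s with
    | some (β, c) => run step (c, []) (s.drop β)
    | none => (0, [])
  let A2 : Level α (V × List α) :=
    ⟨fun q => L2 q.1 q.2 ∧ Cln XX q.2, {s | s.length = Lam ∧ (r2 s).isSome}, c2⟩
  let St : V × List α → Prop := fun q => Cln XX q.2
  let Prom : V × List α → List α → Prop := fun q w => RF e b (q.2 ++ w)
  have hnil : Cln XX ([] : List α) := by
    intro Y hY hp
    rw [List.prefix_nil.1 hp] at hY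
    exact hne hY
  have hpre : ∀ q u v, Prom q (u ++ v) → Prom q u := by
    intro q u v h
    exact RF.infix h (by rw [← List.append_assoc]; exact (List.prefix_append _ _).isInfix)
  -- the rest of a run is a suffix of the text
  have hsuf : ∀ q w, (run step q w).2 <:+ q.2 ++ w := by
    rintro ⟨v, r⟩ w
    obtain ⟨Ms, r', -, h2, h3⟩ := run_spec (XX := XX) (T := T) w r
    rw [hstep, h3 v, ← h2]
    exact List.suffix_append _ _
  -- promise passes along the run
  have hProm : ∀ q p u, Prom q (p ++ u) → Prom (run step q p) u := by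
    intro q p u h
    obtain ⟨M, hM⟩ := hsuf q p
    refine RF.infix h ⟨M, [], ?_⟩
    rw [List.append_nil, ← List.append_assoc, hM, List.append_assoc]
  have hSt : ∀ q w, St q → St (run step q w) := by
    rintro ⟨v, r⟩ w h
    exact cln_run hne w v r h
  -- soundness of level one
  have hA1 : A1.Ok step St Prom := by
    refine ⟨?_, ?_, ?_, ?_⟩
    · exact (List.finite_length_le α B).subset fun Q hQ => hQ.1
    · rintro Q ⟨-, v', hv'⟩; exact hR1 v' Q hv'
    · rintro Q ⟨-, hex⟩
      change Cln XX (c1 Q).2
      simp only [c1, dif_pos hex]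
      exact hnil
    · intro q hq p Q u hP hQ hl
      obtain ⟨-, hex⟩ := hQ
      have hc : c1 Q = (hex.choose, []) := by simp only [c1, dif_pos hex]
      have hR := hex.choose_spec
      obtain ⟨hx, hv⟩ := sound1 _ _ _ _ hl.1 hR
      have h1 : run step (run step q p) Q = c1 Q := by
        rw [hc]
        have := run_block (T := T) pc (v := (run step q p).1) (hR1 _ _ hR) hx
        rw [← hstep] at this
        rw [← hv]
        exact this
      refine ⟨h1, ?_⟩
      have h2 := hProm q (p ++ Q) u hP
      rw [run_append, h1] at h2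
      exact h2
  -- soundness of level two on words without a level-one cut
  have hcut : ∀ (v : V) (P s : List α), Cln XX P → ¬ Cut step A1 (v, P) s →
      ∀ P1 Q1 v', L1 v P1 → R1 v' Q1 → Q1.length ≤ B → P <+: P1 → ¬ (P1 ++ Q1 <+: P ++ s) := by
    rintro v P s hcl hc P1 Q1 v' h1 h2 h3 ⟨P', rfl⟩ ⟨u, hu⟩
    apply hc
    have hx := (sound1 _ _ _ _ h1 h2).1
    have hs : P' ++ Q1 ++ u = s := by
      apply List.append_cancel_left (as := P)
      rw [← hu]; simp
    have hno : ∀ w', w' <+: P' → w' ≠ [] → P ++ w' ∉ XX := by
      intro w' hw' _ hmem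
      have h4 : P ++ w' <+: P ++ P' ++ Q1 := by
        rw [List.append_assoc]
        exact (List.prefix_append_right_inj P).2 (hw'.trans (List.prefix_append _ _))
      have h5 := pc _ hmem _ hx h4
      have h6 := congrArg List.length h5
      have h7 := hw'.length_le
      have h8 : 0 < Q1.length := List.length_pos_iff.2 (hR1 _ _ h2)
      simp only [List.length_append] at h6
      omega
    have hrun : run step (v, P) P' = (v, P ++ P') := by
      rw [hstep]; exact run_no P' v P hno
    refine ⟨P', Q1, u, hs, ⟨h3, v', h2⟩, ?_⟩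
    rw [hrun]
    refine ⟨h1, ?_⟩
    intro Y hY hp
    have h4 : Y <+: P ++ P' ++ Q1 := hp.trans (List.prefix_append _ _)
    have h5 := pc _ hY _ hx h4
    have h6 := congrArg List.length h5
    have h7 := hp.length_le
    have h8 : 0 < Q1.length := List.length_pos_iff.2 (hR1 _ _ h2)
    simp only [List.length_append] at h6 h7
    omega
  have hA2 : A2.Ok step St (fun q w => Prom q w ∧ ¬ Cut step A1 q w) := by
    refine ⟨?_, ?_, ?_, ?_⟩
    · exact (finite_len Lam).subset fun Q hQ => hQ.1
    · rintro s ⟨hs, -⟩ rfl
      simp at hs; omega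
    · rintro s ⟨-, hr⟩
      obtain ⟨⟨β, c⟩, hr⟩ := Option.isSome_iff_exists.1 hr
      change Cln XX (c2 s).2
      simp only [c2, hr]
      exact cln_run hne _ _ _ hnil
    · rintro q hq p s u ⟨hP, hc⟩ ⟨hs, hr⟩ hl
      obtain ⟨⟨β, c⟩, hr⟩ := Option.isSome_iff_exists.1 hr
      set q' := run step q p with hq'
      have hc' : ¬ Cut step A1 q' s := by
        intro h
        apply hc
        have h1 : Cut step A1 q (p ++ s) := Cut.prepend h
        exact h1.append
      have hP' : RF e b (q'.2 ++ s) := by
        have := hProm q p (s ++ u) (by rw [← List.append_assoc]; exact hP)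
        exact hpre q' s u this
      have hq'e : q' = (q'.1, q'.2) := rfl
      obtain ⟨h1, h2, h3, h4⟩ := sound2 q'.1 q'.2 s β c hl.1 hs hr hP'
        (hcut q'.1 q'.2 s hl.2 (by rw [← hq'e]; exact hc'))
      have hne' : s.take β ≠ [] := by
        intro h
        have := congrArg List.length h
        rw [List.length_take, hs] at this
        simp at this; omega
      have h5 : run step q' (s.take β) = (c, []) := by
        rw [hq'e, hstep, run_block pc hne' h3, hT]
        simp only
        rw [h4]
      have h6 : run step q' s = c2 s := by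
        conv_lhs => rw [← List.take_append_drop β s]
        rw [run_append, h5]
        simp only [c2, hr]
      refine ⟨h6, ?_, ?_⟩
      · have h7 := hProm q (p ++ s) u hP
        rw [run_append, ← hq', h6] at h7
        exact h7
      · intro h
        apply hc
        apply Cut.prepend
        rw [run_append, ← hq', h6]
        exact h
  -- bound
  have hbound : ∀ q, St q → ∀ w, Prom q w → ¬ Cut step A1 q w → ¬ Cut step A2 q w →
      w.length < B + B2 + 1 := by
    intro q hq w hP h1 h2
    by_contra hlen
    push Not at hlen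
    obtain ⟨X, hX, hXp, hXl⟩ := hB (q.2 ++ w) hP (by rw [List.length_append]; omega)
    have hlt : q.2.length < X.length := by
      by_contra hh
      push Not at hh
      exact hq X hX (List.prefix_of_prefix_length_le hXp (List.prefix_append _ _) hh)
    obtain ⟨w1, hw1⟩ : q.2 <+: X :=
      List.prefix_of_prefix_length_le (List.prefix_append _ _) hXp hlt.le
    obtain ⟨w2, hw2⟩ := hXp
    have hw : w1 ++ w2 = w := by
      apply List.append_cancel_left (as := q.2)
      rw [← List.append_assoc, hw1, hw2]
    have hw1l : w1.length ≤ B := by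
      have := congrArg List.length hw1
      rw [List.length_append] at this
      omega
    have hw1n : w1 ≠ [] := by
      rintro rfl
      have := congrArg List.length hw1
      rw [List.length_append] at this
      simp at this
      omega
    have hrun : run step q w1 = (T q.1 X, []) := by
      have := run_block (T := T) pc (v := q.1) hw1n (by rw [hw1]; exact hX)
      rw [hw1] at this
      exact this
    have hRF2 : RF e b w2 := by
      have := hProm q w1 w2 (by rw [hw]; exact hP)
      rw [hrun] at this
      exact this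
    have hl2 : B2 ≤ w2.length := by
      have := congrArg List.length hw
      rw [List.length_append] at this
      omega
    have hstart : ∀ P : List α, Cln XX P → run step (T q.1 X, []) P = (T q.1 X, P) := by
      intro P hP
      rw [hstep, run_no P (T q.1 X) []]
      · simp
      · intro w' hw' _ hmem
        exact hP _ hmem (by simpa using hw')
    rcases compl (T q.1 X) w2 hRF2 hl2 with ⟨P, Q, v', ⟨u, hu⟩, hQ, hL, hR⟩ |
      ⟨P, s, ⟨u, hu⟩, hs, hr, hL, hcl⟩
    · apply h1
      have hx := (sound1 _ _ _ _ hL hR).1
      have hcl : Cln XX P := by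
        intro Y hY hp
        have h4 : Y <+: P ++ Q := hp.trans (List.prefix_append _ _)
        have h5 := pc _ hY _ hx h4
        have h6 := congrArg List.length h5
        have h7 := hp.length_le
        have h8 : 0 < Q.length := List.length_pos_iff.2 (hR1 _ _ hR)
        simp only [List.length_append] at h6
        omega
      refine ⟨w1 ++ P, Q, u, ?_, ⟨hQ, v', hR⟩, ?_⟩
      · rw [← hw, ← hu]; simp
      · rw [run_append, hrun, hstart P hcl]
        exact ⟨hL, hcl⟩
    · apply h2
      refine ⟨w1 ++ P, s, u, ?_, ⟨hs, hr⟩, ?_⟩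
      · rw [← hw, ← hu]; simp
      · rw [run_append, hrun, hstart P hcl]
        exact ⟨hL, hcl⟩
  -- level two: height one
  have key2 : ∀ q, St q → ∀ U : V × List α → Prop, True → ∃ E : Language α, H 1 E ∧
      ∀ w, (Prom q w ∧ ¬ Cut step A1 q w) → (w ∈ E ↔ U (run step q w)) := by
    refine nest step St (fun q w => Prom q w ∧ ¬ Cut step A1 q w)
      (fun q u v h => ⟨hpre q u v h.1, fun hc => h.2 hc.append⟩) A2 hA2 0 (fun _ => True) trivial ?_
    intro q hq U _
    refine ⟨({w | w.length < B + B2 + 1 ∧ U (run step q w)} : Language α),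
      H.bounded 0 (B + B2 + 1) fun w hw => hw.1.le, ?_⟩
    intro w hw hc
    exact ⟨fun h => h.2, fun h => ⟨hbound q hq w hw.1 hw.2 hc, h⟩⟩
  -- level one: height two
  have key1 : ∀ q, St q → ∀ U : V × List α → Prop, True → ∃ E : Language α, H 2 E ∧
      ∀ w, Prom q w → (w ∈ E ↔ U (run step q w)) := by
    refine nest step St Prom hpre A1 hA1 1 (fun _ => True) trivial ?_
    intro q hq U _
    obtain ⟨E, h1, h2⟩ := key2 q hq U trivial
    exact ⟨E, h1, fun w hw hc => h2 w ⟨hw, hc⟩⟩
  -- reading
  intro m
  have hE : ∀ (v : V) (y : V × List α), ∃ E : Language α, H 2 E ∧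
      ∀ w, RF e b w → (w ∈ E ↔ run step (v, []) w = y) := by
    intro v y
    obtain ⟨E, h1, h2⟩ := key1 (v, []) hnil (fun q => q = y) trivial
    exact ⟨E, h1, fun w hw => h2 w (by change RF e b ([] ++ w); simpa using hw)⟩
  choose E hEH hEs using hE
  have hfinr : ({r : List α | r.length ≤ B}).Finite := List.finite_length_le α B
  refine H.congr (M := ({w | RF e b w ∧ (w.map φ).prod = m} : Language α)) (H.inter (H_RF 2 e b)
    (H.exists_fintype (ι := (V → V) × {r : List α // r ∈ hfinr.toFinset})
      (fun i => ({w | (∀ v : V, w ∈ E v (i.1 v, i.2.1)) ∧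
        w ∈ ({_w | ∀ s : S, (∀ v, i.1 v = act v s + i.1 0) → s * (i.2.1.map φ).prod = m} :
          Language α)} : Language α))
      (fun i => H.inter (H.forall_fintype (fun v : V => E v (i.1 v, i.2.1)) fun v => hEH _ _)
        (H.const 2 _)))) ?_
  intro w
  have hact0 : ∀ s, act 0 s = 0 := by
    intro s
    have := hadd 0 0 s
    rw [add_zero] at this
    exact left_eq_add.1 this
  constructor
  · rintro ⟨hRF, ⟨f, ⟨r, hr⟩⟩, hf, hs⟩
    refine ⟨hRF, ?_⟩
    change RF e b w at hRF
    obtain ⟨Ms, r', hMs, hfl, hrun⟩ := run_spec (XX := XX) (T := T) w []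
    obtain ⟨g, hg⟩ := foldl_affine φ act hadd hone hmul nu Ms
    have hf' : ∀ v, f v = act v (Ms.flatten.map φ).prod + g ∧ r = r' := by
      intro v
      have h1 := (hEs v (f v, r) w hRF).1 (hf v)
      rw [hstep, hrun v] at h1
      have h2 := congrArg Prod.fst h1
      have h3 := congrArg Prod.snd h1
      simp only at h2 h3
      refine ⟨?_, h3.symm⟩
      rw [← h2]
      exact hg v
    have h4 := hs (Ms.flatten.map φ).prod (by
      intro v
      change f v = act v _ + f 0
      rw [(hf' v).1, (hf' 0).1, hact0, zero_add])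
    rw [← h4]
    simp only
    rw [(hf' 0).2, ← List.prod_append, ← List.map_append, hfl]
    simp
  · rintro ⟨hRF, hm⟩
    change RF e b w at hRF
    obtain ⟨Ms, r', hMs, hfl, hrun⟩ := run_spec (XX := XX) (T := T) w []
    obtain ⟨g, hg⟩ := foldl_affine φ act hadd hone hmul nu Ms
    have hr' : r'.length ≤ B := by
      by_contra hh
      push Not at hh
      have hcl : Cln XX r' := by
        have := hSt (0, []) w hnil
        rw [hstep, hrun 0] at this
        exact this
      have hRF' : RF e b r' := RF.infix hRF (by
        have : r' <:+ Ms.flatten ++ r' := List.suffix_append _ _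
        rw [hfl] at this
        simpa using this.isInfix)
      obtain ⟨X, hX, hXp, -⟩ := hB r' hRF' hh.le
      exact hcl X hX hXp
    refine ⟨hRF, ⟨fun v => act v (Ms.flatten.map φ).prod + g, ⟨r', hfinr.mem_toFinset.2 hr'⟩⟩, ?_, ?_⟩
    · intro v
      refine (hEs v _ w hRF).2 ?_
      rw [hstep, hrun v]
      congr 1
      exact hg v
    · intro s hs
      have h1 : s = (Ms.flatten.map φ).prod := by
        apply hfaith
        intro v
        have := hs v
        simp only [hact0, zero_add] at this
        exact (add_right_cancel this).symm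
      rw [h1]
      simp only
      rw [← List.prod_append, ← List.map_append, hfl]
      simpa using hm

end main

end Crest.Agent.R320.Half1_373
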