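import Crest.Agent.R320.Half_513

/-!
# Row 320: HALF 1, the reading (helper513)
-/

set_option autoImplicit false

namespace Crest.Agent.R320.Half1_513

open Crest.RegLang Crest.Agent.R320.Hgt1_903 Crest.Agent.R320.HalfDat_513 Crest.Agent.R320.Half_513

variable {α : Type*} {V : Type*}

/-- all threads have the same open zone; differences of threads are moved by the product. -/
theorem diff {S : Type*} [Monoid S] [AddCommGroup V] (D : Dat α V) (hD : D.Ok)
    (act : V → S → V) (f : α → S) (hact1 : ∀ v, act v 1 = v)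
    (hact : ∀ v s t, act v (s * t) = act (act v s) t)
    (hzm : ∀ Z v v', D.zm Z v - D.zm Z v' = act (v - v') (Z.map f).prod) :
    ∀ (n : ℕ) (w : List α), w.length ≤ n → D.G w → ∃ Z u, w = Z ++ u ∧ u.length < D.B ∧
      ∀ v v', (R D v w).1 = u ∧ (R D v w).2 - (R D v' w).2 = act (v - v') (Z.map f).prod := by
  intro n
  induction n with
  | zero =>
    intro w hn _
    have hB := hD.Bpos
    refine ⟨[], w, rfl, by omega, fun v v' => ?_⟩
    rw [R_short D v (by omega), R_short D v' (by omega)]
    exact ⟨rfl, by simp [hact1]⟩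
  | succ n ih =>
    intro w hn hG
    rcases Nat.lt_or_ge w.length D.B with h | h
    · refine ⟨[], w, rfl, h, fun v v' => ?_⟩
      rw [R_short D v h, R_short D v' h]
      exact ⟨rfl, by simp [hact1]⟩
    · have hw : w.take D.B ++ w.drop D.B = w := List.take_append_drop _ _
      have hXl : (w.take D.B).length = D.B := by rw [List.length_take]; omega
      have hGX : D.G (w.take D.B) := hD.Gl _ (w.drop D.B) (by rw [hw]; exact hG)
      obtain ⟨h1, h2, h3⟩ := hD.nx_ok _ hGX hXl
      have hG' : D.G (w.drop (D.nx (w.take D.B))) :=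
        hD.Gr (w.take (D.nx (w.take D.B))) _ (by rw [List.take_append_drop]; exact hG)
      obtain ⟨Z, u, e, hu, h4⟩ := ih (w.drop (D.nx (w.take D.B)))
        (by rw [List.length_drop]; omega) hG'
      refine ⟨w.take (D.nx (w.take D.B)) ++ Z, u, ?_, hu, fun v v' => ?_⟩
      · conv_lhs => rw [← List.take_append_drop (D.nx (w.take D.B)) w]
        rw [e]; simp
      · rw [R_long D hD v hG h, R_long D hD v' hG h]
        obtain ⟨h5, h6⟩ := h4 (D.zm (w.take (D.nx (w.take D.B))) v)
          (D.zm (w.take (D.nx (w.take D.B))) v')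
        refine ⟨h5, ?_⟩
        rw [h6, hzm, List.map_append, List.prod_append, hact]

/-- **HALF 1.** `φ` is computed by height `2` on the class of a two-scheme system. -/
theorem half1 [Finite α] {S : Type*} [Monoid S] [AddCommGroup V] [Finite V] (D : Dat α V)
    (hD : D.Ok) (act : V → S → V) (f : α → S) (hact1 : ∀ v, act v 1 = v)
    (hact : ∀ v s t, act v (s * t) = act (act v s) t)
    (hfaith : ∀ s t, (∀ v, act v s = act v t) → s = t)
    (hzm : ∀ Z v v', D.zm Z v - D.zm Z v' = act (v - v') (Z.map f).prod) (s : S) :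
    ∃ E : Language α, H 2 E ∧ ∀ w, D.G w → (w ∈ E ↔ (w.map f).prod = s) := by
  classical
  have hB := hD.Bpos
  have fin1 : Finite {u : List α // u.length < D.B} := List.finite_length_lt α D.B
  let Pr := V → {u : List α // u.length < D.B} × V
  let Good : Pr → Prop := fun g => ∃ t, (∀ v, act v t = (g v).2 - (g 0).2) ∧
    t * ((g 0).1.1.map f).prod = s
  have hE : ∀ (v : V) (q' : {u : List α // u.length < D.B} × V), ∃ E : Language α, H 2 E ∧
      ∀ w, D.G w → (w ∈ E ↔ R D v w = (q'.1.1, q'.2)) := by
    intro v q'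
    obtain ⟨E, h1, h2⟩ := two_level D hD ([], v) (by simpa using hB)
      (fun q => q = (q'.1.1, q'.2))
    exact ⟨E, h1, fun w hG => h2 w (by simpa using hG)⟩
  choose E hE1 hE2 using hE
  refine ⟨({w | ∃ g : {g : Pr // Good g}, w ∈ ({w | ∀ v, w ∈ E v (g.1 v)} : Language α)} :
    Language α), H.exists_fintype _ fun g => H.forall_fintype _ fun v => hE1 v (g.1 v), ?_⟩
  intro w hG
  obtain ⟨Z, u, e, hu, h4⟩ := diff D hD act f hact1 hact hzm _ w le_rfl hG
  have hprod : (w.map f).prod = (Z.map f).prod * (u.map f).prod := by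
    rw [e, List.map_append, List.prod_append]
  constructor
  · rintro ⟨⟨g, t, ht, hts⟩, hg⟩
    have hg' : ∀ v, R D v w = ((g v).1.1, (g v).2) := fun v => (hE2 v (g v) w hG).1 (hg v)
    have hu0 : (g 0).1.1 = u := by
      have := (h4 0 0).1
      rw [hg' 0] at this
      exact this
    have hZt : (Z.map f).prod = t := by
      apply hfaith
      intro v
      have h5 := (h4 v 0).2
      rw [hg' v, hg' 0, sub_zero] at h5
      rw [← h5, ht v]
    rw [hprod, hZt, ← hu0]
    exact hts
  · intro hs
    let g : Pr := fun v => (⟨u, hu⟩, (R D v w).2)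
    have hgood : Good g := by
      refine ⟨(Z.map f).prod, fun v => ?_, ?_⟩
      · have h5 := (h4 v 0).2
        rw [sub_zero] at h5
        exact h5.symm
      · change (Z.map f).prod * (u.map f).prod = s
        rw [← hprod]; exact hs
    refine ⟨⟨g, hgood⟩, fun v => (hE2 v (g v) w hG).2 ?_⟩
    have h6 := (h4 v v).1
    exact Prod.ext h6 rfl

end Crest.Agent.R320.Half1_513
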