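import Crest.Agent.R320.Sch1_420
import Crest.Agent.R320.Names_570
import Crest.Agent.R320.RandF_808

/-!
Row 320, helper646: instance of the name system and of the function `F` for 420's `Sch1_420.scheme1`
(`Names` from 570's `exists_names`, `hF` from 808's `exists_noise`).
-/

set_option autoImplicit false

namespace Crest.Agent.R320.Inst_646

open Crest.Agent.R320.Gad1_420

/-- The start value and the end value of a name. -/
def colour {S V W : Type*} [Monoid S] [AddCommGroup V] [AddCommGroup W] (act : V → S → V) {m : ℕ}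
    (e : ℕ → S → W) (F : S → W → V) (c : Fin m × S × W × S × W × V) : V × V :=
  (c.2.2.2.2.2, F (c.2.1 * 1 * c.2.2.2.1) (c.2.2.1 + e c.1 1 + c.2.2.2.2.1) +
    act c.2.2.2.2.2 (c.2.1 * 1 * c.2.2.2.1))

/-- names and function for 420's gadget. `m`, `N`, `e`, `F` depend only on `S`, `V`, `act`; the
moduli may be chosen bigger than any bound `B`. -/
theorem inst {S V : Type*} [Monoid S] [Finite S] [AddCommGroup V] [Finite V] (act : V → S → V) :
    ∃ (m N : ℕ) (e : ℕ → S → ZMod N × ZMod N) (F : S → ZMod N × ZMod N → V), 0 < m ∧ 0 < N ∧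
      (∀ s w v, ∃ i < m, ∀ g x h, g * x * h = s → ∀ z,
        F (g * z * h) (w - e i x + e i z) + act v (g * z * h) = F s w + act v s) ∧
      ∃ r : ℕ, ∀ B : ℕ, ∃ (Ms : Finset ℕ) (M : ℕ)
        (LN RN : ℕ → Fin m × S × (ZMod N × ZMod N) × S × (ZMod N × ZMod N) × V → Prop),
        Ms.card ≤ r ∧ (∀ k ∈ Ms, k.Prime ∧ B < k) ∧ 0 < M ∧ (∀ k ∈ Ms, k ∣ M) ∧
        ∀ {α : Type*} (φ : List α → S) (R : List α → Prop) (n G M' : ℕ) (A A' : ℕ → ℕ),
          Names (⟨φ, act, m, e, F, R, n, G, M, M', A, A', LN, RN⟩ :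
            Dat α S V (ZMod N × ZMod N)) (fun T => ∀ k ∈ Ms, ¬ k ∣ T) := by
  classical
  haveI := Fintype.ofFinite S
  haveI := Fintype.ofFinite V
  obtain ⟨m, N, e, F, hN, hF⟩ := RandF808.exists_noise S V act
  have hm : 0 < m := by
    obtain ⟨i, hi, -⟩ := hF 1 0 0
    omega
  haveI : NeZero N := ⟨by omega⟩
  refine ⟨m, N, e, F, hm, hN, hF, ?_⟩
  obtain ⟨r, hr⟩ := Names_570.exists_names
    (N := Fin m × S × (ZMod N × ZMod N) × S × (ZMod N × ZMod N) × V) (C := V × V)
    (colour act e F)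
  refine ⟨r, fun B => ?_⟩
  obtain ⟨Ms, nmL, nmR, h1, h2, -, -, h5, h6, h7⟩ := hr B
  refine ⟨Ms, ∏ k ∈ Ms, k, fun o c => nmL o = some c, fun o c => nmR o = some c, h1, h2, ?_,
    fun k hk => Finset.dvd_prod_of_mem _ hk, ?_⟩
  · exact Finset.prod_pos fun k hk => (h2 k hk).1.pos
  · intro α φ R n G M' A A'
    refine ⟨?_, ?_, ?_⟩
    · intro T hT o o' c c' ho hL hR
      exact h5 o o' c c' (by rw [ho]; exact hT) hL hR
    · intro T hT c s hs
      obtain ⟨t, t1, t2, t3, t4, t5⟩ := h6 T c s hT (by exact hs.trans (Nat.le_succ _))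
      exact ⟨t, t1, t2, t4, t5⟩
    · intro T hT
      have hT' : ∃ k ∈ Ms, k ∣ T := by
        by_contra hcon
        exact hT fun k hk hd => hcon ⟨k, hk, hd⟩
      by_cases hex : ∃ o o' c c', o + o' = T ∧ nmL o = some c ∧ nmR o' = some c'
      · obtain ⟨o, o', c, c', ho, hL, hR⟩ := hex
        refine ⟨(colour act e F c).1, (colour act e F c').2, ?_⟩
        intro o2 o2' c2 c2' ho2 hL2 hR2
        rcases h7 o o' o2 o2' c c' c2 c2' (by rw [ho, ho2]) (by rw [ho]; exact hT') hL hR hL2 hR2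
          with ⟨q1, q2⟩ | ⟨q1, q2, q3⟩
        · subst q1 q2
          exact ⟨rfl, rfl⟩
        · subst q1 q2
          have e1 := congrArg Prod.fst q3
          have e2 := congrArg Prod.snd q3
          exact ⟨e1.symm, e2⟩
      · refine ⟨0, 0, ?_⟩
        intro o o' c c' ho hL hR
        exact absurd ⟨o, o', c, c', ho, hL, hR⟩ hex

end Crest.Agent.R320.Inst_646
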