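import Crest.Agent.R320.ExactR_237

/-!
Row 320, scheme 2 (promise ruler) of 132 #12664 in the buffer form of 131 #13123, generic in the
badness: the leaves (SC2) and (CP2).
-/

set_option autoImplicit false

namespace Crest.Agent.R320.SC2_416

open Finset ExactR_237

/-- the part behind `a + p0` of the buffer of the anchor `x - ck`, as seen from the cut place `x`
(`Q` = text right of `x`). -/
def view {A : Type} (p0 Bm ck : ℕ) (Q : List A) : List A := (Q.drop (p0 - ck)).take (Bm - p0)

theorem view_eq {A : Type} {p0 Bm : ℕ} (P Q : List A) (h : P.length ≤ p0) :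
    ((P ++ Q).take Bm).drop p0 = view p0 Bm P.length Q := by
  unfold view
  rw [List.drop_take, List.drop_append, List.drop_eq_nil_of_le h, List.nil_append]

theorem view_take {A : Type} {p0 Bm ck D : ℕ} (Q : List A) (h : ck ≤ p0) (h2 : p0 ≤ Bm)
    (h3 : Bm ≤ D) : view p0 Bm ck (Q.take D) = view p0 Bm ck Q := by
  unfold view
  rw [List.drop_take, List.take_take, min_eq_left (by omega)]

/-- `k` is the only place whose anchor is bad -/
def IsCand {A : Type} (K : ℕ) (c : ℕ → ℕ) (p0 Bm : ℕ) (BadR : List A → Prop) (Q : List A)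
    (k : ℕ) : Prop :=
  k < K ∧ BadR (view p0 Bm (c k) Q) ∧ ∀ k' < K, BadR (view p0 Bm (c k') Q) → k' = k

open Classical in
/-- the spoiled places of the text `t` (read from an anchor) -/
noncomputable def spoiled {A : Type} (K : ℕ) (c : ℕ → ℕ) (p0 Bm : ℕ) (BadR : List A → Prop)
    (t : List A) : Finset ℕ :=
  (range K).filter (fun k => ∃ k' < K, k' ≠ k ∧ BadR (view p0 Bm (c k') (t.drop (c k))))

theorem sc2 (A S V : Type) [Monoid S] [Fintype S] [Fintype V] [AddCommGroup V]
    (f : A → S) (act : V → S → V) (C0 : ℕ) :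
    ∃ K : ℕ, ∀ (c : ℕ → ℕ) (p0 q0 : ℕ), (∀ i j, i < j → j < K → c i < c j) →
      (∀ k < K, c k ≤ p0) → (∀ k < K, q0 ≤ c k) →
      ∃ (nu2 : List A → V) (L2 : List A → V → Prop),
        (∀ P v, L2 P v → ∃ k < K, P.length = c k) ∧
        ∀ (Bm D2 : ℕ) (NR : List A → ℕ) (nu1 : List A → V) (BadR : List A → Prop),
          p0 ≤ Bm → Bm ≤ D2 →
          ∃ R2 : List A → Option (ℕ × V),
            (∀ (P Q : List A) (v : V) (d : ℕ) (b : V), L2 P v → R2 Q = some (d, b) →
              BadR (((P ++ Q).take Bm).drop p0) →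
              p0 + NR (((P ++ Q).take Bm).drop p0) = P.length + d ∧
              act (act v (pr f ((P ++ Q).take p0)) + nu2 ((P ++ Q).take p0))
                (pr f ((((P ++ Q).take Bm).drop p0).take (NR (((P ++ Q).take Bm).drop p0)))) +
                nu1 (((P ++ Q).take Bm).drop p0) = b) ∧
            (∀ t : List A, Bm ≤ t.length → BadR ((t.take Bm).drop p0) →
              (spoiled K c p0 Bm BadR t).card ≤ C0 → ∀ v : V, ∃ x, q0 ≤ x ∧ x ≤ p0 ∧
                L2 (t.take x) v ∧ (R2 ((t.drop x).take D2)).isSome) := by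
  classical
  obtain ⟨K, hK⟩ := exact_gadget A S V f act (C0 + 1)
  refine ⟨K, fun c p0 q0 hc hcp hcq => ?_⟩
  obtain ⟨lam, rho, nu, hex, hco⟩ := hK c hc
  have hinj : ∀ i j, i < K → j < K → c i = c j → i = j := by
    intro i j hi hj h
    rcases lt_trichotomy i j with h1 | h1 | h1
    · exact absurd h (ne_of_lt (hc i j h1 hj))
    · exact h1
    · exact absurd h (ne_of_gt (hc j i h1 hi))
  refine ⟨fun X => nu X 1, fun P v => ∃ k < K, P.length = c k ∧ lam k P = some v,
    fun P v ⟨k, hk, h1, _⟩ => ⟨k, hk, h1⟩, ?_⟩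
  intro Bm D2 NR nu1 BadR hpB hBD
  refine ⟨fun Q => if h : ∃ k, IsCand K c p0 Bm BadR Q k then
      (rho h.choose (Q.take (p0 - c h.choose)) 1).map (fun b =>
        (p0 - c h.choose + NR (view p0 Bm (c h.choose) Q),
          act b (pr f ((view p0 Bm (c h.choose) Q).take (NR (view p0 Bm (c h.choose) Q)))) +
            nu1 (view p0 Bm (c h.choose) Q)))
    else none, ?_, ?_⟩
  · rintro P Q v d b ⟨k, hk, hP, hl⟩ hR hbad
    beta_reduce at hR
    have hPp : P.length ≤ p0 := by rw [hP]; exact hcp k hk
    rw [view_eq P Q hPp, hP] at hbad ⊢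
    by_cases hex' : ∃ k, IsCand K c p0 Bm BadR Q k
    · rw [dif_pos hex'] at hR
      have hk' : hex'.choose = k := (hex'.choose_spec.2.2 k hk hbad).symm
      rw [hk'] at hR
      rw [Option.map_eq_some_iff] at hR
      obtain ⟨b', hb', hbb⟩ := hR
      rw [Prod.mk.injEq] at hbb
      have hX : (P ++ Q).take p0 = P ++ Q.take (p0 - c k) := by
        rw [List.take_append, List.take_of_length_le hPp, hP]
      have h3 := hex k hk P (Q.take (p0 - c k)) 1 v b' hP hl hb'
      rw [mul_one] at h3
      have hck := hcp k hk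
      refine ⟨by omega, ?_⟩
      rw [hX, ← h3]
      exact hbb.2
    · rw [dif_neg hex'] at hR
      exact absurd hR (by simp)
  · intro t ht hbad hsp v
    obtain ⟨I, hI, hIk⟩ := hco (t.take p0) 1 v (fun k hk => by
      rw [List.length_take]
      have := hcp k hk
      omega)
    obtain ⟨k, hkI, hks⟩ : ∃ k ∈ I, k ∉ spoiled K c p0 Bm BadR t := by
      by_contra hcon
      push Not at hcon
      have : I ⊆ spoiled K c p0 Bm BadR t := fun k hk => hcon k hk
      have := Finset.card_le_card this
      omega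
    obtain ⟨hk, hl, hr⟩ := hIk k hkI
    have hck := hcp k hk
    have hlen : (t.take (c k)).length = c k := by rw [List.length_take]; omega
    refine ⟨c k, hcq k hk, hck, ⟨k, hk, hlen, ?_⟩, ?_⟩
    · rwa [List.take_take, min_eq_left hck] at hl
    · have hv : ∀ k' < K, view p0 Bm (c k') ((t.drop (c k)).take D2) =
          view p0 Bm (c k') (t.drop (c k)) := fun k' hk' => view_take _ (hcp k' hk') hpB hBD
      have hbk : BadR (view p0 Bm (c k) (t.drop (c k))) := by
        have := view_eq (p0 := p0) (Bm := Bm) (t.take (c k)) (t.drop (c k)) (by omega)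
        rw [List.take_append_drop, hlen] at this
        rwa [← this]
      have hcand : IsCand K c p0 Bm BadR ((t.drop (c k)).take D2) k := by
        refine ⟨hk, by rw [hv k hk]; exact hbk, fun k' hk' hb' => ?_⟩
        rw [hv k' hk'] at hb'
        by_contra hne
        exact hks (Finset.mem_filter.2 ⟨Finset.mem_range.2 hk, k', hk', hne, hb'⟩)
      have hex' : ∃ k', IsCand K c p0 Bm BadR ((t.drop (c k)).take D2) k' := ⟨k, hcand⟩
      have hk' : hex'.choose = k := (hex'.choose_spec.2.2 k hk hcand.2.1).symm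
      beta_reduce
      rw [dif_pos hex', Option.isSome_map, hk']
      have h5 : ((t.drop (c k)).take D2).take (p0 - c k) = (t.take p0).drop (c k) := by
        rw [List.take_take, min_eq_left (by omega), List.drop_take]
      rw [h5]
      exact hr

end Crest.Agent.R320.SC2_416
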