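import Crest.Agent.R320.HalfB_595
import Crest.Agent.R320.Glue_131
import Crest.Agent.R320.SC2_416
import Crest.Agent.R320.Const_809
import Crest.Agent.R320.Inst_646
import Crest.Agent.R320.Wall_291

/-!
Row 320, helper595: constants of the two wall schemes; `RC 2` on words without `e`-th powers of
words of length at most `W`.
-/

set_option autoImplicit false
set_option linter.unusedSectionVars false

namespace Crest.Agent.R320.Half1_595

open Crest.Agent.R320.Gad1_420 Crest.Agent.R320.ThrChain260 Crest.Agent.R320.SP_434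
open Crest.Agent.R320.HalfB_595 Crest.Agent.R320.Ruler2_537 Crest.Agent.R320.Wall_291
open Crest.Agent.R320.Star_903

theorem Ruler.shift {P : Par} {C : Finset ℤ} (hC : Ruler P C) (q : ℤ) :
    Ruler P (C.image (fun x => x + q)) where
  span := by
    intro c hc c' hc'
    obtain ⟨x, hx, rfl⟩ := Finset.mem_image.1 hc
    obtain ⟨y, hy, rfl⟩ := Finset.mem_image.1 hc'
    have e : (x + q) - (y + q) = x - y := by ring
    rw [e]; exact hC.span x hx y hy
  nz := by
    intro c hc c' hc' hne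
    obtain ⟨x, hx, rfl⟩ := Finset.mem_image.1 hc
    obtain ⟨y, hy, rfl⟩ := Finset.mem_image.1 hc'
    have e : (x + q) - (y + q) = x - y := by ring
    rw [e]; exact hC.nz x hx y hy (fun h => hne (by rw [h]))
  gol := by
    intro c₁ h₁ c₂ h₂ c₃ h₃ c₄ h₄ n1 n2 hd
    obtain ⟨a, ha, rfl⟩ := Finset.mem_image.1 h₁
    obtain ⟨b, hb, rfl⟩ := Finset.mem_image.1 h₂
    obtain ⟨c, hc, rfl⟩ := Finset.mem_image.1 h₃
    obtain ⟨d, hd', rfl⟩ := Finset.mem_image.1 h₄
    have e : (a + q - (b + q)) - (c + q - (d + q)) = (a - b) - (c - d) := by ring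
    rw [e] at hd
    obtain ⟨h1, h2⟩ := hC.gol a ha b hb c hc d hd' (fun h => n1 (by rw [h]))
      (fun h => n2 (by rw [h])) hd
    exact ⟨by rw [h1], by rw [h2]⟩

theorem Ruler2.shift {P : Par} {D : ℤ} {m : ℕ → ℤ} {r : ℕ} {C : Finset ℤ} (hC : Ruler2 P D m r C)
    (q : ℤ) : Ruler2 P D m r (C.image (fun x => x + q)) where
  base := Ruler.shift hC.base q
  res := by
    intro c₁ h₁ c₂ h₂ c₃ h₃ c₄ h₄ n1 n2 hd
    obtain ⟨a, ha, rfl⟩ := Finset.mem_image.1 h₁
    obtain ⟨b, hb, rfl⟩ := Finset.mem_image.1 h₂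
    obtain ⟨c, hc, rfl⟩ := Finset.mem_image.1 h₃
    obtain ⟨d, hd', rfl⟩ := Finset.mem_image.1 h₄
    have e : (a + q - (b + q)) - (c + q - (d + q)) = (a - b) - (c - d) := by ring
    rw [e] at hd
    obtain ⟨h1, h2⟩ := hC.res a ha b hb c hc d hd' (fun h => n1 (by rw [h]))
      (fun h => n2 (by rw [h])) hd
    exact ⟨by rw [h1], by rw [h2]⟩
  mods := by
    intro i hi c₁ h₁ c₂ h₂ c₃ h₃ c₄ h₄ n1 n2 t hd
    obtain ⟨a, ha, rfl⟩ := Finset.mem_image.1 h₁
    obtain ⟨b, hb, rfl⟩ := Finset.mem_image.1 h₂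
    obtain ⟨c, hc, rfl⟩ := Finset.mem_image.1 h₃
    obtain ⟨d, hd', rfl⟩ := Finset.mem_image.1 h₄
    have e : (a + q - (b + q)) - (c + q - (d + q)) - t * (m i * P.M)
        = (a - b) - (c - d) - t * (m i * P.M) := by ring
    rw [e] at hd
    obtain ⟨h1, h2⟩ := hC.mods i hi a ha b hb c hc d hd' (fun h => n1 (by rw [h]))
      (fun h => n2 (by rw [h])) t hd
    exact ⟨by rw [h1], by rw [h2]⟩

theorem walls (α : Type*) [Finite α] (e W : ℕ) (hW : 0 < W) :
    ∃ (n G : ℕ) (R : List α → Prop), 0 < n ∧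
      (∀ Q, R Q ↔ R (Q.take n)) ∧
      (∀ Q, R Q → n ≤ Q.length) ∧
      (∀ Q d, R Q → 0 < d → d ≤ W → ¬ R (Q.drop d)) ∧
      (∀ Q, RF e W Q → G + n ≤ Q.length → ∃ i < G, R (Q.drop i)) := by
  obtain ⟨n, G, R, h1, h2, h3, h4⟩ := Wall_291.exists_walls α e W
  rcases Nat.eq_zero_or_pos n with rfl | hn
  · have hR : ∀ Q, ¬ R Q := by
      intro Q hQ
      apply h3 Q 1 hQ one_pos hW
      rw [h1, List.take_zero]
      rw [h1, List.take_zero] at hQ
      exact hQ
    refine ⟨1, G, R, one_pos, fun Q => ⟨fun h => absurd h (hR _), fun h => absurd h (hR _)⟩,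
      fun Q h => absurd h (hR _), h3, fun Q hQ hl => h4 Q hQ (by omega)⟩
  · exact ⟨n, G, R, hn, h1, h2, h3, h4⟩

/-- **RC 2 on words without high powers of short words**: the two wall schemes. -/
theorem half1_rc (α S V : Type) [Finite α] [Monoid S] [Finite S] [AddCommGroup V] [Finite V]
    (f : α → S) (act : V → S → V) (e : ℕ) :
    ∃ (Wo p0 L : ℕ) (NF : List α → ℕ) (nu2 nu1 : List α → V) (D : Glue131.Dat α V),
      D.Bm = p0 + L ∧ (∀ y, D.N y = p0 + NF (y.drop p0)) ∧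
      (∀ y v, D.zm y v = act (act v (ExactR_237.pr f (y.take p0)) + nu2 (y.take p0))
        (ExactR_237.pr f ((y.drop p0).take (NF (y.drop p0)))) +
          nu1 ((y.drop p0).take (NF (y.drop p0)))) ∧
      RC 2 (Glue131.stp D) (fun θ w => RF e Wo (θ.1.1 ++ w)) := by
  classical
  haveI := Fintype.ofFinite S
  haveI := Fintype.ofFinite V
  obtain ⟨mg, N, e', F, hmg, hN, hF, r, hinst⟩ := Inst_646.inst act
  obtain ⟨K, hK⟩ := SC2_416.sc2 α S V f act (1 + (mg + 1) + 2 * r)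
  obtain ⟨Ms, M, LN, RN, hMs, hpr, hM0, hMd, hnames⟩ := hinst (2 * 4 ^ K + 2)
  obtain ⟨M', hM'⟩ : ∃ M', M' = 4 ^ K := ⟨_, rfl⟩
  have hM'0 : 0 < M' := by rw [hM']; positivity
  obtain ⟨mm, hmm⟩ : ∃ mm : ℕ → ℕ, mm = fun i => Ms.toList.getD i 1 := ⟨_, rfl⟩
  have hmm1 : ∀ i < Ms.card, mm i ∈ Ms := by
    intro i hi
    rw [hmm]
    have hl : i < Ms.toList.length := by rw [Finset.length_toList]; exact hi
    simp only
    rw [List.getD_eq_getElem _ _ hl]
    exact Finset.mem_toList.1 (List.getElem_mem hl)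
  have hmm2 : ∀ k ∈ Ms, ∃ i < Ms.card, mm i = k := by
    intro k hk
    obtain ⟨i, hi, he⟩ := List.getElem_of_mem (Finset.mem_toList.2 hk)
    refine ⟨i, by rw [← Finset.length_toList]; exact hi, ?_⟩
    rw [hmm]
    simp only
    rw [List.getD_eq_getElem _ _ hi]
    exact he
  obtain ⟨c, Lr, hcm, -, -, hcL, hrul⟩ := Const_809.exists_ruler2 K M' hM'.ge Ms.card mm M hM0
    (fun i hi => ⟨(hpr _ (hmm1 i hi)).2.le, hMd _ (hmm1 i hi)⟩) (M' * M)
  obtain ⟨ns, Gs, Rs, s0, s1, s2, s3, s4⟩ := walls α e (2 * (M' * M + Lr) + 1) (by omega)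
  let A : ℕ → ℕ := fun k => k * (M' * (Gs + ns + M))
  let A' : ℕ → ℕ := fun k => k * (M' * (Gs + ns + M)) + M' * (Gs + ns)
  let D : Dat α S V (ZMod N × ZMod N) :=
    ⟨ExactR_237.pr f, act, mg, e', F, Rs, ns, Gs, M, M', A, A', LN, RN⟩
  have hnext : ∀ i k, i < k → A' i + M' * M ≤ A k := by
    intro i k hik
    show i * (M' * (Gs + ns + M)) + M' * (Gs + ns) + M' * M ≤ k * (M' * (Gs + ns + M))
    have h1 : i * (M' * (Gs + ns + M)) + M' * (Gs + ns) + M' * M
        = (i + 1) * (M' * (Gs + ns + M)) := by ring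
    rw [h1]
    exact Nat.mul_le_mul_right _ hik
  have hGeo : Geo D := by
    refine ⟨fun u v => ExactR_237.pr_append f u v, ⟨s0, s1, s2⟩, ?_, hnext, ?_, ?_, hM'0⟩
    · intro k
      exact Nat.mul_le_mul_right _ (Nat.le_succ k)
    · intro k
      show k * (M' * (Gs + ns + M)) + Gs + ns ≤ k * (M' * (Gs + ns + M)) + M' * (Gs + ns)
      have : 1 * (Gs + ns) ≤ M' * (Gs + ns) := Nat.mul_le_mul_right _ hM'0
      omega
    · intro k
      exact Dvd.dvd.add (Dvd.dvd.mul_left (Dvd.intro _ rfl) _) (Dvd.intro _ rfl)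
  have hNm : Names D (fun T => ∀ k ∈ Ms, ¬ k ∣ T) :=
    hnames (ExactR_237.pr f) Rs ns Gs M' A A'
  obtain ⟨nu1, g1, g2, g3⟩ := gadget1 D _ hGeo hNm hF
  have hGad : Gad D (fun T => ∀ k ∈ Ms, ¬ k ∣ T) nu1 := ⟨g1, g2, g3⟩
  obtain ⟨N1, hN1⟩ : ∃ N1, N1 = A mg + M' * M + Gs + ns := ⟨_, rfl⟩
  obtain ⟨S', sth, hpar⟩ := Const_809.exists_par M' N1 Lr hM'0
  obtain ⟨Wo, hWo⟩ : ∃ Wo, Wo = 2 * (S' + Lr) + (2 * (M' * M + Lr) + 1) := ⟨_, rfl⟩
  obtain ⟨n, G, R, n0, r1, r2, r3, r4⟩ := walls α e Wo (by omega)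
  obtain ⟨L, hL⟩ : ∃ L, L = 2 * S' + G + N1 + n + 1 := ⟨_, rfl⟩
  obtain ⟨p0, hp0⟩ : ∃ p0, p0 = L + Lr + 1 := ⟨_, rfl⟩
  obtain ⟨P, PM, Pz, Pp, PN, PS, PL, Ps⟩ := hpar ((p0 : ℤ) + S') p0
  have hcp : ∀ k < K, L + c k ≤ p0 := fun k hk => by
    have := hcL k hk
    omega
  have hcmono : ∀ i j, i < j → j < K → L + c i < L + c j := fun i j hij _ => by
    have := hcm hij
    omega
  obtain ⟨nu2, L2, hL2, hsc⟩ := hK (fun k => L + c k) p0 L hcmono hcp
    (fun k _ => Nat.le_add_right _ _)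
  obtain ⟨BR, hBR⟩ : ∃ BR, BR = BadR P R Rs (fun k => ((p0 + A k : ℕ) : ℤ))
    ((M' * M : ℕ) : ℤ) (mg + 1) (fun i => (mm i : ℤ)) Ms.card := ⟨_, rfl⟩
  obtain ⟨R2, hs2, hc2⟩ := hsc (p0 + L) (2 * (p0 + L)) (NR P R L)
    (fun Z => nu1 (Z.take (NR P R L Z))) BR (Nat.le_add_right _ _) (by omega)
  have hzP : P.p0 + P.S ≤ P.z := by rw [Pp, PS, Pz]
  have hspoil : ∀ t : List α, (SC2_416.spoiled K (fun k => L + c k) p0 (p0 + L) BR t).card
      ≤ 1 + (mg + 1) + 2 * r := by
    intro t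
    have key := spoiled_le (P := P) (R := R) (Rs := Rs) (n := n) (ns := ns) (W := Wo)
      (Ws := 2 * (M' * M + Lr) + 1) (A := fun k => ((p0 + A k : ℕ) : ℤ))
      (D := ((M' * M : ℕ) : ℤ)) (K := mg + 1) (m := fun i => (mm i : ℤ)) (r := Ms.card)
      n0 r1 r2 s1 s2 r3 (by rw [PS, PL, hWo]; push_cast; omega) s3
      (by rw [PL]; push_cast; omega) hzP p0 Pp ((Finset.range K).image (fun k => L + c k))
      (by
        intro x hx
        obtain ⟨k, hk, rfl⟩ := Finset.mem_image.1 hx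
        exact hcp k (Finset.mem_range.1 hk))
      (by
        have h := Ruler2.shift (hrul P PM PL) (L : ℤ)
        rw [Finset.image_image] at h
        rw [Finset.image_image]
        have e1 : ((fun x : ℤ => x + (L : ℤ)) ∘ fun j => ((c j : ℕ) : ℤ))
            = ((fun c : ℕ => (c : ℤ)) ∘ fun k => L + c k) := by
          funext k
          simp only [Function.comp]
          push_cast
          ring
        rw [e1] at h
        exact h)
      L BR (by
        intro Y hY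
        rw [hBR] at hY
        exact hY) t
    have hle : (1 : ℕ) + (mg + 1) + 2 * Ms.card ≤ 1 + (mg + 1) + 2 * r := by omega
    refine le_trans ?_ (le_trans key hle)
    refine Finset.card_le_card_of_injOn (fun k => L + c k) ?_ ?_
    · intro k hk
      rw [Finset.mem_coe] at hk
      unfold SC2_416.spoiled at hk
      rw [Finset.mem_filter] at hk
      obtain ⟨hkK, k', hk', hne, hb⟩ := hk
      rw [Finset.mem_coe, Finset.mem_filter]
      refine ⟨Finset.mem_image_of_mem _ hkK, L + c k',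
        Finset.mem_image_of_mem _ (Finset.mem_range.2 hk'), ?_, ?_⟩
      · intro h
        apply hne
        have h' : L + c k' = L + c k := h
        exact hcm.injective (by omega)
      · unfold SC2_416.view at hb
        rw [List.drop_drop] at hb
        have h1 := hcp k' hk'
        have h2 : L + c k + (p0 - (L + c k')) = p0 + (L + c k) - (L + c k') := by omega
        have h3 : p0 + L - p0 = L := by omega
        rw [h2, h3] at hb
        exact hb
    · intro x _ y _ hxy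
      simp only at hxy
      exact hcm.injective (by omega)
  let DD : Glue131.Dat α V :=
    { Bm := p0 + L
      hBm := by omega
      N := fun y => p0 + NR P R L (y.drop p0)
      hN := fun y => ⟨by omega, by have := NR_le P R L (y.drop p0); omega⟩
      zm := zm D P R L p0 nu2 nu1 }
  refine ⟨Wo, p0, L, NR P R L, nu2, nu1, DD, rfl, fun y => rfl, fun y v => rfl, ?_⟩
  have hcell : ∀ i < D.m, D.A' i + D.M' * D.M ≤ N1 := by
    intro i hi
    have h1 : A' i + M' * M ≤ A mg := hnext i mg hi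
    show A' i + M' * M ≤ N1
    omega
  refine Glue131.two DD (RF e Wo) ?_ p0 L (p0 + L) (2 * (p0 + L)) (by omega)
    (by show p0 < p0 + L; omega) (le_refl _) (by show p0 + L + (p0 + L) ≤ _; omega) ?_
    (fun y => BR (y.drop p0)) (L1 D p0 nu2) L2 (R1 D P R n N1 L) R2 ?_ ?_ ?_ ?_ ?_
  · intro x y z h
    exact h.infix ⟨x, z, rfl⟩
  · intro y _ _
    show p0 + L - (p0 + NR P R L (y.drop p0)) ≤ L
    omega
  · intro u v rr d b _ _ _ hL1 hR1
    exact SC1 hGad r1 r2 hzP PN PM hcell nu2 hL1 hR1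
  · intro u v rr d b _ _ _ hL2' hbad hR2'
    obtain ⟨h1, h2⟩ := hs2 u rr v d b hL2' hR2' hbad
    refine ⟨h1, ?_⟩
    rw [← h2]
    show zm D P R L p0 nu2 nu1 _ _ = _
    unfold zm
    have e1 : ((u ++ rr).take (p0 + L)).take p0 = (u ++ rr).take p0 := by
      rw [List.take_take, min_eq_left (by omega)]
    show act (act v (ExactR_237.pr f (((u ++ rr).take (p0 + L)).take p0)) +
      nu2 (((u ++ rr).take (p0 + L)).take p0)) _ + _ = _
    rw [e1]
  · intro u v h
    obtain ⟨k, hk, h1⟩ := hL2 u v h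
    rw [h1]
    exact hcp k hk
  · intro t v hCl ht hbad
    have ht' : p0 + L + (p0 + L) ≤ t.length := ht
    refine CP1 hGad n0 r1 r2 s1 s2 (S' := S') Pp PS Pz PN PM hcell (by rw [hN1])
      (G := G) (by omega) le_rfl (m := fun i => (mm i : ℤ)) (r := Ms.card) ?_ nu2 v ?_ ?_ ht' ?_
    · intro T hT k hk hdv
      obtain ⟨i, hi, rfl⟩ := hmm2 k hk
      exact hT i hi (by exact_mod_cast hdv)
    · intro w hw
      obtain ⟨i, hi, hR⟩ := r4 (t.drop w) (hCl.drop w) (by rw [List.length_drop]; omega)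
      exact ⟨i, hi, by rwa [List.drop_drop] at hR⟩
    · intro w hw
      have hw' : w + Gs + ns ≤ t.length := hw
      obtain ⟨i, hi, hR⟩ := s4 (t.drop w) ((hCl.drop w).mono (by omega))
        (by rw [List.length_drop]; omega)
      exact ⟨i, hi, by rwa [List.drop_drop] at hR⟩
    · rw [hBR] at hbad
      exact hbad
  · intro t v hCl ht hbad
    have ht' : p0 + L + 2 * (p0 + L) ≤ t.length := ht
    exact hc2 t (by omega) hbad (hspoil t) v

end Crest.Agent.R320.Half1_595
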