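import Crest.Agent.R320.Nest_85
import Mathlib

set_option autoImplicit false

/-! # Bridge: zones + two gadgets -> `Nest_85` (row 320, post 13043 of helper118)

One state `(v, r)`: `v` = token at the active anchor, `r` = residual text since the active anchor.
`step` appends a letter and re-anchors as soon as the next anchor is visible.  Both kinds of cuts are
`Nest_85.Level`s for this one machine. `half1` : {w run-free | φ w = s} has height 2 on run-free words.
-/

namespace Crest.Agent.R320.Half1_870

open Crest.RegLang Crest.Agent.R320.Hgt1_903 Crest.Agent.R320.Nest_85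

universe u

variable {α : Type u} {V : Type u}

/-- a chain rule with lookahead `n` -/
structure Chain (α : Type u) where
  n : ℕ
  Nx : List α → ℕ → Prop
  pos : ∀ {Q t}, Nx Q t → 0 < t
  len : ∀ {Q t}, Nx Q t → t + n ≤ Q.length
  ext : ∀ {Q t} (X : List α), Nx Q t → Nx (Q ++ X) t
  cut : ∀ {Q t} {X : List α}, Nx (Q ++ X) t → t + n ≤ Q.length → Nx Q t
  uniq : ∀ {Q t t'}, Nx Q t → Nx Q t' → t = t'

variable (C : Chain α) (A : V → List α → V)

open Classical in
/-- append a letter, re-anchor if the next anchor has become visible -/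
noncomputable def stp (q : V × List α) (a : α) : V × List α :=
  if h : ∃ b, C.Nx (q.2 ++ [a]) b then
    (A q.1 ((q.2 ++ [a]).take h.choose), (q.2 ++ [a]).drop h.choose)
  else (q.1, q.2 ++ [a])

theorem stp_hit {q : V × List α} {a : α} {b : ℕ} (h : C.Nx (q.2 ++ [a]) b) :
    stp C A q a = (A q.1 ((q.2 ++ [a]).take b), (q.2 ++ [a]).drop b) := by
  have hex : ∃ b, C.Nx (q.2 ++ [a]) b := ⟨b, h⟩
  have hb : hex.choose = b := C.uniq hex.choose_spec h
  unfold stp
  rw [dif_pos hex, hb]

theorem stp_no {q : V × List α} {a : α} (h : ∀ b, ¬ C.Nx (q.2 ++ [a]) b) :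
    stp C A q a = (q.1, q.2 ++ [a]) := by
  unfold stp
  rw [dif_neg (fun hex => h _ hex.choose_spec)]

/-- no anchor is visible in the residual text -/
def Clean (q : V × List α) : Prop := ∀ b, ¬ C.Nx q.2 b

variable {C A}

theorem clean_short {q : V × List α} (h : q.2.length ≤ C.n) : Clean C q := by
  intro b hb
  have h1 := C.len hb
  have h2 := C.pos hb
  omega

theorem clean_stp {q : V × List α} (h : Clean C q) (a : α) : Clean C (stp C A q a) := by
  by_cases hex : ∃ b, C.Nx (q.2 ++ [a]) b
  · obtain ⟨b, hb⟩ := hex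
    rw [stp_hit C A hb]
    apply clean_short
    have h1 := C.len hb
    have h2 : q.2.length < b + C.n := by
      by_contra hlt
      exact h b (C.cut hb (not_lt.mp hlt))
    simp only [List.length_drop, List.length_append, List.length_singleton] at *
    omega
  · have hno : ∀ b, ¬ C.Nx (q.2 ++ [a]) b := fun b hb => hex ⟨b, hb⟩
    rw [stp_no C A hno]
    exact hno

theorem clean_run {q : V × List α} (h : Clean C q) (w : List α) : Clean C (run (stp C A) q w) := by
  induction w generalizing q with
  | nil => exact h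
  | cons a w ih => exact ih (clean_stp h a)

/-- reading without meeting an anchor -/
theorem run_no (w : List α) : ∀ (v : V) (r : List α), (∀ b, ¬ C.Nx (r ++ w) b) →
    run (stp C A) (v, r) w = (v, r ++ w) := by
  induction w with
  | nil => intro v r _; simp [run]
  | cons a w ih =>
    intro v r h
    have h1 : ∀ b, ¬ C.Nx (r ++ [a]) b := by
      intro b hb
      refine h b ?_
      have := C.ext w hb
      rwa [List.append_assoc, List.singleton_append] at this
    change run (stp C A) (stp C A (v, r) a) w = _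
    rw [stp_no C A h1]
    rw [ih v (r ++ [a]) (by
      intro b hb
      refine h b ?_
      rwa [List.append_assoc, List.singleton_append] at hb)]
    simp [List.append_assoc]

/-- reading up to the letter which makes the next anchor visible -/
theorem run_hit {v : V} {r w : List α} {b : ℕ} (hc : Clean C (v, r)) (h : C.Nx (r ++ w) b)
    (hl : (r ++ w).length = b + C.n) :
    run (stp C A) (v, r) w = (A v ((r ++ w).take b), (r ++ w).drop b) := by
  rcases List.eq_nil_or_concat w with rfl | ⟨w0, a, rfl⟩
  · rw [List.append_nil] at h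
    exact absurd h (hc b)
  · have e : r ++ (w0 ++ [a]) = (r ++ w0) ++ [a] := by rw [List.append_assoc]
    simp only [List.concat_eq_append] at h hl ⊢
    rw [e] at h hl ⊢
    rw [run_append, run_no w0 v r]
    · change stp C A (v, r ++ w0) a = _
      rw [stp_hit C A (q := (v, r ++ w0)) h]
    · intro t ht
      have h1 := C.uniq (C.ext [a] ht) h
      have h2 := C.len ht
      subst h1
      simp only [List.length_append, List.length_singleton] at hl h2
      omega

/-- the residual text is a suffix of the text read -/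
theorem run_suffix (w : List α) : ∀ q : V × List α,
    (run (stp C A) q w).2 <:+ q.2 ++ w := by
  induction w with
  | nil => intro q; simp [run]
  | cons a w ih =>
    intro q
    have h1 := ih (stp C A q a)
    change (run (stp C A) (stp C A q a) w).2 <:+ _
    refine h1.trans ?_
    have h2 : (stp C A q a).2 <:+ q.2 ++ [a] := by
      by_cases hex : ∃ b, C.Nx (q.2 ++ [a]) b
      · obtain ⟨b, hb⟩ := hex
        rw [stp_hit C A hb]
        exact List.drop_suffix _ _
      · rw [stp_no C A fun b hb => hex ⟨b, hb⟩]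
    have h3 : q.2 ++ a :: w = (q.2 ++ [a]) ++ w := by simp
    rw [h3]
    obtain ⟨x, hx⟩ := h2
    exact ⟨x, by rw [← List.append_assoc, hx]⟩

/-- the promise: residual text ++ future text is in the factor closed class `RF` -/
def Prom (RF : List α → Prop) (q : V × List α) (w : List α) : Prop := RF (q.2 ++ w)

/-- the data of a cut level: left-legal states, right reset words with the distance of the anchor and
the value at the anchor -/
structure LevD (α V : Type u) where
  Lg : V → List α → Prop
  R : Set (List α)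
  fs : List α → ℕ
  val : List α → V

/-- the associated level of `Nest_85` -/
def LevD.lev (D : LevD α V) : Level α (V × List α) where
  Lg := fun q => D.Lg q.1 q.2
  R := D.R
  c := fun s => (D.val s, s.drop (D.fs s))

theorem drop_add (P Q : List α) (b : ℕ) : (P ++ Q).drop (P.length + b) = Q.drop b := by
  rw [List.drop_append]
  simp

/-- a level which is sound under the promise `Pr` (any prefix closed promise which is stronger than
`Prom RF`) -/
theorem LevD.ok {RF : List α → Prop} (hRF : ∀ x y z : List α, RF (x ++ y ++ z) → RF y)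
    (D : LevD α V) (Bd : List α → V → List α → Prop)
    (Pr : V × List α → List α → Prop)
    (hPr : ∀ q w, Pr q w → Prom RF q w)
    (hPrc : ∀ q p s u, Clean C q → Pr q (p ++ s ++ u) → s ∈ D.R → D.Lg (run (stp C A) q p).1 (run (stp C A) q p).2 →
      run (stp C A) (run (stp C A) q p) s = (D.val s, s.drop (D.fs s)) →
      Pr (D.val s, s.drop (D.fs s)) u)
    (hfin : D.R.Finite) (hlen : ∀ s ∈ D.R, s.length = D.fs s + C.n)
    (hBd : ∀ q p s u, Clean C q → Pr q (p ++ s ++ u) →
      Bd s (run (stp C A) q p).1 (run (stp C A) q p).2)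
    (hjunc : ∀ v P s, s ∈ D.R → D.Lg v P → Clean C (v, P) → RF (P ++ s) → Bd s v P →
      C.Nx (P ++ s) (P.length + D.fs s) ∧ A v ((P ++ s).take (P.length + D.fs s)) = D.val s)
    (hne : ∀ s ∈ D.R, s ≠ []) :
    D.lev.Ok (stp C A) (Clean C) Pr where
  fin := hfin
  ne := hne
  st := by
    intro s hs
    apply clean_short
    change (s.drop (D.fs s)).length ≤ C.n
    rw [List.length_drop, hlen s hs]
    omega
  closed := by
    intro q hq p s u hw hs hl
    have hcl : Clean C (run (stp C A) q p) := clean_run hq p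
    obtain ⟨x, hx⟩ := run_suffix (C := C) (A := A) p q
    have hps : RF ((run (stp C A) q p).2 ++ s) := by
      have h1 := hPr _ _ hw
      have h2 : q.2 ++ (p ++ s ++ u) = x ++ ((run (stp C A) q p).2 ++ s) ++ u := by
        rw [← List.append_assoc, ← List.append_assoc, ← hx]
        simp [List.append_assoc]
      unfold Prom at h1
      rw [h2] at h1
      exact hRF _ _ _ h1
    obtain ⟨hN, hA⟩ := hjunc _ _ s hs hl hcl hps (hBd q p s u hq hw)
    have key : run (stp C A) (run (stp C A) q p) s = (D.val s, s.drop (D.fs s)) := by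
      have := run_hit (C := C) (A := A) (v := (run (stp C A) q p).1)
        (r := (run (stp C A) q p).2) (w := s) hcl hN (by
          rw [List.length_append, hlen s hs]; omega)
      rw [hA, drop_add] at this
      exact this
    exact ⟨key, hPrc q p s u hq hw hs hl key⟩

/-- prefix closure of the promise -/
theorem prom_pre {RF : List α → Prop} (hRF : ∀ x y z : List α, RF (x ++ y ++ z) → RF y)
    (q : V × List α) (u v : List α) (h : Prom RF q (u ++ v)) : Prom RF q u := by
  unfold Prom at *
  refine hRF [] _ v ?_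
  rwa [List.nil_append, List.append_assoc]

theorem prom_reset {RF : List α → Prop} (hRF : ∀ x y z : List α, RF (x ++ y ++ z) → RF y)
    (q : V × List α) (p s u : List α) (v : V) (b : ℕ) (h : Prom RF q (p ++ s ++ u)) :
    Prom RF (v, s.drop b) u := by
  unfold Prom at *
  refine hRF (q.2 ++ p ++ s.take b) _ [] ?_
  have : q.2 ++ p ++ s.take b ++ (s.drop b ++ u) ++ [] = q.2 ++ (p ++ s ++ u) := by
    have h2 : s.take b ++ (s.drop b ++ u) = s ++ u := by
      rw [← List.append_assoc, List.take_append_drop]
    simp only [List.append_assoc, List.append_nil, h2]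
  change RF (q.2 ++ p ++ s.take b ++ (s.drop b ++ u) ++ [])
  rw [this]
  exact h

/-- **TWO LEVELS**: `D1` sound on `RF` texts, `D2` sound on `RF` texts without a `D1`-cut, words
without a `D1`-cut and a `D2`-cut are bounded: every predicate of the final state has height 2. -/
theorem two_levels [Finite α] {RF : List α → Prop}
    (hRF : ∀ x y z : List α, RF (x ++ y ++ z) → RF y)
    (D1 D2 : LevD α V)
    (hfin1 : D1.R.Finite) (hlen1 : ∀ s ∈ D1.R, s.length = D1.fs s + C.n) (hne1 : ∀ s ∈ D1.R, s ≠ [])
    (hfin2 : D2.R.Finite) (hlen2 : ∀ s ∈ D2.R, s.length = D2.fs s + C.n) (hne2 : ∀ s ∈ D2.R, s ≠ [])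
    (snd1 : ∀ v P s, s ∈ D1.R → D1.Lg v P → Clean C (v, P) → RF (P ++ s) →
      C.Nx (P ++ s) (P.length + D1.fs s) ∧ A v ((P ++ s).take (P.length + D1.fs s)) = D1.val s)
    (snd2 : ∀ v P s, s ∈ D2.R → D2.Lg v P → Clean C (v, P) → RF (P ++ s) →
      ¬ Cut (stp C A) D1.lev (v, P) s →
      C.Nx (P ++ s) (P.length + D2.fs s) ∧ A v ((P ++ s).take (P.length + D2.fs s)) = D2.val s)
    (N : ℕ)
    (hN : ∀ q, Clean C q → ∀ w, RF (q.2 ++ w) → ¬ Cut (stp C A) D1.lev q w →
      ¬ Cut (stp C A) D2.lev q w → w.length < N) :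
    ∀ q, Clean C q → ∀ T : V × List α → Prop, ∃ E : Language α, H 2 E ∧
      ∀ w, RF (q.2 ++ w) → (w ∈ E ↔ T (run (stp C A) q w)) := by
  have ok1 : D1.lev.Ok (stp C A) (Clean C) (Prom RF) := by
    refine LevD.ok (C := C) (A := A) hRF D1 (fun _ _ _ => True) (Prom RF) (fun _ _ h => h) ?_
      hfin1 hlen1 (fun _ _ _ _ _ _ => trivial) (fun v P s hs hl hc hr _ => snd1 v P s hs hl hc hr) hne1
    intro q p s u _ hw _ _ _
    exact prom_reset hRF q p s u _ _ hw
  have ok2 : D2.lev.Ok (stp C A) (Clean C)
      (fun q w => Prom RF q w ∧ ¬ Cut (stp C A) D1.lev q w) := by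
    refine LevD.ok (C := C) (A := A) hRF D2
      (fun s v P => ¬ Cut (stp C A) D1.lev (v, P) s) _ (fun _ _ h => h.1) ?_
      hfin2 hlen2 ?_ (fun v P s hs hl hc hr hb => snd2 v P s hs hl hc hr hb) hne2
    · intro q p s u _ hw _ _ hrun
      refine ⟨prom_reset hRF q p s u _ _ hw.1, fun hc => hw.2 ?_⟩
      apply Cut.prepend
      rw [run_append, hrun]
      exact hc
    · intro q p s u _ hw hc
      refine hw.2 ?_
      apply Cut.append
      apply Cut.prepend
      exact hc
  have inner := nest (stp C A) (Clean C) (fun q w => Prom RF q w ∧ ¬ Cut (stp C A) D1.lev q w)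
    (fun q u v h => ⟨prom_pre hRF q u v h.1, fun hc => h.2 hc.append⟩) D2.lev ok2 0
    (fun _ => True) trivial (by
      intro q hq T _
      refine ⟨({w | (Prom RF q w ∧ ¬ Cut (stp C A) D1.lev q w) ∧ ¬ Cut (stp C A) D2.lev q w ∧
        T (run (stp C A) q w)} : Language α), ?_, ?_⟩
      · refine H.bounded 0 N fun w hw => ?_
        exact (hN q hq w hw.1.1 hw.1.2 hw.2.1).le
      · intro w hw hc
        exact ⟨fun h => h.2.2, fun h => ⟨hw, hc, h⟩⟩)
  have outer := nest (stp C A) (Clean C) (Prom RF) (fun q u v h => prom_pre hRF q u v h) D1.lev ok1 1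
    (fun _ => True) trivial (by
      intro q hq T hT
      obtain ⟨E, h1, h2⟩ := inner q hq T hT
      exact ⟨E, h1, fun w hw hc => h2 w ⟨hw, hc⟩⟩)
  intro q hq T
  obtain ⟨E, h1, h2⟩ := outer q hq T trivial
  exact ⟨E, h1, fun w hw => h2 w hw⟩

/-- boundedness of uncut words from zone-wise completeness -/
theorem bounded_of_zone {RF : List α → Prop}
    (hRF : ∀ x y z : List α, RF (x ++ y ++ z) → RF y)
    (D1 D2 : LevD α V) (B0 B : ℕ)
    (hnx : ∀ Y, RF Y → B0 ≤ Y.length → ∃ b, C.Nx Y b ∧ b + C.n ≤ B0)
    (hcmp : ∀ v Y, RF Y → B ≤ Y.length →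
      (∃ P s y, Y = P ++ s ++ y ∧ s ∈ D1.R ∧ D1.Lg v P ∧ Clean C (v, P) ∧ C.n ≤ P.length) ∨
      (∃ P s y, Y = P ++ s ++ y ∧ s ∈ D2.R ∧ D2.Lg v P ∧ Clean C (v, P) ∧ C.n ≤ P.length)) :
    ∀ q, Clean C q → ∀ w, RF (q.2 ++ w) → ¬ Cut (stp C A) D1.lev q w →
      ¬ Cut (stp C A) D2.lev q w → w.length < B0 + B := by
  intro q hq w hw hc1 hc2
  by_contra hlt
  push Not at hlt
  obtain ⟨v, r⟩ := q
  change RF (r ++ w) at hw
  obtain ⟨b, hb, hbB⟩ := hnx (r ++ w) hw (by rw [List.length_append]; omega)
  have hrb : r.length < b + C.n := by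
    by_contra h
    exact hq b (C.cut hb (not_lt.mp h))
  set Y := (r ++ w).drop b with hY
  have hYRF : RF Y := by
    refine hRF ((r ++ w).take b) Y [] ?_
    rw [List.append_nil, hY, List.take_append_drop]
    exact hw
  have hYl : B ≤ Y.length := by
    rw [hY, List.length_drop, List.length_append]
    omega
  -- the state after the discovery of `b` and the text `P`
  have hstate : ∀ P z, Y = P ++ z → Clean C (A v ((r ++ w).take b), P) → C.n ≤ P.length →
      ∃ p, w = p ++ z ∧ run (stp C A) (v, r) p = (A v ((r ++ w).take b), P) := by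
    intro P z hPz hcP hnP
    -- text up to the visibility of `b`
    have hsplit : r ++ w = (r ++ w).take b ++ P ++ z := by
      rw [List.append_assoc, ← hPz, hY, List.take_append_drop]
    have hbl : b ≤ (r ++ w).length := by have := C.len hb; omega
    have htl : ((r ++ w).take b).length = b := by rw [List.length_take]; omega
    -- `r` is a prefix of `take b ++ P.take n`
    obtain ⟨P1, P2, hP, hP1⟩ : ∃ P1 P2, P = P1 ++ P2 ∧ P1.length = C.n :=
      ⟨P.take C.n, P.drop C.n, (List.take_append_drop _ _).symm, by rw [List.length_take]; omega⟩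
    have hpre : r <+: (r ++ w).take b ++ P1 := by
      have h1 : r <+: r ++ w := List.prefix_append _ _
      have h2 : (r ++ w).take b ++ P1 <+: r ++ w := by
        conv_rhs => rw [hsplit, hP]
        refine ⟨P2 ++ z, ?_⟩
        simp [List.append_assoc]
      refine List.prefix_of_prefix_length_le h1 h2 ?_
      rw [List.length_append, htl, hP1]
      omega
    obtain ⟨p1, hp1⟩ := hpre
    have hw1 : w = p1 ++ P2 ++ z := by
      have : r ++ w = r ++ (p1 ++ P2 ++ z) := by
        conv_lhs => rw [hsplit, hP]
        rw [← List.append_assoc r, ← List.append_assoc r, hp1]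
        simp [List.append_assoc]
      exact List.append_cancel_left this
    refine ⟨p1 ++ P2, hw1, ?_⟩
    have hlen1 : (r ++ p1).length = b + C.n := by
      rw [hp1, List.length_append, htl, hP1]
    have hNx1 : C.Nx (r ++ p1) b := by
      refine C.cut (X := P2 ++ z) ?_ (by rw [hlen1])
      have : r ++ p1 ++ (P2 ++ z) = r ++ w := by
        rw [hw1]; simp [List.append_assoc]
      rw [this]; exact hb
    rw [run_append, run_hit hq hNx1 hlen1]
    have htake : (r ++ p1).take b = (r ++ w).take b := by
      rw [hp1, List.take_append_of_le_length (by omega), List.take_take, min_self]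
    have hdrop : (r ++ p1).drop b = P1 := by
      rw [hp1, List.drop_append_of_le_length (by omega)]
      have : ((r ++ w).take b).drop b = [] := by
        apply List.drop_eq_nil_of_le
        omega
      rw [this, List.nil_append]
    rw [htake, hdrop, run_no P2 _ P1 (by rw [← hP]; exact hcP), ← hP]
  rcases hcmp (A v ((r ++ w).take b)) Y hYRF hYl with
    ⟨P, s, y, h1, h2, h3, h4, h5⟩ | ⟨P, s, y, h1, h2, h3, h4, h5⟩
  · obtain ⟨p, hp, hrun⟩ := hstate P (s ++ y) (by rw [h1, List.append_assoc]) h4 h5
    refine hc1 ⟨p, s, y, by rw [hp, List.append_assoc], h2, ?_⟩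
    rw [hrun]
    exact h3
  · obtain ⟨p, hp, hrun⟩ := hstate P (s ++ y) (by rw [h1, List.append_assoc]) h4 h5
    refine hc2 ⟨p, s, y, by rw [hp, List.append_assoc], h2, ?_⟩
    rw [hrun]
    exact h3

/-! ## Read-off -/

section readoff

variable {S : Type u} [Monoid S]

/-- residual text and transport: the residual does not depend on the token, and the difference of two
threads is transported by the product of the text before the active anchor -/
theorem readoff [AddCommGroup V] (φ : List α → S) (hφ : ∀ x y, φ (x ++ y) = φ x * φ y)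
    (hφ1 : φ [] = 1)
    (act : V → S → V) (act_one : ∀ v, act v 1 = v) (act_mul : ∀ v g h, act v (g * h) = act (act v g) h)
    (hA : ∀ v v' Z, A v Z - A v' Z = act (v - v') (φ Z)) (w : List α) :
    ∃ w1, w1 ++ (run (stp C A) ((0 : V), []) w).2 = w ∧
      (∀ v v', (run (stp C A) (v, []) w).2 = (run (stp C A) (v', []) w).2 ∧
        (run (stp C A) (v, []) w).1 - (run (stp C A) (v', []) w).1 = act (v - v') (φ w1)) := by
  induction w using List.reverseRecOn with
  | nil => exact ⟨[], rfl, fun v v' => ⟨rfl, by rw [hφ1, act_one]; rfl⟩⟩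
  | append_singleton w a ih =>
    obtain ⟨w1, h1, h2⟩ := ih
    simp only [run_append]
    set r := (run (stp C A) ((0 : V), []) w).2 with hr
    have h3 : ∀ v, run (stp C A) (v, []) w = ((run (stp C A) (v, []) w).1, r) := by
      intro v
      rw [hr, ← (h2 v 0).1]
    by_cases hex : ∃ b, C.Nx (r ++ [a]) b
    · obtain ⟨b, hb⟩ := hex
      have h4 : ∀ v, run (stp C A) (run (stp C A) (v, []) w) [a] =
          (A (run (stp C A) (v, []) w).1 ((r ++ [a]).take b), (r ++ [a]).drop b) := by
        intro v
        rw [h3 v]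
        exact stp_hit C A (q := ((run (stp C A) (v, []) w).1, r)) hb
      refine ⟨w1 ++ (r ++ [a]).take b, ?_, ?_⟩
      · rw [h4, List.append_assoc]
        change w1 ++ ((r ++ [a]).take b ++ (r ++ [a]).drop b) = _
        rw [List.take_append_drop, ← List.append_assoc, h1]
      · intro v v'
        rw [h4, h4]
        refine ⟨rfl, ?_⟩
        change A _ _ - A _ _ = _
        rw [hA, (h2 v v').2, hφ, act_mul]
    · have h4 : ∀ v, run (stp C A) (run (stp C A) (v, []) w) [a] =
          ((run (stp C A) (v, []) w).1, r ++ [a]) := by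
        intro v
        rw [h3 v]
        exact stp_no C A (q := ((run (stp C A) (v, []) w).1, r)) fun b hb => hex ⟨b, hb⟩
      refine ⟨w1, ?_, ?_⟩
      · rw [h4]
        change w1 ++ (r ++ [a]) = _
        rw [← List.append_assoc, h1]
      · intro v v'
        rw [h4, h4]
        exact ⟨rfl, (h2 v v').2⟩

/-- **HALF 1 from a two-level machine**: on `RF` every fibre of `φ` has height 2. -/
theorem half1 [Finite α] [AddCommGroup V] [Finite V] {RF : List α → Prop}
    (hRF : ∀ x y z : List α, RF (x ++ y ++ z) → RF y)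
    (φ : List α → S) (hφ : ∀ x y, φ (x ++ y) = φ x * φ y) (hφ1 : φ [] = 1)
    (act : V → S → V) (act_one : ∀ v, act v 1 = v) (act_mul : ∀ v g h, act v (g * h) = act (act v g) h)
    (faithful : ∀ g h, (∀ v, act v g = act v h) → g = h)
    (hA : ∀ v v' Z, A v Z - A v' Z = act (v - v') (φ Z))
    (B0 : ℕ) (hnx : ∀ Y, RF Y → B0 ≤ Y.length → ∃ b, C.Nx Y b ∧ b + C.n ≤ B0)
    (hE : ∀ q, Clean C q → ∀ T : V × List α → Prop, ∃ E : Language α, H 2 E ∧
      ∀ w, RF (q.2 ++ w) → (w ∈ E ↔ T (run (stp C A) q w))) (s : S) :
    ∃ E : Language α, H 2 E ∧ ∀ w, RF w → (w ∈ E ↔ φ w = s) := by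
  classical
  have hclean : ∀ v : V, Clean C (v, ([] : List α)) := fun v => clean_short (Nat.zero_le _)
  choose E hE1 hE2 using fun (v : V) (σ : V × List α) => hE (v, []) (hclean v) (fun q => q = σ)
  let good : (V → V) → List α → Prop := fun f r => ∀ g, (∀ v, act v g = f v - f 0) → g * φ r = s
  let X : (V → V) → List α → Language α := fun f r =>
    ({w | good f r ∧ ∀ v, w ∈ E v (f v, r)} : Language α)
  have hX : ∀ f r, H 2 (X f r) := fun f r =>
    H.inter (H.const 2 (good f r)) (H.forall_fintype (fun v => E v (f v, r)) fun v => hE1 _ _)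
  have hfinr : Set.Finite {r : List α | r.length ≤ B0} := List.finite_length_le α B0
  refine ⟨({w | ∃ r ∈ hfinr.toFinset, w ∈ ({w | ∃ f : V → V, w ∈ X f r} : Language α)} : Language α),
    H.exists_finset _ _ fun r _ => H.exists_fintype _ fun f => hX f r, ?_⟩
  intro w hw
  obtain ⟨w1, h1, h2⟩ := readoff (C := C) (A := A) φ hφ hφ1 act act_one act_mul hA w
  have hzero : ∀ v : V, v - 0 = v := sub_zero
  have hrun : ∀ v, (w ∈ E v ((run (stp C A) (v, []) w).1, (run (stp C A) ((0 : V), []) w).2)) := by
    intro v
    rw [hE2 v _ w hw]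
    exact Prod.ext rfl (h2 v 0).1
  have hw1 : ∀ g, (∀ v, act v g = (run (stp C A) (v, []) w).1 - (run (stp C A) ((0 : V), []) w).1) →
      g = φ w1 := by
    intro g hg
    refine faithful g _ fun v => ?_
    rw [hg v, (h2 v 0).2, hzero]
  constructor
  · rintro ⟨r, _, f, hg, hf⟩
    have hf' : ∀ v, run (stp C A) (v, []) w = (f v, r) := fun v => (hE2 v _ w hw).mp (hf v)
    have h3 : φ w1 * φ r = s := by
      refine hg (φ w1) fun v => ?_
      have := (h2 v 0).2
      rw [hzero, hf' v, hf' 0] at this
      exact this.symm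
    rw [hf' 0] at h1
    rw [← h1, hφ]
    exact h3
  · intro hs
    refine ⟨(run (stp C A) ((0 : V), []) w).2, ?_, fun v => (run (stp C A) (v, []) w).1, ?_, hrun⟩
    · rw [Set.Finite.mem_toFinset]
      change (run (stp C A) ((0 : V), []) w).2.length ≤ B0
      by_contra hlt
      push Not at hlt
      have hcl := clean_run (C := C) (A := A) (hclean 0) w
      have hRr : RF (run (stp C A) ((0 : V), []) w).2 := by
        refine hRF w1 _ [] ?_
        rw [List.append_nil, h1]
        exact hw
      obtain ⟨b, hb, _⟩ := hnx _ hRr hlt.le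
      exact hcl b hb
    · intro g hg
      rw [hw1 g hg, ← hφ, h1]
      exact hs

end readoff

end Crest.Agent.R320.Half1_870
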