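import Crest.Agent.R320.Asm_505

/-!
# Row 320: HALF 1 from two levels on run-free words (helper91)

505's two nested levels, with (a) a class `C` of words (run-free words) instead of all words,
all block data finite, (b) the inner (promise) scheme may have right words which reach over
the NEXT block(s): `p ++ q` is a product of blocks of the code `U`.
-/

set_option autoImplicit false

namespace Crest.Agent.R320.Half1_91

open Crest.RegLang Crest.Agent.R320.Hk_851 Crest.Agent.R320.Asm_505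

universe u v

variable {α : Type u} {Ω : Type v}

/-- if `w ∈ V*` (`V ⊆ U`, `U` prefix code) starts with a product of blocks of `U`, these blocks
are in `V` and the rest is in `V*`. -/
theorem split_star {U V : Language α} (hU : PC U) (hVU : ∀ z ∈ V, z ∈ U) :
    ∀ (l : List (List α)) (y : List α), (∀ z ∈ l, z ∈ U) → l.flatten ++ y ∈ KStar.kstar V →
      (∀ z ∈ l, z ∈ V) ∧ y ∈ KStar.kstar V := by
  intro l
  induction l with
  | nil => intro y _ h; exact ⟨by simp, by simpa using h⟩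
  | cons z l ih =>
    intro y h1 h
    obtain ⟨l', h2, h3⟩ := mem_kstar.1 h
    cases l' with
    | nil =>
      exfalso
      have : z = [] := by
        have h4 : z ++ (l.flatten ++ y) = [] := by simpa using h3.symm
        exact (List.append_eq_nil_iff.1 h4).1
      exact hU.ne (this ▸ h1 z (by simp))
    | cons z' l' =>
      have h4 : z' ++ l'.flatten = z ++ (l.flatten ++ y) := by simpa using h3
      obtain ⟨h5, h6⟩ := pc_head hU (hVU _ (h2 z' (by simp))) (h1 z (by simp)) h4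
      obtain ⟨g1, g2⟩ := ih y (fun t ht => h1 t (by simp [ht]))
        (mem_kstar.2 ⟨l', fun t ht => h2 t (by simp [ht]), h6⟩)
      refine ⟨?_, g2⟩
      intro t ht
      rcases List.mem_cons.1 ht with rfl | ht
      · exact h5 ▸ h2 z' (by simp)
      · exact g1 t ht

/-- the inner level: sound on the promise code `V ⊆ U`, a right word may contain further blocks of
`U`; complete for two consecutive blocks of `V`. -/
structure Level2 (U V : Language α) (eps : List α → Ω → Ω) (P R : Ω → Language α) : Prop where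
  pne : ∀ x, [] ∉ P x
  sound : ∀ z ∈ V, ∀ x y, ∀ p ∈ P x, ∀ q ∈ R y, (z <+: p ++ q ∨ p ++ q <+: z) →
    Path U eps x (p ++ q) y
  compl : ∀ z₁ ∈ V, ∀ z₂ ∈ V, ∀ x, ∃ p ∈ P x, ∃ q ∈ R (eps z₂ (eps z₁ x)), z₁ ++ z₂ = p ++ q

/-- at most one block -/
def W1 (V : Language α) (eps : List α → Ω → Ω) (x y : Ω) : Language α :=
  {w | (x = y ∧ w = []) ∨ (w ∈ V ∧ eps w x = y)}

theorem W1_path {V : Language α} {eps : List α → Ω → Ω} {x y : Ω} {w : List α}
    (h : w ∈ W1 V eps x y) : Path V eps x w y := by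
  rcases h with ⟨rfl, rfl⟩ | ⟨h1, h2⟩
  · exact Path.nil _ _ _
  · have := Path.cons (eps := eps) (x := x) h1 (Path.nil V eps (eps w x))
    rw [List.append_nil, h2] at this
    exact this

theorem fwd2 {U V : Language α} {eps : List α → Ω → Ω} {P R : Ω → Language α}
    (L : Level2 U V eps P R) :
    ∀ (n : ℕ) (l : List (List α)) (x : Ω), l.length ≤ n → (∀ z ∈ l, z ∈ V) →
      l.flatten ∈ Rhs P R (W1 V eps) x (Run eps x l) := by
  intro n
  induction n with
  | zero =>
    intro l x hn hl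
    have : l = [] := List.length_eq_zero_iff.1 (Nat.le_zero.1 hn)
    subst this
    left; left; exact ⟨rfl, rfl⟩
  | succ n ih =>
    intro l x hn hl
    match l, hn, hl with
    | [], _, _ => left; left; exact ⟨rfl, rfl⟩
    | [z], _, hl =>
      left; right
      refine ⟨by simpa using hl z (by simp), by simp [Run]⟩
    | z₁ :: z₂ :: l, hn, hl =>
      obtain ⟨p, hp, q, hq, he⟩ := L.compl z₁ (hl z₁ (by simp)) z₂ (hl z₂ (by simp)) x
      have h2 := ih l (eps z₂ (eps z₁ x)) (by simp at hn; omega)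
        (fun t ht => hl t (by simp [ht]))
      have e1 : (z₁ :: z₂ :: l).flatten = p ++ q ++ l.flatten := by
        rw [← he]; simp
      rw [Run_cons, Run_cons, e1]
      right
      rcases h2 with h2 | ⟨x1, y1, w1, hw1, p1, hp1, k, hk, q1, hq1, w2, hw2, h3⟩
      · refine ⟨x, eps z₂ (eps z₁ x), [], Or.inl ⟨rfl, rfl⟩, p, hp, [], ?_, q, hq, l.flatten,
          h2, ?_⟩
        · exact mem_kstar.2 ⟨[], by simp, rfl⟩
        · simp
      · refine ⟨x, y1, [], Or.inl ⟨rfl, rfl⟩, p, hp, (q ++ w1 ++ p1) ++ k, ?_, q1, hq1, w2,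
          hw2, ?_⟩
        · exact kstar_cons ⟨_, _, q, hq, w1, hw1, p1, hp1, rfl⟩ hk
        · simp [h3]

theorem bwd2 {U V : Language α} {eps : List α → Ω → Ω} {P R : Ω → Language α}
    (hU : PC U) (hVU : ∀ z ∈ V, z ∈ U) (L : Level2 U V eps P R) {W : Ω → Ω → Language α}
    (W2 : ∀ x y w, w ∈ W x y → Path U eps x w y) :
    ∀ (ks : List (List α)) (x y1 y : Ω) (p q w2 : List α), (∀ k ∈ ks, k ∈ KK P R W) →
      p ∈ P x → q ∈ R y1 → w2 ∈ W y1 y → p ++ ks.flatten ++ q ++ w2 ∈ KStar.kstar V →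
      Path U eps x (p ++ ks.flatten ++ q ++ w2) y := by
  intro ks
  induction ks with
  | nil =>
    intro x y1 y p q w2 _ hp hq hw2 hw
    simp only [List.flatten_nil, List.append_nil] at hw ⊢
    obtain ⟨l, h1, h2⟩ := mem_kstar.1 hw
    cases l with
    | nil =>
      exfalso
      have h3 : p ++ (q ++ w2) = [] := by simpa using h2.symm
      have := (List.append_eq_nil_iff.1 h3).1
      exact L.pne x (this ▸ hp)
    | cons z l =>
      have h3 : z ++ l.flatten = (p ++ q) ++ w2 := by simpa using h2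
      have hc : z <+: p ++ q ∨ p ++ q <+: z :=
        List.prefix_or_prefix_of_prefix ⟨l.flatten, h3⟩ ⟨w2, rfl⟩
      exact (L.sound z (h1 z (by simp)) x y1 p hp q hq hc).append (W2 _ _ _ hw2)
  | cons k ks ih =>
    intro x y1 y p q w2 hks hp hq hw2 hw
    obtain ⟨a, b, q1, hq1, w1, hw1, p1, hp1, hk⟩ := hks k (by simp)
    subst hk
    obtain ⟨l, h1, h2⟩ := mem_kstar.1 hw
    cases l with
    | nil =>
      exfalso
      have h3 : p ++ (q1 ++ w1 ++ p1 ++ (ks.flatten ++ q ++ w2)) = [] := by simpa using h2.symm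
      have := (List.append_eq_nil_iff.1 h3).1
      exact L.pne x (this ▸ hp)
    | cons z l =>
      have h3 : z ++ l.flatten = (p ++ q1) ++ (w1 ++ (p1 ++ ks.flatten ++ q ++ w2)) := by
        have : z ++ l.flatten = p ++ (q1 ++ w1 ++ p1 ++ ks.flatten) ++ q ++ w2 := by
          simpa using h2
        rw [this]; simp
      have hc : z <+: p ++ q1 ∨ p ++ q1 <+: z :=
        List.prefix_or_prefix_of_prefix ⟨l.flatten, h3⟩ ⟨_, rfl⟩
      have h4 : Path U eps x (p ++ q1) a := L.sound z (h1 z (by simp)) x a p hp q1 hq1 hc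
      have h7 : Path U eps a w1 b := W2 _ _ _ hw1
      have h8 : p1 ++ ks.flatten ++ q ++ w2 ∈ KStar.kstar V := by
        obtain ⟨l1, g1, g2, _⟩ := h4.append h7
        refine (split_star hU hVU l1 _ g1 ?_).2
        rw [g2]
        have : p ++ q1 ++ w1 ++ (p1 ++ ks.flatten ++ q ++ w2)
            = p ++ ((q1 ++ w1 ++ p1) :: ks).flatten ++ q ++ w2 := by simp
        rw [this]
        exact hw
      have h9 := ih b y1 y p1 q w2 (fun t ht => hks t (by simp [ht])) hp1 hq hw2 h8
      have h10 : p ++ ((q1 ++ w1 ++ p1) :: ks).flatten ++ q ++ w2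
          = (p ++ q1) ++ w1 ++ (p1 ++ ks.flatten ++ q ++ w2) := by
        simp
      rw [h10]
      exact (h4.append h7).append h9

theorem level2_lemma {U V : Language α} {eps : List α → Ω → Ω} {P R : Ω → Language α}
    (hU : PC U) (hVU : ∀ z ∈ V, z ∈ U) (L : Level2 U V eps P R) (x y : Ω) (w : List α) :
    Path V eps x w y ↔ w ∈ KStar.kstar V ∧ w ∈ Rhs P R (W1 V eps) x y := by
  have hW : ∀ x y w, w ∈ W1 V eps x y → Path U eps x w y := fun x y w h =>
    (W1_path h).mono hVU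
  constructor
  · rintro ⟨l, h1, h2, h3⟩
    refine ⟨mem_kstar.2 ⟨l, h1, h2⟩, ?_⟩
    have := fwd2 L l.length l x le_rfl h1
    rw [h3, h2] at this
    exact this
  · rintro ⟨hw, h | ⟨x1, y1, w1, hw1, p, hp, k, hk, q, hq, w2, hw2, rfl⟩⟩
    · exact W1_path h
    · have h7 : Path U eps x w1 x1 := hW _ _ _ hw1
      obtain ⟨ks, g1, g2⟩ := mem_kstar.1 hk
      subst g2
      have h8 : p ++ ks.flatten ++ q ++ w2 ∈ KStar.kstar V := by
        obtain ⟨l1, g1, g2, _⟩ := h7
        refine (split_star hU hVU l1 _ g1 ?_).2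
        rw [g2]
        simpa using hw
      have h9 := bwd2 hU hVU L hW ks x1 y1 y p q w2 g1 hp hq hw2 h8
      obtain ⟨l, g3, g4, g5⟩ := h7.append h9
      have g6 : ∀ z ∈ l, z ∈ V := by
        refine (split_star hU hVU l [] g3 ?_).1
        rw [g4, List.append_nil]
        simpa using hw
      refine ⟨l, g6, ?_, g5⟩
      rw [g4]; simp

variable {k : ℕ}

theorem HL.path2 [Finite Ω] {U V : Language α} {eps : List α → Ω → Ω} {P R : Ω → Language α}
    (hU : PC U) (hVU : ∀ z ∈ V, z ∈ U) (L : Level2 U V eps P R)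
    (hV' : HL k V) (hVe : ∀ x y, HL k ({w | w ∈ V ∧ eps w x = y} : Language α))
    (hP : ∀ x, HL k (P x)) (hR : ∀ x, HL k (R x))
    (x y : Ω) : HL (k + 1) ({w | Path V eps x w y} : Language α) := by
  have hW : ∀ x y, HL k (W1 V eps x y) := fun x y =>
    ((HL.const (k := k) (x = y)).setOf_and (HL.one (α := α) (k := k))).setOf_or (hVe x y)
  refine (hV'.star.inf (HL.Rhs hP hR hW x y)).congr fun w => ?_
  exact level2_lemma hU hVU L x y w

/-- The words of length at most `N` with `φ`-product `b`. -/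
def Sh {M : Type*} [Monoid M] (φ : α → M) (N : ℕ) (b : M) : Language α :=
  {r | r.length ≤ N ∧ (r.map φ).prod = b}

/-- **HALF 1 FROM TWO LEVELS** (finite block code `U`, class `C` of words). -/
theorem half1 {Ω₁ Ω₂ : Type*} [Finite Ω₁] [Finite Ω₂] {M : Type*} [Monoid M] [Finite M]
    [Finite α]
    (φ : α → M) {U B : Language α} (hU : PC U) (hBU : ∀ z ∈ B, z ∈ U)
    {eps₁ : List α → Ω₁ → Ω₁} {P₁ R₁ : Ω₁ → Language α} (L1 : Level U B eps₁ P₁ R₁)
    {eps₂ : List α → Ω₂ → Ω₂} {P₂ R₂ : Ω₂ → Language α} (L2 : Level2 U B eps₂ P₂ R₂)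
    (dec₁ : ∀ l l', (∀ z ∈ l, z ∈ U) → (∀ z ∈ l', z ∈ U) →
      (∀ x, Run eps₁ x l = Run eps₁ x l') →
        (l.flatten.map φ).prod = (l'.flatten.map φ).prod)
    (dec₂ : ∀ l l', (∀ z ∈ l, z ∈ B) → (∀ z ∈ l', z ∈ B) →
      (∀ x, Run eps₂ x l = Run eps₂ x l') → ∀ x, Run eps₁ x l = Run eps₁ x l')
    (N : ℕ) (hUN : ∀ z ∈ U, z.length ≤ N) (hP₁ : ∀ x, ∀ p ∈ P₁ x, p.length ≤ N)
    (hR₁ : ∀ x, ∀ p ∈ R₁ x, p.length ≤ N) (hP₂ : ∀ x, ∀ p ∈ P₂ x, p.length ≤ N)
    (hR₂ : ∀ x, ∀ p ∈ R₂ x, p.length ≤ N)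
    (C : List α → Prop) (hC : HL 2 ({w | C w} : Language α))
    (cover : ∀ w, C w → ∃ (l : List (List α)) (r : List α), (∀ z ∈ l, z ∈ U) ∧
      l.flatten ++ r = w ∧ r.length ≤ N) (m : M) :
    HL 2 ({w | C w ∧ (w.map φ).prod = m} : Language α) := by
  classical
  have hfin : ∀ {L : Language α}, (∀ p ∈ L, p.length ≤ N) → HL 0 L := by
    intro L h
    exact HL.finite ((List.finite_length_le α N).subset h)
  have hHU : HL 0 U := hfin hUN
  have hHB : HL 0 B := hfin fun z hz => hUN z (hBU z hz)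
  have hB : PC B := ⟨fun h => hU.ne (hBU _ h),
    fun z hz z' hz' h => hU.pc z (hBU z hz) z' (hBU z' hz') h⟩
  have s1 : ∀ x y, HL 1 ({w | Path B eps₂ x w y} : Language α) := by
    intro x y
    exact HL.path2 (k := 0) hU hBU L2 hHB
      (fun x y => hfin fun w hw => hUN w (hBU w hw.1)) (fun x => hfin (hP₂ x))
      (fun x => hfin (hR₂ x)) x y
  have s2 : ∀ x y, HL 1 ({w | Path B eps₁ x w y} : Language α) := by
    intro x y
    refine (HL.decode hB (fun l => Run eps₁ x l)
      (fun l l' hl hl' h => dec₂ l l' hl hl' h x) hHB.star s1 y).congr fun w => ?_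
    exact Iff.rfl
  have s3 : ∀ x y, HL 2 ({w | Path U eps₁ x w y} : Language α) := by
    intro x y
    exact HL.path (k := 1) hU L1 (W := fun x y => ({w | Path B eps₁ x w y} : Language α))
      (fun x w y h => h) (fun x y w h => Path.mono hBU h) (hHU.mono (by omega))
      (fun x => (hfin (hP₁ x)).mono (by omega))
      (fun x => (hfin (hR₁ x)).mono (by omega)) s2 x y
  have s4 : ∀ c : M, HL 2 (ZL φ U c) := fun c =>
    HL.decode hU (fun l : List (List α) => (l.flatten.map φ).prod) dec₁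
      (hHU.star.mono (by omega)) s3 c
  have hrest : ∀ b : M, HL 2 (Sh φ N b) := fun b =>
    (hfin (L := Sh φ N b) fun r hr => (show r.length ≤ N ∧ _ from hr).1).mono (by omega)
  have s5 : HL 2 ({w | ∃ ab : {ab : M × M // ab.1 * ab.2 = m}, w ∈
      ZL φ U ab.1.1 * Sh φ N ab.1.2} : Language α) :=
    HL.exists' fun ab => (s4 ab.1.1).mul (hrest ab.1.2)
  refine (hC.inf s5).congr fun w => ?_
  constructor
  · rintro ⟨hw, hm⟩
    refine ⟨hw, ?_⟩
    obtain ⟨l, r, h1, h3, h4⟩ := cover w hw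
    refine ⟨⟨((l.flatten.map φ).prod, (r.map φ).prod), ?_⟩, ?_⟩
    · rw [← hm, ← h3, List.map_append, List.prod_append]
    · exact Language.mem_mul.2 ⟨l.flatten, ⟨l, h1, rfl, rfl⟩, r, ⟨h4, rfl⟩, h3⟩
  · rintro ⟨hw, ⟨⟨a, b⟩, hab⟩, h⟩
    refine ⟨hw, ?_⟩
    obtain ⟨x, ⟨l, h1, h2, h3⟩, r, ⟨h4, h5⟩, h6⟩ := Language.mem_mul.1 h
    subst h2
    change (w.map φ).prod = m
    rw [← h6, List.map_append, List.prod_append, h3, h5]
    exact hab

end Crest.Agent.R320.Half1_91
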