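import Crest.Agent.R320.Lv1_973

/-! Row 320: the ruler lemma: few places are spoiled. -/

set_option autoImplicit false

namespace Crest.Agent.R320.Lv1_973

open Crest.Agent.R320.Zone132_898 (R_left drop_add FW)

variable {α : Type*}

theorem pow_uniq_aux {i j i' j' : ℕ} (h : 2 ^ i + 2 ^ j' = 2 ^ i' + 2 ^ j) (hij : i ≠ j)
    (hlt : i < i') : False := by
  have h1 : 2 ^ (i + 1) ≤ 2 ^ i' := Nat.pow_le_pow_right (by norm_num) hlt
  have h2 : 2 ^ (i + 1) = 2 * 2 ^ i := by ring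
  have hpos : 0 < 2 ^ i := by positivity
  have hposj : 0 < 2 ^ j := by positivity
  rcases lt_or_gt_of_ne hij with h3 | h3
  · -- i < j
    have h4 : 2 ^ (i + 1) ≤ 2 ^ j := Nat.pow_le_pow_right (by norm_num) h3
    have h5 : 2 ^ i' < 2 ^ j' := by omega
    have h6 : 2 ^ j < 2 ^ j' := by omega
    have h7 : i' < j' := (Nat.pow_lt_pow_iff_right (by norm_num)).1 h5
    have h8 : j < j' := (Nat.pow_lt_pow_iff_right (by norm_num)).1 h6
    have h9 : 2 ^ (i' + 1) ≤ 2 ^ j' := Nat.pow_le_pow_right (by norm_num) h7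
    have h10 : 2 ^ (j + 1) ≤ 2 ^ j' := Nat.pow_le_pow_right (by norm_num) h8
    have h11 : 2 ^ (i' + 1) = 2 * 2 ^ i' := by ring
    have h12 : 2 ^ (j + 1) = 2 * 2 ^ j := by ring
    omega
  · -- j < i
    have h4 : 2 ^ j < 2 ^ i := (Nat.pow_lt_pow_iff_right (by norm_num)).2 h3
    have h5 : 2 ^ j' < 2 ^ i' := by omega
    have h7 : j' < i' := (Nat.pow_lt_pow_iff_right (by norm_num)).1 h5
    have h8 : 2 ^ (j' + 1) ≤ 2 ^ i' := Nat.pow_le_pow_right (by norm_num) h7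
    have h9 : 2 ^ (j' + 1) = 2 * 2 ^ j' := by ring
    omega

theorem pow_uniq {i j i' j' : ℕ} (h : 2 ^ i + 2 ^ j' = 2 ^ i' + 2 ^ j) (hij : i ≠ j)
    (hij' : i' ≠ j') : i = i' := by
  rcases lt_trichotomy i i' with h1 | h1 | h1
  · exact (pow_uniq_aux h hij h1).elim
  · exact h1
  · exact (pow_uniq_aux h.symm hij' h1).elim

theorem wall_uniq (W : WR α) {s : ℕ} (sep : ∀ Q d, W.R Q → 0 < d → d ≤ s → ¬ W.R (Q.drop d))
    {Y : List α} {T T' : ℕ} (h : W.R (Y.drop T)) (h' : W.R (Y.drop T')) (h1 : T ≤ T' + s)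
    (h2 : T' ≤ T + s) : T = T' := by
  rcases lt_trichotomy T T' with h3 | h3 | h3
  · exfalso
    apply sep _ (T' - T) h (by omega) (by omega)
    rw [List.drop_drop, show T + (T' - T) = T' by omega]; exact h'
  · exact h3
  · exfalso
    apply sep _ (T - T') h' (by omega) (by omega)
    rw [List.drop_drop, show T' + (T - T') = T by omega]; exact h

theorem modE {q c a b t t' x : ℕ} (hq : 0 < q) (ha : a < q) (hb : b < q)
    (h : t + a * (1 + q * c) = t' + b * (1 + q * c)) (hm : (x + t) % q = (x + t') % q) :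
    a = b := by
  have h1 : ((x : ℤ) + t) % q = ((x : ℤ) + t') % q := by exact_mod_cast hm
  have h2 : (q : ℤ) ∣ ((x : ℤ) + t) - (x + t') := Int.ModEq.dvd (Int.ModEq.symm h1)
  have h3 : (t : ℤ) + a * (1 + q * c) = t' + b * (1 + q * c) := by exact_mod_cast h
  obtain ⟨k, hk⟩ := h2
  have h4 : (q : ℤ) ∣ (b : ℤ) - a := ⟨k + c * a - c * b, by linear_combination hk - h3⟩
  have h5 : (b : ℤ) - a = 0 := by
    apply Int.eq_zero_of_abs_lt_dvd h4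
    rw [abs_lt]; constructor <;> omega
  omega

theorem modB {q p M M' a b t t' u u' E : ℕ} (hq : 0 < q) (hM : M = p * M')
    (ha : a ≤ E) (hb : b ≤ E) (hE : 2 * E < q) (hp : 3 * E + 1 < p)
    (h : t + a * (1 + q * (3 * (1 + 3 * M))) = t' + b * (1 + q * (3 * (1 + 3 * M))))
    (hu : t / q = p * u) (hu' : t' / q = p * u') : a = b := by
  have h1 := Nat.div_add_mod t q
  have h2 := Nat.div_add_mod t' q
  have h3 := Nat.mod_lt t hq
  have h4 := Nat.mod_lt t' hq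
  rw [hu] at h1
  rw [hu'] at h2
  generalize t % q = r at h1 h3
  generalize t' % q = r' at h2 h4
  have hZ : ((q : ℤ) * (p * u) + r) + a * (1 + q * (3 * (1 + 3 * (p * M')))) =
      (q * (p * u') + r') + b * (1 + q * (3 * (1 + 3 * (p * M')))) := by
    rw [← h1, ← h2, hM] at h
    exact_mod_cast h
  have h5 : (q : ℤ) ∣ ((r : ℤ) - r') - (b - a) :=
    ⟨p * u' - p * u + (b - a) * (3 * (1 + 3 * (p * M'))), by linear_combination hZ⟩
  obtain ⟨e, he⟩ := h5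
  have hqz : (0 : ℤ) < q := by exact_mod_cast hq
  have he1 : e < 2 := by
    by_contra hh
    push Not at hh
    have : (q : ℤ) * 2 ≤ q * e := mul_le_mul_of_nonneg_left hh hqz.le
    omega
  have he2 : -2 < e := by
    by_contra hh
    push Not at hh
    have : (q : ℤ) * e ≤ q * (-2) := mul_le_mul_of_nonneg_left hh hqz.le
    omega
  have h6 : (p : ℤ) * u + e = p * u' + (b - a) * (3 * (1 + 3 * (p * M'))) := by
    have : (q : ℤ) * (p * u + e) = q * (p * u' + (b - a) * (3 * (1 + 3 * (p * M')))) := by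
      linear_combination hZ - he
    exact mul_left_cancel₀ hqz.ne' this
  have h7 : (p : ℤ) ∣ 3 * ((b : ℤ) - a) - e :=
    ⟨u - u' - (b - a) * 9 * M', by linear_combination -h6⟩
  have h8 : 3 * ((b : ℤ) - a) - e = 0 := by
    apply Int.eq_zero_of_abs_lt_dvd h7
    rw [abs_lt]; constructor <;> omega
  omega

theorem modD {q M a b t t' : ℕ}
    (h : t + a * (1 + q * (3 * (1 + 3 * M))) = t' + b * (1 + q * (3 * (1 + 3 * M))))
    (h1 : t < t' + 2 * (q * M) + 1) (h2 : t' < t + 2 * (q * M) + 1) : a = b := by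
  have h0 : 1 + q * (3 * (1 + 3 * M)) = 1 + 3 * q + 9 * (q * M) := by ring
  rw [h0] at h
  generalize q * M = y at *
  rcases lt_trichotomy a b with h3 | h3 | h3
  · exfalso
    obtain ⟨c, rfl⟩ : ∃ c, b = a + 1 + c := ⟨b - a - 1, by omega⟩
    have : (a + 1 + c) * (1 + 3 * q + 9 * y) = a * (1 + 3 * q + 9 * y) + (1 + 3 * q + 9 * y) +
      c * (1 + 3 * q + 9 * y) := by ring
    rw [this] at h
    generalize a * (1 + 3 * q + 9 * y) = z1 at h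
    generalize c * (1 + 3 * q + 9 * y) = z2 at h
    omega
  · exact h3
  · exfalso
    obtain ⟨c, rfl⟩ : ∃ c, a = b + 1 + c := ⟨a - b - 1, by omega⟩
    have : (b + 1 + c) * (1 + 3 * q + 9 * y) = b * (1 + 3 * q + 9 * y) + (1 + 3 * q + 9 * y) +
      c * (1 + 3 * q + 9 * y) := by ring
    rw [this] at h
    generalize b * (1 + 3 * q + 9 * y) = z1 at h
    generalize c * (1 + 3 * q + 9 * y) = z2 at h
    omega

/-- numeric side conditions of the ruler -/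
structure Rul (g : Geo α) (Δ Φ n2 nb WO WS : ℕ) : Prop where
  hthr : ∀ t, g.thr t ↔ g.zz + (t % g.q) * Δ ≤ t
  hzm : g.zm = g.zz + g.q * Δ
  hp0 : n2 + 2 ^ nb * Φ ≤ g.p0
  hΔ : 2 * (2 ^ nb * Φ) + 2 * (g.q * g.Om) < Δ
  sepO : ∀ Q d, g.Wo.R Q → 0 < d → d ≤ WO → ¬ g.Wo.R (Q.drop d)
  hWO : g.q * Δ + 2 * (g.q * g.Om) + 2 * (2 ^ nb * Φ) ≤ WO
  sepS : ∀ Q d, g.Ws.R Q → 0 < d → d ≤ WS → ¬ g.Ws.R (Q.drop d)
  hWS : 2 * (2 ^ nb * Φ) + 2 * (g.q * g.M) ≤ WS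
  hq : 2 ^ (nb + 2) < g.q
  hM : ∀ p ∈ g.Ms, p ∣ g.M
  hp : ∀ p ∈ g.Ms, 3 * 2 ^ (nb + 1) + 1 < p
  hΦ : Φ = 1 + g.q * (3 * (1 + 3 * g.M))

namespace Geo

variable (g : Geo α)

def RelE (Δ : ℕ) (Y : List α) (δ : ℕ) : Prop :=
  ∃ t, g.Wo.R (Y.drop (δ + t)) ∧ g.zz + (g.p0 + t) % g.q * Δ ≤ g.p0 + t + g.q * g.Om ∧
    g.p0 + t ≤ g.zz + (g.p0 + t) % g.q * Δ + g.q * g.Om

def RelB (Y : List α) (p : ℕ) (δ : ℕ) (b : Prop) (Lam : ℕ) : Prop :=
  ∃ t, g.Wo.R (Y.drop (δ + t)) ∧ g.thr (g.p0 + t) ∧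
    (∀ t' < t, g.Wo.R (Y.drop (δ + t')) → ¬ g.thr (g.p0 + t')) ∧ p ∣ t / g.q ∧
    (b ↔ δ + t ≤ g.zm + Lam)

def RelD (Y : List α) (k : ℕ) (δ : ℕ) : Prop :=
  ∃ t, g.A k ≤ t + g.q * g.M ∧ t < g.A k + g.q * g.M ∧ g.Ws.R (Y.drop (δ + t))

theorem rel_of_bad {Δ Φ n2 nb WO WS : ℕ} (R : Rul g Δ Φ n2 nb WO WS) (Y : List α) (δ Lam : ℕ)
    (h : ¬ g.Good (Y.drop δ)) : g.RelE Δ Y δ ∨ (∃ p : g.Ms, g.RelB Y p δ True Lam) ∨
      (∃ p : g.Ms, g.RelB Y p δ False Lam) ∨ ∃ k : Fin (g.m + 1), g.RelD Y k δ := by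
  classical
  by_cases hE : g.GE (Y.drop δ)
  · by_cases hB : g.GB (Y.drop δ)
    · by_cases hD : g.GD (Y.drop δ)
      · exact absurd ⟨hE, hB, hD⟩ h
      · right; right; right
        unfold GD at hD
        push Not at hD
        obtain ⟨k, hk, t, h1, h2, h3⟩ := hD
        rw [List.drop_drop] at h3
        exact ⟨⟨k, by omega⟩, t, h1, h2, h3⟩
    · unfold GB at hB
      push Not at hB
      obtain ⟨t, h1, h2, h3, h4, p, hp, hdvd⟩ := hB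
      rw [List.drop_drop] at h2
      have h4' : ∀ t' < t, g.Wo.R (Y.drop (δ + t')) → ¬ g.thr (g.p0 + t') := by
        intro t' ht' hR
        apply h4 t' ht'
        rw [List.drop_drop]; exact hR
      right
      by_cases hb : δ + t ≤ g.zm + Lam
      · left
        exact ⟨⟨p, hp⟩, t, h2, h3, h4', hdvd, by simp [hb]⟩
      · right; left
        exact ⟨⟨p, hp⟩, t, h2, h3, h4', hdvd, by simp [hb]⟩
  · left
    unfold GE at hE
    push Not at hE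
    obtain ⟨t, ht, hR, t', k, hk, hor, hne⟩ := hE
    rw [List.drop_drop] at hR
    have hkq : g.q * k ≤ g.q * g.Om := Nat.mul_le_mul_left _ hk
    have hmod : (g.p0 + t') % g.q = (g.p0 + t) % g.q := by
      rcases hor with h1 | h1
      · rw [h1, ← Nat.add_assoc, Nat.add_mul_mod_self_left]
      · rw [h1, ← Nat.add_assoc, Nat.add_mul_mod_self_left]
    have hne' : ¬ (g.zz + (g.p0 + t) % g.q * Δ ≤ g.p0 + t' ↔
        g.zz + (g.p0 + t) % g.q * Δ ≤ g.p0 + t) := by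
      intro hiff
      have h5 : g.thr (g.p0 + t') ↔ g.thr (g.p0 + t) := by
        rw [R.hthr, R.hthr, hmod]; exact hiff
      rcases hne with ⟨h6, h7⟩ | ⟨h6, h7⟩
      · exact h7 (h5.1 h6)
      · exact h6 (h5.2 h7)
    refine ⟨t, hR, ?_, ?_⟩
    · generalize (g.p0 + t) % g.q * Δ = y at *
      by_contra hcon
      apply hne'
      constructor <;> intro h8 <;> omega
    · generalize (g.p0 + t) % g.q * Δ = y at *
      by_contra hcon
      apply hne'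
      constructor <;> intro h8 <;> omega

section uniq

variable {Δ Φ n2 nb WO WS : ℕ} (R : Rul g Δ Φ n2 nb WO WS) {Y : List α}
  {j k j' k' δ δ' : ℕ} (hj : j ≤ nb) (hk : k ≤ nb) (hj' : j' ≤ nb) (hk' : k' ≤ nb)
  (hδ : δ + 2 ^ k * Φ = g.p0 + 2 ^ j * Φ) (hδ' : δ' + 2 ^ k' * Φ = g.p0 + 2 ^ j' * Φ)

include R hj hk hj' hk' hδ hδ'

theorem sums : 2 ^ j + 2 ^ k' ≤ 2 ^ (nb + 1) ∧ 2 ^ j' + 2 ^ k ≤ 2 ^ (nb + 1) ∧
    δ ≤ g.p0 + 2 ^ nb * Φ ∧ g.p0 ≤ δ + 2 ^ nb * Φ ∧ δ' ≤ g.p0 + 2 ^ nb * Φ ∧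
    g.p0 ≤ δ' + 2 ^ nb * Φ ∧
    ∀ t t', δ + t = δ' + t' → t + (2 ^ j + 2 ^ k') * Φ = t' + (2 ^ j' + 2 ^ k) * Φ := by
  have e1 : 2 ^ j ≤ 2 ^ nb := Nat.pow_le_pow_right (by norm_num) hj
  have e2 : 2 ^ k ≤ 2 ^ nb := Nat.pow_le_pow_right (by norm_num) hk
  have e3 : 2 ^ j' ≤ 2 ^ nb := Nat.pow_le_pow_right (by norm_num) hj'
  have e4 : 2 ^ k' ≤ 2 ^ nb := Nat.pow_le_pow_right (by norm_num) hk'
  have e5 : 2 ^ (nb + 1) = 2 ^ nb + 2 ^ nb := by ring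
  have f1 : 2 ^ j * Φ ≤ 2 ^ nb * Φ := Nat.mul_le_mul_right _ e1
  have f2 : 2 ^ k * Φ ≤ 2 ^ nb * Φ := Nat.mul_le_mul_right _ e2
  have f3 : 2 ^ j' * Φ ≤ 2 ^ nb * Φ := Nat.mul_le_mul_right _ e3
  have f4 : 2 ^ k' * Φ ≤ 2 ^ nb * Φ := Nat.mul_le_mul_right _ e4
  refine ⟨by omega, by omega, by omega, by omega, by omega, by omega, fun t t' h => ?_⟩
  rw [Nat.add_mul, Nat.add_mul]
  omega

theorem uniqE (hne : j ≠ k) (hne' : j' ≠ k') (h : g.RelE Δ Y δ) (h' : g.RelE Δ Y δ') :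
    j = j' := by
  obtain ⟨s1, s2, s3, s4, s5, s6, s7⟩ := g.sums R hj hk hj' hk' hδ hδ'
  obtain ⟨t, hR, h1, h2⟩ := h
  obtain ⟨t', hR', h1', h2'⟩ := h'
  have hΔ := R.hΔ
  have hWO := R.hWO
  have hm1 : (g.p0 + t) % g.q < g.q := Nat.mod_lt _ g.hq
  have hm2 : (g.p0 + t') % g.q < g.q := Nat.mod_lt _ g.hq
  have hy1 : (g.p0 + t) % g.q * Δ ≤ g.q * Δ := Nat.mul_le_mul_right _ hm1.le
  have hy2 : (g.p0 + t') % g.q * Δ ≤ g.q * Δ := Nat.mul_le_mul_right _ hm2.le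
  have hT : δ + t = δ' + t' := wall_uniq g.Wo R.sepO hR hR' (by omega) (by omega)
  have hmod : (g.p0 + t) % g.q = (g.p0 + t') % g.q := by
    generalize (g.p0 + t) % g.q = x at *
    generalize (g.p0 + t') % g.q = x' at *
    rcases lt_trichotomy x x' with h5 | h5 | h5
    · exfalso
      have : x * Δ + Δ ≤ x' * Δ := by
        calc x * Δ + Δ = (x + 1) * Δ := by ring
          _ ≤ x' * Δ := Nat.mul_le_mul_right _ h5
      omega
    · exact h5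
    · exfalso
      have : x' * Δ + Δ ≤ x * Δ := by
        calc x' * Δ + Δ = (x' + 1) * Δ := by ring
          _ ≤ x * Δ := Nat.mul_le_mul_right _ h5
      omega
  have h6 := s7 t t' hT
  rw [R.hΦ] at h6
  have hq := R.hq
  have e5 : 2 ^ (nb + 2) = 2 * 2 ^ (nb + 1) := by ring
  have h7 := modE g.hq (by omega) (by omega) h6 hmod
  exact pow_uniq h7 hne hne'

theorem uniqD {i : ℕ} (hne : j ≠ k) (hne' : j' ≠ k') (h : g.RelD Y i δ)
    (h' : g.RelD Y i δ') : j = j' := by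
  obtain ⟨s1, s2, s3, s4, s5, s6, s7⟩ := g.sums R hj hk hj' hk' hδ hδ'
  obtain ⟨t, h1, h2, hR⟩ := h
  obtain ⟨t', h1', h2', hR'⟩ := h'
  have hWS := R.hWS
  have hT : δ + t = δ' + t' := wall_uniq g.Ws R.sepS hR hR' (by omega) (by omega)
  have h6 := s7 t t' hT
  rw [R.hΦ] at h6
  exact pow_uniq (modD h6 (by omega) (by omega)) hne hne'

theorem uniqB {p : ℕ} (hp : p ∈ g.Ms) {b : Prop} (hne : j ≠ k) (hne' : j' ≠ k')
    (h : g.RelB Y p δ b (2 ^ nb * Φ)) (h' : g.RelB Y p δ' b (2 ^ nb * Φ)) : j = j' := by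
  obtain ⟨s1, s2, s3, s4, s5, s6, s7⟩ := g.sums R hj hk hj' hk' hδ hδ'
  obtain ⟨t, hR, hth, hfirst, ⟨u, hu⟩, hb⟩ := h
  obtain ⟨t', hR', hth', hfirst', ⟨u', hu'⟩, hb'⟩ := h'
  have hΔ := R.hΔ
  have hWO := R.hWO
  have hzm := R.hzm
  have hlo := g.thr_lo _ hth
  have hlo' := g.thr_lo _ hth'
  have hz := g.hz
  have hT : δ + t = δ' + t' := by
    by_cases hbb : b
    · have g1 := hb.1 hbb
      have g2 := hb'.1 hbb
      exact wall_uniq g.Wo R.sepO hR hR' (by omega) (by omega)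
    · have g1 : ¬ (δ + t ≤ g.zm + 2 ^ nb * Φ) := fun hh => hbb (hb.2 hh)
      have g2 : ¬ (δ' + t' ≤ g.zm + 2 ^ nb * Φ) := fun hh => hbb (hb'.2 hh)
      rcases lt_trichotomy (δ + t) (δ' + t') with h5 | h5 | h5
      · exfalso
        refine hfirst' (δ + t - δ') (by omega) ?_ (g.thr_hi _ (by omega))
        rw [show δ' + (δ + t - δ') = δ + t by omega]; exact hR
      · exact h5
      · exfalso
        refine hfirst (δ' + t' - δ) (by omega) ?_ (g.thr_hi _ (by omega))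
        rw [show δ + (δ' + t' - δ) = δ' + t' by omega]; exact hR'
  have h6 := s7 t t' hT
  rw [R.hΦ] at h6
  obtain ⟨M', hM'⟩ := R.hM p hp
  have hq := R.hq
  have e5 : 2 ^ (nb + 2) = 2 * 2 ^ (nb + 1) := by ring
  exact pow_uniq (modB g.hq hM' s1 s2 (by omega) (R.hp p hp) h6 hu hu') hne hne'

end uniq

theorem spoil {Δ Φ n2 nb WO WS : ℕ} (R : Rul g Δ Φ n2 nb WO WS) {U : Type} [Fintype U]
    (hU : 1 + 2 * g.Ms.card + (g.m + 1) < Fintype.card U) (X : ℕ → ℕ)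
    (hX : ∀ j, 1 ≤ j → X j = n2 + 2 ^ j * Φ) (Y : List α) (f h : U → ℕ)
    (hf : ∀ c, 1 ≤ f c ∧ f c ≤ nb ∧ 1 ≤ h c ∧ h c ≤ nb ∧
      h c ≠ f c ∧ ¬ g.Good (Y.drop (X (f c) + g.p0 - X (h c)))) : ¬ Function.Injective f := by
  classical
  intro hinj
  have hp0 := R.hp0
  have hδ : ∀ c, (X (f c) + g.p0 - X (h c)) + 2 ^ (h c) * Φ = g.p0 + 2 ^ (f c) * Φ := by
    intro c
    obtain ⟨h1, h2, h3, h4, -, -⟩ := hf c
    rw [hX _ h1, hX _ h3]
    have e1 : 2 ^ (h c) ≤ 2 ^ nb := Nat.pow_le_pow_right (by norm_num) h4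
    have f1 : 2 ^ (h c) * Φ ≤ 2 ^ nb * Φ := Nat.mul_le_mul_right _ e1
    omega
  have key : ∀ c, ∃ z : Unit ⊕ (g.Ms ⊕ (g.Ms ⊕ Fin (g.m + 1))),
      (match z with
      | Sum.inl _ => g.RelE Δ Y (X (f c) + g.p0 - X (h c))
      | Sum.inr (Sum.inl p) => g.RelB Y p (X (f c) + g.p0 - X (h c)) True (2 ^ nb * Φ)
      | Sum.inr (Sum.inr (Sum.inl p)) =>
          g.RelB Y p (X (f c) + g.p0 - X (h c)) False (2 ^ nb * Φ)
      | Sum.inr (Sum.inr (Sum.inr k)) => g.RelD Y k (X (f c) + g.p0 - X (h c))) := by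
    intro c
    rcases g.rel_of_bad R Y _ (2 ^ nb * Φ) (hf c).2.2.2.2.2 with h1 | ⟨p, h1⟩ | ⟨p, h1⟩ | ⟨k, h1⟩
    · exact ⟨Sum.inl (), h1⟩
    · exact ⟨Sum.inr (Sum.inl p), h1⟩
    · exact ⟨Sum.inr (Sum.inr (Sum.inl p)), h1⟩
    · exact ⟨Sum.inr (Sum.inr (Sum.inr k)), h1⟩
  choose z hz using key
  obtain ⟨c, c', hne, hzz⟩ := Fintype.exists_ne_map_eq_of_card_lt z (by
    simp only [Fintype.card_sum, Fintype.card_unit, Fintype.card_coe, Fintype.card_fin]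
    omega)
  apply hne
  apply hinj
  have hc := hf c
  have hc' := hf c'
  have h1 := hz c
  have h2 := hz c'
  rw [← hzz] at h2
  generalize z c = zc at h1 h2
  rcases zc with _ | p | p | k
  · exact g.uniqE R hc.2.1 hc.2.2.2.1 hc'.2.1 hc'.2.2.2.1 (hδ c) (hδ c') hc.2.2.2.2.1.symm
      hc'.2.2.2.2.1.symm h1 h2
  · exact g.uniqB R hc.2.1 hc.2.2.2.1 hc'.2.1 hc'.2.2.2.1 (hδ c) (hδ c') p.2
      hc.2.2.2.2.1.symm hc'.2.2.2.2.1.symm h1 h2
  · exact g.uniqB R hc.2.1 hc.2.2.2.1 hc'.2.1 hc'.2.2.2.1 (hδ c) (hδ c') p.2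
      hc.2.2.2.2.1.symm hc'.2.2.2.2.1.symm h1 h2
  · exact g.uniqD R hc.2.1 hc.2.2.2.1 hc'.2.1 hc'.2.2.2.1 (hδ c) (hδ c')
      hc.2.2.2.2.1.symm hc'.2.2.2.2.1.symm h1 h2

end Geo

end Crest.Agent.R320.Lv1_973
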