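import Crest.Agent.R320.Lv2_973
import Crest.Agent.R320.Spoil_973
import Crest.Agent.R320.Wall_291

/-! Row 320, HALF 1: on words without a power `x^e`, `1 ≤ |x| ≤ b`, every finite monoid morphism
is computed in generalized star height two. -/

set_option autoImplicit false

namespace Crest.Agent.R320.Half1_973

open Crest.RegLang Crest.Agent.R320.Hgt1_903 Crest.Agent.R320.Nest_85 Crest.Agent.R320.Mach_973
open Crest.Agent.R320.Two_973 Crest.Agent.R320.Lv1_973 Crest.Agent.R320.Wall_291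
open MulOpposite

theorem finMA (S : Type) [Monoid S] [Finite S] : Finite (MonoidAlgebra (ZMod 2) S) := by
  haveI : Finite (S →₀ ZMod 2) := Finite.of_injective (fun f : S →₀ ZMod 2 => (fun s => f s))
    DFunLike.coe_injective
  exact Finite.of_equiv _ (MonoidAlgebra.coeffEquiv (R := ZMod 2) (M := S)).symm

theorem finEnd (S : Type) [Finite S] : Finite (Function.End S)ᵐᵒᵖ := by
  haveI : Finite (Function.End S) := inferInstanceAs (Finite (S → S))
  exact Finite.of_equiv _ MulOpposite.opEquiv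

theorem exists_rule (α : Type) [Finite α] (e W : ℕ) :
    ∃ (r : WR α) (G : ℕ), (∀ Q d, r.R Q → 0 < d → d ≤ W → ¬ r.R (Q.drop d)) ∧
      ∀ s x, RF e W s → x + G + r.n ≤ s.length → ∃ i < G, r.R (s.drop (x + i)) := by
  obtain ⟨n, G, R, h1, h2, h3, h4⟩ := exists_walls α e W
  refine ⟨{ R := fun Q => n + 1 ≤ Q.length ∧ R Q, n := n + 1, pos := by omega, take_iff := ?_,
            len := fun Q h => h.1 }, G, ?_, ?_⟩
  · intro Q
    rw [h1 Q, h1 (Q.take (n + 1)), List.take_take, min_eq_left (by omega), List.length_take]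
    constructor
    · rintro ⟨ha, hb⟩; exact ⟨by omega, hb⟩
    · rintro ⟨ha, hb⟩; exact ⟨by omega, hb⟩
  · intro Q d hQ hd hdW hc
    exact h3 Q d hQ.2 hd hdW hc.2
  · intro s x hs hl
    simp only at hl
    obtain ⟨i, hi, hR⟩ := h4 (s.drop x) (hs.drop x) (by rw [List.length_drop]; omega)
    refine ⟨i, hi, ?_, ?_⟩
    · rw [List.length_drop]; omega
    · rw [← List.drop_drop]; exact hR

theorem core {α : Type} [Finite α] {S : Type} [Monoid S] [Finite S] (phi : List α → S)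
    (hphi1 : phi [] = 1) (hphi : ∀ u v, phi (u ++ v) = phi u * phi v) (e : ℕ) :
    ∃ b, ∀ s0 : S, ∃ E : Language α, H 2 E ∧ ∀ w, RF e b w → (w ∈ E ↔ phi w = s0) := by
  classical
  haveI := finMA S
  haveI := Fintype.ofFinite S
  haveI := Fintype.ofFinite (MonoidAlgebra (ZMod 2) S)
  -- scheme 1
  obtain ⟨m, r, hscheme⟩ := Zone132b_898.exists_scheme.{0} S (MonoidAlgebra (ZMod 2) S)
    (fun v x => v * MonoidAlgebra.of (ZMod 2) S x)
  -- content monoid of scheme 2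
  haveI := finEnd (MonoidAlgebra (ZMod 2) S)
  haveI := finMA (Function.End (MonoidAlgebra (ZMod 2) S))ᵐᵒᵖ
  haveI := Fintype.ofFinite (Function.End (MonoidAlgebra (ZMod 2) S))ᵐᵒᵖ
  haveI := Fintype.ofFinite (MonoidAlgebra (ZMod 2) (Function.End (MonoidAlgebra (ZMod 2) S))ᵐᵒᵖ)
  obtain ⟨C0, hC0⟩ : ∃ C0, C0 = 1 + 2 * r + (m + 1) := ⟨_, rfl⟩
  obtain ⟨n0, hgad⟩ := Exact_374.exact_gadget (α := (Function.End (MonoidAlgebra (ZMod 2) S))ᵐᵒᵖ)
    (S := (Function.End (MonoidAlgebra (ZMod 2) S))ᵐᵒᵖ)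
    (V := MonoidAlgebra (ZMod 2) (Function.End (MonoidAlgebra (ZMod 2) S))ᵐᵒᵖ × ZMod (C0 + 1))
    (fun v x => (v.1 * MonoidAlgebra.of (ZMod 2) _ x, 0)) List.prod
    (fun p q => List.prod_append)
  obtain ⟨nb, hnb⟩ : ∃ nb, nb = n0 + 1 := ⟨_, rfl⟩
  obtain ⟨lam, rho, nuG, hsoundG, hcompG⟩ := hgad (nb + 1) (by omega)
  -- modulus, primes
  obtain ⟨q, hq⟩ : ∃ q, q = 2 ^ (nb + 2) + 1 := ⟨_, rfl⟩
  obtain ⟨Ms, hcard, hMs, hsch⟩ := hscheme (3 * 2 ^ (nb + 1) + 1)
  obtain ⟨M, hM⟩ : ∃ M, M = ∏ p ∈ Ms, p := ⟨_, rfl⟩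
  rw [← hM] at hsch
  obtain ⟨Φ, hΦ⟩ : ∃ Φ, Φ = 1 + q * (3 * (1 + 3 * M)) := ⟨_, rfl⟩
  obtain ⟨Lam, hLam⟩ : ∃ Lam, Lam = 2 ^ nb * Φ := ⟨_, rfl⟩
  -- small walls
  obtain ⟨WS, hWS⟩ : ∃ WS, WS = 2 * Lam + 2 * (q * M) := ⟨_, rfl⟩
  obtain ⟨Ws, Gs, sepS, exS⟩ := exists_rule α e WS
  obtain ⟨Hh, hHh⟩ : ∃ Hh, Hh = Gs + Ws.n + q * M + M + 1 := ⟨_, rfl⟩
  have hq0 : 0 < q := by rw [hq]; exact Nat.succ_pos _
  let A : ℕ → ℕ := fun k => q * ((k + 1) * Hh)
  let lo : ℕ → ℕ := fun k => (k + 1) * Hh + Gs + Ws.n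
  have hA : Monotone A := fun a b hab => by
    change q * ((a + 1) * Hh) ≤ q * ((b + 1) * Hh)
    exact Nat.mul_le_mul_left _ (Nat.mul_le_mul_right _ (by omega))
  obtain ⟨L, Rt, nu, -, -, hsound, hcomp⟩ := hsch α phi hphi Ws q hq0 A hA lo Gs
    (by
      intro i _
      change q * ((i + 1) * Hh) + Gs + Ws.n ≤ q * ((i + 1) * Hh + Gs + Ws.n)
      have h1 : q * ((i + 1) * Hh + Gs + Ws.n) = q * ((i + 1) * Hh) + q * (Gs + Ws.n) := by ring
      have h2 : 1 * (Gs + Ws.n) ≤ q * (Gs + Ws.n) := Nat.mul_le_mul_right _ hq0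
      omega)
    (by
      intro i _
      change q * ((i + 1) * Hh + Gs + Ws.n + M) ≤ q * ((i + 1 + 1) * Hh)
      apply Nat.mul_le_mul_left
      have : (i + 1 + 1) * Hh = (i + 1) * Hh + Hh := by ring
      omega)
  obtain ⟨Om, hOm⟩ : ∃ Om, Om = (m + 2) * Hh := ⟨_, rfl⟩
  obtain ⟨Δ, hΔ⟩ : ∃ Δ, Δ = 2 * Lam + 2 * (q * Om) + 1 := ⟨_, rfl⟩
  obtain ⟨WO, hWO⟩ : ∃ WO, WO = q * Δ + 2 * (q * Om) + 2 * Lam := ⟨_, rfl⟩
  obtain ⟨Wo, Go, sepO, exO⟩ := exists_rule α e WO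
  obtain ⟨p0, hp0⟩ : ∃ p0, p0 = Wo.n + Lam := ⟨_, rfl⟩
  obtain ⟨zz, hzz⟩ : ∃ zz, zz = p0 + q * Om + A m + Gs + Ws.n + q * M + 1 := ⟨_, rfl⟩
  obtain ⟨zm, hzm⟩ : ∃ zm, zm = zz + q * Δ := ⟨_, rfl⟩
  obtain ⟨Tb, hTb⟩ : ∃ Tb, Tb = zm + Go := ⟨_, rfl⟩
  obtain ⟨D, hD⟩ : ∃ D, D = Tb + Wo.n + 1 := ⟨_, rfl⟩
  obtain ⟨Lv, hLv⟩ : ∃ Lv, Lv = q * Om + D + A m + q * M + Ws.n := ⟨_, rfl⟩
  obtain ⟨D2, hD2⟩ : ∃ D2, D2 = p0 + Lv + zm + Go + Wo.n := ⟨_, rfl⟩
  let X : ℕ → ℕ := fun j => if j = 0 then 0 else Wo.n + 2 ^ j * Φ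
  have hX0 : X 0 = 0 := rfl
  have hXj : ∀ j, 1 ≤ j → X j = Wo.n + 2 ^ j * Φ := fun j hj => if_neg (by omega)
  have hXm : Monotone X := by
    intro a b hab
    rcases Nat.eq_zero_or_pos a with ha | ha
    · rw [ha, hX0]; exact Nat.zero_le _
    · rw [hXj a ha, hXj b (by omega)]
      have : 2 ^ a * Φ ≤ 2 ^ b * Φ :=
        Nat.mul_le_mul_right _ (Nat.pow_le_pow_right (by norm_num) hab)
      omega
  have hXp : ∀ j, 1 ≤ j → j ≤ nb → X j ≤ p0 := by
    intro j h1 h2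
    rw [hXj j h1]
    have : 2 ^ j * Φ ≤ 2 ^ nb * Φ :=
      Nat.mul_le_mul_right _ (Nat.pow_le_pow_right (by norm_num) h2)
    omega
  let g : Geo α :=
    { Wo := Wo, Ws := Ws, thr := fun t => zz + (t % q) * Δ ≤ t, zz := zz, zm := zm,
      thr_lo := fun t h => by
        have h1 : zz + (t % q) * Δ ≤ t := h
        omega
      thr_hi := fun t h => by
        change zz + (t % q) * Δ ≤ t
        have h1 : (t % q) * Δ ≤ q * Δ := Nat.mul_le_mul_right _ (Nat.mod_lt _ hq0).le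
        omega
      zz_pos := by omega
      RFp := RF e (max WS WO)
      hRF := fun u v huv h => h.infix huv
      Go := Go
      hWo := fun s x hs hl => exO s x (hs.mono (le_max_right _ _)) hl
      Gs := Gs
      hWs := fun s x hs hl => exS s x (hs.mono (le_max_left _ _)) hl
      q := q, hq := hq0, p0 := p0, Om := Om, m := m, A := A, hA := hA, lo := lo, Ms := Ms, M := M
      hlo1 := by
        intro i hi
        change (i + 1) * Hh + Gs + Ws.n + M ≤ Om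
        have h1 : (i + 2) * Hh ≤ (m + 2) * Hh := Nat.mul_le_mul_right _ (by omega)
        have h2 : (i + 2) * Hh = (i + 1) * Hh + Hh := by ring
        omega
      hz := by omega
      Tb := Tb, hTb := by omega
      D := D, hD := by omega
      Lv := Lv, hLv1 := by omega, hLv2 := by omega }
  have hRul : Rul g Δ Φ Wo.n nb WO WS :=
    { hthr := fun t => Iff.rfl
      hzm := hzm
      hp0 := by change Wo.n + 2 ^ nb * Φ ≤ p0; omega
      hΔ := by change 2 * (2 ^ nb * Φ) + 2 * (q * Om) < Δ; omega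
      sepO := sepO
      hWO := by change q * Δ + 2 * (q * Om) + 2 * (2 ^ nb * Φ) ≤ WO; omega
      sepS := sepS
      hWS := by change 2 * (2 ^ nb * Φ) + 2 * (q * M) ≤ WS; omega
      hq := by change 2 ^ (nb + 2) < q; omega
      hM := fun p hp => by
        change p ∣ M
        rw [hM]; exact Finset.dvd_prod_of_mem _ hp
      hp := fun p hp => (hMs p hp).2
      hΦ := hΦ }
  -- blocks
  let o1 : S →* MonoidAlgebra (ZMod 2) S := MonoidAlgebra.of (ZMod 2) S
  let o2 : (Function.End (MonoidAlgebra (ZMod 2) S))ᵐᵒᵖ →*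
      MonoidAlgebra (ZMod 2) (Function.End (MonoidAlgebra (ZMod 2) S))ᵐᵒᵖ :=
    MonoidAlgebra.of (ZMod 2) _
  let gf : List α → (Function.End (MonoidAlgebra (ZMod 2) S))ᵐᵒᵖ :=
    fun u => op (fun v : MonoidAlgebra (ZMod 2) S => v * o1 (phi u))
  let gl : List α → (Function.End (MonoidAlgebra (ZMod 2) S))ᵐᵒᵖ :=
    fun W => op (fun v : MonoidAlgebra (ZMod 2) S => v * o1 (phi W) + nu (W.drop (p0 - X nb)))
  have hgf1 : gf [] = 1 := by
    apply unop_injective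
    funext v
    change v * o1 (phi []) = v
    rw [hphi1, map_one, mul_one]
  have hgf : ∀ u v, gf (u ++ v) = gf u * gf v := by
    intro u v
    apply unop_injective
    funext x
    change x * o1 (phi (u ++ v)) = (x * o1 (phi u)) * o1 (phi v)
    rw [hphi, map_mul, mul_assoc]
  have hnbX : X nb ≤ p0 := hXp nb (by omega) le_rfl
  refine ⟨max WS WO, fun s0 => ?_⟩
  obtain ⟨E, hE, hE2⟩ := two_level g.K phi hphi o1 MonoidAlgebra.of_injective (g.nu1 nu)
    (fun v x => x.unop v) (fun v => rfl) (fun v x y => rfl)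
    (Geo.gam gf gl X nb)
    (by
      intro v Z
      have h1 : Geo.gam gf gl X nb Z = gf (Z.take (X nb)) * gl (Z.drop (X nb)) :=
        blk_prod gf gl X nb hXm hX0 hgf1 hgf Z
      rw [h1]
      change v * o1 (phi Z) + nu (Z.drop p0) =
        (v * o1 (phi (Z.take (X nb)))) * o1 (phi (Z.drop (X nb))) +
          nu ((Z.drop (X nb)).drop (p0 - X nb))
      rw [List.drop_drop, show X nb + (p0 - X nb) = p0 by omega, mul_assoc, ← map_mul, ← hphi,
        List.take_append_drop])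
    o2 MonoidAlgebra.of_injective (Geo.nu2 gf gl X nb nuG)
    g.RFp g.hRF p0 Lv g.Good (fun s u h => g.good_append s u h)
    (g.L1 phi o1 L Rt nu) (g.L2 gf gl o2 X nb D2 lam rho nuG)
    ((List.finite_length_le α D).subset fun s hs => le_of_eq hs.1)
    (by
      rintro s hs rfl
      have h1 : (0 : ℕ) = D := hs.1
      omega)
    ((List.finite_length_le α D2).subset fun s hs => le_of_eq hs.1)
    (by
      rintro s hs rfl
      have h1 : (0 : ℕ) = D2 := hs.1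
      omega)
    (fun s _ => g.st1 s) (fun s _ => g.st2 s)
    (fun v r s _ hs hl => g.exact1 hphi (fun P Q v b h1 h2 => hsound P Q v b h1 h2) v r s hs hl)
    (fun v r s _ hr hs hRF hG => g.complete1
      (fun Z h1 h2 h3 h4 v => hcomp Z h1 h2 h3 h4 v) v r s hr hs hRF hG)
    (fun v r s u hr hs hl hP => g.exact2 hXm hXp (by change p0 + Lv ≤ D2; omega)
      (fun p q v u r h1 h2 h3 => by
        have h4 := hsoundG p q (v, u) r h1 h2 h3
        rw [h4]; rfl) v r s u hr hs hl hP)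
    (fun r hr => g.bound hXm
      (fun j hj => by rw [hXj j hj]; exact Nat.le_add_right _ _) hXp
      (by change p0 + Lv ≤ D2; omega) (by change zm + Go + Wo.n ≤ D2; omega)
      hcompG
      (fun Y _ f h hf => g.spoil hRul (by
        change 1 + 2 * Ms.card + (m + 1) < Fintype.card (ZMod (C0 + 1))
        rw [ZMod.card]; omega) X hXj Y f h hf) r hr) s0
  exact ⟨E, hE, hE2⟩

theorem half1 {α : Type} [Finite α] (S : Type) [Monoid S] [Finite S] (phi : α → S) (e : ℕ) :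
    ∃ b, ∀ s : S, H 2 ({w | RF e b w ∧ (w.map phi).prod = s} : Language α) := by
  classical
  obtain ⟨b, hb⟩ := core (fun w : List α => (w.map phi).prod) (by simp)
    (fun u v => by simp) e
  refine ⟨b, fun s => ?_⟩
  obtain ⟨E, hE, hE2⟩ := hb s
  have hfin : ({y | ∃ x : List α, x ≠ [] ∧ x.length ≤ b ∧ (List.replicate e x).flatten = y} :
      Set (List α)).Finite := by
    apply ((List.finite_length_le α b).image fun x => (List.replicate e x).flatten).subset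
    rintro y ⟨x, -, hx, rfl⟩
    exact ⟨x, hx, rfl⟩
  have hRF : H 2 ({w | RF e b w} : Language α) := by
    refine H.congr (H.noFactor (H.finite 2 (L := ({y | ∃ x : List α, x ≠ [] ∧ x.length ≤ b ∧
      (List.replicate e x).flatten = y} : Language α)) hfin)) fun w => ?_
    constructor
    · intro h x hx hl hi
      obtain ⟨u, t, ht⟩ := hi
      exact h u _ t ht ⟨x, hx, hl, rfl⟩
    · rintro h u v t ht ⟨x, hx, hl, rfl⟩
      exact h x hx hl ⟨u, t, ht⟩
  refine H.congr (H.inter hRF hE) fun w => ?_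
  constructor
  · rintro ⟨h1, h2⟩
    exact ⟨h1, (hE2 w h1).1 h2⟩
  · rintro ⟨h1, h2⟩
    exact ⟨h1, (hE2 w h1).2 h2⟩

end Crest.Agent.R320.Half1_973
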