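import Crest.Agent.R320.Half1_296

/-!
# Row 320: reading the product from the outer threads (helper296)
-/

set_option autoImplicit false
set_option linter.unusedSectionVars false

namespace Crest.Agent.R320.Half1_296

open Crest.RegLang Crest.Agent.R320.Hk_851 Crest.Agent.R320.Thr_285

universe u

theorem push_comp {V : Type*} [Fintype V] (g h : V → V) (x : V → ZMod 2) :
    push h (push g x) = push (fun v => h (g v)) x := by
  classical
  funext v'
  unfold push
  have : ∀ v : V, (if h v = v' then ∑ w, (if g w = v then x w else 0) else 0) =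
      ∑ w, (if g w = v then (if h v = v' then x w else 0) else 0) := by
    intro v
    split_ifs with h1
    · rfl
    · simp
  simp only [this]
  rw [Finset.sum_comm]
  refine Finset.sum_congr rfl fun w _ => ?_
  rw [Finset.sum_eq_single (g w)]
  · simp
  · intro b _ hb
    rw [if_neg (fun h : g w = b => hb h.symm)]
  · intro h; exact absurd (Finset.mem_univ _) h

theorem push_sub {V : Type*} [Fintype V] (g : V → V) (x y : V → ZMod 2) :
    push g (x - y) = push g x - push g y := by
  have h := push_add g (x - y) y
  rw [sub_add_cancel] at h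
  rw [h]; abel

variable {α : Type u} {S : Type*} [Monoid S] [Fintype S]

/-- the action of `S` on token vectors -/
noncomputable def act (x : S → ZMod 2) (s : S) : S → ZMod 2 := push (fun r => r * s) x

theorem act_mul (x : S → ZMod 2) (s t : S) : act x (s * t) = act (act x s) t := by
  unfold act
  rw [push_comp]
  congr 1
  funext r
  exact (mul_assoc r s t).symm

theorem act_sub (x y : S → ZMod 2) (s : S) : act (x - y) s = act x s - act y s := push_sub _ _ _

theorem act_sg (r s : S) : act (sg r : S → ZMod 2) s = sg (r * s) := push_sg _ _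

theorem act_inj {s t : S} (h : act (sg 1 : S → ZMod 2) s = act (sg 1) t) : s = t := by
  rw [act_sg, act_sg] at h
  have := sg_inj h
  simpa using this

variable [DecidableEq S]

variable {φ : α → S} {D : Dat α (S → ZMod 2)} {ν : List α → (S → ZMod 2)}

theorem reading (hD : Hyp D)
    (hg : ∀ U : List α, U.length = D.B2 → ∀ v, D.g U v =
      act v ((U.take (D.N U)).map φ).prod + ν U) :
    ∀ (n : ℕ) (U : List α), U.length ≤ n → ∀ v v' : S → ZMod 2,
      (D.G2 v U).1 = (D.G2 v' U).1 ∧
      act ((D.G2 v U).2 - (D.G2 v' U).2) (((D.G2 v U).1).map φ).prod =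
        act (v - v') (U.map φ).prod := by
  intro n
  induction n with
  | zero =>
    intro U hU v v'
    have h : U.length < D.B2 := by have := hD.hB; omega
    rw [G2_short h, G2_short h]
    exact ⟨rfl, rfl⟩
  | succ n ih =>
    intro U hU v v'
    by_cases hs : U.length < D.B2
    · rw [G2_short hs, G2_short hs]
      exact ⟨rfl, rfl⟩
    · push Not at hs
      have hM := hD.M0 hs
      have hl : (U.take D.B2).length = D.B2 := by rw [List.length_take]; omega
      rw [G2_long hD hs, G2_long (v := v') hD hs]
      obtain ⟨h1, h2⟩ := ih (U.drop (D.M U)) (by rw [List.length_drop]; omega) (D.f2 U v) (D.f2 U v')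
      refine ⟨h1, h2.trans ?_⟩
      have hz : ((U.take D.B2).take (D.N (U.take D.B2))) = U.take (D.M U) := by
        rw [List.take_take]
        have : D.N (U.take D.B2) = D.M U := rfl
        rw [this, min_eq_left hM.2.2]
      have e : D.f2 U v - D.f2 U v' = act (v - v') ((U.take (D.M U)).map φ).prod := by
        unfold Dat.f2
        rw [hg _ hl, hg _ hl, hz, act_sub]
        abel
      rw [e, ← act_mul, ← List.prod_append, ← List.map_append, List.take_append_drop]

/-- **HALF 1**: with the two schemes the words of the promise with a given product are a language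
of height 2 -/
theorem half1 [Finite α] (hD : Hyp D)
    (hg : ∀ U : List α, U.length = D.B2 → ∀ v, D.g U v =
      act v ((U.take (D.N U)).map φ).prod + ν U)
    (hRF : HL 2 ({w | D.RF w} : Language α)) (s : S) :
    HL 2 ({w | D.RF w ∧ (w.map φ).prod = s} : Language α) := by
  classical
  haveI : Finite (St α (S → ZMod 2) D.B2) := finite_St
  obtain ⟨F, hF, hS, hC⟩ := comp2 hD
  let i1 : St α (S → ZMod 2) D.B2 := ⟨([], sg 1), hD.hB⟩
  let i0 : St α (S → ZMod 2) D.B2 := ⟨([], 0), hD.hB⟩
  have key : ∀ w : List α, act ((run (A2 hD) i1 w).1.2 - (run (A2 hD) i0 w).1.2)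
      (((run (A2 hD) i1 w).1.1).map φ).prod = act (sg 1) (w.map φ).prod := by
    intro w
    have h := (reading hD hg _ w le_rfl (sg 1) 0).2
    rw [sub_zero] at h
    rw [run2, run2]
    exact h
  have h1 : HL 2 ({w | ∃ t : St α (S → ZMod 2) D.B2 × St α (S → ZMod 2) D.B2,
      act (t.1.1.2 - t.2.1.2) ((t.1.1.1).map φ).prod = act (sg 1) s ∧
      (w ∈ F i1 t.1 ∧ w ∈ F i0 t.2)} : Language α) := by
    refine HL.iUnion fun t => ?_
    exact (HL.const _).setOf_and ((hF _ _).setOf_and (hF _ _))
  refine (hRF.setOf_and h1).congr fun w => ?_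
  constructor
  · rintro ⟨hw, hs⟩
    refine ⟨hw, (run (A2 hD) i1 w, run (A2 hD) i0 w), ?_, ?_, ?_⟩
    · rw [key, hs]
    · exact hC i1 w (by change D.RF ([] ++ w); exact hw)
    · exact hC i0 w (by change D.RF ([] ++ w); exact hw)
  · rintro ⟨hw, ⟨t, t'⟩, h2, h3, h4⟩
    refine ⟨hw, ?_⟩
    have e1 : run (A2 hD) i1 w = t := by
      rcases hS _ _ _ h3 with h | h
      · exact h
      · exact h.elim
    have e2 : run (A2 hD) i0 w = t' := by
      rcases hS _ _ _ h4 with h | h
      · exact h
      · exact h.elim
    have h5 := key w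
    rw [e1, e2] at h5
    exact act_inj (h5.symm.trans h2)

end Crest.Agent.R320.Half1_296
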