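import Crest.Agent.R320.Half_548

set_option autoImplicit false

/-! Row 320 (helper548): the two levels are fine; height two on the class. -/

namespace Crest.Agent.R320.Half_548

open Crest.Agent.R320.Nest_85 Crest.Agent.R320.Run_548 Crest.Agent.R320.WallSch_870
open Crest.Agent.R320.Zone132_898 Crest.Agent.R320.Hgt1_903

variable {α S V W : Type} [Monoid S] [AddCommGroup V] [AddCommGroup W]

namespace Par

variable (P : Par α S V W)

theorem run1 {q : List α × V} (h : P.nxt.nx q.1 = none) (w : List α) :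
    run P.stp q w = P.G (q.1 ++ w) q.2 := run_eq P.nxt P.A w q h

theorem G_nx (Q : List α) (v : V) : P.nxt.nx (P.G Q v).1 = none := (F_fst P.nxt P.A Q v).1

theorem G_suf (Q : List α) (v : V) : (P.G Q v).1 <:+ Q := (F_fst P.nxt P.A Q v).2

theorem nx_nil : P.nxt.nx ([] : List α) = none := P.nx_short (by simp)

theorem run_nx1 {q : List α × V} (h : P.nxt.nx q.1 = none) (w : List α) :
    P.nxt.nx (run P.stp q w).1 = none := by
  rw [P.run1 h]; exact P.G_nx _ _

theorem L1_st (s : List α) : P.nxt.nx (P.L1.c s).1 = none := by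
  classical
  show P.nxt.nx (if h : ∃ x, P.Rt1 s x then P.G (s.drop h.choose.1) h.choose.2 else ([], 0)).1
    = none
  split_ifs with h
  · exact P.G_nx _ _
  · exact P.nx_nil

theorem L2_st (s : List α) : P.nxt.nx (P.L2.c s).1 = none := by
  classical
  show P.nxt.nx (if h : ∃ x, P.Rt2 s x then
    P.G (s.drop h.choose.2.1) (P.D.act h.choose.2.2
        (P.D.phi ((s.take h.choose.2.1).drop (P.p0 - P.c h.choose.1)))
      + P.D.nu ((s.take h.choose.2.1).drop (P.p0 - P.c h.choose.1))) else ([], 0)).1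
    = none
  split_ifs with h
  · exact P.G_nx _ _
  · exact P.nx_nil

theorem L1_suf (s : List α) : (P.L1.c s).1 <:+ s := by
  classical
  show (if h : ∃ x, P.Rt1 s x then P.G (s.drop h.choose.1) h.choose.2 else ([], 0)).1 <:+ s
  split_ifs with h
  · exact (P.G_suf _ _).trans (List.drop_suffix _ _)
  · exact List.nil_suffix

theorem L2_suf (s : List α) : (P.L2.c s).1 <:+ s := by
  classical
  show (if h : ∃ x, P.Rt2 s x then
    P.G (s.drop h.choose.2.1) (P.D.act h.choose.2.2
        (P.D.phi ((s.take h.choose.2.1).drop (P.p0 - P.c h.choose.1)))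
      + P.D.nu ((s.take h.choose.2.1).drop (P.p0 - P.c h.choose.1))) else ([], 0)).1 <:+ s
  split_ifs with h
  · exact (P.G_suf _ _).trans (List.drop_suffix _ _)
  · exact List.nil_suffix

variable (Gd : List α → Prop)

def Prom (q : List α × V) (w : List α) : Prop := P.nxt.nx q.1 = none ∧ Gd (q.1 ++ w)

theorem L1_run {q : List α × V} (hq : P.nxt.nx q.1 = none) {s : List α} (hs : s ∈ P.L1.R)
    (hl : P.L1.Lg q) : run P.stp q s = P.L1.c s := by
  classical
  rw [P.run1 hq]
  obtain ⟨-, hx⟩ := hs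
  have hc : P.L1.c s = P.G (s.drop hx.choose.1) hx.choose.2 := by
    show (if h : ∃ x, P.Rt1 s x then P.G (s.drop h.choose.1) h.choose.2 else ([], 0)) = _
    rw [dif_pos hx]
  rw [hc]
  exact P.exact1 (u := q.1) (v := q.2) hl hx.choose_spec

theorem infix_aux {a p s u c' : List α} (h : c' <:+ s) : (c' ++ u) <:+: (a ++ (p ++ s ++ u)) := by
  obtain ⟨y, rfl⟩ := h
  exact ⟨a ++ p ++ y, [], by simp⟩

theorem L1_ok [Finite α] (hGd : ∀ Q Q', Gd Q → Q' <:+: Q → Gd Q') :
    P.L1.Ok P.stp (fun q => P.nxt.nx q.1 = none) (P.Prom Gd) where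
  fin := (List.finite_length_eq α P.D1).subset fun r hr => hr.1
  ne := by
    rintro s ⟨h, -⟩ rfl
    have := P.hD1
    simp at h
    omega
  st := fun s _ => P.L1_st s
  closed := by
    intro q hq p s u hw hs hl
    exact ⟨P.L1_run (P.run_nx1 hq p) hs hl, P.L1_st s, hGd _ _ hw.2 (infix_aux (P.L1_suf s))⟩

theorem L2_run {q : List α × V} (hq : P.nxt.nx q.1 = none) {s : List α} (hs : s ∈ P.L2.R)
    (hl : P.L2.Lg q) (hn : ¬ Cut P.stp P.L1 q s) : run P.stp q s = P.L2.c s := by
  classical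
  rw [P.run1 hq]
  obtain ⟨-, hx⟩ := hs
  have hc : P.L2.c s = P.G (s.drop hx.choose.2.1) (P.D.act hx.choose.2.2
        (P.D.phi ((s.take hx.choose.2.1).drop (P.p0 - P.c hx.choose.1)))
      + P.D.nu ((s.take hx.choose.2.1).drop (P.p0 - P.c hx.choose.1))) := by
    show (if h : ∃ x, P.Rt2 s x then
      P.G (s.drop h.choose.2.1) (P.D.act h.choose.2.2
        (P.D.phi ((s.take h.choose.2.1).drop (P.p0 - P.c h.choose.1)))
      + P.D.nu ((s.take h.choose.2.1).drop (P.p0 - P.c h.choose.1))) else ([], 0)) = _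
    rw [dif_pos hx]
  rw [hc]
  obtain ⟨k, hk, hk1, hk2⟩ := hl
  have hkk : k = hx.choose.1 := by
    by_contra hne
    exact hn (hx.choose_spec.2.1 k hk hne q.1 hk1 q.2)
  subst hkk
  exact P.exact2 (u := q.1) (v := q.2) hk1 hk2 hx.choose_spec

theorem L2_ok [Finite α] (hGd : ∀ Q Q', Gd Q → Q' <:+: Q → Gd Q') :
    P.L2.Ok P.stp (fun q => P.nxt.nx q.1 = none)
      (fun q w => P.Prom Gd q w ∧ ¬ Cut P.stp P.L1 q w) where
  fin := (List.finite_length_eq α P.D2).subset fun r hr => hr.1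
  ne := by
    rintro s ⟨h, -⟩ rfl
    have := P.hD2
    simp at h
    omega
  st := fun s _ => P.L2_st s
  closed := by
    intro q hq p s u hw hs hl
    have hn : ¬ Cut P.stp P.L1 (run P.stp q p) s := by
      intro h
      exact hw.2 (h.prepend.append)
    have hr := P.L2_run (P.run_nx1 hq p) hs hl hn
    refine ⟨hr, ⟨P.L2_st s, hGd _ _ hw.1.2 (infix_aux (P.L2_suf s))⟩, ?_⟩
    intro hc
    rw [← hr, ← run_append] at hc
    exact hw.2 hc.prepend

/-- the completeness of the pair of schemes, as one hypothesis -/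
structure Cpl where
  hGd : ∀ Q Q', Gd Q → Q' <:+: Q → Gd Q'
  Bm : ℕ
  ex : ∀ Q, Gd Q → Bm ≤ Q.length → ∃ t, P.nxt.nx Q = some t ∧ t + P.n ≤ Bm
  hcn : ∀ k < P.K, P.n ≤ P.c k
  N2 : ℕ
  hN2 : P.p0 + P.D2 ≤ N2
  cut : ∀ t : List α, Gd t → N2 ≤ t.length →
    ∀ v : V,
    (∀ k < P.K, ¬ Cut P.stp P.L1 (t.take (P.c k), v) (t.drop (P.c k))) →
    ∃ k < P.K, P.lam k (t.take (P.c k)) = some v ∧ ∃ x, P.Rt2 ((t.drop (P.c k)).take P.D2) x

theorem bound (H : P.Cpl Gd) {q : List α × V} (hq : P.nxt.nx q.1 = none) {w : List α}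
    (hw : Gd (q.1 ++ w)) (h1 : ¬ Cut P.stp P.L1 q w) (h2 : ¬ Cut P.stp P.L2 q w) :
    w.length < H.Bm + H.N2 := by
  by_contra hlt
  push Not at hlt
  have hp02 := H.hN2
  obtain ⟨t, ht, htn⟩ := H.ex (q.1 ++ w) hw (by rw [List.length_append]; omega)
  have hNx := P.nx_spec ht
  have hqt : q.1.length < t + P.n := by
    by_contra hge
    push Not at hge
    have := P.nx_eq ((Nx_app (Ok := P.Ok) P.R1 w hge).1 hNx)
    rw [hq] at this
    cases this
  set T := q.1 ++ w with hT
  set t' := T.drop t with ht'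
  have htl : t'.length = T.length - t := by rw [ht', List.length_drop]
  have hTl : T.length = q.1.length + w.length := by rw [hT, List.length_append]
  have hGt : Gd t' := H.hGd _ _ hw (List.drop_suffix _ _).isInfix
  set v' := P.A q.2 (T.take t) with hv'
  -- the state at `t + c k`
  have hst : ∀ k < P.K, ∃ p u, p ++ u = w ∧ run P.stp q p = (t'.take (P.c k), v') ∧
      u = t'.drop (P.c k) := by
    intro k hk
    have hcn := H.hcn k hk
    have hck := P.hc k hk
    refine ⟨w.take (t + P.c k - q.1.length), w.drop (t + P.c k - q.1.length),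
      List.take_append_drop _ _, ?_, ?_⟩
    · rw [P.run1 hq]
      have e1 : q.1 ++ w.take (t + P.c k - q.1.length) = T.take (t + P.c k) := by
        rw [hT, List.take_append, List.take_of_length_le (l := q.1) (by omega)]
      rw [e1]
      have e2 : T.take (t + P.c k) = T.take (t + P.c k) ++ [] := by simp
      have hlen : (T.take (t + P.c k)).length = t + P.c k := by
        rw [List.length_take]; omega
      have hNx2 : Nx P.R P.Ok (T.take (t + P.c k)) t := by
        apply (Nx_app (Ok := P.Ok) P.R1 (T.drop (t + P.c k)) (by omega)).1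
        rw [List.take_append_drop]
        exact hNx
      unfold G
      rw [F_some _ _ (P.nx_eq hNx2)]
      have e3 : (T.take (t + P.c k)).drop t = t'.take (P.c k) := by
        rw [List.drop_take, ht']; congr 1; omega
      have e4 : (T.take (t + P.c k)).take t = T.take t := by
        rw [List.take_take]; congr 1; omega
      rw [e3, e4, F_none]
      exact P.nx_short (by rw [List.length_take]; omega)
    · rw [ht', List.drop_drop, hT, List.drop_append,
        List.drop_eq_nil_of_le (as := q.1) (by omega), List.nil_append]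
  obtain ⟨k, hk, hl, x, hx⟩ := H.cut t' hGt (by omega) v' (by
    intro k hk hc
    obtain ⟨p, u, hpu, hr, hu⟩ := hst k hk
    rw [← hr, ← hu] at hc
    apply h1
    rw [← hpu]
    exact hc.prepend)
  obtain ⟨p, u, hpu, hr, hu⟩ := hst k hk
  have hck := P.hc k hk
  apply h2
  refine ⟨p, u.take P.D2, u.drop P.D2, ?_, ⟨?_, x, ?_⟩, ?_⟩
  · rw [List.append_assoc, List.take_append_drop, hpu]
  · rw [hu, List.length_take, List.length_drop]; omega
  · rw [hu]; exact hx
  · rw [hr]
    exact ⟨k, hk, by rw [List.length_take]; omega, hl⟩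

/-- height two for every target, from every start state -/
theorem height [Finite α] (H : P.Cpl Gd) (q : List α × V) (hq : P.nxt.nx q.1 = none)
    (T : List α × V → Prop) :
    ∃ E : Language α, Crest.Agent.R320.Hgt1_903.H 2 E ∧
      ∀ w, Gd (q.1 ++ w) → (w ∈ E ↔ T (run P.stp q w)) := by
  have pre : ∀ (q : List α × V) u v, P.Prom Gd q (u ++ v) → P.Prom Gd q u := by
    rintro q u v ⟨h1, h2⟩
    exact ⟨h1, H.hGd _ _ h2 ⟨[], v, by simp⟩⟩
  have base : ∀ q : List α × V, P.nxt.nx q.1 = none → ∀ T : List α × V → Prop, True →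
      ∃ E : Language α, Crest.Agent.R320.Hgt1_903.H 0 E ∧
      ∀ w, (P.Prom Gd q w ∧ ¬ Cut P.stp P.L1 q w) → ¬ Cut P.stp P.L2 q w →
        (w ∈ E ↔ T (run P.stp q w)) := by
    intro q hq T _
    refine ⟨({w | ((P.Prom Gd q w ∧ ¬ Cut P.stp P.L1 q w) ∧ ¬ Cut P.stp P.L2 q w) ∧
      T (run P.stp q w)} : Language α), Crest.Agent.R320.Hgt1_903.H.finite 0 ?_, fun w h1 h2 => ⟨fun h => h.2,
        fun h => ⟨⟨h1, h2⟩, h⟩⟩⟩
    refine (List.finite_length_le α (H.Bm + H.N2)).subset ?_
    rintro w ⟨⟨⟨h1, h2⟩, h3⟩, -⟩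
    exact (P.bound Gd H h1.1 h1.2 h2 h3).le
  have lev1 := nest P.stp (fun q => P.nxt.nx q.1 = none)
    (fun q w => P.Prom Gd q w ∧ ¬ Cut P.stp P.L1 q w)
    (fun q u v h => ⟨pre q u v h.1, fun hc => h.2 hc.append⟩) P.L2 (P.L2_ok Gd H.hGd) 0
    (fun _ => True) trivial base
  have lev2 := nest P.stp (fun q => P.nxt.nx q.1 = none) (P.Prom Gd) pre P.L1
    (P.L1_ok Gd H.hGd) 1 (fun _ => True) trivial (fun q hq T hT => by
      obtain ⟨E, h1, h2⟩ := lev1 q hq T hT
      exact ⟨E, h1, fun w hw hc => h2 w ⟨hw, hc⟩⟩)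
  obtain ⟨E, h1, h2⟩ := lev2 q hq T trivial
  exact ⟨E, h1, fun w hw => h2 w ⟨hq, hw⟩⟩

end Par

end Crest.Agent.R320.Half_548
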