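import Crest.Agent.R320.Half2_548

set_option autoImplicit false

/-! Row 320 (helper548): completeness of scheme 1 (geometric form). -/

namespace Crest.Agent.R320.Half_548

open Crest.Agent.R320.Nest_85 Crest.Agent.R320.Run_548 Crest.Agent.R320.WallSch_870
open Crest.Agent.R320.Zone132_898 Crest.Agent.R320.Hgt1_903

variable {α S V W : Type} [Monoid S] [AddCommGroup V] [AddCommGroup W]

namespace Par

variable (P : Par α S V W)

/-- no outer wall of `r` (anchor `o` letters before `r`) is within `N1` of its threshold -/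
def NE (o : ℕ) (r : List α) : Prop := ∀ s, P.R (r.drop s) →
  (P.N1 : ℤ) < |((o + s : ℕ) : ℤ) - P.z - P.th ((((o + s : ℕ) : ℤ) - P.z) % (P.D.q : ℤ))|

/-- the next anchor (anchor `o` letters before `r`) -/
def NxO (o : ℕ) (r : List α) (b : ℕ) : Prop :=
  P.R (r.drop b) ∧ P.Ok (o + b) ∧ ∀ s < b, P.R (r.drop s) → ¬ P.Ok (o + s)

/-- no small wall near a level -/
def ND (o : ℕ) (r : List α) : Prop := ∀ k, k ≤ P.D.m → ∀ s, P.p0 ≤ o + s →
  P.D.A k ≤ (o + s - P.p0) + P.D.q * P.D.M → (o + s - P.p0) < P.D.A k + P.D.q * P.D.M →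
  ¬ P.D.r.R (r.drop s)

structure GeoGood (o : ℕ) (r : List α) (b : ℕ) : Prop where
  ne : P.NE o r
  nx : P.NxO o r b
  nb : ¬ P.D.B ((o + b - P.p0) / P.D.q)
  nd : P.ND o r

theorem good1 (h3 : P.D.N3) (hF : P.D.Hides) {Gs : ℕ} (Gd : List α → Prop)
    (hGd : ∀ Q Q', Gd Q → Q' <:+: Q → Gd Q')
    (hsm : ∀ Q, Gd Q → Gs + P.D.r.n ≤ Q.length → ∃ i < Gs, P.D.r.R (Q.drop i))
    (hlo : ∀ i, i < P.D.m → P.D.A i + Gs + P.D.r.n ≤ P.D.q * P.D.lo i)
    (hY : ∀ t, P.Ok t → (∀ k, k ≤ P.D.m → P.p0 + P.D.A k + Gs + P.D.r.n ≤ t) ∧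
      ∀ i, i < P.D.m → P.p0 + P.D.q * (P.D.lo i + P.D.M) ≤ t)
    {o : ℕ} (ho : o ≤ P.p0) {r : List α} (hr : Gd r) {b : ℕ} (hg : P.GeoGood o r b)
    (hlen : b + P.D1 ≤ r.length) (hb : b + P.n ≤ P.D1)
    (u1 : List α) (hu : u1.length = o) (v1 : V) :
    Cut P.stp P.L1 (u1, v1) r := by
  classical
  obtain ⟨hne, ⟨hn1, hn2, hn3⟩, hnb, hnd⟩ := hg
  have hOk := P.Ok_gt hn2
  obtain ⟨hY1, hY2⟩ := hY _ hn2
  obtain ⟨T, hT⟩ : ∃ T, T = u1 ++ r := ⟨_, rfl⟩
  have hd : ∀ s, T.drop (o + s) = r.drop s := by
    intro s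
    rw [hT, ← hu, ← List.drop_drop, List.drop_left]
  have hNx : Nx P.R P.Ok T (o + b) := by
    refine ⟨by rw [hd]; exact hn1, hn2, ?_⟩
    intro s hs hRs hO
    have := P.Ok_gt hO
    obtain ⟨s', rfl⟩ := Nat.exists_eq_add_of_le (show o ≤ s by omega)
    rw [hd] at hRs
    exact hn3 s' (by omega) hRs hO
  have hTlen : T.length = o + r.length := by rw [hT, List.length_append, hu]
  -- the zone behind the frame
  obtain ⟨Y, hYd⟩ : ∃ Y, Y = (T.take (o + b)).drop P.p0 := ⟨_, rfl⟩
  have hYlen : Y.length = o + b - P.p0 := by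
    rw [hYd, List.length_drop, List.length_take]; omega
  have hYr : Y = (r.drop (P.p0 - o)).take (o + b - P.p0) := by
    rw [hYd, List.drop_take]
    congr 1
    rw [← hd (P.p0 - o)]
    congr 1
    omega
  have hGY : Gd Y := by
    rw [hYr]
    exact hGd _ _ hr ((List.take_prefix _ _).isInfix.trans (List.drop_suffix _ _).isInfix)
  -- small walls in Y
  have hw : ∀ k, k ≤ P.D.m → ∃ t, FW P.D.r Y (P.D.A k) t ∧ t ≤ P.D.A k + Gs := by
    intro k hk
    have h1 := hY1 k hk
    obtain ⟨i, hi, hRi⟩ := hsm (Y.drop (P.D.A k)) (hGd _ _ hGY (List.drop_suffix _ _).isInfix)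
      (by rw [List.length_drop]; omega)
    rw [List.drop_drop] at hRi
    have hex : ∃ t, P.D.A k ≤ t ∧ P.D.r.R (Y.drop t) := ⟨P.D.A k + i, by omega, hRi⟩
    refine ⟨Nat.find hex, ⟨(Nat.find_spec hex).1, (Nat.find_spec hex).2, ?_⟩, ?_⟩
    · intro t' h2 h3 h4
      exact Nat.find_min hex h3 ⟨h2, h4⟩
    · have := Nat.find_min' hex ⟨(by omega : P.D.A k ≤ P.D.A k + i), hRi⟩
      omega
  choose! H hH1 hH2 using hw
  obtain ⟨X, Q', i, om, hXQ, hi, hXl, hlo1, hlo2, hLL, hRR⟩ := P.D.complete' P.h1 P.h2 h3 hF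
    (G := Gs) (Z := Y) (by rw [hYlen]; exact hnb) H hH1 hH2 hlo (by
      intro k hk t ht1 ht2 hRt
      have hl := P.D.r.len _ hRt
      have hp := P.D.r.pos
      rw [List.length_drop] at hl
      have e1 : r.drop (P.p0 - o + t) = Y.drop t ++ r.drop b := by
        have e2 : r = r.take b ++ r.drop b := (List.take_append_drop _ _).symm
        have hbl : b ≤ r.length := by omega
        have e3 : (r.take b).drop (P.p0 - o + t) = Y.drop t := by
          rw [hYr, ← List.drop_drop, List.drop_take]
          congr 2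
          omega
        conv_lhs => rw [e2]
        rw [List.drop_append_of_le_length (by rw [List.length_take]; omega), e3]
      have hR2 : P.D.r.R (r.drop (P.p0 - o + t)) := by
        rw [e1]
        exact (P.D.r.app (by rw [List.length_drop]; omega)).2 hRt
      refine hnd k hk (P.p0 - o + t) (by omega) ?_ ?_ hR2
      · have : o + (P.p0 - o + t) - P.p0 = t := by omega
        rw [this]; exact ht1
      · have : o + (P.p0 - o + t) - P.p0 = t := by omega
        rw [this]; exact ht2) (by
      intro i hi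
      have := hY2 i hi
      omega) (P.mid v1 (T.take (o + b)))
  -- the cut
  have hXN : X.length ≤ P.N1 := (P.LL_len hLL).1
  have hXY : X.length + Q'.length = o + b - P.p0 := by
    rw [← hYlen, hXQ, List.length_append]
  have hTX : T.take (P.p0 + X.length) = T.take P.p0 ++ X := by
    have e1 : T.take (o + b) = T.take P.p0 ++ Y := by
      rw [hYd]
      have := (List.take_append_drop P.p0 (T.take (o + b))).symm
      rw [List.take_take, Nat.min_eq_left (by omega)] at this
      exact this
    have e2 : T.take (P.p0 + X.length) = (T.take (o + b)).take (P.p0 + X.length) := by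
      rw [List.take_take]; congr 1; omega
    rw [e2, e1, hXQ]
    have e3 : (T.take P.p0).length = P.p0 := by rw [List.length_take]; omega
    generalize T.take P.p0 = X0 at e3
    rw [← e3, ← List.append_assoc, ← List.length_append]
    exact List.take_left
  have hrX : u1 ++ r.take (P.p0 + X.length - o) = T.take P.p0 ++ X := by
    rw [← hTX, hT, List.take_append, List.take_of_length_le (l := u1) (by omega), hu]
  have hTp : (T.take P.p0).length = P.p0 := by rw [List.length_take]; omega
  have hrun : run P.stp (u1, v1) (r.take (P.p0 + X.length - o)) = (T.take P.p0 ++ X, v1) := by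
    rw [P.run1 (P.nx_short (by simp only; omega))]
    simp only
    rw [hrX]
    exact F_none _ _ (P.nx_short (by rw [List.length_append, hTp]; omega))
  obtain ⟨rest, hrest⟩ : ∃ rest, rest = r.drop (P.p0 + X.length - o) := ⟨_, rfl⟩
  have hTrest : T = (T.take P.p0 ++ X) ++ rest := by
    rw [← hrX, hrest, List.append_assoc, List.take_append_drop, hT]
  have hLg : P.Lg1 (T.take P.p0 ++ X, v1) := by
    refine ⟨by simp only [List.length_append, hTp]; omega, ?_⟩
    have e1 : (T.take P.p0 ++ X).drop P.p0 = X := by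
      rw [List.drop_append, List.drop_eq_nil_of_le (by omega), hTp]; simp
    simp only
    rw [e1]
    have e2 : P.mid v1 (T.take P.p0 ++ X) = P.mid v1 (T.take (o + b)) := by
      unfold mid
      have e5 : (T.take P.p0 ++ X).take P.p0 = T.take P.p0 := by
        rw [List.take_append_of_le_length (by omega), List.take_take, Nat.min_self]
      have e6 : (T.take (o + b)).take P.p0 = T.take P.p0 := by
        rw [List.take_take, Nat.min_eq_left (by omega)]
      rw [e5, e6]
    rw [e2]; exact hLL
  have hLLd := P.Lg1_LLd hLg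
  have hPX : (T.take P.p0 ++ X).length = P.p0 + X.length := by rw [List.length_append, hTp]
  have hNx' : Nx P.R P.Ok ((T.take P.p0 ++ X) ++ rest) (o + b) := by rw [← hTrest]; exact hNx
  obtain ⟨hle, hFs⟩ := Fs_of_notE (R := P.R) (z := P.z) (M := (P.D.q : ℤ)) (th := P.th)
    (S := P.Sb) (p := P.p0) (N := P.N1) P.hth P.hz (P := T.take P.p0 ++ X) (Q := rest)
    (T := o + b) hNx' hLLd (by
      intro s hs hRs
      rw [← hTrest] at hRs
      rcases Nat.lt_or_ge s o with hlt | hge
      · have h1 := P.hth (((s : ℤ) - P.z) % (P.D.q : ℤ))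
        have h2 := P.hz
        rw [abs_of_neg (by omega)]
        omega
      · obtain ⟨s', rfl⟩ := Nat.exists_eq_add_of_le hge
        rw [hd] at hRs
        exact hne s' hRs)
  refine ⟨r.take (P.p0 + X.length - o), rest.take P.D1, rest.drop P.D1, ?_, ⟨?_, ?_⟩, ?_⟩
  · rw [List.append_assoc, List.take_append_drop, hrest, List.take_append_drop]
  · rw [List.length_take, hrest, List.length_drop]; omega
  · refine ⟨(o + b - (P.p0 + X.length), P.D.act (P.mid v1 (T.take (o + b))) (P.D.phi Y)
      + P.D.nu Y), ?_, ?_⟩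
    · rw [hPX] at hFs
      have hle2 : o + b - (P.p0 + X.length) + P.n ≤ (rest.take P.D1).length := by
        rw [List.length_take, hrest, List.length_drop]; omega
      apply (Fs_app (Ok := P.Ok) (LL := P.LLd) P.R1 (rest.drop P.D1) hle2).1
      rw [List.take_append_drop]
      exact hFs
    · have e1 : (rest.take P.D1).take (o + b - (P.p0 + X.length)) = Q' := by
        rw [List.take_take, Nat.min_eq_left (by omega)]
        have e2 : T.take (o + b) = T.take P.p0 ++ Y := by
          rw [hYd]
          have := (List.take_append_drop P.p0 (T.take (o + b))).symm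
          rw [List.take_take, Nat.min_eq_left (by omega)] at this
          exact this
        have e3 : T.take (o + b) = (T.take P.p0 ++ X) ++ rest.take (o + b - (P.p0 + X.length)) := by
          conv_lhs => rw [hTrest]
          rw [List.take_append, List.take_of_length_le (l := T.take P.p0 ++ X) (by omega), hPX]
        rw [e2, hXQ, ← List.append_assoc] at e3
        exact (List.append_cancel_left e3).symm
      simp only
      rw [e1]
      exact hRR
  · show P.Lg1 _
    rw [hrun]; exact hLg

end Par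

end Crest.Agent.R320.Half_548
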