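import Crest.Agent.R320.Half3_548

set_option autoImplicit false

/-! Row 320 (helper548): the promise ruler, spoil count, completeness of the pair. -/

namespace Crest.Agent.R320.Half_548

open Crest.Agent.R320.Nest_85 Crest.Agent.R320.Run_548 Crest.Agent.R320.WallSch_870
open Crest.Agent.R320.Zone132_898 Crest.Agent.R320.Hgt1_903

variable {α S V W : Type} [Monoid S] [AddCommGroup V] [AddCommGroup W]

namespace Par

variable (P : Par α S V W)

/-- the numerical data of the ruler, thresholds and walls -/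
structure Geo (Gd : List α → Prop) where
  hGd : ∀ Q Q', Gd Q → Q' <:+: Q → Gd Q'
  ms : Finset ℕ
  ms0 : ∀ μ ∈ ms, 0 < μ
  hB : ∀ n, P.D.B n ↔ ∃ μ ∈ ms, μ ∣ n
  Lam : ℕ
  hLam : ∀ k < P.K, ∀ l < P.K, |(P.c k : ℤ) - P.c l| ≤ Lam
  rE : ∀ k < P.K, ∀ k' < P.K, ∀ l < P.K, ∀ l' < P.K, k ≠ k' →
    (P.D.q : ℤ) ∣ ((P.c k : ℤ) - P.c k') - ((P.c l : ℤ) - P.c l') → k = l ∧ k' = l'
  rB : ∀ μ ∈ ms, ∀ y : ℤ, ∀ k < P.K, ∀ k' < P.K, ∀ l < P.K, ∀ l' < P.K, k ≠ k' →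
    (y - ((P.c k : ℤ) - P.c k')) % ((μ : ℤ) * P.D.q) < P.D.q →
    (y - ((P.c l : ℤ) - P.c l')) % ((μ : ℤ) * P.D.q) < P.D.q → k = l ∧ k' = l'
  rD : ∀ y : ℤ, ∀ k < P.K, ∀ k' < P.K, ∀ l < P.K, ∀ l' < P.K, k ≠ k' →
    |y - ((P.c k : ℤ) - P.c k')| ≤ ((P.D.q * P.D.M : ℕ) : ℤ) →
    |y - ((P.c l : ℤ) - P.c l')| ≤ ((P.D.q * P.D.M : ℕ) : ℤ) → k = l ∧ k' = l'
  tlo : ∀ r, -P.Sb + P.N1 ≤ P.th r
  thi : ∀ r, P.th r ≤ P.Sb - P.N1
  tsep : ∀ t t' : ℤ, |P.th (t % (P.D.q : ℤ)) - P.th (t' % (P.D.q : ℤ))| ≤ 2 * P.N1 + 2 * Lam →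
    t % (P.D.q : ℤ) = t' % (P.D.q : ℤ)
  Sb0 : 0 ≤ P.Sb
  Wo : ℕ
  hWo : 2 * P.Sb + 2 * (Lam : ℤ) + 2 * P.N1 + 2 < Wo
  gapO : ∀ Q d, P.R Q → 0 < d → d ≤ Wo → ¬ P.R (Q.drop d)
  Ws : ℕ
  hWs : 2 * Lam + 2 * (P.D.q * P.D.M) + 2 < Ws
  gapS : ∀ Q d, P.D.r.R Q → 0 < d → d ≤ Ws → ¬ P.D.r.R (Q.drop d)
  Go : ℕ
  exO : ∀ Q, Gd Q → Go + P.n ≤ Q.length → ∃ i < Go, P.R (Q.drop i)
  Z1 : ℕ
  hZ1 : P.z + P.Sb ≤ Z1
  hD1' : Z1 + Go + P.n ≤ P.D1
  hD2' : Z1 + Go + P.D1 ≤ P.D2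

variable {P} {Gd : List α → Prop} (g : P.Geo Gd)

theorem gap_eq {R : List α → Prop} {Wd : ℕ} (h : ∀ Q d, R Q → 0 < d → d ≤ Wd → ¬ R (Q.drop d))
    {t : List α} {p p' : ℕ} (h1 : R (t.drop p)) (h2 : R (t.drop p'))
    (h3 : |(p : ℤ) - p'| ≤ Wd) : p = p' := by
  rw [abs_le] at h3
  rcases lt_trichotomy p p' with hlt | heq | hgt
  · refine absurd h2 ?_
    have := h (t.drop p) (p' - p) h1 (by omega) (by omega)
    rwa [List.drop_drop, Nat.add_sub_cancel' hlt.le] at this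
  · exact heq
  · refine absurd h1 ?_
    have := h (t.drop p') (p - p') h2 (by omega) (by omega)
    rwa [List.drop_drop, Nat.add_sub_cancel' hgt.le] at this

/-- cause (E) -/
def CE (P : Par α S V W) (t : List α) (k k' : ℕ) : Prop := ∃ p : ℕ, P.R (t.drop p) ∧
  |(p : ℤ) - ((P.c k : ℤ) - P.c k') - P.z
    - P.th (((p : ℤ) - ((P.c k : ℤ) - P.c k') - P.z) % (P.D.q : ℤ))| ≤ P.N1

/-- cause (B) -/
def CB (P : Par α S V W) (t : List α) (Zt : ℕ) (Sg : ℤ) (μ : ℕ) (β : Bool) (k k' : ℕ) : Prop :=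
  ∃ p : ℕ, P.R (t.drop p) ∧
  ((p : ℤ) - P.p0 - ((P.c k : ℤ) - P.c k')) % ((μ : ℤ) * P.D.q) < P.D.q ∧
  (if β then (p < Zt ∧ P.z - Sg ≤ p) else
    (Zt ≤ p ∧ ∀ p' < p, Zt ≤ p' → ¬ P.R (t.drop p')))

/-- cause (D) -/
def CD (P : Par α S V W) (t : List α) (j : ℕ) (k k' : ℕ) : Prop := ∃ p : ℕ, P.D.r.R (t.drop p) ∧
  |(p : ℤ) - P.p0 - P.D.A j - ((P.c k : ℤ) - P.c k')| ≤ ((P.D.q * P.D.M : ℕ) : ℤ)

include g

theorem CE_uniq {t : List α} {k k' l l' : ℕ} (hk : k < P.K) (hk' : k' < P.K) (hl : l < P.K)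
    (hl' : l' < P.K) (hne : k ≠ k') (h1 : CE P t k k') (h2 : CE P t l l') : k = l := by
  obtain ⟨p, hp, hp2⟩ := h1
  obtain ⟨p', hp', hp2'⟩ := h2
  have a1 := g.hLam k hk k' hk'
  have a2 := g.hLam l hl l' hl'
  have b1 := g.tlo (((p : ℤ) - ((P.c k : ℤ) - P.c k') - P.z) % (P.D.q : ℤ))
  have b2 := g.thi (((p : ℤ) - ((P.c k : ℤ) - P.c k') - P.z) % (P.D.q : ℤ))
  have b3 := g.tlo (((p' : ℤ) - ((P.c l : ℤ) - P.c l') - P.z) % (P.D.q : ℤ))
  have b4 := g.thi (((p' : ℤ) - ((P.c l : ℤ) - P.c l') - P.z) % (P.D.q : ℤ))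
  have hWo := g.hWo
  have e : p = p' := by
    apply gap_eq g.gapO hp hp'
    rw [abs_le] at a1 a2 hp2 hp2' ⊢
    constructor <;> omega
  subst e
  have hs : |P.th (((p : ℤ) - ((P.c k : ℤ) - P.c k') - P.z) % (P.D.q : ℤ))
      - P.th (((p : ℤ) - ((P.c l : ℤ) - P.c l') - P.z) % (P.D.q : ℤ))|
      ≤ 2 * P.N1 + 2 * g.Lam := by
    rw [abs_le] at a1 a2 hp2 hp2' ⊢
    constructor <;> omega
  have h3 := g.tsep _ _ hs
  refine (g.rE k hk k' hk' l hl l' hl' hne ?_).1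
  have h5 := Int.ModEq.dvd h3
  have h6 : ((p : ℤ) - ((P.c l : ℤ) - P.c l') - P.z) - ((p : ℤ) - ((P.c k : ℤ) - P.c k') - P.z)
      = ((P.c k : ℤ) - P.c k') - ((P.c l : ℤ) - P.c l') := by ring
  rwa [h6] at h5

theorem CD_uniq {t : List α} {j k k' l l' : ℕ} (hk : k < P.K) (hk' : k' < P.K) (hl : l < P.K)
    (hl' : l' < P.K) (hne : k ≠ k') (h1 : CD P t j k k') (h2 : CD P t j l l') : k = l := by
  obtain ⟨p, hp, hp2⟩ := h1
  obtain ⟨p', hp', hp2'⟩ := h2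
  have a1 := g.hLam k hk k' hk'
  have a2 := g.hLam l hl l' hl'
  have hWs := g.hWs
  have e : p = p' := by
    apply gap_eq g.gapS hp hp'
    rw [abs_le] at a1 a2 hp2 hp2' ⊢
    constructor <;> omega
  subst e
  exact (g.rD _ k hk k' hk' l hl l' hl' hne hp2 hp2').1

theorem CB_uniq {t : List α} {Zt : ℕ} (hZt : (Zt : ℤ) ≤ P.z + P.Sb + g.Lam + 1) {μ : ℕ}
    (hμ : μ ∈ g.ms) {β : Bool} {k k' l l' : ℕ}
    (hk : k < P.K) (hk' : k' < P.K) (hl : l < P.K)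
    (hl' : l' < P.K) (hne : k ≠ k') (h1 : CB P t Zt (P.Sb + g.Lam) μ β k k')
    (h2 : CB P t Zt (P.Sb + g.Lam) μ β l l') : k = l := by
  obtain ⟨p, hp, hp2, hp3⟩ := h1
  obtain ⟨p', hp', hp2', hp3'⟩ := h2
  have hWo := g.hWo
  have e : p = p' := by
    cases β with
    | true =>
      simp only [if_true] at hp3 hp3'
      apply gap_eq g.gapO hp hp'
      rw [abs_le]
      constructor <;> omega
    | false =>
      simp only [Bool.false_eq_true, if_false] at hp3 hp3'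
      rcases lt_trichotomy p p' with hlt | heq | hgt
      · exact absurd hp (hp3'.2 p hlt hp3.1)
      · exact heq
      · exact absurd hp' (hp3.2 p' hgt hp3'.1)
  subst e
  exact (g.rB μ hμ _ k hk k' hk' l hl l' hl' hne hp2 hp2').1

/-- a wrong candidate is good or spoiled by a cause -/
theorem cause {t : List α} (ht : Gd t) (hlen : P.p0 + P.D2 ≤ t.length) {k k' : ℕ} (hk : k < P.K)
    (hk' : k' < P.K) :
    (∃ b, P.GeoGood (P.c k') ((t.drop (P.c k)).take P.D2) b ∧ b ≤ g.Z1 + g.Go) ∨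
    CE P t k k' ∨
    (∃ μ ∈ g.ms, ∃ β, CB P t (g.Z1 + g.Lam) (P.Sb + g.Lam) μ β k k') ∨
    (∃ j ≤ P.D.m, CD P t j k k') := by
  classical
  have hck := P.hc k hk
  have hck' := P.hc k' hk'
  have hZ1 := g.hZ1
  have hD1 := g.hD1'
  have hD2 := g.hD2'
  have hP1 := P.hD1
  obtain ⟨r, hr⟩ : ∃ r, r = (t.drop (P.c k)).take P.D2 := ⟨_, rfl⟩
  rw [← hr]
  have hrl : r.length = P.D2 := by rw [hr, List.length_take, List.length_drop]; omega
  have hGr : Gd r := by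
    rw [hr]
    exact g.hGd _ _ ht ((List.take_prefix _ _).isInfix.trans (List.drop_suffix _ _).isInfix)
  -- walls of `r` are walls of `t`
  have hRt : ∀ s, P.R (r.drop s) → P.R (t.drop (P.c k + s)) := by
    intro s hs
    have h1 := R_drop_len P.R2 hs P.hn
    have h2 := (R_drop_app P.R1 ((t.drop (P.c k)).drop P.D2) h1).2 hs
    rwa [hr, List.take_append_drop, List.drop_drop] at h2
  have hRt' : ∀ s, s + P.n ≤ P.D2 → P.R (t.drop (P.c k + s)) → P.R (r.drop s) := by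
    intro s hs h1
    apply (R_drop_app P.R1 ((t.drop (P.c k)).drop P.D2) (by omega)).1
    rwa [hr, List.take_append_drop, List.drop_drop]
  have hrt : ∀ s, P.D.r.R (r.drop s) → P.D.r.R (t.drop (P.c k + s)) := by
    intro s hs
    have h1 := P.D.r.len _ hs
    have hp := P.D.r.pos
    rw [List.length_drop] at h1
    have h2 : (t.drop (P.c k)).drop s = r.drop s ++ (t.drop (P.c k)).drop P.D2 := by
      rw [hr, ← List.drop_append_of_le_length (by rw [← hr]; omega), List.take_append_drop]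
    rw [← List.drop_drop, h2]
    exact (P.D.r.app (by rw [List.length_drop]; omega)).2 hs
  -- the next anchor
  obtain ⟨b, hb, hbl⟩ : ∃ b, P.NxO (P.c k') r b ∧ b ≤ g.Z1 + g.Go := by
    obtain ⟨i, hi, hRi⟩ := g.exO (r.drop g.Z1) (g.hGd _ _ hGr (List.drop_suffix _ _).isInfix)
      (by rw [List.length_drop]; omega)
    rw [List.drop_drop] at hRi
    have hOk : P.Ok (P.c k' + (g.Z1 + i)) := by
      unfold Ok Ok132
      have := g.thi ((((P.c k' + (g.Z1 + i) : ℕ) : ℤ) - P.z) % (P.D.q : ℤ))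
      push_cast at this ⊢
      omega
    have hex : ∃ b, P.R (r.drop b) ∧ P.Ok (P.c k' + b) := ⟨_, hRi, hOk⟩
    refine ⟨Nat.find hex, ⟨(Nat.find_spec hex).1, (Nat.find_spec hex).2, ?_⟩, ?_⟩
    · intro s hs h1 h2
      exact Nat.find_min hex hs ⟨h1, h2⟩
    · have := Nat.find_min' hex ⟨hRi, hOk⟩
      omega
  have hOkb := P.Ok_gt hb.2.1
  by_cases h1 : P.NE (P.c k') r
  swap
  · right; left
    unfold NE at h1
    push Not at h1
    obtain ⟨s, hs, h2⟩ := h1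
    refine ⟨P.c k + s, hRt s hs, ?_⟩
    have e : ((P.c k + s : ℕ) : ℤ) - ((P.c k : ℤ) - P.c k') - P.z
        = ((P.c k' + s : ℕ) : ℤ) - P.z := by push_cast; ring
    rw [e]
    exact h2
  by_cases h2 : P.D.B ((P.c k' + b - P.p0) / P.D.q)
  · right; right; left
    obtain ⟨μ, hμ, hdiv⟩ := (g.hB _).1 h2
    refine ⟨μ, hμ, decide (P.c k + b < g.Z1 + g.Lam), P.c k + b, hRt b hb.1, ?_, ?_⟩
    · obtain ⟨j, hj⟩ := hdiv
      have hq := P.D.hq
      have h3 := Nat.div_add_mod (P.c k' + b - P.p0) P.D.q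
      have h4 := Nat.mod_lt (P.c k' + b - P.p0) hq
      have e : ((P.c k + b : ℕ) : ℤ) - P.p0 - ((P.c k : ℤ) - P.c k')
          = ((P.c k' + b - P.p0 : ℕ) : ℤ) := by
        rw [Nat.cast_sub (by omega)]; push_cast; ring
      rw [e]
      have e2 : (P.c k' + b - P.p0) % (μ * P.D.q) = (P.c k' + b - P.p0) % P.D.q := by
        conv_lhs => rw [← h3, hj]
        have : P.D.q * (μ * j) = (μ * P.D.q) * j := by ring
        rw [this, Nat.mul_add_mod]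
        apply Nat.mod_eq_of_lt
        have hμ0 := g.ms0 μ hμ
        calc (P.c k' + b - P.p0) % P.D.q < P.D.q := h4
          _ ≤ μ * P.D.q := Nat.le_mul_of_pos_left _ hμ0
      have e3 : ((P.c k' + b - P.p0 : ℕ) : ℤ) % ((μ : ℤ) * P.D.q)
          = (((P.c k' + b - P.p0) % (μ * P.D.q) : ℕ) : ℤ) := by
        push_cast; rfl
      rw [e3, e2]
      exact_mod_cast h4
    · have hOk2 := hb.2.1
      unfold Ok Ok132 at hOk2
      have ht1 := g.tlo ((((P.c k' + b : ℕ) : ℤ) - P.z) % (P.D.q : ℤ))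
      have hLa := g.hLam k hk k' hk'
      rw [abs_le] at hLa
      by_cases h5 : P.c k + b < g.Z1 + g.Lam
      · rw [decide_eq_true h5]
        simp only [if_true]
        refine ⟨h5, ?_⟩
        push_cast at hOk2 ht1 ⊢
        omega
      · rw [decide_eq_false h5]
        simp only [Bool.false_eq_true, if_false]
        refine ⟨by omega, ?_⟩
        intro p' hp' hZ hRp
        obtain ⟨s', rfl⟩ := Nat.exists_eq_add_of_le (show P.c k ≤ p' by
          by_contra hcon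
          push Not at hcon
          have := P.hz
          have := g.Sb0
          omega)
        refine hb.2.2 s' (by omega) (hRt' s' (by omega) hRp) ?_
        unfold Ok Ok132
        have := g.thi ((((P.c k' + s' : ℕ) : ℤ) - P.z) % (P.D.q : ℤ))
        push_cast at this ⊢
        omega
  by_cases h3 : P.ND (P.c k') r
  swap
  · right; right; right
    unfold ND at h3
    push Not at h3
    obtain ⟨j, hj, s, hs0, hs1, hs2, hs3⟩ := h3
    refine ⟨j, hj, P.c k + s, hrt s hs3, ?_⟩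
    rw [abs_le]
    push_cast
    have hs1' : (P.D.A j : ℤ) ≤ ((P.c k' : ℤ) + s - P.p0) + ((P.D.q * P.D.M : ℕ) : ℤ) := by
      omega
    have hs2' : ((P.c k' : ℤ) + s - P.p0) < (P.D.A j : ℤ) + ((P.D.q * P.D.M : ℕ) : ℤ) := by
      omega
    push_cast at hs1' hs2'
    constructor <;> linarith
  · exact Or.inl ⟨b, ⟨h1, hb, h2, h3⟩, hbl⟩

theorem spoil (hZ : (g.Z1 : ℤ) ≤ P.z + P.Sb + 1) {t : List α} (ht : Gd t)
    (hlen : P.p0 + P.D2 ≤ t.length) (I : Finset ℕ)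
    (hI : ∀ k ∈ I, k < P.K) (hcard : 1 + 2 * g.ms.card + (P.D.m + 1) < I.card) :
    ∃ k ∈ I, ∀ k' < P.K, k' ≠ k →
      ∃ b, P.GeoGood (P.c k') ((t.drop (P.c k)).take P.D2) b ∧ b ≤ g.Z1 + g.Go := by
  classical
  by_contra hcon
  push Not at hcon
  let Rel : ℕ → (ℕ × ℕ × Bool) → Prop := fun k κ => ∃ k' < P.K, k' ≠ k ∧
    ((κ = (0, 0, false) ∧ CE P t k k') ∨
    (∃ μ ∈ g.ms, ∃ β, κ = (1, μ, β) ∧ CB P t (g.Z1 + g.Lam) (P.Sb + g.Lam) μ β k k') ∨
    (∃ j ≤ P.D.m, κ = (2, j, false) ∧ CD P t j k k'))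
  let CS : Finset (ℕ × ℕ × Bool) := {(0, 0, false)} ∪
    ((g.ms ×ˢ (Finset.univ : Finset Bool)).image fun x => (1, x.1, x.2)) ∪
    ((Finset.range (P.D.m + 1)).image fun j => (2, j, false))
  have hex : ∀ k ∈ I, ∃ κ, κ ∈ CS ∧ Rel k κ := by
    intro k hk
    obtain ⟨k', hk', hne, hno⟩ := hcon k hk
    rcases cause g ht hlen (hI k hk) hk' with ⟨b, h1, h2⟩ | h | ⟨μ, hμ, β, h⟩ | ⟨j, hj, h⟩
    · exact absurd h2 (by have := hno b h1; omega)
    · exact ⟨(0, 0, false), by simp [CS], k', hk', hne, Or.inl ⟨rfl, h⟩⟩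
    · refine ⟨(1, μ, β), ?_, k', hk', hne, Or.inr (Or.inl ⟨μ, hμ, β, rfl, h⟩)⟩
      simp only [CS, Finset.mem_union, Finset.mem_image, Finset.mem_product]
      left; right
      exact ⟨(μ, β), ⟨hμ, Finset.mem_univ _⟩, rfl⟩
    · refine ⟨(2, j, false), ?_, k', hk', hne, Or.inr (Or.inr ⟨j, hj, rfl, h⟩)⟩
      simp only [CS, Finset.mem_union, Finset.mem_image, Finset.mem_range]
      right
      exact ⟨j, by omega, rfl⟩
  have huniq : ∀ k < P.K, ∀ l < P.K, ∀ κ, Rel k κ → Rel l κ → k = l := by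
    rintro k hk l hl κ ⟨k', hk', hne, h⟩ ⟨l', hl', hne', h'⟩
    rcases h with ⟨h1, h2⟩ | ⟨μ, hμ, β, h1, h2⟩ | ⟨j, hj, h1, h2⟩
    · rcases h' with ⟨h3, h4⟩ | ⟨μ, hμ, β, h3, h4⟩ | ⟨j, hj, h3, h4⟩
      · exact CE_uniq g hk hk' hl hl' hne.symm h2 h4
      · rw [h1] at h3; simp at h3
      · rw [h1] at h3; simp at h3
    · rcases h' with ⟨h3, h4⟩ | ⟨μ', hμ', β', h3, h4⟩ | ⟨j, hj, h3, h4⟩
      · rw [h1] at h3; simp at h3
      · rw [h1] at h3
        simp only [Prod.mk.injEq, true_and] at h3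
        obtain ⟨rfl, rfl⟩ := h3
        exact CB_uniq g (by push_cast; omega) hμ hk hk' hl hl' hne.symm h2 h4
      · rw [h1] at h3; simp at h3
    · rcases h' with ⟨h3, h4⟩ | ⟨μ', hμ', β', h3, h4⟩ | ⟨j', hj', h3, h4⟩
      · rw [h1] at h3; simp at h3
      · rw [h1] at h3; simp at h3
      · rw [h1] at h3
        simp only [Prod.mk.injEq, true_and, and_true] at h3
        subst h3
        exact CD_uniq g hk hk' hl hl' hne.symm h2 h4
  choose! f hf1 hf2 using hex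
  have hle : I.card ≤ CS.card := by
    apply Finset.card_le_card_of_injOn f (fun k hk => hf1 k hk)
    intro k hk l hl hkl
    exact huniq k (hI k hk) l (hI l hl) (f k) (hf2 k hk) (hkl ▸ hf2 l hl)
  have hCS : CS.card ≤ 1 + 2 * g.ms.card + (P.D.m + 1) := by
    have h1 : (((g.ms ×ˢ (Finset.univ : Finset Bool)).image
        fun x : ℕ × Bool => ((1 : ℕ), x.1, x.2))).card ≤ g.ms.card * 2 := by
      refine Finset.card_image_le.trans ?_
      rw [Finset.card_product]; simp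
    have h2 : (((Finset.range (P.D.m + 1)).image fun j => ((2 : ℕ), j, false))).card
        ≤ P.D.m + 1 := by
      refine Finset.card_image_le.trans ?_
      simp
    have h3 := Finset.card_union_le ({(0, 0, false)} ∪
      ((g.ms ×ˢ (Finset.univ : Finset Bool)).image fun x => ((1 : ℕ), x.1, x.2)))
      ((Finset.range (P.D.m + 1)).image fun j => ((2 : ℕ), j, false))
    have h4 := Finset.card_union_le ({((0 : ℕ), (0 : ℕ), false)} : Finset (ℕ × ℕ × Bool))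
      ((g.ms ×ˢ (Finset.univ : Finset Bool)).image fun x => ((1 : ℕ), x.1, x.2))
    rw [Finset.card_singleton] at h4
    show (({((0 : ℕ), (0 : ℕ), false)} ∪ _ ∪ _ : Finset (ℕ × ℕ × Bool))).card ≤ _
    omega
  omega

end Par

end Crest.Agent.R320.Half_548
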