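import Crest.Agent.R320.Half4_548

set_option autoImplicit false

/-! Row 320 (helper548): completeness of the pair of schemes. -/

namespace Crest.Agent.R320.Half_548

open Crest.Agent.R320.Nest_85 Crest.Agent.R320.Run_548 Crest.Agent.R320.WallSch_870
open Crest.Agent.R320.Zone132_898 Crest.Agent.R320.Hgt1_903

variable {α S V W : Type} [Monoid S] [AddCommGroup V] [AddCommGroup W]

namespace Par

variable {P : Par α S V W} {Gd : List α → Prop} (g : P.Geo Gd)

include g in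
theorem Ok_far {s : ℕ} (h : g.Z1 ≤ s) : P.Ok s := by
  unfold Ok Ok132
  have := g.thi (((s : ℤ) - P.z) % (P.D.q : ℤ))
  have := g.hZ1
  omega

include g in
theorem exNx {r : List α} (hr : Gd r) (hl : g.Z1 + g.Go + P.n ≤ r.length) (o : ℕ) :
    ∃ b, P.NxO o r b ∧ b ≤ g.Z1 + g.Go := by
  classical
  obtain ⟨i, hi, hRi⟩ := g.exO (r.drop g.Z1) (g.hGd _ _ hr (List.drop_suffix _ _).isInfix)
    (by rw [List.length_drop]; omega)
  rw [List.drop_drop] at hRi
  have hOk : P.Ok (o + (g.Z1 + i)) := Ok_far g (by omega)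
  have hex : ∃ b, P.R (r.drop b) ∧ P.Ok (o + b) := ⟨_, hRi, hOk⟩
  refine ⟨Nat.find hex, ⟨(Nat.find_spec hex).1, (Nat.find_spec hex).2, ?_⟩, ?_⟩
  · intro s hs h1 h2
    exact Nat.find_min hex hs ⟨h1, h2⟩
  · have := Nat.find_min' hex ⟨hRi, hOk⟩
    omega

/-- the pair of schemes is complete -/
noncomputable def cpl (h3 : P.D.N3) (hF : P.D.Hides) {Gs : ℕ}
    (hsm : ∀ Q, Gd Q → Gs + P.D.r.n ≤ Q.length → ∃ i < Gs, P.D.r.R (Q.drop i))
    (hlo : ∀ i, i < P.D.m → P.D.A i + Gs + P.D.r.n ≤ P.D.q * P.D.lo i)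
    (hY : ∀ t, P.Ok t → (∀ k, k ≤ P.D.m → P.p0 + P.D.A k + Gs + P.D.r.n ≤ t) ∧
      ∀ i, i < P.D.m → P.p0 + P.D.q * (P.D.lo i + P.D.M) ≤ t)
    (hZ : (g.Z1 : ℤ) ≤ P.z + P.Sb + 1)
    (hcn : ∀ k < P.K, P.n ≤ P.c k)
    (hI : ∀ (u : List α) (v : V), (∀ k < P.K, P.c k ≤ u.length) →
      ∃ I : Finset ℕ, 1 + 2 * g.ms.card + (P.D.m + 1) < I.card ∧ ∀ k ∈ I, k < P.K ∧
        P.lam k (u.take (P.c k)) = some v ∧ (P.rho k (u.drop (P.c k)) 1).isSome) :
    P.Cpl Gd where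
  hGd := g.hGd
  Bm := g.Z1 + g.Go + P.n
  ex := by
    intro Q hQ hl
    obtain ⟨b, hb, hbl⟩ := exNx g hQ hl 0
    refine ⟨b, P.nx_eq ⟨hb.1, ?_, ?_⟩, by omega⟩
    · have := hb.2.1
      rwa [Nat.zero_add] at this
    · intro s hs h1 h2
      refine hb.2.2 s hs h1 ?_
      rwa [Nat.zero_add]
  hcn := hcn
  N2 := P.p0 + P.D2
  hN2 := le_rfl
  cut := by
    intro t ht hlen v _
    have hZ1 := g.hZ1
    have hD1 := g.hD1'
    have hD2 := g.hD2'
    have hzz := P.hz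
    have hSb := g.Sb0
    have hul : (t.take P.p0).length = P.p0 := by rw [List.length_take]; omega
    obtain ⟨I, hIc, hI2⟩ := hI (t.take P.p0) v (fun k hk => by rw [hul]; exact P.hc k hk)
    obtain ⟨k, hkI, hk⟩ := spoil g hZ ht hlen I (fun k hk => (hI2 k hk).1) hIc
    obtain ⟨hkK, hlam, hrho⟩ := hI2 k hkI
    have hck := P.hc k hkK
    have e1 : (t.take P.p0).take (P.c k) = t.take (P.c k) := by
      rw [List.take_take, Nat.min_eq_left hck]
    rw [e1] at hlam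
    obtain ⟨val, hval⟩ := Option.isSome_iff_exists.1 hrho
    have hGr : Gd ((t.drop (P.c k)).take P.D2) :=
      g.hGd _ _ ht ((List.take_prefix _ _).isInfix.trans (List.drop_suffix _ _).isInfix)
    have hrl : ((t.drop (P.c k)).take P.D2).length = P.D2 := by
      rw [List.length_take, List.length_drop]; omega
    obtain ⟨b, hb, hbl⟩ := exNx g hGr (by rw [hrl]; omega) (P.c k)
    refine ⟨k, hkK, hlam, (k, b, val), hkK, ?_, hb.1, hb.2.1, hb.2.2, ?_⟩
    · intro k' hk' hne u1 hu1 v1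
      obtain ⟨b', hg', hbl'⟩ := hk k' hk' hne
      exact P.good1 h3 hF Gd g.hGd hsm hlo hY (P.hc k' hk') hGr hg' (by rw [hrl]; omega)
        (by omega) u1 hu1 v1
    · simp only
      rw [List.take_take, Nat.min_eq_left (by omega), ← List.drop_take]
      exact hval

end Par

end Crest.Agent.R320.Half_548
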