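import Crest.Agent.R320.Hgt1_903

/-! Row 320 piece (9): the abstract nesting step (thread calculus).

A deterministic (possibly infinite) transition system `step : σ → α → σ`, a promise
`Prom q w` ("`w` may be read from the start state `q`"), prefix-closed, and a *level*:
legal states `Lg`, finitely many nonempty reset words `R`, and reset values `c s`
(reading `s ∈ R` from any legal state reached under the promise leads exactly to `c s`).
If all targets are computed in height `n` on the promised words with NO legal reset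
occurrence (`¬ Cut`), they are computed in height `n + 1` on all promised words.
Iterating over a list of `k` levels costs exactly `k` star heights; if the promised words
without a cut at any level are finitely many, `k` stars suffice (`nestFinite`). -/

set_option autoImplicit false

namespace Crest.Agent.R320.Nest_85

open Crest.RegLang Crest.Agent.R320.Hgt1_903

variable {α : Type*} {σ : Type*}

/-- State reached from `q` by reading `w`. -/
def run (step : σ → α → σ) (q : σ) (w : List α) : σ := w.foldl step q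

theorem run_nil (step : σ → α → σ) (q : σ) : run step q [] = q := rfl

theorem run_append (step : σ → α → σ) (q : σ) (u v : List α) :
    run step q (u ++ v) = run step (run step q u) v := by
  simp [run, List.foldl_append]

/-- One level of nesting: legal states, reset words, state after a reset word. -/
structure Level (α : Type*) (σ : Type*) where
  Lg : σ → Prop
  R : Set (List α)
  c : List α → σ

/-- `w`, read from `q`, contains an occurrence of a reset word started in a legal state. -/
def Cut (step : σ → α → σ) (L : Level α σ) (q : σ) (w : List α) : Prop :=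
  ∃ p s u, p ++ s ++ u = w ∧ s ∈ L.R ∧ L.Lg (run step q p)

structure Level.Ok (step : σ → α → σ) (St : σ → Prop) (Prom : σ → List α → Prop)
    (L : Level α σ) : Prop where
  fin : L.R.Finite
  ne : ∀ s ∈ L.R, s ≠ []
  st : ∀ s ∈ L.R, St (L.c s)
  closed : ∀ q, St q → ∀ p s u, Prom q (p ++ s ++ u) → s ∈ L.R → L.Lg (run step q p) →
    run step (run step q p) s = L.c s ∧ Prom (L.c s) u

/-- A cut word has a first cut: before it, no cut. -/
theorem Cut.first {step : σ → α → σ} {L : Level α σ} (hne : ∀ s ∈ L.R, s ≠ []) {q : σ}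
    {w : List α} (h : Cut step L q w) :
    ∃ p s u, p ++ s ++ u = w ∧ s ∈ L.R ∧ L.Lg (run step q p) ∧ ¬ Cut step L q p := by
  classical
  have h' : ∃ k, ∃ p s u, p.length = k ∧ p ++ s ++ u = w ∧ s ∈ L.R ∧ L.Lg (run step q p) := by
    obtain ⟨p, s, u, e, hs, hl⟩ := h
    exact ⟨p.length, p, s, u, rfl, e, hs, hl⟩
  obtain ⟨p, s, u, hk, e, hs, hl⟩ := Nat.find_spec h'
  refine ⟨p, s, u, e, hs, hl, ?_⟩
  rintro ⟨p', s', u', e', hs', hl'⟩
  have hlen : p'.length < p.length := by
    have h1 : 0 < s'.length := List.length_pos_iff.2 (hne s' hs')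
    rw [← e']
    simp only [List.length_append]
    omega
  exact Nat.find_min h' (m := p'.length) (by rw [← hk]; exact hlen)
    ⟨p', s', u' ++ s ++ u, rfl, by rw [← e, ← e']; simp, hs', hl'⟩

theorem Cut.append {step : σ → α → σ} {L : Level α σ} {q : σ} {w v : List α}
    (h : Cut step L q w) : Cut step L q (w ++ v) := by
  obtain ⟨p, s, u, e, hs, hl⟩ := h
  exact ⟨p, s, u ++ v, by rw [← e]; simp, hs, hl⟩

theorem Cut.prepend {step : σ → α → σ} {L : Level α σ} {q : σ} {v w : List α}
    (h : Cut step L (run step q v) w) : Cut step L q (v ++ w) := by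
  obtain ⟨p, s, u, e, hs, hl⟩ := h
  exact ⟨v ++ p, s, u, by rw [← e]; simp, hs, by rw [run_append]; exact hl⟩

/-- The nesting step: one star height per level. -/
theorem nest (step : σ → α → σ) (St : σ → Prop) (Prom : σ → List α → Prop)
    (pre : ∀ q u v, Prom q (u ++ v) → Prom q u)
    (L : Level α σ) (hL : L.Ok step St Prom) (n : ℕ)
    (Tg : (σ → Prop) → Prop) (hLg : Tg L.Lg)
    (hE : ∀ q, St q → ∀ T, Tg T → ∃ E : Language α, H n E ∧
      ∀ w, Prom q w → ¬ Cut step L q w → (w ∈ E ↔ T (run step q w))) :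
    ∀ q, St q → ∀ T, Tg T → ∃ E : Language α, H (n + 1) E ∧
      ∀ w, Prom q w → (w ∈ E ↔ T (run step q w)) := by
  classical
  have hE' : ∀ (q : σ) (T : σ → Prop), ∃ E : Language α, H n E ∧ (St q → Tg T →
      ∀ w, Prom q w → ¬ Cut step L q w → (w ∈ E ↔ T (run step q w))) := by
    intro q T
    by_cases hq : St q
    · by_cases hT : Tg T
      · obtain ⟨E, h1, h2⟩ := hE q hq T hT
        exact ⟨E, h1, fun _ _ => h2⟩
      · exact ⟨0, H.empty n, fun _ h => absurd h hT⟩
    · exact ⟨0, H.empty n, fun h => absurd h hq⟩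
  choose E hEn hEc using hE'
  -- finite unions over the reset words
  have hfin : ∀ f : List α → Language α, (∀ s, H n (f s)) →
      H n ({w | ∃ s ∈ L.R, w ∈ f s} : Language α) := by
    intro f hf
    refine H.congr (H.exists_finset hL.fin.toFinset f fun s _ => hf s) fun w => ?_
    change (∃ s ∈ hL.fin.toFinset, w ∈ f s) ↔ ∃ s ∈ L.R, w ∈ f s
    simp only [Set.Finite.mem_toFinset]
  have hR : H n (L.R : Language α) := H.finite n hL.fin
  -- words without a cut
  let Y : σ → Language α := fun q =>
    ({w | ¬ ∃ p s u, p ++ s ++ u = w ∧ p ∈ E q L.Lg ∧ s ∈ (L.R : Language α) ∧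
      u ∈ (⊤ : Language α)} : Language α)
  have hYn : ∀ q, H n (Y q) := fun q =>
    H.not (L := ({w | ∃ p s u, p ++ s ++ u = w ∧ p ∈ E q L.Lg ∧ s ∈ (L.R : Language α) ∧
      u ∈ (⊤ : Language α)} : Language α)) (H.factor (hEn q L.Lg) hR (H.univ n))
  have hY : ∀ q, St q → ∀ w, Prom q w → (w ∈ Y q ↔ ¬ Cut step L q w) := by
    intro q hq w hw
    change (¬ ∃ p s u, p ++ s ++ u = w ∧ p ∈ E q L.Lg ∧ s ∈ (L.R : Language α) ∧
      u ∈ (⊤ : Language α)) ↔ ¬ Cut step L q w
    constructor
    · intro h hc
      obtain ⟨p, s, u, e, hs, hl, hnc⟩ := hc.first hL.ne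
      have hp : Prom q p := by
        apply pre q p (s ++ u)
        rw [← List.append_assoc, e]; exact hw
      exact h ⟨p, s, u, e, (hEc q L.Lg hq hLg p hp hnc).2 hl, hs, trivial⟩
    · rintro h ⟨p, s, u, e, hpE, hs, -⟩
      have hp : Prom q p := by
        apply pre q p (s ++ u)
        rw [← List.append_assoc, e]; exact hw
      have hnc : ¬ Cut step L q p := fun hc => h (by
        rw [← e, List.append_assoc]; exact hc.append)
      exact h ⟨p, s, u, e, hs, (hEc q L.Lg hq hLg p hp hnc).1 hpE⟩
  -- pieces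
  let P : σ → (σ → Prop) → Language α := fun q T => ({w | w ∈ Y q ∧ w ∈ E q T} : Language α)
  have hPn : ∀ q T, H n (P q T) := fun q T => H.inter (hYn q) (hEn q T)
  have hP : ∀ q, St q → ∀ T, Tg T → ∀ w, Prom q w →
      (w ∈ P q T ↔ ¬ Cut step L q w ∧ T (run step q w)) := by
    intro q hq T hT w hw
    change (w ∈ Y q ∧ w ∈ E q T) ↔ _
    rw [hY q hq w hw]
    constructor
    · rintro ⟨h1, h2⟩; exact ⟨h1, (hEc q T hq hT w hw h1).1 h2⟩
    · rintro ⟨h1, h2⟩; exact ⟨h1, (hEc q T hq hT w hw h1).2 h2⟩
  let S : (σ → Prop) → Language α := fun T =>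
    ({w | ∃ s ∈ L.R, w ∈ (({s} : Language α) * P (L.c s) T)} : Language α)
  have hSn : ∀ T, H n (S T) := fun T =>
    hfin _ fun s => (H.word n s).mul (hPn (L.c s) T)
  have hSmem : ∀ T x, x ∈ S T ↔ ∃ s ∈ L.R, ∃ y ∈ P (L.c s) T, s ++ y = x := by
    intro T x
    change (∃ s ∈ L.R, x ∈ (({s} : Language α) * P (L.c s) T)) ↔ _
    constructor
    · rintro ⟨s, hs, hx⟩
      rw [Language.mem_mul] at hx
      obtain ⟨a, ha, y, hy, e⟩ := hx
      have : a = s := ha
      subst this
      exact ⟨a, hs, y, hy, e⟩
    · rintro ⟨s, hs, y, hy, e⟩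
      exact ⟨s, hs, Language.mem_mul.2 ⟨s, rfl, y, hy, e⟩⟩
  intro q hq T hT
  refine ⟨({w | w ∈ P q T ∨ w ∈ (P q L.Lg * KStar.kstar (S L.Lg)) * S T} : Language α),
    H.union ((hPn q T).mono (Nat.le_succ n))
      ((((hPn q L.Lg).mono (Nat.le_succ n)).mul (hSn L.Lg).star).mul
        ((hSn T).mono (Nat.le_succ n))), ?_⟩
  -- soundness of the starred part
  have sound : ∀ (Ks : List (List α)), (∀ y ∈ Ks, y ∈ S L.Lg) → ∀ (q : σ), St q →
      ∀ p s, Prom q (p ++ Ks.flatten ++ s) → L.Lg (run step q p) → s ∈ S T →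
        T (run step q (p ++ Ks.flatten ++ s)) := by
    intro Ks
    induction Ks with
    | nil =>
      intro _ q hq p x hw hl hx
      obtain ⟨s, hs, y, hy, e⟩ := (hSmem T x).1 hx
      subst e
      have hw' : Prom q (p ++ s ++ y) := by simpa using hw
      obtain ⟨h1, h2⟩ := hL.closed q hq p s y hw' hs hl
      have h3 := ((hP (L.c s) (hL.st s hs) T hT y h2).1 hy).2
      have h4 : p ++ [].flatten ++ (s ++ y) = (p ++ s) ++ y := by simp
      rw [h4, run_append, run_append, h1]
      exact h3
    | cons k Ks ih =>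
      intro hK q hq p x hw hl hx
      obtain ⟨s, hs, y, hy, e⟩ := (hSmem L.Lg k).1 (hK k (List.mem_cons_self))
      subst e
      have h4 : p ++ ((s ++ y) :: Ks).flatten ++ x = p ++ s ++ (y ++ Ks.flatten ++ x) := by simp
      rw [h4] at hw ⊢
      obtain ⟨h1, h2⟩ := hL.closed q hq p s _ hw hs hl
      have hy' : Prom (L.c s) y := by
        apply pre (L.c s) y (Ks.flatten ++ x)
        rw [← List.append_assoc]; exact h2
      have h3 := ((hP (L.c s) (hL.st s hs) L.Lg hLg y hy').1 hy).2
      rw [run_append step q (p ++ s), run_append step q p, h1]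
      exact ih (fun z hz => hK z (List.mem_cons_of_mem _ hz)) (L.c s) (hL.st s hs) y x h2 h3 hx
  -- completeness
  have complete : ∀ (m : ℕ) (q : σ), St q → ∀ w, w.length ≤ m → Prom q w →
      T (run step q w) → w ∈ P q T ∨ ∃ p k s, p ++ k ++ s = w ∧ p ∈ P q L.Lg ∧
        k ∈ (KStar.kstar (S L.Lg) : Language α) ∧ s ∈ S T := by
    intro m
    induction m with
    | zero =>
      intro q hq w hm hw ht
      left
      have hw0 : w = [] := List.length_eq_zero_iff.1 (Nat.le_zero.1 hm)
      refine (hP q hq T hT w hw).2 ⟨?_, ht⟩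
      rintro ⟨p, s, u, e, hs, -⟩
      rw [hw0] at e
      have := hL.ne s hs
      simp at e
      exact this e.2.1
    | succ m ih =>
      intro q hq w hm hw ht
      by_cases hc : Cut step L q w
      · right
        obtain ⟨p, s, u, e, hs, hl, hnc⟩ := hc.first hL.ne
        subst e
        have hp : Prom q p := by
          apply pre q p (s ++ u)
          rw [← List.append_assoc]; exact hw
        have hpP : p ∈ P q L.Lg := (hP q hq L.Lg hLg p hp).2 ⟨hnc, hl⟩
        obtain ⟨h1, h2⟩ := hL.closed q hq p s u hw hs hl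
        have ht' : T (run step (L.c s) u) := by
          rw [run_append, run_append, h1] at ht; exact ht
        have hlen : u.length ≤ m := by
          have h1 : 0 < s.length := List.length_pos_iff.2 (hL.ne s hs)
          simp only [List.length_append] at hm
          omega
        rcases ih (L.c s) (hL.st s hs) u hlen h2 ht' with h | ⟨p', k', s', e', hp', hk', hs'⟩
        · refine ⟨p, [], s ++ u, by simp, hpP, Language.nil_mem_kstar _,
            (hSmem T _).2 ⟨s, hs, u, h, rfl⟩⟩
        · subst e'
          refine ⟨p, (s ++ p') ++ k', s', by simp, hpP, ?_, hs'⟩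
          have h5 : s ++ p' ∈ S L.Lg := (hSmem L.Lg _).2 ⟨s, hs, p', hp', rfl⟩
          rw [Language.mem_kstar] at hk' ⊢
          obtain ⟨Ks, e, hKs⟩ := hk'
          refine ⟨(s ++ p') :: Ks, by rw [e]; simp, ?_⟩
          intro z hz
          rcases List.mem_cons.1 hz with h | h
          · rw [h]; exact h5
          · exact hKs z h
      · left
        exact (hP q hq T hT w hw).2 ⟨hc, ht⟩
  intro w hw
  change (w ∈ P q T ∨ w ∈ (P q L.Lg * KStar.kstar (S L.Lg)) * S T) ↔ T (run step q w)
  constructor
  · rintro (h | h)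
    · exact ((hP q hq T hT w hw).1 h).2
    · rw [Language.mem_mul] at h
      obtain ⟨x, hx, s, hs, e⟩ := h
      rw [Language.mem_mul] at hx
      obtain ⟨p, hp, k, hk, e2⟩ := hx
      rw [Language.mem_kstar] at hk
      obtain ⟨Ks, e3, hKs⟩ := hk
      subst e3 e2 e
      have hp' : Prom q p := by
        apply pre q p (Ks.flatten ++ s)
        rw [← List.append_assoc]; exact hw
      exact sound Ks hKs q hq p s hw ((hP q hq L.Lg hLg p hp').1 hp).2 hs
  · intro ht
    rcases complete w.length q hq w le_rfl hw ht with h | ⟨p, k, s, e, hp, hk, hs⟩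
    · exact Or.inl h
    · right
      rw [Language.mem_mul]
      exact ⟨p ++ k, Language.mem_mul.2 ⟨p, hp, k, hk, rfl⟩, s, hs, e⟩

/-- A level stays fine when the promise is cut down to the words without a cut of another
level. -/
theorem Level.Ok.restrict {step : σ → α → σ} {St : σ → Prop} {Prom : σ → List α → Prop}
    {L L' : Level α σ} (h : L'.Ok step St Prom) :
    L'.Ok step St (fun q w => Prom q w ∧ ¬ Cut step L q w) where
  fin := h.fin
  ne := h.ne
  st := h.st
  closed := by
    intro q hq p s u hw hs hl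
    obtain ⟨h1, h2⟩ := h.closed q hq p s u hw.1 hs hl
    refine ⟨h1, h2, fun hc => hw.2 ?_⟩
    apply Cut.prepend
    rw [run_append, h1]
    exact hc

/-- Nested levels: one star height per level. -/
theorem nestList (step : σ → α → σ) (St : σ → Prop) (Tg : (σ → Prop) → Prop) :
    ∀ (Ls : List (Level α σ)) (Prom : σ → List α → Prop)
      (_ : ∀ q u v, Prom q (u ++ v) → Prom q u)
      (_ : ∀ L ∈ Ls, L.Ok step St Prom ∧ Tg L.Lg) (n : ℕ)
      (_ : ∀ q, St q → ∀ T, Tg T → ∃ E : Language α, H n E ∧
        ∀ w, Prom q w → (∀ L ∈ Ls, ¬ Cut step L q w) → (w ∈ E ↔ T (run step q w))),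
      ∀ q, St q → ∀ T, Tg T → ∃ E : Language α, H (n + Ls.length) E ∧
        ∀ w, Prom q w → (w ∈ E ↔ T (run step q w)) := by
  intro Ls
  induction Ls with
  | nil =>
    intro Prom _ _ n hE q hq T hT
    obtain ⟨E, h1, h2⟩ := hE q hq T hT
    exact ⟨E, h1, fun w hw => h2 w hw (by simp)⟩
  | cons L Ls ih =>
    intro Prom pre hLs n hE
    have hL := hLs L (List.mem_cons_self)
    have key := ih (fun q w => Prom q w ∧ ¬ Cut step L q w)
      (fun q u v h => ⟨pre q u v h.1, fun hc => h.2 hc.append⟩)
      (fun L' h' => ⟨(hLs L' (List.mem_cons_of_mem _ h')).1.restrict,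
        (hLs L' (List.mem_cons_of_mem _ h')).2⟩) n
      (by
        intro q hq T hT
        obtain ⟨E, h1, h2⟩ := hE q hq T hT
        refine ⟨E, h1, fun w hw hc => h2 w hw.1 ?_⟩
        intro L' h'
        rcases List.mem_cons.1 h' with h | h
        · rw [h]; exact hw.2
        · exact hc L' h)
    have := nest step St Prom pre L hL.1 (n + Ls.length) Tg hL.2
      (fun q hq T hT => by
        obtain ⟨E, h1, h2⟩ := key q hq T hT
        exact ⟨E, h1, fun w hw hc => h2 w ⟨hw, hc⟩⟩)
    intro q hq T hT
    obtain ⟨E, h1, h2⟩ := this q hq T hT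
    exact ⟨E, h1.mono (by simp only [List.length_cons]; omega), h2⟩

/-- If, from every start state, only finitely many promised words have no cut at any of the
`k` levels, then every target (any predicate of the reached state) has height `≤ k` on the
promised words. -/
theorem nestFinite (step : σ → α → σ) (St : σ → Prop) (Ls : List (Level α σ))
    (Prom : σ → List α → Prop) (pre : ∀ q u v, Prom q (u ++ v) → Prom q u)
    (hLs : ∀ L ∈ Ls, L.Ok step St Prom)
    (hfin : ∀ q, St q → {w | Prom q w ∧ ∀ L ∈ Ls, ¬ Cut step L q w}.Finite) :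
    ∀ q, St q → ∀ T : σ → Prop, ∃ E : Language α, H Ls.length E ∧
      ∀ w, Prom q w → (w ∈ E ↔ T (run step q w)) := by
  intro q hq T
  obtain ⟨E, h1, h2⟩ := nestList step St (fun _ => True) Ls Prom pre
    (fun L h => ⟨hLs L h, trivial⟩) 0
    (fun q hq T _ => ⟨({w | (Prom q w ∧ ∀ L ∈ Ls, ¬ Cut step L q w) ∧ T (run step q w)} :
        Language α), H.finite 0 ((hfin q hq).subset fun w hw => hw.1),
        fun w hw hc => ⟨fun h => h.2, fun h => ⟨⟨hw, hc⟩, h⟩⟩⟩) q hq T trivial
  exact ⟨E, h1.mono (by omega), h2⟩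

/-- The same with an explicit length bound, finite alphabet: promised words without a cut
are shorter than `N`. -/
theorem nestBounded [Finite α] (step : σ → α → σ) (St : σ → Prop) (Ls : List (Level α σ))
    (Prom : σ → List α → Prop) (pre : ∀ q u v, Prom q (u ++ v) → Prom q u)
    (hLs : ∀ L ∈ Ls, L.Ok step St Prom) (N : ℕ)
    (hN : ∀ q, St q → ∀ w, Prom q w → (∀ L ∈ Ls, ¬ Cut step L q w) → w.length < N) :
    ∀ q, St q → ∀ T : σ → Prop, ∃ E : Language α, H Ls.length E ∧
      ∀ w, Prom q w → (w ∈ E ↔ T (run step q w)) :=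
  nestFinite step St Ls Prom pre hLs fun q hq =>
    (List.finite_length_le α N).subset fun w hw => (hN q hq w hw.1 hw.2).le

/-- Three levels: height three (A1, A2, C of row 320). -/
theorem nestThree [Finite α] (step : σ → α → σ) (St : σ → Prop) (A1 A2 C : Level α σ)
    (Prom : σ → List α → Prop) (pre : ∀ q u v, Prom q (u ++ v) → Prom q u)
    (h1 : A1.Ok step St Prom) (h2 : A2.Ok step St Prom) (h3 : C.Ok step St Prom) (N : ℕ)
    (hN : ∀ q, St q → ∀ w, Prom q w → ¬ Cut step A1 q w → ¬ Cut step A2 q w →
      ¬ Cut step C q w → w.length < N) :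
    ∀ q, St q → ∀ T : σ → Prop, ∃ E : Language α, H 3 E ∧
      ∀ w, Prom q w → (w ∈ E ↔ T (run step q w)) := by
  have := nestBounded step St [A1, A2, C] Prom pre
    (by
      intro L hL
      simp only [List.mem_cons, List.not_mem_nil, or_false] at hL
      rcases hL with rfl | rfl | rfl
      · exact h1
      · exact h2
      · exact h3) N
    (fun q hq w hw hc => hN q hq w hw (hc A1 (by simp)) (hc A2 (by simp)) (hc C (by simp)))
  simpa using this

end Crest.Agent.R320.Nest_85
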