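import Mathlib
import Crest.Agent.R320.Zone_716
import Crest.Agent.R320.Nest_85

/-! Row 320, half 1 (run-free words have height 2), abstract glue: ONE automaton (text since the
anchor, token), two levels of cuts (132 #12664, remark of 28). -/

set_option autoImplicit false
set_option linter.unusedSectionVars false

namespace Crest.Agent.R320.HalfA_794

open Crest.RegLang Crest.Agent.R320.Hgt1_903 Crest.Agent.R320

/-- Data of the two schemes. -/
structure Dat (α S V : Type) where
  phi : List α → S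
  act : V → S → V
  Gd : List α → Prop
  Ro : List α → Prop
  no : ℕ
  Go : ℕ
  M' : ℕ
  N1 : ℕ
  zz : ℕ
  th : ℕ → ℕ
  Sm : ℕ
  Lf : List α → Option V
  Rf : List α → Option V
  nu1 : List α → V
  p0 : ℕ
  K : ℕ
  c : ℕ → ℕ
  lam : ℕ → List α → Option V
  rho : ℕ → List α → Option V
  nu2 : List α → V
  Bad : List α → Prop
  D1 : ℕ
  D0 : ℕ
  D2 : ℕ
  Rr : ℕ

variable {α S V : Type}

/-- `t` is a qualifying wall of the text `Z`. -/
def Dat.Qz (D : Dat α S V) (Z : List α) (t : ℕ) : Prop :=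
  D.Ro (Z.drop t) ∧ D.zz + D.th (t % D.M') ≤ t

open Classical in
/-- the next anchor. -/
noncomputable def Dat.nz (D : Dat α S V) (Z : List α) : Option ℕ :=
  if h : ∃ t, D.Qz Z t then some (Nat.find h) else none

/-- right-legality w.r.t. the outer walls. -/
def Dat.Legal (D : Dat α S V) (Q : List α) : Prop :=
  ∀ t, D.Ro (Q.drop t) → ¬ (t < D.zz + D.th (t % D.M') ∧ D.zz + D.th (t % D.M') ≤ t + D.N1)

/-- set of right words of level 1 -/
def Dat.RS1 (D : Dat α S V) : Set (List α) :=
  {Q | Q.length = D.D1 ∧ D.Legal Q ∧ ∃ b r, D.nz Q = some b ∧ D.Rf (Q.take b) = some r}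

theorem Dat.nz_some {D : Dat α S V} {Z : List α} {b : ℕ} :
    D.nz Z = some b ↔ D.Qz Z b ∧ ∀ t < b, ¬ D.Qz Z t := by
  classical
  unfold Dat.nz
  constructor
  · intro h
    split_ifs at h with h1
    · rw [Option.some.injEq] at h
      subst h
      exact ⟨Nat.find_spec h1, fun t ht => Nat.find_min h1 ht⟩
  · rintro ⟨h1, h2⟩
    rw [dif_pos ⟨b, h1⟩, Option.some.injEq]
    exact (Nat.find_eq_iff _).2 ⟨h1, h2⟩

/-- The hypotheses. -/
structure Hyp [Monoid S] [AddCommGroup V] (D : Dat α S V) : Prop where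
  no_pos : 0 < D.no
  Ro_take : ∀ Q, D.Ro Q ↔ D.Ro (Q.take D.no)
  Ro_len : ∀ Q, D.Ro Q → D.no ≤ Q.length
  Gd_infix : ∀ Q Q', D.Gd Q → Q' <:+: Q → D.Gd Q'
  Ro_dense : ∀ Q, D.Gd Q → D.Go + D.no ≤ Q.length → ∃ i < D.Go, D.Ro (Q.drop i)
  N1_lt : D.N1 < D.zz
  th_le : ∀ i, D.th i ≤ D.Sm
  Lf_pos : ∀ P v, D.Lf P = some v → D.M' ∣ P.length ∧ P.length ≤ D.N1
  sound1 : ∀ P Q v r, D.Lf P = some v → D.Rf Q = some r →
    r = D.act v (D.phi (P ++ Q)) + D.nu1 (P ++ Q)
  c_pos : ∀ k < D.K, D.no ≤ D.c k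
  c_lt : ∀ k < D.K, D.c k < D.p0
  sound2 : ∀ k < D.K, ∀ (P Q : List α) (v y : V), P.length = D.c k → D.lam k P = some v →
    D.rho k Q = some y → y = D.act v (D.phi (P ++ Q)) + D.nu2 (P ++ Q)
  comp2 : ∀ (X : List α) (v : V), X.length = D.p0 → ∃ I : Finset ℕ, D.Rr ≤ I.card ∧
    ∀ k ∈ I, k < D.K ∧ D.lam k (X.take (D.c k)) = some v ∧ (D.rho k (X.drop (D.c k))).isSome
  bad_stab : ∀ Z Y, D.Gd (Z ++ Y) → D.D0 ≤ Z.length → (D.Bad (Z ++ Y) ↔ D.Bad Z)
  D1_ge : D.zz + D.Sm + D.Go + D.no ≤ D.D1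
  D0_ge : D.N1 + D.D1 ≤ D.D0
  D2_ge : D.p0 + D.D0 ≤ D.D2
  comp1 : ∀ Z, D.Gd Z → D.D0 ≤ Z.length → ¬ D.Bad Z → ∀ y, ∃ P s rest, P ++ s ++ rest = Z ∧
    D.Lf P = some y ∧ s ∈ D.RS1
  spoil : ∀ (T : List α) (a : ℕ), D.Gd T → a + 2 * D.p0 + D.D0 ≤ T.length →
    ∀ I : Finset ℕ, D.Rr ≤ I.card → (∀ k ∈ I, k < D.K) →
    ∃ k ∈ I, ∀ k' < D.K, k' ≠ k → ¬ D.Bad (T.drop (a + D.c k + (D.p0 - D.c k')))

variable [Monoid S] [AddCommGroup V] {D : Dat α S V}

theorem Hyp.wall_app (hD : Hyp D) {Q Y : List α} {t : ℕ} (h : t + D.no ≤ Q.length) :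
    D.Ro ((Q ++ Y).drop t) ↔ D.Ro (Q.drop t) := by
  rw [hD.Ro_take, hD.Ro_take (Q.drop t), List.drop_append_of_le_length (by omega),
    List.take_append_of_le_length (by rw [List.length_drop]; omega)]

theorem Hyp.wall_fit (hD : Hyp D) {Q : List α} {t : ℕ} (h : D.Ro (Q.drop t)) :
    t + D.no ≤ Q.length := by
  have h1 := hD.Ro_len _ h
  have h2 := hD.no_pos
  rw [List.length_drop] at h1
  omega

theorem Hyp.nz_fit (hD : Hyp D) {Z : List α} {b : ℕ} (h : D.nz Z = some b) :
    D.zz ≤ b ∧ b + D.no ≤ Z.length := by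
  obtain ⟨⟨h1, h2⟩, -⟩ := D.nz_some.1 h
  exact ⟨by omega, hD.wall_fit h1⟩

theorem Hyp.nz_app (hD : Hyp D) {Z Y : List α} {b : ℕ} (h : D.nz Z = some b) :
    D.nz (Z ++ Y) = some b := by
  have h0 := hD.nz_fit h
  obtain ⟨⟨h1, h2⟩, h3⟩ := D.nz_some.1 h
  refine D.nz_some.2 ⟨⟨(hD.wall_app h0.2).2 h1, h2⟩, ?_⟩
  rintro t ht ⟨h4, h5⟩
  exact h3 t ht ⟨(hD.wall_app (by omega)).1 h4, h5⟩

theorem Hyp.nz_junction (hD : Hyp D) {P Q : List α} {b : ℕ} (h1 : D.M' ∣ P.length)
    (h2 : P.length ≤ D.N1) (hL : D.Legal Q) (h : D.nz Q = some b) :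
    D.nz (P ++ Q) = some (P.length + b) := by
  obtain ⟨⟨h3, h4⟩, h5⟩ := D.nz_some.1 h
  have hN := hD.N1_lt
  have hmod : ∀ t, (P.length + t) % D.M' = t % D.M' := by
    intro t
    obtain ⟨q, hq⟩ := h1
    rw [hq, Nat.mul_add_mod]
  have hdrop : ∀ t, (P ++ Q).drop (P.length + t) = Q.drop t := by
    intro t; rw [List.drop_append]; simp
  refine D.nz_some.2 ⟨⟨by rw [hdrop]; exact h3, by rw [hmod]; omega⟩, ?_⟩
  rintro t ht ⟨h6, h7⟩
  rcases lt_or_ge t P.length with h8 | h8
  · omega
  · obtain ⟨u, rfl⟩ := Nat.exists_eq_add_of_le h8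
    rw [hdrop] at h6
    rw [hmod] at h7
    have h9 := hL u h6
    apply h5 u (by omega)
    refine ⟨h6, ?_⟩
    by_contra hc
    exact h9 ⟨by omega, by omega⟩

theorem Hyp.nz_exists (hD : Hyp D) {Z : List α} (hG : D.Gd Z)
    (hl : D.zz + D.Sm + D.Go + D.no ≤ Z.length) : ∃ b, D.nz Z = some b := by
  classical
  obtain ⟨i, hi, h1⟩ := hD.Ro_dense (Z.drop (D.zz + D.Sm))
    (hD.Gd_infix _ _ hG (List.drop_suffix _ _).isInfix) (by rw [List.length_drop]; omega)
  rw [List.drop_drop] at h1
  have h2 : ∃ t, D.Qz Z t := ⟨_, h1, by have := hD.th_le ((D.zz + D.Sm + i) % D.M'); omega⟩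
  unfold Dat.nz
  rw [dif_pos h2]
  exact ⟨_, rfl⟩

/-- next anchor of a text starting at an anchor. -/
noncomputable def Dat.nxt (D : Dat α S V) (W : List α) : Option ℕ :=
  if D.p0 ≤ W.length then (D.nz (W.drop D.p0)).map (fun b => D.p0 + b) else none

/-- token at `a + p0`. -/
def Dat.yy (D : Dat α S V) (v : V) (X : List α) : V := D.act v (D.phi X) + D.nu2 X

/-- token at `b`. -/
def Dat.zm (D : Dat α S V) (y : V) (Y : List α) : V := D.act y (D.phi Y) + D.nu1 Y

/-- zone map. -/
noncomputable def Dat.stp (D : Dat α S V) (v : V) (W : List α) : V :=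
  match D.nz (W.drop D.p0) with
  | some b => D.zm (D.yy v (W.take D.p0)) ((W.drop D.p0).take b)
  | none => v

theorem Dat.nxt_some {W : List α} {b : ℕ} :
    D.nxt W = some b ↔ D.p0 ≤ W.length ∧ ∃ b', D.nz (W.drop D.p0) = some b' ∧ b = D.p0 + b' := by
  unfold Dat.nxt
  constructor
  · intro h
    split_ifs at h with h1
    · rw [Option.map_eq_some_iff] at h
      obtain ⟨b', h2, h3⟩ := h
      exact ⟨h1, b', h2, h3.symm⟩
  · rintro ⟨h1, b', h2, rfl⟩
    rw [if_pos h1, h2]
    rfl

theorem Dat.stp_some {W : List α} {v : V} {b : ℕ} (h : D.nz (W.drop D.p0) = some b) :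
    D.stp v W = D.zm (D.yy v (W.take D.p0)) ((W.drop D.p0).take b) := by
  unfold Dat.stp
  rw [h]

/-- the zone automaton -/
noncomputable def Hyp.Z (hD : Hyp D) : Zone_716.ZData α V where
  nxt := D.nxt
  stp := D.stp
  pos := by
    intro X b h
    obtain ⟨h1, b', h2, rfl⟩ := D.nxt_some.1 h
    have := hD.nz_fit h2
    have := hD.N1_lt
    omega
  le := by
    intro X b h
    obtain ⟨h1, b', h2, rfl⟩ := D.nxt_some.1 h
    have := (hD.nz_fit h2).2
    rw [List.length_drop] at this
    omega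
  mono := by
    intro X Y b h
    obtain ⟨h1, b', h2, rfl⟩ := D.nxt_some.1 h
    refine D.nxt_some.2 ⟨by rw [List.length_append]; omega, b', ?_, rfl⟩
    rw [List.drop_append_of_le_length h1]
    exact hD.nz_app h2
  stp_mono := by
    intro v X Y b h
    obtain ⟨h1, b', h2, rfl⟩ := D.nxt_some.1 h
    have h3 := (hD.nz_fit h2).2
    rw [D.stp_some h2, D.stp_some (b := b') (by
      rw [List.drop_append_of_le_length h1]; exact hD.nz_app h2),
      List.drop_append_of_le_length h1, List.take_append_of_le_length h1,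
      List.take_append_of_le_length (by omega)]

/-- level 1 -/
noncomputable def Hyp.L1 (hD : Hyp D) : Nest_85.Level α (List α × V) where
  Lg := fun q => D.p0 ≤ q.1.length ∧ D.Lf (q.1.drop D.p0) = some (D.yy q.2 (q.1.take D.p0))
  R := D.RS1
  c := fun Q => Zone_716.run hD.Z ((D.Rf (Q.take ((D.nz Q).getD 0))).getD 0)
    (Q.drop ((D.nz Q).getD 0))

/-- information of a level 2 right word -/
def Dat.Info (D : Dat α S V) (Q : List α) (t : ℕ × V × ℕ) : Prop :=
  t.1 < D.K ∧ (∀ k' < D.K, D.Bad (Q.drop (D.p0 - D.c k')) → k' = t.1) ∧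
    D.rho t.1 (Q.take (D.p0 - D.c t.1)) = some t.2.1 ∧ D.nz (Q.drop (D.p0 - D.c t.1)) = some t.2.2
    ∧ D.Bad (Q.drop (D.p0 - D.c t.1))

open Classical in
/-- the reset value of level 2 -/
noncomputable def Hyp.c2 (hD : Hyp D) (Q : List α) : List α × V :=
  if h : ∃ t, D.Info Q t then
    Zone_716.run hD.Z
      (D.zm h.choose.2.1 ((Q.drop (D.p0 - D.c h.choose.1)).take h.choose.2.2))
      ((Q.drop (D.p0 - D.c h.choose.1)).drop h.choose.2.2)
  else ([], 0)

/-- level 2 -/
noncomputable def Hyp.L2 (hD : Hyp D) : Nest_85.Level α (List α × V) where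
  Lg := fun q => ∃ k < D.K, q.1.length = D.c k ∧ D.lam k q.1 = some q.2
  R := {Q | Q.length = D.D2 ∧ ∃ t, D.Info Q t}
  c := hD.c2

/-- start states -/
def Hyp.St (_hD : Hyp D) (q : List α × V) : Prop := D.nxt q.1 = none ∧ q.1.length ≤ D.D2

/-- promise -/
def Hyp.Prom (_hD : Hyp D) (q : List α × V) (w : List α) : Prop := D.Gd (q.1 ++ w)

/-- step -/
noncomputable def Hyp.step (hD : Hyp D) : List α × V → α → List α × V := Zone_716.dl hD.Z

theorem Hyp.run_eq (hD : Hyp D) {q : List α × V} (hq : D.nxt q.1 = none) (w : List α) :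
    Nest_85.run hD.step q w = Zone_716.run hD.Z q.2 (q.1 ++ w) :=
  Zone_716.foldl_dl hD.Z w q.1 q.2 hq

theorem Hyp.nxt_run (hD : Hyp D) {q : List α × V} (hq : D.nxt q.1 = none) (w : List α) :
    D.nxt (Nest_85.run hD.step q w).1 = none := by
  rw [hD.run_eq hq]
  exact Zone_716.nxt_run hD.Z _ _

theorem Hyp.suf_run (hD : Hyp D) {q : List α × V} (hq : D.nxt q.1 = none) (w : List α) :
    (Nest_85.run hD.step q w).1 <:+ q.1 ++ w := by
  rw [hD.run_eq hq]
  exact Zone_716.run_suffix hD.Z _ _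

theorem Hyp.nxt_none (hD : Hyp D) {W : List α} (h : W.length ≤ D.p0 + D.N1) :
    D.nxt W = none := by
  rcases h1 : D.nxt W with _ | b
  · rfl
  · obtain ⟨h2, b', h3, rfl⟩ := D.nxt_some.1 h1
    have := hD.nz_fit h3
    have := hD.N1_lt
    have := hD.no_pos
    rw [List.length_drop] at *
    omega

/-- reading without reaching a new anchor -/
theorem Hyp.run_short (hD : Hyp D) {u w : List α} {v : V} (h : (u ++ w).length ≤ D.p0 + D.N1) :
    Nest_85.run hD.step (u, v) w = (u ++ w, v) := by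
  have h1 : D.nxt u = none := hD.nxt_none (by rw [List.length_append] at h; omega)
  rw [hD.run_eq h1]
  exact Zone_716.run_none hD.Z (hD.nxt_none h)

theorem Hyp.ok1 (hD : Hyp D) [Finite α] : hD.L1.Ok hD.step hD.St hD.Prom where
  fin := by
    refine (List.finite_length_eq α D.D1).subset ?_
    rintro s ⟨h, -⟩
    exact h
  ne := by
    rintro s ⟨h, -⟩ rfl
    have := hD.D1_ge
    have := hD.no_pos
    simp at h
    omega
  st := by
    rintro s ⟨h, -⟩
    refine ⟨Zone_716.nxt_run hD.Z _ _, ?_⟩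
    have := (Zone_716.run_suffix hD.Z ((D.Rf (s.take ((D.nz s).getD 0))).getD 0)
      (s.drop ((D.nz s).getD 0))).length_le
    have h2 := hD.D0_ge
    have h3 := hD.D2_ge
    rw [List.length_drop] at this
    change (Zone_716.run hD.Z ((D.Rf (s.take ((D.nz s).getD 0))).getD 0)
      (s.drop ((D.nz s).getD 0))).1.length ≤ D.D2
    omega
  closed := by
    rintro q ⟨hq, -⟩ p s w hw ⟨hs1, hs2, b, r, hb, hr⟩ hl
    have hn := hD.nxt_run hq p
    have hsuf := hD.suf_run hq p
    set q' := Nest_85.run hD.step q p with hq'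
    obtain ⟨hl1, hl2⟩ := hl
    have hpos := hD.Lf_pos _ _ hl2
    set P := q'.1.drop D.p0 with hP
    have hcs : hD.L1.c s = Zone_716.run hD.Z r (s.drop b) := by
      change Zone_716.run hD.Z ((D.Rf (s.take ((D.nz s).getD 0))).getD 0)
        (s.drop ((D.nz s).getD 0)) = _
      rw [hb]
      simp only [Option.getD_some]
      rw [hr]
      rfl
    have hsb := (hD.nz_fit hb).2
    have hlen : P.length = q'.1.length - D.p0 := by rw [hP, List.length_drop]
    have hj := hD.nz_junction hpos.1 hpos.2 hs2 hb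
    have hdr : (q'.1 ++ s).drop D.p0 = P ++ s := List.drop_append_of_le_length hl1
    have key : Nest_85.run hD.step q' s = hD.L1.c s := by
      rw [hcs]
      refine Zone_716.cut hD.Z q'.1 s q'.2 r b hn ?_ ?_
      · refine D.nxt_some.2 ⟨by rw [List.length_append]; omega, P.length + b, ?_, by omega⟩
        rw [hdr]; exact hj
      · change D.stp q'.2 (q'.1 ++ s) = r
        rw [D.stp_some (b := P.length + b) (by rw [hdr]; exact hj), hdr,
          List.take_append_of_le_length hl1, List.take_append]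
        have e1 : P.take (P.length + b) = P := List.take_of_length_le (by omega)
        have e2 : P.length + b - P.length = b := by omega
        rw [e1, e2]
        exact (hD.sound1 _ _ _ _ hl2 hr).symm
    refine ⟨key, ?_⟩
    rw [hcs]
    have h5 : (Zone_716.run hD.Z r (s.drop b)).1 <:+ s :=
      (Zone_716.run_suffix hD.Z _ _).trans (List.drop_suffix _ _)
    refine hD.Gd_infix _ _ hw ?_
    obtain ⟨x, hx⟩ := h5
    refine ⟨q.1 ++ p ++ x, [], ?_⟩
    simp only [List.append_nil, List.append_assoc]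
    rw [← List.append_assoc x, hx]

theorem info_unique {Q : List α} {t t' : ℕ × V × ℕ} (h : D.Info Q t) (h' : D.Info Q t') :
    t = t' := by
  obtain ⟨h1, h2, h3, h4, h5⟩ := h
  obtain ⟨h1', h2', h3', h4', h5'⟩ := h'
  obtain ⟨k, y, b⟩ := t
  obtain ⟨k', y', b'⟩ := t'
  simp only at *
  have e : k = k' := h2' k h1 h5
  subst e
  rw [h3, Option.some.injEq] at h3'
  rw [h4, Option.some.injEq] at h4'
  rw [h3', h4']

theorem Hyp.c2_eq (hD : Hyp D) {Q : List α} {k : ℕ} {y : V} {b : ℕ} (h : D.Info Q (k, y, b)) :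
    hD.c2 Q = Zone_716.run hD.Z (D.zm y ((Q.drop (D.p0 - D.c k)).take b))
      ((Q.drop (D.p0 - D.c k)).drop b) := by
  classical
  have h1 : ∃ t, D.Info Q t := ⟨_, h⟩
  have h2 := info_unique h1.choose_spec h
  unfold Hyp.c2
  rw [dif_pos h1, h2]

/-- a zone which is not bad is cut at level 1 -/
theorem Hyp.cut1 (hD : Hyp D) {X s : List α} {v : V} {u : List α} (hX : (u ++ X).length = D.p0)
    (hG : D.Gd s) (hl : D.D0 ≤ s.length) (hb : ¬ D.Bad s) :
    Nest_85.Cut hD.step hD.L1 (u, v) (X ++ s) := by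
  obtain ⟨P, s1, rest, h1, h2, h3⟩ := hD.comp1 s hG hl hb (D.yy v (u ++ X))
  have hp := hD.Lf_pos _ _ h2
  refine ⟨X ++ P, s1, rest, ?_, h3, ?_⟩
  · rw [← h1]; simp
  · have h4 : (u ++ (X ++ P)).length ≤ D.p0 + D.N1 := by
      rw [← List.append_assoc, List.length_append, hX]; omega
    rw [hD.run_short h4]
    have h5 : u ++ (X ++ P) = (u ++ X) ++ P := by simp
    have h6 : (u ++ (X ++ P)).drop D.p0 = P := by
      rw [h5, ← hX, List.drop_left']; rfl
    have h7 : (u ++ (X ++ P)).take D.p0 = u ++ X := by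
      rw [h5, ← hX, List.take_left']; rfl
    refine ⟨?_, ?_⟩
    · rw [h5, List.length_append, hX]; omega
    · change D.Lf ((u ++ (X ++ P)).drop D.p0) = some (D.yy v ((u ++ (X ++ P)).take D.p0))
      rw [h6, h7]
      exact h2

/-- promise of level 2 -/
def Hyp.Prom2 (hD : Hyp D) (q : List α × V) (w : List α) : Prop :=
  hD.Prom q w ∧ ¬ Nest_85.Cut hD.step hD.L1 q w

theorem Hyp.ok2 (hD : Hyp D) [Finite α] : hD.L2.Ok hD.step hD.St hD.Prom2 where
  fin := by
    refine (List.finite_length_eq α D.D2).subset ?_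
    rintro s ⟨h, -⟩
    exact h
  ne := by
    rintro s ⟨h, -⟩ rfl
    have := hD.D1_ge
    have := hD.D0_ge
    have := hD.D2_ge
    have := hD.no_pos
    simp at h
    omega
  st := by
    rintro s ⟨h, ⟨k, y, b⟩, ht⟩
    change hD.St (hD.c2 s)
    rw [hD.c2_eq ht]
    refine ⟨Zone_716.nxt_run hD.Z _ _, ?_⟩
    have := (Zone_716.run_suffix hD.Z (D.zm y ((s.drop (D.p0 - D.c k)).take b))
      ((s.drop (D.p0 - D.c k)).drop b)).length_le
    rw [List.length_drop, List.length_drop] at this
    omega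
  closed := by
    rintro q ⟨hq, hq2⟩ p s w hw ⟨hs1, ⟨k, y, b⟩, ht⟩ hl
    have hn := hD.nxt_run hq p
    have hsuf := hD.suf_run hq p
    set q' := Nest_85.run hD.step q p with hq'
    obtain ⟨k0, hk0, hl1, hl2⟩ := hl
    have hD2 := hD.D2_ge
    have hc0 := hD.c_lt k0 hk0
    have hGs : D.Gd s := by
      refine hD.Gd_infix _ _ hw.1 ⟨q.1 ++ p, w, ?_⟩
      simp
    -- the true anchor is bad
    have hbad : D.Bad (s.drop (D.p0 - D.c k0)) := by
      by_contra hnb
      apply hw.2
      have hlen : (q'.1 ++ s.take (D.p0 - D.c k0)).length = D.p0 := by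
        rw [List.length_append, List.length_take, hl1]; omega
      have h1 := hD.cut1 (v := q'.2) hlen
        (hD.Gd_infix _ _ hGs (List.drop_suffix (D.p0 - D.c k0) s).isInfix)
        (by rw [List.length_drop]; omega) hnb
      rw [List.take_append_drop] at h1
      have h2 : Nest_85.Cut hD.step hD.L1 q (p ++ s) := Nest_85.Cut.prepend h1
      exact h2.append
    obtain ⟨ht1, ht2, ht3, ht4, ht5⟩ := ht
    have hkk : k0 = k := ht2 k0 hk0 hbad
    subst hkk
    have hc2 : hD.L2.c s = Zone_716.run hD.Z (D.zm y ((s.drop (D.p0 - D.c k0)).take b))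
      ((s.drop (D.p0 - D.c k0)).drop b) := hD.c2_eq ⟨ht1, ht2, ht3, ht4, ht5⟩
    have hX : (q'.1 ++ s.take (D.p0 - D.c k0)).length = D.p0 := by
      rw [List.length_append, List.length_take, hl1]; omega
    have hy := hD.sound2 k0 hk0 q'.1 (s.take (D.p0 - D.c k0)) q'.2 y hl1 hl2 ht3
    have e0 : q'.1 ++ s = (q'.1 ++ s.take (D.p0 - D.c k0)) ++ s.drop (D.p0 - D.c k0) := by
      rw [List.append_assoc, List.take_append_drop]
    have hdr : (q'.1 ++ s).drop D.p0 = s.drop (D.p0 - D.c k0) := by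
      rw [e0]; exact List.drop_left' hX
    have htk : (q'.1 ++ s).take D.p0 = q'.1 ++ s.take (D.p0 - D.c k0) := by
      rw [e0]; exact List.take_left' hX
    have key : Nest_85.run hD.step q' s = hD.L2.c s := by
      rw [hc2, List.drop_drop]
      refine Zone_716.cut hD.Z q'.1 s q'.2 _ _ hn ?_ ?_
      · refine D.nxt_some.2 ⟨by rw [List.length_append]; omega, b, ?_, by omega⟩
        rw [hdr]; exact ht4
      · change D.stp q'.2 (q'.1 ++ s) = _
        rw [D.stp_some (b := b) (by rw [hdr]; exact ht4), hdr, htk]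
        unfold Dat.yy
        rw [hy]
    refine ⟨key, ?_, ?_⟩
    · rw [hc2]
      have h5 : (Zone_716.run hD.Z (D.zm y ((s.drop (D.p0 - D.c k0)).take b))
          ((s.drop (D.p0 - D.c k0)).drop b)).1 <:+ s :=
        (Zone_716.run_suffix hD.Z _ _).trans ((List.drop_suffix _ _).trans (List.drop_suffix _ _))
      refine hD.Gd_infix _ _ hw.1 ?_
      obtain ⟨x, hx⟩ := h5
      refine ⟨q.1 ++ p ++ x, [], ?_⟩
      simp only [List.append_nil, List.append_assoc]
      rw [← List.append_assoc x, hx]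
    · intro hc
      apply hw.2
      apply Nest_85.Cut.prepend
      rw [Nest_85.run_append, ← hq', key]
      exact hc

/-- Words without any cut are short. -/
theorem Hyp.short (hD : Hyp D) (q : List α × V) (hq : hD.St q) (w : List α)
    (h1 : hD.Prom2 q w) (h2 : ¬ Nest_85.Cut hD.step hD.L2 q w) :
    w.length ≤ 3 * D.p0 + D.D0 + 2 * D.D2 + (D.p0 + D.D1) := by
  classical
  by_contra hlong
  push Not at hlong
  obtain ⟨u0, v0⟩ := q
  obtain ⟨hq1, hq2⟩ := hq
  simp only at hq1 hq2
  have hG : D.Gd (u0 ++ w) := h1.1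
  have hD1 := hD.D1_ge
  have hD0 := hD.D0_ge
  have hD2 := hD.D2_ge
  -- first anchor
  obtain ⟨b, hb⟩ := hD.nz_exists (Z := ((u0 ++ w).drop D.p0).take D.D1)
    (hD.Gd_infix _ _ (hD.Gd_infix _ _ hG (List.drop_suffix _ _).isInfix)
      (List.take_prefix _ _).isInfix)
    (by rw [List.length_take, List.length_drop, List.length_append]; omega)
  have hfit := hD.nz_fit hb
  rw [List.length_take, List.length_drop, List.length_append] at hfit
  have hb' : D.nz ((u0 ++ w).drop D.p0) = some b := by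
    have := hD.nz_app (Y := ((u0 ++ w).drop D.p0).drop D.D1) hb
    rwa [List.take_append_drop] at this
  set a := D.p0 + b with ha
  have hnx : D.nxt (u0 ++ w) = some a :=
    D.nxt_some.2 ⟨by rw [List.length_append]; omega, b, hb', rfl⟩
  -- the anchor `a` becomes visible after `u0`
  have hvis : u0.length < a + D.no := by
    by_contra hc
    push Not at hc
    have h3 : D.nxt u0 = some a := by
      refine D.nxt_some.2 ⟨by omega, b, ?_, rfl⟩
      have h4 := (D.nz_some.1 hb').1
      have h5 := (D.nz_some.1 hb').2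
      rw [List.drop_append_of_le_length (by omega)] at h4 h5
      refine D.nz_some.2 ⟨⟨(hD.wall_app (by rw [List.length_drop]; omega)).1 h4.1, h4.2⟩, ?_⟩
      rintro t ht ⟨h6, h7⟩
      exact h5 t ht ⟨(hD.wall_app (by rw [List.length_drop]; omega)).2 h6, h7⟩
    rw [h3] at hq1
    cases hq1
  set T := u0 ++ w with hT
  have hTl : T.length = u0.length + w.length := List.length_append
  -- value at `a`
  set v1 := D.stp v0 T with hv1
  -- state at a position x = a + o, no ≤ o ≤ p0 + N1
  have hstate : ∀ o, D.no ≤ o → o ≤ D.p0 + D.N1 → a + o ≤ T.length →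
      Nest_85.run hD.step (u0, v0) (w.take (a + o - u0.length)) = ((T.drop a).take o, v1) := by
    intro o ho1 ho2 ho3
    rw [hD.run_eq hq1]
    have e1 : u0 ++ w.take (a + o - u0.length) = T.take (a + o) := by
      rw [hT, List.take_append, List.take_of_length_le (by omega : u0.length ≤ a + o)]
    change Zone_716.run hD.Z v0 (u0 ++ w.take (a + o - u0.length)) = _
    rw [e1]
    have h4 : hD.Z.nxt (T.take (a + o)) = some a := by
      refine D.nxt_some.2 ⟨by rw [List.length_take]; omega, b, ?_, rfl⟩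
      have h4 := (D.nz_some.1 hb').1
      have h5 := (D.nz_some.1 hb').2
      have e2 : T.drop D.p0 = (T.take (a + o)).drop D.p0 ++ T.drop (a + o) := by
        rw [← List.drop_append_of_le_length (by rw [List.length_take]; omega),
          List.take_append_drop]
      rw [e2] at h4 h5
      have hl5 : ((T.take (a + o)).drop D.p0).length = a + o - D.p0 := by
        rw [List.length_drop, List.length_take]; omega
      refine D.nz_some.2 ⟨⟨(hD.wall_app (by omega)).1 h4.1, h4.2⟩, ?_⟩
      rintro t ht ⟨h6, h7⟩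
      exact h5 t ht ⟨(hD.wall_app (by omega)).2 h6, h7⟩
    rw [Zone_716.run_some hD.Z h4]
    have h5 : hD.Z.stp v0 (T.take (a + o)) = v1 := by
      have := hD.Z.stp_mono v0 (T.take (a + o)) (T.drop (a + o)) a h4
      rw [List.take_append_drop] at this
      exact this.symm
    have h6 : (T.take (a + o)).drop a = (T.drop a).take o := by
      rw [List.drop_take]; congr 1; omega
    rw [h5, h6]
    apply Zone_716.run_none
    apply hD.nxt_none
    rw [List.length_take]; omega
  -- the zone is bad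
  have hbad : D.Bad ((T.drop a).drop D.p0) := by
    by_contra hnb
    apply h1.2
    -- start at o = no
    have hp0 : D.no ≤ D.p0 := by
      obtain ⟨I, hI⟩ := hD.comp2 (T.take D.p0) 0 (by rw [List.length_take]; omega)
      by_contra hc
      push Not at hc
      -- use c_pos / c_lt if K > 0, otherwise the zone itself
      rcases Nat.eq_zero_or_pos D.K with h0 | h0
      · -- no places: `spoil` gives a contradiction
        obtain ⟨k, hk, -⟩ := hD.spoil T 0 hG (by omega) I hI.1 (fun k hk => (hI.2 k hk).1)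
        have := (hI.2 k hk).1
        omega
      · have := hD.c_pos 0 h0
        have := hD.c_lt 0 h0
        omega
    have h3 := hstate D.no le_rfl (by omega) (by omega)
    have hlen : ((T.drop a).take D.no ++ ((T.drop a).take D.p0).drop D.no).length = D.p0 := by
      simp only [List.length_append, List.length_take, List.length_drop]
      omega
    have h4 := hD.cut1 (v := v1) (u := (T.drop a).take D.no) hlen
      (s := (T.drop a).drop D.p0)
      (hD.Gd_infix _ _ hG ((List.drop_suffix _ _).trans (List.drop_suffix _ _)).isInfix)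
      (by rw [List.length_drop, List.length_drop]; omega) hnb
    have e2 : ((T.drop a).take D.p0).drop D.no ++ (T.drop a).drop D.p0 = (T.drop a).drop D.no := by
      rw [← List.drop_append_of_le_length (by rw [List.length_take, List.length_drop]; omega),
        List.take_append_drop]
    rw [e2] at h4
    rw [← h3] at h4
    have h5 := Nest_85.Cut.prepend h4
    have e3 : w.take (a + D.no - u0.length) ++ (T.drop a).drop D.no = w := by
      rw [List.drop_drop, hT, List.drop_append, List.drop_eq_nil_of_le (by omega), List.nil_append,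
        List.take_append_drop]
    rwa [e3] at h5
  -- level 2 cut
  apply h2
  obtain ⟨I, hI1, hI2⟩ := hD.comp2 ((T.drop a).take D.p0) v1 (by
    rw [List.length_take, List.length_drop]; omega)
  obtain ⟨k, hkI, hk⟩ := hD.spoil T a hG (by omega) I hI1 (fun k hk => (hI2 k hk).1)
  obtain ⟨hkK, hk1, hk2⟩ := hI2 k hkI
  have hck1 := hD.c_pos k hkK
  have hck2 := hD.c_lt k hkK
  have hst := hstate (D.c k) hck1 (by omega) (by omega)
  set s := (T.drop (a + D.c k)).take D.D2 with hs
  have hsl : s.length = D.D2 := by rw [hs, List.length_take, List.length_drop]; omega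
  refine ⟨w.take (a + D.c k - u0.length), s, (T.drop (a + D.c k)).drop D.D2, ?_, ?_, ?_⟩
  · rw [List.append_assoc, List.take_append_drop, hT, List.drop_append,
      List.drop_eq_nil_of_le (by omega), List.nil_append, List.take_append_drop]
  · -- right legality
    have hdropeq : ∀ k' < D.K, (D.Bad (s.drop (D.p0 - D.c k')) ↔
        D.Bad (T.drop (a + D.c k + (D.p0 - D.c k')))) := by
      intro k' hk'
      have h4 := hD.c_lt k' hk'
      have e4 : T.drop (a + D.c k + (D.p0 - D.c k')) =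
          s.drop (D.p0 - D.c k') ++ (T.drop (a + D.c k)).drop D.D2 := by
        rw [← List.drop_append_of_le_length (by omega), hs, List.take_append_drop,
          List.drop_drop]
      rw [e4]
      symm
      apply hD.bad_stab
      · rw [← e4]
        exact hD.Gd_infix _ _ hG (List.drop_suffix _ _).isInfix
      · rw [List.length_drop]; omega
    have e5 : a + D.c k + (D.p0 - D.c k) = a + D.p0 := by omega
    obtain ⟨y, hy⟩ := Option.isSome_iff_exists.1 hk2
    have hGs : D.Gd (s.drop (D.p0 - D.c k)) :=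
      hD.Gd_infix _ _ hG ((List.drop_suffix _ _).isInfix.trans
        ((List.take_prefix _ _).isInfix.trans (List.drop_suffix _ _).isInfix))
    obtain ⟨b2, hb2⟩ := hD.nz_exists hGs (by rw [List.length_drop]; omega)
    refine ⟨hsl, (k, y, b2), hkK, ?_, ?_, hb2, ?_⟩
    · intro k' hk' hb'
      by_contra hne
      exact hk k' hk' hne ((hdropeq k' hk').1 hb')
    · change D.rho k (s.take (D.p0 - D.c k)) = some y
      rw [← hy]
      congr 1
      rw [hs, List.take_take, min_eq_left (by omega), List.drop_take, List.drop_drop]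
    · rw [hdropeq k hkK, e5, ← List.drop_drop]
      exact hbad
  · rw [hst]
    refine ⟨k, hkK, ?_, ?_⟩
    · change ((T.drop a).take (D.c k)).length = D.c k
      rw [List.length_take, List.length_drop]; omega
    · change D.lam k ((T.drop a).take (D.c k)) = some v1
      rw [← hk1, List.take_take, min_eq_left (by omega)]

/-- HALF 1, language form: every predicate of the state reached is in `H 2` on good words. -/
theorem Hyp.height_two (hD : Hyp D) [Finite α] (v : V) (hp : D.nxt ([] : List α) = none)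
    (T : List α × V → Prop) :
    ∃ E : Language α, H 2 E ∧ ∀ w, D.Gd w →
      (w ∈ E ↔ T (Zone_716.run hD.Z v w)) := by
  classical
  have hst : hD.St ([], v) := ⟨hp, by simp⟩
  have pre : ∀ q u v, hD.Prom q (u ++ v) → hD.Prom q u := by
    intro q u v h
    refine hD.Gd_infix _ _ h ⟨[], v, ?_⟩
    simp
  have pre2 : ∀ q u v, hD.Prom2 q (u ++ v) → hD.Prom2 q u :=
    fun q u v h => ⟨pre q u v h.1, fun hc => h.2 hc.append⟩
  have inner := Nest_85.nest hD.step hD.St hD.Prom2 pre2 hD.L2 hD.ok2 0 (fun _ => True) trivial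
    (fun q hq T _ => by
      refine ⟨({w | (hD.Prom2 q w ∧ ¬ Nest_85.Cut hD.step hD.L2 q w) ∧
        T (Nest_85.run hD.step q w)} : Language α), ?_, ?_⟩
      · apply H.finite
        refine (List.finite_length_le α (3 * D.p0 + D.D0 + 2 * D.D2 + (D.p0 + D.D1))).subset ?_
        rintro w ⟨⟨h1, h2⟩, -⟩
        exact hD.short q hq w h1 h2
      · intro w hw hc
        constructor
        · rintro ⟨-, h⟩; exact h
        · intro h; exact ⟨⟨hw, hc⟩, h⟩)
  have outer := Nest_85.nest hD.step hD.St hD.Prom pre hD.L1 hD.ok1 1 (fun _ => True) trivial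
    (fun q hq T _ => by
      obtain ⟨E, h1, h2⟩ := inner q hq T trivial
      exact ⟨E, h1, fun w hw hc => h2 w ⟨hw, hc⟩⟩)
  obtain ⟨E, h1, h2⟩ := outer ([], v) hst T trivial
  refine ⟨E, h1, fun w hw => ?_⟩
  rw [h2 w (by change D.Gd ([] ++ w); simpa using hw), hD.run_eq hp]
  simp

end Crest.Agent.R320.HalfA_794
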