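import Crest.Agent.R320.Nest_85
import Crest.Agent.R320.Gad1_420

/-! Row 320, helper853: HALF 1 over `Nest_85` (one token system, one run, both schemes; 118). Part A:
the residual-word run of a threshold chain on right-looking walls. -/

set_option autoImplicit false

namespace Crest.Agent.R320.Half853

open Crest.Agent.R320.Gad1_420 (Rule)
open Crest.Agent.R320.Nest_85 (run run_nil run_append)

variable {α V : Type*}

/-- chain data: outer walls, thresholds read at residues. -/
structure Ch (α : Type*) where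
  R : List α → Prop
  n : ℕ
  c : ℕ
  τ : ℕ → ℕ
  z1 : ℕ
  rule : Rule R n
  z1pos : 0 < z1
  z1le : ∀ t, z1 ≤ τ t

variable (C : Ch α)

/-- the place `t` of the text is a wall passing the thresholds. -/
def Ch.Pass (Q : List α) (t : ℕ) : Prop := C.R (Q.drop t) ∧ C.τ (t % C.c) ≤ t

/-- next anchor. -/
def Ch.Nx (Q : List α) (t : ℕ) : Prop := C.Pass Q t ∧ ∀ s, s < t → ¬ C.Pass Q s

theorem Ch.Nx.unique {C : Ch α} {Q : List α} {t t' : ℕ} (h : C.Nx Q t) (h' : C.Nx Q t') : t = t' := by
  rcases lt_trichotomy t t' with h1 | h1 | h1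
  · exact absurd h.1 (h'.2 t h1)
  · exact h1
  · exact absurd h'.1 (h.2 t' h1)

theorem Ch.Pass.fit {C : Ch α} {Q : List α} {t : ℕ} (h : C.Pass Q t) : t + C.n ≤ Q.length :=
  C.rule.wall_fit h.1

theorem Ch.Pass.ge {C : Ch α} {Q : List α} {t : ℕ} (h : C.Pass Q t) : C.z1 ≤ t :=
  (C.z1le _).trans h.2

theorem Ch.pass_append {C : Ch α} {Q R : List α} {t : ℕ} (h : t + C.n ≤ Q.length) :
    C.Pass (Q ++ R) t ↔ C.Pass Q t := by
  unfold Ch.Pass
  rw [C.rule.wall_left h]

theorem Ch.Nx.append {C : Ch α} {Q : List α} {t : ℕ} (h : C.Nx Q t) (R : List α) :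
    C.Nx (Q ++ R) t := by
  have hf := h.1.fit
  refine ⟨(Ch.pass_append hf).2 h.1, fun s hs hp => ?_⟩
  exact h.2 s hs ((Ch.pass_append (by omega)).1 hp)

theorem Ch.exists_nx {C : Ch α} {Q : List α} (h : ∃ t, C.Pass Q t) : ∃ t, C.Nx Q t := by
  classical
  exact ⟨Nat.find h, Nat.find_spec h, fun s hs => Nat.find_min h hs⟩

/-- no anchor is visible. -/
def Ch.No (Q : List α) : Prop := ∀ t, ¬ C.Nx Q t

theorem Ch.No.left {C : Ch α} {Q R : List α} (h : C.No (Q ++ R)) : C.No Q :=
  fun t ht => h t (ht.append R)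

theorem Ch.no_of_short {C : Ch α} {Q : List α} (h : Q.length < C.z1 + C.n) : C.No Q := by
  intro t ht
  have h1 := ht.1.fit
  have h2 := ht.1.ge
  omega

/-- the anchor just detected leaves exactly the window. -/
theorem Ch.detect {C : Ch α} {Q : List α} {x : α} {t : ℕ} (h0 : C.No Q) (h : C.Nx (Q ++ [x]) t) :
    t + C.n = Q.length + 1 := by
  have hf := h.1.fit
  rw [List.length_append, List.length_singleton] at hf
  by_contra hne
  have h1 : t + C.n ≤ Q.length := by omega
  obtain ⟨t', ht'⟩ := Ch.exists_nx ⟨t, (Ch.pass_append h1).1 h.1⟩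
  exact h0 t' ht'

open Classical in
/-- one letter. `A v Z` = value after the zone `Z`. -/
noncomputable def Ch.step (A : V → List α → V) (σ : V × List α) (x : α) : V × List α :=
  if h : ∃ t, C.Nx (σ.2 ++ [x]) t then
    (A σ.1 ((σ.2 ++ [x]).take h.choose), (σ.2 ++ [x]).drop h.choose)
  else (σ.1, σ.2 ++ [x])

variable {C} {A : V → List α → V}

theorem step_some {v : V} {r : List α} {x : α} {t : ℕ} (h : C.Nx (r ++ [x]) t) :
    C.step A (v, r) x = (A v ((r ++ [x]).take t), (r ++ [x]).drop t) := by
  have h1 : ∃ t, C.Nx (r ++ [x]) t := ⟨t, h⟩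
  have h2 : h1.choose = t := h1.choose_spec.unique h
  unfold Ch.step
  rw [dif_pos h1, h2]

theorem step_none {v : V} {r : List α} {x : α} (h : C.No (r ++ [x])) :
    C.step A (v, r) x = (v, r ++ [x]) := by
  unfold Ch.step
  rw [dif_neg]
  rintro ⟨t, ht⟩
  exact h t ht

theorem run_none {v : V} {r w : List α} (h : C.No (r ++ w)) :
    run (C.step A) (v, r) w = (v, r ++ w) := by
  induction w generalizing r with
  | nil => rw [run_nil, List.append_nil]
  | cons x w ih =>
    have h1 : r ++ x :: w = (r ++ [x]) ++ w := by simp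
    rw [h1] at h ⊢
    have h2 : run (C.step A) (v, r) (x :: w) = run (C.step A) (C.step A (v, r) x) w := rfl
    rw [h2, step_none h.left, ih h]

theorem no_drop {Q : List α} {t : ℕ} (h : t + C.n = Q.length) : C.No (Q.drop t) := by
  apply Ch.no_of_short
  rw [List.length_drop]
  have := C.z1pos
  omega

theorem run_some {v : V} {u : List α} {t : ℕ} (h : C.Nx u t) :
    run (C.step A) (v, []) u = run (C.step A) (A v (u.take t), []) (u.drop t) := by
  classical
  -- minimal prefix with an anchor
  have hex : ∃ k, ∃ u1 u2, u = u1 ++ u2 ∧ u1.length = k ∧ ∃ t, C.Nx u1 t :=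
    ⟨u.length, u, [], by simp, rfl, t, h⟩
  obtain ⟨u1, u2, e, hk, t', ht'⟩ := Nat.find_spec hex
  have hmin := fun k (hk : k < Nat.find hex) => Nat.find_min hex hk
  have hne : u1 ≠ [] := by
    rintro rfl
    have := ht'.1.fit
    have := ht'.1.ge
    have := C.z1pos
    simp at *
    omega
  obtain ⟨u0, x, rfl⟩ : ∃ u0 x, u1 = u0 ++ [x] := by
    rcases List.eq_nil_or_concat u1 with h1 | ⟨l, b, h1⟩
    · exact absurd h1 hne
    · exact ⟨l, b, by simpa using h1⟩
  have h0 : C.No u0 := by
    intro s hs
    refine hmin u0.length (by rw [← hk]; simp) ⟨u0, [x] ++ u2, by simp [e], rfl, s, hs⟩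
  have htt : t' = t := (ht'.append u2).unique (e ▸ h)
  subst htt
  have hd := Ch.detect h0 ht'
  have hlen : (u0 ++ [x]).length = u0.length + 1 := by simp
  have h1 : run (C.step A) (v, []) (u0 ++ [x]) =
      (A v ((u0 ++ [x]).take t'), (u0 ++ [x]).drop t') := by
    rw [run_append, run_none (r := []) (by simpa using h0)]
    exact step_some ht'
  have h2 : run (C.step A) (A v ((u0 ++ [x]).take t'), []) ((u0 ++ [x]).drop t') =
      (A v ((u0 ++ [x]).take t'), (u0 ++ [x]).drop t') := by
    rw [run_none (r := []) (by simpa using no_drop (by omega))]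
    simp
  have h3 : u.take t' = (u0 ++ [x]).take t' := by
    rw [e, List.take_append_of_le_length (by omega)]
  have h4 : u.drop t' = (u0 ++ [x]).drop t' ++ u2 := by
    rw [e, List.drop_append_of_le_length (by omega)]
  rw [h4, h3, run_append (step := C.step A) (u := (u0 ++ [x]).drop t'), h2]
  conv_lhs => rw [e]
  rw [run_append, h1]

/-- state reached from an anchor: the residual text has no visible anchor and is a suffix. -/
theorem run_residual (v : V) (u : List α) :
    C.No (run (C.step A) (v, []) u).2 ∧ (run (C.step A) (v, []) u).2 <:+ u := by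
  induction hn : u.length using Nat.strong_induction_on generalizing v u with
  | _ N ih =>
    by_cases h : ∃ t, C.Nx u t
    · obtain ⟨t, ht⟩ := h
      rw [run_some ht]
      have h1 := ht.1.ge
      have h2 := ht.1.fit
      have h3 := C.z1pos
      obtain ⟨a, b⟩ := ih (u.drop t).length (by rw [List.length_drop]; omega) (A v (u.take t))
        (u.drop t) rfl
      exact ⟨a, b.trans (List.drop_suffix t u)⟩
    · have h0 : C.No u := fun t ht => h ⟨t, ht⟩
      rw [run_none (r := []) (by simpa using h0)]
      exact ⟨by simpa using h0, by simp⟩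

/-- general state law. -/
theorem run_law {v : V} {r w : List α} (h : C.No r) :
    run (C.step A) (v, r) w = run (C.step A) (v, []) (r ++ w) := by
  have h1 : run (C.step A) (v, []) r = (v, r) := by
    rw [run_none (r := []) (by simpa using h)]; simp
  rw [run_append, h1]

end Crest.Agent.R320.Half853
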