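import Crest.Agent.R320.SP_434
import Crest.Agent.R320.Gad1_420

/-!
Row 320, helper595: SC1 and CP1 of 131's interface (#13123) from 420's gadget, 260's thresholds,
434's word form of the failure modes.
-/

set_option autoImplicit false
set_option linter.unusedSectionVars false

namespace Crest.Agent.R320.HalfB_595

open Crest.Agent.R320.Gad1_420 Crest.Agent.R320.ThrChain260 Crest.Agent.R320.SP_434

variable {α : Type*}

open Classical in
/-- distance from `a + p0` to the next anchor, read on the text from `a + p0`. -/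
noncomputable def NR (P : Par) (R : List α → Prop) (L : ℕ) (Z : List α) : ℕ :=
  if h : ∃ j, Qj P R Z j then min L (Nat.find h) else L

theorem NR_le (P : Par) (R : List α → Prop) (L : ℕ) (Z : List α) : NR P R L Z ≤ L := by
  classical
  unfold NR
  split_ifs with h
  · exact min_le_left _ _
  · exact le_rfl

theorem NR_eq_of {P : Par} {R : List α → Prop} {L : ℕ} {Z : List α} {j : ℕ} (hj : Qj P R Z j)
    (hmin : ∀ j' < j, ¬ Qj P R Z j') (hjL : j ≤ L) : NR P R L Z = j := by
  classical
  unfold NR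
  have h : ∃ j, Qj P R Z j := ⟨j, hj⟩
  rw [dif_pos h]
  have : Nat.find h = j := (Nat.find_eq_iff h).2 ⟨hj, hmin⟩
  rw [this]
  exact min_eq_right hjL

/-- the right word `r` names the wall at distance `d`. -/
def Leg (P : Par) (R : List α → Prop) (r : List α) (d : ℕ) : Prop :=
  Qj P R r d ∧ ∀ j < d, R (r.drop j) →
    P.p0 + j - P.z + P.N1 < P.s ((P.p0 + j - P.z) % P.M)

theorem Leg.unique {P : Par} {R : List α → Prop} {r : List α} {d d' : ℕ} (h : Leg P R r d)
    (h' : Leg P R r d') : d = d' := by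
  have hN := P.hN
  rcases lt_trichotomy d d' with hlt | heq | hgt
  · have h1 := h'.2 d hlt h.1.1
    have h2 := h.1.2
    omega
  · exact heq
  · have h1 := h.2 d' hgt h'.1.1
    have h2 := h'.1.2
    omega

theorem res_shift {P : Par} {p j : ℕ} (hM : P.M ∣ (p : ℤ)) :
    (P.p0 + ((p + j : ℕ) : ℤ) - P.z) % P.M = (P.p0 + (j : ℤ) - P.z) % P.M := by
  obtain ⟨k, hk⟩ := hM
  have : P.p0 + ((p + j : ℕ) : ℤ) - P.z = (P.p0 + (j : ℤ) - P.z) + P.M * k := by
    push_cast; rw [hk]; ring
  rw [this, Int.add_mul_emod_self_left]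

theorem drop_app {A B : List α} (j : ℕ) : (A ++ B).drop (A.length + j) = B.drop j := by
  rw [List.drop_append, List.drop_eq_nil_of_le (by omega), List.nil_append]
  congr 1
  omega

theorem NR_junction {P : Par} {R : List α → Prop} {n : ℕ}
    (h1 : ∀ Q, R Q ↔ R (Q.take n)) (h2 : ∀ Q, R Q → n ≤ Q.length)
    (hz : P.p0 + P.S ≤ P.z) {N1 L : ℕ} (hN1 : P.N1 = N1) {A r : List α} {d : ℕ}
    (hA : A.length ≤ N1) (hM : P.M ∣ (A.length : ℤ)) (hd : Leg P R r d)
    (hL : d + N1 + n ≤ L) : NR P R L ((A ++ r).take L) = A.length + d := by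
  have hPN := P.hN
  apply NR_eq_of
  · refine ⟨?_, ?_⟩
    · rw [List.drop_take, drop_app]
      exact rule_take h1 (by omega) hd.1.1
    · rw [res_shift hM]
      have := hd.1.2
      push_cast
      omega
  · rintro j' hj' ⟨hR, hs⟩
    rw [List.drop_take] at hR
    have hR' := rule_of_take h1 h2 hR
    rcases lt_or_ge j' A.length with hlt | hge
    · have h3 := P.hs ((P.p0 + (j' : ℤ) - P.z) % P.M)
      have h4 := (abs_le.mp h3).1
      omega
    · obtain ⟨j'', rfl⟩ := Nat.exists_eq_add_of_le hge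
      rw [drop_app] at hR'
      have h3 := hd.2 j'' (by omega) hR'
      rw [res_shift hM] at hs
      push_cast at hs
      omega
  · omega

/-- the bad zones. -/
def BadR (P : Par) (R Rs : List α → Prop) (A : ℕ → ℤ) (D : ℤ) (K : ℕ) (m : ℕ → ℤ) (r : ℕ)
    (Z : List α) : Prop :=
  EB P R Z ∨ DB P Rs A D K Z ∨ BB P R m r Z

variable {S V W : Type*} [Monoid S] [AddCommGroup V] [AddCommGroup W]

/-- the zone map, read on the view of length `Bm` from the anchor. -/
noncomputable def zm (D : Dat α S V W) (P : Par) (R : List α → Prop) (L p0 : ℕ)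
    (nu2 nu1 : List α → V) (y : List α) (v : V) : V :=
  D.act (D.act v (D.φ (y.take p0)) + nu2 (y.take p0))
    (D.φ ((y.drop p0).take (NR P R L (y.drop p0)))) + nu1 ((y.drop p0).take (NR P R L (y.drop p0)))

/-- left legal words of scheme 1. -/
def L1 (D : Dat α S V W) (p0 : ℕ) (nu2 : List α → V) (u : List α) (v : V) : Prop :=
  p0 ≤ u.length ∧ D.Lf (u.drop p0) = some (D.act v (D.φ (u.take p0)) + nu2 (u.take p0))

open Classical in
/-- right reading of scheme 1. -/
noncomputable def R1 (D : Dat α S V W) (P : Par) (R : List α → Prop) (n N1 L : ℕ)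
    (r : List α) : Option (ℕ × V) :=
  if h : ∃ p : ℕ × V, Leg P R r p.1 ∧ p.1 + N1 + n ≤ L ∧ D.Rf (r.take p.1) = some p.2 then
    some h.choose else none

theorem R1_some {D : Dat α S V W} {P : Par} {R : List α → Prop} {n N1 L : ℕ} {r : List α}
    {d : ℕ} {b : V} (h : R1 D P R n N1 L r = some (d, b)) :
    Leg P R r d ∧ d + N1 + n ≤ L ∧ D.Rf (r.take d) = some b := by
  classical
  unfold R1 at h
  split_ifs at h with h1
  have := h1.choose_spec
  rw [Option.some.injEq] at h
  rw [h] at this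
  exact this

/-- the conclusion of `gadget1`. -/
structure Gad (D : Dat α S V W) (good : ℕ → Prop) (nu : List α → V) : Prop where
  sound : ∀ P Q v r, D.Lf P = some v → D.Rf Q = some r → r = D.act v (D.φ (P ++ Q)) + nu (P ++ Q)
  left : ∀ P v, D.Lf P = some v → ∃ i < D.m, D.M' ∣ P.length ∧ D.A' i ≤ P.length ∧
    P.length < D.A' i + D.M' * D.M
  complete : ∀ Y : List α, good (Y.length / D.M') →
    (∀ i < D.m, D.A' i + D.M' * D.M ≤ Y.length) →
    (∀ t, t ≤ D.A D.m + D.M' * D.M → ∃ s, t ≤ s ∧ s < t + D.G ∧ D.R (Y.drop s)) →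
    (∀ k, k ≤ D.m → ∀ s, D.A k ≤ s + D.M' * D.M → s < D.A k + D.M' * D.M →
      ¬ D.R (Y.drop s)) →
    ∀ v, ∃ P Q, P ++ Q = Y ∧ D.Lf P = some v ∧ (D.Rf Q).isSome

theorem SC1 {D : Dat α S V W} {good : ℕ → Prop} {nu1 : List α → V} (hG : Gad D good nu1)
    {P : Par} {R : List α → Prop} {n : ℕ}
    (h1 : ∀ Q, R Q ↔ R (Q.take n)) (h2 : ∀ Q, R Q → n ≤ Q.length)
    (hz : P.p0 + P.S ≤ P.z) {N1 L p0 : ℕ} (hN1 : P.N1 = N1) (hPM : P.M = D.M')
    (hcell : ∀ i < D.m, D.A' i + D.M' * D.M ≤ N1) (nu2 : List α → V)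
    {u r : List α} {v b : V} {d : ℕ} (hL : L1 D p0 nu2 u v)
    (hR : R1 D P R n N1 L r = some (d, b)) :
    p0 + NR P R L (((u ++ r).take (p0 + L)).drop p0) = u.length + d ∧
      zm D P R L p0 nu2 nu1 ((u ++ r).take (p0 + L)) v = b := by
  obtain ⟨hu, hLf⟩ := hL
  obtain ⟨hleg, hdL, hRf⟩ := R1_some hR
  obtain ⟨i, hi, hdv, hA1, hA2⟩ := hG.left _ _ hLf
  have hc := hcell i hi
  have hAl : (u.drop p0).length = u.length - p0 := List.length_drop
  have e1 : ((u ++ r).take (p0 + L)).drop p0 = (u.drop p0 ++ r).take L := by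
    rw [List.drop_take, List.drop_append_of_le_length hu]
    congr 1
    omega
  have e2 : ((u ++ r).take (p0 + L)).take p0 = u.take p0 := by
    rw [List.take_take, min_eq_left (by omega), List.take_append_of_le_length hu]
  have hM : P.M ∣ ((u.drop p0).length : ℤ) := by
    rw [hPM]; exact_mod_cast hdv
  have hNR := NR_junction h1 h2 hz hN1 (A := u.drop p0) (r := r) (L := L) (d := d)
    (by omega) hM hleg hdL
  refine ⟨?_, ?_⟩
  · rw [e1, hNR]
    omega
  · unfold zm
    rw [e1, e2, hNR]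
    have e3 : ((u.drop p0 ++ r).take L).take ((u.drop p0).length + d) = u.drop p0 ++ r.take d := by
      rw [List.take_take, min_eq_left (by omega), List.take_append]
      rw [List.take_of_length_le (by omega), Nat.add_sub_cancel_left]
    rw [e3]
    exact (hG.sound _ _ _ _ hLf hRf).symm

theorem CP1 {D : Dat α S V W} {good : ℕ → Prop} {nu1 : List α → V} (hG : Gad D good nu1)
    {P : Par} {R : List α → Prop} {n : ℕ} (hn : 0 < n)
    (h1 : ∀ Q, R Q ↔ R (Q.take n)) (h2 : ∀ Q, R Q → n ≤ Q.length)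
    (hs1 : ∀ Q, D.R Q ↔ D.R (Q.take D.n)) (hs2 : ∀ Q, D.R Q → D.n ≤ Q.length)
    {N1 L p0 S' : ℕ} (hPp : P.p0 = p0) (hPS : P.S = S') (hPz : P.z = p0 + S')
    (hN1 : P.N1 = N1) (hPM : P.M = D.M')
    (hcell : ∀ i < D.m, D.A' i + D.M' * D.M ≤ N1)
    (hN1big : D.A D.m + D.M' * D.M + D.G + D.n ≤ N1)
    {G D₁ : ℕ} (hL : 2 * S' + G + N1 + n + 1 ≤ L) (hD₁ : p0 + L ≤ D₁)
    {m : ℕ → ℤ} {r : ℕ}
    (hgood : ∀ T : ℕ, (∀ i < r, ¬ m i ∣ (T : ℤ)) → good T)
    (nu2 : List α → V) {t : List α} (v : V)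
    (hwo : ∀ w, w + G + n ≤ t.length → ∃ i < G, R (t.drop (w + i)))
    (hws : ∀ w, w + D.G + D.n ≤ t.length → ∃ i < D.G, D.R (t.drop (w + i)))
    (ht : p0 + L + D₁ ≤ t.length)
    (hbad : ¬ BadR P R D.R (fun k => ((p0 + D.A k : ℕ) : ℤ)) ((D.M' * D.M : ℕ) : ℤ) (D.m + 1) m r
      ((t.take (p0 + L)).drop p0)) :
    ∃ x, p0 ≤ x ∧ x < p0 + L ∧ L1 D p0 nu2 (t.take x) v ∧
      (R1 D P R n N1 L ((t.drop x).take D₁)).isSome := by
  classical
  have hPN := P.hN
  have hSN : (N1 : ℤ) ≤ S' := by
    have := P.hs 0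
    have h3 := abs_nonneg (P.s 0)
    rw [hN1, hPS] at this
    linarith
  set Z := (t.take (p0 + L)).drop p0 with hZ
  have hZe : Z = (t.drop p0).take L := by
    rw [hZ, List.drop_take]; congr 1; omega
  have hZd : ∀ j, Z.drop j = (t.drop (p0 + j)).take (L - j) := by
    intro j; rw [hZe, List.drop_take, List.drop_drop]
  -- an outer wall behind all thresholds
  have hex : ∃ j, Qj P R Z j := by
    obtain ⟨i, hi, hR⟩ := hwo (p0 + 2 * S') (by omega)
    refine ⟨2 * S' + i, ?_, ?_⟩
    · rw [hZd]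
      apply rule_take h1 (by omega)
      have : p0 + (2 * S' + i) = p0 + 2 * S' + i := by omega
      rw [this]; exact hR
    · have h3 := (abs_le.mp (P.hs ((P.p0 + ((2 * S' + i : ℕ) : ℤ) - P.z) % P.M))).2
      rw [hPS] at h3
      rw [hPp, hPz] at *
      push_cast at *
      omega
  have hj0 := Nat.find_spec hex
  have hmin : ∀ j' < Nat.find hex, ¬ Qj P R Z j' := fun j' hj' => Nat.find_min hex hj'
  have hj0le : Nat.find hex < 2 * S' + G := by
    obtain ⟨i, hi, hR⟩ := hwo (p0 + 2 * S') (by omega)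
    refine lt_of_le_of_lt (Nat.find_min' hex (m := 2 * S' + i) ⟨?_, ?_⟩) (by omega)
    · rw [hZd]
      apply rule_take h1 (by omega)
      have : p0 + (2 * S' + i) = p0 + 2 * S' + i := by omega
      rw [this]; exact hR
    · have h3 := (abs_le.mp (P.hs ((P.p0 + ((2 * S' + i : ℕ) : ℤ) - P.z) % P.M))).2
      rw [hPS] at h3
      rw [hPp, hPz] at *
      push_cast at *
      omega
  generalize hjj : Nat.find hex = j0 at hj0 hmin hj0le
  have hj0N : N1 ≤ j0 := by
    have h3 := (abs_le.mp (P.hs ((P.p0 + (j0 : ℤ) - P.z) % P.M))).1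
    have h4 := hj0.2
    rw [hPS, hN1] at h3
    have h5 : (N1 : ℤ) ≤ j0 := by
      have : P.p0 + (j0 : ℤ) - P.z = j0 - S' := by rw [hPp, hPz]; ring
      rw [this] at h3 h4
      linarith
    exact_mod_cast h5
  unfold BadR at hbad
  push Not at hbad
  obtain ⟨hE, hD, hB⟩ := hbad
  -- the zone
  set Y := Z.take j0 with hY
  have hYe : Y = (t.drop p0).take j0 := by
    rw [hY, hZe, List.take_take, min_eq_left (by omega)]
  have hYl : Y.length = j0 := by
    rw [hYe, List.length_take, List.length_drop]; omega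
  have hYd : ∀ s, Y.drop s = (t.drop (p0 + s)).take (j0 - s) := by
    intro s; rw [hYe, List.drop_take, List.drop_drop]
  have hgd : good (Y.length / D.M') := by
    rw [hYl]
    apply hgood
    intro i hi hdv
    apply hB
    refine ⟨i, hi, j0, hj0, hmin, ?_⟩
    rw [hPM]
    exact_mod_cast hdv
  obtain ⟨A, Q, hAQ, hLf, hRf⟩ := hG.complete Y hgd
    (fun i hi => by rw [hYl]; exact (hcell i hi).trans hj0N)
    (fun s hs => by
      obtain ⟨i, hi, hR⟩ := hws (p0 + s) (by omega)
      refine ⟨s + i, by omega, by omega, ?_⟩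
      rw [hYd]
      apply rule_take hs1 (by omega)
      have : p0 + (s + i) = p0 + s + i := by omega
      rw [this]; exact hR)
    (fun k hk s hs3 hs4 hR => by
      apply hD
      refine ⟨k, by omega, s, ?_, ?_⟩
      · rw [hZd]
        rw [hYd] at hR
        have hR' := rule_of_take hs1 hs2 hR
        have := hs2 _ hR
        rw [List.length_take] at this
        apply rule_take hs1 (by omega) hR'
      · rw [hPp, abs_le]
        push_cast
        have h5 : (D.A k : ℤ) ≤ s + D.M' * D.M := by exact_mod_cast hs3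
        have h6 : (s : ℤ) < D.A k + D.M' * D.M := by exact_mod_cast hs4
        constructor <;> linarith)
    (D.act v (D.φ (t.take p0)) + nu2 (t.take p0))
  obtain ⟨b, hb⟩ := Option.isSome_iff_exists.1 hRf
  obtain ⟨i, hi, hdv, hA1, hA2⟩ := hG.left _ _ hLf
  have hAN : A.length ≤ N1 := by have := hcell i hi; omega
  have hAl : A.length + Q.length = j0 := by
    rw [← hYl, ← hAQ, List.length_append]
  have hM : P.M ∣ (A.length : ℤ) := by rw [hPM]; exact_mod_cast hdv
  have hA : (t.drop p0).take A.length = A := by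
    have : ((t.drop p0).take j0).take A.length = A := by
      rw [← hYe, ← hAQ]; simp
    rwa [List.take_take, min_eq_left (by omega)] at this
  have hQ : (t.drop (p0 + A.length)).take Q.length = Q := by
    have : ((t.drop p0).take j0).drop A.length = Q := by
      rw [← hYe, ← hAQ]; simp
    rw [List.drop_take, List.drop_drop] at this
    rw [← this]
    congr 1
    rw [this]; omega
  refine ⟨p0 + A.length, by omega, by omega, ⟨?_, ?_⟩, ?_⟩
  · rw [List.length_take]; omega
  · have e1 : (t.take (p0 + A.length)).drop p0 = A := by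
      rw [List.drop_take]
      have : p0 + A.length - p0 = A.length := by omega
      rw [this]; exact hA
    have e2 : (t.take (p0 + A.length)).take p0 = t.take p0 := by
      rw [List.take_take, min_eq_left (by omega)]
    rw [e1, e2]; exact hLf
  · set rr := (t.drop (p0 + A.length)).take D₁ with hrr
    have hrd : ∀ j, rr.drop j = (t.drop (p0 + (A.length + j))).take (D₁ - j) := by
      intro j; rw [hrr, List.drop_take, List.drop_drop, Nat.add_assoc]
    have hrt : rr.take Q.length = Q := by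
      rw [hrr, List.take_take, min_eq_left (by omega)]; exact hQ
    have hleg : Leg P R rr Q.length := by
      refine ⟨⟨?_, ?_⟩, ?_⟩
      · rw [hrd, hAl]
        apply rule_take h1 (by omega)
        have := hj0.1
        rw [hZd] at this
        exact rule_of_take h1 h2 this
      · have h3 := hj0.2
        have h4 : ¬ |(P.p0 + (j0 : ℤ)) - P.z - P.s ((P.p0 + (j0 : ℤ) - P.z) % P.M)| ≤ P.N1 :=
          fun hc => hE ⟨j0, hj0.1, hc⟩
        have h5 := res_shift (P := P) (p := A.length) (j := Q.length) hM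
        rw [hAl] at h5
        rw [h5] at h3 h4
        have h6 : P.N1 < P.p0 + (j0 : ℤ) - P.z - P.s ((P.p0 + (Q.length : ℤ) - P.z) % P.M) := by
          rw [not_le] at h4
          rwa [abs_of_nonneg (by linarith)] at h4
        have h7 : (j0 : ℤ) = A.length + Q.length := by exact_mod_cast hAl.symm
        rw [h7, hN1] at h6
        have h8 : (A.length : ℤ) ≤ N1 := by exact_mod_cast hAN
        linarith
      · intro j hj hR
        rw [hrd] at hR
        have hR' := rule_of_take h1 h2 hR
        have hw : A.length + j < j0 := by omega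
        have hlen := h2 _ hj0.1
        rw [List.length_drop, hZe, List.length_take, List.length_drop] at hlen
        have hRZ : R (Z.drop (A.length + j)) := by
          rw [hZd]
          exact rule_take h1 (by omega) hR'
        have h3 : ¬ P.s ((P.p0 + ((A.length + j : ℕ) : ℤ) - P.z) % P.M) ≤
            P.p0 + ((A.length + j : ℕ) : ℤ) - P.z := fun hc => hmin _ hw ⟨hRZ, hc⟩
        have h4 : ¬ |(P.p0 + ((A.length + j : ℕ) : ℤ)) - P.z -
            P.s ((P.p0 + ((A.length + j : ℕ) : ℤ) - P.z) % P.M)| ≤ P.N1 :=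
          fun hc => hE ⟨_, hRZ, hc⟩
        rw [res_shift hM] at h3 h4
        rw [not_le] at h3 h4
        rw [abs_of_neg (by linarith)] at h4
        push_cast at h4
        have : (0 : ℤ) ≤ A.length := by positivity
        linarith
    have hex1 : ∃ p : ℕ × V, Leg P R rr p.1 ∧ p.1 + N1 + n ≤ L ∧ D.Rf (rr.take p.1) = some p.2 :=
      ⟨(Q.length, b), hleg, by simp only; omega, by rw [hrt]; exact hb⟩
    unfold R1
    rw [dif_pos hex1]
    rfl

end Crest.Agent.R320.HalfB_595
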