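import Mathlib
import Crest.Agent.R320.HalfA_794
import Crest.Agent.R320.Gad1_420
import Crest.Agent.R320.Wall_291

/-! Row 320, half 1: the concrete data of `HalfA_794` from walls, gadget 1, ruler, exact gadget. -/

set_option autoImplicit false
set_option linter.unusedSectionVars false

namespace Crest.Agent.R320.HalfB_794

open Crest.Agent.R320 Crest.Agent.R320.Wall_291

/-- raw parameters -/
structure Raw (α S V W : Type) where
  phi : List α → S
  act : V → S → V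
  Gd : List α → Prop
  m : ℕ
  ew : ℕ → S → W
  F : S → W → V
  LN : ℕ → Fin m × S × W × S × W × V → Prop
  RN : ℕ → Fin m × S × W × S × W × V → Prop
  M : ℕ
  Ms : Finset ℕ
  r : ℕ
  K : ℕ
  cn : ℕ → ℕ
  Lam : ℕ
  M' : ℕ
  Rs : List α → Prop
  ns : ℕ
  Gs : ℕ
  Ro : List α → Prop
  no : ℕ
  Go : ℕ
  lam : ℕ → List α → Option V
  rho : ℕ → List α → Option V
  nu2 : List α → V

variable {α S V W : Type} [Monoid S] [AddCommGroup V] [AddCommGroup W]

def Raw.LL (C : Raw α S V W) : ℕ := C.M' * (C.Gs + C.ns + C.M + 1)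
def Raw.A (C : Raw α S V W) (k : ℕ) : ℕ := k * C.LL
def Raw.A' (C : Raw α S V W) (k : ℕ) : ℕ := k * C.LL + C.M' * (C.Gs + C.ns)
def Raw.N1 (C : Raw α S V W) : ℕ := C.m * C.LL
def Raw.TT (C : Raw α S V W) : ℕ := 2 * (C.N1 + C.Lam) + 1
def Raw.th (C : Raw α S V W) (i : ℕ) : ℕ := C.TT * (i % C.M')
def Raw.Sm (C : Raw α S V W) : ℕ := C.TT * C.M'
def Raw.MM (C : Raw α S V W) : ℕ := C.M' * C.M
def Raw.zz (C : Raw α S V W) : ℕ := C.m * C.LL + C.MM + C.Gs + C.ns + C.N1 + 1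
def Raw.p0 (C : Raw α S V W) : ℕ := C.no + C.Lam + 1
def Raw.D1 (C : Raw α S V W) : ℕ := C.zz + C.Sm + C.Go + C.no + C.N1
def Raw.D0 (C : Raw α S V W) : ℕ := C.N1 + C.D1
def Raw.Ws (C : Raw α S V W) : ℕ := 2 * C.MM + 2 * C.Lam
def Raw.Wo (C : Raw α S V W) : ℕ := 2 * C.Lam + C.Sm + 2 * C.N1

/-- the gadget data -/
def Raw.g (C : Raw α S V W) : Gad1_420.Dat α S V W :=
  ⟨C.phi, C.act, C.m, C.ew, C.F, C.Rs, C.ns, C.Gs, C.M, C.M', C.A, C.A', C.LN, C.RN⟩

def Raw.good (C : Raw α S V W) (T : ℕ) : Prop := ∀ k ∈ C.Ms, ¬ k ∣ T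

/-- wall band -/
def Raw.EB (C : Raw α S V W) (Z : List α) : Prop :=
  ∃ t, C.Ro (Z.drop t) ∧ C.zz + C.th (t % C.M') ≤ t + C.N1 ∧ t ≤ C.zz + C.th (t % C.M') + C.N1

/-- small wall near level `k` -/
def Raw.DB (C : Raw α S V W) (k : ℕ) (Z : List α) : Prop :=
  ∃ s, C.A k ≤ s + C.MM ∧ s < C.A k + C.MM ∧ C.Rs (Z.drop s)

/-- raw scheme data with a dummy bad set (to have `nz`) -/
noncomputable def Raw.pre (C : Raw α S V W) (nu1 : List α → V) (Bad : List α → Prop) :
    HalfA_794.Dat α S V where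
  phi := C.phi
  act := C.act
  Gd := C.Gd
  Ro := C.Ro
  no := C.no
  Go := C.Go
  M' := C.M'
  N1 := C.N1
  zz := C.zz
  th := C.th
  Sm := C.Sm
  Lf := C.g.Lf
  Rf := C.g.Rf
  nu1 := nu1
  p0 := C.p0
  K := C.K
  c := fun k => C.no + C.cn k
  lam := C.lam
  rho := C.rho
  nu2 := C.nu2
  Bad := Bad
  D1 := C.D1
  D0 := C.D0
  D2 := C.p0 + C.D0
  Rr := 1 + (C.m + 1) + 2 * C.r + 1

noncomputable def Raw.nz (C : Raw α S V W) (Z : List α) : Option ℕ :=
  (C.pre (fun _ => 0) (fun _ => False)).nz Z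

/-- clock divisible by the modulus `q` -/
def Raw.BB (C : Raw α S V W) (q : ℕ) (Z : List α) : Prop :=
  ∃ b, C.nz Z = some b ∧ q ∣ b / C.M'

def Raw.Bad (C : Raw α S V W) (Z : List α) : Prop :=
  C.EB Z ∨ (∃ k ≤ C.m, C.DB k Z) ∨ ∃ q ∈ C.Ms, C.BB q Z

/-- hypotheses -/
structure RH (C : Raw α S V W) : Prop where
  hphi : ∀ u v, C.phi (u ++ v) = C.phi u * C.phi v
  Gd_infix : ∀ Q Q', C.Gd Q → Q' <:+: Q → C.Gd Q'
  M'pos : 0 < C.M'
  opos : 0 < C.no
  otake : ∀ Q, C.Ro Q ↔ C.Ro (Q.take C.no)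
  olen : ∀ Q, C.Ro Q → C.no ≤ Q.length
  osep : ∀ Q d, C.Ro Q → 0 < d → d ≤ C.Wo → ¬ C.Ro (Q.drop d)
  odense : ∀ Q, C.Gd Q → C.Go + C.no ≤ Q.length → ∃ i < C.Go, C.Ro (Q.drop i)
  spos : 0 < C.ns
  stake : ∀ Q, C.Rs Q ↔ C.Rs (Q.take C.ns)
  slen : ∀ Q, C.Rs Q → C.ns ≤ Q.length
  ssep : ∀ Q d, C.Rs Q → 0 < d → d ≤ C.Ws → ¬ C.Rs (Q.drop d)
  sdense : ∀ Q, C.Gd Q → C.Gs + C.ns ≤ Q.length → ∃ i < C.Gs, C.Rs (Q.drop i)
  names : Gad1_420.Names C.g C.good
  hF : ∀ s w v, ∃ i < C.m, ∀ g x h, g * x * h = s → ∀ z,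
      C.F (g * z * h) (w - C.ew i x + C.ew i z) + C.act v (g * z * h) = C.F s w + C.act v s
  cn_le : ∀ k < C.K, C.cn k ≤ C.Lam
  rE : ∀ i < C.K, ∀ j < C.K, ∀ i' < C.K, ∀ j' < C.K, i ≠ j →
    (C.M' : ℤ) ∣ ((C.cn i : ℤ) - C.cn j) - ((C.cn i' : ℤ) - C.cn j') → i = i' ∧ j = j'
  rB : ∀ q ∈ C.Ms, ∀ y : ℤ, ∀ i < C.K, ∀ j < C.K, ∀ i' < C.K, ∀ j' < C.K, i ≠ j →
    (y - ((C.cn i : ℤ) - C.cn j)) % ((q : ℤ) * C.M') < C.M' →
    (y - ((C.cn i' : ℤ) - C.cn j')) % ((q : ℤ) * C.M') < C.M' → i = i' ∧ j = j'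
  rD : ∀ y : ℤ, ∀ i < C.K, ∀ j < C.K, ∀ i' < C.K, ∀ j' < C.K, i ≠ j →
    |y - ((C.cn i : ℤ) - C.cn j)| ≤ C.MM → |y - ((C.cn i' : ℤ) - C.cn j')| ≤ C.MM →
    i = i' ∧ j = j'
  Msr : C.Ms.card ≤ C.r
  sound2 : ∀ k < C.K, ∀ (P Q : List α) (v y : V), P.length = C.no + C.cn k →
    C.lam k P = some v → C.rho k Q = some y → y = C.act v (C.phi (P ++ Q)) + C.nu2 (P ++ Q)
  comp2 : ∀ (X : List α) (v : V), X.length = C.p0 → ∃ I : Finset ℕ,
    1 + (C.m + 1) + 2 * C.r + 1 ≤ I.card ∧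
    ∀ k ∈ I, k < C.K ∧ C.lam k (X.take (C.no + C.cn k)) = some v ∧
      (C.rho k (X.drop (C.no + C.cn k))).isSome

variable {C : Raw α S V W}

theorem nz_pre (nu1 : List α → V) (Bad : List α → Prop) (Z : List α) :
    (C.pre nu1 Bad).nz Z = C.nz Z := rfl

theorem RH.owall_app (h : RH C) {Q Y : List α} {t : ℕ} (ht : t + C.no ≤ Q.length) :
    C.Ro ((Q ++ Y).drop t) ↔ C.Ro (Q.drop t) := by
  rw [h.otake, h.otake (Q.drop t), List.drop_append_of_le_length (by omega),
    List.take_append_of_le_length (by rw [List.length_drop]; omega)]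

theorem RH.swall_app (h : RH C) {Q Y : List α} {t : ℕ} (ht : t + C.ns ≤ Q.length) :
    C.Rs ((Q ++ Y).drop t) ↔ C.Rs (Q.drop t) := by
  rw [h.stake, h.stake (Q.drop t), List.drop_append_of_le_length (by omega),
    List.take_append_of_le_length (by rw [List.length_drop]; omega)]

theorem RH.owall_fit (h : RH C) {Q : List α} {t : ℕ} (ht : C.Ro (Q.drop t)) :
    t + C.no ≤ Q.length := by
  have h1 := h.olen _ ht
  have h2 := h.opos
  rw [List.length_drop] at h1
  omega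

/-- two outer walls are more than `Wo` apart -/
theorem RH.osep' (h : RH C) {T : List α} {x y : ℕ} (hx : C.Ro (T.drop x)) (hy : C.Ro (T.drop y))
    (h1 : x ≤ y + C.Wo) (h2 : y ≤ x + C.Wo) : x = y := by
  rcases lt_trichotomy x y with h3 | h3 | h3
  · exfalso
    apply h.osep _ (y - x) hx (by omega) (by omega)
    rw [List.drop_drop]
    rwa [show x + (y - x) = y by omega]
  · exact h3
  · exfalso
    apply h.osep _ (x - y) hy (by omega) (by omega)
    rw [List.drop_drop]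
    rwa [show y + (x - y) = x by omega]

theorem RH.ssep' (h : RH C) {T : List α} {x y : ℕ} (hx : C.Rs (T.drop x)) (hy : C.Rs (T.drop y))
    (h1 : x ≤ y + C.Ws) (h2 : y ≤ x + C.Ws) : x = y := by
  rcases lt_trichotomy x y with h3 | h3 | h3
  · exfalso
    apply h.ssep _ (y - x) hx (by omega) (by omega)
    rw [List.drop_drop]
    rwa [show x + (y - x) = y by omega]
  · exact h3
  · exfalso
    apply h.ssep _ (x - y) hy (by omega) (by omega)
    rw [List.drop_drop]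
    rwa [show y + (x - y) = x by omega]

theorem RH.th_le (h : RH C) (i : ℕ) : C.th i ≤ C.Sm :=
  Nat.mul_le_mul_left _ (Nat.mod_lt _ h.M'pos).le

theorem nz_some {Z : List α} {b : ℕ} : C.nz Z = some b ↔
    (C.Ro (Z.drop b) ∧ C.zz + C.th (b % C.M') ≤ b) ∧
      ∀ t < b, ¬ (C.Ro (Z.drop t) ∧ C.zz + C.th (t % C.M') ≤ t) :=
  HalfA_794.Dat.nz_some (D := C.pre (fun _ => 0) (fun _ => False))

theorem RH.nz_app (h : RH C) {Z Y : List α} {b : ℕ} (hz : C.nz Z = some b) :
    C.nz (Z ++ Y) = some b := by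
  obtain ⟨⟨h1, h2⟩, h3⟩ := nz_some.1 hz
  have h0 := h.owall_fit h1
  refine nz_some.2 ⟨⟨(h.owall_app h0).2 h1, h2⟩, ?_⟩
  rintro t ht ⟨h4, h5⟩
  exact h3 t ht ⟨(h.owall_app (by omega)).1 h4, h5⟩

/-- existence and bound of the next anchor -/
theorem RH.nz_exists (h : RH C) {Z : List α} (hG : C.Gd Z)
    (hl : C.zz + C.Sm + C.Go + C.no ≤ Z.length) :
    ∃ b, C.nz Z = some b ∧ C.zz ≤ b ∧ b < C.zz + C.Sm + C.Go := by
  classical
  obtain ⟨i, hi, h1⟩ := h.odense (Z.drop (C.zz + C.Sm))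
    (h.Gd_infix _ _ hG (List.drop_suffix _ _).isInfix) (by rw [List.length_drop]; omega)
  rw [List.drop_drop] at h1
  have h2 : ∃ t, C.Ro (Z.drop t) ∧ C.zz + C.th (t % C.M') ≤ t :=
    ⟨_, h1, by have := h.th_le ((C.zz + C.Sm + i) % C.M'); omega⟩
  refine ⟨Nat.find h2, nz_some.2 ⟨Nat.find_spec h2, fun t ht => Nat.find_min h2 ht⟩, ?_, ?_⟩
  · have := (Nat.find_spec h2).2; omega
  · have := Nat.find_min' h2 ⟨h1, by have := h.th_le ((C.zz + C.Sm + i) % C.M'); omega⟩
    omega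

theorem nz_unique {Z : List α} {b b' : ℕ} (h : C.nz Z = some b) (h' : C.nz Z = some b') :
    b = b' := by
  rw [h] at h'
  exact Option.some.inj h'

theorem A_le {k : ℕ} (h : k ≤ C.m) : C.A k ≤ C.m * C.LL := Nat.mul_le_mul_right _ h

theorem RH.bad_stab (h : RH C) (Z Y : List α) (hG : C.Gd (Z ++ Y)) (hl : C.D0 ≤ Z.length) :
    C.Bad (Z ++ Y) ↔ C.Bad Z := by
  have hl' : C.N1 + (C.zz + C.Sm + C.Go + C.no + C.N1) ≤ Z.length := hl
  have hzz : C.zz = C.m * C.LL + C.MM + C.Gs + C.ns + C.N1 + 1 := rfl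
  obtain ⟨b, hb, -, -⟩ := h.nz_exists (Z := Z) (h.Gd_infix _ _ hG (List.prefix_append _ _).isInfix)
    (by omega)
  have hE : C.EB (Z ++ Y) ↔ C.EB Z := by
    constructor
    · rintro ⟨t, h1, h2, h3⟩
      have := h.th_le (t % C.M')
      exact ⟨t, (h.owall_app (by omega)).1 h1, h2, h3⟩
    · rintro ⟨t, h1, h2, h3⟩
      exact ⟨t, (h.owall_app (h.owall_fit h1)).2 h1, h2, h3⟩
  have hD : ∀ k ≤ C.m, (C.DB k (Z ++ Y) ↔ C.DB k Z) := by
    intro k hk
    have hA := A_le (C := C) hk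
    constructor
    · rintro ⟨s, h1, h2, h3⟩
      exact ⟨s, h1, h2, (h.swall_app (by omega)).1 h3⟩
    · rintro ⟨s, h1, h2, h3⟩
      exact ⟨s, h1, h2, (h.swall_app (by omega)).2 h3⟩
  have hB : ∀ q, (C.BB q (Z ++ Y) ↔ C.BB q Z) := by
    intro q
    unfold Raw.BB
    rw [h.nz_app hb, hb]
  unfold Raw.Bad
  rw [hE]
  constructor
  · rintro (h1 | ⟨k, hk, h1⟩ | ⟨q, hq, h1⟩)
    · exact Or.inl h1
    · exact Or.inr (Or.inl ⟨k, hk, (hD k hk).1 h1⟩)
    · exact Or.inr (Or.inr ⟨q, hq, (hB q).1 h1⟩)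
  · rintro (h1 | ⟨k, hk, h1⟩ | ⟨q, hq, h1⟩)
    · exact Or.inl h1
    · exact Or.inr (Or.inl ⟨k, hk, (hD k hk).2 h1⟩)
    · exact Or.inr (Or.inr ⟨q, hq, (hB q).2 h1⟩)

theorem RH.geo (h : RH C) : Gad1_420.Geo C.g where
  hφ := h.hphi
  rule := ⟨h.spos, h.stake, h.slen⟩
  mono := fun k => Nat.mul_le_mul_right _ (Nat.le_succ k)
  next := by
    intro i k hik
    change i * C.LL + C.M' * (C.Gs + C.ns) + C.M' * C.M ≤ k * C.LL
    have h1 : (i + 1) * C.LL ≤ k * C.LL := Nat.mul_le_mul_right _ hik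
    have h2 : C.LL = C.M' * (C.Gs + C.ns) + C.M' * C.M + C.M' := by
      unfold Raw.LL; ring
    have h3 : (i + 1) * C.LL = i * C.LL + C.LL := by ring
    omega
  cell := by
    intro k
    change k * C.LL + C.Gs + C.ns ≤ k * C.LL + C.M' * (C.Gs + C.ns)
    have := Nat.le_mul_of_pos_left (C.Gs + C.ns) h.M'pos
    omega
  dvd := by
    intro k
    change C.M' ∣ k * C.LL + C.M' * (C.Gs + C.ns)
    exact dvd_add (Dvd.dvd.mul_left (Dvd.intro _ rfl) _) (Dvd.intro _ rfl)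
  M'pos := h.M'pos

/-- lengths of the left parts of scheme 1 -/
theorem RH.Lf_pos (h : RH C) (P : List α) (v : V) (hP : C.g.Lf P = some v) :
    C.M' ∣ P.length ∧ P.length ≤ C.N1 := by
  obtain ⟨i, g, wl, hh, wr, hL⟩ := Gad1_420.Lf_some hP
  obtain ⟨-, h1, h2, h3, -⟩ := hL
  refine ⟨h1, ?_⟩
  have h4 := h.geo.next i C.m i.2
  have h5 : C.g.A C.m = C.m * C.LL := rfl
  have h6 : C.N1 = C.m * C.LL := rfl
  omega

theorem RH.comp1 (h : RH C) (nu1 : List α → V)
    (hc : ∀ Y : List α, C.good (Y.length / C.M') →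
        (∀ i < C.m, C.A' i + C.M' * C.M ≤ Y.length) →
        (∀ t, t ≤ C.A C.m + C.M' * C.M → ∃ s, t ≤ s ∧ s < t + C.Gs ∧ C.Rs (Y.drop s)) →
        (∀ k, k ≤ C.m → ∀ s, C.A k ≤ s + C.M' * C.M → s < C.A k + C.M' * C.M →
          ¬ C.Rs (Y.drop s)) →
        ∀ v, ∃ P Q, P ++ Q = Y ∧ C.g.Lf P = some v ∧ (C.g.Rf Q).isSome)
    (Z : List α) (hG : C.Gd Z) (hl : C.D0 ≤ Z.length) (hb : ¬ C.Bad Z) (y : V) :
    ∃ P s rest, P ++ s ++ rest = Z ∧ C.g.Lf P = some y ∧ s ∈ (C.pre nu1 C.Bad).RS1 := by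
  have hl' : C.N1 + (C.zz + C.Sm + C.Go + C.no + C.N1) ≤ Z.length := hl
  have hD1 : C.D1 = C.zz + C.Sm + C.Go + C.no + C.N1 := rfl
  have hzz : C.zz = C.m * C.LL + C.MM + C.Gs + C.ns + C.N1 + 1 := rfl
  have hMM : C.MM = C.M' * C.M := rfl
  obtain ⟨b, hnz, hb1, hb2⟩ := h.nz_exists (Z := Z) hG (by omega)
  unfold Raw.Bad at hb
  push Not at hb
  obtain ⟨hE, hD, hB⟩ := hb
  have hbf : b + C.no ≤ Z.length := h.owall_fit (nz_some.1 hnz).1.1
  have hYl : (Z.take b).length = b := by rw [List.length_take]; omega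
  have hvis : ∀ s, s + C.ns ≤ b → (C.Rs ((Z.take b).drop s) ↔ C.Rs (Z.drop s)) := by
    intro s hs
    have := h.swall_app (Q := Z.take b) (Y := Z.drop b) (t := s) (by omega)
    rw [List.take_append_drop] at this
    exact this.symm
  obtain ⟨P, Q, hPQ, hP, hQ⟩ := hc (Z.take b) (by
      rw [hYl]
      intro q hq hd
      exact hB q hq ⟨b, hnz, hd⟩) (by
      intro i hi
      have h4 := h.geo.next i C.m hi
      have h5 : C.g.A C.m = C.m * C.LL := rfl
      have h6 : C.g.A' i = C.A' i := rfl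
      have h7 : C.g.M' * C.g.M = C.M' * C.M := rfl
      omega) (by
      intro t ht
      have h5 : C.A C.m = C.m * C.LL := rfl
      obtain ⟨i, hi, h6⟩ := h.sdense (Z.drop t)
        (h.Gd_infix _ _ hG (List.drop_suffix _ _).isInfix) (by rw [List.length_drop]; omega)
      rw [List.drop_drop] at h6
      exact ⟨t + i, by omega, by omega, (hvis _ (by omega)).2 h6⟩) (by
      intro k hk s h1 h2 h3
      have hA := A_le (C := C) hk
      exact hD k hk ⟨s, h1, h2, (hvis s (by omega)).1 h3⟩) y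
  obtain ⟨hp1, hp2⟩ := h.Lf_pos P y hP
  have hPZ : P = Z.take P.length := by
    have e1 : P = (Z.take b).take P.length := by rw [← hPQ, List.take_left' rfl]
    have e2 : P.length ≤ b := by
      have := congrArg List.length hPQ
      rw [List.length_append, hYl] at this
      omega
    rw [List.take_take, min_eq_left e2] at e1
    exact e1
  have hmod : ∀ t, (P.length + t) % C.M' = t % C.M' := by
    intro t
    obtain ⟨q, hq⟩ := hp1
    rw [hq, Nat.mul_add_mod]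
  set s := (Z.drop P.length).take C.D1 with hs
  have hsl : s.length = C.D1 := by rw [hs, List.length_take, List.length_drop]; omega
  have hwall : ∀ t, t + C.no ≤ C.D1 → (C.Ro (s.drop t) ↔ C.Ro (Z.drop (P.length + t))) := by
    intro t ht
    have := h.owall_app (Q := s) (Y := (Z.drop P.length).drop C.D1) (t := t) (by omega)
    rw [hs, List.take_append_drop, List.drop_drop] at this
    rw [hs]
    exact this.symm
  refine ⟨P, s, (Z.drop P.length).drop C.D1, ?_, hP, hsl, ?_, b - P.length, ?_⟩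
  · rw [List.append_assoc, hs, List.take_append_drop]
    conv_lhs => rw [hPZ]
    rw [List.length_take, min_eq_left (by omega)]
    exact List.take_append_drop _ _
  · -- Legal
    intro t ht hcon
    change t < C.zz + C.th (t % C.M') ∧ C.zz + C.th (t % C.M') ≤ t + C.N1 at hcon
    have h1 := h.owall_fit ht
    rw [hsl] at h1
    apply hE
    refine ⟨P.length + t, (hwall t h1).1 ht, ?_, ?_⟩
    · rw [hmod]; omega
    · rw [hmod]; omega
  · -- nz
    have hQz := (nz_some.1 hnz)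
    have hbE : C.zz + C.th (b % C.M') + C.N1 < b := by
      by_contra hcon
      push Not at hcon
      exact hE ⟨b, hQz.1.1, by omega, hcon⟩
    have hmod2 : (b - P.length) % C.M' = b % C.M' := by
      have := hmod (b - P.length)
      rw [show P.length + (b - P.length) = b by omega] at this
      exact this.symm
    obtain ⟨r, hr⟩ := Option.isSome_iff_exists.1 hQ
    refine ⟨r, ?_, ?_⟩
    · change C.nz s = some (b - P.length)
      refine nz_some.2 ⟨⟨?_, ?_⟩, ?_⟩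
      · rw [hwall _ (by omega), show P.length + (b - P.length) = b by omega]
        exact hQz.1.1
      · rw [hmod2]; omega
      · rintro t ht ⟨h1, h2⟩
        apply hQz.2 (P.length + t) (by omega)
        refine ⟨(hwall t (by omega)).1 h1, ?_⟩
        rw [hmod]; omega
    · change C.g.Rf (s.take (b - P.length)) = some r
      rw [← hr]
      congr 1
      have e1 : Q = (Z.take b).drop P.length := by rw [← hPQ, List.drop_left' rfl]
      rw [e1, hs, List.take_take, min_eq_left (by omega), List.drop_take]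

/-- events that spoil a mark -/
abbrev Raw.Ev (C : Raw α S V W) := Unit ⊕ Fin (C.m + 1) ⊕ ({q // q ∈ C.Ms} × Bool)

theorem card_Ev (C : Raw α S V W) :
    Fintype.card C.Ev = 1 + (C.m + 1) + 2 * C.Ms.card := by
  simp only [Fintype.card_sum, Fintype.card_unit, Fintype.card_fin, Fintype.card_prod,
    Fintype.card_bool, Fintype.card_coe]
  ring

/-- the event `ev` happens at position `pos` of the text `T` (base position `B`). -/
def Raw.Trig (C : Raw α S V W) (T : List α) (B pos : ℕ) : C.Ev → Prop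
  | .inl _ => C.EB (T.drop pos)
  | .inr (.inl k) => C.DB k (T.drop pos)
  | .inr (.inr (q, i)) => ∃ b, C.nz (T.drop pos) = some b ∧ (q : ℕ) ∣ b / C.M' ∧
      (i = true ↔ pos + b < B + C.Lam + C.zz + C.Sm)

theorem RH.trig_unique (h : RH C) (T : List α) (B : ℕ) (hB : C.Lam ≤ B)
    (ev : C.Ev) (i j i' j' : ℕ) (hi : i < C.K) (hj : j < C.K) (hi' : i' < C.K) (hj' : j' < C.K)
    (hij : i ≠ j) (h1 : C.Trig T B (B + C.cn i - C.cn j) ev)
    (h2 : C.Trig T B (B + C.cn i' - C.cn j') ev) : i = i' ∧ j = j' := by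
  have c1 := h.cn_le i hi
  have c2 := h.cn_le j hj
  have c3 := h.cn_le i' hi'
  have c4 := h.cn_le j' hj'
  have hWo : C.Wo = 2 * C.Lam + C.Sm + 2 * C.N1 := rfl
  have hWs : C.Ws = 2 * C.MM + 2 * C.Lam := rfl
  set p := B + C.cn i - C.cn j with hp
  set p' := B + C.cn i' - C.cn j' with hp'
  rcases ev with u | k | ⟨q, bo⟩
  · obtain ⟨t, a1, a2, a3⟩ := h1
    obtain ⟨t', b1, b2, b3⟩ := h2
    rw [List.drop_drop] at a1 b1
    have t1 := h.th_le (t % C.M')
    have t2 := h.th_le (t' % C.M')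
    have e := h.osep' a1 b1 (by omega) (by omega)
    have hm : t % C.M' = t' % C.M' := by
      by_contra hne
      have m1 : C.th (t % C.M') = C.TT * (t % C.M') := by
        unfold Raw.th; rw [Nat.mod_mod]
      have m2 : C.th (t' % C.M') = C.TT * (t' % C.M') := by
        unfold Raw.th; rw [Nat.mod_mod]
      have hTT : C.TT = 2 * (C.N1 + C.Lam) + 1 := rfl
      rcases lt_or_gt_of_ne hne with hlt | hlt
      · have : C.TT * (t % C.M' + 1) ≤ C.TT * (t' % C.M') := Nat.mul_le_mul_left _ hlt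
        rw [mul_add, mul_one] at this
        omega
      · have : C.TT * (t' % C.M' + 1) ≤ C.TT * (t % C.M') := Nat.mul_le_mul_left _ hlt
        rw [mul_add, mul_one] at this
        omega
    apply h.rE i hi j hj i' hi' j' hj' hij
    have e2 : ((C.cn i : ℤ) - C.cn j) - ((C.cn i' : ℤ) - C.cn j') = (t' : ℤ) - t := by omega
    rw [e2]
    exact (Nat.modEq_iff_dvd.1 hm)
  · obtain ⟨s, a1, a2, a3⟩ := h1
    obtain ⟨s', b1, b2, b3⟩ := h2
    rw [List.drop_drop] at a3 b3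
    have e := h.ssep' a3 b3 (by omega) (by omega)
    apply h.rD ((p : ℤ) + s - B - C.A k) i hi j hj i' hi' j' hj' hij
    · rw [abs_le]
      constructor <;> omega
    · rw [abs_le]
      constructor <;> omega
  · obtain ⟨b, a1, a2, a3⟩ := h1
    obtain ⟨b', b1, b2, b3⟩ := h2
    obtain ⟨⟨w1, w2⟩, w3⟩ := nz_some.1 a1
    obtain ⟨⟨v1, v2⟩, v3⟩ := nz_some.1 b1
    rw [List.drop_drop] at w1 v1
    have e : p + b = p' + b' := by
      cases bo
      · have g1 : B + C.Lam + C.zz + C.Sm ≤ p + b := by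
          by_contra hc
          have := a3.2 (by omega)
          simp at this
        have g2 : B + C.Lam + C.zz + C.Sm ≤ p' + b' := by
          by_contra hc
          have := b3.2 (by omega)
          simp at this
        rcases lt_trichotomy (p + b) (p' + b') with hlt | heq | hlt
        · exfalso
          have t1 := h.th_le ((p + b - p') % C.M')
          apply v3 (p + b - p') (by omega)
          refine ⟨?_, by omega⟩
          rw [List.drop_drop, show p' + (p + b - p') = p + b by omega]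
          exact w1
        · exact heq
        · exfalso
          have t1 := h.th_le ((p' + b' - p) % C.M')
          apply w3 (p' + b' - p) (by omega)
          refine ⟨?_, by omega⟩
          rw [List.drop_drop, show p + (p' + b' - p) = p' + b' by omega]
          exact v1
      · have g1 := a3.1 rfl
        have g2 := b3.1 rfl
        exact h.osep' w1 v1 (by omega) (by omega)
    have hM := h.M'pos
    have key : ∀ b : ℕ, (q : ℕ) ∣ b / C.M' → ((b : ℤ)) % (((q : ℕ) : ℤ) * C.M') < C.M' := by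
      intro b hb
      obtain ⟨x, hx⟩ := hb
      have hb2 : b = (q : ℕ) * C.M' * x + b % C.M' := by
        have := Nat.div_add_mod b C.M'
        rw [hx] at this
        calc b = C.M' * ((q : ℕ) * x) + b % C.M' := this.symm
          _ = (q : ℕ) * C.M' * x + b % C.M' := by ring
      have h3 : b % ((q : ℕ) * C.M') = (b % C.M') % ((q : ℕ) * C.M') := by
        conv_lhs => rw [hb2]
        rw [Nat.mul_add_mod]
      have h4 : b % ((q : ℕ) * C.M') < C.M' := by
        rw [h3]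
        exact lt_of_le_of_lt (Nat.mod_le _ _) (Nat.mod_lt _ hM)
      exact_mod_cast h4
    apply h.rB q q.2 ((p : ℤ) + b - B) i hi j hj i' hi' j' hj' hij
    · rw [show (p : ℤ) + b - B - ((C.cn i : ℤ) - C.cn j) = (b : ℤ) by omega]
      exact key b a2
    · rw [show (p : ℤ) + b - B - ((C.cn i' : ℤ) - C.cn j') = (b' : ℤ) by omega]
      exact key b' b2

theorem RH.spoil (h : RH C) (T : List α) (a : ℕ)
    (I : Finset ℕ) (hI : 1 + (C.m + 1) + 2 * C.r + 1 ≤ I.card) (hIK : ∀ k ∈ I, k < C.K) :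
    ∃ k ∈ I, ∀ k' < C.K, k' ≠ k →
      ¬ C.Bad (T.drop (a + (C.no + C.cn k) + (C.p0 - (C.no + C.cn k')))) := by
  classical
  by_contra hcon
  push Not at hcon
  have hp0 : C.p0 = C.no + C.Lam + 1 := rfl
  set B := a + C.p0 with hB
  have hpos : ∀ k < C.K, ∀ k' < C.K,
      a + (C.no + C.cn k) + (C.p0 - (C.no + C.cn k')) = B + C.cn k - C.cn k' := by
    intro k hk k' hk'
    have := h.cn_le k hk
    have := h.cn_le k' hk'
    omega
  have hev : ∀ k ∈ I, ∃ k' < C.K, k' ≠ k ∧ ∃ ev : C.Ev, C.Trig T B (B + C.cn k - C.cn k') ev := by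
    intro k hk
    obtain ⟨k', hk', hne, hbad⟩ := hcon k hk
    rw [hpos k (hIK k hk) k' hk'] at hbad
    refine ⟨k', hk', hne, ?_⟩
    rcases hbad with h1 | ⟨κ, hκ, h1⟩ | ⟨q, hq, b, hb, hd⟩
    · exact ⟨.inl (), h1⟩
    · exact ⟨.inr (.inl ⟨κ, by omega⟩), h1⟩
    · exact ⟨.inr (.inr (⟨q, hq⟩, decide (B + C.cn k - C.cn k' + b < B + C.Lam + C.zz + C.Sm))),
        b, hb, hd, by simp⟩
  choose! f hf1 hf2 g hg using hev
  have hinj : Set.InjOn g (I : Set ℕ) := by
    intro k hk l hl hkl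
    have h1 := hg k hk
    have h2 := hg l hl
    rw [← hkl] at h2
    exact (h.trig_unique T B (by omega) (g k) k (f k) l (f l) (hIK k hk) (hf1 k hk)
      (hIK l hl) (hf1 l hl) (hf2 k hk).symm h1 h2).1
  have hcard : I.card ≤ Fintype.card C.Ev :=
    Finset.card_le_card_of_injOn g (fun k _ => Finset.mem_coe.2 (Finset.mem_univ _)) hinj
  rw [card_Ev] at hcard
  have := h.Msr
  omega

theorem RH.hyp (h : RH C) : ∃ nu1, HalfA_794.Hyp (C.pre nu1 C.Bad) := by
  obtain ⟨nu1, s1, -, s3⟩ := Gad1_420.gadget1 C.g C.good h.geo h.names h.hF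
  refine ⟨nu1, ?_⟩
  have hN1 : C.N1 = C.m * C.LL := rfl
  have hD1 : C.D1 = C.zz + C.Sm + C.Go + C.no + C.N1 := rfl
  have hzz : C.zz = C.m * C.LL + C.MM + C.Gs + C.ns + C.N1 + 1 := rfl
  have hp0 : C.p0 = C.no + C.Lam + 1 := rfl
  refine
    { no_pos := h.opos
      Ro_take := h.otake
      Ro_len := h.olen
      Gd_infix := h.Gd_infix
      Ro_dense := h.odense
      N1_lt := ?_
      th_le := h.th_le
      Lf_pos := h.Lf_pos
      sound1 := s1
      c_pos := ?_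
      c_lt := ?_
      sound2 := h.sound2
      comp2 := h.comp2
      bad_stab := h.bad_stab
      D1_ge := ?_
      D0_ge := ?_
      D2_ge := ?_
      comp1 := ?_
      spoil := ?_ }
  · change C.N1 < C.zz
    omega
  · intro k _
    change C.no ≤ C.no + C.cn k
    omega
  · intro k hk
    change C.no + C.cn k < C.p0
    have := h.cn_le k hk
    omega
  · change C.zz + C.Sm + C.Go + C.no ≤ C.D1
    omega
  · exact le_refl _
  · exact le_refl _
  · intro Z hG hl hb y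
    exact h.comp1 nu1 s3 Z hG hl hb y
  · intro T a _ _ I hI hIK
    exact h.spoil T a I hI hIK

end Crest.Agent.R320.HalfB_794
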