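import Crest.Agent.R320.HalfA_853

/-! Row 320, helper853: HALF 1, part B: the two levels, soundness. -/

set_option autoImplicit false
set_option linter.unusedSectionVars false

namespace Crest.Agent.R320.Half853

open Crest.Agent.R320.Gad1_420 (Rule)
open Crest.Agent.R320.Nest_85 (run run_nil run_append Level Cut)

/-- all data. -/
structure Dt (α S V : Type*) where
  C : Ch α
  φ : List α → S
  act : V → S → V
  p0 : ℕ
  N1 : ℕ
  D1 : ℕ
  D2 : ℕ
  D3 : ℕ
  z2 : ℕ
  G : ℕ
  Lf : List α → Option V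
  Rf : List α → Option V
  nu1 : List α → V
  nu2 : List α → V
  K : Finset ℕ
  lam : List α → Option V
  rho : List α → Option V
  good : ℕ → Prop
  m : ℕ
  Ak : ℕ → ℕ
  w : ℕ
  Rs : List α → Prop
  ns : ℕ
  T : List α → Prop

variable {α S V : Type*} [Monoid S] [AddCommGroup V] (D : Dt α S V)

namespace Dt

/-- zone map. -/
def A (v : V) (Z : List α) : V :=
  D.act (D.act v (D.φ (Z.take D.p0)) + D.nu2 (Z.take D.p0)) (D.φ (Z.drop D.p0)) +
    D.nu1 (Z.drop D.p0)

/-- passing wall in the frame of `a + p0`. -/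
def PU (u : List α) (b : ℕ) : Prop := D.C.R (u.drop b) ∧ D.C.τ ((D.p0 + b) % D.C.c) ≤ D.p0 + b

/-- next anchor in the frame of `a + p0`. -/
def NxU (u : List α) (b : ℕ) : Prop := D.PU u b ∧ ∀ t, t < b → ¬ D.PU u t

def EB (u : List α) : Prop := ∃ t, D.C.R (u.drop t) ∧
  D.C.τ ((D.p0 + t) % D.C.c) ≤ D.p0 + t + D.N1 ∧ D.p0 + t ≤ D.C.τ ((D.p0 + t) % D.C.c) + D.N1

def BB (u : List α) : Prop := ∃ b, D.NxU u b ∧ ¬ D.good (b / D.C.c)

def DB (u : List α) : Prop :=
  ∃ k, k ≤ D.m ∧ ∃ s, D.Ak k ≤ s + D.w ∧ s < D.Ak k + D.w ∧ D.Rs (u.drop s)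

def BadU (u : List α) : Prop := D.EB u ∨ D.BB u ∨ D.DB u

def RW1 (s : List α) (b : ℕ) : Prop := s.length = D.D1 ∧ D.PU s b ∧
  (∀ t, t < b → D.C.R (s.drop t) → D.p0 + t + D.N1 < D.C.τ ((D.p0 + t) % D.C.c)) ∧
  (D.Rf (s.take b)).isSome

def Lg1 (σ : V × List α) : Prop := D.p0 ≤ σ.2.length ∧ D.C.c ∣ (σ.2.length - D.p0) ∧
  σ.2.length - D.p0 ≤ D.N1 ∧
  D.Lf (σ.2.drop D.p0) = some (D.act σ.1 (D.φ (σ.2.take D.p0)) + D.nu2 (σ.2.take D.p0))

open Classical in
noncomputable def c1 (s : List α) : V × List α :=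
  if h : ∃ b, D.RW1 s b then
    run (D.C.step D.A) ((D.Rf (s.take h.choose)).getD 0, []) (s.drop h.choose) else (0, [])

noncomputable def A1 : Level α (V × List α) where
  Lg := D.Lg1
  R := {s | ∃ b, D.RW1 s b}
  c := D.c1

def RW2 (s : List α) (x b : ℕ) : Prop := s.length = D.D2 ∧ x ∈ D.K ∧
  D.BadU (s.drop (D.p0 - x)) ∧ (∀ y ∈ D.K, y ≠ x → ¬ D.BadU (s.drop (D.p0 - y))) ∧
  D.NxU (s.drop (D.p0 - x)) b ∧ (D.rho (s.take (D.p0 - x))).isSome

def Lg2 (σ : V × List α) : Prop := σ.2.length ∈ D.K ∧ D.lam σ.2 = some σ.1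

open Classical in
noncomputable def c2 (s : List α) : V × List α :=
  if h : ∃ xb : ℕ × ℕ, D.RW2 s xb.1 xb.2 then
    run (D.C.step D.A)
      (D.act ((D.rho (s.take (D.p0 - h.choose.1))).getD 0)
        (D.φ ((s.drop (D.p0 - h.choose.1)).take h.choose.2)) +
        D.nu1 ((s.drop (D.p0 - h.choose.1)).take h.choose.2), [])
      (s.drop (D.p0 - h.choose.1 + h.choose.2)) else (0, [])

noncomputable def A2 : Level α (V × List α) where
  Lg := D.Lg2
  R := {s | ∃ xb : ℕ × ℕ, D.RW2 s xb.1 xb.2}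
  c := D.c2

def Prom (σ : V × List α) (w : List α) : Prop := D.T (σ.2 ++ w)

def St (σ : V × List α) : Prop := D.C.No σ.2

/-- the hypotheses. -/
structure Hy : Prop where
  hφ : ∀ u v, D.φ (u ++ v) = D.φ u * D.φ v
  cpos : 0 < D.C.c
  ex1 : ∀ P Q v r, D.Lf P = some v → D.Rf Q = some r →
    r = D.act v (D.φ (P ++ Q)) + D.nu1 (P ++ Q)
  comb : ∀ P v, D.Lf P = some v → D.C.c ∣ P.length ∧ P.length ≤ D.N1
  ex2 : ∀ P Q v b, P.length + Q.length = D.p0 → D.lam P = some v → D.rho Q = some b →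
    b = D.act v (D.φ (P ++ Q)) + D.nu2 (P ++ Q)
  com1 : ∀ u, D.T u → D.D3 ≤ u.length → ∀ b, D.NxU u b → D.good (b / D.C.c) → ¬ D.DB u →
    ∀ v, ∃ P Q, P ++ Q = u.take b ∧ D.Lf P = some v ∧ (D.Rf Q).isSome
  Kp : ∀ x ∈ D.K, x ≤ D.p0
  Kn : ∀ x ∈ D.K, D.C.n ≤ x
  z1 : D.p0 + D.N1 < D.C.z1
  τ2 : ∀ t, D.C.τ t ≤ D.z2
  dense : ∀ u, D.T u → D.z2 + D.G + D.C.n ≤ u.length → ∃ t, t < D.G ∧ D.C.R (u.drop (D.z2 + t))
  D1 : D.z2 + D.G + D.C.n ≤ D.D1
  D3a : D.z2 + D.G + D.N1 + D.C.n ≤ D.D3
  D3b : ∀ k, k ≤ D.m → D.Ak k + D.w + D.ns ≤ D.D3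
  D2 : D.p0 + D.D3 + D.N1 + D.D1 ≤ D.D2
  ns : Rule D.Rs D.ns
  Tinf : ∀ u w, w <:+: u → D.T u → D.T w

theorem drop_len {X u : List α} {n b : ℕ} (h : X.length = n) : (X ++ u).drop (n + b) = u.drop b := by
  subst h; exact Gad1_420.drop_app_right

theorem take_len {X u : List α} {n b : ℕ} (h : X.length = n) :
    (X ++ u).take (n + b) = X ++ u.take b := by
  subst h; rw [List.take_length_add_append]

variable {D} (H : D.Hy)
include H

theorem pu_append {u w : List α} {b : ℕ} (h : b + D.C.n ≤ u.length) :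
    D.PU (u ++ w) b ↔ D.PU u b := by
  unfold PU
  rw [D.C.rule.wall_left h]

theorem PU.fit {u : List α} {b : ℕ} (h : D.PU u b) : b + D.C.n ≤ u.length :=
  D.C.rule.wall_fit h.1

theorem PU.ge {u : List α} {b : ℕ} (h : D.PU u b) : D.C.z1 ≤ D.p0 + b :=
  (D.C.z1le _).trans h.2

theorem NxU.unique {u : List α} {t t' : ℕ} (h : D.NxU u t) (h' : D.NxU u t') : t = t' := by
  rcases lt_trichotomy t t' with h1 | h1 | h1
  · exact absurd h.1 (h'.2 t h1)
  · exact h1
  · exact absurd h'.1 (h.2 t' h1)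

theorem NxU.append {u : List α} {b : ℕ} (h : D.NxU u b) (w : List α) : D.NxU (u ++ w) b := by
  have hf := PU.fit H h.1
  refine ⟨(pu_append H hf).2 h.1, fun s hs hp => ?_⟩
  exact h.2 s hs ((pu_append H (by omega)).1 hp)

/-- the next anchor exists on good texts, at a bounded place. -/
theorem exists_nxU {u : List α} (hT : D.T u) (hl : D.z2 + D.G + D.C.n ≤ u.length) :
    ∃ b, D.NxU u b ∧ b < D.z2 + D.G := by
  classical
  obtain ⟨t, h1, h2⟩ := H.dense u hT hl
  have hp : D.PU u (D.z2 + t) := ⟨h2, (H.τ2 _).trans (by omega)⟩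
  have hex : ∃ t, D.PU u t := ⟨_, hp⟩
  refine ⟨Nat.find hex, ⟨Nat.find_spec hex, fun s hs => Nat.find_min hex hs⟩, ?_⟩
  have := Nat.find_min' hex hp
  omega

theorem nxU_iff {u w : List α} (hT : D.T u) (hl : D.z2 + D.G + D.C.n ≤ u.length) (b : ℕ) :
    D.NxU (u ++ w) b ↔ D.NxU u b := by
  constructor
  · intro h
    obtain ⟨b', hb', -⟩ := exists_nxU H hT hl
    rwa [NxU.unique H h (NxU.append H hb' w)]
  · intro h
    exact NxU.append H h w

/-- badness is decided by the first `D3` letters. -/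
theorem bad_append {u w : List α} (hT : D.T u) (hl : D.D3 ≤ u.length) :
    D.BadU (u ++ w) ↔ D.BadU u := by
  have h3 := H.D3a
  have hE : D.EB (u ++ w) ↔ D.EB u := by
    unfold EB
    constructor
    · rintro ⟨t, h1, h2, h4⟩
      have := H.τ2 ((D.p0 + t) % D.C.c)
      exact ⟨t, (D.C.rule.wall_left (by omega)).1 h1, h2, h4⟩
    · rintro ⟨t, h1, h2, h4⟩
      have := H.τ2 ((D.p0 + t) % D.C.c)
      exact ⟨t, (D.C.rule.wall_left (by omega)).2 h1, h2, h4⟩
  have hB : D.BB (u ++ w) ↔ D.BB u := by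
    unfold BB
    constructor
    · rintro ⟨b, h1, h2⟩
      exact ⟨b, (nxU_iff H hT (by omega) b).1 h1, h2⟩
    · rintro ⟨b, h1, h2⟩
      exact ⟨b, (nxU_iff H hT (by omega) b).2 h1, h2⟩
  have hD : D.DB (u ++ w) ↔ D.DB u := by
    unfold DB
    constructor
    · rintro ⟨k, hk, s, h1, h2, h4⟩
      have := H.D3b k hk
      exact ⟨k, hk, s, h1, h2, (H.ns.wall_left (by omega)).1 h4⟩
    · rintro ⟨k, hk, s, h1, h2, h4⟩
      have := H.D3b k hk
      exact ⟨k, hk, s, h1, h2, (H.ns.wall_left (by omega)).2 h4⟩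
  unfold BadU
  rw [hE, hB, hD]

/-- frame change. -/
theorem nx_of_nxU {X u : List α} (hX : X.length = D.p0) {b : ℕ} (h : D.NxU u b) :
    D.C.Nx (X ++ u) (D.p0 + b) := by
  have hz := H.z1
  constructor
  · refine ⟨?_, h.1.2⟩
    have : (X ++ u).drop (D.p0 + b) = u.drop b := by rw [← hX]; exact Gad1_420.drop_app_right
    rw [this]
    exact h.1.1
  · intro s hs hp
    have h1 := hp.ge
    obtain ⟨t, rfl⟩ := Nat.exists_eq_add_of_le (show D.p0 ≤ s by omega)
    refine h.2 t (by omega) ⟨?_, hp.2⟩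
    have : (X ++ u).drop (D.p0 + t) = u.drop t := by rw [← hX]; exact Gad1_420.drop_app_right
    rw [← this]
    exact hp.1

/-- junction lemma of scheme 1. -/
theorem junction {P s : List α} {b : ℕ} (h0 : D.p0 ≤ P.length) (h1 : D.C.c ∣ (P.length - D.p0))
    (h2 : P.length - D.p0 ≤ D.N1) (hs : D.RW1 s b) : D.C.Nx (P ++ s) (P.length + b) := by
  obtain ⟨-, hb, hn, -⟩ := hs
  have hz := H.z1
  have key : ∀ t, (P.length + t) % D.C.c = (D.p0 + t) % D.C.c := by
    intro t
    obtain ⟨k, hk⟩ := h1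
    have : P.length + t = D.p0 + t + D.C.c * k := by omega
    rw [this, Nat.add_mul_mod_self_left]
  constructor
  · refine ⟨?_, ?_⟩
    · rw [Gad1_420.drop_app_right]; exact hb.1
    · rw [key]; exact hb.2.trans (by omega)
  · intro t ht hp
    have h3 := hp.ge
    obtain ⟨t', rfl⟩ := Nat.exists_eq_add_of_le (show P.length ≤ t by omega)
    have h4 := hp.1
    rw [Gad1_420.drop_app_right] at h4
    have h5 := hn t' (by omega) h4
    have h6 := hp.2
    rw [key] at h6
    omega

theorem rw1_unique {s : List α} {b b' : ℕ} (h : D.RW1 s b) (h' : D.RW1 s b') : b = b' := by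
  rcases lt_trichotomy b b' with h1 | h1 | h1
  · have := h'.2.2.1 b h1 h.2.1.1
    have := h.2.1.2
    omega
  · exact h1
  · have := h.2.2.1 b' h1 h'.2.1.1
    have := h'.2.1.2
    omega

theorem c1_eq {s : List α} {b : ℕ} {r : V} (h : D.RW1 s b) (hr : D.Rf (s.take b) = some r) :
    D.c1 s = run (D.C.step D.A) (r, []) (s.drop b) := by
  classical
  have hex : ∃ b, D.RW1 s b := ⟨b, h⟩
  have h1 : hex.choose = b := rw1_unique H hex.choose_spec h
  unfold c1
  rw [dif_pos hex, h1, hr]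
  rfl

theorem c2_eq {s : List α} {x b : ℕ} {r : V} (h : D.RW2 s x b)
    (hr : D.rho (s.take (D.p0 - x)) = some r) :
    D.c2 s = run (D.C.step D.A) (D.act r (D.φ ((s.drop (D.p0 - x)).take b)) +
        D.nu1 ((s.drop (D.p0 - x)).take b), []) (s.drop (D.p0 - x + b)) := by
  classical
  have hex : ∃ xb : ℕ × ℕ, D.RW2 s xb.1 xb.2 := ⟨(x, b), h⟩
  have h1 : hex.choose.1 = x := by
    by_contra hne
    exact h.2.2.2.1 _ hex.choose_spec.2.1 hne hex.choose_spec.2.2.1
  have h2 : hex.choose.2 = b := by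
    have h3 := hex.choose_spec.2.2.2.2.1
    rw [h1] at h3
    exact NxU.unique H h3 h.2.2.2.2.1
  unfold c2
  rw [dif_pos hex, h1, h2, hr]
  rfl

/-- start states are reached states. -/
theorem st_run (v : V) (u : List α) : D.St (run (D.C.step D.A) (v, []) u) :=
  (run_residual v u).1

theorem prom_run {v : V} {u w : List α} (h : D.T (u ++ w)) :
    D.Prom (run (D.C.step D.A) (v, []) u) w := by
  obtain ⟨t, ht⟩ := (run_residual (C := D.C) (A := D.A) v u).2
  refine H.Tinf _ _ ?_ h
  refine ⟨t, [], ?_⟩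
  rw [List.append_nil, ← List.append_assoc, ht]

theorem A_split {v : V} {P s : List α} {b : ℕ} (h0 : D.p0 ≤ P.length) :
    D.A v (P ++ s.take b) = D.act (D.act v (D.φ (P.take D.p0)) + D.nu2 (P.take D.p0))
      (D.φ (P.drop D.p0 ++ s.take b)) + D.nu1 (P.drop D.p0 ++ s.take b) := by
  unfold A
  rw [List.take_append_of_le_length h0, List.drop_append_of_le_length h0]

theorem take_app {P s : List α} {b : ℕ} : (P ++ s).take (P.length + b) = P ++ s.take b := by
  rw [List.take_length_add_append]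

/-- scheme 1: one reset. -/
theorem reset1 {v : V} {P s : List α} (hP : D.C.No P) (hL : D.Lg1 (v, P)) {b : ℕ}
    (hs : D.RW1 s b) : run (D.C.step D.A) (v, P) s = D.c1 s := by
  obtain ⟨h0, h1, h2, h3⟩ := hL
  obtain ⟨r, hr⟩ := Option.isSome_iff_exists.1 hs.2.2.2
  rw [run_law hP, run_some (junction H h0 h1 h2 hs), c1_eq H hs hr, take_app H,
    Gad1_420.drop_app_right, A_split H h0]
  rw [← H.ex1 _ _ _ _ h3 hr]

theorem reach {q : V × List α} (hq : D.St q) (p : List α) :
    D.C.No (run (D.C.step D.A) q p).2 ∧ (run (D.C.step D.A) q p).2 <:+ q.2 ++ p := by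
  obtain ⟨v, r⟩ := q
  have h : D.C.No r := hq
  rw [run_law h]
  exact run_residual v (r ++ p)

theorem ok1 [Finite α] : D.A1.Ok (D.C.step D.A) D.St D.Prom where
  fin := by
    refine (List.finite_length_le α D.D1).subset ?_
    rintro s ⟨b, hb⟩
    exact hb.1.le
  ne := by
    rintro s ⟨b, hb⟩ rfl
    have h1 := H.D1
    have h2 := D.C.rule.pos
    have h3 := hb.1
    simp at h3
    omega
  st := by
    rintro s ⟨b, hb⟩
    obtain ⟨r, hr⟩ := Option.isSome_iff_exists.1 hb.2.2.2
    change D.St (D.c1 s)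
    rw [c1_eq H hb hr]
    exact st_run H _ _
  closed := by
    rintro q hq p s u hpr ⟨b, hb⟩ hL
    obtain ⟨hno, hsuf⟩ := reach H hq p
    obtain ⟨r, hr⟩ := Option.isSome_iff_exists.1 hb.2.2.2
    refine ⟨reset1 H (v := (run (D.C.step D.A) q p).1) (P := (run (D.C.step D.A) q p).2) hno hL hb,
      ?_⟩
    change D.Prom (D.c1 s) u
    rw [c1_eq H hb hr]
    refine prom_run H (H.Tinf _ _ ?_ hpr)
    refine ⟨q.2 ++ p ++ s.take b, [], ?_⟩
    simp only [List.append_nil, List.append_assoc]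
    rw [← List.append_assoc (s.take b), List.take_append_drop]

/-- **a good zone has a cut of scheme 1.** -/
theorem cut1 {v : V} {P s : List α} (hP : P.length ≤ D.p0) (hT : D.T (P ++ s))
    (hl : D.p0 + D.D3 + D.N1 + D.D1 ≤ (P ++ s).length) (hb : ¬ D.BadU ((P ++ s).drop D.p0)) :
    Cut (D.C.step D.A) D.A1 (v, P) s := by
  classical
  set U := P ++ s with hU
  set u := U.drop D.p0 with hu
  have hTu : D.T u := H.Tinf _ _ (List.drop_suffix D.p0 U).isInfix hT
  have hul : u.length = U.length - D.p0 := by rw [hu, List.length_drop]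
  have h3 := H.D3a
  obtain ⟨b, hb1, hb2⟩ := exists_nxU H hTu (by omega)
  have hE : ¬ D.EB u := fun h => hb (Or.inl h)
  have hB : D.good (b / D.C.c) := by
    by_contra h
    exact hb (Or.inr (Or.inl ⟨b, hb1, h⟩))
  have hD : ¬ D.DB u := fun h => hb (Or.inr (Or.inr h))
  obtain ⟨P', Q', e, hL, hR⟩ := H.com1 u hTu (by omega) b hb1 hB hD
    (D.act v (D.φ (U.take D.p0)) + D.nu2 (U.take D.p0))
  obtain ⟨hc1, hc2⟩ := H.comb _ _ hL
  have hz := H.z1
  have hfit := PU.fit H hb1.1
  have hPQ : P'.length + Q'.length = b := by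
    have := congrArg List.length e
    rw [List.length_append, List.length_take] at this
    omega
  -- the cut place
  have hx : D.p0 + P'.length ≤ U.length := by omega
  have hPx : P.length ≤ D.p0 + P'.length := by omega
  have hUx : U.take (D.p0 + P'.length) = P ++ s.take (D.p0 + P'.length - P.length) := by
    have h4 : D.p0 + P'.length = P.length + (D.p0 + P'.length - P.length) := by omega
    rw [hU, h4, List.take_length_add_append]
    congr 2
    omega
  have hst : run (D.C.step D.A) (v, P) (s.take (D.p0 + P'.length - P.length)) =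
      (v, U.take (D.p0 + P'.length)) := by
    rw [run_none, hUx]
    apply Ch.no_of_short
    rw [← hUx, List.length_take]
    omega
  have hd1 : (U.take (D.p0 + P'.length)).drop D.p0 = P' := by
    rw [List.drop_take, ← hu]
    have h5 : D.p0 + P'.length - D.p0 = P'.length := by omega
    rw [h5]
    have h6 : P' = (u.take b).take P'.length := by rw [← e]; simp
    rw [List.take_take, min_eq_left (by omega)] at h6
    exact h6.symm
  have hd2 : (U.take (D.p0 + P'.length)).take D.p0 = U.take D.p0 := by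
    rw [List.take_take, min_eq_left (by omega)]
  have hlen : (U.take (D.p0 + P'.length)).length = D.p0 + P'.length := by
    rw [List.length_take]; omega
  have hsd : s.drop (D.p0 + P'.length - P.length) = u.drop P'.length := by
    rw [hu, List.drop_drop, hU, List.drop_append]
    have : P.drop (D.p0 + P'.length) = [] := List.drop_eq_nil_of_le (by omega)
    rw [this, List.nil_append]
  refine ⟨s.take (D.p0 + P'.length - P.length), (u.drop P'.length).take D.D1,
    (u.drop P'.length).drop D.D1, ?_, ⟨Q'.length, ?_⟩, ?_⟩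
  · rw [List.append_assoc, List.take_append_drop, ← hsd, List.take_append_drop]
  · have hD1 := H.D1
    have hwall : ∀ t, t ≤ Q'.length → (D.C.R (((u.drop P'.length).take D.D1).drop t) ↔
        D.C.R (u.drop (P'.length + t))) := by
      intro t ht
      rw [List.drop_take, D.C.rule.loc, List.take_take, min_eq_left (by omega),
        ← D.C.rule.loc, List.drop_drop]
    have hmod : ∀ t, (D.p0 + (P'.length + t)) % D.C.c = (D.p0 + t) % D.C.c := by
      intro t
      obtain ⟨k, hk⟩ := hc1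
      have : D.p0 + (P'.length + t) = D.p0 + t + D.C.c * k := by omega
      rw [this, Nat.add_mul_mod_self_left]
    have hE' : ∀ t, D.C.R (u.drop t) → D.C.τ ((D.p0 + t) % D.C.c) ≤ D.p0 + t + D.N1 →
        D.C.τ ((D.p0 + t) % D.C.c) + D.N1 < D.p0 + t := by
      intro t h1 h2
      by_contra h4
      exact hE ⟨t, h1, h2, by omega⟩
    refine ⟨?_, ⟨?_, ?_⟩, ?_, ?_⟩
    · rw [List.length_take, List.length_drop]; omega
    · rw [hwall _ le_rfl, hPQ]; exact hb1.1.1
    · have h7 := hE' b hb1.1.1 (hb1.1.2.trans (by omega))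
      rw [← hPQ, hmod] at h7
      omega
    · intro t ht hw
      rw [hwall t ht.le] at hw
      have h8 : ¬ D.PU u (P'.length + t) := hb1.2 _ (by omega)
      by_contra h9
      push Not at h9
      by_cases h10 : D.C.τ ((D.p0 + (P'.length + t)) % D.C.c) ≤ D.p0 + (P'.length + t)
      · exact h8 ⟨hw, h10⟩
      · have h11 := hE' _ hw (by rw [hmod]; omega)
        rw [hmod] at h10 h11
        omega
    · have h12 : ((u.drop P'.length).take D.D1).take Q'.length = Q' := by
        rw [List.take_take, min_eq_left (by omega)]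
        have h13 : Q' = (u.take b).drop P'.length := by rw [← e]; simp
        rw [List.drop_take] at h13
        have h14 : b - P'.length = Q'.length := by omega
        rw [h14] at h13
        exact h13.symm
      rw [h12]; exact hR
  · change D.Lg1 _
    rw [hst]
    refine ⟨?_, ?_, ?_, ?_⟩
    · change D.p0 ≤ (U.take (D.p0 + P'.length)).length
      omega
    · change D.C.c ∣ ((U.take (D.p0 + P'.length)).length - D.p0)
      rw [hlen, Nat.add_sub_cancel_left]; exact hc1
    · change (U.take (D.p0 + P'.length)).length - D.p0 ≤ D.N1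
      omega
    · change D.Lf ((U.take (D.p0 + P'.length)).drop D.p0) = some (D.act v
        (D.φ ((U.take (D.p0 + P'.length)).take D.p0)) + D.nu2 ((U.take (D.p0 + P'.length)).take D.p0))
      rw [hd1, hd2]; exact hL

/-- scheme 2: one reset, under the promise. -/
theorem reset2 {v : V} {P s : List α} (hP : D.C.No P) (hL : D.Lg2 (v, P)) {x b : ℕ}
    (hs : D.RW2 s x b) (hT : D.T (P ++ s)) (hc : ¬ Cut (D.C.step D.A) D.A1 (v, P) s) :
    run (D.C.step D.A) (v, P) s = D.c2 s := by
  classical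
  obtain ⟨hK, hlam⟩ := hL
  change P.length ∈ D.K at hK
  change D.lam P = some v at hlam
  have hPl := H.Kp _ hK
  have hD2 := H.D2
  have hlen := hs.1
  have hdrop : (P ++ s).drop D.p0 = s.drop (D.p0 - P.length) := by
    rw [List.drop_append, List.drop_eq_nil_of_le hPl, List.nil_append]
  have hbad : D.BadU (s.drop (D.p0 - P.length)) := by
    by_contra h
    exact hc (cut1 H hPl hT (by rw [List.length_append]; omega) (by rw [hdrop]; exact h))
  have hx : P.length = x := by
    by_contra hne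
    exact hs.2.2.2.1 _ hK hne hbad
  subst hx
  obtain ⟨r, hr⟩ := Option.isSome_iff_exists.1 hs.2.2.2.2.2
  have hX : (P ++ s.take (D.p0 - P.length)).length = D.p0 := by
    rw [List.length_append, List.length_take]; omega
  have hsplit : P ++ s = (P ++ s.take (D.p0 - P.length)) ++ s.drop (D.p0 - P.length) := by
    rw [List.append_assoc, List.take_append_drop]
  have hnx := nx_of_nxU H hX hs.2.2.2.2.1
  rw [run_law hP, hsplit, run_some hnx, c2_eq H hs hr]
  have e1 : ((P ++ s.take (D.p0 - P.length)) ++ s.drop (D.p0 - P.length)).drop (D.p0 + b) =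
      s.drop (D.p0 - P.length + b) := by
    rw [drop_len hX, List.drop_drop]
  have e2 : ((P ++ s.take (D.p0 - P.length)) ++ s.drop (D.p0 - P.length)).take (D.p0 + b) =
      (P ++ s.take (D.p0 - P.length)) ++ (s.drop (D.p0 - P.length)).take b := by
    rw [take_len hX]
  rw [e1, e2]
  congr 2
  unfold A
  rw [List.take_append_of_le_length hX.ge, List.drop_append_of_le_length hX.ge,
    List.take_of_length_le hX.le, List.drop_eq_nil_of_le hX.le, List.nil_append]
  rw [← H.ex2 P (s.take (D.p0 - P.length)) v r (by rw [← List.length_append]; exact hX) hlam hr]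

/-- level 2 under the promise `no cut of level 1`. -/
theorem ok2 [Finite α] : D.A2.Ok (D.C.step D.A) D.St
    (fun q w => D.Prom q w ∧ ¬ Cut (D.C.step D.A) D.A1 q w) where
  fin := by
    refine (List.finite_length_le α D.D2).subset ?_
    rintro s ⟨b, hb⟩
    exact hb.1.le
  ne := by
    rintro s ⟨b, hb⟩ rfl
    have h1 := H.D1
    have h2 := D.C.rule.pos
    have h3 := hb.1
    have h4 := H.D2
    simp at h3
    omega
  st := by
    rintro s ⟨xb, hb⟩
    obtain ⟨r, hr⟩ := Option.isSome_iff_exists.1 hb.2.2.2.2.2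
    change D.St (D.c2 s)
    rw [c2_eq H hb hr]
    exact st_run H _ _
  closed := by
    rintro q hq p s u ⟨hpr, hnc⟩ ⟨xb, hb⟩ hL
    obtain ⟨hno, hsuf⟩ := reach H hq p
    obtain ⟨r, hr⟩ := Option.isSome_iff_exists.1 hb.2.2.2.2.2
    have hT1 : D.T ((run (D.C.step D.A) q p).2 ++ s) := by
      refine H.Tinf _ _ ?_ hpr
      obtain ⟨t, ht⟩ := hsuf
      refine ⟨t, u, ?_⟩
      rw [← List.append_assoc, ht]
      simp
    have hc1 : ¬ Cut (D.C.step D.A) D.A1 ((run (D.C.step D.A) q p).1,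
        (run (D.C.step D.A) q p).2) s := by
      intro h
      exact hnc ((Cut.prepend h).append)
    have hres : run (D.C.step D.A) (run (D.C.step D.A) q p) s = D.c2 s :=
      reset2 H (v := (run (D.C.step D.A) q p).1) (P := (run (D.C.step D.A) q p).2) hno hL hb
        hT1 hc1
    refine ⟨hres, ?_, ?_⟩
    · change D.Prom (D.c2 s) u
      rw [c2_eq H hb hr]
      refine prom_run H (H.Tinf _ _ ?_ hpr)
      refine ⟨q.2 ++ p ++ s.take (D.p0 - xb.1 + xb.2), [], ?_⟩
      simp only [List.append_nil, List.append_assoc]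
      rw [← List.append_assoc (s.take _), List.take_append_drop]
    · intro h
      change Cut (D.C.step D.A) D.A1 (D.c2 s) u at h
      rw [← hres, ← run_append] at h
      exact hnc (Cut.prepend h)

end Dt

end Crest.Agent.R320.Half853
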