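import Mathlib
import Crest.Agent.R320.Gad1_420
import Crest.Agent.R320.Names_570
import Crest.Agent.R320.RandF_808

/-!
Row 320, helper841: instance of 420's `gadget1` data: names of 570 (colour = left value and end
value) and noise of 808.
-/

set_option autoImplicit false

namespace Crest.Agent.R320.Inst_841

open Crest.Agent.R320.Gad1_420

/-- `bb` written out -/
def bbf {S V W : Type} [Monoid S] [AddCommGroup V] [AddCommGroup W] (act : V → S → V)
    (e : ℕ → S → W) (F : S → W → V) {m : ℕ} (c : Fin m × S × W × S × W × V) : V :=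
  F (c.2.1 * 1 * c.2.2.2.1) (c.2.2.1 + e c.1 1 + c.2.2.2.2.1) +
    act c.2.2.2.2.2 (c.2.1 * 1 * c.2.2.2.1)

theorem inst (S V : Type) [Monoid S] [Finite S] [AddCommGroup V] [Finite V] (act : V → S → V) :
    ∃ (m N : ℕ) (e : ℕ → S → ZMod N × ZMod N) (F : S → ZMod N × ZMod N → V) (r : ℕ),
      0 < N ∧ 0 < m ∧
      (∀ s w v, ∃ i < m, ∀ g x h, g * x * h = s → ∀ z,
        F (g * z * h) (w - e i x + e i z) + act v (g * z * h) = F s w + act v s) ∧
      ∀ B : ℕ, ∃ (Ms : Finset ℕ) (M : ℕ)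
        (LN RN : ℕ → Fin m × S × (ZMod N × ZMod N) × S × (ZMod N × ZMod N) × V → Prop),
        Ms.card ≤ r ∧ (∀ k ∈ Ms, k.Prime ∧ B < k) ∧ M = ∏ k ∈ Ms, k ∧ 0 < M ∧
        ∀ (α : Type) (φ : List α → S) (R : List α → Prop) (n G M' : ℕ) (A A' : ℕ → ℕ),
          Names (⟨φ, act, m, e, F, R, n, G, M, M', A, A', LN, RN⟩ : Dat α S V (ZMod N × ZMod N))
            (fun T => ∀ k ∈ Ms, ¬ k ∣ T) := by
  classical
  haveI := Fintype.ofFinite S
  haveI := Fintype.ofFinite V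
  obtain ⟨m, N, e, F, hN, hF⟩ := RandF808.exists_noise S V act
  haveI : NeZero N := ⟨hN.ne'⟩
  have hm : 0 < m := by
    obtain ⟨i, hi, -⟩ := hF 1 0 0
    exact lt_of_le_of_lt (Nat.zero_le _) hi
  obtain ⟨r, hr⟩ := Names_570.exists_names
    (N := Fin m × S × (ZMod N × ZMod N) × S × (ZMod N × ZMod N) × V) (C := V × V)
    (fun c => (c.2.2.2.2.2, bbf act e F c))
  refine ⟨m, N, e, F, r, hN, hm, hF, fun B => ?_⟩
  obtain ⟨Ms, nmL, nmR, h1, h2, -, -, h5, h6, h7⟩ := hr B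
  have hM : 0 < ∏ k ∈ Ms, k := Finset.prod_pos fun k hk => (h2 k hk).1.pos
  refine ⟨Ms, ∏ k ∈ Ms, k, fun o c => nmL o = some c, fun o c => nmR o = some c, h1, h2, rfl, hM,
    ?_⟩
  intro α φ R n G M' A A'
  refine ⟨?_, ?_, ?_⟩
  · intro T hT o o' c c' ho hl hr'
    exact h5 o o' c c' (by rw [ho]; exact hT) hl hr'
  · intro T hT c s hs
    obtain ⟨t, a1, a2, a3, a4, a5⟩ := h6 T c s hT (le_trans hs (Nat.le_succ T))
    exact ⟨t, a1, a2, a4, a5⟩
  · intro T hT
    push Not at hT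
    by_cases hex : ∃ o o' c c', o + o' = T ∧ nmL o = some c ∧ nmR o' = some c'
    · obtain ⟨o, o', c, c', ho, hc, hc'⟩ := hex
      refine ⟨c.2.2.2.2.2, bbf act e F c', ?_⟩
      intro p p' d d' hp hd hd'
      rcases h7 o o' p p' c c' d d' (by rw [ho, hp]) (by rw [ho]; exact hT) hc hc' hd hd' with
        ⟨e1, e2⟩ | ⟨e1, e2, e3⟩
      · subst e1 e2
        exact ⟨rfl, rfl⟩
      · subst e1 e2
        have e4 := Prod.mk.inj e3
        exact ⟨e4.1.symm, e4.2⟩
    · push Not at hex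
      refine ⟨0, 0, ?_⟩
      intro p p' d d' hp hd hd'
      exact absurd hd' (hex p p' d d' hp hd)

end Crest.Agent.R320.Inst_841
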