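import Mathlib
import Crest.Agent.R320.HalfB_794
import Crest.Agent.R320.Inst_841
import Crest.Agent.R320.ExactR_237
import Crest.Agent.R320.Ruler_265

/-! Row 320, HALF 1: run-free words (exponent form) have generalized star height 2. -/

set_option autoImplicit false
set_option linter.unusedSectionVars false

namespace Crest.Agent.R320.HalfC_794

open Crest.Agent.R320 Crest.Agent.R320.Wall_291 Crest.Agent.R320.Hgt1_903 Crest.RegLang

/-- walls with a positive window -/
theorem walls (α : Type) [Finite α] (e W : ℕ) :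
    ∃ (n G : ℕ) (R : List α → Prop), 0 < n ∧
      (∀ Q, R Q ↔ R (Q.take n)) ∧ (∀ Q, R Q → n ≤ Q.length) ∧
      (∀ Q d, R Q → 0 < d → d ≤ W → ¬ R (Q.drop d)) ∧
      (∀ Q, RF e W Q → G + n ≤ Q.length → ∃ i < G, R (Q.drop i)) := by
  obtain ⟨n, G, R, h1, h2, h3, h4⟩ := Wall_291.exists_walls α e W
  refine ⟨n + 1, G, fun Q => R Q ∧ n + 1 ≤ Q.length, by omega, ?_, ?_, ?_, ?_⟩
  · intro Q
    have e1 : R (Q.take (n + 1)) ↔ R Q := by
      rw [h1 (Q.take (n+1)), h1 Q, List.take_take, min_eq_left (by omega)]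
    constructor
    · rintro ⟨a, b⟩
      exact ⟨e1.2 a, by rw [List.length_take]; omega⟩
    · rintro ⟨a, b⟩
      rw [List.length_take] at b
      exact ⟨e1.1 a, by omega⟩
  · rintro Q ⟨-, h⟩; exact h
  · rintro Q d ⟨h, -⟩ hd hd' ⟨h', -⟩; exact h3 Q d h hd hd' h'
  · intro Q hQ hl
    obtain ⟨i, hi, h⟩ := h4 Q hQ (by omega)
    exact ⟨i, hi, h, by rw [List.length_drop]; omega⟩

/-- the data exist -/
theorem exists_hyp (α S V : Type) [Finite α] [Monoid S] [Finite S] [AddCommGroup V] [Finite V]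
    (f : α → S) (act : V → S → V) (e : ℕ) :
    ∃ (b : ℕ) (D : HalfA_794.Dat α S V), HalfA_794.Hyp D ∧
      D.phi = (fun u => (u.map f).prod) ∧ D.act = act ∧ D.Gd = RF e b := by
  classical
  have := Fintype.ofFinite S
  have := Fintype.ofFinite V
  obtain ⟨m, N, ew, F, r, hN, hm, hF, hnames⟩ := Inst_841.inst S V act
  obtain ⟨K, hK⟩ := ExactR_237.exact_gadget α S V f act (1 + (m + 1) + 2 * r + 1)
  obtain ⟨Ms, M, LN, RN, hMr, hMp, hMdef, hMpos, hNames⟩ := hnames (2 ^ (K + 2) + 1)
  set M' : ℕ := 2 ^ (K + 1) with hM'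
  have hM'pos : 0 < M' := by positivity
  obtain ⟨cR, cmono, cres, -, cE, cB, cD, -⟩ := Ruler265.exists_ruler K (M' : ℤ)
    ((M' * M : ℕ) : ℤ) (by rw [hM']; push_cast; exact le_refl _) (by positivity)
    (Ms.image (fun q : ℕ => (q : ℤ))) (by
      intro q hq
      obtain ⟨q', hq', rfl⟩ := Finset.mem_image.1 hq
      have := (hMp q' hq').2
      exact_mod_cast (by omega : 2 ^ (K + 2) + 1 ≤ q'))
  have hres0 : (0 : ℤ) ≤ ((M' * M : ℕ) : ℤ) := by positivity
  let cn : ℕ → ℕ := fun k => if h : k < K then (cR ⟨k, h⟩).toNat else 0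
  have hcn : ∀ k (h : k < K), ((cn k : ℕ) : ℤ) = cR ⟨k, h⟩ := by
    intro k h
    have h1 : cn k = (cR ⟨k, h⟩).toNat := dif_pos h
    rw [h1]
    have := cres ⟨k, h⟩
    omega
  let Lam : ℕ := ∑ k ∈ Finset.range K, cn k
  have hLam : ∀ k < K, cn k ≤ Lam := fun k hk =>
    Finset.single_le_sum (f := cn) (fun _ _ => Nat.zero_le _) (Finset.mem_range.2 hk)
  -- small walls
  obtain ⟨ns, Gs, Rs, hs1, hs2, hs3, hs4, hs5⟩ := walls α e (2 * (M' * M) + 2 * Lam)
  let phi : List α → S := fun u => (u.map f).prod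
  -- the outer constants do not depend on the outer walls
  let C0 : HalfB_794.Raw α S V (ZMod N × ZMod N) :=
    { phi := phi, act := act, Gd := fun _ => True, m := m, ew := ew, F := F, LN := LN, RN := RN
      M := M, Ms := Ms, r := r, K := K, cn := cn, Lam := Lam, M' := M', Rs := Rs, ns := ns
      Gs := Gs, Ro := fun _ => False, no := 0, Go := 0, lam := fun _ _ => none
      rho := fun _ _ => none, nu2 := fun _ => 0 }
  obtain ⟨no, Go, Ro, ho1, ho2, ho3, ho4, ho5⟩ := walls α e C0.Wo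
  obtain ⟨lam, rho, nu, hsound, hcomp⟩ := hK (fun k => no + cn k) (by
    intro i j hij hj
    have h1 := cmono (a := ⟨i, by omega⟩) (b := ⟨j, hj⟩) hij
    rw [← hcn i (by omega), ← hcn j hj] at h1
    have h2 : cn i < cn j := by exact_mod_cast h1
    change no + cn i < no + cn j
    omega)
  set b : ℕ := max (2 * (M' * M) + 2 * Lam) C0.Wo with hb
  let C : HalfB_794.Raw α S V (ZMod N × ZMod N) :=
    { phi := phi, act := act, Gd := RF e b, m := m, ew := ew, F := F, LN := LN, RN := RN
      M := M, Ms := Ms, r := r, K := K, cn := cn, Lam := Lam, M' := M', Rs := Rs, ns := ns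
      Gs := Gs, Ro := Ro, no := no, Go := Go, lam := lam
      rho := fun k Q => rho k Q 1, nu2 := fun X => nu X 1 }
  have hC : HalfB_794.RH C :=
    { hphi := by
        intro u v
        change ((u ++ v).map f).prod = (u.map f).prod * (v.map f).prod
        rw [List.map_append, List.prod_append]
      Gd_infix := fun Q Q' h h' => h.infix h'
      M'pos := hM'pos
      opos := ho1
      otake := ho2
      olen := ho3
      osep := ho4
      odense := fun Q hQ => ho5 Q (hQ.mono (le_max_right _ _))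
      spos := hs1
      stake := hs2
      slen := hs3
      ssep := hs4
      sdense := fun Q hQ => hs5 Q (hQ.mono (le_max_left _ _))
      names := hNames α phi Rs ns Gs M' C.A C.A'
      hF := hF
      cn_le := hLam
      rE := by
        intro i hi j hj i' hi' j' hj' hij hd
        change (M' : ℤ) ∣ ((cn i : ℤ) - cn j) - ((cn i' : ℤ) - cn j') at hd
        rw [hcn i hi, hcn j hj, hcn i' hi', hcn j' hj'] at hd
        obtain ⟨h1, h2⟩ := cE ⟨i, hi⟩ ⟨j, hj⟩ ⟨i', hi'⟩ ⟨j', hj'⟩
          (fun hh => hij (Fin.mk.inj hh)) hd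
        exact ⟨Fin.mk.inj h1, Fin.mk.inj h2⟩
      rB := by
        intro q hq y i hi j hj i' hi' j' hj' hij hd hd'
        change (y - ((cn i : ℤ) - cn j)) % ((q : ℤ) * M') < M' at hd
        change (y - ((cn i' : ℤ) - cn j')) % ((q : ℤ) * M') < M' at hd'
        rw [hcn i hi, hcn j hj] at hd
        rw [hcn i' hi', hcn j' hj'] at hd'
        obtain ⟨h1, h2⟩ := cB (q : ℤ) (Finset.mem_image_of_mem _ hq) y ⟨i, hi⟩ ⟨j, hj⟩
          ⟨i', hi'⟩ ⟨j', hj'⟩ (fun hh => hij (Fin.mk.inj hh)) hd hd'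
        exact ⟨Fin.mk.inj h1, Fin.mk.inj h2⟩
      rD := by
        intro y i hi j hj i' hi' j' hj' hij hd hd'
        change |y - ((cn i : ℤ) - cn j)| ≤ ((M' * M : ℕ) : ℤ) at hd
        change |y - ((cn i' : ℤ) - cn j')| ≤ ((M' * M : ℕ) : ℤ) at hd'
        rw [hcn i hi, hcn j hj] at hd
        rw [hcn i' hi', hcn j' hj'] at hd'
        obtain ⟨h1, h2⟩ := cD y ⟨i, hi⟩ ⟨j, hj⟩ ⟨i', hi'⟩ ⟨j', hj'⟩
          (fun hh => hij (Fin.mk.inj hh)) hd hd'
        exact ⟨Fin.mk.inj h1, Fin.mk.inj h2⟩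
      Msr := hMr
      sound2 := by
        intro k hk P Q v y hP h1 h2
        have := hsound k hk P Q 1 v y hP h1 h2
        rw [mul_one] at this
        exact this
      comp2 := by
        intro X v hX
        have hp0 : C.p0 = no + Lam + 1 := rfl
        obtain ⟨I, hI1, hI2⟩ := hcomp X 1 v (by
          intro k hk
          have := hLam k hk
          change no + cn k ≤ X.length
          omega)
        exact ⟨I, hI1, hI2⟩ }
  obtain ⟨nu1, hH⟩ := hC.hyp
  exact ⟨b, C.pre nu1 C.Bad, hH, rfl, rfl, rfl⟩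

/-- run-free words: height 0 -/
theorem H_RF (α : Type) [Finite α] (n e b : ℕ) : H n ({w | RF e b w} : Language α) := by
  classical
  have hfin : {x : List α | x ≠ [] ∧ x.length ≤ b}.Finite :=
    (List.finite_length_le α b).subset fun x hx => hx.2
  have hM : H n ({v | ∃ x : List α, (x ≠ [] ∧ x.length ≤ b) ∧ (List.replicate e x).flatten = v} :
      Language α) := by
    apply H.finite
    exact hfin.image (fun x => (List.replicate e x).flatten)
  refine H.congr (H.noFactor hM) fun w => ?_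
  constructor
  · rintro h x hx hl ⟨u, t, ht⟩
    exact h u _ t ht ⟨x, ⟨hx, hl⟩, rfl⟩
  · rintro h u v t ht ⟨x, ⟨hx, hl⟩, rfl⟩
    exact h x hx hl ⟨u, t, ht⟩

/-- **HALF 1.** -/
theorem half1 (α : Type) [Finite α] (S : Type) [Monoid S] [Finite S] (f : α → S) (e : ℕ) :
    ∃ b : ℕ, ∀ s : S, H 2 ({w | RF e b w ∧ (w.map f).prod = s} : Language α) := by
  classical
  let act : (S → ZMod 2) → S → (S → ZMod 2) := fun v s t => v (s * t)
  obtain ⟨b, D, hD, hphi, hact, hGd⟩ := exists_hyp α S (S → ZMod 2) f act e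
  refine ⟨b, fun s => ?_⟩
  have hn : D.nxt ([] : List α) = none := hD.nxt_none (by simp)
  have act_one : ∀ v, D.act v 1 = v := by
    intro v; rw [hact]; funext t; change v (1 * t) = v t; rw [one_mul]
  have act_mul : ∀ v s t, D.act v (s * t) = D.act (D.act v s) t := by
    intro v s t; rw [hact]; funext x; change v (s * t * x) = v (s * (t * x)); rw [mul_assoc]
  have act_add : ∀ u v s, D.act (u + v) s = D.act u s + D.act v s := by
    intro u v s; rw [hact]; rfl
  have act_zero : ∀ s, D.act 0 s = 0 := by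
    intro s; rw [hact]; rfl
  have phi_nil : D.phi [] = 1 := by rw [hphi]; rfl
  have phi_app : ∀ X Y, D.phi (X ++ Y) = D.phi X * D.phi Y := by
    intro X Y; rw [hphi]
    change ((X ++ Y).map f).prod = (X.map f).prod * (Y.map f).prod
    rw [List.map_append, List.prod_append]
  have faithful : ∀ g g' : S, (∀ v, D.act v g = D.act v g') → g = g' := by
    intro g g' h
    have h1 := congrFun (h (Pi.single g 1)) 1
    rw [hact] at h1
    change (Pi.single g (1 : ZMod 2) : S → ZMod 2) (g * 1) =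
      (Pi.single g (1 : ZMod 2) : S → ZMod 2) (g' * 1) at h1
    rw [mul_one, mul_one, Pi.single_eq_same] at h1
    by_contra hne
    rw [Pi.single_eq_of_ne (Ne.symm hne)] at h1
    exact one_ne_zero h1
  let nu : List α → (S → ZMod 2) := fun X =>
    match D.nz (X.drop D.p0) with
    | some b' => D.act (D.nu2 (X.take D.p0)) (D.phi ((X.drop D.p0).take b')) +
        D.nu1 ((X.drop D.p0).take b')
    | none => 0
  have hst : ∀ X b, hD.Z.nxt X = some b → ∀ v,
      hD.Z.stp v X = D.act v (D.phi (X.take b)) + nu X := by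
    intro X b h v
    obtain ⟨h1, b', h2, rfl⟩ := HalfA_794.Dat.nxt_some.1 h
    change D.stp v X = _
    rw [HalfA_794.Dat.stp_some h2]
    have h3 : nu X = D.act (D.nu2 (X.take D.p0)) (D.phi ((X.drop D.p0).take b')) +
        D.nu1 ((X.drop D.p0).take b') := by
      change (match D.nz (X.drop D.p0) with
        | some b' => D.act (D.nu2 (X.take D.p0)) (D.phi ((X.drop D.p0).take b')) +
            D.nu1 ((X.drop D.p0).take b')
        | none => 0) = _
      rw [h2]
    rw [h3, List.take_add, phi_app, act_mul]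
    unfold HalfA_794.Dat.zm HalfA_794.Dat.yy
    rw [act_add]
    abel
  have hE : ∀ (v y : S → ZMod 2) (h : S), ∃ E : Language α, H 2 E ∧ ∀ w, D.Gd w →
      (w ∈ E ↔ (D.phi (Zone_716.run hD.Z v w).1 = h ∧ (Zone_716.run hD.Z v w).2 = y)) :=
    fun v y h => hD.height_two v hn (fun q => D.phi q.1 = h ∧ q.2 = y)
  choose E hE1 hE2 using hE
  let ι := {p : ((S → ZMod 2) → (S → ZMod 2)) × S //
    ∃ g, g * p.2 = s ∧ ∀ v, p.1 v - p.1 0 = D.act v g}
  have : Finite ι := Subtype.finite
  refine H.congr (H.inter (H_RF α 2 e b) (H.exists_fintype (ι := ι)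
    (fun i => ({w | ∀ v : S → ZMod 2, w ∈ E v (i.1.1 v) i.1.2} : Language α))
    fun i => H.forall_fintype _ fun v => hE1 v (i.1.1 v) i.1.2)) fun w => ?_
  change (RF e b w ∧ ∃ i : ι, ∀ v : S → ZMod 2, w ∈ E v (i.1.1 v) i.1.2) ↔
    (RF e b w ∧ (w.map f).prod = s)
  refine and_congr_right fun hw => ?_
  have hG : D.Gd w := by rw [hGd]; exact hw
  obtain ⟨k, g0, hk, hrun⟩ := Zone_716.run_affine hD.Z D.phi phi_nil phi_app D.act act_one
    act_mul act_add nu hst w.length w le_rfl
  have hprod : (w.map f).prod = D.phi (w.take k) * D.phi (w.drop k) := by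
    rw [← phi_app, List.take_append_drop, hphi]
  constructor
  · rintro ⟨⟨⟨p, h⟩, g, hg1, hg2⟩, hi⟩
    simp only at hg1 hg2 hi
    have h1 : ∀ v, D.phi (w.drop k) = h ∧ D.act v (D.phi (w.take k)) + g0 = p v := by
      intro v
      have := (hE2 v (p v) h w hG).1 (hi v)
      rw [hrun v] at this
      exact this
    have h2 : D.phi (w.take k) = g := by
      apply faithful
      intro v
      rw [← hg2 v, ← (h1 v).2, ← (h1 0).2, act_zero]
      abel
    rw [hprod, h2, (h1 0).1, hg1]
  · intro hs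
    refine ⟨⟨(fun v => D.act v (D.phi (w.take k)) + g0, D.phi (w.drop k)), D.phi (w.take k),
      by rw [← hprod, hs], fun v => ?_⟩, fun v => ?_⟩
    · change D.act v (D.phi (w.take k)) + g0 - (D.act 0 (D.phi (w.take k)) + g0) = _
      rw [act_zero]
      abel
    · refine (hE2 v _ _ w hG).2 ?_
      rw [hrun v]
      exact ⟨rfl, rfl⟩

end Crest.Agent.R320.HalfC_794
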