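import Crest.Agent.R320.HalfB_853

/-! Row 320, helper853: HALF 1, part C: completeness and the height bound. -/

set_option autoImplicit false
set_option linter.unusedSectionVars false

namespace Crest.Agent.R320.Half853

open Crest.RegLang Crest.Agent.R320.Hgt1_903
open Crest.Agent.R320.Gad1_420 (Rule)
open Crest.Agent.R320.Nest_85 (run run_nil run_append Level Cut)

variable {α S V : Type*} [Monoid S] [AddCommGroup V] {D : Dt α S V}

namespace Dt

/-- a detection leaves a residual of length `n`. -/
theorem detect_state {v : V} {r w : List α} (h0 : D.C.No r) (h : ∃ t, D.C.Nx (r ++ w) t) :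
    ∃ w1 w2 v1 r1, w = w1 ++ w2 ∧ run (D.C.step D.A) (v, r) w1 = (v1, r1) ∧
      r1.length = D.C.n ∧ (∀ k, (∃ t, D.C.Nx (r ++ w.take k) t) → w1.length ≤ k) ∧
      r1 <:+ r ++ w1 := by
  classical
  have hex : ∃ k, ∃ t, D.C.Nx (r ++ w.take k) t := ⟨w.length, by simpa using h⟩
  obtain ⟨t, ht⟩ := Nat.find_spec hex
  set k := Nat.find hex with hk
  have hkw : k ≤ w.length := Nat.find_min' hex (by simpa using h)
  have hk0 : 0 < k := by
    rcases Nat.eq_zero_or_pos k with h1 | h1
    · rw [h1] at ht
      exact absurd (by simpa using ht) (h0 t)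
    · exact h1
  obtain ⟨x, hx⟩ : ∃ x, w.take k = w.take (k - 1) ++ [x] := by
    have h1 : k - 1 < w.length := by omega
    refine ⟨w[k - 1], ?_⟩
    rw [List.take_append_getElem h1]
    congr 1
    omega
  have hno : D.C.No (r ++ w.take (k - 1)) := by
    intro s hs
    exact Nat.find_min hex (m := k - 1) (by omega) ⟨s, hs⟩
  have ht' : D.C.Nx (r ++ w.take (k - 1) ++ [x]) t := by
    rw [List.append_assoc, ← hx]; exact ht
  have hd := Ch.detect hno ht'
  refine ⟨w.take k, w.drop k, D.A v ((r ++ w.take (k - 1) ++ [x]).take t),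
    (r ++ w.take (k - 1) ++ [x]).drop t, (List.take_append_drop k w).symm, ?_, ?_, ?_, ?_⟩
  · rw [hx, run_append, run_none hno]
    exact step_some ht'
  · rw [List.length_drop, List.length_append, List.length_singleton]
    omega
  · intro j hj
    rw [List.length_take]
    exact (min_le_left _ _).trans (Nat.find_min' hex hj)
  · rw [hx, ← List.append_assoc]
    exact List.drop_suffix _ _

/-- hypotheses for completeness. -/
structure Hz (D : Dt α S V) : Prop extends D.Hy where
  ncop : ∃ nc : ℕ,
    (∀ (X : List α) (v : V), X.length = D.p0 → ∃ J : Finset ℕ, J ⊆ D.K ∧ nc ≤ J.card ∧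
      ∀ x ∈ J, D.lam (X.take x) = some v ∧ (D.rho (X.drop x)).isSome) ∧
    (∀ U, D.T U → D.p0 + D.p0 + D.D3 ≤ U.length → ∀ J : Finset ℕ, J ⊆ D.K → nc ≤ J.card →
      ∃ x ∈ J, ∀ y ∈ D.K, y ≠ x → ¬ D.BadU (U.drop (x + (D.p0 - y))))
  np0 : D.C.n ≤ D.p0
  act0 : ∀ v w s, D.act (v + w) s = D.act v s + D.act w s
  actm : ∀ v s t, D.act (D.act v s) t = D.act v (s * t)
  act1 : ∀ v, D.act v 1 = v
  φ1 : D.φ [] = 1

variable (Hh : Hz D)
include Hh

theorem bad_take {u : List α} (hT : D.T u) {k : ℕ} (hk : D.D3 ≤ k) (hl : D.D3 ≤ u.length) :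
    D.BadU (u.take k) ↔ D.BadU u := by
  have h1 : D.T (u.take k) := Hh.Tinf _ _ (List.take_prefix k u).isInfix hT
  conv_rhs => rw [← List.take_append_drop k u]
  rw [bad_append Hh.toHy h1]
  rw [List.length_take]; omega

theorem cut2 {v : V} {r w : List α} (hr : r.length = D.C.n) (hT : D.T (r ++ w))
    (hl : D.p0 + D.D2 + D.p0 ≤ (r ++ w).length)
    (hb : D.BadU ((r ++ w).drop D.p0)) :
    Cut (D.C.step D.A) D.A2 (v, r) w := by
  classical
  obtain ⟨nc, hc, hsp⟩ := Hh.ncop
  set U := r ++ w with hU
  have hD2 := Hh.D2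
  have hX : (U.take D.p0).length = D.p0 := by rw [List.length_take]; omega
  obtain ⟨J, hJ, hJc, hJ2⟩ := hc (U.take D.p0) v hX
  obtain ⟨x, hxJ, hx⟩ := hsp U hT (by omega) J hJ hJc
  have hxK := hJ hxJ
  have hxp := Hh.Kp x hxK
  have hxn := Hh.Kn x hxK
  obtain ⟨hl1, hl2⟩ := hJ2 x hxJ
  rw [List.take_take, min_eq_left hxp] at hl1
  have hz := Hh.z1
  have hUx : U.take x = r ++ w.take (x - r.length) := by
    have h4 : x = r.length + (x - r.length) := by omega
    conv_lhs => rw [h4]
    rw [hU, List.take_length_add_append]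
  have hst : run (D.C.step D.A) (v, r) (w.take (x - r.length)) = (v, U.take x) := by
    rw [run_none, hUx]
    apply Ch.no_of_short
    rw [← hUx, List.length_take]
    omega
  have hwd : w.drop (x - r.length) = U.drop x := by
    rw [hU, List.drop_append]
    have : r.drop x = [] := List.drop_eq_nil_of_le (by omega)
    rw [this, List.nil_append]
  have hTd : ∀ j, D.T (U.drop j) := fun j => Hh.Tinf _ _ (List.drop_suffix j U).isInfix hT
  obtain ⟨b, hb1, hb2⟩ := exists_nxU Hh.toHy (hTd D.p0) (by
    have := Hh.D3a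
    rw [List.length_drop]; omega)
  have hD3 := Hh.D3a
  have hsd : ∀ j, ((U.drop x).take D.D2).drop j = (U.drop (x + j)).take (D.D2 - j) := by
    intro j
    rw [List.drop_take, List.drop_drop]
  refine ⟨w.take (x - r.length), (U.drop x).take D.D2, (U.drop x).drop D.D2, ?_, ⟨(x, b), ?_⟩, ?_⟩
  · rw [List.append_assoc, List.take_append_drop, ← hwd, List.take_append_drop]
  · have hxx : x + (D.p0 - x) = D.p0 := by omega
    refine ⟨?_, hxK, ?_, ?_, ?_, ?_⟩
    · rw [List.length_take, List.length_drop]; omega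
    · change D.BadU (((U.drop x).take D.D2).drop (D.p0 - x))
      rw [hsd, hxx, bad_take Hh (hTd _) (by omega) (by rw [List.length_drop]; omega)]
      exact hb
    · intro y hy hyx
      change ¬ D.BadU (((U.drop x).take D.D2).drop (D.p0 - y))
      have hyp := Hh.Kp y hy
      rw [hsd, bad_take Hh (hTd _) (by omega) (by rw [List.length_drop]; omega)]
      exact hx y hy hyx
    · change D.NxU (((U.drop x).take D.D2).drop (D.p0 - x)) b
      rw [hsd, hxx]
      have h1 : D.T ((U.drop D.p0).take (D.D2 - (D.p0 - x))) :=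
        Hh.Tinf _ _ (List.take_prefix _ _).isInfix (hTd _)
      have h2 := nxU_iff Hh.toHy (w := (U.drop D.p0).drop (D.D2 - (D.p0 - x))) h1
        (by rw [List.length_take, List.length_drop]; omega) b
      rw [List.take_append_drop] at h2
      exact h2.1 hb1
    · change (D.rho (((U.drop x).take D.D2).take (D.p0 - x))).isSome
      rw [List.take_take, min_eq_left (by omega)]
      have h3 : (U.drop x).take (D.p0 - x) = (U.take D.p0).drop x := by rw [List.drop_take]
      rw [h3]; exact hl2
  · change D.Lg2 _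
    rw [hst]
    refine ⟨?_, ?_⟩
    · change (U.take x).length ∈ D.K
      rw [List.length_take, min_eq_left (by omega)]; exact hxK
    · exact hl1

/-- long promised words are cut at one of the two levels. -/
theorem long_cut {q : V × List α} (hq : D.St q) {w : List α} (hp : D.Prom q w)
    (hl : (D.p0 + D.z2 + D.G + D.C.n) + (D.p0 + D.D2 + D.p0) ≤ w.length)
    (h1 : ¬ Cut (D.C.step D.A) D.A1 q w) (h2 : ¬ Cut (D.C.step D.A) D.A2 q w) : False := by
  classical
  obtain ⟨v, r⟩ := q
  have hno : D.C.No r := hq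
  have hT : D.T (r ++ w) := hp
  -- an anchor is visible in the first `p0 + z2 + G + n` letters of `w`
  set L0 := D.p0 + D.z2 + D.G + D.C.n with hL0
  have hT1 : D.T (r ++ w.take L0) := by
    refine Hh.Tinf _ _ ⟨[], w.drop L0, ?_⟩ hT
    rw [List.nil_append, List.append_assoc, List.take_append_drop]
  have hlen1 : L0 ≤ (r ++ w.take L0).length := by
    rw [List.length_append, List.length_take]; omega
  obtain ⟨b, hb1, -⟩ := exists_nxU Hh.toHy (u := (r ++ w.take L0).drop D.p0)
    (Hh.Tinf _ _ (List.drop_suffix _ _).isInfix hT1) (by rw [List.length_drop]; omega)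
  have hnx := nx_of_nxU Hh.toHy (X := (r ++ w.take L0).take D.p0)
    (by rw [List.length_take]; omega) hb1
  rw [List.take_append_drop] at hnx
  have hnx' : ∃ t, D.C.Nx (r ++ w) t := by
    refine ⟨D.p0 + b, ?_⟩
    have h4 := hnx.append (w.drop L0)
    rw [List.append_assoc, List.take_append_drop] at h4
    exact h4
  obtain ⟨w1, w2, v1, r1, e, hrun, hr1, hmin, hsuf⟩ := detect_state (v := v) hno hnx'
  have hw1 : w1.length ≤ L0 := hmin L0 ⟨_, hnx⟩
  have hw : w.length = w1.length + w2.length := by rw [e, List.length_append]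
  have hT2 : D.T (r1 ++ w2) := by
    obtain ⟨t, ht⟩ := hsuf
    refine Hh.Tinf _ _ ⟨t, [], ?_⟩ hT
    rw [List.append_nil, e, ← List.append_assoc, ht, List.append_assoc]
  have hD2 := Hh.D2
  by_cases hb : D.BadU ((r1 ++ w2).drop D.p0)
  · have := cut2 Hh (v := v1) hr1 hT2 (by rw [List.length_append]; omega) hb
    rw [← hrun] at this
    exact h2 (e ▸ Cut.prepend this)
  · have hnp := Hh.np0
    have := cut1 Hh.toHy (v := v1) (P := r1) (by omega) hT2
      (by rw [List.length_append]; omega) hb
    rw [← hrun] at this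
    exact h1 (e ▸ Cut.prepend this)

/-- **two stars compute every target on good texts.** -/
theorem height2 [Finite α] (q : V × List α) (hq : D.St q) (Tg : V × List α → Prop) :
    ∃ E : Language α, H 2 E ∧ ∀ w, D.Prom q w → (w ∈ E ↔ Tg (run (D.C.step D.A) q w)) := by
  have pre : ∀ q u v, D.Prom q (u ++ v) → D.Prom q u := by
    intro q u v h
    refine Hh.Tinf _ _ ⟨[], v, ?_⟩ h
    simp
  have inner := Nest_85.nest (D.C.step D.A) D.St
    (fun q w => D.Prom q w ∧ ¬ Cut (D.C.step D.A) D.A1 q w)
    (fun q u v h => ⟨pre q u v h.1, fun hc => h.2 hc.append⟩)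
    D.A2 (ok2 Hh.toHy) 0 (fun _ => True) trivial
    (fun q hq T _ => ⟨({w | (D.Prom q w ∧ ¬ Cut (D.C.step D.A) D.A1 q w ∧
        ¬ Cut (D.C.step D.A) D.A2 q w) ∧ T (run (D.C.step D.A) q w)} : Language α),
      H.finite 0 ((List.finite_length_le α
        ((D.p0 + D.z2 + D.G + D.C.n) + (D.p0 + D.D2 + D.p0))).subset (by
          rintro w ⟨⟨h1, h2, h3⟩, -⟩
          by_contra h4
          change ¬ w.length ≤ _ at h4
          exact long_cut Hh hq h1 (by omega) h2 h3)),
      fun w hw hc => ⟨fun h => h.2, fun h => ⟨⟨hw.1, hw.2, hc⟩, h⟩⟩⟩)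
  have outer := Nest_85.nest (D.C.step D.A) D.St D.Prom pre D.A1 (ok1 Hh.toHy) 1
    (fun _ => True) trivial
    (fun q hq T _ => by
      obtain ⟨E, h1, h2⟩ := inner q hq T trivial
      exact ⟨E, h1, fun w hw hc => h2 w ⟨hw, hc⟩⟩)
  exact outer q hq Tg trivial

/-- value read at the end. -/
def val (σ : V × List α) : V := D.act σ.1 (D.φ σ.2)

/-- transport: the difference of two runs is the product. -/
theorem run_val (v v' : V) (u : List α) :
    D.val (run (D.C.step D.A) (v, []) u) - D.val (run (D.C.step D.A) (v', []) u) =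
      D.act v (D.φ u) - D.act v' (D.φ u) := by
  induction hn : u.length using Nat.strong_induction_on generalizing v v' u with
  | _ N ih =>
    by_cases h : ∃ t, D.C.Nx u t
    · obtain ⟨t, ht⟩ := h
      rw [run_some ht, run_some ht]
      have h1 := ht.1.ge
      have h2 := ht.1.fit
      have h3 := D.C.z1pos
      rw [ih (u.drop t).length (by rw [List.length_drop]; omega) _ _ (u.drop t) rfl]
      have key : ∀ v, D.act (D.A v (u.take t)) (D.φ (u.drop t)) =
          D.act v (D.φ u) + (D.act (D.act (D.nu2 ((u.take t).take D.p0))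
            (D.φ ((u.take t).drop D.p0)) + D.nu1 ((u.take t).drop D.p0)) (D.φ (u.drop t))) := by
        intro v
        have e1 : D.φ u = D.φ ((u.take t).take D.p0) * D.φ ((u.take t).drop D.p0) *
            D.φ (u.drop t) := by
          rw [← Hh.hφ, List.take_append_drop, ← Hh.hφ, List.take_append_drop]
        rw [e1, ← Hh.actm, ← Hh.actm]
        unfold A
        simp only [Hh.act0]
        abel
      rw [key v, key v']
      abel
    · have h0 : D.C.No u := fun t ht => h ⟨t, ht⟩
      rw [run_none (r := []) (by simpa using h0), run_none (r := []) (by simpa using h0)]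
      rfl

/-- **HALF 1 in height form**: on good texts the product is read by height two. -/
theorem half1 [Finite α] [Finite V] (hf : ∀ s t : S, (∀ v, D.act v s = D.act v t) → s = t)
    (s : S) : ∃ E : Language α, H 2 E ∧ ∀ w, D.T w → (w ∈ E ↔ D.φ w = s) := by
  classical
  have hst : ∀ v : V, D.St (v, ([] : List α)) := by
    intro v
    apply Ch.no_of_short
    have := D.C.z1pos
    simp
    omega
  choose E hE1 hE2 using fun (p : V × V) =>
    height2 Hh (p.1, ([] : List α)) (hst p.1) (fun σ => D.val σ = p.2)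
  have a0 : ∀ s, D.act 0 s = 0 := by
    intro s
    have := Hh.act0 0 0 s
    rw [add_zero] at this
    exact left_eq_add.1 this
  refine ⟨({w | ∀ v : V, ∀ y : V, ∀ y0 : V, w ∈ E (v, y) → w ∈ E (0, y0) →
    y - y0 = D.act v s} : Language α), ?_, ?_⟩
  · refine H.forall_fintype (fun v : V => ({w | ∀ y : V, ∀ y0 : V, w ∈ E (v, y) → w ∈ E (0, y0) →
      y - y0 = D.act v s} : Language α)) fun v => ?_
    refine H.forall_fintype (fun y : V => ({w | ∀ y0 : V, w ∈ E (v, y) → w ∈ E (0, y0) →
      y - y0 = D.act v s} : Language α)) fun y => ?_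
    refine H.forall_fintype (fun y0 : V => ({w | w ∈ E (v, y) → w ∈ E (0, y0) →
      y - y0 = D.act v s} : Language α)) fun y0 => ?_
    exact H.imp (hE1 (v, y)) (H.imp (hE1 (0, y0)) (H.const 2 (y - y0 = D.act v s)))
  · intro w hw
    have hp : ∀ v : V, D.Prom (v, ([] : List α)) w := fun v => by
      change D.T ([] ++ w)
      simpa using hw
    have hval : ∀ v y, w ∈ E (v, y) ↔ D.val (run (D.C.step D.A) (v, []) w) = y := fun v y =>
      hE2 (v, y) w (hp v)
    constructor
    · intro h
      refine hf _ _ fun v => ?_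
      have h1 := h v _ _ ((hval v _).2 rfl) ((hval 0 _).2 rfl)
      rw [run_val Hh, a0, sub_zero] at h1
      exact h1
    · rintro h v y y0 h1 h2
      rw [← (hval v y).1 h1, ← (hval 0 y0).1 h2, run_val Hh, a0, sub_zero, h]

end Dt

end Crest.Agent.R320.Half853
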