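import Mathlib

/-!
# Row 320: two cut schemes on ONE chain with ONE token system (helper513)

570's lazy re-anchoring: state = (text since the anchor, token).  Both schemes cut the same threads
(28's remark: zone map `v ↦ (v.φ(X) + ν₂ X).φ(Y) + D(Y)`).  `nx` is read on words of length `B`.
Scheme `A` is sound everywhere, scheme `C` only where `A` does not cut.
-/

set_option autoImplicit false

namespace Crest.Agent.R320.HalfDat_513

variable {α : Type*} {V : Type*}

structure Dat (α V : Type*) where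
  G : List α → Prop
  B : ℕ
  zmin : ℕ
  Pmin : ℕ
  nx : List α → ℕ
  zm : List α → V → V
  LA : List α → V → Prop
  LC : List α → V → Prop
  DA : ℕ
  DC : ℕ
  RA : List α → ℕ → V → Prop
  RC : List α → ℕ → V → Prop
  Nb : ℕ

structure Dat.Ok (D : Dat α V) : Prop where
  Gl : ∀ u v, D.G (u ++ v) → D.G u
  Gr : ∀ u v, D.G (u ++ v) → D.G v
  nx_ok : ∀ X, D.G X → X.length = D.B → D.zmin ≤ D.nx X ∧ 0 < D.nx X ∧ D.nx X ≤ D.B
  hB : D.B ≤ D.zmin + D.Pmin
  Bpos : 0 < D.B
  lenA : ∀ r b c, D.RA r b c → r.length = D.DA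
  lenC : ∀ r b c, D.RC r b c → r.length = D.DC
  posA : 0 < D.DA
  posC : 0 < D.DC
  sA : ∀ u v r b c, D.G (u ++ r) → u.length < D.B → D.LA u v → D.RA r b c →
    D.B ≤ (u ++ r).length ∧ D.nx ((u ++ r).take D.B) = u.length + b ∧
      D.zm ((u ++ r).take (u.length + b)) v = c
  sC : ∀ u v r b c, D.G (u ++ r) → u.length < D.B → D.LC u v → D.RC r b c →
    (¬ ∃ x y z, r = x ++ y ++ z ∧ (u ++ x).length < D.B ∧ D.LA (u ++ x) v ∧
      ∃ b' c', D.RA y b' c') →
    D.B ≤ (u ++ r).length ∧ D.nx ((u ++ r).take D.B) = u.length + b ∧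
      D.zm ((u ++ r).take (u.length + b)) v = c
  comp : ∀ w v, D.G w → D.Nb ≤ w.length → ∃ P r s, w = P ++ r ++ s ∧ D.Pmin ≤ P.length ∧
    P.length < D.B ∧ ((D.LA P v ∧ ∃ b c, D.RA r b c) ∨ (D.LC P v ∧ ∃ b c, D.RC r b c))

namespace Dat

variable (D : Dat α V)

/-- one letter: lazy re-anchoring -/
def step (q : List α × V) (c : α) : List α × V :=
  if (q.1 ++ [c]).length < D.B then (q.1 ++ [c], q.2)
  else ((q.1 ++ [c]).drop (D.nx (q.1 ++ [c])), D.zm ((q.1 ++ [c]).take (D.nx (q.1 ++ [c]))) q.2)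

end Dat

end Crest.Agent.R320.HalfDat_513
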