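import Crest.Agent.R320.Hk1_851

/-!
# Row 320: two schemes on a finite prefix code give height two (helper634)

`Core`: a finite prefix code `XX` of blocks (zones), one token system `V` with zone map `A`,
scheme 1 (sound on all blocks) and scheme 2 (sound on texts all of whose blocks are bad, look-ahead
of one block).  `half1`: the product of letters is computed at height 2 on the class `T`.
-/

set_option autoImplicit false

namespace Crest.Agent.R320.HalfOne_634

open Crest.RegLang Crest.Agent.R320.Hk_851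

universe u v

variable {α : Type u} {V : Type v}

structure Core (α : Type u) (V : Type v) where
  XX : Set (List α)
  Bad : Set (List α)
  B : ℕ
  z0 : ℕ
  A : V → List α → V
  L1 : List α → Option V
  R1 : List α → Option V
  L2 : List α → Option V
  R2 : List α → List α → Option V
  code : ∀ X ∈ XX, ∀ Y ∈ XX, X <+: Y → X = Y
  ne : ([] : List α) ∉ XX
  bdd : ∀ X ∈ XX, X.length ≤ B
  big : ∀ X ∈ XX, z0 ≤ X.length
  badXX : Bad ⊆ XX
  bL1 : ∀ P v, L1 P = some v → P.length ≤ B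
  bR1 : ∀ Q v, R1 Q = some v → Q.length ≤ B
  bL2 : ∀ P v, L2 P = some v → P.length ≤ z0
  bR2 : ∀ Q X' v, R2 Q X' = some v → Q.length ≤ B
  s1 : ∀ P Q v v', L1 P = some v → R1 Q = some v' → P ++ Q ∈ XX ∧ A v (P ++ Q) = v'
  c1 : ∀ X ∈ XX, X ∉ Bad → ∀ v, ∃ P Q, X = P ++ Q ∧ L1 P = some v ∧ ∃ u, R1 Q = some u
  s2 : ∀ P v Q X' u R (l : List (List α)), L2 P = some v → R2 Q X' = some u → X' ∈ XX →
    P ++ R ∈ Bad → (∀ X ∈ l, X ∈ Bad) → (Q ++ X') <+: (R ++ l.flatten) →
    Q = R ∧ A v (P ++ R) = u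
  c2 : ∀ X ∈ Bad, ∀ X' ∈ Bad, ∀ v, ∃ P Q, X = P ++ Q ∧ L2 P = some v ∧ ∃ u, R2 Q X' = some u

namespace Core

variable (K : Core α V)

def T (v : V) (l : List (List α)) : V := l.foldl K.A v

@[simp] theorem T_nil (v : V) : K.T v [] = v := rfl

@[simp] theorem T_cons (v : V) (X : List α) (l : List (List α)) :
    K.T v (X :: l) = K.T (K.A v X) l := rfl

theorem T_append (v : V) (l m : List (List α)) : K.T v (l ++ m) = K.T (K.T v l) m := by
  simp [T, List.foldl_append]

theorem head_eq {X Y s t : List α} (hX : X ∈ K.XX) (hY : Y ∈ K.XX) (h : X ++ s = Y ++ t) :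
    X = Y ∧ s = t := by
  have e : X = Y := by
    rcases List.prefix_or_prefix_of_prefix (l₁ := X) (l₂ := Y) (l₃ := X ++ s)
      (List.prefix_append _ _) (h ▸ List.prefix_append _ _) with h1 | h1
    · exact K.code X hX Y hY h1
    · exact (K.code Y hY X hX h1).symm
  subst e
  exact ⟨rfl, List.append_cancel_left h⟩

theorem parse : ∀ {l m : List (List α)}, (∀ X ∈ l, X ∈ K.XX) → (∀ X ∈ m, X ∈ K.XX) →
    l.flatten = m.flatten → l = m := by
  intro l
  induction l with
  | nil =>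
    intro m _ hm h
    cases m with
    | nil => rfl
    | cons X m =>
      exfalso
      have hX : X = [] := by
        have : ([] : List α) = X ++ m.flatten := by simpa using h
        exact (List.append_eq_nil_iff.1 this.symm).1
      exact K.ne (hX ▸ hm X (by simp))
  | cons X l ih =>
    intro m hl hm h
    cases m with
    | nil =>
      exfalso
      have hX : X = [] := by
        have : X ++ l.flatten = ([] : List α) := by simpa using h
        exact (List.append_eq_nil_iff.1 this).1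
      exact K.ne (hX ▸ hl X (by simp))
    | cons Y m =>
      rw [List.flatten_cons, List.flatten_cons] at h
      obtain ⟨rfl, h2⟩ := K.head_eq (hl X (by simp)) (hm Y (by simp)) h
      rw [ih (fun Z hZ => hl Z (by simp [hZ])) (fun Z hZ => hm Z (by simp [hZ])) h2]

/-- flights of scheme 2 -/
def K2 : Language α :=
  {w | ∃ Q X' P u, K.R2 Q X' = some u ∧ X' ∈ K.XX ∧ K.L2 P = some (K.A u X') ∧ w = Q ++ (X' ++ P)}

/-- tails -/
def Tl (v' : V) : Language α :=
  {w | ∃ Q X' u, ∃ ls : List (List α), K.R2 Q X' = some u ∧ X' ∈ K.XX ∧ (∀ X ∈ ls, X ∈ K.XX) ∧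
    ls.length ≤ 1 ∧ K.T u (X' :: ls) = v' ∧ w = Q ++ (X' ++ ls.flatten)}

def LP2 (v : V) : Language α := {P | K.L2 P = some v}

def Sh (v v' : V) : Language α :=
  {w | ∃ l : List (List α), (∀ X ∈ l, X ∈ K.XX) ∧ l.length ≤ 1 ∧ K.T v l = v' ∧ w = l.flatten}

def Lv1 (v v' : V) : Language α := Sh K v v' + LP2 K v * (KStar.kstar (K2 K) * Tl K v')

theorem flatten_le {l : List (List α)} (hl : ∀ X ∈ l, X ∈ K.XX) (h : l.length ≤ 1) :
    l.flatten.length ≤ K.B := by
  cases l with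
  | nil => simp
  | cons X l =>
    have : l = [] := List.length_eq_zero_iff.1 (by simpa using h)
    subst this
    simpa using K.bdd X (hl X (by simp))

theorem hl_of_le [Finite α] {k : ℕ} (L : Language α) (n : ℕ) (h : ∀ w ∈ L, w.length ≤ n) :
    HL k L :=
  HL.finite (s := L) ((List.finite_length_le α n).subset h)

theorem hl_K2 [Finite α] {k : ℕ} : HL k (K2 K) := by
  refine hl_of_le _ (K.B + (K.B + K.z0)) ?_
  rintro w ⟨Q, X', P, u, h1, h2, h3, rfl⟩
  have := K.bR2 _ _ _ h1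
  have := K.bdd _ h2
  have := K.bL2 _ _ h3
  simp only [List.length_append]; omega

theorem hl_Tl [Finite α] {k : ℕ} (v' : V) : HL k (Tl K v') := by
  refine hl_of_le _ (K.B + (K.B + K.B)) ?_
  rintro w ⟨Q, X', u, ls, h1, h2, h3, h4, h5, rfl⟩
  have := K.bR2 _ _ _ h1
  have := K.bdd _ h2
  have := K.flatten_le h3 h4
  simp only [List.length_append]; omega

theorem hl_LP2 [Finite α] {k : ℕ} (v : V) : HL k (LP2 K v) :=
  hl_of_le _ K.z0 fun _ h => K.bL2 _ _ h

theorem hl_Sh [Finite α] {k : ℕ} (v v' : V) : HL k (Sh K v v') := by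
  refine hl_of_le _ K.B ?_
  rintro w ⟨l, h1, h2, h3, rfl⟩
  exact K.flatten_le h1 h2

theorem hl_Lv1 [Finite α] (v v' : V) : HL 1 (Lv1 K v v') :=
  (K.hl_Sh v v').add ((K.hl_LP2 v).mul ((K.hl_K2 (k := 0)).star.mul (K.hl_Tl v')))

theorem bad_cut {l : List (List α)} (hl : ∀ X ∈ l, X ∈ K.Bad) {P Q X' rest : List α} {v u : V}
    (hP : K.L2 P = some v) (hR : K.R2 Q X' = some u) (hX : X' ∈ K.XX)
    (h : l.flatten = P ++ (Q ++ (X' ++ rest))) :
    ∃ l', l = (P ++ Q) :: X' :: l' ∧ l'.flatten = rest ∧ K.A v (P ++ Q) = u := by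
  cases l with
  | nil =>
    exfalso
    have h' := h.symm
    simp only [List.flatten_nil, List.append_eq_nil_iff] at h'
    exact K.ne (h'.2.2.1 ▸ hX)
  | cons X1 l1 =>
    have hX1 : X1 ∈ K.Bad := hl X1 (by simp)
    have hXX1 := K.badXX hX1
    have hlen : P.length ≤ X1.length := (K.bL2 _ _ hP).trans (K.big _ hXX1)
    rw [List.flatten_cons] at h
    have hpre : P <+: X1 := by
      refine List.prefix_of_prefix_length_le (l₃ := X1 ++ l1.flatten) ?_
        (List.prefix_append _ _) hlen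
      rw [h]; exact List.prefix_append _ _
    obtain ⟨R, rfl⟩ := hpre
    rw [List.append_assoc] at h
    have h2 : R ++ l1.flatten = Q ++ (X' ++ rest) := List.append_cancel_left h
    have hl1 : ∀ X ∈ l1, X ∈ K.Bad := fun X hX => hl X (by simp [hX])
    obtain ⟨rfl, hA⟩ := K.s2 P v Q X' u R l1 hP hR hX hX1 hl1
      (by rw [h2, ← List.append_assoc]; exact List.prefix_append _ _)
    have h3 : l1.flatten = X' ++ rest := List.append_cancel_left h2
    cases l1 with
    | nil =>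
      exfalso
      have h' := h3.symm
      simp only [List.flatten_nil, List.append_eq_nil_iff] at h'
      exact K.ne (h'.1 ▸ hX)
    | cons X2 l2 =>
      rw [List.flatten_cons] at h3
      obtain ⟨rfl, h4⟩ := K.head_eq (K.badXX (hl1 X2 (by simp))) hX h3
      exact ⟨l2, rfl, h4, hA⟩

theorem snd1 {Q X' : List α} {u : V} (hR : K.R2 Q X' = some u) (hX' : X' ∈ K.XX)
    {ls : List (List α)} (hls : ∀ X ∈ ls, X ∈ K.XX) :
    ∀ (ks : List (List α)) (_ : ∀ k ∈ ks, k ∈ K.K2) (l : List (List α)) (_ : ∀ X ∈ l, X ∈ K.Bad)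
      (v : V) (P : List α) (_ : K.L2 P = some v)
      (_ : l.flatten = P ++ (ks.flatten ++ (Q ++ (X' ++ ls.flatten)))),
      K.T v l = K.T u (X' :: ls) := by
  intro ks
  induction ks with
  | nil =>
    intro _ l hl v P hP h
    rw [List.flatten_nil, List.nil_append] at h
    obtain ⟨l', rfl, h2, h3⟩ := K.bad_cut hl hP hR hX' h
    have : l' = ls := K.parse (fun X hX => K.badXX (hl X (by simp [hX]))) hls h2
    subst this
    rw [T_cons, h3]
  | cons k ks ih =>
    intro hk l hl v P hP h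
    obtain ⟨Q1, X1, P1, u1, h1, h2, h3, hk1⟩ := hk k (by simp)
    rw [List.flatten_cons, hk1] at h
    have h' : l.flatten = P ++ (Q1 ++ (X1 ++ (P1 ++ (ks.flatten ++ (Q ++ (X' ++ ls.flatten)))))) := by
      rw [h]; simp only [List.append_assoc]
    obtain ⟨l', rfl, h4, h5⟩ := K.bad_cut hl hP h1 h2 h'
    rw [T_cons, T_cons, h5]
    exact ih (fun k' hk' => hk k' (by simp [hk'])) l' (fun X hX => hl X (by simp [hX])) _ P1 h3 h4

theorem cmp1 : ∀ (n : ℕ) (l : List (List α)), l.length ≤ n → (∀ X ∈ l, X ∈ K.Bad) → ∀ v,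
    l.flatten ∈ K.Lv1 v (K.T v l) := by
  intro n
  induction n with
  | zero =>
    intro l hn hl v
    have : l = [] := List.length_eq_zero_iff.1 (by omega)
    subst this
    exact Or.inl ⟨[], by simp, by simp, rfl, rfl⟩
  | succ n ih =>
    intro l hn hl v
    match l, hn, hl with
    | [], _, _ => exact Or.inl ⟨[], by simp, by simp, rfl, rfl⟩
    | [X], _, hl => exact Or.inl ⟨[X], fun Y hY => K.badXX (hl Y hY), by simp, rfl, rfl⟩
    | X1 :: X2 :: l', hn, hl =>
      have hX1 := hl X1 (by simp)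
      have hX2 := hl X2 (by simp)
      have hl' : ∀ X ∈ l', X ∈ K.Bad := fun X hX => hl X (by simp [hX])
      obtain ⟨P, Q, rfl, hP, u, hu⟩ := K.c2 X1 hX1 X2 hX2 v
      have hA : K.A v (P ++ Q) = u := (K.s2 P v Q X2 u Q (X2 :: l') hP hu (K.badXX hX2) hX1
        (fun X hX => hl X (by simp at hX ⊢; tauto))
        (by rw [List.flatten_cons, ← List.append_assoc]; exact List.prefix_append _ _)).2
      have hT : K.T v ((P ++ Q) :: X2 :: l') = K.T (K.A u X2) l' := by
        rw [T_cons, T_cons, hA]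
      by_cases hlen : l'.length ≤ 1
      · refine Or.inr (Language.mem_mul.2 ⟨P, hP, Q ++ (X2 ++ l'.flatten), ?_, ?_⟩)
        · refine Language.mem_mul.2 ⟨[], Language.nil_mem_kstar _, _,
            ⟨Q, X2, u, l', hu, K.badXX hX2, fun X hX => K.badXX (hl' X hX), hlen, ?_, rfl⟩, rfl⟩
          rw [hT]; rfl
        · simp
      · have h1 := ih l' (by simp at hn; omega) hl' (K.A u X2)
        rw [hT]
        rcases h1 with ⟨m, hm1, hm2, -, hm4⟩ | h1
        · exfalso
          have : l' = m := K.parse (fun X hX => K.badXX (hl' X hX)) hm1 hm4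
          subst this
          exact hlen hm2
        · obtain ⟨P', hP', y, hy, e1⟩ := Language.mem_mul.1 h1
          obtain ⟨k, hk, t, ht, e2⟩ := Language.mem_mul.1 hy
          obtain ⟨S, e3, hS⟩ := Language.mem_kstar.1 hk
          refine Or.inr (Language.mem_mul.2 ⟨P, hP, (Q ++ (X2 ++ P')) ++ k ++ t, ?_, ?_⟩)
          · refine Language.mem_mul.2 ⟨(Q ++ (X2 ++ P')) ++ k, ?_, t, ht, rfl⟩
            refine Language.mem_kstar.2 ⟨(Q ++ (X2 ++ P')) :: S, by simp [e3], ?_⟩
            intro y hy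
            rcases List.mem_cons.1 hy with rfl | hy
            · exact ⟨Q, X2, P', u, hu, K.badXX hX2, hP', rfl⟩
            · exact hS y hy
          · rw [List.flatten_cons, List.flatten_cons, ← e1, ← e2]
            simp only [List.append_assoc]

/-- level one: correct on texts all of whose blocks are bad -/
theorem lv1 {l : List (List α)} (hl : ∀ X ∈ l, X ∈ K.Bad) (v v' : V) :
    l.flatten ∈ K.Lv1 v v' ↔ K.T v l = v' := by
  constructor
  · rintro (⟨m, hm1, hm2, hm3, hm4⟩ | h)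
    · have : l = m := K.parse (fun X hX => K.badXX (hl X hX)) hm1 hm4
      subst this; exact hm3
    · obtain ⟨P, hP, y, hy, e1⟩ := Language.mem_mul.1 h
      obtain ⟨k, hk, t, ⟨Q, X', u, ls, h1, h2, h3, h4, h5, rfl⟩, e2⟩ := Language.mem_mul.1 hy
      obtain ⟨S, rfl, hS⟩ := Language.mem_kstar.1 hk
      rw [← h5]
      exact K.snd1 h1 h2 h3 S hS l hl v P hP (by rw [← e1, ← e2])
  · rintro rfl
    exact K.cmp1 l.length l le_rfl hl v

/-- `M ∈ Bad*` with transport `v → v'` -/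
def Bb (v v' : V) : Language α := KStar.kstar (K.Bad : Language α) ⊓ Lv1 K v v'

theorem mem_Bb {w : List α} {v v' : V} :
    w ∈ K.Bb v v' ↔ ∃ l : List (List α), (∀ X ∈ l, X ∈ K.Bad) ∧ w = l.flatten ∧ K.T v l = v' := by
  constructor
  · rintro ⟨h1, h2⟩
    obtain ⟨S, rfl, hS⟩ := Language.mem_kstar.1 h1
    exact ⟨S, hS, rfl, (K.lv1 hS v v').1 h2⟩
  · rintro ⟨l, hl, rfl, h⟩
    exact ⟨Language.mem_kstar.2 ⟨l, rfl, hl⟩, (K.lv1 hl v v').2 h⟩

theorem hl_Bb [Finite α] (v v' : V) : HL 1 (K.Bb v v') := by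
  refine HL.inf ?_ (K.hl_Lv1 v v')
  exact (hl_of_le (k := 0) (K.Bad : Language α) K.B fun X hX => K.bdd X (K.badXX hX)).star

def LP1 (v : V) : Language α := {P | K.L1 P = some v}

def RQ1 (v : V) : Language α := {Q | K.R1 Q = some v}

def K1 : Language α := {w | ∃ u v, w ∈ RQ1 K u * (Bb K u v * LP1 K v)}

def Lv2b (v v' : V) : Language α :=
  {w | ∃ u u', w ∈ Bb K v u * (LP1 K u * (KStar.kstar (K1 K) * (RQ1 K u' * Bb K u' v')))}

def Lv2 (v v' : V) : Language α := Bb K v v' + Lv2b K v v'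

theorem hl_LP1 [Finite α] {k : ℕ} (v : V) : HL k (K.LP1 v) := hl_of_le _ K.B fun _ h => K.bL1 _ _ h

theorem hl_RQ1 [Finite α] {k : ℕ} (v : V) : HL k (K.RQ1 v) := hl_of_le _ K.B fun _ h => K.bR1 _ _ h

theorem hl_ex [Finite V] {k : ℕ} {F : V → V → Language α} (h : ∀ u v, HL k (F u v)) :
    HL k ({w | ∃ u v, w ∈ F u v} : Language α) :=
  (HL.iUnion fun u => HL.iUnion (h u)).congr fun _ => Iff.rfl

theorem hl_K1 [Finite α] [Finite V] : HL 1 K.K1 :=
  hl_ex fun u v => (K.hl_RQ1 u).mul ((K.hl_Bb u v).mul (K.hl_LP1 v))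

theorem hl_Lv2 [Finite α] [Finite V] (v v' : V) : HL 2 (K.Lv2 v v') :=
  ((K.hl_Bb v v').mono (by norm_num)).add (hl_ex fun u u' =>
    ((K.hl_Bb v u).mono (by norm_num)).mul ((K.hl_LP1 u).mul ((K.hl_K1).star.mul
      ((K.hl_RQ1 u').mul ((K.hl_Bb u' v').mono (by norm_num))))))

theorem snd2 {Q : List α} {u' : V} (hQ : K.R1 Q = some u') :
    ∀ (ks : List (List α)) (_ : ∀ k ∈ ks, k ∈ K.K1) (P : List α) (u : V) (_ : K.L1 P = some u),
      ∃ l : List (List α), (∀ X ∈ l, X ∈ K.XX) ∧ l.flatten = P ++ (ks.flatten ++ Q) ∧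
        K.T u l = u' := by
  intro ks
  induction ks with
  | nil =>
    intro _ P u hP
    obtain ⟨h1, h2⟩ := K.s1 P Q u u' hP hQ
    exact ⟨[P ++ Q], by simpa using h1, by simp, h2⟩
  | cons k ks ih =>
    intro hk P u hP
    obtain ⟨u1, v1, h⟩ := hk k (by simp)
    obtain ⟨Q1, hQ1, y, hy, e1⟩ := Language.mem_mul.1 h
    obtain ⟨m, hm, P1, hP1, e2⟩ := Language.mem_mul.1 hy
    obtain ⟨lm, hlm, rfl, hTm⟩ := K.mem_Bb.1 hm
    obtain ⟨l', hl', e3, hT'⟩ := ih (fun k' hk' => hk k' (by simp [hk'])) P1 v1 hP1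
    obtain ⟨h1, h2⟩ := K.s1 P Q1 u u1 hP hQ1
    refine ⟨(P ++ Q1) :: (lm ++ l'), ?_, ?_, ?_⟩
    · intro X hX
      rcases List.mem_cons.1 hX with rfl | hX
      · exact h1
      · rcases List.mem_append.1 hX with hX | hX
        · exact K.badXX (hlm X hX)
        · exact hl' X hX
    · rw [List.flatten_cons, List.flatten_append, e3, List.flatten_cons, ← e1, ← e2]
      simp only [List.append_assoc]
    · rw [T_cons, T_append, h2, hTm, hT']

theorem Bb_nil (v : V) : [] ∈ K.Bb v v := K.mem_Bb.2 ⟨[], by simp, rfl, rfl⟩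

theorem Bb_cons {X m : List α} {v u : V} (hX : X ∈ K.Bad) (hm : m ∈ K.Bb (K.A v X) u) :
    X ++ m ∈ K.Bb v u := by
  obtain ⟨l, hl, rfl, hT⟩ := K.mem_Bb.1 hm
  refine K.mem_Bb.2 ⟨X :: l, ?_, by simp, hT⟩
  intro Y hY
  rcases List.mem_cons.1 hY with rfl | hY
  · exact hX
  · exact hl Y hY

theorem cmp2 : ∀ (l : List (List α)), (∀ X ∈ l, X ∈ K.XX) → ∀ v,
    l.flatten ∈ K.Lv2 v (K.T v l) := by
  intro l
  induction l with
  | nil => intro _ v; exact Or.inl (K.Bb_nil v)
  | cons X l ih =>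
    intro hl v
    have hX := hl X (by simp)
    have h1 := ih (fun Y hY => hl Y (by simp [hY])) (K.A v X)
    rw [T_cons, List.flatten_cons]
    by_cases hb : X ∈ K.Bad
    · rcases h1 with h1 | ⟨u, u', h1⟩
      · exact Or.inl (K.Bb_cons hb h1)
      · obtain ⟨m, hm, y, hy, e⟩ := Language.mem_mul.1 h1
        refine Or.inr ⟨u, u', Language.mem_mul.2 ⟨X ++ m, K.Bb_cons hb hm, y, hy, ?_⟩⟩
        rw [← e, List.append_assoc]
    · obtain ⟨P, Q, rfl, hP, w, hQ⟩ := K.c1 X hX hb v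
      have hw := (K.s1 P Q v w hP hQ).2
      rw [hw] at h1 ⊢
      rcases h1 with h1 | ⟨u, u', h1⟩
      · refine Or.inr ⟨v, w, Language.mem_mul.2 ⟨[], K.Bb_nil v, _, Language.mem_mul.2 ⟨P, hP, _,
          Language.mem_mul.2 ⟨[], Language.nil_mem_kstar _, _, Language.mem_mul.2 ⟨Q, hQ, _, h1,
            rfl⟩, rfl⟩, rfl⟩, ?_⟩⟩
        simp
      · obtain ⟨m, hm, y, hy, e⟩ := Language.mem_mul.1 h1
        obtain ⟨P', hP', z, hz, e2⟩ := Language.mem_mul.1 hy
        obtain ⟨k, hk, t, ht, e3⟩ := Language.mem_mul.1 hz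
        obtain ⟨S, rfl, hS⟩ := Language.mem_kstar.1 hk
        refine Or.inr ⟨v, u', Language.mem_mul.2 ⟨[], K.Bb_nil v, _, Language.mem_mul.2 ⟨P, hP, _,
          Language.mem_mul.2 ⟨(Q ++ (m ++ P')) ++ S.flatten, ?_, t, ht, rfl⟩, rfl⟩, ?_⟩⟩
        · refine Language.mem_kstar.2 ⟨(Q ++ (m ++ P')) :: S, by simp, ?_⟩
          intro y hy
          rcases List.mem_cons.1 hy with rfl | hy
          · exact ⟨w, u, Language.mem_mul.2 ⟨Q, hQ, _, Language.mem_mul.2 ⟨m, hm, P', hP', rfl⟩,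
              rfl⟩⟩
          · exact hS y hy
        · rw [← e, ← e2, ← e3]
          simp only [List.append_assoc, List.nil_append]

/-- level two: correct on all products of blocks -/
theorem lv2 {l : List (List α)} (hl : ∀ X ∈ l, X ∈ K.XX) (v v' : V) :
    l.flatten ∈ K.Lv2 v v' ↔ K.T v l = v' := by
  constructor
  · rintro (h | ⟨u, u', h⟩)
    · obtain ⟨m, hm, e, hT⟩ := K.mem_Bb.1 h
      have : l = m := K.parse hl (fun X hX => K.badXX (hm X hX)) e
      subst this; exact hT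
    · obtain ⟨m, hm, y, hy, e⟩ := Language.mem_mul.1 h
      obtain ⟨P', hP', z, hz, e2⟩ := Language.mem_mul.1 hy
      obtain ⟨k, hk, t, ht, e3⟩ := Language.mem_mul.1 hz
      obtain ⟨Q, hQ, r, hr, e4⟩ := Language.mem_mul.1 ht
      obtain ⟨S, rfl, hS⟩ := Language.mem_kstar.1 hk
      obtain ⟨lm, hlm, rfl, hTm⟩ := K.mem_Bb.1 hm
      obtain ⟨lr, hlr, rfl, hTr⟩ := K.mem_Bb.1 hr
      obtain ⟨l', hl', e5, hT'⟩ := K.snd2 hQ S hS P' u hP'
      have : l = lm ++ (l' ++ lr) := by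
        refine K.parse hl ?_ ?_
        · intro X hX
          rcases List.mem_append.1 hX with hX | hX
          · exact K.badXX (hlm X hX)
          · rcases List.mem_append.1 hX with hX | hX
            · exact hl' X hX
            · exact K.badXX (hlr X hX)
        · rw [List.flatten_append, List.flatten_append, e5, ← e, ← e2, ← e3, ← e4]
          simp only [List.append_assoc]
      subst this
      rw [T_append, T_append, hTm, hT', hTr]
  · rintro rfl
    exact K.cmp2 l hl v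

def Lall (τ : V → V) : Language α := {u | ∀ v, u ∈ K.Lv2 v (τ v)}

def XXs : Language α := KStar.kstar (K.XX : Language α)

def Rd (E : List α) (τ : V → V) : Language α := (K.XXs ⊓ K.Lall τ) * ({E} : Language α)

section read

variable {S : Type*} [Monoid S] [AddCommGroup V]

theorem T_affine (φ : α → S) (β : S → V →+ V) (h1 : ∀ v, β 1 v = v)
    (hm : ∀ s t v, β (s * t) v = β t (β s v)) (D : List α → V)
    (hA : ∀ X ∈ K.XX, ∀ v, K.A v X = β (X.map φ).prod v + D X) :
    ∀ l : List (List α), (∀ X ∈ l, X ∈ K.XX) →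
      ∃ d, ∀ v, K.T v l = β (l.flatten.map φ).prod v + d := by
  intro l
  induction l with
  | nil => intro _; exact ⟨0, fun v => by simp [h1]⟩
  | cons X l ih =>
    intro hl
    obtain ⟨d, hd⟩ := ih fun Y hY => hl Y (by simp [hY])
    refine ⟨β (l.flatten.map φ).prod (D X) + d, fun v => ?_⟩
    rw [T_cons, hd, hA X (hl X (by simp)), map_add, List.flatten_cons, List.map_append,
      List.prod_append, hm, add_assoc]

/-- **Half one.** -/
theorem half1 [Finite α] [Finite V] (φ : α → S) (β : S → V →+ V) (h1 : ∀ v, β 1 v = v)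
    (hm : ∀ s t v, β (s * t) v = β t (β s v)) (hinj : Function.Injective β) (D : List α → V)
    (hA : ∀ X ∈ K.XX, ∀ v, K.A v X = β (X.map φ).prod v + D X)
    (Tc : Language α) (hT : HL 2 Tc) (n : ℕ)
    (cover : ∀ w ∈ Tc, ∃ (l : List (List α)) (E : List α), (∀ X ∈ l, X ∈ K.XX) ∧ E.length ≤ n ∧
      w = l.flatten ++ E) (s : S) :
    HL 2 ({w | w ∈ Tc ∧ (w.map φ).prod = s} : Language α) := by
  classical
  have hXX : HL 1 K.XXs :=
    (hl_of_le (k := 0) (K.XX : Language α) K.B fun X hX => K.bdd X hX).star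
  have key : HL 2 ({w | ∃ E ∈ {E : List α | E.length ≤ n}, ∃ τ : V → V,
      (∃ s1, (∀ v, τ v - τ 0 = β s1 v) ∧ s1 * (E.map φ).prod = s) ∧ w ∈ K.Rd E τ} :
        Language α) := by
    refine HL.biUnion (L := fun E => {w | ∃ τ : V → V,
      (∃ s1, (∀ v, τ v - τ 0 = β s1 v) ∧ s1 * (E.map φ).prod = s) ∧ w ∈ K.Rd E τ})
      (List.finite_length_le α n) fun E _ => HL.iUnion (L := fun τ => {w |
      (∃ s1, (∀ v, τ v - τ 0 = β s1 v) ∧ s1 * (E.map φ).prod = s) ∧ w ∈ K.Rd E τ}) fun τ => ?_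
    refine (HL.const _).setOf_and (HL.mul (HL.inf (hXX.mono (by norm_num)) ?_) (HL.word E))
    exact HL.iInter fun v => K.hl_Lv2 v (τ v)
  refine (hT.inf key).congr fun w => ?_
  constructor
  · rintro ⟨hw, hs⟩
    obtain ⟨l, E, hl, hE, rfl⟩ := cover w hw
    refine ⟨hw, E, hE, fun v => K.T v l, ?_, ?_⟩
    · obtain ⟨d, hd⟩ := K.T_affine φ β h1 hm D hA l hl
      refine ⟨(l.flatten.map φ).prod, fun v => ?_, ?_⟩
      · change K.T v l - K.T 0 l = _
        rw [hd, hd, map_zero]; abel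
      · rw [← List.prod_append, ← List.map_append]; exact hs
    · refine Language.mem_mul.2 ⟨l.flatten, ⟨Language.mem_kstar.2 ⟨l, rfl, hl⟩, fun v => ?_⟩, E,
        rfl, rfl⟩
      exact (K.lv2 hl v _).2 rfl
  · rintro ⟨hw, E, hE, τ, ⟨s1, h2, h3⟩, h4⟩
    refine ⟨hw, ?_⟩
    obtain ⟨u, ⟨hu1, hu2⟩, E', hE', e⟩ := Language.mem_mul.1 h4
    have hE'' : E' = E := hE'
    subst hE''
    obtain ⟨l, rfl, hl⟩ := Language.mem_kstar.1 hu1
    obtain ⟨d, hd⟩ := K.T_affine φ β h1 hm D hA l hl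
    have hT' : ∀ v, K.T v l = τ v := fun v => (K.lv2 hl v _).1 (hu2 v)
    have : β (l.flatten.map φ).prod = β s1 := by
      ext v
      rw [← h2 v, ← hT', ← hT', hd, hd, map_zero]; abel
    rw [← e, List.map_append, List.prod_append, hinj this, h3]

end read

end Core

end Crest.Agent.R320.HalfOne_634
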