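import Crest.Agent.R320.Glue_131

/-!
Row 320, HALF 1 (helper131): reading a finite monoid off the tokens of the automaton of `Glue_131`.
-/

set_option autoImplicit false

namespace Crest.Agent.R320.Half131

open Crest.RegLang Crest.Agent.R320.Hgt1_903 Crest.Agent.R320.Star_903 Crest.Agent.R320.Glue131

variable {α V S : Type*}

theorem tok_aux [AddGroup V] [Monoid S] (D : Dat α V) (f : α → S) (act : V → S → V)
    (act_one : ∀ v, act v 1 = v) (act_mul : ∀ v s t, act v (s * t) = act (act v s) t)
    (hzm : ∀ y v v', y.length = D.Bm →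
      D.zm y v - D.zm y v' = act (v - v') ((y.take (D.N y)).map f).prod) :
    ∀ (n : ℕ) (w : List α), w.length = n → ∃ (p t : List α) (ht : t.length < D.Bm) (tok : V → V),
      w = p ++ t ∧ (∀ v, run (stp D) (ini D v) w = ⟨(t, tok v), ht⟩) ∧
      ∀ v v', tok v - tok v' = act (v - v') (p.map f).prod := by
  intro n
  induction n using Nat.strong_induction_on with
  | _ n ih =>
    intro w hw
    by_cases h : w.length < D.Bm
    · exact ⟨[], w, h, id, by simp, fun v => run_ini_small D w v h, fun v v' => by
        simp [act_one]⟩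
    · push Not at h
      set y := w.take D.Bm with hy
      have hyl : y.length = D.Bm := by rw [hy, List.length_take]; omega
      have hN := D.hN y
      have hB := D.hBm
      obtain ⟨p, t, ht, tok, e1, e2, e3⟩ := ih (w.drop (D.N y)).length
        (by rw [List.length_drop]; omega) (w.drop (D.N y)) rfl
      refine ⟨w.take (D.N y) ++ p, t, ht, fun v => tok (D.zm y v), ?_, ?_, ?_⟩
      · rw [List.append_assoc, ← e1, List.take_append_drop]
      · intro v
        rw [run_unfold D w v h, ← hy]
        exact e2 _
      · intro v v'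
        show tok (D.zm y v) - tok (D.zm y v') = _
        have hty : ∀ k, k ≤ D.Bm → y.take k = w.take k := by
          intro k hk
          rw [hy, List.take_take, min_eq_left hk]
        have hty2 : y.take (D.N y) = w.take (D.N y) := hty _ hN.2
        rw [e3, hzm y v v' hyl, ← act_mul, hty2]
        congr 1
        rw [List.map_append, List.prod_append]

theorem inj_aux [AddGroup V] [Monoid S] (D : Dat α V) (f : α → S) (act : V → S → V)
    (act_one : ∀ v, act v 1 = v) (act_mul : ∀ v s t, act v (s * t) = act (act v s) t)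
    (act_ff : ∀ s t, (∀ v, act v s = act v t) → s = t)
    (hzm : ∀ y v v', y.length = D.Bm →
      D.zm y v - D.zm y v' = act (v - v') ((y.take (D.N y)).map f).prod)
    (w w' : List α) (h : ∀ v, run (stp D) (ini D v) w = run (stp D) (ini D v) w') :
    (w.map f).prod = (w'.map f).prod := by
  obtain ⟨p, t, ht, tok, e1, e2, e3⟩ := tok_aux D f act act_one act_mul hzm _ w rfl
  obtain ⟨p', t', ht', tok', e1', e2', e3'⟩ := tok_aux D f act act_one act_mul hzm _ w' rfl
  have hh : ∀ v, t = t' ∧ tok v = tok' v := by
    intro v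
    have := h v
    rw [e2, e2'] at this
    have h2 := congrArg Subtype.val this
    simpa using h2
  have h1 : (p.map f).prod = (p'.map f).prod := by
    apply act_ff
    intro v
    have a1 := e3 v 0
    have a2 := e3' v 0
    rw [sub_zero] at a1 a2
    rw [← a1, ← a2, (hh v).2, (hh 0).2]
  rw [e1, e1', List.map_append, List.map_append, List.prod_append, List.prod_append, h1,
    (hh 0).1]

/-- **HALF 1 from the automaton.** -/
theorem half [Finite α] [Finite V] [AddGroup V] [Monoid S] (n : ℕ) (D : Dat α V) (f : α → S)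
    (act : V → S → V)
    (act_one : ∀ v, act v 1 = v) (act_mul : ∀ v s t, act v (s * t) = act (act v s) t)
    (act_ff : ∀ s t, (∀ v, act v s = act v t) → s = t)
    (hzm : ∀ y v v', y.length = D.Bm →
      D.zm y v - D.zm y v' = act (v - v') ((y.take (D.N y)).map f).prod)
    (Cl : List α → Prop) (hRC : RC n (stp D) (fun θ w => Cl (θ.1.1 ++ w))) (s : S) :
    ∃ L : Language α, H n L ∧ ∀ w, Cl w → (w ∈ L ↔ (w.map f).prod = s) := by
  classical
  obtain ⟨R, hR, hs⟩ := hRC
  let Lg : (V → St D) → Language α := fun g => {w | ∀ v, w ∈ R (ini D v) (g v)}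
  have hLg : ∀ g, H n (Lg g) := fun g => H.forall_fintype _ fun v => hR _ _
  let Gs : (V → St D) → Prop := fun g => ∃ w0 : List α, (w0.map f).prod = s ∧
    ∀ v, run (stp D) (ini D v) w0 = g v
  refine ⟨{w | ∃ g : V → St D, w ∈ ({w | w ∈ ({_w | Gs g} : Language α) ∧ w ∈ Lg g} : Language α)},
    H.exists_fintype _ fun g => H.inter (H.const n _) (hLg g), fun w hw => ?_⟩
  have hrun : ∀ v θ', (w ∈ R (ini D v) θ' ↔ run (stp D) (ini D v) w = θ') :=
    fun v θ' => hs (ini D v) w (by simpa [ini] using hw) θ'
  constructor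
  · rintro ⟨g, ⟨w0, h0, h1⟩, h2⟩
    rw [← h0]
    refine inj_aux D f act act_one act_mul act_ff hzm w w0 fun v => ?_
    rw [(hrun v _).1 (h2 v), h1]
  · intro h
    exact ⟨fun v => run (stp D) (ini D v) w, ⟨w, h, fun v => rfl⟩, fun v => (hrun v _).2 rfl⟩

end Crest.Agent.R320.Half131
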