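import Crest.Agent.R320.Nest_85
import Crest.Agent.R320.HalfDat_513

/-!
# Row 320: two cut schemes on ONE chain with ONE token system, proof (helper513)
-/

set_option autoImplicit false

namespace Crest.Agent.R320.Half_513

open Crest.RegLang Crest.Agent.R320.Hgt1_903 Crest.Agent.R320.HalfDat_513 Crest.Agent.R320.Nest_85

variable {α : Type*} {V : Type*}

/-- run from the anchor -/
def R (D : Dat α V) (v : V) (w : List α) : List α × V := w.foldl D.step ([], v)

theorem foldl_short (D : Dat α V) (w : List α) : ∀ (u : List α) (v : V), (u ++ w).length < D.B →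
    w.foldl D.step (u, v) = (u ++ w, v) := by
  induction w with
  | nil => intro u v _; simp
  | cons c w ih =>
    intro u v h
    have h1 : (u ++ [c]).length < D.B := by
      simp only [List.length_append, List.length_cons, List.length_nil] at h ⊢; omega
    have h2 : D.step (u, v) c = (u ++ [c], v) := by
      unfold Dat.step; rw [if_pos h1]
    rw [List.foldl_cons, h2, ih (u ++ [c]) v (by simpa using h)]
    simp

theorem foldl_eq (D : Dat α V) {u : List α} (v : V) (hu : u.length < D.B) (w : List α) :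
    w.foldl D.step (u, v) = R D v (u ++ w) := by
  unfold R
  rw [List.foldl_append, foldl_short D u [] v (by simpa using hu)]
  simp

theorem R_short (D : Dat α V) (v : V) {w : List α} (h : w.length < D.B) : R D v w = (w, v) := by
  unfold R; rw [foldl_short D w [] v (by simpa using h)]; simp

theorem R_long (D : Dat α V) (hD : D.Ok) (v : V) {w : List α} (hG : D.G w) (h : D.B ≤ w.length) :
    R D v w = R D (D.zm (w.take (D.nx (w.take D.B))) v) (w.drop (D.nx (w.take D.B))) := by
  have hw : w.take D.B ++ w.drop D.B = w := List.take_append_drop _ _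
  set X := w.take D.B with hX
  have hXl : X.length = D.B := by rw [hX, List.length_take]; omega
  have hGX : D.G X := hD.Gl X (w.drop D.B) (by rw [hw]; exact hG)
  obtain ⟨h1, h2, h3⟩ := hD.nx_ok X hGX hXl
  have hB := hD.Bpos
  obtain ⟨X', c, hXc⟩ : ∃ X' c, X = X' ++ [c] := by
    rcases List.eq_nil_or_concat X with h0 | ⟨X', c, h0⟩
    · rw [h0] at hXl; simp at hXl; omega
    · exact ⟨X', c, by simpa using h0⟩
  have hX'l : X'.length < D.B := by
    have : X.length = X'.length + 1 := by rw [hXc]; simp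
    omega
  have hstep : R D v X = (X.drop (D.nx X), D.zm (X.take (D.nx X)) v) := by
    unfold R
    rw [hXc, List.foldl_append, foldl_short D X' [] v (by simpa using hX'l)]
    simp only [List.nil_append, List.foldl_cons, List.foldl_nil]
    rw [← hXc]
    unfold Dat.step
    simp only
    rw [← hXc, if_neg (by omega)]
  have h4 : R D v w = (w.drop D.B).foldl D.step (R D v X) := by
    conv_lhs => rw [← hw]
    unfold R
    rw [List.foldl_append]
  have h5 : (X.drop (D.nx X)).length < D.B := by rw [List.length_drop]; omega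
  rw [h4, hstep, foldl_eq D _ h5]
  have h6 : X.drop (D.nx X) ++ w.drop D.B = w.drop (D.nx X) := by
    conv_rhs => rw [← hw]
    rw [List.drop_append_of_le_length (by omega)]
  have h7 : X.take (D.nx X) = w.take (D.nx X) := by
    rw [hX, List.take_take, min_eq_left (by rw [← hX]; omega)]
  rw [h6, h7]

theorem R_fst (D : Dat α V) (hD : D.Ok) : ∀ (n : ℕ) (v : V) (w : List α), w.length ≤ n → D.G w →
    (R D v w).1.length < D.B ∧ ∃ p, p ++ (R D v w).1 = w := by
  intro n
  induction n with
  | zero =>
    intro v w hn _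
    have hB := hD.Bpos
    rw [R_short D v (by omega)]
    exact ⟨by simp only; omega, [], by simp⟩
  | succ n ih =>
    intro v w hn hG
    rcases Nat.lt_or_ge w.length D.B with h | h
    · rw [R_short D v h]; exact ⟨h, [], by simp⟩
    · have hw : w.take D.B ++ w.drop D.B = w := List.take_append_drop _ _
      have hXl : (w.take D.B).length = D.B := by rw [List.length_take]; omega
      have hGX : D.G (w.take D.B) := hD.Gl _ (w.drop D.B) (by rw [hw]; exact hG)
      obtain ⟨h1, h2, h3⟩ := hD.nx_ok _ hGX hXl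
      rw [R_long D hD v hG h]
      have hG' : D.G (w.drop (D.nx (w.take D.B))) :=
        hD.Gr (w.take (D.nx (w.take D.B))) _ (by rw [List.take_append_drop]; exact hG)
      obtain ⟨h4, p, h5⟩ := ih (D.zm (w.take (D.nx (w.take D.B))) v)
        (w.drop (D.nx (w.take D.B))) (by rw [List.length_drop]; omega) hG'
      refine ⟨h4, w.take (D.nx (w.take D.B)) ++ p, ?_⟩
      rw [List.append_assoc, h5, List.take_append_drop]

/-- reset -/
theorem reset (D : Dat α V) (hD : D.Ok) {u r : List α} {v c : V} {b : ℕ} (hu : u.length < D.B)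
    (hG : D.G (u ++ r))
    (h : D.B ≤ (u ++ r).length ∧ D.nx ((u ++ r).take D.B) = u.length + b ∧
      D.zm ((u ++ r).take (u.length + b)) v = c) :
    r.foldl D.step (u, v) = R D c (r.drop b) := by
  obtain ⟨h1, h2, h3⟩ := h
  rw [foldl_eq D v hu, R_long D hD v hG h1, h2, h3]
  congr 1
  rw [List.drop_append, List.drop_eq_nil_of_le (by omega)]
  simp

open Classical in
/-- level `A` or `C` -/
noncomputable def Lv (D : Dat α V) (v0 : V) (L : List α → V → Prop)
    (RR : List α → ℕ → V → Prop) : Level α (List α × V) where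
  Lg := fun q => L q.1 q.2 ∧ q.1.length < D.B
  R := {r | D.G r ∧ ∃ b c, RR r b c}
  c := fun r => if h : ∃ b c, RR r b c then R D h.choose_spec.choose (r.drop h.choose)
    else R D v0 []

theorem Lv_c (D : Dat α V) (v0 : V) (L : List α → V → Prop) (RR : List α → ℕ → V → Prop)
    {r : List α} (h : ∃ b c, RR r b c) :
    ∃ b c, RR r b c ∧ (Lv D v0 L RR).c r = R D c (r.drop b) := by
  refine ⟨h.choose, h.choose_spec.choose, h.choose_spec.choose_spec, ?_⟩
  simp only [Lv, dif_pos h]

theorem fin_len [Finite α] (P : List α → Prop) (n : ℕ) (h : ∀ r, P r → r.length = n) :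
    {r : List α | P r}.Finite :=
  (List.finite_length_eq α n).subset fun r hr => h r hr

variable (D : Dat α V)

def Prom (q : List α × V) (w : List α) : Prop := D.G (q.1 ++ w)

theorem run_suffix (hD : D.Ok) {q : List α × V} (hq : q.1.length < D.B) {p w : List α}
    (hG : D.G (q.1 ++ (p ++ w))) :
    (p.foldl D.step q).1.length < D.B ∧ D.G ((p.foldl D.step q).1 ++ w) := by
  obtain ⟨u, v⟩ := q
  have hG1 : D.G (u ++ p) := hD.Gl (u ++ p) w (by simpa using hG)
  rw [foldl_eq D v hq]
  obtain ⟨h1, x, h2⟩ := R_fst D hD _ v (u ++ p) le_rfl hG1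
  refine ⟨h1, hD.Gr x _ ?_⟩
  rw [← List.append_assoc, h2]
  simpa using hG

theorem okA [Finite α] (hD : D.Ok) (v0 : V) :
    (Lv D v0 D.LA D.RA).Ok D.step (fun q => q.1.length < D.B) (Prom D) where
  fin := fin_len _ D.DA fun r hr => by obtain ⟨_, b, c, h⟩ := hr; exact hD.lenA r b c h
  ne := by
    rintro s ⟨_, b, c, h⟩ rfl
    have := hD.lenA _ b c h
    have := hD.posA
    simp at *; omega
  st := by
    rintro s ⟨hG, hs⟩
    obtain ⟨b, c, _, h2⟩ := Lv_c D v0 D.LA D.RA hs
    rw [h2]
    exact (R_fst D hD _ c _ le_rfl (hD.Gr (s.take b) _ (by rw [List.take_append_drop]; exact hG))).1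
  closed := by
    rintro q hq p s u hw ⟨hGs, hs⟩ ⟨hl, hlen⟩
    obtain ⟨b, c, h1, h2⟩ := Lv_c D v0 D.LA D.RA hs
    have hw' : D.G (q.1 ++ (p ++ (s ++ u))) := by
      have : D.G (q.1 ++ (p ++ s ++ u)) := hw
      simpa using this
    obtain ⟨h3, h4⟩ := run_suffix D hD hq hw'
    have h5 := hD.sA _ _ s b c (hD.Gl _ u (by simpa using h4)) h3 hl h1
    have h6 : s.foldl D.step (p.foldl D.step q) = R D c (s.drop b) :=
      reset D hD h3 (hD.Gl _ u (by simpa using h4)) h5
    refine ⟨by rw [h2]; exact h6, ?_⟩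
    rw [h2]
    have hGd : D.G (s.drop b) := hD.Gr (s.take b) _ (by rw [List.take_append_drop]; exact hGs)
    obtain ⟨_, x, h7⟩ := R_fst D hD _ c _ le_rfl hGd
    have h8 : D.G (s ++ u) := hD.Gr _ _ h4
    refine hD.Gr (s.take b ++ x) _ ?_
    rw [List.append_assoc, ← List.append_assoc x, h7, ← List.append_assoc, List.take_append_drop]
    exact h8

theorem okC [Finite α] (hD : D.Ok) (v0 : V) :
    (Lv D v0 D.LC D.RC).Ok D.step (fun q => q.1.length < D.B)
      (fun q w => Prom D q w ∧ ¬ Cut D.step (Lv D v0 D.LA D.RA) q w) where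
  fin := fin_len _ D.DC fun r hr => by obtain ⟨_, b, c, h⟩ := hr; exact hD.lenC r b c h
  ne := by
    rintro s ⟨_, b, c, h⟩ rfl
    have := hD.lenC _ b c h
    have := hD.posC
    simp at *; omega
  st := by
    rintro s ⟨hG, hs⟩
    obtain ⟨b, c, _, h2⟩ := Lv_c D v0 D.LC D.RC hs
    rw [h2]
    exact (R_fst D hD _ c _ le_rfl (hD.Gr (s.take b) _ (by rw [List.take_append_drop]; exact hG))).1
  closed := by
    rintro q hq p s u ⟨hw, hnc⟩ ⟨hGs, hs⟩ ⟨hl, hlen⟩
    obtain ⟨b, c, h1, h2⟩ := Lv_c D v0 D.LC D.RC hs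
    have hw' : D.G (q.1 ++ (p ++ (s ++ u))) := by
      have : D.G (q.1 ++ (p ++ s ++ u)) := hw
      simpa using this
    obtain ⟨h3, h4⟩ := run_suffix D hD hq hw'
    have hlive : ¬ ∃ x y z, s = x ++ y ++ z ∧ ((p.foldl D.step q).1 ++ x).length < D.B ∧
        D.LA ((p.foldl D.step q).1 ++ x) (p.foldl D.step q).2 ∧ ∃ b' c', D.RA y b' c' := by
      rintro ⟨x, y, z, e, hx, hLA, hy⟩
      apply hnc
      refine ⟨p ++ x, y, z ++ u, by rw [e]; simp, ⟨?_, hy⟩, ?_⟩
      · have h9 : D.G s := hGs
        rw [e] at h9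
        exact hD.Gr x _ (hD.Gl (x ++ y) z h9)
      · have h10 : Nest_85.run D.step q (p ++ x) = ((p.foldl D.step q).1 ++ x, (p.foldl D.step q).2) := by
          unfold Nest_85.run
          rw [List.foldl_append]
          exact foldl_short D x _ _ hx
        rw [h10]
        exact ⟨hLA, hx⟩
    have h5 := hD.sC _ _ s b c (hD.Gl _ u (by simpa using h4)) h3 hl h1 hlive
    have h6 : s.foldl D.step (p.foldl D.step q) = R D c (s.drop b) :=
      reset D hD h3 (hD.Gl _ u (by simpa using h4)) h5
    refine ⟨by rw [h2]; exact h6, ?_, ?_⟩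
    · rw [h2]
      have hGd : D.G (s.drop b) := hD.Gr (s.take b) _ (by rw [List.take_append_drop]; exact hGs)
      obtain ⟨_, x, h7⟩ := R_fst D hD _ c _ le_rfl hGd
      have h8 : D.G (s ++ u) := hD.Gr _ _ h4
      refine hD.Gr (s.take b ++ x) _ ?_
      rw [List.append_assoc, ← List.append_assoc x, h7, ← List.append_assoc, List.take_append_drop]
      exact h8
    · intro hc
      apply hnc
      have h11 : Nest_85.run D.step q (p ++ s) = (Lv D v0 D.LC D.RC).c s := by
        unfold Nest_85.run
        rw [List.foldl_append, h2]; exact h6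
      have := Cut.prepend (v := p ++ s) (q := q) (w := u) (L := Lv D v0 D.LA D.RA)
        (step := D.step) (by rw [h11]; exact hc)
      simpa using this

/-- completeness from an arbitrary state -/
theorem comp_state (hD : D.Ok) (v0 : V) : ∀ (m : ℕ) (u : List α) (v : V) (w : List α),
    u.length = m → u.length < D.B → D.G (u ++ w) → D.Nb + D.B ≤ w.length →
    ∃ P r s, w = P ++ r ++ s ∧ D.Pmin ≤ (u ++ P).length ∧
      ((((Lv D v0 D.LA D.RA).Lg (P.foldl D.step (u, v))) ∧ r ∈ (Lv D v0 D.LA D.RA).R) ∨
       (((Lv D v0 D.LC D.RC).Lg (P.foldl D.step (u, v))) ∧ r ∈ (Lv D v0 D.LC D.RC).R)) := by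
  -- the case of an anchor at the start
  have base : ∀ (v : V) (w : List α), D.G w → D.Nb ≤ w.length → ∃ P r s, w = P ++ r ++ s ∧
      D.Pmin ≤ P.length ∧ P.length < D.B ∧
      ((D.LA P v ∧ r ∈ (Lv D v0 D.LA D.RA).R) ∨ (D.LC P v ∧ r ∈ (Lv D v0 D.LC D.RC).R)) := by
    intro v w hG hw
    obtain ⟨P, r, s, e, h1, h2, h3⟩ := hD.comp w v hG hw
    have hGr : D.G r := by
      rw [e] at hG
      exact hD.Gr P _ (hD.Gl (P ++ r) s hG)
    refine ⟨P, r, s, e, h1, h2, ?_⟩
    rcases h3 with ⟨h4, h5⟩ | ⟨h4, h5⟩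
    · exact Or.inl ⟨h4, hGr, h5⟩
    · exact Or.inr ⟨h4, hGr, h5⟩
  intro m
  induction m using Nat.strong_induction_on with
  | _ m ih =>
  intro u v w hm hu hG hw
  have hB := hD.Bpos
  by_cases hm0 : m = 0
  · have hu0 : u = [] := List.length_eq_zero_iff.1 (by omega)
    subst hu0
    obtain ⟨P, r, s, e, h1, h2, h3⟩ := base v w (by simpa using hG) (by omega)
    refine ⟨P, r, s, e, by simpa using h1, ?_⟩
    rw [foldl_short D P [] v (by simpa using h2)]
    rcases h3 with ⟨h4, h5⟩ | ⟨h4, h5⟩
    · exact Or.inl ⟨⟨by simpa using h4, by simpa using h2⟩, h5⟩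
    · exact Or.inr ⟨⟨by simpa using h4, by simpa using h2⟩, h5⟩
  · have hXl : ((u ++ w).take D.B).length = D.B := by
      rw [List.length_take, List.length_append]; omega
    have hGX : D.G ((u ++ w).take D.B) :=
      hD.Gl _ ((u ++ w).drop D.B) (by rw [List.take_append_drop]; exact hG)
    obtain ⟨h1, h2, h3⟩ := hD.nx_ok _ hGX hXl
    set b := D.nx ((u ++ w).take D.B) with hb
    set v1 := D.zm ((u ++ w).take b) v with hv1
    have hBz := hD.hB
    -- a long prefix of the text is re-anchored at `b`
    have key : ∀ P y, w = P ++ y → D.B ≤ (u ++ P).length →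
        P.foldl D.step (u, v) = R D v1 ((u ++ P).drop b) := by
      intro P y e hP
      have hGP : D.G (u ++ P) := hD.Gl _ y (by rw [List.append_assoc, ← e]; exact hG)
      have h4 : (u ++ w).take D.B = (u ++ P).take D.B := by
        rw [e, ← List.append_assoc, List.take_append_of_le_length hP]
      have h5 : (u ++ w).take b = (u ++ P).take b := by
        rw [e, ← List.append_assoc, List.take_append_of_le_length (by omega)]
      rw [foldl_eq D v hu, R_long D hD v hGP hP, ← h4, ← hb, ← h5]
    by_cases hbm : b ≤ m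
    · have hGd : D.G (u.drop b ++ w) := by
        have : u.take b ++ (u.drop b ++ w) = u ++ w := by
          rw [← List.append_assoc, List.take_append_drop]
        exact hD.Gr (u.take b) _ (by rw [this]; exact hG)
      have hl : (u.drop b).length = m - b := by rw [List.length_drop]; omega
      obtain ⟨P, r, s, e, h4, h5⟩ := ih (m - b) (by omega) (u.drop b) v1 w hl
        (by omega) hGd hw
      have h6 : (u ++ P).length = b + (u.drop b ++ P).length := by
        rw [List.length_append, List.length_append, hl]; omega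
      have h7 := key P (r ++ s) (by rw [e]; simp) (by omega)
      have h8 : (u ++ P).drop b = u.drop b ++ P := List.drop_append_of_le_length (by omega)
      have h9 : P.foldl D.step (u.drop b, v1) = R D v1 (u.drop b ++ P) :=
        foldl_eq D v1 (by omega) P
      refine ⟨P, r, s, e, by omega, ?_⟩
      rw [h7, h8, ← h9]
      exact h5
    · have hlw : (w.drop (b - m)).length = w.length - (b - m) := List.length_drop
      have hG2 : D.G (w.drop (b - m)) := by
        refine hD.Gr (u ++ w.take (b - m)) _ ?_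
        rw [List.append_assoc, List.take_append_drop]; exact hG
      obtain ⟨P, r, s, e, h4, h5, h6⟩ := base v1 (w.drop (b - m)) hG2 (by omega)
      have hl1 : (w.take (b - m)).length = b - m := by rw [List.length_take]; omega
      have e1 : w = (w.take (b - m) ++ P) ++ r ++ s := by
        conv_lhs => rw [← List.take_append_drop (b - m) w]
        rw [e]; simp
      have h7 := key (w.take (b - m) ++ P) (r ++ s) (by
          conv_lhs => rw [e1]
          simp) (by
          simp only [List.length_append, hl1]; omega)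
      have h8 : (u ++ (w.take (b - m) ++ P)).drop b = P := by
        rw [← List.append_assoc, List.drop_append, List.drop_eq_nil_of_le (by
          rw [List.length_append, hl1]; omega)]
        rw [List.length_append, hl1, show b - (u.length + (b - m)) = 0 by omega]
        simp
      rw [h8, R_short D v1 h5] at h7
      refine ⟨w.take (b - m) ++ P, r, s, e1, by simp only [List.length_append, hl1]; omega, ?_⟩
      rw [h7]
      rcases h6 with ⟨h9, h10⟩ | ⟨h9, h10⟩
      · exact Or.inl ⟨⟨h9, h5⟩, h10⟩
      · exact Or.inr ⟨⟨h9, h5⟩, h10⟩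

/-- **HALF 1, abstract form.** -/
theorem two_level [Finite α] [Finite V] (hD : D.Ok) (q : List α × V)
    (hq : q.1.length < D.B) (T : List α × V → Prop) :
    ∃ E : Language α, H 2 E ∧ ∀ w, D.G (q.1 ++ w) → (w ∈ E ↔ T (w.foldl D.step q)) := by
  set A := Lv D q.2 D.LA D.RA with hA
  set C := Lv D q.2 D.LC D.RC with hC
  have base : ∀ q', q'.1.length < D.B → ∀ T : List α × V → Prop, True →
      ∃ E : Language α, H 0 E ∧ ∀ w, (Prom D q' w ∧ ¬ Cut D.step A q' w) →
        ¬ Cut D.step C q' w → (w ∈ E ↔ T (Nest_85.run D.step q' w)) := by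
    intro q' hq' T _
    refine ⟨{w | w.length ≤ D.Nb + D.B ∧ T (Nest_85.run D.step q' w)},
      H.bounded 0 (D.Nb + D.B) fun w hw => hw.1, ?_⟩
    rintro w ⟨h1, h2⟩ h3
    have hlen : w.length ≤ D.Nb + D.B := by
      by_contra hlt
      obtain ⟨P, r, s, e, _, h5⟩ := comp_state D hD q.2 _ q'.1 q'.2 w rfl hq' h1 (by omega)
      rcases h5 with ⟨h6, h7⟩ | ⟨h6, h7⟩
      · exact h2 ⟨P, r, s, e.symm, h7, h6⟩
      · exact h3 ⟨P, r, s, e.symm, h7, h6⟩
    exact ⟨fun h => h.2, fun h => ⟨hlen, h⟩⟩
  have pre : ∀ q' (u v : List α), Prom D q' (u ++ v) → Prom D q' u := by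
    intro q' u v h
    unfold Prom at h ⊢
    exact hD.Gl _ v (by simpa using h)
  have s1 := nest D.step (fun q => q.1.length < D.B)
    (fun q w => Prom D q w ∧ ¬ Cut D.step A q w)
    (fun q' u v h => ⟨pre q' u v h.1, fun hc => h.2 hc.append⟩) C (okC D hD q.2) 0
    (fun _ => True) trivial base
  have s2 := nest D.step (fun q => q.1.length < D.B) (Prom D) pre A (okA D hD q.2) 1
    (fun _ => True) trivial (by
      intro q' hq' T hT
      obtain ⟨E, h1, h2⟩ := s1 q' hq' T hT
      exact ⟨E, h1, fun w h3 h4 => h2 w ⟨h3, h4⟩⟩)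
  exact s2 q hq T trivial

end Crest.Agent.R320.Half_513
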