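import Crest.Agent.R320.Run_548
import Crest.Agent.R320.WallSch_870
import Crest.Agent.R320.Zone132_898

set_option autoImplicit false

/-! Row 320 (helper548): the two levels of 132 #12664 on one state machine (118 #13043). -/

namespace Crest.Agent.R320.Half_548

open Crest.Agent.R320.Nest_85 Crest.Agent.R320.Run_548 Crest.Agent.R320.WallSch_870
open Crest.Agent.R320.Zone132_898

structure Par (α S V W : Type) [Monoid S] [AddCommGroup V] [AddCommGroup W] where
  D : Data α S V W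
  h1 : D.N1
  h2 : D.N2
  R : List α → Prop
  n : ℕ
  hn : 0 < n
  R1 : ∀ Q, R Q ↔ R (Q.take n)
  R2 : ∀ Q, R Q → n ≤ Q.length
  z : ℤ
  th : ℤ → ℤ
  p0 : ℕ
  N1 : ℕ
  Sb : ℤ
  hth : ∀ r, -Sb ≤ th r
  hz : (p0 : ℤ) + N1 + Sb < z
  hN1 : ∀ i, i < D.m → D.q * (D.lo i + D.M) ≤ N1
  K : ℕ
  c : ℕ → ℕ
  hc : ∀ k < K, c k ≤ p0
  lam : ℕ → List α → Option V
  rho : ℕ → List α → S → Option V
  nu2 : List α → S → V
  sound2 : ∀ k < K, ∀ (P Q : List α) (y : S) (v b : V), P.length = c k →
    lam k P = some v → rho k Q y = some b → b = D.act v (D.phi (P ++ Q) * y) + nu2 (P ++ Q) y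
  D1 : ℕ
  hD1 : 0 < D1
  D2 : ℕ
  hD2 : 0 < D2

variable {α S V W : Type} [Monoid S] [AddCommGroup V] [AddCommGroup W]

namespace Par

variable (P : Par α S V W)

/-- admissible distances -/
def Ok (t : ℕ) : Prop := Ok132 P.z (P.D.q : ℤ) P.th t

/-- left-legal distances -/
def LLd (o : ℕ) : Prop := LL132 P.p0 P.N1 (P.D.q : ℤ) o

theorem Ok_gt {t : ℕ} (h : P.Ok t) : P.p0 + P.N1 < t := by
  unfold Ok Ok132 at h
  have h1 := P.hth (((t : ℤ) - P.z) % (P.D.q : ℤ))
  have h2 := P.hz
  omega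

theorem sep : ∀ s o, P.Ok s → P.LLd o → o < s := by
  intro s o h1 h2
  have h3 := P.Ok_gt h1
  have h4 := h2.2.1
  omega

open Classical in
/-- the chain rule -/
noncomputable def nxt : Nxt α where
  nx := fun Q => if h : ∃ t, Nx P.R P.Ok Q t then some h.choose else none
  n := P.n
  pos := by
    intro Q t h
    split_ifs at h with h'
    · cases h
      have := P.Ok_gt h'.choose_spec.2.1
      omega
  len := by
    intro Q t h
    split_ifs at h with h'
    · cases h
      exact R_drop_len P.R2 h'.choose_spec.1 P.hn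
  ext := by
    intro Q y t h
    split_ifs at h with h'
    · cases h
      have h3 := h'.choose_spec
      have h4 := (Nx_app (Ok := P.Ok) P.R1 y (R_drop_len P.R2 h3.1 P.hn)).2 h3
      have hex : ∃ t, Nx P.R P.Ok (Q ++ y) t := ⟨_, h4⟩
      rw [dif_pos hex]
      congr 1
      exact Nx_uniq hex.choose_spec h4

theorem nx_eq {Q : List α} {t : ℕ} (h : Nx P.R P.Ok Q t) : P.nxt.nx Q = some t := by
  classical
  have hex : ∃ t, Nx P.R P.Ok Q t := ⟨_, h⟩
  show (if h : ∃ t, Nx P.R P.Ok Q t then some h.choose else none) = some t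
  rw [dif_pos hex]
  congr 1
  exact Nx_uniq hex.choose_spec h

theorem nx_spec {Q : List α} {t : ℕ} (h : P.nxt.nx Q = some t) : Nx P.R P.Ok Q t := by
  classical
  change (if h : ∃ t, Nx P.R P.Ok Q t then some h.choose else none) = some t at h
  split_ifs at h with h'
  · cases h
    exact h'.choose_spec

theorem nx_short {Q : List α} (h : Q.length ≤ P.p0 + P.N1) : P.nxt.nx Q = none := by
  rcases h' : P.nxt.nx Q with _ | t
  · rfl
  · have h1 := P.nxt.len _ _ h'
    have h2 := P.Ok_gt (P.nx_spec h').2.1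
    omega

/-- value in the frame `a + p0` -/
def mid (v : V) (Z : List α) : V := P.D.act v (P.D.phi (Z.take P.p0)) + P.nu2 (Z.take P.p0) 1

/-- the zone map with the noises of both schemes -/
noncomputable def A (v : V) (Z : List α) : V :=
  P.D.act (P.mid v Z) (P.D.phi (Z.drop P.p0)) + P.D.nu (Z.drop P.p0)

noncomputable def stp : List α × V → α → List α × V := step P.nxt P.A

/-- the residual run -/
noncomputable def G (Q : List α) (v : V) : List α × V := F P.nxt P.A Q v

def Lg1 (q : List α × V) : Prop := P.p0 ≤ q.1.length ∧ P.D.LL (q.1.drop P.p0) (P.mid q.2 q.1)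

def Rt1 (r : List α) (x : ℕ × V) : Prop := Fs P.R P.Ok P.LLd r x.1 ∧ P.D.RR (r.take x.1) x.2

open Classical in
noncomputable def L1 : Level α (List α × V) where
  Lg := P.Lg1
  R := {r | r.length = P.D1 ∧ ∃ x, P.Rt1 r x}
  c := fun r => if h : ∃ x, P.Rt1 r x then P.G (r.drop h.choose.1) h.choose.2 else ([], 0)

/-- right-legal data of scheme 2 -/
def Rt2 (r : List α) (x : ℕ × ℕ × V) : Prop :=
  x.1 < P.K ∧ (∀ k' < P.K, k' ≠ x.1 → ∀ u1 : List α, u1.length = P.c k' → ∀ v1 : V,
    Cut P.stp P.L1 (u1, v1) r) ∧ P.R (r.drop x.2.1) ∧ P.Ok (P.c x.1 + x.2.1) ∧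
    (∀ s < x.2.1, P.R (r.drop s) → ¬ P.Ok (P.c x.1 + s)) ∧
    P.rho x.1 (r.take (P.p0 - P.c x.1)) 1 = some x.2.2

def Lg2 (q : List α × V) : Prop := ∃ k < P.K, q.1.length = P.c k ∧ P.lam k q.1 = some q.2

open Classical in
noncomputable def L2 : Level α (List α × V) where
  Lg := P.Lg2
  R := {r | r.length = P.D2 ∧ ∃ x, P.Rt2 r x}
  c := fun r => if h : ∃ x, P.Rt2 r x then
    P.G (r.drop h.choose.2.1) (P.D.act h.choose.2.2
        (P.D.phi ((r.take h.choose.2.1).drop (P.p0 - P.c h.choose.1)))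
      + P.D.nu ((r.take h.choose.2.1).drop (P.p0 - P.c h.choose.1))) else ([], 0)

theorem LL_len {X : List α} {v : V} (h : P.D.LL X v) : X.length ≤ P.N1 ∧ P.D.q ∣ X.length := by
  obtain ⟨c, om, H, h1, h2, h3, h4, -⟩ := h
  have h5 := P.hN1 _ h2
  have h6 : P.D.q * om ≤ P.D.q * (P.D.lo c.i + P.D.M) := Nat.mul_le_mul_left _ (by omega)
  exact ⟨by omega, ⟨om, h1⟩⟩

theorem Lg1_LLd {q : List α × V} (h : P.Lg1 q) : P.LLd q.1.length := by
  obtain ⟨h1, h2⟩ := h
  obtain ⟨h3, h4⟩ := P.LL_len h2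
  rw [List.length_drop] at h3 h4
  refine ⟨h1, by omega, ?_⟩
  obtain ⟨j, hj⟩ := h4
  exact ⟨j, by omega⟩

/-- exactness of scheme 1 -/
theorem exact1 {u r : List α} {v : V} {x : ℕ × V} (hL : P.Lg1 (u, v)) (hR : P.Rt1 r x) :
    P.G (u ++ r) v = P.G (r.drop x.1) x.2 := by
  obtain ⟨h1, h2⟩ := hR
  have hj := junc P.sep (P := u) (P.Lg1_LLd hL) h1
  have hn := P.nx_eq hj
  have h3 : P.p0 ≤ u.length := hL.1
  unfold G
  rw [F_some _ _ hn]
  have e1 : (u ++ r).drop (u.length + x.1) = r.drop x.1 := by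
    rw [← List.drop_drop, List.drop_left]
  have e2 : (u ++ r).take (u.length + x.1) = u ++ r.take x.1 := by
    rw [List.take_append]; simp
  have e3 : P.A v (u ++ r.take x.1) = x.2 := by
    unfold A mid
    rw [List.take_append_of_le_length h3, List.drop_append_of_le_length h3]
    exact (P.D.sound P.h1 P.h2 hL.2 h2).symm
  rw [e1, e2, e3]

/-- exactness of scheme 2 -/
theorem exact2 {u r : List α} {v : V} {x : ℕ × ℕ × V} (hu : u.length = P.c x.1)
    (hl : P.lam x.1 u = some v) (hR : P.Rt2 r x) :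
    P.G (u ++ r) v = P.G (r.drop x.2.1) (P.D.act x.2.2
        (P.D.phi ((r.take x.2.1).drop (P.p0 - P.c x.1)))
      + P.D.nu ((r.take x.2.1).drop (P.p0 - P.c x.1))) := by
  obtain ⟨k, b, val⟩ := x
  obtain ⟨h1, -, h3, h4, h5, h6⟩ := hR
  simp only at h1 h3 h4 h5 h6 hu hl ⊢
  have hc := P.hc k h1
  have hgt := P.Ok_gt h4
  have hd : ∀ s, (u ++ r).drop (u.length + s) = r.drop s := by
    intro s
    rw [← List.drop_drop, List.drop_left]
  have hN : Nx P.R P.Ok (u ++ r) (u.length + b) := by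
    refine ⟨by rw [hd]; exact h3, by rw [hu]; exact h4, ?_⟩
    intro s hs hRs hO
    have := P.Ok_gt hO
    obtain ⟨s', rfl⟩ := Nat.exists_eq_add_of_le (show u.length ≤ s by omega)
    rw [hd] at hRs
    rw [hu] at hO
    exact h5 s' (by omega) hRs hO
  unfold G
  rw [F_some _ _ (P.nx_eq hN)]
  have e2 : (u ++ r).take (u.length + b) = u ++ r.take b := by
    rw [List.take_append]; simp
  have e3 : P.A v (u ++ r.take b) = P.D.act val (P.D.phi ((r.take b).drop (P.p0 - P.c k)))
      + P.D.nu ((r.take b).drop (P.p0 - P.c k)) := by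
    unfold A mid
    have e4 : (u ++ r.take b).take P.p0 = u ++ r.take (P.p0 - P.c k) := by
      rw [List.take_append, List.take_of_length_le (by omega), List.take_take, hu]
      congr 2
      omega
    have e5 : (u ++ r.take b).drop P.p0 = (r.take b).drop (P.p0 - P.c k) := by
      rw [List.drop_append, List.drop_eq_nil_of_le (by omega), List.nil_append, hu]
    rw [e4, e5]
    have := P.sound2 k h1 u (r.take (P.p0 - P.c k)) 1 v val hu hl h6
    rw [mul_one] at this
    rw [← this]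
  rw [hd, e2, e3]

end Par

end Crest.Agent.R320.Half_548
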