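import Crest.Agent.R320.Joint_369

/-!
# Row 320: height-one facts for the natural chain rule (helper369)
-/

set_option autoImplicit false

namespace Crest.Agent.R320.Joint369

open Crest.RegLang Crest.Agent.R320.Hk_851 Crest.Agent.R320.FewWalls_228
open Crest.Agent.R320.WallU_228

section

variable {α : Type}

theorem val_reg {M : Type} [Monoid M] [Finite M] (φ : α → M) (s : M) :
    Language.IsRegular ({w | (w.map φ).prod = s} : Language α) := by
  classical
  haveI := Fintype.ofFinite M
  have key : ∀ (w : List α) (m : M), w.foldl (fun (m : M) b => m * φ b) m =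
      m * (w.map φ).prod := by
    intro w
    induction w with
    | nil => intro m; simp
    | cons a w ih => intro m; simp [ih, mul_assoc]
  let D : DFA α M := ⟨fun m b => m * φ b, 1, {s}⟩
  refine ⟨M, inferInstance, D, ?_⟩
  ext w
  show D.evalFrom 1 w ∈ ({s} : Set M) ↔ (w.map φ).prod = s
  have : D.evalFrom 1 w = (w.map φ).prod := by
    show w.foldl (fun (m : M) b => m * φ b) 1 = _
    rw [key, one_mul]
  rw [this]
  rfl

theorem nw_drop {n : ℕ} {S : Set (List α)} (w : List α) (m : ℕ) (hm : m ≤ w.length) :
    nw n S (w.drop m) ≤ nw n S w := by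
  classical
  unfold nw
  apply Finset.card_le_card_of_injOn (fun x => m + x)
  · intro x hx
    rw [Finset.mem_coe, Finset.mem_filter, Finset.mem_range] at hx
    rw [Finset.mem_coe, Finset.mem_filter, Finset.mem_range]
    obtain ⟨h1, h2⟩ := hx
    rw [List.length_drop] at h1
    refine ⟨?_, (wl_drop hm).1 h2⟩
    show m + x < w.length + 1
    omega
  · intro x _ y _ h
    simp only at h
    omega

theorem nw_CC {n z : ℕ} {S : Set (List α)} {X : List α} (hX : X ∈ CC (Wo n S) z) :
    nw n S X ≤ z + 1 := by
  classical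
  unfold nw
  have hsub : (Finset.range (X.length + 1)).filter (fun x => Wl n S X x) ⊆
      insert (X.length - n) (Finset.range z) := by
    intro x hx
    rw [Finset.mem_filter] at hx
    obtain ⟨h1, h2⟩ := wo_take.1 hx.2
    rw [Finset.mem_insert, Finset.mem_range]
    by_contra h
    push Not at h
    have h3 : x + n < X.length := by omega
    exact hX.2.2 (x + n) (by omega) h3 h2
  calc _ ≤ _ := Finset.card_le_card hsub
    _ ≤ _ := Finset.card_insert_le _ _
    _ = z + 1 := by rw [Finset.card_range]

theorem nw_NC {n z : ℕ} {S : Set (List α)} {X : List α} (hX : ∀ Y ∈ CC (Wo n S) z, ¬ Y <+: X) :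
    nw n S X ≤ z + 1 := by
  classical
  unfold nw
  have hsub : (Finset.range (X.length + 1)).filter (fun x => Wl n S X x) ⊆ Finset.range z := by
    intro x hx
    rw [Finset.mem_filter] at hx
    obtain ⟨h1, h2⟩ := wo_take.1 hx.2
    rw [Finset.mem_range]
    by_contra h
    obtain ⟨e, -, -, -, -, h5⟩ := first_block (z := z) (w := x + n) (by omega) h1 h2
    exact hX _ h5 (List.take_prefix _ _)
  have := Finset.card_le_card hsub
  rw [Finset.card_range] at this
  omega

theorem HL_Wo [Finite α] {k : ℕ} (n : ℕ) (S : Set (List α)) :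
    HL k ({X | Wo n S X} : Language α) := by
  have hf : HL k (({w | w.length = n ∧ w ∈ S} : Set (List α)) : Language α) :=
    HL.finite ((List.finite_length_eq α n).subset fun v hv => hv.1)
  refine ((HL.top (α := α) (k := k)).mul hf).congr fun X => ?_
  constructor
  · rintro ⟨h1, h2⟩
    refine Language.mem_mul.2 ⟨X.take (X.length - n), trivial, X.drop (X.length - n), ⟨?_, h2⟩,
      List.take_append_drop _ _⟩
    rw [List.length_drop]; omega
  · intro h
    obtain ⟨a, -, b, ⟨hb1, hb2⟩, rfl⟩ := Language.mem_mul.1 h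
    have hb1' : b.length = n := hb1
    refine ⟨by rw [List.length_append]; omega, ?_⟩
    have e : (a ++ b).length - n = a.length := by rw [List.length_append]; omega
    rw [e, List.drop_left]
    exact hb2

theorem HL_CC [Finite α] {k : ℕ} (n z : ℕ) (S : Set (List α)) :
    HL k ((CC (Wo n S) z : Set (List α)) : Language α) := by
  have hA : HL k ({X | z ≤ X.length ∧ Wo n S X} : Language α) :=
    (HL.length_ge z).setOf_and (HL_Wo n S)
  have hB : HL k ({X | 1 ≤ X.length} : Language α) := HL.length_ge 1
  refine (hA.inf (hA.mul hB).compl).congr fun X => ?_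
  constructor
  · rintro ⟨h1, h2, h3⟩
    refine ⟨⟨h1, h2⟩, ?_⟩
    intro h
    obtain ⟨a, ⟨ha1, ha2⟩, b, hb, rfl⟩ := Language.mem_mul.1 h
    have hb' : 1 ≤ b.length := hb
    refine h3 a.length ha1 (by rw [List.length_append]; omega) ?_
    rw [List.take_left]
    exact ha2
  · rintro ⟨⟨h1, h2⟩, h3⟩
    refine ⟨h1, h2, fun t ht htl hW => h3 ?_⟩
    refine Language.mem_mul.2 ⟨X.take t, ⟨?_, hW⟩, X.drop t, ?_, List.take_append_drop _ _⟩
    · show z ≤ (X.take t).length
      rw [List.length_take]; omega
    · show 1 ≤ (X.drop t).length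
      rw [List.length_drop]; omega

/-- languages which depend on a bounded prefix, the length mod `Pm` and a product -/
theorem key_HL [Finite α] {n : ℕ} {S' : Set (List α)}
    (hHL : ∀ (L : Language α), L.IsRegular → ∀ r, HL 1 ({w | w ∈ L ∧ nw n S' w ≤ r} : Language α))
    {S : Type} [Monoid S] [Finite S] (φ : α → S) (N2 Pm : ℕ) (hPm : 0 < Pm)
    (Φ : List α → Prop)
    (hΦ : ∀ X X' : List α, N2 ≤ X.length → N2 ≤ X'.length → X.take N2 = X'.take N2 →
      X.length % Pm = X'.length % Pm → pr φ (X.drop N2) = pr φ (X'.drop N2) → Φ X → Φ X')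
    {D : Language α} (hD : HL 1 D) (r : ℕ) (hr : ∀ X ∈ D, nw n S' X ≤ r) :
    HL 1 ({X | X ∈ D ∧ Φ X} : Language α) := by
  classical
  haveI : NeZero Pm := ⟨hPm.ne'⟩
  let M := S × Multiplicative (ZMod Pm)
  let f : α → M := fun a => (φ a, Multiplicative.ofAdd 1)
  have hf : ∀ w : List α, (w.map f).prod = (pr φ w, Multiplicative.ofAdd (w.length : ZMod Pm)) := by
    intro w
    induction w with
    | nil => simp [pr]; rfl
    | cons a w ih =>
      rw [List.map_cons, List.prod_cons, ih]
      refine Prod.ext ?_ ?_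
      · show φ a * (w.map φ).prod = ((a :: w).map φ).prod
        simp
      · show Multiplicative.ofAdd (1 : ZMod Pm) * Multiplicative.ofAdd (w.length : ZMod Pm) = _
        rw [← ofAdd_add, List.length_cons]
        congr 1
        push_cast
        ring
  have hfin : HL 1 (({X | X.length < N2 ∧ Φ X} : Set (List α)) : Language α) :=
    HL.finite ((List.finite_length_lt α N2).subset fun v hv => hv.1)
  let G : List α → M → Language α := fun u m =>
    {w | (∃ w', (w'.map f).prod = m ∧ Φ (u ++ w')) ∧
        (w ∈ ({w | (w.map f).prod = m} : Language α) ∧ nw n S' w ≤ r)}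
  let WW : List α → Language α := fun u => {u}
  let G1 : List α → Language α := fun u => {X | ∃ m : M, X ∈ WW u * G u m}
  have hG1 : ∀ u, HL 1 (G1 u) := fun u =>
    HL.iUnion (L := fun m : M => WW u * G u m) fun m =>
      HL.mul (L := WW u) (M := G u m) (HL.word u)
        ((HL.const (∃ w', (w'.map f).prod = m ∧ Φ (u ++ w'))).setOf_and (hHL _ (val_reg f m) r))
  have hlong : HL 1 ({X | ∃ u ∈ {u : List α | u.length = N2}, X ∈ G1 u} : Language α) :=
    HL.biUnion (List.finite_length_eq α N2) (L := G1) fun u _ => hG1 u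
  refine (hD.inf (hfin.sup hlong)).congr fun X => ?_
  constructor
  · rintro ⟨h1, h2⟩
    refine ⟨h1, ?_⟩
    rcases Nat.lt_or_ge X.length N2 with h | h
    · exact Or.inl ⟨h, h2⟩
    · right
      refine ⟨X.take N2, ?_, ((X.drop N2).map f).prod, ?_⟩
      · show (X.take N2).length = N2
        rw [List.length_take]; omega
      · refine Language.mem_mul.2 ⟨X.take N2, rfl, X.drop N2, ⟨⟨X.drop N2, rfl, ?_⟩, rfl, ?_⟩,
          List.take_append_drop _ _⟩
        · rw [List.take_append_drop]; exact h2
        · exact le_trans (nw_drop X N2 h) (hr X h1)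
  · rintro ⟨h1, h2 | ⟨u, hu, m, h2⟩⟩
    · exact ⟨h1, h2.2⟩
    · refine ⟨h1, ?_⟩
      obtain ⟨a, ha, w, ⟨⟨w', hw'1, hw'2⟩, hw1, hw2⟩, rfl⟩ := Language.mem_mul.1 h2
      have ha' : a = u := ha
      subst ha'
      have hu' : a.length = N2 := hu
      have hw1' : (w.map f).prod = m := hw1
      have he : (pr φ w', Multiplicative.ofAdd (w'.length : ZMod Pm)) =
          (pr φ w, Multiplicative.ofAdd (w.length : ZMod Pm)) := by
        rw [← hf, ← hf, hw'1, hw1']
      have he1 : pr φ w' = pr φ w := congrArg Prod.fst he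
      have he2 : ((w'.length : ℕ) : ZMod Pm) = (w.length : ℕ) := by
        have := congrArg Prod.snd he
        exact Multiplicative.ofAdd.injective this
      rw [ZMod.natCast_eq_natCast_iff'] at he2
      refine hΦ (a ++ w') (a ++ w) (by rw [List.length_append]; omega)
        (by rw [List.length_append]; omega) ?_ ?_ ?_ hw'2
      · rw [← hu', List.take_left, List.take_left]
      · rw [List.length_append, List.length_append, Nat.add_mod, he2, ← Nat.add_mod]
      · rw [← hu', List.drop_left, List.drop_left, he1]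

end

end Crest.Agent.R320.Joint369
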