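import Crest.Agent.R320.FewVal_228
import Crest.Agent.R320.Reg_852

/-!
# Row 320: the natural block code of left-looking walls has fibres of height one (helper138)

Walls in the window format of `FewWalls_228` (`S` = set of windows of length `n`, `PerOff n c P S`).
`Wo n S P` : the word `P` ends with a window of `S` (left-looking wall at the end of `P`).
`XX n S z`  : blocks = words that end at their first wall `≥ z`.
`XX2 n S z` : blocks = words that end at the wall following the first wall `≥ z`.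
-/

set_option autoImplicit false

namespace Crest.Agent.R320.Hfib_138

open Crest.RegLang Crest.Agent.R320.Hk_851 Crest.Agent.R320.FewWalls_228
open Crest.Agent.R320.FewVal_228 Crest.Agent.R320.Reg_852

universe u

variable {α : Type u}

/-- left-looking wall: `P` ends with a window of `S` -/
def Wo (n : ℕ) (S : Set (List α)) (P : List α) : Prop :=
  n ≤ P.length ∧ P.drop (P.length - n) ∈ S

theorem Wo_len {n : ℕ} {S : Set (List α)} {P : List α} (h : Wo n S P) : n ≤ P.length := h.1

theorem Wo_append {n : ℕ} {S : Set (List α)} (P Q : List α) (h : n ≤ Q.length) :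
    Wo n S (P ++ Q) ↔ Wo n S Q := by
  have e : (P ++ Q).drop ((P ++ Q).length - n) = Q.drop (Q.length - n) := by
    rw [List.drop_append, List.drop_eq_nil_of_le (by rw [List.length_append]; omega),
      List.nil_append, List.length_append]
    congr 1
    omega
  unfold Wo
  rw [e, List.length_append]
  constructor
  · rintro ⟨_, h2⟩; exact ⟨h, h2⟩
  · rintro ⟨_, h2⟩; exact ⟨by omega, h2⟩

theorem Wo_take {n : ℕ} {S : Set (List α)} {w : List α} {t : ℕ} (ht : t ≤ w.length) :
    Wo n S (w.take t) ↔ n ≤ t ∧ Wl n S w (t - n) := by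
  unfold Wo Wl
  rw [List.length_take, min_eq_left ht, List.drop_take]
  constructor
  · rintro ⟨h1, h2⟩
    refine ⟨h1, by omega, ?_⟩
    rwa [show t - (t - n) = n by omega] at h2
  · rintro ⟨h1, _, h2⟩
    refine ⟨h1, ?_⟩
    rwa [show t - (t - n) = n by omega]

theorem Wo_of_Wl {n : ℕ} {S : Set (List α)} {w : List α} {x : ℕ} (h : Wl n S w x) :
    Wo n S (w.take (x + n)) :=
  (Wo_take h.1).2 ⟨by omega, by rwa [Nat.add_sub_cancel]⟩

/-- the language of a predicate -/
def lg (p : List α → Prop) : Language α := {w | p w}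

theorem mem_lg {p : List α → Prop} {w : List α} : w ∈ lg p ↔ p w := Iff.rfl

/-- blocks: end at the first wall `≥ z` -/
def XX (n : ℕ) (S : Set (List α)) (z : ℕ) : Set (List α) :=
  {X | z ≤ X.length ∧ Wo n S X ∧ ∀ t, z ≤ t → t < X.length → ¬ Wo n S (X.take t)}

/-- blocks: end at the wall following the first wall `≥ z` -/
def XX2 (n : ℕ) (S : Set (List α)) (z : ℕ) : Set (List α) :=
  {X | Wo n S X ∧ ∃ t, z ≤ t ∧ t < X.length ∧ Wo n S (X.take t) ∧
    ∀ s, z ≤ s → s < X.length → Wo n S (X.take s) → s = t}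

section heights

variable [Finite α] {k : ℕ}

theorem HL_Wo (n : ℕ) (S : Set (List α)) : HL k (lg (Wo n S)) := by
  have hf : ({v : List α | v.length = n ∧ v ∈ S}).Finite :=
    (List.finite_length_eq α n).subset fun v hv => hv.1
  refine (HL.suffix (HL.finite (k := k) hf)).congr fun w => ?_
  constructor
  · rintro ⟨h1, h2⟩
    exact ⟨_, ⟨by rw [List.length_drop]; omega, h2⟩, List.drop_suffix _ _⟩
  · rintro ⟨v, ⟨h1, h2⟩, u, rfl⟩
    refine (Wo_append u v (by omega)).2 ⟨by omega, ?_⟩
    rw [h1, Nat.sub_self, List.drop_zero]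
    exact h2

/-- the words that end at a wall `≥ z` -/
def Wz (n : ℕ) (S : Set (List α)) (z : ℕ) : Language α := {P | z ≤ P.length ∧ Wo n S P}

theorem HL_Wz (n : ℕ) (S : Set (List α)) (z : ℕ) : HL k (Wz n S z) :=
  HL.setOf_and (HL.length_ge z) (HL_Wo n S)

/-- non-empty words -/
def Ne1 : Language α := {w | 1 ≤ w.length}

theorem HL_ne : HL k (Ne1 : Language α) := HL.length_ge 1

omit [Finite α] in
theorem mem_Wz_mul {n : ℕ} {S : Set (List α)} {z : ℕ} {X : List α} :
    X ∈ Wz n S z * Ne1 ↔
      ∃ t, z ≤ t ∧ t < X.length ∧ Wo n S (X.take t) := by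
  rw [Language.mem_mul]
  constructor
  · rintro ⟨P, ⟨h1, h2⟩, Q, hQ, rfl⟩
    have hQ' : 1 ≤ Q.length := hQ
    refine ⟨P.length, h1, by rw [List.length_append]; omega, ?_⟩
    rwa [List.take_left]
  · rintro ⟨t, h1, h2, h3⟩
    refine ⟨X.take t, ⟨by rw [List.length_take]; omega, h3⟩, X.drop t, ?_,
      List.take_append_drop t X⟩
    show 1 ≤ (X.drop t).length
    rw [List.length_drop]; omega

theorem HL_XX (n : ℕ) (S : Set (List α)) (z : ℕ) : HL k (XX n S z : Language α) := by
  refine ((HL_Wz (k := k) n S z).inf ((HL_Wz (k := k) n S z).mul HL_ne).compl).congr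
    fun X => ?_
  constructor
  · rintro ⟨h1, h2, h3⟩
    refine ⟨⟨h1, h2⟩, ?_⟩
    intro h
    obtain ⟨t, h4, h5, h6⟩ := mem_Wz_mul.1 h
    exact h3 t h4 h5 h6
  · rintro ⟨⟨h1, h2⟩, h3⟩
    refine ⟨h1, h2, fun t h4 h5 h6 => h3 (mem_Wz_mul.2 ⟨t, h4, h5, h6⟩)⟩

theorem HL_XX2 (n : ℕ) (S : Set (List α)) (z : ℕ) : HL k (XX2 n S z : Language α) := by
  have hV : HL k (lg (Wo n S) ⊓ (Wz n S z * Ne1)) :=
    (HL_Wo n S).inf ((HL_Wz n S z).mul HL_ne)
  refine (hV.inf (hV.mul HL_ne).compl).congr fun X => ?_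
  constructor
  · rintro ⟨h1, t, h2, h3, h4, h5⟩
    refine ⟨⟨h1, mem_Wz_mul.2 ⟨t, h2, h3, h4⟩⟩, ?_⟩
    intro h
    obtain ⟨P, ⟨hP1, hP2⟩, Q, hQ, rfl⟩ := Language.mem_mul.1 h
    have hQ' : 1 ≤ Q.length := hQ
    obtain ⟨s, g1, g2, g3⟩ := mem_Wz_mul.1 hP2
    have hP1' : Wo n S P := hP1
    have e1 := h5 P.length (by omega) (by rw [List.length_append]; omega)
      (by rwa [List.take_left])
    have e2 := h5 s g1 (by rw [List.length_append]; omega)
      (by rwa [List.take_append_of_le_length (by omega)])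
    omega
  · rintro ⟨⟨h1, h2⟩, h3⟩
    obtain ⟨t, g1, g2, g3⟩ := mem_Wz_mul.1 h2
    refine ⟨h1, t, g1, g2, g3, ?_⟩
    intro s k1 k2 k3
    by_contra hne
    apply h3
    -- the larger one of `s`, `t` is a place where the prefix is in `V`
    rcases Nat.lt_or_gt_of_ne hne with h | h
    · refine Language.mem_mul.2 ⟨X.take t, ⟨g3, mem_Wz_mul.2 ⟨s, k1, ?_, ?_⟩⟩, X.drop t, ?_,
        List.take_append_drop t X⟩
      · rw [List.length_take]; omega
      · rw [List.take_take, min_eq_left (by omega)]; exact k3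
      · show 1 ≤ (X.drop t).length
        rw [List.length_drop]; omega
    · refine Language.mem_mul.2 ⟨X.take s, ⟨k3, mem_Wz_mul.2 ⟨t, g1, ?_, ?_⟩⟩, X.drop s, ?_,
        List.take_append_drop s X⟩
      · rw [List.length_take]; omega
      · rw [List.take_take, min_eq_left (by omega)]; exact g3
      · show 1 ≤ (X.drop s).length
        rw [List.length_drop]; omega

omit [Finite α] in
/-- no prefix of `r` is a block -/
theorem HL_noprefix {Y : Set (List α)} (hY : HL k (Y : Language α)) :
    HL k ({r | ∀ X ∈ Y, ¬ X <+: r} : Language α) := by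
  refine (HL.prefix hY).compl.congr fun r => ?_
  constructor
  · intro h hr
    obtain ⟨X, h1, h2⟩ := hr
    exact h X h1 h2
  · intro h X h1 h2
    exact h ⟨X, h1, h2⟩

end heights

/-! ### prefix codes -/

theorem XX_prefix {n z : ℕ} {S : Set (List α)} {X Y : List α} (hX : X ∈ XX n S z)
    (hXY : X ++ Y ∈ XX n S z) : Y = [] := by
  by_contra hY
  have hpos : 0 < Y.length := List.length_pos_iff.2 hY
  refine hXY.2.2 X.length hX.1 (by rw [List.length_append]; omega) ?_
  rw [List.take_left]
  exact hX.2.1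

theorem XX2_prefix {n z : ℕ} {S : Set (List α)} {X Y : List α} (hX : X ∈ XX2 n S z)
    (hXY : X ++ Y ∈ XX2 n S z) : Y = [] := by
  by_contra hY
  have hpos : 0 < Y.length := List.length_pos_iff.2 hY
  obtain ⟨h1, t, h2, h3, h4, h5⟩ := hX
  obtain ⟨g1, s, g2, g3, g4, g5⟩ := hXY
  have e1 := g5 X.length (by omega) (by rw [List.length_append]; omega)
    (by rwa [List.take_left])
  have e2 := g5 t h2 (by rw [List.length_append]; omega)
    (by rwa [List.take_append_of_le_length (by omega)])
  omega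

theorem XX_ne_nil {n z : ℕ} {S : Set (List α)} (hn : 0 < n) {X : List α} (hX : X ∈ XX n S z) :
    X ≠ [] := by
  rintro rfl
  have := hX.2.1.1
  simp only [List.length_nil] at this
  omega

theorem XX2_ne_nil {n z : ℕ} {S : Set (List α)} {X : List α} (hX : X ∈ XX2 n S z) :
    X ≠ [] := by
  rintro rfl
  obtain ⟨_, t, _, h, _⟩ := hX
  simp at h

/-! ### number of walls -/

theorem nw_le_of {n r : ℕ} {S : Set (List α)} {w : List α} (F : Finset ℕ) (hF : F.card ≤ r)
    (h : ∀ t ≤ w.length, n ≤ t → Wo n S (w.take t) → t - n ∈ F) : nw n S w ≤ r := by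
  classical
  refine le_trans ?_ hF
  unfold nw
  apply Finset.card_le_card
  intro x hx
  have hx2 := (Finset.mem_filter.1 hx).2
  have := h (x + n) hx2.1 (by omega) (Wo_of_Wl hx2)
  rwa [Nat.add_sub_cancel] at this

theorem nw_XX {n z : ℕ} {S : Set (List α)} {X : List α} (hX : X ∈ XX n S z) :
    nw n S X ≤ z + 1 := by
  classical
  refine nw_le_of (insert (X.length - n) (Finset.range z))
    ((Finset.card_insert_le _ _).trans (by rw [Finset.card_range])) ?_
  intro t ht hn hW
  rw [Finset.mem_insert, Finset.mem_range]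
  rcases Nat.lt_or_ge t X.length with h | h
  · right
    by_contra h2
    exact hX.2.2 t (by omega) h hW
  · left
    omega

theorem nw_XX2 {n z : ℕ} {S : Set (List α)} {X : List α} (hX : X ∈ XX2 n S z) :
    nw n S X ≤ z + 2 := by
  classical
  obtain ⟨h1, t0, h2, h3, h4, h5⟩ := hX
  refine nw_le_of (insert (X.length - n) (insert (t0 - n) (Finset.range z)))
    ((Finset.card_insert_le _ _).trans
      (Nat.add_le_add_right ((Finset.card_insert_le _ _).trans
        (by rw [Finset.card_range])) 1)) ?_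
  intro t ht hn hW
  rw [Finset.mem_insert, Finset.mem_insert, Finset.mem_range]
  rcases Nat.lt_or_ge t X.length with h | h
  · right
    rcases Nat.lt_or_ge t z with h6 | h6
    · right; omega
    · left; rw [h5 t h6 h hW]
  · left
    omega

/-- a word without a block prefix has few walls -/
theorem nw_rest {n z : ℕ} {S : Set (List α)} {r : List α}
    (h : ∀ X ∈ XX n S z, ¬ X <+: r) : nw n S r ≤ z := by
  classical
  refine nw_le_of (Finset.range z) (by rw [Finset.card_range]) ?_
  intro t ht hn hW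
  rw [Finset.mem_range]
  by_contra hz
  have hex : ∃ s, z ≤ s ∧ s ≤ r.length ∧ Wo n S (r.take s) := ⟨t, by omega, ht, hW⟩
  obtain ⟨h1, h2, h3⟩ := Nat.find_spec hex
  have h4 : (r.take (Nat.find hex)).length = Nat.find hex := by
    rw [List.length_take]; omega
  refine h (r.take (Nat.find hex)) ⟨by omega, h3, ?_⟩ (List.take_prefix _ _)
  intro s k1 k2 k3
  rw [h4] at k2
  rw [List.take_take, min_eq_left (by omega)] at k3
  exact Nat.find_min hex k2 ⟨k1, by omega, k3⟩

theorem nw_rest2 {n z : ℕ} {S : Set (List α)} {r : List α}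
    (h : ∀ X ∈ XX2 n S z, ¬ X <+: r) : nw n S r ≤ z + 1 := by
  classical
  by_cases hex : ∃ s, z ≤ s ∧ s ≤ r.length ∧ Wo n S (r.take s)
  · obtain ⟨h1, h2, h3⟩ := Nat.find_spec hex
    refine nw_le_of (insert (Nat.find hex - n) (Finset.range z))
      ((Finset.card_insert_le _ _).trans (by rw [Finset.card_range])) ?_
    intro t ht hn hW
    rw [Finset.mem_insert, Finset.mem_range]
    by_contra hcon
    push Not at hcon
    obtain ⟨c1, c2⟩ := hcon
    have hzt : z ≤ t := by omega
    have hlt : Nat.find hex < t := by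
      rcases Nat.lt_or_ge (Nat.find hex) t with h5 | h5
      · exact h5
      · exfalso
        have := Nat.find_min' hex ⟨hzt, ht, hW⟩
        have e : t = Nat.find hex := by omega
        exact c1 (by rw [← e])
    -- the next wall after `Nat.find hex`
    have hex2 : ∃ s, Nat.find hex < s ∧ s ≤ r.length ∧ Wo n S (r.take s) := ⟨t, hlt, ht, hW⟩
    obtain ⟨g1, g2, g3⟩ := Nat.find_spec hex2
    have hlen : (r.take (Nat.find hex2)).length = Nat.find hex2 := by
      rw [List.length_take]; omega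
    refine h (r.take (Nat.find hex2)) ⟨g3, Nat.find hex, h1, by omega, ?_, ?_⟩
      (List.take_prefix _ _)
    · rw [List.take_take, min_eq_left (by omega)]; exact h3
    · intro s k1 k2 k3
      rw [hlen] at k2
      rw [List.take_take, min_eq_left (by omega)] at k3
      have k4 := Nat.find_min' hex ⟨k1, by omega, k3⟩
      by_contra hne
      exact Nat.find_min hex2 k2 ⟨by omega, by omega, k3⟩
  · refine nw_le_of (Finset.range z) (by rw [Finset.card_range]; omega) ?_
    intro t ht hn hW
    rw [Finset.mem_range]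
    by_contra hz
    exact hex ⟨t, by omega, ht, hW⟩

/-! ### height one -/

section main

variable [Finite α] {n c P : ℕ} {S : Set (List α)}

theorem HL_XX_inter (hn : 0 < n) (hP : 0 < P) (hper : PerOff n c P S) (z : ℕ) {L : Language α}
    (hL : L.IsRegular) : HL 1 ({X | X ∈ XX n S z ∧ X ∈ L} : Language α) :=
  (HL_of_few hn hP hper (z + 1) ((HL.isRegular (HL_XX (k := 0) n S z)).inf hL)
    (fun _ hw => nw_XX hw.1)).congr fun _ => Iff.rfl

theorem HL_XX2_inter (hn : 0 < n) (hP : 0 < P) (hper : PerOff n c P S) (z : ℕ) {L : Language α}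
    (hL : L.IsRegular) : HL 1 ({X | X ∈ XX2 n S z ∧ X ∈ L} : Language α) :=
  (HL_of_few hn hP hper (z + 2) ((HL.isRegular (HL_XX2 (k := 0) n S z)).inf hL)
    (fun _ hw => nw_XX2 hw.1)).congr fun _ => Iff.rfl

theorem HL_rest (hn : 0 < n) (hP : 0 < P) (hper : PerOff n c P S) (z : ℕ) {L : Language α}
    (hL : L.IsRegular) : HL 1 ({r | (∀ X ∈ XX n S z, ¬ X <+: r) ∧ r ∈ L} : Language α) :=
  (HL_of_few hn hP hper z
    ((HL.isRegular (HL_noprefix (HL_XX (k := 0) n S z))).inf hL)
    (fun _ hw => nw_rest hw.1)).congr fun _ => Iff.rfl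

theorem HL_rest2 (hn : 0 < n) (hP : 0 < P) (hper : PerOff n c P S) (z : ℕ) {L : Language α}
    (hL : L.IsRegular) : HL 1 ({r | (∀ X ∈ XX2 n S z, ¬ X <+: r) ∧ r ∈ L} : Language α) :=
  (HL_of_few hn hP hper (z + 1)
    ((HL.isRegular (HL_noprefix (HL_XX2 (k := 0) n S z))).inf hL)
    (fun _ hw => nw_rest2 hw.1)).congr fun _ => Iff.rfl

omit [Finite α] in
theorem isRegular_iUnion {ι : Type*} [Finite ι] {L : ι → Language α}
    (h : ∀ i, (L i).IsRegular) : (lg (fun w => ∃ i, w ∈ L i)).IsRegular := by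
  classical
  have _ := Fintype.ofFinite ι
  have key : ∀ s : Finset ι, (lg (fun w => ∃ i ∈ s, w ∈ L i)).IsRegular := by
    intro s
    induction s using Finset.induction_on with
    | empty =>
      have e : lg (fun w => ∃ i ∈ (∅ : Finset ι), w ∈ L i) = (0 : Language α) := by
        ext w
        constructor
        · rintro ⟨i, hi, _⟩; exact absurd hi (Finset.notMem_empty i)
        · intro h; exact absurd h (Language.notMem_zero w)
      rw [e]; exact isRegular_zero
    | insert a s ha ih =>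
      have e : lg (fun w => ∃ i ∈ insert a s, w ∈ L i) =
          L a + lg (fun w => ∃ i ∈ s, w ∈ L i) := by
        ext w
        rw [Language.mem_add]
        constructor
        · rintro ⟨i, hi, hw⟩
          rcases Finset.mem_insert.1 hi with rfl | hi
          · exact Or.inl hw
          · exact Or.inr ⟨i, hi, hw⟩
        · rintro (hw | ⟨i, hi, hw⟩)
          · exact ⟨a, Finset.mem_insert_self _ _, hw⟩
          · exact ⟨i, Finset.mem_insert_of_mem hi, hw⟩
      rw [e]; exact (h a).add ih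
  have e : lg (fun w => ∃ i, w ∈ L i) = lg (fun w => ∃ i ∈ (Finset.univ : Finset ι), w ∈ L i) := by
    ext w
    constructor
    · rintro ⟨i, hi⟩; exact ⟨i, Finset.mem_univ i, hi⟩
    · rintro ⟨i, _, hi⟩; exact ⟨i, hi⟩
  rw [e]; exact key _

/-- languages read behind a prefix of fixed length -/
theorem isRegular_behind (p0 : ℕ) (R : List α → List α → Prop)
    (hR : ∀ X0, X0.length = p0 → (lg (R X0)).IsRegular) :
    (lg (fun X => p0 ≤ X.length ∧ R (X.take p0) (X.drop p0))).IsRegular := by
  have _ : Finite {x : List α // x.length = p0} := (List.finite_length_eq α p0).to_subtype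
  have key : (lg (fun w => ∃ x : {x : List α // x.length = p0},
      w ∈ (({x.1} : Language α) * lg (R x.1)))).IsRegular :=
    isRegular_iUnion (L := fun x : {x : List α // x.length = p0} =>
      (({x.1} : Language α) * lg (R x.1)))
      fun x => Crest.Agent.R320.Reg_852.IsRegular.mul (HL.isRegular (HL.word (k := 0) x.1)) (hR x.1 x.2)
  have e : lg (fun X => p0 ≤ X.length ∧ R (X.take p0) (X.drop p0)) =
      lg (fun w => ∃ x : {x : List α // x.length = p0},
      w ∈ (({x.1} : Language α) * lg (R x.1))) := by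
    ext X
    constructor
    · rintro ⟨h1, h2⟩
      exact ⟨⟨X.take p0, by rw [List.length_take]; omega⟩,
        Language.mem_mul.2 ⟨_, rfl, _, h2, List.take_append_drop p0 X⟩⟩
    · rintro ⟨⟨x, hx⟩, h⟩
      obtain ⟨a, ha, b, hb, rfl⟩ := Language.mem_mul.1 h
      have ha' : a = x := ha
      subst ha'
      have hb' : R a b := hb
      refine ⟨by rw [List.length_append]; omega, ?_⟩
      rw [List.take_left' hx, List.drop_left' hx]
      exact hb'
  rw [e]; exact key

/-- the one-token zone map `v ↦ (v·φ(X₀) + ν₂ X₀)·φ(Y) + ν₁ Y` has regular fibres -/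
theorem isRegular_T {M V : Type*} [Monoid M] [Finite M] [Finite V] [Add V] (φ : List α → M)
    (h1 : φ [] = 1) (hφ : ∀ u v, φ (u ++ v) = φ u * φ v) (act : V → M → V)
    (nu1 nu2 : List α → V) (hnu : ∀ x, (lg (fun Y => nu1 Y = x)).IsRegular)
    (p0 : ℕ) (T : V → List α → V)
    (hT : ∀ v X, T v X = act (act v (φ (X.take p0)) + nu2 (X.take p0)) (φ (X.drop p0)) +
      nu1 (X.drop p0)) (v v' : V) :
    (lg (fun X => p0 ≤ X.length ∧ T v X = v')).IsRegular := by
  have hprod : ∀ w : List α, φ w = (w.map (fun a => φ [a])).prod := by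
    intro w
    induction w with
    | nil => simpa using h1
    | cons a w ih =>
      rw [show a :: w = [a] ++ w from rfl, hφ, ih]
      simp
  have hreg : ∀ s : M, (lg (fun Y => φ Y = s)).IsRegular := by
    intro s
    have h := isRegular_prod (fun a => φ [a]) s
    have e : lg (fun Y => φ Y = s) = ({w | (w.map (fun a => φ [a])).prod = s} :
        Language α) := by
      ext w
      show φ w = s ↔ (w.map (fun a => φ [a])).prod = s
      rw [hprod]
    rw [e]; exact h
  have key0 := isRegular_behind p0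
    (fun X0 Y => act (act v (φ X0) + nu2 X0) (φ Y) + nu1 Y = v') (by
      intro X0 _
      have key : (lg (fun w => ∃ p : {p : M × V //
          act (act v (φ X0) + nu2 X0) p.1 + p.2 = v'},
          w ∈ (lg (fun Y => φ Y = p.1.1) ⊓ lg (fun Y => nu1 Y = p.1.2)))).IsRegular :=
        isRegular_iUnion (L := fun p : {p : M × V //
          act (act v (φ X0) + nu2 X0) p.1 + p.2 = v'} =>
          (lg (fun Y => φ Y = p.1.1) ⊓ lg (fun Y => nu1 Y = p.1.2)))
          fun p => (hreg p.1.1).inf (hnu p.1.2)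
      have e : lg (fun Y => act (act v (φ X0) + nu2 X0) (φ Y) + nu1 Y = v') =
          lg (fun w => ∃ p : {p : M × V // act (act v (φ X0) + nu2 X0) p.1 + p.2 = v'},
          w ∈ (lg (fun Y => φ Y = p.1.1) ⊓ lg (fun Y => nu1 Y = p.1.2))) := by
        ext Y
        constructor
        · intro h
          exact ⟨⟨(φ Y, nu1 Y), h⟩, rfl, rfl⟩
        · rintro ⟨⟨p, hp⟩, q1, q2⟩
          have q1' : φ Y = p.1 := q1
          have q2' : nu1 Y = p.2 := q2
          show act (act v (φ X0) + nu2 X0) (φ Y) + nu1 Y = v'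
          rw [q1', q2']; exact hp
      rw [e]; exact key)
  have e : lg (fun X => p0 ≤ X.length ∧ T v X = v') =
      lg (fun X => p0 ≤ X.length ∧ act (act v (φ (X.take p0)) + nu2 (X.take p0)) (φ (X.drop p0)) +
      nu1 (X.drop p0) = v') := by
    ext X
    show (p0 ≤ X.length ∧ T v X = v') ↔ (p0 ≤ X.length ∧
      act (act v (φ (X.take p0)) + nu2 (X.take p0)) (φ (X.drop p0)) + nu1 (X.drop p0) = v')
    rw [hT]
  rw [e]; exact key0

theorem hfib {M V : Type*} [Monoid M] [Finite M] [Finite V] [Add V] (hn : 0 < n) (hP : 0 < P)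
    (hper : PerOff n c P S) (z : ℕ) (φ : List α → M) (h1 : φ [] = 1)
    (hφ : ∀ u v, φ (u ++ v) = φ u * φ v) (act : V → M → V)
    (nu1 nu2 : List α → V) (hnu : ∀ x, (lg (fun Y => nu1 Y = x)).IsRegular)
    (p0 : ℕ) (hz : p0 ≤ z) (T : V → List α → V)
    (hT : ∀ v X, T v X = act (act v (φ (X.take p0)) + nu2 (X.take p0)) (φ (X.drop p0)) +
      nu1 (X.drop p0)) (v v' : V) :
    HL 1 ({X | X ∈ XX n S z ∧ T v X = v'} : Language α) := by
  refine (HL_XX_inter hn hP hper z
    (isRegular_T φ h1 hφ act nu1 nu2 hnu p0 T hT v v')).congr fun X => ?_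
  constructor
  · rintro ⟨h, h2⟩; exact ⟨h, hz.trans h.1, h2⟩
  · rintro ⟨h, _, h2⟩; exact ⟨h, h2⟩

theorem hfib2 {M V : Type*} [Monoid M] [Finite M] [Finite V] [Add V] (hn : 0 < n) (hP : 0 < P)
    (hper : PerOff n c P S) (z : ℕ) (φ : List α → M) (h1 : φ [] = 1)
    (hφ : ∀ u v, φ (u ++ v) = φ u * φ v) (act : V → M → V)
    (nu1 nu2 : List α → V) (hnu : ∀ x, (lg (fun Y => nu1 Y = x)).IsRegular)
    (p0 : ℕ) (hz : p0 ≤ z) (T : V → List α → V)
    (hT : ∀ v X, T v X = act (act v (φ (X.take p0)) + nu2 (X.take p0)) (φ (X.drop p0)) +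
      nu1 (X.drop p0)) (v v' : V) :
    HL 1 ({X | X ∈ XX2 n S z ∧ T v X = v'} : Language α) := by
  refine (HL_XX2_inter hn hP hper z
    (isRegular_T φ h1 hφ act nu1 nu2 hnu p0 T hT v v')).congr fun X => ?_
  constructor
  · rintro ⟨h, h2⟩
    obtain ⟨t, g1, g2, _⟩ := h.2
    exact ⟨h, by omega, h2⟩
  · rintro ⟨h, _, h2⟩; exact ⟨h, h2⟩

end main

end Crest.Agent.R320.Hfib_138
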