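import Mathlib
import Crest.Prelude.Def_GRegExp

set_option autoImplicit false

/-!
Calculus of generalized star height: the class `H k` of languages of height at most `k`.
-/

namespace Crest.Agent.R320.Hgt_261

open Crest.RegLang

variable {α : Type*}

/-- Languages of generalized star height at most `k`. -/
def H (α : Type*) (k : ℕ) : Set (Language α) :=
  {L | ∃ e : GRegExp α, e.height ≤ k ∧ e.lang = L}

theorem H_mono {j k : ℕ} (h : j ≤ k) {L : Language α} (hL : L ∈ H α j) : L ∈ H α k := by
  obtain ⟨e, he, rfl⟩ := hL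
  exact ⟨e, he.trans h, rfl⟩

theorem H_zero (k : ℕ) : (0 : Language α) ∈ H α k := ⟨.zero, Nat.zero_le _, rfl⟩

theorem H_one (k : ℕ) : (1 : Language α) ∈ H α k := ⟨.eps, Nat.zero_le _, rfl⟩

theorem H_char (k : ℕ) (a : α) : ({[a]} : Language α) ∈ H α k := ⟨.char a, Nat.zero_le _, rfl⟩

theorem H_add {k : ℕ} {L M : Language α} (hL : L ∈ H α k) (hM : M ∈ H α k) :
    L + M ∈ H α k := by
  obtain ⟨e, he, rfl⟩ := hL
  obtain ⟨f, hf, rfl⟩ := hM
  exact ⟨.union e f, max_le he hf, rfl⟩

theorem H_mul {k : ℕ} {L M : Language α} (hL : L ∈ H α k) (hM : M ∈ H α k) :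
    L * M ∈ H α k := by
  obtain ⟨e, he, rfl⟩ := hL
  obtain ⟨f, hf, rfl⟩ := hM
  exact ⟨.cat e f, max_le he hf, rfl⟩

theorem H_compl {k : ℕ} {L : Language α} (hL : L ∈ H α k) : Lᶜ ∈ H α k := by
  obtain ⟨e, he, rfl⟩ := hL
  exact ⟨.not e, he, rfl⟩

theorem H_kstar {k : ℕ} {L : Language α} (hL : L ∈ H α k) : KStar.kstar L ∈ H α (k + 1) := by
  obtain ⟨e, he, rfl⟩ := hL
  exact ⟨.star e, Nat.succ_le_succ he, rfl⟩

/-- set notation versions -/
theorem H_union {k : ℕ} {L M : Set (List α)} (hL : (L : Language α) ∈ H α k)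
    (hM : (M : Language α) ∈ H α k) : ((L ∪ M : Set (List α)) : Language α) ∈ H α k :=
  H_add hL hM

theorem H_compl' {k : ℕ} {L : Set (List α)} (hL : (L : Language α) ∈ H α k) :
    ((Lᶜ : Set (List α)) : Language α) ∈ H α k :=
  H_compl hL

theorem H_inter {k : ℕ} {L M : Set (List α)} (hL : (L : Language α) ∈ H α k)
    (hM : (M : Language α) ∈ H α k) : ((L ∩ M : Set (List α)) : Language α) ∈ H α k := by
  have h := H_compl' (H_union (H_compl' hL) (H_compl' hM))
  rwa [Set.compl_union, compl_compl, compl_compl] at h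

theorem H_diff {k : ℕ} {L M : Set (List α)} (hL : (L : Language α) ∈ H α k)
    (hM : (M : Language α) ∈ H α k) : ((L \ M : Set (List α)) : Language α) ∈ H α k := by
  rw [Set.sdiff_eq]
  exact H_inter hL (H_compl' hM)

theorem H_empty (k : ℕ) : ((∅ : Set (List α)) : Language α) ∈ H α k := H_zero k

theorem H_univ (k : ℕ) : ((Set.univ : Set (List α)) : Language α) ∈ H α k := by
  have h := H_compl' (H_empty (α := α) k)
  rwa [Set.compl_empty] at h

theorem H_word (k : ℕ) (w : List α) : (({w} : Set (List α)) : Language α) ∈ H α k := by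
  induction w with
  | nil => exact H_one k
  | cons a w ih =>
    obtain ⟨e, he, hw⟩ := ih
    refine ⟨.cat (.char a) e, max_le (Nat.zero_le _) he, ?_⟩
    have h1 : (GRegExp.cat (.char a) e).lang = (GRegExp.char a).lang * e.lang := rfl
    rw [h1, hw]
    apply Set.ext
    intro x
    constructor
    · intro hx
      obtain ⟨u, hu, v, hv, huv⟩ := Language.mem_mul.mp hx
      have hu' : u = [a] := hu
      have hv' : v = w := hv
      rw [hu', hv'] at huv
      exact huv.symm
    · intro hx
      have hx' : x = a :: w := hx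
      exact Language.mem_mul.mpr ⟨[a], rfl, w, rfl, by simp [hx']⟩

theorem H_iUnion {k : ℕ} {ι : Type*} [Finite ι] {L : ι → Set (List α)}
    (hL : ∀ i, (L i : Language α) ∈ H α k) :
    ((⋃ i, L i : Set (List α)) : Language α) ∈ H α k := by
  classical
  have := Fintype.ofFinite ι
  have key : ∀ s : Finset ι, ((⋃ i ∈ s, L i : Set (List α)) : Language α) ∈ H α k := by
    intro s
    induction s using Finset.induction_on with
    | empty => simpa using H_empty (α := α) k
    | insert a s ha ih =>
      rw [Finset.set_biUnion_insert]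
      exact H_union (hL a) ih
  simpa using key Finset.univ

theorem H_biUnion {k : ℕ} {ι : Type*} {s : Set ι} (hs : s.Finite) {L : ι → Set (List α)}
    (hL : ∀ i ∈ s, (L i : Language α) ∈ H α k) :
    ((⋃ i ∈ s, L i : Set (List α)) : Language α) ∈ H α k := by
  have := hs.to_subtype
  rw [Set.biUnion_eq_iUnion]
  exact H_iUnion (fun i => hL i.1 i.2)

theorem H_iInter {k : ℕ} {ι : Type*} [Finite ι] {L : ι → Set (List α)}
    (hL : ∀ i, (L i : Language α) ∈ H α k) :
    ((⋂ i, L i : Set (List α)) : Language α) ∈ H α k := by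
  have h := H_compl' (H_iUnion (fun i => H_compl' (hL i)))
  rwa [Set.compl_iUnion, Set.iInter_congr (fun i => compl_compl (L i))] at h

theorem H_finite (k : ℕ) {L : Set (List α)} (hL : L.Finite) : (L : Language α) ∈ H α k := by
  have h := H_biUnion hL (L := fun w => {w}) (fun w _ => H_word k w)
  rwa [Set.biUnion_of_singleton] at h

/-- words of length at most `n` over a finite alphabet -/
theorem H_length_le [Finite α] (k n : ℕ) :
    (({w | w.length ≤ n} : Set (List α)) : Language α) ∈ H α k :=
  H_finite k (List.finite_length_le α n)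

theorem H_length_eq [Finite α] (k n : ℕ) :
    (({w | w.length = n} : Set (List α)) : Language α) ∈ H α k :=
  H_finite k (List.finite_length_eq α n)

theorem H_bounded [Finite α] (k n : ℕ) {L : Set (List α)} (h : ∀ w ∈ L, w.length ≤ n) :
    (L : Language α) ∈ H α k :=
  H_finite k ((List.finite_length_le α n).subset h)

/-- there is a split `w = u ++ v` with `u ∈ L`, `v ∈ M` -/
theorem H_split {k : ℕ} {L M : Set (List α)} (hL : (L : Language α) ∈ H α k)
    (hM : (M : Language α) ∈ H α k) :
    (({w | ∃ u ∈ L, ∃ v ∈ M, u ++ v = w} : Set (List α)) : Language α) ∈ H α k := by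
  obtain ⟨e, he, hl⟩ := hL
  obtain ⟨f, hf, hm⟩ := hM
  refine ⟨.cat e f, max_le he hf, ?_⟩
  have h1 : (GRegExp.cat e f).lang = e.lang * f.lang := rfl
  rw [h1, hl, hm]
  apply Set.ext
  intro x
  exact Language.mem_mul

/-- three-part splits -/
theorem H_split3 {k : ℕ} {L M N : Set (List α)} (hL : (L : Language α) ∈ H α k)
    (hM : (M : Language α) ∈ H α k) (hN : (N : Language α) ∈ H α k) :
    (({w | ∃ u ∈ L, ∃ v ∈ M, ∃ t ∈ N, u ++ v ++ t = w} : Set (List α)) : Language α) ∈ H α k := by
  have h := H_split (H_split hL hM) hN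
  convert h using 1
  ext x
  constructor
  · rintro ⟨u, hu, v, hv, t, ht, rfl⟩
    exact ⟨u ++ v, ⟨u, hu, v, hv, rfl⟩, t, ht, rfl⟩
  · rintro ⟨p, ⟨u, hu, v, hv, rfl⟩, t, ht, rfl⟩
    exact ⟨u, hu, v, hv, t, ht, rfl⟩

/-- the first `n` letters lie in `F` (any set of words), and the word has at least `n` letters -/
theorem H_prefix [Finite α] (k n : ℕ) (F : Set (List α)) :
    (({w | n ≤ w.length ∧ w.take n ∈ F} : Set (List α)) : Language α) ∈ H α k := by
  have h := H_split (H_bounded k n (L := {w | w.length = n ∧ w ∈ F}) (fun w hw => hw.1.le))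
    (H_univ (α := α) k)
  convert h using 1
  ext w
  constructor
  · rintro ⟨hn, hF⟩
    exact ⟨w.take n, ⟨by simp [hn], hF⟩, w.drop n, trivial, List.take_append_drop n w⟩
  · rintro ⟨u, ⟨hu, hF⟩, v, -, rfl⟩
    refine ⟨by simp [← hu], ?_⟩
    rwa [← hu, List.take_left]

/-- the last `n` letters lie in `F`, and the word has at least `n` letters -/
theorem H_suffix [Finite α] (k n : ℕ) (F : Set (List α)) :
    (({w | n ≤ w.length ∧ w.drop (w.length - n) ∈ F} : Set (List α)) : Language α) ∈ H α k := by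
  have h := H_split (H_univ (α := α) k)
    (H_bounded k n (L := {w | w.length = n ∧ w ∈ F}) (fun w hw => hw.1.le))
  convert h using 1
  ext w
  constructor
  · rintro ⟨hn, hF⟩
    refine ⟨w.take (w.length - n), trivial, w.drop (w.length - n), ⟨?_, hF⟩,
      List.take_append_drop _ w⟩
    rw [List.length_drop]; omega
  · rintro ⟨u, -, v, ⟨hv, hF⟩, rfl⟩
    refine ⟨by simp [hv], ?_⟩
    have : (u ++ v).length - n = u.length := by simp [hv]
    rw [this, List.drop_left]
    exact hF

end Crest.Agent.R320.Hgt_261
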