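import Crest.Prelude.Def_GRegExp

/-!
# Row 320, base library: languages of generalized star height at most `k` (helper851)

`HL k L` : some generalized regular expression of height `≤ k` denotes `L`.
Closure: union, intersection, complement, product, star, finite languages, finite unions,
left / right quotients by words, reversal, factor conditions.
-/

set_option autoImplicit false

namespace Crest.Agent.R320.Hk_851

open Crest.RegLang

universe u

variable {α : Type u} {k : ℕ}

/-- languages of generalized star height at most `k` -/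
def HL (k : ℕ) (L : Language α) : Prop := ∃ e : GRegExp α, e.height ≤ k ∧ e.lang = L

theorem HL.mono {k l : ℕ} (h : k ≤ l) {L : Language α} (hL : HL k L) : HL l L := by
  obtain ⟨e, h1, h2⟩ := hL
  exact ⟨e, h1.trans h, h2⟩

theorem HL.congr {L M : Language α} (h : HL k M) (e : ∀ w, w ∈ L ↔ w ∈ M) : HL k L := by
  obtain ⟨x, h1, h2⟩ := h
  exact ⟨x, h1, by rw [h2]; ext w; exact (e w).symm⟩

theorem HL.zero : HL k (0 : Language α) := ⟨.zero, Nat.zero_le _, rfl⟩

theorem HL.one : HL k (1 : Language α) := ⟨.eps, Nat.zero_le _, rfl⟩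

theorem HL.char (a : α) : HL k ({[a]} : Language α) := ⟨.char a, Nat.zero_le _, rfl⟩

theorem HL.add {L M : Language α} (hL : HL k L) (hM : HL k M) : HL k (L + M) := by
  obtain ⟨e, h1, rfl⟩ := hL
  obtain ⟨f, h2, rfl⟩ := hM
  exact ⟨.union e f, max_le h1 h2, rfl⟩

theorem HL.mul {L M : Language α} (hL : HL k L) (hM : HL k M) : HL k (L * M) := by
  obtain ⟨e, h1, rfl⟩ := hL
  obtain ⟨f, h2, rfl⟩ := hM
  exact ⟨.cat e f, max_le h1 h2, rfl⟩

theorem HL.compl {L : Language α} (hL : HL k L) : HL k (Lᶜ) := by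
  obtain ⟨e, h1, rfl⟩ := hL
  exact ⟨.not e, h1, rfl⟩

theorem HL.star {L : Language α} (hL : HL k L) : HL (k + 1) (KStar.kstar L) := by
  obtain ⟨e, h1, rfl⟩ := hL
  exact ⟨.star e, Nat.succ_le_succ h1, rfl⟩

theorem HL.sup {L M : Language α} (hL : HL k L) (hM : HL k M) : HL k (L ⊔ M) := hL.add hM

theorem HL.inf {L M : Language α} (hL : HL k L) (hM : HL k M) : HL k (L ⊓ M) := by
  have := (hL.compl.sup hM.compl).compl
  simpa using this

theorem HL.sdiff {L M : Language α} (hL : HL k L) (hM : HL k M) : HL k (L \ M) := by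
  have := hL.inf hM.compl
  rwa [← sdiff_eq] at this

theorem HL.top : HL k (⊤ : Language α) := by
  have := (HL.zero (α := α) (k := k)).compl
  have h : ((0 : Language α)ᶜ) = ⊤ := compl_bot
  rwa [h] at this

theorem HL.bot : HL k (⊥ : Language α) := HL.zero

/-- set-builder forms -/
theorem HL.setOf_or {p q : List α → Prop} (hp : HL k {w | p w}) (hq : HL k {w | q w}) :
    HL k {w | p w ∨ q w} := hp.sup hq

theorem HL.setOf_and {p q : List α → Prop} (hp : HL k {w | p w}) (hq : HL k {w | q w}) :
    HL k {w | p w ∧ q w} := hp.inf hq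

theorem HL.setOf_not {p : List α → Prop} (hp : HL k {w | p w}) : HL k {w | ¬ p w} := hp.compl

theorem HL.setOf_imp {p q : List α → Prop} (hp : HL k {w | p w}) (hq : HL k {w | q w}) :
    HL k {w | p w → q w} := by
  have h := HL.setOf_or hp.setOf_not hq
  exact h.congr fun w => (imp_iff_not_or : (p w → q w) ↔ _)

theorem HL.setOf_iff {p q : List α → Prop} (hp : HL k {w | p w}) (hq : HL k {w | q w}) :
    HL k {w | p w ↔ q w} := by
  have h := (HL.setOf_imp hp hq).setOf_and (HL.setOf_imp hq hp)
  exact h.congr fun w => (iff_iff_implies_and_implies : (p w ↔ q w) ↔ _)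

theorem HL.const (p : Prop) : HL k ({_w | p} : Language α) := by
  by_cases h : p
  · exact HL.top.congr fun w => ⟨fun _ => trivial, fun _ => h⟩
  · exact HL.bot.congr fun w => ⟨fun hw => (h hw).elim, fun hw => hw.elim⟩

/-- finite unions -/
theorem HL.biUnion {ι : Type*} {s : Set ι} (hs : s.Finite) {L : ι → Language α}
    (h : ∀ i ∈ s, HL k (L i)) : HL k {w | ∃ i ∈ s, w ∈ L i} := by
  induction s, hs using Set.Finite.induction_on with
  | empty =>
    exact HL.bot.congr fun w => ⟨fun ⟨i, hi, _⟩ => hi.elim, fun hw => hw.elim⟩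
  | insert _ _ ih =>
    have h1 := (h _ (Set.mem_insert _ _)).sup (ih fun i hi => h i (Set.mem_insert_of_mem _ hi))
    refine h1.congr fun w => ?_
    constructor
    · rintro ⟨i, hi | hi, hw⟩
      · left; rw [← hi]; exact hw
      · right; exact ⟨i, hi, hw⟩
    · rintro (hw | ⟨i, hi, hw⟩)
      · exact ⟨_, Or.inl rfl, hw⟩
      · exact ⟨i, Or.inr hi, hw⟩

theorem HL.iUnion {ι : Type*} [Finite ι] {L : ι → Language α} (h : ∀ i, HL k (L i)) :
    HL k {w | ∃ i, w ∈ L i} := by
  exact (HL.biUnion (Set.finite_univ (α := ι)) (fun i _ => h i)).congr fun w =>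
    ⟨fun ⟨i, hi⟩ => ⟨i, trivial, hi⟩, fun ⟨i, _, hi⟩ => ⟨i, hi⟩⟩

theorem HL.iInter {ι : Type*} [Finite ι] {L : ι → Language α} (h : ∀ i, HL k (L i)) :
    HL k {w | ∀ i, w ∈ L i} := by
  have h1 := (HL.iUnion fun i => (h i).compl).compl
  refine h1.congr fun w => ?_
  constructor
  · rintro hw ⟨i, hi⟩; exact hi (hw i)
  · intro hw i
    by_contra hi
    exact hw ⟨i, hi⟩

theorem HL.biInter {ι : Type*} {s : Set ι} (hs : s.Finite) {L : ι → Language α}
    (h : ∀ i ∈ s, HL k (L i)) : HL k {w | ∀ i ∈ s, w ∈ L i} := by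
  have h1 := (HL.biUnion hs fun i hi => (h i hi).compl).compl
  refine h1.congr fun w => ?_
  constructor
  · rintro hw ⟨i, hi, hn⟩; exact hn (hw i hi)
  · intro hw i hi
    by_contra hn
    exact hw ⟨i, hi, hn⟩

/-- one word -/
theorem HL.word (w : List α) : HL k ({w} : Language α) := by
  induction w with
  | nil => exact HL.one
  | cons a w ih =>
    have h := (HL.char (k := k) a).mul ih
    have e : (({[a]} : Language α) * ({w} : Language α)) = {a :: w} := by
      ext x
      rw [Language.mem_mul]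
      constructor
      · rintro ⟨y, hy, z, hz, rfl⟩
        rw [Set.mem_singleton_iff.1 hy, Set.mem_singleton_iff.1 hz]; rfl
      · intro hx
        rw [Set.mem_singleton_iff.1 hx]
        exact ⟨[a], rfl, w, rfl, rfl⟩
    rwa [e] at h

theorem HL.finite {s : Set (List α)} (hs : s.Finite) : HL k (s : Language α) := by
  have h := HL.biUnion (k := k) hs (L := fun w => ({w} : Language α)) (fun w _ => HL.word w)
  refine h.congr fun w => ?_
  constructor
  · intro hw; exact ⟨w, hw, rfl⟩
  · rintro ⟨v, hv, hw⟩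
    rw [Set.mem_singleton_iff.1 hw]; exact hv

/-- `A* L A*` -/
theorem HL.infix {L : Language α} (hL : HL k L) :
    HL k {w | ∃ v ∈ L, v <:+: w} := by
  have h := (HL.top.mul hL).mul (HL.top (α := α) (k := k))
  refine h.congr fun w => ?_
  constructor
  · rintro ⟨v, hv, x, y, rfl⟩
    exact Language.mem_mul.2 ⟨x ++ v, Language.mem_mul.2 ⟨x, trivial, v, hv, rfl⟩, y, trivial, rfl⟩
  · intro hw
    obtain ⟨xv, hxv, y, -, rfl⟩ := Language.mem_mul.1 hw
    obtain ⟨x, -, v, hv, rfl⟩ := Language.mem_mul.1 hxv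
    exact ⟨v, hv, x, y, rfl⟩

theorem HL.prefix {L : Language α} (hL : HL k L) : HL k {w | ∃ v ∈ L, v <+: w} := by
  have h := hL.mul (HL.top (α := α) (k := k))
  refine h.congr fun w => ?_
  constructor
  · rintro ⟨v, hv, y, rfl⟩
    exact Language.mem_mul.2 ⟨v, hv, y, trivial, rfl⟩
  · intro hw
    obtain ⟨v, hv, y, -, rfl⟩ := Language.mem_mul.1 hw
    exact ⟨v, hv, y, rfl⟩

theorem HL.suffix {L : Language α} (hL : HL k L) : HL k {w | ∃ v ∈ L, v <:+ w} := by
  have h := (HL.top (α := α) (k := k)).mul hL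
  refine h.congr fun w => ?_
  constructor
  · rintro ⟨v, hv, x, rfl⟩
    exact Language.mem_mul.2 ⟨x, trivial, v, hv, rfl⟩
  · intro hw
    obtain ⟨x, -, v, hv, rfl⟩ := Language.mem_mul.1 hw
    exact ⟨v, hv, x, rfl⟩

/-- all factors lie in `L` -/
theorem HL.allInfix {L : Language α} (hL : HL k L) : HL k {w | ∀ v, v <:+: w → v ∈ L} := by
  have h := hL.compl.infix.compl
  refine h.congr fun w => ?_
  constructor
  · rintro hw ⟨v, hv, hvw⟩; exact hv (hw v hvw)
  · intro hw v hvw
    by_contra hv
    exact hw ⟨v, hv, hvw⟩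

/-- length conditions, finite alphabet -/
theorem HL.length_le [Finite α] (n : ℕ) : HL k {w : List α | w.length ≤ n} :=
  HL.finite (List.finite_length_le α n)

theorem HL.length_lt [Finite α] (n : ℕ) : HL k {w : List α | w.length < n} :=
  HL.finite (List.finite_length_lt α n)

theorem HL.length_eq [Finite α] (n : ℕ) : HL k {w : List α | w.length = n} :=
  HL.finite (List.finite_length_eq α n)

theorem HL.length_ge [Finite α] (n : ℕ) : HL k {w : List α | n ≤ w.length} := by
  have h := (HL.length_lt (α := α) (k := k) n).setOf_not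
  simpa using h

/-- every factor of length `n` satisfies `p` -/
theorem HL.local [Finite α] (n : ℕ) (p : List α → Prop) :
    HL k {w : List α | ∀ v, v <:+: w → v.length = n → p v} := by
  have h1 : HL k ({v : List α | v.length = n ∧ ¬ p v} : Language α) :=
    HL.finite ((List.finite_length_eq α n).subset fun v hv => hv.1)
  have h := h1.infix.compl
  refine h.congr fun w => ?_
  constructor
  · rintro hw ⟨v, hv, hvw⟩; exact hv.2 (hw v hvw hv.1)
  · intro hw v hvw hl
    by_contra hv
    exact hw ⟨v, ⟨hl, hv⟩, hvw⟩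

end Crest.Agent.R320.Hk_851
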