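import Crest.Agent.R320.Hl_410

/-!
# Row 320: height one of all languages of the two schemes, part 2 (helper410)
-/

set_option autoImplicit false

namespace Crest.Agent.R320.Hl2_410

open Crest.Agent.R320.Hk_851 Crest.Agent.R320.Star_621 Crest.Agent.R320.Two_621
  Crest.Agent.R320.Geo_410 Crest.Agent.R320.SchA_410 Crest.Agent.R320.SchA_410.Cx
  Crest.Agent.R320.SchB_410 Crest.Agent.R320.SchB_410.Cb Crest.Agent.R320.Hl_410

variable {α S : Type} [Finite α] [Monoid S] [Finite S] (D : Cb α S)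

/-- finite-state hypotheses -/
structure Fs (Pm : ℕ) : Prop where
  okb : D.OkB
  wh : Wh D.R
  per : ∀ T, D.Bad (T + Pm) ↔ D.Bad T
  nus : ∀ q q' : List α, D.La ≤ q.length → D.La ≤ q'.length → q.take D.La = q'.take D.La →
    q.length % Pm = q'.length % Pm → D.toCx.ph q = D.toCx.ph q' → D.nu q = D.nu q'

/-- value and length -/
def fv (Pm : ℕ) (a : α) : S × Multiplicative (ZMod Pm) := (D.f a, Multiplicative.ofAdd 1)

theorem fv_prod (Pm : ℕ) (u : List α) :
    (u.map (fv D Pm)).prod = (D.toCx.ph u, Multiplicative.ofAdd (u.length : ZMod Pm)) := by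
  induction u with
  | nil =>
    refine Prod.ext ?_ ?_
    · simp [Cx.ph]
    · simp
  | cons a u ih =>
    rw [List.map_cons, List.prod_cons, ih]
    refine Prod.ext ?_ ?_
    · simp [fv, Cx.ph]
    · show Multiplicative.ofAdd (1 : ZMod Pm) * Multiplicative.ofAdd (u.length : ZMod Pm) = _
      rw [← ofAdd_add]
      congr 1
      rw [List.length_cons]; push_cast; ring

variable {D} {Pm : ℕ}

theorem bad_mod (h : Fs D Pm) (n : ℕ) : ∀ k, D.Bad (n + k * Pm) ↔ D.Bad n := by
  intro k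
  induction k with
  | zero => simp
  | succ k ih =>
    have e : n + (k + 1) * Pm = (n + k * Pm) + Pm := by ring
    rw [e, h.per, ih]

theorem bad_congr (h : Fs D Pm) {n m : ℕ} (e : n % Pm = m % Pm) : D.Bad n ↔ D.Bad m := by
  have h1 := bad_mod h (n % Pm) (n / Pm)
  have h2 := bad_mod h (m % Pm) (m / Pm)
  have e1 : n % Pm + n / Pm * Pm = n := by rw [mul_comm]; exact Nat.mod_add_div n Pm
  have e2 : m % Pm + m / Pm * Pm = m := by rw [mul_comm]; exact Nat.mod_add_div m Pm
  rw [e1] at h1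
  rw [e2] at h2
  rw [h1, h2, e]

/-- the data of a word at window `z0` -/
theorem same (h : Fs D Pm) {W W' : List α} (h1 : D.z0 ≤ W.length) (h2 : D.z0 ≤ W'.length)
    (h3 : W.take D.z0 = W'.take D.z0)
    (h4 : ((W.drop D.z0).map (fv D Pm)).prod = ((W'.drop D.z0).map (fv D Pm)).prod) :
    W.take D.p0 = W'.take D.p0 ∧ D.toCx.ph (W.drop D.p0) = D.toCx.ph (W'.drop D.p0) ∧
      D.nu (W.drop D.p0) = D.nu (W'.drop D.p0) ∧
      (D.Bad (W.length - D.p0) ↔ D.Bad (W'.length - D.p0)) ∧
      (∀ τ, τ ≤ D.z0 → (Wat D.R W τ ↔ Wat D.R W' τ)) := by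
  have hz := h.okb.hz
  rw [fv_prod, fv_prod] at h4
  have h5 := congrArg Prod.fst h4
  have h6 : ((W.drop D.z0).length : ZMod Pm) = ((W'.drop D.z0).length : ZMod Pm) :=
    Multiplicative.ofAdd.injective (congrArg Prod.snd h4)
  have h6' : (W.drop D.z0).length % Pm = (W'.drop D.z0).length % Pm :=
    (ZMod.natCast_eq_natCast_iff' _ _ _).1 h6
  rw [List.length_drop, List.length_drop] at h6'
  have key : ∀ j : ℕ, (W.length - D.z0 + j) % Pm = (W'.length - D.z0 + j) % Pm := by
    intro j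
    rw [Nat.add_mod, h6', ← Nat.add_mod]
  have h7 : (W.length - D.p0) % Pm = (W'.length - D.p0) % Pm := by
    have e1 : W.length - D.p0 = W.length - D.z0 + (D.z0 - D.p0) := by omega
    have e2 : W'.length - D.p0 = W'.length - D.z0 + (D.z0 - D.p0) := by omega
    rw [e1, e2, key]
  have hd : ∀ U : List α, D.z0 ≤ U.length →
      U.drop D.p0 = (U.take D.z0).drop D.p0 ++ U.drop D.z0 := by
    intro U hU
    have e : U.drop D.p0 = (U.take D.z0 ++ U.drop D.z0).drop D.p0 := by
      rw [List.take_append_drop]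
    rw [e, List.drop_append_of_le_length (by rw [List.length_take]; omega)]
  have h8 : D.toCx.ph (W.drop D.p0) = D.toCx.ph (W'.drop D.p0) := by
    rw [hd W h1, hd W' h2, D.toCx.ph_append, D.toCx.ph_append, h3]
    congr 1
  refine ⟨?_, h8, ?_, bad_congr h h7, ?_⟩
  · have e : ∀ U : List α, U.take D.p0 = (U.take D.z0).take D.p0 := by
      intro U; rw [List.take_take, Nat.min_eq_left (by omega)]
    rw [e, e W', h3]
  · refine h.nus _ _ (by rw [List.length_drop]; omega) (by rw [List.length_drop]; omega) ?_ ?_ h8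
    · rw [hd W h1, hd W' h2, List.take_append_of_le_length
        (by rw [List.length_drop, List.length_take]; omega), List.take_append_of_le_length
        (by rw [List.length_drop, List.length_take]; omega), h3]
    · rw [List.length_drop, List.length_drop]; exact h7
  · intro τ hτ
    rw [← wat_take D.R hτ h1, h3, wat_take D.R hτ h2]

variable (hP : 0 < Pm)

include hP in
theorem hl_same (h : Fs D Pm) (G : List α → Prop)
    (hG : ∀ W W' : List α, W.take D.p0 = W'.take D.p0 →
      D.toCx.ph (W.drop D.p0) = D.toCx.ph (W'.drop D.p0) →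
      D.nu (W.drop D.p0) = D.nu (W'.drop D.p0) →
      (D.Bad (W.length - D.p0) ↔ D.Bad (W'.length - D.p0)) →
      (∀ τ, τ ≤ D.z0 → (Wat D.R W τ ↔ Wat D.R W' τ)) → G W → G W') :
    HL 1 ({W | D.z0 ≤ W.length ∧ FW D.R (D.z0 + 2) W ∧ G W} : Language α) := by
  haveI : NeZero Pm := ⟨by omega⟩
  haveI : Finite (Multiplicative (ZMod Pm)) := inferInstanceAs (Finite (ZMod Pm))
  refine hl_data h.wh (D.z0 + 2) D.z0 (fv D Pm) G ?_
  intro W W' h1 h2 h3 h4 h5
  obtain ⟨a1, a2, a3, a4, a5⟩ := same h h1 h2 h3 h4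
  exact hG W W' a1 a2 a3 a4 a5 h5

/-- value of `Y` -/
noncomputable def v2 (D : Cb α S) (v : Tok S) (W : List α) : Tok S :=
  act v (D.toCx.ph (W.drop D.p0)) + D.nu (W.drop D.p0)

include hP in
/-- blocks with a condition on (prefix, value at `t`) and the value of the tail -/
theorem hl_val (h : Fs D Pm) (v : List α → Tok S) (g : Tok S → S → Prop) :
    HL 1 ({z | ∃ t, IsZ D.R D.z0 z t ∧
      g (v2 D (v (z.take D.p0)) (z.take t)) (D.toCx.ph (z.drop t))} : Language α) := by
  let L1 : Tok S → Language α := fun u =>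
    {W | D.z0 ≤ W.length ∧ FW D.R (D.z0 + 2) W ∧ v2 D (v (W.take D.p0)) W = u}
  let L2 : S → Language α := fun s => {T | FW D.R (D.z0 + 2) T ∧ (T.map D.f).prod = s}
  have h1 : ∀ u, HL 1 (L1 u) := fun u => hl_same hP h _ (by
    intro W W' a1 a2 a3 _ _ a6
    have a6' : v2 D (v (W.take D.p0)) W = u := a6
    show v2 D (v (W'.take D.p0)) W' = u
    rw [← a6']
    unfold v2
    rw [a1, a2, a3])
  have h2 : ∀ s, HL 1 (L2 s) := fun s => h.wh.val _ S D.f s
  have hz := h.okb.hz
  refine (HL.iUnion (fun u : Tok S => HL.iUnion (fun s : S => HL.setOf_and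
    (hl_parts (z0 := D.z0) h.wh (h1 u) (h2 s)) (HL.const (g u s))))).congr fun z => ?_
  constructor
  · rintro ⟨t, h3, h4⟩
    have hfw := fw_Z h3
    have hfw' := hfw
    rw [← List.take_append_drop t z] at hfw
    have ht1 := h3.1
    have ht2 := h3.2.1.2.1
    have e : (z.take t).take D.p0 = z.take D.p0 := by
      rw [List.take_take, Nat.min_eq_left (by omega)]
    refine ⟨v2 D (v (z.take D.p0)) (z.take t), D.toCx.ph (z.drop t), ⟨t, h3, ⟨?_, hfw.left, ?_⟩,
      hfw.right, rfl⟩, h4⟩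
    · rw [List.length_take]; omega
    · rw [e]
  · rintro ⟨u, s, ⟨t, h3, ⟨h4, h5, h6⟩, h7, h8⟩, h9⟩
    refine ⟨t, h3, ?_⟩
    have ht1 := h3.1
    have ht2 := h3.2.1.2.1
    have e : (z.take t).take D.p0 = z.take D.p0 := by
      rw [List.take_take, Nat.min_eq_left (by omega)]
    rw [e] at h6
    rw [h6]
    have h8' : D.toCx.ph (z.drop t) = s := h8
    rw [h8']
    exact h9

theorem aff_eq (h : Fs D Pm) {z : List α} {t : ℕ} (hz : IsZ D.R D.z0 z t) (w : Tok S) :
    aff D.toCx.ph D.toCx.dA z w =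
      act (v2 D (act w (D.toCx.ph (z.take D.p0))) (z.take t)) (D.toCx.ph (z.drop t)) := by
  obtain ⟨X, Y, T, hzeq, hX, hXY, e1, e2, e3, e4⟩ := decomp h.okb hz
  unfold v2
  rw [e1, e2, e3, hzeq, psi_eq hX (by rw [hXY, ← hzeq]; exact hz.2.1)]

include hP in
theorem hl_ZV (h : Fs D Pm) (w b : Tok S) :
    HL 1 ({z | z ∈ D.toCx.Z ∧ aff D.toCx.ph D.toCx.dA z w = b} : Language α) := by
  refine (hl_val hP h (fun c => act w (D.toCx.ph c)) (fun u s => act u s = b)).congr fun z => ?_
  constructor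
  · rintro ⟨⟨t, h1⟩, h2⟩
    rw [aff_eq h h1] at h2
    exact ⟨t, h1, h2⟩
  · rintro ⟨t, h1, h2⟩
    refine ⟨⟨t, h1⟩, ?_⟩
    rw [aff_eq h h1]
    exact h2

theorem la_fin (h : Fs D Pm) (v : Tok S) : (D.toCx.LA v : Set (List α)).Finite := by
  refine (List.finite_length_le α (D.p0 + D.N)).subset fun P hP => ?_
  have h1 := h.okb.ok.hlam _ _ hP.2
  rw [List.length_drop] at h1
  show P.length ≤ D.p0 + D.N
  omega

theorem hl_LA (h : Fs D Pm) (v : Tok S) : HL 1 (D.toCx.LA v) := HL.finite (la_fin h v)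

include hP in
theorem hl_RA (h : Fs D Pm) (b : Tok S) : HL 1 (D.toCx.RA b) := by
  refine (HL.iInter (fun w : Tok S => HL.biInter (la_fin h w)
    (fun P _ => HL.lquot P (hl_ZV hP h w b)))).congr fun Q => ?_
  rfl

theorem lb_fin (w : Tok (Gm S)) (D : Cb α S) : (D.LB w : Set (List α)).Finite := by
  refine (List.finite_length_le α ((Finset.range D.K).sup D.c)).subset fun P hP => ?_
  obtain ⟨k, hk, h1, _⟩ := hP
  show P.length ≤ _
  rw [h1]
  exact Finset.le_sup (f := D.c) (Finset.mem_range.2 hk)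

include hP in
theorem hl_bad (h : Fs D Pm) : HL 1 ({W | D.z0 ≤ W.length ∧ FW D.R (D.z0 + 2) W ∧
    D.toCx.BadZ W W.length} : Language α) := by
  have h1 := hl_same hP h (fun W => (∃ τ, D.z0 ≤ τ + D.N ∧ τ < D.z0 ∧ Wat D.R W τ) ∨
    D.Bad (W.length - D.p0)) (by
      rintro W W' _ _ _ a4 a5 (⟨τ, b1, b2, b3⟩ | b1)
      · exact Or.inl ⟨τ, b1, b2, (a5 τ b2.le).1 b3⟩
      · exact Or.inr (a4.1 b1))
  have h2 : HL 1 ({W | D.z0 ≤ W.length ∧ FW D.R (D.z0 + 2) W} : Language α) :=
    HL.setOf_and (HL.length_ge _) (hl_fw h.wh _)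
  refine (HL.setOf_or h1 (HL.setOf_and h2 (HL.length_lt (D.z0 + D.N)))).congr fun W => ?_
  constructor
  · rintro ⟨a, b, (c | c | c)⟩
    · exact Or.inl ⟨a, b, Or.inl c⟩
    · exact Or.inr ⟨⟨a, b⟩, c⟩
    · exact Or.inl ⟨a, b, Or.inr c⟩
  · rintro (⟨a, b, (c | c)⟩ | ⟨⟨a, b⟩, c⟩)
    · exact ⟨a, b, Or.inl c⟩
    · exact ⟨a, b, Or.inr (Or.inr c)⟩
    · exact ⟨a, b, Or.inr (Or.inl c)⟩

theorem fw_B1 {R : Walls α} {z0 : ℕ} {u : List α} (h : IsF R z0 u u.length) :
    FW R (z0 + 2) u := by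
  classical
  refine ⟨Finset.range z0 ∪ {u.length}, ?_, ?_⟩
  · refine (Finset.card_union_le _ _).trans ?_
    rw [Finset.card_range, Finset.card_singleton]; omega
  · intro τ hτ
    simp only [Finset.mem_union, Finset.mem_range, Finset.mem_singleton]
    by_contra hc
    push Not at hc
    have := hτ.1
    exact h.2.2 τ hc.1 (by omega) hτ

include hP in
theorem hl_Zc (h : Fs D Pm) : HL 1 D.toCx.Zc := by
  refine (hl_parts (z0 := D.z0) h.wh (hl_bad hP h) HL.top).congr fun z => ?_
  constructor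
  · rintro ⟨t, h1, h2⟩
    have h3 := h1.2.1.take
    have hl : (z.take t).length = t := by rw [List.length_take]; have := h1.1; omega
    refine ⟨t, h1, ⟨?_, ?_, ?_⟩, trivial⟩
    · rw [hl]; exact h1.2.1.2.1
    · have := fw_Z h1
      rw [← List.take_append_drop t z] at this
      exact this.left
    · rw [hl]
      have := badZ_append (D := D) (x := z.drop t) h3
      rw [List.take_append_drop] at this
      exact this.1 h2
  · rintro ⟨t, h1, ⟨h2, h3, h4⟩, _⟩
    have h5 := h1.2.1.take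
    have hl : (z.take t).length = t := by rw [List.length_take]; have := h1.1; omega
    refine ⟨t, h1, ?_⟩
    rw [hl] at h4
    have := badZ_append (D := D) (x := z.drop t) h5
    rw [List.take_append_drop] at this
    exact this.2 h4

include hP in
theorem hl_Dead (h : Fs D Pm) : HL 1 D.Dead := by
  have h1 := HL.setOf_and ((hl_B1 (z0 := D.z0) h.wh).mono (by omega : 0 ≤ 1))
    (HL.setOf_not (hl_bad hP h))
  refine (HL.prefix h1).congr fun u => ?_
  constructor
  · rintro ⟨t, h2, h3⟩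
    have h4 := h2.take
    have hl : (u.take t).length = t := by rw [List.length_take]; have := h2.1.1; omega
    refine ⟨u.take t, ⟨?_, ?_⟩, List.take_prefix _ _⟩
    · show IsF D.R D.z0 (u.take t) (u.take t).length
      rw [hl]; exact h4
    · rintro ⟨_, _, h5⟩
      rw [hl] at h5
      have := badZ_append (D := D) (x := u.drop t) h4
      rw [List.take_append_drop] at this
      exact h3 (this.2 h5)
  · rintro ⟨W, ⟨h2, h3⟩, x, rfl⟩
    have h2' : IsF D.R D.z0 W W.length := h2
    refine ⟨W.length, h2'.append x, fun h4 => h3 ⟨h2'.2.1, fw_B1 h2', ?_⟩⟩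
    exact (badZ_append (D := D) (x := x) h2').1 h4

include hP in
theorem hl_cutY (h : Fs D Pm) (v : Tok S) :
    HL 1 ({z | D.p0 ≤ z.length ∧ D.CutY v z} : Language α) := by
  let A0 : Language α := {c | c.length = D.p0}
  let Lv : Language α := {p | D.lam p = some v}
  let Ra : Language α := {Q | ∃ τ, Q ∈ D.toCx.RA τ}
  have hA : HL 1 A0 := HL.length_eq _
  have hL : HL 1 Lv := HL.finite ((List.finite_length_le α D.N).subset fun p hp =>
    h.okb.ok.hlam p v hp)
  have hR : HL 1 Ra := HL.iUnion fun τ => hl_RA hP h τ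
  refine (hA.mul (hL.mul hR)).congr fun z => ?_
  constructor
  · rintro ⟨h0, p, Q, τ, h2, h3, h4⟩
    refine Language.mem_mul.2 ⟨z.take D.p0, ?_, z.drop D.p0, ?_, List.take_append_drop _ _⟩
    · show (z.take D.p0).length = D.p0
      rw [List.length_take]; omega
    · rw [h2]
      exact Language.mem_mul.2 ⟨p, h3, Q, ⟨τ, h4⟩, rfl⟩
  · intro hz
    obtain ⟨c, hc, x, hx, rfl⟩ := Language.mem_mul.1 hz
    obtain ⟨p, hp, Q, ⟨τ, hQ⟩, rfl⟩ := Language.mem_mul.1 hx
    have hc' : c.length = D.p0 := hc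
    refine ⟨by rw [List.length_append]; omega, p, Q, τ, ?_, hp, hQ⟩
    rw [← hc', List.drop_left]

include hP in
theorem hl_eta1 (h : Fs D Pm) (v : Tok S) (o : Option (Tok S)) :
    HL 1 ({z | z ∈ D.toCx.Z ∧ (D.eta z).unop (some v) = o} : Language α) := by
  classical
  have hZ : HL 1 D.toCx.Z := (hl_Z h.wh).mono (by omega)
  have hC := hl_cutY hP h v
  have hV := hl_val hP h (fun _ => v) (fun u s => some (act u s) = o)
  refine (HL.setOf_and hZ (HL.setOf_or (HL.setOf_and hC (HL.const (none = o)))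
    (HL.setOf_and (HL.setOf_not hC) hV))).congr fun z => ?_
  have hval : ∀ t, IsZ D.R D.z0 z t → ((D.eta z).unop (some v) =
      if D.CutY v z then none else
        some (act (v2 D v (z.take t)) (D.toCx.ph (z.drop t)))) := by
    intro t ht
    have hfw : D.toCx.fw z = t := D.toCx.fw_eq ht.2.1
    show (if D.CutY v z then none else some _) = _
    rw [hfw]
    rfl
  have hz0 := h.okb.hz
  constructor
  · rintro ⟨⟨t, ht⟩, h2⟩
    have h0 : D.p0 ≤ z.length := by have := ht.1; have := ht.2.1.2.1; omega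
    refine ⟨⟨t, ht⟩, ?_⟩
    rw [hval t ht] at h2
    by_cases hc : D.CutY v z
    · rw [if_pos hc] at h2
      exact Or.inl ⟨⟨h0, hc⟩, h2⟩
    · rw [if_neg hc] at h2
      exact Or.inr ⟨fun hh => hc hh.2, t, ht, h2⟩
  · rintro ⟨⟨t, ht⟩, h2⟩
    have h0 : D.p0 ≤ z.length := by have := ht.1; have := ht.2.1.2.1; omega
    refine ⟨⟨t, ht⟩, ?_⟩
    rw [hval t ht]
    rcases h2 with ⟨⟨_, hc⟩, h3⟩ | ⟨hc, t', ht', h3⟩
    · rw [if_pos hc]; exact h3
    · rw [if_neg (fun hh => hc ⟨h0, hh⟩)]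
      have : t' = t := ht'.2.1.unique ht.2.1
      subst this
      exact h3

include hP in
theorem hl_eta (h : Fs D Pm) (y : Gm S) :
    HL 1 ({z | z ∈ D.toCx.Z ∧ D.eta z = y} : Language α) := by
  have hZ : HL 1 D.toCx.Z := (hl_Z h.wh).mono (by omega)
  refine (HL.setOf_and hZ (HL.setOf_and (HL.iInter fun v : Tok S =>
    hl_eta1 hP h v (y.unop (some v))) (HL.const (y.unop none = none)))).congr fun z => ?_
  constructor
  · rintro ⟨h1, h2⟩
    subst h2
    exact ⟨h1, fun v => ⟨h1, rfl⟩, rfl⟩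
  · rintro ⟨h1, h2, h3⟩
    refine ⟨h1, ?_⟩
    apply MulOpposite.unop_injective
    funext o
    cases o with
    | none => exact h3.symm
    | some v => exact (h2 v).2

include hP in
theorem hl_ZB (h : Fs D Pm) (w b : Tok (Gm S)) :
    HL 1 ({z | z ∈ D.toCx.Zc ∧
      aff (stepA (aff D.toCx.ph D.toCx.dA) D.toCx.LA D.toCx.RA) D.dB z w = b} : Language α) := by
  haveI : Finite (Gm S) := Finite.of_equiv (Option (Tok S) → Option (Tok S)) MulOpposite.opEquiv
  have hfin : ({c : List α | c.length = D.p0} : Set (List α)).Finite :=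
    (List.finite_length_le α D.p0).subset fun c hc => le_of_eq hc
  have hz0 := h.okb.hz
  refine (HL.setOf_and (hl_Zc hP h) (HL.biUnion hfin fun c _ => HL.setOf_and
    (HL.prefix (HL.word c)) (HL.iUnion fun y : Gm S => HL.setOf_and (hl_eta hP h y)
      (HL.const (act w (ExactR_237.pr D.gl c * y) + D.nuB c y = b))))).congr fun z => ?_
  constructor
  · rintro ⟨⟨t, ht, hb⟩, h2⟩
    refine ⟨⟨t, ht, hb⟩, z.take D.p0, ?_, ?_, D.eta z, ⟨⟨t, ht⟩, rfl⟩, ?_⟩
    · show (z.take D.p0).length = D.p0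
      rw [List.length_take]; have := ht.1; have := ht.2.1.2.1; omega
    · exact ⟨z.take D.p0, rfl, List.take_prefix _ _⟩
    · rw [← stepA_eq h.okb ht]
      exact h2
  · rintro ⟨⟨t, ht, hb⟩, c, hc, ⟨c', hc', hpre⟩, y, ⟨⟨_, h3⟩, h4⟩⟩
    refine ⟨⟨t, ht, hb⟩, ?_⟩
    have hcc : c' = c := hc'
    subst hcc
    have hcl : c'.length = D.p0 := hc
    have e : z.take D.p0 = c' := by
      obtain ⟨x, rfl⟩ := hpre
      rw [← hcl, List.take_left]
    show act w (stepA (aff D.toCx.ph D.toCx.dA) D.toCx.LA D.toCx.RA z) + D.dB z = b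
    rw [stepA_eq h.okb ht]
    unfold dB
    rw [e, h3]
    exact h4

include hP in
theorem hl_RB (h : Fs D Pm) (b : Tok (Gm S)) : HL 1 (D.RB b) := by
  haveI : Finite (Gm S) := Finite.of_equiv (Option (Tok S) → Option (Tok S)) MulOpposite.opEquiv
  refine (HL.iInter (fun w : Tok (Gm S) => HL.biInter (lb_fin w D)
    (fun P _ => HL.lquot P (HL.setOf_or (hl_ZB hP h w b) (hl_Dead hP h))))).congr fun Q => ?_
  rfl

theorem hl_tail (h : Fs D Pm) (s : S) :
    HL 1 ({w | (∀ z ∈ D.toCx.Z, ¬ z <+: w) ∧ D.toCx.ph w = s} : Language α) := by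
  classical
  have hZ : HL 1 D.toCx.Z := (hl_Z h.wh).mono (by omega)
  refine (HL.setOf_and (HL.setOf_not (HL.prefix hZ))
    (h.wh.val (D.z0 + 2) S D.f s)).congr fun w => ?_
  constructor
  · rintro ⟨h1, h2⟩
    refine ⟨fun ⟨z, hz, hp⟩ => h1 z hz hp, ?_, h2⟩
    by_cases hex : ∃ τ, Wat D.R w τ ∧ D.z0 ≤ τ
    · obtain ⟨τ0, h3, h4⟩ := hex
      obtain ⟨t, ht, -⟩ := exists_isF h3 h4
      refine ⟨Finset.range D.z0 ∪ {t}, ?_, ?_⟩
      · refine (Finset.card_union_le _ _).trans ?_
        rw [Finset.card_range, Finset.card_singleton]; omega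
      · intro τ hτ
        simp only [Finset.mem_union, Finset.mem_range, Finset.mem_singleton]
        by_contra hc
        push Not at hc
        obtain ⟨h5, h6⟩ := hc
        rcases lt_trichotomy τ t with h7 | h7 | h7
        · exact ht.2.2 τ h5 h7 hτ
        · exact h6 h7
        · -- the least wall after `t` ends a block
          have hex2 : ∃ s, t < s ∧ Wat D.R w s := ⟨τ, h7, hτ⟩
          obtain ⟨hs1, hs2⟩ := Nat.find_spec hex2
          have hs3 := @Nat.find_min _ _ hex2
          set s := Nat.find hex2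
          have hl : (w.take s).length = s := by rw [List.length_take]; have := hs2.1; omega
          refine h1 (w.take s) ⟨t, by rw [hl]; exact hs1, ?_, ?_, ?_⟩ (List.take_prefix _ _)
          · have := ht
            rw [← List.take_append_drop s w] at this
            exact this.of_append (by rw [hl]; exact hs1.le)
          · rw [hl]; exact (wat_take D.R le_rfl hs2.1).2 hs2
          · intro s' h8 h9 h10
            rw [hl] at h9
            exact hs3 h9 ⟨h8, (wat_take D.R h9.le hs2.1).1 h10⟩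
    · refine ⟨Finset.range D.z0, ?_, ?_⟩
      · rw [Finset.card_range]; omega
      · intro τ hτ
        rw [Finset.mem_range]
        by_contra hc
        exact hex ⟨τ, hτ, by omega⟩
  · rintro ⟨h1, _, h2⟩
    exact ⟨fun z hz hp => h1 ⟨z, hz, hp⟩, h2⟩

include hP in
/-- **the data of 621's row theorem** -/
theorem data (h : Fs D Pm) : Main_621.Data D.toCx.ph := by
  haveI : Finite (Gm S) := Finite.of_equiv (Option (Tok S) → Option (Tok S)) MulOpposite.opEquiv
  refine ⟨D.toCx.Z, D.toCx.Zc, D.toCx.dA, D.toCx.LA, D.toCx.RA, D.dB, D.LB, D.RB,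
    code, zc_sub, (hl_Z h.wh).mono (by omega), hl_Zc hP h, soundA h.okb.ok, hl_LA h, hl_RA hP h,
    compA h.okb.ok, soundB h.okb, fun w => HL.finite (lb_fin w D), hl_RB hP h, compB h.okb,
    fun s => (hl_tail h s).mono (by omega)⟩

end Crest.Agent.R320.Hl2_410
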