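import Crest.Agent.R320.SchB_410

/-!
# Row 320: height one of all languages of the two schemes (helper410)
-/

set_option autoImplicit false

namespace Crest.Agent.R320.Hl_410

open Crest.Agent.R320.Hk_851 Crest.Agent.R320.Star_621 Crest.Agent.R320.Two_621
  Crest.Agent.R320.Geo_410 Crest.Agent.R320.SchA_410 Crest.Agent.R320.SchA_410.Cx
  Crest.Agent.R320.SchB_410 Crest.Agent.R320.SchB_410.Cb

variable {α : Type}

/-- at most `r` walls -/
def FW (R : Walls α) (r : ℕ) (u : List α) : Prop :=
  ∃ A : Finset ℕ, A.card ≤ r ∧ ∀ τ, Wat R u τ → τ ∈ A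

theorem FW.left {R : Walls α} {r : ℕ} {a b : List α} (h : FW R r (a ++ b)) : FW R r a := by
  obtain ⟨A, h1, h2⟩ := h
  exact ⟨A, h1, fun τ hτ => h2 τ ((wat_append R hτ.1).2 hτ)⟩

theorem FW.right {R : Walls α} {r : ℕ} {a b : List α} (h : FW R r (a ++ b)) : FW R r b := by
  obtain ⟨A, h1, h2⟩ := h
  refine ⟨A.image (fun τ => τ - a.length), Finset.card_image_le.trans h1, fun τ hτ => ?_⟩
  obtain ⟨h3, h4⟩ := hτ
  refine Finset.mem_image.2 ⟨a.length + τ, h2 _ ⟨?_, ?_⟩, by omega⟩
  · rw [List.length_append]; omega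
  · rw [List.take_length_add_append]
    exact (R.loc a _ (R.len _ h4)).2 h4

variable [Finite α]

/-- the wall hypotheses on languages -/
structure Wh (R : Walls α) : Prop where
  wo : HL 0 ({u | R.Wo u} : Language α)
  val : ∀ (r : ℕ) (M : Type) [Monoid M] [Finite M] (φ : α → M) (s : M),
    HL 1 ({u | FW R r u ∧ (u.map φ).prod = s} : Language α)

variable {R : Walls α}

theorem hl_fw (h : Wh R) (r : ℕ) : HL 1 ({u | FW R r u} : Language α) :=
  (h.val r Unit (fun _ => ()) ()).congr fun u => ⟨fun h => ⟨h, rfl⟩, fun h => h.1⟩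

/-- local + value predicates on words with few walls -/
theorem hl_data (h : Wh R) (r J : ℕ) {M : Type} [Monoid M] [Finite M] (φ : α → M)
    (G : List α → Prop)
    (hG : ∀ W W' : List α, J ≤ W.length → J ≤ W'.length → W.take J = W'.take J →
      ((W.drop J).map φ).prod = ((W'.drop J).map φ).prod → G W → G W') :
    HL 1 ({W | J ≤ W.length ∧ FW R r W ∧ G W} : Language α) := by
  have hfin : ({c : List α | c.length = J} : Set (List α)).Finite :=
    (List.finite_length_le α J).subset fun c hc => le_of_eq hc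
  let Vs : M → Language α := fun s => {u | FW R r u ∧ (u.map φ).prod = s}
  let Wd : List α → Language α := fun c => {c}
  let Cs : List α → M → Language α := fun c s => {W | W ∈ Wd c * Vs s ∧
        (∃ W', J ≤ W'.length ∧ W'.take J = c ∧ ((W'.drop J).map φ).prod = s ∧ G W')}
  have h1 : HL 1 ({W | ∃ c ∈ ({c : List α | c.length = J} : Set (List α)), W ∈
      ({W | ∃ s : M, W ∈ Cs c s} : Language α)} : Language α) := by
    refine HL.biUnion hfin fun c _ => ?_
    refine HL.iUnion fun s => ?_
    exact HL.setOf_and ((HL.word c).mul (h.val r M φ s)) (HL.const _)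
  refine (HL.setOf_and h1 (hl_fw h r)).congr fun W => ?_
  constructor
  · rintro ⟨h2, h3, h4⟩
    refine ⟨⟨W.take J, ?_, ((W.drop J).map φ).prod, ?_, W, h2, rfl, rfl, h4⟩, h3⟩
    · show (W.take J).length = J
      rw [List.length_take]; omega
    · refine Language.mem_mul.2 ⟨W.take J, rfl, W.drop J, ⟨?_, rfl⟩, List.take_append_drop _ _⟩
      rw [← List.take_append_drop J W] at h3
      exact h3.right
  · rintro ⟨⟨c, hc, s, hW, W', h2, h3, h4, h5⟩, h6⟩
    obtain ⟨a, ha, u, ⟨hu1, hu2⟩, rfl⟩ := Language.mem_mul.1 hW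
    have hac : a = c := ha
    subst hac
    have hc' : a.length = J := hc
    refine ⟨by rw [List.length_append]; omega, h6, hG W' (a ++ u) h2
      (by rw [List.length_append]; omega) ?_ ?_ h5⟩
    · rw [h3, ← hc', List.take_left]
    · rw [h4, ← hu2, ← hc', List.drop_left]

variable {z0 : ℕ}

/-- walls `≥ z0` strictly inside -/
theorem hl_inside (h : Wh R) : HL 0 ({u | ∃ s, z0 ≤ s ∧ s < u.length ∧ Wat R u s} : Language α) := by
  have h1 : HL 0 ({v | R.Wo v ∧ z0 ≤ v.length} : Language α) :=
    HL.setOf_and h.wo (HL.length_ge z0)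
  refine (h1.mul (HL.one (k := 0)).compl).congr fun u => ?_
  constructor
  · rintro ⟨s, h2, h3, h4, h5⟩
    refine Language.mem_mul.2 ⟨u.take s, ⟨h5, ?_⟩, u.drop s, ?_, List.take_append_drop _ _⟩
    · rw [List.length_take]; omega
    · intro he
      have he' : u.drop s = [] := he
      have := congrArg List.length he'
      rw [List.length_drop] at this
      simp at this
      omega
  · intro hu
    obtain ⟨v, ⟨hv1, hv2⟩, x, hx, rfl⟩ := Language.mem_mul.1 hu
    have hx' : x ≠ [] := fun e => hx e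
    have hxl : 0 < x.length := List.length_pos_iff.2 hx'
    refine ⟨v.length, hv2, by rw [List.length_append]; omega, by rw [List.length_append]; omega, ?_⟩
    rw [List.take_left]; exact hv1

theorem hl_B1 (h : Wh R) : HL 0 ({u | IsF R z0 u u.length} : Language α) := by
  refine (HL.setOf_and (HL.setOf_and h.wo (HL.length_ge z0))
    (HL.setOf_not (hl_inside (z0 := z0) h))).congr fun u => ?_
  constructor
  · rintro ⟨⟨h1, h2⟩, h3, h4⟩
    rw [List.take_length] at h2
    refine ⟨⟨h2, h3⟩, ?_⟩
    rintro ⟨s, h5, h6, h7⟩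
    exact h4 s h5 h6 h7
  · rintro ⟨⟨h1, h2⟩, h3⟩
    refine ⟨⟨le_rfl, by rw [List.take_length]; exact h1⟩, h2, fun s h5 h6 h7 => h3 ⟨s, h5, h6, h7⟩⟩

theorem hl_Z (h : Wh R) : HL 0 ({z | ∃ t, IsZ R z0 z t} : Language α) := by
  have h2 : HL 0 ({u | R.Wo u ∧ u ∈ ({u | ∃ s, z0 ≤ s ∧ s < u.length ∧ Wat R u s} : Language α)} :
      Language α) := HL.setOf_and h.wo (hl_inside h)
  have h3 := h2.mul (HL.one (k := 0)).compl
  refine (HL.setOf_and h2 (HL.setOf_not h3)).congr fun z => ?_
  constructor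
  · rintro ⟨t, h4, h5, h6, h7⟩
    have h6' := h6.2
    rw [List.take_length] at h6'
    refine ⟨⟨h6', t, h5.2.1, h4, h5.1⟩, ?_⟩
    intro hz
    obtain ⟨v, ⟨hv1, s, hs1, hs2, hs3⟩, x, hx, rfl⟩ := Language.mem_mul.1 hz
    have hx' : x ≠ [] := fun e => hx e
    have hxl : 0 < x.length := List.length_pos_iff.2 hx'
    have hl : (v ++ x).length = v.length + x.length := List.length_append
    have hv : Wat R (v ++ x) v.length := ⟨by omega, by rw [List.take_left]; exact hv1⟩
    have hs : Wat R (v ++ x) s := (wat_append R hs2.le).2 hs3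
    have hts : t ≤ s := by
      by_contra hc
      exact h5.2.2 s hs1 (by omega) hs
    exact h7 v.length (by omega) (by omega) hv
  · rintro ⟨⟨h4, s, h5, h6, h7⟩, h8⟩
    obtain ⟨t, ht, hts⟩ := exists_isF (z0 := z0) h7 h5
    refine ⟨t, by omega, ht, ⟨le_rfl, by rw [List.take_length]; exact h4⟩, ?_⟩
    intro s' h9 h10 h11
    refine h8 (Language.mem_mul.2 ⟨z.take s', ⟨h11.2, t, ht.2.1, ?_, ?_⟩, z.drop s', ?_,
      List.take_append_drop _ _⟩)
    · rw [List.length_take]; omega
    · exact (wat_take R (by omega) (by omega)).2 ht.1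
    · intro he
      have he' : z.drop s' = [] := he
      have := congrArg List.length he'
      rw [List.length_drop] at this
      simp at this
      omega

theorem fw_Z {z : List α} {t : ℕ} (h : IsZ R z0 z t) : FW R (z0 + 2) z := by
  classical
  refine ⟨Finset.range z0 ∪ {t, z.length}, ?_, ?_⟩
  · refine (Finset.card_union_le _ _).trans ?_
    rw [Finset.card_range]
    have : ({t, z.length} : Finset ℕ).card ≤ 2 := Finset.card_le_two
    omega
  · intro τ hτ
    simp only [Finset.mem_union, Finset.mem_range, Finset.mem_insert, Finset.mem_singleton]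
    by_contra hc
    push Not at hc
    obtain ⟨h1, h2, h3⟩ := hc
    have hl := hτ.1
    rcases lt_trichotomy τ t with h4 | h4 | h4
    · exact h.2.1.2.2 τ h1 h4 hτ
    · exact h2 h4
    · exact h.2.2.2 τ h4 (by omega) hτ

/-- blocks with conditions on both parts -/
theorem hl_parts (h : Wh R) {L1 L2 : Language α} (h1 : HL 1 L1) (h2 : HL 1 L2) :
    HL 1 ({z | ∃ t, IsZ R z0 z t ∧ z.take t ∈ L1 ∧ z.drop t ∈ L2} : Language α) := by
  have hZ : HL 1 ({z | ∃ t, IsZ R z0 z t} : Language α) := (hl_Z h).mono (by omega)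
  have hB : HL 1 ({u | IsF R z0 u u.length} : Language α) := (hl_B1 h).mono (by omega)
  refine (HL.setOf_and hZ ((hB.inf h1).mul h2)).congr fun z => ?_
  constructor
  · rintro ⟨t, h3, h4, h5⟩
    refine ⟨⟨t, h3⟩, Language.mem_mul.2 ⟨z.take t, ⟨?_, h4⟩, z.drop t, h5,
      List.take_append_drop _ _⟩⟩
    have hl : (z.take t).length = t := by rw [List.length_take]; have := h3.1; omega
    show IsF R z0 (z.take t) (z.take t).length
    rw [hl]
    exact h3.2.1.take
  · rintro ⟨⟨t, h3⟩, h4⟩
    obtain ⟨X, ⟨hX1, hX2⟩, T, hT, rfl⟩ := Language.mem_mul.1 h4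
    have hX1' : IsF R z0 X X.length := hX1
    have ht : X.length = t := (hX1'.append T).unique h3.2.1
    subst ht
    exact ⟨X.length, h3, by rw [List.take_left]; exact hX2, by rw [List.drop_left]; exact hT⟩

end Crest.Agent.R320.Hl_410
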