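import Crest.Agent.R320.ExactR_237
import Crest.Agent.R320.Shared_621

/-!
Row 320, I2 of plan #13578: scheme B (promise ruler) for the natural chain rule on left-looking
walls.  Everything is over an abstract wall predicate on places of words and an abstract thin set
`BadT` of lengths.
-/

set_option autoImplicit false

namespace Crest.Agent.R320.I2_237

open Finset
open Crest.Agent.R320.ExactR_237 (pr exact_gadget pr_append)

/-- left-looking walls: `Wp X t` = the place `t` of `X` is a wall -/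
structure Walls (α : Type) where
  n : ℕ
  W : ℕ
  Wp : List α → ℕ → Prop
  w1 : ∀ X t, Wp X t → n ≤ t ∧ t ≤ X.length
  w2 : ∀ P Q t, t ≤ P.length → (Wp (P ++ Q) t ↔ Wp P t)
  w3 : ∀ P Q t, n ≤ t → (Wp (P ++ Q) (P.length + t) ↔ Wp Q t)
  w4 : ∀ X t t', Wp X t → Wp X t' → t < t' → W < t' - t

namespace Walls
variable {α : Type} (D : Walls α)

/-- `t` is the first wall `≥ a` -/
def F (X : List α) (a t : ℕ) : Prop := a ≤ t ∧ D.Wp X t ∧ ∀ t', a ≤ t' → t' < t → ¬ D.Wp X t'

theorem F.uniq {D : Walls α} {X : List α} {a t t' : ℕ} (h : D.F X a t) (h' : D.F X a t') :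
    t = t' := by
  rcases lt_trichotomy t t' with h1 | h1 | h1
  · exact absurd h.2.1 (h'.2.2 t h.1 h1)
  · exact h1
  · exact absurd h'.2.1 (h.2.2 t' h'.1 h1)

theorem exist {X : List α} {a t : ℕ} (h : D.Wp X t) (ha : a ≤ t) : ∃ s, D.F X a s ∧ s ≤ t := by
  classical
  have hex : ∃ s, a ≤ s ∧ D.Wp X s := ⟨t, ha, h⟩
  refine ⟨Nat.find hex, ⟨(Nat.find_spec hex).1, (Nat.find_spec hex).2, ?_⟩,
    Nat.find_min' hex ⟨ha, h⟩⟩
  intro t' h1 h2 h3
  exact Nat.find_min hex h2 ⟨h1, h3⟩

/-- blocks: first wall `≥ z`, then the next wall is the end -/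
def ZZ (z : ℕ) : Language α := {X | ∃ t, D.F X z t ∧ D.F X (t + 1) X.length}

/-- the hypothesis "anchor `c` letters left of `Q`" is visibly bad -/
def BadQ (z N1 p0 : ℕ) (BadT : ℕ → Prop) (c : ℕ) (Q : List α) : Prop :=
  ∃ w, D.F Q (z - c) w ∧
    ((∃ w', D.Wp Q w' ∧ z ≤ c + w' + N1 ∧ c + w' < z + N1) ∨ BadT (c + w - p0))

/-- the block of this anchor ends with `Q` -/
def EndQ (z c : ℕ) (Q : List α) : Prop := ∃ w, D.F Q (z - c) w ∧ D.F Q (w + 1) Q.length

theorem wdrop {P Q : List α} {t : ℕ} (ht : D.n ≤ t) :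
    D.Wp (P ++ Q) (P.length + t) ↔ D.Wp Q t := D.w3 P Q t ht

/-- first walls of a suffix -/
theorem F_drop {P Q : List α} {a w : ℕ} (ha : D.n ≤ a) :
    D.F Q a w ↔ D.F (P ++ Q) (P.length + a) (P.length + w) := by
  constructor
  · rintro ⟨h1, h2, h3⟩
    refine ⟨by omega, (D.w3 P Q w (by omega)).2 h2, ?_⟩
    intro t' h4 h5 h6
    obtain ⟨s, rfl⟩ : ∃ s, t' = P.length + s := ⟨t' - P.length, by omega⟩
    exact h3 s (by omega) (by omega) ((D.w3 P Q s (by omega)).1 h6)
  · rintro ⟨h1, h2, h3⟩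
    refine ⟨by omega, (D.w3 P Q w (by omega)).1 h2, ?_⟩
    intro t' h4 h5 h6
    exact h3 (P.length + t') (by omega) (by omega) ((D.w3 P Q t' (by omega)).2 h6)

/-- first walls of a prefix -/
theorem F_app {P Q : List α} {a w : ℕ} (hw : w ≤ P.length) :
    D.F (P ++ Q) a w ↔ D.F P a w := by
  constructor
  · rintro ⟨h1, h2, h3⟩
    exact ⟨h1, (D.w2 P Q w hw).1 h2, fun t' h4 h5 h6 => h3 t' h4 h5
      ((D.w2 P Q t' (by omega)).2 h6)⟩
  · rintro ⟨h1, h2, h3⟩
    exact ⟨h1, (D.w2 P Q w hw).2 h2, fun t' h4 h5 h6 => h3 t' h4 h5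
      ((D.w2 P Q t' (by omega)).1 h6)⟩

theorem F.le_len {D : Walls α} {X : List α} {a t : ℕ} (h : D.F X a t) : t ≤ X.length :=
  (D.w1 X t h.2.1).2

/-- `EndQ` says that the whole word is a block -/
theorem endQ_iff {z c : ℕ} {P Q : List α} (hP : P.length = c) (hz : c + D.n ≤ z) :
    D.EndQ z c Q ↔ P ++ Q ∈ D.ZZ z := by
  have key : ∀ w, D.F Q (z - c) w ↔ D.F (P ++ Q) z (c + w) := by
    intro w
    rw [D.F_drop (P := P) (a := z - c) (w := w) (by omega), hP,
      show c + (z - c) = z by omega]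
  constructor
  · rintro ⟨w, h1, h2⟩
    refine ⟨c + w, (key w).1 h1, ?_⟩
    have h3 := (D.F_drop (P := P) (a := w + 1) (w := Q.length)
      (by have := h1.1; omega)).1 h2
    rw [hP] at h3
    rw [List.length_append, hP]
    exact h3
  · rintro ⟨t, h1, h2⟩
    have h4 := h1.1
    obtain ⟨w, rfl⟩ : ∃ w, t = c + w := ⟨t - c, by omega⟩
    refine ⟨w, (key w).2 h1, ?_⟩
    rw [D.F_drop (P := P) (a := w + 1) (w := Q.length)
      (by have := ((key w).2 h1).1; omega), hP]
    rw [List.length_append, hP] at h2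
    exact h2

/-- the blocks are a prefix code -/
theorem code (z : ℕ) : ∀ X X' x x' : List α, X ∈ D.ZZ z → X' ∈ D.ZZ z → X ++ x = X' ++ x' →
    X = X' := by
  have main : ∀ X X' x x' : List α, X ∈ D.ZZ z → X' ∈ D.ZZ z → X ++ x = X' ++ x' →
      X.length ≤ X'.length → X = X' := by
    rintro X X' x x' ⟨t, h1, h2⟩ ⟨t', h1', h2'⟩ he hle
    obtain ⟨y, hy⟩ : ∃ y, X' = X ++ y := by
      have : X <+: X' := List.prefix_of_prefix_length_le (l₃ := X ++ x)
        (List.prefix_append _ _) (he ▸ List.prefix_append _ _) hle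
      obtain ⟨y, hy⟩ := this
      exact ⟨y, hy.symm⟩
    subst hy
    have e1 : D.F (X ++ y) z t := (D.F_app h1.le_len).2 h1
    have e2 : t = t' := e1.uniq h1'
    subst e2
    have e3 : D.F (X ++ y) (t + 1) X.length := (D.F_app le_rfl).2 h2
    have e4 := e3.uniq h2'
    rw [List.length_append] at e4
    have : y.length = 0 := by omega
    rw [List.length_eq_zero_iff] at this
    rw [this, List.append_nil]
  intro X X' x x' h h' he
  rcases le_total X.length X'.length with hl | hl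
  · exact main X X' x x' h h' he hl
  · exact (main X' X x' x h' h he.symm hl).symm

/-- the true hypothesis is always visible -/
theorem visible {z N1 p0 c c' : ℕ} {BadT : ℕ → Prop} {P Q X x y : List α}
    (hP : P.length = c) (hz : c + D.n + N1 ≤ z) (hz' : c' + D.n + N1 ≤ z)
    (hN : N1 ≤ D.W) (hL : c' ≤ c + D.W)
    (hX : X ∈ D.ZZ z) (hbad : D.BadQ z N1 p0 BadT 0 X) (hend : D.EndQ z c' Q)
    (he : P ++ Q ++ x = X ++ y) : D.BadQ z N1 p0 BadT c Q := by
  obtain ⟨t, ht, hb⟩ := hbad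
  simp only [Nat.sub_zero, Nat.zero_add] at ht hb
  have htl := ht.le_len
  have ht1 := ht.1
  -- split `X`
  obtain ⟨Qt, rfl⟩ : ∃ Qt, X = P ++ Qt := by
    have h1 : P <+: X := List.prefix_of_prefix_length_le (l₃ := X ++ y)
      (by rw [← he, List.append_assoc]; exact List.prefix_append _ _)
      (List.prefix_append _ _) (by omega)
    obtain ⟨y', hy⟩ := h1
    exact ⟨y', hy.symm⟩
  have hT : Q ++ x = Qt ++ y := by
    rw [List.append_assoc, List.append_assoc] at he
    exact List.append_cancel_left he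
  obtain ⟨wt, rfl⟩ : ∃ wt, t = c + wt := ⟨t - c, by omega⟩
  have hwt : D.F Qt (z - c) wt := by
    rw [D.F_drop (P := P) (by omega), hP, show c + (z - c) = z by omega]
    exact ht
  have hTt : D.F (Q ++ x) (z - c) wt := by
    rw [hT]; exact (D.F_app hwt.le_len).2 hwt
  obtain ⟨w', h1, h2⟩ := hend
  have h1T : D.Wp (Q ++ x) w' := (D.w2 Q x w' h1.le_len).2 h1.2.1
  have h2T : D.Wp (Q ++ x) Q.length := (D.w2 Q x _ le_rfl).2 h2.2.1
  have hvis : wt ≤ Q.length := by
    by_contra hcon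
    push Not at hcon
    have h3 : Q.length < z - c := by
      by_contra h4
      exact hTt.2.2 Q.length (by omega) hcon h2T
    have h5 := h2.1
    have h6 := h1.1
    have h7 := D.w4 _ _ _ h1T h2T (by omega)
    omega
  have hQt : D.F Q (z - c) wt := (D.F_app (Q := x) hvis).1 hTt
  refine ⟨wt, hQt, ?_⟩
  rcases hb with ⟨w'', hw, ha, hbb⟩ | hb
  · left
    have hle : w'' ≤ c + wt := by
      by_contra hcon
      push Not at hcon
      have := D.w4 _ _ _ ht.2.1 hw hcon
      omega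
    obtain ⟨w3, rfl⟩ : ∃ w3, w'' = c + w3 := ⟨w'' - c, by omega⟩
    refine ⟨w3, ?_, ha, hbb⟩
    have h8 : D.Wp Qt w3 := by
      rw [← hP] at hw
      exact (D.w3 P Qt w3 (by omega)).1 hw
    have h9 : D.Wp (Q ++ x) w3 := by
      rw [hT]
      exact (D.w2 Qt y w3 (D.w1 _ _ h8).2).2 h8
    exact (D.w2 Q x w3 (by omega)).1 h9
  · right
    exact hb

open Classical in
/-- **Spoil count.** -/
theorem spoil {z N1 p0 Λ K C0 : ℕ} {BadT : ℕ → Prop} {c : ℕ → ℕ}
    (hcL : ∀ k < K, c k ≤ Λ) (hz : Λ + Λ + D.n + N1 + p0 ≤ z) (hW : 2 * N1 + 2 * Λ ≤ D.W)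
    (hrul : ∀ a a' b b', a < K → a' < K → b < K → b' < K → a ≠ a' → b ≠ b' →
      |((c a' : ℤ) - c a) - ((c b' : ℤ) - c b)| < 2 * N1 → a = b)
    (hthin : ∀ T, (∀ k < K, c k ≤ T) →
      ((range K ×ˢ range K).filter (fun ab => ab.1 ≠ ab.2 ∧ BadT (T + c ab.1 - c ab.2))).card
        ≤ C0) (X : List α) (hX : Λ ≤ X.length) :
    ((range K).filter (fun k => ∃ k' < K, k' ≠ k ∧
      D.BadQ z N1 p0 BadT (c k') (X.drop (c k)))).card ≤ 1 + 2 * C0 := by
  -- the two candidate walls
  obtain ⟨w0, hw0, hw0'⟩ : ∃ w0, (∀ w, D.F X (z - Λ) w → w = w0) ∧ z - Λ ≤ w0 := by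
    by_cases h : ∃ w, D.F X (z - Λ) w
    · obtain ⟨w, hw⟩ := h
      exact ⟨w, fun w' hw' => hw'.uniq hw, hw.1⟩
    · exact ⟨z - Λ, fun w hw => absurd ⟨w, hw⟩ h, le_rfl⟩
  obtain ⟨w1, hw1, hw1'⟩ : ∃ w1, (∀ w, D.F X (z + Λ) w → w = w1) ∧ z + Λ ≤ w1 := by
    by_cases h : ∃ w, D.F X (z + Λ) w
    · obtain ⟨w, hw⟩ := h
      exact ⟨w, fun w' hw' => hw'.uniq hw, hw.1⟩
    · exact ⟨z + Λ, fun w hw => absurd ⟨w, hw⟩ h, le_rfl⟩
  -- the events
  let JE : Finset ℕ := (range K).filter (fun k => ∃ k' < K, k' ≠ k ∧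
    ∃ w, D.Wp X w ∧ z + c k ≤ c k' + w + N1 ∧ c k' + w < z + N1 + c k)
  let JB : ℕ → Finset ℕ := fun w => ((range K ×ˢ range K).filter
    (fun ab => ab.1 ≠ ab.2 ∧ BadT ((w - p0) + c ab.1 - c ab.2))).image (fun ab => ab.2)
  have hJE : JE.card ≤ 1 := by
    rw [Finset.card_le_one]
    intro a ha b hb
    simp only [JE, mem_filter, mem_range] at ha hb
    obtain ⟨haK, a', ha'K, haa, w, hw, h1, h2⟩ := ha
    obtain ⟨hbK, b', hb'K, hbb, w', hw', h3, h4⟩ := hb
    have c1 := hcL a haK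
    have c2 := hcL a' ha'K
    have c3 := hcL b hbK
    have c4 := hcL b' hb'K
    have hww : w = w' := by
      rcases lt_trichotomy w w' with h | h | h
      · have := D.w4 X w w' hw hw' h
        omega
      · exact h
      · have := D.w4 X w' w hw' hw h
        omega
    subst hww
    refine hrul a a' b b' haK ha'K hbK hb'K (Ne.symm haa) (Ne.symm hbb) ?_
    rw [abs_lt]
    constructor <;> omega
  have hJB : ∀ w, p0 + Λ ≤ w → (JB w).card ≤ C0 := by
    intro w hw
    refine card_image_le.trans (hthin (w - p0) ?_)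
    intro k hk
    have := hcL k hk
    omega
  have hsub : (range K).filter (fun k => ∃ k' < K, k' ≠ k ∧
      D.BadQ z N1 p0 BadT (c k') (X.drop (c k))) ⊆ JE ∪ (JB w0 ∪ JB w1) := by
    intro k hk
    rw [mem_filter, mem_range] at hk
    obtain ⟨hkK, k', hk'K, hne, w, hF, hbad⟩ := hk
    have c1 := hcL k hkK
    have c2 := hcL k' hk'K
    have hXs : X = X.take (c k) ++ X.drop (c k) := (List.take_append_drop _ _).symm
    have hlen : (X.take (c k)).length = c k := by rw [List.length_take]; omega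
    rw [mem_union, mem_union]
    rcases hbad with ⟨w', hw', h1, h2⟩ | hB
    · left
      simp only [JE, mem_filter, mem_range]
      refine ⟨hkK, k', hk'K, hne, c k + w', ?_, by omega, by omega⟩
      have h3 := (D.w3 (X.take (c k)) (X.drop (c k)) w' (D.w1 _ _ hw').1).2 hw'
      rw [hlen, List.take_append_drop] at h3
      exact h3
    · right
      have hF' : D.F X (c k + (z - c k')) (c k + w) := by
        have := (D.F_drop (P := X.take (c k)) (a := z - c k') (w := w) (by omega)).1 hF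
        rwa [hlen, List.take_append_drop] at this
      have hcase : c k + w = w0 ∨ c k + w = w1 := by
        have hle := hF'.1
        rcases Nat.lt_or_ge (c k + w) (z + Λ) with h | h
        · left
          obtain ⟨s, hs, hsl⟩ := D.exist hF'.2.1 (a := z - Λ) (by omega)
          have hs1 := hs.1
          have : s = c k + w := by
            rcases Nat.lt_or_ge s (c k + w) with h4 | h4
            · have := D.w4 X s _ hs.2.1 hF'.2.1 h4
              omega
            · omega
          rw [← this]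
          exact hw0 s hs
        · right
          apply hw1
          refine ⟨h, hF'.2.1, fun t' h4 h5 h6 => hF'.2.2 t' ?_ h5 h6⟩
          omega
      have hbb : BadT ((c k + w - p0) + c k' - c k) := by
        have hF1 := hF.1
        have : c k + w - p0 + c k' - c k = c k' + w - p0 := by omega
        rw [this]
        exact hB
      rcases hcase with h | h
      · left
        simp only [JB, mem_image, mem_filter, mem_product, mem_range]
        exact ⟨(k', k), ⟨⟨hk'K, hkK⟩, hne, by rw [← h]; exact hbb⟩, rfl⟩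
      · right
        simp only [JB, mem_image, mem_filter, mem_product, mem_range]
        exact ⟨(k', k), ⟨⟨hk'K, hkK⟩, hne, by rw [← h]; exact hbb⟩, rfl⟩
  have b0 := hJB w0 (by omega)
  have b1 := hJB w1 (by omega)
  have u1 := card_union_le JE (JB w0 ∪ JB w1)
  have u2 := card_union_le (JB w0) (JB w1)
  have u3 := card_le_card hsub
  omega

end Walls


section schemeB

open Crest.Agent.R320.Star_621 (Cut Sound Code)

variable {α S V : Type} [Monoid S] [AddCommGroup V]

open Classical in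
/-- the place of the first wall `≥ a` -/
noncomputable def fw (D : Walls α) (X : List α) (a : ℕ) : ℕ :=
  if h : ∃ w, D.F X a w then h.choose else 0

theorem fw_eq {D : Walls α} {X : List α} {a w : ℕ} (h : D.F X a w) : fw D X a = w := by
  classical
  have hex : ∃ w, D.F X a w := ⟨w, h⟩
  unfold fw
  rw [dif_pos hex]
  exact hex.choose_spec.uniq h

/-- the zone map (shared by both schemes) -/
noncomputable def psi (D : Walls α) (f : α → S) (act : V → S → V) (p0 z : ℕ)
    (nu1 nu2 : List α → V) (X : List α) (v : V) : V :=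
  act (act (act v (pr f (X.take p0)) + nu2 (X.take p0))
      (pr f ((X.take (fw D X z)).drop p0)) + nu1 ((X.take (fw D X z)).drop p0))
    (pr f (X.drop (fw D X z)))

/-- critical blocks -/
def Zc (D : Walls α) (z N1 p0 : ℕ) (BadT : ℕ → Prop) : Language α :=
  {X | X ∈ D.ZZ z ∧ D.BadQ z N1 p0 BadT 0 X}

/-- left languages of scheme B -/
def LB (K : ℕ) (c : ℕ → ℕ) (lam : ℕ → List α → Option V) (v : V) : Language α :=
  {P | ∃ k < K, P.length = c k ∧ lam k P = some v}

/-- right languages of scheme B -/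
def RB (D : Walls α) (f : α → S) (act : V → S → V) (z N1 p0 : ℕ) (BadT : ℕ → Prop)
    (nu1 : List α → V) (K : ℕ) (c : ℕ → ℕ) (rho : ℕ → List α → S → Option V) (τ : V) :
    Language α :=
  {Q | ∃ k < K, D.BadQ z N1 p0 BadT (c k) Q ∧
    (∀ k' < K, D.BadQ z N1 p0 BadT (c k') Q → k' = k) ∧
    ∃ w b', D.F Q (z - c k) w ∧ D.F Q (w + 1) Q.length ∧
      rho k (Q.take (p0 - c k)) 1 = some b' ∧
      τ = act (act b' (pr f ((Q.take w).drop (p0 - c k))) + nu1 ((Q.take w).drop (p0 - c k)))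
        (pr f (Q.drop w))}

theorem take_mid (P Q : List α) {c p0 : ℕ} (hP : P.length = c) (h : c ≤ p0) :
    (P ++ Q).take p0 = P ++ Q.take (p0 - c) := by
  rw [List.take_append, List.take_of_length_le (by omega), hP]

theorem drop_mid (P Q : List α) {c w : ℕ} (hP : P.length = c) :
    (P ++ Q).drop (c + w) = Q.drop w := by
  rw [← hP, ← List.drop_drop, List.drop_left]

theorem mid_mid (P Q : List α) {c p0 w : ℕ} (hP : P.length = c) (h : c ≤ p0) :
    ((P ++ Q).take (c + w)).drop p0 = (Q.take w).drop (p0 - c) := by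
  rw [take_mid P Q hP (by omega), show c + w - c = w by omega, List.drop_append,
    List.drop_of_length_le (by omega), List.nil_append, hP]

variable {D : Walls α} {f : α → S} {act : V → S → V} {z N1 p0 Λ K C0 : ℕ} {BadT : ℕ → Prop}
  {nu1 : List α → V} {c : ℕ → ℕ} {lam : ℕ → List α → Option V}
  {rho : ℕ → List α → S → Option V} {nuE : List α → S → V}

/-- the exact relation at a junction -/
theorem soundB
    (hE : ∀ k < K, ∀ (P Q : List α) (y : S) (v b : V), P.length = c k →
      lam k P = some v → rho k Q y = some b → b = act v (pr f (P ++ Q) * y) + nuE (P ++ Q) y)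
    (hc0 : ∀ k < K, 0 < c k) (hcL : ∀ k < K, c k ≤ Λ) (hLp : Λ ≤ p0)
    (hz : Λ + D.n + N1 + p0 ≤ z) (hN : N1 ≤ D.W) (hW : Λ ≤ D.W) :
    Sound (Zc D z N1 p0 BadT) (fun X v => psi D f act p0 z nu1 (fun u => nuE u 1) X v)
      (LB K c lam) (RB D f act z N1 p0 BadT nu1 K c rho) := by
  constructor
  · rintro v ⟨k, hk, h, _⟩
    have := hc0 k hk
    simp at h
    omega
  rintro v τ P Q X x y ⟨k, hk, hPl, hlam⟩ ⟨k', hk', hbad', huniq, w, b', hF, hend, hrho, hτ⟩
    ⟨hXZ, hXb⟩ he
  have c1 := hcL k hk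
  have c2 := hcL k' hk'
  have hvis := D.visible hPl (by omega) (c' := c k') (by omega) hN (by omega) hXZ hXb
    ⟨w, hF, hend⟩ he
  have hkk : k = k' := huniq k hk hvis
  subst hkk
  have hPQ : P ++ Q ∈ D.ZZ z := (D.endQ_iff hPl (by omega)).1 ⟨w, hF, hend⟩
  have heq : P ++ Q = X := D.code z _ _ _ _ hPQ hXZ he
  refine ⟨heq, ?_⟩
  subst heq
  have hFt : D.F (P ++ Q) z (c k + w) := by
    have := (D.F_drop (P := P) (a := z - c k) (w := w) (by omega)).1 hF
    rwa [hPl, show c k + (z - c k) = z by omega] at this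
  have hw := hF.1
  have hb := hE k hk P (Q.take (p0 - c k)) 1 v b' hPl hlam hrho
  show τ = psi D f act p0 z nu1 (fun u => nuE u 1) (P ++ Q) v
  unfold psi
  rw [fw_eq hFt, take_mid P Q hPl (by omega), mid_mid P Q hPl (by omega), drop_mid P Q hPl, hτ,
    hb, mul_one]

open Classical in
/-- every token is cut in every critical block -/
theorem completeB
    (hI : ∀ (u : List α) (y : S) (v : V), (∀ k < K, c k ≤ u.length) →
      ∃ I : Finset ℕ, 1 + 2 * C0 + 1 ≤ I.card ∧ ∀ k ∈ I, k < K ∧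
        lam k (u.take (c k)) = some v ∧ (rho k (u.drop (c k)) y).isSome)
    (hcL : ∀ k < K, c k ≤ Λ) (hLp : Λ ≤ p0)
    (hz : Λ + Λ + D.n + N1 + p0 ≤ z) (hW : 2 * N1 + 2 * Λ ≤ D.W)
    (hrul : ∀ a a' b b', a < K → a' < K → b < K → b' < K → a ≠ a' → b ≠ b' →
      |((c a' : ℤ) - c a) - ((c b' : ℤ) - c b)| < 2 * N1 → a = b)
    (hthin : ∀ T, (∀ k < K, c k ≤ T) →
      ((range K ×ˢ range K).filter
        (fun ab => ab.1 ≠ ab.2 ∧ BadT (T + c ab.1 - c ab.2))).card ≤ C0) :
    ∀ X ∈ Zc D z N1 p0 BadT, ∀ v,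
      Cut (LB K c lam) (RB D f act z N1 p0 BadT nu1 K c rho) v X := by
  rintro X ⟨hXZ, hXb⟩ v
  obtain ⟨t, ht, hte⟩ := hXZ
  have ht1 := ht.1
  have ht2 := ht.le_len
  have hXl : z ≤ X.length := by omega
  have hlen : (X.take p0).length = p0 := by rw [List.length_take]; omega
  obtain ⟨I, hIc, hI2⟩ := hI (X.take p0) 1 v (fun k hk => by
    rw [hlen]; have := hcL k hk; omega)
  have hJ := D.spoil hcL hz hW hrul hthin X (by omega)
  obtain ⟨k, hkI, hkJ⟩ : ∃ k ∈ I, k ∉ (range K).filter (fun k => ∃ k' < K, k' ≠ k ∧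
      D.BadQ z N1 p0 BadT (c k') (X.drop (c k))) := by
    by_contra hcon
    push Not at hcon
    have := Finset.card_le_card (show I ⊆ _ from hcon)
    omega
  obtain ⟨hkK, hlam, hrho⟩ := hI2 k hkI
  have c1 := hcL k hkK
  obtain ⟨b', hb'⟩ := Option.isSome_iff_exists.1 hrho
  have hPl : (X.take (c k)).length = c k := by rw [List.length_take]; omega
  have hXs : X.take (c k) ++ X.drop (c k) = X := List.take_append_drop _ _
  have hE : D.EndQ z (c k) (X.drop (c k)) :=
    (D.endQ_iff hPl (by omega)).2 (by rw [hXs]; exact ⟨t, ht, hte⟩)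
  have hvis : D.BadQ z N1 p0 BadT (c k) (X.drop (c k)) :=
    D.visible hPl (by omega) (c' := c k) (x := []) (y := []) (by omega) (by omega) (by omega)
      ⟨t, ht, hte⟩ hXb hE (by rw [hXs])
  obtain ⟨w, hF, hend⟩ := hE
  refine ⟨X.take (c k), X.drop (c k), _, hXs.symm, ⟨k, hkK, hPl, ?_⟩,
    k, hkK, hvis, ?_, w, b', hF, hend, ?_, rfl⟩
  · rw [List.take_take, min_eq_left (by omega)] at hlam
    exact hlam
  · intro k' hk' hb
    by_contra hne
    apply hkJ
    rw [mem_filter, mem_range]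
    exact ⟨hkK, k', hk', hne, hb⟩
  · rw [List.drop_take] at hb'
    exact hb'

end schemeB

end Crest.Agent.R320.I2_237
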