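import Crest.Agent.R320.WallU_228
import Crest.Agent.R320.Reg_852
import Crest.Agent.R320.RegBd_11

/-!
# Row 320: the concrete word families of the two wall schemes (helper289)

Left-looking walls `Wo` (`LW`), all words.  `First g` : the first wall at a place `≥ g` is at the end,
`Free g` : no wall at a place in `[g, |u|)`.  All families are star free, and every regular
sub-language of `First g` / `Free g` has height one.
-/

set_option autoImplicit false

namespace Crest.Agent.R320.I3_289

open Crest.RegLang Crest.Agent.R320.Hk_851 Crest.Agent.R320.CompR_11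
  Crest.Agent.R320.Reg_852 Crest.Agent.R320.Pump_360

universe u

variable {α : Type u}

/-- left-looking walls on all words (228's `walls`) -/
structure LW (n W : ℕ) (Wo : List α → Prop) : Prop where
  loc : ∀ P Q : List α, n ≤ Q.length → (Wo (P ++ Q) ↔ Wo Q)
  len : ∀ P : List α, Wo P → n ≤ P.length
  gap : ∀ (P : List α) (d : ℕ), Wo P → 0 < d → d ≤ W → ¬ Wo (P.take (P.length - d))
  free : ∃ R B : ℕ, ∀ u : List α, (∀ t < u.length, ¬ Wo (u.take t)) → Pieces R B u

theorem exists_LW [Finite α] (W : ℕ) : ∃ (n : ℕ) (Wo : List α → Prop), LW n W Wo := by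
  obtain ⟨n, Wo, h1, h2, h3, h4⟩ := Crest.Agent.R320.WallU_228.walls (α := α) W
  exact ⟨n, Wo, ⟨h1, h2, h3, h4⟩⟩

/-- `Wo` only sees the last `n` letters -/
theorem LW.last {n W : ℕ} {Wo : List α → Prop} (h : LW n W Wo) {u : List α} (hn : n ≤ u.length) :
    Wo u ↔ Wo (u.drop (u.length - n)) := by
  conv_lhs => rw [← List.take_append_drop (u.length - n) u]
  refine h.loc _ _ ?_
  rw [List.length_drop]; omega

/-- wall at the end -/
def End (Wo : List α → Prop) : Language α := {u | Wo u}

/-- a wall at a place in `[a, |u|)` -/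
def Some1 (Wo : List α → Prop) (a : ℕ) : Language α :=
  {u | ∃ t, a ≤ t ∧ t < u.length ∧ Wo (u.take t)}

/-- a wall at a place in `[a, b)` of the word (end of the word included) -/
def Win (Wo : List α → Prop) (a b : ℕ) : Language α :=
  {u | ∃ t, a ≤ t ∧ t < b ∧ t ≤ u.length ∧ Wo (u.take t)}

/-- the first wall at a place `≥ g` is the end -/
def First (Wo : List α → Prop) (g : ℕ) : Language α :=
  {u | Wo u ∧ g ≤ u.length ∧ ∀ t, g ≤ t → t < u.length → ¬ Wo (u.take t)}

/-- no wall in `[g, |u|)` -/
def Free (Wo : List α → Prop) (g : ℕ) : Language α :=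
  {u | ∀ t, g ≤ t → t < u.length → ¬ Wo (u.take t)}

theorem HL_End [Finite α] {n W : ℕ} {Wo : List α → Prop} (h : LW n W Wo) {k : ℕ} :
    HL k (End Wo) := by
  have hf : HL k ({v : List α | v.length = n ∧ Wo v} : Language α) :=
    HL.finite ((List.finite_length_eq α n).subset fun v hv => hv.1)
  refine ((HL.top (α := α)).mul hf).congr fun w => ?_
  constructor
  · intro hw
    have hn := h.len w hw
    refine Language.mem_mul.2 ⟨w.take (w.length - n), trivial, w.drop (w.length - n), ⟨?_, ?_⟩,
      List.take_append_drop _ _⟩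
    · rw [List.length_drop]; omega
    · exact (h.last hn).1 hw
  · intro hw
    obtain ⟨a, _, b, ⟨hb1, hb2⟩, rfl⟩ := Language.mem_mul.1 hw
    exact (h.loc a b (by omega)).2 hb2

theorem HL_Some1 [Finite α] {n W : ℕ} {Wo : List α → Prop} (h : LW n W Wo) {k : ℕ} (a : ℕ) :
    HL k (Some1 Wo a) := by
  have h1 : HL k ({u | a ≤ u.length} ⊓ End Wo : Language α) := (HL.length_ge a).inf (HL_End h)
  refine (h1.mul (HL.length_ge (α := α) 1)).congr fun w => ?_
  constructor
  · rintro ⟨t, h2, h3, h4⟩
    refine Language.mem_mul.2 ⟨w.take t, ⟨?_, h4⟩, w.drop t, ?_, List.take_append_drop _ _⟩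
    · show a ≤ (w.take t).length
      rw [List.length_take]; omega
    · show 1 ≤ (w.drop t).length
      rw [List.length_drop]; omega
  · intro hw
    obtain ⟨x, ⟨hx1, hx2⟩, y, hy, rfl⟩ := Language.mem_mul.1 hw
    have hy' : 1 ≤ y.length := hy
    refine ⟨x.length, hx1, by rw [List.length_append]; omega, ?_⟩
    rw [List.take_left']
    · exact hx2
    · rfl

theorem HL_Win [Finite α] {n W : ℕ} {Wo : List α → Prop} (h : LW n W Wo) {k : ℕ} (a b : ℕ) :
    HL k (Win Wo a b) := by
  have h1 : HL k (({u | a ≤ u.length} ⊓ {u | u.length < b}) ⊓ End Wo : Language α) :=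
    ((HL.length_ge a).inf (HL.length_lt b)).inf (HL_End h)
  refine (h1.mul (HL.top (α := α))).congr fun w => ?_
  constructor
  · rintro ⟨t, h2, h3, h3', h4⟩
    refine Language.mem_mul.2 ⟨w.take t, ⟨⟨?_, ?_⟩, h4⟩, w.drop t, trivial,
      List.take_append_drop _ _⟩
    · show a ≤ (w.take t).length
      rw [List.length_take]; omega
    · show (w.take t).length < b
      rw [List.length_take]; omega
  · intro hw
    obtain ⟨x, ⟨⟨hx1, hx1'⟩, hx2⟩, y, hy, rfl⟩ := Language.mem_mul.1 hw
    refine ⟨x.length, hx1, hx1', by rw [List.length_append]; omega, ?_⟩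
    rw [List.take_left']
    · exact hx2
    · rfl

theorem HL_Free [Finite α] {n W : ℕ} {Wo : List α → Prop} (h : LW n W Wo) {k : ℕ} (g : ℕ) :
    HL k (Free Wo g) := by
  refine (HL_Some1 h g).compl.congr fun w => ?_
  constructor
  · rintro hw ⟨t, h2, h3, h4⟩
    exact hw t h2 h3 h4
  · intro hw t h2 h3 h4
    exact hw ⟨t, h2, h3, h4⟩

theorem HL_First [Finite α] {n W : ℕ} {Wo : List α → Prop} (h : LW n W Wo) {k : ℕ} (g : ℕ) :
    HL k (First Wo g) := by
  refine (((HL_End h).inf (HL.length_ge g)).inf (HL_Free h g)).congr fun w => ?_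
  constructor
  · rintro ⟨h1, h2, h3⟩
    exact ⟨⟨h1, h2⟩, h3⟩
  · rintro ⟨⟨h1, h2⟩, h3⟩
    exact ⟨h1, h2, h3⟩

theorem First_le_Free {Wo : List α → Prop} {g : ℕ} {w : List α} (h : w ∈ First Wo g) :
    w ∈ Free Wo g := h.2.2

/-- `First g` is a prefix code -/
theorem First_prefix {Wo : List α → Prop} {g : ℕ} {x y : List α} (h : x ∈ First Wo g)
    (h' : x ++ y ∈ First Wo g) : y = [] := by
  by_contra hy
  have hl : 0 < y.length := List.length_pos_iff.2 hy
  refine h'.2.2 x.length h.2.1 (by rw [List.length_append]; omega) ?_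
  rw [List.take_left']
  · exact h.1
  · rfl

/-- words without wall from `g` on are made of few pieces -/
theorem Free_pieces {n W : ℕ} {Wo : List α → Prop} (h : LW n W Wo) (g : ℕ) :
    ∃ R B : ℕ, ∀ u ∈ Free Wo g, Pieces R B u := by
  obtain ⟨R, B, hRB⟩ := h.free
  refine ⟨R + 1, max B g, fun u hu => ?_⟩
  have hv : ∀ t < (u.drop g).length, ¬ Wo ((u.drop g).take t) := by
    intro t ht hw
    rw [List.length_drop] at ht
    have hn := h.len _ hw
    rw [List.length_take, List.length_drop] at hn
    refine hu (g + t) (by omega) (by omega) ?_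
    have e : u.take (g + t) = u.take g ++ (u.drop g).take t := by
      rw [List.take_add]
    rw [e]
    refine (h.loc _ _ ?_).2 hw
    rw [List.length_take, List.length_drop]; omega
  obtain ⟨l, h1, h2, h3⟩ := hRB _ hv
  refine ⟨(u.take g, [], 0) :: l, by simp [h1], ?_, ?_⟩
  · intro t ht
    rcases List.mem_cons.1 ht with rfl | ht
    · constructor
      · show (u.take g).length ≤ _
        rw [List.length_take]
        exact (min_le_left _ _).trans (le_max_right _ _)
      · simp
    · exact ⟨(h2 t ht).1.trans (le_max_left _ _), (h2 t ht).2.trans (le_max_left _ _)⟩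
  · rw [val_cons, ← h3]
    have e0 : pw ([] : List α) 0 = [] := rfl
    simp [e0]

/-- **regular sub-languages of `Free g` have height one** -/
theorem HL1_Free [Finite α] {n W : ℕ} {Wo : List α → Prop} (h : LW n W Wo) (g : ℕ)
    {L : Language α} (hL : L.IsRegular) : HL 1 (L ⊓ Free Wo g) := by
  obtain ⟨R, B, hRB⟩ := Free_pieces h g
  have hreg : (L ⊓ Free Wo g).IsRegular :=
    Language.IsRegular.inf hL (HL.isRegular (HL_Free (k := 0) h g))
  exact Crest.Agent.R320.RegBd_11.reg_pieces hreg R B fun w hw => hRB w hw.2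

/-- **regular sub-languages of `First g` have height one** -/
theorem HL1_First [Finite α] {n W : ℕ} {Wo : List α → Prop} (h : LW n W Wo) (g : ℕ)
    {L : Language α} (hL : L.IsRegular) : HL 1 (L ⊓ First Wo g) := by
  have h1 : (L ⊓ First Wo g).IsRegular :=
    Language.IsRegular.inf hL (HL.isRegular (HL_First (k := 0) h g))
  refine (HL1_Free h g h1).congr fun w => ?_
  constructor
  · rintro ⟨ha, hb⟩
    exact ⟨⟨ha, hb⟩, hb.2.2⟩
  · rintro ⟨ha, -⟩
    exact ha

end Crest.Agent.R320.I3_289
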