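import Crest.Agent.R320.Main_621
import Crest.Agent.R320.Sch2_606

/-!
# Row 320: instance of 621's `Data`: zones, scheme A, scheme B over abstract gadgets (helper931)

`W` = left-looking wall rule (`W P`: the text `P` ends in a wall), `h` = threshold measured from
`a + p0`.  A zone is `X ++ Y`, `|X| = p0`, `Y` = up to the second wall at a place `≥ h`.
-/

set_option autoImplicit false
set_option linter.unusedSectionVars false

namespace Crest.Agent.R320.IAB_931

open Crest.Agent.R320.Hk_851 Crest.Agent.R320.Star_621 Crest.Agent.R320.Two_621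
open Crest.Agent.R320.Sch2_606 Crest.Agent.R320.ExactR_237

section zones

variable {α : Type} (W : List α → Prop) (h : ℕ)

/-- first wall at a place `≥ h` -/
def Fst (Y : List α) (j : ℕ) : Prop :=
  h ≤ j ∧ j ≤ Y.length ∧ W (Y.take j) ∧ ∀ i, h ≤ i → i < j → ¬ W (Y.take i)

/-- the text ends in the second wall at a place `≥ h` -/
def ZY (Y : List α) : Prop :=
  ∃ j, Fst W h Y j ∧ j < Y.length ∧ W Y ∧ ∀ i, j < i → i < Y.length → ¬ W (Y.take i)

variable {W h}

theorem Fst.unique {Y : List α} {i j : ℕ} (hi : Fst W h Y i) (hj : Fst W h Y j) : i = j := by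
  rcases lt_trichotomy i j with h1 | h1 | h1
  · exact absurd hi.2.2.1 (hj.2.2.2 i hi.1 h1)
  · exact h1
  · exact absurd hj.2.2.1 (hi.2.2.2 j hj.1 h1)

theorem Fst.app {Y y : List α} {j : ℕ} (hj : Fst W h Y j) : Fst W h (Y ++ y) j := by
  obtain ⟨h1, h2, h3, h4⟩ := hj
  refine ⟨h1, by rw [List.length_append]; omega, ?_, fun i hi hij => ?_⟩
  · rw [List.take_append_of_le_length h2]; exact h3
  · rw [List.take_append_of_le_length (by omega)]; exact h4 i hi hij

theorem Fst.of_app {Y y : List α} {j : ℕ} (hj : Fst W h (Y ++ y) j) (hl : j ≤ Y.length) :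
    Fst W h Y j := by
  obtain ⟨h1, h2, h3, h4⟩ := hj
  refine ⟨h1, hl, ?_, fun i hi hij => ?_⟩
  · rw [List.take_append_of_le_length hl] at h3; exact h3
  · have := h4 i hi hij
    rw [List.take_append_of_le_length (by omega)] at this; exact this

theorem ZY.code {Y Y' x x' : List α} (hY : ZY W h Y) (hY' : ZY W h Y')
    (he : Y ++ x = Y' ++ x') : Y = Y' := by
  obtain ⟨j, hj, hjl, hW, hn⟩ := hY
  obtain ⟨j', hj', hjl', hW', hn'⟩ := hY'
  have e : j = j' := by
    have h1 := hj.app (y := x)
    rw [he] at h1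
    exact h1.unique (hj'.app)
  subst e
  have hlen : Y.length = Y'.length := by
    rcases lt_trichotomy Y.length Y'.length with h1 | h1 | h1
    · exfalso
      have h2 := hn' Y.length hjl h1
      have h3 : Y'.take Y.length = Y := by
        have : (Y' ++ x').take Y.length = Y := by rw [← he]; simp
        rw [List.take_append_of_le_length h1.le] at this; exact this
      rw [h3] at h2; exact h2 hW
    · exact h1
    · exfalso
      have h2 := hn Y'.length hjl' h1
      have h3 : Y.take Y'.length = Y' := by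
        have : (Y ++ x).take Y'.length = Y' := by rw [he]; simp
        rw [List.take_append_of_le_length h1.le] at this; exact this
      rw [h3] at h2; exact h2 hW'
  exact (List.append_inj he hlen).1

end zones

/-- the wall rule -/
structure Wall {α : Type} (W : List α → Prop) (n gp : ℕ) : Prop where
  loc : ∀ P Q : List α, n ≤ Q.length → (W (P ++ Q) ↔ W Q)
  gap : ∀ (P : List α) (d : ℕ), W P → 0 < d → d ≤ gp → d + n ≤ P.length →
    ¬ W (P.take (P.length - d))

section A

variable {α : Type} {S : Type} [Monoid S] (f0 : α → S)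
variable (W : List α → Prop) (h p0 N1 : ℕ) (BadT : ℕ → Prop)
variable (lam rho : List α → Option (Tok S)) (nu : List α → Tok S)

/-- the product -/
def ph (w : List α) : S := (w.map f0).prod

theorem ph_app (u v : List α) : ph f0 (u ++ v) = ph f0 u * ph f0 v := by
  simp [ph]

/-- zones -/
def Z : Language α := {z | p0 ≤ z.length ∧ ZY W h (z.drop p0)}

/-- bad zone, read at `a + p0` -/
def Bd (Y : List α) : Prop :=
  ∃ j, Fst W h Y j ∧
    ((∃ i, h ≤ i + N1 ∧ i ≤ h + N1 ∧ i ≤ j ∧ W (Y.take i)) ∨ BadT j)

/-- bad zones -/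
def Zc : Language α := {z | z ∈ Z W h p0 ∧ Bd W h N1 BadT (z.drop p0)}

/-- right piece of scheme A up to the first wall -/
def RAq (q : List α) : Prop :=
  h ≤ q.length ∧ W q ∧ ∀ j, h ≤ j + N1 → j < q.length → ¬ W (q.take j)

/-- last piece: up to the next wall -/
def TLp (q tl : List α) : Prop :=
  tl ≠ [] ∧ W (q ++ tl) ∧ ∀ i, 0 < i → i < tl.length → ¬ W (q ++ tl.take i)

/-- right words of scheme A -/
def RA (τ : Tok S) : Language α :=
  {Q | ∃ q tl r, Q = q ++ tl ∧ RAq W h N1 q ∧ TLp W q tl ∧ rho q = some r ∧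
    τ = act r (ph f0 tl)}

/-- left words of scheme A -/
def LA (v : Tok S) : Language α :=
  {P | ∃ X p, P = X ++ p ∧ X.length = p0 ∧ lam p = some (act v (ph f0 X))}

open Classical in
/-- noise of scheme A -/
noncomputable def dY (Y : List α) : Tok S :=
  if hh : ∃ j, Fst W h Y j then act (nu (Y.take hh.choose)) (ph f0 (Y.drop hh.choose)) else 0

/-- noise of scheme A -/
noncomputable def dA (z : List α) : Tok S := dY f0 W h nu (z.drop p0)

variable {f0 W h p0 N1 BadT lam rho nu}

theorem dY_eq {Y : List α} {j : ℕ} (hj : Fst W h Y j) :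
    dY f0 W h nu Y = act (nu (Y.take j)) (ph f0 (Y.drop j)) := by
  classical
  have hh : ∃ j, Fst W h Y j := ⟨j, hj⟩
  unfold dY
  rw [dif_pos hh, hh.choose_spec.unique hj]

theorem code_Z : Code (Z W h p0 : Language α) := by
  constructor
  · rintro ⟨_, j, hj, hjl, _⟩
    simp at hjl
  · rintro z z' x x' ⟨h1, h2⟩ ⟨h1', h2'⟩ he
    have e : z.drop p0 ++ x = z'.drop p0 ++ x' := by
      rw [← List.drop_append_of_le_length h1, ← List.drop_append_of_le_length h1', he]
    have e2 := h2.code h2' e
    have e3 : z.take p0 = z'.take p0 := by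
      rw [← List.take_append_of_le_length (l₂ := x) h1,
        ← List.take_append_of_le_length (l₂ := x') h1', he]
    rw [← List.take_append_drop p0 z, ← List.take_append_drop p0 z', e2, e3]

theorem zone_of_parts {n gp : ℕ} (hW : Wall W n gp) (hn : n + N1 ≤ h)
    {X p q tl : List α} (hX : X.length = p0) (hp : p.length ≤ N1) (hq : RAq W h N1 q)
    (ht : TLp W q tl) :
    X ++ p ++ (q ++ tl) ∈ Z W h p0 ∧ (X ++ p ++ (q ++ tl)).drop p0 = p ++ q ++ tl ∧
      Fst W h (p ++ q ++ tl) (p.length + q.length) := by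
  have hdrop : (X ++ p ++ (q ++ tl)).drop p0 = p ++ q ++ tl := by
    rw [List.append_assoc, List.drop_append_of_le_length hX.ge, List.drop_of_length_le hX.le]
    simp
  obtain ⟨q1, q2, q3⟩ := hq
  obtain ⟨t1, t2, t3⟩ := ht
  have hF : Fst W h (p ++ q ++ tl) (p.length + q.length) := by
    refine ⟨by omega, by simp, ?_, fun i hi hil => ?_⟩
    · have : (p ++ q ++ tl).take (p.length + q.length) = p ++ q := by
        rw [List.take_append_of_le_length (by simp)]
        rw [List.take_of_length_le (by simp)]
      rw [this, hW.loc p q (by omega)]; exact q2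
    · have : (p ++ q ++ tl).take i = p ++ q.take (i - p.length) := by
        rw [List.take_append_of_le_length (by simp; omega), List.take_append,
          List.take_of_length_le (by omega)]
      rw [this, hW.loc p _ (by rw [List.length_take]; omega)]
      exact q3 _ (by omega) (by omega)
  refine ⟨⟨by simp; omega, ?_⟩, hdrop, hF⟩
  rw [hdrop]
  have htl : 0 < tl.length := List.length_pos_iff.2 t1
  refine ⟨p.length + q.length, hF, by simp; omega, ?_, fun i hi hil => ?_⟩
  · rw [List.append_assoc, hW.loc p _ (by simp; omega)]; exact t2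
  · have : (p ++ q ++ tl).take i = p ++ (q ++ tl.take (i - p.length - q.length)) := by
      rw [List.take_append, List.take_of_length_le (by simp; omega), List.append_assoc]
      congr 3
      simp; omega
    rw [this, hW.loc p _ (by simp; omega)]
    refine t3 _ (by omega) ?_
    simp only [List.length_append] at hil
    omega

theorem sound_A {n gp : ℕ} (hW : Wall W n gp) (hn : n + N1 ≤ h) (hp0 : 0 < p0)
    (a1 : ∀ p v, lam p = some v → p.length ≤ N1)
    (a2 : ∀ p q v r, lam p = some v → rho q = some r →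
      r = act v (ph f0 (p ++ q)) + nu (p ++ q)) :
    Sound (Z W h p0) (aff (ph f0) (dA f0 W h p0 nu)) (LA f0 p0 lam) (RA f0 W h N1 rho) := by
  constructor
  · rintro v ⟨X, p, he, hX, -⟩
    have := congrArg List.length he
    simp at this; omega
  · rintro v τ P Q z x y ⟨X, p, rfl, hX, hl⟩ ⟨q, tl, r, rfl, hq, ht, hr, rfl⟩ hz he
    obtain ⟨k1, k2, k3⟩ := zone_of_parts (p0 := p0) hW hn hX (a1 _ _ hl) hq ht
    have e : X ++ p ++ (q ++ tl) = z := code_Z.2 _ _ _ _ k1 hz he
    refine ⟨e, ?_⟩
    subst e
    have hd : dA f0 W h p0 nu (X ++ p ++ (q ++ tl)) = act (nu (p ++ q)) (ph f0 tl) := by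
      unfold dA
      rw [k2, dY_eq k3]
      have e1 : (p ++ q ++ tl).take (p.length + q.length) = p ++ q := by
        rw [List.take_append_of_le_length (by simp)]
        rw [List.take_of_length_le (by simp)]
      have e2 : (p ++ q ++ tl).drop (p.length + q.length) = tl := by
        rw [List.drop_append, List.drop_of_length_le (by simp)]
        simp
      rw [e1, e2]
    unfold aff
    rw [hd, a2 p q _ r hl hr, act_add, act_mul, act_mul]
    congr 2
    simp only [ph_app, mul_assoc]

theorem complete_A {n gp : ℕ} (hW : Wall W n gp) (hn : n + N1 ≤ h)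
    (a1 : ∀ p v, lam p = some v → p.length ≤ N1)
    (a3 : ∀ u : List α, h ≤ u.length → ¬ BadT u.length → ∀ v, ∃ p q, u = p ++ q ∧
      lam p = some v ∧ (rho q).isSome)
    {z : List α} (hz : z ∈ Z W h p0) (hzc : z ∉ Zc W h p0 N1 BadT) (v : Tok S) :
    Cut (LA f0 p0 lam) (RA f0 W h N1 rho) v z := by
  obtain ⟨hl, j, hj, hjl, hWY, hnx⟩ := hz
  set Y := z.drop p0 with hY
  have hnb : ¬ ((∃ i, h ≤ i + N1 ∧ i ≤ h + N1 ∧ i ≤ j ∧ W (Y.take i)) ∨ BadT j) := by
    intro hb
    exact hzc ⟨⟨hl, j, hj, hjl, hWY, hnx⟩, j, hj, hb⟩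
  push Not at hnb
  obtain ⟨hE, hB⟩ := hnb
  have hul : (Y.take j).length = j := by rw [List.length_take]; omega
  obtain ⟨p, q, hu, hlp, hrq⟩ := a3 (Y.take j) (by rw [hul]; exact hj.1)
    (by rw [hul]; exact hB) (act v (ph f0 (z.take p0)))
  obtain ⟨r, hr⟩ := Option.isSome_iff_exists.1 hrq
  have hpl := a1 _ _ hlp
  have hlen : p.length + q.length = j := by
    rw [← hul, hu, List.length_append]
  have hjbig : h + N1 < j := by
    by_contra hcon
    exact hE j (by have := hj.1; omega) (by omega) le_rfl hj.2.2.1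
  have hYe : Y = p ++ (q ++ Y.drop j) := by
    rw [← List.append_assoc, ← hu, List.take_append_drop]
  have htake : ∀ i, i ≤ q.length → p ++ q.take i = Y.take (p.length + i) := by
    intro i hi
    have h1 : Y.take (p.length + i) = (Y.take j).take (p.length + i) := by
      rw [List.take_take, min_eq_left (by omega)]
    rw [h1, hu, List.take_append, List.take_of_length_le (l := p) (by omega)]
    simp
  have hq : RAq W h N1 q := by
    refine ⟨by omega, ?_, fun i hi hil => ?_⟩
    · rw [← hW.loc p q (by omega), ← hu]; exact hj.2.2.1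
    · rw [← hW.loc p _ (by rw [List.length_take]; omega), htake i (by omega)]
      by_cases hc : h ≤ p.length + i
      · exact hj.2.2.2 _ hc (by omega)
      · exact hE _ (by omega) (by omega) (by omega)
  have ht : TLp W q (Y.drop j) := by
    refine ⟨?_, ?_, fun i hi hil => ?_⟩
    · intro h0
      have := congrArg List.length h0
      simp at this; omega
    · rw [← hW.loc p _ (by rw [List.length_append]; omega), ← hYe]; exact hWY
    · rw [← hW.loc p _ (by rw [List.length_append]; omega)]
      have e : p ++ (q ++ (Y.drop j).take i) = Y.take (j + i) := by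
        rw [← List.append_assoc, ← hu, List.take_add]
      rw [e]
      rw [List.length_drop] at hil
      exact hnx _ (by omega) (by omega)
  refine ⟨z.take p0 ++ p, q ++ Y.drop j, act r (ph f0 (Y.drop j)), ?_, ?_, ?_⟩
  · rw [List.append_assoc, ← hYe, hY, List.take_append_drop]
  · exact ⟨z.take p0, p, rfl, by rw [List.length_take]; omega, hlp⟩
  · exact ⟨q, Y.drop j, r, rfl, hq, ht, hr, rfl⟩

end A

section B

open Classical in
/-- letters of the inner monoid -/
noncomputable def gB {S : Type} [Monoid S] (s : S) : (Function.End (Option (Tok S)))ᵐᵒᵖ :=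
  MulOpposite.op fun o => o.map fun v => act v s

theorem gB_one {S : Type} [Monoid S] : gB (1 : S) = 1 := by
  unfold gB
  congr 1
  funext o
  cases o with
  | none => rfl
  | some v => show some (act v 1) = some v; rw [act_one]

theorem gB_mul {S : Type} [Monoid S] (s t : S) : gB (s * t) = gB s * gB t := by
  apply MulOpposite.unop_injective
  funext o
  cases o with
  | none => rfl
  | some v => show some (act v (s * t)) = some (act (act v s) t); rw [act_mul]

theorem pr_gB {α S : Type} [Monoid S] (f0 : α → S) (X : List α) :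
    pr (fun a => gB (f0 a)) X = gB (ph f0 X) := by
  induction X with
  | nil => show (1 : (Function.End (Option (Tok S)))ᵐᵒᵖ) = gB 1; rw [gB_one]
  | cons a X ih =>
    have e1 : pr (fun a => gB (f0 a)) (a :: X) = gB (f0 a) * pr (fun a => gB (f0 a)) X := by
      simp [pr]
    have e2 : ph f0 (a :: X) = f0 a * ph f0 X := by simp [ph]
    rw [e1, e2, gB_mul, ih]

variable {α : Type} {S : Type} [Monoid S] (f0 : α → S)
variable (W : List α → Prop) (h p0 N1 : ℕ) (BadT : ℕ → Prop)
variable (lam rho : List α → Option (Tok S)) (nu : List α → Tok S)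

/-- the token `v` (at `a + p0`) is cut -/
def cutY (v : Tok S) (Y : List α) : Prop :=
  ∃ p Q τ, Y = p ++ Q ∧ lam p = some v ∧ Q ∈ RA f0 W h N1 rho τ

open Classical in
/-- zone map of the part right of `a + p0` -/
noncomputable def hB (Y : List α) : (Function.End (Option (Tok S)))ᵐᵒᵖ :=
  MulOpposite.op fun o => o.bind fun v =>
    if cutY f0 W h N1 lam rho v Y then none else some (act v (ph f0 Y) + dY f0 W h nu Y)

/-- the step of scheme A -/
noncomputable def stA (z : List α) : (Function.End (Option (Tok S)))ᵐᵒᵖ :=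
  stepA (aff (ph f0) (dA f0 W h p0 nu)) (LA f0 p0 lam) (RA f0 W h N1 rho) z

theorem stA_eq {z : List α} (hz : p0 ≤ z.length) :
    stA f0 W h p0 N1 lam rho nu z =
      gB (ph f0 (z.take p0)) * hB f0 W h N1 lam rho nu (z.drop p0) := by
  classical
  apply MulOpposite.unop_injective
  funext o
  cases o with
  | none => rfl
  | some v =>
    show (if Cut _ _ v z then none else some _) =
      if cutY f0 W h N1 lam rho (act v (ph f0 (z.take p0))) (z.drop p0) then none else some _
    have hiff : Cut (LA f0 p0 lam) (RA f0 W h N1 rho) v z ↔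
        cutY f0 W h N1 lam rho (act v (ph f0 (z.take p0))) (z.drop p0) := by
      constructor
      · rintro ⟨P, Q, τ, he, ⟨X, p, rfl, hX, hl⟩, hQ⟩
        have e1 : z.take p0 = X := by
          rw [he, List.append_assoc, List.take_append_of_le_length hX.ge,
            List.take_of_length_le hX.le]
        have e2 : z.drop p0 = p ++ Q := by
          rw [he, List.append_assoc, List.drop_append_of_le_length hX.ge,
            List.drop_of_length_le hX.le]
          simp
        exact ⟨p, Q, τ, e2, by rw [e1]; exact hl, hQ⟩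
      · rintro ⟨p, Q, τ, he, hl, hQ⟩
        refine ⟨z.take p0 ++ p, Q, τ, ?_, ⟨z.take p0, p, rfl, ?_, hl⟩, hQ⟩
        · rw [List.append_assoc, ← he, List.take_append_drop]
        · rw [List.length_take]; omega
    by_cases hc : Cut (LA f0 p0 lam) (RA f0 W h N1 rho) v z
    · rw [if_pos hc, if_pos (hiff.1 hc)]
    · rw [if_neg hc, if_neg fun h1 => hc (hiff.2 h1)]
      unfold aff dA
      rw [act_mul, ← ph_app, List.take_append_drop]

variable (K : ℕ) (c : ℕ → ℕ)
  (lamB : ℕ → List α → Option (Tok (Function.End (Option (Tok S)))ᵐᵒᵖ))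
  (rhoB : ℕ → List α → (Function.End (Option (Tok S)))ᵐᵒᵖ →
    Option (Tok (Function.End (Option (Tok S)))ᵐᵒᵖ))
  (nuB : List α → (Function.End (Option (Tok S)))ᵐᵒᵖ → Tok (Function.End (Option (Tok S)))ᵐᵒᵖ)

/-- left words of scheme B -/
def LB (w : Tok (Function.End (Option (Tok S)))ᵐᵒᵖ) : Language α :=
  {P | lam2 K c lamB P = some w}

/-- right words of scheme B -/
def RB (τ : Tok (Function.End (Option (Tok S)))ᵐᵒᵖ) : Language α :=
  {Q | ∃ k, Only K c p0 (Bd W h N1 BadT) Q k ∧ ZY W h (Q.drop (p0 - c k)) ∧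
    rhoB k (Q.take (p0 - c k)) (hB f0 W h N1 lam rho nu (Q.drop (p0 - c k))) = some τ}

/-- noise of scheme B -/
noncomputable def dB (z : List α) : Tok (Function.End (Option (Tok S)))ᵐᵒᵖ :=
  nuB (z.take p0) (hB f0 W h N1 lam rho nu (z.drop p0))

theorem sound_B {n gp : ℕ} (hW : Wall W n gp) (hn : n + N1 ≤ h) (hp0 : p0 ≤ h) (hgp : p0 ≤ gp)
    (hc0 : ∀ k < K, 0 < c k) (hcp : ∀ k < K, c k ≤ p0) {R : ℕ}
    (hG : Gad (fun a => gB (f0 a)) act K R c lamB rhoB nuB) :
    Sound (Zc W h p0 N1 BadT)
      (aff (stA f0 W h p0 N1 lam rho nu) (dB f0 W h p0 N1 lam rho nu nuB))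
      (LB K c lamB) (RB f0 W h p0 N1 BadT lam rho nu K c rhoB) := by
  constructor
  · intro w hw
    obtain ⟨k, hk, hl, -⟩ := lam2_some hw
    have := hc0 k hk
    simp at hl; omega
  · intro w τ P Q z x y hP hQ hz he
    obtain ⟨k, hk, hPl, hlk⟩ := lam2_some hP
    obtain ⟨k', ⟨hk', hbk', huniq⟩, hZk', hrk'⟩ := hQ
    obtain ⟨⟨hzl, hZz⟩, hbz⟩ := hz
    have hck := hcp k hk
    have hck' := hcp k' hk'
    -- lengths
    obtain ⟨j', hj', hjl', hWq', hnx'⟩ := hZk'
    have hQl : (Q.drop (p0 - c k')).length = Q.length - (p0 - c k') := List.length_drop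
    have hgap : gp < (Q.drop (p0 - c k')).length - j' := by
      by_contra hcon
      have h1 := hW.gap (Q.drop (p0 - c k')) ((Q.drop (p0 - c k')).length - j') hWq'
        (by omega) (by omega) (by have := hj'.1; omega)
      apply h1
      have e : (Q.drop (p0 - c k')).length - ((Q.drop (p0 - c k')).length - j') = j' := by omega
      rw [e]; exact hj'.2.2.1
    have hj'1 := hj'.1
    have hYql : (Q.drop (p0 - c k)).length = Q.length - (p0 - c k) := List.length_drop
    have hYqh : h ≤ (Q.drop (p0 - c k)).length := by omega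
    have hWQ : W Q := by
      have e : Q = Q.take (p0 - c k') ++ Q.drop (p0 - c k') := (List.take_append_drop _ _).symm
      rw [e, hW.loc _ _ (by omega)]; exact hWq'
    have hWYq : W (Q.drop (p0 - c k)) := by
      rw [← hW.loc (Q.take (p0 - c k)) _ (by omega), List.take_append_drop]; exact hWQ
    -- the text right of a + p0
    have hdrop : (P ++ Q).drop p0 = Q.drop (p0 - c k) := by
      have h1 : p0 = P.length + (p0 - c k) := by omega
      conv_lhs => rw [h1]
      rw [List.drop_append]
      simp
    have hPQl : p0 ≤ (P ++ Q).length := by rw [List.length_append]; omega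
    have he2 : Q.drop (p0 - c k) ++ x = z.drop p0 ++ y := by
      rw [← hdrop, ← List.drop_append_of_le_length hPQl, ← List.drop_append_of_le_length hzl, he]
    -- the true zone is seen bad
    obtain ⟨j, hj, hbad⟩ := hbz
    have hjY : j ≤ (Q.drop (p0 - c k)).length := by
      by_contra hcon
      push Not at hcon
      have h1 := hj.2.2.2 _ hYqh hcon
      apply h1
      have e : (z.drop p0).take (Q.drop (p0 - c k)).length = Q.drop (p0 - c k) := by
        rw [← List.take_append_of_le_length (l₂ := y) (by have := hj.2.1; omega), ← he2]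
        simp
      rw [e]; exact hWYq
    have hFq : Fst W h (Q.drop (p0 - c k)) j := by
      refine Fst.of_app (y := x) ?_ hjY
      rw [he2]; exact hj.app
    have hBq : Bd W h N1 BadT (Q.drop (p0 - c k)) := by
      refine ⟨j, hFq, ?_⟩
      rcases hbad with ⟨i, h1, h2, h3, h4⟩ | hb
      · refine Or.inl ⟨i, h1, h2, h3, ?_⟩
        have e : (Q.drop (p0 - c k)).take i = (z.drop p0).take i := by
          rw [← List.take_append_of_le_length (l₂ := x) (by omega), he2,
            List.take_append_of_le_length (by have := hj.2.1; omega)]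
        rw [e]; exact h4
      · exact Or.inr hb
    have hkk : k = k' := huniq k hk hBq
    subst hkk
    have hZq : ZY W h (Q.drop (p0 - c k)) := ⟨j', hj', hjl', hWq', hnx'⟩
    have eY : Q.drop (p0 - c k) = z.drop p0 := hZq.code hZz he2
    have eX : (P ++ Q).take p0 = z.take p0 := by
      rw [← List.take_append_of_le_length (l₂ := x) hPQl,
        ← List.take_append_of_le_length (l₂ := y) hzl, he]
    have e : P ++ Q = z := by
      rw [← List.take_append_drop p0 (P ++ Q), ← List.take_append_drop p0 z, eX, hdrop, eY]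
    refine ⟨e, ?_⟩
    have htake : (P ++ Q).take p0 = P ++ Q.take (p0 - c k) := by
      have h1 : p0 = P.length + (p0 - c k) := by omega
      conv_lhs => rw [h1]
      rw [List.take_append]
      simp
    have key := hG.sound k hk P (Q.take (p0 - c k)) _ w τ hPl hlk hrk'
    rw [key, ← htake, e, pr_gB, eY]
    unfold aff dB
    rw [stA_eq _ _ _ _ _ _ _ _ hzl]

theorem complete_B (hc : ∀ i j, i < j → j < K → c i < c j) (hcp : ∀ k < K, c k ≤ p0) {R : ℕ}
    (hG : Gad (fun a => gB (f0 a)) act K R c lamB rhoB nuB)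
    {z : List α} (hz : z ∈ Zc W h p0 N1 BadT)
    {J : Finset ℕ} (hJ : J.card < R)
    (hspoil : ∀ k < K, (∃ j < K, j ≠ k ∧ Bd W h N1 BadT (z.drop (c k + (p0 - c j)))) → k ∈ J)
    (w : Tok (Function.End (Option (Tok S)))ᵐᵒᵖ) :
    Cut (LB K c lamB) (RB f0 W h p0 N1 BadT lam rho nu K c rhoB) w z := by
  obtain ⟨⟨hzl, hZz⟩, hbz⟩ := hz
  have hlen : (z.take p0).length = p0 := by rw [List.length_take]; exact min_eq_left hzl
  obtain ⟨I, hI, hIk⟩ := hG.complete (z.take p0) (hB f0 W h N1 lam rho nu (z.drop p0)) w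
    (fun k hk => by rw [hlen]; exact hcp k hk)
  have : ∃ k ∈ I, k ∉ J := by
    by_contra hcon
    push Not at hcon
    have := Finset.card_le_card (fun k hk => hcon k hk : I ⊆ J)
    omega
  obtain ⟨k, hkI, hkJ⟩ := this
  obtain ⟨hk, hl, hr⟩ := hIk k hkI
  obtain ⟨τ, hτ⟩ := Option.isSome_iff_exists.1 hr
  have hpk := hcp k hk
  have hdd : (z.drop (c k)).drop (p0 - c k) = z.drop p0 := by
    rw [List.drop_drop]; congr 1; omega
  have htt : (z.take p0).take (c k) = z.take (c k) := by
    rw [List.take_take, min_eq_left hpk]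
  have htd : (z.take p0).drop (c k) = (z.drop (c k)).take (p0 - c k) := by
    rw [List.drop_take]
  rw [htt] at hl
  rw [htd] at hτ
  refine ⟨z.take (c k), z.drop (c k), τ, (List.take_append_drop _ _).symm, ?_, k, ⟨hk, ?_, ?_⟩,
    ?_, ?_⟩
  · show lam2 K c lamB (z.take (c k)) = some w
    rw [lam2_eq hc hk (by rw [List.length_take]; omega)]; exact hl
  · rw [hdd]; exact hbz
  · intro j hj hbj
    by_contra hne
    apply hkJ
    apply hspoil k hk
    refine ⟨j, hj, hne, ?_⟩
    rw [List.drop_drop] at hbj
    exact hbj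
  · rw [hdd]; exact hZz
  · rw [hdd]; exact hτ

end B

end Crest.Agent.R320.IAB_931
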