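import Crest.Agent.R320.Main_621
import Crest.Agent.R320.FewVal_228
import Crest.Agent.R320.Hk1_851

/-!
# Row 320: wall languages `F q` (helper343)

`LW` = left-looking wall.  `F q` = words whose first wall at a place `≥ q` is their end.
`HL_F` : `F q ∩ {w | Pr w}` has height one for every finite-state predicate `Pr`.
-/

set_option autoImplicit false

namespace Crest.Agent.R320.IA_343

open Crest.RegLang Crest.Agent.R320.Hk_851 Crest.Agent.R320.FewWalls_228

universe u

variable {α : Type u}

/-- left-looking wall at the place `y` -/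
def LW (n : ℕ) (S : Set (List α)) (w : List α) (y : ℕ) : Prop := n ≤ y ∧ Wl n S w (y - n)

theorem LW.le {n : ℕ} {S : Set (List α)} {w : List α} {y : ℕ} (h : LW n S w y) : y ≤ w.length := by
  have h1 := h.1
  have h2 := h.2.1
  omega

theorem lw_append {n : ℕ} {S : Set (List α)} {u x : List α} {y : ℕ} (hy : y ≤ u.length) :
    LW n S (u ++ x) y ↔ LW n S u y := by
  unfold LW Wl
  refine and_congr_right fun h => ?_
  have e : ((u ++ x).drop (y - n)).take n = (u.drop (y - n)).take n := by
    rw [List.drop_append_of_le_length (by omega), List.take_append_of_le_length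
      (by rw [List.length_drop]; omega)]
  rw [e, List.length_append]
  constructor
  · rintro ⟨_, h2⟩; exact ⟨by omega, h2⟩
  · rintro ⟨_, h2⟩; exact ⟨by omega, h2⟩

theorem lw_shift {n : ℕ} {S : Set (List α)} {x u : List α} {y : ℕ} (hy : n ≤ y) :
    LW n S (x ++ u) (x.length + y) ↔ LW n S u y := by
  unfold LW Wl
  have e : (x ++ u).drop (x.length + y - n) = u.drop (y - n) := by
    have : x.length + y - n = x.length + (y - n) := by omega
    rw [this, List.drop_append]
    simp
  rw [e, List.length_append]
  constructor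
  · rintro ⟨_, h1, h2⟩; exact ⟨hy, by omega, h2⟩
  · rintro ⟨_, h1, h2⟩; exact ⟨by omega, by omega, h2⟩

/-- the first wall at a place `≥ q` is the end of the word -/
def F (n : ℕ) (S : Set (List α)) (q : ℕ) : Language α :=
  {w | q ≤ w.length ∧ LW n S w w.length ∧ ∀ y, q ≤ y → y < w.length → ¬ LW n S w y}

theorem F_pre {n : ℕ} {S : Set (List α)} {q : ℕ} {w w' x x' : List α} (h : w ∈ F n S q)
    (h' : w' ∈ F n S q) (e : w ++ x = w' ++ x') : w = w' := by
  have key : ∀ {w w' x x' : List α}, w ∈ F n S q → w' ∈ F n S q → w ++ x = w' ++ x' →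
      w'.length ≤ w.length := by
    intro w w' x x' h h' e
    by_contra hc
    push Not at hc
    refine h'.2.2 w.length h.1 hc ?_
    have h1 := (lw_append (x := x) (le_refl w.length)).2 h.2.1
    rw [e] at h1
    exact (lw_append (by omega)).1 h1
  have hl : w.length = w'.length := le_antisymm (key h' h e.symm) (key h h' e)
  exact (List.append_inj e hl).1

/-- words of length at least `k` -/
def Ge (α : Type u) (k : ℕ) : Language α := {w | k ≤ w.length}

/-- a set of words as a language -/
def OfS (S : Set (List α)) : Language α := {w | w ∈ S}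

/-- few walls and value `s` -/
def NV {T : Type u} [Monoid T] (n : ℕ) (S : Set (List α)) (r : ℕ) (φ : α → T) (s : T) :
    Language α := {w | nw n S w ≤ r ∧ (w.map φ).prod = s}

theorem HL_F0 [Finite α] {n : ℕ} {S : Set (List α)} (hS : ∀ s ∈ S, s.length = n) {q : ℕ}
    (hq : n ≤ q) {k : ℕ} : HL k (F n S q) := by
  have hfin : S.Finite := (List.finite_length_eq α n).subset fun s hs => hS s hs
  have hE : HL k (Ge α (q - n) * OfS S) :=
    HL.mul (HL.length_ge (q - n)) (HL.finite hfin)
  have hG : HL k ((Ge α (q - n) * OfS S) * Ge α 1) := hE.mul (HL.length_ge 1)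
  refine (hE.setOf_and hG.compl).congr fun w => Iff.symm ?_
  have char : ∀ (w : List α) (y : ℕ), q ≤ y → (LW n S w y ↔
      y ≤ w.length ∧ w.take y ∈ (Ge α (q - n) * OfS S)) := by
    intro w y hy
    constructor
    · rintro h
      refine ⟨h.le, Language.mem_mul.2 ⟨w.take (y - n), ?_, (w.drop (y - n)).take n, h.2.2, ?_⟩⟩
      · show q - n ≤ (w.take (y - n)).length
        have := h.le
        rw [List.length_take]; omega
      · have e : y = (y - n) + n := by omega
        conv_rhs => rw [e, List.take_add]
    · rintro ⟨h0, h1⟩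
      obtain ⟨a, ha, b, hb, hab⟩ := Language.mem_mul.1 h1
      have hbl := hS b hb
      have hl : a.length + b.length = y := by
        rw [← List.length_append, hab, List.length_take]; omega
      refine ⟨by omega, by omega, ?_⟩
      have e : w = (a ++ b) ++ w.drop y := by rw [hab, List.take_append_drop]
      have e1 : y - n = a.length := by omega
      rw [e, e1, List.append_assoc, List.drop_left, ← hbl, List.take_left]
      exact hb
  constructor
  · rintro ⟨h1, h2⟩
    have hlen : q ≤ w.length := by
      obtain ⟨a, ha, b, hb, hab⟩ := Language.mem_mul.1 h1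
      have hbl := hS b hb
      have ha' : q - n ≤ a.length := ha
      have hl : a.length + b.length = w.length := by rw [← List.length_append, hab]
      omega
    refine ⟨hlen, (char w w.length hlen).2 ⟨le_refl _, by rwa [List.take_length]⟩, ?_⟩
    intro y hy hy2 hw
    apply h2
    refine Language.mem_mul.2 ⟨w.take y, ((char w y hy).1 hw).2, w.drop y, ?_,
      List.take_append_drop _ _⟩
    show 1 ≤ (w.drop y).length
    rw [List.length_drop]; omega
  · rintro ⟨h1, h2, h3⟩
    have h4 := ((char w w.length h1).1 h2).2
    rw [List.take_length] at h4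
    refine ⟨h4, ?_⟩
    intro h5
    obtain ⟨a, ha, b, hb, hab⟩ := Language.mem_mul.1 h5
    have hb1 : 1 ≤ b.length := hb
    have hl : a.length + b.length = w.length := by rw [← List.length_append, hab]
    have haq : q ≤ a.length := by
      obtain ⟨a1, ha1, b1, hb1, hab1⟩ := Language.mem_mul.1 ha
      have hbl := hS b1 hb1
      have ha' : q - n ≤ a1.length := ha1
      have hl : a1.length + b1.length = a.length := by rw [← List.length_append, hab1]
      omega
    refine h3 a.length haq (by omega) ((char w a.length haq).2 ⟨by omega, ?_⟩)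
    rw [← hab, List.take_left]
    exact ha

/-- few walls in `F q` -/
theorem nw_F {n : ℕ} {S : Set (List α)} (hn : 0 < n) {q : ℕ} {w : List α} (h : w ∈ F n S q) :
    nw n S w ≤ q + 1 := by
  classical
  have hsub : (Finset.range (w.length + 1)).filter (fun x => Wl n S w x) ⊆
      insert (w.length - n) (Finset.range q) := by
    intro x hx
    rw [Finset.mem_filter] at hx
    rw [Finset.mem_insert, Finset.mem_range]
    by_contra hc
    push Not at hc
    have h1 := hx.2.1
    refine h.2.2 (x + n) (by omega) (by omega) ⟨by omega, ?_⟩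
    rw [Nat.add_sub_cancel]; exact hx.2
  calc nw n S w ≤ (insert (w.length - n) (Finset.range q)).card := Finset.card_le_card hsub
    _ ≤ (Finset.range q).card + 1 := Finset.card_insert_le _ _
    _ = q + 1 := by rw [Finset.card_range]

theorem nw_drop_le {n : ℕ} {S : Set (List α)} (x y : List α) : nw n S y ≤ nw n S (x ++ y) := by
  classical
  unfold nw
  refine Finset.card_le_card_of_injOn (fun i => x.length + i) ?_ ?_
  · intro i hi
    rw [Finset.mem_coe, Finset.mem_filter, Finset.mem_range] at hi
    rw [Finset.mem_coe, Finset.mem_filter, Finset.mem_range, List.length_append]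
    refine ⟨by show x.length + i < _; omega, ?_⟩
    have h := (wl_drop (n := n) (S := S) (w := x ++ y) (x := i) (m := x.length)
      (by rw [List.length_append]; omega)).1
    rw [List.drop_left] at h
    exact h hi.2
  · intro i _ j _ h
    exact Nat.add_left_cancel h

/-- finite-state predicate of words with respect to a morphism -/
def FS {T : Type*} [Monoid T] (f : α → T) (Pr : List α → Prop) : Prop :=
  ∃ B m : ℕ, 0 < m ∧ ∀ Q Q' : List α, B ≤ Q.length → B ≤ Q'.length → Q.take B = Q'.take B →
    Q.length % m = Q'.length % m → ((Q.drop B).map f).prod = ((Q'.drop B).map f).prod →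
    (Pr Q → Pr Q')

theorem HL_F [Finite α] {n : ℕ} {S : Set (List α)} (hn : 0 < n) (hS : ∀ s ∈ S, s.length = n)
    (hfew : ∀ (L : Language α), L.IsRegular → ∀ r, HL 1 ({w | w ∈ L ∧ nw n S w ≤ r} : Language α))
    (hval : ∀ (T : Type u) [Monoid T] [Finite T] (φ : α → T) (s : T) (r : ℕ),
      HL 1 ({w | nw n S w ≤ r ∧ (w.map φ).prod = s} : Language α))
    {q : ℕ} (hq : n ≤ q) {T : Type u} [Monoid T] [Finite T] {f : α → T}
    {Pr : List α → Prop} (hP : FS f Pr) : HL 1 ({w | w ∈ F n S q ∧ Pr w} : Language α) := by
  classical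
  obtain ⟨B, m, hm, hFS⟩ := hP
  haveI : NeZero m := ⟨hm.ne'⟩
  let M := T × ULift.{u} (Multiplicative (ZMod m))
  haveI : Finite (Multiplicative (ZMod m)) := inferInstanceAs (Finite (ZMod m))
  let φ : α → M := fun a => (f a, ULift.up (Multiplicative.ofAdd (1 : ZMod m)))
  have hφ : ∀ w : List α, (w.map φ).prod = ((w.map f).prod,
      ULift.up (Multiplicative.ofAdd ((w.length : ℕ) : ZMod m))) := by
    intro w
    induction w with
    | nil => simp; rfl
    | cons a w ih =>
      rw [List.map_cons, List.prod_cons, ih, List.map_cons, List.prod_cons, List.length_cons]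
      refine Prod.ext rfl ?_
      show ULift.up (Multiplicative.ofAdd (1 : ZMod m) * Multiplicative.ofAdd ((w.length : ℕ) : ZMod m)) = _
      rw [← ofAdd_add]
      congr 2
      push_cast
      ring
  -- short words
  have hshort : HL 1 ({w : List α | w.length < B ∧ Pr w} : Language α) :=
    HL.finite ((List.finite_length_lt α B).subset fun w hw => hw.1)
  have hlong : HL 1 ({w : List α | ∃ p : {x : List α // x.length = B} × M,
      w ∈ OfS {p.1.1} * NV n S (q + 1) φ p.2 ∧ (∃ y, (y.map φ).prod = p.2 ∧ Pr (p.1.1 ++ y))} : Language α) := by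
    haveI : Finite {x : List α // x.length = B} := (List.finite_length_eq α B).to_subtype
    refine (HL.iUnion (ι := {x : List α // x.length = B} × M) (L := fun p => {w : List α |
      w ∈ OfS {p.1.1} * NV n S (q + 1) φ p.2 ∧ (∃ y, (y.map φ).prod = p.2 ∧ Pr (p.1.1 ++ y))}) fun p =>
        (((HL.word p.1.1).mul (hval M φ p.2 (q + 1))).setOf_and
          (HL.const (∃ y, (y.map φ).prod = p.2 ∧ Pr (p.1.1 ++ y))))).congr fun w => ?_
    exact Iff.rfl
  refine ((HL_F0 hS hq (k := 1)).setOf_and (hshort.setOf_or hlong)).congr fun w => Iff.symm ?_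
  constructor
  · rintro ⟨h1, h2 | ⟨⟨⟨x, hx⟩, s⟩, h2, y, hy1, hy2⟩⟩
    · exact ⟨h1, h2.2⟩
    · obtain ⟨a, ha, y', hy', rfl⟩ := Language.mem_mul.1 h2
      have ha' : a = x := ha
      subst ha'
      refine ⟨h1, ?_⟩
      have e := hy'.2.trans hy1.symm
      rw [hφ, hφ] at e
      have e1 := (Prod.ext_iff.1 e).1
      have e2 : ((y'.length : ℕ) : ZMod m) = ((y.length : ℕ) : ZMod m) := by
        have := (Prod.ext_iff.1 e).2
        exact Multiplicative.ofAdd.injective (ULift.up_injective this)
      rw [ZMod.natCast_eq_natCast_iff] at e2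
      refine hFS (a ++ y) (a ++ y') (by simp [hx]) (by simp [hx]) ?_ ?_ ?_ hy2
      · rw [← hx, List.take_left, List.take_left]
      · rw [List.length_append, List.length_append]
        exact (Nat.ModEq.add_left _ e2.symm)
      · rw [← hx, List.drop_left, List.drop_left]
        exact e1.symm
  · rintro ⟨h1, h2⟩
    refine ⟨h1, ?_⟩
    rcases lt_or_ge w.length B with hB | hB
    · exact Or.inl ⟨hB, h2⟩
    · right
      refine ⟨⟨⟨w.take B, by rw [List.length_take]; omega⟩, ((w.drop B).map φ).prod⟩, ?_,
        w.drop B, rfl, by rw [List.take_append_drop]; exact h2⟩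
      refine Language.mem_mul.2 ⟨w.take B, rfl, w.drop B, ⟨?_, rfl⟩, List.take_append_drop _ _⟩
      have h3 := nw_drop_le (n := n) (S := S) (w.take B) (w.drop B)
      rw [List.take_append_drop] at h3
      exact h3.trans (nw_F hn h1)

end Crest.Agent.R320.IA_343
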