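import Crest.Agent.R320.S1_5
import Crest.Agent.R320.Hk1_851

/-!
Row 320, frozen interface (helper5).  `Sys` is the abstract two-scheme system on ALL words;
`top` : `Sys` gives height 3 (leaf P1).  `Prm` are the concrete parameters (leaves P2 - P5).
-/

set_option autoImplicit false

namespace Crest.Agent.R320.Iface_5

open Crest.Agent.R320.S1_5 Crest.Agent.R320.Hk_851

/-- thread of a list of blocks -/
def T {α S V : Type} [Monoid S] [AddCommGroup V] (φ : α → S) (act : V → S → V) (nu : List α → V)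
    (v : V) (X : List α) : V := act v (ph φ X) + nu X

/-- the abstract system of two schemes on all words. -/
structure Sys {α S V : Type} [Monoid S] [AddCommGroup V] (φ : α → S) (act : V → S → V) where
  Blk : List α → Prop
  Bad : List α → Prop
  nu : List α → V
  LP1 : V → List α → Prop
  RQ1 : V → List α → Prop
  LP2 : V → List α → Prop
  RQ2 : V → List α → Prop
  N : ℕ
  nil : ¬ Blk []
  code : ∀ X Y, Blk X → Blk Y → X <+: Y → X = Y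
  s1 : ∀ v b P Q, LP1 v P → RQ1 b Q → Blk (P ++ Q) ∧ T φ act nu v (P ++ Q) = b
  c1 : ∀ X v, Blk X → ¬ Bad X → ∃ P Q, P ++ Q = X ∧ LP1 v P ∧ RQ1 (T φ act nu v X) Q
  s2 : ∀ v b P Q X R, LP2 v P → RQ2 b Q → Blk X → Bad X → X <+: P ++ Q ++ R →
    ∃ Y, Blk Y ∧ P ++ Q = X ++ Y ∧ T φ act nu (T φ act nu v X) Y = b
  c2 : ∀ X Y v, Blk X → Bad X → Blk Y →
    ∃ P Q, P ++ Q = X ++ Y ∧ LP2 v P ∧ RQ2 (T φ act nu (T φ act nu v X) Y) Q
  hL1 : ∀ v P, LP1 v P → P.length ≤ N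
  hL2 : ∀ v P, LP2 v P → P.length ≤ N
  hR1 : ∀ b, HL 1 ({Q | RQ1 b Q} : Language α)
  hR2 : ∀ b, HL 1 ({Q | RQ2 b Q} : Language α)
  hB : ∀ s c, HL 1 ({X | Blk X ∧ Bad X ∧ ph φ X = s ∧ nu X = c} : Language α)
  hG : HL 1 ({X | Blk X ∧ ¬ Bad X} : Language α)
  hT : ∀ s, HL 1 ({w | (∀ X, X <+: w → ¬ Blk X) ∧ ph φ w = s} : Language α)

/-- concrete parameters -/
structure Prm (α S V Wt Nm : Type) where
  /-- scheme 1 (levels, names, random noise) on `Y = X.drop p0` -/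
  p1 : Par α S V Wt Nm
  /-- outer left-looking wall rule (wall at the end of the word), window `n` -/
  n : ℕ
  Wo : List α → Prop
  /-- outer gap -/
  Gp : ℕ
  p0 : ℕ
  thr : ℕ → ℕ
  N1 : ℕ
  /-- moduli of the names -/
  Qs : Finset ℕ
  /-- cell width in letters -/
  cw : ℕ
  /-- scheme 2 : places, labels, noise on words of length `p0` -/
  K : ℕ
  ck : ℕ → ℕ
  lam : ℕ → List α → Option V
  rho : ℕ → List α → Option V
  nu2 : List α → V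

variable {α S V Wt Nm : Type} [Monoid S] [AddCommGroup V] [AddCommGroup Wt]
variable (p : Prm α S V Wt Nm)

def near (a b w : ℕ) : Prop := a ≤ b + w ∧ b ≤ a + w

def adm (l : ℕ) : Prop := p.thr (l % p.p1.Mq) ≤ l

/-- `u` is the first admissible wall of `Q` for the candidate anchor `κ` letters before `Q` -/
def FA (κ : ℕ) (Q : List α) (u : ℕ) : Prop :=
  u ≤ Q.length ∧ p.Wo (Q.take u) ∧ adm p (κ + u) ∧
    ∀ t < u, p.Wo (Q.take t) → ¬ adm p (κ + t)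

def EC (κ : ℕ) (Q : List α) (u : ℕ) : Prop :=
  ∃ t ≤ u, p.Wo (Q.take t) ∧ near (κ + t) (p.thr ((κ + t) % p.p1.Mq)) p.N1

def DC (κ : ℕ) (Q : List α) : Prop :=
  ∃ j ≤ p.p1.m, ∃ t ≤ Q.length, p.p1.Ws (Q.take t) ∧
    (near (κ + t) (p.p0 + p.p1.B j) p.cw ∨ near (κ + t) (p.p0 + p.p1.B j + p.p1.G) p.cw)

def BC (κ u : ℕ) : Prop := ∃ q ∈ p.Qs, q ∣ (κ + u - p.p0) / p.p1.Mq

/-- the candidate `κ` has a bad block, seen inside `Q` -/
def BadC (κ : ℕ) (Q : List α) : Prop := ∃ u, FA p κ Q u ∧ (EC p κ Q u ∨ DC p κ Q ∨ BC p κ u)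

def Blk (X : List α) : Prop := FA p 0 X X.length

def Bad (X : List α) : Prop := EC p 0 X X.length ∨ DC p 0 X ∨ BC p 0 X.length

/-- the noise of a block -/
noncomputable def nuB (X : List α) : V :=
  p.p1.act (p.nu2 (X.take p.p0)) (ph p.p1.φ (X.drop p.p0)) + nu p.p1 (X.drop p.p0)

def LP1 (v : V) (P : List α) : Prop :=
  p.p0 ≤ P.length ∧ ∃ c, LL p.p1 (P.drop p.p0) c ∧
    p.p1.vv c = p.p1.act v (ph p.p1.φ (P.take p.p0)) + p.nu2 (P.take p.p0)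

def RQ1 (b : V) (Q : List α) : Prop :=
  (∃ c, RR p.p1 Q c ∧ p.p1.bb c = b) ∧ p.Wo Q ∧
    p.thr ((p.p0 + Q.length) % p.p1.Mq) ≤ p.p0 + Q.length ∧
    ∀ t < Q.length, p.Wo (Q.take t) → p.p0 + t + p.N1 < p.thr ((p.p0 + t) % p.p1.Mq)

def LP2 (v : V) (P : List α) : Prop := ∃ k < p.K, P.length = p.ck k ∧ p.lam k P = some v

def RQ2 (b : V) (Q : List α) : Prop :=
  ∃ k < p.K, ∃ Q1 X2, Q = Q1 ++ X2 ∧ Blk p X2 ∧ FA p (p.ck k) Q Q1.length ∧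
    BadC p (p.ck k) Q ∧ (∀ k' < p.K, k' ≠ k → ¬ BadC p (p.ck k') Q) ∧
    ∃ v', p.rho k (Q1.take (p.p0 - p.ck k)) = some v' ∧
      b = T p.p1.φ p.p1.act (nuB p)
        (p.p1.act v' (ph p.p1.φ (Q1.drop (p.p0 - p.ck k))) + nu p.p1 (Q1.drop (p.p0 - p.ck k))) X2

/-- geometric assumptions -/
structure Geo : Prop where
  ok : Ok p.p1
  loc : ∀ U W : List α, p.n ≤ W.length → (p.Wo (U ++ W) ↔ p.Wo W)
  len : ∀ U, p.Wo U → p.n ≤ U.length
  npos : 0 < p.n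
  nspos : 0 < p.p1.ns
  slen : ∀ U, p.p1.Ws U → p.p1.ns ≤ U.length
  /-- outer gaps -/
  gap : ∀ U W, p.Wo U → p.Wo (U ++ W) → W ≠ [] → p.Gp < W.length
  thr_sp : ∀ r r', p.thr r + 2 * p.N1 + 2 * p.p0 + 2 < p.thr r' + p.Gp
  thr_lo : ∀ r, p.p0 + p.N1 + p.n + p.cw + p.p1.ns < p.thr r
  /-- every level window lies before every admissible wall -/
  thr_B : ∀ r, p.p0 + p.p1.B p.p1.m + p.p1.G + p.cw + p.N1 + p.n + p.p1.ns < p.thr r
  cellN : ∀ i om, p.p1.cell i om → p.p1.Mq * om ≤ p.N1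
  cw_B : ∀ j, p.cw + p.n ≤ p.p1.B j
  ck_lt : ∀ k < p.K, p.ck k + p.n + p.p1.ns ≤ p.p0
  act_add : ∀ v w s, p.p1.act (v + w) s = p.p1.act v s + p.p1.act w s
  act_mul : ∀ v s t, p.p1.act (p.p1.act v s) t = p.p1.act v (s * t)
  act_one : ∀ v, p.p1.act v 1 = v
  exact2 : ∀ k < p.K, ∀ (P Q : List α) (v b : V), P.length = p.ck k → (P ++ Q).length = p.p0 →
    p.lam k P = some v → p.rho k Q = some b → b = p.p1.act v (ph p.p1.φ (P ++ Q)) + p.nu2 (P ++ Q)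

/-- 808's property of the random noise -/
def Hides : Prop := ∀ (s : S) (w : Wt) (v : V), ∃ i < p.p1.m, ∀ g x k : S, g * x * k = s →
  ∀ z : S, p.p1.F (g * z * k) (w - p.p1.e i x + p.p1.e i z) + p.p1.act v (g * z * k) =
    p.p1.F s w + p.p1.act v s

/-- names are available at every total which no modulus divides -/
def Avail : Prop := ∀ t, (∀ q ∈ p.Qs, ¬ q ∣ t) → ∀ i < p.p1.m, (∀ om, p.p1.cell i om → om ≤ t) →
  ∀ (g : S) (wl : Wt) (k : S) (wr : Wt) (b v : V),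
    (∀ z, p.p1.F (g * z * k) (wl + p.p1.e i z + wr) + p.p1.act v (g * z * k) = b) →
    ∃ c om, p.p1.lv c = i ∧ p.p1.gg c = g ∧ p.p1.wl c = wl ∧ p.p1.hh c = k ∧ p.p1.wr c = wr ∧
      p.p1.vv c = v ∧ p.p1.cell i om ∧ p.p1.LC c om ∧ p.p1.RC c (t - om)

/-- small walls on all words: a wall-free stretch is periodic off `D1`, and `Mq` absorbs periods -/
structure RunOk (D1 R0 : ℕ) : Prop where
  per : ∀ (U : List α) (a b : ℕ), b ≤ U.length → a + 2 * D1 ≤ b →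
    (∀ t, a ≤ t → t ≤ b → ¬ p.p1.Ws (U.take t)) →
    ∃ q, 0 < q ∧ q ∣ p.p1.Mq ∧ q ≤ R0 ∧
      ∀ i, a + D1 ≤ i → i + q < b - D1 → U[i]? = U[i + q]?
  pump : ∀ (s : S) (q k : ℕ), 0 < q → q ∣ p.p1.Mq → R0 ≤ k * q → s ^ (k + p.p1.Mq / q) = s ^ k
  mid1 : D1 + p.cw + 3 * R0 ≤ p.p1.D
  mid2 : p.p1.D + D1 + p.cw + 3 * R0 ≤ p.p1.G
  cw : ∀ i om om', p.p1.cell i om → p.p1.cell i om' → p.p1.Mq * om ≤ p.p1.Mq * om' + p.cw

/-- scheme 2 : at most `K0` places are spoiled -/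
def Spoil (K0 : ℕ) : Prop := ∀ X Y, Blk p X → Bad p X → Blk p Y →
  ∀ I : Finset ℕ, (∀ k ∈ I, k < p.K ∧ ∃ k' < p.K, k' ≠ k ∧ BadC p (p.ck k') (X.drop (p.ck k) ++ Y)) →
    I.card ≤ K0

/-- scheme 2 : every token has more than `K0` places in every word of length `p0` -/
def Full2 (K0 : ℕ) : Prop := ∀ (u : List α) (v : V), u.length = p.p0 →
  ∃ I : Finset ℕ, K0 < I.card ∧ ∀ k ∈ I, k < p.K ∧ p.lam k (u.take (p.ck k)) = some v ∧
    (p.rho k (u.drop (p.ck k))).isSome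

/-! ### literal leaves -/

/-- L1 -/
def LeafS1 : Prop := Geo p → ∀ v b P Q, LP1 p v P → RQ1 p b Q →
  Blk p (P ++ Q) ∧ T p.p1.φ p.p1.act (nuB p) v (P ++ Q) = b

/-- L2 : hole ends do not depend on the candidate -/
def LeafDoubt : Prop := Geo p → ∀ D1 R0, RunOk p D1 R0 → ∀ X, Blk p X → ¬ DC p 0 X →
  ∀ i < p.p1.m, ∀ om om', p.p1.cell i om → p.p1.cell i om' →
    p.p1.Mq * om ≤ (X.drop p.p0).length →
      ph p.p1.φ (((X.drop p.p0).drop (p.p1.Mq * om)).drop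
          (H p.p1 ((X.drop p.p0).drop (p.p1.Mq * om)) (p.p1.Mq * om') (i + 1))) =
        ph p.p1.φ (((X.drop p.p0).drop (p.p1.Mq * om)).drop
          (H p.p1 ((X.drop p.p0).drop (p.p1.Mq * om)) (p.p1.Mq * om) (i + 1))) ∧
      wt p.p1 ((X.drop p.p0).drop (p.p1.Mq * om)) (p.p1.Mq * om') (i + 1) p.p1.m =
        wt p.p1 ((X.drop p.p0).drop (p.p1.Mq * om)) (p.p1.Mq * om) (i + 1) p.p1.m

/-- L3 -/
def LeafC1 : Prop := Geo p → ∀ D1 R0, RunOk p D1 R0 → Hides p → Avail p → LeafDoubt p →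
  ∀ X v, Blk p X → ¬ Bad p X →
    ∃ P Q, P ++ Q = X ∧ LP1 p v P ∧ RQ1 p (T p.p1.φ p.p1.act (nuB p) v X) Q

/-- L4 -/
def LeafS2 : Prop := Geo p → ∀ v b P Q X R, LP2 p v P → RQ2 p b Q → Blk p X → Bad p X →
  X <+: P ++ Q ++ R → ∃ Y, Blk p Y ∧ P ++ Q = X ++ Y ∧
    T p.p1.φ p.p1.act (nuB p) (T p.p1.φ p.p1.act (nuB p) v X) Y = b

/-- L5 -/
def LeafC2 : Prop := Geo p → ∀ K0, Spoil p K0 → Full2 p K0 → ∀ X Y v, Blk p X → Bad p X → Blk p Y →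
  ∃ P Q, P ++ Q = X ++ Y ∧ LP2 p v P ∧
    RQ2 p (T p.p1.φ p.p1.act (nuB p) (T p.p1.φ p.p1.act (nuB p) v X) Y) Q

/-- L6 : the blocks form a prefix code -/
def LeafCode : Prop := Geo p → ¬ Blk p [] ∧ ∀ X Y, Blk p X → Blk p Y → X <+: Y → X = Y

/-- P1 : the abstract top -/
def LeafTop : Prop := ∀ (α S V : Type) [Finite α] [Monoid S] [Finite S] [AddCommGroup V] [Finite V]
  (φ : α → S) (act : V → S → V),
  (∀ v w s, act (v + w) s = act v s + act w s) → (∀ v s t, act (act v s) t = act v (s * t)) →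
  (∀ v, act v 1 = v) → (∀ s t, (∀ v, act v s = act v t) → s = t) →
  ∀ _ : Sys φ act, ∀ s, HL 3 ({w | ph φ w = s} : Language α)

end Crest.Agent.R320.Iface_5
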