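import Crest.Agent.R320.Top_180

/-!
# Row 320: instance of the two schemes on all words (helper269), combinatorial part

Natural chain rule: a block ends at the first (left-looking) wall at a place `≥ z`.
-/

set_option autoImplicit false

namespace Crest.Agent.R320.Ins1_269

open Crest.Agent.R320.Half1_180

/-- data of the two schemes -/
structure Dt (α S V : Type) [Monoid S] [AddCommGroup V] where
  f : α → S
  act : V → S → V
  Wo : List α → Prop
  n : ℕ
  z : ℕ
  p0 : ℕ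
  N1 : ℕ
  K : ℕ
  C0 : ℕ
  lam : List α → Option V
  rho : List α → Option V
  nu1 : List α → V
  BadN : ℕ → Prop
  c : ℕ → ℕ
  lam2 : ℕ → List α → Option V
  rho2 : ℕ → List α → Option V
  nu2 : List α → V

variable {α S V : Type} [Monoid S] [AddCommGroup V]

/-- first wall at a place `≥ θ` -/
def Fst (Wo : List α → Prop) (U : List α) (θ w : ℕ) : Prop :=
  θ ≤ w ∧ w ≤ U.length ∧ Wo (U.take w) ∧ ∀ t, θ ≤ t → t < w → ¬ Wo (U.take t)

def pr (D : Dt α S V) (u : List α) : S := (u.map D.f).prod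

theorem pr_append (D : Dt α S V) (u v : List α) : pr D (u ++ v) = pr D u * pr D v := by
  simp [pr]

def XX (D : Dt α S V) : Set (List α) := {X | Fst D.Wo X D.z X.length}

def badE (D : Dt α S V) (X : List α) : Prop :=
  ∃ t, t ≤ X.length ∧ D.z ≤ t + D.N1 ∧ t < D.z + D.N1 ∧ D.Wo (X.take t)

def bad (D : Dt α S V) (X : List α) : Prop := badE D X ∨ D.BadN (X.length - D.p0)

def T (D : Dt α S V) (X : List α) (v : V) : V :=
  D.act (D.act v (pr D (X.take D.p0)) + D.nu2 (X.take D.p0)) (pr D (X.drop D.p0)) +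
    D.nu1 (X.drop D.p0)

def L1 (D : Dt α S V) (v : V) : Set (List α) :=
  {P | D.p0 ≤ P.length ∧ P.length ≤ D.p0 + D.N1 ∧
    D.lam (P.drop D.p0) = some (D.act v (pr D (P.take D.p0)) + D.nu2 (P.take D.p0))}

def R1 (D : Dt α S V) (v' : V) : Set (List α) :=
  {Q | ∀ v P, P ∈ L1 D v → P ++ Q ∈ XX D ∧ T D (P ++ Q) v = v'}

def L2 (D : Dt α S V) (v : V) : Set (List α) :=
  {P | ∃ k < D.K, P.length = D.c k ∧ D.lam2 k P = some v}

def R2 (D : Dt α S V) (v' : V) : Set (List α) :=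
  {Q | ∃ k0 < D.K,
    (∀ v P, P.length = D.c k0 → D.lam2 k0 P = some v →
      ∃ X1 X2, X1 ∈ XX D ∧ X2 ∈ XX D ∧ P ++ Q = X1 ++ X2 ∧ T D X2 (T D X1 v) = v') ∧
    (∀ k < D.K, k ≠ k0 → ∀ v P, P.length = D.c k → D.lam2 k P = some v →
      ∃ X ∈ XX D, ¬ bad D X ∧ X <+: P ++ Q)}

/-- hypotheses -/
structure Ok (D : Dt α S V) : Prop where
  act_add : ∀ v w s, D.act (v + w) s = D.act v s + D.act w s
  act_mul : ∀ v s t, D.act (D.act v s) t = D.act v (s * t)
  wo_loc : ∀ P Q : List α, D.n ≤ Q.length → (D.Wo (P ++ Q) ↔ D.Wo Q)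
  hz : 3 * D.p0 + D.N1 + D.n < D.z
  gap : ∀ (X : List α) (s t : ℕ), s < t → t ≤ X.length → D.Wo (X.take s) → D.Wo (X.take t) →
    s + 2 * D.p0 + 2 * D.N1 < t
  lam_len : ∀ P v, D.lam P = some v → P.length ≤ D.N1
  g_sound : ∀ P Q v b, D.lam P = some v → D.rho Q = some b →
    b = D.act v (pr D (P ++ Q)) + D.nu1 (P ++ Q)
  g_compl : ∀ X : List α, D.z ≤ X.length + D.p0 → ¬ D.BadN X.length → ∀ v, ∃ P Q, P ++ Q = X ∧
    D.lam P = some v ∧ (D.rho Q).isSome
  c_le : ∀ k < D.K, D.c k ≤ D.p0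
  e_sound : ∀ k < D.K, ∀ (P Q : List α) (v b : V), P.length = D.c k →
    D.lam2 k P = some v → D.rho2 k Q = some b → b = D.act v (pr D (P ++ Q)) + D.nu2 (P ++ Q)
  e_compl : ∀ (u : List α) (v : V), u.length = D.p0 →
    ∃ I : Finset ℕ, 2 + 2 * D.C0 ≤ I.card ∧ ∀ k ∈ I, k < D.K ∧ D.lam2 k (u.take (D.c k)) = some v ∧
      (D.rho2 k (u.drop (D.c k))).isSome
  wide : ∀ i j k l, i < D.K → j < D.K → k < D.K → l < D.K → i ≠ j → k ≠ l → ¬ (i = k ∧ j = l) →
    D.c i + D.c l + 2 * D.N1 < D.c k + D.c j ∨ D.c k + D.c j + 2 * D.N1 < D.c i + D.c l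
  spoil : ∀ (t : ℕ) (B : Finset (ℕ × ℕ)), D.p0 ≤ t → (∀ p ∈ B, p.1 < D.K ∧ p.2 < D.K ∧ p.1 ≠ p.2 ∧
    D.BadN (t + D.c p.2 - D.c p.1)) → B.card ≤ D.C0

variable {D : Dt α S V}

theorem shift (h : Ok D) (P' U : List α) (x s : ℕ) (hx : x + s ≤ U.length) (hs : D.n ≤ s) :
    D.Wo ((P' ++ U.drop x).take (P'.length + s)) ↔ D.Wo (U.take (x + s)) := by
  have hl : ((U.drop x).take s).length = s := by
    rw [List.length_take, List.length_drop]; omega
  have e1 : (P' ++ U.drop x).take (P'.length + s) = P' ++ (U.drop x).take s := by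
    rw [List.take_append, List.take_of_length_le (by omega), Nat.add_sub_cancel_left]
  have e2 : U.take (x + s) = U.take x ++ (U.drop x).take s := List.take_add
  rw [e1, e2, h.wo_loc _ _ (by omega), h.wo_loc _ _ (by omega)]

theorem pf (h : Ok D) : PF (XX D) := by
  constructor
  · rintro X ⟨h1, -, -, -⟩ rfl
    have := h.hz
    simp only [List.length_nil] at h1
    omega
  · rintro X ⟨h1, h2, h3, h4⟩ Y ⟨k1, k2, k3, k4⟩ hXY
    by_contra hne
    have hl : X.length < Y.length := by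
      rcases Nat.lt_or_ge X.length Y.length with hl | hl
      · exact hl
      · exact (hne (hXY.eq_of_length_le hl)).elim
    apply k4 X.length h1 hl
    rw [← List.prefix_iff_eq_take.1 hXY]
    rwa [List.take_length] at h3

theorem act_sub (h : Ok D) (v w : V) (s : S) : D.act v s - D.act w s = D.act (v - w) s := by
  have := h.act_add (v - w) w s
  rw [sub_add_cancel] at this
  rw [this, add_sub_cancel_right]

theorem hT (h : Ok D) (X : List α) (v v' : V) :
    T D X v - T D X v' = D.act (v - v') (X.map D.f).prod := by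
  unfold T
  rw [add_sub_add_right_eq_sub, act_sub h, add_sub_add_right_eq_sub, act_sub h, h.act_mul,
    ← pr_append, List.take_append_drop]
  rfl

theorem sound1 (v v' : V) (P Q : List α) (hP : P ∈ L1 D v) (hQ : Q ∈ R1 D v') :
    P ++ Q ∈ XX D ∧ T D (P ++ Q) v = v' := hQ v P hP

theorem compl1 (h : Ok D) (X : List α) (hX : X ∈ XX D) (hb : ¬ bad D X) (v : V) :
    ∃ P Q, X = P ++ Q ∧ P ∈ L1 D v ∧ Q ∈ R1 D (T D X v) := by
  obtain ⟨h1, -, h3, h4⟩ := hX
  rw [List.take_length] at h3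
  have hz := h.hz
  have hE : ∀ t, t ≤ X.length → D.z ≤ t + D.N1 → t < D.z + D.N1 → ¬ D.Wo (X.take t) :=
    fun t a b c d => hb (Or.inl ⟨t, a, b, c, d⟩)
  have hlen : D.z + D.N1 ≤ X.length := by
    by_contra hh
    exact hE X.length le_rfl (by omega) (by omega) (by rwa [List.take_length])
  obtain ⟨P', Q, e, hl, hr⟩ := h.g_compl (X.drop D.p0) (by rw [List.length_drop]; omega)
    (by rw [List.length_drop]; exact fun hh => hb (Or.inr hh))
    (D.act v (pr D (X.take D.p0)) + D.nu2 (X.take D.p0))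
  have hP'l := h.lam_len _ _ hl
  have htl : (X.take D.p0).length = D.p0 := by rw [List.length_take]; omega
  have eX : X = (X.take D.p0 ++ P') ++ Q := by
    rw [List.append_assoc, e, List.take_append_drop]
  obtain ⟨b, hb'⟩ := Option.isSome_iff_exists.1 hr
  have hTX : T D X v = b := by
    unfold T
    rw [← e]
    exact (h.g_sound _ _ _ _ hl hb').symm
  have hPl : (X.take D.p0 ++ P').length = D.p0 + P'.length := by rw [List.length_append, htl]
  have hQl : Q.length = X.length - (D.p0 + P'.length) := by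
    have := congrArg List.length eX
    rw [List.length_append, hPl] at this
    omega
  refine ⟨X.take D.p0 ++ P', Q, eX, ⟨by omega, by omega, ?_⟩, ?_⟩
  · have e1 : (X.take D.p0 ++ P').drop D.p0 = P' := by
      conv_lhs => rw [← htl]
      rw [htl]
      simp [List.drop_append, htl]
    have e2 : (X.take D.p0 ++ P').take D.p0 = X.take D.p0 := by
      rw [List.take_append_of_le_length (by omega), List.take_take, Nat.min_self]
    rw [e1, e2]; exact hl
  · intro v2 P2 hP2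
    obtain ⟨a1, a2, a3⟩ := hP2
    have hQX : Q = X.drop (D.p0 + P'.length) := by
      conv_rhs => rw [eX]
      rw [← hPl, List.drop_left]
    constructor
    · refine ⟨?_, le_rfl, ?_, ?_⟩
      · rw [List.length_append]; omega
      · rw [List.take_length, h.wo_loc _ _ (by omega)]
        rw [eX, h.wo_loc _ _ (by omega)] at h3
        exact h3
      · intro t ht1 ht2 hw
        rw [List.length_append] at ht2
        have hs : D.n ≤ t - P2.length := by omega
        have := (shift h P2 X (D.p0 + P'.length) (t - P2.length) (by omega) hs).1 (by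
          rw [← hQX, show P2.length + (t - P2.length) = t by omega]; exact hw)
        by_cases hc : D.p0 + P'.length + (t - P2.length) < D.z + D.N1
        · exact hE _ (by omega) (by omega) hc this
        · exact h4 _ (by omega) (by omega) this
    · rw [hTX]
      unfold T
      have e3 : (P2 ++ Q).take D.p0 = P2.take D.p0 := by
        rw [List.take_append_of_le_length a1]
      have e4 : (P2 ++ Q).drop D.p0 = P2.drop D.p0 ++ Q := by
        rw [List.drop_append_of_le_length a1]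
      rw [e3, e4]
      exact (h.g_sound _ _ _ _ a3 hb').symm

/-- critical blocks -/
def Bd (D : Dt α S V) : Set (List α) := {X | X ∈ XX D ∧ bad D X}

def Gd (D : Dt α S V) : Set (List α) := {X | X ∈ XX D ∧ ¬ bad D X}

theorem Bs.split (h : PF (XX D)) {X w : List α} (hX : X ∈ XX D) (hb : Bs (Bd D) (X ++ w)) :
    X ∈ Bd D ∧ Bs (Bd D) w := by
  generalize e : X ++ w = y at hb
  cases hb with
  | nil =>
    have : X = [] := (List.append_eq_nil_iff.1 e).1
    exact (h.1 X hX this).elim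
  | cons hY hw =>
    obtain ⟨rfl, rfl⟩ := h.eq hX hY.1 e
    exact ⟨hY, hw⟩

theorem sound2 (h : Ok D) (v v' : V) (P Q R : List α) (hP : P ∈ L2 D v) (hQ : Q ∈ R2 D v')
    (hb : Bs (Bd D) (P ++ (Q ++ R))) : Tr (XX D) (T D) v (P ++ Q) v' ∧ Bs (Bd D) R := by
  obtain ⟨k, hk, hPk, hl⟩ := hP
  obtain ⟨k0, hk0, h1, h2⟩ := hQ
  have hpf := pf h
  by_cases hkk : k = k0
  · subst hkk
    obtain ⟨X1, X2, hX1, hX2, e, hv⟩ := h1 v P hPk hl
    constructor
    · rw [e, ← hv]
      have := Tr.cons (t := T D) hX1 (Tr.cons (t := T D) hX2 (Tr.nil (T D X2 (T D X1 v))))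
      rwa [List.append_nil] at this
    · rw [← List.append_assoc, e, List.append_assoc] at hb
      exact (Bs.split hpf hX2 (Bs.split hpf hX1 hb).2).2
  · obtain ⟨X, hX, hnb, hpre⟩ := h2 k hk hkk v P hPk hl
    obtain ⟨r, hr⟩ := hpre
    rw [← List.append_assoc, ← hr, List.append_assoc] at hb
    exact (hnb (Bs.split hpf hX hb).1.2).elim

/-- candidate `k` seen from the place `k0` hits the wall band -/
def EvE (D : Dt α S V) (U : List α) (k0 k : ℕ) : Prop :=
  ∃ w, w ≤ U.length ∧ D.Wo (U.take w) ∧ D.z + D.c k0 ≤ w + D.c k + D.N1 ∧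
    w + D.c k < D.z + D.c k0 + D.N1

def EvB (D : Dt α S V) (U : List α) (k0 k : ℕ) : Prop :=
  ∃ w, Fst D.Wo U (D.z + D.c k0 - D.c k) w ∧ D.BadN (w - D.p0 + D.c k - D.c k0)

theorem spoil_count (h : Ok D) (U : List α) (hU : ∃ w, D.z + D.p0 ≤ w ∧ w ≤ U.length ∧ D.Wo (U.take w))
    (I : Finset ℕ) (hI : ∀ k ∈ I, k < D.K) (hc : 2 + 2 * D.C0 ≤ I.card) :
    ∃ k0 ∈ I, ∀ k < D.K, k ≠ k0 → ¬ EvE D U k0 k ∧ ¬ EvB D U k0 k := by
  classical
  by_contra hcon
  push Not at hcon
  -- minimal walls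
  have hex1 : ∃ w, D.z - D.p0 ≤ w ∧ w ≤ U.length ∧ D.Wo (U.take w) := by
    obtain ⟨w, a, b, c⟩ := hU; exact ⟨w, by omega, b, c⟩
  obtain ⟨w1, ⟨a1, a2, a3⟩, a4⟩ : ∃ w, (D.z - D.p0 ≤ w ∧ w ≤ U.length ∧ D.Wo (U.take w)) ∧
      ∀ t < w, ¬ (D.z - D.p0 ≤ t ∧ t ≤ U.length ∧ D.Wo (U.take t)) :=
    ⟨Nat.find hex1, Nat.find_spec hex1, fun t ht => Nat.find_min hex1 ht⟩
  obtain ⟨w2, ⟨b1, b2, b3⟩, b4⟩ : ∃ w, (D.z + D.p0 ≤ w ∧ w ≤ U.length ∧ D.Wo (U.take w)) ∧
      ∀ t < w, ¬ (D.z + D.p0 ≤ t ∧ t ≤ U.length ∧ D.Wo (U.take t)) :=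
    ⟨Nat.find hU, Nat.find_spec hU, fun t ht => Nat.find_min hU ht⟩
  have hz := h.hz
  have hgap := h.gap U
  have key : ∀ k0 k, k0 < D.K → k < D.K → ∀ w, Fst D.Wo U (D.z + D.c k0 - D.c k) w →
      w = w1 ∨ w = w2 := by
    intro k0 k hk0 hk w ⟨c1, c2, c3, c4⟩
    have l1 := h.c_le k0 hk0
    have l2 := h.c_le k hk
    by_cases hh : D.z + D.c k0 - D.c k ≤ w1
    · left
      have g1 : ¬ w1 < w := fun hlt => c4 w1 hh hlt a3
      have g2 : ¬ w < w1 := fun hlt => a4 w hlt ⟨by omega, c2, c3⟩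
      omega
    · right
      have g3 := hgap w1 w (by omega) c2 a3 c3
      have g1 : ¬ w2 < w := fun hlt => c4 w2 (by omega) hlt b3
      have g2 : ¬ w < w2 := fun hlt => b4 w hlt ⟨by omega, c2, c3⟩
      omega
  -- the three families of pairs
  let PE : Finset (ℕ × ℕ) := ((Finset.range D.K) ×ˢ (Finset.range D.K)).filter
    (fun p => p.1 ≠ p.2 ∧ EvE D U p.1 p.2)
  let PB : ℕ → Finset (ℕ × ℕ) := fun w => ((Finset.range D.K) ×ˢ (Finset.range D.K)).filter
    (fun p => p.1 ≠ p.2 ∧ D.BadN (w - D.p0 + D.c p.2 - D.c p.1))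
  have hPE : PE.card ≤ 1 := by
    rw [Finset.card_le_one]
    rintro ⟨i, j⟩ hp ⟨k, l⟩ hq
    simp only [PE, Finset.mem_filter, Finset.mem_product, Finset.mem_range] at hp hq
    obtain ⟨⟨hi, hj⟩, hij, w, x1, x2, x3, x4⟩ := hp
    obtain ⟨⟨hk, hl⟩, hkl, w', y1, y2, y3, y4⟩ := hq
    have ci := h.c_le i hi
    have cj := h.c_le j hj
    have ck := h.c_le k hk
    have cl := h.c_le l hl
    have hww : w = w' := by
      rcases lt_trichotomy w w' with hlt | hlt | hlt
      · have := hgap w w' hlt y1 x2 y2; omega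
      · exact hlt
      · have := hgap w' w hlt x1 y2 x2; omega
    subst hww
    by_contra hne
    have := h.wide i j k l hi hj hk hl hij hkl (by rintro ⟨rfl, rfl⟩; exact hne rfl)
    omega
  have hPB : ∀ w, 2 * D.p0 ≤ w → (PB w).card ≤ D.C0 := by
    intro w hw
    refine h.spoil (w - D.p0) _ (by omega) ?_
    intro p hp
    simp only [PB, Finset.mem_filter, Finset.mem_product, Finset.mem_range] at hp
    exact ⟨hp.1.1, hp.1.2, hp.2.1, hp.2.2⟩
  have hsub : I ⊆ PE.image Prod.fst ∪ ((PB w1).image Prod.fst ∪ (PB w2).image Prod.fst) := by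
    intro k0 hk0
    obtain ⟨k, hk, hne, hev⟩ := hcon k0 hk0
    have hk0' := hI k0 hk0
    by_cases hE : EvE D U k0 k
    · apply Finset.mem_union_left
      exact Finset.mem_image.2 ⟨(k0, k), by
        simp only [PE, Finset.mem_filter, Finset.mem_product, Finset.mem_range]
        exact ⟨⟨hk0', hk⟩, fun e => hne e.symm, hE⟩, rfl⟩
    · obtain ⟨w, hw, hB⟩ := hev hE
      apply Finset.mem_union_right
      rcases key k0 k hk0' hk w hw with rfl | rfl
      · apply Finset.mem_union_left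
        exact Finset.mem_image.2 ⟨(k0, k), by
          simp only [PB, Finset.mem_filter, Finset.mem_product, Finset.mem_range]
          exact ⟨⟨hk0', hk⟩, fun e => hne e.symm, hB⟩, rfl⟩
      · apply Finset.mem_union_right
        exact Finset.mem_image.2 ⟨(k0, k), by
          simp only [PB, Finset.mem_filter, Finset.mem_product, Finset.mem_range]
          exact ⟨⟨hk0', hk⟩, fun e => hne e.symm, hB⟩, rfl⟩
  have c1 := Finset.card_le_card hsub
  have c2 := Finset.card_union_le (PE.image Prod.fst)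
    ((PB w1).image Prod.fst ∪ (PB w2).image Prod.fst)
  have c3 := Finset.card_union_le ((PB w1).image Prod.fst) ((PB w2).image Prod.fst)
  have c4 := Finset.card_image_le (s := PE) (f := Prod.fst)
  have c5 := Finset.card_image_le (s := PB w1) (f := Prod.fst)
  have c6 := Finset.card_image_le (s := PB w2) (f := Prod.fst)
  have c7 := hPB w1 (by omega)
  have c8 := hPB w2 (by omega)
  omega

theorem compl2 (h : Ok D) (Y1 : List α) (hY1 : Y1 ∈ Bd D) (Y2 : List α) (hY2 : Y2 ∈ Bd D) (v : V) :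
    ∃ P Q, Y1 ++ Y2 = P ++ Q ∧ P ∈ L2 D v ∧ Q ∈ R2 D (T D Y2 (T D Y1 v)) := by
  obtain ⟨⟨y1, -, y3, y4⟩, -⟩ := hY1
  obtain ⟨hY2X, -⟩ := hY2
  obtain ⟨z1, -, z3, z4⟩ := id hY2X
  rw [List.take_length] at y3 z3
  have hz := h.hz
  have htl : (Y1.take D.p0).length = D.p0 := by rw [List.length_take]; omega
  obtain ⟨I, hI, hI2⟩ := h.e_compl (Y1.take D.p0) v htl
  have hL : (Y1 ++ Y2).length = Y1.length + Y2.length := List.length_append
  have hUw : D.Wo ((Y1 ++ Y2).take (Y1.length + Y2.length)) := by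
    rw [← hL, List.take_length, h.wo_loc _ _ (by omega)]; exact z3
  obtain ⟨k0, hk0I, hk0⟩ := spoil_count h (Y1 ++ Y2) ⟨Y1.length + Y2.length, by omega, hL.ge, hUw⟩ I
    (fun k hk => (hI2 k hk).1) hI
  obtain ⟨hkK, hlam, hrho⟩ := hI2 k0 hk0I
  have hc0 := h.c_le k0 hkK
  obtain ⟨y, hy⟩ := Option.isSome_iff_exists.1 hrho
  rw [List.take_take, Nat.min_eq_left hc0] at hlam
  have hcl : (Y1.take (D.c k0)).length = D.c k0 := by rw [List.length_take]; omega
  have eT1 : Y1.take D.p0 = Y1.take (D.c k0) ++ (Y1.take D.p0).drop (D.c k0) := by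
    conv_lhs => rw [← List.take_append_drop (D.c k0) (Y1.take D.p0), List.take_take,
      Nat.min_eq_left hc0]
  have hTY : ∀ (v2 : V) (P2 : List α), P2.length = D.c k0 → D.lam2 k0 P2 = some v2 →
      T D (P2 ++ Y1.drop (D.c k0)) v2 = D.act y (pr D (Y1.drop D.p0)) + D.nu1 (Y1.drop D.p0) := by
    intro v2 P2 hl2 hlam2
    have e1 : (P2 ++ Y1.drop (D.c k0)).take D.p0 = P2 ++ (Y1.take D.p0).drop (D.c k0) := by
      rw [List.take_append, List.take_of_length_le (by omega), hl2, List.drop_take]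
    have e2 : (P2 ++ Y1.drop (D.c k0)).drop D.p0 = Y1.drop D.p0 := by
      rw [List.drop_append, List.drop_eq_nil_of_le (by omega), List.nil_append, hl2,
        List.drop_drop, Nat.add_sub_cancel' hc0]
    unfold T
    rw [e1, e2, ← h.e_sound k0 hkK P2 _ v2 y hl2 hlam2 hy]
  have eU : Y1.drop (D.c k0) ++ Y2 = (Y1 ++ Y2).drop (D.c k0) := by
    rw [List.drop_append_of_le_length (by omega)]
  refine ⟨Y1.take (D.c k0), Y1.drop (D.c k0) ++ Y2, ?_, ⟨k0, hkK, hcl, hlam⟩, k0, hkK, ?_, ?_⟩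
  · rw [← List.append_assoc, List.take_append_drop]
  · intro v2 P2 hl2 hlam2
    refine ⟨P2 ++ Y1.drop (D.c k0), Y2, ?_, hY2X, by simp, ?_⟩
    · have hlen : (P2 ++ Y1.drop (D.c k0)).length = Y1.length := by
        rw [List.length_append, List.length_drop]; omega
      have hsh : ∀ t, D.z ≤ t → t ≤ Y1.length →
          (D.Wo ((P2 ++ Y1.drop (D.c k0)).take t) ↔ D.Wo (Y1.take t)) := by
        intro t ht1 ht2
        have := shift h P2 Y1 (D.c k0) (t - D.c k0) (by omega) (by omega)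
        rw [hl2, show D.c k0 + (t - D.c k0) = t by omega] at this
        exact this
      refine ⟨by omega, le_rfl, ?_, ?_⟩
      · rw [hlen, hsh _ y1 le_rfl, List.take_length]; exact y3
      · intro t ht1 ht2
        rw [hsh t ht1 (by omega)]
        exact y4 t ht1 (by omega)
    · have a1 := hTY v2 P2 hl2 hlam2
      have a2 := hTY v (Y1.take (D.c k0)) hcl hlam
      rw [List.take_append_drop] at a2
      rw [a1, a2]
  · intro k hk hne v2 P2 hl2 hlam2
    obtain ⟨hnE, hnB⟩ := hk0 k hk hne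
    have hck := h.c_le k hk
    rw [eU]
    classical
    have hex : ∃ w, D.z + D.c k0 - D.c k ≤ w ∧ w ≤ (Y1 ++ Y2).length ∧
        D.Wo ((Y1 ++ Y2).take w) := ⟨Y1.length + Y2.length, by omega, hL.ge, hUw⟩
    obtain ⟨w, ⟨a1, a2, a3⟩, a4⟩ : ∃ w, (D.z + D.c k0 - D.c k ≤ w ∧ w ≤ (Y1 ++ Y2).length ∧
        D.Wo ((Y1 ++ Y2).take w)) ∧
        ∀ t < w, ¬ (D.z + D.c k0 - D.c k ≤ t ∧ t ≤ (Y1 ++ Y2).length ∧
          D.Wo ((Y1 ++ Y2).take t)) :=
      ⟨Nat.find hex, Nat.find_spec hex, fun t ht => Nat.find_min hex ht⟩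
    have hF : Fst D.Wo (Y1 ++ Y2) (D.z + D.c k0 - D.c k) w :=
      ⟨a1, a2, a3, fun t ht1 ht2 hw => a4 t ht2 ⟨ht1, by omega, hw⟩⟩
    set U := Y1 ++ Y2 with hUdef
    set X := (P2 ++ U.drop (D.c k0)).take (P2.length + (w - D.c k0)) with hX
    have hXl : X.length = D.c k + (w - D.c k0) := by
      rw [hX, List.length_take, List.length_append, List.length_drop, hl2]; omega
    have hXt : ∀ t, t ≤ X.length → X.take t = (P2 ++ U.drop (D.c k0)).take t := by
      intro t ht
      rw [hX, List.take_take, Nat.min_eq_left (by omega)]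
    have hsh : ∀ t, D.p0 + D.n ≤ t → t ≤ X.length →
        (D.Wo (X.take t) ↔ D.Wo (U.take (D.c k0 + (t - D.c k)))) := by
      intro t ht1 ht2
      rw [hXt t ht2]
      have := shift h P2 U (D.c k0) (t - D.c k) (by omega) (by omega)
      rw [hl2, show D.c k + (t - D.c k) = t by omega] at this
      exact this
    refine ⟨X, ⟨by omega, le_rfl, ?_, ?_⟩, ?_, List.take_prefix _ _⟩
    · rw [hsh _ (by omega) le_rfl, hXl,
        show D.c k0 + (D.c k + (w - D.c k0) - D.c k) = w by omega]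
      exact a3
    · intro t ht1 ht2 hw
      rw [hsh t (by omega) (by omega)] at hw
      exact a4 (D.c k0 + (t - D.c k)) (by omega) ⟨by omega, by omega, hw⟩
    · rintro (⟨t, t1, t2, t3, t4⟩ | hB)
      · rw [hsh t (by omega) t1] at t4
        exact hnE ⟨D.c k0 + (t - D.c k), by omega, t4, by omega, by omega⟩
      · apply hnB
        refine ⟨w, hF, ?_⟩
        rw [hXl] at hB
        have e : w - D.p0 + D.c k - D.c k0 = D.c k + (w - D.c k0) - D.p0 := by omega
        rw [e]; exact hB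

end Crest.Agent.R320.Ins1_269
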