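import Crest.Agent.R320.Ins1_269
import Crest.Agent.R320.WallU_228
import Crest.Agent.R320.Reg_852

/-!
# Row 320: instance of the two schemes on all words (helper269), heights
-/

set_option autoImplicit false

namespace Crest.Agent.R320.Ins2_269

open Crest.Agent.R320.Half1_180 Crest.Agent.R320.Ins1_269 Crest.Agent.R320.Hk_851
  Crest.Agent.R320.Reg_852
open Crest.Agent.R320.FewWalls_228 (Wl nw)

/-- languages with finitely many "keys" are regular -/
theorem reg_key {α S : Type} [Finite α] [Monoid S] [Finite S] (f : α → S) (A Pm : ℕ) (hPm : 0 < Pm)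
    (p : List α → Prop)
    (hp : ∀ U W W' : List α, U.length = A → W.length % Pm = W'.length % Pm →
      (W.map f).prod = (W'.map f).prod → (p (U ++ W) ↔ p (U ++ W'))) :
    Language.IsRegular ({X : List α | A ≤ X.length ∧ p X} : Language α) := by
  classical
  let L : Language α := {X : List α | A ≤ X.length ∧ p X}
  change L.IsRegular
  have : Finite {l : List α // l.length ≤ A} := (List.finite_length_le α A).to_subtype
  let κ := {l : List α // l.length ≤ A} × Fin Pm × S
  have : Finite κ := inferInstance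
  let key : List α → κ := fun X => (⟨X.take A, by rw [List.length_take]; omega⟩,
    ⟨X.length % Pm, Nat.mod_lt _ hPm⟩, ((X.drop A).map f).prod)
  have hkey : ∀ X X', key X = key X' → L.leftQuotient X = L.leftQuotient X' := by
    intro X X' h
    have h1 : X.take A = X'.take A := congrArg (fun k : κ => k.1.1) h
    have h2 : X.length % Pm = X'.length % Pm := congrArg (fun k : κ => k.2.1.1) h
    have h3 : ((X.drop A).map f).prod = ((X'.drop A).map f).prod := congrArg (fun k : κ => k.2.2) h
    have hlen := congrArg List.length h1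
    rw [List.length_take, List.length_take] at hlen
    ext Y
    rw [Language.mem_leftQuotient, Language.mem_leftQuotient]
    by_cases hA : A ≤ X.length
    · have hA' : A ≤ X'.length := by omega
      have key2 : p (X ++ Y) ↔ p (X' ++ Y) := by
        have e1 : X ++ Y = X.take A ++ (X.drop A ++ Y) := by
          rw [← List.append_assoc, List.take_append_drop]
        have e2 : X' ++ Y = X.take A ++ (X'.drop A ++ Y) := by
          rw [h1, ← List.append_assoc, List.take_append_drop]
        rw [e1, e2]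
        refine hp _ _ _ (by rw [List.length_take]; omega) ?_ ?_
        · rw [List.length_append, List.length_append, List.length_drop, List.length_drop]
          have a1 : (X.length - A) % Pm = (X'.length - A) % Pm := by
            have : X.length - A + A ≡ X'.length - A + A [MOD Pm] := by
              rw [Nat.sub_add_cancel hA, Nat.sub_add_cancel hA']; exact h2
            exact Nat.ModEq.add_right_cancel' A this
          exact Nat.ModEq.add_right Y.length a1
        · rw [List.map_append, List.prod_append, List.map_append, List.prod_append, h3]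
      constructor
      · rintro ⟨_, hh⟩
        exact ⟨by rw [List.length_append]; omega, key2.1 hh⟩
      · rintro ⟨_, hh⟩
        exact ⟨by rw [List.length_append]; omega, key2.2 hh⟩
    · have e : X = X' := by
        have a1 : X.take A = X := List.take_of_length_le (by omega)
        have a2 : X'.take A = X' := List.take_of_length_le (by omega)
        rw [← a1, h1, a2]
      rw [e]
  refine Language.IsRegular.of_finite_range_leftQuotient ?_
  refine (Set.finite_range (fun k : κ => if h : ∃ X, key X = k then L.leftQuotient h.choose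
    else L)).subset ?_
  rintro _ ⟨X, rfl⟩
  refine ⟨key X, ?_⟩
  have h : ∃ X', key X' = key X := ⟨X, rfl⟩
  change (if h : ∃ X', key X' = key X then L.leftQuotient h.choose else L) = _
  rw [dif_pos h]
  exact hkey _ _ h.choose_spec

set_option linter.unusedSectionVars false

variable {α S V : Type} [Finite α] [Monoid S] [Finite S] [AddCommGroup V] [Finite V]

/-- the remaining hypotheses for the heights -/
structure Hy (D : Dt α S V) : Prop where
  ok : Ok D
  act_one : ∀ v, D.act v 1 = v
  act_zero : ∀ s, D.act 0 s = 0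
  faithful : ∀ s s', (∀ v, D.act v s = D.act v s') → s = s'
  walls : ∃ Sw : Set (List α), (∀ P, D.Wo P ↔ WallU_228.Wo D.n Sw P) ∧
    ∀ (L : Language α), L.IsRegular → ∀ r, HL 1 ({w | w ∈ L ∧ nw D.n Sw w ≤ r} : Language α)
  hn : 0 < D.n
  inv : ∃ A0 Pm : ℕ, 0 < Pm ∧ D.p0 + A0 ≤ D.z ∧ (∀ t, D.BadN (t + Pm) ↔ D.BadN t) ∧
    ∀ X X' : List α, A0 ≤ X.length → A0 ≤ X'.length → X.take A0 = X'.take A0 →
      X.length % Pm = X'.length % Pm →
      ((X.drop A0).map D.f).prod = ((X'.drop A0).map D.f).prod → D.nu1 X = D.nu1 X'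

variable {D : Dt α S V}

theorem HL_Wo (n : ℕ) (Sw : Set (List α)) : HL 0 ({P | WallU_228.Wo n Sw P} : Language α) := by
  have h1 : HL 0 ({v : List α | v.length = n ∧ v ∈ Sw} : Language α) :=
    HL.finite ((List.finite_length_eq α n).subset fun v hv => hv.1)
  refine h1.suffix.congr fun P => ?_
  constructor
  · rintro ⟨a, b⟩
    exact ⟨_, ⟨by rw [List.length_drop]; omega, b⟩, List.drop_suffix _ _⟩
  · rintro ⟨v, ⟨hv1, hv2⟩, t, rfl⟩
    have hv1' : v.length = n := hv1
    refine ⟨by rw [List.length_append]; omega, ?_⟩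
    have e : (t ++ v).length - n = t.length := by rw [List.length_append]; omega
    rw [e, List.drop_left]; exact hv2

/-- blocks -/
def XL (D : Dt α S V) : Language α := {X | X ∈ XX D}

theorem HL_XX (h : Hy D) : HL 0 (XL D) := by
  obtain ⟨Sw, hS, -⟩ := h.walls
  let WL : Language α := {P | D.Wo P}
  have hW : HL 0 WL := (HL_Wo D.n Sw).congr fun P => hS P
  let GE : Language α := {P | D.z ≤ P.length}
  let NE : Language α := {P | 1 ≤ P.length}
  have hGE : HL 0 GE := HL.length_ge D.z
  have hNE : HL 0 NE := HL.length_ge 1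
  refine ((hW.inf hGE).inf (((hGE.inf hW).mul hNE).compl)).congr fun X => ?_
  constructor
  · rintro ⟨a, -, c, d⟩
    rw [List.take_length] at c
    refine ⟨⟨c, a⟩, ?_⟩
    intro hh
    obtain ⟨U, ⟨hU1, hU2⟩, r, hr, e⟩ := Language.mem_mul.1 hh
    have hr' : 1 ≤ r.length := hr
    subst e
    refine d U.length hU1 (by rw [List.length_append]; omega) ?_
    rw [List.take_left]; exact hU2
  · rintro ⟨⟨c, a⟩, d⟩
    have a' : D.z ≤ X.length := a
    refine ⟨a', le_rfl, by rw [List.take_length]; exact c, ?_⟩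
    intro t ht1 ht2 hw
    apply d
    refine Language.mem_mul.2 ⟨X.take t, ⟨?_, hw⟩, X.drop t, ?_, List.take_append_drop t X⟩
    · change D.z ≤ (X.take t).length
      rw [List.length_take]; omega
    · change 1 ≤ (X.drop t).length
      rw [List.length_drop]; omega

theorem nw_le {n : ℕ} {Sw : Set (List α)} (w : List α) (B x0 : ℕ)
    (hw : ∀ x, Wl n Sw w x → x < B ∨ x = x0) : nw n Sw w ≤ B + 1 := by
  classical
  unfold nw
  refine (Finset.card_le_card (t := insert x0 (Finset.range B)) ?_).trans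
    ((Finset.card_insert_le _ _).trans (by rw [Finset.card_range]))
  intro x hx
  rw [Finset.mem_filter] at hx
  rcases hw x hx.2 with h | h
  · exact Finset.mem_insert_of_mem (Finset.mem_range.2 h)
  · rw [h]; exact Finset.mem_insert_self _ _

/-- regular sets of blocks have height one -/
theorem HL_of_reg (h : Hy D) {L : Language α} (hL : L.IsRegular) (hLX : ∀ w ∈ L, w ∈ XX D) :
    HL 1 L := by
  obtain ⟨Sw, hS, hfew⟩ := h.walls
  refine (hfew L hL (D.z + 1)).congr fun w => ?_
  constructor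
  · intro hw
    refine ⟨hw, nw_le w D.z (w.length - D.n) ?_⟩
    intro x hx
    obtain ⟨h1, h2⟩ := WallU_228.wo_take.1 hx
    obtain ⟨-, -, -, hno⟩ := hLX w hw
    by_cases hxz : x + D.n < D.z
    · left; omega
    · right
      by_contra hne
      exact hno (x + D.n) (by omega) (by omega) ((hS _).2 h2)
  · exact fun hw => hw.1

theorem HL_tail (h : Hy D) (s : S) :
    HL 1 (Lg (fun E : List α => E ∈ Tail (XX D) ∧ (E.map D.f).prod = s)) := by
  obtain ⟨Sw, hS, hfew⟩ := h.walls
  have h0 : HL 0 ({w : List α | ∃ v ∈ XL D, v <+: w} : Language α) := (HL_XX h).prefix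
  have hreg : Language.IsRegular (({w : List α | ∃ v ∈ XL D, v <+: w} : Language α)ᶜ ⊓
      ({w | (w.map D.f).prod = s} : Language α)) :=
    (HL.isRegular h0.compl).inf (isRegular_prod D.f s)
  refine (hfew _ hreg (D.z + 1)).congr fun w => ?_
  constructor
  · rintro ⟨h1, h2⟩
    refine ⟨⟨fun ⟨X, hX, hXw⟩ => h1 X hX hXw, h2⟩, nw_le w D.z 0 ?_⟩
    intro x hx
    obtain ⟨h3, h4⟩ := WallU_228.wo_take.1 hx
    left
    by_contra hxz
    classical
    have hex : ∃ t, D.z ≤ t ∧ t ≤ w.length ∧ D.Wo (w.take t) :=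
      ⟨x + D.n, by omega, h3, (hS _).2 h4⟩
    obtain ⟨t, ⟨a1, a2, a3⟩, a4⟩ : ∃ t, (D.z ≤ t ∧ t ≤ w.length ∧ D.Wo (w.take t)) ∧
        ∀ t' < t, ¬ (D.z ≤ t' ∧ t' ≤ w.length ∧ D.Wo (w.take t')) :=
      ⟨Nat.find hex, Nat.find_spec hex, fun t' ht' => Nat.find_min hex ht'⟩
    have hl : (w.take t).length = t := by rw [List.length_take]; omega
    refine h1 (w.take t) ⟨by omega, le_rfl, ?_, ?_⟩ (List.take_prefix _ _)
    · rw [List.take_length]; exact a3
    · intro t' ht1 ht2 hw
      rw [hl] at ht2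
      rw [List.take_take, Nat.min_eq_left (by omega)] at hw
      exact a4 t' ht2 ⟨ht1, by omega, hw⟩
  · rintro ⟨⟨h1, h2⟩, -⟩
    exact ⟨fun X hX hXw => h1 ⟨X, hX, hXw⟩, h2⟩

theorem mod_inv {Pm : ℕ} {p : ℕ → Prop} (hp : ∀ t, p (t + Pm) ↔ p t) {a b : ℕ}
    (h : a % Pm = b % Pm) : p a ↔ p b := by
  have key : ∀ q r, p (r + Pm * q) ↔ p r := by
    intro q
    induction q with
    | zero => intro r; simp
    | succ q ih => intro r; rw [Nat.mul_succ, ← Nat.add_assoc, hp, ih]
  have ha : p a ↔ p (a % Pm) := by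
    conv_lhs => rw [← Nat.mod_add_div a Pm]
    exact key _ _
  have hb : p b ↔ p (b % Pm) := by
    conv_lhs => rw [← Nat.mod_add_div b Pm]
    exact key _ _
  rw [ha, hb, h]

theorem reg_T (h : Hy D) (v v' : V) : ∃ A, A ≤ D.z ∧
    Language.IsRegular ({X : List α | A ≤ X.length ∧ T D X v = v'} : Language α) := by
  obtain ⟨A0, Pm, hPm, hA, -, hnu⟩ := h.inv
  refine ⟨D.p0 + A0, hA, reg_key D.f (D.p0 + A0) Pm hPm (fun X => T D X v = v') ?_⟩
  intro U W W' hU hW hpr
  have e : T D (U ++ W) v = T D (U ++ W') v := by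
    have hdl : (U.drop D.p0).length = A0 := by rw [List.length_drop]; omega
    have t1 : ∀ W : List α, (U ++ W).take D.p0 = U.take D.p0 := fun W =>
      List.take_append_of_le_length (by omega)
    have t2 : ∀ W : List α, (U ++ W).drop D.p0 = U.drop D.p0 ++ W := fun W =>
      List.drop_append_of_le_length (by omega)
    have t3 : ∀ W : List α, (U.drop D.p0 ++ W).take A0 = U.drop D.p0 := fun W => by
      conv_lhs => rw [← hdl]
      exact List.take_left
    have t4 : ∀ W : List α, (U.drop D.p0 ++ W).drop A0 = W := fun W => by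
      conv_lhs => rw [← hdl]
      exact List.drop_left
    unfold T
    rw [t1, t1, t2, t2]
    have e1 : pr D (U.drop D.p0 ++ W) = pr D (U.drop D.p0 ++ W') := by
      rw [pr_append, pr_append]; unfold pr; rw [hpr]
    have e2 : D.nu1 (U.drop D.p0 ++ W) = D.nu1 (U.drop D.p0 ++ W') := by
      refine hnu _ _ (by rw [List.length_append]; omega) (by rw [List.length_append]; omega)
        (by rw [t3, t3]) ?_ (by rw [t4, t4, hpr])
      rw [List.length_append, List.length_append]
      exact Nat.ModEq.add_left _ hW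
    rw [e1, e2]
  change T D (U ++ W) v = v' ↔ T D (U ++ W') v = v'
  rw [e]

/-- blocks which move `v` to `v'` -/
def XT (D : Dt α S V) (v v' : V) : Language α := {X | X ∈ XX D ∧ T D X v = v'}

theorem HL_XT (h : Hy D) (v v' : V) : HL 1 (XT D v v') := by
  obtain ⟨A, hA, hreg⟩ := reg_T h v v'
  refine HL_of_reg h (L := XT D v v') ?_ (fun w hw => hw.1)
  have h1 := (HL.isRegular (HL_XX h)).inf hreg
  have e : (XL D ⊓ ({X : List α | A ≤ X.length ∧ T D X v = v'} : Language α)) = XT D v v' := by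
    ext X
    constructor
    · rintro ⟨a, -, c⟩; exact ⟨a, c⟩
    · rintro ⟨a, c⟩
      have a1 : D.z ≤ X.length := a.1
      exact ⟨a, by omega, c⟩
  rw [← e]; exact h1

theorem HL_Bd (h : Hy D) : HL 1 (Lof (Bd D)) := by
  obtain ⟨A0, Pm, hPm, hA, hper, -⟩ := h.inv
  let BN : Language α := {X : List α | D.p0 + A0 ≤ X.length ∧ D.BadN (X.length - D.p0)}
  have r1 : BN.IsRegular := by
    refine reg_key D.f (D.p0 + A0) Pm hPm (fun X => D.BadN (X.length - D.p0)) ?_
    intro U W W' hU hW _
    refine mod_inv hper ?_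
    rw [List.length_append, List.length_append, hU]
    have e1 : D.p0 + A0 + W.length - D.p0 = A0 + W.length := by omega
    have e2 : D.p0 + A0 + W'.length - D.p0 = A0 + W'.length := by omega
    rw [e1, e2]
    exact Nat.ModEq.add_left _ hW
  let FE : Language α := {U : List α | U.length ≤ D.z + D.N1 ∧ D.z ≤ U.length + D.N1 ∧
    U.length < D.z + D.N1 ∧ D.Wo U}
  have hFE : HL 0 FE :=
    HL.finite ((List.finite_length_le α (D.z + D.N1)).subset fun v hv => hv.1)
  let PE : Language α := {w : List α | ∃ v ∈ FE, v <+: w}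
  have r2 : PE.IsRegular := HL.isRegular hFE.prefix
  refine HL_of_reg h (L := Lof (Bd D)) ?_ (fun w hw => hw.1)
  have h1 := (HL.isRegular (HL_XX h)).inf (r1.add r2)
  have e : (XL D ⊓ (BN + PE)) = Lof (Bd D) := by
    ext X
    constructor
    · rintro ⟨a, ⟨-, b⟩ | ⟨U, ⟨-, u1, u2, u3⟩, r, rfl⟩⟩
      · exact ⟨a, Or.inr b⟩
      · refine ⟨a, Or.inl ⟨U.length, by rw [List.length_append]; omega, u1, u2, ?_⟩⟩
        rw [List.take_left]; exact u3
    · rintro ⟨a, ⟨t, t1, t2, t3, t4⟩ | b⟩
      · refine ⟨a, Or.inr ⟨X.take t, ?_, List.take_prefix _ _⟩⟩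
        have hl : (X.take t).length = t := by rw [List.length_take]; omega
        exact ⟨by omega, by omega, by omega, t4⟩
      · have a1 : D.z ≤ X.length := a.1
        exact ⟨a, Or.inl ⟨by omega, b⟩⟩
  rw [← e]; exact h1

theorem HL_L1 (v : V) : HL 1 (L1 D v : Language α) :=
  HL.finite ((List.finite_length_le α (D.p0 + D.N1)).subset fun P hP => hP.2.1)

theorem HL_L2 (h : Hy D) (v : V) : HL 1 (L2 D v : Language α) :=
  HL.finite ((List.finite_length_le α D.p0).subset fun P hP => by
    obtain ⟨k, hk, e, -⟩ := hP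
    have := h.ok.c_le k hk
    change P.length ≤ D.p0
    omega)

theorem HL_R1 (h : Hy D) (v' : V) : HL 1 (R1 D v' : Language α) := by
  have h1 : ∀ v : V, HL 1 ({Q : List α | ∀ P ∈ {P : List α | P.length ≤ D.p0 + D.N1},
      Q ∈ ({Q : List α | P ∈ L1 D v → P ++ Q ∈ XT D v v'} : Language α)} : Language α) := by
    intro v
    refine HL.biInter (List.finite_length_le α (D.p0 + D.N1))
      (L := fun P => ({Q : List α | P ∈ L1 D v → P ++ Q ∈ XT D v v'} : Language α)) ?_
    intro P _
    exact HL.setOf_imp (HL.const _) (HL.lquot P (HL_XT h v v'))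
  refine (HL.iInter h1).congr fun Q => ?_
  constructor
  · intro hQ v P _ hP
    exact hQ v P hP
  · intro hQ v P hP
    exact hQ v P hP.2.1 hP

/-- two blocks -/
def TwoB (D : Dt α S V) (v v' : V) : Language α :=
  {w | ∃ X1 X2, X1 ∈ XX D ∧ X2 ∈ XX D ∧ w = X1 ++ X2 ∧ T D X2 (T D X1 v) = v'}

theorem HL_TwoB (h : Hy D) (v v' : V) : HL 1 (TwoB D v v') := by
  have h1 : HL 1 ({w : List α | ∃ v1 : V, w ∈ XT D v v1 * XT D v1 v'} : Language α) :=
    HL.iUnion fun v1 => (HL_XT h v v1).mul (HL_XT h v1 v')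
  refine h1.congr fun w => ?_
  constructor
  · rintro ⟨X1, X2, a, b, rfl, c⟩
    exact ⟨T D X1 v, Language.mem_mul.2 ⟨X1, ⟨a, rfl⟩, X2, ⟨b, c⟩, rfl⟩⟩
  · rintro ⟨v1, hw⟩
    obtain ⟨X1, ⟨a, a'⟩, X2, ⟨b, b'⟩, rfl⟩ := Language.mem_mul.1 hw
    exact ⟨X1, X2, a, b, rfl, by rw [a']; exact b'⟩

/-- words starting with a good block -/
def GdA (D : Dt α S V) : Language α := {w | ∃ X ∈ XX D, ¬ bad D X ∧ X <+: w}

theorem HL_GdA (h : Hy D) : HL 1 (GdA D) := by
  have h1 : HL 1 (XL D ⊓ (Lof (Bd D))ᶜ) := ((HL_XX h).mono (Nat.zero_le 1)).inf (HL_Bd h).compl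
  refine h1.prefix.congr fun w => ?_
  constructor
  · rintro ⟨X, a, b, c⟩
    exact ⟨X, ⟨a, fun hh => b hh.2⟩, c⟩
  · rintro ⟨X, ⟨a, b⟩, c⟩
    exact ⟨X, a, fun hh => b ⟨a, hh⟩, c⟩

theorem HL_R2 (h : Hy D) (v' : V) : HL 1 (R2 D v' : Language α) := by
  have ha : ∀ k0, k0 < D.K → HL 1 ({Q : List α | ∀ v, ∀ P ∈ {P : List α | P.length ≤ D.p0},
      Q ∈ ({Q : List α | (P.length = D.c k0 ∧ D.lam2 k0 P = some v) → P ++ Q ∈ TwoB D v v'} :
        Language α)} : Language α) := by
    intro k0 _
    refine HL.iInter fun v => ?_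
    refine HL.biInter (List.finite_length_le α D.p0) (L := fun P =>
      ({Q : List α | (P.length = D.c k0 ∧ D.lam2 k0 P = some v) → P ++ Q ∈ TwoB D v v'} :
        Language α)) ?_
    intro P _
    exact HL.setOf_imp (HL.const _) (HL.lquot P (HL_TwoB h v v'))
  have hb : ∀ k0, k0 < D.K → HL 1 ({Q : List α | ∀ k ∈ {k : ℕ | k < D.K},
      Q ∈ ({Q : List α | ∀ v, ∀ P ∈ {P : List α | P.length ≤ D.p0},
        Q ∈ ({Q : List α | (k ≠ k0 ∧ P.length = D.c k ∧ D.lam2 k P = some v) → P ++ Q ∈ GdA D} :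
          Language α)} : Language α)} : Language α) := by
    intro k0 _
    refine HL.biInter (Set.finite_lt_nat D.K) (L := fun k =>
      ({Q : List α | ∀ v, ∀ P ∈ {P : List α | P.length ≤ D.p0},
        Q ∈ ({Q : List α | (k ≠ k0 ∧ P.length = D.c k ∧ D.lam2 k P = some v) → P ++ Q ∈ GdA D} :
          Language α)} : Language α)) ?_
    intro k _
    refine HL.iInter fun v => ?_
    refine HL.biInter (List.finite_length_le α D.p0) (L := fun P =>
      ({Q : List α | (k ≠ k0 ∧ P.length = D.c k ∧ D.lam2 k P = some v) → P ++ Q ∈ GdA D} :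
        Language α)) ?_
    intro P _
    exact HL.setOf_imp (HL.const _) (HL.lquot P (HL_GdA h))
  have hc := HL.biUnion (k := 1) (Set.finite_lt_nat D.K) (L := fun k0 =>
    ({Q : List α | (∀ v, ∀ P ∈ {P : List α | P.length ≤ D.p0},
      Q ∈ ({Q : List α | (P.length = D.c k0 ∧ D.lam2 k0 P = some v) → P ++ Q ∈ TwoB D v v'} :
        Language α)) ∧ (∀ k ∈ {k : ℕ | k < D.K},
      Q ∈ ({Q : List α | ∀ v, ∀ P ∈ {P : List α | P.length ≤ D.p0},
        Q ∈ ({Q : List α | (k ≠ k0 ∧ P.length = D.c k ∧ D.lam2 k P = some v) → P ++ Q ∈ GdA D} :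
          Language α)} : Language α))} : Language α)) fun k0 hk0 => (ha k0 hk0).setOf_and (hb k0 hk0)
  refine hc.congr fun Q => ?_
  constructor
  · rintro ⟨k0, hk0, h1, h2⟩
    refine ⟨k0, hk0, ?_, ?_⟩
    · rintro v P _ ⟨e1, e2⟩
      exact h1 v P e1 e2
    · rintro k hk v P _ ⟨hne, e1, e2⟩
      exact h2 k hk hne v P e1 e2
  · rintro ⟨k0, hk0, h1, h2⟩
    have hk0' : k0 < D.K := hk0
    refine ⟨k0, hk0', ?_, ?_⟩
    · intro v P e1 e2
      have := h.ok.c_le k0 hk0'
      exact h1 v P (by change P.length ≤ D.p0; omega) ⟨e1, e2⟩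
    · intro k hk hne v P e1 e2
      have := h.ok.c_le k hk
      exact h2 k hk v P (by change P.length ≤ D.p0; omega) ⟨hne, e1, e2⟩

/-- **the value languages have height at most three** -/
theorem final (h : Hy D) (s : S) : HL 3 ({w | (w.map D.f).prod = s} : Language α) := by
  classical
  refine top2 (k := 1) D.f D.act h.act_zero h.act_one h.ok.act_mul h.faithful (XX D) (Gd D) (Bd D)
    (pf h.ok) ?_ (T D) (fun X _ v v' => hT h.ok X v v') (fun v => (L1 D v : Language α))
    (fun v => (R1 D v : Language α)) (fun v => (HL_L1 v).mono (by omega))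
    (fun v => (HL_R1 h v).mono (by omega)) (fun v v' P Q hP hQ => sound1 v v' P Q hP hQ)
    (fun X hX v => compl1 h.ok X hX.1 hX.2 v) (HL_Bd h) (fun v => (L2 D v : Language α))
    (fun v => (R2 D v : Language α)) (fun v => HL_L2 h v) (fun v => HL_R2 h v) ?_
    (fun v v' P Q R hP hQ hb => sound2 h.ok v v' P Q R hP hQ hb)
    (fun Y1 h1 Y2 h2 v => compl2 h.ok Y1 h1 Y2 h2 v) (fun s => (HL_tail h s).mono (by omega)) s
  · ext X
    constructor
    · intro hX
      by_cases hb : bad D X
      · exact Or.inr ⟨hX, hb⟩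
      · exact Or.inl ⟨hX, hb⟩
    · rintro (hX | hX)
      · exact hX.1
      · exact hX.1
  · intro v v'
    refine ((HL_Bd h).inf (HL_XT h v v')).congr fun Y => ?_
    constructor
    · rintro ⟨a, b⟩; exact ⟨a, a.1, b⟩
    · rintro ⟨a, _, b⟩; exact ⟨a, b⟩

end Crest.Agent.R320.Ins2_269
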