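import Crest.Agent.R320.ExactR_237

/-!
Row 320 (helper466): concrete instance of the two schemes for the natural chain rule
(left-looking outer walls, block code `XX`), from
* scheme 1 = a zone gadget on words (693 / 638: `lam1 rho1 nu1`, sound for all words, complete off `BadT`);
* scheme 2 = 237's exact gadget on the first `p0` letters with the ruler `c`.
Definitions only; they match helper163's `top` (s1) (s2) (cc).
-/

set_option autoImplicit false

namespace Crest.Agent.R320.Inst_466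

open Crest.Agent.R320.ExactR_237 (pr)

/-- parameters of the instance -/
structure Par (α S V : Type) where
  f : α → S
  act : V → S → V
  Wo : List α → Prop
  n : ℕ
  W : ℕ
  z : ℕ
  p0 : ℕ
  N1 : ℕ
  N2 : ℕ
  lam1 : List α → Option V
  rho1 : List α → Option V
  nu1 : List α → V
  BadT : ℕ → Prop
  R : ℕ
  K : ℕ
  c : ℕ → ℕ
  Lam : ℕ
  lam2 : ℕ → List α → Option V
  rho2 : ℕ → List α → S → Option V
  nu2 : List α → S → V

variable {α S V : Type} [Monoid S] [AddCommGroup V]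

namespace Par

variable (p : Par α S V)

/-- the block code -/
def XX : Set (List α) :=
  {X | p.z ≤ X.length ∧ p.Wo X ∧ ∀ t, p.z ≤ t → t < X.length → ¬ p.Wo (X.take t)}

/-- token at the place `p0` of the block -/
def mid (v : V) (X : List α) : V := p.act v (pr p.f (X.take p.p0)) + p.nu2 (X.take p.p0) 1

/-- noise of a block -/
def nu (X : List α) : V :=
  p.act (p.nu2 (X.take p.p0) 1) (pr p.f (X.drop p.p0)) + p.nu1 (X.drop p.p0)

/-- zone map -/
def T (v : V) (X : List α) : V := p.act v (pr p.f X) + p.nu X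

/-- left-legal, scheme 1 -/
def LP1 (P : List α) (v : V) : Prop := p.p0 ≤ P.length ∧ p.lam1 (P.drop p.p0) = some (p.mid v P)

/-- chain part of right-legality, scheme 1 -/
def RQ1 (Q : List α) : Prop :=
  p.z ≤ p.p0 + Q.length ∧ p.Wo Q ∧ ∀ t, p.z ≤ p.p0 + p.N1 + t → t < Q.length → ¬ p.Wo (Q.take t)

open Classical in
/-- right label, scheme 1 -/
noncomputable def R1 (Q : List α) : Option V := if p.RQ1 Q then p.rho1 Q else none

/-- left-legal, scheme 2 -/
def LP2 (P : List α) (v : V) : Prop := ∃ k < p.K, P.length = p.c k ∧ p.lam2 k P = some v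

/-- `t` is the end of the block for the hypothesis `k` -/
def IsEnd (k : ℕ) (Q : List α) (t : ℕ) : Prop :=
  t ≤ Q.length ∧ p.z ≤ p.c k + t ∧ p.Wo (Q.take t) ∧
    ∀ s, p.z ≤ p.c k + s → s < t → ¬ p.Wo (Q.take s)

/-- the hypothesis `k` is plausible: the block is (E) or (B) bad -/
def BadH (k : ℕ) (Q : List α) : Prop :=
  (∃ t ≤ Q.length, p.z ≤ p.c k + t + p.N1 ∧ p.c k + t < p.z + p.N1 ∧ p.Wo (Q.take t)) ∨
  (∃ t, p.IsEnd k Q t ∧ p.BadT (p.c k + t - p.p0))

/-- right-legality of scheme 2 with hypothesis `k`, end `e`, middle value `y`, final value `b` -/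
def RQ2 (Q : List α) (k e : ℕ) (y b : V) : Prop :=
  k < p.K ∧ p.BadH k Q ∧ (∀ k' < p.K, p.BadH k' Q → k' = k) ∧ p.IsEnd k Q e ∧
    Q.drop e ∈ p.XX ∧ p.rho2 k (Q.take (p.p0 - p.c k)) 1 = some y ∧
    b = p.T (p.act y (pr p.f ((Q.take e).drop (p.p0 - p.c k))) +
      p.nu1 ((Q.take e).drop (p.p0 - p.c k))) (Q.drop e)

open Classical in
/-- right label, scheme 2 -/
noncomputable def R2 (Q : List α) : Option V :=
  if h : ∃ b, ∃ k e y, p.RQ2 Q k e y b then some h.choose else none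

/-- the standing hypotheses -/
structure Ok : Prop where
  act_mul : ∀ v s s', p.act (p.act v s) s' = p.act v (s * s')
  act_add : ∀ v w s, p.act (v + w) s = p.act v s + p.act w s
  loc : ∀ P Q : List α, p.n ≤ Q.length → (p.Wo (P ++ Q) ↔ p.Wo Q)
  gap : ∀ (X : List α) (s t : ℕ), s < t → t ≤ X.length → p.n ≤ s → p.Wo (X.take s) →
    p.Wo (X.take t) → p.W < t - s
  lamlen : ∀ P v, p.lam1 P = some v → P.length ≤ p.N1
  sound1 : ∀ P Q v r, p.lam1 P = some v → p.rho1 Q = some r →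
    r = p.act v (pr p.f (P ++ Q)) + p.nu1 (P ++ Q)
  compl1 : ∀ u : List α, p.N2 ≤ u.length → ¬ p.BadT u.length → ∀ v, ∃ P Q, P ++ Q = u ∧
    p.lam1 P = some v ∧ (p.rho1 Q).isSome
  sound2 : ∀ k < p.K, ∀ (P Q : List α) (y : S) (v b : V), P.length = p.c k →
    p.lam2 k P = some v → p.rho2 k Q y = some b → b = p.act v (pr p.f (P ++ Q) * y) + p.nu2 (P ++ Q) y
  compl2 : ∀ (u : List α) (y : S) (v : V), (∀ k < p.K, p.c k ≤ u.length) →
    ∃ I : Finset ℕ, 2 * p.R + 2 ≤ I.card ∧ ∀ k ∈ I, k < p.K ∧ p.lam2 k (u.take (p.c k)) = some v ∧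
      (p.rho2 k (u.drop (p.c k)) y).isSome
  /-- the ruler is Golomb at resolution `2 * N1` -/
  ruler : ∀ a b c d, a < p.K → b < p.K → c < p.K → d < p.K → a ≠ b → c ≠ d →
    p.c a + p.c d ≤ p.c b + p.c c + 2 * p.N1 → p.c b + p.c c ≤ p.c a + p.c d + 2 * p.N1 → a = c
  /-- spoiled places for the thin set `BadT` -/
  spoil : ∀ T, p.Lam ≤ T → ∃ J : Finset ℕ, J.card ≤ p.R ∧
    ∀ k < p.K, ∀ k' < p.K, k' ≠ k → p.BadT (T + p.c k' - p.c k) → k ∈ J
  cle : ∀ k < p.K, p.c k ≤ p.Lam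
  hp0 : p.Lam ≤ p.p0
  hz : p.p0 + p.N1 + 2 * p.Lam + p.n + 1 ≤ p.z
  hz2 : p.p0 + p.N2 ≤ p.z
  hW : 2 * p.N1 + 2 * p.Lam ≤ p.W

end Par

end Crest.Agent.R320.Inst_466
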