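import Crest.Agent.R320.Top5_467
import Crest.Agent.R320.Reg_852
import Crest.Agent.R320.FewVal_228
import Crest.Agent.R320.ExactR_237

/-!
# Row 320: instantiation of the block form, part 1 (helper100): left-looking walls, regularity
-/

set_option autoImplicit false

namespace Crest.Agent.R320.Inst_100

open Crest.RegLang Crest.Agent.R320.Hk_851 Crest.Agent.R320.Blk467 Crest.Agent.R320.FewWalls_228

variable {α : Type}

theorem reg_congr {L M : Language α} (h : M.IsRegular) (e : ∀ w, w ∈ L ↔ w ∈ M) : L.IsRegular := by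
  have : L = M := by ext w; exact e w
  rw [this]; exact h

theorem reg_union {ι : Type*} {s : Set ι} (hs : s.Finite) {L : ι → Language α}
    (h : ∀ i ∈ s, (L i).IsRegular) :
    Language.IsRegular ({w | ∃ i ∈ s, w ∈ L i} : Language α) := by
  induction s, hs using Set.Finite.induction_on with
  | empty =>
    refine reg_congr Reg_852.isRegular_zero fun w => ?_
    constructor
    · intro hw
      obtain ⟨i, hi, _⟩ := (show ∃ i ∈ (∅ : Set ι), w ∈ L i from hw)
      exact hi.elim
    · intro hw; exact hw.elim
  | @insert a s _ _ ih =>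
    refine reg_congr ((h _ (Set.mem_insert _ _)).add
      (ih fun i hi => h i (Set.mem_insert_of_mem _ hi))) fun w => ?_
    constructor
    · intro hw
      obtain ⟨i, hi | hi, hw⟩ := (show ∃ i ∈ insert a s, w ∈ L i from hw)
      · left; rw [← hi]; exact hw
      · right; exact ⟨i, hi, hw⟩
    · rintro (hw | ⟨i, hi, hw⟩)
      · exact ⟨_, Or.inl rfl, hw⟩
      · exact ⟨i, Or.inr hi, hw⟩

theorem reg_word (w : List α) : Language.IsRegular ({w} : Language α) :=
  Reg_852.HL.isRegular (HL.word (k := 0) w)

/-- conditions on the rest, depending on the first `k` letters -/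
theorem reg_pre [Finite α] (k : ℕ) (R : List α → Language α) (h : ∀ u, (R u).IsRegular) :
    Language.IsRegular ({X | k ≤ X.length ∧ X.drop k ∈ R (X.take k)} : Language α) := by
  refine reg_congr (reg_union (List.finite_length_eq α k)
    (L := fun u => ({u} : Language α) * R u)
    (fun u _ => Reg_852.IsRegular.mul (reg_word u) (h u))) fun w => ?_
  constructor
  · rintro ⟨h1, h2⟩
    refine ⟨w.take k, by simp [h1], ?_⟩
    exact Language.mem_mul.2 ⟨w.take k, rfl, w.drop k, h2, List.take_append_drop _ _⟩
  · rintro ⟨u, hu, hw⟩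
    obtain ⟨x, hx, y, hy, rfl⟩ := Language.mem_mul.1 hw
    have hx' : x = u := hx
    subst hx'
    have hu' : x.length = k := hu
    refine ⟨by simp [hu'], ?_⟩
    rw [← hu', List.drop_left, List.take_left]
    exact hy

/-- periodic length conditions -/
theorem reg_per (p : ℕ → Prop) (Mo : ℕ) (hM : 0 < Mo) (hp : ∀ t, p (t + Mo) ↔ p t) :
    Language.IsRegular ({Y | p Y.length} : Language α) := by
  have hmul : ∀ q t, p (t + Mo * q) ↔ p t := by
    intro q
    induction q with
    | zero => intro t; simp
    | succ q ih =>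
      intro t
      rw [Nat.mul_succ, ← Nat.add_assoc, hp, ih]
  refine Reg_852.isRegular_of_forall_mem
    (T := (fun r : ℕ => ({x : List α | p (r + x.length)} : Language α)) '' Set.Iio Mo)
    ((Set.finite_Iio Mo).image _) ?_
  intro w
  refine ⟨w.length % Mo, Nat.mod_lt _ hM, ?_⟩
  ext x
  change p (w.length % Mo + x.length) ↔ p ((w ++ x).length)
  rw [List.length_append]
  conv_rhs => rw [← Nat.mod_add_div w.length Mo]
  rw [show w.length % Mo + Mo * (w.length / Mo) + x.length =
    (w.length % Mo + x.length) + Mo * (w.length / Mo) by omega, hmul]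

theorem reg_len_ge [Finite α] (m : ℕ) :
    Language.IsRegular ({Y : List α | m ≤ Y.length} : Language α) :=
  Reg_852.HL.isRegular (HL.length_ge (k := 0) m)

theorem reg_val {M : Type} [Monoid M] [Finite M] (φ : α → M) (s : M) :
    Language.IsRegular ({w | (w.map φ).prod = s} : Language α) := Reg_852.isRegular_prod φ s

/-- left-looking walls -/
structure Walls (α : Type) (W : ℕ) where
  n : ℕ
  E : List α → Prop
  len : ∀ X, E X → n ≤ X.length
  app : ∀ P Q : List α, n ≤ Q.length → (E (P ++ Q) ↔ E Q)
  sep : ∀ (X : List α) (s t : ℕ), s < t → t ≤ X.length → E (X.take s) → E (X.take t) → s + W ≤ t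
  hE : HL 0 ({X | E X} : Language α)
  few : ∀ (L : Language α), L.IsRegular → ∀ m : ℕ,
    (∀ X ∈ L, ∀ t, m ≤ t → t < X.length → ¬ E (X.take t)) → HL 1 L

theorem exists_walls (α : Type) [Finite α] (W : ℕ) (hW : 1 ≤ W) : Nonempty (Walls α W) := by
  classical
  obtain ⟨n, c, P, S, hn, hP, hS, hsep, hper, hfew⟩ := FewVal_228.exists_walls α W hW
  have key : ∀ (X : List α) (t : ℕ), n ≤ t → t ≤ X.length →
      ((X.take t).drop ((X.take t).length - n) ∈ S ↔ Wl n S X (t - n)) := by
    intro X t h1 h2
    unfold Wl
    rw [List.length_take, Nat.min_eq_left h2, List.drop_take]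
    have : t - (t - n) = n := by omega
    rw [this]
    constructor
    · intro h; exact ⟨by omega, h⟩
    · intro h; exact h.2
  refine ⟨⟨n, fun X => n ≤ X.length ∧ X.drop (X.length - n) ∈ S, fun X h => h.1, ?_, ?_, ?_, ?_⟩⟩
  · intro P Q hQ
    have e : (P ++ Q).drop ((P ++ Q).length - n) = Q.drop (Q.length - n) := by
      rw [List.length_append, show P.length + Q.length - n = P.length + (Q.length - n) by omega,
        List.drop_append]
      simp
    constructor
    · rintro ⟨_, h⟩; rw [e] at h; exact ⟨hQ, h⟩
    · rintro ⟨_, h⟩; exact ⟨by rw [List.length_append]; omega, by rw [e]; exact h⟩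
  · intro X s t hst ht hs ht'
    have hs1 : n ≤ s := by have := hs.1; rw [List.length_take] at this; omega
    have a1 := (key X s hs1 (by omega)).1 hs.2
    have a2 := (key X t (by omega) ht).1 ht'.2
    have := hsep X (s - n) (t - n) (by omega) a1 a2
    omega
  · have hSf : S.Finite := (List.finite_length_eq α n).subset fun s hs => hS s hs
    refine (HL.suffix (k := 0) (HL.finite hSf)).congr fun w => ?_
    constructor
    · rintro ⟨h1, h2⟩
      exact ⟨_, h2, List.drop_suffix _ _⟩
    · rintro ⟨v, hv, x, rfl⟩
      have hl : v.length = n := hS v hv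
      refine ⟨by rw [List.length_append]; omega, ?_⟩
      rw [List.length_append, hl, Nat.add_sub_cancel, List.drop_left]
      exact hv
  · intro L hL m hm
    refine (hfew L hL (m + 1)).congr fun w => ?_
    constructor
    · intro hw
      refine ⟨hw, ?_⟩
      have hsub : ((Finset.range (w.length + 1)).filter (fun x => Wl n S w x)) ⊆
          Finset.range m ∪ {w.length - n} := by
        intro x hx
        rw [Finset.mem_filter] at hx
        obtain ⟨_, hx⟩ := hx
        rw [Finset.mem_union, Finset.mem_range, Finset.mem_singleton]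
        by_contra hcon
        push Not at hcon
        have h1 := hx.1
        refine hm w hw (x + n) (by omega) (by omega) ?_
        have h2 := (key w (x + n) (by omega) h1).2 (by rw [Nat.add_sub_cancel]; exact hx)
        exact ⟨by rw [List.length_take]; omega, h2⟩
      calc nw n S w = _ := rfl
        _ ≤ (Finset.range m ∪ {w.length - n}).card := Finset.card_le_card (by
            convert hsub)
        _ ≤ (Finset.range m).card + ({w.length - n} : Finset ℕ).card := Finset.card_union_le _ _
        _ = m + 1 := by simp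
    · rintro ⟨hw, _⟩; exact hw

namespace Walls

variable {W : ℕ} (w : Walls α W)

/-- first wall at a place `≥ m` -/
def F (m : ℕ) : Language α :=
  {Y | w.E Y ∧ m ≤ Y.length ∧ ∀ t, m ≤ t → t < Y.length → ¬ w.E (Y.take t)}

theorem F_reg [Finite α] (m : ℕ) : (w.F m).IsRegular := by
  have h1 : HL 0 ({Y | w.E Y ∧ m ≤ Y.length} : Language α) := w.hE.setOf_and (HL.length_ge m)
  have h2 := HL.mul h1 (HL.length_ge (α := α) (k := 0) 1)
  refine Reg_852.HL.isRegular (k := 0) ((HL.inf h1 h2.compl).congr fun Y => ?_)
  constructor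
  · rintro ⟨a, b, c⟩
    refine ⟨⟨a, b⟩, fun hm => ?_⟩
    obtain ⟨p, ⟨hp1, hp2⟩, q, hq, rfl⟩ := Language.mem_mul.1 hm
    have hq' : 1 ≤ q.length := hq
    refine c p.length hp2 (by rw [List.length_append]; omega) ?_
    rw [List.take_left]; exact hp1
  · rintro ⟨⟨a, b⟩, c⟩
    refine ⟨a, b, fun t h1 h2 h3 => c ?_⟩
    refine Language.mem_mul.2 ⟨Y.take t, ⟨h3, ?_⟩, Y.drop t, ?_, List.take_append_drop _ _⟩
    · rw [List.length_take]; omega
    · show 1 ≤ (Y.drop t).length
      rw [List.length_drop]; omega

theorem F_HL [Finite α] (m : ℕ) {L : Language α} (hL : L.IsRegular) :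
    HL 1 ({Y | Y ∈ w.F m ∧ Y ∈ L} : Language α) :=
  w.few _ ((w.F_reg m).inf hL) m fun _ hX t h1 h2 => hX.1.2.2 t h1 h2

theorem F_uniq {m : ℕ} {Y Y' Z : List α} (h : Y ∈ w.F m) (h' : Y' ∈ w.F m) (hp : Y <+: Z)
    (hp' : Y' <+: Z) : Y = Y' := by
  have aux : ∀ {A B : List α}, A ∈ w.F m → B ∈ w.F m → A <+: B → A = B := by
    intro A B hA hB hAB
    by_contra hne
    have hl : A.length < B.length := by
      rcases Nat.lt_or_ge A.length B.length with h | h
      · exact h
      · exact absurd (hAB.eq_of_length_le h) hne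
    refine hB.2.2 A.length hA.2.1 hl ?_
    rw [← List.prefix_iff_eq_take.1 hAB]
    exact hA.1
  rcases List.prefix_or_prefix_of_prefix hp hp' with h1 | h1
  · exact aux h h' h1
  · exact (aux h' h h1).symm

theorem E_shift (P Q : List α) {s : ℕ} (hs : w.n ≤ s) (hsQ : s ≤ Q.length) :
    w.E ((P ++ Q).take (P.length + s)) ↔ w.E (Q.take s) := by
  rw [List.take_append, List.take_of_length_le (by omega), Nat.add_sub_cancel_left]
  exact w.app _ _ (by rw [List.length_take]; omega)

theorem F_shift {m : ℕ} {P Q : List α} (h : w.n + P.length ≤ m) :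
    P ++ Q ∈ w.F m ↔ Q ∈ w.F (m - P.length) := by
  constructor
  · rintro ⟨a, b, c⟩
    rw [List.length_append] at b
    refine ⟨(w.app P Q (by omega)).1 a, by omega, fun t h1 h2 h3 => ?_⟩
    refine c (P.length + t) (by omega) (by rw [List.length_append]; omega) ?_
    exact (w.E_shift P Q (by omega) (by omega)).2 h3
  · rintro ⟨a, b, c⟩
    refine ⟨(w.app P Q (by omega)).2 a, by rw [List.length_append]; omega, fun t h1 h2 h3 => ?_⟩
    rw [List.length_append] at h2
    refine c (t - P.length) (by omega) (by omega) ?_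
    refine (w.E_shift P Q (by omega) (by omega)).1 ?_
    rwa [show P.length + (t - P.length) = t by omega]

end Walls

end Crest.Agent.R320.Inst_100
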