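import Crest.Agent.R320.SemTop_727
import Crest.Agent.R320.ExactR_237

set_option autoImplicit false

/-!
Row 320: the geometric instance of 727's semantic top from abstract data (helper173):
natural chain rule, left-looking walls, scheme 1 = any wall-free gadget, scheme 2 = exact gadget
on a spaced ruler.
-/

namespace Crest.Agent.R320.Inst_173

open Crest.RegLang Crest.Agent.R320.Hk_851 Crest.Agent.R320.Blk467 Crest.Agent.R320.SemTop_727

def pr {A S : Type*} [Monoid S] (φ : A → S) (u : List A) : S := (u.map φ).prod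

theorem pr_append {A S : Type*} [Monoid S] (φ : A → S) (u v : List A) :
    pr φ (u ++ v) = pr φ u * pr φ v := by
  unfold pr
  rw [List.map_append, List.prod_append]

structure Geo (A S V : Type*) [Monoid S] [AddCommGroup V] where
  φ : A → S
  act : V → S → V
  n : ℕ
  z : ℕ
  p0 : ℕ
  N : ℕ
  K : ℕ
  W : ℕ
  R : ℕ
  C0 : ℕ
  Wo : List A → Prop
  x : ℕ → ℕ
  BadT : ℕ → Prop
  lam1 : List A → Option V
  rho1 : List A → Option V
  nu1 : List A → V
  lam2 : ℕ → List A → Option V
  rho2 : ℕ → List A → Option V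
  nu2 : List A → V
  loc : ∀ P Q : List A, n ≤ Q.length → (Wo (P ++ Q) ↔ Wo Q)
  sep : ∀ (P : List A) (d : ℕ), Wo P → 0 < d → d ≤ W → ¬ Wo (P.take (P.length - d))
  hz : 3 * p0 + 3 * N + n + 1 ≤ z
  hW : 2 * p0 + 2 * N + 2 ≤ W
  hx : ∀ k, k < K → x k < p0
  len1 : ∀ P v, lam1 P = some v → P.length ≤ N
  snd1 : ∀ P Q v r, lam1 P = some v → rho1 Q = some r → r = act v (pr φ (P ++ Q)) + nu1 (P ++ Q)
  cpl1 : ∀ u : List A, 2 * N ≤ u.length → ¬ BadT u.length → ∀ v, ∃ P Q, P ++ Q = u ∧
    lam1 P = some v ∧ (rho1 Q).isSome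
  snd2 : ∀ k, k < K → ∀ P Q v b, P.length = x k → lam2 k P = some v → rho2 k Q = some b →
    b = act v (pr φ (P ++ Q)) + nu2 (P ++ Q)
  cpl2 : ∀ (u : List A) (v : V), (∀ k < K, x k ≤ u.length) → ∃ I : Finset ℕ, R ≤ I.card ∧
    ∀ k ∈ I, k < K ∧ lam2 k (u.take (x k)) = some v ∧ (rho2 k (u.drop (x k))).isSome
  spaced : ∀ i j k l, i < K → j < K → k < K → l < K → i ≠ j → k ≠ l →
    |((x i : ℤ) - x j) - ((x k : ℤ) - x l)| ≤ 2 * N → i = k ∧ j = l
  count : ∀ (T : ℤ) (I : Finset (ℕ × ℕ)), (∀ p ∈ I, p.1 < K ∧ p.2 < K ∧ p.1 ≠ p.2 ∧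
    ∃ t : ℕ, (t : ℤ) = T + x p.1 - x p.2 ∧ BadT t) → I.card ≤ C0
  hR : 1 + 2 * C0 < R

namespace Geo

variable {A S V : Type*} [Monoid S] [AddCommGroup V] (G : Geo A S V)

def XX : Set (List A) :=
  {X | G.z ≤ X.length ∧ G.Wo X ∧ ∀ t, G.z ≤ t → t < X.length → ¬ G.Wo (X.take t)}

def T (v : V) (X : List A) : V :=
  G.act (G.act v (pr G.φ (X.take G.p0)) + G.nu2 (X.take G.p0)) (pr G.φ (X.drop G.p0)) +
    G.nu1 (X.drop G.p0)

def L1 (v : V) : Set (List A) :=
  {P | G.p0 ≤ P.length ∧
    G.lam1 (P.drop G.p0) = some (G.act v (pr G.φ (P.take G.p0)) + G.nu2 (P.take G.p0))}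

def L2 (v : V) : Set (List A) := {P | ∃ k, k < G.K ∧ P.length = G.x k ∧ G.lam2 k P = some v}

def D : Sch A V := ⟨G.XX, G.T, G.L1, G.L2⟩

theorem take_shift (P Q : List A) (t : ℕ) : (P ++ Q).take (P.length + t) = P ++ Q.take t := by
  rw [List.take_append, List.take_of_length_le (by omega)]
  congr 2
  omega

theorem wo_shift (P Q : List A) (t : ℕ) (h1 : G.n ≤ t) (h2 : t ≤ Q.length) :
    G.Wo ((P ++ Q).take (P.length + t)) ↔ G.Wo (Q.take t) := by
  rw [take_shift]
  exact G.loc P (Q.take t) (by rw [List.length_take]; omega)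

theorem gap {w : List A} {s t : ℕ} (hst : s < t) (ht : t ≤ w.length) (h1 : G.Wo (w.take s))
    (h2 : G.Wo (w.take t)) : G.W < t - s := by
  by_contra h
  have h3 := G.sep (w.take t) (t - s) h2 (by omega) (by omega)
  apply h3
  have hl : (w.take t).length = t := by rw [List.length_take]; omega
  rw [hl, List.take_take]
  have : min (t - (t - s)) t = s := by omega
  rw [this]
  exact h1

theorem pcode : PCode G.XX := by
  constructor
  · intro h
    have h1 := h.1
    have h2 := G.hz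
    simp at h1
    omega
  · intro X hX Y hY h
    have hl : X.length ≤ Y.length := h.length_le
    rcases Nat.lt_or_ge X.length Y.length with h1 | h1
    · exfalso
      apply hY.2.2 X.length hX.1 h1
      rw [← List.prefix_iff_eq_take.1 h]
      exact hX.2.1
    · exact h.eq_of_length (by omega)

theorem val1 {P Q : List A} {v r : V} (hP : P ∈ G.L1 v) (hr : G.rho1 Q = some r) :
    G.T v (P ++ Q) = r := by
  unfold T
  rw [List.take_append_of_le_length hP.1, List.drop_append_of_le_length hP.1]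
  exact (G.snd1 _ _ _ _ hP.2 hr).symm

theorem L1_len {P : List A} {v : V} (hP : P ∈ G.L1 v) : P.length ≤ G.p0 + G.N := by
  have h := G.len1 _ _ hP.2
  rw [List.length_drop] at h
  omega

theorem xx_swap {P P' Q : List A} (hX : P ++ Q ∈ G.XX) (h1 : G.p0 ≤ P.length)
    (h1' : P.length ≤ G.p0 + G.N) (h2 : G.p0 ≤ P'.length) (h2' : P'.length ≤ G.p0 + G.N)
    (h3 : ∀ t, G.z - G.N ≤ t → t < G.z → ¬ G.Wo ((P ++ Q).take t))
    (h4 : G.z + G.N ≤ (P ++ Q).length) : P' ++ Q ∈ G.XX := by
  have hz := G.hz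
  rw [List.length_append] at h4
  refine ⟨by rw [List.length_append]; omega, ?_, ?_⟩
  · rw [G.loc _ _ (by omega), ← G.loc P Q (by omega)]
    exact hX.2.1
  · intro t ht1 ht2 hw
    rw [List.length_append] at ht2
    have e1 : t = P'.length + (t - P'.length) := by omega
    rw [e1, G.wo_shift _ _ _ (by omega) (by omega), ← G.wo_shift P Q _ (by omega) (by omega)] at hw
    rcases Nat.lt_or_ge (P.length + (t - P'.length)) G.z with h5 | h5
    · exact h3 _ (by omega) h5 hw
    · exact hX.2.2 _ h5 (by rw [List.length_append]; omega) hw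

theorem good_of {X : List A} (hX : X ∈ G.XX)
    (h1 : ∀ t, G.z - G.N ≤ t → t < G.z → ¬ G.Wo (X.take t))
    (h2 : G.z + G.N ≤ X.length) (h3 : ¬ G.BadT (X.length - G.p0)) : X ∈ G.D.Good := by
  have hz := G.hz
  refine ⟨hX, fun v => ?_⟩
  have hP0 : (X.take G.p0).length = G.p0 := by rw [List.length_take]; omega
  obtain ⟨P', Q, hPQ, hlam, hrho⟩ := G.cpl1 (X.drop G.p0) (by rw [List.length_drop]; omega)
    (by rw [List.length_drop]; exact h3)
    (G.act v (pr G.φ (X.take G.p0)) + G.nu2 (X.take G.p0))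
  obtain ⟨r, hr⟩ := Option.isSome_iff_exists.1 hrho
  have hlen := G.len1 _ _ hlam
  have hP : X.take G.p0 ++ P' ∈ G.L1 v := by
    refine ⟨by rw [List.length_append]; omega, ?_⟩
    rw [List.drop_left' hP0, List.take_left' hP0]
    exact hlam
  have hXe : (X.take G.p0 ++ P') ++ Q = X := by
    rw [List.append_assoc, hPQ, List.take_append_drop]
  refine ⟨X.take G.p0 ++ P', hP, Q, ?_, hXe⟩
  intro x'' P'' hP''
  have hT : G.T v X = r := by
    rw [← hXe]
    exact G.val1 hP hr
  have hT'' : G.T x'' (P'' ++ Q) = r := G.val1 hP'' hr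
  refine ⟨?_, ?_⟩
  · apply G.xx_swap (P := X.take G.p0 ++ P') (P' := P'')
    · rw [hXe]; exact hX
    · exact hP.1
    · exact G.L1_len hP
    · exact hP''.1
    · exact G.L1_len hP''
    · rw [hXe]; exact h1
    · rw [hXe]; exact h2
  · show G.T x'' (P'' ++ Q) = G.T v X
    rw [hT, hT'']

/-! ### scheme 2 -/

/-- first wall at a place `≥ y` -/
def FW (w : List A) (y t : ℕ) : Prop :=
  y ≤ t ∧ t ≤ w.length ∧ G.Wo (w.take t) ∧ ∀ s, y ≤ s → s < t → ¬ G.Wo (w.take s)

theorem FW.unique {w : List A} {y t t' : ℕ} (h : G.FW w y t) (h' : G.FW w y t') : t = t' := by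
  rcases lt_trichotomy t t' with h1 | h1 | h1
  · exact absurd h.2.2.1 (h'.2.2.2 t h.1 h1)
  · exact h1
  · exact absurd h'.2.2.1 (h.2.2.2 t' h'.1 h1)

theorem FW.exists {w : List A} {y t : ℕ} (h1 : y ≤ t) (h2 : t ≤ w.length) (h3 : G.Wo (w.take t)) :
    ∃ t', G.FW w y t' := by
  classical
  have hex : ∃ t, y ≤ t ∧ t ≤ w.length ∧ G.Wo (w.take t) := ⟨t, h1, h2, h3⟩
  obtain ⟨a, b, c⟩ := Nat.find_spec hex
  refine ⟨Nat.find hex, a, b, c, fun s hs1 hs2 hs3 => ?_⟩
  exact Nat.find_min hex hs2 ⟨hs1, by omega, hs3⟩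

def EB (w : List A) (k k' : ℕ) : Prop :=
  ∃ t, t ≤ w.length ∧ G.Wo (w.take t) ∧ G.z + G.x k ≤ t + G.x k' + G.N ∧
    t + G.x k' < G.z + G.x k + G.N

def BB (w : List A) (k k' : ℕ) : Prop :=
  ∃ t, G.FW w (G.z + G.x k - G.x k') t ∧ G.BadT (t + G.x k' - G.x k - G.p0)

theorem unspoiled {w P : List A} {k k' : ℕ} (hk : k < G.K) (hk' : k' < G.K)
    (hw : G.Wo w) (hlen : G.z + G.p0 ≤ w.length) (hE : ¬ G.EB w k k') (hB : ¬ G.BB w k k')
    (hP : P.length = G.x k') : ∃ X ∈ G.D.Good, X <+: P ++ w.drop (G.x k) := by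
  have hz := G.hz
  have hxk := G.hx k hk
  have hxk' := G.hx k' hk'
  set Q := w.drop (G.x k) with hQ
  have hQl : Q.length = w.length - G.x k := by rw [hQ, List.length_drop]
  have hwe : w.take (G.x k) ++ Q = w := List.take_append_drop _ _
  have hwl : (w.take (G.x k)).length = G.x k := by rw [List.length_take]; omega
  have tr : ∀ s, G.n ≤ s → s ≤ Q.length →
      (G.Wo ((P ++ Q).take (G.x k' + s)) ↔ G.Wo (w.take (G.x k + s))) := by
    intro s h1 h2
    have e1 := G.wo_shift P Q s h1 h2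
    have e2 := G.wo_shift (w.take (G.x k)) Q s h1 h2
    rw [hP] at e1
    rw [hwl, hwe] at e2
    rw [e1, e2]
  have hend : G.Wo ((P ++ Q).take (P ++ Q).length) := by
    rw [List.take_length]
    rw [G.loc _ _ (by omega), ← G.loc (w.take (G.x k)) Q (by omega), hwe]
    exact hw
  have hlen' : (P ++ Q).length = G.x k' + Q.length := by rw [List.length_append, hP]
  obtain ⟨t, ht⟩ := FW.exists G (w := P ++ Q) (y := G.z) (t := (P ++ Q).length)
    (by omega) le_rfl hend
  have htl : ((P ++ Q).take t).length = t := by rw [List.length_take]; have := ht.2.1; omega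
  have htake : ∀ s, s ≤ t → ((P ++ Q).take t).take s = (P ++ Q).take s := by
    intro s hs
    rw [List.take_take]
    congr 1
    omega
  have hXX : (P ++ Q).take t ∈ G.XX := by
    refine ⟨by rw [htl]; exact ht.1, ht.2.2.1, fun s hs1 hs2 => ?_⟩
    rw [htl] at hs2
    rw [htake s hs2.le]
    exact ht.2.2.2 s hs1 hs2
  have htQ : t ≤ G.x k' + Q.length := by have := ht.2.1; omega
  have ht1 := ht.1
  refine ⟨(P ++ Q).take t, G.good_of hXX ?_ ?_ ?_, List.take_prefix _ _⟩
  · intro s hs1 hs2 hs3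
    rw [htake s (by omega)] at hs3
    have e : s = G.x k' + (s - G.x k') := by omega
    rw [e, tr _ (by omega) (by omega)] at hs3
    exact hE ⟨G.x k + (s - G.x k'), by omega, hs3, by omega, by omega⟩
  · rw [htl]
    by_contra hlt
    have hs3 := ht.2.2.1
    have e : t = G.x k' + (t - G.x k') := by omega
    rw [e, tr _ (by omega) (by omega)] at hs3
    exact hE ⟨G.x k + (t - G.x k'), by omega, hs3, by omega, by omega⟩
  · rw [htl]
    intro hbad
    have hs3 := ht.2.2.1
    have e : t = G.x k' + (t - G.x k') := by omega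
    rw [e, tr _ (by omega) (by omega)] at hs3
    refine hB ⟨G.x k + (t - G.x k'), ⟨by omega, by omega, hs3, ?_⟩, ?_⟩
    · intro s hs1 hs2 hs4
      have e2 : s = G.x k + (s - G.x k) := by omega
      rw [e2, ← tr _ (by omega) (by omega)] at hs4
      exact ht.2.2.2 (G.x k' + (s - G.x k)) (by omega) (by omega) hs4
    · have e3 : G.x k + (t - G.x k') + G.x k' - G.x k - G.p0 = t - G.p0 := by omega
      rw [e3]
      exact hbad

open Classical in
theorem card_JJ (t : ℕ) :
    ((Finset.range G.K).filter (fun k => ∃ k', k' < G.K ∧ k' ≠ k ∧ G.p0 + G.x k ≤ t + G.x k' ∧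
      G.BadT (t + G.x k' - G.x k - G.p0))).card ≤ G.C0 := by
  classical
  set J := (Finset.range G.K).filter (fun k => ∃ k', k' < G.K ∧ k' ≠ k ∧
    G.p0 + G.x k ≤ t + G.x k' ∧ G.BadT (t + G.x k' - G.x k - G.p0)) with hJ
  have hg : ∀ k : ℕ, ∃ k', k ∈ J → (k' < G.K ∧ k' ≠ k ∧ G.p0 + G.x k ≤ t + G.x k' ∧
      G.BadT (t + G.x k' - G.x k - G.p0)) := by
    intro k
    by_cases h : k ∈ J
    · obtain ⟨k', hk'⟩ := (Finset.mem_filter.1 h).2
      exact ⟨k', fun _ => hk'⟩
    · exact ⟨0, fun h' => absurd h' h⟩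
  choose g hg using hg
  have hinj : Function.Injective (fun k : ℕ => (g k, k)) := fun a b h => (Prod.ext_iff.1 h).2
  rw [← Finset.card_image_of_injective J hinj]
  apply G.count ((t : ℤ) - G.p0)
  intro p hp
  obtain ⟨k, hk, rfl⟩ := Finset.mem_image.1 hp
  obtain ⟨h1, h2, h3, h4⟩ := hg k hk
  refine ⟨h1, Finset.mem_range.1 (Finset.mem_filter.1 hk).1, h2,
    t + G.x (g k) - G.x k - G.p0, ?_, h4⟩
  show ((t + G.x (g k) - G.x k - G.p0 : ℕ) : ℤ) = (t : ℤ) - G.p0 + G.x (g k) - G.x k
  omega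

open Classical in
theorem card_spoiled {w : List A} (hw : G.Wo w) (hlen : G.z + G.p0 ≤ w.length) :
    ((Finset.range G.K).filter (fun k => ∃ k', k' < G.K ∧ k' ≠ k ∧
      (G.EB w k k' ∨ G.BB w k k'))).card ≤ 1 + 2 * G.C0 := by
  classical
  have hz := G.hz
  have hW := G.hW
  obtain ⟨t1, ht1⟩ := FW.exists G (w := w) (y := G.z - G.p0) (t := w.length) (by omega) le_rfl
    (by rw [List.take_length]; exact hw)
  obtain ⟨t2, ht2⟩ : ∃ t2, ∀ t, G.FW w (t1 + 1) t → t = t2 := by
    by_cases h : ∃ t, G.FW w (t1 + 1) t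
    · obtain ⟨t2, ht2⟩ := h
      exact ⟨t2, fun t ht => FW.unique G ht ht2⟩
    · exact ⟨0, fun t ht => absurd ⟨t, ht⟩ h⟩
  let J : ℕ → Finset ℕ := fun t => (Finset.range G.K).filter (fun k => ∃ k', k' < G.K ∧ k' ≠ k ∧
    G.p0 + G.x k ≤ t + G.x k' ∧ G.BadT (t + G.x k' - G.x k - G.p0))
  let JE : Finset ℕ := (Finset.range G.K).filter (fun k => ∃ k', k' < G.K ∧ k' ≠ k ∧ G.EB w k k')
  have hJE : JE.card ≤ 1 := by
    rw [Finset.card_le_one]
    intro a ha b hb
    simp only [JE, Finset.mem_filter, Finset.mem_range] at ha hb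
    obtain ⟨haK, a', ha'K, hna, t, h1, h2, h3, h4⟩ := ha
    obtain ⟨hbK, b', hb'K, hnb, s, g1, g2, g3, g4⟩ := hb
    have q1 := G.hx a haK
    have q2 := G.hx a' ha'K
    have q3 := G.hx b hbK
    have q4 := G.hx b' hb'K
    have hts : t = s := by
      rcases lt_trichotomy t s with h | h | h
      · have := G.gap h g1 h2 g2; omega
      · exact h
      · have := G.gap h h1 g2 h2; omega
    subst hts
    refine (G.spaced a a' b b' haK ha'K hbK hb'K hna.symm hnb.symm ?_).1
    rw [abs_le]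
    constructor <;> omega
  have hsub : ((Finset.range G.K).filter (fun k => ∃ k', k' < G.K ∧ k' ≠ k ∧
      (G.EB w k k' ∨ G.BB w k k'))) ⊆ JE ∪ (J t1 ∪ J t2) := by
    intro k hk
    rw [Finset.mem_filter, Finset.mem_range] at hk
    obtain ⟨hkK, k', hk'K, hne, h⟩ := hk
    have q1 := G.hx k hkK
    have q2 := G.hx k' hk'K
    rcases h with h | ⟨t, ht, hbad⟩
    · refine Finset.mem_union_left _ ?_
      simp only [JE, Finset.mem_filter, Finset.mem_range]
      exact ⟨hkK, k', hk'K, hne, h⟩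
    · refine Finset.mem_union_right _ ?_
      have hmem : k ∈ J t := by
        simp only [J, Finset.mem_filter, Finset.mem_range]
        exact ⟨hkK, k', hk'K, hne, by have := ht.1; omega, hbad⟩
      have hge : t1 ≤ t := by
        by_contra hlt
        exact ht1.2.2.2 t (by have := ht.1; omega) (by omega) ht.2.2.1
      rcases Nat.eq_or_lt_of_le hge with he | hlt
      · subst he
        exact Finset.mem_union_left _ hmem
      · have : t = t2 := by
          apply ht2
          refine ⟨hlt, ht.2.1, ht.2.2.1, fun s hs1 hs2 hs3 => ?_⟩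
          have hs4 : s < G.z + G.x k - G.x k' := by
            by_contra hh
            exact ht.2.2.2 s (by omega) hs2 hs3
          have := G.gap (show t1 < s by omega) (by have := ht.2.1; omega) ht1.2.2.1 hs3
          have := ht1.1
          omega
        subst this
        exact Finset.mem_union_right _ hmem
  refine (Finset.card_le_card hsub).trans ?_
  refine (Finset.card_union_le _ _).trans ?_
  have h1 := Finset.card_union_le (J t1) (J t2)
  have h2 := G.card_JJ t1
  have h3 := G.card_JJ t2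
  have h4 : (J t1).card ≤ G.C0 := h2
  have h5 : (J t2).card ≤ G.C0 := h3
  omega

theorem hC2 (X1 : List A) (hX1 : X1 ∈ G.D.Bad) (X2 : List A) (hX2 : X2 ∈ G.D.Bad) (v : V) :
    ∃ P ∈ G.D.L2 v, ∃ Q ∈ G.D.R2 (G.D.T (G.D.T v X1) X2), P ++ Q = X1 ++ X2 := by
  classical
  have hz := G.hz
  have hb1 : X1 ∈ G.XX := hX1.1
  have hb2 : X2 ∈ G.XX := hX2.1
  have l1 := hb1.1
  have l2 := hb2.1
  have hw : G.Wo (X1 ++ X2) := (G.loc X1 X2 (by omega)).2 hb2.2.1
  have hlen : G.z + G.p0 ≤ (X1 ++ X2).length := by rw [List.length_append]; omega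
  have hp0 : (X1.take G.p0).length = G.p0 := by rw [List.length_take]; omega
  obtain ⟨I, hI, hI2⟩ := G.cpl2 (X1.take G.p0) v (fun k hk => by
    rw [hp0]; exact (G.hx k hk).le)
  have hJ := G.card_spoiled hw hlen
  set J := (Finset.range G.K).filter (fun k => ∃ k', k' < G.K ∧ k' ≠ k ∧
      (G.EB (X1 ++ X2) k k' ∨ G.BB (X1 ++ X2) k k')) with hJd
  obtain ⟨k, hkI, hkJ⟩ : ∃ k ∈ I, k ∉ J := by
    by_contra h
    push Not at h
    have h1 : I.card ≤ J.card := Finset.card_le_card h
    have h2 := G.hR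
    omega
  obtain ⟨hkK, hlam, hrho⟩ := hI2 k hkI
  obtain ⟨b, hb⟩ := Option.isSome_iff_exists.1 hrho
  have hxk := G.hx k hkK
  have htt : (X1.take G.p0).take (G.x k) = X1.take (G.x k) := by
    rw [List.take_take]; congr 1; omega
  rw [htt] at hlam
  have hPl : (X1.take (G.x k)).length = G.x k := by rw [List.length_take]; omega
  refine ⟨X1.take (G.x k), ⟨k, hkK, hPl, hlam⟩, X1.drop (G.x k) ++ X2, ?_, ?_⟩
  swap
  · rw [← List.append_assoc, List.take_append_drop]
  intro v' P' hP'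
  obtain ⟨k', hk'K, hP'l, hlam'⟩ := hP'
  have hdrop : (X1 ++ X2).drop (G.x k) = X1.drop (G.x k) ++ X2 :=
    List.drop_append_of_le_length (by omega)
  by_cases hkk : k' = k
  · subst hkk
    -- same place
    have hXX : P' ++ X1.drop (G.x k') ∈ G.XX := by
      have hX1e : X1.take (G.x k') ++ X1.drop (G.x k') = X1 := List.take_append_drop _ _
      have hdl : (X1.drop (G.x k')).length = X1.length - G.x k' := List.length_drop
      refine ⟨by rw [List.length_append]; omega, ?_, ?_⟩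
      · rw [G.loc _ _ (by omega), ← G.loc (X1.take (G.x k')) _ (by omega), hX1e]
        exact hb1.2.1
      · intro t ht1 ht2 hwt
        rw [List.length_append] at ht2
        have e1 : t = P'.length + (t - P'.length) := by omega
        rw [e1, G.wo_shift _ _ _ (by omega) (by omega),
          ← G.wo_shift (X1.take (G.x k')) _ _ (by omega) (by omega), hX1e] at hwt
        exact hb1.2.2 _ (by omega) (by omega) hwt
    have hTe : G.T v' (P' ++ X1.drop (G.x k')) = G.T v X1 := by
      unfold T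
      have hX0 : X1.take G.p0 = X1.take (G.x k') ++ (X1.take G.p0).drop (G.x k') := by
        conv_lhs => rw [← List.take_append_drop (G.x k') (X1.take G.p0)]
        rw [htt]
      have hdp : (P' ++ X1.drop (G.x k')).drop G.p0 = X1.drop G.p0 := by
        rw [List.drop_append, List.drop_eq_nil_of_le (by omega), List.nil_append, List.drop_drop]
        congr 1
        omega
      have htp : (P' ++ X1.drop (G.x k')).take G.p0 = P' ++ (X1.take G.p0).drop (G.x k') := by
        rw [List.take_append, List.take_of_length_le (by omega), List.drop_take, hP'l]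
      have s1 := G.snd2 k' hkK P' ((X1.take G.p0).drop (G.x k')) v' b hP'l hlam' hb
      have s2 := G.snd2 k' hkK (X1.take (G.x k')) ((X1.take G.p0).drop (G.x k')) v b hPl hlam hb
      rw [← hX0] at s2
      rw [htp, hdp, ← s1, s2]
    by_cases hg : P' ++ X1.drop (G.x k') ∈ G.D.Good
    · right; left
      refine ⟨_, hg, ?_⟩
      rw [← List.append_assoc]
      exact List.prefix_append _ _
    · left
      refine ⟨P' ++ X1.drop (G.x k'), ⟨hXX, hg⟩, X2, hX2, by rw [List.append_assoc], ?_⟩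
      show G.T (G.T v' (P' ++ X1.drop (G.x k'))) X2 = G.T (G.T v X1) X2
      rw [hTe]
  · right; left
    have hns : ¬ (G.EB (X1 ++ X2) k k' ∨ G.BB (X1 ++ X2) k k') := by
      intro h
      exact hkJ (Finset.mem_filter.2 ⟨Finset.mem_range.2 hkK, k', hk'K, hkk, h⟩)
    push Not at hns
    obtain ⟨X, hX, hpre⟩ := G.unspoiled hkK hk'K hw hlen hns.1 hns.2 hP'l
    rw [hdrop] at hpre
    exact ⟨X, hX, hpre⟩

theorem L2_fin [Finite A] (v : V) : (G.L2 v).Finite := by
  refine (List.finite_length_le A G.p0).subset ?_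
  rintro P ⟨k, hk, h, -⟩
  have := G.hx k hk
  show P.length ≤ G.p0
  omega

theorem L1_fin [Finite A] (v : V) : (G.L1 v).Finite := by
  refine (List.finite_length_le A (G.p0 + G.N)).subset ?_
  intro P hP
  exact G.L1_len hP

end Geo

end Crest.Agent.R320.Inst_173
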