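import Crest.Agent.R320.Top5_110
import Crest.Agent.R320.FewVal_228

/-!
# Row 320, instance part 1 (helper259): natural chain blocks over left-looking walls, heights
-/

set_option autoImplicit false

namespace Crest.Agent.R320.Inst_259

open Crest.Agent.R320.Hk_851 Crest.Agent.R320.Code110 Crest.Agent.R320.FewWalls_228

universe u

variable {A : Type u}

/-- wall place `t` of `w` (left-looking, window `n`) -/
def Wp (n : ℕ) (F : Set (List A)) (w : List A) (t : ℕ) : Prop := n ≤ t ∧ Wl n F w (t - n)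

variable {n z k : ℕ} {F : Set (List A)}

theorem Wp.le {w : List A} {t : ℕ} (h : Wp n F w t) : t ≤ w.length := by
  have := h.1; have := h.2.1; omega

theorem wp_take {w : List A} {t m : ℕ} (hm : m ≤ w.length) :
    Wp n F (w.take m) t ↔ Wp n F w t ∧ t ≤ m := by
  constructor
  · rintro ⟨h1, h2⟩
    have := wl_take h2
    exact ⟨⟨h1, this.1⟩, by omega⟩
  · rintro ⟨⟨h1, h2, h3⟩, h4⟩
    refine ⟨h1, by rw [List.length_take]; omega, ?_⟩
    rw [List.drop_take, List.take_take, Nat.min_eq_left (by omega)]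
    exact h3

theorem wp_drop {w : List A} {t m : ℕ} (hm : m ≤ w.length) (ht : n ≤ t) :
    Wp n F (w.drop m) t ↔ Wp n F w (m + t) := by
  unfold Wp
  rw [wl_drop hm, show m + t - n = m + (t - n) by omega]
  constructor
  · rintro ⟨h1, h2⟩; exact ⟨by omega, h2⟩
  · rintro ⟨h1, h2⟩; exact ⟨ht, h2⟩

/-- append form -/
theorem wp_append {P Q : List A} {t : ℕ} (ht : n ≤ t) :
    Wp n F (P ++ Q) (P.length + t) ↔ Wp n F Q t := by
  have := wp_drop (n := n) (F := F) (w := P ++ Q) (m := P.length) (by simp) ht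
  rw [List.drop_left] at this
  exact this.symm

theorem wp_left {P Q : List A} {t : ℕ} (ht : t ≤ P.length) :
    Wp n F (P ++ Q) t ↔ Wp n F P t := by
  have := wp_take (n := n) (F := F) (w := P ++ Q) (m := P.length) (t := t) (by simp)
  rw [List.take_left] at this
  exact ⟨fun h => this.2 ⟨h, ht⟩, fun h => (this.1 h).1⟩

/-- blocks -/
def XX (n z : ℕ) (F : Set (List A)) : Language A :=
  {X | z ≤ X.length ∧ Wp n F X X.length ∧ ∀ t, z ≤ t → t < X.length → ¬ Wp n F X t}

theorem take_mem {w : List A} {t : ℕ} (h1 : z ≤ t) (h2 : Wp n F w t)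
    (h3 : ∀ s, z ≤ s → s < t → ¬ Wp n F w s) : w.take t ∈ XX n z F := by
  have hl := h2.le
  have e : (w.take t).length = t := by simp [hl]
  refine ⟨by rw [e]; exact h1, by rw [e]; exact (wp_take hl).2 ⟨h2, le_rfl⟩, fun s hs hs' h => ?_⟩
  rw [e] at hs'
  exact h3 s hs hs' ((wp_take hl).1 h).1

theorem pc (hz : 0 < z) : PC (XX n z F) where
  ne := fun h => by have := h.1; simp at this; omega
  pf := by
    rintro u hu v hv ⟨r, rfl⟩
    by_contra hne
    have hr : r ≠ [] := by rintro rfl; exact hne (by simp)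
    have hl : 0 < r.length := List.length_pos_iff.2 hr
    exact hv.2.2 u.length hu.1 (by simp; omega) ((wp_left le_rfl).2 hu.2.1)

theorem HL_end [Finite A] : HL k ({X | Wp n F X X.length} : Language A) := by
  have h := (HL.finite (k := k) (s := {v : List A | v.length = n ∧ v ∈ F})
    ((List.finite_length_eq A n).subset fun v h => h.1)).suffix
  refine h.congr fun X => ?_
  constructor
  · rintro ⟨h1, h2, h3⟩
    refine ⟨(X.drop (X.length - n)).take n, ⟨by simp; omega, h3⟩, ?_⟩
    rw [List.take_of_length_le (by simp; omega)]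
    exact List.drop_suffix _ _
  · rintro ⟨v, ⟨hl, hv⟩, y, rfl⟩
    refine ⟨by simp; omega, by simp; omega, ?_⟩
    have : (y ++ v).length - n = y.length := by simp; omega
    rw [this, List.drop_left, List.take_of_length_le (by omega)]
    exact hv

theorem HL_XX [Finite A] : HL k (XX n z F) := by
  have hD : HL k ({X : List A | z ≤ X.length ∧ Wp n F X X.length} : Language A) :=
    (HL.length_ge z).setOf_and HL_end
  have hD' := (hD.mul ((HL.length_ge (k := k) (α := A) 1)))
  refine (hD.sdiff hD').congr fun X => ?_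
  constructor
  · intro h
    refine ⟨⟨h.1, h.2.1⟩, fun hm => ?_⟩
    obtain ⟨P, hP, Q, hQ, rfl⟩ := Language.mem_mul.1 hm
    have hQ' : 1 ≤ Q.length := hQ
    exact h.2.2 P.length hP.1 (by simp; omega) ((wp_left le_rfl).2 hP.2)
  · rintro ⟨h1, h2⟩
    refine ⟨h1.1, h1.2, fun t ht ht' hW => h2 ?_⟩
    have e : (X.take t).length = t := by simp; omega
    refine Language.mem_mul.2 ⟨X.take t, ⟨?_, ?_⟩, X.drop t, ?_, List.take_append_drop t X⟩
    · rw [e]; exact ht
    · rw [e]; exact (wp_take ht'.le).2 ⟨hW, le_rfl⟩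
    · show 1 ≤ (X.drop t).length
      simp; omega

theorem nw_le {w : List A} (h : ∀ t, z ≤ t → Wp n F w t → t = w.length) :
    nw n F w ≤ z + 1 := by
  classical
  unfold nw
  refine (Finset.card_le_card (t := insert (w.length - n) (Finset.range z)) ?_).trans ?_
  · intro x hx
    rw [Finset.mem_filter] at hx
    rw [Finset.mem_insert, Finset.mem_range]
    by_cases hz : z ≤ x + n
    · left
      have hW : Wp n F w (x + n) := ⟨by omega, by rw [Nat.add_sub_cancel]; exact hx.2⟩
      have := h _ hz hW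
      omega
    · right; omega
  · refine (Finset.card_insert_le _ _).trans ?_
    rw [Finset.card_range]

theorem nw_XX {X : List A} {B : ℕ} (hX : X ∈ XX n z F) (hB : B ≤ z) :
    nw n F (X.drop B) ≤ z + 1 := by
  refine nw_le fun t ht hW => ?_
  have h0 := hX.1
  have h1 := (wp_drop (by omega) hW.1).1 hW
  have h2 := h1.le
  rw [List.length_drop]
  by_contra hne
  exact hX.2.2 (B + t) (by omega) (by omega) h1

/-- no wall place `≥ z` iff no block is a prefix -/
theorem tail_iff {w : List A} :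
    (∀ u ∈ XX n z F, ¬ u <+: w) ↔ ∀ t, z ≤ t → ¬ Wp n F w t := by
  classical
  constructor
  · intro h t ht hW
    have hex : ∃ t, z ≤ t ∧ Wp n F w t := ⟨t, ht, hW⟩
    refine h (w.take (Nat.find hex)) (take_mem (Nat.find_spec hex).1 (Nat.find_spec hex).2 ?_)
      (List.take_prefix _ _)
    intro s hs hs' hW'
    exact Nat.find_min hex hs' ⟨hs, hW'⟩
  · rintro h u hu ⟨r, rfl⟩
    exact h u.length hu.1 ((wp_left le_rfl).2 hu.2.1)

/-- few walls and a value -/
def NV {M : Type*} [Monoid M] (n r : ℕ) (F : Set (List A)) (g : A → M) (m : M) : Language A :=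
  {w | nw n F w ≤ r ∧ (w.map g).prod = m}

/-- languages given by a bounded prefix and the value of the rest -/
theorem HL_fs [Finite A] {c P : ℕ} (hn : 0 < n) (hP : 0 < P) (hper : PerOff n c P F) (r : ℕ)
    {M : Type*} [Monoid M] [Finite M] (g : A → M) (B : ℕ) (p : List A → Prop)
    (hp : ∀ u u' : List A, B ≤ u.length → B ≤ u'.length → u.take B = u'.take B →
      ((u.drop B).map g).prod = ((u'.drop B).map g).prod → p u → p u') :
    HL 1 ({u | B ≤ u.length ∧ nw n F (u.drop B) ≤ r ∧ p u} : Language A) := by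
  have h : HL 1 ({u | ∃ a ∈ {a : List A | a.length = B}, u ∈ ({u | ∃ m : M, u ∈ ({u |
      (∃ v : List A, B ≤ v.length ∧ v.take B = a ∧ ((v.drop B).map g).prod = m ∧ p v) ∧
      u ∈ (({a} : Language A) * NV n r F g m)} : Language A)} : Language A)} : Language A) :=
    HL.biUnion (List.finite_length_eq A B) fun a _ => HL.iUnion fun m =>
      HL.setOf_and (HL.const _) ((HL.word a).mul
        (Crest.Agent.R320.FewVal_228.HL_few_value hn hP hper r g m))
  refine h.congr fun u => ?_
  constructor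
  · rintro ⟨h1, h2, h3⟩
    refine ⟨u.take B, by simp [h1], ((u.drop B).map g).prod, ⟨u, h1, rfl, rfl, h3⟩, ?_⟩
    exact Language.mem_mul.2 ⟨u.take B, rfl, u.drop B, ⟨h2, rfl⟩, List.take_append_drop B u⟩
  · rintro ⟨a, ha, m, ⟨v, hv1, hv2, hv3, hv4⟩, hu⟩
    obtain ⟨a', ha', w, ⟨hw1, hw2⟩, rfl⟩ := Language.mem_mul.1 hu
    have ha'' : a' = a := ha'
    subst ha''
    have hal : a'.length = B := ha
    have e1 : (a' ++ w).take B = a' := by rw [← hal, List.take_left]
    have e2 : (a' ++ w).drop B = w := by rw [← hal, List.drop_left]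
    have hl : B ≤ (a' ++ w).length := by simp; omega
    refine ⟨hl, by rw [e2]; exact hw1, ?_⟩
    exact hp v _ hv1 hl (by rw [hv2, e1]) (by rw [hv3, e2, hw2]) hv4

/-- the same inside the block code -/
theorem HL_XX_fs [Finite A] {c P : ℕ} (hn : 0 < n) (hP : 0 < P) (hper : PerOff n c P F)
    {M : Type*} [Monoid M] [Finite M] (g : A → M) {B : ℕ} (hB : B ≤ z) (p : List A → Prop)
    (hp : ∀ u u' : List A, B ≤ u.length → B ≤ u'.length → u.take B = u'.take B →
      ((u.drop B).map g).prod = ((u'.drop B).map g).prod → p u → p u') :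
    HL 1 ({u | u ∈ XX n z F ∧ p u} : Language A) := by
  refine ((HL_XX (k := 1) (n := n) (z := z) (F := F)).inf
    (HL_fs hn hP hper (z + 1) g B p hp)).congr fun u => ?_
  constructor
  · rintro ⟨h1, h2⟩
    exact ⟨h1, by have := h1.1; show B ≤ u.length; omega, nw_XX h1 hB, h2⟩
  · rintro ⟨h1, -, -, h2⟩
    exact ⟨h1, h2⟩

theorem HL_tail [Finite A] {c P : ℕ} (hn : 0 < n) (hP : 0 < P) (hper : PerOff n c P F)
    {M : Type*} [Monoid M] [Finite M] (g : A → M) (s : M) :
    HL 1 ({w | (∀ u ∈ XX n z F, ¬ u <+: w) ∧ (w.map g).prod = s} : Language A) := by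
  have h1 := (HL_XX (k := 1) (n := n) (z := z) (F := F)).prefix.compl
  refine (h1.inf (Crest.Agent.R320.FewVal_228.HL_few_value hn hP hper (z + 1) g s)).congr
    fun w => ?_
  constructor
  · rintro ⟨h2, h3⟩
    refine ⟨?_, nw_le fun t ht hW => ((tail_iff.1 h2) t ht hW).elim, h3⟩
    rintro ⟨v, hv, hvw⟩
    exact h2 v hv hvw
  · rintro ⟨h2, -, h3⟩
    exact ⟨fun u hu huw => h2 ⟨u, hu, huw⟩, h3⟩

end Crest.Agent.R320.Inst_259
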