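import Crest.Agent.R320.Top5_110
import Crest.Agent.R320.Core1_922
import Crest.Agent.R320.ExactR_237

/-!
# Row 320: the concrete chain on ALL words (natural rule), one token system, two schemes (helper333)

Blocks = texts of length `≥ z` which end in the first (left-looking) wall at a place `≥ z`.
Scheme 1 = any gadget `lam rho nu1 BadT` on words; scheme 2 = exact gadget on the first `p0` letters
with places `c k`.  `C1`, `C2` = the two completeness statements of `Top5_110.top_sem`.
-/

set_option autoImplicit false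

namespace Crest.Agent.R320.Inst_333

open Crest.RegLang Crest.Agent.R320.Hk_851 Crest.Agent.R320.Code110 Crest.Agent.R320.Core1_922
open Crest.Agent.R320.ExactR_237 (pr)

structure Dat (α S V : Type) [Monoid S] [AddCommGroup V] where
  f : α → S
  act : V → S → V
  hadd : ∀ v w s, act (v + w) s = act v s + act w s
  hone : ∀ v, act v 1 = v
  hmul : ∀ v s t, act v (s * t) = act (act v s) t
  n : ℕ
  N : ℕ
  N0 : ℕ
  p0 : ℕ
  z : ℕ
  Lam : ℕ
  K : ℕ
  C0 : ℕ
  Wo : List α → Prop
  lw : LW n Wo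
  sep : ∀ (X : List α) (s t : ℕ), s < t → t ≤ X.length → Wo (X.take s) → Wo (X.take t) →
    2 * Lam + 2 * N < t - s
  hz : p0 + Lam + 2 * N + n + N0 < z
  lam : List α → Option V
  rho : List α → Option V
  nu1 : List α → V
  BadT : ℤ → Prop
  lamlen : ∀ P v, lam P = some v → P.length < N
  snd1 : ∀ P Q v r, lam P = some v → rho Q = some r → r = act v (pr f (P ++ Q)) + nu1 (P ++ Q)
  cmp1 : ∀ X : List α, N0 ≤ X.length → ¬ BadT X.length → ∀ v, ∃ P Q r, X = P ++ Q ∧
    lam P = some v ∧ rho Q = some r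
  c : ℕ → ℕ
  hc : ∀ k < K, c k ≤ p0
  hLam : ∀ i < K, ∀ j < K, c i ≤ c j + Lam
  lam2 : ℕ → List α → Option V
  rho2 : ℕ → List α → Option V
  nu2 : List α → V
  snd2 : ∀ k < K, ∀ P Q v b, P.length = c k → lam2 k P = some v → rho2 k Q = some b →
    b = act v (pr f (P ++ Q)) + nu2 (P ++ Q)
  cmp2 : ∀ (u : List α) (v : V), u.length = p0 → ∃ I : Finset ℕ, 2 * C0 + 2 ≤ I.card ∧
    ∀ k ∈ I, k < K ∧ lam2 k (u.take (c k)) = some v ∧ (rho2 k (u.drop (c k))).isSome
  ruler : ∀ i j i' j', i < K → j < K → i' < K → j' < K → i ≠ j → i' ≠ j' →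
    |((c i : ℤ) - c j) - (c i' - c j')| ≤ 2 * N → i = i'
  thin : ∀ (T : ℤ) (F : Finset ℕ), (∀ i ∈ F, i < K ∧ ∃ j < K, j ≠ i ∧ BadT (T + c j - c i)) →
    F.card ≤ C0

namespace Dat

variable {α S V : Type} [Monoid S] [AddCommGroup V] (D : Dat α S V)

/-- blocks -/
def XX : Language α :=
  {X | D.z ≤ X.length ∧ D.Wo X ∧ ∀ t, D.z ≤ t → t < X.length → ¬ D.Wo (X.take t)}

/-- bad blocks -/
def BB : Language α := {X | X ∈ D.XX ∧ (X.length < D.z + D.N ∨
  (∃ t, D.z ≤ t + D.N ∧ t < D.z ∧ D.Wo (X.take t)) ∨ D.BadT ((X.length : ℤ) - D.p0))}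

/-- the map of a block -/
def T (X : List α) (v : V) : V :=
  D.act (D.act v (pr D.f (X.take D.p0)) + D.nu2 (X.take D.p0)) (pr D.f (X.drop D.p0)) +
    D.nu1 (X.drop D.p0)

def L1 (v : V) : Language α := {P | ∃ X0 P', P = X0 ++ P' ∧ X0.length = D.p0 ∧
  D.lam P' = some (D.act v (pr D.f X0) + D.nu2 X0)}

def L2 (v : V) : Language α := {P | ∃ k, k < D.K ∧ P.length = D.c k ∧ D.lam2 k P = some v}

theorem pc : PC D.XX where
  ne := by
    intro h
    have h1 : D.z ≤ ([] : List α).length := h.1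
    have := D.hz
    simp at h1
    omega
  pf := by
    rintro u hu v hv ⟨r, rfl⟩
    by_contra hne
    have hr : r ≠ [] := by
      rintro rfl
      simp at hne
    have hl : 0 < r.length := List.length_pos_iff.2 hr
    have h2 := hv.2.2 u.length hu.1 (by simp; omega)
    rw [List.take_left' rfl] at h2
    exact h2 hu.2.1

theorem wo_shift (P P' Q : List α) (s : ℕ) (hs : D.n ≤ s) (hq : D.n ≤ Q.length) :
    D.Wo ((P ++ Q).take (P.length + s)) ↔ D.Wo ((P' ++ Q).take (P'.length + s)) := by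
  rw [List.take_length_add_append, List.take_length_add_append,
    D.lw.app _ _ (by simp; omega), D.lw.app _ _ (by simp; omega)]

theorem first (w : List α) (a t : ℕ) (hat : a ≤ t) (hW : D.Wo (w.take t)) :
    ∃ t1, a ≤ t1 ∧ t1 ≤ t ∧ D.Wo (w.take t1) ∧ ∀ s, a ≤ s → s < t1 → ¬ D.Wo (w.take s) := by
  classical
  have hex : ∃ t1, a ≤ t1 ∧ D.Wo (w.take t1) := ⟨t, hat, hW⟩
  refine ⟨Nat.find hex, (Nat.find_spec hex).1, Nat.find_min' hex ⟨hat, hW⟩,
    (Nat.find_spec hex).2, ?_⟩
  intro s h1 h2 h3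
  exact Nat.find_min hex h2 ⟨h1, h3⟩

theorem T_sub (X : List α) (v v' : V) :
    D.T X v - D.T X v' = D.act (v - v') (pr D.f X) := by
  have hsub : ∀ a b s, D.act (a - b) s = D.act a s - D.act b s := by
    intro a b s
    have := D.hadd (a - b) b s
    rw [sub_add_cancel] at this
    rw [this]; abel
  have hpr : pr D.f X = pr D.f (X.take D.p0) * pr D.f (X.drop D.p0) := by
    unfold pr
    rw [← List.prod_append, ← List.map_append, List.take_append_drop]
  unfold T
  rw [hpr, D.hmul, hsub, hsub, D.hadd, D.hadd]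
  abel

theorem C1 {X : List α} (hX : X ∈ D.XX) (hB : X ∉ D.BB) (x : V) :
    ∃ p q y, X = p ++ q ∧ p ∈ D.L1 x ∧ q ∈ Rsem D.XX D.XX D.T 0 D.L1 y := by
  obtain ⟨hz1, hW, hno⟩ := id hX
  have hz := D.hz
  have h1 : D.z + D.N ≤ X.length := by
    by_contra h
    exact hB ⟨hX, Or.inl (by omega)⟩
  have h2 : ∀ t, D.z ≤ t + D.N → t < D.z → ¬ D.Wo (X.take t) := fun t ha hb hc =>
    hB ⟨hX, Or.inr (Or.inl ⟨t, ha, hb, hc⟩)⟩
  have h3 : ¬ D.BadT ((X.length : ℤ) - D.p0) := fun h => hB ⟨hX, Or.inr (Or.inr h)⟩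
  have hY : ((X.drop D.p0).length : ℤ) = (X.length : ℤ) - D.p0 := by
    rw [List.length_drop]; omega
  obtain ⟨P', Q, r, hPQ, hP, hQ⟩ := D.cmp1 (X.drop D.p0) (by rw [List.length_drop]; omega)
    (by rw [hY]; exact h3) (D.act x (pr D.f (X.take D.p0)) + D.nu2 (X.take D.p0))
  have hX0 : (X.take D.p0).length = D.p0 := by rw [List.length_take]; omega
  have hXe : X = (X.take D.p0 ++ P') ++ Q := by
    rw [List.append_assoc, ← hPQ, List.take_append_drop]
  have hPl := D.lamlen _ _ hP
  have hlen : X.length = D.p0 + P'.length + Q.length := by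
    conv_lhs => rw [hXe]
    simp only [List.length_append, hX0]
  refine ⟨X.take D.p0 ++ P', Q, r, hXe, ⟨_, _, rfl, hX0, hP⟩, ?_⟩
  rintro x' p1 ⟨X0', P1', rfl, hX0', hlam'⟩
  have hPl' := D.lamlen _ _ hlam'
  left
  have hnQ : D.n ≤ Q.length := by omega
  have hmem : (X0' ++ P1') ++ Q ∈ D.XX := by
    refine ⟨by simp only [List.length_append]; omega, ?_, ?_⟩
    · rw [D.lw.app _ _ hnQ]
      rw [hXe, D.lw.app _ _ hnQ] at hW
      exact hW
    · intro t ht1 ht2 ht3
      simp only [List.length_append] at ht2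
      obtain ⟨s, rfl⟩ : ∃ s, t = (X0' ++ P1').length + s :=
        ⟨t - (X0' ++ P1').length, by simp only [List.length_append]; omega⟩
      simp only [List.length_append] at ht1 ht2
      rw [D.wo_shift _ (X.take D.p0 ++ P') Q s (by omega) hnQ, ← hXe] at ht3
      simp only [List.length_append, hX0] at ht3
      by_cases hc : D.z ≤ D.p0 + P'.length + s
      · exact hno _ hc (by omega) ht3
      · exact h2 _ (by omega) (by omega) ht3
  have hT : D.T ((X0' ++ P1') ++ Q) x' = r := by
    unfold T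
    rw [List.append_assoc, List.take_left' hX0', List.drop_left' hX0']
    exact (D.snd1 _ _ _ _ hlam' hQ).symm
  show (X0' ++ P1') ++ Q ∈ Exactly D.XX D.T 1 x' r
  refine ⟨r, Language.mem_mul.2 ⟨(X0' ++ P1') ++ Q, ⟨hmem, hT⟩, [], ⟨rfl, rfl⟩, by simp⟩⟩

theorem C2 {X X2 : List α} (hX : X ∈ D.BB) (hX2 : X2 ∈ D.BB) (x : V) :
    ∃ p q y, X ++ X2 = p ++ q ∧ p ∈ D.L2 x ∧ q ∈ Rsem D.XX D.BB D.T 1 D.L2 y := by
  classical
  have hz := D.hz
  obtain ⟨hz1, hW, hno⟩ := id hX.1
  obtain ⟨hz2, hW2, -⟩ := id hX2.1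
  set w := X ++ X2 with hw
  have hwl : w.length = X.length + X2.length := by rw [hw, List.length_append]
  have hWw : D.Wo w := by rw [hw, D.lw.app _ _ (by omega)]; exact hW2
  have hWt : D.Wo (w.take w.length) := by rw [List.take_length]; exact hWw
  obtain ⟨ta, ha1, ha2, ha3, ha4⟩ := D.first w (D.z - D.Lam) w.length (by omega) hWt
  obtain ⟨tb, hb1, hb2, hb3, hb4⟩ := D.first w (D.z + D.Lam) w.length (by omega) hWt
  have hX0 : (X.take D.p0).length = D.p0 := by rw [List.length_take]; omega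
  obtain ⟨I, hI, hIk⟩ := D.cmp2 (X.take D.p0) x hX0
  let S1 := I.filter fun k => ∃ k', k' < D.K ∧ k' ≠ k ∧ ∃ t, t ≤ w.length ∧ D.Wo (w.take t) ∧
    |(t : ℤ) - D.z - ((D.c k : ℤ) - D.c k')| ≤ D.N
  let S2 := I.filter fun k => ∃ k', k' < D.K ∧ k' ≠ k ∧
    D.BadT (((ta : ℤ) - D.p0) + D.c k' - D.c k)
  let S3 := I.filter fun k => ∃ k', k' < D.K ∧ k' ≠ k ∧
    D.BadT (((tb : ℤ) - D.p0) + D.c k' - D.c k)
  have hS1 : S1.card ≤ 1 := by
    rw [Finset.card_le_one]
    intro a haS b hbS
    obtain ⟨haI, a', ha'K, ha'ne, t, ht, htW, htd⟩ := Finset.mem_filter.1 haS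
    obtain ⟨hbI, b', hb'K, hb'ne, t', ht', htW', htd'⟩ := Finset.mem_filter.1 hbS
    have haK := (hIk a haI).1
    have hbK := (hIk b hbI).1
    have e1 := D.hLam a haK a' ha'K
    have e2 := D.hLam a' ha'K a haK
    have e3 := D.hLam b hbK b' hb'K
    have e4 := D.hLam b' hb'K b hbK
    rw [abs_le] at htd htd'
    have htt : t = t' := by
      rcases lt_trichotomy t t' with h | h | h
      · have := D.sep w t t' h ht' htW htW'
        omega
      · exact h
      · have := D.sep w t' t h ht htW' htW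
        omega
    subst htt
    refine D.ruler a a' b b' haK ha'K hbK hb'K (Ne.symm ha'ne) (Ne.symm hb'ne) ?_
    rw [abs_le]
    constructor <;> omega
  have hS2 : S2.card ≤ D.C0 := by
    refine D.thin ((ta : ℤ) - D.p0) S2 fun i hi => ?_
    obtain ⟨hiI, j, hj, hji, hb⟩ := Finset.mem_filter.1 hi
    exact ⟨(hIk i hiI).1, j, hj, hji, hb⟩
  have hS3 : S3.card ≤ D.C0 := by
    refine D.thin ((tb : ℤ) - D.p0) S3 fun i hi => ?_
    obtain ⟨hiI, j, hj, hji, hb⟩ := Finset.mem_filter.1 hi
    exact ⟨(hIk i hiI).1, j, hj, hji, hb⟩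
  obtain ⟨k, hkI, hkn⟩ : ∃ k ∈ I, k ∉ S1 ∪ S2 ∪ S3 := by
    by_contra h
    push Not at h
    have h1 : I.card ≤ (S1 ∪ S2 ∪ S3).card := Finset.card_le_card h
    have h2 := Finset.card_union_le (S1 ∪ S2) S3
    have h3 := Finset.card_union_le S1 S2
    omega
  obtain ⟨hkK, hlam, hrho⟩ := hIk k hkI
  have hck := D.hc k hkK
  obtain ⟨b, hb⟩ := Option.isSome_iff_exists.1 hrho
  have hXk : (X.take D.p0).take (D.c k) = X.take (D.c k) := by
    rw [List.take_take, min_eq_left hck]
  rw [hXk] at hlam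
  have hlk : (X.take (D.c k)).length = D.c k := by rw [List.length_take]; omega
  have hwk : w = X.take (D.c k) ++ (X.drop (D.c k) ++ X2) := by
    rw [← List.append_assoc, List.take_append_drop]
  set q := X.drop (D.c k) ++ X2 with hq
  have hql : q.length + D.c k = w.length := by
    rw [hq, hwl, List.length_append, List.length_drop]; omega
  refine ⟨X.take (D.c k), q, D.T X2 (D.T X x), hwk, ⟨k, hkK, hlk, hlam⟩, ?_⟩
  rintro x' p1 ⟨k', hk'K, hp1, hlam'⟩
  have hck' := D.hc k' hk'K
  have hl1 := D.hLam k hkK k' hk'K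
  have hl2 := D.hLam k' hk'K k hkK
  by_cases hkk : k' = k
  · subst hkk
    left
    have hXd : D.n ≤ (X.drop (D.c k')).length := by rw [List.length_drop]; omega
    have hXe : X = X.take (D.c k') ++ X.drop (D.c k') := (List.take_append_drop _ _).symm
    have hlen : (p1 ++ X.drop (D.c k')).length = X.length := by
      rw [List.length_append, List.length_drop]; omega
    have hwall : ∀ t, D.c k' + D.n ≤ t →
        (D.Wo ((p1 ++ X.drop (D.c k')).take t) ↔ D.Wo (X.take t)) := by
      intro t ht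
      obtain ⟨s, rfl⟩ : ∃ s, t = D.c k' + s := ⟨t - D.c k', by omega⟩
      have := D.wo_shift p1 (X.take (D.c k')) (X.drop (D.c k')) s (by omega) hXd
      rw [hp1, hlk, List.take_append_drop] at this
      exact this
    have hXX : p1 ++ X.drop (D.c k') ∈ D.XX := by
      refine ⟨by omega, ?_, ?_⟩
      · rw [D.lw.app _ _ hXd]
        rw [hXe, D.lw.app _ _ hXd] at hW
        exact hW
      · intro t ht1 ht2 ht3
        rw [hwall t (by omega)] at ht3
        exact hno t ht1 (by omega) ht3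
    have hBB : p1 ++ X.drop (D.c k') ∈ D.BB := by
      refine ⟨hXX, ?_⟩
      rw [hlen]
      rcases hX.2 with h | ⟨t, h1, h2, h3⟩ | h
      · exact Or.inl h
      · exact Or.inr (Or.inl ⟨t, h1, h2, (hwall t (by omega)).2 h3⟩)
      · exact Or.inr (Or.inr h)
    have hT : D.T (p1 ++ X.drop (D.c k')) x' = D.T X x := by
      have hr : X.drop (D.c k') = (X.take D.p0).drop (D.c k') ++ X.drop D.p0 := by
        conv_lhs => rw [← List.take_append_drop D.p0 X]
        rw [List.drop_append_of_le_length (by omega)]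
      have hrl : (p1 ++ (X.take D.p0).drop (D.c k')).length = D.p0 := by
        rw [List.length_append, List.length_drop]; omega
      have e1 : (p1 ++ X.drop (D.c k')).drop D.p0 = X.drop D.p0 := by
        rw [hr, ← List.append_assoc, List.drop_left' hrl]
      have e2 : (p1 ++ X.drop (D.c k')).take D.p0 = p1 ++ (X.take D.p0).drop (D.c k') := by
        rw [hr, ← List.append_assoc, List.take_left' hrl]
      have e3 : X.take D.p0 = X.take (D.c k') ++ (X.take D.p0).drop (D.c k') := by
        conv_lhs => rw [← List.take_append_drop (D.c k') (X.take D.p0)]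
        rw [hXk]
      unfold T
      rw [e1, e2]
      have s1 := D.snd2 k' hk'K p1 ((X.take D.p0).drop (D.c k')) x' b hp1 hlam' hb
      have s2 := D.snd2 k' hk'K (X.take (D.c k')) ((X.take D.p0).drop (D.c k')) x b hlk hlam hb
      rw [← e3] at s2
      rw [← s1, ← s2]
    show p1 ++ q ∈ Exactly D.BB D.T 2 x' _
    refine ⟨D.T X x, Language.mem_mul.2 ⟨p1 ++ X.drop (D.c k'), ⟨hBB, hT⟩, X2,
      ⟨D.T X2 (D.T X x), Language.mem_mul.2 ⟨X2, ⟨hX2, rfl⟩, [], ⟨rfl, rfl⟩, by simp⟩⟩, ?_⟩⟩
    rw [hq, List.append_assoc]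
  · right
    left
    have hqn : D.n ≤ q.length := by omega
    have hwall : ∀ s, D.n ≤ s →
        (D.Wo ((p1 ++ q).take (D.c k' + s)) ↔ D.Wo (w.take (D.c k + s))) := by
      intro s hs
      have := D.wo_shift p1 (X.take (D.c k)) q s hs hqn
      rw [hp1, hlk, ← hwk] at this
      exact this
    obtain ⟨t1, h1, h2, h3, h4⟩ := D.first w (D.z + D.c k - D.c k') w.length (by omega) hWt
    have htab : t1 = ta ∨ t1 = tb := by
      by_cases hlt : t1 < D.z + D.Lam
      · left
        rcases lt_trichotomy t1 ta with h | h | h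
        · exact (ha4 t1 (by omega) h h3).elim
        · exact h
        · have := D.sep w ta t1 h h2 ha3 h3
          omega
      · right
        rcases lt_trichotomy t1 tb with h | h | h
        · exact (hb4 t1 (by omega) h h3).elim
        · exact h
        · exact (h4 tb (by omega) h hb3).elim
    obtain ⟨u, hu⟩ : ∃ u, u = (p1 ++ q).take (t1 + D.c k' - D.c k) := ⟨_, rfl⟩
    have hpql : (p1 ++ q).length = D.c k' + q.length := by rw [List.length_append, hp1]
    have hul : u.length = t1 + D.c k' - D.c k := by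
      rw [hu, List.length_take]; omega
    have huX : u ∈ D.XX := by
      refine ⟨by omega, ?_, ?_⟩
      · have := (hwall (t1 - D.c k) (by omega)).2
          (by rw [show D.c k + (t1 - D.c k) = t1 by omega]; exact h3)
        rw [hu, show t1 + D.c k' - D.c k = D.c k' + (t1 - D.c k) by omega]
        exact this
      · intro t ht1 ht2 ht3
        rw [hu, List.take_take, min_eq_left (by omega),
          show t = D.c k' + (t - D.c k') by omega, hwall _ (by omega)] at ht3
        exact h4 _ (by omega) (by omega) ht3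
    refine ⟨u, huX, ?_, by rw [hu]; exact List.take_prefix _ _⟩
    rintro ⟨-, hbad⟩
    apply hkn
    rw [Finset.mem_union, Finset.mem_union]
    rcases hbad with hb1' | ⟨t, ht1, ht2, ht3⟩ | hb3'
    · left; left
      refine Finset.mem_filter.2 ⟨hkI, k', hk'K, hkk, t1, h2, h3, ?_⟩
      rw [abs_le]
      constructor <;> omega
    · left; left
      rw [hu, List.take_take, min_eq_left (by omega),
          show t = D.c k' + (t - D.c k') by omega, hwall _ (by omega)] at ht3
      refine Finset.mem_filter.2 ⟨hkI, k', hk'K, hkk, D.c k + (t - D.c k'), by omega, ht3, ?_⟩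
      rw [abs_le]
      constructor <;> omega
    · have hcast : ((u.length : ℕ) : ℤ) = (t1 : ℤ) + D.c k' - D.c k := by
        rw [hul]; omega
      rw [hcast] at hb3'
      rcases htab with rfl | rfl
      · left; right
        refine Finset.mem_filter.2 ⟨hkI, k', hk'K, hkk, ?_⟩
        convert hb3' using 1
        ring
      · right
        refine Finset.mem_filter.2 ⟨hkI, k', hk'K, hkk, ?_⟩
        convert hb3' using 1
        ring

end Dat

end Crest.Agent.R320.Inst_333
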