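import Crest.Agent.R320.Inst0_466

/-!
Row 320 (helper466): (s1), (s2), (cc) of helper163's `top` for the concrete instance `Inst0_466`.
-/

set_option autoImplicit false

namespace Crest.Agent.R320.Inst_466

open Crest.Agent.R320.ExactR_237 (pr pr_append)

variable {α S V : Type} [Monoid S] [AddCommGroup V] {p : Par α S V}

namespace Par

theorem take_app (P Q : List α) (t : ℕ) : (P ++ Q).take (P.length + t) = P ++ Q.take t := by
  rw [List.take_append]
  simp [List.take_of_length_le]

theorem Ok.wall (h : p.Ok) {P Q : List α} {t : ℕ} (h1 : p.n ≤ t) (h2 : t ≤ Q.length) :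
    p.Wo ((P ++ Q).take (P.length + t)) ↔ p.Wo (Q.take t) := by
  rw [take_app]
  exact h.loc _ _ (by rw [List.length_take]; omega)

theorem Ok.T_eq (h : p.Ok) (v : V) (X : List α) :
    p.T v X = p.act (p.mid v X) (pr p.f (X.drop p.p0)) + p.nu1 (X.drop p.p0) := by
  unfold T nu mid
  rw [h.act_add, h.act_mul, ← pr_append, List.take_append_drop, add_assoc]

theorem Ok.s1 (h : p.Ok) (P : List α) (v : V) (Q : List α) (b : V) (hL : p.LP1 P v)
    (hR : p.R1 Q = some b) : P ++ Q ∈ p.XX ∧ p.T v (P ++ Q) = b := by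
  classical
  unfold R1 at hR
  split_ifs at hR with hq
  obtain ⟨hP, hl⟩ := hL
  obtain ⟨q1, q2, q3⟩ := hq
  have hlen := h.lamlen _ _ hl
  rw [List.length_drop] at hlen
  have hz := h.hz
  refine ⟨⟨by rw [List.length_append]; omega, (h.loc P Q (by omega)).2 q2, ?_⟩, ?_⟩
  · intro t ht1 ht2
    rw [List.length_append] at ht2
    obtain ⟨s, rfl⟩ : ∃ s, t = P.length + s := ⟨t - P.length, by omega⟩
    rw [h.wall (by omega) (by omega)]
    exact q3 s (by omega) (by omega)
  · rw [h.T_eq]
    have e1 : (P ++ Q).take p.p0 = P.take p.p0 := List.take_append_of_le_length hP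
    have e2 : (P ++ Q).drop p.p0 = P.drop p.p0 ++ Q := List.drop_append_of_le_length hP
    have e3 : p.mid v (P ++ Q) = p.mid v P := by unfold mid; rw [e1]
    rw [e2, e3]
    exact (h.sound1 _ _ _ _ hl hR).symm

theorem Ok.R1_ne (h : p.Ok) (Q : List α) (b : V) (hR : p.R1 Q = some b) : Q ≠ [] := by
  classical
  unfold R1 at hR
  split_ifs at hR with hq
  rintro rfl
  have h1 := hq.1
  have hz := h.hz
  simp only [List.length_nil] at h1
  omega

theorem Ok.good_cut (h : p.Ok) {X : List α} (hX : X ∈ p.XX) (v : V)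
    (hE : ∀ t ≤ X.length, p.z ≤ t + p.N1 → t < p.z + p.N1 → ¬ p.Wo (X.take t))
    (hB : ¬ p.BadT (X.length - p.p0)) :
    ∃ P Q, X = P ++ Q ∧ p.p0 ≤ P.length ∧ p.LP1 P v ∧ (p.R1 Q).isSome := by
  classical
  obtain ⟨x1, x2, x3⟩ := hX
  have hz := h.hz
  have hz2 := h.hz2
  obtain ⟨P', Q', e, hl, hr⟩ := h.compl1 (X.drop p.p0) (by rw [List.length_drop]; omega)
    (by rwa [List.length_drop]) (p.mid v X)
  have hlen := h.lamlen _ _ hl
  have eX : (X.take p.p0 ++ P') ++ Q' = X := by
    rw [List.append_assoc, e, List.take_append_drop]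
  have ht : (X.take p.p0).length = p.p0 := by rw [List.length_take]; omega
  have hPl : (X.take p.p0 ++ P').length = p.p0 + P'.length := by rw [List.length_append, ht]
  have hXl : X.length = p.p0 + P'.length + Q'.length := by
    have := congrArg List.length eX
    rw [List.length_append, hPl] at this
    exact this.symm
  refine ⟨X.take p.p0 ++ P', Q', eX.symm, by omega, ⟨by omega, ?_⟩, ?_⟩
  · have e1 : (X.take p.p0 ++ P').drop p.p0 = P' := by
      have := List.drop_append_of_le_length (l₁ := X.take p.p0) (l₂ := P') (i := p.p0) (by omega)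
      rw [this, List.drop_of_length_le (by omega), List.nil_append]
    have e2 : (X.take p.p0 ++ P').take p.p0 = X.take p.p0 := by
      rw [List.take_append_of_le_length (by omega), List.take_take, min_self]
    have e3 : p.mid v (X.take p.p0 ++ P') = p.mid v X := by unfold mid; rw [e2]
    rw [e1, e3]
    exact hl
  · have hq : p.RQ1 Q' := by
      refine ⟨?_, ?_, ?_⟩
      · have h4 := hE X.length le_rfl (by omega)
        have h5 : ¬ X.length < p.z + p.N1 := fun h6 => h4 h6 (by rwa [List.take_length])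
        omega
      · have x2' : p.Wo ((X.take p.p0 ++ P') ++ Q') := by rw [eX]; exact x2
        exact (h.loc _ Q' (by omega)).1 x2'
      · intro t ht1 ht2 hw
        have h6 := (h.wall (P := X.take p.p0 ++ P') (Q := Q') (t := t) (by omega) (by omega)).2 hw
        rw [eX, hPl] at h6
        rcases lt_or_ge (p.p0 + P'.length + t) p.z with h7 | h7
        · exact hE _ (by omega) (by omega) (by omega) h6
        · exact x3 _ h7 (by omega) h6
    unfold R1
    rw [if_pos hq]
    exact hr

theorem R2_some {Q : List α} {b : V} (hR : p.R2 Q = some b) : ∃ k e y, p.RQ2 Q k e y b := by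
  classical
  unfold R2 at hR
  split_ifs at hR with h1
  have h2 := h1.choose_spec
  rw [Option.some.injEq] at hR
  rw [hR] at h2
  exact h2

theorem R2_isSome {Q : List α} {k e : ℕ} {y b : V} (hq : p.RQ2 Q k e y b) :
    (p.R2 Q).isSome := by
  classical
  unfold R2
  rw [dif_pos ⟨b, k, e, y, hq⟩]
  rfl

theorem exists_end {k : ℕ} {Q : List α} {t : ℕ} (h1 : t ≤ Q.length) (h2 : p.z ≤ p.c k + t)
    (h3 : p.Wo (Q.take t)) : ∃ e, e ≤ t ∧ p.IsEnd k Q e := by
  classical
  have hex : ∃ t, p.z ≤ p.c k + t ∧ p.Wo (Q.take t) := ⟨t, h2, h3⟩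
  have hle := Nat.find_min' hex ⟨h2, h3⟩
  obtain ⟨a, b⟩ := Nat.find_spec hex
  exact ⟨Nat.find hex, hle, by omega, a, b, fun s hs1 hs2 hs3 => Nat.find_min hex hs2 ⟨hs1, hs3⟩⟩

theorem IsEnd.unique {k : ℕ} {Q : List α} {t t' : ℕ} (h : p.IsEnd k Q t) (h' : p.IsEnd k Q t') :
    t = t' := by
  rcases lt_trichotomy t t' with h1 | h1 | h1
  · exact absurd h.2.2.1 (h'.2.2.2 t h.2.1 h1)
  · exact h1
  · exact absurd h'.2.2.1 (h.2.2.2 t' h'.2.1 h1)

theorem Ok.block (h : p.Ok) {k e : ℕ} {P Q : List α} (hk : k < p.K) (hP : P.length = p.c k)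
    (he : p.IsEnd k Q e) : P ++ Q.take e ∈ p.XX := by
  obtain ⟨a1, a2, a3, a4⟩ := he
  have hz := h.hz
  have hc := h.cle k hk
  have hl : (Q.take e).length = e := by rw [List.length_take]; omega
  refine ⟨by rw [List.length_append, hl]; omega, (h.loc P _ (by omega)).2 a3, ?_⟩
  intro t ht1 ht2
  rw [List.length_append, hl] at ht2
  obtain ⟨s, rfl⟩ : ∃ s, t = P.length + s := ⟨t - P.length, by omega⟩
  rw [h.wall (by omega) (by omega), List.take_take, min_eq_left (by omega)]
  exact a4 s (by omega) (by omega)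

theorem Ok.R2_ne (h : p.Ok) (Q : List α) (b : V) (hR : p.R2 Q = some b) : Q ≠ [] := by
  obtain ⟨k, e, y, hk, hbad, huniq, hend, hX2, hrho, hb⟩ := R2_some hR
  rintro rfl
  have h1 := hX2.1
  have hz := h.hz
  simp only [List.drop_nil, List.length_nil] at h1
  omega

theorem Ok.s2 (h : p.Ok) (P : List α) (v : V) (Q : List α) (b : V) (hL : p.LP2 P v)
    (hR : p.R2 Q = some b)
    (hprom : ∀ X ∈ p.XX, X <+: P ++ Q → ∀ P' Q', X = P' ++ Q' → P.length ≤ P'.length →
      p.LP1 P' v → (p.R1 Q').isSome → False) :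
    ∃ Q1 X2, Q = Q1 ++ X2 ∧ Q1 ≠ [] ∧ P ++ Q1 ∈ p.XX ∧ X2 ∈ p.XX ∧
      p.T (p.T v (P ++ Q1)) X2 = b := by
  obtain ⟨j, hj, hPl, hlam⟩ := hL
  obtain ⟨k, e, y, hk, hbad, huniq, hend, hX2, hrho, hb⟩ := R2_some hR
  have hcj := h.cle j hj
  have hck := h.cle k hk
  have hz := h.hz
  have hp0 := h.hp0
  have x1 := hX2.1
  have x2 := hX2.2.1
  have a1 := hend.1
  have hQl : Q.length = e + (Q.drop e).length := by rw [List.length_drop]; omega
  have hWQ : p.Wo Q := by
    have := (h.loc (Q.take e) (Q.drop e) (by omega)).2 x2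
    rwa [List.take_append_drop] at this
  obtain ⟨e', -, hend'⟩ := exists_end (p := p) (k := j) (Q := Q) (t := Q.length) le_rfl (by omega)
    (by rwa [List.take_length])
  have hXj := h.block (P := P) hj hPl hend'
  have he'l : (Q.take e').length = e' := by
    have := hend'.1
    rw [List.length_take]; omega
  have hbj : p.BadH j Q := by
    by_contra hnb
    unfold BadH at hnb
    push Not at hnb
    obtain ⟨n1, n2⟩ := hnb
    obtain ⟨P', Q', eX, hp, hl1, hr1⟩ := h.good_cut hXj v (by
      intro t ht1 ht2 ht3 hw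
      rw [List.length_append, he'l] at ht1
      obtain ⟨s, rfl⟩ : ∃ s, t = P.length + s := ⟨t - P.length, by omega⟩
      rw [h.wall (by omega) (by omega), List.take_take, min_eq_left (by omega)] at hw
      have := hend'.1
      exact n1 s (by omega) (by omega) (by omega) hw) (by
      rw [List.length_append, he'l, hPl]
      exact n2 e' hend')
    exact hprom _ hXj ⟨Q.drop e', by rw [List.append_assoc, List.take_append_drop]⟩ P' Q' eX
      (by omega) hl1 hr1
  have hjk := huniq j hj hbj
  subst hjk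
  have hee : e' = e := hend'.unique hend
  subst hee
  have a2 := hend.2.1
  refine ⟨Q.take e', Q.drop e', (List.take_append_drop _ _).symm, ?_, hXj, hX2, ?_⟩
  · intro h0
    rw [h0, List.length_nil] at he'l
    omega
  · have key : p.T v (P ++ Q.take e') = p.act y (pr p.f ((Q.take e').drop (p.p0 - p.c j))) +
        p.nu1 ((Q.take e').drop (p.p0 - p.c j)) := by
      rw [h.T_eq]
      obtain ⟨d, hd⟩ : ∃ d, p.p0 = P.length + d := ⟨p.p0 - P.length, by omega⟩
      have hdc : p.p0 - p.c j = d := by omega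
      have e1 : (P ++ Q.take e').take p.p0 = P ++ Q.take d := by
        rw [hd, take_app, List.take_take, min_eq_left (by omega)]
      have e2 : (P ++ Q.take e').drop p.p0 = (Q.take e').drop d := by
        rw [hd, List.drop_append]
        simp [List.drop_eq_nil_of_le]
      have e3 : p.mid v (P ++ Q.take e') = y := by
        unfold mid
        rw [e1]
        have := h.sound2 j hj P (Q.take (p.p0 - p.c j)) 1 v y hPl hlam hrho
        rw [hdc, mul_one] at this
        exact this.symm
      rw [e3, e2, hdc]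
    rw [hb, key]

/-- the spoiled ruler places -/
theorem Ok.spoiled (h : p.Ok) {X X2 : List α} (hX : X ∈ p.XX) (hX2 : X2 ∈ p.XX) :
    ∃ Sp : Finset ℕ, Sp.card ≤ 2 * p.R + 1 ∧ ∀ k < p.K, ∀ k' < p.K, k' ≠ k →
      p.BadH k' ((X ++ X2).drop (p.c k)) → k ∈ Sp := by
  classical
  set U := X ++ X2 with hU
  have hz := h.hz
  have hp0 := h.hp0
  have hW := h.hW
  have hUl : U.length = X.length + X2.length := by rw [hU, List.length_append]
  have hx1 := hX.1
  have hy1 := hX2.1
  have hwX : p.Wo (U.take X.length) := by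
    rw [hU, List.take_left]; exact hX.2.1
  have hwU : p.Wo (U.take U.length) := by
    rw [List.take_length, hU]; exact (h.loc X X2 (by omega)).2 hX2.2.1
  -- first wall at or after `z - Lam`
  have hex0 : ∃ w, p.z ≤ w + p.Lam ∧ p.Wo (U.take w) := ⟨X.length, by omega, hwX⟩
  obtain ⟨w0, ⟨hw0a, hw0b⟩, hw0m⟩ : ∃ w, (p.z ≤ w + p.Lam ∧ p.Wo (U.take w)) ∧
      ∀ s, s < w → ¬ (p.z ≤ s + p.Lam ∧ p.Wo (U.take s)) :=
    ⟨Nat.find hex0, Nat.find_spec hex0, fun s hs => Nat.find_min hex0 hs⟩
  have hw0X : w0 ≤ X.length := by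
    by_contra hlt
    push Not at hlt
    exact hw0m X.length hlt ⟨by omega, hwX⟩
  have hex1 : ∃ w, w0 < w ∧ p.Wo (U.take w) := ⟨U.length, by omega, hwU⟩
  obtain ⟨w1, ⟨hw1a, hw1b⟩, hw1m⟩ : ∃ w, (w0 < w ∧ p.Wo (U.take w)) ∧
      ∀ s, s < w → ¬ (w0 < s ∧ p.Wo (U.take s)) :=
    ⟨Nat.find hex1, Nat.find_spec hex1, fun s hs => Nat.find_min hex1 hs⟩
  have hw1U : w1 ≤ U.length := by
    by_contra hlt
    push Not at hlt
    exact hw1m U.length hlt ⟨by omega, hwU⟩
  have hg := h.gap U w0 w1 hw1a hw1U (by omega) hw0b hw1b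
  obtain ⟨J0, hJ0, hJ0'⟩ := h.spoil (w0 - p.p0) (by omega)
  obtain ⟨J1, hJ1, hJ1'⟩ := h.spoil (w1 - p.p0) (by omega)
  -- (E)
  let PE : ℕ → Prop := fun k => k < p.K ∧ ∃ k' < p.K, k' ≠ k ∧ ∃ w ≤ U.length,
    p.z + p.c k ≤ w + p.c k' + p.N1 ∧ w + p.c k' < p.z + p.c k + p.N1 ∧ p.Wo (U.take w)
  have hPE : ∀ a b, PE a → PE b → a = b := by
    rintro a b ⟨ha, a', ha', hna, w, hw1, hw2, hw3, hw4⟩ ⟨hb, b', hb', hnb, x, hx1', hx2, hx3, hx4⟩
    have c1 := h.cle a ha
    have c2 := h.cle a' ha'
    have c3 := h.cle b hb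
    have c4 := h.cle b' hb'
    have hwx : w = x := by
      rcases lt_trichotomy w x with h1 | h1 | h1
      · have := h.gap U w x h1 hx1' (by omega) hw4 hx4
        omega
      · exact h1
      · have := h.gap U x w h1 hw1 (by omega) hx4 hw4
        omega
    subst hwx
    exact h.ruler a a' b b' ha ha' hb hb' hna.symm hnb.symm (by omega) (by omega)
  obtain ⟨SE, hSE, hSE'⟩ : ∃ SE : Finset ℕ, SE.card ≤ 1 ∧ ∀ k, PE k → k ∈ SE := by
    by_cases hh : ∃ k, PE k
    · obtain ⟨k0, hk0⟩ := hh
      exact ⟨{k0}, by simp, fun k hk => by rw [hPE k k0 hk hk0]; simp⟩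
    · exact ⟨∅, by simp, fun k hk => absurd ⟨k, hk⟩ hh⟩
  refine ⟨J0 ∪ J1 ∪ SE, ?_, ?_⟩
  · have h1 := Finset.card_union_le (J0 ∪ J1) SE
    have h2 := Finset.card_union_le J0 J1
    omega
  · intro k hk k' hk' hne hbad
    have c1 := h.cle k hk
    have c2 := h.cle k' hk'
    have hkl : (U.take (p.c k)).length = p.c k := by rw [List.length_take]; omega
    have hdl : (U.drop (p.c k)).length = U.length - p.c k := List.length_drop
    have hwall : ∀ t, p.n ≤ t → t ≤ (U.drop (p.c k)).length →
        (p.Wo (U.take (p.c k + t)) ↔ p.Wo ((U.drop (p.c k)).take t)) := by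
      intro t ht1 ht2
      have := h.wall (P := U.take (p.c k)) (Q := U.drop (p.c k)) ht1 ht2
      rwa [List.take_append_drop, hkl] at this
    rw [Finset.mem_union, Finset.mem_union]
    rcases hbad with ⟨t, ht1, ht2, ht3, ht4⟩ | ⟨t, ⟨t1, t2, t3, t4⟩, htB⟩
    · right
      refine hSE' k ⟨hk, k', hk', hne, p.c k + t, by omega, by omega, by omega, ?_⟩
      exact (hwall t (by omega) ht1).2 ht4
    · left
      have hwt : p.Wo (U.take (p.c k + t)) := (hwall t (by omega) t1).2 t3
      have hmin : ∀ s, p.c k ≤ s → p.z ≤ p.c k' + (s - p.c k) → s < p.c k + t →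
          ¬ p.Wo (U.take s) := by
        intro s hs1 hs2 hs3 hs4
        have e1 : s = p.c k + (s - p.c k) := by omega
        rw [e1, hwall (s - p.c k) (by omega) (by omega)] at hs4
        exact t4 _ hs2 (by omega) hs4
      have hge : w0 ≤ p.c k + t := by
        by_contra hlt
        push Not at hlt
        exact hw0m _ hlt ⟨by omega, hwt⟩
      rcases le_or_gt (p.z + p.c k) (w0 + p.c k') with h5 | h5
      · have h6 : p.c k + t = w0 := by
          rcases Nat.lt_or_ge w0 (p.c k + t) with h7 | h7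
          · exact absurd hw0b (hmin w0 (by omega) (by omega) h7)
          · omega
        left
        refine hJ0' k hk k' hk' hne ?_
        have e2 : w0 - p.p0 + p.c k' - p.c k = p.c k' + t - p.p0 := by omega
        rw [e2]; exact htB
      · have h6 : p.c k + t = w1 := by
          have h8 : w1 ≤ p.c k + t := by
            by_contra hlt
            push Not at hlt
            exact hw1m _ hlt ⟨by omega, hwt⟩
          rcases Nat.lt_or_ge w1 (p.c k + t) with h7 | h7
          · exact absurd hw1b (hmin w1 (by omega) (by omega) h7)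
          · omega
        right
        refine hJ1' k hk k' hk' hne ?_
        have e2 : w1 - p.p0 + p.c k' - p.c k = p.c k' + t - p.p0 := by omega
        rw [e2]; exact htB

theorem Ok.cc (h : p.Ok) (X : List α) (hX : X ∈ p.XX) (X2 : List α) (hX2 : X2 ∈ p.XX) (v : V) :
    (∃ P Q, X = P ++ Q ∧ p.LP1 P v ∧ (p.R1 Q).isSome) ∨
    (∃ P Q, X ++ X2 = P ++ Q ∧ P.length < X.length ∧ p.LP2 P v ∧ (p.R2 Q).isSome) := by
  classical
  have hz := h.hz
  have hp0 := h.hp0
  have hx1 := hX.1
  have hy1 := hX2.1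
  by_cases hb : (∃ t ≤ X.length, p.z ≤ t + p.N1 ∧ t < p.z + p.N1 ∧ p.Wo (X.take t)) ∨
      p.BadT (X.length - p.p0)
  · right
    obtain ⟨I, hI, hI2⟩ := h.compl2 (X.take p.p0) 1 v (fun k hk => by
      have := h.cle k hk
      rw [List.length_take]; omega)
    obtain ⟨Sp, hSp, hSp2⟩ := h.spoiled hX hX2
    obtain ⟨k, hkI, hkS⟩ : ∃ k, k ∈ I ∧ k ∉ Sp := by
      by_contra hh
      push Not at hh
      have := Finset.card_le_card (show I ⊆ Sp from fun k hk => hh k hk)
      omega
    obtain ⟨hk, hlam, hrho⟩ := hI2 k hkI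
    have hc := h.cle k hk
    set U := X ++ X2 with hU
    have hUl : U.length = X.length + X2.length := by rw [hU, List.length_append]
    have hkl : (U.take (p.c k)).length = p.c k := by rw [List.length_take]; omega
    have hdl : (U.drop (p.c k)).length = U.length - p.c k := List.length_drop
    have hwall : ∀ t, p.n ≤ t → t ≤ (U.drop (p.c k)).length →
        (p.Wo (U.take (p.c k + t)) ↔ p.Wo ((U.drop (p.c k)).take t)) := by
      intro t ht1 ht2
      have := h.wall (P := U.take (p.c k)) (Q := U.drop (p.c k)) ht1 ht2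
      rwa [List.take_append_drop, hkl] at this
    have hUX : ∀ t, t ≤ X.length → U.take t = X.take t := fun t ht => by
      rw [hU, List.take_append_of_le_length ht]
    have hend : p.IsEnd k (U.drop (p.c k)) (X.length - p.c k) := by
      refine ⟨by omega, by omega, ?_, ?_⟩
      · rw [← hwall _ (by omega) (by omega), show p.c k + (X.length - p.c k) = X.length by omega,
          hUX _ le_rfl, List.take_length]
        exact hX.2.1
      · intro s hs1 hs2 hs3
        rw [← hwall _ (by omega) (by omega), hUX _ (by omega)] at hs3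
        exact hX.2.2 _ (by omega) (by omega) hs3
    have hbk : p.BadH k (U.drop (p.c k)) := by
      rcases hb with ⟨t, ht1, ht2, ht3, ht4⟩ | hb
      · left
        refine ⟨t - p.c k, by omega, by omega, by omega, ?_⟩
        rw [← hwall _ (by omega) (by omega), show p.c k + (t - p.c k) = t by omega, hUX _ ht1]
        exact ht4
      · right
        exact ⟨_, hend, by rwa [show p.c k + (X.length - p.c k) - p.p0 = X.length - p.p0 by omega]⟩
    have hdrop : (U.drop (p.c k)).drop (X.length - p.c k) = X2 := by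
      rw [List.drop_drop, show p.c k + (X.length - p.c k) = X.length by omega, hU, List.drop_left]
    obtain ⟨y, hy⟩ := Option.isSome_iff_exists.1 hrho
    have e1 : (X.take p.p0).drop (p.c k) = (U.drop (p.c k)).take (p.p0 - p.c k) := by
      rw [← hUX p.p0 (by omega), List.drop_take]
    refine ⟨U.take (p.c k), U.drop (p.c k), (List.take_append_drop _ _).symm, by omega,
      ⟨k, hk, hkl, ?_⟩, ?_⟩
    · have e2 : U.take (p.c k) = (X.take p.p0).take (p.c k) := by
        rw [List.take_take, min_eq_left (by omega), hUX _ (by omega)]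
      rw [e2]; exact hlam
    · refine R2_isSome (k := k) (e := X.length - p.c k) (y := y) (b := _) ⟨hk, hbk, ?_, hend, ?_, ?_,
        rfl⟩
      · intro k' hk' hbk'
        by_contra hne
        exact hkS (hSp2 k hk k' hk' hne hbk')
      · rw [hdrop]; exact hX2
      · rw [← e1]; exact hy
  · left
    push Not at hb
    obtain ⟨P, Q, e, -, h1, h2⟩ := h.good_cut hX v (fun t ht1 ht2 ht3 => hb.1 t ht1 ht2 ht3) hb.2
    exact ⟨P, Q, e, h1, h2⟩

theorem Ok.nil_notMem (h : p.Ok) : [] ∉ p.XX := by
  intro h0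
  have := h0.1
  have hz := h.hz
  simp only [List.length_nil] at this
  omega

theorem Ok.prefixCode (h : p.Ok) (X : List α) (hX : X ∈ p.XX) (Y : List α)
    (hXY : X ++ Y ∈ p.XX) : Y = [] := by
  by_contra hY
  have hl : 0 < Y.length := List.length_pos_iff.2 hY
  refine hXY.2.2 X.length hX.1 (by rw [List.length_append]; omega) ?_
  rw [List.take_left]
  exact hX.2.1

end Par

end Crest.Agent.R320.Inst_466
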