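import Mathlib
import Crest.Agent.R320.ExactR_237

/-!
# Row 320: final joint of the design 693 #13203 + 110 #13081 (helper47)

Left-looking walls on all words, zones = prefix code "first wall at a place `≥ z`", scheme 1 from an
abstract gadget (`Gad1`), scheme 2 = promise ruler over 237's exact gadget.
-/

set_option autoImplicit false

namespace Crest.Agent.R320.JT_486

open Crest.Agent.R320.ExactR_237 (pr pr_append)

variable {A S V : Type}

/-- left-looking walls -/
structure LW (n W : ℕ) (Wo : List A → Prop) : Prop where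
  len : ∀ X, Wo X → n ≤ X.length
  app : ∀ P Q, n ≤ Q.length → (Wo (P ++ Q) ↔ Wo Q)
  gap : ∀ (X : List A) (s t : ℕ), s < t → t ≤ X.length → Wo (X.take s) → Wo (X.take t) → s + W ≤ t

/-- zones -/
def Zn (Wo : List A → Prop) (z : ℕ) : Set (List A) :=
  {X | z ≤ X.length ∧ Wo X ∧ ∀ t, z ≤ t → t < X.length → ¬ Wo (X.take t)}

theorem Zn_prefix {Wo : List A → Prop} {z : ℕ} {a b w : List A} (ha : a ∈ Zn Wo z)
    (hb : b ∈ Zn Wo z) (haw : a <+: w) (hbw : b <+: w) : a = b := by
  have e1 : a = w.take a.length := List.prefix_iff_eq_take.1 haw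
  have e2 : b = w.take b.length := List.prefix_iff_eq_take.1 hbw
  rcases lt_trichotomy a.length b.length with h | h | h
  · exfalso
    refine hb.2.2 a.length ha.1 h ?_
    have : b.take a.length = a := by
      rw [e2, List.take_take, min_eq_left h.le]; exact e1.symm
    rw [this]; exact ha.2.1
  · rw [e1, e2, h]
  · exfalso
    refine ha.2.2 b.length hb.1 h ?_
    have : a.take b.length = b := by
      rw [e1, List.take_take, min_eq_left h.le]; exact e2.symm
    rw [this]; exact hb.2.1

theorem Zn_exists {Wo : List A → Prop} {z : ℕ} {w : List A} {t : ℕ} (hz : z ≤ t)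
    (ht : t ≤ w.length) (hw : Wo (w.take t)) : ∃ a ∈ Zn Wo z, a <+: w ∧ a.length ≤ t := by
  classical
  have hex : ∃ t, z ≤ t ∧ t ≤ w.length ∧ Wo (w.take t) := ⟨t, hz, ht, hw⟩
  set u := Nat.find hex with hu
  obtain ⟨h1, h2, h3⟩ := Nat.find_spec hex
  have hlen : (w.take u).length = u := by rw [List.length_take]; exact min_eq_left h2
  refine ⟨w.take u, ⟨by rw [hlen]; exact h1, h3, ?_⟩, List.take_prefix _ _, ?_⟩
  · intro s hs1 hs2 hs3
    rw [hlen] at hs2
    rw [List.take_take, min_eq_left hs2.le] at hs3
    exact Nat.find_min hex hs2 ⟨hs1, by omega, hs3⟩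
  · rw [hlen]; exact Nat.find_min' hex ⟨hz, ht, hw⟩

/-- bad zones -/
def Bad (Wo : List A → Prop) (z N1 p0 : ℕ) (BadT : ℕ → Prop) (X : List A) : Prop :=
  (∃ t, z - N1 ≤ t ∧ t < z + N1 ∧ t ≤ X.length ∧ Wo (X.take t)) ∨ BadT (X.length - p0)

section scheme

variable [Monoid S] [AddCommGroup V] (f : A → S) (act : V → S → V) (p0 : ℕ) (nu2 nu1 : List A → V)

/-- the zone map -/
def T (v : V) (X : List A) : V :=
  act (act v (pr f (X.take p0)) + nu2 (X.take p0)) (pr f (X.drop p0)) + nu1 (X.drop p0)

/-- left words of scheme 1 -/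
def L1 (lam : List A → Option V) (v : V) (P : List A) : Prop :=
  p0 ≤ P.length ∧ lam (P.drop p0) = some (act v (pr f (P.take p0)) + nu2 (P.take p0))

theorem complete1 {n W N1 N0 z : ℕ} {Wo : List A → Prop} {BadT : ℕ → Prop} (hW : LW n W Wo)
    {lam rho : List A → Option V}
    (hS : ∀ P Q v r, lam P = some v → rho Q = some r → r = act v (pr f (P ++ Q)) + nu1 (P ++ Q))
    (hL : ∀ P v, lam P = some v → P.length ≤ N1)
    (hC : ∀ Y : List A, N0 ≤ Y.length → ¬ BadT Y.length →
      ∀ v, ∃ P Q, Y = P ++ Q ∧ lam P = some v ∧ (rho Q).isSome)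
    (hz1 : p0 + N0 ≤ z) (hz2 : p0 + n + N1 + 1 ≤ z)
    {X : List A} (hX : X ∈ Zn Wo z) (hb : ¬ Bad Wo z N1 p0 BadT X) (v : V) :
    ∃ p q, X = p ++ q ∧ L1 f act p0 nu2 lam v p ∧ q ≠ [] ∧
      ∀ x' p', L1 f act p0 nu2 lam x' p' → p' ++ q ∈ Zn Wo z ∧
        T f act p0 nu2 nu1 x' (p' ++ q) = T f act p0 nu2 nu1 v X := by
  have hXl : z ≤ X.length := hX.1
  have hYl : (X.drop p0).length = X.length - p0 := List.length_drop
  have hnb : ¬ BadT (X.drop p0).length := by rw [hYl]; exact fun h => hb (Or.inr h)
  obtain ⟨P, Q, hPQ, hP, hQ⟩ := hC (X.drop p0) (by omega) hnb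
    (act v (pr f (X.take p0)) + nu2 (X.take p0))
  obtain ⟨b, hb'⟩ := Option.isSome_iff_exists.1 hQ
  have hPl := hL P _ hP
  have hlen : X.length = p0 + P.length + Q.length := by
    have := congrArg List.length hPQ
    rw [hYl, List.length_append] at this
    omega
  -- no wall in the band
  have hE : ∀ t, z - N1 ≤ t → t < z + N1 → t ≤ X.length → ¬ Wo (X.take t) :=
    fun t h1 h2 h3 h4 => hb (Or.inl ⟨t, h1, h2, h3, h4⟩)
  have hbig : z + N1 ≤ X.length := by
    by_contra h
    exact hE X.length (by omega) (by omega) le_rfl (by rw [List.take_length]; exact hX.2.1)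
  have hXe : X = (X.take p0 ++ P) ++ Q := by
    rw [List.append_assoc, ← hPQ, List.take_append_drop]
  have hX0 : (X.take p0).length = p0 := by rw [List.length_take]; omega
  refine ⟨X.take p0 ++ P, Q, hXe, ⟨by rw [List.length_append]; omega, ?_⟩, ?_, ?_⟩
  · rw [List.drop_append_of_le_length (by omega), List.drop_eq_nil_of_le (by omega),
      List.nil_append, List.take_append_of_le_length (by omega),
      List.take_of_length_le (by omega)]
    exact hP
  · intro h
    rw [h] at hlen
    simp at hlen
    omega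
  · intro x' p' ⟨hp1, hp2⟩
    have hp3 := hL _ _ hp2
    have hp3' : p'.length ≤ p0 + N1 := by
      rw [List.length_drop] at hp3; omega
    constructor
    · refine ⟨by rw [List.length_append]; omega, ?_, ?_⟩
      · have h1 : Wo X := hX.2.1
        rw [hXe, hW.app _ _ (by omega)] at h1
        rw [hW.app _ _ (by omega)]
        exact h1
      · intro t ht1 ht2 ht3
        rw [List.length_append] at ht2
        -- t = |p'| + s
        have e1 : (p' ++ Q).take t = p' ++ Q.take (t - p'.length) := by
          rw [List.take_append, List.take_of_length_le (by omega)]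
        have hsl : (Q.take (t - p'.length)).length = t - p'.length := by
          rw [List.length_take]; omega
        rw [e1, hW.app _ _ (by omega)] at ht3
        have e2 : X.take (p0 + P.length + (t - p'.length)) =
            (X.take p0 ++ P) ++ Q.take (t - p'.length) := by
          conv_lhs => rw [hXe]
          rw [List.take_append, List.take_of_length_le (by rw [List.length_append]; omega)]
          congr 2
          rw [List.length_append]; omega
        have h4 : Wo (X.take (p0 + P.length + (t - p'.length))) := by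
          rw [e2, hW.app _ _ (by omega)]; exact ht3
        by_cases h5 : z ≤ p0 + P.length + (t - p'.length)
        · exact hX.2.2 _ h5 (by omega) h4
        · exact hE _ (by omega) (by omega) (by omega) h4
    · have hq1 : (p' ++ Q).take p0 = p'.take p0 := List.take_append_of_le_length hp1
      have hq2 : (p' ++ Q).drop p0 = p'.drop p0 ++ Q := List.drop_append_of_le_length hp1
      unfold T
      rw [hq1, hq2, ← hS _ _ _ _ hp2 hb', hPQ, ← hS _ _ _ _ hP hb']

/-- left words of scheme 2 -/
def L2 (K : ℕ) (c : ℕ → ℕ) (lam2 : ℕ → List A → Option V) (v : V) (P : List A) : Prop :=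
  ∃ k, k < K ∧ P.length = c k ∧ lam2 k P = some v

omit [Monoid S] [AddCommGroup V] in
theorem transfer {n W : ℕ} {Wo : List A → Prop} (hW : LW n W Wo) {p' g q : List A} {t : ℕ}
    (ht : p'.length + n ≤ t) (ht2 : t ≤ p'.length + q.length) :
    Wo ((p' ++ q).take t) ↔ Wo ((g ++ q).take (t - p'.length + g.length)) := by
  have e1 : (p' ++ q).take t = p' ++ q.take (t - p'.length) := by
    rw [List.take_append, List.take_of_length_le (by omega)]
  have e2 : (g ++ q).take (t - p'.length + g.length) = g ++ q.take (t - p'.length) := by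
    rw [List.take_append, List.take_of_length_le (by omega)]
    congr 2
    omega
  have hl : (q.take (t - p'.length)).length = t - p'.length := by
    rw [List.length_take]; omega
  rw [e1, e2, hW.app _ _ (by omega), hW.app _ _ (by omega)]

/-- counting spoiled places for one end wall -/
theorem card_one {K R1 N0 p0 : ℕ} {c : ℕ → ℕ} {BadT : ℕ → Prop} (hcp : ∀ k, k < K → c k ≤ p0)
    (hT : ∀ T : ℕ, N0 ≤ T → (∀ k, k < K → c k ≤ T) → ∀ I : Finset ℕ,
      (∀ k ∈ I, k < K ∧ ∃ k', k' < K ∧ k' ≠ k ∧ BadT (T + c k' - c k)) → I.card ≤ R1)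
    (Pe : ℕ → Prop) (hPe : ∀ e e', Pe e → Pe e' → e = e') (I : Finset ℕ)
    (hI : ∀ k ∈ I, k < K ∧ ∃ k', k' < K ∧ k' ≠ k ∧ ∃ e, Pe e ∧ p0 + p0 + N0 ≤ e ∧
      BadT (e + c k' - c k - p0)) : I.card ≤ R1 := by
  rcases I.eq_empty_or_nonempty with rfl | ⟨k0, hk0⟩
  · simp
  · obtain ⟨_, k0', _, _, e0, he0, hpe0, _⟩ := hI k0 hk0
    refine hT (e0 - p0) (by omega) (fun k hk => by have := hcp k hk; omega) I fun k hk => ?_
    obtain ⟨h1, k', h2, h3, e, he, hpe, hb⟩ := hI k hk
    refine ⟨h1, k', h2, h3, ?_⟩
    have : e = e0 := hPe _ _ he he0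
    subst this
    have hc1 := hcp k h1
    have hc2 := hcp k' h2
    have : e + c k' - c k - p0 = e - p0 + c k' - c k := by omega
    rwa [← this]

theorem complete2 {n W N1 N0 z K R1 : ℕ} {Wo : List A → Prop} {BadT : ℕ → Prop} (hW : LW n W Wo)
    {c : ℕ → ℕ} {lam2 : ℕ → List A → Option V} {rho2 : ℕ → List A → S → Option V}
    {nu2' : List A → S → V}
    (hS2 : ∀ k, k < K → ∀ (P Q : List A) (y : S) (v b : V), P.length = c k →
      lam2 k P = some v → rho2 k Q y = some b → b = act v (pr f (P ++ Q) * y) + nu2' (P ++ Q) y)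
    (hC2 : ∀ (u : List A) (y : S) (v : V), (∀ k, k < K → c k ≤ u.length) →
      ∃ I : Finset ℕ, 2 * R1 + 2 ≤ I.card ∧ ∀ k ∈ I, k < K ∧ lam2 k (u.take (c k)) = some v ∧
        (rho2 k (u.drop (c k)) y).isSome)
    (hinc : ∀ i j, i < j → j < K → c i < c j)
    (hcp : ∀ k, k < K → c k ≤ p0)
    (hres : ∀ i i' j j', i < K → i' < K → j < K → j' < K → i' ≠ i → j' ≠ j →
      c i + c j' < c j + c i' + 2 * N1 → c j + c i' < c i + c j' + 2 * N1 → i = j)
    (hT : ∀ T : ℕ, N0 ≤ T → (∀ k, k < K → c k ≤ T) → ∀ I : Finset ℕ,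
      (∀ k ∈ I, k < K ∧ ∃ k', k' < K ∧ k' ≠ k ∧ BadT (T + c k' - c k)) → I.card ≤ R1)
    (hWb : 2 * (N1 + p0) < W) (hz : 3 * p0 + n + N1 + 1 + N0 ≤ z)
    {u u1 : List A} (hu : u ∈ Zn Wo z) (hu1 : u1 ∈ Zn Wo z) (hbad : Bad Wo z N1 p0 BadT u)
    (x : V) :
    ∃ p q, u ++ u1 = p ++ q ∧ L2 K c lam2 x p ∧ q ≠ [] ∧
      ∀ x' p', L2 K c lam2 x' p' →
        (∃ a, a ∈ Zn Wo z ∧ Bad Wo z N1 p0 BadT a ∧ p' ++ q = a ++ u1 ∧
          T f act p0 (fun X => nu2' X 1) nu1 x' a = T f act p0 (fun X => nu2' X 1) nu1 x u) ∨
        (∃ a, a ∈ Zn Wo z ∧ ¬ Bad Wo z N1 p0 BadT a ∧ a <+: p' ++ q) := by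
  classical
  have hul : z ≤ u.length := hu.1
  have hul1 : z ≤ u1.length := hu1.1
  have hX1l : (u.take p0).length = p0 := by rw [List.length_take]; omega
  obtain ⟨I, hIc, hI⟩ := hC2 (u.take p0) 1 x (by rw [hX1l]; exact hcp)
  -- the text
  set w := u ++ u1 with hw
  have hwl : w.length = u.length + u1.length := by rw [hw, List.length_append]
  -- decompositions
  have hg : ∀ k, k < K → w = u.take (c k) ++ (u.drop (c k) ++ u1) := by
    intro k _
    rw [← List.append_assoc, List.take_append_drop]
  have hgl : ∀ k, k < K → (u.take (c k)).length = c k := by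
    intro k hk
    have := hcp k hk
    rw [List.length_take]; omega
  have htr : ∀ k k', k < K → k' < K → ∀ p' : List A, p'.length = c k' → ∀ t, p0 + n ≤ t →
      t ≤ (p' ++ (u.drop (c k) ++ u1)).length →
      (Wo ((p' ++ (u.drop (c k) ++ u1)).take t) ↔ Wo (w.take (t + c k - c k'))) := by
    intro k k' hk hk' p' hp' t ht ht2
    have h1 := hcp k hk
    have h2 := hcp k' hk'
    rw [List.length_append] at ht2
    rw [transfer hW (g := u.take (c k)) (by omega) ht2, ← hg k hk, hgl k hk, hp']
    have : t - c k' + c k = t + c k - c k' := by omega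
    rw [this]
  let Sp : ℕ → Prop := fun k => ∃ k', k' < K ∧ k' ≠ k ∧ ∃ p' : List A, p'.length = c k' ∧
    ∃ a, a ∈ Zn Wo z ∧ Bad Wo z N1 p0 BadT a ∧ a <+: p' ++ (u.drop (c k) ++ u1)
  let SE : ℕ → Prop := fun k => ∃ k', k' < K ∧ k' ≠ k ∧ ∃ e, Wo (w.take e) ∧ e ≤ w.length ∧
    z + c k ≤ e + N1 + c k' ∧ e + c k' < z + N1 + c k
  let P1 : ℕ → Prop := fun e => Wo (w.take e) ∧ e ≤ w.length ∧ z ≤ e + p0 ∧ e ≤ z + p0
  let P2 : ℕ → Prop := fun e => Wo (w.take e) ∧ e ≤ w.length ∧ z + p0 < e ∧
    ∀ e', z + p0 < e' → e' < e → ¬ Wo (w.take e')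
  let SB : (ℕ → Prop) → ℕ → Prop := fun Pe k => ∃ k', k' < K ∧ k' ≠ k ∧ ∃ e, Pe e ∧ p0 + p0 + N0 ≤ e ∧
      BadT (e + c k' - c k - p0)
  have hcase : ∀ k, k < K → Sp k → SE k ∨ SB P1 k ∨ SB P2 k := by
    rintro k hk ⟨k', hk', hne, p', hp', a, ha, hab, hap⟩
    have h1 := hcp k hk
    have h2 := hcp k' hk'
    have hal : a.length ≤ (p' ++ (u.drop (c k) ++ u1)).length := hap.length_le
    have hal2 : (p' ++ (u.drop (c k) ++ u1)).length = c k' + (u.length - c k + u1.length) := by
      rw [List.length_append, List.length_append, List.length_drop, hp']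
    have hatk : ∀ t, t ≤ a.length → a.take t = (p' ++ (u.drop (c k) ++ u1)).take t := by
      intro t ht
      have e2 : a = (p' ++ (u.drop (c k) ++ u1)).take a.length := List.prefix_iff_eq_take.1 hap
      conv_lhs => rw [e2]
      rw [List.take_take, min_eq_left ht]
    have haz : z ≤ a.length := ha.1
    rcases hab with ⟨t, ht1, ht2, ht3, ht4⟩ | hB
    · left
      rw [hatk t ht3, htr k k' hk hk' p' hp' t (by omega) (by omega)] at ht4
      exact ⟨k', hk', hne, t + c k - c k', ht4, by omega, by omega, by omega⟩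
    · right
      have hend : Wo (w.take (a.length + c k - c k')) := by
        rw [← htr k k' hk hk' p' hp' a.length (by omega) hal, ← hatk _ le_rfl, List.take_length]
        exact ha.2.1
      have hmin : ∀ t, z ≤ t → t < a.length → ¬ Wo (w.take (t + c k - c k')) := by
        intro t h3 h4 h5
        rw [← htr k k' hk hk' p' hp' t (by omega) (by omega), ← hatk t h4.le] at h5
        exact ha.2.2 t h3 h4 h5
      have hT' : BadT (a.length + c k - c k' + c k' - c k - p0) := by
        have : a.length + c k - c k' + c k' - c k - p0 = a.length - p0 := by omega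
        rw [this]; exact hB
      by_cases hs : a.length + c k - c k' ≤ z + p0
      · left
        exact ⟨k', hk', hne, _, ⟨hend, by omega, by omega, hs⟩, by omega, hT'⟩
      · right
        refine ⟨k', hk', hne, _, ⟨hend, by omega, by omega, ?_⟩, by omega, hT'⟩
        intro e' he1 he2 he3
        refine hmin (e' + c k' - c k) (by omega) (by omega) ?_
        have : e' + c k' - c k + c k - c k' = e' := by omega
        rw [this]; exact he3
  have hcard : (I.filter Sp).card ≤ 2 * R1 + 1 := by
    have hsub : I.filter Sp ⊆ (I.filter SE) ∪ ((I.filter (SB P1)) ∪ (I.filter (SB P2))) := by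
      intro k hk
      rw [Finset.mem_filter] at hk
      rw [Finset.mem_union, Finset.mem_union, Finset.mem_filter, Finset.mem_filter,
        Finset.mem_filter]
      rcases hcase k (hI k hk.1).1 hk.2 with h | h | h
      · exact Or.inl ⟨hk.1, h⟩
      · exact Or.inr (Or.inl ⟨hk.1, h⟩)
      · exact Or.inr (Or.inr ⟨hk.1, h⟩)
    have hE : (I.filter SE).card ≤ 1 := by
      rw [Finset.card_le_one]
      intro i hi j hj
      rw [Finset.mem_filter] at hi hj
      obtain ⟨i', hi', hne, e, he1, he2, he3, he4⟩ := hi.2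
      obtain ⟨j', hj', hne', e', he1', he2', he3', he4'⟩ := hj.2
      have hiK := (hI i hi.1).1
      have hjK := (hI j hj.1).1
      have c1 := hcp i hiK
      have c2 := hcp j hjK
      have c3 := hcp i' hi'
      have c4 := hcp j' hj'
      have hee : e = e' := by
        rcases lt_trichotomy e e' with h | h | h
        · have := hW.gap w e e' h he2' he1 he1'
          omega
        · exact h
        · have := hW.gap w e' e h he2 he1' he1
          omega
      subst hee
      exact hres i i' j j' hiK hi' hjK hj' hne hne' (by omega) (by omega)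
    have hB1 : (I.filter (SB P1)).card ≤ R1 := by
      refine card_one hcp hT P1 ?_ _ ?_
      · intro e e' he he'
        rcases lt_trichotomy e e' with h | h | h
        · have := hW.gap w e e' h he'.2.1 he.1 he'.1
          have h5 := he.2.2.1
          have h6 := he'.2.2.2
          omega
        · exact h
        · have := hW.gap w e' e h he.2.1 he'.1 he.1
          have h5 := he'.2.2.1
          have h6 := he.2.2.2
          omega
      · intro k hk
        rw [Finset.mem_filter] at hk
        exact ⟨(hI k hk.1).1, hk.2⟩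
    have hB2 : (I.filter (SB P2)).card ≤ R1 := by
      refine card_one hcp hT P2 ?_ _ ?_
      · intro e e' he he'
        rcases lt_trichotomy e e' with h | h | h
        · exact absurd he.1 (he'.2.2.2 e he.2.2.1 h)
        · exact h
        · exact absurd he'.1 (he.2.2.2 e' he'.2.2.1 h)
      · intro k hk
        rw [Finset.mem_filter] at hk
        exact ⟨(hI k hk.1).1, hk.2⟩
    calc (I.filter Sp).card ≤ _ := Finset.card_le_card hsub
      _ ≤ (I.filter SE).card + ((I.filter (SB P1)) ∪ (I.filter (SB P2))).card :=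
        Finset.card_union_le _ _
      _ ≤ 1 + (R1 + R1) := by
        have := Finset.card_union_le (I.filter (SB P1)) (I.filter (SB P2))
        omega
      _ = 2 * R1 + 1 := by omega
  obtain ⟨k, hkI, hkS⟩ : ∃ k ∈ I, ¬ Sp k := by
    by_contra hcon
    push Not at hcon
    have : I.filter Sp = I := Finset.filter_true_of_mem hcon
    rw [this] at hcard
    omega
  obtain ⟨hkK, hlam, hrho⟩ := hI k hkI
  obtain ⟨b, hb⟩ := Option.isSome_iff_exists.1 hrho
  have hck := hcp k hkK
  refine ⟨u.take (c k), u.drop (c k) ++ u1, hg k hkK, ⟨k, hkK, hgl k hkK, ?_⟩, ?_, ?_⟩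
  · rw [List.take_take, min_eq_left hck] at hlam
    exact hlam
  · intro h
    have := congrArg List.length h
    rw [List.length_append] at this
    simp at this
    omega
  · rintro x' p' ⟨k', hk', hp', hlam'⟩
    have hck' := hcp k' hk'
    by_cases hkk : k' = k
    · subst hkk
      left
      -- the modified zone
      have hq1 : (u.take p0).drop (c k') = (u.drop (c k')).take (p0 - c k') := List.drop_take
      have hd1 : (u.drop (c k')).length = u.length - c k' := List.length_drop
      have hu2 : u = u.take (c k') ++ u.drop (c k') := (List.take_append_drop _ _).symm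
      have hlen : (p' ++ u.drop (c k')).length = u.length := by
        rw [List.length_append, hd1]; omega
      have htr2 : ∀ t, p0 + n ≤ t → t ≤ u.length →
          (Wo ((p' ++ u.drop (c k')).take t) ↔ Wo (u.take t)) := by
        intro t h1 h2
        rw [transfer hW (g := u.take (c k')) (by omega) (by rw [hd1]; omega),
          List.take_append_drop, hgl k' hk', hp']
        have : t - c k' + c k' = t := by omega
        rw [this]
      refine ⟨p' ++ u.drop (c k'), ⟨by rw [hlen]; exact hu.1, ?_, ?_⟩, ?_, ?_, ?_⟩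
      · have := (htr2 u.length (by omega) le_rfl)
        rw [← hlen, List.take_length, hlen, List.take_length] at this
        exact this.2 hu.2.1
      · intro t h1 h2 h3
        rw [hlen] at h2
        rw [htr2 t (by omega) h2.le] at h3
        exact hu.2.2 t h1 h2 h3
      · rcases hbad with ⟨t, h1, h2, h3, h4⟩ | h
        · left
          exact ⟨t, h1, h2, by rw [hlen]; exact h3, (htr2 t (by omega) h3).2 h4⟩
        · right
          rw [hlen]; exact h
      · rw [List.append_assoc]
      · have ha1 : (p' ++ u.drop (c k')).take p0 = p' ++ (u.take p0).drop (c k') := by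
          rw [List.take_append, List.take_of_length_le (by omega), hq1, hp']
        have ha2 : (p' ++ u.drop (c k')).drop p0 = u.drop p0 := by
          rw [List.drop_append, List.drop_eq_nil_of_le (by omega), List.nil_append,
            List.drop_drop, hp']
          congr 1
          omega
        have hu3 : u.take p0 = (u.take p0).take (c k') ++ (u.take p0).drop (c k') :=
          (List.take_append_drop _ _).symm
        have r1 := hS2 k' hk' p' ((u.take p0).drop (c k')) 1 x' b hp' hlam' hb
        have r2 := hS2 k' hk' ((u.take p0).take (c k')) ((u.take p0).drop (c k')) 1 x b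
          (by rw [List.length_take, hX1l]; omega) hlam hb
        rw [List.take_append_drop] at r2
        rw [mul_one] at r1 r2
        unfold T
        rw [ha1, ha2]
        simp only
        rw [← r1, ← r2]
    · right
      have hend : Wo (p' ++ (u.drop (c k) ++ u1)) := by
        rw [← List.append_assoc, hW.app _ _ (by omega)]
        exact hu1.2.1
      obtain ⟨a, ha, hap, _⟩ := Zn_exists (Wo := Wo) (z := z)
        (w := p' ++ (u.drop (c k) ++ u1)) (t := (p' ++ (u.drop (c k) ++ u1)).length)
        (by simp only [List.length_append]; omega) le_rfl (by rw [List.take_length]; exact hend)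
      exact ⟨a, ha, fun hab => hkS ⟨k', hk', hkk, p', hp', a, ha, hab, hap⟩, hap⟩

end scheme

end Crest.Agent.R320.JT_486
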