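import Crest.Agent.R320.FewVal_228
import Crest.Agent.R320.Hk2_851
import Crest.Agent.R320.JT_486

/-!
# Row 320: block code of left-looking walls on all words (helper486): languages of height one
-/

set_option autoImplicit false

namespace Crest.Agent.R320.Inst486

open Crest.RegLang Crest.Agent.R320.Hk_851 Crest.Agent.R320.FewWalls_228 Crest.Agent.R320.JT_486

variable {α : Type}

/-- left-looking wall at the end of `w` -/
def wl (Sw : Set (List α)) (w : List α) : Prop := ∃ s ∈ Sw, s <:+ w

variable {Sw : Set (List α)} {n z : ℕ}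

theorem wl_app (hS : ∀ s ∈ Sw, s.length = n) {P Q : List α} (hQ : n ≤ Q.length) :
    wl Sw (P ++ Q) ↔ wl Sw Q := by
  constructor
  · rintro ⟨s, hs, hsQ⟩
    refine ⟨s, hs, ?_⟩
    exact List.suffix_of_suffix_length_le hsQ (List.suffix_append P Q) (by rw [hS s hs]; exact hQ)
  · rintro ⟨s, hs, hsQ⟩
    exact ⟨s, hs, hsQ.trans (List.suffix_append P Q)⟩

theorem wl_iff_Wl (hS : ∀ s ∈ Sw, s.length = n) (w : List α) (x : ℕ) :
    Wl n Sw w x ↔ x + n ≤ w.length ∧ wl Sw (w.take (x + n)) := by
  have e0 : (w.take (x + n)).drop x = (w.drop x).take n := by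
    rw [List.drop_take]
    congr 1
    omega
  have h3 : (w.drop x).take n <:+ w.take (x + n) := by
    rw [← e0]
    exact List.drop_suffix _ _
  unfold Wl wl
  constructor
  · rintro ⟨h1, h2⟩
    exact ⟨h1, _, h2, h3⟩
  · rintro ⟨h1, s, hs, h2⟩
    refine ⟨h1, ?_⟩
    have e : s = (w.drop x).take n := by
      have hl : ((w.drop x).take n).length = n := by
        rw [List.length_take, List.length_drop]; omega
      have h4 := List.suffix_of_suffix_length_le h2 h3 (by rw [hS s hs, hl])
      exact h4.eq_of_length (by rw [hS s hs, hl])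
    rw [← e]; exact hs

theorem lw (hS : ∀ s ∈ Sw, s.length = n) {W : ℕ}
    (hsep : ∀ (w : List α) (x y : ℕ), x < y → Wl n Sw w x → Wl n Sw w y → x + W ≤ y) :
    LW n W (wl Sw) where
  len := by
    rintro X ⟨s, hs, h⟩
    rw [← hS s hs]; exact h.length_le
  app := fun P Q h => wl_app hS h
  gap := by
    intro X s t hst ht h1 h2
    have l1 : n ≤ s := by
      obtain ⟨a, ha, h⟩ := h1
      have := h.length_le
      rw [hS a ha, List.length_take] at this
      omega
    have l2 : n ≤ t := by omega
    have g1 : Wl n Sw X (s - n) := (wl_iff_Wl hS X (s - n)).2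
      ⟨by omega, by rw [Nat.sub_add_cancel l1]; exact h1⟩
    have g2 : Wl n Sw X (t - n) := (wl_iff_Wl hS X (t - n)).2
      ⟨by omega, by rw [Nat.sub_add_cancel l2]; exact h2⟩
    have := hsep X _ _ (by omega) g1 g2
    omega

variable [Finite α] {k : ℕ}

theorem HL_wl (hS : ∀ s ∈ Sw, s.length = n) : HL k ({w | wl Sw w} : Language α) := by
  have hfin : Sw.Finite := (List.finite_length_eq α n).subset (fun s hs => hS s hs)
  exact HL.suffix (L := (Sw : Language α)) (HL.finite hfin)

/-- long words with a wall at the end -/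
def UL (Sw : Set (List α)) (z : ℕ) : Language α := {w | z ≤ w.length ∧ wl Sw w}
/-- nonempty words -/
def NE : Language α := {w | ¬ w.length < 1}
/-- few walls and a given value -/
def FWL (n : ℕ) (Sw : Set (List α)) {M : Type} [Monoid M] (φ : α → M) (r : ℕ) (m : M) :
    Language α := {w | nw n Sw w ≤ r ∧ (w.map φ).prod = m}

/-- the zones as a language -/
def ZL (Sw : Set (List α)) (z : ℕ) : Language α := Zn (wl Sw) z

theorem HL_ZL (hS : ∀ s ∈ Sw, s.length = n) (z : ℕ) : HL k (ZL Sw z) := by
  have hU : HL k (UL Sw z) :=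
    HL.setOf_and (HL.length_ge z) (HL_wl hS)
  have hne : HL k (NE : Language α) := HL.setOf_not (HL.length_lt 1)
  have hbad : HL k (UL Sw z * NE) := HL.mul hU hne
  refine (hU.inf hbad.compl).congr fun w => ?_
  show (z ≤ w.length ∧ wl Sw w ∧ ∀ t, z ≤ t → t < w.length → ¬ wl Sw (w.take t)) ↔
    (z ≤ w.length ∧ wl Sw w) ∧ ¬ (w ∈ UL Sw z * NE)
  constructor
  · rintro ⟨h1, h2, h3⟩
    refine ⟨⟨h1, h2⟩, ?_⟩
    intro h
    obtain ⟨a, ⟨ha1, ha2⟩, b, hb, rfl⟩ := Language.mem_mul.1 h
    have hb' : ¬ b.length < 1 := hb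
    refine h3 a.length ha1 (by rw [List.length_append]; omega) ?_
    rw [List.take_left' rfl]
    exact ha2
  · rintro ⟨⟨h1, h2⟩, h3⟩
    refine ⟨h1, h2, ?_⟩
    intro t ht1 ht2 ht3
    refine h3 (Language.mem_mul.2 ⟨w.take t, ⟨by rw [List.length_take]; omega, ht3⟩, w.drop t, ?_,
      List.take_append_drop t w⟩)
    show ¬ (w.drop t).length < 1
    rw [List.length_drop]; omega

omit [Finite α] in
theorem nw_le_of (r : ℕ) (w : List α) (h : ∀ x, Wl n Sw w x → x < r ∨ x + n = w.length) :
    nw n Sw w ≤ r + 1 := by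
  classical
  unfold nw
  have hsub : (Finset.range (w.length + 1)).filter (fun x => Wl n Sw w x) ⊆
      insert (w.length - n) (Finset.range r) := by
    intro x hx
    rw [Finset.mem_filter] at hx
    rw [Finset.mem_insert, Finset.mem_range]
    rcases h x hx.2 with h1 | h1
    · exact Or.inr h1
    · left; omega
  refine (Finset.card_le_card hsub).trans ((Finset.card_insert_le _ _).trans ?_)
  rw [Finset.card_range]

omit [Finite α] in
theorem nw_tail (hS : ∀ s ∈ Sw, s.length = n) {X A R : List α} (e : X = A ++ R)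
    (h : ∀ t, z ≤ t → t < X.length → ¬ wl Sw (X.take t)) : nw n Sw R ≤ z + 1 := by
  refine nw_le_of z _ fun x hx => ?_
  by_contra hc
  rw [not_or] at hc
  obtain ⟨h1, h2⟩ := (wl_iff_Wl hS R x).1 hx
  have hl : X.length = A.length + R.length := by rw [e, List.length_append]
  refine h (A.length + (x + n)) (by omega) (by omega) ?_
  rw [e, List.take_append, List.take_of_length_le (by omega)]
  have e2 : A.length + (x + n) - A.length = x + n := by omega
  rw [e2]
  refine (wl_app hS ?_).2 h2
  rw [List.length_take]; omega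

/-- words in finitely many zones whose value depends on a long prefix and a finite monoid -/
theorem HL_key (hS : ∀ s ∈ Sw, s.length = n) {M : Type} [Monoid M] (φ : α → M) [Finite M]
    (hfew : ∀ (r : ℕ) (m : M), HL 1 (FWL n Sw φ r m))
    (B : ℕ) (p : List α → Prop)
    (hz : ∀ X, p X → ∀ t, z ≤ t → t < X.length → ¬ wl Sw (X.take t))
    (Z : Language α) (hZ : HL 1 Z) (g : List α → Prop)
    (hp : ∀ X, p X ↔ X ∈ Z ∧ g X)
    (hg : ∀ A R R' : List α, A.length = B → (R.map φ).prod = (R'.map φ).prod →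
      (g (A ++ R) ↔ g (A ++ R'))) : HL 1 ({X | p X} : Language α) := by
  classical
  -- short words
  have hs : HL 1 ({X | X.length < B ∧ p X} : Language α) := by
    refine HL.finite (s := {X | X.length < B ∧ p X}) ?_
    exact (List.finite_length_lt α B).subset (fun X hX => hX.1)
  have hfinA : Set.Finite {x : List α × M | x.1.length = B} := by
    refine Set.Finite.subset ((List.finite_length_eq α B).prod (Set.finite_univ (α := M))) ?_
    intro x hx
    exact ⟨hx, trivial⟩
  have hfinA' : Set.Finite {x : List α × M | x.1.length = B ∧ ∃ R : List α,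
      (R.map φ).prod = x.2 ∧ g (x.1 ++ R)} := hfinA.subset (fun x hx => hx.1)
  have hl : HL 1 ({X | ∃ x ∈ {x : List α × M | x.1.length = B ∧ ∃ R : List α,
      (R.map φ).prod = x.2 ∧ g (x.1 ++ R)}, X ∈ ({x.1} : Language α) *
      FWL n Sw φ (z + 1) x.2} : Language α) :=
    (HL.biUnion hfinA' (L := fun x => ({x.1} : Language α) *
      FWL n Sw φ (z + 1) x.2)
      (fun x _ => HL.mul (HL.word x.1) (hfew (z + 1) x.2))).congr fun w => by
        constructor
        · rintro ⟨x, hx, h⟩
          exact ⟨x, hx, h⟩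
        · rintro ⟨x, hx, h⟩
          exact ⟨x, hx, h⟩
  refine (HL.setOf_or hs (HL.setOf_and hZ hl)).congr fun X => ?_
  constructor
  · intro hX
    by_cases hB : X.length < B
    · exact Or.inl ⟨hB, hX⟩
    · right
      obtain ⟨h1, h2⟩ := (hp X).1 hX
      refine ⟨h1, (X.take B, ((X.drop B).map φ).prod), ⟨?_, X.drop B, rfl, ?_⟩, ?_⟩
      · show (X.take B).length = B
        rw [List.length_take]; omega
      · show g (X.take B ++ X.drop B)
        rw [List.take_append_drop]; exact h2
      · refine Language.mem_mul.2 ⟨X.take B, rfl, X.drop B, ⟨?_, rfl⟩, List.take_append_drop B X⟩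
        exact nw_tail hS (List.take_append_drop B X).symm (hz X hX)
  · rintro (h | ⟨h1, x, ⟨h2, R, h3, h4⟩, h5⟩)
    · exact h.2
    · obtain ⟨a, ha, R', ⟨-, hR'⟩, rfl⟩ := Language.mem_mul.1 h5
      have ha' : a = x.1 := ha
      subst ha'
      refine (hp _).2 ⟨h1, ?_⟩
      exact (hg x.1 R R' h2 (h3.trans hR'.symm)).1 h4

end Crest.Agent.R320.Inst486
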