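import Crest.Agent.R320.Block_467

/-!
# Row 320: instance of the two wall schemes, word combinatorics (helper534)

Natural chain rule on left-looking walls: block = prefix up to the first wall at distance `≥ z`.
`X = X₀ ++ Y`, `|X₀| = p0`.  Scheme 1 = abstract gadget `lam rho nu1` on `Y` (bad lengths `Bd`),
scheme 2 = exact gadget `lam2 rho2 nu2` on `X₀` at the ruler places `c k`.
-/

set_option autoImplicit false

namespace Crest.Agent.R320.Inst534

open Crest.Agent.R320.Blk467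

variable {α S V : Type} [Monoid S] [AddCommGroup V]

/-- data of the two schemes -/
structure Dt (α S V : Type) where
  ph : List α → S
  act : V → S → V
  n : ℕ
  z : ℕ
  p0 : ℕ
  N1 : ℕ
  La : ℕ
  K : ℕ
  Λ : ℕ
  C0 : ℕ
  R : ℕ
  Wo : List α → Prop
  c : ℕ → ℕ
  Bd : ℕ → Prop
  lam : List α → Option V
  rho : List α → Option V
  nu1 : List α → V
  lam2 : ℕ → List α → Option V
  rho2 : ℕ → List α → Option V
  nu2 : List α → V

/-- blocks -/
def Dt.XX (D : Dt α S V) : Set (List α) :=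
  {X | D.z ≤ X.length ∧ D.Wo X ∧ ∀ t, D.z ≤ t → t < X.length → ¬ D.Wo (X.take t)}

/-- noise of a block -/
def Dt.nu (D : Dt α S V) (X : List α) : V :=
  D.act (D.nu2 (X.take D.p0)) (D.ph (X.drop D.p0)) + D.nu1 (X.drop D.p0)

/-- block map -/
def Dt.T (D : Dt α S V) (v : V) (X : List α) : V := D.act v (D.ph X) + D.nu X

/-- the wall band -/
def Dt.EB (D : Dt α S V) (X : List α) : Prop :=
  ∃ t, t ≤ X.length ∧ D.Wo (X.take t) ∧ D.z ≤ t + D.N1 ∧ t ≤ D.z + D.N1

/-- bad blocks -/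
def Dt.Bad (D : Dt α S V) : Set (List α) :=
  {X | X ∈ D.XX ∧ (D.EB X ∨ D.Bd (X.length - D.p0))}

def Dt.LP1 (D : Dt α S V) (v : V) : Set (List α) :=
  {P | D.p0 ≤ P.length ∧
    D.lam (P.drop D.p0) = some (D.act v (D.ph (P.take D.p0)) + D.nu2 (P.take D.p0))}

def Dt.RQ1 (D : Dt α S V) (b : V) : Set (List α) :=
  {Q | ∀ v P, P ∈ D.LP1 v → P ++ Q ∈ D.XX ∧ D.T v (P ++ Q) = b}

def Dt.LP2 (D : Dt α S V) (v : V) : Set (List α) :=
  {P | ∃ k < D.K, P.length = D.c k ∧ D.lam2 k P = some v}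

/-- two bad blocks -/
def Dt.Two (D : Dt α S V) (v b : V) : Set (List α) :=
  {w | ∃ X Y, X ∈ D.Bad ∧ Y ∈ D.Bad ∧ X ++ Y = w ∧ D.T (D.T v X) Y = b}

/-- the first block is not bad -/
def Dt.NB (D : Dt α S V) : Set (List α) :=
  {w | ∃ X, X ∈ D.XX ∧ X ∉ D.Bad ∧ X <+: w}

def Dt.RQ2 (D : Dt α S V) (b : V) : Set (List α) :=
  {Q | ∀ v P, P ∈ D.LP2 v → P ++ Q ∈ D.Two v b ∨ P ++ Q ∈ D.NB}

structure Dt.Ok (D : Dt α S V) : Prop where
  ph_app : ∀ u v, D.ph (u ++ v) = D.ph u * D.ph v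
  act_mul : ∀ v s t, D.act v (s * t) = D.act (D.act v s) t
  act_add : ∀ v w s, D.act (v + w) s = D.act v s + D.act w s
  loc : ∀ P Q, D.n ≤ Q.length → (D.Wo (P ++ Q) ↔ D.Wo Q)
  gap : ∀ (X : List α) (s t : ℕ), s < t → t ≤ X.length → D.Wo (X.take s) → D.Wo (X.take t) →
    2 * (D.Λ + D.N1) + 2 < t - s
  hc : ∀ k < D.K, D.c k ≤ D.Λ
  hcp : D.Λ ≤ D.p0
  hz : D.p0 + D.N1 + D.n + D.Λ + D.La + 1 ≤ D.z
  inj : ∀ i j, i < j → j < D.K → D.c i < D.c j
  ruler : ∀ i j k l, i < D.K → j < D.K → k < D.K → l < D.K → i ≠ j → k ≠ l → (i, j) ≠ (k, l) →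
    D.c i + D.c l + 4 * D.N1 < D.c k + D.c j ∨ D.c k + D.c j + 4 * D.N1 < D.c i + D.c l
  thin : ∀ T, D.La ≤ T → ∀ F : Finset (ℕ × ℕ),
    (∀ p ∈ F, p.1 < D.K ∧ p.2 < D.K ∧ p.1 ≠ p.2 ∧ D.Bd (T + D.c p.2 - D.c p.1)) → F.card ≤ D.C0
  lamlen : ∀ P v, D.lam P = some v → P.length ≤ D.N1
  snd : ∀ P Q v b, D.lam P = some v → D.rho Q = some b → D.La ≤ Q.length →
    b = D.act v (D.ph (P ++ Q)) + D.nu1 (P ++ Q)
  cmp : ∀ Y : List α, D.La + D.N1 ≤ Y.length → ¬ D.Bd Y.length → ∀ v, ∃ P Q, P ++ Q = Y ∧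
    D.lam P = some v ∧ (D.rho Q).isSome
  snd2 : ∀ k < D.K, ∀ (P Q : List α) (v b : V), P.length = D.c k → D.lam2 k P = some v →
    D.rho2 k Q = some b → b = D.act v (D.ph (P ++ Q)) + D.nu2 (P ++ Q)
  cmp2 : ∀ (u : List α) (v : V), u.length = D.p0 → ∃ I : Finset ℕ, D.R ≤ I.card ∧
    ∀ k ∈ I, k < D.K ∧ D.lam2 k (u.take (D.c k)) = some v ∧ (D.rho2 k (u.drop (D.c k))).isSome
  hR : 2 * D.C0 + 2 ≤ D.R

variable {D : Dt α S V}

theorem Dt.T_split (h : D.Ok) (v : V) (X Y : List α) (hX : X.length = D.p0) :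
    D.T v (X ++ Y) = D.act (D.act v (D.ph X) + D.nu2 X) (D.ph Y) + D.nu1 Y := by
  have e1 : (X ++ Y).take D.p0 = X := by rw [← hX, List.take_left]
  have e2 : (X ++ Y).drop D.p0 = Y := by rw [← hX, List.drop_left]
  unfold Dt.T Dt.nu
  rw [e1, e2, h.ph_app, h.act_mul, h.act_add]
  abel

theorem Dt.pcode (h : D.Ok) : PCode D.XX := by
  constructor
  · rintro ⟨h1, -, -⟩
    have := h.hz
    simp at h1
    omega
  · rintro X ⟨hX1, hX2, hX3⟩ Y ⟨hY1, hY2, hY3⟩ ⟨E, rfl⟩
    by_contra hne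
    have hl : 0 < E.length := by
      rcases Nat.eq_zero_or_pos E.length with h0 | h0
      · exact absurd (by rw [List.length_eq_zero_iff.1 h0, List.append_nil]) hne
      · exact h0
    have := hY3 X.length hX1 (by rw [List.length_append]; omega)
    rw [List.take_left] at this
    exact this hX2

/-- walls behind the cut place do not depend on the left part -/
theorem Dt.wall_shift (h : D.Ok) (P P' Q : List α) (t : ℕ) (ht : D.n ≤ t) (htQ : t ≤ Q.length) :
    D.Wo ((P ++ Q).take (P.length + t)) ↔ D.Wo ((P' ++ Q).take (P'.length + t)) := by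
  have e : ∀ R : List α, (R ++ Q).take (R.length + t) = R ++ Q.take t := by
    intro R
    rw [List.take_append, List.take_of_length_le (by omega)]
    congr 2
    omega
  rw [e, e, h.loc _ _ (by rw [List.length_take]; omega), h.loc _ _ (by rw [List.length_take]; omega)]

theorem Dt.s1 : ∀ v b P Q, P ∈ D.LP1 v → Q ∈ D.RQ1 b → P ++ Q ∈ D.XX ∧ D.T v (P ++ Q) = b :=
  fun v _ P _ hP hQ => hQ v P hP

theorem Dt.LP1_len (h : D.Ok) {v : V} {P : List α} (hP : P ∈ D.LP1 v) :
    D.p0 ≤ P.length ∧ P.length ≤ D.p0 + D.N1 := by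
  have := h.lamlen _ _ hP.2
  rw [List.length_drop] at this
  exact ⟨hP.1, by omega⟩

/-- junction lemma for scheme 1 -/
theorem Dt.junction1 (h : D.Ok) {X P Q : List α} (hX : X ∈ D.XX) (hE : ¬ D.EB X)
    (hPQ : P ++ Q = X) (hP1 : D.p0 ≤ P.length) (hP2 : P.length ≤ D.p0 + D.N1)
    {P' : List α} (hP1' : D.p0 ≤ P'.length) (hP2' : P'.length ≤ D.p0 + D.N1) :
    P' ++ Q ∈ D.XX := by
  subst hPQ
  obtain ⟨h1, h2, h3⟩ := hX
  have hz := h.hz
  rw [List.length_append] at h1
  have hnE : ∀ t, t ≤ (P ++ Q).length → D.Wo ((P ++ Q).take t) → ¬ (D.z ≤ t + D.N1 ∧ t ≤ D.z + D.N1) :=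
    fun t ht hw hb => hE ⟨t, ht, hw, hb.1, hb.2⟩
  have hend := hnE (P ++ Q).length le_rfl (by rw [List.take_length]; exact h2)
  rw [List.length_append] at hend
  refine ⟨?_, ?_, ?_⟩
  · rw [List.length_append]; omega
  · have e1 := D.wall_shift h P P' Q Q.length (by omega) le_rfl
    rw [← List.length_append, ← List.length_append, List.take_length, List.take_length] at e1
    exact e1.1 h2
  · intro t ht1 ht2 hw
    rw [List.length_append] at ht2
    obtain ⟨q, rfl⟩ : ∃ q, t = P'.length + q := ⟨t - P'.length, by omega⟩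
    have e1 := (D.wall_shift h P P' Q q (by omega) (by omega)).2 hw
    have hb := hnE (P.length + q) (by rw [List.length_append]; omega) e1
    by_cases hzq : D.z ≤ P.length + q
    · exact h3 _ hzq (by rw [List.length_append]; omega) e1
    · exact hb ⟨by omega, by omega⟩

theorem Dt.c1 (h : D.Ok) : ∀ X ∈ D.XX, X ∉ D.Bad → ∀ v, ∃ P Q, P ++ Q = X ∧ P ∈ D.LP1 v ∧
    Q ∈ D.RQ1 (D.T v X) := by
  intro X hX hB v
  have hE : ¬ D.EB X := fun he => hB ⟨hX, Or.inl he⟩
  have hBd : ¬ D.Bd (X.length - D.p0) := fun he => hB ⟨hX, Or.inr he⟩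
  have hz := h.hz
  have hl := hX.1
  have hend : ¬ X.length ≤ D.z + D.N1 := fun hc =>
    hE ⟨X.length, le_rfl, by rw [List.take_length]; exact hX.2.1, by omega, hc⟩
  set u := D.act v (D.ph (X.take D.p0)) + D.nu2 (X.take D.p0) with hu
  obtain ⟨p, q, hpq, hp, hq⟩ := h.cmp (X.drop D.p0) (by rw [List.length_drop]; omega)
    (by rw [List.length_drop]; exact hBd) u
  obtain ⟨r, hr⟩ := Option.isSome_iff_exists.1 hq
  have hpl := h.lamlen _ _ hp
  have hlX0 : (X.take D.p0).length = D.p0 := by rw [List.length_take]; omega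
  have hXe : X = X.take D.p0 ++ (p ++ q) := by rw [hpq, List.take_append_drop]
  have hql : D.La ≤ q.length := by
    have := congrArg List.length hpq
    rw [List.length_append, List.length_drop] at this
    omega
  have hPQ : (X.take D.p0 ++ p) ++ q = X := by rw [List.append_assoc, ← hXe]
  have hPlen : (X.take D.p0 ++ p).length = D.p0 + p.length := by rw [List.length_append, hlX0]
  have hTX : D.T v X = r := by
    conv_lhs => rw [hXe]
    rw [D.T_split h _ _ _ hlX0, h.snd p q u r hp hr hql]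
  refine ⟨X.take D.p0 ++ p, q, hPQ, ⟨by omega, ?_⟩, ?_⟩
  · have e1 : (X.take D.p0 ++ p).take D.p0 = X.take D.p0 := List.take_left' hlX0
    have e2 : (X.take D.p0 ++ p).drop D.p0 = p := List.drop_left' hlX0
    rw [e1, e2]; exact hp
  · intro v' P' hP'
    obtain ⟨g1, g2⟩ := D.LP1_len h hP'
    refine ⟨D.junction1 h hX hE hPQ (by omega) (by omega) g1 g2, ?_⟩
    have hP0 : (P'.take D.p0).length = D.p0 := by rw [List.length_take]; omega
    have e3 : P' ++ q = P'.take D.p0 ++ (P'.drop D.p0 ++ q) := by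
      rw [← List.append_assoc, List.take_append_drop]
    rw [e3, D.T_split h _ _ _ hP0, ← h.snd _ q _ r hP'.2 hr hql, hTX]

theorem Dt.s2 (h : D.Ok) : ∀ v b P Q r, P ∈ D.LP2 v → Q ∈ D.RQ2 b → P ++ Q ++ r ∈ Str D.Bad →
    P ++ Q ∈ Lg D.Bad D.T v b := by
  intro v b P Q r hP hQ hr
  rcases hQ v P hP with ⟨X, Y, hX, hY, hXY, hT⟩ | ⟨X, hX, hXB, hpre⟩
  · refine ⟨[X, Y], ?_, by simpa using hXY, by simpa using hT⟩
    intro Z hZ
    rcases List.mem_cons.1 hZ with rfl | hZ
    · exact hX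
    · rcases List.mem_cons.1 hZ with rfl | hZ
      · exact hY
      · exact absurd hZ (by simp)
  · exfalso
    obtain ⟨l, hl, hfl⟩ := hr
    obtain ⟨E, hE⟩ := hpre
    cases l with
    | nil =>
      have h0 : X = [] := by
        have := congrArg List.length hfl
        rw [← hE] at this
        simp only [List.flatten_nil, List.length_nil, List.length_append] at this
        exact List.length_eq_zero_iff.1 (by omega)
      exact (D.pcode h).1 (h0 ▸ hX)
    | cons Z l =>
      have hZ : Z ∈ D.Bad := hl Z (by simp)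
      have hZX : Z ∈ D.XX := hZ.1
      have e : Z ++ l.flatten = X ++ (E ++ r) := by
        rw [← List.append_assoc, hE]; simpa using hfl
      have hcomp : Z = X := by
        rcases List.prefix_or_prefix_of_prefix (l₁ := Z) (l₂ := X) (l₃ := Z ++ l.flatten)
          ⟨_, rfl⟩ ⟨_, e.symm⟩ with h1 | h1
        · exact (D.pcode h).2 _ hZX _ hX h1
        · exact ((D.pcode h).2 _ hX _ hZX h1).symm
      exact hXB (hcomp ▸ hZ)


/-- unspoiled place -/
theorem Dt.unspoiled (h : D.Ok) (w0 : List α) (s0 s1 : ℕ)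
    (h0 : D.z ≤ s0 + D.Λ) (h1 : s0 ≤ s1) (I : Finset ℕ) (hI : D.R ≤ I.card) (hIK : ∀ k ∈ I, k < D.K) :
    ∃ k ∈ I, ∀ j < D.K, j ≠ k →
      ¬ (∃ s, s ≤ w0.length ∧ D.Wo (w0.take s) ∧ D.z + D.c k ≤ s + D.c j + D.N1 ∧
        s + D.c j ≤ D.z + D.c k + D.N1) ∧
      ¬ D.Bd ((s0 - D.p0) + D.c j - D.c k) ∧ ¬ D.Bd ((s1 - D.p0) + D.c j - D.c k) := by
  classical
  by_contra hcon
  push Not at hcon
  let E : ℕ → ℕ → Prop := fun k j => ∃ s, s ≤ w0.length ∧ D.Wo (w0.take s) ∧
    D.z + D.c k ≤ s + D.c j + D.N1 ∧ s + D.c j ≤ D.z + D.c k + D.N1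
  have hex : ∀ k ∈ I, ∃ j, j < D.K ∧ j ≠ k ∧ (E k j ∨ D.Bd ((s0 - D.p0) + D.c j - D.c k) ∨
      D.Bd ((s1 - D.p0) + D.c j - D.c k)) := by
    intro k hk
    obtain ⟨j, hj, hjk, hh⟩ := hcon k hk
    refine ⟨j, hj, hjk, ?_⟩
    by_cases hE : E k j
    · exact Or.inl hE
    · by_cases hB : D.Bd ((s0 - D.p0) + D.c j - D.c k)
      · exact Or.inr (Or.inl hB)
      · refine Or.inr (Or.inr ?_)
        by_contra hB1
        exact hB1 (hh (fun s g1 g2 g3 => not_le.1 (fun g4 => hE ⟨s, g1, g2, g3, g4⟩)) hB)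
  choose! j hj1 hj2 hj3 using hex
  let Pr : Finset (ℕ × ℕ) := (Finset.range D.K) ×ˢ (Finset.range D.K)
  let FE : Finset (ℕ × ℕ) := Pr.filter fun p => p.1 ≠ p.2 ∧ E p.1 p.2
  let F0 : Finset (ℕ × ℕ) := Pr.filter fun p => p.1 ≠ p.2 ∧ D.Bd ((s0 - D.p0) + D.c p.2 - D.c p.1)
  let F1 : Finset (ℕ × ℕ) := Pr.filter fun p => p.1 ≠ p.2 ∧ D.Bd ((s1 - D.p0) + D.c p.2 - D.c p.1)
  have hz := h.hz
  have hFE : FE.card ≤ 1 := by
    rw [Finset.card_le_one]
    rintro ⟨a, b⟩ hab ⟨a', b'⟩ hab'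
    simp only [FE, Pr, Finset.mem_filter, Finset.mem_product, Finset.mem_range] at hab hab'
    obtain ⟨⟨ha, hb⟩, hne, s, g1, g2, g3, g4⟩ := hab
    obtain ⟨⟨ha', hb'⟩, hne', s', g1', g2', g3', g4'⟩ := hab'
    by_contra hpne
    have c1 := h.hc a ha
    have c2 := h.hc b hb
    have c3 := h.hc a' ha'
    have c4 := h.hc b' hb'
    have hss : s = s' := by
      rcases lt_trichotomy s s' with hlt | he | hlt
      · have h5 := h.gap w0 s s' hlt g1' g2 g2'
        omega
      · exact he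
      · have h5 := h.gap w0 s' s hlt g1 g2' g2
        omega
    subst hss
    have hr := h.ruler a b a' b' ha hb ha' hb' hne hne' hpne
    omega
  have hF : ∀ s, D.z ≤ s + D.Λ → (Pr.filter fun p => p.1 ≠ p.2 ∧
      D.Bd ((s - D.p0) + D.c p.2 - D.c p.1)).card ≤ D.C0 := by
    intro s hs
    refine h.thin (s - D.p0) (by have := h.hcp; omega) _ ?_
    rintro ⟨a, b⟩ hab
    simp only [Pr, Finset.mem_filter, Finset.mem_product, Finset.mem_range] at hab
    exact ⟨hab.1.1, hab.1.2, hab.2.1, hab.2.2⟩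
  have hsub : I.image (fun k => (k, j k)) ⊆ FE ∪ (F0 ∪ F1) := by
    intro p hp
    obtain ⟨k, hk, rfl⟩ := Finset.mem_image.1 hp
    have hkK := hIK k hk
    have hjK := hj1 k hk
    have hne : k ≠ j k := fun e => hj2 k hk e.symm
    rcases hj3 k hk with hh | hh | hh
    · exact Finset.mem_union_left _ (by
        simp only [FE, Pr, Finset.mem_filter, Finset.mem_product, Finset.mem_range]
        exact ⟨⟨hkK, hjK⟩, hne, hh⟩)
    · exact Finset.mem_union_right _ (Finset.mem_union_left _ (by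
        simp only [F0, Pr, Finset.mem_filter, Finset.mem_product, Finset.mem_range]
        exact ⟨⟨hkK, hjK⟩, hne, hh⟩))
    · exact Finset.mem_union_right _ (Finset.mem_union_right _ (by
        simp only [F1, Pr, Finset.mem_filter, Finset.mem_product, Finset.mem_range]
        exact ⟨⟨hkK, hjK⟩, hne, hh⟩))
  have hcard : (I.image (fun k => (k, j k))).card = I.card :=
    Finset.card_image_of_injOn (fun a _ b _ hab => (Prod.mk.inj hab).1)
  have h5 := Finset.card_le_card hsub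
  have h6 := Finset.card_union_le FE (F0 ∪ F1)
  have h7 := Finset.card_union_le F0 F1
  have h8 := hF s0 h0
  have h9 := hF s1 (by omega)
  have h10 := h.hR
  change F0.card ≤ D.C0 at h8
  change F1.card ≤ D.C0 at h9
  omega

theorem Dt.c2 (h : D.Ok) : ∀ X ∈ D.Bad, ∀ X' ∈ D.Bad, ∀ v, ∃ P Q, P ++ Q = X ++ X' ∧
    P ∈ D.LP2 v ∧ Q ∈ D.RQ2 (D.T (D.T v X) X') := by
  classical
  intro X hXB X' hXB' v
  have hX := hXB.1
  have hX' := hXB'.1
  have hz := h.hz
  have hcp := h.hcp
  have hXl := hX.1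
  have hXl' := hX'.1
  set w0 := X ++ X' with hw0
  have hw0l : w0.length = X.length + X'.length := by rw [hw0, List.length_append]
  -- the walls of `w0`
  have hwX : D.Wo (w0.take X.length) := by rw [hw0, List.take_left]; exact hX.2.1
  have hwXX : D.Wo (w0.take w0.length) := by
    rw [List.take_length, hw0, h.loc _ _ (by omega)]; exact hX'.2.1
  have ex0 : ∃ s, D.z ≤ s + D.Λ ∧ s ≤ w0.length ∧ D.Wo (w0.take s) :=
    ⟨X.length, by omega, by omega, hwX⟩
  obtain ⟨g1, g2, g3⟩ := Nat.find_spec ex0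
  have hmin0 : ∀ s, D.z ≤ s + D.Λ → s ≤ w0.length → D.Wo (w0.take s) → Nat.find ex0 ≤ s :=
    fun s a b c => Nat.find_min' ex0 ⟨a, b, c⟩
  set s0 := Nat.find ex0 with hs0
  have hs0X : s0 ≤ X.length := hmin0 _ (by omega) (by omega) hwX
  have ex1 : ∃ s, s0 < s ∧ s ≤ w0.length ∧ D.Wo (w0.take s) :=
    ⟨w0.length, by omega, le_rfl, hwXX⟩
  obtain ⟨g4, g5, g6⟩ := Nat.find_spec ex1
  have hmin1 : ∀ s, s0 < s → s ≤ w0.length → D.Wo (w0.take s) → Nat.find ex1 ≤ s :=
    fun s a b c => Nat.find_min' ex1 ⟨a, b, c⟩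
  set s1 := Nat.find ex1 with hs1
  have hgap01 := h.gap w0 s0 s1 g4 g5 g3 g6
  -- the place
  have hlX0 : (X.take D.p0).length = D.p0 := by rw [List.length_take]; omega
  obtain ⟨I, hIR, hI⟩ := h.cmp2 (X.take D.p0) v hlX0
  obtain ⟨k, hkI, hk⟩ := D.unspoiled h w0 s0 s1 g1 (by omega) I hIR (fun k hk => (hI k hk).1)
  obtain ⟨hkK, hlam, hrho⟩ := hI k hkI
  obtain ⟨b0, hb0⟩ := Option.isSome_iff_exists.1 hrho
  have hck := h.hc k hkK
  have e1 : (X.take D.p0).take (D.c k) = X.take (D.c k) := by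
    rw [List.take_take]; congr 1; omega
  rw [e1] at hlam
  have hlP : (X.take (D.c k)).length = D.c k := by rw [List.length_take]; omega
  have hPQ : X.take (D.c k) ++ (X.drop (D.c k) ++ X') = w0 := by
    rw [← List.append_assoc, List.take_append_drop]
  have hTe : ∀ v' P', P'.length = D.c k → D.lam2 k P' = some v' →
      D.T v' (P' ++ X.drop (D.c k)) = D.act b0 (D.ph (X.drop D.p0)) + D.nu1 (X.drop D.p0) := by
    intro v' P' hP' hl'
    have e2 : P' ++ X.drop (D.c k) = (P' ++ (X.take D.p0).drop (D.c k)) ++ X.drop D.p0 := by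
      rw [List.append_assoc]
      congr 1
      have e3 : X.take D.p0 ++ X.drop D.p0 = X := List.take_append_drop _ _
      conv_lhs => rw [← e3]
      rw [List.drop_append_of_le_length (by omega)]
    rw [e2, D.T_split h _ _ _ (by
      rw [List.length_append, List.length_drop, hlX0, hP']; omega),
      ← h.snd2 k hkK P' _ v' b0 hP' hl' hb0]
  have hTX : D.T v X = D.act b0 (D.ph (X.drop D.p0)) + D.nu1 (X.drop D.p0) := by
    have := hTe v (X.take (D.c k)) hlP hlam
    rwa [List.take_append_drop] at this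
  refine ⟨X.take (D.c k), X.drop (D.c k) ++ X', hPQ, ⟨k, hkK, hlP, hlam⟩, ?_⟩
  rintro v' P' ⟨j, hjK, hP', hl'⟩
  have hcj := h.hc j hjK
  by_cases hjk : j = k
  · subst hjk
    have hX2 : P' ++ X.drop (D.c j) ∈ D.XX := by
      obtain ⟨a1, a2, a3⟩ := hX
      refine ⟨by rw [List.length_append, List.length_drop]; omega, ?_, ?_⟩
      · have e4 := D.wall_shift h (X.take (D.c j)) P' (X.drop (D.c j)) (X.length - D.c j)
          (by omega) (by rw [List.length_drop])
        rw [List.take_append_drop, hlP, List.take_of_length_le (l := X) (by omega),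
          List.take_of_length_le (l := P' ++ X.drop (D.c j))
            (by simp only [List.length_append, List.length_drop]; omega)] at e4
        exact e4.1 a2
      · intro t ht1 ht2 hw
        rw [List.length_append, List.length_drop] at ht2
        have e4 := D.wall_shift h (X.take (D.c j)) P' (X.drop (D.c j)) (t - D.c j)
          (by omega) (by rw [List.length_drop]; omega)
        rw [List.take_append_drop, hlP, hP', show D.c j + (t - D.c j) = t by omega] at e4
        exact a3 t ht1 (by omega) (e4.2 hw)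
    by_cases hbad : P' ++ X.drop (D.c j) ∈ D.Bad
    · left
      refine ⟨P' ++ X.drop (D.c j), X', hbad, hXB', by rw [List.append_assoc], ?_⟩
      rw [hTe v' P' hP' hl', hTX]
    · right
      exact ⟨_, hX2, hbad, ⟨X', by rw [List.append_assoc]⟩⟩
  · right
    obtain ⟨hE, hB0, hB1⟩ := hk j hjK hjk
    set w := P' ++ (X.drop (D.c k) ++ X') with hw
    have hwl : w.length = D.c j + (w0.length - D.c k) := by
      rw [hw, List.length_append, List.length_append, List.length_drop, hP', hw0l]; omega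
    have hQl : (X.drop (D.c k) ++ X').length = w0.length - D.c k := by
      rw [List.length_append, List.length_drop]; omega
    -- walls of `w` and of `w0`
    have hsh : ∀ q, D.n ≤ q → q ≤ w0.length - D.c k →
        (D.Wo (w0.take (D.c k + q)) ↔ D.Wo (w.take (D.c j + q))) := by
      intro q hq1 hq2
      have e4 := D.wall_shift h (X.take (D.c k)) P' (X.drop (D.c k) ++ X') q hq1 (by omega)
      rwa [hPQ, hlP, hP', ← hw] at e4
    have exw : ∃ t, D.z ≤ t ∧ t ≤ w.length ∧ D.Wo (w.take t) := by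
      refine ⟨D.c j + (w0.length - D.c k), by omega, by omega, ?_⟩
      rw [← hsh _ (by omega) le_rfl, show D.c k + (w0.length - D.c k) = w0.length by omega]
      exact hwXX
    obtain ⟨k1, k2, k3⟩ := Nat.find_spec exw
    have hminw : ∀ t, D.z ≤ t → t ≤ w.length → D.Wo (w.take t) → Nat.find exw ≤ t :=
      fun t a b c => Nat.find_min' exw ⟨a, b, c⟩
    set t2 := Nat.find exw with ht2
    have ht2l : (w.take t2).length = t2 := by rw [List.length_take]; omega
    have hXX : w.take t2 ∈ D.XX := by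
      refine ⟨by omega, k3, ?_⟩
      intro t h1 h2 h3
      rw [ht2l] at h2
      rw [List.take_take, min_eq_left (by omega)] at h3
      exact absurd (hminw t h1 (by omega) h3) (by omega)
    refine ⟨w.take t2, hXX, ?_, List.take_prefix _ _⟩
    rintro ⟨-, ⟨t, m1, m2, m3, m4⟩ | hBd⟩
    · rw [ht2l] at m1
      rw [List.take_take, min_eq_left (by omega)] at m2
      obtain ⟨q, rfl⟩ : ∃ q, t = D.c j + q := ⟨t - D.c j, by omega⟩
      have e5 := (hsh q (by omega) (by omega)).2 m2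
      exact hE ⟨D.c k + q, by omega, e5, by omega, by omega⟩
    · rw [ht2l] at hBd
      obtain ⟨q, hq⟩ : ∃ q, t2 = D.c j + q := ⟨t2 - D.c j, by omega⟩
      have e5 : D.Wo (w0.take (D.c k + q)) := (hsh q (by omega) (by omega)).2 (by rw [← hq]; exact k3)
      have hge := hmin0 (D.c k + q) (by omega) (by omega) e5
      rcases Nat.eq_or_lt_of_le hge with he | hlt
      · apply hB0
        have : (s0 - D.p0) + D.c j - D.c k = t2 - D.p0 := by omega
        rw [this]; exact hBd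
      · have hge1 := hmin1 (D.c k + q) hlt (by omega) e5
        -- `s1` is a wall of `w` behind `z`
        have hs1w : D.Wo (w.take (D.c j + (s1 - D.c k))) := by
          rw [← hsh _ (by omega) (by omega), show D.c k + (s1 - D.c k) = s1 by omega]
          exact g6
        have hle := hminw (D.c j + (s1 - D.c k)) (by omega) (by omega) hs1w
        apply hB1
        have : (s1 - D.p0) + D.c j - D.c k = t2 - D.p0 := by omega
        rw [this]; exact hBd

end Crest.Agent.R320.Inst534
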