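import Crest.Agent.R320.Asm_505

/-!
# Row 320 (helper735): concrete one-token instance of 505's two-level theorem

Left-looking outer walls on all words, natural chain rule (first wall `t ≥ z`, the zone ends one wall
later), scheme 1 = any gadget `lam rho nu1` (window `N1`, thin set `BadT`), scheme 2 = exact gadget
with a ruler; noise of both gadgets in one zone map.
-/

set_option autoImplicit false

namespace Crest.Agent.R320.Inst_735

open Crest.RegLang Crest.Agent.R320.Hk_851 Crest.Agent.R320.Asm_505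

universe u

variable {α : Type u} {S V : Type} [Monoid S] [AddCommGroup V]

/-- product -/
def pr (f : α → S) (w : List α) : S := (w.map f).prod

theorem pr_app (f : α → S) (a b : List α) : pr f (a ++ b) = pr f a * pr f b := by
  simp [pr]

/-- wall at place `s` -/
def Wp (Wo : List α → Prop) (X : List α) (s : ℕ) : Prop := s ≤ X.length ∧ Wo (X.take s)

/-- `t` is the first wall at a place `≥ q` -/
def Fs (Wo : List α → Prop) (q : ℕ) (X : List α) (t : ℕ) : Prop :=
  q ≤ t ∧ Wp Wo X t ∧ ∀ s, q ≤ s → s < t → ¬ Wp Wo X s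

/-- the word ends at the first wall behind `t` -/
def Nx (Wo : List α → Prop) (X : List α) (t : ℕ) : Prop :=
  t < X.length ∧ Wo X ∧ ∀ s, t < s → s < X.length → ¬ Wp Wo X s

structure Par (α : Type u) (S V : Type) [Monoid S] [AddCommGroup V] where
  f : α → S
  act : V → S → V
  Wo : List α → Prop
  n : ℕ
  W : ℕ
  lam : List α → Option V
  rho : List α → Option V
  nu1 : List α → V
  N1 : ℕ
  N2 : ℕ
  BadT : ℕ → Prop
  K : ℕ
  c : ℕ → ℕ
  lam2 : ℕ → List α → Option V
  rho2 : ℕ → List α → Option V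
  nu2 : List α → V
  p0 : ℕ
  q : ℕ
  R0 : ℕ

namespace Par

variable (D : Par α S V)

/-- minimal zone length -/
def z : ℕ := D.p0 + D.q + D.N1

structure Ok : Prop where
  act_add : ∀ v w s, D.act (v + w) s = D.act v s + D.act w s
  act_mul : ∀ v s s', D.act (D.act v s) s' = D.act v (s * s')
  act_one : ∀ v, D.act v 1 = v
  faith : ∀ s s', (∀ v, D.act v s = D.act v s') → s = s'
  loc : ∀ P Q, D.n ≤ Q.length → (D.Wo (P ++ Q) ↔ D.Wo Q)
  gap : ∀ X s t, s < t → Wp D.Wo X s → Wp D.Wo X t → D.W < t - s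
  nq : D.n ≤ D.q
  p0pos : 0 < D.p0
  N2q : D.N2 ≤ D.q + D.N1
  hW : D.p0 + D.N1 ≤ D.W
  g_sound : ∀ P Q v r, D.lam P = some v → D.rho Q = some r →
    r = D.act v (pr D.f (P ++ Q)) + D.nu1 (P ++ Q)
  g_len : ∀ P v, D.lam P = some v → P.length ≤ D.N1
  g_compl : ∀ Y, D.N2 ≤ Y.length → ¬ D.BadT Y.length → ∀ v, ∃ P Q, Y = P ++ Q ∧
    D.lam P = some v ∧ (D.rho Q).isSome
  cpos : ∀ k < D.K, 0 < D.c k
  cp0 : ∀ k < D.K, D.c k ≤ D.p0
  cinj : ∀ k < D.K, ∀ k' < D.K, D.c k = D.c k' → k = k'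
  e_sound : ∀ k < D.K, ∀ P Q v y, P.length = D.c k → D.lam2 k P = some v →
    D.rho2 k Q = some y → y = D.act v (pr D.f (P ++ Q)) + D.nu2 (P ++ Q)
  e_compl : ∀ X : List α, X.length = D.p0 → ∀ v, ∀ F : Finset ℕ, F.card ≤ D.R0 →
    ∃ k < D.K, k ∉ F ∧ D.lam2 k (X.take (D.c k)) = some v ∧
      (D.rho2 k (X.drop (D.c k))).isSome
  /-- thinness, for the (at most three) candidate walls `τ` -/
  thinT : ∃ R1 : ℕ, 3 * (R1 + 1) ≤ D.R0 ∧ ∀ τ, D.z ≤ τ + D.p0 → ∃ F : Finset ℕ, F.card ≤ R1 ∧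
    ∀ k < D.K, ∀ k' < D.K, k ≠ k' → D.BadT (τ + D.c k' - D.c k - D.p0) → k ∈ F
  thinE : ∀ τ, ∃ F : Finset ℕ, F.card ≤ 1 ∧
    ∀ k < D.K, ∀ k' < D.K, k ≠ k' → τ + D.c k' < D.z + D.c k + D.N1 →
      D.z + D.c k ≤ τ + D.c k' + D.N1 → k ∈ F

/-- the first wall behind `z` -/
noncomputable def tt (X : List α) : ℕ := sInf {t | D.z ≤ t ∧ Wp D.Wo X t}

theorem tt_eq {X : List α} {t : ℕ} (h : Fs D.Wo D.z X t) : D.tt X = t := by
  have hm : t ∈ {t | D.z ≤ t ∧ Wp D.Wo X t} := ⟨h.1, h.2.1⟩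
  refine le_antisymm (Nat.sInf_le hm) ?_
  by_contra hlt
  have hlt : D.tt X < t := not_le.1 hlt
  have := Nat.sInf_mem ⟨t, hm⟩
  exact h.2.2 _ this.1 hlt this.2

/-- zones -/
def U : Language α := {X | ∃ t, Fs D.Wo D.z X t ∧ Nx D.Wo X t}

/-- zone map -/
noncomputable def eps (X : List α) (v : V) : V :=
  D.act (D.act (D.act v (pr D.f (X.take D.p0)) + D.nu2 (X.take D.p0))
    (pr D.f ((X.take (D.tt X)).drop D.p0)) + D.nu1 ((X.take (D.tt X)).drop D.p0))
    (pr D.f (X.drop (D.tt X)))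

/-- candidate with offset `c` is bad on the text `Q` to its right; `t` = its accepted wall -/
def Bad (Q : List α) (c t : ℕ) : Prop :=
  Fs D.Wo (D.z - c) Q t ∧ ((∃ s, D.z ≤ s + D.N1 + c ∧ s + c < D.z ∧ Wp D.Wo Q s) ∨
    t + c < D.z + D.N1 ∨ D.BadT (t + c - D.p0))

/-- bad zones -/
def B : Language α := {X | ∃ t, Fs D.Wo D.z X t ∧ Nx D.Wo X t ∧ D.Bad X 0 t}

def P1 (v : V) : Language α := {P | D.p0 ≤ P.length ∧
  D.lam (P.drop D.p0) = some (D.act v (pr D.f (P.take D.p0)) + D.nu2 (P.take D.p0))}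

def R1 (b : V) : Language α := {Q | ∃ t, D.q + D.N1 ≤ t ∧ Fs D.Wo D.q Q t ∧ Nx D.Wo Q t ∧
  ∃ r, D.rho (Q.take t) = some r ∧ b = D.act r (pr D.f (Q.drop t))}

def P2 (v : V) : Language α := {P | ∃ k < D.K, P.length = D.c k ∧ D.lam2 k P = some v}

/-- value behind the zone, scheme 2 -/
noncomputable def val2 (c t : ℕ) (Q : List α) (y : V) : V :=
  D.act (D.act y (pr D.f ((Q.take t).drop (D.p0 - c))) + D.nu1 ((Q.take t).drop (D.p0 - c)))
    (pr D.f (Q.drop t))

def R2 (b : V) : Language α := {Q | ∃ k < D.K, ∃ t, D.Bad Q (D.c k) t ∧ Nx D.Wo Q t ∧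
  (∀ k' < D.K, ∀ t', D.Bad Q (D.c k') t' → k' = k) ∧
  ∃ y, D.rho2 k (Q.take (D.p0 - D.c k)) = some y ∧ b = D.val2 (D.c k) t Q y}

variable {D}

theorem Wp_app (h : D.Ok) {P Q : List α} {s : ℕ} (hs : D.n ≤ s) :
    Wp D.Wo (P ++ Q) (P.length + s) ↔ Wp D.Wo Q s := by
  unfold Wp
  constructor
  · rintro ⟨h1, h2⟩
    have h1' : s ≤ Q.length := by rw [List.length_append] at h1; omega
    refine ⟨h1', ?_⟩
    rw [List.take_length_add_append] at h2
    exact (h.loc P (Q.take s) (by rw [List.length_take]; omega)).1 h2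
  · rintro ⟨h1, h2⟩
    refine ⟨by rw [List.length_append]; omega, ?_⟩
    rw [List.take_length_add_append]
    exact (h.loc P (Q.take s) (by rw [List.length_take]; omega)).2 h2



theorem Wp_pre {Wo : List α → Prop} {X R : List α} {s : ℕ} (hs : s ≤ X.length) :
    Wp Wo (X ++ R) s ↔ Wp Wo X s := by
  unfold Wp
  rw [List.take_append_of_le_length hs, List.length_append]
  constructor
  · rintro ⟨_, h⟩; exact ⟨hs, h⟩
  · rintro ⟨_, h⟩; exact ⟨by omega, h⟩

theorem Wp_end {Wo : List α → Prop} {X : List α} (h : Wo X) : Wp Wo X X.length :=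
  ⟨le_rfl, by rwa [List.take_length]⟩

theorem Fs_unique {Wo : List α → Prop} {q : ℕ} {X : List α} {t t' : ℕ} (h : Fs Wo q X t)
    (h' : Fs Wo q X t') : t = t' := by
  rcases lt_trichotomy t t' with hl | hl | hl
  · exact absurd h.2.1 (h'.2.2 _ h.1 hl)
  · exact hl
  · exact absurd h'.2.1 (h.2.2 _ h'.1 hl)

theorem U_pc : PC D.U := by
  constructor
  · rintro ⟨t, _, h, _⟩
    simp at h
  · rintro X ⟨t, h1, h2, h3, h4⟩ X' ⟨t', h1', h2', h3', h4'⟩ ⟨R, rfl⟩
    have ht : t ≤ X.length := h1.2.1.1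
    have hF : Fs D.Wo D.z (X ++ R) t := by
      refine ⟨h1.1, (Wp_pre ht).2 h1.2.1, fun s hs hs' => ?_⟩
      rw [Wp_pre (by omega)]
      exact h1.2.2 s hs hs'
    have he := Fs_unique hF h1'
    subst he
    rcases Nat.lt_or_ge X.length (X ++ R).length with hl | hl
    · exact absurd ((Wp_pre le_rfl).2 (Wp_end h3)) (h4' X.length h2 hl)
    · have hR : R = [] := by
        rw [List.length_append] at hl
        exact List.eq_nil_of_length_eq_zero (by omega)
      rw [hR, List.append_nil]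

/-- transfer of the zone structure to the right word -/
theorem Fs_app (h : D.Ok) {P Q : List α} {q' t : ℕ} (hq : D.n ≤ q' - P.length)
    (hPq : P.length ≤ q') :
    Fs D.Wo q' (P ++ Q) (P.length + t) ↔ Fs D.Wo (q' - P.length) Q t := by
  unfold Fs
  constructor
  · rintro ⟨h1, h2, h3⟩
    refine ⟨by omega, (Wp_app h (by omega)).1 h2, fun s hs hs' => ?_⟩
    rw [← Wp_app h (P := P) (by omega)]
    exact h3 _ (by omega) (by omega)
  · rintro ⟨h1, h2, h3⟩
    refine ⟨by omega, (Wp_app h (by omega)).2 h2, fun s hs hs' => ?_⟩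
    obtain ⟨s', rfl⟩ : ∃ s', s = P.length + s' := ⟨s - P.length, by omega⟩
    rw [Wp_app h (by omega)]
    exact h3 _ (by omega) (by omega)

theorem Nx_app (h : D.Ok) {P Q : List α} {t : ℕ} (ht : D.n ≤ t) :
    Nx D.Wo (P ++ Q) (P.length + t) ↔ Nx D.Wo Q t := by
  unfold Nx
  rw [List.length_append]
  constructor
  · rintro ⟨h1, h2, h3⟩
    refine ⟨by omega, (h.loc P Q (by omega)).1 h2, fun s hs hs' => ?_⟩
    rw [← Wp_app h (P := P) (by omega)]
    exact h3 _ (by omega) (by omega)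
  · rintro ⟨h1, h2, h3⟩
    refine ⟨by omega, (h.loc P Q (by omega)).2 h2, fun s hs hs' => ?_⟩
    obtain ⟨s', rfl⟩ : ∃ s', s = P.length + s' := ⟨s - P.length, by omega⟩
    rw [Wp_app h (by omega)]
    exact h3 _ (by omega) (by omega)

theorem cmp_eq {P Q X : List α} (hX : X ∈ D.U) (hPQ : P ++ Q ∈ D.U)
    (hc : X <+: P ++ Q ∨ P ++ Q <+: X) : X = P ++ Q := by
  rcases hc with hc | hc
  · exact U_pc.pc X hX _ hPQ hc
  · exact (U_pc.pc _ hPQ X hX hc).symm

theorem sound1 (h : D.Ok) {X : List α} (hX : X ∈ D.U) (v b : V) (P : List α) (hP : P ∈ D.P1 v)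
    (Q : List α) (hQ : Q ∈ D.R1 b) (hc : X <+: P ++ Q ∨ P ++ Q <+: X) :
    X = P ++ Q ∧ D.eps X v = b := by
  obtain ⟨hp0, hlam⟩ := hP
  obtain ⟨t, ht, hF, hN, r, hr, hb⟩ := hQ
  have hl := h.g_len _ _ hlam
  rw [List.length_drop] at hl
  have hz : D.z = D.p0 + D.q + D.N1 := rfl
  have hnq := h.nq
  have hF' : Fs D.Wo D.z (P ++ Q) (P.length + t) := by
    refine ⟨by omega, (Wp_app h (by omega)).2 hF.2.1, fun s hs hs' => ?_⟩
    obtain ⟨s', rfl⟩ : ∃ s', s = P.length + s' := ⟨s - P.length, by omega⟩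
    rw [Wp_app h (by omega)]
    exact hF.2.2 _ (by omega) (by omega)
  have hN' : Nx D.Wo (P ++ Q) (P.length + t) := (Nx_app h (by omega)).2 hN
  have hPQ : P ++ Q ∈ D.U := ⟨_, hF', hN'⟩
  have hXe := cmp_eq hX hPQ hc
  refine ⟨hXe, ?_⟩
  subst hXe
  unfold eps
  rw [tt_eq D hF', List.take_append_of_le_length hp0, List.take_length_add_append,
    List.drop_append_of_le_length hp0, List.drop_length_add_append]
  rw [← h.g_sound _ _ _ _ hlam hr]
  exact hb.symm

theorem compl1 (h : D.Ok) {X : List α} (hX : X ∈ D.U) (hXB : X ∉ D.B) (v : V) :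
    ∃ P ∈ D.P1 v, ∃ Q ∈ D.R1 (D.eps X v), X = P ++ Q := by
  obtain ⟨t, hF, hN⟩ := hX
  have hbad : ¬ D.Bad X 0 t := fun hb => hXB ⟨t, hF, hN, hb⟩
  have hz : D.z = D.p0 + D.q + D.N1 := rfl
  have hnq := h.nq
  have hN2 := h.N2q
  unfold Bad at hbad
  rw [Nat.sub_zero] at hbad
  have hE1 : ∀ s, D.z ≤ s + D.N1 → s < D.z → ¬ Wp D.Wo X s := fun s h1 h2 h3 =>
    hbad ⟨hF, Or.inl ⟨s, by omega, by omega, h3⟩⟩
  have hE2 : D.z + D.N1 ≤ t := by
    by_contra hlt
    exact hbad ⟨hF, Or.inr (Or.inl (by omega))⟩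
  have hE3 : ¬ D.BadT (t - D.p0) := fun hb => hbad ⟨hF, Or.inr (Or.inr (by simpa using hb))⟩
  have htl : t ≤ X.length := hF.2.1.1
  set Y := (X.take t).drop D.p0 with hY
  have hYl : Y.length = t - D.p0 := by
    rw [hY, List.length_drop, List.length_take]; omega
  obtain ⟨P', Q', hPQ, hlam, hrho⟩ := h.g_compl Y (by omega) (by rw [hYl]; exact hE3)
    (D.act v (pr D.f (X.take D.p0)) + D.nu2 (X.take D.p0))
  obtain ⟨r, hr⟩ := Option.isSome_iff_exists.1 hrho
  have hl' := h.g_len _ _ hlam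
  have hlen : P'.length + Q'.length = t - D.p0 := by
    rw [← hYl, hPQ, List.length_append]
  have hXt : X.take t = X.take D.p0 ++ Y := by
    rw [hY]
    have := List.take_append_drop D.p0 (X.take t)
    rw [List.take_take, Nat.min_eq_left (by omega)] at this
    exact this.symm
  -- the decomposition
  have hXd : X = (X.take D.p0 ++ P') ++ (Q' ++ X.drop t) := by
    conv_lhs => rw [← List.take_append_drop t X, hXt, hPQ]
    simp
  set P := X.take D.p0 ++ P' with hPdef
  set Q := Q' ++ X.drop t with hQdef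
  have hp0l : (X.take D.p0).length = D.p0 := by rw [List.length_take]; omega
  have hPl : P.length = D.p0 + P'.length := by rw [hPdef, List.length_append, hp0l]
  have hPt : P.take D.p0 = X.take D.p0 := by
    rw [hPdef, List.take_append_of_le_length (by omega), List.take_take, Nat.min_self]
  have hPd : P.drop D.p0 = P' := by
    have : P.drop (X.take D.p0).length = P' := by rw [hPdef]; exact List.drop_left
    rwa [hp0l] at this
  have hQt : Q.take Q'.length = Q' := by rw [hQdef]; exact List.take_left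
  have hQd : Q.drop Q'.length = X.drop t := by rw [hQdef]; exact List.drop_left
  have htt : P.length + Q'.length = t := by omega
  refine ⟨P, ⟨by omega, ?_⟩, Q, ⟨Q'.length, by omega, ?_, ?_, r, ?_, ?_⟩, hXd⟩
  · rw [hPt, hPd]; exact hlam
  · refine ⟨by omega, ?_, fun s hs hs' => ?_⟩
    · rw [← Wp_app h (P := P) (by omega), ← hXd, htt]; exact hF.2.1
    · rw [← Wp_app h (P := P) (by omega), ← hXd]
      rcases Nat.lt_or_ge (P.length + s) D.z with hlt | hge
      · exact hE1 _ (by omega) hlt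
      · exact hF.2.2 _ hge (by omega)
  · rw [← Nx_app h (P := P) (by omega), ← hXd, htt]; exact hN
  · rw [hQt]; exact hr
  · rw [hQd]
    unfold eps
    rw [tt_eq D hF, ← hY, hPQ, h.g_sound _ _ _ _ hlam hr]


theorem bad_tr (h : D.Ok) {P Q : List α} {t : ℕ} (hPp : P.length ≤ D.p0) (htl : P.length ≤ t)
    (hb : D.Bad (P ++ Q) 0 t) : D.Bad Q P.length (t - P.length) := by
  have hz : D.z = D.p0 + D.q + D.N1 := rfl
  have hnq := h.nq
  obtain ⟨hF, hr⟩ := hb
  rw [Nat.sub_zero] at hF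
  have htz := hF.1
  obtain ⟨t', rfl⟩ : ∃ t', t = P.length + t' := ⟨t - P.length, by omega⟩
  have hF' : Fs D.Wo (D.z - P.length) Q t' := (Fs_app h (by omega) (by omega)).1 hF
  rw [Nat.add_sub_cancel_left]
  refine ⟨hF', ?_⟩
  rcases hr with ⟨s, h1, h2, h3⟩ | h2 | h3
  · left
    obtain ⟨s', rfl⟩ : ∃ s', s = P.length + s' := ⟨s - P.length, by omega⟩
    exact ⟨s', by omega, by omega, (Wp_app h (by omega)).1 h3⟩
  · right; left; omega
  · right; right
    have e : P.length + t' + 0 - D.p0 = t' + P.length - D.p0 := by omega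
    rwa [e] at h3

theorem sound2 (h : D.Ok) {X : List α} (hX : X ∈ D.B) (v b : V) (P : List α) (hP : P ∈ D.P2 v)
    (Q : List α) (hQ : Q ∈ D.R2 b) (hc : X <+: P ++ Q ∨ P ++ Q <+: X) :
    X = P ++ Q ∧ D.eps X v = b := by
  obtain ⟨t, hF, hN, hB⟩ := hX
  obtain ⟨k, hk, hPk, hlam⟩ := hP
  obtain ⟨k', hk', t', hb', hN', huniq, y, hy, hval⟩ := hQ
  have hz : D.z = D.p0 + D.q + D.N1 := rfl
  have hnq := h.nq
  have hckp := h.cp0 k hk
  have hckp' := h.cp0 k' hk'
  have hF'b := hb'.1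
  have ht'1 := hF'b.1
  have htz := hF.1
  have htX := hN.1
  -- `t` is visible in `P ++ Q`
  have hvis : t ≤ (P ++ Q).length ∧ ∀ s ≤ t, (Wp D.Wo (P ++ Q) s ↔ Wp D.Wo X s) := by
    rcases hc with ⟨R, hR⟩ | ⟨R, hR⟩
    · have : t ≤ (P ++ Q).length := by rw [← hR, List.length_append]; omega
      refine ⟨this, fun s hs => ?_⟩
      rw [← hR]; exact Wp_pre (by omega)
    · have hle : t ≤ (P ++ Q).length := by
        by_contra hlt
        have hlt : (P ++ Q).length < t := not_le.1 hlt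
        have hw : Wp D.Wo (P ++ Q) (P ++ Q).length := by
          apply Wp_end
          have := hN'.1
          exact (h.loc P Q (by omega)).2 hN'.2.1
        have hw' : Wp D.Wo (P ++ Q) (P.length + t') := (Wp_app h (by omega)).2 hF'b.2.1
        have hg := h.gap (P ++ Q) (P.length + t') (P ++ Q).length
          (by rw [List.length_append]; have := hN'.1; omega) hw' hw
        have hez : (P ++ Q).length < D.z := by
          by_contra hge
          exact hF.2.2 _ (not_lt.1 hge) hlt (by rw [← hR]; exact (Wp_pre le_rfl).2 hw)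
        have := h.hW
        omega
      refine ⟨hle, fun s hs => ?_⟩
      rw [← hR]; exact (Wp_pre (by omega)).symm
  obtain ⟨hvl, hvw⟩ := hvis
  have hF2 : Fs D.Wo D.z (P ++ Q) t :=
    ⟨htz, (hvw t le_rfl).2 hF.2.1, fun s hs hs' hw => hF.2.2 s hs hs' ((hvw s hs'.le).1 hw)⟩
  have hB2 : D.Bad (P ++ Q) 0 t := by
    obtain ⟨_, hr⟩ := hB
    refine ⟨by rw [Nat.sub_zero]; exact hF2, ?_⟩
    rcases hr with ⟨s, h1, h2, h3⟩ | h2 | h3
    · exact Or.inl ⟨s, h1, h2, (hvw s (by omega)).2 h3⟩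
    · exact Or.inr (Or.inl h2)
    · exact Or.inr (Or.inr h3)
  have hB3 : D.Bad Q P.length (t - P.length) := bad_tr h (by omega) (by omega) hB2
  rw [hPk] at hB3
  have hkk : k = k' := huniq k hk _ hB3
  subst hkk
  have htt : t - D.c k = t' := Fs_unique hB3.1 hF'b
  have hte : t = P.length + t' := by omega
  have hN2 : Nx D.Wo (P ++ Q) t := by rw [hte]; exact (Nx_app h (by omega)).2 hN'
  have hXe := cmp_eq ⟨t, hF, hN⟩ ⟨t, hF2, hN2⟩ hc
  refine ⟨hXe, ?_⟩
  subst hXe
  have e1 : (P ++ Q).take D.p0 = P ++ Q.take (D.p0 - D.c k) := by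
    have : D.p0 = P.length + (D.p0 - D.c k) := by omega
    conv_lhs => rw [this]
    exact List.take_length_add_append _
  have e2 : ((P ++ Q).take t).drop D.p0 = (Q.take t').drop (D.p0 - D.c k) := by
    rw [hte, List.take_length_add_append]
    have : D.p0 = P.length + (D.p0 - D.c k) := by omega
    conv_lhs => rw [this]
    exact List.drop_length_add_append _
  have e3 : (P ++ Q).drop t = Q.drop t' := by
    rw [hte]; exact List.drop_length_add_append _
  have e4 := h.e_sound k hk P (Q.take (D.p0 - D.c k)) v y hPk hlam hy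
  unfold eps
  rw [tt_eq D hF, e2, e3, e1, ← e4, hval]
  rfl

theorem compl2 (h : D.Ok) {X : List α} (hX : X ∈ D.B) (v : V) :
    ∃ P ∈ D.P2 v, ∃ Q ∈ D.R2 (D.eps X v), X = P ++ Q := by
  classical
  obtain ⟨t, hF, hN, hB⟩ := hX
  have hz : D.z = D.p0 + D.q + D.N1 := rfl
  have hnq := h.nq
  have htz := hF.1
  have htX := hN.1
  have hWp := h.hW
  -- the possible walls
  obtain ⟨tm, htm⟩ : ∃ tm, ∀ s, D.z ≤ s + D.p0 + D.N1 → s < D.z → Wp D.Wo X s → s = tm := by
    by_cases hex : ∃ s, D.z ≤ s + D.p0 + D.N1 ∧ s < D.z ∧ Wp D.Wo X s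
    · obtain ⟨tm, h1, h2, h3⟩ := hex
      refine ⟨tm, fun s hs1 hs2 hs3 => ?_⟩
      rcases lt_trichotomy s tm with hl | hl | hl
      · have := h.gap X s tm hl hs3 h3; omega
      · exact hl
      · have := h.gap X tm s hl h3 hs3; omega
    · refine ⟨0, fun s h1 h2 h3 => absurd ⟨s, h1, h2, h3⟩ hex⟩
  have hall : ∀ s, D.z ≤ s + D.p0 + D.N1 → Wp D.Wo X s → s = tm ∨ s = t ∨ s = X.length := by
    intro s hs hw
    rcases Nat.lt_or_ge s D.z with hl | hl
    · exact Or.inl (htm s hs hl hw)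
    · right
      rcases lt_trichotomy s t with hl' | hl' | hl'
      · exact absurd hw (hF.2.2 s hl hl')
      · exact Or.inl hl'
      · rcases Nat.lt_or_ge s X.length with hl2 | hl2
        · exact absurd hw (hN.2.2 s hl' hl2)
        · exact Or.inr (le_antisymm hw.1 hl2)
  obtain ⟨R1', hR1', hT⟩ := h.thinT
  choose! FT hFTc hFT using hT
  choose FE hFEc hFE using h.thinE
  let G : ℕ → Finset ℕ := fun τ => (if D.z ≤ τ + D.p0 then FT τ else ∅) ∪ FE τ
  have hGc : ∀ τ, (G τ).card ≤ R1' + 1 := by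
    intro τ
    refine (Finset.card_union_le _ _).trans ?_
    have h1 := hFEc τ
    have h2 : (if D.z ≤ τ + D.p0 then FT τ else ∅).card ≤ R1' := by
      split_ifs with hh
      · exact hFTc τ hh
      · simp
    omega
  let F : Finset ℕ := G tm ∪ (G t ∪ G X.length)
  have hFc : F.card ≤ D.R0 := by
    have h1 := Finset.card_union_le (G tm) (G t ∪ G X.length)
    have h2 := Finset.card_union_le (G t) (G X.length)
    have h3 := hGc tm
    have h4 := hGc t
    have h5 := hGc X.length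
    show (G tm ∪ (G t ∪ G X.length)).card ≤ D.R0
    omega
  have hmem : ∀ τ, (τ = tm ∨ τ = t ∨ τ = X.length) → ∀ k ∈ G τ, k ∈ F := by
    rintro τ (rfl | rfl | rfl) k hk
    · exact Finset.mem_union_left _ hk
    · exact Finset.mem_union_right _ (Finset.mem_union_left _ hk)
    · exact Finset.mem_union_right _ (Finset.mem_union_right _ hk)
  have hp0X : D.p0 ≤ X.length := by omega
  obtain ⟨k, hk, hkF, hlam, hrho⟩ := h.e_compl (X.take D.p0) (by rw [List.length_take]; omega)
    v F hFc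
  obtain ⟨y, hy⟩ := Option.isSome_iff_exists.1 hrho
  have hck := h.cp0 k hk
  have hPl : (X.take (D.c k)).length = D.c k := by rw [List.length_take]; omega
  have hXd : X = X.take (D.c k) ++ X.drop (D.c k) := (List.take_append_drop _ _).symm
  have hB' : D.Bad (X.drop (D.c k)) (D.c k) (t - D.c k) := by
    have hb1 : D.Bad (X.take (D.c k) ++ X.drop (D.c k)) 0 t := by rw [← hXd]; exact hB
    have := bad_tr h (by omega) (by omega) hb1
    rwa [hPl] at this
  have e1 : (X.take D.p0).take (D.c k) = X.take (D.c k) := by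
    rw [List.take_take, Nat.min_eq_left hck]
  have e2 : (X.drop (D.c k)).take (D.p0 - D.c k) = (X.take D.p0).drop (D.c k) := by
    rw [List.drop_take]
  rw [e1] at hlam
  refine ⟨X.take (D.c k), ⟨k, hk, hPl, hlam⟩, X.drop (D.c k), ⟨k, hk, t - D.c k, hB', ?_, ?_, y,
    by rw [e2]; exact hy, ?_⟩, hXd⟩
  · have h1 : Nx D.Wo (X.take (D.c k) ++ X.drop (D.c k)) ((X.take (D.c k)).length + (t - D.c k)) := by
      rw [← hXd, hPl]
      have : D.c k + (t - D.c k) = t := by omega
      rw [this]; exact hN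
    exact (Nx_app h (by omega)).1 h1
  · intro k' hk' t' hb
    by_contra hne
    have hck' := h.cp0 k' hk'
    apply hkF
    obtain ⟨hFb, hr⟩ := hb
    have hf1 := hFb.1
    have hwτ : Wp D.Wo X (D.c k + t') := by
      have := (Wp_app h (P := X.take (D.c k)) (Q := X.drop (D.c k)) (s := t') (by omega)).2 hFb.2.1
      rwa [← hXd, hPl] at this
    have hτ := hall (D.c k + t') (by omega) hwτ
    rcases hr with ⟨s, h1, h2, h3⟩ | h2 | h3
    · have hwσ : Wp D.Wo X (D.c k + s) := by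
        have := (Wp_app h (P := X.take (D.c k)) (Q := X.drop (D.c k)) (s := s) (by omega)).2 h3
        rwa [← hXd, hPl] at this
      have hσ := hall (D.c k + s) (by omega) hwσ
      refine hmem _ hσ k (Finset.mem_union_right _ ?_)
      exact hFE (D.c k + s) k hk k' hk' (fun e => hne e.symm) (by omega) (by omega)
    · refine hmem _ hτ k (Finset.mem_union_right _ ?_)
      exact hFE (D.c k + t') k hk k' hk' (fun e => hne e.symm) (by omega) (by omega)
    · refine hmem _ hτ k (Finset.mem_union_left _ ?_)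
      rw [if_pos (by omega)]
      refine hFT (D.c k + t') (by omega) k hk k' hk' (fun e => hne e.symm) ?_
      have e : D.c k + t' + D.c k' - D.c k - D.p0 = t' + D.c k' - D.p0 := by omega
      rw [e]; exact h3
  · have e3 : X.take D.p0 = X.take (D.c k) ++ (X.take D.p0).drop (D.c k) := by
      conv_lhs => rw [← List.take_append_drop (D.c k) (X.take D.p0), e1]
    have e4 := h.e_sound k hk (X.take (D.c k)) ((X.take D.p0).drop (D.c k)) v y hPl hlam hy
    rw [← e3] at e4
    have e5 : ((X.drop (D.c k)).take (t - D.c k)).drop (D.p0 - D.c k) = (X.take t).drop D.p0 := by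
      rw [← List.drop_take, List.drop_drop]
      congr 1
      omega
    have e6 : (X.drop (D.c k)).drop (t - D.c k) = X.drop t := by
      rw [List.drop_drop]; congr 1; omega
    unfold eps val2
    rw [tt_eq D hF, e5, e6, e4]

theorem level1 (h : D.Ok) : Level D.U D.B D.eps D.P1 D.R1 where
  pne := by
    rintro v ⟨h1, _⟩
    have := h.p0pos
    simp at h1
    omega
  sound := fun X hX v b P hP Q hQ hc => sound1 h hX v b P hP Q hQ hc
  compl := fun X hX hB v => compl1 h hX hB v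

theorem level2 (h : D.Ok) : Level D.B 0 D.eps D.P2 D.R2 where
  pne := by
    rintro v ⟨k, hk, h1, _⟩
    have := h.cpos k hk
    simp at h1
    omega
  sound := fun X hX v b P hP Q hQ hc => sound2 h hX v b P hP Q hQ hc
  compl := fun X hX _ v => compl2 h hX v

end Par

end Crest.Agent.R320.Inst_735
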