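import Crest.Agent.R320.Level2_297

/-!
# Row 320, concrete instance of the two nested schemes, part 1: first walls, zones, rules
Natural chain rule: `N` = first wall `≥ z`; zone = up to the wall after `N`.
-/

set_option autoImplicit false
set_option linter.unusedSectionVars false

namespace Crest.Agent.R320.Inst_782

open Crest.RegLang Crest.Agent.R320.Hk_851 Crest.Agent.R320.Level_297

universe u

variable {α : Type u} {V S : Type}

/-- a right-looking wall rule -/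
structure WRule (α : Type u) where
  R : List α → Prop
  n : ℕ
  W : ℕ
  loc : ∀ Q, R Q ↔ R (Q.take n)
  len : ∀ Q, R Q → n ≤ Q.length
  gap : ∀ Q d, R Q → 0 < d → d ≤ W → ¬ R (Q.drop d)

variable (w : WRule α)

theorem WRule.app (w : WRule α) {Q s : List α} {t : ℕ} (h : t + w.n ≤ Q.length) :
    w.R ((Q ++ s).drop t) ↔ w.R (Q.drop t) := by
  rw [w.loc ((Q ++ s).drop t), w.loc (Q.drop t)]
  have : ((Q ++ s).drop t).take w.n = (Q.drop t).take w.n := by
    rw [List.drop_append_of_le_length (by omega), List.take_append_of_le_length]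
    rw [List.length_drop]; omega
  rw [this]

/-- `t` is the first wall at distance `≥ k`, and it is visible -/
def FW (Q : List α) (k t : ℕ) : Prop :=
  k ≤ t ∧ t + w.n ≤ Q.length ∧ w.R (Q.drop t) ∧ ∀ t', k ≤ t' → t' < t → ¬ w.R (Q.drop t')

variable {w}

theorem FW.uniq {Q : List α} {k t t' : ℕ} (h : FW w Q k t) (h' : FW w Q k t') : t = t' := by
  rcases lt_trichotomy t t' with hl | hl | hl
  · exact absurd h.2.2.1 (h'.2.2.2 t h.1 hl)
  · exact hl
  · exact absurd h'.2.2.1 (h.2.2.2 t' h'.1 hl)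

theorem FW.ext {Q : List α} {k t : ℕ} (h : FW w Q k t) (s : List α) : FW w (Q ++ s) k t := by
  obtain ⟨h1, h2, h3, h4⟩ := h
  refine ⟨h1, by rw [List.length_append]; omega, (w.app h2).2 h3, fun t' a b => ?_⟩
  rw [w.app (by omega)]
  exact h4 t' a b

theorem FW.cut {Q s : List α} {k t : ℕ} (h : FW w (Q ++ s) k t) (ht : t + w.n ≤ Q.length) :
    FW w Q k t := by
  obtain ⟨h1, h2, h3, h4⟩ := h
  refine ⟨h1, ht, (w.app ht).1 h3, fun t' a b => ?_⟩
  rw [← w.app (s := s) (by omega)]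
  exact h4 t' a b

theorem drop_add (P Q : List α) (t : ℕ) : (P ++ Q).drop (P.length + t) = Q.drop t := by
  rw [List.drop_append]
  simp

theorem FW.shift {P Q : List α} {k t : ℕ} (h : FW w Q k t) :
    FW w (P ++ Q) (P.length + k) (P.length + t) := by
  obtain ⟨h1, h2, h3, h4⟩ := h
  refine ⟨by omega, by rw [List.length_append]; omega, by rw [drop_add]; exact h3,
    fun t' a b => ?_⟩
  obtain ⟨s, rfl⟩ : ∃ s, t' = P.length + s := ⟨t' - P.length, by omega⟩
  rw [drop_add]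
  exact h4 s (by omega) (by omega)

theorem FW.unshift {P Q : List α} {k t : ℕ} (h : FW w (P ++ Q) (P.length + k) (P.length + t)) :
    FW w Q k t := by
  obtain ⟨h1, h2, h3, h4⟩ := h
  rw [drop_add] at h3
  rw [List.length_append] at h2
  refine ⟨by omega, by omega, h3, fun t' a b => ?_⟩
  have := h4 (P.length + t') (by omega) (by omega)
  rwa [drop_add] at this

theorem FW.lower {Q : List α} {k k' t : ℕ} (h : FW w Q k t) (hk : k' ≤ k)
    (hn : ∀ t', k' ≤ t' → t' < k → ¬ w.R (Q.drop t')) : FW w Q k' t := by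
  obtain ⟨h1, h2, h3, h4⟩ := h
  refine ⟨by omega, h2, h3, fun t' a b => ?_⟩
  by_cases hc : t' < k
  · exact hn t' a hc
  · exact h4 t' (by omega) b

theorem FW.raise {Q : List α} {k k' t : ℕ} (h : FW w Q k t) (hk : k ≤ k') (ht : k' ≤ t) :
    FW w Q k' t := by
  obtain ⟨h1, h2, h3, h4⟩ := h
  exact ⟨ht, h2, h3, fun t' a b => h4 t' (by omega) b⟩

/-- existence of a first wall from any visible wall -/
theorem FW.exists {Q : List α} {k t : ℕ} (hk : k ≤ t) (hv : t + w.n ≤ Q.length)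
    (hR : w.R (Q.drop t)) : ∃ t', FW w Q k t' ∧ t' ≤ t := by
  classical
  have h : ∃ s, k ≤ s ∧ s + w.n ≤ Q.length ∧ w.R (Q.drop s) := ⟨t, hk, hv, hR⟩
  refine ⟨Nat.find h, ⟨(Nat.find_spec h).1, (Nat.find_spec h).2.1, (Nat.find_spec h).2.2,
    fun s a b hs => ?_⟩, Nat.find_min' h ⟨hk, hv, hR⟩⟩
  have h2 := (Nat.find_spec h).2.1
  exact Nat.find_min h b ⟨a, by omega, hs⟩

/-- two walls are more than `W` apart -/
theorem WRule.far (w : WRule α) {Q : List α} {t t' : ℕ} (h : w.R (Q.drop t))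
    (h' : w.R (Q.drop t')) (hl : t < t') : t + w.W < t' := by
  by_contra hc
  have := w.gap (Q.drop t) (t' - t) h (by omega) (by omega)
  rw [List.drop_drop] at this
  exact this (by rwa [show t + (t' - t) = t' by omega])

variable [Monoid S] [AddCommGroup V]

/-- product of a word -/
def pr (φ : α → S) (u : List α) : S := (u.map φ).prod

theorem pr_append (φ : α → S) (u v : List α) : pr φ (u ++ v) = pr φ u * pr φ v := by
  simp [pr]

/-- data of the instance -/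
structure Dat (α : Type u) (V S : Type) where
  w : WRule α
  φ : α → S
  act : V → S → V
  nu1 : List α → V
  nu2 : List α → V
  p0 : ℕ
  N1 : ℕ
  z : ℕ
  BT : ℕ → Prop
  hz : p0 + N1 ≤ z

variable (D : Dat α V S)

/-- zone map -/
def Dat.zf (Q : List α) (t l : ℕ) (v : V) : V :=
  D.act (D.act (D.act v (pr D.φ (Q.take D.p0)) + D.nu2 (Q.take D.p0))
    (pr D.φ ((Q.take t).drop D.p0)) + D.nu1 ((Q.take t).drop D.p0)) (pr D.φ ((Q.take l).drop t))

/-- zone: `t` first wall `≥ z`, `l` the next wall -/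
def Dat.ZN (Q : List α) (t l : ℕ) : Prop := FW D.w Q D.z t ∧ FW D.w Q (t + 1) l

/-- badness seen at distance `c` behind the anchor -/
def Dat.BadC (Q : List α) (c t : ℕ) : Prop :=
  (∃ t', D.z ≤ t' + c + D.N1 ∧ t' + c < D.z ∧ D.w.R (Q.drop t')) ∨ t + c < D.z + D.N1 ∨
    D.BT (t + c - D.p0)

theorem Dat.BadC_app {Q s : List α} {c t : ℕ} (ht : t + D.w.n ≤ Q.length) (hc : D.z ≤ t + c) :
    D.BadC (Q ++ s) c t ↔ D.BadC Q c t := by
  unfold Dat.BadC
  have : (∃ t', D.z ≤ t' + c + D.N1 ∧ t' + c < D.z ∧ D.w.R ((Q ++ s).drop t')) ↔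
      (∃ t', D.z ≤ t' + c + D.N1 ∧ t' + c < D.z ∧ D.w.R (Q.drop t')) := by
    constructor
    · rintro ⟨t', a, b, h⟩
      exact ⟨t', a, b, (D.w.app (by omega)).1 h⟩
    · rintro ⟨t', a, b, h⟩
      exact ⟨t', a, b, (D.w.app (by omega)).2 h⟩
  rw [this]

theorem Dat.BadC_shift {P Q : List α} {c t : ℕ} (hP : P.length = c) (hc : c ≤ D.p0) :
    D.BadC (P ++ Q) 0 (P.length + t) ↔ D.BadC Q c t := by
  have hz := D.hz
  unfold Dat.BadC
  have h1 : (∃ t', D.z ≤ t' + 0 + D.N1 ∧ t' + 0 < D.z ∧ D.w.R ((P ++ Q).drop t')) ↔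
      (∃ t', D.z ≤ t' + c + D.N1 ∧ t' + c < D.z ∧ D.w.R (Q.drop t')) := by
    constructor
    · rintro ⟨t', a, b, h⟩
      obtain ⟨s, rfl⟩ : ∃ s, t' = P.length + s := ⟨t' - P.length, by omega⟩
      rw [drop_add] at h
      exact ⟨s, by omega, by omega, h⟩
    · rintro ⟨t', a, b, h⟩
      exact ⟨P.length + t', by omega, by omega, by rw [drop_add]; exact h⟩
  rw [h1]
  have h2 : P.length + t + 0 = t + c := by omega
  rw [h2]

open Classical in
noncomputable def Dat.nxr (Pd : List α → ℕ → Prop) (Q : List α) : Option (ℕ × (V → V)) :=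
  if h : ∃ x : ℕ × ℕ, D.ZN Q x.1 x.2 ∧ Pd Q x.1 then
    some (h.choose.2, D.zf Q h.choose.1 h.choose.2) else none

theorem Dat.nxr_iff {Pd : List α → ℕ → Prop} {Q : List α} {l : ℕ} {f : V → V} :
    D.nxr Pd Q = some (l, f) ↔ ∃ t, D.ZN Q t l ∧ Pd Q t ∧ f = D.zf Q t l := by
  classical
  unfold Dat.nxr
  constructor
  · intro h
    split_ifs at h with hx
    simp only [Option.some.injEq, Prod.mk.injEq] at h
    obtain ⟨rfl, rfl⟩ := h
    exact ⟨_, hx.choose_spec.1, hx.choose_spec.2, rfl⟩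
  · rintro ⟨t, hZ, hP, rfl⟩
    have hx : ∃ x : ℕ × ℕ, D.ZN Q x.1 x.2 ∧ Pd Q x.1 := ⟨(t, l), hZ, hP⟩
    rw [dif_pos hx]
    obtain ⟨h1, h2⟩ := hx.choose_spec
    have e1 : hx.choose.1 = t := h1.1.uniq hZ.1
    have h3 := h1.2
    rw [e1] at h3
    have e2 : hx.choose.2 = l := h3.uniq hZ.2
    rw [e1, e2]

theorem Dat.zf_app {Q s : List α} {t l : ℕ} (h : D.ZN Q t l) :
    D.zf (Q ++ s) t l = D.zf Q t l := by
  have hz := D.hz
  obtain ⟨⟨a, b, -, -⟩, ⟨a', b', -, -⟩⟩ := h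
  funext v
  unfold Dat.zf
  rw [List.take_append_of_le_length (by omega : D.p0 ≤ Q.length),
    List.take_append_of_le_length (by omega : t ≤ Q.length),
    List.take_append_of_le_length (by omega : l ≤ Q.length)]

/-- the rule restricted to the zones with property `Pd` -/
noncomputable def Dat.rule (Pd : List α → ℕ → Prop)
    (hPd : ∀ Q s t, FW D.w Q D.z t → (Pd (Q ++ s) t ↔ Pd Q t)) : Rule α V D.w.n where
  nx := D.nxr Pd
  pos := by
    intro Q l f h
    obtain ⟨t, hZ, -, -⟩ := D.nxr_iff.1 h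
    have := hZ.2.1
    omega
  vis := by
    intro Q l f h
    obtain ⟨t, hZ, -, -⟩ := D.nxr_iff.1 h
    exact hZ.2.2.1
  ext := by
    intro Q s l f h
    obtain ⟨t, hZ, hP, rfl⟩ := D.nxr_iff.1 h
    exact D.nxr_iff.2 ⟨t, ⟨hZ.1.ext s, hZ.2.ext s⟩, (hPd Q s t hZ.1).2 hP, (D.zf_app hZ).symm⟩
  cut := by
    intro Q s l f h hl
    obtain ⟨t, hZ, hP, rfl⟩ := D.nxr_iff.1 h
    have h1 := hZ.2.1
    have hZ' : D.ZN Q t l := ⟨hZ.1.cut (by omega), hZ.2.cut hl⟩
    exact D.nxr_iff.2 ⟨t, hZ', (hPd Q s t hZ'.1).1 hP, D.zf_app hZ'⟩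

/-- all zones -/
noncomputable def Dat.r : Rule α V D.w.n := D.rule (fun _ _ => True) (fun _ _ _ _ => Iff.rfl)

/-- bad zones -/
noncomputable def Dat.b : Rule α V D.w.n :=
  D.rule (fun Q t => D.BadC Q 0 t) (fun Q s t h => D.BadC_app h.2.1 (by have := h.1; omega))

theorem Dat.r_iff {Q : List α} {l : ℕ} {f : V → V} :
    D.r.nx Q = some (l, f) ↔ ∃ t, D.ZN Q t l ∧ f = D.zf Q t l := by
  show D.nxr (fun _ _ => True) Q = some (l, f) ↔ _
  rw [D.nxr_iff]
  constructor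
  · rintro ⟨t, a, -, c⟩; exact ⟨t, a, c⟩
  · rintro ⟨t, a, c⟩; exact ⟨t, a, trivial, c⟩

theorem Dat.b_iff {Q : List α} {l : ℕ} {f : V → V} :
    D.b.nx Q = some (l, f) ↔ ∃ t, D.ZN Q t l ∧ D.BadC Q 0 t ∧ f = D.zf Q t l := by
  show D.nxr (fun Q t => D.BadC Q 0 t) Q = some (l, f) ↔ _
  rw [D.nxr_iff]

end Crest.Agent.R320.Inst_782
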