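import Crest.Agent.R320.Zone132_898
import Crest.Agent.R320.Names_570
import Crest.Agent.R320.Noise_513

/-!
# Row 320: instance of the zone gadget of scheme 1 (`Zone132_898.Data`)

For finite `S`, `V` and any `act` there are `W, m, e, F` and a bound `r0` for the number of moduli
such that for every lower bound `B0` there are primes `Ms` and names `LN`, `RN` with: every
`Zone132_898.Data` built from them satisfies `N1`, `N2`, `N3`, `Hides`
(`M = ∏ Ms`, `B n` = some modulus divides `n`).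
-/

set_option autoImplicit false

universe u

namespace Crest.Agent.R320.Inst1_860

open Zone132_898

/-- finite names -/
abbrev NM (m : ℕ) (S V W : Type) := Fin m × (S × W × S × W × V)

/-- the context of a finite name -/
def toCtx {m : ℕ} {S V W : Type} (x : NM m S V W) : Ctx S V W :=
  ⟨x.1, x.2.1, x.2.2.1, x.2.2.2.1, x.2.2.2.2.1, x.2.2.2.2.2⟩

theorem exists_inst (S V : Type) [Monoid S] [Finite S] [AddCommGroup V] [Finite V]
    (act : V → S → V) :
    ∃ (W : Type) (_ : AddCommGroup W) (_ : Finite W) (m r0 : ℕ) (e : ℕ → S → W)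
      (F : S → W → V),
      ∀ B0 : ℕ, ∃ (Ms : Finset ℕ) (LN RN : ℕ → Option (Ctx S V W)),
        Ms.card ≤ r0 ∧ (∀ k ∈ Ms, k.Prime ∧ B0 < k) ∧
        (∀ t, LN (t + ∏ k ∈ Ms, k) = LN t) ∧ (∀ t, RN (t + ∏ k ∈ Ms, k) = RN t) ∧
        ∀ (α : Type u) (D : Data α S V W), D.act = act → D.M = ∏ k ∈ Ms, k → D.m = m →
          D.e = e → D.F = F → D.LN = LN → D.RN = RN → (D.B = fun n => ∃ k ∈ Ms, k ∣ n) →
          D.N1 ∧ D.N2 ∧ D.N3 ∧ D.Hides := by
  classical
  obtain ⟨W, iW, fW, m, e0, F, hF⟩ := _root_.Crest.Agent.R320.Noise513.explicit_noise S V act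
  let e : ℕ → S → W := fun i => if h : i < m then e0 ⟨i, h⟩ else fun _ => 0
  let bv : NM m S V W → V := fun x =>
    F (x.2.1 * 1 * x.2.2.2.1) (x.2.2.1 + e x.1 1 + x.2.2.2.2.1) +
      act x.2.2.2.2.2 (x.2.1 * 1 * x.2.2.2.1)
  let col : NM m S V W → V × V := fun x => (x.2.2.2.2.2, bv x)
  obtain ⟨r, hr⟩ := Names_570.exists_names col
  refine ⟨W, iW, inferInstance, m, r, e, F, fun B0 => ?_⟩
  obtain ⟨Ms, nmL, nmR, h1, h2, h3, h4, h5, h6, h7⟩ := hr B0
  refine ⟨Ms, fun t => (nmL t).map toCtx, fun t => (nmR t).map toCtx, h1, h2,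
    fun t => by simp only [h3], fun t => by simp only [h4], ?_⟩
  intro α D hact hM hm he hF' hLN hRN hB
  have hbv : ∀ x : NM m S V W, D.bval (toCtx x) = bv x := by
    intro x
    simp only [Data.bval, Data.val, toCtx, hF', he, hact, bv]
  refine ⟨?_, ?_, ?_, ?_⟩
  · intro om om' c c' hB' hL hR
    rw [hLN] at hL
    rw [hRN] at hR
    rw [hB] at hB'
    obtain ⟨x, hx, rfl⟩ := Option.map_eq_some_iff.1 hL
    obtain ⟨y, hy, rfl⟩ := Option.map_eq_some_iff.1 hR
    rw [h5 om om' x y (fun k hk hd => hB' ⟨k, hk, hd⟩) hx hy]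
  · rintro n ⟨c1, c1'⟩ ⟨c2, c2'⟩ hBn ⟨t1, t1', ht1, hL1, -, hR1, -⟩ ⟨t2, t2', ht2, hL2, -, hR2, -⟩
    rw [hLN] at hL1 hL2
    rw [hRN] at hR1 hR2
    rw [hB] at hBn
    obtain ⟨x1, hx1, rfl⟩ := Option.map_eq_some_iff.1 hL1
    obtain ⟨y1, hy1, rfl⟩ := Option.map_eq_some_iff.1 hR1
    obtain ⟨x2, hx2, rfl⟩ := Option.map_eq_some_iff.1 hL2
    obtain ⟨y2, hy2, rfl⟩ := Option.map_eq_some_iff.1 hR2
    obtain ⟨k, hk, hd⟩ := hBn
    rcases h7 t1 t1' t2 t2' x1 y1 x2 y2 (by omega) ⟨k, hk, by rwa [ht1]⟩ hx1 hy1 hx2 hy2 with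
      ⟨ha, hb⟩ | ⟨ha, hb, hc⟩
    · subst ha; subst hb; exact ⟨rfl, rfl⟩
    · subst ha; subst hb
      have hc1 := congrArg Prod.fst hc
      have hc2 := congrArg Prod.snd hc
      simp only [col] at hc1 hc2
      refine ⟨?_, ?_⟩
      · simp only [toCtx]; exact hc1
      · simp only [hbv]; exact hc2.symm
  · intro n c s hBn _ hi hs
    rw [hB] at hBn
    rw [hM] at hs
    rw [hm] at hi
    rw [hM, hLN, hRN]
    let x : NM m S V W := (⟨c.i, hi⟩, c.g, c.wl, c.h, c.wr, c.v)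
    have hx : toCtx x = c := rfl
    obtain ⟨t, ha, hb, hc, hd, he'⟩ := h6 n x s (fun k hk hd => hBn ⟨k, hk, hd⟩) hs
    exact ⟨t, ha, hb, hc, by simp only [hd, Option.map_some, hx], by
      simp only [he', Option.map_some, hx]⟩
  · intro s w v
    obtain ⟨i, hi⟩ := hF s w v
    refine ⟨i, by rw [hm]; exact i.2, ?_⟩
    intro g x h hg z
    have h8 := hi g x h hg z
    have h9 : D.e (i : ℕ) = e0 i := by
      rw [he]
      simp only [e, dif_pos i.2]
    rw [h9, hF', hact]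
    exact h8

end Crest.Agent.R320.Inst1_860
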