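import Crest.Agent.R320.Inst1_100

/-!
# Row 320: instantiation of the block form, part 2 (helper100): the two schemes in blocks
-/

set_option autoImplicit false

namespace Crest.Agent.R320.Inst_100

open Crest.RegLang Crest.Agent.R320.Hk_851 Crest.Agent.R320.Blk467

/-- all data of the two schemes -/
structure Dat (α M V : Type) [Monoid M] [AddCommGroup V] where
  W : ℕ
  w : Walls α W
  φ : α → M
  act : V → M → V
  hadd : ∀ a b s, act (a + b) s = act a s + act b s
  hmul : ∀ v s t, act v (s * t) = act (act v s) t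
  N : ℕ
  K : ℕ
  p0 : ℕ
  z : ℕ
  C0 : ℕ
  R : ℕ
  x : ℕ → ℕ
  BadT : ℕ → Prop
  Mo : ℕ
  lam1 : List α → Option V
  rho1 : List α → Option V
  nu1 : List α → V
  lam2 : ℕ → List α → Option V
  rho2 : ℕ → List α → Option V
  nu2 : List α → V
  hp0 : ∀ k, k < K → x k ≤ p0
  hz : 4 * p0 + 4 * N + w.n + 4 ≤ z
  hW : 4 * p0 + 4 * N + 4 ≤ W
  hMo : 0 < Mo
  per : ∀ T, BadT (T + Mo) ↔ BadT T
  ruler : ∀ i j k l, i < K → j < K → k < K → l < K → i ≠ j → k ≠ l →
    x i + x l ≤ x k + x j + 2 * N → x k + x j ≤ x i + x l + 2 * N → i = k ∧ j = l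
  count : ∀ T, (∀ i < K, x i ≤ T) → ∀ Z : Finset (ℕ × ℕ),
    (∀ p ∈ Z, p.1 < K ∧ p.2 < K ∧ p.1 ≠ p.2 ∧ BadT (T + x p.1 - x p.2)) → Z.card ≤ C0
  hR : 2 + 2 * C0 ≤ R
  lam1_len : ∀ p v, lam1 p = some v → p.length ≤ N
  sound1 : ∀ p q v r, lam1 p = some v → rho1 q = some r →
    r = act v ((p ++ q).map φ).prod + nu1 (p ++ q)
  compl1 : ∀ u, 2 * N ≤ u.length → ¬ BadT u.length → ∀ v, ∃ p q, p ++ q = u ∧ lam1 p = some v ∧
    (rho1 q).isSome
  rho1_reg : ∀ r, Language.IsRegular ({q | rho1 q = some r} : Language α)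
  nu1_reg : ∀ v, Language.IsRegular ({u | nu1 u = v} : Language α)
  sound2 : ∀ k < K, ∀ (P Q : List α) (v b : V), P.length = x k → lam2 k P = some v →
    rho2 k Q = some b → b = act v ((P ++ Q).map φ).prod + nu2 (P ++ Q)
  compl2 : ∀ (u : List α) (v : V), (∀ k < K, x k ≤ u.length) →
    ∃ I : Finset ℕ, R ≤ I.card ∧ ∀ k ∈ I, k < K ∧ lam2 k (u.take (x k)) = some v ∧
      (rho2 k (u.drop (x k))).isSome

namespace Dat

variable {α M V : Type} [Monoid M] [AddCommGroup V] (D : Dat α M V)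

def vl (X : List α) : M := (X.map D.φ).prod

theorem vl_append (X Y : List α) : D.vl (X ++ Y) = D.vl X * D.vl Y := by
  simp [vl]

/-- noise of a block -/
def nu (X : List α) : V :=
  D.act (D.nu2 (X.take D.p0)) (D.vl (X.drop D.p0)) + D.nu1 (X.drop D.p0)

/-- zone map -/
def T (v : V) (X : List α) : V := D.act v (X.map D.φ).prod + D.nu X

theorem T_eq (v : V) (X : List α) : D.T v X =
    D.act (D.act v (D.vl (X.take D.p0)) + D.nu2 (X.take D.p0)) (D.vl (X.drop D.p0)) +
      D.nu1 (X.drop D.p0) := by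
  unfold T nu
  have h : (X.map D.φ).prod = D.vl (X.take D.p0) * D.vl (X.drop D.p0) := by
    rw [← D.vl_append, List.take_append_drop]; rfl
  rw [h, D.hmul, D.hadd, add_assoc]

/-- status of a right part `Y` of a block which begins `c` letters behind the anchor -/
def St (c : ℕ) (Y : List α) : Prop :=
  Y.length + c ≤ D.z + D.N ∨
    (∃ t, t + c < D.z ∧ D.z ≤ t + c + D.N ∧ t < Y.length ∧ D.w.E (Y.take t)) ∨
    D.BadT (Y.length + c - D.p0)

/-- right parts of bad blocks, seen `c` letters behind the anchor -/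
def BS (c : ℕ) : Language α := {Y | Y ∈ D.w.F (D.z - c) ∧ D.St c Y}

def XX : Set (List α) := {X | X ∈ D.w.F D.z}

def Bad : Set (List α) := {X | X ∈ D.BS 0}

theorem bad_F {X : List α} (h : X ∈ D.Bad) : X ∈ D.w.F D.z := h.1

theorem St_shift {P Y : List α} (hP : P.length ≤ D.p0) : D.St 0 (P ++ Y) ↔ D.St P.length Y := by
  have hz := D.hz
  unfold St
  rw [List.length_append]
  refine or_congr ?_ (or_congr ?_ ?_)
  · constructor <;> intro h <;> omega
  · constructor
    · rintro ⟨t, h1, h2, h3, h4⟩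
      refine ⟨t - P.length, by omega, by omega, by omega, ?_⟩
      refine (D.w.E_shift P Y (by omega) (by omega)).1 ?_
      rwa [show P.length + (t - P.length) = t by omega]
    · rintro ⟨t, h1, h2, h3, h4⟩
      refine ⟨P.length + t, by omega, by omega, by omega, ?_⟩
      exact (D.w.E_shift P Y (by omega) (by omega)).2 h4
  · rw [show P.length + Y.length + 0 = Y.length + P.length by omega]

theorem bad_shift {P Y : List α} (hP : P.length ≤ D.p0) :
    P ++ Y ∈ D.Bad ↔ Y ∈ D.BS P.length := by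
  have hz := D.hz
  constructor
  · rintro ⟨h1, h2⟩
    exact ⟨(D.w.F_shift (by omega)).1 h1, (D.St_shift hP).1 h2⟩
  · rintro ⟨h1, h2⟩
    exact ⟨(D.w.F_shift (by omega)).2 h1, (D.St_shift hP).2 h2⟩

/-- there is a visible bad block for the hypothesis `k` -/
def BSL (c : ℕ) : Language α := {Q | ∃ Y ∈ D.BS c, Y <+: Q}

def Only (k : ℕ) (Q : List α) : Prop :=
  Q ∈ D.BSL (D.x k) ∧ ∀ k' ∈ {k' | k' < D.K ∧ k' ≠ k}, ¬ Q ∈ D.BSL (D.x k')

def LP1 (v : V) : Language α :=
  {P | D.p0 ≤ P.length ∧ D.lam1 (P.drop D.p0) =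
    some (D.act v (D.vl (P.take D.p0)) + D.nu2 (P.take D.p0))}

def RQ1 (b : V) : Language α :=
  {Q | Q ∈ D.w.F (D.z - D.p0 - D.N) ∧ (D.z - D.p0 ≤ Q.length ∧ D.rho1 Q = some b)}

def LP2 (v : V) : Language α := {P | ∃ k < D.K, P.length = D.x k ∧ D.lam2 k P = some v}

/-- cut blocks, right parts, with the value behind the block -/
def A (k : ℕ) (r : V) : Language α :=
  {Y | Y ∈ D.BS (D.x k) ∧ D.p0 - D.x k ≤ Y.length ∧
    ∃ r2, D.rho2 k (Y.take (D.p0 - D.x k)) = some r2 ∧
      D.act r2 (D.vl (Y.drop (D.p0 - D.x k))) + D.nu1 (Y.drop (D.p0 - D.x k)) = r}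

/-- blocks with a value -/
def B (r b : V) : Language α := {X | X ∈ D.w.F D.z ∧ D.T r X = b}

def RQ2 (b : V) : Language α :=
  {Q | ∃ k ∈ {k | k < D.K}, (D.Only k Q ∧ ∃ r ∈ (Set.univ : Set V), Q ∈ D.A k r * D.B r b)}

theorem pcode : PCode D.XX := by
  constructor
  · intro h
    have := h.2.1
    have hz := D.hz
    simp at this
    omega
  · intro X hX Y hY hXY
    exact D.w.F_uniq hX hY hXY (List.prefix_refl _)

/-- junction lemma of scheme 1 -/
theorem s1 (v b : V) (P Q : List α) (hP : P ∈ D.LP1 v) (hQ : Q ∈ D.RQ1 b) :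
    P ++ Q ∈ D.XX ∧ D.T v (P ++ Q) = b := by
  have hz := D.hz
  obtain ⟨h1, h2⟩ := hP
  obtain ⟨⟨g1, g2, g3⟩, g4, g5⟩ := hQ
  have hlen := D.lam1_len _ _ h2
  rw [List.length_drop] at hlen
  constructor
  · refine ⟨(D.w.app P Q (by omega)).2 g1, by rw [List.length_append]; omega, fun t a b c => ?_⟩
    rw [List.length_append] at b
    refine g3 (t - P.length) (by omega) (by omega) ?_
    refine (D.w.E_shift P Q (by omega) (by omega)).1 ?_
    rwa [show P.length + (t - P.length) = t by omega]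
  · have e1 : (P ++ Q).take D.p0 = P.take D.p0 := List.take_append_of_le_length h1
    have e2 : (P ++ Q).drop D.p0 = P.drop D.p0 ++ Q := List.drop_append_of_le_length h1
    rw [D.T_eq, e1, e2]
    exact (D.sound1 _ _ _ _ h2 g5).symm

theorem c1 (X : List α) (hX : X ∈ D.XX) (hb : X ∉ D.Bad) (v : V) :
    ∃ P Q, P ++ Q = X ∧ P ∈ D.LP1 v ∧ Q ∈ D.RQ1 (D.T v X) := by
  have hz := D.hz
  have hnb : ¬ D.St 0 X := fun h => hb ⟨hX, h⟩
  obtain ⟨g1, g2, g3⟩ := hX
  unfold St at hnb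
  push Not at hnb
  obtain ⟨n1, n2, n3⟩ := hnb
  obtain ⟨p, q, e, hl, hr⟩ := D.compl1 (X.drop D.p0) (by rw [List.length_drop]; omega)
    (by rw [List.length_drop]; exact n3) (D.act v (D.vl (X.take D.p0)) + D.nu2 (X.take D.p0))
  have hpl := D.lam1_len _ _ hl
  have hX0 : X.take D.p0 ++ (p ++ q) = X := by rw [e, List.take_append_drop]
  have ht0 : (X.take D.p0).length = D.p0 := by rw [List.length_take]; omega
  have hXe : (X.take D.p0 ++ p) ++ q = X := by rw [List.append_assoc]; exact hX0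
  have hPl : (X.take D.p0 ++ p).length = D.p0 + p.length := by rw [List.length_append, ht0]
  have hql : X.length = D.p0 + p.length + q.length := by
    conv_lhs => rw [← hXe]
    rw [List.length_append, hPl]
  have hP : X.take D.p0 ++ p ∈ D.LP1 v := by
    refine ⟨by omega, ?_⟩
    rw [List.take_left' ht0, List.drop_left' ht0]
    exact hl
  obtain ⟨b, hb'⟩ := Option.isSome_iff_exists.1 hr
  have hQ : q ∈ D.RQ1 b := by
    refine ⟨⟨?_, by omega, fun t h1 h2 h3 => ?_⟩, by omega, hb'⟩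
    · rw [← hXe] at g1
      exact (D.w.app _ _ (by omega)).1 g1
    · have h4 : D.w.E (X.take (D.p0 + p.length + t)) := by
        have := (D.w.E_shift (X.take D.p0 ++ p) q (s := t) (by omega) (by omega)).2 h3
        rwa [hXe, hPl] at this
      by_cases h5 : D.z ≤ D.p0 + p.length + t
      · exact g3 _ h5 (by omega) h4
      · exact n2 (D.p0 + p.length + t) (by omega) (by omega) (by omega) h4
  refine ⟨_, q, hXe, hP, ?_⟩
  have := (D.s1 v b _ q hP hQ).2
  rw [hXe] at this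
  rw [this]
  exact hQ

end Dat

end Crest.Agent.R320.Inst_100
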