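import Crest.Agent.R320.Inst_134

/-!
# Row 320: the two levels over 505's prefix-code form (helper134)
-/

set_option autoImplicit false

namespace Crest.Agent.R320.Inst_134

open Crest.RegLang Crest.Agent.R320.Hk_851 Crest.Agent.R320.Asm_505
open Crest.Agent.R320.ExactR_237 (pr pr_append)

universe u

variable {α : Type u}

section levels

variable {S V : Type} [Monoid S] [AddCommGroup V] (f : α → S) (act : V → S → V)

/-- product in an arbitrary universe -/
def ph (f : α → S) (u : List α) : S := (u.map f).prod

omit [AddCommGroup V] in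
theorem ph_app (u v : List α) : ph f (u ++ v) = ph f u * ph f v := by simp [ph]

variable (Wo : List α → Prop) (z p0 N1 : ℕ) (nu1 nu2 : List α → V)

/-- second part of the zone map -/
def tl (Y : List α) (v : V) : V := act v (ph f Y) + nu1 Y

noncomputable def eps (X : List α) (v : V) : V :=
  act (tl f act nu1 ((X.take (fw Wo z X)).drop p0) (act v (ph f (X.take p0)) + nu2 (X.take p0)))
    (ph f (X.drop (fw Wo z X)))

variable (lam rho : List α → Option V)

def P1 (v : V) : Language α :=
  {P | p0 ≤ P.length ∧ lam (P.drop p0) = some (act v (ph f (P.take p0)) + nu2 (P.take p0))}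

def R1 (y : V) : Language α :=
  {Q | ∃ t, Blk Wo (z - p0 - N1) Q t ∧ z - p0 ≤ t ∧ ∃ b, rho (Q.take t) = some b ∧
    act b (ph f (Q.drop t)) = y}

variable (BadT : ℕ → Prop)

def bd (c : ℕ) (Q : List α) : Prop :=
  (∃ s ≤ Q.length, z ≤ s + c + N1 ∧ s + c < z + N1 ∧ Wo (Q.take s)) ∨ BadT (c + Q.length - p0)

def cand (c : ℕ) (Q : List α) : Prop :=
  ∃ t ≤ Q.length, First Wo (z - c) (Q.take t) ∧ bd Wo z p0 N1 BadT c (Q.take t)

def B : Language α := {X | (∃ t, Blk Wo z X t) ∧ cand Wo z p0 N1 BadT 0 X}

variable (K : ℕ) (c : ℕ → ℕ) (lam2 rho2 : ℕ → List α → Option V)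

def P2 (v : V) : Language α := {P | ∃ k < K, P.length = c k ∧ lam2 k P = some v}

def R2 (y : V) : Language α :=
  {Q | ∃ k < K, (∀ k' < K, cand Wo z p0 N1 BadT (c k') Q ↔ k' = k) ∧
    ∃ t, Blk Wo (z - c k) Q t ∧ ∃ w, rho2 k (Q.take (p0 - c k)) = some w ∧
      act (tl f act nu1 ((Q.take t).drop (p0 - c k)) w) (ph f (Q.drop t)) = y}

variable {f act Wo z p0 N1 nu1 nu2 lam rho BadT K c lam2 rho2} {n W La : ℕ}

theorem eps_eq (hW : LW Wo n W) {X : List α} {t : ℕ} (h : Blk Wo z X t) (v : V) :
    eps f act Wo z p0 nu1 nu2 X v =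
      act (tl f act nu1 ((X.take t).drop p0) (act v (ph f (X.take p0)) + nu2 (X.take p0)))
        (ph f (X.drop t)) := by
  unfold eps
  rw [fw_eq h.1.le h.2.1]

theorem level1 (hW : LW Wo n W) (hp0 : 0 < p0) (hz : n + p0 + N1 + La ≤ z)
    (hlam : ∀ P v, lam P = some v → P.length ≤ N1)
    (hs : ∀ P Q v b, La ≤ Q.length → lam P = some v → rho Q = some b →
      b = act v (ph f (P ++ Q)) + nu1 (P ++ Q))
    (hc : ∀ Y, La ≤ Y.length → ¬ BadT Y.length → ∀ v, ∃ P Q, P ++ Q = Y ∧ lam P = some v ∧
      (rho Q).isSome) :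
    Level (U Wo z) (B Wo z p0 N1 BadT) (eps f act Wo z p0 nu1 nu2)
      (P1 f act p0 nu2 lam) (R1 f act Wo z p0 N1 rho) where
  pne := by
    rintro x ⟨h, -⟩
    simp at h
    omega
  sound := by
    rintro X ⟨tX, hX⟩ x y P ⟨hP, hl⟩ Q ⟨t, hQ, ht, b, hb, hy⟩ hcomp
    have hPl := hlam _ _ hl
    rw [List.length_drop] at hPl
    have hQ' : Blk Wo (z - P.length) Q t := by
      refine ⟨hQ.1, First_mono hQ.2.1 (by omega) ?_, hQ.2.2.1, hQ.2.2.2⟩
      rw [List.length_take, Nat.min_eq_left hQ.1.le]; omega
    have hPQ : Blk Wo z (P ++ Q) (P.length + t) := (Blk_app hW P Q (by omega)).2 hQ'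
    have e : X = P ++ Q := by
      rcases hcomp with h | h
      · exact (PC_U Wo z).pc X ⟨tX, hX⟩ _ ⟨_, hPQ⟩ h
      · exact ((PC_U Wo z).pc _ ⟨_, hPQ⟩ X ⟨tX, hX⟩ h).symm
    subst e
    refine ⟨rfl, ?_⟩
    have hd : (P ++ Q).drop (P.length + t) = Q.drop t := by
      rw [List.drop_append, List.drop_of_length_le (by omega), List.nil_append]
      congr 1; omega
    rw [eps_eq hW hPQ, take_app, List.drop_append_of_le_length hP,
      List.take_append_of_le_length hP, ← hy, hd,
      hs _ _ _ _ (by rw [List.length_take, Nat.min_eq_left hQ.1.le]; omega) hl hb]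
    rfl
  compl := by
    rintro X ⟨t, hX⟩ hB v
    have hnb : ¬ bd Wo z p0 N1 BadT 0 (X.take t) := fun h =>
      hB ⟨⟨t, hX⟩, t, hX.1.le, hX.2.1, h⟩
    have hlt : (X.take t).length = t := by rw [List.length_take, Nat.min_eq_left hX.1.le]
    have htz : z ≤ t := by have := hX.2.1.1.1; omega
    have hE : ∀ s ≤ t, z ≤ s + N1 → s < z + N1 → ¬ Wo (X.take s) := by
      intro s h1 h2 h3 h4
      refine hnb (Or.inl ⟨s, by omega, by omega, by omega, ?_⟩)
      rw [List.take_take, Nat.min_eq_left h1]; exact h4
    have hBT : ¬ BadT ((X.take t).drop p0).length := by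
      intro h
      refine hnb (Or.inr ?_)
      rw [List.length_drop] at h
      rw [Nat.zero_add]; exact h
    have htN : z + N1 ≤ t := by
      by_contra hh
      exact hE t le_rfl (by omega) (by omega) hX.2.1.1.2
    obtain ⟨P', Q', hPQ, hl, hr⟩ := hc ((X.take t).drop p0) (by rw [List.length_drop]; omega) hBT
      (act v (ph f (X.take p0)) + nu2 (X.take p0))
    obtain ⟨b, hb⟩ := Option.isSome_iff_exists.1 hr
    have hPl := hlam _ _ hl
    have hlen : P'.length + Q'.length = t - p0 := by
      rw [← List.length_append, hPQ, List.length_drop, hlt]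
    have hXt : X.take t = (X.take p0 ++ P') ++ Q' := by
      rw [List.append_assoc, hPQ]
      conv_lhs => rw [← List.take_append_drop p0 (X.take t)]
      rw [List.take_take, Nat.min_eq_left (by omega)]
    have hXX : X = (X.take p0 ++ P') ++ (Q' ++ X.drop t) := by
      conv_lhs => rw [← List.take_append_drop t X, hXt]
      simp
    have hp0l : (X.take p0).length = p0 := by
      rw [List.length_take]; have := hX.1; omega
    have hPP : (X.take p0 ++ P').length = p0 + P'.length := by rw [List.length_append, hp0l]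
    refine ⟨X.take p0 ++ P', ⟨by omega, ?_⟩, Q' ++ X.drop t, ⟨Q'.length, ⟨?_, ?_, ?_, ?_⟩, by omega, b, ?_, ?_⟩, hXX⟩
    · rw [List.drop_append_of_le_length (by omega), List.drop_of_length_le (by omega),
        List.nil_append, List.take_append_of_le_length (by omega),
        List.take_of_length_le (by omega)]
      exact hl
    · have := hX.1
      rw [List.length_append, List.length_drop]; omega
    · rw [List.take_left]
      have hw : Wo Q' := by
        have h1 := hX.2.1.1.2
        rw [hXt] at h1
        exact (hW.loc _ _ (by omega)).1 h1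
      refine ⟨⟨by omega, hw⟩, fun s hs hg => ?_⟩
      have h2 : Wo (X.take (p0 + P'.length + s)) := by
        have e1 : X.take (p0 + P'.length + s) = (X.take p0 ++ P') ++ Q'.take s := by
          conv_lhs => rw [hXX]
          rw [take_app' _ _ (by omega), hPP]
          congr 1
          rw [List.take_append_of_le_length (by omega)]
          congr 1; omega
        rw [e1]
        have hg1 := hg.1
        exact (hW.loc _ _ (by omega)).2 hg.2
      have hg1 := hg.1
      rw [List.length_take] at hg1
      by_cases hs2 : p0 + P'.length + s < z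
      · exact hE _ (by omega) (by omega) (by omega) h2
      · refine hX.2.1.2 (p0 + P'.length + s) (by omega) ⟨?_, ?_⟩
        · rw [List.take_take, Nat.min_eq_left (by omega), List.length_take]
          have := hX.1; omega
        · rw [List.take_take, Nat.min_eq_left (by omega)]; exact h2
    · have h1 := hX.2.2.1
      rw [hXX] at h1
      exact (hW.loc _ _ (by rw [List.length_append]; omega)).1 h1
    · intro s hs1 hs2 hw
      rw [List.length_append, List.length_drop] at hs2
      have hXl := hX.1
      refine hX.2.2.2 (p0 + P'.length + s) (by omega) (by omega) ?_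
      conv => rw [hXX]
      rw [take_app' _ _ (by omega), hPP]
      have : p0 + P'.length + s - (p0 + P'.length) = s := by omega
      rw [this]
      refine (hW.loc _ _ ?_).2 hw
      rw [List.length_take, List.length_append, List.length_drop]; omega
    · rw [List.take_left]; exact hb
    · rw [eps_eq hW hX, List.drop_left, hs P' Q' _ b (by omega) hl hb, hPQ]
      rfl

end levels

end Crest.Agent.R320.Inst_134
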