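import Mathlib
import Crest.Agent.R320.ExactR_237

/-!
Row 320, helper152: the instance (s1), (s2), (cc) of the top theorem (163 / 870) from
* left-looking outer walls `Wo` (window `n`, gaps `> W`), blocks `XX` = up to the first wall `≥ z`;
* gadget 1 (693's grid gadget; abstract: `lam`, `rho`, `nu1`, window `N1`, thin set `BadT`);
* gadget 2 (237's exact gadget on the first `p0` letters), places = ruler `c`.
-/

set_option autoImplicit false
set_option linter.unusedSectionVars false
set_option linter.unusedVariables false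

namespace Crest.Agent.R320.Inst_152

open Finset Crest.Agent.R320.ExactR_237

variable {α : Type}

/-- left-looking walls -/
structure Walls (Wo : List α → Prop) (n W : ℕ) : Prop where
  loc : ∀ P Q : List α, n ≤ Q.length → (Wo (P ++ Q) ↔ Wo Q)
  len : ∀ Q : List α, Wo Q → n ≤ Q.length
  gap : ∀ (X : List α) (s t : ℕ), s < t → t ≤ X.length → Wo (X.take s) → Wo (X.take t) →
    W < t - s

/-- blocks -/
def XX (Wo : List α → Prop) (z : ℕ) : Set (List α) :=
  {X | z ≤ X.length ∧ Wo X ∧ ∀ t, z ≤ t → t < X.length → ¬ Wo (X.take t)}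

/-- `t` is the block end seen from a place with clock `a` and right text `Q` -/
def Cand (Wo : List α → Prop) (z a : ℕ) (Q : List α) (t : ℕ) : Prop :=
  t ≤ Q.length ∧ z ≤ a + t ∧ Wo (Q.take t) ∧ ∀ t' < t, z ≤ a + t' → ¬ Wo (Q.take t')

/-- wall band -/
def EB (Wo : List α → Prop) (z N1 a : ℕ) (Q : List α) (t : ℕ) : Prop :=
  a + t < z + N1 ∨ ∃ t' < t, Wo (Q.take t') ∧ z ≤ a + t' + N1 ∧ a + t' < z

/-- the hypothetical anchor at clock `a` is bad -/
def badAt (Wo : List α → Prop) (z N1 p0 : ℕ) (BadT : ℕ → Prop) (a : ℕ) (Q : List α) : Prop :=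
  ∃ t, Cand Wo z a Q t ∧ (EB Wo z N1 a Q t ∨ BadT (a + t - p0))

theorem take_shift {P Q : List α} {a s t : ℕ} (hP : P.length = a) (hst : s ≤ t) :
    (P ++ Q.take t).take (a + s) = P ++ Q.take s := by
  rw [List.take_append, List.take_of_length_le (by omega), hP, Nat.add_sub_cancel_left,
    List.take_take, min_eq_left hst]

theorem Cand.unique {Wo : List α → Prop} {z a : ℕ} {Q : List α} {t t' : ℕ}
    (h : Cand Wo z a Q t) (h' : Cand Wo z a Q t') : t = t' := by
  rcases lt_trichotomy t t' with h1 | h1 | h1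
  · exact absurd h.2.2.1 (h'.2.2.2 t h1 h.2.1)
  · exact h1
  · exact absurd h'.2.2.1 (h.2.2.2 t' h1 h'.2.1)

section walls

variable {Wo : List α → Prop} {n W : ℕ} (hW : Walls Wo n W)

include hW

theorem cand_XX {z a t : ℕ} {P Q : List α} (hP : P.length = a) (hz : a + n ≤ z)
    (h : Cand Wo z a Q t) : P ++ Q.take t ∈ XX Wo z := by
  obtain ⟨h1, h2, h3, h4⟩ := h
  have ht : (Q.take t).length = t := by rw [List.length_take]; omega
  refine ⟨by rw [List.length_append]; omega, (hW.loc P _ (by omega)).2 h3, ?_⟩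
  intro s hs hs' hw
  rw [List.length_append, ht, hP] at hs'
  obtain ⟨t', rfl⟩ := Nat.exists_eq_add_of_le (show a ≤ s by omega)
  rw [take_shift hP (by omega)] at hw
  exact h4 t' (by omega) hs ((hW.loc P _ (by rw [List.length_take]; omega)).1 hw)

theorem XX_cand {z a t : ℕ} {P Q : List α} (hP : P.length = a) (hz : a + n ≤ z)
    (ht : t ≤ Q.length) (h : P ++ Q.take t ∈ XX Wo z) : Cand Wo z a Q t := by
  obtain ⟨h1, h2, h3⟩ := h
  have htl : (Q.take t).length = t := by rw [List.length_take]; omega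
  rw [List.length_append, htl, hP] at h1
  refine ⟨ht, h1, (hW.loc P _ (by omega)).1 h2, ?_⟩
  intro t' ht' hz' hw
  refine h3 (a + t') hz' (by rw [List.length_append, htl, hP]; omega) ?_
  rw [take_shift hP (by omega)]
  exact (hW.loc P _ (by rw [List.length_take]; omega)).2 hw

theorem EB_shift {z N1 a t : ℕ} {P Q : List α} (hP : P.length = a) (hz : a + n + N1 ≤ z)
    (ht : t ≤ Q.length) :
    EB Wo z N1 0 (P ++ Q.take t) (a + t) ↔ EB Wo z N1 a Q t := by
  unfold EB
  constructor
  · rintro (h | ⟨s, hs, hw, h1, h2⟩)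
    · left; omega
    · right
      obtain ⟨t', rfl⟩ := Nat.exists_eq_add_of_le (show a ≤ s by omega)
      rw [take_shift hP (by omega)] at hw
      exact ⟨t', by omega, (hW.loc P _ (by rw [List.length_take]; omega)).1 hw, by omega, by omega⟩
  · rintro (h | ⟨t', ht', hw, h1, h2⟩)
    · left; omega
    · right
      refine ⟨a + t', by omega, ?_, by omega, by omega⟩
      rw [take_shift hP (by omega)]
      exact (hW.loc P _ (hW.len _ hw)).2 hw

end walls

section count

variable {Wo : List α → Prop} {n W : ℕ} (hW : Walls Wo n W)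

/-- block end for the shift `d` -/
def IsEnd (Wo : List α → Prop) (z : ℕ) (U : List α) (d : ℤ) (s : ℕ) : Prop :=
  s ≤ U.length ∧ (z : ℤ) + d ≤ s ∧ Wo (U.take s) ∧ ∀ s' < s, (z : ℤ) + d ≤ s' → ¬ Wo (U.take s')

include hW in
theorem IsEnd.eq_of_near {z p0 : ℕ} {U : List α} {d d' : ℤ} {s s' : ℕ} (hWp : 2 * p0 ≤ W)
    (hd : |d| ≤ p0) (hd' : |d'| ≤ p0) (h : IsEnd Wo z U d s) (h' : IsEnd Wo z U d' s')
    (hn : |(s : ℤ) - z| ≤ p0 ↔ |(s' : ℤ) - z| ≤ p0) : s = s' := by
  obtain ⟨a1, a2, a3, a4⟩ := h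
  obtain ⟨b1, b2, b3, b4⟩ := h'
  rw [abs_le] at hd hd'
  by_cases hs : |(s : ℤ) - z| ≤ p0
  · have hs' := hn.1 hs
    rw [abs_le] at hs hs'
    rcases lt_trichotomy s s' with hlt | heq | hgt
    · have := hW.gap U s s' hlt b1 a3 b3
      omega
    · exact heq
    · have := hW.gap U s' s hgt a1 b3 a3
      omega
  · have hs' : ¬ |(s' : ℤ) - z| ≤ p0 := fun h => hs (hn.2 h)
    rw [abs_le] at hs hs'
    rcases lt_trichotomy s s' with hlt | heq | hgt
    · exact absurd a3 (b4 s hlt (by omega))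
    · exact heq
    · exact absurd b3 (a4 s' hgt (by omega))

include hW in
theorem wall_shift {U : List α} {a t : ℕ} (ht : n ≤ ((U.drop a).take t).length) (ha : a ≤ U.length) :
    Wo ((U.drop a).take t) ↔ Wo (U.take (a + t)) := by
  have h : U.take (a + t) = U.take a ++ (U.drop a).take t := by
    rw [List.take_add]
  rw [h]
  exact (hW.loc _ _ ht).symm

include hW in
theorem cand_isEnd {z K : ℕ} {U : List α} {a a' t : ℕ} (ha : a ≤ U.length) (hz : a' + n ≤ z)
    (h : Cand Wo z a' (U.drop a) t) : IsEnd Wo z U ((a : ℤ) - a') (a + t) := by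
  obtain ⟨h1, h2, h3, h4⟩ := h
  rw [List.length_drop] at h1
  refine ⟨by omega, by push_cast; omega, ?_, ?_⟩
  · exact (wall_shift hW (hW.len _ h3) ha).1 h3
  · intro s' hs' hz' hw
    obtain ⟨t', rfl⟩ := Nat.exists_eq_add_of_le (show a ≤ s' by omega)
    have hl : n ≤ ((U.drop a).take t').length := by
      rw [List.length_take, List.length_drop]
      push_cast at hz'
      omega
    refine h4 t' (by omega) (by push_cast at hz'; omega) ((wall_shift hW hl ha).2 hw)

/-- the spoiled places -/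
noncomputable def spoiled (Wo : List α → Prop) (z N1 p0 : ℕ) (BadT : ℕ → Prop) (K : ℕ) (c : ℕ → ℕ)
    (U : List α) : Finset ℕ := by
  classical
  exact (range K).filter (fun k => ∃ k' < K, k' ≠ k ∧ badAt Wo z N1 p0 BadT (c k') (U.drop (c k)))

include hW in
theorem card_spoiled {z N1 p0 K C1 : ℕ} {BadT : ℕ → Prop} {c : ℕ → ℕ} {U : List α}
    (hcp : ∀ k < K, c k ≤ p0) (hz : p0 + n + N1 ≤ z) (hU : p0 ≤ U.length)
    (hWp : 2 * p0 + 2 * N1 ≤ W)
    (r2 : ∀ a b a' b', a < K → b < K → a' < K → b' < K → a ≠ b →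
      |((c a : ℤ) - c b) - ((c a' : ℤ) - c b')| ≤ 2 * N1 → a = a' ∧ b = b')
    (r3 : ∀ T : ℤ, ∀ D : Finset (ℕ × ℕ), (∀ p ∈ D, p.1 < K ∧ p.2 < K ∧ p.1 ≠ p.2 ∧
      ∃ m : ℕ, (m : ℤ) = T - ((c p.1 : ℤ) - c p.2) ∧ BadT m) → D.card ≤ C1) :
    (spoiled Wo z N1 p0 BadT K c U).card ≤ 1 + 2 * C1 := by
  classical
  let F0 : Finset ℕ := (range K).filter fun k => ∃ k' < K, k' ≠ k ∧ ∃ s : ℕ, s ≤ U.length ∧
    Wo (U.take s) ∧ |(s : ℤ) - z - ((c k : ℤ) - c k')| ≤ N1
  let F (P : Prop) : Finset ℕ := (range K).filter fun k => ∃ k' < K, k' ≠ k ∧ ∃ s : ℕ,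
    IsEnd Wo z U ((c k : ℤ) - c k') s ∧ ((|(s : ℤ) - z| ≤ p0) ↔ P) ∧
      ∃ m : ℕ, (m : ℤ) = (s : ℤ) - p0 - ((c k : ℤ) - c k') ∧ BadT m
  have hd : ∀ k k', k < K → k' < K → |(c k : ℤ) - c k'| ≤ p0 := by
    intro k k' hk hk'
    have h1 := hcp k hk
    have h2 := hcp k' hk'
    rw [abs_le]
    constructor <;> omega
  have h0 : F0.card ≤ 1 := by
    rw [Finset.card_le_one]
    intro k hk l hl
    simp only [F0, mem_filter, mem_range] at hk hl
    obtain ⟨hk1, k', hk', hne, s, hs1, hs2, hs3⟩ := hk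
    obtain ⟨hl1, l', hl', hne', s', hs1', hs2', hs3'⟩ := hl
    have e1 := hd k k' hk1 hk'
    have e2 := hd l l' hl1 hl'
    rw [abs_le] at e1 e2 hs3 hs3'
    have hss : s = s' := by
      rcases lt_trichotomy s s' with hlt | heq | hgt
      · have := hW.gap U s s' hlt hs1' hs2 hs2'
        omega
      · exact heq
      · have := hW.gap U s' s hgt hs1 hs2' hs2
        omega
    subst hss
    refine (r2 k k' l l' hk1 hk' hl1 hl' hne.symm ?_).1
    rw [abs_le]
    constructor <;> omega
  have hF : ∀ P : Prop, (F P).card ≤ C1 := by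
    intro P
    by_cases hne : (F P).Nonempty
    · obtain ⟨k0, hk0⟩ := hne
      simp only [F, mem_filter, mem_range] at hk0
      obtain ⟨hk1, k', hk', hne0, s0, hs0, hn0, -⟩ := hk0
      let D : Finset (ℕ × ℕ) := ((range K) ×ˢ (range K)).filter fun p => p.1 ≠ p.2 ∧
        ∃ m : ℕ, (m : ℤ) = ((s0 : ℤ) - p0) - ((c p.1 : ℤ) - c p.2) ∧ BadT m
      have hD : D.card ≤ C1 := by
        apply r3 ((s0 : ℤ) - p0) D
        intro p hp
        simp only [D, mem_filter, mem_product, mem_range] at hp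
        exact ⟨hp.1.1, hp.1.2, hp.2.1, hp.2.2⟩
      refine le_trans ?_ hD
      refine le_trans (Finset.card_le_card ?_) (Finset.card_image_le (s := D) (f := Prod.fst))
      intro k hk
      simp only [F, mem_filter, mem_range] at hk
      obtain ⟨hk2, k'', hk'', hne2, s, hs, hn, m, hm, hb⟩ := hk
      have : s = s0 := IsEnd.eq_of_near hW (by omega) (hd _ _ hk2 hk'') (hd _ _ hk1 hk') hs hs0
        (hn.trans hn0.symm)
      subst this
      rw [mem_image]
      refine ⟨(k, k''), ?_, rfl⟩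
      simp only [D, mem_filter, mem_product, mem_range]
      exact ⟨⟨hk2, hk''⟩, hne2.symm, m, hm, hb⟩
    · rw [Finset.not_nonempty_iff_eq_empty] at hne
      rw [hne]
      simp
  have hsub : spoiled Wo z N1 p0 BadT K c U ⊆ F0 ∪ (F True ∪ F False) := by
    intro k hk
    unfold spoiled at hk
    rw [mem_filter, mem_range] at hk
    obtain ⟨hk1, k', hk', hne, t, hc, hb⟩ := hk
    have hck := hcp k hk1
    have hck' := hcp k' hk'
    have hend := cand_isEnd (K := K) hW (a := c k) (a' := c k') (by omega) (by omega) hc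
    have hzt := hc.2.1
    rcases hb with (hb | ⟨t', ht', hw, hz1, hz2⟩) | hb
    · rw [mem_union]; left
      simp only [F0, mem_filter, mem_range]
      refine ⟨hk1, k', hk', hne, c k + t, hend.1, hend.2.2.1, ?_⟩
      rw [abs_le]
      push_cast
      constructor <;> omega
    · rw [mem_union]; left
      simp only [F0, mem_filter, mem_range]
      refine ⟨hk1, k', hk', hne, c k + t', ?_, (wall_shift hW (hW.len _ hw) (by omega)).1 hw, ?_⟩
      · have := hend.1; omega
      · rw [abs_le]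
        push_cast
        constructor <;> omega
    · rw [mem_union]; right
      have hm : ((c k' + t - p0 : ℕ) : ℤ) = ((c k + t : ℕ) : ℤ) - p0 - ((c k : ℤ) - c k') := by
        rw [Nat.cast_sub (by omega)]
        push_cast
        ring
      rw [mem_union]
      by_cases hn : |((c k + t : ℕ) : ℤ) - z| ≤ p0
      · left
        simp only [F, mem_filter, mem_range]
        exact ⟨hk1, k', hk', hne, c k + t, hend, ⟨fun _ => trivial, fun _ => hn⟩, _, hm, hb⟩
      · right
        simp only [F, mem_filter, mem_range]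
        exact ⟨hk1, k', hk', hne, c k + t, hend, ⟨fun h => hn h, fun h => h.elim⟩, _, hm, hb⟩
  calc (spoiled Wo z N1 p0 BadT K c U).card ≤ (F0 ∪ (F True ∪ F False)).card :=
        Finset.card_le_card hsub
    _ ≤ F0.card + (F True ∪ F False).card := Finset.card_union_le _ _
    _ ≤ F0.card + ((F True).card + (F False).card) :=
        Nat.add_le_add_left (Finset.card_union_le _ _) _
    _ ≤ 1 + 2 * C1 := by
        have := hF True
        have := hF False
        omega

end count

end Crest.Agent.R320.Inst_152
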