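import Mathlib
import Crest.Agent.R320.Inst_152

/-!
Row 320, helper152: (s1), (s2), (cc) of the top theorem of helper163 (#13363), see `Inst_152`.
-/

set_option autoImplicit false
set_option linter.unusedSectionVars false
set_option linter.unusedVariables false

namespace Crest.Agent.R320.Inst_152

open Finset Crest.Agent.R320.ExactR_237

/-- all data of the two schemes -/
structure Dt (α S V : Type) where
  f : α → S
  act : V → S → V
  Wo : List α → Prop
  z : ℕ
  N1 : ℕ
  p0 : ℕ
  BadT : ℕ → Prop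
  c : ℕ → ℕ
  K : ℕ
  lam : List α → Option V
  rho : List α → Option V
  nu1 : List α → V
  lam2 : ℕ → List α → Option V
  rho2 : ℕ → List α → Option V
  nu2 : List α → V

namespace Dt

variable {α S V : Type} [Monoid S] [AddCommGroup V] (D : Dt α S V)

/-- blocks -/
def XX : Set (List α) := Inst_152.XX D.Wo D.z

/-- zone map -/
def T (v : V) (X : List α) : V :=
  D.act (D.act v (pr D.f (X.take D.p0)) + D.nu2 (X.take D.p0)) (pr D.f (X.drop D.p0)) +
    D.nu1 (X.drop D.p0)

def LP1 (P : List α) (v : V) : Prop :=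
  D.p0 ≤ P.length ∧ D.lam (P.drop D.p0) = some (D.act v (pr D.f (P.take D.p0)) + D.nu2 (P.take D.p0))

def RB (Q : List α) : Prop :=
  D.Wo Q ∧ D.z ≤ D.p0 + Q.length ∧ ∀ t < Q.length, D.Wo (Q.take t) → D.p0 + D.N1 + t < D.z

open Classical in
noncomputable def R1 (Q : List α) : Option V := if D.RB Q then D.rho Q else none

def LP2 (P : List α) (v : V) : Prop := ∃ k < D.K, P.length = D.c k ∧ D.lam2 k P = some v

def bad (k : ℕ) (Q : List α) : Prop := badAt D.Wo D.z D.N1 D.p0 D.BadT (D.c k) Q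

def R2rel (Q : List α) (b : V) : Prop :=
  ∃ k < D.K, D.bad k Q ∧ (∀ k' < D.K, D.bad k' Q → k' = k) ∧
    (∀ k' < D.K, ∃ t, Cand D.Wo D.z (D.c k') Q t) ∧
    ∃ (t : ℕ) (b0 : V), Cand D.Wo D.z (D.c k) Q t ∧ Q.drop t ∈ D.XX ∧
      D.rho2 k (Q.take (D.p0 - D.c k)) = some b0 ∧
      b = D.T (D.act b0 (pr D.f ((Q.take t).drop (D.p0 - D.c k))) +
        D.nu1 ((Q.take t).drop (D.p0 - D.c k))) (Q.drop t)

open Classical in
noncomputable def R2 (Q : List α) : Option V :=
  if h : ∃ b, D.R2rel Q b then some h.choose else none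

theorem R2rel.unique {D : Dt α S V} {Q : List α} {b b' : V} (h : D.R2rel Q b)
    (h' : D.R2rel Q b') : b = b' := by
  obtain ⟨k, hk, h1, h2, h3, t, b0, h4, h5, h6, h7⟩ := h
  obtain ⟨l, hl, g1, g2, g3, t', b0', g4, g5, g6, g7⟩ := h'
  have : k = l := g2 k hk h1
  subst this
  have := h4.unique g4
  subst this
  rw [h6] at g6
  have := Option.some.inj g6
  subst this
  rw [h7, g7]

theorem R2_iff (Q : List α) (b : V) : D.R2 Q = some b ↔ D.R2rel Q b := by
  unfold R2
  constructor
  · intro h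
    split_ifs at h with hb
    rw [← Option.some.inj h]
    exact hb.choose_spec
  · intro h
    rw [dif_pos ⟨b, h⟩]
    congr 1
    exact (Exists.choose_spec (⟨b, h⟩ : ∃ b, D.R2rel Q b)).unique h

/-- the hypotheses -/
structure Ok (n W N0 C1 R : ℕ) : Prop where
  walls : Walls D.Wo n W
  hz : D.p0 + n + D.N1 + N0 + 1 ≤ D.z
  hW : 2 * D.p0 + 2 * D.N1 ≤ W
  g1 : ∀ P v, D.lam P = some v → P.length ≤ D.N1
  g2 : ∀ P Q v b, D.lam P = some v → D.rho Q = some b →
    b = D.act v (pr D.f (P ++ Q)) + D.nu1 (P ++ Q)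
  g3 : ∀ u : List α, N0 ≤ u.length → ¬ D.BadT u.length → ∀ v, ∃ P Q, u = P ++ Q ∧
    D.lam P = some v ∧ (D.rho Q).isSome
  cp : ∀ k < D.K, D.c k ≤ D.p0
  r2 : ∀ a b a' b', a < D.K → b < D.K → a' < D.K → b' < D.K → a ≠ b →
      |((D.c a : ℤ) - D.c b) - ((D.c a' : ℤ) - D.c b')| ≤ 2 * D.N1 → a = a' ∧ b = b'
  r3 : ∀ T : ℤ, ∀ E : Finset (ℕ × ℕ), (∀ p ∈ E, p.1 < D.K ∧ p.2 < D.K ∧ p.1 ≠ p.2 ∧
      ∃ m : ℕ, (m : ℤ) = T - ((D.c p.1 : ℤ) - D.c p.2) ∧ D.BadT m) → E.card ≤ C1
  hR : 1 + 2 * C1 < R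
  ex : ∀ k < D.K, ∀ (P Q : List α) (v b : V), P.length = D.c k → D.lam2 k P = some v →
    D.rho2 k Q = some b → b = D.act v (pr D.f (P ++ Q)) + D.nu2 (P ++ Q)
  co : ∀ (u : List α) (v : V), (∀ k < D.K, D.c k ≤ u.length) → ∃ I : Finset ℕ, R ≤ I.card ∧
    ∀ k ∈ I, k < D.K ∧ D.lam2 k (u.take (D.c k)) = some v ∧ (D.rho2 k (u.drop (D.c k))).isSome

variable {D} {n W N0 C1 R : ℕ} (h : D.Ok n W N0 C1 R)

theorem R1_some {Q : List α} {b : V} (hQ : D.R1 Q = some b) : D.RB Q ∧ D.rho Q = some b := by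
  unfold R1 at hQ
  split_ifs at hQ with hr
  exact ⟨hr, hQ⟩

include h

theorem R1_ne {Q : List α} {b : V} (hQ : D.R1 Q = some b) : Q ≠ [] := by
  obtain ⟨h1, -⟩ := R1_some hQ
  rintro rfl
  have := h1.2.1
  have := h.hz
  simp at *
  omega

/-- **(s1)** -/
theorem s1 (P : List α) (v : V) (Q : List α) (b : V) (hP : D.LP1 P v) (hQ : D.R1 Q = some b) :
    P ++ Q ∈ D.XX ∧ D.T v (P ++ Q) = b := by
  obtain ⟨⟨q1, q2, q3⟩, q4⟩ := R1_some hQ
  obtain ⟨p1, p2⟩ := hP
  have hz := h.hz
  have hl := h.g1 _ _ p2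
  rw [List.length_drop] at hl
  have hn := h.walls.len _ q1
  constructor
  · refine ⟨by rw [List.length_append]; omega, (h.walls.loc P Q hn).2 q1, ?_⟩
    intro t ht ht' hw
    rw [List.length_append] at ht'
    obtain ⟨s, rfl⟩ := Nat.exists_eq_add_of_le (show P.length ≤ t by omega)
    rw [List.take_append, Nat.add_sub_cancel_left, List.take_of_length_le (by omega)] at hw
    have hw' := (h.walls.loc P (Q.take s) (by rw [List.length_take]; omega)).1 hw
    have := q3 s (by omega) hw'
    omega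
  · unfold T
    rw [List.take_append_of_le_length p1, List.drop_append_of_le_length p1]
    exact (h.g2 _ _ _ _ p2 q4).symm

/-- completeness of scheme 1 -/
theorem complete1 {X : List α} (hX : X ∈ D.XX) (hE : ¬ EB D.Wo D.z D.N1 0 X X.length)
    (hT : ¬ D.BadT (X.length - D.p0)) (v : V) :
    ∃ P Q, X = P ++ Q ∧ D.LP1 P v ∧ (D.R1 Q).isSome := by
  obtain ⟨x1, x2, x3⟩ := hX
  have hz := h.hz
  unfold EB at hE
  push Not at hE
  obtain ⟨e1, e2⟩ := hE
  obtain ⟨P', Q, hu, hP', hQ⟩ := h.g3 (X.drop D.p0) (by rw [List.length_drop]; omega)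
    (by rw [List.length_drop]; exact hT) (D.act v (pr D.f (X.take D.p0)) + D.nu2 (X.take D.p0))
  have hl := h.g1 _ _ hP'
  have hX0 : (X.take D.p0).length = D.p0 := by rw [List.length_take]; omega
  have hXe : X = (X.take D.p0 ++ P') ++ Q := by
    rw [List.append_assoc, ← hu, List.take_append_drop]
  have hlen : X.length = D.p0 + P'.length + Q.length := by
    conv_lhs => rw [hXe]
    rw [List.length_append, List.length_append, hX0]
  have hnQ : n ≤ Q.length := by omega
  refine ⟨X.take D.p0 ++ P', Q, hXe, ⟨by rw [List.length_append]; omega, ?_⟩, ?_⟩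
  · rw [List.drop_append_of_le_length hX0.ge, List.drop_of_length_le hX0.le, List.nil_append,
      List.take_append_of_le_length hX0.ge, List.take_of_length_le hX0.le]
    exact hP'
  · have hRB : D.RB Q := by
      refine ⟨?_, by omega, ?_⟩
      · exact (h.walls.loc _ Q hnQ).1 (hXe ▸ x2)
      · intro t ht hw
        by_contra hcon
        have hnt := h.walls.len _ hw
        rw [List.length_take] at hnt
        set PP := X.take D.p0 ++ P' with hPP
        have hPl : PP.length = D.p0 + P'.length := by rw [hPP, List.length_append, hX0]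
        have hw2 : D.Wo (X.take (PP.length + t)) := by
          conv => rw [hXe]
          rw [List.take_append, Nat.add_sub_cancel_left, List.take_of_length_le (by omega)]
          exact (h.walls.loc PP (Q.take t) (by rw [List.length_take]; omega)).2 hw
        by_cases hlt : PP.length + t < D.z
        · have := e2 (PP.length + t) (by omega) hw2 (by omega)
          omega
        · exact x3 (PP.length + t) (by omega) (by omega) hw2
    unfold R1
    rw [if_pos hRB]
    exact hQ

/-- a block which is not cut by scheme 1 after `|P|` is bad at `|P|` -/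
theorem bad_of_uncut {P Q : List α} {v : V} {k t : ℕ} (hk : k < D.K) (hP : P.length = D.c k)
    (hc : Cand D.Wo D.z (D.c k) Q t)
    (hun : ∀ X ∈ D.XX, X <+: P ++ Q → ∀ P' Q', X = P' ++ Q' → P.length ≤ P'.length →
      D.LP1 P' v → (D.R1 Q').isSome → False) : D.bad k Q := by
  have hz := h.hz
  have hcp := h.cp k hk
  have hX : P ++ Q.take t ∈ D.XX := cand_XX h.walls hP (by omega) hc
  have hpre : P ++ Q.take t <+: P ++ Q := by
    rw [List.prefix_append_right_inj]
    exact List.take_prefix t Q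
  have ht : (Q.take t).length = t := by rw [List.length_take]; have := hc.1; omega
  refine ⟨t, hc, ?_⟩
  by_contra hcon
  push Not at hcon
  obtain ⟨hE, hT⟩ := hcon
  have hlen : (P ++ Q.take t).length = D.c k + t := by rw [List.length_append, ht, hP]
  obtain ⟨P', Q', he, hL, hR'⟩ := complete1 h hX
    (by rw [hlen, EB_shift h.walls hP (by omega) hc.1]; exact hE) (by rw [hlen]; exact hT) v
  refine hun _ hX hpre P' Q' he ?_ hL hR'
  have := hL.1
  omega

/-- **(s2)** -/
theorem s2 (P : List α) (v : V) (Q : List α) (b : V) (hP : D.LP2 P v) (hQ : D.R2 Q = some b)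
    (hun : ∀ X ∈ D.XX, X <+: P ++ Q → ∀ P' Q', X = P' ++ Q' → P.length ≤ P'.length →
      D.LP1 P' v → (D.R1 Q').isSome → False) :
    ∃ Q1 X2, Q = Q1 ++ X2 ∧ Q1 ≠ [] ∧ P ++ Q1 ∈ D.XX ∧ X2 ∈ D.XX ∧
      D.T (D.T v (P ++ Q1)) X2 = b := by
  obtain ⟨k, hk, h1, h2, h3, t, b0, h4, h5, h6, h7⟩ := (D.R2_iff Q b).1 hQ
  obtain ⟨k0, hk0, hPk, hlam⟩ := hP
  obtain ⟨t0, ht0⟩ := h3 k0 hk0
  have hbad : D.bad k0 Q := bad_of_uncut h hk0 hPk ht0 hun
  have hkk := h2 k0 hk0 hbad
  subst hkk
  have hz := h.hz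
  have hcp := h.cp k0 hk0
  have ht : (Q.take t).length = t := by rw [List.length_take]; have := h4.1; omega
  have hzt := h4.2.1
  refine ⟨Q.take t, Q.drop t, (List.take_append_drop t Q).symm, ?_,
    cand_XX h.walls hPk (by omega) h4, h5, ?_⟩
  · intro hn
    rw [hn] at ht
    simp at ht
    omega
  · rw [h7]
    congr 1
    have e1 : (P ++ Q.take t).take D.p0 = P ++ Q.take (D.p0 - D.c k0) := by
      rw [List.take_append, List.take_of_length_le (by omega), hPk, List.take_take,
        min_eq_left (by omega)]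
    have e2 : (P ++ Q.take t).drop D.p0 = (Q.take t).drop (D.p0 - D.c k0) := by
      rw [List.drop_append, List.drop_eq_nil_of_le (by omega), hPk, List.nil_append]
    have e3 := h.ex k0 hk0 P (Q.take (D.p0 - D.c k0)) v b0 hPk hlam h6
    unfold T
    rw [e1, e2, ← e3]

/-- **(cc)** -/
theorem cc (X : List α) (hX : X ∈ D.XX) (X2 : List α) (hX2 : X2 ∈ D.XX) (v : V) :
    (∃ P Q, X = P ++ Q ∧ D.LP1 P v ∧ (D.R1 Q).isSome) ∨
      (∃ P Q, X ++ X2 = P ++ Q ∧ P.length < X.length ∧ D.LP2 P v ∧ (D.R2 Q).isSome) := by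
  classical
  by_cases hb : EB D.Wo D.z D.N1 0 X X.length ∨ D.BadT (X.length - D.p0)
  swap
  · left
    push Not at hb
    exact complete1 h hX hb.1 hb.2 v
  right
  have hz := h.hz
  have hW := h.hW
  have hX' := hX
  obtain ⟨x1, x2, x3⟩ := hX'
  have hX2' := hX2
  obtain ⟨y1, y2, y3⟩ := hX2'
  have hn2 := h.walls.len _ y2
  set U := X ++ X2 with hU
  have hul : (X.take D.p0).length = D.p0 := by rw [List.length_take]; omega
  obtain ⟨I, hI, hIk⟩ := h.co (X.take D.p0) v (fun k hk => by rw [hul]; exact h.cp k hk)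
  have hsp := card_spoiled (z := D.z) (N1 := D.N1) (p0 := D.p0) (K := D.K) (C1 := C1)
    (BadT := D.BadT) (c := D.c) (U := U) h.walls h.cp (by omega)
    (by rw [hU, List.length_append]; omega) hW h.r2 h.r3
  have hR := h.hR
  have hex : ∃ k ∈ I, k ∉ spoiled D.Wo D.z D.N1 D.p0 D.BadT D.K D.c U := by
    by_contra hcon
    push Not at hcon
    have : I.card ≤ (spoiled D.Wo D.z D.N1 D.p0 D.BadT D.K D.c U).card :=
      Finset.card_le_card hcon
    omega
  obtain ⟨k, hkI, hks⟩ := hex
  obtain ⟨hk, hl, hr⟩ := hIk k hkI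
  have hcp := h.cp k hk
  obtain ⟨b0, hb0⟩ := Option.isSome_iff_exists.1 hr
  have hPl : (X.take (D.c k)).length = D.c k := by rw [List.length_take]; omega
  set Q := X.drop (D.c k) ++ X2 with hQ
  have hXd : (X.drop (D.c k)).length = X.length - D.c k := List.length_drop
  have hUQ : U.drop (D.c k) = Q := by
    rw [hU, hQ, List.drop_append_of_le_length (by omega)]
  have hUe : U = X.take (D.c k) ++ Q := by
    rw [hQ, ← List.append_assoc, List.take_append_drop]
  -- the true block
  set t := X.length - D.c k with ht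
  have hQt : Q.take t = X.drop (D.c k) := by
    rw [hQ, List.take_append_of_le_length (by omega), List.take_of_length_le (by omega)]
  have hQd : Q.drop t = X2 := by
    rw [hQ, List.drop_append, List.drop_eq_nil_of_le (by omega), hXd, Nat.sub_self,
      List.drop_zero, List.nil_append]
  have hQl : Q.length = t + X2.length := by rw [hQ, List.length_append, hXd]
  have hXt : X.take (D.c k) ++ Q.take t = X := by rw [hQt, List.take_append_drop]
  have hcand : Cand D.Wo D.z (D.c k) Q t :=
    XX_cand h.walls hPl (by omega) (by omega) (by rw [hXt]; exact hX)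
  have hct : D.c k + t = X.length := by omega
  have hbadk : D.bad k Q := by
    refine ⟨t, hcand, ?_⟩
    rcases hb with hb | hb
    · left
      rw [← EB_shift h.walls hPl (by omega) (by omega), hXt, hct]
      exact hb
    · right
      rw [hct]
      exact hb
  refine ⟨X.take (D.c k), Q, hUe, by omega, ⟨k, hk, hPl, ?_⟩, ?_⟩
  · have : (X.take D.p0).take (D.c k) = X.take (D.c k) := by
      rw [List.take_take, min_eq_left hcp]
    rw [← this]
    exact hl
  · have hrel : D.R2rel Q (D.T (D.act b0 (pr D.f ((Q.take t).drop (D.p0 - D.c k))) +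
        D.nu1 ((Q.take t).drop (D.p0 - D.c k))) (Q.drop t)) := by
      refine ⟨k, hk, hbadk, ?_, ?_, t, b0, hcand, ?_, ?_, rfl⟩
      · intro k' hk' hb'
        by_contra hne
        apply hks
        unfold spoiled
        rw [mem_filter, mem_range]
        refine ⟨hk, k', hk', hne, ?_⟩
        rw [hUQ]
        exact hb'
      · intro k' hk'
        have hw : ∃ s, D.z ≤ D.c k' + s ∧ D.Wo (Q.take s) := by
          refine ⟨Q.length, by omega, ?_⟩
          rw [List.take_length, hQ]
          exact (h.walls.loc _ X2 hn2).2 y2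
        refine ⟨Nat.find hw, ?_, (Nat.find_spec hw).1, (Nat.find_spec hw).2, ?_⟩
        · refine Nat.find_min' hw ⟨by omega, ?_⟩
          rw [List.take_length, hQ]
          exact (h.walls.loc _ X2 hn2).2 y2
        · intro s hs hz' hw'
          exact Nat.find_min hw hs ⟨hz', hw'⟩
      · rw [hQd]; exact hX2
      · have e1 : Q.take (D.p0 - D.c k) = (X.take D.p0).drop (D.c k) := by
          rw [hQ, List.take_append_of_le_length (by omega), List.drop_take]
        rw [e1]
        exact hb0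
    rw [(D.R2_iff _ _).2 hrel]
    rfl

theorem R2_ne {Q : List α} {b : V} (hQ : D.R2 Q = some b) : Q ≠ [] := by
  obtain ⟨k, hk, h1, h2, h3, t, b0, h4, -⟩ := (D.R2_iff Q b).1 hQ
  rintro rfl
  have := h4.1
  have := h4.2.1
  have := h.hz
  have := h.cp k hk
  simp at *
  omega

theorem nil_notin : ([] : List α) ∉ D.XX := by
  rintro ⟨h1, -⟩
  have := h.hz
  simp at h1
  omega

theorem pcode (X : List α) (hX : X ∈ D.XX) (Y : List α) (hY : X ++ Y ∈ D.XX) : Y = [] := by
  obtain ⟨x1, x2, x3⟩ := hX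
  obtain ⟨y1, y2, y3⟩ := hY
  by_contra hne
  have hl : 0 < Y.length := List.length_pos_iff.2 hne
  refine y3 X.length x1 (by rw [List.length_append]; omega) ?_
  rw [List.take_left' rfl]
  exact x2

end Dt

end Crest.Agent.R320.Inst_152
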