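import Crest.Agent.R320.Inst1_259

/-!
# Row 320, instance part 2 (helper259): the two completeness statements of `Top5_110.top_sem`
-/

set_option autoImplicit false

namespace Crest.Agent.R320.Inst_259

open Crest.Agent.R320.Hk_851 Crest.Agent.R320.Code110 Crest.Agent.R320.FewWalls_228

universe u

variable {A : Type u} {n z k : ℕ} {F : Set (List A)}

theorem move {P P' Q : List A} {N1 : ℕ} (hu : P ++ Q ∈ XX n z F)
    (hE : ∀ t, Wp n F (P ++ Q) t → ¬ (z < t + N1 ∧ t < z + N1)) (h1 : P.length < P'.length + N1)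
    (h2 : P'.length < P.length + N1) (h3 : P.length + n ≤ z) (h4 : P'.length + n ≤ z) :
    P' ++ Q ∈ XX n z F := by
  obtain ⟨hz, hW, hno⟩ := hu
  have e0 := hE _ hW
  rw [List.length_append] at hz hW hno e0
  have hQn : n ≤ Q.length := by omega
  have hWQ : Wp n F Q Q.length := (wp_append hQn).1 hW
  refine ⟨by rw [List.length_append]; omega, by rw [List.length_append]; exact (wp_append hQn).2 hWQ,
    fun t ht ht' h => ?_⟩
  rw [List.length_append] at ht'
  obtain ⟨s, rfl⟩ : ∃ s, t = P'.length + s := ⟨t - P'.length, by omega⟩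
  have hs : n ≤ s := by omega
  have h5 : Wp n F (P ++ Q) (P.length + s) := (wp_append hs).2 ((wp_append hs).1 h)
  have h6 := hE _ h5
  have h7 := fun hh => hno (P.length + s) hh (by omega) h5
  by_cases h8 : z ≤ P.length + s
  · exact h7 h8
  · exact h6 ⟨by omega, by omega⟩

theorem swap {P P' Q : List A} (hu : P ++ Q ∈ XX n z F) (h1 : P.length = P'.length)
    (h3 : P.length + n ≤ z) : P' ++ Q ∈ XX n z F := by
  obtain ⟨hz, hW, hno⟩ := hu
  rw [List.length_append] at hz hW hno
  have hQn : n ≤ Q.length := by omega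
  have hWQ : Wp n F Q Q.length := (wp_append hQn).1 hW
  refine ⟨by rw [List.length_append]; omega, by rw [List.length_append]; exact (wp_append hQn).2 hWQ,
    fun t ht ht' h => ?_⟩
  rw [List.length_append] at ht'
  obtain ⟨s, rfl⟩ : ∃ s, t = P'.length + s := ⟨t - P'.length, by omega⟩
  have hs : n ≤ s := by omega
  exact hno (P.length + s) (by omega) (by omega) ((wp_append hs).2 ((wp_append hs).1 h))

/-- critical blocks -/
def Bad (n z p0 N1 : ℕ) (F : Set (List A)) (BadT : ℕ → Prop) : Language A :=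
  {X | X ∈ XX n z F ∧ ((∃ t, Wp n F X t ∧ z < t + N1 ∧ t < z + N1) ∨ BadT (X.length - p0))}

section
variable {S V : Type*} [Monoid S] [AddCommGroup V] (φ : List A → S) (act : V → S → V) (p0 : ℕ)
  (nu2 nu1 : List A → V)

/-- zone map -/
def T (u : List A) (v : V) : V :=
  act (act v (φ (u.take p0)) + nu2 (u.take p0)) (φ (u.drop p0)) + nu1 (u.drop p0)

/-- left words of scheme 1 -/
def L1 (lam : List A → Option V) (v : V) : Language A :=
  {P | p0 ≤ P.length ∧ lam (P.drop p0) = some (act v (φ (P.take p0)) + nu2 (P.take p0))}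

variable {φ act p0 nu2 nu1} {lam rho : List A → Option V} {N1 : ℕ} {BadT : ℕ → Prop}

theorem T_append {X Y : List A} (hX : X.length = p0) (v : V) :
    T φ act p0 nu2 nu1 (X ++ Y) v = act (act v (φ X) + nu2 X) (φ Y) + nu1 Y := by
  unfold T
  rw [← hX, List.take_left, List.drop_left]

theorem C1 (hlen : ∀ P v, lam P = some v → P.length < N1)
    (hs : ∀ P Q v v', lam P = some v → rho Q = some v' → v' = act v (φ (P ++ Q)) + nu1 (P ++ Q))
    (hc : ∀ X : List A, ¬ BadT X.length → ∀ v, ∃ P Q, P ++ Q = X ∧ lam P = some v ∧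
      (rho Q).isSome)
    (hz : p0 + N1 + n ≤ z) (u : List A) (hu : u ∈ XX n z F) (hB : u ∉ Bad n z p0 N1 F BadT) (x : V) :
    ∃ p q y, u = p ++ q ∧ p ∈ L1 φ act p0 nu2 lam x ∧
      q ∈ Rsem (XX n z F) (XX n z F) (T φ act p0 nu2 nu1) 0 (L1 φ act p0 nu2 lam) y := by
  have hE : ∀ t, Wp n F u t → ¬ (z < t + N1 ∧ t < z + N1) :=
    fun t ht h => hB ⟨hu, Or.inl ⟨t, ht, h⟩⟩
  have hT : ¬ BadT (u.drop p0).length := by
    rw [List.length_drop]; exact fun h => hB ⟨hu, Or.inr h⟩
  obtain ⟨P, Q, e, hP, hQ⟩ := hc (u.drop p0) hT (act x (φ (u.take p0)) + nu2 (u.take p0))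
  obtain ⟨r, hr⟩ := Option.isSome_iff_exists.1 hQ
  have hu0 := hu.1
  have hX : (u.take p0).length = p0 := by simp; omega
  have eu : u = (u.take p0 ++ P) ++ Q := by rw [List.append_assoc, e, List.take_append_drop]
  have hPl := hlen _ _ hP
  refine ⟨u.take p0 ++ P, Q, r, eu, ?_, ?_⟩
  · refine ⟨by simp; omega, ?_⟩
    have e1 : (u.take p0 ++ P).drop p0 = P := by
      conv_lhs => rw [← hX]
      rw [hX, List.drop_append_of_le_length (by omega), List.drop_eq_nil_of_le (by omega),
        List.nil_append]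
    have e2 : (u.take p0 ++ P).take p0 = u.take p0 := by
      rw [List.take_append_of_le_length (by omega), List.take_of_length_le (by omega)]
    rw [e1, e2]; exact hP
  · rintro x' p' ⟨hp1, hp2⟩
    left
    have hp3 := hlen _ _ hp2
    rw [List.length_drop] at hp3
    have hX' : (p'.take p0).length = p0 := by simp; omega
    have hmem : p' ++ Q ∈ XX n z F := by
      rw [eu] at hu hE
      exact move hu hE (by simp; omega) (by simp; omega) (by simp; omega) (by omega)
    have hval : T φ act p0 nu2 nu1 (p' ++ Q) x' = r := by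
      have e3 : p' ++ Q = p'.take p0 ++ (p'.drop p0 ++ Q) := by
        rw [← List.append_assoc, List.take_append_drop]
      rw [e3, T_append hX']
      exact (hs _ _ _ _ hp2 hr).symm
    exact ⟨r, Language.mem_mul.2 ⟨p' ++ Q, ⟨hmem, hval⟩, [], ⟨rfl, rfl⟩, List.append_nil _⟩⟩

/-- left words of scheme 2 -/
def L2 (K : ℕ) (c : ℕ → ℕ) (lam2 : ℕ → List A → Option V) (v : V) : Language A :=
  {P | ∃ k < K, P.length = c k ∧ lam2 k P = some v}

/-- the candidate block of an unspoiled candidate is good -/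
theorem cand {D0 : ℕ} {w P P' R : List A} (hw : w = P ++ R) {ts tp : ℕ}
    (hts : ∀ t, z ≤ t + D0 → t ≤ z + D0 → Wp n F w t → t = ts) (hts0 : z ≤ ts + D0)
    (htp : z + D0 < tp) (htpW : Wp n F w tp) (htpm : ∀ s, z + D0 < s → s < tp → ¬ Wp n F w s)
    (hP : P.length + N1 ≤ D0) (hP' : P'.length + N1 ≤ D0) (hz : D0 + D0 + n + p0 ≤ z)
    (ns1 : ¬ (z < ts + P'.length - P.length + N1 ∧ ts + P'.length - P.length < z + N1))
    (ns2 : ¬ BadT (ts + P'.length - P.length - p0))
    (ns3 : ¬ BadT (tp + P'.length - P.length - p0)) :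
    ∃ X, X ∈ XX n z F ∧ X ∉ Bad n z p0 N1 F BadT ∧ X <+: P' ++ R := by
  classical
  have tr : ∀ s, n ≤ s → (Wp n F (P' ++ R) (P'.length + s) ↔ Wp n F w (P.length + s)) := by
    intro s hs
    rw [wp_append hs, hw, wp_append hs]
  have h1 : Wp n F (P' ++ R) (tp + P'.length - P.length) := by
    have := (tr (tp - P.length) (by omega)).2 (by rw [show P.length + (tp - P.length) = tp by omega]
                                                  exact htpW)
    rwa [show P'.length + (tp - P.length) = tp + P'.length - P.length by omega] at this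
  have hex : ∃ t, z ≤ t ∧ Wp n F (P' ++ R) t := ⟨_, by omega, h1⟩
  set t1 := Nat.find hex with ht1
  have ht1s : z ≤ t1 ∧ Wp n F (P' ++ R) t1 := Nat.find_spec hex
  have ht1m : t1 ≤ tp + P'.length - P.length := Nat.find_min' hex ⟨by omega, h1⟩
  have hl : ((P' ++ R).take t1).length = t1 := by
    rw [List.length_take, Nat.min_eq_left ht1s.2.le]
  refine ⟨(P' ++ R).take t1, take_mem ht1s.1 ht1s.2 fun s hs hs' hW =>
    Nat.find_min hex hs' ⟨hs, hW⟩, ?_, List.take_prefix _ _⟩
  rintro ⟨-, ⟨t', hW', h2, h3⟩ | hB⟩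
  · have hW2 := ((wp_take ht1s.2.le).1 hW').1
    have hW3 : Wp n F w (P.length + (t' - P'.length)) := by
      rw [← tr _ (by omega)]
      rwa [show P'.length + (t' - P'.length) = t' by omega]
    have := hts _ (by omega) (by omega) hW3
    exact ns1 ⟨by omega, by omega⟩
  · rw [hl] at hB
    have hW3 : Wp n F w (P.length + (t1 - P'.length)) := by
      rw [← tr _ (by omega)]
      rw [show P'.length + (t1 - P'.length) = t1 by omega]
      exact ht1s.2
    by_cases hcase : P.length + (t1 - P'.length) ≤ z + D0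
    · have := hts _ (by omega) hcase hW3
      exact ns2 (by rw [show ts + P'.length - P.length = t1 by omega]; exact hB)
    · have h4 : ¬ P.length + (t1 - P'.length) < tp := fun h => htpm _ (by omega) h hW3
      exact ns3 (by rw [show tp + P'.length - P.length = t1 by omega]; exact hB)

end

end Crest.Agent.R320.Inst_259
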