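import Crest.Agent.R320.Inst1_333
import Crest.Agent.R320.BddReg_746
import Crest.Agent.R320.Reg_852

/-!
# Row 320: heights and the top for the natural chain on ALL words (helper333)
-/

set_option autoImplicit false

namespace Crest.Agent.R320.Inst_333

open Crest.RegLang Crest.Agent.R320.Hk_851 Crest.Agent.R320.Code110 Crest.Agent.R320.Core1_922
open Crest.Agent.R320.BddReg_746 Crest.Agent.R320.Reg_852
open Crest.Agent.R320.ExactR_237 (pr)

variable {α : Type}

theorem reg_congr {L M : Language α} (h : L.IsRegular) (e : ∀ w, w ∈ L ↔ w ∈ M) :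
    M.IsRegular := by
  have : L = M := Set.ext e
  rwa [← this]

theorem reg_fin [Finite α] {L : Language α} (h : Set.Finite {w | w ∈ L}) : L.IsRegular :=
  HL.isRegular (k := 0) (HL.finite h)

theorem reg_top [Finite α] : (⊤ : Language α).IsRegular := HL.isRegular (k := 0) HL.top

theorem reg_or {L M : Language α} (h : L.IsRegular) (h' : M.IsRegular) :
    Language.IsRegular ({w | w ∈ L ∨ w ∈ M} : Language α) :=
  reg_congr (h.add h') fun _ => Iff.rfl

theorem reg_and {L M : Language α} (h : L.IsRegular) (h' : M.IsRegular) :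
    Language.IsRegular ({w | w ∈ L ∧ w ∈ M} : Language α) :=
  reg_congr (h.inf h') fun _ => Iff.rfl

theorem reg_not {L : Language α} (h : L.IsRegular) :
    Language.IsRegular ({w | w ∉ L} : Language α) :=
  reg_congr h.compl fun _ => Iff.rfl

theorem reg_const [Finite α] (p : Prop) : Language.IsRegular ({_w | p} : Language α) := by
  by_cases hp : p
  · exact reg_congr reg_top fun w => ⟨fun _ => hp, fun _ => trivial⟩
  · exact reg_congr (reg_not reg_top) fun w => ⟨fun h => (h trivial).elim, fun h => (hp h).elim⟩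

theorem reg_iUnion [Finite α] {ι : Type} [Finite ι] {L : ι → Language α}
    (h : ∀ i, (L i).IsRegular) : Language.IsRegular ({w | ∃ i, w ∈ L i} : Language α) := by
  classical
  have := Fintype.ofFinite ι
  have key : ∀ s : Finset ι, Language.IsRegular ({w | ∃ i ∈ s, w ∈ L i} : Language α) := by
    intro s
    induction s using Finset.induction_on with
    | empty => exact reg_congr (reg_const False) fun w => ⟨fun h => h.elim, fun h => by
        obtain ⟨i, hi, -⟩ := h
        simp at hi⟩
    | insert a s _ ih =>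
      refine reg_congr (reg_or (h a) ih) fun w => ?_
      constructor
      · rintro (h1 | ⟨i, hi, h1⟩)
        · exact ⟨a, Finset.mem_insert_self _ _, h1⟩
        · exact ⟨i, Finset.mem_insert_of_mem hi, h1⟩
      · rintro ⟨i, hi, h1⟩
        rcases Finset.mem_insert.1 hi with rfl | hi
        · exact Or.inl h1
        · exact Or.inr ⟨i, hi, h1⟩
  exact reg_congr (key Finset.univ) fun w => ⟨fun ⟨i, _, h1⟩ => ⟨i, h1⟩,
    fun ⟨i, h1⟩ => ⟨i, Finset.mem_univ _, h1⟩⟩

theorem reg_len [Finite α] (p : ℤ → Prop) (m : ℕ) (hm : 0 < m)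
    (hp : ∀ T, p (T + m) ↔ p T) (c : ℤ) :
    Language.IsRegular ({w | p ((w.length : ℤ) - c)} : Language α) := by
  have hk : ∀ (k : ℕ) (T : ℤ), p (T + k * m) ↔ p T := by
    intro k
    induction k with
    | zero => intro T; simp
    | succ k ih =>
      intro T
      rw [← ih T, ← hp (T + k * m)]
      have : T + ((k + 1 : ℕ) : ℤ) * m = T + k * m + m := by push_cast; ring
      rw [this]
  haveI : NeZero m := ⟨hm.ne'⟩
  have h1 : ∀ r : Fin m, Language.IsRegular ({w | p ((r.1 : ℤ) - c) ∧ w.length % m = r.1} :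
      Language α) := by
    intro r
    have h2 : Language.IsRegular ({w | (w.map fun _ : α =>
        (Multiplicative.ofAdd (1 : ZMod m))).prod = Multiplicative.ofAdd ((r.1 : ℕ) : ZMod m)} :
        Language α) := isRegular_prod _ _
    refine reg_congr (reg_and (reg_const (p ((r.1 : ℤ) - c))) h2) fun w => ?_
    refine and_congr Iff.rfl ?_
    show ((w.map fun _ : α => (Multiplicative.ofAdd (1 : ZMod m))).prod
      = Multiplicative.ofAdd ((r.1 : ℕ) : ZMod m)) ↔ _
    rw [List.map_const', List.prod_replicate, ← ofAdd_nsmul, Multiplicative.ofAdd.injective.eq_iff,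
      nsmul_one, ZMod.natCast_eq_natCast_iff, Nat.ModEq, Nat.mod_eq_of_lt r.2]
  refine reg_congr (reg_iUnion h1) fun w => ?_
  constructor
  · rintro ⟨r, h2, h3⟩
    show p _
    have := (hk (w.length / m) ((r.1 : ℤ) - c)).2 h2
    have e : (w.length : ℤ) = r.1 + ((w.length / m : ℕ) : ℤ) * m := by
      have h5 := Nat.mod_add_div w.length m
      rw [h3] at h5
      have h6 : (w.length : ℤ) = ((r.1 + m * (w.length / m) : ℕ) : ℤ) := by rw [h5]
      generalize w.length / m = q at h6 ⊢
      rw [h6]; push_cast; ring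
    rw [e, show (r.1 : ℤ) + ((w.length / m : ℕ) : ℤ) * m - c =
      (r.1 : ℤ) - c + ((w.length / m : ℕ) : ℤ) * m by ring]
    exact this
  · intro h2
    have h2' : p ((w.length : ℤ) - c) := h2
    refine ⟨⟨w.length % m, Nat.mod_lt _ hm⟩, ?_, rfl⟩
    show p (((w.length % m : ℕ) : ℤ) - c)
    rw [← hk (w.length / m)]
    have e : ((w.length % m : ℕ) : ℤ) - c + ((w.length / m : ℕ) : ℤ) * m = (w.length : ℤ) - c := by
      have h5 := Nat.mod_add_div w.length m
      have h6 : (w.length : ℤ) = ((w.length % m + m * (w.length / m) : ℕ) : ℤ) := by rw [h5]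
      generalize w.length / m = q at h6 ⊢
      generalize w.length % m = r at h6 ⊢
      rw [h6]; push_cast; ring
    rw [e]
    exact h2'

namespace Dat

variable {S V : Type} [Monoid S] [AddCommGroup V] (D : Dat α S V)

/-- no wall at a place in `[a, |X|)` -/
def NW (a : ℕ) : Language α := {X | ∀ t, a ≤ t → t < X.length → ¬ D.Wo (X.take t)}

theorem reg_wo [Finite α] : Language.IsRegular ({X | D.Wo X} : Language α) := by
  have hF : Language.IsRegular ({F | F.length = D.n ∧ D.Wo F} : Language α) :=
    reg_fin ((List.finite_length_eq α D.n).subset fun _ h => h.1)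
  refine reg_congr (Reg_852.IsRegular.mul reg_top hF) fun w => ?_
  constructor
  · intro h
    obtain ⟨P, -, Q, ⟨h1, h2⟩, rfl⟩ := Language.mem_mul.1 h
    exact (D.lw.app P Q h1.ge).2 h2
  · intro h
    have h1 : D.Wo w := h
    have h2 := D.lw.len w h1
    have h3 : (w.drop (w.length - D.n)).length = D.n := by rw [List.length_drop]; omega
    refine Language.mem_mul.2 ⟨w.take (w.length - D.n), trivial, w.drop (w.length - D.n),
      ⟨h3, ?_⟩, List.take_append_drop _ _⟩
    rw [← D.lw.app (w.take (w.length - D.n)) _ h3.ge, List.take_append_drop]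
    exact h1

theorem reg_ge [Finite α] (a : ℕ) : Language.IsRegular ({X | a ≤ X.length} : Language α) := by
  have h : Language.IsRegular ({X | X.length < a} : Language α) :=
    reg_fin (List.finite_length_lt α a)
  exact reg_congr (reg_not h) fun w => by
    show ¬ (w.length < a) ↔ a ≤ w.length
    exact not_lt

theorem reg_NW [Finite α] (a : ℕ) : (D.NW a).IsRegular := by
  have h1 : Language.IsRegular ({X | X ∈ ({X | a ≤ X.length} : Language α) ∧
    X ∈ ({X | D.Wo X} : Language α)} : Language α) := reg_and (reg_ge a) D.reg_wo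
  have h2 : Language.IsRegular ({X | 1 ≤ X.length} : Language α) := reg_ge 1
  refine reg_congr (reg_not (Reg_852.IsRegular.mul h1 h2)) fun w => ?_
  constructor
  · intro h t ht1 ht2 ht3
    apply h
    refine Language.mem_mul.2 ⟨w.take t, ⟨?_, ht3⟩, w.drop t, ?_, List.take_append_drop _ _⟩
    · show a ≤ (w.take t).length
      rw [List.length_take]; omega
    · show 1 ≤ (w.drop t).length
      rw [List.length_drop]; omega
  · intro h h'
    obtain ⟨P, ⟨hP1, hP2⟩, Q, hQ, rfl⟩ := Language.mem_mul.1 h'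
    have hP1' : a ≤ P.length := hP1
    have hQ' : 1 ≤ Q.length := hQ
    refine h P.length hP1' (by rw [List.length_append]; omega) ?_
    rw [List.take_left' rfl]
    exact hP2

theorem reg_XX [Finite α] : D.XX.IsRegular := by
  refine reg_congr (reg_and (reg_ge D.z) (reg_and D.reg_wo (D.reg_NW D.z))) fun w => Iff.rfl

theorem reg_BB [Finite α] (m : ℕ) (hm : 0 < m) (hp : ∀ T, D.BadT (T + m) ↔ D.BadT T) :
    D.BB.IsRegular := by
  have h1 : Language.IsRegular ({X | X.length < D.z + D.N} : Language α) :=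
    reg_fin (List.finite_length_lt α _)
  have h2 : Language.IsRegular ({X | X.length < D.z ∧ D.z ≤ X.length + D.N ∧ D.Wo X} :
      Language α) :=
    reg_fin ((List.finite_length_lt α D.z).subset fun _ h => h.1)
  have h3 := Reg_852.IsRegular.mul h2 (reg_top (α := α))
  have h4 := reg_len (α := α) D.BadT m hm hp D.p0
  refine reg_congr (reg_and D.reg_XX (reg_or h1 (reg_or h3 h4))) fun w => ?_
  constructor
  · rintro ⟨hX, h⟩
    refine ⟨hX, ?_⟩
    rcases h with h | h | h
    · exact Or.inl h
    · right; left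
      obtain ⟨P, ⟨hP1, hP2, hP3⟩, Q, -, rfl⟩ := Language.mem_mul.1 h
      exact ⟨P.length, hP2, hP1, by rw [List.take_left' rfl]; exact hP3⟩
    · exact Or.inr (Or.inr h)
  · rintro ⟨hX, h⟩
    refine ⟨hX, ?_⟩
    rcases h with h | ⟨t, ht1, ht2, ht3⟩ | h
    · exact Or.inl h
    · right; left
      have hz : D.z ≤ w.length := hX.1
      have hl : (w.take t).length = t := by rw [List.length_take]; omega
      exact Language.mem_mul.2 ⟨w.take t, ⟨by omega, by omega, ht3⟩, w.drop t, trivial,
        List.take_append_drop _ _⟩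
    · exact Or.inr (Or.inr h)

/-- auxiliary language -/
def Mv (v y : V) : Language α := {Y | D.act v (pr D.f Y) + D.nu1 Y = y}

theorem reg_ZT [Finite α] [Finite S] (hreg : ∀ d, Language.IsRegular ({X | D.nu1 X = d} :
    Language α)) (x y : V) : (ZT D.XX D.T x y).IsRegular := by
  have hM : ∀ v : V, (D.Mv v y).IsRegular := by
    intro v
    refine reg_congr (reg_iUnion (ι := S) (L := fun s => ({Y | Y ∈ ({Y | (Y.map D.f).prod = s} :
      Language α) ∧ Y ∈ ({Y | D.nu1 Y = y - D.act v s} : Language α)} : Language α))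
      fun s => reg_and (isRegular_prod D.f s) (hreg _)) fun w => ?_
    constructor
    · rintro ⟨s, h1, h2⟩
      have h1' : (w.map D.f).prod = s := h1
      have h2' : D.nu1 w = y - D.act v s := h2
      show D.act v (pr D.f w) + D.nu1 w = y
      unfold pr
      rw [h1', h2']; abel
    · intro h
      have h' : D.act v (pr D.f w) + D.nu1 w = y := h
      refine ⟨(w.map D.f).prod, rfl, ?_⟩
      show D.nu1 w = y - D.act v (pr D.f w)
      rw [← h']; abel
  haveI : Finite {X : List α // X.length = D.p0} := (List.finite_length_eq α D.p0).to_subtype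
  have h := reg_iUnion (α := α) (ι := {X : List α // X.length = D.p0})
    (L := fun X0 => ({X0.1} : Language α) * D.Mv (D.act x (pr D.f X0.1) + D.nu2 X0.1) y)
    (fun X0 => Reg_852.IsRegular.mul (reg_fin (Set.finite_singleton _)) (hM _))
  refine reg_congr (reg_and D.reg_XX h) fun w => ?_
  constructor
  · rintro ⟨hX, ⟨X0, hX0⟩, h⟩
    refine ⟨hX, ?_⟩
    obtain ⟨P, hP, Q, hQ, rfl⟩ := Language.mem_mul.1 h
    have hP' : P = X0 := hP
    subst hP'
    show D.T (P ++ Q) x = y
    unfold T
    rw [List.take_left' hX0, List.drop_left' hX0]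
    exact hQ
  · rintro ⟨hX, h⟩
    have hz : D.z ≤ w.length := hX.1
    have := D.hz
    refine ⟨hX, ⟨w.take D.p0, by rw [List.length_take]; omega⟩, ?_⟩
    exact Language.mem_mul.2 ⟨w.take D.p0, rfl, w.drop D.p0, h, List.take_append_drop _ _⟩

/-- few walls ⟹ height one -/
theorem hl_of_NW [Finite α] {B : ℕ}
    (htpl : ∀ X : List α, (∀ t < X.length, ¬ D.Wo (X.take t)) →
      ∃ (u x v : List α) (k : ℕ), u.length ≤ B ∧ x.length ≤ B ∧ v.length ≤ B ∧
        X = u ++ (List.replicate k x).flatten ++ v)
    {L : Language α} (hL : L.IsRegular) (hsub : ∀ w ∈ L, w ∈ D.NW D.z) : HL 1 L := by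
  refine HL_one_of_regular hL (D.z + B) 3 fun w hw => ?_
  have hN : ∀ t, D.z ≤ t → t < w.length → ¬ D.Wo (w.take t) := hsub w hw
  obtain ⟨u, x, v, k, h1, h2, h3, h4⟩ := htpl (w.drop D.z) (by
    intro t ht hW
    rw [List.length_drop] at ht
    have hl := D.lw.len _ hW
    refine hN (D.z + t) (by omega) (by omega) ?_
    have e : w.take (D.z + t) = w.take D.z ++ (w.drop D.z).take t := by
      rw [List.take_add]
    rw [e, D.lw.app _ _ hl]
    exact hW)
  have e : w = w.take D.z ++ ((u ++ pw x k) ++ (v ++ [])) := by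
    conv_lhs => rw [← List.take_append_drop D.z w, h4]
    simp [pw]
  rw [e]
  refine Language.mem_mul.2 ⟨_, ⟨w.take D.z, [], 0, ?_, by simp, by simp⟩, _,
    Language.mem_mul.2 ⟨_, ⟨u, x, k, by omega, by omega, rfl⟩, _,
      Language.mem_mul.2 ⟨v, ⟨v, [], 0, by omega, by simp, by simp⟩, [], rfl, rfl⟩, rfl⟩, rfl⟩
  rw [List.length_take]
  omega

theorem main [Finite α] [Finite S] [Finite V]
    (hfaith : ∀ s t : S, (∀ v, D.act v s = D.act v t) → s = t)
    (m : ℕ) (hm : 0 < m) (hp : ∀ T, D.BadT (T + m) ↔ D.BadT T)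
    (hreg : ∀ d, Language.IsRegular ({X | D.nu1 X = d} : Language α))
    {B : ℕ} (htpl : ∀ X : List α, (∀ t < X.length, ¬ D.Wo (X.take t)) →
      ∃ (u x v : List α) (k : ℕ), u.length ≤ B ∧ x.length ≤ B ∧ v.length ≤ B ∧
        X = u ++ (List.replicate k x).flatten ++ v) (s : S) :
    HL 3 ({w | (w.map D.f).prod = s} : Language α) := by
  have hXN : ∀ w ∈ D.XX, w ∈ D.NW D.z := fun w hw => hw.2.2
  have H4 : ∀ s, HL 3 ({w | (∀ u ∈ D.XX, ¬ u <+: w) ∧ pr D.f w = s} : Language α) := by
    intro s
    refine (D.hl_of_NW htpl (L := ({w | (∀ u ∈ D.XX, ¬ u <+: w) ∧ pr D.f w = s} : Language α))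
      ?_ ?_).mono (by norm_num)
    · refine reg_congr (reg_and (reg_not (Reg_852.IsRegular.mul D.reg_XX reg_top))
        (isRegular_prod D.f s)) fun w => ?_
      refine and_congr ?_ Iff.rfl
      constructor
      · rintro h u hu ⟨r, rfl⟩
        exact h (Language.mem_mul.2 ⟨u, hu, r, trivial, rfl⟩)
      · intro h h'
        obtain ⟨u, hu, r, -, rfl⟩ := Language.mem_mul.1 h'
        exact h u hu (List.prefix_append _ _)
    · rintro w ⟨hw, -⟩ t ht1 ht2 ht3
      obtain ⟨t1, h1, h2, h3, h4⟩ := D.first w D.z t ht1 ht3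
      have hl : (w.take t1).length = t1 := by rw [List.length_take]; omega
      refine hw (w.take t1) ⟨by omega, h3, ?_⟩ (List.take_prefix _ _)
      intro t' ht1' ht2' ht3'
      rw [List.take_take, min_eq_left (by omega)] at ht3'
      exact h4 t' ht1' (by omega) ht3'
  refine Top5_110.top_sem (φ := pr D.f) (act := D.act) (XX := D.XX) (Bad := D.BB) (T := D.T)
    (L1 := D.L1) (L2 := D.L2) (N1 := 0) (N2 := 1) (by simp [pr])
    (by intro u w; simp [pr]) D.hone D.hmul hfaith D.pc (fun u hu => hu.1)
    (fun u _ v v' => D.T_sub u v v')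
    (D.hl_of_NW htpl D.reg_XX hXN)
    (D.hl_of_NW htpl (D.reg_BB m hm hp) fun w hw => hXN w hw.1)
    (fun x y => D.hl_of_NW htpl (D.reg_ZT hreg x y) fun w hw => hXN w hw.1)
    H4 ?_ ?_ ?_ ?_ s
  · intro v
    refine (List.finite_length_lt α (D.p0 + D.N)).subset ?_
    rintro P ⟨X0, P', rfl, h1, h2⟩
    have := D.lamlen _ _ h2
    show (X0 ++ P').length < _
    rw [List.length_append]
    omega
  · intro v
    refine (List.finite_length_le α D.p0).subset ?_
    rintro P ⟨k, hk, h1, h2⟩
    have := D.hc k hk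
    show P.length ≤ _
    omega
  · intro u hu hB x t ht
    have ht' : t = [] := by
      rw [pow_zero] at ht
      exact ht
    subst ht'
    obtain ⟨p, q, y, h1, h2, h3⟩ := D.C1 hu hB x
    exact ⟨p, q, y, by rw [List.append_nil]; exact h1, h2, h3⟩
  · intro u hu x t ht
    rw [pow_one] at ht
    exact D.C2 hu ht x

end Dat

end Crest.Agent.R320.Inst_333
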