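import Crest.Agent.R320.Inst_342

/-!
# Row 320: `Data2` for every finite monoid from walls, gadget, exact gadget (helper342)
-/

set_option autoImplicit false

namespace Crest.Agent.R320.Inst_342

open Crest.Agent.R320.Hk_851 Crest.Agent.R320.Star_621 Crest.Agent.R320.Two_621
open Crest.Agent.R320.Main_621 Crest.Agent.R320.Shared_621

theorem inst {α S : Type} [Monoid S] [Finite α] [Finite S] (f : α → S)
    (hW : ∀ G : ℕ, ∃ (n : ℕ) (W : List α → Prop), Walls f G n W)
    (hGad : ∃ C0 : ℕ, ∀ K : ℕ, ∃ (N1 Pm La : ℕ) (c : ℕ → ℕ) (Bad : ℕ → Prop)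
      (lam rho : List α → Option (Tok S)) (nu : List α → Tok S),
      Gad f K C0 N1 Pm La c Bad lam rho nu) :
    Data2 (fun w : List α => (w.map f).prod) := by
  classical
  haveI : Fintype S := Fintype.ofFinite S
  haveI : Fintype (Tok S) := inferInstanceAs (Fintype (S → ZMod 2))
  obtain ⟨C0, hGad⟩ := hGad
  obtain ⟨K, hK⟩ := ExactR_237.exact_gadget α S (Tok S) f act (3 * (C0 + 1) + 1)
  obtain ⟨N1, Pm, La, c, Bad, lam, rho, nu, hg⟩ := hGad K
  obtain ⟨lam2, rho2, nu2, he1, he2⟩ := hK (fun j => c j + 1) (fun i j h1 h2 => by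
    have := hg.inc i j h1 h2
    show c i + 1 < c j + 1
    omega)
  set p0 : ℕ := (Finset.range K).sup c + 1 with hp0
  have hcp : ∀ j, j < K → c j + 1 ≤ p0 := by
    intro j hj
    have := Finset.le_sup (f := c) (Finset.mem_range.2 hj)
    omega
  obtain ⟨n, W, hw⟩ := hW (p0 + 2 * N1 + 1)
  let D : Dt α S :=
    { f := f, W := W, n := n, G := p0 + 2 * N1 + 1, p0 := p0,
      z0 := p0 + p0 + n + 2 * N1 + La + 1, k2 := (p0 + 2 * N1 + 1) + n + 1, N1 := N1, K := K,
      La := La, Pm := Pm, c := fun j => c j + 1, Bad := Bad, lam := lam, rho := rho, nu1 := nu,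
      lam2 := lam2, rho2 := fun k Q => rho2 k Q 1, nu2 := fun X => nu2 X 1 }
  have hok : Ok D C0 :=
    { wl := hw
      gad :=
        { Pm0 := hg.Pm0
          inc := fun i j h1 h2 => by
            have := hg.inc i j h1 h2
            show c i + 1 < c j + 1
            omega
          gol := fun i j k l h1 h2 h3 h4 h5 h6 h7 => by
            have := hg.gol i j k l h1 h2 h3 h4 h5 h6 h7
            show c i + 1 + (c l + 1) + 4 * N1 < c k + 1 + (c j + 1) ∨
              c k + 1 + (c j + 1) + 4 * N1 < c i + 1 + (c l + 1)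
            omega
          per := hg.per
          cnt := fun T hT => by
            obtain ⟨E, h1, h2⟩ := hg.cnt T hT
            refine ⟨E, h1, fun i j hi hj hij hb => h2 i j hi hj hij ?_⟩
            have e : T + (c j + 1) - (c i + 1) = T + c j - c i := by omega
            rw [← e]
            exact hb
          len := hg.len
          snd := hg.snd
          cpl := hg.cpl
          fs := hg.fs }
      p0pos := Nat.succ_pos _
      cpos := fun j _ => Nat.succ_pos _
      cp0 := hcp
      hG := le_rfl
      hz0 := rfl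
      hk2 := rfl
      ex1 := fun k hk P Q v b hP h1 h2 => by
        have := he1 k hk P Q 1 v b hP h1 h2
        rw [this, mul_one]
        rfl
      ex2 := fun u v hu => by
        obtain ⟨I, hI, hI2⟩ := he2 u 1 v (fun k hk => by
          show c k + 1 ≤ u.length
          rw [hu]
          exact hcp k hk)
        exact ⟨I, hI, fun k hk => hI2 k hk⟩ }
  exact data2_of_ok hok

end Crest.Agent.R320.Inst_342
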