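import Crest.Agent.R320.Inst1_486
import Crest.Agent.R320.Top5_110
import Crest.Agent.R320.Univ_294
import Crest.Agent.R320.Block_467

/-!
# Row 320: assembly from the gadget on all words (`UGIP`) to height three (helper486)
over Top5_110.top_sem, Joint_47, ExactR_237, FewVal_228, Block_467.exists_module
-/

set_option autoImplicit false

namespace Crest.Agent.R320.Inst486

open Crest.RegLang Crest.Agent.R320.Hk_851 Crest.Agent.R320.FewWalls_228 Crest.Agent.R320.JT_486
open Crest.Agent.R320.Code110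
open Crest.Agent.R320.ExactR_237 (pr pr_append)

/-- the gadget of scheme 1 on all words, with its ruler -/
def UGIP (S V : Type) [Monoid S] [AddCommGroup V] (act : V → S → V) : Prop :=
  ∃ C0 : ℕ, ∀ K : ℕ, ∃ (N1 Pm La : ℕ) (c : ℕ → ℕ) (Bad : ℕ → Prop), 0 < Pm ∧
    (∀ i j, i < j → j < K → c i < c j) ∧
    (∀ i j k l, i < K → j < K → k < K → l < K → i ≠ j → k ≠ l → (i, j) ≠ (k, l) →
      c i + c l + 4 * N1 < c k + c j ∨ c k + c j + 4 * N1 < c i + c l) ∧
    (∀ T, Bad (T + Pm) ↔ Bad T) ∧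
    (∀ T, La ≤ T → ∀ I : Finset (ℕ × ℕ), (∀ ab ∈ I, ab.1 < K ∧ ab.2 < K ∧ ab.1 ≠ ab.2 ∧
      Bad (T + c ab.2 - c ab.1)) → I.card ≤ C0) ∧
    ∀ (A : Type) (phi : A → S), ∃ (lam rho : List A → Option V) (nu : List A → V),
      (∀ p v, lam p = some v → p.length ≤ N1) ∧
      (∀ p q v r, lam p = some v → rho q = some r → La ≤ q.length →
        r = act v ((p ++ q).map phi).prod + nu (p ++ q)) ∧
      (∀ u, La ≤ u.length → ¬ Bad u.length → ∀ v, ∃ p q, p ++ q = u ∧ lam p = some v ∧
        (rho q).isSome) ∧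
      (∀ q q2 : List A, La ≤ q.length → La ≤ q2.length → q.take La = q2.take La →
        q.length ≡ q2.length [MOD Pm] →
        ((q.drop La).map phi).prod = ((q2.drop La).map phi).prod → nu q = nu q2)

theorem prodkey {α S : Type} [Monoid S] (f : α → S) (P : ℕ) (w : List α) :
    (w.map (fun a => (f a, Multiplicative.ofAdd (1 : ZMod P)))).prod =
      ((w.map f).prod, Multiplicative.ofAdd ((w.length : ℕ) : ZMod P)) := by
  induction w with
  | nil =>
    simp only [List.map_nil, List.prod_nil, List.length_nil, Nat.cast_zero, ofAdd_zero]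
    rfl
  | cons a w ih =>
    rw [List.map_cons, List.prod_cons, ih, List.map_cons, List.prod_cons, Prod.mk_mul_mk,
      List.length_cons, ← ofAdd_add]
    congr 2
    push_cast
    ring

theorem per_mod {P : ℕ} {B : ℕ → Prop} (h : ∀ T, B (T + P) ↔ B T) {a b : ℕ}
    (hab : a ≡ b [MOD P]) : B a ↔ B b := by
  have key : ∀ k t, B (t + P * k) ↔ B t := by
    intro k
    induction k with
    | zero => intro t; simp
    | succ k ih =>
      intro t
      have e : t + P * (k + 1) = (t + P * k) + P := by ring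
      rw [e, h, ih]
  rw [← Nat.mod_add_div a P, ← Nat.mod_add_div b P, key, key, hab]

theorem main (hU : ∀ (S V : Type) [Monoid S] [Finite S] [AddCommGroup V] [Finite V]
      (act : V → S → V), UGIP S V act)
    (α : Type) [Finite α] (S : Type) [Monoid S] [Finite S] (f : α → S) (s : S) :
    HL 3 ({w | (w.map f).prod = s} : Language α) := by
  classical
  haveI := Fintype.ofFinite S
  obtain ⟨act, hadd, hone, hmul, hfaith⟩ := Blk467.exists_module S
  obtain ⟨C0, hC0⟩ := hU S (S → ZMod 2) act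
  obtain ⟨K, hK⟩ := ExactR_237.exact_gadget α S (S → ZMod 2) f act (2 * C0 + 2)
  obtain ⟨N1, Pm, La, c, Bad0, hPm, hinc, hgol, hper, hsp, hgad⟩ := hC0 K
  obtain ⟨lam, rho, nu1, hlen, hsound, hcomp, hfs⟩ := hgad α f
  obtain ⟨lam2, rho2, nu2', hS2, hC2⟩ := hK c hinc
  obtain ⟨p0, hp0⟩ : ∃ p0, p0 = ∑ k ∈ Finset.range K, c k := ⟨_, rfl⟩
  have hcp : ∀ k, k < K → c k ≤ p0 := fun k hk => by
    rw [hp0]
    exact Finset.single_le_sum (f := c) (fun i _ => Nat.zero_le _) (Finset.mem_range.2 hk)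
  obtain ⟨La', hLa'⟩ : ∃ La', La' = La + p0 := ⟨_, rfl⟩
  obtain ⟨N0, hN0⟩ : ∃ N0, N0 = La' + N1 := ⟨_, rfl⟩
  let BadT : ℕ → Prop := fun T => La' ≤ T ∧ Bad0 T
  let rho' : List α → Option (S → ZMod 2) := fun q => if La ≤ q.length then rho q else none
  obtain ⟨n, c', P, Sw, hn, hP, hS, hsep, hper', -⟩ :=
    FewVal_228.exists_walls α (2 * (N1 + p0) + 1) (by omega)
  have hW := lw hS hsep
  obtain ⟨z, hz⟩ : ∃ z, z = 3 * p0 + n + N1 + 1 + N0 := ⟨_, rfl⟩
  let nu2 : List α → (S → ZMod 2) := fun X => nu2' X 1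
  let TT : List α → (S → ZMod 2) → (S → ZMod 2) := fun X v => T f act p0 nu2 nu1 v X
  let BL : Language α := {X | X ∈ ZL Sw z ∧ JT_486.Bad (wl Sw) z N1 p0 BadT X}
  let L1l : (S → ZMod 2) → Language α := fun v => {X | L1 f act p0 nu2 lam v X}
  let L2l : (S → ZMod 2) → Language α := fun v => {X | L2 K c lam2 v X}
  have hfew : ∀ {M : Type} [Monoid M] [Finite M] (φ : α → M) (r : ℕ) (m : M),
      HL 1 (FWL n Sw φ r m) := fun φ r m => FewVal_228.HL_few_value hn hP hper' r φ m
  have hX : PC (ZL Sw z) := by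
    refine ⟨?_, ?_⟩
    · intro h
      have h1 : z ≤ ([] : List α).length := h.1
      rw [List.length_nil] at h1
      omega
    · intro u hu v hv huv
      exact Zn_prefix hu hv huv (List.prefix_refl v)
  have hact_sub : ∀ v v' t, act v t - act v' t = act (v - v') t := by
    intro v v' t
    have := hadd (v - v') v' t
    rw [sub_add_cancel] at this
    rw [this, add_sub_cancel_right]
  have hTT : ∀ u ∈ ZL Sw z, ∀ v v', TT u v - TT u v' = act (v - v') (pr f u) := by
    intro u _ v v'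
    show (act (act v (pr f (u.take p0)) + nu2 (u.take p0)) (pr f (u.drop p0)) + nu1 (u.drop p0)) -
      (act (act v' (pr f (u.take p0)) + nu2 (u.take p0)) (pr f (u.drop p0)) + nu1 (u.drop p0)) = _
    rw [hadd, hadd, ← hmul, ← hmul, ← pr_append, List.take_append_drop, ← hact_sub]
    abel
  haveI : NeZero Pm := ⟨by omega⟩
  haveI : Finite (Multiplicative (ZMod Pm)) := inferInstanceAs (Finite (ZMod Pm))
  let φM : α → S × Multiplicative (ZMod Pm) := fun a => (f a, Multiplicative.ofAdd (1 : ZMod Pm))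
  have hkey : ∀ R R' : List α, (R.map φM).prod = (R'.map φM).prod →
      (R.map f).prod = (R'.map f).prod ∧ R.length ≡ R'.length [MOD Pm] := by
    intro R R' h
    rw [prodkey, prodkey] at h
    have h1 := congrArg Prod.fst h
    have h2 := congrArg Prod.snd h
    refine ⟨h1, ?_⟩
    exact (ZMod.natCast_eq_natCast_iff _ _ _).1 (Multiplicative.ofAdd.injective h2)
  have hzz : ∀ X, X ∈ ZL Sw z → ∀ t, z ≤ t → t < X.length → ¬ wl Sw (X.take t) :=
    fun X h => h.2.2
  have H1 : HL 1 (ZL Sw z) := HL_ZL hS z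
  have H2 : HL 1 BL := by
    refine HL_key hS φM (hfew φM) (z + N1 + p0 + La') (fun X => X ∈ ZL Sw z ∧
      JT_486.Bad (wl Sw) z N1 p0 BadT X) (fun X h => hzz X h.1) (ZL Sw z) H1
      (fun X => JT_486.Bad (wl Sw) z N1 p0 BadT X) (fun X => Iff.rfl) ?_
    intro A R R' hA hRR
    obtain ⟨h1, h2⟩ := hkey R R' hRR
    have e1 : ∀ Q : List α, (∃ t, z - N1 ≤ t ∧ t < z + N1 ∧ t ≤ (A ++ Q).length ∧
        wl Sw ((A ++ Q).take t)) ↔ (∃ t, z - N1 ≤ t ∧ t < z + N1 ∧ wl Sw (A.take t)) := by
      intro Q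
      constructor
      · rintro ⟨t, a1, a2, a3, a4⟩
        rw [List.take_append_of_le_length (by omega)] at a4
        exact ⟨t, a1, a2, a4⟩
      · rintro ⟨t, a1, a2, a4⟩
        refine ⟨t, a1, a2, by rw [List.length_append]; omega, ?_⟩
        rw [List.take_append_of_le_length (by omega)]
        exact a4
    have e2 : BadT ((A ++ R).length - p0) ↔ BadT ((A ++ R').length - p0) := by
      have hb : Bad0 ((A ++ R).length - p0) ↔ Bad0 ((A ++ R').length - p0) := by
        refine per_mod hper ?_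
        rw [List.length_append, List.length_append]
        have g1 : A.length + R.length - p0 = (A.length - p0) + R.length := by omega
        have g2 : A.length + R'.length - p0 = (A.length - p0) + R'.length := by omega
        rw [g1, g2]
        exact Nat.ModEq.add_left _ h2
      constructor
      · rintro ⟨_, b⟩
        refine ⟨?_, hb.1 b⟩
        rw [List.length_append]; omega
      · rintro ⟨_, b⟩
        refine ⟨?_, hb.2 b⟩
        rw [List.length_append]; omega
    show ((∃ t, z - N1 ≤ t ∧ t < z + N1 ∧ t ≤ (A ++ R).length ∧ wl Sw ((A ++ R).take t)) ∨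
      BadT ((A ++ R).length - p0)) ↔ ((∃ t, z - N1 ≤ t ∧ t < z + N1 ∧ t ≤ (A ++ R').length ∧
      wl Sw ((A ++ R').take t)) ∨ BadT ((A ++ R').length - p0))
    rw [e1, e1, e2]
  have H3 : ∀ x y, HL 1 (ZT (ZL Sw z) TT x y) := by
    intro x y
    refine HL_key hS φM (hfew φM) (p0 + La) (fun X => X ∈ ZL Sw z ∧ TT X x = y)
      (fun X h => hzz X h.1) (ZL Sw z) H1 (fun X => TT X x = y) (fun X => Iff.rfl) ?_
    intro A R R' hA hRR
    obtain ⟨h1, h2⟩ := hkey R R' hRR
    have e : TT (A ++ R) x = TT (A ++ R') x := by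
      show (act (act x (pr f ((A ++ R).take p0)) + nu2 ((A ++ R).take p0))
        (pr f ((A ++ R).drop p0)) + nu1 ((A ++ R).drop p0)) =
        (act (act x (pr f ((A ++ R').take p0)) + nu2 ((A ++ R').take p0))
        (pr f ((A ++ R').drop p0)) + nu1 ((A ++ R').drop p0))
      have t1 : ∀ Q : List α, (A ++ Q).take p0 = A.take p0 := fun Q =>
        List.take_append_of_le_length (by omega)
      have t2 : ∀ Q : List α, (A ++ Q).drop p0 = A.drop p0 ++ Q := fun Q =>
        List.drop_append_of_le_length (by omega)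
      have hlA : (A.drop p0).length = La := by rw [List.length_drop]; omega
      have hpr : pr f R = pr f R' := h1
      have hnu : nu1 (A.drop p0 ++ R) = nu1 (A.drop p0 ++ R') := by
        refine hfs _ _ (by rw [List.length_append]; omega) (by rw [List.length_append]; omega)
          ?_ ?_ ?_
        · rw [List.take_left' hlA, List.take_left' hlA]
        · rw [List.length_append, List.length_append]
          exact Nat.ModEq.add_left _ h2
        · rw [List.drop_left' hlA, List.drop_left' hlA]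
          exact h1
      rw [t1, t1, t2, t2, pr_append, pr_append, hpr, hnu]
    show TT (A ++ R) x = y ↔ TT (A ++ R') x = y
    rw [e]
  have H4 : ∀ s, HL 3 ({w | (∀ u ∈ ZL Sw z, ¬ u <+: w) ∧ pr f w = s} : Language α) := by
    intro s
    have hpre : HL 1 ({w | ∃ v ∈ ZL Sw z, v <+: w} : Language α) := HL.prefix H1
    refine ((hpre.compl.inf (hfew f (z + 1) s)).mono (by norm_num)).congr fun w => ?_
    constructor
    · rintro ⟨h1, h2⟩
      refine ⟨?_, ?_, h2⟩
      · rintro ⟨v, hv, hvw⟩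
        exact h1 v hv hvw
      · refine nw_tail (z := z) hS (A := []) (R := w) (X := w) rfl ?_
        intro t ht1 ht2 ht3
        obtain ⟨a, ha, haw, -⟩ := Zn_exists (Wo := wl Sw) ht1 ht2.le ht3
        exact h1 a ha haw
    · rintro ⟨h1, _, h2⟩
      refine ⟨?_, h2⟩
      intro u hu huw
      exact h1 ⟨u, hu, huw⟩
  have F1 : ∀ v, {p | p ∈ L1l v}.Finite := by
    intro v
    refine (List.finite_length_le α (p0 + N1)).subset ?_
    rintro p ⟨h1, h2⟩
    have := hlen _ _ h2
    rw [List.length_drop] at this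
    show p.length ≤ p0 + N1
    omega
  have F2 : ∀ v, {p | p ∈ L2l v}.Finite := by
    intro v
    refine (List.finite_length_le α p0).subset ?_
    rintro p ⟨k, hk, h1, h2⟩
    show p.length ≤ p0
    rw [h1]; exact hcp k hk
  have hS' : ∀ P Q v r, lam P = some v → rho' Q = some r → r = act v (pr f (P ++ Q)) +
      nu1 (P ++ Q) := by
    intro P Q v r h1 h2
    by_cases h : La ≤ Q.length
    · have h2' : rho Q = some r := by
        have : rho' Q = rho Q := if_pos h
        rw [← this]; exact h2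
      exact hsound _ _ _ _ h1 h2' h
    · have : rho' Q = none := if_neg h
      rw [this] at h2
      exact absurd h2 (by simp)
  have hC' : ∀ Y : List α, N0 ≤ Y.length → ¬ BadT Y.length →
      ∀ v, ∃ P Q, Y = P ++ Q ∧ lam P = some v ∧ (rho' Q).isSome := by
    intro Y h1 h2 v
    have hb : ¬ Bad0 Y.length := fun h => h2 ⟨by omega, h⟩
    obtain ⟨p, q, e, g1, g2⟩ := hcomp Y (by omega) hb v
    refine ⟨p, q, e.symm, g1, ?_⟩
    have hp := hlen _ _ g1
    have hl : Y.length = p.length + q.length := by rw [← e, List.length_append]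
    have : rho' q = rho q := if_pos (by omega)
    rw [this]; exact g2
  have hres : ∀ i i' j j', i < K → i' < K → j < K → j' < K → i' ≠ i → j' ≠ j →
      c i + c j' < c j + c i' + 2 * N1 → c j + c i' < c i + c j' + 2 * N1 → i = j := by
    intro i i' j j' hi hi' hj hj' h1 h2 h3 h4
    by_contra hne
    have := hgol i i' j j' hi hi' hj hj' (Ne.symm h1) (Ne.symm h2) (by
      intro h
      exact hne (congrArg Prod.fst h))
    omega
  have hTsp : ∀ T : ℕ, (∀ k, k < K → c k ≤ T) → ∀ I : Finset ℕ,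
      (∀ k ∈ I, k < K ∧ ∃ k', k' < K ∧ k' ≠ k ∧ BadT (T + c k' - c k)) → I.card ≤ C0 := by
    intro T hT I hI
    rcases I.eq_empty_or_nonempty with rfl | ⟨k0, hk0⟩
    · simp
    · have hTL : La ≤ T := by
        obtain ⟨h1, k', h2, h3, h4, h5⟩ := hI k0 hk0
        have := hcp k' h2
        omega
      choose! g hg using fun k (hk : k ∈ I) => (hI k hk).2
      have hinj : Set.InjOn (fun k => (k, g k)) (I : Set ℕ) := by
        intro a _ b _ h
        exact congrArg Prod.fst h
      rw [← Finset.card_image_of_injOn hinj]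
      refine hsp T hTL _ ?_
      intro ab hab
      obtain ⟨k, hk, rfl⟩ := Finset.mem_image.1 hab
      exact ⟨(hI k hk).1, (hg k hk).1, (hg k hk).2.1.symm, (hg k hk).2.2.2⟩
  refine Top5_110.top_sem (φ := pr f) (act := act) (XX := ZL Sw z) (Bad := BL) (T := TT)
    (N1 := 0) (N2 := 1) (L1 := L1l) (L2 := L2l) rfl (pr_append f) hone
    (fun v s t => (hmul v s t)) hfaith hX (fun u hu => hu.1) hTT H1 H2 H3 H4 F1 F2 ?_ ?_ s
  · intro u hu hnb x t ht
    have ht' : t = [] := by
      rw [pow_zero] at ht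
      exact ht
    subst ht'
    have hnb' : ¬ JT_486.Bad (wl Sw) z N1 p0 BadT u := fun h => hnb ⟨hu, h⟩
    obtain ⟨p, q, e, g1, _, g3⟩ := complete1 (n := n) (N0 := N0) f act p0 nu2 nu1 hW hS' hlen hC'
      (by omega) (by omega) hu hnb' x
    refine ⟨p, q, TT u x, by rw [List.append_nil]; exact e, g1, ?_⟩
    intro x' p' hp'
    obtain ⟨m1, m2⟩ := g3 x' p' hp'
    left
    exact ⟨TT u x, Language.mem_mul.2 ⟨p' ++ q, ⟨m1, m2⟩, [], ⟨rfl, rfl⟩, List.append_nil _⟩⟩
  · intro u hu x t ht
    rw [pow_one] at ht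
    obtain ⟨p, q, e, g1, _, g3⟩ := complete2 (n := n) (R1 := C0) (N0 := 0) f act p0 nu1 hW hS2 hC2 hinc hcp
      hres (fun T _ h1 I h2 => hTsp T h1 I h2) (by omega) (by omega) hu.1 ht.1 hu.2 x
    refine ⟨p, q, TT t (TT u x), e, g1, ?_⟩
    intro x' p' hp'
    rcases g3 x' p' hp' with ⟨a, ha1, ha2, ha3, ha4⟩ | ⟨a, ha1, ha2, ha3⟩
    · left
      have ha4' : TT a x' = TT u x := ha4
      refine ⟨TT a x', Language.mem_mul.2 ⟨a, ⟨⟨ha1, ha2⟩, rfl⟩, t, ?_, ha3.symm⟩⟩
      rw [ha4']
      exact ⟨TT t (TT u x), Language.mem_mul.2 ⟨t, ⟨ht, rfl⟩, [], ⟨rfl, rfl⟩, List.append_nil _⟩⟩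
    · right
      left
      exact ⟨a, ha1, fun h => ha2 h.2, ha3⟩

/-- **S0495 from the gadget** -/
theorem s0495_of (hU : ∀ (S V : Type) [Monoid S] [Finite S] [AddCommGroup V] [Finite V]
      (act : V → S → V), UGIP S V act)
    (α : Type*) [Finite α] (L : Language α) (hL : L.IsRegular) :
    ∃ e : Crest.RegLang.GRegExp α, e.height ≤ 3 ∧ e.lang = L :=
  Univ_294.s0495_of_type0 (fun n S _ _ φ s => main hU (Fin n) S φ s) α L hL

end Crest.Agent.R320.Inst486
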