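import Crest.Agent.R320.Top_517
import Crest.Agent.R320.Hk2_851

/-!
# Row 320: semantic right labels over `Top_517.top3` (helper589)

Right labels are defined semantically (all left-legal words agree); the only things to prove are the
two completeness statements `c1`, `c2` and `HL 1` of `{X ∈ XX | T v X = v'}`, `{X ∈ Bad | T v X = v'}`.
-/

set_option autoImplicit false

namespace Crest.Agent.R320.Sem_589

open Crest.RegLang Crest.Agent.R320.Hk_851 Crest.Agent.R320.Blk_517 Crest.Agent.R320.Top_517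

universe u

variable {α : Type u} {V : Type*}

/-- blocks of `C` with given thread -/
def LT (C : Set (List α)) (T : V → List α → V) (v u : V) : Language α := {X | X ∈ C ∧ T v X = u}

/-- semantic right words of scheme 1 -/
def R1 (XX : Set (List α)) (T : V → List α → V) (L : V → Language α) (v' : V) : Language α :=
  {Q | ∀ v P, P ∈ L v → P ++ Q ∈ XX ∧ T v (P ++ Q) = v'}

/-- the test of scheme 2 on one text -/
def Tst (XX Bad : Set (List α)) (T : V → List α → V) (v v' : V) : Language α :=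
  {w | (∃ X ∈ XX, X ∉ Bad ∧ X <+: w) ∨
    (∃ X1 ∈ Bad, ∃ X2 ∈ XX, w = X1 ++ X2 ∧ T (T v X1) X2 = v')}

/-- semantic right words of scheme 2 -/
def R2 (XX Bad : Set (List α)) (T : V → List α → V) (L : V → Language α) (v' : V) :
    Language α :=
  {Q | ∀ v P, P ∈ L v → P ++ Q ∈ Tst XX Bad T v v'}

theorem hl_forall [Finite V] {k : ℕ} {L : V → Language α} (hf : ∀ v, Set.Finite {P | P ∈ L v})
    {K : V → Language α} (hK : ∀ v, HL k (K v)) :
    HL k ({Q | ∀ v P, P ∈ L v → P ++ Q ∈ K v} : Language α) := by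
  have h1 : ∀ v, HL k ({Q | ∀ P, P ∈ L v → P ++ Q ∈ K v} : Language α) := by
    intro v
    exact (HL.biInter (hf v) (L := fun P => ({Q | P ++ Q ∈ K v} : Language α))
      fun P _ => (hK v).lquot P).congr fun w => ⟨fun h P hP => h P hP, fun h P hP => h P hP⟩
  exact (HL.iInter h1).congr fun w => ⟨fun h v P hP => h v P hP, fun h v P hP => h v P hP⟩

theorem hl_R1 [Finite V] {k : ℕ} {XX : Set (List α)} {T : V → List α → V} {L : V → Language α}
    (hf : ∀ v, Set.Finite {P | P ∈ L v})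
    (hXT : ∀ v v', HL k ({X | X ∈ XX ∧ T v X = v'} : Language α)) (v' : V) :
    HL k (R1 XX T L v') :=
  hl_forall hf (K := fun v => ({X | X ∈ XX ∧ T v X = v'} : Language α)) fun v => hXT v v'

theorem hl_Tst [Finite V] {k : ℕ} {XX Bad : Set (List α)} {T : V → List α → V}
    (hX : HL k (XX : Language α)) (hB : HL k (Bad : Language α))
    (hXT : ∀ v v', HL k ({X | X ∈ XX ∧ T v X = v'} : Language α))
    (hBT : ∀ v v', HL k ({X | X ∈ Bad ∧ T v X = v'} : Language α)) (v v' : V) :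
    HL k (Tst XX Bad T v v') := by
  have ha : HL k ({X | X ∈ XX ∧ ¬ X ∈ Bad} : Language α) := HL.setOf_and hX (HL.setOf_not hB)
  have hb := ha.prefix
  have hc : HL k ({w | ∃ u : V, w ∈ LT Bad T v u * LT XX T u v'} : Language α) :=
    HL.iUnion (L := fun u : V => LT Bad T v u * LT XX T u v')
      fun u => HL.mul (L := LT Bad T v u) (M := LT XX T u v') (hBT v u) (hXT u v')
  refine (HL.setOf_or hb hc).congr fun w => ?_
  constructor
  · rintro (⟨X, h1, h2, h3⟩ | ⟨X1, h1, X2, h2, h3, h4⟩)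
    · exact Or.inl ⟨X, ⟨h1, h2⟩, h3⟩
    · exact Or.inr ⟨T v X1, Language.mem_mul.2 ⟨X1, ⟨h1, rfl⟩, X2, ⟨h2, h4⟩, h3.symm⟩⟩
  · rintro (⟨X, ⟨h1, h2⟩, h3⟩ | ⟨u, h⟩)
    · exact Or.inl ⟨X, h1, h2, h3⟩
    · obtain ⟨X1, ⟨h1, h1'⟩, X2, ⟨h2, h2'⟩, h3⟩ := Language.mem_mul.1 h
      exact Or.inr ⟨X1, h1, X2, h2, h3.symm, by rw [h1']; exact h2'⟩

/-- **Height three from two completeness statements.** -/
theorem sem3 [Finite V] {XX Bad : Set (List α)} {T : V → List α → V}
    {L1 L2 : V → Language α} (hXX : PCode XX) (hBX : Bad ⊆ XX)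
    (hX1 : HL 1 (XX : Language α)) (hB1 : HL 1 (Bad : Language α))
    (hXT : ∀ v v', HL 1 ({X | X ∈ XX ∧ T v X = v'} : Language α))
    (hBT : ∀ v v', HL 1 ({X | X ∈ Bad ∧ T v X = v'} : Language α))
    (f1 : ∀ v, Set.Finite {P | P ∈ L1 v}) (f2 : ∀ v, Set.Finite {P | P ∈ L2 v})
    (hL0 : ∀ v, [] ∉ L2 v)
    (c1 : ∀ X ∈ XX, X ∉ Bad → ∀ v, ∃ P Q, X = P ++ Q ∧ P ∈ L1 v ∧
      ∀ v' P', P' ∈ L1 v' → P' ++ Q ∈ XX ∧ T v' (P' ++ Q) = T v X)
    (c2 : ∀ X ∈ Bad, ∀ Y ∈ Bad, ∀ v, ∃ P Q, X ++ Y = P ++ Q ∧ P ∈ L2 v ∧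
      ∀ v' P', P' ∈ L2 v' → (∃ X' ∈ XX, X' ∉ Bad ∧ X' <+: P' ++ Q) ∨
        (∃ X1 ∈ Bad, ∃ X2 ∈ XX, P' ++ Q = X1 ++ X2 ∧ T (T v' X1) X2 = T (T v X) Y))
    (v v' : V) : HL 3 (BL XX T v v') := by
  have cmp : ∀ {A B C : List α}, A ∈ XX → B ∈ XX → A <+: C → B <+: C → A = B := by
    intro A B C hA hB h1 h2
    rcases List.prefix_or_prefix_of_prefix h1 h2 with h | h
    · exact hXX.2 A hA B hB h
    · exact (hXX.2 B hB A hA h).symm
  have nonnil : ∀ {A : List α}, A ∈ XX → A ≠ [] := fun hA h => hXX.1 (h ▸ hA)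
  refine top3 (L1 := L1) (R1 := R1 XX T L1) (L2 := L2) (R2 := R2 XX Bad T L2) hXX hBX hX1 hB1 hBT
    (fun v => HL.finite (f1 v)) (fun v => hl_R1 f1 hXT v) (fun v => HL.finite (f2 v))
    (fun v => hl_forall f2 (K := fun u => Tst XX Bad T u v)
      fun u => hl_Tst hX1 hB1 hXT hBT u v) hL0 ?_ ?_ ?_ ?_ ?_ v v'
  · intro v v' P Q hP hQ
    exact hQ v P hP
  · intro X hX hn v
    obtain ⟨P, Q, h1, h2, h3⟩ := c1 X hX hn v
    exact ⟨P, Q, h1, h2, h3⟩
  · intro v v' P Q X hP hQ hX hpre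
    rcases hQ v P hP with ⟨X', h1, h2, h3⟩ | ⟨X1, h1, X2, h2, h3, h4⟩
    · have := cmp h1 (hBX hX) (h3.trans hpre) (List.prefix_refl X)
      exact h2 (this ▸ hX)
    · rw [h3] at hpre
      have e := cmp (hBX h1) (hBX hX) ((List.prefix_append X1 X2).trans hpre)
        (List.prefix_refl X)
      subst e
      obtain ⟨r, hr⟩ := hpre
      rw [List.append_assoc] at hr
      have := congrArg List.length hr
      simp only [List.length_append] at this
      have h5 : X2.length = 0 := by omega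
      exact nonnil h2 (List.length_eq_zero_iff.1 h5)
  · intro v v' P Q X1 X2 hP hQ hX1 hX2 hcmp
    rcases hQ v P hP with ⟨X', h1, h2, h3⟩ | ⟨Y1, h1, Y2, h2, h3, h4⟩
    · exfalso
      have : X' = X1 := by
        rcases hcmp with h | h
        · exact cmp h1 (hBX hX1) h3 ((List.prefix_append X1 X2).trans h)
        · exact cmp h1 (hBX hX1) (h3.trans h) (List.prefix_append X1 X2)
      exact h2 (this ▸ hX1)
    · have e1 : Y1 = X1 := by
        rcases hcmp with h | h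
        · exact cmp (hBX h1) (hBX hX1) (h3 ▸ List.prefix_append Y1 Y2)
            ((List.prefix_append X1 X2).trans h)
        · exact cmp (hBX h1) (hBX hX1) ((h3 ▸ List.prefix_append Y1 Y2 : Y1 <+: P ++ Q).trans h)
            (List.prefix_append X1 X2)
      subst e1
      have e2 : Y2 = X2 := by
        rw [h3] at hcmp
        rcases hcmp with h | h
        · have h' : X2 <+: Y2 := (List.prefix_append_right_inj _).1 h
          exact (hXX.2 X2 (hBX hX2) Y2 h2 h').symm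
        · have h' : Y2 <+: X2 := (List.prefix_append_right_inj _).1 h
          exact hXX.2 Y2 h2 X2 (hBX hX2) h'
      subst e2
      exact ⟨h3.symm, h4⟩
  · intro X hX Y hY v
    obtain ⟨P, Q, h1, h2, h3⟩ := c2 X hX Y hY v
    exact ⟨P, Q, h1, h2, h3⟩

end Crest.Agent.R320.Sem_589
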