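import Crest.Agent.R320.Inst1_534
import Crest.Agent.R320.Sem_589
import Crest.Agent.R320.Fin_517
import Crest.Agent.R320.P4_440
import Crest.Agent.R320.ExactR_237


/-!
# Row 320: block languages of the instance `Inst1_534` are in `HL 3` (helper534)
-/

set_option autoImplicit false

namespace Crest.Agent.R320.Inst534

open Crest.RegLang Crest.Agent.R320.Hk_851 Crest.Agent.R320

variable {α S V : Type} [Monoid S] [AddCommGroup V] {D : Dt α S V}

theorem drop_split {w : List α} {a B : ℕ} (ha : a ≤ B) (hB : B ≤ w.length) :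
    w.drop a = (w.take B).drop a ++ w.drop B := by
  conv_lhs => rw [← List.take_append_drop B w]
  rw [List.drop_append_of_le_length (by rw [List.length_take]; omega)]

theorem ph_drop (h : D.Ok) {w w' : List α} {a B : ℕ} (ha : a ≤ B) (hB : B ≤ w.length)
    (hB' : B ≤ w'.length) (ht : w.take B = w'.take B) (hd : D.ph (w.drop B) = D.ph (w'.drop B)) :
    D.ph (w.drop a) = D.ph (w'.drop a) := by
  rw [drop_split ha hB, drop_split ha hB', h.ph_app, h.ph_app, ht, hd]

theorem take_eq {w w' : List α} {a B : ℕ} (ha : a ≤ B) (ht : w.take B = w'.take B) :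
    w.take a = w'.take a := by
  have e := congrArg (List.take a) ht
  rwa [List.take_take, List.take_take, Nat.min_eq_left ha] at e

/-- finite-state hypothesis for the noise of scheme 1 -/
def FS (D : Dt α S V) (La0 Pm : ℕ) : Prop :=
  ∀ q q' : List α, La0 ≤ q.length → La0 ≤ q'.length → q.take La0 = q'.take La0 →
    q.length % Pm = q'.length % Pm → D.ph (q.drop La0) = D.ph (q'.drop La0) → D.nu1 q = D.nu1 q'

theorem resp_T (h : D.Ok) {La0 Pm B : ℕ} (hfs : FS D La0 Pm) (hB : D.p0 + La0 ≤ B) (v v' : V) :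
    P4_440.Resp D.ph B Pm (fun X => D.T v X = v') := by
  intro w w' hw hw' ht hd hm
  have e0 : D.ph w = D.ph w' := by
    have := ph_drop h (Nat.zero_le B) hw hw' ht hd
    simpa using this
  have e1 : D.ph (w.drop D.p0) = D.ph (w'.drop D.p0) := ph_drop h (by omega) hw hw' ht hd
  have e2 : w.take D.p0 = w'.take D.p0 := take_eq (by omega) ht
  have e3 : D.nu1 (w.drop D.p0) = D.nu1 (w'.drop D.p0) := by
    apply hfs
    · rw [List.length_drop]; omega
    · rw [List.length_drop]; omega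
    · rw [List.take_drop, List.take_drop, take_eq (a := D.p0 + La0) (by omega) ht]
    · rw [List.length_drop, List.length_drop]
      have a1 : w.length = (w.length - D.p0) + D.p0 := by omega
      have a2 : w'.length = (w'.length - D.p0) + D.p0 := by omega
      have h3 : (w.length - D.p0) + D.p0 ≡ (w'.length - D.p0) + D.p0 [MOD Pm] := by
        rw [← a1, ← a2]; exact hm
      exact Nat.ModEq.add_right_cancel' _ h3
    · rw [List.drop_drop, List.drop_drop]
      exact ph_drop h (by omega) hw hw' ht hd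
  have e4 : D.T v w = D.T v w' := by
    unfold Dt.T Dt.nu
    rw [e0, e1, e2, e3]
  show D.T v w = v' ↔ D.T v w' = v'
  rw [e4]

theorem per_mod {Bd : ℕ → Prop} {Pm : ℕ} (hper : ∀ T, Bd (T + Pm) ↔ Bd T) {a b : ℕ}
    (h : a ≡ b [MOD Pm]) : Bd a ↔ Bd b := by
  have key : ∀ k t, Bd (t + Pm * k) ↔ Bd t := by
    intro k
    induction k with
    | zero => intro t; simp
    | succ k ih =>
      intro t
      rw [Nat.mul_succ, ← Nat.add_assoc, hper, ih]
  have e1 : Bd a ↔ Bd (a % Pm) := by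
    conv_lhs => rw [← Nat.mod_add_div a Pm]
    exact key _ _
  have e2 : Bd b ↔ Bd (b % Pm) := by
    conv_lhs => rw [← Nat.mod_add_div b Pm]
    exact key _ _
  rw [e1, e2]
  have : a % Pm = b % Pm := h
  rw [this]

theorem resp_Bad {La0 Pm B : ℕ} (hper : ∀ T, D.Bd (T + Pm) ↔ D.Bd T)
    (hB : D.p0 + La0 ≤ B) (hB2 : D.z + D.N1 ≤ B) :
    P4_440.Resp D.ph B Pm (fun X => D.EB X ∨ D.Bd (X.length - D.p0)) := by
  intro w w' hw hw' ht hd hm
  have e1 : D.EB w ↔ D.EB w' := by
    constructor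
    · rintro ⟨t, h1, h2, h3, h4⟩
      exact ⟨t, by omega, by rw [← take_eq (a := t) (by omega) ht]; exact h2, h3, h4⟩
    · rintro ⟨t, h1, h2, h3, h4⟩
      exact ⟨t, by omega, by rw [take_eq (a := t) (by omega) ht]; exact h2, h3, h4⟩
  have e2 : D.Bd (w.length - D.p0) ↔ D.Bd (w'.length - D.p0) := by
    apply per_mod hper
    have a1 : w.length = (w.length - D.p0) + D.p0 := by omega
    have a2 : w'.length = (w'.length - D.p0) + D.p0 := by omega
    have h3 : (w.length - D.p0) + D.p0 ≡ (w'.length - D.p0) + D.p0 [MOD Pm] := by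
      rw [← a1, ← a2]; exact hm
    exact Nat.ModEq.add_right_cancel' _ h3
  show (_ ∨ _) ↔ (_ ∨ _)
  rw [e1, e2]

theorem bl3 [Finite α] [Finite S] [Finite V] (h : D.Ok) {La0 Pm B : ℕ} (hfs : FS D La0 Pm)
    (hper : ∀ T, D.Bd (T + Pm) ↔ D.Bd T) (hB : D.p0 + La0 ≤ B) (hB2 : D.z + D.N1 ≤ B)
    (hc1 : ∀ k < D.K, 0 < D.c k)
    (hHL : ∀ R : List α → Prop, P4_440.Resp D.ph B Pm R →
      HL 1 ({X | X ∈ D.XX ∧ R X} : Language α)) (v v' : V) :
    HL 3 (Blk_517.BL D.XX D.T v v') := by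
  have hBad := resp_Bad (D := D) hper hB hB2
  refine Sem_589.sem3 (XX := D.XX) (Bad := D.Bad) (T := D.T) (L1 := D.LP1) (L2 := D.LP2)
    (D.pcode h) (fun X hX => hX.1) ?_ ?_ ?_ ?_ ?_ ?_ ?_ ?_ ?_ v v'
  · exact (hHL (fun _ => True) (fun _ _ _ _ _ _ _ => Iff.rfl)).congr fun w =>
      ⟨fun hw => ⟨hw, trivial⟩, fun hw => hw.1⟩
  · exact (hHL _ hBad).congr fun w => Iff.rfl
  · intro a b
    exact hHL _ (resp_T h hfs hB a b)
  · intro a b
    refine (hHL (fun X => (D.EB X ∨ D.Bd (X.length - D.p0)) ∧ D.T a X = b) ?_).congr fun w => ?_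
    · intro w w' h1 h2 h3 h4 h5
      exact and_congr (hBad w w' h1 h2 h3 h4 h5) (resp_T h hfs hB a b w w' h1 h2 h3 h4 h5)
    · constructor
      · rintro ⟨⟨h1, h2⟩, h3⟩
        exact ⟨h1, h2, h3⟩
      · rintro ⟨h1, h2, h3⟩
        exact ⟨⟨h1, h2⟩, h3⟩
  · intro a
    refine (List.finite_length_le α (D.p0 + D.N1)).subset fun P hP => ?_
    exact (D.LP1_len h hP).2
  · intro a
    refine (List.finite_length_le α D.Λ).subset fun P hP => ?_
    obtain ⟨k, hk, h1, h2⟩ := hP
    have := h.hc k hk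
    show P.length ≤ D.Λ
    omega
  · rintro a ⟨k, hk, h1, h2⟩
    have := hc1 k hk
    simp at h1
    omega
  · intro X hX hn a
    obtain ⟨P, Q, h1, h2, h3⟩ := D.c1 h X hX hn a
    exact ⟨P, Q, h1.symm, h2, h3⟩
  · intro X hX Y hY a
    obtain ⟨P, Q, h1, h2, h3⟩ := D.c2 h X hX Y hY a
    refine ⟨P, Q, h1.symm, h2, fun v' P' hP' => ?_⟩
    rcases h3 v' P' hP' with ⟨X1, X2, k1, k2, k3, k4⟩ | ⟨X', k1, k2, k3⟩
    · exact Or.inr ⟨X1, k1, X2, k2.1, k3.symm, k4⟩
    · exact Or.inl ⟨X', k1, k2, k3⟩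

end Crest.Agent.R320.Inst534
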