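import Crest.Agent.R320.Inst_611
import Crest.Agent.R320.FewVal_228

/-!
# Row 320: instance of the semantic top, heights and final form (helper611)
-/

set_option autoImplicit false

namespace Crest.Agent.R320.Inst_611

open Crest.RegLang Crest.Agent.R320.Hk_851 Crest.Agent.R320.Blk467 Crest.Agent.R320.SemTop_727
open Crest.Agent.R320.FewWalls_228 Crest.Agent.R320.WallU_228

section heights

variable {α : Type} {n c P : ℕ} {S : Set (List α)}

theorem HL_Wo [Finite α] {k : ℕ} : HL k ({X | Wo n S X} : Language α) := by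
  have hf : ({v : List α | v.length = n ∧ v ∈ S} : Set (List α)).Finite :=
    (List.finite_length_le α n).subset fun v hv => le_of_eq hv.1
  refine ((HL.top (k := k)).mul (HL.finite (k := k) hf)).congr fun X => ?_
  constructor
  · rintro ⟨h1, h2⟩
    exact Language.mem_mul.2 ⟨X.take (X.length - n), trivial, X.drop (X.length - n),
      ⟨by rw [List.length_drop]; omega, h2⟩, List.take_append_drop _ _⟩
  · intro h
    obtain ⟨a, -, v, ⟨hv1, hv2⟩, rfl⟩ := Language.mem_mul.1 h
    refine ⟨by rw [List.length_append]; omega, ?_⟩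
    have e : (a ++ v).length - n = a.length := by rw [List.length_append]; omega
    rw [e, List.drop_left' rfl]
    exact hv2

theorem HL_XX [Finite α] {k z : ℕ} : HL k (toL (XX (Wo n S) z)) := by
  have h0 : HL k ({X | z ≤ X.length ∧ Wo n S X} : Language α) :=
    HL.setOf_and (HL.length_ge z) HL_Wo
  refine (h0.sdiff (h0.mul (HL.length_ge (k := k) 1))).congr fun X => ?_
  constructor
  · rintro ⟨h1, h2, h3⟩
    refine ⟨⟨h1, h2⟩, fun h => ?_⟩
    obtain ⟨a, ⟨ha1, ha2⟩, b, hb, rfl⟩ := Language.mem_mul.1 h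
    have hb' : 1 ≤ b.length := hb
    refine h3 a.length ha1 (by rw [List.length_append]; omega) ?_
    rw [List.take_left' rfl]; exact ha2
  · rintro ⟨⟨h1, h2⟩, h3⟩
    refine ⟨h1, h2, fun t ht1 ht2 hW => h3 ?_⟩
    exact Language.mem_mul.2 ⟨X.take t, ⟨by rw [List.length_take]; omega, hW⟩, X.drop t,
      (by show 1 ≤ (X.drop t).length; rw [List.length_drop]; omega), List.take_append_drop _ _⟩

theorem nw_le {z : ℕ} (w : List α) (h : ∀ x, Wl n S w x → x < z ∨ x = w.length - n) :
    nw n S w ≤ z + 1 := by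
  classical
  unfold nw
  have : (Finset.range (w.length + 1)).filter (fun x => Wl n S w x) ⊆
      insert (w.length - n) (Finset.range z) := by
    intro x hx
    rw [Finset.mem_filter] at hx
    rcases h x hx.2 with h1 | h1
    · exact Finset.mem_insert_of_mem (Finset.mem_range.2 h1)
    · rw [h1]; exact Finset.mem_insert_self _ _
  refine (Finset.card_le_card this).trans ((Finset.card_insert_le _ _).trans ?_)
  rw [Finset.card_range]

theorem nw_suffix {z : ℕ} (u w : List α) (h : u ++ w ∈ XX (Wo n S) z) : nw n S w ≤ z + 1 := by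
  refine nw_le w fun x hx => ?_
  by_contra hc
  push Not at hc
  obtain ⟨h1, h2⟩ := hc
  have hx1 := hx.1
  have h3 : Wl n S (u ++ w) (u.length + x) := by
    refine ⟨by rw [List.length_append]; omega, ?_⟩
    rw [List.drop_append, List.drop_of_length_le (by omega), List.nil_append]
    have e : u.length + x - u.length = x := by omega
    rw [e]; exact hx.2
  obtain ⟨h4, h5⟩ := wo_take.1 h3
  exact h.2.2 _ (by omega) (by rw [List.length_append]; omega) h5

theorem nw_noXX {z : ℕ} (w : List α) (h : ∀ X ∈ XX (Wo n S) z, ¬ X <+: w) :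
    nw n S w ≤ z + 1 := by
  classical
  have key : ∀ t, z ≤ t → t ≤ w.length → ¬ Wo n S (w.take t) := by
    intro t
    induction t using Nat.strong_induction_on with
    | _ t ih =>
      intro h1 h2 h3
      refine h (w.take t) ⟨by rw [List.length_take]; omega, h3, fun s hs1 hs2 hs3 => ?_⟩
        (List.take_prefix _ _)
      rw [List.length_take] at hs2
      rw [List.take_take, min_eq_left (by omega)] at hs3
      exact ih s (by omega) hs1 (by omega) hs3
  refine nw_le w fun x hx => ?_
  obtain ⟨h1, h2⟩ := wo_take.1 hx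
  by_contra hc
  push Not at hc
  exact key _ (by omega) h1 h2

end heights

open Classical in
/-- the all-words gadget (772 #13437 with 440's correction #13562) -/
def UG (S V : Type) [Monoid S] [AddCommGroup V] (act : V → S → V) : Prop :=
  ∃ C0 : ℕ, ∀ K : ℕ, ∃ (N1 Pm La : ℕ) (c : ℕ → ℕ) (Bd : ℕ → Prop), 0 < Pm ∧
    (∀ i j, i < j → j < K → c i < c j) ∧
    (∀ i j k l, i < K → j < K → k < K → l < K → i ≠ j → k ≠ l → (i, j) ≠ (k, l) →
      c i + c l + 4 * N1 < c k + c j ∨ c k + c j + 4 * N1 < c i + c l) ∧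
    (∀ T, La ≤ T → ((Finset.range K ×ˢ Finset.range K).filter
      (fun ij => ij.1 ≠ ij.2 ∧ Bd (T + c ij.2 - c ij.1))).card ≤ C0) ∧
    ∀ (A : Type) (f : A → S), ∃ (lam rho : List A → Option V) (nu : List A → V),
      (∀ P v, lam P = some v → P.length ≤ N1) ∧
      (∀ P Q v r, lam P = some v → rho Q = some r → La ≤ Q.length →
        r = act v ((P ++ Q).map f).prod + nu (P ++ Q)) ∧
      (∀ u : List A, La ≤ u.length → ¬ Bd u.length → ∀ v, ∃ p q, p ++ q = u ∧
        lam p = some v ∧ (rho q).isSome) ∧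
      (∀ q q2 : List A, La ≤ q.length → La ≤ q2.length → q.take La = q2.take La →
        q.length % Pm = q2.length % Pm →
        ((q.drop La).map f).prod = ((q2.drop La).map f).prod → nu q = nu q2)

theorem prod_pair {α S : Type} [Monoid S] (f : α → S) (Pm : ℕ) (w : List α) :
    (w.map (fun a => ((f a, Multiplicative.ofAdd (1 : ZMod Pm)) :
      S × Multiplicative (ZMod Pm)))).prod =
      ((w.map f).prod, Multiplicative.ofAdd (w.length : ZMod Pm)) := by
  induction w with
  | nil =>
    simp only [List.map_nil, List.prod_nil, List.length_nil, Nat.cast_zero]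
    rfl
  | cons a w ih =>
    rw [List.map_cons, List.prod_cons, ih, List.map_cons, List.prod_cons, Prod.mk_mul_mk]
    congr 1
    rw [← ofAdd_add, List.length_cons]
    congr 1
    push_cast
    ring

theorem inst {α S V : Type} [Finite α] [Monoid S] [Finite S] [AddCommGroup V] [Finite V]
    (act : V → S → V) (hadd : ∀ a b s, act (a + b) s = act a s + act b s)
    (hone : ∀ v, act v 1 = v) (hmul : ∀ v s t, act v (s * t) = act (act v s) t)
    (hfaith : ∀ s t, (∀ v, act v s = act v t) → s = t) (hU : UG S V act) (f : α → S) (s : S) :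
    HL 3 ({w | (w.map f).prod = s} : Language α) := by
  classical
  haveI := Fintype.ofFinite S
  haveI := Fintype.ofFinite V
  obtain ⟨C0, hU⟩ := hU
  obtain ⟨K, hK⟩ := Crest.Agent.R320.ExactR_237.exact_gadget α S V f act (2 + (C0 + C0))
  obtain ⟨N1, Pm, La, c, Bd, hPm, hcmono, gold, spoil, hG⟩ := hU K
  obtain ⟨lam, rho, nu1, hlen, hs, hc, hfin⟩ := hG α f
  obtain ⟨lam2, rho2', nu2', s2', c2'⟩ := hK c hcmono
  set p0 := ∑ k ∈ Finset.range K, c k with hp0
  have hcle : ∀ k < K, c k ≤ p0 := fun k hk =>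
    Finset.single_le_sum (f := c) (fun _ _ => Nat.zero_le _) (Finset.mem_range.2 hk)
  obtain ⟨n, cc, PP, Sm, hn, hP, -, hsep, hper⟩ :=
    Crest.Agent.R320.Mk263.marker (α := α) (2 * (p0 + N1) + 1) (by omega)
  have hloc : ∀ P Q : List α, n ≤ Q.length → (Wo n Sm (P ++ Q) ↔ Wo n Sm Q) :=
    fun P Q h => wo_append P Q h
  have hgap : ∀ (Q : List α) (d : ℕ), Wo n Sm Q → 0 < d → d ≤ 2 * (p0 + N1) →
      ¬ Wo n Sm (Q.take (Q.length - d)) := by
    intro Q d hQ hd hdW hT
    obtain ⟨h1, h2⟩ := hQ
    obtain ⟨h3, h4⟩ := hT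
    have hl : (Q.take (Q.length - d)).length = Q.length - d := by rw [List.length_take]; omega
    rw [hl] at h3 h4
    rw [List.drop_take] at h4
    have e2 : Q.length - d - (Q.length - d - n) = n := by omega
    rw [e2] at h4
    have h5 : (Q.drop (Q.length - n)).take n ∈ Sm := by
      rw [List.take_of_length_le (by rw [List.length_drop]; omega)]
      exact h2
    have := hsep Q (Q.length - d - n) (Q.length - n) (by omega) (by omega) h4 h5
    omega
  obtain ⟨z, hz⟩ : ∃ z, z = 4 * p0 + 2 * N1 + n + La + 1 := ⟨_, rfl⟩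
  let nu2 : List α → V := fun u => nu2' u 1
  let rho2 : ℕ → List α → Option V := fun k Q => rho2' k Q 1
  have s2 : ∀ k < K, ∀ (P Q : List α) (v b : V), P.length = c k → lam2 k P = some v →
      rho2 k Q = some b → b = act v ((P ++ Q).map f).prod + nu2 (P ++ Q) := by
    intro k hk P Q v b h1 h2 h3
    have h := s2' k hk P Q 1 v b h1 h2 h3
    rw [mul_one] at h
    exact h
  have c2 : ∀ (u : List α) (v : V), (∀ k < K, c k ≤ u.length) → ∃ I : Finset ℕ,
      2 + (C0 + C0) ≤ I.card ∧
      ∀ k ∈ I, k < K ∧ lam2 k (u.take (c k)) = some v ∧ (rho2 k (u.drop (c k))).isSome :=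
    fun u v h => c2' u 1 v h
  let D : Sch α V := Sc f act (Wo n Sm) z p0 nu1 nu2 lam K c lam2
  have hT : ∀ v X, D.T v X = act v (X.map f).prod +
      (act (nu2 (X.take p0)) ((X.drop p0).map f).prod + nu1 (X.drop p0)) := by
    intro v X
    show act (act v ((X.take p0).map f).prod + nu2 (X.take p0)) ((X.drop p0).map f).prod +
      nu1 (X.drop p0) = _
    rw [hadd, ← hmul, ← List.prod_append, ← List.map_append, List.take_append_drop, add_assoc]
  have hXX : HL 1 (toL (XX (Wo n Sm) z)) := HL_XX
  have hL1 : ∀ x, (D.L1 x).Finite := by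
    intro x
    refine (List.finite_length_le α (p0 + N1)).subset ?_
    rintro P ⟨h1, h2⟩
    have := hlen _ _ h2
    rw [List.length_drop] at this
    show P.length ≤ p0 + N1
    omega
  have hL2 : ∀ x, (D.L2 x).Finite := by
    intro x
    refine (List.finite_length_le α p0).subset ?_
    rintro P ⟨k, hk, h1, -⟩
    show P.length ≤ p0
    rw [h1]; exact hcle k hk
  haveI : NeZero Pm := ⟨by omega⟩
  let g : α → S × Multiplicative (ZMod Pm) := fun a => (f a, Multiplicative.ofAdd 1)
  haveI : Finite (Multiplicative (ZMod Pm)) := inferInstanceAs (Finite (ZMod Pm))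
  haveI : Finite {u : List α // u.length ≤ p0 + La} :=
    (List.finite_length_le α (p0 + La)).to_subtype
  have hfs : ∀ (x : V) (u w w' : List α), u.length = p0 + La → (w.map g).prod = (w'.map g).prod →
      D.T x (u ++ w) = D.T x (u ++ w') := by
    intro x u w w' hu hww
    rw [prod_pair, prod_pair] at hww
    have h1 : (w.map f).prod = (w'.map f).prod := congrArg Prod.fst hww
    have h2 : (w.length : ZMod Pm) = (w'.length : ZMod Pm) :=
      Multiplicative.ofAdd.injective (congrArg Prod.snd hww)
    have h3 : w.length % Pm = w'.length % Pm := (ZMod.natCast_eq_natCast_iff' _ _ _).1 h2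
    have hud : (u.drop p0).length = La := by rw [List.length_drop]; omega
    have h4 : nu1 (u.drop p0 ++ w) = nu1 (u.drop p0 ++ w') := by
      refine hfin _ _ (by rw [List.length_append]; omega) (by rw [List.length_append]; omega)
        ?_ ?_ ?_
      · rw [List.take_left' hud, List.take_left' hud]
      · rw [List.length_append, List.length_append, Nat.add_mod, h3, ← Nat.add_mod]
      · rw [List.drop_left' hud, List.drop_left' hud, h1]
    rw [hT, hT, List.take_append_of_le_length (by omega), List.drop_append_of_le_length (by omega),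
      List.take_append_of_le_length (by omega), List.drop_append_of_le_length (by omega), h4]
    simp only [List.map_append, List.prod_append, h1]
  have hfib : ∀ x y, HL 1 (D.fib x y) := by
    intro x y
    have h := hXX.inf (HL.iUnion (k := 1)
      (ι := {p : {u : List α // u.length ≤ p0 + La} × (S × Multiplicative (ZMod Pm)) //
        p.1.1.length = p0 + La ∧ ∃ w, D.T x (p.1.1 ++ w) = y ∧ (w.map g).prod = p.2})
      (L := fun i => toL {i.1.1.1} *
        toL {w | nw n Sm w ≤ z + 1 ∧ (w.map g).prod = i.1.2})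
      fun i => HL.mul (L := toL {i.1.1.1})
        (M := toL {w | nw n Sm w ≤ z + 1 ∧ (w.map g).prod = i.1.2}) (HL.word i.1.1.1)
        (Crest.Agent.R320.FewVal_228.HL_few_value hn hP hper (z + 1) g i.1.2))
    refine h.congr fun X => ?_
    constructor
    · rintro ⟨h1, h2⟩
      have hl : (X.take (p0 + La)).length = p0 + La := by
        have := h1.1
        rw [List.length_take]; omega
      have e : X.take (p0 + La) ++ X.drop (p0 + La) = X := List.take_append_drop _ _
      refine ⟨h1, ⟨⟨(⟨X.take (p0 + La), le_of_eq hl⟩, ((X.drop (p0 + La)).map g).prod), hl,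
        X.drop (p0 + La), ?_, rfl⟩, ?_⟩⟩
      · show D.T x (X.take (p0 + La) ++ X.drop (p0 + La)) = y
        rw [e]; exact h2
      · refine Language.mem_mul.2 ⟨X.take (p0 + La), rfl, X.drop (p0 + La), ⟨?_, rfl⟩, e⟩
        exact nw_suffix (X.take (p0 + La)) _ (by rw [e]; exact h1)
    · rintro ⟨h1, ⟨⟨⟨u, m⟩, hu, w0, hw0, hm⟩, h2⟩⟩
      refine ⟨h1, ?_⟩
      obtain ⟨a, ha, w, ⟨-, hw⟩, rfl⟩ := Language.mem_mul.1 h2
      have ha' : a = u.1 := ha
      rw [ha']
      rw [hfs x u.1 w w0 hu (by rw [hm]; exact hw)]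
      exact hw0
  refine SemTop_727.top (k := 1) act hadd hone hmul hfaith f _ D hT (pcode (by omega)) hfib hL1 hL2
    ?_ ?_ s
  · intro X1 hX1 X2 hX2 x
    exact hC2 (rho := rho) (rho2 := rho2) (R := 2 + (C0 + C0)) (C0 := C0) (Bd := Bd) (La := La)
      (N1 := N1) (W := 2 * (p0 + N1)) hloc hgap hlen hs hc hcle gold spoil s2 c2 (by omega)
      le_rfl (by omega) X1 hX1 X2 hX2 x
  · intro s
    have h1 := (Crest.Agent.R320.FewVal_228.HL_few_value hn hP hper (z + 1) f s)
    have h2 := hXX.prefix.compl
    refine (HL.mono (by omega : 1 ≤ 1 + 2) (h2.inf h1)).congr fun w => ?_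
    constructor
    · rintro ⟨h3, h4⟩
      exact ⟨fun ⟨X, hX, hp⟩ => h3 X hX hp, nw_noXX w h3, h4⟩
    · rintro ⟨h3, -, h4⟩
      exact ⟨fun X hX hp => h3 ⟨X, hX, hp⟩, h4⟩

end Crest.Agent.R320.Inst_611
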