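import Crest.Agent.R320.Inst_681

/-!
# Row 320: height one of the blocks (helper681)
-/

set_option autoImplicit false

namespace Crest.Agent.R320.Inst_681

open Crest.RegLang Crest.Agent.R320.Hk_851 Crest.Agent.R320.Blk467
open Crest.Agent.R320.FewWalls_228

universe u

variable {α : Type u} {n k : ℕ} {S : Set (List α)}

theorem nw_drop {w : List α} {m : ℕ} (hm : m ≤ w.length) :
    nw n S (w.drop m) ≤ nw n S w := by
  classical
  unfold nw
  refine Finset.card_le_card_of_injOn (fun x => m + x) ?_ ?_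
  · intro x hx
    rw [Finset.mem_coe, Finset.mem_filter] at hx
    have h := (wl_drop hm).1 hx.2
    rw [Finset.mem_coe, Finset.mem_filter, Finset.mem_range]
    exact ⟨by have := h.1; show m + x < w.length + 1; omega, h⟩
  · intro x _ y _ h
    simpa using h

theorem nw_le_of_free {z : ℕ} {w : List α}
    (h : ∀ t, z ≤ t → t < w.length → ¬ WE n S w t) : nw n S w ≤ z + 1 := by
  classical
  unfold nw
  have h0 : ∀ x, Wl n S w x → x ∈ insert (w.length - n) (Finset.range z) := by
    intro x hx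
    rw [Finset.mem_insert, Finset.mem_range]
    by_contra hcon
    push Not at hcon
    have h1 := hx.1
    exact h (x + n) (by omega) (by omega) ⟨x, rfl, hx⟩
  refine (Finset.card_le_card (t := insert (w.length - n) (Finset.range z)) ?_).trans ?_
  · intro x hx
    rw [Finset.mem_filter] at hx
    exact h0 x hx.2
  · refine (Finset.card_insert_le _ _).trans ?_
    rw [Finset.card_range]

theorem HL_A [Finite α] (z : ℕ) :
    HL k ({X | z ≤ X.length ∧ WE n S X X.length} : Language α) := by
  have hfin : ({v | v.length = n ∧ v ∈ S} : Set (List α)).Finite :=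
    (List.finite_length_eq α n).subset fun v hv => hv.1
  have h1 : HL k ({w | WE n S w w.length} : Language α) := by
    refine (HL.suffix (HL.finite (k := k) hfin)).congr fun w => Iff.symm ?_
    constructor
    · rintro ⟨v, ⟨hv, hvS⟩, u, rfl⟩
      refine ⟨u.length, by rw [List.length_append, hv], by rw [List.length_append, hv], ?_⟩
      rw [List.drop_left, ← hv, List.take_length]
      exact hvS
    · rintro ⟨x, hx, h1, h2⟩
      have hl : (w.drop x).length = n := by rw [List.length_drop]; omega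
      refine ⟨w.drop x, ⟨hl, ?_⟩, List.drop_suffix _ _⟩
      rw [← hl, List.take_length] at h2
      exact h2
  exact HL.setOf_and (HL.length_ge z) h1

theorem HL_XX [Finite α] (z : ℕ) : HL k (XX n S z : Language α) := by
  let A : Language α := {X | z ≤ X.length ∧ WE n S X X.length}
  let B : Language α := {w | 1 ≤ w.length}
  have hA : HL k A := HL_A z
  have hB : HL k B := HL.length_ge 1
  have h1 : HL k ({w | w ∈ A ∧ ¬ w ∈ A * B} : Language α) := HL.setOf_and hA (hA.mul hB).setOf_not
  refine h1.congr fun w => Iff.symm ?_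
  constructor
  · rintro ⟨⟨h1, h2⟩, h3⟩
    refine ⟨h1, h2, fun t ht ht' hcon => h3 ?_⟩
    have hl : (w.take t).length = t := by rw [List.length_take]; omega
    refine Language.mem_mul.2 ⟨w.take t, ⟨by rw [hl]; exact ht, ?_⟩, w.drop t, ?_,
      List.take_append_drop _ _⟩
    · rw [hl]
      rw [← List.take_append_drop t w] at hcon
      exact (WE_left (by rw [hl])).1 hcon
    · show 1 ≤ (w.drop t).length
      rw [List.length_drop]; omega
  · rintro ⟨h1, h2, h3⟩
    refine ⟨⟨h1, h2⟩, fun hcon => ?_⟩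
    obtain ⟨a, ⟨ha1, ha2⟩, b, hb, rfl⟩ := Language.mem_mul.1 hcon
    have hb' : 1 ≤ b.length := hb
    exact h3 a.length ha1 (by rw [List.length_append]; omega) ((WE_left le_rfl).2 ha2)

/-- semilocal properties of the words of a class with few walls -/
theorem HL_semi [Finite α] (hn : 0 < n) {c P : ℕ} (hP : 0 < P) (hper : PerOff n c P S) (r : ℕ)
    {G : Type*} [Monoid G] [Finite G] (φ : α → G) (A Pd : ℕ) (hPd : 0 < Pd)
    (C : Set (List α)) (hC : HL 1 (C : Language α)) (hr : ∀ X ∈ C, nw n S X ≤ r)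
    (q : List α → Prop)
    (hq : ∀ X X' : List α, A ≤ X.length → A ≤ X'.length → X.take A = X'.take A →
      X.length % Pd = X'.length % Pd → pr φ (X.drop A) = pr φ (X'.drop A) → (q X ↔ q X')) :
    HL 1 ({X | X ∈ C ∧ q X} : Language α) := by
  haveI : NeZero Pd := ⟨hPd.ne'⟩
  let f : α → G × Multiplicative (ZMod Pd) := fun a => (φ a, Multiplicative.ofAdd 1)
  have hf : ∀ w : List α, (w.map f).prod =
      (pr φ w, Multiplicative.ofAdd ((w.length : ℕ) : ZMod Pd)) := by
    intro w
    induction w with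
    | nil => simp [pr]; rfl
    | cons a w ih =>
      rw [List.map_cons, List.prod_cons, ih]
      simp only [f, pr, Prod.mk_mul_mk, List.map_cons, List.prod_cons, List.length_cons,
        Nat.cast_add, Nat.cast_one]
      rw [← ofAdd_add, add_comm]
  let I : Set (List α × (G × Multiplicative (ZMod Pd))) :=
    {p | p.1.length = A ∧ ∃ X, A ≤ X.length ∧ X.take A = p.1 ∧ ((X.drop A).map f).prod = p.2 ∧ q X}
  have hI : I.Finite := by
    have h1 : ((({l : List α | l.length = A} : Set (List α)) ×ˢ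
      (Set.univ : Set (G × Multiplicative (ZMod Pd))))).Finite :=
      (List.finite_length_eq α A).prod Set.finite_univ
    exact h1.subset fun p hp => ⟨hp.1, Set.mem_univ _⟩
  let D : (List α × (G × Multiplicative (ZMod Pd))) → Language α := fun p =>
    {w | nw n S w ≤ r ∧ (w.map f).prod = p.2}
  let W1 : (List α × (G × Multiplicative (ZMod Pd))) → Language α := fun p => {p.1}
  have key := HL.biUnion (k := 1) hI (L := fun p => W1 p * D p)
    (fun p _ => (HL.word p.1).mul (FewVal_228.HL_few_value hn hP hper r f p.2))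
  have small : HL 1 ({X | X.length < A ∧ q X} : Language α) :=
    HL.finite ((List.finite_length_lt α A).subset fun v hv => hv.1)
  refine (HL.setOf_and hC (HL.setOf_or small key)).congr fun X => Iff.symm ?_
  constructor
  · rintro ⟨hX, h | ⟨p, ⟨hpA, X1, h1, h2, h3, h4⟩, hXp⟩⟩
    · exact ⟨hX, h.2⟩
    · refine ⟨hX, ?_⟩
      obtain ⟨u', hu', w, ⟨_, hw2⟩, rfl⟩ := Language.mem_mul.1 hXp
      have hu : u' = p.1 := hu'
      subst hu
      have e1 : (p.1 ++ w).take A = p.1 := by rw [← hpA, List.take_left]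
      have e2 : (p.1 ++ w).drop A = w := by rw [← hpA, List.drop_left]
      have e3 : (pr φ w, Multiplicative.ofAdd ((w.length : ℕ) : ZMod Pd)) =
          (pr φ (X1.drop A), Multiplicative.ofAdd (((X1.drop A).length : ℕ) : ZMod Pd)) := by
        rw [← hf, ← hf, hw2, h3]
      obtain ⟨e4, e5⟩ := Prod.mk.inj e3
      have e6 : ((w.length : ℕ) : ZMod Pd) = (((X1.drop A).length : ℕ) : ZMod Pd) :=
        Multiplicative.ofAdd.injective e5
      rw [ZMod.natCast_eq_natCast_iff] at e6
      refine (hq _ X1 (by rw [List.length_append]; omega) h1 (by rw [e1, h2]) ?_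
        (by rw [e2]; exact e4)).2 h4
      have e7 : (A + w.length) ≡ (A + (X1.drop A).length) [MOD Pd] := e6.add_left A
      have e8 : A + (X1.drop A).length = X1.length := by rw [List.length_drop]; omega
      rw [e8] at e7
      rw [List.length_append, hpA]
      exact e7
  · rintro ⟨hX, h⟩
    refine ⟨hX, ?_⟩
    by_cases hA : X.length < A
    · exact Or.inl ⟨hA, h⟩
    · right
      have hA' : A ≤ X.length := by omega
      refine ⟨(X.take A, ((X.drop A).map f).prod), ⟨by simp only [List.length_take]; omega, X, hA',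
        rfl, rfl, h⟩, ?_⟩
      refine Language.mem_mul.2 ⟨X.take A, rfl, X.drop A, ⟨?_, rfl⟩, List.take_append_drop _ _⟩
      exact (nw_drop hA').trans (hr X hX)

section blocks

variable {G V : Type*} [Monoid G] [AddCommGroup V] {act : V → G → V} {φ : α → G}

theorem semi_T {B p0 Pd A : ℕ} {nu1 nu2 : List α → V}
    (hfs : ∀ Q Q' : List α, B ≤ Q.length → B ≤ Q'.length → Q.take B = Q'.take B →
      Q.length % Pd = Q'.length % Pd → pr φ (Q.drop B) = pr φ (Q'.drop B) → nu1 Q = nu1 Q')
    (hA : p0 + B ≤ A) {X X' : List α} (h1 : A ≤ X.length) (h2 : A ≤ X'.length)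
    (h3 : X.take A = X'.take A) (h4 : X.length % Pd = X'.length % Pd)
    (h5 : pr φ (X.drop A) = pr φ (X'.drop A)) (x : V) :
    act x (pr φ X) + nu act φ p0 nu1 nu2 X = act x (pr φ X') + nu act φ p0 nu1 nu2 X' := by
  have hd : ∀ (m : ℕ), m ≤ A → ∀ Z : List α, A ≤ Z.length →
      Z.drop m = (Z.take A).drop m ++ Z.drop A := by
    intro m hm Z hZ
    conv_lhs => rw [← List.take_append_drop A Z]
    rw [List.drop_append_of_le_length (by rw [List.length_take]; omega)]
  have hprd : ∀ m, m ≤ A → pr φ (X.drop m) = pr φ (X'.drop m) := by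
    intro m hm
    rw [hd m hm X h1, hd m hm X' h2, pr_app, pr_app, h3, h5]
  have e0 : pr φ X = pr φ X' := by
    have := hprd 0 (Nat.zero_le _)
    simpa using this
  have e1 : X.take p0 = X'.take p0 := by
    have := congrArg (List.take p0) h3
    rw [List.take_take, List.take_take, Nat.min_eq_left (by omega)] at this
    exact this
  have e2 : nu1 (X.drop p0) = nu1 (X'.drop p0) := by
    refine hfs _ _ (by rw [List.length_drop]; omega) (by rw [List.length_drop]; omega) ?_ ?_ ?_
    · have e3 : ∀ Z : List α, (Z.drop p0).take B = ((Z.take A).drop p0).take B := by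
        intro Z
        rw [List.drop_take, List.take_take, Nat.min_eq_left (by omega)]
      rw [e3, e3 X', h3]
    · rw [List.length_drop, List.length_drop]
      have h6 : p0 + (X.length - p0) ≡ p0 + (X'.length - p0) [MOD Pd] := by
        rw [Nat.add_sub_cancel' (by omega), Nat.add_sub_cancel' (by omega)]
        exact h4
      exact Nat.ModEq.add_left_cancel' p0 h6
    · rw [List.drop_drop, List.drop_drop]
      exact hprd _ hA
  unfold nu
  rw [e0, e1, e2, hprd p0 (by omega)]

theorem semi_E {z N A : ℕ} (hA : z + N ≤ A) {X X' : List α} (h1 : A ≤ X.length)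
    (h2 : A ≤ X'.length) (h3 : X.take A = X'.take A) :
    (∃ t, WE n S X t ∧ z ≤ t + N ∧ t ≤ z + N) → (∃ t, WE n S X' t ∧ z ≤ t + N ∧ t ≤ z + N) := by
  rintro ⟨t, ht, ha, hb⟩
  refine ⟨t, ?_, ha, hb⟩
  rw [← List.take_append_drop A X] at ht
  rw [← List.take_append_drop A X']
  rw [WE_left (by rw [List.length_take]; omega)] at ht ⊢
  rw [← h3]
  exact ht

variable [Finite α] [Finite G]

theorem hCT (hn : 0 < n) {c P : ℕ} (hP : 0 < P) (hper : PerOff n c P S) {B p0 Pd z : ℕ}
    (hPd : 0 < Pd) {nu1 nu2 : List α → V}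
    (hfs : ∀ Q Q' : List α, B ≤ Q.length → B ≤ Q'.length → Q.take B = Q'.take B →
      Q.length % Pd = Q'.length % Pd → pr φ (Q.drop B) = pr φ (Q'.drop B) → nu1 Q = nu1 Q')
    (x y : V) :
    HL 1 ({X | X ∈ XX n S z ∧ act x (pr φ X) + nu act φ p0 nu1 nu2 X = y} : Language α) := by
  refine HL_semi hn hP hper (z + 1) φ (p0 + B) Pd hPd (XX n S z) (HL_XX z)
    (fun X hX => nw_le_of_free hX.2.2) _ ?_
  intro X X' h1 h2 h3 h4 h5
  rw [semi_T hfs le_rfl h1 h2 h3 h4 h5 x]

theorem hBdT (hn : 0 < n) {c P : ℕ} (hP : 0 < P) (hper : PerOff n c P S) {B p0 Pd z N : ℕ}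
    (hPd : 0 < Pd) {nu1 nu2 : List α → V} {BT : ℕ → Prop}
    (hfs : ∀ Q Q' : List α, B ≤ Q.length → B ≤ Q'.length → Q.take B = Q'.take B →
      Q.length % Pd = Q'.length % Pd → pr φ (Q.drop B) = pr φ (Q'.drop B) → nu1 Q = nu1 Q')
    (hBTp : ∀ a b, a % Pd = b % Pd → (BT a ↔ BT b))
    (x y : V) :
    HL 1 ({X | X ∈ Bd n S z N p0 BT ∧ act x (pr φ X) + nu act φ p0 nu1 nu2 X = y} :
      Language α) := by
  have h := HL_semi hn hP hper (z + 1) φ (p0 + B + z + N) Pd hPd (XX n S z) (HL_XX z)
    (fun X hX => nw_le_of_free hX.2.2)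
    (fun X => ((∃ t, WE n S X t ∧ z ≤ t + N ∧ t ≤ z + N) ∨ BT (X.length - p0)) ∧
      act x (pr φ X) + nu act φ p0 nu1 nu2 X = y) (by
      intro X X' h1 h2 h3 h4 h5
      rw [semi_T hfs (by omega) h1 h2 h3 h4 h5 x]
      refine and_congr (or_congr ⟨semi_E (by omega) h1 h2 h3, semi_E (by omega) h2 h1 h3.symm⟩
        (hBTp _ _ ?_)) Iff.rfl
      have h6 : p0 + (X.length - p0) ≡ p0 + (X'.length - p0) [MOD Pd] := by
        rw [Nat.add_sub_cancel' (by omega), Nat.add_sub_cancel' (by omega)]
        exact h4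
      exact Nat.ModEq.add_left_cancel' p0 h6)
  refine h.congr fun X => Iff.symm ?_
  constructor
  · rintro ⟨h1, h2, h3⟩; exact ⟨⟨h1, h2⟩, h3⟩
  · rintro ⟨⟨h1, h2⟩, h3⟩; exact ⟨h1, h2, h3⟩

theorem htail (hn : 0 < n) {c P : ℕ} (hP : 0 < P) (hper : PerOff n c P S) {z : ℕ} (φ : α → G)
    (s : G) : HL 1 ({w | (∀ X ∈ XX n S z, ¬ X <+: w) ∧ (w.map φ).prod = s} : Language α) := by
  have h1 : HL 1 ({w | ¬ ∃ v ∈ (XX n S z : Language α), v <+: w} : Language α) :=
    (HL.prefix (HL_XX z)).setOf_not
  refine (HL.setOf_and h1 (FewVal_228.HL_few_value hn hP hper (z + 1) φ s)).congr fun w => Iff.symm ?_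
  constructor
  · rintro ⟨h1, h2, h3⟩
    exact ⟨fun X hX hp => h1 ⟨X, hX, hp⟩, h3⟩
  · rintro ⟨h1, h2⟩
    refine ⟨fun ⟨X, hX, hp⟩ => h1 X hX hp, nw_le_of_free ?_, h2⟩
    intro t ht ht' hcon
    obtain ⟨X, hX, hp, -⟩ := first_block ht hcon
    exact h1 X hX hp

end blocks

end Crest.Agent.R320.Inst_681
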