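import Crest.Agent.R320.Inst_718

set_option autoImplicit false

/-!
# Row 320: the spoiling count at word level (helper718)
-/

namespace Crest.Agent.R320.Inst_718

open Finset

variable {α : Type*}

theorem spoilW {Wo : List α → Prop} {n z p0 N1 K R C0 T0 W : ℕ} {BadT : ℕ → Prop} {c : ℕ → ℕ}
    (hloc : ∀ P Q : List α, n ≤ Q.length → (Wo (P ++ Q) ↔ Wo Q))
    (hgap : ∀ (P : List α) (d : ℕ), Wo P → 0 < d → d ≤ W → ¬ Wo (P.take (P.length - d)))
    (hc : ∀ k < K, c k ≤ p0)
    (hz : 2 * p0 + N1 + n + T0 + 1 ≤ z) (hW : 2 * p0 + 2 * N1 ≤ W)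
    (r1 : ∀ a b a' b', a < K → b < K → a' < K → b' < K → a ≠ b →
      |((c a : ℤ) - c b) - (c a' - c b')| ≤ 2 * N1 → a = a' ∧ b = b')
    (r2 : ∀ T, T0 ≤ T → ∀ F : Finset (ℕ × ℕ), (∀ ab ∈ F, ab.1 < K ∧ ab.2 < K ∧ ab.1 ≠ ab.2 ∧
      BadT (T + c ab.1 - c ab.2)) → F.card ≤ C0)
    (hR : 1 + 2 * C0 < R) : SpoilW Wo z p0 N1 K R BadT c := by
  classical
  intro X1 hX1 X2 hX2
  set w := X1 ++ X2 with hw
  have hl1 : z ≤ X1.length := hX1.1
  have hl2 : z ≤ X2.length := hX2.1
  have hwl : w.length = X1.length + X2.length := List.length_append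
  have wg : ∀ s t, s < t → t ≤ w.length → Wo (w.take s) → Wo (w.take t) → W < t - s := by
    intro s t hst htl hs ht
    by_contra hcon
    refine hgap (w.take t) (t - s) ht (by omega) (by omega) ?_
    have e1 : (w.take t).length = t := by rw [List.length_take]; omega
    rw [e1, List.take_take, show min (t - (t - s)) t = s by omega]
    exact hs
  have hwW : Wo (w.take w.length) := by
    rw [List.take_length, hw, hloc _ _ (by omega)]
    exact hX2.2.1
  have hwX : Wo (w.take X1.length) := by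
    rw [hw, List.take_left]; exact hX1.2.1
  -- the two walls
  have ex0 : ∃ t, z ≤ t + p0 ∧ t ≤ w.length ∧ Wo (w.take t) := ⟨X1.length, by omega, by omega, hwX⟩
  set a0 := Nat.find ex0 with ha0
  obtain ⟨ha0z, ha0l, ha0w⟩ := Nat.find_spec ex0
  rw [← ha0] at ha0z ha0l ha0w
  have ha0m : ∀ t, z ≤ t + p0 → t ≤ w.length → Wo (w.take t) → a0 ≤ t := fun t h1 h2 h3 =>
    Nat.find_min' ex0 ⟨h1, h2, h3⟩
  have ha0X : a0 ≤ X1.length := ha0m _ (by omega) (by omega) hwX
  have ex1 : ∃ t, a0 < t ∧ t ≤ w.length ∧ Wo (w.take t) := ⟨w.length, by omega, le_rfl, hwW⟩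
  set a1 := Nat.find ex1 with ha1
  obtain ⟨ha1z, ha1l, ha1w⟩ := Nat.find_spec ex1
  rw [← ha1] at ha1z ha1l ha1w
  have ha1m : ∀ t, a0 < t → t ≤ w.length → Wo (w.take t) → a1 ≤ t := fun t h1 h2 h3 =>
    Nat.find_min' ex1 ⟨h1, h2, h3⟩
  have hgap01 := wg a0 a1 ha1z ha1l ha0w ha1w
  let PE : ℕ × ℕ → Prop := fun ab => ab.1 ≠ ab.2 ∧ ∃ t, t ≤ w.length ∧ Wo (w.take t) ∧
    z + c ab.2 ≤ t + c ab.1 + N1 ∧ t + c ab.1 < z + N1 + c ab.2
  let E : Finset (ℕ × ℕ) := (range K ×ˢ range K).filter PE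
  let B0 : Finset (ℕ × ℕ) := (range K ×ˢ range K).filter
    (fun ab => ab.1 ≠ ab.2 ∧ BadT (a0 - p0 + c ab.1 - c ab.2))
  let B1 : Finset (ℕ × ℕ) := (range K ×ˢ range K).filter
    (fun ab => ab.1 ≠ ab.2 ∧ BadT (a1 - p0 + c ab.1 - c ab.2))
  have hE : E.card ≤ 1 := by
    rw [Finset.card_le_one]
    intro p hp q hq
    simp only [E, mem_filter, mem_product, mem_range] at hp hq
    obtain ⟨⟨hp1, hp2⟩, hpn, t, ht1, ht2, ht3, ht4⟩ := hp
    obtain ⟨⟨hq1, hq2⟩, hqn, s, hs1, hs2, hs3, hs4⟩ := hq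
    have c1 := hc _ hp1
    have c2 := hc _ hp2
    have c3 := hc _ hq1
    have c4 := hc _ hq2
    have hts : t = s := by
      rcases lt_trichotomy t s with h | h | h
      · have := wg t s h hs1 ht2 hs2
        omega
      · exact h
      · have := wg s t h ht1 hs2 ht2
        omega
    subst hts
    have habs : |((c p.1 : ℤ) - c p.2) - (c q.1 - c q.2)| ≤ 2 * N1 := by
      rw [abs_le]
      constructor <;> push_cast <;> omega
    obtain ⟨e1, e2⟩ := r1 _ _ _ _ hp1 hp2 hq1 hq2 hpn habs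
    exact Prod.ext e1 e2
  have hB0 : B0.card ≤ C0 := by
    refine r2 (a0 - p0) (by omega) B0 fun ab hab => ?_
    simp only [B0, mem_filter, mem_product, mem_range] at hab
    exact ⟨hab.1.1, hab.1.2, hab.2.1, hab.2.2⟩
  have hB1 : B1.card ≤ C0 := by
    refine r2 (a1 - p0) (by omega) B1 fun ab hab => ?_
    simp only [B1, mem_filter, mem_product, mem_range] at hab
    exact ⟨hab.1.1, hab.1.2, hab.2.1, hab.2.2⟩
  refine ⟨(E ∪ (B0 ∪ B1)).image Prod.snd, ?_, ?_⟩
  · have q1 := Finset.card_image_le (s := E ∪ (B0 ∪ B1)) (f := Prod.snd)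
    have q2 := Finset.card_union_le E (B0 ∪ B1)
    have q3 := Finset.card_union_le B0 B1
    omega
  intro k hkK hkS j hjK hjk P' hP'
  have hnot : ∀ p ∈ E ∪ (B0 ∪ B1), p.2 ≠ k := fun p hp hpk => hkS (mem_image.2 ⟨p, hp, hpk⟩)
  have ck := hc k hkK
  have cj := hc j hjK
  set w' := P' ++ w.drop (c k) with hw'
  have hdl : (w.drop (c k)).length = w.length - c k := List.length_drop ..
  have hw'l : w'.length = c j + (w.length - c k) := by rw [hw', List.length_append, hP', hdl]
  have htl : (w.take (c k)).length = c k := by rw [List.length_take]; omega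
  have hsw : ∀ s, n ≤ s → s ≤ w.length - c k →
      (Wo (w'.take (c j + s)) ↔ Wo (w.take (c k + s))) := by
    intro s hs1 hs2
    have := swap hloc (P := P') (P' := w.take (c k)) (R := w.drop (c k)) (t := s) hs1 (by omega)
    rw [List.take_append_drop, hP', htl] at this
    exact this
  have hfwd : ∀ t', z ≤ t' + N1 → t' ≤ w'.length → Wo (w'.take t') →
      Wo (w.take (t' - c j + c k)) := by
    intro t' h1 h2 h3
    have := (hsw (t' - c j) (by omega) (by omega)).1 (by
      rw [show c j + (t' - c j) = t' by omega]; exact h3)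
    rwa [Nat.add_comm] at this
  have hbwd : ∀ t, z ≤ t + p0 → t ≤ w.length → Wo (w.take t) →
      Wo (w'.take (t - c k + c j)) := by
    intro t h1 h2 h3
    have := (hsw (t - c k) (by omega) (by omega)).2 (by
      rw [show c k + (t - c k) = t by omega]; exact h3)
    rwa [Nat.add_comm] at this
  have exw : ∃ t', z ≤ t' ∧ t' ≤ w'.length ∧ Wo (w'.take t') := by
    refine ⟨w.length - c k + c j, by omega, by omega, hbwd _ (by omega) le_rfl hwW⟩
  set t' := Nat.find exw with ht'
  obtain ⟨h1, h2, h3⟩ := Nat.find_spec exw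
  rw [← ht'] at h1 h2 h3
  have hmin : ∀ s, z ≤ s → s ≤ w'.length → Wo (w'.take s) → t' ≤ s := fun s q1 q2 q3 =>
    Nat.find_min' exw ⟨q1, q2, q3⟩
  have hXl : (w'.take t').length = t' := by rw [List.length_take]; omega
  refine ⟨w'.take t', ⟨by rw [hXl]; exact h1, h3, ?_⟩, List.take_prefix _ _, ?_⟩
  · intro s hs1 hs2 hs3
    rw [hXl] at hs2
    rw [List.take_take, min_eq_left (by omega)] at hs3
    have := hmin s hs1 (by omega) hs3
    omega
  · rintro (⟨t, ht1, ht2, ht3, ht4⟩ | hB)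
    · rw [hXl] at ht1
      rw [List.take_take, min_eq_left ht1] at ht2
      refine hnot (j, k) (mem_union_left _ ?_) rfl
      simp only [E, mem_filter, mem_product, mem_range]
      refine ⟨⟨hjK, hkK⟩, hjk, t - c j + c k, by omega, hfwd t ht3 (by omega) ht2, ?_, ?_⟩
      · show z + c k ≤ t - c j + c k + c j + N1
        omega
      · show t - c j + c k + c j < z + N1 + c k
        omega
    · rw [hXl] at hB
      have hwt := hfwd t' (by omega) h2 h3
      have hta0 : a0 ≤ t' - c j + c k := ha0m _ (by omega) (by omega) hwt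
      rcases Nat.eq_or_lt_of_le hta0 with heq | hlt
      · refine hnot (j, k) (mem_union_right _ (mem_union_left _ ?_)) rfl
        simp only [B0, mem_filter, mem_product, mem_range]
        refine ⟨⟨hjK, hkK⟩, hjk, ?_⟩
        rw [show a0 - p0 + c j - c k = t' - p0 by omega]
        exact hB
      · have hta1 : a1 ≤ t' - c j + c k := ha1m _ hlt (by omega) hwt
        have hw1 := hbwd a1 (by omega) ha1l ha1w
        have hle := hmin _ (by omega) (by omega) hw1
        refine hnot (j, k) (mem_union_right _ (mem_union_right _ ?_)) rfl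
        simp only [B1, mem_filter, mem_product, mem_range]
        refine ⟨⟨hjK, hkK⟩, hjk, ?_⟩
        rw [show a1 - p0 + c j - c k = t' - p0 by omega]
        exact hB

theorem finite_L1 [Finite α] {V S : Type*} [AddCommGroup V] (Wo : List α → Prop)
    (z p0 N1 K : ℕ) (φ : List α → S) (act : V → S → V) (lam : List α → Option V)
    (nu1 nu2 : List α → V) (c : ℕ → ℕ) (lam2 : ℕ → List α → Option V) (x : V) :
    ((DD Wo z p0 N1 K φ act lam nu1 nu2 c lam2).L1 x).Finite :=
  (List.finite_length_lt α (p0 + N1)).subset fun _ hP => hP.2.1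

theorem finite_L2 [Finite α] {V S : Type*} [AddCommGroup V] (Wo : List α → Prop)
    (z p0 N1 K : ℕ) (φ : List α → S) (act : V → S → V) (lam : List α → Option V)
    (nu1 nu2 : List α → V) (c : ℕ → ℕ) (hc : ∀ k < K, c k ≤ p0)
    (lam2 : ℕ → List α → Option V) (x : V) :
    ((DD Wo z p0 N1 K φ act lam nu1 nu2 c lam2).L2 x).Finite := by
  refine (List.finite_length_le α p0).subset fun P hP => ?_
  obtain ⟨k, hk, hl, _⟩ := hP
  show P.length ≤ p0
  rw [hl]
  exact hc k hk

end Crest.Agent.R320.Inst_718
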