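import Crest.Agent.R320.Inst1_735

/-! # Row 320 (helper735): decoding and the final form of `Inst1_735` -/

set_option autoImplicit false

namespace Crest.Agent.R320.Inst_735

open Crest.RegLang Crest.Agent.R320.Hk_851 Crest.Agent.R320.Asm_505

universe u

variable {α : Type u} {S V : Type} [Monoid S] [AddCommGroup V]

namespace Par

variable {D : Par α S V}

theorem act_zero (h : D.Ok) (s : S) : D.act 0 s = 0 := by
  have := h.act_add 0 0 s
  rw [add_zero] at this
  exact left_eq_add.1 this

theorem eps_aff (h : D.Ok) {X : List α} (hX : X ∈ D.U) (v : V) :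
    D.eps X v = D.act v (pr D.f X) + D.eps X 0 := by
  obtain ⟨t, hF, hN⟩ := hX
  have hz : D.z = D.p0 + D.q + D.N1 := rfl
  have h1 := hF.1
  have h2 := hN.1
  have e : pr D.f X = pr D.f (X.take D.p0) * (pr D.f ((X.take t).drop D.p0) * pr D.f (X.drop t)) := by
    rw [← pr_app, ← pr_app]
    congr 1
    have h3 : X.take t = X.take D.p0 ++ (X.take t).drop D.p0 := by
      have := List.take_append_drop D.p0 (X.take t)
      rw [List.take_take, Nat.min_eq_left (by omega)] at this
      exact this.symm
    rw [← List.append_assoc, ← h3, List.take_append_drop]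
  unfold eps
  rw [tt_eq D hF, e]
  simp only [h.act_add, act_zero h, ← h.act_mul, zero_add]
  abel

theorem run_aff (h : D.Ok) : ∀ (l : List (List α)), (∀ z ∈ l, z ∈ D.U) → ∀ v,
    Run D.eps v l = D.act v (pr D.f l.flatten) + Run D.eps 0 l := by
  intro l
  induction l with
  | nil =>
    intro _ v
    show v = D.act v (pr D.f []) + 0
    rw [add_zero, show pr D.f ([] : List α) = 1 from rfl, h.act_one]
  | cons X l ih =>
    intro hl v
    have hX : X ∈ D.U := hl X (by simp)
    have hl' : ∀ z ∈ l, z ∈ D.U := fun z hz => hl z (by simp [hz])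
    rw [Run_cons, Run_cons, ih hl' (D.eps X v), ih hl' (D.eps X 0), eps_aff h hX v,
      List.flatten_cons, pr_app, h.act_add, h.act_mul]
    abel

theorem dec1 (h : D.Ok) (l l' : List (List α)) (hl : ∀ z ∈ l, z ∈ D.U) (hl' : ∀ z ∈ l', z ∈ D.U)
    (hr : ∀ x, Run D.eps x l = Run D.eps x l') :
    (l.flatten.map D.f).prod = (l'.flatten.map D.f).prod := by
  refine h.faith _ _ fun v => ?_
  have h1 := run_aff h l hl v
  have h2 := run_aff h l' hl' v
  rw [hr v, h2, hr 0] at h1
  exact (add_right_cancel h1).symm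

theorem HL_P1 [Finite α] (h : D.Ok) (v : V) (k : ℕ) : HL k (D.P1 v) := by
  apply HL.finite
  refine (List.finite_length_le α (D.p0 + D.N1)).subset ?_
  rintro P ⟨h1, h2⟩
  have := h.g_len _ _ h2
  rw [List.length_drop] at this
  show P.length ≤ _
  omega

theorem HL_P2 [Finite α] (h : D.Ok) (v : V) (k : ℕ) : HL k (D.P2 v) := by
  apply HL.finite
  refine (List.finite_length_le α D.p0).subset ?_
  rintro P ⟨k, hk, h1, _⟩
  have := h.cp0 k hk
  show P.length ≤ _
  omega

/-- **the final form**: everything from `HL 1` of the zone languages and the right words. -/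
theorem final [Finite α] [Finite S] [Finite V] (h : D.Ok) (hU : HL 1 D.U) (hB : HL 1 D.B)
    (hR1 : ∀ b, HL 1 (D.R1 b)) (hR2 : ∀ b, HL 1 (D.R2 b)) (hrest : ∀ m, HL 1 (Rest D.f D.U m))
    (m : S) : HL 3 ({w | (w.map D.f).prod = m} : Language α) := by
  refine two_levels (k := 1) D.f U_pc ?_ (level1 h) (level2 h) (dec1 h) (fun l l' _ _ hr => hr)
    hU hB (fun v => HL_P1 h v 1) hR1 (fun v => HL_P2 h v 1) hR2 hrest m
  rintro X ⟨t, hF, hN, _⟩
  exact ⟨t, hF, hN⟩

end Par

end Crest.Agent.R320.Inst_735
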