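import Crest.Agent.R320.Inst1_782

/-!
# Row 320, concrete instance, part 2: scheme 1 (gadget with unknown total as hypothesis)
-/

set_option autoImplicit false
set_option linter.unusedSectionVars false

namespace Crest.Agent.R320.Inst_782

open Crest.RegLang Crest.Agent.R320.Hk_851 Crest.Agent.R320.Level_297

universe u

variable {α : Type u} {V S : Type} [Monoid S] [AddCommGroup V] (D : Dat α V S)

/-- the gadget of scheme 1 on words, total unknown -/
structure Gad1 where
  lam : List α → Option V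
  rho : List α → Option V
  lamlen : ∀ p v, lam p = some v → p.length ≤ D.N1
  sound : ∀ p q v c, lam p = some v → rho q = some c →
    D.act v (pr D.φ (p ++ q)) + D.nu1 (p ++ q) = c
  complete : ∀ u : List α, D.z ≤ D.p0 + u.length → ¬ D.BT u.length → ∀ v, ∃ p q,
    p ++ q = u ∧ lam p = some v ∧ (rho q).isSome

variable {D} (g : Gad1 D)

def Gad1.LL (P : List α) (v : V) : Prop :=
  D.p0 ≤ P.length ∧ g.lam (P.drop D.p0) = some (D.act v (pr D.φ (P.take D.p0)) + D.nu2 (P.take D.p0))

def Gad1.RL (Q : List α) (d : ℕ) (c : V) : Prop :=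
  ∃ t c0, (∀ t', D.z ≤ t' + D.p0 + D.N1 → t' + D.p0 < D.z → ¬ D.w.R (Q.drop t')) ∧
    FW D.w Q (D.z - D.p0) t ∧ FW D.w Q (t + 1) d ∧ g.rho (Q.take t) = some c0 ∧
    c = D.act c0 (pr D.φ ((Q.take d).drop t))

theorem Gad1.exact {P Q : List α} {v c : V} {d : ℕ} (hL : g.LL P v) (hR : g.RL Q d c) :
    ∃ f, D.r.nx (P ++ Q) = some (P.length + d, f) ∧ f v = c := by
  have hz := D.hz
  obtain ⟨hP, hl⟩ := hL
  obtain ⟨t, c0, hno, ht, hd, hr, rfl⟩ := hR
  have hlen := g.lamlen _ _ hl
  rw [List.length_drop] at hlen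
  have h1 : FW D.w (P ++ Q) D.z (P.length + t) := by
    have h2 : FW D.w Q (D.z - P.length) t := by
      refine ht.lower (by omega) (fun t' a b => hno t' (by omega) (by omega))
    have h3 := h2.shift (P := P)
    rwa [show P.length + (D.z - P.length) = D.z by omega] at h3
  have h2 : FW D.w (P ++ Q) (P.length + t + 1) (P.length + d) := by
    have := hd.shift (P := P)
    rwa [show P.length + (t + 1) = P.length + t + 1 by omega] at this
  refine ⟨_, D.r_iff.2 ⟨P.length + t, ⟨h1, h2⟩, rfl⟩, ?_⟩
  have hs := g.sound _ _ _ _ hl hr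
  have e1 : (P ++ Q).take D.p0 = P.take D.p0 := List.take_append_of_le_length hP
  have e2 : ((P ++ Q).take (P.length + t)).drop D.p0 = P.drop D.p0 ++ Q.take t := by
    rw [List.take_length_add_append, List.drop_append_of_le_length hP]
  have e3 : ((P ++ Q).take (P.length + d)).drop (P.length + t) = (Q.take d).drop t := by
    rw [List.take_length_add_append, drop_add]
  unfold Dat.zf
  rw [e1, e2, e3, hs]

theorem Gad1.compl {Q : List α} {l : ℕ} {f : V → V} (h : D.r.nx Q = some (l, f)) :
    D.b.nx Q = some (l, f) ∨ ∀ v, ∃ P Q' d c, Q = P ++ Q' ∧ g.LL P v ∧ g.RL Q' d c := by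
  have hz := D.hz
  obtain ⟨t, hZ, rfl⟩ := D.r_iff.1 h
  by_cases hb : D.BadC Q 0 t
  · left
    exact D.b_iff.2 ⟨t, hZ, hb, rfl⟩
  right
  intro v
  obtain ⟨hZ1, hZ2⟩ := hZ
  have hb1 : ∀ t', D.z ≤ t' + D.N1 → t' < D.z → ¬ D.w.R (Q.drop t') := fun t' a b hR =>
    hb (Or.inl ⟨t', by omega, by omega, hR⟩)
  have hb2 : D.z + D.N1 ≤ t := by
    by_contra hc
    exact hb (Or.inr (Or.inl (by omega)))
  have hb3 : ¬ D.BT (t - D.p0) := fun hB => hb (Or.inr (Or.inr (by simpa using hB)))
  have hv := hZ1.2.1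
  set Y := (Q.take t).drop D.p0 with hY
  have hYl : Y.length = t - D.p0 := by
    rw [hY, List.length_drop, List.length_take]; omega
  obtain ⟨p, q, hpq, hlam, hrho⟩ := g.complete Y (by omega) (by rw [hYl]; exact hb3)
    (D.act v (pr D.φ (Q.take D.p0)) + D.nu2 (Q.take D.p0))
  have hpl := g.lamlen _ _ hlam
  have hpql : p.length + q.length = t - D.p0 := by
    rw [← hYl, ← hpq, List.length_append]
  have eQt : Q.take t = Q.take D.p0 ++ (p ++ q) := by
    rw [hpq, hY]
    conv_lhs => rw [← List.take_append_drop D.p0 (Q.take t)]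
    rw [List.take_take, min_eq_left (by omega)]
  have eQ : Q = (Q.take D.p0 ++ p) ++ (q ++ Q.drop t) := by
    conv_lhs => rw [← List.take_append_drop t Q, eQt]
    simp [List.append_assoc]
  set P := Q.take D.p0 ++ p with hPdef
  set Q' := q ++ Q.drop t with hQ'
  have hPl : P.length = D.p0 + p.length := by
    rw [hPdef, List.length_append, List.length_take]; omega
  obtain ⟨c0, hc0⟩ := Option.isSome_iff_exists.1 hrho
  have e1 : Q'.take q.length = q := by
    rw [hQ']; exact List.take_left' rfl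
  obtain ⟨d, hd⟩ : ∃ d, l = P.length + d := ⟨l - P.length, by
    have := hZ2.1
    omega⟩
  refine ⟨P, Q', d, _, eQ, ⟨by omega, ?_⟩, ⟨q.length, c0, ?_, ?_, ?_, ?_, rfl⟩⟩
  · have e2 : P.drop D.p0 = p := by
      rw [hPdef]
      exact List.drop_left' (by rw [List.length_take]; omega)
    have e3 : P.take D.p0 = Q.take D.p0 := by
      rw [hPdef]
      exact List.take_left' (by rw [List.length_take]; omega)
    rw [e2, e3]
    exact hlam
  · intro t' a b hR
    have hR' : D.w.R (Q.drop (P.length + t')) := by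
      rw [eQ, drop_add]; exact hR
    by_cases hc : P.length + t' < D.z
    · exact hb1 _ (by omega) hc hR'
    · exact hZ1.2.2.2 _ (by omega) (by omega) hR'
  · have h1 : FW D.w (P ++ Q') (P.length + (D.z - D.p0)) (P.length + q.length) := by
      rw [← eQ]
      have : P.length + q.length = t := by omega
      rw [this]
      exact hZ1.raise (by omega) (by omega)
    exact h1.unshift
  · have h1 : FW D.w (P ++ Q') (P.length + (q.length + 1)) (P.length + d) := by
      rw [← eQ, ← hd]
      have : P.length + (q.length + 1) = t + 1 := by omega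
      rw [this]
      exact hZ2
    exact h1.unshift
  · rw [e1]
    exact hc0

/-- scheme 1 -/
def Gad1.scheme (hn : D.w.n ≤ D.p0) : Scheme D.r D.b where
  LL := g.LL
  RL := g.RL
  Dead := 0
  sub := by
    rintro Q ⟨l, f⟩ h
    obtain ⟨t, a, -, c⟩ := D.b_iff.1 h
    exact D.r_iff.2 ⟨t, a, c⟩
  LLn := fun P v h => hn.trans h.1
  RLpos := by
    rintro Q d c ⟨t, c0, -, -, h, -, -⟩
    have h1 := h.1
    have h2 := h.2.1
    omega
  RLext := by
    rintro Q s d c ⟨t, c0, hno, ht, hd, hr, rfl⟩
    have h1 := ht.1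
    have h2 := ht.2.1
    have h3 := hd.2.1
    refine ⟨t, c0, fun t' a b hR => hno t' a b ((D.w.app (by omega)).1 hR), ht.ext s, hd.ext s,
      ?_, ?_⟩
    · rw [List.take_append_of_le_length (by omega)]; exact hr
    · rw [List.take_append_of_le_length (by omega)]
  RLcut := by
    rintro Q s d c ⟨t, c0, hno, ht, hd, hr, rfl⟩ hl
    have h1 := ht.1
    have h3 := hd.1
    refine ⟨t, c0, fun t' a b hR => hno t' a b ((D.w.app (by omega)).2 hR), ht.cut (by omega),
      hd.cut hl, ?_, ?_⟩
    · rw [List.take_append_of_le_length (by omega)] at hr; exact hr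
    · rw [List.take_append_of_le_length (by omega)]
  Dext := fun Q s h => h.elim
  Dnone := fun Q h => h.elim
  exact := fun P v Q d c hL hR _ => g.exact hL hR
  complete := fun Q l f h => g.compl h

end Crest.Agent.R320.Inst_782
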