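import Crest.Agent.R320.Inst2_100

/-!
# Row 320: instantiation of the block form, part 3 (helper100): scheme 2
-/

set_option autoImplicit false

namespace Crest.Agent.R320.Inst_100

open Crest.RegLang Crest.Agent.R320.Hk_851 Crest.Agent.R320.Blk467

namespace Dat

variable {α M V : Type} [Monoid M] [AddCommGroup V] (D : Dat α M V)

theorem bad_XX : D.Bad ⊆ D.XX := fun _ h => h.1

/-- value of a block which is cut by scheme 2 -/
theorem T_cut {k : ℕ} (hk : k < D.K) {P Y : List α} {v r r2 : V} (hP : P.length = D.x k)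
    (hl : D.lam2 k P = some v) (hY : D.p0 - D.x k ≤ Y.length)
    (hr : D.rho2 k (Y.take (D.p0 - D.x k)) = some r2)
    (hv : D.act r2 (D.vl (Y.drop (D.p0 - D.x k))) + D.nu1 (Y.drop (D.p0 - D.x k)) = r) :
    D.T v (P ++ Y) = r := by
  have h0 := D.hp0 k hk
  have e1 : (P ++ Y).take D.p0 = P ++ Y.take (D.p0 - D.x k) := by
    rw [List.take_append, List.take_of_length_le (by omega), hP]
  have e2 : (P ++ Y).drop D.p0 = Y.drop (D.p0 - D.x k) := by
    rw [List.drop_append, List.drop_eq_nil_of_le (by omega), List.nil_append, hP]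
  have h2 := D.sound2 k hk P _ v r2 hP hl hr
  rw [D.T_eq, e1, e2]
  unfold vl at hv ⊢
  rw [← h2]
  exact hv

theorem s2 (v b : V) (P Q r : List α) (hP : P ∈ D.LP2 v) (hQ : Q ∈ D.RQ2 b)
    (hS : P ++ Q ++ r ∈ Str D.Bad) :
    P ++ Q ∈ Lg D.Bad (fun v X => D.T v X) v b := by
  have hz := D.hz
  obtain ⟨k0, hk0, hPl, hlam⟩ := hP
  obtain ⟨k, hk, hon, c, -, hAB⟩ := hQ
  obtain ⟨Y, hY, X', hX', rfl⟩ := Language.mem_mul.1 hAB
  obtain ⟨l, hl, hfl⟩ := hS
  have hp0 := D.hp0 k0 hk0
  have hX'F : X' ∈ D.w.F D.z := hX'.1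
  have hX'len : D.z ≤ X'.length := hX'F.2.1
  -- first block
  cases l with
  | nil =>
    exfalso
    have := congrArg List.length hfl
    simp at this
    omega
  | cons X l =>
    have hX : X ∈ D.Bad := hl X (by simp)
    have hXF : X ∈ D.w.F D.z := hX.1
    have hXlen := hXF.2.1
    rw [List.flatten_cons] at hfl
    have hPX : P <+: X := by
      have h1 : P <+: X ++ l.flatten := by
        rw [hfl, List.append_assoc]; exact List.prefix_append _ _
      exact List.prefix_of_prefix_length_le h1 (List.prefix_append _ _) (by omega)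
    obtain ⟨Y1, rfl⟩ := hPX
    have hY1 : Y1 ∈ D.BS (D.x k0) := by
      have := (D.bad_shift (P := P) (Y := Y1) (by omega)).1 hX
      rwa [hPl] at this
    have e1 : Y1 ++ l.flatten = (Y ++ X') ++ r := by
      have : P ++ (Y1 ++ l.flatten) = P ++ ((Y ++ X') ++ r) := by
        rw [← List.append_assoc, hfl]; simp
      exact List.append_cancel_left this
    -- the status of the true place is visible
    have hY1Q : Y1 <+: Y ++ X' := by
      have h1 : Y1 <+: (Y ++ X') ++ r := by rw [← e1]; exact List.prefix_append _ _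
      have h2 : Y ++ X' <+: (Y ++ X') ++ r := List.prefix_append _ _
      rcases List.prefix_or_prefix_of_prefix h1 h2 with h | h
      · exact h
      · by_cases hle : Y1.length ≤ (Y ++ X').length
        · exact List.prefix_of_prefix_length_le h1 h2 hle
        · exfalso
          refine hY1.1.2.2 (Y ++ X').length (by rw [List.length_append]; omega) (by omega) ?_
          rw [← List.prefix_iff_eq_take.1 h]
          exact (D.w.app _ _ (by omega)).2 hX'F.1
    have hkk : k0 = k := by
      by_contra hne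
      exact hon.2 k0 ⟨hk0, hne⟩ ⟨Y1, hY1, hY1Q⟩
    subst hkk
    have hYY : Y1 = Y := D.w.F_uniq hY1.1 hY.1.1 hY1Q (List.prefix_append _ _)
    subst hYY
    have e2 : l.flatten = X' ++ r := by
      rw [List.append_assoc] at e1
      exact List.append_cancel_left e1
    cases l with
    | nil =>
      exfalso
      have := congrArg List.length e2
      simp at this
      omega
    | cons X2 l =>
      have hX2 : X2 ∈ D.Bad := hl X2 (by simp)
      have hX2e : X2 = X' := by
        refine D.w.F_uniq (Z := X' ++ r) hX2.1 hX'F ?_ (List.prefix_append _ _)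
        rw [← e2, List.flatten_cons]
        exact List.prefix_append _ _
      subst hX2e
      obtain ⟨-, hYl, r2, hr2, hval⟩ := hY
      refine ⟨[P ++ Y1, X2], ?_, by simp, ?_⟩
      · intro Z hZ
        simp only [List.mem_cons, List.not_mem_nil, or_false] at hZ
        rcases hZ with rfl | rfl
        · exact hX
        · exact hX2
      · show D.T (D.T v (P ++ Y1)) X2 = b
        rw [D.T_cut hk0 hPl hlam hYl hr2 hval]
        exact hX'.2

/-- the spoiled places of a text `X ++ X'` -/
theorem spoiled (X X' : List α) (hX : X ∈ D.Bad) (hX' : X' ∈ D.Bad) :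
    ∃ Sp : Finset ℕ, Sp.card ≤ 1 + 2 * D.C0 ∧ ∀ k < D.K, k ∉ Sp → ∀ k' < D.K, k' ≠ k →
      (X.drop (D.x k) ++ X') ∉ D.BSL (D.x k') := by
  classical
  have hz := D.hz
  have hW := D.hW
  set t : List α := X ++ X' with ht
  have hXl := hX.1.2.1
  have hXl' := hX'.1.2.1
  -- walls of `t`
  let Wt : ℕ → Prop := fun s => s ≤ t.length ∧ D.w.E (t.take s)
  have hsep : ∀ s s', Wt s → Wt s' → s < s' → s + D.W ≤ s' := fun s s' h h' hlt =>
    D.w.sep t s s' hlt h'.1 h.2 h'.2
  have hWX : Wt X.length := ⟨by rw [ht, List.length_append]; omega, by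
    rw [ht, List.take_left]; exact hX.1.1⟩
  have hWXX : Wt t.length := ⟨le_rfl, by
    rw [List.take_length, ht]; exact (D.w.app _ _ (D.w.len _ hX'.1.1)).2 hX'.1.1⟩
  -- the two candidate ends
  have hex1 : ∃ s, Wt s ∧ D.z ≤ s + D.p0 := ⟨_, hWX, by omega⟩
  set e1 := Nat.find hex1 with he1
  have he1s := Nat.find_spec hex1
  have hex2 : ∃ s, Wt s ∧ e1 < s := ⟨_, hWXX, by
    have := Nat.find_min' hex1 (m := X.length) ⟨hWX, by omega⟩
    rw [ht, List.length_append]; omega⟩
  set e2 := Nat.find hex2 with he2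
  have he2s := Nat.find_spec hex2
  have hgap := hsep e1 e2 he1s.1 he2s.1 he2s.2
  -- the near wall
  let P0 : ℕ × ℕ → Prop := fun p => p.1 < D.K ∧ p.2 < D.K ∧ p.1 ≠ p.2
  let near : ℕ × ℕ → Prop := fun p => ∃ s, Wt s ∧ D.z ≤ s + D.x p.1 - D.x p.2 + D.N ∧
    s + D.x p.1 - D.x p.2 ≤ D.z + D.N ∧ D.x p.2 ≤ s
  let S0 : Finset (ℕ × ℕ) := Finset.range D.K ×ˢ Finset.range D.K
  let Z1 := S0.filter (fun p => p.1 ≠ p.2 ∧ near p)
  let Z2 := S0.filter (fun p => p.1 ≠ p.2 ∧ D.BadT ((e1 - D.p0) + D.x p.1 - D.x p.2))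
  let Z3 := S0.filter (fun p => p.1 ≠ p.2 ∧ D.BadT ((e2 - D.p0) + D.x p.1 - D.x p.2))
  have c1 : Z1.card ≤ 1 := by
    rw [Finset.card_le_one]
    rintro ⟨i, j⟩ hp ⟨k, l⟩ hq
    simp only [Z1, S0, Finset.mem_filter, Finset.mem_product, Finset.mem_range] at hp hq
    obtain ⟨⟨hi, hj⟩, hne, s, hs, a1, a2, a3⟩ := hp
    obtain ⟨⟨hk, hl⟩, hne', s', hs', b1, b2, b3⟩ := hq
    have q1 := D.hp0 i hi
    have q2 := D.hp0 j hj
    have q3 := D.hp0 k hk
    have q4 := D.hp0 l hl
    simp only at a1 a2 a3 b1 b2 b3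
    have hss : s = s' := by
      rcases Nat.lt_trichotomy s s' with h | h | h
      · have := hsep _ _ hs hs' h; omega
      · exact h
      · have := hsep _ _ hs' hs h; omega
    subst hss
    obtain ⟨r1, r2⟩ := D.ruler i j k l hi hj hk hl hne hne' (by omega) (by omega)
    rw [r1, r2]
  have c2 : Z2.card ≤ D.C0 := D.count (e1 - D.p0) (fun i hi => by
      have := D.hp0 i hi; have := he1s.2; omega) Z2 fun p hp => by
    simp only [Z2, S0, Finset.mem_filter, Finset.mem_product, Finset.mem_range] at hp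
    exact ⟨hp.1.1, hp.1.2, hp.2.1, hp.2.2⟩
  have c3 : Z3.card ≤ D.C0 := D.count (e2 - D.p0) (fun i hi => by
      have := D.hp0 i hi; have := he1s.2; omega) Z3 fun p hp => by
    simp only [Z3, S0, Finset.mem_filter, Finset.mem_product, Finset.mem_range] at hp
    exact ⟨hp.1.1, hp.1.2, hp.2.1, hp.2.2⟩
  refine ⟨(Z1 ∪ Z2 ∪ Z3).image Prod.snd, ?_, ?_⟩
  · calc ((Z1 ∪ Z2 ∪ Z3).image Prod.snd).card ≤ (Z1 ∪ Z2 ∪ Z3).card := Finset.card_image_le
      _ ≤ (Z1 ∪ Z2).card + Z3.card := Finset.card_union_le _ _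
      _ ≤ Z1.card + Z2.card + Z3.card := Nat.add_le_add_right (Finset.card_union_le _ _) _
      _ ≤ 1 + 2 * D.C0 := by omega
  · intro k hk hkS k' hk' hne hQ
    apply hkS
    have q1 := D.hp0 k hk
    have q2 := D.hp0 k' hk'
    obtain ⟨Y, hY, hYQ⟩ := hQ
    have hdrop : X.drop (D.x k) ++ X' = t.drop (D.x k) := by
      rw [ht, List.drop_append_of_le_length (by omega)]
    rw [hdrop] at hYQ
    have hYl := hYQ.length_le
    rw [List.length_drop] at hYl
    have htl : t.length = X.length + X'.length := by rw [ht, List.length_append]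
    -- walls of `Y` are walls of `t`
    have htk : ∀ s, D.w.n ≤ s → s ≤ Y.length → D.w.E (Y.take s) → Wt (D.x k + s) := by
      intro s h1 h2 h3
      refine ⟨by omega, ?_⟩
      have e : Y.take s = (t.drop (D.x k)).take s := by
        obtain ⟨q, hq⟩ := hYQ
        rw [← hq, List.take_append_of_le_length h2]
      have hlen : (t.take (D.x k)).length = D.x k := by rw [List.length_take]; omega
      have := (D.w.E_shift (t.take (D.x k)) (t.drop (D.x k)) (s := s) h1
        (by rw [List.length_drop]; omega)).2 (by rw [← e]; exact h3)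
      rwa [List.take_append_drop, hlen] at this
    have htk' : ∀ s, D.x k + D.w.n ≤ s → s ≤ D.x k + Y.length → Wt s →
        D.w.E (Y.take (s - D.x k)) := by
      intro s h1 h2 h3
      have e : Y.take (s - D.x k) = (t.drop (D.x k)).take (s - D.x k) := by
        obtain ⟨q, hq⟩ := hYQ
        rw [← hq, List.take_append_of_le_length (by omega)]
      have hlen : (t.take (D.x k)).length = D.x k := by rw [List.length_take]; omega
      rw [e]
      refine (D.w.E_shift (t.take (D.x k)) (t.drop (D.x k)) (s := s - D.x k) (by omega)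
        (by rw [List.length_drop]; omega)).1 ?_
      rw [List.take_append_drop, hlen, show D.x k + (s - D.x k) = s by omega]
      exact h3.2
    obtain ⟨⟨f1, f2, f3⟩, hst⟩ := hY
    have hYW : Wt (D.x k + Y.length) := htk Y.length (by omega) le_rfl (by
      rw [List.take_length]; exact f1)
    rw [Finset.mem_image]
    rcases hst with h | ⟨s, h1, h2, h3, h4⟩ | h
    · refine ⟨(k', k), ?_, rfl⟩
      simp only [Z1, S0, Finset.mem_union, Finset.mem_filter, Finset.mem_product,
        Finset.mem_range]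
      left; left
      exact ⟨⟨hk', hk⟩, hne, D.x k + Y.length, hYW, by simp only; omega, by simp only; omega,
        by simp only; omega⟩
    · refine ⟨(k', k), ?_, rfl⟩
      simp only [Z1, S0, Finset.mem_union, Finset.mem_filter, Finset.mem_product,
        Finset.mem_range]
      left; left
      exact ⟨⟨hk', hk⟩, hne, D.x k + s, htk s (by omega) (by omega) h4, by simp only; omega,
        by simp only; omega, by simp only; omega⟩
    · -- the end is `e1` or `e2`
      have hge : e1 ≤ D.x k + Y.length := Nat.find_min' hex1 ⟨hYW, by omega⟩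
      rcases Nat.lt_or_ge e1 (D.x k + Y.length) with hlt | hle
      · have hge2 : e2 ≤ D.x k + Y.length := Nat.find_min' hex2 ⟨hYW, hlt⟩
        rcases Nat.lt_or_ge e2 (D.x k + Y.length) with hlt2 | hle2
        · exfalso
          have h5 := he1s.2
          exact f3 (e2 - D.x k) (by omega) (by omega) (htk' e2 (by omega) (by omega) he2s.1)
        · have h6 : e2 = D.x k + Y.length := by omega
          refine ⟨(k', k), ?_, rfl⟩
          simp only [Z3, S0, Finset.mem_union, Finset.mem_filter, Finset.mem_product,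
            Finset.mem_range]
          right
          refine ⟨⟨hk', hk⟩, hne, ?_⟩
          have h7 : e2 - D.p0 + D.x k' - D.x k = Y.length + D.x k' - D.p0 := by omega
          rw [h7]; exact h
      · have h6 : e1 = D.x k + Y.length := by omega
        refine ⟨(k', k), ?_, rfl⟩
        simp only [Z2, S0, Finset.mem_union, Finset.mem_filter, Finset.mem_product,
          Finset.mem_range]
        left; right
        refine ⟨⟨hk', hk⟩, hne, ?_⟩
        have h7 : e1 - D.p0 + D.x k' - D.x k = Y.length + D.x k' - D.p0 := by omega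
        rw [h7]; exact h

theorem c2 (X : List α) (hX : X ∈ D.Bad) (X' : List α) (hX' : X' ∈ D.Bad) (v : V) :
    ∃ P Q, P ++ Q = X ++ X' ∧ P ∈ D.LP2 v ∧ Q ∈ D.RQ2 (D.T (D.T v X) X') := by
  classical
  have hz := D.hz
  have hXl := hX.1.2.1
  obtain ⟨Sp, hSp, hspoil⟩ := D.spoiled X X' hX hX'
  have htl : (X.take D.p0).length = D.p0 := by rw [List.length_take]; omega
  obtain ⟨I, hI, hIk⟩ := D.compl2 (X.take D.p0) v (fun k hk => by rw [htl]; exact D.hp0 k hk)
  have hR := D.hR
  obtain ⟨k, hkI, hkS⟩ : ∃ k ∈ I, k ∉ Sp := by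
    by_contra hcon
    push Not at hcon
    have := Finset.card_le_card (show I ⊆ Sp from hcon)
    omega
  obtain ⟨hk, hl, hr⟩ := hIk k hkI
  have hxk := D.hp0 k hk
  have ePl : (X.take (D.x k)).length = D.x k := by rw [List.length_take]; omega
  rw [List.take_take, Nat.min_eq_left hxk] at hl
  have ed : (X.take D.p0).drop (D.x k) = (X.drop (D.x k)).take (D.p0 - D.x k) := by
    rw [List.drop_take]
  rw [ed] at hr
  obtain ⟨r2, hr2⟩ := Option.isSome_iff_exists.1 hr
  have hXe : X.take (D.x k) ++ X.drop (D.x k) = X := List.take_append_drop _ _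
  have hBS : X.drop (D.x k) ∈ D.BS (D.x k) := by
    have := (D.bad_shift (P := X.take (D.x k)) (Y := X.drop (D.x k)) (by omega)).1
      (by rw [hXe]; exact hX)
    rwa [ePl] at this
  have hYl : D.p0 - D.x k ≤ (X.drop (D.x k)).length := by rw [List.length_drop]; omega
  have hT : D.T v X = D.act r2 (D.vl ((X.drop (D.x k)).drop (D.p0 - D.x k))) +
      D.nu1 ((X.drop (D.x k)).drop (D.p0 - D.x k)) := by
    have := D.T_cut hk ePl hl hYl hr2 rfl
    rwa [hXe] at this
  refine ⟨X.take (D.x k), X.drop (D.x k) ++ X', ?_, ⟨k, hk, ePl, hl⟩, ?_⟩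
  · rw [← List.append_assoc, hXe]
  · refine ⟨k, hk, ⟨⟨_, hBS, List.prefix_append _ _⟩, fun k' hk' => ?_⟩, D.T v X, trivial,
      Language.mem_mul.2 ⟨_, ⟨hBS, hYl, r2, hr2, hT.symm⟩, X', ⟨hX'.1, rfl⟩, rfl⟩⟩
    exact hspoil k hk hkS k' hk'.1 hk'.2

end Dat

end Crest.Agent.R320.Inst_100
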