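import Crest.Agent.R320.Inst2_134

/-!
# Row 320: level two (helper134)
-/

set_option autoImplicit false

namespace Crest.Agent.R320.Inst_134

open Crest.RegLang Crest.Agent.R320.Hk_851 Crest.Agent.R320.Asm_505

universe u

variable {α : Type u}

section level2

variable {S V : Type} [Monoid S] [AddCommGroup V] {f : α → S} {act : V → S → V}
variable {Wo : List α → Prop} {z p0 N1 : ℕ} {nu1 nu2 : List α → V}
variable {BadT : ℕ → Prop} {K : ℕ} {c : ℕ → ℕ} {lam2 rho2 : ℕ → List α → Option V} {n W : ℕ}

theorem bd_app (hW : LW Wo n W) (P Q : List α) (hz : n + P.length + N1 ≤ z) :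
    bd Wo z p0 N1 BadT 0 (P ++ Q) ↔ bd Wo z p0 N1 BadT P.length Q := by
  unfold bd
  rw [List.length_append, Nat.zero_add]
  refine or_congr_left ?_
  constructor
  · rintro ⟨s, h1, h2, h3, h4⟩
    rw [take_app' P Q (by omega)] at h4
    refine ⟨s - P.length, by omega, by omega, by omega, ?_⟩
    exact (hW.loc _ _ (by rw [List.length_take]; omega)).1 h4
  · rintro ⟨s, h1, h2, h3, h4⟩
    refine ⟨P.length + s, by omega, by omega, by omega, ?_⟩
    rw [take_app]
    exact (hW.loc _ _ (by rw [List.length_take]; omega)).2 h4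

theorem cand_of (hW : LW Wo n W) (P Q : List α) (hz : n + P.length + N1 ≤ z) {t : ℕ}
    (ht : t ≤ P.length + Q.length) (h1 : First Wo z ((P ++ Q).take t))
    (h2 : bd Wo z p0 N1 BadT 0 ((P ++ Q).take t)) : cand Wo z p0 N1 BadT P.length Q := by
  have h3 := h1.1.1
  rw [List.length_take] at h3
  rw [take_app' P Q (by omega)] at h1 h2
  refine ⟨t - P.length, by omega, (First_app hW _ _ (by omega)).1 h1, (bd_app hW _ _ hz).1 h2⟩

theorem value2 (hW : LW Wo n W) {P Q : List α} {t : ℕ} (hP : P.length ≤ p0) (hz : n + p0 + N1 ≤ z)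
    (hp : p0 ≤ P.length + t)
    (h : Blk Wo (z - P.length) Q t) (v : V) :
    eps f act Wo z p0 nu1 nu2 (P ++ Q) v =
      act (tl f act nu1 ((Q.take t).drop (p0 - P.length))
        (act v (ph f (P ++ Q.take (p0 - P.length))) + nu2 (P ++ Q.take (p0 - P.length))))
        (ph f (Q.drop t)) := by
  have hPQ : Blk Wo z (P ++ Q) (P.length + t) := (Blk_app hW P Q (by omega)).2 h
  have hd : (P ++ Q).drop (P.length + t) = Q.drop t := by
    rw [List.drop_append, List.drop_of_length_le (by omega), List.nil_append]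
    congr 1; omega
  have hd2 : (P ++ Q.take t).drop p0 = (Q.take t).drop (p0 - P.length) := by
    rw [List.drop_append, List.drop_of_length_le hP, List.nil_append]
  rw [eps_eq hW hPQ, take_app, hd, hd2, take_app' P Q hP]

theorem level2 (hW : LW Wo n W) (hz : n + p0 + N1 ≤ z) (hWp : p0 ≤ W)
    (hc0 : ∀ k < K, 0 < c k) (hcp : ∀ k < K, c k ≤ p0)
    (hs : ∀ k < K, ∀ (P Q : List α) (v b : V), P.length = c k → lam2 k P = some v →
      rho2 k Q = some b → b = act v (ph f (P ++ Q)) + nu2 (P ++ Q))
    (R : ℕ)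
    (hc : ∀ (u : List α) (v : V), u.length = p0 → ∃ I : Finset ℕ, R ≤ I.card ∧
      ∀ k ∈ I, k < K ∧ lam2 k (u.take (c k)) = some v ∧ (rho2 k (u.drop (c k))).isSome)
    (hsp : ∀ (X : List α) (t : ℕ), Blk Wo z X t → ∃ A : Finset ℕ, A.card < R ∧
      ∀ k < K, k ∉ A → ∀ k' < K, k' ≠ k → ¬ cand Wo z p0 N1 BadT (c k') (X.drop (c k))) :
    Level (B Wo z p0 N1 BadT) 0 (eps f act Wo z p0 nu1 nu2)
      (P2 K c lam2) (R2 f act Wo z p0 N1 nu1 BadT K c rho2) where
  pne := by
    rintro x ⟨k, hk, h, -⟩
    have := hc0 k hk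
    simp at h
    omega
  sound := by
    rintro X ⟨⟨tX, hX⟩, t0, ht0, hF0, hb0⟩ x y P ⟨k0, hk0, hPl, hl⟩ Q
      ⟨k, hk, hu, t, hQ, w, hw, hy⟩ hcomp
    have hck0 := hcp k0 hk0
    have hck := hcp k hk
    have e0 : t0 = tX := First_uniq ht0 hX.1.le hF0 hX.2.1
    subst e0
    have hz0 : z ≤ t0 := by
      have := hF0.1.1; rw [List.length_take] at this; omega
    have hvis : t0 ≤ P.length + Q.length := by
      rcases hcomp with h | h
      · have := h.length_le
        rw [List.length_append] at this
        omega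
      · by_contra hh
        have h1 : t + W ≤ Q.length := by
          refine hW.sep Q t Q.length hQ.1 le_rfl hQ.2.1.1.2 ?_
          rw [List.take_length]; exact hQ.2.2.1
        have h2 := hQ.2.1.1.1
        rw [List.length_take] at h2
        obtain ⟨Y, hY⟩ := h
        refine hF0.2 (P.length + Q.length) (by rw [List.length_take]; omega) ⟨?_, ?_⟩
        · rw [List.take_take, Nat.min_eq_left (by omega), List.length_take, ← hY]
          simp only [List.length_append]
          omega
        · rw [List.take_take, Nat.min_eq_left (by omega), ← hY,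
            List.take_append_of_le_length (by rw [List.length_append]),
            List.take_of_length_le (by rw [List.length_append])]
          exact (hW.loc _ _ (by omega)).2 hQ.2.2.1
    have htake : X.take t0 = (P ++ Q).take t0 := by
      rcases hcomp with ⟨Y, hY⟩ | ⟨Y, hY⟩
      · rw [← hY, List.take_append_of_le_length ht0]
      · rw [← hY, List.take_append_of_le_length (by rw [List.length_append]; omega)]
    rw [htake] at hF0 hb0
    have hcand : cand Wo z p0 N1 BadT (c k0) Q := by
      rw [← hPl]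
      exact cand_of hW P Q (by omega) hvis hF0 hb0
    have ek : k0 = k := (hu k0 hk0).1 hcand
    subst ek
    rw [← hPl] at hQ hw hy
    have hPQ : Blk Wo z (P ++ Q) (P.length + t) := (Blk_app hW P Q (by omega)).2 hQ
    have e : X = P ++ Q := by
      rcases hcomp with h | h
      · exact (PC_U Wo z).pc X ⟨_, hX⟩ _ ⟨_, hPQ⟩ h
      · exact ((PC_U Wo z).pc _ ⟨_, hPQ⟩ X ⟨_, hX⟩ h).symm
    refine ⟨e, ?_⟩
    have h2 := hQ.2.1.1.1
    rw [List.length_take] at h2
    rw [e, value2 hW (by omega) hz (by omega) hQ, ← hy]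
    have hw' := hs k0 hk0 P (Q.take (p0 - P.length)) x w hPl hl hw
    rw [hw']
  compl := by
    rintro X ⟨⟨t, hX⟩, t0, ht0, hF0, hb0⟩ - v
    have e0 : t0 = t := First_uniq ht0 hX.1.le hF0 hX.2.1
    subst e0
    have hz0 : z ≤ t0 := by
      have := hF0.1.1; rw [List.length_take] at this; omega
    have hXl := hX.1
    obtain ⟨I, hI, hI2⟩ := hc (X.take p0) v (by rw [List.length_take]; omega)
    obtain ⟨A, hA, hA2⟩ := hsp X t0 hX
    obtain ⟨k, hkI, hkA⟩ : ∃ k ∈ I, k ∉ A := by
      by_contra hcon
      push Not at hcon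
      have := Finset.card_le_card (show I ⊆ A from hcon)
      omega
    obtain ⟨hk, hl, hr⟩ := hI2 k hkI
    obtain ⟨w, hw⟩ := Option.isSome_iff_exists.1 hr
    have hck := hcp k hk
    have hPl : (X.take (c k)).length = c k := by rw [List.length_take]; omega
    have hXX : X.take (c k) ++ X.drop (c k) = X := List.take_append_drop _ _
    have hQb : Blk Wo (z - c k) (X.drop (c k)) (t0 - c k) := by
      have h1 : Blk Wo z (X.take (c k) ++ X.drop (c k)) ((X.take (c k)).length + (t0 - c k)) := by
        rw [hXX, hPl]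
        have : c k + (t0 - c k) = t0 := by omega
        rw [this]; exact hX
      have h2 := (Blk_app hW _ _ (by rw [hPl]; omega)).1 h1
      rw [hPl] at h2
      exact h2
    have hcand : cand Wo z p0 N1 BadT (c k) (X.drop (c k)) := by
      have h1 : First Wo z ((X.take (c k) ++ X.drop (c k)).take t0) := by rw [hXX]; exact hF0
      have h2 : bd Wo z p0 N1 BadT 0 ((X.take (c k) ++ X.drop (c k)).take t0) := by
        rw [hXX]; exact hb0
      have h3 := cand_of hW (X.take (c k)) (X.drop (c k)) (by rw [hPl]; omega)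
        (by rw [hPl, List.length_drop]; omega) h1 h2
      rw [hPl] at h3
      exact h3
    have hl' : lam2 k (X.take (c k)) = some v := by
      rw [List.take_take, Nat.min_eq_left hck] at hl; exact hl
    have hw' : rho2 k ((X.drop (c k)).take (p0 - c k)) = some w := by
      rw [List.drop_take] at hw; exact hw
    refine ⟨X.take (c k), ⟨k, hk, hPl, hl'⟩, X.drop (c k), ⟨k, hk, ?_, t0 - c k, hQb, w, hw', ?_⟩,
      hXX.symm⟩
    · intro k' hk'
      constructor
      · intro h
        by_contra hne
        exact hA2 k hk hkA k' hk' hne h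
      · rintro rfl; exact hcand
    · have hv := value2 (f := f) (act := act) (nu1 := nu1) (nu2 := nu2) hW
        (P := X.take (c k)) (Q := X.drop (c k)) (t := t0 - c k) (p0 := p0) (by omega) hz
        (by omega) (by rw [hPl]; exact hQb) v
      rw [hXX, hPl] at hv
      rw [hv]
      have hww := hs k hk (X.take (c k)) ((X.drop (c k)).take (p0 - c k)) v w hPl hl' hw'
      rw [hww]

end level2

end Crest.Agent.R320.Inst_134
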