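import Crest.Agent.R320.Inst2_259

/-!
# Row 320, instance part 3 (helper259): completeness of scheme 2 on pairs of critical blocks
-/

set_option autoImplicit false

namespace Crest.Agent.R320.Inst_259

open Crest.Agent.R320.Hk_851 Crest.Agent.R320.Code110 Crest.Agent.R320.FewWalls_228
open Finset (range)

universe u

variable {A : Type u} {n z k : ℕ} {F : Set (List A)}
variable {S V : Type*} [Monoid S] [AddCommGroup V] {φ : List A → S} {act : V → S → V} {p0 : ℕ}
  {nu2 nu1 : List A → V} {N1 : ℕ} {BadT : ℕ → Prop}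

open Classical in
theorem C2 {c : ℕ → ℕ} {K R C0 C1 D0 : ℕ} {lam2 rho2 : ℕ → List A → Option V}
    (hgs : ∀ k < K, ∀ (P Q : List A) (v b : V), P.length = c k → lam2 k P = some v →
      rho2 k Q = some b → b = act v (φ (P ++ Q)) + nu2 (P ++ Q))
    (hgc : ∀ (X : List A) (v : V), X.length = p0 → ∃ I : Finset ℕ, R ≤ I.card ∧ ∀ k ∈ I, k < K ∧
      lam2 k (X.take (c k)) = some v ∧ (rho2 k (X.drop (c k))).isSome)
    (hcp : ∀ k < K, c k ≤ p0)
    (hsp : ∀ Tt, (∀ i < K, c i ≤ Tt) → ((range K ×ˢ range K).filter (fun ij => ij.1 ≠ ij.2 ∧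
      BadT (Tt + c ij.2 - c ij.1))).card ≤ C0)
    (hspE : ∀ Tt, (∀ i < K, c i ≤ Tt) → ((range K ×ˢ range K).filter (fun ij => ij.1 ≠ ij.2 ∧
      (z < Tt + c ij.2 - c ij.1 + N1 ∧ Tt + c ij.2 - c ij.1 < z + N1))).card ≤ C1)
    (hR : C1 + C0 + C0 < R)
    (gap : ∀ (w : List A) t t', t < t' → Wp n F w t → Wp n F w t' → t + (2 * D0 + 1) ≤ t')
    (hD0 : ∀ k < K, c k + N1 ≤ D0) (hz : D0 + D0 + n + p0 < z)
    (u : List A) (hu : u ∈ Bad n z p0 N1 F BadT) (x : V)
    (t : List A) (ht : t ∈ Bad n z p0 N1 F BadT) :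
    ∃ p q y, u ++ t = p ++ q ∧ p ∈ L2 K c lam2 x ∧
      q ∈ Rsem (XX n z F) (Bad n z p0 N1 F BadT) (T φ act p0 nu2 nu1) 1 (L2 K c lam2) y := by
  have hu0 := hu.1.1
  have ht0 := ht.1.1
  obtain ⟨ts, hts, hts0⟩ : ∃ ts, (∀ s, z ≤ s + D0 → s ≤ z + D0 → Wp n F (u ++ t) s → s = ts) ∧
      z ≤ ts + D0 := by
    by_cases h : ∃ s, z ≤ s + D0 ∧ s ≤ z + D0 ∧ Wp n F (u ++ t) s
    · obtain ⟨ts, h1, h2, h3⟩ := h
      refine ⟨ts, fun s h4 h5 h6 => ?_, h1⟩
      rcases Nat.lt_trichotomy s ts with h7 | h7 | h7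
      · have := gap _ _ _ h7 h6 h3; omega
      · exact h7
      · have := gap _ _ _ h7 h3 h6; omega
    · exact ⟨z, fun s h1 h2 h3 => (h ⟨s, h1, h2, h3⟩).elim, by omega⟩
  obtain ⟨tp, htp, htpW, htpm⟩ : ∃ tp, z + D0 < tp ∧ Wp n F (u ++ t) tp ∧
      ∀ s, z + D0 < s → s < tp → ¬ Wp n F (u ++ t) s := by
    have hex : ∃ s, z + D0 < s ∧ Wp n F (u ++ t) s :=
      ⟨u.length + t.length, by omega, (wp_append (by omega)).2 ht.1.2.1⟩
    exact ⟨Nat.find hex, (Nat.find_spec hex).1, (Nat.find_spec hex).2,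
      fun s h1 h2 h3 => Nat.find_min hex h2 ⟨h1, h3⟩⟩
  set f1 := (range K ×ˢ range K).filter (fun ij => ij.1 ≠ ij.2 ∧
      (z < ts + c ij.2 - c ij.1 + N1 ∧ ts + c ij.2 - c ij.1 < z + N1)) with hf1
  set f2 := (range K ×ˢ range K).filter (fun ij => ij.1 ≠ ij.2 ∧
      BadT ((ts - p0) + c ij.2 - c ij.1)) with hf2
  set f3 := (range K ×ˢ range K).filter (fun ij => ij.1 ≠ ij.2 ∧
      BadT ((tp - p0) + c ij.2 - c ij.1)) with hf3
  have k1 : f1.card ≤ C1 := hspE ts fun i hi => by have := hD0 i hi; omega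
  have k2 : f2.card ≤ C0 := hsp (ts - p0) fun i hi => by have := hD0 i hi; omega
  have k3 : f3.card ≤ C0 := hsp (tp - p0) fun i hi => by have := hD0 i hi; omega
  have kc : ((f1 ∪ f2 ∪ f3).image Prod.fst).card ≤ C1 + C0 + C0 := by
    refine Finset.card_image_le.trans ((Finset.card_union_le _ _).trans ?_)
    have := Finset.card_union_le f1 f2
    omega
  obtain ⟨I, hI1, hI2⟩ := hgc (u.take p0) x (by simp; omega)
  obtain ⟨k, hkI, hkS⟩ := Finset.exists_mem_notMem_of_card_lt_card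
    (s := (f1 ∪ f2 ∪ f3).image Prod.fst) (t := I) (by omega)
  obtain ⟨hkK, hk1, hk2⟩ := hI2 k hkI
  have hck := hcp k hkK
  have hkD := hD0 k hkK
  have hns : ∀ k' < K, k ≠ k' → (k, k') ∉ f1 ∧ (k, k') ∉ f2 ∧ (k, k') ∉ f3 := by
    intro k' _ _
    refine ⟨fun h => hkS ?_, fun h => hkS ?_, fun h => hkS ?_⟩ <;>
      exact Finset.mem_image.2 ⟨(k, k'), by simp [h], rfl⟩
  obtain ⟨b, hb⟩ := Option.isSome_iff_exists.1 hk2
  rw [List.take_take, Nat.min_eq_left hck] at hk1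
  set Q1 := (u.take p0).drop (c k) with hQ1
  have ePX : u.take (c k) ++ Q1 = u.take p0 := by
    have := List.take_append_drop (c k) (u.take p0)
    rwa [List.take_take, Nat.min_eq_left hck] at this
  have eQ : u.drop (c k) = Q1 ++ u.drop p0 := by
    have h := List.take_append_drop p0 u
    have h2 : (u.take p0 ++ u.drop p0).drop (c k) = Q1 ++ u.drop p0 := by
      rw [List.drop_append_of_le_length (by simp; omega)]
    rwa [h] at h2
  have hPl : (u.take (c k)).length = c k := by simp; omega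
  refine ⟨u.take (c k), u.drop (c k) ++ t, T φ act p0 nu2 nu1 t (T φ act p0 nu2 nu1 u x),
    by rw [← List.append_assoc, List.take_append_drop], ⟨k, hkK, hPl, hk1⟩, ?_⟩
  rintro x' p' ⟨k', hk', hl', hlam'⟩
  by_cases hkk : k = k'
  · subst hkk
    have hX' : p' ++ u.drop (c k) ∈ XX n z F := by
      have hu1 := hu.1
      rw [← List.take_append_drop (c k) u] at hu1
      exact swap hu1 (by rw [hPl, hl']) (by rw [hPl]; omega)
    have hval : T φ act p0 nu2 nu1 (p' ++ u.drop (c k)) x' = T φ act p0 nu2 nu1 u x := by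
      have h1 := hgs k hkK p' Q1 x' b hl' hlam' hb
      have h2 := hgs k hkK (u.take (c k)) Q1 x b hPl hk1 hb
      rw [ePX] at h2
      rw [eQ, ← List.append_assoc, T_append (by
        rw [List.length_append, hl', hQ1, List.length_drop, List.length_take]; omega), ← h1]
      unfold T
      rw [← h2]
    by_cases hXB : p' ++ u.drop (c k) ∈ Bad n z p0 N1 F BadT
    · left
      refine ⟨T φ act p0 nu2 nu1 u x, Language.mem_mul.2 ⟨p' ++ u.drop (c k), ⟨hXB, hval⟩, t,
        ⟨T φ act p0 nu2 nu1 t (T φ act p0 nu2 nu1 u x), Language.mem_mul.2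
          ⟨t, ⟨ht, rfl⟩, [], ⟨rfl, rfl⟩, List.append_nil _⟩⟩, by rw [List.append_assoc]⟩⟩
    · right
      left
      exact ⟨p' ++ u.drop (c k), hX', hXB, t, by rw [List.append_assoc]⟩
  · obtain ⟨g1, g2, g3⟩ := hns k' hk' hkk
    have hk'D := hD0 k' hk'
    have mm : (k, k') ∈ range K ×ˢ range K :=
      Finset.mem_product.2 ⟨Finset.mem_range.2 hkK, Finset.mem_range.2 hk'⟩
    obtain ⟨X, hX1, hX2, hX3⟩ := cand (n := n) (z := z) (F := F) (p0 := p0) (N1 := N1)
      (BadT := BadT) (D0 := D0) (w := u ++ t) (P := u.take (c k)) (P' := p')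
      (R := u.drop (c k) ++ t) (by rw [← List.append_assoc, List.take_append_drop])
      hts hts0 htp htpW htpm (by omega) (by omega) (by omega)
      (fun h => g1 (Finset.mem_filter.2 ⟨mm, hkk, by rw [hPl, hl'] at h; exact h⟩))
      (fun h => g2 (Finset.mem_filter.2 ⟨mm, hkk, by
        rw [hPl, hl'] at h
        show BadT (ts - p0 + c k' - c k)
        rw [show ts - p0 + c k' - c k = ts + c k' - c k - p0 by omega]; exact h⟩))
      (fun h => g3 (Finset.mem_filter.2 ⟨mm, hkk, by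
        rw [hPl, hl'] at h
        show BadT (tp - p0 + c k' - c k)
        rw [show tp - p0 + c k' - c k = tp + c k' - c k - p0 by omega]; exact h⟩))
    right
    left
    exact ⟨X, hX1, hX2, hX3⟩

end Crest.Agent.R320.Inst_259
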