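import Crest.Agent.R320.Inst2_534
import Crest.Agent.R320.UGI_157
import Crest.Agent.R320.Uni_366

/-!
# Row 320: the closed theorem over the instance `Inst1_534`, `Inst2_534` (helper534)

Gadget `UGI_157.ugi`, exact gadget `ExactR_237`, walls `WallU_228.walls_full`.
-/

set_option autoImplicit false

namespace Crest.Agent.R320.Inst534

open Crest.RegLang Crest.Agent.R320.Hk_851 Crest.Agent.R320

theorem HL_prod (α : Type) [Finite α] (S : Type) [Monoid S] [Finite S] (φ : α → S) (s : S) :
    HL 3 ({w | (w.map φ).prod = s} : Language α) := by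
  classical
  haveI := Fintype.ofFinite S
  haveI := Fintype.ofFinite α
  let V : Type := S → S → ZMod 2
  letI : AddCommGroup V := inferInstanceAs (AddCommGroup (S → S → ZMod 2))
  haveI : Finite V := inferInstanceAs (Finite (S → S → ZMod 2))
  haveI := Fintype.ofFinite V
  let act : V → S → V := fun v s x => v (s * x)
  have hadd : ∀ v w s, act (v + w) s = act v s + act w s := fun v w s => rfl
  have hone : ∀ v, act v 1 = v := fun v => by
    funext x
    show v (1 * x) = v x
    rw [one_mul]
  have hmul : ∀ v s t, act (act v s) t = act v (s * t) := fun v s t => by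
    funext x
    show v (s * (t * x)) = v (s * t * x)
    rw [mul_assoc]
  let v0 : V := fun x y => if x = y then 1 else 0
  have hinj : Function.Injective (act v0) := by
    intro a b hab
    have h1 := congrFun (congrFun hab 1) b
    have h2 : (if a * 1 = b then (1 : ZMod 2) else 0) = if b * 1 = b then 1 else 0 := h1
    rw [mul_one, mul_one, if_pos rfl] at h2
    by_contra hne
    rw [if_neg hne] at h2
    exact absurd h2 (by decide)
  obtain ⟨C0, HU⟩ := UGI_157.ugi S V act
  obtain ⟨K, HE⟩ := Crest.Agent.R320.ExactR_237.exact_gadget α S V φ act (2 * C0 + 2)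
  obtain ⟨N1, Pm, La, c, Bd, hPm, hNL, hcs, -, hrul, hper, hthin, hgad⟩ := HU K 0
  obtain ⟨lam, rho, nu1, hlen, -, hsnd, hcmp, hfs⟩ :=
    hgad (Fin_517.ev φ) (Fin_517.ev_append φ)
  set Λ : ℕ := c K + 1 with hΛ
  have hcΛ : ∀ k < K, c k + 1 ≤ Λ := by
    intro k hk
    have := hcs k K hk
    omega
  obtain ⟨lam2, rho2, nu2, hs2, hc2⟩ := HE (fun k => c k + 1) (fun i j hij _ => by
    have := hcs i j hij
    show c i + 1 < c j + 1
    omega)
  obtain ⟨n, cc, P0, Ss, hn, hP0, hloc, hsep, -, -, hfew⟩ :=
    WallU_228.walls_full (α := α) (2 * (Λ + N1) + 2)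
  let D : Dt α S V :=
    { ph := Fin_517.ev φ
      act := act
      n := n
      z := Λ + N1 + n + Λ + (La + Λ) + 1
      p0 := Λ
      N1 := N1
      La := La + Λ
      K := K
      Λ := Λ
      C0 := C0
      R := 2 * C0 + 2
      Wo := WallU_228.Wo n Ss
      c := fun k => c k + 1
      Bd := Bd
      lam := lam
      rho := rho
      nu1 := nu1
      lam2 := lam2
      rho2 := fun k Q => rho2 k Q 1
      nu2 := fun u => nu2 u 1 }
  have hOk : D.Ok :=
    { ph_app := Fin_517.ev_append φ
      act_mul := fun v s t => (hmul v s t).symm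
      act_add := hadd
      loc := hloc
      gap := by
        intro X s t hst ht hs htw
        by_contra hc
        have hc' : ¬ (2 * (Λ + N1) + 2 < t - s) := hc
        have h1 := hsep (X.take t) (t - s) htw (by omega) (by omega)
        apply h1
        rw [List.length_take, List.take_take, show min (min t X.length - (t - s)) t = s by omega]
        exact hs
      hc := hcΛ
      hcp := le_rfl
      hz := le_rfl
      inj := fun i j hij _ => by
        have := hcs i j hij
        show c i + 1 < c j + 1
        omega
      ruler := by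
        intro i j k l _ _ _ _ hij hkl hne
        have h1 := hrul i j k l hij hkl hne
        show (c i + 1) + (c l + 1) + 4 * N1 < (c k + 1) + (c j + 1) ∨
          (c k + 1) + (c j + 1) + 4 * N1 < (c i + 1) + (c l + 1)
        rw [lt_abs] at h1
        push_cast at h1
        omega
      thin := by
        intro T hT F hF
        have hT' : La + Λ ≤ T := hT
        have h1 := hthin T (fun i hi => by have := hcΛ i hi; omega)
        refine le_trans ?_ h1
        rw [← Finset.card_image_of_injective F Prod.swap_injective]
        apply Finset.card_le_card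
        intro p hp
        obtain ⟨q, hq, rfl⟩ := Finset.mem_image.1 hp
        obtain ⟨g1, g2, g3, g4⟩ := hF q hq
        have g1' : q.1 < K := g1
        have g2' : q.2 < K := g2
        have g4' : Bd (T + (c q.2 + 1) - (c q.1 + 1)) := g4
        rw [Finset.mem_filter, Finset.mem_product, Finset.mem_range, Finset.mem_range]
        refine ⟨⟨g2', g1'⟩, fun he => g3 he.symm, ?_⟩
        show Bd (T + c q.2 - c q.1)
        rwa [show T + (c q.2 + 1) - (c q.1 + 1) = T + c q.2 - c q.1 by omega] at g4'
      lamlen := hlen
      snd := fun P Q v b h1 h2 _ => hsnd P Q v b h1 h2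
      cmp := by
        intro Y hY hB v
        have hY' : La + Λ + N1 ≤ Y.length := hY
        exact hcmp Y (by omega) hB v
      snd2 := by
        intro k hk P Q v b h1 h2 h3
        have := hs2 k hk P Q 1 v b h1 h2 h3
        rw [mul_one] at this
        exact this
      cmp2 := by
        intro u v hu
        have hu' : u.length = Λ := hu
        exact hc2 u 1 v (fun k hk => by
          have := hcΛ k hk
          show c k + 1 ≤ u.length
          omega)
      hR := le_rfl }
  have hfs' : FS D La Pm := fun q q' h1 h2 h3 h4 h5 => (hfs q q' h1 h2 h3 h4 h5).2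
  set B : ℕ := D.z + N1 with hB
  have hz : D.z = Λ + N1 + n + Λ + (La + Λ) + 1 := rfl
  have hHL : ∀ R : List α → Prop, P4_440.Resp D.ph B Pm R →
      HL 1 ({X | X ∈ D.XX ∧ R X} : Language α) := by
    intro R hR
    exact (P4_440.HL_block (φ := D.ph) (n := n) (S := Ss) (z := D.z) (B := B) (P := Pm)
      (Fin_517.ev_append φ) (by omega) (by omega) hPm hfew hR).congr fun w => Iff.rfl
  have hBL : ∀ v v', HL 3 (Blk_517.BL D.XX D.T v v') :=
    bl3 hOk hfs' hper (by show Λ + La ≤ B; omega) (by show D.z + N1 ≤ B; omega)
      (fun k _ => Nat.succ_pos _) hHL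
  have hRest : ∀ s, HL 3 (Fin_517.RR φ D.XX s) := by
    intro s
    have h1 := P4_440.HL_rest (φ := D.ph) (n := n) (S := Ss) (z := D.z) (B := B) (P := Pm)
      (R := fun E => Fin_517.ev φ E = s)
      (Fin_517.ev_append φ) (by omega) (by omega) hPm hfew (by
        intro w w' hw hw' ht hd hm
        have e0 : Fin_517.ev φ w = Fin_517.ev φ w' := by
          have := ph_drop hOk (Nat.zero_le B) hw hw' ht hd
          simpa using this
        show _ = s ↔ _ = s
        rw [e0])
    exact (h1.mono (by omega)).congr fun w => Iff.rfl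
  exact Fin_517.final_of_BL φ act hadd hone hmul v0 hinj (D.pcode hOk) (T := D.T) D.nu
    (fun v X => rfl) hBL hRest s

/-- **Row 320.** -/
theorem row (α : Type*) [Finite α] (L : Language α) (hL : L.IsRegular) :
    ∃ e : GRegExp α, e.height ≤ 3 ∧ e.lang = L :=
  Uni_366.final1 (fun α _ S _ _ φ s => HL_prod α S φ s) α L hL

end Crest.Agent.R320.Inst534
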