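import Crest.Agent.R320.Inst2_782

/-!
# Row 320, concrete instance, part 3: scheme 2 (promise ruler + exact gadget as hypothesis)
-/

set_option autoImplicit false
set_option linter.unusedSectionVars false

namespace Crest.Agent.R320.Inst_782

open Crest.RegLang Crest.Agent.R320.Hk_851 Crest.Agent.R320.Level_297

universe u

variable {α : Type u} {V S : Type} [Monoid S] [AddCommGroup V] (D : Dat α V S)

/-- the exact gadget of scheme 2 with a ruler -/
structure Gad2 where
  K : ℕ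
  c : ℕ → ℕ
  lam : ℕ → List α → Option V
  rho : ℕ → List α → Option V
  cn : ∀ k < K, D.w.n ≤ c k
  cp : ∀ k < K, c k ≤ D.p0
  inj : ∀ k k', k < K → k' < K → c k = c k' → k = k'
  span : ∀ k k', k < K → k' < K → c k ≤ c k' + D.w.W
  sound : ∀ k < K, ∀ (P Q : List α) v b, P.length = c k → P.length + Q.length = D.p0 →
    lam k P = some v → rho k Q = some b →
    D.act v (pr D.φ (P ++ Q)) + D.nu2 (P ++ Q) = b
  compl : ∀ Q t l, D.ZN Q t l → D.BadC Q 0 t → ∀ v, ∃ k < K, lam k (Q.take (c k)) = some v ∧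
    (rho k ((Q.take D.p0).drop (c k))).isSome ∧ ∀ k' < K, k' ≠ k → ∀ t',
      FW D.w (Q.drop (c k)) (D.z - c k') t' → ¬ D.BadC (Q.drop (c k)) (c k') t'

variable {D} (g : Gad2 D)

def Gad2.LL (P : List α) (v : V) : Prop := ∃ k < g.K, P.length = g.c k ∧ g.lam k P = some v

/-- label behind the zone -/
def Gad2.val (Q : List α) (k t d : ℕ) (b0 : V) : V :=
  D.act (D.act b0 (pr D.φ ((Q.take t).drop (D.p0 - g.c k))) +
    D.nu1 ((Q.take t).drop (D.p0 - g.c k))) (pr D.φ ((Q.take d).drop t))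

def Gad2.RL (Q : List α) (d : ℕ) (c' : V) : Prop :=
  ∃ k t b0, k < g.K ∧ FW D.w Q (D.z - g.c k) t ∧ FW D.w Q (t + 1) d ∧ D.BadC Q (g.c k) t ∧
    (∀ k' < g.K, k' ≠ k → ∀ t', FW D.w Q (D.z - g.c k') t' → ¬ D.BadC Q (g.c k') t') ∧
    g.rho k (Q.take (D.p0 - g.c k)) = some b0 ∧ c' = g.val Q k t d b0

theorem Gad2.vis {Q : List α} {k t d : ℕ} (hk : k < g.K) (ht : FW D.w Q (D.z - g.c k) t)
    (hd : FW D.w Q (t + 1) d) {k' : ℕ} (hk' : k' < g.K) :
    ∃ t', FW D.w Q (D.z - g.c k') t' ∧ t' ≤ d := by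
  have hz := D.hz
  have h1 := g.cp k hk
  have h2 := g.cp k' hk'
  have h3 := g.span k k' hk hk'
  have h4 := D.w.far ht.2.2.1 hd.2.2.1 (by have := hd.1; omega)
  have h5 := ht.1
  obtain ⟨t', a, b⟩ := FW.exists (w := D.w) (Q := Q) (k := D.z - g.c k') (t := d) (by omega)
    hd.2.1 hd.2.2.1
  exact ⟨t', a, b⟩

/-- the true candidate -/
theorem Gad2.true_cand {P Q : List α} {k t : ℕ} (hk : k < g.K) (hP : P.length = g.c k) :
    FW D.w (P ++ Q) D.z (P.length + t) ↔ FW D.w Q (D.z - g.c k) t := by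
  have hz := D.hz
  have h1 := g.cp k hk
  constructor
  · intro h
    rw [show D.z = P.length + (D.z - g.c k) by omega] at h
    exact h.unshift
  · intro h
    have := h.shift (P := P)
    rwa [show P.length + (D.z - g.c k) = D.z by omega] at this

/-- visible and not bad -/
def Dat.Dead2 (D : Dat α V S) : Language α := {Q | ∃ t, FW D.w Q D.z t ∧ ¬ D.BadC Q 0 t}

theorem Gad2.exact {P Q : List α} {v c' : V} {d : ℕ} (hL : g.LL P v) (hR : g.RL Q d c')
    (hD : P ++ Q ∉ D.Dead2) :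
    ∃ f, D.b.nx (P ++ Q) = some (P.length + d, f) ∧ f v = c' := by
  have hz := D.hz
  obtain ⟨k0, hk0, hP, hl⟩ := hL
  obtain ⟨k, t, b0, hk, ht, hd, hbad, hu, hr, rfl⟩ := hR
  obtain ⟨t0, ht0, _⟩ := g.vis hk ht hd hk0
  have h1 : FW D.w (P ++ Q) D.z (P.length + t0) := (g.true_cand hk0 hP).2 ht0
  have hb0 : D.BadC Q (g.c k0) t0 := by
    by_contra hc
    refine hD ⟨P.length + t0, h1, fun hB => hc ?_⟩
    exact (D.BadC_shift hP (g.cp k0 hk0)).1 hB
  have hkk : k0 = k := by
    by_contra hne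
    exact hu k0 hk0 hne t0 ht0 hb0
  subst hkk
  have htt : t0 = t := ht0.uniq ht
  subst htt
  have h2 : FW D.w (P ++ Q) (P.length + t0 + 1) (P.length + d) := by
    have := hd.shift (P := P)
    rwa [show P.length + (t0 + 1) = P.length + t0 + 1 by omega] at this
  have hcp := g.cp k0 hk0
  have ht1 := ht.1
  have ht2 := ht.2.1
  refine ⟨_, D.b_iff.2 ⟨P.length + t0, ⟨h1, h2⟩, (D.BadC_shift hP hcp).2 hbad, rfl⟩, ?_⟩
  have hX : (P ++ Q).take D.p0 = P ++ Q.take (D.p0 - g.c k0) := by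
    rw [show D.p0 = P.length + (D.p0 - g.c k0) by omega, List.take_length_add_append]
    congr 2
    omega
  have hs := g.sound k0 hk P (Q.take (D.p0 - g.c k0)) v b0 hP
    (by rw [List.length_take]; omega) hl hr
  have e2 : ((P ++ Q).take (P.length + t0)).drop D.p0 = (Q.take t0).drop (D.p0 - g.c k0) := by
    rw [List.take_length_add_append, show D.p0 = P.length + (D.p0 - g.c k0) by omega, drop_add]
    congr 1
    omega
  have e3 : ((P ++ Q).take (P.length + d)).drop (P.length + t0) = (Q.take d).drop t0 := by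
    rw [List.take_length_add_append, drop_add]
  unfold Dat.zf Gad2.val
  rw [hX, e2, e3, hs]

theorem Gad2.complete {Q : List α} {l : ℕ} {f : V → V} (h : D.b.nx Q = some (l, f)) (v : V) :
    ∃ P Q' d c, Q = P ++ Q' ∧ g.LL P v ∧ g.RL Q' d c := by
  have hz := D.hz
  obtain ⟨t, hZ, hbad, rfl⟩ := D.b_iff.1 h
  obtain ⟨k, hk, hlam, hrho, hu⟩ := g.compl Q t l hZ hbad v
  have hcp := g.cp k hk
  have h1 := hZ.1.1
  have h2 := hZ.1.2.1
  have h3 := hZ.2.1
  have hPl : (Q.take (g.c k)).length = g.c k := by rw [List.length_take]; omega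
  have eQ : Q.take (g.c k) ++ Q.drop (g.c k) = Q := List.take_append_drop _ _
  obtain ⟨b0, hb0⟩ := Option.isSome_iff_exists.1 hrho
  set P := Q.take (g.c k) with hP
  set Q' := Q.drop (g.c k) with hQ'
  obtain ⟨t0, rfl⟩ : ∃ t0, t = P.length + t0 := ⟨t - P.length, by omega⟩
  obtain ⟨d, rfl⟩ : ∃ d, l = P.length + d := ⟨l - P.length, by omega⟩
  have hZ1 : FW D.w Q' (D.z - g.c k) t0 := by
    refine (g.true_cand hk hPl).1 ?_
    rw [eQ]; exact hZ.1
  have hZ2 : FW D.w Q' (t0 + 1) d := by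
    have h4 : FW D.w (P ++ Q') (P.length + (t0 + 1)) (P.length + d) := by
      rw [eQ]
      exact hZ.2
    exact h4.unshift
  refine ⟨P, Q', d, _, eQ.symm, ⟨k, hk, hPl, hlam⟩, ⟨k, t0, b0, hk, hZ1, hZ2, ?_, ?_, ?_, rfl⟩⟩
  · refine (D.BadC_shift (P := P) hPl hcp).1 ?_
    rw [eQ]; exact hbad
  · intro k' hk' hne t' ht'
    exact hu k' hk' hne t' ht'
  · have e : Q'.take (D.p0 - g.c k) = (Q.take D.p0).drop (g.c k) := by
      rw [hQ', List.drop_take]
    rw [e]
    exact hb0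

theorem Gad2.val_app {Q s : List α} {k t d : ℕ} {b0 : V} (ht : t ≤ Q.length)
    (hd : d ≤ Q.length) : g.val (Q ++ s) k t d b0 = g.val Q k t d b0 := by
  unfold Gad2.val
  rw [List.take_append_of_le_length ht, List.take_append_of_le_length hd]

/-- scheme 2 -/
def Gad2.scheme : Scheme D.b (emptyRule α V D.w.n) where
  LL := g.LL
  RL := g.RL
  Dead := D.Dead2
  sub := by
    intro Q x h
    exact absurd h (by simp [emptyRule])
  LLn := by
    rintro P v ⟨k, hk, hP, -⟩
    rw [hP]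
    exact g.cn k hk
  RLpos := by
    rintro Q d c ⟨k, t, b0, -, -, h, -⟩
    have h1 := h.1
    have h2 := h.2.1
    omega
  RLext := by
    rintro Q s d c ⟨k, t, b0, hk, ht, hd, hbad, hu, hr, rfl⟩
    have hz := D.hz
    have hcp := g.cp k hk
    have h1 := ht.1
    have h2 := ht.2.1
    have h3 := hd.2.1
    refine ⟨k, t, b0, hk, ht.ext s, hd.ext s, (D.BadC_app h2 (by omega)).2 hbad, ?_, ?_, ?_⟩
    · intro k' hk' hne t' ht' hB
      obtain ⟨t'', ht'', -⟩ := g.vis hk ht hd hk'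
      have e : t' = t'' := ht'.uniq (ht''.ext s)
      subst e
      have hcp' := g.cp k' hk'
      have h4 := ht''.1
      exact hu k' hk' hne t' ht'' ((D.BadC_app ht''.2.1 (by omega)).1 hB)
    · rw [List.take_append_of_le_length (by omega)]; exact hr
    · exact (g.val_app (by omega) (by omega)).symm
  RLcut := by
    rintro Q s d c ⟨k, t, b0, hk, ht, hd, hbad, hu, hr, rfl⟩ hl
    have hz := D.hz
    have hcp := g.cp k hk
    have h1 := ht.1
    have h3 := hd.1
    have ht' : FW D.w Q (D.z - g.c k) t := ht.cut (by omega)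
    refine ⟨k, t, b0, hk, ht', hd.cut hl, (D.BadC_app ht'.2.1 (by omega)).1 hbad, ?_, ?_, ?_⟩
    · intro k' hk' hne t' ht' hB
      have hcp' := g.cp k' hk'
      have h4 := ht'.1
      exact hu k' hk' hne t' (ht'.ext s) ((D.BadC_app ht'.2.1 (by omega)).2 hB)
    · rw [List.take_append_of_le_length (by omega)] at hr; exact hr
    · exact g.val_app (by omega) (by omega)
  Dext := by
    rintro Q s ⟨t, ht, hB⟩
    have h1 := ht.1
    exact ⟨t, ht.ext s, fun h => hB ((D.BadC_app ht.2.1 (by omega)).1 h)⟩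
  Dnone := by
    rintro Q ⟨t, ht, hB⟩
    rcases h : D.b.nx Q with _ | ⟨l, f⟩
    · rfl
    · obtain ⟨t', hZ, hB', -⟩ := D.b_iff.1 h
      have e := ht.uniq hZ.1
      subst e
      exact absurd hB' hB
  exact := fun P v Q d c hL hR hD => g.exact hL hR hD
  complete := fun Q l f h => Or.inr (g.complete h)

end Crest.Agent.R320.Inst_782
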