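import Crest.Agent.R320.Inst3_134

/-!
# Row 320: spoil count for the natural chain rule (helper134)
-/

set_option autoImplicit false

namespace Crest.Agent.R320.Inst_134

open Crest.RegLang Crest.Agent.R320.Hk_851 Crest.Agent.R320.Asm_505

universe u

variable {α : Type u} {Wo : List α → Prop} {z p0 N1 : ℕ} {BadT : ℕ → Prop} {K : ℕ} {c : ℕ → ℕ}
  {n W : ℕ}

/-- `τ` is the accepted wall of candidate `c k'` seen from the place `c k` -/
def Acc (Wo : List α → Prop) (z : ℕ) (c : ℕ → ℕ) (X : List α) (k k' τ : ℕ) : Prop :=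
  c k ≤ τ ∧ τ ≤ X.length ∧ Wo (X.take τ) ∧ z + c k ≤ τ + c k' ∧
    ∀ s < τ, z + c k ≤ s + c k' → ¬ Wo (X.take s)

open Classical in
theorem spoil (hW : LW Wo n W) (hz : n + 2 * p0 + N1 ≤ z) (hWp : 2 * (p0 + N1) < W)
    (hcp : ∀ k < K, c k ≤ p0)
    (hgap : ∀ i j i' j', i < K → j < K → i' < K → j' < K → i ≠ j → i' ≠ j' →
      c i + c j' ≤ c i' + c j + 2 * N1 → c i' + c j ≤ c i + c j' + 2 * N1 → i = i')
    {C0 La : ℕ} (hLa : La + 2 * p0 ≤ z)
    (hthin : ∀ T, La ≤ T → ((Finset.range K).filter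
      (fun k => ∃ k' < K, k' ≠ k ∧ BadT (T + c k' - c k))).card ≤ C0)
    (X : List α) (t : ℕ) (hX : Blk Wo z X t) :
    ∃ A : Finset ℕ, A.card < 2 * C0 + 2 ∧
      ∀ k < K, k ∉ A → ∀ k' < K, k' ≠ k → ¬ cand Wo z p0 N1 BadT (c k') (X.drop (c k)) := by
  have hXl := hX.1
  have hzt : z ≤ t := by have := hX.2.1.1.1; rw [List.length_take] at this; omega
  -- walls of the dropped word
  have hdrop : ∀ k < K, ∀ s, n ≤ s → (Wo ((X.drop (c k)).take s) ↔ Wo (X.take (c k + s)) ∨
      (X.length < c k + s ∧ Wo (X.drop (c k)))) := by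
    intro k hk s hs
    have hck := hcp k hk
    have e : X.take (c k + s) = X.take (c k) ++ (X.drop (c k)).take s := by
      rw [List.take_add]
    by_cases hl : c k + s ≤ X.length
    · have : n ≤ ((X.drop (c k)).take s).length := by
        rw [List.length_take, List.length_drop]; omega
      rw [e, hW.loc _ _ this]
      constructor
      · exact Or.inl
      · rintro (h | h)
        · exact h
        · omega
    · rw [List.take_of_length_le (by rw [List.length_drop]; omega)]
      constructor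
      · intro h; exact Or.inr ⟨by omega, h⟩
      · rintro (h | h)
        · rw [List.take_of_length_le (by omega)] at h
          have h3 : n ≤ (X.drop (c k)).length := by rw [List.length_drop]; omega
          refine (hW.loc (X.take (c k)) _ h3).1 ?_
          rw [List.take_append_drop]; exact h
        · exact h.2
  have hdrop' : ∀ k < K, ∀ s, n ≤ s → c k + s ≤ X.length →
      (Wo ((X.drop (c k)).take s) ↔ Wo (X.take (c k + s))) := by
    intro k hk s hs hl
    rw [hdrop k hk s hs]
    constructor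
    · rintro (h | h)
      · exact h
      · omega
    · exact Or.inl
  -- the two sets
  let AE : Finset ℕ := (Finset.range K).filter (fun k => ∃ k' < K, k' ≠ k ∧
    ∃ s, s ≤ X.length ∧ Wo (X.take s) ∧ z + c k ≤ s + c k' + N1 ∧ s + c k' < z + c k + N1)
  have hAE : AE.card ≤ 1 := by
    rw [Finset.card_le_one]
    intro i hi j hj
    simp only [AE, Finset.mem_filter, Finset.mem_range] at hi hj
    obtain ⟨hiK, i', hi'K, hii, s, hs1, hs2, hs3, hs4⟩ := hi
    obtain ⟨hjK, j', hj'K, hjj, s', hs1', hs2', hs3', hs4'⟩ := hj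
    have h1 := hcp i hiK
    have h2 := hcp i' hi'K
    have h3 := hcp j hjK
    have h4 := hcp j' hj'K
    have : s = s' := by
      rcases Nat.lt_trichotomy s s' with h | h | h
      · have := hW.sep X s s' h hs1' hs2 hs2'; omega
      · exact h
      · have := hW.sep X s' s h hs1 hs2' hs2; omega
    subst this
    exact hgap i i' j j' hiK hi'K hjK hj'K (Ne.symm hii) (Ne.symm hjj) (by omega) (by omega)
  -- accepted walls
  have htwo : ∃ τ1 τ2, z ≤ τ1 + p0 ∧ z ≤ τ2 + p0 ∧ ∀ k < K, ∀ k' < K, ∀ τ, Acc Wo z c X k k' τ →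
      τ = τ1 ∨ τ = τ2 := by
    by_cases hex : ∃ τ, ∃ k < K, ∃ k' < K, Acc Wo z c X k k' τ
    · have hmem := Nat.find_spec hex
      set τ1 := Nat.find hex with hτ1
      have hmin : ∀ τ, (∃ k < K, ∃ k' < K, Acc Wo z c X k k' τ) → τ1 ≤ τ := fun τ h =>
        Nat.find_min' hex h
      have hlow : ∀ τ, (∃ k < K, ∃ k' < K, Acc Wo z c X k k' τ) → z ≤ τ + p0 := by
        rintro τ ⟨k, hk, k', hk', h⟩
        have := hcp k' hk'
        have := h.2.2.2.1
        omega
      by_cases hex2 : ∃ τ, τ ≠ τ1 ∧ ∃ k < K, ∃ k' < K, Acc Wo z c X k k' τ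
      · obtain ⟨τ2, hne, hτ2⟩ := hex2
        refine ⟨τ1, τ2, hlow _ hmem, hlow _ hτ2, fun k hk k' hk' τ hτ => ?_⟩
        by_contra hcon
        push Not at hcon
        have hτe : ∃ k < K, ∃ k' < K, Acc Wo z c X k k' τ := ⟨k, hk, k', hk', hτ⟩
        have l1 : τ1 < τ := lt_of_le_of_ne (hmin τ hτe) (Ne.symm hcon.1)
        have l2 : τ1 < τ2 := lt_of_le_of_ne (hmin τ2 hτ2) (Ne.symm hne)
        obtain ⟨k1, hk1, k1', hk1', hA1⟩ := hmem
        have hz1 := hlow τ1 ⟨k1, hk1, k1', hk1', hA1⟩
        obtain ⟨k2, hk2, k2', hk2', hA2⟩ := hτ2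
        rcases Nat.lt_trichotomy τ τ2 with h | h | h
        · have g1 := hW.sep X τ1 τ l1 hτ.2.1 hA1.2.2.1 hτ.2.2.1
          have := hcp k2 hk2
          exact hA2.2.2.2.2 τ h (by omega) hτ.2.2.1
        · exact hcon.2 h
        · have g1 := hW.sep X τ1 τ2 l2 hA2.2.1 hA1.2.2.1 hA2.2.2.1
          have := hcp k hk
          exact hτ.2.2.2.2 τ2 h (by omega) hA2.2.2.1
      · push Not at hex2
        refine ⟨τ1, τ1, hlow _ hmem, hlow _ hmem, fun k hk k' hk' τ hτ => ?_⟩
        by_contra hcon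
        have hcon' : τ ≠ τ1 := fun h => hcon (Or.inl h)
        exact hex2 τ hcon' k hk k' hk' hτ
    · refine ⟨z, z, by omega, by omega, fun k hk k' hk' τ hτ => ?_⟩
      exact absurd ⟨τ, k, hk, k', hk', hτ⟩ hex
  obtain ⟨τ1, τ2, hτ1, hτ2, htw⟩ := htwo
  let AB : ℕ → Finset ℕ := fun τ => (Finset.range K).filter
      (fun k => ∃ k' < K, k' ≠ k ∧ BadT ((τ - p0) + c k' - c k))
  have hAB1 : (AB τ1).card ≤ C0 := hthin _ (by omega)
  have hAB2 : (AB τ2).card ≤ C0 := hthin _ (by omega)
  refine ⟨AE ∪ (AB τ1 ∪ AB τ2), ?_, ?_⟩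
  · have h1 := Finset.card_union_le AE (AB τ1 ∪ AB τ2)
    have h2 := Finset.card_union_le (AB τ1) (AB τ2)
    omega
  · intro k hk hkA k' hk' hne hcand
    rw [Finset.mem_union, Finset.mem_union] at hkA
    push Not at hkA
    obtain ⟨hE, hB1, hB2⟩ := hkA
    obtain ⟨s, hs, hF, hb⟩ := hcand
    have hck := hcp k hk
    have hck' := hcp k' hk'
    rw [List.length_drop] at hs
    have hsl : ((X.drop (c k)).take s).length = s := by
      rw [List.length_take, List.length_drop]; omega
    have hF1 := hF.1.1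
    rw [hsl] at hF1
    rcases hb with ⟨r, hr1, hr2, hr3, hr4⟩ | hb
    · rw [hsl] at hr1
      rw [List.take_take, Nat.min_eq_left hr1] at hr4
      have := (hdrop' k hk r (by omega) (by omega)).1 hr4
      refine hE ?_
      simp only [AE, Finset.mem_filter, Finset.mem_range]
      exact ⟨hk, k', hk', hne, c k + r, by omega, this, by omega, by omega⟩
    · rw [hsl] at hb
      have hAcc : Acc Wo z c X k k' (c k + s) := by
        refine ⟨by omega, by omega, (hdrop' k hk s (by omega) (by omega)).1 hF.1.2, by omega, ?_⟩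
        intro r hr1 hr2 hw
        refine hF.2 (r - c k) (by omega) ⟨?_, ?_⟩
        · rw [List.length_take, hsl]; omega
        · rw [List.take_take, Nat.min_eq_left (by omega)]
          refine (hdrop' k hk _ (by omega) (by omega)).2 ?_
          have : c k + (r - c k) = r := by omega
          rw [this]; exact hw
      have hAB : ∀ τ, z ≤ τ + p0 → c k + s = τ → k ∉ AB τ → False := by
        intro τ hτ e hnot
        refine hnot ?_
        simp only [AB, Finset.mem_filter, Finset.mem_range]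
        refine ⟨hk, k', hk', hne, ?_⟩
        have : τ - p0 + c k' - c k = c k' + s - p0 := by omega
        rw [this]; exact hb
      rcases htw k hk k' hk' _ hAcc with h | h
      · exact hAB τ1 hτ1 h hB1
      · exact hAB τ2 hτ2 h hB2

end Crest.Agent.R320.Inst_134
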