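import Mathlib

/-!
# Row 320: the two completeness statements of the block calculus from the two gadgets (helper248)

Left-looking walls `Wo` (locality `n`, gap `> W`), blocks = words up to the first wall at distance
`>= z0`, scheme 2 in the first `p0` letters, scheme 1 in the next `N1` letters.
Output: the hypotheses `hcc1`, `hcc2` of `Top5_120.top5`.
-/

set_option autoImplicit false
set_option linter.unusedSectionVars false
set_option linter.unusedVariables false

namespace Crest.Agent.R320.Inst5_248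

universe u

section walls

variable {α : Type u} (Wo : List α → Prop) (n z0 p0 N1 : ℕ)

/-- blocks -/
def C : Set (List α) :=
  {X | Wo X ∧ z0 ≤ X.length ∧ ∀ t, z0 ≤ t → t < X.length → ¬ Wo (X.take t)}

/-- a wall near the threshold -/
def EE (X : List α) : Prop :=
  ∃ t, t ≤ X.length ∧ z0 ≤ t + N1 ∧ t ≤ z0 + N1 ∧ Wo (X.take t)

/-- bad blocks -/
def Bad (BN : ℕ → Prop) : Set (List α) :=
  {X | X ∈ C Wo z0 ∧ (EE Wo z0 N1 X ∨ BN (X.length - p0))}

variable {Wo n z0 p0 N1}

theorem shift (hloc : ∀ P Q : List α, n ≤ Q.length → (Wo (P ++ Q) ↔ Wo Q)) (P P' Q : List α)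
    (s : ℕ) (hs : n ≤ s) (hsQ : s ≤ Q.length) :
    Wo ((P ++ Q).take (P.length + s)) ↔ Wo ((P' ++ Q).take (P'.length + s)) := by
  have h : ∀ R : List α, (R ++ Q).take (R.length + s) = R ++ Q.take s := by
    intro R
    rw [List.take_append]
    have : R.length + s - R.length = s := by omega
    rw [this, List.take_of_length_le (by omega)]
  rw [h, h]
  have hl : n ≤ (Q.take s).length := by rw [List.length_take]; omega
  rw [hloc P _ hl, hloc P' _ hl]

theorem C_shift (hloc : ∀ P Q : List α, n ≤ Q.length → (Wo (P ++ Q) ↔ Wo Q))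
    (hz : n + p0 + N1 + N1 ≤ z0) {P P' q : List α} (h1 : p0 ≤ P.length) (h2 : P.length ≤ p0 + N1)
    (h3 : p0 ≤ P'.length) (h4 : P'.length ≤ p0 + N1) (hC : P ++ q ∈ C Wo z0)
    (hE : ¬ EE Wo z0 N1 (P ++ q)) : P' ++ q ∈ C Wo z0 := by
  obtain ⟨hw, hl, hno⟩ := hC
  have hlen : (P ++ q).length = P.length + q.length := List.length_append
  have hlen' : (P' ++ q).length = P'.length + q.length := List.length_append
  have hbig : z0 + N1 < P.length + q.length := by
    by_contra hcon
    exact hE ⟨(P ++ q).length, le_rfl, by omega, by omega, by rw [List.take_length]; exact hw⟩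
  have hn : n ≤ q.length := by omega
  refine ⟨(hloc P' q hn).2 ((hloc P q hn).1 hw), by omega, ?_⟩
  intro t ht1 ht2 hwt
  obtain ⟨s, rfl⟩ : ∃ s, t = P'.length + s := ⟨t - P'.length, by omega⟩
  have hs1 : n ≤ s := by omega
  have hs2 : s ≤ q.length := by omega
  have hwt' := (shift hloc P' P q s hs1 hs2).1 hwt
  by_cases hz0 : z0 ≤ P.length + s
  · exact hno (P.length + s) hz0 (by omega) hwt'
  · exact hE ⟨P.length + s, by omega, by omega, by omega, hwt'⟩

theorem Bad_same (hloc : ∀ P Q : List α, n ≤ Q.length → (Wo (P ++ Q) ↔ Wo Q))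
    (hz : n + p0 + N1 + N1 ≤ z0) {BN : ℕ → Prop} {P P' q : List α} (h1 : P.length = P'.length)
    (h2 : P.length ≤ p0) (hC : P ++ q ∈ Bad Wo z0 p0 N1 BN) : P' ++ q ∈ Bad Wo z0 p0 N1 BN := by
  obtain ⟨⟨hw, hl, hno⟩, hb⟩ := hC
  have hlen : (P ++ q).length = P.length + q.length := List.length_append
  have hlen' : (P' ++ q).length = P'.length + q.length := List.length_append
  have hn : n ≤ q.length := by omega
  have key : ∀ t, z0 ≤ t + N1 → t ≤ P.length + q.length →
      (Wo ((P ++ q).take t) ↔ Wo ((P' ++ q).take t)) := by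
    intro t ht1 ht2
    obtain ⟨s, rfl⟩ : ∃ s, t = P.length + s := ⟨t - P.length, by omega⟩
    have := shift hloc P P' q s (by omega) (by omega)
    rw [this, h1]
  refine ⟨⟨(hloc P' q hn).2 ((hloc P q hn).1 hw), by omega, ?_⟩, ?_⟩
  · intro t ht1 ht2 hwt
    exact hno t ht1 (by omega) ((key t (by omega) (by omega)).2 hwt)
  · rcases hb with ⟨t, ht0, ht1, ht2, ht3⟩ | hb
    · left
      exact ⟨t, by omega, ht1, ht2, (key t ht1 (by omega)).1 ht3⟩
    · right
      have e : (P' ++ q).length = (P ++ q).length := by omega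
      rw [e]; exact hb

/-- first block of a text -/
theorem first_block {U : List α} (hw : Wo U) (hl : z0 ≤ U.length) :
    ∃ t, z0 ≤ t ∧ t ≤ U.length ∧ U.take t ∈ C Wo z0 := by
  classical
  have hex : ∃ t, z0 ≤ t ∧ Wo (U.take t) := ⟨U.length, hl, by rw [List.take_length]; exact hw⟩
  have h1 := Nat.find_spec hex
  have h2 : Nat.find hex ≤ U.length := Nat.find_min' hex ⟨hl, by rw [List.take_length]; exact hw⟩
  refine ⟨Nat.find hex, h1.1, h2, h1.2, ?_, ?_⟩
  · rw [List.length_take]; omega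
  · intro t ht1 ht2 hwt
    rw [List.length_take] at ht2
    have h3 := Nat.find_min hex (m := t) (by omega)
    apply h3
    refine ⟨ht1, ?_⟩
    rw [List.take_take] at hwt
    have : min t (Nat.find hex) = t := by omega
    rw [this] at hwt
    exact hwt

/-- blocks form a prefix code -/
theorem C_pc {X Y : List α} (hX : X ∈ C Wo z0) (hXY : X ++ Y ∈ C Wo z0) : Y = [] := by
  by_contra hne
  have hpos : 0 < Y.length := List.length_pos_of_ne_nil hne
  obtain ⟨-, -, hno⟩ := hXY
  refine hno X.length hX.2.1 (by rw [List.length_append]; omega) ?_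
  rw [List.take_left]
  exact hX.1

end walls

section comb

/-- **spoil count** in pure arithmetic -/
theorem spoil (K N1 p0 z0 La W C0 : ℕ) (c : ℕ → ℕ) (BN : ℕ → Prop) (Wd : ℕ → Prop) (w0 : ℕ)
    (hc : ∀ k < K, c k ≤ p0)
    (hsp : ∀ i j k l, i < K → j < K → k < K → l < K → i ≠ j → k ≠ l → (i, j) ≠ (k, l) →
      c i + c l + 4 * N1 < c k + c j ∨ c k + c j + 4 * N1 < c i + c l)
    [DecidablePred BN]
    (hcard : ∀ T, La ≤ T → (((Finset.range K) ×ˢ (Finset.range K)).filter
      (fun ij => ij.1 ≠ ij.2 ∧ BN (T + c ij.2 - c ij.1))).card ≤ C0)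
    (hz : La + 2 * p0 ≤ z0) (hW : 2 * p0 + 2 * N1 ≤ W)
    (hgap : ∀ s t, Wd s → Wd t → s < t → W < t - s)
    (hw0 : z0 ≤ w0) (hWd0 : Wd w0) (hno : ∀ w, Wd w → z0 ≤ w → w0 ≤ w) :
    ∃ J : Finset ℕ, J.card ≤ 1 + 3 * C0 ∧ ∀ k < K, ∀ k' < K, k' ≠ k →
      (∃ w, Wd w ∧ z0 + c k ≤ w + c k' ∧ (∀ w', Wd w' → z0 + c k ≤ w' + c k' → w ≤ w') ∧
        ((∃ w', Wd w' ∧ z0 + c k ≤ w' + c k' + N1 ∧ w' + c k' ≤ z0 + c k + N1) ∨
          BN (w + c k' - c k - p0))) → k ∈ J := by
  classical
  obtain ⟨Tp, hTp, hTp'⟩ : ∃ T, La ≤ T ∧ ∀ w, Wd w → w0 < w → (∀ w', Wd w' → w0 < w' → w ≤ w') →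
      w - p0 = T := by
    by_cases h : ∃ w, Wd w ∧ w0 < w ∧ (∀ w', Wd w' → w0 < w' → w ≤ w')
    · obtain ⟨w, h1, h2, h3⟩ := h
      refine ⟨w - p0, by omega, ?_⟩
      intro w' h1' h2' h3'
      have := h3 w' h1' h2'
      have := h3' w h1 h2
      omega
    · exact ⟨La, le_rfl, fun w h1 h2 h3 => (h ⟨w, h1, h2, h3⟩).elim⟩
  obtain ⟨Tm, hTm, hTm'⟩ : ∃ T, La ≤ T ∧ ∀ w, Wd w → w < z0 → z0 ≤ w + p0 → w - p0 = T := by
    by_cases h : ∃ w, Wd w ∧ w < z0 ∧ z0 ≤ w + p0
    · obtain ⟨w, h1, h2, h3⟩ := h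
      refine ⟨w - p0, by omega, ?_⟩
      intro w' h1' h2' h3'
      rcases lt_trichotomy w w' with h | h | h
      · have := hgap w w' h1 h1' h; omega
      · rw [h]
      · have := hgap w' w h1' h1 h; omega
    · exact ⟨La, le_rfl, fun w h1 h2 h3 => (h ⟨w, h1, h2, h3⟩).elim⟩
  let D : ℕ → Finset (ℕ × ℕ) := fun T => ((Finset.range K) ×ˢ (Finset.range K)).filter
      (fun ij => ij.1 ≠ ij.2 ∧ BN (T + c ij.2 - c ij.1))
  let DE : Finset (ℕ × ℕ) := ((Finset.range K) ×ˢ (Finset.range K)).filter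
      (fun ij => ij.1 ≠ ij.2 ∧ ∃ w', Wd w' ∧ z0 + c ij.1 ≤ w' + c ij.2 + N1 ∧
        w' + c ij.2 ≤ z0 + c ij.1 + N1)
  have hDE : DE.card ≤ 1 := by
    rw [Finset.card_le_one]
    rintro ⟨i, j⟩ h1 ⟨k, l⟩ h2
    rw [Finset.mem_filter, Finset.mem_product, Finset.mem_range, Finset.mem_range] at h1 h2
    obtain ⟨⟨hi, hj⟩, hij, w, hw, hw1, hw2⟩ := h1
    obtain ⟨⟨hk, hl⟩, hkl, w', hw', hw1', hw2'⟩ := h2
    simp only at hi hj hij hw1 hw2 hk hl hkl hw1' hw2'
    by_contra hne
    have ci := hc i hi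
    have cj := hc j hj
    have ck := hc k hk
    have cl := hc l hl
    have hww : w = w' := by
      rcases lt_trichotomy w w' with h | h | h
      · have := hgap w w' hw hw' h; omega
      · exact h
      · have := hgap w' w hw' hw h; omega
    subst hww
    rcases hsp i j k l hi hj hk hl hij hkl hne with h | h <;> omega
  refine ⟨(DE ∪ D Tm ∪ D (w0 - p0) ∪ D Tp).image Prod.fst, ?_, ?_⟩
  · refine Finset.card_image_le.trans ?_
    have h1 := hcard Tm hTm
    have h2 := hcard (w0 - p0) (by omega)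
    have h3 := hcard Tp hTp
    have a1 := Finset.card_union_le (DE ∪ D Tm ∪ D (w0 - p0)) (D Tp)
    have a2 := Finset.card_union_le (DE ∪ D Tm) (D (w0 - p0))
    have a3 := Finset.card_union_le DE (D Tm)
    have e1 : (D Tm).card ≤ C0 := h1
    have e2 : (D (w0 - p0)).card ≤ C0 := h2
    have e3 : (D Tp).card ≤ C0 := h3
    omega
  · intro k hk k' hk' hne hs
    have ck := hc k hk
    have ck' := hc k' hk'
    rw [Finset.mem_image]
    refine ⟨(k, k'), ?_, rfl⟩
    have hmem : (k, k') ∈ (Finset.range K) ×ˢ (Finset.range K) := by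
      rw [Finset.mem_product, Finset.mem_range, Finset.mem_range]; exact ⟨hk, hk'⟩
    obtain ⟨w, hw, hwz, hmin, hs⟩ := hs
    rcases hs with ⟨w', hw1, hw2, hw3⟩ | hs
    · have : (k, k') ∈ DE := by
        rw [Finset.mem_filter]
        exact ⟨hmem, Ne.symm hne, w', hw1, hw2, hw3⟩
      simp only [Finset.mem_union]
      exact Or.inl (Or.inl (Or.inl this))
    · have hT : ∀ T, w - p0 = T → (k, k') ∈ D T := by
        intro T hT
        rw [Finset.mem_filter]
        refine ⟨hmem, Ne.symm hne, ?_⟩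
        show BN (T + c k' - c k)
        have e : T + c k' - c k = w + c k' - c k - p0 := by omega
        rw [e]; exact hs
      simp only [Finset.mem_union]
      by_cases hwz0 : w < z0
      · exact Or.inl (Or.inl (Or.inr (hT Tm (hTm' w hw hwz0 (by omega)))))
      · have h0 := hno w hw (by omega)
        by_cases hw00 : w = w0
        · exact Or.inl (Or.inr (hT _ (by rw [hw00])))
        · refine Or.inr (hT _ (hTp' w hw (by omega) ?_))
          intro w' hw' hlt
          refine hmin w' hw' ?_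
          have := hgap w0 w' hWd0 hw' hlt
          omega

end comb

section core

variable {α : Type u} {S V : Type} [Monoid S] [AddCommGroup V] (act : V → S → V) (φ : α → S)
  (p0 K N1 : ℕ) (c : ℕ → ℕ) (lamU : List α → V → Prop) (lamE : ℕ → List α → V → Prop)
  (nuE nuU : List α → V)

/-- noise of a block -/
def nuB (X : List α) : V :=
  act (nuE (X.take p0)) ((X.drop p0).map φ).prod + nuU (X.drop p0)

def L1 (v : V) : Set (List α) :=
  {P | ∃ X1 p, X1.length = p0 ∧ P = X1 ++ p ∧ lamU p (act v (X1.map φ).prod + nuE X1)}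

def L2 (v : V) : Set (List α) := {P | ∃ k < K, P.length = c k ∧ lamE k P v}

variable {act φ p0 K N1 c lamU lamE nuE nuU}

theorem T_eq (hadd : ∀ a b s, act (a + b) s = act a s + act b s)
    (hmul : ∀ v s t, act v (s * t) = act (act v s) t) {X1 Y : List α} (h : X1.length = p0) (v : V) :
    act v ((X1 ++ Y).map φ).prod + nuB act φ p0 nuE nuU (X1 ++ Y) =
      act (act v (X1.map φ).prod + nuE X1) (Y.map φ).prod + nuU Y := by
  unfold nuB
  have e1 : (X1 ++ Y).take p0 = X1 := by rw [← h, List.take_left]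
  have e2 : (X1 ++ Y).drop p0 = Y := by rw [← h, List.drop_left]
  rw [e1, e2, List.map_append, List.prod_append, hmul, hadd, add_assoc]

variable {Wo : List α → Prop} {n z0 W La C0 : ℕ} {BN : ℕ → Prop}
  {rhoU : List α → V → Prop} {rhoE : ℕ → List α → V → Prop}

theorem hcc1 (hadd : ∀ a b s, act (a + b) s = act a s + act b s)
    (hmul : ∀ v s t, act v (s * t) = act (act v s) t)
    (hloc : ∀ P Q : List α, n ≤ Q.length → (Wo (P ++ Q) ↔ Wo Q))
    (hz : n + p0 + N1 + N1 ≤ z0) (hz2 : La + p0 + N1 ≤ z0)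
    (u0 : ∀ p v, lamU p v → p.length ≤ N1)
    (u1 : ∀ p q v r, lamU p v → rhoU q r → La ≤ q.length →
      r = act v ((p ++ q).map φ).prod + nuU (p ++ q))
    (u2 : ∀ u v, La ≤ u.length → ¬ BN u.length → ∃ p q, p ++ q = u ∧ lamU p v ∧ ∃ r, rhoU q r) :
    ∀ X ∈ C Wo z0, X ∉ Bad Wo z0 p0 N1 BN → ∀ v, ∃ P Q, P ++ Q = X ∧
      P ∈ L1 act φ p0 lamU nuE v ∧
      ∀ x, ∀ P' ∈ L1 act φ p0 lamU nuE x, P' ++ Q ∈ C Wo z0 ∧
        act x ((P' ++ Q).map φ).prod + nuB act φ p0 nuE nuU (P' ++ Q) =
          act v (X.map φ).prod + nuB act φ p0 nuE nuU X := by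
  intro X hX hXb v
  have hE : ¬ EE Wo z0 N1 X := fun h => hXb ⟨hX, Or.inl h⟩
  have hB : ¬ BN (X.length - p0) := fun h => hXb ⟨hX, Or.inr h⟩
  have hlX := hX.2.1
  have hl1 : (X.take p0).length = p0 := by rw [List.length_take]; omega
  have hl2 : (X.drop p0).length = X.length - p0 := List.length_drop
  obtain ⟨p, q, hpq, hp, r, hq⟩ := u2 (X.drop p0)
    (act v ((X.take p0).map φ).prod + nuE (X.take p0)) (by omega) (by rw [hl2]; exact hB)
  have hpl := u0 _ _ hp
  have hXe : X = X.take p0 ++ (p ++ q) := by rw [hpq, List.take_append_drop]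
  have hql : La ≤ q.length := by
    have h := congrArg List.length hpq
    rw [List.length_append, hl2] at h
    omega
  refine ⟨X.take p0 ++ p, q, ?_, ⟨X.take p0, p, hl1, rfl, hp⟩, ?_⟩
  · rw [List.append_assoc, ← hXe]
  · rintro x P' ⟨X1, p', hX1, rfl, hp'⟩
    have hpl' := u0 _ _ hp'
    have hXe2 : X = (X.take p0 ++ p) ++ q := by rw [List.append_assoc, ← hXe]
    refine ⟨?_, ?_⟩
    · refine C_shift hloc hz (P := X.take p0 ++ p) (P' := X1 ++ p') (q := q) ?_ ?_ ?_ ?_ ?_ ?_
      · rw [List.length_append]; omega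
      · rw [List.length_append]; omega
      · rw [List.length_append]; omega
      · rw [List.length_append]; omega
      · rw [← hXe2]; exact hX
      · rw [← hXe2]; exact hE
    · rw [List.append_assoc, T_eq hadd hmul hX1]
      rw [← u1 p' q _ r hp' hq hql]
      conv_rhs => rw [hXe]
      rw [T_eq hadd hmul hl1]
      exact u1 p q _ r hp hq hql

theorem hcc2 (hadd : ∀ a b s, act (a + b) s = act a s + act b s)
    (hmul : ∀ v s t, act v (s * t) = act (act v s) t)
    (hloc : ∀ P Q : List α, n ≤ Q.length → (Wo (P ++ Q) ↔ Wo Q))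
    (hgap : ∀ (P : List α) (d : ℕ), Wo P → 0 < d → d ≤ W → ¬ Wo (P.take (P.length - d)))
    (hz : n + p0 + N1 + N1 ≤ z0) (hz2 : La + 2 * p0 + N1 + n + 1 ≤ z0)
    (hW : 2 * p0 + 2 * N1 ≤ W)
    (hc : ∀ k < K, c k ≤ p0)
    (hsp : ∀ i j k l, i < K → j < K → k < K → l < K → i ≠ j → k ≠ l → (i, j) ≠ (k, l) →
      c i + c l + 4 * N1 < c k + c j ∨ c k + c j + 4 * N1 < c i + c l)
    [DecidablePred BN]
    (hcard : ∀ T, La ≤ T → (((Finset.range K) ×ˢ (Finset.range K)).filter
      (fun ij => ij.1 ≠ ij.2 ∧ BN (T + c ij.2 - c ij.1))).card ≤ C0)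
    (e1 : ∀ k < K, ∀ P Q v b, P.length = c k → lamE k P v → rhoE k Q b →
      b = act v ((P ++ Q).map φ).prod + nuE (P ++ Q))
    (e2 : ∀ (u : List α) (v : V), (∀ k < K, c k ≤ u.length) → ∃ I : Finset ℕ,
      2 + 3 * C0 ≤ I.card ∧ ∀ k ∈ I, k < K ∧ lamE k (u.take (c k)) v ∧
        ∃ b, rhoE k (u.drop (c k)) b) :
    ∀ X ∈ Bad Wo z0 p0 N1 BN, ∀ Y ∈ Bad Wo z0 p0 N1 BN, ∀ v, ∃ P Q, P ++ Q = X ++ Y ∧
      P ∈ L2 K c lamE v ∧ ∀ x, ∀ P' ∈ L2 K c lamE x,
        (∃ X' ∈ Bad Wo z0 p0 N1 BN, ∃ Y' ∈ C Wo z0, X' ++ Y' = P' ++ Q ∧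
          act (act x (X'.map φ).prod + nuB act φ p0 nuE nuU X') (Y'.map φ).prod +
              nuB act φ p0 nuE nuU Y' =
            act (act v (X.map φ).prod + nuB act φ p0 nuE nuU X) (Y.map φ).prod +
              nuB act φ p0 nuE nuU Y) ∨
        (∃ X' ∈ C Wo z0, X' ∉ Bad Wo z0 p0 N1 BN ∧ X' <+: P' ++ Q) := by
  classical
  intro X hXb Y hYb v
  have hX := hXb.1
  have hY := hYb.1
  have hlX := hX.2.1
  have hlY := hY.2.1
  have hlU : (X ++ Y).length = X.length + Y.length := List.length_append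
  have hl1 : (X.take p0).length = p0 := by rw [List.length_take]; omega
  -- walls of the text
  let Wd : ℕ → Prop := fun t => t ≤ (X ++ Y).length ∧ Wo ((X ++ Y).take t)
  have hWgap : ∀ s t, Wd s → Wd t → s < t → W < t - s := by
    rintro s t ⟨hs1, hs2⟩ ⟨ht1, ht2⟩ hst
    by_contra hcon
    refine hgap ((X ++ Y).take t) (t - s) ht2 (by omega) (by omega) ?_
    rw [List.length_take, List.take_take]
    have : min (min t (X ++ Y).length - (t - s)) t = s := by omega
    rw [this]; exact hs2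
  have hw0 : Wd X.length := ⟨by omega, by rw [List.take_left]; exact hX.1⟩
  have hno : ∀ w, Wd w → z0 ≤ w → X.length ≤ w := by
    intro w hw h1
    by_contra h
    refine hX.2.2 w h1 (by omega) ?_
    have := hw.2
    rw [List.take_append_of_le_length (by omega)] at this
    exact this
  obtain ⟨J, hJ, hJs⟩ := spoil K N1 p0 z0 La W C0 c BN Wd X.length hc hsp
    hcard (by omega) hW hWgap hlX hw0 hno
  obtain ⟨I, hI, hIs⟩ := e2 (X.take p0) v (fun k hk => by rw [hl1]; exact hc k hk)
  obtain ⟨k, hkI, hkJ⟩ : ∃ k ∈ I, k ∉ J := by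
    by_contra hcon
    push Not at hcon
    have := Finset.card_le_card (show I ⊆ J from fun k hk => hcon k hk)
    omega
  obtain ⟨hkK, hlam, b, hrho⟩ := hIs k hkI
  have hck := hc k hkK
  have htk : (X.take p0).take (c k) = X.take (c k) := by
    rw [List.take_take]
    congr 1
    omega
  rw [htk] at hlam
  have hlk : (X.take (c k)).length = c k := by rw [List.length_take]; omega
  set m : List α := (X.take p0).drop (c k) with hm
  have hml : m.length = p0 - c k := by rw [hm, List.length_drop, hl1]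
  have hXm : X.drop (c k) = m ++ X.drop p0 := by
    rw [hm, List.drop_take]
    conv_lhs => rw [← List.take_append_drop (p0 - c k) (X.drop (c k))]
    rw [List.drop_drop]
    congr 2
    omega
  refine ⟨X.take (c k), X.drop (c k) ++ Y, ?_, ⟨k, hkK, hlk, hlam⟩, ?_⟩
  · rw [← List.append_assoc, List.take_append_drop]
  · rintro x P' ⟨k', hk'K, hlP', hlam'⟩
    have hck' := hc k' hk'K
    by_cases hkk : k' = k
    · subst hkk
      left
      refine ⟨P' ++ X.drop (c k'), ?_, Y, hY, ?_, ?_⟩
      · refine Bad_same hloc hz (P := X.take (c k')) (P' := P') (by omega) (by omega) ?_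
        rw [List.take_append_drop]; exact hXb
      · rw [List.append_assoc]
      · have hb1 := e1 k' hkK (X.take (c k')) m v b hlk hlam hrho
        have hb2 := e1 k' hkK P' m x b hlP' hlam' hrho
        have f1 : X.take (c k') ++ m ++ X.drop p0 = X := by
          rw [List.append_assoc, ← hXm, List.take_append_drop]
        have f2 : P' ++ X.drop (c k') = (P' ++ m) ++ X.drop p0 := by
          rw [List.append_assoc, ← hXm]
        have g1 := T_eq (nuU := nuU) (nuE := nuE) (φ := φ) hadd hmul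
          (X1 := X.take (c k') ++ m) (Y := X.drop p0) (p0 := p0)
          (by rw [List.length_append]; omega) v
        rw [f1, ← hb1] at g1
        have g2 := T_eq (nuU := nuU) (nuE := nuE) (φ := φ) hadd hmul
          (X1 := P' ++ m) (Y := X.drop p0) (p0 := p0) (by rw [List.length_append]; omega) x
        rw [← f2, ← hb2] at g2
        rw [g1, g2]
    · right
      have hQl : (X.drop (c k) ++ Y).length = X.length + Y.length - c k := by
        rw [List.length_append, List.length_drop]; omega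
      have hUk : X ++ Y = X.take (c k) ++ (X.drop (c k) ++ Y) := by
        rw [← List.append_assoc, List.take_append_drop]
      have hU'l : (P' ++ (X.drop (c k) ++ Y)).length = c k' + (X.length + Y.length - c k) := by
        rw [List.length_append, hQl, hlP']
      have hwU' : Wo (P' ++ (X.drop (c k) ++ Y)) := by
        have h1 : Wo Y := hY.1
        rw [← List.append_assoc]
        exact (hloc _ Y (by omega)).2 h1
      obtain ⟨t, ht1, ht2, ht3⟩ := first_block (z0 := z0) hwU' (by omega)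
      refine ⟨_, ht3, ?_, List.take_prefix _ _⟩
      intro hbad
      apply hkJ
      -- translation of walls
      have htr : ∀ t, z0 ≤ t + N1 → t ≤ (P' ++ (X.drop (c k) ++ Y)).length →
          Wo ((P' ++ (X.drop (c k) ++ Y)).take t) → Wd (t + c k - c k') := by
        intro t h1 h2 h3
        obtain ⟨s, rfl⟩ : ∃ s, t = P'.length + s := ⟨t - P'.length, by omega⟩
        have h4 := (shift hloc P' (X.take (c k)) (X.drop (c k) ++ Y) s (by omega) (by omega)).1 h3
        rw [← hUk, hlk] at h4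
        have e : P'.length + s + c k - c k' = c k + s := by omega
        rw [e]
        exact ⟨by omega, h4⟩
      have htl : ((P' ++ (X.drop (c k) ++ Y)).take t).length = t := by
        rw [List.length_take]; omega
      refine hJs k hkK k' hk'K hkk ⟨t + c k - c k', htr t (by omega) ht2 ht3.1, by omega, ?_, ?_⟩
      · intro w' hw' hwz'
        by_contra hlt
        have hw'l := hw'.1
        obtain ⟨s, rfl⟩ : ∃ s, w' = c k + s := ⟨w' - c k, by omega⟩
        have h4 := hw'.2
        rw [hUk] at h4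
        have h5 := (shift hloc (X.take (c k)) P' (X.drop (c k) ++ Y) s (by omega) (by omega)).1
          (by rw [hlk]; exact h4)
        refine ht3.2.2 (P'.length + s) (by omega) (by omega) ?_
        rw [List.take_take]
        have : min (P'.length + s) t = P'.length + s := by omega
        rw [this]
        exact h5
      rcases hbad.2 with ⟨t', g0, g1, g2, g3⟩ | hb
      · left
        rw [htl] at g0
        rw [List.take_take] at g3
        have e : min t' t = t' := by omega
        rw [e] at g3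
        refine ⟨t' + c k - c k', htr t' g1 (by omega) g3, by omega, by omega⟩
      · right
        rw [htl] at hb
        have e : t + c k - c k' + c k' - c k - p0 = t - p0 := by omega
        rw [e]; exact hb

end core

end Crest.Agent.R320.Inst5_248
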