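import Mathlib

/-!
# Row 320: the instance of 163's top (#13363) from black boxes (helper516)

Natural chain rule (first wall at distance at least `z`), left-looking walls, one token system,
scheme 1 = gadget without small walls (693 / 638), scheme 2 = exact gadget on the first `p0`
letters, semantic right labels.
-/

set_option autoImplicit false

namespace Crest.Agent.R320.Inst5_516

open Finset

/-- the data -/
structure GD (α S V : Type*) [Monoid S] [AddCommGroup V] where
  φ : List α → S
  act : V → S → V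
  Wo : List α → Prop
  n : ℕ
  W : ℕ
  N1 : ℕ
  lam : List α → Option V
  rho : List α → Option V
  nu : List α → V
  BadT : ℕ → Prop
  K : ℕ
  c : ℕ → ℕ
  p0 : ℕ
  z : ℕ
  L : ℕ
  nu2 : List α → V
  lam2 : ℕ → List α → Option V
  rho2 : ℕ → List α → Option V
  R : ℕ
  C0 : ℕ

variable {α S V : Type*} [Monoid S] [AddCommGroup V]

open Classical in
structure Ok (D : GD α S V) : Prop where
  hφ : ∀ u v, D.φ (u ++ v) = D.φ u * D.φ v
  amul : ∀ v s s', D.act (D.act v s) s' = D.act v (s * s')
  aadd : ∀ v w s, D.act (v + w) s = D.act v s + D.act w s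
  loc : ∀ P Q : List α, D.n ≤ Q.length → (D.Wo (P ++ Q) ↔ D.Wo Q)
  gap : ∀ P : List α, D.Wo P → ∀ t, t < P.length → D.Wo (P.take t) → t + D.W < P.length
  lamlen : ∀ P v, D.lam P = some v → P.length < D.N1
  snd : ∀ P v Q b, D.lam P = some v → D.rho Q = some b →
    D.act v (D.φ (P ++ Q)) + D.nu (P ++ Q) = b
  cpl : ∀ u : List α, D.N1 ≤ u.length → ¬ D.BadT u.length → ∀ v, ∃ P Q, u = P ++ Q ∧
    D.lam P = some v ∧ ∃ b, D.rho Q = some b
  cp : ∀ k, k < D.K → D.c k < D.p0
  cL : ∀ k, k < D.K → D.c k ≤ D.L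
  snd2 : ∀ k, k < D.K → ∀ P Q v y, P.length = D.c k → P.length + Q.length = D.p0 →
    D.lam2 k P = some v → D.rho2 k Q = some y → D.act v (D.φ (P ++ Q)) + D.nu2 (P ++ Q) = y
  cpl2 : ∀ X : List α, X.length = D.p0 → ∀ v, ∀ B : Finset ℕ, B.card ≤ D.R →
    ∃ k, k < D.K ∧ k ∉ B ∧ D.lam2 k (X.take (D.c k)) = some v ∧
      ∃ y, D.rho2 k (X.drop (D.c k)) = some y
  hz : D.p0 + D.N1 + D.n + 2 * D.L < D.z
  hW : 2 * (D.L + D.N1) ≤ D.W
  ruB : ∀ T, D.L ≤ T → ((range D.K ×ˢ range D.K).filter
    (fun ab => ab.1 ≠ ab.2 ∧ D.BadT (T + D.c ab.1 - D.c ab.2))).card ≤ D.C0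
  ruE : ∀ x y : ℕ, ((range D.K ×ˢ range D.K).filter
    (fun ab => ab.1 ≠ ab.2 ∧ x + D.c ab.1 < y + D.c ab.2 + D.N1 ∧
      y + D.c ab.2 < x + D.c ab.1 + D.N1)).card ≤ D.C0
  hR : 4 * D.C0 ≤ D.R

namespace GD

variable (D : GD α S V)

/-- blocks -/
def XX : Set (List α) :=
  {X | D.z ≤ X.length ∧ D.Wo X ∧ ∀ t, D.z ≤ t → t < X.length → ¬ D.Wo (X.take t)}

/-- token at the place `p0` -/
def mid (v : V) (X : List α) : V :=
  D.act v (D.φ (X.take D.p0)) + D.nu2 (X.take D.p0)

/-- zone map -/
def T (v : V) (X : List α) : V :=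
  D.act (D.mid v X) (D.φ (X.drop D.p0)) + D.nu (X.drop D.p0)

/-- noise of a block -/
def noise (X : List α) : V :=
  D.act (D.nu2 (X.take D.p0)) (D.φ (X.drop D.p0)) + D.nu (X.drop D.p0)

def LP1 (P : List α) (v : V) : Prop := D.p0 ≤ P.length ∧ D.lam (P.drop D.p0) = some (D.mid v P)

def LP2 (P : List α) (v : V) : Prop := ∃ k, k < D.K ∧ P.length = D.c k ∧ D.lam2 k P = some v

/-- semantic right legality of scheme 1 -/
def RR1 (Q : List α) (b : V) : Prop :=
  (∃ P v, D.LP1 P v) ∧ ∀ P v, D.LP1 P v → P ++ Q ∈ D.XX ∧ D.T v (P ++ Q) = b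

open Classical in
noncomputable def R1 (Q : List α) : Option V :=
  if h : ∃ b, D.RR1 Q b then some h.choose else none

/-- the thread `v` (frame at the beginning of `P`) is not cut by scheme 1 in a block which is
visible in `P ++ Q`, at a place in `Q` -/
def NC (P : List α) (v : V) (Q : List α) : Prop :=
  ∀ X ∈ D.XX, X <+: P ++ Q → ∀ P' Q', X = P' ++ Q' → P.length ≤ P'.length → D.LP1 P' v →
    (D.R1 Q').isSome → False

/-- conclusion of scheme 2 -/
def Con (P : List α) (v : V) (Q : List α) (b : V) : Prop :=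
  ∃ Q1 X2, Q = Q1 ++ X2 ∧ Q1 ≠ [] ∧ P ++ Q1 ∈ D.XX ∧ X2 ∈ D.XX ∧ D.T (D.T v (P ++ Q1)) X2 = b

def RR2 (Q : List α) (b : V) : Prop :=
  (∃ P v, D.LP2 P v ∧ D.NC P v Q) ∧ ∀ P v, D.LP2 P v → D.NC P v Q → D.Con P v Q b

open Classical in
noncomputable def R2 (Q : List α) : Option V :=
  if h : ∃ b, D.RR2 Q b then some h.choose else none

end GD

variable {D : GD α S V}

theorem code : ∀ X ∈ D.XX, ∀ Y, X ++ Y ∈ D.XX → Y = [] := by
  intro X hX Y hY
  by_contra hne
  have hl : 0 < Y.length := List.length_pos_iff.2 hne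
  refine hY.2.2 X.length hX.1 (by simp; omega) ?_
  rw [List.take_left]
  exact hX.2.1

theorem code' {X X' w : List α} (hX : X ∈ D.XX) (hX' : X' ∈ D.XX) (h : X <+: w)
    (h' : X' <+: w) : X = X' := by
  rcases List.prefix_or_prefix_of_prefix h h' with h1 | h1
  · obtain ⟨Y, rfl⟩ := h1
    rw [code X hX Y hX', List.append_nil]
  · obtain ⟨Y, rfl⟩ := h1
    rw [code X' hX' Y hX, List.append_nil]

theorem RR1.uniq {Q : List α} {b b' : V} (h : D.RR1 Q b) (h' : D.RR1 Q b') : b = b' := by
  obtain ⟨⟨P, v, hP⟩, h1⟩ := h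
  rw [← (h1 P v hP).2, ← (h'.2 P v hP).2]

theorem R1_iff (Q : List α) (b : V) : D.R1 Q = some b ↔ D.RR1 Q b := by
  classical
  unfold GD.R1
  constructor
  · intro h
    split_ifs at h with h1
    rw [← Option.some.inj h]
    exact h1.choose_spec
  · intro h
    have h1 : ∃ b, D.RR1 Q b := ⟨b, h⟩
    rw [dif_pos h1, RR1.uniq h1.choose_spec h]

theorem Con.uniq {P Q : List α} {v b b' : V} (h : D.Con P v Q b) (h' : D.Con P v Q b') :
    b = b' := by
  obtain ⟨Q1, X2, rfl, -, h1, h2, rfl⟩ := h
  obtain ⟨Q1', X2', e, -, h1', h2', rfl⟩ := h'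
  have e1 : P ++ Q1 = P ++ Q1' := by
    refine code' h1 h1' (w := P ++ (Q1 ++ X2)) ⟨X2, by simp⟩ ⟨X2', by rw [e]; simp⟩
  have e2 := List.append_cancel_left e1
  subst e2
  have e3 := List.append_cancel_left e
  rw [e3]

theorem RR2.uniq {Q : List α} {b b' : V} (h : D.RR2 Q b) (h' : D.RR2 Q b') : b = b' := by
  obtain ⟨⟨P, v, hP, hN⟩, h1⟩ := h
  exact Con.uniq (h1 P v hP hN) (h'.2 P v hP hN)

theorem R2_iff (Q : List α) (b : V) : D.R2 Q = some b ↔ D.RR2 Q b := by
  classical
  unfold GD.R2
  constructor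
  · intro h
    split_ifs at h with h1
    rw [← Option.some.inj h]
    exact h1.choose_spec
  · intro h
    have h1 : ∃ b, D.RR2 Q b := ⟨b, h⟩
    rw [dif_pos h1, RR2.uniq h1.choose_spec h]

/-! ### the statements of the top -/

theorem s1 : ∀ P v Q b, D.LP1 P v → D.R1 Q = some b → P ++ Q ∈ D.XX ∧ D.T v (P ++ Q) = b := by
  intro P v Q b hP hQ
  exact ((R1_iff Q b).1 hQ).2 P v hP

theorem s2 : ∀ P v Q b, D.LP2 P v → D.R2 Q = some b → D.NC P v Q → D.Con P v Q b := by
  intro P v Q b hP hQ hN
  exact ((R2_iff Q b).1 hQ).2 P v hP hN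

theorem hT (h : Ok D) : ∀ X v, D.p0 ≤ X.length → D.T v X = D.act v (D.φ X) + D.noise X := by
  intro X v _
  unfold GD.T GD.mid GD.noise
  rw [h.aadd, h.amul, ← h.hφ, List.take_append_drop, add_assoc]

/-- the block is not (E) -/
def NE (D : GD α S V) (X : List α) : Prop :=
  ∀ t, t ≤ X.length → D.Wo (X.take t) → ¬ (D.z < t + D.N1 ∧ t < D.z + D.N1)

theorem compl1 (h : Ok D) {X : List α} (hX : X ∈ D.XX) (hE : NE D X)
    (hB : ¬ D.BadT (X.length - D.p0)) (v : V) :
    ∃ P Q, X = P ++ Q ∧ D.p0 ≤ P.length ∧ D.LP1 P v ∧ (D.R1 Q).isSome := by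
  have hz := h.hz
  have hX1 := hX.1
  have hlen : (X.drop D.p0).length = X.length - D.p0 := List.length_drop
  obtain ⟨p, q, hpq, hp, b, hq⟩ := h.cpl (X.drop D.p0) (by rw [hlen]; omega)
    (by rw [hlen]; exact hB) (D.mid v X)
  have hpl := h.lamlen _ _ hp
  have hlen2 : p.length + q.length = X.length - D.p0 := by
    rw [← hlen, hpq, List.length_append]
  have htl : (X.take D.p0).length = D.p0 := by rw [List.length_take]; omega
  have hPX : X = X.take D.p0 ++ p ++ q := by
    rw [List.append_assoc, ← hpq, List.take_append_drop]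
  have hPt : (X.take D.p0 ++ p).take D.p0 = X.take D.p0 := by
    rw [List.take_append_of_le_length (by rw [htl]), List.take_of_length_le (by rw [htl])]
  have hPd : (X.take D.p0 ++ p).drop D.p0 = p := by
    rw [List.drop_append_of_le_length (by rw [htl]), List.drop_of_length_le (by rw [htl])]
    rfl
  have hLP : D.LP1 (X.take D.p0 ++ p) v := by
    refine ⟨by rw [List.length_append, htl]; omega, ?_⟩
    rw [hPd]
    unfold GD.mid
    rw [hPt]
    exact hp
  have hXN : D.z + D.N1 ≤ X.length := by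
    by_contra hlt
    refine hE X.length le_rfl (by rw [List.take_length]; exact hX.2.1) ⟨?_, by omega⟩
    have : 0 < D.N1 := by omega
    omega
  refine ⟨X.take D.p0 ++ p, q, hPX, by rw [List.length_append, htl]; omega, hLP, ?_⟩
  have key : D.RR1 q b := by
    refine ⟨⟨_, _, hLP⟩, ?_⟩
    rintro P' v' ⟨hP1, hP2⟩
    have hPl := h.lamlen _ _ hP2
    rw [List.length_drop] at hPl
    have hqn : D.n ≤ q.length := by omega
    have hW' : ∀ s, D.n ≤ s → s ≤ q.length →
        (D.Wo (P' ++ q.take s) ↔ D.Wo (X.take (D.p0 + p.length + s))) := by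
      intro s hs hs'
      have e : X.take (D.p0 + p.length + s) = (X.take D.p0 ++ p) ++ q.take s := by
        have e1 : (X.take D.p0 ++ p).length = D.p0 + p.length := by
          rw [List.length_append, htl]
        conv_lhs => rw [hPX]
        rw [List.take_append, e1, List.take_of_length_le (by rw [e1]; omega)]
        congr 2
        omega
      have hl : D.n ≤ (q.take s).length := by rw [List.length_take]; omega
      rw [e, h.loc _ _ hl, h.loc _ _ hl]
    refine ⟨⟨?_, ?_, ?_⟩, ?_⟩
    · rw [List.length_append]; omega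
    · have := (hW' q.length hqn le_rfl).2 (by
        rw [List.take_of_length_le (by omega)]; exact hX.2.1)
      rwa [List.take_length] at this
    · intro t ht1 ht2 hw
      rw [List.length_append] at ht2
      have e : (P' ++ q).take t = P' ++ q.take (t - P'.length) := by
        rw [List.take_append, List.take_of_length_le (by omega)]
      rw [e, hW' _ (by omega) (by omega)] at hw
      by_cases hc : D.z ≤ D.p0 + p.length + (t - P'.length)
      · exact hX.2.2 _ hc (by omega) hw
      · exact hE _ (by omega) hw ⟨by omega, by omega⟩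
    · unfold GD.T
      have e1 : (P' ++ q).take D.p0 = P'.take D.p0 := by
        rw [List.take_append_of_le_length hP1]
      have e2 : (P' ++ q).drop D.p0 = P'.drop D.p0 ++ q := by
        rw [List.drop_append_of_le_length hP1]
      have e3 : D.mid v' (P' ++ q) = D.mid v' P' := by
        unfold GD.mid; rw [e1]
      rw [e2, e3]
      exact h.snd _ _ _ _ hP2 hq
  rw [(R1_iff q b).2 key]
  rfl

theorem two_walls (h : Ok D) {w : List α} {t t' : ℕ} (h1 : t < t') (h2 : t' ≤ w.length)
    (h3 : D.Wo (w.take t)) (h4 : D.Wo (w.take t')) : t + D.W < t' := by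
  have hl : (w.take t').length = t' := by rw [List.length_take]; omega
  have := h.gap (w.take t') h4 t (by rw [hl]; exact h1) (by
    rw [List.take_take, min_eq_left h1.le]; exact h3)
  rwa [hl] at this

open Classical in
theorem spoil (h : Ok D) {X X2 : List α} (hX : X ∈ D.XX) (hX2 : X2 ∈ D.XX) :
    ∃ B : Finset ℕ, B.card ≤ D.R ∧ ∀ k, k < D.K → k ∉ B → ∀ k', k' < D.K → k' ≠ k →
      ∀ t, D.z + D.c k ≤ t + D.c k' → t ≤ (X ++ X2).length → D.Wo ((X ++ X2).take t) →
      (∀ t', t' < t → D.z + D.c k ≤ t' + D.c k' → ¬ D.Wo ((X ++ X2).take t')) →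
      (¬ D.BadT (t - D.p0 + D.c k' - D.c k)) ∧
      ∀ t', t' ≤ t → D.Wo ((X ++ X2).take t') →
        ¬ (D.z + D.c k < t' + D.c k' + D.N1 ∧ t' + D.c k' < D.z + D.c k + D.N1) := by
  have hz := h.hz
  have hWW := h.hW
  set w := X ++ X2 with hw
  have hwl : w.length = X.length + X2.length := by rw [hw, List.length_append]
  have hXl := hX.1
  have hX2l := hX2.1
  -- the critical wall
  let crit : ℕ → Prop := fun t => t ≤ w.length ∧ D.Wo (w.take t) ∧ D.z ≤ t + D.L + D.N1 ∧
    t ≤ D.z + D.L + D.N1
  have hcu : ∀ t t', crit t → crit t' → t = t' := by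
    intro t t' h1 h2
    rcases lt_trichotomy t t' with h3 | h3 | h3
    · have := two_walls h h3 h2.1 h1.2.1 h2.2.1
      have a1 := h1.2.2.1
      have a2 := h2.2.2.2
      omega
    · exact h3
    · have := two_walls h h3 h1.1 h2.2.1 h1.2.1
      have a1 := h2.2.2.1
      have a2 := h1.2.2.2
      omega
  obtain ⟨te, hte, hteL⟩ : ∃ te, (∀ t, crit t → t = te) ∧ D.z ≤ te + D.L + D.N1 := by
    by_cases hc : ∃ t, crit t
    · obtain ⟨t, ht⟩ := hc
      exact ⟨t, fun t' ht' => hcu _ _ ht' ht, ht.2.2.1⟩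
    · exact ⟨D.z, fun t ht => absurd ⟨t, ht⟩ hc, by omega⟩
  -- the wall after the first block
  have hex : ∃ t, X.length < t ∧ t ≤ w.length ∧ D.Wo (w.take t) := by
    refine ⟨w.length, by omega, le_rfl, ?_⟩
    rw [List.take_length, hw, h.loc X X2 (by omega)]
    exact hX2.2.1
  have ht2 := Nat.find_spec hex
  have ht2m : ∀ t, t < Nat.find hex → ¬ (X.length < t ∧ t ≤ w.length ∧ D.Wo (w.take t)) :=
    fun t ht => Nat.find_min hex ht
  generalize Nat.find hex = t2 at ht2 ht2m
  have hXw : D.Wo (w.take X.length) := by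
    rw [hw, List.take_left]; exact hX.2.1
  have ht2W := two_walls h ht2.1 ht2.2.1 hXw ht2.2.2
  let SB : ℕ → Finset (ℕ × ℕ) := fun t => (range D.K ×ˢ range D.K).filter
    (fun ab => ab.1 ≠ ab.2 ∧ D.BadT (t - D.p0 + D.c ab.1 - D.c ab.2))
  let SE : Finset (ℕ × ℕ) := (range D.K ×ˢ range D.K).filter
    (fun ab => ab.1 ≠ ab.2 ∧ te + D.c ab.1 < D.z + D.c ab.2 + D.N1 ∧
      D.z + D.c ab.2 < te + D.c ab.1 + D.N1)
  let A : Finset (ℕ × ℕ) := (SB te ∪ SB X.length) ∪ (SB t2 ∪ SE)
  have hA : A.card ≤ 4 * D.C0 := by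
    have e1 : (SB te).card ≤ D.C0 := h.ruB _ (by omega)
    have e2 : (SB X.length).card ≤ D.C0 := h.ruB _ (by omega)
    have e3 : (SB t2).card ≤ D.C0 := h.ruB _ (by omega)
    have e4 : SE.card ≤ D.C0 := h.ruE _ _
    have f1 : A.card ≤ (SB te ∪ SB X.length).card + (SB t2 ∪ SE).card := card_union_le _ _
    have f2 : (SB te ∪ SB X.length).card ≤ (SB te).card + (SB X.length).card :=
      card_union_le _ _
    have f3 : (SB t2 ∪ SE).card ≤ (SB t2).card + SE.card := card_union_le _ _
    omega
  refine ⟨A.image Prod.snd, ?_, ?_⟩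
  · have := card_image_le (s := A) (f := Prod.snd)
    have hR := h.hR
    omega
  intro k hk hkB k' hk' hne t ht1 ht3 ht4 ht5
  have hck := h.cL k hk
  have hck' := h.cL k' hk'
  have hmem : ∀ S : Finset (ℕ × ℕ), S ⊆ A → (k', k) ∉ S := by
    intro S hS hkk
    exact hkB (mem_image.2 ⟨(k', k), hS hkk, rfl⟩)
  have hm1 : SB te ⊆ A := fun x hx => mem_union_left _ (mem_union_left _ hx)
  have hm2 : SB X.length ⊆ A := fun x hx => mem_union_left _ (mem_union_right _ hx)
  have hm3 : SB t2 ⊆ A := fun x hx => mem_union_right _ (mem_union_left _ hx)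
  have hm4 : SE ⊆ A := fun x hx => mem_union_right _ (mem_union_right _ hx)
  have hkk : (k', k) ∈ range D.K ×ˢ range D.K := by
    rw [mem_product]; exact ⟨mem_range.2 hk', mem_range.2 hk⟩
  constructor
  · intro hbad
    have hcase : t = te ∨ t = X.length ∨ t = t2 := by
      by_cases hz1 : t < D.z
      · exact Or.inl (hte t ⟨ht3, ht4, by omega, by omega⟩)
      · right
        have h1 : X.length ≤ t := by
          by_contra hlt
          refine hX.2.2 t (by omega) (by omega) ?_
          have : w.take t = X.take t := by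
            rw [hw, List.take_append_of_le_length (by omega)]
          rw [← this]; exact ht4
        rcases h1.eq_or_lt with h2 | h2
        · exact Or.inl h2.symm
        · right
          have h3 : ¬ (D.z + D.c k ≤ X.length + D.c k') := fun hc =>
            ht5 _ h2 hc hXw
          have h4 : t ≤ t2 := by
            by_contra hlt
            exact ht5 t2 (by omega) (by omega) ht2.2.2
          have h5 : t2 ≤ t := by
            by_contra hlt
            exact ht2m t (by omega) ⟨h2, ht3, ht4⟩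
          omega
    rcases hcase with rfl | rfl | rfl
    · exact hmem _ hm1 (mem_filter.2 ⟨hkk, hne, hbad⟩)
    · exact hmem _ hm2 (mem_filter.2 ⟨hkk, hne, hbad⟩)
    · exact hmem _ hm3 (mem_filter.2 ⟨hkk, hne, hbad⟩)
  · rintro t' ht' hw' ⟨h1, h2⟩
    have e : t' = te := hte t' ⟨by omega, hw', by omega, by omega⟩
    subst e
    exact hmem _ hm4 (mem_filter.2 ⟨hkk, hne, h2, h1⟩)

theorem cc (h : Ok D) : ∀ X ∈ D.XX, ∀ X2 ∈ D.XX, ∀ v,
    (∃ P Q, X = P ++ Q ∧ D.LP1 P v ∧ (D.R1 Q).isSome) ∨
    (∃ P Q, X ++ X2 = P ++ Q ∧ P.length < X.length ∧ D.LP2 P v ∧ (D.R2 Q).isSome) := by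
  classical
  intro X hX X2 hX2 v
  by_cases hcut : ∃ P Q, X = P ++ Q ∧ D.LP1 P v ∧ (D.R1 Q).isSome
  · exact Or.inl hcut
  right
  have hz := h.hz
  have hXl := hX.1
  have hX2l := hX2.1
  obtain ⟨B, hBc, hB⟩ := spoil h hX hX2
  have htl : (X.take D.p0).length = D.p0 := by rw [List.length_take]; omega
  obtain ⟨k, hk, hkB, hl2, y, hr2⟩ := h.cpl2 (X.take D.p0) htl v B hBc
  have hcp := h.cp k hk
  have hcL := h.cL k hk
  have hPtk : (X.take D.p0).take (D.c k) = X.take (D.c k) := by
    rw [List.take_take, min_eq_left hcp.le]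
  rw [hPtk] at hl2
  have hPl : (X.take (D.c k)).length = D.c k := by rw [List.length_take]; omega
  have hQl : (X.drop (D.c k)).length = X.length - D.c k := List.length_drop
  have hPX : X.take (D.c k) ++ X.drop (D.c k) = X := List.take_append_drop _ _
  have hw : X.take (D.c k) ++ (X.drop (D.c k) ++ X2) = X ++ X2 := by
    rw [← List.append_assoc, hPX]
  have hLP : D.LP2 (X.take (D.c k)) v := ⟨k, hk, hPl, hl2⟩
  refine ⟨X.take (D.c k), X.drop (D.c k) ++ X2, hw.symm, by rw [hPl]; omega, hLP, ?_⟩
  have hWQ : ∀ (P' : List α) (s : ℕ), D.n ≤ s → s ≤ (X.drop (D.c k) ++ X2).length →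
      (D.Wo (P' ++ (X.drop (D.c k) ++ X2).take s) ↔ D.Wo ((X ++ X2).take (D.c k + s))) := by
    intro P' s hs hs'
    have e : (X ++ X2).take (D.c k + s) = X.take (D.c k) ++ (X.drop (D.c k) ++ X2).take s := by
      rw [← hw, List.take_append, hPl, List.take_of_length_le (by rw [hPl]; omega)]
      congr 2
      omega
    have hl : D.n ≤ ((X.drop (D.c k) ++ X2).take s).length := by rw [List.length_take]; omega
    rw [e, h.loc _ _ hl, h.loc _ _ hl]
  have hQL : (X.drop (D.c k) ++ X2).length = X.length - D.c k + X2.length := by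
    rw [List.length_append, hQl]
  have key : D.RR2 (X.drop (D.c k) ++ X2) (D.T (D.T v X) X2) := by
    refine ⟨⟨X.take (D.c k), v, hLP, ?_⟩, ?_⟩
    · intro X' hX' hpre P' Q' e _ h1 h2
      have : X' = X := code' hX' hX hpre ⟨X2, hw.symm⟩
      subst this
      exact hcut ⟨P', Q', e, h1, h2⟩
    · rintro P' v' ⟨k', hk', hP'l, hl'⟩ hN
      by_cases hkk : k' = k
      · subst hkk
        have hr : (X.take D.p0).drop (D.c k') = (X.drop (D.c k')).take (D.p0 - D.c k') := by
          rw [List.drop_take]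
        rw [hr] at hr2
        have hrl : ((X.drop (D.c k')).take (D.p0 - D.c k')).length = D.p0 - D.c k' := by
          rw [List.length_take, hQl]; omega
        have m1 := h.snd2 k' hk' P' _ v' y hP'l (by rw [hP'l, hrl]; omega) hl' hr2
        have m2 := h.snd2 k' hk' _ _ v y hPl (by rw [hPl, hrl]; omega) hl2 hr2
        have t1 : (P' ++ X.drop (D.c k')).take D.p0 =
            P' ++ (X.drop (D.c k')).take (D.p0 - D.c k') := by
          rw [List.take_append, List.take_of_length_le (by omega), hP'l]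
        have t2 : (P' ++ X.drop (D.c k')).drop D.p0 = X.drop D.p0 := by
          rw [List.drop_append, List.drop_of_length_le (by omega), hP'l, List.nil_append,
            List.drop_drop]
          congr 1
          omega
        have t3 : X.take (D.c k') ++ (X.drop (D.c k')).take (D.p0 - D.c k') = X.take D.p0 := by
          rw [← List.drop_take, ← hPtk, List.take_append_drop]
        rw [t3] at m2
        have hT : D.T v' (P' ++ X.drop (D.c k')) = D.T v X := by
          unfold GD.T GD.mid
          rw [t1, t2, m1, m2]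
        refine ⟨X.drop (D.c k'), X2, rfl, ?_, ⟨?_, ?_, ?_⟩, hX2, by rw [hT]⟩
        · intro he
          have := congrArg List.length he
          rw [hQl] at this
          simp at this
          omega
        · rw [List.length_append, hQl, hP'l]; omega
        · rw [h.loc P' _ (by rw [hQl]; omega), ← h.loc (X.take (D.c k')) _ (by rw [hQl]; omega),
            hPX]
          exact hX.2.1
        · intro t ht1 ht2 hwt
          rw [List.length_append, hP'l, hQl] at ht2
          have e : (P' ++ X.drop (D.c k')).take t = P' ++ (X.drop (D.c k')).take (t - D.c k') := by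
            rw [List.take_append, List.take_of_length_le (by omega), hP'l]
          have hl : D.n ≤ ((X.drop (D.c k')).take (t - D.c k')).length := by
            rw [List.length_take, hQl]; omega
          have e2 : X.take t = X.take (D.c k') ++ (X.drop (D.c k')).take (t - D.c k') := by
            conv_lhs => rw [← hPX]
            rw [List.take_append, List.take_of_length_le (by omega), hPl]
          rw [e, h.loc _ _ hl, ← h.loc (X.take (D.c k')) _ hl, ← e2] at hwt
          exact hX.2.2 t ht1 (by omega) hwt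
      · exfalso
        have hcp' := h.cp k' hk'
        have hcL' := h.cL k' hk'
        have hwl : (X ++ X2).length = X.length + X2.length := List.length_append
        have hex : ∃ t, D.z + D.c k ≤ t + D.c k' ∧ t ≤ (X ++ X2).length ∧
            D.Wo ((X ++ X2).take t) := by
          refine ⟨(X ++ X2).length, by omega, le_rfl, ?_⟩
          rw [List.take_length, h.loc X X2 (by omega)]
          exact hX2.2.1
        have ht := Nat.find_spec hex
        have htm : ∀ t', t' < Nat.find hex → ¬ (D.z + D.c k ≤ t' + D.c k' ∧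
            t' ≤ (X ++ X2).length ∧ D.Wo ((X ++ X2).take t')) :=
          fun t' ht' => Nat.find_min hex ht'
        generalize Nat.find hex = t at ht htm
        obtain ⟨ht1, ht2, ht3⟩ := ht
        obtain ⟨hnB, hnE⟩ := hB k hk hkB k' hk' hkk t ht1 ht2 ht3
          (fun t' h1 h2 h3 => htm t' h1 ⟨h2, by omega, h3⟩)
        have hXl' : (P' ++ (X.drop (D.c k) ++ X2).take (t - D.c k)).length =
            D.c k' + (t - D.c k) := by
          rw [List.length_append, hP'l, List.length_take, hQL]
          omega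
        have htk : ∀ s, D.c k' ≤ s → s ≤ D.c k' + (t - D.c k) →
            (P' ++ (X.drop (D.c k) ++ X2).take (t - D.c k)).take s =
              P' ++ (X.drop (D.c k) ++ X2).take (s - D.c k') := by
          intro s hs1 hs2
          rw [List.take_append, List.take_of_length_le (by omega), hP'l, List.take_take,
            min_eq_left (by omega)]
        have hX'X : P' ++ (X.drop (D.c k) ++ X2).take (t - D.c k) ∈ D.XX := by
          refine ⟨by rw [hXl']; omega, ?_, ?_⟩
          · rw [hWQ P' (t - D.c k) (by omega) (by omega)]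
            rwa [show D.c k + (t - D.c k) = t by omega]
          · intro s hs1 hs2 hws
            rw [hXl'] at hs2
            rw [htk s (by omega) (by omega), hWQ P' _ (by omega) (by omega)] at hws
            exact htm (D.c k + (s - D.c k')) (by omega) ⟨by omega, by omega, hws⟩
        have hNE : NE D (P' ++ (X.drop (D.c k) ++ X2).take (t - D.c k)) := by
          rintro s hs1 hws ⟨hs2, hs3⟩
          rw [hXl'] at hs1
          rw [htk s (by omega) (by omega), hWQ P' _ (by omega) (by omega)] at hws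
          exact hnE (D.c k + (s - D.c k')) (by omega) hws ⟨by omega, by omega⟩
        obtain ⟨P'', Q'', e1, e2, e3, e4⟩ := compl1 h hX'X hNE (by
          rw [hXl', show D.c k' + (t - D.c k) - D.p0 = t - D.p0 + D.c k' - D.c k by omega]
          exact hnB) v'
        refine hN _ hX'X ?_ P'' Q'' e1 (by omega) e3 e4
        refine ⟨(X.drop (D.c k) ++ X2).drop (t - D.c k), ?_⟩
        rw [List.append_assoc, List.take_append_drop]
  rw [(R2_iff _ _).2 key]
  rfl

end Crest.Agent.R320.Inst5_516
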