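import Crest.Agent.R320.Top5_467
import Crest.Agent.R320.WallU_228
import Crest.Agent.R320.Sch2_606

/-!
# Row 320: instance of 467's `top5` on all words, list part (helper634)

Left-looking walls, block prefix code, scheme 1 = abstract U-gadget, scheme 2 = exact gadget of 237
(606's `Gad`).  Semantic right languages.
-/

set_option autoImplicit false
set_option linter.unusedSectionVars false

namespace Crest.Agent.R320.Inst5_634

open Crest.RegLang Crest.Agent.R320.Hk_851 Crest.Agent.R320.Blk467 Crest.Agent.R320.Sch2_606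

/-- abstract data of the two schemes -/
structure Dt (α S V : Type) [Monoid S] [AddCommGroup V] where
  φ : α → S
  act : V → S → V
  hadd : ∀ a b s, act (a + b) s = act a s + act b s
  hone : ∀ v, act v 1 = v
  hmul : ∀ v s t, act v (s * t) = act (act v s) t
  n : ℕ
  W : ℕ
  z : ℕ
  p0 : ℕ
  N1 : ℕ
  La : ℕ
  Wo : List α → Prop
  loc : ∀ P Q : List α, n ≤ Q.length → (Wo (P ++ Q) ↔ Wo Q)
  gap : ∀ (P : List α) (d : ℕ), Wo P → 0 < d → d ≤ W → ¬ Wo (P.take (P.length - d))
  lam1 : List α → Option V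
  rho1 : List α → Option V
  nu1 : List α → V
  BadL : ℕ → Prop
  hlam1 : ∀ P v, lam1 P = some v → P.length ≤ N1
  snd1 : ∀ P Q v b, lam1 P = some v → rho1 Q = some b → La ≤ Q.length →
    b = act v ((P ++ Q).map φ).prod + nu1 (P ++ Q)
  cmp1 : ∀ u : List α, La ≤ u.length → ¬ BadL u.length → ∀ v, ∃ P Q, P ++ Q = u ∧
    lam1 P = some v ∧ (rho1 Q).isSome
  K : ℕ
  R : ℕ
  c : ℕ → ℕ
  hc : ∀ i j, i < j → j < K → c i < c j
  hcp : ∀ k < K, c k ≤ p0
  lam : ℕ → List α → Option V
  rho : ℕ → List α → S → Option V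
  nu : List α → S → V
  hG : Gad φ act K R c lam rho nu
  hz : 2 * p0 + N1 + n + La + 1 ≤ z
  F : List α → Prop
  C0 : ℕ
  hR : 2 * C0 + 2 ≤ R
  hW : 2 * (p0 + N1) + 1 ≤ W
  hgol : ∀ i j k l, i < K → j < K → k < K → l < K → i ≠ j → k ≠ l → (i, j) ≠ (k, l) →
    c i + c l + 4 * N1 < c k + c j ∨ c k + c j + 4 * N1 < c i + c l
  hspo : ∀ T, La ≤ T → ∀ A : Finset (ℕ × ℕ),
    (∀ q ∈ A, q.1 < K ∧ q.2 < K ∧ q.1 ≠ q.2 ∧ BadL (T + c q.2 - c q.1)) → A.card ≤ C0

namespace Dt

variable {α S V : Type} [Monoid S] [AddCommGroup V] (D : Dt α S V)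

def XX : Set (List α) :=
  {X | D.z ≤ X.length ∧ D.Wo X ∧ ∀ t, D.z ≤ t → t < X.length → ¬ D.Wo (X.take t)}

def nuT (X : List α) : V :=
  D.act (D.nu (X.take D.p0) 1) ((X.drop D.p0).map D.φ).prod + D.nu1 (X.drop D.p0)

def T (v : V) (X : List α) : V := D.act v (X.map D.φ).prod + D.nuT X

def E (X : List α) : Prop :=
  (∃ t, D.z ≤ t + D.N1 ∧ t < D.z ∧ D.Wo (X.take t)) ∨ X.length < D.z + D.N1 ∨
    D.BadL (X.length - D.p0)

def Bad : Set (List α) := {X | X ∈ D.XX ∧ D.E X}

def LP1 (v : V) : Language α :=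
  {P | D.p0 ≤ P.length ∧ D.lam1 (P.drop D.p0) =
    some (D.act v ((P.take D.p0).map D.φ).prod + D.nu (P.take D.p0) 1)}

def RQ1 (b : V) : Language α :=
  {Q | D.F Q ∧ ∀ v, ∀ P ∈ D.LP1 v, P ++ Q ∈ D.XX ∧ D.T v (P ++ Q) = b}

def LP2 (v : V) : Language α := {P | ∃ k, k < D.K ∧ P.length = D.c k ∧ D.lam k P = some v}

def L2 (v b : V) : Language α :=
  {w | ∃ X ∈ D.Bad, ∃ X' ∈ D.Bad, w = X ++ X' ∧ D.T (D.T v X) X' = b}

def RQ2 (b : V) : Language α :=
  {Q | D.F Q ∧ D.Wo Q ∧ D.z ≤ Q.length ∧ ∀ v, ∀ P ∈ D.LP2 v, (∃ X ∈ D.Bad, X <+: P ++ Q) →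
    P ++ Q ∈ D.L2 v b}

variable {D}

theorem T_eq (v : V) (X : List α) : D.T v X =
    D.act (D.act v ((X.take D.p0).map D.φ).prod + D.nu (X.take D.p0) 1)
      ((X.drop D.p0).map D.φ).prod + D.nu1 (X.drop D.p0) := by
  unfold T nuT
  rw [D.hadd, ← D.hmul, ← List.prod_append, ← List.map_append, List.take_append_drop, add_assoc]

theorem T_eq' (v : V) (X Y : List α) (h : X.length = D.p0) : D.T v (X ++ Y) =
    D.act (D.act v (X.map D.φ).prod + D.nu X 1) (Y.map D.φ).prod + D.nu1 Y := by
  rw [T_eq, ← h]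
  simp

theorem pcode : PCode D.XX := by
  constructor
  · intro h
    have := h.1
    have := D.hz
    simp at *
    omega
  · intro X hX Y hY h
    obtain ⟨r, rfl⟩ := h
    by_contra hne
    have hr : 0 < r.length := by
      rcases r with _ | ⟨a, r⟩
      · simp at hne
      · simp
    refine hY.2.2 X.length hX.1 (by rw [List.length_append]; omega) ?_
    rw [List.take_left']
    · exact hX.2.1
    · rfl

/-- walls of `P ++ Q` to the right of `|P| + n` depend on `Q` only -/
theorem wo_take_append {P P' Q : List α} {t t' : ℕ} (hn : D.n ≤ Q.length)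
    (h1 : P.length + D.n ≤ t) (h2 : t' + P.length = t + P'.length) :
    D.Wo ((P ++ Q).take t) ↔ D.Wo ((P' ++ Q).take t') := by
  have e1 : (P ++ Q).take t = P ++ Q.take (t - P.length) := by
    rw [List.take_append, List.take_of_length_le (by omega)]
  have e2 : (P' ++ Q).take t' = P' ++ Q.take (t - P.length) := by
    rw [List.take_append, List.take_of_length_le (by omega)]
    congr 2
    omega
  have hl : D.n ≤ (Q.take (t - P.length)).length := by
    rw [List.length_take]; omega
  rw [e1, e2, D.loc _ _ hl, D.loc _ _ hl]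

theorem s1 (v b : V) (P Q : List α) (hP : P ∈ D.LP1 v) (hQ : Q ∈ D.RQ1 b) :
    P ++ Q ∈ D.XX ∧ D.T v (P ++ Q) = b := hQ.2 v P hP

theorem c1 (hF : ∀ X ∈ D.XX, ∀ P Q, P ++ Q = X → D.F Q) (X : List α) (hX : X ∈ D.XX)
    (hB : X ∉ D.Bad) (v : V) :
    ∃ P Q, P ++ Q = X ∧ P ∈ D.LP1 v ∧ Q ∈ D.RQ1 (D.T v X) := by
  have hz := D.hz
  have hE : ¬ D.E X := fun h => hB ⟨hX, h⟩
  unfold E at hE
  push Not at hE
  obtain ⟨hE1, hE2, hE3⟩ := hE
  have hYl : (X.drop D.p0).length = X.length - D.p0 := by rw [List.length_drop]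
  obtain ⟨P', Q, hPQ, hl, hr⟩ := D.cmp1 (X.drop D.p0) (by omega) (by rw [hYl]; exact hE3)
    (D.act v ((X.take D.p0).map D.φ).prod + D.nu (X.take D.p0) 1)
  obtain ⟨b, hb⟩ := Option.isSome_iff_exists.1 hr
  have hP'l := D.hlam1 _ _ hl
  have hX1l : (X.take D.p0).length = D.p0 := by rw [List.length_take]; omega
  have hX' : (X.take D.p0 ++ P') ++ Q = X := by
    rw [List.append_assoc, hPQ, List.take_append_drop]
  have hQl : P'.length + Q.length = X.length - D.p0 := by
    rw [← hYl, ← hPQ, List.length_append]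
  refine ⟨X.take D.p0 ++ P', Q, hX', ⟨?_, ?_⟩, hF X hX _ _ hX', ?_⟩
  · rw [List.length_append]; omega
  · rw [List.drop_left' hX1l, List.take_left' hX1l]
    exact hl
  · rintro v' P2 ⟨hP2, hl2⟩
    have hP2l := D.hlam1 _ _ hl2
    rw [List.length_drop] at hP2l
    have e1 := D.snd1 _ _ _ _ hl hb (by omega)
    have e2 := D.snd1 _ _ _ _ hl2 hb (by omega)
    have hP2l' : (P2.take D.p0).length = D.p0 := by rw [List.length_take]; omega
    have eT : D.T v' (P2 ++ Q) = b := by
      have : P2 ++ Q = P2.take D.p0 ++ (P2.drop D.p0 ++ Q) := by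
        rw [← List.append_assoc, List.take_append_drop]
      rw [this, T_eq' _ _ _ hP2l', e2]
    have eX : D.T v X = b := by
      rw [T_eq, ← hPQ, e1]
    refine ⟨⟨?_, ?_, ?_⟩, by rw [eT, eX]⟩
    · rw [List.length_append]; omega
    · rw [D.loc _ _ (by omega)]
      have := hX.2.1
      rw [← hX', D.loc _ _ (by omega)] at this
      exact this
    · intro t ht1 ht2 hw
      rw [List.length_append] at ht2
      have hPl : (X.take D.p0 ++ P').length = D.p0 + P'.length := by
        rw [List.length_append, hX1l]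
      rw [wo_take_append (P' := X.take D.p0 ++ P') (t' := t + (D.p0 + P'.length) - P2.length)
        (by omega) (by omega) (by omega), hX'] at hw
      by_cases hs : D.z ≤ t + (D.p0 + P'.length) - P2.length
      · exact hX.2.2 _ hs (by omega) hw
      · exact hE1 _ (by omega) (by omega) hw

theorem s2 (v b : V) (P Q r : List α) (hP : P ∈ D.LP2 v) (hQ : Q ∈ D.RQ2 b)
    (h : P ++ Q ++ r ∈ Str D.Bad) : P ++ Q ∈ Lg D.Bad D.T v b := by
  have hz := D.hz
  obtain ⟨hQF, hQW, hQl, hQ2⟩ := hQ
  obtain ⟨l, hl, e⟩ := h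
  have hPQl : D.z ≤ (P ++ Q).length := by rw [List.length_append]; omega
  cases l with
  | nil =>
    exfalso
    have := congrArg List.length e
    simp only [List.flatten_nil, List.length_nil, List.length_append] at this
    omega
  | cons X l =>
    have hX : X ∈ D.Bad := hl X (by simp)
    rw [List.flatten_cons] at e
    have hpre : X <+: P ++ Q ∨ P ++ Q <+: X :=
      List.prefix_or_prefix_of_prefix (l₃ := P ++ Q ++ r) ⟨_, e⟩ (List.prefix_append _ _)
    have hpre' : X <+: P ++ Q := by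
      rcases hpre with h | h
      · exact h
      · obtain ⟨s, hs⟩ := h
        rcases s with _ | ⟨a, s⟩
        · rw [List.append_nil] at hs
          rw [hs]
        · exfalso
          refine hX.1.2.2 (P ++ Q).length hPQl ?_ ?_
          · rw [← hs, List.length_append (as := P ++ Q)]; simp
          · rw [← hs, List.take_left' rfl, D.loc _ _ (by omega)]
            exact hQW
    obtain ⟨Y, hY, Y', hY', e', hb⟩ := hQ2 v P hP ⟨X, hX, hpre'⟩
    refine ⟨[Y, Y'], ?_, by simp [e'], by simpa using hb⟩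
    intro Z hZ
    simp only [List.mem_cons, List.not_mem_nil, or_false] at hZ
    rcases hZ with rfl | rfl
    · exact hY
    · exact hY'

/-- scheme 2, completeness, from the spoil hypothesis -/
theorem c2 (hF : ∀ X ∈ D.XX, ∀ X' ∈ D.XX, ∀ P Q, P ++ Q = X ++ X' → D.F Q)
    (hSP : ∀ X ∈ D.Bad, ∀ X' ∈ D.Bad, ∃ J : Finset ℕ, J.card < D.R ∧ ∀ k < D.K, ∀ j < D.K,
      j ≠ k → ∀ P' : List α, P'.length = D.c j → ∀ Y ∈ D.Bad,
        Y <+: P' ++ (X ++ X').drop (D.c k) → k ∈ J)
    (X : List α) (hX : X ∈ D.Bad) (X' : List α) (hX' : X' ∈ D.Bad) (v : V) :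
    ∃ P Q, P ++ Q = X ++ X' ∧ P ∈ D.LP2 v ∧ Q ∈ D.RQ2 (D.T (D.T v X) X') := by
  have hz := D.hz
  obtain ⟨J, hJ, hsp⟩ := hSP X hX X' hX'
  have hXl := hX.1.1
  have hX'l := hX'.1.1
  have hX1l : (X.take D.p0).length = D.p0 := by rw [List.length_take]; omega
  obtain ⟨I, hI, hIk⟩ := D.hG.complete (X.take D.p0) 1 v (fun k hk => by
    rw [hX1l]; exact D.hcp k hk)
  have : ∃ k ∈ I, k ∉ J := by
    by_contra hcon
    push Not at hcon
    have := Finset.card_le_card (fun k hk => hcon k hk : I ⊆ J)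
    omega
  obtain ⟨k, hkI, hkJ⟩ := this
  obtain ⟨hk, hl, hr⟩ := hIk k hkI
  obtain ⟨b0, hb0⟩ := Option.isSome_iff_exists.1 hr
  have hpk := D.hcp k hk
  rw [List.take_take, min_eq_left hpk] at hl
  rw [List.drop_take] at hb0
  have hUt : (X ++ X').take (D.c k) = X.take (D.c k) := by
    rw [List.take_append_of_le_length (by omega)]
  have hUd : (X ++ X').drop (D.c k) = X.drop (D.c k) ++ X' := by
    rw [List.drop_append_of_le_length (by omega)]
  have hcl : (X.take (D.c k)).length = D.c k := by rw [List.length_take]; omega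
  have hsplit : X.take (D.c k) ++ (X.drop (D.c k) ++ X') = X ++ X' := by
    rw [← List.append_assoc, List.take_append_drop]
  have hQlen : (X.drop (D.c k) ++ X').length = X.length - D.c k + X'.length := by
    rw [List.length_append, List.length_drop]
  refine ⟨X.take (D.c k), X.drop (D.c k) ++ X', hsplit, ⟨k, hk, hcl, hl⟩,
    hF X hX.1 X' hX'.1 _ _ hsplit, ?_, by omega, ?_⟩
  · rw [D.loc _ _ (by omega)]
    exact hX'.1.2.1
  · rintro v' P' ⟨j, hj, hP'l, hl'⟩ ⟨Y, hY, hYp⟩
    have hjk : j = k := by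
      by_contra hne
      refine hkJ (hsp k hk j hj hne P' hP'l Y hY ?_)
      rw [hUd]
      exact hYp
    subst hjk
    have hYl := hY.1.1
    -- lengths agree
    have hYt : Y = (P' ++ (X.drop (D.c j) ++ X')).take Y.length := by
      obtain ⟨s, hs⟩ := hYp
      rw [← hs, List.take_left' rfl]
    have hYle : Y.length ≤ D.c j + (X.length - D.c j + X'.length) := by
      have := hYp.length_le
      rw [List.length_append, hQlen, hP'l] at this
      exact this
    have hlen : Y.length = X.length := by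
      rcases lt_trichotomy Y.length X.length with h | h | h
      · exfalso
        refine hX.1.2.2 Y.length hYl h ?_
        have h1 := hY.1.2.1
        rw [hYt, wo_take_append (P' := X.take (D.c j)) (t' := Y.length) (by omega) (by omega)
          (by omega), hsplit, List.take_append_of_le_length (by omega)] at h1
        exact h1
      · exact h
      · exfalso
        refine hY.1.2.2 X.length hXl h ?_
        have h1 : D.Wo ((X.take (D.c j) ++ (X.drop (D.c j) ++ X')).take X.length) := by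
          rw [hsplit, List.take_left' rfl]
          exact hX.1.2.1
        rw [wo_take_append (P' := P') (t' := X.length) (by omega) (by omega) (by omega)] at h1
        rw [hYt, List.take_take, min_eq_left (by omega)]
        exact h1
    have hYe : Y = P' ++ X.drop (D.c j) := by
      rw [hYt, hlen, ← List.append_assoc, List.take_left']
      rw [List.length_append, List.length_drop, hP'l]; omega
    have hd : X.drop (D.c j) = (X.drop (D.c j)).take (D.p0 - D.c j) ++ X.drop D.p0 := by
      conv_lhs => rw [← List.take_append_drop (D.p0 - D.c j) (X.drop (D.c j))]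
      rw [List.drop_drop]
      congr 2
      omega
    have hQ0l : ((X.drop (D.c j)).take (D.p0 - D.c j)).length = D.p0 - D.c j := by
      rw [List.length_take, List.length_drop]; omega
    have g1 := D.hG.sound j hk P' _ 1 v' b0 hP'l hl' hb0
    have g2 := D.hG.sound j hk (X.take (D.c j)) _ 1 v b0 hcl hl hb0
    rw [mul_one] at g1 g2
    have hTY : D.T v' Y = D.act b0 ((X.drop D.p0).map D.φ).prod + D.nu1 (X.drop D.p0) := by
      rw [hYe, hd, ← List.append_assoc, T_eq' _ _ _ (by
        rw [List.length_append, hQ0l, hP'l]; omega), g1]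
      rfl
    have hTX : D.T v X = D.act b0 ((X.drop D.p0).map D.φ).prod + D.nu1 (X.drop D.p0) := by
      have e0 : X = X.take (D.c j) ++ X.drop (D.c j) := (List.take_append_drop _ _).symm
      conv_lhs => rw [e0, hd]
      rw [← List.append_assoc, T_eq' _ _ _ (by
        rw [List.length_append, hQ0l, hcl]; omega), g2]
      rfl
    refine ⟨Y, hY, X', hX', ?_, by rw [hTY, hTX]⟩
    rw [hYe, List.append_assoc]

end Dt

end Crest.Agent.R320.Inst5_634
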