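import Mathlib

/-!
Row 320, ALL WORDS AT ONCE (plan #13253 / #13406, 852 #13483, 870 #13394): the two concrete schemes in
870's literal form (s1) (s2) (cc) (ro) (h3), from
* a right-looking wall rule `R` (window `n`, gaps `> Wg`), used left-looking (467),
* scheme 1 = a gadget (852 G1 / 693) `lam1 rho1 nu1`, complete off `BadT`,
* scheme 2 = 237's exact gadget `lam2 rho2 nu2` at the places `c k`, with the spoiling count `spoil`.
-/

set_option autoImplicit false
set_option linter.unusedSectionVars false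

namespace Crest.Agent.R320.Inst5_905

/-- the candidate anchor `d` is bad for the walls `Wl` -/
def BadC (z p0 N1 : ℕ) (BadT : ℕ → Prop) (Wl : ℤ → Prop) (d : ℤ) : Prop :=
  (∃ t, Wl t ∧ d + z - N1 ≤ t ∧ t < d + z + N1) ∨
  (∃ t, Wl t ∧ d + z ≤ t ∧ (∀ s, d + z ≤ s → s < t → ¬ Wl s) ∧ BadT (t - d - p0).toNat)

structure Pm (α S V : Type) [Monoid S] [AddCommGroup V] where
  φ : List α → S
  hφ : ∀ u v, φ (u ++ v) = φ u * φ v
  act : V → S → V
  act_mul : ∀ v s t, act v (s * t) = act (act v s) t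
  act_add : ∀ v w s, act (v + w) s = act v s + act w s
  R : List α → Prop
  n : ℕ
  hn : 0 < n
  R_loc : ∀ Q, R Q ↔ R (Q.take n)
  R_len : ∀ Q, R Q → n ≤ Q.length
  Wg : ℕ
  R_gap : ∀ Q d, R Q → 0 < d → d ≤ Wg → ¬ R (Q.drop d)
  (p0 N1 z : ℕ)
  lam1 : List α → Option V
  rho1 : List α → Option V
  nu1 : List α → V
  BadT : ℕ → Prop
  lam1_lt : ∀ P, lam1 P ≠ none → P.length < N1
  sound1 : ∀ P Q v b, lam1 P = some v → rho1 Q = some b → b = act v (φ (P ++ Q)) + nu1 (P ++ Q)
  compl1 : ∀ X v, ¬ BadT X.length → N1 ≤ X.length →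
    ∃ P Q, X = P ++ Q ∧ lam1 P = some v ∧ (rho1 Q).isSome
  K : ℕ
  c : ℕ → ℕ
  c_le : ∀ k < K, c k ≤ p0
  lam2 : ℕ → List α → Option V
  rho2 : ℕ → List α → Option V
  nu2 : List α → V
  sound2 : ∀ k < K, ∀ P Q v b, P.length = c k → lam2 k P = some v → rho2 k Q = some b →
    b = act v (φ (P ++ Q)) + nu2 (P ++ Q)
  C0 : ℕ
  compl2 : ∀ (u : List α) (v : V), (∀ k < K, c k ≤ u.length) → ∃ I : Finset ℕ, C0 < I.card ∧
    ∀ k ∈ I, k < K ∧ lam2 k (u.take (c k)) = some v ∧ (rho2 k (u.drop (c k))).isSome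
  spoil : ∀ Wl : ℤ → Prop, (∀ s t, Wl s → Wl t → s < t → (Wg : ℤ) < t - s) →
    ∃ Sp : Finset ℕ, Sp.card ≤ C0 ∧ ∀ k < K, k ∉ Sp → ∀ k' < K, k' ≠ k →
      ¬ BadC z p0 N1 BadT Wl ((c k : ℤ) - c k')
  hz : p0 + N1 + n < z

namespace Pm

variable {α S V : Type} [Monoid S] [AddCommGroup V] (p : Pm α S V)

/-- left-looking wall at the place `t` of `X` -/
def wl (X : List α) (t : ℕ) : Prop := p.n ≤ t ∧ p.R (X.drop (t - p.n))

theorem wl_le {X : List α} {t : ℕ} (h : p.wl X t) : t ≤ X.length := by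
  have h1 := p.R_len _ h.2
  have h2 := p.hn
  have h3 := h.1
  rw [List.length_drop] at h1
  omega

theorem wl_app {X Y : List α} {t : ℕ} (h : t ≤ X.length) : p.wl (X ++ Y) t ↔ p.wl X t := by
  unfold wl
  refine and_congr_right fun hn => ?_
  rw [List.drop_append_of_le_length (by omega), p.R_loc (X.drop (t - p.n) ++ Y),
    p.R_loc (X.drop (t - p.n)),
    List.take_append_of_le_length (by rw [List.length_drop]; omega)]

theorem wl_shift {P Q : List α} {t : ℕ} (h : p.n ≤ t) : p.wl (P ++ Q) (P.length + t) ↔ p.wl Q t := by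
  unfold wl
  have e : P.length + t - p.n = P.length + (t - p.n) := by omega
  rw [e, List.drop_append]
  simp only [List.drop_eq_nil_of_le (Nat.le_add_right _ _), List.nil_append,
    Nat.add_sub_cancel_left]
  constructor
  · rintro ⟨_, h2⟩; exact ⟨h, h2⟩
  · rintro ⟨_, h2⟩; exact ⟨by omega, h2⟩

theorem wl_gap {X : List α} {s t : ℕ} (hs : p.wl X s) (ht : p.wl X t) (h : s < t) :
    p.Wg < t - s := by
  by_contra hc
  have h1 := p.R_gap _ (t - s) hs.2 (by omega) (by omega)
  rw [List.drop_drop] at h1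
  have e : s - p.n + (t - s) = t - p.n := by have := hs.1; omega
  rw [e] at h1
  exact h1 ht.2

/-- the block code -/
def XX (X : List α) : Prop :=
  p.z ≤ X.length ∧ p.wl X X.length ∧ ∀ t, p.z ≤ t → t < X.length → ¬ p.wl X t

/-- no prefix is a block -/
def NB (u : List α) : Prop := ∀ X, X <+: u → ¬ p.XX X

def T (v : V) (X : List α) : V :=
  p.act (p.act v (p.φ (X.take p.p0)) + p.nu2 (X.take p.p0)) (p.φ (X.drop p.p0)) +
    p.nu1 (X.drop p.p0)

theorem T_eq {X1 Y : List α} (v : V) (h : X1.length = p.p0) :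
    p.T v (X1 ++ Y) = p.act (p.act v (p.φ X1) + p.nu2 X1) (p.φ Y) + p.nu1 Y := by
  unfold T
  rw [← h, List.take_left, List.drop_left]

theorem ro (v v' : V) (X : List α) : p.T v X - p.T v' X = p.act (v - v') (p.φ X) := by
  have h0 : ∀ w w' s, p.act (w - w') s = p.act w s - p.act w' s := by
    intro w w' s
    have := p.act_add (w - w') w' s
    rw [sub_add_cancel] at this
    rw [this]; abel
  unfold T
  have h1 : p.φ X = p.φ (X.take p.p0) * p.φ (X.drop p.p0) := by
    rw [← p.hφ, List.take_append_drop]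
  rw [h1, p.act_mul, h0, h0, p.act_add, p.act_add]
  abel

def LP1 (v : V) (P : List α) : Prop :=
  p.p0 ≤ P.length ∧ p.lam1 (P.drop p.p0) = some (p.act v (p.φ (P.take p.p0)) + p.nu2 (P.take p.p0))

/-- right-legality of scheme 1 -/
def RL (Q : List α) : Prop :=
  p.z ≤ p.p0 + Q.length ∧ p.wl Q Q.length ∧ ∀ t, p.z ≤ p.p0 + p.N1 + t → t < Q.length → ¬ p.wl Q t

open Classical in
noncomputable def rq1 (Q : List α) : Option V := if p.RL Q then p.rho1 Q else none

theorem LP1_len {v : V} {P : List α} (h : p.LP1 v P) : P.length < p.p0 + p.N1 := by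
  have h1 := p.lam1_lt (P.drop p.p0) (by rw [h.2]; simp)
  rw [List.length_drop] at h1
  have := h.1
  omega

theorem NB_short {P : List α} (h : P.length < p.z) : p.NB P := by
  intro X hX hXX
  have h1 := hXX.1
  have h2 := hX.length_le
  omega

theorem LP1_NB {v : V} {P : List α} (h : p.LP1 v P) : p.NB P := by
  refine p.NB_short ?_
  have := p.LP1_len h
  have := p.hz
  omega

/-- **(s1)** -/
theorem s1 {v b : V} {P Q : List α} (hP : p.LP1 v P) (hQ : p.rq1 Q = some b) :
    p.XX (P ++ Q) ∧ p.T v (P ++ Q) = b := by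
  unfold rq1 at hQ
  split_ifs at hQ with hR
  have hz := p.hz
  have hl := p.LP1_len hP
  have hl0 := hP.1
  obtain ⟨r1, r2, r3⟩ := hR
  refine ⟨⟨?_, ?_, ?_⟩, ?_⟩
  · rw [List.length_append]; omega
  · rw [List.length_append]
    exact (p.wl_shift (by omega)).2 r2
  · intro t ht1 ht2
    rw [List.length_append] at ht2
    obtain ⟨t', rfl⟩ := Nat.exists_eq_add_of_le (show P.length ≤ t by omega)
    rw [p.wl_shift (by omega)]
    exact r3 t' (by omega) (by omega)
  · have e : P ++ Q = P.take p.p0 ++ (P.drop p.p0 ++ Q) := by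
      rw [← List.append_assoc, List.take_append_drop]
    rw [e, p.T_eq v (by rw [List.length_take]; omega)]
    exact (p.sound1 _ _ _ _ hP.2 hQ).symm

/-- bad blocks -/
def BadX (X : List α) : Prop :=
  (∃ t, p.wl X t ∧ p.z ≤ t + p.N1 ∧ t < p.z + p.N1) ∨ p.BadT (X.length - p.p0)

theorem cc1 {X : List α} (hX : p.XX X) (hB : ¬ p.BadX X) (v : V) :
    ∃ P Q, X = P ++ Q ∧ p.LP1 v P ∧ p.rq1 Q ≠ none := by
  have hz := p.hz
  obtain ⟨x1, x2, x3⟩ := hX
  unfold BadX at hB
  push Not at hB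
  obtain ⟨hE, hT⟩ := hB
  have hlen : p.z + p.N1 ≤ X.length := hE _ x2 (by omega)
  obtain ⟨P', Q', e, hL, hR⟩ := p.compl1 (X.drop p.p0)
    (p.act v (p.φ (X.take p.p0)) + p.nu2 (X.take p.p0)) (by rwa [List.length_drop])
    (by rw [List.length_drop]; omega)
  have hP'l := p.lam1_lt P' (by rw [hL]; simp)
  have hXe : X = (X.take p.p0 ++ P') ++ Q' := by
    rw [List.append_assoc, ← e, List.take_append_drop]
  have htl : (X.take p.p0).length = p.p0 := by rw [List.length_take]; omega
  have hlX : X.length = p.p0 + P'.length + Q'.length := by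
    conv_lhs => rw [hXe]
    rw [List.length_append, List.length_append, htl]
  have hsh : ∀ t, p.n ≤ t → (p.wl X (p.p0 + P'.length + t) ↔ p.wl Q' t) := by
    intro t ht
    have h1 := p.wl_shift (P := X.take p.p0 ++ P') (Q := Q') (t := t) ht
    rw [← hXe, List.length_append, htl] at h1
    exact h1
  refine ⟨X.take p.p0 ++ P', Q', hXe, ⟨?_, ?_⟩, ?_⟩
  · rw [List.length_append, htl]; omega
  · have h1 : (X.take p.p0 ++ P').drop p.p0 = P' := List.drop_left' htl
    have h2 : (X.take p.p0 ++ P').take p.p0 = X.take p.p0 := List.take_left' htl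
    rw [h1, h2]; exact hL
  · have hRL : p.RL Q' := by
      refine ⟨by omega, ?_, ?_⟩
      · rw [← hsh _ (by omega), ← hlX]; exact x2
      · intro t ht1 ht2 hw
        rw [← hsh _ (by omega)] at hw
        by_cases h : p.p0 + P'.length + t < p.z
        · have := hE _ hw (by omega); omega
        · exact x3 _ (by omega) (by omega) hw
    unfold rq1
    rw [if_pos hRL]
    intro h0
    rw [h0] at hR
    simp at hR

def LP2 (v : V) (P : List α) : Prop := ∃ k < p.K, P.length = p.c k ∧ p.lam2 k P = some v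

theorem LP2_len {v : V} {P : List α} (h : p.LP2 v P) : P.length ≤ p.p0 := by
  obtain ⟨k, hk, h1, _⟩ := h
  rw [h1]; exact p.c_le k hk

theorem LP2_NB {v : V} {P : List α} (h : p.LP2 v P) : p.NB P := by
  refine p.NB_short ?_
  have := p.LP2_len h
  have := p.hz
  omega

/-- the rest of the block of the anchor `c k` places before the right word -/
def Blk (k : ℕ) (Q : List α) : Prop :=
  p.z ≤ p.c k + Q.length ∧ p.wl Q Q.length ∧ ∀ t, p.z ≤ p.c k + t → t < Q.length → ¬ p.wl Q t

def badQ (k : ℕ) (Q : List α) : Prop :=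
  (∃ s, p.wl Q s ∧ p.z ≤ p.c k + s + p.N1 ∧ p.c k + s < p.z + p.N1) ∨
  (∃ t, p.wl Q t ∧ p.z ≤ p.c k + t ∧ (∀ s, p.z ≤ p.c k + s → s < t → ¬ p.wl Q s) ∧
    p.BadT (p.c k + t - p.p0))

def R2P (Q : List α) (b : V) : Prop :=
  ∃ (k : ℕ) (Q1 X2 : List α) (y : V), k < p.K ∧ Q = Q1 ++ X2 ∧ p.XX X2 ∧ p.Blk k Q1 ∧
    (∀ k' < p.K, k' ≠ k → ¬ p.badQ k' Q) ∧ p.rho2 k (Q1.take (p.p0 - p.c k)) = some y ∧
    b = p.T (p.act y (p.φ (Q1.drop (p.p0 - p.c k))) + p.nu1 (Q1.drop (p.p0 - p.c k))) X2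

open Classical in
noncomputable def rq2 (Q : List α) : Option V :=
  if h : ∃ b, p.R2P Q b then some h.choose else none

theorem blk_XX {k : ℕ} {P Q : List α} (hP : P.length = p.c k) (hPl : P.length ≤ p.p0)
    (h : p.Blk k Q) : p.XX (P ++ Q) := by
  have hz := p.hz
  obtain ⟨b1, b2, b3⟩ := h
  refine ⟨?_, ?_, ?_⟩
  · rw [List.length_append]; omega
  · rw [List.length_append]; exact (p.wl_shift (by omega)).2 b2
  · intro t ht1 ht2
    rw [List.length_append] at ht2
    obtain ⟨t', rfl⟩ := Nat.exists_eq_add_of_le (show P.length ≤ t by omega)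
    rw [p.wl_shift (by omega)]
    exact b3 t' (by omega) (by omega)

/-- **(s2)** -/
theorem s2 {v b : V} {P Q : List α} (hP : p.LP2 v P) (hQ : p.rq2 Q = some b)
    (hun : ∀ P' Q' y, Q = P' ++ Q' ++ y → p.NB (P ++ P') → p.LP1 v (P ++ P') → p.rq1 Q' = none) :
    ∃ X1 X2, p.XX X1 ∧ p.XX X2 ∧ P ++ Q = X1 ++ X2 ∧ p.T (p.T v X1) X2 = b := by
  classical
  have hz := p.hz
  have hPl := p.LP2_len hP
  obtain ⟨k', hk', hPk, hlam⟩ := hP
  unfold rq2 at hQ
  split_ifs at hQ with hex
  have hsp := hex.choose_spec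
  rw [Option.some.inj hQ] at hsp
  obtain ⟨k, Q1, X2, y, hk, hQe, hX2, hB, hG, hrho, hb⟩ := hsp
  -- the true candidate is bad
  have hbad : p.badQ k' Q := by
    by_contra hnb
    -- first wall
    have hend : p.wl Q Q.length := by
      rw [hQe, List.length_append]
      exact (p.wl_shift (by have := hX2.1; omega)).2 hX2.2.1
    have hle : p.z ≤ p.c k' + Q.length := by
      rw [hQe, List.length_append]; have := hX2.1; omega
    have hexw : ∃ t, p.wl Q t ∧ p.z ≤ p.c k' + t := ⟨_, hend, hle⟩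
    set t := Nat.find hexw with ht
    obtain ⟨t1, t2⟩ : p.wl Q t ∧ p.z ≤ p.c k' + t := Nat.find_spec hexw
    have t3 : ∀ s, p.z ≤ p.c k' + s → s < t → ¬ p.wl Q s := fun s h1 h2 h3 =>
      Nat.find_min hexw h2 ⟨h3, h1⟩
    have htl : t ≤ Q.length := p.wl_le t1
    have htake : (Q.take t).length = t := by rw [List.length_take]; omega
    have hw : ∀ s, s ≤ t → (p.wl Q s ↔ p.wl (Q.take t) s) := by
      intro s hs
      have := p.wl_app (X := Q.take t) (Y := Q.drop t) (t := s) (by omega)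
      rwa [List.take_append_drop] at this
    have hBlk : p.Blk k' (Q.take t) := by
      refine ⟨by omega, ?_, ?_⟩
      · rw [htake]; exact (hw t le_rfl).1 t1
      · intro s hs1 hs2 hs3
        rw [htake] at hs2
        exact t3 s hs1 hs2 ((hw s hs2.le).2 hs3)
    have hXX := p.blk_XX hPk hPl hBlk
    have hnB : ¬ p.BadX (P ++ Q.take t) := by
      rintro (⟨s, hs, h1, h2⟩ | hT)
      · apply hnb
        left
        have hsP : P.length ≤ s := by omega
        obtain ⟨s', rfl⟩ := Nat.exists_eq_add_of_le hsP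
        rw [p.wl_shift (by omega)] at hs
        have hs' := p.wl_le hs
        exact ⟨s', (hw s' (by omega)).2 hs, by omega, by omega⟩
      · apply hnb
        right
        refine ⟨t, t1, t2, t3, ?_⟩
        rw [List.length_append, htake, hPk] at hT
        exact hT
    obtain ⟨P2, Q2, e, hL1, hR1⟩ := p.cc1 hXX hnB v
    have hPP : P.length ≤ P2.length := by have := hL1.1; omega
    have hpre : P <+: P2 := by
      have h1 : P <+: P ++ Q.take t := List.prefix_append _ _
      have h2 : P2 <+: P ++ Q.take t := by rw [e]; exact List.prefix_append _ _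
      exact List.prefix_of_prefix_length_le h1 h2 hPP
    obtain ⟨P', rfl⟩ := hpre
    rw [List.append_assoc] at e
    have e' := List.append_cancel_left e
    refine hR1 (hun P' Q2 (Q.drop t) ?_ (p.LP1_NB hL1) hL1)
    rw [← e', List.take_append_drop]
  have hkk : k' = k := by
    by_contra hne
    exact hG k' hk' hne hbad
  subst hkk
  refine ⟨P ++ Q1, X2, p.blk_XX hPk hPl hB, hX2, by rw [hQe, List.append_assoc], ?_⟩
  have hQ1 : p.p0 - p.c k' ≤ Q1.length := by have := hB.1; omega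
  have e : P ++ Q1 = (P ++ Q1.take (p.p0 - p.c k')) ++ Q1.drop (p.p0 - p.c k') := by
    rw [List.append_assoc, List.take_append_drop]
  have hl : (P ++ Q1.take (p.p0 - p.c k')).length = p.p0 := by
    rw [List.length_append, List.length_take]; omega
  rw [e, p.T_eq v hl, ← p.sound2 k' hk' _ _ _ _ hPk hlam hrho]
  exact hb.symm

/-- **(cc)** -/
theorem cc {X1 X2 : List α} (h1 : p.XX X1) (h2 : p.XX X2) (v : V) :
    (∃ P Q, X1 = P ++ Q ∧ p.LP1 v P ∧ p.rq1 Q ≠ none) ∨
    (∃ P Q, X1 ++ X2 = P ++ Q ∧ P.length < X1.length ∧ p.LP2 v P ∧ p.rq2 Q ≠ none) := by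
  classical
  have hz := p.hz
  by_cases hB : p.BadX X1
  swap
  · exact Or.inl (p.cc1 h1 hB v)
  right
  have htl : (X1.take p.p0).length = p.p0 := by
    rw [List.length_take]; have := h1.1; omega
  obtain ⟨I, hI, hIk⟩ := p.compl2 (X1.take p.p0) v (by rw [htl]; exact p.c_le)
  obtain ⟨Sp, hSp, hSpk⟩ := p.spoil (fun s => 0 ≤ s ∧ p.wl (X1 ++ X2) s.toNat) (by
    rintro s t ⟨s0, hs⟩ ⟨t0, ht⟩ hst
    have := p.wl_gap hs ht (by omega)
    omega)
  obtain ⟨k, hkI, hkS⟩ : ∃ k ∈ I, k ∉ Sp := by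
    by_contra hc
    push Not at hc
    have := Finset.card_le_card (fun k hk => hc k hk : I ⊆ Sp)
    omega
  obtain ⟨hk, hlam, hrho⟩ := hIk k hkI
  have hck := p.c_le k hk
  have hX1 := h1.1
  have hdl : (X1.drop (p.c k)).length = X1.length - p.c k := List.length_drop
  have hsplit : X1 ++ X2 = X1.take (p.c k) ++ (X1.drop (p.c k) ++ X2) := by
    rw [← List.append_assoc, List.take_append_drop]
  have htk : (X1.take (p.c k)).length = p.c k := by rw [List.length_take]; omega
  have hshift : ∀ s, p.n ≤ s → (p.wl (X1 ++ X2) (p.c k + s) ↔ p.wl (X1.drop (p.c k) ++ X2) s) := by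
    intro s hs
    have := p.wl_shift (P := X1.take (p.c k)) (Q := X1.drop (p.c k) ++ X2) hs
    rwa [← hsplit, htk] at this
  have hshift1 : ∀ s, p.n ≤ s → (p.wl X1 (p.c k + s) ↔ p.wl (X1.drop (p.c k)) s) := by
    intro s hs
    have := p.wl_shift (P := X1.take (p.c k)) (Q := X1.drop (p.c k)) hs
    rwa [List.take_append_drop, htk] at this
  refine ⟨X1.take (p.c k), X1.drop (p.c k) ++ X2, hsplit, by omega, ⟨k, hk, htk, ?_⟩, ?_⟩
  · rw [List.take_take, min_eq_left hck] at hlam
    exact hlam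
  · have hd : (X1.take p.p0).drop (p.c k) = (X1.drop (p.c k)).take (p.p0 - p.c k) := by
      rw [List.drop_take]
    rw [hd] at hrho
    obtain ⟨y, hy⟩ := Option.isSome_iff_exists.1 hrho
    have hex : ∃ b, p.R2P (X1.drop (p.c k) ++ X2) b := by
      refine ⟨_, k, X1.drop (p.c k), X2, y, hk, rfl, h2, ⟨by omega, ?_, ?_⟩, ?_, hy, rfl⟩
      · rw [← hshift1 _ (by omega), hdl, Nat.add_sub_cancel' (by omega)]
        exact h1.2.1
      · intro t ht1 ht2
        rw [← hshift1 _ (by omega)]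
        exact h1.2.2 _ ht1 (by omega)
      · intro k' hk' hne hbad
        have hck' := p.c_le k' hk'
        apply hSpk k hk hkS k' hk' hne
        rcases hbad with ⟨s, hs, e1, e2⟩ | ⟨t, ht, e1, e2, e3⟩
        · left
          refine ⟨((p.c k + s : ℕ) : ℤ), ⟨by omega, ?_⟩, by push_cast; omega, by push_cast; omega⟩
          rw [Int.toNat_natCast, hshift _ (by omega)]
          exact hs
        · right
          refine ⟨((p.c k + t : ℕ) : ℤ), ⟨by omega, ?_⟩, by push_cast; omega, ?_, ?_⟩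
          · rw [Int.toNat_natCast, hshift _ (by omega)]
            exact ht
          · rintro s hs1 hs2 ⟨hs0, hs3⟩
            obtain ⟨s', hs'⟩ := Int.eq_ofNat_of_zero_le hs0
            subst hs'
            rw [Int.toNat_natCast] at hs3
            push_cast at hs2
            obtain ⟨s'', rfl⟩ := Nat.exists_eq_add_of_le (show p.c k ≤ s' by omega)
            rw [hshift _ (by omega)] at hs3
            exact e2 s'' (by omega) (by omega) hs3
          · have e : (((p.c k + t : ℕ) : ℤ) - ((p.c k : ℤ) - p.c k') - p.p0).toNat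
                = p.c k' + t - p.p0 := by omega
            rw [e]; exact e3
    unfold rq2
    rw [dif_pos hex]
    simp

end Pm

end Crest.Agent.R320.Inst5_905
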