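import Crest.Agent.R320.Inst5_634

/-!
# Row 320: spoil count for the instance of 467's `top5` (helper634)
-/

set_option autoImplicit false
set_option linter.unusedSectionVars false

namespace Crest.Agent.R320.Inst5_634

open Crest.RegLang Crest.Agent.R320.Hk_851 Crest.Agent.R320.Blk467 Crest.Agent.R320.Sch2_606

namespace Dt

variable {α S V : Type} [Monoid S] [AddCommGroup V] {D : Dt α S V}

theorem spoil (X : List α) (hX : X ∈ D.Bad) (X' : List α) (hX' : X' ∈ D.Bad) :
    ∃ J : Finset ℕ, J.card < D.R ∧ ∀ k < D.K, ∀ j < D.K,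
      j ≠ k → ∀ P' : List α, P'.length = D.c j → ∀ Y ∈ D.Bad,
        Y <+: P' ++ (X ++ X').drop (D.c k) → k ∈ J := by
  classical
  have hz := D.hz
  have hXl := hX.1.1
  have hX'l := hX'.1.1
  have hUl : (X ++ X').length = X.length + X'.length := List.length_append
  generalize hU : X ++ X' = U at *
  let Wp : ℕ → Prop := fun t => t ≤ U.length ∧ D.Wo (U.take t)
  have gapU : ∀ t t', Wp t → Wp t' → t < t' → D.W < t' - t := by
    rintro t t' ⟨h1, h2⟩ ⟨h3, h4⟩ h5
    by_contra hcon
    have hl : (U.take t').length = t' := by rw [List.length_take]; omega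
    refine D.gap (U.take t') (t' - t) h4 (by omega) (by omega) ?_
    rw [hl, List.take_take, min_eq_left (by omega)]
    have : t' - (t' - t) = t := by omega
    rw [this]
    exact h2
  obtain ⟨w0, hw0, hw0u⟩ : ∃ w0, D.p0 + D.La ≤ w0 ∧ ∀ t, Wp t → D.z ≤ t + (D.p0 + D.N1) →
      t ≤ D.z + (D.p0 + D.N1) → t = w0 := by
    by_cases h : ∃ t, Wp t ∧ D.z ≤ t + (D.p0 + D.N1) ∧ t ≤ D.z + (D.p0 + D.N1)
    · obtain ⟨t, h1, h2, h3⟩ := h
      refine ⟨t, by omega, fun t' g1 g2 g3 => ?_⟩
      have hW := D.hW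
      rcases lt_trichotomy t t' with h | h | h
      · have := gapU _ _ h1 g1 h
        omega
      · exact h.symm
      · have := gapU _ _ g1 h1 h
        omega
    · exact ⟨D.z, by omega, fun t g1 g2 g3 => absurd ⟨t, g1, g2, g3⟩ h⟩
  obtain ⟨w1, hw1, hw1u⟩ : ∃ w1, D.p0 + D.La ≤ w1 ∧ ∀ w, Wp w → D.z + (D.p0 + D.N1) < w →
      (∀ t, D.z + (D.p0 + D.N1) < t → t < w → ¬ Wp t) → w = w1 := by
    by_cases h : ∃ w, Wp w ∧ D.z + (D.p0 + D.N1) < w ∧
      (∀ t, D.z + (D.p0 + D.N1) < t → t < w → ¬ Wp t)
    · obtain ⟨w, h1, h2, h3⟩ := h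
      refine ⟨w, by omega, fun w' g1 g2 g3 => ?_⟩
      rcases lt_trichotomy w w' with h | h | h
      · exact absurd h1 (g3 _ h2 h)
      · exact h.symm
      · exact absurd g1 (h3 _ g2 h)
    · exact ⟨D.z, by omega, fun t g1 g2 g3 => absurd ⟨t, g1, g2, g3⟩ h⟩
  let R2 : Finset (ℕ × ℕ) := (Finset.range D.K) ×ˢ (Finset.range D.K)
  let PE : Finset (ℕ × ℕ) := R2.filter (fun q => q.1 ≠ q.2 ∧
    D.c q.1 + D.z ≤ w0 + D.c q.2 + D.N1 ∧ w0 + D.c q.2 ≤ D.c q.1 + D.z + D.N1)
  let PB : ℕ → Finset (ℕ × ℕ) := fun w => R2.filter (fun q => q.1 ≠ q.2 ∧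
    D.BadL (w - D.p0 + D.c q.2 - D.c q.1))
  have hPE : PE.card ≤ 1 := by
    rw [Finset.card_le_one]
    rintro ⟨i, j⟩ h1 ⟨k, l⟩ h2
    simp only [PE, R2, Finset.mem_filter, Finset.mem_product, Finset.mem_range] at h1 h2
    by_contra hne
    have := D.hgol i j k l h1.1.1 h1.1.2 h2.1.1 h2.1.2 h1.2.1 h2.2.1 hne
    omega
  have hPB : ∀ w, D.p0 + D.La ≤ w → (PB w).card ≤ D.C0 := by
    intro w hw
    refine D.hspo (w - D.p0) (by omega) (PB w) ?_
    intro q hq
    simp only [PB, R2, Finset.mem_filter, Finset.mem_product, Finset.mem_range] at hq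
    exact ⟨hq.1.1, hq.1.2, hq.2.1, hq.2.2⟩
  refine ⟨((PE ∪ PB w0) ∪ PB w1).image Prod.fst, ?_, ?_⟩
  · have h1 := Finset.card_image_le (s := (PE ∪ PB w0) ∪ PB w1) (f := Prod.fst)
    have h2 := Finset.card_union_le (PE ∪ PB w0) (PB w1)
    have h3 := Finset.card_union_le PE (PB w0)
    have h4 := hPB w0 hw0
    have h5 := hPB w1 hw1
    have h6 := D.hR
    omega
  · intro k hk j hj hjk P' hP' Y hY hYp
    have hck := D.hcp k hk
    have hcj := D.hcp j hj
    have hYl := hY.1.1
    have hcl : (U.take (D.c k)).length = D.c k := by rw [List.length_take]; omega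
    have hdl : (U.drop (D.c k)).length = U.length - D.c k := by rw [List.length_drop]
    have hYt : Y = (P' ++ U.drop (D.c k)).take Y.length := by
      obtain ⟨s, hs⟩ := hYp
      rw [← hs, List.take_left' rfl]
    have hYle : Y.length ≤ D.c j + (U.length - D.c k) := by
      have := hYp.length_le
      rw [List.length_append, hdl, hP'] at this
      exact this
    have tr : ∀ t, D.p0 + D.n ≤ t → t ≤ Y.length →
        (D.Wo (Y.take t) ↔ D.Wo (U.take (D.c k + t - D.c j))) := by
      intro t h1 h2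
      have e1 : Y.take t = (P' ++ U.drop (D.c k)).take t := by
        conv_lhs => rw [hYt]
        rw [List.take_take, min_eq_left h2]
      rw [e1, wo_take_append (P' := U.take (D.c k)) (t' := D.c k + t - D.c j) (by omega)
        (by omega) (by omega), List.take_append_drop]
    have hWw : Wp (D.c k + Y.length - D.c j) := by
      refine ⟨by omega, (tr Y.length (by omega) le_rfl).1 ?_⟩
      rw [List.take_length]
      exact hY.1.2.1
    have hno : ∀ t, D.c k + D.z ≤ t + D.c j → t < D.c k + Y.length - D.c j → ¬ Wp t := by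
      rintro t h1 h2 ⟨h3, h4⟩
      have h5 : D.c k + (t + D.c j - D.c k) - D.c j = t := by omega
      refine hY.1.2.2 (t + D.c j - D.c k) (by omega) (by omega) ?_
      rw [tr _ (by omega) (by omega), h5]
      exact h4
    have hmem : (k, j) ∈ (PE ∪ PB w0) ∪ PB w1 := by
      rw [Finset.mem_union, Finset.mem_union]
      have hR2 : (k, j) ∈ R2 := by
        simp only [R2, Finset.mem_product, Finset.mem_range]
        exact ⟨hk, hj⟩
      rcases hY.2 with ⟨t, h1, h2, h3⟩ | h | h
      · left; left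
        have hWt : Wp (D.c k + t - D.c j) := by
          refine ⟨by omega, (tr t (by omega) (by omega)).1 h3⟩
        have := hw0u _ hWt (by omega) (by omega)
        simp only [PE, Finset.mem_filter]
        exact ⟨hR2, fun h => hjk h.symm, by omega, by omega⟩
      · left; left
        have := hw0u _ hWw (by omega) (by omega)
        simp only [PE, Finset.mem_filter]
        exact ⟨hR2, fun h => hjk h.symm, by omega, by omega⟩
      · by_cases hle : D.c k + Y.length - D.c j ≤ D.z + (D.p0 + D.N1)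
        · left; right
          have := hw0u _ hWw (by omega) hle
          simp only [PB, Finset.mem_filter]
          refine ⟨hR2, fun h => hjk h.symm, ?_⟩
          have e : w0 - D.p0 + D.c j - D.c k = Y.length - D.p0 := by omega
          rw [e]
          exact h
        · right
          have := hw1u _ hWw (by omega) (fun t g1 g2 => hno t (by omega) g2)
          simp only [PB, Finset.mem_filter]
          refine ⟨hR2, fun h => hjk h.symm, ?_⟩
          have e : w1 - D.p0 + D.c j - D.c k = Y.length - D.p0 := by omega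
          rw [e]
          exact h
    exact Finset.mem_image.2 ⟨_, hmem, rfl⟩

end Dt

end Crest.Agent.R320.Inst5_634
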