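import Crest.Agent.R320.Inst5b_634
import Crest.Agent.R320.Reg_236

/-!
# Row 320: heights of the languages of the instance of 467's `top5`, and the instance (helper634)
-/

set_option autoImplicit false
set_option linter.unusedSectionVars false

namespace Crest.Agent.R320.Inst5_634

open Crest.RegLang Crest.Agent.R320.Hk_851 Crest.Agent.R320.Blk467 Crest.Agent.R320.Sch2_606
  Crest.Agent.R320.FewWalls_228 Crest.Agent.R320.WallU_228

/-! ### regularity by a finite invariant -/

theorem reg_of_inv {α σ : Type} [Finite σ] (L : Language α) (st : List α → σ)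
    (h : ∀ x x', st x = st x' → ∀ y, x ++ y ∈ L → x' ++ y ∈ L) : L.IsRegular := by
  classical
  rw [Language.isRegular_iff_finite_range_leftQuotient]
  let g : σ → Language α := fun s => if h : ∃ x, st x = s then L.leftQuotient h.choose else ⊥
  refine (Set.finite_range g).subset ?_
  rintro _ ⟨x, rfl⟩
  refine ⟨st x, ?_⟩
  have hx : ∃ x', st x' = st x := ⟨x, rfl⟩
  show (if h : ∃ x', st x' = st x then L.leftQuotient h.choose else ⊥) = _
  rw [dif_pos hx]
  ext y
  exact ⟨h _ _ hx.choose_spec y, h _ _ hx.choose_spec.symm y⟩

/-- a predicate read off from a prefix of length `N`, the length mod `Pm` and the product of the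
word without its first `p0` letters -/
theorem reg_pred {α S : Type} [Finite α] [Monoid S] [Finite S] (φ : α → S) (N p0 Pm : ℕ)
    (hPm : 0 < Pm) (hp : p0 ≤ N) (Pr : List α → Prop)
    (h : ∀ x x', N ≤ x.length → N ≤ x'.length → x.take N = x'.take N →
      x.length % Pm = x'.length % Pm → ((x.drop p0).map φ).prod = ((x'.drop p0).map φ).prod →
      Pr x → Pr x') :
    Language.IsRegular ({x | N ≤ x.length ∧ Pr x} : Language α) := by
  haveI : Finite {u : List α // u.length ≤ N} := (List.finite_length_le α N).to_subtype
  refine reg_of_inv (σ := {u : List α // u.length ≤ N} × Fin Pm × S) _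
    (fun x => (⟨x.take N, by rw [List.length_take]; omega⟩, ⟨x.length % Pm, Nat.mod_lt _ hPm⟩,
      ((x.drop p0).map φ).prod)) ?_
  rintro x x' e y ⟨h1, h2⟩
  simp only [Prod.mk.injEq, Subtype.mk.injEq, Fin.mk.injEq] at e
  obtain ⟨e1, e2, e3⟩ := e
  have el := congrArg List.length e1
  rw [List.length_take, List.length_take] at el
  by_cases hx : N ≤ x.length
  · have hx' : N ≤ x'.length := by omega
    refine ⟨by rw [List.length_append]; omega, ?_⟩
    refine h (x ++ y) (x' ++ y) h1 (by rw [List.length_append]; omega) ?_ ?_ ?_ h2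
    · rw [List.take_append_of_le_length hx, List.take_append_of_le_length hx', e1]
    · rw [List.length_append, List.length_append, Nat.add_mod, e2, ← Nat.add_mod]
    · rw [List.drop_append_of_le_length (by omega), List.drop_append_of_le_length (by omega),
        List.map_append, List.map_append, List.prod_append, List.prod_append, e3]
  · have : x = x' := by
      rw [List.take_of_length_le (by omega), List.take_of_length_le (by omega)] at e1
      exact e1
    subst this
    exact ⟨h1, h2⟩

/-! ### number of walls -/

theorem nw_le {α : Type} {n : ℕ} {Sw : Set (List α)} {u : List α} {B : Finset ℕ}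
    (h : ∀ t, t ≤ u.length → WallU_228.Wo n Sw (u.take t) → t ∈ B) : nw n Sw u ≤ B.card := by
  classical
  unfold nw
  refine Finset.card_le_card_of_injOn (fun x => x + n) ?_ ?_
  · intro x hx
    have hx' := (Finset.mem_filter.1 (Finset.mem_coe.1 hx)).2
    obtain ⟨h1, h2⟩ := wo_take.1 hx'
    exact Finset.mem_coe.2 (h _ h1 h2)
  · intro x _ y _ hxy
    have : x + n = y + n := hxy
    omega

theorem nw_suffix {α : Type} {n : ℕ} {Sw : Set (List α)} (P Q : List α) :
    nw n Sw Q ≤ nw n Sw (P ++ Q) := by
  classical
  unfold nw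
  refine Finset.card_le_card_of_injOn (fun x => P.length + x) ?_ ?_
  · intro x hx
    obtain ⟨h0, h1⟩ := Finset.mem_filter.1 (Finset.mem_coe.1 hx)
    refine Finset.mem_coe.2 (Finset.mem_filter.2 ⟨?_, ?_⟩)
    · rw [Finset.mem_range] at h0 ⊢
      show P.length + x < (P ++ Q).length + 1
      rw [List.length_append]; omega
    · have := wl_drop (n := n) (S := Sw) (w := P ++ Q) (x := x) (m := P.length)
        (by rw [List.length_append]; omega)
      rw [List.drop_left] at this
      exact this.1 h1
  · intro x _ y _ hxy
    have : P.length + x = P.length + y := hxy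
    omega

namespace Dt

variable {α S V : Type} [Monoid S] [AddCommGroup V] {D : Dt α S V}

theorem nw_two {Sw : Set (List α)} (hWo : D.Wo = WallU_228.Wo D.n Sw) {X X' : List α}
    (hX : X ∈ D.XX) (hX' : X' ∈ D.XX) : nw D.n Sw (X ++ X') ≤ 2 * D.z + 3 := by
  classical
  have hz := D.hz
  have hXl := hX.1
  have hX'l := hX'.1
  have h : ∀ t, t ≤ (X ++ X').length → WallU_228.Wo D.n Sw ((X ++ X').take t) →
      t ∈ (Finset.range D.z ∪ {X.length}) ∪
        ((Finset.range D.z).image (fun s => X.length + s) ∪ {X.length + X'.length}) := by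
    intro t ht hw
    rw [← hWo] at hw
    rw [List.length_append] at ht
    simp only [Finset.mem_union, Finset.mem_range, Finset.mem_singleton, Finset.mem_image]
    by_cases h1 : t < D.z
    · exact Or.inl (Or.inl h1)
    · rcases lt_trichotomy t X.length with h2 | h2 | h2
      · exfalso
        rw [List.take_append_of_le_length (by omega)] at hw
        exact hX.2.2 t (by omega) h2 hw
      · exact Or.inl (Or.inr h2)
      · right
        by_cases h3 : t < X.length + D.z
        · exact Or.inl ⟨t - X.length, by omega, by omega⟩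
        · right
          by_contra hne
          have e1 : (X ++ X').take t = X ++ X'.take (t - X.length) := by
            rw [List.take_append, List.take_of_length_le (by omega)]
          rw [e1, D.loc _ _ (by rw [List.length_take]; omega)] at hw
          exact hX'.2.2 _ (by omega) (by omega) hw
  refine (nw_le h).trans ?_
  refine (Finset.card_union_le _ _).trans ?_
  have h1 := Finset.card_union_le (Finset.range D.z) {X.length}
  have h2 := Finset.card_union_le ((Finset.range D.z).image (fun s => X.length + s))
    {X.length + X'.length}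
  have h3 := Finset.card_image_le (s := Finset.range D.z) (f := fun s => X.length + s)
  rw [Finset.card_range, Finset.card_singleton] at h1
  rw [Finset.card_singleton] at h2
  rw [Finset.card_range] at h3
  omega

theorem nw_one {Sw : Set (List α)} (hWo : D.Wo = WallU_228.Wo D.n Sw) {X : List α}
    (hX : X ∈ D.XX) : nw D.n Sw X ≤ 2 * D.z + 3 := by
  classical
  have h : ∀ t, t ≤ X.length → WallU_228.Wo D.n Sw (X.take t) → t ∈ (Finset.range D.z ∪ {X.length}) := by
    intro t ht hw
    rw [← hWo] at hw
    simp only [Finset.mem_union, Finset.mem_range, Finset.mem_singleton]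
    by_contra hcon
    push Not at hcon
    exact hX.2.2 t (by omega) (by omega) hw
  refine (nw_le h).trans ?_
  have h1 := Finset.card_union_le (Finset.range D.z) {X.length}
  rw [Finset.card_range, Finset.card_singleton] at h1
  omega

theorem nw_tail {Sw : Set (List α)} (hWo : D.Wo = WallU_228.Wo D.n Sw) {w : List α}
    (hw : ∀ X ∈ D.XX, ¬ X <+: w) : nw D.n Sw w ≤ 2 * D.z + 3 := by
  classical
  have h : ∀ t, t ≤ w.length → WallU_228.Wo D.n Sw (w.take t) → t ∈ Finset.range D.z := by
    intro t
    induction t using Nat.strong_induction_on with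
    | _ t ih =>
      intro ht hw'
      rw [Finset.mem_range]
      by_contra hcon
      refine hw (w.take t) ⟨?_, by rw [hWo]; exact hw', ?_⟩ (List.take_prefix _ _)
      · rw [List.length_take]; omega
      · intro t' h1 h2 h3
        rw [List.length_take] at h2
        rw [List.take_take, min_eq_left (by omega), hWo] at h3
        have := ih t' (by omega) (by omega) h3
        rw [Finset.mem_range] at this
        omega
  refine (nw_le h).trans ?_
  rw [Finset.card_range]
  omega

/-! ### heights -/

theorem HL_Wo [Finite α] {k : ℕ} {Sw : Set (List α)} (hWo : D.Wo = WallU_228.Wo D.n Sw) :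
    HL k ({P | D.Wo P} : Language α) := by
  have h1 : HL k ({u | u.length = D.n ∧ u ∈ Sw} : Language α) :=
    HL.finite ((List.finite_length_eq α D.n).subset fun u hu => hu.1)
  refine h1.suffix.congr fun w => ?_
  constructor
  · intro h
    have h' : D.Wo w := h
    rw [hWo] at h'
    refine ⟨w.drop (w.length - D.n), ⟨?_, h'.2⟩, List.drop_suffix _ _⟩
    have := h'.1
    rw [List.length_drop]; omega
  · rintro ⟨u, ⟨h2, h3⟩, s, rfl⟩
    show D.Wo (s ++ u)
    rw [hWo]
    refine ⟨by rw [List.length_append]; omega, ?_⟩
    have : (s ++ u).length - D.n = s.length := by rw [List.length_append]; omega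
    rw [this, List.drop_left]
    exact h3

theorem HL_XX [Finite α] {k : ℕ} {Sw : Set (List α)} (hWo : D.Wo = WallU_228.Wo D.n Sw) :
    HL k ({X | X ∈ D.XX} : Language α) := by
  have h1 := HL_Wo (k := k) (D := D) hWo
  have h2 : HL k ({u : List α | D.z ≤ u.length} : Language α) := HL.length_ge _
  have h3 : HL k ({u : List α | 1 ≤ u.length} : Language α) := HL.length_ge _
  have h4 := ((h2.inf h1).mul h3).compl
  refine ((h2.inf h1).inf h4).congr fun w => ?_
  constructor
  · rintro ⟨a1, a2, a3⟩
    refine ⟨⟨a1, a2⟩, ?_⟩
    rintro hmem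
    obtain ⟨u, ⟨b1, b2⟩, v, b3, rfl⟩ := Language.mem_mul.1 hmem
    have b1' : D.z ≤ u.length := b1
    have b2' : D.Wo u := b2
    have b3' : 1 ≤ v.length := b3
    refine a3 u.length b1' (by rw [List.length_append]; omega) ?_
    rw [List.take_left' rfl]
    exact b2'
  · rintro ⟨⟨a1, a2⟩, a3⟩
    refine ⟨a1, a2, fun t b1 b2 b3 => a3 ?_⟩
    rw [← List.take_append_drop t w]
    refine Language.mem_mul.2 ⟨w.take t, ⟨?_, b3⟩, w.drop t, ?_, rfl⟩
    · show D.z ≤ (w.take t).length
      rw [List.length_take]; omega
    · show 1 ≤ (w.drop t).length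
      rw [List.length_drop]; omega

variable [Finite α] [Finite S] [Finite V]

/-- all the blocks with a given value of a finite-state predicate have height one -/
theorem HL_pred {Sw : Set (List α)} (hWo : D.Wo = WallU_228.Wo D.n Sw)
    (hfew : ∀ L : Language α, L.IsRegular → ∀ r, HL 1 ({w | w ∈ L ∧ nw D.n Sw w ≤ r} : Language α))
    {Pm : ℕ} (hPm : 0 < Pm) (Pr : List α → Prop)
    (h : ∀ x x', D.p0 + D.La ≤ x.length → D.p0 + D.La ≤ x'.length →
      x.take (D.p0 + D.La) = x'.take (D.p0 + D.La) →
      x.length % Pm = x'.length % Pm →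
      ((x.drop D.p0).map D.φ).prod = ((x'.drop D.p0).map D.φ).prod → Pr x → Pr x') :
    HL 1 ({X | X ∈ D.XX ∧ Pr X} : Language α) := by
  have hz := D.hz
  have h1 := reg_pred D.φ (D.p0 + D.La) D.p0 Pm hPm (by omega) Pr h
  have h2 : Language.IsRegular ({X | X ∈ D.XX} : Language α) :=
    Crest.Agent.R320.Reg_236.HL.isRegular (HL_XX (k := 0) hWo)
  refine (hfew _ (h2.inf h1) (2 * D.z + 3)).congr fun w => ?_
  constructor
  · rintro ⟨a1, a2⟩
    exact ⟨⟨a1, by have := a1.1; omega, a2⟩, nw_one hWo a1⟩
  · rintro ⟨⟨a1, _, a2⟩, _⟩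
    exact ⟨a1, a2⟩

end Dt

end Crest.Agent.R320.Inst5_634
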