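import Crest.Agent.R320.Inst5c_634

/-!
# Row 320: the instance of 467's `top5` on all words (helper634)
-/

set_option autoImplicit false
set_option linter.unusedSectionVars false

namespace Crest.Agent.R320.Inst5_634

open Crest.RegLang Crest.Agent.R320.Hk_851 Crest.Agent.R320.Blk467 Crest.Agent.R320.Sch2_606
  Crest.Agent.R320.FewWalls_228 Crest.Agent.R320.WallU_228

namespace Dt

variable {α S V : Type} [Monoid S] [AddCommGroup V] {D : Dt α S V}
variable [Finite α] [Finite S] [Finite V]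

/-- the extra facts used for the heights -/
structure Fin1 (D : Dt α S V) (Sw : Set (List α)) (Pm : ℕ) : Prop where
  hWo : D.Wo = WallU_228.Wo D.n Sw
  hfew : ∀ L : Language α, L.IsRegular → ∀ r,
    HL 1 ({w | w ∈ L ∧ nw D.n Sw w ≤ r} : Language α)
  hPm : 0 < Pm
  hBadL : ∀ T, D.BadL (T + Pm) ↔ D.BadL T
  hnu1 : ∀ q q2 : List α, D.La ≤ q.length → D.La ≤ q2.length → q.take D.La = q2.take D.La →
    q.length % Pm = q2.length % Pm → (q.map D.φ).prod = (q2.map D.φ).prod → D.nu1 q = D.nu1 q2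
  hF : ∀ Q, D.F Q ↔ nw D.n Sw Q ≤ 2 * D.z + 3

variable {Sw : Set (List α)} {Pm : ℕ}

theorem modsub {a b p m : ℕ} (ha : p ≤ a) (hb : p ≤ b) (h : a % m = b % m) :
    (a - p) % m = (b - p) % m := by
  have h1 : (a - p + p) ≡ (b - p + p) [MOD m] := by
    rw [Nat.sub_add_cancel ha, Nat.sub_add_cancel hb]
    exact h
  exact Nat.ModEq.add_right_cancel' p h1

theorem HL_D (h : D.Fin1 Sw Pm) (v b : V) :
    HL 1 ({X | X ∈ D.XX ∧ D.T v X = b} : Language α) := by
  refine HL_pred h.hWo h.hfew h.hPm (fun X => D.T v X = b) ?_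
  intro x x' h1 h2 h3 h4 h5 h6
  have e1 : x.take D.p0 = x'.take D.p0 := by
    have e := congrArg (List.take D.p0) h3
    rw [List.take_take, List.take_take, min_eq_left (by omega)] at e
    exact e
  have e2 : (x.drop D.p0).take D.La = (x'.drop D.p0).take D.La := by
    have e := congrArg (List.drop D.p0) h3
    rw [List.drop_take, List.drop_take] at e
    have e' : D.p0 + D.La - D.p0 = D.La := by omega
    rw [e'] at e
    exact e
  have e3 := h.hnu1 (x.drop D.p0) (x'.drop D.p0) (by rw [List.length_drop]; omega)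
    (by rw [List.length_drop]; omega) e2
    (by rw [List.length_drop, List.length_drop]; exact modsub (by omega) (by omega) h4) h5
  show D.T v x' = b
  rw [← h6, T_eq, T_eq, e1, e3, h5]

theorem per_mul {Bd : ℕ → Prop} (hB : ∀ T, Bd (T + Pm) ↔ Bd T) (T k : ℕ) :
    Bd (T + Pm * k) ↔ Bd T := by
  induction k with
  | zero => simp
  | succ k ih => rw [Nat.mul_succ, ← Nat.add_assoc, hB, ih]

theorem per_mod {Bd : ℕ → Prop} (hB : ∀ T, Bd (T + Pm) ↔ Bd T) {a b : ℕ}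
    (h : a % Pm = b % Pm) : Bd a ↔ Bd b := by
  have h1 := per_mul hB (a % Pm) (a / Pm)
  have h2 := per_mul hB (b % Pm) (b / Pm)
  rw [Nat.mod_add_div] at h1 h2
  rw [h1, h2, h]

theorem HL_Bad (h : D.Fin1 Sw Pm) : HL 1 ({X | X ∈ D.Bad} : Language α) := by
  have hz := D.hz
  have h3 : HL 1 ({X | X ∈ D.XX ∧ D.BadL (X.length - D.p0)} : Language α) := by
    refine HL_pred h.hWo h.hfew h.hPm (fun X => D.BadL (X.length - D.p0)) ?_
    intro x x' a1 a2 _ a4 _ a6
    exact (per_mod h.hBadL (modsub (by omega) (by omega) a4)).1 a6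
  have h0 : HL 1 ({X | X ∈ D.XX} : Language α) := HL_XX h.hWo
  have h1 : HL 1 ({X | ∃ u ∈ ({u | D.z ≤ u.length + D.N1 ∧ u.length < D.z ∧ D.Wo u} : Language α),
      u <+: X} : Language α) :=
    HL.prefix (HL.finite ((List.finite_length_lt α D.z).subset fun u hu => hu.2.1))
  have h2 : HL 1 ({X | X.length < D.z + D.N1} : Language α) := HL.length_lt _
  refine (((h0.inf (h1.sup h2))).sup h3).congr fun X => ?_
  constructor
  · rintro ⟨a1, ⟨t, b1, b2, b3⟩ | b | b⟩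
    · refine Or.inl ⟨a1, Or.inl ⟨X.take t, ⟨?_, ?_, b3⟩, List.take_prefix _ _⟩⟩
      · have := a1.1
        rw [List.length_take]; omega
      · rw [List.length_take]; omega
    · exact Or.inl ⟨a1, Or.inr b⟩
    · exact Or.inr ⟨a1, b⟩
  · rintro (⟨a1, ⟨u, ⟨b1, b2, b3⟩, s, rfl⟩ | b⟩ | ⟨a1, b⟩)
    · refine ⟨a1, Or.inl ⟨u.length, b1, b2, ?_⟩⟩
      rw [List.take_left' rfl]
      exact b3
    · exact ⟨a1, Or.inr (Or.inl b)⟩
    · exact ⟨a1, Or.inr (Or.inr b)⟩

theorem HL_BadT (h : D.Fin1 Sw Pm) (v b : V) :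
    HL 1 ({X | X ∈ D.Bad ∧ D.T v X = b} : Language α) := by
  refine ((HL_Bad h).inf (HL_D h v b)).congr fun X => ?_
  constructor
  · rintro ⟨a1, a2⟩; exact ⟨a1, a1.1, a2⟩
  · rintro ⟨a1, _, a2⟩; exact ⟨a1, a2⟩

theorem HL_L2 (h : D.Fin1 Sw Pm) (v b : V) : HL 1 (D.L2 v b) := by
  have h1 := HL.iUnion (k := 1) fun v' : V =>
    HL.mul (HL_BadT h v v') (HL_BadT h v' b)
  refine h1.congr fun w => ?_
  constructor
  · rintro ⟨X, hX, X', hX', rfl, hb⟩
    exact ⟨D.T v X, Language.mem_mul.2 ⟨X, ⟨hX, rfl⟩, X', ⟨hX', hb⟩, rfl⟩⟩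
  · rintro ⟨v', hw⟩
    obtain ⟨X, ⟨hX, e1⟩, X', ⟨hX', e2⟩, rfl⟩ := Language.mem_mul.1 hw
    exact ⟨X, hX, X', hX', rfl, by rw [e1, e2]⟩

theorem LP1_fin (v : V) : (D.LP1 v : Set (List α)).Finite := by
  refine (List.finite_length_le α (D.p0 + D.N1)).subset ?_
  rintro P ⟨h1, h2⟩
  have := D.hlam1 _ _ h2
  rw [List.length_drop] at this
  show P.length ≤ D.p0 + D.N1
  omega

theorem LP2_fin (v : V) : (D.LP2 v : Set (List α)).Finite := by
  refine (List.finite_length_le α D.p0).subset ?_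
  rintro P ⟨k, hk, h1, h2⟩
  have := D.hcp k hk
  show P.length ≤ D.p0
  omega

theorem HL_F (h : D.Fin1 Sw Pm) : HL 1 ({Q | D.F Q} : Language α) := by
  refine (h.hfew ⊤ (Crest.Agent.R320.Reg_236.HL.isRegular (HL.top (k := 0)))
    (2 * D.z + 3)).congr fun w => ?_
  constructor
  · intro hw
    exact ⟨trivial, (h.hF w).1 hw⟩
  · rintro ⟨_, hw⟩
    exact (h.hF w).2 hw

theorem HL_RQ1 (h : D.Fin1 Sw Pm) (b : V) : HL 1 (D.RQ1 b) := by
  have h1 := HL.iInter (k := 1) fun v : V => HL.biInter (D.LP1_fin v)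
    (L := fun P => ({Q | P ++ Q ∈ ({X | X ∈ D.XX ∧ D.T v X = b} : Language α)} : Language α))
    (fun P _ => HL.lquot P (HL_D h v b))
  exact ((HL_F h).inf h1).congr fun Q => Iff.rfl

theorem HL_RQ2 (h : D.Fin1 Sw Pm) (b : V) : HL 1 (D.RQ2 b) := by
  have h1 := HL.iInter (k := 1) fun v : V => HL.biInter (D.LP2_fin v)
    (L := fun P => ({Q | (∃ X ∈ ({X | X ∈ D.Bad} : Language α), X <+: P ++ Q) →
      P ++ Q ∈ D.L2 v b} : Language α))
    (fun P _ => HL.setOf_imp (HL.lquot P (HL_Bad h).prefix) (HL.lquot P (HL_L2 h v b)))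
  have h2 : HL 1 ({Q | D.Wo Q} : Language α) := HL_Wo h.hWo
  have h3 : HL 1 ({Q : List α | D.z ≤ Q.length} : Language α) := HL.length_ge _
  exact ((HL_F h).inf (h2.inf (h3.inf h1))).congr fun Q => Iff.rfl

theorem HL_tail (h : D.Fin1 Sw Pm) (s : S) :
    HL 1 ({w | (∀ X ∈ D.XX, ¬ X <+: w) ∧ (w.map D.φ).prod = s} : Language α) := by
  have h0 : HL 0 ({X | X ∈ D.XX} : Language α) := HL_XX h.hWo
  have h1 : Language.IsRegular ({w | ∃ X ∈ ({X | X ∈ D.XX} : Language α), X <+: w}ᶜ : Language α) :=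
    Crest.Agent.R320.Reg_236.HL.isRegular h0.prefix.compl
  have h2 : Language.IsRegular ({w | (w.map D.φ).prod = s} : Language α) := by
    refine reg_of_inv (σ := S) _ (fun w => (w.map D.φ).prod) ?_
    intro x x' e y hy
    have e' : (x.map D.φ).prod = (x'.map D.φ).prod := e
    have hy' : ((x ++ y).map D.φ).prod = s := hy
    show ((x' ++ y).map D.φ).prod = s
    rw [← hy', List.map_append, List.map_append, List.prod_append, List.prod_append, e']
  refine (h.hfew _ (h1.inf h2) (2 * D.z + 3)).congr fun w => ?_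
  constructor
  · rintro ⟨a1, a2⟩
    refine ⟨⟨?_, a2⟩, nw_tail h.hWo a1⟩
    rintro ⟨X, hX, hXw⟩
    exact a1 X hX hXw
  · rintro ⟨⟨a1, a2⟩, _⟩
    refine ⟨fun X hX hXw => a1 ⟨X, hX, hXw⟩, a2⟩

/-- **the instance of `top5` on all words** -/
theorem inst (h : D.Fin1 Sw Pm) (hfaith : ∀ s t, (∀ v, D.act v s = D.act v t) → s = t) (s : S) :
    HL 3 ({w | (w.map D.φ).prod = s} : Language α) := by
  have hF1 : ∀ X ∈ D.XX, ∀ P Q, P ++ Q = X → D.F Q := by
    intro X hX P Q e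
    rw [h.hF]
    refine (nw_suffix P Q).trans ?_
    rw [e]
    exact nw_one h.hWo hX
  have hF2 : ∀ X ∈ D.XX, ∀ X' ∈ D.XX, ∀ P Q, P ++ Q = X ++ X' → D.F Q := by
    intro X hX X' hX' P Q e
    rw [h.hF]
    refine (nw_suffix P Q).trans ?_
    rw [e]
    exact nw_two h.hWo hX hX'
  refine Crest.Agent.R320.Top5_467.top5 D.φ D.act D.hadd D.hone D.hmul hfaith D.nuT D.XX D.Bad
    pcode (fun X hX => hX.1) D.LP1 D.RQ1 D.LP2 D.RQ2 s1 (fun X hX hB v => c1 hF1 X hX hB v) ?_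
    (fun X hX X' hX' v => c2 hF2 spoil X hX X' hX' v)
    (HL_Bad h) (fun v => HL.finite (LP2_fin v)) (fun v => HL_RQ2 h v)
    (fun v => HL.finite (LP1_fin v)) (fun v => (HL_RQ1 h v).mono (by norm_num))
    (fun v v' => (HL_BadT h v v').mono (by norm_num))
    (fun s => (HL_tail h s).mono (by norm_num)) s
  intro v b P Q r hP hQ hr
  exact s2 v b P Q r hP hQ hr

end Dt

end Crest.Agent.R320.Inst5_634
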