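import Crest.Agent.R320.Top5_110
import Crest.Agent.R320.FewVal_228

/-!
# Row 320, all words: natural block code, heights (helper18)
-/

set_option autoImplicit false

namespace Crest.Agent.R320.Inst_18

open Crest.RegLang Crest.Agent.R320.Hk_851 Crest.Agent.R320.Code110
open Crest.Agent.R320.FewWalls_228 Crest.Agent.R320.FewVal_228

universe u

variable {α : Type u}

/-- wall at the end of a word -/
def Wo (n : ℕ) (S : Set (List α)) (X : List α) : Prop :=
  n ≤ X.length ∧ X.drop (X.length - n) ∈ S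

theorem Wo_append {n : ℕ} {S : Set (List α)} (P Q : List α) (h : n ≤ Q.length) :
    Wo n S (P ++ Q) ↔ Wo n S Q := by
  unfold Wo
  have e : (P ++ Q).drop ((P ++ Q).length - n) = Q.drop (Q.length - n) := by
    rw [List.length_append, show P.length + Q.length - n = P.length + (Q.length - n) by omega,
      List.drop_append]
    simp
  rw [e, List.length_append]
  constructor
  · rintro ⟨_, h2⟩; exact ⟨h, h2⟩
  · rintro ⟨_, h2⟩; exact ⟨by omega, h2⟩

theorem Wo_take {n : ℕ} {S : Set (List α)} {w : List α} {t : ℕ} (ht : t ≤ w.length) :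
    Wo n S (w.take t) ↔ n ≤ t ∧ Wl n S w (t - n) := by
  unfold Wo Wl
  rw [List.length_take, Nat.min_eq_left ht]
  constructor
  · rintro ⟨h1, h2⟩
    refine ⟨h1, by omega, ?_⟩
    rw [List.drop_take] at h2
    rwa [show t - (t - n) = n by omega] at h2
  · rintro ⟨h1, _, h2⟩
    refine ⟨h1, ?_⟩
    rw [List.drop_take, show t - (t - n) = n by omega]
    exact h2

/-- blocks -/
def XX (n : ℕ) (S : Set (List α)) (z : ℕ) : Language α :=
  {X | z ≤ X.length ∧ Wo n S X ∧ ∀ t, z ≤ t → t < X.length → ¬ Wo n S (X.take t)}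

theorem XX_pc {n z : ℕ} {S : Set (List α)} (hz : 0 < z) : PC (XX n S z) := by
  constructor
  · rintro ⟨h, _⟩
    simp at h
    omega
  · intro u hu v hv huv
    obtain ⟨r, rfl⟩ := huv
    by_contra hne
    have hr : 0 < r.length := by
      rcases Nat.eq_zero_or_pos r.length with h | h
      · have : r = [] := List.length_eq_zero_iff.1 h
        subst this
        simp at hne
      · exact h
    have := hv.2.2 u.length hu.1 (by simp; omega)
    apply this
    rw [List.take_left']
    · exact hu.2.1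
    · rfl

theorem nw_le {n z : ℕ} {S : Set (List α)} {w : List α}
    (h : ∀ t, z ≤ t → t < w.length → ¬ Wo n S (w.take t)) : nw n S w ≤ z + 1 := by
  classical
  unfold nw
  have hsub : (Finset.range (w.length + 1)).filter (fun x => Wl n S w x) ⊆
      insert (w.length - n) (Finset.range z) := by
    intro x hx
    rw [Finset.mem_filter] at hx
    have hx1 := hx.2.1
    rw [Finset.mem_insert, Finset.mem_range]
    by_contra hc
    push Not at hc
    have h1 := h (x + n) (by omega) (by omega)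
    apply h1
    rw [Wo_take (by omega)]
    refine ⟨by omega, ?_⟩
    rw [Nat.add_sub_cancel]
    exact hx.2
  refine (Finset.card_le_card hsub).trans ?_
  refine (Finset.card_insert_le _ _).trans ?_
  simp

theorem nw_drop_le {n : ℕ} {S : Set (List α)} {w : List α} (m : ℕ) (hm : m ≤ w.length) :
    nw n S (w.drop m) ≤ nw n S w := by
  classical
  unfold nw
  refine Finset.card_le_card_of_injOn (fun x => m + x) ?_ ?_
  · intro x hx
    simp only [Finset.coe_filter, Finset.mem_range, Set.mem_ofPred_eq] at hx ⊢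
    refine ⟨?_, (wl_drop hm).1 hx.2⟩
    have := hx.1
    rw [List.length_drop] at this
    omega
  · intro x _ y _ hxy
    simpa using hxy

section heights

/-- few walls, value, length -/
def VL (n : ℕ) (S : Set (List α)) (r Pm : ℕ) {M : Type} [Monoid M] (f : α → M) (s : M) (ρ : ℕ) :
    Language α := {w | nw n S w ≤ r ∧ (w.map f).prod = s ∧ w.length % Pm = ρ}

/-- words ending in a wall -/
def WL (n : ℕ) (S : Set (List α)) : Language α := {w | Wo n S w}

def GeL (m : ℕ) : Language α := {w | m ≤ w.length}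

def EqS (n : ℕ) (S : Set (List α)) : Language α := {x | x.length = n ∧ x ∈ S}

variable [Finite α] {n c P : ℕ} {S : Set (List α)}

theorem HL_val (hn : 0 < n) (hP : 0 < P) (hper : PerOff n c P S) (r Pm : ℕ) (hPm : 0 < Pm)
    {M : Type} [Monoid M] [Finite M] (f : α → M) (s : M) (ρ : ℕ) :
    HL 1 (VL n S r Pm f s ρ) := by
  have : NeZero Pm := ⟨by omega⟩
  have : Finite (Multiplicative (ZMod Pm)) := inferInstanceAs (Finite (ZMod Pm))
  let g : α → M × Multiplicative (ZMod Pm) := fun a => (f a, Multiplicative.ofAdd (1 : ZMod Pm))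
  have hg : ∀ w : List α, (w.map g).prod =
      ((w.map f).prod, Multiplicative.ofAdd ((w.length : ℕ) : ZMod Pm)) := by
    intro w
    induction w with
    | nil => simp [Prod.ext_iff]
    | cons a w ih =>
      rw [List.map_cons, List.prod_cons, ih, List.map_cons, List.prod_cons, List.length_cons]
      refine Prod.ext rfl ?_
      show Multiplicative.ofAdd (1 : ZMod Pm) * Multiplicative.ofAdd ((w.length : ℕ) : ZMod Pm) = _
      rw [← ofAdd_add, Nat.cast_add, Nat.cast_one, add_comm]
  by_cases hρ : ρ < Pm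
  · refine (HL_few_value hn hP hper r g (s, Multiplicative.ofAdd ((ρ : ℕ) : ZMod Pm))).congr
      fun w => ?_
    have key : (w.map g).prod = (s, Multiplicative.ofAdd ((ρ : ℕ) : ZMod Pm)) ↔
        (w.map f).prod = s ∧ w.length % Pm = ρ := by
      rw [hg, Prod.mk.injEq, Multiplicative.ofAdd.injective.eq_iff, ZMod.natCast_eq_natCast_iff']
      rw [Nat.mod_eq_of_lt hρ]
    exact ⟨fun h => ⟨h.1, (key.2 h.2)⟩, fun h => ⟨h.1, key.1 h.2⟩⟩
  · refine HL.bot.congr fun w => ⟨fun h => ?_, fun h => h.elim⟩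
    exact (hρ (h.2.2 ▸ Nat.mod_lt _ hPm)).elim

theorem HL_inv (hn : 0 < n) (hP : 0 < P) (hper : PerOff n c P S) (r L0 Pm : ℕ) (hPm : 0 < Pm)
    {M : Type} [Monoid M] [Finite M] (f : α → M) (Pr : List α → Prop)
    (hinv : ∀ u u' : List α, L0 ≤ u.length → L0 ≤ u'.length → u.take L0 = u'.take L0 →
      ((u.drop L0).map f).prod = ((u'.drop L0).map f).prod → u.length % Pm = u'.length % Pm →
      (Pr u → Pr u')) :
    HL 1 ({w | nw n S w ≤ r ∧ Pr w} : Language α) := by
  classical
  have : Finite {h : List α // h.length = L0} := (List.finite_length_eq α L0).to_subtype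
  have hfew : HL 1 ({w | nw n S w ≤ r} : Language α) :=
    (HL_val hn hP hper r 1 one_pos (fun _ => (1 : Unit)) 1 0).congr fun w =>
      ⟨fun h => ⟨h, rfl, Nat.mod_one _⟩, fun h => h.1⟩
  have hshort : HL 1 ({w | w.length < L0 ∧ nw n S w ≤ r ∧ Pr w} : Language α) :=
    HL.finite ((List.finite_length_lt α L0).subset fun w h => h.1)
  have hlong := HL.iUnion (k := 1)
    (L := fun i : {h : List α // h.length = L0} × M × Fin Pm =>
      ({w | (∃ u0 : List α, L0 ≤ u0.length ∧ u0.take L0 = i.1.1 ∧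
        ((u0.drop L0).map f).prod = i.2.1 ∧ (u0.drop L0).length % Pm = i.2.2.1 ∧ Pr u0)} ⊓
        (({i.1.1} : Language α) * VL n S r Pm f i.2.1 i.2.2.1) : Language α))
    fun i => (HL.const _).inf ((HL.word _).mul (HL_val hn hP hper r Pm hPm f _ _))
  refine (hshort.sup (hfew.inf hlong)).congr fun w => ?_
  constructor
  · rintro ⟨h1, h2⟩
    by_cases hl : w.length < L0
    · left; exact ⟨hl, h1, h2⟩
    · right
      push Not at hl
      refine ⟨h1, ⟨⟨w.take L0, by simp [hl]⟩, ((w.drop L0).map f).prod,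
        ⟨(w.drop L0).length % Pm, Nat.mod_lt _ hPm⟩⟩, ⟨w, hl, rfl, rfl, rfl, h2⟩, ?_⟩
      exact Language.mem_mul.2 ⟨w.take L0, rfl, w.drop L0,
        ⟨(nw_drop_le L0 hl).trans h1, rfl, rfl⟩, List.take_append_drop _ _⟩
  · rintro (h | ⟨h1, ⟨⟨h, hh⟩, s, ρ⟩, ⟨u0, hu1, hu2, hu3, hu4, hu5⟩, hw⟩)
    · exact h.2
    · obtain ⟨a, ha, x, ⟨hx1, hx2, hx3⟩, rfl⟩ := Language.mem_mul.1 hw
      have ha' : a = h := ha
      subst ha'
      refine ⟨h1, hinv u0 _ hu1 (by simp [hh]) ?_ ?_ ?_ hu5⟩
      · rw [List.take_left' hh]; exact hu2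
      · rw [List.drop_left' hh]; exact hu3.trans hx2.symm
      · rw [List.length_append, hh]
        rw [List.length_drop] at hu4
        have h3 : (u0.length - L0) % Pm = x.length % Pm := hu4.trans hx3.symm
        have h4 : u0.length = L0 + (u0.length - L0) := by omega
        rw [h4, Nat.add_mod, h3, ← Nat.add_mod]

theorem HL_X (n z : ℕ) (S : Set (List α)) : HL 1 (XX n S z) := by
  have hW : HL 1 (WL n S) := by
    have h1 : HL 1 ((⊤ : Language α) * EqS n S) :=
      HL.top.mul (HL.finite ((List.finite_length_eq α n).subset fun w h => h.1))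
    refine h1.congr fun w => ?_
    constructor
    · rintro ⟨h1, h2⟩
      exact Language.mem_mul.2 ⟨w.take (w.length - n), trivial, w.drop (w.length - n),
        ⟨by rw [List.length_drop]; omega, h2⟩, List.take_append_drop _ _⟩
    · intro h
      obtain ⟨a, _, x, ⟨hx1, hx2⟩, rfl⟩ := Language.mem_mul.1 h
      refine (Wo_append a x hx1.ge).2 ⟨hx1.ge, ?_⟩
      rw [hx1, Nat.sub_self]
      exact hx2
  have hG : ∀ m : ℕ, HL 1 (GeL m : Language α) := fun m => HL.length_ge m
  have h1 : HL 1 (GeL z ⊓ WL n S) := (hG z).inf hW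
  have h2 : HL 1 ((GeL z ⊓ WL n S) * GeL 1) := h1.mul (hG 1)
  refine (h1.inf h2.compl).congr fun w => ?_
  constructor
  · rintro ⟨h3, h4, h5⟩
    refine ⟨⟨h3, h4⟩, fun h6 => ?_⟩
    obtain ⟨a, ⟨ha1, ha2⟩, x, hx, rfl⟩ := Language.mem_mul.1 h6
    have hx' : 1 ≤ x.length := hx
    have ha1' : z ≤ a.length := ha1
    refine h5 a.length ha1' (by rw [List.length_append]; omega) ?_
    rw [List.take_left' rfl]
    exact ha2
  · rintro ⟨⟨h3, h4⟩, h5⟩
    refine ⟨h3, h4, fun t ht1 ht2 h6 => h5 ?_⟩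
    refine Language.mem_mul.2 ⟨w.take t, ⟨?_, h6⟩, w.drop t, ?_, List.take_append_drop _ _⟩
    · show z ≤ (w.take t).length
      rw [List.length_take]; omega
    · show 1 ≤ (w.drop t).length
      rw [List.length_drop]; omega

/-- all block languages with an invariant property have height one -/
theorem HL_XX (hn : 0 < n) (hP : 0 < P) (hper : PerOff n c P S) (z L0 Pm : ℕ) (hPm : 0 < Pm)
    {M : Type} [Monoid M] [Finite M] (f : α → M) (Pr : List α → Prop)
    (hinv : ∀ u u' : List α, L0 ≤ u.length → L0 ≤ u'.length → u.take L0 = u'.take L0 →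
      ((u.drop L0).map f).prod = ((u'.drop L0).map f).prod → u.length % Pm = u'.length % Pm →
      (Pr u → Pr u')) :
    HL 1 ({w | w ∈ XX n S z ∧ Pr w} : Language α) := by
  refine ((HL_X n z S).inf (HL_inv hn hP hper (z + 1) L0 Pm hPm f Pr hinv)).congr fun w => ?_
  constructor
  · rintro ⟨h1, h3⟩
    exact ⟨h1, nw_le fun t a b => h1.2.2 t a b, h3⟩
  · rintro ⟨h1, _, h3⟩
    exact ⟨h1, h3⟩

theorem HL_tail (hn : 0 < n) (hP : 0 < P) (hper : PerOff n c P S) (z : ℕ)
    {M : Type} [Monoid M] [Finite M] (f : α → M) (s : M) :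
    HL 3 ({w | (∀ u ∈ XX n S z, ¬ u <+: w) ∧ (w.map f).prod = s} : Language α) := by
  classical
  have h1 := ((HL_X n z S).prefix.compl).inf (HL_val hn hP hper (z + 1) 1 one_pos f s 0)
  refine (h1.mono (by norm_num)).congr fun w => ?_
  constructor
  · rintro ⟨h2, h3⟩
    refine ⟨fun ⟨u, hu, h⟩ => h2 u hu h, ?_, h3, Nat.mod_one _⟩
    apply nw_le (z := z)
    intro t ht1 ht2 hw
    have hex : ∃ t, z ≤ t ∧ t < w.length ∧ Wo n S (w.take t) := ⟨t, ht1, ht2, hw⟩
    obtain ⟨g1, g2, g3⟩ := Nat.find_spec hex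
    refine h2 (w.take (Nat.find hex)) ⟨?_, g3, ?_⟩ (List.take_prefix _ _)
    · rw [List.length_take]; omega
    · intro t' a b hc
      rw [List.length_take] at b
      have hlt : t' < Nat.find hex := by omega
      refine Nat.find_min hex hlt ⟨a, by omega, ?_⟩
      rwa [List.take_take, Nat.min_eq_left hlt.le] at hc
  · rintro ⟨h2, h3⟩
    exact ⟨fun u hu h => h2 ⟨u, hu, h⟩, h3.2.1⟩

end heights

end Crest.Agent.R320.Inst_18
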