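import Crest.Agent.R320.Top_180
import Crest.Agent.R320.FewVal_228

/-!
# Row 320: concrete two-scheme instance over an abstract gadget (helper180)
-/

set_option autoImplicit false

namespace Crest.Agent.R320.InstA_180

open Crest.Agent.R320.FewWalls_228 Crest.Agent.R320.Half1_180

universe u

section Blocks

variable {α : Type u} {n : ℕ} {SS : Set (List α)}

theorem wl_right {P Q : List α} {s : ℕ} (h : P.length ≤ s) :
    Wl n SS (P ++ Q) s ↔ Wl n SS Q (s - P.length) := by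
  obtain ⟨k, rfl⟩ := Nat.exists_eq_add_of_le h
  rw [Nat.add_sub_cancel_left]
  unfold Wl
  rw [List.drop_append, List.drop_of_length_le (by omega), List.nil_append,
    Nat.add_sub_cancel_left, List.length_append]
  constructor
  · rintro ⟨h1, h2⟩; exact ⟨by omega, h2⟩
  · rintro ⟨h1, h2⟩; exact ⟨by omega, h2⟩

theorem wl_left {P Q : List α} {s : ℕ} (h : s + n ≤ P.length) :
    Wl n SS (P ++ Q) s ↔ Wl n SS P s := by
  unfold Wl
  rw [List.drop_append_of_le_length (by omega), List.take_append_of_le_length (by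
    rw [List.length_drop]; omega), List.length_append]
  constructor
  · rintro ⟨h1, h2⟩; exact ⟨by omega, h2⟩
  · rintro ⟨h1, h2⟩; exact ⟨by omega, h2⟩

variable (n SS) in
/-- `t` is the first wall `≥ Z`, `b` the next wall, and the word ends with the window of `b` -/
def Blk (Z : ℕ) (w : List α) (t b : ℕ) : Prop :=
  (Z ≤ t ∧ Wl n SS w t ∧ ∀ s, Z ≤ s → s < t → ¬ Wl n SS w s) ∧
    t < b ∧ Wl n SS w b ∧ (∀ s, t < s → s < b → ¬ Wl n SS w s) ∧ w.length = b + n

theorem Blk.unique {Z : ℕ} {w : List α} {t b t' b' : ℕ} (h : Blk n SS Z w t b)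
    (h' : Blk n SS Z w t' b') : t = t' ∧ b = b' := by
  obtain ⟨⟨h1, h2, h3⟩, h4, h5, h6, h7⟩ := h
  obtain ⟨⟨g1, g2, g3⟩, g4, g5, g6, g7⟩ := h'
  refine ⟨?_, by omega⟩
  rcases Nat.lt_trichotomy t t' with hlt | heq | hlt
  · exact absurd h2 (g3 t h1 hlt)
  · exact heq
  · exact absurd g2 (h3 t' g1 hlt)

theorem Blk.app {Z : ℕ} {P Q : List α} {t b : ℕ} (hP : P.length ≤ Z)
    (h : Blk n SS (Z - P.length) Q t b) : Blk n SS Z (P ++ Q) (P.length + t) (P.length + b) := by
  obtain ⟨⟨h1, h2, h3⟩, h4, h5, h6, h7⟩ := h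
  refine ⟨⟨by omega, ?_, ?_⟩, by omega, ?_, ?_, ?_⟩
  · rw [wl_right (by omega), Nat.add_sub_cancel_left]; exact h2
  · intro s hs1 hs2
    rw [wl_right (by omega)]
    exact h3 _ (by omega) (by omega)
  · rw [wl_right (by omega), Nat.add_sub_cancel_left]; exact h5
  · intro s hs1 hs2
    rw [wl_right (by omega)]
    exact h6 _ (by omega) (by omega)
  · rw [List.length_append]; omega

theorem Blk.unapp {Z : ℕ} {P Q : List α} {t b : ℕ} (hP : P.length ≤ Z)
    (h : Blk n SS Z (P ++ Q) t b) :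
    Blk n SS (Z - P.length) Q (t - P.length) (b - P.length) := by
  obtain ⟨⟨h1, h2, h3⟩, h4, h5, h6, h7⟩ := h
  rw [List.length_append] at h7
  refine ⟨⟨by omega, ?_, ?_⟩, by omega, ?_, ?_, by omega⟩
  · rwa [wl_right (by omega)] at h2
  · intro s hs1 hs2 hs
    refine h3 (s + P.length) (by omega) (by omega) ?_
    rw [wl_right (by omega), Nat.add_sub_cancel]; exact hs
  · rwa [wl_right (by omega)] at h5
  · intro s hs1 hs2 hs
    refine h6 (s + P.length) (by omega) (by omega) ?_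
    rw [wl_right (by omega), Nat.add_sub_cancel]; exact hs

variable (n SS) in
/-- the blocks -/
def XX (Z : ℕ) : Set (List α) := {w | ∃ t b, Blk n SS Z w t b}

theorem pf_XX (Z : ℕ) : PF (XX n SS Z) := by
  refine ⟨?_, ?_⟩
  · rintro X ⟨t, b, h⟩ rfl
    obtain ⟨⟨h1, h2, h3⟩, h4, h5, h6, h7⟩ := h
    simp only [List.length_nil] at h7
    omega
  · rintro X ⟨t, b, h⟩ Y ⟨t', b', h'⟩ ⟨R, rfl⟩
    obtain ⟨⟨h1, h2, h3⟩, h4, h5, h6, h7⟩ := h
    obtain ⟨⟨g1, g2, g3⟩, g4, g5, g6, g7⟩ := h'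
    rw [List.length_append] at g7
    have ht : Wl n SS (X ++ R) t := (wl_left (by omega)).2 h2
    have hb : Wl n SS (X ++ R) b := (wl_left (by omega)).2 h5
    have ht' : t' ≤ t := by
      by_contra hn
      exact g3 t h1 (by omega) ht
    have htt : t = t' := by
      by_contra hn
      have : Wl n SS X t' := (wl_left (by omega)).1 g2
      exact h3 t' g1 (by omega) this
    have hb' : b' ≤ b := by
      by_contra hn
      exact g6 b (by omega) (by omega) hb
    have : R = [] := List.length_eq_zero_iff.1 (by omega)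
    rw [this, List.append_nil]

variable (n SS) in
/-- the first wall `≥ Z` -/
noncomputable def tt (Z : ℕ) (w : List α) : ℕ := sInf {t | Z ≤ t ∧ Wl n SS w t}

theorem Blk.tt {Z : ℕ} {w : List α} {t b : ℕ} (h : Blk n SS Z w t b) : tt n SS Z w = t := by
  obtain ⟨⟨h1, h2, h3⟩, h4, h5, h6, h7⟩ := h
  have hne : {t | Z ≤ t ∧ Wl n SS w t}.Nonempty := ⟨t, h1, h2⟩
  have h8 : InstA_180.tt n SS Z w ≤ t := Nat.sInf_le ⟨h1, h2⟩
  have h9 := Nat.sInf_mem hne
  by_contra hn
  exact h3 _ h9.1 (lt_of_le_of_ne h8 hn) h9.2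

end Blocks

/-- all parameters of the two schemes -/
structure Par (α : Type u) (S V : Type) [Monoid S] [AddCommGroup V] where
  n : ℕ
  SS : Set (List α)
  W : ℕ
  sep : ∀ (w : List α) (x y : ℕ), x < y → Wl n SS w x → Wl n SS w y → x + W ≤ y
  f : α → S
  act : V → S → V
  act_add : ∀ v w s, act (v + w) s = act v s + act w s
  act_mul : ∀ v s s', act (act v s) s' = act v (s * s')
  p0 : ℕ
  Z : ℕ
  N0 : ℕ
  A : ℕ
  K : ℕ
  C0 : ℕ
  Lam : ℕ
  BadN : ℕ → Prop
  c : ℕ → ℕ
  LW : List α → Option V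
  RW : List α → Option V
  nuU : List α → V
  lam2 : ℕ → List α → Option V
  rho2 : ℕ → List α → Option V
  nu2 : List α → V
  LWlen : ∀ P, (LW P).isSome → P.length ≤ N0
  gsound : ∀ (P Q : List α) (v r : V), A ≤ Q.length → LW P = some v → RW Q = some r →
    r = act v ((P ++ Q).map f).prod + nuU (P ++ Q)
  gcompl : ∀ u : List α, 2 * A ≤ u.length → ¬ BadN u.length → ∀ v, ∃ P Q, P ++ Q = u ∧ LW P = some v ∧
    (RW Q).isSome
  esound : ∀ k < K, ∀ (P Q : List α) (v b : V), P.length = c k → lam2 k P = some v → rho2 k Q = some b →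
    b = act v ((P ++ Q).map f).prod + nu2 (P ++ Q)
  ecompl : ∀ (u : List α) (v : V), u.length = p0 → ∃ I : Finset ℕ, 3 * C0 + 1 < I.card ∧ ∀ k ∈ I, k < K ∧
    lam2 k (u.take (c k)) = some v ∧ (rho2 k (u.drop (c k))).isSome
  cpos : ∀ k < K, 0 < c k
  cle : ∀ k < K, c k ≤ Lam
  hLam : Lam ≤ p0
  cruler : ∀ a b a' b' : ℕ, a < K → b < K → a' < K → b' < K → a ≠ b → a' ≠ b' →
    c a + c b' < c b + c a' + 2 * N0 + 1 → c b + c a' < c a + c b' + 2 * N0 + 1 → a = a' ∧ b = b'
  cbad : ∀ T, Lam ≤ T → ∀ F : Finset (ℕ × ℕ), (∀ p ∈ F, p.1 < K ∧ p.2 < K ∧ p.1 ≠ p.2 ∧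
    BadN (T + c p.1 - c p.2)) → F.card ≤ C0
  hW : 2 * Lam + 2 * N0 + 2 ≤ W
  hZ : p0 + 2 * A + 3 * N0 + 2 * Lam + n ≤ Z

namespace Par

variable {α : Type u} {S V : Type} [Monoid S] [AddCommGroup V] (p : Par α S V)

/-- value of a word -/
def ph (w : List α) : S := (w.map p.f).prod

theorem ph_append (u v : List α) : p.ph (u ++ v) = p.ph u * p.ph v := by simp [ph]

theorem act_sub (v w : V) (s : S) : p.act (v - w) s = p.act v s - p.act w s := by
  have h := p.act_add (v - w) w s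
  rw [sub_add_cancel] at h
  rw [h, add_sub_cancel_right]

abbrev X : Set (List α) := XX p.n p.SS p.Z

noncomputable abbrev t (w : List α) : ℕ := tt p.n p.SS p.Z w

/-- value behind `X1 = w.take p0` -/
def T0 (w : List α) (v : V) : V := p.act v (p.ph w) + p.nu2 w

/-- from the state behind `X1`, word `y` up to the first wall, rest `z` -/
def TR (r : V) (z : List α) : V := p.act r (p.ph z)

/-- the block map -/
noncomputable def T (w : List α) (v : V) : V :=
  p.TR (p.act (p.T0 (w.take p.p0) v) (p.ph ((w.take (p.t w)).drop p.p0)) +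
    p.nuU ((w.take (p.t w)).drop p.p0)) (w.drop (p.t w))

theorem T_sub {w : List α} (hw : w ∈ p.X) (v v' : V) :
    p.T w v - p.T w v' = p.act (v - v') (p.ph w) := by
  obtain ⟨t, b, h⟩ := hw
  have ht := h.tt
  have h1 := p.hZ
  have h2 : p.Z ≤ t := h.1.1
  unfold T TR T0 Par.t
  rw [ht]
  rw [← act_sub, add_sub_add_right_eq_sub, ← act_sub, add_sub_add_right_eq_sub, ← act_sub,
    p.act_mul, p.act_mul, ← ph_append, ← ph_append]
  congr 2
  have h3 : w.take p.p0 = (w.take t).take p.p0 := by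
    rw [List.take_take, min_eq_left (by omega)]
  rw [h3, ← List.append_assoc, List.take_append_drop, List.take_append_drop]

/-- scheme 1, left words -/
def LP1 (v : V) : Set (List α) :=
  {P | p.p0 ≤ P.length ∧ p.LW (P.drop p.p0) = some (p.T0 (P.take p.p0) v)}

/-- scheme 1, right words -/
def RQ1 (v' : V) : Set (List α) :=
  {Q | ∃ t b, Blk p.n p.SS (p.Z - p.p0) Q t b ∧
    (∀ s, p.Z - p.p0 - p.N0 ≤ s → s < p.Z - p.p0 → ¬ Wl p.n p.SS Q s) ∧
    ∃ r, p.RW (Q.take t) = some r ∧ v' = p.TR r (Q.drop t)}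

theorem sound1 (v v' : V) (P Q : List α) (hP : P ∈ p.LP1 v) (hQ : Q ∈ p.RQ1 v') :
    P ++ Q ∈ p.X ∧ p.T (P ++ Q) v = v' := by
  obtain ⟨hP1, hP2⟩ := hP
  obtain ⟨t, b, hB, hE, r, hr, rfl⟩ := hQ
  have hlen : (P.drop p.p0).length ≤ p.N0 := p.LWlen _ (by rw [hP2]; rfl)
  rw [List.length_drop] at hlen
  have hZ := p.hZ
  obtain ⟨⟨h1, h2, h3⟩, h4, h5, h6, h7⟩ := hB
  have hblk : Blk p.n p.SS p.Z (P ++ Q) (P.length + t) (P.length + b) := by
    refine Blk.app (by omega) ⟨⟨by omega, h2, ?_⟩, h4, h5, h6, h7⟩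
    intro s hs1 hs2
    by_cases hs : s < p.Z - p.p0
    · exact hE s (by omega) hs
    · exact h3 s (by omega) hs2
  refine ⟨⟨_, _, hblk⟩, ?_⟩
  have ht : p.t (P ++ Q) = P.length + t := hblk.tt
  unfold T
  rw [ht]
  have e1 : (P ++ Q).take p.p0 = P.take p.p0 := List.take_append_of_le_length hP1
  have e2 : (P ++ Q).take (P.length + t) = P ++ Q.take t := by
    rw [List.take_append, List.take_of_length_le (by omega), Nat.add_sub_cancel_left]
  have e3 : (P ++ Q.take t).drop p.p0 = P.drop p.p0 ++ Q.take t :=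
    List.drop_append_of_le_length hP1
  have e4 : (P ++ Q).drop (P.length + t) = Q.drop t := by
    rw [List.drop_append, List.drop_of_length_le (by omega), List.nil_append,
      Nat.add_sub_cancel_left]
  rw [e1, e2, e3, e4]
  have htl : t ≤ Q.length := by omega
  have h := p.gsound _ _ _ _ (by rw [List.length_take]; omega) hP2 hr
  unfold ph
  rw [← h]

/-- critical blocks -/
def Bad : Set (List α) :=
  {w | ∃ t b, Blk p.n p.SS p.Z w t b ∧
    ((∃ s, p.Z ≤ s + p.N0 ∧ s < p.Z + p.N0 ∧ Wl p.n p.SS w s) ∨ p.BadN (t - p.p0))}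

/-- the other blocks -/
def Good : Set (List α) := {w | w ∈ p.X ∧ w ∉ p.Bad}

theorem X_eq : p.X = p.Good ∪ p.Bad := by
  ext w
  constructor
  · intro hw
    by_cases hb : w ∈ p.Bad
    · exact Or.inr hb
    · exact Or.inl ⟨hw, hb⟩
  · rintro (hw | ⟨t, b, h, _⟩)
    · exact hw.1
    · exact ⟨t, b, h⟩

theorem compl1 (w : List α) (hw : w ∈ p.Good) (v : V) :
    ∃ P Q, w = P ++ Q ∧ P ∈ p.LP1 v ∧ Q ∈ p.RQ1 (p.T w v) := by
  obtain ⟨⟨t, b, hB⟩, hbad⟩ := hw
  have hZ := p.hZ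
  have hB' := hB
  obtain ⟨⟨h1, h2, h3⟩, h4, h5, h6, h7⟩ := hB'
  have hE : ∀ s, p.Z ≤ s + p.N0 → s < p.Z + p.N0 → ¬ Wl p.n p.SS w s := by
    intro s hs1 hs2 hs
    exact hbad ⟨t, b, hB, Or.inl ⟨s, hs1, hs2, hs⟩⟩
  have hBN : ¬ p.BadN (t - p.p0) := fun h => hbad ⟨t, b, hB, Or.inr h⟩
  have ht : p.Z + p.N0 ≤ t := by
    by_contra hn
    exact hE t (by omega) (by omega) h2
  have hulen : ((w.take t).drop p.p0).length = t - p.p0 := by
    rw [List.length_drop, List.length_take]; omega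
  obtain ⟨P', Q', hPQ, hP', hQ'⟩ := p.gcompl ((w.take t).drop p.p0) (by rw [hulen]; omega)
    (by rw [hulen]; exact hBN) (p.T0 (w.take p.p0) v)
  obtain ⟨r, hr⟩ := Option.isSome_iff_exists.1 hQ'
  have hP'len : P'.length ≤ p.N0 := p.LWlen _ (by rw [hP']; rfl)
  have hlen2 : P'.length + Q'.length = t - p.p0 := by
    rw [← List.length_append, hPQ, hulen]
  have etake : (w.take p.p0).length = p.p0 := by rw [List.length_take]; omega
  have ew : w = (w.take p.p0 ++ P') ++ (Q' ++ w.drop t) := by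
    have : (w.take p.p0 ++ P') ++ (Q' ++ w.drop t) = (w.take p.p0 ++ (P' ++ Q')) ++ w.drop t := by
      simp
    rw [this, hPQ]
    have h3 : w.take p.p0 = (w.take t).take p.p0 := by
      rw [List.take_take, min_eq_left (by omega)]
    rw [h3, List.take_append_drop, List.take_append_drop]
  have hP : (w.take p.p0 ++ P') ∈ p.LP1 v := by
    refine ⟨by rw [List.length_append]; omega, ?_⟩
    rw [List.drop_append_of_le_length (by omega), List.drop_of_length_le (by omega),
      List.nil_append, List.take_append_of_le_length (by omega), List.take_of_length_le (by omega)]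
    exact hP'
  have hlenP : (w.take p.p0 ++ P').length = p.p0 + P'.length := by
    rw [List.length_append, etake]
  have hQB := Blk.unapp (P := w.take p.p0 ++ P') (Q := Q' ++ w.drop t) (Z := p.Z) (t := t) (b := b)
    (by rw [hlenP]; omega) (by rw [← ew]; exact hB)
  have hQ1 : Blk p.n p.SS (p.Z - p.p0) (Q' ++ w.drop t) (t - (w.take p.p0 ++ P').length)
      (b - (w.take p.p0 ++ P').length) := by
    obtain ⟨⟨g1, g2, g3⟩, g4, g5, g6, g7⟩ := hQB
    refine ⟨⟨by omega, g2, fun s hs1 hs2 => g3 s (by omega) hs2⟩, g4, g5, g6, g7⟩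
  have hQE : ∀ s, p.Z - p.p0 - p.N0 ≤ s → s < p.Z - p.p0 →
      ¬ Wl p.n p.SS (Q' ++ w.drop t) s := by
    intro s hs1 hs2 hs
    have h8 : Wl p.n p.SS w (s + (w.take p.p0 ++ P').length) := by
      have h9 : Wl p.n p.SS ((w.take p.p0 ++ P') ++ (Q' ++ w.drop t))
          (s + (w.take p.p0 ++ P').length) :=
        (wl_right (by omega)).2 (by rw [Nat.add_sub_cancel]; exact hs)
      rwa [← ew] at h9
    exact hE _ (by omega) (by omega) h8
  have eQ1 : (Q' ++ w.drop t).take (t - (w.take p.p0 ++ P').length) = Q' := by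
    rw [List.take_append_of_le_length (by omega), List.take_of_length_le (by omega)]
  have hQ : (Q' ++ w.drop t) ∈ p.RQ1 (p.TR r ((Q' ++ w.drop t).drop
      (t - (w.take p.p0 ++ P').length))) :=
    ⟨_, _, hQ1, hQE, r, by rw [eQ1]; exact hr, rfl⟩
  refine ⟨_, _, ew, hP, ?_⟩
  have hs := p.sound1 v _ _ _ hP hQ
  rw [← ew] at hs
  rw [hs.2]
  exact hQ

end Par

end Crest.Agent.R320.InstA_180
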