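import Crest.Agent.R320.Top5_467
import Crest.Agent.R320.WallU_228

/-!
# Row 320: blocks of left-looking walls, height one of block languages (helper184)
-/

set_option autoImplicit false

namespace Crest.Agent.R320.Inst_184

open Crest.RegLang Crest.Agent.R320.Hk_851 Crest.Agent.R320.Blk467
  Crest.Agent.R320.FewWalls_228 Crest.Agent.R320.WallU_228

variable {α : Type}

/-- blocks: the word up to the first wall at distance at least `z` -/
def XX (W : List α → Prop) (z : ℕ) : Set (List α) :=
  {X | z ≤ X.length ∧ W X ∧ ∀ t, z ≤ t → t < X.length → ¬ W (X.take t)}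

theorem ex_XX {W : List α → Prop} {z : ℕ} (w : List α) (m : ℕ) (hm : m ≤ w.length)
    (h1 : z ≤ m) (h2 : W (w.take m)) : ∃ X ∈ XX W z, X <+: w := by
  classical
  have hex : ∃ t, z ≤ t ∧ t ≤ w.length ∧ W (w.take t) := ⟨m, h1, hm, h2⟩
  obtain ⟨a1, a2, a3⟩ := Nat.find_spec hex
  refine ⟨w.take (Nat.find hex), ⟨?_, a3, ?_⟩, List.take_prefix _ _⟩
  · rw [List.length_take]; omega
  · intro t ht1 ht2 hW
    rw [List.length_take] at ht2
    have h3 : t < Nat.find hex := by omega
    refine Nat.find_min hex h3 ⟨ht1, by omega, ?_⟩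
    rwa [List.take_take, Nat.min_eq_left (by omega)] at hW

theorem pcode {W : List α → Prop} {z : ℕ} (hz : 0 < z) : PCode (XX W z) := by
  constructor
  · intro h
    have h1 : z ≤ ([] : List α).length := h.1
    rw [List.length_nil] at h1
    omega
  · intro X hX Y hY h
    obtain ⟨r, rfl⟩ := h
    by_cases hr : r = []
    · simp [hr]
    · exfalso
      have h1 : 0 < r.length := List.length_pos_iff.2 hr
      refine hY.2.2 X.length hX.1 (by rw [List.length_append]; omega) ?_
      rw [List.take_left]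
      exact hX.2.1

/-! ### heights -/

theorem HL_Wo [Finite α] (n : ℕ) (S : Set (List α)) (k : ℕ) :
    HL k ({P | Wo n S P} : Language α) := by
  have hfin : ({s | s ∈ S ∧ s.length = n} : Set (List α)).Finite :=
    (List.finite_length_eq α n).subset fun s hs => hs.2
  refine (HL.mul (HL.top (k := k)) (HL.finite hfin)).congr fun w => Iff.symm ?_
  rw [Language.mem_mul]
  constructor
  · rintro ⟨a, -, s, hs, rfl⟩
    obtain ⟨h1, h2⟩ : s ∈ S ∧ s.length = n := hs
    refine ⟨by rw [List.length_append]; omega, ?_⟩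
    have e : (a ++ s).length - n = a.length := by rw [List.length_append]; omega
    rw [e, List.drop_left]
    exact h1
  · rintro ⟨h1, h2⟩
    refine ⟨w.take (w.length - n), trivial, w.drop (w.length - n), ⟨h2, ?_⟩,
      List.take_append_drop _ _⟩
    rw [List.length_drop]; omega

theorem HL_XX [Finite α] (n : ℕ) (S : Set (List α)) (z k : ℕ) :
    HL k (XX (Wo n S) z : Language α) := by
  have hA : HL k ({X | z ≤ X.length ∧ Wo n S X} : Language α) :=
    HL.setOf_and (HL.length_ge z) (HL_Wo n S k)
  have hB := HL.mul hA (HL.length_ge (α := α) (k := k) 1)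
  refine (HL.sdiff hA hB).congr fun w => Iff.symm ?_
  constructor
  · rintro ⟨⟨h1, h2⟩, h3⟩
    refine ⟨h1, h2, fun t ht1 ht2 hW => h3 ?_⟩
    refine Language.mem_mul.2 ⟨w.take t, ⟨?_, hW⟩, w.drop t, ?_, List.take_append_drop _ _⟩
    · rw [List.length_take]; omega
    · show 1 ≤ (w.drop t).length
      rw [List.length_drop]; omega
  · rintro ⟨h1, h2, h3⟩
    refine ⟨⟨h1, h2⟩, fun h4 => ?_⟩
    obtain ⟨a, ⟨ha1, ha2⟩, b, hb, rfl⟩ := Language.mem_mul.1 h4
    have hb' : 1 ≤ b.length := hb
    refine h3 a.length ha1 (by rw [List.length_append]; omega) ?_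
    rw [List.take_left]
    exact ha2

theorem nw_XX {n : ℕ} {S : Set (List α)} {z : ℕ} {X : List α} (hX : X ∈ XX (Wo n S) z) :
    nw n S X ≤ z + 1 := by
  classical
  unfold nw
  refine (Finset.card_le_card (t := insert (X.length - n) (Finset.range z)) ?_).trans
    ((Finset.card_insert_le _ _).trans (by rw [Finset.card_range]))
  intro x hx
  rw [Finset.mem_filter] at hx
  obtain ⟨h1, h2⟩ := wo_take.1 hx.2
  rw [Finset.mem_insert, Finset.mem_range]
  by_contra hcon
  push Not at hcon
  refine hX.2.2 (x + n) (by omega) ?_ h2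
  omega

theorem nw_tail {n : ℕ} {S : Set (List α)} {z : ℕ} {w : List α}
    (hw : ∀ X ∈ XX (Wo n S) z, ¬ X <+: w) : nw n S w ≤ z := by
  classical
  unfold nw
  refine (Finset.card_le_card (t := Finset.range z) ?_).trans (by rw [Finset.card_range])
  intro x hx
  rw [Finset.mem_filter] at hx
  obtain ⟨h1, h2⟩ := wo_take.1 hx.2
  rw [Finset.mem_range]
  by_contra hcon
  obtain ⟨X, hX, hp⟩ := ex_XX (z := z) w (x + n) h1 (by omega) h2
  exact hw X hX hp

theorem nw_drop {n : ℕ} {S : Set (List α)} (a b : List α) : nw n S b ≤ nw n S (a ++ b) := by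
  classical
  unfold nw
  refine Finset.card_le_card_of_injOn (fun x => a.length + x) ?_ ?_
  · intro x hx
    rw [Finset.mem_coe, Finset.mem_filter, Finset.mem_range] at hx
    rw [Finset.mem_coe, Finset.mem_filter, Finset.mem_range]
    obtain ⟨h1, h2, h3⟩ := hx
    show a.length + x < (a ++ b).length + 1 ∧ Wl n S (a ++ b) (a.length + x)
    refine ⟨by rw [List.length_append]; omega, by rw [List.length_append]; omega, ?_⟩
    rw [← List.drop_drop, List.drop_left]
    exact h3
  · intro x _ y _ h
    have h' : a.length + x = a.length + y := h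
    omega

/-- value languages of few-walls words -/
theorem HL_sig [Finite α] {n r : ℕ} {S : Set (List α)}
    (HF : ∀ (M : Type) [Monoid M] [Finite M] (φ : α → M) (s : M),
      HL 1 ({w | nw n S w ≤ r ∧ (w.map φ).prod = s} : Language α))
    {M : Type} [Monoid M] [Finite M] (φ : α → M) (La Pm : ℕ) (hPm : 0 < Pm)
    (A : Language α) (hA : HL 1 A) (hr : ∀ w ∈ A, nw n S w ≤ r) (p : List α → Prop)
    (hp : ∀ q q2 : List α, La ≤ q.length → La ≤ q2.length → q.take La = q2.take La →
      q.length ≡ q2.length [MOD Pm] → (q.map φ).prod = (q2.map φ).prod → (p q ↔ p q2)) :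
    HL 1 ({w | w ∈ A ∧ p w} : Language α) := by
  classical
  haveI : NeZero Pm := ⟨hPm.ne'⟩
  let φ' : α → M × Multiplicative (ZMod Pm) := fun a => (φ a, Multiplicative.ofAdd 1)
  have hφ' : ∀ w : List α, (w.map φ').prod =
      ((w.map φ).prod, Multiplicative.ofAdd ((w.length : ZMod Pm))) := by
    intro w
    induction w with
    | nil => simp; rfl
    | cons a w ih =>
      rw [List.map_cons, List.prod_cons, ih, List.map_cons, List.prod_cons, List.length_cons]
      show ((φ a * _ : M), (Multiplicative.ofAdd (1 : ZMod Pm) * Multiplicative.ofAdd _)) = _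
      rw [← ofAdd_add]
      congr 2
      push_cast
      ring
  haveI : Finite (Multiplicative (ZMod Pm)) := inferInstanceAs (Finite (ZMod Pm))
  let I : Set (List α × (M × Multiplicative (ZMod Pm))) :=
    {t | t.1.length = La ∧ ∃ q0 : List α, La ≤ q0.length ∧ q0.take La = t.1 ∧
      (q0.map φ').prod = t.2 ∧ p q0}
  have hI : I.Finite := by
    refine ((List.finite_length_eq α La).prod (Set.finite_univ)).subset ?_
    intro t ht
    exact ⟨ht.1, trivial⟩
  have h1 := HL.biUnion (k := 1) hI (L := fun t =>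
    ({w | (w ∈ A ∧ La ≤ w.length) ∧ ((∃ v ∈ ({t.1} : Language α), v <+: w) ∧
      (nw n S w ≤ r ∧ (w.map φ').prod = t.2))} : Language α)) (fun t _ =>
      HL.setOf_and (HL.setOf_and hA (HL.length_ge La))
        (HL.setOf_and (HL.prefix (HL.word t.1)) (HF _ φ' t.2)))
  have h2 : HL 1 ({w | w ∈ A ∧ (w.length < La ∧ p w)} : Language α) := by
    refine HL.finite ((List.finite_length_lt α La).subset fun w hw => hw.2.1)
  refine (HL.add h1 h2).congr fun w => Iff.symm ?_
  constructor
  · rintro (h | h)
    · obtain ⟨t, ht, ⟨g1, g2⟩, ⟨v, hv, g3⟩, g4, g5⟩ := h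
      obtain ⟨t1, q0, t2, t3, t4, t5⟩ := ht
      have hv' : v = t.1 := hv
      subst hv'
      refine ⟨g1, (hp q0 w t2 g2 ?_ ?_ ?_).1 t5⟩
      · rw [t3]
        obtain ⟨s, rfl⟩ := g3
        rw [← t1, List.take_left]
      · have e : (q0.map φ').prod = (w.map φ').prod := by rw [t4, g5]
        rw [hφ', hφ'] at e
        have e2 := (Prod.mk.inj e).2
        have e3 : (q0.length : ZMod Pm) = (w.length : ZMod Pm) := e2
        exact (ZMod.natCast_eq_natCast_iff _ _ _).1 e3
      · have e : (q0.map φ').prod = (w.map φ').prod := by rw [t4, g5]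
        rw [hφ', hφ'] at e
        exact (Prod.mk.inj e).1
    · exact ⟨h.1, h.2.2⟩
  · rintro ⟨g1, g2⟩
    by_cases hl : La ≤ w.length
    · left
      refine ⟨(w.take La, (w.map φ').prod), ⟨?_, w, hl, rfl, rfl, g2⟩, ⟨g1, hl⟩,
        ⟨w.take La, rfl, List.take_prefix _ _⟩, hr w g1, rfl⟩
      show (w.take La).length = La
      rw [List.length_take]; omega
    · right
      exact ⟨g1, by omega, g2⟩

end Crest.Agent.R320.Inst_184
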