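import Crest.Agent.R320.FewWalls_228

/-!
# Row 320: the two completeness statements of `Top5_120.top5` for walls on all words (helper242)
-/

set_option autoImplicit false

namespace Crest.Agent.R320.InstA_242

open Crest.Agent.R320.FewWalls_228

universe u

variable {α : Type u} {n : ℕ} {Sw : Set (List α)}

/-- wall of `w` at the place `t` (window `[t - n, t)`) -/
def WW (n : ℕ) (Sw : Set (List α)) (w : List α) (t : ℕ) : Prop := n ≤ t ∧ Wl n Sw w (t - n)

theorem WW.le {w : List α} {t : ℕ} (h : WW n Sw w t) : t ≤ w.length := by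
  have := h.2.1; have := h.1; omega

theorem ww_append {w v : List α} {t : ℕ} (ht : t ≤ w.length) :
    WW n Sw (w ++ v) t ↔ WW n Sw w t := by
  unfold WW Wl
  constructor
  · rintro ⟨h1, h2, h3⟩
    refine ⟨h1, by omega, ?_⟩
    rw [List.drop_append_of_le_length (by omega),
      List.take_append_of_le_length (by rw [List.length_drop]; omega)] at h3
    exact h3
  · rintro ⟨h1, h2, h3⟩
    refine ⟨h1, by rw [List.length_append]; omega, ?_⟩
    rw [List.drop_append_of_le_length (by omega),
      List.take_append_of_le_length (by rw [List.length_drop]; omega)]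
    exact h3

theorem ww_shift {P Q : List α} {t : ℕ} (ht : n ≤ t) :
    WW n Sw (P ++ Q) (P.length + t) ↔ WW n Sw Q t := by
  unfold WW Wl
  have e : P.length + t - n = P.length + (t - n) := by omega
  rw [e, List.length_append, List.drop_append]
  have e2 : P.drop (P.length + (t - n)) = [] := List.drop_eq_nil_of_le (by omega)
  rw [e2, List.nil_append, Nat.add_sub_cancel_left]
  constructor
  · rintro ⟨h1, h2, h3⟩; exact ⟨ht, by omega, h3⟩
  · rintro ⟨h1, h2, h3⟩; exact ⟨by omega, by omega, h3⟩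

theorem ww_change {P P' Q : List α} {s s' : ℕ} (h1 : P.length + n ≤ s)
    (h2 : s' + P.length = s + P'.length) : WW n Sw (P ++ Q) s ↔ WW n Sw (P' ++ Q) s' := by
  obtain ⟨t, rfl⟩ : ∃ t, s = P.length + t := ⟨s - P.length, by omega⟩
  obtain rfl : s' = P'.length + t := by omega
  rw [ww_shift (by omega), ww_shift (by omega)]

/-- blocks: the first wall at a place `≥ z` -/
def CC (n : ℕ) (Sw : Set (List α)) (z : ℕ) : Set (List α) :=
  {X | z ≤ X.length ∧ WW n Sw X X.length ∧ ∀ t, z ≤ t → t < X.length → ¬ WW n Sw X t}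

/-- wall in the band -/
def EE (n : ℕ) (Sw : Set (List α)) (z N1 : ℕ) (X : List α) : Prop :=
  ∃ s, z ≤ s + N1 ∧ s < z + N1 ∧ WW n Sw X s

/-- bad blocks -/
def Bd (n : ℕ) (Sw : Set (List α)) (z N1 p0 : ℕ) (BT : ℕ → Prop) : Set (List α) :=
  {X | X ∈ CC n Sw z ∧ (EE n Sw z N1 X ∨ BT (X.length - p0))}

theorem cc_code {z : ℕ} (hz : 0 < z) : [] ∉ CC n Sw z ∧
    ∀ X ∈ CC n Sw z, ∀ Y ∈ CC n Sw z, X <+: Y → X = Y := by
  refine ⟨fun h => ?_, ?_⟩
  · have := h.1; simp at this; omega
  · rintro X hX Y hY ⟨r, rfl⟩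
    by_contra hne
    have hr : 0 < r.length := by
      rcases r with _ | ⟨a, r⟩
      · simp at hne
      · simp
    exact hY.2.2 X.length hX.1 (by rw [List.length_append]; omega)
      ((ww_append le_rfl).2 hX.2.1)

/-- junction lemma -/
theorem junction {z N1 p0 : ℕ} (hz : p0 + N1 + n + N1 ≤ z) {P P' Q : List α}
    (hX : P ++ Q ∈ CC n Sw z) (hE : ¬ EE n Sw z N1 (P ++ Q))
    (h1 : p0 ≤ P.length) (h2 : P.length ≤ p0 + N1) (h3 : p0 ≤ P'.length)
    (h4 : P'.length ≤ p0 + N1) : P' ++ Q ∈ CC n Sw z := by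
  have hlen : z + N1 ≤ (P ++ Q).length := by
    by_contra h
    exact hE ⟨(P ++ Q).length, by have := hX.1; omega, by omega, hX.2.1⟩
  rw [List.length_append] at hlen
  refine ⟨by rw [List.length_append]; omega, ?_, ?_⟩
  · refine (ww_change (P := P) ?_ ?_).1 hX.2.1
    · rw [List.length_append]; omega
    · simp only [List.length_append]; omega
  · intro t ht1 ht2 hw
    rw [List.length_append] at ht2
    have hw' : WW n Sw (P ++ Q) (t - P'.length + P.length) :=
      (ww_change (P := P') (by omega) (by omega)).1 hw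
    by_cases hb : t - P'.length + P.length < z + N1
    · exact hE ⟨_, by omega, hb, hw'⟩
    · exact hX.2.2 _ (by omega) (by rw [List.length_append]; omega) hw'

section value

variable {S V : Type*} [Monoid S] [AddCommGroup V]

/-- product along a word -/
abbrev ph (φ : α → S) (w : List α) : S := (w.map φ).prod

/-- noise of a block -/
def nuT (act : V → S → V) (φ : α → S) (nu1 nu2 : List α → V) (p0 : ℕ) (X : List α) : V :=
  act (nu2 (X.take p0)) (ph φ (X.drop p0)) + nu1 (X.drop p0)

theorem TT_eq {act : V → S → V} (hadd : ∀ a b s, act (a + b) s = act a s + act b s)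
    (hmul : ∀ v s t, act v (s * t) = act (act v s) t) (φ : α → S) (nu1 nu2 : List α → V)
    (p0 : ℕ) (x : V) (X : List α) :
    act x (X.map φ).prod + nuT act φ nu1 nu2 p0 X =
      act (act x (ph φ (X.take p0)) + nu2 (X.take p0)) (ph φ (X.drop p0)) + nu1 (X.drop p0) := by
  have e : (X.map φ).prod = ph φ (X.take p0) * ph φ (X.drop p0) := by
    unfold ph
    rw [← List.prod_append, ← List.map_append, List.take_append_drop]
  rw [e, hmul, hadd, nuT, add_assoc]

/-- left words of scheme 1 -/
def L1 (act : V → S → V) (φ : α → S) (nu2 : List α → V) (lam1 : List α → Option V)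
    (p0 N1 : ℕ) (v : V) : Set (List α) :=
  {P | p0 ≤ P.length ∧ P.length ≤ p0 + N1 ∧
    lam1 (P.drop p0) = some (act v (ph φ (P.take p0)) + nu2 (P.take p0))}

theorem cc1 {act : V → S → V} (hadd : ∀ a b s, act (a + b) s = act a s + act b s)
    (hmul : ∀ v s t, act v (s * t) = act (act v s) t) (φ : α → S) (nu1 nu2 : List α → V)
    {p0 N1 La z : ℕ} (hz : p0 + N1 + n + N1 ≤ z) (hz2 : p0 + N1 + La ≤ z) {BT : ℕ → Prop}
    {lam1 rho1 : List α → Option V}
    (hl : ∀ p v, lam1 p = some v → p.length ≤ N1)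
    (hs : ∀ p q v r, lam1 p = some v → rho1 q = some r → La ≤ q.length →
      r = act v (ph φ (p ++ q)) + nu1 (p ++ q))
    (hc : ∀ w : List α, La ≤ w.length → ¬ BT w.length → ∀ v, ∃ p q, p ++ q = w ∧
      lam1 p = some v ∧ (rho1 q).isSome) :
    ∀ X ∈ CC n Sw z, X ∉ Bd n Sw z N1 p0 BT → ∀ v, ∃ P Q, P ++ Q = X ∧
      P ∈ L1 act φ nu2 lam1 p0 N1 v ∧
      ∀ x, ∀ P' ∈ L1 act φ nu2 lam1 p0 N1 x, P' ++ Q ∈ CC n Sw z ∧
        act x ((P' ++ Q).map φ).prod + nuT act φ nu1 nu2 p0 (P' ++ Q)
          = act v (X.map φ).prod + nuT act φ nu1 nu2 p0 X := by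
  intro X hX hB v
  have hB' : ¬ EE n Sw z N1 X ∧ ¬ BT (X.length - p0) := by
    constructor
    · intro h; exact hB ⟨hX, Or.inl h⟩
    · intro h; exact hB ⟨hX, Or.inr h⟩
  have hXl := hX.1
  have htl : (X.take p0).length = p0 := by rw [List.length_take]; omega
  have hdl : (X.drop p0).length = X.length - p0 := List.length_drop
  obtain ⟨p, q, hpq, hlam, hrho⟩ := hc (X.drop p0) (by omega) (by rw [hdl]; exact hB'.2)
    (act v (ph φ (X.take p0)) + nu2 (X.take p0))
  obtain ⟨b, hb⟩ := Option.isSome_iff_exists.1 hrho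
  have hpl := hl p _ hlam
  have hql : La ≤ q.length := by
    have := congrArg List.length hpq
    rw [List.length_append, hdl] at this
    omega
  have hXe : X = (X.take p0 ++ p) ++ q := by
    rw [List.append_assoc, hpq, List.take_append_drop]
  -- value of a block `P' ++ q`
  have hval : ∀ x, ∀ P' ∈ L1 act φ nu2 lam1 p0 N1 x,
      act x ((P' ++ q).map φ).prod + nuT act φ nu1 nu2 p0 (P' ++ q) = b := by
    intro x P' hP'
    rw [TT_eq hadd hmul, List.take_append_of_le_length hP'.1,
      List.drop_append_of_le_length hP'.1]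
    exact (hs _ _ _ _ hP'.2.2 hb hql).symm
  have hP : X.take p0 ++ p ∈ L1 act φ nu2 lam1 p0 N1 v := by
    refine ⟨by rw [List.length_append]; omega, by rw [List.length_append]; omega, ?_⟩
    have e1 : (X.take p0 ++ p).take p0 = X.take p0 := by
      rw [List.take_append_of_le_length (by omega), List.take_take, min_self]
    have e2 : (X.take p0 ++ p).drop p0 = p := by
      rw [List.drop_append_of_le_length (by omega), List.drop_eq_nil_of_le (by omega),
        List.nil_append]
    rw [e1, e2]; exact hlam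
  refine ⟨X.take p0 ++ p, q, hXe.symm, hP, fun x P' hP' => ⟨?_, ?_⟩⟩
  · refine junction (P := X.take p0 ++ p) hz (by rw [← hXe]; exact hX)
      (by rw [← hXe]; exact hB'.1) hP.1 hP.2.1 hP'.1 hP'.2.1
  · rw [hval x P' hP']
    conv_rhs => rw [hXe]
    exact (hval v _ hP).symm

end value

end Crest.Agent.R320.InstA_242
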