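import Crest.Agent.R320.Top5_110
import Crest.Agent.R320.ExactR_237
import Crest.Agent.R320.FewVal_228

/-!
# Row 320: instance of the two schemes on ALL words (helper377), part A: combinatorics

Natural chain rule (block = up to the first wall at a place `>= z`), left-looking walls
(`WA n S w t`: the `n` letters before `t` belong to `S`), one token system.
-/

set_option autoImplicit false
set_option linter.unusedSectionVars false

namespace Crest.Agent.R320.Inst_377

open Crest.Agent.R320.Hk_851 Crest.Agent.R320.FewWalls_228 Crest.Agent.R320.Code110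
  Crest.Agent.R320.Top5_110 Crest.Agent.R320.ExactR_237

variable {α : Type}

/-- wall at the place `t` of `w` (left-looking) -/
def WA (n : ℕ) (S : Set (List α)) (w : List α) (t : ℕ) : Prop :=
  n ≤ t ∧ t ≤ w.length ∧ (w.drop (t - n)).take n ∈ S

variable {n : ℕ} {S : Set (List α)}

theorem WA.app {w v : List α} {t : ℕ} (ht : t ≤ w.length) : WA n S (w ++ v) t ↔ WA n S w t := by
  unfold WA
  constructor
  · rintro ⟨h1, h2, h3⟩
    refine ⟨h1, ht, ?_⟩
    rwa [List.drop_append_of_le_length (by omega), List.take_append_of_le_length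
      (by rw [List.length_drop]; omega)] at h3
  · rintro ⟨h1, h2, h3⟩
    refine ⟨h1, by rw [List.length_append]; omega, ?_⟩
    rwa [List.drop_append_of_le_length (by omega), List.take_append_of_le_length
      (by rw [List.length_drop]; omega)]

theorem WA.shift {P Q : List α} {s : ℕ} (hs : n ≤ s) :
    WA n S (P ++ Q) (P.length + s) ↔ WA n S Q s := by
  unfold WA
  have e : P.length + s - n = P.length + (s - n) := by omega
  have e2 : (P ++ Q).drop (P.length + s - n) = Q.drop (s - n) := by
    rw [e, ← List.drop_drop, List.drop_left]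
  rw [e2, List.length_append]
  constructor
  · rintro ⟨h1, h2, h3⟩; exact ⟨hs, by omega, h3⟩
  · rintro ⟨h1, h2, h3⟩; exact ⟨by omega, by omega, h3⟩

/-- the blocks -/
def XX (n : ℕ) (S : Set (List α)) (z : ℕ) : Language α :=
  {X | z ≤ X.length ∧ WA n S X X.length ∧ ∀ t, z ≤ t → t < X.length → ¬ WA n S X t}

theorem mem_XX {z : ℕ} {X : List α} : X ∈ XX n S z ↔
    (z ≤ X.length ∧ WA n S X X.length ∧ ∀ t, z ≤ t → t < X.length → ¬ WA n S X t) := Iff.rfl

theorem XX_pc {z : ℕ} (hz : 0 < z) : PC (XX n S z) where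
  ne := by
    intro h
    have := (mem_XX.1 h).1
    simp at this
    omega
  pf := by
    rintro u hu v hv ⟨r, rfl⟩
    have h1 := mem_XX.1 hu
    have h2 := mem_XX.1 hv
    by_contra hne
    have hr : r ≠ [] := by rintro rfl; exact hne (by simp)
    have hrl := List.length_pos_iff.2 hr
    exact h2.2.2 u.length h1.1 (by rw [List.length_append]; omega) ((WA.app le_rfl).2 h1.2.1)

/-- existence of the first block -/
theorem exists_block {z : ℕ} {w : List α} {t : ℕ} (hz : z ≤ t) (hw : WA n S w t) :
    ∃ t0, z ≤ t0 ∧ t0 ≤ t ∧ WA n S w t0 ∧ w.take t0 ∈ XX n S z ∧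
      ∀ t', z ≤ t' → t' < t0 → ¬ WA n S w t' := by
  classical
  have hex : ∃ t0, z ≤ t0 ∧ WA n S w t0 := ⟨t, hz, hw⟩
  obtain ⟨h1, h2⟩ := Nat.find_spec hex
  have hmin : ∀ t', z ≤ t' → t' < Nat.find hex → ¬ WA n S w t' := fun t' h3 h4 h5 =>
    Nat.find_min hex h4 ⟨h3, h5⟩
  have hle : Nat.find hex ≤ w.length := h2.2.1
  have hlen : (w.take (Nat.find hex)).length = Nat.find hex := by
    rw [List.length_take]; exact min_eq_left hle
  have key : ∀ t', t' ≤ Nat.find hex →
      (WA n S (w.take (Nat.find hex)) t' ↔ WA n S w t') := by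
    intro t' ht'
    conv_rhs => rw [← List.take_append_drop (Nat.find hex) w]
    exact (WA.app (by rw [hlen]; exact ht')).symm
  refine ⟨Nat.find hex, h1, Nat.find_min' hex ⟨hz, hw⟩, h2, ?_, hmin⟩
  rw [mem_XX, hlen]
  exact ⟨h1, (key _ le_rfl).2 h2, fun t' h3 h4 h5 => hmin t' h3 h4 ((key _ h4.le).1 h5)⟩

section data

variable {M V : Type} [Monoid M] [AddCommGroup V]

/-- zone map: both noises -/
def TT (φ : List α → M) (act : V → M → V) (p : ℕ) (nu1 nu2 : List α → V) (u : List α) (v : V) : V :=
  act (act v (φ (u.take p)) + nu2 (u.take p)) (φ (u.drop p)) + nu1 (u.drop p)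

/-- bad blocks -/
def BB (n : ℕ) (S : Set (List α)) (z N p : ℕ) (Bad : ℤ → Prop) : Language α :=
  {X | X ∈ XX n S z ∧ ((∃ t, WA n S X t ∧ z ≤ t + N ∧ t ≤ z + N) ∨ Bad ((X.length : ℤ) - p))}

theorem mem_BB {z N p : ℕ} {Bad : ℤ → Prop} {X : List α} : X ∈ BB n S z N p Bad ↔
    (X ∈ XX n S z ∧ ((∃ t, WA n S X t ∧ z ≤ t + N ∧ t ≤ z + N) ∨ Bad ((X.length : ℤ) - p))) :=
  Iff.rfl

theorem TT_sub {φ : List α → M} {act : V → M → V} {p : ℕ} {nu1 nu2 : List α → V}
    (hφ : ∀ u w, φ (u ++ w) = φ u * φ w) (hadd : ∀ a b s, act (a + b) s = act a s + act b s)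
    (hmul : ∀ v s t, act v (s * t) = act (act v s) t) (u : List α) (v v' : V) :
    TT φ act p nu1 nu2 u v - TT φ act p nu1 nu2 u v' = act (v - v') (φ u) := by
  have hsub : ∀ a b s, act (a - b) s = act a s - act b s := by
    intro a b s
    have := hadd (a - b) b s
    rw [sub_add_cancel] at this
    rw [this, add_sub_cancel_right]
  unfold TT
  have e : φ u = φ (u.take p) * φ (u.drop p) := by rw [← hφ, List.take_append_drop]
  rw [e, hmul, hsub, add_sub_add_right_eq_sub, ← hsub, add_sub_add_right_eq_sub]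

/-- left language of scheme 1 -/
def L1 (φ : List α → M) (act : V → M → V) (p N : ℕ) (nu2 : List α → V)
    (lam : List α → Option V) (v : V) : Language α :=
  {P | p ≤ P.length ∧ P.length < p + N ∧
    lam (P.drop p) = some (act v (φ (P.take p)) + nu2 (P.take p))}

/-- left language of scheme 2 -/
def L2 (K : ℕ) (c : ℕ → ℕ) (lam2 : ℕ → List α → Option V) (v : V) : Language α :=
  {P | ∃ k < K, P.length = c k ∧ lam2 k P = some v}

/-- **C1** -/
theorem C1 {φ : List α → M} {act : V → M → V} {p N z A : ℕ} {nu1 nu2 : List α → V}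
    {lam rho : List α → Option V} {Bad : ℤ → Prop}
    (hz : p + N + n + A + N < z)
    (hlen : ∀ P v, lam P = some v → P.length < N)
    (hsound : ∀ P Q v r, lam P = some v → rho Q = some r →
      r = act v (φ (P ++ Q)) + nu1 (P ++ Q))
    (hcomp : ∀ X : List α, A ≤ X.length → ¬ Bad X.length → ∀ v, ∃ P Q r, X = P ++ Q ∧
      lam P = some v ∧ rho Q = some r)
    (u : List α) (hu : u ∈ XX n S z) (hb : u ∉ BB n S z N p Bad) (x : V) :
    ∀ t ∈ XX n S z ^ 0, ∃ P Q y, u ++ t = P ++ Q ∧ P ∈ L1 φ act p N nu2 lam x ∧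
      Q ∈ Rsem (XX n S z) (XX n S z) (TT φ act p nu1 nu2) 0 (L1 φ act p N nu2 lam) y := by
  intro t ht
  rw [pow_zero] at ht
  have ht0 : t = [] := ht
  subst ht0
  obtain ⟨g1, g2, g3⟩ := mem_XX.1 hu
  have hE : ∀ t, WA n S u t → z ≤ t + N → t ≤ z + N → False := fun t h1 h2 h3 =>
    hb ⟨hu, Or.inl ⟨t, h1, h2, h3⟩⟩
  have hT : ¬ Bad ((u.length : ℤ) - p) := fun h => hb ⟨hu, Or.inr h⟩
  have hbig : z + N < u.length := by
    by_contra hcon
    exact hE u.length g2 (by omega) (by omega)
  have hYlen : (u.drop p).length = u.length - p := List.length_drop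
  obtain ⟨P, Q, r, hPQ, hlP, hrQ⟩ := hcomp (u.drop p) (by rw [hYlen]; omega) (by
    rw [hYlen]; intro h; apply hT
    rw [Nat.cast_sub (by omega)] at h; exact h) (act x (φ (u.take p)) + nu2 (u.take p))
  have hPN := hlen P _ hlP
  have htk : (u.take p).length = p := by rw [List.length_take]; omega
  have hul : u.length = p + P.length + Q.length := by
    have := congrArg List.length hPQ
    rw [hYlen, List.length_append] at this
    omega
  refine ⟨u.take p ++ P, Q, r, ?_, ?_, ?_⟩
  · rw [List.append_nil, List.append_assoc, ← hPQ, List.take_append_drop]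
  · refine ⟨by rw [List.length_append]; omega, by rw [List.length_append]; omega, ?_⟩
    rw [List.drop_append, List.drop_eq_nil_of_le (by omega), List.nil_append, htk, Nat.sub_self,
      List.drop_zero, List.take_append, List.take_of_length_le (by omega), htk, Nat.sub_self,
      List.take_zero, List.append_nil]
    exact hlP
  · intro x' P' hP'
    left
    obtain ⟨h1, h2, h3⟩ := hP'
    -- the block P' ++ Q
    have hQn : n ≤ Q.length := by omega
    have hue : u = (u.take p ++ P) ++ Q := by
      rw [List.append_assoc, ← hPQ, List.take_append_drop]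
    have hwall : ∀ s, n ≤ s → (WA n S (P' ++ Q) (P'.length + s) ↔
        WA n S u (p + P.length + s)) := by
      intro s hs
      rw [WA.shift hs]
      conv_rhs => rw [hue]
      have e : p + P.length + s = (u.take p ++ P).length + s := by
        rw [List.length_append, htk]
      rw [e, WA.shift hs]
    have hXX : P' ++ Q ∈ XX n S z := by
      rw [mem_XX, List.length_append]
      refine ⟨by omega, ?_, ?_⟩
      · rw [hwall _ hQn, ← hul]; exact g2
      · intro t' h4 h5 h6
        obtain ⟨s, rfl⟩ : ∃ s, t' = P'.length + s := ⟨t' - P'.length, by omega⟩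
        have h7 := (hwall s (by omega)).1 h6
        by_cases h8 : z ≤ p + P.length + s
        · exact g3 _ h8 (by omega) h7
        · exact hE _ h7 (by omega) (by omega)
    refine ⟨r, Language.mem_mul.2 ⟨P' ++ Q, ⟨hXX, ?_⟩, [], ⟨rfl, rfl⟩, by simp⟩⟩
    show TT φ act p nu1 nu2 (P' ++ Q) x' = r
    unfold TT
    have e1 : (P' ++ Q).take p = P'.take p := List.take_append_of_le_length h1
    have e2 : (P' ++ Q).drop p = P'.drop p ++ Q := List.drop_append_of_le_length h1
    rw [e1, e2]
    exact (hsound _ _ _ _ h3 hrQ).symm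

end data

end Crest.Agent.R320.Inst_377
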