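import Mathlib

/-!
Row 320, helper382: chain rule with residue thresholds on lists (132 #12664 (2)(3)), failure modes
and "at most one pair of the ruler per event", on lists.
-/

set_option autoImplicit false

namespace Crest.Agent.R320.Inst382

variable {α : Type*}

/-- a right looking rule with window `n` -/
structure Loc (R : List α → Prop) (n : ℕ) : Prop where
  loc : ∀ Q, R Q ↔ R (Q.take n)
  len : ∀ Q, R Q → n ≤ Q.length
  pos : 1 ≤ n

theorem Loc.fit {R : List α → Prop} {n : ℕ} (h : Loc R n) {T : List α} {t : ℕ}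
    (ht : R (T.drop t)) : t + n ≤ T.length := by
  have h1 := h.len _ ht
  have h2 := h.pos
  rw [List.length_drop] at h1
  omega

theorem Loc.take {R : List α → Prop} {n : ℕ} (h : Loc R n) {T : List α} {t B : ℕ}
    (hB : t + n ≤ B) : R ((T.take B).drop t) ↔ R (T.drop t) := by
  rw [h.loc ((T.take B).drop t), h.loc (T.drop t), List.drop_take, List.take_take,
    min_eq_left (by omega)]

theorem Loc.of_take {R : List α → Prop} {n : ℕ} (h : Loc R n) {T : List α} {t B : ℕ}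
    (ht : R ((T.take B).drop t)) : t + n ≤ B ∧ R (T.drop t) := by
  have h1 := h.fit ht
  have h2 : t + n ≤ B := by
    have := List.length_take_le B T
    omega
  exact ⟨h2, (h.take h2).1 ht⟩

def thr (q Z0 D0 t : ℕ) : ℕ := Z0 + D0 * (t % q)

/-- the wall `t` qualifies -/
def Qf (Ro : List α → Prop) (q Z0 D0 : ℕ) (T : List α) (t : ℕ) : Prop :=
  Ro (T.drop t) ∧ thr q Z0 D0 t ≤ t

/-- `t` is the next anchor, seen from the frame point -/
def IsNx (Ro : List α → Prop) (q Z0 D0 : ℕ) (T : List α) (t : ℕ) : Prop :=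
  Qf Ro q Z0 D0 T t ∧ ∀ t' < t, ¬ Qf Ro q Z0 D0 T t'

theorem IsNx.unique {Ro : List α → Prop} {q Z0 D0 : ℕ} {T : List α} {t t' : ℕ}
    (h : IsNx Ro q Z0 D0 T t) (h' : IsNx Ro q Z0 D0 T t') : t = t' := by
  rcases lt_trichotomy t t' with h1 | h1 | h1
  · exact absurd h.1 (h'.2 t h1)
  · exact h1
  · exact absurd h'.1 (h.2 t' h1)

theorem exists_isNx {Ro : List α → Prop} {q Z0 D0 : ℕ} {T : List α} {t : ℕ}
    (h : Qf Ro q Z0 D0 T t) : ∃ t', t' ≤ t ∧ IsNx Ro q Z0 D0 T t' := by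
  classical
  have hex : ∃ t, Qf Ro q Z0 D0 T t := ⟨t, h⟩
  exact ⟨Nat.find hex, Nat.find_min' hex h, Nat.find_spec hex, fun t' ht' => Nat.find_min hex ht'⟩

theorem IsNx.take {Ro : List α → Prop} {n q Z0 D0 : ℕ} (hR : Loc Ro n) {T : List α} {t B : ℕ}
    (h : IsNx Ro q Z0 D0 T t) (hB : t + n ≤ B) : IsNx Ro q Z0 D0 (T.take B) t := by
  refine ⟨⟨(hR.take hB).2 h.1.1, h.1.2⟩, fun t' ht' h' => h.2 t' ht' ⟨(hR.of_take h'.1).2, h'.2⟩⟩

theorem IsNx.of_take {Ro : List α → Prop} {n q Z0 D0 : ℕ} (hR : Loc Ro n) {T : List α} {t B : ℕ}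
    (h : IsNx Ro q Z0 D0 (T.take B) t) : t + n ≤ B ∧ IsNx Ro q Z0 D0 T t := by
  obtain ⟨h1, h2⟩ := hR.of_take h.1.1
  exact ⟨h1, ⟨h2, h.1.2⟩, fun t' ht' h' =>
    h.2 t' ht' ⟨(hR.take (by omega)).2 h'.1, h'.2⟩⟩

/-- right legality of the chain part: the next anchor is `d` further, for all comb places of the
window (`N1 = q * OM`) -/
def RL (Ro : List α → Prop) (q Z0 D0 N1 : ℕ) (r : List α) (d : ℕ) : Prop :=
  Ro (r.drop d) ∧ thr q Z0 D0 d ≤ d ∧ ∀ t < d, Ro (r.drop t) → t + N1 < thr q Z0 D0 t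

theorem thr_add {q Z0 D0 om t : ℕ} : thr q Z0 D0 (q * om + t) = thr q Z0 D0 t := by
  unfold thr; rw [Nat.mul_add_mod]

theorem drop_add (P Q : List α) (t : ℕ) : (P ++ Q).drop (P.length + t) = Q.drop t := by
  rw [← List.drop_drop, List.drop_left]

/-- junction lemma -/
theorem junction {Ro : List α → Prop} {q Z0 D0 N1 om d : ℕ} {P r : List α}
    (hP : P.length = q * om) (hom : q * om ≤ N1) (hZ : N1 < Z0)
    (h : RL Ro q Z0 D0 N1 r d) : IsNx Ro q Z0 D0 (P ++ r) (q * om + d) := by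
  obtain ⟨h1, h2, h3⟩ := h
  refine ⟨⟨?_, ?_⟩, ?_⟩
  · rw [← hP, drop_add]; exact h1
  · rw [thr_add]; omega
  · intro t ht hq
    obtain ⟨h4, h5⟩ := hq
    rcases Nat.lt_or_ge t (q * om) with h6 | h6
    · have : Z0 ≤ thr q Z0 D0 t := Nat.le_add_right _ _
      omega
    · obtain ⟨s, rfl⟩ := Nat.exists_eq_add_of_le h6
      rw [← hP, drop_add] at h4
      have h7 := h3 s (by omega) h4
      rw [thr_add] at h5
      omega

/-- mode (E) -/
def EE (Ro : List α → Prop) (q Z0 D0 N1 : ℕ) (T : List α) : Prop :=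
  ∃ t, Ro (T.drop t) ∧ thr q Z0 D0 t ≤ t + N1 ∧ t ≤ thr q Z0 D0 t + N1

theorem legal_of_not_EE {Ro : List α → Prop} {q Z0 D0 N1 om N : ℕ} {T : List α}
    (hom : q * om ≤ N1) (h : IsNx Ro q Z0 D0 T N) (hE : ¬ EE Ro q Z0 D0 N1 T) (hN : q * om ≤ N) :
    RL Ro q Z0 D0 N1 (T.drop (q * om)) (N - q * om) := by
  obtain ⟨d, rfl⟩ := Nat.exists_eq_add_of_le hN
  have hd : q * om + d - q * om = d := by omega
  rw [hd]
  refine ⟨?_, ?_, ?_⟩
  · rw [List.drop_drop]; exact h.1.1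
  · by_contra hlt
    push Not at hlt
    have h1 := h.1.2
    rw [thr_add] at h1
    apply hE
    refine ⟨q * om + d, h.1.1, ?_, ?_⟩
    · rw [thr_add]; omega
    · rw [thr_add]; omega
  · intro t ht h1
    rw [List.drop_drop] at h1
    by_contra hlt
    push Not at hlt
    have h2 := h.2 (q * om + t) (by omega)
    have h3 : ¬ thr q Z0 D0 (q * om + t) ≤ q * om + t := fun h4 => h2 ⟨h1, h4⟩
    rw [thr_add] at h3
    apply hE
    refine ⟨q * om + t, h1, ?_, ?_⟩
    · rw [thr_add]; omega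
    · rw [thr_add]; omega

/-! ### events -/

section events

variable {Ro Rs : List α → Prop} {q Z0 D0 N1 : ℕ} {n ns : ℕ}

/-- (E) at two candidates: the positions differ by a multiple of `q` -/
theorem EE_unique (hR : Loc Ro n) {W Lam : ℕ} (hsep : ∀ Q d, Ro Q → 0 < d → d ≤ W → ¬ Ro (Q.drop d))
    (hW : D0 * q + 2 * N1 + 2 * Lam ≤ W) (hD : 2 * N1 + 2 * Lam < D0) (hq : 0 < q)
    {t : List α} {x1 x2 B : ℕ} (hx : x1 ≤ x2 + 2 * Lam) (hx' : x2 ≤ x1 + 2 * Lam)
    (h1 : EE Ro q Z0 D0 N1 ((t.drop x1).take B)) (h2 : EE Ro q Z0 D0 N1 ((t.drop x2).take B)) :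
    (q : ℤ) ∣ (x1 : ℤ) - x2 := by
  obtain ⟨a, ha, ha1, ha2⟩ := h1
  obtain ⟨b, hb, hb1, hb2⟩ := h2
  have ha' := (hR.of_take ha).2
  have hb' := (hR.of_take hb).2
  rw [List.drop_drop] at ha' hb'
  have hma := Nat.mod_lt a hq
  have hmb := Nat.mod_lt b hq
  have ea : thr q Z0 D0 a = Z0 + D0 * (a % q) := rfl
  have eb : thr q Z0 D0 b = Z0 + D0 * (b % q) := rfl
  have ua : D0 * (a % q) ≤ D0 * q := Nat.mul_le_mul_left _ hma.le
  have ub : D0 * (b % q) ≤ D0 * q := Nat.mul_le_mul_left _ hmb.le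
  have key : ∀ u v : ℕ, Ro (t.drop u) → Ro (t.drop v) → u ≤ v → v ≤ u + W → u = v := by
    intro u v hu hv huv hvu
    by_contra hne
    have := hsep _ (v - u) hu (by omega) (by omega)
    rw [List.drop_drop, show u + (v - u) = v by omega] at this
    exact this hv
  have hsame : x1 + a = x2 + b := by
    rcases le_total (x1 + a) (x2 + b) with h | h
    · exact key _ _ ha' hb' h (by omega)
    · exact (key _ _ hb' ha' h (by omega)).symm
  have hres : a % q = b % q := by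
    by_contra hne
    rcases Nat.lt_or_gt_of_ne hne with h | h
    · have h3 : D0 * (a % q) + D0 ≤ D0 * (b % q) := by
        have : D0 * (a % q + 1) ≤ D0 * (b % q) := Nat.mul_le_mul_left _ h
        rwa [Nat.mul_add, Nat.mul_one] at this
      omega
    · have h3 : D0 * (b % q) + D0 ≤ D0 * (a % q) := by
        have : D0 * (b % q + 1) ≤ D0 * (a % q) := Nat.mul_le_mul_left _ h
        rwa [Nat.mul_add, Nat.mul_one] at this
      omega
  have h4 : (q : ℤ) ∣ (b : ℤ) - a := (Nat.modEq_iff_dvd (n := q) (a := a) (b := b)).1 hres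
  have h5 : (x1 : ℤ) - x2 = (b : ℤ) - a := by
    have : (x1 : ℤ) + a = x2 + b := by exact_mod_cast hsame
    linarith
  rw [h5]; exact h4

/-- small wall near a level -/
def DD (Rs : List α → Prop) (D : ℕ) (A : ℕ) (T : List α) : Prop :=
  ∃ t, Rs (T.drop t) ∧ A ≤ t + D ∧ t < A + D

theorem DD_unique (hR : Loc Rs ns) {g Lam D A : ℕ}
    (hsep : ∀ Q d, Rs Q → 0 < d → d ≤ g → ¬ Rs (Q.drop d)) (hg : 2 * D + 2 * Lam ≤ g)
    {t : List α} {x1 x2 B : ℕ} (hx : x1 ≤ x2 + 2 * Lam) (hx' : x2 ≤ x1 + 2 * Lam)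
    (h1 : DD Rs D A ((t.drop x1).take B)) (h2 : DD Rs D A ((t.drop x2).take B)) :
    |(x1 : ℤ) - x2| ≤ 2 * D := by
  obtain ⟨a, ha, ha1, ha2⟩ := h1
  obtain ⟨b, hb, hb1, hb2⟩ := h2
  have ha' := (hR.of_take ha).2
  have hb' := (hR.of_take hb).2
  rw [List.drop_drop] at ha' hb'
  have key : ∀ u v : ℕ, Rs (t.drop u) → Rs (t.drop v) → u ≤ v → v ≤ u + g → u = v := by
    intro u v hu hv huv hvu
    by_contra hne
    have := hsep _ (v - u) hu (by omega) (by omega)
    rw [List.drop_drop, show u + (v - u) = v by omega] at this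
    exact this hv
  have hsame : x1 + a = x2 + b := by
    rcases le_total (x1 + a) (x2 + b) with h | h
    · exact key _ _ ha' hb' h (by omega)
    · exact (key _ _ hb' ha' h (by omega)).symm
  rw [abs_le]; constructor <;> omega

/-- (B): next anchors of two candidates of the same class are the same wall -/
theorem BB_same (hR : Loc Ro n) {W Lam : ℕ}
    (hsep : ∀ Q d, Ro Q → 0 < d → d ≤ W → ¬ Ro (Q.drop d))
    (hW : D0 * q + 2 * Lam ≤ W) (hq : 0 < q)
    {t : List α} {x1 x2 B p0 a b : ℕ} (hx1 : x1 ≤ p0 + Lam) (hx1' : p0 ≤ x1 + Lam)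
    (hx2 : x2 ≤ p0 + Lam) (hx2' : p0 ≤ x2 + Lam)
    (h1 : IsNx Ro q Z0 D0 ((t.drop x1).take B) a) (h2 : IsNx Ro q Z0 D0 ((t.drop x2).take B) b)
    (hcl : x1 + a < p0 + Lam + Z0 + D0 * q ↔ x2 + b < p0 + Lam + Z0 + D0 * q) :
    x1 + a = x2 + b := by
  obtain ⟨fa, ia⟩ := h1.of_take hR
  obtain ⟨fb, ib⟩ := h2.of_take hR
  have wa := ia.1.1
  have wb := ib.1.1
  rw [List.drop_drop] at wa wb
  have ea : Z0 ≤ thr q Z0 D0 a := Nat.le_add_right _ _
  have eb : Z0 ≤ thr q Z0 D0 b := Nat.le_add_right _ _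
  have qa := ia.1.2
  have qb := ib.1.2
  have key : ∀ u v : ℕ, Ro (t.drop u) → Ro (t.drop v) → u ≤ v → v ≤ u + W → u = v := by
    intro u v hu hv huv hvu
    by_contra hne
    have := hsep _ (v - u) hu (by omega) (by omega)
    rw [List.drop_drop, show u + (v - u) = v by omega] at this
    exact this hv
  by_cases hc : x1 + a < p0 + Lam + Z0 + D0 * q
  · have hc' := hcl.1 hc
    rcases le_total (x1 + a) (x2 + b) with h | h
    · exact key _ _ wa wb h (by omega)
    · exact (key _ _ wb wa h (by omega)).symm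
  · have hc' : ¬ x2 + b < p0 + Lam + Z0 + D0 * q := fun h => hc (hcl.2 h)
    have up : ∀ s : ℕ, Z0 + D0 * q ≤ s → thr q Z0 D0 s ≤ s := by
      intro s hs
      have h3 : D0 * (s % q) ≤ D0 * q := Nat.mul_le_mul_left _ (Nat.mod_lt s hq).le
      unfold thr
      omega
    rcases lt_trichotomy (x1 + a) (x2 + b) with h | h | h
    · exfalso
      refine ib.2 (x1 + a - x2) (by omega) ⟨?_, up _ (by omega)⟩
      rw [List.drop_drop, show x2 + (x1 + a - x2) = x1 + a by omega]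
      exact wa
    · exact h
    · exfalso
      refine ia.2 (x2 + b - x1) (by omega) ⟨?_, up _ (by omega)⟩
      rw [List.drop_drop, show x1 + (x2 + b - x1) = x2 + b by omega]
      exact wb

end events

end Crest.Agent.R320.Inst382
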