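import Crest.Agent.R320.WallU_228
import Crest.Agent.R320.Top5_110

/-!
# Row 320: walls and heights for the concrete instance (helper422), all words
-/

set_option autoImplicit false

namespace Crest.Agent.R320.InstA_422

open Crest.RegLang Crest.Agent.R320.Hk_851

variable {α : Type} {k : ℕ}

/-- a left-looking wall rule -/
structure WR (α : Type) where
  n : ℕ
  W : ℕ
  Wo : List α → Prop
  loc : ∀ P Q : List α, n ≤ Q.length → (Wo (P ++ Q) ↔ Wo Q)
  len : ∀ P : List α, Wo P → n ≤ P.length
  gap : ∀ (P : List α) (d : ℕ), Wo P → 0 < d → d ≤ W → ¬ Wo (P.take (P.length - d))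
  few : ∀ (M : Type) [Monoid M] [Finite M] (g : α → M) (s : M),
    HL 1 ({t | (∀ i < t.length, ¬ Wo (t.take i)) ∧ (t.map g).prod = s} : Language α)
  hlW : HL 0 ({P | Wo P} : Language α)

theorem hl_wo [Finite α] {n : ℕ} {Wo : List α → Prop}
    (loc : ∀ P Q : List α, n ≤ Q.length → (Wo (P ++ Q) ↔ Wo Q))
    (len : ∀ P : List α, Wo P → n ≤ P.length) : HL k ({P | Wo P} : Language α) := by
  have hfin : ({v | v.length = n ∧ Wo v} : Set (List α)).Finite :=
    Set.Finite.subset (List.finite_length_eq α n) fun v hv => hv.1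
  refine ((HL.finite (k := k) hfin).suffix).congr fun w => ?_
  constructor
  · intro hw
    have hw' : Wo w := hw
    have hl := len w hw'
    refine ⟨w.drop (w.length - n), ⟨by rw [List.length_drop]; omega, ?_⟩, List.drop_suffix _ _⟩
    have e : w.take (w.length - n) ++ w.drop (w.length - n) = w := List.take_append_drop _ _
    rw [← e] at hw'
    exact (loc _ _ (by rw [List.length_drop]; omega)).1 hw'
  · rintro ⟨v, ⟨hv1, hv2⟩, ⟨p, rfl⟩⟩
    exact (loc p v (by omega)).2 hv2

theorem hl_nowall [Finite α] {Wo : List α → Prop} (z : ℕ) (h : HL k ({P | Wo P} : Language α)) :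
    HL k ({X | ∀ t, z ≤ t → t < X.length → ¬ Wo (X.take t)} : Language α) := by
  let A : Language α := {P | z ≤ P.length ∧ Wo P}
  let B : Language α := {Q | 1 ≤ Q.length}
  have hA : HL k A := HL.setOf_and (HL.length_ge z) h
  have hB : HL k B := HL.length_ge 1
  have h1 : HL k (A * B) := HL.mul hA hB
  refine h1.compl.congr fun w => ?_
  constructor
  · intro hw hm
    obtain ⟨P, ⟨hP1, hP2⟩, Q, hQ, rfl⟩ := Language.mem_mul.1 hm
    have hQ' : 1 ≤ Q.length := hQ
    refine hw P.length hP1 (by rw [List.length_append]; omega) ?_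
    rw [List.take_left]
    exact hP2
  · intro hw t ht1 ht2 hWt
    refine hw (Language.mem_mul.2 ⟨w.take t, ⟨by rw [List.length_take]; omega, hWt⟩, w.drop t,
      ?_, List.take_append_drop _ _⟩)
    show 1 ≤ (w.drop t).length
    rw [List.length_drop]
    omega

/-- the walls of `WallU_228` -/
theorem exists_WR [Finite α] (W : ℕ) : ∃ R : WR α, R.W = W := by
  obtain ⟨n, c, P, S, hn, hP, h1, h2, -, -, -⟩ := WallU_228.walls_full (α := α) W
  obtain ⟨n', c', P', S', hn', hP', hS', hsep', hper'⟩ :=
    Crest.Agent.R320.Mk263.marker (α := α) (W + 1) (by omega)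
  have loc : ∀ P Q : List α, n' ≤ Q.length →
      (WallU_228.Wo n' S' (P ++ Q) ↔ WallU_228.Wo n' S' Q) := fun P Q h => WallU_228.wo_append P Q h
  refine ⟨⟨n', W, WallU_228.Wo n' S', loc, fun P h => h.1, ?_, ?_, hl_wo loc fun P h => h.1⟩, rfl⟩
  · intro Q d hQ hd hdW hT
    obtain ⟨h1, h2⟩ := hQ
    obtain ⟨h3, h4⟩ := hT
    have hl : (Q.take (Q.length - d)).length = Q.length - d := by rw [List.length_take]; omega
    rw [hl] at h3 h4
    rw [List.drop_take] at h4
    have e2 : Q.length - d - (Q.length - d - n') = n' := by omega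
    rw [e2] at h4
    have h5 : (Q.drop (Q.length - n')).take n' ∈ S' := by
      rw [List.take_of_length_le (by rw [List.length_drop]; omega)]
      exact h2
    have := hsep' Q (Q.length - d - n') (Q.length - n') (by omega) (by omega) h4 h5
    omega
  · intro M _ _ g s
    have h1 := FewVal_228.HL_few_value hn' hP' hper' 1 g s
    have h2 : HL 1 ({X | ∀ t, 0 ≤ t → t < X.length → ¬ WallU_228.Wo n' S' (X.take t)} :
      Language α) := hl_nowall 0 (hl_wo loc fun P h => h.1)
    refine (h2.inf h1).congr fun w => ?_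
    constructor
    · rintro ⟨g1, g2⟩
      exact ⟨fun t _ ht => g1 t ht, WallU_228.nw_le_one w g1, g2⟩
    · rintro ⟨g1, _, g2⟩
      exact ⟨fun t ht => g1 t (Nat.zero_le _) ht, g2⟩

variable (R : WR α) (z : ℕ)

/-- the block code: from an anchor to the first wall at distance at least `z` -/
def XX : Language α := {X | z ≤ X.length ∧ R.Wo X ∧ ∀ t, z ≤ t → t < X.length → ¬ R.Wo (X.take t)}

theorem hl_XX [Finite α] : HL k (XX R z) :=
  HL.setOf_and (HL.length_ge z) (HL.setOf_and (R.hlW.mono (Nat.zero_le _))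
    (hl_nowall z (R.hlW.mono (Nat.zero_le _))))

theorem pc_XX (hz : 0 < z) : Code110.PC (XX R z) := by
  constructor
  · intro h
    have := h.1
    simp at this
    omega
  · intro u hu v hv huv
    obtain ⟨t, rfl⟩ := huv
    by_cases ht : t = []
    · rw [ht, List.append_nil]
    · exfalso
      have hl : 0 < t.length := List.length_pos_iff.2 ht
      have := hv.2.2 u.length hu.1 (by rw [List.length_append]; omega)
      rw [List.take_left] at this
      exact this hu.2.1

/-- words `u ++ t`, `|u| = z`, no wall in `t` before the end, data in a finite monoid -/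
theorem hl_key [Finite α] (M : Type) [Monoid M] [Finite M] (g : α → M)
    (P : List α → M → Prop) :
    HL 1 ({w | ∃ u t, w = u ++ t ∧ u.length = z ∧ (∀ i < t.length, ¬ R.Wo (t.take i)) ∧
      P u (t.map g).prod} : Language α) := by
  have hfin : ({u | u.length = z} : Set (List α)).Finite := List.finite_length_eq α z
  let A : List α → Language α := fun u => {w | w = u}
  let B : M → Language α := fun s => {t | (∀ i < t.length, ¬ R.Wo (t.take i)) ∧
        (t.map g).prod = s}
  have hB : ∀ s, HL 1 (B s) := fun s => R.few M g s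
  have hA : ∀ u, HL 1 (A u) := fun u => HL.word u
  have h1 : HL 1 ({w | ∃ u ∈ ({u | u.length = z} : Set (List α)), w ∈ ({w | ∃ s : M,
      w ∈ ({w | P u s ∧ w ∈ (A u * B s)} : Language α)} : Language α)} : Language α) :=
    HL.biUnion hfin fun u _ => HL.iUnion fun s =>
      HL.setOf_and (HL.const _) ((hA u).mul (hB s))
  refine h1.congr fun w => ?_
  constructor
  · rintro ⟨u, t, rfl, hu, ht, hP⟩
    exact ⟨u, hu, _, hP, Language.mem_mul.2 ⟨u, rfl, t, ⟨ht, rfl⟩, rfl⟩⟩
  · rintro ⟨u, hu, s, hP, hm⟩
    obtain ⟨u', hu', t, ⟨ht1, ht2⟩, rfl⟩ := Language.mem_mul.1 hm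
    have hu'' : u' = u := hu'
    subst hu''
    subst ht2
    exact ⟨u', t, rfl, hu, ht1, hP⟩

/-- no wall in the tail of a block -/
theorem tail_nowall {u t : List α} (hu : u.length = z)
    (h : ∀ i, z ≤ i → i < (u ++ t).length → ¬ R.Wo ((u ++ t).take i)) :
    ∀ i < t.length, ¬ R.Wo (t.take i) := by
  intro i hi hW
  have hl := R.len _ hW
  rw [List.length_take] at hl
  refine h (z + i) (by omega) (by rw [List.length_append]; omega) ?_
  have e : (u ++ t).take (z + i) = u ++ t.take i := by
    rw [← hu, List.take_length_add_append]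
  rw [e]
  exact (R.loc u (t.take i) (by rw [List.length_take]; omega)).2 hW

end Crest.Agent.R320.InstA_422
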