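import Crest.Agent.R320.Main_621
import Crest.Agent.R320.WallU_228
import Crest.Agent.R320.Reg_236
import Crest.Agent.R320.ExactR_237

/-!
# Row 320: instance of `Main_621.Data` (helper434), part A: blocks, zones, walls
-/

set_option autoImplicit false

namespace Crest.Agent.R320.Inst_434

open Crest.RegLang Crest.Agent.R320.Hk_851 Crest.Agent.R320.Star_621 Crest.Agent.R320.Two_621

variable {α : Type}

/-- wall axioms -/
structure WallAx (Wo : List α → Prop) (n W : ℕ) : Prop where
  loc : ∀ P Q : List α, n ≤ Q.length → (Wo (P ++ Q) ↔ Wo Q)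
  gap : ∀ (P : List α) (d : ℕ), Wo P → 0 < d → d ≤ W → ¬ Wo (P.take (P.length - d))

/-- the first wall at a position `≥ z` is at `t` -/
def Fst (Wo : List α → Prop) (z : ℕ) (U : List α) (t : ℕ) : Prop :=
  z ≤ t ∧ t ≤ U.length ∧ Wo (U.take t) ∧ ∀ s, z ≤ s → s < t → ¬ Wo (U.take s)

theorem Fst.uniq {Wo : List α → Prop} {z t t' : ℕ} {U : List α} (h : Fst Wo z U t)
    (h' : Fst Wo z U t') : t = t' := by
  rcases lt_trichotomy t t' with hl | hl | hl
  · exact absurd h.2.2.1 (h'.2.2.2 t h.1 hl)
  · exact hl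
  · exact absurd h'.2.2.1 (h.2.2.2 t' h'.1 hl)

/-- `R` = block without its first `p0` letters -/
def Zr (Wo : List α → Prop) (z : ℕ) : Language α :=
  {R | ∃ t, Fst Wo z R t ∧ t < R.length ∧ Wo R ∧ ∀ s, t < s → s < R.length → ¬ Wo (R.take s)}

/-- bad, seen in `R` -/
def Br (Wo : List α → Prop) (z N1 : ℕ) (BadT : ℕ → Prop) : Language α :=
  {R | ∃ t, Fst Wo z R t ∧ ((∃ s, z ≤ s + N1 ∧ s < z ∧ Wo (R.take s)) ∨ t < z + N1 ∨ BadT t)}

/-- words with all but the first `p0` letters in `L` -/
def Dp (p0 : ℕ) (L : Language α) : Language α := {U | p0 ≤ U.length ∧ U.drop p0 ∈ L}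

theorem wo_drop {Wo : List α → Prop} {n W : ℕ} (hW : WallAx Wo n W) (U : List α) (a t : ℕ)
    (ht : n ≤ t) (ha : a + n ≤ U.length) :
    Wo ((U.drop a).take t) ↔ Wo (U.take (a + t)) := by
  have e : U.take (a + t) = U.take a ++ (U.drop a).take t := by
    rw [List.take_add]
  rw [e, hW.loc]
  rw [List.length_take, List.length_drop]
  omega

theorem zr_drop {Wo : List α → Prop} {n W z : ℕ} (hW : WallAx Wo n W) (hn : n ≤ z) (hz : 0 < z)
    (U : List α) (a : ℕ) :
    U.drop a ∈ Zr Wo z ↔ ∃ t, Fst Wo (a + z) U t ∧ t < U.length ∧ Wo U ∧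
      ∀ s, t < s → s < U.length → ¬ Wo (U.take s) := by
  constructor
  · rintro ⟨t, ⟨h1, h2, h3, h4⟩, h5, h6, h7⟩
    rw [List.length_drop] at h2 h5 h7
    have ha : a + n ≤ U.length := by omega
    refine ⟨a + t, ⟨by omega, by omega, (wo_drop hW U a t (by omega) ha).1 h3, ?_⟩, by omega, ?_, ?_⟩
    · intro s hs1 hs2
      have := h4 (s - a) (by omega) (by omega)
      rw [wo_drop hW U a _ (by omega) ha] at this
      have e : a + (s - a) = s := by omega
      rwa [e] at this
    · have := (hW.loc (U.take a) (U.drop a) (by rw [List.length_drop]; omega)).2 h6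
      rwa [List.take_append_drop] at this
    · intro s hs1 hs2
      have := h7 (s - a) (by omega) (by omega)
      rw [wo_drop hW U a _ (by omega) ha] at this
      have e : a + (s - a) = s := by omega
      rwa [e] at this
  · rintro ⟨t, ⟨h1, h2, h3, h4⟩, h5, h6, h7⟩
    have ha : a + n ≤ U.length := by omega
    refine ⟨t - a, ⟨by omega, by rw [List.length_drop]; omega, ?_, ?_⟩,
      by rw [List.length_drop]; omega, ?_, ?_⟩
    · rw [wo_drop hW U a _ (by omega) ha]
      have e : a + (t - a) = t := by omega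
      rwa [e]
    · intro s hs1 hs2
      rw [wo_drop hW U a _ (by omega) ha]
      exact h4 _ (by omega) (by omega)
    · have := (hW.loc (U.take a) (U.drop a) (by rw [List.length_drop]; omega))
      rw [List.take_append_drop] at this
      exact this.1 h6
    · intro s hs1 hs2
      rw [List.length_drop] at hs2
      rw [wo_drop hW U a _ (by omega) ha]
      exact h7 _ (by omega) (by omega)

theorem br_drop {Wo : List α → Prop} {n W z N1 : ℕ} {BadT : ℕ → Prop} (hW : WallAx Wo n W)
    (hn : n + N1 ≤ z) (hz : 0 < z) (U : List α) (a : ℕ) :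
    U.drop a ∈ Br Wo z N1 BadT ↔ ∃ t, Fst Wo (a + z) U t ∧
      ((∃ s, a + z ≤ s + N1 ∧ s < a + z ∧ Wo (U.take s)) ∨ t < a + z + N1 ∨ BadT (t - a)) := by
  constructor
  · rintro ⟨t, ⟨h1, h2, h3, h4⟩, h5⟩
    rw [List.length_drop] at h2
    have ha : a + n ≤ U.length := by omega
    refine ⟨a + t, ⟨by omega, by omega, (wo_drop hW U a t (by omega) ha).1 h3, ?_⟩, ?_⟩
    · intro s hs1 hs2
      have := h4 (s - a) (by omega) (by omega)
      rw [wo_drop hW U a _ (by omega) ha] at this
      have e : a + (s - a) = s := by omega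
      rwa [e] at this
    · rcases h5 with ⟨s, hs1, hs2, hs3⟩ | h | h
      · exact Or.inl ⟨a + s, by omega, by omega, (wo_drop hW U a s (by omega) ha).1 hs3⟩
      · exact Or.inr (Or.inl (by omega))
      · have e : a + t - a = t := by omega
        exact Or.inr (Or.inr (by rwa [e]))
  · rintro ⟨t, ⟨h1, h2, h3, h4⟩, h5⟩
    have ha : a + n ≤ U.length := by omega
    refine ⟨t - a, ⟨by omega, by rw [List.length_drop]; omega, ?_, ?_⟩, ?_⟩
    · rw [wo_drop hW U a _ (by omega) ha]
      have e : a + (t - a) = t := by omega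
      rwa [e]
    · intro s hs1 hs2
      rw [wo_drop hW U a _ (by omega) ha]
      exact h4 _ (by omega) (by omega)
    · rcases h5 with ⟨s, hs1, hs2, hs3⟩ | h | h
      · refine Or.inl ⟨s - a, by omega, by omega, ?_⟩
        rw [wo_drop hW U a _ (by omega) ha]
        have e : a + (s - a) = s := by omega
        rwa [e]
      · exact Or.inr (Or.inl (by omega))
      · exact Or.inr (Or.inr h)

/-- prefix code -/
theorem code {Wo : List α → Prop} {n W z p0 : ℕ} (hW : WallAx Wo n W) (hn : n ≤ z) (hz : 0 < z) :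
    Code (Dp p0 (Zr Wo z)) := by
  constructor
  · rintro ⟨_, t, ⟨h1, h2, _, _⟩, _⟩
    simp at h2
    omega
  · rintro u v x y ⟨hu1, hu2⟩ ⟨hv1, hv2⟩ e
    rw [zr_drop hW hn hz] at hu2 hv2
    obtain ⟨t, ⟨h1, h2, h3, h4⟩, h5, h6, h7⟩ := hu2
    obtain ⟨t', ⟨h1', h2', h3', h4'⟩, h5', h6', h7'⟩ := hv2
    have key : ∀ s, s ≤ u.length → s ≤ v.length → u.take s = v.take s := by
      intro s hs1 hs2
      have e1 : (u ++ x).take s = (v ++ y).take s := by rw [e]
      rwa [List.take_append_of_le_length hs1, List.take_append_of_le_length hs2] at e1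
    have main : ∀ (u v : List α) (t t' : ℕ), (∀ s, s ≤ u.length → s ≤ v.length → u.take s = v.take s) →
        p0 + z ≤ t → t < u.length → Wo (u.take t) → Wo u → (∀ s, p0 + z ≤ s → s < t' → ¬ Wo (v.take s)) →
        t' < v.length → (∀ s, t' < s → s < v.length → ¬ Wo (v.take s)) → ¬ u.length < v.length := by
      intro u v t t' key h1 h5 h3 h6 h4' h5' h7' hlt
      have e1 := key t (by omega) (by omega)
      have e2 := key u.length le_rfl (by omega)
      rw [List.take_length] at e2
      have a1 : ¬ t < t' := fun h => h4' t h1 h (e1 ▸ h3)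
      have a2 : ¬ t' < u.length := fun h => h7' u.length h hlt (e2 ▸ h6)
      omega
    have b1 := main u v t t' key h1 h5 h3 h6 h4' h5' h7'
    have b2 := main v u t' t (fun s a b => (key s b a).symm) h1' h5' h3' h6' h4 h5 h7
    have e3 : u.length = v.length := by omega
    have e4 := key u.length le_rfl (by omega)
    rw [List.take_length] at e4
    rw [e4, e3, List.take_length]

end Crest.Agent.R320.Inst_434
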