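import Mathlib
import Crest.Agent.R320.ExactR_237

/-!
Row 320, CORE-4 (helper443): the promise scheme on words, in semantic form
(110 #13081, one token map for both schemes: 118 #13043 / 400 #13089).
-/

set_option autoImplicit false

namespace Crest.Agent.R320.Sch2_443

open Crest.Agent.R320.ExactR_237

variable {α S V : Type}

/-- the one-token zone map -/
def TT [Monoid S] [AddCommGroup V] (f : α → S) (act : V → S → V) (nu2 nu1 : List α → V) (p0 : ℕ)
    (X : List α) (v : V) : V :=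
  act (act v (pr f (X.take p0)) + nu2 (X.take p0)) (pr f (X.drop p0)) + nu1 (X.drop p0)

/-- left language of scheme 2 -/
def LP2 (K : ℕ) (c : ℕ → ℕ) (lam : ℕ → List α → Option V) (v : V) : Set (List α) :=
  {P | ∃ k < K, P.length = c k ∧ lam k P = some v}

/-- right language (semantic) -/
def RQ2 (Z : Set (List α)) (Bad : List α → Prop) (T : List α → V → V) (L : V → Set (List α))
    (B2 : ℕ) (r : V) : Set (List α) :=
  {q | q.length ≤ B2 ∧ ∀ v' p', p' ∈ L v' →
     (∃ X ∈ Z, ∃ X2 ∈ Z, p' ++ q = X ++ X2 ∧ Bad X ∧ T X2 (T X v') = r) ∨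
     (∃ X ∈ Z, X <+: p' ++ q ∧ ¬ Bad X)}

/-- weak soundness is free -/
theorem weak_sound {Z : Set (List α)} {Bad : List α → Prop} {T : List α → V → V}
    {L : V → Set (List α)} {B2 : ℕ} {r v : V} {p q : List α}
    (hpc : ∀ X ∈ Z, ∀ Y ∈ Z, X <+: Y → X = Y)
    (hp : p ∈ L v) (hq : q ∈ RQ2 Z Bad T L B2 r)
    (X : List α) (hX : X ∈ Z) (hB : Bad X) (s t : List α) (h : X ++ s = p ++ q ++ t) :
    ∃ X2 ∈ Z, p ++ q = X ++ X2 ∧ T X2 (T X v) = r := by
  rcases hq.2 v p hp with ⟨X', hX', X2, hX2, he, -, hr⟩ | ⟨X', hX', hpre, hnb⟩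
  · have h1 : X' <+: X ++ s := by
      rw [h, he]; exact (List.prefix_append X' X2).trans (by simp)
    have h2 : X <+: X ++ s := List.prefix_append X s
    have h3 : X = X' := by
      rcases List.prefix_or_prefix_of_prefix h1 h2 with h | h
      · exact (hpc _ hX' _ hX h).symm
      · exact hpc _ hX _ hX' h
    subst h3
    exact ⟨X2, hX2, he, hr⟩
  · exfalso
    have h1 : X' <+: X ++ s := by
      rw [h]; exact hpre.trans (List.prefix_append _ _)
    have h2 : X <+: X ++ s := List.prefix_append X s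
    have h3 : X = X' := by
      rcases List.prefix_or_prefix_of_prefix h1 h2 with h | h
      · exact (hpc _ hX' _ hX h).symm
      · exact hpc _ hX _ hX' h
    exact hnb (h3 ▸ hB)

theorem scheme2 [Monoid S] [Fintype S] [Fintype V] [AddCommGroup V] (f : α → S)
    (act : V → S → V) (R0 : ℕ) :
    ∃ K : ℕ, ∀ c : ℕ → ℕ, (∀ i j, i < j → j < K → c i < c j) → ∀ p0, (∀ k < K, c k ≤ p0) →
    ∃ (lam : ℕ → List α → Option V) (nu2 : List α → V),
    ∀ (Z : Set (List α)) (Bad : List α → Prop) (nu1 : List α → V) (Text : List α → Prop) (B : ℕ),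
     (∀ X ∈ Z, p0 ≤ X.length) →
     (∀ X ∈ Z, ∀ k < K, ∀ p', p'.length = c k → p' ++ X.drop (c k) ∈ Z ∧
        (Bad (p' ++ X.drop (c k)) ↔ Bad X)) →
     (∀ X ∈ Z, ∀ X2 ∈ Z, Text (X ++ X2) → ∀ k < K, ∀ k' < K, ∀ p', p'.length = c k' →
        ∃ X' ∈ Z, X' <+: p' ++ (X.drop (c k) ++ X2)) →
     (∀ X ∈ Z, ∀ X2 ∈ Z, Text (X ++ X2) → ∃ J : Finset ℕ, J.card ≤ R0 ∧ ∀ k < K, k ∉ J →
        ∀ k' < K, k' ≠ k → ∀ p', p'.length = c k' →
        ∀ X' ∈ Z, X' <+: p' ++ (X.drop (c k) ++ X2) → ¬ Bad X') →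
     ∀ X ∈ Z, ∀ X2 ∈ Z, Text (X ++ X2) → (X ++ X2).length ≤ B → Bad X → ∀ v,
      ∃ p q, X ++ X2 = p ++ q ∧ p ∈ LP2 K c lam v ∧
        q ∈ RQ2 Z Bad (TT f act nu2 nu1 p0) (LP2 K c lam) B
          (TT f act nu2 nu1 p0 X2 (TT f act nu2 nu1 p0 X v)) := by
  classical
  obtain ⟨K, hK⟩ := exact_gadget α S V f act (R0 + 1)
  refine ⟨K, fun c hc p0 hp0 => ?_⟩
  obtain ⟨lam, rho, nu, hs, hcomp⟩ := hK c hc
  refine ⟨lam, fun u => nu u 1, ?_⟩
  intro Z Bad nu1 Text B hZ G1 G2 G3 X hX X2 hX2 hT hlen hBad v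
  have hXl := hZ X hX
  set u := X.take p0 with hu
  have hul : u.length = p0 := by rw [hu, List.length_take]; omega
  obtain ⟨I, hI, hI2⟩ := hcomp u 1 v (fun k hk => by rw [hul]; exact hp0 k hk)
  obtain ⟨J, hJ, hJ2⟩ := G3 X hX X2 hX2 hT
  obtain ⟨k, hkI, hkJ⟩ : ∃ k ∈ I, k ∉ J := by
    by_contra hcon
    push Not at hcon
    have := Finset.card_le_card (show I ⊆ J from fun k hk => hcon k hk)
    omega
  obtain ⟨hk, hl, hr⟩ := hI2 k hkI
  obtain ⟨b, hb⟩ := Option.isSome_iff_exists.1 hr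
  have hck := hp0 k hk
  have htake : u.take (c k) = X.take (c k) := by
    rw [hu, List.take_take, min_eq_left hck]
  have hdrop : X.drop (c k) = u.drop (c k) ++ X.drop p0 := by
    conv_lhs => rw [← List.take_append_drop p0 X]
    rw [List.drop_append_of_le_length (by rw [← hu, hul]; exact hck)]
  have hTX : TT f act (fun u => nu u 1) nu1 p0 X v = act b (pr f (X.drop p0)) + nu1 (X.drop p0) := by
    have := hs k hk (u.take (c k)) (u.drop (c k)) 1 v b (by rw [List.length_take, hul]; omega) hl hb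
    rw [List.take_append_drop, mul_one] at this
    unfold TT
    rw [← hu, ← this]
  refine ⟨X.take (c k), X.drop (c k) ++ X2, ?_, ?_, ?_, ?_⟩
  · rw [← List.append_assoc, List.take_append_drop]
  · refine ⟨k, hk, by rw [List.length_take]; omega, ?_⟩
    rw [← htake]; exact hl
  · rw [List.length_append, List.length_drop]
    rw [List.length_append] at hlen
    omega
  · intro v' p' hp'
    obtain ⟨k', hk', hpl, hl'⟩ := hp'
    by_cases hkk : k' = k
    · subst hkk
      left
      obtain ⟨z1, z2⟩ := G1 X hX k' hk p' hpl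
      refine ⟨p' ++ X.drop (c k'), z1, X2, hX2, by rw [List.append_assoc], z2.2 hBad, ?_⟩
      have e1 : (p' ++ X.drop (c k')).take p0 = p' ++ u.drop (c k') := by
        rw [hdrop, ← List.append_assoc, List.take_append_of_le_length
          (by rw [List.length_append, List.length_drop, hul, hpl]; omega),
          List.take_of_length_le (by rw [List.length_append, List.length_drop, hul, hpl]; omega)]
      have e2 : (p' ++ X.drop (c k')).drop p0 = X.drop p0 := by
        have h0 : (p' ++ u.drop (c k')).length = p0 := by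
          rw [List.length_append, List.length_drop, hul, hpl]; omega
        have h00 : List.drop p0 ((p' ++ u.drop (c k')) ++ X.drop p0) = X.drop p0 :=
          List.drop_left' h0
        rw [hdrop, ← List.append_assoc]
        exact h00
      have h3 := hs k' hk p' (u.drop (c k')) 1 v' b hpl hl' hb
      rw [mul_one] at h3
      have h4 : TT f act (fun u => nu u 1) nu1 p0 (p' ++ X.drop (c k')) v' =
          act b (pr f (X.drop p0)) + nu1 (X.drop p0) := by
        unfold TT
        rw [e1, e2, ← h3]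
      rw [h4, hTX]
    · right
      obtain ⟨X', hX', hpre⟩ := G2 X hX X2 hX2 hT k hk k' hk' p' hpl
      exact ⟨X', hX', hpre, hJ2 k hk hkJ k' hk' hkk p' hpl X' hX' hpre⟩

end Crest.Agent.R320.Sch2_443
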