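import Mathlib
import Crest.Agent.R320.Sch2_443

/-!
Row 320 (helper443): natural chain rule (block = first wall at a place `≥ z`), left-looking walls,
modes (E) (a wall within `N1` of `z`) and (B) (`BadG (|X| - p0)`).
-/

set_option autoImplicit false

namespace Crest.Agent.R320.InstA_443

open Crest.Agent.R320.ExactR_237 Crest.Agent.R320.Sch2_443

variable {α S V : Type}

/-- blocks -/
def XX (Wo : List α → Prop) (z : ℕ) : Set (List α) :=
  {X | z ≤ X.length ∧ Wo X ∧ ∀ t, z ≤ t → t < X.length → ¬ Wo (X.take t)}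

/-- bad blocks -/
def BadX (Wo : List α → Prop) (z N1 p0 : ℕ) (BG : ℕ → Prop) (X : List α) : Prop :=
  (∃ t, z ≤ t + N1 ∧ t < z + N1 ∧ t ≤ X.length ∧ Wo (X.take t)) ∨ BG (X.length - p0)

def FX (Wo : List α → Prop) (z a : ℕ) (R : List α) : Prop :=
  z ≤ a + R.length ∧ Wo R ∧ ∀ s, z ≤ a + s → s < R.length → ¬ Wo (R.take s)

def FB (Wo : List α → Prop) (z N1 p0 : ℕ) (BG : ℕ → Prop) (a : ℕ) (R : List α) : Prop :=
  (∃ s, z ≤ a + s + N1 ∧ a + s < z + N1 ∧ s ≤ R.length ∧ Wo (R.take s)) ∨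
    BG (a + R.length - p0)

theorem take_add (A R : List α) (s : ℕ) : (A ++ R).take (A.length + s) = A ++ R.take s := by
  rw [List.take_append]
  congr 1
  · exact List.take_of_length_le (by omega)
  · congr 1; omega

section
variable {Wo : List α → Prop} {n z N1 p0 : ℕ} {BG : ℕ → Prop}
variable (hloc : ∀ P Q : List α, n ≤ Q.length → (Wo (P ++ Q) ↔ Wo Q))

include hloc

theorem wo_iff (A R : List α) (s : ℕ) (hs : n ≤ s) (hR : s ≤ R.length) :
    Wo ((A ++ R).take (A.length + s)) ↔ Wo (R.take s) := by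
  rw [take_add]
  exact hloc _ _ (by rw [List.length_take]; omega)

theorem mem_iff (A R : List α) (hA : A.length + n ≤ z) :
    A ++ R ∈ XX Wo z ↔ FX Wo z A.length R := by
  constructor
  · rintro ⟨h1, h2, h3⟩
    rw [List.length_append] at h1
    refine ⟨h1, (hloc A R (by omega)).1 h2, fun s hs hs2 hW => ?_⟩
    refine h3 (A.length + s) hs (by rw [List.length_append]; omega) ?_
    exact (wo_iff hloc A R s (by omega) hs2.le).2 hW
  · rintro ⟨h1, h2, h3⟩
    refine ⟨by rw [List.length_append]; exact h1, (hloc A R (by omega)).2 h2, ?_⟩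
    intro t ht ht2 hW
    rw [List.length_append] at ht2
    obtain ⟨s, rfl⟩ : ∃ s, t = A.length + s := ⟨t - A.length, by omega⟩
    exact h3 s ht (by omega) ((wo_iff hloc A R s (by omega) (by omega)).1 hW)

theorem bad_iff (A R : List α) (hA : A.length + n + N1 ≤ z) :
    BadX Wo z N1 p0 BG (A ++ R) ↔ FB Wo z N1 p0 BG A.length R := by
  unfold BadX FB
  rw [List.length_append]
  constructor
  · rintro (⟨t, h1, h2, h3, h4⟩ | h)
    · left
      obtain ⟨s, rfl⟩ : ∃ s, t = A.length + s := ⟨t - A.length, by omega⟩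
      exact ⟨s, h1, h2, by omega, (wo_iff hloc A R s (by omega) (by omega)).1 h4⟩
    · exact Or.inr h
  · rintro (⟨s, h1, h2, h3, h4⟩ | h)
    · left
      exact ⟨A.length + s, h1, h2, by omega, (wo_iff hloc A R s (by omega) (by omega)).2 h4⟩
    · exact Or.inr h

theorem g1 {c : ℕ → ℕ} {K : ℕ} (hc : ∀ k < K, c k + n + N1 ≤ z) (X : List α) (hX : X ∈ XX Wo z)
    (k : ℕ) (hk : k < K) (p' : List α) (hp : p'.length = c k) :
    p' ++ X.drop (c k) ∈ XX Wo z ∧
      (BadX Wo z N1 p0 BG (p' ++ X.drop (c k)) ↔ BadX Wo z N1 p0 BG X) := by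
  have h0 := hc k hk
  have hl : (X.take (c k)).length = c k := by
    rw [List.length_take]; have := hX.1; omega
  have e : X.take (c k) ++ X.drop (c k) = X := List.take_append_drop _ _
  constructor
  · rw [mem_iff hloc _ _ (by omega), hp]
    have h1 : X.take (c k) ++ X.drop (c k) ∈ XX Wo z := by rw [e]; exact hX
    rw [mem_iff hloc _ _ (by omega), hl] at h1
    exact h1
  · rw [bad_iff hloc _ _ (by omega), hp]
    conv_rhs => rw [← e]
    rw [bad_iff hloc _ _ (by omega), hl]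

theorem first_block (A R : List α) (hA : A.length + n ≤ z) (hR : z ≤ A.length + R.length)
    (hW : Wo R) : ∃ s ≤ R.length, A ++ R.take s ∈ XX Wo z := by
  classical
  have hex : ∃ s, z ≤ A.length + s ∧ s ≤ R.length ∧ Wo (R.take s) :=
    ⟨R.length, hR, le_rfl, by rw [List.take_length]; exact hW⟩
  obtain ⟨h1, h2, h3⟩ := Nat.find_spec hex
  refine ⟨Nat.find hex, h2, ?_⟩
  rw [mem_iff hloc _ _ hA]
  refine ⟨by rw [List.length_take]; omega, h3, ?_⟩
  intro s hs hs2 hw
  rw [List.length_take] at hs2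
  rw [List.take_take, min_eq_left (by omega)] at hw
  exact Nat.find_min hex (show s < _ by omega) ⟨hs, by omega, hw⟩

theorem g2 {c : ℕ → ℕ} {K : ℕ} (hc : ∀ k < K, c k + n + N1 ≤ z) (X X2 : List α)
    (hX : X ∈ XX Wo z) (hX2 : X2 ∈ XX Wo z) (k k' : ℕ) (hk' : k' < K) (p' : List α)
    (hp : p'.length = c k') :
    ∃ X' ∈ XX Wo z, X' <+: p' ++ (X.drop (c k) ++ X2) := by
  have h0 := hc k' hk'
  have hz2 := hX2.1
  obtain ⟨s, hs, h⟩ := first_block (z := z) hloc p' (X.drop (c k) ++ X2) (by omega)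
    (by rw [List.length_append]; omega) ((hloc (X.drop (c k)) X2 (by omega)).2 hX2.2.1)
  refine ⟨_, h, ?_⟩
  rw [List.prefix_append_right_inj]
  exact List.take_prefix _ _

end

section count

variable {Wo : List α → Prop} {n z N1 p0 C0 W K T0 : ℕ} {BG : ℕ → Prop} {c : ℕ → ℕ}

theorem g3 (hloc : ∀ P Q : List α, n ≤ Q.length → (Wo (P ++ Q) ↔ Wo Q))
    (hgap : ∀ (X : List α) (s t : ℕ), s < t → t ≤ X.length → Wo (X.take s) → Wo (X.take t) →
      s + W ≤ t)
    (hW : 2 * p0 + 2 * N1 ≤ W) (hWpos : 2 * p0 < W)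
    (hcp : ∀ k < K, c k ≤ p0) (hz : 2 * p0 + n + N1 + T0 ≤ z)
    (hE : ∀ i < K, ∀ j < K, ∀ k < K, ∀ l < K, i ≠ j → k ≠ l → c i + c l < c k + c j + 2 * N1 →
      c k + c j < c i + c l + 2 * N1 → i = k ∧ j = l)
    (hB : ∀ T, T0 ≤ T → ∃ D : Finset (ℕ × ℕ), D.card ≤ C0 ∧ ∀ i < K, ∀ j < K, i ≠ j →
      BG (T + c j - c i) → (i, j) ∈ D)
    (X X2 : List α) (hX : X ∈ XX Wo z) :
    ∃ J : Finset ℕ, J.card ≤ 1 + 2 * C0 ∧ ∀ k < K, k ∉ J →
        ∀ k' < K, k' ≠ k → ∀ p', p'.length = c k' →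
        ∀ X' ∈ XX Wo z, X' <+: p' ++ (X.drop (c k) ++ X2) → ¬ BadX Wo z N1 p0 BG X' := by
  classical
  set w := X ++ X2 with hw
  let IsW : ℕ → Prop := fun t => t ≤ w.length ∧ Wo (w.take t)
  let JE : Finset (ℕ × ℕ) := ((Finset.range K) ×ˢ (Finset.range K)).filter
    (fun ab => ab.1 ≠ ab.2 ∧ ∃ σ, IsW σ ∧ z + c ab.1 ≤ c ab.2 + σ + N1 ∧
      c ab.2 + σ < z + N1 + c ab.1)
  have hJE : JE.card ≤ 1 := by
    rw [Finset.card_le_one]
    rintro ⟨i, j⟩ h1 ⟨k, l⟩ h2
    simp only [JE, Finset.mem_filter, Finset.mem_product, Finset.mem_range] at h1 h2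
    obtain ⟨⟨hi, hj⟩, hij, σ, hσ, h3, h4⟩ := h1
    obtain ⟨⟨hk, hl⟩, hkl, τ, hτ, h5, h6⟩ := h2
    have q1 := hcp i hi
    have q2 := hcp j hj
    have q3 := hcp k hk
    have q4 := hcp l hl
    have hst : σ = τ := by
      rcases lt_trichotomy σ τ with h | h | h
      · have := hgap w σ τ h hτ.1 hσ.2 hτ.2; omega
      · exact h
      · have := hgap w τ σ h hσ.1 hτ.2 hσ.2; omega
    subst hst
    obtain ⟨rfl, rfl⟩ := hE i hi j hj k hk l hl hij hkl (by omega) (by omega)
    rfl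
  obtain ⟨τ1, τ2, hτ1, hτ2, hτ⟩ : ∃ τ1 τ2, z ≤ τ1 + p0 ∧ z ≤ τ2 + p0 ∧
      ∀ τ, IsW τ → z ≤ τ + p0 → (∀ t, z + p0 ≤ t → t < τ → ¬ IsW t) → τ = τ1 ∨ τ = τ2 := by
    obtain ⟨τ1, h1, h1'⟩ : ∃ τ1, z ≤ τ1 + p0 ∧
        ∀ τ, IsW τ → z ≤ τ + p0 → τ < z + p0 → τ = τ1 := by
      by_cases h : ∃ τ, IsW τ ∧ z ≤ τ + p0 ∧ τ < z + p0
      · obtain ⟨τ, h1, h2, h3⟩ := h
        refine ⟨τ, h2, fun σ h4 h5 h6 => ?_⟩
        rcases lt_trichotomy σ τ with h | h | h
        · have := hgap w σ τ h h1.1 h4.2 h1.2; omega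
        · exact h
        · have := hgap w τ σ h h4.1 h1.2 h4.2; omega
      · exact ⟨z, by omega, fun σ h4 h5 h6 => (h ⟨σ, h4, h5, h6⟩).elim⟩
    obtain ⟨τ2, h2, h2'⟩ : ∃ τ2, z ≤ τ2 + p0 ∧ ∀ τ, IsW τ → z + p0 ≤ τ →
        (∀ t, z + p0 ≤ t → t < τ → ¬ IsW t) → τ = τ2 := by
      by_cases h : ∃ τ, z + p0 ≤ τ ∧ IsW τ
      · obtain ⟨h3, h4⟩ := Nat.find_spec h
        refine ⟨Nat.find h, by omega, fun σ h5 h6 h7 => ?_⟩
        have h8 : Nat.find h ≤ σ := Nat.find_min' h ⟨h6, h5⟩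
        rcases h8.lt_or_eq with h9 | h9
        · exact (h7 _ h3 h9 h4).elim
        · exact h9.symm
      · exact ⟨z, by omega, fun σ h4 h5 _ => (h ⟨σ, h5, h4⟩).elim⟩
    refine ⟨τ1, τ2, h1, h2, fun τ h3 h4 h5 => ?_⟩
    rcases lt_or_ge τ (z + p0) with h | h
    · exact Or.inl (h1' τ h3 h4 h)
    · exact Or.inr (h2' τ h3 h h5)
  obtain ⟨D1, hD1, hD1'⟩ := hB (τ1 - p0) (by omega)
  obtain ⟨D2, hD2, hD2'⟩ := hB (τ2 - p0) (by omega)
  refine ⟨(JE ∪ (D1 ∪ D2)).image Prod.fst, ?_, ?_⟩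
  · refine Finset.card_image_le.trans ((Finset.card_union_le _ _).trans ?_)
    have := Finset.card_union_le D1 D2
    omega
  · intro k hk hkJ k' hk' hne p' hp X' hX' hpre hBad
    refine hkJ (Finset.mem_image.2 ⟨(k, k'), ?_, rfl⟩)
    have q1 := hcp k hk
    have q2 := hcp k' hk'
    have hz1 := hX'.1
    have hz2 := hX.1
    set R := X.drop (c k) ++ X2 with hR
    have hlen := hpre.length_le
    rw [List.length_append] at hlen
    obtain ⟨s, hs⟩ : ∃ s, X'.length = p'.length + s := ⟨X'.length - p'.length, by omega⟩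
    have hXe : X' = p' ++ R.take s := by
      have := List.prefix_iff_eq_take.1 hpre
      rw [hs, take_add] at this
      exact this
    have hsR : s ≤ R.length := by omega
    have hls : (R.take s).length = s := by rw [List.length_take]; omega
    have hF : FX Wo z (c k') (R.take s) := by
      rw [← hp, ← mem_iff hloc _ _ (by omega), ← hXe]; exact hX'
    have hFB : FB Wo z N1 p0 BG (c k') (R.take s) := by
      rw [← hp, ← bad_iff hloc _ _ (by omega), ← hXe]; exact hBad
    have hlX : (X.take (c k)).length = c k := by rw [List.length_take]; omega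
    have hwe : w = X.take (c k) ++ R := by
      rw [hw, hR, ← List.append_assoc, List.take_append_drop]
    have hwl : w.length = c k + R.length := by rw [hwe, List.length_append, hlX]
    have hWW : ∀ t, n ≤ t → t ≤ R.length → (IsW (c k + t) ↔ Wo (R.take t)) := by
      intro t h1 h2
      have := wo_iff hloc (X.take (c k)) R t h1 h2
      rw [hlX, ← hwe] at this
      exact ⟨fun h => this.1 h.2, fun h => ⟨by omega, this.2 h⟩⟩
    rcases hFB with ⟨s1, h1, h2, h3, h4⟩ | hb
    · refine Finset.mem_union_left _ (Finset.mem_filter.2 ⟨Finset.mem_product.2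
        ⟨Finset.mem_range.2 hk, Finset.mem_range.2 hk'⟩, Ne.symm hne, c k + s1, ?_, ?_, ?_⟩)
      · rw [hls] at h3
        rw [List.take_take, min_eq_left h3] at h4
        exact (hWW s1 (by omega) (by omega)).2 h4
      · show z + c k ≤ c k' + (c k + s1) + N1
        omega
      · show c k' + (c k + s1) < z + N1 + c k
        omega
    · rw [hls] at hb
      have hFl := hF.1
      rw [hls] at hFl
      have hfw := hF.2.1
      have hcase := hτ (c k + s) ((hWW s (by omega) hsR).2 hfw) (by omega) (by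
        intro t h1 h2 h3
        obtain ⟨t', rfl⟩ : ∃ t', t = c k + t' := ⟨t - c k, by omega⟩
        have h4 := (hWW t' (by omega) (by omega)).1 h3
        refine hF.2.2 t' (by omega) (by omega) ?_
        rw [List.take_take, min_eq_left (by omega)]
        exact h4)
      refine Finset.mem_union_right _ ?_
      rcases hcase with h | h
      · refine Finset.mem_union_left _ (hD1' k hk k' hk' (Ne.symm hne) ?_)
        have e : τ1 - p0 + c k' - c k = c k' + s - p0 := by omega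
        rw [e]; exact hb
      · refine Finset.mem_union_right _ (hD2' k hk k' hk' (Ne.symm hne) ?_)
        have e : τ2 - p0 + c k' - c k = c k' + s - p0 := by omega
        rw [e]; exact hb

end count

/-- the blocks form a prefix code -/
theorem xx_code {Wo : List α → Prop} {z : ℕ} (hz : 0 < z) :
    [] ∉ XX Wo z ∧ ∀ X ∈ XX Wo z, ∀ Y ∈ XX Wo z, X <+: Y → X = Y := by
  refine ⟨fun h => ?_, fun X hX Y hY h => ?_⟩
  · have := h.1
    rw [List.length_nil] at this
    omega
  · rcases h.length_le.lt_or_eq with h1 | h1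
    · refine (hY.2.2 X.length hX.1 h1 ?_).elim
      rw [← List.prefix_iff_eq_take.1 h]
      exact hX.2.1
    · exact h.eq_of_length h1

section scheme1

variable [Monoid S] [AddCommGroup V] (f : α → S) (act : V → S → V)

/-- left language of scheme 1 -/
def LP1 (p0 : ℕ) (nu2 : List α → V) (lam : List α → Option V) (v : V) : Set (List α) :=
  {P | p0 ≤ P.length ∧ lam (P.drop p0) = some (act v (pr f (P.take p0)) + nu2 (P.take p0))}

/-- right language of scheme 1 (semantic) -/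
def RQ1 (XX : Set (List α)) (T : List α → V → V) (L : V → Set (List α)) (b : V) :
    Set (List α) :=
  {Q | ∀ v' P', P' ∈ L v' → P' ++ Q ∈ XX ∧ T (P' ++ Q) v' = b}

theorem s1 {XX : Set (List α)} {T : List α → V → V} {L : V → Set (List α)} {v b : V}
    {P Q : List α} (hP : P ∈ L v) (hQ : Q ∈ RQ1 XX T L b) :
    P ++ Q ∈ XX ∧ T (P ++ Q) v = b := hQ v P hP

theorem c1 {Wo : List α → Prop} {n z N1 p0 T0 : ℕ} {BG : ℕ → Prop}
    (hloc : ∀ P Q : List α, n ≤ Q.length → (Wo (P ++ Q) ↔ Wo Q))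
    (hz : p0 + n + 2 * N1 + T0 ≤ z) {lam rho : List α → Option V} {nu1 nu2 : List α → V}
    (hlam : ∀ p v, lam p = some v → p.length ≤ N1)
    (hsnd : ∀ p q v b, lam p = some v → rho q = some b → T0 ≤ q.length →
      b = act v (pr f (p ++ q)) + nu1 (p ++ q))
    (hcmp : ∀ u, T0 ≤ u.length → ¬ BG u.length → ∀ v, ∃ p q, p ++ q = u ∧ lam p = some v ∧
      (rho q).isSome)
    (X : List α) (hX : X ∈ XX Wo z) (hB : ¬ BadX Wo z N1 p0 BG X) (v : V) :
    ∃ P Q, X = P ++ Q ∧ P ∈ LP1 f act p0 nu2 lam v ∧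
      Q ∈ RQ1 (XX Wo z) (TT f act nu2 nu1 p0) (LP1 f act p0 nu2 lam)
        (TT f act nu2 nu1 p0 X v) := by
  have hXl := hX.1
  set X1 := X.take p0 with hX1
  set Y := X.drop p0 with hY
  have hl1 : X1.length = p0 := by rw [hX1, List.length_take]; omega
  have hlY : Y.length = X.length - p0 := by rw [hY, List.length_drop]
  have hnB : ¬ BG Y.length := fun h => hB (Or.inr (by rw [← hlY]; exact h))
  obtain ⟨p, q, hpq, hlp, hrq⟩ := hcmp Y (by omega) hnB (act v (pr f X1) + nu2 X1)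
  obtain ⟨b, hb⟩ := Option.isSome_iff_exists.1 hrq
  have hpN := hlam p _ hlp
  have hqY : p.length + q.length = Y.length := by rw [← hpq, List.length_append]
  have hXe : X = (X1 ++ p) ++ q := by
    rw [List.append_assoc, hpq, hX1, hY, List.take_append_drop]
  have hPl : (X1 ++ p).length = p0 + p.length := by rw [List.length_append, hl1]
  have hF : FX Wo z (X1 ++ p).length q := by
    rw [← mem_iff hloc _ _ (by omega), ← hXe]; exact hX
  have hnE : ∀ s, z ≤ p0 + p.length + s + N1 → p0 + p.length + s < z + N1 → s ≤ q.length →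
      ¬ Wo (q.take s) := by
    intro s h1 h2 h3 h4
    refine hB ?_
    rw [hXe, bad_iff hloc _ _ (by omega)]
    exact Or.inl ⟨s, by omega, by omega, h3, h4⟩
  have hTX : TT f act nu2 nu1 p0 X v = b := by
    unfold TT
    rw [← hX1, ← hY, ← hpq]
    exact (hsnd p q _ b hlp hb (by omega)).symm
  refine ⟨X1 ++ p, q, hXe, ⟨by omega, ?_⟩, ?_⟩
  · rw [List.drop_left' hl1, List.take_left' hl1]
    exact hlp
  · intro v' P' hP'
    obtain ⟨h1, h2⟩ := hP'
    have h3 := hlam _ _ h2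
    rw [List.length_drop] at h3
    constructor
    · rw [mem_iff hloc _ _ (by omega)]
      refine ⟨?_, hF.2.1, ?_⟩
      · by_contra hcon
        refine hnE q.length (by omega) (by omega) le_rfl ?_
        rw [List.take_length]
        exact hF.2.1
      · intro s hs hs2
        by_cases h4 : z ≤ (X1 ++ p).length + s
        · exact hF.2.2 s h4 hs2
        · exact hnE s (by omega) (by omega) hs2.le
    · rw [hTX]
      unfold TT
      rw [List.take_append_of_le_length h1, List.drop_append_of_le_length h1]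
      exact (hsnd _ q _ b h2 hb (by omega)).symm

end scheme1

end Crest.Agent.R320.InstA_443
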