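import Crest.Agent.R320.SemTop_727
import Crest.Agent.R320.WallU_228
import Crest.Agent.R320.ExactR_237
import Crest.Agent.R320.RegCongr_253

/-!
# Row 320: all-words instance of `SemTop_727.top` (helper492)
-/

set_option autoImplicit false

namespace Crest.Agent.R320.Inst492

open Crest.RegLang Crest.Agent.R320.Hk_851 Crest.Agent.R320.Blk467 Crest.Agent.R320.SemTop_727

/-- gadget 1 (unknown total length), literal of 772 #13437 with 440's correction -/
def UGI (S V : Type) [Monoid S] [AddCommGroup V] (act : V → S → V) : Prop :=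
  ∃ C0 : ℕ, ∀ K : ℕ, ∃ (N1 Pm La : ℕ) (c : ℕ → ℕ) (Bad : ℕ → Prop), 0 < Pm ∧
    (∀ i j, i < j → j < K → c i < c j) ∧
    (∀ i j k l, i < K → j < K → k < K → l < K → i ≠ j → k ≠ l → (i, j) ≠ (k, l) →
      c i + c l + 4 * N1 < c k + c j ∨ c k + c j + 4 * N1 < c i + c l) ∧
    (∀ T, Bad (T + Pm) ↔ Bad T) ∧
    (∀ T, La ≤ T → ∀ F : Finset (ℕ × ℕ), (∀ p ∈ F, p.1 < K ∧ p.2 < K ∧ p.1 ≠ p.2 ∧
      Bad (T + c p.2 - c p.1)) → F.card ≤ C0) ∧
    ∀ (A : Type) (φ : A → S), ∃ (lam rho : List A → Option V) (nu : List A → V),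
      (∀ p v, lam p = some v → p.length ≤ N1) ∧
      (∀ p q v r, lam p = some v → rho q = some r → La ≤ q.length →
        r = act v ((p ++ q).map φ).prod + nu (p ++ q)) ∧
      (∀ u : List A, La ≤ u.length → ¬ Bad u.length → ∀ v, ∃ p q, p ++ q = u ∧
        lam p = some v ∧ (rho q).isSome) ∧
      (∀ q q2 : List A, La ≤ q.length → La ≤ q2.length → q.take La = q2.take La →
        q.length % Pm = q2.length % Pm → ((q.drop La).map φ).prod = ((q2.drop La).map φ).prod →
        rho q = rho q2 ∧ nu q = nu q2)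

section Inst

variable {A : Type} {S V : Type} [Monoid S] [AddCommGroup V]
  (act : V → S → V) (φ : A → S) (Wo : List A → Prop) (n z0 p0 N1 La K : ℕ) (c : ℕ → ℕ)
  (Bad1 : ℕ → Prop) (lam1 rho1 : List A → Option V) (nu1 : List A → V)
  (lam2 : ℕ → List A → Option V) (rho2 : ℕ → List A → S → Option V)
  (nu2 : List A → V)

def ph (u : List A) : S := (u.map φ).prod

theorem ph_append (u v : List A) : ph φ (u ++ v) = ph φ u * ph φ v := by
  unfold ph; rw [List.map_append, List.prod_append]

/-- blocks -/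
def XX : Set (List A) :=
  {X | z0 ≤ X.length ∧ Wo X ∧ ∀ t, z0 ≤ t → t < X.length → ¬ Wo (X.take t)}

def nuX (X : List A) : V := act (nu2 (X.take p0)) (ph φ (X.drop p0)) + nu1 (X.drop p0)

def TT (v : V) (X : List A) : V := act v (ph φ X) + nuX act φ p0 nu1 nu2 X

def L1 (x : V) : Set (List A) :=
  {P | p0 ≤ P.length ∧ lam1 (P.drop p0) = some (act x (ph φ (P.take p0)) + nu2 (P.take p0))}

def L2 (x : V) : Set (List A) := {P | ∃ k, k < K ∧ P.length = c k ∧ lam2 k P = some x}

def D : Sch A V where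
  XX := XX Wo z0
  T := TT act φ p0 nu1 nu2
  L1 := L1 act φ p0 lam1 nu2
  L2 := L2 K c lam2

theorem TT_split (hadd : ∀ a b s, act (a + b) s = act a s + act b s)
    (hmul : ∀ v s t, act v (s * t) = act (act v s) t) (v : V) (U Y : List A)
    (hU : U.length = p0) :
    TT act φ p0 nu1 nu2 v (U ++ Y) = act (act v (ph φ U) + nu2 U) (ph φ Y) + nu1 Y := by
  have h1 : (U ++ Y).take p0 = U := by rw [← hU]; exact List.take_left
  have h2 : (U ++ Y).drop p0 = Y := by rw [← hU]; exact List.drop_left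
  unfold TT nuX
  rw [h1, h2, ph_append, hmul, hadd, add_assoc]

theorem good_of (hadd : ∀ a b s, act (a + b) s = act a s + act b s)
    (hmul : ∀ v s t, act v (s * t) = act (act v s) t)
    (hloc : ∀ P Q : List A, n ≤ Q.length → (Wo (P ++ Q) ↔ Wo Q))
    (hz : p0 + N1 + n + La ≤ z0)
    (hlen : ∀ p v, lam1 p = some v → p.length ≤ N1)
    (hsound : ∀ p q v r, lam1 p = some v → rho1 q = some r → La ≤ q.length →
        r = act v (ph φ (p ++ q)) + nu1 (p ++ q))
    (hcomp : ∀ u : List A, La ≤ u.length → ¬ Bad1 u.length → ∀ v, ∃ p q, p ++ q = u ∧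
        lam1 p = some v ∧ (rho1 q).isSome)
    (X : List A) (hX : X ∈ XX Wo z0)
    (hE : ∀ t, z0 ≤ t + N1 → t < z0 + N1 → t ≤ X.length → ¬ Wo (X.take t))
    (hB : ¬ Bad1 (X.length - p0)) :
    X ∈ (D act φ Wo z0 p0 K c lam1 nu1 lam2 nu2).Good := by
  obtain ⟨hX1, hX2, hX3⟩ := hX
  have hXl : z0 + N1 ≤ X.length := by
    by_contra h
    exact hE X.length (by omega) (by omega) le_rfl (by rw [List.take_length]; exact hX2)
  have hUl : (X.take p0).length = p0 := by rw [List.length_take]; omega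
  have hUY : X.take p0 ++ X.drop p0 = X := List.take_append_drop p0 X
  refine ⟨⟨hX1, hX2, hX3⟩, fun x => ?_⟩
  obtain ⟨p, q, hpq, hp, hq⟩ := hcomp (X.drop p0) (by rw [List.length_drop]; omega)
    (by rw [List.length_drop]; exact hB) (act x (ph φ (X.take p0)) + nu2 (X.take p0))
  obtain ⟨r, hr⟩ := Option.isSome_iff_exists.1 hq
  have hpl := hlen p _ hp
  have hql : p.length + q.length = X.length - p0 := by
    have := congrArg List.length hpq
    rw [List.length_append, List.length_drop] at this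
    exact this
  have hXe : X.take p0 ++ p ++ q = X := by rw [List.append_assoc, hpq, hUY]
  have hTX : TT act φ p0 nu1 nu2 x X = r := by
    have h1 := TT_split act φ p0 nu1 nu2 hadd hmul x (X.take p0) (X.drop p0) hUl
    rw [hUY] at h1
    rw [h1, ← hpq]
    exact (hsound p q _ r hp hr (by omega)).symm
  refine ⟨X.take p0 ++ p, ⟨?_, ?_⟩, q, ?_, hXe⟩
  · rw [List.length_append]; omega
  · have e1 : (X.take p0 ++ p).drop p0 = p := List.drop_left' hUl
    have e2 : (X.take p0 ++ p).take p0 = X.take p0 := List.take_left' hUl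
    rw [e1, e2]
    exact hp
  · intro x' P' hP'
    obtain ⟨hP1, hP2⟩ := hP'
    have hUl' : (P'.take p0).length = p0 := by rw [List.length_take]; omega
    have hp'l := hlen _ _ hP2
    rw [List.length_drop] at hp'l
    have hUP : P'.take p0 ++ P'.drop p0 = P' := List.take_append_drop p0 P'
    have hval : TT act φ p0 nu1 nu2 x' (P' ++ q) = r := by
      have h1 := TT_split act φ p0 nu1 nu2 hadd hmul x' (P'.take p0) (P'.drop p0 ++ q) hUl'
      rw [← List.append_assoc, hUP] at h1
      rw [h1]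
      exact (hsound (P'.drop p0) q _ r hP2 hr (by omega)).symm
    refine ⟨⟨?_, ?_, ?_⟩, ?_⟩
    · rw [List.length_append]; omega
    · rw [hloc P' q (by omega), ← hloc (X.take p0 ++ p) q (by omega), hXe]; exact hX2
    · intro t ht1 ht2 hW
      rw [List.length_append] at ht2
      have e1 : (P' ++ q).take t = P' ++ q.take (t - P'.length) := by
        rw [List.take_append]
        rw [List.take_of_length_le (by omega)]
      rw [e1, hloc P' _ (by rw [List.length_take]; omega)] at hW
      have e2 : X.take (t - P'.length + (p0 + p.length)) =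
          (X.take p0 ++ p) ++ q.take (t - P'.length) := by
        conv_lhs => rw [← hXe]
        rw [List.take_append]
        rw [List.take_of_length_le (by rw [List.length_append]; omega)]
        congr 2
        rw [List.length_append]; omega
      have hW2 : Wo (X.take (t - P'.length + (p0 + p.length))) := by
        rw [e2, hloc _ _ (by rw [List.length_take]; omega)]; exact hW
      by_cases h : z0 ≤ t - P'.length + (p0 + p.length)
      · exact hX3 _ h (by omega) hW2
      · exact hE _ (by omega) (by omega) (by omega) hW2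
    · show TT act φ p0 nu1 nu2 x' (P' ++ q) = TT act φ p0 nu1 nu2 x X
      rw [hval, hTX]

theorem pcode (hz : 0 < z0) : PCode (XX Wo z0) := by
  refine ⟨fun h => ?_, fun X hX Y hY hpre => ?_⟩
  · have := h.1
    simp at this
    omega
  · obtain ⟨Z, rfl⟩ := hpre
    by_contra hne
    have hZ : 0 < Z.length := by
      rcases Z with _ | ⟨a, Z⟩
      · simp at hne
      · simp
    refine hY.2.2 X.length hX.1 (by rw [List.length_append]; omega) ?_
    rw [List.take_left]
    exact hX.2.1

theorem L1_fin [Finite A] (hlen : ∀ p v, lam1 p = some v → p.length ≤ N1) (x : V) :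
    (L1 act φ p0 lam1 nu2 x).Finite := by
  refine (List.finite_length_le A (p0 + N1)).subset ?_
  rintro P ⟨h1, h2⟩
  have := hlen _ _ h2
  rw [List.length_drop] at this
  show P.length ≤ p0 + N1
  omega

theorem L2_fin [Finite A] (hc : ∀ k, k < K → c k ≤ p0) (x : V) :
    (L2 K c lam2 x).Finite := by
  refine (List.finite_length_le A p0).subset ?_
  rintro P ⟨k, hk, h1, h2⟩
  have := hc k hk
  show P.length ≤ p0
  omega

/-- the walls of `Z` seen from another anchor -/
theorem shift_wall (hloc : ∀ P Q : List A, n ≤ Q.length → (Wo (P ++ Q) ↔ Wo Q))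
    (P P' Q : List A) (s : ℕ) (h1 : P'.length + n ≤ s) (h2 : s ≤ P'.length + Q.length) :
    Wo ((P' ++ Q).take s) ↔ Wo ((P ++ Q).take (s + P.length - P'.length)) := by
  have e1 : (P' ++ Q).take s = P' ++ Q.take (s - P'.length) := by
    rw [List.take_append, List.take_of_length_le (by omega)]
  have e2 : (P ++ Q).take (s + P.length - P'.length) = P ++ Q.take (s - P'.length) := by
    rw [List.take_append, List.take_of_length_le (by omega)]
    congr 2
    omega
  rw [e1, e2, hloc P' _ (by rw [List.length_take]; omega),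
    hloc P _ (by rw [List.length_take]; omega)]

/-- (E) seen from the text: walls `t` of `Z`, the anchor moved from `c k` to `c j` -/
def Ev (Z : List A) (k j : ℕ) : Prop :=
  (∃ t, t ≤ Z.length ∧ Wo (Z.take t) ∧ z0 + c k ≤ t + c j + N1 ∧ t + c j < z0 + N1 + c k) ∨
  (∃ t, t ≤ Z.length ∧ Wo (Z.take t) ∧ z0 + c k ≤ t + c j ∧
    (∀ t', z0 + c k ≤ t' + c j → t' < t → ¬ Wo (Z.take t')) ∧ Bad1 (t + c j - c k - p0))

theorem c2 (hadd : ∀ a b s, act (a + b) s = act a s + act b s)
    (hmul : ∀ v s t, act v (s * t) = act (act v s) t)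
    (hloc : ∀ P Q : List A, n ≤ Q.length → (Wo (P ++ Q) ↔ Wo Q))
    (hz : p0 + N1 + n + La ≤ z0) (hc : ∀ k, k < K → c k ≤ p0)
    (hlen : ∀ p v, lam1 p = some v → p.length ≤ N1)
    (hsound : ∀ p q v r, lam1 p = some v → rho1 q = some r → La ≤ q.length →
        r = act v (ph φ (p ++ q)) + nu1 (p ++ q))
    (hcomp : ∀ u : List A, La ≤ u.length → ¬ Bad1 u.length → ∀ v, ∃ p q, p ++ q = u ∧
        lam1 p = some v ∧ (rho1 q).isSome)
    (hs2 : ∀ k < K, ∀ (P Q : List A) (v b : V), P.length = c k →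
        lam2 k P = some v → rho2 k Q 1 = some b → b = act v (ph φ (P ++ Q)) + nu2 (P ++ Q))
    (R : ℕ)
    (hc2 : ∀ (u : List A) (v : V), p0 ≤ u.length → ∃ I : Finset ℕ, R ≤ I.card ∧ ∀ k ∈ I, k < K ∧
        lam2 k (u.take (c k)) = some v ∧ (rho2 k (u.drop (c k)) 1).isSome)
    (hspoil : ∀ X1 ∈ XX Wo z0, ∀ X2 ∈ XX Wo z0, ∀ I : Finset ℕ, R ≤ I.card → (∀ k ∈ I, k < K) →
      ∃ k ∈ I, ∀ j, j < K → j ≠ k → ¬ Ev Wo z0 p0 N1 c Bad1 (X1 ++ X2) k j) :
    ∀ X1 ∈ (D act φ Wo z0 p0 K c lam1 nu1 lam2 nu2).Bad,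
    ∀ X2 ∈ (D act φ Wo z0 p0 K c lam1 nu1 lam2 nu2).Bad, ∀ x,
      ∃ P ∈ (D act φ Wo z0 p0 K c lam1 nu1 lam2 nu2).L2 x,
      ∃ Q ∈ (D act φ Wo z0 p0 K c lam1 nu1 lam2 nu2).R2
        ((D act φ Wo z0 p0 K c lam1 nu1 lam2 nu2).T
          ((D act φ Wo z0 p0 K c lam1 nu1 lam2 nu2).T x X1) X2),
      P ++ Q = X1 ++ X2 := by
  intro X1 hX1 X2 hX2 x
  have hb1 := hX1
  have hb2 := hX2
  obtain ⟨⟨h11, h12, h13⟩, -⟩ := hX1
  obtain ⟨⟨h21, h22, h23⟩, -⟩ := hX2
  have hUl : (X1.take p0).length = p0 := by rw [List.length_take]; omega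
  obtain ⟨I, hI, hI2⟩ := hc2 (X1.take p0) x (by omega)
  obtain ⟨k, hkI, hk⟩ := hspoil X1 ⟨h11, h12, h13⟩ X2 ⟨h21, h22, h23⟩ I hI (fun k hk => (hI2 k hk).1)
  obtain ⟨hkK, hlk, hrk⟩ := hI2 k hkI
  obtain ⟨b, hb⟩ := Option.isSome_iff_exists.1 hrk
  have hck := hc k hkK
  have eU1 : (X1.take p0).take (c k) = X1.take (c k) := by
    rw [List.take_take, min_eq_left hck]
  have hPl : (X1.take (c k)).length = c k := by rw [List.length_take]; omega
  have hPQ : X1.take (c k) ++ (X1.drop (c k) ++ X2) = X1 ++ X2 := by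
    rw [← List.append_assoc, List.take_append_drop]
  refine ⟨X1.take (c k), ⟨k, hkK, hPl, by rw [← eU1]; exact hlk⟩, X1.drop (c k) ++ X2, ?_, hPQ⟩
  have hUs : X1.take p0 = X1.take (c k) ++ (X1.take p0).drop (c k) := by
    rw [← eU1, List.take_append_drop]
  have hbx : b = act x (ph φ (X1.take p0)) + nu2 (X1.take p0) := by
    have := hs2 k hkK (X1.take (c k)) ((X1.take p0).drop (c k)) x b hPl
      (by rw [← eU1]; exact hlk) hb
    rw [← hUs] at this
    exact this
  have hdrop : X1.drop (c k) = (X1.take p0).drop (c k) ++ X1.drop p0 := by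
    conv_lhs => rw [← List.take_append_drop p0 X1]
    rw [List.drop_append_of_le_length (by omega)]
  have hTX1 : TT act φ p0 nu1 nu2 x X1 = act b (ph φ (X1.drop p0)) + nu1 (X1.drop p0) := by
    have h1 := TT_split act φ p0 nu1 nu2 hadd hmul x (X1.take p0) (X1.drop p0) hUl
    rw [List.take_append_drop] at h1
    rw [h1, hbx]
  intro x' P' hP'
  obtain ⟨j, hjK, hP'l, hlj⟩ := hP'
  by_cases hjk : j = k
  · subst hjk
    have hXX : P' ++ X1.drop (c j) ∈ XX Wo z0 := by
      have hsh := shift_wall (n := n) Wo hloc (X1.take (c j)) P' (X1.drop (c j))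
      rw [List.take_append_drop, hPl, hP'l] at hsh
      have hl : (P' ++ X1.drop (c j)).length = X1.length := by
        rw [List.length_append, List.length_drop]; omega
      refine ⟨by omega, ?_, ?_⟩
      · rw [hloc _ _ (by rw [List.length_drop]; omega),
          ← hloc (X1.take (c j)) _ (by rw [List.length_drop]; omega), List.take_append_drop]
        exact h12
      · intro t ht1 ht2 hW
        rw [hl] at ht2
        have := (hsh t (by omega) (by rw [List.length_drop]; omega)).1 hW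
        rw [Nat.add_sub_cancel] at this
        exact h13 t ht1 ht2 this
    by_cases hG : P' ++ X1.drop (c j) ∈ (D act φ Wo z0 p0 K c lam1 nu1 lam2 nu2).Good
    · exact Or.inr (Or.inl ⟨_, hG, ⟨X2, by rw [List.append_assoc]⟩⟩)
    · refine Or.inl ⟨_, ⟨hXX, hG⟩, X2, hb2, by rw [List.append_assoc], ?_⟩
      show TT act φ p0 nu1 nu2 (TT act φ p0 nu1 nu2 x' (P' ++ X1.drop (c j))) X2 =
        TT act φ p0 nu1 nu2 (TT act φ p0 nu1 nu2 x X1) X2
      congr 1
      rw [hTX1, hdrop, ← List.append_assoc, TT_split act φ p0 nu1 nu2 hadd hmul x' _ _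
        (by rw [List.length_append, List.length_drop]; omega),
        ← hs2 j hkK P' ((X1.take p0).drop (c j)) x' b hP'l hlj hb]
  · right; left
    have hZl : (X1.take (c k) ++ (X1.drop (c k) ++ X2)).length = X1.length + X2.length := by
      rw [hPQ, List.length_append]
    have hQl : (X1.drop (c k) ++ X2).length = X1.length + X2.length - c k := by
      rw [List.length_append, List.length_drop]; omega
    have hsh := shift_wall (n := n) Wo hloc (X1.take (c k)) P' (X1.drop (c k) ++ X2)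
    rw [hPQ, hPl, hP'l, hQl] at hsh
    have hcj := hc j hjK
    -- first wall behind z0
    have hex : ∃ s, z0 ≤ s ∧ s ≤ c j + (X1.length + X2.length - c k) ∧
        Wo ((P' ++ (X1.drop (c k) ++ X2)).take s) := by
      refine ⟨c j + (X1.length + X2.length - c k), by omega, le_rfl, ?_⟩
      rw [hsh _ (by omega) le_rfl, List.take_of_length_le (by rw [List.length_append]; omega),
        hloc X1 X2 (by omega)]
      exact h22
    classical
    obtain ⟨hs1, hs2', hs3⟩ := Nat.find_spec hex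
    have hmin := fun m (hm : m < Nat.find hex) => Nat.find_min hex hm
    generalize hs : Nat.find hex = s at hs1 hs2' hs3 hmin
    have hXl : ((P' ++ (X1.drop (c k) ++ X2)).take s).length = s := by
      rw [List.length_take, List.length_append, hQl]; omega
    have hnE := hk j hjK hjk
    have htk : ∀ t, t ≤ s → ((P' ++ (X1.drop (c k) ++ X2)).take s).take t =
        (P' ++ (X1.drop (c k) ++ X2)).take t := fun t ht => by
      rw [List.take_take, min_eq_left ht]
    have hXX : (P' ++ (X1.drop (c k) ++ X2)).take s ∈ XX Wo z0 := by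
      refine ⟨by omega, hs3, fun t ht1 ht2 hW => ?_⟩
      rw [hXl] at ht2
      rw [htk t ht2.le] at hW
      exact hmin t ht2 ⟨ht1, by omega, hW⟩
    refine ⟨_, ?_, ⟨(P' ++ (X1.drop (c k) ++ X2)).drop s, List.take_append_drop _ _⟩⟩
    refine good_of act φ Wo n z0 p0 N1 La K c Bad1 lam1 rho1 nu1 lam2 nu2 hadd hmul hloc hz hlen
      hsound hcomp _ hXX ?_ ?_
    · intro t ht1 ht2 ht3 hW
      rw [hXl] at ht3
      rw [htk t ht3] at hW
      rw [hsh t (by omega) (by omega)] at hW
      exact hnE (Or.inl ⟨t + c k - c j, by rw [List.length_append]; omega, hW, by omega, by omega⟩)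
    · rw [hXl]
      intro hBad
      rw [hsh s (by omega) (by omega)] at hs3
      refine hnE (Or.inr ⟨s + c k - c j, by rw [List.length_append]; omega, hs3, by omega, ?_, ?_⟩)
      · intro t' h1 h2 hW
        refine hmin (t' + c j - c k) (by omega) ⟨by omega, by omega, ?_⟩
        rw [hsh _ (by omega) (by omega)]
        have : t' + c j - c k + c k - c j = t' := by omega
        rw [this]
        exact hW
      · have : s + c k - c j + c j - c k - p0 = s - p0 := by omega
        rw [this]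
        exact hBad

theorem gap_of {W : ℕ}
    (hgap : ∀ (P : List A) (d : ℕ), Wo P → 0 < d → d ≤ W → ¬ Wo (P.take (P.length - d)))
    (Z : List A) (t t' : ℕ) (h : t < t') (ht' : t' ≤ Z.length) (h1 : Wo (Z.take t))
    (h2 : Wo (Z.take t')) : t + W < t' := by
  by_contra hcon
  have hl : (Z.take t').length = t' := by rw [List.length_take]; omega
  have h3 := hgap (Z.take t') (t' - t) h2 (by omega) (by omega)
  rw [hl, List.take_take] at h3
  have : min (t' - (t' - t)) t' = t := by omega
  rw [this] at h3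
  exact h3 h1

theorem spoil {W C0 : ℕ}
    (hgap : ∀ (P : List A) (d : ℕ), Wo P → 0 < d → d ≤ W → ¬ Wo (P.take (P.length - d)))
    (hloc : ∀ P Q : List A, n ≤ Q.length → (Wo (P ++ Q) ↔ Wo Q))
    (hW : 2 * p0 + 2 * N1 + 2 ≤ W) (hz : 2 * p0 + N1 + n + La ≤ z0) (hc : ∀ k, k < K → c k ≤ p0)
    (hr : ∀ i j k l, i < K → j < K → k < K → l < K → i ≠ j → k ≠ l → (i, j) ≠ (k, l) →
      c i + c l + 4 * N1 < c k + c j ∨ c k + c j + 4 * N1 < c i + c l)
    (hBad : ∀ T, La ≤ T → ∀ F : Finset (ℕ × ℕ), (∀ p ∈ F, p.1 < K ∧ p.2 < K ∧ p.1 ≠ p.2 ∧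
      Bad1 (T + c p.2 - c p.1)) → F.card ≤ C0) :
    ∀ X1 ∈ XX Wo z0, ∀ X2 ∈ XX Wo z0, ∀ I : Finset ℕ, 2 + 2 * C0 ≤ I.card → (∀ k ∈ I, k < K) →
      ∃ k ∈ I, ∀ j, j < K → j ≠ k → ¬ Ev Wo z0 p0 N1 c Bad1 (X1 ++ X2) k j := by
  classical
  intro X1 hX1 X2 hX2 I hI hIK
  by_contra hcon
  push Not at hcon
  choose! g hg1 hg2 hg3 using hcon
  obtain ⟨h11, h12, h13⟩ := hX1
  obtain ⟨h21, h22, h23⟩ := hX2
  generalize hZ : X1 ++ X2 = Z at hg3
  have hZl : Z.length = X1.length + X2.length := by rw [← hZ, List.length_append]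
  have hWZ : Wo (Z.take Z.length) := by
    rw [List.take_length, ← hZ, hloc X1 X2 (by omega)]; exact h22
  have hgp := fun t t' h ht' h1 h2 => gap_of Wo hgap Z t t' h ht' h1 h2
  have hex : ∃ t, z0 ≤ t + p0 ∧ t ≤ Z.length ∧ Wo (Z.take t) :=
    ⟨Z.length, by omega, le_rfl, hWZ⟩
  obtain ⟨hl1, hl2, hl3⟩ := Nat.find_spec hex
  have hmin := fun m (hm : m < Nat.find hex) => Nat.find_min hex hm
  generalize Nat.find hex = tl at hl1 hl2 hl3 hmin
  let PB : ℕ × ℕ → ℕ → Prop := fun p t => t ≤ Z.length ∧ Wo (Z.take t) ∧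
    z0 + c p.1 ≤ t + c p.2 ∧ (∀ t', z0 + c p.1 ≤ t' + c p.2 → t' < t → ¬ Wo (Z.take t')) ∧
    Bad1 (t + c p.2 - c p.1 - p0)
  let PE : ℕ × ℕ → Prop := fun p => ∃ t, t ≤ Z.length ∧ Wo (Z.take t) ∧
    z0 + c p.1 ≤ t + c p.2 + N1 ∧ t + c p.2 < z0 + N1 + c p.1
  let F : Finset (ℕ × ℕ) := I.image fun k => (k, g k)
  have hFc : F.card = I.card := by
    refine Finset.card_image_of_injective I ?_
    intro a b hab
    exact (Prod.mk.inj hab).1
  have hFm : ∀ p ∈ F, p.1 < K ∧ p.2 < K ∧ p.1 ≠ p.2 ∧ (PE p ∨ ∃ t, PB p t) := by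
    intro p hp
    obtain ⟨k, hk, rfl⟩ := Finset.mem_image.1 hp
    refine ⟨hIK k hk, hg1 k hk, fun h => hg2 k hk h.symm, ?_⟩
    rcases hg3 k hk with h | h
    · exact Or.inl h
    · exact Or.inr h
  have hsub : F ⊆ F.filter (fun p => PE p) ∪ (F.filter (fun p => PB p tl) ∪
      F.filter (fun p => ∃ t, tl < t ∧ PB p t)) := by
    intro p hp
    obtain ⟨h1, h2, h3, h4⟩ := hFm p hp
    have hc1 := hc _ h1
    have hc2 := hc _ h2
    rcases h4 with h | ⟨t, ht⟩
    · exact Finset.mem_union_left _ (Finset.mem_filter.2 ⟨hp, h⟩)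
    · refine Finset.mem_union_right _ ?_
      have : ¬ t < tl := fun hlt => hmin t hlt ⟨by have := ht.2.2.1; omega, ht.1, ht.2.1⟩
      rcases Nat.lt_or_ge tl t with hlt | hge
      · exact Finset.mem_union_right _ (Finset.mem_filter.2 ⟨hp, t, hlt, ht⟩)
      · have e : t = tl := by omega
        subst e
        exact Finset.mem_union_left _ (Finset.mem_filter.2 ⟨hp, ht⟩)
  have hE : (F.filter (fun p => PE p)).card ≤ 1 := by
    rw [Finset.card_le_one]
    intro p hp q hq
    obtain ⟨hp1, t, ht1, ht2, ht3, ht4⟩ := Finset.mem_filter.1 hp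
    obtain ⟨hq1, t', ht1', ht2', ht3', ht4'⟩ := Finset.mem_filter.1 hq
    obtain ⟨a1, a2, a3, -⟩ := hFm p hp1
    obtain ⟨b1, b2, b3, -⟩ := hFm q hq1
    have u1 := hc _ a1
    have u2 := hc _ a2
    have u3 := hc _ b1
    have u4 := hc _ b2
    have htt : t = t' := by
      rcases Nat.lt_trichotomy t t' with h | h | h
      · have := hgp t t' h ht1' ht2 ht2'
        omega
      · exact h
      · have := hgp t' t h ht1 ht2' ht2
        omega
    subst htt
    by_contra hne
    rcases hr p.1 p.2 q.1 q.2 a1 a2 b1 b2 a3 b3 hne with h | h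
    · omega
    · omega
  have hB1 : (F.filter (fun p => PB p tl)).card ≤ C0 := by
    refine hBad (tl - p0) (by omega) _ fun p hp => ?_
    obtain ⟨hp1, ht1, ht2, ht3, ht4, ht5⟩ := Finset.mem_filter.1 hp
    obtain ⟨a1, a2, a3, -⟩ := hFm p hp1
    have u1 := hc _ a1
    have u2 := hc _ a2
    refine ⟨a1, a2, a3, ?_⟩
    have e : tl - p0 + c p.2 - c p.1 = tl + c p.2 - c p.1 - p0 := by omega
    rw [e]; exact ht5
  have hB2 : (F.filter (fun p => ∃ t, tl < t ∧ PB p t)).card ≤ C0 := by
    rcases Finset.eq_empty_or_nonempty (F.filter (fun p => ∃ t, tl < t ∧ PB p t)) with h0 | ⟨q, hq⟩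
    · rw [h0]; simp
    · obtain ⟨hq1, s, hs0, hs1, hs2, hs3, hs4, hs5⟩ := Finset.mem_filter.1 hq
      obtain ⟨b1, b2, b3, -⟩ := hFm q hq1
      have u3 := hc _ b1
      have u4 := hc _ b2
      refine hBad (s - p0) (by omega) _ fun p hp => ?_
      obtain ⟨hp1, t, ht0, ht1, ht2, ht3, ht4, ht5⟩ := Finset.mem_filter.1 hp
      obtain ⟨a1, a2, a3, -⟩ := hFm p hp1
      have u1 := hc _ a1
      have u2 := hc _ a2
      have g1 := hgp tl s hs0 hs1 hl3 hs2
      have g2 := hgp tl t ht0 ht1 hl3 ht2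
      have hts : t = s := by
        rcases Nat.lt_trichotomy t s with h | h | h
        · exact absurd ht2 (hs4 t (by omega) h)
        · exact h
        · exact absurd hs2 (ht4 s (by omega) h)
      subst hts
      refine ⟨a1, a2, a3, ?_⟩
      have e : t - p0 + c p.2 - c p.1 = t + c p.2 - c p.1 - p0 := by omega
      rw [e]; exact ht5
  have h1 := Finset.card_le_card hsub
  have h2 := Finset.card_union_le (F.filter (fun p => PE p)) (F.filter (fun p => PB p tl) ∪
      F.filter (fun p => ∃ t, tl < t ∧ PB p t))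
  have h3 := Finset.card_union_le (F.filter (fun p => PB p tl))
    (F.filter (fun p => ∃ t, tl < t ∧ PB p t))
  omega

end Inst

section HLs

open Crest.Agent.R320.WallU_228 Crest.Agent.R320.FewWalls_228

variable {A : Type} [Finite A] {k : ℕ}

theorem HL_Wo (n : ℕ) (Sw : Set (List A)) : HL k ({w | Wo n Sw w} : Language A) := by
  have hfin : ({s | s.length = n ∧ s ∈ Sw} : Set (List A)).Finite :=
    (List.finite_length_eq A n).subset fun s hs => hs.1
  refine (HL.mul (k := k) (L := (⊤ : Language A)) (M := ({s | s.length = n ∧ s ∈ Sw} : Set (List A)))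
    HL.top (HL.finite hfin)).congr fun w => ?_
  constructor
  · rintro ⟨h1, h2⟩
    exact Language.mem_mul.2 ⟨w.take (w.length - n), trivial, w.drop (w.length - n),
      ⟨by rw [List.length_drop]; omega, h2⟩, List.take_append_drop _ _⟩
  · intro h
    obtain ⟨a, -, b, hb, rfl⟩ := Language.mem_mul.1 h
    obtain ⟨h1, h2⟩ : b.length = n ∧ b ∈ Sw := hb
    refine ⟨by rw [List.length_append]; omega, ?_⟩
    have e : (a ++ b).length - n = a.length := by rw [List.length_append]; omega
    rw [e, List.drop_left]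
    exact h2

theorem HL_XX (n z0 : ℕ) (Sw : Set (List A)) :
    HL k ({w | w ∈ XX (Wo n Sw) z0} : Language A) := by
  have h1 : HL k ({w : List A | z0 ≤ w.length ∧ Wo n Sw w} : Language A) :=
    HL.setOf_and (HL.length_ge z0) (HL_Wo n Sw)
  have h2 := HL.mul h1 (HL.length_ge (k := k) (α := A) 1)
  refine (h1.inf h2.compl).congr fun w => ?_
  constructor
  swap
  · rintro ⟨⟨h3, h4⟩, h5⟩
    refine ⟨h3, h4, fun t ht1 ht2 hW => h5 ?_⟩
    refine Language.mem_mul.2 ⟨w.take t, ⟨by rw [List.length_take]; omega, hW⟩, w.drop t,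
      ?_, List.take_append_drop _ _⟩
    show 1 ≤ (w.drop t).length
    rw [List.length_drop]; omega
  · rintro ⟨h3, h4, h5⟩
    refine ⟨⟨h3, h4⟩, fun h6 => ?_⟩
    obtain ⟨a, ⟨ha1, ha2⟩, b, hb, rfl⟩ := Language.mem_mul.1 h6
    have hb' : 1 ≤ b.length := hb
    refine h5 a.length ha1 (by rw [List.length_append]; omega) ?_
    rw [List.take_left]
    exact ha2

theorem nw_le (n z0 : ℕ) (Sw : Set (List A)) (w : List A)
    (h : ∀ t, z0 ≤ t → t < w.length → ¬ Wo n Sw (w.take t)) : nw n Sw w ≤ z0 + 1 := by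
  classical
  unfold nw
  have hsub : (Finset.range (w.length + 1)).filter (fun x => Wl n Sw w x) ⊆
      Finset.range z0 ∪ {w.length - n} := by
    intro x hx
    rw [Finset.mem_filter] at hx
    obtain ⟨h1, h2⟩ := wo_take.1 hx.2
    rw [Finset.mem_union, Finset.mem_range, Finset.mem_singleton]
    by_cases h3 : z0 ≤ x + n
    · by_cases h4 : x + n < w.length
      · exact absurd h2 (h _ h3 h4)
      · right; omega
    · left; omega
  have h1 := Finset.card_le_card hsub
  have h2 := Finset.card_union_le (Finset.range z0) {w.length - n}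
  rw [Finset.card_range, Finset.card_singleton] at h2
  omega

theorem reg_val {S : Type} [Monoid S] [Finite S] (φ : A → S) (s : S) :
    Language.IsRegular ({w | (w.map φ).prod = s} : Language A) := by
  refine RegCongr_253.regular_of_congr φ 0 1 one_pos _ ?_
  intro q q' _ _ _ _ h hq
  simp only [List.drop_zero] at h
  show (q'.map φ).prod = s
  rw [← h]
  exact hq

theorem reg_TT {S V : Type} [Monoid S] [Finite S] [AddCommGroup V] (act : V → S → V) (φ : A → S)
    (p0 La Pm : ℕ) (hPm : 0 < Pm) (nu1 nu2 : List A → V)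
    (hnu : ∀ q q2 : List A, La ≤ q.length → La ≤ q2.length → q.take La = q2.take La →
        q.length % Pm = q2.length % Pm → ((q.drop La).map φ).prod = ((q2.drop La).map φ).prod →
        nu1 q = nu1 q2) (x y : V) :
    Language.IsRegular ({w | TT act φ p0 nu1 nu2 x w = y} : Language A) := by
  refine RegCongr_253.regular_of_congr φ (p0 + La) Pm hPm _ ?_
  intro q q' h1 h2 h3 h4 h5 hq
  have e1 : q.take p0 = q'.take p0 := by
    have := congrArg (List.take p0) h3
    rwa [List.take_take, List.take_take, min_eq_left (by omega)] at this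
  have e2 : (q.drop p0).take La = (q'.drop p0).take La := by
    have := congrArg (List.drop p0) h3
    rwa [List.drop_take, List.drop_take, Nat.add_sub_cancel_left] at this
  have e3 : (((q.drop p0).drop La).map φ).prod = (((q'.drop p0).drop La).map φ).prod := by
    rw [List.drop_drop, List.drop_drop]; exact h5
  have e4 : ((q.drop p0).map φ).prod = ((q'.drop p0).map φ).prod := by
    rw [← List.take_append_drop La (q.drop p0), ← List.take_append_drop La (q'.drop p0),
      List.map_append, List.map_append, List.prod_append, List.prod_append, e2, e3]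
  have e5 : (q.map φ).prod = (q'.map φ).prod := by
    rw [← List.take_append_drop p0 q, ← List.take_append_drop p0 q',
      List.map_append, List.map_append, List.prod_append, List.prod_append, e1, e4]
  have e6 : (q.drop p0).length % Pm = (q'.drop p0).length % Pm := by
    rw [List.length_drop, List.length_drop]
    have h6 : (q.length - p0 + p0) % Pm = (q'.length - p0 + p0) % Pm := by
      rw [Nat.sub_add_cancel (by omega), Nat.sub_add_cancel (by omega)]; exact h4
    exact Nat.ModEq.add_right_cancel' p0 h6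
  have e7 : nu1 (q.drop p0) = nu1 (q'.drop p0) :=
    hnu _ _ (by rw [List.length_drop]; omega) (by rw [List.length_drop]; omega) e2 e6 e3
  show TT act φ p0 nu1 nu2 x q' = y
  have hq' : TT act φ p0 nu1 nu2 x q = y := hq
  rw [← hq']
  unfold TT nuX ph
  rw [e1, e4, e5, e7]

end HLs

open Crest.Agent.R320.WallU_228 Crest.Agent.R320.FewWalls_228 in
/-- **the row from gadget 1** -/
theorem row (h : ∀ (S V : Type) [Monoid S] [Finite S] [AddCommGroup V] [Finite V]
    (act : V → S → V), UGI S V act) (A S : Type) [Finite A] [Monoid S] [Finite S] (φ : A → S)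
    (s : S) : HL 3 ({w | (w.map φ).prod = s} : Language A) := by
  classical
  let V : Type := S → ZMod 2
  haveI : Finite V := inferInstance
  haveI : Fintype V := Fintype.ofFinite V
  haveI : Fintype S := Fintype.ofFinite S
  let act : V → S → V := fun f t => fun x => f (t * x)
  have hadd : ∀ (a b : V) (s : S), act (a + b) s = act a s + act b s := fun a b s => rfl
  have hmul : ∀ (v : V) (s t : S), act v (s * t) = act (act v s) t := by
    intro v s t; funext x; simp [act, mul_assoc]
  have hone : ∀ v : V, act v 1 = v := by intro v; funext x; simp [act]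
  have hfaith : ∀ s t : S, (∀ v : V, act v s = act v t) → s = t := by
    intro s t h
    by_contra hne
    have h1 := congrFun (h (fun x => if x = s then 1 else 0)) 1
    simp [act, hne, Ne.symm hne, eq_comm] at h1
  obtain ⟨C0, hC0⟩ := h S V act
  obtain ⟨K, hK⟩ := Crest.Agent.R320.ExactR_237.exact_gadget A S V φ act (2 + 2 * C0)
  obtain ⟨N1, Pm, La, c, Bad, hPm, hcm, hr, -, hcount, hgad⟩ := hC0 K
  obtain ⟨lam2, rho2, nu2, hs2, hc2⟩ := hK c hcm
  obtain ⟨lam1, rho1, nu1, hlen, hsound, hcomp, hinv⟩ := hgad A φ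
  let p0 : ℕ := (Finset.range K).sup c
  have hcp : ∀ k, k < K → c k ≤ p0 := fun k hk => Finset.le_sup (Finset.mem_range.2 hk)
  obtain ⟨n, cc, P, Sw, hn, hP, hloc, hgap, -, -, hfew⟩ := walls_full (α := A) (2 * p0 + 2 * N1 + 2)
  let z0 : ℕ := 2 * p0 + N1 + n + La + 1
  have hXXc : ∀ w ∈ XX (Wo n Sw) z0, nw n Sw w ≤ z0 + 1 := fun w hw => nw_le n z0 Sw w hw.2.2
  refine SemTop_727.top (k := 1) act hadd hone hmul hfaith φ
    (nuX act φ p0 nu1 (fun U => nu2 U 1))
    (D act φ (Wo n Sw) z0 p0 K c lam1 nu1 lam2 (fun U => nu2 U 1))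
    (fun v X => rfl) (pcode (Wo n Sw) z0 (by omega)) ?_
    (fun x => L1_fin act φ p0 N1 lam1 (fun U => nu2 U 1) hlen x)
    (fun x => L2_fin p0 K c lam2 hcp x) ?_ ?_ s
  · intro x y
    have hreg := reg_TT act φ p0 La Pm hPm nu1 (fun U => nu2 U 1)
      (fun q q2 a1 a2 a3 a4 a5 => (hinv q q2 a1 a2 a3 a4 a5).2) x y
    refine ((HL_XX (k := 1) n z0 Sw).inf (hfew _ hreg (z0 + 1))).congr fun w => ?_
    constructor
    · rintro ⟨h1, h2⟩
      exact ⟨h1, h2, hXXc w h1⟩
    · rintro ⟨h1, h2, -⟩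
      exact ⟨h1, h2⟩
  · refine c2 act φ (Wo n Sw) n z0 p0 N1 La K c Bad lam1 rho1 nu1 lam2 rho2 _ hadd hmul hloc
      (by omega) hcp hlen hsound hcomp ?_ (2 + 2 * C0) ?_
      (spoil (Wo n Sw) n z0 p0 N1 La K c Bad hgap hloc le_rfl (by omega) hcp hr hcount)
    · intro k hk P Q v b hP' h1 h2
      have := hs2 k hk P Q 1 v b hP' h1 h2
      rw [mul_one] at this
      exact this
    · intro u v hu
      obtain ⟨I, h1, h2⟩ := hc2 u 1 v (fun k hk => (hcp k hk).trans hu)
      exact ⟨I, h1, h2⟩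
  · intro s
    refine (((HL_XX (k := 3) n z0 Sw).prefix).compl.inf
      ((hfew _ (reg_val φ s) (z0 + 1)).mono (by norm_num))).congr fun w => ?_
    constructor
    swap
    · rintro ⟨h1, h2, -⟩
      exact ⟨fun X hX hpre => h1 ⟨X, hX, hpre⟩, h2⟩
    · rintro ⟨h1, h2⟩
      refine ⟨fun ⟨X, hX, hpre⟩ => h1 X hX hpre, h2, nw_le n z0 Sw w fun t ht1 ht2 hW => ?_⟩
      have hex : ∃ t, z0 ≤ t ∧ t ≤ w.length ∧ Wo n Sw (w.take t) := ⟨t, ht1, ht2.le, hW⟩
      obtain ⟨g1, g2, g3⟩ := Nat.find_spec hex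
      have hmin := fun m (hm : m < Nat.find hex) => Nat.find_min hex hm
      generalize Nat.find hex = u at g1 g2 g3 hmin
      have hl : (w.take u).length = u := by rw [List.length_take]; omega
      refine h1 (w.take u) ⟨by omega, g3, fun t' a1 a2 a3 => ?_⟩ (List.take_prefix _ _)
      rw [hl] at a2
      rw [List.take_take, min_eq_left a2.le] at a3
      exact hmin t' a2 ⟨a1, by omega, a3⟩

end Crest.Agent.R320.Inst492
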