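import Crest.Agent.R320.Top5_110

/-!
# Row 320: the two schemes on all words, natural chain rule (helper510)

Blocks `XX` (left-looking outer walls, natural rule "first wall at a place `>= z`"), one token system,
scheme 1 = abstract wall-free gadget `lam rho nu1 BadT`, scheme 2 = exact gadget `lam2 rho2 nu2` with the
ruler `c`.  `C1`, `C2` are literally the hypotheses of `Top5_110.top_sem`.
-/

set_option autoImplicit false
set_option linter.unusedSectionVars false

namespace Crest.Agent.R320.InstA_510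

open Crest.Agent.R320.Hk_851 Crest.Agent.R320.Code110

universe u

/-- the data -/
structure Dt (α : Type u) (S V : Type*) where
  Wo : List α → Prop
  n : ℕ
  W : ℕ
  z : ℕ
  p0 : ℕ
  N : ℕ
  La : ℕ
  K : ℕ
  C0 : ℕ
  R : ℕ
  c : ℕ → ℕ
  BadT : ℕ → Prop
  φ : List α → S
  act : V → S → V
  lam : List α → Option V
  rho : List α → Option V
  nu1 : List α → V
  lam2 : ℕ → List α → Option V
  rho2 : ℕ → List α → Option V
  nu2 : List α → V

variable {α : Type u} {S V : Type*} [Monoid S] [AddCommGroup V]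

namespace Dt

/-- blocks -/
def XX (D : Dt α S V) : Language α :=
  {X | D.Wo X ∧ D.z ≤ X.length ∧ ∀ t, D.z ≤ t → t < X.length → ¬ D.Wo (X.take t)}

/-- block map -/
def T (D : Dt α S V) (X : List α) (v : V) : V :=
  D.act (D.act v (D.φ (X.take D.p0)) + D.nu2 (X.take D.p0)) (D.φ (X.drop D.p0)) +
    D.nu1 (X.drop D.p0)

/-- a wall in the band -/
def Eb (D : Dt α S V) (X : List α) : Prop :=
  ∃ t, t ≤ X.length ∧ D.Wo (X.take t) ∧ D.z ≤ t + D.N ∧ t ≤ D.z + D.N

/-- bad blocks -/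
def Bad (D : Dt α S V) : Language α :=
  {X | X ∈ D.XX ∧ (D.Eb X ∨ D.BadT (X.length - D.p0))}

/-- left words of scheme 1 -/
def L1 (D : Dt α S V) (x : V) : Language α :=
  {P | D.p0 ≤ P.length ∧ P.length ≤ D.p0 + D.N ∧
    D.lam (P.drop D.p0) = some (D.act x (D.φ (P.take D.p0)) + D.nu2 (P.take D.p0))}

/-- left words of scheme 2 -/
def L2 (D : Dt α S V) (x : V) : Language α :=
  {P | ∃ k < D.K, P.length = D.c k ∧ D.lam2 k P = some x}

/-- hypotheses -/
structure Ok (D : Dt α S V) : Prop where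
  hlen : ∀ Q, D.Wo Q → D.n ≤ Q.length
  hloc : ∀ P Q, D.n ≤ Q.length → (D.Wo (P ++ Q) ↔ D.Wo Q)
  hgap : ∀ (X : List α) (s t : ℕ), s < t → t ≤ X.length → D.Wo (X.take s) → D.Wo (X.take t) → s + D.W ≤ t
  lamN : ∀ P v, D.lam P = some v → P.length ≤ D.N
  snd1 : ∀ P Q v b, D.lam P = some v → D.rho Q = some b → D.La ≤ Q.length →
    b = D.act v (D.φ (P ++ Q)) + D.nu1 (P ++ Q)
  cmp1 : ∀ u : List α, D.La ≤ u.length → ¬ D.BadT u.length → ∀ v, ∃ P Q, P ++ Q = u ∧
    D.lam P = some v ∧ (D.rho Q).isSome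
  cinj : ∀ i j, i < D.K → j < D.K → D.c i = D.c j → i = j
  cp : ∀ k < D.K, D.c k ≤ D.p0
  snd2 : ∀ k < D.K, ∀ P Q v b, P.length = D.c k → P.length + Q.length = D.p0 →
    D.lam2 k P = some v → D.rho2 k Q = some b → b = D.act v (D.φ (P ++ Q)) + D.nu2 (P ++ Q)
  cmp2 : ∀ X : List α, X.length = D.p0 → ∀ v, ∃ I : Finset ℕ, D.R ≤ I.card ∧ ∀ k ∈ I, k < D.K ∧
    D.lam2 k (X.take (D.c k)) = some v ∧ (D.rho2 k (X.drop (D.c k))).isSome
  gol : ∀ i j k l, i < D.K → j < D.K → k < D.K → l < D.K → i ≠ j → k ≠ l → (i, j) ≠ (k, l) →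
    D.c i + D.c l + 2 * D.N < D.c k + D.c j ∨ D.c k + D.c j + 2 * D.N < D.c i + D.c l
  cnt : ∀ T, (∀ i < D.K, D.c i ≤ T) → ∀ F : Finset (ℕ × ℕ),
    (∀ p ∈ F, p.1 < D.K ∧ p.2 < D.K ∧ p.1 ≠ p.2 ∧ D.BadT (T + D.c p.2 - D.c p.1)) →
    F.card ≤ D.C0
  hz : 4 * D.p0 + D.N + D.n + D.La + 1 ≤ D.z
  hW : 2 * D.p0 + 2 * D.N + 1 ≤ D.W
  hR : 2 * D.C0 + 2 ≤ D.R

variable {D : Dt α S V}

theorem wo_take (h : D.Ok) {P Q : List α} {t : ℕ} (hn : D.n ≤ t) (ht : t ≤ Q.length) :
    D.Wo ((P ++ Q).take (P.length + t)) ↔ D.Wo (Q.take t) := by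
  rw [List.take_append, List.take_of_length_le (by omega), Nat.add_sub_cancel_left]
  exact h.hloc _ _ (by rw [List.length_take]; omega)

theorem wo_drop (h : D.Ok) {U : List α} {s t : ℕ} (hn : D.n ≤ t) (ht : s + t ≤ U.length) :
    D.Wo ((U.drop s).take t) ↔ D.Wo (U.take (s + t)) := by
  rw [List.take_add]
  exact (h.hloc _ _ (by rw [List.length_take, List.length_drop]; omega)).symm

theorem n_le (h : D.Ok) {Q : List α} {t : ℕ} (hw : D.Wo (Q.take t)) : D.n ≤ t := by
  have := h.hlen _ hw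
  rw [List.length_take] at this
  omega

/-- blocks seen from a cut -/
theorem mem_XX_app (h : D.Ok) {P Q : List α} (hP : P.length + D.n < D.z) :
    P ++ Q ∈ D.XX ↔ D.z ≤ P.length + Q.length ∧ D.Wo Q ∧
      ∀ t, D.z ≤ P.length + t → t < Q.length → ¬ D.Wo (Q.take t) := by
  constructor
  · rintro ⟨h1, h2, h3⟩
    rw [List.length_append] at h2 h3
    have hQ : D.n ≤ Q.length := by omega
    refine ⟨h2, (h.hloc P Q hQ).1 h1, fun t ht ht2 hw => ?_⟩
    exact h3 (P.length + t) ht (by omega) ((wo_take h (by omega) ht2.le).2 hw)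
  · rintro ⟨h1, h2, h3⟩
    refine ⟨(h.hloc P Q (h.hlen _ h2)).2 h2, by rw [List.length_append]; exact h1, ?_⟩
    intro t ht ht2 hw
    rw [List.length_append] at ht2
    obtain ⟨s, rfl⟩ := Nat.exists_eq_add_of_le (show P.length ≤ t by omega)
    exact h3 s ht (by omega) ((wo_take h (by omega) (by omega)).1 hw)

theorem pcXX (h : D.Ok) : PC D.XX where
  ne := by
    rintro ⟨-, h2, -⟩
    have := h.hz
    simp at h2
    omega
  pf := by
    rintro u hu v hv ⟨r, rfl⟩
    cases r with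
    | nil => simp
    | cons a r =>
      exfalso
      obtain ⟨h1, h2, -⟩ := hu
      obtain ⟨-, -, h3⟩ := hv
      refine h3 u.length h2 (by simp) ?_
      rw [List.take_left]
      exact h1

theorem bad_sub : ∀ u ∈ D.Bad, u ∈ D.XX := fun _ hu => hu.1

/-- **completeness of scheme 1** -/
theorem C1 (h : D.Ok) : ∀ u ∈ D.XX, u ∉ D.Bad → ∀ x, ∀ t ∈ D.XX ^ 0, ∃ p q y, u ++ t = p ++ q ∧
    p ∈ D.L1 x ∧ q ∈ Rsem D.XX D.XX D.T 0 D.L1 y := by
  intro u hu hub x t ht
  have ht' : t = [] := by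
    rw [pow_zero] at ht
    exact ht
  subst ht'
  obtain ⟨hu1, hu2, hu3⟩ := hu
  have hz := h.hz
  have hnE : ¬ D.Eb u := fun he => hub ⟨⟨hu1, hu2, hu3⟩, Or.inl he⟩
  have hnB : ¬ D.BadT (u.length - D.p0) := fun he => hub ⟨⟨hu1, hu2, hu3⟩, Or.inr he⟩
  obtain ⟨P, Q, hPQ, hP, hQ⟩ := h.cmp1 (u.drop D.p0) (by rw [List.length_drop]; omega)
    (by rw [List.length_drop]; exact hnB) (D.act x (D.φ (u.take D.p0)) + D.nu2 (u.take D.p0))
  obtain ⟨b, hb⟩ := Option.isSome_iff_exists.1 hQ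
  have hPN := h.lamN P _ hP
  have hp0 : (u.take D.p0).length = D.p0 := by rw [List.length_take]; omega
  have hu' : u = (u.take D.p0 ++ P) ++ Q := by
    rw [List.append_assoc, hPQ, List.take_append_drop]
  have hlu : u.length = D.p0 + P.length + Q.length := by
    conv_lhs => rw [hu']
    rw [List.length_append, List.length_append, hp0]
  have hbig : D.z + D.N < u.length := by
    by_contra hcon
    apply hnE
    refine ⟨u.length, le_rfl, by rw [List.take_length]; exact hu1, by omega, by omega⟩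
  refine ⟨u.take D.p0 ++ P, Q, b, by rw [List.append_nil]; exact hu', ⟨?_, ?_, ?_⟩, ?_⟩
  · rw [List.length_append, hp0]; omega
  · rw [List.length_append, hp0]; omega
  · rw [List.drop_append, List.take_append, hp0, Nat.sub_self, List.drop_zero, List.take_zero,
      List.append_nil, List.drop_eq_nil_of_le (by omega), List.nil_append,
      List.take_of_length_le (by omega)]
    exact hP
  · intro x' p' hp'
    obtain ⟨h1, h2, h3⟩ := hp'
    left
    have hX : p' ++ Q ∈ D.XX := by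
      rw [mem_XX_app h (by omega)]
      refine ⟨by omega, ?_, ?_⟩
      · rw [hu'] at hu1
        exact (h.hloc _ _ (by omega)).1 hu1
      · intro t ht1 ht2 hw
        have hnt := n_le h hw
        have hw2 : D.Wo (u.take ((D.p0 + P.length) + t)) := by
          have h5 := (wo_take h (P := u.take D.p0 ++ P) hnt ht2.le).2 hw
          rw [← hu', List.length_append, hp0] at h5
          exact h5
        by_cases hr : D.z ≤ D.p0 + P.length + t
        · exact hu3 _ hr (by omega) hw2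
        · exact hnE ⟨_, by omega, hw2, by omega, by omega⟩
    have hT : D.T (p' ++ Q) x' = b := by
      have e1 : (p' ++ Q).take D.p0 = p'.take D.p0 := List.take_append_of_le_length h1
      have e2 : (p' ++ Q).drop D.p0 = p'.drop D.p0 ++ Q := List.drop_append_of_le_length h1
      unfold T
      rw [e1, e2]
      exact (h.snd1 _ _ _ _ h3 hb (by omega)).symm
    exact ⟨b, Language.mem_mul.2 ⟨p' ++ Q, ⟨hX, hT⟩, [], ⟨rfl, rfl⟩, by simp⟩⟩

end Dt

end Crest.Agent.R320.InstA_510
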