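import Crest.Agent.R320.Main_621

/-!
# Row 320, instance of `Main_621.Data`, scheme A (helper526)

Left-looking walls `Wo`, natural chain rule: `t` = first wall at a place `≥ z0`, the zone ends at
the next wall.  `Y` = zone without its first `p0` letters.
-/

set_option autoImplicit false

namespace Crest.Agent.R320.InstA_526

open Crest.Agent.R320.Star_621 Crest.Agent.R320.Two_621

universe u

variable {α : Type u}

/-- left-looking wall rule with window `n`, gaps `> W` -/
structure LW (n W : ℕ) (Wo : List α → Prop) : Prop where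
  app : ∀ P Q : List α, n ≤ Q.length → (Wo (P ++ Q) ↔ Wo Q)
  gap : ∀ P D : List α, Wo P → Wo (P ++ D) → 0 < D.length → W < D.length

/-- `t` is the accepted wall of a block `X` read from a place `c` letters behind its start. -/
def IsT (Wo : List α → Prop) (z0 c : ℕ) (X : List α) (t : ℕ) : Prop :=
  z0 ≤ t + c ∧ t < X.length ∧ Wo (X.take t) ∧ Wo X ∧
    ∀ s, z0 ≤ s + c → s < X.length → Wo (X.take s) → s = t

theorem IsT.unique {Wo : List α → Prop} {z0 c : ℕ} {X : List α} {t t' : ℕ}
    (h : IsT Wo z0 c X t) (h' : IsT Wo z0 c X t') : t = t' :=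
  h'.2.2.2.2 t h.1 h.2.1 h.2.2.1

/-- zones -/
def Zn (Wo : List α → Prop) (z0 : ℕ) : Language α := {X | ∃ t, IsT Wo z0 0 X t}

theorem code (Wo : List α → Prop) (z0 : ℕ) : Code (Zn Wo z0) := by
  have key : ∀ z z' x x' : List α, z ∈ Zn Wo z0 → z' ∈ Zn Wo z0 → z ++ x = z' ++ x' →
      z'.length ≤ z.length := by
    intro z z' x x' hz hz' he
    by_contra hlt
    rw [not_le] at hlt
    obtain ⟨t, h1, h2, h3, h4, h5⟩ := hz
    obtain ⟨t', g1, g2, g3, g4, g5⟩ := hz'
    have hpre : z = z'.take z.length := by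
      have h := congrArg (List.take z.length) he
      rw [List.take_left' rfl, List.take_append_of_le_length hlt.le] at h
      exact h
    have e1 : t = t' := by
      refine g5 t h1 (by omega) ?_
      have : z'.take t = z.take t := by
        conv_rhs => rw [hpre]
        rw [List.take_take, Nat.min_eq_left h2.le]
      rw [this]; exact h3
    have e2 : z.length = t' := by
      refine g5 z.length (by omega) hlt ?_
      rw [← hpre]; exact h4
    omega
  refine ⟨?_, ?_⟩
  · rintro ⟨t, h1, h2, h3⟩
    simp at h2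
  · intro z z' x x' hz hz' he
    have h1 := key z z' x x' hz hz' he
    have h2 := key z' z x' x hz' hz he.symm
    exact (List.append_inj he (le_antisymm h2 h1)).1

/-- shift of the reference place: `Z = P ++ Q`, everything behind `P` is read on `Q`. -/
theorem IsT.shift {n W : ℕ} {Wo : List α → Prop} (hW : LW n W Wo) {z0 c : ℕ} {P Q : List α}
    (hz : c + P.length + n ≤ z0) {t : ℕ} :
    IsT Wo z0 (c + P.length) Q t ↔ IsT Wo z0 c (P ++ Q) (P.length + t) := by
  have tk : ∀ s, (P ++ Q).take (P.length + s) = P ++ Q.take s := fun s => by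
    rw [List.take_length_add_append]
  constructor
  · rintro ⟨h1, h2, h3, h4, h5⟩
    refine ⟨by omega, by rw [List.length_append]; omega, ?_, ?_, ?_⟩
    · rw [tk]
      exact (hW.app P _ (by rw [List.length_take]; omega)).2 h3
    · exact (hW.app P Q (by omega)).2 h4
    · intro s g1 g2 g3
      rw [List.length_append] at g2
      obtain ⟨s', rfl⟩ : ∃ s', s = P.length + s' := ⟨s - P.length, by omega⟩
      rw [tk] at g3
      have := h5 s' (by omega) (by omega)
        ((hW.app P _ (by rw [List.length_take]; omega)).1 g3)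
      omega
  · rintro ⟨h1, h2, h3, h4, h5⟩
    rw [List.length_append] at h2
    rw [tk] at h3
    refine ⟨by omega, by omega, ?_, ?_, ?_⟩
    · exact (hW.app P _ (by rw [List.length_take]; omega)).1 h3
    · exact (hW.app P Q (by omega)).1 h4
    · intro s g1 g2 g3
      have := h5 (P.length + s) (by omega) (by rw [List.length_append]; omega) (by
        rw [tk]
        exact (hW.app P _ (by rw [List.length_take]; omega)).2 g3)
      omega

/-- gadget of scheme A on words -/
structure Gad {S : Type u} [Monoid S] (ph : List α → S) (N : ℕ) (Bd : ℕ → Prop) where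
  lam : List α → Option (Tok S)
  rho : List α → Option (Tok S)
  nu : List α → Tok S
  len : ∀ p v, lam p = some v → p.length ≤ N
  sound : ∀ p q v b, lam p = some v → rho q = some b → b = act v (ph (p ++ q)) + nu (p ++ q)
  compl : ∀ w : List α, 2 * N ≤ w.length → ¬ Bd w.length → ∀ v,
    ∃ p q, p ++ q = w ∧ lam p = some v ∧ (rho q).isSome

section A

variable {S : Type u} [Monoid S] {ph : List α → S} {N : ℕ} {Bd : ℕ → Prop}

/-- right parts of scheme A, with the token behind the zone -/
def RA (G : Gad ph N Bd) (Wo : List α → Prop) (z0 p0 : ℕ) (τ : Tok S) : Language α :=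
  {Q | ∃ t b, z0 ≤ t + p0 ∧ t < Q.length ∧ Wo (Q.take t) ∧ Wo Q ∧
    (∀ s, z0 ≤ s + p0 + N → s < Q.length → Wo (Q.take s) → s = t) ∧
    G.rho (Q.take t) = some b ∧ τ = act b (ph (Q.drop t))}

/-- left parts of scheme A -/
def LA (G : Gad ph N Bd) (p0 : ℕ) (v : Tok S) : Language α :=
  {P | ∃ X p, P = X ++ p ∧ X.length = p0 ∧ G.lam p = some (act v (ph X))}

open Classical in
/-- noise of a zone, read on the zone without its first `p0` letters -/
noncomputable def dY (G : Gad ph N Bd) (Wo : List α → Prop) (z0 p0 : ℕ) (Y : List α) : Tok S :=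
  if h : ∃ t, IsT Wo z0 p0 Y t then act (G.nu (Y.take h.choose)) (ph (Y.drop h.choose)) else 0

theorem dY_eq (G : Gad ph N Bd) {Wo : List α → Prop} {z0 p0 : ℕ} {Y : List α} {t : ℕ}
    (h : IsT Wo z0 p0 Y t) : dY G Wo z0 p0 Y = act (G.nu (Y.take t)) (ph (Y.drop t)) := by
  unfold dY
  have h' : ∃ t, IsT Wo z0 p0 Y t := ⟨t, h⟩
  rw [dif_pos h']
  have : h'.choose = t := h'.choose_spec.unique h
  rw [this]

noncomputable def dA (G : Gad ph N Bd) (Wo : List α → Prop) (z0 p0 : ℕ) (z : List α) : Tok S :=
  dY G Wo z0 p0 (z.drop p0)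

theorem psiA (G : Gad ph N Bd) (hm : ∀ a b, ph (a ++ b) = ph a * ph b) {Wo : List α → Prop}
    {z0 p0 : ℕ} (X Y : List α) (hX : X.length = p0) (v : Tok S) :
    aff ph (dA G Wo z0 p0) (X ++ Y) v = act (act v (ph X)) (ph Y) + dY G Wo z0 p0 Y := by
  unfold aff dA
  rw [hm, ← act_mul, List.drop_left' hX]

theorem soundA {n W : ℕ} {Wo : List α → Prop} (hW : LW n W Wo) (G : Gad ph N Bd)
    (hm : ∀ a b, ph (a ++ b) = ph a * ph b) {z0 p0 : ℕ} (hp0 : 0 < p0)
    (hz : n + p0 + N ≤ z0) :
    Sound (Zn Wo z0) (aff ph (dA G Wo z0 p0)) (LA G p0) (RA G Wo z0 p0) := by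
  refine ⟨?_, ?_⟩
  · rintro ω ⟨X, p, h1, h2, -⟩
    have := congrArg List.length h1
    rw [List.length_append, List.length_nil] at this
    omega
  · rintro ω τ P Q z x y ⟨X, p, rfl, hX, hlam⟩ ⟨t, b, h1, h2, h3, h4, h5, h6, rfl⟩ hz1 he
    have hpN := G.len p _ hlam
    have hT : IsT Wo z0 (0 + (X ++ p).length) Q t := by
      rw [List.length_append, hX]
      refine ⟨by omega, h2, h3, h4, ?_⟩
      intro s g1 g2 g3
      exact h5 s (by omega) g2 g3
    have hT2 := (IsT.shift hW (c := 0) (P := X ++ p) (Q := Q) (by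
      rw [List.length_append, hX]; omega)).1 hT
    have hmem : (X ++ p) ++ Q ∈ Zn Wo z0 := ⟨_, hT2⟩
    have hzeq : (X ++ p) ++ Q = z := (code Wo z0).2 _ _ x y hmem hz1 he
    refine ⟨hzeq, ?_⟩
    rw [← hzeq, List.append_assoc, psiA G hm X (p ++ Q) hX]
    have hTY : IsT Wo z0 p0 (p ++ Q) (p.length + t) := by
      have := (IsT.shift hW (z0 := z0) (c := 0) (P := X) (Q := p ++ Q) (t := p.length + t) (by
        omega)).2 (by
        rw [← List.append_assoc]
        have e : X.length + (p.length + t) = (X ++ p).length + t := by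
          rw [List.length_append]; omega
        rw [e]; exact hT2)
      rw [Nat.zero_add, hX] at this
      exact this
    rw [dY_eq G hTY]
    have e1 : (p ++ Q).take (p.length + t) = p ++ Q.take t := by
      rw [List.take_length_add_append]
    have e2 : (p ++ Q).drop (p.length + t) = Q.drop t := by
      rw [List.drop_length_add_append]
    rw [e1, e2, G.sound p (Q.take t) _ b hlam h6, act_add, act_mul, act_mul, act_mul, ← hm]
    congr 2
    rw [List.append_assoc, List.take_append_drop]

/-- mode (E): a wall within `N` of `z0` -/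
def EE (Wo : List α → Prop) (z0 N c : ℕ) (X : List α) : Prop :=
  ∃ s, z0 ≤ s + c + N ∧ s + c < z0 + N ∧ s ≤ X.length ∧ Wo (X.take s)

/-- zones on which scheme A may be incomplete -/
def Zc (Wo : List α → Prop) (z0 p0 N : ℕ) (Bd : ℕ → Prop) : Language α :=
  {z | ∃ t, IsT Wo z0 0 z t ∧ (EE Wo z0 N 0 z ∨ Bd (t - p0))}

theorem complA {n W : ℕ} {Wo : List α → Prop} (hW : LW n W Wo) (G : Gad ph N Bd)
    {z0 p0 : ℕ} (hz : n + p0 + 2 * N ≤ z0) (z : List α) (hz1 : z ∈ Zn Wo z0)
    (hz2 : z ∉ Zc Wo z0 p0 N Bd) (v : Tok S) : Cut (LA G p0) (RA G Wo z0 p0) v z := by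
  obtain ⟨t, ht⟩ := hz1
  have hnE : ¬ EE Wo z0 N 0 z := fun h => hz2 ⟨t, ht, Or.inl h⟩
  have hnB : ¬ Bd (t - p0) := fun h => hz2 ⟨t, ht, Or.inr h⟩
  obtain ⟨h1, h2, h3, h4, h5⟩ := ht
  have htN : z0 + N ≤ t := by
    by_contra hlt
    exact hnE ⟨t, by omega, by omega, h2.le, h3⟩
  have hul : ((z.drop p0).take (t - p0)).length = t - p0 := by
    rw [List.length_take, List.length_drop]; omega
  obtain ⟨p, q, hpq, hp, hq⟩ := G.compl ((z.drop p0).take (t - p0)) (by rw [hul]; omega)
    (by rw [hul]; exact hnB) (act v (ph (z.take p0)))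
  obtain ⟨b, hb⟩ := Option.isSome_iff_exists.1 hq
  have hpN := G.len p _ hp
  have hlen : p.length + q.length = t - p0 := by
    rw [← List.length_append, hpq, hul]
  have hzt : z.take t = (z.take p0 ++ p) ++ q := by
    rw [List.append_assoc, hpq]
    have e : t = p0 + (t - p0) := by omega
    conv_lhs => rw [e, List.take_add]
  have hzz : z = (z.take p0 ++ p) ++ (q ++ z.drop t) := by
    rw [← List.append_assoc, ← hzt, List.take_append_drop]
  have hPl : (z.take p0 ++ p).length = p0 + p.length := by
    rw [List.length_append, List.length_take]; omega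
  have hzl : z.length = (p0 + p.length) + (q ++ z.drop t).length := by
    conv_lhs => rw [hzz]
    rw [List.length_append, hPl]
  refine ⟨z.take p0 ++ p, q ++ z.drop t, act b (ph (z.drop t)), hzz,
    ⟨z.take p0, p, rfl, by rw [List.length_take]; omega, hp⟩, ?_⟩
  refine ⟨q.length, b, by omega, by omega, ?_, ?_, ?_, ?_, ?_⟩
  · rw [List.take_left' rfl]
    rw [hzt] at h3
    exact (hW.app _ q (by omega)).1 h3
  · rw [hzz] at h4
    exact (hW.app _ _ (by rw [List.length_append]; omega)).1 h4
  · intro s g1 g2 g3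
    have hw : Wo (z.take (p0 + p.length + s)) := by
      have e : z.take (p0 + p.length + s) = (z.take p0 ++ p) ++ (q ++ z.drop t).take s := by
        conv_lhs => rw [hzz, ← hPl]
        rw [List.take_length_add_append]
      rw [e]
      exact (hW.app _ _ (by rw [List.length_take]; omega)).2 g3
    have hge : z0 + N ≤ p0 + p.length + s := by
      by_contra hlt
      exact hnE ⟨p0 + p.length + s, by omega, by omega, by omega, hw⟩
    have := h5 (p0 + p.length + s) (by omega) (by omega) hw
    omega
  · rw [List.take_left' rfl]; exact hb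
  · rw [List.drop_left' rfl]

end A

end Crest.Agent.R320.InstA_526
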