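import Crest.Agent.R320.Ruler2_537
import Crest.Agent.R320.Ruler_265

/-!
Row 320: view lemmas (badness and next anchor are read on a window of the text), and the ruler of
265 in the form of 537's `Ruler2`.
-/

set_option autoImplicit false

namespace Crest.Agent.R320.InstA_533

open Crest.Agent.R320.ThrChain260 Crest.Agent.R320.Ruler2_537

variable {P : Par}

theorem qual_view {Wl Wl' : ℤ → Prop} {a U t : ℤ} (hz : P.p0 + P.S ≤ P.z)
    (h : ∀ t, P.p0 ≤ t → t ≤ U → (Wl' t ↔ Wl (t + a))) (ht : t ≤ U) :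
    Qual P Wl' 0 t ↔ Qual P Wl a (t + a) := by
  have e1 : t + a - a - P.z = t - 0 - P.z := by ring
  have hN := P.hN
  constructor
  · intro hq
    have h1 := qual_ge hq
    refine ⟨(h t (by linarith) ht).1 hq.1, ?_⟩
    rw [e1]; exact hq.2
  · intro hq
    have h1 := qual_ge hq
    refine ⟨(h t (by linarith) ht).2 hq.1, ?_⟩
    rw [← e1]; exact hq.2

theorem isN_view {Wl Wl' : ℤ → Prop} {a U : ℤ} (hz : P.p0 + P.S ≤ P.z)
    (h : ∀ t, P.p0 ≤ t → t ≤ U → (Wl' t ↔ Wl (t + a)))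
    (hex : ∃ t, P.z + P.S ≤ t ∧ t ≤ U ∧ Wl (t + a)) (b : ℤ) :
    IsN P Wl' 0 b ↔ IsN P Wl a (b + a) := by
  obtain ⟨u, hu1, hu2, hu3⟩ := hex
  have hN := P.hN
  have hqu : Qual P Wl a (u + a) := qual_of_ge hu3 (by linarith)
  have hqu' : Qual P Wl' 0 u := (qual_view hz h hu2).2 hqu
  constructor
  · intro hb
    have hbu : b ≤ u := by
      by_contra hc
      exact hb.2 u (not_le.mp hc) hqu'
    refine ⟨(qual_view hz h (by linarith)).1 hb.1, fun t' ht' hq => ?_⟩
    have h2 : Qual P Wl' 0 (t' - a) := by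
      apply (qual_view hz h (by linarith)).2
      rw [show t' - a + a = t' by ring]; exact hq
    exact hb.2 (t' - a) (by linarith) h2
  · intro hb
    have hbu : b ≤ u := by
      by_contra hc
      exact hb.2 (u + a) (by linarith [not_le.mp hc]) hqu
    refine ⟨(qual_view hz h (by linarith)).2 hb.1, fun t' ht' hq => ?_⟩
    exact hb.2 (t' + a) (by linarith) ((qual_view hz h (by linarith)).1 hq)

theorem E_view {Wl Wl' : ℤ → Prop} {a U : ℤ} (hz : P.p0 + P.S ≤ P.z) (hU : P.z + P.S ≤ U)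
    (h : ∀ t, P.p0 ≤ t → t ≤ U → (Wl' t ↔ Wl (t + a))) : E P Wl' 0 ↔ E P Wl a := by
  have hN := P.hN
  constructor
  · rintro ⟨t, ht, h1⟩
    have h2 := abs_le.mp h1
    have h3 := s_ge (P := P) ((t - 0 - P.z) % P.M)
    have h4 := s_le (P := P) ((t - 0 - P.z) % P.M)
    refine ⟨t + a, (h t (by linarith [h2.1]) (by linarith [h2.2])).1 ht, ?_⟩
    rw [show t + a - a - P.z = t - 0 - P.z by ring]
    exact h1
  · rintro ⟨t, ht, h1⟩
    have h2 := abs_le.mp h1
    have h3 := s_ge (P := P) ((t - a - P.z) % P.M)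
    have h4 := s_le (P := P) ((t - a - P.z) % P.M)
    refine ⟨t - a, (h (t - a) (by linarith [h2.1]) (by linarith [h2.2])).2 (by
      rw [show t - a + a = t by ring]; exact ht), ?_⟩
    rw [show t - a - 0 - P.z = t - a - P.z by ring]
    exact h1

theorem bad_view {Wl Ws Wl' Ws' : ℤ → Prop} {a U : ℤ} {lev : ℕ → ℤ} {D : ℤ} {K : ℕ}
    {m : ℕ → ℤ} {r : ℕ} (hz : P.p0 + P.S ≤ P.z) (hU : P.z + P.S ≤ U)
    (hlev : ∀ k < K, P.p0 + D ≤ lev k ∧ lev k + D ≤ U)
    (h : ∀ t, P.p0 ≤ t → t ≤ U → (Wl' t ↔ Wl (t + a)))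
    (hs : ∀ t, P.p0 ≤ t → t ≤ U → (Ws' t ↔ Ws (t + a)))
    (hex : ∃ t, P.z + P.S ≤ t ∧ t ≤ U ∧ Wl (t + a)) :
    Bad P Wl' Ws' lev D K m r 0 ↔ Bad P Wl Ws lev D K m r a := by
  unfold Bad
  rw [E_view hz hU h]
  refine or_congr Iff.rfl (or_congr ?_ ?_)
  · refine exists_congr fun k => and_congr_right fun hk => ?_
    obtain ⟨l1, l2⟩ := hlev k hk
    constructor
    · rintro ⟨u, hu, h1⟩
      have h2 := abs_le.mp h1
      refine ⟨u + a, (hs u (by linarith [h2.1]) (by linarith [h2.2])).1 hu, ?_⟩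
      rw [show u + a - a - lev k = u - 0 - lev k by ring]
      exact h1
    · rintro ⟨u, hu, h1⟩
      have h2 := abs_le.mp h1
      refine ⟨u - a, (hs (u - a) (by linarith [h2.1]) (by linarith [h2.2])).2 (by
        rw [show u - a + a = u by ring]; exact hu), ?_⟩
      rw [show u - a - 0 - lev k = u - a - lev k by ring]
      exact h1
  · refine exists_congr fun i => and_congr_right fun _ => ?_
    constructor
    · rintro ⟨b, hb, h1⟩
      refine ⟨b + a, (isN_view hz h hex b).1 hb, ?_⟩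
      rw [show b + a - a - P.p0 = b - 0 - P.p0 by ring]
      exact h1
    · rintro ⟨b, hb, h1⟩
      refine ⟨b - a, (isN_view hz h hex (b - a)).2 (by
        rw [show b - a + a = b by ring]; exact hb), ?_⟩
      rw [show b - a - 0 - P.p0 = b - a - P.p0 by ring]
      exact h1

/-- The parameters' thresholds. -/
theorem exists_thr (M N1 L : ℤ) (hM : 0 < M) (hN : 0 ≤ N1) (hL : 0 ≤ L) :
    ∃ (S : ℤ) (s : ℤ → ℤ), 0 ≤ S ∧ (∀ r, |s r| ≤ S - N1) ∧
      (∀ r r' : ℤ, 0 ≤ r → r < M → 0 ≤ r' → r' < M → r ≠ r' → 2 * (N1 + L) < |s r - s r'|) := by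
  refine ⟨(2 * (N1 + L) + 1) * M + N1, fun r => (2 * (N1 + L) + 1) * (r % M), ?_, ?_, ?_⟩
  · have : 0 ≤ (2 * (N1 + L) + 1) * M := mul_nonneg (by linarith) hM.le
    linarith
  · intro r
    have h1 := Int.emod_nonneg r hM.ne'
    have h2 := Int.emod_lt_of_pos r hM
    rw [abs_of_nonneg (mul_nonneg (by linarith) h1)]
    have : (2 * (N1 + L) + 1) * (r % M) ≤ (2 * (N1 + L) + 1) * M :=
      mul_le_mul_of_nonneg_left h2.le (by linarith)
    linarith
  · intro r r' h1 h2 h3 h4 hne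
    show 2 * (N1 + L) < |(2 * (N1 + L) + 1) * (r % M) - (2 * (N1 + L) + 1) * (r' % M)|
    rw [Int.emod_eq_of_lt h1 h2, Int.emod_eq_of_lt h3 h4, ← mul_sub, abs_mul,
      abs_of_nonneg (by linarith : (0:ℤ) ≤ 2 * (N1 + L) + 1)]
    have h5 : 1 ≤ |r - r'| := Int.one_le_abs (sub_ne_zero.2 hne)
    have : (2 * (N1 + L) + 1) * 1 ≤ (2 * (N1 + L) + 1) * |r - r'| :=
      mul_le_mul_of_nonneg_left h5 (by linarith)
    linarith

/-- The ruler, as a function on `ℕ`, shift included. -/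
theorem exists_ruler2 (K : ℕ) (M D : ℤ) (hM : (2:ℤ)^(K+1) ≤ M) (hD : 0 ≤ D)
    (r : ℕ) (m : ℕ → ℤ) (hm : ∀ i < r, (2:ℤ)^(K+2) + 1 ≤ m i) :
    ∃ (c : ℕ → ℕ) (L : ℕ), (∀ i j, i < j → j < K → c i < c j) ∧ (∀ k < K, c k ≤ L) ∧
      ∀ (P : Par) (q0 : ℕ), P.M = M → P.L = (L : ℤ) →
        Ruler2 P D m r ((Finset.range K).image fun k => ((q0 + c k : ℕ) : ℤ)) := by
  classical
  obtain ⟨c0, hmono, hpos, hnz, hgol, hmod, hres, hfar⟩ := Ruler265.exists_ruler K M (2 * D) hM
    (by linarith) ((Finset.range r).image m) (by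
      intro x hx
      obtain ⟨i, hi, rfl⟩ := Finset.mem_image.1 hx
      exact hm i (Finset.mem_range.1 hi))
  let c : ℕ → ℕ := fun k => if h : k < K then (c0 ⟨k, h⟩).toNat else 0
  have hc : ∀ k (h : k < K), ((c k : ℕ) : ℤ) = c0 ⟨k, h⟩ := by
    intro k h
    simp only [c, dif_pos h]
    exact Int.toNat_of_nonneg (by have := hpos ⟨k, h⟩; linarith)
  refine ⟨c, ∑ k ∈ Finset.range K, c k, ?_, ?_, ?_⟩
  · intro i j hij hj
    have h1 : c0 ⟨i, by omega⟩ < c0 ⟨j, hj⟩ := hmono (by simpa using hij)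
    rw [← hc i (by omega), ← hc j hj] at h1
    exact_mod_cast h1
  · intro k hk
    exact Finset.single_le_sum (f := c) (fun _ _ => Nat.zero_le _) (Finset.mem_range.2 hk)
  · intro P q0 hPM hPL
    have hle : ∀ k < K, c k ≤ ∑ k ∈ Finset.range K, c k := fun k hk =>
      Finset.single_le_sum (f := c) (fun _ _ => Nat.zero_le _) (Finset.mem_range.2 hk)
    have hM0 : 0 < M := lt_of_lt_of_le (by positivity) hM
    have key : ∀ x ∈ (Finset.range K).image (fun k => ((q0 + c k : ℕ) : ℤ)),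
        ∃ k : Fin K, x = q0 + c0 k ∧ (c0 k : ℤ) ≤ ((∑ k ∈ Finset.range K, c k : ℕ) : ℤ) ∧
          0 ≤ c0 k := by
      intro x hx
      obtain ⟨k, hk, rfl⟩ := Finset.mem_image.1 hx
      have hk' := Finset.mem_range.1 hk
      refine ⟨⟨k, hk'⟩, ?_, ?_, ?_⟩
      · rw [← hc k hk']; push_cast; ring
      · rw [← hc k hk']; exact_mod_cast hle k hk'
      · rw [← hc k hk']; positivity
    refine ⟨⟨?_, ?_, ?_⟩, ?_, ?_⟩
    · intro x hx y hy
      obtain ⟨i, rfl, hi, hi'⟩ := key x hx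
      obtain ⟨j, rfl, hj, hj'⟩ := key y hy
      rw [hPL, abs_le]
      constructor <;> linarith
    · intro x hx y hy hne
      obtain ⟨i, rfl, hi⟩ := key x hx
      obtain ⟨j, rfl, hj⟩ := key y hy
      rw [hPM, show (q0:ℤ) + c0 i - (q0 + c0 j) = c0 i - c0 j by ring]
      exact hnz i j (fun h => hne (by rw [h]))
    · intro x hx y hy x' hx' y' hy' hne hne' hd
      obtain ⟨i, rfl, hi⟩ := key x hx
      obtain ⟨j, rfl, hj⟩ := key y hy
      obtain ⟨i', rfl, hi'⟩ := key x' hx'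
      obtain ⟨j', rfl, hj'⟩ := key y' hy'
      rw [hPM, show (q0:ℤ) + c0 i - (q0 + c0 j) - (q0 + c0 i' - (q0 + c0 j')) =
        (c0 i - c0 j) - (c0 i' - c0 j') by ring] at hd
      obtain ⟨rfl, rfl⟩ := hgol i j i' j' (fun h => hne (by rw [h])) hd
      exact ⟨rfl, rfl⟩
    · intro x hx y hy x' hx' y' hy' hne hne' hd
      obtain ⟨i, rfl, hi⟩ := key x hx
      obtain ⟨j, rfl, hj⟩ := key y hy
      obtain ⟨i', rfl, hi'⟩ := key x' hx'
      obtain ⟨j', rfl, hj'⟩ := key y' hy'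
      rw [show (q0:ℤ) + c0 i - (q0 + c0 j) - (q0 + c0 i' - (q0 + c0 j')) =
        (c0 i - c0 j) - (c0 i' - c0 j') by ring] at hd
      obtain ⟨rfl, rfl⟩ := hres (c0 i - c0 j) i j i' j' (fun h => hne (by rw [h]))
        (by rw [sub_self, abs_zero]; linarith) hd
      exact ⟨rfl, rfl⟩
    · intro l hl x hx y hy x' hx' y' hy' hne hne' t hd
      obtain ⟨i, rfl, hi⟩ := key x hx
      obtain ⟨j, rfl, hj⟩ := key y hy
      obtain ⟨i', rfl, hi'⟩ := key x' hx'
      obtain ⟨j', rfl, hj'⟩ := key y' hy'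
      rw [hPM, show (q0:ℤ) + c0 i - (q0 + c0 j) - (q0 + c0 i' - (q0 + c0 j')) =
        (c0 i - c0 j) - (c0 i' - c0 j') by ring] at hd
      have hml : 1 ≤ m l := by
        have := hm l hl
        have h2 : (0:ℤ) < 2^(K+2) := by positivity
        linarith
      have hmM : M ≤ m l * M := by nlinarith
      have hmem : m l ∈ (Finset.range r).image m :=
        Finset.mem_image.2 ⟨l, Finset.mem_range.2 hl, rfl⟩
      have hij : i ≠ j := fun h => hne (by rw [h])
      have h1 := abs_lt.mp hd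
      have : i = i' ∧ j = j' := by
        rcases le_or_gt 0 ((c0 i - c0 j) - (c0 i' - c0 j') - t * (m l * M)) with hs | hs
        · refine hmod (m l) hmem (c0 i - c0 j) i j i' j' hij ?_ ?_
          · rw [sub_self, Int.zero_emod]; exact hM0
          · have e : (c0 i - c0 j) - (c0 i' - c0 j') =
                ((c0 i - c0 j) - (c0 i' - c0 j') - t * (m l * M)) + (m l * M) * t := by ring
            rw [e, Int.add_mul_emod_self_left, Int.emod_eq_of_lt hs (by linarith [h1.2])]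
            exact h1.2
        · refine hmod (m l) hmem
            ((c0 i - c0 j) - ((c0 i - c0 j) - (c0 i' - c0 j') - t * (m l * M))) i j i' j' hij ?_ ?_
          · have e : (c0 i - c0 j) - ((c0 i - c0 j) - (c0 i' - c0 j') - t * (m l * M)) -
                (c0 i - c0 j) = -((c0 i - c0 j) - (c0 i' - c0 j') - t * (m l * M)) := by ring
            rw [e, Int.emod_eq_of_lt (by linarith) (by linarith [h1.1])]
            linarith [h1.1]
          · have e : (c0 i - c0 j) - ((c0 i - c0 j) - (c0 i' - c0 j') - t * (m l * M)) -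
                (c0 i' - c0 j') = 0 + (m l * M) * t := by ring
            rw [e, Int.add_mul_emod_self_left, Int.zero_emod]
            exact hM0
      obtain ⟨rfl, rfl⟩ := this
      exact ⟨rfl, rfl⟩

end Crest.Agent.R320.InstA_533
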