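import Crest.Agent.R320.Top_180

/-!
# Row 320: concrete blocks (natural chain rule, second wall) and the two schemes on them (helper547)
-/

set_option autoImplicit false
set_option linter.unusedSectionVars false

namespace Crest.Agent.R320.Inst_547

open Crest.Agent.R320.Half1_180

universe u
variable {α : Type u}

/-- first wall of `X` at a place `≥ z` -/
def FW (Wo : List α → Prop) (z : ℕ) (X : List α) (t : ℕ) : Prop :=
  z ≤ t ∧ t ≤ X.length ∧ Wo (X.take t) ∧ ∀ s, z ≤ s → s < t → ¬ Wo (X.take s)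

theorem FW.unique {Wo : List α → Prop} {z : ℕ} {X : List α} {t t' : ℕ} (h : FW Wo z X t)
    (h' : FW Wo z X t') : t = t' := by
  rcases lt_trichotomy t t' with hl | rfl | hl
  · exact absurd h.2.2.1 (h'.2.2.2 t h.1 hl)
  · rfl
  · exact absurd h'.2.2.1 (h.2.2.2 t' h'.1 hl)

theorem FW.pre {Wo : List α → Prop} {z : ℕ} {X R : List α} {t : ℕ} (h : FW Wo z X t) :
    FW Wo z (X ++ R) t := by
  obtain ⟨h1, h2, h3, h4⟩ := h
  refine ⟨h1, by rw [List.length_append]; omega, ?_, ?_⟩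
  · rw [List.take_append_of_le_length h2]; exact h3
  · intro s hs hst
    rw [List.take_append_of_le_length (by omega)]; exact h4 s hs hst

theorem FW.res {Wo : List α → Prop} {z : ℕ} {X R : List α} {t : ℕ} (h : FW Wo z (X ++ R) t)
    (ht : t ≤ X.length) : FW Wo z X t := by
  obtain ⟨h1, h2, h3, h4⟩ := h
  rw [List.take_append_of_le_length ht] at h3
  refine ⟨h1, ht, h3, ?_⟩
  intro s hs hst
  have := h4 s hs hst
  rwa [List.take_append_of_le_length (by omega)] at this

theorem exists_FW {Wo : List α → Prop} {z : ℕ} {X : List α} {s : ℕ} (h1 : z ≤ s)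
    (h2 : s ≤ X.length) (h3 : Wo (X.take s)) : ∃ t, FW Wo z X t ∧ t ≤ s := by
  classical
  have h : ∃ t, z ≤ t ∧ Wo (X.take t) := ⟨s, h1, h3⟩
  have hm : Nat.find h ≤ s := Nat.find_min' h ⟨h1, h3⟩
  refine ⟨Nat.find h, ⟨(Nat.find_spec h).1, by omega, (Nat.find_spec h).2, ?_⟩, hm⟩
  intro t ht htf hW
  exact Nat.find_min h htf ⟨ht, hW⟩

structure Walls (Wo : List α → Prop) (n W : ℕ) : Prop where
  loc : ∀ P Q : List α, n ≤ Q.length → (Wo (P ++ Q) ↔ Wo Q)
  gap : ∀ (X : List α) (s t : ℕ), s < t → t ≤ X.length → Wo (X.take s) → Wo (X.take t) → W < t - s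

theorem Walls.shift {Wo : List α → Prop} {n W : ℕ} (h : Walls Wo n W) (P Q : List α) (s : ℕ)
    (hs : n ≤ s) (hs' : s ≤ Q.length) : Wo ((P ++ Q).take (P.length + s)) ↔ Wo (Q.take s) := by
  rw [List.take_length_add_append]
  exact h.loc P _ (by rw [List.length_take]; omega)

theorem Walls.fw {Wo : List α → Prop} {n W : ℕ} (h : Walls Wo n W) {P Q : List α} {z t : ℕ}
    (hz : P.length + n ≤ z) : FW Wo z (P ++ Q) (P.length + t) ↔ FW Wo (z - P.length) Q t := by
  constructor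
  · rintro ⟨h1, h2, h3, h4⟩
    rw [List.length_append] at h2
    refine ⟨by omega, by omega, (h.shift P Q t (by omega) (by omega)).1 h3, ?_⟩
    intro s hs hst hw
    exact h4 (P.length + s) (by omega) (by omega) ((h.shift P Q s (by omega) (by omega)).2 hw)
  · rintro ⟨h1, h2, h3, h4⟩
    refine ⟨by omega, by rw [List.length_append]; omega,
      (h.shift P Q t (by omega) (by omega)).2 h3, ?_⟩
    intro s hs hst hw
    obtain ⟨s', rfl⟩ : ∃ s', s = P.length + s' := ⟨s - P.length, by omega⟩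
    exact h4 s' (by omega) (by omega) ((h.shift P Q s' (by omega) (by omega)).1 hw)

/-- blocks: first wall at a place `≥ z`, and up to the next wall -/
def XX (Wo : List α → Prop) (z : ℕ) : Set (List α) :=
  {X | ∃ t, FW Wo z X t ∧ FW Wo (t + 1) X X.length}

theorem XX_PF (Wo : List α → Prop) (z : ℕ) : PF (XX Wo z) := by
  constructor
  · rintro X ⟨t, h1, h2⟩ rfl
    have := h2.1
    simp at this
  · rintro X ⟨t, h1, h2⟩ Y ⟨t', h1', h2'⟩ ⟨R, rfl⟩
    have e : t = t' := (h1.pre (R := R)).unique h1'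
    subst e
    have e2 := (h2.pre (R := R)).unique h2'
    rw [List.length_append] at e2
    have : R = [] := List.eq_nil_of_length_eq_zero (by omega)
    rw [this, List.append_nil]

open Classical in
/-- the first wall of a block at a place `≥ z` -/
noncomputable def tw (Wo : List α → Prop) (z : ℕ) (X : List α) : ℕ :=
  if h : ∃ t, FW Wo z X t then h.choose else 0

theorem tw_eq {Wo : List α → Prop} {z : ℕ} {X : List α} {t : ℕ} (h : FW Wo z X t) :
    tw Wo z X = t := by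
  have h' : ∃ t, FW Wo z X t := ⟨t, h⟩
  rw [tw, dif_pos h']
  exact h'.choose_spec.unique h

variable {S V : Type*} [Monoid S] [AddCommGroup V]

/-- product of the letters -/
def pr (f : α → S) (X : List α) : S := (X.map f).prod

theorem pr_append (f : α → S) (X Y : List α) : pr f (X ++ Y) = pr f X * pr f Y := by
  simp [pr]

/-- the data of the two schemes -/
structure Dat (α : Type u) (S V : Type*) where
  f : α → S
  act : V → S → V
  Wo : List α → Prop
  (n W z p0 N1 La K C0 : ℕ)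
  c : ℕ → ℕ
  BadT : ℕ → Prop
  (lam rho : List α → Option V)
  nu1 : List α → V
  (lam2 rho2 : ℕ → List α → Option V)
  nu2 : List α → V

variable (D : Dat α S V)

/-- the zone map with the first wall `t` -/
def Dat.TT (t : ℕ) (X : List α) (v : V) : V :=
  D.act (D.act (D.act v (pr D.f (X.take D.p0)) + D.nu2 (X.take D.p0))
    (pr D.f ((X.take t).drop D.p0)) + D.nu1 ((X.take t).drop D.p0)) (pr D.f (X.drop t))

noncomputable def Dat.T (X : List α) (v : V) : V := D.TT (tw D.Wo D.z X) X v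

/-- bad blocks -/
def Dat.EB (X : List α) : Prop :=
  ∃ t, FW D.Wo D.z X t ∧ ((∃ s, D.z - D.N1 ≤ s ∧ s < D.z + D.N1 ∧ s ≤ X.length ∧
    D.Wo (X.take s)) ∨ D.BadT (t - D.p0))

def Dat.Bad : Set (List α) := {X | X ∈ XX D.Wo D.z ∧ D.EB X}
def Dat.Good : Set (List α) := {X | X ∈ XX D.Wo D.z ∧ ¬ D.EB X}

theorem Dat.XX_eq : XX D.Wo D.z = D.Good ∪ D.Bad := by
  classical
  ext X
  constructor
  · intro h
    by_cases h' : D.EB X
    · exact Or.inr ⟨h, h'⟩
    · exact Or.inl ⟨h, h'⟩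
  · rintro (h | h) <;> exact h.1

def Dat.LP1 (v : V) : Language α :=
  {P | ∃ P1 P2, P = P1 ++ P2 ∧ P1.length = D.p0 ∧
    D.lam P2 = some (D.act v (pr D.f P1) + D.nu2 P1)}

def Dat.RQ1 (v' : V) : Language α :=
  {Q | ∃ t, D.z - D.p0 ≤ t ∧ FW D.Wo (D.z - D.p0 - D.N1) Q t ∧ FW D.Wo (t + 1) Q Q.length ∧
    ∃ r, D.rho (Q.take t) = some r ∧ v' = D.act r (pr D.f (Q.drop t))}

/-- the candidate `k` (anchor `c k` letters before `Q`) is bad -/
def Dat.bad (Q : List α) (k : ℕ) : Prop :=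
  ∃ t, FW D.Wo (D.z - D.c k) Q t ∧ ((∃ s, D.z - D.c k - D.N1 ≤ s ∧ s < D.z - D.c k + D.N1 ∧
    s ≤ Q.length ∧ D.Wo (Q.take s)) ∨ D.BadT (t + D.c k - D.p0))

def Dat.LP2 (v : V) : Language α :=
  {P | ∃ k < D.K, P.length = D.c k ∧ D.lam2 k P = some v}

def Dat.RQ2' (v' : V) : Language α :=
  {Q | ∃ k < D.K, (D.bad Q k ∧ ∀ k' < D.K, D.bad Q k' → k' = k) ∧
    ∃ t, FW D.Wo (D.z - D.c k) Q t ∧ FW D.Wo (t + 1) Q Q.length ∧
    ∃ b, D.rho2 k (Q.take (D.p0 - D.c k)) = some b ∧
      v' = D.act (D.act b (pr D.f ((Q.take t).drop (D.p0 - D.c k))) +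
        D.nu1 ((Q.take t).drop (D.p0 - D.c k))) (pr D.f (Q.drop t))}

def Dat.RQ2 (v'' : V) : Language α :=
  {Q | ∃ v' Q1 Y, Q = Q1 ++ Y ∧ Q1 ∈ D.RQ2' v' ∧ Y ∈ D.Bad ∧ D.T Y v' = v''}

structure Dat.Ok : Prop where
  walls : Walls D.Wo D.n D.W
  hW : 2 * D.p0 + 2 * D.N1 < D.W
  hz : 2 * D.p0 + D.N1 + D.La + D.n < D.z
  act_add : ∀ v w s, D.act (v + w) s = D.act v s + D.act w s
  act_one : ∀ v, D.act v 1 = v
  act_mul : ∀ v s s', D.act (D.act v s) s' = D.act v (s * s')
  c_lt : ∀ k < D.K, D.c k < D.p0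
  g1 : ∀ P v, D.lam P = some v → P.length ≤ D.N1
  g2 : ∀ P Q v r, D.lam P = some v → D.rho Q = some r → D.La ≤ Q.length →
    r = D.act v (pr D.f (P ++ Q)) + D.nu1 (P ++ Q)
  g3 : ∀ u : List α, D.La ≤ u.length → ¬ D.BadT u.length → ∀ v, ∃ P Q, P ++ Q = u ∧
    D.lam P = some v ∧ (D.rho Q).isSome
  e1 : ∀ k < D.K, ∀ P Q v b, P.length = D.c k → (P ++ Q).length = D.p0 → D.lam2 k P = some v →
    D.rho2 k Q = some b → b = D.act v (pr D.f (P ++ Q)) + D.nu2 (P ++ Q)
  e2 : ∀ u : List α, u.length = D.p0 → ∀ v, ∃ I : Finset ℕ, 3 * D.C0 + 2 ≤ I.card ∧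
    ∀ k ∈ I, k < D.K ∧ D.lam2 k (u.take (D.c k)) = some v ∧ (D.rho2 k (u.drop (D.c k))).isSome

variable {D}

theorem Dat.Ok.hT (h : D.Ok) (X : List α) (hX : X ∈ XX D.Wo D.z) (v v' : V) :
    D.T X v - D.T X v' = D.act (v - v') (pr D.f X) := by
  have hsub : ∀ a b s, D.act a s - D.act b s = D.act (a - b) s := by
    intro a b s
    have h1 := h.act_add (a - b) b s
    rw [sub_add_cancel] at h1
    rw [h1, add_sub_cancel_right]
  obtain ⟨t, h1, h2⟩ := hX
  have hz := h.hz
  have ht : D.p0 ≤ t := by have := h1.1; omega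
  unfold Dat.T Dat.TT
  rw [tw_eq h1, hsub, add_sub_add_right_eq_sub, hsub, add_sub_add_right_eq_sub, hsub, h.act_mul,
    h.act_mul, ← pr_append, ← pr_append]
  congr 2
  have e1 : X.take D.p0 = (X.take t).take D.p0 := by
    rw [List.take_take, min_eq_left ht]
  rw [e1, ← List.append_assoc, List.take_append_drop, List.take_append_drop]

theorem Dat.Ok.sound1 (h : D.Ok) (v v' : V) (P Q : List α) (hP : P ∈ D.LP1 v)
    (hQ : Q ∈ D.RQ1 v') : P ++ Q ∈ XX D.Wo D.z ∧ D.T (P ++ Q) v = v' := by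
  obtain ⟨P1, P2, rfl, hl1, hlam⟩ := hP
  obtain ⟨t, ht0, ht, htn, r, hr, rfl⟩ := hQ
  have hz := h.hz
  have hl2 := h.g1 _ _ hlam
  have hlen : (P1 ++ P2).length = D.p0 + P2.length := by rw [List.length_append, hl1]
  have hF : FW D.Wo D.z ((P1 ++ P2) ++ Q) ((P1 ++ P2).length + t) := by
    rw [h.walls.fw (by rw [hlen]; omega), hlen]
    obtain ⟨a1, a2, a3, a4⟩ := ht
    exact ⟨by omega, a2, a3, fun s hs hst => a4 s (by omega) hst⟩
  have hF2 : FW D.Wo ((P1 ++ P2).length + t + 1) ((P1 ++ P2) ++ Q) ((P1 ++ P2) ++ Q).length := by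
    have e : ((P1 ++ P2) ++ Q).length = (P1 ++ P2).length + Q.length := List.length_append
    rw [e, h.walls.fw (by rw [hlen]; have := ht.1; omega)]
    have e' : (P1 ++ P2).length + t + 1 - (P1 ++ P2).length = t + 1 := by omega
    rw [e']; exact htn
  refine ⟨⟨_, hF, hF2⟩, ?_⟩
  unfold Dat.T Dat.TT
  rw [tw_eq hF]
  have e1 : ((P1 ++ P2) ++ Q).take D.p0 = P1 := by
    rw [List.append_assoc, List.take_append_of_le_length (by omega), ← hl1, List.take_length]
  have e2 : (((P1 ++ P2) ++ Q).take ((P1 ++ P2).length + t)).drop D.p0 = P2 ++ Q.take t := by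
    rw [List.take_length_add_append, List.append_assoc, ← hl1, List.drop_left]
  have e3 : ((P1 ++ P2) ++ Q).drop ((P1 ++ P2).length + t) = Q.drop t := by
    rw [List.drop_length_add_append]
  rw [e1, e2, e3]
  have := h.g2 P2 (Q.take t) _ _ hlam hr (by rw [List.length_take]; have := ht.2.1; omega)
  rw [this]

theorem Dat.Ok.compl1 (h : D.Ok) (X : List α) (hX : X ∈ D.Good) (v : V) :
    ∃ P Q, X = P ++ Q ∧ P ∈ D.LP1 v ∧ Q ∈ D.RQ1 (D.T X v) := by
  obtain ⟨⟨t, ht, htn⟩, hE⟩ := hX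
  have hz := h.hz
  have hzt := ht.1
  have htX := ht.2.1
  have hE' : (¬ ∃ s, D.z - D.N1 ≤ s ∧ s < D.z + D.N1 ∧ s ≤ X.length ∧ D.Wo (X.take s)) ∧
      ¬ D.BadT (t - D.p0) := by
    constructor
    · intro h'; exact hE ⟨t, ht, Or.inl h'⟩
    · intro h'; exact hE ⟨t, ht, Or.inr h'⟩
  obtain ⟨hE1, hE2⟩ := hE'
  have hlY : ((X.take t).drop D.p0).length = t - D.p0 := by
    rw [List.length_drop, List.length_take, min_eq_left htX]
  obtain ⟨P', Q', hPQ, hlam, hrho⟩ := h.g3 ((X.take t).drop D.p0) (by rw [hlY]; omega)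
    (by rw [hlY]; exact hE2) (D.act v (pr D.f (X.take D.p0)) + D.nu2 (X.take D.p0))
  obtain ⟨r, hr⟩ := Option.isSome_iff_exists.1 hrho
  have hP'l := h.g1 _ _ hlam
  have hlen : P'.length + Q'.length = t - D.p0 := by
    rw [← hlY, ← hPQ, List.length_append]
  have hX1 : X = (X.take D.p0 ++ P') ++ (Q' ++ X.drop t) := by
    have e1 : X.take D.p0 = (X.take t).take D.p0 := by
      rw [List.take_take, min_eq_left (by omega)]
    rw [List.append_assoc, ← List.append_assoc P', hPQ, ← List.append_assoc, e1,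
      List.take_append_drop, List.take_append_drop]
  have hlP : (X.take D.p0 ++ P').length = D.p0 + P'.length := by
    rw [List.length_append, List.length_take, min_eq_left (by omega)]
  set P := X.take D.p0 ++ P' with hPdef
  set Q := Q' ++ X.drop t with hQdef
  have htl : D.z + D.N1 ≤ t := by
    by_contra hcon
    exact hE1 ⟨t, by omega, by omega, htX, ht.2.2.1⟩
  have hFt : FW D.Wo (D.z - D.p0 - D.N1) Q Q'.length := by
    have hzz : P.length + (D.z - D.p0 - D.N1) = P.length + (D.z - D.p0 - D.N1) := rfl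
    have h1 : FW D.Wo (P.length + (D.z - D.p0 - D.N1)) (P ++ Q) (P.length + Q'.length) := by
      rw [← hX1]
      have e : P.length + Q'.length = t := by rw [hlP]; omega
      rw [e]
      refine ⟨by omega, htX, ht.2.2.1, ?_⟩
      intro s hs hst hw
      by_cases hsz : D.z ≤ s
      · exact ht.2.2.2 s hsz hst hw
      · exact hE1 ⟨s, by omega, by omega, by omega, hw⟩
    rw [h.walls.fw (by omega)] at h1
    have e : P.length + (D.z - D.p0 - D.N1) - P.length = D.z - D.p0 - D.N1 := by omega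
    rwa [e] at h1
  have hFn : FW D.Wo (Q'.length + 1) Q Q.length := by
    have h1 : FW D.Wo (P.length + (Q'.length + 1)) (P ++ Q) (P.length + Q.length) := by
      rw [← List.length_append, ← hX1]
      have e : P.length + (Q'.length + 1) = t + 1 := by rw [hlP]; omega
      rw [e]; exact htn
    rw [h.walls.fw (by omega)] at h1
    have e : P.length + (Q'.length + 1) - P.length = Q'.length + 1 := by omega
    rwa [e] at h1
  refine ⟨P, Q, hX1, ⟨X.take D.p0, P', rfl, by rw [List.length_take]; omega, hlam⟩,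
    ⟨Q'.length, by omega, hFt, hFn, r, ?_, ?_⟩⟩
  · rw [hQdef, List.take_left]; exact hr
  · have e := h.g2 P' Q' _ _ hlam hr (by omega)
    rw [hPQ] at e
    unfold Dat.T Dat.TT
    rw [tw_eq ht, hQdef, List.drop_left, e]

theorem Dat.Bad_sub : D.Bad ⊆ XX D.Wo D.z := fun _ h => h.1

/-- the value after the block, read by scheme 2 -/
theorem Dat.Ok.val2 (h : D.Ok) {k : ℕ} (hk : k < D.K) {P Q1 : List α} {t : ℕ} {v b : V}
    (hPl : P.length = D.c k) (hlam : D.lam2 k P = some v) (ht : FW D.Wo (D.z - D.c k) Q1 t)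
    (hrho : D.rho2 k (Q1.take (D.p0 - D.c k)) = some b) :
    D.TT (P.length + t) (P ++ Q1) v =
      D.act (D.act b (pr D.f ((Q1.take t).drop (D.p0 - D.c k))) +
        D.nu1 ((Q1.take t).drop (D.p0 - D.c k))) (pr D.f (Q1.drop t)) := by
  have hz := h.hz
  have hc := h.c_lt k hk
  have h1 := ht.1
  have h2 := ht.2.1
  have e1 : (P ++ Q1).take D.p0 = P ++ Q1.take (D.p0 - D.c k) := by
    obtain ⟨m, hm⟩ : ∃ m, D.p0 = P.length + m := ⟨D.p0 - P.length, by omega⟩
    rw [hm, List.take_length_add_append]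
    congr 2
    omega
  have e2 : ((P ++ Q1).take (P.length + t)).drop D.p0 = (Q1.take t).drop (D.p0 - D.c k) := by
    rw [List.take_length_add_append]
    obtain ⟨m, hm⟩ : ∃ m, D.p0 = P.length + m := ⟨D.p0 - P.length, by omega⟩
    rw [hm, List.drop_length_add_append]
    congr 1
    omega
  have e3 := h.e1 k hk P (Q1.take (D.p0 - D.c k)) v b hPl
    (by rw [List.length_append, List.length_take]; omega) hlam hrho
  unfold Dat.TT
  rw [e1, e2, ← e3, List.drop_length_add_append]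

theorem Dat.Ok.sound2 (h : D.Ok) (v v'' : V) (P Q R : List α) (hP : P ∈ D.LP2 v)
    (hQ : Q ∈ D.RQ2 v'') (hB : Bs D.Bad (P ++ (Q ++ R))) :
    Tr (XX D.Wo D.z) D.T v (P ++ Q) v'' ∧ Bs D.Bad R := by
  obtain ⟨k0, hk0, hPl, hlam⟩ := hP
  obtain ⟨v', Q1, Y, rfl, ⟨k, hk, ⟨hbk, huniq⟩, t, ht, htn, b, hrho, hv'⟩, hY, rfl⟩ := hQ
  have hPF := XX_PF D.Wo D.z
  have hz := h.hz
  have hW := h.hW
  have hc0 := h.c_lt k0 hk0
  have hck := h.c_lt k hk
  rcases Bs.inv hPF Dat.Bad_sub hB with e | ⟨X, hX, w', e, hB'⟩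
  · have h1 := congrArg List.length e
    have := htn.1
    simp only [List.length_append, List.length_nil] at h1
    omega
  obtain ⟨⟨tX, hF, hFn⟩, t', hF', hcase⟩ := hX
  have := hF.unique hF'
  subst this
  have hXl : D.p0 < X.length := by have := hF.1; have := hF.2.1; omega
  obtain ⟨Q0, rfl⟩ : ∃ Q0, X = P ++ Q0 := by
    have h1 : P <+: P ++ ((Q1 ++ Y) ++ R) := List.prefix_append _ _
    have h2 : X <+: P ++ ((Q1 ++ Y) ++ R) := by rw [e]; exact List.prefix_append _ _
    obtain ⟨r, hr⟩ := List.prefix_of_prefix_length_le h1 h2 (by omega)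
    exact ⟨r, hr.symm⟩
  have e2 : Q1 ++ (Y ++ R) = Q0 ++ w' := by
    rw [List.append_assoc, List.append_assoc] at e
    exact List.append_cancel_left e
  have htake : ∀ s, s ≤ Q1.length → s ≤ Q0.length → Q1.take s = Q0.take s := by
    intro s h1 h2
    have h3 := congrArg (List.take s) e2
    rwa [List.take_append_of_le_length h1, List.take_append_of_le_length h2] at h3
  obtain ⟨t0, rfl⟩ : ∃ t0, tX = P.length + t0 := ⟨tX - P.length, by have := hF.1; omega⟩
  have hF0 : FW D.Wo (D.z - P.length) Q0 t0 := (h.walls.fw (by omega)).1 hF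
  rw [hPl] at hF0
  have ht01 := hF0.1
  have ht02 := hF0.2.1
  have ht1 := ht.1
  have ht2 := ht.2.1
  have htn1 := htn.1
  have hA : t0 ≤ Q1.length := by
    by_contra hcon
    push Not at hcon
    have w1 : D.Wo (Q0.take t) := by rw [← htake t ht2 (by omega)]; exact ht.2.2.1
    have w2 : D.Wo (Q0.take Q1.length) := by
      rw [← htake _ le_rfl (by omega)]; exact htn.2.2.1
    have a1 : t < D.z - D.c k0 := by
      by_contra hh
      exact hF0.2.2.2 t (by omega) (by omega) w1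
    have a2 : Q1.length < D.z - D.c k0 := by
      by_contra hh
      exact hF0.2.2.2 _ (by omega) hcon w2
    have := h.walls.gap Q0 t Q1.length (by omega) (by omega) w1 w2
    omega
  have hF1 : FW D.Wo (D.z - D.c k0) Q1 t0 := by
    refine ⟨ht01, hA, ?_, ?_⟩
    · rw [htake t0 hA ht02]; exact hF0.2.2.1
    · intro s hs hst
      rw [htake s (by omega) (by omega)]; exact hF0.2.2.2 s hs hst
  have hbad : D.bad Q1 k0 := by
    refine ⟨t0, hF1, ?_⟩
    rcases hcase with ⟨s, s1, s2, s3, s4⟩ | hT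
    · left
      obtain ⟨s0, rfl⟩ : ∃ s0, s = P.length + s0 := ⟨s - P.length, by omega⟩
      have hst : s0 ≤ t0 := by
        by_contra hcon
        have := h.walls.gap (P ++ Q0) (P.length + t0) (P.length + s0) (by omega) s3 hF.2.2.1 s4
        omega
      refine ⟨s0, by omega, by omega, by omega, ?_⟩
      rw [htake s0 (by omega) (by omega)]
      exact (h.walls.shift P Q0 s0 (by omega) (by omega)).1 s4
    · right
      have e3 : t0 + D.c k0 - D.p0 = P.length + t0 - D.p0 := by omega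
      rw [e3]; exact hT
  have hkk := huniq k0 hk0 hbad
  subst hkk
  have htt : t = t0 := ht.unique hF1
  subst htt
  have hG : FW D.Wo D.z (P ++ Q1) (P.length + t) := by
    rw [h.walls.fw (by omega), hPl]; exact ht
  have hG2 : FW D.Wo (P.length + t + 1) (P ++ Q1) (P ++ Q1).length := by
    have e3 : (P ++ Q1).length = P.length + Q1.length := List.length_append
    rw [e3, h.walls.fw (by omega)]
    have e4 : P.length + t + 1 - P.length = t + 1 := by omega
    rw [e4]; exact htn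
  have hX1 : P ++ Q1 ∈ XX D.Wo D.z := ⟨_, hG, hG2⟩
  obtain ⟨e5, e6⟩ := hPF.eq hX1 (⟨_, hF, hFn⟩ : P ++ Q0 ∈ XX D.Wo D.z)
    (by rw [List.append_assoc, e2, ← List.append_assoc] : (P ++ Q1) ++ (Y ++ R) = (P ++ Q0) ++ w')
  subst e6
  have hval : D.T (P ++ Q1) v = v' := by
    unfold Dat.T
    rw [tw_eq hG, hv']
    exact h.val2 hk0 hPl hlam ht hrho
  constructor
  · rw [← List.append_assoc]
    refine Tr.cons hX1 ?_
    rw [hval]
    exact Tr.single hY.1
  · rcases Bs.inv hPF Dat.Bad_sub hB' with e7 | ⟨Y', hY', w2, e7, hB2⟩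
    · have := hPF.1 Y hY.1
      exact absurd (List.append_eq_nil_iff.1 e7).1 this
    · obtain ⟨-, e8⟩ := hPF.eq hY.1 hY'.1 e7
      rw [e8]; exact hB2

open Classical in
/-- spoiled places of a block -/
noncomputable def Dat.spoiled (D : Dat α S V) (X : List α) : Finset ℕ :=
  (Finset.range D.K).filter (fun k => ∃ k' < D.K, k' ≠ k ∧ D.bad (X.drop (D.c k)) k')

theorem Dat.Ok.compl2 (h : D.Ok) (hsp : ∀ X ∈ D.Bad, (D.spoiled X).card ≤ 3 * D.C0 + 1)
    (Y1 : List α) (hY1 : Y1 ∈ D.Bad) (Y2 : List α) (hY2 : Y2 ∈ D.Bad) (v : V) :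
    ∃ P Q, Y1 ++ Y2 = P ++ Q ∧ P ∈ D.LP2 v ∧ Q ∈ D.RQ2 (D.T Y2 (D.T Y1 v)) := by
  classical
  have hsp1 := hsp Y1 hY1
  have hz := h.hz
  obtain ⟨⟨tX, hF, hFn⟩, t', hF', hcase⟩ := hY1
  have := hF.unique hF'
  subst this
  have hXl : D.p0 < Y1.length := by have := hF.1; have := hF.2.1; omega
  obtain ⟨I, hI, hI2⟩ := h.e2 (Y1.take D.p0) (by rw [List.length_take]; omega) v
  obtain ⟨k, hkI, hkS⟩ := Finset.exists_mem_notMem_of_card_lt_card
    (show (D.spoiled Y1).card < I.card by omega)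
  obtain ⟨hk, hlam, hrho⟩ := hI2 k hkI
  have hck := h.c_lt k hk
  have huniq : ∀ k' < D.K, D.bad (Y1.drop (D.c k)) k' → k' = k := by
    intro k' hk' hb
    by_contra hne
    exact hkS (Finset.mem_filter.2 ⟨Finset.mem_range.2 hk, k', hk', hne, hb⟩)
  set P := Y1.take (D.c k) with hPdef
  set Q1 := Y1.drop (D.c k) with hQdef
  have hPl : P.length = D.c k := by rw [hPdef, List.length_take]; omega
  have hPQ : P ++ Q1 = Y1 := List.take_append_drop _ _
  have e1 : (Y1.take D.p0).take (D.c k) = P := by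
    rw [List.take_take, min_eq_left (by omega)]
  have e2 : (Y1.take D.p0).drop (D.c k) = Q1.take (D.p0 - D.c k) := by
    rw [List.drop_take]
  rw [e1] at hlam
  rw [e2] at hrho
  obtain ⟨b, hb⟩ := Option.isSome_iff_exists.1 hrho
  rw [← hPQ] at hF hFn hcase
  obtain ⟨t0, rfl⟩ : ∃ t0, tX = P.length + t0 := ⟨tX - P.length, by have := hF.1; omega⟩
  have hF0 : FW D.Wo (D.z - P.length) Q1 t0 := (h.walls.fw (by omega)).1 hF
  rw [hPl] at hF0
  have hF0n : FW D.Wo (t0 + 1) Q1 Q1.length := by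
    have e3 : (P ++ Q1).length = P.length + Q1.length := List.length_append
    have := hF0.1
    rw [e3, h.walls.fw (by omega)] at hFn
    have e4 : P.length + t0 + 1 - P.length = t0 + 1 := by omega
    rwa [e4] at hFn
  have hbad : D.bad Q1 k := by
    refine ⟨t0, hF0, ?_⟩
    have := hF0.1
    rcases hcase with ⟨s, s1, s2, s3, s4⟩ | hT
    · left
      obtain ⟨s0, rfl⟩ : ∃ s0, s = P.length + s0 := ⟨s - P.length, by omega⟩
      rw [List.length_append] at s3
      exact ⟨s0, by omega, by omega, by omega,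
        (h.walls.shift P Q1 s0 (by omega) (by omega)).1 s4⟩
    · right
      have e3 : t0 + D.c k - D.p0 = P.length + t0 - D.p0 := by omega
      rw [e3]; exact hT
  refine ⟨P, Q1 ++ Y2, by rw [← List.append_assoc, hPQ], ⟨k, hk, hPl, hlam⟩,
    D.T Y1 v, Q1, Y2, rfl, ⟨k, hk, ⟨hbad, huniq⟩, t0, hF0, hF0n, b, hb, ?_⟩, hY2, rfl⟩
  have hval := h.val2 hk hPl hlam hF0 hb
  rw [← hval]
  unfold Dat.T
  rw [← hPQ, tw_eq hF]

end Crest.Agent.R320.Inst_547
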