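import Mathlib

/-!
# Row 320: natural block code + gadget 1 + gadget 2: the two completeness statements (helper591)
-/

set_option autoImplicit false

namespace Crest.Agent.R320.Inst_591

universe u

/-- all the data of one instance -/
structure Dat (α : Type u) (S V : Type) [Monoid S] [AddCommGroup V] where
  act : V → S → V
  hadd : ∀ a b s, act (a + b) s = act a s + act b s
  hmul : ∀ v s t, act v (s * t) = act (act v s) t
  φ : α → S
  N1 : ℕ
  lam : List S → Option V
  rho : List S → Option V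
  nu1 : List S → V
  hlam : ∀ P v, lam P = some v → P.length < N1
  snd1 : ∀ P Q v v', lam P = some v → rho Q = some v' → v' = act v (P ++ Q).prod + nu1 (P ++ Q)
  BadT : ℕ → Prop
  cmp1 : ∀ X : List S, ¬ BadT X.length → ∀ v, ∃ P Q, P ++ Q = X ∧ lam P = some v ∧ (rho Q).isSome
  K : ℕ
  c : ℕ → ℕ
  lam2 : ℕ → List S → Option V
  rho2 : ℕ → List S → Option V
  nu2 : List S → V
  snd2 : ∀ k < K, ∀ (P Q : List S) (v b : V), P.length = c k → lam2 k P = some v →
    rho2 k Q = some b → b = act v (P ++ Q).prod + nu2 (P ++ Q)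
  C1 : ℕ
  cmp2 : ∀ (u : List S) (v : V), (∀ k < K, c k ≤ u.length) →
    ∃ I : Finset ℕ, 1 + 2 * C1 < I.card ∧ ∀ k ∈ I, k < K ∧ lam2 k (u.take (c k)) = some v ∧
      (rho2 k (u.drop (c k))).isSome
  Wo : List α → Prop
  n : ℕ
  W : ℕ
  loc : ∀ P Q, n ≤ Q.length → (Wo (P ++ Q) ↔ Wo Q)
  len : ∀ P, Wo P → n ≤ P.length
  gap : ∀ P d, Wo P → 0 < d → d ≤ W → ¬ Wo (P.take (P.length - d))
  p0 : ℕ
  z : ℕ
  hc : ∀ k < K, c k ≤ p0
  cinj : ∀ a < K, ∀ b < K, c a = c b → a = b
  hz : 3 * p0 + n + N1 + 1 ≤ z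
  hW : 2 * p0 + 2 * N1 < W
  r2 : ∀ a b a' b', a < K → b < K → a' < K → b' < K → a ≠ b → a' ≠ b' →
    |((c a : ℤ) - c b) - (c a' - c b')| ≤ 2 * N1 → a = a' ∧ b = b'
  r3 : ∀ T : ℕ, p0 ≤ T → ∀ F : Finset (ℕ × ℕ), (∀ ab ∈ F, ab.1 < K ∧ ab.2 < K ∧ ab.1 ≠ ab.2 ∧
    BadT (T + c ab.1 - c ab.2)) → F.card ≤ C1

/-- the arithmetic of the spoiled places -/
theorem spoil_count (K p0 N1 C1 z W : ℕ) (c : ℕ → ℕ) (BadT : ℕ → Prop) (Wp : ℕ → Prop)
    (hc : ∀ k < K, c k ≤ p0)
    (hWg : ∀ s t, Wp s → Wp t → s < t → W < t - s) (hW : 2 * p0 + 2 * N1 < W)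
    (hz : 3 * p0 + N1 ≤ z)
    (r2 : ∀ a b a' b', a < K → b < K → a' < K → b' < K → a ≠ b → a' ≠ b' →
      |((c a : ℤ) - c b) - (c a' - c b')| ≤ 2 * N1 → a = a' ∧ b = b')
    (r3 : ∀ T : ℕ, p0 ≤ T → ∀ F : Finset (ℕ × ℕ), (∀ ab ∈ F, ab.1 < K ∧ ab.2 < K ∧ ab.1 ≠ ab.2 ∧
      BadT (T + c ab.1 - c ab.2)) → F.card ≤ C1)
    (Sp : Finset ℕ)
    (hSp : ∀ k ∈ Sp, k < K ∧ ∃ k' < K, k' ≠ k ∧
      ((∃ t, Wp t ∧ z + c k ≤ t + c k' + N1 ∧ t + c k' < z + N1 + c k) ∨
       (∃ t, Wp t ∧ z + c k ≤ t + c k' ∧ (∀ s, Wp s → z + c k ≤ s + c k' → t ≤ s) ∧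
          BadT (t + c k' - c k - p0)))) :
    Sp.card ≤ 1 + 2 * C1 := by
  classical
  -- the two candidate walls
  obtain ⟨t1, ht1⟩ : ∃ t1 : ℕ, (∃ t, Wp t ∧ z ≤ t + p0) →
      (Wp t1 ∧ z ≤ t1 + p0 ∧ ∀ s, Wp s → z ≤ s + p0 → t1 ≤ s) := by
    by_cases h : ∃ t, Wp t ∧ z ≤ t + p0
    · refine ⟨Nat.find h, fun _ => ⟨(Nat.find_spec h).1, (Nat.find_spec h).2, fun s h1 h2 =>
        Nat.find_min' h ⟨h1, h2⟩⟩⟩
    · exact ⟨0, fun h' => absurd h' h⟩
  obtain ⟨t2, ht2⟩ : ∃ t2 : ℕ, (∃ t, Wp t ∧ t1 < t) →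
      (Wp t2 ∧ t1 < t2 ∧ ∀ s, Wp s → t1 < s → t2 ≤ s) := by
    by_cases h : ∃ t, Wp t ∧ t1 < t
    · refine ⟨Nat.find h, fun _ => ⟨(Nat.find_spec h).1, (Nat.find_spec h).2, fun s h1 h2 =>
        Nat.find_min' h ⟨h1, h2⟩⟩⟩
    · exact ⟨0, fun h' => absurd h' h⟩
  let PP : Finset (ℕ × ℕ) := (Finset.range K ×ˢ Finset.range K).filter (fun ab => ab.1 ≠ ab.2)
  let FE : Finset (ℕ × ℕ) := PP.filter (fun ab => ∃ t, Wp t ∧ z + c ab.2 ≤ t + c ab.1 + N1 ∧
    t + c ab.1 < z + N1 + c ab.2)
  let F1 : Finset (ℕ × ℕ) := PP.filter (fun ab => z ≤ t1 + p0 ∧ BadT ((t1 - p0) + c ab.1 - c ab.2))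
  let F2 : Finset (ℕ × ℕ) := PP.filter (fun ab => z ≤ t2 + p0 ∧ BadT ((t2 - p0) + c ab.1 - c ab.2))
  have hPP : ∀ ab ∈ PP, ab.1 < K ∧ ab.2 < K ∧ ab.1 ≠ ab.2 := by
    intro ab h
    simp only [PP, Finset.mem_filter, Finset.mem_product, Finset.mem_range] at h
    exact ⟨h.1.1, h.1.2, h.2⟩
  have cE : FE.card ≤ 1 := by
    rw [Finset.card_le_one]
    intro x hx y hy
    simp only [FE, Finset.mem_filter] at hx hy
    obtain ⟨hx0, t, ht, hx1, hx2⟩ := hx
    obtain ⟨hy0, s, hs, hy1, hy2⟩ := hy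
    obtain ⟨a1, a2, a3⟩ := hPP x hx0
    obtain ⟨b1, b2, b3⟩ := hPP y hy0
    have e1 := hc _ a1
    have e2 := hc _ a2
    have e3 := hc _ b1
    have e4 := hc _ b2
    have hts : t = s := by
      rcases lt_trichotomy t s with h | h | h
      · have := hWg t s ht hs h
        omega
      · exact h
      · have := hWg s t hs ht h
        omega
    subst hts
    have := r2 x.1 x.2 y.1 y.2 a1 a2 b1 b2 a3 b3 (by rw [abs_le]; constructor <;> omega)
    exact Prod.ext this.1 this.2
  have c1 : F1.card ≤ C1 := by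
    by_cases h : z ≤ t1 + p0
    · refine r3 (t1 - p0) (by omega) F1 ?_
      intro ab hab
      simp only [F1, Finset.mem_filter] at hab
      obtain ⟨a1, a2, a3⟩ := hPP ab hab.1
      exact ⟨a1, a2, a3, hab.2.2⟩
    · have : F1 = ∅ := by
        apply Finset.filter_eq_empty_iff.2
        intro ab _ h'
        exact h h'.1
      rw [this]; simp
  have c2 : F2.card ≤ C1 := by
    by_cases h : z ≤ t2 + p0
    · refine r3 (t2 - p0) (by omega) F2 ?_
      intro ab hab
      simp only [F2, Finset.mem_filter] at hab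
      obtain ⟨a1, a2, a3⟩ := hPP ab hab.1
      exact ⟨a1, a2, a3, hab.2.2⟩
    · have : F2 = ∅ := by
        apply Finset.filter_eq_empty_iff.2
        intro ab _ h'
        exact h h'.1
      rw [this]; simp
  have hsub : Sp ⊆ (FE.image Prod.snd) ∪ ((F1.image Prod.snd) ∪ (F2.image Prod.snd)) := by
    intro k hk
    obtain ⟨hkK, k', hk', hne, h⟩ := hSp k hk
    have hpp : (k', k) ∈ PP := by
      simp only [PP, Finset.mem_filter, Finset.mem_product, Finset.mem_range]
      exact ⟨⟨hk', hkK⟩, hne⟩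
    have e1 := hc _ hkK
    have e2 := hc _ hk'
    rcases h with h | ⟨t, ht, h1, h2, h3⟩
    · apply Finset.mem_union_left
      refine Finset.mem_image.2 ⟨(k', k), ?_, rfl⟩
      simp only [FE, Finset.mem_filter]
      exact ⟨hpp, h⟩
    · apply Finset.mem_union_right
      have hex : ∃ t, Wp t ∧ z ≤ t + p0 := ⟨t, ht, by omega⟩
      obtain ⟨u1, u2, u3⟩ := ht1 hex
      have hle := u3 t ht (by omega)
      have hBeq : ∀ x : ℕ, z ≤ x + p0 → (x - p0) + c k' - c k = x + c k' - c k - p0 := by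
        intro x hx; omega
      rcases eq_or_lt_of_le hle with h4 | h4
      · apply Finset.mem_union_left
        refine Finset.mem_image.2 ⟨(k', k), ?_, rfl⟩
        simp only [F1, Finset.mem_filter]
        refine ⟨hpp, u2, ?_⟩
        rw [hBeq t1 u2, h4]; exact h3
      · apply Finset.mem_union_right
        obtain ⟨v1, v2, v3⟩ := ht2 ⟨t, ht, h4⟩
        have h5 := v3 t ht h4
        have h6 := hWg t1 t2 u1 v1 v2
        have h7 : t ≤ t2 := h2 t2 v1 (by omega)
        have h8 : t2 = t := le_antisymm h5 h7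
        refine Finset.mem_image.2 ⟨(k', k), ?_, rfl⟩
        simp only [F2, Finset.mem_filter]
        refine ⟨hpp, by omega, ?_⟩
        rw [hBeq t2 (by omega), h8]; exact h3
  calc Sp.card ≤ _ := Finset.card_le_card hsub
    _ ≤ (FE.image Prod.snd).card + ((F1.image Prod.snd) ∪ (F2.image Prod.snd)).card :=
        Finset.card_union_le _ _
    _ ≤ (FE.image Prod.snd).card + ((F1.image Prod.snd).card + (F2.image Prod.snd).card) := by
        gcongr; exact Finset.card_union_le _ _
    _ ≤ 1 + (C1 + C1) := by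
        gcongr
        · exact Finset.card_image_le.trans cE
        · exact Finset.card_image_le.trans c1
        · exact Finset.card_image_le.trans c2
    _ = 1 + 2 * C1 := by ring

namespace Dat

variable {α : Type u} {S V : Type} [Monoid S] [AddCommGroup V] (D : Dat α S V)

/-- blocks -/
def XX : Set (List α) := {X | D.z ≤ X.length ∧ D.Wo X ∧ ∀ t, D.z ≤ t → t < X.length → ¬ D.Wo (X.take t)}

def EB (X : List α) : Prop := ∃ t, D.z ≤ t + D.N1 ∧ t < D.z + D.N1 ∧ t ≤ X.length ∧ D.Wo (X.take t)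

def Bad : Set (List α) := {X | X ∈ D.XX ∧ (D.EB X ∨ D.BadT (X.length - D.p0))}

def nu (X : List α) : V :=
  D.act (D.nu2 ((X.take D.p0).map D.φ)) ((X.drop D.p0).map D.φ).prod + D.nu1 ((X.drop D.p0).map D.φ)

def TT (v : V) (X : List α) : V := D.act v (X.map D.φ).prod + D.nu X

def L1 (v : V) : Set (List α) :=
  {P | D.p0 ≤ P.length ∧ D.lam ((P.drop D.p0).map D.φ) =
    some (D.act v ((P.take D.p0).map D.φ).prod + D.nu2 ((P.take D.p0).map D.φ))}

def L2 (v : V) : Set (List α) :=
  {P | ∃ k < D.K, P.length = D.c k ∧ D.lam2 k (P.map D.φ) = some v}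

theorem TT_eq (v : V) (X : List α) : D.TT v X =
    D.act (D.act v ((X.take D.p0).map D.φ).prod + D.nu2 ((X.take D.p0).map D.φ))
      ((X.drop D.p0).map D.φ).prod + D.nu1 ((X.drop D.p0).map D.φ) := by
  have h : X.map D.φ = (X.take D.p0).map D.φ ++ (X.drop D.p0).map D.φ := by
    rw [← List.map_append, List.take_append_drop]
  unfold TT nu
  rw [h, List.prod_append, D.hmul, D.hadd]
  abel

theorem wo_take (P Q : List α) (j : ℕ) (hj : D.n ≤ j) (hq : j ≤ Q.length) :
    D.Wo ((P ++ Q).take (P.length + j)) ↔ D.Wo (Q.take j) := by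
  have h : (P ++ Q).take (P.length + j) = P ++ Q.take j := by
    rw [List.take_append]; simp
  rw [h]
  exact D.loc _ _ (by rw [List.length_take]; omega)

theorem nil_not : [] ∉ D.XX := fun h => by
  have := h.1
  have := D.hz
  simp at *
  omega

theorem pcode : ∀ X ∈ D.XX, ∀ Y ∈ D.XX, X <+: Y → X = Y := by
  intro X hX Y hY h
  obtain ⟨t, rfl⟩ := h
  by_contra hne
  have ht : t ≠ [] := fun e => hne (by rw [e, List.append_nil])
  have hl : 0 < t.length := List.length_pos_iff.2 ht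
  refine hY.2.2 X.length hX.1 (by rw [List.length_append]; omega) ?_
  rw [List.take_left' rfl]
  exact hX.2.1

theorem val1 {P Q : List α} {v b : V} (hP : P ∈ D.L1 v) (hQ : D.rho (Q.map D.φ) = some b) :
    D.TT v (P ++ Q) = b := by
  obtain ⟨h1, h2⟩ := hP
  rw [D.TT_eq, List.take_append_of_le_length h1, List.drop_append_of_le_length h1, List.map_append]
  exact (D.snd1 _ _ _ _ h2 hQ).symm

theorem L1_len {P : List α} {v : V} (hP : P ∈ D.L1 v) : D.p0 ≤ P.length ∧ P.length < D.p0 + D.N1 := by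
  obtain ⟨h1, h2⟩ := hP
  have := D.hlam _ _ h2
  rw [List.length_map, List.length_drop] at this
  omega

theorem cc1 (X : List α) (hX : X ∈ D.XX) (hB : X ∉ D.Bad) (v : V) :
    ∃ P Q, P ++ Q = X ∧ P ∈ D.L1 v ∧ ∀ x, ∀ P' ∈ D.L1 x, P' ++ Q ∈ D.XX ∧
      D.TT x (P' ++ Q) = D.TT v X := by
  have hE : ¬ D.EB X := fun h => hB ⟨hX, Or.inl h⟩
  have hT : ¬ D.BadT (X.length - D.p0) := fun h => hB ⟨hX, Or.inr h⟩
  have hz := D.hz
  have hlen : D.z + D.N1 ≤ X.length := by
    by_contra h
    refine hE ⟨X.length, by have := hX.1; omega, by omega, le_rfl, ?_⟩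
    rw [List.take_length]; exact hX.2.1
  obtain ⟨P1, Q1, h1, h2, h3⟩ := D.cmp1 ((X.drop D.p0).map D.φ)
    (by rw [List.length_map, List.length_drop]; exact hT)
    (D.act v ((X.take D.p0).map D.φ).prod + D.nu2 ((X.take D.p0).map D.φ))
  have hi := D.hlam _ _ h2
  have hlenX : P1.length + Q1.length = X.length - D.p0 := by
    have := congrArg List.length h1
    rw [List.length_append, List.length_map, List.length_drop] at this
    exact this
  set i := P1.length with hidef
  have hP1 : P1 = ((X.drop D.p0).take i).map D.φ := by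
    rw [List.map_take, ← h1, List.take_left' rfl]
  have hQ1 : Q1 = (X.drop (D.p0 + i)).map D.φ := by
    rw [← List.drop_drop, List.map_drop, ← h1, List.drop_left' rfl]
  obtain ⟨b, hb⟩ := Option.isSome_iff_exists.1 h3
  have hPl : (X.take (D.p0 + i)).length = D.p0 + i := by
    rw [List.length_take]; omega
  have hP : X.take (D.p0 + i) ∈ D.L1 v := by
    refine ⟨by omega, ?_⟩
    have e1 : (X.take (D.p0 + i)).take D.p0 = X.take D.p0 := by
      rw [List.take_take, Nat.min_eq_left (by omega)]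
    have e2 : (X.take (D.p0 + i)).drop D.p0 = (X.drop D.p0).take i := by
      rw [List.drop_take]; congr 1; omega
    rw [e1, e2, ← hP1]; exact h2
  refine ⟨X.take (D.p0 + i), X.drop (D.p0 + i), List.take_append_drop _ _, hP, ?_⟩
  intro x P' hP'
  have hb' : D.rho ((X.drop (D.p0 + i)).map D.φ) = some b := by rw [← hQ1]; exact hb
  refine ⟨?_, ?_⟩
  · obtain ⟨l1, l2⟩ := D.L1_len hP'
    have hQl : (X.drop (D.p0 + i)).length = X.length - (D.p0 + i) := List.length_drop
    have hXs : X.take (D.p0 + i) ++ X.drop (D.p0 + i) = X := List.take_append_drop _ _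
    refine ⟨by rw [List.length_append, hQl]; omega, ?_, ?_⟩
    · rw [D.loc _ _ (by rw [hQl]; omega), ← D.loc (X.take (D.p0 + i)) _ (by rw [hQl]; omega), hXs]
      exact hX.2.1
    · intro t ht1 ht2 hw
      rw [List.length_append, hQl] at ht2
      have e : t = P'.length + (t - P'.length) := by omega
      rw [e, D.wo_take _ _ _ (by omega) (by omega)] at hw
      rw [← D.wo_take (X.take (D.p0 + i)) _ _ (by omega) (by omega), hXs, hPl] at hw
      by_cases h : D.z ≤ D.p0 + i + (t - P'.length)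
      · exact hX.2.2 _ h (by omega) hw
      · exact hE ⟨_, by omega, by omega, by omega, hw⟩
  · rw [D.val1 hP' hb', ← D.val1 hP hb', List.take_append_drop]

theorem cc2 (X : List α) (hX : X ∈ D.Bad) (Y : List α) (hY : Y ∈ D.Bad) (v : V) :
    ∃ P Q, P ++ Q = X ++ Y ∧ P ∈ D.L2 v ∧ ∀ x, ∀ P' ∈ D.L2 x,
      (∃ X' ∈ D.Bad, ∃ Y' ∈ D.XX, X' ++ Y' = P' ++ Q ∧
        D.TT (D.TT x X') Y' = D.TT (D.TT v X) Y) ∨
      (∃ X' ∈ D.XX, X' ∉ D.Bad ∧ X' <+: P' ++ Q) := by
  classical
  have hz := D.hz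
  have hXl := hX.1.1
  have hYl := hY.1.1
  -- walls of the text
  let Wp : ℕ → Prop := fun t => t ≤ (X ++ Y).length ∧ D.Wo ((X ++ Y).take t)
  have hWg : ∀ s t, Wp s → Wp t → s < t → D.W < t - s := by
    intro s t hs ht hst
    by_contra h
    have h1 := D.gap ((X ++ Y).take t) (t - s) ht.2 (by omega) (by omega)
    rw [List.length_take, Nat.min_eq_left ht.1, List.take_take] at h1
    rw [show min (t - (t - s)) t = s by omega] at h1
    exact h1 hs.2
  let Sp : Finset ℕ := (Finset.range D.K).filter (fun k => ∃ k' < D.K, k' ≠ k ∧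
      ((∃ t, Wp t ∧ D.z + D.c k ≤ t + D.c k' + D.N1 ∧ t + D.c k' < D.z + D.N1 + D.c k) ∨
       (∃ t, Wp t ∧ D.z + D.c k ≤ t + D.c k' ∧ (∀ s, Wp s → D.z + D.c k ≤ s + D.c k' → t ≤ s) ∧
          D.BadT (t + D.c k' - D.c k - D.p0))))
  have hSp : Sp.card ≤ 1 + 2 * D.C1 := by
    refine spoil_count D.K D.p0 D.N1 D.C1 D.z D.W D.c D.BadT Wp D.hc hWg D.hW (by omega)
      D.r2 D.r3 Sp ?_
    intro k hk
    simp only [Sp, Finset.mem_filter, Finset.mem_range] at hk
    exact hk
  have hul : ((X.take D.p0).map D.φ).length = D.p0 := by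
    rw [List.length_map, List.length_take]; omega
  obtain ⟨I, hI, hI2⟩ := D.cmp2 ((X.take D.p0).map D.φ) v (fun k hk => by rw [hul]; exact D.hc k hk)
  obtain ⟨k, hkI, hkS⟩ : ∃ k ∈ I, k ∉ Sp := by
    by_contra h
    push Not at h
    have := Finset.card_le_card (show I ⊆ Sp from fun k hk => h k hk)
    omega
  obtain ⟨hkK, hlam, hrho⟩ := hI2 k hkI
  obtain ⟨b, hb⟩ := Option.isSome_iff_exists.1 hrho
  have hck := D.hc k hkK
  have hPl : (X.take (D.c k)).length = D.c k := by rw [List.length_take]; omega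
  have hlam' : D.lam2 k ((X.take (D.c k)).map D.φ) = some v := by
    rw [← List.map_take, List.take_take, Nat.min_eq_left hck] at hlam
    exact hlam
  have hPQ : X.take (D.c k) ++ (X.drop (D.c k) ++ Y) = X ++ Y := by
    rw [← List.append_assoc, List.take_append_drop]
  have hQl : (X.drop (D.c k) ++ Y).length = X.length - D.c k + Y.length := by
    rw [List.length_append, List.length_drop]
  refine ⟨X.take (D.c k), X.drop (D.c k) ++ Y, hPQ, ⟨k, hkK, hPl, hlam'⟩, ?_⟩
  rintro x P' ⟨k', hk', hP'l, hP'lam⟩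
  have hck' := D.hc k' hk'
  by_cases hkk : k' = k
  · subst hkk
    left
    have hsplit : X.take (D.c k') ++ X.drop (D.c k') = X := List.take_append_drop _ _
    have hdl : (X.drop (D.c k')).length = X.length - D.c k' := List.length_drop
    have hlenX' : (P' ++ X.drop (D.c k')).length = X.length := by
      rw [List.length_append, hdl, hP'l]; omega
    have hwt : ∀ t, D.n + D.c k' ≤ t → t ≤ X.length →
        (D.Wo ((P' ++ X.drop (D.c k')).take t) ↔ D.Wo (X.take t)) := by
      intro t h1 h2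
      have e : t = D.c k' + (t - D.c k') := by omega
      have e1 := D.wo_take P' (X.drop (D.c k')) (t - D.c k') (by omega) (by omega)
      have e2 := D.wo_take (X.take (D.c k')) (X.drop (D.c k')) (t - D.c k') (by omega) (by omega)
      rw [hP'l, ← e] at e1
      rw [hPl, ← e, hsplit] at e2
      rw [e1, e2]
    have hXX' : P' ++ X.drop (D.c k') ∈ D.XX := by
      refine ⟨by rw [hlenX']; exact hXl, ?_, ?_⟩
      · have := (hwt X.length (by omega) le_rfl).2 (by rw [List.take_length]; exact hX.1.2.1)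
        rwa [← hlenX', List.take_length] at this
      · intro t h1 h2 h3
        rw [hlenX'] at h2
        exact hX.1.2.2 t h1 h2 ((hwt t (by omega) (by omega)).1 h3)
    refine ⟨P' ++ X.drop (D.c k'), ⟨hXX', ?_⟩, Y, hY.1, by rw [List.append_assoc], ?_⟩
    · rcases hX.2 with h | h
      · left
        obtain ⟨t, h1, h2, h3, h4⟩ := h
        exact ⟨t, h1, h2, by rw [hlenX']; exact h3, (hwt t (by omega) h3).2 h4⟩
      · right
        rw [hlenX']; exact h
    · congr 1
      have hd : (P' ++ X.drop (D.c k')).drop D.p0 = X.drop D.p0 := by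
        rw [List.drop_append, List.drop_eq_nil_of_le (by omega), List.nil_append, List.drop_drop]
        congr 1; omega
      have htk : (P' ++ X.drop (D.c k')).take D.p0 = P' ++ (X.take D.p0).drop (D.c k') := by
        rw [List.take_append, List.take_of_length_le (by omega), hP'l, List.drop_take]
      have htk2 : X.take D.p0 = X.take (D.c k') ++ (X.take D.p0).drop (D.c k') := by
        conv_lhs => rw [← List.take_append_drop (D.c k') (X.take D.p0)]
        rw [List.take_take, Nat.min_eq_left hck']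
      have hb' : D.rho2 k' (((X.take D.p0).drop (D.c k')).map D.φ) = some b := by
        rw [List.map_drop]; exact hb
      have g1 := D.snd2 k' hkK (P'.map D.φ) (((X.take D.p0).drop (D.c k')).map D.φ) x b
        (by rw [List.length_map]; exact hP'l) hP'lam hb'
      have g2 := D.snd2 k' hkK ((X.take (D.c k')).map D.φ)
        (((X.take D.p0).drop (D.c k')).map D.φ) v b (by rw [List.length_map]; exact hPl) hlam' hb'
      rw [← List.map_append] at g1 g2
      rw [← htk] at g1
      rw [← htk2] at g2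
      rw [D.TT_eq, D.TT_eq, ← g1, ← g2, hd]
  · right
    -- the block of the wrong candidate
    set Q := X.drop (D.c k) ++ Y with hQdef
    have hex : ∃ j, D.n ≤ j ∧ j ≤ Q.length ∧ D.Wo (Q.take j) ∧ D.z ≤ D.c k' + j := by
      refine ⟨Q.length, by omega, le_rfl, ?_, by omega⟩
      rw [List.take_length, hQdef, D.loc _ _ (by omega)]
      exact hY.1.2.1
    obtain ⟨j1, j2, j3, j4⟩ := Nat.find_spec hex
    have jmin : ∀ j, D.n ≤ j → j ≤ Q.length → D.Wo (Q.take j) → D.z ≤ D.c k' + j →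
        Nat.find hex ≤ j := fun j a1 a2 a3 a4 => Nat.find_min' hex ⟨a1, a2, a3, a4⟩
    set j0 := Nat.find hex with hj0
    have hXYl : (X ++ Y).length = X.length + Y.length := List.length_append
    have htw : ∀ j, D.n ≤ j → j ≤ Q.length → (D.Wo ((X ++ Y).take (D.c k + j)) ↔ D.Wo (Q.take j)) := by
      intro j a1 a2
      have := D.wo_take (X.take (D.c k)) Q j a1 a2
      rw [hPQ, hPl] at this
      exact this
    have hX'l : (P' ++ Q.take j0).length = D.c k' + j0 := by
      rw [List.length_append, hP'l, List.length_take, Nat.min_eq_left j2]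
    have htk : ∀ j, j ≤ j0 → (P' ++ Q.take j0).take (D.c k' + j) = P' ++ Q.take j := by
      intro j a1
      rw [← hP'l, List.take_append]
      simp only [Nat.add_sub_cancel_left]
      rw [List.take_of_length_le (Nat.le_add_right _ _), List.take_take, Nat.min_eq_left a1]
    refine ⟨P' ++ Q.take j0, ⟨by rw [hX'l]; exact j4, ?_, ?_⟩, ?_, ?_⟩
    · rw [D.loc _ _ (by rw [List.length_take]; omega)]; exact j3
    · intro t h1 h2 h3
      rw [hX'l] at h2
      have e : t = D.c k' + (t - D.c k') := by omega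
      rw [e, htk _ (by omega), D.loc _ _ (by rw [List.length_take]; omega)] at h3
      have := jmin (t - D.c k') (by omega) (by omega) h3 (by omega)
      omega
    · rintro ⟨-, h | h⟩
      · obtain ⟨t, h1, h2, h3, h4⟩ := h
        rw [hX'l] at h3
        have e : t = D.c k' + (t - D.c k') := by omega
        rw [e, htk _ (by omega), D.loc _ _ (by rw [List.length_take]; omega)] at h4
        apply hkS
        simp only [Sp, Finset.mem_filter, Finset.mem_range]
        refine ⟨hkK, k', hk', hkk, Or.inl ⟨D.c k + (t - D.c k'), ⟨by omega, ?_⟩, by omega, by omega⟩⟩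
        exact (htw _ (by omega) (by omega)).2 h4
      · apply hkS
        simp only [Sp, Finset.mem_filter, Finset.mem_range]
        refine ⟨hkK, k', hk', hkk, Or.inr ⟨D.c k + j0, ⟨by omega, (htw _ j1 j2).2 j3⟩, by omega, ?_, ?_⟩⟩
        · rintro s ⟨s1, s2⟩ s3
          have e : s = D.c k + (s - D.c k) := by omega
          rw [e, htw _ (by omega) (by omega)] at s2
          have := jmin (s - D.c k) (by omega) (by omega) s2 (by omega)
          omega
        · rw [hX'l] at h
          have e : D.c k + j0 + D.c k' - D.c k - D.p0 = D.c k' + j0 - D.p0 := by omega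
          rw [e]; exact h
    · exact ⟨Q.drop j0, by rw [List.append_assoc, List.take_append_drop]⟩

end Dat

end Crest.Agent.R320.Inst_591
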