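import Crest.Agent.R320.Hk2_851
import Crest.Agent.R320.Pump_360
import Crest.Agent.R320.MarkAll_813

/-!
# Row 320: left-looking walls on all words and the base lemma `HL 1` (helper598)
-/

set_option autoImplicit false

namespace Crest.Agent.R320.Inst_598

open Crest.RegLang Crest.Agent.R320.Hk_851 Crest.Agent.R320.Pump_360

universe u

variable {α : Type u}

/-- left-looking wall rule on all words -/
structure Walls (α : Type u) (n W : ℕ) (Wo : List α → Prop) : Prop where
  loc : ∀ P Q : List α, n ≤ Q.length → (Wo (P ++ Q) ↔ Wo Q)
  len : ∀ X, Wo X → n ≤ X.length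
  sep : ∀ (X : List α) (s t : ℕ), s < t → t ≤ X.length → Wo (X.take s) → Wo (X.take t) → W < t - s
  tmpl : ∃ B : ℕ, ∀ X : List α, (∀ t, t < X.length → ¬ Wo (X.take t)) →
    ∃ (u x v : List α) (k : ℕ), u.length ≤ B ∧ x.length ≤ B ∧ v.length ≤ B ∧ X = u ++ pw x k ++ v

theorem exists_walls (α : Type u) [Finite α] (W : ℕ) (hW : 0 < W) :
    ∃ (n : ℕ) (Wo : List α → Prop), Walls α n W Wo := by
  obtain ⟨n, B, R, h1, h2, h3, -, h5⟩ := MarkAll_813.exists_marks' α W hW
  refine ⟨n, fun X => R X.reverse, ?_, ?_, ?_, ?_⟩
  · intro P Q hQ
    rw [List.reverse_append, h1 (Q.reverse ++ P.reverse),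
      List.take_append_of_le_length (by simpa using hQ), ← h1]
  · intro X hX
    simpa using h2 _ hX
  · intro X s t hst ht hs ht'
    by_contra hc
    push Not at hc
    refine h3 _ (t - s) ht' (by omega) hc ?_
    have e : ((X.take t).reverse).drop (t - s) = (X.take s).reverse := by
      rw [List.drop_reverse, List.take_take, List.length_take]
      congr 2
      omega
    rw [e]; exact hs
  · refine ⟨max B W, fun X hX => ?_⟩
    obtain ⟨u, x, v, k, hu, hx, hv, e⟩ := h5 X.reverse (by
      intro i hi
      by_cases hlt : i < X.length
      · have := hX (X.length - i) (by omega)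
        rw [List.drop_reverse]
        exact this
      · push Not at hlt
        rw [List.drop_eq_nil_of_le (by simpa using hlt)]
        intro h
        exact h3 [] 1 h one_pos hW (by simpa using h))
    refine ⟨v.reverse, x.reverse, u.reverse, k, by simp; omega, by simp; omega, by simp; omega, ?_⟩
    have := congrArg List.reverse e
    rw [List.reverse_reverse] at this
    rw [this]
    simp [pw, List.reverse_append, List.append_assoc, List.reverse_flatten]


variable {n W : ℕ} {Wo : List α → Prop}

/-- the pumping hypothesis of the base lemma -/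
def PInv (L : Language α) : Prop :=
  ∃ E M : ℕ, 0 < M ∧ ∀ (u x v : List α) (k : ℕ), E ≤ k →
    (u ++ pw x k ++ v ∈ L ↔ u ++ pw x (k + M) ++ v ∈ L)

/-- **base lemma**: a pump-invariant language of words without walls at the places of `[z, |w|)` -/
theorem base [Finite α] (hW : Walls α n W Wo) (z : ℕ) (L : Language α)
    (hno : ∀ w ∈ L, ∀ t, z ≤ t → t < w.length → ¬ Wo (w.take t)) (hp : PInv L) : HL 1 L := by
  obtain ⟨B, hB⟩ := hW.tmpl
  obtain ⟨E, M, hM, hp⟩ := hp
  refine pump (L := L) 2 (z + B + n) E M hM ?_ (fun u x v k _ hk => hp u x v k hk)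
  intro w hw
  obtain ⟨u, x, v, k, hu, hx, hv, e⟩ := hB (w.drop z) (by
    intro t ht hWt
    rw [List.length_drop] at ht
    have hn := hW.len _ hWt
    have e1 : w.take (z + t) = w.take z ++ (w.drop z).take t := by
      rw [List.take_add]
    refine hno w hw (z + t) (by omega) (by omega) ?_
    rw [e1]
    exact (hW.loc _ _ hn).2 hWt)
  refine ⟨[(w.take z ++ u, x, k), (v, [], 0)], by simp, ?_, ?_⟩
  · intro t ht
    simp only [List.mem_cons, List.not_mem_nil, or_false] at ht
    rcases ht with rfl | rfl
    · refine ⟨?_, by simp; omega⟩
      simp only [List.length_append, List.length_take]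
      omega
    · simp; omega
  · rw [val_cons, val_cons, val_nil]
    simp only [pw_zero, List.append_nil]
    conv_lhs => rw [← List.take_append_drop z w, e]
    simp [List.append_assoc]

/-- one more period deep in a run: the walls -/
theorem wall_step (hW : Walls α n W Wo) (u x v : List α) (k : ℕ) (hk : n ≤ (pw x k ++ v).length) :
    (Wo (u ++ pw x k ++ v) ↔ Wo (u ++ pw x (k + 1) ++ v)) := by
  rw [pw_succ, List.append_assoc, hW.loc u _ hk]
  have : u ++ (x ++ pw x k) ++ v = (u ++ x) ++ (pw x k ++ v) := by simp [List.append_assoc]
  rw [this, hW.loc (u ++ x) _ hk]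

theorem pw_length (x : List α) (k : ℕ) : (pw x k).length = k * x.length := by
  induction k with
  | zero => simp [pw_zero]
  | succ k ih => rw [pw_succ, List.length_append, ih]; ring

theorem pw_nil (k : ℕ) : pw ([] : List α) k = [] := by
  have := pw_length ([] : List α) k
  simpa using this

/-- existence of a wall in `[z, |w|)` -/
def HasW (Wo : List α → Prop) (z : ℕ) (w : List α) : Prop :=
  ∃ t, z ≤ t ∧ t < w.length ∧ Wo (w.take t)

theorem hasW_step (hW : Walls α n W Wo) (z : ℕ) (u x v : List α) (k : ℕ) (hk : n + z + 1 ≤ k) :
    (HasW Wo z (u ++ pw x k ++ v) ↔ HasW Wo z (u ++ pw x (k + 1) ++ v)) := by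
  by_cases hx : x = []
  · subst hx; simp [pw_nil]
  have hx1 : 1 ≤ x.length := List.length_pos_iff.2 hx
  have hl : k ≤ k * x.length := Nat.le_mul_of_pos_right k hx1
  have hl' : k * x.length + x.length = (k + 1) * x.length := by ring
  constructor
  · rintro ⟨t, h1, h2, h3⟩
    by_cases hc : t ≤ u.length + k * x.length
    · refine ⟨t, h1, ?_, ?_⟩
      · simp only [List.length_append, pw_length] at h2 ⊢; omega
      · have e1 : (u ++ pw x k ++ v).take t = (u ++ pw x k).take t := by
          rw [List.take_append_of_le_length (by simp only [List.length_append, pw_length]; omega)]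
        have e2 : (u ++ pw x (k + 1) ++ v).take t = (u ++ pw x k).take t := by
          have : u ++ pw x (k + 1) ++ v = (u ++ pw x k) ++ (pw x 1 ++ v) := by
            rw [pw_add]; simp [List.append_assoc]
          rw [this, List.take_append_of_le_length
            (by simp only [List.length_append, pw_length]; omega)]
        rw [e2, ← e1]; exact h3
    · push Not at hc
      refine ⟨t + x.length, by omega, ?_, ?_⟩
      · simp only [List.length_append, pw_length] at h2 ⊢; omega
      · obtain ⟨r, hr⟩ : ∃ r, t = (u ++ pw x k).length + r :=
          ⟨t - (u ++ pw x k).length, by simp only [List.length_append, pw_length]; omega⟩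
        have e1 : (u ++ pw x k ++ v).take t = u ++ pw x k ++ v.take r := by
          rw [hr, List.take_length_add_append]
        have e2 : (u ++ pw x (k + 1) ++ v).take (t + x.length) = u ++ pw x (k + 1) ++ v.take r := by
          have : t + x.length = (u ++ pw x (k + 1)).length + r := by
            rw [hr]; simp only [List.length_append, pw_length]; ring
          rw [this, List.take_length_add_append]
        rw [e2, ← wall_step hW u x (v.take r) k
          (by simp only [List.length_append, pw_length]; omega), ← e1]
        exact h3
  · rintro ⟨t, h1, h2, h3⟩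
    by_cases hc : t < u.length + k * x.length
    · refine ⟨t, h1, ?_, ?_⟩
      · simp only [List.length_append, pw_length] at h2 ⊢; omega
      · have e1 : (u ++ pw x k ++ v).take t = (u ++ pw x k).take t := by
          rw [List.take_append_of_le_length (by simp only [List.length_append, pw_length]; omega)]
        have e2 : (u ++ pw x (k + 1) ++ v).take t = (u ++ pw x k).take t := by
          have : u ++ pw x (k + 1) ++ v = (u ++ pw x k) ++ (pw x 1 ++ v) := by
            rw [pw_add]; simp [List.append_assoc]
          rw [this, List.take_append_of_le_length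
            (by simp only [List.length_append, pw_length]; omega)]
        rw [e1, ← e2]; exact h3
    · push Not at hc
      -- `u ++ x ++ (x^k v)` against `u ++ (x^k v)`
      have hsuc : (k - 1) + 1 = k := by omega
      have hkx : (k - 1) ≤ (k - 1) * x.length := Nat.le_mul_of_pos_right _ hx1
      have hkk : (k - 1) * x.length + x.length = k * x.length := by
        rw [← Nat.succ_mul, Nat.succ_eq_add_one, hsuc]
      obtain ⟨r, hr⟩ : ∃ r, t = u.length + x.length + r := ⟨t - (u.length + x.length), by omega⟩
      refine ⟨t - x.length, by omega, ?_, ?_⟩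
      · simp only [List.length_append, pw_length] at h2 ⊢; omega
      · have e1 : (u ++ pw x k ++ v).take (t - x.length) = u ++ (pw x k ++ v).take r := by
          have : t - x.length = u.length + r := by omega
          rw [this, List.append_assoc, List.take_length_add_append]
        have e2 : (u ++ pw x (k + 1) ++ v).take t = (u ++ x) ++ (pw x k ++ v).take r := by
          have e3 : u ++ pw x (k + 1) ++ v = (u ++ x) ++ (pw x k ++ v) := by
            rw [pw_succ]; simp [List.append_assoc]
          have e4 : t = (u ++ x).length + r := by rw [List.length_append]; exact hr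
          rw [e3, e4, List.take_length_add_append]
        have hlen : n ≤ ((pw x k ++ v).take r).length := by
          simp only [List.length_take, List.length_append, pw_length]
          simp only [List.length_append, pw_length] at h2
          omega
        rw [e1, hW.loc _ _ hlen]
        rw [e2, hW.loc _ _ hlen] at h3
        exact h3

/-- iteration of one-step invariance -/
theorem iter_step {P : List α → Prop} {E : ℕ}
    (h : ∀ (u x v : List α) (k : ℕ), E ≤ k → (P (u ++ pw x k ++ v) ↔ P (u ++ pw x (k + 1) ++ v)))
    (M : ℕ) : ∀ (u x v : List α) (k : ℕ), E ≤ k →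
      (P (u ++ pw x k ++ v) ↔ P (u ++ pw x (k + M) ++ v)) := by
  induction M with
  | zero => intro u x v k _; rfl
  | succ M ih =>
    intro u x v k hk
    rw [ih u x v k hk, h u x v (k + M) (by omega), Nat.add_assoc]

end Crest.Agent.R320.Inst_598
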