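import Crest.Agent.R320.Top5_120
import Crest.Agent.R320.FewVal_228

/-!
# Row 320: instance of `Top5_120.top5` on ALL words, natural chain (helper630), part A:
walls, block code, completeness of both schemes from black box gadgets.
-/

set_option autoImplicit false

namespace Crest.Agent.R320.Inst_630

open Crest.RegLang Crest.Agent.R320.Hk_851 Crest.Agent.R320.FewWalls_228
  Crest.Agent.R320.FewVal_228 Crest.Agent.R320.Blk467

universe u

section Walls

variable {α : Type u} {n : ℕ} {S : Set (List α)}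

/-- left-looking wall at place `t` -/
def Wt (n : ℕ) (S : Set (List α)) (w : List α) (t : ℕ) : Prop :=
  n ≤ t ∧ t ≤ w.length ∧ (w.drop (t - n)).take n ∈ S

theorem wt_right (P Q : List α) (s : ℕ) (hs : n ≤ s) :
    Wt n S (P ++ Q) (P.length + s) ↔ Wt n S Q s := by
  unfold Wt
  have h : (P ++ Q).drop (P.length + s - n) = Q.drop (s - n) := by
    rw [List.drop_append, List.drop_eq_nil_of_le (by omega), List.nil_append]
    congr 1
    omega
  rw [h, List.length_append]
  constructor
  · rintro ⟨h1, h2, h3⟩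
    exact ⟨hs, by omega, h3⟩
  · rintro ⟨h1, h2, h3⟩
    exact ⟨by omega, by omega, h3⟩

theorem wt_left (P Q : List α) (t : ℕ) (ht : t ≤ P.length) :
    Wt n S (P ++ Q) t ↔ Wt n S P t := by
  unfold Wt
  by_cases hn : n ≤ t
  · have h : ((P ++ Q).drop (t - n)).take n = (P.drop (t - n)).take n := by
      rw [List.drop_append_of_le_length (by omega), List.take_append_of_le_length]
      rw [List.length_drop]; omega
    rw [h, List.length_append]
    constructor
    · rintro ⟨h1, h2, h3⟩
      exact ⟨h1, ht, h3⟩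
    · rintro ⟨h1, h2, h3⟩
      exact ⟨h1, by omega, h3⟩
  · constructor
    · rintro ⟨h1, -⟩; exact absurd h1 hn
    · rintro ⟨h1, -⟩; exact absurd h1 hn

theorem wt_swap (P P' Q : List α) (t : ℕ) (h : P'.length + n ≤ t) :
    Wt n S (P' ++ Q) t ↔ Wt n S (P ++ Q) (t - P'.length + P.length) := by
  have e1 : t = P'.length + (t - P'.length) := by omega
  have e2 : t - P'.length + P.length = P.length + (t - P'.length) := by omega
  rw [e2, wt_right P Q _ (by omega)]
  conv_lhs => rw [e1]
  rw [wt_right P' Q _ (by omega)]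

theorem nw_le {z : ℕ} (w : List α) (h : ∀ t, z ≤ t → t < w.length → ¬ Wt n S w t) :
    nw n S w ≤ z + 1 := by
  classical
  unfold nw
  refine le_trans (Finset.card_le_card (t := insert (w.length - n) (Finset.range z)) ?_) ?_
  · intro x hx
    obtain ⟨-, h1, h2⟩ := Finset.mem_filter.1 hx
    rw [Finset.mem_insert, Finset.mem_range]
    by_contra hc
    push Not at hc
    refine h (x + n) (by omega) (by omega) ⟨by omega, h1, ?_⟩
    rw [Nat.add_sub_cancel]; exact h2
  · refine le_trans (Finset.card_insert_le _ _) ?_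
    rw [Finset.card_range]

end Walls

variable {α : Type u}

/-- product -/
def ph {α S : Type*} [Monoid S] (φ : α → S) (w : List α) : S := (w.map φ).prod

theorem ph_append {α S : Type*} [Monoid S] (φ : α → S) (u v : List α) :
    ph φ (u ++ v) = ph φ u * ph φ v := by
  unfold ph; rw [List.map_append, List.prod_append]

structure Dat (α : Type u) (S V : Type*) [Monoid S] [AddCommGroup V] where
  φ : α → S
  act : V → S → V
  n : ℕ
  z : ℕ
  p0 : ℕ
  N1 : ℕ
  N0 : ℕ
  K1 : ℕ
  Mo : ℕ
  K : ℕ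
  R : ℕ
  Sw : Set (List α)
  BT : ℕ → Prop
  lam : List α → Option V
  rho : List α → Option V
  nu1 : List α → V
  c : ℕ → ℕ
  lam2 : ℕ → List α → Option V
  rho2 : ℕ → List α → Option V
  nu2 : List α → V
  hadd : ∀ a b s, act (a + b) s = act a s + act b s
  hone : ∀ v, act v 1 = v
  hmul : ∀ v s t, act v (s * t) = act (act v s) t
  hfaith : ∀ s t, (∀ v, act v s = act v t) → s = t
  hMo : 0 < Mo
  hz : p0 + N1 + n < z
  hz0 : p0 + N0 ≤ z
  hN1 : 0 < N1
  hsep : ∀ (w : List α) (s t : ℕ), s < t → Wt n Sw w s → Wt n Sw w t → s + (2 * p0 + N1) < t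
  hBT : ∀ a, BT (a + Mo) ↔ BT a
  gl : ∀ P v, lam P = some v → P.length < N1
  gs : ∀ P Q v b, lam P = some v → rho Q = some b → b = act v (ph φ (P ++ Q)) + nu1 (P ++ Q)
  gc : ∀ u : List α, N0 ≤ u.length → ¬ BT u.length → ∀ v, ∃ P Q, u = P ++ Q ∧
    lam P = some v ∧ (rho Q).isSome
  g5 : ∀ u u' : List α, K1 ≤ u.length → K1 ≤ u'.length → u.take K1 = u'.take K1 →
    u.length % Mo = u'.length % Mo → ph φ u = ph φ u' → nu1 u = nu1 u'
  hc : ∀ k < K, c k ≤ p0
  es : ∀ k < K, ∀ P Q v b, P.length = c k → lam2 k P = some v → rho2 k Q = some b →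
    b = act v (ph φ (P ++ Q)) + nu2 (P ++ Q)
  ec : ∀ (u : List α) (v : V), (∀ k < K, c k ≤ u.length) → ∃ I : Finset ℕ, R ≤ I.card ∧
    ∀ k ∈ I, k < K ∧ lam2 k (u.take (c k)) = some v ∧ (rho2 k (u.drop (c k))).isSome
  cnt : ∀ wa wb : ℕ, ∃ J : Finset ℕ, J.card < R ∧ ∀ j < K, j ∉ J → ∀ j' < K, j' ≠ j →
    ∀ w, (w = wa ∨ w = wb) → ∀ T, T + c j = w + c j' →
      ¬ (z < T + N1 ∧ T < z + N1) ∧ (z ≤ T → ¬ BT (T - p0))

namespace Dat

variable {S V : Type*} [Monoid S] [AddCommGroup V] (D : Dat α S V)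

def W (w : List α) (t : ℕ) : Prop := Wt D.n D.Sw w t

def C : Set (List α) :=
  {X | D.z ≤ X.length ∧ D.W X X.length ∧ ∀ t, D.z ≤ t → t < X.length → ¬ D.W X t}

def BadW (X : List α) : Prop :=
  (∃ t, D.z < t + D.N1 ∧ t < D.z + D.N1 ∧ D.W X t) ∨ D.BT (X.length - D.p0)

def Bad : Set (List α) := {X | X ∈ D.C ∧ D.BadW X}

def nu (X : List α) : V :=
  D.act (D.nu2 (X.take D.p0)) (ph D.φ (X.drop D.p0)) + D.nu1 (X.drop D.p0)

def T (v : V) (X : List α) : V := D.act v (ph D.φ X) + D.nu X

theorem T_eq (v : V) (X : List α) :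
    D.T v X = D.act (D.act v (ph D.φ (X.take D.p0)) + D.nu2 (X.take D.p0)) (ph D.φ (X.drop D.p0))
      + D.nu1 (X.drop D.p0) := by
  unfold T nu
  rw [D.hadd, ← D.hmul, ← ph_append, List.take_append_drop, add_assoc]

def L1 (v : V) : Set (List α) :=
  {P | D.p0 ≤ P.length ∧
    D.lam (P.drop D.p0) = some (D.act v (ph D.φ (P.take D.p0)) + D.nu2 (P.take D.p0))}

def L2 (v : V) : Set (List α) := {P | ∃ k < D.K, P.length = D.c k ∧ D.lam2 k P = some v}

theorem L1_finite [Finite α] (v : V) : (D.L1 v).Finite := by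
  refine (List.finite_length_lt α (D.p0 + D.N1)).subset ?_
  rintro P ⟨h1, h2⟩
  have := D.gl _ _ h2
  rw [List.length_drop] at this
  show P.length < D.p0 + D.N1
  omega

theorem L2_finite [Finite α] (v : V) : (D.L2 v).Finite := by
  refine (List.finite_length_lt α (D.p0 + 1)).subset ?_
  rintro P ⟨k, hk, h1, h2⟩
  have := D.hc k hk
  show P.length < D.p0 + 1
  omega

theorem pcode : PCode D.C := by
  constructor
  · rintro ⟨h, -⟩
    have := D.hz
    simp at h
    omega
  · intro X hX Y hY hp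
    obtain ⟨t, rfl⟩ := hp
    by_contra hne
    have hl : 0 < t.length := List.length_pos_iff.2 (by rintro rfl; simp at hne)
    exact hY.2.2 X.length hX.1 (by rw [List.length_append]; omega)
      ((wt_left X t _ le_rfl).2 hX.2.1)

theorem cc1 (X : List α) (hX : X ∈ D.C) (hXb : X ∉ D.Bad) (v : V) :
    ∃ P Q, P ++ Q = X ∧ P ∈ D.L1 v ∧ ∀ x, ∀ P' ∈ D.L1 x, P' ++ Q ∈ D.C ∧
      D.T x (P' ++ Q) = D.T v X := by
  have hz := D.hz
  have hz0 := D.hz0
  have hb : ¬ D.BadW X := fun h => hXb ⟨hX, h⟩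
  have hE : ∀ t, D.z < t + D.N1 → t < D.z + D.N1 → ¬ D.W X t := by
    intro t h1 h2 h3
    exact hb (Or.inl ⟨t, h1, h2, h3⟩)
  have hB : ¬ D.BT (X.length - D.p0) := fun h => hb (Or.inr h)
  have hXz := hX.1
  obtain ⟨P1, Q, e, hl, hr⟩ := D.gc (X.drop D.p0) (by rw [List.length_drop]; omega)
    (by rw [List.length_drop]; exact hB)
    (D.act v (ph D.φ (X.take D.p0)) + D.nu2 (X.take D.p0))
  obtain ⟨b, hb'⟩ := Option.isSome_iff_exists.1 hr
  have htl : (X.take D.p0).length = D.p0 := by rw [List.length_take]; omega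
  have hP1 := D.gl _ _ hl
  have eX : X.take D.p0 ++ P1 ++ Q = X := by
    rw [List.append_assoc, ← e, List.take_append_drop]
  have hXl : X.length = D.p0 + P1.length + Q.length := by
    rw [← eX]; simp only [List.length_append, htl]
  have hXbig : D.z + D.N1 ≤ X.length := by
    by_contra hcon
    exact hE X.length (by have := D.hN1; omega) (by omega) hX.2.1
  refine ⟨X.take D.p0 ++ P1, Q, eX, ⟨?_, ?_⟩, ?_⟩
  · rw [List.length_append, htl]; omega
  · have e1 : (X.take D.p0 ++ P1).drop D.p0 = P1 := by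
      conv_lhs => rw [← htl]
      simp
    have e2 : (X.take D.p0 ++ P1).take D.p0 = X.take D.p0 := by
      rw [List.take_append_of_le_length (by omega), List.take_of_length_le (by omega)]
    rw [e1, e2]
    exact hl
  · rintro x P' ⟨h1, h2⟩
    have hP' := D.gl _ _ h2
    rw [List.length_drop] at hP'
    have hsw : ∀ t, P'.length + D.n ≤ t →
        (D.W (P' ++ Q) t ↔ D.W X (t - P'.length + (D.p0 + P1.length))) := by
      intro t ht
      have := wt_swap (n := D.n) (S := D.Sw) (X.take D.p0 ++ P1) P' Q t ht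
      rw [eX, List.length_append, htl] at this
      exact this
    refine ⟨⟨?_, ?_, ?_⟩, ?_⟩
    · rw [List.length_append]; omega
    · rw [hsw _ (by rw [List.length_append]; omega)]
      rw [List.length_append]
      have : P'.length + Q.length - P'.length + (D.p0 + P1.length) = X.length := by omega
      rw [this]
      exact hX.2.1
    · intro t ht1 ht2 hw
      rw [List.length_append] at ht2
      rw [hsw t (by omega)] at hw
      by_cases hc : t - P'.length + (D.p0 + P1.length) < D.z + D.N1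
      · exact hE _ (by omega) hc hw
      · exact hX.2.2 _ (by omega) (by omega) hw
    · rw [D.T_eq, D.T_eq]
      have e1 : (P' ++ Q).take D.p0 = P'.take D.p0 := List.take_append_of_le_length h1
      have e2 : (P' ++ Q).drop D.p0 = P'.drop D.p0 ++ Q := List.drop_append_of_le_length h1
      rw [e1, e2, e, ← D.gs _ _ _ _ h2 hb', ← D.gs _ _ _ _ hl hb']

theorem cc2 (X : List α) (hX : X ∈ D.Bad) (Y : List α) (hY : Y ∈ D.Bad) (v : V) :
    ∃ P Q, P ++ Q = X ++ Y ∧ P ∈ D.L2 v ∧ ∀ x, ∀ P' ∈ D.L2 x,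
      (∃ X' ∈ D.Bad, ∃ Y' ∈ D.C, X' ++ Y' = P' ++ Q ∧ D.T (D.T x X') Y' = D.T (D.T v X) Y) ∨
      (∃ X' ∈ D.C, X' ∉ D.Bad ∧ X' <+: P' ++ Q) := by
  classical
  have hz := D.hz
  have hz0 := D.hz0
  have hXz := hX.1.1
  have hYz := hY.1.1
  -- the walls wa, wb
  have hex1 : ∃ w, D.z ≤ w + D.p0 + D.N1 ∧ D.W (X ++ Y) w :=
    ⟨X.length, by omega, (wt_left X Y _ le_rfl).2 hX.1.2.1⟩
  obtain ⟨ha1, ha2⟩ := Nat.find_spec hex1
  have ha3 := fun m (hm : m < Nat.find hex1) => Nat.find_min hex1 hm
  have ha4 : Nat.find hex1 ≤ X.length :=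
    Nat.find_min' hex1 ⟨by omega, (wt_left X Y _ le_rfl).2 hX.1.2.1⟩
  generalize Nat.find hex1 = wa at ha1 ha2 ha3 ha4
  have hend : D.W (X ++ Y) (X.length + Y.length) :=
    (wt_right X Y _ (by omega)).2 hY.1.2.1
  have hex2 : ∃ w, wa < w ∧ D.W (X ++ Y) w := ⟨X.length + Y.length, by omega, hend⟩
  obtain ⟨hb1, hb2⟩ := Nat.find_spec hex2
  have hb3 := fun m (hm : m < Nat.find hex2) => Nat.find_min hex2 hm
  have hb4 : Nat.find hex2 ≤ X.length + Y.length := Nat.find_min' hex2 ⟨by omega, hend⟩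
  generalize Nat.find hex2 = wb at hb1 hb2 hb3 hb4
  have hsep := D.hsep _ _ _ hb1 ha2 hb2
  have hwab : ∀ w, D.z ≤ w + D.p0 + D.N1 → w ≤ wb → D.W (X ++ Y) w → w = wa ∨ w = wb := by
    intro w h1 h2 h3
    by_contra hcon
    push Not at hcon
    rcases Nat.lt_trichotomy w wa with h | h | h
    · exact ha3 w h ⟨h1, h3⟩
    · exact hcon.1 h
    · exact hb3 w (by omega) ⟨h, h3⟩
  obtain ⟨J, hJ1, hJ2⟩ := D.cnt wa wb
  obtain ⟨I, hI1, hI2⟩ := D.ec (X.take D.p0) v (by
    intro k hk
    have := D.hc k hk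
    rw [List.length_take]; omega)
  obtain ⟨j, hjI, hjJ⟩ : ∃ j ∈ I, j ∉ J := by
    by_contra hcon
    push Not at hcon
    have := Finset.card_le_card (show I ⊆ J from hcon)
    omega
  obtain ⟨hjK, hlj, hrj⟩ := hI2 j hjI
  obtain ⟨b, hb⟩ := Option.isSome_iff_exists.1 hrj
  have hcj := D.hc j hjK
  have etk : (X.take D.p0).take (D.c j) = X.take (D.c j) := by
    rw [List.take_take, Nat.min_eq_left hcj]
  rw [etk] at hlj
  have hPl : (X.take (D.c j)).length = D.c j := by rw [List.length_take]; omega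
  have hX1 : X.take D.p0 = X.take (D.c j) ++ (X.take D.p0).drop (D.c j) := by
    conv_lhs => rw [← List.take_append_drop (D.c j) (X.take D.p0), etk]
  have hXs : X.take (D.c j) ++ X.drop (D.c j) = X := List.take_append_drop _ _
  refine ⟨X.take (D.c j), X.drop (D.c j) ++ Y, ?_, ⟨j, hjK, hPl, hlj⟩, ?_⟩
  · rw [← List.append_assoc, hXs]
  · rintro x P' ⟨j', hj'K, hP'l, hP'2⟩
    have hcj' := D.hc j' hj'K
    by_cases hjj : j' = j
    · subst hjj
      left
      have hsw : ∀ t, D.p0 + D.n ≤ t → (D.W (P' ++ X.drop (D.c j')) t ↔ D.W X t) := by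
        intro t ht
        have := wt_swap (n := D.n) (S := D.Sw) (X.take (D.c j')) P' (X.drop (D.c j')) t (by omega)
        rw [hXs, hPl, hP'l, Nat.sub_add_cancel (by omega)] at this
        exact this
      have hlen : (P' ++ X.drop (D.c j')).length = X.length := by
        rw [List.length_append, List.length_drop, hP'l]; omega
      refine ⟨P' ++ X.drop (D.c j'), ⟨⟨?_, ?_, ?_⟩, ?_⟩, Y, hY.1, by simp, ?_⟩
      · rw [hlen]; exact hXz
      · rw [hlen, hsw _ (by omega)]; exact hX.1.2.1
      · intro t h1 h2 h3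
        rw [hsw t (by omega)] at h3
        rw [hlen] at h2
        exact hX.1.2.2 t h1 h2 h3
      · rcases hX.2 with ⟨t, h1, h2, h3⟩ | h
        · exact Or.inl ⟨t, h1, h2, (hsw t (by omega)).2 h3⟩
        · exact Or.inr (by rw [hlen]; exact h)
      · congr 1
        rw [D.T_eq, D.T_eq]
        have e1 : (P' ++ X.drop (D.c j')).drop D.p0 = X.drop D.p0 := by
          rw [List.drop_append, List.drop_eq_nil_of_le (by omega), List.nil_append,
            List.drop_drop, hP'l]
          congr 1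
          omega
        have e2 : (P' ++ X.drop (D.c j')).take D.p0 = P' ++ (X.take D.p0).drop (D.c j') := by
          rw [List.take_append, List.take_of_length_le (by omega), hP'l, List.drop_take]
        rw [e1, e2]
        congr 2
        have h1 := D.es _ hj'K P' _ _ _ hP'l hP'2 hb
        have h2 := D.es _ hj'K (X.take (D.c j')) _ _ _ hPl hlj hb
        rw [← hX1] at h2
        rw [← h1, ← h2]
    · right
      set Q := X.drop (D.c j) ++ Y with hQ
      have hPQ : X.take (D.c j) ++ Q = X ++ Y := by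
        rw [hQ, ← List.append_assoc, hXs]
      have hsw : ∀ t, D.p0 + D.n ≤ t → (D.W (P' ++ Q) t ↔ D.W (X ++ Y) (t - D.c j' + D.c j)) := by
        intro t ht
        have := wt_swap (n := D.n) (S := D.Sw) (X.take (D.c j)) P' Q t (by omega)
        rw [hPQ, hPl, hP'l] at this
        exact this
      have hwb : D.W (P' ++ Q) (wb - D.c j + D.c j') := by
        rw [hsw _ (by omega)]
        have : wb - D.c j + D.c j' - D.c j' + D.c j = wb := by omega
        rw [this]; exact hb2
      have hex : ∃ t, D.z ≤ t ∧ D.W (P' ++ Q) t := ⟨_, by omega, hwb⟩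
      obtain ⟨ht1, ht2⟩ := Nat.find_spec hex
      have ht3 := fun m (hm : m < Nat.find hex) => Nat.find_min hex hm
      have ht4 : Nat.find hex ≤ wb - D.c j + D.c j' := Nat.find_min' hex ⟨by omega, hwb⟩
      generalize Nat.find hex = t at ht1 ht2 ht3 ht4
      have htl : t ≤ (P' ++ Q).length := ht2.2.1
      have hX'l : ((P' ++ Q).take t).length = t := by rw [List.length_take]; omega
      have hX'W : ∀ s ≤ t, (D.W ((P' ++ Q).take t) s ↔ D.W (P' ++ Q) s) := by
        intro s hs
        have := wt_left (n := D.n) (S := D.Sw) ((P' ++ Q).take t) ((P' ++ Q).drop t) s (by omega)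
        rw [List.take_append_drop] at this
        exact this.symm
      -- every wall of the candidate in the band is `wa` or `wb`
      have hcand : ∀ s, D.z < s + D.N1 → s ≤ t → D.W (P' ++ Q) s →
          (s - D.c j' + D.c j = wa ∨ s - D.c j' + D.c j = wb) := by
        intro s h1 h2 h3
        rw [hsw s (by omega)] at h3
        exact hwab _ (by omega) (by omega) h3
      refine ⟨(P' ++ Q).take t, ⟨?_, ?_, ?_⟩, ?_, List.take_prefix _ _⟩
      · rw [hX'l]; exact ht1
      · rw [hX'l, hX'W t le_rfl]; exact ht2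
      · intro s h1 h2 h3
        rw [hX'l] at h2
        rw [hX'W s h2.le] at h3
        exact ht3 s h2 ⟨h1, h3⟩
      · rintro ⟨-, hbad⟩
        rcases hbad with ⟨s, h1, h2, h3⟩ | h
        · have hst : s ≤ t := by
            have := h3.2.1
            rw [hX'l] at this
            exact this
          rw [hX'W s hst] at h3
          have := hJ2 j hjK hjJ j' hj'K hjj _ (hcand s h1 hst h3) s (by omega)
          exact this.1 ⟨h1, h2⟩
        · rw [hX'l] at h
          have := hJ2 j hjK hjJ j' hj'K hjj _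
            (hcand t (by have := D.hN1; omega) le_rfl ht2) t (by omega)
          exact this.2 ht1 h

end Dat

end Crest.Agent.R320.Inst_630
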