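import Crest.Agent.R320.Main_621
import Crest.Agent.R320.ExactR_237
import Crest.Agent.R320.WallU_228
import Crest.Agent.R320.Reg_236

/-! Row 320: instance of `Main_621.Data`, zones and scheme A (helper640) -/

set_option autoImplicit false
set_option linter.all false

namespace Crest.Agent.R320.InstA_640

open Crest.Agent.R320.Hk_851 Crest.Agent.R320.Star_621 Crest.Agent.R320.Two_621

variable {α : Type}

/-- left-looking walls -/
structure LW (Wo : List α → Prop) (n W : ℕ) : Prop where
  loc : ∀ P Q : List α, n ≤ Q.length → (Wo (P ++ Q) ↔ Wo Q)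
  len : ∀ P, Wo P → n ≤ P.length
  gap : ∀ (P : List α) (d : ℕ), Wo P → 0 < d → d ≤ W → ¬ Wo (P.take (P.length - d))

/-- wall at position `i` of `Y` -/
abbrev wa (Wo : List α → Prop) (Y : List α) (i : ℕ) : Prop := Wo (Y.take i)

theorem LW.shift {Wo : List α → Prop} {n W : ℕ} (h : LW Wo n W) (P P' Q : List α) (hQ : n ≤ Q.length)
    (i j : ℕ) (hij : i + P'.length = j + P.length) (hi : P.length + n ≤ i) :
    Wo ((P ++ Q).take i) ↔ Wo ((P' ++ Q).take j) := by
  have e1 : (P ++ Q).take i = P ++ Q.take (i - P.length) := by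
    rw [List.take_append, List.take_of_length_le (by omega)]
  have e2 : (P' ++ Q).take j = P' ++ Q.take (i - P.length) := by
    rw [List.take_append, List.take_of_length_le (by omega)]
    congr 2; omega
  have hl : n ≤ (Q.take (i - P.length)).length := by rw [List.length_take]; omega
  rw [e1, e2, h.loc _ _ hl, h.loc _ _ hl]

/-- two walls at distance `≤ W` coincide -/
theorem LW.gap' {Wo : List α → Prop} {n W : ℕ} (h : LW Wo n W) {Y : List α} {i j : ℕ} (hij : i < j)
    (hj : j ≤ Y.length) (h1 : Wo (Y.take i)) (h2 : Wo (Y.take j)) : W < j - i := by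
  by_contra hc
  have := h.gap (Y.take j) (j - i) h2 (by omega) (by omega)
  rw [List.length_take, List.take_take] at this
  apply this
  have e : min (min j Y.length - (j - i)) j = i := by omega
  rw [e]; exact h1

/-- `t` is the first wall `≥ m` of the tail `Y` and `|Y|` is the next one -/
def YA (Wo : List α → Prop) (m : ℕ) (Y : List α) (t : ℕ) : Prop :=
  m ≤ t ∧ t < Y.length ∧ Wo (Y.take t) ∧ (∀ i, m ≤ i → i < t → ¬ Wo (Y.take i)) ∧ Wo Y ∧
    ∀ i, t < i → i < Y.length → ¬ Wo (Y.take i)

theorem YA.unique {Wo : List α → Prop} {m : ℕ} {Y : List α} {t t' : ℕ} (h : YA Wo m Y t)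
    (h' : YA Wo m Y t') : t = t' := by
  rcases lt_trichotomy t t' with hl | hl | hl
  · exact absurd h.2.2.1 (h'.2.2.2.1 t h.1 hl)
  · exact hl
  · exact absurd h'.2.2.1 (h.2.2.2.1 t' h'.1 hl)

/-- prefix code -/
theorem YA.code {Wo : List α → Prop} {m : ℕ} {Y Y' x x' : List α} {t t' : ℕ} (h : YA Wo m Y t)
    (h' : YA Wo m Y' t') (he : Y ++ x = Y' ++ x') : Y = Y' ∧ t = t' := by
  wlog hl : Y.length ≤ Y'.length generalizing Y Y' x x' t t'
  · obtain ⟨h1, h2⟩ := this h' h he.symm (by omega)
    exact ⟨h1.symm, h2.symm⟩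
  have hY : Y = Y'.take Y.length := by
    have := congrArg (List.take Y.length) he
    rw [List.take_left, List.take_append_of_le_length hl] at this
    exact this
  have htk : ∀ i, i ≤ Y.length → Y.take i = Y'.take i := by
    intro i hi
    have := congrArg (List.take i) hY
    rw [List.take_take, min_eq_left hi] at this
    exact this
  have e1 : t' ≤ t := by
    by_contra hc
    push Not at hc
    exact h'.2.2.2.1 t h.1 hc (by rw [← htk t h.2.1.le]; exact h.2.2.1)
  have e2 : t ≤ t' := by
    by_contra hc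
    push Not at hc
    exact h.2.2.2.1 t' h'.1 hc (by rw [htk t' (by have := h.2.1; omega)]; exact h'.2.2.1)
  have e : t = t' := le_antisymm e2 e1
  refine ⟨?_, e⟩
  by_cases hlt : Y.length < Y'.length
  · exfalso
    have := h'.2.2.2.2.2 Y.length (by rw [← e]; exact h.2.1) hlt
    rw [← hY] at this
    exact this h.2.2.2.2.1
  · rw [hY, List.take_of_length_le (by omega)]

open Classical in
/-- the first wall `≥ m` -/
noncomputable def fw (Wo : List α → Prop) (m : ℕ) (Y : List α) : ℕ :=
  if h : ∃ t, YA Wo m Y t then Classical.choose h else 0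

theorem fw_eq {Wo : List α → Prop} {m : ℕ} {Y : List α} {t : ℕ} (h : YA Wo m Y t) :
    fw Wo m Y = t := by
  have hex : ∃ t, YA Wo m Y t := ⟨t, h⟩
  unfold fw
  rw [dif_pos hex]
  exact (Classical.choose_spec hex).unique h

/-- product -/
def ph {S : Type} [Monoid S] (f : α → S) (w : List α) : S := (w.map f).prod

theorem ph_app {S : Type} [Monoid S] (f : α → S) (u v : List α) :
    ph f (u ++ v) = ph f u * ph f v := by simp [ph]

section schemeA

variable {S : Type} [Monoid S] (f : α → S) (Wo : List α → Prop) (p0 m N1 : ℕ)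
variable (lam rho : List α → Option (Tok S)) (nu : List α → Tok S) (BadN : ℕ → Prop)

/-- the zones -/
def Z (Wo : List α → Prop) (p0 m : ℕ) : Language α :=
  {z | p0 ≤ z.length ∧ ∃ t, YA Wo m (z.drop p0) t}

/-- noise of the tail -/
noncomputable def dY (f : α → S) (Wo : List α → Prop) (m : ℕ) (nu : List α → Tok S)
    (Y : List α) : Tok S :=
  act (nu (Y.take (fw Wo m Y))) (ph f (Y.drop (fw Wo m Y)))

noncomputable def dA (f : α → S) (Wo : List α → Prop) (p0 m : ℕ) (nu : List α → Tok S)
    (z : List α) : Tok S := dY f Wo m nu (z.drop p0)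

noncomputable def psiA (f : α → S) (Wo : List α → Prop) (p0 m : ℕ) (nu : List α → Tok S) :
    List α → Tok S → Tok S := aff (ph f) (dA f Wo p0 m nu)

def LA (f : α → S) (p0 : ℕ) (lam : List α → Option (Tok S)) (v : Tok S) : Language α :=
  {P | p0 ≤ P.length ∧ lam (P.drop p0) = some (act v (ph f (P.take p0)))}

def RA (f : α → S) (Wo : List α → Prop) (p0 m : ℕ) (lam : List α → Option (Tok S))
    (nu : List α → Tok S) (τ : Tok S) : Language α :=
  {Q | ∀ v P, P ∈ LA f p0 lam v → P ++ Q ∈ Z Wo p0 m ∧ psiA f Wo p0 m nu (P ++ Q) v = τ}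

/-- bad tails -/
def EB (Wo : List α → Prop) (m N1 : ℕ) (BadN : ℕ → Prop) (Y : List α) : Prop :=
  (∃ i, m ≤ i + N1 ∧ i ≤ m + N1 ∧ Wo (Y.take i)) ∨ BadN (fw Wo m Y)

def Zc (Wo : List α → Prop) (p0 m N1 : ℕ) (BadN : ℕ → Prop) : Language α :=
  {z | z ∈ Z Wo p0 m ∧ EB Wo m N1 BadN (z.drop p0)}

theorem code_Z (hm : 0 < m ∨ 0 < p0) : Code (Z Wo p0 m) := by
  constructor
  · rintro ⟨-, t, ht⟩
    have := ht.2.1
    simp at this
  · rintro z z' x x' ⟨h1, t, ht⟩ ⟨h1', t', ht'⟩ he
    have e1 : z.take p0 = z'.take p0 := by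
      have := congrArg (List.take p0) he
      rwa [List.take_append_of_le_length h1, List.take_append_of_le_length h1'] at this
    have e2 : z.drop p0 ++ x = z'.drop p0 ++ x' := by
      have := congrArg (List.drop p0) he
      rwa [List.drop_append_of_le_length h1, List.drop_append_of_le_length h1'] at this
    have e3 := (ht.code ht' e2).1
    rw [← List.take_append_drop p0 z, ← List.take_append_drop p0 z', e1, e3]

theorem soundA (hp0 : 0 < p0) : Sound (Z Wo p0 m) (psiA f Wo p0 m nu) (LA f p0 lam)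
    (RA f Wo p0 m lam nu) := by
  constructor
  · rintro v ⟨h, -⟩
    simp at h; omega
  · intro v τ P Q z x y hP hQ hz he
    obtain ⟨h1, h2⟩ := hQ v P hP
    have := (code_Z Wo p0 m (Or.inr hp0)).2 _ _ _ _ h1 hz he
    exact ⟨this, by rw [← this]; exact h2.symm⟩

theorem psiA_gadget (hsound : ∀ P Q v r, lam P = some v → rho Q = some r →
      r = act v (ph f (P ++ Q)) + nu (P ++ Q))
    {P Q1 R : List α} {v r : Tok S} (hP : P ∈ LA f p0 lam v) (hQ : rho Q1 = some r)
    (ht : YA Wo m ((P ++ (Q1 ++ R)).drop p0) ((P.drop p0).length + Q1.length)) :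
    psiA f Wo p0 m nu (P ++ (Q1 ++ R)) v = act r (ph f R) := by
  obtain ⟨h1, h2⟩ := hP
  have e0 : (P ++ (Q1 ++ R)).drop p0 = P.drop p0 ++ (Q1 ++ R) := by
    rw [List.drop_append_of_le_length h1]
  have hfw := fw_eq ht
  rw [e0] at hfw
  have e1 : (P.drop p0 ++ (Q1 ++ R)).take ((P.drop p0).length + Q1.length) = P.drop p0 ++ Q1 := by
    rw [← List.append_assoc, ← List.length_append, List.take_left]
  have e2 : (P.drop p0 ++ (Q1 ++ R)).drop ((P.drop p0).length + Q1.length) = R := by
    rw [← List.append_assoc, ← List.length_append, List.drop_left]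
  unfold psiA aff dA dY
  rw [e0, hfw, e1, e2, hsound _ _ _ _ h2 hQ, act_add, act_mul, act_mul, ← ph_app, ← ph_app]
  have e3 : P ++ (Q1 ++ R) = P.take p0 ++ (P.drop p0 ++ Q1 ++ R) := by
    rw [List.append_assoc (P.drop p0), ← List.append_assoc (P.take p0), List.take_append_drop]
  rw [e3]

theorem completeA {n W : ℕ} (hW : LW Wo n W) (hlam : ∀ P v, lam P = some v → P.length ≤ N1)
    (hsound : ∀ P Q v r, lam P = some v → rho Q = some r →
      r = act v (ph f (P ++ Q)) + nu (P ++ Q)) {A0 : ℕ}
    (hcomp : ∀ u : List α, A0 ≤ u.length → ¬ BadN u.length → ∀ v, ∃ p q, p ++ q = u ∧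
      lam p = some v ∧ (rho q).isSome) (hA0 : A0 ≤ m) (hm : N1 + n + N1 ≤ m)
    {z : List α} (hz : z ∈ Z Wo p0 m) (hzc : z ∉ Zc Wo p0 m N1 BadN) (v : Tok S) :
    Cut (LA f p0 lam) (RA f Wo p0 m lam nu) v z := by
  obtain ⟨h1, t, ht⟩ := hz
  have hgood : ¬ EB Wo m N1 BadN (z.drop p0) := fun h => hzc ⟨⟨h1, t, ht⟩, h⟩
  have hE : ∀ i, m ≤ i + N1 → i ≤ m + N1 → ¬ Wo ((z.drop p0).take i) := by
    intro i hi hi' hw
    exact hgood (Or.inl ⟨i, hi, hi', hw⟩)
  have hB : ¬ BadN t := by
    intro hb
    apply hgood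
    right
    rw [fw_eq ht]; exact hb
  set X := z.take p0 with hX
  set Y := z.drop p0 with hY
  have hzXY : z = X ++ Y := (List.take_append_drop p0 z).symm
  have hXl : X.length = p0 := by rw [hX, List.length_take]; omega
  have htY := ht.2.1
  have htm : m + N1 < t := by
    by_contra hc
    exact hE t (by have := ht.1; omega) (by omega) ht.2.2.1
  have hUl : (Y.take t).length = t := by rw [List.length_take]; omega
  obtain ⟨P', Q', hPQ, hlP, hrQ⟩ := hcomp (Y.take t) (by rw [hUl]; omega) (by rw [hUl]; exact hB)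
    (act v (ph f X))
  obtain ⟨r, hr⟩ := Option.isSome_iff_exists.1 hrQ
  have hP'l := hlam _ _ hlP
  have hPQl : P'.length + Q'.length = t := by rw [← List.length_append, hPQ, hUl]
  have hYe : Y = P' ++ (Q' ++ Y.drop t) := by
    rw [← List.append_assoc, hPQ, List.take_append_drop]
  refine ⟨X ++ P', Q' ++ Y.drop t, act r (ph f (Y.drop t)), ?_, ?_, ?_⟩
  · rw [List.append_assoc, ← hYe, ← hzXY]
  · refine ⟨by simp [hXl], ?_⟩
    rw [List.drop_left' hXl, List.take_left' hXl]
    exact hlP
  · intro v1 P1 hP1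
    have hP1l : p0 ≤ P1.length := hP1.1
    have hP1' : (P1.drop p0).length ≤ N1 := hlam _ _ hP1.2
    have e0 : (P1 ++ (Q' ++ Y.drop t)).drop p0 = P1.drop p0 ++ (Q' ++ Y.drop t) := by
      rw [List.drop_append_of_le_length hP1l]
    set D := P1.drop p0 with hD
    have hQl : n ≤ (Q' ++ Y.drop t).length := by
      rw [List.length_append]; omega
    have hdl : (Y.drop t).length = Y.length - t := List.length_drop
    have hlY : Y.length = P'.length + (Q'.length + (Y.length - t)) := by omega
    have key : ∀ i j, i + P'.length = j + D.length → D.length + n ≤ i →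
        (Wo ((D ++ (Q' ++ Y.drop t)).take i) ↔ Wo (Y.take j)) := by
      intro i j hij hi
      conv_rhs => rw [hYe]
      exact hW.shift D P' _ hQl i j hij hi
    have hnew : YA Wo m ((P1 ++ (Q' ++ Y.drop t)).drop p0) (D.length + Q'.length) := by
      rw [e0]
      refine ⟨by omega, ?_, ?_, ?_, ?_, ?_⟩
      · simp only [List.length_append, hdl]; omega
      · rw [key (D.length + Q'.length) t (by omega) (by omega)]
        exact ht.2.2.1
      · intro i hi1 hi2
        rw [key i (i + P'.length - D.length) (by omega) (by omega)]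
        by_cases hc : m ≤ i + P'.length - D.length
        · exact ht.2.2.2.1 _ hc (by omega)
        · exact hE _ (by omega) (by omega)
      · have := key (D.length + (Q'.length + (Y.length - t))) Y.length (by omega) (by omega)
        rw [List.take_of_length_le (by simp only [List.length_append, hdl]; omega),
          List.take_length] at this
        rw [this]
        exact ht.2.2.2.2.1
      · intro i hi1 hi2
        simp only [List.length_append, hdl] at hi2
        rw [key i (i + P'.length - D.length) (by omega) (by omega)]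
        exact ht.2.2.2.2.2 _ (by omega) (by omega)
    refine ⟨⟨by simp only [List.length_append]; omega, _, hnew⟩, ?_⟩
    exact psiA_gadget f Wo p0 m lam rho nu hsound hP1 hr hnew

end schemeA

end Crest.Agent.R320.InstA_640
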