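import Crest.Agent.R320.Top_270
import Crest.Agent.R320.Blk2_539

/-!
# Row 320: `c2` of 270's top from 539's blocks (helper722)
-/

set_option autoImplicit false
set_option linter.unusedSectionVars false

namespace Crest.Agent.R320.InstA_722

open Crest.Agent.R320 Crest.Agent.R320.Hk_851 Crest.Agent.R320.Blk163539
  Crest.Agent.R320.Code110

section
variable {α S V : Type} [Monoid S] [AddCommGroup V] (L : LRule α) (z p0 : ℕ) (φ : List α → S)
  (act : V → S → V) (g : G1 φ act) (nu2 : List α → V) (K : ℕ) (c : ℕ → ℕ)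
  (lam2 : ℕ → List α → Option V) (rho2 : ℕ → List α → Option V)

def Good (X : List α) : Prop :=
  z + g.N1 ≤ X.length ∧ (∀ t, z ≤ t + g.N1 → t < z → ¬ L.W (X.take t)) ∧
    ¬ g.BadT (X.length - p0)

def Zb : Language α := {X | X ∈ XX L z}

def tau (u : List α) (v : V) : V := TT p0 φ act g nu2 v u

def L1 (x : V) : Language α := {P | LP1 p0 φ act g nu2 P x}

def L2 (x : V) : Language α := {P | LP2 K c lam2 P x}

variable {L z p0 φ act g nu2 K c lam2 rho2}

theorem not_bad (hφ : ∀ u v, φ (u ++ v) = φ u * φ v)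
    (act_mul : ∀ v s s', act (act v s) s' = act v (s * s'))
    (act_add : ∀ v w s, act (v + w) s = act v s + act w s)
    (hz : p0 + g.N1 + L.n ≤ z) (hT0 : p0 + g.T0 ≤ z) {X : List α} (hX : X ∈ XX L z)
    (hG : Good L z p0 φ act g X) :
    X ∉ Top270.BadA (Zb L z) (tau p0 φ act g nu2) (L1 p0 φ act g nu2) := by
  rintro ⟨-, x, h⟩
  obtain ⟨P, Q, e, hp, hl, hr⟩ := comp1 (nu2 := nu2) hz hT0 hX hG.1 hG.2.1 hG.2.2 x
  obtain ⟨b, hb⟩ := Option.isSome_iff_exists.1 hr
  refine h ⟨P, Q, b, e, hl, ?_⟩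
  intro x' p' hp'
  left
  obtain ⟨h1, h2⟩ := s1 hφ act_mul act_add hz p' x' Q b hp' hb
  refine ⟨b, Language.mem_mul.2 ⟨p' ++ Q, ⟨h1, h2⟩, [], ⟨rfl, rfl⟩, by simp⟩⟩

theorem main2 (hφ : ∀ u v, φ (u ++ v) = φ u * φ v)
    (act_mul : ∀ v s s', act (act v s) s' = act v (s * s'))
    (act_add : ∀ v w s, act (v + w) s = act v s + act w s)
    (hz : p0 + g.N1 + L.n ≤ z) (hz0 : p0 < z) (hc : ∀ k < K, c k ≤ p0) (R0 : ℕ)
    (hex : ∀ k < K, ∀ (P Q : List α) (v b : V), P.length = c k → lam2 k P = some v →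
      rho2 k Q = some b → b = act v (φ (P ++ Q)) + nu2 (P ++ Q))
    (hcomp2 : ∀ (u : List α) (v : V), u.length = p0 → ∃ I : Finset ℕ, R0 < I.card ∧ ∀ k ∈ I,
      k < K ∧ lam2 k (u.take (c k)) = some v ∧ (rho2 k (u.drop (c k))).isSome)
    {X X2 : List α} (hX : X ∈ XX L z) (hX2 : X2 ∈ XX L z)
    (hspoil : ∀ J : Finset ℕ, (∀ k ∈ J, k < K ∧ ∃ k' < K, k' ≠ k ∧
      BadQ L z p0 φ act g c ((X ++ X2).drop (c k)) k') → J.card ≤ R0) (v : V) :
    ∃ k < K, ∃ y, lam2 k (X.take (c k)) = some v ∧ ∀ x' P', LP2 K c lam2 P' x' →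
      (∃ Z Y, P' ++ (X ++ X2).drop (c k) = Z ++ Y ∧ Z ∈ XX L z ∧ Good L z p0 φ act g Z) ∨
      (∃ Z, P' ++ (X ++ X2).drop (c k) = Z ++ X2 ∧ Z ∈ XX L z ∧
        TT p0 φ act g nu2 (TT p0 φ act g nu2 x' Z) X2 = y) := by
  classical
  have hXz := hX.1
  have hX2z := hX2.1
  have hu : (X.take p0).length = p0 := by rw [List.length_take]; omega
  obtain ⟨I, hI, hIk⟩ := hcomp2 (X.take p0) v hu
  obtain ⟨k, hkI, hns⟩ : ∃ k ∈ I, ¬ ∃ k' < K, k' ≠ k ∧
      BadQ L z p0 φ act g c ((X ++ X2).drop (c k)) k' := by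
    by_contra hcon
    push Not at hcon
    have := hspoil I fun k hk => ⟨(hIk k hk).1, by
      obtain ⟨k', h1, h2, h3⟩ := hcon k hk
      exact ⟨k', h1, h2, h3⟩⟩
    omega
  obtain ⟨hk, hlam, hrho⟩ := hIk k hkI
  have hck := hc k hk
  set Q := (X ++ X2).drop (c k) with hQ
  have hQe : Q = X.drop (c k) ++ X2 := by
    rw [hQ, List.drop_append_of_le_length (by omega)]
  have hdl : (X.drop (c k)).length = X.length - c k := List.length_drop
  have htake : ∀ s, s ≤ X.length - c k → Q.take s = (X.drop (c k)).take s := by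
    intro s hs
    rw [hQe, List.take_append_of_le_length (by omega)]
  have hWs : ∀ s, L.n ≤ s → s ≤ X.length - c k → (L.W (Q.take s) ↔ L.W (X.take (c k + s))) := by
    intro s hs1 hs2
    rw [htake s hs2, List.take_add]
    rw [L.loc (X.take (c k)) _ (by rw [List.length_take, hdl]; omega)]
  have hend : IsEnd L z c Q k (X.length - c k) := by
    refine ⟨by omega, by rw [hQe, List.length_append, hdl]; omega, ?_, ?_⟩
    · rw [hWs _ (by omega) le_rfl]
      have e : c k + (X.length - c k) = X.length := by omega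
      rw [e, List.take_length]
      exact hX.2.1
    · intro t' ht1 ht2
      rw [hWs _ (by omega) (by omega)]
      exact hX.2.2 _ (by omega) (by omega)
  obtain ⟨β, hβ⟩ := Option.isSome_iff_exists.1 hrho
  refine ⟨k, hk, TT p0 φ act g nu2 (act β (φ (X.drop p0)) + g.nu (X.drop p0)) X2, ?_, ?_⟩
  · have e : (X.take p0).take (c k) = X.take (c k) := by
      rw [List.take_take, min_eq_left hck]
    rw [← e]; exact hlam
  · rintro x' P' ⟨k', hk', hPl, hlam'⟩
    have hck' := hc k' hk'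
    have hWQ : L.W Q := by
      rw [hQe, L.loc _ _ (by omega)]
      exact hX2.2.1
    have hQl : Q.length = X.length - c k + X2.length := by
      rw [hQe, List.length_append, hdl]
    have hexEnd : ∃ t, z - c k' ≤ t ∧ t ≤ Q.length ∧ L.W (Q.take t) :=
      ⟨Q.length, by omega, le_rfl, by rw [List.take_length]; exact hWQ⟩
    have hend' : IsEnd L z c Q k' (Nat.find hexEnd) := by
      obtain ⟨a1, a2, a3⟩ := Nat.find_spec hexEnd
      refine ⟨a1, a2, a3, fun t' ht' hlt hW => ?_⟩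
      exact Nat.find_min hexEnd hlt ⟨ht', by omega, hW⟩
    generalize Nat.find hexEnd = t at hend'
    have hblk : P' ++ Q.take t ∈ XX L z := block_of_end (by omega) hck' hPl hend'
    have htl : (Q.take t).length = t := by rw [List.length_take]; have := hend'.2.1; omega
    by_cases hkk : k' = k
    · right
      subst hkk
      obtain rfl : t = X.length - c k' := hend'.unique hend
      have hQt : Q.take (X.length - c k') = X.drop (c k') := by
        rw [htake _ le_rfl, ← hdl, List.take_length]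
      rw [hQt] at hblk
      refine ⟨P' ++ X.drop (c k'), by rw [List.append_assoc, ← hQe], hblk, ?_⟩
      congr 1
      have e1 : X.drop (c k') = (X.take p0).drop (c k') ++ X.drop p0 := by
        conv_lhs => rw [← List.take_append_drop p0 X]
        rw [List.drop_append_of_le_length (by omega)]
      rw [e1, ← List.append_assoc,
        TT_split hφ act_mul act_add x' (by
          rw [List.length_append, List.length_drop, hu, hPl]; omega)]
      rw [hex k' hk P' _ x' β hPl hlam' hβ]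
    · left
      have hnb : ¬ BadQ L z p0 φ act g c Q k' := fun h => hns ⟨k', hk', hkk, h⟩
      have hn : ¬ (t + c k' < z + g.N1 ∨
        (∃ t', z ≤ t' + c k' + g.N1 ∧ t' + c k' < z ∧ t' ≤ Q.length ∧ L.W (Q.take t')) ∨
        g.BadT (t + c k' - p0)) := fun h => hnb ⟨t, hend', h⟩
      push Not at hn
      obtain ⟨n1, n2, n3⟩ := hn
      have hXl : (P' ++ Q.take t).length = c k' + t := by rw [List.length_append, htl, hPl]
      refine ⟨P' ++ Q.take t, Q.drop t, by rw [List.append_assoc, List.take_append_drop], hblk,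
        by rw [hXl]; omega, ?_, by rw [hXl, add_comm]; exact n3⟩
      intro s hs1 hs2 hW
      have e : (P' ++ Q.take t).take s = P' ++ Q.take (s - c k') := by
        rw [List.take_append, List.take_of_length_le (by omega), List.take_take, hPl,
          min_eq_left (by omega)]
      rw [e, L.loc P' _ (by rw [List.length_take]; have := hend'.2.1; omega)] at hW
      exact n2 (s - c k') (by omega) (by omega) (by have := hend'.2.1; omega) hW

theorem c2 (hφ : ∀ u v, φ (u ++ v) = φ u * φ v)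
    (act_mul : ∀ v s s', act (act v s) s' = act v (s * s'))
    (act_add : ∀ v w s, act (v + w) s = act v s + act w s)
    (hz : p0 + g.N1 + L.n ≤ z) (hT0 : p0 + g.T0 ≤ z) (hz0 : p0 < z)
    (hc : ∀ k < K, c k ≤ p0) (R0 : ℕ)
    (hex : ∀ k < K, ∀ (P Q : List α) (v b : V), P.length = c k → lam2 k P = some v →
      rho2 k Q = some b → b = act v (φ (P ++ Q)) + nu2 (P ++ Q))
    (hcomp2 : ∀ (u : List α) (v : V), u.length = p0 → ∃ I : Finset ℕ, R0 < I.card ∧ ∀ k ∈ I,
      k < K ∧ lam2 k (u.take (c k)) = some v ∧ (rho2 k (u.drop (c k))).isSome)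
    (hspoil : ∀ Z : List α, p0 ≤ Z.length → ∀ J : Finset ℕ,
      (∀ k ∈ J, k < K ∧ ∃ k' < K, k' ≠ k ∧
      BadQ L z p0 φ act g c (Z.drop (c k)) k') → J.card ≤ R0) :
    ∀ u ∈ Top270.BadA (Zb L z) (tau p0 φ act g nu2) (L1 p0 φ act g nu2), ∀ x,
      ∀ t ∈ Top270.BadA (Zb L z) (tau p0 φ act g nu2) (L1 p0 φ act g nu2),
      ∃ p q y, u ++ t = p ++ q ∧ p ∈ L2 K c lam2 x ∧
      q ∈ Rsem (Zb L z) (Top270.BadA (Zb L z) (tau p0 φ act g nu2) (L1 p0 φ act g nu2))
        (tau p0 φ act g nu2) 1 (L2 K c lam2) y := by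
  intro X hX v X2 hX2
  have hXX : X ∈ XX L z := hX.1
  have hXX2 : X2 ∈ XX L z := hX2.1
  have h1 := hXX.1
  obtain ⟨k, hk, y, hlam, hall⟩ := main2 (rho2 := rho2) hφ act_mul act_add hz hz0 hc R0 hex hcomp2 hXX hXX2
    (hspoil (X ++ X2) (by rw [List.length_append]; omega)) v
  have hck := hc k hk
  refine ⟨X.take (c k), (X ++ X2).drop (c k), y, ?_, ⟨k, hk, ?_, hlam⟩, ?_⟩
  · rw [List.drop_append_of_le_length (by omega), ← List.append_assoc, List.take_append_drop]
  · rw [List.length_take]; omega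
  · intro x' P' hP'
    rcases hall x' P' hP' with ⟨Z, Y, e1, e2, e3⟩ | ⟨Z, e1, e2, e3⟩
    · right
      left
      exact ⟨Z, e2, not_bad hφ act_mul act_add hz hT0 e2 e3, Y, e1.symm⟩
    · by_cases hZ : Z ∈ Top270.BadA (Zb L z) (tau p0 φ act g nu2) (L1 p0 φ act g nu2)
      · left
        refine ⟨tau p0 φ act g nu2 Z x', Language.mem_mul.2 ⟨Z, ⟨hZ, rfl⟩, X2, ?_, e1.symm⟩⟩
        exact ⟨y, Language.mem_mul.2 ⟨X2, ⟨hX2, e3⟩, [], ⟨rfl, rfl⟩, by simp⟩⟩
      · right
        left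
        exact ⟨Z, e2, hZ, X2, e1.symm⟩

end

end Crest.Agent.R320.InstA_722
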