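import Crest.Agent.R320.Top5_467
import Crest.Agent.R320.ExactR_237
import Crest.Agent.R320.FewVal_228
import Crest.Agent.R320.Ruler_302

/-!
# Row 320: instance of `top5` (helper753), part A: blocks with left-looking walls
-/

set_option autoImplicit false

namespace Crest.Agent.R320.Inst_753

open Crest.RegLang Crest.Agent.R320.Hk_851 Crest.Agent.R320.Blk467

variable {α : Type}

/-- left-looking walls -/
structure Walls (Wo : List α → Prop) (n W : ℕ) : Prop where
  loc : ∀ P Q : List α, n ≤ Q.length → (Wo (P ++ Q) ↔ Wo Q)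
  len : ∀ P, Wo P → n ≤ P.length
  gap : ∀ (X : List α) (s t : ℕ), s < t → t ≤ X.length → Wo (X.take s) → Wo (X.take t) → s + W ≤ t

def XX (Wo : List α → Prop) (z : ℕ) : Set (List α) :=
  {X | Wo X ∧ z ≤ X.length ∧ ∀ t, t < X.length → z ≤ t → ¬ Wo (X.take t)}

theorem pcode (Wo : List α → Prop) {z : ℕ} (hz : 0 < z) : PCode (XX Wo z) := by
  refine ⟨?_, ?_⟩
  · rintro ⟨_, h, _⟩
    simp at h; omega
  · rintro X ⟨h1, h2, h3⟩ Y ⟨g1, g2, g3⟩ ⟨r, rfl⟩
    by_contra hne
    have hr : r ≠ [] := by rintro rfl; simp at hne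
    have : 0 < r.length := List.length_pos_iff.2 hr
    refine g3 X.length (by rw [List.length_append]; omega) h2 ?_
    simpa using h1

theorem exists_block (Wo : List α → Prop) {z : ℕ} (w : List α) (t : ℕ) (ht : t ≤ w.length)
    (hzt : z ≤ t) (hw : Wo (w.take t)) :
    ∃ X ∈ XX Wo z, X <+: w ∧ X.length ≤ t := by
  classical
  have hex : ∃ t, z ≤ t ∧ t ≤ w.length ∧ Wo (w.take t) := ⟨t, hzt, ht, hw⟩
  obtain ⟨m1, m2, m3⟩ := Nat.find_spec hex
  have hmin := fun (m : ℕ) (h : m < Nat.find hex) => Nat.find_min hex h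
  have hle := Nat.find_min' hex ⟨hzt, ht, hw⟩
  generalize Nat.find hex = m at m1 m2 m3 hmin hle
  have hl : (w.take m).length = m := by rw [List.length_take]; omega
  refine ⟨w.take m, ⟨m3, by omega, ?_⟩, List.take_prefix _ _, by omega⟩
  intro s hs hzs hW
  rw [hl] at hs
  rw [List.take_take, min_eq_left hs.le] at hW
  exact hmin s hs ⟨hzs, by omega, hW⟩

theorem take_len_add (P Q : List α) (t : ℕ) : (P ++ Q).take (P.length + t) = P ++ Q.take t := by
  rw [List.take_append]; simp

theorem shift {Wo : List α → Prop} {n W : ℕ} (hW : Walls Wo n W) (P P' Q : List α) (t : ℕ)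
    (hn : n ≤ t) (ht : t ≤ Q.length) :
    Wo ((P ++ Q).take (P.length + t)) ↔ Wo ((P' ++ Q).take (P'.length + t)) := by
  rw [take_len_add, take_len_add, hW.loc _ _ (by rw [List.length_take]; omega),
    hW.loc _ _ (by rw [List.length_take]; omega)]

/-- the wall band -/
def EB (Wo : List α → Prop) (z N : ℕ) (X : List α) : Prop :=
  X.length < z + N ∨ ∃ t, t ≤ X.length ∧ z ≤ t + N ∧ t < z ∧ Wo (X.take t)

theorem junction1 {Wo : List α → Prop} {n W z N p0 : ℕ} (hW : Walls Wo n W)
    (hz : p0 + N + n ≤ z) {P P' Q : List α} (hX : P ++ Q ∈ XX Wo z) (hE : ¬ EB Wo z N (P ++ Q))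
    (h1 : p0 ≤ P.length) (h2 : P.length ≤ p0 + N) (h1' : p0 ≤ P'.length)
    (h2' : P'.length ≤ p0 + N) : P' ++ Q ∈ XX Wo z := by
  obtain ⟨x1, x2, x3⟩ := hX
  unfold EB at hE
  push Not at hE
  obtain ⟨e1, e2⟩ := hE
  rw [List.length_append] at e1 x2 x3
  have hQ : n ≤ Q.length := by omega
  refine ⟨?_, ?_, ?_⟩
  · rw [hW.loc _ _ hQ]
    rwa [hW.loc _ _ hQ] at x1
  · rw [List.length_append]; omega
  · intro t ht hzt hw
    rw [List.length_append] at ht
    obtain ⟨s, rfl⟩ : ∃ s, t = P'.length + s := ⟨t - P'.length, by omega⟩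
    rw [shift hW P' P Q s (by omega) (by omega)] at hw
    by_cases h : z ≤ P.length + s
    · exact x3 _ (by omega) h hw
    · exact e2 (P.length + s) (by rw [List.length_append]; omega) (by omega) (by omega) hw

theorem split_at (X : List α) (c : ℕ) (hc : c ≤ X.length) :
    ∃ P Q, X = P ++ Q ∧ P.length = c :=
  ⟨X.take c, X.drop c, (List.take_append_drop _ _).symm, by rw [List.length_take]; omega⟩

/-- changing the prefix of the same length (`≤ z - n`) keeps blocks -/
theorem same_len {Wo : List α → Prop} {n W z : ℕ} (hW : Walls Wo n W) {P P' Q : List α}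
    (hl : P'.length = P.length) (hz : P.length + n ≤ z) (hX : P ++ Q ∈ XX Wo z) :
    P' ++ Q ∈ XX Wo z := by
  obtain ⟨x1, x2, x3⟩ := hX
  rw [List.length_append] at x2 x3
  refine ⟨?_, ?_, ?_⟩
  · rw [hW.loc _ _ (by omega)]
    rwa [hW.loc _ _ (by omega)] at x1
  · rw [List.length_append]; omega
  · intro t ht hzt hw
    rw [List.length_append] at ht
    obtain ⟨s, rfl⟩ : ∃ s, t = P'.length + s := ⟨t - P'.length, by omega⟩
    rw [shift hW P' P Q s (by omega) (by omega)] at hw
    exact x3 _ (by omega) (by omega) hw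

theorem same_len_EB {Wo : List α → Prop} {n W z N : ℕ} (hW : Walls Wo n W) {P P' Q : List α}
    (hl : P'.length = P.length) (hz : P.length + N + n ≤ z) :
    EB Wo z N (P ++ Q) ↔ EB Wo z N (P' ++ Q) := by
  have key : ∀ P P' : List α, P'.length = P.length → P.length + N + n ≤ z →
      EB Wo z N (P ++ Q) → EB Wo z N (P' ++ Q) := by
    intro P P' hl hz h
    rcases h with h | ⟨t, h1, h2, h3, h4⟩
    · left; rw [List.length_append] at h ⊢; omega
    · right
      rw [List.length_append] at h1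
      refine ⟨t, by rw [List.length_append]; omega, h2, h3, ?_⟩
      obtain ⟨s, rfl⟩ : ∃ s, t = P.length + s := ⟨t - P.length, by omega⟩
      rw [shift hW P P' Q s (by omega) (by omega)] at h4
      rwa [hl] at h4
  exact ⟨key P P' hl hz, key P' P hl.symm (by omega)⟩

end Crest.Agent.R320.Inst_753
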