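import Crest.Agent.R320.Main_621
import Crest.Agent.R320.FewVal_228

/-!
# Row 320: blocks of outer walls (helper848)

`En n S w` : `w` ends with a wall.  `Blk B z t` : `z` ends with a wall, and `t` is the only wall of `z` in `[B, |z|)`.
-/

set_option autoImplicit false

namespace Crest.Agent.R320.InstA_848

open Crest.Agent.R320.Hk_851 Crest.Agent.R320.Star_621 Crest.Agent.R320.FewWalls_228

variable {α : Type} {n : ℕ} {S : Set (List α)}

/-- `w` ends with a wall -/
def En (n : ℕ) (S : Set (List α)) (w : List α) : Prop :=
  n ≤ w.length ∧ w.drop (w.length - n) ∈ S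

theorem en_app {P Q : List α} (h : n ≤ Q.length) : En n S (P ++ Q) ↔ En n S Q := by
  unfold En
  have e : (P ++ Q).drop ((P ++ Q).length - n) = Q.drop (Q.length - n) := by
    rw [List.length_append, List.drop_append]
    have h1 : P.drop (P.length + Q.length - n) = [] := List.drop_eq_nil_of_le (by omega)
    rw [h1, List.nil_append]
    congr 1
    omega
  rw [e]
  constructor
  · rintro ⟨_, h2⟩; exact ⟨h, h2⟩
  · rintro ⟨_, h2⟩
    exact ⟨by rw [List.length_append]; omega, h2⟩

theorem take_app {P Q : List α} {s : ℕ} (h : P.length ≤ s) :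
    (P ++ Q).take s = P ++ Q.take (s - P.length) := by
  rw [List.take_append, List.take_of_length_le h]

/-- block -/
structure Blk (n : ℕ) (S : Set (List α)) (B : ℕ) (z : List α) (t : ℕ) : Prop where
  h1 : B ≤ t
  h2 : t < z.length
  h3 : En n S (z.take t)
  h4 : ∀ s, B ≤ s → s < z.length → s ≠ t → ¬ En n S (z.take s)
  h5 : En n S z

theorem Blk.unique {B : ℕ} {z : List α} {t t' : ℕ} (h : Blk n S B z t) (h' : Blk n S B z t') :
    t = t' := by
  by_contra hne
  exact h.h4 t' h'.h1 h'.h2 (Ne.symm hne) h'.h3

theorem Blk.mono {B B' : ℕ} {z : List α} {t : ℕ} (h : Blk n S B z t) (hB : B ≤ B')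
    (ht : B' ≤ t) : Blk n S B' z t :=
  ⟨ht, h.h2, h.h3, fun s hs => h.h4 s (le_trans hB hs), h.h5⟩

theorem blk_app {B : ℕ} {P Q : List α} {t : ℕ} (hB : P.length + n ≤ B) (ht : P.length ≤ t) :
    Blk n S B (P ++ Q) t ↔ Blk n S (B - P.length) Q (t - P.length) := by
  have key : ∀ s, B ≤ s → s ≤ P.length + Q.length →
      (En n S ((P ++ Q).take s) ↔ En n S (Q.take (s - P.length))) := by
    intro s hs hs2
    rw [take_app (by omega), en_app]
    rw [List.length_take]
    omega
  have keyl : B ≤ P.length + Q.length → (En n S (P ++ Q) ↔ En n S Q) := by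
    intro h
    exact en_app (by omega)
  constructor
  · intro h
    have hl := h.h2
    rw [List.length_append] at hl
    have h1 := h.h1
    refine ⟨by omega, by omega, (key t h.h1 (by omega)).1 h.h3, ?_, (keyl (by omega)).1 h.h5⟩
    intro s hs hs2 hne he
    refine h.h4 (s + P.length) (by omega) (by rw [List.length_append]; omega) (by omega) ?_
    rw [key _ (by omega) (by omega)]
    rw [Nat.add_sub_cancel]
    exact he
  · intro h
    have hl := h.h2
    have h1 := h.h1
    refine ⟨by omega, by rw [List.length_append]; omega, (key t (by omega) (by omega)).2 h.h3, ?_,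
      (keyl (by omega)).2 h.h5⟩
    intro s hs hs2 hne he
    rw [List.length_append] at hs2
    rw [key s hs (by omega)] at he
    exact h.h4 (s - P.length) (by omega) (by omega) (by omega) he

/-- the blocks -/
def Zs (n : ℕ) (S : Set (List α)) (B : ℕ) : Language α := {z | ∃ t, Blk n S B z t}

theorem take_prefix_eq {z z' x x' : List α} (h : z ++ x = z' ++ x') (hl : z.length ≤ z'.length) :
    z = z'.take z.length := by
  have := congrArg (List.take z.length) h
  rw [List.take_left, List.take_append_of_le_length hl] at this
  exact this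

theorem code_aux {B : ℕ} {z z' x x' : List α} (h : z ++ x = z' ++ x')
    (hz : z ∈ Zs n S B) (hz' : z' ∈ Zs n S B) (hl : z.length ≤ z'.length) : z = z' := by
  have e := take_prefix_eq h hl
  obtain ⟨t, ht⟩ := hz
  obtain ⟨t', ht'⟩ := hz'
  rcases Nat.lt_or_ge z.length z'.length with hlt | hge
  · exfalso
    have h1 : En n S (z'.take z.length) := e ▸ ht.h5
    have h2 : En n S (z'.take t) := by
      have := ht.h3
      rw [e, List.take_take, Nat.min_eq_left (le_of_lt ht.h2)] at this
      exact this
    have b1 := ht.h1
    have b2 := ht.h2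
    have c1 : z.length = t' := by
      by_contra hne
      exact ht'.h4 _ (by omega) hlt hne h1
    have c2 : t = t' := by
      by_contra hne
      exact ht'.h4 _ b1 (by omega) hne h2
    omega
  · rw [e, List.take_of_length_le hge]

theorem code (B : ℕ) : Code (Zs n S B) := by
  refine ⟨?_, ?_⟩
  · rintro ⟨t, ht⟩
    have := ht.h2
    simp at this
  · intro z z' x x' hz hz' h
    rcases Nat.le_total z.length z'.length with hl | hl
    · exact code_aux h hz hz' hl
    · exact (code_aux h.symm hz' hz hl).symm

end Crest.Agent.R320.InstA_848
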