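import Crest.Agent.R320.FewVal_228

/-!
# Row 320: concrete instance of 163's `top`, part A (combinatorics): natural chain, gadget 1 as a black box,
scheme 2 = exact gadget with a spaced ruler.  (helper861)
-/

set_option autoImplicit false

namespace Crest.Agent.R320.Inst_861

variable {α V S : Type*} [AddCommGroup V] [Monoid S]

/-- product of a word -/
def ph (f : α → S) (w : List α) : S := (w.map f).prod

theorem ph_nil (f : α → S) : ph f [] = 1 := rfl

theorem ph_app (f : α → S) (u v : List α) : ph f (u ++ v) = ph f u * ph f v := by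
  simp [ph]

/-- the text `X` has a wall that ends at `t` -/
def W (n : ℕ) (Sw : Set (List α)) (X : List α) (t : ℕ) : Prop :=
  n ≤ t ∧ t ≤ X.length ∧ (X.drop (t - n)).take n ∈ Sw

variable {n : ℕ} {Sw : Set (List α)}

theorem W_right (P Q : List α) {t : ℕ} (ht : n ≤ t) :
    W n Sw (P ++ Q) (P.length + t) ↔ W n Sw Q t := by
  unfold W
  have e : P.length + t - n = P.length + (t - n) := by omega
  rw [e, List.drop_append, List.drop_eq_nil_of_le (show P.length ≤ P.length + (t - n) by omega),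
    List.nil_append, show P.length + (t - n) - P.length = t - n by omega, List.length_append]
  constructor
  · rintro ⟨-, h2, h3⟩; exact ⟨ht, by omega, h3⟩
  · rintro ⟨-, h2, h3⟩; exact ⟨by omega, by omega, h3⟩

theorem W_left (P Q : List α) {t : ℕ} (ht : t ≤ P.length) :
    W n Sw (P ++ Q) t ↔ W n Sw P t := by
  unfold W
  constructor
  · rintro ⟨h1, h2, h3⟩
    refine ⟨h1, ht, ?_⟩
    rwa [List.drop_append_of_le_length (by omega),
      List.take_append_of_le_length (by rw [List.length_drop]; omega)] at h3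
  · rintro ⟨h1, h2, h3⟩
    refine ⟨h1, by rw [List.length_append]; omega, ?_⟩
    rwa [List.drop_append_of_le_length (by omega),
      List.take_append_of_le_length (by rw [List.length_drop]; omega)]

/-- `Q` ends at the first wall at distance at least `z` from the point `c` letters to its left -/
def XXo (n : ℕ) (Sw : Set (List α)) (z c : ℕ) : Set (List α) :=
  {Q | z ≤ Q.length + c ∧ W n Sw Q Q.length ∧ ∀ t, z ≤ t + c → t < Q.length → ¬ W n Sw Q t}

/-- the blocks -/
abbrev XX (n : ℕ) (Sw : Set (List α)) (z : ℕ) : Set (List α) := XXo n Sw z 0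

variable {z : ℕ}

theorem xx_iff (P Q : List α) (h : P.length + n ≤ z) :
    P ++ Q ∈ XX n Sw z ↔ Q ∈ XXo n Sw z P.length := by
  constructor
  · rintro ⟨h1, h2, h3⟩
    rw [List.length_append] at h1 h2 h3
    refine ⟨by omega, (W_right P Q (by omega)).1 h2, fun t ht ht2 hW => ?_⟩
    exact h3 (P.length + t) (by omega) (by omega) ((W_right P Q (by omega)).2 hW)
  · rintro ⟨h1, h2, h3⟩
    refine ⟨by rw [List.length_append]; omega, ?_, fun t ht ht2 hW => ?_⟩
    · rw [List.length_append]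
      exact (W_right P Q (by omega)).2 h2
    · rw [List.length_append] at ht2
      obtain ⟨s, rfl⟩ : ∃ s, t = P.length + s := ⟨t - P.length, by omega⟩
      exact h3 s (by omega) (by omega) ((W_right P Q (by omega)).1 hW)

theorem xxo_prefix {c : ℕ} {A Y : List α} (hA : A ∈ XXo n Sw z c) (hY : A ++ Y ∈ XXo n Sw z c) :
    Y = [] := by
  by_contra hne
  have hl : 0 < Y.length := List.length_pos_iff.2 hne
  refine hY.2.2 A.length hA.1 (by rw [List.length_append]; omega) ?_
  exact (W_left A Y le_rfl).2 hA.2.1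

theorem xxo_unique {c : ℕ} {A B Q : List α} (hA : A ∈ XXo n Sw z c) (hB : B ∈ XXo n Sw z c)
    (h1 : A <+: Q) (h2 : B <+: Q) : A = B := by
  rcases List.prefix_or_prefix_of_prefix h1 h2 with ⟨Y, hY⟩ | ⟨Y, hY⟩
  · subst hY
    rw [xxo_prefix hA hB, List.append_nil]
  · subst hY
    rw [xxo_prefix hB hA, List.append_nil]

theorem exists_first {c : ℕ} (Q : List α) {t : ℕ} (ht : W n Sw Q t) (hz : z ≤ t + c) :
    ∃ A, A <+: Q ∧ A ∈ XXo n Sw z c ∧ A.length ≤ t := by
  classical
  have hex : ∃ s, W n Sw Q s ∧ z ≤ s + c := ⟨t, ht, hz⟩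
  set s := Nat.find hex with hs
  obtain ⟨h1, h2⟩ := Nat.find_spec hex
  have hle : s ≤ t := Nat.find_min' hex ⟨ht, hz⟩
  have hsl : s ≤ Q.length := h1.2.1
  have hlen : (Q.take s).length = s := by rw [List.length_take]; omega
  have hsplit : Q.take s ++ Q.drop s = Q := List.take_append_drop _ _
  refine ⟨Q.take s, List.take_prefix _ _, ⟨by rw [hlen]; exact h2, ?_, ?_⟩, by rw [hlen]; exact hle⟩
  · rw [hlen, ← W_left (Q.take s) (Q.drop s) (by rw [hlen]), hsplit]
    exact h1
  · intro t' h3 h4 h5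
    rw [hlen] at h4
    refine Nat.find_min hex h4 ⟨?_, h3⟩
    rw [← hsplit]
    exact (W_left _ _ (by rw [hlen]; omega)).2 h5

/-- gadget 1 as a black box -/
structure Gad (f : α → S) (act : V → S → V) where
  MM : ℕ
  N1 : ℕ
  A : ℕ
  L : List α → V → Prop
  R : List α → Option V
  nu1 : List α → V
  BadT : ℕ → Prop
  hMM : 0 < MM
  len : ∀ P v, L P v → P.length < N1
  sound : ∀ P Q v b, L P v → R Q = some b → act v (ph f (P ++ Q)) + nu1 (P ++ Q) = b
  comp : ∀ Y : List α, N1 ≤ Y.length → ¬ BadT Y.length → ∀ v, ∃ P Q, P ++ Q = Y ∧ L P v ∧ (R Q).isSome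
  per : ∀ T, BadT (T + MM) ↔ BadT T
  loc : ∀ Q Q' : List α, A ≤ Q.length → A ≤ Q'.length → Q.take A = Q'.take A → ph f Q = ph f Q' →
    Q.length % MM = Q'.length % MM → R Q = R Q' ∧ nu1 Q = nu1 Q'

/-- gadget 2 (exact, on words of fixed length `p0`) -/
structure Ex (f : α → S) (act : V → S → V) (C0 : ℕ) where
  K : ℕ
  c : ℕ → ℕ
  lam : ℕ → List α → Option V
  rho : ℕ → List α → Option V
  nu2 : List α → V
  ex : ∀ k < K, ∀ P Q v b, P.length = c k → lam k P = some v → rho k Q = some b →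
    act v (ph f (P ++ Q)) + nu2 (P ++ Q) = b
  av : ∀ (u : List α) (v : V), (∀ k < K, c k ≤ u.length) → ∃ I : Finset ℕ, 3 * C0 + 2 ≤ I.card ∧
    ∀ k ∈ I, k < K ∧ lam k (u.take (c k)) = some v ∧ (rho k (u.drop (c k))).isSome

variable {f : α → S} {act : V → S → V} {C0 : ℕ}

/-- all data together -/
structure Dat (α : Type*) (V : Type*) (S : Type*) [AddCommGroup V] [Monoid S]
    (f : α → S) (act : V → S → V) (C0 : ℕ) where
  G : Gad (α := α) f act
  E : Ex (α := α) f act C0
  n : ℕ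
  Sw : Set (List α)
  z : ℕ
  p0 : ℕ
  hn : 0 < n
  hc : ∀ k < E.K, E.c k ≤ p0
  hz : p0 + G.N1 + n + G.A + 1 ≤ z
  hgap : ∀ (X : List α) (s t : ℕ), s < t → W n Sw X s → W n Sw X t → s + (2 * (p0 + G.N1) + 1) ≤ t
  hrul : ∀ i i' j j', i < E.K → i' < E.K → j < E.K → j' < E.K → i ≠ i' → j ≠ j' → i ≠ j →
    (2 * G.N1 : ℤ) ≤ |((E.c i' : ℤ) - E.c i) - (E.c j' - E.c j)|
  hthin : ∀ T : ℕ, ∀ s : Finset ℕ, (∀ k ∈ s, k < E.K ∧ ∃ k' < E.K, k' ≠ k ∧ E.c k ≤ T + E.c k' ∧
    G.BadT (T + E.c k' - E.c k)) → s.card ≤ C0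

namespace Dat

variable (D : Dat α V S f act C0)

def T (v : V) (X : List α) : V :=
  act (act v (ph f (X.take D.p0)) + D.E.nu2 (X.take D.p0)) (ph f (X.drop D.p0)) +
    D.G.nu1 (X.drop D.p0)

def LP1 (P : List α) (v : V) : Prop :=
  D.p0 ≤ P.length ∧ D.G.L (P.drop D.p0) (act v (ph f (P.take D.p0)) + D.E.nu2 (P.take D.p0))

def ok1 (Q : List α) : Prop :=
  D.z ≤ Q.length + D.p0 ∧ W D.n D.Sw Q Q.length ∧
    ∀ t, t < Q.length → W D.n D.Sw Q t → t + D.p0 + D.G.N1 ≤ D.z

open Classical in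
noncomputable def R1 (Q : List α) : Option V := if D.ok1 Q then D.G.R Q else none

def XX' : Set (List α) := XX D.n D.Sw D.z

theorem s1 (P : List α) (v : V) (Q : List α) (b : V) (h1 : D.LP1 P v) (h2 : D.R1 Q = some b) :
    P ++ Q ∈ D.XX' ∧ D.T v (P ++ Q) = b := by
  classical
  obtain ⟨hp, hL⟩ := h1
  have hlen := D.G.len _ _ hL
  rw [List.length_drop] at hlen
  have hz := D.hz
  unfold R1 at h2
  split_ifs at h2 with hok
  obtain ⟨k1, k2, k3⟩ := hok
  constructor
  · refine ⟨by rw [List.length_append]; omega, ?_, fun t ht ht2 hW => ?_⟩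
    · rw [List.length_append]
      exact (W_right P Q (by omega)).2 k2
    · rw [List.length_append] at ht2
      obtain ⟨s, rfl⟩ : ∃ s, t = P.length + s := ⟨t - P.length, by omega⟩
      have := k3 s (by omega) ((W_right P Q (by omega)).1 hW)
      omega
  · unfold T
    rw [List.take_append_of_le_length hp, List.drop_append_of_le_length hp]
    exact D.G.sound _ _ _ _ hL h2

theorem comp1 (X : List α) (hX : X ∈ D.XX')
    (hE : ∀ t, W D.n D.Sw X t → D.z ≤ t + D.G.N1 → t < D.z + D.G.N1 → False)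
    (hB : ¬ D.G.BadT (X.length - D.p0)) (v : V) :
    ∃ P Q, X = P ++ Q ∧ D.LP1 P v ∧ (D.R1 Q).isSome := by
  classical
  have hz := D.hz
  obtain ⟨h1, h2, h3⟩ := hX
  have hlX : D.z + D.G.N1 ≤ X.length := by
    by_contra hc
    exact hE _ h2 (by omega) (by omega)
  obtain ⟨P, Q, e, hL, hR⟩ := D.G.comp (X.drop D.p0) (by rw [List.length_drop]; omega)
    (by rw [List.length_drop]; exact hB) (act v (ph f (X.take D.p0)) + D.E.nu2 (X.take D.p0))
  have hPl := D.G.len _ _ hL
  have hXe : X = X.take D.p0 ++ P ++ Q := by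
    rw [List.append_assoc, e, List.take_append_drop]
  have hl0 : (X.take D.p0).length = D.p0 := by rw [List.length_take]; omega
  have hlen : X.length = D.p0 + P.length + Q.length := by
    conv_lhs => rw [hXe]
    rw [List.length_append, List.length_append, hl0]
  refine ⟨X.take D.p0 ++ P, Q, hXe, ⟨by rw [List.length_append]; omega, ?_⟩, ?_⟩
  · rw [List.take_append_of_le_length (by omega), List.drop_append_of_le_length (by omega),
      List.take_take, Nat.min_self, List.drop_eq_nil_of_le (by omega), List.nil_append]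
    exact hL
  · have hpl : (X.take D.p0 ++ P).length = D.p0 + P.length := by rw [List.length_append, hl0]
    have hok : D.ok1 Q := by
      refine ⟨by omega, ?_, fun t ht hW => ?_⟩
      · rw [← W_right (X.take D.p0 ++ P) Q (by omega), ← hXe, hpl,
          show D.p0 + P.length + Q.length = X.length by omega]
        exact h2
      · have hW' : W D.n D.Sw X ((X.take D.p0 ++ P).length + t) := by
          have := (W_right (X.take D.p0 ++ P) Q (t := t) hW.1).2 hW
          rwa [← hXe] at this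
        rw [hpl] at hW'
        by_contra hcon
        by_cases hc : D.z ≤ D.p0 + P.length + t
        · exact h3 _ (by omega) (by omega) hW'
        · exact hE _ hW' (by omega) (by omega)
    unfold R1
    rw [if_pos hok]
    exact hR

/-- candidate `k` sees a wall in the band -/
def Ek (Q : List α) (k : ℕ) : Prop :=
  ∃ t, W D.n D.Sw Q t ∧ D.z ≤ t + D.E.c k + D.G.N1 ∧ t + D.E.c k < D.z + D.G.N1

/-- candidate `k` has a bad length -/
def Bk (Q : List α) (k : ℕ) : Prop :=
  ∃ Q1, Q1 <+: Q ∧ Q1 ∈ XXo D.n D.Sw D.z (D.E.c k) ∧ D.G.BadT (Q1.length + D.E.c k - D.p0)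

def BdQ (Q : List α) (k : ℕ) : Prop := D.Ek Q k ∨ D.Bk Q k

def Rel2 (Q : List α) (b : V) : Prop :=
  ∃ k, k < D.E.K ∧ D.BdQ Q k ∧ (∀ k' < D.E.K, k' ≠ k → ¬ D.BdQ Q k') ∧
    ∃ Q1 X2 b', Q = Q1 ++ X2 ∧ Q1 ∈ XXo D.n D.Sw D.z (D.E.c k) ∧ X2 ∈ D.XX' ∧
      D.E.rho k (Q1.take (D.p0 - D.E.c k)) = some b' ∧
      D.T (act b' (ph f (Q1.drop (D.p0 - D.E.c k))) + D.G.nu1 (Q1.drop (D.p0 - D.E.c k))) X2 = b

theorem rel2_unique {Q : List α} {b b' : V} (h : D.Rel2 Q b) (h' : D.Rel2 Q b') : b = b' := by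
  obtain ⟨k, hk, hB, hU, Q1, X2, b1, e, hQ1, hX2, hr, hT⟩ := h
  obtain ⟨l, hl, hB', hU', Q1', X2', b1', e', hQ1', hX2', hr', hT'⟩ := h'
  have hkl : k = l := by
    by_contra hne
    exact hU l hl (fun h => hne h.symm) hB'
  subst hkl
  have h1 : Q1 = Q1' := xxo_unique (Q := Q) hQ1 hQ1' ⟨X2, e.symm⟩ ⟨X2', e'.symm⟩
  subst h1
  have h2 : X2 = X2' := by
    rw [e] at e'
    exact List.append_cancel_left e'
  subst h2
  rw [hr] at hr'
  have h3 : b1 = b1' := Option.some.inj hr'
  subst h3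
  rw [← hT, ← hT']

open Classical in
noncomputable def R2 (Q : List α) : Option V :=
  if h : ∃ b, D.Rel2 Q b then some h.choose else none

theorem R2_iff (Q : List α) (b : V) : D.R2 Q = some b ↔ D.Rel2 Q b := by
  classical
  unfold R2
  constructor
  · intro h
    split_ifs at h with hex
    have := Option.some.inj h
    rw [← this]
    exact hex.choose_spec
  · intro h
    have hex : ∃ b, D.Rel2 Q b := ⟨b, h⟩
    rw [dif_pos hex]
    rw [D.rel2_unique hex.choose_spec h]

def LP2 (P : List α) (v : V) : Prop :=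
  ∃ k, k < D.E.K ∧ P.length = D.E.c k ∧ D.E.lam k P = some v

theorem s2 (P : List α) (v : V) (Q : List α) (b : V) (h1 : D.LP2 P v) (h2 : D.R2 Q = some b)
    (hun : ∀ X ∈ D.XX', X <+: P ++ Q → ∀ P' Q', X = P' ++ Q' → P.length ≤ P'.length →
      D.LP1 P' v → (D.R1 Q').isSome → False) :
    ∃ Q1 X2, Q = Q1 ++ X2 ∧ Q1 ≠ [] ∧ P ++ Q1 ∈ D.XX' ∧ X2 ∈ D.XX' ∧
      D.T (D.T v (P ++ Q1)) X2 = b := by
  classical
  have hz := D.hz
  obtain ⟨k0, hk0, hPl, hlam⟩ := h1
  have hck0 := D.hc k0 hk0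
  rw [D.R2_iff] at h2
  obtain ⟨k, hk, hB, hU, Q1, X2, b1, e, hQ1, hX2, hr, hT⟩ := h2
  have hX2' : X2 ∈ XX D.n D.Sw D.z := hX2
  -- the true candidate is bad
  have hbad : D.BdQ Q k0 := by
    by_contra hnb
    have hwall : W D.n D.Sw Q (Q1.length + X2.length) := by
      rw [e]
      have h0 := hX2'.1
      exact (W_right Q1 X2 (by omega)).2 hX2'.2.1
    obtain ⟨Q0, hQ0p, hQ0, -⟩ := exists_first (z := D.z) (c := D.E.c k0) Q hwall
      (by have := hX2'.1; omega)
    have hX : P ++ Q0 ∈ D.XX' := (xx_iff P Q0 (by omega)).2 (by rw [hPl]; exact hQ0)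
    obtain ⟨Y0, hY0⟩ := hQ0p
    obtain ⟨P', Q', e', hL, hR⟩ := D.comp1 (P ++ Q0) hX (fun t hW h3 h4 => by
      refine hnb (Or.inl ⟨t - P.length, ?_, by omega, by omega⟩)
      have ht : P.length + (t - P.length) = t := by omega
      have h5 : W D.n D.Sw Q0 (t - P.length) :=
        (W_right P Q0 (by omega)).1 (by rw [ht]; exact hW)
      rw [← hY0]
      exact (W_left Q0 Y0 h5.2.1).2 h5) (fun hb => by
      refine hnb (Or.inr ⟨Q0, ⟨Y0, hY0⟩, hQ0, ?_⟩)
      rw [List.length_append, hPl] at hb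
      rwa [Nat.add_comm]) v
    refine hun _ hX ⟨Y0, by rw [List.append_assoc, hY0]⟩ P' Q' e' ?_ hL hR
    have := hL.1
    omega
  have hkk : k = k0 := by
    by_contra hne
    exact hU k0 hk0 (fun h => hne h.symm) hbad
  subst hkk
  refine ⟨Q1, X2, e, ?_, (xx_iff P Q1 (by omega)).2 (by rw [hPl]; exact hQ1), hX2, ?_⟩
  · rintro rfl
    have := hQ1.1
    simp only [List.length_nil] at this
    omega
  · rw [← hT]
    congr 1
    unfold T
    have e1 : (P ++ Q1).take D.p0 = P ++ Q1.take (D.p0 - D.E.c k) := by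
      rw [List.take_append, List.take_of_length_le (by omega), hPl]
    have e2 : (P ++ Q1).drop D.p0 = Q1.drop (D.p0 - D.E.c k) := by
      rw [List.drop_append, List.drop_eq_nil_of_le (by omega), List.nil_append, hPl]
    rw [e1, e2, D.E.ex k hk P _ v b1 hPl hlam hr]

end Dat

end Crest.Agent.R320.Inst_861
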