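import Mathlib

/-!
# Row 320: instance (all words) of the top theorem from a scheme-1 black box (helper926)

Left-looking outer walls `Wl` (window `n`, gap `> W`), natural chain rule: the next anchor is the
first wall at distance `≥ z`. Scheme 1 = black box `lam, rho, nu1` on the part of the zone behind
the first `p0` letters; scheme 2 = exact gadget on the first `p0` letters, places `c k`.
-/

set_option autoImplicit false
set_option linter.unusedSectionVars false

namespace Crest.Agent.R320.Inst_926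

open Finset

variable {α S V : Type} [Monoid S] [AddCommGroup V]

/-- parameters -/
structure Dat (α S V : Type) where
  φ : List α → S
  act : V → S → V
  Wl : List α → Prop
  n : ℕ
  W : ℕ
  z : ℕ
  p0 : ℕ
  N : ℕ
  T0 : ℕ
  K : ℕ
  C0 : ℕ
  c : ℕ → ℕ
  Bad : ℕ → Prop
  lam : List α → Option V
  rho : List α → Option V
  nu1 : List α → V
  lam2 : ℕ → List α → Option V
  rho2 : ℕ → List α → Option V
  nu2 : List α → V

open Classical in
structure Ok (D : Dat α S V) : Prop where
  hφ : ∀ u v, D.φ (u ++ v) = D.φ u * D.φ v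
  amul : ∀ v s t, D.act (D.act v s) t = D.act v (s * t)
  aadd : ∀ v w s, D.act (v + w) s = D.act v s + D.act w s
  wloc : ∀ P Q, D.n ≤ Q.length → (D.Wl (P ++ Q) ↔ D.Wl Q)
  wlen : ∀ Q, D.Wl Q → D.n ≤ Q.length
  wgap : ∀ (w : List α) (t t' : ℕ), t < t' → t' ≤ w.length → D.Wl (w.take t) → D.Wl (w.take t') → t + D.W < t'
  hn : 0 < D.n
  hz : 2 * D.p0 + D.N + D.n + D.T0 + 1 ≤ D.z
  hW : 2 * D.p0 + 2 * D.N + D.n ≤ D.W
  cle : ∀ k < D.K, D.c k ≤ D.p0
  spaced : ∀ a < D.K, ∀ b < D.K, ∀ a' < D.K, ∀ b' < D.K, a ≠ b → a' ≠ b' →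
    |((D.c a : ℤ) - D.c b) - ((D.c a' : ℤ) - D.c b')| < 2 * D.N → a = a' ∧ b = b'
  count : ∀ T, D.T0 ≤ T → ((range D.K ×ˢ range D.K).filter
    (fun ab => ab.1 ≠ ab.2 ∧ D.Bad (T + D.c ab.1 - D.c ab.2))).card ≤ D.C0
  lamlt : ∀ P v, D.lam P = some v → P.length < D.N
  sound1 : ∀ P Q v b, D.lam P = some v → D.rho Q = some b →
    b = D.act v (D.φ (P ++ Q)) + D.nu1 (P ++ Q)
  comp1 : ∀ u, D.T0 ≤ u.length → ¬ D.Bad u.length → ∀ v, ∃ P Q, u = P ++ Q ∧
    D.lam P = some v ∧ (D.rho Q).isSome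
  sound2 : ∀ k < D.K, ∀ P Q v b, P.length = D.c k → D.lam2 k P = some v → D.rho2 k Q = some b →
    b = D.act v (D.φ (P ++ Q)) + D.nu2 (P ++ Q)
  comp2 : ∀ (u : List α) (v : V), (∀ k < D.K, D.c k ≤ u.length) →
    ∃ I : Finset ℕ, 2 * D.C0 + 2 ≤ I.card ∧ ∀ k ∈ I, k < D.K ∧
      D.lam2 k (u.take (D.c k)) = some v ∧ (D.rho2 k (u.drop (D.c k))).isSome

namespace Dat

variable (D : Dat α S V)

/-- blocks -/
def XX : Set (List α) := {X | D.z ≤ X.length ∧ D.Wl X ∧ ∀ t < X.length, D.z ≤ t → ¬ D.Wl (X.take t)}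

/-- noise of a block -/
def ν (X : List α) : V := D.act (D.nu2 (X.take D.p0)) (D.φ (X.drop D.p0)) + D.nu1 (X.drop D.p0)

/-- thread of a block -/
def T (v : V) (X : List α) : V := D.act v (D.φ X) + D.ν X

def LP1 (P : List α) (v : V) : Prop := D.p0 ≤ P.length ∧
  D.lam (P.drop D.p0) = some (D.act v (D.φ (P.take D.p0)) + D.nu2 (P.take D.p0))

/-- right words of scheme 1 -/
def RQ (Q : List α) : Prop := D.Wl Q ∧ D.z ≤ Q.length + D.p0 ∧
  ∀ t < Q.length, D.Wl (Q.take t) → t + D.p0 + D.N ≤ D.z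

open Classical in
noncomputable def R1 (Q : List α) : Option V := if D.RQ Q then D.rho Q else none

def LP2 (P : List α) (v : V) : Prop := ∃ k < D.K, P.length = D.c k ∧ D.lam2 k P = some v

/-- the first wall of the candidate `k` -/
def FW (k : ℕ) (Q : List α) (t : ℕ) : Prop :=
  t ≤ Q.length ∧ D.Wl (Q.take t) ∧ D.z ≤ t + D.c k ∧ ∀ t' < t, D.z ≤ t' + D.c k → ¬ D.Wl (Q.take t')

/-- the zone of the candidate `k` is bad -/
def BadAt (k : ℕ) (Q : List α) : Prop := ∃ t, D.FW k Q t ∧
  ((∃ τ < t, D.Wl (Q.take τ) ∧ D.z < τ + D.c k + D.N) ∨ t + D.c k < D.z + D.N ∨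
    D.Bad (t + D.c k - D.p0))

/-- the block is bad -/
def BadX (X : List α) : Prop := (∃ τ < X.length, D.Wl (X.take τ) ∧ D.z < τ + D.N) ∨
  X.length < D.z + D.N ∨ D.Bad (X.length - D.p0)

/-- right words of scheme 2 -/
def R2rel (Q : List α) (b : V) : Prop := ∃ k < D.K, ∃ t, D.FW k Q t ∧ Q.drop t ∈ D.XX ∧
  D.BadAt k Q ∧ (∀ k' < D.K, k' ≠ k → (∃ t', D.FW k' Q t') ∧ ¬ D.BadAt k' Q) ∧
  ∃ b1, D.rho2 k (Q.take (D.p0 - D.c k)) = some b1 ∧
    b = D.T (D.act b1 (D.φ ((Q.take t).drop (D.p0 - D.c k))) + D.nu1 ((Q.take t).drop (D.p0 - D.c k)))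
      (Q.drop t)

open Classical in
noncomputable def R2 (Q : List α) : Option V := if h : ∃ b, D.R2rel Q b then some h.choose else none

end Dat

variable {D : Dat α S V}

theorem FW_unique {k : ℕ} {Q : List α} {t t' : ℕ} (h : D.FW k Q t) (h' : D.FW k Q t') : t = t' := by
  rcases lt_trichotomy t t' with h1 | h1 | h1
  · exact absurd h.2.1 (h'.2.2.2 t h1 h.2.2.1)
  · exact h1
  · exact absurd h'.2.1 (h.2.2.2 t' h1 h'.2.2.1)

theorem R2rel_unique {Q : List α} {b b' : V} (h : D.R2rel Q b) (h' : D.R2rel Q b') : b = b' := by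
  obtain ⟨k, hk, t, h1, h2, h3, h4, b1, h5, h6⟩ := h
  obtain ⟨k', hk', t', h1', h2', h3', h4', b1', h5', h6'⟩ := h'
  have hkk : k = k' := by
    by_contra hne
    exact (h4' k hk hne).2 h3
  subst hkk
  have htt := FW_unique h1 h1'
  subst htt
  rw [h5] at h5'
  have : b1 = b1' := Option.some.inj h5'
  subst this
  rw [h6, h6']

theorem R2_iff {Q : List α} {b : V} : D.R2 Q = some b ↔ D.R2rel Q b := by
  classical
  unfold Dat.R2
  constructor
  · intro h
    split_ifs at h with h1
    have := Option.some.inj h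
    rw [← this]
    exact h1.choose_spec
  · intro h
    have h1 : ∃ b, D.R2rel Q b := ⟨b, h⟩
    rw [dif_pos h1]
    rw [R2rel_unique h1.choose_spec h]

theorem R1_iff {Q : List α} {b : V} : D.R1 Q = some b ↔ D.RQ Q ∧ D.rho Q = some b := by
  classical
  unfold Dat.R1
  by_cases h : D.RQ Q
  · simp [h]
  · simp [h]

variable (H : Ok D)

include H

theorem wall_drop (w : List α) (s t : ℕ) (hs : s + t ≤ w.length) (ht : D.n ≤ t)  :
    D.Wl ((w.drop s).take t) ↔ D.Wl (w.take (s + t)) := by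
  have e : w.take (s + t) = w.take s ++ (w.drop s).take t := by
    rw [List.take_add]
  rw [e, H.wloc]
  rw [List.length_take, List.length_drop]; omega

theorem wall_append (P Q : List α) (t : ℕ) (ht : D.n ≤ t) (ht' : t ≤ Q.length) :
    D.Wl (Q.take t) ↔ D.Wl ((P ++ Q).take (P.length + t)) := by
  have := wall_drop H (P ++ Q) P.length t (by rw [List.length_append]; omega) ht
  rwa [List.drop_left] at this

theorem nil_notMem : ([] : List α) ∉ D.XX := by
  rintro ⟨h, -⟩
  have := H.hz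
  rw [List.length_nil] at h
  omega

theorem code (X : List α) (hX : X ∈ D.XX) (Y : List α) (hXY : X ++ Y ∈ D.XX) : Y = [] := by
  by_contra hY
  have hl : 0 < Y.length := List.length_pos_iff.2 hY
  have h := hXY.2.2 X.length (by rw [List.length_append]; omega) hX.1
  rw [List.take_left] at h
  exact h hX.2.1

theorem len_pos_Q {Q : List α} {b : V} (h : D.R1 Q = some b) : Q ≠ [] := by
  have h1 := (R1_iff.1 h).1.1
  have h2 := H.wlen _ h1
  have := H.hn
  rintro rfl
  rw [List.length_nil] at h2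
  omega

theorem s1 (P : List α) (v : V) (Q : List α) (b : V) (hP : D.LP1 P v) (hQ : D.R1 Q = some b) :
    P ++ Q ∈ D.XX ∧ D.T v (P ++ Q) = b := by
  obtain ⟨⟨hW, hz, hno⟩, hr⟩ := R1_iff.1 hQ
  obtain ⟨hp, hl⟩ := hP
  have hlt := H.lamlt _ _ hl
  rw [List.length_drop] at hlt
  have hz0 := H.hz
  refine ⟨⟨by rw [List.length_append]; omega, (H.wloc _ _ (H.wlen _ hW)).2 hW, ?_⟩, ?_⟩
  · intro t ht htz hw
    rw [List.length_append] at ht
    have h1 := wall_append H P Q (t - P.length) (by omega) (by omega)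
    rw [show P.length + (t - P.length) = t by omega] at h1
    have := hno (t - P.length) (by omega) (h1.2 hw)
    omega
  · have e1 : (P ++ Q).take D.p0 = P.take D.p0 := by
      rw [List.take_append_of_le_length hp]
    have e2 : (P ++ Q).drop D.p0 = P.drop D.p0 ++ Q := by
      rw [List.drop_append_of_le_length hp]
    have e3 : D.φ (P ++ Q) = D.φ (P.take D.p0) * D.φ (P.drop D.p0 ++ Q) := by
      rw [← H.hφ, ← List.append_assoc, List.take_append_drop]
    have := H.sound1 _ _ _ _ hl hr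
    rw [this]
    unfold Dat.T Dat.ν
    rw [e1, e2, e3, H.aadd, H.amul, add_assoc]

theorem comp_one (X : List α) (hX : X ∈ D.XX) (hb : ¬ D.BadX X) (v : V) :
    ∃ P Q, X = P ++ Q ∧ D.LP1 P v ∧ (D.R1 Q).isSome := by
  unfold Dat.BadX at hb
  push Not at hb
  obtain ⟨hb1, hb2, hb3⟩ := hb
  obtain ⟨hX1, hX2, hX3⟩ := hX
  have hz0 := H.hz
  obtain ⟨P, Q, hPQ, hl, hr⟩ := H.comp1 (X.drop D.p0) (by rw [List.length_drop]; omega)
    (by rw [List.length_drop]; exact hb3) (D.act v (D.φ (X.take D.p0)) + D.nu2 (X.take D.p0))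
  have hlt := H.lamlt _ _ hl
  have hlen : X.length - D.p0 = P.length + Q.length := by
    rw [← List.length_drop, hPQ, List.length_append]
  have hXe : X = (X.take D.p0 ++ P) ++ Q := by
    rw [List.append_assoc, ← hPQ, List.take_append_drop]
  have hlX : (X.take D.p0).length = D.p0 := by rw [List.length_take]; omega
  refine ⟨X.take D.p0 ++ P, Q, hXe, ⟨?_, ?_⟩, ?_⟩
  · rw [List.length_append]; omega
  · have e1 : (X.take D.p0 ++ P).drop D.p0 = P := by
      rw [List.drop_append_of_le_length (by omega), List.drop_of_length_le (by omega), List.nil_append]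
    have e2 : (X.take D.p0 ++ P).take D.p0 = X.take D.p0 := by
      rw [List.take_append_of_le_length (by omega), List.take_of_length_le (by omega)]
    rw [e1, e2]; exact hl
  · obtain ⟨b, hb⟩ := Option.isSome_iff_exists.1 hr
    have hRQ : D.RQ Q := by
      refine ⟨?_, by omega, ?_⟩
      · rw [hXe] at hX2
        exact (H.wloc _ _ (by omega)).1 hX2
      · intro t ht hw
        have hn := H.wlen _ hw
        rw [List.length_take] at hn
        have h1 := wall_append H (X.take D.p0 ++ P) Q t (by omega) (by omega)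
        rw [← hXe] at h1
        have h2 := h1.1 hw
        have h3 := hb1 _ (by rw [List.length_append]; omega) h2
        rw [List.length_append] at h3
        omega
    rw [R1_iff.2 ⟨hRQ, hb⟩]
    rfl

/-- from a candidate to a block -/
theorem block_of_FW {k : ℕ} (hk : k < D.K) {P Q : List α} (hP : P.length = D.c k) {t : ℕ}
    (h : D.FW k Q t) : P ++ Q.take t ∈ D.XX := by
  obtain ⟨h1, h2, h3, h4⟩ := h
  have hz0 := H.hz
  have hc := H.cle k hk
  have hl : (Q.take t).length = t := by rw [List.length_take]; omega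
  refine ⟨by rw [List.length_append]; omega, (H.wloc _ _ (by omega)).2 h2, ?_⟩
  intro τ hτ hz hw
  rw [List.length_append, hl] at hτ
  have h5 := wall_append H P (Q.take t) (τ - P.length) (by omega) (by omega)
  rw [show P.length + (τ - P.length) = τ by omega] at h5
  have h6 := h5.2 hw
  rw [List.take_take, min_eq_left (by omega)] at h6
  exact h4 _ (by omega) (by omega) h6

/-- bad block = bad candidate -/
theorem bad_of_BadX {k : ℕ} (hk : k < D.K) {P Q : List α} (hP : P.length = D.c k) {t : ℕ}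
    (h : D.FW k Q t) (hb : D.BadX (P ++ Q.take t)) : D.BadAt k Q := by
  have hz0 := H.hz
  have hc := H.cle k hk
  have hl : (Q.take t).length = t := by rw [List.length_take]; have := h.1; omega
  refine ⟨t, h, ?_⟩
  rcases hb with ⟨τ, h1, h2, h3⟩ | hb | hb
  · left
    rw [List.length_append, hl] at h1
    have h5 := wall_append H P (Q.take t) (τ - P.length) (by omega) (by omega)
    rw [show P.length + (τ - P.length) = τ by omega] at h5
    have h6 := h5.2 h2
    rw [List.take_take, min_eq_left (by omega)] at h6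
    exact ⟨τ - P.length, by omega, h6, by omega⟩
  · right; left
    rw [List.length_append, hl] at hb
    omega
  · right; right
    rw [List.length_append, hl, hP, add_comm (D.c k) t] at hb
    exact hb

theorem s2 (P : List α) (v : V) (Q : List α) (b : V) (hP : D.LP2 P v) (hQ : D.R2 Q = some b)
    (hno : ∀ X ∈ D.XX, X <+: P ++ Q → ∀ P' Q', X = P' ++ Q' → P.length ≤ P'.length →
      D.LP1 P' v → (D.R1 Q').isSome → False) :
    ∃ Q1 X2, Q = Q1 ++ X2 ∧ Q1 ≠ [] ∧ P ++ Q1 ∈ D.XX ∧ X2 ∈ D.XX ∧ D.T (D.T v (P ++ Q1)) X2 = b := by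
  obtain ⟨k, hk, t, h1, h2, h3, h4, b1, h5, h6⟩ := R2_iff.1 hQ
  obtain ⟨k0, hk0, hlen, hl⟩ := hP
  have hz0 := H.hz
  have hkk : k0 = k := by
    by_contra hne
    obtain ⟨⟨t', ht'⟩, hnb⟩ := h4 k0 hk0 hne
    have hX := block_of_FW H hk0 hlen ht'
    have hnB : ¬ D.BadX (P ++ Q.take t') := fun hb => hnb (bad_of_BadX H hk0 hlen ht' hb)
    obtain ⟨P', Q', he, hp, hr⟩ := comp_one H _ hX hnB v
    refine hno _ hX ?_ P' Q' he ?_ hp hr
    · exact ⟨Q.drop t', by rw [List.append_assoc, List.take_append_drop]⟩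
    · have := H.cle k0 hk0
      have := hp.1
      omega
  subst hkk
  have hc := H.cle k0 hk0
  have htl : (Q.take t).length = t := by rw [List.length_take]; have := h1.1; omega
  have ht3 := h1.2.2.1
  refine ⟨Q.take t, Q.drop t, (List.take_append_drop t Q).symm, ?_, block_of_FW H hk0 hlen h1, h2, ?_⟩
  · intro h0
    have : (Q.take t).length = 0 := by rw [h0]; rfl
    omega
  · rw [h6]
    congr 1
    have e0 : (Q.take t).take (D.p0 - D.c k0) = Q.take (D.p0 - D.c k0) := by
      rw [List.take_take, min_eq_left (by omega)]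
    have e1 : (P ++ Q.take t).take D.p0 = P ++ Q.take (D.p0 - D.c k0) := by
      rw [List.take_append, List.take_of_length_le (by omega), hlen, e0]
    have e2 : (P ++ Q.take t).drop D.p0 = (Q.take t).drop (D.p0 - D.c k0) := by
      rw [List.drop_append, List.drop_of_length_le (by omega), hlen, List.nil_append]
    have e3 : D.φ (P ++ Q.take t) = D.φ (P ++ Q.take (D.p0 - D.c k0)) *
        D.φ ((Q.take t).drop (D.p0 - D.c k0)) := by
      rw [← H.hφ, List.append_assoc, ← e0, List.take_append_drop]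
    have h7 := H.sound2 k0 hk0 P _ v b1 hlen hl h5
    unfold Dat.T Dat.ν
    rw [e1, e2, e3, h7, H.aadd, H.amul, add_assoc]

theorem exists_FW {k : ℕ} (hk : k < D.K) {Q : List α} (hQ : D.Wl Q) (hz : D.z ≤ Q.length) :
    ∃ t, D.FW k Q t := by
  classical
  have h : ∃ t, t ≤ Q.length ∧ D.Wl (Q.take t) ∧ D.z ≤ t + D.c k :=
    ⟨Q.length, le_refl _, by rw [List.take_of_length_le (le_refl _)]; exact hQ, by omega⟩
  have h1 := Nat.find_spec h
  refine ⟨Nat.find h, h1.1, h1.2.1, h1.2.2, ?_⟩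
  intro t' ht' hz' hw
  exact Nat.find_min h ht' ⟨by omega, hw, hz'⟩

theorem two_walls {w : List α} {τ τ' : ℕ} (h : τ ≤ w.length) (h' : τ' ≤ w.length)
    (hw : D.Wl (w.take τ)) (hw' : D.Wl (w.take τ')) (h1 : τ ≤ τ' + D.W) (h2 : τ' ≤ τ + D.W) :
    τ = τ' := by
  rcases lt_trichotomy τ τ' with h3 | h3 | h3
  · have := H.wgap w τ τ' h3 h' hw hw'
    omega
  · exact h3
  · have := H.wgap w τ' τ h3 h hw' hw
    omega

open Classical in
theorem spoil (w : List α) (hw : D.Wl w) (hlen : 2 * D.z ≤ w.length) :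
    ((range D.K).filter (fun k => ∃ k' < D.K, k' ≠ k ∧ D.BadAt k' (w.drop (D.c k)))).card
      ≤ 2 * D.C0 + 1 := by
  have hz0 := H.hz
  have hW := H.hW
  have hA : ∃ τ, D.z - D.p0 ≤ τ ∧ τ ≤ w.length ∧ D.Wl (w.take τ) :=
    ⟨w.length, by omega, le_refl _, by rw [List.take_of_length_le (le_refl _)]; exact hw⟩
  have hB : ∃ τ, D.z + D.p0 ≤ τ ∧ τ ≤ w.length ∧ D.Wl (w.take τ) :=
    ⟨w.length, by omega, le_refl _, by rw [List.take_of_length_le (le_refl _)]; exact hw⟩
  set A := Nat.find hA with hAdef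
  set B := Nat.find hB with hBdef
  have hA1 := Nat.find_spec hA
  have hB1 := Nat.find_spec hB
  rw [← hAdef] at hA1
  rw [← hBdef] at hB1
  set KK := range D.K ×ˢ range D.K with hKK
  set E := KK.filter (fun ab => ab.1 ≠ ab.2 ∧ ∃ τ, τ ≤ w.length ∧ D.Wl (w.take τ) ∧
    |(τ : ℤ) - D.z - ((D.c ab.2 : ℤ) - D.c ab.1)| < D.N) with hE
  set S1 := KK.filter (fun ab => ab.1 ≠ ab.2 ∧ D.Bad ((A - D.p0) + D.c ab.1 - D.c ab.2)) with hS1
  set S2 := KK.filter (fun ab => ab.1 ≠ ab.2 ∧ D.Bad ((B - D.p0) + D.c ab.1 - D.c ab.2)) with hS2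
  have cE : E.card ≤ 1 := by
    rw [Finset.card_le_one]
    rintro ⟨a, b⟩ hx ⟨a', b'⟩ hy
    simp only [hE, hKK, Finset.mem_filter, Finset.mem_product, Finset.mem_range] at hx hy
    obtain ⟨⟨ha, hb⟩, hne, τ, h1, h2, h3⟩ := hx
    obtain ⟨⟨ha', hb'⟩, hne', τ', h1', h2', h3'⟩ := hy
    rw [abs_lt] at h3 h3'
    have c1 := H.cle a ha
    have c2 := H.cle b hb
    have c3 := H.cle a' ha'
    have c4 := H.cle b' hb'
    have hττ := two_walls H h1 h1' h2 h2' (by omega) (by omega)
    have := H.spaced a ha b hb a' ha' b' hb' hne hne' (by rw [abs_lt]; omega)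
    rw [this.1, this.2]
  have c1 : S1.card ≤ D.C0 := H.count _ (by omega)
  have c2 : S2.card ≤ D.C0 := H.count _ (by omega)
  have hsub : (range D.K).filter (fun k => ∃ k' < D.K, k' ≠ k ∧ D.BadAt k' (w.drop (D.c k))) ⊆
      (E ∪ (S1 ∪ S2)).image Prod.snd := by
    intro k hk
    rw [Finset.mem_filter, Finset.mem_range] at hk
    obtain ⟨hk, k', hk', hne, t, hFW, hbad⟩ := hk
    have d1 := H.cle k hk
    have d2 := H.cle k' hk'
    obtain ⟨f1, f2, f3, f4⟩ := hFW
    rw [List.length_drop] at f1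
    have hwt : D.Wl (w.take (D.c k + t)) := (wall_drop H w (D.c k) t (by omega) (by omega)).1 f2
    rw [Finset.mem_image]
    have hmem : (k', k) ∈ KK := by
      rw [hKK, Finset.mem_product, Finset.mem_range, Finset.mem_range]; exact ⟨hk', hk⟩
    rcases hbad with ⟨τ, g1, g2, g3⟩ | hbad | hbad
    · refine ⟨(k', k), ?_, rfl⟩
      have g4 : τ + D.c k' < D.z := by
        by_contra h
        exact f4 τ g1 (by omega) g2
      rw [Finset.mem_union]; left
      rw [hE, Finset.mem_filter]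
      refine ⟨hmem, hne, D.c k + τ, by omega, (wall_drop H w (D.c k) τ (by omega) (by omega)).1 g2, ?_⟩
      rw [abs_lt]
      push_cast
      constructor <;> omega
    · refine ⟨(k', k), ?_, rfl⟩
      rw [Finset.mem_union]; left
      rw [hE, Finset.mem_filter]
      refine ⟨hmem, hne, D.c k + t, by omega, hwt, ?_⟩
      rw [abs_lt]
      push_cast
      constructor <;> omega
    · refine ⟨(k', k), ?_, rfl⟩
      rw [Finset.mem_union]; right
      have fmin : ∀ τ, τ < D.c k + t → D.z + D.c k ≤ τ + D.c k' → τ ≤ w.length →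
          ¬ D.Wl (w.take τ) := by
        intro τ q1 q2 q3 q4
        refine f4 (τ - D.c k) (by omega) (by omega) ?_
        rw [wall_drop H w (D.c k) (τ - D.c k) (by omega) (by omega)]
        rwa [show D.c k + (τ - D.c k) = τ by omega]
      have hAle : A ≤ D.c k + t := Nat.find_min' hA ⟨by omega, by omega, hwt⟩
      rcases Nat.lt_or_ge A (D.c k + t) with hlt | hge
      · have hA2 : A + D.c k' < D.z + D.c k := by
          by_contra h
          exact fmin A hlt (by omega) hA1.2.1 hA1.2.2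
        have hg := H.wgap w A (D.c k + t) hlt (by omega) hA1.2.2 hwt
        have hBle : B ≤ D.c k + t := Nat.find_min' hB ⟨by omega, by omega, hwt⟩
        have hBe : B = D.c k + t := by
          rcases Nat.lt_or_ge B (D.c k + t) with hlt' | hge'
          · exact absurd hB1.2.2 (fmin B hlt' (by omega) hB1.2.1)
          · omega
        rw [Finset.mem_union]; right
        rw [hS2, Finset.mem_filter]
        refine ⟨hmem, hne, ?_⟩
        simp only
        rwa [show B - D.p0 + D.c k' - D.c k = t + D.c k' - D.p0 by omega]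
      · rw [Finset.mem_union]; left
        rw [hS1, Finset.mem_filter]
        refine ⟨hmem, hne, ?_⟩
        simp only
        rwa [show A - D.p0 + D.c k' - D.c k = t + D.c k' - D.p0 by omega]
  calc _ ≤ ((E ∪ (S1 ∪ S2)).image Prod.snd).card := Finset.card_le_card hsub
    _ ≤ (E ∪ (S1 ∪ S2)).card := Finset.card_image_le
    _ ≤ E.card + (S1 ∪ S2).card := Finset.card_union_le _ _
    _ ≤ 1 + (D.C0 + D.C0) := by
        have := Finset.card_union_le S1 S2
        omega
    _ = 2 * D.C0 + 1 := by ring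

theorem cc (X : List α) (hX : X ∈ D.XX) (X2 : List α) (hX2 : X2 ∈ D.XX) (v : V) :
    (∃ P Q, X = P ++ Q ∧ D.LP1 P v ∧ (D.R1 Q).isSome) ∨
    (∃ P Q, X ++ X2 = P ++ Q ∧ P.length < X.length ∧ D.LP2 P v ∧ (D.R2 Q).isSome) := by
  classical
  by_cases hb : D.BadX X
  swap
  · exact Or.inl (comp_one H X hX hb v)
  right
  have hz0 := H.hz
  have l1 := hX.1
  have l2 := hX2.1
  have hsp := spoil H (X ++ X2) ((H.wloc _ _ (H.wlen _ hX2.2.1)).2 hX2.2.1)
    (by rw [List.length_append]; omega)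
  obtain ⟨I, hI, hIk⟩ := H.comp2 (X.take D.p0) v (by
    intro k hk; rw [List.length_take]; have := H.cle k hk; omega)
  obtain ⟨k, hkI, hkS⟩ : ∃ k ∈ I, k ∉ (range D.K).filter
      (fun k => ∃ k' < D.K, k' ≠ k ∧ D.BadAt k' ((X ++ X2).drop (D.c k))) := by
    by_contra h
    push Not at h
    have := Finset.card_le_card (show I ⊆ _ from fun k hk => h k hk)
    omega
  obtain ⟨hk, hl, hr⟩ := hIk k hkI
  have hc := H.cle k hk
  rw [Finset.mem_filter, Finset.mem_range] at hkS
  push Not at hkS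
  have hkS' := hkS hk
  have hlenP : (X.take (D.c k)).length = D.c k := by rw [List.length_take]; omega
  have hdl : (X.drop (D.c k)).length = X.length - D.c k := List.length_drop
  have hdrop : (X ++ X2).drop (D.c k) = X.drop (D.c k) ++ X2 := by
    rw [List.drop_append_of_le_length (by omega)]
  set Q := X.drop (D.c k) ++ X2 with hQ
  have hQl : Q.length = X.length - D.c k + X2.length := by rw [hQ, List.length_append, hdl]
  have hQt : Q.take (X.length - D.c k) = X.drop (D.c k) := by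
    rw [hQ, ← hdl, List.take_left]
  have hQd : Q.drop (X.length - D.c k) = X2 := by
    rw [hQ, ← hdl, List.drop_left]
  have hFW : D.FW k Q (X.length - D.c k) := by
    refine ⟨by omega, ?_, by omega, ?_⟩
    · rw [hQt]
      have := hX.2.1
      rw [← List.take_append_drop (D.c k) X] at this
      exact (H.wloc _ _ (by omega)).1 this
    · intro t' ht' hz hw
      have e : Q.take t' = (X.drop (D.c k)).take t' := by
        rw [hQ, List.take_append_of_le_length (by omega)]
      rw [e, wall_drop H X (D.c k) t' (by omega) (by omega)] at hw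
      exact hX.2.2 _ (by omega) (by omega) hw
  have hbk : D.BadAt k Q := by
    refine bad_of_BadX H hk hlenP hFW ?_
    rw [hQt, List.take_append_drop]
    exact hb
  have hWQ : D.Wl Q := (H.wloc _ _ (H.wlen _ hX2.2.1)).2 hX2.2.1
  have e3 : Q.take (D.p0 - D.c k) = (X.take D.p0).drop (D.c k) := by
    rw [hQ, List.take_append_of_le_length (by omega), List.drop_take]
  obtain ⟨b1, hb1⟩ := Option.isSome_iff_exists.1 hr
  refine ⟨X.take (D.c k), Q, ?_, by omega, ⟨k, hk, hlenP, ?_⟩, ?_⟩
  · rw [hQ, ← List.append_assoc, List.take_append_drop]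
  · rw [List.take_take, min_eq_left (by omega)] at hl
    exact hl
  · have : D.R2rel Q (D.T (D.act b1 (D.φ ((Q.take (X.length - D.c k)).drop (D.p0 - D.c k))) +
        D.nu1 ((Q.take (X.length - D.c k)).drop (D.p0 - D.c k))) (Q.drop (X.length - D.c k))) := by
      refine ⟨k, hk, X.length - D.c k, hFW, by rw [hQd]; exact hX2, hbk, ?_, b1, by rw [e3]; exact hb1, rfl⟩
      intro k' hk' hne
      refine ⟨exists_FW H hk' hWQ (by omega), ?_⟩
      rw [← hdrop]
      exact hkS' k' hk' hne
    rw [R2_iff.2 this]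
    rfl

end Crest.Agent.R320.Inst_926
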