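import Crest.Agent.R320.Top5_110
import Crest.Agent.R320.WallU_228
import Crest.Agent.R320.ExactR_237

/-!
# Row 320: the concrete blocks, zone maps and both schemes on ALL words (helper966)
-/

set_option autoImplicit false

namespace Crest.Agent.R320.InstA_966

open Crest.Agent.R320.Hk_851 Crest.Agent.R320.Code110

variable {α S V : Type} [Monoid S] [AddCommGroup V]

/-- the product of the letters -/
def pr (f : α → S) (w : List α) : S := (w.map f).prod

theorem pr_append (f : α → S) (u w : List α) : pr f (u ++ w) = pr f u * pr f w := by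
  simp [pr]

/-- all data -/
structure Dat (α S V : Type) [Monoid S] [AddCommGroup V] where
  f : α → S
  act : V → S → V
  Wo : List α → Prop
  n : ℕ
  G : ℕ
  p0 : ℕ
  q0 : ℕ
  N1 : ℕ
  K : ℕ
  C0 : ℕ
  c : ℕ → ℕ
  BadN : ℤ → Prop
  lam : List α → Option V
  rho : List α → Option V
  nu : List α → V
  lam2 : ℕ → List α → Option V
  rho2 : ℕ → List α → Option V
  nu2 : List α → V
  loc : ∀ P Q : List α, n ≤ Q.length → (Wo (P ++ Q) ↔ Wo Q)
  gap : ∀ (P : List α) (d : ℕ), Wo P → 0 < d → d ≤ G → ¬ Wo (P.take (P.length - d))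
  hG : 2 * (p0 + N1) ≤ G
  hq : n ≤ q0
  hq1 : 0 < q0
  hc : ∀ k, k < K → c k ≤ p0
  ruler : ∀ a b a' b', a < K → b < K → a' < K → b' < K → a ≠ b → a' ≠ b' →
    |((c a : ℤ) - c b) - ((c a' : ℤ) - c b')| ≤ 2 * N1 → a = a' ∧ b = b'
  thin : ∀ (T : ℤ) (F : Finset (ℕ × ℕ)), (∀ ab ∈ F, ab.1 < K ∧ ab.2 < K ∧ ab.1 ≠ ab.2 ∧
    BadN (T + c ab.1 - c ab.2)) → F.card ≤ C0
  lam_len : ∀ P v, lam P = some v → P.length < N1
  sound : ∀ P Q v r, lam P = some v → rho Q = some r → r = act v (pr f (P ++ Q)) + nu (P ++ Q)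
  complete : ∀ X : List α, q0 ≤ X.length → ¬ BadN X.length → ∀ v, ∃ P Q r, X = P ++ Q ∧
    lam P = some v ∧ rho Q = some r
  sound2 : ∀ k < K, ∀ (P Q : List α) (v b : V), P.length = c k → lam2 k P = some v →
    rho2 k Q = some b → b = act v (pr f (P ++ Q)) + nu2 (P ++ Q)
  complete2 : ∀ (u : List α) (v : V), u.length = p0 → ∃ I : Finset ℕ, 2 * C0 + 2 ≤ I.card ∧
    ∀ k ∈ I, k < K ∧ lam2 k (u.take (c k)) = some v ∧ (rho2 k (u.drop (c k))).isSome

namespace Dat

variable (D : Dat α S V)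

def z : ℕ := D.p0 + D.q0 + D.N1

def XX : Language α :=
  {X | D.z ≤ X.length ∧ D.Wo X ∧ ∀ t, D.z ≤ t → t < X.length → ¬ D.Wo (X.take t)}

def EB (X : List α) : Prop :=
  ∃ t, D.z ≤ t + D.N1 ∧ t < D.z + D.N1 ∧ t ≤ X.length ∧ D.Wo (X.take t)

def BB (X : List α) : Prop := D.BadN ((X.length : ℤ) - D.p0)

def Bad : Language α := {X | X ∈ D.XX ∧ (D.EB X ∨ D.BB X)}

def T (X : List α) (v : V) : V :=
  D.act (D.act v (pr D.f (X.take D.p0)) + D.nu2 (X.take D.p0)) (pr D.f (X.drop D.p0)) +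
    D.nu (X.drop D.p0)

def L1 (v : V) : Language α :=
  {P | D.p0 ≤ P.length ∧ P.length < D.p0 + D.N1 ∧
    D.lam (P.drop D.p0) = some (D.act v (pr D.f (P.take D.p0)) + D.nu2 (P.take D.p0))}

def L2 (v : V) : Language α := {P | ∃ k < D.K, P.length = D.c k ∧ D.lam2 k P = some v}

variable {D}

theorem wo_shift {p p' q : List α} {s : ℕ} (h1 : D.n ≤ s) (h2 : s ≤ q.length) :
    D.Wo ((p' ++ q).take (p'.length + s)) ↔ D.Wo ((p ++ q).take (p.length + s)) := by
  rw [List.take_length_add_append, List.take_length_add_append]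
  have hl : D.n ≤ (q.take s).length := by rw [List.length_take]; omega
  rw [D.loc _ _ hl, D.loc _ _ hl]

theorem pc : PC D.XX where
  ne := by
    rintro ⟨h, -⟩
    have := D.hq1
    simp only [List.length_nil, z] at h
    omega
  pf := by
    rintro u ⟨hu1, hu2, hu3⟩ v ⟨hv1, hv2, hv3⟩ ⟨t, rfl⟩
    by_contra hne
    have ht : 0 < t.length := by
      rcases Nat.eq_zero_or_pos t.length with h0 | h0
      · exfalso; apply hne
        rw [List.length_eq_zero_iff.1 h0, List.append_nil]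
      · exact h0
    apply hv3 u.length hu1 (by simp; omega)
    rw [List.take_left]
    exact hu2

theorem xx1 {p p' q : List α} (hp : D.p0 ≤ p.length) (hp1 : p.length < D.p0 + D.N1)
    (hp' : D.p0 ≤ p'.length) (hp1' : p'.length < D.p0 + D.N1) (hu : p ++ q ∈ D.XX)
    (hE : ¬ D.EB (p ++ q)) : p' ++ q ∈ D.XX := by
  obtain ⟨h1, h2, h3⟩ := hu
  have hlen : (p ++ q).length = p.length + q.length := List.length_append
  have hlen' : (p' ++ q).length = p'.length + q.length := List.length_append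
  have hz : D.z = D.p0 + D.q0 + D.N1 := rfl
  have hq := D.hq
  have hl : D.z + D.N1 ≤ p.length + q.length := by
    by_contra hcon
    apply hE
    refine ⟨(p ++ q).length, by omega, by omega, le_rfl, ?_⟩
    rw [List.take_length]
    exact h2
  refine ⟨by omega, (D.loc p' q (by omega)).2 ((D.loc p q (by omega)).1 h2), ?_⟩
  intro t ht1 ht2 hW
  obtain ⟨s, rfl⟩ : ∃ s, t = p'.length + s := ⟨t - p'.length, by omega⟩
  have hW' := (wo_shift (D := D) (p := p) (p' := p') (q := q) (s := s) (by omega) (by omega)).1 hW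
  by_cases hc : D.z ≤ p.length + s
  · exact h3 _ hc (by omega) hW'
  · exact hE ⟨p.length + s, by omega, by omega, by omega, hW'⟩

theorem T_of_lam {p q : List α} {x r : V} (hp : p ∈ D.L1 x) (hr : D.rho q = some r) :
    D.T (p ++ q) x = r := by
  obtain ⟨h1, h2, h3⟩ := hp
  have e1 : (p ++ q).take D.p0 = p.take D.p0 := List.take_append_of_le_length h1
  have e2 : (p ++ q).drop D.p0 = p.drop D.p0 ++ q := List.drop_append_of_le_length h1
  unfold T
  rw [e1, e2]
  exact (D.sound _ _ _ _ h3 hr).symm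

/-- completeness of scheme 1 -/
theorem C1 (u : List α) (hu : u ∈ D.XX) (hb : u ∉ D.Bad) (x : V) (t : List α)
    (ht : t ∈ D.XX ^ 0) : ∃ p q y, u ++ t = p ++ q ∧ p ∈ D.L1 x ∧
      q ∈ Rsem D.XX D.XX D.T 0 D.L1 y := by
  have ht0 : t = [] := by simpa using ht
  subst ht0
  have hE : ¬ D.EB u := fun h => hb ⟨hu, Or.inl h⟩
  have hB : ¬ D.BB u := fun h => hb ⟨hu, Or.inr h⟩
  obtain ⟨h1, h2, h3⟩ := hu
  have hz : D.z = D.p0 + D.q0 + D.N1 := rfl
  have hdl : (u.drop D.p0).length = u.length - D.p0 := List.length_drop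
  obtain ⟨P, Q, r, e, hP, hQ⟩ := D.complete (u.drop D.p0) (by omega) (by
    have : ((u.drop D.p0).length : ℤ) = (u.length : ℤ) - D.p0 := by
      rw [hdl]; push_cast [show D.p0 ≤ u.length by omega]; ring
    rw [this]; exact hB)
    (D.act x (pr D.f (u.take D.p0)) + D.nu2 (u.take D.p0))
  have hPl := D.lam_len _ _ hP
  have htl : (u.take D.p0).length = D.p0 := by rw [List.length_take]; omega
  have hsplit : u = (u.take D.p0 ++ P) ++ Q := by
    rw [List.append_assoc, ← e, List.take_append_drop]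
  have hpl : (u.take D.p0 ++ P).length = D.p0 + P.length := by rw [List.length_append, htl]
  refine ⟨u.take D.p0 ++ P, Q, r, by rw [List.append_nil]; exact hsplit, ?_, ?_⟩
  · refine ⟨by omega, by omega, ?_⟩
    have e1 : (u.take D.p0 ++ P).take D.p0 = u.take D.p0 := by
      conv_lhs => rw [← htl]
      rw [htl]
      rw [List.take_append_of_le_length (by omega), List.take_take, min_self]
    have e2 : (u.take D.p0 ++ P).drop D.p0 = P := by
      rw [List.drop_append_of_le_length (by omega), List.drop_take, Nat.sub_self,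
        List.take_zero, List.nil_append]
    rw [e1, e2]
    exact hP
  · intro x' p' hp'
    left
    have hp'' : p' ∈ D.L1 x' := hp'
    refine ⟨r, Language.mem_mul.2 ⟨p' ++ Q, ⟨?_, T_of_lam hp'' hQ⟩, [], ⟨rfl, rfl⟩, by simp⟩⟩
    refine xx1 (p := u.take D.p0 ++ P) (by omega) (by omega) hp''.1 hp''.2.1 ?_ ?_
    · rw [← hsplit]; exact ⟨h1, h2, h3⟩
    · rw [← hsplit]; exact hE

end Dat

end Crest.Agent.R320.InstA_966
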