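import Mathlib

/-!
Blocks of an outer left-looking wall rule (natural chain rule: first wall at distance `≥ z`), on all
words.  `loc`, `junction`, `exists_block`, and the spoil count `count` of the promise ruler.
-/

set_option autoImplicit false

namespace Crest.Agent.R320.InstA_970

variable {α : Type*}

/-- left-looking wall rule with window `n` and gaps `> W` -/
structure Wall (n W : ℕ) (Wo : List α → Prop) : Prop where
  app : ∀ P Q : List α, n ≤ Q.length → (Wo (P ++ Q) ↔ Wo Q)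
  len : ∀ P : List α, Wo P → n ≤ P.length
  gap : ∀ (P : List α) (d : ℕ), Wo P → 0 < d → d ≤ W → ¬ Wo (P.take (P.length - d))

def Stop (Wo : List α → Prop) (z : ℕ) (X : List α) : Prop := Wo X ∧ z ≤ X.length

def XX (Wo : List α → Prop) (z : ℕ) : Set (List α) :=
  {X | Stop Wo z X ∧ ∀ P, P <+: X → Stop Wo z P → P = X}

/-- doubtful wall: in `[z - N, z + N)` -/
def EE (Wo : List α → Prop) (z N : ℕ) (X : List α) : Prop :=
  ∃ t, t ≤ X.length ∧ Wo (X.take t) ∧ z ≤ t + N ∧ t < z + N

variable {Wo : List α → Prop} {n W z : ℕ}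

theorem unique {X Y w : List α} (hX : X ∈ XX Wo z) (hY : Y ∈ XX Wo z) (h1 : X <+: w)
    (h2 : Y <+: w) : X = Y := by
  rcases List.prefix_or_prefix_of_prefix h1 h2 with h | h
  · exact hY.2 X h hX.1
  · exact (hX.2 Y h hY.1).symm

theorem exists_block {P : List α} (hP : Stop Wo z P) : ∃ X ∈ XX Wo z, X <+: P := by
  classical
  have hex : ∃ m, ∃ R : List α, R <+: P ∧ Stop Wo z R ∧ R.length = m := ⟨_, P, List.prefix_rfl, hP, rfl⟩
  obtain ⟨R, h1, h2, h3⟩ := Nat.find_spec hex
  refine ⟨R, ⟨h2, fun Q hQ hs => ?_⟩, h1⟩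
  by_contra hne
  have hl : Q.length < R.length := by
    rcases Nat.lt_or_ge Q.length R.length with h | h
    · exact h
    · exact absurd (hQ.eq_of_length_le h) hne
  have := Nat.find_min hex (m := Q.length) (by rw [← h3]; exact hl)
  exact this ⟨Q, hQ.trans h1, hs, rfl⟩

/-- a long prefix of `u ++ Q` -/
theorem split_prefix {u Q R : List α} (h : R <+: u ++ Q) (hl : u.length ≤ R.length) :
    ∃ Q', R = u ++ Q' ∧ Q' <+: Q := by
  have h1 : u <+: R := List.prefix_of_prefix_length_le (List.prefix_append u Q) h hl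
  obtain ⟨Q', rfl⟩ := h1
  exact ⟨Q', rfl, (List.prefix_append_right_inj u).1 h⟩

theorem loc (hW : Wall n W Wo) {p0 : ℕ} (hz : p0 + n ≤ z) {u u' Q : List α}
    (hl : u.length = u'.length) (hu : u.length ≤ p0) (h : u ++ Q ∈ XX Wo z) : u' ++ Q ∈ XX Wo z := by
  obtain ⟨⟨h1, h2⟩, h3⟩ := h
  have hQ : n ≤ Q.length := by rw [List.length_append] at h2; omega
  refine ⟨⟨(hW.app u' Q hQ).2 ((hW.app u Q hQ).1 h1), ?_⟩, ?_⟩
  · rw [List.length_append] at h2 ⊢; omega
  · rintro R hR ⟨hR1, hR2⟩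
    obtain ⟨Q', rfl, hQ'⟩ := split_prefix hR (by omega)
    have hn : n ≤ Q'.length := by rw [List.length_append] at hR2; omega
    have := h3 (u ++ Q') ((List.prefix_append_right_inj u).2 hQ')
      ⟨(hW.app u Q' hn).2 ((hW.app u' Q' hn).1 hR1), by
        rw [List.length_append] at hR2 ⊢; omega⟩
    rw [List.append_cancel_left this]

theorem junction (hW : Wall n W Wo) {p0 N : ℕ} (hz : p0 + 2 * N + n ≤ z) {P0 P Q : List α}
    (h0 : p0 ≤ P0.length) (h0' : P0.length ≤ p0 + N) (h1 : p0 ≤ P.length)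
    (h1' : P.length ≤ p0 + N) (hX : P0 ++ Q ∈ XX Wo z) (hE : ¬ EE Wo z N (P0 ++ Q)) :
    P ++ Q ∈ XX Wo z := by
  obtain ⟨⟨g1, g2⟩, g3⟩ := hX
  have hlen : z + N ≤ (P0 ++ Q).length := by
    by_contra hlt
    exact hE ⟨(P0 ++ Q).length, le_rfl, by rw [List.take_length]; exact g1, by omega, by omega⟩
  rw [List.length_append] at hlen
  have hQ : n ≤ Q.length := by omega
  refine ⟨⟨(hW.app P Q hQ).2 ((hW.app P0 Q hQ).1 g1), ?_⟩, ?_⟩
  · rw [List.length_append]; omega
  · rintro R hR ⟨hR1, hR2⟩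
    obtain ⟨Q', rfl, hQ'⟩ := split_prefix hR (by omega)
    rw [List.length_append] at hR2
    have hn : n ≤ Q'.length := by omega
    have hw : Wo (P0 ++ Q') := (hW.app P0 Q' hn).2 ((hW.app P Q' hn).1 hR1)
    have hle : Q'.length ≤ Q.length := hQ'.length_le
    have hpre : P0 ++ Q' <+: P0 ++ Q := (List.prefix_append_right_inj P0).2 hQ'
    have ht : z + N ≤ (P0 ++ Q').length := by
      by_contra hlt
      rw [List.length_append] at hlt
      refine hE ⟨(P0 ++ Q').length, hpre.length_le, ?_, ?_, ?_⟩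
      · rw [← List.prefix_iff_eq_take.1 hpre]; exact hw
      · rw [List.length_append]; omega
      · rw [List.length_append]; omega
    have := g3 (P0 ++ Q') hpre ⟨hw, by omega⟩
    rw [List.append_cancel_left this]

/-- two walls of one text -/
theorem wall_gap (hW : Wall n W Wo) {U : List α} {s t : ℕ} (hs : Wo (U.take s)) (ht : Wo (U.take t))
    (h : s < t) (htl : t ≤ U.length) : s + W < t := by
  by_contra hlt
  have h1 : (U.take t).length = t := by rw [List.length_take]; omega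
  have := hW.gap (U.take t) (t - s) ht (by omega) (by omega)
  rw [h1, List.take_take] at this
  have e : min (t - (t - s)) t = s := by omega
  rw [e] at this
  exact this hs

/-- a candidate block, in coordinates of the text `U` -/
theorem cand_coord (hW : Wall n W Wo) {p0 : ℕ} {U u Y : List α} {a b : ℕ} (hu : u.length = b)
    (hb : b ≤ p0) (ha : a ≤ p0) (haU : a ≤ U.length)
    (hz : p0 + n ≤ z) (hY : Y ∈ XX Wo z) (hYU : Y <+: u ++ U.drop a) :
    ∃ e, e ≤ U.length ∧ a + n ≤ e ∧ Wo (U.take e) ∧ Y.length + a = e + b ∧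
      (∀ t, a + n ≤ t → t < e → Wo (U.take t) → t + b < z + a) ∧
      (∀ s, b + n ≤ s → s ≤ Y.length → Wo (Y.take s) → Wo (U.take (s + a - b)) ∧ s + a - b ≤ e) := by
  obtain ⟨⟨h1, h2⟩, h3⟩ := hY
  obtain ⟨Q1, rfl, hQ1⟩ := split_prefix hYU (by omega)
  rw [List.length_append] at h2
  have hn : n ≤ Q1.length := by omega
  have hQl : Q1.length ≤ U.length - a := by
    have := hQ1.length_le
    rwa [List.length_drop] at this
  have htk : ∀ m, m ≤ Q1.length → U.take (a + m) = U.take a ++ Q1.take m := by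
    intro m hm
    have e1 : Q1.take m = (U.drop a).take m := by
      rw [List.prefix_iff_eq_take.1 hQ1, List.take_take, min_eq_left hm]
    rw [e1, List.take_add]
  have hwall : ∀ m, n ≤ m → m ≤ Q1.length → (Wo (U.take (a + m)) ↔ Wo (Q1.take m)) := by
    intro m hm hm'
    rw [htk m hm']
    exact hW.app _ _ (by rw [List.length_take]; omega)
  refine ⟨a + Q1.length, by omega, by omega, ?_, ?_, ?_, ?_⟩
  · rw [hwall _ hn le_rfl, List.take_length]
    exact (hW.app u Q1 hn).1 h1
  · rw [List.length_append]; omega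
  · intro t ht1 ht2 ht3
    by_contra hlt
    obtain ⟨m, rfl⟩ : ∃ m, t = a + m := ⟨t - a, by omega⟩
    have hw : Wo (Q1.take m) := (hwall m (by omega) (by omega)).1 ht3
    have hml : (Q1.take m).length = m := by rw [List.length_take]; omega
    have := h3 (u ++ Q1.take m) ((List.prefix_append_right_inj u).2 (List.take_prefix _ _))
      ⟨(hW.app u _ (by omega)).2 hw, by rw [List.length_append]; omega⟩
    have := congrArg List.length this
    rw [List.length_append, List.length_append] at this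
    omega
  · intro s hs1 hs2 hs3
    rw [List.length_append] at hs2
    have e1 : (u ++ Q1).take s = u ++ Q1.take (s - b) := by
      rw [List.take_append, List.take_of_length_le (by omega), hu]
    rw [e1] at hs3
    have hw : Wo (Q1.take (s - b)) := (hW.app u _ (by rw [List.length_take]; omega)).1 hs3
    have e2 : s + a - b = a + (s - b) := by omega
    rw [e2]
    exact ⟨(hwall _ (by omega) (by omega)).2 hw, by omega⟩

/-- **SPOIL COUNT.** -/
theorem count (hW : Wall n W Wo) {p0 N L K C0 : ℕ} (c : ℕ → ℕ) (BadT : ℕ → Prop)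
    (hc : ∀ k < K, c k ≤ L) (hLp : L ≤ p0) (hz : p0 + L + N + n ≤ z)
    (hWL : 2 * L + 2 * N ≤ W)
    (hrul : ∀ a b d e, a < K → b < K → d < K → e < K → a ≠ b → d ≠ e → ¬ (a = d ∧ b = e) →
      2 * (N : ℤ) < |((c a : ℤ) - c b) - ((c d : ℤ) - c e)|)
    (hthin : ∀ T, ∀ F : Finset (ℕ × ℕ), (∀ p ∈ F, p.1 < K ∧ p.2 < K ∧ p.1 ≠ p.2 ∧ c p.2 ≤ T ∧
      BadT (T + c p.1 - c p.2)) → F.card ≤ C0)
    (U : List α) (hU : L + p0 ≤ U.length) (I : Finset ℕ) (hI : ∀ k ∈ I, k < K)
    (hall : ∀ k ∈ I, ∃ k' < K, k' ≠ k ∧ ∃ u Y : List α, u.length = c k' ∧ Y ∈ XX Wo z ∧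
      Y <+: u ++ U.drop (c k) ∧ (EE Wo z N Y ∨ BadT (Y.length - p0))) :
    I.card ≤ 1 + 2 * C0 := by
  classical
  -- coordinates
  have key : ∀ k ∈ I, ∃ k' < K, k' ≠ k ∧ ∃ e, e ≤ U.length ∧ c k + n ≤ e ∧ Wo (U.take e) ∧
      z + c k ≤ e + c k' ∧
      (∀ t, c k + n ≤ t → t < e → Wo (U.take t) → t + c k' < z + c k) ∧
      ((∃ w, w ≤ U.length ∧ Wo (U.take w) ∧ z + c k ≤ w + c k' + N ∧ w + c k' < z + c k + N) ∨
        BadT (e + c k' - c k - p0)) := by
    intro k hk
    obtain ⟨k', hk', hne, u, Y, hu, hY, hYU, hbad⟩ := hall k hk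
    have hck := hc k (hI k hk)
    have hck' := hc k' hk'
    obtain ⟨e, h1, h2, h3, h4, h5, h6⟩ := cand_coord hW (p0 := p0) (a := c k) (b := c k') hu
      (by omega) (by omega) (by omega) (by omega) hY hYU
    have hYl : z ≤ Y.length := hY.1.2
    refine ⟨k', hk', hne, e, h1, h2, h3, by omega, h5, ?_⟩
    rcases hbad with ⟨s, g1, g2, g3, g4⟩ | hb
    · left
      obtain ⟨g5, g6⟩ := h6 s (by omega) g1 g2
      exact ⟨s + c k - c k', by omega, g5, by omega, by omega⟩
    · right
      have : e + c k' - c k - p0 = Y.length - p0 := by omega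
      rw [this]; exact hb
  choose! k' hk' hne e he1 he2 he3 he4 he5 hbad using key
  by_cases hI0 : I = ∅
  · subst hI0; simp
  obtain ⟨k0, hk0⟩ := Finset.nonempty_of_ne_empty hI0
  -- the first two walls behind z - L
  have hex1 : ∃ t, t ≤ U.length ∧ z ≤ t + L ∧ Wo (U.take t) :=
    ⟨e k0, he1 k0 hk0, by have := he4 k0 hk0; have := hc _ (hk' k0 hk0); omega, he3 k0 hk0⟩
  obtain ⟨f1, f2, f3⟩ := Nat.find_spec hex1
  set t1 := Nat.find hex1 with ht1
  have hmin1 : ∀ t, t ≤ U.length → z ≤ t + L → Wo (U.take t) → t1 ≤ t := fun t a b d =>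
    Nat.find_min' hex1 ⟨a, b, d⟩
  have hcls : ∀ k ∈ I, e k = t1 ∨ (t1 < e k ∧ ∀ l ∈ I, t1 < e l → e l = e k) := by
    intro k hk
    have hk1 : t1 ≤ e k := hmin1 _ (he1 k hk)
      (by have := he4 k hk; have := hc _ (hk' k hk); omega) (he3 k hk)
    rcases Nat.lt_or_ge t1 (e k) with h | h
    · right
      refine ⟨h, fun l hl hlt => ?_⟩
      have main : ∀ a ∈ I, ∀ b ∈ I, t1 < e a → t1 < e b → ¬ e a < e b := by
        intro a ha b hb hab1 hab2 hlt'
        have g1 := wall_gap hW f3 (he3 a ha) hab1 (he1 a ha)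
        have g2 := he5 b hb (e a) (by have := hc _ (hI b hb); omega) hlt' (he3 a ha)
        have := hc _ (hI b hb)
        have := hc _ (hI a ha)
        omega
      have g1 := main k hk l hl h hlt
      have g2 := main l hl k hk hlt h
      omega
    · left; omega
  let PE : ℕ → Prop := fun k => ∃ w, w ≤ U.length ∧ Wo (U.take w) ∧ z + c k ≤ w + c (k' k) + N ∧
      w + c (k' k) < z + c k + N
  have hsub : I ⊆ (I.filter PE) ∪ ((I.filter fun k => e k = t1 ∧ BadT (e k + c (k' k) - c k - p0)) ∪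
      (I.filter fun k => t1 < e k ∧ BadT (e k + c (k' k) - c k - p0))) := by
    intro k hk
    rw [Finset.mem_union, Finset.mem_union, Finset.mem_filter, Finset.mem_filter, Finset.mem_filter]
    rcases hbad k hk with h | h
    · exact Or.inl ⟨hk, h⟩
    · rcases hcls k hk with g | g
      · exact Or.inr (Or.inl ⟨hk, g, h⟩)
      · exact Or.inr (Or.inr ⟨hk, g.1, h⟩)
  have hE1 : (I.filter PE).card ≤ 1 := by
    rw [Finset.card_le_one]
    intro a ha b hb
    rw [Finset.mem_filter] at ha hb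
    obtain ⟨ha, w, w1, w2, w3, w4⟩ := ha
    obtain ⟨hb, v, v1, v2, v3, v4⟩ := hb
    have ca := hc _ (hI a ha)
    have cb := hc _ (hI b hb)
    have ca' := hc _ (hk' a ha)
    have cb' := hc _ (hk' b hb)
    have hwv : w = v := by
      rcases Nat.lt_trichotomy w v with h | h | h
      · have := wall_gap hW w2 v2 h v1; omega
      · exact h
      · have := wall_gap hW v2 w2 h w1; omega
    subst hwv
    by_contra hab
    have := hrul (k' a) a (k' b) b (hk' a ha) (hI a ha) (hk' b hb) (hI b hb) (hne a ha) (hne b hb)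
      (fun h => hab h.2)
    have h2 : |((c (k' a) : ℤ) - c a) - ((c (k' b) : ℤ) - c b)| ≤ 2 * (N : ℤ) := by
      rw [abs_le]; constructor <;> omega
    omega
  have hB : ∀ J : Finset ℕ, J ⊆ I → ∀ t, (∀ k ∈ J, e k = t ∧ BadT (e k + c (k' k) - c k - p0)) →
      J.card ≤ C0 := by
    intro J hJ t hJt
    have hinj : Set.InjOn (fun k => (k' k, k)) (J : Set ℕ) := by
      intro a _ b _ hab
      exact (Prod.mk.inj hab).2
    rw [← Finset.card_image_of_injOn hinj]
    by_cases hJ0 : J = ∅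
    · subst hJ0; simp
    refine hthin (t - p0) _ fun p hp => ?_
    obtain ⟨k, hkJ, rfl⟩ := Finset.mem_image.1 hp
    obtain ⟨g1, g2⟩ := hJt k hkJ
    have hkI := hJ hkJ
    have ca := hc _ (hI k hkI)
    have ca' := hc _ (hk' k hkI)
    have h4 := he4 k hkI
    refine ⟨hk' k hkI, hI k hkI, hne k hkI, ?_, ?_⟩
    · show c k ≤ t - p0
      omega
    · show BadT (t - p0 + c (k' k) - c k)
      have : t - p0 + c (k' k) - c k = e k + c (k' k) - c k - p0 := by omega
      rw [this]; exact g2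
  have h1 := hB (I.filter fun k => e k = t1 ∧ BadT (e k + c (k' k) - c k - p0))
    (Finset.filter_subset _ _) t1 (fun k hk => (Finset.mem_filter.1 hk).2)
  have h2 : (I.filter fun k => t1 < e k ∧ BadT (e k + c (k' k) - c k - p0)).card ≤ C0 := by
    by_cases hJ0 : (I.filter fun k => t1 < e k ∧ BadT (e k + c (k' k) - c k - p0)) = ∅
    · rw [hJ0]; simp
    obtain ⟨l, hl⟩ := Finset.nonempty_of_ne_empty hJ0
    obtain ⟨hlI, hl1, hl2⟩ := Finset.mem_filter.1 hl
    refine hB _ (Finset.filter_subset _ _) (e l) fun k hk => ?_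
    obtain ⟨hkI, hk1, hk2⟩ := Finset.mem_filter.1 hk
    rcases hcls l hlI with g | g
    · omega
    · exact ⟨g.2 k hkI hk1, hk2⟩
  calc I.card ≤ _ := Finset.card_le_card hsub
    _ ≤ _ := Finset.card_union_le _ _
    _ ≤ 1 + (C0 + C0) := Nat.add_le_add hE1 ((Finset.card_union_le _ _).trans (Nat.add_le_add h1 h2))
    _ = 1 + 2 * C0 := by ring

end Crest.Agent.R320.InstA_970
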