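import Crest.Agent.R320.Top5_467

/-!
# Row 320: natural block code of left-looking walls (helper99)

`XX` : blocks `X` with a wall at the end, `z ≤ |X|`, no wall at a place in `[z, |X|)`.
-/

set_option autoImplicit false

namespace Crest.Agent.R320.Inst_99

open Crest.RegLang Crest.Agent.R320.Hk_851 Crest.Agent.R320.Blk467

universe u

variable {α : Type u}

/-- walls: local, left-looking, gaps larger than `W` -/
structure Wall (Wo : List α → Prop) (n W : ℕ) : Prop where
  loc : ∀ P Q : List α, n ≤ Q.length → (Wo (P ++ Q) ↔ Wo Q)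
  sep : ∀ (P : List α) (d : ℕ), Wo P → 0 < d → d ≤ W → ¬ Wo (P.take (P.length - d))

/-- the block code -/
def XX (Wo : List α → Prop) (z : ℕ) : Set (List α) :=
  {X | z ≤ X.length ∧ Wo X ∧ ∀ t, z ≤ t → t < X.length → ¬ Wo (X.take t)}

variable {Wo : List α → Prop} {n W z : ℕ}

theorem Wall.gap (h : Wall Wo n W) {w : List α} {s t : ℕ} (hs : Wo (w.take s))
    (ht : Wo (w.take t)) (hst : s < t) (htw : t ≤ w.length) : s + W < t := by
  by_contra hcon
  have hl : (w.take t).length = t := by rw [List.length_take]; omega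
  have := h.sep (w.take t) (t - s) ht (by omega) (by omega)
  rw [hl, List.take_take] at this
  have e : min (t - (t - s)) t = s := by omega
  rw [e] at this
  exact this hs

theorem Wall.shift (h : Wall Wo n W) (P Q : List α) {t : ℕ} (hn : n ≤ t) (ht : t ≤ Q.length) :
    Wo ((P ++ Q).take (P.length + t)) ↔ Wo (Q.take t) := by
  rw [List.take_length_add_append]
  exact h.loc P _ (by rw [List.length_take]; omega)

/-- two left words of different lengths see the same walls in `Q` -/
theorem Wall.shift2 (h : Wall Wo n W) (P P' Q : List α) {t t' : ℕ} (hn : P.length + n ≤ t)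
    (ht : t ≤ P.length + Q.length) (e : t + P'.length = t' + P.length) :
    Wo ((P ++ Q).take t) ↔ Wo ((P' ++ Q).take t') := by
  obtain ⟨s, rfl⟩ : ∃ s, t = P.length + s := ⟨t - P.length, by omega⟩
  obtain rfl : t' = P'.length + s := by omega
  rw [h.shift P Q (by omega) (by omega), h.shift P' Q (by omega) (by omega)]

theorem pcode (hz : 0 < z) : PCode (XX Wo z) := by
  refine ⟨fun h => by have := h.1; simp at this; omega, ?_⟩
  intro X hX Y hY hXY
  have hl := hXY.length_le
  have e : X = Y.take X.length := List.prefix_iff_eq_take.1 hXY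
  rcases Nat.lt_or_ge X.length Y.length with h | h
  · exact absurd (e ▸ hX.2.1) (by
      have := hY.2.2 X.length hX.1 h
      exact this)
  · exact hXY.eq_of_length (by omega)

/-- replacing the left word keeps the block -/
theorem mem_XX_replace (h : Wall Wo n W) {P P' Q : List α} {N : ℕ}
    (hX : P ++ Q ∈ XX Wo z) (hq : z ≤ P'.length + Q.length) (hN : P'.length ≤ P.length + N)
    (hn : P'.length + n ≤ z)
    (hE : ∀ t, z ≤ t + N → t < z → ¬ Wo ((P ++ Q).take t)) :
    P' ++ Q ∈ XX Wo z := by
  obtain ⟨h1, h2, h3⟩ := hX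
  refine ⟨by rw [List.length_append]; exact hq, ?_, ?_⟩
  · have hnQ : n ≤ Q.length := by omega
    exact (h.loc P' Q hnQ).2 ((h.loc P Q hnQ).1 h2)
  · intro t ht1 ht2 hW
    rw [List.length_append] at ht2 h3
    have h4 := (h.shift2 P' P Q (t := t) (t' := t + P.length - P'.length) (by omega) (by omega)
      (by omega)).1 hW
    by_cases h5 : z ≤ t + P.length - P'.length
    · exact h3 _ h5 (by omega) h4
    · exact hE _ (by omega) (by omega) h4

/-- first block of a word with a wall at a late place -/
theorem exists_first {w : List α} {t0 : ℕ} (h1 : z ≤ t0) (h2 : t0 ≤ w.length)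
    (h3 : Wo (w.take t0)) : ∃ t, z ≤ t ∧ t ≤ t0 ∧ w.take t ∈ XX Wo z := by
  classical
  have hex : ∃ t, z ≤ t ∧ t ≤ w.length ∧ Wo (w.take t) := ⟨t0, h1, h2, h3⟩
  obtain ⟨g1, g2, g3⟩ := Nat.find_spec hex
  refine ⟨Nat.find hex, g1, Nat.find_min' hex ⟨h1, h2, h3⟩, ?_, g3, ?_⟩
  · rw [List.length_take]; omega
  · intro t ht1 ht2
    rw [List.length_take] at ht2
    intro hw
    rw [List.take_take, min_eq_left (by omega)] at hw
    exact Nat.find_min hex (by omega) ⟨ht1, by omega, hw⟩

/-- (E) and (B): the block is bad -/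
def IsBad (Wo : List α → Prop) (z N p0 : ℕ) (BT : ℕ → Prop) (X : List α) : Prop :=
  X.length < z + N ∨ (∃ t, z ≤ t + N ∧ t < z ∧ Wo (X.take t)) ∨ BT (X.length - p0)

def Bad (Wo : List α → Prop) (z N p0 : ℕ) (BT : ℕ → Prop) : Set (List α) :=
  {X | X ∈ XX Wo z ∧ IsBad Wo z N p0 BT X}

/-- the spoil condition, in the coordinates of a long text `U` (anchor `0`); the candidate has its
anchor at `c - d` (`c` the place of the cut, `d` the place of the candidate) -/
def Sp (Wo : List α → Prop) (z N p0 : ℕ) (BT : ℕ → Prop) (U : List α) (c d : ℕ) : Prop :=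
  (∃ t, t ≤ U.length ∧ Wo (U.take t) ∧ z + c ≤ t + d + N ∧ t + d < z + c + N) ∨
  (∃ e, e ≤ U.length ∧ Wo (U.take e) ∧ z + c ≤ e + d ∧
    (∀ t, z + c ≤ t + d → t < e → ¬ Wo (U.take t)) ∧ BT (e + d - c - p0))

/-- a bad block of a shifted candidate is a spoil -/
theorem sp_of_bad (h : Wall Wo n W) {N p0 : ℕ} {BT : ℕ → Prop} {P P' Q X1 r : List α}
    (hz : P.length + P'.length + N + n ≤ z)
    (hQ : z + P.length ≤ P'.length + (P.length + Q.length)) 
    (hX1 : X1 ∈ Bad Wo z N p0 BT) (hpre : X1 <+: P' ++ Q ++ r) (hQw : Wo (P ++ Q))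
    (hl : z + P.length + N + P'.length ≤ P.length + Q.length)
    (hle : X1.length ≤ P'.length + Q.length) :
    Sp Wo z N p0 BT (P ++ Q) P.length P'.length := by
  obtain ⟨⟨a1, a2, a3⟩, hb⟩ := hX1
  have hX1' : X1 = (P' ++ Q).take X1.length := by
    have e := List.prefix_iff_eq_take.1 hpre
    rw [List.take_append_of_le_length (by rw [List.length_append]; exact hle)] at e
    exact e
  have hsh : ∀ t, z ≤ t + N → t ≤ X1.length → (Wo (X1.take t) ↔
      Wo ((P ++ Q).take (t + P.length - P'.length))) := by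
    intro t ht1 ht2
    rw [hX1', List.take_take, min_eq_left (by
      have := congrArg List.length hX1'
      omega)]
    exact h.shift2 P' P Q (by omega) (by omega) (by omega)
  rcases hb with hb | ⟨t, ht1, ht2, ht3⟩ | hb
  · left
    refine ⟨X1.length + P.length - P'.length, by rw [List.length_append]; omega, ?_, by omega,
      by omega⟩
    rw [← hsh X1.length (by omega) le_rfl, List.take_length]
    exact a2
  · left
    refine ⟨t + P.length - P'.length, by rw [List.length_append]; omega, ?_, by omega, by omega⟩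
    rw [← hsh t ht1 (by omega)]
    exact ht3
  · right
    refine ⟨X1.length + P.length - P'.length, by rw [List.length_append]; omega, ?_, by omega,
      ?_, ?_⟩
    · rw [← hsh X1.length (by omega) le_rfl, List.take_length]
      exact a2
    · intro t ht1 ht2 hw
      obtain ⟨t', ht'⟩ : ∃ t', t + P'.length = t' + P.length :=
        ⟨t + P'.length - P.length, by omega⟩
      have e2 : t = t' + P.length - P'.length := by omega
      rw [e2, ← hsh t' (by omega) (by omega)] at hw
      exact a3 t' (by omega) (by omega) hw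
    · have e : X1.length + P.length - P'.length + P'.length - P.length - p0 = X1.length - p0 := by
        omega
      rw [e]
      exact hb

/-- the spoil count: at most `1 + 2 * C0` pairs -/
theorem spoil_count (h : Wall Wo n W) {N p0 K C0 : ℕ} {BT : ℕ → Prop} {x : ℕ → ℕ}
    (hx : ∀ i < K, x i ≤ x K)
    (hrul : ∀ i j k l, i < K → j < K → k < K → l < K → i ≠ j → k ≠ l →
      x i + x l ≤ x k + x j + 2 * N → x k + x j ≤ x i + x l + 2 * N → i = k ∧ j = l)
    (hcnt : ∀ T, (∀ i < K, x i ≤ T) → ∀ s : Finset (ℕ × ℕ),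
      (∀ p ∈ s, p.1 < K ∧ p.2 < K ∧ p.1 ≠ p.2 ∧ BT (T + x p.1 - x p.2)) → s.card ≤ C0)
    (hW : 2 * x K + 2 * N ≤ W) (hz : 2 * x K + p0 ≤ z)
    (U : List α) (s : Finset (ℕ × ℕ))
    (hs : ∀ p ∈ s, p.1 < K ∧ p.2 < K ∧ p.1 ≠ p.2 ∧ Sp Wo z N p0 BT U (x p.2) (x p.1)) :
    s.card ≤ 1 + 2 * C0 := by
  classical
  set E : ℕ × ℕ → Prop := fun p => ∃ t, t ≤ U.length ∧ Wo (U.take t) ∧
    z + x p.2 ≤ t + x p.1 + N ∧ t + x p.1 < z + x p.2 + N with hE
  set B : ℕ × ℕ → ℕ → Prop := fun p e => e ≤ U.length ∧ Wo (U.take e) ∧ z + x p.2 ≤ e + x p.1 ∧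
    (∀ t, z + x p.2 ≤ t + x p.1 → t < e → ¬ Wo (U.take t)) ∧ BT (e + x p.1 - x p.2 - p0) with hB
  have hsplit : s ⊆ (s.filter E) ∪ s.filter (fun p => ∃ e, B p e) := by
    intro p hp
    rw [Finset.mem_union, Finset.mem_filter, Finset.mem_filter]
    rcases (hs p hp).2.2.2 with h1 | h1
    · exact Or.inl ⟨hp, h1⟩
    · exact Or.inr ⟨hp, h1⟩
  have hEc : (s.filter E).card ≤ 1 := by
    rw [Finset.card_le_one]
    intro p hp q hq
    rw [Finset.mem_filter] at hp hq
    obtain ⟨hp1, t, ht1, ht2, ht3, ht4⟩ := hp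
    obtain ⟨hq1, u, hu1, hu2, hu3, hu4⟩ := hq
    obtain ⟨p1, p2, p3, -⟩ := hs p hp1
    obtain ⟨q1, q2, q3, -⟩ := hs q hq1
    have b1 := hx _ p1
    have b2 := hx _ p2
    have b3 := hx _ q1
    have b4 := hx _ q2
    have htu : t = u := by
      rcases Nat.lt_trichotomy t u with hh | hh | hh
      · have := h.gap ht2 hu2 hh hu1; omega
      · exact hh
      · have := h.gap hu2 ht2 hh ht1; omega
    subst htu
    obtain ⟨e1, e2⟩ := hrul p.1 p.2 q.1 q.2 p1 p2 q1 q2 p3 q3 (by omega) (by omega)
    exact Prod.ext e1 e2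
  have hBc : (s.filter (fun p => ∃ e, B p e)).card ≤ 2 * C0 := by
    by_cases hne : ∃ p ∈ s, ∃ e, B p e
    · -- the least wall which is used
      have hex : ∃ e, ∃ p ∈ s, B p e := by
        obtain ⟨p, hp, e, he⟩ := hne
        exact ⟨e, p, hp, he⟩
      set e0 := Nat.find hex with he0
      obtain ⟨p0', hp0', hB0⟩ := Nat.find_spec hex
      have hmin : ∀ e, (∃ p ∈ s, B p e) → e0 ≤ e := fun e he => Nat.find_min' hex he
      by_cases hex2 : ∃ e, e0 < e ∧ ∃ p ∈ s, B p e
      · set e1 := Nat.find hex2 with he1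
        obtain ⟨he01, p1', hp1', hB1⟩ := Nat.find_spec hex2
        have hmin1 : ∀ e, e0 < e → (∃ p ∈ s, B p e) → e1 ≤ e :=
          fun e h1 h2 => Nat.find_min' hex2 ⟨h1, h2⟩
        have htwo : ∀ e, (∃ p ∈ s, B p e) → e = e0 ∨ e = e1 := by
          rintro e ⟨p, hp, he⟩
          by_contra hcon
          push Not at hcon
          have g1 := hmin e ⟨p, hp, he⟩
          have g2 := hmin1 e (by omega) ⟨p, hp, he⟩
          have g3 : e1 < e := by omega
          -- e is the first wall after z + .. ; e0 + W < e1, so z + x p.2 - x p.1 ≤ e1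
          obtain ⟨p1, p2, p3, -⟩ := hs p hp
          obtain ⟨q1, q2, q3, -⟩ := hs p0' hp0'
          have b1 := hx _ p1
          have b2 := hx _ p2
          have b3 := hx _ q1
          have b4 := hx _ q2
          have g4 := h.gap hB0.2.1 hB1.2.1 he01 hB1.1
          have g5 := hB0.2.2.1
          exact he.2.2.2.1 e1 (by omega) g3 hB1.2.1
        have hsub : s.filter (fun p => ∃ e, B p e) ⊆
            s.filter (fun p => B p e0) ∪ s.filter (fun p => B p e1) := by
          intro p hp
          rw [Finset.mem_filter] at hp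
          obtain ⟨hp, e, he⟩ := hp
          rw [Finset.mem_union, Finset.mem_filter, Finset.mem_filter]
          rcases htwo e ⟨p, hp, he⟩ with rfl | rfl
          · exact Or.inl ⟨hp, he⟩
          · exact Or.inr ⟨hp, he⟩
        have hone : ∀ e, (∃ p ∈ s, B p e) → (s.filter (fun p => B p e)).card ≤ C0 := by
          rintro e ⟨q, hq, hqB⟩
          obtain ⟨q1, q2, q3, -⟩ := hs q hq
          have b3 := hx _ q1
          have b4 := hx _ q2
          have g5 := hqB.2.2.1
          refine hcnt (e - p0) (fun i hi => by have := hx i hi; omega) _ ?_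
          intro p hp
          rw [Finset.mem_filter] at hp
          obtain ⟨p1, p2, p3, -⟩ := hs p hp.1
          have b1 := hx _ p1
          have b2 := hx _ p2
          refine ⟨p1, p2, p3, ?_⟩
          have e2 : e - p0 + x p.1 - x p.2 = e + x p.1 - x p.2 - p0 := by omega
          rw [e2]
          exact hp.2.2.2.2.2
        have := Finset.card_le_card hsub
        have := Finset.card_union_le (s.filter (fun p => B p e0)) (s.filter (fun p => B p e1))
        have := hone e0 ⟨p0', hp0', hB0⟩
        have := hone e1 ⟨p1', hp1', hB1⟩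
        omega
      · have hsub : s.filter (fun p => ∃ e, B p e) ⊆ s.filter (fun p => B p e0) := by
          intro p hp
          rw [Finset.mem_filter] at hp ⊢
          obtain ⟨hp, e, he⟩ := hp
          refine ⟨hp, ?_⟩
          have g1 := hmin e ⟨p, hp, he⟩
          have : e = e0 := by
            by_contra hcon
            exact hex2 ⟨e, by omega, p, hp, he⟩
          rw [← this]
          exact he
        have hone : (s.filter (fun p => B p e0)).card ≤ C0 := by
          obtain ⟨q1, q2, q3, -⟩ := hs p0' hp0'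
          have b3 := hx _ q1
          have b4 := hx _ q2
          have g5 := hB0.2.2.1
          refine hcnt (e0 - p0) (fun i hi => by have := hx i hi; omega) _ ?_
          intro p hp
          rw [Finset.mem_filter] at hp
          obtain ⟨p1, p2, p3, -⟩ := hs p hp.1
          have b1 := hx _ p1
          have b2 := hx _ p2
          refine ⟨p1, p2, p3, ?_⟩
          have e2 : e0 - p0 + x p.1 - x p.2 = e0 + x p.1 - x p.2 - p0 := by omega
          rw [e2]
          exact hp.2.2.2.2.2
        have := Finset.card_le_card hsub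
        omega
    · rw [Finset.filter_false_of_mem]
      · simp
      · intro p hp he
        exact hne ⟨p, hp, he⟩
  have := Finset.card_le_card hsplit
  have := Finset.card_union_le (s.filter E) (s.filter (fun p => ∃ e, B p e))
  omega

end Crest.Agent.R320.Inst_99
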