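import Crest.Agent.R320.Inst_146
import Crest.Agent.R320.Core_608
import Crest.Agent.R320.Block_467

/-!
Row 320: HALF 1.  The core of 608 is exhibited for the constants of `Inst_146.Cst`.
-/

set_option autoImplicit false

namespace Crest.Agent.R320.InstB_146

open Crest.Agent.R320.Gad1_420 Crest.Agent.R320.Sch1_420 Crest.Agent.R320.Inst_146
open Crest.Agent.R320.Hk_851

theorem RF_reverse {α : Type} {e b : ℕ} {Q : List α} (h : Wall_291.RF e b Q) :
    Wall_291.RF e b Q.reverse := by
  intro x hx hl hi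
  refine h x.reverse (by simpa using hx) (by simpa using hl) ?_
  have h1 : ((List.replicate e x).flatten).reverse = (List.replicate e x.reverse).flatten := by
    rw [List.reverse_flatten, List.map_replicate, List.reverse_replicate]
  rw [← h1, ← List.reverse_reverse Q, List.reverse_infix]
  exact hi

theorem RF_HL {α : Type} [Finite α] (e b k : ℕ) :
    HL k ({w : List α | Wall_291.RF e b w} : Language α) := by
  have hfin : ({y : List α | ∃ x : List α, x ≠ [] ∧ x.length ≤ b ∧
      y = (List.replicate e x).flatten}).Finite := by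
    refine ((List.finite_length_le α b).image (fun x => (List.replicate e x).flatten)).subset ?_
    rintro y ⟨x, _, h2, rfl⟩
    exact ⟨x, h2, rfl⟩
  have h1 := ((HL.finite (k := k) hfin).infix).compl
  refine h1.congr fun w => ?_
  constructor
  · rintro h ⟨v, ⟨x, hx, hl, rfl⟩, hi⟩
    exact h x hx hl hi
  · intro h x hx hl hi
    exact h ⟨_, ⟨x, hx, hl, rfl⟩, hi⟩

section

variable {α S V : Type} [Monoid S] [AddCommGroup V] (C : Cst α S V)

/-- bound for blocks -/
def BB : ℕ := C.z + C.Mp * C.dl + 2 * C.no + C.Go + 1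

/-- the blocks of run-free words -/
def UU : Set (List α) := {X | X ∈ C.O.XX ∧ Wall_291.RF C.ex C.W X ∧ X.length ≤ BB C}

def TT : Set (List α) := {X | X.length ≤ BB C}

theorem cover (w : List α) (hw : Wall_291.RF C.ex C.W w) :
    ∃ L : List (List α), (∀ y ∈ L, y ∈ UU C) ∧ ∃ t ∈ TT C, w = L.flatten ++ t := by
  induction hn : w.length using Nat.strong_induction_on generalizing w with
  | _ n ih =>
    by_cases hle : w.length ≤ BB C
    · exact ⟨[], by simp, w, hle, by simp⟩
    · push Not at hle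
      have hz := C.z_ge
      have hBB : BB C = C.z + C.Mp * C.dl + 2 * C.no + C.Go + 1 := rfl
      set n0 := C.z + C.Mp * C.dl + C.no + C.Go + C.no with hn0
      have hl0 : (w.take n0).length = n0 := by rw [List.length_take]; omega
      obtain ⟨i, hi, hR⟩ := C.Ro_den (w.take n0).reverse (RF_reverse (hw.take _))
        (by rw [List.length_reverse, hl0]; omega)
      rw [List.drop_reverse, hl0] at hR
      have hWo : C.Wo (w.take (n0 - i)) := by
        unfold Cst.Wo
        have h2 : (w.take n0).take (n0 - i) = w.take (n0 - i) := by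
          rw [List.take_take]
          congr 1
          omega
        rwa [h2] at hR
      obtain ⟨X, hX, hXw, hXl⟩ := C.exists_block (t := n0 - i) (by omega) hWo (by omega)
      obtain ⟨w', rfl⟩ := hXw
      have hXz := C.XX_len hX
      obtain ⟨L, hL, t, ht, rfl⟩ := ih w'.length (by
          rw [← hn, List.length_append]; omega) w'
        (hw.infix (List.suffix_append X w').isInfix) rfl
      refine ⟨X :: L, ?_, t, ht, by simp⟩
      intro y hy
      rcases List.mem_cons.1 hy with rfl | hy
      · exact ⟨hX, hw.infix (List.prefix_append _ _).isInfix, by omega⟩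
      · exact hL y hy

/-- prefix action with the noise of scheme 2 -/
def pre (f : α → S) (nu2 : List α → V) (X0 : List α) (v : V) : V :=
  C.act v (ExactR_237.pr f X0) + nu2 X0

theorem act_affine (f : α → S) (hφ : C.φ = ExactR_237.pr f)
    (hadd : ∀ a b s, C.act (a + b) s = C.act a s + C.act b s)
    (hone : ∀ v, C.act v 1 = v)
    (hmul : ∀ v s t, C.act v (s * t) = C.act (C.act v s) t)
    (nu nu2 : List α → V) (L : List (List α)) :
    ∃ c : V, ∀ v, ZRed_608.act (fun X v => Tm C.D C.O (pre C f nu2) nu v X) L v =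
      C.act v ((L.flatten.map f).prod) + c := by
  induction L with
  | nil =>
    refine ⟨0, fun v => ?_⟩
    show v = _
    simp [hone]
  | cons u L ih =>
    obtain ⟨c, hc⟩ := ih
    refine ⟨C.act (C.act (nu2 (u.take C.p0)) (C.φ (u.drop C.p0)) + nu (u.drop C.p0))
      ((L.flatten.map f).prod) + c, fun v => ?_⟩
    show ZRed_608.act _ L (Tm C.D C.O (pre C f nu2) nu v u) = _
    rw [hc]
    have h1 : Tm C.D C.O (pre C f nu2) nu v u =
        C.act (C.act v (ExactR_237.pr f (u.take C.p0)) + nu2 (u.take C.p0))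
          (C.φ (u.drop C.p0)) + nu (u.drop C.p0) := rfl
    rw [h1]
    have h2 : ((List.flatten (u :: L)).map f).prod =
        ExactR_237.pr f (u.take C.p0) * C.φ (u.drop C.p0) * (L.flatten.map f).prod := by
      rw [hφ]
      unfold ExactR_237.pr
      have h4 : u.map f = (u.take C.p0).map f ++ (u.drop C.p0).map f := by
        rw [← List.map_append, List.take_append_drop]
      rw [List.flatten_cons, List.map_append, List.prod_append, h4, List.prod_append]
    rw [h2, hmul, hmul]
    simp only [hadd]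
    abel

/-- **the core of 608** -/
noncomputable def core [Finite α] [Finite V] (hW : 2 * (C.Sp + C.L) ≤ C.W)
    (f : α → S) (hφ : C.φ = ExactR_237.pr f)
    (hadd : ∀ a b s, C.act (a + b) s = C.act a s + C.act b s)
    (hone : ∀ v, C.act v 1 = v)
    (hmul : ∀ v s t, C.act v (s * t) = C.act (C.act v s) t)
    (hfaith : ∀ s t, (∀ v, C.act v s = C.act v t) → s = t)
    (lam rho : ℕ → List α → Option V) (nu2 : List α → V)
    (hex : ∀ k < C.K, ∀ (P Q : List α) (v b : V), P.length = C.c k →
          lam k P = some v → rho k Q = some b →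
          b = C.act v (ExactR_237.pr f (P ++ Q)) + nu2 (P ++ Q))
    (hco : ∀ (u : List α) (v : V), (∀ k < C.K, C.c k ≤ u.length) →
          ∃ I : Finset ℕ, 1 + (C.m + 1) + 2 * C.Ms.card + 1 ≤ I.card ∧ ∀ k ∈ I, k < C.K ∧
            lam k (u.take (C.c k)) = some v ∧ (rho k (u.drop (C.c k))).isSome)
    (nu : List α → V)
    (hnu : ∀ pre : List α → V → V,
      SoundB C.O.XX (Tm C.D C.O pre nu) (LP C.D C.O pre) (RQ C.D C.O) ∧
      ∀ X ∈ C.O.XX, Wall_291.RF C.ex C.W X → ¬ C.Bad X →
        ∀ v, CutB (LP C.D C.O pre) (RQ C.D C.O) v X) :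
    Core_608.Core α f {w | Wall_291.RF C.ex C.W w} where
  Z := C.O.XX
  pcZ := by
    refine ⟨?_, fun u hu u' hu' h => C.XX_prefix hu hu' h⟩
    intro h
    have h1 := C.XX_len h
    have h2 := C.z_ge
    simp at h1
    omega
  U := UU C
  subU := fun X hX => hX.1
  finU := (List.finite_length_le α (BB C)).subset fun X hX => hX.2.2
  T := TT C
  finT := List.finite_length_le α (BB C)
  cover := fun w hw => cover C w hw
  V := V
  fin := inferInstance
  inh := ⟨0⟩
  e := fun X v => Tm C.D C.O (pre C f nu2) nu v X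
  rcv := by
    intro L L' _ _ h
    obtain ⟨c, hc⟩ := act_affine C f hφ hadd hone hmul nu nu2 L
    obtain ⟨c', hc'⟩ := act_affine C f hφ hadd hone hmul nu nu2 L'
    apply hfaith
    intro v
    have h0 := h 0
    have hv := h v
    rw [hc, hc'] at h0 hv
    have hz : ∀ s, C.act 0 s = 0 := by
      intro s
      have := hadd 0 0 s
      rw [add_zero] at this
      exact left_eq_add.1 this
    rw [hz, hz, zero_add, zero_add] at h0
    rw [h0] at hv
    exact add_right_cancel hv
  Bad := {X | C.Bad X}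
  P1 := fun v => {P | P ∈ LP C.D C.O (pre C f nu2) v ∧ P.length ≤ BB C}
  finP1 := fun v => (List.finite_length_le α (BB C)).subset fun X hX => hX.2
  ne1 := by
    rintro v ⟨⟨h1, h2⟩, h3⟩
    have h1' : C.p0 ≤ ([] : List α).length := h1
    have h4 := C.no_pos
    have h5 : C.p0 = C.L + C.no := rfl
    simp at h1'
    omega
  compl1 := by
    rintro u ⟨hu, hRF, hl⟩ hB v
    obtain ⟨hs, hc⟩ := hnu (pre C f nu2)
    obtain ⟨P, Q, rfl, hP, v', hQ⟩ := hc u hu hRF hB v
    refine ⟨P, Q, rfl, ⟨hP, ?_⟩, ?_⟩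
    · rw [List.length_append] at hl
      omega
    · rintro v'' p'' ⟨hp'', _⟩
      refine ⟨hs.block _ _ _ _ hp'' hQ, ?_⟩
      show Tm C.D C.O (pre C f nu2) nu v'' (p'' ++ Q) = Tm C.D C.O (pre C f nu2) nu v (P ++ Q)
      rw [hs.value _ _ _ _ hp'' hQ, hs.value _ _ _ _ hP hQ]
  P2 := fun v => {P | ∃ k < C.K, P.length = C.c k ∧ lam k P = some v}
  finP2 := by
    intro v
    refine (List.finite_length_le α C.L).subset ?_
    rintro P ⟨k, hk, h1, _⟩
    show P.length ≤ C.L
    rw [h1]
    exact C.c_le hk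
  ne2 := by
    rintro v ⟨k, hk, h1, _⟩
    have : 0 < C.c k := by
      unfold Cst.c Cst.U
      positivity
    simp at h1
    omega
  compl2 := by
    classical
    rintro u ⟨hu, hRF, hl⟩ hB u' ⟨hu', hRF', hl'⟩ hB' v
    have hz := C.z_ge
    have hul := C.XX_len hu
    have hul' := C.XX_len hu'
    have hp0 : C.p0 = C.L + C.no := rfl
    have hSp : C.Sp = C.N1 + C.Mp * C.dl := rfl
    obtain ⟨I, hI, hIk⟩ := hco (u.take C.p0) v (by
      intro k hk
      have := C.c_le hk
      rw [List.length_take]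
      omega)
    have hsp := C.spoil hW (u ++ u')
    obtain ⟨k, hkI, hks⟩ : ∃ k ∈ I, k ∉ Zone2_594.spoiled C.K C.c C.BadAt (u ++ u') := by
      by_contra hcon
      push Not at hcon
      have : I.card ≤ (Zone2_594.spoiled C.K C.c C.BadAt (u ++ u')).card :=
        Finset.card_le_card hcon
      omega
    obtain ⟨hk, hlam, hrho⟩ := hIk k hkI
    have hck := C.c_le hk
    have hgood : ∀ k' < C.K, k' ≠ k → ¬ C.BadAt (C.c k') ((u ++ u').drop (C.c k)) := by
      intro k' hk' hne hb
      apply hks
      unfold Zone2_594.spoiled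
      rw [Finset.mem_filter, Finset.mem_range]
      exact ⟨hk, k', hk', hne, hb⟩
    rw [List.take_take, min_eq_left (by omega)] at hlam
    obtain ⟨b, hb⟩ := Option.isSome_iff_exists.1 hrho
    have hpl : (u.take (C.c k)).length = C.c k := by rw [List.length_take]; omega
    refine ⟨u.take (C.c k), u.drop (C.c k), (List.take_append_drop _ _).symm,
      ⟨k, hk, hpl, hlam⟩, ?_⟩
    rintro v'' p'' ⟨k'', hk'', hp''l, hp''⟩
    have hck'' := C.c_le hk''
    by_cases hkk : k'' = k
    · subst hkk
      left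
      have hZ : p'' ++ u.drop (C.c k'') ∈ C.O.XX :=
        C.XX_replace (P := u.take (C.c k'')) (by rwa [List.take_append_drop]) (by rw [hpl, hp''l])
          (by rw [hpl]; omega)
      refine ⟨_, hZ, u', hu', by rw [List.append_assoc], ?_⟩
      show Tm C.D C.O (pre C f nu2) nu (Tm C.D C.O (pre C f nu2) nu v'' (p'' ++ u.drop (C.c k''))) u'
        = Tm C.D C.O (pre C f nu2) nu (Tm C.D C.O (pre C f nu2) nu v u) u'
      congr 1
      have e1 : (p'' ++ u.drop (C.c k'')).drop C.p0 = u.drop C.p0 := by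
        rw [List.drop_append, List.drop_of_length_le (by omega), List.nil_append, List.drop_drop]
        congr 1
        omega
      have e2 : (p'' ++ u.drop (C.c k'')).take C.p0 =
          p'' ++ (u.take C.p0).drop (C.c k'') := by
        rw [List.take_append, List.take_of_length_le (by omega), List.drop_take, hp''l]
      have e3 : u.take C.p0 = u.take (C.c k'') ++ (u.take C.p0).drop (C.c k'') := by
        conv_lhs => rw [← List.take_append_drop (C.c k'') (u.take C.p0)]
        rw [List.take_take, min_eq_left (by omega)]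
      have h1 := hex k'' hk'' p'' _ v'' b hp''l hp'' hb
      have h2 := hex k'' hk'' (u.take (C.c k'')) _ v b hpl hlam hb
      show C.act (pre C f nu2 ((p'' ++ u.drop (C.c k'')).take C.p0) v'')
          (C.φ ((p'' ++ u.drop (C.c k'')).drop C.p0)) + nu ((p'' ++ u.drop (C.c k'')).drop C.p0) =
        C.act (pre C f nu2 (u.take C.p0) v) (C.φ (u.drop C.p0)) + nu (u.drop C.p0)
      rw [e1, e2]
      have h3 : pre C f nu2 (p'' ++ (u.take C.p0).drop (C.c k'')) v'' =
          pre C f nu2 (u.take C.p0) v := by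
        unfold pre
        rw [← h1]
        rw [← e3] at h2
        exact h2
      rw [h3]
    · right
      have hdrop : (u ++ u').drop (C.c k) = u.drop (C.c k) ++ u' :=
        List.drop_append_of_le_length (by omega)
      have hnb : ¬ C.Bad (p'' ++ (u.drop (C.c k) ++ u')) := by
        intro hb'
        rw [C.Bad_append _ _ (by omega), hp''l, ← hdrop] at hb'
        exact hgood k'' hk'' hkk hb'
      have hlen : (p'' ++ (u.drop (C.c k) ++ u')).length =
          C.c k'' + ((u.length - C.c k) + u'.length) := by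
        simp [hp''l]
      obtain ⟨X, hX, hXp, _⟩ := C.exists_block (U := p'' ++ (u.drop (C.c k) ++ u'))
        (t := (p'' ++ (u.drop (C.c k) ++ u')).length) le_rfl
        (by
          rw [List.take_length, ← List.append_assoc]
          exact (C.Wo_loc _ _ (by omega)).2 hu'.1)
        (by rw [hlen]; omega)
      refine ⟨[], X, Or.inl rfl, hX, ?_, by simpa using hXp⟩
      intro hXB
      obtain ⟨Y, hY⟩ := hXp
      rw [← hY] at hnb
      exact hnb (C.bad_mono hX hXB)

end

theorem walls' (α : Type) [Finite α] (e W : ℕ) :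
    ∃ (n G : ℕ) (R : List α → Prop), 0 < n ∧
      (∀ Q, R Q ↔ R (Q.take n)) ∧
      (∀ Q, R Q → n ≤ Q.length) ∧
      (∀ Q d, R Q → 0 < d → d ≤ W → ¬ R (Q.drop d)) ∧
      (∀ Q, Wall_291.RF e W Q → G + n ≤ Q.length → ∃ i < G, R (Q.drop i)) := by
  obtain ⟨n, G, R, h1, h2, h3, h4⟩ := Wall_291.exists_walls α e W
  refine ⟨n + 1, G, fun Q => R Q ∧ n + 1 ≤ Q.length, by omega, ?_, fun Q h => h.2, ?_, ?_⟩
  · intro Q
    have e1 : (Q.take (n + 1)).take n = Q.take n := by
      rw [List.take_take]
      congr 1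
      omega
    constructor
    · rintro ⟨a, b⟩
      refine ⟨?_, by rw [List.length_take]; omega⟩
      rw [h1, e1, ← h1]
      exact a
    · rintro ⟨a, b⟩
      rw [List.length_take] at b
      refine ⟨?_, by omega⟩
      rw [h1, e1, ← h1] at a
      exact a
  · rintro Q d ⟨a, _⟩ hd hdW ⟨b, _⟩
    exact h3 Q d a hd hdW b
  · intro Q hQ hl
    obtain ⟨i, hi, hR⟩ := h4 Q hQ (by omega)
    exact ⟨i, hi, hR, by rw [List.length_drop]; omega⟩

/-- **HALF 1.** On words without `ex`-th powers of short words every finite monoid is computed by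
languages of height 2. -/
theorem half1 (α : Type) [Finite α] (S : Type) [Monoid S] [Finite S] (f : α → S) (ex : ℕ) :
    ∃ W : ℕ, ∀ s : S,
      HL 2 ({w : List α | Wall_291.RF ex W w ∧ (w.map f).prod = s} : Language α) := by
  classical
  letI := Fintype.ofFinite S
  obtain ⟨act, hadd, hone, hmul, hfaith⟩ := Blk467.exists_module S
  obtain ⟨m, N, e, F, hN, hF⟩ := RandF808.exists_noise S (S → ZMod 2) act
  haveI : NeZero N := ⟨by omega⟩
  let Nm : Type := Fin m × S × (ZMod N × ZMod N) × S × (ZMod N × ZMod N) × (S → ZMod 2)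
  haveI : Finite Nm := by
    show Finite (Fin m × S × (ZMod N × ZMod N) × S × (ZMod N × ZMod N) × (S → ZMod 2))
    infer_instance
  let col : Nm → (S → ZMod 2) × (S → ZMod 2) := fun c1 =>
    (c1.2.2.2.2.2, F (c1.2.1 * 1 * c1.2.2.2.1) (c1.2.2.1 + e c1.1 1 + c1.2.2.2.2.1) +
              act c1.2.2.2.2.2 (c1.2.1 * 1 * c1.2.2.2.1))
  obtain ⟨r, hr⟩ := Names_570.exists_names col
  obtain ⟨K, hK⟩ := ExactR_237.exact_gadget α S (S → ZMod 2) f act (1 + (m + 1) + 2 * r + 1)
  obtain ⟨Ms, nmL, nmR, hc, hp, _, _, hn1, hn2, hn3⟩ := hr (2 * 4 ^ K + 2)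
  obtain ⟨n, G, R, hn, hR1, hR2, hR3, hR4⟩ := walls' α ex (2 * (4 ^ K * (∏ q ∈ Ms, q) +
    (4 ^ K * (1 + (∏ q ∈ Ms, q) * (2 * 4 ^ K * (∏ q ∈ Ms, q) + 1)) + 1) * 4 ^ K))
  obtain ⟨no0, Go0, Ro0, ho0, ho1, ho2, ho3, ho4⟩ := walls' α ex 1
  let C0 : Cst α S (S → ZMod 2) :=
    { φ := ExactR_237.pr f
      hφ := by intro u v; simp [ExactR_237.pr]
      act := act
      m := m
      N := N
      e := e
      F := F
      hF := hF
      Ms := Ms
      K := K
      hMs := fun q hq => (hp q hq).2.le
      nmL := nmL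
      nmR := nmR
      nm1 := hn1
      nm2 := hn2
      nm3 := by
        intro t1 t1' t2 t2' c1 c1' c2 c2' a1 a2 a3 a4 a5 a6
        rcases hn3 t1 t1' t2 t2' c1 c1' c2 c2' a1 a2 a3 a4 a5 a6 with h | ⟨h1, h2, h3⟩
        · exact Or.inl h
        · exact Or.inr ⟨h1, h2, congrArg Prod.fst h3, congrArg Prod.snd h3⟩
      Mp := 4 ^ K
      hMp := le_rfl
      ex := ex
      n := n
      G := G
      R := R
      n_pos := hn
      R_take := hR1
      R_len := hR2
      gS := _
      hgS := rfl
      R_gap := hR3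
      R_den := hR4
      W := 1
      no := no0
      Go := Go0
      Ro := Ro0
      no_pos := ho0
      Ro_take := ho1
      Ro_len := ho2
      Ro_gap := ho3
      Ro_den := ho4 }
  obtain ⟨no, Go, Ro, h0, h1, h2, h3, h4⟩ := walls' α ex (2 * (C0.Sp + C0.L) + C0.gS)
  let C : Cst α S (S → ZMod 2) :=
    { C0 with
      W := 2 * (C0.Sp + C0.L) + C0.gS
      no := no
      Go := Go
      Ro := Ro
      no_pos := h0
      Ro_take := h1
      Ro_len := h2
      Ro_gap := h3
      Ro_den := h4 }
  have hW : 2 * (C.Sp + C.L) ≤ C.W := by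
    show 2 * (C0.Sp + C0.L) ≤ 2 * (C0.Sp + C0.L) + C0.gS
    omega
  have hgW : C.gS ≤ C.W := by
    show C0.gS ≤ 2 * (C0.Sp + C0.L) + C0.gS
    omega
  obtain ⟨lam, rho, nu2, hex, hco⟩ := hK C.c (fun i j hij _ => C.c_lt hij)
  obtain ⟨nu, hnu⟩ := C.scheme1' hgW
  have core := core C hW f rfl hadd hone hmul hfaith lam (fun k Q => rho k Q 1)
    (fun X => nu2 X 1)
    (by
      intro k hk P Q v b hP hl hr
      have := hex k hk P Q 1 v b hP hl hr
      rw [mul_one] at this
      exact this)
    (by
      intro u v hu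
      obtain ⟨I, hI, hIk⟩ := hco u 1 v hu
      refine ⟨I, le_trans ?_ hI, hIk⟩
      show 1 + (m + 1) + 2 * Ms.card + 1 ≤ 1 + (m + 1) + 2 * r + 1
      omega)
    nu hnu
  exact ⟨C.W, fun s => core.half1 (RF_HL _ _ _) s⟩

end Crest.Agent.R320.InstB_146
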