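import Crest.Agent.R320.InstA_18

/-!
# Row 320, all words: natural block code, completeness of the two schemes (helper18)
-/

set_option autoImplicit false

namespace Crest.Agent.R320.Inst_18

open Crest.RegLang Crest.Agent.R320.Hk_851 Crest.Agent.R320.Code110
open Crest.Agent.R320.FewWalls_228 Crest.Agent.R320.FewVal_228

universe u

variable {α : Type u} {n z N p0 : ℕ} {S : Set (List α)} {M V : Type} [Monoid M] [AddCommGroup V]

def ph (f : α → M) (w : List α) : M := (w.map f).prod

theorem ph_append (f : α → M) (u w : List α) : ph f (u ++ w) = ph f u * ph f w := by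
  unfold ph; rw [List.map_append, List.prod_append]

/-- zone map -/
def TT (f : α → M) (act : V → M → V) (p0 : ℕ) (nu1 nu2 : List α → V) (u : List α) (x : V) : V :=
  act (act x (ph f (u.take p0)) + nu2 (u.take p0)) (ph f (u.drop p0)) + nu1 (u.drop p0)

/-- critical blocks -/
def Bad (n : ℕ) (S : Set (List α)) (z N p0 : ℕ) (BT : ℕ → Prop) : Language α :=
  {u | u ∈ XX n S z ∧ ((∃ t, z ≤ t + N ∧ t < z + N ∧ t ≤ u.length ∧ Wo n S (u.take t)) ∨
    BT (u.length - p0))}

theorem take_add (p q : List α) (s : ℕ) : (p ++ q).take (p.length + s) = p ++ q.take s := by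
  rw [List.take_append]; simp [List.take_of_length_le]

theorem Wo_shift (p p' q : List α) {s : ℕ} (hs : n ≤ s) (hq : s ≤ q.length) :
    Wo n S ((p' ++ q).take (p'.length + s)) ↔ Wo n S ((p ++ q).take (p.length + s)) := by
  rw [take_add, take_add, Wo_append _ _ (by rw [List.length_take]; omega),
    Wo_append _ _ (by rw [List.length_take]; omega)]

/-- left-legal words of scheme 1 -/
def L1 (f : α → M) (act : V → M → V) (p0 N : ℕ) (nu2 : List α → V) (lam : List α → Option V)
    (x : V) : Language α :=
  {p | p0 ≤ p.length ∧ p.length ≤ p0 + N ∧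
    lam (p.drop p0) = some (act x (ph f (p.take p0)) + nu2 (p.take p0))}

theorem c1 (f : α → M) (act : V → M → V) (nu1 nu2 : List α → V) (lam rho : List α → Option V)
    (BT : ℕ → Prop) (hpz : p0 + 2 * N + n ≤ z)
    (hlen : ∀ P v, lam P = some v → P.length ≤ N)
    (sound : ∀ P Q v b, lam P = some v → rho Q = some b →
      b = act v (ph f (P ++ Q)) + nu1 (P ++ Q))
    (compl : ∀ Y, ¬ BT Y.length → ∀ v, ∃ P Q, P ++ Q = Y ∧ lam P = some v ∧ (rho Q).isSome) :
    ∀ u ∈ XX n S z, u ∉ Bad n S z N p0 BT → ∀ x, ∀ t ∈ (XX n S z) ^ 0,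
      ∃ p q y, u ++ t = p ++ q ∧ p ∈ L1 f act p0 N nu2 lam x ∧
        q ∈ Rsem (XX n S z) (XX n S z) (TT f act p0 nu1 nu2) 0 (L1 f act p0 N nu2 lam) y := by
  intro u hu hb x t ht
  rw [pow_zero] at ht
  have ht' : t = [] := ht
  subst ht'
  have hnE : ∀ t, z ≤ t + N → t < z + N → t ≤ u.length → ¬ Wo n S (u.take t) := by
    intro t h1 h2 h3 h4
    exact hb ⟨hu, Or.inl ⟨t, h1, h2, h3, h4⟩⟩
  have hnB : ¬ BT (u.length - p0) := fun h => hb ⟨hu, Or.inr h⟩
  have huz : z + N ≤ u.length := by
    by_contra hc
    refine hnE u.length ?_ (by omega) le_rfl ?_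
    · have := hu.1; omega
    · rw [List.take_length]; exact hu.2.1
  obtain ⟨P, Q, hPQ, hP, hQ⟩ := compl (u.drop p0) (by rwa [List.length_drop])
    (act x (ph f (u.take p0)) + nu2 (u.take p0))
  obtain ⟨r, hr⟩ := Option.isSome_iff_exists.1 hQ
  have hPN := hlen _ _ hP
  have hX : (u.take p0).length = p0 := by rw [List.length_take]; omega
  have hup : u = (u.take p0 ++ P) ++ Q := by
    rw [List.append_assoc, hPQ, List.take_append_drop]
  have hulen : u.length = p0 + P.length + Q.length := by
    conv_lhs => rw [hup]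
    simp only [List.length_append, hX]
  refine ⟨u.take p0 ++ P, Q, r, by rw [List.append_nil]; exact hup, ⟨?_, ?_, ?_⟩, ?_⟩
  · rw [List.length_append, hX]; omega
  · rw [List.length_append, hX]; omega
  · rw [List.drop_left' hX, List.take_left' hX]; exact hP
  · intro x' p' hp'
    obtain ⟨h1, h2, h3⟩ := hp'
    left
    have hmem : p' ++ Q ∈ XX n S z := by
      have key : ∀ s, n ≤ s → s ≤ Q.length →
          (Wo n S ((p' ++ Q).take (p'.length + s)) ↔ Wo n S (u.take (p0 + P.length + s))) := by
        intro s hs hsq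
        have := Wo_shift (n := n) (S := S) (u.take p0 ++ P) p' Q hs hsq
        rw [← hup, List.length_append, hX] at this
        exact this
      refine ⟨?_, ?_, ?_⟩
      · rw [List.length_append]; omega
      · have := key Q.length (by omega) le_rfl
        rw [show p'.length + Q.length = (p' ++ Q).length by simp, List.take_length, ← hulen,
          List.take_length] at this
        exact this.2 hu.2.1
      · intro s hs1 hs2 hs3
        rw [List.length_append] at hs2
        have hs4 := (key (s - p'.length) (by omega) (by omega)).1 (by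
          rw [show p'.length + (s - p'.length) = s by omega]; exact hs3)
        by_cases hc : z ≤ p0 + P.length + (s - p'.length)
        · exact hu.2.2 _ hc (by omega) hs4
        · exact hnE _ (by omega) (by omega) (by omega) hs4
    refine ⟨r, Language.mem_mul.2 ⟨p' ++ Q, ⟨hmem, ?_⟩, [], ⟨rfl, rfl⟩, by simp⟩⟩
    have e1 : (p' ++ Q).take p0 = p'.take p0 := List.take_append_of_le_length h1
    have e2 : (p' ++ Q).drop p0 = p'.drop p0 ++ Q := List.drop_append_of_le_length h1
    unfold TT
    rw [e1, e2]
    exact (sound _ _ _ _ h3 hr).symm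

/-- left-legal words of scheme 2 -/
def L2 (K : ℕ) (c : ℕ → ℕ) (lam2 : ℕ → List α → Option V) (x : V) : Language α :=
  {p | ∃ k < K, p.length = c k ∧ lam2 k p = some x}

/-- spoiled -/
def Sp (n : ℕ) (S : Set (List α)) (z N p0 : ℕ) (BT : ℕ → Prop) (c : ℕ → ℕ) (w : List α)
    (k k' : ℕ) : Prop :=
  ∃ p' : List α, p'.length = c k' ∧ ∃ u'' ∈ Bad n S z N p0 BT, u'' <+: p' ++ w.drop (c k)

theorem c2 (f : α → M) (act : V → M → V) (nu1 nu2 : List α → V)
    (K R : ℕ) (c : ℕ → ℕ) (lam2 rho2 : ℕ → List α → Option V)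
    (BT : ℕ → Prop) (hc : ∀ k < K, c k ≤ p0) (hpz : p0 + N + n ≤ z)
    (sound : ∀ k < K, ∀ P Q v b, P.length = c k → lam2 k P = some v → rho2 k Q = some b →
      b = act v (ph f (P ++ Q)) + nu2 (P ++ Q))
    (compl : ∀ (X : List α) (v : V), X.length = p0 →
      ∃ I : Finset ℕ, R ≤ I.card ∧ ∀ k ∈ I, k < K ∧ lam2 k (X.take (c k)) = some v ∧
        (rho2 k (X.drop (c k))).isSome)
    (spoil : ∀ u ∈ Bad n S z N p0 BT, ∀ t ∈ Bad n S z N p0 BT, ∃ J : Finset ℕ, J.card < R ∧
      ∀ k < K, (∃ k' < K, k' ≠ k ∧ Sp n S z N p0 BT c (u ++ t) k k') → k ∈ J) :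
    ∀ u ∈ Bad n S z N p0 BT, ∀ x, ∀ t ∈ (Bad n S z N p0 BT) ^ 1,
      ∃ p q y, u ++ t = p ++ q ∧ p ∈ L2 K c lam2 x ∧
        q ∈ Rsem (XX n S z) (Bad n S z N p0 BT) (TT f act p0 nu1 nu2) 1 (L2 K c lam2) y := by
  classical
  intro u hu x t ht
  rw [pow_one] at ht
  have huz : z ≤ u.length := hu.1.1
  have htz : z ≤ t.length := ht.1.1
  have hX : (u.take p0).length = p0 := by rw [List.length_take]; omega
  obtain ⟨I, hI, hIk⟩ := compl (u.take p0) x hX
  obtain ⟨J, hJ, hJk⟩ := spoil u hu t ht
  obtain ⟨k, hkI, hkJ⟩ : ∃ k ∈ I, k ∉ J := by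
    by_contra hcon
    push Not at hcon
    exact absurd (Finset.card_le_card (fun k hk => hcon k hk)) (by omega)
  obtain ⟨hkK, hlamk, hrhok⟩ := hIk k hkI
  obtain ⟨b, hb⟩ := Option.isSome_iff_exists.1 hrhok
  have hck := hc k hkK
  have hckl : (u.take (c k)).length = c k := by rw [List.length_take]; omega
  rw [List.take_take, Nat.min_eq_left hck] at hlamk
  have hdrop : (u ++ t).drop (c k) = u.drop (c k) ++ t :=
    List.drop_append_of_le_length (by omega)
  refine ⟨u.take (c k), u.drop (c k) ++ t, TT f act p0 nu1 nu2 t (TT f act p0 nu1 nu2 u x), ?_,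
    ⟨k, hkK, hckl, hlamk⟩, ?_⟩
  · rw [← List.append_assoc, List.take_append_drop]
  · intro x' p' hp'
    obtain ⟨k', hk', hlen', hlam'⟩ := hp'
    by_cases hkk : k' = k
    · subst hkk
      left
      have hu'len : (p' ++ u.drop (c k')).length = u.length := by
        rw [List.length_append, List.length_drop, hlen']; omega
      have key : ∀ s, c k' + n ≤ s → s ≤ u.length →
          (Wo n S ((p' ++ u.drop (c k')).take s) ↔ Wo n S (u.take s)) := by
        intro s hs hsq
        have := Wo_shift (n := n) (S := S) (u.take (c k')) p' (u.drop (c k')) (s := s - c k')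
          (by omega) (by rw [List.length_drop]; omega)
        rw [List.take_append_drop, hckl, hlen', show c k' + (s - c k') = s by omega] at this
        exact this
      have hmemX : p' ++ u.drop (c k') ∈ XX n S z := by
        refine ⟨by rw [hu'len]; exact huz, ?_, ?_⟩
        · have := key u.length (by omega) le_rfl
          rw [List.take_length, ← hu'len, List.take_length] at this
          exact this.2 hu.1.2.1
        · intro s hs1 hs2 hs3
          rw [hu'len] at hs2
          exact hu.1.2.2 s hs1 hs2 ((key s (by omega) (by omega)).1 hs3)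
      have hmemB : p' ++ u.drop (c k') ∈ Bad n S z N p0 BT := by
        refine ⟨hmemX, ?_⟩
        rcases hu.2 with ⟨s, h1, h2, h3, h4⟩ | h
        · left
          exact ⟨s, h1, h2, by rw [hu'len]; exact h3, (key s (by omega) h3).2 h4⟩
        · right; rw [hu'len]; exact h
      have hT : TT f act p0 nu1 nu2 (p' ++ u.drop (c k')) x' = TT f act p0 nu1 nu2 u x := by
        have e1 : (p' ++ u.drop (c k')).take p0 = p' ++ (u.take p0).drop (c k') := by
          rw [show p0 = p'.length + (p0 - c k') by omega, take_add, List.drop_take]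
          congr 2
          omega
        have e2 : (p' ++ u.drop (c k')).drop p0 = u.drop p0 := by
          rw [List.drop_append, List.drop_of_length_le (by omega), List.nil_append,
            List.drop_drop]
          congr 1
          omega
        have e3 : u.take p0 = u.take (c k') ++ (u.take p0).drop (c k') := by
          have := (List.take_append_drop (c k') (u.take p0)).symm
          rwa [List.take_take, Nat.min_eq_left hck] at this
        have s1 := sound k' hk' p' ((u.take p0).drop (c k')) x' b hlen' hlam' hb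
        have s2 := sound k' hk' (u.take (c k')) ((u.take p0).drop (c k')) x b hckl hlamk hb
        rw [← e3] at s2
        unfold TT
        rw [e1, e2, ← s1, ← s2]
      refine ⟨TT f act p0 nu1 nu2 u x, Language.mem_mul.2
        ⟨p' ++ u.drop (c k'), ⟨hmemB, hT⟩, t, ?_, by rw [List.append_assoc]⟩⟩
      exact ⟨_, Language.mem_mul.2 ⟨t, ⟨ht, rfl⟩, [], ⟨rfl, rfl⟩, by simp⟩⟩
    · right; left
      have hWlen : z ≤ (p' ++ (u.drop (c k) ++ t)).length := by
        simp only [List.length_append]; omega
      have hWo : Wo n S (p' ++ (u.drop (c k) ++ t)) := by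
        rw [← List.append_assoc]
        exact (Wo_append _ t (by omega)).2 ht.1.2.1
      have hex : ∃ s, z ≤ s ∧ s ≤ (p' ++ (u.drop (c k) ++ t)).length ∧
          Wo n S ((p' ++ (u.drop (c k) ++ t)).take s) :=
        ⟨_, hWlen, le_rfl, by rw [List.take_length]; exact hWo⟩
      obtain ⟨g1, g2, g3⟩ := Nat.find_spec hex
      have hmem : (p' ++ (u.drop (c k) ++ t)).take (Nat.find hex) ∈ XX n S z := by
        refine ⟨?_, g3, ?_⟩
        · rw [List.length_take]; omega
        · intro s a b' hc'
          rw [List.length_take] at b'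
          have hlt : s < Nat.find hex := by omega
          refine Nat.find_min hex hlt ⟨a, by omega, ?_⟩
          rwa [List.take_take, Nat.min_eq_left hlt.le] at hc'
      refine ⟨_, hmem, fun hbad => hkJ (hJk k hkK ⟨k', hk', hkk, p', hlen', _, hbad, ?_⟩),
        List.take_prefix _ _⟩
      rw [hdrop]
      exact List.take_prefix _ _

end Crest.Agent.R320.Inst_18
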