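import Crest.Agent.R320.InstA_180

/-!
# Row 320: concrete instance, scheme 2 (promise ruler) (helper180)
-/

set_option autoImplicit false

namespace Crest.Agent.R320.InstA_180

open Crest.Agent.R320.FewWalls_228 Crest.Agent.R320.Half1_180

universe u

namespace Par

variable {α : Type u} {S V : Type} [Monoid S] [AddCommGroup V] (p : Par α S V)

/-- candidate `k` is seen critical in `Q` -/
def BadC (k : ℕ) (Q : List α) : Prop :=
  ∃ t, (p.Z - p.c k ≤ t ∧ Wl p.n p.SS Q t ∧ ∀ s, p.Z - p.c k ≤ s → s < t → ¬ Wl p.n p.SS Q s) ∧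
    ((∃ s, p.Z ≤ s + p.c k + p.N0 ∧ s + p.c k < p.Z + p.N0 ∧ Wl p.n p.SS Q s) ∨
      p.BadN (t + p.c k - p.p0))

def LP2 (v : V) : Set (List α) := {P | ∃ k < p.K, P.length = p.c k ∧ p.lam2 k P = some v}

/-- the value computed by the right word from the state `R` behind `X1` -/
noncomputable def val (R : V) (d t : ℕ) (Q : List α) : V :=
  p.TR (p.act R (p.ph ((Q.take t).drop d)) + p.nuU ((Q.take t).drop d)) (Q.drop t)

def RQ2 (v' : V) : Set (List α) :=
  {Q | ∃ k < p.K, p.BadC k Q ∧ (∀ k' < p.K, k' ≠ k → ¬ p.BadC k' Q) ∧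
    ∃ t b, Blk p.n p.SS (p.Z - p.c k) Q t b ∧
      ∃ R, p.rho2 k (Q.take (p.p0 - p.c k)) = some R ∧ v' = p.val R (p.p0 - p.c k) t Q}

theorem nil_LP2 (v : V) : ([] : List α) ∉ p.LP2 v := by
  rintro ⟨k, hk, h1, _⟩
  have := p.cpos k hk
  simp only [List.length_nil] at h1
  omega

/-- exactness of the zone map at a cut of scheme 2 -/
theorem T_eq {P Q : List α} {k t b : ℕ} {v R : V} (hk : k < p.K) (hP : P.length = p.c k)
    (hB : Blk p.n p.SS (p.Z - p.c k) Q t b) (h1 : p.lam2 k P = some v)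
    (h2 : p.rho2 k (Q.take (p.p0 - p.c k)) = some R) :
    p.T (P ++ Q) v = p.val R (p.p0 - p.c k) t Q := by
  have hZ := p.hZ
  have hL := p.hLam
  have hc := p.cle k hk
  have hblk : Blk p.n p.SS p.Z (P ++ Q) (P.length + t) (P.length + b) :=
    Blk.app (by omega) (by rw [hP]; exact hB)
  have ht : p.t (P ++ Q) = P.length + t := hblk.tt
  have htZ : p.Z - p.c k ≤ t := hB.1.1
  have hlQ : Q.length = b + p.n := hB.2.2.2.2
  have htb : t < b := hB.2.1
  unfold T val
  rw [ht]
  have e1 : (P ++ Q).take p.p0 = P ++ Q.take (p.p0 - p.c k) := by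
    rw [List.take_append, List.take_of_length_le (by omega), hP]
  have e2 : (P ++ Q).take (P.length + t) = P ++ Q.take t := by
    rw [List.take_append, List.take_of_length_le (by omega), Nat.add_sub_cancel_left]
  have e3 : (P ++ Q.take t).drop p.p0 = (Q.take t).drop (p.p0 - p.c k) := by
    rw [List.drop_append, List.drop_of_length_le (by omega), List.nil_append, hP]
  have e4 : (P ++ Q).drop (P.length + t) = Q.drop t := by
    rw [List.drop_append, List.drop_of_length_le (by omega), List.nil_append,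
      Nat.add_sub_cancel_left]
  rw [e1, e2, e3, e4]
  have h3 := p.esound k hk P (Q.take (p.p0 - p.c k)) v R hP h1 h2
  have h4 : p.T0 (P ++ Q.take (p.p0 - p.c k)) v = R := by rw [h3]; rfl
  rw [h4]

theorem sound2 (Y : List α) (hY : Y ∈ p.Bad) (v v' : V) (P Q R R' : List α) (hP : P ∈ p.LP2 v)
    (hQ : Q ∈ p.RQ2 v') (e : P ++ (Q ++ R) = Y ++ R') : P ++ Q = Y ∧ p.T Y v = v' := by
  obtain ⟨k0, hk0, hPl, hlam⟩ := hP
  obtain ⟨k, hk, hbk, huniq, t, b, hB, r, hr, rfl⟩ := hQ
  obtain ⟨tY, bY, hBY, hbad⟩ := hY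
  have hZ := p.hZ
  have hL := p.hLam
  have hW := p.hW
  have hc0 := p.cle k0 hk0
  have hc := p.cle k hk
  have hBY' := hBY
  have hB' := hB
  obtain ⟨⟨h1, h2, h3⟩, h4, h5, h6, h7⟩ := hB
  obtain ⟨⟨g1, g2, g3⟩, g4, g5, g6, g7⟩ := hBY
  have hgap : t + p.W ≤ b := p.sep Q t b h4 h2 h5
  -- walls of the text
  have wQ : ∀ s, P.length ≤ s → s + p.n ≤ P.length + Q.length →
      (Wl p.n p.SS (Y ++ R') s ↔ Wl p.n p.SS Q (s - P.length)) := by
    intro s hs1 hs2
    rw [← e, wl_right hs1, wl_left (by omega)]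
  have wY : ∀ s, s + p.n ≤ Y.length → (Wl p.n p.SS (Y ++ R') s ↔ Wl p.n p.SS Y s) :=
    fun s hs => wl_left hs
  have hend : Wl p.n p.SS (Y ++ R') (P.length + b) := by
    rw [wQ _ (by omega) (by omega), Nat.add_sub_cancel_left]
    exact h5
  have htY : tY ≤ P.length + b := by
    by_contra hn
    have : Wl p.n p.SS Y (P.length + b) := (wY _ (by omega)).1 hend
    exact g3 _ (by omega) (by omega) this
  have hbk0 : p.BadC k0 Q := by
    refine ⟨tY - P.length, ⟨by omega, ?_, ?_⟩, ?_⟩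
    · rw [← wQ tY (by omega) (by omega), wY tY (by omega)]
      exact g2
    · intro s hs1 hs2 hs
      have h8 : Wl p.n p.SS (Y ++ R') (s + P.length) := by
        rw [wQ _ (by omega) (by omega), Nat.add_sub_cancel]; exact hs
      exact g3 (s + P.length) (by omega) (by omega) ((wY _ (by omega)).1 h8)
    · rcases hbad with ⟨s, hs1, hs2, hs3⟩ | hbad
      · left
        refine ⟨s - P.length, by omega, by omega, ?_⟩
        have hsl := hs3.1
        rw [← wQ s (by omega) (by omega), wY s hsl]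
        exact hs3
      · right
        have : tY - P.length + p.c k0 - p.p0 = tY - p.p0 := by omega
        rw [this]; exact hbad
  have hkk : k0 = k := by
    by_contra hn
    exact huniq k0 hk0 hn hbk0
  subst hkk
  have hblk : Blk p.n p.SS p.Z (P ++ Q) (P.length + t) (P.length + b) :=
    Blk.app (by omega) (by rw [hPl]; exact hB')
  have hPY : P ++ Q = Y := by
    have h8 : (P ++ Q) ++ R = Y ++ R' := by rw [← e]; simp
    exact ((pf_XX (n := p.n) (SS := p.SS) p.Z).eq ⟨_, _, hblk⟩ ⟨_, _, hBY'⟩ h8).1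
  refine ⟨hPY, ?_⟩
  rw [← hPY]
  exact p.T_eq hk hPl hB' hlam hr

/-- the place `k` of the block `w` is spoiled by the candidate `k'` -/
def Sp (w : List α) (k k' : ℕ) : Prop := k ≠ k' ∧ p.BadC k' (w.drop (p.c k))

theorem spoil {w : List α} {t b : ℕ} (hB : Blk p.n p.SS p.Z w t b) (F : Finset (ℕ × ℕ))
    (hF : ∀ x ∈ F, x.1 < p.K ∧ x.2 < p.K ∧ p.Sp w x.1 x.2) : F.card ≤ 3 * p.C0 + 1 := by
  classical
  have hZ := p.hZ
  have hL := p.hLam
  have hW := p.hW
  obtain ⟨⟨h1, h2, h3⟩, h4, h5, h6, h7⟩ := hB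
  have hgap : t + p.W ≤ b := p.sep w t b h4 h2 h5
  -- the wall before `t` near `Z`
  obtain ⟨tm, htm⟩ : ∃ tm, p.Z ≤ tm + p.Lam ∧
      ∀ s, p.Z ≤ s + p.Lam → s < p.Z → Wl p.n p.SS w s → s = tm := by
    by_cases h : ∃ s, p.Z ≤ s + p.Lam ∧ s < p.Z ∧ Wl p.n p.SS w s
    · obtain ⟨s, hs1, hs2, hs3⟩ := h
      refine ⟨s, hs1, fun s' a1 a2 a3 => ?_⟩
      rcases Nat.lt_trichotomy s' s with hlt | heq | hlt
      · have := p.sep w _ _ hlt a3 hs3; omega
      · exact heq
      · have := p.sep w _ _ hlt hs3 a3; omega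
    · exact ⟨p.Z, by omega, fun s a1 a2 a3 => absurd ⟨s, a1, a2, a3⟩ h⟩
  -- classification
  have hcl : ∀ x ∈ F, (∃ s, p.Z + p.c x.1 ≤ s + p.c x.2 + p.N0 ∧
        s + p.c x.2 < p.Z + p.c x.1 + p.N0 ∧ Wl p.n p.SS w s) ∨
      p.BadN (tm - p.p0 + p.c x.2 - p.c x.1) ∨ p.BadN (t - p.p0 + p.c x.2 - p.c x.1) ∨
      p.BadN (b - p.p0 + p.c x.2 - p.c x.1) := by
    intro x hx
    obtain ⟨k1, k2, hne, τ, ⟨a1, a2, a3⟩, a4⟩ := hF x hx
    have c1 := p.cle _ k1
    have c2 := p.cle _ k2
    rw [Crest.Agent.R320.FewWalls_228.wl_drop (by omega)] at a2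
    rcases a4 with ⟨s, b1, b2, b3⟩ | a4
    · left
      rw [Crest.Agent.R320.FewWalls_228.wl_drop (by omega)] at b3
      exact ⟨p.c x.1 + s, by omega, by omega, b3⟩
    · right
      have hle : p.c x.1 + τ ≤ b := by
        by_contra hn
        refine a3 (b - p.c x.1) (by omega) (by omega) ?_
        rw [Crest.Agent.R320.FewWalls_228.wl_drop (by omega)]
        have : p.c x.1 + (b - p.c x.1) = b := by omega
        rw [this]; exact h5
      rcases Nat.lt_trichotomy (p.c x.1 + τ) t with hlt | heq | hlt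
      · left
        have h8 : p.c x.1 + τ < p.Z := by
          by_contra hn
          exact h3 _ (by omega) hlt a2
        have h9 := htm.2 _ (by omega) h8 a2
        have : tm - p.p0 + p.c x.2 - p.c x.1 = τ + p.c x.2 - p.p0 := by omega
        rw [this]; exact a4
      · right; left
        have : t - p.p0 + p.c x.2 - p.c x.1 = τ + p.c x.2 - p.p0 := by omega
        rw [this]; exact a4
      · right; right
        have h9 : p.c x.1 + τ = b := by
          by_contra hn
          exact h6 _ hlt (by omega) a2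
        have : b - p.p0 + p.c x.2 - p.c x.1 = τ + p.c x.2 - p.p0 := by omega
        rw [this]; exact a4
  let F0 := F.filter (fun x => ∃ s, p.Z + p.c x.1 ≤ s + p.c x.2 + p.N0 ∧
        s + p.c x.2 < p.Z + p.c x.1 + p.N0 ∧ Wl p.n p.SS w s)
  let G : ℕ → Finset (ℕ × ℕ) := fun T =>
    (F.filter (fun x => p.BadN (T + p.c x.2 - p.c x.1)))
  have hsub : F ⊆ F0 ∪ (G (tm - p.p0) ∪ (G (t - p.p0) ∪ G (b - p.p0))) := by
    intro x hx
    rcases hcl x hx with h | h | h | h
    · exact Finset.mem_union_left _ (Finset.mem_filter.2 ⟨hx, h⟩)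
    · exact Finset.mem_union_right _ (Finset.mem_union_left _ (Finset.mem_filter.2 ⟨hx, h⟩))
    · exact Finset.mem_union_right _ (Finset.mem_union_right _
        (Finset.mem_union_left _ (Finset.mem_filter.2 ⟨hx, h⟩)))
    · exact Finset.mem_union_right _ (Finset.mem_union_right _
        (Finset.mem_union_right _ (Finset.mem_filter.2 ⟨hx, h⟩)))
  have hG : ∀ T, p.Lam ≤ T → (G T).card ≤ p.C0 := by
    intro T hT
    have h8 : (G T).card = ((G T).image Prod.swap).card :=
      (Finset.card_image_of_injective _ Prod.swap_injective).symm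
    rw [h8]
    refine p.cbad T hT _ ?_
    intro y hy
    obtain ⟨x, hx, rfl⟩ := Finset.mem_image.1 hy
    obtain ⟨hx1, hx2⟩ := Finset.mem_filter.1 hx
    obtain ⟨k1, k2, hne, _⟩ := hF x hx1
    exact ⟨k2, k1, hne.symm, hx2⟩
  have hF0 : F0.card ≤ 1 := by
    rw [Finset.card_le_one]
    intro x hx y hy
    obtain ⟨hx1, s, a1, a2, a3⟩ := Finset.mem_filter.1 hx
    obtain ⟨hy1, s', b1, b2, b3⟩ := Finset.mem_filter.1 hy
    obtain ⟨k1, k2, hne, _⟩ := hF x hx1
    obtain ⟨l1, l2, hne', _⟩ := hF y hy1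
    have c1 := p.cle _ k1
    have c2 := p.cle _ k2
    have d1 := p.cle _ l1
    have d2 := p.cle _ l2
    have hss : s = s' := by
      rcases Nat.lt_trichotomy s s' with hlt | heq | hlt
      · have := p.sep w _ _ hlt a3 b3; omega
      · exact heq
      · have := p.sep w _ _ hlt b3 a3; omega
    subst hss
    obtain ⟨e1, e2⟩ := p.cruler x.1 x.2 y.1 y.2 k1 k2 l1 l2 hne hne' (by omega) (by omega)
    exact Prod.ext e1 e2
  calc F.card ≤ (F0 ∪ (G (tm - p.p0) ∪ (G (t - p.p0) ∪ G (b - p.p0)))).card :=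
        Finset.card_le_card hsub
    _ ≤ F0.card + ((G (tm - p.p0)).card + ((G (t - p.p0)).card + (G (b - p.p0)).card)) := by
        refine (Finset.card_union_le _ _).trans (Nat.add_le_add_left ?_ _)
        refine (Finset.card_union_le _ _).trans (Nat.add_le_add_left ?_ _)
        exact Finset.card_union_le _ _
    _ ≤ 1 + (p.C0 + (p.C0 + p.C0)) := by
        have g1 := hG (tm - p.p0) (by omega)
        have g2 := hG (t - p.p0) (by omega)
        have g3 := hG (b - p.p0) (by omega)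
        omega
    _ = 3 * p.C0 + 1 := by ring

theorem compl2 (w : List α) (hw : w ∈ p.Bad) (v : V) :
    ∃ P Q, w = P ++ Q ∧ P ∈ p.LP2 v ∧ Q ∈ p.RQ2 (p.T w v) := by
  classical
  obtain ⟨t, b, hB, hbad⟩ := hw
  have hZ := p.hZ
  have hL := p.hLam
  have hB' := hB
  obtain ⟨⟨h1, h2, h3⟩, h4, h5, h6, h7⟩ := hB'
  obtain ⟨I, hI, hI2⟩ := p.ecompl (w.take p.p0) v (by rw [List.length_take]; omega)
  -- an unspoiled place
  obtain ⟨k, hkI, hk⟩ : ∃ k ∈ I, ∀ k' < p.K, k' ≠ k → ¬ p.BadC k' (w.drop (p.c k)) := by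
    by_contra hn
    push Not at hn
    choose! g hg using hn
    have hcard : (I.image (fun k => (k, g k))).card = I.card :=
      Finset.card_image_of_injective _ (fun a b h => (Prod.ext_iff.1 h).1)
    have := p.spoil hB (I.image (fun k => (k, g k))) (by
      intro x hx
      obtain ⟨k, hk, rfl⟩ := Finset.mem_image.1 hx
      obtain ⟨a1, a2, a3⟩ := hg k hk
      exact ⟨(hI2 k hk).1, a1, fun h => a2 h.symm, a3⟩)
    omega
  obtain ⟨hkK, hlam, hrho⟩ := hI2 k hkI
  obtain ⟨R, hR⟩ := Option.isSome_iff_exists.1 hrho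
  have hc := p.cle k hkK
  have e1 : (w.take p.p0).take (p.c k) = w.take (p.c k) := by
    rw [List.take_take, min_eq_left (by omega)]
  have e2 : (w.take p.p0).drop (p.c k) = (w.drop (p.c k)).take (p.p0 - p.c k) := by
    rw [List.drop_take]
  rw [e1] at hlam
  rw [e2] at hR
  have hPl : (w.take (p.c k)).length = p.c k := by rw [List.length_take]; omega
  have ew : w = w.take (p.c k) ++ w.drop (p.c k) := (List.take_append_drop _ _).symm
  have hQB := Blk.unapp (P := w.take (p.c k)) (Q := w.drop (p.c k)) (Z := p.Z) (t := t) (b := b)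
    (by rw [hPl]; omega) (by rw [← ew]; exact hB)
  rw [hPl] at hQB
  have hbk : p.BadC k (w.drop (p.c k)) := by
    refine ⟨t - p.c k, hQB.1, ?_⟩
    rcases hbad with ⟨s, hs1, hs2, hs3⟩ | hbad
    · left
      refine ⟨s - p.c k, by omega, by omega, ?_⟩
      rw [Crest.Agent.R320.FewWalls_228.wl_drop (by omega)]
      have : p.c k + (s - p.c k) = s := by omega
      rw [this]; exact hs3
    · right
      have : t - p.c k + p.c k - p.p0 = t - p.p0 := by omega
      rw [this]; exact hbad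
  refine ⟨_, _, ew, ⟨k, hkK, hPl, hlam⟩, k, hkK, hbk, hk, _, _, hQB, R, hR, ?_⟩
  have h8 := p.T_eq hkK hPl hQB hlam hR
  rw [← ew] at h8
  exact h8

end Par

end Crest.Agent.R320.InstA_180
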