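import Crest.Agent.R320.InstA_184
import Crest.Agent.R320.ExactR_237

/-!
# Row 320: two schemes on all words from the U-gadget (helper184)
-/

set_option autoImplicit false

namespace Crest.Agent.R320.Inst_184

open Crest.RegLang Crest.Agent.R320.Hk_851 Crest.Agent.R320.Blk467
  Crest.Agent.R320.FewWalls_228 Crest.Agent.R320.WallU_228

open Classical in
/-- the U-gadget on all words (772 #13437) -/
def UGI (S V : Type) [Monoid S] [AddCommGroup V] (act : V → S → V) : Prop :=
  ∃ C0 : ℕ, ∀ K : ℕ, ∃ (N1 Pm La : ℕ) (c : ℕ → ℕ) (Bd : ℕ → Prop),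
    0 < Pm ∧ (∀ i j, i < j → j < K → c i < c j) ∧
    (∀ i j k l, i < K → j < K → k < K → l < K → i ≠ j → k ≠ l → (i, j) ≠ (k, l) →
      c i + c l + 4 * N1 < c k + c j ∨ c k + c j + 4 * N1 < c i + c l) ∧
    (∀ T, Bd (T + Pm) ↔ Bd T) ∧
    (∀ T, La ≤ T → ((Finset.range K ×ˢ Finset.range K).filter
      (fun p => p.1 ≠ p.2 ∧ Bd (T + c p.2 - c p.1))).card ≤ C0) ∧
    ∀ (A : Type) (φ : A → S), ∃ (lam rho : List A → Option V) (nu : List A → V),
      (∀ p v, lam p = some v → p.length ≤ N1) ∧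
      (∀ p q v r, lam p = some v → rho q = some r → La ≤ q.length →
        r = act v ((p ++ q).map φ).prod + nu (p ++ q)) ∧
      (∀ u : List A, La ≤ u.length → ¬ Bd u.length → ∀ v, ∃ p q, p ++ q = u ∧
        lam p = some v ∧ (rho q).isSome) ∧
      (∀ q q2 : List A, La ≤ q.length → La ≤ q2.length → q.take La = q2.take La →
        q.length ≡ q2.length [MOD Pm] → (q.map φ).prod = (q2.map φ).prod → nu q = nu q2)

section inst

variable {α : Type} {S V : Type} [Monoid S] [AddCommGroup V]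

/-- noise of a block -/
def nuX (φ : α → S) (act : V → S → V) (p0 : ℕ) (nu2 nu1 : List α → V) (X : List α) : V :=
  act (nu2 (X.take p0)) ((X.drop p0).map φ).prod + nu1 (X.drop p0)

theorem T_eq (φ : α → S) (act : V → S → V) (p0 : ℕ) (nu2 nu1 : List α → V)
    (hadd : ∀ a b s, act (a + b) s = act a s + act b s)
    (hmul : ∀ v s t, act v (s * t) = act (act v s) t) (v : V) (X : List α) :
    act v (X.map φ).prod + nuX φ act p0 nu2 nu1 X =
      act (act v ((X.take p0).map φ).prod + nu2 (X.take p0)) ((X.drop p0).map φ).prod +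
        nu1 (X.drop p0) := by
  unfold nuX
  conv_lhs => rw [← List.take_append_drop p0 X]
  rw [List.map_append, List.prod_append, hmul, hadd]
  rw [List.take_append_drop]
  abel

/-- as `T_eq` for `X = X1 ++ Y` -/
theorem T_eq' (φ : α → S) (act : V → S → V) (p0 : ℕ) (nu2 nu1 : List α → V)
    (hadd : ∀ a b s, act (a + b) s = act a s + act b s)
    (hmul : ∀ v s t, act v (s * t) = act (act v s) t) (v : V) (X1 Y : List α)
    (h : X1.length = p0) :
    act v ((X1 ++ Y).map φ).prod + nuX φ act p0 nu2 nu1 (X1 ++ Y) =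
      act (act v (X1.map φ).prod + nu2 X1) (Y.map φ).prod + nu1 Y := by
  rw [T_eq φ act p0 nu2 nu1 hadd hmul, ← h, List.take_left, List.drop_left]

/-- bad blocks -/
def Bad (W : List α → Prop) (z p0 N1 : ℕ) (Bd : ℕ → Prop) : Set (List α) :=
  {X | X ∈ XX W z ∧ (X.length < z + N1 ∨ (∃ t, z ≤ t + N1 ∧ t < z ∧ W (X.take t)) ∨
    Bd (X.length - p0))}

theorem HL_Bad [Finite α] {n : ℕ} {S0 : Set (List α)} {z p0 N1 Pm : ℕ} {Bd : ℕ → Prop}
    (HF : ∀ (r : ℕ) (M : Type) [Monoid M] [Finite M] (φ : α → M) (s : M),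
      HL 1 ({w | nw n S0 w ≤ r ∧ (w.map φ).prod = s} : Language α))
    (hPm : 0 < Pm) (hBd : ∀ T, Bd (T + Pm) ↔ Bd T) (hp0 : p0 ≤ z) :
    HL 1 (Bad (Wo n S0) z p0 N1 Bd : Language α) := by
  have hBd' : ∀ k T, Bd (T + Pm * k) ↔ Bd T := by
    intro k
    induction k with
    | zero => intro T; simp
    | succ k ih => intro T; rw [Nat.mul_succ, ← Nat.add_assoc, hBd, ih]
  have key : ∀ a b : ℕ, p0 ≤ a → a ≤ b → a ≡ b [MOD Pm] → (Bd (a - p0) ↔ Bd (b - p0)) := by
    intro a b ha hab hm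
    obtain ⟨k, hk⟩ := (Nat.modEq_iff_dvd' hab).1 hm
    have e : b - p0 = (a - p0) + Pm * k := by omega
    rw [e, hBd']
  refine (HL_sig (HF (z + 1)) (fun _ : α => (1 : Unit → Unit) ()) (z + N1) Pm hPm
    (XX (Wo n S0) z) (HL_XX n S0 z 1) (fun w hw => nw_XX hw)
    (fun X => X.length < z + N1 ∨ (∃ t, z ≤ t + N1 ∧ t < z ∧ Wo n S0 (X.take t)) ∨
      Bd (X.length - p0)) ?_).congr fun w => Iff.rfl
  intro q q2 h1 h2 h3 h4 _
  have e1 : ∀ t, t < z → q.take t = q2.take t := by
    intro t ht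
    have := congrArg (List.take t) h3
    rwa [List.take_take, List.take_take, Nat.min_eq_left (by omega)] at this
  have e2 : Bd (q.length - p0) ↔ Bd (q2.length - p0) := by
    rcases Nat.le_total q.length q2.length with h | h
    · exact key _ _ (by omega) h h4
    · exact (key _ _ (by omega) h h4.symm).symm
  constructor
  · rintro (h | ⟨t, t1, t2, t3⟩ | h)
    · omega
    · right; left; exact ⟨t, t1, t2, by rwa [← e1 t t2]⟩
    · right; right; exact e2.1 h
  · rintro (h | ⟨t, t1, t2, t3⟩ | h)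
    · omega
    · right; left; exact ⟨t, t1, t2, by rwa [e1 t t2]⟩
    · right; right; exact e2.2 h

theorem HL_D1 [Finite α] [Finite S] [Finite V] {n : ℕ} {S0 : Set (List α)} {z p0 La Pm : ℕ}
    (HF : ∀ (r : ℕ) (M : Type) [Monoid M] [Finite M] (φ : α → M) (s : M),
      HL 1 ({w | nw n S0 w ≤ r ∧ (w.map φ).prod = s} : Language α))
    (hPm : 0 < Pm) (hp0 : p0 ≤ z) (φ : α → S) (act : V → S → V) (nu2 nu1 : List α → V)
    (hadd : ∀ a b s, act (a + b) s = act a s + act b s)
    (hmul : ∀ v s t, act v (s * t) = act (act v s) t)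
    (hloc : ∀ q q2 : List α, La ≤ q.length → La ≤ q2.length → q.take La = q2.take La →
        q.length ≡ q2.length [MOD Pm] → (q.map φ).prod = (q2.map φ).prod → nu1 q = nu1 q2)
    (v b : V) :
    HL 1 ({X | X ∈ XX (Wo n S0) z ∧ act v (X.map φ).prod + nuX φ act p0 nu2 nu1 X = b} :
      Language α) := by
  have hfin : ({X : List α | X.length = p0}).Finite := List.finite_length_eq α p0
  have hY : ∀ X1 : List α, HL 1 ({Y | Y ∈ ({Y | X1 ++ Y ∈ XX (Wo n S0) z} : Language α) ∧
      act (act v (X1.map φ).prod + nu2 X1) (Y.map φ).prod + nu1 Y = b} : Language α) := by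
    intro X1
    refine HL_sig (HF (z + 1)) φ La Pm hPm _ (HL.lquot X1 (HL_XX n S0 z 1))
      (fun w hw => (nw_drop X1 w).trans (nw_XX hw)) _ ?_
    intro q q2 h1 h2 h3 h4 h5
    rw [h5, hloc q q2 h1 h2 h3 h4 h5]
  let LB : List α → Language α := fun X1 =>
    {Y | Y ∈ ({Y | X1 ++ Y ∈ XX (Wo n S0) z} : Language α) ∧
      act (act v (X1.map φ).prod + nu2 X1) (Y.map φ).prod + nu1 Y = b}
  let LA : List α → Language α := fun X1 => {X1}
  refine (HL.biUnion (k := 1) hfin (L := fun X1 => LA X1 * LB X1)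
    (fun X1 _ => HL.mul (L := LA X1) (M := LB X1) (HL.word X1) (hY X1))).congr
      fun w => Iff.symm ?_
  constructor
  · rintro ⟨X1, hX1, hw⟩
    obtain ⟨X1', hX1', Y, ⟨hY1, hY2⟩, rfl⟩ := Language.mem_mul.1 hw
    have e : X1' = X1 := hX1'
    subst e
    exact ⟨hY1, by rw [T_eq' φ act p0 nu2 nu1 hadd hmul v _ Y hX1]; exact hY2⟩
  · rintro ⟨h1, h2⟩
    have hl : (w.take p0).length = p0 := by
      have := h1.1
      rw [List.length_take]; omega
    refine ⟨w.take p0, hl, ?_⟩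
    refine Language.mem_mul.2 ⟨w.take p0, rfl, w.drop p0, ⟨?_, ?_⟩, List.take_append_drop _ _⟩
    · show w.take p0 ++ w.drop p0 ∈ XX (Wo n S0) z
      rw [List.take_append_drop]
      exact h1
    · rw [← T_eq φ act p0 nu2 nu1 hadd hmul]
      exact h2

end inst

end Crest.Agent.R320.Inst_184
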