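import Crest.Agent.R320.InstA_242

/-!
# Row 320: the second completeness statement of `Top5_120.top5` for walls on all words (helper242)
-/

set_option autoImplicit false

namespace Crest.Agent.R320.InstA_242

open Crest.Agent.R320.FewWalls_228

universe u

variable {α : Type u} {n : ℕ} {Sw : Set (List α)}

/-- the candidate `k'` seen from the place of `k` starts a bad block -/
def BC (n : ℕ) (Sw : Set (List α)) (z N1 p0 : ℕ) (BT : ℕ → Prop) (c : ℕ → ℕ) (Z0 : List α)
    (k k' : ℕ) : Prop :=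
  (∃ s, WW n Sw Z0 s ∧ z + c k ≤ s + c k' + N1 ∧ s + c k' < z + N1 + c k) ∨
  (∃ s, WW n Sw Z0 s ∧ z + c k ≤ s + c k' ∧
    (∀ s', WW n Sw Z0 s' → z + c k ≤ s' + c k' → s ≤ s') ∧ BT (s + c k' - c k - p0))

/-- first block of a candidate text -/
theorem first_block {z N1 p0 : ℕ} {BT : ℕ → Prop} {c : ℕ → ℕ} {k k' : ℕ} {P P' Q : List α}
    (hP : P.length = c k) (hP' : P'.length = c k') (h1 : c k + c k' + N1 + n ≤ z)
    (hw : WW n Sw (P ++ Q) (P ++ Q).length) (hlen : z + c k ≤ (P ++ Q).length)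
    (hg : ¬ BC n Sw z N1 p0 BT c (P ++ Q) k k') :
    ∃ X' ∈ CC n Sw z, X' ∉ Bd n Sw z N1 p0 BT ∧ X' <+: P' ++ Q := by
  classical
  rw [List.length_append] at hlen
  have hw' : WW n Sw (P' ++ Q) (P' ++ Q).length :=
    (ww_change (P := P) (by rw [List.length_append]; omega)
      (by simp only [List.length_append]; omega)).1 hw
  have hex : ∃ t, z ≤ t ∧ WW n Sw (P' ++ Q) t :=
    ⟨_, by rw [List.length_append]; omega, hw'⟩
  set t := Nat.find hex with ht
  obtain ⟨ht1, ht2⟩ := Nat.find_spec hex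
  rw [← ht] at ht1 ht2
  have htmin : ∀ s, z ≤ s → WW n Sw (P' ++ Q) s → t ≤ s := fun s h1 h2 => Nat.find_min' hex ⟨h1, h2⟩
  have htl := ht2.le
  have htt : ((P' ++ Q).take t).length = t := by rw [List.length_take]; omega
  have hpre : ∀ s, s ≤ t → (WW n Sw ((P' ++ Q).take t) s ↔ WW n Sw (P' ++ Q) s) := by
    intro s hs
    have := ww_append (n := n) (Sw := Sw) (w := (P' ++ Q).take t) (v := (P' ++ Q).drop t)
      (t := s) (by omega)
    rw [List.take_append_drop] at this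
    exact this.symm
  refine ⟨(P' ++ Q).take t, ⟨by omega, ?_, ?_⟩, ?_, List.take_prefix _ _⟩
  · rw [htt]; exact (hpre t le_rfl).2 ht2
  · intro s hs1 hs2 hs3
    rw [htt] at hs2
    have := htmin s hs1 ((hpre s hs2.le).1 hs3)
    omega
  · rintro ⟨-, h | h⟩
    · obtain ⟨s, hs1, hs2, hs3⟩ := h
      have hs4 : s ≤ t := by have := hs3.le; omega
      have hs5 := (hpre s hs4).1 hs3
      refine hg (Or.inl ⟨s - P'.length + P.length, ?_, by omega, by omega⟩)
      exact (ww_change (P := P') (by omega) (by omega)).1 hs5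
    · rw [htt] at h
      refine hg (Or.inr ⟨t - P'.length + P.length, ?_, by omega, ?_, ?_⟩)
      · exact (ww_change (P := P') (by omega) (by omega)).1 ht2
      · intro s' hs1 hs2
        have := htmin (s' - P.length + P'.length) (by omega)
          ((ww_change (P := P) (by omega) (by omega)).1 hs1)
        omega
      · have e : t - P'.length + P.length + c k' - c k - p0 = t - p0 := by omega
        rw [e]; exact h

open Classical in
/-- few spoiled places -/
theorem spoil {z N1 p0 W La Cm K C0 : ℕ} {BT : ℕ → Prop} {c : ℕ → ℕ}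
    (hsep : ∀ (w : List α) (x y : ℕ), x < y → Wl n Sw w x → Wl n Sw w y → x + W ≤ y)
    (hW : 2 * (Cm + N1) < W) (hCm : ∀ k < K, c k ≤ Cm) (hz : p0 + La + Cm + Cm + N1 + n ≤ z)
    (hgol : ∀ i j k l, i < K → j < K → k < K → l < K → i ≠ j → k ≠ l → (i, j) ≠ (k, l) →
      c i + c l + 4 * N1 < c k + c j ∨ c k + c j + 4 * N1 < c i + c l)
    (hthin : ∀ T, La ≤ T → ((Finset.range K ×ˢ Finset.range K).filter
      (fun ab => ab.1 ≠ ab.2 ∧ BT (T + c ab.2 - c ab.1))).card ≤ C0)
    (Z0 : List α) :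
    ((Finset.range K).filter (fun k => ∃ k' < K, k' ≠ k ∧ BC n Sw z N1 p0 BT c Z0 k k')).card
      ≤ 1 + 2 * C0 := by
  have huniq : ∀ s s', WW n Sw Z0 s → WW n Sw Z0 s' → s < s' → s + W ≤ s' := by
    intro s s' h1 h2 h
    have a1 := h1.1
    have a2 := h2.1
    have := hsep Z0 (s - n) (s' - n) (by omega) h1.2 h2.2
    omega
  obtain ⟨s0, hs0, hs0u⟩ : ∃ s0, p0 + La ≤ s0 ∧
      ∀ s, WW n Sw Z0 s → z ≤ s + Cm + N1 → s < z + Cm + N1 → s = s0 := by
    by_cases h : ∃ s0, WW n Sw Z0 s0 ∧ z ≤ s0 + Cm + N1 ∧ s0 < z + Cm + N1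
    · obtain ⟨s0, h1, h2, h3⟩ := h
      refine ⟨s0, by omega, fun s g1 g2 g3 => ?_⟩
      rcases lt_trichotomy s s0 with h | h | h
      · have := huniq _ _ g1 h1 h; omega
      · exact h
      · have := huniq _ _ h1 g1 h; omega
    · exact ⟨p0 + La, le_rfl, fun s g1 g2 g3 => (h ⟨s, g1, g2, g3⟩).elim⟩
  obtain ⟨s1, hs1, hs1u⟩ : ∃ s1, p0 + La ≤ s1 ∧
      ∀ s, WW n Sw Z0 s → z + Cm + N1 ≤ s →
        (∀ s', WW n Sw Z0 s' → z + Cm + N1 ≤ s' → s ≤ s') → s = s1 := by
    by_cases h : ∃ s1, WW n Sw Z0 s1 ∧ z + Cm + N1 ≤ s1 ∧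
        (∀ s', WW n Sw Z0 s' → z + Cm + N1 ≤ s' → s1 ≤ s')
    · obtain ⟨s1, h1, h2, h3⟩ := h
      exact ⟨s1, by omega, fun s g1 g2 g3 => le_antisymm (g3 _ h1 h2) (h3 _ g1 g2)⟩
    · exact ⟨p0 + La, le_rfl, fun s g1 g2 g3 => (h ⟨s, g1, g2, g3⟩).elim⟩
  -- three families of pairs
  let F1 := (Finset.range K ×ˢ Finset.range K).filter (fun ab : ℕ × ℕ => ab.1 ≠ ab.2 ∧
    z + c ab.1 ≤ s0 + c ab.2 + N1 ∧ s0 + c ab.2 < z + N1 + c ab.1)
  let F2 := (Finset.range K ×ˢ Finset.range K).filter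
      (fun ab : ℕ × ℕ => ab.1 ≠ ab.2 ∧ BT ((s0 - p0) + c ab.2 - c ab.1))
  let F3 := (Finset.range K ×ˢ Finset.range K).filter
      (fun ab : ℕ × ℕ => ab.1 ≠ ab.2 ∧ BT ((s1 - p0) + c ab.2 - c ab.1))
  have c1 : F1.card ≤ 1 := by
    rw [Finset.card_le_one]
    rintro ⟨a, b⟩ hab ⟨a', b'⟩ hab'
    simp only [F1, Finset.mem_filter, Finset.mem_product, Finset.mem_range] at hab hab'
    obtain ⟨⟨h1, h2⟩, h3, h4, h5⟩ := hab
    obtain ⟨⟨h1', h2'⟩, h3', h4', h5'⟩ := hab'
    by_contra hne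
    rcases hgol a b a' b' h1 h2 h1' h2' h3 h3' hne with h | h <;> omega
  have c2 : F2.card ≤ C0 := hthin _ (by omega)
  have c3 : F3.card ≤ C0 := hthin _ (by omega)
  have hsub : (Finset.range K).filter (fun k => ∃ k' < K, k' ≠ k ∧ BC n Sw z N1 p0 BT c Z0 k k')
      ⊆ (F1 ∪ F2 ∪ F3).image Prod.fst := by
    intro k hk
    rw [Finset.mem_filter, Finset.mem_range] at hk
    obtain ⟨hkK, k', hk', hne, hb⟩ := hk
    have b1 := hCm k hkK
    have b2 := hCm k' hk'
    rw [Finset.mem_image]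
    refine ⟨(k, k'), ?_, rfl⟩
    simp only [F1, F2, F3, Finset.mem_union, Finset.mem_filter, Finset.mem_product,
      Finset.mem_range]
    rcases hb with ⟨s, hs, h1, h2⟩ | ⟨s, hs, h1, h2, h3⟩
    · have e := hs0u s hs (by omega) (by omega)
      subst e
      exact Or.inl (Or.inl ⟨⟨hkK, hk'⟩, Ne.symm hne, h1, h2⟩)
    · by_cases hlt : s < z + Cm + N1
      · have e := hs0u s hs (by omega) hlt
        subst e
        refine Or.inl (Or.inr ⟨⟨hkK, hk'⟩, Ne.symm hne, ?_⟩)
        have e : s - p0 + c k' - c k = s + c k' - c k - p0 := by omega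
        rw [e]; exact h3
      · have e := hs1u s hs (by omega) (fun s' g1 g2 => h2 s' g1 (by omega))
        subst e
        refine Or.inr ⟨⟨hkK, hk'⟩, Ne.symm hne, ?_⟩
        have e : s - p0 + c k' - c k = s + c k' - c k - p0 := by omega
        rw [e]; exact h3
  calc _ ≤ _ := Finset.card_le_card hsub
    _ ≤ (F1 ∪ F2 ∪ F3).card := Finset.card_image_le
    _ ≤ (F1 ∪ F2).card + F3.card := Finset.card_union_le _ _
    _ ≤ (F1.card + F2.card) + F3.card := by
        have := Finset.card_union_le F1 F2; omega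
    _ ≤ 1 + 2 * C0 := by omega

section value

variable {S V : Type*} [Monoid S] [AddCommGroup V]

/-- left words of scheme 2 -/
def L2 (lam2 : ℕ → List α → Option V) (c : ℕ → ℕ) (K : ℕ) (v : V) : Set (List α) :=
  {P | ∃ k < K, P.length = c k ∧ lam2 k P = some v}

open Classical in
theorem cc2 {act : V → S → V} (hadd : ∀ a b s, act (a + b) s = act a s + act b s)
    (hmul : ∀ v s t, act v (s * t) = act (act v s) t) (φ : α → S) (nu1 nu2 : List α → V)
    {p0 N1 La z W Cm K C0 : ℕ} {BT : ℕ → Prop} {c : ℕ → ℕ}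
    (hsep : ∀ (w : List α) (x y : ℕ), x < y → Wl n Sw w x → Wl n Sw w y → x + W ≤ y)
    (hW : 2 * (Cm + N1) < W) (hCm : ∀ k < K, c k ≤ Cm) (hp0 : Cm ≤ p0)
    (hz : p0 + La + Cm + Cm + N1 + n ≤ z) (hz0 : p0 + N1 + n < z)
    (hgol : ∀ i j k l, i < K → j < K → k < K → l < K → i ≠ j → k ≠ l → (i, j) ≠ (k, l) →
      c i + c l + 4 * N1 < c k + c j ∨ c k + c j + 4 * N1 < c i + c l)
    (hthin : ∀ T, La ≤ T → ((Finset.range K ×ˢ Finset.range K).filter
      (fun ab => ab.1 ≠ ab.2 ∧ BT (T + c ab.2 - c ab.1))).card ≤ C0)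
    {lam2 : ℕ → List α → Option V} {rho2 : ℕ → List α → S → Option V}
    {nu' : List α → S → V} (hnu2 : ∀ w, nu2 w = nu' w 1)
    (hs : ∀ k < K, ∀ (P Q : List α) (y : S) (v b : V), P.length = c k →
      lam2 k P = some v → rho2 k Q y = some b → b = act v (ph φ (P ++ Q) * y) + nu' (P ++ Q) y)
    (hc : ∀ (u : List α) (y : S) (v : V), (∀ k < K, c k ≤ u.length) →
      ∃ I : Finset ℕ, 2 + 2 * C0 ≤ I.card ∧ ∀ k ∈ I, k < K ∧ lam2 k (u.take (c k)) = some v ∧
        (rho2 k (u.drop (c k)) y).isSome) :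
    ∀ X ∈ Bd n Sw z N1 p0 BT, ∀ Y ∈ Bd n Sw z N1 p0 BT, ∀ v, ∃ P Q, P ++ Q = X ++ Y ∧
      P ∈ L2 lam2 c K v ∧
      ∀ x, ∀ P' ∈ L2 lam2 c K x,
        (∃ X' ∈ Bd n Sw z N1 p0 BT, ∃ Y' ∈ CC n Sw z, X' ++ Y' = P' ++ Q ∧
          act (act x (X'.map φ).prod + nuT act φ nu1 nu2 p0 X') (Y'.map φ).prod +
              nuT act φ nu1 nu2 p0 Y' =
            act (act v (X.map φ).prod + nuT act φ nu1 nu2 p0 X) (Y.map φ).prod +
              nuT act φ nu1 nu2 p0 Y) ∨
        (∃ X' ∈ CC n Sw z, X' ∉ Bd n Sw z N1 p0 BT ∧ X' <+: P' ++ Q) := by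
  classical
  intro X hX Y hY v
  have hXl := hX.1.1
  have hYl := hY.1.1
  have hul : (X.take p0).length = p0 := by rw [List.length_take]; omega
  obtain ⟨I, hI, hI2⟩ := hc (X.take p0) 1 v (fun k hk => by have := hCm k hk; omega)
  have hsp := spoil hsep hW hCm hz hgol hthin (X ++ Y)
  obtain ⟨k, hkI, hkn⟩ : ∃ k ∈ I, k ∉ (Finset.range K).filter
      (fun k => ∃ k' < K, k' ≠ k ∧ BC n Sw z N1 p0 BT c (X ++ Y) k k') := by
    by_contra h
    push Not at h
    have := Finset.card_le_card (show I ⊆ _ from fun k hk => h k hk)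
    omega
  obtain ⟨hkK, hlam, hrho⟩ := hI2 k hkI
  have hck := hCm k hkK
  have hgood : ∀ k' < K, k' ≠ k → ¬ BC n Sw z N1 p0 BT c (X ++ Y) k k' := by
    intro k' hk' hne hb
    exact hkn (Finset.mem_filter.2 ⟨Finset.mem_range.2 hkK, k', hk', hne, hb⟩)
  obtain ⟨b, hb⟩ := Option.isSome_iff_exists.1 hrho
  have e0 : (X.take p0).take (c k) = X.take (c k) := by
    rw [List.take_take, min_eq_left (by omega)]
  rw [e0] at hlam
  have hPl : (X.take (c k)).length = c k := by rw [List.length_take]; omega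
  have hXs : X.take (c k) ++ X.drop (c k) = X := List.take_append_drop _ _
  -- value of a block with the right part of `X`
  have hval : ∀ x, ∀ P' : List α, P'.length = c k → lam2 k P' = some x →
      act x (ph φ ((P' ++ X.drop (c k)).take p0)) + nu2 ((P' ++ X.drop (c k)).take p0) = b := by
    intro x P' h1 h2
    have e1 : (P' ++ X.drop (c k)).take p0 = P' ++ (X.take p0).drop (c k) := by
      rw [List.take_append, List.take_of_length_le (by omega), h1, List.drop_take]
    have := hs k hkK P' ((X.take p0).drop (c k)) 1 x b h1 h2 hb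
    rw [e1, hnu2, this, mul_one]
  refine ⟨X.take (c k), X.drop (c k) ++ Y, by rw [← List.append_assoc, hXs],
    ⟨k, hkK, hPl, hlam⟩, ?_⟩
  rintro x P' ⟨k', hk', hP'l, hlam'⟩
  by_cases hkk : k' = k
  · subst hkk
    left
    refine ⟨P' ++ X.drop (c k'), ?_, Y, hY.1, by rw [List.append_assoc], ?_⟩
    · -- the same walls far right
      have hlen : (P' ++ X.drop (c k')).length = X.length := by
        rw [List.length_append, List.length_drop]; omega
      have hsame : ∀ s, c k' + n ≤ s → (WW n Sw (P' ++ X.drop (c k')) s ↔ WW n Sw X s) := by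
        intro s hs'
        have := ww_change (n := n) (Sw := Sw) (P := P') (P' := X.take (c k')) (Q := X.drop (c k'))
          (s := s) (s' := s) (by omega) (by omega)
        rw [hXs] at this
        exact this
      refine ⟨⟨by omega, ?_, ?_⟩, ?_⟩
      · rw [hlen]; exact (hsame _ (by omega)).2 hX.1.2.1
      · intro t ht1 ht2 ht3
        rw [hlen] at ht2
        exact hX.1.2.2 t ht1 ht2 ((hsame t (by omega)).1 ht3)
      · rcases hX.2 with ⟨s, g1, g2, g3⟩ | h
        · exact Or.inl ⟨s, g1, g2, (hsame s (by omega)).2 g3⟩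
        · right; rw [hlen]; exact h
    · congr 2
      rw [TT_eq hadd hmul, TT_eq hadd hmul]
      have e2 : (P' ++ X.drop (c k')).drop p0 = X.drop p0 := by
        rw [List.drop_append, List.drop_eq_nil_of_le (by omega), List.nil_append, List.drop_drop]
        congr 1; omega
      have e3 := hval x P' hP'l hlam'
      have e4 := hval v (X.take (c k')) hPl hlam
      rw [hXs] at e4
      rw [e2, e3, e4]
  · right
    have hck' := hCm k' hk'
    refine first_block (P := X.take (c k)) hPl hP'l (by omega) ?_ ?_ ?_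
    · rw [← List.append_assoc, hXs]
      rw [List.length_append]
      exact (ww_shift (by omega)).2 hY.1.2.1
    · rw [← List.append_assoc, hXs, List.length_append]; omega
    · rw [← List.append_assoc, hXs]; exact hgood k' hk' hkk

end value

end Crest.Agent.R320.InstA_242
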