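import Crest.Agent.R320.InstA_377

/-!
# Row 320: instance on ALL words (helper377), part B: completeness of the promise scheme
-/

set_option autoImplicit false
set_option linter.unusedSectionVars false

namespace Crest.Agent.R320.Inst_377

open Crest.Agent.R320.Hk_851 Crest.Agent.R320.FewWalls_228 Crest.Agent.R320.Code110
  Crest.Agent.R320.Top5_110 Crest.Agent.R320.ExactR_237

variable {α : Type} {n : ℕ} {S : Set (List α)} {M V : Type} [Monoid M] [AddCommGroup V]

theorem shift_wall {P' U : List α} {a s : ℕ} (hs : n ≤ s) (ha : a ≤ U.length) :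
    WA n S (P' ++ U.drop a) (P'.length + s) ↔ WA n S U (a + s) := by
  rw [WA.shift hs]
  have htk : (U.take a).length = a := by rw [List.length_take]; omega
  conv_rhs => rw [← List.take_append_drop a U]
  have e : a + s = (U.take a).length + s := by rw [htk]
  rw [e, WA.shift hs]

/-- **C2** -/
theorem C2 {φ : List α → M} {act : V → M → V} {p N z W K R C0 : ℕ} {nu1 nu2 : List α → V}
    {c : ℕ → ℕ} {lam2 rho2 : ℕ → List α → Option V} {Bad : ℤ → Prop}
    (hz : p + p + N + n + N < z) (hW : p + p + N + N + p < W)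
    (hgap : ∀ (w : List α) s t, WA n S w s → WA n S w t → s < t → s + W ≤ t)
    (hinj : ∀ i < K, ∀ j < K, c i = c j → i = j) (hcp : ∀ k < K, c k ≤ p)
    (hs : ∀ k < K, ∀ (P Q : List α) (v b : V), P.length = c k → lam2 k P = some v →
      rho2 k Q = some b → b = act v (φ (P ++ Q)) + nu2 (P ++ Q))
    (hc : ∀ (u : List α) (v : V), u.length = p → ∃ I : Finset ℕ, R ≤ I.card ∧ ∀ k ∈ I, k < K ∧
      lam2 k (u.take (c k)) = some v ∧ (rho2 k (u.drop (c k))).isSome)
    (hE : ∀ (s : ℤ) (F : Finset ℕ), (∀ k ∈ F, k < K ∧ ∃ k' < K, k' ≠ k ∧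
      |s - ((c k : ℤ) - c k') - z| ≤ N) → F.card ≤ 1)
    (hB : ∀ (s : ℤ) (F : Finset ℕ), (∀ k ∈ F, k < K ∧ ∃ k' < K, k' ≠ k ∧
      Bad (s + c k' - c k)) → F.card ≤ C0)
    (hR : 1 + C0 + C0 < R)
    (u : List α) (hu : u ∈ BB n S z N p Bad) (x : V) :
    ∀ t ∈ BB n S z N p Bad ^ 1, ∃ P Q y, u ++ t = P ++ Q ∧ P ∈ L2 K c lam2 x ∧
      Q ∈ Rsem (XX n S z) (BB n S z N p Bad) (TT φ act p nu1 nu2) 1 (L2 K c lam2) y := by
  classical
  intro t ht
  rw [pow_one] at ht
  have hux := (mem_BB.1 hu).1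
  have htx := (mem_BB.1 ht).1
  obtain ⟨g1, g2, g3⟩ := mem_XX.1 hux
  obtain ⟨t1, t2, t3⟩ := mem_XX.1 htx
  set U := u ++ t with hU
  have hUl : U.length = u.length + t.length := by rw [hU, List.length_append]
  have hwU : WA n S U U.length := by
    rw [hUl, hU]
    exact (WA.shift (by omega)).2 t2
  -- the two candidate walls
  have hex0 : ∃ s, z ≤ s + p ∧ WA n S U s := ⟨U.length, by omega, hwU⟩
  obtain ⟨a1, a2⟩ := Nat.find_spec hex0
  have a3 : ∀ s, s < Nat.find hex0 → ¬ (z ≤ s + p ∧ WA n S U s) := fun s h => Nat.find_min hex0 h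
  set s0 := Nat.find hex0 with hs0
  obtain ⟨s1, hs1⟩ : ∃ s1, ∀ s, s0 < s → WA n S U s → s1 ≤ s ∧ s0 < s1 ∧ WA n S U s1 := by
    by_cases h : ∃ s, s0 < s ∧ WA n S U s
    · exact ⟨Nat.find h, fun s h1 h2 => ⟨Nat.find_min' h ⟨h1, h2⟩, Nat.find_spec h⟩⟩
    · exact ⟨0, fun s h1 h2 => absurd ⟨s, h1, h2⟩ h⟩
  obtain ⟨se, hse⟩ : ∃ se : ℕ, ∀ s, WA n S U s → z ≤ s + N + p → s ≤ z + N + p → s = se := by
    by_cases h : ∃ s, WA n S U s ∧ z ≤ s + N + p ∧ s ≤ z + N + p
    · obtain ⟨se, e1, e2, e3⟩ := h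
      refine ⟨se, fun s h1 h2 h3 => ?_⟩
      rcases lt_trichotomy s se with h4 | h4 | h4
      · have := hgap U s se h1 e1 h4; omega
      · exact h4
      · have := hgap U se s e1 h1 h4; omega
    · exact ⟨0, fun s h1 h2 h3 => absurd ⟨s, h1, h2, h3⟩ h⟩
  let JE : Finset ℕ := (Finset.range K).filter fun k => ∃ k' < K, k' ≠ k ∧
      |(se : ℤ) - ((c k : ℤ) - c k') - z| ≤ N
  let J0 : Finset ℕ := (Finset.range K).filter fun k => ∃ k' < K, k' ≠ k ∧
      Bad (((s0 : ℤ) - p) + c k' - c k)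
  let J1 : Finset ℕ := (Finset.range K).filter fun k => ∃ k' < K, k' ≠ k ∧
      Bad (((s1 : ℤ) - p) + c k' - c k)
  have hJE : JE.card ≤ 1 := hE se JE fun k hk => by
    obtain ⟨h1, h2⟩ := Finset.mem_filter.1 hk
    exact ⟨Finset.mem_range.1 h1, h2⟩
  have hJ0 : J0.card ≤ C0 := hB _ J0 fun k hk => by
    obtain ⟨h1, h2⟩ := Finset.mem_filter.1 hk
    exact ⟨Finset.mem_range.1 h1, h2⟩
  have hJ1 : J1.card ≤ C0 := hB _ J1 fun k hk => by
    obtain ⟨h1, h2⟩ := Finset.mem_filter.1 hk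
    exact ⟨Finset.mem_range.1 h1, h2⟩
  have htk : (u.take p).length = p := by rw [List.length_take]; omega
  obtain ⟨I, hI, hII⟩ := hc (u.take p) x htk
  have hne : ∃ k ∈ I, k ∉ JE ∪ J0 ∪ J1 := by
    by_contra hcon
    push Not at hcon
    have h1 : I ⊆ JE ∪ J0 ∪ J1 := fun k hk => hcon k hk
    have h2 := Finset.card_le_card h1
    have h3 := Finset.card_union_le (JE ∪ J0) J1
    have h4 := Finset.card_union_le JE J0
    omega
  obtain ⟨k, hkI, hkJ⟩ := hne
  obtain ⟨hk, hl, hr⟩ := hII k hkI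
  have hkJE : k ∉ JE := fun h => hkJ (by simp [h])
  have hkJ0 : k ∉ J0 := fun h => hkJ (by simp [h])
  have hkJ1 : k ∉ J1 := fun h => hkJ (by simp [h])
  have hckp := hcp k hk
  obtain ⟨b0, hb0⟩ := Option.isSome_iff_exists.1 hr
  rw [List.take_take, min_eq_left hckp] at hl
  have hUtake : U.take (c k) = u.take (c k) := List.take_append_of_le_length (by omega)
  refine ⟨U.take (c k), U.drop (c k),
    TT φ act p nu1 nu2 t (act b0 (φ (u.drop p)) + nu1 (u.drop p)),
    (List.take_append_drop _ _).symm, ⟨k, hk, ?_, ?_⟩, ?_⟩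
  · rw [List.length_take]; omega
  · rw [hUtake]; exact hl
  intro x' P' hP'
  obtain ⟨k', hk', hPl, hPlam⟩ := hP'
  have hckp' := hcp k' hk'
  by_cases hkk : k' = k
  · left
    subst hkk
    have hudrop : U.drop (c k') = u.drop (c k') ++ t := List.drop_append_of_le_length (by omega)
    have hu'l : (P' ++ u.drop (c k')).length = u.length := by
      rw [List.length_append, List.length_drop, hPl]; omega
    have hwall : ∀ τ, p + n ≤ τ → (WA n S (P' ++ u.drop (c k')) τ ↔ WA n S u τ) := by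
      intro τ hτ
      obtain ⟨s, rfl⟩ : ∃ s, τ = c k' + s := ⟨τ - c k', by omega⟩
      have := shift_wall (n := n) (S := S) (P' := P') (U := u) (a := c k') (s := s)
        (by omega) (by omega)
      rw [hPl] at this
      exact this
    have hXX' : P' ++ u.drop (c k') ∈ XX n S z := by
      rw [mem_XX, hu'l]
      refine ⟨g1, (hwall _ (by omega)).2 g2, fun τ h1 h2 h3 => g3 τ h1 h2 ((hwall _ (by omega)).1 h3)⟩
    have hBB' : P' ++ u.drop (c k') ∈ BB n S z N p Bad := by
      refine ⟨hXX', ?_⟩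
      rw [hu'l]
      rcases (mem_BB.1 hu).2 with ⟨τ, e1, e2, e3⟩ | h
      · exact Or.inl ⟨τ, (hwall _ (by omega)).2 e1, e2, e3⟩
      · exact Or.inr h
    refine ⟨_, Language.mem_mul.2 ⟨P' ++ u.drop (c k'), ⟨hBB', rfl⟩, t, ?_, ?_⟩⟩
    · refine ⟨_, Language.mem_mul.2 ⟨t, ⟨ht, rfl⟩, [], ⟨rfl, ?_⟩, by simp⟩⟩
      congr 1
      unfold TT
      have e1 : (P' ++ u.drop (c k')).take p = P' ++ (u.take p).drop (c k') := by
        rw [List.take_append, List.take_of_length_le (by omega), hPl, List.drop_take]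
      have e2 : (P' ++ u.drop (c k')).drop p = u.drop p := by
        rw [List.drop_append, List.drop_eq_nil_of_le (by omega), List.nil_append, hPl,
          List.drop_drop, Nat.add_sub_cancel' hckp]
      rw [e1, e2, ← hs k' hk P' ((u.take p).drop (c k')) x' b0 hPl hPlam hb0]
    · rw [hudrop, List.append_assoc]
  · right
    left
    set G := P' ++ U.drop (c k) with hG
    have hsw : ∀ s, n ≤ s → (WA n S G (c k' + s) ↔ WA n S U (c k + s)) := by
      intro s hs'
      have := shift_wall (n := n) (S := S) (P' := P') (U := U) (a := c k) (s := s) hs' (by omega)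
      rw [hPl] at this
      exact this
    have hwG : WA n S G (c k' + (U.length - c k)) := by
      rw [hsw _ (by omega), Nat.add_sub_cancel' (by omega)]
      exact hwU
    obtain ⟨t0, b1, b2, b3, b4, b5⟩ := exists_block (z := z) (by omega) hwG
    have hGt0 : (G.take t0).length = t0 := by
      rw [List.length_take]; exact min_eq_left b3.2.1
    refine ⟨G.take t0, b4, ?_, List.take_prefix _ _⟩
    intro hbad
    rcases (mem_BB.1 hbad).2 with ⟨τ, e1, e2, e3⟩ | h
    · have e1' : WA n S G τ := by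
        conv_lhs => rw [← List.take_append_drop t0 G]
        exact (WA.app e1.2.1).2 e1
      obtain ⟨s, rfl⟩ : ∃ s, τ = c k' + s := ⟨τ - c k', by omega⟩
      have e4 := (hsw s (by omega)).1 e1'
      have e5 := hse _ e4 (by omega) (by omega)
      apply hkJE
      refine Finset.mem_filter.2 ⟨Finset.mem_range.2 hk, k', hk', hkk, ?_⟩
      rw [← e5, abs_le]
      push_cast
      constructor <;> omega
    · rw [hGt0] at h
      obtain ⟨s, rfl⟩ : ∃ s, t0 = c k' + s := ⟨t0 - c k', by omega⟩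
      have e4 := (hsw s (by omega)).1 b3
      have hcast : (((c k' + s : ℕ) : ℤ)) - p = (((c k + s : ℕ) : ℤ) - p) + c k' - c k := by
        push_cast; ring
      rw [hcast] at h
      have hge : s0 ≤ c k + s := Nat.find_min' hex0 ⟨by omega, e4⟩
      rcases Nat.lt_or_ge s0 (c k + s) with h5 | h5
      · obtain ⟨h6, h7, h8⟩ := hs1 _ h5 e4
        rcases Nat.lt_or_ge s1 (c k + s) with h9 | h9
        · exfalso
          have h10 := hgap U s0 s1 a2 h8 h7
          obtain ⟨r, hr'⟩ : ∃ r, s1 = c k + r := ⟨s1 - c k, by omega⟩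
          have h11 := (hsw r (by omega)).2 (hr' ▸ h8)
          exact b5 _ (by omega) (by omega) h11
        · have h12 : c k + s = s1 := by omega
          rw [h12] at h
          exact hkJ1 (Finset.mem_filter.2 ⟨Finset.mem_range.2 hk, k', hk', hkk, h⟩)
      · have h12 : c k + s = s0 := by omega
        rw [h12] at h
        exact hkJ0 (Finset.mem_filter.2 ⟨Finset.mem_range.2 hk, k', hk', hkk, h⟩)

end Crest.Agent.R320.Inst_377
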