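import Crest.Agent.R320.InstA_382
import Crest.Agent.R320.ZoneC_382
import Crest.Agent.R320.ExactR_237
import Crest.Agent.R320.Glue_131
import Crest.Agent.R320.Wall_291

/-!
Row 320, helper382: the concrete instance of the four buffer statements of `Glue131.two`
(132's two wall schemes, 118's one token system).
-/

set_option autoImplicit false

namespace Crest.Agent.R320.Inst382

open Crest.Agent.R320

/-- parameters of the instance -/
structure Prm (α S V : Type) [Monoid S] [AddCommGroup V] where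
  f : α → S
  {Wt : Type}
  {gW : AddCommGroup Wt}
  ZD : ZoneC_382.Data α S V Wt
  hφ : ∀ u, ZD.phi u = (u.map f).prod
  Ro : List α → Prop
  n : ℕ
  hRo : Loc Ro n
  W : ℕ
  hsepO : ∀ Q d, Ro Q → 0 < d → d ≤ W → ¬ Ro (Q.drop d)
  e : ℕ
  b : ℕ
  Go : ℕ
  densO : ∀ Q, Wall_291.RF e b Q → Go + n ≤ Q.length → ∃ i < Go, Ro (Q.drop i)
  g : ℕ
  hsepS : ∀ Q d, ZD.r.R Q → 0 < d → d ≤ g → ¬ ZD.r.R (Q.drop d)
  densS : ∀ Q, Wall_291.RF e b Q → ZD.G + ZD.r.n ≤ Q.length → ∃ i < ZD.G, ZD.r.R (Q.drop i)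
  Z0 : ℕ
  D0 : ℕ
  OM : ℕ
  Ms : Finset ℕ
  hB : ∀ k, ZD.B k ↔ ∃ p ∈ Ms, p ∣ k
  N1 : ZD.N1
  N2 : ZD.N2
  N3 : ZD.N3
  hides : ZD.Hides
  hlo : ∀ i, i < ZD.m → ZD.A i + ZD.G + ZD.r.n ≤ ZD.q * ZD.lo i
  hOM : ∀ i, i < ZD.m → ZD.lo i + ZD.M ≤ OM
  hAm : ∀ i, i ≤ ZD.m → ZD.A i + ZD.G + ZD.r.n ≤ Z0
  hZ0 : ZD.q * OM < Z0
  -- scheme 2
  K : ℕ
  c : ℕ → ℕ
  lam : ℕ → List α → Option V
  rho : ℕ → List α → S → Option V
  nuG : List α → S → V
  R : ℕ
  sound2 : ∀ k < K, ∀ (P Q : List α) (y : S) (v b : V), P.length = c k →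
    lam k P = some v → rho k Q y = some b →
      b = ZD.act v (((P ++ Q).map f).prod * y) + nuG (P ++ Q) y
  comp2 : ∀ (u : List α) (y : S) (v : V), (∀ k < K, c k ≤ u.length) →
    ∃ I : Finset ℕ, R ≤ I.card ∧ ∀ k ∈ I, k < K ∧ lam k (u.take (c k)) = some v ∧
      (rho k (u.drop (c k)) y).isSome
  Lam : ℕ
  q0 : ℕ
  p0 : ℕ
  hq0 : ∀ k < K, q0 ≤ c k
  hp0 : ∀ k < K, c k ≤ p0
  hqp : q0 ≤ p0
  hpp : 0 < p0
  hspan : ∀ k < K, ∀ k' < K, c k ≤ c k' + Lam
  rE : ∀ i < K, ∀ j < K, ∀ i' < K, ∀ j' < K, i ≠ j →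
    (ZD.q : ℤ) ∣ ((c i : ℤ) - c j) - ((c i' : ℤ) - c j') → i = i' ∧ j = j'
  rB : ∀ p ∈ Ms, ∀ y : ℤ, ∀ i < K, ∀ j < K, ∀ i' < K, ∀ j' < K, i ≠ j →
    (y - ((c i : ℤ) - c j)) % ((p : ℤ) * ZD.q) < ZD.q →
    (y - ((c i' : ℤ) - c j')) % ((p : ℤ) * ZD.q) < ZD.q → i = i' ∧ j = j'
  rD : ∀ i < K, ∀ j < K, ∀ i' < K, ∀ j' < K, i ≠ j →
    |((c i : ℤ) - c j) - ((c i' : ℤ) - c j')| ≤ 2 * (ZD.q * ZD.M : ℕ) → i = i' ∧ j = j'
  hW : D0 * ZD.q + 2 * (ZD.q * OM) + 2 * Lam ≤ W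
  hD0 : 2 * (ZD.q * OM) + 2 * Lam < D0
  hg : 2 * (ZD.q * ZD.M) + 2 * Lam ≤ g
  hR : 1 + (ZD.m + 1) + 2 * Ms.card < R
  hq0' : ZD.q * OM + D0 * ZD.q + Go + n ≤ q0

attribute [instance] Prm.gW

namespace Prm

variable {α S V : Type} [Monoid S] [AddCommGroup V] (P : Prm α S V)

def q : ℕ := P.ZD.q
def Nw : ℕ := P.ZD.q * P.OM
def Zt : ℕ := P.Z0 + P.D0 * P.ZD.q
/-- length of the visible tail -/
def BT : ℕ := P.Nw + P.Zt + P.Go + P.n
def Bm : ℕ := P.p0 + P.BT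

def isNx (T : List α) (t : ℕ) : Prop := IsNx P.Ro P.ZD.q P.Z0 P.D0 T t

open Classical in
noncomputable def NN (y : List α) : ℕ :=
  if h : ∃ t, P.isNx (y.drop P.p0) t ∧ P.p0 + t ≤ P.Bm then P.p0 + h.choose else P.Bm

theorem NN_eq {y : List α} {t : ℕ} (h : P.isNx (y.drop P.p0) t) (h' : P.p0 + t ≤ P.Bm) :
    P.NN y = P.p0 + t := by
  classical
  have hex : ∃ t, P.isNx (y.drop P.p0) t ∧ P.p0 + t ≤ P.Bm := ⟨t, h, h'⟩
  unfold NN
  rw [dif_pos hex, hex.choose_spec.1.unique h]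

theorem hNN (y : List α) : 0 < P.NN y ∧ P.NN y ≤ P.Bm := by
  classical
  unfold NN
  have := P.hpp
  split_ifs with h
  · exact ⟨by omega, h.choose_spec.2⟩
  · exact ⟨by unfold Bm; omega, le_rfl⟩

def nu2 (X : List α) : V := P.nuG X 1

noncomputable def zm (y : List α) (v : V) : V :=
  P.ZD.act (P.ZD.act v (P.ZD.phi (y.take P.p0)) + P.nu2 (y.take P.p0))
    (P.ZD.phi ((y.drop P.p0).take (P.NN y - P.p0))) +
  P.ZD.nu ((y.drop P.p0).take (P.NN y - P.p0))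

noncomputable def D : Glue131.Dat α V where
  Bm := P.Bm
  hBm := by have := P.hpp; unfold Bm; omega
  N := P.NN
  hN := P.hNN
  zm := P.zm

def L1 (u : List α) (v : V) : Prop :=
  ∃ om, om ≤ P.OM ∧ u.length = P.p0 + P.ZD.q * om ∧
    P.ZD.LL (u.drop P.p0) (P.ZD.act v (P.ZD.phi (u.take P.p0)) + P.nu2 (u.take P.p0))

def Leg1 (r : List α) (p : ℕ × V) : Prop :=
  RL P.Ro P.ZD.q P.Z0 P.D0 P.Nw r p.1 ∧ P.Nw + p.1 + P.n ≤ P.BT ∧ P.ZD.RR (r.take p.1) p.2

open Classical in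
noncomputable def R1 (r : List α) : Option (ℕ × V) :=
  if h : ∃ p, P.Leg1 r p then some h.choose else none

theorem leg1_of {r : List α} {p : ℕ × V} (h : P.R1 r = some p) : P.Leg1 r p := by
  classical
  unfold R1 at h
  split_ifs at h with hex
  rw [← Option.some.inj h]
  exact hex.choose_spec

theorem R1_isSome {r : List α} {p : ℕ × V} (h : P.Leg1 r p) : (P.R1 r).isSome := by
  classical
  unfold R1
  rw [dif_pos ⟨p, h⟩]; rfl

theorem sc1 (u : List α) (v : V) (r : List α) (d : ℕ) (b : V) (hL : P.L1 u v)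
    (hR : P.R1 r = some (d, b)) :
    P.NN ((u ++ r).take P.Bm) = u.length + d ∧ P.zm ((u ++ r).take P.Bm) v = b := by
  obtain ⟨om, hom, hul, hLL⟩ := hL
  obtain ⟨h1, h2, h3⟩ := P.leg1_of hR
  simp only at h1 h2 h3
  have hPl : (u.drop P.p0).length = P.ZD.q * om := by rw [List.length_drop]; omega
  have hqom : P.ZD.q * om ≤ P.Nw := Nat.mul_le_mul_left _ hom
  have hj : IsNx P.Ro P.ZD.q P.Z0 P.D0 (u.drop P.p0 ++ r) (P.ZD.q * om + d) :=
    junction hPl hqom P.hZ0 h1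
  have hyd : ((u ++ r).take P.Bm).drop P.p0 = (u.drop P.p0 ++ r).take P.BT := by
    rw [List.drop_take, List.drop_append_of_le_length (by omega)]
    congr 1
    unfold Bm; omega
  have hyt : ((u ++ r).take P.Bm).take P.p0 = u.take P.p0 := by
    rw [List.take_take, min_eq_left (by unfold Bm; omega),
      List.take_append_of_le_length (by omega)]
  have hj' : P.isNx (((u ++ r).take P.Bm).drop P.p0) (P.ZD.q * om + d) := by
    unfold isNx
    rw [hyd]
    exact hj.take P.hRo (by omega)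
  have hN := P.NN_eq hj' (by unfold Bm; omega)
  refine ⟨by rw [hN]; omega, ?_⟩
  have hs := P.ZD.sound P.N1 P.N2 hLL h3
  have hY : ((((u ++ r).take P.Bm).drop P.p0).take (P.NN ((u ++ r).take P.Bm) - P.p0))
      = u.drop P.p0 ++ r.take d := by
    rw [hN, hyd, List.take_take, min_eq_left (by omega), Nat.add_sub_cancel_left, ← hPl,
      List.take_length_add_append]
  unfold zm
  rw [hY, hyt, ← hs]

/-! ### bad zones -/

def BadT (T : List α) : Prop :=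
  EE P.Ro P.ZD.q P.Z0 P.D0 P.Nw T ∨ (∃ j ≤ P.ZD.m, DD P.ZD.r.R (P.ZD.q * P.ZD.M) (P.ZD.A j) T) ∨
    ∃ p ∈ P.Ms, ∃ a, P.isNx T a ∧ p ∣ a / P.ZD.q

def Bad (y : List α) : Prop := P.BadT (y.drop P.p0)

def cand (k : ℕ) (r : List α) : List α := (r.drop (P.p0 - P.c k)).take P.BT

def L2 (u : List α) (v : V) : Prop := ∃ k < P.K, u.length = P.c k ∧ P.lam k u = some v

def Leg2 (r : List α) (p : ℕ × V) : Prop :=
  ∃ k < P.K, P.BadT (P.cand k r) ∧ (∀ k' < P.K, P.BadT (P.cand k' r) → k' = k) ∧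
    ∃ t β, P.isNx (P.cand k r) t ∧ P.rho k (r.take (P.p0 - P.c k)) 1 = some β ∧
      p = ((P.p0 - P.c k) + t,
        P.ZD.act β (P.ZD.phi ((P.cand k r).take t)) + P.ZD.nu ((P.cand k r).take t))

open Classical in
noncomputable def R2 (r : List α) : Option (ℕ × V) :=
  if h : ∃ p, P.Leg2 r p then some h.choose else none

theorem leg2_of {r : List α} {p : ℕ × V} (h : P.R2 r = some p) : P.Leg2 r p := by
  classical
  unfold R2 at h
  split_ifs at h with hex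
  rw [← Option.some.inj h]
  exact hex.choose_spec

theorem R2_isSome {r : List α} {p : ℕ × V} (h : P.Leg2 r p) : (P.R2 r).isSome := by
  classical
  unfold R2
  rw [dif_pos ⟨p, h⟩]; rfl

theorem sc2 (u : List α) (v : V) (r : List α) (d : ℕ) (b : V) (hL : P.L2 u v)
    (hbad : P.Bad ((u ++ r).take P.Bm)) (hR : P.R2 r = some (d, b)) :
    P.NN ((u ++ r).take P.Bm) = u.length + d ∧ P.zm ((u ++ r).take P.Bm) v = b := by
  obtain ⟨k0, hk0, hul, hlam⟩ := hL
  obtain ⟨k, hk, hb1, hb2, t, β, ht, hrho, hp⟩ := P.leg2_of hR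
  have hup : u.length ≤ P.p0 := by rw [hul]; exact P.hp0 k0 hk0
  have hyd : ((u ++ r).take P.Bm).drop P.p0 = P.cand k0 r := by
    unfold cand
    rw [List.drop_take, List.drop_append, List.drop_of_length_le hup, List.nil_append, ← hul]
    congr 1
    unfold Bm; omega
  have hkk : k0 = k := by
    apply hb2 k0 hk0
    unfold Bad at hbad
    rwa [hyd] at hbad
  subst hkk
  have hyt : ((u ++ r).take P.Bm).take P.p0 = u ++ r.take (P.p0 - P.c k0) := by
    rw [List.take_take, min_eq_left (by unfold Bm; omega), List.take_append,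
      List.take_of_length_le hup, hul]
  have hfit : t + P.n ≤ P.BT := by
    have h1 := P.hRo.fit ht.1.1
    have h2 : (P.cand k0 r).length ≤ P.BT := List.length_take_le _ _
    omega
  have hN := P.NN_eq (y := (u ++ r).take P.Bm) (t := t) (by rw [hyd]; exact ht)
    (by unfold Bm; omega)
  have hd : d = (P.p0 - P.c k0) + t := congrArg Prod.fst hp
  have hbv : b = P.ZD.act β (P.ZD.phi ((P.cand k0 r).take t)) + P.ZD.nu ((P.cand k0 r).take t) :=
    congrArg Prod.snd hp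
  refine ⟨by rw [hN, hd]; omega, ?_⟩
  have hs := P.sound2 k0 hk0 u (r.take (P.p0 - P.c k0)) 1 v β hul hlam hrho
  unfold zm
  rw [hN, Nat.add_sub_cancel_left, hyd, hyt, hbv]
  congr 2
  rw [hs, P.hφ, mul_one]
  rfl

theorem L2_le (u : List α) (v : V) (h : P.L2 u v) : u.length ≤ P.p0 := by
  obtain ⟨k, hk, h1, _⟩ := h
  rw [h1]; exact P.hp0 k hk

/-! ### completeness -/

theorem RL_of_take {Ro : List α → Prop} {n q Z0 D0 N1 : ℕ} (hR : Loc Ro n) {r : List α} {d B : ℕ}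
    (h : RL Ro q Z0 D0 N1 (r.take B) d) : d + n ≤ B ∧ RL Ro q Z0 D0 N1 r d := by
  obtain ⟨h1, h2, h3⟩ := h
  obtain ⟨h4, h5⟩ := hR.of_take h1
  exact ⟨h4, h5, h2, fun t ht h6 => h3 t ht ((hR.take (by omega)).2 h6)⟩

theorem RL_take {Ro : List α → Prop} {n q Z0 D0 N1 : ℕ} (hR : Loc Ro n) {r : List α} {d B : ℕ}
    (hB : d + n ≤ B) (h : RL Ro q Z0 D0 N1 r d) : RL Ro q Z0 D0 N1 (r.take B) d := by
  obtain ⟨h1, h2, h3⟩ := h
  exact ⟨(hR.take hB).2 h1, h2, fun t ht h6 => h3 t ht (hR.of_take h6).2⟩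

/-- the next anchor exists -/
theorem exists_next (t : List α) (hrf : Wall_291.RF P.e P.b t) {x : ℕ}
    (hl : x + P.BT ≤ t.length) :
    ∃ N, N ≤ P.Zt + P.Go ∧ P.Z0 ≤ N ∧ P.isNx ((t.drop x).take P.BT) N := by
  obtain ⟨i, hi, hw⟩ := P.densO (t.drop (x + P.Zt)) (hrf.drop _)
    (by rw [List.length_drop]; unfold BT at hl; omega)
  have hw' : P.Ro ((t.drop x).drop (P.Zt + i)) := by
    rw [List.drop_drop]
    rw [List.drop_drop] at hw
    rwa [show x + (P.Zt + i) = x + P.Zt + i by omega]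
  have hq : Qf P.Ro P.ZD.q P.Z0 P.D0 (t.drop x) (P.Zt + i) := by
    refine ⟨hw', ?_⟩
    have h3 : P.D0 * ((P.Zt + i) % P.ZD.q) ≤ P.D0 * P.ZD.q :=
      Nat.mul_le_mul_left _ (Nat.mod_lt _ P.ZD.hq).le
    unfold thr Zt at *
    omega
  obtain ⟨N, hN1, hN2⟩ := exists_isNx hq
  refine ⟨N, by omega, ?_, ?_⟩
  · have := hN2.1.2
    unfold thr at this
    omega
  · exact hN2.take P.hRo (by unfold BT; omega)

theorem cp1 (t : List α) (v : V) (hrf : Wall_291.RF P.e P.b t) (D1 : ℕ) (hD1 : P.Bm ≤ D1)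
    (hl : P.Bm + D1 ≤ t.length) (hbad : ¬ P.Bad (t.take P.Bm)) :
    ∃ x, P.p0 ≤ x ∧ x < P.Bm ∧ P.L1 (t.take x) v ∧ (P.R1 ((t.drop x).take D1)).isSome := by
  classical
  have hBmBT : P.Bm = P.p0 + P.BT := rfl
  set T := (t.drop P.p0).take P.BT with hT
  have hyd : (t.take P.Bm).drop P.p0 = T := by
    rw [List.drop_take]; congr 1; omega
  have hbad' : ¬ P.BadT T := by unfold Bad at hbad; rwa [hyd] at hbad
  obtain ⟨N, hN1, hN2, hN3⟩ := P.exists_next t hrf (x := P.p0) (by omega)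
  have hNBT : N + P.n + P.Nw ≤ P.BT := by unfold BT; omega
  set Z := (t.drop P.p0).take N with hZ
  have hZT : T.take N = Z := by
    rw [hT, List.take_take, min_eq_left (by omega)]
  have hZlen : Z.length = N := by
    rw [hZ, List.length_take, List.length_drop]; omega
  -- small walls
  have hsm : ∀ k, k ≤ P.ZD.m → ∃ H, ZoneC_382.FW P.ZD.r Z (P.ZD.A k) H ∧ H ≤ P.ZD.A k + P.ZD.G := by
    intro k hk
    have hAk := P.hAm k hk
    obtain ⟨i, hi, hw⟩ := P.densS (t.drop (P.p0 + P.ZD.A k)) (hrf.drop _)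
      (by rw [List.length_drop]; omega)
    have hex : ∃ s, P.ZD.A k ≤ s ∧ P.ZD.r.R (Z.drop s) := by
      refine ⟨P.ZD.A k + i, by omega, ?_⟩
      have hloc : Loc P.ZD.r.R P.ZD.r.n := ⟨P.ZD.r.take_iff, P.ZD.r.len, P.ZD.r.pos⟩
      rw [hZ]
      refine (hloc.take (by omega)).2 ?_
      rw [List.drop_drop]
      rw [List.drop_drop] at hw
      rwa [show P.p0 + (P.ZD.A k + i) = P.p0 + P.ZD.A k + i by omega]
    have hle : Nat.find hex ≤ P.ZD.A k + i := by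
      apply Nat.find_min' hex
      refine ⟨by omega, ?_⟩
      have hloc : Loc P.ZD.r.R P.ZD.r.n := ⟨P.ZD.r.take_iff, P.ZD.r.len, P.ZD.r.pos⟩
      rw [hZ]
      refine (hloc.take (by omega)).2 ?_
      rw [List.drop_drop]
      rw [List.drop_drop] at hw
      rwa [show P.p0 + (P.ZD.A k + i) = P.p0 + P.ZD.A k + i by omega]
    refine ⟨Nat.find hex, ⟨(Nat.find_spec hex).1, (Nat.find_spec hex).2, ?_⟩, by omega⟩
    intro t' h1 h2 h3
    exact Nat.find_min hex h2 ⟨h1, h3⟩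
  choose! H hH1 hH2 using hsm
  have hBn : ¬ P.ZD.B (Z.length / P.ZD.q) := by
    rw [P.hB, hZlen]
    rintro ⟨p, hp, hdvd⟩
    exact hbad' (Or.inr (Or.inr ⟨p, hp, N, hN3, hdvd⟩))
  obtain ⟨P', Q', i, om, hPQ, hi, hPl, hom1, hom2, hLL, bb, hRR⟩ :=
    P.ZD.complete P.N3 P.hides (Z := Z) hBn H hH1 hH2 P.hlo
      (by
        intro k hk s h1 h2 h3
        apply hbad'
        refine Or.inr (Or.inl ⟨k, hk, s, ?_, h1, h2⟩)
        have hloc : Loc P.ZD.r.R P.ZD.r.n := ⟨P.ZD.r.take_iff, P.ZD.r.len, P.ZD.r.pos⟩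
        rw [← hZT] at h3
        exact (hloc.of_take h3).2)
      (by
        intro i hi
        rw [hZlen]
        have h1 : P.ZD.q * (P.ZD.lo i + P.ZD.M) ≤ P.ZD.q * P.OM :=
          Nat.mul_le_mul_left _ (P.hOM i hi)
        have h2 := P.hZ0
        omega)
      (P.ZD.act v (P.ZD.phi (t.take P.p0)) + P.nu2 (t.take P.p0))
  have homOM : om ≤ P.OM := by have := P.hOM i hi; omega
  have hqom : P.ZD.q * om ≤ P.ZD.q * P.OM := Nat.mul_le_mul_left _ homOM
  have hqom' : P.ZD.q * om ≤ P.Nw := hqom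
  have hNw : P.Nw < P.Z0 := P.hZ0
  have hP' : P' = (t.drop P.p0).take (P.ZD.q * om) := by
    have h1 : Z.take P'.length = P' := by rw [hPQ, List.take_left]
    rw [← h1, hPl, hZ, List.take_take, min_eq_left (by omega)]
  have hQ' : Q' = (t.drop (P.p0 + P.ZD.q * om)).take (N - P.ZD.q * om) := by
    have h1 : Z.drop P'.length = Q' := by rw [hPQ, List.drop_left]
    rw [← h1, hPl, hZ, List.drop_take, List.drop_drop]
  refine ⟨P.p0 + P.ZD.q * om, by omega, by omega, ?_, ?_⟩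
  · refine ⟨om, homOM, ?_, ?_⟩
    · rw [List.length_take]; omega
    · have e1 : (t.take (P.p0 + P.ZD.q * om)).drop P.p0 = P' := by
        rw [List.drop_take, hP', Nat.add_sub_cancel_left]
      have e2 : (t.take (P.p0 + P.ZD.q * om)).take P.p0 = t.take P.p0 := by
        rw [List.take_take, min_eq_left (by omega)]
      rw [e1, e2]; exact hLL
  · refine P.R1_isSome (p := (N - P.ZD.q * om, bb)) ⟨?_, ?_, ?_⟩
    · have hl0 := legal_of_not_EE (Ro := P.Ro) (q := P.ZD.q) (Z0 := P.Z0) (D0 := P.D0)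
        (N1 := P.Nw) (om := om) (N := N) (T := T) hqom' hN3
        (fun h => hbad' (Or.inl h)) (by omega)
      have e1 : T.drop (P.ZD.q * om)
          = (t.drop (P.p0 + P.ZD.q * om)).take (P.BT - P.ZD.q * om) := by
        rw [hT, List.drop_take, List.drop_drop]
      rw [e1] at hl0
      obtain ⟨_, hl1⟩ := RL_of_take P.hRo hl0
      exact RL_take P.hRo (by simp only; omega) hl1
    · simp only; omega
    · simp only
      rw [List.take_take, min_eq_left (by omega), ← hQ']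
      exact hRR

/-- the events -/
def Ev (t : List α) (j : (Unit ⊕ Fin (P.ZD.m + 1)) ⊕ ({p // p ∈ P.Ms} × Bool)) (x : ℕ) : Prop :=
  match j with
  | Sum.inl (Sum.inl _) => EE P.Ro P.ZD.q P.Z0 P.D0 P.Nw ((t.drop x).take P.BT)
  | Sum.inl (Sum.inr i) => DD P.ZD.r.R (P.ZD.q * P.ZD.M) (P.ZD.A i) ((t.drop x).take P.BT)
  | Sum.inr (p, bo) => ∃ a, P.isNx ((t.drop x).take P.BT) a ∧ (p : ℕ) ∣ a / P.ZD.q ∧
      (bo = true ↔ x + a < P.p0 + P.Lam + P.Z0 + P.D0 * P.ZD.q)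

theorem ev_of_bad {t : List α} {x : ℕ} (h : P.BadT ((t.drop x).take P.BT)) :
    ∃ j, P.Ev t j x := by
  classical
  rcases h with h | ⟨j, hj, h⟩ | ⟨p, hp, a, ha, hd⟩
  · exact ⟨Sum.inl (Sum.inl ()), h⟩
  · exact ⟨Sum.inl (Sum.inr ⟨j, by omega⟩), h⟩
  · exact ⟨Sum.inr (⟨p, hp⟩, decide (x + a < P.p0 + P.Lam + P.Z0 + P.D0 * P.ZD.q)), a, ha, hd,
      by simp⟩

theorem mod_lt_of_dvd {p q a : ℕ} (hq : 0 < q) (hp : 0 < p) (h : p ∣ a / q) :
    ((a : ℤ)) % ((p : ℤ) * q) < q := by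
  obtain ⟨l, hl⟩ := h
  have h1 : a = q * (a / q) + a % q := (Nat.div_add_mod a q).symm
  have h2 : a % (p * q) = a % q := by
    conv_lhs => rw [h1, hl]
    rw [show q * (p * l) + a % q = a % q + (p * q) * l by ring, Nat.add_mul_mod_self_left]
    exact Nat.mod_eq_of_lt (lt_of_lt_of_le (Nat.mod_lt _ hq) (Nat.le_mul_of_pos_left q hp))
  have h3 : ((a % (p * q) : ℕ) : ℤ) = (a : ℤ) % ((p : ℤ) * q) := by push_cast; rfl
  rw [← h3, h2]
  exact_mod_cast Nat.mod_lt _ hq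

theorem ev_unique (t : List α) (j : (Unit ⊕ Fin (P.ZD.m + 1)) ⊕ ({p // p ∈ P.Ms} × Bool))
    (hMs : ∀ p ∈ P.Ms, 0 < p)
    {k k' l l' : ℕ} (hk : k < P.K) (hk' : k' < P.K) (hl : l < P.K) (hl' : l' < P.K)
    (hne : k ≠ k')
    (h1 : P.Ev t j (P.c k + (P.p0 - P.c k'))) (h2 : P.Ev t j (P.c l + (P.p0 - P.c l'))) :
    k = l := by
  have hp1 := P.hp0 k hk
  have hp2 := P.hp0 k' hk'
  have hp3 := P.hp0 l hl
  have hp4 := P.hp0 l' hl'
  have s1 := P.hspan k hk k' hk'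
  have s2 := P.hspan k' hk' k hk
  have s3 := P.hspan l hl l' hl'
  have s4 := P.hspan l' hl' l hl
  have hq := P.ZD.hq
  have hcast : ((P.c k + (P.p0 - P.c k') : ℕ) : ℤ) - ((P.c l + (P.p0 - P.c l') : ℕ) : ℤ)
      = ((P.c k : ℤ) - P.c k') - ((P.c l : ℤ) - P.c l') := by
    push_cast [hp2, hp4]; ring
  have hW := P.hW
  have hD0 := P.hD0
  have hg := P.hg
  rcases j with (_ | i) | ⟨⟨p, hp⟩, bo⟩
  · have h := EE_unique (q := P.ZD.q) (Z0 := P.Z0) (D0 := P.D0) (N1 := P.Nw) P.hRo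
      (W := P.W) (Lam := P.Lam) P.hsepO hW hD0 hq (t := t)
      (x1 := P.c k + (P.p0 - P.c k')) (x2 := P.c l + (P.p0 - P.c l')) (B := P.BT)
      (by omega) (by omega) h1 h2
    rw [hcast] at h
    exact (P.rE k hk k' hk' l hl l' hl' hne h).1
  · have hloc : Loc P.ZD.r.R P.ZD.r.n := ⟨P.ZD.r.take_iff, P.ZD.r.len, P.ZD.r.pos⟩
    have h := DD_unique (Rs := P.ZD.r.R) hloc (g := P.g) (Lam := P.Lam)
      (D := P.ZD.q * P.ZD.M) (A := P.ZD.A i) P.hsepS hg (t := t)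
      (x1 := P.c k + (P.p0 - P.c k')) (x2 := P.c l + (P.p0 - P.c l')) (B := P.BT)
      (by omega) (by omega) h1 h2
    rw [hcast] at h
    exact (P.rD k hk k' hk' l hl l' hl' hne h).1
  · obtain ⟨a, ha, had, hac⟩ := h1
    obtain ⟨b, hb, hbd, hbc⟩ := h2
    have h := BB_same (q := P.ZD.q) (Z0 := P.Z0) (D0 := P.D0) P.hRo
      (W := P.W) (Lam := P.Lam) P.hsepO (by omega) hq (t := t)
      (x1 := P.c k + (P.p0 - P.c k')) (x2 := P.c l + (P.p0 - P.c l')) (B := P.BT) (p0 := P.p0)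
      (a := a) (b := b)
      (by omega) (by omega) (by omega) (by omega) ha hb (hac.symm.trans hbc)
    have hpos := hMs p hp
    have m1 := mod_lt_of_dvd hq hpos had
    have m2 := mod_lt_of_dvd hq hpos hbd
    have e1 : ((P.c k : ℤ) - P.c k') + P.p0 + a = ((P.c l : ℤ) - P.c l') + P.p0 + b := by
      have : ((P.c k + (P.p0 - P.c k') + a : ℕ) : ℤ) = ((P.c l + (P.p0 - P.c l') + b : ℕ) : ℤ) := by
        exact_mod_cast h
      push_cast [hp2, hp4] at this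
      linarith
    refine (P.rB p hp (((P.c k : ℤ) - P.c k') + a) k hk k' hk' l hl l' hl' hne ?_ ?_).1
    · rw [show ((P.c k : ℤ) - P.c k') + a - ((P.c k : ℤ) - P.c k') = a by ring]; exact m1
    · rw [show ((P.c k : ℤ) - P.c k') + a - ((P.c l : ℤ) - P.c l') = b by linarith]; exact m2

theorem cp2 (t : List α) (v : V) (hrf : Wall_291.RF P.e P.b t) (D2 : ℕ) (hD2 : P.Bm ≤ D2)
    (hMs : ∀ p ∈ P.Ms, 0 < p)
    (hl : P.Bm + D2 ≤ t.length) (hbad : P.Bad (t.take P.Bm)) :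
    ∃ x, P.q0 ≤ x ∧ x ≤ P.p0 ∧ P.L2 (t.take x) v ∧ (P.R2 ((t.drop x).take D2)).isSome := by
  classical
  have hBmBT : P.Bm = P.p0 + P.BT := rfl
  have hyd : (t.take P.Bm).drop P.p0 = (t.drop P.p0).take P.BT := by
    rw [List.drop_take]; congr 1; omega
  obtain ⟨I, hI, hIk⟩ := P.comp2 (t.take P.p0) 1 v (by
    intro k hk
    have := P.hp0 k hk
    rw [List.length_take]; omega)
  by_contra hno
  have hsp : ∀ k ∈ I, ∃ k', k' < P.K ∧ k' ≠ k ∧ ∃ j, P.Ev t j (P.c k + (P.p0 - P.c k')) := by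
    intro k hkI
    by_contra hns
    apply hno
    obtain ⟨hk, hlam, hrho⟩ := hIk k hkI
    have hkp := P.hp0 k hk
    obtain ⟨β, hβ⟩ := Option.isSome_iff_exists.1 hrho
    refine ⟨P.c k, P.hq0 k hk, hkp, ⟨k, hk, ?_, ?_⟩, ?_⟩
    · rw [List.length_take]; omega
    · rwa [List.take_take, min_eq_left hkp] at hlam
    · have hcand : ∀ k' < P.K, P.cand k' ((t.drop (P.c k)).take D2)
          = (t.drop (P.c k + (P.p0 - P.c k'))).take P.BT := by
        intro k' hk'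
        have := P.hp0 k' hk'
        unfold cand
        rw [List.drop_take, List.drop_drop, List.take_take, min_eq_left (by omega)]
      have hself : P.cand k ((t.drop (P.c k)).take D2) = (t.drop P.p0).take P.BT := by
        rw [hcand k hk]; congr 2; omega
      obtain ⟨N, _, _, hN⟩ := P.exists_next t hrf (x := P.p0) (by omega)
      refine P.R2_isSome (p := ((P.p0 - P.c k) + N,
        P.ZD.act β (P.ZD.phi ((P.cand k ((t.drop (P.c k)).take D2)).take N)) +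
          P.ZD.nu ((P.cand k ((t.drop (P.c k)).take D2)).take N))) ⟨k, hk, ?_, ?_, N, β, ?_, ?_, rfl⟩
      · rw [hself, ← hyd]; exact hbad
      · intro k' hk' hb'
        by_contra hne
        apply hns
        rw [hcand k' hk'] at hb'
        exact ⟨k', hk', hne, P.ev_of_bad hb'⟩
      · rw [hself]; exact hN
      · rw [List.take_take, min_eq_left (by omega), ← hβ]
        congr 1
        rw [List.drop_take]
  choose! k' hk'K hk'ne j hj using hsp
  have hinj : Set.InjOn j (I : Set ℕ) := by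
    intro a ha b hb hab
    have ha' : a ∈ I := ha
    have hb' : b ∈ I := hb
    refine P.ev_unique t (j a) hMs (hIk a ha').1 (hk'K a ha') (hIk b hb').1 (hk'K b hb')
      (hk'ne a ha').symm (hj a ha') ?_
    rw [hab]; exact hj b hb'
  have hcard := Finset.card_le_card_of_injOn (s := I) (t := Finset.univ) j
    (fun _ _ => Finset.mem_coe.2 (Finset.mem_univ _)) hinj
  have hc2 : (Finset.univ : Finset ((Unit ⊕ Fin (P.ZD.m + 1)) ⊕ ({p // p ∈ P.Ms} × Bool))).card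
      = 1 + (P.ZD.m + 1) + P.Ms.card * 2 := by
    simp [Fintype.card_sum, Fintype.card_prod]
  rw [hc2] at hcard
  have := P.hR
  omega

/-- **the two levels for the instance** -/
theorem twoLevels [Finite α] [Finite V] (hMs : ∀ p ∈ P.Ms, 0 < p) :
    Star_903.RC 2 (Glue131.stp P.D) (fun θ w => Wall_291.RF P.e P.b (θ.1.1 ++ w)) := by
  refine Glue131.two P.D (fun w => Wall_291.RF P.e P.b w) ?_ P.p0 P.q0 P.Bm (P.Bm + P.Bm) P.hqp
    ?_ le_rfl le_rfl ?_ P.Bad P.L1 P.L2 P.R1 P.R2 ?_ ?_ P.L2_le ?_ ?_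
  · intro x y z h
    exact h.infix ⟨x, z, rfl⟩
  · show P.p0 < P.Bm
    have h1 := P.hZ0
    unfold Bm BT Zt
    omega
  · intro y hy hrf
    show P.Bm - P.NN y ≤ P.q0
    have hy' : y.length = P.Bm := hy
    have hBmBT : P.Bm = P.p0 + P.BT := rfl
    obtain ⟨N, hN1, hN2, hN3⟩ := P.exists_next y hrf (x := P.p0) (by omega)
    have e : (y.drop P.p0).take P.BT = y.drop P.p0 := by
      rw [List.take_of_length_le]; rw [List.length_drop]; omega
    rw [e] at hN3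
    have hle : P.p0 + N ≤ P.Bm := by unfold BT Zt at *; omega
    rw [P.NN_eq hN3 hle]
    have := P.hq0'
    have hBT : P.BT = P.ZD.q * P.OM + (P.Z0 + P.D0 * P.ZD.q) + P.Go + P.n := rfl
    omega
  · intro u v r d b _ _ _ hL hR
    exact P.sc1 u v r d b hL hR
  · intro u v r d b _ _ _ hL hb hR
    exact P.sc2 u v r d b hL hb hR
  · intro t v hrf hl hb
    exact P.cp1 t v hrf P.Bm le_rfl hl hb
  · intro t v hrf hl hb
    exact P.cp2 t v hrf (P.Bm + P.Bm) (by omega) hMs hl hb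

/-- the zone map is affine -/
theorem zm_eq (hadd : ∀ a b s, P.ZD.act (a + b) s = P.ZD.act a s + P.ZD.act b s)
    (hmul : ∀ v s t, P.ZD.act v (s * t) = P.ZD.act (P.ZD.act v s) t) (y : List α)
    (hy : y.length = P.Bm) (hN : P.p0 ≤ P.NN y) (v : V) :
    P.zm y v = P.ZD.act v (P.ZD.phi (y.take (P.NN y))) +
      (P.ZD.act (P.nu2 (y.take P.p0)) (P.ZD.phi ((y.drop P.p0).take (P.NN y - P.p0))) +
        P.ZD.nu ((y.drop P.p0).take (P.NN y - P.p0))) := by
  have e : y.take (P.NN y) = y.take P.p0 ++ (y.drop P.p0).take (P.NN y - P.p0) := by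
    have h1 : P.NN y = P.p0 + (P.NN y - P.p0) := by omega
    conv_lhs => rw [h1]
    rw [List.take_add]
  unfold zm
  rw [e, P.ZD.hphi, hadd, hmul, add_assoc]

end Prm

end Crest.Agent.R320.Inst382
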