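import Crest.Agent.R320.InstA_425
import Crest.Agent.R320.Top5_467
import Crest.Agent.R320.FewVal_228

/-! Row 320 (helper425): `InstA_425.Dat.Ok` + finiteness data gives `HL 3 {w | phi w = s}`. -/

set_option autoImplicit false

namespace Crest.Agent.R320.InstB_425

open Crest.RegLang Crest.Agent.R320.Hk_851 Crest.Agent.R320.Blk467 Crest.Agent.R320.FewWalls_228
open Crest.Agent.R320.InstA_425

universe u

variable {α : Type u} {S V : Type u} [Monoid S] [AddCommGroup V]

/-- finiteness data -/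
structure Fin (D : Dat α S V) (Sw : Set (List α)) (c P L B : ℕ) : Prop where
  hone : ∀ v, D.act v 1 = v
  hfaith : ∀ s t, (∀ v, D.act v s = D.act v t) → s = t
  hn : 0 < D.n
  hP : 0 < P
  hL : 0 < L
  hper : PerOff D.n c P Sw
  hS : ∀ s ∈ Sw, s.length = D.n
  hW : ∀ X, D.W X ↔ (D.n ≤ X.length ∧ X.drop (X.length - D.n) ∈ Sw)
  hB : D.p0 + B ≤ D.z
  hBT : ∀ T T', T % L = T' % L → (D.BT T ↔ D.BT T')
  hnu : ∀ Y Y' : List α, B ≤ Y.length → B ≤ Y'.length → Y.take B = Y'.take B →
    pr D.φ (Y.drop B) = pr D.φ (Y'.drop B) → Y.length % L = Y'.length % L → D.nu Y = D.nu Y'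

variable {D : Dat α S V} {Sw : Set (List α)} {c P L B : ℕ}

theorem W_suffix (f : Fin D Sw c P L B) (X : List α) : D.W X ↔ ∃ s ∈ Sw, s <:+ X := by
  rw [f.hW]
  constructor
  · rintro ⟨_, h2⟩
    exact ⟨_, h2, List.drop_suffix _ _⟩
  · rintro ⟨s, hs, r, rfl⟩
    have := f.hS s hs
    refine ⟨by simp only [List.length_append]; omega, ?_⟩
    have e : (r ++ s).length - D.n = r.length := by simp only [List.length_append]; omega
    rw [e, List.drop_left]; exact hs

theorem W_take (f : Fin D Sw c P L B) {X : List α} {x : ℕ} (hx : x + D.n ≤ X.length) :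
    D.W (X.take (x + D.n)) ↔ Wl D.n Sw X x := by
  rw [f.hW]
  unfold Wl
  have e1 : (X.take (x + D.n)).length = x + D.n := by rw [List.length_take]; omega
  rw [e1]
  have e2 : x + D.n - D.n = x := by omega
  rw [e2, List.drop_take]
  have e3 : x + D.n - x = D.n := by omega
  rw [e3]
  constructor
  · rintro ⟨_, h⟩; exact ⟨hx, h⟩
  · rintro ⟨_, h⟩; exact ⟨by omega, h⟩

theorem Sw_fin [Finite α] (f : Fin D Sw c P L B) : Sw.Finite :=
  (List.finite_length_eq α D.n).subset fun s hs => f.hS s hs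

theorem HL_W [Finite α] {k : ℕ} (f : Fin D Sw c P L B) : HL k ({X | D.W X} : Language α) :=
  (HL.suffix (HL.finite (Sw_fin f))).congr fun X => W_suffix f X

theorem HL_XX [Finite α] {k : ℕ} (f : Fin D Sw c P L B) : HL k (D.XX : Language α) := by
  have h1 : HL k ({X | D.z ≤ X.length ∧ D.W X} : Language α) :=
    HL.setOf_and (HL.length_ge D.z) (HL_W f)
  have h2 : HL k ({X | 1 ≤ X.length} : Language α) := HL.length_ge 1
  refine (HL.inf h1 (h1.mul h2).compl).congr fun X => ?_
  constructor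
  · rintro ⟨a, b, d⟩
    refine ⟨⟨a, b⟩, ?_⟩
    intro hm
    obtain ⟨U, ⟨hU1, hU2⟩, r, hr, rfl⟩ := Language.mem_mul.1 hm
    have hr' : 1 ≤ r.length := hr
    exact d U.length hU1 (by simp only [List.length_append]; omega) (by simpa using hU2)
  · rintro ⟨⟨a, b⟩, hd⟩
    refine ⟨a, b, fun t t1 t2 hw => hd ?_⟩
    refine Language.mem_mul.2 ⟨X.take t, ⟨by rw [List.length_take]; omega, hw⟩, X.drop t, ?_,
      List.take_append_drop _ _⟩
    show 1 ≤ (X.drop t).length
    rw [List.length_drop]; omega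

theorem nw_le {q : List α} {n z : ℕ} {S' : Set (List α)}
    (h : ∀ x, Wl n S' q x → x < z ∨ x = q.length - n) : nw n S' q ≤ z + 1 := by
  classical
  unfold nw
  have : ((Finset.range (q.length + 1)).filter (fun x => Wl n S' q x)) ⊆
      insert (q.length - n) (Finset.range z) := by
    intro x hx
    rw [Finset.mem_filter] at hx
    rcases h x hx.2 with h1 | h1
    · exact Finset.mem_insert_of_mem (Finset.mem_range.2 h1)
    · rw [h1]; exact Finset.mem_insert_self _ _
  refine (Finset.card_le_card this).trans ?_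
  refine (Finset.card_insert_le _ _).trans ?_
  rw [Finset.card_range]

/-- value and length modulo `L` -/
def ps (D : Dat α S V) (L : ℕ) (a : α) : S × Multiplicative (ZMod L) :=
  (D.φ a, Multiplicative.ofAdd (1 : ZMod L))

theorem ps_prod (w : List α) : (w.map (ps D L)).prod =
    (pr D.φ w, Multiplicative.ofAdd ((w.length : ℕ) : ZMod L)) := by
  induction w with
  | nil => simp [pr]; rfl
  | cons a w ih =>
    rw [List.map_cons, List.prod_cons, ih]
    refine Prod.ext ?_ ?_
    · simp [ps, pr]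
    · show Multiplicative.ofAdd (1 : ZMod L) * Multiplicative.ofAdd ((w.length : ℕ) : ZMod L) =
        Multiplicative.ofAdd (((a :: w).length : ℕ) : ZMod L)
      rw [← ofAdd_add, List.length_cons]
      congr 1
      push_cast
      ring

theorem ps_eq (hL : 0 < L) {w w' : List α} (h : (w.map (ps D L)).prod = (w'.map (ps D L)).prod) :
    pr D.φ w = pr D.φ w' ∧ w.length % L = w'.length % L := by
  rw [ps_prod, ps_prod, Prod.mk.injEq] at h
  refine ⟨h.1, ?_⟩
  have h2 : ((w.length : ℕ) : ZMod L) = ((w'.length : ℕ) : ZMod L) := Multiplicative.ofAdd.injective h.2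
  exact (ZMod.natCast_eq_natCast_iff' _ _ _).1 h2

def Fm (D : Dat α S V) (Sw : Set (List α)) (L : ℕ) (m : S × Multiplicative (ZMod L)) :
    Language α := {w | nw D.n Sw w ≤ D.z + 1 ∧ (w.map (ps D L)).prod = m}

def Ct (D : Dat α S V) (L : ℕ) (p : List α → Prop) (u : List α)
    (m : S × Multiplicative (ZMod L)) : Language α :=
  {_w | ∃ X' ∈ D.XX, X'.take D.z = u ∧ ((X'.drop D.z).map (ps D L)).prod = m ∧ p X'}

def Wd (u : List α) : Language α := {u}

/-- properties of blocks which depend on the first `z` letters, the value and the length mod `L` -/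
theorem HL_gen [Finite α] [Finite S] (f : Fin D Sw c P L B) (p : List α → Prop)
    (hp : ∀ X X', X ∈ D.XX → X' ∈ D.XX → X.take D.z = X'.take D.z →
      pr D.φ (X.drop D.z) = pr D.φ (X'.drop D.z) → X.length % L = X'.length % L → p X → p X') :
    HL 1 ({X | X ∈ D.XX ∧ p X} : Language α) := by
  classical
  haveI : NeZero L := ⟨by have := f.hL; omega⟩
  haveI : Finite (Multiplicative (ZMod L)) := inferInstanceAs (Finite (ZMod L))
  have hF : ∀ m : S × Multiplicative (ZMod L), HL 1 (Fm D Sw L m) := by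
    intro m
    exact Crest.Agent.R320.FewVal_228.HL_few_value f.hn f.hP f.hper (D.z + 1) (ps D L) m
  have hfin : ({u : List α | u.length = D.z} : Set (List α)).Finite := List.finite_length_eq α D.z
  have key := HL.biUnion (k := 1) hfin (L := fun u => ({w | ∃ m : S × Multiplicative (ZMod L),
      w ∈ (Ct D L p u m ⊓ (Wd u * Fm D Sw L m) : Language α)} : Language α)) fun u _ =>
    HL.iUnion (L := fun m : S × Multiplicative (ZMod L) =>
      (Ct D L p u m ⊓ (Wd u * Fm D Sw L m) : Language α)) fun m =>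
      HL.inf (HL.const _) ((HL.word u).mul (hF m))
  refine (HL.inf (HL_XX f) key).congr fun X => ?_
  constructor
  · rintro ⟨hX, hpX⟩
    refine ⟨hX, X.take D.z, ?_, ((X.drop D.z).map (ps D L)).prod, ⟨X, hX, rfl, rfl, hpX⟩, ?_⟩
    · show (X.take D.z).length = D.z
      rw [List.length_take]
      have := hX.1
      omega
    · refine Language.mem_mul.2 ⟨X.take D.z, rfl, X.drop D.z, ⟨?_, rfl⟩, List.take_append_drop _ _⟩
      apply nw_le
      intro x hx
      have hx1 := hx.1
      rw [List.length_drop] at hx1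
      have hXz := hX.1
      have h1 : Wl D.n Sw X (D.z + x) := (wl_drop hXz).1 hx
      rw [← W_take f h1.1] at h1
      by_cases hc : D.z + x + D.n < X.length
      · exact absurd h1 (hX.2.2 _ (by omega) hc)
      · right
        rw [List.length_drop]; omega
  · rintro ⟨hX, u, hu, m, ⟨X', hX', e1, e2, hp'⟩, hm⟩
    refine ⟨hX, ?_⟩
    obtain ⟨u', hu', q, ⟨-, hq⟩, rfl⟩ := Language.mem_mul.1 hm
    have hu'' : u' = u := hu'
    subst hu''
    have hul : u'.length = D.z := hu
    have t1 : (u' ++ q).take D.z = u' := by rw [← hul, List.take_left]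
    have t2 : (u' ++ q).drop D.z = q := by rw [← hul, List.drop_left]
    have h3 := ps_eq f.hL (e2.trans hq.symm)
    have hX'z := hX'.1
    refine hp X' (u' ++ q) hX' hX (by rw [e1, t1]) (by rw [t2]; exact h3.1) ?_ hp'
    have l1 : X'.length = D.z + (X'.drop D.z).length := by rw [List.length_drop]; omega
    rw [l1, List.length_append, hul]
    exact Nat.ModEq.add_left D.z h3.2

theorem T_dep (h : D.Ok) (f : Fin D Sw c P L B) (v : V) {X X' : List α} (hX : X ∈ D.XX)
    (hX' : X' ∈ D.XX) (e1 : X.take D.z = X'.take D.z)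
    (e2 : pr D.φ (X.drop D.z) = pr D.φ (X'.drop D.z)) (e3 : X.length % L = X'.length % L) :
    D.T v X = D.T v X' := by
  have hB := f.hB
  have h1 := hX.1
  have h2 := hX'.1
  have a1 : X.take D.p0 = X'.take D.p0 := by
    have := congrArg (List.take D.p0) e1
    rwa [List.take_take, List.take_take, Nat.min_eq_left (by omega)] at this
  have val : ∀ (Z : List α) (j : ℕ), j ≤ D.z → D.z ≤ Z.length →
      pr D.φ (Z.drop j) = pr D.φ ((Z.take D.z).drop j) * pr D.φ (Z.drop D.z) := by
    intro Z j hj hZ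
    rw [← List.prod_append, ← List.map_append]
    congr 2
    conv_lhs => rw [← List.take_append_drop D.z Z]
    rw [List.drop_append_of_le_length (by rw [List.length_take]; omega)]
  have a2 : pr D.φ (X.drop D.p0) = pr D.φ (X'.drop D.p0) := by
    rw [val X D.p0 (by omega) h1, val X' D.p0 (by omega) h2, e1, e2]
  have a3 : D.nu (X.drop D.p0) = D.nu (X'.drop D.p0) := by
    apply f.hnu
    · rw [List.length_drop]; omega
    · rw [List.length_drop]; omega
    · have := congrArg (fun Z : List α => (Z.take (D.p0 + B)).drop D.p0) e1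
      simp only [List.take_take, Nat.min_eq_left hB] at this
      rw [List.drop_take, List.drop_take] at this
      have e : D.p0 + B - D.p0 = B := by omega
      rwa [e] at this
    · rw [List.drop_drop, List.drop_drop, val X _ hB h1, val X' _ hB h2, e1, e2]
    · rw [List.length_drop, List.length_drop]
      have l1 : X.length = (X.length - D.p0) + D.p0 := by omega
      have l2 : X'.length = (X'.length - D.p0) + D.p0 := by omega
      rw [l1, l2] at e3
      exact Nat.ModEq.add_right_cancel' D.p0 e3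
  rw [T_eq h, T_eq h, a1, a2, a3]

theorem HL_A [Finite α] [Finite S] (h : D.Ok) (f : Fin D Sw c P L B) (v b : V) :
    HL 1 ({X | X ∈ D.XX ∧ D.T v X = b} : Language α) :=
  HL_gen f (fun X => D.T v X = b) fun X X' hX hX' e1 e2 e3 hp => by
    rw [← T_dep h f v hX hX' e1 e2 e3]; exact hp

def Cc (p : Prop) : Language α := {_w | p}

def Lw (D : Dat α S V) (t : ℕ) : Language α := {U | U.length = t ∧ D.W U}

theorem HL_Bad [Finite α] [Finite S] (f : Fin D Sw c P L B) :
    HL 1 (D.Bad : Language α) := by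
  have hE : HL 1 ({X | D.E X} : Language α) := by
    refine (HL.iUnion (k := 1) (ι := _root_.Fin (D.z + D.N)) (L := fun t =>
      (Cc (D.z < (t : ℕ) + D.N) ⊓ (Lw D t * (⊤ : Language α)) : Language α)) fun t =>
        ?_).congr fun X => ?_
    · exact HL.inf (HL.const _) ((HL.setOf_and (HL.length_eq _) (HL_W f)).mul HL.top)
    · constructor
      · rintro ⟨t, t1, t2, t3, t4⟩
        refine ⟨⟨t, t2⟩, t1, Language.mem_mul.2 ⟨X.take t, ⟨?_, t4⟩, X.drop t, trivial,
          List.take_append_drop _ _⟩⟩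
        show (X.take t).length = t
        rw [List.length_take]; omega
      · rintro ⟨t, t1, hm⟩
        obtain ⟨U, ⟨hU1, hU2⟩, r, -, rfl⟩ := Language.mem_mul.1 hm
        have hU : U.length = (t : ℕ) := hU1
        refine ⟨t, t1, t.2, by simp only [List.length_append]; omega, ?_⟩
        rw [← hU, List.take_left]; exact hU2
  have hBT : HL 1 ({X | X ∈ D.XX ∧ D.BT (X.length - D.p0)} : Language α) := by
    refine HL_gen f (fun X => D.BT (X.length - D.p0)) fun X X' hX hX' e1 e2 e3 hp => ?_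
    have h1 := hX.1
    have h2 := hX'.1
    have hB := f.hB
    refine (f.hBT _ _ ?_).1 hp
    have l1 : X.length = (X.length - D.p0) + D.p0 := by omega
    have l2 : X'.length = (X'.length - D.p0) + D.p0 := by omega
    rw [l1, l2] at e3
    exact Nat.ModEq.add_right_cancel' D.p0 e3
  refine (HL.sup (HL.inf (HL_XX f) hE) hBT).congr fun X => ?_
  constructor
  · rintro ⟨hX, hE | hB⟩
    · exact Or.inl ⟨hX, hE⟩
    · exact Or.inr ⟨hX, hB⟩
  · rintro (⟨hX, hE⟩ | ⟨hX, hB⟩)
    · exact ⟨hX, Or.inl hE⟩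
    · exact ⟨hX, Or.inr hB⟩

theorem LP1_fin [Finite α] (h : D.Ok) (v : V) : (D.LP1 v).Finite := by
  refine (List.finite_length_lt α (D.p0 + D.N)).subset ?_
  rintro _ ⟨X0, p, rfl, h0, hl⟩
  have := h.lam_len p _ hl
  show (X0 ++ p).length < D.p0 + D.N
  rw [List.length_append]; omega

theorem LP2_fin [Finite α] (h : D.Ok) (v : V) : (D.LP2 v).Finite := by
  refine (List.finite_length_le α D.p0).subset ?_
  rintro P ⟨k, hk, hP, -⟩
  have := h.hx k hk
  show P.length ≤ D.p0
  omega

theorem HL_RQ1 [Finite α] [Finite S] [Finite V] (h : D.Ok) (f : Fin D Sw c P L B) (b : V) :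
    HL 1 (D.RQ1 b : Language α) := by
  refine (HL.iInter (ι := V) (L := fun v => ({Q | ∀ P ∈ D.LP1 v, P ++ Q ∈ ({X | X ∈ D.XX ∧
    D.T v X = b} : Language α)} : Language α)) fun v => ?_).congr fun Q => ?_
  · exact (HL.biInter (LP1_fin h v) (L := fun P => ({Q | P ++ Q ∈ ({X | X ∈ D.XX ∧
      D.T v X = b} : Language α)} : Language α)) fun P _ => HL.lquot P (HL_A h f v b)).congr
      fun Q => Iff.rfl
  · constructor
    · intro hQ v P hP
      exact hQ v P hP
    · intro hQ v P hP
      exact hQ v P hP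

def BA (D : Dat α S V) (v b : V) : Language α := {X | X ∈ D.Bad ∧ D.T v X = b}

def XB (D : Dat α S V) : Language α := {X | X ∈ D.XX ∧ X ∉ D.Bad}

def XL (D : Dat α S V) : Language α := {X | X ∈ D.XX}

def GG (D : Dat α S V) (b v : V) : Language α :=
  (XB D * (⊤ : Language α)) ⊔ {w | ∃ a : V, w ∈ (BA D v a * BA D a b : Language α)}

theorem HL_RQ2 [Finite α] [Finite S] [Finite V] (h : D.Ok) (f : Fin D Sw c P L B) (b : V) :
    HL 1 (D.RQ2 b : Language α) := by
  have hBA : ∀ v b : V, HL 1 (BA D v b) := by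
    intro v b
    refine (HL.inf (HL_Bad f) (HL_A h f v b)).congr fun X => ?_
    constructor
    · rintro ⟨h1, h2⟩; exact ⟨h1, h1.1, h2⟩
    · rintro ⟨h1, _, h2⟩; exact ⟨h1, h2⟩
  have hG : HL 1 (XB D * (⊤ : Language α)) :=
    HL.mul (HL.setOf_and (HL_XX f) (HL_Bad f).compl) HL.top
  have hGG : ∀ v : V, HL 1 (GG D b v) := fun v =>
    HL.sup hG (HL.iUnion (ι := V) (L := fun a => (BA D v a * BA D a b : Language α))
      fun a => (hBA v a).mul (hBA a b))
  have h1 : HL 1 ({Q | 1 ≤ Q.length} : Language α) := HL.length_ge 1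
  have h2 := HL.iInter (k := 1) (ι := V) (L := fun v => ({Q | ∀ P ∈ D.LP2 v, Q ∈
    ({Q | P ++ Q ∈ GG D b v} : Language α)} : Language α))
    fun v => HL.biInter (LP2_fin h v) (L := fun P => ({Q | P ++ Q ∈ GG D b v} : Language α))
      fun P _ => HL.lquot P (hGG v)
  refine (HL.inf h1 h2).congr fun Q => ?_
  constructor
  · rintro ⟨hne, hQ⟩
    refine ⟨List.length_pos_iff.2 hne, fun v P hP => ?_⟩
    rcases hQ v P hP with ⟨X, hX, hXB, r, hr⟩ | ⟨X1, h1, X2, h2, e, hT⟩
    · exact Or.inl (Language.mem_mul.2 ⟨X, ⟨hX, hXB⟩, r, trivial, hr⟩)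
    · exact Or.inr ⟨D.T v X1, Language.mem_mul.2 ⟨X1, ⟨h1, rfl⟩, X2, ⟨h2, hT⟩, e.symm⟩⟩
  · rintro ⟨hne, hQ⟩
    refine ⟨List.length_pos_iff.1 hne, fun v P hP => ?_⟩
    rcases hQ v P hP with hh | ⟨a, hh⟩
    · obtain ⟨X, ⟨hX, hXB⟩, r, -, hr⟩ := Language.mem_mul.1 hh
      exact Or.inl ⟨X, hX, hXB, r, hr⟩
    · obtain ⟨X1, ⟨g1, rfl⟩, X2, ⟨g2, hT⟩, e⟩ := Language.mem_mul.1 hh
      exact Or.inr ⟨X1, g1, X2, g2, e.symm, hT⟩

theorem HL_tail [Finite α] [Finite S] (f : Fin D Sw c P L B) (s : S) :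
    HL 1 ({w | (∀ X ∈ D.XX, ¬ X <+: w) ∧ (w.map D.φ).prod = s} : Language α) := by
  have hF : HL 1 ({w | nw D.n Sw w ≤ D.z + 1 ∧ (w.map D.φ).prod = s} : Language α) :=
    Crest.Agent.R320.FewVal_228.HL_few_value f.hn f.hP f.hper (D.z + 1) D.φ s
  have hX1 : HL 1 (XL D) := HL_XX f
  refine (HL.inf (HL.mul hX1 HL.top).compl hF).congr fun w => ?_
  constructor
  · rintro ⟨h1, h2⟩
    refine ⟨?_, ?_, h2⟩
    · intro hm
      obtain ⟨X, hX, r, -, hr⟩ := Language.mem_mul.1 hm
      exact h1 X hX ⟨r, hr⟩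
    · apply nw_le
      intro x hx
      left
      by_contra hc
      have hx1 := hx.1
      obtain ⟨X, hX, hp⟩ := exists_block (D := D) w (x + D.n) (by omega) hx1
        ((W_take f hx1).2 hx)
      exact h1 X hX hp
  · rintro ⟨h1, -, h2⟩
    refine ⟨fun X hX ⟨r, hr⟩ => h1 (Language.mem_mul.2 ⟨X, hX, r, trivial, hr⟩), h2⟩

/-- **the row from the data** -/
theorem row [Finite α] [Finite S] [Finite V] (h : D.Ok) (f : Fin D Sw c P L B) (s : S) :
    HL 3 ({w | (w.map D.φ).prod = s} : Language α) := by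
  have hcode : PCode D.XX := ⟨XX_nil h, XX_code h⟩
  have hBX : D.Bad ⊆ D.XX := fun X hX => hX.1
  have hBcode : PCode D.Bad := hcode.mono hBX
  refine Crest.Agent.R320.Top5_467.top5 D.φ D.act h.hadd f.hone h.hmul f.hfaith D.ν D.XX D.Bad
    hcode hBX (fun v => D.LP1 v) (fun b => D.RQ1 b) (fun v => D.LP2 v) (fun b => D.RQ2 b)
    ?_ ?_ ?_ ?_ (HL_Bad f) ?_ ?_ ?_ ?_ ?_ ?_ s
  · intro v b P Q hP hQ
    exact hQ v P hP
  · intro X hX hB v
    exact c1 h X hX hB v
  · intro v b P' Q r hP hQ hr
    obtain ⟨hne, hQ⟩ := hQ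
    rcases hQ v P' hP with ⟨X, hX, hXB, hpre⟩ | ⟨X1, g1, X2, g2, e, hT⟩
    · exfalso
      obtain ⟨l, hl, e⟩ := hr
      cases l with
      | nil =>
        rw [List.flatten_nil] at e
        have := congrArg List.length e
        simp only [List.length_append, List.length_nil] at this
        exact hne (List.length_eq_zero_iff.1 (by omega))
      | cons Y l =>
        have hY : Y ∈ D.Bad := hl Y (by simp)
        have p1 : X <+: P' ++ Q ++ r := hpre.trans (List.prefix_append _ _)
        have p2 : Y <+: P' ++ Q ++ r := by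
          rw [← e, List.flatten_cons]; exact List.prefix_append _ _
        rcases List.prefix_or_prefix_of_prefix p1 p2 with h1 | h1
        · exact hXB ((XX_code h X hX Y hY.1 h1).symm ▸ hY)
        · exact hXB ((XX_code h Y hY.1 X hX h1) ▸ hY)
    · refine ⟨[X1, X2], ?_, ?_, ?_⟩
      · intro Y hY
        simp only [List.mem_cons, List.not_mem_nil, or_false] at hY
        rcases hY with rfl | rfl
        · exact g1
        · exact g2
      · simp [e]
      · exact hT
  · intro X hX X' hX' v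
    exact c2 h X hX X' hX' v
  · intro v; exact HL.finite (LP2_fin h v)
  · intro b; exact HL_RQ2 h f b
  · intro v; exact HL.finite (LP1_fin h v)
  · intro b; exact (HL_RQ1 h f b).mono (by omega)
  · intro v v'
    refine ((HL.inf (HL_Bad f) (HL_A h f v v')).mono (by omega)).congr fun X => ?_
    constructor
    · rintro ⟨h1, h2⟩; exact ⟨h1, h1.1, h2⟩
    · rintro ⟨h1, _, h2⟩; exact ⟨h1, h2⟩
  · intro s; exact (HL_tail f s).mono (by omega)

end Crest.Agent.R320.InstB_425
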