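import Crest.Agent.R320.InstA_434

/-!
# Row 320: instance of `Main_621.Data` (helper434), part B: the two schemes
-/

set_option autoImplicit false

namespace Crest.Agent.R320.Inst_434

open Crest.RegLang Crest.Agent.R320.Hk_851 Crest.Agent.R320.Star_621 Crest.Agent.R320.Two_621
open Crest.Agent.R320.ExactR_237

variable {α : Type}

theorem tr {Wo : List α → Prop} {n W : ℕ} (hW : WallAx Wo n W) (P0 P0' Q : List α) (x : ℕ)
    (hx : n ≤ x) (hQ : n ≤ Q.length) :
    Wo ((P0 ++ Q).take (P0.length + x)) ↔ Wo ((P0' ++ Q).take (P0'.length + x)) := by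
  rw [← wo_drop hW (P0 ++ Q) P0.length x hx (by rw [List.length_append]; omega),
    ← wo_drop hW (P0' ++ Q) P0'.length x hx (by rw [List.length_append]; omega),
    List.drop_left, List.drop_left]

theorem shift {Wo : List α → Prop} {n W z N1 : ℕ} {BadT : ℕ → Prop} (hW : WallAx Wo n W)
    (hn : n + 2 * N1 ≤ z) (hz : 0 < z) (P0 P0' Q : List α) (h1 : P0.length ≤ N1)
    (h2 : P0'.length ≤ N1) (hR : P0 ++ Q ∈ Zr Wo z) (hb : P0 ++ Q ∉ Br Wo z N1 BadT) (x : ℕ)
    (hx : Fst Wo z (P0 ++ Q) (P0.length + x)) :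
    Fst Wo z (P0' ++ Q) (P0'.length + x) ∧ P0' ++ Q ∈ Zr Wo z := by
  obtain ⟨t, ht, h5, h6, h7⟩ := hR
  have e := ht.uniq hx
  subst e
  have hb' : ¬ ((∃ s, z ≤ s + N1 ∧ s < z ∧ Wo ((P0 ++ Q).take s)) ∨ P0.length + x < z + N1 ∨
    BadT (P0.length + x)) := fun h => hb ⟨_, hx, h⟩
  push Not at hb'
  obtain ⟨b1, b2, _⟩ := hb'
  obtain ⟨a1, a2, a3, a4⟩ := hx
  rw [List.length_append] at a2 h5
  have hQ : n ≤ Q.length := by omega
  have f1 : Fst Wo z (P0' ++ Q) (P0'.length + x) := by
    refine ⟨by omega, by rw [List.length_append]; omega, (tr hW P0 P0' Q x (by omega) hQ).1 a3, ?_⟩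
    intro s hs1 hs2 hw
    obtain ⟨y, rfl⟩ : ∃ y, s = P0'.length + y := ⟨s - P0'.length, by omega⟩
    rw [← tr hW P0 P0' Q y (by omega) hQ] at hw
    by_cases hlt : P0.length + y < z
    · exact b1 _ (by omega) hlt hw
    · exact a4 _ (by omega) (by omega) hw
  refine ⟨f1, P0'.length + x, f1, by rw [List.length_append]; omega, ?_, ?_⟩
  · rw [hW.loc _ _ hQ]
    exact (hW.loc _ _ hQ).1 h6
  · intro s hs1 hs2 hw
    rw [List.length_append] at hs2
    obtain ⟨y, rfl⟩ : ∃ y, s = P0'.length + y := ⟨s - P0'.length, by omega⟩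
    rw [← tr hW P0 P0' Q y (by omega) hQ] at hw
    exact h7 _ (by omega) (by rw [List.length_append]; omega) hw

open Classical in
/-- position of the first wall `≥ z` -/
noncomputable def tt (Wo : List α → Prop) (z : ℕ) (R : List α) : ℕ :=
  if h : ∃ t, Fst Wo z R t then Classical.choose h else 0

theorem tt_eq {Wo : List α → Prop} {z t : ℕ} {R : List α} (h : Fst Wo z R t) : tt Wo z R = t := by
  have h' : ∃ t, Fst Wo z R t := ⟨t, h⟩
  unfold tt
  rw [dif_pos h']
  exact (Classical.choose_spec h').uniq h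

section A

variable {S : Type} [Monoid S] (f : α → S) (Wo : List α → Prop) (z p0 : ℕ)
  (lam : List α → Option (Tok S)) (nu : List α → Tok S)

noncomputable def dR (R : List α) : Tok S :=
  act (nu (R.take (tt Wo z R))) (pr f (R.drop (tt Wo z R)))

noncomputable def dA (U : List α) : Tok S := dR f Wo z nu (U.drop p0)

def LA (v : Tok S) : Language α := {P | p0 ≤ P.length ∧ lam (P.drop p0) = some (act v (pr f (P.take p0)))}

def RA (τ : Tok S) : Language α :=
  {Q | ∀ v, ∀ P ∈ LA f p0 lam v, P ++ Q ∈ Dp p0 (Zr Wo z) ∧ aff (pr f) (dA f Wo z p0 nu) (P ++ Q) v = τ}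

variable {f Wo z p0 lam nu}

theorem soundA {n W : ℕ} (hW : WallAx Wo n W) (hn : n ≤ z) (hz : 0 < z) (hp : 0 < p0) :
    Sound (Dp p0 (Zr Wo z)) (aff (pr f) (dA f Wo z p0 nu)) (LA f p0 lam) (RA f Wo z p0 lam nu) := by
  refine ⟨fun ω h => ?_, ?_⟩
  · have := h.1
    simp at this
    omega
  · intro ω τ P Q u x y hP hQ hu e
    obtain ⟨h1, h2⟩ := hQ ω P hP
    have e1 := (code hW hn hz).2 _ _ _ _ h1 hu e
    exact ⟨e1, by rw [← e1]; exact h2.symm⟩

theorem cutA {n W N1 : ℕ} {BadT : ℕ → Prop} (hW : WallAx Wo n W) (hn : n + 2 * N1 ≤ z) (hz : 0 < z)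
    (rho : List α → Option (Tok S))
    (hl : ∀ P v, lam P = some v → P.length ≤ N1)
    (hs : ∀ P Q v b, lam P = some v → rho Q = some b → b = act v (pr f (P ++ Q)) + nu (P ++ Q))
    (hc : ∀ Y : List α, z ≤ Y.length → ¬ BadT Y.length → ∀ v, ∃ P Q, P ++ Q = Y ∧ lam P = some v ∧
      (rho Q).isSome)
    (U : List α) (hU : U ∈ Dp p0 (Zr Wo z)) (hb : U.drop p0 ∉ Br Wo z N1 BadT) (v : Tok S) :
    Cut (LA f p0 lam) (RA f Wo z p0 lam nu) v U := by
  obtain ⟨hU1, hU2⟩ := hU
  obtain ⟨t, ht, h5, h6, h7⟩ := id hU2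
  have hbT : ¬ BadT t := fun h => hb ⟨t, ht, Or.inr (Or.inr h)⟩
  have hlen : ((U.drop p0).take t).length = t := by
    rw [List.length_take]; have := ht.2.1; omega
  obtain ⟨P0, Q0, e0, hP0, hQ0⟩ := hc ((U.drop p0).take t) (by rw [hlen]; exact ht.1)
    (by rw [hlen]; exact hbT) (act v (pr f (U.take p0)))
  obtain ⟨b, hb0⟩ := Option.isSome_iff_exists.1 hQ0
  set E := (U.drop p0).drop t with hE
  have eR : U.drop p0 = P0 ++ (Q0 ++ E) := by
    rw [← List.append_assoc, e0, hE, List.take_append_drop]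
  have hPt : P0.length + Q0.length = t := by
    rw [← List.length_append, e0, hlen]
  have hX : (U.take p0).length = p0 := by rw [List.length_take]; omega
  refine ⟨U.take p0 ++ P0, Q0 ++ E, act b (pr f E), ?_, ?_, ?_⟩
  · rw [List.append_assoc, ← eR, List.take_append_drop]
  · refine ⟨by rw [List.length_append]; omega, ?_⟩
    have e1 : (U.take p0 ++ P0).drop p0 = P0 := by
      conv_lhs => rw [← hX]
      rw [hX]
      exact List.drop_left' hX
    have e2 : (U.take p0 ++ P0).take p0 = U.take p0 := List.take_left' hX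
    rw [e1, e2, hP0]
  · intro v' P' hP'
    obtain ⟨hp1, hp2⟩ := hP'
    have d1 : (P' ++ (Q0 ++ E)).drop p0 = P'.drop p0 ++ (Q0 ++ E) :=
      List.drop_append_of_le_length hp1
    have hF : Fst Wo z (P0 ++ (Q0 ++ E)) (P0.length + Q0.length) := by
      rw [hPt, ← eR]; exact ht
    obtain ⟨s1, s2⟩ := shift hW hn hz P0 (P'.drop p0) (Q0 ++ E) (hl _ _ hP0) (hl _ _ hp2)
      (by rw [← eR]; exact hU2) (by rw [← eR]; exact hb) Q0.length hF
    refine ⟨⟨by rw [List.length_append]; omega, by rw [d1]; exact s2⟩, ?_⟩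
    have e3 : (P'.drop p0 ++ (Q0 ++ E)).take ((P'.drop p0).length + Q0.length) = P'.drop p0 ++ Q0 := by
      rw [← List.append_assoc, ← List.length_append, List.take_left]
    have e4 : (P'.drop p0 ++ (Q0 ++ E)).drop ((P'.drop p0).length + Q0.length) = E := by
      rw [← List.append_assoc, ← List.length_append, List.drop_left]
    have e5 : dA f Wo z p0 nu (P' ++ (Q0 ++ E)) = act (nu (P'.drop p0 ++ Q0)) (pr f E) := by
      unfold dA dR
      rw [d1, tt_eq s1, e3, e4]
    have e6 := hs _ _ _ _ hp2 hb0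
    unfold aff
    rw [e5, e6]
    have e7 : pr f (P' ++ (Q0 ++ E)) = pr f (P'.take p0) * (pr f (P'.drop p0 ++ Q0) * pr f E) := by
      rw [← pr_append, ← pr_append, List.append_assoc, ← List.append_assoc (P'.take p0),
        List.take_append_drop]
    rw [e7, act_add, act_mul, act_mul]

end A

section B

variable {S : Type} [Monoid S] (f : α → S) (Wo : List α → Prop) (z p0 : ℕ)
  (lam : List α → Option (Tok S)) (nu : List α → Tok S)

/-- the monoid of scheme B -/
abbrev TT (S : Type) : Type := (Function.End (Option (Tok S)))ᵐᵒᵖ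

def gg (a : α) : TT S := MulOpposite.op (fun o : Option (Tok S) => o.map (fun v => act v (f a)))

open Classical in
noncomputable def HH (R : List α) : TT S :=
  MulOpposite.op (fun o : Option (Tok S) => o.bind fun w =>
    if ∃ P' Q τ, R = P' ++ Q ∧ lam P' = some w ∧ Q ∈ RA f Wo z p0 lam nu τ then none
    else some (act w (pr f R) + dR f Wo z nu R))

theorem gg_unop (X : List α) (o : Option (Tok S)) :
    (pr (gg f) X).unop o = o.map (fun v => act v (pr f X)) := by
  induction X generalizing o with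
  | nil =>
    have e : (pr (gg f) ([] : List α)) = 1 := by simp [pr]
    rw [e]
    have e2 : (fun v : Tok S => act v (pr f ([] : List α))) = id := by
      funext v
      have : pr f ([] : List α) = 1 := by simp [pr]
      rw [this, act_one]; rfl
    rw [e2, Option.map_id]
    rfl
  | cons a X ih =>
    have e : pr (gg f) (a :: X) = gg f a * pr (gg f) X := by simp [pr]
    have e2 : pr f (a :: X) = f a * pr f X := by simp [pr]
    rw [e, e2]
    have e3 : (gg f a * pr (gg f) X).unop o = (pr (gg f) X).unop ((gg f a).unop o) := rfl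
    rw [e3, ih]
    have e4 : (gg f a).unop o = o.map (fun v => act v (f a)) := rfl
    rw [e4, Option.map_map]
    congr 1
    funext v
    simp [act_mul]

theorem th_eq (U : List α) (hU : p0 ≤ U.length) :
    stepA (aff (pr f) (dA f Wo z p0 nu)) (LA f p0 lam) (RA f Wo z p0 lam nu) U =
      pr (gg f) (U.take p0) * HH f Wo z p0 lam nu (U.drop p0) := by
  classical
  apply MulOpposite.unop_injective
  funext o
  have e3 : (pr (gg f) (U.take p0) * HH f Wo z p0 lam nu (U.drop p0)).unop o =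
    (HH f Wo z p0 lam nu (U.drop p0)).unop ((pr (gg f) (U.take p0)).unop o) := rfl
  rw [e3, gg_unop]
  cases o with
  | none => rfl
  | some v =>
    have hX : (U.take p0).length = p0 := by rw [List.length_take]; omega
    have hiff : Cut (LA f p0 lam) (RA f Wo z p0 lam nu) v U ↔
        ∃ P' Q τ, U.drop p0 = P' ++ Q ∧ lam P' = some (act v (pr f (U.take p0))) ∧
          Q ∈ RA f Wo z p0 lam nu τ := by
      constructor
      · rintro ⟨P, Q, τ, e, ⟨h1, h2⟩, h3⟩
        refine ⟨P.drop p0, Q, τ, ?_, ?_, h3⟩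
        · rw [e, List.drop_append_of_le_length h1]
        · rw [h2, e, List.take_append_of_le_length h1]
      · rintro ⟨P', Q, τ, e, h2, h3⟩
        refine ⟨U.take p0 ++ P', Q, τ, ?_, ⟨?_, ?_⟩, h3⟩
        · rw [List.append_assoc, ← e, List.take_append_drop]
        · rw [List.length_append]; omega
        · rw [List.drop_left' hX, List.take_left' hX, h2]
    have hval : aff (pr f) (dA f Wo z p0 nu) U v =
        act (act v (pr f (U.take p0))) (pr f (U.drop p0)) + dR f Wo z nu (U.drop p0) := by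
      unfold aff dA
      rw [act_mul, ← pr_append, List.take_append_drop]
    show (if Cut (LA f p0 lam) (RA f Wo z p0 lam nu) v U then none
      else some (aff (pr f) (dA f Wo z p0 nu) U v)) =
      if ∃ P' Q τ, U.drop p0 = P' ++ Q ∧ lam P' = some (act v (pr f (U.take p0))) ∧
          Q ∈ RA f Wo z p0 lam nu τ then none
      else some (act (act v (pr f (U.take p0))) (pr f (U.drop p0)) + dR f Wo z nu (U.drop p0))
    rw [hval]
    by_cases h : Cut (LA f p0 lam) (RA f Wo z p0 lam nu) v U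
    · rw [if_pos h, if_pos (hiff.1 h)]
    · rw [if_neg h, if_neg (fun h' => h (hiff.2 h'))]

variable (N1 : ℕ) (BadT : ℕ → Prop) (K : ℕ) (c : ℕ → ℕ)
  (lam2 : ℕ → List α → Option (Tok (TT S))) (rho2 : ℕ → List α → TT S → Option (Tok (TT S)))
  (nu2 : List α → TT S → Tok (TT S))

noncomputable def dB (U : List α) : Tok (TT S) := nu2 (U.take p0) (HH f Wo z p0 lam nu (U.drop p0))

def LB (v : Tok (TT S)) : Language α := {P | ∃ k < K, P.length = c k ∧ lam2 k P = some v}

def RB (τ : Tok (TT S)) : Language α :=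
  {Q | ∃ k < K, Q.drop (p0 - c k) ∈ Zr Wo z ∧ Q.drop (p0 - c k) ∈ Br Wo z N1 BadT ∧
    (∀ k' < K, Q.drop (p0 - c k') ∈ Br Wo z N1 BadT → k' = k) ∧
    rho2 k (Q.take (p0 - c k)) (HH f Wo z p0 lam nu (Q.drop (p0 - c k))) = some τ}

/-- critical zones -/
def Zc : Language α := {U | U ∈ Dp p0 (Zr Wo z) ∧ U.drop p0 ∈ Br Wo z N1 BadT}

theorem soundB {n W : ℕ} (hW : WallAx Wo n W) (hn : n + N1 ≤ z) (hz : 0 < z) (hpW : p0 ≤ W)
    (hc0 : ∀ k < K, 0 < c k) (hcp : ∀ k < K, c k ≤ p0)
    (hs2 : ∀ k < K, ∀ (P Q : List α) (y : TT S) v b, P.length = c k →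
      lam2 k P = some v → rho2 k Q y = some b → b = act v (pr (gg f) (P ++ Q) * y) + nu2 (P ++ Q) y) :
    Sound (Zc Wo z p0 N1 BadT)
      (aff (stepA (aff (pr f) (dA f Wo z p0 nu)) (LA f p0 lam) (RA f Wo z p0 lam nu))
        (dB f Wo z p0 lam nu nu2))
      (LB K c lam2) (RB f Wo z p0 lam nu N1 BadT K c rho2) := by
  constructor
  · rintro ω ⟨k, hk, h1, _⟩
    have := hc0 k hk
    simp at h1
    omega
  · rintro ω τ P Q u x y ⟨k', hk', hP1, hP2⟩ ⟨k, hk, q1, q2, q3, q4⟩ ⟨⟨hu1, hu2⟩, hu3⟩ e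
    have hck := hcp k hk
    have hck' := hcp k' hk'
    have dk : ∀ m, m ≤ p0 → Q.drop (p0 - m) = (P ++ Q).drop (c k' + p0 - m) := by
      intro m hm
      rw [drop_right P Q _ (by omega)]
      congr 1
      omega
    -- the end of `P ++ Q` is a wall far away
    have hU := q1
    rw [dk _ hck, zr_drop hW (by omega) hz] at hU
    obtain ⟨τ1, ⟨a1, a2, a3, a4⟩, a5, a6, a7⟩ := hU
    have hbig : τ1 + W < (P ++ Q).length := by
      by_contra hcon
      apply hW.gap (P ++ Q) ((P ++ Q).length - τ1) a6 (by omega) (by omega)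
      have : (P ++ Q).length - ((P ++ Q).length - τ1) = τ1 := by omega
      rw [this]; exact a3
    have hzr := hu2
    have hbr := hu3
    rw [zr_drop hW (by omega) hz] at hzr
    rw [br_drop hW hn hz] at hbr
    obtain ⟨t0, ⟨b1, b2, b3, b4⟩, b5⟩ := hbr
    have key : ∀ s, s ≤ (P ++ Q).length → s ≤ u.length → (P ++ Q).take s = u.take s := by
      intro s hs1 hs2
      have e1 : (P ++ Q ++ x).take s = (u ++ y).take s := by rw [e]
      rwa [List.take_append_of_le_length hs1, List.take_append_of_le_length hs2] at e1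
    have ht0 : t0 ≤ (P ++ Q).length := by
      by_contra hcon
      have e2 := key (P ++ Q).length le_rfl (by omega)
      rw [List.take_length] at e2
      exact b4 (P ++ Q).length (by omega) (by omega) (e2 ▸ a6)
    have hbad : (P ++ Q).drop p0 ∈ Br Wo z N1 BadT := by
      rw [br_drop hW hn hz]
      refine ⟨t0, ⟨b1, ht0, by rw [key t0 ht0 b2]; exact b3, ?_⟩, ?_⟩
      · intro s hs1 hs2
        rw [key s (by omega) (by omega)]
        exact b4 s hs1 hs2
      · rcases b5 with ⟨s, hs1, hs2, hs3⟩ | h | h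
        · exact Or.inl ⟨s, hs1, hs2, by rw [key s (by omega) (by omega)]; exact hs3⟩
        · exact Or.inr (Or.inl h)
        · exact Or.inr (Or.inr h)
    have hkk : k' = k := by
      apply q3 k' hk'
      rw [dk _ hck']
      have : c k' + p0 - c k' = p0 := by omega
      rw [this]; exact hbad
    subst hkk
    have ep : c k' + p0 - c k' = p0 := by omega
    have hUZ : P ++ Q ∈ Dp p0 (Zr Wo z) := by
      refine ⟨by omega, ?_⟩
      have := q1
      rw [dk _ hck', ep] at this
      exact this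
    have e1 := (code hW (by omega : n ≤ z) hz).2 _ _ _ _ hUZ ⟨hu1, hu2⟩ e
    refine ⟨e1, ?_⟩
    have v1 := hs2 k' hk P _ _ _ _ hP1 hP2 q4
    have t1 : (P ++ Q).take p0 = P ++ Q.take (p0 - c k') := by
      rw [List.take_append, List.take_of_length_le (by omega), hP1]
    have t2 : (P ++ Q).drop p0 = Q.drop (p0 - c k') := by rw [dk _ hck', ep]
    rw [← e1]
    show τ = act ω (stepA (aff (pr f) (dA f Wo z p0 nu)) (LA f p0 lam) (RA f Wo z p0 lam nu) (P ++ Q)) +
      nu2 ((P ++ Q).take p0) (HH f Wo z p0 lam nu ((P ++ Q).drop p0))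
    rw [th_eq f Wo z p0 lam nu (P ++ Q) hUZ.1, t1, t2]
    exact v1

end B

end Crest.Agent.R320.Inst_434
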