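import Mathlib
import Crest.Agent.R320.InstA_443
import Crest.Agent.R320.Top5_467
import Crest.Agent.R320.FewVal_228
import Crest.Agent.R320.Reg_852

/-!
Row 320 (helper443): heights for the natural chain, and the row from the zone gadget.
-/

set_option autoImplicit false

namespace Crest.Agent.R320.InstB_443

open Crest.RegLang Crest.Agent.R320.Hk_851 Crest.Agent.R320.FewWalls_228
  Crest.Agent.R320.ExactR_237 Crest.Agent.R320.Sch2_443 Crest.Agent.R320.InstA_443

variable {α S V : Type}

def bex {ι : Type*} (s : Set ι) (L : ι → Language α) : Language α := {w | ∃ i ∈ s, w ∈ L i}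

theorem reg_bex {ι : Type*} {s : Set ι} (hs : s.Finite) {L : ι → Language α}
    (h : ∀ i ∈ s, (L i).IsRegular) : (bex s L).IsRegular := by
  induction s, hs using Set.Finite.induction_on with
  | empty =>
    have e : bex (∅ : Set ι) L = (0 : Language α) := by
      ext w
      constructor
      · rintro ⟨i, hi, -⟩; exact absurd hi (Set.notMem_empty i)
      · intro h; exact absurd h (Language.notMem_zero w)
    rw [e]; exact Reg_852.isRegular_zero
  | insert ha hs ih =>
    rename_i a s
    have e : bex (insert a s) L = L a + bex s L := by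
      ext w
      rw [Language.mem_add]
      constructor
      · rintro ⟨i, hi, hw⟩
        rcases Set.mem_insert_iff.1 hi with rfl | hi
        · exact Or.inl hw
        · exact Or.inr ⟨i, hi, hw⟩
      · rintro (hw | ⟨i, hi, hw⟩)
        · exact ⟨a, Set.mem_insert _ _, hw⟩
        · exact ⟨i, Set.mem_insert_of_mem _ hi, hw⟩
    rw [e]
    exact (h a (Set.mem_insert _ _)).add (ih fun i hi => h i (Set.mem_insert_of_mem _ hi))

theorem reg_congr {L M : Language α} (h : L.IsRegular) (e : ∀ w, w ∈ M ↔ w ∈ L) :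
    M.IsRegular := by
  have : M = L := by ext w; exact e w
  rw [this]; exact h

theorem reg_ball {ι : Type*} {s : Set ι} (hs : s.Finite) {L : ι → Language α}
    (h : ∀ i ∈ s, (L i).IsRegular) :
    Language.IsRegular ({w | ∀ i ∈ s, w ∈ L i} : Language α) := by
  refine reg_congr (reg_bex hs fun i hi => (h i hi).compl).compl fun w => ?_
  constructor
  · intro h1 h2
    obtain ⟨i, hi, h3⟩ := h2
    exact h3 (h1 i hi)
  · intro h1 i hi
    by_contra h2
    exact h1 ⟨i, hi, h2⟩

theorem reg_quot {L : Language α} (h : L.IsRegular) (p : List α) :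
    Language.IsRegular ({q | p ++ q ∈ L} : Language α) := by
  refine Language.IsRegular.of_finite_range_leftQuotient
    (h.finite_range_leftQuotient.subset ?_)
  rintro _ ⟨w, rfl⟩
  refine ⟨p ++ w, ?_⟩
  rw [Language.leftQuotient_append]
  rfl

def toL (s : Set (List α)) : Language α := s

theorem reg_finite {s : Set (List α)} (hs : s.Finite) : (toL s).IsRegular :=
  Reg_852.HL.isRegular (HL.finite (k := 0) hs)

theorem reg_top : (⊤ : Language α).IsRegular := Reg_852.HL.isRegular (HL.top (k := 0))

theorem reg_const (p : Prop) : Language.IsRegular ({_w | p} : Language α) :=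
  Reg_852.HL.isRegular (HL.const (k := 0) p)

/-- periodic conditions on the length -/
theorem reg_len {BG : ℕ → Prop} {Pm : ℕ} (hP : 0 < Pm) (hper : ∀ T, BG (T + Pm) ↔ BG T) :
    Language.IsRegular ({w | BG w.length} : Language α) := by
  have hper' : ∀ k T, BG (T + k * Pm) ↔ BG T := by
    intro k
    induction k with
    | zero => intro T; simp
    | succ k ih => intro T; rw [Nat.succ_mul, ← Nat.add_assoc, hper, ih]
  refine Reg_852.isRegular_of_forall_mem
    (T := (fun i : ℕ => ({w | BG (i + w.length)} : Language α)) '' (Set.Iio Pm))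
    ((Set.finite_Iio Pm).image _) fun w => ⟨w.length % Pm, Nat.mod_lt _ hP, ?_⟩
  ext x
  show BG (w.length % Pm + x.length) ↔ BG (w ++ x).length
  rw [List.length_append]
  have h1 := Nat.mod_add_div w.length Pm
  have h2 := hper' (w.length / Pm) (w.length % Pm + x.length)
  rw [← h2]
  have e : w.length % Pm + x.length + w.length / Pm * Pm = w.length + x.length := by
    rw [Nat.mul_comm]; omega
  rw [e]

section walls

variable (n : ℕ) (Sw : Set (List α))

/-- left-looking wall at the end of `X` -/
def Wo (X : List α) : Prop := n ≤ X.length ∧ Wl n Sw X (X.length - n)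

variable {n Sw}

theorem hloc (P Q : List α) (h : n ≤ Q.length) : Wo n Sw (P ++ Q) ↔ Wo n Sw Q := by
  have e : (P ++ Q).drop (P.length + Q.length - n) = Q.drop (Q.length - n) := by
    rw [List.drop_append, List.drop_eq_nil_of_le (by omega), List.nil_append]
    congr 1; omega
  unfold Wo Wl
  rw [List.length_append, e]
  constructor
  · rintro ⟨h1, h2, h3⟩; exact ⟨h, by omega, h3⟩
  · rintro ⟨h1, h2, h3⟩; exact ⟨by omega, by omega, h3⟩

theorem hgap {W : ℕ} (hsep : ∀ (w : List α) (x y : ℕ), x < y → Wl n Sw w x → Wl n Sw w y →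
    x + W ≤ y) (X : List α) (s t : ℕ) (hst : s < t) (ht : t ≤ X.length)
    (h1 : Wo n Sw (X.take s)) (h2 : Wo n Sw (X.take t)) : s + W ≤ t := by
  obtain ⟨a1, a2⟩ := h1
  obtain ⟨b1, b2⟩ := h2
  rw [List.length_take] at a1 a2 b1 b2
  have e1 : min s X.length = s := by omega
  have e2 : min t X.length = t := by omega
  rw [e1] at a1 a2
  rw [e2] at b1 b2
  have := hsep X (s - n) (t - n) (by omega) (wl_take a2).1 (wl_take b2).1
  omega

theorem wo_of_wl {w : List α} {x : ℕ} (h : Wl n Sw w x) : Wo n Sw (w.take (x + n)) := by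
  obtain ⟨h1, h2⟩ := h
  have e : (w.take (x + n)).length = x + n := by rw [List.length_take]; omega
  refine ⟨by omega, ?_⟩
  rw [e, Nat.add_sub_cancel]
  refine ⟨by omega, ?_⟩
  rw [List.drop_take, Nat.add_sub_cancel_left, List.take_take, min_self]
  exact h2

theorem nw_le_of {w : List α} {z : ℕ} (h : ∀ t, z ≤ t → t < w.length → ¬ Wo n Sw (w.take t)) :
    nw n Sw w ≤ z + 1 := by
  classical
  unfold nw
  refine (Finset.card_le_card (t := insert (w.length - n) (Finset.range z)) ?_).trans
    ((Finset.card_insert_le _ _).trans (by rw [Finset.card_range]))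
  intro x hx
  rw [Finset.mem_filter] at hx
  rw [Finset.mem_insert, Finset.mem_range]
  have h1 := wo_of_wl hx.2
  have h2 := hx.2.1
  by_contra hcon
  push Not at hcon
  exact h (x + n) (by omega) (by omega) h1

theorem nw_append_right (P Q : List α) : nw n Sw Q ≤ nw n Sw (P ++ Q) := by
  classical
  unfold nw
  refine Finset.card_le_card_of_injOn (fun x => P.length + x) ?_ (fun a _ b _ h => by
    simpa using h)
  intro x hx
  rw [Finset.mem_coe, Finset.mem_filter] at hx ⊢
  have h0 : (P ++ Q).drop P.length = Q := List.drop_left' rfl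
  have h1 : Wl n Sw (P ++ Q) (P.length + x) :=
    (wl_drop (w := P ++ Q) (m := P.length) (by rw [List.length_append]; omega)).1
      (by rw [h0]; exact hx.2)
  refine ⟨?_, h1⟩
  rw [Finset.mem_range]
  have := h1.1
  show P.length + x < _
  omega

theorem nw_two {X X2 : List α} {z : ℕ} (h : ∀ t, z ≤ t → t < X.length → ¬ Wo n Sw (X.take t))
    (h2 : ∀ t, z ≤ t → t < X2.length → ¬ Wo n Sw (X2.take t)) :
    nw n Sw (X ++ X2) ≤ 2 * z + n + 2 := by
  classical
  unfold nw
  refine (Finset.card_le_card (t := (Finset.range z ∪ Finset.Icc (X.length - n) X.length) ∪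
    ((Finset.range z).image (fun x => X.length + x) ∪ {X.length + X2.length - n})) ?_).trans ?_
  · intro x hx
    rw [Finset.mem_filter] at hx
    obtain ⟨-, hx⟩ := hx
    have hxl := hx.1
    rw [List.length_append] at hxl
    rw [Finset.mem_union, Finset.mem_union, Finset.mem_union, Finset.mem_range, Finset.mem_Icc,
      Finset.mem_image, Finset.mem_singleton]
    by_contra hcon
    push Not at hcon
    obtain ⟨⟨c1, c2⟩, c3, c4⟩ := hcon
    rcases le_or_gt (x + n) X.length with hx1 | hx1
    · have h3 := wo_of_wl hx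
      rw [List.take_append_of_le_length hx1] at h3
      have h4 : ¬ (X.length - n ≤ x ∧ x ≤ X.length) := fun h5 => by
        have := c2 h5.1
        omega
      exact h (x + n) (by omega) (by omega) h3
    · have h4 : ¬ (X.length - n ≤ x ∧ x ≤ X.length) := fun h5 => by
        have := c2 h5.1
        omega
      obtain ⟨x', rfl⟩ : ∃ x', x = X.length + x' := ⟨x - X.length, by omega⟩
      have h5 := (wl_drop (w := X ++ X2) (m := X.length) (by rw [List.length_append]; omega)).2 hx
      rw [List.drop_left' rfl] at h5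
      have h6 := wo_of_wl h5
      have h7 : z ≤ x' := by
        by_contra h8
        exact c3 x' (Finset.mem_range.2 (by omega)) rfl
      exact h2 (x' + n) (by omega) (by omega) h6
  · refine (Finset.card_union_le _ _).trans ?_
    have e1 := Finset.card_union_le (Finset.range z) (Finset.Icc (X.length - n) X.length)
    have e2 := Finset.card_union_le ((Finset.range z).image (fun x => X.length + x))
      {X.length + X2.length - n}
    have e3 : ((Finset.range z).image (fun x => X.length + x)).card ≤ z :=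
      Finset.card_image_le.trans (by rw [Finset.card_range])
    rw [Finset.card_range, Nat.card_Icc] at e1
    rw [Finset.card_singleton] at e2
    omega

end walls

section reg

variable [Finite α] {n : ℕ} {Sw : Set (List α)}

def LWo (n : ℕ) (Sw : Set (List α)) : Language α := {X | Wo n Sw X}

theorem reg_wo (hS : ∀ s ∈ Sw, s.length = n) : (LWo n Sw).IsRegular := by
  have hfin : Sw.Finite := (List.finite_length_eq α n).subset fun s hs => hS s hs
  refine reg_congr (Reg_852.IsRegular.mul reg_top (reg_finite hfin)) fun X => ?_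
  rw [Language.mem_mul]
  constructor
  · rintro ⟨h1, h2, h3⟩
    rw [List.take_of_length_le (by rw [List.length_drop]; omega)] at h3
    exact ⟨X.take (X.length - n), trivial, _, h3, List.take_append_drop _ _⟩
  · rintro ⟨P, -, Q, hQ, rfl⟩
    have h1 := hS Q hQ
    refine (hloc P Q h1.ge).2 ⟨h1.ge, ?_⟩
    refine ⟨by omega, ?_⟩
    rw [h1, Nat.sub_self, List.drop_zero, List.take_of_length_le h1.le]
    exact hQ

def LA0 (n : ℕ) (Sw : Set (List α)) (z : ℕ) : Language α := {X | z ≤ X.length ∧ Wo n Sw X}

theorem reg_a0 (hS : ∀ s ∈ Sw, s.length = n) (z : ℕ) : (LA0 n Sw z).IsRegular :=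
  reg_congr ((Reg_852.HL.isRegular (HL.length_ge (k := 0) z)).inf (reg_wo hS)) fun _ => Iff.rfl

def LX (n : ℕ) (Sw : Set (List α)) (z : ℕ) : Language α := XX (Wo n Sw) z

theorem reg_xx (hS : ∀ s ∈ Sw, s.length = n) (z : ℕ) : (LX n Sw z).IsRegular := by
  have h1 := reg_a0 hS z
  refine reg_congr (h1.inf (Reg_852.IsRegular.mul h1 Reg_852.isRegular_one.compl).compl)
    fun X => ?_
  constructor
  · rintro ⟨h1, h2, h3⟩
    refine ⟨⟨h1, h2⟩, fun h4 => ?_⟩
    obtain ⟨P, hP, Q, hQ, rfl⟩ := Language.mem_mul.1 h4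
    have hQ' : Q ≠ [] := fun h => hQ (by rw [h]; exact Language.nil_mem_one)
    have := List.length_pos_iff.2 hQ'
    refine h3 P.length hP.1 (by rw [List.length_append]; omega) ?_
    rw [List.take_left' rfl]
    exact hP.2
  · rintro ⟨⟨h1, h2⟩, h3⟩
    refine ⟨h1, h2, fun t ht ht2 hW => h3 ?_⟩
    refine Language.mem_mul.2 ⟨X.take t, ⟨by rw [List.length_take]; omega, hW⟩, X.drop t, ?_,
      List.take_append_drop _ _⟩
    intro h4
    have h5 : X.drop t = [] := h4
    have h6 := congrArg List.length h5
    rw [List.length_drop, List.length_nil] at h6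
    omega

def LB (n : ℕ) (Sw : Set (List α)) (z N1 p0 : ℕ) (BG : ℕ → Prop) : Language α :=
  {X | X ∈ XX (Wo n Sw) z ∧ BadX (Wo n Sw) z N1 p0 BG X}

theorem reg_bad (hS : ∀ s ∈ Sw, s.length = n) {z N1 p0 Pm : ℕ} {BG : ℕ → Prop} (hP : 0 < Pm)
    (hper : ∀ T, BG (T + Pm) ↔ BG T) (hz : p0 ≤ z) : (LB n Sw z N1 p0 BG).IsRegular := by
  have hF : ({u | z ≤ u.length + N1 ∧ u.length < z + N1 ∧ Wo n Sw u} : Set (List α)).Finite :=
    (List.finite_length_lt α (z + N1)).subset fun u hu => hu.2.1
  have hU : ({u | u.length = p0} : Set (List α)).Finite := List.finite_length_eq α p0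
  refine reg_congr ((reg_xx hS z).inf ((Reg_852.IsRegular.mul (reg_finite hF) reg_top).add
    (Reg_852.IsRegular.mul (reg_finite hU) (reg_len hP hper)))) fun X => ?_
  constructor
  · rintro ⟨h1, h2⟩
    refine ⟨h1, ?_⟩
    rcases h2 with ⟨t, h3, h4, h5, h6⟩ | h2
    · left
      have e : (X.take t).length = t := by rw [List.length_take]; omega
      exact Language.mem_mul.2 ⟨X.take t, ⟨by rw [e]; exact h3, by rw [e]; exact h4, h6⟩,
        X.drop t, trivial, List.take_append_drop _ _⟩
    · right
      have := h1.1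
      refine Language.mem_mul.2 ⟨X.take p0, ?_, X.drop p0, ?_, List.take_append_drop _ _⟩
      · show (X.take p0).length = p0
        rw [List.length_take]; omega
      · show BG (X.drop p0).length
        rw [List.length_drop]; exact h2
  · rintro ⟨h1, h2⟩
    refine ⟨h1, ?_⟩
    rcases h2 with h2 | h2
    · obtain ⟨P, hP1, Q, -, rfl⟩ := Language.mem_mul.1 h2
      obtain ⟨h3, h4, h5⟩ := hP1
      left
      refine ⟨P.length, h3, h4, by rw [List.length_append]; omega, ?_⟩
      rw [List.take_left' rfl]
      exact h5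
    · obtain ⟨P, hP1, Q, hQ, rfl⟩ := Language.mem_mul.1 h2
      right
      have h3 : P.length = p0 := hP1
      rw [List.length_append, h3, Nat.add_sub_cancel_left]
      exact hQ

end reg

section fib

variable [Finite α] [Monoid S] [Finite S] [AddCommGroup V] [Finite V] {n : ℕ}
  {Sw : Set (List α)} (f : α → S) (act : V → S → V) (nu2 nu1 : List α → V)

def LT (n : ℕ) (Sw : Set (List α)) (z p0 : ℕ) (v v' : V) : Language α :=
  {X | X ∈ XX (Wo n Sw) z ∧ TT f act nu2 nu1 p0 X v = v'}

theorem reg_T (hS : ∀ s ∈ Sw, s.length = n) {z p0 : ℕ} (hz : p0 ≤ z)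
    (hnu : ∀ b, Language.IsRegular ({Y | nu1 Y = b} : Language α)) (v v' : V) :
    (LT f act nu2 nu1 n Sw z p0 v v').IsRegular := by
  have hI : ({q | q.1.length = p0 ∧ act (act v (pr f q.1) + nu2 q.1) q.2.1 + q.2.2 = v'} :
      Set (List α × (S × V))).Finite := by
    refine (((List.finite_length_eq α p0).prod (Set.finite_univ (α := S × V)))).subset ?_
    rintro ⟨u, s, b⟩ ⟨h1, -⟩
    exact ⟨h1, trivial⟩
  have h0 : ∀ q : List α × (S × V), (toL {q.1} *
      (toL {Y | (Y.map f).prod = q.2.1} ⊓ toL {Y | nu1 Y = q.2.2})).IsRegular :=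
    fun q => Reg_852.IsRegular.mul (reg_finite (Set.finite_singleton q.1))
      (Language.IsRegular.inf (Reg_852.isRegular_prod f q.2.1) (hnu q.2.2))
  refine reg_congr ((reg_xx hS z).inf (reg_bex hI (fun q _ => h0 q))) fun X => ?_
  constructor
  · rintro ⟨h1, h2⟩
    refine ⟨h1, (X.take p0, (pr f (X.drop p0), nu1 (X.drop p0))), ⟨?_, h2⟩, ?_⟩
    · show (X.take p0).length = p0
      have := h1.1
      rw [List.length_take]; omega
    · exact Language.mem_mul.2 ⟨X.take p0, rfl, X.drop p0, ⟨rfl, rfl⟩, List.take_append_drop _ _⟩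
  · rintro ⟨h1, ⟨u, s, b⟩, ⟨h2, h3⟩, h4⟩
    refine ⟨h1, ?_⟩
    obtain ⟨P, hP, Q, ⟨hQ1, hQ2⟩, rfl⟩ := Language.mem_mul.1 h4
    have hP' : P = u := hP
    subst hP'
    have h2' : P.length = p0 := h2
    unfold TT
    rw [List.take_left' h2', List.drop_left' h2']
    have e1 : pr f Q = s := hQ1
    have e2 : nu1 Q = b := hQ2
    rw [e1, e2]
    exact h3

end fib

end Crest.Agent.R320.InstB_443
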