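import Crest.Agent.R320.InstA_510

/-!
# Row 320: completeness of scheme 2 (promise ruler), natural chain rule (helper510)
-/

set_option autoImplicit false
set_option linter.unusedSectionVars false

namespace Crest.Agent.R320.InstA_510

open Crest.Agent.R320.Hk_851 Crest.Agent.R320.Code110

universe u

variable {α : Type u} {S V : Type*} [Monoid S] [AddCommGroup V]

namespace Dt

/-- a word `Q` which is the rest (behind a cut at distance `s`) of a bad block -/
def BB (D : Dt α S V) (s : ℕ) (Q : List α) : Prop :=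
  (D.z ≤ s + Q.length ∧ D.Wo Q ∧ ∀ t, D.z ≤ s + t → t < Q.length → ¬ D.Wo (Q.take t)) ∧
    ((∃ t, t ≤ Q.length ∧ D.Wo (Q.take t) ∧ D.z ≤ s + t + D.N ∧ s + t ≤ D.z + D.N) ∨
      D.BadT (s + Q.length - D.p0))

variable {D : Dt α S V}

theorem bad_app (h : D.Ok) {P Q : List α} (hP : P.length + D.N + D.n < D.z) :
    P ++ Q ∈ D.Bad ↔ D.BB P.length Q := by
  have e : D.Eb (P ++ Q) ↔ ∃ t, t ≤ Q.length ∧ D.Wo (Q.take t) ∧ D.z ≤ P.length + t + D.N ∧
      P.length + t ≤ D.z + D.N := by
    constructor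
    · rintro ⟨t, h1, h2, h3, h4⟩
      rw [List.length_append] at h1
      obtain ⟨s, rfl⟩ := Nat.exists_eq_add_of_le (show P.length ≤ t by omega)
      exact ⟨s, by omega, (wo_take h (by omega) (by omega)).1 h2, h3, h4⟩
    · rintro ⟨t, h1, h2, h3, h4⟩
      exact ⟨P.length + t, by rw [List.length_append]; omega,
        (wo_take h (by omega) h1).2 h2, h3, h4⟩
  change (P ++ Q ∈ D.XX ∧ (D.Eb (P ++ Q) ∨ D.BadT ((P ++ Q).length - D.p0))) ↔ _
  rw [mem_XX_app h (by omega), e, List.length_append]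
  rfl

theorem first (p : ℕ → Prop) (d : ℕ) :
    ∃ m, (∀ τ, p τ → m ≤ τ) ∧ ((∃ τ, p τ) → p m) ∧ (¬ (∃ τ, p τ) → m = d) := by
  classical
  by_cases hp : ∃ τ, p τ
  · exact ⟨Nat.find hp, fun τ hτ => Nat.find_min' hp hτ, fun _ => Nat.find_spec hp,
      fun h => absurd hp h⟩
  · exact ⟨d, fun τ hτ => absurd ⟨τ, hτ⟩ hp, fun h => absurd h hp, fun _ => rfl⟩

/-- the spoiling count -/
theorem spoil (h : D.Ok) (U : List α) : ∃ Sp : Finset ℕ, Sp.card ≤ 2 * D.C0 + 1 ∧
    ∀ k < D.K, k ∉ Sp → ∀ k' < D.K, k' ≠ k → ∀ r, r ≤ (U.drop (D.c k)).length →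
      ¬ D.BB (D.c k') ((U.drop (D.c k)).take r) := by
  classical
  have hz := h.hz
  have hW := h.hW
  obtain ⟨ra, a1, a2, a3⟩ := first (fun τ => τ ≤ U.length ∧ D.Wo (U.take τ) ∧ D.z ≤ τ + D.p0) D.z
  obtain ⟨rb, b1, b2, b3⟩ := first (fun τ => τ ≤ U.length ∧ D.Wo (U.take τ) ∧ ra < τ) D.z
  have ha : D.z ≤ ra + D.p0 := by
    by_cases hc : ∃ τ, τ ≤ U.length ∧ D.Wo (U.take τ) ∧ D.z ≤ τ + D.p0
    · exact (a2 hc).2.2
    · rw [a3 hc]; omega
  have hb : D.z ≤ rb + D.p0 := by
    by_cases hc : ∃ τ, τ ≤ U.length ∧ D.Wo (U.take τ) ∧ ra < τ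
    · have := (b2 hc).2.2
      omega
    · rw [b3 hc]; omega
  let Pr : Finset (ℕ × ℕ) := Finset.range D.K ×ˢ Finset.range D.K
  let E : Finset (ℕ × ℕ) := Pr.filter fun p => p.1 ≠ p.2 ∧ ∃ τ, τ ≤ U.length ∧ D.Wo (U.take τ) ∧
    D.z + D.c p.1 ≤ τ + D.c p.2 + D.N ∧ τ + D.c p.2 ≤ D.z + D.N + D.c p.1
  let Ba : Finset (ℕ × ℕ) := Pr.filter fun p => p.1 ≠ p.2 ∧
    D.BadT ((ra - D.p0) + D.c p.2 - D.c p.1)
  let Bb : Finset (ℕ × ℕ) := Pr.filter fun p => p.1 ≠ p.2 ∧
    D.BadT ((rb - D.p0) + D.c p.2 - D.c p.1)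
  have hPr : ∀ p, p ∈ Pr ↔ p.1 < D.K ∧ p.2 < D.K := by
    intro p
    simp only [Pr, Finset.mem_product, Finset.mem_range]
  have hE : E.card ≤ 1 := by
    rw [Finset.card_le_one]
    intro a haE b hbE
    obtain ⟨p1, q1, τ1, w1, w2, w3, w4⟩ := Finset.mem_filter.1 haE
    obtain ⟨p2, q2, τ2, v1, v2, v3, v4⟩ := Finset.mem_filter.1 hbE
    have ka := (hPr a).1 p1
    have kb := (hPr b).1 p2
    have c1 := h.cp _ ka.1
    have c2 := h.cp _ ka.2
    have c3 := h.cp _ kb.1
    have c4 := h.cp _ kb.2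
    have hτ : τ1 = τ2 := by
      rcases lt_trichotomy τ1 τ2 with h1 | h1 | h1
      · have := h.hgap U τ1 τ2 h1 v1 w2 v2
        omega
      · exact h1
      · have := h.hgap U τ2 τ1 h1 w1 v2 w2
        omega
    subst hτ
    by_contra hab
    have := h.gol a.1 a.2 b.1 b.2 ka.1 ka.2 kb.1 kb.2 q1 q2 hab
    omega
  have hBa : Ba.card ≤ D.C0 := by
    refine h.cnt (ra - D.p0) (fun i hi => ?_) Ba fun p hp => ?_
    · have := h.cp i hi
      omega
    · obtain ⟨p1, q1, q2⟩ := Finset.mem_filter.1 hp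
      exact ⟨((hPr p).1 p1).1, ((hPr p).1 p1).2, q1, q2⟩
  have hBb : Bb.card ≤ D.C0 := by
    refine h.cnt (rb - D.p0) (fun i hi => ?_) Bb fun p hp => ?_
    · have := h.cp i hi
      omega
    · obtain ⟨p1, q1, q2⟩ := Finset.mem_filter.1 hp
      exact ⟨((hPr p).1 p1).1, ((hPr p).1 p1).2, q1, q2⟩
  refine ⟨((E ∪ Ba) ∪ Bb).image Prod.fst, ?_, ?_⟩
  · refine Finset.card_image_le.trans ((Finset.card_union_le _ _).trans ?_)
    have := Finset.card_union_le E Ba
    omega
  · intro k hk hkS k' hk' hne r hr hBB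
    apply hkS
    rw [Finset.mem_image]
    refine ⟨(k, k'), ?_, rfl⟩
    have ck := h.cp k hk
    have ck' := h.cp k' hk'
    obtain ⟨⟨g1, g2, g3⟩, g4⟩ := hBB
    have hlr : ((U.drop (D.c k)).take r).length = r := by
      rw [List.length_take]; omega
    rw [hlr] at g1 g3 g4
    rw [List.length_drop] at hr
    have hkr : D.c k + r ≤ U.length := by omega
    -- walls of `U`
    have key : ∀ t, t ≤ r → (D.Wo (((U.drop (D.c k)).take r).take t) → D.Wo (U.take (D.c k + t))) ∧
        (D.n ≤ t → D.Wo (U.take (D.c k + t)) → D.Wo (((U.drop (D.c k)).take r).take t)) := by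
      intro t ht
      rw [List.take_take, min_eq_left ht]
      constructor
      · intro hw
        have hnt := n_le h hw
        exact (wo_drop h hnt (by omega)).1 hw
      · intro hnt hw
        exact (wo_drop h hnt (by omega)).2 hw
    have hρ : D.Wo (U.take (D.c k + r)) := by
      have hnr : D.n ≤ r := n_le h g2
      exact (wo_drop h hnr hkr).1 g2
    rcases g4 with ⟨t, t1, t2, t3, t4⟩ | g4
    · rw [Finset.mem_union, Finset.mem_union]
      left; left
      rw [Finset.mem_filter]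
      exact ⟨(hPr _).2 ⟨hk, hk'⟩, hne.symm, D.c k + t, by omega, (key t t1).1 t2, by
        change D.z + D.c k ≤ D.c k + t + D.c k' + D.N
        omega, by
        change D.c k + t + D.c k' ≤ D.z + D.N + D.c k
        omega⟩
    · have hra : ra ≤ D.c k + r := a1 _ ⟨hkr, hρ, by omega⟩
      rcases eq_or_lt_of_le hra with e | hlt
      · rw [Finset.mem_union, Finset.mem_union]
        left; right
        rw [Finset.mem_filter]
        refine ⟨(hPr _).2 ⟨hk, hk'⟩, hne.symm, ?_⟩
        change D.BadT ((ra - D.p0) + D.c k' - D.c k)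
        have : (ra - D.p0) + D.c k' - D.c k = D.c k' + r - D.p0 := by omega
        rw [this]; exact g4
      · obtain ⟨w1, w2, w3⟩ := a2 ⟨_, hkr, hρ, by omega⟩
        obtain ⟨v1, v2, v3⟩ := b2 ⟨_, hkr, hρ, hlt⟩
        have hrb : rb ≤ D.c k + r := b1 _ ⟨hkr, hρ, hlt⟩
        have hgap := h.hgap U ra rb v3 v1 w2 v2
        have e : rb = D.c k + r := by
          by_contra hcon
          refine g3 (rb - D.c k) (by omega) (by omega) ((key _ (by omega)).2 (by omega) ?_)
          have : D.c k + (rb - D.c k) = rb := by omega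
          rw [this]; exact v2
        rw [Finset.mem_union]
        right
        rw [Finset.mem_filter]
        refine ⟨(hPr _).2 ⟨hk, hk'⟩, hne.symm, ?_⟩
        change D.BadT ((rb - D.p0) + D.c k' - D.c k)
        have : (rb - D.p0) + D.c k' - D.c k = D.c k' + r - D.p0 := by omega
        rw [this]; exact g4

/-- **completeness of scheme 2** -/
theorem C2 (h : D.Ok) : ∀ u ∈ D.Bad, ∀ x, ∀ t ∈ D.Bad ^ 1, ∃ p q y, u ++ t = p ++ q ∧ p ∈ D.L2 x ∧
    q ∈ Rsem D.XX D.Bad D.T 1 D.L2 y := by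
  classical
  intro u hu x t ht
  rw [pow_one] at ht
  have hz := h.hz
  have hW := h.hW
  have huz : D.z ≤ u.length := hu.1.2.1
  have htz : D.z ≤ t.length := ht.1.2.1
  obtain ⟨I, hI, hIk⟩ := h.cmp2 (u.take D.p0) (by rw [List.length_take]; omega) x
  obtain ⟨Sp, hSp, hsp⟩ := spoil h (u ++ t)
  obtain ⟨k, hkI, hkS⟩ : ∃ k ∈ I, k ∉ Sp := by
    by_contra hcon
    push Not at hcon
    have := Finset.card_le_card (show I ⊆ Sp from hcon)
    have := h.hR
    omega
  obtain ⟨hk, hlam, hrho⟩ := hIk k hkI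
  obtain ⟨y0, hy0⟩ := Option.isSome_iff_exists.1 hrho
  have ck := h.cp k hk
  have hp : ((u.take D.p0).take (D.c k)) = u.take (D.c k) := by
    rw [List.take_take, min_eq_left ck]
  rw [hp] at hlam
  refine ⟨u.take (D.c k), u.drop (D.c k) ++ t,
    D.T t (D.act y0 (D.φ (u.drop D.p0)) + D.nu1 (u.drop D.p0)), ?_, ⟨k, hk, ?_, hlam⟩, ?_⟩
  · rw [← List.append_assoc, List.take_append_drop]
  · rw [List.length_take]; omega
  · rintro x' p' ⟨k', hk', hl', hlam'⟩
    have ck' := h.cp k' hk'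
    by_cases hkk : k' = k
    · subst hkk
      left
      have hX : p' ++ u.drop (D.c k') ∈ D.Bad := by
        rw [bad_app h (by omega), hl']
        have : u.take (D.c k') ++ u.drop (D.c k') ∈ D.Bad := by
          rw [List.take_append_drop]; exact hu
        rw [bad_app h (by rw [List.length_take]; omega)] at this
        have e : (u.take (D.c k')).length = D.c k' := by rw [List.length_take]; omega
        rwa [e] at this
      have e1 : (p' ++ u.drop (D.c k')).take D.p0 = p' ++ (u.take D.p0).drop (D.c k') := by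
        rw [List.take_append, List.take_of_length_le (by omega), hl', List.drop_take]
      have e2 : (p' ++ u.drop (D.c k')).drop D.p0 = u.drop D.p0 := by
        rw [List.drop_append, List.drop_eq_nil_of_le (by omega), List.nil_append, hl',
          List.drop_drop]
        congr 1
        omega
      have hT : D.T (p' ++ u.drop (D.c k')) x' =
          D.act y0 (D.φ (u.drop D.p0)) + D.nu1 (u.drop D.p0) := by
        unfold T
        rw [e1, e2, ← h.snd2 k' hk' p' ((u.take D.p0).drop (D.c k')) x' y0 hl'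
          (by rw [List.length_drop, List.length_take]; omega) hlam' hy0]
      rw [← List.append_assoc]
      refine ⟨D.act y0 (D.φ (u.drop D.p0)) + D.nu1 (u.drop D.p0),
        Language.mem_mul.2 ⟨p' ++ u.drop (D.c k'), ⟨hX, hT⟩, t, ?_, rfl⟩⟩
      exact ⟨_, Language.mem_mul.2 ⟨t, ⟨ht, rfl⟩, [], ⟨rfl, rfl⟩, by simp⟩⟩
    · right
      have hq : u.drop (D.c k) ++ t = (u ++ t).drop (D.c k) := by
        rw [List.drop_append_of_le_length (by omega)]
      set q := u.drop (D.c k) ++ t with hqd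
      have hql : t.length ≤ q.length := by rw [hqd, List.length_append]; omega
      have hWq : D.Wo q := (h.hloc _ _ (by omega)).2 ht.1.1
      obtain ⟨r, r1, r2, -⟩ := first (fun r => r ≤ q.length ∧ D.z ≤ D.c k' + r ∧ D.Wo (q.take r)) 0
      obtain ⟨r3, r4, r5⟩ := r2 ⟨q.length, le_rfl, by omega, by rw [List.take_length]; exact hWq⟩
      have hlr : (q.take r).length = r := by rw [List.length_take]; omega
      have hX : p' ++ q.take r ∈ D.XX := by
        rw [mem_XX_app h (by omega), hl', hlr]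
        refine ⟨r4, r5, fun s hs hsr hw => ?_⟩
        rw [List.take_take, min_eq_left hsr.le] at hw
        have := r1 s ⟨by omega, hs, hw⟩
        omega
      have hnB : p' ++ q.take r ∉ D.Bad := by
        rw [bad_app h (by omega), hl']
        have := hsp k hk hkS k' hk' hkk r (by rw [← hq]; exact r3)
        rwa [← hq] at this
      refine Or.inl ⟨p' ++ q.take r, hX, hnB, q.drop r, ?_⟩
      rw [List.append_assoc, List.take_append_drop]

end Dt

end Crest.Agent.R320.InstA_510
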