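import Crest.Agent.R320.InstA_533
import Crest.Agent.R320.Zone132b_898
import Crest.Agent.R320.Sch2_606
import Crest.Agent.R320.Wall_291

/-!
Row 320: the two wall schemes of 132 on words, in the form of 131's interface (post 13123):
SC1, CP1, SC2, CP2 from the bundled data `St`.
-/

set_option autoImplicit false

namespace Crest.Agent.R320.InstB_533

open Finset Crest.Agent.R320.ThrChain260 Crest.Agent.R320.Ruler2_537
  Crest.Agent.R320.InstA_533 Crest.Agent.R320.Zone132_898 Crest.Agent.R320.Sch2_606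
  Crest.Agent.R320.ExactR_237

/-- walls of the text `T` -/
def WS {α : Type} (R : Rule α) (T : List α) (t : ℤ) : Prop := 0 ≤ t ∧ R.R (T.drop t.toNat)

/-- walls in the text `Y` right of the place `p0` after the anchor, positions from the anchor -/
def VS {α : Type} (R : Rule α) (p0 : ℕ) (Y : List α) (t : ℤ) : Prop :=
  (p0 : ℤ) ≤ t ∧ R.R (Y.drop (t - p0).toNat)

section basic

variable {α : Type}

theorem take_drop_R (R : Rule α) (X : List α) {s B : ℕ} (h : s + R.n ≤ B) :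
    R.R ((X.take B).drop s) ↔ R.R (X.drop s) := by
  rw [R.take_iff ((X.take B).drop s), R.take_iff (X.drop s), List.drop_take, List.take_take,
    min_eq_left (by omega)]

theorem R_of_take_drop (R : Rule α) (X : List α) {s B : ℕ} (h : R.R ((X.take B).drop s)) :
    s + R.n ≤ B := by
  have h1 := R.len _ h
  have h2 := R.pos
  rw [List.length_drop, List.length_take] at h1
  omega

theorem VS_iff (R : Rule α) (T : List α) {p0 Bm : ℕ} {a t : ℤ} (ha : 0 ≤ a + p0)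
    (ht : (p0 : ℤ) ≤ t) (hB : t + R.n ≤ Bm) :
    VS R p0 ((T.drop (a + p0).toNat).take (Bm - p0)) t ↔ WS R T (t + a) := by
  unfold VS WS
  have h1 : (t + a).toNat = (a + p0).toNat + (t - p0).toNat := by omega
  have h2 : 0 ≤ t + a := by omega
  rw [take_drop_R R _ (by omega), List.drop_drop, h1]
  simp [ht, h2]

theorem WS_append (R : Rule α) (u r : List α) {t : ℤ} (ht : 0 ≤ t) :
    WS R (u ++ r) (t + u.length) ↔ WS R r t := by
  unfold WS
  have h1 : (t + u.length).toNat = u.length + t.toNat := by omega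
  rw [h1, ← List.drop_drop, List.drop_left]
  have h2 : 0 ≤ t + u.length := by omega
  simp [ht, h2]

theorem WS_gap (R : Rule α) {W : ℤ} (sep : ∀ (Q : List α) (d : ℕ), R.R Q → 0 < d → (d : ℤ) ≤ W → ¬ R.R (Q.drop d))
    (T : List α) (t t' : ℤ) (h : WS R T t) (h' : WS R T t') (hlt : t < t') : W < t' - t := by
  by_contra hc
  push Not at hc
  obtain ⟨h1, h2⟩ := h
  obtain ⟨h3, h4⟩ := h'
  refine sep _ (t' - t).toNat h2 (by omega) (by omega) ?_
  rw [List.drop_drop]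
  have : t.toNat + (t' - t).toNat = t'.toNat := by omega
  rw [this]
  exact h4

theorem legal_shift {P : Par} {Wl : ℤ → Prop} {x : ℤ} :
    Legal P (fun t => Wl (t + x)) 0 ↔ Legal P Wl x := by
  unfold Legal
  constructor
  · intro h t ht
    have := h (t - x) (by simpa using ht)
    simpa using this
  · intro h t ht
    have := h (t + x) ht
    simpa using this

theorem isB_shift {P : Par} {Wl : ℤ → Prop} {x d : ℤ} :
    IsB P (fun t => Wl (t + x)) 0 d ↔ IsB P Wl x (d + x) := by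
  unfold IsB QualR
  constructor
  · rintro ⟨⟨h1, h2⟩, h3⟩
    refine ⟨⟨h1, by simpa using h2⟩, fun t' ht' hq => h3 (t' - x) (by linarith) ?_⟩
    simpa using hq
  · rintro ⟨⟨h1, h2⟩, h3⟩
    refine ⟨⟨h1, by simpa using h2⟩, fun t' ht' hq => h3 (t' + x) (by linarith) ?_⟩
    simpa using hq

end basic

/-- all data of the two schemes -/
structure St (α S V : Type) [Monoid S] [AddCommGroup V] where
  f : α → S
  act : V → S → V
  act_mul : ∀ v s t, act v (s * t) = act (act v s) t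
  act_add : ∀ v w s, act (v + w) s = act v s + act w s
  Cl : List α → Prop
  Cl_infix : ∀ u w, Cl w → u <:+: w → Cl u
  P : Par
  Ro : Rule α
  Rs : Rule α
  p0 : ℕ
  Bm : ℕ
  q0 : ℕ
  G : ℕ
  Gs : ℕ
  U : ℤ
  hp0 : P.p0 = p0
  p0pos : 0 < p0
  hz : P.p0 + P.S ≤ P.z
  hUo : U + Ro.n ≤ Bm
  hUs : U + Rs.n ≤ Bm
  hU : P.z + P.S + G ≤ U
  hq0 : (Bm : ℤ) ≤ P.z - P.S + q0
  hq0p : q0 ≤ p0
  dens : ∀ Q, Cl Q → G + Ro.n ≤ Q.length → ∃ i < G, Ro.R (Q.drop i)
  sep : ∀ (Q : List α) (d : ℕ), Ro.R Q → 0 < d → (d : ℤ) ≤ 2 * (P.S + P.L) → ¬ Ro.R (Q.drop d)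
  m : ℕ
  A : ℕ → ℕ
  lo : ℕ → ℕ
  q : ℕ
  hq : 0 < q
  hPM : P.M = q
  Ms : Finset ℕ
  r : ℕ
  mm : ℕ → ℤ
  hmm : ∀ x : ℕ, (∃ i < r, mm i ∣ (x : ℤ)) ↔ ∃ p ∈ Ms, p ∣ x
  denss : ∀ Q, Cl Q → Gs + Rs.n ≤ Q.length → ∃ i < Gs, Rs.R (Q.drop i)
  seps : ∀ (Q : List α) (d : ℕ), Rs.R Q → 0 < d → (d : ℤ) ≤ 2 * (((q * ∏ p ∈ Ms, p : ℕ) : ℤ) + P.L) →
    ¬ Rs.R (Q.drop d)
  hlevlo : ∀ k ≤ m, q * ∏ p ∈ Ms, p ≤ A k
  hlevhi : ∀ k ≤ m, ((p0 + A k + q * ∏ p ∈ Ms, p : ℕ) : ℤ) ≤ U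
  hzone : ∀ k ≤ m, ((p0 + A k + Gs + Rs.n : ℕ) : ℤ) ≤ P.z - P.S
  hN1 : ∀ i < m, ((q * (lo i + ∏ p ∈ Ms, p) : ℕ) : ℤ) ≤ P.N1
  hlen : ∀ i < m, ((p0 + q * (lo i + ∏ p ∈ Ms, p) : ℕ) : ℤ) ≤ P.z - P.S
  L : V → Language α
  Rt : V → Language α
  nu1 : List α → V
  sound1 : ∀ (X Q : List α) v b, X ∈ L v → Q ∈ Rt b → b = act v (pr f (X ++ Q)) + nu1 (X ++ Q)
  complete1 : ∀ Z : List α, (∀ p ∈ Ms, ¬ p ∣ Z.length / q) →
          (∃ H : ℕ → ℕ, ∀ k, k ≤ m → FW Rs Z (A k) (H k) ∧ H k ≤ A k + Gs) →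
          (∀ k, k ≤ m → ∀ t, A k ≤ t + q * ∏ p ∈ Ms, p → t < A k + q * ∏ p ∈ Ms, p →
            ¬ Rs.R (Z.drop t)) →
          (∀ i, i < m → q * (lo i + ∏ p ∈ Ms, p) ≤ Z.length) →
          ∀ v, ∃ (X Q : List α) (i om : ℕ), Z = X ++ Q ∧ i < m ∧ X.length = q * om ∧
            lo i ≤ om ∧ om < lo i + ∏ p ∈ Ms, p ∧ X ∈ L v ∧
            Q ∈ Rt (act v (pr f Z) + nu1 Z)
  K : ℕ
  R : ℕ
  c : ℕ → ℕ
  lam : ℕ → List α → Option V
  rho : ℕ → List α → S → Option V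
  nu2' : List α → S → V
  gad : Gad f act K R c lam rho nu2'
  hc : ∀ i j, i < j → j < K → c i < c j
  hcq : ∀ k < K, q0 ≤ c k
  hcp : ∀ k < K, c k ≤ p0
  ruler : Ruler2 P ((q * ∏ p ∈ Ms, p : ℕ) : ℤ) mm r ((Finset.range K).image fun k => (c k : ℤ))
  hR : 1 + (m + 1) + 2 * r < R

namespace St

variable {α S V : Type} [Monoid S] [AddCommGroup V] (I : St α S V)

/-- level positions -/
def lev (k : ℕ) : ℤ := (I.p0 : ℤ) + I.A k

/-- resolution -/
def D : ℤ := ((I.q * ∏ p ∈ I.Ms, p : ℕ) : ℤ)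

/-- badness, read on the text right of `a + p0` -/
def B0 (Y : List α) : Prop :=
  Bad I.P (VS I.Ro I.p0 Y) (VS I.Rs I.p0 Y) I.lev I.D (I.m + 1) I.mm I.r 0

open Classical in
/-- distance from `a + p0` to the next anchor -/
noncomputable def N0 (Y : List α) : Option ℕ :=
  if h : ∃ e : ℕ, IsN I.P (VS I.Ro I.p0 Y) 0 ((I.p0 : ℤ) + e) then some h.choose else none

theorem N0_eq {Y : List α} {e : ℕ} (h : IsN I.P (VS I.Ro I.p0 Y) 0 ((I.p0 : ℤ) + e)) :
    I.N0 Y = some e := by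
  have hex : ∃ e : ℕ, IsN I.P (VS I.Ro I.p0 Y) 0 ((I.p0 : ℤ) + e) := ⟨e, h⟩
  unfold N0
  rw [dif_pos hex]
  have := isN_unique hex.choose_spec h
  congr 1
  omega

theorem N0_some {Y : List α} {e : ℕ} (h : I.N0 Y = some e) :
    IsN I.P (VS I.Ro I.p0 Y) 0 ((I.p0 : ℤ) + e) := by
  unfold N0 at h
  split_ifs at h with h1
  have h2 := h1.choose_spec
  rw [Option.some.injEq] at h
  rw [h] at h2
  exact h2

theorem S_nonneg : 0 ≤ I.P.S := by
  have h1 := I.P.hs 0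
  have h2 := abs_nonneg (I.P.s 0)
  have h3 := I.P.hN
  linarith

theorem p0_le_Bm : I.p0 ≤ I.Bm := by
  have h1 := I.S_nonneg
  have h2 := I.hU
  have h3 := I.hz
  have h4 := I.hUo
  have h5 := I.hp0
  omega

theorem hex {T : List α} (hT : I.Cl T) {a : ℤ} (ha : 0 ≤ a + I.p0)
    (hl : a + I.Bm ≤ T.length) :
    ∃ t, I.P.z + I.P.S ≤ t ∧ t ≤ I.U ∧ WS I.Ro T (t + a) := by
  have h1 := I.S_nonneg
  have h2 := I.hU
  have h3 := I.hz
  have h4 := I.hUo
  have h5 := I.hp0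
  obtain ⟨i, hi, hw⟩ := I.dens (T.drop (I.P.z + I.P.S + a).toNat)
    (I.Cl_infix _ _ hT (List.drop_suffix _ _).isInfix) (by
      rw [List.length_drop]
      omega)
  refine ⟨I.P.z + I.P.S + i, by omega, by omega, by omega, ?_⟩
  rw [List.drop_drop] at hw
  have e : (I.P.z + I.P.S + i + a).toNat = (I.P.z + I.P.S + a).toNat + i := by omega
  rw [e]
  exact hw

theorem isN_text {T : List α} (hT : I.Cl T) {a : ℤ} (ha : 0 ≤ a + I.p0)
    (hl : a + I.Bm ≤ T.length) (b : ℤ) :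
    IsN I.P (VS I.Ro I.p0 ((T.drop (a + I.p0).toNat).take (I.Bm - I.p0))) 0 b ↔
      IsN I.P (WS I.Ro T) a (b + a) := by
  refine isN_view I.hz (U := I.U) (fun t ht ht' => ?_) (I.hex hT ha hl) b
  rw [I.hp0] at ht
  have := I.hUo
  exact VS_iff I.Ro T ha ht (by omega)

theorem bad_text {T : List α} (hT : I.Cl T) {a : ℤ} (ha : 0 ≤ a + I.p0)
    (hl : a + I.Bm ≤ T.length) :
    I.B0 ((T.drop (a + I.p0).toNat).take (I.Bm - I.p0)) ↔
      Bad I.P (WS I.Ro T) (WS I.Rs T) I.lev I.D (I.m + 1) I.mm I.r a := by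
  refine bad_view I.hz (U := I.U) ?_ ?_ (fun t ht ht' => ?_) (fun t ht ht' => ?_)
    (I.hex hT ha hl)
  · have := I.hU
    omega
  · intro k hk
    have h1 := I.hlevlo k (by omega)
    have h2 := I.hlevhi k (by omega)
    have h3 := I.hp0
    unfold lev D
    constructor
    · omega
    · push_cast at h2 ⊢
      linarith
  · rw [I.hp0] at ht
    have := I.hUo
    exact VS_iff I.Ro T ha ht (by omega)
  · rw [I.hp0] at ht
    have := I.hUs
    exact VS_iff I.Rs T ha ht (by omega)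

/-- 131's `N` -/
noncomputable def N (y : List α) : ℕ := min I.Bm (I.p0 + (I.N0 (y.drop I.p0)).getD I.Bm)

/-- 131's `Bad` -/
def BadB (y : List α) : Prop := I.B0 (y.drop I.p0)

theorem drop_buf (T : List α) : (T.take I.Bm).drop I.p0 =
    (T.drop ((0 : ℤ) + I.p0).toNat).take (I.Bm - I.p0) := by
  rw [List.drop_take]
  congr 2
  omega

theorem N_pos (y : List α) : 0 < I.N y := by
  unfold N
  have := I.p0pos
  have := I.p0_le_Bm
  omega

theorem N_le (y : List α) : I.N y ≤ I.Bm := min_le_left _ _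

theorem N_eq {T : List α} (hT : I.Cl T) (hl : I.Bm ≤ T.length) {b : ℕ}
    (hb : IsN I.P (WS I.Ro T) 0 b) : I.N (T.take I.Bm) = b ∧ (b : ℤ) ≤ I.U ∧
      I.P.z - I.P.S ≤ b := by
  obtain ⟨u, hu1, hu2, hu3⟩ := I.hex hT (a := 0) (by omega) (by omega)
  have hN := I.P.hN
  have h1 : (b : ℤ) ≤ u := by
    by_contra hc
    rw [add_zero] at hu3
    exact hb.2 u (not_le.mp hc) (qual_of_ge hu3 (by linarith))
  have h2 := qual_ge hb.1
  have h3 := I.hz
  have h4 := I.hp0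
  have h5 := I.hUo
  have h6 : ∃ e : ℕ, b = I.p0 + e := ⟨b - I.p0, by omega⟩
  obtain ⟨e, rfl⟩ := h6
  have h7 : I.N0 ((T.take I.Bm).drop I.p0) = some e := by
    apply I.N0_eq
    rw [I.drop_buf, I.isN_text hT (by omega) (by omega)]
    rw [add_zero]
    exact_mod_cast hb
  refine ⟨?_, by linarith, by linarith⟩
  unfold N
  rw [h7, Option.getD_some]
  omega

theorem exists_N {T : List α} (hT : I.Cl T) (hl : I.Bm ≤ T.length) :
    ∃ b : ℕ, IsN I.P (WS I.Ro T) 0 b ∧ I.N (T.take I.Bm) = b ∧ (b : ℤ) ≤ I.U ∧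
      I.P.z - I.P.S ≤ b := by
  obtain ⟨u, hu1, hu2, hu3⟩ := I.hex hT (a := 0) (by omega) (by omega)
  rw [add_zero] at hu3
  have hN := I.P.hN
  obtain ⟨t, ht, h1, h2⟩ := exists_isN (P := I.P) (a := 0) hu3 (by linarith)
  have h3 := I.hz
  have h4 := I.hp0
  lift t to ℕ using by linarith
  exact ⟨t, ht, I.N_eq hT hl ht⟩

theorem N_Cl {y : List α} (hy : I.Cl y) (hl : y.length = I.Bm) : I.Bm - I.N y ≤ I.q0 := by
  obtain ⟨b, -, h1, -, h2⟩ := I.exists_N hy (by omega)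
  rw [List.take_of_length_le (by omega)] at h1
  rw [h1]
  have := I.hq0
  omega

/-- 131's noise -/
noncomputable def nu (y : List α) : V :=
  I.act (I.nu2' (y.take I.p0) 1) (pr I.f ((y.take (I.N y)).drop I.p0)) +
    I.nu1 ((y.take (I.N y)).drop I.p0)

/-- 131's zone map -/
noncomputable def zm (y : List α) (v : V) : V :=
  I.act v (pr I.f (y.take (I.N y))) + I.nu y

theorem pr_append (f : α → S) (u v : List α) : pr f (u ++ v) = pr f u * pr f v := by
  unfold pr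
  rw [List.map_append, List.prod_append]

theorem zm_eq (T : List α) (v : V) (h : I.p0 ≤ I.N (T.take I.Bm)) :
    I.zm (T.take I.Bm) v =
      I.act (I.act v (pr I.f (T.take I.p0)) + I.nu2' (T.take I.p0) 1)
        (pr I.f ((T.take (I.N (T.take I.Bm))).drop I.p0)) +
        I.nu1 ((T.take (I.N (T.take I.Bm))).drop I.p0) := by
  unfold zm nu
  set n := I.N (T.take I.Bm) with hn
  have h1 : (T.take I.Bm).take n = T.take n := by
    rw [List.take_take, min_eq_left (I.N_le _)]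
  have h2 : (T.take I.Bm).take I.p0 = T.take I.p0 := by
    rw [List.take_take, min_eq_left I.p0_le_Bm]
  have h3 : T.take n = T.take I.p0 ++ (T.take n).drop I.p0 := by
    conv_lhs => rw [← List.take_append_drop I.p0 (T.take n)]
    rw [List.take_take, min_eq_left h]
  rw [h1, h2]
  conv_lhs => rw [show pr I.f (T.take n) = pr I.f (T.take I.p0) * pr I.f ((T.take n).drop I.p0) by
    rw [← pr_append, ← h3]]
  rw [I.act_mul, I.act_add]
  abel

end St

end Crest.Agent.R320.InstB_533
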