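import Crest.Agent.R320.InstA_547

/-!
# Row 320: the spoiling count for the concrete blocks (helper547)
-/

set_option autoImplicit false
set_option linter.unusedSectionVars false

namespace Crest.Agent.R320.Inst_547

open Crest.Agent.R320.Half1_180

universe u
variable {α : Type u}
variable {S V : Type*} [Monoid S] [AddCommGroup V] {D : Dat α S V}

open Classical in
theorem Dat.Ok.spoil (h : D.Ok)
    (rul : ∀ i < D.K, ∀ j < D.K, ∀ k < D.K, ∀ l < D.K, i ≠ j → k ≠ l → (i, j) ≠ (k, l) →
      D.c i + D.c l + 2 * D.N1 < D.c k + D.c j ∨ D.c k + D.c j + 2 * D.N1 < D.c i + D.c l)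
    (thin : ∀ T, D.La ≤ T → ((Finset.range D.K ×ˢ Finset.range D.K).filter
      (fun p => p.1 ≠ p.2 ∧ D.BadT (T + D.c p.2 - D.c p.1))).card ≤ D.C0)
    (X : List α) (hX : X ∈ D.Bad) : (D.spoiled X).card ≤ 3 * D.C0 + 1 := by
  have hz := h.hz
  have hW := h.hW
  obtain ⟨⟨tX, hF, hFn⟩, -⟩ := hX
  have hF1 := hF.1
  have hF2 := hF.2.1
  have hFn1 := hFn.1
  -- E pairs
  set PE : Finset (ℕ × ℕ) := (Finset.range D.K ×ˢ Finset.range D.K).filter
    (fun p => p.1 ≠ p.2 ∧ ∃ s, D.z - D.c p.2 - D.N1 ≤ s ∧ s < D.z - D.c p.2 + D.N1 ∧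
      s ≤ (X.drop (D.c p.1)).length ∧ D.Wo ((X.drop (D.c p.1)).take s)) with hPE
  have key : ∀ k < D.K, ∀ s, D.n ≤ s → s ≤ (X.drop (D.c k)).length →
      (D.Wo (X.take (D.c k + s)) ↔ D.Wo ((X.drop (D.c k)).take s)) := by
    intro k hk s hs hs'
    have hck := h.c_lt k hk
    have h1 := h.walls.shift (X.take (D.c k)) (X.drop (D.c k)) s hs hs'
    have h2 : (X.take (D.c k)).length = D.c k := by rw [List.length_take]; omega
    rw [h2, List.take_append_drop] at h1
    exact h1
  have hPE1 : PE.card ≤ 1 := by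
    rw [Finset.card_le_one]
    rintro ⟨k, k'⟩ hp ⟨l, l'⟩ hq
    rw [hPE, Finset.mem_filter, Finset.mem_product] at hp hq
    obtain ⟨⟨hk, hk'⟩, hne, s, s1, s2, s3, s4⟩ := hp
    obtain ⟨⟨hl, hl'⟩, hne', r, r1, r2, r3, r4⟩ := hq
    rw [Finset.mem_range] at hk hk' hl hl'
    simp only at hk hk' hl hl' hne hne' s1 s2 s3 s4 r1 r2 r3 r4
    by_contra hcon
    have c1 := h.c_lt k hk
    have c2 := h.c_lt k' hk'
    have c3 := h.c_lt l hl
    have c4 := h.c_lt l' hl'
    have w1 := (key k hk s (by omega) s3).2 s4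
    have w2 := (key l hl r (by omega) r3).2 r4
    rw [List.length_drop] at s3 r3
    have hsr : D.c k + s = D.c l + r := by
      rcases lt_trichotomy (D.c k + s) (D.c l + r) with hlt | he | hlt
      · have := h.walls.gap X _ _ hlt (by omega) w1 w2
        omega
      · exact he
      · have := h.walls.gap X _ _ hlt (by omega) w2 w1
        omega
    have := rul k hk k' hk' l hl l' hl' hne hne' hcon
    omega
  -- the candidate walls
  obtain ⟨y0, hy0, hy1⟩ : ∃ y0, D.La ≤ y0 - D.p0 ∧ ∀ y, D.z - D.p0 ≤ y → y < D.z → y ≤ X.length →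
      D.Wo (X.take y) → y = y0 := by
    by_cases hex : ∃ y, D.z - D.p0 ≤ y ∧ y < D.z ∧ y ≤ X.length ∧ D.Wo (X.take y)
    · obtain ⟨y, a1, a2, a3, a4⟩ := hex
      refine ⟨y, by omega, fun y' b1 b2 b3 b4 => ?_⟩
      rcases lt_trichotomy y y' with hlt | he | hlt
      · have := h.walls.gap X _ _ hlt b3 a4 b4
        omega
      · exact he.symm
      · have := h.walls.gap X _ _ hlt a3 b4 a4
        omega
    · refine ⟨tX, by omega, fun y' b1 b2 b3 b4 => ?_⟩
      exact absurd ⟨y', b1, b2, b3, b4⟩ hex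
  let B : ℕ → Finset (ℕ × ℕ) := fun τ => (Finset.range D.K ×ˢ Finset.range D.K).filter
      (fun p => p.1 ≠ p.2 ∧ D.BadT ((τ - D.p0) + D.c p.2 - D.c p.1))
  have hB : ∀ τ, D.La ≤ τ - D.p0 → (B τ).card ≤ D.C0 := fun τ hτ => thin _ hτ
  have hsub : D.spoiled X ⊆ PE.image Prod.fst ∪ ((B y0).image Prod.fst ∪
      ((B tX).image Prod.fst ∪ (B X.length).image Prod.fst)) := by
    intro k hk
    rw [Dat.spoiled, Finset.mem_filter, Finset.mem_range] at hk
    obtain ⟨hk, k', hk', hne, t', ht', hcase⟩ := hk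
    have c1 := h.c_lt k hk
    have c2 := h.c_lt k' hk'
    rcases hcase with hE | hT
    · refine Finset.mem_union_left _ (Finset.mem_image.2 ⟨(k, k'), ?_, rfl⟩)
      rw [hPE, Finset.mem_filter, Finset.mem_product]
      exact ⟨⟨Finset.mem_range.2 hk, Finset.mem_range.2 hk'⟩, fun e => hne e.symm, hE⟩
    · refine Finset.mem_union_right _ ?_
      obtain ⟨a1, a2, a3, a4⟩ := ht'
      have w := (key k hk t' (by omega) a2).2 a3
      have a2' := a2
      rw [List.length_drop] at a2'
      have hmin : ∀ y, D.c k + (D.z - D.c k') ≤ y → y < D.c k + t' → ¬ D.Wo (X.take y) := by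
        intro y b1 b2 b3
        obtain ⟨m, rfl⟩ : ∃ m, y = D.c k + m := ⟨y - D.c k, by omega⟩
        exact a4 m (by omega) (by omega) ((key k hk m (by omega) (by omega)).1 b3)
      have hmem : ∀ τ, τ = D.c k + t' → k ∈ (B τ).image Prod.fst := by
        rintro τ rfl
        refine Finset.mem_image.2 ⟨(k, k'), ?_, rfl⟩
        simp only [B, Finset.mem_filter, Finset.mem_product]
        refine ⟨⟨Finset.mem_range.2 hk, Finset.mem_range.2 hk'⟩, fun e => hne e.symm, ?_⟩
        have e : D.c k + t' - D.p0 + D.c k' - D.c k = t' + D.c k' - D.p0 := by omega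
        rw [e]; exact hT
      by_cases hlt : D.c k + t' < D.z
      · exact Finset.mem_union_left _ (hmem _ (hy1 _ (by omega) hlt (by omega) w).symm)
      · refine Finset.mem_union_right _ ?_
        rcases lt_trichotomy tX (D.c k + t') with h1 | h1 | h1
        · refine Finset.mem_union_right _ (hmem _ ?_)
          by_contra hne2
          have : D.c k + t' < X.length := by omega
          exact hFn.2.2.2 _ (by omega) this w
        · exact Finset.mem_union_left _ (hmem _ h1)
        · exact absurd w (hF.2.2.2 _ (by omega) h1)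
  have h1 := Finset.card_le_card hsub
  have h2 := Finset.card_union_le (PE.image Prod.fst) ((B y0).image Prod.fst ∪
      ((B tX).image Prod.fst ∪ (B X.length).image Prod.fst))
  have h3 := Finset.card_union_le ((B y0).image Prod.fst)
      ((B tX).image Prod.fst ∪ (B X.length).image Prod.fst)
  have h4 := Finset.card_union_le ((B tX).image Prod.fst) ((B X.length).image Prod.fst)
  have i1 := Finset.card_image_le (s := PE) (f := Prod.fst)
  have i2 := Finset.card_image_le (s := B y0) (f := Prod.fst)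
  have i3 := Finset.card_image_le (s := B tX) (f := Prod.fst)
  have i4 := Finset.card_image_le (s := B X.length) (f := Prod.fst)
  have j2 := hB y0 hy0
  have j3 := hB tX (by omega)
  have j4 := hB X.length (by omega)
  omega

end Crest.Agent.R320.Inst_547
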