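import Crest.Agent.R320.InstA_591
import Crest.Agent.R320.BddReg_746
import Crest.Agent.R320.Reg_852

/-!
# Row 320: the three height-one families of the natural block code (helper591)
-/

set_option autoImplicit false

namespace Crest.Agent.R320.Inst_591

open Crest.RegLang Crest.Agent.R320.Hk_851 Crest.Agent.R320.BddReg_746

universe u

variable {α : Type u}

/-- words in at most two pieces -/
theorem pn_two {B : ℕ} {f x g : List α} {k : ℕ} (h1 : f.length ≤ B) (h2 : x.length ≤ B)
    (h3 : g.length ≤ B) : f ++ pw x k ++ g ∈ (PN B 2 : Language α) := by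
  refine Language.mem_mul.2 ⟨f ++ pw x k, ⟨f, x, k, h1, h2, rfl⟩, g, ?_, rfl⟩
  exact Language.mem_mul.2 ⟨g, ⟨g, [], 0, h3, by simp, by simp⟩, [], rfl, by simp⟩

/-- one class of a finite monoid -/
def Cls {T : Type*} [Monoid T] (ψ : α → T) (m : T) : Language α := {Y | (Y.map ψ).prod = m}

/-- the state of a word behind a prefix -/
theorem fib [Finite α] {S : Type} [Monoid S] [Finite S] (φ : α → S) (B0 Pm : ℕ) (hPm : 0 < Pm)
    (G : List α → Prop)
    (hG : ∀ X X', B0 ≤ X.length → B0 ≤ X'.length → X.take B0 = X'.take B0 →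
      X.length % Pm = X'.length % Pm → ((X.drop B0).map φ).prod = ((X'.drop B0).map φ).prod →
      G X → G X')
    (L0 : Language α) (h0 : HL 0 L0) (B R : ℕ)
    (hb : ∀ X ∈ L0, B0 ≤ X.length ∧ X ∈ (PN B R : Language α)) :
    HL 1 ({X | X ∈ L0 ∧ G X} : Language α) := by
  haveI : NeZero Pm := ⟨hPm.ne'⟩
  let ψ : α → S × Multiplicative (ZMod Pm) := fun a => (φ a, Multiplicative.ofAdd 1)
  have hψ : ∀ w : List α, (w.map ψ).prod = ((w.map φ).prod, Multiplicative.ofAdd (w.length : ZMod Pm)) := by
    intro w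
    induction w with
    | nil => simp; rfl
    | cons a w ih =>
      rw [List.map_cons, List.prod_cons, ih, List.map_cons, List.prod_cons, List.length_cons]
      refine Prod.ext rfl ?_
      show Multiplicative.ofAdd (1 : ZMod Pm) * Multiplicative.ofAdd (w.length : ZMod Pm) = _
      rw [← ofAdd_add]
      congr 1
      push_cast
      ring
  have hreg0 : L0.IsRegular := Reg_852.HL.isRegular h0
  -- one class
  have hcls : ∀ (u : List α) (m : S × Multiplicative (ZMod Pm)),
      HL 1 ({X | X ∈ L0 ∧ ∃ Y, X = u ++ Y ∧ (Y.map ψ).prod = m} : Language α) := by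
    intro u m
    refine HL_one_of_regular ?_ B R (fun w hw => (hb w hw.1).2)
    have h1 : (({u} : Language α) * Cls ψ m).IsRegular :=
      Reg_852.IsRegular.mul (Reg_852.HL.isRegular (HL.word (k := 0) u)) (Reg_852.isRegular_prod ψ m)
    have h2 := hreg0.inf h1
    have e : (L0 ⊓ (({u} : Language α) * Cls ψ m) : Language α) =
        ({X | X ∈ L0 ∧ ∃ Y, X = u ++ Y ∧ (Y.map ψ).prod = m} : Language α) := by
      ext X
      constructor
      · rintro ⟨h3, h4⟩
        obtain ⟨a, ha, y, hy, rfl⟩ := Language.mem_mul.1 h4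
        have ha' : a = u := ha
        subst ha'
        exact ⟨h3, y, rfl, hy⟩
      · rintro ⟨h3, y, rfl, hy⟩
        exact ⟨h3, Language.mem_mul.2 ⟨u, rfl, y, hy, rfl⟩⟩
    rwa [e] at h2
  have hfin : ({q : List α × (S × Multiplicative (ZMod Pm)) | q.1.length ≤ B0 ∧ ∃ Y, q.1.length = B0 ∧
      (Y.map ψ).prod = q.2 ∧ G (q.1 ++ Y)}).Finite := by
    refine ((List.finite_length_le α B0).prod (Set.finite_univ (α := S × Multiplicative (ZMod Pm)))).subset ?_
    rintro ⟨u, m⟩ ⟨h, -⟩
    exact ⟨h, trivial⟩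
  refine (HL.biUnion (k := 1) hfin (fun q _ => hcls q.1 q.2)).congr fun X => ?_
  constructor
  · rintro ⟨hX, hGX⟩
    have hl := (hb X hX).1
    refine ⟨(X.take B0, ((X.drop B0).map ψ).prod), ⟨?_, X.drop B0, ?_, rfl, ?_⟩, hX, X.drop B0, ?_, rfl⟩
    · simp
    · simp [hl]
    · simpa using hGX
    · simp
  · rintro ⟨⟨u, m⟩, ⟨-, Y, hu, hY, hGY⟩, hX, Y', hXY, hY'⟩
    simp only at hu hY hGY hXY hY'
    refine ⟨hX, ?_⟩
    subst hXY
    rw [hψ] at hY hY'
    have h1 := hY.trans hY'.symm
    have h2 := congrArg Prod.fst h1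
    have h3 := congrArg Prod.snd h1
    simp only at h2 h3
    have h4 : ((Y.length : ℕ) : ZMod Pm) = (Y'.length : ZMod Pm) := Multiplicative.ofAdd.injective h3
    rw [ZMod.natCast_eq_natCast_iff] at h4
    refine hG (u ++ Y) (u ++ Y') (by rw [List.length_append]; omega) (by rw [List.length_append]; omega)
      ?_ ?_ ?_ hGY
    · rw [List.take_left' hu, List.take_left' hu]
    · rw [List.length_append, List.length_append]
      exact Nat.ModEq.add_left _ h4
    · rw [List.drop_left' hu, List.drop_left' hu]; exact h2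

namespace Dat

variable {S V : Type} [Monoid S] [AddCommGroup V] (D : Dat α S V)

theorem HL_wo [Finite α] : HL 0 ({P | D.Wo P} : Language α) := by
  have hf : ({Q : List α | Q.length = D.n ∧ D.Wo Q}).Finite :=
    (List.finite_length_eq α D.n).subset fun _ h => h.1
  have h := (HL.top (k := 0) (α := α)).mul (HL.finite (k := 0) hf)
  refine h.congr fun w => ?_
  constructor
  · intro hw
    have hw' : D.Wo w := hw
    have hl := D.len w hw'
    refine Language.mem_mul.2 ⟨w.take (w.length - D.n), trivial, w.drop (w.length - D.n), ⟨?_, ?_⟩,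
      List.take_append_drop _ _⟩
    · rw [List.length_drop]; omega
    · rw [← D.loc (w.take (w.length - D.n)) _ (by rw [List.length_drop]; omega),
        List.take_append_drop]
      exact hw'
  · intro hw
    obtain ⟨a, -, b, ⟨hb, hb2⟩, rfl⟩ := Language.mem_mul.1 hw
    exact (D.loc a b hb.ge).2 hb2

/-- texts with a wall at a place in `[lo, ..]` satisfying a star-free length condition -/
theorem HL_woz [Finite α] : HL 0 ({P | D.z ≤ P.length ∧ D.Wo P} : Language α) :=
  (HL.length_ge D.z).setOf_and D.HL_wo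

theorem HL_none [Finite α] : HL 0 ({X | ∀ t, D.z ≤ t → t < X.length → ¬ D.Wo (X.take t)} : Language α) := by
  have h1 : HL 0 ({Q | 1 ≤ Q.length} : Language α) := HL.length_ge 1
  have h := (D.HL_woz.mul h1).compl
  refine h.congr fun w => ?_
  constructor
  · intro hw hm
    obtain ⟨a, ⟨ha1, ha2⟩, b, hb, rfl⟩ := Language.mem_mul.1 hm
    have hb' : 1 ≤ b.length := hb
    have := hw a.length ha1 (by rw [List.length_append]; omega)
    rw [List.take_left' rfl] at this
    exact this ha2
  · intro hw t h1 h2 h3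
    refine hw (Language.mem_mul.2 ⟨w.take t, ⟨?_, h3⟩, w.drop t, ?_, List.take_append_drop _ _⟩)
    · rw [List.length_take]; omega
    · show 1 ≤ (w.drop t).length
      rw [List.length_drop]; omega

theorem HL_XX [Finite α] : HL 0 (D.XX : Language α) := by
  refine ((HL.length_ge D.z).setOf_and (D.HL_wo.setOf_and D.HL_none)).congr fun w => Iff.rfl

theorem HL_EB [Finite α] : HL 0 ({X | D.EB X} : Language α) := by
  have hf : ({P : List α | D.z ≤ P.length + D.N1 ∧ P.length < D.z + D.N1 ∧ D.Wo P}).Finite :=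
    (List.finite_length_lt α (D.z + D.N1)).subset fun _ h => h.2.1
  have h := (HL.finite (k := 0) hf).mul (HL.top (k := 0) (α := α))
  refine h.congr fun w => ?_
  constructor
  · rintro ⟨t, h1, h2, h3, h4⟩
    refine Language.mem_mul.2 ⟨w.take t, ⟨?_, ?_, h4⟩, w.drop t, trivial, List.take_append_drop _ _⟩
    · rw [List.length_take]; omega
    · rw [List.length_take]; omega
  · intro hw
    obtain ⟨a, ⟨h1, h2, h3⟩, b, -, rfl⟩ := Language.mem_mul.1 hw
    refine ⟨a.length, h1, h2, by rw [List.length_append]; omega, ?_⟩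
    rw [List.take_left' rfl]; exact h3

theorem HL_tail [Finite α] : HL 0 ({w | ∀ X ∈ D.XX, ¬ X <+: w} : Language α) := by
  have h := (D.HL_woz.mul (HL.top (k := 0) (α := α))).compl
  refine h.congr fun w => ?_
  constructor
  · intro hw hm
    obtain ⟨a, ⟨ha1, ha2⟩, b, -, rfl⟩ := Language.mem_mul.1 hm
    classical
    have hex : ∃ t, D.z ≤ t ∧ t ≤ a.length ∧ D.Wo (a.take t) :=
      ⟨a.length, ha1, le_rfl, by rw [List.take_length]; exact ha2⟩
    obtain ⟨j1, j2, j3⟩ := Nat.find_spec hex
    refine hw (a.take (Nat.find hex)) ⟨by rw [List.length_take]; omega, j3, ?_⟩ ?_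
    · intro t h1 h2 h3
      rw [List.length_take, Nat.min_eq_left j2] at h2
      rw [List.take_take, Nat.min_eq_left h2.le] at h3
      exact Nat.find_min hex h2 ⟨h1, by omega, h3⟩
    · exact (List.take_prefix _ _).trans (List.prefix_append _ _)
  · intro hw X hX hp
    obtain ⟨t, rfl⟩ := hp
    exact hw (Language.mem_mul.2 ⟨X, ⟨hX.1, hX.2.1⟩, t, trivial, rfl⟩)

/-- extra hypotheses: bounded wall-free words, finite-state noise -/
structure Fin where
  B : ℕ
  few : ∀ u : List α, (∀ t < u.length, ¬ D.Wo (u.take t)) →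
    ∃ (a p v : List α) (k : ℕ), u = a ++ (List.replicate k p).flatten ++ v ∧
      a.length ≤ B ∧ p.length ≤ B ∧ v.length ≤ B
  Pm : ℕ
  hPm : 0 < Pm
  fin : ∀ Q Q' : List S, D.N1 ≤ Q.length → D.N1 ≤ Q'.length → Q.take D.N1 = Q'.take D.N1 →
    Q.length % Pm = Q'.length % Pm → (Q.drop D.N1).prod = (Q'.drop D.N1).prod → D.nu1 Q = D.nu1 Q'
  perT : ∀ n n', n % Pm = n' % Pm → D.BadT n → D.BadT n'

variable {D}

theorem bdd (F : D.Fin) (X : List α) (hX : ∀ t, D.z ≤ t → t < X.length → ¬ D.Wo (X.take t)) :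
    X ∈ (PN (D.z + F.B + 1) 2 : Language α) := by
  by_cases h : X.length ≤ D.z
  · have := pn_two (B := D.z + F.B + 1) (f := X) (x := []) (g := []) (k := 0) (by omega) (by simp)
      (by simp)
    simpa using this
  · push Not at h
    have hne : X.drop D.z ≠ [] := by
      intro e
      have := congrArg List.length e
      rw [List.length_drop, List.length_nil] at this
      omega
    obtain ⟨a, p, v, k, h1, h2, h3, h4⟩ := F.few (X.drop D.z).dropLast (by
      intro t ht hw
      rw [List.length_dropLast, List.length_drop] at ht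
      have hn := D.len _ hw
      rw [List.length_take, List.length_dropLast, List.length_drop] at hn
      have e1 : (X.drop D.z).dropLast.take t = (X.drop D.z).take t := by
        rw [List.dropLast_eq_take, List.take_take, Nat.min_eq_left (by rw [List.length_drop]; omega)]
      rw [e1, ← D.loc (X.take D.z) _ (by rw [List.length_take, List.length_drop]; omega)] at hw
      have e2 : X.take D.z ++ (X.drop D.z).take t = X.take (D.z + t) := by
        rw [List.take_add]
      rw [e2] at hw
      exact hX _ (by omega) (by omega) hw)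
    have e : X = (X.take D.z ++ a) ++ pw p k ++ (v ++ [(X.drop D.z).getLast hne]) := by
      conv_lhs => rw [← List.take_append_drop D.z X, ← List.dropLast_append_getLast hne, h1]
      simp only [pw, List.append_assoc]
    rw [e]
    refine pn_two ?_ ?_ ?_
    · rw [List.length_append, List.length_take]; omega
    · omega
    · rw [List.length_append, List.length_singleton]; omega

theorem hG_T (F : D.Fin) (x y : V) (X X' : List α) (h1 : D.p0 + D.N1 ≤ X.length)
    (h2 : D.p0 + D.N1 ≤ X'.length) (h3 : X.take (D.p0 + D.N1) = X'.take (D.p0 + D.N1))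
    (h4 : X.length % F.Pm = X'.length % F.Pm)
    (h5 : ((X.drop (D.p0 + D.N1)).map D.φ).prod = ((X'.drop (D.p0 + D.N1)).map D.φ).prod)
    (h6 : D.TT x X = y) : D.TT x X' = y := by
  have a1 : X.take D.p0 = X'.take D.p0 := by
    have := congrArg (List.take D.p0) h3
    rwa [List.take_take, List.take_take, Nat.min_eq_left (by omega)] at this
  have a2 : (X.drop D.p0).take D.N1 = (X'.drop D.p0).take D.N1 := by
    have := congrArg (List.drop D.p0) h3
    rwa [List.drop_take, List.drop_take, Nat.add_sub_cancel_left] at this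
  have a3 : ((X.drop D.p0).map D.φ).prod = ((X'.drop D.p0).map D.φ).prod := by
    have e : ∀ Z : List α, ((Z.drop D.p0).map D.φ).prod =
        (((Z.drop D.p0).take D.N1).map D.φ).prod * ((Z.drop (D.p0 + D.N1)).map D.φ).prod := by
      intro Z
      rw [← List.drop_drop, ← List.prod_append, ← List.map_append, List.take_append_drop]
    rw [e X, e X', a2, h5]
  have a4 : D.nu1 ((X.drop D.p0).map D.φ) = D.nu1 ((X'.drop D.p0).map D.φ) := by
    refine F.fin _ _ ?_ ?_ ?_ ?_ ?_
    · rw [List.length_map, List.length_drop]; omega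
    · rw [List.length_map, List.length_drop]; omega
    · rw [← List.map_take, ← List.map_take, a2]
    · rw [List.length_map, List.length_drop, List.length_map, List.length_drop]
      have := Nat.ModEq.add_right_cancel' D.p0
        (show (X.length - D.p0) + D.p0 ≡ (X'.length - D.p0) + D.p0 [MOD F.Pm] by
          rw [Nat.sub_add_cancel (by omega), Nat.sub_add_cancel (by omega)]; exact h4)
      exact this
    · rw [← List.map_drop, ← List.map_drop, List.drop_drop, List.drop_drop]; exact h5
  rw [← h6, TT_eq, TT_eq, a1, a3, a4]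

theorem hCT [Finite α] [Finite S] (F : D.Fin) (x y : V) :
    HL 1 ({X | X ∈ D.XX ∧ D.TT x X = y} : Language α) := by
  refine fib D.φ (D.p0 + D.N1) F.Pm F.hPm (fun X => D.TT x X = y) (hG_T F x y) (D.XX : Language α)
    D.HL_XX (D.z + F.B + 1) 2 ?_
  intro X hX
  have hz := D.hz
  have hX' : X ∈ D.XX := hX
  exact ⟨by have := hX'.1; omega, bdd F X hX'.2.2⟩

theorem hBT [Finite α] [Finite S] (F : D.Fin) (x y : V) :
    HL 1 ({X | X ∈ D.Bad ∧ D.TT x X = y} : Language α) := by
  have hz := D.hz
  have h1 := fib D.φ (D.p0 + D.N1) F.Pm F.hPm (fun X => D.TT x X = y) (hG_T F x y)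
    ({X | X ∈ D.XX ∧ D.EB X} : Language α)
    (D.HL_XX.setOf_and D.HL_EB) (D.z + F.B + 1) 2 (by
      rintro X ⟨hX, -⟩
      have hX' : X ∈ D.XX := hX
      exact ⟨by have := hX'.1; omega, bdd F X hX'.2.2⟩)
  have h2 := fib D.φ (D.p0 + D.N1) F.Pm F.hPm (fun X => D.BadT (X.length - D.p0) ∧ D.TT x X = y)
    (by
      intro X X' a1 a2 a3 a4 a5 a6
      refine ⟨F.perT _ _ ?_ a6.1, hG_T F x y X X' a1 a2 a3 a4 a5 a6.2⟩
      have := Nat.ModEq.add_right_cancel' D.p0
        (show (X.length - D.p0) + D.p0 ≡ (X'.length - D.p0) + D.p0 [MOD F.Pm] by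
          rw [Nat.sub_add_cancel (by omega), Nat.sub_add_cancel (by omega)]; exact a4)
      exact this)
    (D.XX : Language α) D.HL_XX (D.z + F.B + 1) 2 (by
      intro X hX
      have hX' : X ∈ D.XX := hX
      exact ⟨by have := hX'.1; omega, bdd F X hX'.2.2⟩)
  refine (h1.setOf_or h2).congr fun X => ?_
  constructor
  · rintro ⟨⟨a1, a2 | a2⟩, a3⟩
    · exact Or.inl ⟨⟨a1, a2⟩, a3⟩
    · exact Or.inr ⟨a1, a2, a3⟩
  · rintro (⟨⟨a1, a2⟩, a3⟩ | ⟨a1, a2, a3⟩)
    · exact ⟨⟨a1, Or.inl a2⟩, a3⟩
    · exact ⟨⟨a1, Or.inr a2⟩, a3⟩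

theorem htail [Finite α] [Finite S] (F : D.Fin) (s : S) :
    HL 1 ({w | (∀ X ∈ D.XX, ¬ X <+: w) ∧ (w.map D.φ).prod = s} : Language α) := by
  have h1 : Language.IsRegular ({w | (∀ X ∈ D.XX, ¬ X <+: w)} : Language α) := Reg_852.HL.isRegular D.HL_tail
  have h2 := h1.inf (Reg_852.isRegular_prod D.φ s)
  refine HL_one_of_regular h2 (D.z + F.B + 1) 2 ?_
  rintro w ⟨hw, -⟩
  refine bdd F w ?_
  classical
  intro t h3 h4 h5
  have hex : ∃ t, D.z ≤ t ∧ t ≤ w.length ∧ D.Wo (w.take t) := ⟨t, h3, h4.le, h5⟩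
  obtain ⟨j1, j2, j3⟩ := Nat.find_spec hex
  refine hw (w.take (Nat.find hex)) ⟨by rw [List.length_take]; omega, j3, ?_⟩ (List.take_prefix _ _)
  intro s' a1 a2 a3
  rw [List.length_take, Nat.min_eq_left j2] at a2
  rw [List.take_take, Nat.min_eq_left a2.le] at a3
  exact Nat.find_min hex a2 ⟨a1, by omega, a3⟩

end Dat

end Crest.Agent.R320.Inst_591
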