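import Crest.Agent.R320.InstA_598
import Crest.Agent.R320.Top5_467
import Crest.Agent.R320.RunH1_632

/-!
# Row 320: the instance of `top5` with semantic right languages (helper598)
-/

set_option autoImplicit false

namespace Crest.Agent.R320.Inst_598

open Crest.RegLang Crest.Agent.R320.Hk_851 Crest.Agent.R320.Pump_360 Crest.Agent.R320.Blk467
open Crest.Agent.R320.Top5_467

universe u

variable {α : Type u} {n W : ℕ} {Wo : List α → Prop}

/-- functions that are invariant under pumping -/
def PF {β : Type*} (f : List α → β) : Prop :=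
  ∃ E M : ℕ, 0 < M ∧ ∀ (u x v : List α) (k : ℕ), E ≤ k →
    f (u ++ pw x k ++ v) = f (u ++ pw x (k + M) ++ v)

theorem PF.iter {β : Type*} {f : List α → β} {E M : ℕ}
    (h : ∀ (u x v : List α) (k : ℕ), E ≤ k →
      f (u ++ pw x k ++ v) = f (u ++ pw x (k + M) ++ v)) (j : ℕ) :
    ∀ (u x v : List α) (k : ℕ), E ≤ k →
      f (u ++ pw x k ++ v) = f (u ++ pw x (k + M * j) ++ v) := by
  induction j with
  | zero => intro u x v k _; simp
  | succ j ih =>
    intro u x v k hk
    rw [ih u x v k hk, h u x v (k + M * j) (by omega), Nat.add_assoc, ← Nat.mul_succ]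

theorem PF.comp2 {β γ δ : Type*} {f : List α → β} {g : List α → γ} (hf : PF f) (hg : PF g)
    (F : β → γ → δ) : PF (fun w => F (f w) (g w)) := by
  obtain ⟨E1, M1, h1, hf⟩ := hf
  obtain ⟨E2, M2, h2, hg⟩ := hg
  refine ⟨max E1 E2, M1 * M2, Nat.mul_pos h1 h2, fun u x v k hk => ?_⟩
  have e1 := PF.iter hf M2 u x v k ((le_max_left _ _).trans hk)
  have e2 := PF.iter hg M1 u x v k ((le_max_right _ _).trans hk)
  rw [Nat.mul_comm M2 M1] at e2
  simp only [e1, e2]

theorem PF.comp {β δ : Type*} {f : List α → β} (hf : PF f) (F : β → δ) : PF (fun w => F (f w)) := by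
  obtain ⟨E, M, h1, hf⟩ := hf
  exact ⟨E, M, h1, fun u x v k hk => by simp only [hf u x v k hk]⟩

theorem PF.pinv {P : List α → Prop} (h : PF P) : PInv ({w | P w} : Language α) := by
  obtain ⟨E, M, h1, h⟩ := h
  exact ⟨E, M, h1, fun u x v k hk => by
    change P _ ↔ P _
    rw [h u x v k hk]⟩

theorem PF.of_step {β : Type*} {f : List α → β} {E : ℕ}
    (h : ∀ (u x v : List α) (k : ℕ), E ≤ k →
      f (u ++ pw x k ++ v) = f (u ++ pw x (k + 1) ++ v)) : PF f := ⟨E, 1, one_pos, h⟩

/-- product -/
theorem PF.prod {S : Type*} [Monoid S] [Finite S] (φ : α → S) :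
    PF (fun w : List α => (w.map φ).prod) := by
  obtain ⟨N, p, hp, h⟩ := RunH1_632.pow_ult_periodic_all S
  refine ⟨N, p, hp, fun u x v k hk => ?_⟩
  have e : ∀ k, ((pw x k).map φ).prod = ((x.map φ).prod) ^ k := by
    intro k
    induction k with
    | zero => simp [pw_zero]
    | succ k ih => rw [pw_succ, List.map_append, List.prod_append, ih, pow_succ']
  simp only [List.map_append, List.prod_append, e]
  rw [h _ k hk]

/-- `f (w.drop p)` -/
theorem PF.drop {β : Type*} {f : List α → β} (hf : PF f) (p : ℕ) :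
    PF (fun w => f (w.drop p)) := by
  obtain ⟨E, M, hM, hf⟩ := hf
  refine ⟨E + p, M, hM, fun u x v k hk => ?_⟩
  by_cases hx : x = []
  · subst hx; simp [pw_nil]
  have hx1 : 1 ≤ x.length := List.length_pos_iff.2 hx
  obtain ⟨j, rfl⟩ : ∃ j, k = p + j := ⟨k - p, by omega⟩
  have hl : p ≤ (u ++ pw x p).length := by
    rw [List.length_append, pw_length]
    have : p ≤ p * x.length := Nat.le_mul_of_pos_right p hx1
    omega
  have key : ∀ i, (u ++ pw x (p + i) ++ v).drop p = (u ++ pw x p).drop p ++ pw x i ++ v := by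
    intro i
    have : u ++ pw x (p + i) ++ v = (u ++ pw x p) ++ (pw x i ++ v) := by
      rw [pw_add]; simp [List.append_assoc]
    rw [this, List.drop_append_of_le_length hl, List.append_assoc]
  have e1 := key j
  have e2 := key (j + M)
  rw [← Nat.add_assoc] at e2
  change f _ = f _
  rw [e1, e2]
  exact hf _ _ _ _ (by omega)

/-- `w.take p` -/
theorem PF.take (p : ℕ) : PF (fun w : List α => w.take p) := by
  refine ⟨p, 1, one_pos, fun u x v k hk => ?_⟩
  by_cases hx : x = []
  · subst hx; simp [pw_nil]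
  have hx1 : 1 ≤ x.length := List.length_pos_iff.2 hx
  have hl : p ≤ (u ++ pw x k).length := by
    rw [List.length_append, pw_length]
    have : k ≤ k * x.length := Nat.le_mul_of_pos_right k hx1
    omega
  have e : u ++ pw x (k + 1) ++ v = (u ++ pw x k) ++ (pw x 1 ++ v) := by
    rw [pw_add]; simp [List.append_assoc]
  change (u ++ pw x k ++ v).take p = (u ++ pw x (k + 1) ++ v).take p
  rw [e, List.take_append_of_le_length hl, List.take_append_of_le_length hl]

/-- length mod `m`, and the truth of `c ≤ |w|` -/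
theorem PF.lenmod (m : ℕ) (hm : 0 < m) : PF (fun w : List α => w.length % m) := by
  refine ⟨0, m, hm, fun u x v k _ => ?_⟩
  simp only [List.length_append, pw_length]
  have : u.length + (k + m) * x.length + v.length
      = u.length + k * x.length + v.length + m * x.length := by ring
  rw [this, Nat.add_mul_mod_self_left]

theorem PF.lenge (c : ℕ) : PF (fun w : List α => c ≤ w.length) := by
  refine ⟨c, 1, one_pos, fun u x v k hk => ?_⟩
  by_cases hx : x = []
  · subst hx; simp [pw_nil]
  have hx1 : 1 ≤ x.length := List.length_pos_iff.2 hx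
  have h1 : k ≤ k * x.length := Nat.le_mul_of_pos_right k hx1
  have h2 : (k + 1) * x.length = k * x.length + x.length := by ring
  have a1 : c ≤ (u ++ pw x k ++ v).length := by
    simp only [List.length_append, pw_length]; omega
  have a2 : c ≤ (u ++ pw x (k + 1) ++ v).length := by
    simp only [List.length_append, pw_length]; omega
  simp only [a1, a2]

theorem PF.hasW (hW : Walls α n W Wo) (z : ℕ) : PF (fun w : List α => HasW Wo z w) :=
  ⟨n + z + 1, 1, one_pos, fun u x v k hk => propext (hasW_step hW z u x v k hk)⟩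

theorem PF.wo (hW : Walls α n W Wo) : PF (fun w : List α => Wo w) := by
  refine ⟨n, 1, one_pos, fun u x v k hk => ?_⟩
  by_cases hx : x = []
  · subst hx; simp [pw_nil]
  have hx1 : 1 ≤ x.length := List.length_pos_iff.2 hx
  have h1 : k ≤ k * x.length := Nat.le_mul_of_pos_right k hx1
  exact propext (wall_step hW u x v k (by simp only [List.length_append, pw_length]; omega))

/-- a property of `w.take c` together with `c ≤ |w|` -/
theorem PF.bounded {β : Type*} (f : List α → β) (c : ℕ) : PF (fun w => f (w.take c)) :=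
  (PF.take c).comp f

/-! ### data -/

/-- everything that the instance needs -/
structure Dat (α : Type u) (S V : Type u) [Monoid S] [AddCommGroup V] (n W : ℕ)
    (Wo : List α → Prop) where
  φ : α → S
  act : V → S → V
  z : ℕ
  p0 : ℕ
  N1 : ℕ
  A : ℕ
  Pm : ℕ
  BadT : ℕ → Prop
  lam : List α → Option V
  rho : List α → Option V
  nu1 : List α → V
  nu2 : List α → V
  K : ℕ
  c : ℕ → ℕ
  lam2 : ℕ → List α → Option V

namespace Dat

variable {S V : Type u} [Monoid S] [AddCommGroup V] (D : Dat α S V n W Wo)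

def ph (w : List α) : S := (w.map D.φ).prod

theorem ph_append (u v : List α) : D.ph (u ++ v) = D.ph u * D.ph v := by
  unfold ph; rw [List.map_append, List.prod_append]

def nu (w : List α) : V := D.act (D.nu2 (w.take D.p0)) (D.ph (w.drop D.p0)) + D.nu1 (w.drop D.p0)

def T (v : V) (w : List α) : V := D.act v (w.map D.φ).prod + D.nu w

def XX : Set (List α) := {w | D.z ≤ w.length ∧ Wo w ∧ ¬ HasW Wo D.z w}

/-- wall band -/
def Eb (w : List α) : Prop :=
  ∃ t, D.z ≤ t + D.N1 ∧ t < D.z + D.N1 ∧ t ≤ w.length ∧ Wo (w.take t)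

def Bad : Set (List α) := {w | w ∈ D.XX ∧ (D.Eb w ∨ D.BadT (w.length - D.p0))}

def LP1 (v : V) : Language α :=
  {P | D.p0 ≤ P.length ∧ D.lam (P.drop D.p0) = some (D.act v (D.ph (P.take D.p0)) + D.nu2 (P.take D.p0))}

def LP2 (v : V) : Language α := {P | ∃ k < D.K, P.length = D.c k ∧ D.lam2 k P = some v}

def RQ1 (b : V) : Language α := {Q | ∀ v P, P ∈ D.LP1 v → P ++ Q ∈ D.XX ∧ D.T v (P ++ Q) = b}

/-- two bad blocks with thread `v → b`, or a good block first -/
def A2 (v b : V) : Language α :=
  {w | (∃ X Y, X ∈ D.Bad ∧ Y ∈ D.Bad ∧ w = X ++ Y ∧ D.T (D.T v X) Y = b) ∨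
    (∃ X, X ∈ D.XX ∧ X ∉ D.Bad ∧ X <+: w)}

def RQ2 (b : V) : Language α := {Q | ∀ v P, P ∈ D.LP2 v → P ++ Q ∈ D.A2 v b}

end Dat

end Crest.Agent.R320.Inst_598
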