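import Crest.Agent.R320.InstA_630

/-!
# Row 320: instance of `Top5_120.top5`, part B: the height one facts (helper630)
-/

set_option autoImplicit false

namespace Crest.Agent.R320.Inst_630

open Crest.RegLang Crest.Agent.R320.Hk_851 Crest.Agent.R320.FewWalls_228
  Crest.Agent.R320.FewVal_228 Crest.Agent.R320.Blk467

universe u

variable {α : Type u}

theorem reg_of_key {κ : Type*} [Finite κ] (key : List α → κ) (L : Language α)
    (h : ∀ u u', key u = key u' → ∀ w, u ++ w ∈ L → u' ++ w ∈ L) : L.IsRegular := by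
  classical
  apply Language.IsRegular.of_finite_range_leftQuotient
  let g : κ → Language α := fun k => {w | ∃ u, key u = k ∧ u ++ w ∈ L}
  refine (Set.finite_range g).subset ?_
  rintro _ ⟨x, rfl⟩
  refine ⟨key x, ?_⟩
  ext w
  constructor
  · rintro ⟨u, hu, hw⟩
    exact h u x hu w hw
  · intro hw
    exact ⟨x, rfl, hw⟩

namespace Dat

variable {S V : Type*} [Monoid S] [AddCommGroup V] (D : Dat α S V)

/-- length of the exact prefix of the key -/
def K0 : ℕ := D.z + D.N1 + D.p0 + D.K1 + D.n + 1

def flag (u : List α) : Prop := ∃ t, D.z ≤ t ∧ t < u.length ∧ D.W u t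

def key (u : List α) : {b : List α // b.length ≤ D.K0} × Fin D.Mo × S ×
    {b : List α // b.length ≤ D.n} × Prop :=
  (⟨u.take D.K0, by rw [List.length_take]; omega⟩, ⟨u.length % D.Mo, Nat.mod_lt _ D.hMo⟩,
    ph D.φ (u.drop D.p0), ⟨lastn D.n u, lastn_length _ _⟩, D.flag u)

structure Eqv (u u' : List α) : Prop where
  l : D.K0 ≤ u.length
  l' : D.K0 ≤ u'.length
  tk : u.take D.K0 = u'.take D.K0
  md : u.length % D.Mo = u'.length % D.Mo
  pr : ph D.φ (u.drop D.p0) = ph D.φ (u'.drop D.p0)
  ln : lastn D.n u = lastn D.n u'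
  fl : D.flag u ↔ D.flag u'

theorem eqv_of_key {u u' : List α} (h : D.key u = D.key u') : u = u' ∨ D.Eqv u u' := by
  unfold key at h
  simp only [Prod.mk.injEq, Subtype.mk.injEq, Fin.mk.injEq, eq_iff_iff] at h
  obtain ⟨h1, h2, h3, h4, h5⟩ := h
  by_cases hl : D.K0 ≤ u.length
  · by_cases hl' : D.K0 ≤ u'.length
    · exact Or.inr ⟨hl, hl', h1, h2, h3, h4, h5⟩
    · exfalso
      have := congrArg List.length h1
      rw [List.length_take, List.length_take] at this
      omega
  · left
    have := congrArg List.length h1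
    rw [List.length_take, List.length_take] at this
    rw [List.take_of_length_le (by omega), List.take_of_length_le (by omega)] at h1
    exact h1

instance [Finite α] [Finite S] : Finite ({b : List α // b.length ≤ D.K0} × Fin D.Mo × S ×
    {b : List α // b.length ≤ D.n} × Prop) := by
  haveI : Finite {b : List α // b.length ≤ D.K0} := (List.finite_length_le α _).to_subtype
  haveI : Finite {b : List α // b.length ≤ D.n} := (List.finite_length_le α _).to_subtype
  infer_instance

theorem reg [Finite α] [Finite S] (L : Language α)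
    (h : ∀ u u', D.Eqv u u' → ∀ w, u ++ w ∈ L → u' ++ w ∈ L) : L.IsRegular := by
  refine reg_of_key D.key L ?_
  intro u u' hk w hw
  rcases D.eqv_of_key hk with rfl | h'
  · exact hw
  · exact h u u' h' w hw

theorem Eqv.symm {u u' : List α} (h : D.Eqv u u') : D.Eqv u' u :=
  ⟨h.l', h.l, h.tk.symm, h.md.symm, h.pr.symm, h.ln.symm, h.fl.symm⟩

/-- walls near the origin -/
theorem Eqv.wnear {u u' : List α} (h : D.Eqv u u') (w : List α) (t : ℕ) (ht : t ≤ D.K0) :
    D.W (u ++ w) t ↔ D.W (u' ++ w) t := by
  have e : ∀ u : List α, D.K0 ≤ u.length → (D.W (u ++ w) t ↔ D.W (u.take D.K0) t) := by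
    intro u hu
    have h1 := wt_left (n := D.n) (S := D.Sw) (u.take D.K0) (u.drop D.K0 ++ w) t
      (by rw [List.length_take]; omega)
    rw [← List.append_assoc, List.take_append_drop] at h1
    exact h1
  rw [e u h.l, e u' h.l', h.tk]

/-- walls far from the origin -/
theorem wfar {u : List α} (hu : D.n ≤ u.length) (w : List α) (s : ℕ) (hs : D.n ≤ s) :
    D.W (u ++ w) (u.length - D.n + s) ↔ D.W (lastn D.n u ++ w) s := by
  have h1 := wt_right (n := D.n) (S := D.Sw) (u.take (u.length - D.n)) (lastn D.n u ++ w) s hs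
  have h2 : u.take (u.length - D.n) ++ lastn D.n u = u := List.take_append_drop _ _
  rw [← List.append_assoc, h2, List.length_take, Nat.min_eq_left (by omega)] at h1
  exact h1

theorem ln_len {u : List α} (hu : D.n ≤ u.length) : (lastn D.n u).length = D.n := by
  unfold lastn
  rw [List.length_drop]; omega

/-- transfer of walls: places of `u ++ w` beyond `u` -/
theorem Eqv.wfar' {u u' : List α} (h : D.Eqv u u') (w : List α) (s : ℕ) :
    D.W (u ++ w) (u.length + s) ↔ D.W (u' ++ w) (u'.length + s) := by
  have hl := h.l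
  have hl' := h.l'
  unfold K0 at hl hl'
  have h1 := D.wfar (u := u) (by omega) w (D.n + s) (by omega)
  have h2 := D.wfar (u := u') (by omega) w (D.n + s) (by omega)
  rw [show u.length - D.n + (D.n + s) = u.length + s by omega] at h1
  rw [show u'.length - D.n + (D.n + s) = u'.length + s by omega] at h2
  rw [h1, h2, h.ln]

theorem Eqv.inC {u u' : List α} (h : D.Eqv u u') (w : List α) (hC : u ++ w ∈ D.C) :
    u' ++ w ∈ D.C := by
  have hl := h.l
  have hl' := h.l'
  unfold K0 at hl hl'
  obtain ⟨h1, h2, h3⟩ := hC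
  refine ⟨by rw [List.length_append]; omega, ?_, ?_⟩
  · rw [List.length_append] at h2 ⊢
    exact (h.wfar' D w _).1 h2
  · intro t ht1 ht2 ht3
    rw [List.length_append] at ht2
    rcases Nat.lt_or_ge t u'.length with hc | hc
    · have h4 : D.flag u' := ⟨t, ht1, hc, (wt_left u' w t hc.le).1 ht3⟩
      obtain ⟨s, hs1, hs2, hs3⟩ := h.fl.2 h4
      exact h3 s hs1 (by rw [List.length_append]; omega) ((wt_left u w s hs2.le).2 hs3)
    · have h5 := (h.wfar' D w (t - u'.length)).2 (by
        rw [show u'.length + (t - u'.length) = t by omega]; exact ht3)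
      exact h3 _ (by omega) (by rw [List.length_append]; omega) h5

theorem BT_add (a k : ℕ) : D.BT (a + k * D.Mo) ↔ D.BT a := by
  induction k with
  | zero => simp
  | succ k ih =>
    rw [show a + (k + 1) * D.Mo = a + k * D.Mo + D.Mo by ring, D.hBT, ih]

theorem BT_congr {a b : ℕ} (h : a % D.Mo = b % D.Mo) : D.BT a ↔ D.BT b := by
  have h1 := Nat.mod_add_div a D.Mo
  have h2 := Nat.mod_add_div b D.Mo
  rw [← h1, ← h2, h, mul_comm D.Mo, mul_comm D.Mo, D.BT_add, D.BT_add]

theorem Eqv.mod_drop {u u' : List α} (h : D.Eqv u u') (w : List α) :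
    ((u ++ w).length - D.p0) % D.Mo = ((u' ++ w).length - D.p0) % D.Mo := by
  have hl := h.l
  have hl' := h.l'
  unfold K0 at hl hl'
  have h1 : (u ++ w).length - D.p0 + D.p0 ≡ (u' ++ w).length - D.p0 + D.p0 [MOD D.Mo] := by
    rw [List.length_append, List.length_append,
      show u.length + w.length - D.p0 + D.p0 = u.length + w.length by omega,
      show u'.length + w.length - D.p0 + D.p0 = u'.length + w.length by omega]
    exact Nat.ModEq.add_right _ h.md
  exact Nat.ModEq.add_right_cancel' _ h1

theorem Eqv.badW {u u' : List α} (h : D.Eqv u u') (w : List α) (hB : D.BadW (u ++ w)) :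
    D.BadW (u' ++ w) := by
  rcases hB with ⟨t, h1, h2, h3⟩ | hB
  · exact Or.inl ⟨t, h1, h2, (h.wnear D w t (by unfold K0; omega)).1 h3⟩
  · right
    exact (D.BT_congr (h.mod_drop D w)).1 hB

theorem Eqv.T {u u' : List α} (h : D.Eqv u u') (w : List α) (x : V) :
    D.T x (u ++ w) = D.T x (u' ++ w) := by
  have hl := h.l
  have hl' := h.l'
  unfold K0 at hl hl'
  rw [D.T_eq, D.T_eq]
  have etk : u.take D.p0 = u'.take D.p0 := by
    have := congrArg (List.take D.p0) h.tk
    rw [List.take_take, List.take_take, Nat.min_eq_left (by unfold K0; omega)] at this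
    exact this
  have e1 : (u ++ w).take D.p0 = (u' ++ w).take D.p0 := by
    rw [List.take_append_of_le_length (by omega), List.take_append_of_le_length (by omega), etk]
  have e2 : ph D.φ ((u ++ w).drop D.p0) = ph D.φ ((u' ++ w).drop D.p0) := by
    rw [List.drop_append_of_le_length (by omega), List.drop_append_of_le_length (by omega),
      ph_append, ph_append, h.pr]
  have e3 : D.nu1 ((u ++ w).drop D.p0) = D.nu1 ((u' ++ w).drop D.p0) := by
    apply D.g5
    · rw [List.length_drop, List.length_append]; omega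
    · rw [List.length_drop, List.length_append]; omega
    · rw [List.take_drop, List.take_drop, List.take_append_of_le_length (by omega),
        List.take_append_of_le_length (by omega)]
      have := congrArg (List.take (D.p0 + D.K1)) h.tk
      rw [List.take_take, List.take_take, Nat.min_eq_left (by unfold K0; omega)] at this
      rw [this]
    · rw [List.length_drop, List.length_drop]
      exact h.mod_drop D w
    · exact e2
  rw [e1, e2, e3]

theorem reg_CT [Finite α] [Finite S] (x y : V) :
    Language.IsRegular ({X | X ∈ D.C ∧ D.T x X = y} : Language α) := by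
  refine D.reg _ ?_
  rintro u u' h w ⟨h1, h2⟩
  exact ⟨h.inC D w h1, by rw [← h.T D w x]; exact h2⟩

theorem reg_BT [Finite α] [Finite S] (x y : V) :
    Language.IsRegular ({X | X ∈ D.Bad ∧ D.T x X = y} : Language α) := by
  refine D.reg _ ?_
  rintro u u' h w ⟨⟨h1, h3⟩, h2⟩
  exact ⟨⟨h.inC D w h1, h.badW D w h3⟩, by rw [← h.T D w x]; exact h2⟩

theorem noP_iff (w : List α) : (∀ X ∈ D.C, ¬ X <+: w) ↔ ∀ t, D.z ≤ t → ¬ D.W w t := by
  classical
  constructor
  · intro h t ht1 ht2
    have hex : ∃ t, D.z ≤ t ∧ D.W w t := ⟨t, ht1, ht2⟩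
    obtain ⟨h1, h2⟩ := Nat.find_spec hex
    have h3 := fun m (hm : m < Nat.find hex) => Nat.find_min hex hm
    generalize Nat.find hex = r at h1 h2 h3
    have hr : r ≤ w.length := h2.2.1
    have hl : (w.take r).length = r := by rw [List.length_take]; omega
    have hW : ∀ s ≤ r, (D.W (w.take r) s ↔ D.W w s) := by
      intro s hs
      have := wt_left (n := D.n) (S := D.Sw) (w.take r) (w.drop r) s (by omega)
      rw [List.take_append_drop] at this
      exact this.symm
    refine h (w.take r) ⟨?_, ?_, ?_⟩ (List.take_prefix _ _)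
    · rw [hl]; exact h1
    · rw [hl, hW r le_rfl]; exact h2
    · intro s hs1 hs2 hs3
      rw [hl] at hs2
      rw [hW s hs2.le] at hs3
      exact h3 s hs2 ⟨hs1, hs3⟩
  · rintro h X hX ⟨r, rfl⟩
    exact h X.length hX.1 ((wt_left X r _ le_rfl).2 hX.2.1)

theorem reg_tail [Finite α] [Finite S] (s : S) :
    Language.IsRegular ({w | (∀ X ∈ D.C, ¬ X <+: w) ∧ ph D.φ w = s} : Language α) := by
  refine D.reg _ ?_
  rintro u u' h w ⟨h1, h2⟩
  rw [D.noP_iff] at h1
  have hl := h.l
  have hl' := h.l'
  unfold K0 at hl hl'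
  refine ⟨(D.noP_iff _).2 ?_, ?_⟩
  · intro t ht1 ht3
    rcases Nat.lt_or_ge t u'.length with hc | hc
    · have h4 : D.flag u' := ⟨t, ht1, hc, (wt_left u' w t hc.le).1 ht3⟩
      obtain ⟨s, hs1, hs2, hs3⟩ := h.fl.2 h4
      exact h1 s hs1 ((wt_left u w s hs2.le).2 hs3)
    · have h5 := (h.wfar' D w (t - u'.length)).2 (by
        rw [show u'.length + (t - u'.length) = t by omega]; exact ht3)
      exact h1 _ (by omega) h5
  · rw [← h2]
    have etk : u.take D.p0 = u'.take D.p0 := by
      have := congrArg (List.take D.p0) h.tk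
      rw [List.take_take, List.take_take, Nat.min_eq_left (by unfold K0; omega)] at this
      exact this
    have e : ∀ u : List α, ph D.φ (u ++ w) = ph D.φ (u.take D.p0) * ph D.φ (u.drop D.p0) *
        ph D.φ w := by
      intro u
      rw [← ph_append, ← ph_append, List.take_append_drop]
    rw [e u, e u', etk, h.pr]

/-- the marker clauses used for height one -/
theorem main [Finite α] [Finite S] [Finite V] (hn : 0 < D.n) {cc P : ℕ} (hP : 0 < P)
    (hper : PerOff D.n cc P D.Sw) (s : S) :
    HL 3 ({w | (w.map D.φ).prod = s} : Language α) := by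
  have hfew : ∀ X ∈ D.C, nw D.n D.Sw X ≤ D.z + 1 := fun X hX => nw_le X hX.2.2
  refine Top5_120.top5 D.act D.hadd D.hone D.hmul D.hfaith D.φ D.nu D.C D.Bad D.pcode
    (fun X hX => hX.1) D.L1 D.L2 D.L1_finite D.L2_finite ?_ ?_ ?_ D.cc1 ?_ s
  · intro x y
    exact HL_of_few hn hP hper (D.z + 1) (D.reg_CT x y) (fun X hX => hfew X hX.1)
  · intro x y
    exact HL_of_few hn hP hper (D.z + 1) (D.reg_BT x y) (fun X hX => hfew X hX.1.1)
  · intro s
    refine HL_of_few hn hP hper (D.z + 1) (D.reg_tail s) (fun X hX => nw_le X ?_)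
    intro t h1 h2
    exact (D.noP_iff X).1 hX.1 t h1
  · exact fun X hX Y hY v => D.cc2 X hX Y hY v

end Dat

end Crest.Agent.R320.Inst_630
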