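import Crest.Agent.R320.InstA_640

/-! Row 320: instance of `Main_621.Data`, scheme B (helper640) -/

set_option autoImplicit false
set_option linter.all false

namespace Crest.Agent.R320.InstB_640

open Crest.Agent.R320.Hk_851 Crest.Agent.R320.Star_621 Crest.Agent.R320.Two_621
open Crest.Agent.R320.InstA_640 Crest.Agent.R320.ExactR_237

variable {α : Type}

/-- monoid of scheme B -/
abbrev TB (S : Type) : Type := (Function.End (Option (Tok S)))ᵐᵒᵖ

variable {S : Type} [Monoid S] (f : α → S) (Wo : List α → Prop) (p0 m N1 : ℕ)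
variable (lam : List α → Option (Tok S)) (nu : List α → Tok S) (BadN : ℕ → Prop)

/-- letters in the monoid of scheme B -/
def gB (f : α → S) (a : α) : TB S := MulOpposite.op fun o => o.map fun v => act v (f a)

theorem pr_gB (w : List α) (o : Option (Tok S)) :
    (pr (gB f) w).unop o = o.map fun v => act v (ph f w) := by
  induction w generalizing o with
  | nil =>
    show o = _
    cases o with
    | none => rfl
    | some v => simp [ph, act_one]
  | cons a w ih =>
    have h : pr (gB f) (a :: w) = gB f a * pr (gB f) w := by simp [pr]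
    rw [h, MulOpposite.unop_mul]
    show (pr (gB f) w).unop ((gB f a).unop o) = _
    rw [ih]
    cases o with
    | none => rfl
    | some v =>
      show some (act (act v (f a)) (ph f w)) = some (act v (ph f (a :: w)))
      rw [act_mul]; simp [ph]

def CutY (f : α → S) (Wo : List α → Prop) (p0 m : ℕ) (lam : List α → Option (Tok S))
    (nu : List α → Tok S) (v : Tok S) (Y : List α) : Prop :=
  ∃ P Q τ, Y = P ++ Q ∧ lam P = some v ∧ Q ∈ RA f Wo p0 m lam nu τ

open Classical in
noncomputable def hY (f : α → S) (Wo : List α → Prop) (p0 m : ℕ) (lam : List α → Option (Tok S))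
    (nu : List α → Tok S) (Y : List α) : TB S :=
  MulOpposite.op fun o => o.bind fun v =>
    if CutY f Wo p0 m lam nu v Y then none else some (act v (ph f Y) + dY f Wo m nu Y)

theorem cut_iff {z : List α} (hz : p0 ≤ z.length) (v : Tok S) :
    Cut (LA f p0 lam) (RA f Wo p0 m lam nu) v z ↔
      CutY f Wo p0 m lam nu (act v (ph f (z.take p0))) (z.drop p0) := by
  constructor
  · rintro ⟨P, Q, τ, rfl, ⟨hP1, hP2⟩, hQ⟩
    refine ⟨P.drop p0, Q, τ, ?_, ?_, hQ⟩
    · rw [List.drop_append_of_le_length hP1]
    · rw [List.take_append_of_le_length hP1]; exact hP2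
  · rintro ⟨P, Q, τ, h1, h2, h3⟩
    have hl : (z.take p0).length = p0 := by rw [List.length_take]; omega
    refine ⟨z.take p0 ++ P, Q, τ, ?_, ⟨?_, ?_⟩, h3⟩
    · rw [List.append_assoc, ← h1, List.take_append_drop]
    · rw [List.length_append, hl]; omega
    · rw [List.drop_left' hl, List.take_left' hl]; exact h2

theorem stepA_eq {z : List α} (hz : p0 ≤ z.length) :
    stepA (psiA f Wo p0 m nu) (LA f p0 lam) (RA f Wo p0 m lam nu) z =
      pr (gB f) (z.take p0) * hY f Wo p0 m lam nu (z.drop p0) := by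
  classical
  apply MulOpposite.unop_injective
  funext o
  rw [MulOpposite.unop_mul]
  show _ = (hY f Wo p0 m lam nu (z.drop p0)).unop ((pr (gB f) (z.take p0)).unop o)
  rw [pr_gB]
  cases o with
  | none => rfl
  | some v =>
    show (if Cut (LA f p0 lam) (RA f Wo p0 m lam nu) v z then none
        else some (psiA f Wo p0 m nu z v)) =
      (if CutY f Wo p0 m lam nu (act v (ph f (z.take p0))) (z.drop p0) then none
        else some (act (act v (ph f (z.take p0))) (ph f (z.drop p0)) + dY f Wo m nu (z.drop p0)))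
    by_cases hc : Cut (LA f p0 lam) (RA f Wo p0 m lam nu) v z
    · rw [if_pos hc, if_pos ((cut_iff f Wo p0 m lam nu hz v).1 hc)]
    · rw [if_neg hc, if_neg (fun h => hc ((cut_iff f Wo p0 m lam nu hz v).2 h))]
      congr 1
      unfold psiA aff dA
      rw [act_mul, ← ph_app, List.take_append_drop]

section B

variable (K : ℕ) (c : ℕ → ℕ) (lamB : ℕ → List α → Option (Tok (TB S)))
variable (rhoB : ℕ → List α → TB S → Option (Tok (TB S))) (nuB : List α → TB S → Tok (TB S))

noncomputable def dB (f : α → S) (Wo : List α → Prop) (p0 m : ℕ) (lam : List α → Option (Tok S))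
    (nu : List α → Tok S) (nuB : List α → TB S → Tok (TB S)) (z : List α) : Tok (TB S) :=
  nuB (z.take p0) (hY f Wo p0 m lam nu (z.drop p0))

noncomputable def psiB (f : α → S) (Wo : List α → Prop) (p0 m : ℕ) (lam : List α → Option (Tok S))
    (nu : List α → Tok S) (nuB : List α → TB S → Tok (TB S)) :
    List α → Tok (TB S) → Tok (TB S) :=
  aff (stepA (psiA f Wo p0 m nu) (LA f p0 lam) (RA f Wo p0 m lam nu)) (dB f Wo p0 m lam nu nuB)

def LB (K : ℕ) (c : ℕ → ℕ) (lamB : ℕ → List α → Option (Tok (TB S))) (x : Tok (TB S)) :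
    Language α :=
  {P | ∃ k < K, P.length = c k ∧ lamB k P = some x}

def RB (y : Tok (TB S)) : Language α :=
  {Q | ∀ x P, P ∈ LB K c lamB x → ∀ z ∈ Zc Wo p0 m N1 BadN, ∀ x' y', P ++ Q ++ x' = z ++ y' →
    P ++ Q = z ∧ y = psiB f Wo p0 m lam nu nuB z x}

theorem soundB (hc0 : ∀ k < K, 0 < c k) :
    Sound (Zc Wo p0 m N1 BadN) (psiB f Wo p0 m lam nu nuB) (LB K c lamB)
      (RB f Wo p0 m N1 lam nu BadN K c lamB nuB) := by
  constructor
  · rintro x ⟨k, hk, h1, -⟩
    have := hc0 k hk
    simp at h1; omega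
  · intro x y P Q z x' y' hP hQ hz he
    exact hQ x P hP z hz x' y' he

theorem wo_drop {n W : ℕ} (hW : LW Wo n W) {w : List α} (i : ℕ) (hi : n ≤ i)
    (hw : p0 + n ≤ w.length) : Wo ((w.drop p0).take i) ↔ Wo (w.take (p0 + i)) := by
  rw [List.take_add]
  exact (hW.loc _ _ (by rw [List.length_take, List.length_drop]; omega)).symm

theorem completeB {n W span C1 R : ℕ} (hW : LW Wo n W) (hcp : ∀ k < K, c k < p0)
    (hcs : ∀ k < K, c k ≤ span) (hWs : 2 * N1 + 2 * span ≤ W) (hm : 2 * N1 + 2 * span + n ≤ m)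
    (hsound : ∀ k < K, ∀ (P Q : List α) (y : TB S) (v b : Tok (TB S)), P.length = c k →
      lamB k P = some v → rhoB k Q y = some b →
      b = act v (pr (gB f) (P ++ Q) * y) + nuB (P ++ Q) y)
    (hcomp : ∀ (u : List α) (y : TB S) (v : Tok (TB S)), (∀ k < K, c k ≤ u.length) →
      ∃ I : Finset ℕ, R ≤ I.card ∧ ∀ k ∈ I, k < K ∧ lamB k (u.take (c k)) = some v ∧
        (rhoB k (u.drop (c k)) y).isSome)
    (hR : 3 * C1 < R)
    (hsp : ∀ s, m ≤ s + N1 + span → ∃ F : Finset ℕ, F.card ≤ C1 ∧ ∀ k < K, k ∉ F →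
      ∀ j < K, j ≠ k → ¬ ((m ≤ s + c j - c k + N1 ∧ s + c j - c k ≤ m + N1) ∨
        BadN (s + c j - c k)))
    {z : List α} (hz : z ∈ Zc Wo p0 m N1 BadN) (x : Tok (TB S)) :
    Cut (LB K c lamB) (RB f Wo p0 m N1 lam nu BadN K c lamB nuB) x z := by
  classical
  obtain ⟨⟨h1, t, ht⟩, hEB⟩ := hz
  set Y := z.drop p0 with hY0
  have hYl : Y.length = z.length - p0 := by rw [hY0, List.length_drop]
  have hgapt : W < Y.length - t := by
    apply hW.gap' ht.2.1 le_rfl ht.2.2.1
    rw [List.take_length]; exact ht.2.2.2.2.1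
  -- the wall just before m
  obtain ⟨tm, htm1, htm2⟩ : ∃ tm, m ≤ tm + N1 + span ∧
      ∀ s, m ≤ s + N1 + span → s < m → Wo (Y.take s) → s = tm := by
    by_cases hex : ∃ s, m ≤ s + N1 + span ∧ s < m ∧ Wo (Y.take s)
    · obtain ⟨s0, hs1, hs2, hs3⟩ := hex
      refine ⟨s0, hs1, fun s h1 h2 h3 => ?_⟩
      rcases lt_trichotomy s s0 with hl | hl | hl
      · have := hW.gap' hl (by have := ht.1; have := ht.2.1; omega) h3 hs3
        omega
      · exact hl
      · have := hW.gap' hl (by have := ht.1; have := ht.2.1; omega) hs3 h3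
        omega
    · exact ⟨m, by omega, fun s h1 h2 h3 => (hex ⟨s, h1, h2, h3⟩).elim⟩
  obtain ⟨F1, hF1, hF1'⟩ := hsp tm htm1
  obtain ⟨F2, hF2, hF2'⟩ := hsp t (by have := ht.1; omega)
  obtain ⟨F3, hF3, hF3'⟩ := hsp Y.length (by have := ht.1; omega)
  obtain ⟨I, hI, hI'⟩ := hcomp (z.take p0) (hY f Wo p0 m lam nu Y) x (by
    intro k hk
    have := hcp k hk
    rw [List.length_take]; omega)
  obtain ⟨k, hkI, hkF⟩ : ∃ k ∈ I, k ∉ F1 ∪ F2 ∪ F3 := by
    by_contra hcon
    push Not at hcon
    have h2 : I.card ≤ (F1 ∪ F2 ∪ F3).card := Finset.card_le_card hcon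
    have h3 := Finset.card_union_le (F1 ∪ F2) F3
    have h4 := Finset.card_union_le F1 F2
    omega
  obtain ⟨hkK, hlk, hrk⟩ := hI' k hkI
  obtain ⟨b, hb⟩ := Option.isSome_iff_exists.1 hrk
  have hck := hcp k hkK
  have hcks := hcs k hkK
  simp only [Finset.mem_union, not_or] at hkF
  refine ⟨z.take (c k), z.drop (c k), b, (List.take_append_drop _ _).symm,
    ⟨k, hkK, by rw [List.length_take]; omega, ?_⟩, ?_⟩
  · rw [List.take_take, min_eq_left (by omega)] at hlk
    exact hlk
  rintro x1 P1 ⟨j, hjK, hP1l, hP1⟩ z' hz' x' y' he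
  have hcj := hcp j hjK
  have hcjs := hcs j hjK
  have hQl : (z.drop (c k)).length = z.length - c k := List.length_drop
  by_cases hjk : j = k
  · subst hjk
    have hsplit : z.drop (c j) = (z.take p0).drop (c j) ++ Y := by
      rw [hY0]
      conv_lhs => rw [← List.take_append_drop p0 z]
      rw [List.drop_append_of_le_length (by rw [List.length_take]; omega)]
    have hXl : (P1 ++ (z.take p0).drop (c j)).length = p0 := by
      rw [List.length_append, List.length_drop, List.length_take]; omega
    have ew : P1 ++ z.drop (c j) = (P1 ++ (z.take p0).drop (c j)) ++ Y := by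
      rw [hsplit, List.append_assoc]
    have ed : (P1 ++ z.drop (c j)).drop p0 = Y := by
      rw [ew, List.drop_left' hXl]
    have et : (P1 ++ z.drop (c j)).take p0 = P1 ++ (z.take p0).drop (c j) := by
      rw [ew, List.take_left' hXl]
    have hl : p0 ≤ (P1 ++ z.drop (c j)).length := by
      rw [ew, List.length_append, hXl]; omega
    have hwZc : P1 ++ z.drop (c j) ∈ Zc Wo p0 m N1 BadN := by
      refine ⟨⟨hl, t, ?_⟩, ?_⟩
      · rw [ed]; exact ht
      · rw [ed]; exact hEB
    have heq := (code_Z Wo p0 m (Or.inr (by omega))).2 _ _ _ _ hwZc.1 hz'.1 he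
    refine ⟨heq, ?_⟩
    rw [← heq]
    unfold psiB aff dB
    rw [stepA_eq f Wo p0 m lam nu hl, ed, et]
    exact hsound j hjK P1 _ _ x1 b hP1l hP1 hb
  · exfalso
    obtain ⟨⟨h1', t', ht'⟩, hEB'⟩ := hz'
    have hm' := ht'.1
    have hgap' : W < (z'.drop p0).length - t' := by
      apply hW.gap' ht'.2.1 le_rfl ht'.2.2.1
      rw [List.take_length]; exact ht'.2.2.2.2.1
    have hY'l : (z'.drop p0).length = z'.length - p0 := List.length_drop
    have hwl : (P1 ++ z.drop (c k)).length = c j + (z.length - c k) := by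
      rw [List.length_append, hP1l, hQl]
    have htm' := ht.1
    -- common prefix
    have hcom : ∀ i, i ≤ (P1 ++ z.drop (c k)).length → i ≤ z'.length →
        (P1 ++ z.drop (c k)).take i = z'.take i := by
      intro i hi hi'
      have := congrArg (List.take i) he
      rwa [List.take_append_of_le_length hi, List.take_append_of_le_length hi'] at this
    -- transfer of walls
    have htr : ∀ i, n + span ≤ i → Wo ((P1 ++ z.drop (c k)).take (p0 + i)) →
        Wo (Y.take (i + c k - c j)) := by
      intro i hi hw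
      have h3 := (hW.shift P1 (z.take (c k)) (z.drop (c k)) (by rw [hQl]; omega) (p0 + i)
        (p0 + (i + c k - c j)) (by rw [hP1l, List.length_take]; omega) (by rw [hP1l]; omega)).1 hw
      rw [List.take_append_drop] at h3
      exact (wo_drop Wo p0 hW _ (by omega) (by omega)).2 h3
    -- walls of Y
    have hwalls : ∀ s, m ≤ s + N1 + span → s ≤ Y.length → Wo (Y.take s) →
        s = tm ∨ s = t ∨ s = Y.length := by
      intro s hs1 hs2 hs3
      by_cases hsm : s < m
      · exact Or.inl (htm2 s hs1 hsm hs3)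
      · right
        by_cases hst : s < t
        · exact absurd hs3 (ht.2.2.2.1 s (by omega) hst)
        · by_cases hst2 : s = t
          · exact Or.inl hst2
          · right
            by_contra hne
            exact ht.2.2.2.2.2 s (by omega) (by omega) hs3
    have hfin : ∀ s, m ≤ s + N1 + span → s ≤ Y.length → Wo (Y.take s) →
        ¬ ((m ≤ s + c j - c k + N1 ∧ s + c j - c k ≤ m + N1) ∨ BadN (s + c j - c k)) := by
      intro s hs1 hs2 hs3
      rcases hwalls s hs1 hs2 hs3 with rfl | rfl | rfl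
      · exact hF1' k hkK hkF.1.1 j hjK hjk
      · exact hF2' k hkK hkF.1.2 j hjK hjk
      · exact hF3' k hkK hkF.2 j hjK hjk
    rcases hEB' with ⟨i, hi1, hi2, hi3⟩ | hbad
    · have hw1 : Wo (z'.take (p0 + i)) :=
        (wo_drop Wo p0 hW i (by omega) (by omega)).1 hi3
      rw [← hcom (p0 + i) (by rw [hwl]; omega) (by omega)] at hw1
      have hw2 := htr i (by omega) hw1
      refine hfin _ (by omega) (by omega) hw2 (Or.inl ?_)
      have e : i + c k - c j + c j - c k = i := by omega
      rw [e]; exact ⟨hi1, hi2⟩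
    · rw [fw_eq ht'] at hbad
      have hle : p0 + t' ≤ (P1 ++ z.drop (c k)).length := by
        by_contra hc
        push Not at hc
        have hi0 : (P1 ++ z.drop (c k)).length = p0 + (Y.length + c j - c k) := by
          rw [hwl]; omega
        have hw0 : Wo (z.take (p0 + Y.length)) := by
          rw [← wo_drop Wo p0 hW _ (by omega) (by omega), ← hY0, List.take_length]
          exact ht.2.2.2.2.1
        have hw1 : Wo ((P1 ++ z.drop (c k)).take (p0 + (Y.length + c j - c k))) := by
          rw [hW.shift P1 (z.take (c k)) (z.drop (c k)) (by rw [hQl]; omega) _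
            (p0 + Y.length) (by rw [hP1l, List.length_take]; omega) (by rw [hP1l]; omega),
            List.take_append_drop]
          exact hw0
        rw [hcom _ (by omega) (by omega)] at hw1
        rw [← wo_drop Wo p0 hW _ (by omega) (by omega)] at hw1
        exact ht'.2.2.2.1 _ (by omega) (by omega) hw1
      have hw1 : Wo (z'.take (p0 + t')) :=
        (wo_drop Wo p0 hW t' (by omega) (by omega)).1 ht'.2.2.1
      rw [← hcom (p0 + t') hle (by omega)] at hw1
      have hw2 := htr t' (by omega) hw1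
      refine hfin _ (by omega) (by omega) hw2 (Or.inr ?_)
      have e : t' + c k - c j + c j - c k = t' := by omega
      rw [e]; exact hbad

end B

end Crest.Agent.R320.InstB_640
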