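import Crest.Agent.R320.InstA_722
import Crest.Agent.R320.G1_604
import Crest.Agent.R320.Sp_537
import Crest.Agent.R320.P4_933
import Crest.Agent.R320.OutRule_480
import Crest.Agent.R320.Loc_645
import Crest.Agent.R320.LetMap_922
import Crest.Agent.R320.ExactR_237

/-!
# Row 320: the whole instance (helper722)
-/

set_option autoImplicit false

namespace Crest.Agent.R320.InstB_722

open Crest.Agent.R320 Crest.Agent.R320.Hk_851 Crest.Agent.R320.Blk163539
  Crest.Agent.R320.Code110 Crest.Agent.R320.InstA_722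

section act
variable {S : Type} [Monoid S]

def act (v : S → ZMod 2) (s : S) : S → ZMod 2 := fun x => v (s * x)

theorem act_add (v w : S → ZMod 2) (s : S) : act (v + w) s = act v s + act w s := rfl

theorem act_one (v : S → ZMod 2) : act v 1 = v := by
  funext x; simp [act]

theorem act_mul (v : S → ZMod 2) (s t : S) : act v (s * t) = act (act v s) t := by
  funext x; simp [act, mul_assoc]

theorem faith (s t : S) (h : ∀ v : S → ZMod 2, act v s = act v t) : s = t := by
  classical
  have h1 := congrFun (h (fun y => if y = t then 1 else 0)) 1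
  simp only [act, mul_one, if_true] at h1
  by_contra hne
  rw [if_neg hne] at h1
  exact absurd h1 (by decide)
end act

section cong
variable {α S V : Type} [Monoid S] [AddCommGroup V] {f : α → S} {act' : V → S → V}

theorem TT_congr (g : G1 (fun w : List α => (w.map f).prod) act') (nu2 : List α → V) (B M' p0 : ℕ)
    (hnu : ∀ Q Q', B ≤ Q.length → B ≤ Q'.length → Q.take B = Q'.take B →
      Q.length % M' = Q'.length % M' →
      ((Q.drop B).map f).prod = ((Q'.drop B).map f).prod → g.nu Q = g.nu Q')
    (q q' : List α) (h1 : p0 + B ≤ q.length) (h2 : p0 + B ≤ q'.length)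
    (h3 : q.take (p0 + B) = q'.take (p0 + B))
    (h4 : ((q.drop (p0 + B)).map f).prod = ((q'.drop (p0 + B)).map f).prod)
    (h5 : q.length % M' = q'.length % M') (v : V) :
    Blk163539.TT p0 (fun w : List α => (w.map f).prod) act' g nu2 v q =
      Blk163539.TT p0 (fun w : List α => (w.map f).prod) act' g nu2 v q' := by
  have spl : ∀ (l : List α) (i : ℕ), (l.map f).prod =
      ((l.take i).map f).prod * ((l.drop i).map f).prod := by
    intro l i
    rw [← List.prod_append, ← List.map_append, List.take_append_drop]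
  have hφ : (q.map f).prod = (q'.map f).prod := by
    rw [spl q (p0 + B), spl q' (p0 + B), h3, h4]
  have htk : q.take p0 = q'.take p0 := by
    have := congrArg (List.take p0) h3
    rwa [List.take_take, List.take_take, min_eq_left (by omega)] at this
  have hd : (q.drop p0).take B = (q'.drop p0).take B := by
    have := congrArg (List.drop p0) h3
    rwa [List.drop_take, List.drop_take, Nat.add_sub_cancel_left] at this
  have hdd : (((q.drop p0).drop B).map f).prod = (((q'.drop p0).drop B).map f).prod := by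
    rw [List.drop_drop, List.drop_drop]; exact h4
  have hφd : ((q.drop p0).map f).prod = ((q'.drop p0).map f).prod := by
    rw [spl (q.drop p0) B, spl (q'.drop p0) B, hd, hdd]
  have hl : (q.drop p0).length % M' = (q'.drop p0).length % M' := by
    rw [List.length_drop, List.length_drop]
    have h6 : Nat.ModEq M' (q.length - p0 + p0) (q'.length - p0 + p0) := by
      rw [Nat.sub_add_cancel (by omega), Nat.sub_add_cancel (by omega)]; exact h5
    exact Nat.ModEq.add_right_cancel' p0 h6
  have hn : g.nu (q.drop p0) = g.nu (q'.drop p0) :=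
    hnu _ _ (by rw [List.length_drop]; omega) (by rw [List.length_drop]; omega) hd hl hdd
  unfold Blk163539.TT nuX
  simp only [hφ, htk, hφd, hn]
end cong

theorem main (α : Type) [Finite α] (S : Type) [Monoid S] [Finite S] (f : α → S) (s : S) :
    HL 3 ({w | (w.map f).prod = s} : Language α) := by
  classical
  have := Fintype.ofFinite S
  obtain ⟨m, r, hg1⟩ := Crest.Agent.R320.G1_604.g1 S (S → ZMod 2) act
  obtain ⟨K, hex⟩ := Crest.Agent.R320.ExactR_237.exact_gadget α S (S → ZMod 2) f act
    (1 + 2 * (r + m) + 1)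
  obtain ⟨Ms, M, hcard, hMs, hM, hg⟩ := hg1 (2 ^ (K + 1))
  have h2K : 16 ≤ 2 ^ (K + 4) := by
    have : 2 ^ 4 ≤ 2 ^ (K + 4) := Nat.pow_le_pow_right (by norm_num) (by omega)
    simpa using this
  obtain ⟨b, hb⟩ : ∃ b, b = M * (2 ^ (K + 4) + 8) + 1 := ⟨_, rfl⟩
  have hb1 : 4 * M + 4 < b := by
    rw [hb]; nlinarith
  have hb2 : M * 2 ^ (K + 4) < b := by
    rw [hb]; nlinarith
  have hcop : Nat.Coprime b M := by
    rw [hb]
    simp
  obtain ⟨lam, rho, nu, g1, g2, g3, g4⟩ := hg b hb1 hcop α f
  obtain ⟨c, hc1, hc0, hc2, hc3⟩ := Crest.Agent.R320.Sp_537.spoil K M m b (b ^ m) Ms hM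
    (fun k hk => ⟨(hMs k hk).1, (hMs k hk).2.2⟩) hb2 hcop
  obtain ⟨lam2, rho2, nu2, e1, e2⟩ := hex c (fun i j hij _ => by have := hc1 i j hij; omega)
  obtain ⟨p0, hp0⟩ : ∃ p0, p0 = c K := ⟨_, rfl⟩
  have hcK : ∀ k < K, c k ≤ p0 := fun k hk => by have := hc1 k K hk; omega
  obtain ⟨n, Wo, hn, hlen, hloc, hgap, hout⟩ :=
    Crest.Agent.R320.OutRule_480.outer_rule_left (α := α) (2 * (p0 + b ^ m) + 1)
  let L : LRule α := ⟨n, Wo, hloc⟩
  let g : G1 (fun w : List α => (w.map f).prod) (act (S := S)) :=
    { N1 := b ^ m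
      T0 := b ^ m
      lam := lam
      rho := rho
      nu := nu
      BadT := Crest.Agent.R320.Sp_537.Bad Ms M b m
      len := fun P v h => (g1 P v h).le
      sound := fun P Q v c h1 h2 => g2 P Q v c h1 h2
      comp := by
        intro Y _ hB v
        have hB' : ¬ ((∃ k ∈ Ms, k ∣ Y.length) ∨ ∃ j < m, ¬ (M ≤ Y.length / b ^ j % b ∧
          Y.length / b ^ j % b + M + 1 ≤ b)) := hB
        obtain ⟨P, Q, h1, h2, h3⟩ := g3 Y (fun k hk hd => hB' (Or.inl ⟨k, hk, hd⟩))
          (fun j hj => by
            by_contra hcon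
            exact hB' (Or.inr ⟨j, hj, hcon⟩)) v
        exact ⟨P, Q, h1.symm, h2, h3⟩ }
  obtain ⟨z, hz⟩ : ∃ z, z = 3 * p0 + b ^ m + n + b ^ m + 1 := ⟨_, rfl⟩
  have gN : g.N1 = b ^ m := rfl
  have gT : g.T0 = b ^ m := rfl
  have Ln : L.n = n := rfl
  have hφ : ∀ u v : List α, ((u ++ v).map f).prod = (u.map f).prod * (v.map f).prod := by
    intro u v; rw [List.map_append, List.prod_append]
  -- blocks
  have hZeq : (Zb L z : Language α) = {X | P4_933.XX Wo z X} := by
    ext X
    exact ⟨fun h => ⟨h.2.1, h.1, fun t h1 h2 => h.2.2 t h2 h1⟩,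
      fun h => ⟨h.2.1, h.1, fun t h1 h2 => h.2.2 t h2 h1⟩⟩
  have hZreg : (Zb L z).IsRegular := by
    rw [hZeq]
    exact Crest.Agent.R320.Reg_852.HL.isRegular (P4_933.hl_XX0 (k := 0) hloc hlen)
  have hfew : ∀ w ∈ Zb L z, ∀ F : Finset ℕ, (∀ x ∈ F, x ≤ w.length ∧ Wo (w.take x)) →
      F.card ≤ z + 1 := by
    intro w hw F hF
    have hsub : F ⊆ insert w.length (Finset.range z) := by
      intro x hx
      rw [Finset.mem_insert, Finset.mem_range]
      by_contra hcon
      push Not at hcon
      obtain ⟨h1, h2⟩ := hF x hx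
      exact hw.2.2 x hcon.2 (by omega) h2
    have h1 := Finset.card_le_card hsub
    have h2 := Finset.card_insert_le w.length (Finset.range z)
    rw [Finset.card_range] at h2
    omega
  have hZ : HL 1 (Zb L z) := hout (z + 1) _ hZreg hfew
  have hτ : ∀ x y, HL 1 (ZT (Zb L z) (tau p0 (fun w : List α => (w.map f).prod) act g
      (fun u => nu2 u 1)) x y) := by
    intro x y
    have hr : Language.IsRegular ({u | tau p0 (fun w : List α => (w.map f).prod) act g
      (fun u => nu2 u 1) u x = y} : Language α) := by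
      refine Crest.Agent.R320.Loc_645.isRegular_of_read' f (p0 + b ^ m) (M * b ^ m) ?_ _ ?_
      · have : 0 < b := by omega
        positivity
      · intro q q' h1 h2 h3 h4 h5 h6
        rw [← h6]
        exact (TT_congr g (fun u => nu2 u 1) (b ^ m) (M * b ^ m) p0
          (fun Q Q' a1 a2 a3 a4 a5 => (g4 Q Q' a1 a2 a3 a4 a5).2) q q' h1 h2 h3 h4 h5 x).symm
    refine hout (z + 1) _ ?_ ?_
    · exact hZreg.inf hr
    · intro w hw
      exact hfew w hw.1
  have hNP : ∀ s, HL 1 ({r | (∀ X ∈ Zb L z, ¬ X <+: r) ∧ (r.map f).prod = s} : Language α) := by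
    intro s
    have h1 : Language.IsRegular ({u | P4_933.NB Wo z u} : Language α) :=
      Crest.Agent.R320.Reg_852.HL.isRegular (P4_933.hl_NB0 (k := 0) hloc hlen)
    have h2 := h1.inf (Crest.Agent.R320.Reg_852.isRegular_prod f s)
    have h3 : HL 1 ({u | P4_933.NB Wo z u ∧ (u.map f).prod = s} : Language α) := by
      refine hout z _ h2 ?_
      rintro w ⟨hw, -⟩ F hF
      have hsub : F ⊆ Finset.range z := by
        intro x hx
        rw [Finset.mem_range]
        by_contra hcon
        obtain ⟨a1, a2⟩ := hF x hx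
        exact hw x a1 (by omega) a2
      have := Finset.card_le_card hsub
      rwa [Finset.card_range] at this
    refine h3.congr fun w => ?_
    constructor
    · rintro ⟨a1, a2⟩
      refine ⟨(P4_933.NB_iff Wo z w).2 fun X hp hX => ?_, a2⟩
      exact a1 X (by rw [hZeq]; exact hX) hp
    · rintro ⟨a1, a2⟩
      refine ⟨fun X hX hp => ?_, a2⟩
      rw [hZeq] at hX
      exact (P4_933.NB_iff Wo z w).1 a1 X hp hX
  have hPC : PC (Zb L z) := by
    refine ⟨XX_nil L (by omega), ?_⟩
    rintro u hu v hv ⟨t, rfl⟩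
    rw [XX_prefix L hu t hv, List.append_nil]
  have hf1 : ∀ x, {p | p ∈ L1 p0 (fun w : List α => (w.map f).prod) act g
      (fun u => nu2 u 1) x}.Finite := by
    intro x
    refine (List.finite_length_le α (p0 + b ^ m)).subset ?_
    rintro p ⟨h1, h2⟩
    have := g.len _ _ h2
    rw [List.length_drop, gN] at this
    show p.length ≤ _
    omega
  have hf2 : ∀ x, {p | p ∈ L2 K c lam2 x}.Finite := by
    intro x
    refine (List.finite_length_le α p0).subset ?_
    rintro p ⟨k, hk, h1, -⟩
    have := hcK k hk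
    show p.length ≤ _
    omega
  have hthin : ∀ T, (∀ i < K, c i ≤ T) → ∀ J : Finset ℕ,
      (∀ k ∈ J, k < K ∧ ∃ k' < K, k' ≠ k ∧ g.BadT (T + c k' - c k)) → J.card ≤ r + m := by
    intro T hT J hJ
    have h3 := hc3 T hT
    choose! hk k' hk' hne hb' using hJ
    have : J.card ≤ ((Finset.range K ×ˢ Finset.range K).filter
          (fun p => p.1 ≠ p.2 ∧
            Crest.Agent.R320.Sp_537.Bad Ms M b m (T + c p.2 - c p.1))).card := by
      refine Finset.card_le_card_of_injOn (fun k => (k, k' k)) ?_ ?_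
      · intro k hkJ
        refine Finset.mem_coe.2 (Finset.mem_filter.2 ⟨Finset.mem_product.2 ⟨Finset.mem_range.2 (hk k hkJ),
          Finset.mem_range.2 (hk' k hkJ)⟩, (hne k hkJ).symm, hb' k hkJ⟩)
      · intro k _ l _ hkl
        exact (Prod.mk.injEq _ _ _ _ ▸ hkl).1
    omega
  have hspoil : ∀ Z : List α, p0 ≤ Z.length → ∀ J : Finset ℕ,
      (∀ k ∈ J, k < K ∧ ∃ k' < K, k' ≠ k ∧
      BadQ L z p0 (fun w : List α => (w.map f).prod) act g c (Z.drop (c k)) k') →
      J.card ≤ 1 + 2 * (r + m) := by
    intro Z hZl J hJ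
    refine Crest.Agent.R320.Blk2539.spoil_of_thin (L := L) (z := z) (p0 := p0) (g := g) (K := K)
      (c := c) (by rw [gN, Ln]; omega) hcK ?_ ?_ (r + m) hthin Z hZl J hJ
    · intro Z u u' hu h1 h2 hlt
      have h21 := h2.1
      have h3 := hgap (Z.take u') (u' - u) h2.2 (by omega)
        (by rw [List.length_take]; omega) (by
          have e : (Z.take u').length - (u' - u) = u := by
            rw [List.length_take]; have := h2.1; omega
          rw [e, List.take_take, min_eq_left hlt.le]
          exact h1.2)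
      rw [gN]
      omega
    · intro a b' a' b'' ha hb' ha' hb'' hne hne' h1 h2
      rw [gN] at h1 h2
      refine (hc2 a b' a' b'' ha hb' ha' hb'' hne hne' ?_).1
      rw [abs_le]
      constructor <;> omega
  refine Top270.top (fun w : List α => (w.map f).prod) rfl hφ act act_add act_one act_mul faith
    (Zb := Zb L z) hPC
    (τ := tau p0 (fun w : List α => (w.map f).prod) act g (fun u => nu2 u 1))
    (nuX p0 (fun w : List α => (w.map f).prod) act g (fun u => nu2 u 1)) (fun _ _ _ => rfl)
    hZ hτ hNP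
    (L1 := L1 p0 (fun w : List α => (w.map f).prod) act g (fun u => nu2 u 1))
    (L2 := L2 K c lam2) hf1 hf2 ?_ s
  refine c2 (rho2 := fun k Q => rho2 k Q 1) hφ (fun v s t => (act_mul v s t).symm) act_add
    (by rw [gN, Ln]; omega) (by rw [gT]; omega) (by omega) hcK (1 + 2 * (r + m)) ?_ ?_ hspoil
  · intro k hk P Q v b' hP h1 h2
    have := e1 k hk P Q 1 v b' hP h1 h2
    rw [mul_one] at this
    exact this
  · intro u v hu
    obtain ⟨I, h1, h2⟩ := e2 u 1 v (fun k hk => by rw [hu]; exact hcK k hk)
    exact ⟨I, by omega, h2⟩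

/-- every regular language has generalized star height at most three -/
theorem height_three (α : Type*) [Finite α] (L : Language α) (hL : L.IsRegular) :
    HL 3 L :=
  Crest.Agent.R320.LetMap_922.of_fin (m := 3)
    (fun _ L hL => of_monoid (k := 3) (fun S _ _ φ s => main _ S φ s) L hL) α L hL

end Crest.Agent.R320.InstB_722
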