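import Crest.Agent.R320.InstA_753

/-!
# Row 320: instance of `top5` (helper753), part B: the spoiling count
-/

set_option autoImplicit false

namespace Crest.Agent.R320.Inst_753

open Crest.RegLang Crest.Agent.R320.Hk_851 Crest.Agent.R320.Blk467

variable {α : Type}

/-- bad blocks -/
def Bd (Wo : List α → Prop) (z N p0 : ℕ) (BT : ℕ → Prop) (X : List α) : Prop :=
  EB Wo z N X ∨ BT (X.length - p0)

open Classical in
/-- pairs spoiled by the wall band -/
noncomputable def PE (Wo : List α → Prop) (z N K : ℕ) (c : ℕ → ℕ) (Z : List α) :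
    Finset (ℕ × ℕ) :=
  (Finset.range K ×ˢ Finset.range K).filter (fun ab => ab.1 ≠ ab.2 ∧
    ∃ u, u ≤ Z.length ∧ Wo (Z.take u) ∧ z + c ab.1 ≤ u + c ab.2 + N ∧ u + c ab.2 < z + N + c ab.1)

open Classical in
/-- pairs spoiled by the length -/
noncomputable def PB (K : ℕ) (c : ℕ → ℕ) (BT : ℕ → Prop) (T : ℕ) : Finset (ℕ × ℕ) :=
  (Finset.range K ×ˢ Finset.range K).filter (fun ab => ab.1 ≠ ab.2 ∧ BT (T + c ab.2 - c ab.1))

/-- separation of the ruler -/
def Sep (K N : ℕ) (c : ℕ → ℕ) : Prop :=
  ∀ a b d e, a < K → b < K → d < K → e < K → a ≠ b → d ≠ e →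
    ((c b : ℤ) - c a - (c e - c d) < 2 * N ∧ -(2 * N : ℤ) < (c b : ℤ) - c a - (c e - c d)) →
    a = d ∧ b = e

theorem PE_card {Wo : List α → Prop} {n W z N K L : ℕ} (hW : Walls Wo n W) {c : ℕ → ℕ}
    (hc : ∀ k < K, c k ≤ L) (hsep : Sep K N c) (hWL : 2 * N + 2 * L ≤ W)
    (Z : List α) : (PE Wo z N K c Z).card ≤ 1 := by
  classical
  rw [Finset.card_le_one]
  rintro ⟨a, b⟩ h1 ⟨d, e⟩ h2
  unfold PE at h1 h2
  rw [Finset.mem_filter, Finset.mem_product, Finset.mem_range, Finset.mem_range] at h1 h2
  obtain ⟨⟨ha, hb⟩, hab, u, hu, hwu, hu1, hu2⟩ := h1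
  obtain ⟨⟨hd, he⟩, hde, v, hv, hwv, hv1, hv2⟩ := h2
  simp only at ha hb hd he hab hde hu1 hu2 hv1 hv2
  have ca := hc a ha
  have cb := hc b hb
  have cd := hc d hd
  have ce := hc e he
  have huv : u = v := by
    rcases lt_trichotomy u v with h | h | h
    · have := hW.gap Z u v h hv hwu hwv; omega
    · exact h
    · have := hW.gap Z v u h hu hwv hwu; omega
  subst huv
  obtain ⟨r1, r2⟩ := hsep a b d e ha hb hd he hab hde ⟨by omega, by omega⟩
  rw [r1, r2]

/-- two candidates for the end of the hypothetical block, spoiled pairs -/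
theorem spoiled {Wo : List α → Prop} {n W z N K L p0 C0 : ℕ} (hW : Walls Wo n W) {c : ℕ → ℕ}
    {BT : ℕ → Prop} (hz0 : 0 < z)
    (hc : ∀ k < K, c k ≤ L) (hsep : Sep K N c) (hWL : 2 * N + 2 * L < W)
    (hPB : ∀ T, 2 * L ≤ T → (PB K c BT T).card ≤ C0) (hLp : L ≤ p0)
    (hz : p0 + 3 * L + N + n + 1 ≤ z) {X X' : List α} (hX : X ∈ XX Wo z) (hX' : X' ∈ XX Wo z) :
    ∃ Sp : Finset ℕ, Sp.card ≤ 1 + 2 * C0 ∧ ∀ k < K, k ∉ Sp → ∀ k' < K, k' ≠ k →
      ∀ P' : List α, P'.length = c k' → ∀ Y ∈ XX Wo z, Y <+: P' ++ (X ++ X').drop (c k) →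
        ¬ Bd Wo z N p0 BT Y := by
  classical
  obtain ⟨x1, x2, x3⟩ := hX
  obtain ⟨y1, y2, y3⟩ := hX'
  set Z := X ++ X' with hZ
  have hZl : Z.length = X.length + X'.length := by rw [hZ, List.length_append]
  have hZX : Wo (Z.take X.length) := by rw [hZ]; simpa using x1
  have hZZ : Wo (Z.take Z.length) := by
    rw [List.take_length, hZ, hW.loc _ _ (by omega)]; exact y1
  -- first wall
  have hex0 : ∃ t, z ≤ t + L ∧ t ≤ Z.length ∧ Wo (Z.take t) := ⟨X.length, by omega, by omega, hZX⟩
  obtain ⟨a1, a2, a3⟩ := Nat.find_spec hex0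
  have amin := fun (m : ℕ) (h : m < Nat.find hex0) => Nat.find_min hex0 h
  have ale := Nat.find_min' hex0 ⟨by omega, by omega, hZX⟩
  generalize Nat.find hex0 = w0 at a1 a2 a3 amin ale
  have hex1 : ∃ t, w0 < t ∧ t ≤ Z.length ∧ Wo (Z.take t) := ⟨Z.length, by omega, le_rfl, hZZ⟩
  obtain ⟨b1, b2, b3⟩ := Nat.find_spec hex1
  have bmin := fun (m : ℕ) (h : m < Nat.find hex1) => Nat.find_min hex1 h
  generalize Nat.find hex1 = w1 at b1 b2 b3 bmin
  have hw01 := hW.gap Z w0 w1 b1 b2 a3 b3
  refine ⟨((PE Wo z N K c Z) ∪ (PB K c BT (w0 - p0)) ∪ (PB K c BT (w1 - p0))).image Prod.fst,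
    ?_, ?_⟩
  · refine le_trans Finset.card_image_le ?_
    refine le_trans (Finset.card_union_le _ _) ?_
    have h1 := Finset.card_union_le (PE Wo z N K c Z) (PB K c BT (w0 - p0))
    have h2 := PE_card (z := z) hW hc hsep (by omega) Z
    have h3 := hPB (w0 - p0) (by omega)
    have h4 := hPB (w1 - p0) (by omega)
    omega
  · intro k hk hkS k' hk' hne P' hP' Y hY hYp hbad
    apply hkS
    rw [Finset.mem_image]
    have ck := hc k hk
    have ck' := hc k' hk'
    obtain ⟨P, Q, hPQ, hPl⟩ := split_at Z (c k) (by omega)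
    have hdrop : Z.drop (c k) = Q := by rw [hPQ, ← hPl]; simp
    rw [hdrop] at hYp
    have hQl : P.length + Q.length = Z.length := by rw [hPQ, List.length_append]
    have hYl := hYp.length_le
    rw [List.length_append] at hYl
    obtain ⟨g1, g2, g3⟩ := hY
    have hYt : ∀ t, t ≤ Y.length → Y.take t = (P' ++ Q).take t := by
      intro t ht
      obtain ⟨r, hr⟩ := hYp
      rw [← hr, List.take_append_of_le_length ht]
    -- transfer of walls
    have tr : ∀ t, t ≤ Y.length → c k' + n ≤ t → (Wo (Y.take t) ↔ Wo (Z.take (t - c k' + c k))) := by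
      intro t ht hn
      obtain ⟨s, rfl⟩ : ∃ s, t = P'.length + s := ⟨t - P'.length, by omega⟩
      rw [hYt _ ht, shift hW P' P Q s (by omega) (by omega), hPQ]
      have : P'.length + s - c k' + c k = P.length + s := by omega
      rw [this]
    have hYw : Wo (Z.take (Y.length - c k' + c k)) := by
      rw [← tr Y.length le_rfl (by omega), List.take_length]; exact g1
    rcases hbad with hE | hB
    · -- wall band
      have : ∃ t, t ≤ Y.length ∧ z ≤ t + N ∧ t < z + N ∧ Wo (Y.take t) := by
        rcases hE with h | ⟨t, h1, h2, h3, h4⟩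
        · exact ⟨Y.length, le_rfl, by omega, h, by rw [List.take_length]; exact g1⟩
        · exact ⟨t, h1, h2, by omega, h4⟩
      obtain ⟨t, t1, t2, t3, t4⟩ := this
      rw [tr t t1 (by omega)] at t4
      refine ⟨(k, k'), ?_, rfl⟩
      rw [Finset.mem_union, Finset.mem_union]
      left; left
      unfold PE
      rw [Finset.mem_filter, Finset.mem_product, Finset.mem_range, Finset.mem_range]
      exact ⟨⟨hk, hk'⟩, hne.symm, t - c k' + c k, by omega, t4, by simp only; omega,
        by simp only; omega⟩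
    · -- length
      set u := Y.length - c k' + c k with hu
      have hule : u ≤ Z.length := by omega
      have hu0 : w0 ≤ u := by
        by_contra h
        exact amin u (by omega) ⟨by omega, by omega, hYw⟩
      have hfirst : ∀ t, t ≤ Z.length → Wo (Z.take t) → z + c k ≤ t + c k' → u ≤ t := by
        intro t ht hwt hzt
        by_contra h
        have h2 := tr (t - c k + c k') (by omega) (by omega)
        have e : t - c k + c k' - c k' + c k = t := by omega
        rw [e] at h2
        exact g3 (t - c k + c k') (by omega) (by omega) (h2.2 hwt)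
      have hcase : u = w0 ∨ u = w1 := by
        by_cases h : u = w0
        · exact Or.inl h
        · right
          have h1 : w1 ≤ u := by
            by_contra h'
            exact bmin u (by omega) ⟨by omega, by omega, hYw⟩
          have h2 := hfirst w1 b2 b3 (by omega)
          omega
      refine ⟨(k, k'), ?_, rfl⟩
      rw [Finset.mem_union, Finset.mem_union]
      rcases hcase with h | h
      · left; right
        unfold PB
        rw [Finset.mem_filter, Finset.mem_product, Finset.mem_range, Finset.mem_range]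
        refine ⟨⟨hk, hk'⟩, hne.symm, ?_⟩
        simp only
        have e : w0 - p0 + c k' - c k = Y.length - p0 := by omega
        rw [e]; exact hB
      · right
        unfold PB
        rw [Finset.mem_filter, Finset.mem_product, Finset.mem_range, Finset.mem_range]
        refine ⟨⟨hk, hk'⟩, hne.symm, ?_⟩
        simp only
        have e : w1 - p0 + c k' - c k = Y.length - p0 := by omega
        rw [e]; exact hB

end Crest.Agent.R320.Inst_753
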