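import Crest.Agent.R320.InstA_848

/-!
# Row 320: scheme A of the data of `Main_621` from a gadget (helper848)
-/

set_option autoImplicit false

namespace Crest.Agent.R320.InstB_848

open Crest.Agent.R320.Hk_851 Crest.Agent.R320.Star_621 Crest.Agent.R320.Two_621
open Crest.Agent.R320.FewWalls_228 Crest.Agent.R320.InstA_848

/-- the gadget on words -/
structure Gd (α T : Type) [Monoid T] (φ : α → T) (N1 Pm La : ℕ) (Bad : ℕ → Prop) where
  lam : List α → Option (Tok T)
  rho : List α → Option (Tok T)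
  nu : List α → Tok T
  g1 : ∀ p v, lam p = some v → p.length ≤ N1
  g2 : ∀ p q v r, lam p = some v → rho q = some r → La ≤ q.length →
    r = act v ((p ++ q).map φ).prod + nu (p ++ q)
  g3 : ∀ u, La ≤ u.length → ¬ Bad u.length → ∀ v, ∃ p q, p ++ q = u ∧ lam p = some v ∧
    (rho q).isSome
  g4 : ∀ q q2 : List α, La ≤ q.length → La ≤ q2.length → q.take La = q2.take La →
    q.length % Pm = q2.length % Pm → (q.map φ).prod = (q2.map φ).prod →
    rho q = rho q2 ∧ nu q = nu q2

variable {α T : Type} [Monoid T] {φ : α → T} {N1 Pm La : ℕ} {Bad : ℕ → Prop}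
variable {n : ℕ} {S : Set (List α)}

/-- product -/
def ph (φ : α → T) (w : List α) : T := (w.map φ).prod

theorem ph_app (u v : List α) : ph φ (u ++ v) = ph φ u * ph φ v := by
  simp [ph]

open Classical in
/-- the wall inside a block -/
noncomputable def tt (n : ℕ) (S : Set (List α)) (B : ℕ) (z : List α) : ℕ :=
  if h : ∃ t, Blk n S B z t then h.choose else 0

theorem tt_eq {B : ℕ} {z : List α} {t : ℕ} (h : Blk n S B z t) : tt n S B z = t := by
  classical
  have hex : ∃ t, Blk n S B z t := ⟨t, h⟩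
  unfold tt
  rw [dif_pos hex]
  exact hex.choose_spec.unique h

/-- parameters -/
structure Prm (n z0 p0 N1 La : ℕ) : Prop where
  hp : 0 < p0
  hz : 2 * p0 + 2 * N1 + La + n ≤ z0

variable {z0 p0 : ℕ} (G : Gd α T φ N1 Pm La Bad)

def LA (p0 : ℕ) (G : Gd α T φ N1 Pm La Bad) (v : Tok T) : Language α :=
  {P | p0 ≤ P.length ∧ G.lam (P.drop p0) = some (act v (ph φ (P.take p0)))}

def RA (n : ℕ) (S : Set (List α)) (z0 p0 : ℕ) (G : Gd α T φ N1 Pm La Bad) (v : Tok T) :
    Language α :=
  {Q | ∃ t, Blk n S (z0 - p0 - N1) Q t ∧ z0 ≤ t + p0 ∧ ∃ b, G.rho (Q.take t) = some b ∧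
    act b (ph φ (Q.drop t)) = v}

/-- noise of the rest -/
noncomputable def dR (n : ℕ) (S : Set (List α)) (B : ℕ) (G : Gd α T φ N1 Pm La Bad)
    (R : List α) : Tok T :=
  act (G.nu (R.take (tt n S B R))) (ph φ (R.drop (tt n S B R)))

noncomputable def dA (n : ℕ) (S : Set (List α)) (z0 p0 : ℕ) (G : Gd α T φ N1 Pm La Bad)
    (z : List α) : Tok T := dR n S (z0 - p0) G (z.drop p0)

/-- the token after the rest of the block -/
noncomputable def oR (n : ℕ) (S : Set (List α)) (z0 p0 : ℕ) (G : Gd α T φ N1 Pm La Bad)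
    (v : Tok T) (R : List α) : Tok T := act v (ph φ R) + dR n S (z0 - p0) G R

theorem aff_eq (v : Tok T) (z : List α) :
    aff (ph φ) (dA n S z0 p0 G) z v = oR n S z0 p0 G (act v (ph φ (z.take p0))) (z.drop p0) := by
  unfold aff oR dA
  rw [act_mul, ← ph_app, List.take_append_drop]

theorem snd_core (hP : Prm n z0 p0 N1 La) {v : Tok T} {P' Q : List α} {t : ℕ} {b : Tok T}
    (h1 : G.lam P' = some v) (hQ : Blk n S (z0 - p0 - N1) Q t) (ht : z0 ≤ t + p0)
    (hb : G.rho (Q.take t) = some b) :
    Blk n S (z0 - p0) (P' ++ Q) (P'.length + t) ∧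
      oR n S z0 p0 G v (P' ++ Q) = act b (ph φ (Q.drop t)) := by
  have hp := hP.hp
  have hz := hP.hz
  have hl := G.g1 _ _ h1
  have hB : Blk n S (z0 - p0 - N1 + P'.length) (P' ++ Q) (P'.length + t) := by
    rw [blk_app (by omega) (by omega)]
    have e1 : z0 - p0 - N1 + P'.length - P'.length = z0 - p0 - N1 := by omega
    have e2 : P'.length + t - P'.length = t := by omega
    rw [e1, e2]
    exact hQ
  have hB2 : Blk n S (z0 - p0) (P' ++ Q) (P'.length + t) := hB.mono (by omega) (by omega)
  refine ⟨hB2, ?_⟩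
  have htt := tt_eq hB2
  unfold oR dR
  rw [htt]
  have e1 : (P' ++ Q).take (P'.length + t) = P' ++ Q.take t := by
    rw [take_app (by omega)]
    congr 2
    omega
  have e2 : (P' ++ Q).drop (P'.length + t) = Q.drop t := by
    rw [List.drop_append, List.drop_eq_nil_of_le (by omega), List.nil_append]
    congr 1
    omega
  rw [e1, e2]
  have hlt := hQ.h2
  have h2 := G.g2 P' (Q.take t) v b h1 hb (by rw [List.length_take]; omega)
  rw [h2]
  have e3 : ph φ (P' ++ Q) = ((P' ++ Q.take t).map φ).prod * ph φ (Q.drop t) := by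
    have : P' ++ Q = (P' ++ Q.take t) ++ Q.drop t := by
      rw [List.append_assoc, List.take_append_drop]
    rw [this, ph_app]
    rfl
  rw [e3, act_add, act_mul]

theorem soundA (hP : Prm n z0 p0 N1 La) :
    Sound (Zs n S z0) (aff (ph φ) (dA n S z0 p0 G)) (LA p0 G) (RA n S z0 p0 G) := by
  have hp := hP.hp
  have hz := hP.hz
  refine ⟨?_, ?_⟩
  · rintro ω ⟨h, _⟩
    simp only [List.length_nil] at h
    omega
  · rintro ω τ P Q z x y ⟨hPl, hPlam⟩ ⟨t, hQ, ht, b, hb, hbv⟩ hzz hxy
    obtain ⟨h1, h2⟩ := snd_core (n := n) (S := S) G hP hPlam hQ ht hb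
    have hsplit : P ++ Q = P.take p0 ++ (P.drop p0 ++ Q) := by
      rw [← List.append_assoc, List.take_append_drop]
    have hlt : (P.take p0).length = p0 := by rw [List.length_take]; omega
    have hdl : (P.drop p0).length = P.length - p0 := by rw [List.length_drop]
    have hPQ : P ++ Q ∈ Zs n S z0 := by
      refine ⟨P.length + t, ?_⟩
      rw [hsplit, blk_app (by omega) (by omega), hlt]
      have e : P.length + t - p0 = (P.drop p0).length + t := by omega
      rw [e]
      exact h1
    have heq : P ++ Q = z := (code (n := n) (S := S) z0).2 _ _ x y hPQ hzz hxy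
    refine ⟨heq, ?_⟩
    rw [← heq, aff_eq]
    have e1 : (P ++ Q).take p0 = P.take p0 := List.take_append_of_le_length hPl
    have e2 : (P ++ Q).drop p0 = P.drop p0 ++ Q := List.drop_append_of_le_length hPl
    rw [e1, e2, h2, hbv]

/-- a bad block -/
def BadZ (n : ℕ) (S : Set (List α)) (z0 p0 N1 : ℕ) (Bad : ℕ → Prop) (z : List α) (t : ℕ) : Prop :=
  (∃ s, z0 ≤ s + N1 ∧ s < z0 + N1 ∧ s ≤ z.length ∧ En n S (z.take s)) ∨ Bad (t - p0)

def Zc (n : ℕ) (S : Set (List α)) (z0 p0 N1 : ℕ) (Bad : ℕ → Prop) : Language α :=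
  {z | ∃ t, Blk n S z0 z t ∧ BadZ n S z0 p0 N1 Bad z t}

theorem completeA (hP : Prm n z0 p0 N1 La) {z : List α} (hz : z ∈ Zs n S z0)
    (hc : z ∉ Zc n S z0 p0 N1 Bad) (v : Tok T) : Cut (LA p0 G) (RA n S z0 p0 G) v z := by
  have hp := hP.hp
  have hz0 := hP.hz
  obtain ⟨t, ht⟩ := hz
  have hb : ¬ BadZ n S z0 p0 N1 Bad z t := fun h => hc ⟨t, ht, h⟩
  have hE : ∀ s, z0 ≤ s + N1 → s < z0 + N1 → s ≤ z.length → ¬ En n S (z.take s) :=
    fun s h1 h2 h3 h4 => hb (Or.inl ⟨s, h1, h2, h3, h4⟩)
  have hB : ¬ Bad (t - p0) := fun h => hb (Or.inr h)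
  have t1 := ht.h1
  have t2 := ht.h2
  have ht2 : z0 + N1 ≤ t := by
    by_contra hlt
    exact hE t (by omega) (by omega) (by omega) ht.h3
  have hY : ((z.take t).drop p0).length = t - p0 := by
    rw [List.length_drop, List.length_take]; omega
  obtain ⟨p, q, hpq, hlam, hrho⟩ := G.g3 ((z.take t).drop p0) (by omega) (by rw [hY]; exact hB)
    (act v (ph φ (z.take p0)))
  obtain ⟨b, hb'⟩ := Option.isSome_iff_exists.1 hrho
  have hpl := G.g1 _ _ hlam
  have hlen : p.length + q.length = t - p0 := by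
    rw [← hY, ← hpq, List.length_append]
  have hzsplit : z = (z.take p0 ++ p) ++ (q ++ z.drop t) := by
    have : z = z.take t ++ z.drop t := (List.take_append_drop t z).symm
    have h2 : z.take t = z.take p0 ++ (p ++ q) := by
      rw [hpq]
      have h3 : z.take t = (z.take t).take p0 ++ (z.take t).drop p0 :=
        (List.take_append_drop p0 _).symm
      rw [List.take_take, Nat.min_eq_left (by omega)] at h3
      exact h3
    calc z = z.take t ++ z.drop t := this
      _ = _ := by rw [h2]; simp [List.append_assoc]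
  have hl0 : (z.take p0).length = p0 := by rw [List.length_take]; omega
  have hPl : (z.take p0 ++ p).length = p0 + p.length := by rw [List.length_append, hl0]
  refine ⟨z.take p0 ++ p, q ++ z.drop t, act b (ph φ (z.drop t)), hzsplit, ?_, ?_⟩
  · refine ⟨by omega, ?_⟩
    have e1 : (z.take p0 ++ p).drop p0 = p := by
      rw [List.drop_append_of_le_length (by omega), List.drop_eq_nil_of_le (by omega),
        List.nil_append]
    have e2 : (z.take p0 ++ p).take p0 = z.take p0 := by
      rw [List.take_append_of_le_length (by omega), List.take_of_length_le (by omega)]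
    rw [e1, e2]
    exact hlam
  · have hB1 : Blk n S (z0 - N1) z t := by
      refine ⟨by omega, t2, ht.h3, ?_, ht.h5⟩
      intro s hs hs2 hne he
      rcases Nat.lt_or_ge s z0 with h | h
      · exact hE s (by omega) (by omega) (by omega) he
      · exact ht.h4 s h hs2 hne he
    have hB2 : Blk n S (z0 - N1 - (z.take p0 ++ p).length) (q ++ z.drop t)
        (t - (z.take p0 ++ p).length) := by
      rw [← blk_app (by omega) (by omega), ← hzsplit]
      exact hB1
    have hB3 : Blk n S (z0 - p0 - N1) (q ++ z.drop t) (t - (z.take p0 ++ p).length) :=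
      hB2.mono (by omega) (by omega)
    have eq1 : t - (z.take p0 ++ p).length = q.length := by omega
    rw [eq1] at hB3
    refine ⟨q.length, hB3, by omega, b, ?_, ?_⟩
    · rw [List.take_left]; exact hb'
    · rw [List.drop_left]

end Crest.Agent.R320.InstB_848
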