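import Crest.Agent.R320.InstA_861

/-!
# Row 320: concrete instance of 163's `top`, part B: every block is cut by scheme 1 or by scheme 2 (helper861)
-/

set_option autoImplicit false

namespace Crest.Agent.R320.Inst_861

variable {α V S : Type*} [AddCommGroup V] [Monoid S]
variable {n : ℕ} {Sw : Set (List α)} {z : ℕ}

theorem W_drop (Z : List α) {m t : ℕ} (hm : m ≤ Z.length) (ht : n ≤ t) :
    W n Sw (Z.drop m) t ↔ W n Sw Z (m + t) := by
  have hl : (Z.take m).length = m := by rw [List.length_take]; omega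
  have h := W_right (n := n) (Sw := Sw) (Z.take m) (Z.drop m) ht
  rw [List.take_append_drop, hl] at h
  exact h.symm

variable {f : α → S} {act : V → S → V} {C0 : ℕ}

namespace Dat

variable (D : Dat α V S f act C0)

open Classical in
theorem spoiled (hz2 : 2 * D.p0 ≤ D.z) (X X2 : List α) (hX : X ∈ D.XX') :
    ((Finset.range D.E.K).filter (fun k => ∃ k' < D.E.K, k' ≠ k ∧
      D.BdQ ((X ++ X2).drop (D.E.c k)) k')).card ≤ 1 + 3 * C0 := by
  have hz := D.hz
  obtain ⟨hX1, hX3, hX4⟩ := hX
  set Z := X ++ X2 with hZ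
  have hZl : Z.length = X.length + X2.length := by rw [hZ, List.length_append]
  set SE := (Finset.range D.E.K).filter (fun k => ∃ k' < D.E.K, k' ≠ k ∧
      D.Ek (Z.drop (D.E.c k)) k') with hSE
  let SB : ℕ → Finset ℕ := fun τ => (Finset.range D.E.K).filter (fun k => ∃ k' < D.E.K, k' ≠ k ∧
      D.E.c k ≤ (τ - D.p0) + D.E.c k' ∧ D.G.BadT ((τ - D.p0) + D.E.c k' - D.E.c k))
  have hSBc : ∀ τ, (SB τ).card ≤ C0 := by
    intro τ
    refine D.hthin (τ - D.p0) _ fun k hk => ?_
    rw [Finset.mem_filter, Finset.mem_range] at hk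
    exact hk
  have hSEc : SE.card ≤ 1 := by
    rw [Finset.card_le_one]
    intro k hk l hl
    rw [hSE, Finset.mem_filter, Finset.mem_range] at hk hl
    obtain ⟨hkK, k', hk'K, hkk', t, ht1, ht2, ht3⟩ := hk
    obtain ⟨hlK, l', hl'K, hll', s, hs1, hs2, hs3⟩ := hl
    by_contra hne
    have c1 := D.hc k hkK
    have c2 := D.hc k' hk'K
    have c3 := D.hc l hlK
    have c4 := D.hc l' hl'K
    have w1 : W D.n D.Sw Z (D.E.c k + t) := (W_drop Z (by omega) ht1.1).1 ht1
    have w2 : W D.n D.Sw Z (D.E.c l + s) := (W_drop Z (by omega) hs1.1).1 hs1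
    have heq : D.E.c k + t = D.E.c l + s := by
      rcases Nat.lt_trichotomy (D.E.c k + t) (D.E.c l + s) with h | h | h
      · have := D.hgap Z _ _ h w1 w2; omega
      · exact h
      · have := D.hgap Z _ _ h w2 w1; omega
    have h := D.hrul k k' l l' hkK hk'K hlK hl'K (fun h => hkk' h.symm) (fun h => hll' h.symm) hne
    rw [le_abs] at h
    rcases h with h | h <;> omega
  have hB : ∀ k < D.E.K, ∀ k' < D.E.K, k' ≠ k → D.Bk (Z.drop (D.E.c k)) k' →
      ∃ τ, W D.n D.Sw Z τ ∧ k ∈ SB τ ∧ D.z ≤ τ + D.p0 ∧ (∀ σ, W D.n D.Sw Z σ → σ < τ →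
        D.E.c k + D.n ≤ σ → σ + D.E.c k' < D.z + D.E.c k) := by
    rintro k hkK k' hk'K hne ⟨Q1, ⟨Y, hY⟩, hQ1, hbad⟩
    have c1 := D.hc k hkK
    have c2 := D.hc k' hk'K
    obtain ⟨q1, q2, q3⟩ := hQ1
    have hw : W D.n D.Sw (Z.drop (D.E.c k)) Q1.length := by
      rw [← hY]; exact (W_left Q1 Y le_rfl).2 q2
    have hw' : W D.n D.Sw Z (D.E.c k + Q1.length) := (W_drop Z (by omega) (by omega)).1 hw
    refine ⟨D.E.c k + Q1.length, hw', ?_, by omega, ?_⟩
    · rw [Finset.mem_filter, Finset.mem_range]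
      refine ⟨hkK, k', hk'K, hne, by omega, ?_⟩
      have e : D.E.c k + Q1.length - D.p0 + D.E.c k' - D.E.c k = Q1.length + D.E.c k' - D.p0 := by
        omega
      rw [e]; exact hbad
    · intro σ hσ hlt hge
      by_contra hcon
      refine q3 (σ - D.E.c k) (by omega) (by omega) ?_
      rw [← W_left Q1 Y (by omega), hY]
      refine (W_drop Z (by omega) (by omega)).2 ?_
      rwa [show D.E.c k + (σ - D.E.c k) = σ by omega]
  let τa : ℕ := if h : ∃ τ, W D.n D.Sw Z τ ∧ D.z ≤ τ + D.p0 ∧ τ < D.z then h.choose else 0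
  let τ2 : ℕ := if h : ∃ σ, W D.n D.Sw Z σ ∧ X.length < σ then Nat.find h else 0
  have hsub : (Finset.range D.E.K).filter (fun k => ∃ k' < D.E.K, k' ≠ k ∧
      D.BdQ (Z.drop (D.E.c k)) k') ⊆ SE ∪ (SB τa ∪ (SB X.length ∪ SB τ2)) := by
    intro k hk
    rw [Finset.mem_filter, Finset.mem_range] at hk
    obtain ⟨hkK, k', hk'K, hne, h | h⟩ := hk
    · rw [Finset.mem_union]; left
      rw [hSE, Finset.mem_filter, Finset.mem_range]
      exact ⟨hkK, k', hk'K, hne, h⟩
    · obtain ⟨τ, hτ, hmem, hτz, hmin⟩ := hB k hkK k' hk'K hne h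
      have c1 := D.hc k hkK
      have c2 := D.hc k' hk'K
      rw [Finset.mem_union]; right
      rcases Nat.lt_trichotomy τ X.length with hlt | heq | hgt
      · -- before the end of the block
        have hτz' : τ < D.z := by
          by_contra hc
          refine hX4 τ (by omega) hlt ?_
          exact (W_left X X2 (by omega)).1 hτ
        have hex : ∃ τ, W D.n D.Sw Z τ ∧ D.z ≤ τ + D.p0 ∧ τ < D.z := ⟨τ, hτ, hτz, hτz'⟩
        have ha : τa = τ := by
          have hspec := hex.choose_spec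
          have e : τa = hex.choose := by
            show (if h : _ then _ else 0) = _
            rw [dif_pos hex]
          rw [e]
          rcases Nat.lt_trichotomy hex.choose τ with h1 | h1 | h1
          · have := D.hgap Z _ _ h1 hspec.1 hτ; omega
          · exact h1
          · have := D.hgap Z _ _ h1 hτ hspec.1; omega
        rw [Finset.mem_union]; left
        rw [ha]; exact hmem
      · rw [Finset.mem_union]; right
        rw [Finset.mem_union]; left
        rw [← heq]; exact hmem
      · have hex : ∃ σ, W D.n D.Sw Z σ ∧ X.length < σ := ⟨τ, hτ, hgt⟩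
        have hXw : W D.n D.Sw Z X.length := (W_left X X2 le_rfl).2 hX3
        have h1 := hmin X.length hXw hgt (by omega)
        have e : τ2 = Nat.find hex := by
          show (if h : _ then _ else 0) = _
          rw [dif_pos hex]
        have h2 := Nat.find_spec hex
        have h3 : Nat.find hex ≤ τ := Nat.find_min' hex ⟨hτ, hgt⟩
        have ha : τ2 = τ := by
          rw [e]
          by_contra hne'
          have hlt : Nat.find hex < τ := lt_of_le_of_ne h3 hne'
          have h4 := hmin _ h2.1 hlt (by omega)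
          have h5 := D.hgap Z _ _ h2.2 hXw h2.1
          omega
        rw [Finset.mem_union]; right
        rw [Finset.mem_union]; right
        rw [ha]; exact hmem
  refine (Finset.card_le_card hsub).trans ?_
  refine (Finset.card_union_le _ _).trans ?_
  have h1 := hSBc τa
  have h2 := hSBc X.length
  have h3 := hSBc τ2
  have h4 := Finset.card_union_le (SB τa) (SB X.length ∪ SB τ2)
  have h5 := Finset.card_union_le (SB X.length) (SB τ2)
  omega

theorem cc (hz2 : 2 * D.p0 ≤ D.z) (X : List α) (hX : X ∈ D.XX') (X2 : List α) (hX2 : X2 ∈ D.XX')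
    (v : V) :
    (∃ P Q, X = P ++ Q ∧ D.LP1 P v ∧ (D.R1 Q).isSome) ∨
      (∃ P Q, X ++ X2 = P ++ Q ∧ P.length < X.length ∧ D.LP2 P v ∧ (D.R2 Q).isSome) := by
  classical
  have hz := D.hz
  by_cases hgood : (∀ t, W D.n D.Sw X t → D.z ≤ t + D.G.N1 → t < D.z + D.G.N1 → False) ∧
      ¬ D.G.BadT (X.length - D.p0)
  · exact Or.inl (D.comp1 X hX hgood.1 hgood.2 v)
  · right
    have hX1 := hX.1
    have hlX : (X.take D.p0).length = D.p0 := by rw [List.length_take]; omega
    obtain ⟨I, hI, hI2⟩ := D.E.av (X.take D.p0) v (fun k hk => by rw [hlX]; exact D.hc k hk)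
    have hcard := D.spoiled hz2 X X2 hX
    obtain ⟨k, hkI, hkS⟩ : ∃ k ∈ I, k ∉ (Finset.range D.E.K).filter (fun k => ∃ k' < D.E.K,
        k' ≠ k ∧ D.BdQ ((X ++ X2).drop (D.E.c k)) k') :=
      Finset.exists_mem_notMem_of_card_lt_card (by omega)
    obtain ⟨hkK, hlam, hrho⟩ := hI2 k hkI
    have hck := D.hc k hkK
    have hkS' : ∀ k' < D.E.K, k' ≠ k → ¬ D.BdQ ((X ++ X2).drop (D.E.c k)) k' := by
      intro k' hk' hne hb
      refine hkS ?_
      rw [Finset.mem_filter, Finset.mem_range]
      exact ⟨hkK, k', hk', hne, hb⟩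
    have hsplit : X.take (D.E.c k) ++ X.drop (D.E.c k) = X := List.take_append_drop _ _
    have hPl : (X.take (D.E.c k)).length = D.E.c k := by rw [List.length_take]; omega
    have hdrop : (X ++ X2).drop (D.E.c k) = X.drop (D.E.c k) ++ X2 :=
      List.drop_append_of_le_length (by omega)
    have hQ1 : X.drop (D.E.c k) ∈ XXo D.n D.Sw D.z (D.E.c k) := by
      have := (xx_iff (n := D.n) (Sw := D.Sw) (z := D.z) (X.take (D.E.c k)) (X.drop (D.E.c k))
        (by omega)).1 (by rw [hsplit]; exact hX)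
      rwa [hPl] at this
    have hbad : D.BdQ ((X ++ X2).drop (D.E.c k)) k := by
      rw [hdrop]
      rw [not_and_or, not_not] at hgood
      rcases hgood with h | h
      · left
        push Not at h
        obtain ⟨t, ht, h1, h2, -⟩ := h
        refine ⟨t - D.E.c k, ?_, by omega, by omega⟩
        have h3 : W D.n D.Sw (X.drop (D.E.c k)) (t - D.E.c k) := by
          refine (W_drop X (by omega) (by omega)).2 ?_
          rwa [show D.E.c k + (t - D.E.c k) = t by omega]
        exact (W_left _ X2 h3.2.1).2 h3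
      · right
        refine ⟨X.drop (D.E.c k), ⟨X2, rfl⟩, hQ1, ?_⟩
        rw [List.length_drop, show X.length - D.E.c k + D.E.c k - D.p0 = X.length - D.p0 by omega]
        exact h
    refine ⟨X.take (D.E.c k), (X ++ X2).drop (D.E.c k), ?_, by omega,
      ⟨k, hkK, hPl, ?_⟩, ?_⟩
    · rw [hdrop, ← List.append_assoc, hsplit]
    · rw [List.take_take, Nat.min_eq_left hck] at hlam
      exact hlam
    · rw [List.drop_take] at hrho
      obtain ⟨b1, hb1⟩ := Option.isSome_iff_exists.1 hrho
      have hrel : ∃ b, D.Rel2 ((X ++ X2).drop (D.E.c k)) b :=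
        ⟨_, k, hkK, hbad, hkS', X.drop (D.E.c k), X2, b1, hdrop, hQ1, hX2, hb1, rfl⟩
      obtain ⟨b, hb⟩ := hrel
      rw [(D.R2_iff _ b).2 hb]
      rfl

end Dat

end Crest.Agent.R320.Inst_861
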