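import Crest.Agent.R320.InstA_966

/-!
# Row 320: scheme 2 on ALL words (helper966)
-/

set_option autoImplicit false

namespace Crest.Agent.R320.InstA_966

open Crest.Agent.R320.Hk_851 Crest.Agent.R320.Code110

variable {α S V : Type} [Monoid S] [AddCommGroup V]

namespace Dat

variable {D : Dat α S V}

theorem xx2 {p p' q : List α} (hl : p'.length = p.length) (hp : p.length ≤ D.p0)
    (hu : p ++ q ∈ D.XX) : p' ++ q ∈ D.XX := by
  obtain ⟨h1, h2, h3⟩ := hu
  have hlen : (p ++ q).length = p.length + q.length := List.length_append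
  have hlen' : (p' ++ q).length = p'.length + q.length := List.length_append
  have hz : D.z = D.p0 + D.q0 + D.N1 := rfl
  have hq := D.hq
  refine ⟨by omega, (D.loc p' q (by omega)).2 ((D.loc p q (by omega)).1 h2), ?_⟩
  intro t ht1 ht2 hW
  obtain ⟨s, rfl⟩ : ∃ s, t = p'.length + s := ⟨t - p'.length, by omega⟩
  have hW' := (wo_shift (D := D) (p := p) (p' := p') (q := q) (s := s) (by omega) (by omega)).1 hW
  exact h3 _ (by omega) (by omega) hW'

theorem eb2 {p p' q : List α} (hl : p'.length = p.length) (hp : p.length ≤ D.p0)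
    (hu : D.EB (p ++ q)) : D.EB (p' ++ q) := by
  obtain ⟨t, h1, h2, h3, h4⟩ := hu
  have hlen : (p ++ q).length = p.length + q.length := List.length_append
  have hlen' : (p' ++ q).length = p'.length + q.length := List.length_append
  have hz : D.z = D.p0 + D.q0 + D.N1 := rfl
  have hq := D.hq
  obtain ⟨s, rfl⟩ : ∃ s, t = p.length + s := ⟨t - p.length, by omega⟩
  refine ⟨p'.length + s, by omega, by omega, by omega, ?_⟩
  exact (wo_shift (D := D) (p := p) (p' := p') (q := q) (s := s) (by omega) (by omega)).2 h4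

theorem bad2 {p p' q : List α} (hl : p'.length = p.length) (hp : p.length ≤ D.p0)
    (hu : p ++ q ∈ D.Bad) : p' ++ q ∈ D.Bad := by
  obtain ⟨h1, h2⟩ := hu
  refine ⟨xx2 hl hp h1, ?_⟩
  rcases h2 with h2 | h2
  · exact Or.inl (eb2 hl hp h2)
  · right
    unfold BB at h2 ⊢
    have : (p' ++ q).length = (p ++ q).length := by simp [hl]
    rw [this]; exact h2

theorem T_same {u p' : List α} {k : ℕ} {x x' b : V} (hu : D.p0 ≤ u.length) (hk : k < D.K)
    (hp' : p'.length = D.c k) (h1 : D.lam2 k (u.take (D.c k)) = some x)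
    (h2 : D.lam2 k p' = some x') (h3 : D.rho2 k ((u.take D.p0).drop (D.c k)) = some b) :
    D.T (p' ++ u.drop (D.c k)) x' = D.T u x := by
  have hck := D.hc k hk
  have e1 : (p' ++ u.drop (D.c k)).take D.p0 = p' ++ (u.take D.p0).drop (D.c k) := by
    rw [List.take_append, List.take_of_length_le (by omega), hp', List.drop_take]
  have e2 : (p' ++ u.drop (D.c k)).drop D.p0 = u.drop D.p0 := by
    rw [List.drop_append, List.drop_of_length_le (by omega), hp', List.drop_drop,
      List.nil_append]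
    congr 1; omega
  have e3 : u.take D.p0 = u.take (D.c k) ++ (u.take D.p0).drop (D.c k) := by
    conv_lhs => rw [← List.take_append_drop (D.c k) (u.take D.p0)]
    rw [List.take_take, min_eq_left hck]
  have hl : (u.take (D.c k)).length = D.c k := by rw [List.length_take]; omega
  have g1 := D.sound2 k hk _ _ _ _ hp' h2 h3
  have g2 := D.sound2 k hk _ _ _ _ hl h1 h3
  unfold T
  rw [e1, e2, ← g1]
  rw [← e3] at g2
  rw [← g2]

def WU (D : Dat α S V) (U : List α) (t : ℕ) : Prop := t ≤ U.length ∧ D.Wo (U.take t)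

def Ek (D : Dat α S V) (U : List α) (k k' : ℕ) : Prop :=
  ∃ t : ℕ, D.WU U t ∧ |(t : ℤ) - ((D.c k : ℤ) - D.c k') - D.z| ≤ D.N1

def Bk (D : Dat α S V) (U : List α) (t k k' : ℕ) : Prop :=
  D.WU U t ∧ (D.z : ℤ) + ((D.c k : ℤ) - D.c k') ≤ t ∧
    (∀ t', D.WU U t' → t' < t → (t' : ℤ) < D.z + ((D.c k : ℤ) - D.c k')) ∧
    D.BadN ((t : ℤ) - ((D.c k : ℤ) - D.c k') - D.p0)

theorem gap' {U : List α} {t t' : ℕ} (h : D.WU U t) (h' : D.WU U t') (hlt : t < t') :
    t + D.G < t' := by
  by_contra hcon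
  have := D.gap (U.take t') (t' - t) h'.2 (by omega) (by omega)
  apply this
  have := h'.1
  have hl : (U.take t').length = t' := by rw [List.length_take]; omega
  rw [hl, List.take_take, show min (t' - (t' - t)) t' = t by omega]
  exact h.2

open Classical in
theorem cardB (U : List α) (t : ℕ) :
    ((Finset.range D.K).filter (fun k => ∃ k' < D.K, k' ≠ k ∧ D.Bk U t k k')).card ≤ D.C0 := by
  set F := (Finset.range D.K ×ˢ Finset.range D.K).filter
    (fun ab : ℕ × ℕ => ab.1 ≠ ab.2 ∧ D.Bk U t ab.2 ab.1) with hF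
  have h1 : ((Finset.range D.K).filter (fun k => ∃ k' < D.K, k' ≠ k ∧ D.Bk U t k k')) ⊆
      F.image Prod.snd := by
    intro k hk
    obtain ⟨hk1, k', hk', hne, hB⟩ := Finset.mem_filter.1 hk
    refine Finset.mem_image.2 ⟨(k', k), Finset.mem_filter.2 ⟨?_, hne, hB⟩, rfl⟩
    exact Finset.mem_product.2 ⟨Finset.mem_range.2 hk', hk1⟩
  refine (Finset.card_le_card h1).trans (Finset.card_image_le.trans ?_)
  refine D.thin ((t : ℤ) - D.p0) F ?_
  intro ab hab
  obtain ⟨h2, h3, h4⟩ := Finset.mem_filter.1 hab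
  obtain ⟨h5, h6⟩ := Finset.mem_product.1 h2
  refine ⟨Finset.mem_range.1 h5, Finset.mem_range.1 h6, h3, ?_⟩
  have := h4.2.2.2
  have e : (t : ℤ) - D.p0 + D.c ab.1 - D.c ab.2 = (t : ℤ) - ((D.c ab.2 : ℤ) - D.c ab.1) - D.p0 := by
    ring
  rw [e]; exact this

open Classical in
theorem cardE (U : List α) :
    ((Finset.range D.K).filter (fun k => ∃ k' < D.K, k' ≠ k ∧ D.Ek U k k')).card ≤ 1 := by
  rw [Finset.card_le_one]
  intro k hk l hl
  obtain ⟨hk1, k', hk', hkne, t, ht, htE⟩ := Finset.mem_filter.1 hk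
  obtain ⟨hl1, l', hl', hlne, s, hs, hsE⟩ := Finset.mem_filter.1 hl
  have a1 := D.hc k (Finset.mem_range.1 hk1)
  have a2 := D.hc k' hk'
  have a3 := D.hc l (Finset.mem_range.1 hl1)
  have a4 := D.hc l' hl'
  have hG := D.hG
  obtain ⟨b1, b2⟩ := abs_le.1 htE
  obtain ⟨b3, b4⟩ := abs_le.1 hsE
  have hts : t = s := by
    rcases lt_trichotomy t s with h | h | h
    · have := gap' ht hs h
      omega
    · exact h
    · have := gap' hs ht h
      omega
  subst hts
  refine (D.ruler k k' l l' (Finset.mem_range.1 hk1) hk' (Finset.mem_range.1 hl1) hl'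
    (Ne.symm hkne) (Ne.symm hlne) ?_).1
  rw [abs_le]
  constructor <;> omega

open Classical in
theorem spoil (U : List α) :
    ((Finset.range D.K).filter (fun k => ∃ k' < D.K, k' ≠ k ∧ (D.Ek U k k' ∨
      ∃ t, D.Bk U t k k'))).card ≤ 2 * D.C0 + 1 := by
  -- the walls in play
  have hplay : ∃ w1 w2 : ℕ, ∀ k k' t, k < D.K → k' < D.K → D.Bk U t k k' → t = w1 ∨ t = w2 := by
    by_cases hex : ∃ t, D.WU U t ∧ D.z ≤ t + D.p0
    · set w1 := Nat.find hex with hw1
      have hw1s : D.WU U w1 ∧ D.z ≤ w1 + D.p0 := Nat.find_spec hex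
      have hw1m : ∀ t, D.WU U t → D.z ≤ t + D.p0 → w1 ≤ t := fun t h1 h2 =>
        Nat.find_min' hex ⟨h1, h2⟩
      by_cases h2 : ∃ t k k', k < D.K ∧ k' < D.K ∧ D.Bk U t k k' ∧ t ≠ w1
      · obtain ⟨w2, l, l', hl, hl', hB, hne⟩ := h2
        refine ⟨w1, w2, ?_⟩
        intro k k' t hk hk' hBt
        by_cases ht : t = w1
        · exact Or.inl ht
        right
        have a1 := D.hc k hk
        have a2 := D.hc k' hk'
        have a3 := D.hc l hl
        have a4 := D.hc l' hl'
        have hG := D.hG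
        have c1 := hw1m t hBt.1 (by have := hBt.2.1; omega)
        have c2 := hw1m w2 hB.1 (by have := hB.2.1; omega)
        have g1 := gap' hw1s.1 hBt.1 (by omega)
        have g2 := gap' hw1s.1 hB.1 (by omega)
        rcases lt_trichotomy t w2 with h | h | h
        · have := hB.2.2.1 t hBt.1 h
          omega
        · exact h
        · have := hBt.2.2.1 w2 hB.1 h
          omega
      · push Not at h2
        refine ⟨w1, w1, ?_⟩
        intro k k' t hk hk' hBt
        exact Or.inl (h2 t k k' hk hk' hBt)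
    · refine ⟨0, 0, ?_⟩
      intro k k' t hk hk' hBt
      exfalso
      apply hex
      have a1 := D.hc k hk
      have a2 := D.hc k' hk'
      exact ⟨t, hBt.1, by have := hBt.2.1; omega⟩
  obtain ⟨w1, w2, hw⟩ := hplay
  have hsub : ((Finset.range D.K).filter (fun k => ∃ k' < D.K, k' ≠ k ∧ (D.Ek U k k' ∨
      ∃ t, D.Bk U t k k'))) ⊆
      ((Finset.range D.K).filter (fun k => ∃ k' < D.K, k' ≠ k ∧ D.Ek U k k')) ∪
      (((Finset.range D.K).filter (fun k => ∃ k' < D.K, k' ≠ k ∧ D.Bk U w1 k k')) ∪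
      ((Finset.range D.K).filter (fun k => ∃ k' < D.K, k' ≠ k ∧ D.Bk U w2 k k'))) := by
    intro k hk
    obtain ⟨hk1, k', hk', hne, h | ⟨t, h⟩⟩ := Finset.mem_filter.1 hk
    · exact Finset.mem_union_left _ (Finset.mem_filter.2 ⟨hk1, k', hk', hne, h⟩)
    · apply Finset.mem_union_right
      rcases hw k k' t (Finset.mem_range.1 hk1) hk' h with rfl | rfl
      · exact Finset.mem_union_left _ (Finset.mem_filter.2 ⟨hk1, k', hk', hne, h⟩)
      · exact Finset.mem_union_right _ (Finset.mem_filter.2 ⟨hk1, k', hk', hne, h⟩)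
  have h1 := Finset.card_le_card hsub
  have h2 := Finset.card_union_le
    ((Finset.range D.K).filter (fun k => ∃ k' < D.K, k' ≠ k ∧ D.Ek U k k'))
    (((Finset.range D.K).filter (fun k => ∃ k' < D.K, k' ≠ k ∧ D.Bk U w1 k k')) ∪
      ((Finset.range D.K).filter (fun k => ∃ k' < D.K, k' ≠ k ∧ D.Bk U w2 k k')))
  have h3 := Finset.card_union_le
    ((Finset.range D.K).filter (fun k => ∃ k' < D.K, k' ≠ k ∧ D.Bk U w1 k k'))
    ((Finset.range D.K).filter (fun k => ∃ k' < D.K, k' ≠ k ∧ D.Bk U w2 k k'))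
  have h4 := cardE (D := D) U
  have h5 := cardB (D := D) U w1
  have h6 := cardB (D := D) U w2
  omega

/-- completeness of scheme 2 -/
theorem C2 (u : List α) (hu : u ∈ D.Bad) (x : V) (t : List α)
    (ht : t ∈ D.Bad ^ 1) : ∃ p q y, u ++ t = p ++ q ∧ p ∈ D.L2 x ∧
      q ∈ Rsem D.XX D.Bad D.T 1 D.L2 y := by
  classical
  rw [pow_one] at ht
  have hz : D.z = D.p0 + D.q0 + D.N1 := rfl
  have hq := D.hq
  have hul : D.z ≤ u.length := hu.1.1
  have htl : D.z ≤ t.length := ht.1.1
  obtain ⟨I, hI, hIk⟩ := D.complete2 (u.take D.p0) x (by rw [List.length_take]; omega)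
  have hcard := spoil (D := D) (u ++ t)
  obtain ⟨k, hkI, hkS⟩ := Finset.exists_mem_notMem_of_card_lt_card
    (lt_of_le_of_lt hcard (show 2 * D.C0 + 1 < I.card by omega))
  obtain ⟨hkK, hlam, hrho⟩ := hIk k hkI
  obtain ⟨b, hb⟩ := Option.isSome_iff_exists.1 hrho
  have hck := D.hc k hkK
  have hkS' : ∀ k' < D.K, k' ≠ k → ¬ D.Ek (u ++ t) k k' ∧ ∀ t', ¬ D.Bk (u ++ t) t' k k' := by
    intro k' hk' hne
    constructor
    · intro h
      exact hkS (Finset.mem_filter.2 ⟨Finset.mem_range.2 hkK, k', hk', hne, Or.inl h⟩)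
    · intro t' h
      exact hkS (Finset.mem_filter.2 ⟨Finset.mem_range.2 hkK, k', hk', hne, Or.inr ⟨t', h⟩⟩)
  rw [List.take_take, min_eq_left hck] at hlam
  have hpl : (u.take (D.c k)).length = D.c k := by rw [List.length_take]; omega
  have hU : u ++ t = u.take (D.c k) ++ (u.drop (D.c k) ++ t) := by
    rw [← List.append_assoc, List.take_append_drop]
  refine ⟨u.take (D.c k), u.drop (D.c k) ++ t, D.T t (D.T u x), hU, ⟨k, hkK, hpl, hlam⟩, ?_⟩
  rintro x' p' ⟨k', hk'K, hl', hlam'⟩
  have hck' := D.hc k' hk'K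
  by_cases hkk : k' = k
  · subst hkk
    left
    have hmem : p' ++ u.drop (D.c k') ∈ D.Bad := by
      refine bad2 (p := u.take (D.c k')) (by omega) (by omega) ?_
      rw [List.take_append_drop]; exact hu
    refine ⟨D.T u x, Language.mem_mul.2 ⟨p' ++ u.drop (D.c k'), ⟨hmem,
      T_same (by omega) hkK hl' hlam hlam' hb⟩, t,
      ⟨D.T t (D.T u x), Language.mem_mul.2 ⟨t, ⟨ht, rfl⟩, [], ⟨rfl, rfl⟩, by simp⟩⟩, by simp⟩⟩
  · right
    left
    obtain ⟨hnE, hnB⟩ := hkS' k' hk'K hkk
    set Q := u.drop (D.c k) ++ t with hQ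
    have hQl : Q.length = u.length - D.c k + t.length := by
      rw [hQ, List.length_append, List.length_drop]
    have hwl : (p' ++ Q).length = D.c k' + Q.length := by rw [List.length_append, hl']
    have hUl : (u ++ t).length = D.c k + Q.length := by rw [hU, List.length_append, hpl]
    -- transfer
    have tr : ∀ s, D.n ≤ s → s ≤ Q.length →
        (D.Wo ((p' ++ Q).take (D.c k' + s)) ↔ D.Wo ((u ++ t).take (D.c k + s))) := by
      intro s h1 h2
      have := wo_shift (D := D) (p := u.take (D.c k)) (p' := p') (q := Q) (s := s) h1 h2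
      rw [hl', hpl, ← hU] at this
      exact this
    have hend : D.Wo ((p' ++ Q).take (p' ++ Q).length) := by
      rw [hwl, tr _ (by omega) le_rfl, ← hUl, List.take_length, D.loc u t (by omega)]
      exact ht.1.2.1
    have hex : ∃ s, D.z ≤ s ∧ s ≤ (p' ++ Q).length ∧ D.Wo ((p' ++ Q).take s) :=
      ⟨_, by omega, le_rfl, hend⟩
    obtain ⟨h1, h2, h3⟩ := Nat.find_spec hex
    have hmin : ∀ s, D.z ≤ s → s < Nat.find hex → ¬ D.Wo ((p' ++ Q).take s) := by
      intro s hs1 hs2 hs3
      exact Nat.find_min hex hs2 ⟨hs1, by omega, hs3⟩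
    set s0 := Nat.find hex with hs0
    have hs0l : ((p' ++ Q).take s0).length = s0 := by rw [List.length_take]; omega
    refine ⟨(p' ++ Q).take s0, ⟨by omega, h3, ?_⟩, ?_, List.take_prefix _ _⟩
    · intro r hr1 hr2
      rw [List.take_take, min_eq_left (by omega)]
      exact hmin r hr1 (by omega)
    · rintro ⟨-, hE | hB⟩
      · obtain ⟨r, hr1, hr2, hr3, hr4⟩ := hE
        rw [hs0l] at hr3
        rw [List.take_take, min_eq_left (by omega)] at hr4
        obtain ⟨s, rfl⟩ : ∃ s, r = D.c k' + s := ⟨r - D.c k', by omega⟩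
        apply hnE
        refine ⟨D.c k + s, ⟨by omega, (tr s (by omega) (by omega)).1 hr4⟩, ?_⟩
        rw [abs_le]
        constructor <;> push_cast <;> omega
      · obtain ⟨s, hs⟩ : ∃ s, s0 = D.c k' + s := ⟨s0 - D.c k', by omega⟩
        apply hnB (D.c k + s)
        refine ⟨⟨by omega, (tr s (by omega) (by omega)).1 (by rw [← hs]; exact h3)⟩,
          by push_cast; omega, ?_, ?_⟩
        · intro t' ht' hlt
          by_contra hcon
          obtain ⟨s', rfl⟩ : ∃ s', t' = D.c k + s' := ⟨t' - D.c k, by omega⟩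
          have := (tr s' (by omega) (by have := ht'.1; omega)).2 ht'.2
          exact hmin _ (by omega) (by omega) this
        · unfold BB at hB
          rw [hs0l] at hB
          have e : ((D.c k + s : ℕ) : ℤ) - ((D.c k : ℤ) - D.c k') - D.p0 = (s0 : ℤ) - D.p0 := by
            rw [hs]; push_cast; ring
          rw [e]; exact hB

end Dat

end Crest.Agent.R320.InstA_966
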