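import Crest.Agent.R320.InstB_18

/-!
# Row 320, all words: natural block code, spoil count (helper18)
-/

set_option autoImplicit false

namespace Crest.Agent.R320.Inst_18

open Crest.RegLang Crest.Agent.R320.Hk_851 Crest.Agent.R320.Code110
open Crest.Agent.R320.FewWalls_228 Crest.Agent.R320.FewVal_228

universe u

variable {α : Type u} {n z N p0 : ℕ} {S : Set (List α)}

theorem spoil_count (BT : ℕ → Prop) (K Lam cB W : ℕ) (c : ℕ → ℕ)
    (hc : ∀ k < K, c k ≤ Lam) (hLp : Lam ≤ p0) (hpz : p0 + 2 * Lam + N + n ≤ z)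
    (hW : 2 * Lam + 2 * N < W)
    (hgap : ∀ (w : List α) (x y : ℕ), x < y → Wl n S w x → Wl n S w y → x + W ≤ y)
    (hgol : ∀ i < K, ∀ j < K, ∀ k < K, ∀ l < K, i ≠ j → k ≠ l →
      c j + c k < c i + c l + 2 * N → c i + c l < c j + c k + 2 * N → i = k ∧ j = l)
    (hsp : ∀ T, Lam ≤ T → ∃ Q : Finset (ℕ × ℕ), Q.card ≤ cB ∧
      ∀ i < K, ∀ j < K, i ≠ j → BT (T + c j - c i) → (i, j) ∈ Q)
    (hN : 0 < N) :
    ∀ u ∈ Bad n S z N p0 BT, ∀ t ∈ Bad n S z N p0 BT, ∃ J : Finset ℕ, J.card < 2 + 2 * cB ∧
      ∀ k < K, (∃ k' < K, k' ≠ k ∧ Sp n S z N p0 BT c (u ++ t) k k') → k ∈ J := by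
  classical
  intro u hu t ht
  set w := u ++ t with hw
  have huz : z ≤ u.length := hu.1.1
  have htz : z ≤ t.length := ht.1.1
  have hwlen : w.length = u.length + t.length := List.length_append
  -- walls of `w`
  let Wal : ℕ → Prop := fun s => s ≤ w.length ∧ Wo n S (w.take s)
  have wgap : ∀ s s', s < s' → Wal s → Wal s' → s + W ≤ s' := by
    intro s s' h1 h2 h3
    obtain ⟨a1, a2⟩ := (Wo_take h2.1).1 h2.2
    obtain ⟨b1, b2⟩ := (Wo_take h3.1).1 h3.2
    have := hgap w (s - n) (s' - n) (by omega) a2 b2
    omega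
  have hwu : Wal u.length := by
    refine ⟨by omega, ?_⟩
    rw [hw, List.take_left' rfl]; exact hu.1.2.1
  have hwt : Wal w.length := by
    refine ⟨le_rfl, ?_⟩
    rw [List.take_length, hw]
    exact (Wo_append u t (by omega)).2 ht.1.2.1
  have exa : ∃ s, z ≤ s + Lam ∧ Wal s := ⟨u.length, by omega, hwu⟩
  obtain ⟨a1, a2⟩ := Nat.find_spec exa
  have amin : ∀ s, z ≤ s + Lam → Wal s → Nat.find exa ≤ s := fun s h1 h2 =>
    Nat.find_min' exa ⟨h1, h2⟩
  have hau : Nat.find exa ≤ u.length := amin _ (by omega) hwu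
  have exb : ∃ s, Nat.find exa < s ∧ Wal s := ⟨w.length, by omega, hwt⟩
  obtain ⟨b1, b2⟩ := Nat.find_spec exb
  have bmin : ∀ s, Nat.find exa < s → Wal s → Nat.find exb ≤ s := fun s h1 h2 =>
    Nat.find_min' exb ⟨h1, h2⟩
  generalize Nat.find exa = ta at *
  generalize Nat.find exb = tb at *
  have hab := wgap ta tb b1 a2 b2
  obtain ⟨Qa, hQa, hQa'⟩ := hsp (ta - p0) (by omega)
  obtain ⟨Qb, hQb, hQb'⟩ := hsp (tb - p0) (by omega)
  let PE : Finset (ℕ × ℕ) := (Finset.range K ×ˢ Finset.range K).filter (fun q => q.1 ≠ q.2 ∧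
    ∃ s, Wal s ∧ z + c q.1 ≤ s + c q.2 + N ∧ s + c q.2 < z + c q.1 + N)
  have hPE : PE.card ≤ 1 := by
    rw [Finset.card_le_one]
    rintro ⟨i, j⟩ h1 ⟨k, l⟩ h2
    simp only [PE, Finset.mem_filter, Finset.mem_product, Finset.mem_range] at h1 h2
    obtain ⟨⟨hi, hj⟩, hij, s, hs, hs1, hs2⟩ := h1
    obtain ⟨⟨hk, hl⟩, hkl, s', hs', hs1', hs2'⟩ := h2
    have := hc i hi; have := hc j hj; have := hc k hk; have := hc l hl
    have hss : s = s' := by
      rcases lt_trichotomy s s' with h | h | h
      · have := wgap s s' h hs hs'; omega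
      · exact h
      · have := wgap s' s h hs' hs; omega
    subst hss
    obtain ⟨e1, e2⟩ := hgol i hi j hj k hk l hl hij hkl (by omega) (by omega)
    rw [e1, e2]
  refine ⟨(PE ∪ Qa ∪ Qb).image Prod.fst, ?_, ?_⟩
  · have h1 := Finset.card_image_le (s := PE ∪ Qa ∪ Qb) (f := Prod.fst)
    have h2 := Finset.card_union_le (PE ∪ Qa) Qb
    have h3 := Finset.card_union_le PE Qa
    omega
  · rintro k hk ⟨k', hk', hne, p', hp', u'', hu'', hpre⟩
    have hck := hc k hk
    have hck' := hc k' hk'
    have hdl : (w.drop (c k)).length = w.length - c k := List.length_drop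
    obtain ⟨r, hr⟩ := hpre
    have hul : u''.length ≤ (p' ++ w.drop (c k)).length := by
      rw [← hr, List.length_append]; omega
    have hul' : u''.length ≤ c k' + (w.length - c k) := by
      rwa [List.length_append, hdl, hp'] at hul
    have hutake : u'' = (p' ++ w.drop (c k)).take u''.length := by
      rw [← hr, List.take_left' rfl]
    have htk : (w.take (c k)).length = c k := by rw [List.length_take]; omega
    -- transfer of walls
    have key : ∀ s, c k' + n ≤ s → s ≤ u''.length →
        (Wo n S (u''.take s) ↔ Wal (s - c k' + c k)) := by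
      intro s hs hsq
      have h1 := Wo_shift (n := n) (S := S) (w.take (c k)) p' (w.drop (c k)) (s := s - c k')
        (by omega) (by omega)
      rw [List.take_append_drop, htk, hp', show c k' + (s - c k') = s by omega] at h1
      have h2 : u''.take s = (p' ++ w.drop (c k)).take s := by
        conv_lhs => rw [hutake]
        rw [List.take_take, Nat.min_eq_left hsq]
      rw [h2, h1]
      constructor
      · intro h; exact ⟨by omega, by rw [show s - c k' + c k = c k + (s - c k') by omega]; exact h⟩
      · rintro ⟨_, h⟩; rw [show c k + (s - c k') = s - c k' + c k by omega]; exact h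
    have hz'' : z ≤ u''.length := hu''.1.1
    rw [Finset.mem_image]
    rcases hu''.2 with ⟨s, h1, h2, h3, h4⟩ | hBT
    · refine ⟨(k, k'), ?_, rfl⟩
      rw [Finset.mem_union, Finset.mem_union]
      left; left
      simp only [PE, Finset.mem_filter, Finset.mem_product, Finset.mem_range]
      exact ⟨⟨hk, hk'⟩, fun h => hne h.symm, s - c k' + c k,
        (key s (by omega) h3).1 h4, by omega, by omega⟩
    · -- the end of the block
      have hend : Wal (u''.length - c k' + c k) := by
        refine (key u''.length (by omega) le_rfl).1 ?_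
        rw [List.take_length]; exact hu''.1.2.1
      have hfirst : ∀ s, z + c k ≤ s + c k' → s < u''.length - c k' + c k → ¬ Wal s := by
        intro s h1 h2 h3
        refine hu''.1.2.2 (s - c k + c k') (by omega) (by omega) ?_
        refine (key (s - c k + c k') (by omega) (by omega)).2 ?_
        rwa [show s - c k + c k' - c k' + c k = s by omega]
      generalize hL : u''.length = L at *
      have hsa : ta ≤ L - c k' + c k := amin _ (by omega) hend
      rcases hsa.eq_or_lt with he | hlt
      · refine ⟨(k, k'), ?_, rfl⟩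
        rw [Finset.mem_union, Finset.mem_union]
        left; right
        refine hQa' k hk k' hk' (fun h => hne h.symm) ?_
        rwa [show ta - p0 + c k' - c k = L - p0 by omega]
      · have hta : ta + c k' < z + c k := by
          by_contra hcon
          exact hfirst ta (by omega) hlt a2
        have hsb : tb ≤ L - c k' + c k := bmin _ hlt hend
        rcases hsb.eq_or_lt with he | hlt2
        · refine ⟨(k, k'), ?_, rfl⟩
          rw [Finset.mem_union]
          right
          refine hQb' k hk k' hk' (fun h => hne h.symm) ?_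
          rwa [show tb - p0 + c k' - c k = L - p0 by omega]
        · exact (hfirst tb (by omega) hlt2 b2).elim

end Crest.Agent.R320.Inst_18
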