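import Crest.Agent.R320.InstB_180
import Crest.Agent.R320.Reg_143

/-!
# Row 320: regularity and height of the languages of the instance (helper180)
-/

set_option autoImplicit false

namespace Crest.Agent.R320.InstA_180

open Crest.Agent.R320.FewWalls_228 Crest.Agent.R320.Half1_180 Crest.R320.Reg_143

universe u

section Reg

variable {α : Type u}

theorem reg_gec {k : ℕ} (c : ℕ) (i : Fin k) : RegP (α := α) (fun _ x => c ≤ x i) := by
  refine (RegP.take (isRegular_length (fun n => c ≤ n) c 1 one_pos (fun n hn => by omega)) i).congr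
    fun w x hx => ?_
  have := hx i
  rw [List.length_take, min_eq_left this]

theorem reg_ltc {k : ℕ} (c : ℕ) (i : Fin k) : RegP (α := α) (fun _ x => x i < c) :=
  (reg_gec c i).not.congr fun w x _ => by simp

theorem reg_lenP {k : ℕ} (P : ℕ → Prop) (N m : ℕ) (hm : 0 < m)
    (hP : ∀ n, N ≤ n → (P (n + m) ↔ P n)) (i : Fin k) :
    RegP (α := α) (fun _ x => P (x i)) := by
  refine (RegP.take (isRegular_length P N m hm hP) i).congr fun w x hx => ?_
  have := hx i
  rw [List.length_take, min_eq_left this]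

variable [Finite α] {n : ℕ} {SS : Set (List α)}

theorem reg_wl {k : ℕ} (i : Fin k) : RegP (fun w (x : Fin k → ℕ) => Wl n SS w (x i)) := by
  have h := isRegular_take (β := α) n (fun l => l.length = n ∧ l ∈ SS)
  refine (RegP.drop h i).congr fun w x hx => ?_
  have := hx i
  unfold Wl
  rw [List.length_take, List.length_drop]
  constructor
  · rintro ⟨h1, h2⟩; exact ⟨by omega, h2⟩
  · rintro ⟨h1, h2⟩; exact ⟨by omega, h2⟩

theorem wl_le {w : List α} {s : ℕ} (h : Wl n SS w s) : s ≤ w.length := by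
  have := h.1; omega

/-- end of the word: `x i + n = |w|` -/
theorem reg_end {k : ℕ} (i : Fin k) :
    RegP (fun (w : List α) (x : Fin k → ℕ) => w.length = x i + n) := by
  refine (RegP.drop (isRegular_length (fun m => m = n) (n + 1) 1 one_pos
    (fun m hm => by omega)) i).congr fun w x hx => ?_
  have := hx i
  rw [List.length_drop]; omega

theorem reg_blk (Z : ℕ) : RegP (fun w (x : Fin 2 → ℕ) => Blk n SS Z w (x 0) (x 1)) := by
  have h : RegP (fun w (x : Fin 2 → ℕ) =>
      (Z ≤ x 0 ∧ Wl n SS w (x 0) ∧ ∀ s ≤ w.length, Z ≤ s → s < x 0 → ¬ Wl n SS w s) ∧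
      x 0 < x 1 ∧ Wl n SS w (x 1) ∧ (∀ s ≤ w.length, x 0 < s → s < x 1 → ¬ Wl n SS w s) ∧
      w.length = x 1 + n) := by
    refine RegP.and (RegP.and (reg_gec Z 0) (RegP.and (reg_wl 0) ?_)) (RegP.and (RegP.lt 0 1)
      (RegP.and (reg_wl 1) (RegP.and ?_ (reg_end 1))))
    · refine RegP.all' (P := fun w x s => Z ≤ s → s < x 0 → ¬ Wl n SS w s) ?_
      exact (reg_gec Z 0).imp ((RegP.lt (0 : Fin 3) 1).imp (reg_wl 0).not)
    · refine RegP.all' (P := fun w x s => x 0 < s → s < x 1 → ¬ Wl n SS w s) ?_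
      exact (RegP.lt (1 : Fin 3) 0).imp ((RegP.lt (0 : Fin 3) 2).imp (reg_wl 0).not)
  refine h.congr fun w x hx => ?_
  unfold Blk
  constructor
  · rintro ⟨⟨h1, h2, h3⟩, h4, h5, h6, h7⟩
    exact ⟨⟨h1, h2, fun s _ => h3 s⟩, h4, h5, fun s _ => h6 s, h7⟩
  · rintro ⟨⟨h1, h2, h3⟩, h4, h5, h6, h7⟩
    exact ⟨⟨h1, h2, fun s a b hs => h3 s (wl_le hs) a b hs⟩, h4, h5,
      fun s a b hs => h6 s (wl_le hs) a b hs, h7⟩

/-- closing two positions -/
theorem close2 {P : List α → ℕ → ℕ → Prop}
    (h : RegP (fun w (x : Fin 2 → ℕ) => P w (x 0) (x 1))) :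
    (lg fun w => ∃ t ≤ w.length, ∃ b ≤ w.length, P w t b).IsRegular := by
  have h1 : RegP (fun w (x : Fin 1 → ℕ) => ∃ b ≤ w.length, P w (x 0) b) := by
    refine RegP.ex' (P := fun w x b => P w (x 0) b) ?_
    exact (h.reindex ![1, 0]).congr fun w x _ => by simp
  have h0 : RegP (fun w (_ : Fin 0 → ℕ) => ∃ t ≤ w.length, ∃ b ≤ w.length, P w t b) :=
    RegP.ex' (P := fun w _ t => ∃ b ≤ w.length, P w t b) h1
  exact h0.close

theorem reg_XX (Z : ℕ) : (lg fun w => w ∈ XX n SS Z).IsRegular := by
  refine isRegular_congr (close2 (P := fun w t b => Blk n SS Z w t b) (reg_blk Z)) fun w => ?_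
  rw [mem_lg]
  constructor
  · rintro ⟨t, _, b, _, h⟩; exact ⟨t, b, h⟩
  · rintro ⟨t, b, h⟩
    exact ⟨t, wl_le h.1.2.1, b, wl_le h.2.2.1, h⟩

theorem nw_le_blk {Z : ℕ} {w : List α} {t b : ℕ} (h : Blk n SS Z w t b) : nw n SS w ≤ Z + 2 := by
  classical
  unfold nw
  obtain ⟨⟨h1, h2, h3⟩, h4, h5, h6, h7⟩ := h
  have hsub : ((Finset.range (w.length + 1)).filter (fun x => Wl n SS w x)) ⊆
      Finset.range Z ∪ {t, b} := by
    intro s hs
    obtain ⟨_, hs2⟩ := Finset.mem_filter.1 hs
    by_cases hsZ : s < Z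
    · exact Finset.mem_union_left _ (Finset.mem_range.2 hsZ)
    · refine Finset.mem_union_right _ ?_
      have hst : s = t ∨ s = b := by
        by_contra hn
        push Not at hn
        rcases Nat.lt_trichotomy s t with hlt | heq | hlt
        · exact h3 s (by omega) hlt hs2
        · exact hn.1 heq
        · rcases Nat.lt_trichotomy s b with hlt' | heq | hlt'
          · exact h6 s hlt hlt' hs2
          · exact hn.2 heq
          · have := hs2.1; omega
      rcases hst with rfl | rfl <;> simp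
  calc _ ≤ (Finset.range Z ∪ {t, b}).card := Finset.card_le_card hsub
    _ ≤ Z + 2 := by
        refine (Finset.card_union_le _ _).trans ?_
        rw [Finset.card_range]
        have : ({t, b} : Finset ℕ).card ≤ 2 := Finset.card_le_two
        omega

/-- words without a block prefix have few walls -/
theorem nw_le_tail {Z : ℕ} {w : List α} (h : w ∈ Tail (XX n SS Z)) : nw n SS w ≤ Z + 1 := by
  classical
  unfold nw
  have huniq : ∀ s s', Z ≤ s → s < s' → Wl n SS w s → ¬ Wl n SS w s' := by
    intro s s' hs hlt hws hws'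
    -- the first wall
    have hex : ∃ t, Z ≤ t ∧ Wl n SS w t := ⟨s, hs, hws⟩
    let t := Nat.find hex
    have ht : Z ≤ t ∧ Wl n SS w t := Nat.find_spec hex
    have htm : ∀ r, Z ≤ r → r < t → ¬ Wl n SS w r := fun r h1 h2 h3 =>
      Nat.find_min hex h2 ⟨h1, h3⟩
    have hts : t ≤ s := by
      by_contra hn
      exact htm s hs (by omega) hws
    have hex2 : ∃ b, t < b ∧ Wl n SS w b := ⟨s', by omega, hws'⟩
    let b := Nat.find hex2
    have hb : t < b ∧ Wl n SS w b := Nat.find_spec hex2
    have hbm : ∀ r, t < r → r < b → ¬ Wl n SS w r := fun r h1 h2 h3 =>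
      Nat.find_min hex2 h2 ⟨h1, h3⟩
    have hbl : b + n ≤ w.length := hb.2.1
    have key : ∀ r, r + n ≤ b + n → (Wl n SS (w.take (b + n)) r ↔ Wl n SS w r) := by
      intro r hr
      have e : w = w.take (b + n) ++ w.drop (b + n) := (List.take_append_drop _ _).symm
      have h9 := wl_left (n := n) (SS := SS) (P := w.take (b + n)) (Q := w.drop (b + n)) (s := r)
        (by rw [List.length_take]; omega)
      rw [← e] at h9
      exact h9.symm
    refine h (w.take (b + n)) ⟨t, b, ⟨⟨ht.1, (key t (by omega)).2 ht.2, ?_⟩, hb.1,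
      (key b le_rfl).2 hb.2, ?_, ?_⟩⟩ (List.take_prefix _ _)
    · intro r h1 h2 h3
      exact htm r h1 h2 ((key r (by omega)).1 h3)
    · intro r h1 h2 h3
      exact hbm r h1 h2 ((key r (by omega)).1 h3)
    · rw [List.length_take]; omega
  by_cases hex : ∃ t, Z ≤ t ∧ Wl n SS w t
  · obtain ⟨t, ht1, ht2⟩ := hex
    have hsub : ((Finset.range (w.length + 1)).filter (fun x => Wl n SS w x)) ⊆
        Finset.range Z ∪ {t} := by
      intro s hs
      obtain ⟨_, hs2⟩ := Finset.mem_filter.1 hs
      by_cases hsZ : s < Z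
      · exact Finset.mem_union_left _ (Finset.mem_range.2 hsZ)
      · refine Finset.mem_union_right _ (Finset.mem_singleton.2 ?_)
        rcases Nat.lt_trichotomy s t with hlt | heq | hlt
        · exact absurd ht2 (huniq s t (by omega) hlt hs2)
        · exact heq
        · exact absurd hs2 (huniq t s ht1 hlt ht2)
    calc _ ≤ (Finset.range Z ∪ {t}).card := Finset.card_le_card hsub
      _ ≤ Z + 1 := by
          refine (Finset.card_union_le _ _).trans ?_
          rw [Finset.card_range, Finset.card_singleton]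
  · have hsub : ((Finset.range (w.length + 1)).filter (fun x => Wl n SS w x)) ⊆
        Finset.range Z := by
      intro s hs
      obtain ⟨_, hs2⟩ := Finset.mem_filter.1 hs
      by_contra hn
      exact hex ⟨s, by simpa using hn, hs2⟩
    calc _ ≤ (Finset.range Z).card := Finset.card_le_card hsub
      _ ≤ Z + 1 := by rw [Finset.card_range]; omega

end Reg

end Crest.Agent.R320.InstA_180
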