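import Crest.Agent.R320.InstB_184

/-!
# Row 320: two schemes on all words from the U-gadget, main theorem (helper184)
-/

set_option autoImplicit false

namespace Crest.Agent.R320.Inst_184

open Crest.RegLang Crest.Agent.R320.Hk_851 Crest.Agent.R320.Blk467
  Crest.Agent.R320.FewWalls_228 Crest.Agent.R320.WallU_228

/-- moving the left part of a block: the wall status behind the common part -/
theorem wall_move {α : Type} {n : ℕ} {W : List α → Prop}
    (hW : ∀ P Q : List α, n ≤ Q.length → (W (P ++ Q) ↔ W Q)) (P P' Q : List α) (t : ℕ)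
    (h1 : P.length + n ≤ t) (h2 : t ≤ P.length + Q.length) :
    W ((P ++ Q).take t) ↔ W ((P' ++ Q).take (t - P.length + P'.length)) := by
  have e1 : (P ++ Q).take t = P ++ Q.take (t - P.length) := by
    rw [List.take_append, List.take_of_length_le (by omega)]
  have e2 : (P' ++ Q).take (t - P.length + P'.length) = P' ++ Q.take (t - P.length) := by
    rw [List.take_append, List.take_of_length_le (by omega)]
    congr 2
    omega
  have hl : n ≤ (Q.take (t - P.length)).length := by
    rw [List.length_take]; omega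
  rw [e1, e2, hW _ _ hl, hW _ _ hl]

/-- changing a short left part keeps the block property, if there are no walls near `z` -/
theorem XX_move {α : Type} {n z : ℕ} {W : List α → Prop}
    (hW : ∀ P Q : List α, n ≤ Q.length → (W (P ++ Q) ↔ W Q)) (P P' Q : List α)
    (hX : P ++ Q ∈ XX W z) (h1 : z ≤ P'.length + Q.length) (h2 : P'.length + n ≤ z)
    (h3 : n ≤ Q.length)
    (h4 : ∀ t, z ≤ t + P'.length - P.length → z + P.length ≤ t + P'.length → t < z →
      ¬ W ((P ++ Q).take t)) :
    P' ++ Q ∈ XX W z := by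
  refine ⟨by rw [List.length_append]; exact h1, (hW _ _ h3).2 ((hW _ _ h3).1 hX.2.1), ?_⟩
  intro t ht1 ht2 hWt
  rw [List.length_append] at ht2
  rw [wall_move hW P' P Q t (by omega) (by omega)] at hWt
  by_cases hz : z ≤ t - P'.length + P.length
  · exact hX.2.2 _ hz (by rw [List.length_append]; omega) hWt
  · exact h4 _ (by omega) (by omega) (by omega) hWt

open Classical in
theorem spoil {α : Type} {n z p0 N1 K C0 La : ℕ} {W : List α → Prop} {c : ℕ → ℕ}
    {Bd : ℕ → Prop}
    (hW : ∀ P Q : List α, n ≤ Q.length → (W (P ++ Q) ↔ W Q))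
    (hgap : ∀ (X : List α) (t t' : ℕ), t < t' → t' ≤ X.length → W (X.take t) →
      W (X.take t') → t + (2 * p0 + 2 * N1 + 2) < t')
    (hz : z = 2 * p0 + 2 * N1 + La + n + 1) (hc : ∀ k < K, c k ≤ p0)
    (hgol : ∀ i j k l, i < K → j < K → k < K → l < K → i ≠ j → k ≠ l → (i, j) ≠ (k, l) →
      c i + c l + 4 * N1 < c k + c j ∨ c k + c j + 4 * N1 < c i + c l)
    (hsp : ∀ T, La ≤ T → ((Finset.range K ×ˢ Finset.range K).filter
      (fun p => p.1 ≠ p.2 ∧ Bd (T + c p.2 - c p.1))).card ≤ C0)
    (X X' : List α) (hX : X ∈ XX W z) (hX' : X' ∈ XX W z) :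
    ((Finset.range K ×ˢ Finset.range K).filter (fun p => p.1 ≠ p.2 ∧
      ∃ P' X'' : List α, P'.length = c p.2 ∧ X'' ∈ Bad W z p0 N1 Bd ∧
        X'' <+: P' ++ (X ++ X').drop (c p.1))).card ≤ 1 + 2 * C0 := by
  have lX := hX.1
  have lX' := hX'.1
  set Wd := X ++ X' with hWd
  have lWd : Wd.length = X.length + X'.length := by rw [hWd, List.length_append]
  have wEnd : W (Wd.take Wd.length) := by
    rw [List.take_length, hWd, hW _ _ (by omega)]
    exact hX'.2.1
  have ex1 : ∃ t, z - p0 - N1 ≤ t ∧ t ≤ Wd.length ∧ W (Wd.take t) :=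
    ⟨Wd.length, by omega, le_rfl, wEnd⟩
  have ex2 : ∃ t, z + p0 + 1 ≤ t ∧ t ≤ Wd.length ∧ W (Wd.take t) :=
    ⟨Wd.length, by omega, le_rfl, wEnd⟩
  obtain ⟨t1, ⟨a1, a2, a3⟩, a4⟩ : ∃ t1, (z - p0 - N1 ≤ t1 ∧ t1 ≤ Wd.length ∧ W (Wd.take t1)) ∧
      ∀ t, z - p0 - N1 ≤ t → t ≤ Wd.length → W (Wd.take t) → t1 ≤ t :=
    ⟨Nat.find ex1, Nat.find_spec ex1, fun t h1 h2 h3 => Nat.find_min' ex1 ⟨h1, h2, h3⟩⟩
  obtain ⟨t2, ⟨b1, b2, b3⟩, b4⟩ : ∃ t2, (z + p0 + 1 ≤ t2 ∧ t2 ≤ Wd.length ∧ W (Wd.take t2)) ∧
      ∀ t, z + p0 + 1 ≤ t → t ≤ Wd.length → W (Wd.take t) → t2 ≤ t :=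
    ⟨Nat.find ex2, Nat.find_spec ex2, fun t h1 h2 h3 => Nat.find_min' ex2 ⟨h1, h2, h3⟩⟩
  -- uniqueness near z
  have uniq : ∀ u, z - p0 - N1 ≤ u → u ≤ z + p0 + N1 → u ≤ Wd.length → W (Wd.take u) →
      u = t1 := by
    intro u h1 h2 h3 h4
    have h5 := a4 u h1 h3 h4
    by_contra hne
    have h6 := hgap Wd t1 u (by omega) h3 a3 h4
    omega
  have key : (Finset.range K ×ˢ Finset.range K).filter (fun p => p.1 ≠ p.2 ∧
      ∃ P' X'' : List α, P'.length = c p.2 ∧ X'' ∈ Bad W z p0 N1 Bd ∧
        X'' <+: P' ++ Wd.drop (c p.1)) ⊆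
      ((Finset.range K ×ˢ Finset.range K).filter (fun p => p.1 ≠ p.2 ∧
        (z + c p.1 ≤ t1 + c p.2 + N1 ∧ t1 + c p.2 ≤ z + c p.1 + N1))) ∪
      (((Finset.range K ×ˢ Finset.range K).filter
        (fun p => p.1 ≠ p.2 ∧ Bd (t1 - p0 + c p.2 - c p.1))) ∪
      ((Finset.range K ×ˢ Finset.range K).filter
        (fun p => p.1 ≠ p.2 ∧ Bd (t2 - p0 + c p.2 - c p.1)))) := by
    rintro ⟨k, j⟩ hkj
    rw [Finset.mem_filter] at hkj
    obtain ⟨hmem, hne, P', X'', hP', hX'', hpre⟩ := hkj
    have hk : k < K := Finset.mem_range.1 (Finset.mem_product.1 hmem).1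
    have hj : j < K := Finset.mem_range.1 (Finset.mem_product.1 hmem).2
    simp only at hne hP' hpre
    have ck := hc k hk
    have cj := hc j hj
    obtain ⟨r, hr⟩ := hpre
    have lQ : (Wd.drop (c k)).length = Wd.length - c k := List.length_drop
    have lX'' : X''.length ≤ c j + (Wd.length - c k) := by
      have := congrArg List.length hr
      rw [List.length_append, List.length_append, hP', lQ] at this
      omega
    have tk : ∀ t, t ≤ X''.length → X''.take t = (P' ++ Wd.drop (c k)).take t := by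
      intro t ht
      rw [← hr, List.take_append_of_le_length ht]
    have eWd : Wd.take (c k) ++ Wd.drop (c k) = Wd := List.take_append_drop _ _
    have ltk : (Wd.take (c k)).length = c k := by rw [List.length_take]; omega
    have mv : ∀ t, c j + n ≤ t → t ≤ X''.length →
        (W (X''.take t) ↔ W (Wd.take (t - c j + c k))) := by
      intro t h1 h2
      rw [tk t h2, wall_move hW P' (Wd.take (c k)) (Wd.drop (c k)) t (by omega)
        (by rw [lQ]; omega), eWd, ltk, hP']
    obtain ⟨⟨g1, g2, g3⟩, g4⟩ := hX''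
    have wst : W (Wd.take (X''.length - c j + c k)) := by
      rw [← mv _ (by omega) le_rfl, List.take_length]
      exact g2
    have nst : ∀ u, z + c k ≤ u + c j → u < X''.length - c j + c k → ¬ W (Wd.take u) := by
      intro u h1 h2 h3
      refine g3 (u + c j - c k) (by omega) (by omega) ?_
      rw [mv _ (by omega) (by omega)]
      have : u + c j - c k - c j + c k = u := by omega
      rw [this]
      exact h3
    rw [Finset.mem_union, Finset.mem_union, Finset.mem_filter, Finset.mem_filter,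
      Finset.mem_filter]
    rcases g4 with h | ⟨t, h1, h2, h3⟩ | h
    · left
      have e := uniq (X''.length - c j + c k) (by omega) (by omega) (by omega) wst
      exact ⟨hmem, hne, by show z + c k ≤ t1 + c j + N1; omega,
        by show t1 + c j ≤ z + c k + N1; omega⟩
    · left
      rw [mv t (by omega) (by omega)] at h3
      have e := uniq (t - c j + c k) (by omega) (by omega) (by omega) h3
      exact ⟨hmem, hne, by show z + c k ≤ t1 + c j + N1; omega,
        by show t1 + c j ≤ z + c k + N1; omega⟩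
    · right
      have h4 := a4 _ (by omega) (by omega) wst
      by_cases he : t1 = X''.length - c j + c k
      · left
        refine ⟨hmem, hne, ?_⟩
        show Bd (t1 - p0 + c j - c k)
        have : t1 - p0 + c j - c k = X''.length - p0 := by omega
        rw [this]
        exact h
      · right
        have h5 := hgap Wd t1 _ (lt_of_le_of_ne h4 he) (by omega) a3 wst
        have h6 := b4 _ (by omega) (by omega) wst
        have h7 : t2 = X''.length - c j + c k := by
          by_contra hcon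
          exact nst t2 (by omega) (by omega) b3
        refine ⟨hmem, hne, ?_⟩
        show Bd (t2 - p0 + c j - c k)
        have : t2 - p0 + c j - c k = X''.length - p0 := by omega
        rw [this]
        exact h
  refine (Finset.card_le_card key).trans ((Finset.card_union_le _ _).trans ?_)
  have c1 : ((Finset.range K ×ˢ Finset.range K).filter (fun p => p.1 ≠ p.2 ∧
        (z + c p.1 ≤ t1 + c p.2 + N1 ∧ t1 + c p.2 ≤ z + c p.1 + N1))).card ≤ 1 := by
    rw [Finset.card_le_one]
    rintro ⟨i, j⟩ hij ⟨k, l⟩ hkl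
    rw [Finset.mem_filter, Finset.mem_product, Finset.mem_range, Finset.mem_range] at hij hkl
    by_contra hcon
    have := hgol i j k l hij.1.1 hij.1.2 hkl.1.1 hkl.1.2 hij.2.1 hkl.2.1 hcon
    have e1 := hij.2.2
    have e2 := hkl.2.2
    simp only at e1 e2
    omega
  have c2 := Finset.card_union_le ((Finset.range K ×ˢ Finset.range K).filter
        (fun p => p.1 ≠ p.2 ∧ Bd (t1 - p0 + c p.2 - c p.1)))
        ((Finset.range K ×ˢ Finset.range K).filter
        (fun p => p.1 ≠ p.2 ∧ Bd (t2 - p0 + c p.2 - c p.1)))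
  have c3 := hsp (t1 - p0) (by omega)
  have c4 := hsp (t2 - p0) (by omega)
  omega

end Crest.Agent.R320.Inst_184
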