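import Crest.Agent.R320.InstA_242
import Crest.Agent.R320.FewVal_228
import Crest.Agent.R320.Hk2_851

/-!
# Row 320: the height one families of `Top5_120.top5` for walls on all words (helper242)
-/

set_option autoImplicit false

namespace Crest.Agent.R320.InstA_242

open Crest.RegLang Crest.Agent.R320.Hk_851 Crest.Agent.R320.FewWalls_228

universe u

variable {α : Type u} [Finite α] {n : ℕ} {Sw : Set (List α)} {k : ℕ}

theorem HL_W (hSw : ∀ s ∈ Sw, s.length = n) :
    HL k ({w | WW n Sw w w.length} : Language α) := by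
  have hfin : Sw.Finite := (List.finite_length_eq α n).subset hSw
  refine ((HL.top (k := k)).mul (HL.finite hfin)).congr fun w => ?_
  constructor
  · rintro ⟨h1, h2, h3⟩
    refine Language.mem_mul.2 ⟨w.take (w.length - n), trivial, w.drop (w.length - n), ?_,
      List.take_append_drop _ _⟩
    rwa [List.take_of_length_le (by rw [List.length_drop]; omega)] at h3
  · intro h
    obtain ⟨a, -, b, hb, rfl⟩ := Language.mem_mul.1 h
    have hl := hSw b hb
    refine ⟨by rw [List.length_append]; omega, by rw [List.length_append]; omega, ?_⟩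
    have : (a ++ b).length - n = a.length := by rw [List.length_append]; omega
    rw [this, List.drop_left, List.take_of_length_le (by omega)]; exact hb

theorem HL_early (hSw : ∀ s ∈ Sw, s.length = n) (z : ℕ) :
    HL k ({X | ∃ t, z ≤ t ∧ t < X.length ∧ WW n Sw X t} : Language α) := by
  have hA : HL k ({A | WW n Sw A A.length ∧ z ≤ A.length} : Language α) :=
    (HL_W hSw).setOf_and (HL.length_ge z)
  have hB : HL k ({B : List α | 1 ≤ B.length} : Language α) := HL.length_ge 1
  refine (hA.mul hB).congr fun w => ?_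
  constructor
  · rintro ⟨t, h1, h2, h3⟩
    have hl : (w.take t).length = t := by rw [List.length_take]; omega
    refine Language.mem_mul.2 ⟨w.take t, ⟨?_, by omega⟩, w.drop t, ?_, List.take_append_drop _ _⟩
    · have := ww_append (n := n) (Sw := Sw) (w := w.take t) (v := w.drop t) (t := t) (by omega)
      rw [List.take_append_drop] at this
      rw [hl]; exact this.1 h3
    · show 1 ≤ (w.drop t).length
      rw [List.length_drop]; omega
  · intro h
    obtain ⟨a, ⟨ha1, ha2⟩, b, hb, rfl⟩ := Language.mem_mul.1 h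
    have hb' : 1 ≤ b.length := hb
    exact ⟨a.length, ha2, by rw [List.length_append]; omega, (ww_append le_rfl).2 ha1⟩

theorem HL_CC (hSw : ∀ s ∈ Sw, s.length = n) (z : ℕ) :
    HL k ({X | X ∈ CC n Sw z} : Language α) := by
  refine ((HL.length_ge z).setOf_and ((HL_W hSw).setOf_and
    (HL_early hSw z).setOf_not)).congr fun w => ?_
  constructor
  · rintro ⟨h1, h2, h3⟩
    exact ⟨h1, h2, fun ⟨t, g1, g2, g3⟩ => h3 t g1 g2 g3⟩
  · rintro ⟨h1, h2, h3⟩
    exact ⟨h1, h2, fun t g1 g2 g3 => h3 ⟨t, g1, g2, g3⟩⟩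

theorem HL_EE (z N1 : ℕ) : HL k ({X | EE n Sw z N1 X} : Language α) := by
  have h : HL k ({v : List α | v.length < z + N1 ∧ z ≤ v.length + N1 ∧
      WW n Sw v v.length} : Language α) :=
    HL.finite ((List.finite_length_lt α (z + N1)).subset fun v hv => hv.1)
  refine h.prefix.congr fun w => ?_
  constructor
  · rintro ⟨s, h1, h2, h3⟩
    have hl : (w.take s).length = s := by have := h3.le; rw [List.length_take]; omega
    refine ⟨w.take s, ⟨by omega, by omega, ?_⟩, List.take_prefix _ _⟩
    have := ww_append (n := n) (Sw := Sw) (w := w.take s) (v := w.drop s) (t := s) (by omega)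
    rw [List.take_append_drop] at this
    rw [hl]; exact this.1 h3
  · rintro ⟨v, ⟨h1, h2, h3⟩, r, rfl⟩
    exact ⟨v.length, h2, h1, (ww_append le_rfl).2 h3⟩

omit [Finite α] in
theorem nw_le {m : List α} {z x0 : ℕ} (h : ∀ x, Wl n Sw m x → x < z ∨ x = x0) :
    nw n Sw m ≤ z + 1 := by
  classical
  unfold nw
  refine (Finset.card_le_card (t := insert x0 (Finset.range z)) ?_).trans
    ((Finset.card_insert_le _ _).trans (by simp))
  intro x hx
  rw [Finset.mem_filter] at hx
  rw [Finset.mem_insert, Finset.mem_range]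
  rcases h x hx.2 with h | h
  · exact Or.inr h
  · exact Or.inl h

omit [Finite α] in
theorem nw_factor {z : ℕ} {u m : List α} (hn : 0 < n) (hX : u ++ m ∈ CC n Sw z) :
    nw n Sw m ≤ z + 1 := by
  refine nw_le (x0 := m.length - n) fun x hx => ?_
  have h1 : WW n Sw (u ++ m) (u.length + (x + n)) :=
    (ww_shift (by omega)).2 ⟨by omega, by rwa [Nat.add_sub_cancel]⟩
  by_contra hcon
  push Not at hcon
  have hl := hx.1
  by_cases hlt : u.length + (x + n) < (u ++ m).length
  · exact hX.2.2 _ (by omega) hlt h1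
  · rw [List.length_append] at hlt
    omega

omit [Finite α] in
theorem exists_prefix {z t : ℕ} {w : List α} (hz : z ≤ t) (ht : WW n Sw w t) :
    ∃ X ∈ CC n Sw z, X <+: w := by
  classical
  have hex : ∃ t, z ≤ t ∧ WW n Sw w t := ⟨t, hz, ht⟩
  obtain ⟨h1, h2⟩ := Nat.find_spec hex
  have hmin : ∀ s, z ≤ s → WW n Sw w s → Nat.find hex ≤ s := fun s a b => Nat.find_min' hex ⟨a, b⟩
  generalize Nat.find hex = t0 at h1 h2 hmin
  have hl := h2.le
  have htt : (w.take t0).length = t0 := by rw [List.length_take]; omega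
  have hpre : ∀ s, s ≤ t0 → (WW n Sw (w.take t0) s ↔ WW n Sw w s) := by
    intro s hs
    have := ww_append (n := n) (Sw := Sw) (w := w.take t0) (v := w.drop t0) (t := s) (by omega)
    rw [List.take_append_drop] at this
    exact this.symm
  refine ⟨w.take t0, ⟨by omega, ?_, ?_⟩, List.take_prefix _ _⟩
  · rw [htt]; exact (hpre t0 le_rfl).2 h2
  · intro s hs1 hs2 hs3
    rw [htt] at hs2
    have := hmin s hs1 ((hpre s hs2.le).1 hs3)
    omega

section fam

variable {S : Type*} [Monoid S] [Finite S]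

/-- the letter map to (value, length mod `Pm`) -/
def gg (φ : α → S) (Pm : ℕ) (a : α) : S × Multiplicative (ZMod Pm) :=
  (φ a, Multiplicative.ofAdd (1 : ZMod Pm))

omit [Finite α] [Finite S] in
theorem gg_prod (φ : α → S) (Pm : ℕ) (m : List α) :
    (m.map (gg φ Pm)).prod = ((m.map φ).prod, Multiplicative.ofAdd (m.length : ZMod Pm)) := by
  induction m with
  | nil => simp only [List.map_nil, List.prod_nil, List.length_nil, Nat.cast_zero, ofAdd_zero]; rfl
  | cons a m ih =>
    rw [List.map_cons, List.prod_cons, ih, List.map_cons, List.prod_cons, gg, Prod.mk_mul_mk,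
      ← ofAdd_add]
    congr 2
    rw [List.length_cons]; push_cast; ring

theorem HL_fam {c P : ℕ} (hn : 0 < n) (hP : 0 < P) (hper : PerOff n c P Sw)
    (hSw : ∀ s ∈ Sw, s.length = n) (φ : α → S) {Pm : ℕ} (hPm : 0 < Pm) {p1 z : ℕ}
    (hp : p1 ≤ z) (H : List α → Prop)
    (hH : ∀ u m m' : List α, u.length = p1 → (m.map φ).prod = (m'.map φ).prod →
      m.length % Pm = m'.length % Pm → H (u ++ m) → H (u ++ m')) :
    HL 1 ({X | X ∈ CC n Sw z ∧ H X} : Language α) := by
  haveI : NeZero Pm := ⟨hPm.ne'⟩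
  let Q : List α → S × Multiplicative (ZMod Pm) → Prop := fun u t =>
    ∃ m : List α, (m.map (gg φ Pm)).prod = t ∧ H (u ++ m)
  let F : S × Multiplicative (ZMod Pm) → Language α := fun t =>
    {m | nw n Sw m ≤ z + 1 ∧ (m.map (gg φ Pm)).prod = t}
  have hF : ∀ t, HL 1 (F t) := fun t =>
    FewVal_228.HL_few_value hn hP hper (z + 1) (gg φ Pm) t
  let D : List α → S × Multiplicative (ZMod Pm) → Language α := fun u t => ({u} : Language α) * F t
  have hD : ∀ u t, HL 1 (D u t) := fun u t => (HL.word u).mul (hF t)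
  have hU : HL 1 ({X | ∃ u ∈ {u : List α | u.length = p1},
      X ∈ ({X | ∃ t : S × Multiplicative (ZMod Pm), X ∈ ({X | Q u t ∧ X ∈ D u t} :
        Language α)} : Language α)} : Language α) :=
    HL.biUnion (List.finite_length_eq α p1)
      (L := fun u => ({X | ∃ t : S × Multiplicative (ZMod Pm), X ∈ ({X | Q u t ∧ X ∈ D u t} :
        Language α)} : Language α))
      (fun u _ => HL.iUnion (L := fun t => ({X | Q u t ∧ X ∈ D u t} : Language α))
        (fun t => (HL.const (Q u t)).setOf_and (hD u t)))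
  refine ((HL_CC hSw z).setOf_and hU).congr fun X => ?_
  constructor
  · rintro ⟨hX, hHX⟩
    refine ⟨hX, X.take p1, ?_, (((X.drop p1).map (gg φ Pm)).prod), ?_, ?_⟩
    · have := hX.1
      show (X.take p1).length = p1
      rw [List.length_take]; omega
    · exact ⟨X.drop p1, rfl, by rw [List.take_append_drop]; exact hHX⟩
    · refine Language.mem_mul.2 ⟨X.take p1, rfl, X.drop p1, ⟨?_, rfl⟩, List.take_append_drop _ _⟩
      exact nw_factor (u := X.take p1) hn (by rw [List.take_append_drop]; exact hX)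
  · rintro ⟨hX, u, hu, t, ⟨m, hm, hHm⟩, hD'⟩
    refine ⟨hX, ?_⟩
    obtain ⟨u', hu', m', ⟨-, hm'⟩, rfl⟩ := Language.mem_mul.1 hD'
    have e : u' = u := hu'
    subst e
    rw [gg_prod] at hm hm'
    have e2 := hm.trans hm'.symm
    have e3 : (m.map φ).prod = (m'.map φ).prod := (Prod.mk.inj e2).1
    have e4 : (m.length : ZMod Pm) = (m'.length : ZMod Pm) :=
      Multiplicative.ofAdd.injective (Prod.mk.inj e2).2
    have e5 : m.length % Pm = m'.length % Pm :=
      (ZMod.natCast_eq_natCast_iff' _ _ _).1 e4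
    exact hH _ _ _ hu e3 e5 hHm

theorem HL_tail {c P : ℕ} (hn : 0 < n) (hP : 0 < P) (hper : PerOff n c P Sw)
    (hSw : ∀ s ∈ Sw, s.length = n) (φ : α → S) (z : ℕ) (s : S) :
    HL 1 ({w | (∀ X ∈ CC n Sw z, ¬ X <+: w) ∧ (w.map φ).prod = s} : Language α) := by
  refine ((HL_CC (k := 1) hSw z).prefix.setOf_not.setOf_and
    (FewVal_228.HL_few_value hn hP hper (z + 1) φ s)).congr fun w => ?_
  constructor
  · rintro ⟨h1, h2⟩
    refine ⟨fun ⟨X, hX, hw⟩ => h1 X hX hw, ?_, h2⟩
    refine nw_le (x0 := 0) fun x hx => ?_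
    by_contra hcon
    push Not at hcon
    obtain ⟨X, hX, hw⟩ := exists_prefix (z := z) (t := x + n) (w := w) (n := n) (Sw := Sw)
      (by omega) ⟨by omega, by rwa [Nat.add_sub_cancel]⟩
    exact h1 X hX hw
  · rintro ⟨h1, -, h2⟩
    exact ⟨fun X hX hw => h1 ⟨X, hX, hw⟩, h2⟩

end fam

end Crest.Agent.R320.InstA_242
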