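import Crest.Agent.R320.InstB_377
import Crest.Agent.R320.P4_933
import Crest.Agent.R320.Two_621
import Crest.Agent.R320.Reg_236

/-!
# Row 320: instance on ALL words (helper377), part C: heights and constants
-/

set_option autoImplicit false
set_option linter.unusedSectionVars false

namespace Crest.Agent.R320.Inst_377

open Crest.Agent.R320.Hk_851 Crest.Agent.R320.FewWalls_228 Crest.Agent.R320.Code110
  Crest.Agent.R320.Top5_110 Crest.Agent.R320.ExactR_237 Crest.Agent.R320.FewVal_228

variable {α : Type} {n : ℕ} {S : Set (List α)}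

/-- the rule on prefixes -/
def Wo (n : ℕ) (S : Set (List α)) (P : List α) : Prop := WA n S P P.length

theorem Wo.loc (P Q : List α) (h : n ≤ Q.length) : Wo n S (P ++ Q) ↔ Wo n S Q := by
  unfold Wo
  rw [List.length_append]
  exact WA.shift h

theorem Wo.len (P : List α) (h : Wo n S P) : n ≤ P.length := h.1

theorem WA_iff {w : List α} {t : ℕ} : WA n S w t ↔ t ≤ w.length ∧ Wo n S (w.take t) := by
  unfold Wo
  constructor
  · intro h
    have h1 := h.2.1
    have hl : (w.take t).length = t := by rw [List.length_take]; omega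
    refine ⟨h1, ?_⟩
    rw [hl]
    conv at h => rw [← List.take_append_drop t w]
    exact (WA.app hl.ge).1 h
  · rintro ⟨h1, h⟩
    have hl : (w.take t).length = t := by rw [List.length_take]; omega
    rw [hl] at h
    rw [← List.take_append_drop t w]
    exact (WA.app hl.ge).2 h

theorem XX_iff {z : ℕ} {X : List α} : X ∈ XX n S z ↔ P4_933.XX (Wo n S) z X := by
  rw [mem_XX]
  constructor
  · rintro ⟨h1, h2, h3⟩
    refine ⟨h2, h1, fun t ht hz hw => h3 t hz ht (WA_iff.2 ⟨ht.le, hw⟩)⟩
  · rintro ⟨h2, h1, h3⟩
    exact ⟨h1, h2, fun t hz ht hw => h3 t ht hz (WA_iff.1 hw).2⟩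

end Crest.Agent.R320.Inst_377
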