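import Crest.Agent.R320.InstB_434

/-!
# Row 320: instance of `Main_621.Data` (helper434), part C: spoil count and completeness of scheme B
-/

set_option autoImplicit false

namespace Crest.Agent.R320.Inst_434

open Crest.RegLang Crest.Agent.R320.Hk_851 Crest.Agent.R320.Star_621 Crest.Agent.R320.Two_621
open Crest.Agent.R320.ExactR_237

variable {α : Type}

/-- walls are further than `W` apart -/
theorem wall_sep {Wo : List α → Prop} {n W : ℕ} (hW : WallAx Wo n W) (U : List α) (x y : ℕ)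
    (hx : Wo (U.take x)) (hy : Wo (U.take y)) (hxy : x < y) (hyl : y ≤ U.length) : x + W < y := by
  by_contra hcon
  have hl : (U.take y).length = y := by rw [List.length_take]; omega
  apply hW.gap (U.take y) (y - x) hy (by omega) (by omega)
  rw [hl, List.take_take]
  have : min (y - (y - x)) y = x := by omega
  rw [this]; exact hx

/-- ruler -/
structure Ruler (K N1 C0 : ℕ) (BadT : ℕ → Prop) (c : ℕ → ℕ) : Prop where
  inc : ∀ i j, i < j → j < K → c i < c j
  wide : ∀ a b a' b', a < K → b < K → a' < K → b' < K → a ≠ b → a' ≠ b' →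
    c a + c b' < c a' + c b + 2 * N1 → c a' + c b < c a + c b' + 2 * N1 → a = a' ∧ b = b'
  thin : ∀ T, (∀ i < K, c i ≤ T) → ∀ F : Finset (ℕ × ℕ),
    (∀ q ∈ F, q.1 < K ∧ q.2 < K ∧ q.1 ≠ q.2 ∧ BadT (T + c q.2 - c q.1)) → F.card ≤ C0

open Classical in
theorem spoil {Wo : List α → Prop} {n W z p0 N1 K C0 : ℕ} {BadT : ℕ → Prop} {c : ℕ → ℕ}
    (hW : WallAx Wo n W) (hn : n + N1 ≤ z) (hz : 2 * p0 + N1 ≤ z) (hz0 : 0 < z)
    (hWb : 2 * p0 + 2 * N1 ≤ W)
    (hcp : ∀ k < K, c k ≤ p0) (hR : Ruler K N1 C0 BadT c)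
    (U : List α) (hU : U.drop p0 ∈ Zr Wo z) :
    ((Finset.range K).filter (fun k => ∃ k' < K, k' ≠ k ∧
      U.drop (c k + p0 - c k') ∈ Br Wo z N1 BadT)).card ≤ 1 + (C0 + (C0 + C0)) := by
  rw [zr_drop hW (by omega) hz0] at hU
  obtain ⟨t, ⟨b1, b2, b3, b4⟩, b5, b6, b7⟩ := hU
  -- the (E) part
  let E : Finset ℕ := (Finset.range K).filter (fun k => ∃ k' < K, k' ≠ k ∧
    ∃ w ≤ U.length, Wo (U.take w) ∧ c k + p0 - c k' + z ≤ w + N1 ∧ w < c k + p0 - c k' + z + N1)
  let B : ℕ → Finset ℕ := fun τ => (((Finset.range K ×ˢ Finset.range K).filter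
    (fun q : ℕ × ℕ => q.1 ≠ q.2 ∧ BadT (τ - p0 + c q.2 - c q.1)))).image Prod.fst
  obtain ⟨w0, hw0⟩ : ∃ w0, z ≤ w0 ∧ w0 ≤ U.length ∧
      ∀ w, z ≤ w → w < p0 + z → w ≤ U.length → Wo (U.take w) → w = w0 := by
    by_cases h : ∃ w, z ≤ w ∧ w < p0 + z ∧ w ≤ U.length ∧ Wo (U.take w)
    · obtain ⟨w, h1, h2, h3, h4⟩ := h
      refine ⟨w, h1, h3, ?_⟩
      intro w' h1' h2' h3' h4'
      rcases lt_trichotomy w w' with hl | hl | hl
      · have := wall_sep hW U w w' h4 h4' hl h3'
        omega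
      · exact hl.symm
      · have := wall_sep hW U w' w h4' h4 hl h3
        omega
    · refine ⟨t, by omega, by omega, ?_⟩
      intro w h1 h2 h3 h4
      exact absurd ⟨w, h1, h2, h3, h4⟩ h
  have hE : E.card ≤ 1 := by
    rw [Finset.card_le_one]
    intro k1 h1 k2 h2
    simp only [E, Finset.mem_filter, Finset.mem_range] at h1 h2
    obtain ⟨hk1, k1', hk1', hne1, w1, hl1, hw1, l1, u1⟩ := h1
    obtain ⟨hk2, k2', hk2', hne2, w2, hl2, hw2, l2, u2⟩ := h2
    have m1 := hcp k1 hk1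
    have m2 := hcp k2 hk2
    have m1' := hcp k1' hk1'
    have m2' := hcp k2' hk2'
    have hw : w1 = w2 := by
      rcases lt_trichotomy w1 w2 with hl | hl | hl
      · have := wall_sep hW U w1 w2 hw1 hw2 hl hl2
        omega
      · exact hl
      · have := wall_sep hW U w2 w1 hw2 hw1 hl hl1
        omega
    subst hw
    exact (hR.wide k1 k1' k2 k2' hk1 hk1' hk2 hk2' hne1.symm hne2.symm (by omega) (by omega)).1
  have hB : ∀ τ, z ≤ τ → (B τ).card ≤ C0 := by
    intro τ hτ
    refine Finset.card_image_le.trans (hR.thin (τ - p0) ?_ _ ?_)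
    · intro i hi
      have := hcp i hi
      omega
    · intro q hq
      simp only [Finset.mem_filter, Finset.mem_product, Finset.mem_range] at hq
      exact ⟨hq.1.1, hq.1.2, hq.2.1, hq.2.2⟩
  have hsub : (Finset.range K).filter (fun k => ∃ k' < K, k' ≠ k ∧
      U.drop (c k + p0 - c k') ∈ Br Wo z N1 BadT) ⊆ E ∪ (B t ∪ (B U.length ∪ B w0)) := by
    intro k hk
    simp only [Finset.mem_filter, Finset.mem_range] at hk
    obtain ⟨hk, k', hk', hne, hbr⟩ := hk
    have m1 := hcp k hk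
    have m1' := hcp k' hk'
    rw [br_drop hW (by omega) hz0] at hbr
    obtain ⟨τ, ⟨a1, a2, a3, a4⟩, a5⟩ := hbr
    have hBm : ∀ τ', τ = τ' → BadT (τ - (c k + p0 - c k')) → k ∈ B τ' := by
      rintro τ' rfl hb
      simp only [B, Finset.mem_image, Finset.mem_filter, Finset.mem_product, Finset.mem_range]
      refine ⟨(k, k'), ⟨⟨hk, hk'⟩, hne.symm, ?_⟩, rfl⟩
      have e : τ - p0 + c k' - c k = τ - (c k + p0 - c k') := by omega
      show BadT (τ - p0 + c k' - c k)
      rw [e]; exact hb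
    simp only [Finset.mem_union]
    rcases a5 with ⟨s, s1, s2, s3⟩ | h | h
    · left
      simp only [E, Finset.mem_filter, Finset.mem_range]
      exact ⟨hk, k', hk', hne, s, by omega, s3, s1, by omega⟩
    · left
      simp only [E, Finset.mem_filter, Finset.mem_range]
      exact ⟨hk, k', hk', hne, τ, a2, a3, by omega, h⟩
    · right
      by_cases hτ : τ < p0 + z
      · right; right
        exact hBm w0 (hw0.2.2 τ (by omega) hτ a2 a3) h
      · by_cases hτt : τ = t
        · left; exact hBm t hτt h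
        · have h1 : t < τ := by
            by_contra hcon
            exact b4 τ (by omega) (by omega) a3
          have h2 : τ = U.length := by
            by_contra hcon
            exact b7 τ h1 (by omega) a3
          right; left
          exact hBm _ h2 h
  refine (Finset.card_le_card hsub).trans ((Finset.card_union_le _ _).trans ?_)
  refine Nat.add_le_add hE ((Finset.card_union_le _ _).trans ?_)
  refine Nat.add_le_add (hB t (by omega)) ((Finset.card_union_le _ _).trans ?_)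
  exact Nat.add_le_add (hB _ (by omega)) (hB _ hw0.1)

theorem cutB {S : Type} [Monoid S] {f : α → S} {Wo : List α → Prop} {z p0 : ℕ}
    {lam : List α → Option (Tok S)} {nu : List α → Tok S} {N1 : ℕ} {BadT : ℕ → Prop} {K C0 : ℕ}
    {c : ℕ → ℕ} {lam2 : ℕ → List α → Option (Tok (TT S))}
    {rho2 : ℕ → List α → TT S → Option (Tok (TT S))} {n W : ℕ}
    (hW : WallAx Wo n W) (hn : n + N1 ≤ z) (hz : 2 * p0 + N1 ≤ z) (hz0 : 0 < z)
    (hWb : 2 * p0 + 2 * N1 ≤ W)
    (hcp : ∀ k < K, c k ≤ p0) (hR : Ruler K N1 C0 BadT c)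
    (hc2 : ∀ (u : List α) (y : TT S) (v : Tok (TT S)), (∀ k < K, c k ≤ u.length) →
          ∃ I : Finset ℕ, 2 + 3 * C0 ≤ I.card ∧ ∀ k ∈ I, k < K ∧ lam2 k (u.take (c k)) = some v ∧
            (rho2 k (u.drop (c k)) y).isSome)
    (U : List α) (hU : U ∈ Zc Wo z p0 N1 BadT) (v : Tok (TT S)) :
    Cut (LB K c lam2) (RB f Wo z p0 lam nu N1 BadT K c rho2) v U := by
  classical
  obtain ⟨⟨hU1, hU2⟩, hU3⟩ := hU
  have hX : (U.take p0).length = p0 := by rw [List.length_take]; omega
  obtain ⟨I, hI, hI2⟩ := hc2 (U.take p0) (HH f Wo z p0 lam nu (U.drop p0)) v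
    (fun k hk => by rw [hX]; exact hcp k hk)
  have hsp := spoil hW hn hz hz0 hWb hcp hR U hU2
  obtain ⟨k, hkI, hkn⟩ : ∃ k ∈ I, k ∉ (Finset.range K).filter (fun k => ∃ k' < K, k' ≠ k ∧
      U.drop (c k + p0 - c k') ∈ Br Wo z N1 BadT) := by
    by_contra hcon
    push Not at hcon
    have := Finset.card_le_card (show I ⊆ _ from hcon)
    omega
  obtain ⟨hk, h1, h2⟩ := hI2 k hkI
  obtain ⟨b, hb⟩ := Option.isSome_iff_exists.1 h2
  have hck := hcp k hk
  simp only [Finset.mem_filter, Finset.mem_range, not_and, not_exists] at hkn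
  have dk : ∀ m, m ≤ p0 → (U.drop (c k)).drop (p0 - m) = U.drop (c k + p0 - m) := by
    intro m hm
    rw [List.drop_drop]
    congr 1
    omega
  have ek : c k + p0 - c k = p0 := by omega
  refine ⟨U.take (c k), U.drop (c k), b, (List.take_append_drop _ _).symm,
    ⟨k, hk, by rw [List.length_take]; omega, ?_⟩, k, hk, ?_, ?_, ?_, ?_⟩
  · rw [List.take_take] at h1
    have : min (c k) p0 = c k := by omega
    rwa [this] at h1
  · rw [dk _ hck, ek]; exact hU2
  · rw [dk _ hck, ek]; exact hU3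
  · intro k' hk' hbr
    rw [dk _ (hcp k' hk')] at hbr
    by_contra hne
    exact hkn hk k' hk' hne hbr
  · rw [dk _ hck, ek]
    rw [List.drop_take] at hb
    exact hb

end Crest.Agent.R320.Inst_434
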