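import Mathlib
import Crest.Agent.R320.InstB_443

/-!
Row 320 (helper443): **the row from the zone gadget** (natural chain, two schemes, `top5` of 467).
-/

set_option autoImplicit false

namespace Crest.Agent.R320.InstC_443

open Crest.RegLang Crest.Agent.R320.Hk_851 Crest.Agent.R320.FewWalls_228 Crest.Agent.R320.Blk467
  Crest.Agent.R320.ExactR_237 Crest.Agent.R320.Sch2_443 Crest.Agent.R320.InstA_443
  Crest.Agent.R320.InstB_443

variable {α S V : Type}

/-- the zone gadget, for a ruler of length `K` (C0 spoiled pairs) -/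
def Gadget [Monoid S] [AddCommGroup V] (f : α → S) (act : V → S → V) (C0 K : ℕ) : Prop :=
  ∃ (N1 Pm T0 : ℕ) (c : ℕ → ℕ) (BG : ℕ → Prop) (lam rho : List α → Option V)
    (nu1 : List α → V),
    0 < Pm ∧ (∀ T, BG (T + Pm) ↔ BG T) ∧ (∀ i j, i < j → j < K → c i < c j) ∧
    (∀ i < K, ∀ j < K, ∀ k < K, ∀ l < K, i ≠ j → k ≠ l → c i + c l < c k + c j + 2 * N1 →
      c k + c j < c i + c l + 2 * N1 → i = k ∧ j = l) ∧
    (∀ T, T0 ≤ T → ∃ D : Finset (ℕ × ℕ), D.card ≤ C0 ∧ ∀ i < K, ∀ j < K, i ≠ j →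
      BG (T + c j - c i) → (i, j) ∈ D) ∧
    (∀ p v, lam p = some v → p.length ≤ N1) ∧
    (∀ p q v b, lam p = some v → rho q = some b → T0 ≤ q.length →
      b = act v (pr f (p ++ q)) + nu1 (p ++ q)) ∧
    (∀ u, T0 ≤ u.length → ¬ BG u.length → ∀ v, ∃ p q, p ++ q = u ∧ lam p = some v ∧
      (rho q).isSome) ∧
    (∀ b, (toL {Y | nu1 Y = b}).IsRegular)

theorem tt_eq [Monoid S] [AddCommGroup V] (f : α → S) (act : V → S → V)
    (hadd : ∀ a b s, act (a + b) s = act a s + act b s)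
    (hmul : ∀ v s t, act v (s * t) = act (act v s) t) (nu2 nu1 : List α → V) (p0 : ℕ)
    (X : List α) (v : V) :
    TT f act nu2 nu1 p0 X v = act v (X.map f).prod +
      (act (nu2 (X.take p0)) (pr f (X.drop p0)) + nu1 (X.drop p0)) := by
  unfold TT
  rw [hadd, ← hmul, ← pr_append, List.take_append_drop, add_assoc]
  rfl

theorem row [Finite α] [Monoid S] [Fintype S] [Fintype V] [AddCommGroup V] (f : α → S)
    (act : V → S → V)
    (hadd : ∀ a b s, act (a + b) s = act a s + act b s)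
    (hone : ∀ v, act v 1 = v) (hmul : ∀ v s t, act v (s * t) = act (act v s) t)
    (hfaith : ∀ s t, (∀ v, act v s = act v t) → s = t)
    (C0 : ℕ) (hG : ∀ K, Gadget f act C0 K) (s : S) :
    HL 3 ({w | (w.map f).prod = s} : Language α) := by
  classical
  obtain ⟨K, hK⟩ := scheme2 f act (1 + 2 * C0)
  obtain ⟨N1, Pm, T0, c, BG, lam, rho, nu1, hPm, hper, hc, hE, hB, hlam, hsnd, hcmp, hnu⟩ := hG K
  obtain ⟨p0, hcp⟩ : ∃ p0, ∀ k < K, c k ≤ p0 :=
    ⟨(Finset.range K).sup c, fun k hk => Finset.le_sup (Finset.mem_range.2 hk)⟩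
  obtain ⟨n, c', P, Sw, hn, hP, hS, hsep, hPO, hHL⟩ :=
    FewVal_228.exists_walls α (2 * p0 + 2 * N1 + 1) (by omega)
  obtain ⟨lam2, nu2, h2⟩ := hK c hc p0 hcp
  obtain ⟨z, hz⟩ : ∃ z, z = 2 * p0 + n + 2 * N1 + T0 + 1 := ⟨_, rfl⟩
  have hcz : ∀ k < K, c k + n + N1 ≤ z := fun k hk => by have := hcp k hk; omega
  obtain ⟨r, hr⟩ : ∃ r, r = 2 * z + n + 2 := ⟨_, rfl⟩
  let X : Set (List α) := XX (Wo n Sw) z
  let Bd : List α → Prop := BadX (Wo n Sw) z N1 p0 BG
  let T : List α → V → V := TT f act nu2 nu1 p0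
  let L1 : V → Set (List α) := LP1 f act p0 nu2 lam
  let L2 : V → Set (List α) := LP2 K c lam2
  let R1 : V → Set (List α) := RQ1 X T L1
  let B2 : V → V → List α → Prop := fun b v' w =>
    (∃ X1 ∈ X, ∃ X2 ∈ X, w = X1 ++ X2 ∧ Bd X1 ∧ T X2 (T X1 v') = b) ∨
      (∃ X1 ∈ X, X1 <+: w ∧ ¬ Bd X1)
  let nu : List α → V := fun X => act (nu2 (X.take p0)) (pr f (X.drop p0)) + nu1 (X.drop p0)
  have hT : ∀ v Y, act v (Y.map f).prod + nu Y = T Y v := fun v Y =>
    (tt_eq f act hadd hmul nu2 nu1 p0 Y v).symm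
  have hloc' : ∀ P Q : List α, n ≤ Q.length → (Wo n Sw (P ++ Q) ↔ Wo n Sw Q) :=
    fun P Q h => hloc P Q h
  have hcode : PCode X := xx_code (by omega)
  have hnwX : ∀ Y ∈ X, nw n Sw Y ≤ r := fun Y hY =>
    (nw_le_of (z := z) hY.2.2).trans (by omega)
  have hfL1 : ∀ v, (L1 v).Finite := fun v =>
    (List.finite_length_le α (p0 + N1)).subset (by
      intro Q hQ
      have h3 := hlam _ _ hQ.2
      rw [List.length_drop] at h3
      have h4 : p0 ≤ Q.length := hQ.1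
      show Q.length ≤ p0 + N1
      omega)
  have hfL2 : ∀ v, (L2 v).Finite := fun v =>
    (List.finite_length_le α p0).subset (by
      rintro Q ⟨k, hk, h3, -⟩
      have := hcp k hk
      show Q.length ≤ p0
      omega)
  have hregX := reg_xx (n := n) (Sw := Sw) hS z
  have hregB := reg_bad (n := n) (Sw := Sw) hS (z := z) (N1 := N1) (p0 := p0) hPm hper (by omega)
  have hregT := fun v v' => reg_T f act nu2 nu1 (n := n) (Sw := Sw) hS (z := z) (p0 := p0)
    (by omega) hnu v v'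
  refine Top5_467.top5 f act hadd hone hmul hfaith nu X {Y | Y ∈ X ∧ Bd Y} hcode
    (fun Y hY => hY.1) L1 (fun b => {Q | nw n Sw Q ≤ r ∧ Q ∈ R1 b}) L2
    (fun b => {Q | nw n Sw Q ≤ r ∧ ∀ v', ∀ p' ∈ L2 v', B2 b v' (p' ++ Q)})
    ?_ ?_ ?_ ?_ ?_ ?_ ?_ ?_ ?_ ?_ ?_ s
  · -- s1
    intro v b P Q hP hQ
    rw [hT]
    exact hQ.2 v P hP
  · -- c1
    intro Y hY hnb v
    obtain ⟨P, Q, h3, h4, h5⟩ := InstA_443.c1 f act (nu2 := nu2) hloc' (by omega) hlam hsnd hcmp Y hY
      (fun h => hnb ⟨hY, h⟩) v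
    refine ⟨P, Q, h3.symm, h4, ?_, ?_⟩
    · refine (nw_append_right P Q).trans ?_
      rw [← h3]; exact hnwX Y hY
    · rw [hT]; exact h5
  · -- s2
    intro v b P Q r' hP hQ hStr
    obtain ⟨l, hl, he⟩ := hStr
    have hlX : ∀ Y ∈ l, Y ∈ X := fun Y hY => (hl Y hY).1
    rcases hQ.2 v P hP with ⟨X1, hX1, X2, hX2, e, hb, hr'⟩ | ⟨X1, hX1, hpre, hnb⟩
    · obtain ⟨l', rfl, e2⟩ := Top5_467.PCode.first hcode (r := X2 ++ r') hX1 l hlX
        (by rw [he, e, List.append_assoc])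
      obtain ⟨l'', rfl, e3⟩ := Top5_467.PCode.first hcode (r := r') hX2 l'
        (fun Y hY => hlX Y (by simp [hY])) e2
      refine ⟨[X1, X2], ?_, ?_, ?_⟩
      · intro Y hY
        rcases List.mem_cons.1 hY with rfl | hY
        · exact hl _ (by simp)
        · rw [List.mem_singleton.1 hY]; exact hl _ (by simp)
      · simp [e]
      · show act (act v (X1.map f).prod + nu X1) (X2.map f).prod + nu X2 = b
        rw [hT, hT]; exact hr'
    · exfalso
      obtain ⟨t, ht⟩ := hpre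
      obtain ⟨l', rfl, e2⟩ := Top5_467.PCode.first hcode (r := t ++ r') hX1 l hlX
        (by rw [he, ← List.append_assoc, ht])
      exact hnb (hl X1 (by simp)).2
  · -- c2
    intro X1 hX1 X2 hX2 v
    obtain ⟨p, q, e, hp, hq⟩ := h2 X Bd nu1 (fun _ => True) (X1 ++ X2).length
      (fun Y hY => by have := hY.1; omega)
      (fun Y hY k hk p' hp => g1 (BG := BG) (p0 := p0) hloc' hcz Y hY k hk p' hp)
      (fun Y hY Y2 hY2 _ k _ k' hk' p' hp => g2 hloc' hcz Y Y2 hY hY2 k k' hk' p' hp)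
      (fun Y hY Y2 _ _ => g3 hloc' (hgap hsep) (by omega) (by omega) hcp (by omega) hE hB Y Y2 hY)
      X1 hX1.1 X2 hX2.1 trivial le_rfl hX1.2 v
    refine ⟨p, q, e.symm, hp, ?_, ?_⟩
    · refine (nw_append_right p q).trans ?_
      rw [← e]
      exact (nw_two (z := z) hX1.1.2.2 hX2.1.2.2).trans hr.ge
    · rw [hT, hT]
      intro v' p' hp'
      exact hq.2 v' p' hp'
  · -- HL 1 Bad
    refine (hHL _ hregB r).congr fun w => ⟨fun h => ⟨h, hnwX w h.1⟩, fun h => h.1⟩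
  · -- HL 1 L2
    intro v
    exact HL.finite (hfL2 v)
  · -- HL 1 R2
    intro b
    have hI : ({q | q.2 ∈ L2 q.1} : Set (V × List α)).Finite := by
      refine ((Set.finite_univ (α := V)).prod (Set.finite_iUnion hfL2)).subset ?_
      rintro ⟨v, p⟩ h
      exact ⟨trivial, Set.mem_iUnion.2 ⟨v, h⟩⟩
    have hM : ∀ q : V × List α, (toL {w | B2 b q.1 (q.2 ++ w)}).IsRegular := by
      intro q
      have h3 : (toL {w | B2 b q.1 w}).IsRegular := by
        refine reg_congr ((reg_bex (Set.finite_univ (α := V)) (L := fun a =>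
          (LB n Sw z N1 p0 BG ⊓ LT f act nu2 nu1 n Sw z p0 q.1 a) *
            LT f act nu2 nu1 n Sw z p0 a b)
          fun a _ => Reg_852.IsRegular.mul (hregB.inf (hregT _ _)) (hregT _ _)).add
          (Reg_852.IsRegular.mul (hregX.inf hregB.compl) reg_top)) fun w => ?_
        constructor
        · rintro (⟨X1, hX1, X2, hX2, rfl, hb, hr'⟩ | ⟨X1, hX1, ⟨t, rfl⟩, hnb⟩)
          · left
            exact ⟨T X1 q.1, trivial, Language.mem_mul.2 ⟨X1, ⟨⟨hX1, hb⟩, hX1, rfl⟩, X2,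
              ⟨hX2, hr'⟩, rfl⟩⟩
          · right
            exact Language.mem_mul.2 ⟨X1, ⟨hX1, fun h => hnb h.2⟩, t, trivial, rfl⟩
        · rintro (⟨a, -, h⟩ | h)
          · obtain ⟨X1, ⟨⟨hX1, hb⟩, -, ha⟩, X2, ⟨hX2, hr'⟩, rfl⟩ := Language.mem_mul.1 h
            left
            refine ⟨X1, hX1, X2, hX2, rfl, hb, ?_⟩
            have ha' : T X1 q.1 = a := ha
            rw [ha']; exact hr'
          · obtain ⟨X1, ⟨hX1, hb⟩, t, -, rfl⟩ := Language.mem_mul.1 h
            right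
            exact ⟨X1, hX1, List.prefix_append _ _, fun h => hb ⟨hX1, h⟩⟩
      exact reg_quot h3 q.2
    refine (hHL _ (reg_ball hI fun q _ => hM q) r).congr fun w => ?_
    constructor
    · rintro ⟨h3, h4⟩
      exact ⟨fun q hq => h4 q.1 q.2 hq, h3⟩
    · rintro ⟨h3, h4⟩
      exact ⟨h4, fun v' p' hp' => h3 (v', p') hp'⟩
  · -- HL 2 L1
    intro v
    exact HL.finite (hfL1 v)
  · -- HL 2 R1
    intro b
    have hI : ({q | q.2 ∈ L1 q.1} : Set (V × List α)).Finite := by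
      refine ((Set.finite_univ (α := V)).prod (Set.finite_iUnion hfL1)).subset ?_
      rintro ⟨v, p⟩ h
      exact ⟨trivial, Set.mem_iUnion.2 ⟨v, h⟩⟩
    refine (HL.mono (k := 1) (by norm_num) (hHL _ (reg_ball hI (fun q _ =>
      reg_quot (hregT q.1 b) q.2)) r)).congr fun w => ?_
    constructor
    · rintro ⟨h3, h4⟩
      exact ⟨fun q hq => h4 q.1 q.2 hq, h3⟩
    · rintro ⟨h3, h4⟩
      exact ⟨h4, fun v' p' hp' => h3 (v', p') hp'⟩
  · -- HL 2 D
    intro v v'
    refine (HL.mono (k := 1) (by norm_num) (hHL _ (hregB.inf (hregT v v')) r)).congr fun w => ?_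
    constructor
    · rintro ⟨h3, h4⟩
      rw [hT] at h4
      exact ⟨⟨h3, h3.1, h4⟩, hnwX w h3.1⟩
    · rintro ⟨⟨h3, h4, h5⟩, h6⟩
      refine ⟨h3, ?_⟩
      rw [hT]; exact h5
  · -- HL 3 tail
    intro s
    refine (HL.mono (k := 1) (by norm_num) (hHL _ (Language.IsRegular.inf
      (Reg_852.IsRegular.mul hregX reg_top).compl (Reg_852.isRegular_prod f s)) r)).congr
      fun w => ?_
    constructor
    · rintro ⟨h3, h4⟩
      refine ⟨⟨fun h => ?_, h4⟩, ?_⟩
      · obtain ⟨X1, hX1, t, -, rfl⟩ := Language.mem_mul.1 h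
        exact h3 X1 hX1 (List.prefix_append _ _)
      · refine (nw_le_of (z := z) ?_).trans (by omega)
        intro t ht ht2 hW
        obtain ⟨m, hm, h5⟩ := first_block (z := z) hloc' [] (w.take t)
          (by rw [List.length_nil]; omega)
          (by rw [List.length_nil, List.length_take]; omega) hW
        refine h3 _ h5 ?_
        rw [List.nil_append]
        exact (List.take_prefix _ _).trans (List.take_prefix _ _)
    · rintro ⟨⟨h3, h4⟩, h5⟩
      refine ⟨fun Y hY hpre => h3 ?_, h4⟩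
      obtain ⟨t, rfl⟩ := hpre
      exact Language.mem_mul.2 ⟨Y, hY, t, trivial, rfl⟩

end Crest.Agent.R320.InstC_443
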