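import Crest.Agent.R320.InstB_533

/-!
Row 320: SC1 and CP1 of 131's interface (post 13123) from the bundled data `St`.
-/

set_option autoImplicit false

namespace Crest.Agent.R320.InstB_533

open Finset Crest.Agent.R320.ThrChain260 Crest.Agent.R320.Ruler2_537
  Crest.Agent.R320.InstA_533 Crest.Agent.R320.Zone132_898 Crest.Agent.R320.Sch2_606
  Crest.Agent.R320.ExactR_237

namespace St

variable {α S V : Type} [Monoid S] [AddCommGroup V] (I : St α S V)

/-- left label of scheme 1 -/
def L1 (u : List α) (v : V) : Prop :=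
  ∃ om : ℕ, u.length = I.p0 + I.q * om ∧ ((I.q * om : ℕ) : ℤ) ≤ I.P.N1 ∧
    u.drop I.p0 ∈ I.L (I.act v (pr I.f (u.take I.p0)) + I.nu2' (u.take I.p0) 1)

open Classical in
/-- right label of scheme 1 -/
noncomputable def R1 (r : List α) : Option (ℕ × V) :=
  if h : ∃ x : ℕ × V, Legal I.P (WS I.Ro r) 0 ∧ IsB I.P (WS I.Ro r) 0 x.1 ∧
    r.take x.1 ∈ I.Rt x.2 then some h.choose else none

theorem R1_some {r : List α} {d : ℕ} {b : V} (h : I.R1 r = some (d, b)) :
    Legal I.P (WS I.Ro r) 0 ∧ IsB I.P (WS I.Ro r) 0 d ∧ r.take d ∈ I.Rt b := by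
  unfold R1 at h
  split_ifs at h with h1
  rw [Option.some.injEq] at h
  have h2 := h1.choose_spec
  rw [h] at h2
  exact h2

theorem R1_isSome {r : List α} {d : ℕ} {b : V} (h1 : Legal I.P (WS I.Ro r) 0)
    (h2 : IsB I.P (WS I.Ro r) 0 d) (h3 : r.take d ∈ I.Rt b) : (I.R1 r).isSome := by
  unfold R1
  rw [dif_pos ⟨(d, b), h1, h2, h3⟩]
  rfl

theorem hz' : I.P.p0 + I.P.S ≤ I.P.z := I.hz

/-- **SC1** -/
theorem SC1 {u r : List α} {v b : V} {d : ℕ} (hcl : I.Cl (u ++ r)) (hr : I.Bm ≤ r.length)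
    (hL : I.L1 u v) (hR : I.R1 r = some (d, b)) :
    I.N ((u ++ r).take I.Bm) = u.length + d ∧ I.zm ((u ++ r).take I.Bm) v = b := by
  obtain ⟨om, h1, h2, h3⟩ := hL
  obtain ⟨hleg, hB, hQ⟩ := I.R1_some hR
  have hp0 := I.hp0
  have hTl : I.Bm ≤ (u ++ r).length := by rw [List.length_append]; omega
  have hcongr : ∀ t : ℤ, 0 ≤ t → ((fun t => WS I.Ro (u ++ r) (t + u.length)) t ↔ WS I.Ro r t) :=
    fun t ht => WS_append I.Ro u r ht
  have hlegT : Legal I.P (WS I.Ro (u ++ r)) u.length := by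
    rw [← legal_shift, legal_congr I.hz hcongr]
    exact hleg
  have hBT : IsB I.P (WS I.Ro (u ++ r)) u.length (d + u.length) := by
    rw [← isB_shift, isB_congr I.hz hcongr]
    exact hB
  have hwin : InWin I.P 0 u.length := by
    refine ⟨by omega, ?_, ?_⟩
    · rw [h1, hp0]; push_cast at h2 ⊢; linarith
    · rw [h1, hp0, I.hPM]
      exact ⟨om, by push_cast; ring⟩
  have hN : IsN I.P (WS I.Ro (u ++ r)) 0 ((u.length + d : ℕ) : ℤ) := by
    have := (isN_iff_isB hlegT hwin (d + u.length)).2 hBT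
    push_cast
    rw [add_comm]
    exact this
  obtain ⟨hN1, hN2, hN3⟩ := I.N_eq hcl hTl hN
  refine ⟨hN1, ?_⟩
  rw [I.zm_eq _ _ (by rw [hN1]; omega), hN1]
  have e1 : (u ++ r).take (u.length + d) = u ++ r.take d := by
    rw [List.take_append]; simp
  have e2 : (u ++ r).take I.p0 = u.take I.p0 := List.take_append_of_le_length (by omega)
  have e3 : (u ++ r.take d).drop I.p0 = u.drop I.p0 ++ r.take d :=
    List.drop_append_of_le_length (by omega)
  rw [e1, e2, e3]
  exact (I.sound1 _ _ _ _ h3 hQ).symm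

/-- small walls exist after every place -/
theorem exists_FW {Z : List α} (hZ : I.Cl Z) (y : ℕ) (hl : y + I.Gs + I.Rs.n ≤ Z.length) :
    ∃ t, FW I.Rs Z y t ∧ t ≤ y + I.Gs := by
  classical
  obtain ⟨i, hi, hw⟩ := I.denss (Z.drop y) (I.Cl_infix _ _ hZ (List.drop_suffix _ _).isInfix)
    (by rw [List.length_drop]; omega)
  have hex : ∃ i, I.Rs.R (Z.drop (y + i)) := ⟨i, by rw [← List.drop_drop]; exact hw⟩
  refine ⟨y + Nat.find hex, ⟨by omega, Nat.find_spec hex, fun t' h1 h2 h3 => ?_⟩, ?_⟩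
  · refine Nat.find_min hex (m := t' - y) (by omega) ?_
    rw [show y + (t' - y) = t' by omega]
    exact h3
  · have : Nat.find hex ≤ i := Nat.find_min' hex (by rw [← List.drop_drop]; exact hw)
    omega

/-- **CP1** -/
theorem CP1 {t : List α} (hcl : I.Cl t) (D1 : ℕ) (hD1 : I.Bm ≤ D1) (hl : I.Bm + D1 ≤ t.length)
    (hbad : ¬ I.BadB (t.take I.Bm)) (v : V) :
    ∃ x, I.p0 ≤ x ∧ x < I.Bm ∧ I.L1 (t.take x) v ∧ (I.R1 ((t.drop x).take D1)).isSome := by
  have hp0 := I.hp0
  have hnotbad : ¬ Bad I.P (WS I.Ro t) (WS I.Rs t) I.lev I.D (I.m + 1) I.mm I.r 0 := by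
    intro h
    apply hbad
    unfold BadB
    rw [I.drop_buf, I.bad_text hcl (by omega) (by omega)]
    exact h
  unfold Bad at hnotbad
  push Not at hnotbad
  obtain ⟨hE, hDb, hBb⟩ := hnotbad
  obtain ⟨b, hN, hNb, hbU, hbz⟩ := I.exists_N hcl (by omega)
  have hz := I.hz
  have hS := I.S_nonneg
  have hUo := I.hUo
  have hUs := I.hUs
  have hopos := I.Ro.pos
  -- the zone
  set Z : List α := (t.take b).drop I.p0 with hZ
  have hZl : Z.length = b - I.p0 := by
    rw [hZ, List.length_drop, List.length_take]; omega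
  have hZcl : I.Cl Z := I.Cl_infix _ _ hcl
    ((List.drop_suffix _ _).isInfix.trans (List.take_prefix _ _).isInfix)
  have hZdrop : ∀ s, s + I.Rs.n ≤ Z.length → (I.Rs.R (Z.drop s) ↔ I.Rs.R (t.drop (I.p0 + s))) := by
    intro s hs
    rw [hZ, List.drop_drop]
    exact take_drop_R I.Rs t (by omega)
  have key := I.complete1 Z ?_ ?_ ?_ ?_ (I.act v (pr I.f (t.take I.p0)) + I.nu2' (t.take I.p0) 1)
  · obtain ⟨X, Q, i, om, hXQ, him, hXl, hlo, hhi, hX, hQ⟩ := key
    have hXom : I.q * om ≤ I.q * (I.lo i + ∏ p ∈ I.Ms, p) := Nat.mul_le_mul_left _ (by omega)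
    have hN1 := I.hN1 i him
    have hlen := I.hlen i him
    have htb : t.take b = t.take I.p0 ++ Z := by
      rw [hZ]
      conv_lhs => rw [← List.take_append_drop I.p0 (t.take b)]
      rw [List.take_take, min_eq_left (by omega)]
    have ht : t = t.take I.p0 ++ (X ++ (Q ++ t.drop b)) := by
      conv_lhs => rw [← List.take_append_drop b t, htb, hXQ]
      simp [List.append_assoc]
    have hpl : (t.take I.p0).length = I.p0 := by rw [List.length_take]; omega
    have htx : t.take (I.p0 + X.length) = t.take I.p0 ++ X := by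
      conv_lhs => rw [ht]
      rw [List.take_append, hpl, List.take_of_length_le (by rw [hpl]; omega)]
      simp
    have hdx : t.drop (I.p0 + X.length) = Q ++ t.drop b := by
      conv_lhs => rw [ht]
      rw [← List.drop_drop, List.drop_left' hpl, List.drop_left]
    have hXQl : X.length + Q.length = b - I.p0 := by
      rw [← hZl, hXQ, List.length_append]
    refine ⟨I.p0 + X.length, by omega, by omega, ?_, ?_⟩
    · refine ⟨om, ?_, ?_, ?_⟩
      · rw [htx, List.length_append, hpl, hXl]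
      · push_cast at hN1 ⊢
        have : ((I.q * om : ℕ) : ℤ) ≤ ((I.q * (I.lo i + ∏ p ∈ I.Ms, p) : ℕ) : ℤ) := by
          exact_mod_cast hXom
        push_cast at this
        linarith
      · rw [htx, List.drop_left' hpl, List.take_left' hpl]
        exact hX
    · set x : ℕ := I.p0 + X.length with hx
      have hwin : InWin I.P 0 x := by
        refine ⟨by omega, ?_, ?_⟩
        · rw [hx, hXl, hp0]
          have : ((I.q * om : ℕ) : ℤ) ≤ ((I.q * (I.lo i + ∏ p ∈ I.Ms, p) : ℕ) : ℤ) := by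
            exact_mod_cast hXom
          push_cast at this hN1 ⊢
          linarith
        · rw [hx, hXl, hp0, I.hPM]
          exact ⟨om, by push_cast; ring⟩
      have hlegT : Legal I.P (WS I.Ro t) x := legal_of_not_E hE hwin
      have hBT : IsB I.P (WS I.Ro t) x b := (isN_iff_isB hlegT hwin b).1 hN
      -- walls of the truncated right word
      have hsub : ∀ s : ℤ, WS I.Ro ((t.drop x).take D1) s → WS I.Ro t (s + x) := by
        rintro s ⟨h1, h2⟩
        have h3 := R_of_take_drop I.Ro _ h2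
        rw [take_drop_R I.Ro _ h3, List.drop_drop] at h2
        refine ⟨by omega, ?_⟩
        rw [show (s + x).toNat = x + s.toNat by omega]
        exact h2
      have hsup : ∀ s : ℤ, 0 ≤ s → s + I.Ro.n ≤ D1 → WS I.Ro t (s + x) →
          WS I.Ro ((t.drop x).take D1) s := by
        rintro s h0 h1 ⟨h2, h3⟩
        refine ⟨h0, ?_⟩
        rw [take_drop_R I.Ro _ (by omega), List.drop_drop]
        rwa [show (s + x).toNat = x + s.toNat by omega] at h3
      have hleg : Legal I.P (WS I.Ro ((t.drop x).take D1)) 0 := by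
        rw [← legal_shift] at hlegT
        intro s hs
        exact hlegT s (hsub s hs)
      have hd : ((b - x : ℕ) : ℤ) = (b : ℤ) - x := by omega
      have hB0 : IsB I.P (WS I.Ro ((t.drop x).take D1)) 0 ((b - x : ℕ) : ℤ) := by
        have hBT' : IsB I.P (WS I.Ro t) x ((b - x : ℕ) + x : ℤ) := by
          rw [hd, sub_add_cancel]; exact hBT
        rw [← isB_shift] at hBT'
        obtain ⟨⟨h1, h2⟩, h3⟩ := hBT'
        refine ⟨⟨hsup _ (by omega) (by omega) h1, h2⟩, fun t' ht' hq => h3 t' ht' ?_⟩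
        exact ⟨hsub _ hq.1, hq.2⟩
      refine I.R1_isSome hleg hB0 (b := I.act (I.act v (pr I.f (t.take I.p0)) +
        I.nu2' (t.take I.p0) 1) (pr I.f Z) + I.nu1 Z) ?_
      have : ((t.drop x).take D1).take (b - x) = Q := by
        rw [List.take_take, min_eq_left (by omega), hdx]
        exact List.take_left' (by omega)
      rw [this]
      exact hQ
  · -- no modulus divides
    intro p hp hdvd
    obtain ⟨i, hi, hdi⟩ := (I.hmm _).2 ⟨p, hp, hdvd⟩
    apply hBb i hi
    refine ⟨b, hN, ?_⟩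
    have e : (b : ℤ) - 0 - I.P.p0 = ((b - I.p0 : ℕ) : ℤ) := by omega
    rw [e, I.hPM, ← hZl]
    exact_mod_cast hdi
  · have hch : ∀ k, ∃ t, k ≤ I.m → FW I.Rs Z (I.A k) t ∧ t ≤ I.A k + I.Gs := by
      intro k
      by_cases hk : k ≤ I.m
      · have h1 := I.hzone k hk
        obtain ⟨t, ht⟩ := I.exists_FW hZcl (I.A k) (by rw [hZl]; omega)
        exact ⟨t, fun _ => ht⟩
      · exact ⟨0, fun h => absurd h hk⟩
    choose H hH using hch
    exact ⟨H, hH⟩
  · intro k hk s h1 h2 hw
    have h3 := I.Rs.len _ hw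
    have h4 := I.Rs.pos
    rw [List.length_drop] at h3
    rw [hZdrop s (by omega)] at hw
    apply hDb k (by omega)
    refine ⟨(I.p0 + s : ℕ), ⟨by omega, ?_⟩, ?_⟩
    · rw [Int.toNat_natCast]; exact hw
    · unfold lev D
      rw [abs_le]
      constructor <;> push_cast <;> push_cast [← Nat.cast_le (α := ℤ)] at h1 <;>
        have h2' : (s : ℤ) < ((I.A k + I.q * ∏ p ∈ I.Ms, p : ℕ) : ℤ) := by exact_mod_cast h2
      · linarith
      · push_cast at h2'
        linarith
  · intro i hi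
    have := I.hlen i hi
    rw [hZl]
    omega

end St

end Crest.Agent.R320.InstB_533
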