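import Crest.Agent.R320.InstB_598

set_option autoImplicit false

namespace Crest.Agent.R320.Inst_598

open Crest.RegLang Crest.Agent.R320.Hk_851 Crest.Agent.R320.Pump_360 Crest.Agent.R320.Blk467
open Crest.Agent.R320.Top5_467

universe u

variable {α : Type u} {n W : ℕ} {Wo : List α → Prop}

namespace Dat

variable {S V : Type u} [Monoid S] [AddCommGroup V] (D : Dat α S V n W Wo)

/-- the hypotheses -/
structure OK : Prop where
  hW : Walls α n W Wo
  hadd : ∀ a b s, D.act (a + b) s = D.act a s + D.act b s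
  hone : ∀ v, D.act v 1 = v
  hmul : ∀ v s t, D.act v (s * t) = D.act (D.act v s) t
  hfaith : ∀ s t, (∀ v, D.act v s = D.act v t) → s = t
  hz : D.p0 + D.N1 + n + 1 ≤ D.z
  lamlen : ∀ P v, D.lam P = some v → P.length ≤ D.N1
  sound1 : ∀ P Q v b, D.lam P = some v → D.rho Q = some b →
    D.act v (D.ph (P ++ Q)) + D.nu1 (P ++ Q) = b
  compl1 : ∀ Y v, D.z + D.N1 ≤ Y.length + D.p0 → ¬ D.BadT Y.length →
    ∃ P Q, P ++ Q = Y ∧ D.lam P = some v ∧ ∃ b, D.rho Q = some b
  pfnu : PF D.nu1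
  hPm : 0 < D.Pm
  badper : ∀ m, D.BadT (m + D.Pm) ↔ D.BadT m
  hc : ∀ k < D.K, D.c k ≤ D.p0
  compl2 : ∀ X X', X ∈ D.Bad → X' ∈ D.Bad → ∀ v, ∃ k < D.K,
    D.lam2 k (X.take (D.c k)) = some v ∧
    (∀ P' v', P'.length = D.c k → D.lam2 k P' = some v' →
      D.act v' (D.ph (P' ++ (X.take D.p0).drop (D.c k))) + D.nu2 (P' ++ (X.take D.p0).drop (D.c k))
        = D.act v (D.ph (X.take D.p0)) + D.nu2 (X.take D.p0)) ∧
    (∀ j < D.K, j ≠ k → ∀ P' : List α, P'.length = D.c j →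
      ∃ X'' ∈ D.XX, X'' ∉ D.Bad ∧ X'' <+: P' ++ (X ++ X').drop (D.c k))

variable {D}

theorem T_eq (h : D.OK) (v : V) (w : List α) :
    D.T v w = D.act (D.act v (D.ph (w.take D.p0)) + D.nu2 (w.take D.p0)) (D.ph (w.drop D.p0))
      + D.nu1 (w.drop D.p0) := by
  unfold Dat.T Dat.nu
  have e : (w.map D.φ).prod = D.ph (w.take D.p0) * D.ph (w.drop D.p0) := by
    rw [← D.ph_append, List.take_append_drop]; rfl
  rw [e, h.hmul, h.hadd]
  abel

theorem pcode (h : D.OK) : PCode D.XX := by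
  refine ⟨fun h0 => ?_, fun X hX Y hY hXY => ?_⟩
  · have := h0.1
    have hz := h.hz
    simp at this
    omega
  · obtain ⟨r, rfl⟩ := hXY
    by_cases hr : r = []
    · subst hr; simp
    · exfalso
      refine hY.2.2 ⟨X.length, hX.1, ?_, ?_⟩
      · rw [List.length_append]
        have := List.length_pos_iff.2 hr
        omega
      · rw [List.take_left]; exact hX.2.1

theorem bad_sub (D : Dat α S V n W Wo) : D.Bad ⊆ D.XX := fun _ h => h.1

/-- first wall at a place `≥ z` gives a block -/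
theorem exists_block (D : Dat α S V n W Wo) (w : List α) (t : ℕ) (h1 : D.z ≤ t)
    (h2 : t ≤ w.length) (h3 : Wo (w.take t)) : ∃ X ∈ D.XX, X <+: w ∧ X.length ≤ t := by
  classical
  have hex : ∃ s, D.z ≤ s ∧ s ≤ w.length ∧ Wo (w.take s) := ⟨t, h1, h2, h3⟩
  let s := Nat.find hex
  have hs := Nat.find_spec hex
  have hst : s ≤ t := Nat.find_min' hex ⟨h1, h2, h3⟩
  have hl : (w.take s).length = s := by rw [List.length_take]; exact min_eq_left hs.2.1
  refine ⟨w.take s, ⟨by rw [hl]; exact hs.1, hs.2.2, ?_⟩, List.take_prefix _ _, by rw [hl]; exact hst⟩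
  rintro ⟨r, g1, g2, g3⟩
  rw [hl] at g2
  rw [List.take_take, min_eq_left g2.le] at g3
  exact Nat.find_min hex g2 ⟨g1, by omega, g3⟩

/-! ### heights -/

variable [Finite α] [Finite S] [Finite V]

theorem pf_badT (h : D.OK) : PF (fun w : List α => D.BadT (w.length - D.p0)) := by
  -- through `w.drop p0`
  have h1 : PF (fun w : List α => D.BadT w.length) := by
    have hmod : ∀ m, D.BadT m ↔ D.BadT (m % D.Pm) := by
      intro m
      have : ∀ j r, D.BadT (r + D.Pm * j) ↔ D.BadT r := by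
        intro j
        induction j with
        | zero => intro r; simp
        | succ j ih =>
          intro r
          rw [Nat.mul_succ, ← Nat.add_assoc, h.badper, ih]
      conv_lhs => rw [← Nat.mod_add_div m D.Pm]
      exact this _ _
    have h2 := (PF.lenmod (α := α) D.Pm h.hPm).comp D.BadT
    obtain ⟨E, M, hM, h2⟩ := h2
    refine ⟨E, M, hM, fun u x v k hk => propext ?_⟩
    change D.BadT _ ↔ D.BadT _
    rw [hmod, hmod (u ++ pw x (k + M) ++ v).length]
    exact iff_of_eq (h2 u x v k hk)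
  have h3 := h1.drop D.p0
  obtain ⟨E, M, hM, h3⟩ := h3
  refine ⟨E, M, hM, fun u x v k hk => ?_⟩
  have := h3 u x v k hk
  simp only [List.length_drop] at this
  exact this

theorem pf_T (h : D.OK) (v : V) : PF (fun w : List α => D.T v w) := by
  have e : (fun w : List α => D.T v w) = fun w =>
      D.act (D.act v (D.ph (w.take D.p0)) + D.nu2 (w.take D.p0)) (D.ph (w.drop D.p0))
      + D.nu1 (w.drop D.p0) := funext fun w => T_eq h v w
  rw [e]
  have a1 := PF.bounded (α := α) (fun x => D.act v (D.ph x) + D.nu2 x) D.p0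
  have a2 := (PF.prod (α := α) D.φ).drop D.p0
  have a3 := h.pfnu.drop D.p0
  have a4 := a1.comp2 a2 (fun a s => D.act a s)
  exact a4.comp2 a3 (fun a b => a + b)

theorem pf_XX (h : D.OK) : PF (fun w : List α => w ∈ D.XX) := by
  have := ((PF.lenge (α := α) D.z).comp2 (PF.wo h.hW) (fun a b => a ∧ b)).comp2
    (PF.hasW h.hW D.z) (fun a b => a ∧ ¬ b)
  obtain ⟨E, M, hM, h2⟩ := this
  refine ⟨E, M, hM, fun u x v k hk => ?_⟩
  have := h2 u x v k hk
  simp only [and_assoc] at this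
  exact this

theorem pf_Eb (_h : D.OK) : PF (fun w : List α => D.Eb w) := by
  have := PF.bounded (α := α) (fun x => D.Eb x) (D.z + D.N1)
  obtain ⟨E, M, hM, h2⟩ := this
  have key : ∀ w : List α, D.Eb w ↔ D.Eb (w.take (D.z + D.N1)) := by
    intro w
    constructor
    · rintro ⟨t, g1, g2, g3, g4⟩
      refine ⟨t, g1, g2, by rw [List.length_take]; omega, ?_⟩
      rw [List.take_take, min_eq_left g2.le]; exact g4
    · rintro ⟨t, g1, g2, g3, g4⟩
      rw [List.length_take] at g3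
      rw [List.take_take, min_eq_left g2.le] at g4
      exact ⟨t, g1, g2, by omega, g4⟩
  refine ⟨E, M, hM, fun u x v k hk => propext ?_⟩
  change D.Eb _ ↔ D.Eb _
  rw [key, key (u ++ pw x (k + M) ++ v)]
  exact iff_of_eq (h2 u x v k hk)

theorem pf_Bad (h : D.OK) : PF (fun w : List α => w ∈ D.Bad) :=
  (pf_XX h).comp2 ((pf_Eb h).comp2 (pf_badT h) (fun a b => a ∨ b)) (fun a b => a ∧ b)

theorem HL_XT (h : D.OK) (v b : V) : HL 1 ({w | w ∈ D.XX ∧ D.T v w = b} : Language α) := by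
  refine base h.hW D.z _ ?_ ((pf_XX h).comp2 (pf_T h v) (fun a c => a ∧ c = b)).pinv
  intro w hw t h1 h2 h3
  exact hw.1.2.2 ⟨t, h1, h2, h3⟩

theorem HL_BT (h : D.OK) (v b : V) : HL 1 ({w | w ∈ D.Bad ∧ D.T v w = b} : Language α) := by
  refine base h.hW D.z _ ?_ ((pf_Bad h).comp2 (pf_T h v) (fun a c => a ∧ c = b)).pinv
  intro w hw t h1 h2 h3
  exact hw.1.1.2.2 ⟨t, h1, h2, h3⟩

theorem HL_Bad (h : D.OK) : HL 1 (D.Bad : Language α) := by
  refine base h.hW D.z _ ?_ (pf_Bad h).pinv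
  intro w hw t h1 h2 h3
  exact hw.1.2.2 ⟨t, h1, h2, h3⟩

theorem HL_Good (h : D.OK) : HL 1 ({w | w ∈ D.XX ∧ w ∉ D.Bad} : Language α) := by
  refine base h.hW D.z _ ?_ ((pf_XX h).comp2 (pf_Bad h) (fun a c => a ∧ ¬ c)).pinv
  intro w hw t h1 h2 h3
  exact hw.1.2.2 ⟨t, h1, h2, h3⟩

theorem HL_tail (h : D.OK) (s : S) :
    HL 1 ({w | (∀ X ∈ D.XX, ¬ X <+: w) ∧ (w.map D.φ).prod = s} : Language α) := by
  have key : ∀ w : List α, (∀ X ∈ D.XX, ¬ X <+: w) ↔ (¬ HasW Wo D.z w ∧ ¬ (D.z ≤ w.length ∧ Wo w)) := by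
    intro w
    constructor
    · intro hw
      refine ⟨?_, ?_⟩
      · rintro ⟨t, h1, h2, h3⟩
        obtain ⟨X, hX, hXw, -⟩ := exists_block D w t h1 h2.le h3
        exact hw X hX hXw
      · rintro ⟨h1, h2⟩
        obtain ⟨X, hX, hXw, -⟩ := exists_block D w w.length h1 le_rfl
          (by rw [List.take_length]; exact h2)
        exact hw X hX hXw
    · rintro ⟨h1, h2⟩ X hX ⟨r, rfl⟩
      by_cases hr : r = []
      · subst hr
        rw [List.append_nil] at h2
        exact h2 ⟨hX.1, hX.2.1⟩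
      · refine h1 ⟨X.length, hX.1, ?_, ?_⟩
        · rw [List.length_append]
          have := List.length_pos_iff.2 hr
          omega
        · rw [List.take_left]; exact hX.2.1
  have hpf : PF (fun w : List α => (¬ HasW Wo D.z w ∧ ¬ (D.z ≤ w.length ∧ Wo w)) ∧
      (w.map D.φ).prod = s) :=
    ((PF.hasW h.hW D.z).comp2 ((PF.lenge (α := α) D.z).comp2 (PF.wo h.hW) (fun a b => a ∧ b))
      (fun a b => ¬ a ∧ ¬ b)).comp2 (PF.prod D.φ) (fun a c => a ∧ c = s)
  refine (base h.hW D.z _ ?_ hpf.pinv).congr fun w => ?_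
  · intro w hw t h1 h2 h3
    exact hw.1.1 ⟨t, h1, h2, h3⟩
  · exact and_congr (key w) Iff.rfl

theorem fin_LP1 (h : D.OK) (v : V) : Set.Finite (D.LP1 v : Set (List α)) := by
  refine (List.finite_length_le α (D.p0 + D.N1)).subset ?_
  rintro P ⟨h1, h2⟩
  have := h.lamlen _ _ h2
  rw [List.length_drop] at this
  change P.length ≤ _
  omega

theorem fin_LP2 (h : D.OK) (v : V) : Set.Finite (D.LP2 v : Set (List α)) := by
  refine (List.finite_length_le α D.p0).subset ?_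
  rintro P ⟨k, hk, h1, -⟩
  change P.length ≤ _
  rw [h1]; exact h.hc k hk

theorem HL_RQ1 (h : D.OK) (b : V) : HL 1 (D.RQ1 b) := by
  have key := HL.iInter (k := 1) (ι := V)
    (L := fun v => {Q | ∀ P ∈ (D.LP1 v : Set (List α)), Q ∈ ({Q | P ++ Q ∈ ({w | w ∈ D.XX ∧ D.T v w = b} : Language α)} : Language α)})
    (fun v => HL.biInter (fin_LP1 h v) (fun P _ => (HL_XT h v b).lquot P))
  refine key.congr fun Q => ?_
  constructor
  · intro hQ v P hP; exact hQ v P hP
  · intro hQ v P hP; exact hQ v P hP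

/-- bad blocks with thread -/
def LBT (D : Dat α S V n W Wo) (v b : V) : Language α := {w | w ∈ D.Bad ∧ D.T v w = b}

theorem HL_A2 (h : D.OK) (v b : V) : HL 1 (D.A2 v b) := by
  have h1 := HL.iUnion (k := 1) (ι := V)
    (L := fun v' => LBT D v v' * LBT D v' b)
    (fun v' => HL.mul (L := LBT D v v') (M := LBT D v' b) (HL_BT h v v') (HL_BT h v' b))
  have h2 := (HL_Good h).prefix
  refine (h1.setOf_or h2).congr fun w => ?_
  constructor
  · rintro (⟨X, Y, hX, hY, rfl, hT⟩ | ⟨X, hX, hb, hXw⟩)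
    · exact Or.inl ⟨D.T v X, Language.mem_mul.2 ⟨X, ⟨hX, rfl⟩, Y, ⟨hY, hT⟩, rfl⟩⟩
    · exact Or.inr ⟨X, ⟨hX, hb⟩, hXw⟩
  · rintro (⟨v', hw⟩ | ⟨X, ⟨hX, hb⟩, hXw⟩)
    · obtain ⟨X, ⟨hX, e1⟩, Y, ⟨hY, e2⟩, rfl⟩ := Language.mem_mul.1 hw
      exact Or.inl ⟨X, Y, hX, hY, rfl, by rw [e1]; exact e2⟩
    · exact Or.inr ⟨X, hX, hb, hXw⟩

theorem HL_RQ2 (h : D.OK) (b : V) : HL 1 (D.RQ2 b) := by
  have key := HL.iInter (k := 1) (ι := V)
    (L := fun v => {Q | ∀ P ∈ (D.LP2 v : Set (List α)), Q ∈ ({Q | P ++ Q ∈ D.A2 v b} : Language α)})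
    (fun v => HL.biInter (fin_LP2 h v) (fun P _ => (HL_A2 h v b).lquot P))
  refine key.congr fun Q => ?_
  constructor
  · intro hQ v P hP; exact hQ v P hP
  · intro hQ v P hP; exact hQ v P hP

end Dat

end Crest.Agent.R320.Inst_598
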