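import Crest.Agent.R320.InstB_753

/-!
# Row 320: instance of `top5` (helper753), part C: the two schemes with semantic right labels
-/

set_option autoImplicit false

namespace Crest.Agent.R320.Inst_753

open Crest.RegLang Crest.Agent.R320.Hk_851 Crest.Agent.R320.Blk467

variable {α : Type} {S V : Type} [Monoid S] [AddCommGroup V]

section
variable (φ : α → S) (act : V → S → V) (nu2 nu1 : List α → V) (p0 : ℕ)

def prm (v : V) (X0 : List α) : V := act v (X0.map φ).prod + nu2 X0

def nuu (X : List α) : V := act (nu2 (X.take p0)) ((X.drop p0).map φ).prod + nu1 (X.drop p0)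

def TT (v : V) (X : List α) : V := act v (X.map φ).prod + nuu φ act nu2 nu1 p0 X

theorem TT_eq (hadd : ∀ a b s, act (a + b) s = act a s + act b s)
    (hmul : ∀ v s t, act v (s * t) = act (act v s) t) (v : V) (X : List α) :
    TT φ act nu2 nu1 p0 v X =
      act (prm φ act nu2 v (X.take p0)) ((X.drop p0).map φ).prod + nu1 (X.drop p0) := by
  unfold TT nuu prm
  rw [hadd, ← hmul, ← List.prod_append, ← List.map_append, List.take_append_drop, add_assoc]

end

section
variable (φ : α → S) (act : V → S → V) (nu2 nu1 : List α → V) (p0 N K z : ℕ)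
  (Wo : List α → Prop) (BT : ℕ → Prop) (lam : List α → Option V) (lam2 : ℕ → List α → Option V)
  (c : ℕ → ℕ)

def Bad : Set (List α) := {X | X ∈ XX Wo z ∧ Bd Wo z N p0 BT X}

def LP1 (v : V) : Language α :=
  {P | p0 ≤ P.length ∧ P.length ≤ p0 + N ∧ lam (P.drop p0) = some (prm φ act nu2 v (P.take p0))}

def RQ1 (b : V) : Language α :=
  {Q | ∀ v, ∀ P ∈ LP1 φ act nu2 p0 N lam v,
    P ++ Q ∈ XX Wo z ∧ TT φ act nu2 nu1 p0 v (P ++ Q) = b}

def LP2 (v : V) : Language α := {P | ∃ k < K, P.length = c k ∧ lam2 k P = some v}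

/-- the words on which the second scheme is right -/
def Ok2 (v b : V) : Language α :=
  {w | (∃ X ∈ XX Wo z, X <+: w) ∧ ∀ X ∈ Bad p0 N z Wo BT, X <+: w →
    ∃ X' ∈ XX Wo z, w = X ++ X' ∧
      TT φ act nu2 nu1 p0 (TT φ act nu2 nu1 p0 v X) X' = b}

def RQ2 (b : V) : Language α :=
  {Q | ∀ v, ∀ P ∈ LP2 K lam2 c v, P ++ Q ∈ Ok2 φ act nu2 nu1 p0 N z Wo BT v b}

variable {φ act nu2 nu1 p0 N K z Wo BT lam lam2 c}

theorem c1 {n W L : ℕ} (hW : Walls Wo n W)
    (hadd : ∀ a b s, act (a + b) s = act a s + act b s)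
    (hmul : ∀ v s t, act v (s * t) = act (act v s) t)
    (hz : p0 + 3 * L + N + n + 1 ≤ z)
    {rho : List α → Option V}
    (g1 : ∀ P v, lam P = some v → P.length ≤ N)
    (g2 : ∀ P Q v r, lam P = some v → rho Q = some r →
      r = act v ((P ++ Q).map φ).prod + nu1 (P ++ Q))
    (g3 : ∀ u : List α, 2 * N ≤ u.length → ¬ BT u.length → ∀ v, ∃ P Q, P ++ Q = u ∧
      lam P = some v ∧ (rho Q).isSome)
    (X : List α) (hX : X ∈ XX Wo z) (hXB : X ∉ Bad p0 N z Wo BT) (v : V) :
    ∃ P Q, P ++ Q = X ∧ P ∈ LP1 φ act nu2 p0 N lam v ∧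
      Q ∈ RQ1 φ act nu2 nu1 p0 N z Wo lam (TT φ act nu2 nu1 p0 v X) := by
  have hnb : ¬ Bd Wo z N p0 BT X := fun h => hXB ⟨hX, h⟩
  unfold Bd at hnb
  push Not at hnb
  obtain ⟨hE, hB⟩ := hnb
  have hEl : z + N ≤ X.length := by
    by_contra h
    exact hE (Or.inl (by omega))
  have hYl : (X.drop p0).length = X.length - p0 := List.length_drop
  obtain ⟨p, q, hpq, hp, hq⟩ := g3 (X.drop p0) (by omega) (by rw [hYl]; exact hB)
    (prm φ act nu2 v (X.take p0))
  obtain ⟨r, hr⟩ := Option.isSome_iff_exists.1 hq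
  have hpN := g1 _ _ hp
  have hX0 : (X.take p0).length = p0 := by rw [List.length_take]; omega
  have hXe : (X.take p0 ++ p) ++ q = X := by
    rw [List.append_assoc, hpq, List.take_append_drop]
  refine ⟨X.take p0 ++ p, q, hXe, ⟨?_, ?_, ?_⟩, ?_⟩
  · rw [List.length_append]; omega
  · rw [List.length_append]; omega
  · rw [List.drop_append_of_le_length (by omega), List.take_append_of_le_length (by omega)]
    rw [List.take_take, min_self, List.drop_eq_nil_of_le (by omega), List.nil_append]
    exact hp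
  · rintro w P ⟨h1, h2, h3⟩
    have hval : ∀ (w : V) (P : List α), p0 ≤ P.length →
        lam (P.drop p0) = some (prm φ act nu2 w (P.take p0)) →
        TT φ act nu2 nu1 p0 w (P ++ q) = r := by
      intro w P h1 h3
      rw [TT_eq φ act nu2 nu1 p0 hadd hmul, List.drop_append_of_le_length h1,
        List.take_append_of_le_length h1]
      exact (g2 _ _ _ _ h3 hr).symm
    refine ⟨?_, ?_⟩
    · refine junction1 hW (p0 := p0) (N := N) (by omega) (P := X.take p0 ++ p) (P' := P) (Q := q)
        ?_ ?_ ?_ ?_ h1 h2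
      · rw [hXe]; exact hX
      · rw [hXe]; exact hE
      · rw [List.length_append]; omega
      · rw [List.length_append]; omega
    · rw [hval w P h1 h3]
      have := hval v (X.take p0 ++ p) (by rw [List.length_append]; omega) (by
        rw [List.drop_append_of_le_length (by omega), List.take_append_of_le_length (by omega)]
        rw [List.take_take, min_self, List.drop_eq_nil_of_le (by omega), List.nil_append]
        exact hp)
      rw [hXe] at this
      exact this.symm

theorem s2 (hz0 : 0 < z) (v b : V) (P Q r : List α) (hP : P ∈ LP2 K lam2 c v)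
    (hQ : Q ∈ RQ2 φ act nu2 nu1 p0 N K z Wo BT lam2 c b)
    (hr : P ++ Q ++ r ∈ Str (Bad p0 N z Wo BT)) :
    P ++ Q ∈ Lg (Bad p0 N z Wo BT) (TT φ act nu2 nu1 p0) v b := by
  have hC : PCode (XX Wo z) := pcode Wo hz0
  have hBX : Bad p0 N z Wo BT ⊆ XX Wo z := fun X hX => hX.1
  have hCB := hC.mono hBX
  obtain ⟨⟨X, hX, hXp⟩, h2⟩ := hQ v P hP
  obtain ⟨l, hl, he⟩ := hr
  obtain ⟨t, ht⟩ := hXp
  have e1 : X ++ (t ++ r) = l.flatten := by rw [he, ← ht, List.append_assoc]
  obtain ⟨l', rfl, e2⟩ := Top5_467.PCode.first hC hX l (fun Y hY => hBX (hl Y hY)) e1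
  have hXB : X ∈ Bad p0 N z Wo BT := hl X (by simp)
  obtain ⟨X', hX', e3, e4⟩ := h2 X hXB ⟨t, ht⟩
  have e5 : t = X' := by
    rw [← ht] at e3; exact List.append_cancel_left e3
  subst e5
  have e6 : t ++ r = l'.flatten := e2
  obtain ⟨l'', rfl, _⟩ := Top5_467.PCode.first hC hX' l'
    (fun Y hY => hBX (hl Y (by simp [hY]))) e6
  have hX'B : t ∈ Bad p0 N z Wo BT := hl t (by simp)
  refine ⟨[X, t], ?_, ?_, ?_⟩
  · intro Y hY
    rcases List.mem_cons.1 hY with rfl | hY
    · exact hXB
    · rw [List.mem_singleton] at hY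
      subst hY; exact hX'B
  · simp only [List.flatten_cons, List.flatten_nil, List.append_nil]; exact ht
  · exact e4

theorem c2 {n W L C0 : ℕ} (hW : Walls Wo n W)
    (hadd : ∀ a b s, act (a + b) s = act a s + act b s)
    (hmul : ∀ v s t, act v (s * t) = act (act v s) t)
    (hz0 : 0 < z)
    (hc : ∀ k < K, c k ≤ L) (hsep : Sep K N c) (hWL : 2 * N + 2 * L < W)
    (hPB : ∀ T, 2 * L ≤ T → (PB K c BT T).card ≤ C0) (hLp : L ≤ p0)
    (hz : p0 + 3 * L + N + n + 1 ≤ z)
    {rho2 : ℕ → List α → Option V}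
    (q1 : ∀ k < K, ∀ (P Q : List α) (v b : V), P.length = c k → lam2 k P = some v →
      rho2 k Q = some b → b = act v ((P ++ Q).map φ).prod + nu2 (P ++ Q))
    (q2 : ∀ (u : List α) (v : V), u.length = p0 → ∃ I : Finset ℕ, 2 + 2 * C0 ≤ I.card ∧ ∀ k ∈ I,
      k < K ∧ lam2 k (u.take (c k)) = some v ∧ (rho2 k (u.drop (c k))).isSome)
    (hcinj : ∀ k < K, ∀ k' < K, c k = c k' → k = k')
    (X : List α) (hX : X ∈ Bad p0 N z Wo BT) (X' : List α) (hX' : X' ∈ Bad p0 N z Wo BT) (v : V) :
    ∃ P Q, P ++ Q = X ++ X' ∧ P ∈ LP2 K lam2 c v ∧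
      Q ∈ RQ2 φ act nu2 nu1 p0 N K z Wo BT lam2 c
        (TT φ act nu2 nu1 p0 (TT φ act nu2 nu1 p0 v X) X') := by
  classical
  obtain ⟨Sp, hSp, hspoil⟩ := spoiled (BT := BT) (C0 := C0) (p0 := p0) hW hz0 hc hsep hWL hPB hLp
    hz hX.1 hX'.1
  have hC : PCode (XX Wo z) := pcode Wo hz0
  have hXl : z ≤ X.length := hX.1.2.1
  have hX'l : z ≤ X'.length := hX'.1.2.1
  obtain ⟨I, hI, hI2⟩ := q2 (X.take p0) v (by rw [List.length_take]; omega)
  obtain ⟨k, hkI, hkS⟩ : ∃ k ∈ I, k ∉ Sp := by
    by_contra h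
    push Not at h
    have := Finset.card_le_card (s := I) (t := Sp) (fun k hk => h k hk)
    omega
  obtain ⟨hk, hk1, hk2⟩ := hI2 k hkI
  obtain ⟨b, hb⟩ := Option.isSome_iff_exists.1 hk2
  have ck := hc k hk
  rw [List.take_take, min_eq_left (by omega)] at hk1
  refine ⟨X.take (c k), X.drop (c k) ++ X', ?_, ⟨k, hk, ?_, hk1⟩, ?_⟩
  · rw [← List.append_assoc, List.take_append_drop]
  · rw [List.length_take]; omega
  · rintro w P ⟨k', hk', hPl, hlam⟩
    have ck' := hc k' hk'
    have hdl : (X.drop (c k)).length = X.length - c k := List.length_drop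
    refine ⟨?_, ?_⟩
    · obtain ⟨Y, hY, hYp, _⟩ := exists_block Wo (z := z) (P ++ (X.drop (c k) ++ X'))
        (P ++ (X.drop (c k) ++ X')).length le_rfl (by
          rw [List.length_append, List.length_append]; omega) (by
          rw [List.take_length, ← List.append_assoc, hW.loc _ _ (by omega)]
          exact hX'.1.1)
      exact ⟨Y, hY, hYp⟩
    · intro Y hY hYp
      by_cases hkk : k' = k
      · subst hkk
        have hXk : X = X.take (c k') ++ X.drop (c k') := (List.take_append_drop _ _).symm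
        have htl : (X.take (c k')).length = c k' := by rw [List.length_take]; omega
        have hX'' : P ++ X.drop (c k') ∈ XX Wo z := by
          refine same_len hW (P := X.take (c k')) (by omega) (by omega) ?_
          rw [List.take_append_drop]; exact hX.1
        have hYe : Y = P ++ X.drop (c k') := by
          have h1 : P ++ X.drop (c k') <+: P ++ (X.drop (c k') ++ X') :=
            ⟨X', by rw [List.append_assoc]⟩
          rcases List.prefix_or_prefix_of_prefix hYp h1 with h | h
          · exact hC.2 _ hY.1 _ hX'' h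
          · exact (hC.2 _ hX'' _ hY.1 h).symm
        subst hYe
        refine ⟨X', hX'.1, by rw [List.append_assoc], ?_⟩
        congr 1
        have hd : (P ++ X.drop (c k')).drop p0 = X.drop p0 := by
          rw [List.drop_append]
          rw [List.drop_eq_nil_of_le (by omega), List.nil_append, List.drop_drop]
          congr 1; omega
        have ht : (P ++ X.drop (c k')).take p0 = P ++ (X.take p0).drop (c k') := by
          rw [List.take_append, List.take_of_length_le (by omega), List.drop_take]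
          rw [hPl]
        have hv1 : prm φ act nu2 w ((P ++ X.drop (c k')).take p0) = b := by
          rw [ht]
          exact (q1 k' hk P _ w b hPl hlam hb).symm
        have hv2 : prm φ act nu2 v (X.take p0) = b := by
          have h3 := q1 k' hk (X.take (c k')) ((X.take p0).drop (c k')) v b htl hk1 hb
          have h4 : X.take (c k') ++ (X.take p0).drop (c k') = X.take p0 := by
            have : X.take (c k') = (X.take p0).take (c k') := by
              rw [List.take_take, min_eq_left (by omega)]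
            rw [this, List.take_append_drop]
          rw [h4] at h3
          exact h3.symm
        rw [TT_eq φ act nu2 nu1 p0 hadd hmul, TT_eq φ act nu2 nu1 p0 hadd hmul, hd, hv1, hv2]
      · exfalso
        have hdr : (X ++ X').drop (c k) = X.drop (c k) ++ X' :=
          List.drop_append_of_le_length (by omega)
        exact hspoil k hk hkS k' hk' hkk P hPl Y hY.1 (by rw [hdr]; exact hYp) hY.2

end

end Crest.Agent.R320.Inst_753
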