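import Crest.Agent.R320.InstB_848

/-!
# Row 320: scheme B of the data of `Main_621` (helper848)
-/

set_option autoImplicit false

namespace Crest.Agent.R320.InstC_848

open Crest.Agent.R320.Hk_851 Crest.Agent.R320.Star_621 Crest.Agent.R320.Two_621
open Crest.Agent.R320.FewWalls_228 Crest.Agent.R320.InstA_848 Crest.Agent.R320.InstB_848

/-- the monoid of the inner scheme -/
abbrev M2 (T : Type) : Type := (Function.End (Option (Tok T)))ᵐᵒᵖ

/-- letter map of the inner scheme -/
def fA {α T : Type} [Monoid T] (φ : α → T) (a : α) : M2 T :=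
  MulOpposite.op (fun o : Option (Tok T) => o.map fun v => act v (φ a))

/-- the exact gadget -/
structure Ex (α T : Type) [Monoid T] (φ : α → T) (K : ℕ) (c : ℕ → ℕ) (R0 : ℕ) where
  lam : ℕ → List α → Option (Tok (M2 T))
  rho : ℕ → List α → M2 T → Option (Tok (M2 T))
  nu : List α → M2 T → Tok (M2 T)
  e1 : ∀ k < K, ∀ (P Q : List α) (y : M2 T) (v b : Tok (M2 T)), P.length = c k →
    lam k P = some v → rho k Q y = some b →
    b = act v (((P ++ Q).map (fA φ)).prod * y) + nu (P ++ Q) y
  e2 : ∀ (u : List α) (y : M2 T) (v : Tok (M2 T)), (∀ k < K, c k ≤ u.length) →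
    ∃ I : Finset ℕ, R0 ≤ I.card ∧ ∀ k ∈ I, k < K ∧ lam k (u.take (c k)) = some v ∧
      (rho k (u.drop (c k)) y).isSome

variable {α T : Type} [Monoid T] {φ : α → T} {N1 Pm La : ℕ} {Bad : ℕ → Prop}
variable {n : ℕ} {S : Set (List α)} {z0 p0 : ℕ} (G : Gd α T φ N1 Pm La Bad)
variable {K : ℕ} {c : ℕ → ℕ} {R0 : ℕ} (E : Ex α T φ K c R0)

def CutR (n : ℕ) (S : Set (List α)) (z0 p0 : ℕ) (G : Gd α T φ N1 Pm La Bad) (v : Tok T)
    (R : List α) : Prop :=
  ∃ P' Q' τ, R = P' ++ Q' ∧ G.lam P' = some v ∧ Q' ∈ RA n S z0 p0 G τ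

open Classical in
noncomputable def yv (n : ℕ) (S : Set (List α)) (z0 p0 : ℕ) (G : Gd α T φ N1 Pm La Bad)
    (R : List α) : M2 T :=
  MulOpposite.op (fun o : Option (Tok T) =>
    o.bind fun v => if CutR n S z0 p0 G v R then none else some (oR n S z0 p0 G v R))

theorem fA_prod (X : List α) (o : Option (Tok T)) :
    ((X.map (fA φ)).prod).unop o = o.map fun v => act v (ph φ X) := by
  induction X generalizing o with
  | nil =>
    cases o with
    | none => rfl
    | some v =>
      show some v = some (act v (ph φ []))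
      simp [ph, act_one]
  | cons a X ih =>
    have e : (((a :: X).map (fA φ)).prod).unop o
        = ((X.map (fA φ)).prod).unop ((fA φ a).unop o) := by
      rw [List.map_cons, List.prod_cons]; rfl
    rw [e, ih]
    cases o with
    | none => rfl
    | some v =>
      show some (act (act v (φ a)) (ph φ X)) = some (act v (ph φ (a :: X)))
      rw [act_mul]
      simp [ph]

theorem cut_iff {z : List α} (hz : p0 ≤ z.length) (v : Tok T) :
    Cut (LA p0 G) (RA n S z0 p0 G) v z ↔
      CutR n S z0 p0 G (act v (ph φ (z.take p0))) (z.drop p0) := by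
  constructor
  · rintro ⟨P, Q, τ, rfl, ⟨h1, h2⟩, h3⟩
    refine ⟨P.drop p0, Q, τ, List.drop_append_of_le_length h1, ?_, h3⟩
    rw [List.take_append_of_le_length h1]
    exact h2
  · rintro ⟨P', Q', τ, h1, h2, h3⟩
    have hl : (z.take p0).length = p0 := by rw [List.length_take]; omega
    refine ⟨z.take p0 ++ P', Q', τ, ?_, ⟨?_, ?_⟩, h3⟩
    · rw [List.append_assoc, ← h1, List.take_append_drop]
    · rw [List.length_append]; omega
    · have e1 : (z.take p0 ++ P').drop p0 = P' := by
        rw [List.drop_append_of_le_length (by omega), List.drop_eq_nil_of_le (by omega),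
          List.nil_append]
      have e2 : (z.take p0 ++ P').take p0 = z.take p0 := by
        rw [List.take_append_of_le_length (by omega), List.take_of_length_le (by omega)]
      rw [e1, e2]
      exact h2

theorem stepA_eq {z : List α} (hz : p0 ≤ z.length) :
    stepA (aff (ph φ) (dA n S z0 p0 G)) (LA p0 G) (RA n S z0 p0 G) z =
      ((z.take p0).map (fA φ)).prod * yv n S z0 p0 G (z.drop p0) := by
  classical
  apply MulOpposite.unop_injective
  funext o
  have e : (((z.take p0).map (fA φ)).prod * yv n S z0 p0 G (z.drop p0)).unop o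
      = (yv n S z0 p0 G (z.drop p0)).unop ((((z.take p0).map (fA φ)).prod).unop o) := rfl
  rw [e, fA_prod]
  cases o with
  | none => rfl
  | some v =>
    by_cases h : Cut (LA p0 G) (RA n S z0 p0 G) v z
    · rw [stepA_cut h]
      show none = (if CutR n S z0 p0 G (act v (ph φ (z.take p0))) (z.drop p0) then none
        else some (oR n S z0 p0 G (act v (ph φ (z.take p0))) (z.drop p0)))
      rw [if_pos ((cut_iff G hz v).1 h)]
    · rw [stepA_uncut h]
      show some _ = (if CutR n S z0 p0 G (act v (ph φ (z.take p0))) (z.drop p0) then none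
        else some (oR n S z0 p0 G (act v (ph φ (z.take p0))) (z.drop p0)))
      rw [if_neg (fun h' => h ((cut_iff G hz v).2 h')), aff_eq]

/-- candidate -/
def cand (n : ℕ) (S : Set (List α)) (z0 p0 N1 : ℕ) (Bad : ℕ → Prop) (ck : ℕ) (Q : List α) :
    Prop :=
  (∃ s, z0 ≤ s + ck + N1 ∧ s + ck < z0 + N1 ∧ s ≤ Q.length ∧ En n S (Q.take s)) ∨
  (∃ s, z0 ≤ s + ck ∧ s ≤ Q.length ∧ En n S (Q.take s) ∧
    (∀ s', z0 ≤ s' + ck → s' < s → ¬ En n S (Q.take s')) ∧ Bad (s + ck - p0))

def LB (E : Ex α T φ K c R0) (ω : Tok (M2 T)) : Language α :=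
  {P | ∃ k < K, P.length = c k ∧ E.lam k P = some ω}

def RB (n : ℕ) (S : Set (List α)) (z0 p0 : ℕ) (G : Gd α T φ N1 Pm La Bad)
    (E : Ex α T φ K c R0) (τ : Tok (M2 T)) : Language α :=
  {Q | ∃ k < K, ∃ t, Blk n S (z0 - c k) Q t ∧ cand n S z0 p0 N1 Bad (c k) Q ∧
    (∀ k' < K, k' ≠ k → ¬ cand n S z0 p0 N1 Bad (c k') Q) ∧
    E.rho k (Q.take (p0 - c k)) (yv n S z0 p0 G (Q.drop (p0 - c k))) = some τ}

noncomputable def dB (n : ℕ) (S : Set (List α)) (z0 p0 : ℕ) (G : Gd α T φ N1 Pm La Bad)
    (E : Ex α T φ K c R0) (z : List α) : Tok (M2 T) :=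
  E.nu (z.take p0) (yv n S z0 p0 G (z.drop p0))

theorem en_take_app {P Q : List α} {s : ℕ} (h1 : P.length + n ≤ s)
    (h2 : s ≤ P.length + Q.length) :
    En n S ((P ++ Q).take s) ↔ En n S (Q.take (s - P.length)) := by
  rw [take_app (by omega), en_app]
  rw [List.length_take]
  omega

/-- the gap condition -/
def Gap (n : ℕ) (S : Set (List α)) (W : ℕ) : Prop :=
  ∀ (w : List α) (s t : ℕ), s < t → t ≤ w.length → En n S (w.take s) → En n S (w.take t) →
    s + W ≤ t

theorem cand_true {P Q : List α} {t0 : ℕ} (hz : P.length + N1 + n ≤ z0)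
    (h0 : z0 ≤ t0) (h1 : t0 ≤ P.length + Q.length) (h2 : En n S ((P ++ Q).take t0))
    (h3 : ∀ s, z0 ≤ s → s < t0 → ¬ En n S ((P ++ Q).take s))
    (h4 : (∃ s, z0 ≤ s + N1 ∧ s < z0 + N1 ∧ s ≤ P.length + Q.length ∧
      En n S ((P ++ Q).take s)) ∨ Bad (t0 - p0)) :
    cand n S z0 p0 N1 Bad P.length Q := by
  rcases h4 with ⟨s, a1, a2, a3, a4⟩ | hb
  · left
    refine ⟨s - P.length, by omega, by omega, by omega, ?_⟩
    rw [en_take_app (by omega) (by omega)] at a4
    exact a4
  · right
    refine ⟨t0 - P.length, by omega, by omega, ?_, ?_, ?_⟩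
    · rw [en_take_app (by omega) (by omega)] at h2
      exact h2
    · intro s' b1 b2 b3
      refine h3 (s' + P.length) (by omega) (by omega) ?_
      rw [en_take_app (by omega) (by omega), Nat.add_sub_cancel]
      exact b3
    · have e : t0 - P.length + P.length = t0 := by omega
      rw [e]; exact hb

theorem take_eq_of {u z x y : List α} {s : ℕ} (h : u ++ x = z ++ y) (h1 : s ≤ u.length)
    (h2 : s ≤ z.length) : u.take s = z.take s := by
  have := congrArg (List.take s) h
  rwa [List.take_append_of_le_length h1, List.take_append_of_le_length h2] at this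

theorem soundB {W : ℕ} (hP : Prm n z0 p0 N1 La) (hW : 2 * p0 + 2 * N1 + 1 ≤ W)
    (hgap : Gap n S W) (hc : ∀ k < K, c k < p0) (hc0 : ∀ k < K, 0 < c k) :
    Sound (Zc n S z0 p0 N1 Bad) (aff (stepA (aff (ph φ) (dA n S z0 p0 G)) (LA p0 G)
      (RA n S z0 p0 G)) (dB n S z0 p0 G E)) (LB E) (RB n S z0 p0 G E) := by
  have hp := hP.hp
  have hz := hP.hz
  refine ⟨?_, ?_⟩
  · rintro ω ⟨k, hk, h, _⟩
    have := hc0 k hk
    simp only [List.length_nil] at h
    omega
  · rintro ω τ P Q z x y ⟨k0, hk0, hPl, hPlam⟩ ⟨k, hk, t, hQ, hcand, huniq, hrho⟩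
      ⟨t0, ht0, hbad⟩ hxy
    have c0 := hc k0 hk0
    have ck := hc k hk
    have q1 := hQ.h1
    have q2 := hQ.h2
    have d1 := ht0.h1
    have d2 := ht0.h2
    have hQg := hgap Q t Q.length q2 le_rfl hQ.h3 (by rw [List.take_length]; exact hQ.h5)
    have hA : (P ++ Q).length = P.length + Q.length := List.length_append
    have hEA : En n S (P ++ Q) := (en_app (by omega)).2 hQ.h5
    have htA : t0 ≤ P.length + Q.length := by
      by_contra hlt
      have hlt' : P.length + Q.length < t0 := by omega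
      refine ht0.h4 (P.length + Q.length) (by omega) (by omega) (by omega) ?_
      rw [← take_eq_of hxy (by omega) (by omega), List.take_of_length_le (by omega)]
      exact hEA
    have hc1 : cand n S z0 p0 N1 Bad (c k0) Q := by
      rw [← hPl]
      refine cand_true (t0 := t0) (by omega) d1 htA ?_ ?_ ?_
      · rw [take_eq_of hxy (by omega) (by omega)]
        exact ht0.h3
      · intro s s1 s2
        rw [take_eq_of hxy (by omega) (by omega)]
        exact ht0.h4 s s1 (by omega) (by omega)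
      · rcases hbad with ⟨s, s1, s2, s3, s4⟩ | hb
        · left
          refine ⟨s, s1, s2, by omega, ?_⟩
          rw [take_eq_of hxy (by omega) (by omega)]
          exact s4
        · exact Or.inr hb
    have hkk : k = k0 := by
      by_contra hne
      exact huniq k0 hk0 (Ne.symm hne) hc1
    subst hkk
    have hPQ : P ++ Q ∈ Zs n S z0 := by
      refine ⟨P.length + t, ?_⟩
      rw [blk_app (by omega) (by omega), hPl]
      have e : c k + t - c k = t := by omega
      rw [e]; exact hQ
    have heq : P ++ Q = z := (code (n := n) (S := S) z0).2 _ _ x y hPQ ⟨t0, ht0⟩ hxy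
    refine ⟨heq, ?_⟩
    have e1 : (P ++ Q).take p0 = P ++ Q.take (p0 - c k) := by
      rw [take_app (by omega), hPl]
    have e2 : (P ++ Q).drop p0 = Q.drop (p0 - c k) := by
      rw [List.drop_append, List.drop_eq_nil_of_le (by omega), List.nil_append, hPl]
    have h1 := E.e1 k hk P (Q.take (p0 - c k)) (yv n S z0 p0 G (Q.drop (p0 - c k))) ω τ hPl
      hPlam hrho
    show τ = act ω (stepA (aff (ph φ) (dA n S z0 p0 G)) (LA p0 G) (RA n S z0 p0 G) z) +
      dB n S z0 p0 G E z
    rw [← heq, stepA_eq G (by omega)]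
    unfold dB
    rw [e1, e2]
    exact h1

open Classical in
theorem completeB (hP : Prm n z0 p0 N1 La) (hc : ∀ k < K, c k < p0) {z : List α}
    (hz : z ∈ Zc n S z0 p0 N1 Bad)
    (hsp : ((Finset.range K).filter (fun k => ∃ k' < K, k' ≠ k ∧
      cand n S z0 p0 N1 Bad (c k') (z.drop (c k)))).card < R0) (ω : Tok (M2 T)) :
    Cut (LB E) (RB n S z0 p0 G E) ω z := by
  have hp := hP.hp
  have hz0 := hP.hz
  obtain ⟨t0, ht0, hbad⟩ := hz
  have d1 := ht0.h1
  have d2 := ht0.h2
  have hl : (z.take p0).length = p0 := by rw [List.length_take]; omega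
  obtain ⟨I, hI, hIk⟩ := E.e2 (z.take p0) (yv n S z0 p0 G (z.drop p0)) ω
    (fun k hk => by rw [hl]; exact (hc k hk).le)
  have hex : ∃ k ∈ I, k ∉ ((Finset.range K).filter (fun k => ∃ k' < K, k' ≠ k ∧
      cand n S z0 p0 N1 Bad (c k') (z.drop (c k)))) := by
    by_contra hcon
    push Not at hcon
    have := Finset.card_le_card (show I ⊆ _ from fun k hk => hcon k hk)
    omega
  obtain ⟨k, hkI, hkn⟩ := hex
  obtain ⟨hk, hlam, hrho⟩ := hIk k hkI
  have ck := hc k hk
  have hns : ∀ k' < K, k' ≠ k → ¬ cand n S z0 p0 N1 Bad (c k') (z.drop (c k)) := by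
    intro k' h1 h2 h3
    exact hkn (Finset.mem_filter.2 ⟨Finset.mem_range.2 hk, k', h1, h2, h3⟩)
  obtain ⟨b, hb⟩ := Option.isSome_iff_exists.1 hrho
  have hPl : (z.take (c k)).length = c k := by rw [List.length_take]; omega
  have hzz : z.take (c k) ++ z.drop (c k) = z := List.take_append_drop _ _
  have hdl : (z.drop (c k)).length = z.length - c k := List.length_drop
  refine ⟨z.take (c k), z.drop (c k), b, hzz.symm, ⟨k, hk, hPl, ?_⟩, ⟨k, hk, t0 - c k, ?_, ?_,
    hns, ?_⟩⟩
  · rw [List.take_take, Nat.min_eq_left ck.le] at hlam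
    exact hlam
  · have h := ht0
    rw [← hzz, blk_app (by omega) (by omega), hPl] at h
    exact h
  · have : cand n S z0 p0 N1 Bad (z.take (c k)).length (z.drop (c k)) := by
      refine cand_true (t0 := t0) (by omega) d1 (by omega) ?_ ?_ ?_
      · rw [hzz]; exact ht0.h3
      · intro s s1 s2
        rw [hzz]
        exact ht0.h4 s s1 (by omega) (by omega)
      · rw [hzz]
        rcases hbad with ⟨s, s1, s2, s3, s4⟩ | hb
        · exact Or.inl ⟨s, s1, s2, by omega, s4⟩
        · exact Or.inr hb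
    rw [hPl] at this
    exact this
  · have e1 : (z.drop (c k)).take (p0 - c k) = (z.take p0).drop (c k) := by
      rw [List.drop_take]
    have e2 : (z.drop (c k)).drop (p0 - c k) = z.drop p0 := by
      rw [List.drop_drop]
      congr 1
      omega
    rw [e1, e2]
    exact hb

end Crest.Agent.R320.InstC_848
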