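import Crest.Agent.R320.InstB_966

/-!
# Row 320: heights of the block languages on ALL words, and the final theorem from one gadget
(helper966)
-/

set_option autoImplicit false

namespace Crest.Agent.R320.InstA_966

open Crest.Agent.R320.Hk_851 Crest.Agent.R320.Code110 Crest.Agent.R320.FewWalls_228

variable {α S V : Type} [Monoid S] [AddCommGroup V]

/-- regular because only finitely many left quotients -/
theorem reg_of_key {κ : Type} (key : List α → κ) (hfin : (Set.range key).Finite)
    (hk : ∀ w w' y, key w = key w' → key (w ++ y) = key (w' ++ y)) (L : Language α)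
    (hL : ∀ w w', key w = key w' → (w ∈ L ↔ w' ∈ L)) : L.IsRegular := by
  rw [Language.isRegular_iff_finite_range_leftQuotient]
  refine (hfin.image (fun k => ({y | ∃ w, key w = k ∧ w ++ y ∈ L} : Language α))).subset ?_
  rintro _ ⟨w, rfl⟩
  refine ⟨key w, ⟨w, rfl⟩, ?_⟩
  ext y
  constructor
  · rintro ⟨w', h1, h2⟩
    exact (hL _ _ (hk w' w y h1)).1 h2
  · intro h
    exact ⟨w, rfl, h⟩

theorem reg_key [Finite α] [Finite S] (f : α → S) (A Nm : ℕ) (hNm : 0 < Nm) (L : Language α)
    (hL : ∀ w w' : List α, w.take A = w'.take A → pr f (w.drop A) = pr f (w'.drop A) →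
      w.length % Nm = w'.length % Nm → (w ∈ L ↔ w' ∈ L)) : L.IsRegular := by
  refine reg_of_key (fun w => (w.take A, pr f (w.drop A), w.length % Nm)) ?_ ?_ L ?_
  · refine (((List.finite_length_le α A).prod ((Set.toFinite (Set.univ : Set S)).prod
      (Set.finite_lt_nat Nm))).subset ?_)
    rintro _ ⟨w, rfl⟩
    refine ⟨?_, trivial, Nat.mod_lt _ hNm⟩
    show (w.take A).length ≤ A
    rw [List.length_take]; omega
  · intro w w' y h
    simp only [Prod.mk.injEq] at h ⊢
    obtain ⟨h1, h2, h3⟩ := h
    by_cases hlt : w.length < A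
    · have e1 : w.take A = w := List.take_of_length_le (by omega)
      have e2 : (w'.take A).length = w.length := by rw [← h1, e1]
      rw [List.length_take] at e2
      have e3 : w'.take A = w' := List.take_of_length_le (by omega)
      have : w = w' := by rw [← e1, h1, e3]
      subst this
      exact ⟨rfl, rfl, rfl⟩
    · have e2 : (w'.take A).length = (w.take A).length := by rw [← h1]
      rw [List.length_take, List.length_take] at e2
      have hw' : A ≤ w'.length := by omega
      refine ⟨?_, ?_, ?_⟩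
      · rw [List.take_append_of_le_length (by omega), List.take_append_of_le_length hw', h1]
      · rw [List.drop_append_of_le_length (by omega), List.drop_append_of_le_length hw',
          pr_append, pr_append, h2]
      · rw [List.length_append, List.length_append, Nat.add_mod, h3, ← Nat.add_mod]
  · intro w w' h
    simp only [Prod.mk.injEq] at h
    exact hL w w' h.1 h.2.1 h.2.2

namespace Dat

variable (D : Dat α S V)

section heights
variable [Finite α] [Finite S] [Finite V] {n : ℕ} {Sw : Set (List α)}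
  (hWo : D.Wo = WallU_228.Wo n Sw)

include hWo in
omit [Finite S] [Finite V] in
theorem hlWo {k : ℕ} : HL k ({X | D.Wo X} : Language α) := by
  have hfin : ({s | s ∈ Sw ∧ s.length = n} : Set (List α)).Finite :=
    (List.finite_length_eq α n).subset fun s hs => hs.2
  refine (HL.suffix (HL.finite (k := k) hfin)).congr fun w => ?_
  constructor
  · intro h
    have h' : D.Wo w := h
    rw [hWo] at h'
    obtain ⟨h1, h2⟩ := h'
    exact ⟨w.drop (w.length - n), ⟨h2, by rw [List.length_drop]; omega⟩, List.drop_suffix _ _⟩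
  · rintro ⟨s, ⟨hs1, hs2⟩, ⟨t, rfl⟩⟩
    show D.Wo (t ++ s)
    rw [hWo]
    refine ⟨by rw [List.length_append]; omega, ?_⟩
    have : (t ++ s).length - n = t.length := by rw [List.length_append]; omega
    rw [this, List.drop_left]
    exact hs1

include hWo in
omit [Finite S] [Finite V] in
theorem hlXX {k : ℕ} : HL k D.XX := by
  have h1 : HL k ({P | D.z ≤ P.length ∧ D.Wo P} : Language α) :=
    HL.setOf_and (HL.length_ge D.z) (D.hlWo hWo)
  have h2 := h1.mul (HL.length_ge (α := α) (k := k) 1)
  refine (h1.sdiff h2).congr fun w => ?_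
  constructor
  · rintro ⟨a, b, c⟩
    refine ⟨⟨a, b⟩, ?_⟩
    intro hm
    obtain ⟨P, ⟨hP1, hP2⟩, Y, hY, rfl⟩ := Language.mem_mul.1 hm
    have hY' : 1 ≤ Y.length := hY
    apply c P.length hP1 (by rw [List.length_append]; omega)
    rw [List.take_left]; exact hP2
  · rintro ⟨⟨a, b⟩, c⟩
    refine ⟨a, b, ?_⟩
    intro t ht1 ht2 hW
    apply c
    have hl : (w.take t).length = t := by rw [List.length_take]; omega
    refine Language.mem_mul.2 ⟨w.take t, ⟨by omega, hW⟩, w.drop t, ?_, List.take_append_drop t w⟩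
    show 1 ≤ (w.drop t).length
    rw [List.length_drop]; omega

include hWo in
omit [Finite S] [Finite V] in
theorem hlE {k : ℕ} : HL k ({X | D.EB X} : Language α) := by
  have h1 : HL k ({P | (D.z ≤ P.length + D.N1 ∧ P.length < D.z + D.N1) ∧ D.Wo P} : Language α) := by
    refine HL.setOf_and (HL.setOf_and ?_ (HL.length_lt _)) (D.hlWo hWo)
    refine (HL.length_ge (D.z - D.N1)).congr fun w => ?_
    constructor
    · intro h
      have h' : D.z ≤ w.length + D.N1 := h
      show D.z - D.N1 ≤ w.length
      omega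
    · intro h
      have h' : D.z - D.N1 ≤ w.length := h
      show D.z ≤ w.length + D.N1
      omega
  refine (HL.prefix h1).congr fun w => ?_
  constructor
  · rintro ⟨t, h1, h2, h3, h4⟩
    have hl : (w.take t).length = t := by rw [List.length_take]; omega
    exact ⟨w.take t, ⟨⟨by omega, by omega⟩, h4⟩, List.take_prefix _ _⟩
  · rintro ⟨P, ⟨⟨h1, h2⟩, h3⟩, ⟨y, rfl⟩⟩
    exact ⟨P.length, h1, h2, by rw [List.length_append]; omega, by rw [List.take_left]; exact h3⟩

include hWo in
omit [Finite S] [Finite V] [Finite α] in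
theorem nw_le {w : List α} (h : ∀ t, D.z ≤ t → t < w.length → ¬ D.Wo (w.take t)) :
    nw n Sw w ≤ D.z + 1 := by
  classical
  unfold nw
  have hsub : ((Finset.range (w.length + 1)).filter (fun x => Wl n Sw w x)) ⊆
      insert (w.length - n) (Finset.range D.z) := by
    intro x hx
    obtain ⟨h1, h2⟩ := Finset.mem_filter.1 hx
    obtain ⟨h3, h4⟩ := WallU_228.wo_take.1 h2
    rw [← hWo] at h4
    by_cases hlt : x + n < w.length
    · have : ¬ D.z ≤ x + n := fun hz => h _ hz hlt h4
      exact Finset.mem_insert_of_mem (Finset.mem_range.2 (by omega))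
    · have : x = w.length - n := by omega
      rw [this]; exact Finset.mem_insert_self _ _
  refine (Finset.card_le_card hsub).trans ((Finset.card_insert_le _ _).trans ?_)
  rw [Finset.card_range]

variable (HF : ∀ (L : Language α), L.IsRegular → ∀ r, HL 1 ({w | w ∈ L ∧ nw n Sw w ≤ r} : Language α))
  {L0 Nm : ℕ} (hNm : 0 < Nm) (hL0 : L0 ≤ D.q0)
  (hper : ∀ a b : ℤ, (Nm : ℤ) ∣ a - b → (D.BadN a ↔ D.BadN b))
  (hnu : ∀ Q Q' : List α, L0 ≤ Q.length → L0 ≤ Q'.length → Q.take L0 = Q'.take L0 →
    Q.length % Nm = Q'.length % Nm → pr D.f (Q.drop L0) = pr D.f (Q'.drop L0) →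
    D.nu Q = D.nu Q')

include hWo HF hNm hper in
omit [Finite V] in
theorem hlBad : HL 1 D.Bad := by
  have hreg : Language.IsRegular ({X | D.BB X} : Language α) := by
    refine reg_key D.f 0 Nm hNm _ ?_
    intro w w' _ _ h
    show D.BadN _ ↔ D.BadN _
    apply hper
    have h1 : ((w.length : ℤ) - D.p0) - ((w'.length : ℤ) - D.p0) = (w.length : ℤ) - w'.length := by
      ring
    rw [h1]
    exact (Nat.modEq_iff_dvd.1 (show w'.length ≡ w.length [MOD Nm] from h.symm))
  have h2 := (D.hlXX hWo (k := 1)).inf ((D.hlE hWo (k := 1)).sup (HF _ hreg (D.z + 1)))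
  refine h2.congr fun w => ?_
  constructor
  · rintro ⟨h3, h4⟩
    refine ⟨h3, ?_⟩
    rcases h4 with h4 | h4
    · exact Or.inl h4
    · exact Or.inr ⟨h4, D.nw_le hWo h3.2.2⟩
  · rintro ⟨h3, h4⟩
    refine ⟨h3, ?_⟩
    rcases h4 with h4 | h4
    · exact Or.inl h4
    · exact Or.inr h4.1

include hWo HF hNm hL0 hnu in
omit [Finite V] in
theorem hlZT (x y : V) : HL 1 (ZT D.XX D.T x y) := by
  have hreg : Language.IsRegular ({X | D.p0 + L0 ≤ X.length ∧ D.T X x = y} : Language α) := by
    refine reg_key D.f (D.p0 + L0) Nm hNm _ ?_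
    intro w w' h1 h2 h3
    by_cases hlt : w.length < D.p0 + L0
    · have e1 : w.take (D.p0 + L0) = w := List.take_of_length_le (by omega)
      have e2 : (w'.take (D.p0 + L0)).length = w.length := by rw [← h1, e1]
      rw [List.length_take] at e2
      have e3 : w'.take (D.p0 + L0) = w' := List.take_of_length_le (by omega)
      have : w = w' := by rw [← e1, h1, e3]
      rw [this]
    · have e2 : (w'.take (D.p0 + L0)).length = (w.take (D.p0 + L0)).length := by rw [← h1]
      rw [List.length_take, List.length_take] at e2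
      have hw' : D.p0 + L0 ≤ w'.length := by omega
      have hw : D.p0 + L0 ≤ w.length := by omega
      have t1 : w.take D.p0 = w'.take D.p0 := by
        have := congrArg (List.take D.p0) h1
        rwa [List.take_take, List.take_take, min_eq_left (by omega)] at this
      have t2 : (w.drop D.p0).take L0 = (w'.drop D.p0).take L0 := by
        have := congrArg (List.drop D.p0) h1
        rwa [List.drop_take, List.drop_take, Nat.add_sub_cancel_left] at this
      have t3 : pr D.f ((w.drop D.p0).drop L0) = pr D.f ((w'.drop D.p0).drop L0) := by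
        rw [List.drop_drop, List.drop_drop]; exact h2
      have t4 : pr D.f (w.drop D.p0) = pr D.f (w'.drop D.p0) := by
        rw [← List.take_append_drop L0 (w.drop D.p0), ← List.take_append_drop L0 (w'.drop D.p0),
          pr_append, pr_append, t2, t3]
      have t5 : (w.drop D.p0).length % Nm = (w'.drop D.p0).length % Nm := by
        rw [List.length_drop, List.length_drop]
        have : w.length - D.p0 + D.p0 ≡ w'.length - D.p0 + D.p0 [MOD Nm] := by
          rw [Nat.sub_add_cancel (by omega), Nat.sub_add_cancel (by omega)]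
          exact h3
        exact Nat.ModEq.add_right_cancel' D.p0 this
      have t6 := hnu (w.drop D.p0) (w'.drop D.p0) (by rw [List.length_drop]; omega)
        (by rw [List.length_drop]; omega) t2 t5 t3
      show (D.p0 + L0 ≤ w.length ∧ D.T w x = y) ↔ (D.p0 + L0 ≤ w'.length ∧ D.T w' x = y)
      unfold T
      rw [t1, t4, t6]
      constructor
      · rintro ⟨_, h⟩; exact ⟨hw', h⟩
      · rintro ⟨_, h⟩; exact ⟨hw, h⟩
  refine ((D.hlXX hWo (k := 1)).inf (HF _ hreg (D.z + 1))).congr fun w => ?_
  constructor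
  · rintro ⟨h3, h4⟩
    refine ⟨h3, ⟨?_, h4⟩, D.nw_le hWo h3.2.2⟩
    have := h3.1
    have hz : D.z = D.p0 + D.q0 + D.N1 := rfl
    omega
  · rintro ⟨h3, ⟨_, h4⟩, _⟩
    exact ⟨h3, h4⟩

include hWo HF in
omit [Finite V] in
theorem hlTail (s : S) : HL 1 ({w | (∀ u ∈ D.XX, ¬ u <+: w) ∧ pr D.f w = s} : Language α) := by
  have hreg : Language.IsRegular ({w | pr D.f w = s} : Language α) := by
    refine reg_key D.f 0 1 one_pos _ ?_
    intro w w' _ h _
    rw [List.drop_zero, List.drop_zero] at h
    show pr D.f w = s ↔ pr D.f w' = s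
    rw [h]
  have h1 : HL 1 ({w | ¬ ∃ u ∈ D.XX, u <+: w} : Language α) :=
    HL.setOf_not (HL.prefix (D.hlXX hWo (k := 1)))
  refine (h1.inf (HF _ hreg (D.z + 1))).congr fun w => ?_
  constructor
  · rintro ⟨h3, h4⟩
    refine ⟨fun ⟨u, hu, hp⟩ => h3 u hu hp, h4, D.nw_le hWo ?_⟩
    intro t ht1 ht2 hW
    classical
    have hex : ∃ t, D.z ≤ t ∧ t < w.length ∧ D.Wo (w.take t) := ⟨t, ht1, ht2, hW⟩
    obtain ⟨g1, g2, g3⟩ := Nat.find_spec hex
    have hmin : ∀ r, D.z ≤ r → r < Nat.find hex → ¬ D.Wo (w.take r) := fun r a b c =>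
      Nat.find_min hex b ⟨a, by omega, c⟩
    have hl : (w.take (Nat.find hex)).length = Nat.find hex := by rw [List.length_take]; omega
    refine h3 (w.take (Nat.find hex)) ⟨by omega, g3, ?_⟩ (List.take_prefix _ _)
    intro r hr1 hr2
    rw [List.take_take, min_eq_left (by omega)]
    exact hmin r hr1 (by omega)
  · rintro ⟨h3, h4, _⟩
    exact ⟨fun u hu hp => h3 ⟨u, hu, hp⟩, h4⟩

include hWo HF hNm hL0 hper hnu in
theorem main (hact1 : ∀ v, D.act v 1 = v)
    (hactm : ∀ v s t, D.act v (s * t) = D.act (D.act v s) t)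
    (hacts : ∀ v w s, D.act (v - w) s = D.act v s - D.act w s)
    (hfaith : ∀ s t : S, (∀ v, D.act v s = D.act v t) → s = t) (s : S) :
    HL 3 ({w | pr D.f w = s} : Language α) := by
  refine Top5_110.top_sem (φ := pr D.f) (act := D.act) (XX := D.XX) (Bad := D.Bad) (T := D.T)
    (N1 := 0) (N2 := 1) (L1 := D.L1) (L2 := D.L2) (by simp [pr]) (pr_append D.f) hact1 hactm
    hfaith pc (fun u hu => hu.1) ?_ (D.hlXX hWo) (D.hlBad hWo HF hNm hper)
    (D.hlZT hWo HF hNm hL0 hnu) (fun s => (D.hlTail hWo HF s).mono (by norm_num)) ?_ ?_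
    C1 C2 s
  · intro u _ v v'
    unfold T
    have e : pr D.f u = pr D.f (u.take D.p0) * pr D.f (u.drop D.p0) := by
      rw [← pr_append, List.take_append_drop]
    rw [e, hactm, hacts, add_sub_add_right_eq_sub, ← hacts, add_sub_add_right_eq_sub]
  · intro v
    refine (List.finite_length_le α (D.p0 + D.N1)).subset ?_
    rintro p ⟨_, h, _⟩
    exact h.le
  · intro v
    refine (List.finite_length_le α D.p0).subset ?_
    rintro p ⟨k, hk, h, _⟩
    have := D.hc k hk
    show p.length ≤ D.p0
    omega

end heights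

end Dat

end Crest.Agent.R320.InstA_966
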