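import Crest.Agent.R320.InstC_18
import Crest.Agent.R320.ExactR_237

/-!
# Row 320, all words: height three from the U-gadget (helper18)
-/

set_option autoImplicit false

namespace Crest.Agent.R320.Inst_18

open Crest.RegLang Crest.Agent.R320.Hk_851 Crest.Agent.R320.Code110
open Crest.Agent.R320.FewWalls_228 Crest.Agent.R320.FewVal_228

variable {α : Type} {M V : Type} [Monoid M] [AddCommGroup V]

/-- the U-gadget with a ruler of `K` marks -/
structure UG (f : α → M) (act : V → M → V) (cB K : ℕ) where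
  N : ℕ
  Pm : ℕ
  Lb : ℕ
  c : ℕ → ℕ
  BT : ℕ → Prop
  lam : List α → Option V
  rho : List α → Option V
  nu : List α → V
  hN : 0 < N
  hPm : 0 < Pm
  inc : ∀ i j, i < j → j < K → c i < c j
  gol : ∀ i < K, ∀ j < K, ∀ k < K, ∀ l < K, i ≠ j → k ≠ l →
      c j + c k < c i + c l + 2 * N → c i + c l < c j + c k + 2 * N → i = k ∧ j = l
  sp : ∀ T, (∀ k < K, c k ≤ T) → ∃ Q : Finset (ℕ × ℕ), Q.card ≤ cB ∧
      ∀ i < K, ∀ j < K, i ≠ j → BT (T + c j - c i) → (i, j) ∈ Q
  per : ∀ a a', a % Pm = a' % Pm → BT a → BT a'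
  len : ∀ P v, lam P = some v → P.length ≤ N
  sound : ∀ P Q v b, lam P = some v → rho Q = some b →
      b = act v (ph f (P ++ Q)) + nu (P ++ Q)
  compl : ∀ Y : List α, ¬ BT Y.length → ∀ v, ∃ P Q, P ++ Q = Y ∧ lam P = some v ∧ (rho Q).isSome
  inv : ∀ Q Q' : List α, Lb ≤ Q.length → Lb ≤ Q'.length → Q.take Lb = Q'.take Lb →
      Q.length % Pm = Q'.length % Pm → ph f (Q.drop Lb) = ph f (Q'.drop Lb) → nu Q = nu Q'

theorem main [Finite α] [Finite M] [Finite V] (f : α → M) (act : V → M → V)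
    (hadd : ∀ a b s, act (a + b) s = act a s + act b s) (hone : ∀ v, act v 1 = v)
    (hmul : ∀ v s t, act v (s * t) = act (act v s) t)
    (hfaith : ∀ s t : M, (∀ v, act v s = act v t) → s = t) (cB : ℕ)
    (H : ∀ K, Nonempty (UG f act cB K)) (s : M) :
    HL 3 ({w | (w.map f).prod = s} : Language α) := by
  classical
  have := Fintype.ofFinite M
  have := Fintype.ofFinite V
  obtain ⟨K, hK⟩ := Crest.Agent.R320.ExactR_237.exact_gadget α M V f act (2 + 2 * cB)
  obtain ⟨G⟩ := H K
  obtain ⟨lam2, rho2, nu2, hex, hco⟩ := hK G.c G.inc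
  obtain ⟨Lam, hLam⟩ : ∃ Lam, ∀ k < K, G.c k ≤ Lam :=
    ⟨(Finset.range K).sup G.c, fun k hk => Finset.le_sup (Finset.mem_range.2 hk)⟩
  obtain ⟨n, cc, P, S, hn, hP, -, hgap, hper, -⟩ := exists_walls α (2 * Lam + 2 * G.N + 1)
    (by omega)
  obtain ⟨z, hz⟩ : ∃ z, z = Lam + 2 * Lam + 2 * G.N + n + 1 := ⟨_, rfl⟩
  have hsub : ∀ (a b : V) (s : M), act (a - b) s = act a s - act b s := by
    intro a b s
    have := hadd (a - b) b s
    rw [sub_add_cancel] at this
    rw [this, add_sub_cancel_right]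
  have hmod : ∀ a a' : ℕ, Lam ≤ a → Lam ≤ a' → a % G.Pm = a' % G.Pm →
      (a - Lam) % G.Pm = (a' - Lam) % G.Pm := by
    intro a a' h1 h2 h3
    have : (a - Lam) + Lam ≡ (a' - Lam) + Lam [MOD G.Pm] := by
      rw [Nat.sub_add_cancel h1, Nat.sub_add_cancel h2]; exact h3
    exact Nat.ModEq.add_right_cancel' Lam this
  have key := @Crest.Agent.R320.Top5_110.top_sem α M _ V _ (ph f) act (XX n S z)
    (Bad n S z G.N Lam G.BT) (TT f act Lam G.nu (fun u => nu2 u 1)) _ _ (by simp [ph])
    (ph_append f) hone hmul hfaith (XX_pc (by omega)) (fun u hu => hu.1) ?_ (HL_X n z S) ?_ ?_ ?_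
    0 1 (L1 f act Lam G.N (fun u => nu2 u 1) G.lam) (L2 K G.c lam2) ?_ ?_
    (c1 f act G.nu (fun u => nu2 u 1) G.lam G.rho G.BT (by omega) G.len G.sound G.compl)
    (c2 f act G.nu (fun u => nu2 u 1) K (2 + 2 * cB) G.c lam2 (fun k Q => rho2 k Q 1) G.BT
      hLam (by omega) ?_ ?_ ?_) s
  · exact key
  · -- hT
    intro u hu v v'
    unfold TT
    rw [add_sub_add_right_eq_sub, ← hsub, add_sub_add_right_eq_sub, ← hsub, ← hmul, ← ph_append,
      List.take_append_drop]
  · -- Bad
    refine HL_XX hn hP hper z (z + G.N + Lam) G.Pm G.hPm f (fun u =>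
      (∃ t, z ≤ t + G.N ∧ t < z + G.N ∧ t ≤ u.length ∧ Wo n S (u.take t)) ∨
        G.BT (u.length - Lam)) ?_
    rintro u u' h1 h2 h3 h4 h5 (⟨t, a1, a2, a3, a4⟩ | h)
    · left
      refine ⟨t, a1, a2, by omega, ?_⟩
      have e : ∀ x : List α, x.take t = (x.take (z + G.N + Lam)).take t := by
        intro x; rw [List.take_take, Nat.min_eq_left (by omega)]
      rw [e, ← h3, ← e]; exact a4
    · right
      exact G.per _ _ (hmod _ _ (by omega) (by omega) h5) h
  · -- ZT
    intro x y
    refine HL_XX hn hP hper z (Lam + G.Lb) G.Pm G.hPm f (fun u =>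
      TT f act Lam G.nu (fun u => nu2 u 1) u x = y) ?_
    intro u u' h1 h2 h3 h4 h5 h
    have e1 : u.take Lam = u'.take Lam := by
      have : ∀ x : List α, x.take Lam = (x.take (Lam + G.Lb)).take Lam := by
        intro x; rw [List.take_take, Nat.min_eq_left (by omega)]
      rw [this u, this u', h3]
    have e2 : (u.drop Lam).take G.Lb = (u'.drop Lam).take G.Lb := by
      have : ∀ x : List α, (x.drop Lam).take G.Lb = (x.take (Lam + G.Lb)).drop Lam := by
        intro x; rw [List.drop_take, Nat.add_sub_cancel_left]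
      rw [this u, this u', h3]
    have e3 : ph f ((u.drop Lam).drop G.Lb) = ph f ((u'.drop Lam).drop G.Lb) := by
      rw [List.drop_drop, List.drop_drop]; exact h4
    have e4 : ph f (u.drop Lam) = ph f (u'.drop Lam) := by
      rw [← List.take_append_drop G.Lb (u.drop Lam), ← List.take_append_drop G.Lb (u'.drop Lam),
        ph_append, ph_append, e2, e3]
    have e5 : G.nu (u.drop Lam) = G.nu (u'.drop Lam) := by
      refine G.inv _ _ (by rw [List.length_drop]; omega) (by rw [List.length_drop]; omega) e2 ?_ e3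
      rw [List.length_drop, List.length_drop]
      exact hmod _ _ (by omega) (by omega) h5
    rw [← h]
    unfold TT
    rw [e1, e4, e5]
  · intro s
    exact HL_tail hn hP hper z f s
  · intro v
    exact (List.finite_length_le α (Lam + G.N)).subset fun p hp => hp.2.1
  · intro v
    refine (List.finite_length_le α Lam).subset fun p hp => ?_
    obtain ⟨k, hk, h, -⟩ := hp
    exact h.le.trans (hLam k hk)
  · intro k hk P' Q v b h1 h2 h3
    have := hex k hk P' Q 1 v b h1 h2 h3
    rw [mul_one] at this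
    exact this
  · intro X v hX
    exact hco X 1 v (fun k hk => by rw [hX]; exact hLam k hk)
  · exact spoil_count G.BT K Lam cB (2 * Lam + 2 * G.N + 1) G.c hLam le_rfl (by omega) (by omega)
      hgap G.gol (fun T hT => G.sp T fun k hk => (hLam k hk).trans hT) G.hN

end Crest.Agent.R320.Inst_18
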