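import Crest.Agent.R320.InstC_184

/-!
# Row 320: height three on all words from the U-gadget (helper184)
-/

set_option autoImplicit false

namespace Crest.Agent.R320.Inst_184

open Crest.RegLang Crest.Agent.R320.Hk_851 Crest.Agent.R320.Blk467
  Crest.Agent.R320.FewWalls_228 Crest.Agent.R320.WallU_228

/-- walls -/
theorem walls184 (α : Type) [Finite α] (G : ℕ) :
    ∃ (n : ℕ) (S0 : Set (List α)),
      (∀ P Q : List α, n ≤ Q.length → (Wo n S0 (P ++ Q) ↔ Wo n S0 Q)) ∧
      (∀ (X : List α) (t t' : ℕ), t < t' → t' ≤ X.length → Wo n S0 (X.take t) →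
        Wo n S0 (X.take t') → t + G < t') ∧
      (∀ (r : ℕ) (M : Type) [Monoid M] [Finite M] (φ : α → M) (s : M),
        HL 1 ({w | nw n S0 w ≤ r ∧ (w.map φ).prod = s} : Language α)) := by
  obtain ⟨n, c, P, S, hn, hP, hS, hsep, hper⟩ :=
    Crest.Agent.R320.Mk263.marker (α := α) (G + 1) (by omega)
  refine ⟨n, S, fun P Q h => wo_append P Q h, ?_, fun r M _ _ φ s =>
    Crest.Agent.R320.FewVal_228.HL_few_value hn hP hper r φ s⟩
  intro X t t' htt ht' h1 h2
  have a1 : n ≤ t := by
    have := h1.1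
    rw [List.length_take] at this
    omega
  have e1 := (wo_take (n := n) (S := S) (u := X) (x := t - n)).2
    ⟨by omega, by rwa [show t - n + n = t by omega]⟩
  have e2 := (wo_take (n := n) (S := S) (u := X) (x := t' - n)).2
    ⟨by omega, by rwa [show t' - n + n = t' by omega]⟩
  have := hsep X (t - n) (t' - n) (by omega) e2.1 e1.2 e2.2
  omega

open Classical in
theorem main {α S V : Type} [Finite α] [Monoid S] [Finite S] [AddCommGroup V] [Finite V]
    (φ : α → S) (act : V → S → V)
    (hadd : ∀ a b s, act (a + b) s = act a s + act b s)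
    (hone : ∀ v, act v 1 = v) (hmul : ∀ v s t, act v (s * t) = act (act v s) t)
    (hfaith : ∀ s t, (∀ v, act v s = act v t) → s = t)
    (hU : UGI S V act) (s : S) : HL 3 ({w | (w.map φ).prod = s} : Language α) := by
  obtain ⟨C0, hU⟩ := hU
  haveI := Fintype.ofFinite S
  haveI := Fintype.ofFinite V
  obtain ⟨K, hK⟩ := ExactR_237.exact_gadget α S V φ act (2 + 2 * C0)
  obtain ⟨N1, Pm, La, c, Bd, hPm, hcm, hgol, hper, hsp, hg⟩ := hU K
  obtain ⟨lam2, rho2, nu2', hs2, hc2⟩ := hK c hcm
  obtain ⟨lam1, rho1, nu1, hlen1, hs1, hc1, hloc⟩ := hg α φ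
  set p0 := (Finset.range K).sup c with hp0
  have hcp : ∀ k < K, c k ≤ p0 := fun k hk => Finset.le_sup (f := c) (Finset.mem_range.2 hk)
  obtain ⟨n, S0, hW, hgap, HF⟩ := walls184 α (2 * p0 + 2 * N1 + 2)
  let nu2 : List α → V := fun X => nu2' X 1
  obtain ⟨z, hz⟩ : ∃ z, z = 2 * p0 + 2 * N1 + La + n + 1 := ⟨_, rfl⟩
  let T : V → List α → V := fun v X => act v (X.map φ).prod + nuX φ act p0 nu2 nu1 X
  have hT' : ∀ (v : V) (X1 Y : List α), X1.length = p0 → T v (X1 ++ Y) =
      act (act v (X1.map φ).prod + nu2 X1) (Y.map φ).prod + nu1 Y :=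
    fun v X1 Y h => T_eq' φ act p0 nu2 nu1 hadd hmul v X1 Y h
  let BB : Set (List α) := Bad (Wo n S0) z p0 N1 Bd
  have hpc : PCode (XX (Wo n S0) z) := pcode (by omega)
  let LP1 : V → Language α := fun v => {P | p0 ≤ P.length ∧ P.length ≤ p0 + N1 ∧
    lam1 (P.drop p0) = some (act v ((P.take p0).map φ).prod + nu2 (P.take p0))}
  let D1 : V → V → Language α := fun v b => {X | X ∈ XX (Wo n S0) z ∧ T v X = b}
  let RQ1 : V → Language α := fun b => {Q | ∀ v : V, ∀ P ∈ LP1 v, P ++ Q ∈ D1 v b}
  let LP2 : V → Language α := fun v => {P | ∃ k < K, P.length = c k ∧ lam2 k P = some v}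
  let D2 : V → V → Language α := fun v b =>
    {w | ∃ X X' : List α, X ∈ BB ∧ X' ∈ BB ∧ X ++ X' = w ∧ T (T v X) X' = b}
  let RQ2 : V → Language α := fun b => {Q | (z ≤ Q.length ∧ Wo n S0 Q) ∧
    ∀ v : V, ∀ P ∈ LP2 v, (∃ X ∈ BB, X <+: P ++ Q) → P ++ Q ∈ D2 v b}
  -- heights
  have hBB : HL 1 (BB : Language α) := HL_Bad HF hPm hper (by omega)
  have hD1 : ∀ v b, HL 1 (D1 v b) := fun v b =>
    HL_D1 HF hPm (by omega) φ act nu2 nu1 hadd hmul hloc v b
  have hDB : ∀ v b, HL 1 ({X | X ∈ BB ∧ T v X = b} : Language α) := by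
    intro v b
    refine (HL.inf hBB (hD1 v b)).congr fun w => Iff.symm ?_
    constructor
    · rintro ⟨h1, h2⟩
      exact ⟨h1, h2.2⟩
    · rintro ⟨h1, h2⟩
      exact ⟨h1, h1.1, h2⟩
  have hD2 : ∀ v b, HL 1 (D2 v b) := by
    intro v b
    let E : V → V → Language α := fun v b => {X | X ∈ BB ∧ T v X = b}
    refine (HL.iUnion (k := 1) (ι := V) (L := fun u => E v u * E u b)
      (fun u => HL.mul (L := E v u) (M := E u b) (hDB v u) (hDB u b))).congr
        fun w => Iff.symm ?_
    constructor
    · rintro ⟨u, hu⟩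
      obtain ⟨X, ⟨h1, h2⟩, X', ⟨h3, h4⟩, rfl⟩ := Language.mem_mul.1 hu
      exact ⟨X, X', h1, h3, rfl, by rw [h2]; exact h4⟩
    · rintro ⟨X, X', h1, h3, rfl, h4⟩
      exact ⟨T v X, Language.mem_mul.2 ⟨X, ⟨h1, rfl⟩, X', ⟨h3, h4⟩, rfl⟩⟩
  have fLP1 : ∀ v, (LP1 v : Set (List α)).Finite := fun v =>
    (List.finite_length_le α (p0 + N1)).subset fun P hP => hP.2.1
  have fLP2 : ∀ v, (LP2 v : Set (List α)).Finite := by
    intro v
    refine (List.finite_length_le α p0).subset ?_
    rintro P ⟨k, hk, h1, h2⟩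
    have h3 := hcp k hk
    show P.length ≤ p0
    omega
  have hRQ1 : ∀ b, HL 1 (RQ1 b) := by
    intro b
    refine (HL.iInter (k := 1) (ι := V) (L := fun v =>
      ({Q | ∀ P ∈ LP1 v, Q ∈ ({Q | P ++ Q ∈ D1 v b} : Language α)} : Language α))
      (fun v => HL.biInter (fLP1 v) (fun P _ => HL.lquot P (hD1 v b)))).congr
        fun w => Iff.rfl
  have hRQ2 : ∀ b, HL 1 (RQ2 b) := by
    intro b
    have h1 : HL 1 ({Q | z ≤ Q.length ∧ Wo n S0 Q} : Language α) :=
      HL.setOf_and (HL.length_ge z) (HL_Wo n S0 1)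
    have h2 : ∀ v : V, ∀ P ∈ LP2 v,
        HL 1 ({Q | (∃ X ∈ BB, X <+: P ++ Q) → P ++ Q ∈ D2 v b} : Language α) := by
      intro v P _
      exact HL.lquot P (L := ({w | (∃ X ∈ BB, X <+: w) → w ∈ D2 v b} : Language α))
        (HL.setOf_imp (HL.prefix hBB) (hD2 v b))
    have h3 := HL.iInter (k := 1) (ι := V) (L := fun v =>
      ({Q | ∀ P ∈ LP2 v, Q ∈ ({Q | (∃ X ∈ BB, X <+: P ++ Q) → P ++ Q ∈ D2 v b} :
        Language α)} : Language α)) (fun v => HL.biInter (fLP2 v) (fun P hP => h2 v P hP))
    exact (HL.setOf_and h1 h3).congr fun w => Iff.rfl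
  have htail : ∀ s, HL 3 ({w | (∀ X ∈ XX (Wo n S0) z, ¬ X <+: w) ∧ (w.map φ).prod = s} :
      Language α) := by
    intro s
    have h1 : HL 1 ({w | ¬ ∃ X ∈ XX (Wo n S0) z, X <+: w} : Language α) :=
      HL.setOf_not (HL.prefix (HL_XX n S0 z 1))
    refine (HL.mono (by omega) (HL.setOf_and h1 (HF z S φ s))).congr fun w => Iff.symm ?_
    constructor
    · rintro ⟨g1, g2, g3⟩
      exact ⟨fun X hX hp => g1 ⟨X, hX, hp⟩, g3⟩
    · rintro ⟨g1, g2⟩
      exact ⟨fun ⟨X, hX, hp⟩ => g1 X hX hp, nw_tail g1, g2⟩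
  refine Crest.Agent.R320.Top5_467.top5 φ act hadd hone hmul hfaith (nuX φ act p0 nu2 nu1) (XX (Wo n S0) z) BB hpc
    (fun X hX => hX.1) LP1 RQ1 LP2 RQ2 ?_ ?_ ?_ ?_ hBB
    (fun v => HL.finite (fLP2 v)) hRQ2 (fun v => HL.finite (fLP1 v))
    (fun v => HL.mono (by omega) (hRQ1 v)) (fun v v' => HL.mono (by omega) (hDB v v'))
    htail s
  · -- s1
    intro v b P Q hP hQ
    exact hQ v P hP
  · -- c1
    intro X hX hXb v
    have hn1 : ¬ (X.length < z + N1 ∨ (∃ t, z ≤ t + N1 ∧ t < z ∧ Wo n S0 (X.take t)) ∨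
        Bd (X.length - p0)) := fun h => hXb ⟨hX, h⟩
    push Not at hn1
    obtain ⟨b1, b2, b3⟩ := hn1
    have lY : (X.drop p0).length = X.length - p0 := List.length_drop
    have lX1 : (X.take p0).length = p0 := by rw [List.length_take]; omega
    obtain ⟨p, q, hpq, hp, hq⟩ := hc1 (X.drop p0) (by rw [lY]; omega) (by rw [lY]; exact b3)
      (act v ((X.take p0).map φ).prod + nu2 (X.take p0))
    obtain ⟨r, hr⟩ := Option.isSome_iff_exists.1 hq
    have hlp := hlen1 p _ hp
    have lpq : p.length + q.length = X.length - p0 := by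
      rw [← lY, ← hpq, List.length_append]
    have eX : (X.take p0 ++ p) ++ q = X := by
      rw [List.append_assoc, hpq, List.take_append_drop]
    have e1 : (X.take p0 ++ p).take p0 = X.take p0 := by
      rw [List.take_append_of_le_length (by omega), List.take_of_length_le (by omega)]
    have e2 : (X.take p0 ++ p).drop p0 = p := by
      rw [List.drop_append_of_le_length (by omega), List.drop_of_length_le (by omega),
        List.nil_append]
    refine ⟨X.take p0 ++ p, q, eX, ⟨?_, ?_, ?_⟩, ?_⟩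
    · rw [List.length_append]; omega
    · rw [List.length_append]; omega
    · rw [e1, e2]; exact hp
    · intro v' P' hP'
      obtain ⟨c1, c2, c3⟩ := hP'
      have lP' : (P'.take p0).length = p0 := by rw [List.length_take]; omega
      refine ⟨?_, ?_⟩
      · refine XX_move hW (X.take p0 ++ p) P' q (by rw [eX]; exact hX) (by omega) (by omega)
          (by omega) ?_
        intro t h1 h2 h3
        rw [eX]
        rw [List.length_append] at h2
        exact b2 t (by omega) h3
      · have h1 := hs1 _ q _ r c3 hr (by omega)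
        have h2 := hs1 _ q _ r hp hr (by omega)
        have h3 : P' ++ q = P'.take p0 ++ (P'.drop p0 ++ q) := by
          rw [← List.append_assoc, List.take_append_drop]
        have h4 : X = X.take p0 ++ (p ++ q) := by rw [← List.append_assoc, eX]
        rw [h3, hT' v' _ _ lP', ← h1, h2]
        show _ = T v X
        conv_rhs => rw [h4]
        rw [hT' v _ _ lX1]
  · -- s2
    intro v b P Q r hP hQ h
    obtain ⟨l, hl, hfl⟩ := h
    obtain ⟨⟨q1, q2⟩, q3⟩ := hQ
    have hwpq : Wo n S0 ((P ++ Q).take (P ++ Q).length) := by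
      rw [List.take_length, hW _ _ (by omega)]
      exact q2
    obtain ⟨X'', hX'', hpre⟩ := ex_XX (z := z) (P ++ Q) (P ++ Q).length le_rfl
      (by rw [List.length_append]; omega) hwpq
    cases l with
    | nil =>
      exfalso
      have := congrArg List.length hfl
      rw [List.flatten_nil, List.length_append, List.length_append, List.length_nil] at this
      omega
    | cons X l =>
      have hX : X ∈ BB := hl X (by simp)
      have hXp : X <+: P ++ Q ++ r := ⟨l.flatten, by rw [← hfl, List.flatten_cons]⟩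
      have hXp' : X'' <+: P ++ Q ++ r := hpre.trans (List.prefix_append _ _)
      have e : X = X'' := by
        rcases List.prefix_or_prefix_of_prefix hXp hXp' with h | h
        · exact hpc.2 X hX.1 X'' hX'' h
        · exact (hpc.2 X'' hX'' X hX.1 h).symm
      obtain ⟨Y, Y', g1, g2, g3, g4⟩ := q3 v P hP ⟨X, hX, by rw [e]; exact hpre⟩
      exact ⟨[Y, Y'], by intro Z hZ; simp at hZ; rcases hZ with rfl | rfl <;> assumption,
        by simpa using g3, g4⟩
  · -- c2
    intro X hX X' hX' v
    have lX := hX.1.1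
    have lX' := hX'.1.1
    have lX1 : (X.take p0).length = p0 := by rw [List.length_take]; omega
    obtain ⟨I, hI, hIk⟩ := hc2 (X.take p0) 1 v (by intro k hk; rw [lX1]; exact hcp k hk)
    have hspo := spoil (Bd := Bd) hW hgap hz hcp hgol hsp X X' hX.1 hX'.1
    obtain ⟨k, hkI, hk⟩ : ∃ k ∈ I, ∀ j < K, j ≠ k → ¬ ∃ P' X'' : List α, P'.length = c j ∧
        X'' ∈ BB ∧ X'' <+: P' ++ (X ++ X').drop (c k) := by
      by_contra hcon
      push Not at hcon
      have hsub : I ⊆ (((Finset.range K ×ˢ Finset.range K).filter (fun p => p.1 ≠ p.2 ∧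
          ∃ P' X'' : List α, P'.length = c p.2 ∧ X'' ∈ Bad (Wo n S0) z p0 N1 Bd ∧
            X'' <+: P' ++ (X ++ X').drop (c p.1)))).image Prod.fst := by
        intro k hk
        obtain ⟨j, hj, hjk, P', X'', g1, g2, g3⟩ := hcon k hk
        refine Finset.mem_image.2 ⟨(k, j), Finset.mem_filter.2 ⟨Finset.mem_product.2
          ⟨Finset.mem_range.2 (hIk k hk).1, Finset.mem_range.2 hj⟩, fun h => hjk h.symm,
          P', X'', g1, g2, g3⟩, rfl⟩
      have h1 := (Finset.card_le_card hsub).trans Finset.card_image_le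
      omega
    obtain ⟨hkK, hl2, hr2⟩ := hIk k hkI
    have ck := hcp k hkK
    obtain ⟨g, hg2⟩ := Option.isSome_iff_exists.1 hr2
    have et : (X.take p0).take (c k) = X.take (c k) := by
      rw [List.take_take, Nat.min_eq_left ck]
    have ed : (X.take p0).drop (c k) ++ X.drop p0 = X.drop (c k) := by
      have h1 := List.take_append_drop p0 X
      conv_rhs => rw [← h1]
      rw [List.drop_append_of_le_length (by omega)]
    have eQ : (X ++ X').drop (c k) = X.drop (c k) ++ X' :=
      List.drop_append_of_le_length (by omega)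
    have eP : X.take (c k) ++ X.drop (c k) = X := List.take_append_drop _ _
    have lP : (X.take (c k)).length = c k := by rw [List.length_take]; omega
    have lD : (X.drop (c k)).length = X.length - c k := List.length_drop
    refine ⟨X.take (c k), X.drop (c k) ++ X', by rw [← List.append_assoc, eP],
      ⟨k, hkK, lP, by rw [← et]; exact hl2⟩, ⟨⟨?_, ?_⟩, ?_⟩⟩
    · rw [List.length_append]; omega
    · rw [hW _ _ (by omega)]
      exact hX'.1.2.1
    · intro v' P' hP' hex
      obtain ⟨X'', hX'', hpre⟩ := hex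
      obtain ⟨j, hj, lj, hlj⟩ := hP'
      by_cases hjk : j = k
      · subst hjk
        have hblk : P' ++ X.drop (c j) ∈ XX (Wo n S0) z := by
          refine XX_move hW (X.take (c j)) P' (X.drop (c j)) (by rw [eP]; exact hX.1)
            (by omega) (by omega) (by omega) ?_
          intro t h1 h2 h3
          omega
        have e : X'' = P' ++ X.drop (c j) := by
          have hp2 : P' ++ X.drop (c j) <+: P' ++ (X.drop (c j) ++ X') :=
            ⟨X', by rw [List.append_assoc]⟩
          rcases List.prefix_or_prefix_of_prefix hpre hp2 with h | h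
          · exact hpc.2 _ hX''.1 _ hblk h
          · exact (hpc.2 _ hblk _ hX''.1 h).symm
        have hval : T v' (P' ++ X.drop (c j)) = T v X := by
          have h1 : P' ++ X.drop (c j) = (P' ++ (X.take p0).drop (c j)) ++ X.drop p0 := by
            rw [List.append_assoc, ed]
          have h2 : (P' ++ (X.take p0).drop (c j)).length = p0 := by
            rw [List.length_append, List.length_drop, lX1, lj]; omega
          have h3 := hs2 j hj P' ((X.take p0).drop (c j)) 1 v' g lj hlj hg2
          have h4 := hs2 j hj ((X.take p0).take (c j)) ((X.take p0).drop (c j)) 1 v g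
            (by rw [et]; exact lP) hl2 hg2
          rw [List.take_append_drop, mul_one] at h4
          rw [mul_one] at h3
          rw [h1, hT' v' _ _ h2]
          conv_rhs => rw [← List.take_append_drop p0 X]
          rw [hT' v _ _ lX1]
          have h5 : act v' ((P' ++ (X.take p0).drop (c j)).map φ).prod +
              nu2 (P' ++ (X.take p0).drop (c j)) = g := h3.symm
          have h6 : act v ((X.take p0).map φ).prod + nu2 (X.take p0) = g := h4.symm
          rw [h5, h6]
        refine ⟨P' ++ X.drop (c j), X', by rw [← e]; exact hX'', hX',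
          by rw [List.append_assoc], ?_⟩
        rw [hval]
      · exfalso
        refine hk j hj hjk ⟨P', X'', lj, hX'', ?_⟩
        rw [eQ]
        exact hpre

end Crest.Agent.R320.Inst_184
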