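import Crest.Agent.R320.InstB_242
import Crest.Agent.R320.InstC_242
import Crest.Agent.R320.Top5_120
import Crest.Agent.R320.ExactR_237

/-!
# Row 320: from the gadget of scheme 1 on all words (`UGI`) to height three (helper242)
-/

set_option autoImplicit false

namespace Crest.Agent.R320.InstA_242

open Crest.RegLang Crest.Agent.R320.Hk_851 Crest.Agent.R320.FewWalls_228

open Classical in
/-- the gadget of scheme 1 on all words (772's corrected literal; `Type` only) -/
def UGI (S V : Type) [Monoid S] [AddCommGroup V] (act : V → S → V) : Prop :=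
  ∃ C0 : ℕ, ∀ K : ℕ, ∃ (N1 Pm La : ℕ) (c : ℕ → ℕ) (Bad : ℕ → Prop), 0 < Pm ∧
    (∀ i j, i < j → j < K → c i < c j) ∧
    (∀ i j k l, i < K → j < K → k < K → l < K → i ≠ j → k ≠ l → (i, j) ≠ (k, l) →
      c i + c l + 4 * N1 < c k + c j ∨ c k + c j + 4 * N1 < c i + c l) ∧
    (∀ T, Bad (T + Pm) ↔ Bad T) ∧
    (∀ T, La ≤ T → ((Finset.range K ×ˢ Finset.range K).filter
      (fun ab => ab.1 ≠ ab.2 ∧ Bad (T + c ab.2 - c ab.1))).card ≤ C0) ∧
    ∀ (A : Type) (phi : A → S), ∃ (lam rho : List A → Option V) (nu : List A → V),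
      (∀ p v, lam p = some v → p.length ≤ N1) ∧
      (∀ p q v r, lam p = some v → rho q = some r → La ≤ q.length →
        r = act v ((p ++ q).map phi).prod + nu (p ++ q)) ∧
      (∀ w : List A, La ≤ w.length → ¬ Bad w.length → ∀ v, ∃ p q, p ++ q = w ∧ lam p = some v ∧
        (rho q).isSome) ∧
      (∀ q q2 : List A, La ≤ q.length → La ≤ q2.length → q.take La = q2.take La →
        q.length % Pm = q2.length % Pm → ((q.drop La).map phi).prod = ((q2.drop La).map phi).prod →
        rho q = rho q2 ∧ nu q = nu q2)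

theorem per_mod {BT : ℕ → Prop} {Pm : ℕ} (h : ∀ T, BT (T + Pm) ↔ BT T) {a b : ℕ}
    (hab : a % Pm = b % Pm) : BT a ↔ BT b := by
  have key : ∀ q r, BT (r + Pm * q) ↔ BT r := by
    intro q r
    induction q with
    | zero => simp
    | succ q ih => rw [Nat.mul_succ, ← Nat.add_assoc, h, ih]
  rw [← Nat.mod_add_div a Pm, ← Nat.mod_add_div b Pm, key, key, hab]

theorem value_step {α S V : Type} [Monoid S] [AddCommGroup V] (act : V → S → V) (φ : α → S)
    (nu1 nu2 : List α → V) {p0 La Pm : ℕ}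
    (hnu : ∀ q q2 : List α, La ≤ q.length → La ≤ q2.length → q.take La = q2.take La →
        q.length % Pm = q2.length % Pm → ((q.drop La).map φ).prod = ((q2.drop La).map φ).prod →
        nu1 q = nu1 q2) (x : V) (u m m' : List α) (hu : u.length = p0 + La)
    (h1 : (m.map φ).prod = (m'.map φ).prod) (h2 : m.length % Pm = m'.length % Pm) :
    act x ((u ++ m).map φ).prod + nuT act φ nu1 nu2 p0 (u ++ m) =
      act x ((u ++ m').map φ).prod + nuT act φ nu1 nu2 p0 (u ++ m') := by
  have e1 : ∀ w : List α, (u ++ w).take p0 = u.take p0 := fun w =>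
    List.take_append_of_le_length (by omega)
  have e2 : ∀ w : List α, (u ++ w).drop p0 = u.drop p0 ++ w := fun w =>
    List.drop_append_of_le_length (by omega)
  have hdl : (u.drop p0).length = La := by rw [List.length_drop]; omega
  have e3 : nu1 (u.drop p0 ++ m) = nu1 (u.drop p0 ++ m') := by
    apply hnu
    · rw [List.length_append]; omega
    · rw [List.length_append]; omega
    · rw [List.take_append_of_le_length (by omega), List.take_append_of_le_length (by omega)]
    · rw [List.length_append, List.length_append]; exact Nat.ModEq.add_left _ h2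
    · have e4 : ∀ w : List α, (u.drop p0 ++ w).drop La = w := fun w => by
        rw [← hdl, List.drop_left]
      rw [e4, e4, h1]
  unfold nuT
  rw [e1, e1, e2, e2, e3]
  unfold ph
  simp only [List.map_append, List.prod_append, h1]

theorem main {α S V : Type} [Finite α] [Monoid S] [Finite S] [AddCommGroup V] [Finite V]
    (act : V → S → V) (hadd : ∀ a b s, act (a + b) s = act a s + act b s)
    (hone : ∀ v, act v 1 = v) (hmul : ∀ v s t, act v (s * t) = act (act v s) t)
    (hfaith : ∀ s t, (∀ v, act v s = act v t) → s = t)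
    (hU : UGI S V act) (φ : α → S) (s : S) : HL 3 ({w | (w.map φ).prod = s} : Language α) := by
  classical
  haveI := Fintype.ofFinite S
  haveI := Fintype.ofFinite V
  obtain ⟨C0, hU⟩ := hU
  obtain ⟨K, hK⟩ := ExactR_237.exact_gadget α S V φ act (2 + 2 * C0)
  obtain ⟨N1, Pm, La, c, BT, hPm, hmono, hgol, hper, hthin, hG⟩ := hU K
  obtain ⟨lam1, rho1, nu1, hl, hs1, hc1, hloc⟩ := hG α φ
  obtain ⟨lam2, rho2, nu', hs2, hc2⟩ := hK c hmono
  -- bound on the places
  obtain ⟨Cm, hCm⟩ : ∃ Cm, ∀ k < K, c k ≤ Cm :=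
    ⟨∑ k ∈ Finset.range K, c k, fun k hk =>
      Finset.single_le_sum (f := c) (fun _ _ => Nat.zero_le _) (Finset.mem_range.2 hk)⟩
  obtain ⟨n, cc, P, Sw, hn, hP, hSw, hsep, hpo, -⟩ :=
    FewVal_228.exists_walls α (2 * (Cm + N1) + 1) (by omega)
  set p0 := Cm with hp0
  set z := p0 + La + Cm + Cm + N1 + N1 + n + 1 with hz
  set nu2 : List α → V := fun w => nu' w 1 with hnu2
  have hCT : ∀ (BTT : ℕ → Prop) (_ : ∀ T, BTT (T + Pm) ↔ BTT T) (x y : V),
      HL 1 ({X | X ∈ CC n Sw z ∧ (act x (X.map φ).prod + nuT act φ nu1 nu2 p0 X = y ∧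
        BTT (X.length - p0))} : Language α) := by
    intro BTT hBTT x y
    refine HL_fam hn hP hpo hSw φ hPm (p1 := p0 + La) (z := z) (by omega) _ ?_
    rintro u m m' hu h1 h2 ⟨h3, h4⟩
    refine ⟨?_, ?_⟩
    · rw [← value_step act φ nu1 nu2 (fun q q2 a b c d e => (hloc q q2 a b c d e).2) x u m m'
        hu h1 h2]
      exact h3
    · refine (per_mod hBTT ?_).1 h4
      have e : ∀ w : List α, (u ++ w).length - p0 = La + w.length := fun w => by
        rw [List.length_append]; omega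
      rw [e, e]; exact Nat.ModEq.add_left _ h2
  have hCT' : ∀ x y, HL 1 ({X | X ∈ CC n Sw z ∧
      act x (X.map φ).prod + nuT act φ nu1 nu2 p0 X = y} : Language α) := fun x y =>
    (hCT (fun _ => True) (fun _ => Iff.rfl) x y).congr fun X =>
      ⟨fun ⟨h1, h2⟩ => ⟨h1, h2, trivial⟩, fun ⟨h1, h2, _⟩ => ⟨h1, h2⟩⟩
  refine Top5_120.top5 act hadd hone hmul hfaith φ (nuT act φ nu1 nu2 p0) (CC n Sw z)
    (Bd n Sw z N1 p0 BT) (cc_code (by omega)) (fun X hX => hX.1)
    (L1 act φ nu2 lam1 p0 N1) (L2 lam2 c K) ?_ ?_ hCT' ?_ ?_ ?_ ?_ s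
  · intro v
    exact (List.finite_length_le α (p0 + N1)).subset fun P hP => hP.2.1
  · intro v
    refine (List.finite_length_le α Cm).subset ?_
    rintro P ⟨k, hk, h1, -⟩
    show P.length ≤ Cm
    rw [h1]; exact hCm k hk
  · intro x y
    refine (((hCT' x y).setOf_and (HL_EE (n := n) (Sw := Sw) z N1)).setOf_or
      (hCT BT hper x y)).congr fun X => ?_
    constructor
    · rintro ⟨⟨h1, h2 | h2⟩, h3⟩
      · exact Or.inl ⟨⟨h1, h3⟩, h2⟩
      · exact Or.inr ⟨h1, h3, h2⟩
    · rintro (⟨⟨h1, h3⟩, h2⟩ | ⟨h1, h3, h2⟩)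
      · exact ⟨⟨h1, Or.inl h2⟩, h3⟩
      · exact ⟨⟨h1, Or.inr h2⟩, h3⟩
  · intro t
    exact HL_tail hn hP hpo hSw φ z t
  · exact cc1 hadd hmul φ nu1 nu2 (La := La) (by omega) (by omega) hl hs1 hc1
  · exact cc2 hadd hmul φ nu1 nu2 (La := La) (Cm := Cm) (W := 2 * (Cm + N1) + 1) hsep (by omega)
      hCm le_rfl (by omega) (by omega) hgol hthin (fun _ => rfl) hs2 hc2

end Crest.Agent.R320.InstA_242
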