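import Crest.Agent.R320.InstC_377

/-!
# Row 320: instance on ALL words (helper377), part D: heights
-/

set_option autoImplicit false
set_option linter.unusedSectionVars false

namespace Crest.Agent.R320.Inst_377

open Crest.Agent.R320.Hk_851 Crest.Agent.R320.FewWalls_228 Crest.Agent.R320.Code110
  Crest.Agent.R320.Top5_110 Crest.Agent.R320.ExactR_237 Crest.Agent.R320.FewVal_228

variable {α : Type} {n : ℕ} {S : Set (List α)}

theorem wl_wa {w : List α} {x : ℕ} : Wl n S w x ↔ WA n S w (x + n) := by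
  unfold Wl WA
  rw [Nat.add_sub_cancel]
  constructor
  · rintro ⟨h1, h2⟩; exact ⟨by omega, h1, h2⟩
  · rintro ⟨-, h1, h2⟩; exact ⟨h1, h2⟩

theorem free {c P : ℕ} (hn : 0 < n) (hP : 0 < P) (hper : PerOff n c P S) (u : List α)
    (h : ∀ t < u.length, ¬ Wo n S (u.take t)) :
    u ∈ (BddReg_746.PN (2 * c + P) 5 : Language α) := by
  classical
  have hw : nw n S u ≤ 1 := by
    unfold nw
    rw [Finset.card_le_one]
    intro x hx y hy
    have hx' := (Finset.mem_filter.1 hx).2
    have hy' := (Finset.mem_filter.1 hy).2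
    have key : ∀ x, Wl n S u x → x + n = u.length := by
      intro x hx
      by_contra hne
      have h1 := WA_iff.1 (wl_wa.1 hx)
      exact h _ (by omega) h1.2
    have := key x hx'
    have := key y hy'
    omega
  obtain ⟨l, h1, h2, h3⟩ := pieces hn hP hper 1 u hw
  rw [h3]
  exact val_mem_PN _ l h2 5 (by omega)

section
variable [Finite α] {z c P : ℕ}

theorem hl_f (hn : 0 < n) (hP : 0 < P) (hper : PerOff n c P S) {f : List α → Prop}
    (hf : Language.IsRegular ({u | f u} : Language α)) :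
    HL 1 ({X | X ∈ XX n S z ∧ f X} : Language α) :=
  (P4_933.hl_XX (z := z) (Wo := Wo n S) (n := n) Wo.loc Wo.len (free hn hP hper) hf).congr
    fun w => by
      constructor
      · rintro ⟨h1, h2⟩; exact ⟨XX_iff.1 h1, h2⟩
      · rintro ⟨h1, h2⟩; exact ⟨XX_iff.2 h1, h2⟩

theorem hl_XX1 (hn : 0 < n) (hP : 0 < P) (hper : PerOff n c P S) :
    HL 1 (XX n S z : Language α) := by
  refine (hl_f (z := z) hn hP hper (f := fun _ => True)
    (Reg_852.HL.isRegular (k := 0) (HL.const True))).congr fun w => ?_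
  exact ⟨fun h => ⟨h, trivial⟩, fun h => h.1⟩

theorem hl_tail {M : Type} [Monoid M] [Finite M] (f : α → M) (hn : 0 < n) (hP : 0 < P)
    (hper : PerOff n c P S) (s : M) :
    HL 1 ({w | (∀ u ∈ XX n S z, ¬ u <+: w) ∧ pr f w = s} : Language α) :=
  (P4_933.hl_NB (z := z) (Wo := Wo n S) (n := n) Wo.loc Wo.len (free hn hP hper)
    (f := fun w => (w.map f).prod = s) (Reg_852.isRegular_prod f s)).congr fun w => by
      have e := P4_933.NB_iff (Wo n S) z w
      constructor
      · rintro ⟨h1, h2⟩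
        exact ⟨e.2 fun P hP hX => h1 P (XX_iff.2 hX) hP, h2⟩
      · rintro ⟨h1, h2⟩
        exact ⟨fun u hu hp => e.1 h1 u hp (XX_iff.1 hu), h2⟩

/-- tail language -/
def Tl {M : Type} [Monoid M] (f : α → M) (M0 : ℕ) (s : M) (r : ℕ) : Language α :=
  {v | (v.map f).prod = s ∧ v.length % M0 = r}

/-- head language -/
def Hd (n : ℕ) (S : Set (List α)) (z N t : ℕ) : Language α :=
  {P | P.length = t ∧ Wo n S P ∧ z ≤ t + N}

/-- properties of blocks which depend on `take A`, the value behind and the length mod `M0` -/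
theorem hl_key {M : Type} [Monoid M] [Finite M] (f : α → M) (hn : 0 < n) (hP : 0 < P)
    (hper : PerOff n c P S) {A M0 : ℕ} (hM : 0 < M0) (hA : A ≤ z) (g : List α → Prop)
    (hg : ∀ u u' : List α, A ≤ u.length → A ≤ u'.length → u.take A = u'.take A →
      u.length % M0 = u'.length % M0 → pr f (u.drop A) = pr f (u'.drop A) → (g u ↔ g u')) :
    HL 1 ({X | X ∈ XX n S z ∧ g X} : Language α) := by
  let s : Set (List α × M × ℕ) := {q | q.1.length ≤ A ∧ q.2.2 < M0 ∧ ∃ u : List α, A ≤ u.length ∧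
    u.take A = q.1 ∧ pr f (u.drop A) = q.2.1 ∧ (u.drop A).length % M0 = q.2.2 ∧ g u}
  have hs : s.Finite := by
    have h1 : ({l : List α | l.length ≤ A} ×ˢ ((Set.univ : Set M) ×ˢ {r : ℕ | r < M0})).Finite :=
      (List.finite_length_le α A).prod (Set.finite_univ.prod (Set.finite_lt_nat M0))
    exact h1.subset fun q hq => ⟨hq.1, trivial, hq.2.1⟩
  let L : List α × M × ℕ → Language α := fun q =>
    {X | X ∈ XX n S z ∧ X ∈ (({q.1} : Language α) * Tl f M0 q.2.1 q.2.2)}
  have hL : ∀ q ∈ s, HL 1 (L q) := by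
    intro q _
    refine hl_f hn hP hper (f := fun X => X ∈ (({q.1} : Language α) *
      Tl f M0 q.2.1 q.2.2)) ?_
    refine Reg_236.isRegular_mul (Reg_852.HL.isRegular (k := 0) (HL.word q.1)) ?_
    refine P4_933.regular_of_class f 0 M0 hM
      (fun v => (v.map f).prod = q.2.1 ∧ v.length % M0 = q.2.2) ?_
    intro u u' _ _ _ h1 h2
    rw [h1, h2]
  refine (HL.biUnion hs hL).congr fun X => ?_
  constructor
  · rintro ⟨h1, h2⟩
    have hz := (mem_XX.1 h1).1
    refine ⟨(X.take A, pr f (X.drop A), (X.drop A).length % M0), ⟨?_, Nat.mod_lt _ hM, X,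
      by omega, rfl, rfl, rfl, h2⟩, h1, Language.mem_mul.2 ⟨X.take A, rfl, X.drop A,
      ⟨rfl, rfl⟩, List.take_append_drop _ _⟩⟩
    show (X.take A).length ≤ A
    rw [List.length_take]; omega
  · rintro ⟨q, ⟨_, _, u, h3, h4, h5, h6, h7⟩, h8, h9⟩
    refine ⟨h8, ?_⟩
    obtain ⟨a, ha, v, ⟨hv1, hv2⟩, hX⟩ := Language.mem_mul.1 h9
    have ha' : a = q.1 := ha
    have hul : (u.take A).length = A := by rw [List.length_take]; omega
    have hal : a.length = A := by rw [ha', ← h4]; exact hul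
    subst hX
    refine (hg u _ h3 (by rw [List.length_append]; omega) ?_ ?_ ?_).1 h7
    · rw [h4, ← ha', List.take_append_of_le_length hal.ge, List.take_of_length_le hal.le]
    · rw [List.length_append, hal]
      have e : u.length = A + (u.drop A).length := by rw [List.length_drop]; omega
      rw [e, Nat.add_mod, h6, ← hv2, ← Nat.add_mod]
    · rw [h5, List.drop_append_of_le_length hal.ge, List.drop_of_length_le hal.le,
        List.nil_append]
      exact hv1.symm

theorem hl_E {k N : ℕ} :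
    HL k ({w | ∃ t, WA n S w t ∧ z ≤ t + N ∧ t ≤ z + N} : Language α) := by
  have hs : {t : ℕ | t ≤ z + N}.Finite := Set.finite_le_nat _
  have hfin : ∀ t, HL k (Hd n S z N t : Language α) := fun t => by
    have h0 : {P : List α | P.length = t ∧ Wo n S P ∧ z ≤ t + N}.Finite :=
      (List.finite_length_eq α t).subset fun P hP => hP.1
    exact HL.finite h0
  have h := HL.biUnion (k := k) hs (L := fun t => Hd n S z N t * ⊤) fun t _ =>
      (hfin t).mul HL.top
  refine h.congr fun w => ?_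
  constructor
  · rintro ⟨t, h1, h2, h3⟩
    obtain ⟨h4, h5⟩ := WA_iff.1 h1
    exact ⟨t, h3, Language.mem_mul.2 ⟨w.take t, ⟨by rw [List.length_take]; omega, h5, h2⟩,
      w.drop t, trivial, List.take_append_drop _ _⟩⟩
  · rintro ⟨t, h3, h4⟩
    obtain ⟨P, ⟨h5, h6, h7⟩, Q, -, rfl⟩ := Language.mem_mul.1 h4
    refine ⟨t, WA_iff.2 ⟨by rw [List.length_append]; omega, ?_⟩, h7, h3⟩
    rw [List.take_append_of_le_length h5.ge, List.take_of_length_le h5.le]
    exact h6

theorem per_nat {Bad : ℤ → Prop} {M0 : ℕ} (hper : ∀ T, Bad (T + M0) ↔ Bad T) (k : ℕ) (T : ℤ) :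
    Bad (T + k * M0) ↔ Bad T := by
  induction k with
  | zero => simp
  | succ k ih =>
    have e : T + ((k + 1 : ℕ) : ℤ) * M0 = (T + k * M0) + M0 := by push_cast; ring
    rw [e, hper, ih]

theorem hl_BB (hn : 0 < n) (hP : 0 < P) (hper : PerOff n c P S) {Bad : ℤ → Prop} {M0 N p : ℕ}
    (hM : 0 < M0) (hB : ∀ T, Bad (T + M0) ↔ Bad T) :
    HL 1 (BB n S z N p Bad : Language α) := by
  have h1 : HL 1 ({X | X ∈ XX n S z ∧ Bad ((X.length : ℤ) - p)} : Language α) := by
    refine hl_f hn hP hper (f := fun X => Bad ((X.length : ℤ) - p)) ?_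
    refine P4_933.regular_of_class (S := Multiplicative (ZMod 1)) (fun _ => 1) 0 M0 hM _ ?_
    intro u u' _ _ _ h2 _
    have key : ∀ u : List α, Bad ((u.length : ℤ) - p) ↔ Bad (((u.length % M0 : ℕ) : ℤ) - p) := by
      intro u
      have e : (u.length : ℤ) - p = (((u.length % M0 : ℕ) : ℤ) - p) + ((u.length / M0 : ℕ) : ℤ) * M0 := by
        have h3 := Nat.mod_add_div u.length M0
        have h4 : (u.length : ℤ) = ((u.length % M0 : ℕ) : ℤ) + (M0 : ℤ) * ((u.length / M0 : ℕ) : ℤ) := by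
          exact_mod_cast h3.symm
        rw [h4]; ring
      rw [e]
      exact per_nat hB _ _
    rw [key u, key u', h2]
  have h2 : HL 1 ({X | X ∈ XX n S z ∧ ∃ t, WA n S X t ∧ z ≤ t + N ∧ t ≤ z + N} : Language α) :=
    (hl_XX1 hn hP hper).setOf_and hl_E
  refine (h2.setOf_or h1).congr fun w => ?_
  rw [mem_BB]
  constructor
  · rintro ⟨h3, h4 | h4⟩
    · exact Or.inl ⟨h3, h4⟩
    · exact Or.inr ⟨h3, h4⟩
  · rintro (⟨h3, h4⟩ | ⟨h3, h4⟩)
    · exact ⟨h3, Or.inl h4⟩
    · exact ⟨h3, Or.inr h4⟩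

end

end Crest.Agent.R320.Inst_377
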