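import Crest.Agent.R320.InstB_533

/-!
Row 320: SC2 and CP2 of 131's interface (post 13123) from the bundled data `St`.
-/

set_option autoImplicit false

namespace Crest.Agent.R320.InstB_533

open Finset Crest.Agent.R320.ThrChain260 Crest.Agent.R320.Ruler2_537
  Crest.Agent.R320.InstA_533 Crest.Agent.R320.Zone132_898 Crest.Agent.R320.Sch2_606
  Crest.Agent.R320.ExactR_237

namespace St

variable {α S V : Type} [Monoid S] [AddCommGroup V] (I : St α S V)

/-- badness oracle of scheme 2 -/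
def Bd (Y : List α) : Prop := I.B0 (Y.take (I.Bm - I.p0))

/-- tail oracle of scheme 2 -/
noncomputable def tl (Y : List α) : Option (ℕ × S) :=
  (I.N0 (Y.take (I.Bm - I.p0))).map fun e => (e, 1)

/-- left label of scheme 2 -/
def L2 (u : List α) (v : V) : Prop := lam2 I.K I.c I.lam u = some v

/-- raw right label of scheme 2 -/
noncomputable def R2' (r : List α) : Option (ℕ × V) :=
  rho2 I.K I.c I.p0 I.Bd I.tl I.rho r

open Classical in
/-- right label of scheme 2 -/
noncomputable def R2 (r : List α) : Option (ℕ × V) :=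
  if h : ∃ k, Only I.K I.c I.p0 I.Bd r k then
    (I.R2' r).map fun x => (x.1,
      I.act x.2 (pr I.f ((r.take x.1).drop (I.p0 - I.c h.choose))) +
        I.nu1 ((r.take x.1).drop (I.p0 - I.c h.choose)))
  else none

theorem R2_eq {r : List α} {k : ℕ} (hk : Only I.K I.c I.p0 I.Bd r k) :
    I.R2 r = (I.R2' r).map fun x => (x.1,
      I.act x.2 (pr I.f ((r.take x.1).drop (I.p0 - I.c k))) +
        I.nu1 ((r.take x.1).drop (I.p0 - I.c k))) := by
  have h : ∃ k, Only I.K I.c I.p0 I.Bd r k := ⟨k, hk⟩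
  unfold R2
  rw [dif_pos h]
  have : h.choose = k := hk.2.2 _ h.choose_spec.1 h.choose_spec.2.1
  rw [this]

/-- **SC2** -/
theorem SC2 {u r : List α} {v b : V} {d : ℕ} (hcl : I.Cl (u ++ r)) (hr : I.Bm ≤ r.length)
    (hbad : I.BadB ((u ++ r).take I.Bm))
    (hL : I.L2 u v) (hR : I.R2 r = some (d, b)) :
    I.N ((u ++ r).take I.Bm) = u.length + d ∧ I.zm ((u ++ r).take I.Bm) v = b := by
  have hp0 := I.hp0
  have hpB := I.p0_le_Bm
  have hTl : I.Bm ≤ (u ++ r).length := by rw [List.length_append]; omega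
  obtain ⟨k, hk, huk, hlk⟩ := lam2_some hL
  have hkp := I.hcp k hk
  have hBd : I.Bd ((u ++ r).drop I.p0) := by
    unfold Bd
    unfold BadB at hbad
    rwa [List.drop_take] at hbad
  -- the candidate
  have hdrop : (u ++ r).drop I.p0 = r.drop (I.p0 - I.c k) := by
    have h1 : I.p0 = u.length + (I.p0 - I.c k) := by omega
    conv_lhs => rw [h1]
    rw [← List.drop_drop, List.drop_left]
  by_cases hex : ∃ k, Only I.K I.c I.p0 I.Bd r k
  swap
  · unfold R2 at hR
    rw [dif_neg hex] at hR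
    simp at hR
  obtain ⟨j, hj⟩ := hex
  have hjk : k = j := hj.2.2 k hk (by rw [← hdrop]; exact hBd)
  subst hjk
  rw [I.R2_eq hj] at hR
  obtain ⟨⟨d', b'⟩, h1, h2⟩ := Option.map_eq_some_iff.1 hR
  rw [Prod.mk.injEq] at h2
  obtain ⟨h2, h3⟩ := h2
  simp only at h2 h3
  subst h2
  obtain ⟨e, y, he, hde, hb'⟩ := sound2 I.hcp I.gad hL h1 hBd
  unfold tl at he
  obtain ⟨e', he1, he2⟩ := Option.map_eq_some_iff.1 he
  rw [Prod.mk.injEq] at he2
  obtain ⟨rfl, rfl⟩ := he2
  have hNN := I.N0_some he1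
  have hNT : IsN I.P (WS I.Ro (u ++ r)) 0 ((u.length + d' : ℕ) : ℤ) := by
    have h5 := (I.isN_text hcl (a := 0) (by omega) (by omega) ((I.p0 : ℤ) + e')).1 (by
      rw [show ((0 : ℤ) + I.p0).toNat = I.p0 by omega]
      exact hNN)
    rw [add_zero] at h5
    rw [hde]
    exact_mod_cast h5
  obtain ⟨hN1, hN2, hN3⟩ := I.N_eq hcl hTl hNT
  refine ⟨hN1, ?_⟩
  rw [I.zm_eq _ _ (by rw [hN1]; omega), hN1]
  have e1 : (u ++ r).take (u.length + d') = u ++ r.take d' := by
    rw [List.take_append]; simp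
  have e3 : (u ++ r.take d').drop I.p0 = (r.take d').drop (I.p0 - I.c k) := by
    have h1 : I.p0 = u.length + (I.p0 - I.c k) := by omega
    conv_lhs => rw [h1]
    rw [← List.drop_drop, List.drop_left]
  rw [e1, e3, ← h3, hb', mul_one]

/-- the right reading only depends on the first `Bm` letters -/
theorem Only_take {r : List α} {D2 k : ℕ} (hD : I.Bm ≤ D2) :
    Only I.K I.c I.p0 I.Bd (r.take D2) k ↔ Only I.K I.c I.p0 I.Bd r k := by
  have hpB := I.p0_le_Bm
  have h : ∀ j < I.K, (I.Bd ((r.take D2).drop (I.p0 - I.c j)) ↔ I.Bd (r.drop (I.p0 - I.c j))) := by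
    intro j hj
    unfold Bd
    rw [List.drop_take, List.take_take, min_eq_left (by omega)]
  unfold Only
  constructor
  · rintro ⟨h1, h2, h3⟩
    exact ⟨h1, (h k h1).1 h2, fun j hj hb => h3 j hj ((h j hj).2 hb)⟩
  · rintro ⟨h1, h2, h3⟩
    exact ⟨h1, (h k h1).2 h2, fun j hj hb => h3 j hj ((h j hj).1 hb)⟩

theorem R2'_take {r : List α} {D2 k : ℕ} (hD : I.Bm ≤ D2)
    (hk : Only I.K I.c I.p0 I.Bd r k) : I.R2' (r.take D2) = I.R2' r := by
  have hpB := I.p0_le_Bm
  unfold R2'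
  rw [rho2_eq hk, rho2_eq ((I.Only_take hD).2 hk)]
  have e1 : I.tl ((r.take D2).drop (I.p0 - I.c k)) = I.tl (r.drop (I.p0 - I.c k)) := by
    unfold tl
    rw [List.drop_take, List.take_take, min_eq_left (by omega)]
  have e2 : (r.take D2).take (I.p0 - I.c k) = r.take (I.p0 - I.c k) := by
    rw [List.take_take, min_eq_left (by omega)]
  rw [e1, e2]

open Classical in
/-- **CP2** -/
theorem CP2 {t : List α} (hcl : I.Cl t) (D2 : ℕ) (hD2 : I.Bm ≤ D2) (hl : I.Bm + D2 ≤ t.length)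
    (hbad : I.BadB (t.take I.Bm)) (v : V) :
    ∃ x, I.q0 ≤ x ∧ x ≤ I.p0 ∧ I.L2 (t.take x) v ∧ (I.R2 ((t.drop x).take D2)).isSome := by
  have hp0 := I.hp0
  have hpB := I.p0_le_Bm
  obtain ⟨b, hN, hNb, hbU, hbz⟩ := I.exists_N hcl (by omega)
  have hz := I.hz
  have hS := I.S_nonneg
  have hUo := I.hUo
  have hBd : I.Bd (t.drop I.p0) := by
    unfold Bd
    unfold BadB at hbad
    rwa [List.drop_take] at hbad
  have htl : I.tl (t.drop I.p0) = some (b - I.p0, 1) := by
    unfold tl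
    rw [I.N0_eq (e := b - I.p0)]
    · rfl
    · have h5 := (I.isN_text hcl (a := 0) (by omega) (by omega) ((I.p0 : ℤ) + (b - I.p0 : ℕ))).2 (by
        rw [add_zero, show (I.p0 : ℤ) + (b - I.p0 : ℕ) = b by omega]
        exact hN)
      rwa [show ((0 : ℤ) + I.p0).toNat = I.p0 by omega] at h5
  -- spoiled places
  let BT : ℤ → Prop := fun a => Bad I.P (WS I.Ro t) (WS I.Rs t) I.lev I.D (I.m + 1) I.mm I.r a
  let C : Finset ℤ := (Finset.range I.K).image fun k => (I.c k : ℤ)
  let J : Finset ℕ := (range I.K).filter fun k =>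
    ∃ j < I.K, j ≠ k ∧ I.Bd (t.drop (I.c k + (I.p0 - I.c j)))
  have hBdT : ∀ k < I.K, ∀ j < I.K, I.Bd (t.drop (I.c k + (I.p0 - I.c j))) →
      BT ((0 : ℤ) + (I.c k - I.c j)) := by
    intro k hk j hj h
    have h1 := I.hcp k hk
    have h2 := I.hcp j hj
    have h3 := (I.bad_text hcl (a := (0 : ℤ) + (I.c k - I.c j)) (by omega) (by omega)).1 (by
      rw [show ((0 : ℤ) + (I.c k - I.c j) + I.p0).toNat = I.c k + (I.p0 - I.c j) by omega]
      exact h)
    exact h3
  have hinj : ∀ k < I.K, ∀ j < I.K, I.c k = I.c j → k = j := by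
    intro k hk j hj h
    rcases lt_trichotomy k j with h1 | h1 | h1
    · have := I.hc _ _ h1 hj; omega
    · exact h1
    · have := I.hc _ _ h1 hk; omega
  have hJ : J.card < I.R := by
    have hsp := card_spoiled (Wl := WS I.Ro t) (Ws := WS I.Rs t) (A := I.lev) (K := I.m + 1)
      I.ruler (WS_gap I.Ro I.sep t) (WS_gap I.Rs I.seps t) 0
    refine lt_of_le_of_lt (le_trans ?_ hsp) I.hR
    refine Finset.card_le_card_of_injOn (fun k => (I.c k : ℤ)) ?_ ?_
    · intro k hk
      have hk' := Finset.mem_filter.1 (Finset.mem_coe.1 hk)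
      obtain ⟨hk1, j, hj, hne, hb⟩ := hk'
      rw [Finset.mem_range] at hk1
      rw [Finset.mem_coe, Finset.mem_filter]
      refine ⟨Finset.mem_image.2 ⟨k, Finset.mem_range.2 hk1, rfl⟩, I.c j,
        Finset.mem_image.2 ⟨j, Finset.mem_range.2 hj, rfl⟩, ?_, hBdT k hk1 j hj hb⟩
      intro he
      have he' : (I.c j : ℤ) = (I.c k : ℤ) := he
      exact hne (hinj j hj k hk1 (by exact_mod_cast he'))
    · intro k hk j hj h
      have hk' := Finset.mem_range.1 (Finset.mem_filter.1 (Finset.mem_coe.1 hk)).1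
      have hj' := Finset.mem_range.1 (Finset.mem_filter.1 (Finset.mem_coe.1 hj)).1
      have h' : (I.c k : ℤ) = (I.c j : ℤ) := h
      exact hinj k hk' j hj' (by exact_mod_cast h')
  obtain ⟨k, hk, hlam, b', hrho⟩ := complete2 I.hc I.hcp I.gad (U := t) (by omega) hBd htl hJ
    (fun k hk h => Finset.mem_filter.2 ⟨Finset.mem_range.2 hk, h⟩) v
  refine ⟨I.c k, I.hcq k hk, I.hcp k hk, hlam, ?_⟩
  have hex : ∃ j, Only I.K I.c I.p0 I.Bd (t.drop (I.c k)) j := by
    obtain ⟨j, _, _, hj, _⟩ := rho2_some hrho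
    exact ⟨j, hj⟩
  obtain ⟨j, hj⟩ := hex
  rw [I.R2_eq ((I.Only_take hD2).2 hj), I.R2'_take hD2 hj]
  unfold R2'
  rw [hrho]
  rfl

end St

end Crest.Agent.R320.InstB_533
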