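import Crest.Agent.R320.InstC_598

set_option autoImplicit false

namespace Crest.Agent.R320.Inst_598

open Crest.RegLang Crest.Agent.R320.Hk_851 Crest.Agent.R320.Pump_360 Crest.Agent.R320.Blk467
open Crest.Agent.R320.Top5_467

universe u

variable {α : Type u} {n W : ℕ} {Wo : List α → Prop}

namespace Dat

variable {S V : Type u} [Monoid S] [AddCommGroup V] {D : Dat α S V n W Wo}

theorem c1 (h : D.OK) (X : List α) (hX : X ∈ D.XX) (hb : X ∉ D.Bad) (v : V) :
    ∃ P Q, P ++ Q = X ∧ P ∈ D.LP1 v ∧ Q ∈ D.RQ1 (D.T v X) := by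
  have hz := h.hz
  have hXz := hX.1
  have hE : ¬ D.Eb X := fun he => hb ⟨hX, Or.inl he⟩
  have hB : ¬ D.BadT (X.length - D.p0) := fun he => hb ⟨hX, Or.inr he⟩
  have hXl : D.z + D.N1 ≤ X.length := by
    by_contra hc
    push Not at hc
    exact hE ⟨X.length, by omega, hc, le_rfl, by rw [List.take_length]; exact hX.2.1⟩
  have hYl : (X.drop D.p0).length = X.length - D.p0 := List.length_drop
  obtain ⟨P, Q, e, hP, b0, hQ⟩ := h.compl1 (X.drop D.p0)
    (D.act v (D.ph (X.take D.p0)) + D.nu2 (X.take D.p0)) (by omega) (by rw [hYl]; exact hB)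
  have hPl := h.lamlen _ _ hP
  have htl : (X.take D.p0).length = D.p0 := by rw [List.length_take]; omega
  have hQl : P.length + Q.length = X.length - D.p0 := by rw [← hYl, ← e, List.length_append]
  have hXe : (X.take D.p0 ++ P) ++ Q = X := by
    rw [List.append_assoc, e, List.take_append_drop]
  refine ⟨X.take D.p0 ++ P, Q, hXe, ⟨?_, ?_⟩, ?_⟩
  · rw [List.length_append, htl]; omega
  · have e1 : (X.take D.p0 ++ P).drop D.p0 = P := by
      rw [← htl]
      simp
    have e2 : (X.take D.p0 ++ P).take D.p0 = X.take D.p0 := by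
      conv_lhs => rw [← htl]
      simp
    rw [e1, e2]; exact hP
  · intro v' P' hP'
    obtain ⟨g1, g2⟩ := hP'
    have hP'l := h.lamlen _ _ g2
    rw [List.length_drop] at hP'l
    have hTX : D.T v X = b0 := by
      rw [T_eq h, ← e]
      exact h.sound1 _ _ _ _ hP hQ
    have e3 : (P' ++ Q).take D.p0 = P'.take D.p0 := List.take_append_of_le_length g1
    have e4 : (P' ++ Q).drop D.p0 = P'.drop D.p0 ++ Q := List.drop_append_of_le_length g1
    have hT' : D.T v' (P' ++ Q) = b0 := by
      rw [T_eq h, e3, e4]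
      exact h.sound1 _ _ _ _ g2 hQ
    refine ⟨⟨?_, ?_, ?_⟩, by rw [hT', hTX]⟩
    · rw [List.length_append]; omega
    · rw [h.hW.loc _ _ (by omega), ← h.hW.loc (X.take D.p0 ++ P) Q (by omega), hXe]
      exact hX.2.1
    · rintro ⟨t, g3, g4, g5⟩
      rw [List.length_append] at g4
      obtain ⟨s, rfl⟩ : ∃ s, t = P'.length + s := ⟨t - P'.length, by omega⟩
      rw [List.take_length_add_append] at g5
      have hsl : n ≤ (Q.take s).length := by rw [List.length_take]; omega
      rw [h.hW.loc _ _ hsl] at g5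
      have g6 : Wo (((X.take D.p0 ++ P) ++ Q).take ((X.take D.p0 ++ P).length + s)) := by
        rw [List.take_length_add_append, h.hW.loc _ _ hsl]
        exact g5
      rw [hXe, List.length_append, htl] at g6
      by_cases hc : D.z ≤ D.p0 + P.length + s
      · exact hX.2.2 ⟨_, hc, by omega, g6⟩
      · push Not at hc
        exact hE ⟨_, by omega, by omega, by omega, g6⟩

theorem c2 (h : D.OK) (X : List α) (hX : X ∈ D.Bad) (X' : List α) (hX' : X' ∈ D.Bad) (v : V) :
    ∃ P Q, P ++ Q = X ++ X' ∧ P ∈ D.LP2 v ∧ Q ∈ D.RQ2 (D.T (D.T v X) X') := by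
  have hz := h.hz
  have hXz := hX.1.1
  obtain ⟨k, hk, g1, g2, g3⟩ := h.compl2 X X' hX hX' v
  have hck := h.hc k hk
  have hdr : (X ++ X').drop (D.c k) = X.drop (D.c k) ++ X' :=
    List.drop_append_of_le_length (by omega)
  refine ⟨X.take (D.c k), (X ++ X').drop (D.c k), ?_, ⟨k, hk, ?_, g1⟩, ?_⟩
  · rw [hdr, ← List.append_assoc, List.take_append_drop]
  · rw [List.length_take]; omega
  · rintro v' P' ⟨j, hj, hPl, hPv⟩
    by_cases hjk : j = k
    · subst hjk
      left
      refine ⟨P' ++ X.drop (D.c j), X', ?_, hX', ?_, ?_⟩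
      · -- the changed block
        have hlen : (P' ++ X.drop (D.c j)).length = X.length := by
          rw [List.length_append, List.length_drop, hPl]; omega
        have hwall : ∀ t, D.p0 + n ≤ t → t ≤ X.length →
            (Wo ((P' ++ X.drop (D.c j)).take t) ↔ Wo (X.take t)) := by
          intro t ht1 ht2
          obtain ⟨s, rfl⟩ : ∃ s, t = D.c j + s := ⟨t - D.c j, by omega⟩
          have e1 : (P' ++ X.drop (D.c j)).take (D.c j + s) = P' ++ (X.drop (D.c j)).take s := by
            rw [← hPl, List.take_length_add_append]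
          have e2 : X.take (D.c j + s) = X.take (D.c j) ++ (X.drop (D.c j)).take s := by
            rw [List.take_add]
          have hs : n ≤ ((X.drop (D.c j)).take s).length := by
            rw [List.length_take, List.length_drop]; omega
          rw [e1, e2, h.hW.loc _ _ hs, h.hW.loc _ _ hs]
        refine ⟨⟨by rw [hlen]; exact hXz, ?_, ?_⟩, ?_⟩
        · have := hwall X.length (by omega) le_rfl
          rw [List.take_length, ← hlen, List.take_length] at this
          exact this.2 hX.1.2.1
        · rintro ⟨t, a1, a2, a3⟩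
          rw [hlen] at a2
          exact hX.1.2.2 ⟨t, a1, a2, (hwall t (by omega) a2.le).1 a3⟩
        · rcases hX.2 with ⟨t, a1, a2, a3, a4⟩ | hB
          · left
            exact ⟨t, a1, a2, by rw [hlen]; exact a3, (hwall t (by omega) a3).2 a4⟩
          · right
            rw [hlen]; exact hB
      · rw [hdr, List.append_assoc]
      · congr 1
        rw [T_eq h, T_eq h]
        have e1 : (P' ++ X.drop (D.c j)).take D.p0 = P' ++ (X.take D.p0).drop (D.c j) := by
          obtain ⟨s, hs⟩ : ∃ s, D.p0 = D.c j + s := ⟨D.p0 - D.c j, by omega⟩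
          rw [hs]
          conv_lhs => rw [← hPl, List.take_length_add_append, hPl]
          rw [List.drop_take]
          congr 2
          omega
        have e2 : (P' ++ X.drop (D.c j)).drop D.p0 = X.drop D.p0 := by
          obtain ⟨s, hs⟩ : ∃ s, D.p0 = D.c j + s := ⟨D.p0 - D.c j, by omega⟩
          rw [hs]
          conv_lhs => rw [← hPl, List.drop_length_add_append, hPl]
          rw [List.drop_drop]
        rw [e1, e2, g2 P' v' hPl hPv]
    · right
      obtain ⟨X'', b1, b2, b3⟩ := g3 j hj hjk P' hPl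
      exact ⟨X'', b1, b2, b3⟩

theorem s2 (h : D.OK) (v b : V) (P Q r : List α) (hP : P ∈ D.LP2 v) (hQ : Q ∈ D.RQ2 b)
    (hr : P ++ Q ++ r ∈ Str D.Bad) : P ++ Q ∈ Lg D.Bad (fun v X => D.T v X) v b := by
  rcases hQ v P hP with ⟨X, Y, hX, hY, e, hT⟩ | ⟨X, hX, hb, hXw⟩
  · exact ⟨[X, Y], by
      intro Z hZ
      simp only [List.mem_cons, List.not_mem_nil, or_false] at hZ
      rcases hZ with rfl | rfl
      · exact hX
      · exact hY, by rw [e]; simp, hT⟩
  · exfalso
    obtain ⟨l, hl, e⟩ := hr
    obtain ⟨r', hr'⟩ := hXw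
    have e' : X ++ (r' ++ r) = l.flatten := by rw [e, ← hr', List.append_assoc]
    obtain ⟨l', hl', -⟩ := PCode.first (pcode h) hX l (fun Z hZ => bad_sub D (hl Z hZ)) e'
    exact hb (hl X (by rw [hl']; simp))

theorem main [Finite α] [Finite S] [Finite V] (h : D.OK) (s : S) :
    HL 3 ({w | (w.map D.φ).prod = s} : Language α) := by
  refine top5 D.φ D.act h.hadd h.hone h.hmul h.hfaith D.nu D.XX D.Bad (pcode h) (bad_sub D)
    D.LP1 D.RQ1 D.LP2 D.RQ2 ?_ ?_ ?_ ?_ (HL_Bad h) (fun v => HL.finite (fin_LP2 h v))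
    (HL_RQ2 h) (fun v => HL.finite (fin_LP1 h v)) (fun b => (HL_RQ1 h b).mono (by norm_num))
    (fun v v' => (HL_BT h v v').mono (by norm_num)) (fun s => (HL_tail h s).mono (by norm_num)) s
  · intro v b P Q hP hQ
    exact hQ v P hP
  · intro X hX hb v
    exact c1 h X hX hb v
  · intro v b P Q r hP hQ hr
    exact s2 h v b P Q r hP hQ hr
  · intro X hX X' hX' v
    exact c2 h X hX X' hX' v

end Dat

end Crest.Agent.R320.Inst_598
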