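import Crest.Agent.R320.InstC_753

/-!
# Row 320: instance of `top5` (helper753), part D: heights
-/

set_option autoImplicit false

namespace Crest.Agent.R320.Inst_753

open Crest.RegLang Crest.Agent.R320.Hk_851 Crest.Agent.R320.Blk467
open Crest.Agent.R320.FewWalls_228

variable {α : Type}

/-- left-looking form of the wall rule -/
def WoS (n : ℕ) (Ss : Set (List α)) (u : List α) : Prop :=
  n ≤ u.length ∧ u.drop (u.length - n) ∈ Ss

theorem WoS_iff (n : ℕ) (Ss : Set (List α)) (w : List α) (t : ℕ) (ht : t ≤ w.length) :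
    WoS n Ss (w.take t) ↔ n ≤ t ∧ Wl n Ss w (t - n) := by
  unfold WoS Wl
  rw [List.length_take, min_eq_left ht]
  constructor
  · rintro ⟨h1, h2⟩
    refine ⟨h1, by omega, ?_⟩
    rw [List.drop_take] at h2
    have : t - (t - n) = n := by omega
    rw [this] at h2; exact h2
  · rintro ⟨h1, _, h2⟩
    refine ⟨h1, ?_⟩
    rw [List.drop_take]
    have : t - (t - n) = n := by omega
    rw [this]; exact h2

theorem WoS_walls {n W : ℕ} {Ss : Set (List α)}
    (hsep : ∀ (w : List α) (x y : ℕ), x < y → Wl n Ss w x → Wl n Ss w y → x + W ≤ y) :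
    Walls (WoS n Ss) n W := by
  refine ⟨?_, fun P h => h.1, ?_⟩
  · intro P Q hQ
    unfold WoS
    rw [List.length_append, List.drop_append]
    have h1 : P.drop (P.length + Q.length - n) = [] := List.drop_eq_nil_of_le (by omega)
    have h2 : P.length + Q.length - n - P.length = Q.length - n := by omega
    rw [h1, h2, List.nil_append]
    constructor
    · rintro ⟨_, h⟩; exact ⟨hQ, h⟩
    · rintro ⟨_, h⟩; exact ⟨by omega, h⟩
  · intro X s t hst ht h1 h2
    rw [WoS_iff n Ss X s (by omega)] at h1
    rw [WoS_iff n Ss X t ht] at h2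
    have := hsep X (s - n) (t - n) (by omega) h1.2 h2.2
    omega

theorem nw_drop_le (n : ℕ) (Ss : Set (List α)) (p u : List α) : nw n Ss u ≤ nw n Ss (p ++ u) := by
  classical
  unfold nw
  refine Finset.card_le_card_of_injOn (fun x => x + p.length) ?_ ?_
  · intro x hx
    simp only [Finset.coe_filter, Finset.mem_range, Set.mem_setOf_eq] at hx ⊢
    obtain ⟨h1, h2, h3⟩ := hx
    refine ⟨by rw [List.length_append]; omega, by rw [List.length_append]; omega, ?_⟩
    rw [List.drop_append, List.drop_eq_nil_of_le (by omega), List.nil_append]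
    have : x + p.length - p.length = x := by omega
    rw [this]; exact h3
  · intro x _ y _ h
    simp only at h
    omega

theorem nw_bound (n z : ℕ) (Ss : Set (List α)) (w : List α)
    (h : ∀ t, t < w.length → z ≤ t → ¬ WoS n Ss (w.take t)) : nw n Ss w ≤ z + 1 := by
  classical
  unfold nw
  have hsub : (Finset.range (w.length + 1)).filter (fun x => Wl n Ss w x) ⊆
      insert (w.length - n) (Finset.range z) := by
    intro x hx
    rw [Finset.mem_filter] at hx
    obtain ⟨_, h1⟩ := hx
    rw [Finset.mem_insert, Finset.mem_range]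
    have h2 := h1.1
    by_cases hc : x + n = w.length
    · left; omega
    · right
      by_contra h3
      refine h (x + n) (by omega) (by omega) ?_
      rw [WoS_iff n Ss w (x + n) h2]
      refine ⟨by omega, ?_⟩
      have : x + n - n = x := by omega
      rw [this]; exact h1
  refine le_trans (Finset.card_le_card hsub) ?_
  refine le_trans (Finset.card_insert_le _ _) ?_
  rw [Finset.card_range]

/-- bundled facts on the wall rule -/
structure Rule (n : ℕ) (Ss : Set (List α)) : Prop where
  few : ∀ (L : Language α), L.IsRegular → ∀ r, HL 1 ({w | w ∈ L ∧ nw n Ss w ≤ r} : Language α)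

theorem fibre_regular {S : Type} [Monoid S] [Finite S] (φ : α → S) (s : S) :
    Language.IsRegular ({w | (w.map φ).prod = s} : Language α) := by
  classical
  haveI := Fintype.ofFinite S
  have key : ∀ (w : List α) (m : S), w.foldl (fun (m : S) b => m * φ b) m =
      m * (w.map φ).prod := by
    intro w
    induction w with
    | nil => intro m; simp
    | cons a w ih => intro m; simp only [List.foldl_cons, List.map_cons, List.prod_cons]; rw [ih, mul_assoc]
  refine ⟨S, inferInstance, ⟨fun m b => m * φ b, 1, {s}⟩, ?_⟩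
  ext w
  show _ ∈ ({s} : Set S) ↔ _
  rw [Set.mem_singleton_iff]
  show w.foldl _ _ = s ↔ _
  rw [key w 1, one_mul]
  rfl

theorem few_value {n : ℕ} {Ss : Set (List α)} (hR : Rule n Ss) (r : ℕ) {S : Type} [Monoid S]
    [Finite S] (φ : α → S) (s : S) :
    HL 1 ({w | (w.map φ).prod = s ∧ nw n Ss w ≤ r} : Language α) :=
  hR.few _ (fibre_regular φ s) r

theorem val_pair {S : Type} [Monoid S] (φ : α → S) (M0 : ℕ) (w : List α) :
    (w.map (fun a => (φ a, (Multiplicative.ofAdd (1 : ZMod M0))))).prod =
      ((w.map φ).prod, Multiplicative.ofAdd (w.length : ZMod M0)) := by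
  induction w with
  | nil =>
    rw [List.map_nil, List.prod_nil, List.map_nil, List.prod_nil, List.length_nil, Nat.cast_zero,
      ofAdd_zero]
    rfl
  | cons a w ih =>
    rw [List.map_cons, List.prod_cons, ih, List.map_cons, List.prod_cons]
    refine Prod.ext rfl ?_
    show Multiplicative.ofAdd (1 : ZMod M0) * Multiplicative.ofAdd ((w.length : ℕ) : ZMod M0) = _
    rw [← ofAdd_add, List.length_cons]
    congr 1
    push_cast
    ring

theorem HL_loc [Finite α] {S : Type} [Monoid S] [Finite S] {n : ℕ} {Ss : Set (List α)}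
    (hR : Rule n Ss) (r k0 M0 : ℕ) (hM0 : 0 < M0) (φ : α → S) (f : List α → Prop)
    (hf : ∀ u u' : List α, k0 ≤ u.length → k0 ≤ u'.length → u.take k0 = u'.take k0 →
      u.length % M0 = u'.length % M0 →
      ((u.drop k0).map φ).prod = ((u'.drop k0).map φ).prod → f u → f u') :
    HL 1 ({w | nw n Ss w ≤ r ∧ f w} : Language α) := by
  classical
  haveI : NeZero M0 := ⟨by omega⟩
  haveI : Finite (Multiplicative (ZMod M0)) := inferInstanceAs (Finite (ZMod M0))
  let ψ : α → S × Multiplicative (ZMod M0) := fun a => (φ a, Multiplicative.ofAdd (1 : ZMod M0))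
  let G : S × Multiplicative (ZMod M0) → Language α :=
    fun m => {w | (w.map ψ).prod = m ∧ nw n Ss w ≤ r}
  have hG : ∀ m, HL 1 (G m) := fun m => few_value hR r ψ m
  have hfew : HL 1 ({w | nw n Ss w ≤ r} : Language α) := by
    refine (HL.iUnion (k := 1) hG).congr fun w => ?_
    constructor
    · intro h; exact ⟨(w.map ψ).prod, rfl, h⟩
    · rintro ⟨m, _, h⟩; exact h
  have hshort : HL 1 ({w | w.length < k0 ∧ f w} : Language α) :=
    HL.finite ((List.finite_length_lt α k0).subset fun w hw => hw.1)
  have hlong : HL 1 ({w | ∃ p ∈ {p : List α | p.length = k0}, w ∈ ({w | ∃ m, w ∈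
      ({w | (∃ u', (u'.map ψ).prod = m ∧ f (p ++ u')) ∧
        w ∈ (({p} : Language α) * G m)} : Language α)} : Language α)} : Language α) := by
    refine HL.biUnion (k := 1) (List.finite_length_eq α k0) (fun p _ => ?_)
    refine HL.iUnion (k := 1) (fun m => ?_)
    exact (HL.const _).setOf_and ((HL.word p).mul (hG m))
  refine (hfew.setOf_and (hshort.sup hlong)).congr fun w => ?_
  constructor
  · rintro ⟨h1, h2⟩
    refine ⟨h1, ?_⟩
    by_cases hl : w.length < k0
    · left; exact ⟨hl, h2⟩
    · right
      have hw : w.take k0 ++ w.drop k0 = w := List.take_append_drop _ _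
      refine ⟨w.take k0, by
        show (w.take k0).length = k0
        rw [List.length_take]; omega, ((w.drop k0).map ψ).prod, ⟨w.drop k0, rfl, by rwa [hw]⟩, ?_⟩
      refine Language.mem_mul.2 ⟨w.take k0, rfl, w.drop k0, ⟨rfl, ?_⟩, hw⟩
      have := nw_drop_le n Ss (w.take k0) (w.drop k0)
      rw [hw] at this; omega
  · rintro ⟨h1, h2⟩
    refine ⟨h1, ?_⟩
    rcases h2 with h2 | ⟨p, hp, m, ⟨u', hm, hfu⟩, h3⟩
    · exact h2.2
    · obtain ⟨p', hp', u, ⟨hu, _⟩, rfl⟩ := Language.mem_mul.1 h3
      have hpp : p' = p := hp'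
      subst hpp
      have hpl : p'.length = k0 := hp
      have e1 := val_pair φ M0 u
      have e2 := val_pair φ M0 u'
      have e3 : ((u.map φ).prod, Multiplicative.ofAdd (u.length : ZMod M0)) =
          ((u'.map φ).prod, Multiplicative.ofAdd (u'.length : ZMod M0)) := by
        rw [← e1, ← e2]; exact hu.trans hm.symm
      have e4 : (u.map φ).prod = (u'.map φ).prod := congrArg Prod.fst e3
      have e5 : ((u.length : ℕ) : ZMod M0) = ((u'.length : ℕ) : ZMod M0) := congrArg Prod.snd e3
      rw [ZMod.natCast_eq_natCast_iff'] at e5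
      refine hf (p' ++ u') (p' ++ u) (by rw [List.length_append]; omega)
        (by rw [List.length_append]; omega) ?_ ?_ ?_ hfu
      · rw [List.take_append_of_le_length (by omega), List.take_append_of_le_length (by omega)]
      · rw [List.length_append, List.length_append, Nat.add_mod, ← e5, ← Nat.add_mod]
      · rw [← hpl, List.drop_left, List.drop_left, e4]

end Crest.Agent.R320.Inst_753
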