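import Crest.Agent.R320.InstC_966

/-!
# Row 320: all words, height 3, from ONE black box `Gad` (helper966)
-/

set_option autoImplicit false

namespace Crest.Agent.R320.InstA_966

open Crest.Agent.R320.Hk_851 Crest.Agent.R320.Code110

/-- the action on `S → ZMod 2` -/
def actS {S : Type} [Monoid S] (v : S → ZMod 2) (s : S) : S → ZMod 2 := fun x => v (s * x)

/-- the black box: digit / grid gadget with its ruler -/
def Gad (S V : Type) [Monoid S] [AddCommGroup V] (act : V → S → V) : Prop :=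
  ∃ C0 : ℕ, ∀ K : ℕ, ∃ (N1 L0 Nm : ℕ) (x : ℕ → ℕ) (Bad : ℤ → Prop), 0 < Nm ∧
    (∀ i j, i < j → j < K → x i < x j) ∧
    (∀ a b a' b', a < K → b < K → a' < K → b' < K → a ≠ b → a' ≠ b' →
      |((x a : ℤ) - x b) - ((x a' : ℤ) - x b')| ≤ 2 * N1 → a = a' ∧ b = b') ∧
    (∀ (T : ℤ) (F : Finset (ℕ × ℕ)), (∀ ab ∈ F, ab.1 < K ∧ ab.2 < K ∧ ab.1 ≠ ab.2 ∧
      Bad (T + x ab.1 - x ab.2)) → F.card ≤ C0) ∧
    (∀ a b : ℤ, (Nm : ℤ) ∣ a - b → (Bad a ↔ Bad b)) ∧
    ∀ (α : Type) (f : α → S), ∃ (lam rho : List α → Option V) (nu : List α → V),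
      (∀ P v, lam P = some v → P.length < N1) ∧
      (∀ P Q v r, lam P = some v → rho Q = some r →
        r = act v ((P ++ Q).map f).prod + nu (P ++ Q)) ∧
      (∀ X : List α, L0 ≤ X.length → ¬ Bad X.length → ∀ v, ∃ P Q r, X = P ++ Q ∧
        lam P = some v ∧ rho Q = some r) ∧
      (∀ Q Q' : List α, L0 ≤ Q.length → L0 ≤ Q'.length → Q.take L0 = Q'.take L0 →
        Q.length % Nm = Q'.length % Nm →
        ((Q.drop L0).map f).prod = ((Q'.drop L0).map f).prod → nu Q = nu Q')

/-- **all words, height 3, from the gadget** -/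
theorem of_gad (α S : Type) [Finite α] [Monoid S] [Finite S] (f : α → S)
    (hG : Gad S (S → ZMod 2) actS) (s : S) :
    HL 3 ({w | (w.map f).prod = s} : Language α) := by
  classical
  haveI := Fintype.ofFinite S
  obtain ⟨C0, hG⟩ := hG
  obtain ⟨K, hK⟩ := ExactR_237.exact_gadget α S (S → ZMod 2) f actS (2 * C0 + 2)
  obtain ⟨N1, L0, Nm, x, Bad, hNm, hx, hrul, hthin, hper, hgad⟩ := hG K
  obtain ⟨lam, rho, nu, hlen, hsound, hcomp, hinv⟩ := hgad α f
  obtain ⟨lam2, rho2, nu2, hs2, hc2⟩ := hK x hx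
  obtain ⟨p0, hp0⟩ : ∃ p0, ∀ k, k < K → x k ≤ p0 :=
    ⟨(Finset.range K).sup x, fun k hk => Finset.le_sup (f := x) (Finset.mem_range.2 hk)⟩
  obtain ⟨n, c, P, Sw, hn, hP, hloc, hgap, -, -, HF⟩ :=
    WallU_228.walls_full (α := α) (2 * (p0 + N1))
  let D : Dat α S (S → ZMod 2) :=
    { f := f, act := actS, Wo := WallU_228.Wo n Sw, n := n, G := 2 * (p0 + N1), p0 := p0
      q0 := max n L0 + 1, N1 := N1, K := K, C0 := C0, c := x, BadN := Bad
      lam := lam, rho := rho, nu := nu, lam2 := lam2, rho2 := fun k Q => rho2 k Q 1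
      nu2 := fun u => nu2 u 1, loc := hloc, gap := hgap, hG := le_rfl
      hq := by omega
      hq1 := by omega
      hc := hp0, ruler := hrul, thin := hthin, lam_len := hlen
      sound := hsound
      complete := fun X hX hb v => hcomp X (by omega) hb v
      sound2 := by
        intro k hk P Q v b hP h1 h2
        have := hs2 k hk P Q 1 v b hP h1 h2
        rw [mul_one] at this
        exact this
      complete2 := by
        intro u v hu
        obtain ⟨I, hI, h⟩ := hc2 u 1 v (fun k hk => hu ▸ hp0 k hk)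
        exact ⟨I, hI, h⟩ }
  refine D.main (n := n) (Sw := Sw) rfl HF (L0 := L0) (Nm := Nm) hNm ?_ hper hinv ?_ ?_ ?_ ?_ s
  · show L0 ≤ max n L0 + 1
    omega
  · intro v
    funext x
    show v (1 * x) = v x
    rw [one_mul]
  · intro v s t
    funext x
    show v (s * t * x) = v (s * (t * x))
    rw [mul_assoc]
  · intro v w s
    rfl
  · intro s t h
    have := congrFun (h (fun y => if y = s then 1 else 0)) 1
    have h2 : (if s * 1 = s then (1 : ZMod 2) else 0) = if t * 1 = s then 1 else 0 := this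
    rw [mul_one, mul_one, if_pos rfl] at h2
    by_contra hne
    rw [if_neg (fun e => hne e.symm)] at h2
    exact one_ne_zero h2

end Crest.Agent.R320.InstA_966
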