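import Mathlib

/-!
# Row 320: concrete block code, natural chain rule, one token system (helper128)

Left-looking walls; block = first wall at a place `≥ z`; scheme 1 = abstract gadget on `X.drop p0`
(693), scheme 2 = exact gadget on `X.take p0` at the places `c k` (237), right side knows the anchor
as the unique bad hypothesis.
-/

set_option autoImplicit false

namespace Crest.Agent.R320.Inst_128

/-- left looking walls: `Wo U` = there is a wall at the end of `U` -/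
structure LW (α : Type*) where
  Wo : List α → Prop
  n : ℕ
  W : ℕ
  len : ∀ Q : List α, Wo Q → n ≤ Q.length
  loc : ∀ P Q : List α, n ≤ Q.length → (Wo (P ++ Q) ↔ Wo Q)
  gap : ∀ (Q : List α) (s t : ℕ), s < t → t ≤ Q.length → Wo (Q.take s) → Wo (Q.take t) → s + W < t

structure Dat (α S V : Type*) where
  w : LW α
  φ : List α → S
  act : V → S → V
  p0 : ℕ
  z : ℕ
  N1 : ℕ
  K : ℕ
  c : ℕ → ℕ
  BadT : ℕ → Prop
  LL : List α → V → Prop
  RR : List α → V → Prop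
  nu1 : List α → V
  LX : ℕ → List α → V → Prop
  RX : ℕ → List α → V → Prop
  nu2 : List α → V

namespace Dat

variable {α S V : Type*} [AddCommGroup V] (D : Dat α S V)

/-- wall at the place `t` of `U` -/
def At (U : List α) (t : ℕ) : Prop := t ≤ U.length ∧ D.w.Wo (U.take t)

/-- `t` is the next anchor -/
def First (U : List α) (t : ℕ) : Prop :=
  D.z ≤ t ∧ D.At U t ∧ ∀ s, D.z ≤ s → s < t → ¬ D.At U s

/-- the block code -/
def XX : Set (List α) := {X | D.First X X.length}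

/-- the zone map -/
def T (v : V) (X : List α) : V :=
  D.act (D.act v (D.φ (X.take D.p0)) + D.nu2 (X.take D.p0)) (D.φ (X.drop D.p0)) +
    D.nu1 (X.drop D.p0)

def nu (X : List α) : V :=
  D.act (D.nu2 (X.take D.p0)) (D.φ (X.drop D.p0)) + D.nu1 (X.drop D.p0)

/-- scheme 1, left -/
def LP1 (P : List α) (v : V) : Prop :=
  D.p0 ≤ P.length ∧ D.LL (P.drop D.p0) (D.act v (D.φ (P.take D.p0)) + D.nu2 (P.take D.p0))

/-- scheme 1, right -/
def RP1 (Q : List α) (b : V) : Prop :=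
  D.At Q Q.length ∧ D.z ≤ D.p0 + Q.length ∧
    (∀ t, t < Q.length → D.At Q t → D.p0 + D.N1 + t < D.z) ∧ D.RR Q b

/-- scheme 2, left -/
def LP2 (P : List α) (v : V) : Prop := ∃ k < D.K, P.length = D.c k ∧ D.LX k P v

/-- next anchor (place in `Q`) of the hypothetical anchor `c k` letters before `Q` -/
def HypN (k : ℕ) (Q : List α) (t : ℕ) : Prop :=
  D.z ≤ D.c k + t ∧ D.At Q t ∧ ∀ s, D.z ≤ D.c k + s → s < t → ¬ D.At Q s

def HypBad (k : ℕ) (Q : List α) : Prop :=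
  ∃ t, D.HypN k Q t ∧ ((∃ s, D.At Q s ∧ D.z ≤ D.c k + s + D.N1 ∧ D.c k + s ≤ D.z + D.N1) ∨
    D.BadT (D.c k + t - D.p0))

/-- scheme 2, right -/
def RP2 (Q : List α) (b : V) : Prop :=
  ∃ (k : ℕ) (Q1 X2 : List α) (r : V), k < D.K ∧ D.HypBad k Q ∧
    (∀ k' < D.K, D.HypBad k' Q → k' = k) ∧ Q = Q1 ++ X2 ∧ D.HypN k Q Q1.length ∧ X2 ∈ D.XX ∧
    D.RX k (Q1.take (D.p0 - D.c k)) r ∧
    b = D.T (D.act r (D.φ (Q1.drop (D.p0 - D.c k))) + D.nu1 (Q1.drop (D.p0 - D.c k))) X2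

open Classical in
noncomputable def R1 (Q : List α) : Option V := if h : ∃ b, D.RP1 Q b then some h.choose else none

open Classical in
noncomputable def R2 (Q : List α) : Option V := if h : ∃ b, D.RP2 Q b then some h.choose else none

/-- hypotheses -/
structure Ok [Monoid S] (D : Dat α S V) (C1 : ℕ) : Prop where
  φ_app : ∀ u v : List α, D.φ (u ++ v) = D.φ u * D.φ v
  act_mul : ∀ v s t, D.act (D.act v s) t = D.act v (s * t)
  act_add : ∀ v w s, D.act (v + w) s = D.act v s + D.act w s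
  LL_len : ∀ (P : List α) (v : V), D.LL P v → P.length ≤ D.N1
  sound : ∀ (P Q : List α) (v b : V), D.LL P v → D.RR Q b → b = D.act v (D.φ (P ++ Q)) + D.nu1 (P ++ Q)
  comp : ∀ Y : List α, D.N1 ≤ Y.length → ¬ D.BadT Y.length → ∀ v, ∃ P Q b, Y = P ++ Q ∧ D.LL P v ∧ D.RR Q b
  xsound : ∀ k < D.K, ∀ (P Q : List α) (v b : V), P.length = D.c k → (P ++ Q).length = D.p0 → D.LX k P v →
    D.RX k Q b → b = D.act v (D.φ (P ++ Q)) + D.nu2 (P ++ Q)
  xcomp : ∀ (u : List α) (v : V), u.length = D.p0 → ∃ I : Finset ℕ, 2 + 2 * C1 ≤ I.card ∧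
    ∀ k ∈ I, k < D.K ∧ D.LX k (u.take (D.c k)) v ∧ ∃ b, D.RX k (u.drop (D.c k)) b
  c_le : ∀ k < D.K, D.c k ≤ D.p0
  ruler : ∀ k k' l l', k < D.K → k' < D.K → l < D.K → l' < D.K → k ≠ k' → l ≠ l' →
    (D.c k : ℤ) - D.c k' ≤ D.c l - D.c l' + 2 * D.N1 →
    (D.c l : ℤ) - D.c l' ≤ D.c k - D.c k' + 2 * D.N1 → k = l
  thin : ∀ T, D.p0 ≤ T → ∃ J : Finset ℕ, J.card ≤ C1 ∧ ∀ k < D.K, ∀ k' < D.K, k' ≠ k →
    D.BadT (T + D.c k' - D.c k) → k ∈ J
  hz : 3 * D.p0 + D.N1 + D.w.n + 1 ≤ D.z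
  hW : 2 * D.p0 + 2 * D.N1 ≤ D.w.W

end Dat

end Crest.Agent.R320.Inst_128
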