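import Crest.Agent.R320.Zone132_898
import Crest.Agent.R320.Ruler2_537
import Crest.Agent.R320.ExactR_237

/-!
# Row 320: the concrete instance of the two schemes of 132 #12664 in 131's one-token form

Definitions: integer walls `WL` of a list, the next anchor `N`, the noise `nu`, the zone map `zm`,
the left / right labels `L1 R1 L2 R2` of both schemes and the promise `BadY`.
(helper499; scheme 1 = 898's Zone132, chain = 260's ThrChain, ruler = 537, exact gadget = 237.)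
-/

set_option autoImplicit false

namespace Crest.Agent.R320.Inst_499

open Crest.Agent.R320.ThrChain260 Crest.Agent.R320.Zone132_898 Crest.Agent.R320.Ruler2_537

/-- integer walls of a list -/
def WL {α : Type*} (r : Rule α) (X : List α) (t : ℤ) : Prop := 0 ≤ t ∧ r.R (X.drop t.toNat)

/-- all data and the inequalities between the constants -/
structure Inst (α S V W : Type*) [Monoid S] [AddCommGroup V] [AddCommGroup W] where
  /-- scheme 1: `Z.r` = small rule, `Z.q` = comb modulus, `Z.M` = length of a cell -/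
  Z : Zone132_898.Data α S V W
  /-- the outer wall rule -/
  ro : Rule α
  P : ThrChain260.Par
  Cl : List α → Prop
  p0 : ℕ
  z : ℕ
  Sg : ℕ
  Bm : ℕ
  q0 : ℕ
  D1 : ℕ
  D2 : ℕ
  /-- maximal gap (outer, small) -/
  G : ℕ
  Gs : ℕ
  /-- the places of scheme 2 -/
  K : ℕ
  c : ℕ → ℕ
  lam : ℕ → List α → Option V
  rho : ℕ → List α → Option V
  nu2 : List α → V
  ms : ℕ → ℤ
  r : ℕ
  -- relations
  act_add : ∀ u v s, Z.act (u + v) s = Z.act u s + Z.act v s
  act_mul : ∀ v s t, Z.act v (s * t) = Z.act (Z.act v s) t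
  Cl_drop : ∀ U k, Cl U → Cl (U.drop k)
  Cl_take : ∀ U k, Cl U → Cl (U.take k)
  wallO : ∀ U, Cl U → G + ro.n ≤ U.length → ∃ t, t ≤ G ∧ ro.R (U.drop t)
  wallS : ∀ U, Cl U → Gs + Z.r.n ≤ U.length → ∃ t, t ≤ Gs ∧ Z.r.R (U.drop t)
  Pp0 : P.p0 = p0
  Pz : P.z = z
  PS : P.S = Sg
  PM : P.M = Z.q
  /-- the window of scheme 1 -/
  win : ∀ i, i < Z.m → (Z.q : ℤ) * (Z.lo i + Z.M) ≤ P.N1
  cell0 : ∀ i, i < Z.m → Z.A i + Gs + Z.r.n ≤ Z.q * Z.lo i
  A0 : Z.q * Z.M ≤ Z.A 0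
  /-- the last level, the last cell lie in the zone -/
  zbig : p0 + Z.A Z.m + Z.q * Z.M + Gs + Z.r.n + Sg + P.L.toNat + P.N1.toNat + 1 ≤ z
  Bbig : z + Sg + G + ro.n + 1 ≤ Bm
  q0big : 2 * Sg + G + ro.n + (Bm - (z + Sg + G + ro.n)) ≤ q0
  D1big : Bm + Bm ≤ D1
  D2big : Bm + Bm + P.L.toNat + D1 ≤ D2
  cq0 : ∀ k, k < K → q0 ≤ c k
  cp0 : ∀ k, k < K → c k ≤ p0
  cmono : ∀ i j, i < j → j < K → c i < c j
  exact2 : ∀ k < K, ∀ (X Q : List α) (v b : V), X.length = c k → lam k X = some v →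
    rho k Q = some b → b = Z.act v (Z.phi (X ++ Q)) + nu2 (X ++ Q)

variable {α S V W : Type*} [Monoid S] [AddCommGroup V] [AddCommGroup W]

namespace Inst

variable (I : Inst α S V W)

open Classical in
/-- next anchor, read on `y`, `|y| = Bm` -/
noncomputable def N (y : List α) : ℕ :=
  if h : ∃ t : ℕ, 0 < t ∧ t ≤ I.Bm ∧ IsN I.P (WL I.ro y) 0 t then h.choose else I.Bm

/-- the noise of a zone -/
noncomputable def nu (y : List α) : V :=
  I.Z.act (I.nu2 (y.take I.p0)) (I.Z.phi ((y.take (I.N y)).drop I.p0)) +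
    I.Z.nu ((y.take (I.N y)).drop I.p0)

/-- the zone map -/
noncomputable def zm (y : List α) (v : V) : V := I.Z.act v (I.Z.phi (y.take (I.N y))) + I.nu y

/-- scheme 1, left side -/
def L1 (u : List α) (v : V) : Prop :=
  I.p0 ≤ u.length ∧ I.Z.LL (u.drop I.p0) (I.Z.act v (I.Z.phi (u.take I.p0)) + I.nu2 (u.take I.p0))

/-- scheme 1, right side -/
def RR1 (r : List α) (p : ℕ × V) : Prop :=
  Legal I.P (WL I.ro r) 0 ∧ IsB I.P (WL I.ro r) 0 p.1 ∧ I.Z.RR (r.take p.1) p.2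

open Classical in
noncomputable def R1 (r : List α) : Option (ℕ × V) :=
  if h : ∃ p, I.RR1 r p then some h.choose else none

/-- the levels in absolute position -/
def Al (k : ℕ) : ℤ := (I.p0 : ℤ) + I.Z.A k

/-- bad anchor `a` of the text `X` -/
def BadA (X : List α) (a : ℤ) : Prop :=
  Bad I.P (WL I.ro X) (WL I.Z.r X) I.Al ((I.Z.q * I.Z.M : ℕ) : ℤ) (I.Z.m + 1) I.ms I.r a

/-- the promise of scheme 2 -/
def BadY (y : List α) : Prop := I.BadA y 0

/-- scheme 2, left side -/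
def L2 (u : List α) (v : V) : Prop := ∃ k, k < I.K ∧ u.length = I.c k ∧ I.lam k u = some v

/-- scheme 2, right side -/
def RR2 (r : List α) (p : ℕ × V) : Prop :=
  ∃ k, k < I.K ∧ (∀ k', k' < I.K → (I.BadA r (-(I.c k' : ℤ)) ↔ k' = k)) ∧
    IsN I.P (WL I.ro r) (-(I.c k : ℤ)) p.1 ∧ ∃ b, I.rho k (r.take (I.p0 - I.c k)) = some b ∧
    p.2 = I.Z.act b (I.Z.phi ((r.take p.1).drop (I.p0 - I.c k))) +
      I.Z.nu ((r.take p.1).drop (I.p0 - I.c k))

open Classical in
noncomputable def R2 (r : List α) : Option (ℕ × V) :=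
  if h : ∃ p, I.RR2 r p then some h.choose else none

end Inst

/-! ### congruence of everything under change of far walls -/

section Congr

variable {P : Par} {Wl Wl' Ws Ws' : ℤ → Prop} {a lo hi : ℤ}

theorem isN_congr (hag : ∀ t, lo ≤ t → t ≤ hi → (Wl t ↔ Wl' t))
    (hlo : lo ≤ a + P.z - (P.S - P.N1)) {u : ℤ} (hu : Wl u) (hu1 : a + P.z + (P.S - P.N1) ≤ u)
    (hu2 : u ≤ hi) (hSN : P.N1 ≤ P.S) (b : ℤ) : IsN P Wl a b ↔ IsN P Wl' a b := by
  have hlu : lo ≤ u := by linarith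
  have hu' : Wl' u := (hag u hlu hu2).1 hu
  constructor
  · rintro ⟨h1, h2⟩
    have hb : b ≤ u := by
      by_contra hc
      exact h2 u (not_le.1 hc) (qual_of_ge hu hu1)
    have hb2 := qual_ge h1
    refine ⟨⟨(hag b (by linarith) (by linarith)).1 h1.1, h1.2⟩, fun t ht hq => ?_⟩
    have ht2 := qual_ge hq
    exact h2 t ht ⟨(hag t (by linarith) (by linarith)).2 hq.1, hq.2⟩
  · rintro ⟨h1, h2⟩
    have hb : b ≤ u := by
      by_contra hc
      exact h2 u (not_le.1 hc) (qual_of_ge hu' hu1)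
    have hb2 := qual_ge h1
    refine ⟨⟨(hag b (by linarith) (by linarith)).2 h1.1, h1.2⟩, fun t ht hq => ?_⟩
    have ht2 := qual_ge hq
    exact h2 t ht ⟨(hag t (by linarith) (by linarith)).1 hq.1, hq.2⟩

theorem bad_congr_imp (hag : ∀ t, lo ≤ t → t ≤ hi → (Wl t ↔ Wl' t))
    (hags : ∀ t, lo ≤ t → t ≤ hi → (Ws t ↔ Ws' t))
    (hlo : lo ≤ a + P.z - P.S) {u : ℤ} (hu : Wl u) (hu1 : a + P.z + P.S ≤ u)
    (hu2 : u ≤ hi) (hSN : P.N1 ≤ P.S) {A : ℕ → ℤ} {D : ℤ} {K : ℕ} {m : ℕ → ℤ} {r : ℕ}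
    (hA : ∀ k, k < K → lo ≤ a + A k - D ∧ a + A k + D ≤ hi)
    (h : Bad P Wl Ws A D K m r a) : Bad P Wl' Ws' A D K m r a := by
  have hN := P.hN
  rcases h with ⟨t, ht, h1⟩ | ⟨k, hk, w, hw, h1⟩ | ⟨i, hi', b, hb, h1⟩
  · left
    have h2 := abs_le.1 h1
    have h3 := s_ge (P := P) ((t - a - P.z) % P.M)
    have h4 := s_le (P := P) ((t - a - P.z) % P.M)
    exact ⟨t, (hag t (by linarith [h2.1]) (by linarith [h2.2])).1 ht, h1⟩
  · right; left
    have h2 := abs_le.1 h1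
    have h3 := hA k hk
    exact ⟨k, hk, w, (hags w (by linarith [h2.1, h3.1]) (by linarith [h2.2, h3.2])).1 hw, h1⟩
  · right; right
    exact ⟨i, hi', b, (isN_congr hag (by linarith) hu (by linarith) hu2 hSN b).1 hb, h1⟩

theorem bad_congr (hag : ∀ t, lo ≤ t → t ≤ hi → (Wl t ↔ Wl' t))
    (hags : ∀ t, lo ≤ t → t ≤ hi → (Ws t ↔ Ws' t))
    (hlo : lo ≤ a + P.z - P.S) {u : ℤ} (hu : Wl u) (hu1 : a + P.z + P.S ≤ u)
    (hu2 : u ≤ hi) (hSN : P.N1 ≤ P.S) {A : ℕ → ℤ} {D : ℤ} {K : ℕ} {m : ℕ → ℤ} {r : ℕ}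
    (hA : ∀ k, k < K → lo ≤ a + A k - D ∧ a + A k + D ≤ hi) :
    Bad P Wl Ws A D K m r a ↔ Bad P Wl' Ws' A D K m r a := by
  have hN := P.hN
  refine ⟨bad_congr_imp hag hags hlo hu hu1 hu2 hSN hA, ?_⟩
  refine bad_congr_imp (fun t h1 h2 => (hag t h1 h2).symm) (fun t h1 h2 => (hags t h1 h2).symm)
    hlo ((hag u (by linarith) hu2).1 hu) hu1 hu2 hSN hA

theorem isN_shift (x b : ℤ) :
    IsN P (fun t => Wl (t + x)) (a - x) (b - x) ↔ IsN P Wl a b := by
  unfold IsN Qual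
  have e : ∀ t : ℤ, t - x - (a - x) - P.z = t - a - P.z := fun t => by ring
  have e' : ∀ t : ℤ, t - (a - x) - P.z = t + x - a - P.z := fun t => by ring
  simp only [e, sub_add_cancel]
  constructor
  · rintro ⟨h1, h2⟩
    refine ⟨h1, fun t ht hq => h2 (t - x) (by linarith) ?_⟩
    rw [e', sub_add_cancel]; exact hq
  · rintro ⟨h1, h2⟩
    refine ⟨h1, fun t ht hq => h2 (t + x) (by linarith) ?_⟩
    rw [e'] at hq; exact hq

theorem bad_shift {A : ℕ → ℤ} {D : ℤ} {K : ℕ} {m : ℕ → ℤ} {r : ℕ} (x : ℤ) :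
    Bad P (fun t => Wl (t + x)) (fun t => Ws (t + x)) A D K m r (a - x) ↔
      Bad P Wl Ws A D K m r a := by
  unfold Bad E DBad BBad
  have e' : ∀ t : ℤ, t - (a - x) - P.z = t + x - a - P.z := fun t => by ring
  have e2 : ∀ t y : ℤ, t - (a - x) - y = t + x - a - y := fun t y => by ring
  constructor
  · rintro (⟨t, ht, h1⟩ | ⟨k, hk, w, hw, h1⟩ | ⟨i, hi', b, hb, h1⟩)
    · left; refine ⟨t + x, ht, ?_⟩; rw [e'] at h1; exact h1
    · right; left; refine ⟨k, hk, w + x, hw, ?_⟩; rw [e2] at h1; exact h1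
    · right; right
      refine ⟨i, hi', b + x, ?_, ?_⟩
      · have := (isN_shift (P := P) (Wl := Wl) (a := a) x (b + x)).1 (by
          rw [add_sub_cancel_right]; exact hb)
        exact this
      · rw [e2] at h1; exact h1
  · rintro (⟨t, ht, h1⟩ | ⟨k, hk, w, hw, h1⟩ | ⟨i, hi', b, hb, h1⟩)
    · left; refine ⟨t - x, by simpa using ht, ?_⟩; rw [e']; simpa using h1
    · right; left; refine ⟨k, hk, w - x, by simpa using hw, ?_⟩; rw [e2]; simpa using h1
    · right; right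
      refine ⟨i, hi', b - x, (isN_shift x b).2 hb, ?_⟩
      rw [e2]; simpa using h1

end Congr

/-! ### walls of sublists -/

theorem WL_append_right {r : Rule α} {u X : List α} {t : ℤ} (ht : 0 ≤ t) :
    WL r (u ++ X) (t + u.length) ↔ WL r X t := by
  obtain ⟨n, rfl⟩ := Int.eq_ofNat_of_zero_le ht
  unfold WL
  have e : (((n : ℕ) : ℤ) + (u.length : ℤ)).toNat = u.length + n := by omega
  rw [e, drop_add]
  simp only [Int.toNat_natCast]
  constructor
  · exact fun h => ⟨by omega, h.2⟩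
  · exact fun h => ⟨by omega, h.2⟩

theorem WL_take {r : Rule α} {X : List α} {t : ℤ} {B : ℕ} (ht : t + r.n ≤ B) :
    WL r (X.take B) t ↔ WL r X t := by
  unfold WL
  refine and_congr_right fun h0 => ?_
  obtain ⟨n, rfl⟩ := Int.eq_ofNat_of_zero_le h0
  have hn : n + r.n ≤ B := by omega
  simp only [Int.toNat_natCast]
  rw [r.take_iff ((X.take B).drop n), r.take_iff (X.drop n), List.drop_take, List.take_take,
    min_eq_left (by omega)]

theorem WL_take_imp {r : Rule α} {X : List α} {t : ℤ} {B : ℕ} (h : WL r (X.take B) t) :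
    WL r X t := by
  have h1 := r.len _ h.2
  rw [List.length_drop, List.length_take] at h1
  exact (WL_take (by have := r.pos; have := h.1; omega)).1 h

end Crest.Agent.R320.Inst_499
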