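import Crest.Agent.R320.InstD_377

/-!
# Row 320: instance on ALL words (helper377), part E: constants and the final theorem from the
text-independent gadget `Box`
-/

set_option autoImplicit false
set_option linter.unusedSectionVars false

namespace Crest.Agent.R320.Inst_377

open Crest.Agent.R320.Hk_851 Crest.Agent.R320.FewWalls_228 Crest.Agent.R320.Code110
  Crest.Agent.R320.Top5_110 Crest.Agent.R320.ExactR_237 Crest.Agent.R320.FewVal_228

/-- the text-independent gadget with its ruler -/
def Box (S V : Type) [Monoid S] [AddCommGroup V] (act : V → S → V) : Prop :=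
  ∃ C0 : ℕ, ∀ K : ℕ, ∃ (N M : ℕ) (Bad : ℤ → Prop), 0 < M ∧ (∀ T, Bad (T + M) ↔ Bad T) ∧
    (∀ U : ℕ, ∃ c : ℕ → ℕ, StrictMono c ∧
      (∀ a b a' b' : ℕ, a < K → b < K → a' < K → b' < K → a ≠ b → a' ≠ b' → a ≠ a' →
        (U : ℤ) ≤ |((c a : ℤ) - c b) - ((c a' : ℤ) - c b')|) ∧
      (∀ (T : ℤ) (F : Finset (ℕ × ℕ)), (∀ q ∈ F, q.1 < K ∧ q.2 < K ∧ q.1 ≠ q.2 ∧
        Bad (T + c q.1 - c q.2)) → F.card ≤ C0)) ∧
    ∀ (α : Type) (f : α → S), ∃ (lam rho : List α → Option V) (nu : List α → V),
      (∀ P v, lam P = some v → P.length < N) ∧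
      (∀ P Q v r, lam P = some v → rho Q = some r → r = act v (pr f (P ++ Q)) + nu (P ++ Q)) ∧
      (∀ X : List α, 2 * N ≤ X.length → ¬ Bad X.length → ∀ v, ∃ P Q r, X = P ++ Q ∧
        lam P = some v ∧ rho Q = some r) ∧
      (∀ u u' : List α, N ≤ u.length → N ≤ u'.length → u.take N = u'.take N →
        u.length % M = u'.length % M → pr f (u.drop N) = pr f (u'.drop N) → nu u = nu u')

theorem pr_append {A M : Type} [Monoid M] (f : A → M) (u v : List A) :
    pr f (u ++ v) = pr f u * pr f v := by
  unfold pr; simp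

theorem fin_of_box {α : Type} [Finite α] {M : Type} [Monoid M] [Finite M] (f : α → M)
    (hBox : Box M (Two_621.Tok M) Two_621.act) (s : M) :
    HL 3 ({w | pr f w = s} : Language α) := by
  classical
  haveI : Fintype M := Fintype.ofFinite M
  let V := Two_621.Tok M
  haveI : Fintype V := inferInstanceAs (Fintype (M → ZMod 2))
  let act : V → M → V := Two_621.act
  obtain ⟨C0, hC0⟩ := hBox
  obtain ⟨K, hK⟩ := exact_gadget α M V f act (2 * C0 + 2)
  obtain ⟨N, M0, Bad, hM0, hper, hU, hgad⟩ := hC0 K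
  obtain ⟨c, hcm, hsep, hcount⟩ := hU (2 * N + 1)
  obtain ⟨lam2, rho2, nu2, hs2, hc2⟩ := hK c (fun i j hij _ => hcm hij)
  obtain ⟨lam, rho, nu1, hlen, hsound, hcomp, hkey⟩ := hgad α f
  let p : ℕ := c K
  have hcp : ∀ k < K, c k ≤ p := fun k hk => (hcm.monotone hk.le)
  let W : ℕ := 3 * p + 2 * N + 1
  obtain ⟨n, cc, P, S, hn, hP, -, hsepw, hoff, -⟩ := exists_walls α W (by omega)
  let z : ℕ := 3 * p + 5 * N + n + 1
  have hgap : ∀ (w : List α) a b, WA n S w a → WA n S w b → a < b → a + W ≤ b := by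
    intro w a b ha hb hab
    obtain ⟨x, rfl⟩ : ∃ x, a = x + n := ⟨a - n, by have := ha.1; omega⟩
    obtain ⟨y, rfl⟩ : ∃ y, b = y + n := ⟨b - n, by have := hb.1; omega⟩
    have := hsepw w x y (by omega) (wl_wa.2 ha) (wl_wa.2 hb)
    omega
  have hφ : ∀ u w : List α, pr f (u ++ w) = pr f u * pr f w := pr_append f
  let T := TT (pr f) act p nu1 (fun X => nu2 X 1)
  have hadd : ∀ a b s, act (a + b) s = act a s + act b s := fun a b s => Two_621.act_add a b s
  have hmul : ∀ v s t, act v (s * t) = act (act v s) t := fun v s t =>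
    (Two_621.act_mul v s t).symm
  have hbound : ∀ (B : ℕ) (g : List α → Prop), {P : List α | P.length ≤ B ∧ g P}.Finite :=
    fun B g => (List.finite_length_le α B).subset fun P hP => hP.1
  have hker : ∀ x y, HL 1 (ZT (XX n S z) T x y : Language α) := by
    intro x y
    refine hl_key (z := z) f hn hP hoff (A := p + N) hM0 (by omega) (fun X => T X x = y) ?_
    intro u u' h1 h2 h3 h4 h5
    have e1 : u.take p = u'.take p := by
      have := congrArg (List.take p) h3
      rwa [List.take_take, List.take_take, min_eq_left (Nat.le_add_right p N)] at this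
    have e2 : (u.drop p).take N = (u'.drop p).take N := by
      have := congrArg (List.drop p) h3
      rwa [List.drop_take, List.drop_take, Nat.add_sub_cancel_left] at this
    have e3 : (u.drop p).drop N = u.drop (p + N) := by rw [List.drop_drop]
    have e4 : (u'.drop p).drop N = u'.drop (p + N) := by rw [List.drop_drop]
    have l1 : (u.drop p).length % M0 = (u'.drop p).length % M0 := by
      have k1 : u.length = (u.drop p).length + p := by rw [List.length_drop]; omega
      have k2 : u'.length = (u'.drop p).length + p := by rw [List.length_drop]; omega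
      rw [k1, k2] at h4
      exact Nat.ModEq.add_right_cancel' p h4
    have e5 : nu1 (u.drop p) = nu1 (u'.drop p) :=
      hkey _ _ (by rw [List.length_drop]; omega) (by rw [List.length_drop]; omega) e2 l1
        (by rw [e3, e4, h5])
    have e6 : pr f (u.drop p) = pr f (u'.drop p) := by
      rw [← List.take_append_drop N (u.drop p), ← List.take_append_drop N (u'.drop p), hφ, hφ,
        e2, e3, e4, h5]
    show TT (pr f) act p nu1 (fun X => nu2 X 1) u x = y ↔
      TT (pr f) act p nu1 (fun X => nu2 X 1) u' x = y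
    unfold TT
    rw [e1, e5, e6]
  refine top_sem (φ := pr f) (act := act) (XX := XX n S z) (Bad := BB n S z N p Bad) (T := T)
    (N1 := 0) (N2 := 1) (L1 := L1 (pr f) act p N (fun X => nu2 X 1) lam) (L2 := L2 K c lam2)
    (by simp [pr]) hφ Two_621.act_one hmul (fun s t h => Two_621.act_faithful h)
    (XX_pc (by omega)) (fun u hu => (mem_BB.1 hu).1)
    (fun u _ v v' => TT_sub hφ hadd hmul u v v')
    (hl_XX1 hn hP hoff) (hl_BB hn hP hoff hM0 hper) hker
    (fun s => (hl_tail f hn hP hoff s).mono (by omega)) ?_ ?_ ?_ ?_ s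
  · intro v
    exact (hbound (p + N) fun P => P ∈ L1 (pr f) act p N (fun X => nu2 X 1) lam v).subset
      fun P hP' => ⟨hP'.2.1.le, hP'⟩
  · intro v
    refine (hbound p fun P => P ∈ L2 K c lam2 v).subset fun P hP' => ⟨?_, hP'⟩
    obtain ⟨k, hk, h1, -⟩ := hP'
    rw [h1]; exact hcp k hk
  · intro u hu hb x
    exact C1 (A := 2 * N) (by omega) hlen hsound hcomp u hu hb x
  · intro u hu x
    refine C2 (W := W) (R := 2 * C0 + 2) (C0 := C0) (c := c) (rho2 := fun k Q => rho2 k Q 1)
      (nu2 := fun X => nu2 X 1) (by omega) (by omega) hgap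
      (fun i _ j _ h => hcm.injective h) hcp ?_ ?_ ?_ ?_ (by omega) u hu x
    · intro k hk P' Q v b h1 h2 h3
      have := hs2 k hk P' Q 1 v b h1 h2 h3
      rw [mul_one] at this
      exact this
    · intro u v hu
      obtain ⟨I, h1, h2⟩ := hc2 u 1 v (fun k hk => by rw [hu]; exact hcp k hk)
      exact ⟨I, h1, h2⟩
    · intro t F hF
      rw [Finset.card_le_one]
      intro a ha b hb
      by_contra hne
      obtain ⟨h1, a', h2, h3, h4⟩ := hF a ha
      obtain ⟨h5, b', h6, h7, h8⟩ := hF b hb
      have h9 := hsep a a' b b' h1 h2 h5 h6 (Ne.symm h3) (Ne.symm h7) hne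
      have h10 := abs_le.1 h4
      have h11 := abs_le.1 h8
      have h12 : |((c a : ℤ) - c a') - ((c b : ℤ) - c b')| ≤ 2 * N := by
        rw [abs_le]
        constructor <;> linarith [h10.1, h10.2, h11.1, h11.2]
      push_cast at h9
      linarith
    · intro t F hF
      have hch : ∀ k, ∃ k', k ∈ F → k < K ∧ k' < K ∧ k' ≠ k ∧ Bad (t + c k' - c k) := by
        intro k
        by_cases hk : k ∈ F
        · obtain ⟨h1, k', h2, h3, h4⟩ := hF k hk
          exact ⟨k', fun _ => ⟨h1, h2, h3, h4⟩⟩
        · exact ⟨0, fun h => absurd h hk⟩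
      choose g hg using hch
      have h1 := hcount t (F.image fun k => (g k, k)) (by
        intro q hq
        obtain ⟨k, hk, rfl⟩ := Finset.mem_image.1 hq
        obtain ⟨h1, h2, h3, h4⟩ := hg k hk
        exact ⟨h2, h1, h3, h4⟩)
      rwa [Finset.card_image_of_injective] at h1
      intro a b hab
      exact (Prod.mk.inj hab).2

end Crest.Agent.R320.Inst_377
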