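import Crest.Agent.R320.InstD_598

set_option autoImplicit false

namespace Crest.Agent.R320.Inst_598

open Finset

universe u

variable {α : Type u} {n W : ℕ} {Wo : List α → Prop}

theorem transfer (hW : Walls α n W Wo) (w P' : List α) (ck s : ℕ) (hs : n ≤ s)
    (hsl : ck + s ≤ w.length) :
    (Wo ((P' ++ w.drop ck).take (P'.length + s)) ↔ Wo (w.take (ck + s))) := by
  have hl : n ≤ ((w.drop ck).take s).length := by
    rw [List.length_take, List.length_drop]; omega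
  rw [List.take_length_add_append, List.take_add, hW.loc _ _ hl, hW.loc _ _ hl]

open Classical in
theorem spoil {S V : Type u} [Monoid S] [AddCommGroup V] (D : Dat α S V n W Wo)
    (hW : Walls α n W Wo) (C : ℕ) (BZ : ℤ → Prop) (hBZ : ∀ m : ℕ, D.BadT m ↔ BZ m)
    (hc : ∀ k < D.K, D.c k ≤ D.p0) (hWb : 2 * D.p0 + 2 * D.N1 + 1 ≤ W)
    (hz : 2 * D.p0 + n + D.N1 + 1 ≤ D.z)
    (hgol : ∀ a b c d, a < D.K → b < D.K → c < D.K → d < D.K → a ≠ b →
      |((D.c a : ℤ) - D.c b) - (D.c c - D.c d)| ≤ (2 * D.N1 : ℕ) → a = c ∧ b = d)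
    (hthin : ∀ T : ℤ, (((Finset.range D.K ×ˢ Finset.range D.K).filter
      (fun ab => ab.1 ≠ ab.2 ∧ BZ (T + D.c ab.1 - D.c ab.2))).card ≤ C))
    (w : List α) (hw : Wo w) (hwl : D.z + D.p0 ≤ w.length) :
    ∃ J : Finset ℕ, J.card ≤ 1 + 2 * C ∧ ∀ k < D.K, k ∉ J → ∀ j < D.K, j ≠ k →
      ∀ P' : List α, P'.length = D.c j →
        ∃ X'' ∈ D.XX, X'' ∉ D.Bad ∧ X'' <+: P' ++ w.drop (D.c k) := by
  -- first wall
  have hex1 : ∃ s, D.z ≤ s + D.p0 ∧ s ≤ w.length ∧ Wo (w.take s) :=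
    ⟨w.length, by omega, le_rfl, by rw [List.take_length]; exact hw⟩
  obtain ⟨e1, he1, hmin1⟩ : ∃ e1, (D.z ≤ e1 + D.p0 ∧ e1 ≤ w.length ∧ Wo (w.take e1)) ∧
      ∀ s, (D.z ≤ s + D.p0 ∧ s ≤ w.length ∧ Wo (w.take s)) → e1 ≤ s :=
    ⟨Nat.find hex1, Nat.find_spec hex1, fun s hs => Nat.find_min' hex1 hs⟩
  obtain ⟨e2, hmin2⟩ : ∃ e2, ∀ s, (e1 < s ∧ s ≤ w.length ∧ Wo (w.take s)) →
      (e1 < e2 ∧ e2 ≤ w.length ∧ Wo (w.take e2)) ∧ e2 ≤ s := by
    by_cases hex2 : ∃ s, e1 < s ∧ s ≤ w.length ∧ Wo (w.take s)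
    · exact ⟨Nat.find hex2, fun s hs => ⟨Nat.find_spec hex2, Nat.find_min' hex2 hs⟩⟩
    · exact ⟨0, fun s hs => (hex2 ⟨s, hs⟩).elim⟩
  let JE : Finset ℕ := (Finset.range D.K).filter (fun k => ∃ j < D.K, j ≠ k ∧ ∃ s, n ≤ s ∧
    D.c k + s ≤ w.length ∧ Wo (w.take (D.c k + s)) ∧ D.z ≤ D.c j + s + D.N1 ∧
      D.c j + s < D.z + D.N1)
  let F : ℤ → Finset (ℕ × ℕ) := fun T => ((Finset.range D.K ×ˢ Finset.range D.K).filter
      (fun ab => ab.1 ≠ ab.2 ∧ BZ (T + D.c ab.1 - D.c ab.2)))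
  let JB : ℤ → Finset ℕ := fun T => (F T).image Prod.snd
  have hJE : JE.card ≤ 1 := by
    rw [Finset.card_le_one]
    intro k1 hk1 k2 hk2
    obtain ⟨h1, j1, hj1, hjk1, s1, a1, a2, a3, a4, a5⟩ := Finset.mem_filter.1 hk1
    obtain ⟨h2, j2, hj2, hjk2, s2, b1, b2, b3, b4, b5⟩ := Finset.mem_filter.1 hk2
    have hk1' := Finset.mem_range.1 h1
    have hk2' := Finset.mem_range.1 h2
    have q1 := hc k1 hk1'
    have q2 := hc k2 hk2'
    have q3 := hc j1 hj1
    have q4 := hc j2 hj2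
    have hs : D.c k1 + s1 = D.c k2 + s2 := by
      by_contra hne
      rcases Nat.lt_or_gt_of_ne hne with hlt | hlt
      · have := hW.sep w _ _ hlt b2 a3 b3
        omega
      · have := hW.sep w _ _ hlt a2 b3 a3
        omega
    have hg := hgol j1 k1 j2 k2 hj1 hk1' hj2 hk2' hjk1 (by
      rw [abs_le]; push_cast; constructor <;> omega)
    exact hg.2
  have hJB : ∀ T, (JB T).card ≤ C := fun T => Finset.card_image_le.trans (hthin T)
  refine ⟨JE ∪ JB ((e1 : ℤ) - D.p0) ∪ JB ((e2 : ℤ) - D.p0), ?_, ?_⟩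
  · have h1 := Finset.card_union_le (JE ∪ JB ((e1 : ℤ) - D.p0)) (JB ((e2 : ℤ) - D.p0))
    have h2 := Finset.card_union_le JE (JB ((e1 : ℤ) - D.p0))
    have h3 := hJB ((e1 : ℤ) - D.p0)
    have h4 := hJB ((e2 : ℤ) - D.p0)
    omega
  · intro k hk hkJ j hj hjk P' hP'
    have q1 := hc k hk
    have q2 := hc j hj
    rw [Finset.mem_union, Finset.mem_union, not_or, not_or] at hkJ
    obtain ⟨⟨nE, nB1⟩, nB2⟩ := hkJ
    set w' := P' ++ w.drop (D.c k) with hw'
    have hw'l : w'.length = D.c j + (w.length - D.c k) := by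
      rw [hw', List.length_append, List.length_drop, hP']
    have hww : Wo (w'.take (P'.length + (w.length - D.c k))) := by
      rw [hw', transfer hW w P' (D.c k) (w.length - D.c k) (by omega) (by omega)]
      rw [show D.c k + (w.length - D.c k) = w.length by omega, List.take_length]
      exact hw
    -- the first block
    have hex : ∃ t, D.z ≤ t ∧ t ≤ w'.length ∧ Wo (w'.take t) :=
      ⟨_, by rw [hP']; omega, by rw [hP', hw'l], hww⟩
    obtain ⟨t, ht, hmin⟩ : ∃ t, (D.z ≤ t ∧ t ≤ w'.length ∧ Wo (w'.take t)) ∧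
        ∀ s, (D.z ≤ s ∧ s ≤ w'.length ∧ Wo (w'.take s)) → t ≤ s :=
      ⟨Nat.find hex, Nat.find_spec hex, fun s hs => Nat.find_min' hex hs⟩
    have hl : (w'.take t).length = t := by rw [List.length_take]; exact min_eq_left ht.2.1
    have hXX : w'.take t ∈ D.XX := by
      refine ⟨by rw [hl]; exact ht.1, ht.2.2, ?_⟩
      rintro ⟨r, g1, g2, g3⟩
      rw [hl] at g2
      rw [List.take_take, min_eq_left g2.le] at g3
      have := hmin r ⟨g1, by omega, g3⟩
      omega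
    refine ⟨w'.take t, hXX, ?_, List.take_prefix _ _⟩
    rintro ⟨-, hE | hB⟩
    · obtain ⟨r, g1, g2, g3, g4⟩ := hE
      rw [hl] at g3
      rw [List.take_take, min_eq_left g3] at g4
      obtain ⟨s, rfl⟩ : ∃ s, r = P'.length + s := ⟨r - P'.length, by omega⟩
      have hsn : n ≤ s := by omega
      have hsl : D.c k + s ≤ w.length := by omega
      rw [hw', transfer hW w P' (D.c k) s hsn hsl] at g4
      refine nE (Finset.mem_filter.2 ⟨Finset.mem_range.2 hk, j, hj, hjk, s, hsn, hsl, g4, ?_, ?_⟩)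
      · omega
      · omega
    · rw [hl, hBZ] at hB
      obtain ⟨s, hs⟩ : ∃ s, t = P'.length + s := ⟨t - P'.length, by omega⟩
      have hsn : n ≤ s := by omega
      have hsl : D.c k + s ≤ w.length := by omega
      have hwall : Wo (w.take (D.c k + s)) := by
        have := ht.2.2
        rw [hs, hw', transfer hW w P' (D.c k) s hsn hsl] at this
        exact this
      have hge : e1 ≤ D.c k + s := hmin1 _ ⟨by omega, hsl, hwall⟩
      have hcase : D.c k + s = e1 ∨ D.c k + s = e2 := by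
        by_cases h0 : D.c k + s = e1
        · exact Or.inl h0
        · right
          have hlt : e1 < D.c k + s := lt_of_le_of_ne hge (Ne.symm h0)
          obtain ⟨⟨f1, f2, f3⟩, f4⟩ := hmin2 _ ⟨hlt, hsl, hwall⟩
          have hsep := hW.sep w e1 e2 f1 f2 he1.2.2 f3
          obtain ⟨s2, hs2⟩ : ∃ s2, e2 = D.c k + s2 := ⟨e2 - D.c k, by omega⟩
          have h5 : Wo (w'.take (P'.length + s2)) := by
            rw [hw', transfer hW w P' (D.c k) s2 (by omega) (by omega), ← hs2]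
            exact f3
          have h6 := hmin (P'.length + s2) ⟨by omega, by omega, h5⟩
          omega
      have hcast : ((t - D.p0 : ℕ) : ℤ) = ((D.c k + s : ℕ) : ℤ) - D.p0 + D.c j - D.c k := by
        have : D.p0 ≤ t := by omega
        push_cast [Nat.cast_sub this]
        rw [hs, hP']; push_cast; ring
      rw [hcast] at hB
      have hmem : ∀ e : ℕ, D.c k + s = e → k ∈ JB ((e : ℤ) - D.p0) := by
        rintro e rfl
        refine Finset.mem_image.2 ⟨(j, k), Finset.mem_filter.2 ⟨?_, hjk, hB⟩, rfl⟩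
        exact Finset.mem_product.2 ⟨Finset.mem_range.2 hj, Finset.mem_range.2 hk⟩
      rcases hcase with h0 | h0
      · exact nB1 (hmem _ h0)
      · exact nB2 (hmem _ h0)

end Crest.Agent.R320.Inst_598
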