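import Crest.Agent.R320.InstD_753

/-!
# Row 320: instance of `top5` (helper753), part E: heights of the concrete sets
-/

set_option autoImplicit false

namespace Crest.Agent.R320.Inst_753

open Crest.RegLang Crest.Agent.R320.Hk_851 Crest.Agent.R320.Blk467
open Crest.Agent.R320.FewWalls_228

variable {α : Type} {S V : Type} [Monoid S] [AddCommGroup V]

section
variable [Finite α] {n W z : ℕ} {Ss : Set (List α)}

theorem HL_Wo (hW : Walls (WoS n Ss) n W) (k : ℕ) : HL k ({w | WoS n Ss w} : Language α) := by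
  have hF : ({v : List α | v.length = n ∧ WoS n Ss v}).Finite :=
    (List.finite_length_eq α n).subset fun v h => h.1
  refine (HL.suffix (HL.finite (k := k) hF)).congr fun w => ?_
  constructor
  · rintro ⟨h1, h2⟩
    have hl : (w.drop (w.length - n)).length = n := by rw [List.length_drop]; omega
    refine ⟨w.drop (w.length - n), ⟨hl, ?_⟩, List.drop_suffix _ _⟩
    refine ⟨by omega, ?_⟩
    rw [hl, Nat.sub_self, List.drop_zero]; exact h2
  · rintro ⟨v, ⟨hv1, hv2⟩, r, rfl⟩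
    exact (hW.loc r v (by omega)).2 hv2

theorem HL_XX (hW : Walls (WoS n Ss) n W) (k : ℕ) :
    HL k ((XX (WoS n Ss) z : Set (List α)) : Language α) := by
  let A : Language α := {u | z ≤ u.length ∧ WoS n Ss u}
  let B : Language α := {v | 1 ≤ v.length}
  have h1 : HL k A := (HL.length_ge z).setOf_and (HL_Wo hW k)
  have hB : HL k B := HL.length_ge 1
  have h2 : HL k ((A * B)ᶜ) := (h1.mul hB).compl
  refine (((HL_Wo hW k).setOf_and (HL.length_ge z)).setOf_and h2).congr fun w => ?_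
  constructor
  · rintro ⟨x1, x2, x3⟩
    refine ⟨⟨x1, x2⟩, ?_⟩
    intro hm
    obtain ⟨u, ⟨hu1, hu2⟩, v, hv, rfl⟩ := Language.mem_mul.1 hm
    have hv' : 1 ≤ v.length := hv
    refine x3 u.length (by rw [List.length_append]; omega) hu1 ?_
    rw [List.take_left]; exact hu2
  · rintro ⟨⟨x1, x2⟩, x3⟩
    refine ⟨x1, x2, ?_⟩
    intro t ht hzt hw
    apply x3
    refine Language.mem_mul.2 ⟨w.take t, ⟨?_, hw⟩, w.drop t, ?_, List.take_append_drop _ _⟩
    · show z ≤ (w.take t).length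
      rw [List.length_take]; omega
    · show 1 ≤ (w.drop t).length
      rw [List.length_drop]; omega

/-- dependence on a bounded prefix, the value of the rest and the length -/
def Loc (k0 M0 : ℕ) (φ : α → S) (f : List α → Prop) : Prop :=
  ∀ u u' : List α, k0 ≤ u.length → k0 ≤ u'.length → u.take k0 = u'.take k0 →
      u.length % M0 = u'.length % M0 →
      ((u.drop k0).map φ).prod = ((u'.drop k0).map φ).prod → f u → f u'

theorem HL_XX_loc [Finite S] (hW : Walls (WoS n Ss) n W) (hR : Rule n Ss) {k0 M0 : ℕ}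
    (hM0 : 0 < M0)
    (φ : α → S) {f : List α → Prop} (hf : Loc k0 M0 φ f) :
    HL 1 ({X | X ∈ XX (WoS n Ss) z ∧ f X} : Language α) := by
  refine (HL.inf (HL_XX (z := z) hW 1) (HL_loc hR (z + 1) k0 M0 hM0 φ f hf)).congr fun w => ?_
  constructor
  · rintro ⟨h1, h2⟩
    exact ⟨h1, nw_bound n z Ss w h1.2.2, h2⟩
  · rintro ⟨h1, _, h2⟩
    exact ⟨h1, h2⟩

theorem HL_tail [Finite S] (hW : Walls (WoS n Ss) n W) (hR : Rule n Ss) (hz : 0 < z)
    (φ : α → S) (s : S) :
    HL 1 ({w | (∀ X ∈ XX (WoS n Ss) z, ¬ X <+: w) ∧ (w.map φ).prod = s} : Language α) := by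
  have h1 := (HL.prefix (HL_XX (z := z) hW 1)).compl
  have h2 := few_value hR (z + 1) φ s
  refine (HL.inf h1 h2).congr fun w => ?_
  constructor
  · rintro ⟨g1, g2⟩
    refine ⟨?_, g2, ?_⟩
    · rintro ⟨X, hX, hp⟩; exact g1 X hX hp
    · refine nw_bound n z Ss w fun t ht hzt hw => ?_
      obtain ⟨X, hX, hp, _⟩ := exists_block (WoS n Ss) (z := z) w t (by omega) hzt hw
      exact g1 X hX hp
  · rintro ⟨g1, g2, _⟩
    exact ⟨fun X hX hp => g1 ⟨X, hX, hp⟩, g2⟩

end

theorem drop_prod (φ : α → S) (u : List α) (j k0 : ℕ) (hj : j ≤ k0) (hk : k0 ≤ u.length) :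
    ((u.drop j).map φ).prod =
      (((u.take k0).drop j).map φ).prod * ((u.drop k0).map φ).prod := by
  have e : u.drop j = (u.take k0).drop j ++ u.drop k0 := by
    conv_lhs => rw [← List.take_append_drop k0 u]
    rw [List.drop_append_of_le_length (by rw [List.length_take]; omega)]
  rw [e, List.map_append, List.prod_append]

theorem sub_mod {a b p M : ℕ} (ha : p ≤ a) (hb : p ≤ b) (h : a % M = b % M) :
    (a - p) % M = (b - p) % M := by
  have h1 : (a - p) + p ≡ (b - p) + p [MOD M] := by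
    rw [Nat.sub_add_cancel ha, Nat.sub_add_cancel hb]; exact h
  exact Nat.ModEq.add_right_cancel' p h1

theorem BT_congr {BT : ℕ → Prop} {M0 : ℕ} (hper : ∀ T, BT (T + M0) ↔ BT T) {a b : ℕ}
    (h : a % M0 = b % M0) : BT a ↔ BT b := by
  have key : ∀ r q, BT (r + M0 * q) ↔ BT r := by
    intro r q
    induction q with
    | zero => simp
    | succ q ih => rw [Nat.mul_succ, ← Nat.add_assoc, hper, ih]
  rw [← Nat.mod_add_div a M0, ← Nat.mod_add_div b M0, key, key, h]

section
variable {φ : α → S} {act : V → S → V} {nu2 nu1 : List α → V} {p0 N K z n W M0 k0 : ℕ}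
  {Ss : Set (List α)} {BT : ℕ → Prop} {lam : List α → Option V} {lam2 : ℕ → List α → Option V}
  {c : ℕ → ℕ}

theorem take_eq {u u' : List α} {k0 j : ℕ} (hj : j ≤ k0) (h : u.take k0 = u'.take k0) :
    u.take j = u'.take j := by
  have := congrArg (List.take j) h
  rwa [List.take_take, List.take_take, min_eq_left hj] at this

theorem TT_loc (hadd : ∀ a b s, act (a + b) s = act a s + act b s)
    (hmul : ∀ v s t, act v (s * t) = act (act v s) t)
    (g4 : ∀ u u' : List α, 2 * N ≤ u.length → 2 * N ≤ u'.length →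
      u.take (2 * N) = u'.take (2 * N) → u.length % M0 = u'.length % M0 →
      ((u.drop (2 * N)).map φ).prod = ((u'.drop (2 * N)).map φ).prod → nu1 u = nu1 u')
    (hk : p0 + 2 * N ≤ k0) (v v' : V) :
    Loc k0 M0 φ (fun X => TT φ act nu2 nu1 p0 v X = v') := by
  intro u u' h1 h2 h3 h4 h5 hf
  rw [← hf, TT_eq φ act nu2 nu1 p0 hadd hmul, TT_eq φ act nu2 nu1 p0 hadd hmul]
  have e1 : u.take p0 = u'.take p0 := take_eq (by omega) h3
  have e2 : ((u.drop p0).map φ).prod = ((u'.drop p0).map φ).prod := by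
    rw [drop_prod φ u p0 k0 (by omega) h1, drop_prod φ u' p0 k0 (by omega) h2, h3, h5]
  have e3 : (u.drop p0).take (2 * N) = (u'.drop p0).take (2 * N) := by
    have := congrArg (List.drop p0) h3
    rw [List.drop_take, List.drop_take] at this
    exact take_eq (by omega) this
  have e4 : (((u.drop p0).drop (2 * N)).map φ).prod =
      (((u'.drop p0).drop (2 * N)).map φ).prod := by
    rw [List.drop_drop, List.drop_drop, drop_prod φ u _ k0 (by omega) h1,
      drop_prod φ u' _ k0 (by omega) h2, h3, h5]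
  have e5 : nu1 (u.drop p0) = nu1 (u'.drop p0) := by
    refine g4 _ _ (by rw [List.length_drop]; omega) (by rw [List.length_drop]; omega) e3 ?_ e4
    rw [List.length_drop, List.length_drop]
    exact sub_mod (by omega) (by omega) h4
  rw [e1, e2, e5]

theorem Bd_loc (hper : ∀ T, BT (T + M0) ↔ BT T) (hk : z + N ≤ k0) (hk2 : p0 ≤ k0) :
    Loc k0 M0 φ (Bd (WoS n Ss) z N p0 BT) := by
  intro u u' h1 h2 h3 h4 _ hf
  rcases hf with hf | hf
  · left
    rcases hf with hf | ⟨t, t1, t2, t3, t4⟩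
    · omega
    · right
      refine ⟨t, by omega, t2, t3, ?_⟩
      rw [← take_eq (j := t) (by omega) h3]; exact t4
  · right
    exact (BT_congr hper (sub_mod (by omega) (by omega) h4)).1 hf

end

section
variable [Finite α] [Finite S] [Finite V] {φ : α → S} {act : V → S → V} {nu2 nu1 : List α → V}
  {p0 N K z n W M0 : ℕ}
  {Ss : Set (List α)} {BT : ℕ → Prop} {lam : List α → Option V} {lam2 : ℕ → List α → Option V}
  {c : ℕ → ℕ}
  (hW : Walls (WoS n Ss) n W) (hR : Rule n Ss) (hM0 : 0 < M0)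
  (hadd : ∀ a b s, act (a + b) s = act a s + act b s)
  (hmul : ∀ v s t, act v (s * t) = act (act v s) t)
  (g4 : ∀ u u' : List α, 2 * N ≤ u.length → 2 * N ≤ u'.length →
      u.take (2 * N) = u'.take (2 * N) → u.length % M0 = u'.length % M0 →
      ((u.drop (2 * N)).map φ).prod = ((u'.drop (2 * N)).map φ).prod → nu1 u = nu1 u')
  (hper : ∀ T, BT (T + M0) ↔ BT T)

omit [Monoid S] [AddCommGroup V] [Finite S] [Finite V] in
include hW hR hM0 hper in
theorem HL_Bad : HL 1 ((Bad p0 N z (WoS n Ss) BT : Set (List α)) : Language α) :=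
  (HL_XX_loc (z := z) hW hR hM0 (fun _ : α => (1 : Unit))
    (Bd_loc (k0 := z + p0 + 2 * N) hper (by omega) (by omega))).congr
    fun _ => Iff.rfl

include hW hR hM0 hadd hmul g4 in
theorem HL_XXT (v v' : V) :
    HL 1 ({X | X ∈ XX (WoS n Ss) z ∧ TT φ act nu2 nu1 p0 v X = v'} : Language α) :=
  HL_XX_loc hW hR hM0 φ (TT_loc (k0 := z + p0 + 2 * N) hadd hmul g4 (by omega) v v')

include hW hR hM0 hadd hmul g4 hper in
theorem HL_BadT (v v' : V) :
    HL 1 ({X | X ∈ Bad p0 N z (WoS n Ss) BT ∧ TT φ act nu2 nu1 p0 v X = v'} : Language α) := by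
  refine (HL.inf (HL_Bad (p0 := p0) (N := N) (z := z) hW hR hM0 hper)
    (HL_XXT (z := z) (nu2 := nu2) (p0 := p0) hW hR hM0 hadd hmul g4 v v')).congr fun w => ?_
  constructor
  · rintro ⟨h1, h2⟩; exact ⟨h1, h1.1, h2⟩
  · rintro ⟨h1, _, h2⟩; exact ⟨h1, h2⟩

include hW hR hM0 hadd hmul g4 hper in
theorem HL_Ok2 (hz : 0 < z) (v b : V) :
    HL 1 (Ok2 φ act nu2 nu1 p0 N z (WoS n Ss) BT v b) := by
  have hC : PCode (XX (WoS n Ss) z) := pcode _ hz
  have h1 := HL.prefix (HL_XX (z := z) hW 1)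
  have h2 := HL.prefix (HL_Bad (p0 := p0) (N := N) (z := z) hW hR hM0 hper)
  let A : V → Language α :=
    fun y => {X | X ∈ Bad p0 N z (WoS n Ss) BT ∧ TT φ act nu2 nu1 p0 v X = y}
  let B : V → Language α := fun y => {X | X ∈ XX (WoS n Ss) z ∧ TT φ act nu2 nu1 p0 y X = b}
  have h3 : HL 1 ({w | ∃ y : V, w ∈ A y * B y} : Language α) :=
    HL.iUnion (k := 1) (L := fun y => A y * B y) fun y =>
      (HL_BadT (z := z) (nu2 := nu2) (p0 := p0) hW hR hM0 hadd hmul g4 hper v y).mul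
        (HL_XXT (z := z) (nu2 := nu2) (p0 := p0) hW hR hM0 hadd hmul g4 y b)
  refine (HL.setOf_and h1 (h2.compl.sup h3)).congr fun w => ?_
  constructor
  · rintro ⟨g1, g2⟩
    refine ⟨g1, ?_⟩
    by_cases h : ∃ X ∈ Bad p0 N z (WoS n Ss) BT, X <+: w
    · right
      obtain ⟨X, hX, hp⟩ := h
      obtain ⟨X', hX', e1, e2⟩ := g2 X hX hp
      exact ⟨_, Language.mem_mul.2 ⟨X, ⟨hX, rfl⟩, X', ⟨hX', e2⟩, e1.symm⟩⟩
    · left; exact h
  · rintro ⟨g1, g2⟩
    refine ⟨g1, ?_⟩
    intro X hX hp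
    rcases g2 with g2 | ⟨y, hy⟩
    · exact absurd ⟨X, hX, hp⟩ g2
    · obtain ⟨X1, ⟨hX1, rfl⟩, X', ⟨hX', e2⟩, e1⟩ := Language.mem_mul.1 hy
      have hp1 : X1 <+: w := ⟨X', e1⟩
      have hXX : X = X1 := by
        rcases List.prefix_or_prefix_of_prefix hp hp1 with h | h
        · exact hC.2 _ hX.1 _ hX1.1 h
        · exact (hC.2 _ hX1.1 _ hX.1 h).symm
      subst hXX
      exact ⟨X', hX', e1.symm, e2⟩

omit [Finite S] [Finite V] in
theorem LP1_finite (v : V) : (LP1 φ act nu2 p0 N lam v : Set (List α)).Finite :=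
  (List.finite_length_le α (p0 + N)).subset fun _ h => h.2.1

theorem LP2_finite {L : ℕ} (hc : ∀ k < K, c k ≤ L) (v : V) :
    (LP2 (α := α) K lam2 c v : Set (List α)).Finite := by
  refine (List.finite_length_le α L).subset ?_
  rintro P ⟨k, hk, hl, _⟩
  show P.length ≤ L
  have := hc k hk; omega

include hW hR hM0 hadd hmul g4 in
theorem HL_RQ1 (b : V) : HL 1 (RQ1 φ act nu2 nu1 p0 N z (WoS n Ss) lam b) := by
  refine (HL.iInter (k := 1) (ι := V) fun v => HL.biInter (k := 1)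
    (LP1_finite (φ := φ) (act := act) (nu2 := nu2) (p0 := p0) (N := N) (lam := lam) v)
    (fun P _ => HL.lquot P
      (HL_XXT (z := z) (nu2 := nu2) (p0 := p0) hW hR hM0 hadd hmul g4 v b))).congr fun w => ?_
  exact Iff.rfl

include hW hR hM0 hadd hmul g4 hper in
theorem HL_RQ2 (hz : 0 < z) {L : ℕ} (hc : ∀ k < K, c k ≤ L) (b : V) :
    HL 1 (RQ2 φ act nu2 nu1 p0 N K z (WoS n Ss) BT lam2 c b) := by
  refine (HL.iInter (k := 1) (ι := V) fun v => HL.biInter (k := 1)
    (LP2_finite (lam2 := lam2) hc v)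
    (fun P _ => HL.lquot P
      (HL_Ok2 (z := z) (nu2 := nu2) (p0 := p0) hW hR hM0 hadd hmul g4 hper hz v b))).congr
      fun w => ?_
  exact Iff.rfl

end

end Crest.Agent.R320.Inst_753
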