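import Crest.Agent.R320.InstE_753

/-!
# Row 320: instance of `top5` (helper753), part F: the assembly from the zone gadget
-/

set_option autoImplicit false

namespace Crest.Agent.R320.Inst_753

open Crest.RegLang Crest.Agent.R320.Hk_851 Crest.Agent.R320.Blk467
open Crest.Agent.R320.FewWalls_228

/-- the zone gadget with its ruler -/
def UGB (S V : Type) [Monoid S] [AddCommGroup V] (act : V → S → V) : Prop :=
  ∃ C0 : ℕ, ∀ K : ℕ, ∃ (N M0 X0 : ℕ) (BT : ℕ → Prop) (x : ℕ → ℕ), 0 < M0 ∧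
    (∀ T, BT (T + M0) ↔ BT T) ∧ (∀ T, X0 ≤ T → (PB K x BT T).card ≤ C0) ∧
    ∀ (α : Type) (φ : α → S), ∃ (lam rho : List α → Option V) (nu : List α → V),
      (∀ P v, lam P = some v → P.length ≤ N) ∧
      (∀ P Q v r, lam P = some v → rho Q = some r →
        r = act v ((P ++ Q).map φ).prod + nu (P ++ Q)) ∧
      (∀ u : List α, 2 * N ≤ u.length → ¬ BT u.length → ∀ v, ∃ P Q, P ++ Q = u ∧
        lam P = some v ∧ (rho Q).isSome) ∧
      (∀ u u' : List α, 2 * N ≤ u.length → 2 * N ≤ u'.length →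
        u.take (2 * N) = u'.take (2 * N) → u.length % M0 = u'.length % M0 →
        ((u.drop (2 * N)).map φ).prod = ((u'.drop (2 * N)).map φ).prod → nu u = nu u')

/-- the wide ruler -/
def cc (x : ℕ → ℕ) (M0 B : ℕ) (k : ℕ) : ℕ := x k + M0 * (B * 4 ^ k)

theorem cc_sep {x : ℕ → ℕ} {M0 B K N X : ℕ} (hM0 : 0 < M0) (hx : ∀ k < K, x k ≤ X)
    (hB : 2 * N + 4 * X + 1 ≤ B) : Sep K N (cc x M0 B) := by
  intro a b d e ha hb hd he hab hde h
  obtain ⟨h1, h2⟩ := h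
  have xa := hx a ha
  have xb := hx b hb
  have xd := hx d hd
  have xe := hx e he
  unfold cc at h1 h2
  push_cast at h1 h2
  set D : ℤ := (4 : ℤ) ^ b - 4 ^ a - (4 ^ e - 4 ^ d) with hD
  have hE : ((x b : ℤ) + M0 * (B * 4 ^ b)) - (x a + M0 * (B * 4 ^ a)) -
      ((x e + M0 * (B * 4 ^ e)) - (x d + M0 * (B * 4 ^ d))) =
      ((x b : ℤ) - x a - x e + x d) + (M0 * B) * D := by
    rw [hD]; ring
  rw [hE] at h1 h2
  have hMB : (B : ℤ) ≤ (M0 : ℤ) * B := by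
    have h3 : (1 : ℤ) ≤ M0 := by exact_mod_cast hM0
    have h4 : (0 : ℤ) ≤ B := by positivity
    nlinarith
  have hB' : (2 * N + 4 * X + 1 : ℤ) ≤ B := by exact_mod_cast hB
  have hD0 : D = 0 := by
    by_contra hne
    rcases lt_or_gt_of_ne hne with hlt | hgt
    · have h5 : D ≤ -1 := by omega
      have h6 : (M0 : ℤ) * B * D ≤ -((M0 : ℤ) * B) := by nlinarith
      omega
    · have h5 : 1 ≤ D := by omega
      have h6 : (M0 : ℤ) * B ≤ (M0 : ℤ) * B * D := by nlinarith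
      omega
  have h7 : (4 : ℤ) ^ b - 4 ^ a = 4 ^ e - 4 ^ d := by
    have : (4 : ℤ) ^ b - 4 ^ a - (4 ^ e - 4 ^ d) = 0 := by rw [← hD]; exact hD0
    linarith
  obtain ⟨r1, r2⟩ := Ruler_302.sidon (Ne.symm hab) h7
  exact ⟨r2, r1⟩

theorem cc_incr {x : ℕ → ℕ} {M0 B K X : ℕ} (hM0 : 0 < M0) (hx : ∀ k < K, x k ≤ X)
    (hB : 4 * X + 1 ≤ B) (i j : ℕ) (hij : i < j) (hj : j < K) : cc x M0 B i < cc x M0 B j := by
  unfold cc
  have h1 := hx i (by omega)
  have h2 : 4 ^ (i + 1) ≤ 4 ^ j := Nat.pow_le_pow_right (by omega) (by omega)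
  have h3 : 1 ≤ 4 ^ i := Nat.one_le_pow _ _ (by omega)
  have h4 : M0 * (B * 4 ^ (i + 1)) ≤ M0 * (B * 4 ^ j) :=
    Nat.mul_le_mul_left _ (Nat.mul_le_mul_left _ h2)
  have h5 : M0 * (B * 4 ^ (i + 1)) = 4 * (M0 * (B * 4 ^ i)) := by rw [pow_succ]; ring
  have h6 : B ≤ M0 * (B * 4 ^ i) := by
    calc B = 1 * (B * 1) := by ring
      _ ≤ M0 * (B * 4 ^ i) := Nat.mul_le_mul hM0 (Nat.mul_le_mul_left _ h3)
  omega

theorem cc_PB {x : ℕ → ℕ} {M0 B K X0 C0 L : ℕ} {BT : ℕ → Prop} (hM0 : 0 < M0)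
    (hper : ∀ T, BT (T + M0) ↔ BT T) (hc : ∀ k < K, cc x M0 B k ≤ L)
    (hPB : ∀ T, X0 ≤ T → (PB K x BT T).card ≤ C0) (T : ℕ) (hT : 2 * L ≤ T) :
    (PB K (cc x M0 B) BT T).card ≤ C0 := by
  classical
  have hT1 : X0 ≤ T + M0 * X0 := by
    have : 1 * X0 ≤ M0 * X0 := Nat.mul_le_mul_right _ hM0
    omega
  refine le_trans (Finset.card_le_card ?_) (hPB (T + M0 * X0) hT1)
  rintro ⟨a, b⟩ h
  unfold PB at h ⊢
  rw [Finset.mem_filter, Finset.mem_product, Finset.mem_range, Finset.mem_range] at h ⊢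
  obtain ⟨⟨ha, hb⟩, hab, hB⟩ := h
  refine ⟨⟨ha, hb⟩, hab, ?_⟩
  simp only at ha hb hab hB ⊢
  have ca := hc a ha
  refine (BT_congr hper ?_).1 hB
  unfold cc at ca ⊢
  have e1 : T + (x b + M0 * (B * 4 ^ b)) - (x a + M0 * (B * 4 ^ a)) + M0 * (B * 4 ^ a) =
      (T + x b - x a) + M0 * (B * 4 ^ b) := by omega
  have e2 : T + M0 * X0 + x b - x a = (T + x b - x a) + M0 * X0 := by omega
  calc (T + (x b + M0 * (B * 4 ^ b)) - (x a + M0 * (B * 4 ^ a))) % M0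
      = (T + (x b + M0 * (B * 4 ^ b)) - (x a + M0 * (B * 4 ^ a)) + M0 * (B * 4 ^ a)) % M0 :=
        (Nat.add_mul_mod_self_left _ _ _).symm
    _ = ((T + x b - x a) + M0 * (B * 4 ^ b)) % M0 := by rw [e1]
    _ = (T + x b - x a) % M0 := Nat.add_mul_mod_self_left _ _ _
    _ = ((T + x b - x a) + M0 * X0) % M0 := (Nat.add_mul_mod_self_left _ _ _).symm
    _ = (T + M0 * X0 + x b - x a) % M0 := by rw [e2]

theorem main {α S V : Type} [Finite α] [Monoid S] [Finite S] [AddCommGroup V] [Finite V]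
    (φ : α → S) (act : V → S → V)
    (hadd : ∀ a b s, act (a + b) s = act a s + act b s)
    (hone : ∀ v, act v 1 = v) (hmul : ∀ v s t, act v (s * t) = act (act v s) t)
    (hfaith : ∀ s t, (∀ v, act v s = act v t) → s = t)
    (hU : UGB S V act) (s : S) : HL 3 ({w | (w.map φ).prod = s} : Language α) := by
  classical
  haveI := Fintype.ofFinite S
  haveI := Fintype.ofFinite V
  obtain ⟨C0, hU⟩ := hU
  obtain ⟨K, hK⟩ := ExactR_237.exact_gadget α S V φ act (2 + 2 * C0)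
  obtain ⟨N, M0, X0, BT, x, hM0, hper, hPB, hU⟩ := hU K
  obtain ⟨lam, rho, nu1, g1, g2, g3, g4⟩ := hU α φ
  obtain ⟨X, hX⟩ : ∃ X, ∀ k < K, x k ≤ X :=
    ⟨∑ k ∈ Finset.range K, x k, fun k hk =>
      Finset.single_le_sum (f := x) (fun _ _ => Nat.zero_le _) (Finset.mem_range.2 hk)⟩
  obtain ⟨B, hB⟩ : ∃ B, B = 2 * N + 4 * X + 1 := ⟨_, rfl⟩
  obtain ⟨lam2, rho2, nu', e1, e2⟩ := hK (cc x M0 B) (cc_incr hM0 hX (by omega))
  obtain ⟨L, hL⟩ : ∃ L, ∀ k < K, cc x M0 B k ≤ L :=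
    ⟨∑ k ∈ Finset.range K, cc x M0 B k, fun k hk =>
      Finset.single_le_sum (f := cc x M0 B) (fun _ _ => Nat.zero_le _) (Finset.mem_range.2 hk)⟩
  obtain ⟨n, _, _, Ss, _, _, _, hsep, _, hfew⟩ :=
    FewVal_228.exists_walls α (2 * N + 2 * L + 1) (by omega)
  have hW : Walls (WoS n Ss) n (2 * N + 2 * L + 1) := WoS_walls hsep
  have hR : Rule n Ss := ⟨hfew⟩
  obtain ⟨z, hz⟩ : ∃ z, z = L + 3 * L + 3 * N + n + 1 := ⟨_, rfl⟩
  have hz0 : 0 < z := by omega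
  have hsep2 : Sep K N (cc x M0 B) := cc_sep hM0 hX (by omega)
  have hPB2 := cc_PB (B := B) hM0 hper hL hPB
  let nu2 : List α → V := fun u => nu' u 1
  refine Top5_467.top5 (S := S) φ (V := V) act hadd hone hmul hfaith (nuu φ act nu2 nu1 L)
    (XX (WoS n Ss) z) (Bad L N z (WoS n Ss) BT) (pcode _ hz0) (fun X hX => hX.1)
    (LP1 φ act nu2 L N lam) (RQ1 φ act nu2 nu1 L N z (WoS n Ss) lam)
    (LP2 K lam2 (cc x M0 B)) (RQ2 φ act nu2 nu1 L N K z (WoS n Ss) BT lam2 (cc x M0 B))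
    ?_ ?_ ?_ ?_ ?_ ?_ ?_ ?_ ?_ ?_ ?_ s
  · intro v b P Q hP hQ
    exact hQ v P hP
  · intro X hX hXB v
    exact c1 (L := L) hW hadd hmul (by omega) g1 g2 g3 X hX hXB v
  · intro v b P Q r hP hQ hr
    exact s2 hz0 v b P Q r hP hQ hr
  · intro Y hY Y' hY' v
    refine c2 (C0 := C0) (rho2 := fun k Q => rho2 k Q 1) hW hadd hmul hz0 hL hsep2 (by omega)
      hPB2 le_rfl (by omega) ?_ ?_ ?_ Y hY Y' hY' v
    · intro k hk P Q v b hl h1 h2
      have := e1 k hk P Q 1 v b hl h1 h2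
      rw [mul_one] at this
      exact this
    · intro u v hu
      exact e2 u 1 v (fun k hk => by rw [hu]; exact hL k hk)
    · intro k hk k' hk' he
      rcases lt_trichotomy k k' with h | h | h
      · have := cc_incr hM0 hX (B := B) (by omega) k k' h hk'; omega
      · exact h
      · have := cc_incr hM0 hX (B := B) (by omega) k' k h hk; omega
  · exact HL_Bad hW hR hM0 hper
  · intro v
    exact HL.finite (LP2_finite hL v)
  · intro v
    exact HL_RQ2 hW hR hM0 hadd hmul g4 hper hz0 hL v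
  · intro v
    exact HL.finite (LP1_finite v)
  · intro v
    exact HL.mono (by omega) (HL_RQ1 hW hR hM0 hadd hmul g4 v)
  · intro v v'
    exact HL.mono (by omega) (HL_BadT hW hR hM0 hadd hmul g4 hper v v')
  · intro t
    exact HL.mono (by omega) (HL_tail hW hR hz0 φ t)

end Crest.Agent.R320.Inst_753
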