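import Crest.Agent.R320.Zone132b_898
import Crest.Agent.R320.Inst_946
import Crest.Agent.R320.Top5_163
import Crest.Agent.R320.FewVal_228
import Crest.Agent.R320.P4_933

/-!
# Row 320: the six H 1 families of 163's `top` for 946's concrete instance `Inst946`, and the
conclusion `H 3 {w | φ w = s}` from `Ok D`, few walls and the finite state clauses.
-/

set_option autoImplicit false

namespace Crest.Agent.R320.InstH1_898

open Crest.RegLang Crest.Agent.R320.Hk_851 Crest.Agent.R320.FewWalls_228
  Crest.Agent.R320.FewVal_228 Crest.R320.Inst946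

universe u

theorem reg_fs {α : Type u} {S : Type*} [Finite α] [Finite S] [Monoid S] {φ : List α → S}
    (hφ : ∀ u v, φ (u ++ v) = φ u * φ v) (A M : ℕ) (hM : 0 < M) (P : List α → Prop)
    (h : ∀ Q Q' : List α, A ≤ Q.length → A ≤ Q'.length → Q.take A = Q'.take A →
      Q.length % M = Q'.length % M → φ (Q.drop A) = φ (Q'.drop A) → P Q → P Q') :
    Language.IsRegular ({Q | P Q} : Language α) := by
  let Φ : List α → S → ℕ → Prop := fun X s r =>
    ∃ Q : List α, Q.take A = X ∧ φ (Q.drop A) = s ∧ Q.length % M = r ∧ P Q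
  have h1 := Zone132b_898.isRegular_of_inv φ hφ A M hM Φ
  have h2 : ({Q | P Q} : Language α) =
      ({Q | Φ (Q.take A) (φ (Q.drop A)) (Q.length % M)} : Language α) := by
    ext Q
    constructor
    · intro hQ
      exact ⟨Q, rfl, rfl, rfl, hQ⟩
    · rintro ⟨Q', e1, e2, e3, hQ'⟩
      rcases lt_or_ge Q.length A with h3 | h3
      · have e4 : Q.take A = Q := List.take_of_length_le h3.le
        have h4 : Q'.length < A := by
          have := congrArg List.length e1
          rw [e4, List.length_take] at this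
          omega
        rw [List.take_of_length_le h4.le, e4] at e1
        subst e1
        exact hQ'
      · have h4 : A ≤ Q'.length := by
          have := congrArg List.length e1
          rw [List.length_take, List.length_take] at this
          omega
        exact h Q' Q h4 h3 e1 e3 e2 hQ'
  rw [h2]
  exact h1

/-- extra hypotheses: walls = words of a set, few walls, finite state clauses -/
structure Reg {α V S : Type} [AddCommGroup V] [Monoid S] (D : Par α V S) (Sw : Set (List α))
    (c P A1 M1 : ℕ) : Prop where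
  hwo : ∀ X, D.Wo X ↔ D.n ≤ X.length ∧ X.drop (X.length - D.n) ∈ Sw
  hn : 0 < D.n
  hP : 0 < P
  hper : PerOff D.n c P Sw
  hM1 : 0 < M1
  fs : ∀ Q Q' : List α, A1 ≤ Q.length → A1 ≤ Q'.length → Q.take A1 = Q'.take A1 →
    Q.length % M1 = Q'.length % M1 → D.φ (Q.drop A1) = D.φ (Q'.drop A1) →
    D.rho Q = D.rho Q' ∧ D.nu1 Q = D.nu1 Q'
  bp : ∀ t t' : ℕ, A1 ≤ t → A1 ≤ t' → t % M1 = t' % M1 → D.BadT t → D.BadT t'
  q1 : ∀ v, D.act v 1 = v

section

variable {α V S : Type} [AddCommGroup V] [Monoid S] [Finite α] [Finite V] [Finite S]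
  {D : Par α V S} {Sw : Set (List α)} {c P A1 M1 : ℕ}

theorem nw_le (hR : Reg D Sw c P A1 M1) {w : List α} (F : Finset ℕ)
    (h : ∀ t, t ≤ w.length → D.Wo (w.take t) → t ∈ F) : nw D.n Sw w ≤ F.card := by
  classical
  unfold nw
  apply Finset.card_le_card_of_injOn (fun x => x + D.n)
  · intro x hx
    rw [Finset.mem_coe, Finset.mem_filter] at hx
    obtain ⟨-, h1, h2⟩ := hx
    refine h (x + D.n) h1 ((hR.hwo _).2 ⟨?_, ?_⟩)
    · rw [List.length_take]; omega
    · rw [List.length_take, min_eq_left h1, show x + D.n - D.n = x by omega, List.drop_take,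
        show x + D.n - x = D.n by omega]
      exact h2
  · intro x _ y _ hxy
    simpa using hxy

theorem wlen (hR : Reg D Sw c P A1 M1) : ∀ X, D.Wo X → D.n ≤ X.length :=
  fun X h => ((hR.hwo X).1 h).1

/-- first wall blocks -/
theorem reg_FB (h : Ok D) (hR : Reg D Sw c P A1 M1) (s : ℕ) :
    Language.IsRegular ({X | P4_933.XX D.Wo s X} : Language α) :=
  Crest.Agent.R320.Reg_852.HL.isRegular (P4_933.hl_XX0 (k := 0) (n := D.n) h.wo (wlen hR))

theorem XX_iff {X : List α} : X ∈ D.XX ↔ P4_933.XX D.Wo D.z X :=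
  ⟨fun ⟨h1, h2, h3⟩ => ⟨h1, h2, fun t ht hz => h3 t hz ht⟩,
    fun ⟨h1, h2, h3⟩ => ⟨h1, h2, fun t hz ht => h3 t ht hz⟩⟩

theorem FE_iff {s : ℕ} {Q : List α} {e : ℕ} :
    D.FE s Q e ↔ e ≤ Q.length ∧ P4_933.XX D.Wo s (Q.take e) := by
  constructor
  · rintro ⟨h1, h2, h3, h4⟩
    have hl : (Q.take e).length = e := by rw [List.length_take]; omega
    refine ⟨h1, h3, by rw [hl]; exact h2, fun t ht hz => ?_⟩
    rw [hl] at ht
    rw [List.take_take, min_eq_left ht.le]
    exact h4 t hz ht
  · rintro ⟨h1, h3, h2, h4⟩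
    have hl : (Q.take e).length = e := by rw [List.length_take]; omega
    rw [hl] at h2 h4
    refine ⟨h1, h2, h3, fun t hz ht hW => h4 t ht hz ?_⟩
    rw [List.take_take, min_eq_left ht.le]
    exact hW

theorem reg_and {A B : List α → Prop} (hA : Language.IsRegular ({w | A w} : Language α))
    (hB : Language.IsRegular ({w | B w} : Language α)) :
    Language.IsRegular ({w | A w ∧ B w} : Language α) := hA.inf hB

theorem reg_or {A B : List α → Prop} (hA : Language.IsRegular ({w | A w} : Language α))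
    (hB : Language.IsRegular ({w | B w} : Language α)) :
    Language.IsRegular ({w | A w ∨ B w} : Language α) := hA.add hB

theorem reg_not {A : List α → Prop} (hA : Language.IsRegular ({w | A w} : Language α)) :
    Language.IsRegular ({w | ¬ A w} : Language α) := hA.compl

theorem reg_congr {A B : List α → Prop} (hA : Language.IsRegular ({w | A w} : Language α))
    (h : ∀ w, A w ↔ B w) : Language.IsRegular ({w | B w} : Language α) := by
  have : A = B := funext fun w => propext (h w)
  subst this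
  exact hA

theorem reg_const (p : Prop) : Language.IsRegular ({_w : List α | p} : Language α) :=
  reg_fs (S := Unit) (φ := fun _ => ()) (fun _ _ => rfl) 0 1 one_pos (fun _ => p)
    (fun _ _ _ _ _ _ _ h => h)

theorem reg_ex {ι : Type*} [Finite ι] {A : ι → List α → Prop}
    (hA : ∀ i, Language.IsRegular ({w | A i w} : Language α)) :
    Language.IsRegular ({w | ∃ i, A i w} : Language α) := by
  classical
  have := Fintype.ofFinite ι
  have key : ∀ s : Finset ι, Language.IsRegular ({w | ∃ i ∈ s, A i w} : Language α) := by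
    intro s
    induction s using Finset.induction_on with
    | empty => exact reg_congr (reg_const (α := α) False) (fun w => by simp)
    | insert i s hi ih =>
      exact reg_congr (reg_or (hA i) ih) (fun w => by simp [Finset.mem_insert])
  exact reg_congr (key Finset.univ) (fun w => by simp)

theorem reg_all {ι : Type*} [Finite ι] {A : ι → List α → Prop}
    (hA : ∀ i, Language.IsRegular ({w | A i w} : Language α)) :
    Language.IsRegular ({w | ∀ i, A i w} : Language α) :=
  reg_congr (reg_not (reg_ex fun i => reg_not (hA i))) (fun w => by simp)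

/-- the language of a predicate -/
def Lg (A : List α → Prop) : Language α := {w | A w}

theorem reg_cat {A B : List α → Prop} (hA : Language.IsRegular ({w | A w} : Language α))
    (hB : Language.IsRegular ({w | B w} : Language α)) :
    Language.IsRegular ({w | ∃ u v, w = u ++ v ∧ A u ∧ B v} : Language α) := by
  have h1 : Language.IsRegular (Lg A * Lg B) := Crest.Agent.R320.Reg_852.IsRegular.mul hA hB
  have h2 : Lg A * Lg B = Lg (fun w => ∃ u v, w = u ++ v ∧ A u ∧ B v) := by
    apply Set.ext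
    intro w
    constructor
    · intro hw
      obtain ⟨u, hu, v, hv, rfl⟩ := Language.mem_mul.1 hw
      exact ⟨u, v, rfl, hu, hv⟩
    · rintro ⟨u, v, rfl, hu, hv⟩
      exact Language.mem_mul.2 ⟨u, hu, v, hv, rfl⟩
  rw [h2] at h1
  exact h1

/-- finite state functions of the part right of `k` -/
theorem reg_part (h : Ok D) (hR : Reg D Sw c P A1 M1) (k : ℕ) (f : List α → S → V → Prop) :
    Language.IsRegular ({Q | f (Q.take k) (D.φ (Q.drop k)) (D.nu1 (Q.drop k))} :
      Language α) := by
  refine reg_fs h.φ_mul (k + A1) M1 hR.hM1 _ ?_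
  intro Q Q' h1 h2 h3 h4 h5 h6
  have e1 : Q.take k = Q'.take k := by
    have := congrArg (List.take k) h3
    rwa [List.take_take, List.take_take, min_eq_left (by omega)] at this
  have e2 : (Q.drop k).take A1 = (Q'.drop k).take A1 := by
    have := congrArg (List.drop k) h3
    rwa [List.drop_take, List.drop_take, show k + A1 - k = A1 by omega] at this
  have e3 : (Q.drop k).length % M1 = (Q'.drop k).length % M1 := by
    rw [List.length_drop, List.length_drop]
    have h7 : Q.length ≡ Q'.length [MOD M1] := h4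
    exact Nat.ModEq.add_right_cancel' k (by
      rw [show Q.length - k + k = Q.length by omega, show Q'.length - k + k = Q'.length by omega]
      exact h7)
  have e4 : D.φ ((Q.drop k).drop A1) = D.φ ((Q'.drop k).drop A1) := by
    rw [List.drop_drop, List.drop_drop]; exact h5
  obtain ⟨-, e5⟩ := hR.fs (Q.drop k) (Q'.drop k) (by rw [List.length_drop]; omega)
    (by rw [List.length_drop]; omega) e2 e3 e4
  have e6 : D.φ (Q.drop k) = D.φ (Q'.drop k) := by
    rw [← List.take_append_drop A1 (Q.drop k), ← List.take_append_drop A1 (Q'.drop k),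
      h.φ_mul, h.φ_mul, e2, e4]
  rw [← e1, ← e5, ← e6]
  exact h6

theorem reg_T (h : Ok D) (hR : Reg D Sw c P A1 M1) (v v' : V) :
    Language.IsRegular ({X | D.T v X = v'} : Language α) :=
  reg_part h hR D.p0 (fun X s w =>
    D.act (D.act v (D.φ X) + D.nu2 X) s + w = v')

theorem reg_len (h : Ok D) (f : ℕ → Prop) (A M : ℕ) (hM : 0 < M)
    (hf : ∀ t t', A ≤ t → A ≤ t' → t % M = t' % M → f t → f t') :
    Language.IsRegular ({X : List α | f X.length} : Language α) :=
  reg_fs h.φ_mul A M hM _ (fun Q Q' h1 h2 _ h4 _ h6 => hf _ _ h1 h2 h4 h6)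

/-- **hXT** -/
theorem hXT (h : Ok D) (hR : Reg D Sw c P A1 M1) (v v' : V) :
    HL 1 ({X | X ∈ D.XX ∧ D.T v X = v'} : Language α) := by
  refine HL_of_few hR.hn hR.hP hR.hper (D.z + 1) ?_ ?_
  · exact reg_congr (reg_and (reg_FB h hR D.z) (reg_T h hR v v'))
      (fun w => by rw [XX_iff])
  · rintro X ⟨⟨-, -, hX⟩, -⟩
    refine le_trans (nw_le hR (Finset.range D.z ∪ {X.length}) ?_) ?_
    · intro t ht hW
      rw [Finset.mem_union, Finset.mem_range, Finset.mem_singleton]
      by_contra hcon
      push Not at hcon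
      exact hX t (by omega) (by omega) hW
    · refine le_trans (Finset.card_union_le _ _) ?_
      simp

/-- **hNP** -/
theorem hNP (h : Ok D) (hR : Reg D Sw c P A1 M1) (s : S) :
    HL 1 ({r | (∀ X ∈ D.XX, ¬ X <+: r) ∧ D.φ r = s} : Language α) := by
  have hiff : ∀ r : List α, (∀ X ∈ D.XX, ¬ X <+: r) ↔ P4_933.NB D.Wo D.z r := by
    intro r
    rw [P4_933.NB_iff]
    constructor
    · intro h1 X hX hX'
      exact h1 X (XX_iff.2 hX') hX
    · intro h1 X hX hX'
      exact h1 X hX' (XX_iff.1 hX)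
  refine HL_of_few hR.hn hR.hP hR.hper D.z ?_ ?_
  · have h1 : Language.IsRegular ({X | P4_933.NB D.Wo D.z X} : Language α) :=
      Crest.Agent.R320.Reg_852.HL.isRegular
        (P4_933.hl_NB0 (k := 0) (n := D.n) h.wo (wlen hR))
    have h2 : Language.IsRegular ({X | D.φ X = s} : Language α) :=
      reg_fs h.φ_mul 0 1 one_pos _ (fun Q Q' _ _ _ _ h5 h6 => by
        rw [List.drop_zero, List.drop_zero] at h5
        rw [← h5]; exact h6)
    exact reg_congr (reg_and h1 h2) (fun w => by rw [hiff])
  · rintro X ⟨hX, -⟩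
    have hX' := (hiff X).1 hX
    refine le_trans (nw_le hR (Finset.range D.z) ?_) (by simp)
    intro t ht hW
    rw [Finset.mem_range]
    by_contra hcon
    exact hX' t ht (by omega) hW

/-- **hQ1** -/
theorem hQ1 (h : Ok D) (hR : Reg D Sw c P A1 M1) (b : V) :
    HL 1 ({Q | D.R1 Q = some b} : Language α) := by
  have hiff : ∀ Q : List α, (P4_933.XX D.Wo D.q Q ∧ D.q + D.N1 ≤ Q.length ∧
      D.rho Q = some b) ↔ D.R1 Q = some b := by
    intro Q
    rw [Par.R1]
    constructor
    · rintro ⟨⟨h1, h2, h3⟩, h4, h5⟩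
      rw [if_pos ⟨h1, h4, fun t ht ht' => h3 t ht' ht⟩]
      exact h5
    · intro h1
      split_ifs at h1 with h2
      obtain ⟨h3, h4, h5⟩ := h2
      exact ⟨⟨h3, by omega, fun t ht ht' => h5 t ht' ht⟩, h4, h1⟩
  refine HL_of_few hR.hn hR.hP hR.hper (D.q + 1) ?_ ?_
  · refine reg_congr (reg_and (reg_FB h hR D.q) (reg_and (B := fun Q => D.rho Q = some b)
      (reg_len h (fun t => D.q + D.N1 ≤ t) (D.q + D.N1) 1 one_pos
        (fun t t' h1 h2 _ _ => h2)) ?_)) hiff
    refine reg_fs h.φ_mul A1 M1 hR.hM1 _ ?_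
    intro Q Q' h1 h2 h3 h4 h5 h6
    rw [← (hR.fs Q Q' h1 h2 h3 h4 h5).1]
    exact h6
  · intro Q hQ
    obtain ⟨⟨h1, h2, h3⟩, -, -⟩ := (hiff Q).2 hQ
    refine le_trans (nw_le hR (Finset.range D.q ∪ {Q.length}) ?_) ?_
    · intro t ht hW
      rw [Finset.mem_union, Finset.mem_range, Finset.mem_singleton]
      by_contra hcon
      push Not at hcon
      exact h3 t (by omega) (by omega) hW
    · refine le_trans (Finset.card_union_le _ _) ?_
      simp

theorem reg_cand (h : Ok D) (hR : Reg D Sw c P A1 M1) (k : ℕ) :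
    Language.IsRegular ({Q | D.cand k Q} : Language α) := by
  have h1 : Language.IsRegular ({Q | ∃ t, D.z - D.N1 - D.c k ≤ t ∧ t < D.z + D.N1 - D.c k ∧
      t ≤ Q.length ∧ D.Wo (Q.take t)} : Language α) := by
    refine reg_fs h.φ_mul (D.z + D.N1) 1 one_pos _ ?_
    rintro Q Q' h1 h2 h3 - - ⟨t, h4, h5, h6, h7⟩
    refine ⟨t, h4, h5, by omega, ?_⟩
    have e : Q'.take t = Q.take t := by
      have := congrArg (List.take t) h3
      rw [List.take_take, List.take_take, min_eq_left (by omega)] at this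
      exact this.symm
    rw [e]
    exact h7
  have h2 : Language.IsRegular ({U | P4_933.XX D.Wo (D.z - D.c k) U ∧
      D.BadT (U.length + D.c k - D.p0)} : Language α) := by
    refine reg_and (reg_FB h hR _) (reg_len h (fun t => D.BadT (t + D.c k - D.p0))
      (A1 + D.p0) M1 hR.hM1 ?_)
    intro t t' h3 h4 h5 h6
    refine hR.bp _ _ (by omega) (by omega) ?_ h6
    have h7 : t ≡ t' [MOD M1] := h5
    have h8 : t + D.c k ≡ t' + D.c k [MOD M1] := h7.add_right _
    exact Nat.ModEq.add_right_cancel' D.p0 (by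
      rw [show t + D.c k - D.p0 + D.p0 = t + D.c k by omega,
        show t' + D.c k - D.p0 + D.p0 = t' + D.c k by omega]
      exact h8)
  refine reg_congr (reg_or h1 (reg_cat h2 (reg_const (α := α) True))) ?_
  intro Q
  rw [Par.cand]
  apply or_congr Iff.rfl
  constructor
  · rintro ⟨u, v, rfl, ⟨h3, h4⟩, -⟩
    exact ⟨u.length, FE_iff.2 ⟨by simp, by rw [List.take_left]; exact h3⟩, h4⟩
  · rintro ⟨e, h3, h4⟩
    obtain ⟨h5, h6⟩ := FE_iff.1 h3
    refine ⟨Q.take e, Q.drop e, (List.take_append_drop e Q).symm, ⟨h6, ?_⟩, trivial⟩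
    rw [List.length_take, min_eq_left h5]
    exact h4

/-- **hQ2** -/
theorem hQ2 (h : Ok D) (hR : Reg D Sw c P A1 M1) (b : V) :
    HL 1 ({Q | D.R2 Q = some b} : Language α) := by
  let Af : ℕ → V → V → List α → Prop := fun k y v1 U =>
    P4_933.XX D.Wo (D.z - D.c k) U ∧ (D.rho2 k (U.take (D.p0 - D.c k)) = some y ∧
      D.act y (D.φ (U.drop (D.p0 - D.c k))) + D.nu1 (U.drop (D.p0 - D.c k)) = v1)
  have hiff : ∀ Q : List α, (∃ k : Fin D.K, (D.cand k Q ∧ (∀ k' : Fin D.K, ¬ (D.cand k' Q ∧
      ¬ k' = k))) ∧ ∃ y : V, ∃ v1 : V, ∃ u v, Q = u ++ v ∧ Af k y v1 u ∧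
      (P4_933.XX D.Wo D.z v ∧ D.T v1 v = b)) ↔ D.R2 Q = some b := by
    intro Q
    rw [Ok.R2_iff, Par.R2rel]
    constructor
    · rintro ⟨k, ⟨h1, h2⟩, y, v1, u, v, rfl, ⟨h3, h4, h5⟩, h6, h7⟩
      have hlu : D.p0 - D.c k ≤ u.length := by
        have := h3.2.1
        have hzd : D.z = D.p0 + D.q + D.N1 := rfl
        omega
      refine ⟨k, u.length, y, k.2, h1, ?_, FE_iff.2 ⟨by simp, by rw [List.take_left]; exact h3⟩,
        ?_, ?_, ?_⟩
      · intro k' hk' hc
        by_contra hne
        exact h2 ⟨k', hk'⟩ ⟨hc, fun he => hne (congrArg Fin.val he)⟩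
      · rw [List.drop_left]; exact XX_iff.2 h6
      · rw [List.take_append_of_le_length hlu]; exact h4
      · rw [List.take_left, List.drop_left, h5, h7]
    · rintro ⟨k, e, y, hk, h1, h2, h3, h4, h5, h6⟩
      obtain ⟨h7, h8⟩ := FE_iff.1 h3
      refine ⟨⟨k, hk⟩, ⟨h1, ?_⟩, y, _, Q.take e, Q.drop e, (List.take_append_drop e Q).symm,
        ⟨h8, ?_, rfl⟩, XX_iff.1 h4, h6.symm⟩
      · rintro ⟨k', hk'⟩ ⟨hc, hne⟩
        exact hne (Fin.ext (h2 k' hk' hc))
      · have hle : D.p0 - D.c k ≤ e := by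
          have := h3.2.1
          have hzd : D.z = D.p0 + D.q + D.N1 := rfl
          omega
        change D.rho2 k ((Q.take e).take (D.p0 - D.c k)) = some y
        rw [List.take_take, min_eq_left hle]
        exact h5
  refine HL_of_few hR.hn hR.hP hR.hper (D.z + D.z + 2) ?_ ?_
  · refine reg_congr ?_ hiff
    refine reg_ex fun k => reg_and (reg_and (reg_cand h hR k) (reg_all fun k' =>
      reg_not (reg_and (reg_cand h hR k') (reg_const _)))) (reg_ex fun y => reg_ex fun v1 =>
        reg_cat (reg_and (reg_FB h hR _) ?_) (reg_and (reg_FB h hR _) (reg_T h hR v1 b)))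
    exact reg_part h hR (D.p0 - D.c k) (fun X s w => D.rho2 k X = some y ∧
      D.act y s + w = v1)
  · intro Q hQ
    obtain ⟨k, -, y, v1, u, v, rfl, ⟨⟨hu1, hu2, hu3⟩, -⟩, ⟨hv1, hv2, hv3⟩, -⟩ := (hiff Q).2 hQ
    refine le_trans (nw_le hR (Finset.range D.z ∪ {u.length} ∪
      Finset.Ico u.length (u.length + D.z) ∪ {u.length + v.length}) ?_) ?_
    · intro t ht hW
      simp only [Finset.mem_union, Finset.mem_range, Finset.mem_singleton, Finset.mem_Ico]
      by_contra hcon
      push Not at hcon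
      obtain ⟨⟨⟨c1, c2⟩, c3⟩, c4⟩ := hcon
      rw [List.length_append] at ht
      rcases lt_or_ge t u.length with h1 | h1
      · rw [List.take_append_of_le_length h1.le] at hW
        exact hu3 t h1 (by omega) hW
      · have h2 := c3 h1
        obtain ⟨t', rfl⟩ : ∃ t', t = u.length + t' := ⟨t - u.length, by omega⟩
        have hnq := h.nq
        have hzd : D.z = D.p0 + D.q + D.N1 := rfl
        rw [h.wo_take (by omega) (by omega)] at hW
        exact hv3 t' (by omega) (by omega) hW
    · refine le_trans (Finset.card_union_le _ _) ?_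
      refine le_trans (Nat.add_le_add_right (Finset.card_union_le _ _) _) ?_
      refine le_trans (Nat.add_le_add_right (Nat.add_le_add_right
        (Finset.card_union_le _ _) _) _) ?_
      simp only [Finset.card_range, Finset.card_singleton, Nat.card_Ico]
      omega

/-- **the row for one monoid, from the concrete instance** -/
theorem h3 (h : Ok D) (hR : Reg D Sw c P A1 M1) (hφ1 : D.φ [] = 1)
    (faith : ∀ s s', (∀ v, D.act v s = D.act v s') → s = s') (s : S) :
    HL 3 ({w | D.φ w = s} : Language α) := by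
  refine Top5_163.top D.φ hφ1 h.φ_mul D.act h.act_mul h.act_add faith D.XX h.nil_not_mem
    h.prefix_code D.T
    (fun X => D.act (D.nu2 (X.take D.p0)) (D.φ (X.drop D.p0)) + D.nu1 (X.drop D.p0))
    (fun X _ v => h.hT v X) D.LP1 D.LP2 D.R1 D.R2 ?_ ?_ h.s1 h.s2 h.cc (hXT h hR) (hNP h hR)
    ?_ ?_ (hQ1 h hR) (hQ2 h hR) s
  · intro Q b hQ hn
    subst hn
    rw [Par.R1] at hQ
    split_ifs at hQ with h1
    have := h.q0
    have := h1.2.1
    simp at this
    omega
  · intro Q b hQ hn
    subst hn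
    obtain ⟨k, e, y, hk, h1, h2, h3, h4, -⟩ := Ok.R2_iff.1 hQ
    have h5 := h4.2.1
    have h6 := h.z_pos
    simp at h5
    omega
  · intro v
    exact Hgt1_903.H.bounded 1 (D.p0 + D.N1) (fun w hw => hw.2.1)
  · intro v
    refine Hgt1_903.H.bounded 1 D.p0 (fun w hw => ?_)
    obtain ⟨k, hk, h1, -⟩ := hw
    have := h.c_lt k hk
    omega

end

end Crest.Agent.R320.InstH1_898
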