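import Crest.Agent.R320.Inst5_516
import Crest.Agent.R320.P4_167
import Crest.Agent.R320.Hk2_851

/-!
# Row 320: heights of the semantic right languages (helper516)
-/

set_option autoImplicit false

namespace Crest.Agent.R320.Inst5_516

open Crest.Agent.R320.Hk_851

variable {α S V : Type*} [Monoid S] [AddCommGroup V] {D : GD α S V}

theorem hL1 [Finite α] (h : Ok D) (k : ℕ) (v : V) : HL k ({P | D.LP1 P v} : Language α) := by
  refine HL.finite ((List.finite_length_lt α (D.p0 + D.N1 + 1)).subset ?_)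
  rintro P ⟨h1, h2⟩
  have := h.lamlen _ _ h2
  rw [List.length_drop] at this
  show P.length < _
  omega

theorem fin1 [Finite α] (h : Ok D) (v : V) : ({P | D.LP1 P v} : Set (List α)).Finite := by
  refine ((List.finite_length_lt α (D.p0 + D.N1 + 1)).subset ?_)
  rintro P ⟨h1, h2⟩
  have := h.lamlen _ _ h2
  rw [List.length_drop] at this
  show P.length < _
  omega

theorem fin2 [Finite α] (h : Ok D) (v : V) : ({P | D.LP2 P v} : Set (List α)).Finite := by
  refine ((List.finite_length_lt α (D.p0 + 1)).subset ?_)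
  rintro P ⟨k, h1, h2, _⟩
  have := h.cp k h1
  show P.length < _
  omega

theorem hL2 [Finite α] (h : Ok D) (k : ℕ) (v : V) : HL k ({P | D.LP2 P v} : Language α) :=
  HL.finite (fin2 h v)

variable (hfib : ∀ v v', HL 1 ({X | X ∈ D.XX ∧ D.T v X = v'} : Language α))

include hfib in
theorem hQ1 [Finite α] [Finite V] (h : Ok D) (b : V) :
    HL 1 ({Q | D.R1 Q = some b} : Language α) := by
  have h1 : HL 1 ({Q | ∀ v, ∀ P ∈ {P | D.LP1 P v},
      P ++ Q ∈ ({X | X ∈ D.XX ∧ D.T v X = b} : Language α)} : Language α) :=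
    Crest.Agent.R320.P4_167.HL_semantic (fin1 h) (fun v => hfib v b)
  refine (HL.setOf_and (HL.const (∃ P v, D.LP1 P v)) h1).congr fun Q => ?_
  show D.R1 Q = some b ↔ _
  rw [R1_iff]
  constructor
  · rintro ⟨h1, h2⟩
    exact ⟨h1, fun v P hP => h2 P v hP⟩
  · rintro ⟨h1, h2⟩
    exact ⟨h1, fun P v hP => h2 v P hP⟩

include hfib in
theorem hR1some [Finite α] [Finite V] (h : Ok D) :
    HL 1 ({Q | (D.R1 Q).isSome} : Language α) := by
  refine (HL.iUnion fun b : V => hQ1 hfib h b).congr fun Q => ?_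
  show (D.R1 Q).isSome ↔ _
  rw [Option.isSome_iff_exists]
  exact Iff.rfl

include hfib in
theorem hNC [Finite α] [Finite V] (h : Ok D) (P : List α) (v : V) :
    HL 1 ({Q | D.NC P v Q} : Language α) := by
  let A1 : Language α := {P' | P.length ≤ P'.length ∧ D.LP1 P' v}
  let B1 : Language α := {Q | (D.R1 Q).isSome}
  have h1 : HL 1 A1 := HL.finite ((fin1 h v).subset fun P' hP' => hP'.2)
  have hb1 : HL 1 B1 := hR1some hfib h
  have h2 := ((h1.mul hb1).mul HL.top).lquot P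
  refine h2.compl.congr fun Q => ?_
  show D.NC P v Q ↔ ¬ _
  constructor
  · intro hN hQ
    obtain ⟨a, ha, y, -, e⟩ := Language.mem_mul.1 hQ
    obtain ⟨P', hP', Q', hQ', rfl⟩ := Language.mem_mul.1 ha
    have hs : (D.R1 Q').isSome := hQ'
    obtain ⟨b, hb⟩ := Option.isSome_iff_exists.1 hs
    exact hN (P' ++ Q') (s1 P' v Q' b hP'.2 hb).1 ⟨y, e⟩ P' Q' rfl hP'.1 hP'.2 hs
  · intro hQ X hX hpre P' Q' e hl hLP hR
    obtain ⟨y, hy⟩ := hpre
    apply hQ
    change P ++ Q ∈ A1 * B1 * (⊤ : Language α)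
    refine Language.mem_mul.2 ⟨X, Language.mem_mul.2 ⟨P', ⟨hl, hLP⟩, Q', hR, e.symm⟩, y, trivial, hy⟩

include hfib in
theorem hCon [Finite α] [Finite V] (P : List α) (v b : V) :
    HL 1 ({Q | D.Con P v Q b} : Language α) := by
  have h0 : HL 1 ({Q : List α | Q ≠ []} : Language α) := by
    have := (HL.word (k := 1) ([] : List α)).compl
    exact this.congr fun w => Iff.rfl
  have h1 : ∀ v', HL 1 ({Q1 | (P ++ Q1 ∈ D.XX ∧ D.T v (P ++ Q1) = v') ∧ Q1 ≠ []} : Language α) :=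
    fun v' => HL.setOf_and ((hfib v v').lquot P) h0
  refine (HL.iUnion fun v' : V => (h1 v').mul (hfib v' b)).congr fun Q => ?_
  constructor
  · rintro ⟨Q1, X2, rfl, hne, hX, hX2, hT⟩
    refine ⟨D.T v (P ++ Q1), ?_⟩
    exact Language.mem_mul.2 ⟨Q1, ⟨⟨hX, rfl⟩, hne⟩, X2, ⟨hX2, hT⟩, rfl⟩
  · rintro ⟨v', hv'⟩
    obtain ⟨Q1, ⟨⟨hX, hT⟩, hne⟩, X2, ⟨hX2, hT2⟩, rfl⟩ := Language.mem_mul.1 hv'
    refine ⟨Q1, X2, rfl, hne, hX, hX2, ?_⟩
    rw [hT]; exact hT2

include hfib in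
theorem hQ2 [Finite α] [Finite V] (h : Ok D) (b : V) :
    HL 1 ({Q | D.R2 Q = some b} : Language α) := by
  have hA : HL 1 ({Q | ∃ v, ∃ P, D.LP2 P v ∧ D.NC P v Q} : Language α) := by
    refine (HL.iUnion fun v : V => HL.biUnion (fin2 h v)
      (L := fun P => ({Q | D.NC P v Q} : Language α)) fun P _ => hNC hfib h P v).congr fun Q => ?_
    constructor
    · rintro ⟨v, P, h1, h2⟩
      exact ⟨v, P, h1, h2⟩
    · rintro ⟨v, P, h1, h2⟩
      exact ⟨v, P, h1, h2⟩
  have hB : HL 1 ({Q | ∀ v, ∀ P ∈ {P | D.LP2 P v}, D.NC P v Q → D.Con P v Q b} :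
      Language α) := by
    refine (HL.iInter fun v : V => HL.biInter (fin2 h v)
      (L := fun P => ({Q | D.NC P v Q → D.Con P v Q b} : Language α)) fun P _ =>
        HL.setOf_imp (hNC hfib h P v) (hCon hfib P v b)).congr fun Q => ?_
    exact Iff.rfl
  refine (HL.setOf_and hA hB).congr fun Q => ?_
  show D.R2 Q = some b ↔ _
  rw [R2_iff]
  constructor
  · rintro ⟨⟨P, v, h1, h2⟩, h3⟩
    exact ⟨⟨v, P, h1, h2⟩, fun v P hP hN => h3 P v hP hN⟩
  · rintro ⟨⟨v, P, h1, h2⟩, h3⟩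
    exact ⟨⟨P, v, h1, h2⟩, fun P v hP hN => h3 v P hP hN⟩

end Crest.Agent.R320.Inst5_516
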