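import Crest.Agent.R320.Inst_895

/-!
# Row 320: heights for `Inst_895` and the final assembly from `UGI` (helper895)
-/

set_option autoImplicit false

namespace Crest.Agent.R320.InstH_895

open Crest.RegLang Crest.Agent.R320.Hk_851 Crest.Agent.R320.Blk467 Finset
open Crest.Agent.R320.Inst_895 Crest.Agent.R320.FewVal_228 Crest.Agent.R320.WallU_228
  Crest.Agent.R320.FewWalls_228

/-- a language that is a union of classes of a finite right congruence is regular -/
theorem regular_of_inv {α Q : Type} [Finite Q] (inv : List α → Q)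
    (hinv : ∀ u v a, inv u = inv v → inv (u ++ [a]) = inv (v ++ [a])) (L : Language α)
    (hL : ∀ u v, inv u = inv v → u ∈ L → v ∈ L) : L.IsRegular := by
  classical
  haveI : Fintype Q := Fintype.ofFinite Q
  let D : DFA α Q :=
    ⟨fun q a => if h : ∃ w, inv w = q then inv (Classical.choose h ++ [a]) else q, inv [],
      {q | ∃ w ∈ L, inv w = q}⟩
  have key : ∀ w : List α, D.eval w = inv w := by
    intro w
    induction w using List.reverseRecOn with
    | nil => rfl
    | append_singleton w a ih =>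
      rw [DFA.eval_append_singleton, ih]
      show (if h : ∃ w', inv w' = inv w then inv (Classical.choose h ++ [a]) else inv w) = _
      have h : ∃ w', inv w' = inv w := ⟨w, rfl⟩
      rw [dif_pos h]
      exact hinv _ _ a (Classical.choose_spec h)
  refine Language.isRegular_iff.mpr ⟨Q, inferInstance, D, ?_⟩
  ext w
  rw [DFA.mem_accepts, key]
  constructor
  · rintro ⟨w', hw', he⟩
    exact hL w' w he hw'
  · intro hw
    exact ⟨w, hw, rfl⟩

section

variable {α S V : Type} [Monoid S] [AddCommGroup V]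

/-- is there a wall at a place `≥ z0` strictly before the end? -/
def Flag (D : Dt α S V) (w : List α) : Prop := ∃ k, D.z0 ≤ k ∧ k < w.length ∧ D.Wo (w.take k)

/-- the invariant -/
def inv (D : Dt α S V) (w : List α) :
    {l : List α // l.length ≤ D.z0 + D.N1} × ZMod D.Pm × S × {l : List α // l.length ≤ D.n} ×
      Prop :=
  (⟨w.take (D.z0 + D.N1), by rw [List.length_take]; omega⟩, (w.length : ZMod D.Pm),
    pv D.φ (w.drop D.p0), ⟨lastn D.n w, lastn_length _ _⟩, Flag D w)

theorem inv_iff (D : Dt α S V) (u v : List α) : inv D u = inv D v ↔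
    (u.take (D.z0 + D.N1) = v.take (D.z0 + D.N1) ∧ (u.length : ZMod D.Pm) = v.length ∧
      pv D.φ (u.drop D.p0) = pv D.φ (v.drop D.p0) ∧ lastn D.n u = lastn D.n v ∧
        (Flag D u ↔ Flag D v)) := by
  unfold inv
  simp only [Prod.mk.injEq, Subtype.mk.injEq, eq_iff_iff]

theorem take_snoc (A : ℕ) (w : List α) (a : α) :
    (w ++ [a]).take A = (w.take A ++ [a]).take A := by
  by_cases h : A ≤ w.length
  · rw [List.take_append_of_le_length h, List.take_append_of_le_length
      (by rw [List.length_take]; omega), List.take_take, min_self]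
  · rw [List.take_of_length_le (l := w) (by omega)]

theorem len_of_take {A : ℕ} {u v : List α} (h : u.take A = v.take A) :
    min A u.length = min A v.length := by
  have := congrArg List.length h
  rwa [List.length_take, List.length_take] at this

/-- `Wo` reads the last `n` letters -/
def WoL (D : Dt α S V) : Prop := ∀ u v : List α, lastn D.n u = lastn D.n v → (D.Wo u ↔ D.Wo v)

theorem inv_snoc (D : Dt α S V) (hw : WoL D) (hz : D.p0 ≤ D.z0) (u v : List α) (a : α)
    (h : inv D u = inv D v) : inv D (u ++ [a]) = inv D (v ++ [a]) := by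
  rw [inv_iff] at h ⊢
  obtain ⟨h1, h2, h3, h4, h5⟩ := h
  have hl := len_of_take h1
  refine ⟨by rw [take_snoc, take_snoc _ v, h1], ?_, ?_, by rw [lastn_snoc, lastn_snoc _ v, h4], ?_⟩
  · simp [h2]
  · by_cases hc : D.p0 ≤ u.length
    · rw [List.drop_append_of_le_length hc, List.drop_append_of_le_length (by omega), pv_append,
        pv_append, h3]
    · rw [List.drop_of_length_le (by simp; omega), List.drop_of_length_le (by simp; omega)]
  · have key : ∀ w : List α, Flag D (w ++ [a]) ↔ (Flag D w ∨ (D.z0 ≤ w.length ∧ D.Wo w)) := by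
      intro w
      unfold Flag
      constructor
      · rintro ⟨k, hk1, hk2, hk3⟩
        rw [List.length_append, List.length_singleton] at hk2
        rw [List.take_append_of_le_length (by omega)] at hk3
        by_cases hc : k = w.length
        · right
          subst hc
          rw [List.take_length] at hk3
          exact ⟨hk1, hk3⟩
        · left
          exact ⟨k, hk1, by omega, hk3⟩
      · rintro (⟨k, hk1, hk2, hk3⟩ | ⟨hk1, hk2⟩)
        · exact ⟨k, hk1, by simp; omega, by rwa [List.take_append_of_le_length (by omega)]⟩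
        · exact ⟨w.length, hk1, by simp, by rwa [List.take_left]⟩
    rw [key, key, h5, hw u v h4]
    have : D.z0 ≤ u.length ↔ D.z0 ≤ v.length := by omega
    rw [this]

theorem mem_C_iff (D : Dt α S V) (w : List α) :
    w ∈ D.C ↔ (D.z0 ≤ w.length ∧ D.Wo w ∧ ¬ Flag D w) := by
  unfold Dt.C Flag
  constructor
  · rintro ⟨h1, h2, h3⟩
    exact ⟨h1, h2, fun ⟨k, hk1, hk2, hk3⟩ => h3 k hk1 hk2 hk3⟩
  · rintro ⟨h1, h2, h3⟩
    exact ⟨h1, h2, fun k hk1 hk2 hk3 => h3 ⟨k, hk1, hk2, hk3⟩⟩

theorem inv_C (D : Dt α S V) (hw : WoL D) {u v : List α} (h : inv D u = inv D v)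
    (hu : u ∈ D.C) : v ∈ D.C := by
  rw [inv_iff] at h
  obtain ⟨h1, h2, h3, h4, h5⟩ := h
  have hl := len_of_take h1
  rw [mem_C_iff] at hu ⊢
  obtain ⟨a, b, c⟩ := hu
  exact ⟨by omega, (hw u v h4).1 b, fun hc => c (h5.2 hc)⟩

/-- periodicity -/
theorem Bd_mod {Bd : ℕ → Prop} {P : ℕ} (h : ∀ T, Bd (T + P) ↔ Bd T) (T : ℕ) :
    Bd T ↔ Bd (T % P) := by
  have key : ∀ k T, Bd (T + k * P) ↔ Bd T := by
    intro k
    induction k with
    | zero => intro T; simp
    | succ k ih =>
      intro T
      rw [Nat.succ_mul, ← Nat.add_assoc, h, ih]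
  conv_lhs => rw [← Nat.mod_add_div T P, Nat.mul_comm]
  exact key _ _

theorem sub_mod_eq {P p a b : ℕ} (ha : p ≤ a) (hb : p ≤ b)
    (h : (a : ZMod P) = b) : (a - p) % P = (b - p) % P := by
  have h1 : ((a - p : ℕ) : ZMod P) = ((b - p : ℕ) : ZMod P) := by
    rw [Nat.cast_sub ha, Nat.cast_sub hb, h]
  exact (ZMod.natCast_eq_natCast_iff' _ _ _).1 h1

/-- the hypotheses for the heights -/
structure Hyp (D : Dt α S V) : Prop where
  ok : Dt.Ok D
  wol : WoL D
  per : ∀ T, D.Bd (T + D.Pm) ↔ D.Bd T
  nuloc : ∀ q q2 : List α, D.La ≤ q.length → D.La ≤ q2.length → q.take D.La = q2.take D.La →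
    q.length % D.Pm = q2.length % D.Pm → pv D.φ q = pv D.φ q2 → D.nu1 q = D.nu1 q2

theorem Hyp.T_eq {D : Dt α S V} (h : Hyp D) {u v : List α} (huv : inv D u = inv D v)
    (hu : u ∈ D.C) (x : V) :
    D.act x (pv D.φ u) + D.nu u = D.act x (pv D.φ v) + D.nu v := by
  have hv := inv_C D h.wol huv hu
  have hz := h.ok.hz
  rw [inv_iff] at huv
  obtain ⟨h1, h2, h3, h4, h5⟩ := huv
  have hul : D.z0 ≤ u.length := hu.1
  have hvl : D.z0 ≤ v.length := hv.1
  have e0 : ∀ w : List α, w.take D.p0 = (w.take (D.z0 + D.N1)).take D.p0 := by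
    intro w; rw [List.take_take, min_eq_left (by omega)]
  have e1 : u.take D.p0 = v.take D.p0 := by rw [e0 u, e0 v, h1]
  have e2 : pv D.φ u = pv D.φ v := by
    rw [← List.take_append_drop D.p0 u, ← List.take_append_drop D.p0 v, pv_append, pv_append,
      e1, h3]
  have e3 : (u.drop D.p0).take D.La = (v.drop D.p0).take D.La := by
    have : ∀ w : List α, (w.drop D.p0).take D.La =
        ((w.take (D.z0 + D.N1)).drop D.p0).take D.La := by
      intro w
      rw [List.drop_take, List.take_take, min_eq_left (by omega)]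
    rw [this u, this v, h1]
  have e4 : D.nu1 (u.drop D.p0) = D.nu1 (v.drop D.p0) := by
    refine h.nuloc _ _ (by rw [List.length_drop]; omega) (by rw [List.length_drop]; omega) e3 ?_ h3
    rw [List.length_drop, List.length_drop]
    exact sub_mod_eq (by omega) (by omega) h2
  unfold Dt.nu
  rw [e2, e1, h3, e4]

theorem Hyp.good {D : Dt α S V} (h : Hyp D) {u v : List α} (huv : inv D u = inv D v)
    (hu : u ∈ D.C) (hg : D.Good u) : D.Good v := by
  have hv := inv_C D h.wol huv hu
  have hz := h.ok.hz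
  rw [inv_iff] at huv
  obtain ⟨h1, h2, h3, h4, h5⟩ := huv
  have hl := len_of_take h1
  have hul : D.z0 ≤ u.length := hu.1
  have hvl : D.z0 ≤ v.length := hv.1
  obtain ⟨g1, g2, g3⟩ := hg
  refine ⟨by omega, ?_, ?_⟩
  · intro k hk1 hk2 hk3
    refine g2 k hk1 hk2 ?_
    have : ∀ w : List α, w.take k = (w.take (D.z0 + D.N1)).take k := by
      intro w; rw [List.take_take, min_eq_left (by omega)]
    rw [this u, h1, ← this v]
    exact hk3
  · rw [Bd_mod h.per] at g3 ⊢
    rwa [← sub_mod_eq (by omega) (by omega) h2]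

instance finL [Finite α] (n : ℕ) : Finite {l : List α // l.length ≤ n} :=
  (List.finite_length_le α n).to_subtype

theorem Hyp.regC [Finite α] [Finite S] {D : Dt α S V} [NeZero D.Pm] (h : Hyp D) (x y : V) :
    Language.IsRegular ({X | X ∈ D.C ∧ D.act x (pv D.φ X) + D.nu X = y} : Language α) := by
  have hz := h.ok.hz
  refine regular_of_inv (inv D) (fun u v a => inv_snoc D h.wol (by omega) u v a) _ ?_
  rintro u v huv ⟨h1, h2⟩
  exact ⟨inv_C D h.wol huv h1, by rw [← h.T_eq huv h1]; exact h2⟩

theorem Hyp.regB [Finite α] [Finite S] {D : Dt α S V} [NeZero D.Pm] (h : Hyp D) (x y : V) :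
    Language.IsRegular ({X | X ∈ D.Bad ∧ D.act x (pv D.φ X) + D.nu X = y} : Language α) := by
  have hz := h.ok.hz
  refine regular_of_inv (inv D) (fun u v a => inv_snoc D h.wol (by omega) u v a) _ ?_
  rintro u v huv ⟨⟨h1, h3⟩, h2⟩
  have hv := inv_C D h.wol huv h1
  exact ⟨⟨hv, fun hg => h3 (h.good huv.symm hv hg)⟩, by rw [← h.T_eq huv h1]; exact h2⟩

theorem tail_iff (D : Dt α S V) (w : List α) : (∀ X ∈ D.C, ¬ X <+: w) ↔
    (¬ Flag D w ∧ ¬ (D.z0 ≤ w.length ∧ D.Wo w)) := by
  constructor
  · intro h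
    have key : ∀ k, D.z0 ≤ k → k ≤ w.length → ¬ D.Wo (w.take k) := by
      intro k
      induction k using Nat.strong_induction_on with
      | _ k ih =>
        intro h1 h2 h3
        have hl : (w.take k).length = k := by rw [List.length_take]; omega
        refine h (w.take k) ⟨by omega, h3, ?_⟩ (List.take_prefix _ _)
        intro j hj1 hj2
        rw [hl] at hj2
        rw [List.take_take, min_eq_left (by omega)]
        exact ih j hj2 hj1 (by omega)
    refine ⟨fun ⟨k, h1, h2, h3⟩ => key k h1 (by omega) h3, fun ⟨h1, h2⟩ => ?_⟩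
    refine key w.length h1 (le_refl _) ?_
    rwa [List.take_length]
  · rintro ⟨h1, h2⟩ X hX ⟨Z, rfl⟩
    obtain ⟨x1, x2, x3⟩ := hX
    by_cases hZ : Z = []
    · subst hZ
      rw [List.append_nil] at h2
      exact h2 ⟨x1, x2⟩
    · refine h1 ⟨X.length, x1, ?_, by rwa [List.take_left]⟩
      have := List.length_pos_of_ne_nil hZ
      rw [List.length_append]; omega

theorem Hyp.regTail [Finite α] [Finite S] {D : Dt α S V} [NeZero D.Pm] (h : Hyp D) (s : S) :
    Language.IsRegular ({w | (∀ X ∈ D.C, ¬ X <+: w) ∧ pv D.φ w = s} : Language α) := by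
  have hz := h.ok.hz
  refine regular_of_inv (inv D) (fun u v a => inv_snoc D h.wol (by omega) u v a) _ ?_
  rintro u v huv ⟨h1, h2⟩
  rw [inv_iff] at huv
  obtain ⟨g1, g2, g3, g4, g5⟩ := huv
  have hl := len_of_take g1
  have h1' := (tail_iff D u).1 h1
  refine ⟨(tail_iff D v).2 ⟨fun hf => h1'.1 (g5.2 hf), fun ⟨c1, c2⟩ =>
    h1'.2 ⟨by omega, (h.wol u v g4).2 c2⟩⟩, ?_⟩
  rw [← h2]
  have e0 : ∀ w : List α, w.take D.p0 = (w.take (D.z0 + D.N1)).take D.p0 := by
    intro w; rw [List.take_take, min_eq_left (by omega)]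
  rw [← List.take_append_drop D.p0 u, ← List.take_append_drop D.p0 v, pv_append, pv_append,
      e0 u, e0 v, g1, g3]

end

end Crest.Agent.R320.InstH_895
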