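import Crest.Agent.R320.InstDef_499

/-!
# Row 320: the concrete instance, next anchor (`N_spec`) and soundness of scheme 1 (`SC1`)
-/

set_option autoImplicit false

namespace Crest.Agent.R320.Inst_499

open Crest.Agent.R320.ThrChain260 Crest.Agent.R320.Zone132_898 Crest.Agent.R320.Ruler2_537

variable {α S V W : Type*} [Monoid S] [AddCommGroup V] [AddCommGroup W]

namespace Inst

variable (I : Inst α S V W)

theorem N1_le_S : I.P.N1 ≤ I.P.S := by
  have h1 := I.P.hs 0
  have h2 := abs_nonneg (I.P.s 0)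
  linarith

theorem exists_wall {U : List α} (hU : I.Cl U) (s : ℕ) (h : s + I.G + I.ro.n ≤ U.length) :
    ∃ t : ℕ, s ≤ t ∧ t ≤ s + I.G ∧ I.ro.R (U.drop t) := by
  obtain ⟨t, h1, h2⟩ := I.wallO (U.drop s) (I.Cl_drop U s hU) (by rw [List.length_drop]; omega)
  rw [List.drop_drop] at h2
  exact ⟨s + t, by omega, by omega, h2⟩

theorem exists_wallS {U : List α} (hU : I.Cl U) (s : ℕ) (h : s + I.Gs + I.Z.r.n ≤ U.length) :
    ∃ t : ℕ, s ≤ t ∧ t ≤ s + I.Gs ∧ I.Z.r.R (U.drop t) := by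
  obtain ⟨t, h1, h2⟩ := I.wallS (U.drop s) (I.Cl_drop U s hU) (by rw [List.length_drop]; omega)
  rw [List.drop_drop] at h2
  exact ⟨s + t, by omega, by omega, h2⟩

theorem zP : I.P.p0 + I.P.S ≤ I.P.z := by
  have h := I.zbig
  rw [I.Pp0, I.PS, I.Pz]
  have : I.p0 + I.Sg ≤ I.z := by omega
  exact_mod_cast this

theorem N_spec {U : List α} (hU : I.Cl U) (hl : I.Bm ≤ U.length) :
    ∃ t0 : ℕ, IsN I.P (WL I.ro U) 0 t0 ∧ (I.z : ℤ) - I.Sg ≤ t0 ∧ t0 + I.ro.n ≤ I.Bm ∧
      I.N (U.take I.Bm) = t0 := by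
  have hB := I.Bbig
  have hz := I.zbig
  have hSN := I.N1_le_S
  have hN := I.P.hN
  obtain ⟨u, hu1, hu2, hu3⟩ := I.exists_wall hU (I.z + I.Sg) (by omega)
  have hwu : WL I.ro U (u : ℤ) := ⟨by omega, by simpa using hu3⟩
  have hq : (0 : ℤ) + I.P.z + (I.P.S - I.P.N1) ≤ u := by
    rw [I.Pz, I.PS] at *
    have : ((I.z + I.Sg : ℕ) : ℤ) ≤ u := by exact_mod_cast hu1
    push_cast at this
    linarith
  obtain ⟨t, ht, ht1, ht2⟩ := exists_isN (P := I.P) (a := 0) hwu hq
  have ht0 : 0 ≤ t := ht.1.1.1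
  obtain ⟨t0, rfl⟩ := Int.eq_ofNat_of_zero_le ht0
  have h1 : (I.z : ℤ) - I.Sg ≤ t0 := by
    rw [I.Pz, I.PS] at ht1
    linarith
  have h2 : t0 + I.ro.n ≤ I.Bm := by
    have : t0 ≤ u := by exact_mod_cast ht2
    omega
  refine ⟨t0, ht, h1, h2, ?_⟩
  have hcongr : IsN I.P (WL I.ro (U.take I.Bm)) 0 t0 := by
    refine (isN_congr (P := I.P) (Wl := WL I.ro U) (a := 0) (lo := 0) (hi := I.Bm - I.ro.n)
      (fun t _ h => (WL_take (by linarith)).symm) ?_ hwu hq ?_ hSN _).1 ht
    · rw [I.Pz, I.PS]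
      have : ((I.Sg : ℕ) : ℤ) ≤ I.z := by exact_mod_cast (by omega : I.Sg ≤ I.z)
      linarith
    · have : u + I.ro.n ≤ I.Bm := by omega
      have : (u : ℤ) + I.ro.n ≤ I.Bm := by exact_mod_cast this
      linarith
  have hex : ∃ t : ℕ, 0 < t ∧ t ≤ I.Bm ∧ IsN I.P (WL I.ro (U.take I.Bm)) 0 t :=
    ⟨t0, by omega, by omega, hcongr⟩
  unfold N
  rw [dif_pos hex]
  have := isN_unique hex.choose_spec.2.2 hcongr
  exact_mod_cast this

theorem N_pos (hB : 0 < I.Bm) (y : List α) : 0 < I.N y ∧ I.N y ≤ I.Bm := by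
  unfold N
  split
  · rename_i h
    exact ⟨h.choose_spec.1, h.choose_spec.2.1⟩
  · exact ⟨hB, le_rfl⟩

theorem N_q0 {y : List α} (hy : I.Cl y) (hl : y.length = I.Bm) : I.Bm - I.N y ≤ I.q0 := by
  obtain ⟨t0, _, h2, _, h4⟩ := I.N_spec hy (le_of_eq hl.symm)
  rw [← hl, List.take_length] at h4
  have h5 := I.q0big
  have h6 := I.Bbig
  rw [h4]
  omega

theorem legal_append {u r : List α} (h : Legal I.P (WL I.ro r) 0) :
    Legal I.P (WL I.ro (u ++ r)) u.length := by
  intro t ht hb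
  rcases lt_or_ge t (u.length : ℤ) with hx | hx
  · exact absurd hb.2 (not_le.2 (left_lt I.zP hx))
  · have h1 : WL I.ro r (t - u.length) := by
      rw [← WL_append_right (u := u) (by linarith), sub_add_cancel]; exact ht
    refine h _ h1 ?_
    rw [sub_zero]
    exact hb

theorem isB_append {u r : List α} {d : ℕ} (h : IsB I.P (WL I.ro r) 0 d) :
    IsB I.P (WL I.ro (u ++ r)) u.length (u.length + d) := by
  obtain ⟨⟨h1, h2⟩, h3⟩ := h
  refine ⟨⟨?_, ?_⟩, ?_⟩
  · rw [add_comm, WL_append_right (by omega)]; exact h1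
  · rw [sub_zero] at h2
    rw [add_sub_cancel_left]; exact h2
  · intro t ht hq
    have hx := qualR_ge I.zP hq
    refine h3 (t - u.length) (by linarith) ⟨?_, ?_⟩
    · rw [← WL_append_right (u := u) (by linarith), sub_add_cancel]; exact hq.1
    · rw [sub_zero]; exact hq.2

/-- the common last step of both soundness statements -/
theorem zm_eq {u r : List α} {d : ℕ} (hN : I.N ((u ++ r).take I.Bm) = u.length + d)
    (hd : u.length + d ≤ I.Bm) (hp : I.p0 ≤ u.length + d) (hpB : I.p0 ≤ I.Bm) (v : V) :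
    I.zm ((u ++ r).take I.Bm) v =
      I.Z.act (I.Z.act v (I.Z.phi ((u ++ r).take I.p0)) + I.nu2 ((u ++ r).take I.p0))
        (I.Z.phi ((u ++ r.take d).drop I.p0)) + I.Z.nu ((u ++ r.take d).drop I.p0) := by
  have e1 : ((u ++ r).take I.Bm).take (u.length + d) = u ++ r.take d := by
    rw [List.take_take, min_eq_left hd, List.take_length_add_append]
  have e2 : ((u ++ r).take I.Bm).take I.p0 = (u ++ r).take I.p0 := by
    rw [List.take_take, min_eq_left hpB]
  have e3 : (u ++ r).take I.p0 = (u ++ r.take d).take I.p0 := by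
    rw [← List.take_length_add_append, List.take_take, min_eq_left hp]
  unfold zm nu
  rw [hN, e1, e2, I.act_add, ← I.act_mul, ← I.Z.hphi, ← add_assoc]
  congr 4
  rw [e3, List.take_append_drop]

theorem SC1 (h1 : I.Z.N1) (h2 : I.Z.N2) {u r : List α} {v b : V} {d : ℕ}
    (hU : I.Cl (u ++ r)) (hr : r.length = I.D1) (hL : I.L1 u v) (hR : I.R1 r = some (d, b)) :
    I.N ((u ++ r).take I.Bm) = u.length + d ∧ I.zm ((u ++ r).take I.Bm) v = b := by
  obtain ⟨hp, hLL⟩ := hL
  have hRR : I.RR1 r (d, b) := by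
    unfold R1 at hR
    split at hR
    · rename_i h
      have e := Option.some.inj hR
      rw [← e]
      exact h.choose_spec
    · exact absurd hR (by simp)
  obtain ⟨hleg, hisB, hQ⟩ := hRR
  simp only at hisB hQ
  have hD1 := I.D1big
  have hBb := I.Bbig
  have hzb := I.zbig
  -- the window
  obtain ⟨c, om, H, hP, hi, hlo, hhi, hrest⟩ := hLL
  have hwin := I.win c.i hi
  have hlen : (u.length : ℤ) = I.p0 + (I.Z.q : ℤ) * om := by
    rw [List.length_drop] at hP
    have : u.length = I.p0 + I.Z.q * om := by omega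
    exact_mod_cast this
  have hInWin : InWin I.P 0 u.length := by
    refine ⟨?_, ?_, ?_⟩
    · rw [hlen, I.Pp0]
      have : (0 : ℤ) ≤ (I.Z.q : ℤ) * om := by positivity
      linarith
    · rw [hlen, I.Pp0]
      have h5 : (I.Z.q : ℤ) * om ≤ (I.Z.q : ℤ) * (I.Z.lo c.i + I.Z.M) := by
        apply mul_le_mul_of_nonneg_left _ (by positivity)
        exact_mod_cast (by omega : om ≤ I.Z.lo c.i + I.Z.M)
      linarith
    · rw [hlen, I.Pp0, I.PM]
      refine ⟨om, by ring⟩
  have hleg' := I.legal_append (u := u) hleg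
  have hisB' := I.isB_append (u := u) hisB
  have hisN := (isN_iff_isB hleg' hInWin _).2 hisB'
  obtain ⟨t0, ht0, ht1, ht2, ht3⟩ := I.N_spec hU (by rw [List.length_append]; omega)
  have ht : t0 = u.length + d := by
    have := isN_unique ht0 hisN
    exact_mod_cast this
  have hNN : I.N ((u ++ r).take I.Bm) = u.length + d := by rw [ht3, ht]
  refine ⟨hNN, ?_⟩
  rw [I.zm_eq hNN (by omega) (by omega) (by omega)]
  have hs := I.Z.sound h1 h2 (P := u.drop I.p0) (Q := r.take d) ⟨c, om, H, hP, hi, hlo, hhi, hrest⟩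
    hQ
  rw [List.take_append_of_le_length hp, List.drop_append_of_le_length hp]
  exact hs.symm

end Inst

end Crest.Agent.R320.Inst_499
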