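import Crest.Agent.R320.Spoil_113
import Crest.Agent.R320.Names_755
import Crest.Agent.R320.RandF_808
import Crest.Agent.R320.Glue_131

/-!
Row 320, helper113: the two schemes of 132 on run-free words, fed into Glue_131.
-/

set_option autoImplicit false

namespace Crest.Agent.R320.Inst_113

open Crest.Agent.R320.Gad1_420 Crest.Agent.R320.Sch1_420 Crest.Agent.R320.SC2_416
open Crest.Agent.R320.Spoil_113 Crest.Agent.R320.ExactR_237

variable {α : Type}

/-- the outer data of `Sch1_420` -/
def Out (C : Cst α) : Outer α where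
  Wo := C.Wo
  no := C.no
  q := C.M'
  thr := C.thr
  p0 := C.p0
  N1 := C.N1
  loc := C.loc
  thr_lb := fun r => by
    have := Cst.thr_lb (C := C) r
    have := C.hT0
    omega

variable {C : Cst α}

theorem thr_mod (r : ℕ) : C.thr (r % C.M') = C.thr r := by
  unfold Cst.thr
  rw [Nat.mod_mod]

theorem view_p0 (t : List α) : (t.take C.Bm).drop C.p0 = (t.drop C.p0).take (C.Bm - C.p0) := by
  rw [List.drop_take]

theorem N_of_XX {t X E : List α} (hex : C.ExO t) (ht : C.Bm ≤ t.length) (hX : X ∈ (Out C).XX)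
    (e : t = X ++ E) : C.p0 + C.NR ((t.take C.Bm).drop C.p0) = X.length := by
  have hp0 := C.hp0
  have hT0 := C.hT0
  have hB := C.hBm
  rw [view_p0]
  obtain ⟨h1, h2, h3⟩ := hX
  have hs := Cst.NR_spec (Cst.stop_ex hex (x := C.p0) (by omega))
  have hmin := fun s (h : C.StopZ ((t.drop C.p0).take (C.Bm - C.p0)) s) => Cst.NR_le h
  generalize C.NR ((t.drop C.p0).take (C.Bm - C.p0)) = s at *
  obtain ⟨a1, a2, a3, a4⟩ := hs
  rw [List.length_take, List.length_drop] at a2
  rw [Cst.wall_o a1 (by omega) (by omega)] at a3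
  have hXt : X.length ≤ t.length := by rw [e, List.length_append]; omega
  have h2' : C.thr X.length ≤ X.length := by
    have : (Out C).thr (X.length % (Out C).q) = C.thr X.length := thr_mod _
    rwa [this] at h2
  have hlb := Cst.thr_lb (C := C) X.length
  rcases lt_trichotomy (C.p0 + s) X.length with hlt | heq | hgt
  · exfalso
    refine h3 (C.p0 + s) hlt ⟨?_, ?_⟩
    · have : X.take (C.p0 + s) = t.take (C.p0 + s) := by
        rw [e, List.take_append_of_le_length hlt.le]
      show C.Wo (X.take (C.p0 + s))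
      rw [this]
      exact a3
    · have : (Out C).thr ((C.p0 + s) % (Out C).q) = C.thr (C.p0 + s) := thr_mod _
      rw [this]
      exact a4
  · exact heq
  · exfalso
    obtain ⟨u, hu⟩ := Nat.exists_eq_add_of_le (show C.p0 ≤ X.length by omega)
    have h4 : C.StopZ ((t.drop C.p0).take (C.Bm - C.p0)) u := by
      refine ⟨by omega, ?_, ?_, ?_⟩
      · rw [List.length_take, List.length_drop]; omega
      · rw [Cst.wall_o (by omega) (by omega) (by omega), ← hu, e, List.take_left]
        exact h1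
      · rw [← hu]; exact h2'
    have := hmin u h4
    omega

theorem XX_of_N {t : List α} (hex : C.ExO t) (ht : C.Bm ≤ t.length) :
    t.take (C.p0 + C.NR ((t.take C.Bm).drop C.p0)) ∈ (Out C).XX ∧
      C.T0 ≤ C.p0 + C.NR ((t.take C.Bm).drop C.p0) ∧
      C.p0 + C.NR ((t.take C.Bm).drop C.p0) ≤ C.Bm := by
  have hp0 := C.hp0
  have hT0 := C.hT0
  have hB := C.hBm
  rw [view_p0]
  have hs := Cst.NR_spec (Cst.stop_ex hex (x := C.p0) (by omega))
  have hmin := fun s (h : C.StopZ ((t.drop C.p0).take (C.Bm - C.p0)) s) => Cst.NR_le h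
  generalize C.NR ((t.drop C.p0).take (C.Bm - C.p0)) = s at *
  obtain ⟨a1, a2, a3, a4⟩ := hs
  rw [List.length_take, List.length_drop] at a2
  rw [Cst.wall_o a1 (by omega) (by omega)] at a3
  have hl : (t.take (C.p0 + s)).length = C.p0 + s := by rw [List.length_take]; omega
  have hlb := Cst.thr_lb (C := C) (C.p0 + s)
  refine ⟨⟨a3, ?_, ?_⟩, by omega, by omega⟩
  · rw [hl]
    have : (Out C).thr ((C.p0 + s) % (Out C).q) = C.thr (C.p0 + s) := thr_mod _
    rw [this]
    exact a4
  · intro u hu hstop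
    rw [hl] at hu
    obtain ⟨b1, b2⟩ := hstop
    have b2' : C.thr u ≤ u := by
      have : (Out C).thr (u % (Out C).q) = C.thr u := thr_mod _
      rwa [this] at b2
    have hlb' := Cst.thr_lb (C := C) u
    obtain ⟨w, hw⟩ := Nat.exists_eq_add_of_le (show C.p0 ≤ u by omega)
    have b1' : C.Wo ((t.take (C.p0 + s)).take u) := b1
    rw [List.take_take, min_eq_left (by omega)] at b1'
    have h4 : C.StopZ ((t.drop C.p0).take (C.Bm - C.p0)) w := by
      refine ⟨by omega, ?_, ?_, ?_⟩
      · rw [List.length_take, List.length_drop]; omega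
      · rw [Cst.wall_o (by omega) (by omega) (by omega), ← hw]
        exact b1'
      · rw [← hw]; exact b2'
    have := hmin w h4
    omega

theorem R_mono {t : List α} {c c' : ℕ} (h : c ≤ c') (hR : C.R (t.take c)) : C.R (t.take c') := by
  have h1 := C.rule.len _ hR
  have h2 := (C.rule.loc _).1 hR
  rw [List.length_take] at h1
  rw [List.take_take, min_eq_left (by omega)] at h2
  refine (C.rule.loc _).2 ?_
  rw [List.take_take, min_eq_left (by omega)]
  exact h2

theorem R_up {t : List α} {c : ℕ} (hR : C.R (t.take c)) : C.R t := by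
  have h1 := C.rule.len _ hR
  have h2 := (C.rule.loc _).1 hR
  rw [List.length_take] at h1
  rw [List.take_take, min_eq_left (by omega)] at h2
  exact (C.rule.loc _).2 h2

/-- (E) of 420 is (E) of the view -/
theorem E_EZ {t : List α} (hex : C.ExO t) (ht : C.Bm ≤ t.length)
    (h : (Out C).E (t.take (C.p0 + C.NR ((t.take C.Bm).drop C.p0)))) :
    C.EZ ((t.take C.Bm).drop C.p0) := by
  obtain ⟨⟨h1, h2, h3⟩, h4, h5⟩ := XX_of_N hex ht
  have hp0 := C.hp0
  have hT0 := C.hT0
  have hB := C.hBm
  rw [view_p0] at *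
  generalize C.NR ((t.drop C.p0).take (C.Bm - C.p0)) = s at *
  have hl : (t.take (C.p0 + s)).length = C.p0 + s := by rw [List.length_take]; omega
  rw [hl] at h2
  have h2' : C.thr (C.p0 + s) ≤ C.p0 + s := by
    have : (Out C).thr ((C.p0 + s) % (Out C).q) = C.thr (C.p0 + s) := thr_mod _
    rwa [this] at h2
  have h1' : C.Wo (t.take (C.p0 + s)) := h1
  rcases h with h | ⟨u, hu, b1, b2, b3⟩
  · rw [hl] at h
    have h' : C.p0 + s < C.thr (C.p0 + s) + C.N1 := by
      have : (Out C).thr ((C.p0 + s) % (Out C).q) = C.thr (C.p0 + s) := thr_mod _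
      rwa [this] at h
    refine ⟨s, by omega, ?_, ?_, by omega, h'⟩
    · rw [List.length_take, List.length_drop]; omega
    · rw [Cst.wall_o (by omega) (by omega) (by omega)]
      exact h1'
  · rw [hl] at hu
    have b3' : C.thr u ≤ u + C.N1 := by
      have : (Out C).thr (u % (Out C).q) = C.thr u := thr_mod _
      rwa [this] at b3
    have b2' : C.p0 + C.no ≤ u := b2
    have b4 : ¬ C.thr u ≤ u := by
      intro hc
      refine h3 u (by rw [hl]; exact hu) ⟨b1, ?_⟩
      have : (Out C).thr (u % (Out C).q) = C.thr u := thr_mod _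
      rw [this]; exact hc
    have b1' : C.Wo ((t.take (C.p0 + s)).take u) := b1
    rw [List.take_take, min_eq_left (by omega)] at b1'
    obtain ⟨w, hw⟩ := Nat.exists_eq_add_of_le (show C.p0 ≤ u by omega)
    refine ⟨w, by omega, ?_, ?_, ?_, ?_⟩
    · rw [List.length_take, List.length_drop]; omega
    · rw [Cst.wall_o (by omega) (by omega) (by omega), ← hw]
      exact b1'
    · rw [← hw]; omega
    · rw [← hw]; omega


section S1

variable {S V W : Type} [Monoid S] [AddCommGroup V] [AddCommGroup W]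

/-- zone map read on a buffer -/
noncomputable def zmB (C : Cst α) (f : α → S) (act : V → S → V) (nu2 nu1 : List α → V)
    (y : List α) (v : V) : V :=
  act (act v (pr f (y.take C.p0)) + nu2 (y.take C.p0))
    (pr f ((y.drop C.p0).take (C.NR (y.drop C.p0)))) +
    nu1 ((y.drop C.p0).take (C.NR (y.drop C.p0)))

open Classical in
/-- right reading of scheme 1 -/
noncomputable def R1 (D : Dat α S V W) (O : Outer α) (r : List α) : Option (ℕ × V) :=
  if h : ∃ db : ℕ × V, db.1 ≤ r.length ∧ r.take db.1 ∈ RQ D O db.2 then some h.choose else none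

theorem R1_some {D : Dat α S V W} {O : Outer α} {r : List α} {d : ℕ} {b : V}
    (h : R1 D O r = some (d, b)) : d ≤ r.length ∧ r.take d ∈ RQ D O b := by
  unfold R1 at h
  split_ifs at h with h1
  have h2 := h1.choose_spec
  rw [Option.some.injEq] at h
  rw [h] at h2
  exact h2

theorem R1_isSome {D : Dat α S V W} {O : Outer α} {r : List α} {d : ℕ} {b : V}
    (h1 : d ≤ r.length) (h2 : r.take d ∈ RQ D O b) : (R1 D O r).isSome := by
  unfold R1
  rw [dif_pos ⟨(d, b), h1, h2⟩]
  rfl

/-- (SC1) -/
theorem sc1 {D : Dat α S V W} {f : α → S} (hφ : D.φ = pr f) {nu1 nu2 : List α → V}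
    (hS : SoundB (Out C).XX (Tm D (Out C) (fun X v => D.act v (pr f X) + nu2 X) nu1)
      (LP D (Out C) (fun X v => D.act v (pr f X) + nu2 X)) (RQ D (Out C)))
    {u r : List α} {v : V} {d : ℕ} {b : V} (hex : C.ExO (u ++ r)) (hr : C.Bm ≤ r.length)
    (hL : u ∈ LP D (Out C) (fun X v => D.act v (pr f X) + nu2 X) v)
    (hR : R1 D (Out C) r = some (d, b)) :
    C.p0 + C.NR ((((u ++ r).take C.Bm).take C.Bm).drop C.p0) = u.length + d ∧
      zmB C f D.act nu2 nu1 ((u ++ r).take C.Bm) v = b := by
  obtain ⟨hd, hQ⟩ := R1_some hR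
  have h1 := hS.block _ _ _ _ hL hQ
  have h2 := hS.value _ _ _ _ hL hQ
  have e : u ++ r = (u ++ r.take d) ++ r.drop d := by
    rw [List.append_assoc, List.take_append_drop]
  have hN := N_of_XX hex (by rw [List.length_append]; omega) h1 e
  have hlX : (u ++ r.take d).length = u.length + d := by
    rw [List.length_append, List.length_take]; omega
  rw [hlX] at hN
  have hN' : C.p0 + C.NR ((((u ++ r).take C.Bm).take C.Bm).drop C.p0) = u.length + d := by
    rw [List.take_take, min_self]; exact hN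
  refine ⟨hN', ?_⟩
  obtain ⟨-, hT, hBm⟩ := XX_of_N hex (by rw [List.length_append]; omega)
  have hp0 := C.hp0
  have hT0 := C.hT0
  have hB := C.hBm
  have hup : C.p0 ≤ u.length := hL.1
  unfold zmB
  have e1 : ((u ++ r).take C.Bm).take C.p0 = (u ++ r.take d).take C.p0 := by
    rw [List.take_take, min_eq_left (by omega), List.take_append_of_le_length hup,
      List.take_append_of_le_length hup]
  have e2 : (((u ++ r).take C.Bm).drop C.p0).take (C.NR (((u ++ r).take C.Bm).drop C.p0)) =
      (u ++ r.take d).drop C.p0 := by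
    have h5 : u ++ r.take d = (u ++ r).take (u.length + d) := by
      rw [List.take_append, List.take_of_length_le (by omega : u.length ≤ u.length + d),
        Nat.add_sub_cancel_left]
    rw [h5]
    rw [show C.NR (((u ++ r).take C.Bm).drop C.p0) = u.length + d - C.p0 by omega]
    rw [List.drop_take, List.drop_take, List.take_take]
    congr 1
    omega
  rw [e1, e2, ← h2]
  unfold Tm
  rw [hφ]
  rfl

/-- (CP1) -/
theorem cp1 {D : Dat α S V W} {nu1 : List α → V} {pre : List α → V → V} {G : ℕ}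
    (hR : D.R = C.R) (hG : D.G = G)
    (hm : D.m = C.m) (hA : D.A = C.A) (hMM : D.M = C.M) (hM' : D.M' = C.M')
    (hc : ∀ X ∈ (Out C).XX, ¬ (Out C).E X →
        (∀ k ∈ C.Ms, ¬ k ∣ (X.length - (Out C).p0) / D.M') →
        (∀ t, t ≤ D.A D.m + D.M' * D.M →
          ∃ s, t ≤ s ∧ s < t + D.G ∧ D.R (X.drop ((Out C).p0 + s))) →
        (∀ k, k ≤ D.m → ∀ s, D.A k ≤ s + D.M' * D.M → s < D.A k + D.M' * D.M →
          ¬ D.R (X.drop ((Out C).p0 + s))) →
        ∀ v, CutB (LP D (Out C) pre) (RQ D (Out C)) v X)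
    (hsmall : ∀ s : ℕ, C.A C.m + C.M' * C.M + G + C.n ≤ C.N1)
    {t : List α} (hex : C.ExO t)
    (hexs : ∀ c N, c + N ≤ t.length → G + C.n ≤ N → ∃ i < G, C.R (((t.drop c).take N).drop i))
    (ht : C.Bm + C.Bm ≤ t.length)
    (hbad : ¬ C.BadR ((t.take C.Bm).drop C.p0)) (v : V) :
    ∃ x, C.p0 ≤ x ∧ x < C.Bm ∧ t.take x ∈ LP D (Out C) pre v ∧
      (R1 D (Out C) ((t.drop x).take C.Bm)).isSome := by
  obtain ⟨hX, hT, hBm⟩ := XX_of_N hex (t := t) (by omega)
  have hp0 := C.hp0
  have hT0 := C.hT0
  have hB := C.hBm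
  have hE : ¬ (Out C).E (t.take (C.p0 + C.NR ((t.take C.Bm).drop C.p0))) :=
    fun h => hbad (Or.inl (E_EZ hex (by omega) h))
  have hBZ : ∀ k ∈ C.Ms, ¬ k ∣ C.NR ((t.take C.Bm).drop C.p0) / C.M' :=
    fun k hk h => hbad (Or.inr (Or.inr ⟨k, hk, h⟩))
  have hDZ : ∀ k ≤ C.m, ¬ C.DZ k ((t.take C.Bm).drop C.p0) :=
    fun k hk h => hbad (Or.inr (Or.inl ⟨k, hk, h⟩))
  have hs0 := hsmall 0
  generalize hNN : C.NR ((t.take C.Bm).drop C.p0) = s0 at *
  have hl : (t.take (C.p0 + s0)).length = C.p0 + s0 := by rw [List.length_take]; omega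
  have hcut := hc _ hX hE (by
      intro k hk
      rw [hl, hM', show (Out C).p0 = C.p0 from rfl, Nat.add_sub_cancel_left]
      exact hBZ k hk) (by
      intro u hu
      rw [hA, hm, hM', hMM] at hu
      obtain ⟨i, hi, h1⟩ := hexs (C.p0 + u) (s0 - u) (by omega) (by omega)
      refine ⟨u + i, by omega, by rw [hG]; omega, ?_⟩
      rw [hR, show (Out C).p0 = C.p0 from rfl]
      have e : (t.take (C.p0 + s0)).drop (C.p0 + (u + i)) =
          ((t.drop (C.p0 + u)).take (s0 - u)).drop i := by
        rw [List.drop_take, List.drop_take, List.drop_drop,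
          show C.p0 + s0 - (C.p0 + (u + i)) = s0 - u - i by omega,
          show C.p0 + (u + i) = C.p0 + u + i by omega]
      rw [e]
      exact h1) (by
      intro k hk s h1 h2 h3
      rw [hm] at hk
      rw [hA, hM', hMM] at h1 h2
      refine hDZ k hk ⟨s, ?_, h1, h2⟩
      rw [hR, show (Out C).p0 = C.p0 from rfl] at h3
      rw [List.drop_take] at h3
      rw [List.drop_take, List.drop_take, List.drop_drop]
      exact R_mono (by omega) h3) v
  obtain ⟨P, Q, hPQ, hP, v', hQ⟩ := hcut
  have hlen : P.length + Q.length = C.p0 + s0 := by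
    rw [← hl, hPQ, List.length_append]
  have hQl : C.T0 - C.p0 ≤ Q.length := by
    have h1 := hQ.1.2.2.1
    have h2 : C.T0 ≤ (Out C).thr (((Out C).p0 + Q.length) % (Out C).q) :=
      Cst.thr_lb (C := C) _
    have h3 : (Out C).p0 = C.p0 := rfl
    omega
  have htP : t = P ++ (Q ++ t.drop (C.p0 + s0)) := by
    rw [← List.append_assoc, ← hPQ, List.take_append_drop]
  have e1 : t.take P.length = P := by
    conv_lhs => rw [htP]
    rw [List.take_left]
  have e2 : t.drop P.length = Q ++ t.drop (C.p0 + s0) := by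
    conv_lhs => rw [htP]
    rw [List.drop_left]
  have e3 : (t.drop P.length).length = t.length - P.length := List.length_drop
  have hPp : C.p0 ≤ P.length := hP.1
  refine ⟨P.length, hPp, by omega, by rw [e1]; exact hP, ?_⟩
  refine R1_isSome (d := Q.length) (b := v') ?_ ?_
  · rw [List.length_take, e3]; omega
  · rw [List.take_take, min_eq_left (by omega), e2, List.take_left]
    exact hQ

end S1

end Crest.Agent.R320.Inst_113
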