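import Crest.Agent.R320.InstDef_128

set_option autoImplicit false

namespace Crest.Agent.R320.Inst_128

open Finset

namespace Dat

variable {α S V : Type*} [AddCommGroup V] {D : Dat α S V}

theorem At.len {U : List α} {t : ℕ} (h : D.At U t) : D.w.n ≤ t := by
  have h1 := D.w.len _ h.2
  rw [List.length_take] at h1
  omega

theorem at_left {P Q : List α} {t : ℕ} (h : t ≤ P.length) : D.At (P ++ Q) t ↔ D.At P t := by
  unfold At
  rw [List.take_append_of_le_length h, List.length_append]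
  constructor
  · rintro ⟨_, h2⟩; exact ⟨h, h2⟩
  · rintro ⟨_, h2⟩; exact ⟨by omega, h2⟩

theorem at_right {P Q : List α} {t : ℕ} (h : D.w.n ≤ t) :
    D.At (P ++ Q) (P.length + t) ↔ D.At Q t := by
  unfold At
  have e : (P ++ Q).take (P.length + t) = P ++ Q.take t := by
    rw [List.take_append, List.take_of_length_le (by omega)]
    simp
  rw [e, List.length_append]
  constructor
  · rintro ⟨h1, h3⟩
    have h4 : t ≤ Q.length := by omega
    exact ⟨h4, (D.w.loc P (Q.take t) (by rw [List.length_take]; omega)).1 h3⟩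
  · rintro ⟨h1, h3⟩
    exact ⟨by omega, (D.w.loc P (Q.take t) (by rw [List.length_take]; omega)).2 h3⟩

theorem First.unique {U : List α} {t t' : ℕ} (h : D.First U t) (h' : D.First U t') : t = t' := by
  rcases lt_trichotomy t t' with h1 | h1 | h1
  · exact absurd h.2.1 (h'.2.2 t h.1 h1)
  · exact h1
  · exact absurd h'.2.1 (h.2.2 t' h'.1 h1)

theorem First.left {P Q : List α} {t : ℕ} (h : D.First P t) : D.First (P ++ Q) t :=
  ⟨h.1, (at_left h.2.1.1).2 h.2.1, fun s h1 h2 h3 =>
    h.2.2 s h1 h2 ((at_left (by have := h.2.1.1; omega)).1 h3)⟩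

theorem First.of_left {P Q : List α} {t : ℕ} (h : D.First (P ++ Q) t) (ht : t ≤ P.length) :
    D.First P t :=
  ⟨h.1, (at_left ht).1 h.2.1, fun s h1 h2 h3 => h.2.2 s h1 h2 ((at_left (by omega)).2 h3)⟩

theorem mem_XX {X : List α} : X ∈ D.XX ↔ D.First X X.length := Iff.rfl

theorem take_mem {U : List α} {t : ℕ} (h : D.First U t) : U.take t ∈ D.XX := by
  have h1 : (U.take t).length = t := by
    rw [List.length_take]; have := h.2.1.1; omega
  rw [mem_XX, h1]
  have h2 : D.First (U.take t ++ U.drop t) t := by rw [List.take_append_drop]; exact h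
  exact h2.of_left (by omega)

theorem prefixCode {X Y : List α} (hX : X ∈ D.XX) (hY : X ++ Y ∈ D.XX) : Y = [] := by
  have h1 : D.First (X ++ Y) X.length := First.left hX
  have h2 := h1.unique (mem_XX.1 hY)
  rw [List.length_append] at h2
  exact List.length_eq_zero_iff.1 (by omega)

variable [Monoid S] {C1 : ℕ}

theorem nil_notMem (h : D.Ok C1) : [] ∉ D.XX := by
  intro h1
  have h2 := (mem_XX.1 h1).1
  have h3 := h.hz
  simp at h2
  omega

theorem T_eq (h : D.Ok C1) (X : List α) (v : V) : D.T v X = D.act v (D.φ X) + D.nu X := by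
  unfold T nu
  have h1 : D.φ X = D.φ (X.take D.p0) * D.φ (X.drop D.p0) := by
    rw [← h.φ_app, List.take_append_drop]
  rw [h1, h.act_add, h.act_mul, add_assoc]

theorem s1 (h : D.Ok C1) {P Q : List α} {v b : V} (hP : D.LP1 P v) (hQ : D.RP1 Q b) :
    P ++ Q ∈ D.XX ∧ D.T v (P ++ Q) = b := by
  obtain ⟨hp, hL⟩ := hP
  obtain ⟨ha, hz1, hcl, hR⟩ := hQ
  have hN := h.LL_len _ _ hL
  rw [List.length_drop] at hN
  have hn := ha.len
  have hz := h.hz
  constructor
  · rw [mem_XX, List.length_append]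
    refine ⟨by omega, (at_right hn).2 ha, fun s hs1 hs2 hA => ?_⟩
    obtain ⟨t, rfl⟩ : ∃ t, s = P.length + t := ⟨s - P.length, by omega⟩
    have h1 := (at_right (by omega)).1 hA
    have h2 := hcl t (by omega) h1
    omega
  · unfold T
    rw [List.take_append_of_le_length hp, List.drop_append_of_le_length hp]
    exact (h.sound _ _ _ _ hL hR).symm

/-- the band of the end wall -/
def EX (D : Dat α S V) (X : List α) : Prop := ∃ s, D.At X s ∧ D.z ≤ s + D.N1 ∧ s ≤ D.z + D.N1

theorem comp1 (h : D.Ok C1) {X : List α} (hX : X ∈ D.XX) (hE : ¬ D.EX X)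
    (hB : ¬ D.BadT (X.length - D.p0)) (v : V) :
    ∃ P Q b, X = P ++ Q ∧ D.p0 ≤ P.length ∧ D.LP1 P v ∧ D.RP1 Q b := by
  have hz := h.hz
  have hX1 := (mem_XX.1 hX).1
  have hYl : (X.drop D.p0).length = X.length - D.p0 := List.length_drop
  obtain ⟨P', Q, b, hY, hL, hR⟩ := h.comp (X.drop D.p0) (by omega) (by rw [hYl]; exact hB)
    (D.act v (D.φ (X.take D.p0)) + D.nu2 (X.take D.p0))
  have hP'l := h.LL_len _ _ hL
  have htl : (X.take D.p0).length = D.p0 := by rw [List.length_take]; omega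
  have hXe : X = (X.take D.p0 ++ P') ++ Q := by
    rw [List.append_assoc, ← hY, List.take_append_drop]
  have hPl : (X.take D.p0 ++ P').length = D.p0 + P'.length := by
    rw [List.length_append, htl]
  have hXl : X.length = D.p0 + P'.length + Q.length := by
    conv_lhs => rw [hXe]
    rw [List.length_append, hPl]
  have hend : D.z + D.N1 < X.length := by
    by_contra hc
    exact hE ⟨X.length, (mem_XX.1 hX).2.1, by omega, by omega⟩
  refine ⟨X.take D.p0 ++ P', Q, b, hXe, by omega, ⟨by omega, ?_⟩, ?_, by omega, ?_, hR⟩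
  · have e1 : (X.take D.p0 ++ P').drop D.p0 = P' := by
      conv_lhs => rw [← htl]
      rw [htl, List.drop_append, List.drop_of_length_le (by omega), htl]
      simp
    have e2 : (X.take D.p0 ++ P').take D.p0 = X.take D.p0 := by
      rw [List.take_append_of_le_length (by omega), List.take_take, min_self]
    rw [e1, e2]
    exact hL
  · have h1 := (mem_XX.1 hX).2.1
    have h2 : D.At ((X.take D.p0 ++ P') ++ Q) ((X.take D.p0 ++ P').length + Q.length) := by
      rw [← hXe, hPl]
      rw [hXl] at h1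
      exact h1
    exact (at_right (by omega)).1 h2
  · intro t ht hA
    have hn := hA.len
    have h2 := (at_right (P := X.take D.p0 ++ P') hn).2 hA
    rw [← hXe, hPl] at h2
    have h3 : D.p0 + P'.length + t < X.length := by omega
    have h4 : D.p0 + P'.length + t < D.z := by
      by_contra hc
      exact (mem_XX.1 hX).2.2 _ (by omega) h3 h2
    by_contra hc
    exact hE ⟨_, h2, by omega, by omega⟩

theorem hypN_iff (h : D.Ok C1) {k : ℕ} {P Q : List α} {t : ℕ} (hk : k < D.K)
    (hP : P.length = D.c k) : D.HypN k Q t ↔ D.First (P ++ Q) (D.c k + t) := by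
  have hz := h.hz
  have hc := h.c_le k hk
  constructor
  · rintro ⟨h1, h2, h3⟩
    refine ⟨h1, ?_, ?_⟩
    · rw [← hP]; exact (at_right h2.len).2 h2
    · intro s hs1 hs2 hA
      obtain ⟨u, rfl⟩ : ∃ u, s = P.length + u := ⟨s - P.length, by omega⟩
      exact h3 u (by omega) (by omega) ((at_right (by omega)).1 hA)
  · rintro ⟨h1, h2, h3⟩
    refine ⟨h1, ?_, ?_⟩
    · rw [← hP] at h2; exact (at_right (by omega)).1 h2
    · intro s hs1 hs2 hA
      refine h3 (D.c k + s) hs1 (by omega) ?_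
      rw [← hP]; exact (at_right hA.len).2 hA

theorem hypBad_of (h : D.Ok C1) {k : ℕ} {X R P Q : List α} (hk : k < D.K)
    (hP : P.length = D.c k) (hX : X ∈ D.XX) (hU : X ++ R = P ++ Q)
    (hbad : D.EX X ∨ D.BadT (X.length - D.p0)) : D.HypBad k Q := by
  have hz := h.hz
  have hc := h.c_le k hk
  have hX1 := (mem_XX.1 hX).1
  refine ⟨X.length - D.c k, ?_, ?_⟩
  · rw [hypN_iff h hk hP, ← hU, show D.c k + (X.length - D.c k) = X.length by omega]
    exact First.left hX
  · rcases hbad with ⟨s, h1, h2, h3⟩ | h1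
    · left
      refine ⟨s - D.c k, ?_, by omega, by omega⟩
      have h4 : D.At (X ++ R) s := (at_left h1.1).2 h1
      rw [hU, show s = P.length + (s - D.c k) by omega] at h4
      exact (at_right (by omega)).1 h4
    · right
      rw [show D.c k + (X.length - D.c k) - D.p0 = X.length - D.p0 by omega]
      exact h1

theorem s2 (h : D.Ok C1) {P Q : List α} {v b : V} (hL : D.LP2 P v) (hR : D.RP2 Q b)
    (H : ∀ X ∈ D.XX, X <+: P ++ Q → ∀ P' Q', X = P' ++ Q' → P.length ≤ P'.length →
      D.LP1 P' v → (∃ b', D.RP1 Q' b') → False) :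
    ∃ Q1 X2, Q = Q1 ++ X2 ∧ Q1 ≠ [] ∧ P ++ Q1 ∈ D.XX ∧ X2 ∈ D.XX ∧
      D.T (D.T v (P ++ Q1)) X2 = b := by
  classical
  obtain ⟨k0, hk0, hP, hLX⟩ := hL
  obtain ⟨k, Q1, X2, r, hk, hbad, huniq, hQ, hN, hX2, hRX, hb⟩ := hR
  have hz := h.hz
  have hc0 := h.c_le k0 hk0
  have hX2z := (mem_XX.1 hX2).1
  have hex : ∃ t, D.z ≤ t ∧ D.At (P ++ Q) t := by
    refine ⟨P.length + (Q1.length + X2.length), by omega, ?_⟩
    have h1 := (mem_XX.1 hX2).2.1
    have h2 := (at_right (P := Q1) h1.len).2 h1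
    rw [← hQ] at h2
    exact (at_right (by have := h1.len; omega)).2 h2
  have hfirst : D.First (P ++ Q) (Nat.find hex) :=
    ⟨(Nat.find_spec hex).1, (Nat.find_spec hex).2, fun s hs1 hs2 hA =>
      Nat.find_min hex hs2 ⟨hs1, hA⟩⟩
  have hXm := take_mem hfirst
  have hbadX : D.EX ((P ++ Q).take (Nat.find hex)) ∨
      D.BadT (((P ++ Q).take (Nat.find hex)).length - D.p0) := by
    by_contra hc
    push Not at hc
    obtain ⟨P', Q', b', e1, e2, e3, e4⟩ := comp1 h hXm hc.1 hc.2 v
    exact H _ hXm (List.take_prefix _ _) P' Q' e1 (by omega) e3 ⟨b', e4⟩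
  have hk0k : k0 = k := huniq k0 hk0
    (hypBad_of h hk0 hP hXm (R := (P ++ Q).drop (Nat.find hex)) (List.take_append_drop _ _) hbadX)
  subst hk0k
  have hfk := (hypN_iff h hk hP).1 hN
  have hX1 : P ++ Q1 ∈ D.XX := by
    rw [mem_XX, List.length_append, hP]
    rw [hQ, ← List.append_assoc] at hfk
    exact hfk.of_left (by rw [List.length_append, hP])
  have hQ1l := hN.1
  refine ⟨Q1, X2, hQ, ?_, hX1, hX2, ?_⟩
  · rintro rfl
    simp at hQ1l
    omega
  · rw [hb]
    congr 1
    have e1 : (P ++ Q1).take D.p0 = P ++ Q1.take (D.p0 - D.c k0) := by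
      rw [List.take_append, List.take_of_length_le (by omega), hP]
    have e2 : (P ++ Q1).drop D.p0 = Q1.drop (D.p0 - D.c k0) := by
      rw [List.drop_append, List.drop_of_length_le (by omega), hP]
      simp
    unfold T
    rw [e1, e2]
    have h1 := h.xsound k0 hk P (Q1.take (D.p0 - D.c k0)) v r hP
      (by rw [List.length_append, List.length_take, hP]; omega) hLX hRX
    rw [← h1]

theorem spoil (h : D.Ok C1) {X X2 : List α} (hX : X ∈ D.XX) (hX2 : X2 ∈ D.XX) :
    ∃ J : Finset ℕ, J.card ≤ 1 + 2 * C1 ∧ ∀ k < D.K, ∀ k' < D.K, k' ≠ k →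
      D.HypBad k' ((X ++ X2).drop (D.c k)) → k ∈ J := by
  classical
  have hz := h.hz
  have hW := h.hW
  have hXz := (mem_XX.1 hX).1
  have hX2z := (mem_XX.1 hX2).1
  have hAX : D.At (X ++ X2) X.length := (at_left le_rfl).2 (mem_XX.1 hX).2.1
  have hAU : D.At (X ++ X2) (X.length + X2.length) :=
    (at_right (mem_XX.1 hX2).2.1.len).2 (mem_XX.1 hX2).2.1
  have hUl : (X ++ X2).length = X.length + X2.length := List.length_append
  have hex0 : ∃ t, D.z ≤ t + D.p0 ∧ D.At (X ++ X2) t := ⟨X.length, by omega, hAX⟩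
  obtain ⟨hw0a, hw0b⟩ := Nat.find_spec hex0
  have hw0min : ∀ t, D.z ≤ t + D.p0 → D.At (X ++ X2) t → Nat.find hex0 ≤ t :=
    fun t h1 h2 => Nat.find_min' hex0 ⟨h1, h2⟩
  set w0 := Nat.find hex0 with hw0
  have hw0X : w0 ≤ X.length := hw0min _ (by omega) hAX
  have hex1 : ∃ t, w0 < t ∧ D.At (X ++ X2) t := ⟨X.length + X2.length, by omega, hAU⟩
  obtain ⟨hw1a, hw1b⟩ := Nat.find_spec hex1
  have hw1min : ∀ t, w0 < t → D.At (X ++ X2) t → Nat.find hex1 ≤ t :=
    fun t h1 h2 => Nat.find_min' hex1 ⟨h1, h2⟩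
  set w1 := Nat.find hex1 with hw1
  have hgap : w0 + D.w.W < w1 := D.w.gap (X ++ X2) w0 w1 hw1a hw1b.1 hw0b.2 hw1b.2
  obtain ⟨J0, hJ0, hJ0'⟩ := h.thin (w0 - D.p0) (by omega)
  obtain ⟨J1, hJ1, hJ1'⟩ := h.thin (w1 - D.p0) (by omega)
  -- places in the right word
  have habs : ∀ k < D.K, ∀ t, D.w.n ≤ t →
      (D.At ((X ++ X2).drop (D.c k)) t ↔ D.At (X ++ X2) (D.c k + t)) := by
    intro k hk t ht
    have hc := h.c_le k hk
    have h1 : ((X ++ X2).take (D.c k)).length = D.c k := by
      rw [List.length_take]; omega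
    have h2 := at_right (D := D) (P := (X ++ X2).take (D.c k)) (Q := (X ++ X2).drop (D.c k)) ht
    rw [List.take_append_drop, h1] at h2
    exact h2.symm
  let Eb : ℕ → ℕ → Prop := fun k k' => ∃ s, D.At ((X ++ X2).drop (D.c k)) s ∧
    D.z ≤ D.c k' + s + D.N1 ∧ D.c k' + s ≤ D.z + D.N1
  have hEb : ∃ JE : Finset ℕ, JE.card ≤ 1 ∧ ∀ k < D.K, ∀ k' < D.K, k' ≠ k → Eb k k' →
      k ∈ JE := by
    by_cases hE : ∃ k < D.K, ∃ k' < D.K, k' ≠ k ∧ Eb k k'
    · obtain ⟨l, hl, l', hl', hll, s0, hs0, hs0a, hs0b⟩ := hE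
      refine ⟨{l}, by simp, fun k hk k' hk' hkk hkE => ?_⟩
      obtain ⟨s, hs, hsa, hsb⟩ := hkE
      rw [Finset.mem_singleton]
      have hcl := h.c_le l hl
      have hcl' := h.c_le l' hl'
      have hck := h.c_le k hk
      have hck' := h.c_le k' hk'
      have a0 := (habs l hl s0 hs0.len).1 hs0
      have a1 := (habs k hk s hs.len).1 hs
      have heq : D.c l + s0 = D.c k + s := by
        rcases lt_trichotomy (D.c l + s0) (D.c k + s) with h1 | h1 | h1
        · have := D.w.gap _ _ _ h1 a1.1 a0.2 a1.2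
          omega
        · exact h1
        · have := D.w.gap _ _ _ h1 a0.1 a1.2 a0.2
          omega
      exact h.ruler k k' l l' hk hk' hl hl' (Ne.symm hkk) (Ne.symm hll) (by omega) (by omega)
    · refine ⟨∅, by simp, fun k hk k' hk' hkk hkE => (hE ⟨k, hk, k', hk', hkk, hkE⟩).elim⟩
  obtain ⟨JE, hJE, hJE'⟩ := hEb
  refine ⟨JE ∪ (J0 ∪ J1), ?_, ?_⟩
  · have h1 := Finset.card_union_le JE (J0 ∪ J1)
    have h2 := Finset.card_union_le J0 J1
    omega
  · intro k hk k' hk' hkk hb
    have hck := h.c_le k hk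
    have hck' := h.c_le k' hk'
    obtain ⟨t, hN, hE | hB⟩ := hb
    · exact Finset.mem_union_left _ (hJE' k hk k' hk' hkk hE)
    · apply Finset.mem_union_right
      obtain ⟨n1, n2, n3⟩ := hN
      have hnt := n2.len
      have a1 := (habs k hk t hnt).1 n2
      have b0 := hw0min _ (by omega) a1
      rcases Nat.eq_or_lt_of_le b0 with b1 | b1
      · apply Finset.mem_union_left
        apply hJ0' k hk k' hk' hkk
        rw [show w0 - D.p0 + D.c k' - D.c k = D.c k' + t - D.p0 by omega]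
        exact hB
      · have b2 := hw1min _ b1 a1
        rcases Nat.eq_or_lt_of_le b2 with b3 | b3
        · apply Finset.mem_union_right
          apply hJ1' k hk k' hk' hkk
          rw [show w1 - D.p0 + D.c k' - D.c k = D.c k' + t - D.p0 by omega]
          exact hB
        · exfalso
          refine n3 (w1 - D.c k) (by omega) (by omega) ?_
          rw [habs k hk _ (by omega), show D.c k + (w1 - D.c k) = w1 by omega]
          exact hw1b

theorem cc (h : D.Ok C1) {X X2 : List α} (hX : X ∈ D.XX) (hX2 : X2 ∈ D.XX) (v : V) :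
    (∃ P Q, X = P ++ Q ∧ D.LP1 P v ∧ ∃ b, D.RP1 Q b) ∨
    (∃ P Q, X ++ X2 = P ++ Q ∧ P.length < X.length ∧ D.LP2 P v ∧ ∃ b, D.RP2 Q b) := by
  classical
  by_cases hbad : D.EX X ∨ D.BadT (X.length - D.p0)
  · right
    have hz := h.hz
    have hXz := (mem_XX.1 hX).1
    obtain ⟨I, hI, hIk⟩ := h.xcomp (X.take D.p0) v (by rw [List.length_take]; omega)
    obtain ⟨J, hJ, hJk⟩ := spoil h hX hX2
    obtain ⟨k, hkI, hkJ⟩ := Finset.exists_mem_notMem_of_card_lt_card (show J.card < I.card by omega)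
    obtain ⟨hk, hLX, r, hRX⟩ := hIk k hkI
    have hc := h.c_le k hk
    have hPl : (X.take (D.c k)).length = D.c k := by rw [List.length_take]; omega
    have hU : X ++ X2 = X.take (D.c k) ++ (X ++ X2).drop (D.c k) := by
      conv_lhs => rw [← List.take_append_drop (D.c k) (X ++ X2)]
      rw [List.take_append_of_le_length (by omega)]
    refine ⟨X.take (D.c k), (X ++ X2).drop (D.c k), hU, by omega, ⟨k, hk, hPl, ?_⟩,
      _, k, X.drop (D.c k), X2, r, hk, ?_, ?_, ?_, ?_, hX2, ?_, rfl⟩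
    · rwa [List.take_take, min_eq_left hc] at hLX
    · exact hypBad_of h hk hPl hX hU hbad
    · intro k' hk' hb
      by_contra hne
      exact hkJ (hJk k hk k' hk' hne hb)
    · rw [List.drop_append_of_le_length (by omega)]
    · rw [hypN_iff h hk hPl, ← hU, List.length_drop,
        show D.c k + (X.length - D.c k) = X.length by omega]
      exact First.left hX
    · rwa [List.drop_take] at hRX
  · left
    push Not at hbad
    obtain ⟨P, Q, b, e1, _, e3, e4⟩ := comp1 h hX hbad.1 hbad.2 v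
    exact ⟨P, Q, e1, e3, b, e4⟩

end Dat

end Crest.Agent.R320.Inst_128
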