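import Crest.Agent.R320.Asm_505
import Crest.Agent.R320.FewVal_228
import Crest.Agent.R320.ExactR_237

/-!
# Row 320: the all-words instance over helper505's `two_levels` (helper134)

Left-looking walls `Wo`, natural chain rule, block end = next wall after the accepted wall (621).
-/

set_option autoImplicit false

namespace Crest.Agent.R320.Inst_134

open Crest.RegLang Crest.Agent.R320.Hk_851 Crest.Agent.R320.Asm_505

universe u

variable {α : Type u}

/-- left-looking wall rule -/
structure LW (Wo : List α → Prop) (n W : ℕ) : Prop where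
  loc : ∀ P Q : List α, n ≤ Q.length → (Wo (P ++ Q) ↔ Wo Q)
  len : ∀ Q, Wo Q → n ≤ Q.length
  sep : ∀ (X : List α) (s t : ℕ), s < t → t ≤ X.length → Wo (X.take s) → Wo (X.take t) → s + W ≤ t

def G (Wo : List α → Prop) (lo : ℕ) (Q : List α) : Prop := lo ≤ Q.length ∧ Wo Q

def First (Wo : List α → Prop) (lo : ℕ) (Q : List α) : Prop :=
  G Wo lo Q ∧ ∀ t < Q.length, ¬ G Wo lo (Q.take t)

def Blk (Wo : List α → Prop) (lo : ℕ) (Q : List α) (t : ℕ) : Prop :=
  t < Q.length ∧ First Wo lo (Q.take t) ∧ Wo Q ∧ ∀ t', t < t' → t' < Q.length → ¬ Wo (Q.take t')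

theorem take_app (P Q : List α) (t : ℕ) : (P ++ Q).take (P.length + t) = P ++ Q.take t := by
  rw [List.take_append, List.take_of_length_le (by omega)]; congr 2; omega

theorem take_app' (P Q : List α) {t : ℕ} (h : P.length ≤ t) :
    (P ++ Q).take t = P ++ Q.take (t - P.length) := by
  rw [← take_app]; congr 1; omega

section basic

variable {Wo : List α → Prop} {n W : ℕ} (hW : LW Wo n W)
include hW

theorem G_app {z : ℕ} (P Q : List α) (h : n + P.length ≤ z) :
    G Wo z (P ++ Q) ↔ G Wo (z - P.length) Q := by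
  unfold G
  rw [List.length_append]
  constructor
  · rintro ⟨h1, h2⟩
    exact ⟨by omega, (hW.loc P Q (by omega)).1 h2⟩
  · rintro ⟨h1, h2⟩
    exact ⟨by omega, (hW.loc P Q (by omega)).2 h2⟩

theorem First_app {z : ℕ} (P Q : List α) (h : n + P.length ≤ z) :
    First Wo z (P ++ Q) ↔ First Wo (z - P.length) Q := by
  unfold First
  rw [G_app hW P Q h]
  refine and_congr_right fun _ => ?_
  constructor
  · intro h2 t ht hg
    refine h2 (P.length + t) (by rw [List.length_append]; omega) ?_
    rw [take_app, G_app hW _ _ h]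
    exact hg
  · intro h2 t ht hg
    rw [List.length_append] at ht
    by_cases hc : P.length ≤ t
    · rw [take_app' P Q hc, G_app hW _ _ h] at hg
      exact h2 (t - P.length) (by omega) hg
    · have := hg.1
      rw [List.length_take] at this
      omega

theorem Blk_app {z t : ℕ} (P Q : List α) (h : n + P.length ≤ z) :
    Blk Wo z (P ++ Q) (P.length + t) ↔ Blk Wo (z - P.length) Q t := by
  unfold Blk
  rw [take_app, First_app hW _ _ h, List.length_append]
  constructor
  · rintro ⟨h1, h2, h3, h4⟩
    have h5 := h2.1.1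
    rw [List.length_take] at h5
    refine ⟨by omega, h2, (hW.loc P Q (by omega)).1 h3, ?_⟩
    intro t' ht ht' hw
    refine h4 (P.length + t') (by omega) (by omega) ?_
    rw [take_app]
    exact (hW.loc _ _ (by rw [List.length_take]; omega)).2 hw
  · rintro ⟨h1, h2, h3, h4⟩
    have h5 := h2.1.1
    rw [List.length_take] at h5
    refine ⟨by omega, h2, (hW.loc P Q (by omega)).2 h3, ?_⟩
    intro t' ht ht' hw
    rw [take_app' P Q (by omega)] at hw
    exact h4 (t' - P.length) (by omega) (by omega)
      ((hW.loc _ _ (by rw [List.length_take]; omega)).1 hw)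

omit hW in
theorem First_uniq {lo : ℕ} {X : List α} {s t : ℕ} (hs : s ≤ X.length) (ht : t ≤ X.length)
    (h1 : First Wo lo (X.take s)) (h2 : First Wo lo (X.take t)) : s = t := by
  rcases Nat.lt_trichotomy s t with h | h | h
  · exfalso
    refine h2.2 s (by rw [List.length_take]; omega) ?_
    rw [List.take_take, Nat.min_eq_left (by omega)]
    exact h1.1
  · exact h
  · exfalso
    refine h1.2 t (by rw [List.length_take]; omega) ?_
    rw [List.take_take, Nat.min_eq_left (by omega)]
    exact h2.1

omit hW in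
theorem First_mono {lo lo' : ℕ} {Q : List α} (h : First Wo lo Q) (h1 : lo ≤ lo')
    (h2 : lo' ≤ Q.length) : First Wo lo' Q :=
  ⟨⟨h2, h.1.2⟩, fun t ht hg => h.2 t ht ⟨by have := hg.1; omega, hg.2⟩⟩

omit hW in
/-- prefix code -/
theorem Blk_pc {lo t t' : ℕ} {X Y : List α} (h : Blk Wo lo X t) (h' : Blk Wo lo (X ++ Y) t') :
    Y = [] ∧ t = t' := by
  have e : t = t' := by
    refine First_uniq (X := X ++ Y) (by have := h.1; rw [List.length_append]; omega)
      (by have := h'.1; omega) (lo := lo) (Wo := Wo) ?_ h'.2.1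
    rw [List.take_append_of_le_length h.1.le]
    exact h.2.1
  subst e
  refine ⟨?_, rfl⟩
  by_contra hY
  have : 0 < Y.length := List.length_pos_iff.2 hY
  refine h'.2.2.2 X.length h.1 (by rw [List.length_append]; omega) ?_
  rw [List.take_left]
  exact h.2.2.1

end basic

/-- position of the accepted wall -/
noncomputable def fw (Wo : List α → Prop) (lo : ℕ) (X : List α) : ℕ :=
  sInf {t | t ≤ X.length ∧ First Wo lo (X.take t)}

theorem fw_eq {Wo : List α → Prop} {lo : ℕ} {X : List α} {t : ℕ} (ht : t ≤ X.length)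
    (h : First Wo lo (X.take t)) : fw Wo lo X = t := by
  have hne : {t | t ≤ X.length ∧ First Wo lo (X.take t)}.Nonempty := ⟨t, ht, h⟩
  have := Nat.sInf_mem hne
  exact First_uniq this.1 ht this.2 h

/-- the code -/
def U (Wo : List α → Prop) (z : ℕ) : Language α := {X | ∃ t, Blk Wo z X t}

theorem PC_U (Wo : List α → Prop) (z : ℕ) : PC (U Wo z) where
  ne := by
    rintro ⟨t, h, -⟩
    simp at h
  pc := by
    rintro X ⟨t, h⟩ X' ⟨t', h'⟩ ⟨Y, rfl⟩
    obtain ⟨rfl, -⟩ := Blk_pc h h'
    simp

end Crest.Agent.R320.Inst_134
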