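import Crest.Agent.R320.Sch1_420
import Crest.Agent.R320.Names_570
import Crest.Agent.R320.RandF_808
import Crest.Agent.R320.Wall_291
import Crest.Agent.R320.Ruler2_537
import Crest.Agent.R320.Ruler_302
import Crest.Agent.R320.Zone2_594

/-!
Row 320, CORE-5: the instance.  All constants of 132's two-scheme chain at once, over
420's block form of scheme 1, 570's names, 808's noise, 291's walls (outer walls reversed, so
left-looking), 537's spoil count and 302's ruler.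
-/

set_option autoImplicit false

namespace Crest.Agent.R320.Inst_146

open Crest.Agent.R320.Gad1_420 Crest.Agent.R320.Sch1_420

/-- the data with their order of choice -/
structure Cst (α S V : Type) [Monoid S] [AddCommGroup V] where
  φ : List α → S
  hφ : ∀ u v, φ (u ++ v) = φ u * φ v
  act : V → S → V
  m : ℕ
  N : ℕ
  e : ℕ → S → ZMod N × ZMod N
  F : S → ZMod N × ZMod N → V
  hF : ∀ (s : S) (w : ZMod N × ZMod N) (v : V), ∃ i < m, ∀ g x h : S, g * x * h = s → ∀ z : S,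
        F (g * z * h) (w - e i x + e i z) + act v (g * z * h) = F s w + act v s
  Ms : Finset ℕ
  K : ℕ
  hMs : ∀ q ∈ Ms, 2 * 4 ^ K + 2 ≤ q
  nmL : ℕ → Option (Fin m × S × (ZMod N × ZMod N) × S × (ZMod N × ZMod N) × V)
  nmR : ℕ → Option (Fin m × S × (ZMod N × ZMod N) × S × (ZMod N × ZMod N) × V)
  nm1 : ∀ t t' c c', (∀ q ∈ Ms, ¬ q ∣ t + t') → nmL t = some c → nmR t' = some c' → c = c'
  nm2 : ∀ T c s, (∀ q ∈ Ms, ¬ q ∣ T) → s + ∏ q ∈ Ms, q ≤ T + 1 →
        ∃ t, s ≤ t ∧ t < s + ∏ q ∈ Ms, q ∧ t ≤ T ∧ nmL t = some c ∧ nmR (T - t) = some c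
  nm3 : ∀ t1 t1' t2 t2' c1 c1' c2 c2', t1 + t1' = t2 + t2' → (∃ q ∈ Ms, q ∣ t1 + t1') →
        nmL t1 = some c1 → nmR t1' = some c1' → nmL t2 = some c2 → nmR t2' = some c2' →
        (c1 = c2 ∧ c1' = c2') ∨ (c1 = c2' ∧ c1' = c2 ∧
          (c1.2.2.2.2.2 = c1'.2.2.2.2.2 ∧
            F (c1.2.1 * 1 * c1.2.2.2.1) (c1.2.2.1 + e c1.1 1 + c1.2.2.2.2.1) +
              act c1.2.2.2.2.2 (c1.2.1 * 1 * c1.2.2.2.1) =
            F (c1'.2.1 * 1 * c1'.2.2.2.1) (c1'.2.2.1 + e c1'.1 1 + c1'.2.2.2.2.1) +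
              act c1'.2.2.2.2.2 (c1'.2.1 * 1 * c1'.2.2.2.1)))
  Mp : ℕ
  hMp : 4 ^ K ≤ Mp
  ex : ℕ
  n : ℕ
  G : ℕ
  R : List α → Prop
  n_pos : 0 < n
  R_take : ∀ Q, R Q ↔ R (Q.take n)
  R_len : ∀ Q, R Q → n ≤ Q.length
  gS : ℕ
  hgS : gS = 2 * (Mp * (∏ q ∈ Ms, q) +
    (Mp * (1 + (∏ q ∈ Ms, q) * (2 * Mp * (∏ q ∈ Ms, q) + 1)) + 1) * 4 ^ K)
  R_gap : ∀ Q d, R Q → 0 < d → d ≤ gS → ¬ R (Q.drop d)
  R_den : ∀ Q, Wall_291.RF ex gS Q → G + n ≤ Q.length → ∃ i < G, R (Q.drop i)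
  W : ℕ
  no : ℕ
  Go : ℕ
  Ro : List α → Prop
  no_pos : 0 < no
  Ro_take : ∀ Q, Ro Q ↔ Ro (Q.take no)
  Ro_len : ∀ Q, Ro Q → no ≤ Q.length
  Ro_gap : ∀ Q d, Ro Q → 0 < d → d ≤ W → ¬ Ro (Q.drop d)
  Ro_den : ∀ Q, Wall_291.RF ex W Q → Go + no ≤ Q.length → ∃ i < Go, Ro (Q.drop i)

namespace Cst

variable {α S V : Type} [Monoid S] [AddCommGroup V] (C : Cst α S V)

def M : ℕ := ∏ q ∈ C.Ms, q
def t0 : ℕ := 2 * C.Mp * C.M + 1
def U : ℕ := C.Mp * (1 + C.M * C.t0) + 1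
def L : ℕ := C.U * 4 ^ C.K
def Q2 : ℕ := C.G + C.n + C.M + 1
def A (k : ℕ) : ℕ := C.Mp * (C.M + C.L + 1 + k * C.Q2)
def A' (k : ℕ) : ℕ := C.A k + C.Mp * (C.G + C.n)
def N1 : ℕ := C.A' C.m + C.Mp * C.M
def dl : ℕ := 2 * (C.N1 + C.L) + 1
def Sp : ℕ := C.N1 + C.Mp * C.dl
def p0 : ℕ := C.L + C.no
def z : ℕ := C.Mp * (C.p0 + C.N1 + C.no + C.G + C.n + 2 * C.Sp + C.L + C.Go + 10)
def thr (r : ℕ) : ℕ := C.z + (r % C.Mp) * C.dl
def c (k : ℕ) : ℕ := C.U * 4 ^ k

/-- left-looking outer wall at the end of `X` -/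
def Wo (X : List α) : Prop := C.Ro X.reverse

theorem Mp_pos : 0 < C.Mp := lt_of_lt_of_le (by positivity) C.hMp

theorem gS_eq : C.gS = 2 * (C.Mp * C.M + C.L) := C.hgS

theorem Wo_loc (P Q : List α) (h : C.no ≤ Q.length) : C.Wo (P ++ Q) ↔ C.Wo Q := by
  unfold Wo
  rw [List.reverse_append, C.Ro_take (Q.reverse ++ P.reverse), C.Ro_take Q.reverse,
    List.take_append_of_le_length (by simpa using h)]

theorem Wo_len {X : List α} (h : C.Wo X) : C.no ≤ X.length := by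
  have := C.Ro_len _ h
  simpa using this

theorem Wo_gap {X : List α} {s t : ℕ} (hs : C.Wo (X.take s)) (ht : C.Wo (X.take t)) (hst : s < t)
    (htX : t ≤ X.length) : C.W < t - s := by
  by_contra hle
  push Not at hle
  have h1 : (X.take s).reverse = (X.take t).reverse.drop (t - s) := by
    rw [List.drop_reverse]
    congr 1
    rw [List.length_take, min_eq_left htX, List.take_take]
    congr 1
    omega
  have h2 := C.Ro_gap _ (t - s) ht (by omega) hle
  rw [← h1] at h2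
  exact h2 hs

/-- the data of scheme 1 -/
def D : Dat α S V (ZMod C.N × ZMod C.N) where
  φ := C.φ
  act := C.act
  m := C.m
  e := C.e
  F := C.F
  R := C.R
  n := C.n
  G := C.G
  M := C.M
  M' := C.Mp
  A := C.A
  A' := C.A'
  LN := fun o c => C.nmL o = some c
  RN := fun o c => C.nmR o = some c

theorem z_ge : C.p0 + C.N1 + C.no + C.G + C.n + 2 * C.Sp + C.L + C.Go + 10 ≤ C.z := by
  have := C.Mp_pos
  unfold z
  exact Nat.le_mul_of_pos_left _ this

/-- the outer data -/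
def O : Outer α where
  Wo := C.Wo
  no := C.no
  q := C.Mp
  thr := C.thr
  p0 := C.p0
  N1 := C.N1
  loc := C.Wo_loc
  thr_lb := by
    intro r
    have := C.z_ge
    unfold thr
    omega

def good (T : ℕ) : Prop := ∀ q ∈ C.Ms, ¬ q ∣ T

theorem geo : Geo C.D where
  hφ := C.hφ
  rule := ⟨C.n_pos, C.R_take, C.R_len⟩
  mono := by
    intro k
    show C.A k ≤ C.A (k + 1)
    unfold A
    apply Nat.mul_le_mul_left
    nlinarith [Nat.zero_le C.Q2]
  next := by
    intro i k hik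
    show C.A' i + C.Mp * C.M ≤ C.A k
    unfold A' A
    rw [← Nat.mul_add, ← Nat.mul_add]
    apply Nat.mul_le_mul_left
    have h1 : (i + 1) * C.Q2 ≤ k * C.Q2 := Nat.mul_le_mul_right _ hik
    have h2 : (i + 1) * C.Q2 = i * C.Q2 + C.Q2 := by ring
    have h3 : C.Q2 = C.G + C.n + C.M + 1 := rfl
    omega
  cell := by
    intro k
    show C.A k + C.G + C.n ≤ C.A' k
    unfold A'
    have := Nat.le_mul_of_pos_left (C.G + C.n) C.Mp_pos
    omega
  dvd := by
    intro k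
    show C.Mp ∣ C.A' k
    unfold A' A
    exact dvd_add (dvd_mul_right _ _) (dvd_mul_right _ _)
  M'pos := C.Mp_pos

theorem names : Names C.D C.good where
  n1 := by
    intro T hT o o' c c' h hL hR
    exact C.nm1 o o' c c' (by rw [h]; exact hT) hL hR
  n2 := by
    intro T hT c s hs
    obtain ⟨t, h1, h2, -, h4, h5⟩ := C.nm2 T c s hT (by
      have : s + C.M ≤ T := hs
      unfold M at this
      omega)
    exact ⟨t, h1, h2, h4, h5⟩
  n3 := by
    intro T hT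
    unfold good at hT
    push Not at hT
    by_cases hex : ∃ o o' c c', o + o' = T ∧ C.nmL o = some c ∧ C.nmR o' = some c'
    · obtain ⟨o, o', c, c', h, hL, hR⟩ := hex
      refine ⟨c.2.2.2.2.2, C.D.bb c'.1 c'.2.1 c'.2.2.1 c'.2.2.2.1 c'.2.2.2.2.1 c'.2.2.2.2.2, ?_⟩
      intro o2 o2' c2 c2' h2 hL2 hR2
      rcases C.nm3 o o' o2 o2' c c' c2 c2' (by omega) (by rw [h]; exact hT) hL hR hL2 hR2 with
        ⟨rfl, rfl⟩ | ⟨rfl, rfl, h4, h5⟩
      · exact ⟨rfl, rfl⟩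
      · exact ⟨h4.symm, h5⟩
    · refine ⟨0, 0, ?_⟩
      intro o2 o2' c2 c2' h2 hL2 hR2
      exact absurd ⟨o2, o2', c2, c2', h2, hL2, hR2⟩ hex

/-- outer walls of `Q`, seen from an anchor `c'` letters to the left of `Q` -/
def WAt (c' : ℕ) (Q : List α) (u : ℤ) : Prop :=
  ∃ t : ℕ, u = c' + t ∧ C.p0 + C.no ≤ c' + t ∧ t ≤ Q.length ∧ C.Wo (Q.take t)

/-- small walls of `Q`, seen from an anchor `c'` letters to the left of `Q` -/
def SAt (c' : ℕ) (Q : List α) (u : ℤ) : Prop :=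
  ∃ t : ℕ, u = c' + t ∧ C.p0 ≤ c' + t ∧ C.R (Q.drop t)

theorem s_bound (r : ℤ) : |(r % (C.Mp : ℤ)) * (C.dl : ℤ)| ≤ (C.Sp : ℤ) - C.N1 := by
  have h := C.Mp_pos
  have h1 : 0 ≤ r % (C.Mp : ℤ) := Int.emod_nonneg _ (by omega)
  have h2 : r % (C.Mp : ℤ) < C.Mp := Int.emod_lt_of_pos _ (by omega)
  have h3 : (C.Sp : ℤ) - C.N1 = C.Mp * C.dl := by unfold Sp; push_cast; ring
  rw [h3, abs_of_nonneg (by positivity)]
  nlinarith [Int.natCast_nonneg C.dl]

/-- parameters of 260 -/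
def Pr : ThrChain260.Par where
  M := C.Mp
  z := C.z
  p0 := C.p0
  N1 := C.N1
  S := C.Sp
  L := C.L
  s := fun r => (r % (C.Mp : ℤ)) * (C.dl : ℤ)
  hM := by exact_mod_cast C.Mp_pos
  hN := by positivity
  hL := by positivity
  hs := C.s_bound
  sep := by
    intro r r' h1 h2 h3 h4 hne
    rw [Int.emod_eq_of_lt h1 h2, Int.emod_eq_of_lt h3 h4, ← sub_mul, abs_mul]
    have h5 : (1 : ℤ) ≤ |r - r'| := Int.one_le_abs (sub_ne_zero.mpr hne)
    have h6 : |(C.dl : ℤ)| = 2 * (C.N1 + C.L) + 1 := by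
      rw [abs_of_nonneg (by positivity)]
      unfold dl
      push_cast
      ring
    rw [h6]
    nlinarith [Int.natCast_nonneg C.N1, Int.natCast_nonneg C.L]

/-- moduli as a function -/
noncomputable def ms (i : ℕ) : ℤ := ((C.Ms.toList.getD i 1 : ℕ) : ℤ)

theorem ms_mem {i : ℕ} (h : i < C.Ms.card) : ∃ q ∈ C.Ms, C.ms i = q := by
  have h' : i < C.Ms.toList.length := by rwa [Finset.length_toList]
  refine ⟨C.Ms.toList[i], ?_, ?_⟩
  · rw [← Finset.mem_toList]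
    exact List.getElem_mem h'
  · unfold ms
    rw [List.getD_eq_getElem _ _ h']

theorem ms_surj {q : ℕ} (h : q ∈ C.Ms) : ∃ i < C.Ms.card, C.ms i = q := by
  rw [← Finset.mem_toList] at h
  obtain ⟨i, hi, hq⟩ := List.getElem_of_mem h
  refine ⟨i, by rwa [Finset.length_toList] at hi, ?_⟩
  unfold ms
  rw [List.getD_eq_getElem _ _ hi, hq]

/-- levels relative to the anchor -/
def Az (k : ℕ) : ℤ := ((C.p0 + C.A k : ℕ) : ℤ)

/-- badness of the anchor `c'` letters to the left of `Q` -/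
def BadAt (c' : ℕ) (Q : List α) : Prop :=
  Ruler2_537.Bad C.Pr (C.WAt c' Q) (C.SAt c' Q) C.Az ((C.Mp * C.M : ℕ) : ℤ) (C.m + 1) C.ms
    C.Ms.card 0

def Bad (U : List α) : Prop := C.BadAt 0 U

theorem WAt_append {P Q : List α} (h : P.length ≤ C.p0) : C.WAt 0 (P ++ Q) = C.WAt P.length Q := by
  funext u
  apply propext
  constructor
  · rintro ⟨t, rfl, h2, h3, h4⟩
    refine ⟨t - P.length, by push_cast; omega, by omega, ?_, ?_⟩
    · rw [List.length_append] at h3; omega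
    · rw [List.take_append, List.take_of_length_le (by omega)] at h4
      rw [List.length_append] at h3
      exact (C.Wo_loc _ _ (by rw [List.length_take]; omega)).1 h4
  · rintro ⟨t, rfl, h2, h3, h4⟩
    refine ⟨P.length + t, by push_cast; ring, by omega, by rw [List.length_append]; omega, ?_⟩
    rw [List.take_append, List.take_of_length_le (by omega), Nat.add_sub_cancel_left]
    exact (C.Wo_loc _ _ (by rw [List.length_take]; omega)).2 h4

theorem SAt_append {P Q : List α} (h : P.length ≤ C.p0) : C.SAt 0 (P ++ Q) = C.SAt P.length Q := by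
  funext u
  apply propext
  constructor
  · rintro ⟨t, rfl, h2, h4⟩
    refine ⟨t - P.length, by push_cast; omega, by omega, ?_⟩
    have : t = P.length + (t - P.length) := by omega
    rw [this, drop_app_right] at h4
    exact h4
  · rintro ⟨t, rfl, h2, h4⟩
    refine ⟨P.length + t, by push_cast; ring, by omega, ?_⟩
    rw [drop_app_right]
    exact h4

/-- (T3) -/
theorem Bad_append (P Q : List α) (h : P.length ≤ C.p0) : C.Bad (P ++ Q) ↔ C.BadAt P.length Q := by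
  unfold Bad BadAt
  rw [C.WAt_append h, C.SAt_append h]


/-! ### The ruler -/

theorem c_le {k : ℕ} (h : k < C.K) : C.c k ≤ C.L := by
  unfold c L
  exact Nat.mul_le_mul_left _ (Nat.pow_le_pow_right (by norm_num) h.le)

theorem c_lt {i j : ℕ} (h : i < j) : C.c i < C.c j := by
  unfold c
  have hU : 0 < C.U := by unfold U; omega
  exact Nat.mul_lt_mul_of_pos_left (Nat.pow_lt_pow_right (by norm_num) h) hU

theorem c_inj {i j : ℕ} (h : C.c i = C.c j) : i = j := by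
  rcases lt_trichotomy i j with h1 | h1 | h1
  · exact absurd h (ne_of_lt (C.c_lt h1))
  · exact h1
  · exact absurd h (ne_of_gt (C.c_lt h1))

/-- the ruler as a set of integers -/
def CC : Finset ℤ := (Finset.range C.K).image (fun k => (C.c k : ℤ))

theorem mem_CC {x : ℤ} : x ∈ C.CC ↔ ∃ k < C.K, (C.c k : ℤ) = x := by
  unfold CC
  simp

theorem c_cast (k : ℕ) : (C.c k : ℤ) = (C.U : ℤ) * 4 ^ k := by
  unfold c
  push_cast
  ring

theorem U_cast : (C.U : ℤ) = (C.Mp : ℤ) * (1 + (C.M : ℤ) * (C.t0 : ℤ)) + 1 := by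
  unfold U
  push_cast
  ring

theorem U_big : 2 * (C.Mp * C.M) < C.U := by
  unfold U t0
  rcases Nat.eq_zero_or_pos (C.Mp * C.M) with h | h
  · rw [h]; omega
  · nlinarith

theorem ruler2 : Ruler2_537.Ruler2 C.Pr ((C.Mp * C.M : ℕ) : ℤ) C.ms C.Ms.card C.CC where
  base := {
    span := by
      intro x hx y hy
      obtain ⟨i, hi, rfl⟩ := C.mem_CC.1 hx
      obtain ⟨j, hj, rfl⟩ := C.mem_CC.1 hy
      have h1 := C.c_le hi
      have h2 := C.c_le hj
      show |(C.c i : ℤ) - C.c j| ≤ (C.L : ℤ)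
      rw [abs_le]
      constructor <;> omega
    nz := by
      intro x hx y hy hne hd
      obtain ⟨i, hi, rfl⟩ := C.mem_CC.1 hx
      obtain ⟨j, hj, rfl⟩ := C.mem_CC.1 hy
      have hij : i ≠ j := fun h => hne (by rw [h])
      rw [C.c_cast, C.c_cast] at hd
      have := Ruler_302.dist_mod (k := C.K) (j := i) (l := j) (p := i) (q := i) (M' := (C.Mp : ℤ))
        (U := (C.U : ℤ)) (by exact_mod_cast C.hMp)
        (by rw [C.U_cast, add_sub_cancel_right]; exact dvd_mul_right _ _)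
        hi hj hi hi hij
        (by
          have h3 : (C.U : ℤ) * (4 ^ i - 4 ^ j) - (C.U : ℤ) * (4 ^ i - 4 ^ i) =
            (C.U : ℤ) * 4 ^ i - (C.U : ℤ) * 4 ^ j := by ring
          rw [h3]
          exact hd)
      exact hij this.2.symm
    gol := by
      intro x hx y hy x' hx' y' hy' hne hne' hd
      obtain ⟨i, hi, rfl⟩ := C.mem_CC.1 hx
      obtain ⟨j, hj, rfl⟩ := C.mem_CC.1 hy
      obtain ⟨i', hi', rfl⟩ := C.mem_CC.1 hx'
      obtain ⟨j', hj', rfl⟩ := C.mem_CC.1 hy'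
      have hij : i ≠ j := fun h => hne (by rw [h])
      have := Ruler_302.dist_mod (k := C.K) (j := i) (l := j) (p := i') (q := j')
        (M' := (C.Mp : ℤ)) (U := (C.U : ℤ)) (by exact_mod_cast C.hMp)
        (by rw [C.U_cast, add_sub_cancel_right]; exact dvd_mul_right _ _)
        hi hj hi' hj' hij
        (by
          have h3 : (C.U : ℤ) * (4 ^ i - 4 ^ j) - (C.U : ℤ) * (4 ^ i' - 4 ^ j') =
            ((C.c i : ℤ) - C.c j) - ((C.c i' : ℤ) - C.c j') := by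
            simp only [C.c_cast]; ring
          rw [h3]
          exact hd)
      rw [this.1, this.2]
      exact ⟨rfl, rfl⟩ }
  res := by
    intro x hx y hy x' hx' y' hy' hne hne' hd
    obtain ⟨i, hi, rfl⟩ := C.mem_CC.1 hx
    obtain ⟨j, hj, rfl⟩ := C.mem_CC.1 hy
    obtain ⟨i', hi', rfl⟩ := C.mem_CC.1 hx'
    obtain ⟨j', hj', rfl⟩ := C.mem_CC.1 hy'
    have hij : i ≠ j := fun h => hne (by rw [h])
    have hb := C.U_big
    have h3 : (C.U : ℤ) * (4 ^ i - 4 ^ j) - (C.U : ℤ) * (4 ^ i' - 4 ^ j') =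
            ((C.c i : ℤ) - C.c j) - ((C.c i' : ℤ) - C.c j') := by
            simp only [C.c_cast]; ring
    have := Ruler_302.resol (j := i) (l := j) (p := i') (q := j')
        (U := (C.U : ℤ)) (by omega) hij
        (by
          rw [h3]
          push_cast at hd
          have : (2 : ℤ) * (C.Mp * C.M) < C.U := by exact_mod_cast hb
          linarith)
    rw [this.1, this.2]
    exact ⟨rfl, rfl⟩
  mods := by
    intro l hl x hx y hy x' hx' y' hy' hne hne' t hd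
    obtain ⟨i, hi, rfl⟩ := C.mem_CC.1 hx
    obtain ⟨j, hj, rfl⟩ := C.mem_CC.1 hy
    obtain ⟨i', hi', rfl⟩ := C.mem_CC.1 hx'
    obtain ⟨j', hj', rfl⟩ := C.mem_CC.1 hy'
    obtain ⟨q, hq, hlq⟩ := C.ms_mem hl
    have hij : i ≠ j := fun h => hne (by rw [h])
    have h3 : (C.U : ℤ) * (4 ^ i - 4 ^ j) - (C.U : ℤ) * (4 ^ i' - 4 ^ j') =
            ((C.c i : ℤ) - C.c j) - ((C.c i' : ℤ) - C.c j') := by
            simp only [C.c_cast]; ring
    have hd' : |((C.c i : ℤ) - C.c j) - ((C.c i' : ℤ) - C.c j') - t * ((q : ℤ) * C.Mp)| < C.Mp := by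
      rw [← hlq]
      exact hd
    have := Ruler_302.dist_mod_floor (k := C.K) (j := i) (l := j) (p := i') (q := j')
        (M' := (C.Mp : ℤ)) (M := (C.M : ℤ)) (m := (q : ℤ)) (t := (C.t0 : ℤ)) (U := (C.U : ℤ))
        (r := ((C.c i : ℤ) - C.c j) - ((C.c i' : ℤ) - C.c j') - t * ((q : ℤ) * C.Mp))
        (by exact_mod_cast C.Mp_pos) (by exact_mod_cast C.hMs q hq)
        (by
          have : q ∣ C.M := Finset.dvd_prod_of_mem _ hq
          exact_mod_cast this) C.U_cast hi hj hi' hj' hij hd'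
        (by
          rw [h3]
          exact ⟨t, by ring⟩)
    rw [this.1, this.2]
    exact ⟨rfl, rfl⟩

/-! ### The spoil count -/

/-- all outer walls of a text -/
def WU (U : List α) (u : ℤ) : Prop := ∃ t : ℕ, u = t ∧ t ≤ U.length ∧ C.Wo (U.take t)

/-- all small walls of a text -/
def SU (U : List α) (u : ℤ) : Prop := ∃ t : ℕ, u = t ∧ C.R (U.drop t)

theorem WU_gap (hW : 2 * (C.Sp + C.L) ≤ C.W) (U : List α) : ∀ t t', C.WU U t → C.WU U t' →
    t < t' → 2 * (C.Pr.S + C.Pr.L) < t' - t := by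
  rintro _ _ ⟨t, rfl, h1, h2⟩ ⟨t', rfl, h1', h2'⟩ hlt
  have := C.Wo_gap h2 h2' (by exact_mod_cast hlt) h1'
  show 2 * ((C.Sp : ℤ) + C.L) < _
  have h3 : t < t' := by exact_mod_cast hlt
  omega

theorem SU_gap (U : List α) : ∀ t t', C.SU U t → C.SU U t' →
    t < t' → 2 * (((C.Mp * C.M : ℕ) : ℤ) + C.Pr.L) < t' - t := by
  rintro _ _ ⟨t, rfl, h2⟩ ⟨t', rfl, h2'⟩ hlt
  have h3 : t < t' := by exact_mod_cast hlt
  show 2 * (((C.Mp * C.M : ℕ) : ℤ) + C.L) < _
  by_contra hle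
  have h4 := C.gS_eq
  have h5 : t' - t ≤ C.gS := by
    push_cast at hle
    have : ((t' - t : ℕ) : ℤ) ≤ (C.gS : ℤ) := by
      rw [h4]
      push_cast
      omega
    exact_mod_cast this
  have := C.R_gap _ (t' - t) h2 (by omega) h5
  rw [List.drop_drop] at this
  exact this (by rwa [show t + (t' - t) = t' by omega])

theorem s_nonneg (r : ℤ) : 0 ≤ C.Pr.s r := by
  show 0 ≤ (r % (C.Mp : ℤ)) * (C.dl : ℤ)
  have h := C.Mp_pos
  have h1 : 0 ≤ r % (C.Mp : ℤ) := Int.emod_nonneg _ (by omega)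
  positivity

theorem BadAt_shift {U : List α} {i j : ℕ} (hi : i < C.K) (hj : j < C.K)
    (h : C.BadAt (C.c j) (U.drop (C.c i))) :
    Ruler2_537.Bad C.Pr (C.WU U) (C.SU U) C.Az ((C.Mp * C.M : ℕ) : ℤ) (C.m + 1) C.ms
      C.Ms.card (0 + ((C.c i : ℤ) - C.c j)) := by
  have hci := C.c_le hi
  have hcj := C.c_le hj
  have hz := C.z_ge
  have hp0 : C.p0 = C.L + C.no := rfl
  have hwall : ∀ u, C.WAt (C.c j) (U.drop (C.c i)) u → C.WU U (u + (0 + ((C.c i : ℤ) - C.c j))) := by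
    rintro _ ⟨t, rfl, h2, h3, h4⟩
    rw [List.length_drop] at h3
    have hno := C.no_pos
    refine ⟨C.c i + t, by push_cast; ring, by omega, ?_⟩
    rw [List.take_add]
    exact (C.Wo_loc _ _ (by rw [List.length_take, List.length_drop]; omega)).2 h4
  rcases h with ⟨t, ht, hE⟩ | ⟨k, hk, u, hu, hD⟩ | ⟨l, hl, b, hN, hB⟩
  · left
    refine ⟨_, hwall t ht, ?_⟩
    have e1 : t + (0 + ((C.c i : ℤ) - C.c j)) - (0 + ((C.c i : ℤ) - C.c j)) - C.Pr.z =
      t - 0 - C.Pr.z := by ring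
    rw [e1]
    exact hE
  · right; left
    refine ⟨k, hk, u + (0 + ((C.c i : ℤ) - C.c j)), ?_, ?_⟩
    · obtain ⟨t, rfl, h2, h4⟩ := hu
      refine ⟨C.c i + t, by push_cast; ring, ?_⟩
      rwa [List.drop_drop] at h4
    · have e1 : u + (0 + ((C.c i : ℤ) - C.c j)) - (0 + ((C.c i : ℤ) - C.c j)) - C.Az k =
        u - 0 - C.Az k := by ring
      rw [e1]
      exact hD
  · right; right
    refine ⟨l, hl, b + (0 + ((C.c i : ℤ) - C.c j)), ⟨⟨hwall b hN.1.1, ?_⟩, ?_⟩, ?_⟩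
    · have := hN.1.2
      have e1 : b + (0 + ((C.c i : ℤ) - C.c j)) - (0 + ((C.c i : ℤ) - C.c j)) - C.Pr.z =
        b - 0 - C.Pr.z := by ring
      rw [e1]
      exact this
    · rintro t' ht' ⟨⟨t, rfl, h2, h3⟩, h4⟩
      have e1 : (t : ℤ) - (0 + ((C.c i : ℤ) - C.c j)) - C.Pr.z =
        ((t : ℤ) - (0 + ((C.c i : ℤ) - C.c j))) - 0 - C.Pr.z := by ring
      rw [e1] at h4
      have h5 := C.s_nonneg (((t : ℤ) - (0 + ((C.c i : ℤ) - C.c j)) - 0 - C.Pr.z) % C.Pr.M)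
      have h6 : (C.z : ℤ) ≤ (t : ℤ) - (0 + ((C.c i : ℤ) - C.c j)) := by
        have : C.Pr.z = (C.z : ℤ) := rfl
        linarith
      refine hN.2 _ (by linarith) ⟨⟨t - C.c i, by omega, by omega,
        by rw [List.length_drop]; omega, ?_⟩, h4⟩
      have h7 : U.take t = U.take (C.c i) ++ (U.drop (C.c i)).take (t - C.c i) := by
        rw [← List.take_add]
        congr 1
        omega
      rw [h7] at h3
      exact (C.Wo_loc _ _ (by rw [List.length_take, List.length_drop]; omega)).1 h3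
    · have e1 : b + (0 + ((C.c i : ℤ) - C.c j)) - (0 + ((C.c i : ℤ) - C.c j)) - C.Pr.p0 =
        b - 0 - C.Pr.p0 := by ring
      rw [e1]
      exact hB

/-- (T2) the spoil count -/
theorem spoil (hW : 2 * (C.Sp + C.L) ≤ C.W) (U : List α) :
    (Zone2_594.spoiled C.K C.c C.BadAt U).card ≤ 1 + (C.m + 1) + 2 * C.Ms.card := by
  classical
  refine le_trans ?_ (Ruler2_537.card_spoiled C.ruler2 (C.WU_gap hW U) (C.SU_gap U) 0
    (A := C.Az) (K := C.m + 1))
  have hinj : Set.InjOn (fun k => (C.c k : ℤ)) (Zone2_594.spoiled C.K C.c C.BadAt U) := by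
    intro i _ j _ hij
    have hij' : (C.c i : ℤ) = C.c j := hij
    exact C.c_inj (by exact_mod_cast hij')
  rw [← Finset.card_image_of_injOn hinj]
  apply Finset.card_le_card
  intro x hx
  rw [Finset.mem_image] at hx
  obtain ⟨k, hk, rfl⟩ := hx
  unfold Zone2_594.spoiled at hk
  rw [Finset.mem_filter, Finset.mem_range] at hk
  obtain ⟨hkK, k', hk', hne, hb⟩ := hk
  rw [Finset.mem_filter]
  refine ⟨C.mem_CC.2 ⟨k, hkK, rfl⟩, C.c k', C.mem_CC.2 ⟨k', hk', rfl⟩, ?_, C.BadAt_shift hkK hk' hb⟩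
  intro h
  exact hne (C.c_inj (by exact_mod_cast h))


/-! ### Scheme 1 is complete off `Bad` -/

theorem z_mod : C.z % C.Mp = 0 := by
  unfold z
  exact Nat.mul_mod_right _ _

theorem s_eq (t : ℕ) : C.Pr.s (((t : ℤ) - 0 - C.Pr.z) % C.Pr.M) = ((t % C.Mp : ℕ) : ℤ) * C.dl := by
  show (((t : ℤ) - 0 - (C.z : ℤ)) % (C.Mp : ℤ)) % (C.Mp : ℤ) * (C.dl : ℤ) = _
  congr 1
  rw [Int.emod_emod_of_dvd _ (dvd_refl _)]
  have h1 : ((C.z : ℤ)) = C.Mp * ((C.z / C.Mp : ℕ) : ℤ) := by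
    have := Nat.div_add_mod C.z C.Mp
    rw [C.z_mod, Nat.add_zero] at this
    exact_mod_cast this.symm
  rw [h1, show (t : ℤ) - 0 - (C.Mp : ℤ) * ((C.z / C.Mp : ℕ) : ℤ) =
    t + (C.Mp : ℤ) * (-((C.z / C.Mp : ℕ) : ℤ)) by ring, Int.add_mul_emod_self_left]
  norm_cast

theorem thr_mod (t : ℕ) : C.thr (t % C.Mp) = C.z + (t % C.Mp) * C.dl := by
  unfold thr
  rw [Nat.mod_mod]

theorem WAt_zero {X : List α} {t : ℕ} (h1 : C.p0 + C.no ≤ t) (h2 : t ≤ X.length)
    (h3 : C.Wo (X.take t)) : C.WAt 0 X t :=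
  ⟨t, by simp, by omega, h2, h3⟩

theorem bad_of_E {X : List α} (hX : X ∈ C.O.XX) (hE : C.O.E X) : C.Bad X := by
  obtain ⟨a1, a2, a3⟩ := hX
  have a1' : C.Wo X := a1
  have a2' : C.thr (X.length % C.Mp) ≤ X.length := a2
  have hz := C.z_ge
  rw [C.thr_mod] at a2'
  left
  rcases hE with h | ⟨t, h1, h2, h3, h4⟩
  · have h' : X.length < C.thr (X.length % C.Mp) + C.N1 := h
    rw [C.thr_mod] at h'
    refine ⟨X.length, C.WAt_zero (by omega) le_rfl (by rwa [List.take_length]), ?_⟩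
    rw [C.s_eq]
    show |((X.length : ℤ)) - 0 - (C.z : ℤ) - _| ≤ (C.N1 : ℤ)
    rw [abs_le]
    constructor
    · have : ((C.z + (X.length % C.Mp) * C.dl : ℕ) : ℤ) ≤ (X.length : ℤ) := by exact_mod_cast a2'
      push_cast at this ⊢
      linarith [Int.natCast_nonneg C.N1]
    · have : ((X.length : ℕ) : ℤ) < ((C.z + (X.length % C.Mp) * C.dl + C.N1 : ℕ) : ℤ) := by
        exact_mod_cast h'
      push_cast at this ⊢
      linarith
  · have h3' : C.p0 + C.no ≤ t := h3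
    have h2' : C.Wo (X.take t) := h2
    have h4' : C.thr (t % C.Mp) ≤ t + C.N1 := h4
    have h5 : t < C.thr (t % C.Mp) := by
      by_contra hc
      exact a3 t h1 ⟨h2, not_lt.1 hc⟩
    rw [C.thr_mod] at h4' h5
    refine ⟨t, C.WAt_zero h3' h1.le h2', ?_⟩
    rw [C.s_eq]
    show |((t : ℤ)) - 0 - (C.z : ℤ) - _| ≤ (C.N1 : ℤ)
    rw [abs_le]
    constructor
    · have : ((C.z + (t % C.Mp) * C.dl : ℕ) : ℤ) ≤ ((t + C.N1 : ℕ) : ℤ) := by exact_mod_cast h4'
      push_cast at this ⊢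
      linarith
    · have : ((t : ℕ) : ℤ) < ((C.z + (t % C.Mp) * C.dl : ℕ) : ℤ) := by exact_mod_cast h5
      push_cast at this ⊢
      linarith [Int.natCast_nonneg C.N1]

theorem isN_of_XX {X : List α} (hX : X ∈ C.O.XX) :
    ThrChain260.IsN C.Pr (C.WAt 0 X) 0 X.length := by
  obtain ⟨a1, a2, a3⟩ := hX
  have a1' : C.Wo X := a1
  have a2' : C.thr (X.length % C.Mp) ≤ X.length := a2
  have hz := C.z_ge
  rw [C.thr_mod] at a2'
  refine ⟨⟨C.WAt_zero (by omega) le_rfl (by rwa [List.take_length]), ?_⟩, ?_⟩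
  · rw [C.s_eq]
    show _ ≤ ((X.length : ℤ)) - 0 - (C.z : ℤ)
    have : ((C.z + (X.length % C.Mp) * C.dl : ℕ) : ℤ) ≤ (X.length : ℤ) := by exact_mod_cast a2'
    push_cast at this ⊢
    linarith
  · rintro t' ht' ⟨⟨t, rfl, h2, h3, h4⟩, h5⟩
    simp only [Nat.cast_zero, zero_add] at ht' h5 h2
    rw [C.s_eq] at h5
    have h6 : t < X.length := by exact_mod_cast ht'
    refine a3 t h6 ⟨h4, ?_⟩
    show C.thr (t % C.Mp) ≤ t
    rw [C.thr_mod]
    have h5' : ((t % C.Mp : ℕ) : ℤ) * C.dl ≤ (t : ℤ) - 0 - (C.z : ℤ) := h5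
    have : ((C.z + (t % C.Mp) * C.dl : ℕ) : ℤ) ≤ (t : ℤ) := by
      push_cast at h5' ⊢
      linarith
    exact_mod_cast this

/-- (T1) -/
theorem scheme1' (hgW : C.gS ≤ C.W) :
    ∃ nu : List α → V, ∀ pre : List α → V → V,
      SoundB C.O.XX (Tm C.D C.O pre nu) (LP C.D C.O pre) (RQ C.D C.O) ∧
      ∀ X ∈ C.O.XX, Wall_291.RF C.ex C.W X → ¬ C.Bad X →
        ∀ v, CutB (LP C.D C.O pre) (RQ C.D C.O) v X := by
  obtain ⟨nu, hnu⟩ := scheme1 C.D C.O C.good C.geo C.names rfl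
    (by
      intro i hi
      show C.A' i + C.Mp * C.M ≤ C.N1
      have hi' : i < C.m := hi
      have h1 : C.A i ≤ C.A C.m := C.geo.monoA hi'.le
      have h2 : C.A' i = C.A i + C.Mp * (C.G + C.n) := rfl
      have h3 : C.N1 = C.A C.m + C.Mp * (C.G + C.n) + C.Mp * C.M := rfl
      omega) C.hF
  refine ⟨nu, fun pre => ⟨(hnu pre).1, fun X hX hRF hB => ?_⟩⟩
  have hz := C.z_ge
  have hXX := hX
  obtain ⟨a1, a2, a3⟩ := hX
  have a2' : C.thr (X.length % C.Mp) ≤ X.length := a2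
  rw [C.thr_mod] at a2'
  have hmp := C.Mp_pos
  refine (hnu pre).2 X hXX (fun hE => hB (C.bad_of_E hXX hE)) ?_ ?_ ?_
  · intro q hq hd
    apply hB
    obtain ⟨l, hl, hlq⟩ := C.ms_surj hq
    right; right
    refine ⟨l, hl, X.length, C.isN_of_XX hXX, ?_⟩
    rw [hlq]
    have hd' : q ∣ (X.length - C.p0) / C.Mp := hd
    show (q : ℤ) ∣ ((X.length : ℤ) - 0 - (C.p0 : ℤ)) / (C.Mp : ℤ)
    have h1 : ((X.length : ℤ) - 0 - (C.p0 : ℤ)) = ((X.length - C.p0 : ℕ) : ℤ) := by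
      rw [Nat.cast_sub (by omega)]
      ring
    rw [h1, ← Int.natCast_div]
    exact_mod_cast hd'
  · intro t ht
    have ht' : t ≤ C.A C.m + C.Mp * C.M := ht
    have h3 : C.N1 = C.A C.m + C.Mp * (C.G + C.n) + C.Mp * C.M := rfl
    obtain ⟨i, hi, hw⟩ := C.R_den (X.drop (C.p0 + t)) ((hRF.mono hgW).drop _)
      (by rw [List.length_drop]; omega)
    refine ⟨t + i, by omega, by show t + i < t + C.G; omega, ?_⟩
    show C.R (X.drop (C.p0 + (t + i)))
    rw [List.drop_drop] at hw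
    rwa [show C.p0 + (t + i) = C.p0 + t + i by ring]
  · intro k hk s h1 h2 hw
    apply hB
    have hk' : k ≤ C.m := hk
    have h1' : C.A k ≤ s + C.Mp * C.M := h1
    have h2' : s < C.A k + C.Mp * C.M := h2
    right; left
    refine ⟨k, by omega, ((C.p0 + s : ℕ) : ℤ), ⟨C.p0 + s, by simp, by omega, hw⟩, ?_⟩
    show |(((C.p0 + s : ℕ) : ℤ)) - 0 - ((C.p0 + C.A k : ℕ) : ℤ)| ≤ ((C.Mp * C.M : ℕ) : ℤ)
    rw [abs_le]
    constructor <;> omega

/-! ### Badness is visible in the first block -/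

theorem bad_mono {X Y : List α} (hX : X ∈ C.O.XX) (h : C.Bad X) : C.Bad (X ++ Y) := by
  have hwall : ∀ u, C.WAt 0 X u → C.WAt 0 (X ++ Y) u := by
    rintro _ ⟨t, rfl, h2, h3, h4⟩
    refine ⟨t, rfl, h2, by rw [List.length_append]; omega, ?_⟩
    rwa [List.take_append_of_le_length h3]
  rcases h with ⟨t, ht, hE⟩ | ⟨k, hk, u, hu, hD⟩ | ⟨l, hl, b, hN, hB⟩
  · exact Or.inl ⟨t, hwall t ht, hE⟩
  · refine Or.inr (Or.inl ⟨k, hk, u, ?_, hD⟩)
    obtain ⟨t, rfl, h2, h4⟩ := hu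
    refine ⟨t, rfl, h2, ?_⟩
    have h5 := C.R_len _ h4
    have h6 := C.n_pos
    rw [List.length_drop] at h5
    rw [List.drop_append_of_le_length (by omega), C.R_take,
      List.take_append_of_le_length (by rw [List.length_drop]; omega), ← C.R_take]
    exact h4
  · refine Or.inr (Or.inr ⟨l, hl, b, ⟨⟨hwall b hN.1.1, hN.1.2⟩, ?_⟩, hB⟩)
    rintro t' ht' ⟨⟨t, rfl, h2, h3, h4⟩, h5⟩
    have hb : b = X.length := ThrChain260.isN_unique hN (C.isN_of_XX hX)
    subst hb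
    have ht : t ≤ X.length := by
      simp only [Nat.cast_zero, zero_add] at ht'
      exact_mod_cast ht'.le
    refine hN.2 _ ht' ⟨⟨t, rfl, h2, ht, ?_⟩, h5⟩
    rwa [List.take_append_of_le_length ht] at h4

/-- the first block of a text which has a late wall -/
theorem exists_block {U : List α} {t : ℕ} (ht : t ≤ U.length) (hw : C.Wo (U.take t))
    (hb : C.z + C.Mp * C.dl ≤ t) : ∃ X ∈ C.O.XX, X <+: U ∧ X.length ≤ t := by
  classical
  have hmp := C.Mp_pos
  have hst : C.O.Stop U t := by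
    refine ⟨hw, ?_⟩
    show C.thr (t % C.Mp) ≤ t
    rw [C.thr_mod]
    have : t % C.Mp * C.dl ≤ C.Mp * C.dl := Nat.mul_le_mul_right _ (Nat.mod_lt _ hmp).le
    omega
  have hex : ∃ t, C.O.Stop U t := ⟨t, hst⟩
  have h1 : Nat.find hex ≤ t := Nat.find_min' hex hst
  have hlen : (U.take (Nat.find hex)).length = Nat.find hex := by
    rw [List.length_take]; omega
  refine ⟨U.take (Nat.find hex), ⟨(Nat.find_spec hex).1, ?_, ?_⟩, List.take_prefix _ _,
    by rw [hlen]; exact h1⟩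
  · rw [hlen]
    exact (Nat.find_spec hex).2
  · rw [hlen]
    intro s hs hst'
    refine Nat.find_min hex hs ⟨?_, hst'.2⟩
    have := hst'.1
    rwa [List.take_take, min_eq_left hs.le] at this

theorem XX_len {X : List α} (hX : X ∈ C.O.XX) : C.z ≤ X.length := by
  have a2' : C.thr (X.length % C.Mp) ≤ X.length := hX.2.1
  rw [C.thr_mod] at a2'
  omega

theorem XX_prefix {X Y : List α} (hX : X ∈ C.O.XX) (hY : Y ∈ C.O.XX) (h : X <+: Y) : X = Y := by
  obtain ⟨Z, rfl⟩ := h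
  by_contra hne
  have hZ : Z ≠ [] := fun h => hne (by rw [h, List.append_nil])
  have hZl : 0 < Z.length := List.length_pos_iff.2 hZ
  refine hY.2.2 X.length (by rw [List.length_append]; omega) ⟨?_, hX.2.1⟩
  rw [List.take_left' rfl]
  exact hX.1

/-- replacing the first letters of a block -/
theorem XX_replace {P P' Q : List α} (h : P ++ Q ∈ C.O.XX) (hl : P'.length = P.length)
    (hp : P.length ≤ C.p0) : P' ++ Q ∈ C.O.XX := by
  have hz := C.z_ge
  have hlen := C.XX_len h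
  rw [List.length_append] at hlen
  have hw : ∀ t, C.p0 + C.no ≤ t → (C.Wo ((P' ++ Q).take t) ↔ C.Wo ((P ++ Q).take t)) := by
    intro t ht
    rw [List.take_append, List.take_append, List.take_of_length_le (l := P') (by omega),
      List.take_of_length_le (l := P) (by omega), hl]
    by_cases h1 : C.no ≤ (Q.take (t - P.length)).length
    · rw [C.Wo_loc _ _ h1, C.Wo_loc _ _ h1]
    · rw [List.length_take] at h1
      exfalso
      omega
  obtain ⟨a1, a2, a3⟩ := h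
  have hll : (P' ++ Q).length = (P ++ Q).length := by simp [hl]
  refine ⟨?_, ?_, ?_⟩
  · have h1 : C.no ≤ Q.length := by omega
    exact (C.Wo_loc _ _ h1).2 ((C.Wo_loc _ _ h1).1 a1)
  · rw [hll]; exact a2
  · rw [hll]
    rintro t ht ⟨b1, b2⟩
    have b2' : C.thr (t % C.Mp) ≤ t := b2
    rw [C.thr_mod] at b2'
    exact a3 t ht ⟨(hw t (by omega)).1 b1, b2⟩

end Cst

end Crest.Agent.R320.Inst_146
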