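import Crest.Agent.R320.Ruler2_537
import Crest.Agent.R320.ExactR_237

/-!
Row 320, helper17: instantiation of helper163's `top` (post 13363): left-looking outer walls,
260's threshold rule, a U-gadget (black box) as scheme 1 and 237's exact gadget with a ruler as
scheme 2 give the block code `XX` and the hypotheses (s1), (s2), (cc).
-/

set_option autoImplicit false

namespace Crest.Agent.R320.Inst_17

open Crest.Agent.R320.ThrChain260 Crest.Agent.R320.ExactR_237 Crest.Agent.R320.Ruler2_537

variable {α : Type}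

/-- walls of a text (left-looking rule) -/
def wl (O : List α → Prop) (T : List α) (t : ℤ) : Prop :=
  0 ≤ t ∧ t ≤ T.length ∧ O (T.take t.toNat)

/-- a left-looking rule with window `n` -/
structure LRule (O : List α → Prop) (n : ℕ) : Prop where
  loc : ∀ P Q : List α, n ≤ Q.length → (O (P ++ Q) ↔ O Q)
  len : ∀ P, O P → n ≤ P.length

section walls

variable {O : List α → Prop} {n : ℕ}

theorem wl_app_left {P Q : List α} {t : ℤ} (h : t ≤ P.length) :
    wl O (P ++ Q) t ↔ wl O P t := by
  unfold wl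
  constructor
  · rintro ⟨h0, -, h2⟩
    refine ⟨h0, h, ?_⟩
    rwa [List.take_append_of_le_length (by omega)] at h2
  · rintro ⟨h0, -, h2⟩
    refine ⟨h0, by rw [List.length_append]; push_cast; omega, ?_⟩
    rwa [List.take_append_of_le_length (by omega)]

theorem wl_app_right (hO : LRule O n) {P Q : List α} {s : ℤ} (h : (n : ℤ) ≤ s) :
    wl O (P ++ Q) (P.length + s) ↔ wl O Q s := by
  have hs : 0 ≤ s := by omega
  obtain ⟨k, rfl⟩ := Int.eq_ofNat_of_zero_le hs
  have hk : n ≤ k := by omega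
  have e : ((P.length : ℤ) + (k : ℤ)).toNat = P.length + k := by omega
  unfold wl
  rw [e, Int.toNat_natCast]
  have e2 : (P ++ Q).take (P.length + k) = P ++ Q.take k := by
    rw [List.take_append]
    simp
  rw [e2, List.length_append]
  constructor
  · rintro ⟨-, h1, h2⟩
    have h3 : k ≤ Q.length := by push_cast at h1; omega
    exact ⟨by omega, by omega, (hO.loc P (Q.take k) (by rw [List.length_take]; omega)).1 h2⟩
  · rintro ⟨-, h1, h2⟩
    have h3 : k ≤ Q.length := by omega
    exact ⟨by omega, by push_cast; omega,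
      (hO.loc P (Q.take k) (by rw [List.length_take]; omega)).2 h2⟩

theorem wl_ge (hO : LRule O n) {Q : List α} {s : ℤ} (h : wl O Q s) : (n : ℤ) ≤ s := by
  obtain ⟨h0, h1, h2⟩ := h
  have := hO.len _ h2
  rw [List.length_take] at this
  omega

/-- a wall of the right part is a wall of the whole text -/
theorem wl_right (hO : LRule O n) {P Q : List α} {s : ℤ} (h : wl O Q s) :
    wl O (P ++ Q) (P.length + s) := (wl_app_right hO (wl_ge hO h)).2 h

end walls

/-- the block code -/
def XX (P : Par) (O : List α → Prop) : Set (List α) := {X | IsN P (wl O X) 0 X.length}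

section

variable {P : Par} {O : List α → Prop} {n : ℕ}

theorem XX_len {X : List α} (h : X ∈ XX P O) : P.z - (P.S - P.N1) ≤ X.length := by
  have := qual_ge h.1
  linarith

theorem XX_nil (hz : P.S - P.N1 < P.z) : ([] : List α) ∉ XX P O := by
  intro h
  have := XX_len h
  simp at this
  linarith

theorem XX_wall {X : List α} (h : X ∈ XX P O) : O X := by
  have := h.1.1.2.2
  rwa [Int.toNat_natCast, List.take_length] at this

theorem XX_code {X Y : List α} (hX : X ∈ XX P O) (hY : X ++ Y ∈ XX P O) : Y = [] := by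
  by_contra hne
  have hpos : 0 < Y.length := List.length_pos_iff.2 hne
  refine hY.2 X.length (by rw [List.length_append]; push_cast; omega) ?_
  exact ⟨(wl_app_left le_rfl).2 hX.1.1, hX.1.2⟩

/-- restriction of the next anchor to a prefix -/
theorem isN_prefix {A B : List α} {a t : ℤ} (h : t ≤ A.length) :
    IsN P (wl O (A ++ B)) a t ↔ IsN P (wl O A) a t := by
  unfold IsN Qual
  constructor
  · rintro ⟨⟨h1, h2⟩, h3⟩
    exact ⟨⟨(wl_app_left h).1 h1, h2⟩, fun t' ht' hq => h3 t' ht'
      ⟨(wl_app_left (by linarith)).2 hq.1, hq.2⟩⟩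
  · rintro ⟨⟨h1, h2⟩, h3⟩
    exact ⟨⟨(wl_app_left h).2 h1, h2⟩, fun t' ht' hq => h3 t' ht'
      ⟨(wl_app_left (by linarith)).1 hq.1, hq.2⟩⟩

/-- shift of the next anchor: text `A ++ B`, anchor `a`, seen from `B` -/
theorem isN_shift (hO : LRule O n) {A B : List α} {a t : ℤ}
    (hA : (A.length : ℤ) + n ≤ a + P.z - (P.S - P.N1)) :
    IsN P (wl O (A ++ B)) a (A.length + t) ↔ IsN P (wl O B) (a - A.length) t := by
  have key : ∀ s : ℤ, Qual P (wl O (A ++ B)) a (A.length + s) ↔
      Qual P (wl O B) (a - A.length) s := by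
    intro s
    have e : (A.length : ℤ) + s - a - P.z = s - (a - A.length) - P.z := by ring
    constructor
    · intro h
      have h1 := qual_ge h
      unfold Qual at h ⊢
      rw [e] at h
      exact ⟨(wl_app_right hO (by linarith)).1 h.1, h.2⟩
    · intro h
      unfold Qual at h ⊢
      rw [e]
      exact ⟨wl_right hO h.1, h.2⟩
  unfold IsN
  rw [key t]
  constructor
  · rintro ⟨h1, h2⟩
    exact ⟨h1, fun t' ht' hq => h2 (A.length + t') (by linarith) ((key t').2 hq)⟩
  · rintro ⟨h1, h2⟩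
    refine ⟨h1, fun t' ht' hq => h2 (t' - A.length) (by linarith) ?_⟩
    rw [← key]
    have e : (A.length : ℤ) + (t' - A.length) = t' := by ring
    rwa [e]

end

/-- the U-gadget as a black box -/
structure UG {S V : Type} [Monoid S] [AddCommGroup V] (φ : List α → S) (act : V → S → V)
    (Mp N : ℕ) (BadT : ℕ → Prop) (lam rho : List α → Option V) (nu : List α → V) : Prop where
  lamlen : ∀ p v, lam p = some v → Mp ∣ p.length ∧ p.length ≤ N
  sound : ∀ p q v r, lam p = some v → rho q = some r → r = act v (φ (p ++ q)) + nu (p ++ q)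
  compl : ∀ u, 2 * N ≤ u.length → ¬ BadT u.length → ∀ v,
    ∃ p q, p ++ q = u ∧ lam p = some v ∧ (rho q).isSome

section main

variable {S V : Type} [Monoid S] [AddCommGroup V]
variable (P : Par) (O : List α → Prop) (φ : List α → S) (act : V → S → V) (p : ℕ)
  (lam rho : List α → Option V) (nu1 nu2 : List α → V)

/-- zone map -/
def TT (v : V) (X : List α) : V :=
  act (act v (φ (X.take p)) + nu2 (X.take p)) (φ (X.drop p)) + nu1 (X.drop p)

/-- left-legality of scheme 1 -/
def LP1 (Pl : List α) (v : V) : Prop :=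
  p ≤ Pl.length ∧ lam (Pl.drop p) = some (act v (φ (Pl.take p)) + nu2 (Pl.take p))

open Classical in
/-- right label of scheme 1 -/
noncomputable def R1 (Q : List α) : Option V :=
  if IsB P (wl O Q) 0 Q.length ∧ Legal P (wl O Q) 0 then rho Q else none

variable {P O φ act p lam rho nu1 nu2}
variable {n Mp N : ℕ} {BadT : ℕ → Prop}

theorem s1 (hO : LRule O n) (hU : UG φ act Mp N BadT lam rho nu1)
    (hM : P.M = Mp) (hN : (N : ℤ) ≤ P.N1) (hp : P.p0 = p)
    (hz : (p : ℤ) + P.N1 + n + P.S < P.z) {Pl Q : List α} {v b : V}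
    (hL : LP1 φ act p lam nu2 Pl v) (hR : R1 P O rho Q = some b) :
    Pl ++ Q ∈ XX P O ∧ TT φ act p nu1 nu2 v (Pl ++ Q) = b := by
  classical
  obtain ⟨hpl, hlam⟩ := hL
  have hQ : (IsB P (wl O Q) 0 Q.length ∧ Legal P (wl O Q) 0) ∧ rho Q = some b := by
    unfold R1 at hR
    by_cases h : IsB P (wl O Q) 0 Q.length ∧ Legal P (wl O Q) 0
    · rw [if_pos h] at hR; exact ⟨h, hR⟩
    · rw [if_neg h] at hR; exact absurd hR (by simp)
  obtain ⟨⟨hB, hLeg⟩, hrho⟩ := hQ
  obtain ⟨hl1, hl2⟩ := hU.lamlen _ _ hlam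
  rw [List.length_drop] at hl1 hl2
  have hlen : ((Pl.length - p : ℕ) : ℤ) = (Pl.length : ℤ) - p := by omega
  have hwin : InWin P 0 Pl.length := by
    refine ⟨by rw [hp]; omega, by rw [hp]; omega, ?_⟩
    rw [hM, hp]
    have := Int.natCast_dvd_natCast.2 hl1
    rw [hlen] at this
    simpa using this
  have hS0 : (0 : ℤ) ≤ P.S - P.N1 := le_trans (abs_nonneg _) (P.hs 0)
  have hN0 := P.hN
  have hLeg' : Legal P (wl O (Pl ++ Q)) Pl.length := by
    intro t ht hb
    rcases lt_or_ge (t - Pl.length) (n : ℤ) with h | h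
    · have h1 := s_ge (P := P) ((t - Pl.length + P.p0 - P.z) % P.M)
      have h2 := hb.2
      rw [hp] at h1 h2
      linarith
    · have h3 : wl O Q (t - Pl.length) := by
        rw [← wl_app_right (P := Pl) hO h]
        have e : (Pl.length : ℤ) + (t - Pl.length) = t := by ring
        rwa [e]
      apply hLeg _ h3
      rw [sub_zero]
      exact hb
  have hB' : IsB P (wl O (Pl ++ Q)) Pl.length (Pl ++ Q).length := by
    have e0 : ((Pl ++ Q).length : ℤ) = Pl.length + Q.length := by
      rw [List.length_append]; push_cast; ring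
    refine ⟨⟨?_, ?_⟩, ?_⟩
    · rw [e0]; exact wl_right hO hB.1.1
    · have := hB.1.2
      have e : ((Pl ++ Q).length : ℤ) - Pl.length + P.p0 - P.z = Q.length - 0 + P.p0 - P.z := by
        rw [e0]; ring
      rw [e]; exact this
    · intro t' ht' hq
      rcases lt_or_ge (t' - Pl.length) (n : ℤ) with h | h
      · have h1 := s_ge (P := P) ((t' - Pl.length + P.p0 - P.z) % P.M)
        have h2 := hq.2
        rw [hp] at h1 h2
        linarith
      · have h3 : wl O Q (t' - Pl.length) := by
          rw [← wl_app_right (P := Pl) hO h]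
          have e : (Pl.length : ℤ) + (t' - Pl.length) = t' := by ring
          rw [e]; exact hq.1
        refine hB.2 (t' - Pl.length) (by rw [e0] at ht'; linarith) ⟨h3, ?_⟩
        rw [sub_zero]
        exact hq.2
  refine ⟨(isN_iff_isB hLeg' hwin _).2 hB', ?_⟩
  unfold TT
  rw [List.take_append_of_le_length hpl, List.drop_append_of_le_length hpl]
  exact (hU.sound _ _ _ _ hlam hrho).symm

theorem compl1 (hO : LRule O n) (hU : UG φ act Mp N BadT lam rho nu1)
    (hM : P.M = Mp) (hN : (N : ℤ) ≤ P.N1) (hp : P.p0 = p)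
    (hz : (p : ℤ) + P.N1 + n + P.S < P.z) (hz2 : (p : ℤ) + 2 * N + P.S < P.z)
    {X : List α} (hX : X ∈ XX P O) (hE : ¬ E P (wl O X) 0) (hBad : ¬ BadT (X.length - p)) (v : V) :
    ∃ Pl Q, X = Pl ++ Q ∧ LP1 φ act p lam nu2 Pl v ∧ (R1 P O rho Q).isSome := by
  classical
  have hlen := XX_len hX
  have hN0 := P.hN
  have hpX : p ≤ X.length := by omega
  obtain ⟨p', q, hpq, hlam, hrho⟩ := hU.compl (X.drop p)
    (by rw [List.length_drop]; omega) (by rw [List.length_drop]; exact hBad)
    (act v (φ (X.take p)) + nu2 (X.take p))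
  obtain ⟨hl1, hl2⟩ := hU.lamlen _ _ hlam
  have hXe : X = (X.take p ++ p') ++ q := by
    rw [List.append_assoc, hpq, List.take_append_drop]
  have htk : (X.take p).length = p := by rw [List.length_take]; omega
  have hPl : (X.take p ++ p').length = p + p'.length := by rw [List.length_append, htk]
  have hql : X.length = p + p'.length + q.length := by
    conv_lhs => rw [hXe]
    rw [List.length_append, hPl]
  refine ⟨X.take p ++ p', q, hXe, ⟨by omega, ?_⟩, ?_⟩
  · have e1 : (X.take p ++ p').drop p = p' := by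
      rw [List.drop_append_of_le_length (by omega)]
      rw [List.drop_of_length_le (by omega)]
      rfl
    have e2 : (X.take p ++ p').take p = X.take p := by
      rw [List.take_append_of_le_length (by omega)]
      rw [List.take_of_length_le (by omega)]
    rw [e1, e2]
    exact hlam
  · have hwin : InWin P 0 ((X.take p ++ p').length : ℤ) := by
      refine ⟨by rw [hp, hPl]; push_cast; omega, by rw [hp, hPl]; push_cast; omega, ?_⟩
      rw [hM, hp, hPl]
      have : ((p + p'.length : ℕ) : ℤ) - (p : ℤ) - 0 = (p'.length : ℤ) := by push_cast; ring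
      rw [this]
      exact Int.natCast_dvd_natCast.2 hl1
    set Pl := X.take p ++ p' with hPldef
    have hLeg : Legal P (wl O X) Pl.length := legal_of_not_E hE hwin
    have hB : IsB P (wl O X) Pl.length X.length := (isN_iff_isB hLeg hwin _).1 hX
    rw [hXe] at hLeg hB
    have e0 : ((Pl ++ q).length : ℤ) = Pl.length + q.length := by
      rw [List.length_append]; push_cast; ring
    have hLeg' : Legal P (wl O q) 0 := by
      intro t ht hb
      apply hLeg _ (wl_right (P := Pl) hO ht)
      have e : (Pl.length : ℤ) + t - Pl.length + P.p0 - P.z = t - 0 + P.p0 - P.z := by ring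
      rw [e]
      exact hb
    have hB' : IsB P (wl O q) 0 q.length := by
      refine ⟨⟨?_, ?_⟩, ?_⟩
      · have h1 := hB.1.1
        rw [e0] at h1
        exact (wl_app_right hO (by omega)).1 h1
      · have h2 := hB.1.2
        have e : ((Pl ++ q).length : ℤ) - Pl.length + P.p0 - P.z = q.length - 0 + P.p0 - P.z := by
          rw [e0]; ring
        rw [e] at h2
        exact h2
      · intro t' ht' hq
        refine hB.2 (Pl.length + t') (by rw [e0]; linarith) ⟨wl_right hO hq.1, ?_⟩
        have e : (Pl.length : ℤ) + t' - Pl.length + P.p0 - P.z = t' - 0 + P.p0 - P.z := by ring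
        rw [e]
        exact hq.2
    unfold R1
    rw [if_pos ⟨hB', hLeg'⟩]
    exact hrho


/-! ### Scheme 2 -/

variable (c : ℕ → ℕ) (K : ℕ) (lam2 : ℕ → List α → Option V) (rho2 : ℕ → List α → S → Option V)

/-- left-legality of scheme 2 -/
def LP2 (Pl : List α) (v : V) : Prop := ∃ k < K, Pl.length = c k ∧ lam2 k Pl = some v

variable (P O p BadT)

/-- the zone with anchor at `-c k`, seen from the right word, ends at `d` and is bad -/
def BadH (k : ℕ) (Q : List α) (d : ℕ) : Prop :=
  IsN P (wl O Q) (-(c k : ℤ)) d ∧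
    ((∃ t, wl O Q t ∧ t ≤ d ∧
      |t - (-(c k : ℤ)) - P.z - P.s ((t - (-(c k : ℤ)) - P.z) % P.M)| ≤ P.N1) ∨
      BadT (d + c k - p))

variable (φ act nu1 nu2)

/-- the right relation of scheme 2 -/
def R2rel (Q : List α) (b : V) : Prop :=
  ∃ (k d : ℕ) (b1 : V), k < K ∧ BadH P O p (BadT := BadT) c k Q d ∧
    (∀ k' d', k' < K → BadH P O p (BadT := BadT) c k' Q d' → k' = k) ∧
    Q.drop d ∈ XX P O ∧ rho2 k (Q.take (p - c k)) 1 = some b1 ∧
    b = TT φ act p nu1 nu2 (act b1 (φ ((Q.take d).drop (p - c k))) +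
      nu1 ((Q.take d).drop (p - c k))) (Q.drop d)

open Classical in
/-- right label of scheme 2 -/
noncomputable def R2 (Q : List α) : Option V :=
  if h : ∃ b, R2rel P O φ act p nu1 nu2 BadT c K rho2 Q b then some h.choose else none

variable {P O p BadT φ act nu1 nu2 c K lam2 rho2}

theorem R2_spec {Q : List α} {b : V} (h : R2 P O φ act p nu1 nu2 BadT c K rho2 Q = some b) :
    R2rel P O φ act p nu1 nu2 BadT c K rho2 Q b := by
  classical
  unfold R2 at h
  by_cases h' : ∃ b, R2rel P O φ act p nu1 nu2 BadT c K rho2 Q b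
  · rw [dif_pos h'] at h
    rw [← Option.some.inj h]
    exact h'.choose_spec
  · rw [dif_neg h'] at h
    exact absurd h (by simp)

theorem R2_isSome {Q : List α} {b : V} (h : R2rel P O φ act p nu1 nu2 BadT c K rho2 Q b) :
    (R2 P O φ act p nu1 nu2 BadT c K rho2 Q).isSome := by
  classical
  unfold R2
  rw [dif_pos ⟨b, h⟩]
  rfl

/-- the true place is recognised: a bad block is bad for the right word -/
theorem badH_true (hO : LRule O n) (hz3 : (p : ℤ) + n + P.S + P.N1 < P.z) {Pl Q1 R : List α}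
    {k : ℕ} (hk : Pl.length = c k) (hkp : c k ≤ p) (hX : Pl ++ Q1 ∈ XX P O)
    (hbad : E P (wl O (Pl ++ Q1)) 0 ∨ BadT ((Pl ++ Q1).length - p)) :
    BadH P O p (BadT := BadT) c k (Q1 ++ R) Q1.length := by
  have hN0 := P.hN
  have hS0 : (0 : ℤ) ≤ P.S - P.N1 := le_trans (abs_nonneg _) (P.hs 0)
  have hkz : (Pl.length : ℤ) = c k := by exact_mod_cast hk
  have hkp' : (c k : ℤ) ≤ p := by exact_mod_cast hkp
  refine ⟨?_, ?_⟩
  · rw [isN_prefix le_rfl]
    have h1 : IsN P (wl O (Pl ++ Q1)) 0 ((Pl.length : ℤ) + Q1.length) := by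
      have : ((Pl ++ Q1).length : ℤ) = Pl.length + Q1.length := by
        rw [List.length_append]; push_cast; ring
      rw [← this]; exact hX
    have h2 := (isN_shift (P := P) hO (A := Pl) (B := Q1) (a := 0) (t := Q1.length)
      (by linarith)).1 h1
    rw [zero_sub, hkz] at h2
    exact h2
  · rcases hbad with ⟨t, ht, hE⟩ | hB
    · left
      have h1 := abs_le.1 hE
      have h2 := s_ge (P := P) ((t - 0 - P.z) % P.M)
      have htn : (n : ℤ) ≤ t - Pl.length := by linarith [h1.1]
      have ht' : wl O Q1 (t - Pl.length) := by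
        rw [← wl_app_right (P := Pl) hO htn]
        have e : (Pl.length : ℤ) + (t - Pl.length) = t := by ring
        rwa [e]
      refine ⟨t - Pl.length, (wl_app_left ht'.2.1).2 ht', ht'.2.1, ?_⟩
      have e : t - (Pl.length : ℤ) - -(c k : ℤ) - P.z = t - 0 - P.z := by rw [hkz]; ring
      rw [e]
      exact hE
    · right
      rw [List.length_append, hk, add_comm] at hB
      exact hB

theorem s2 (hO : LRule O n) (hU : UG φ act Mp N BadT lam rho nu1)
    (hφ : ∀ u v, φ (u ++ v) = φ u * φ v)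
    (hM : P.M = Mp) (hN : (N : ℤ) ≤ P.N1) (hp : P.p0 = p)
    (hz : (p : ℤ) + P.N1 + n + P.S < P.z) (hz2 : (p : ℤ) + 2 * N + P.S < P.z)
    (hz3 : (p : ℤ) + 3 * P.S < P.z) (hcp : ∀ k < K, c k ≤ p)
    (hsnd : ∀ k < K, ∀ (Pl Q : List α) (v b : V), Pl.length = c k →
      lam2 k Pl = some v → rho2 k Q 1 = some b → b = act v (φ (Pl ++ Q)) + nu2 (Pl ++ Q))
    {Pl Q : List α} {v b : V} (hL : LP2 c K lam2 Pl v)
    (hR : R2 P O φ act p nu1 nu2 BadT c K rho2 Q = some b)
    (hunc : ∀ X ∈ XX P O, X <+: Pl ++ Q → ∀ P' Q', X = P' ++ Q' → Pl.length ≤ P'.length →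
      LP1 φ act p lam nu2 P' v → (R1 P O rho Q').isSome → False) :
    ∃ Q1 X2, Q = Q1 ++ X2 ∧ Q1 ≠ [] ∧ Pl ++ Q1 ∈ XX P O ∧ X2 ∈ XX P O ∧
      TT φ act p nu1 nu2 (TT φ act p nu1 nu2 v (Pl ++ Q1)) X2 = b := by
  classical
  obtain ⟨k0, hk0, hPk, hlam⟩ := hL
  obtain ⟨k, d, b1, hk, hBd, huniq, hX2, hrho, hb⟩ := R2_spec hR
  have hN0 := P.hN
  have hS0 : (0 : ℤ) ≤ P.S - P.N1 := le_trans (abs_nonneg _) (P.hs 0)
  have hk0p := hcp k0 hk0
  have hkp := hcp k hk
  -- the wall at the end
  have hdQ : (d : ℤ) ≤ Q.length := hBd.1.1.1.2.1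
  have hdQ' : d ≤ Q.length := by omega
  have hd1 := qual_ge hBd.1.1
  have hX2len := XX_len hX2
  rw [List.length_drop] at hX2len
  have hcast : ((Q.length - d : ℕ) : ℤ) = (Q.length : ℤ) - d := by omega
  rw [hcast] at hX2len
  have hOe : O (Pl ++ Q) := by
    have h1 := XX_wall hX2
    have h2 : Pl ++ Q = (Pl ++ Q.take d) ++ Q.drop d := by
      rw [List.append_assoc, List.take_append_drop]
    rw [h2]
    exact (hO.loc _ _ (hO.len _ h1)).2 h1
  have hwe : wl O (Pl ++ Q) ((Pl ++ Q).length : ℤ) := by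
    refine ⟨by omega, le_rfl, ?_⟩
    rw [Int.toNat_natCast, List.take_length]
    exact hOe
  have hTl : ((Pl ++ Q).length : ℤ) = Pl.length + Q.length := by
    rw [List.length_append]; push_cast; ring
  have hPkz : (Pl.length : ℤ) = c k0 := by exact_mod_cast hPk
  have hk0pz : (c k0 : ℤ) ≤ p := by exact_mod_cast hk0p
  have hkpz : (c k : ℤ) ≤ p := by exact_mod_cast hkp
  have hck0 : (0 : ℤ) ≤ c k := by omega
  obtain ⟨t0, ht0, ht1, ht2⟩ := exists_isN (P := P) (a := 0) hwe (by
    rw [hTl, hPkz]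
    have : (0 : ℤ) ≤ c k0 := by omega
    linarith)
  have ht00 : 0 ≤ t0 := by linarith
  obtain ⟨b0, rfl⟩ := Int.eq_ofNat_of_zero_le ht00
  have hb0 : b0 ≤ (Pl ++ Q).length := by omega
  have hb0' : Pl.length ≤ b0 := by omega
  have hpb0 : p ≤ b0 := by omega
  set Q1 := Q.take (b0 - Pl.length) with hQ1
  have hQ1len : Q1.length = b0 - Pl.length := by
    rw [hQ1, List.length_take]
    rw [List.length_append] at hb0
    omega
  have hXeq : Pl ++ Q1 = (Pl ++ Q).take b0 := by
    rw [List.take_append, List.take_of_length_le hb0']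
  have hXlen : (Pl ++ Q1).length = b0 := by rw [List.length_append, hQ1len]; omega
  have hXX : Pl ++ Q1 ∈ XX P O := by
    change IsN P (wl O (Pl ++ Q1)) 0 (Pl ++ Q1).length
    have h1 : (Pl ++ Q) = (Pl ++ Q1) ++ Q.drop (b0 - Pl.length) := by
      rw [List.append_assoc, hQ1, List.take_append_drop]
    rw [h1, isN_prefix (by rw [hXlen])] at ht0
    rw [hXlen]
    exact ht0
  -- the block is bad
  have hbad : E P (wl O (Pl ++ Q1)) 0 ∨ BadT ((Pl ++ Q1).length - p) := by
    by_contra hno
    push Not at hno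
    obtain ⟨P', Q', hPQ, hL', hR'⟩ := compl1 (nu2 := nu2) hO hU hM hN hp hz hz2 hXX hno.1 hno.2 v
    refine hunc _ hXX ?_ P' Q' hPQ (by have := hL'.1; omega) hL' hR'
    rw [hXeq]
    exact List.take_prefix _ _
  have hB0 : BadH P O p (BadT := BadT) c k0 Q Q1.length := by
    have := badH_true (P := P) (BadT := BadT) (R := Q.drop (b0 - Pl.length)) hO (by linarith)
      hPk hk0p hXX hbad
    rwa [hQ1, List.take_append_drop] at this
  have hkk : k0 = k := huniq k0 _ hk0 hB0
  subst hkk
  have hdd : (Q1.length : ℤ) = d := isN_unique hB0.1 hBd.1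
  have hdd' : Q1.length = d := by exact_mod_cast hdd
  have hQ1d : Q1 = Q.take d := by rw [hQ1, ← hdd', hQ1len]
  refine ⟨Q1, Q.drop d, ?_, ?_, hXX, hX2, ?_⟩
  · rw [hQ1d, List.take_append_drop]
  · intro h0
    rw [h0] at hdd
    simp at hdd
    rw [← hdd] at hd1
    linarith
  · rw [hb]
    congr 1
    have hpd : p - c k0 ≤ d := by omega
    have e1 : (Pl ++ Q1).take p = Pl ++ Q.take (p - c k0) := by
      rw [List.take_append, List.take_of_length_le (by omega), hPk, hQ1d, List.take_take]
      congr 2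
      omega
    have e2 : (Pl ++ Q1).drop p = (Q.take d).drop (p - c k0) := by
      rw [List.drop_append, List.drop_of_length_le (by omega), hPk, hQ1d]
      rfl
    unfold TT
    rw [e1, e2]
    rw [← hsnd k0 hk0 Pl (Q.take (p - c k0)) v b1 hPk hlam hrho]

theorem cc (hO : LRule O n) (hU : UG φ act Mp N BadT lam rho nu1)
    (hM : P.M = Mp) (hN : (N : ℤ) ≤ P.N1) (hp : P.p0 = p)
    (hz : (p : ℤ) + P.N1 + n + P.S < P.z) (hz2 : (p : ℤ) + 2 * N + P.S < P.z)
    (hcp : ∀ k < K, c k ≤ p) (C1 : ℕ)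
    (hcomp : ∀ (u : List α) (v : V), (∀ k < K, c k ≤ u.length) →
      ∃ I : Finset ℕ, C1 < I.card ∧ ∀ k ∈ I, k < K ∧ lam2 k (u.take (c k)) = some v ∧
        (rho2 k (u.drop (c k)) 1).isSome)
    (hspoil : ∀ X ∈ XX P O, ∀ X2 ∈ XX P O, ∀ Sp : Finset ℕ, (∀ k ∈ Sp, k < K ∧ ∃ k' < K, k' ≠ k ∧
      ∃ d', BadH P O p (BadT := BadT) c k' (X.drop (c k) ++ X2) d') → Sp.card ≤ C1)
    {X X2 : List α} (hX : X ∈ XX P O) (hX2 : X2 ∈ XX P O) (v : V) :
    (∃ Pl Q, X = Pl ++ Q ∧ LP1 φ act p lam nu2 Pl v ∧ (R1 P O rho Q).isSome) ∨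
    (∃ Pl Q, X ++ X2 = Pl ++ Q ∧ Pl.length < X.length ∧ LP2 c K lam2 Pl v ∧
      (R2 P O φ act p nu1 nu2 BadT c K rho2 Q).isSome) := by
  classical
  by_cases hgood : ¬ E P (wl O X) 0 ∧ ¬ BadT (X.length - p)
  · left
    exact compl1 hO hU hM hN hp hz hz2 hX hgood.1 hgood.2 v
  right
  have hbad : E P (wl O X) 0 ∨ BadT (X.length - p) := by
    by_contra h
    push Not at h
    exact hgood h
  have hN0 := P.hN
  have hlen := XX_len hX
  have hpX : p < X.length := by omega
  have hul : (X.take p).length = p := by rw [List.length_take]; omega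
  obtain ⟨I, hI, hI2⟩ := hcomp (X.take p) v (fun k hk => by rw [hul]; exact hcp k hk)
  set Sp := I.filter (fun k => ∃ k' < K, k' ≠ k ∧
      ∃ d', BadH P O p (BadT := BadT) c k' (X.drop (c k) ++ X2) d') with hSp
  have hSpc : Sp.card ≤ C1 := hspoil X hX X2 hX2 Sp (by
    intro k hk
    rw [hSp, Finset.mem_filter] at hk
    exact ⟨(hI2 k hk.1).1, hk.2⟩)
  obtain ⟨k, hkI, hkS⟩ : ∃ k ∈ I, k ∉ Sp := by
    by_contra hno
    push Not at hno
    have := Finset.card_le_card (show I ⊆ Sp from fun k hk => hno k hk)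
    omega
  obtain ⟨hkK, hlam, hrho⟩ := hI2 k hkI
  have hkp := hcp k hkK
  have hkX : c k ≤ X.length := by omega
  have hPlen : (X.take (c k)).length = c k := by rw [List.length_take]; omega
  refine ⟨X.take (c k), X.drop (c k) ++ X2, ?_, by rw [hPlen]; omega, ⟨k, hkK, hPlen, ?_⟩, ?_⟩
  · rw [← List.append_assoc, List.take_append_drop]
  · have : (X.take p).take (c k) = X.take (c k) := by
      rw [List.take_take]; congr 1; omega
    rw [← this]; exact hlam
  · obtain ⟨b1, hb1⟩ := Option.isSome_iff_exists.1 hrho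
    have hXs : X.take (c k) ++ X.drop (c k) = X := List.take_append_drop _ _
    have hdl : (X.drop (c k)).length = X.length - c k := List.length_drop
    have e3 : (X.drop (c k) ++ X2).take (p - c k) = (X.take p).drop (c k) := by
      rw [List.take_append_of_le_length (by omega), List.drop_take]
    refine R2_isSome (b := _) ⟨k, (X.drop (c k)).length, b1, hkK, ?_, ?_, ?_, ?_, rfl⟩
    · refine badH_true (P := P) (BadT := BadT) hO (by linarith) hPlen hkp ?_ ?_
      · rw [hXs]; exact hX
      · rw [hXs]; exact hbad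
    · intro k' d' hk' hB'
      by_contra hne
      apply hkS
      rw [hSp, Finset.mem_filter]
      exact ⟨hkI, k', hk', hne, d', hB'⟩
    · rw [List.drop_left]; exact hX2
    · rw [e3]; exact hb1

end main

end Crest.Agent.R320.Inst_17
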