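import Mathlib

/-!
Row 320 (helper172): the two block schemes of 132/852/467 on ALL words, instantiated in the form of the
frozen top theorem of 163 (#13363): natural chain `first wall >= z`, left-looking walls, gadget 1 = any
content-free gadget with bad totals `TB`, scheme 2 = promise ruler over an exact gadget.
-/

set_option autoImplicit false

namespace Crest.Agent.R320.Inst_172

open scoped Classical

variable {α S V : Type*}

/-- data and hypotheses -/
structure Dat (α S V : Type*) [Monoid S] [AddCommGroup V] where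
  φ : List α → S
  φ_nil : φ [] = 1
  φ_app : ∀ u v, φ (u ++ v) = φ u * φ v
  act : V → S → V
  act_mul : ∀ v s s', act (act v s) s' = act v (s * s')
  act_add : ∀ v w s, act (v + w) s = act v s + act w s
  -- walls
  Wl : List α → Prop
  n : ℕ
  Wl_app : ∀ P Q : List α, n ≤ Q.length → (Wl (P ++ Q) ↔ Wl Q)
  Wl_len : ∀ Q : List α, Wl Q → n ≤ Q.length
  z : ℕ
  p0 : ℕ
  N1 : ℕ
  hz : n + p0 + N1 + 1 ≤ z
  -- gadget 1
  lam : List α → Option V
  rho : List α → Option V
  nu1 : List α → V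
  TB : ℕ → Prop
  lam_len : ∀ P v, lam P = some v → P.length < N1
  ex1 : ∀ P Q v b, lam P = some v → rho Q = some b → b = act v (φ (P ++ Q)) + nu1 (P ++ Q)
  cp1 : ∀ X : List α, N1 ≤ X.length → ¬ TB X.length → ∀ v, ∃ P Q, X = P ++ Q ∧ lam P = some v ∧
    (rho Q).isSome
  -- gadget 2
  K : ℕ
  c : ℕ → ℕ
  hc : ∀ k < K, c k ≤ p0
  c_inj : ∀ k < K, ∀ k' < K, c k = c k' → k = k'
  lam2 : ℕ → List α → Option V
  rho2 : ℕ → List α → Option V
  nu2 : List α → V
  ex2 : ∀ k < K, ∀ P Q v b, P.length = c k → (P ++ Q).length = p0 → lam2 k P = some v →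
    rho2 k Q = some b → b = act v (φ (P ++ Q)) + nu2 (P ++ Q)
  Rd : ℕ
  cp2 : ∀ X : List α, X.length = p0 → ∀ v, ∃ I : Finset ℕ, Rd ≤ I.card ∧ ∀ k ∈ I, k < K ∧
    lam2 k (X.take (c k)) = some v ∧ (rho2 k (X.drop (c k))).isSome

variable [Monoid S] [AddCommGroup V] (D : Dat α S V)

namespace Dat

/-- blocks -/
def XX : Set (List α) := {X | D.z ≤ X.length ∧ D.Wl X ∧ ∀ t, t < X.length → D.z ≤ t → ¬ D.Wl (X.take t)}

/-- noise -/
def ν (X : List α) : V := D.act (D.nu2 (X.take D.p0)) (D.φ (X.drop D.p0)) + D.nu1 (X.drop D.p0)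

/-- zone map -/
def T (v : V) (X : List α) : V :=
  D.act (D.act v (D.φ (X.take D.p0)) + D.nu2 (X.take D.p0)) (D.φ (X.drop D.p0)) + D.nu1 (X.drop D.p0)

theorem T_eq (X : List α) (v : V) : D.T v X = D.act v (D.φ X) + D.ν X := by
  unfold T ν
  rw [D.act_add, D.act_mul, ← D.φ_app, List.take_append_drop, add_assoc]

theorem nil_notMem : [] ∉ D.XX := by
  intro h
  have h1 : D.z ≤ 0 := h.1
  have := D.hz
  omega

theorem pc (X : List α) (hX : X ∈ D.XX) (Y : List α) (hY : X ++ Y ∈ D.XX) : Y = [] := by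
  by_contra hne
  have hl : 0 < Y.length := List.length_pos_iff.2 hne
  have := hY.2.2 X.length (by rw [List.length_append]; omega) hX.1
  rw [List.take_left] at this
  exact this hX.2.1

/-- bad blocks: end wall band, or bad total -/
def Bad (X : List α) : Prop :=
  (∃ t, t < D.z ∧ D.z ≤ t + D.N1 ∧ t ≤ X.length ∧ D.Wl (X.take t)) ∨ X.length < D.z + D.N1 ∨
    D.TB (X.length - D.p0)

def LP1 (P : List α) (v : V) : Prop :=
  D.p0 ≤ P.length ∧ D.lam (P.drop D.p0) = some (D.act v (D.φ (P.take D.p0)) + D.nu2 (P.take D.p0))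

def Leg1 (Q : List α) : Prop :=
  D.Wl Q ∧ D.z ≤ Q.length + D.p0 ∧ ∀ t, t < Q.length → D.z ≤ t + D.p0 + D.N1 → ¬ D.Wl (Q.take t)

noncomputable def R1 (Q : List α) : Option V := if D.Leg1 Q then D.rho Q else none

theorem R1_some {Q : List α} {b : V} (h : D.R1 Q = some b) : D.Leg1 Q ∧ D.rho Q = some b := by
  unfold R1 at h
  split_ifs at h with h1
  exact ⟨h1, h⟩

theorem hR1 (Q : List α) (b : V) (h : D.R1 Q = some b) : Q ≠ [] := by
  rintro rfl
  have := (D.R1_some h).1.2.1
  have hz := D.hz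
  simp at this
  omega

theorem wall_shift {P Q : List α} {t : ℕ} (hn : D.n ≤ t) (ht : t ≤ Q.length) :
    D.Wl ((P ++ Q).take (P.length + t)) ↔ D.Wl (Q.take t) := by
  have : (P ++ Q).take (P.length + t) = P ++ Q.take t := by
    rw [List.take_append]
    simp
  rw [this]
  exact D.Wl_app _ _ (by rw [List.length_take]; omega)

theorem s1 (P : List α) (v : V) (Q : List α) (b : V) (hP : D.LP1 P v) (hQ : D.R1 Q = some b) :
    P ++ Q ∈ D.XX ∧ D.T v (P ++ Q) = b := by
  obtain ⟨⟨h1, h2, h3⟩, h4⟩ := D.R1_some hQ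
  obtain ⟨hp, hl⟩ := hP
  have hz := D.hz
  have hN := D.lam_len _ _ hl
  rw [List.length_drop] at hN
  have hQn : D.n ≤ Q.length := by omega
  refine ⟨⟨?_, (D.Wl_app P Q hQn).2 h1, ?_⟩, ?_⟩
  · rw [List.length_append]; omega
  · intro t ht hzt hw
    rw [List.length_append] at ht
    obtain ⟨t', rfl⟩ := Nat.exists_eq_add_of_le (show P.length ≤ t by omega)
    exact h3 t' (by omega) (by omega) ((D.wall_shift (by omega) (by omega)).1 hw)
  · unfold T
    rw [List.take_append_of_le_length hp, List.drop_append_of_le_length hp]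
    exact (D.ex1 _ _ _ _ hl h4).symm

theorem compl1 {X : List α} (hX : X ∈ D.XX) (hb : ¬ D.Bad X) (v : V) :
    ∃ P Q, X = P ++ Q ∧ D.p0 ≤ P.length ∧ D.LP1 P v ∧ (D.R1 Q).isSome := by
  unfold Bad at hb
  push Not at hb
  obtain ⟨hb1, hb2, hb3⟩ := hb
  have hz := D.hz
  obtain ⟨P', Q, hPQ, hl, hr⟩ := D.cp1 (X.drop D.p0) (by rw [List.length_drop]; omega)
    (by rw [List.length_drop]; exact hb3) (D.act v (D.φ (X.take D.p0)) + D.nu2 (X.take D.p0))
  have hN := D.lam_len _ _ hl
  have hlen : P'.length + Q.length = X.length - D.p0 := by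
    have := congrArg List.length hPQ
    rw [List.length_drop, List.length_append] at this
    omega
  have hXe : X = (X.take D.p0 ++ P') ++ Q := by
    rw [List.append_assoc, ← hPQ, List.take_append_drop]
  have htl : (X.take D.p0).length = D.p0 := by rw [List.length_take]; omega
  have hPl : (X.take D.p0 ++ P').length = D.p0 + P'.length := by
    rw [List.length_append, htl]
  refine ⟨X.take D.p0 ++ P', Q, hXe, by omega, ⟨by omega, ?_⟩, ?_⟩
  · have e1 : (X.take D.p0 ++ P').take D.p0 = X.take D.p0 := by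
      rw [List.take_append_of_le_length (by omega), List.take_take, min_self]
    have e2 : (X.take D.p0 ++ P').drop D.p0 = P' := by
      rw [List.drop_append_of_le_length (by omega), List.drop_eq_nil_of_le (by omega)]
      rfl
    rw [e1, e2]
    exact hl
  · have hleg : D.Leg1 Q := by
      have hw : D.Wl Q := by
        have := hX.2.1
        rw [hXe] at this
        exact (D.Wl_app _ Q (by omega)).1 this
      refine ⟨hw, by omega, ?_⟩
      intro t ht hzt hwt
      have hn : D.n ≤ t := by omega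
      have h5 : D.Wl (X.take ((X.take D.p0 ++ P').length + t)) := by
        have := (D.wall_shift (P := X.take D.p0 ++ P') (Q := Q) hn ht.le).2 hwt
        rwa [← hXe] at this
      rw [hPl] at h5
      by_cases h6 : D.z ≤ D.p0 + P'.length + t
      · exact hX.2.2 _ (by omega) h6 h5
      · exact hb1 (D.p0 + P'.length + t) (by omega) (by omega) (by omega) h5
    unfold R1
    rw [if_pos hleg]
    exact hr

/-! ### scheme 2 -/

/-- first wall at or after `y` -/
noncomputable def fe (Q : List α) (y : ℕ) : ℕ := sInf {t | y ≤ t ∧ t ≤ Q.length ∧ D.Wl (Q.take t)}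

/-- candidate `k` looks bad from the right word `Q` -/
def BadQ (Q : List α) (k : ℕ) : Prop :=
  (∃ t, t + D.c k < D.z ∧ D.z ≤ t + D.c k + D.N1 ∧ t ≤ Q.length ∧ D.Wl (Q.take t)) ∨
    D.fe Q (D.z - D.c k) + D.c k < D.z + D.N1 ∨ D.TB (D.fe Q (D.z - D.c k) + D.c k - D.p0)

/-- the number of the only candidate -/
def Leg2 (Q : List α) (k : ℕ) : Prop :=
  k < D.K ∧ D.BadQ Q k ∧ (∀ k' < D.K, D.BadQ Q k' → k' = k) ∧
    D.fe Q (D.z - D.c k) ≤ Q.length ∧ Q.drop (D.fe Q (D.z - D.c k)) ∈ D.XX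

/-- right label of scheme 2 for the candidate `k` -/
noncomputable def val2 (Q : List α) (k : ℕ) (u : V) : V :=
  D.T (D.act u (D.φ ((Q.take (D.fe Q (D.z - D.c k))).drop (D.p0 - D.c k))) +
    D.nu1 ((Q.take (D.fe Q (D.z - D.c k))).drop (D.p0 - D.c k))) (Q.drop (D.fe Q (D.z - D.c k)))

noncomputable def R2 (Q : List α) : Option V :=
  if h : ∃ k, D.Leg2 Q k then (D.rho2 h.choose (Q.take (D.p0 - D.c h.choose))).map (D.val2 Q h.choose)
  else none

theorem R2_some {Q : List α} {b : V} (h : D.R2 Q = some b) :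
    ∃ k u, D.Leg2 Q k ∧ D.rho2 k (Q.take (D.p0 - D.c k)) = some u ∧ D.val2 Q k u = b := by
  unfold R2 at h
  split_ifs at h with h1
  rw [Option.map_eq_some_iff] at h
  obtain ⟨u, hu, hb⟩ := h
  exact ⟨h1.choose, u, h1.choose_spec, hu, hb⟩

theorem R2_isSome {Q : List α} {k : ℕ} (h : D.Leg2 Q k)
    (hr : (D.rho2 k (Q.take (D.p0 - D.c k))).isSome) : (D.R2 Q).isSome := by
  have h1 : ∃ k, D.Leg2 Q k := ⟨k, h⟩
  have h2 : h1.choose = k := h.2.2.1 _ h1.choose_spec.1 h1.choose_spec.2.1
  unfold R2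
  rw [dif_pos h1, h2]
  simpa using hr

def LP2 (P : List α) (v : V) : Prop := ∃ k < D.K, P.length = D.c k ∧ D.lam2 k P = some v

theorem hR2 (Q : List α) (b : V) (h : D.R2 Q = some b) : Q ≠ [] := by
  obtain ⟨k, u, h1, -, -⟩ := D.R2_some h
  rintro rfl
  have := h1.2.2.2.2
  simp at this
  exact D.nil_notMem this

theorem fe_spec {Q : List α} {y t : ℕ} (h1 : y ≤ t) (h2 : t ≤ Q.length) (h3 : D.Wl (Q.take t)) :
    y ≤ D.fe Q y ∧ D.fe Q y ≤ t ∧ D.Wl (Q.take (D.fe Q y)) := by
  have hne : ({t | y ≤ t ∧ t ≤ Q.length ∧ D.Wl (Q.take t)} : Set ℕ).Nonempty := ⟨t, h1, h2, h3⟩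
  have hm := Nat.sInf_mem hne
  exact ⟨hm.1, Nat.sInf_le ⟨h1, h2, h3⟩, hm.2.2⟩

theorem fe_le {Q : List α} {y t : ℕ} (h1 : y ≤ t) (h2 : t ≤ Q.length) (h3 : D.Wl (Q.take t)) :
    D.fe Q y ≤ t := Nat.sInf_le ⟨h1, h2, h3⟩

/-- block at the beginning of a text, seen from `P.length` -/
theorem fe_block {P Q1 R : List α} {y : ℕ} (hX : P ++ Q1 ∈ D.XX) (hy : D.z = P.length + y)
    (hn : D.n ≤ y) : D.fe (Q1 ++ R) y = Q1.length := by
  have h1 := hX.1
  rw [List.length_append] at h1
  have hw : D.Wl ((Q1 ++ R).take Q1.length) := by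
    rw [List.take_left]
    exact (D.Wl_app P Q1 (by omega)).1 hX.2.1
  obtain ⟨h2, h3, h4⟩ := D.fe_spec (Q := Q1 ++ R) (y := y) (t := Q1.length) (by omega)
    (by rw [List.length_append]; omega) hw
  by_contra hne
  have hlt : D.fe (Q1 ++ R) y < Q1.length := by omega
  have h5 : (Q1 ++ R).take (D.fe (Q1 ++ R) y) = Q1.take (D.fe (Q1 ++ R) y) :=
    List.take_append_of_le_length hlt.le
  rw [h5] at h4
  have h6 := (D.wall_shift (P := P) (Q := Q1) (t := D.fe (Q1 ++ R) y) (by omega) hlt.le).2 h4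
  exact hX.2.2 _ (by rw [List.length_append]; omega) (by omega) h6

theorem badQ_of_bad {P Q1 R : List α} {k : ℕ} (hk : k < D.K) (hP : P.length = D.c k)
    (hX : P ++ Q1 ∈ D.XX) (hb : D.Bad (P ++ Q1)) : D.BadQ (Q1 ++ R) k := by
  have hz := D.hz
  have hck := D.hc k hk
  have h1 := hX.1
  rw [List.length_append] at h1
  have hfe : D.fe (Q1 ++ R) (D.z - D.c k) = Q1.length :=
    D.fe_block (P := P) hX (by omega) (by omega)
  rcases hb with ⟨t, ht1, ht2, ht3, ht4⟩ | hb | hb
  · left
    obtain ⟨t', rfl⟩ := Nat.exists_eq_add_of_le (show P.length ≤ t by omega)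
    rw [List.length_append] at ht3
    have h2 : D.n ≤ t' := by omega
    refine ⟨t', by omega, by omega, by rw [List.length_append]; omega, ?_⟩
    rw [List.take_append_of_le_length (by omega)]
    exact (D.wall_shift h2 (by omega)).1 ht4
  · right; left
    rw [hfe]
    rw [List.length_append] at hb
    omega
  · right; right
    rw [hfe]
    rw [List.length_append] at hb
    have : Q1.length + D.c k - D.p0 = P.length + Q1.length - D.p0 := by omega
    rw [this]
    exact hb

theorem s2 (P : List α) (v : V) (Q : List α) (b : V) (hP : D.LP2 P v) (hQ : D.R2 Q = some b)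
    (hpr : ∀ X ∈ D.XX, X <+: P ++ Q → ∀ P' Q', X = P' ++ Q' → P.length ≤ P'.length → D.LP1 P' v →
      (D.R1 Q').isSome → False) :
    ∃ Q1 X2, Q = Q1 ++ X2 ∧ Q1 ≠ [] ∧ P ++ Q1 ∈ D.XX ∧ X2 ∈ D.XX ∧ D.T (D.T v (P ++ Q1)) X2 = b := by
  have hz := D.hz
  obtain ⟨k, hk, hPk, hlam⟩ := hP
  have hck := D.hc k hk
  obtain ⟨k', u, hleg, hrho, hval⟩ := D.R2_some hQ
  -- a wall at the end of the text
  have hX2 := hleg.2.2.2.2
  have hX2l := hX2.1
  rw [List.length_drop] at hX2l
  have hwQ : D.Wl Q := by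
    have h1 := hX2.2.1
    have h2 : D.n ≤ (Q.drop (D.fe Q (D.z - D.c k'))).length := by
      rw [List.length_drop]; omega
    rw [← List.take_append_drop (D.fe Q (D.z - D.c k')) Q]
    exact (D.Wl_app _ _ h2).2 h1
  -- the true block
  obtain ⟨h1, h2, h3⟩ := D.fe_spec (Q := Q) (y := D.z - D.c k) (t := Q.length) (by omega) le_rfl
    (by rw [List.take_length]; exact hwQ)
  set e := D.fe Q (D.z - D.c k) with he
  have hXX : P ++ Q.take e ∈ D.XX := by
    refine ⟨?_, ?_, ?_⟩
    · rw [List.length_append, List.length_take]; omega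
    · exact (D.Wl_app _ _ (by rw [List.length_take]; omega)).2 h3
    · intro t ht hzt hw
      rw [List.length_append, List.length_take] at ht
      obtain ⟨t', rfl⟩ := Nat.exists_eq_add_of_le (show P.length ≤ t by omega)
      have h4 : t' < e := by omega
      have h5 := (D.wall_shift (P := P) (Q := Q.take e) (t := t') (by omega)
        (by rw [List.length_take]; omega)).1 hw
      rw [List.take_take, min_eq_left h4.le] at h5
      have := D.fe_le (Q := Q) (y := D.z - D.c k) (t := t') (by omega) (by omega) h5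
      omega
  have hbad : D.Bad (P ++ Q.take e) := by
    by_contra hb
    obtain ⟨P', Q', hPQ, hl, hL, hR⟩ := D.compl1 hXX hb v
    exact hpr _ hXX ⟨Q.drop e, by rw [List.append_assoc, List.take_append_drop]⟩ P' Q' hPQ
      (by omega) hL hR
  have hbq : D.BadQ Q k := by
    have := D.badQ_of_bad (R := Q.drop e) hk hPk hXX hbad
    rwa [List.take_append_drop] at this
  have hkk : k = k' := hleg.2.2.1 k hk hbq
  subst hkk
  refine ⟨Q.take e, Q.drop e, (List.take_append_drop e Q).symm, ?_, hXX, hX2, ?_⟩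
  · intro h
    have := congrArg List.length h
    rw [List.length_take, List.length_nil] at this
    omega
  · rw [← hval]
    unfold val2
    rw [← he]
    congr 1
    have hp : (P ++ Q.take (D.p0 - D.c k)).length = D.p0 := by
      rw [List.length_append, List.length_take]; omega
    have hu := D.ex2 k hk P (Q.take (D.p0 - D.c k)) v u hPk hp hlam hrho
    have e1 : (P ++ Q.take e).take D.p0 = P ++ Q.take (D.p0 - D.c k) := by
      rw [List.take_append, List.take_of_length_le (by omega), List.take_take]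
      congr 2
      omega
    have e2 : (P ++ Q.take e).drop D.p0 = (Q.take e).drop (D.p0 - D.c k) := by
      rw [List.drop_append, List.drop_eq_nil_of_le (by omega), hPk]
      rfl
    unfold T
    rw [e1, e2, ← hu]

/-- completeness, given the bound for spoiled candidates -/
theorem cc (hsp : ∀ X ∈ D.XX, ∀ X2 ∈ D.XX, D.Bad X →
      ((Finset.range D.K).filter (fun k => ∃ k' < D.K, k' ≠ k ∧ D.BadQ (X.drop (D.c k) ++ X2) k')).card
        < D.Rd) :
    ∀ X ∈ D.XX, ∀ X2 ∈ D.XX, ∀ v, (∃ P Q, X = P ++ Q ∧ D.LP1 P v ∧ (D.R1 Q).isSome) ∨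
      (∃ P Q, X ++ X2 = P ++ Q ∧ P.length < X.length ∧ D.LP2 P v ∧ (D.R2 Q).isSome) := by
  intro X hX X2 hX2 v
  have hz := D.hz
  by_cases hb : D.Bad X
  swap
  · left
    obtain ⟨P, Q, h1, -, h2, h3⟩ := D.compl1 hX hb v
    exact ⟨P, Q, h1, h2, h3⟩
  right
  have hXl := hX.1
  obtain ⟨I, hI, hIk⟩ := D.cp2 (X.take D.p0) (by rw [List.length_take]; omega) v
  obtain ⟨k, hkI, hkn⟩ : ∃ k ∈ I, k ∉ (Finset.range D.K).filter
      (fun k => ∃ k' < D.K, k' ≠ k ∧ D.BadQ (X.drop (D.c k) ++ X2) k') := by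
    by_contra hcon
    push Not at hcon
    have := Finset.card_le_card (show I ⊆ _ from fun k hk => hcon k hk)
    have := hsp X hX X2 hX2 hb
    omega
  obtain ⟨hk, hlam, hrho⟩ := hIk k hkI
  have hck := D.hc k hk
  have hun : ∀ k' < D.K, D.BadQ (X.drop (D.c k) ++ X2) k' → k' = k := by
    intro k' hk' hbq
    by_contra hne
    exact hkn (Finset.mem_filter.2 ⟨Finset.mem_range.2 hk, k', hk', hne, hbq⟩)
  have htk : (X.take (D.c k)).length = D.c k := by rw [List.length_take]; omega
  have hXe : X.take (D.c k) ++ X.drop (D.c k) ∈ D.XX := by rw [List.take_append_drop]; exact hX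
  have hfe : D.fe (X.drop (D.c k) ++ X2) (D.z - D.c k) = (X.drop (D.c k)).length :=
    D.fe_block hXe (by omega) (by omega)
  have hbq : D.BadQ (X.drop (D.c k) ++ X2) k :=
    D.badQ_of_bad hk htk hXe (by rw [List.take_append_drop]; exact hb)
  refine ⟨X.take (D.c k), X.drop (D.c k) ++ X2, by rw [← List.append_assoc, List.take_append_drop],
    by omega, ⟨k, hk, htk, ?_⟩, ?_⟩
  · rw [List.take_take, min_eq_left hck] at hlam
    exact hlam
  · refine D.R2_isSome (k := k) ⟨hk, hbq, hun, ?_, ?_⟩ ?_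
    · rw [hfe, List.length_append]; omega
    · rw [hfe, List.drop_left]; exact hX2
    · have : (X.drop (D.c k) ++ X2).take (D.p0 - D.c k) = (X.take D.p0).drop (D.c k) := by
        rw [List.take_append_of_le_length (by rw [List.length_drop]; omega), List.drop_take]
      rw [this]
      exact hrho

end Dat

end Crest.Agent.R320.Inst_172
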