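import Mathlib

/-!
Row 320, final plan (#13406), joint P5: from
* a left-looking wall rule `Wl` (window `n`, walls more than `G` apart),
* the block code `XX` = words whose first wall at a place `≥ z` is their end,
* gadget 1 (UG / 693 form, sound on all words, complete off `Bad1 |Y|`),
* an exact gadget with redundancy on words of length `p0` (237 ExactR),
* a ruler `c`,
we get (s1), (s2), (cc) of 163's frozen `top`.
-/

set_option autoImplicit false

namespace Crest.Agent.R320.Inst_183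

variable {α V S : Type} [Monoid S] [AddCommGroup V]

/-- the data -/
structure Dat (α V S : Type) [Monoid S] [AddCommGroup V] where
  φ : List α → S
  act : V → S → V
  Wl : List α → Prop
  n : ℕ
  G : ℕ
  z : ℕ
  p0 : ℕ
  N1 : ℕ
  L1 : ℕ
  T0 : ℕ
  C0 : ℕ
  R : ℕ
  K : ℕ
  c : ℕ → ℕ
  lam1 : List α → Option V
  rho1 : List α → Option V
  nu1 : List α → V
  Bad1 : ℕ → Prop
  lam2 : ℕ → List α → Option V
  rho2 : ℕ → List α → Option V
  nu2 : List α → V

variable (D : Dat α V S)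

/-- block code -/
def Dat.XX : Set (List α) :=
  {X | D.z ≤ X.length ∧ D.Wl X ∧ ∀ l, D.z ≤ l → l < X.length → ¬ D.Wl (X.take l)}

/-- zone map -/
def Dat.T (v : V) (X : List α) : V :=
  D.act (D.act v (D.φ (X.take D.p0)) + D.nu2 (X.take D.p0)) (D.φ (X.drop D.p0)) +
    D.nu1 (X.drop D.p0)

def Dat.LP1 (P : List α) (v : V) : Prop :=
  D.p0 ≤ P.length ∧ P.length ≤ D.p0 + D.N1 ∧
    D.lam1 (P.drop D.p0) = some (D.act v (D.φ (P.take D.p0)) + D.nu2 (P.take D.p0))

def Dat.Legal1 (Q : List α) : Prop :=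
  D.z ≤ D.p0 + Q.length ∧ D.Wl Q ∧
    ∀ l, D.z ≤ l + D.p0 + D.N1 → l < Q.length → ¬ D.Wl (Q.take l)

open Classical in
noncomputable def Dat.R1 (Q : List α) : Option V := if D.Legal1 Q then D.rho1 Q else none

def Dat.LP2 (P : List α) (v : V) : Prop := ∃ k < D.K, P.length = D.c k ∧ D.lam2 k P = some v

/-- first wall of `Q` at a place `≥ z - c k` -/
def Dat.EndAt (Q : List α) (k l : ℕ) : Prop :=
  D.z ≤ D.c k + l ∧ l ≤ Q.length ∧ D.Wl (Q.take l) ∧
    ∀ l', l' < l → D.z ≤ D.c k + l' → ¬ D.Wl (Q.take l')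

def Dat.Cand (Q : List α) (k : ℕ) : Prop :=
  (∃ l ≤ Q.length, D.z ≤ D.c k + l + D.N1 ∧ D.c k + l < D.z + D.N1 ∧ D.Wl (Q.take l)) ∨
    (∃ l, D.EndAt Q k l ∧ D.Bad1 (D.c k + l - D.p0))

def Dat.Val2 (Q : List α) (b : V) : Prop :=
  ∃ k < D.K, D.Cand Q k ∧ (∀ k' < D.K, D.Cand Q k' → k' = k) ∧
    ∃ l, D.EndAt Q k l ∧ Q.drop l ∈ D.XX ∧
      ∃ y, D.rho2 k (Q.take (D.p0 - D.c k)) = some y ∧
        b = D.T (D.act y (D.φ ((Q.take l).drop (D.p0 - D.c k))) +
          D.nu1 ((Q.take l).drop (D.p0 - D.c k))) (Q.drop l)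

open Classical in
noncomputable def Dat.R2 (Q : List α) : Option V :=
  if h : ∃ b, D.Val2 Q b then some h.choose else none

/-- bad blocks: modes (E) and (B) -/
def Dat.BadZ (X : List α) : Prop :=
  (∃ l ≤ X.length, D.z ≤ l + D.N1 ∧ l < D.z + D.N1 ∧ D.Wl (X.take l)) ∨
    D.Bad1 (X.length - D.p0)

structure Dat.Ok : Prop where
  hW : ∀ P Q : List α, D.n ≤ Q.length → (D.Wl (P ++ Q) ↔ D.Wl Q)
  hgap : ∀ P Q : List α, D.Wl P → D.Wl (P ++ Q) → Q ≠ [] → D.G < Q.length
  hz : D.p0 + D.N1 + D.n ≤ D.z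
  hz0 : 0 < D.z
  hzL : D.L1 + D.p0 ≤ D.z
  hcmono : ∀ i j, i < j → j < D.K → D.c i < D.c j
  hcp : ∀ k < D.K, D.c k ≤ D.p0
  g1len : ∀ P v, D.lam1 P = some v → P.length ≤ D.N1
  g1s : ∀ P Q v r, D.lam1 P = some v → D.rho1 Q = some r →
    r = D.act v (D.φ (P ++ Q)) + D.nu1 (P ++ Q)
  g1c : ∀ Y : List α, D.L1 ≤ Y.length → ¬ D.Bad1 Y.length → ∀ v, ∃ P Q, P ++ Q = Y ∧
    D.lam1 P = some v ∧ (D.rho1 Q).isSome
  g2s : ∀ k < D.K, ∀ (P Q : List α) (v b : V), P.length = D.c k → D.lam2 k P = some v →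
    D.rho2 k Q = some b → b = D.act v (D.φ (P ++ Q)) + D.nu2 (P ++ Q)
  g2c : ∀ (u : List α) (v : V), (∀ k < D.K, D.c k ≤ u.length) →
    ∃ I : Finset ℕ, D.R ≤ I.card ∧ ∀ k ∈ I, k < D.K ∧ D.lam2 k (u.take (D.c k)) = some v ∧
      (D.rho2 k (u.drop (D.c k))).isSome
  hR : 2 + 2 * D.C0 ≤ D.R
  hG : 2 * (D.p0 + D.N1) < D.G
  hT0 : D.T0 + 2 * D.p0 ≤ D.z
  rE : ∀ a b a' b', a < D.K → b < D.K → a' < D.K → b' < D.K → a ≠ b → a' ≠ b' →
    |((D.c a : ℤ) - D.c b) - ((D.c a' : ℤ) - D.c b')| ≤ 2 * D.N1 → a = a' ∧ b = b'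
  rB : ∀ T, D.T0 ≤ T → ∀ F : Finset (ℕ × ℕ), (∀ ab ∈ F, ab.1 < D.K ∧ ab.2 < D.K ∧ ab.1 ≠ ab.2 ∧
    D.Bad1 (T + D.c ab.1 - D.c ab.2)) → F.card ≤ D.C0

variable {D}

theorem nil_notMem (h : D.Ok) : [] ∉ D.XX := by
  rintro ⟨h1, -, -⟩
  have := h.hz0
  simp at h1
  omega

theorem prefixCode : ∀ X ∈ D.XX, ∀ Y, X ++ Y ∈ D.XX → Y = [] := by
  rintro X ⟨h1, h2, -⟩ Y ⟨-, -, h3⟩
  by_contra hY
  have hl : 0 < Y.length := List.length_pos_iff.2 hY
  refine h3 X.length h1 (by simp; omega) ?_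
  rw [List.take_left' rfl]
  exact h2

theorem take_app {P Q : List α} {l : ℕ} (h : P.length ≤ l) :
    (P ++ Q).take l = P ++ Q.take (l - P.length) := by
  rw [List.take_append, List.take_of_length_le h]

/-- (s1) -/
theorem s1 (h : D.Ok) (P : List α) (v : V) (Q : List α) (b : V) (h1 : D.LP1 P v)
    (h2 : D.R1 Q = some b) : P ++ Q ∈ D.XX ∧ D.T v (P ++ Q) = b := by
  classical
  unfold Dat.R1 at h2
  split_ifs at h2 with hl
  obtain ⟨hp, hp', hlam⟩ := h1
  obtain ⟨hq, hw, hnw⟩ := hl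
  have hz := h.hz
  refine ⟨⟨?_, ?_, ?_⟩, ?_⟩
  · rw [List.length_append]; omega
  · rw [h.hW _ _ (by omega)]; exact hw
  · intro l hl1 hl2
    rw [List.length_append] at hl2
    rw [take_app (by omega), h.hW _ _ (by rw [List.length_take]; omega)]
    exact hnw _ (by omega) (by omega)
  · unfold Dat.T
    rw [List.take_append_of_le_length hp, List.drop_append_of_le_length hp]
    exact (h.g1s _ _ _ _ hlam h2).symm

/-- completeness of scheme 1 off the bad blocks -/
theorem c1 (h : D.Ok) (X : List α) (hX : X ∈ D.XX) (hb : ¬ D.BadZ X) (v : V) :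
    ∃ P Q, X = P ++ Q ∧ D.LP1 P v ∧ (D.R1 Q).isSome := by
  classical
  obtain ⟨hx1, hx2, hx3⟩ := hX
  have hz := h.hz
  have hE : ¬ ∃ l ≤ X.length, D.z ≤ l + D.N1 ∧ l < D.z + D.N1 ∧ D.Wl (X.take l) :=
    fun h' => hb (Or.inl h')
  have hB : ¬ D.Bad1 (X.length - D.p0) := fun h' => hb (Or.inr h')
  have hlong : D.z + D.N1 ≤ X.length := by
    by_contra hlt
    push Not at hlt
    exact hE ⟨X.length, le_refl _, by omega, hlt, by rw [List.take_length]; exact hx2⟩
  have hY : (X.drop D.p0).length = X.length - D.p0 := List.length_drop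
  obtain ⟨P', Q, hPQ, hlam, hrho⟩ := h.g1c (X.drop D.p0) (by rw [hY]; have := h.hzL; omega)
    (by rw [hY]; exact hB) (D.act v (D.φ (X.take D.p0)) + D.nu2 (X.take D.p0))
  have hP' := h.g1len _ _ hlam
  have htl : (X.take D.p0).length = D.p0 := by rw [List.length_take]; omega
  have hXeq : X = (X.take D.p0 ++ P') ++ Q := by
    rw [List.append_assoc, hPQ, List.take_append_drop]
  have hlen : X.length = D.p0 + P'.length + Q.length := by
    have := congrArg List.length hXeq
    rw [List.length_append, List.length_append, htl] at this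
    exact this
  have htk : (X.take D.p0 ++ P').take D.p0 = X.take D.p0 := by
    rw [List.take_left' htl]
  have hdr : (X.take D.p0 ++ P').drop D.p0 = P' := by
    rw [List.drop_left' htl]
  refine ⟨X.take D.p0 ++ P', Q, hXeq, ⟨?_, ?_, ?_⟩, ?_⟩
  · rw [List.length_append, htl]; omega
  · rw [List.length_append, htl]; omega
  · rw [htk, hdr]; exact hlam
  · have hleg : D.Legal1 Q := by
      refine ⟨by omega, ?_, ?_⟩
      · rw [← h.hW (X.take D.p0 ++ P') Q (by omega), ← hXeq]; exact hx2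
      · intro l hl1 hl2 hwl
        have hlP : (X.take D.p0 ++ P').length = D.p0 + P'.length := by
          rw [List.length_append, htl]
        have hw2 : D.Wl (X.take (D.p0 + P'.length + l)) := by
          rw [hXeq, take_app (by rw [hlP]; omega), hlP,
            h.hW _ _ (by rw [List.length_take]; omega)]
          rwa [show D.p0 + P'.length + l - (D.p0 + P'.length) = l by omega]
        by_cases hge : D.z ≤ D.p0 + P'.length + l
        · exact hx3 _ hge (by omega) hw2
        · exact hE ⟨D.p0 + P'.length + l, by omega, by omega, by omega, hw2⟩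
    unfold Dat.R1
    rw [if_pos hleg]
    exact hrho

theorem endAt_unique {Q : List α} {k l l' : ℕ} (h1 : D.EndAt Q k l) (h2 : D.EndAt Q k l') :
    l = l' := by
  rcases lt_trichotomy l l' with hlt | heq | hgt
  · exact absurd h1.2.2.1 (h2.2.2.2 l hlt h1.1)
  · exact heq
  · exact absurd h2.2.2.1 (h1.2.2.2 l' hgt h2.1)

theorem endAt_exists {Q : List α} {k l : ℕ} (h1 : D.z ≤ D.c k + l) (h2 : l ≤ Q.length)
    (h3 : D.Wl (Q.take l)) : ∃ l', D.EndAt Q k l' ∧ l' ≤ l := by
  classical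
  have hex : ∃ l, D.z ≤ D.c k + l ∧ D.Wl (Q.take l) := ⟨l, h1, h3⟩
  refine ⟨Nat.find hex, ⟨(Nat.find_spec hex).1, le_trans (Nat.find_min' hex ⟨h1, h3⟩) h2,
    (Nat.find_spec hex).2, fun l' hl' hz hw => Nat.find_min hex hl' ⟨hz, hw⟩⟩,
    Nat.find_min' hex ⟨h1, h3⟩⟩

theorem XX_of_endAt (h : D.Ok) {P Q : List α} {k l : ℕ} (hk : k < D.K) (hP : P.length = D.c k)
    (hl : D.EndAt Q k l) : P ++ Q.take l ∈ D.XX := by
  obtain ⟨h1, h2, h3, h4⟩ := hl
  have hz := h.hz
  have hcp := h.hcp k hk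
  have hlt : (Q.take l).length = l := by rw [List.length_take]; omega
  refine ⟨by rw [List.length_append, hlt]; omega, ?_, ?_⟩
  · rw [h.hW _ _ (by rw [hlt]; omega)]; exact h3
  · intro j hj1 hj2
    rw [List.length_append, hlt] at hj2
    rw [take_app (by omega), h.hW _ _ (by rw [List.length_take, hlt]; omega), List.take_take,
      min_eq_left (by omega)]
    exact h4 _ (by omega) (by omega)

theorem cand_of_bad (h : D.Ok) {P Q : List α} {k l : ℕ} (hk : k < D.K) (hP : P.length = D.c k)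
    (hl : D.EndAt Q k l) (hb : D.BadZ (P ++ Q.take l)) : D.Cand Q k := by
  have hz := h.hz
  have hcp := h.hcp k hk
  have hlt : (Q.take l).length = l := by rw [List.length_take]; have := hl.2.1; omega
  rcases hb with ⟨j, hj1, hj2, hj3, hj4⟩ | hb
  · left
    rw [List.length_append, hlt] at hj1
    rw [take_app (by omega), h.hW _ _ (by rw [List.length_take, hlt]; omega), List.take_take,
      min_eq_left (by omega)] at hj4
    exact ⟨j - P.length, by have := hl.2.1; omega, by omega, by omega, hj4⟩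
  · right
    refine ⟨l, hl, ?_⟩
    rw [List.length_append, hlt, hP] at hb
    exact hb

theorem T_eq (h : D.Ok) {P Q : List α} {k l : ℕ} (hk : k < D.K) (hP : P.length = D.c k)
    (hl : D.EndAt Q k l) {v y : V} (h1 : D.lam2 k P = some v)
    (h2 : D.rho2 k (Q.take (D.p0 - D.c k)) = some y) :
    D.T v (P ++ Q.take l) = D.act y (D.φ ((Q.take l).drop (D.p0 - D.c k))) +
          D.nu1 ((Q.take l).drop (D.p0 - D.c k)) := by
  have hz := h.hz
  have hcp := h.hcp k hk
  have hl1 := hl.1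
  have e1 : (P ++ Q.take l).take D.p0 = P ++ Q.take (D.p0 - D.c k) := by
    rw [take_app (by omega), hP, List.take_take, min_eq_left (by omega)]
  have e2 : (P ++ Q.take l).drop D.p0 = (Q.take l).drop (D.p0 - D.c k) := by
    rw [List.drop_append, List.drop_of_length_le (by omega), List.nil_append, hP]
  unfold Dat.T
  rw [e1, e2, ← h.g2s k hk P _ v y hP h1 h2]

/-- (s2) -/
theorem s2 (h : D.Ok) (P : List α) (v : V) (Q : List α) (b : V) (h1 : D.LP2 P v)
    (h2 : D.R2 Q = some b)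
    (hun : ∀ X ∈ D.XX, X <+: P ++ Q → ∀ P' Q', X = P' ++ Q' → P.length ≤ P'.length →
      D.LP1 P' v → (D.R1 Q').isSome → False) :
    ∃ Q1 X2, Q = Q1 ++ X2 ∧ Q1 ≠ [] ∧ P ++ Q1 ∈ D.XX ∧ X2 ∈ D.XX ∧ D.T (D.T v (P ++ Q1)) X2 = b := by
  classical
  obtain ⟨k, hk, hP, hlam⟩ := h1
  have hz := h.hz
  have hcp := h.hcp k hk
  unfold Dat.R2 at h2
  split_ifs at h2 with hex
  have hb := hex.choose_spec
  rw [Option.some.inj h2] at hb
  obtain ⟨k', hk', hc', huniq, l', hl', hX2, y, hy, hbeq⟩ := hb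
  have hQlen : l' ≤ Q.length := hl'.2.1
  -- a wall at the end of Q
  have hwQ : D.Wl (Q.take Q.length) := by
    rw [List.take_length, ← List.take_append_drop l' Q]
    rw [h.hW _ _ (by have := hX2.1; omega)]
    exact hX2.2.1
  have hQz : D.z ≤ Q.length := by
    have h3 := hX2.1
    rw [List.length_drop] at h3
    omega
  obtain ⟨l, hl, -⟩ := endAt_exists (D := D) (k := k) (l := Q.length) (Q := Q) (by omega)
    (le_refl _) hwQ
  have hXX := XX_of_endAt h hk hP hl
  have hbad : D.BadZ (P ++ Q.take l) := by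
    by_contra hnb
    obtain ⟨P', Q', hPQ', hL, hR⟩ := c1 h _ hXX hnb v
    refine hun _ hXX ?_ P' Q' hPQ' ?_ hL hR
    · exact (List.prefix_append_right_inj P).2 (List.take_prefix l Q)
    · have := hL.1; omega
  have hcand := cand_of_bad h hk hP hl hbad
  have hkk := huniq k hk hcand
  subst hkk
  have hll := endAt_unique hl hl'
  subst hll
  refine ⟨Q.take l, Q.drop l, (List.take_append_drop l Q).symm, ?_, hXX, hX2, ?_⟩
  · intro hnil
    have := congrArg List.length hnil
    rw [List.length_take] at this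
    have h5 := hl.1
    have h6 := h.hz0
    simp at this
    by_cases hn : l = 0
    · rw [hn] at h5
      have h7 : D.z ≤ D.p0 := by omega
      -- z ≥ p0 + N1 + n, so n = 0, N1 = 0; exclude by z > p0
      have := h.hG
      have h8 := hl.2.2.1
      have hX1 := hX2.2.1
      -- use hzL, hT0
      have h9 := h.hT0
      omega
    · have : Q.length = 0 := by
        rcases this with h0 | h0
        · omega
        · rw [h0]; rfl
      omega
  · rw [T_eq h hk hP hl hlam hy, hbeq]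


theorem wall_iff (h : D.Ok) {W : List α} {a l : ℕ} (hl : D.n ≤ l) (hlW : a + l ≤ W.length) :
    D.Wl ((W.drop a).take l) ↔ D.Wl (W.take (a + l)) := by
  rw [List.take_add, h.hW _ _ (by rw [List.length_take, List.length_drop]; omega)]

theorem gap (h : D.Ok) {W : List α} {j j' : ℕ} (hj : j < j') (hj' : j' ≤ W.length)
    (h1 : D.Wl (W.take j)) (h2 : D.Wl (W.take j')) : D.G < j' - j := by
  have e : W.take j' = W.take j ++ (W.drop j).take (j' - j) := by
    rw [← List.take_add]; congr 1; omega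
  have hlen : ((W.drop j).take (j' - j)).length = j' - j := by
    rw [List.length_take, List.length_drop]; omega
  have h3 := h.hgap (W.take j) ((W.drop j).take (j' - j)) h1 (e ▸ h2) (by
    intro hn
    rw [hn] at hlen
    simp at hlen
    omega)
  rw [hlen] at h3
  exact h3

/-- the spoil count: at most `1 + 2 C0` places `k` have a second candidate -/
theorem spoil (h : D.Ok) (W : List α) (j0 : ℕ) (hj0 : D.z ≤ j0) (hj0W : j0 ≤ W.length)
    (hw0 : D.Wl (W.take j0)) : ∃ B : Finset ℕ, B.card ≤ 1 + 2 * D.C0 ∧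
      ∀ k < D.K, k ∉ B → ∀ k' < D.K, D.Cand (W.drop (D.c k)) k' → k' = k := by
  classical
  have hz := h.hz
  have hG := h.hG
  have hT0 := h.hT0
  -- the two possible ends
  have hexa : ∃ j, D.z ≤ j + D.p0 ∧ j ≤ W.length ∧ D.Wl (W.take j) := ⟨j0, by omega, hj0W, hw0⟩
  obtain ⟨ja, ⟨ha1, ha2, ha3⟩, hamin⟩ : ∃ ja, (D.z ≤ ja + D.p0 ∧ ja ≤ W.length ∧
      D.Wl (W.take ja)) ∧ ∀ j, D.z ≤ j + D.p0 → j ≤ W.length → D.Wl (W.take j) → ja ≤ j :=
    ⟨Nat.find hexa, Nat.find_spec hexa, fun j h1 h2 h3 => Nat.find_min' hexa ⟨h1, h2, h3⟩⟩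
  obtain ⟨jb, hb1, hbend⟩ : ∃ jb, D.T0 + D.p0 ≤ jb ∧ ∀ th j, D.z ≤ th + D.p0 → th ≤ D.z + D.p0 →
      th ≤ j → j ≤ W.length → D.Wl (W.take j) →
      (∀ j', j' < j → th ≤ j' → ¬ D.Wl (W.take j')) → j = ja ∨ j = jb := by
    by_cases hb : ∃ j, ja < j ∧ j ≤ W.length ∧ D.Wl (W.take j)
    · obtain ⟨jb, ⟨hb1, hb2, hb3⟩, hbmin⟩ : ∃ jb, (ja < jb ∧ jb ≤ W.length ∧
          D.Wl (W.take jb)) ∧ ∀ j, ja < j → j ≤ W.length → D.Wl (W.take j) → jb ≤ j :=
        ⟨Nat.find hb, Nat.find_spec hb, fun j h1 h2 h3 => Nat.find_min' hb ⟨h1, h2, h3⟩⟩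
      refine ⟨jb, by omega, ?_⟩
      intro th j h1 h2 h3 h4 h5 h6
      have h7 := hamin j (by omega) h4 h5
      rcases Nat.lt_or_ge ja j with h8 | h8
      · right
        have h9 := hbmin j h8 h4 h5
        have h10 := gap h hb1 hb2 ha3 hb3
        rcases Nat.lt_or_ge jb j with h11 | h11
        · exact absurd hb3 (h6 jb h11 (by omega))
        · omega
      · left; omega
    · refine ⟨ja, by omega, ?_⟩
      intro th j h1 h2 h3 h4 h5 h6
      have h7 := hamin j (by omega) h4 h5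
      rcases Nat.lt_or_ge ja j with h8 | h8
      · exact absurd ⟨j, h8, h4, h5⟩ hb
      · left; omega
  -- (E) pairs
  let SE : Finset ℕ := (Finset.range D.K).filter (fun k => ∃ k' < D.K, k' ≠ k ∧ ∃ j ≤ W.length,
    D.c k + D.z ≤ D.c k' + j + D.N1 ∧ D.c k' + j < D.c k + D.z + D.N1 ∧ D.Wl (W.take j))
  have hSE : SE.card ≤ 1 := by
    rw [Finset.card_le_one]
    intro k hk m hm
    obtain ⟨hkK, k', hk'K, hkk', j, hj, hj1, hj2, hj3⟩ := by
      simpa only [SE, Finset.mem_filter, Finset.mem_range] using hk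
    obtain ⟨hmK, m', hm'K, hmm', i, hi, hi1, hi2, hi3⟩ := by
      simpa only [SE, Finset.mem_filter, Finset.mem_range] using hm
    have e1 := h.hcp k hkK
    have e2 := h.hcp k' hk'K
    have e3 := h.hcp m hmK
    have e4 := h.hcp m' hm'K
    have hij : i = j := by
      rcases lt_trichotomy i j with hlt | heq | hgt
      · have := gap h hlt hj hi3 hj3
        omega
      · exact heq
      · have := gap h hgt hi hj3 hi3
        omega
    subst hij
    exact (h.rE k k' m m' hkK hk'K hmK hm'K hkk'.symm hmm'.symm (by rw [abs_le]; omega)).1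
  -- (B) pairs
  let FB : ℕ → Finset (ℕ × ℕ) := fun j => ((Finset.range D.K) ×ˢ (Finset.range D.K)).filter
    (fun ab => ab.1 ≠ ab.2 ∧ D.Bad1 (j - D.p0 + D.c ab.1 - D.c ab.2))
  have hFB : ∀ j, D.T0 + D.p0 ≤ j → (FB j).card ≤ D.C0 := by
    intro j hj
    refine h.rB (j - D.p0) (by omega) (FB j) ?_
    intro ab hab
    obtain ⟨⟨h1, h2⟩, h3, h4⟩ := by
      simpa only [FB, Finset.mem_filter, Finset.mem_product, Finset.mem_range] using hab
    exact ⟨h1, h2, h3, h4⟩
  refine ⟨SE ∪ ((FB ja).image Prod.snd ∪ (FB jb).image Prod.snd), ?_, ?_⟩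
  · have q1 := Finset.card_union_le SE ((FB ja).image Prod.snd ∪ (FB jb).image Prod.snd)
    have q2 := Finset.card_union_le ((FB ja).image Prod.snd) ((FB jb).image Prod.snd)
    have q3 : ((FB ja).image Prod.snd).card ≤ (FB ja).card := Finset.card_image_le
    have q4 : ((FB jb).image Prod.snd).card ≤ (FB jb).card := Finset.card_image_le
    have q5 := hFB ja (by omega)
    have q6 := hFB jb hb1
    omega
  · intro k hk hkB k' hk' hc
    by_contra hne
    have e1 := h.hcp k hk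
    have e2 := h.hcp k' hk'
    apply hkB
    rcases hc with ⟨l, hl1, hl2, hl3, hl4⟩ | ⟨l, ⟨hl1, hl2, hl3, hl4⟩, hl5⟩
    · rw [List.length_drop] at hl1
      rw [Finset.mem_union]
      left
      simp only [SE, Finset.mem_filter, Finset.mem_range]
      by_cases hck : D.c k ≤ W.length
      · rw [wall_iff h (by omega) (by omega)] at hl4
        exact ⟨hk, k', hk', hne, D.c k + l, by omega, by omega, by omega, hl4⟩
      · omega
    · rw [List.length_drop] at hl2
      have hl4' : D.Wl (W.take (D.c k + l)) := by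
        rw [← wall_iff h (by omega) (by omega)]; exact hl3
      have hend := hbend (D.z + D.c k - D.c k') (D.c k + l) (by omega) (by omega) (by omega)
        (by omega) hl4' (by
          intro j' hj1 hj2 hj3
          refine hl4 (j' - D.c k) (by omega) (by omega) ?_
          rw [wall_iff h (by omega) (by omega)]
          rwa [show D.c k + (j' - D.c k) = j' by omega])
      rw [Finset.mem_union, Finset.mem_union]
      right
      have key : ∀ j, D.c k + l = j → k ∈ (FB j).image Prod.snd := by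
        intro j hj
        rw [Finset.mem_image]
        refine ⟨(k', k), ?_, rfl⟩
        simp only [FB, Finset.mem_filter, Finset.mem_product, Finset.mem_range]
        refine ⟨⟨hk', hk⟩, hne, ?_⟩
        have : j - D.p0 + D.c k' - D.c k = D.c k' + l - D.p0 := by omega
        rw [this]
        exact hl5
      rcases hend with he | he
      · left; exact key ja he
      · right; exact key jb he

/-- completeness of scheme 2 on bad blocks followed by a block -/
theorem c2 (h : D.Ok) (X : List α) (hX : X ∈ D.XX) (hb : D.BadZ X) (X2 : List α)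
    (hX2 : X2 ∈ D.XX) (v : V) :
    ∃ P Q, X ++ X2 = P ++ Q ∧ P.length < X.length ∧ D.LP2 P v ∧ (D.R2 Q).isSome := by
  classical
  have hz := h.hz
  have hz0 := h.hz0
  have hG := h.hG
  have hT0 := h.hT0
  obtain ⟨hx1, hx2, hx3⟩ := hX
  have htl : (X.take D.p0).length = D.p0 := by rw [List.length_take]; omega
  obtain ⟨I, hI, hI2⟩ := h.g2c (X.take D.p0) v (by rw [htl]; exact h.hcp)
  obtain ⟨B, hB, hB2⟩ := spoil h (X ++ X2) X.length hx1 (by rw [List.length_append]; omega)
    (by rw [List.take_left' rfl]; exact hx2)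
  have hR := h.hR
  obtain ⟨k, hkI, hkB⟩ : ∃ k ∈ I, k ∉ B := by
    by_contra hcon
    push Not at hcon
    have : I.card ≤ B.card := Finset.card_le_card hcon
    omega
  obtain ⟨hk, hlam, hrho⟩ := hI2 k hkI
  have hcp := h.hcp k hk
  have huniq := hB2 k hk hkB
  have hPl : (X.take (D.c k)).length = D.c k := by rw [List.length_take]; omega
  have hQ : (X ++ X2).drop (D.c k) = X.drop (D.c k) ++ X2 :=
    List.drop_append_of_le_length (by omega)
  have hdl : (X.drop (D.c k)).length = X.length - D.c k := List.length_drop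
  have hQt : ((X ++ X2).drop (D.c k)).take (X.length - D.c k) = X.drop (D.c k) := by
    rw [hQ, List.take_left' hdl]
  have hQd : ((X ++ X2).drop (D.c k)).drop (X.length - D.c k) = X2 := by
    rw [hQ, List.drop_left' hdl]
  have hPQ : X.take (D.c k) ++ X.drop (D.c k) = X := List.take_append_drop _ _
  have hEnd : D.EndAt ((X ++ X2).drop (D.c k)) k (X.length - D.c k) := by
    refine ⟨by omega, ?_, ?_, ?_⟩
    · rw [List.length_drop, List.length_append]; omega
    · rw [hQt]
      rw [← hPQ, h.hW _ _ (by rw [hdl]; omega)] at hx2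
      exact hx2
    · intro l' hl1 hl2 hw
      rw [wall_iff h (by omega) (by rw [List.length_append]; omega)] at hw
      rw [List.take_append_of_le_length (by omega)] at hw
      exact hx3 _ hl2 (by omega) hw
  have hcand : D.Cand ((X ++ X2).drop (D.c k)) k :=
    cand_of_bad h hk hPl hEnd (by rw [hQt, hPQ]; exact hb)
  obtain ⟨y, hy⟩ := Option.isSome_iff_exists.1 hrho
  obtain ⟨b, hval⟩ : ∃ b, D.Val2 ((X ++ X2).drop (D.c k)) b := by
    refine ⟨_, k, hk, hcand, huniq, X.length - D.c k, hEnd, ?_, y, ?_, rfl⟩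
    · rw [hQd]; exact hX2
    · rw [← hy]
      congr 1
      rw [hQ, List.take_append_of_le_length (by omega), List.drop_take]
  refine ⟨X.take (D.c k), (X ++ X2).drop (D.c k), ?_, by omega, ⟨k, hk, hPl, ?_⟩, ?_⟩
  · rw [hQ, ← List.append_assoc, hPQ]
  · rw [← hlam, List.take_take, min_eq_left hcp]
  · unfold Dat.R2
    rw [dif_pos ⟨_, hval⟩]
    rfl

/-- (cc) -/
theorem cc (h : D.Ok) (X : List α) (hX : X ∈ D.XX) (X2 : List α) (hX2 : X2 ∈ D.XX) (v : V) :
    (∃ P Q, X = P ++ Q ∧ D.LP1 P v ∧ (D.R1 Q).isSome) ∨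
      (∃ P Q, X ++ X2 = P ++ Q ∧ P.length < X.length ∧ D.LP2 P v ∧ (D.R2 Q).isSome) := by
  by_cases hb : D.BadZ X
  · exact Or.inr (c2 h X hX hb X2 hX2 v)
  · exact Or.inl (c1 h X hX hb v)

theorem hR1 (hzp : D.p0 < D.z) (Q : List α) (b : V) (hQ : D.R1 Q = some b) : Q ≠ [] := by
  classical
  unfold Dat.R1 at hQ
  split_ifs at hQ with hl
  intro hn
  subst hn
  have := hl.1
  simp at this
  omega

theorem hR2 (h : D.Ok) (Q : List α) (b : V) (hQ : D.R2 Q = some b) : Q ≠ [] := by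
  classical
  unfold Dat.R2 at hQ
  split_ifs at hQ with hex
  obtain ⟨b', k, hk, -, -, l, -, hX, -⟩ := hex
  intro hn
  subst hn
  have h1 := hX.1
  have h2 := h.hz0
  simp at h1
  omega

/-- the affine form of the zone map -/
theorem hT (hφ : ∀ P Q : List α, D.φ (P ++ Q) = D.φ P * D.φ Q)
    (hadd : ∀ v w s, D.act (v + w) s = D.act v s + D.act w s)
    (hmul : ∀ v s t, D.act v (s * t) = D.act (D.act v s) t) (v : V) (X : List α) :
    D.T v X = D.act v (D.φ X) +
      (D.act (D.nu2 (X.take D.p0)) (D.φ (X.drop D.p0)) + D.nu1 (X.drop D.p0)) := by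
  unfold Dat.T
  conv_rhs => rw [← List.take_append_drop D.p0 X]
  rw [hadd, ← hmul, ← hφ, List.take_append_drop, add_assoc]

theorem LP1_len {P : List α} {v : V} (hP : D.LP1 P v) : P.length ≤ D.p0 + D.N1 := hP.2.1

theorem LP2_len (h : D.Ok) {P : List α} {v : V} (hP : D.LP2 P v) : P.length ≤ D.p0 := by
  obtain ⟨k, hk, h1, -⟩ := hP
  rw [h1]
  exact h.hcp k hk

end Crest.Agent.R320.Inst_183
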