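import Crest.Agent.R320.Asm_505
import Crest.Agent.R320.FewVal_228
import Crest.Agent.R320.ExactR_237

/-!
# Row 320: instance of the two-level block form (helper190)

Left-looking walls, block end = the wall after the first wall at a place `≥ zz`.
-/

set_option autoImplicit false

namespace Crest.Agent.R320.Inst_190

open Crest.RegLang Crest.Agent.R320.Hk_851 Crest.Agent.R320.Asm_505 Crest.Agent.R320.FewWalls_228

universe u

variable {α : Type u}

/-- left-looking wall at `t`: the `n` letters before `t` are in `S` -/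
def wl (n : ℕ) (S : Set (List α)) (w : List α) (t : ℕ) : Prop := n ≤ t ∧ Wl n S w (t - n)

theorem wl_le {n : ℕ} {S : Set (List α)} {w : List α} {t : ℕ} (h : wl n S w t) : t ≤ w.length := by
  have := h.2.1; have := h.1; omega

theorem wl_pre {n : ℕ} {S : Set (List α)} {P Q : List α} {t : ℕ} (ht : t ≤ P.length) :
    wl n S (P ++ Q) t ↔ wl n S P t := by
  unfold wl Wl
  constructor
  · rintro ⟨h1, h2, h3⟩
    refine ⟨h1, by omega, ?_⟩
    rw [List.drop_append_of_le_length (by omega), List.take_append_of_le_length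
      (by rw [List.length_drop]; omega)] at h3
    exact h3
  · rintro ⟨h1, h2, h3⟩
    refine ⟨h1, by rw [List.length_append]; omega, ?_⟩
    rw [List.drop_append_of_le_length (by omega), List.take_append_of_le_length
      (by rw [List.length_drop]; omega)]
    exact h3

theorem wl_app {n : ℕ} {S : Set (List α)} {P Q : List α} {t : ℕ} (ht : n ≤ t) :
    wl n S (P ++ Q) (P.length + t) ↔ wl n S Q t := by
  unfold wl Wl
  have e : P.length + t - n = P.length + (t - n) := by omega
  rw [e, List.drop_append, List.length_append]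
  have e2 : List.drop (P.length + (t - n)) P = [] := List.drop_eq_nil_of_le (by omega)
  rw [e2, List.nil_append, Nat.add_sub_cancel_left]
  constructor
  · rintro ⟨h1, h2, h3⟩
    exact ⟨ht, by omega, h3⟩
  · rintro ⟨h1, h2, h3⟩
    exact ⟨by omega, by omega, h3⟩

/-- first wall at a place `≥ y` -/
def FW (n : ℕ) (S : Set (List α)) (w : List α) (y t : ℕ) : Prop :=
  y ≤ t ∧ wl n S w t ∧ ∀ t', y ≤ t' → t' < t → ¬ wl n S w t'

theorem FW.le {n : ℕ} {S : Set (List α)} {w : List α} {y t : ℕ} (h : FW n S w y t) :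
    t ≤ w.length := wl_le h.2.1

theorem FW.unique {n : ℕ} {S : Set (List α)} {w : List α} {y t t' : ℕ} (h : FW n S w y t)
    (h' : FW n S w y t') : t = t' := by
  rcases lt_trichotomy t t' with h1 | h1 | h1
  · exact absurd h.2.1 (h'.2.2 t h.1 h1)
  · exact h1
  · exact absurd h'.2.1 (h.2.2 t' h'.1 h1)

theorem FW.pre {n : ℕ} {S : Set (List α)} {P Q : List α} {y t : ℕ} (ht : t ≤ P.length) :
    FW n S (P ++ Q) y t ↔ FW n S P y t := by
  constructor
  · rintro ⟨h1, h2, h3⟩
    exact ⟨h1, (wl_pre ht).1 h2, fun t' h4 h5 h6 => h3 t' h4 h5 ((wl_pre (by omega)).2 h6)⟩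
  · rintro ⟨h1, h2, h3⟩
    exact ⟨h1, (wl_pre ht).2 h2, fun t' h4 h5 h6 => h3 t' h4 h5 ((wl_pre (by omega)).1 h6)⟩

theorem FW.app {n : ℕ} {S : Set (List α)} {P Q : List α} {y t : ℕ} (hy : n ≤ y) :
    FW n S (P ++ Q) (P.length + y) (P.length + t) ↔ FW n S Q y t := by
  constructor
  · rintro ⟨h1, h2, h3⟩
    have h1' : y ≤ t := by omega
    refine ⟨h1', (wl_app (by omega)).1 h2, fun t' h4 h5 h6 => ?_⟩
    exact h3 (P.length + t') (by omega) (by omega) ((wl_app (by omega)).2 h6)
  · rintro ⟨h1, h2, h3⟩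
    refine ⟨by omega, (wl_app (by omega)).2 h2, fun t' h4 h5 h6 => ?_⟩
    obtain ⟨s, rfl⟩ : ∃ s, t' = P.length + s := ⟨t' - P.length, by omega⟩
    exact h3 s (by omega) (by omega) ((wl_app (by omega)).1 h6)

/-- shifted form -/
theorem FW.shift {n : ℕ} {S : Set (List α)} {P Q : List α} {y t : ℕ} (hy : P.length + n ≤ y)
    (ht : P.length ≤ t) :
    FW n S (P ++ Q) y t ↔ FW n S Q (y - P.length) (t - P.length) := by
  have h := FW.app (n := n) (S := S) (P := P) (Q := Q) (y := y - P.length) (t := t - P.length)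
    (by omega)
  rwa [show P.length + (y - P.length) = y by omega, show P.length + (t - P.length) = t by omega]
    at h

/-- block seen from `c` letters behind the anchor -/
def Ub (n : ℕ) (S : Set (List α)) (y : ℕ) (Q : List α) : Prop :=
  ∃ t, FW n S Q y t ∧ FW n S Q (t + 1) Q.length

theorem Ub.shift {n : ℕ} {S : Set (List α)} {P Q : List α} {y : ℕ} (hy : P.length + n ≤ y) :
    Ub n S y (P ++ Q) ↔ Ub n S (y - P.length) Q := by
  unfold Ub
  constructor
  · rintro ⟨t, h1, h2⟩
    have ht := h1.1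
    have ht2 := h2.1
    refine ⟨t - P.length, (FW.shift hy (by omega)).1 h1, ?_⟩
    have := (FW.shift (y := t + 1) (t := (P ++ Q).length) (by omega)
      (by rw [List.length_append]; omega)).1 h2
    rwa [show t + 1 - P.length = t - P.length + 1 by omega,
      show (P ++ Q).length - P.length = Q.length by rw [List.length_append]; omega] at this
  · rintro ⟨t, h1, h2⟩
    have ht := h1.1
    refine ⟨P.length + t, (FW.shift hy (by omega)).2 (by rwa [Nat.add_sub_cancel_left]), ?_⟩
    refine (FW.shift (by omega) (by rw [List.length_append]; omega)).2 ?_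
    rw [show P.length + t + 1 - P.length = t + 1 by omega,
      show (P ++ Q).length - P.length = Q.length by rw [List.length_append]; omega]
    exact h2

theorem Ub.unique {n : ℕ} {S : Set (List α)} {y : ℕ} {X X' : List α} (h : Ub n S y X)
    (h' : Ub n S y X') (hp : X <+: X') : X = X' := by
  obtain ⟨Y, rfl⟩ := hp
  obtain ⟨t, h1, h2⟩ := h
  obtain ⟨t', h3, h4⟩ := h'
  have e := ((FW.pre (Q := Y) h1.le).2 h1).unique h3
  subst e
  have e2 := ((FW.pre (Q := Y) le_rfl).2 h2).unique h4
  have : Y.length = 0 := by rw [List.length_append] at e2; omega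
  rw [List.length_eq_zero_iff.1 this, List.append_nil]

theorem FW.later {n : ℕ} {S : Set (List α)} {w : List α} {y y' t : ℕ} (h : FW n S w y t)
    (h1 : y ≤ y') (h2 : y' ≤ t) : FW n S w y' t :=
  ⟨h2, h.2.1, fun t' h3 h4 => h.2.2 t' (by omega) h4⟩

/-- all data of the two schemes on left-looking walls -/
structure Geo (α : Type u) (S V : Type*) [Monoid S] [AddCommGroup V] where
  n : ℕ
  Sw : Set (List α)
  W : ℕ
  sep : ∀ (w : List α) (s t : ℕ), s < t → wl n Sw w s → wl n Sw w t → s + W ≤ t
  ph : List α → S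
  ph_app : ∀ u v, ph (u ++ v) = ph u * ph v
  act : V → S → V
  act_add : ∀ v w s, act (v + w) s = act v s + act w s
  act_mul : ∀ v s t, act (act v s) t = act v (s * t)
  p0 : ℕ
  N1 : ℕ
  zz : ℕ
  hN1 : 0 < N1
  hzz : p0 + N1 + n ≤ zz
  hW : p0 ≤ W
  BT : ℕ → Prop
  lam : List α → Option V
  rho : List α → Option V
  nu1 : List α → V
  h1l : ∀ P v, lam P = some v → P.length < N1
  h1s : ∀ P Q v b, lam P = some v → rho Q = some b → b = act v (ph (P ++ Q)) + nu1 (P ++ Q)
  h1c : ∀ X : List α, ¬ BT X.length → ∀ v, ∃ P Q, P ++ Q = X ∧ lam P = some v ∧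
    (rho Q).isSome
  K : ℕ
  c : ℕ → ℕ
  hc0 : ∀ k < K, 0 < c k
  hc : ∀ k < K, c k ≤ p0
  hp0 : 0 < p0
  lam2 : ℕ → List α → Option V
  rho2 : ℕ → List α → Option V
  nu2 : List α → V
  h2s : ∀ k < K, ∀ P Q v b, P.length = c k → lam2 k P = some v → rho2 k Q = some b →
    b = act v (ph (P ++ Q)) + nu2 (P ++ Q)
  R : ℕ
  h2c : ∀ (u : List α) v, u.length = p0 → ∃ I : Finset ℕ, R ≤ I.card ∧ ∀ k ∈ I, k < K ∧
    lam2 k (u.take (c k)) = some v ∧ (rho2 k (u.drop (c k))).isSome

variable {S V : Type*} [Monoid S] [AddCommGroup V]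

namespace Geo

variable (D : Geo α S V)

open Classical in
/-- the place of the first wall `≥ zz` -/
noncomputable def tt (z : List α) : ℕ :=
  if h : ∃ t, FW D.n D.Sw z D.zz t then h.choose else 0

theorem tt_eq {z : List α} {t : ℕ} (h : FW D.n D.Sw z D.zz t) : D.tt z = t := by
  unfold tt
  have hex : ∃ t, FW D.n D.Sw z D.zz t := ⟨t, h⟩
  rw [dif_pos hex]
  exact hex.choose_spec.unique h

/-- noise of a block -/
noncomputable def nu (z : List α) : V :=
  D.act (D.nu2 (z.take D.p0)) (D.ph (z.drop D.p0)) +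
    D.act (D.nu1 ((z.take (D.tt z)).drop D.p0)) (D.ph (z.drop (D.tt z)))

/-- token after a block -/
noncomputable def eps (z : List α) (v : V) : V := D.act v (D.ph z) + D.nu z

/-- badness seen `c` letters behind the anchor -/
def Gb (y c : ℕ) (Q : List α) : Prop :=
  ∃ t, FW D.n D.Sw Q y t ∧ ((∃ t', y ≤ t' + D.N1 ∧ t' < y ∧ wl D.n D.Sw Q t') ∨
    t < y + D.N1 ∨ D.BT (t + c - D.p0))

def U : Language α := {X | Ub D.n D.Sw D.zz X}

def B : Language α := {X | Ub D.n D.Sw D.zz X ∧ D.Gb D.zz 0 X}

def P1 (v : V) : Language α :=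
  {P | D.p0 ≤ P.length ∧ D.lam (P.drop D.p0) = some (D.act v (D.ph (P.take D.p0)) +
    D.nu2 (P.take D.p0))}

def R1 (y : V) : Language α :=
  {Q | ∃ t, FW D.n D.Sw Q (D.zz - D.p0 - D.N1) t ∧ D.zz - D.p0 ≤ t ∧
    FW D.n D.Sw Q (t + 1) Q.length ∧ ∃ v', D.rho (Q.take t) = some v' ∧
      y = D.act v' (D.ph (Q.drop t))}

def P2 (v : V) : Language α :=
  {P | ∃ k < D.K, P.length = D.c k ∧ D.lam2 k P = some v}

def R2 (y : V) : Language α :=
  {Q | ∃ k < D.K, (∀ l < D.K, D.Gb (D.zz - D.c l) (D.c l) Q → l = k) ∧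
    ∃ t, FW D.n D.Sw Q (D.zz - D.c k) t ∧ FW D.n D.Sw Q (t + 1) Q.length ∧
      ∃ v', D.rho2 k (Q.take (D.p0 - D.c k)) = some v' ∧
        y = D.act (D.act v' (D.ph ((Q.take t).drop (D.p0 - D.c k))) +
          D.nu1 ((Q.take t).drop (D.p0 - D.c k))) (D.ph (Q.drop t))}

theorem pcU : PC D.U := by
  constructor
  · rintro ⟨t, h1, _⟩
    have h2 := h1.le
    have h3 := h1.1
    have h4 := D.hzz
    have h5 := D.hN1
    simp only [List.length_nil] at h2
    omega
  · intro z hz z' hz' h
    exact Ub.unique hz hz' h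

theorem eq_of_cmp {z w : List α} (hz : z ∈ D.U) (hw : w ∈ D.U) (h : z <+: w ∨ w <+: z) :
    z = w := by
  rcases h with h | h
  · exact Ub.unique hz hw h
  · exact (Ub.unique hw hz h).symm

/-- value formula -/
theorem eps_eq {X1 Y Z : List α} (h1 : X1.length = D.p0) (x : V)
    (ht : FW D.n D.Sw (X1 ++ (Y ++ Z)) D.zz (X1.length + Y.length)) :
    D.eps (X1 ++ (Y ++ Z)) x =
      D.act (D.act (D.act x (D.ph X1) + D.nu2 X1) (D.ph Y) + D.nu1 Y) (D.ph Z) := by
  have e1 : (X1 ++ (Y ++ Z)).take D.p0 = X1 := by rw [← h1, List.take_left]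
  have e2 : (X1 ++ (Y ++ Z)).drop D.p0 = Y ++ Z := by rw [← h1, List.drop_left]
  have e3 : X1 ++ (Y ++ Z) = (X1 ++ Y) ++ Z := by simp
  have e4 : (X1 ++ (Y ++ Z)).take (X1.length + Y.length) = X1 ++ Y := by
    rw [e3, ← List.length_append, List.take_left]
  have e5 : (X1 ++ (Y ++ Z)).drop (X1.length + Y.length) = Z := by
    rw [e3, ← List.length_append, List.drop_left]
  unfold eps nu
  rw [D.tt_eq ht, e1, e2, e4, e5, ← h1, List.drop_left, D.ph_app, D.ph_app]
  rw [D.act_add, D.act_mul, D.act_add, D.act_mul]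
  rw [add_assoc]

theorem sound1 {x y : V} {p q : List α} (hp : p ∈ D.P1 x) (hq : q ∈ D.R1 y) :
    p ++ q ∈ D.U ∧ D.eps (p ++ q) x = y := by
  obtain ⟨hp1, hp2⟩ := hp
  obtain ⟨t, h1, h2, h3, v', h4, rfl⟩ := hq
  have hl := D.h1l _ _ hp2
  rw [List.length_drop] at hl
  have hzz := D.hzz
  have hF : FW D.n D.Sw (p ++ q) D.zz (p.length + t) := by
    refine (FW.shift (by omega) (by omega)).2 ?_
    rw [Nat.add_sub_cancel_left]
    exact h1.later (by omega) (by omega)
  have htn : D.n ≤ t := h1.2.1.1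
  refine ⟨⟨p.length + t, hF, ?_⟩, ?_⟩
  · rw [List.length_append]
    have := (FW.app (P := p) (show D.n ≤ t + 1 by omega)).2 h3
    rwa [show p.length + (t + 1) = p.length + t + 1 by omega] at this
  · have htq : t ≤ q.length := h1.le
    have e0 : p ++ q = p.take D.p0 ++ ((p.drop D.p0 ++ q.take t) ++ q.drop t) := by
      rw [List.append_assoc, List.take_append_drop, ← List.append_assoc, List.take_append_drop]
    have e1 : (p.take D.p0).length = D.p0 := by rw [List.length_take]; omega
    have e2 : (p.take D.p0).length + (p.drop D.p0 ++ q.take t).length = p.length + t := by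
      rw [List.length_append, List.length_take, List.length_drop, List.length_take]; omega
    rw [e0] at hF
    rw [← e2] at hF
    rw [e0, D.eps_eq e1 x hF, ← D.h1s _ _ _ _ hp2 h4]

theorem level1 : Level D.U D.B D.eps D.P1 D.R1 := by
  constructor
  · rintro x ⟨h, _⟩
    have := D.hp0
    simp at h
    omega
  · intro z hz x y p hp q hq hc
    obtain ⟨h1, h2⟩ := D.sound1 hp hq
    have := D.eq_of_cmp hz h1 hc
    exact ⟨this, by rw [this]; exact h2⟩
  · intro z hz hzB x
    obtain ⟨t, h1, h2⟩ := hz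
    have hzz := D.hzz
    have hG : ¬ D.Gb D.zz 0 z := fun h => hzB ⟨⟨t, h1, h2⟩, h⟩
    have hG' : ¬ ((∃ t', D.zz ≤ t' + D.N1 ∧ t' < D.zz ∧ wl D.n D.Sw z t') ∨
      t < D.zz + D.N1 ∨ D.BT (t + 0 - D.p0)) := fun h => hG ⟨t, h1, h⟩
    push Not at hG'
    obtain ⟨g1, g2, g3⟩ := hG'
    have ht1 := h1.1
    have ht2 := h1.le
    set Y := (z.take t).drop D.p0 with hY
    have hYl : Y.length = t - D.p0 := by rw [hY, List.length_drop, List.length_take]; omega
    obtain ⟨P', Q', hPQ, hl, hr⟩ := D.h1c Y (by rw [hYl]; simpa using g3)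
      (D.act x (D.ph (z.take D.p0)) + D.nu2 (z.take D.p0))
    have hlen := D.h1l _ _ hl
    have hX1 : (z.take D.p0).length = D.p0 := by rw [List.length_take]; omega
    have ez : z = (z.take D.p0 ++ P') ++ (Q' ++ z.drop t) := by
      have : z.take D.p0 ++ Y ++ z.drop t = z := by
        rw [hY]
        have e : z.take D.p0 = (z.take t).take D.p0 := by
          rw [List.take_take, min_eq_left (by omega)]
        rw [e, List.take_append_drop, List.take_append_drop]
      rw [← hPQ] at this
      simpa using this.symm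
    have hPl : (z.take D.p0 ++ P').length = D.p0 + P'.length := by
      rw [List.length_append, hX1]
    have hQl : Q'.length = t - (D.p0 + P'.length) := by
      have := congrArg List.length hPQ
      rw [List.length_append, hYl] at this
      omega
    obtain ⟨v', hv'⟩ := Option.isSome_iff_exists.1 hr
    set p := z.take D.p0 ++ P' with hp
    set q := Q' ++ z.drop t with hq
    have hpP : p ∈ D.P1 x := by
      refine ⟨by omega, ?_⟩
      rw [hp, List.drop_append_of_le_length (by omega), List.take_append_of_le_length (by omega)]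
      rw [List.drop_eq_nil_of_le (by omega), List.nil_append, List.take_take, min_self]
      exact hl
    rw [ez] at h1 h2
    have f1 := (FW.shift (by omega) (by omega)).1 h1
    have hzl : z.length = p.length + q.length := by
      have := congrArg List.length ez
      rwa [List.length_append] at this
    have f2 := (FW.shift (by omega) (by
      have := h2.1
      have := h2.1
      rw [List.length_append]; omega)).1 h2
    have hqR : q ∈ D.R1 (D.act v' (D.ph (q.drop (t - p.length)))) := by
      refine ⟨t - p.length, ?_, by omega, ?_, v', ?_, rfl⟩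
      · refine ⟨by omega, f1.2.1, fun t' h3 h4 h5 => ?_⟩
        rcases lt_or_ge t' (D.zz - p.length) with h6 | h6
        · refine g1 (p.length + t') (by omega) (by omega) ?_
          rw [ez]
          exact (wl_app h5.1).2 h5
        · exact f1.2.2 t' h6 h4 h5
      · rw [show t - p.length + 1 = t + 1 - p.length by omega]
        rwa [show (p ++ q).length - p.length = q.length by rw [List.length_append]; omega] at f2
      · rw [hq, List.take_append_of_le_length (by omega), List.take_of_length_le (by omega)]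
        exact hv'
    obtain ⟨s1, s2⟩ := D.sound1 hpP hqR
    refine ⟨p, hpP, q, ?_, ez⟩
    rw [ez, s2]
    exact hqR

theorem Gb_mono {y c : ℕ} {P Q : List α} (h : D.Gb y c P) : D.Gb y c (P ++ Q) := by
  obtain ⟨t, h1, h2⟩ := h
  have h3 := h1.le
  refine ⟨t, (FW.pre h3).2 h1, ?_⟩
  rcases h2 with ⟨t', h4, h5, h6⟩ | h2 | h2
  · exact Or.inl ⟨t', h4, h5, (wl_pre (wl_le h6)).2 h6⟩
  · exact Or.inr (Or.inl h2)
  · exact Or.inr (Or.inr h2)

theorem Gb_of_pre {y c t : ℕ} {P Q : List α} (ht : FW D.n D.Sw (P ++ Q) y t)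
    (htP : t ≤ P.length) (h : D.Gb y c (P ++ Q)) : D.Gb y c P := by
  obtain ⟨t0, h1, h2⟩ := h
  have := h1.unique ht
  subst this
  have hy := h1.1
  refine ⟨t0, (FW.pre htP).1 h1, ?_⟩
  rcases h2 with ⟨t', h4, h5, h6⟩ | h2 | h2
  · exact Or.inl ⟨t', h4, h5, (wl_pre (by omega)).1 h6⟩
  · exact Or.inr (Or.inl h2)
  · exact Or.inr (Or.inr h2)

theorem Gb_shift {y c : ℕ} {P Q : List α} (hP : P.length = c) (hy : c + D.N1 + D.n ≤ y) :
    D.Gb y 0 (P ++ Q) ↔ D.Gb (y - c) c Q := by
  subst hP
  constructor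
  · rintro ⟨t, h1, h2⟩
    have hyt := h1.1
    refine ⟨t - P.length, (FW.shift (by omega) (by omega)).1 h1, ?_⟩
    rcases h2 with ⟨t', h4, h5, h6⟩ | h2 | h2
    · refine Or.inl ⟨t' - P.length, by omega, by omega, ?_⟩
      have := (wl_app (n := D.n) (S := D.Sw) (P := P) (Q := Q) (t := t' - P.length) (by omega)).1
      rw [show P.length + (t' - P.length) = t' by omega] at this
      exact this h6
    · exact Or.inr (Or.inl (by omega))
    · refine Or.inr (Or.inr ?_)
      rwa [show t - P.length + P.length - D.p0 = t + 0 - D.p0 by omega]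
  · rintro ⟨t, h1, h2⟩
    have hyt := h1.1
    refine ⟨P.length + t, (FW.shift (by omega) (by omega)).2
      (by rwa [Nat.add_sub_cancel_left]), ?_⟩
    rcases h2 with ⟨t', h4, h5, h6⟩ | h2 | h2
    · exact Or.inl ⟨P.length + t', by omega, by omega, (wl_app h6.1).2 h6⟩
    · exact Or.inr (Or.inl (by omega))
    · refine Or.inr (Or.inr ?_)
      rwa [show P.length + t + 0 - D.p0 = t + P.length - D.p0 by omega]

theorem sound2 {x y : V} {p q z : List α} (hz : z ∈ D.B) (hp : p ∈ D.P2 x) (hq : q ∈ D.R2 y)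
    (hc : z <+: p ++ q ∨ p ++ q <+: z) : z = p ++ q ∧ D.eps z x = y := by
  obtain ⟨k, hk, hpk, hl2⟩ := hp
  obtain ⟨l, hl, huniq, t, h1, h2, v', h4, hy⟩ := hq
  obtain ⟨⟨t0, z1, z2⟩, z3⟩ := hz
  have hzz := D.hzz
  have hck := D.hc k hk
  have hcl := D.hc l hl
  have hW := D.hW
  have hwt := h1.2.1
  have hG : D.Gb D.zz 0 (p ++ q) := by
    rcases hc with ⟨Y, hY⟩ | ⟨Y, hY⟩
    · rw [← hY]; exact D.Gb_mono z3
    · rw [← hY] at z1 z3
      have hs := D.sep q t q.length (by have := h2.1; omega) hwt h2.2.1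
      have hw : wl D.n D.Sw ((p ++ q) ++ Y) (p.length + q.length) := by
        refine (wl_pre (by rw [List.length_append])).2 ?_
        exact (wl_app (h2.2.1.1)).2 h2.2.1
      have htl := h1.1
      have : t0 ≤ p.length + q.length := by
        by_contra hcon
        exact z1.2.2 _ (by omega) (by omega) hw
      exact D.Gb_of_pre z1 (by rw [List.length_append]; exact this) z3
  have hGk := (D.Gb_shift hpk (by omega)).1 hG
  have hkl := huniq k hk hGk
  subst hkl
  have htn : D.n ≤ t := hwt.1
  have hF : FW D.n D.Sw (p ++ q) D.zz (p.length + t) := by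
    refine (FW.shift (by omega) (by omega)).2 ?_
    rw [Nat.add_sub_cancel_left, hpk]
    exact h1
  have hU : p ++ q ∈ D.U := by
    refine ⟨p.length + t, hF, ?_⟩
    rw [List.length_append]
    have := (FW.app (P := p) (show D.n ≤ t + 1 by omega)).2 h2
    rwa [show p.length + (t + 1) = p.length + t + 1 by omega] at this
  have hzU : z ∈ D.U := ⟨t0, z1, z2⟩
  have hzeq := D.eq_of_cmp hzU hU hc
  refine ⟨hzeq, ?_⟩
  rw [hzeq, hy]
  have htq : t ≤ q.length := h1.le
  have htz := h1.1
  have hd : D.p0 - D.c k ≤ t := by omega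
  have e0 : p ++ q = (p ++ q.take (D.p0 - D.c k)) ++
      ((q.take t).drop (D.p0 - D.c k) ++ q.drop t) := by
    have e : q.take (D.p0 - D.c k) = (q.take t).take (D.p0 - D.c k) := by
      rw [List.take_take, min_eq_left hd]
    rw [e, List.append_assoc, ← List.append_assoc (List.take _ _), List.take_append_drop,
      List.take_append_drop]
  have e1 : (p ++ q.take (D.p0 - D.c k)).length = D.p0 := by
    rw [List.length_append, List.length_take]; omega
  have e2 : (p ++ q.take (D.p0 - D.c k)).length + ((q.take t).drop (D.p0 - D.c k)).length =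
      p.length + t := by
    rw [List.length_append, List.length_take, List.length_drop, List.length_take]; omega
  rw [e0] at hF
  rw [← e2] at hF
  rw [e0, D.eps_eq e1 x hF, ← D.h2s k hk _ _ _ _ hpk hl2 h4]

open Classical in
/-- the spoiling bound of the ruler -/
def Spoil : Prop := ∀ z ∈ D.B, ((Finset.range D.K).filter (fun k => ∃ l < D.K, l ≠ k ∧
  D.Gb (D.zz - D.c l) (D.c l) (z.drop (D.c k)))).card < D.R

theorem level2 (hsp : D.Spoil) : Level D.B 0 D.eps D.P2 D.R2 := by
  classical
  constructor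
  · rintro x ⟨k, hk, h, _⟩
    have := D.hc0 k hk
    simp at h
    omega
  · intro z hz x y p hp q hq hc
    exact D.sound2 hz hp hq hc
  · intro z hz _ x
    have hzz := D.hzz
    obtain ⟨⟨t, h1, h2⟩, h3⟩ := hz
    have ht1 := h1.1
    have ht2 := h1.le
    obtain ⟨I, hI1, hI2⟩ := D.h2c (z.take D.p0) x (by rw [List.length_take]; omega)
    have hS := hsp z ⟨⟨t, h1, h2⟩, h3⟩
    obtain ⟨k, hkI, hkS⟩ := Finset.exists_mem_notMem_of_card_lt_card (lt_of_lt_of_le hS hI1)
    obtain ⟨hk, hl, hr⟩ := hI2 k hkI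
    have hck := D.hc k hk
    have hdet : ∀ l < D.K, D.Gb (D.zz - D.c l) (D.c l) (z.drop (D.c k)) → l = k := by
      intro l hl' hG
      by_contra hne
      exact hkS (Finset.mem_filter.2 ⟨Finset.mem_range.2 hk, l, hl', hne, hG⟩)
    obtain ⟨v', hv'⟩ := Option.isSome_iff_exists.1 hr
    have hpl : (z.take (D.c k)).length = D.c k := by rw [List.length_take]; omega
    have ez : z = z.take (D.c k) ++ z.drop (D.c k) := (List.take_append_drop _ _).symm
    set p := z.take (D.c k) with hp
    set q := z.drop (D.c k) with hq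
    have hpP : p ∈ D.P2 x := by
      refine ⟨k, hk, hpl, ?_⟩
      rw [List.take_take, min_eq_left hck] at hl
      exact hl
    have hqR : q ∈ D.R2 (D.act (D.act v' (D.ph ((q.take (t - p.length)).drop (D.p0 - D.c k))) +
          D.nu1 ((q.take (t - p.length)).drop (D.p0 - D.c k))) (D.ph (q.drop (t - p.length)))) := by
      rw [ez] at h1 h2
      have f1 := (FW.shift (by omega) (by omega)).1 h1
      have hqlen : q.length = z.length - D.c k := by rw [hq, List.length_drop]
      have f2 := (FW.shift (by omega) (by rw [List.length_append]; omega)).1 h2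
      refine ⟨k, hk, hdet, t - p.length, ?_, ?_, v', ?_, rfl⟩
      · rw [hpl] at f1 ⊢; exact f1
      · rw [show t - p.length + 1 = t + 1 - p.length by omega]
        rwa [show (p ++ q).length - p.length = q.length by rw [List.length_append]; omega] at f2
      · rw [← hv']
        congr 1
        rw [hq, List.drop_take]
    have hzB : z ∈ D.B := ⟨⟨t, h1, h2⟩, h3⟩
    have hs := D.sound2 hzB hpP hqR (Or.inl ⟨[], by rw [List.append_nil]; exact ez⟩)
    refine ⟨p, hpP, q, ?_, ez⟩
    rw [hs.2]
    exact hqR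

end Geo

end Crest.Agent.R320.Inst_190
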