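import Mathlib

/-!
# Row 320: the combinatorial instance of the two-scheme top theorem on ALL words (helper195)

Natural chain rule (`N(a)` = first wall at distance `≥ z`), left-looking walls, prefix code `XX` of
zones.  Scheme 1 = any gadget which is exact for all pairs and complete off a thin set of lengths.
Scheme 2 = exact gadget with a ruler, used on the promise that the zone is not cut by scheme 1.
-/

set_option autoImplicit false
set_option linter.unusedVariables false

namespace Crest.Agent.R320.Inst_195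

variable {α S V : Type*}

/-- zones -/
def XX (Wo : List α → Prop) (z : ℕ) : Set (List α) :=
  {X | z ≤ X.length ∧ Wo X ∧ ∀ t, z ≤ t → t < X.length → ¬ Wo (X.take t)}

structure Walls (Wo : List α → Prop) (n W : ℕ) : Prop where
  loc : ∀ P Q, n ≤ Q.length → (Wo (P ++ Q) ↔ Wo Q)
  len : ∀ P, Wo P → n ≤ P.length
  gap : ∀ P Q, Wo P → Wo (P ++ Q) → Q ≠ [] → W < Q.length

theorem XX_nil {Wo : List α → Prop} {z : ℕ} (hz : 0 < z) : [] ∉ XX Wo z := by
  rintro ⟨h, -⟩
  simp at h
  omega

theorem XX_pc {Wo : List α → Prop} {z : ℕ} :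
    ∀ X ∈ XX Wo z, ∀ Y, X ++ Y ∈ XX Wo z → Y = [] := by
  rintro X ⟨h1, h2, h3⟩ Y ⟨h4, h5, h6⟩
  by_contra hY
  have hl : 0 < Y.length := List.length_pos_iff.2 hY
  refine h6 X.length h1 (by rw [List.length_append]; omega) ?_
  rw [List.take_left']
  · exact h2
  · rfl

/-- first wall at or after `z` gives a zone -/
theorem exists_zone {Wo : List α → Prop} {z : ℕ} {U : List α}
    (h : ∃ t, z ≤ t ∧ t ≤ U.length ∧ Wo (U.take t)) :
    ∃ t, z ≤ t ∧ t ≤ U.length ∧ Wo (U.take t) ∧ (∀ s, z ≤ s → s < t → ¬ Wo (U.take s)) := by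
  classical
  obtain ⟨h1, h2, h3⟩ := Nat.find_spec h
  refine ⟨Nat.find h, h1, h2, h3, fun s hs1 hs2 hs3 => ?_⟩
  exact Nat.find_min h hs2 ⟨hs1, by omega, hs3⟩

theorem take_mem_XX {Wo : List α → Prop} {z : ℕ} {U : List α} {t : ℕ} (h1 : z ≤ t)
    (h2 : t ≤ U.length) (h3 : Wo (U.take t)) (h4 : ∀ s, z ≤ s → s < t → ¬ Wo (U.take s)) :
    U.take t ∈ XX Wo z := by
  have hl : (U.take t).length = t := by rw [List.length_take]; omega
  refine ⟨by omega, h3, fun s hs1 hs2 => ?_⟩
  rw [hl] at hs2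
  rw [List.take_take, Nat.min_eq_left (by omega)]
  exact h4 s hs1 hs2

section data

variable [Monoid S] [AddCommGroup V]

/-- the zone map -/
def T (φ : List α → S) (act : V → S → V) (nu1 nu2 : List α → V) (p0 : ℕ) (v : V) (X : List α) : V :=
  act (act v (φ (X.take p0)) + nu2 (X.take p0)) (φ (X.drop p0)) + nu1 (X.drop p0)

theorem T_affine {φ : List α → S} (hφ : ∀ u v, φ (u ++ v) = φ u * φ v) {act : V → S → V}
    (act_mul : ∀ v s s', act (act v s) s' = act v (s * s'))
    (act_add : ∀ v w s, act (v + w) s = act v s + act w s) (nu1 nu2 : List α → V) (p0 : ℕ)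
    (v : V) (X : List α) :
    T φ act nu1 nu2 p0 v X =
      act v (φ X) + (act (nu2 (X.take p0)) (φ (X.drop p0)) + nu1 (X.drop p0)) := by
  have : φ X = φ (X.take p0) * φ (X.drop p0) := by rw [← hφ, List.take_append_drop]
  unfold T
  rw [act_add, act_mul, this, add_assoc]

/-- left legality of scheme 1 -/
def LP1 (φ : List α → S) (act : V → S → V) (nu2 : List α → V) (lam1 : List α → Option V) (p0 : ℕ)
    (P : List α) (v : V) : Prop :=
  p0 ≤ P.length ∧ lam1 (P.drop p0) = some (act v (φ (P.take p0)) + nu2 (P.take p0))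

/-- right legality of scheme 1 -/
def RR1 (Wo : List α → Prop) (z p0 N1 : ℕ) (Q : List α) : Prop :=
  z ≤ Q.length + p0 ∧ Wo Q ∧ ∀ t, z ≤ t + p0 + N1 → t < Q.length → ¬ Wo (Q.take t)

open Classical in
noncomputable def R1 (Wo : List α → Prop) (z p0 N1 : ℕ) (rho1 : List α → Option V) (Q : List α) :
    Option V := if RR1 Wo z p0 N1 Q then rho1 Q else none

theorem R1_some {Wo : List α → Prop} {z p0 N1 : ℕ} {rho1 : List α → Option V} {Q : List α} {b : V}
    (h : R1 Wo z p0 N1 rho1 Q = some b) : RR1 Wo z p0 N1 Q ∧ rho1 Q = some b := by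
  unfold R1 at h
  split_ifs at h with h1
  exact ⟨h1, h⟩

theorem R1_eq {Wo : List α → Prop} {z p0 N1 : ℕ} {rho1 : List α → Option V} {Q : List α}
    (h : RR1 Wo z p0 N1 Q) : R1 Wo z p0 N1 rho1 Q = rho1 Q := by
  unfold R1
  rw [if_pos h]

/-- **(s1)** -/
theorem s1 {Wo : List α → Prop} {n W z p0 N1 : ℕ} (hW : Walls Wo n W)
    (hz : p0 + N1 + n ≤ z) {φ : List α → S} (hφ : ∀ u v, φ (u ++ v) = φ u * φ v) {act : V → S → V}
    {nu1 nu2 : List α → V} {lam1 rho1 : List α → Option V}
    (g1 : ∀ P v, lam1 P = some v → P.length < N1)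
    (g2 : ∀ P Q v b, lam1 P = some v → rho1 Q = some b → b = act v (φ (P ++ Q)) + nu1 (P ++ Q)) :
    ∀ P v Q b, LP1 φ act nu2 lam1 p0 P v → R1 Wo z p0 N1 rho1 Q = some b →
      P ++ Q ∈ XX Wo z ∧ T φ act nu1 nu2 p0 v (P ++ Q) = b := by
  rintro P v Q b ⟨hp, hl⟩ hR
  obtain ⟨⟨r1, r2, r3⟩, hr⟩ := R1_some hR
  have hlen := g1 _ _ hl
  rw [List.length_drop] at hlen
  have hnQ := hW.len Q r2
  constructor
  · refine ⟨by rw [List.length_append]; omega, (hW.loc P Q hnQ).2 r2, fun t ht1 ht2 hw => ?_⟩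
    rw [List.length_append] at ht2
    have hPt : P.length ≤ t := by omega
    obtain ⟨s, rfl⟩ := Nat.exists_eq_add_of_le hPt
    rw [List.take_length_add_append] at hw
    have hns : n ≤ (Q.take s).length := by rw [List.length_take]; omega
    exact r3 s (by omega) (by omega) ((hW.loc P _ hns).1 hw)
  · unfold T
    rw [List.take_append_of_le_length hp, List.drop_append_of_le_length hp]
    exact (g2 _ _ _ _ hl hr).symm

/-- the first wall seen from a candidate anchor `ck` letters to the left -/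
def End (Wo : List α → Prop) (z ck : ℕ) (Q : List α) (t : ℕ) : Prop :=
  z ≤ t + ck ∧ t ≤ Q.length ∧ Wo (Q.take t) ∧ ∀ s, z ≤ s + ck → s < t → ¬ Wo (Q.take s)

/-- the candidate anchor is bad -/
def CB (Wo : List α → Prop) (z p0 N1 : ℕ) (Bad : ℤ → Prop) (ck : ℕ) (Q : List α) : Prop :=
  (∃ s, s ≤ Q.length ∧ Wo (Q.take s) ∧ z ≤ s + ck + N1 ∧ s + ck < z + N1) ∨
    ∃ t, End Wo z ck Q t ∧ Bad ((t : ℤ) + ck - p0)

/-- bad zone -/
def BadX (Wo : List α → Prop) (z p0 N1 : ℕ) (Bad : ℤ → Prop) (X : List α) : Prop :=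
  (∃ s, s ≤ X.length ∧ Wo (X.take s) ∧ z ≤ s + N1 ∧ s < z + N1) ∨ Bad ((X.length : ℤ) - p0)

/-- completeness of scheme 1 in a zone which is not bad -/
theorem complete1 {Wo : List α → Prop} {n W z p0 N1 N2 : ℕ} (hW : Walls Wo n W)
    (hz : p0 + N1 + n ≤ z) (hz2 : p0 + N2 ≤ z) {φ : List α → S} {act : V → S → V}
    {nu2 : List α → V} {lam1 rho1 : List α → Option V} {Bad : ℤ → Prop}
    (g1 : ∀ P v, lam1 P = some v → P.length < N1)
    (g3 : ∀ Y : List α, N2 ≤ Y.length → ¬ Bad (Y.length : ℤ) → ∀ v, ∃ P Q, Y = P ++ Q ∧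
      lam1 P = some v ∧ (rho1 Q).isSome)
    {X : List α} (hX : X ∈ XX Wo z) (hb : ¬ BadX Wo z p0 N1 Bad X) (v : V) :
    ∃ P Q, X = P ++ Q ∧ p0 ≤ P.length ∧ LP1 φ act nu2 lam1 p0 P v ∧
      (R1 Wo z p0 N1 rho1 Q).isSome := by
  obtain ⟨h1, h2, h3⟩ := hX
  unfold BadX at hb
  push Not at hb
  obtain ⟨b1, b2⟩ := hb
  have hYl : (X.drop p0).length = X.length - p0 := List.length_drop
  obtain ⟨P1, Q1, hY, hl, hr⟩ := g3 (X.drop p0) (by rw [hYl]; omega)
    (by rw [hYl]; rwa [Nat.cast_sub (by omega)]) (act v (φ (X.take p0)) + nu2 (X.take p0))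
  have hP1 := g1 _ _ hl
  have hXe : X = (X.take p0 ++ P1) ++ Q1 := by
    rw [List.append_assoc, ← hY, List.take_append_drop]
  have htl : (X.take p0).length = p0 := by rw [List.length_take]; omega
  have hlen : X.length = p0 + P1.length + Q1.length := by
    conv_lhs => rw [hXe]
    rw [List.length_append, List.length_append, htl]
  have hXN : z + N1 ≤ X.length := by
    by_contra hlt
    have := b1 X.length le_rfl (by rwa [List.take_length]) (by omega)
    omega
  have htake : ∀ t, X.take (p0 + P1.length + t) = (X.take p0 ++ P1) ++ Q1.take t := by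
    intro t
    conv_lhs => rw [hXe]
    have : p0 + P1.length + t = (X.take p0 ++ P1).length + t := by
      rw [List.length_append, htl]
    rw [this, List.take_length_add_append]
  refine ⟨X.take p0 ++ P1, Q1, hXe, by rw [List.length_append, htl]; omega, ⟨?_, ?_⟩, ?_⟩
  · rw [List.length_append, htl]; omega
  · rw [List.drop_left' htl, List.take_left' htl]
    exact hl
  · rw [R1_eq]
    · exact hr
    · refine ⟨by omega, ?_, ?_⟩
      · rw [hXe] at h2
        exact (hW.loc _ Q1 (by omega)).1 h2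
      · intro t ht1 ht2 hw
        have hw' : Wo (X.take (p0 + P1.length + t)) := by
          rw [htake]
          refine (hW.loc _ _ ?_).2 hw
          exact hW.len _ hw
        by_cases hc : p0 + P1.length + t < z + N1
        · have := b1 (p0 + P1.length + t) (by omega) hw' (by omega)
          omega
        · exact h3 _ (by omega) (by omega) hw'

/-- left legality of scheme 2 -/
def LP2 (K : ℕ) (c : ℕ → ℕ) (lam2 : ℕ → List α → Option V) (P : List α) (v : V) : Prop :=
  ∃ k, k < K ∧ P.length = c k ∧ lam2 k P = some v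

/-- right legality of scheme 2 -/
def RR2 (Wo : List α → Prop) (z p0 N1 : ℕ) (Bad : ℤ → Prop) (φ : List α → S) (act : V → S → V)
    (nu1 nu2 : List α → V) (K : ℕ) (c : ℕ → ℕ) (rho2 : ℕ → List α → Option V) (Q : List α)
    (k t : ℕ) (r b : V) : Prop :=
  k < K ∧ CB Wo z p0 N1 Bad (c k) Q ∧ (∀ k', k' < K → k' ≠ k → ¬ CB Wo z p0 N1 Bad (c k') Q) ∧
    End Wo z (c k) Q t ∧ Q.drop t ∈ XX Wo z ∧ rho2 k (Q.take (p0 - c k)) = some r ∧
    b = T φ act nu1 nu2 p0 (act r (φ ((Q.take t).drop (p0 - c k))) +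
      nu1 ((Q.take t).drop (p0 - c k))) (Q.drop t)

open Classical in
noncomputable def R2 (Wo : List α → Prop) (z p0 N1 : ℕ) (Bad : ℤ → Prop) (φ : List α → S)
    (act : V → S → V) (nu1 nu2 : List α → V) (K : ℕ) (c : ℕ → ℕ)
    (rho2 : ℕ → List α → Option V) (Q : List α) : Option V :=
  if h : ∃ b k t r, RR2 Wo z p0 N1 Bad φ act nu1 nu2 K c rho2 Q k t r b then some h.choose else none

theorem zone_of_end {Wo : List α → Prop} {n W z p0 N1 ck : ℕ} (hW : Walls Wo n W)
    (hz : p0 + N1 + n ≤ z) (hck : ck < p0) {P Q : List α} (hP : P.length = ck) {t : ℕ}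
    (h : End Wo z ck Q t) : P ++ Q.take t ∈ XX Wo z := by
  obtain ⟨e1, e2, e3, e4⟩ := h
  have htl : (Q.take t).length = t := by rw [List.length_take]; omega
  refine ⟨by rw [List.length_append]; omega, (hW.loc _ _ (hW.len _ e3)).2 e3, fun s hs1 hs2 hw => ?_⟩
  rw [List.length_append, htl] at hs2
  obtain ⟨s', rfl⟩ := Nat.exists_eq_add_of_le (show P.length ≤ s by omega)
  rw [List.take_length_add_append, List.take_take, Nat.min_eq_left (by omega)] at hw
  have hl : n ≤ (Q.take s').length := by rw [List.length_take]; omega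
  exact e4 s' (by omega) (by omega) ((hW.loc _ _ hl).1 hw)

/-- **(s2)** -/
theorem s2 {Wo : List α → Prop} {n W z p0 N1 N2 : ℕ} (hW : Walls Wo n W)
    (hz : p0 + N1 + n ≤ z) (hz2 : p0 + N2 ≤ z) {φ : List α → S} {act : V → S → V}
    {nu1 nu2 : List α → V} {lam1 rho1 : List α → Option V} {Bad : ℤ → Prop}
    (g1 : ∀ P v, lam1 P = some v → P.length < N1)
    (g3 : ∀ Y : List α, N2 ≤ Y.length → ¬ Bad (Y.length : ℤ) → ∀ v, ∃ P Q, Y = P ++ Q ∧
      lam1 P = some v ∧ (rho1 Q).isSome)
    {K : ℕ} {c : ℕ → ℕ} (hc : ∀ k, k < K → c k < p0) {lam2 rho2 : ℕ → List α → Option V}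
    (e1 : ∀ k, k < K → ∀ P Q v b, P.length = c k → lam2 k P = some v → rho2 k Q = some b →
      b = act v (φ (P ++ Q)) + nu2 (P ++ Q)) :
    ∀ P v Q b, LP2 K c lam2 P v → R2 Wo z p0 N1 Bad φ act nu1 nu2 K c rho2 Q = some b →
      (∀ X ∈ XX Wo z, X <+: P ++ Q → ∀ P' Q', X = P' ++ Q' → P.length ≤ P'.length →
        LP1 φ act nu2 lam1 p0 P' v → (R1 Wo z p0 N1 rho1 Q').isSome → False) →
      ∃ Q1 X2, Q = Q1 ++ X2 ∧ Q1 ≠ [] ∧ P ++ Q1 ∈ XX Wo z ∧ X2 ∈ XX Wo z ∧
        T φ act nu1 nu2 p0 (T φ act nu1 nu2 p0 v (P ++ Q1)) X2 = b := by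
  rintro P v Q b ⟨k0, hk0, hPl, hlam⟩ hR hlive
  unfold R2 at hR
  split_ifs at hR with hex
  obtain ⟨k, t, r, hk, hCB, huniq, hEnd, hX2, hrho, hb⟩ := hex.choose_spec
  rw [Option.some.injEq] at hR
  rw [hR] at hb
  have hc0 := hc k0 hk0
  have hck := hc k hk
  -- the true end
  have hQl : (Q.drop t).length = Q.length - t := List.length_drop
  have hWoQ : Wo Q := by
    have h := (hW.loc (Q.take t) (Q.drop t) (hW.len _ hX2.2.1)).2 hX2.2.1
    rwa [List.take_append_drop] at h
  have hQz : z ≤ Q.length := by have := hX2.1; omega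
  classical
  have hex0 : ∃ t0, z ≤ t0 + c k0 ∧ t0 ≤ Q.length ∧ Wo (Q.take t0) :=
    ⟨Q.length, by omega, le_rfl, by rwa [List.take_length]⟩
  obtain ⟨a1, a2, a3⟩ := Nat.find_spec hex0
  have hEnd0 : End Wo z (c k0) Q (Nat.find hex0) := by
    refine ⟨a1, a2, a3, fun s hs1 hs2 hs3 => ?_⟩
    exact Nat.find_min hex0 hs2 ⟨hs1, by omega, hs3⟩
  set t0 := Nat.find hex0 with ht0
  have hZ0 : P ++ Q.take t0 ∈ XX Wo z := zone_of_end hW hz hc0 hPl hEnd0
  have hbad0 : CB Wo z p0 N1 Bad (c k0) Q := by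
    by_contra hnb
    have hnX : ¬ BadX Wo z p0 N1 Bad (P ++ Q.take t0) := by
      rintro (⟨s, s1, s2, s3, s4⟩ | hB)
      · apply hnb
        left
        rw [List.length_append, List.length_take] at s1
        obtain ⟨s', rfl⟩ := Nat.exists_eq_add_of_le (show P.length ≤ s by omega)
        rw [List.take_length_add_append, List.take_take, Nat.min_eq_left (by omega)] at s2
        have hl : n ≤ (Q.take s').length := by rw [List.length_take]; omega
        exact ⟨s', by omega, (hW.loc _ _ hl).1 s2, by omega, by omega⟩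
      · apply hnb
        right
        refine ⟨t0, hEnd0, ?_⟩
        rw [List.length_append, List.length_take, Nat.min_eq_left a2, hPl] at hB
        push_cast at hB
        rwa [add_comm (t0 : ℤ)]
    obtain ⟨P', Q', he, hp, hL, hRs⟩ := complete1 (act := act) (φ := φ) (nu2 := nu2) hW hz hz2 g1 g3
      hZ0 hnX v
    refine hlive _ hZ0 ?_ P' Q' he (by omega) hL hRs
    exact (List.prefix_append_right_inj P).2 (List.take_prefix _ _)
  have hkk : k0 = k := by
    by_contra hne
    exact huniq k0 hk0 hne hbad0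
  subst hkk
  have hZ : P ++ Q.take t ∈ XX Wo z := zone_of_end hW hz hck hPl hEnd
  obtain ⟨e1', e2', e3', e4'⟩ := hEnd
  have htl : (Q.take t).length = t := by rw [List.length_take]; omega
  refine ⟨Q.take t, Q.drop t, (List.take_append_drop _ _).symm, ?_, hZ, hX2, ?_⟩
  · intro h0
    rw [h0] at htl
    simp at htl
    omega
  · rw [hb]
    congr 1
    have h1 : (P ++ Q.take t).take p0 = P ++ Q.take (p0 - c k0) := by
      rw [List.take_append, List.take_of_length_le (by omega), hPl, List.take_take,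
        Nat.min_eq_left (by omega)]
    have h2 : (P ++ Q.take t).drop p0 = (Q.take t).drop (p0 - c k0) := by
      rw [List.drop_append, List.drop_of_length_le (by omega), hPl, List.nil_append]
    unfold T
    rw [h1, h2, e1 k0 hk P _ v r hPl hlam hrho]

/-- at most `2 r0 + 1` ruler elements are spoiled -/
theorem spoil {Wo : List α → Prop} {n W z p0 N1 r0 Lam : ℕ} (hW : Walls Wo n W)
    (hWL : 2 * Lam + 2 * N1 ≤ W) (hzL : Lam + N1 + n + p0 ≤ z) {Bad : ℤ → Prop}
    {K : ℕ} {c : ℕ → ℕ} (hc : ∀ k, k < K → c k < p0)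
    (hspan : ∀ k, k < K → c k ≤ Lam)
    (hB : ∀ τ : ℤ, ∃ A : Finset ℕ, A.card ≤ r0 ∧ ∀ k, k < K → ∀ k', k' < K → k' ≠ k →
      Bad (τ - ((c k : ℤ) - c k')) → k ∈ A)
    (hE : ∀ τ : ℤ, ∃ A : Finset ℕ, A.card ≤ 1 ∧ ∀ k, k < K → ∀ k', k' < K → k' ≠ k →
      |τ - ((c k : ℤ) - c k')| ≤ N1 → k ∈ A)
    {U : List α} (hU : ∃ t, z + Lam ≤ t ∧ t ≤ U.length ∧ Wo (U.take t)) :
    ∃ A : Finset ℕ, A.card ≤ 2 * r0 + 1 ∧ ∀ k, k < K → ∀ k', k' < K → k' ≠ k →
      CB Wo z p0 N1 Bad (c k') (U.drop (c k)) → k ∈ A := by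
  classical
  -- uniqueness near `z`
  have huniq : ∀ s s', s ≤ U.length → s' ≤ U.length → Wo (U.take s) → Wo (U.take s') →
      z ≤ s + Lam + N1 → s < s' → s' ≤ z + Lam + N1 → False ∨ W < s' - s := by
    intro s s' h1 h2 h3 h4 h5 h6 h7
    right
    have he : U.take s' = U.take s ++ (U.take s').drop s := by
      conv_lhs => rw [← List.take_append_drop s (U.take s')]
      rw [List.take_take, Nat.min_eq_left h6.le]
    rw [he] at h4
    have hl : ((U.take s').drop s).length = s' - s := by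
      rw [List.length_drop, List.length_take]; omega
    have := hW.gap _ _ h3 h4 (by
      intro h0
      rw [h0] at hl
      simp at hl
      omega)
    omega
  have huniq' : ∀ s s', s ≤ U.length → s' ≤ U.length → Wo (U.take s) → Wo (U.take s') →
      z ≤ s + Lam + N1 → z ≤ s' + Lam + N1 → s ≤ z + Lam + N1 → s' ≤ z + Lam + N1 → s = s' := by
    intro s s' h1 h2 h3 h4 h5 h6 h7 h8
    rcases Nat.lt_trichotomy s s' with h | h | h
    · rcases huniq s s' h1 h2 h3 h4 h5 h h8 with h' | h'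
      · exact h'.elim
      · omega
    · exact h
    · rcases huniq s' s h2 h1 h4 h3 h6 h h7 with h' | h'
      · exact h'.elim
      · omega
  obtain ⟨s0, hs0⟩ : ∃ s0, ∀ s, s ≤ U.length → Wo (U.take s) → z ≤ s + Lam + N1 →
      s ≤ z + Lam + N1 → s = s0 := by
    by_cases h : ∃ s, s ≤ U.length ∧ Wo (U.take s) ∧ z ≤ s + Lam + N1 ∧ s ≤ z + Lam + N1
    · obtain ⟨s0, a1, a2, a3, a4⟩ := h
      exact ⟨s0, fun s b1 b2 b3 b4 => huniq' s s0 b1 a1 b2 a2 b3 a3 b4 a4⟩
    · exact ⟨0, fun s b1 b2 b3 b4 => (h ⟨s, b1, b2, b3, b4⟩).elim⟩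
  obtain ⟨s1, hs1a, hs1b, hs1c, hs1d⟩ := exists_zone (z := z + Lam) hU
  obtain ⟨A1, hA1, hA1'⟩ := hE ((s0 : ℤ) - z)
  obtain ⟨A2, hA2, hA2'⟩ := hB ((s0 : ℤ) - p0)
  obtain ⟨A3, hA3, hA3'⟩ := hB ((s1 : ℤ) - p0)
  refine ⟨A1 ∪ A2 ∪ A3, ?_, ?_⟩
  · have h1 := Finset.card_union_le (A1 ∪ A2) A3
    have h2 := Finset.card_union_le A1 A2
    omega
  · intro k hk k' hk' hne hCB
    have hck := hc k hk
    have hck' := hc k' hk'
    have hsp := hspan k hk
    have hsp' := hspan k' hk'
    -- a wall of `U.drop (c k)` is a wall of `U`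
    have hwall : ∀ s, s ≤ (U.drop (c k)).length → Wo ((U.drop (c k)).take s) →
        s + c k ≤ U.length ∧ Wo (U.take (s + c k)) := by
      intro s h1 h2
      rw [List.length_drop] at h1
      have hn := hW.len _ h2
      rw [List.length_take, List.length_drop] at hn
      have hcU : c k ≤ U.length := by omega
      refine ⟨by omega, ?_⟩
      have he : U.take (s + c k) = U.take (c k) ++ (U.drop (c k)).take s := by
        rw [add_comm s, List.take_add]
      rw [he]
      exact (hW.loc _ _ (hW.len _ h2)).2 h2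
    rcases hCB with ⟨s, b1, b2, b3, b4⟩ | ⟨t, ⟨b1, b2, b3, b4⟩, b5⟩
    · obtain ⟨w1, w2⟩ := hwall s b1 b2
      have hs := hs0 (s + c k) w1 w2 (by omega) (by omega)
      have : k ∈ A1 := by
        refine hA1' k hk k' hk' hne ?_
        rw [← hs]
        push_cast
        rw [abs_le]
        constructor <;> omega
      simp [this]
    · obtain ⟨w1, w2⟩ := hwall t b2 b3
      by_cases hlt : t + c k < z + Lam
      · have hs := hs0 (t + c k) w1 w2 (by omega) (by omega)
        have : k ∈ A2 := by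
          refine hA2' k hk k' hk' hne ?_
          rw [← hs]
          push_cast
          convert b5 using 1
          ring
        simp [this]
      · have hs : t + c k = s1 := by
          rcases Nat.lt_trichotomy (t + c k) s1 with h | h | h
          · exact (hs1d _ (by omega) h w2).elim
          · exact h
          · exfalso
            refine b4 (s1 - c k) (by omega) (by omega) ?_
            have he : U.take s1 = U.take (c k) ++ (U.drop (c k)).take (s1 - c k) := by
              conv_lhs => rw [show s1 = c k + (s1 - c k) by omega]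
              rw [List.take_add]
            rw [he] at hs1c
            refine (hW.loc _ _ ?_).1 hs1c
            rw [List.length_take, List.length_drop]
            omega
        have : k ∈ A3 := by
          refine hA3' k hk k' hk' hne ?_
          rw [← hs]
          push_cast
          convert b5 using 1
          ring
        simp [this]

/-- **(cc)** -/
theorem cc {Wo : List α → Prop} {n W z p0 N1 N2 r0 Lam R0 : ℕ} (hW : Walls Wo n W)
    (hz : p0 + N1 + n ≤ z) (hz2 : p0 + N2 ≤ z) (hWL : 2 * Lam + 2 * N1 ≤ W)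
    (hzL : Lam + N1 + n + p0 ≤ z) {φ : List α → S} {act : V → S → V}
    {nu1 nu2 : List α → V} {lam1 rho1 : List α → Option V} {Bad : ℤ → Prop}
    (g1 : ∀ P v, lam1 P = some v → P.length < N1)
    (g3 : ∀ Y : List α, N2 ≤ Y.length → ¬ Bad (Y.length : ℤ) → ∀ v, ∃ P Q, Y = P ++ Q ∧
      lam1 P = some v ∧ (rho1 Q).isSome)
    {K : ℕ} {c : ℕ → ℕ} (hc : ∀ k, k < K → c k < p0) (hspan : ∀ k, k < K → c k ≤ Lam)
    (hB : ∀ τ : ℤ, ∃ A : Finset ℕ, A.card ≤ r0 ∧ ∀ k, k < K → ∀ k', k' < K → k' ≠ k →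
      Bad (τ - ((c k : ℤ) - c k')) → k ∈ A)
    (hE : ∀ τ : ℤ, ∃ A : Finset ℕ, A.card ≤ 1 ∧ ∀ k, k < K → ∀ k', k' < K → k' ≠ k →
      |τ - ((c k : ℤ) - c k')| ≤ N1 → k ∈ A)
    {lam2 rho2 : ℕ → List α → Option V} (hR0 : 2 * r0 + 1 < R0)
    (e2 : ∀ (u : List α) (v : V), u.length = p0 → ∃ I : Finset ℕ, R0 ≤ I.card ∧ ∀ k ∈ I,
      k < K ∧ lam2 k (u.take (c k)) = some v ∧ (rho2 k (u.drop (c k))).isSome) :
    ∀ X ∈ XX Wo z, ∀ X2 ∈ XX Wo z, ∀ v,
      (∃ P Q, X = P ++ Q ∧ LP1 φ act nu2 lam1 p0 P v ∧ (R1 Wo z p0 N1 rho1 Q).isSome) ∨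
      (∃ P Q, X ++ X2 = P ++ Q ∧ P.length < X.length ∧ LP2 K c lam2 P v ∧
        (R2 Wo z p0 N1 Bad φ act nu1 nu2 K c rho2 Q).isSome) := by
  classical
  intro X hX X2 hX2 v
  by_cases hb : BadX Wo z p0 N1 Bad X
  · right
    have hXz := hX.1
    have hX2z := hX2.1
    have hWX := hX.2.1
    have hWX2 := hX2.2.1
    have hXX2 : Wo (X ++ X2) := (hW.loc _ _ (hW.len _ hWX2)).2 hWX2
    obtain ⟨A, hA, hA'⟩ := spoil (U := X ++ X2) hW hWL hzL hc hspan hB hE
      ⟨(X ++ X2).length, by rw [List.length_append]; omega, le_rfl, by rwa [List.take_length]⟩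
    have hul : (X.take p0).length = p0 := by rw [List.length_take]; omega
    obtain ⟨I, hI, hI'⟩ := e2 (X.take p0) v hul
    obtain ⟨k, hkI, hkA⟩ : ∃ k ∈ I, k ∉ A := by
      by_contra hno
      push Not at hno
      have := Finset.card_le_card (show I ⊆ A from fun x hx => hno x hx)
      omega
    obtain ⟨hk, hl, hr⟩ := hI' k hkI
    have hck := hc k hk
    have ht1 : (X.take p0).take (c k) = X.take (c k) := by
      rw [List.take_take, Nat.min_eq_left hck.le]
    have hPl : (X.take (c k)).length = c k := by rw [List.length_take]; omega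
    have hdr : (X ++ X2).drop (c k) = X.drop (c k) ++ X2 :=
      List.drop_append_of_le_length (by omega)
    have hdl : (X.drop (c k)).length = X.length - c k := List.length_drop
    have htk : ∀ s, s ≤ X.length - c k → ((X ++ X2).drop (c k)).take s = (X.drop (c k)).take s := by
      intro s hs
      rw [hdr, List.take_append_of_le_length (by omega)]
    have hwX : ∀ s, n ≤ s → s ≤ X.length - c k →
        (Wo (((X ++ X2).drop (c k)).take s) ↔ Wo (X.take (c k + s))) := by
      intro s hns hs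
      rw [htk s hs]
      have he : X.take (c k + s) = X.take (c k) ++ (X.drop (c k)).take s := List.take_add
      rw [he]
      refine (hW.loc _ _ ?_).symm
      rw [List.length_take, hdl]; omega
    -- the end of the zone
    have hEnd : End Wo z (c k) ((X ++ X2).drop (c k)) (X.length - c k) := by
      refine ⟨by omega, by rw [hdr, List.length_append, hdl]; omega, ?_, ?_⟩
      · rw [hwX _ (by omega) le_rfl]
        rw [show c k + (X.length - c k) = X.length by omega, List.take_length]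
        exact hWX
      · intro s h1 h2 h3
        have hn := hW.len _ h3
        rw [List.length_take] at hn
        rw [hwX s (by omega) h2.le] at h3
        exact hX.2.2 _ (by omega) (by omega) h3
    have hCB : CB Wo z p0 N1 Bad (c k) ((X ++ X2).drop (c k)) := by
      rcases hb with ⟨s, s1, s2, s3, s4⟩ | hB'
      · left
        refine ⟨s - c k, by rw [hdr, List.length_append, hdl]; omega, ?_, by omega, by omega⟩
        rw [hwX _ (by omega) (by omega)]
        rwa [show c k + (s - c k) = s by omega]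
      · right
        refine ⟨_, hEnd, ?_⟩
        rw [Nat.cast_sub (by omega)]
        convert hB' using 1
        ring
    obtain ⟨r, hr'⟩ := Option.isSome_iff_exists.1 hr
    have hrho : rho2 k (((X ++ X2).drop (c k)).take (p0 - c k)) = some r := by
      rw [htk _ (by omega), ← hr']
      congr 1
      rw [List.drop_take]
    have hdX2 : ((X ++ X2).drop (c k)).drop (X.length - c k) = X2 := by
      rw [List.drop_drop, show c k + (X.length - c k) = X.length by omega, List.drop_left]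
    refine ⟨X.take (c k), (X ++ X2).drop (c k), ?_, by omega, ⟨k, hk, hPl, by rw [← ht1]; exact hl⟩, ?_⟩
    · rw [hdr, ← List.append_assoc, List.take_append_drop]
    · have hex : ∃ b k1 t r, RR2 Wo z p0 N1 Bad φ act nu1 nu2 K c rho2
          ((X ++ X2).drop (c k)) k1 t r b := by
        refine ⟨_, k, X.length - c k, r, hk, hCB, fun k' hk' hne hbad => ?_, hEnd, ?_, hrho, rfl⟩
        · exact hkA (hA' k hk k' hk' hne hbad)
        · rw [hdX2]; exact hX2
      unfold R2
      split_ifs with h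
      · rfl
  · left
    obtain ⟨P, Q, h1, -, h2, h3⟩ := complete1 (act := act) (φ := φ) (nu2 := nu2) hW hz hz2 g1 g3
      hX hb v
    exact ⟨P, Q, h1, h2, h3⟩

end data

end Crest.Agent.R320.Inst_195
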