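import Crest.Agent.R320.Def_20

set_option autoImplicit false

namespace Crest.Agent.R320.Inst20

open Crest.Agent.R320.Hk_851 Crest.Agent.R320.Star_621 Crest.Agent.R320.Two_621

section

variable {α S : Type} [Monoid S] (w : Walls α)

theorem FZ.uniq {c : ℕ} {z z' x x' : List α} (h : z ∈ FZ w c) (h' : z' ∈ FZ w c)
    (e : z ++ x = z' ++ x') : z = z' := by
  obtain ⟨h1, h2, h3⟩ := h
  obtain ⟨h1', h2', h3'⟩ := h'
  rcases lt_trichotomy z.length z'.length with hl | hl | hl
  · exfalso
    have e1 : z'.take z.length = z := by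
      have := congrArg (List.take z.length) e
      rw [List.take_append_of_le_length le_rfl, List.take_length,
        List.take_append_of_le_length hl.le] at this
      exact this.symm
    exact h3' z.length h1 hl (by rw [e1]; exact h2)
  · exact (List.append_inj e hl).1
  · exfalso
    have e1 : z.take z'.length = z' := by
      have := congrArg (List.take z'.length) e
      rw [List.take_append_of_le_length hl.le, List.take_append_of_le_length le_rfl,
        List.take_length] at this
      exact this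
    exact h3 z'.length h1' hl (by rw [e1]; exact h2')

theorem Z.uniq {zz : ℕ} {z1 z2 z1' z2' x x' : List α} (h1 : z1 ∈ FZ w zz) (h2 : z2 ∈ FZ w w.n)
    (h1' : z1' ∈ FZ w zz) (h2' : z2' ∈ FZ w w.n)
    (e : z1 ++ z2 ++ x = z1' ++ z2' ++ x') : z1 = z1' ∧ z2 = z2' := by
  rw [List.append_assoc, List.append_assoc] at e
  have e1 := FZ.uniq w h1 h1' e
  subst e1
  exact ⟨rfl, FZ.uniq w h2 h2' (List.append_cancel_left e)⟩

/-- L1 -/
theorem codeZ (zz : ℕ) : Code (Z w zz) := by
  refine ⟨?_, ?_⟩
  · rintro ⟨z1, z2, e, h1, h2⟩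
    obtain ⟨h2a, -, -⟩ := h2
    have := w.n0
    have : (z1 ++ z2).length = 0 := by rw [← e]; rfl
    rw [List.length_append] at this
    omega
  · rintro z z' x x' ⟨z1, z2, rfl, h1, h2⟩ ⟨z1', z2', rfl, h1', h2'⟩ e
    obtain ⟨e1, e2⟩ := Z.uniq w h1 h2 h1' h2' e
    rw [e1, e2]

/-- words glued on the left of a first-wall word -/
theorem ext_FZ {P Q1 : List α} {b cc : ℕ} (hb : w.n ≤ b) (hcc : P.length + b ≤ cc)
    (hlen : cc ≤ P.length + Q1.length) (hw : w.Wo Q1)
    (hno : ∀ t, b ≤ t → t < Q1.length → ¬ w.Wo (Q1.take t)) : P ++ Q1 ∈ FZ w cc := by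
  refine ⟨by rw [List.length_append]; exact hlen, (w.loc P Q1 (w.len Q1 hw)).2 hw, ?_⟩
  intro t h1 h2 h3
  rw [List.length_append] at h2
  have e : (P ++ Q1).take t = P ++ Q1.take (t - P.length) := by
    rw [List.take_append, List.take_of_length_le (by omega)]
  rw [e] at h3
  have h4 : w.n ≤ (Q1.take (t - P.length)).length := by
    rw [List.length_take]; omega
  exact hno (t - P.length) (by omega) (by omega) ((w.loc _ _ h4).1 h3)

/-- dropping letters from a first-wall word -/
theorem drop_FZ {P Q1 : List α} {cc b : ℕ} (h : P ++ Q1 ∈ FZ w cc) (hb : w.n ≤ b)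
    (hcc : cc = P.length + b) : Q1 ∈ FZ w b := by
  obtain ⟨h1, h2, h3⟩ := h
  rw [List.length_append] at h1 h3
  refine ⟨by omega, (w.loc P Q1 (by omega)).1 h2, fun t ht1 ht2 ht3 => ?_⟩
  apply h3 (P.length + t) (by omega) (by omega)
  have e : (P ++ Q1).take (P.length + t) = P ++ Q1.take t := by
    rw [List.take_append, List.take_of_length_le (by omega)]
    congr 2; omega
  rw [e]
  exact (w.loc _ _ (by rw [List.length_take]; omega)).2 ht3

variable (f : α → S) {zz p0 N1 : ℕ} {Bad : ℤ → Prop}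
variable (G : Gad1 (V := Tok S) (ph f) act N1 Bad)

theorem ph_append (a b : List α) : ph f (a ++ b) = ph f a * ph f b := by
  simp [ph]

theorem dY_eq {Y1 Y2 : List α} (h1 : Y1 ∈ FZ w (zz - p0)) (h2 : Y2 ∈ FZ w w.n) :
    dY w f zz p0 N1 G (Y1 ++ Y2) = act (G.nu Y1) (ph f Y2) := by
  have h : ∃ Y1' Y2', Y1 ++ Y2 = Y1' ++ Y2' ∧ Y1' ∈ FZ w (zz - p0) ∧ Y2' ∈ FZ w w.n :=
    ⟨Y1, Y2, rfl, h1, h2⟩
  have hs := h.choose_spec.choose_spec
  obtain ⟨e1, e2⟩ := Z.uniq w (x := []) (x' := []) h1 h2 hs.2.1 hs.2.2 (by simpa using hs.1)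
  unfold dY
  rw [dif_pos h, ← e2, ← e1]

/-- L2 -/
theorem soundA (hp0 : 0 < p0) (hzz : p0 + N1 + w.n ≤ zz) :
    Sound (Z w zz) (aff (ph f) (dA w f zz p0 N1 G)) (LA f p0 N1 G) (RA w f zz p0 N1 G) := by
  refine ⟨?_, ?_⟩
  · rintro ω ⟨h, -⟩
    simp at h
    omega
  · rintro ω τ P Q z x y ⟨hP, hl⟩ ⟨Q1, Q2, b, rfl, ⟨hq1, hq2, hq3⟩, hQ2, hrho, rfl⟩
      ⟨z1, z2, rfl, h1, h2⟩ e
    have hlam := G.lamlen _ _ hl
    rw [List.length_drop] at hlam
    have hPQ : P ++ Q1 ∈ FZ w zz :=
      ext_FZ w (b := zz - p0 - N1) (by omega) (by omega) (by omega) hq2 hq3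
    have hPQ' : P.drop p0 ++ Q1 ∈ FZ w (zz - p0) :=
      ext_FZ w (b := zz - p0 - N1) (by omega) (by rw [List.length_drop]; omega)
        (by rw [List.length_drop]; omega) hq2 hq3
    have e' : P ++ Q1 ++ Q2 ++ x = z1 ++ z2 ++ y := by rw [← e]; simp
    obtain ⟨e1, e2⟩ := Z.uniq w hPQ hQ2 h1 h2 e'
    subst e2
    refine ⟨by rw [← List.append_assoc, e1], ?_⟩
    have hs := G.sound _ _ _ _ hl hrho
    have ez : z1 ++ Q2 = P.take p0 ++ (P.drop p0 ++ Q1) ++ Q2 := by
      rw [← e1, ← List.append_assoc (P.take p0), List.take_append_drop]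
    have ed : (z1 ++ Q2).drop p0 = (P.drop p0 ++ Q1) ++ Q2 := by
      rw [ez, List.append_assoc, List.drop_append, List.drop_of_length_le (by simp)]
      simp [List.length_take, Nat.min_eq_left hP]
    show act b (ph f Q2) = act ω (ph f (z1 ++ Q2)) + dY w f zz p0 N1 G ((z1 ++ Q2).drop p0)
    rw [ed, dY_eq w f G hPQ' hQ2, hs, act_add, act_mul, act_mul, ez,
      ph_append f (P.take p0 ++ (P.drop p0 ++ Q1)) Q2,
      ph_append f (P.take p0) (P.drop p0 ++ Q1), mul_assoc]

/-- L3 -/
theorem completeA (hzz : p0 + N1 + w.n ≤ zz) {z : List α} (hz : z ∈ Z w zz)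
    (hc : z ∉ Zc w zz p0 N1 Bad) (v : Tok S) :
    Cut (LA f p0 N1 G) (RA w f zz p0 N1 G) v z := by
  obtain ⟨z1, z2, rfl, h1, h2⟩ := hz
  have hnb : ¬ BadZ w zz p0 N1 Bad z1 := fun hb => hc ⟨z1, z2, rfl, h1, h2, hb⟩
  obtain ⟨g1, g2, g3⟩ := id h1
  have hE : ∀ t, zz - N1 ≤ t → t < zz + N1 → t ≤ z1.length → ¬ w.Wo (z1.take t) :=
    fun t a b c d => hnb (Or.inl ⟨t, a, b, c, d⟩)
  have hlen : zz + N1 ≤ z1.length := by
    by_contra hlt
    exact hE z1.length (by omega) (by omega) le_rfl (by rw [List.take_length]; exact g2)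
  have hB : ¬ Bad ((z1.drop p0).length : ℤ) := fun hb => hnb (Or.inr (by
    rw [List.length_drop, Nat.cast_sub (by omega)] at hb; exact hb))
  obtain ⟨p, q, e, hl, r, hr⟩ := G.compl (z1.drop p0) (by rw [List.length_drop]; omega) hB
    (act v (ph f (z1.take p0)))
  have hpl := G.lamlen _ _ hl
  have hel : p.length + q.length = z1.length - p0 := by
    rw [← List.length_append, ← e, List.length_drop]
  have htl : (z1.take p0).length = p0 := by rw [List.length_take]; omega
  have ez : z1 = z1.take p0 ++ p ++ q := by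
    rw [List.append_assoc, ← e, List.take_append_drop]
  have hwq : w.Wo q := by
    have := g2
    rw [ez] at this
    exact (w.loc _ _ (by omega)).1 this
  refine ⟨z1.take p0 ++ p, q ++ z2, act r (ph f z2), ?_, ⟨?_, ?_⟩, q, z2, r, rfl,
    ⟨by omega, hwq, ?_⟩, h2, hr, rfl⟩
  · rw [← List.append_assoc, ← ez]
  · rw [List.length_append]; omega
  · rw [List.drop_left' htl, List.take_left' htl]
    exact hl
  · intro t ht1 ht2 ht3
    have e3 : z1.take (p0 + p.length + t) = (z1.take p0 ++ p) ++ q.take t := by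
      conv_lhs => rw [ez]
      rw [List.take_append, List.take_of_length_le (by rw [List.length_append]; omega)]
      congr 2
      rw [List.length_append, htl]; omega
    have h4 : w.Wo (z1.take (p0 + p.length + t)) := by
      rw [e3]
      exact (w.loc _ _ (by rw [List.length_take]; omega)).2 ht3
    by_cases h5 : p0 + p.length + t < zz + N1
    · exact hE _ (by omega) h5 (by omega) h4
    · exact g3 _ (by omega) (by omega) h4

/-- L4 -/
theorem stepA_eq (z : List α) (hz : p0 ≤ z.length) :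
    stepA (aff (ph f) (dA w f zz p0 N1 G)) (LA f p0 N1 G) (RA w f zz p0 N1 G) z =
      theta (ph f (z.take p0)) * stepY w f zz p0 N1 G (z.drop p0) := by
  classical
  apply MulOpposite.unop_injective
  funext o
  have htl : (z.take p0).length = p0 := by rw [List.length_take]; omega
  have hcut : ∀ v, Cut (LA f p0 N1 G) (RA w f zz p0 N1 G) v z ↔
      CutY w f zz p0 N1 G (act v (ph f (z.take p0))) (z.drop p0) := by
    intro v
    constructor
    · rintro ⟨P, Q, τ, rfl, ⟨hP, hl⟩, hQ⟩
      refine ⟨P.drop p0, Q, τ, ?_, ?_, hQ⟩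
      · rw [List.drop_append_of_le_length hP]
      · rw [List.take_append_of_le_length hP]; exact hl
    · rintro ⟨p, Q, τ, e, hl, hQ⟩
      refine ⟨z.take p0 ++ p, Q, τ, ?_, ⟨?_, ?_⟩, hQ⟩
      · rw [List.append_assoc, ← e, List.take_append_drop]
      · rw [List.length_append]; omega
      · rw [List.drop_left' htl, List.take_left' htl]
        exact hl
  show (o.bind fun v => if Cut (LA f p0 N1 G) (RA w f zz p0 N1 G) v z then none else
      some (aff (ph f) (dA w f zz p0 N1 G) z v)) =
    ((o.bind fun v => some (act v (ph f (z.take p0)))).bind fun v =>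
      if CutY w f zz p0 N1 G v (z.drop p0) then none
      else some (act v (ph f (z.drop p0)) + dY w f zz p0 N1 G (z.drop p0)))
  cases o with
  | none => rfl
  | some v =>
    simp only [Option.bind_some]
    by_cases h : Cut (LA f p0 N1 G) (RA w f zz p0 N1 G) v z
    · rw [if_pos h, if_pos ((hcut v).1 h)]
    · rw [if_neg h, if_neg fun h' => h ((hcut v).2 h')]
      rw [act_mul, ← ph_append, List.take_append_drop]
      rfl

theorem theta_mul (s t : S) : theta (s * t) = theta s * theta t := by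
  apply MulOpposite.unop_injective
  funext o
  show (o.bind fun v => some (act v (s * t))) =
    ((o.bind fun v => some (act v s)).bind fun v => some (act v t))
  cases o with
  | none => rfl
  | some v => simp only [Option.bind_some, act_mul]

theorem theta_one : theta (1 : S) = 1 := by
  apply MulOpposite.unop_injective
  funext o
  show (o.bind fun v => some (act v (1 : S))) = o
  cases o with
  | none => rfl
  | some v => simp only [Option.bind_some, act_one]

theorem theta_ph (u : List α) : (u.map fun a => theta (f a)).prod = theta (ph f u) := by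
  induction u with
  | nil => simp [ph, theta_one]
  | cons a u ih =>
    rw [List.map_cons, List.prod_cons, ih, ← theta_mul]
    simp [ph]

/-- badness of the zone, seen from a candidate place. -/
theorem badK_true {c : ℕ → ℕ} {k : ℕ} (hck : c k + N1 + w.n ≤ zz) {P Q x y z1 : List α}
    (hP : P.length = c k) (h1 : z1 ∈ FZ w zz) (e : P ++ Q ++ x = z1 ++ y)
    (hlen : z1.length ≤ P.length + Q.length) (hbad : BadZ w zz p0 N1 Bad z1) :
    badK w zz p0 N1 Bad c k Q := by
  obtain ⟨g1, g2, g3⟩ := id h1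
  have key : ∀ t, c k ≤ t → t ≤ z1.length → z1.take t = P ++ Q.take (t - c k) := by
    intro t ht1 ht2
    have e1 : (z1 ++ y).take t = z1.take t := List.take_append_of_le_length ht2
    have e2 : (P ++ Q ++ x).take t = P ++ Q.take (t - c k) := by
      rw [List.take_append_of_le_length (by rw [List.length_append]; omega), List.take_append,
        List.take_of_length_le (by omega), hP]
    rw [← e1, ← e, e2]
  have keyw : ∀ t, zz - N1 ≤ t → t ≤ z1.length →
      (w.Wo (z1.take t) ↔ w.Wo (Q.take (t - c k))) := by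
    intro t ht1 ht2
    rw [key t (by omega) ht2]
    exact w.loc _ _ (by rw [List.length_take]; omega)
  refine ⟨z1.length - c k, by omega, by omega, ?_, ?_, ?_⟩
  · exact (keyw _ (by omega) le_rfl).1 (by rw [List.take_length]; exact g2)
  · intro t' ht' hz' hw'
    have := (keyw (t' + c k) (by omega) (by omega)).2 (by
      rw [Nat.add_sub_cancel]; exact hw')
    exact g3 _ hz' (by omega) this
  · rcases hbad with ⟨t, ht1, ht2, ht3, ht4⟩ | hb
    · left
      exact ⟨t - c k, by omega, by omega, by omega, (keyw t ht1 ht3).1 ht4⟩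
    · right
      rw [show z1.length - c k + c k = z1.length by omega]
      exact hb

variable {K : ℕ} {c : ℕ → ℕ} {lam2 : ℕ → List α → Option (Tok (TT S))}
  {rho2 : ℕ → List α → TT S → Option (Tok (TT S))} {nu2 : List α → TT S → Tok (TT S)}

/-- L5 -/
theorem soundB (hc0 : ∀ k < K, 0 < c k) (hcp : ∀ k < K, c k ≤ p0) (hW : p0 ≤ w.W)
    (hzz : p0 + N1 + w.n ≤ zz)
    (hs : ∀ k < K, ∀ (P Q : List α) (y : TT S) (v b : Tok (TT S)), P.length = c k →
      lam2 k P = some v → rho2 k Q y = some b →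
      b = act v (((P ++ Q).map fun a => theta (f a)).prod * y) + nu2 (P ++ Q) y) :
    Sound (Zc w zz p0 N1 Bad)
      (aff (stepA (aff (ph f) (dA w f zz p0 N1 G)) (LA f p0 N1 G) (RA w f zz p0 N1 G))
        (dB w f zz p0 N1 G nu2))
      (LB K c lam2) (RB w f zz p0 N1 G K c rho2) := by
  refine ⟨?_, ?_⟩
  · rintro ω ⟨k, hk, h, -⟩
    have := hc0 k hk
    simp at h
    omega
  · rintro ω τ P Q z x y ⟨k, hk, hP, hl⟩ ⟨k', hk', -, huniq, ⟨Q1, Q2, rfl, hQ1, hQ2⟩, hr⟩
      ⟨z1, z2, rfl, h1, h2, hbad⟩ e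
    have hck := hcp k hk
    have hck' := hcp k' hk'
    obtain ⟨g1, g2, g3⟩ := id h1
    obtain ⟨a1, a2, a3⟩ := id hQ1
    obtain ⟨b1, b2, b3⟩ := id hQ2
    have hn0 := w.n0
    have hwQ : w.Wo (Q1 ++ Q2) := (w.loc Q1 Q2 b1).2 b2
    -- step 1
    have hgap : w.W < Q2.length := by
      by_contra hle
      have := w.gap (Q1 ++ Q2) Q2.length hwQ (by omega) (by omega)
      rw [List.length_append, Nat.add_sub_cancel, List.take_append_of_le_length le_rfl,
        List.take_length] at this
      exact this a2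
    have hlen : z1.length ≤ P.length + (Q1 ++ Q2).length := by
      by_contra hlt
      push Not at hlt
      have e1 : z1.take (P.length + (Q1 ++ Q2).length) = P ++ (Q1 ++ Q2) := by
        have := congrArg (List.take (P.length + (Q1 ++ Q2).length)) e
        rw [← List.length_append, List.take_append_of_le_length le_rfl, List.take_length,
          List.append_assoc z1, List.take_append_of_le_length (by
            rw [List.length_append (as := P)]; omega)] at this
        rw [← List.length_append]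
        exact this.symm
      apply g3 (P.length + (Q1 ++ Q2).length) ?_ hlt
      · rw [e1]
        exact (w.loc _ _ (by rw [List.length_append]; omega)).2 hwQ
      · rw [List.length_append]; omega
    have hbk := badK_true w (c := c) (k := k) (Bad := Bad) (p0 := p0) (by omega) hP h1
      (x := x) (y := z2 ++ y) (Q := Q1 ++ Q2) (by rw [e, List.append_assoc]) hlen hbad
    have hkk : k = k' := huniq k hk hbk
    subst hkk
    -- step 3
    have hPQ : P ++ Q1 ∈ FZ w zz :=
      ext_FZ w (b := zz - c k) (by omega) (by omega) (by omega) a2 a3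
    have e' : P ++ Q1 ++ Q2 ++ x = z1 ++ z2 ++ y := by rw [← e]; simp
    obtain ⟨e1, e2⟩ := Z.uniq w hPQ hQ2 h1 h2 e'
    subst e2
    have ez : P ++ (Q1 ++ Q2) = z1 ++ Q2 := by rw [← List.append_assoc, e1]
    refine ⟨ez, ?_⟩
    have hlz : p0 ≤ (z1 ++ Q2).length := by rw [List.length_append]; omega
    have et : (z1 ++ Q2).take p0 = P ++ (Q1 ++ Q2).take (p0 - c k) := by
      rw [← ez, List.take_append, List.take_of_length_le (by omega), hP]
    have ed : (z1 ++ Q2).drop p0 = (Q1 ++ Q2).drop (p0 - c k) := by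
      rw [← ez, List.drop_append, List.drop_of_length_le (by omega), hP, List.nil_append]
    have hv := hs k hk P _ _ ω τ hP hl hr
    show τ = act ω (stepA (aff (ph f) (dA w f zz p0 N1 G)) (LA f p0 N1 G)
      (RA w f zz p0 N1 G) (z1 ++ Q2)) + nu2 ((z1 ++ Q2).take p0)
        (stepY w f zz p0 N1 G ((z1 ++ Q2).drop p0))
    rw [stepA_eq w f G _ hlz, ed, et, hv, theta_ph]

open Classical in
/-- L6 -/
theorem completeB {C0 : ℕ} (hcp : ∀ k < K, c k ≤ p0) (hzz : p0 + N1 + w.n ≤ zz)
    (hcompl : ∀ (u : List α) (y : TT S) (v : Tok (TT S)), (∀ k < K, c k ≤ u.length) →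
      ∃ I : Finset ℕ, C0 + 1 ≤ I.card ∧ ∀ k ∈ I, k < K ∧ lam2 k (u.take (c k)) = some v ∧
        (rho2 k (u.drop (c k)) y).isSome)
    (hspoil : ∀ z1 z2 : List α, z1 ∈ FZ w zz → z2 ∈ FZ w w.n → BadZ w zz p0 N1 Bad z1 →
      ((Finset.range K).filter fun k => ∃ k' < K, k' ≠ k ∧
        badK w zz p0 N1 Bad c k' ((z1 ++ z2).drop (c k))).card ≤ C0)
    {z : List α} (hz : z ∈ Zc w zz p0 N1 Bad) (v : Tok (TT S)) :
    Cut (LB K c lam2) (RB w f zz p0 N1 G K c rho2) v z := by
  obtain ⟨z1, z2, rfl, h1, h2, hbad⟩ := hz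
  obtain ⟨g1, g2, g3⟩ := id h1
  have hlz : p0 ≤ z1.length := by omega
  obtain ⟨I, hI, hIk⟩ := hcompl ((z1 ++ z2).take p0) (stepY w f zz p0 N1 G ((z1 ++ z2).drop p0)) v
    (fun k hk => by
      have := hcp k hk
      rw [List.length_take, List.length_append]; omega)
  obtain ⟨k, hkI, hkn⟩ : ∃ k ∈ I, k ∉ (Finset.range K).filter fun k => ∃ k' < K, k' ≠ k ∧
        badK w zz p0 N1 Bad c k' ((z1 ++ z2).drop (c k)) := by
    by_contra hno
    push Not at hno
    have := Finset.card_le_card (s := I) (t := (Finset.range K).filter fun k => ∃ k' < K, k' ≠ k ∧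
        badK w zz p0 N1 Bad c k' ((z1 ++ z2).drop (c k))) (fun k hk => hno k hk)
    have h3 := hspoil z1 z2 h1 h2 hbad
    omega
  obtain ⟨hk, hl, hr⟩ := hIk k hkI
  have hck := hcp k hk
  have hlen1 : c k ≤ z1.length := by omega
  obtain ⟨τ, hτ⟩ := Option.isSome_iff_exists.1 hr
  have eq1 : (z1 ++ z2).drop (c k) = z1.drop (c k) ++ z2 := by
    rw [List.drop_append_of_le_length hlen1]
  refine ⟨(z1 ++ z2).take (c k), (z1 ++ z2).drop (c k), τ, by rw [List.take_append_drop],
    ⟨k, hk, ?_, ?_⟩, k, hk, ?_, ?_, ⟨z1.drop (c k), z2, eq1, ?_, h2⟩, ?_⟩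
  · rw [List.length_take, List.length_append]; omega
  · rw [List.take_take, Nat.min_eq_left hck] at hl; exact hl
  · exact badK_true w (by omega) (P := (z1 ++ z2).take (c k)) (x := []) (y := z2)
      (by rw [List.length_take, List.length_append]; omega) h1
      (by rw [List.take_append_drop, List.append_nil])
      (by rw [← List.length_append, List.take_append_drop, List.length_append]; omega) hbad
  · intro k' hk' hb
    by_contra hne
    exact hkn (Finset.mem_filter.2 ⟨Finset.mem_range.2 hk, k', hk', hne, hb⟩)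
  · apply drop_FZ w (P := z1.take (c k)) (cc := zz) (b := zz - c k)
    · rw [List.take_append_drop]; exact h1
    · omega
    · rw [List.length_take]; omega
  · rw [← hτ]
    have t1 : ((z1 ++ z2).drop (c k)).take (p0 - c k) = ((z1 ++ z2).take p0).drop (c k) := by
      rw [List.drop_take]
    have t2 : ((z1 ++ z2).drop (c k)).drop (p0 - c k) = (z1 ++ z2).drop p0 := by
      rw [List.drop_drop]; congr 1; omega
    rw [t1, t2]

end

end Crest.Agent.R320.Inst20
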