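import Mathlib

/-!
# Row 320: the two schemes on the block code of left-looking walls (helper260)

Semantic right languages; the hypotheses `s1`, `s2`, `cc` of 163's `top`
from: left-looking walls, a content-free gadget `LL RR nu1` (693 / 638), a ruler, and the
exact gadget with redundancy (237).
-/

set_option autoImplicit false
set_option linter.unusedSectionVars false

namespace Crest.Agent.R320.Inst_260

variable {α S V : Type*}

/-- value of a word -/
def pr [Monoid S] (φ : α → S) (w : List α) : S := (w.map φ).prod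

theorem pr_append [Monoid S] (φ : α → S) (u v : List α) :
    pr φ (u ++ v) = pr φ u * pr φ v := by simp [pr]

/-- data -/
structure Dat (α S V : Type*) where
  φ : α → S
  act : V → S → V
  Wo : List α → Prop
  n : ℕ
  W : ℕ
  p0 : ℕ
  z : ℕ
  N1 : ℕ
  N0 : ℕ
  K : ℕ
  c : ℕ → ℕ
  LL : List α → Option V
  RR : List α → Option V
  nu1 : List α → V
  nu2 : List α → V
  lam : ℕ → List α → Option V
  rho : ℕ → List α → Option V
  BadT : ℕ → Prop
  C0 : ℕ

variable [Monoid S] [AddCommGroup V]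

/-- conditions -/
structure Ok (D : Dat α S V) : Prop where
  loc : ∀ P Q : List α, D.n ≤ Q.length → (D.Wo (P ++ Q) ↔ D.Wo Q)
  gap : ∀ (X : List α) (s t : ℕ), s < t → t ≤ X.length → D.Wo (X.take s) → D.Wo (X.take t) →
    s + D.W < t
  g1 : ∀ (P Q : List α) (v r : V), D.LL P = some v → D.RR Q = some r →
    D.act v (pr D.φ (P ++ Q)) + D.nu1 (P ++ Q) = r
  g2 : ∀ (P : List α) (v : V), D.LL P = some v → P.length ≤ D.N1
  g3 : ∀ u : List α, D.N0 ≤ u.length → ¬ D.BadT u.length → ∀ v : V, ∃ p q : List α,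
    p ++ q = u ∧ D.LL p = some v ∧ ∃ r, D.RR q = some r
  e1 : ∀ k < D.K, ∀ (P Q : List α) (v b : V), P.length = D.c k → (P ++ Q).length = D.p0 →
    D.lam k P = some v → D.rho k Q = some b → b = D.act v (pr D.φ (P ++ Q)) + D.nu2 (P ++ Q)
  e2 : ∀ (u : List α) (v : V), u.length = D.p0 → ∃ I : Finset ℕ, 2 + 2 * D.C0 ≤ I.card ∧
    ∀ k ∈ I, k < D.K ∧ D.lam k (u.take (D.c k)) = some v ∧ ∃ b, D.rho k (u.drop (D.c k)) = some b
  cinj : ∀ i j, i < D.K → j < D.K → D.c i = D.c j → i = j
  cle : ∀ k < D.K, D.c k ≤ D.p0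
  sparse : ∀ a b a' b', a < D.K → b < D.K → a' < D.K → b' < D.K → a ≠ b → a' ≠ b' →
    D.c b + D.c a' ≤ D.c b' + D.c a + 2 * D.N1 → D.c b' + D.c a ≤ D.c b + D.c a' + 2 * D.N1 →
    a = a'
  spoil : ∀ T, D.p0 ≤ T → ∀ s : Finset ℕ, (∀ k ∈ s, k < D.K ∧ ∃ k' < D.K, k' ≠ k ∧
    D.BadT (T + D.c k' - D.c k)) → s.card ≤ D.C0
  hz : 3 * D.p0 + 3 * D.N1 + D.n + D.N0 + 1 ≤ D.z
  hW : 2 * D.p0 + 2 * D.N1 + D.n + 2 ≤ D.W

variable (D : Dat α S V)

/-- block code -/
def XX : Set (List α) :=
  {X | D.z ≤ X.length ∧ D.Wo X ∧ ∀ t, D.z ≤ t → t < X.length → ¬ D.Wo (X.take t)}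

/-- thread map of a block -/
def T (v : V) (X : List α) : V :=
  D.act (D.act v (pr D.φ (X.take D.p0)) + D.nu2 (X.take D.p0)) (pr D.φ (X.drop D.p0)) +
    D.nu1 (X.drop D.p0)

/-- noise of a block -/
def nu (X : List α) : V :=
  D.act (D.nu2 (X.take D.p0)) (pr D.φ (X.drop D.p0)) + D.nu1 (X.drop D.p0)

/-- left-legal words of scheme 1 -/
def LP1 (P : List α) (v : V) : Prop :=
  D.p0 ≤ P.length ∧
    D.LL (P.drop D.p0) = some (D.act v (pr D.φ (P.take D.p0)) + D.nu2 (P.take D.p0))

/-- left-legal words of scheme 2 -/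
def LP2 (P : List α) (v : V) : Prop := ∃ k < D.K, P.length = D.c k ∧ D.lam k P = some v

/-- right label of scheme 1 -/
def Sem1 (Q : List α) (b : V) : Prop :=
  Q ≠ [] ∧ (∀ P v, LP1 D P v → P ++ Q ∈ XX D ∧ T D v (P ++ Q) = b) ∧
    ((∃ P v, LP1 D P v) ∨ b = 0)

open Classical in
/-- right label of scheme 1 as a function -/
noncomputable def R1 (Q : List α) : Option V := if h : ∃ b, Sem1 D Q b then some h.choose else none

/-- scheme 1 does not cut the first block behind `P` -/
def Unc (P : List α) (v : V) (Q : List α) : Prop :=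
  ∀ X ∈ XX D, X <+: P ++ Q → ∀ P' Q', X = P' ++ Q' → P.length ≤ P'.length → LP1 D P' v →
    (R1 D Q').isSome → False

/-- the right word of scheme 2: rest of the block and one more block -/
def Good (P : List α) (v : V) (Q : List α) (b : V) : Prop :=
  ∃ Q1 X2, Q = Q1 ++ X2 ∧ Q1 ≠ [] ∧ P ++ Q1 ∈ XX D ∧ X2 ∈ XX D ∧ T D (T D v (P ++ Q1)) X2 = b

/-- right label of scheme 2 -/
def Sem2 (Q : List α) (b : V) : Prop :=
  Q ≠ [] ∧ (∀ P v, LP2 D P v → Unc D P v Q → Good D P v Q b) ∧
    ((∃ P v, LP2 D P v ∧ Unc D P v Q) ∨ b = 0)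

open Classical in
/-- right label of scheme 2 as a function -/
noncomputable def R2 (Q : List α) : Option V := if h : ∃ b, Sem2 D Q b then some h.choose else none

variable {D}

theorem pcode {X Y : List α} (hX : X ∈ XX D) (hXY : X ++ Y ∈ XX D) : Y = [] := by
  by_contra hY
  have hl : 0 < Y.length := List.length_pos_iff.2 hY
  refine hXY.2.2 X.length hX.1 (by rw [List.length_append]; omega) ?_
  rw [List.take_left']
  · exact hX.2.1
  · rfl

theorem pcode' {X X' Y Y' : List α} (hX : X ∈ XX D) (hX' : X' ∈ XX D) (e : X ++ Y = X' ++ Y') :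
    X = X' ∧ Y = Y' := by
  have h : X = X' := by
    rcases List.append_eq_append_iff.1 e with ⟨a, h1, -⟩ | ⟨a, h1, -⟩
    · rw [h1] at hX'
      rw [h1, pcode hX hX', List.append_nil]
    · rw [h1] at hX
      rw [h1, pcode hX' hX, List.append_nil]
  subst h
  exact ⟨rfl, List.append_cancel_left e⟩

theorem Sem1.uniq {Q : List α} {b b' : V} (h : Sem1 D Q b) (h' : Sem1 D Q b') : b = b' := by
  rcases h.2.2 with ⟨P, v, hP⟩ | h1
  · rw [← (h.2.1 P v hP).2, ← (h'.2.1 P v hP).2]
  · rcases h'.2.2 with ⟨P, v, hP⟩ | h2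
    · rw [← (h.2.1 P v hP).2, ← (h'.2.1 P v hP).2]
    · rw [h1, h2]

theorem R1_iff {Q : List α} {b : V} : R1 D Q = some b ↔ Sem1 D Q b := by
  classical
  unfold R1
  constructor
  · intro h
    split_ifs at h with h1
    rw [Option.some.injEq] at h
    rw [← h]
    exact h1.choose_spec
  · intro h
    rw [dif_pos ⟨b, h⟩, Option.some.injEq]
    exact Sem1.uniq (Exists.choose_spec (⟨b, h⟩ : ∃ b, Sem1 D Q b)) h

theorem Good.uniq {P Q : List α} {v b b' : V} (h : Good D P v Q b) (h' : Good D P v Q b') :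
    b = b' := by
  obtain ⟨Q1, X2, e, -, h1, h2, h3⟩ := h
  obtain ⟨Q1', X2', e', -, h1', h2', h3'⟩ := h'
  have := pcode' (Y := X2) (Y' := X2') h1 h1' (by
    rw [List.append_assoc, List.append_assoc, ← e, ← e'])
  obtain ⟨a1, a2⟩ := this
  rw [← h3, ← h3', a1, a2]

theorem Sem2.uniq {Q : List α} {b b' : V} (h : Sem2 D Q b) (h' : Sem2 D Q b') : b = b' := by
  rcases h.2.2 with ⟨P, v, hP, hU⟩ | h1
  · exact (h.2.1 P v hP hU).uniq (h'.2.1 P v hP hU)
  · rcases h'.2.2 with ⟨P, v, hP, hU⟩ | h2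
    · exact (h.2.1 P v hP hU).uniq (h'.2.1 P v hP hU)
    · rw [h1, h2]

theorem R2_iff {Q : List α} {b : V} : R2 D Q = some b ↔ Sem2 D Q b := by
  classical
  unfold R2
  constructor
  · intro h
    split_ifs at h with h1
    rw [Option.some.injEq] at h
    rw [← h]
    exact h1.choose_spec
  · intro h
    rw [dif_pos ⟨b, h⟩, Option.some.injEq]
    exact Sem2.uniq (Exists.choose_spec (⟨b, h⟩ : ∃ b, Sem2 D Q b)) h

/-- `s1` of 163's `top` -/
theorem s1 (P : List α) (v : V) (Q : List α) (b : V) (hP : LP1 D P v) (hQ : R1 D Q = some b) :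
    P ++ Q ∈ XX D ∧ T D v (P ++ Q) = b := (R1_iff.1 hQ).2.1 P v hP

/-- `s2` of 163's `top` -/
theorem s2 (P : List α) (v : V) (Q : List α) (b : V) (hP : LP2 D P v) (hQ : R2 D Q = some b)
    (hU : ∀ X ∈ XX D, X <+: P ++ Q → ∀ P' Q', X = P' ++ Q' → P.length ≤ P'.length →
      LP1 D P' v → (R1 D Q').isSome → False) :
    ∃ Q1 X2, Q = Q1 ++ X2 ∧ Q1 ≠ [] ∧ P ++ Q1 ∈ XX D ∧ X2 ∈ XX D ∧
      T D (T D v (P ++ Q1)) X2 = b := (R2_iff.1 hQ).2.1 P v hP hU

theorem R1_ne {Q : List α} {b : V} (h : R1 D Q = some b) : Q ≠ [] := (R1_iff.1 h).1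

theorem R2_ne {Q : List α} {b : V} (h : R2 D Q = some b) : Q ≠ [] := (R2_iff.1 h).1

theorem take_app (P Q : List α) (s : ℕ) : (P ++ Q).take (P.length + s) = P ++ Q.take s := by
  rw [List.take_append]
  simp [List.take_of_length_le]

/-- transfer of walls -/
theorem Ok.tr (h : Ok D) (P P' Q : List α) {s : ℕ} (h1 : D.n ≤ s) (h2 : s ≤ Q.length) :
    D.Wo ((P ++ Q).take (P.length + s)) ↔ D.Wo ((P' ++ Q).take (P'.length + s)) := by
  rw [take_app, take_app]
  have h3 : (Q.take s).length = s := by rw [List.length_take]; omega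
  rw [h.loc P (Q.take s) (by omega), h.loc P' (Q.take s) (by omega)]

variable (D) in
/-- bad blocks -/
def Bad (X : List α) : Prop :=
  (∃ t, D.z ≤ t + D.N1 ∧ t < D.z + D.N1 ∧ t ≤ X.length ∧ D.Wo (X.take t)) ∨
    D.BadT (X.length - D.p0)

/-- completeness of scheme 1 off the bad blocks -/
theorem Ok.good_cut (h : Ok D) {X : List α} (hX : X ∈ XX D) (hB : ¬ Bad D X) (v : V) :
    ∃ P Q, X = P ++ Q ∧ LP1 D P v ∧ (R1 D Q).isSome := by
  have hz := h.hz
  obtain ⟨x1, x2, x3⟩ := hX
  unfold Bad at hB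
  push Not at hB
  obtain ⟨b1, b2⟩ := hB
  have hlen : (X.drop D.p0).length = X.length - D.p0 := List.length_drop
  obtain ⟨p, q, e, hp, r, hq⟩ := h.g3 (X.drop D.p0) (by omega) (by rw [hlen]; exact b2)
    (D.act v (pr D.φ (X.take D.p0)) + D.nu2 (X.take D.p0))
  have hpl := h.g2 p _ hp
  have htl : (X.take D.p0).length = D.p0 := by rw [List.length_take]; omega
  have hXe : X = (X.take D.p0 ++ p) ++ q := by
    rw [List.append_assoc, e, List.take_append_drop]
  have hPl : (X.take D.p0 ++ p).length = D.p0 + p.length := by rw [List.length_append, htl]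
  have hql : X.length = D.p0 + p.length + q.length := by
    conv_lhs => rw [hXe]
    rw [List.length_append, hPl]
  have hbig : D.z + D.N1 ≤ X.length := by
    by_contra hcon
    refine b1 X.length (by omega) (by omega) le_rfl ?_
    rw [List.take_length]; exact x2
  have hLP : LP1 D (X.take D.p0 ++ p) v := by
    refine ⟨by omega, ?_⟩
    have e1 : (X.take D.p0 ++ p).drop D.p0 = p := by
      rw [List.drop_append_of_le_length (by omega), List.drop_eq_nil_of_le (by omega),
        List.nil_append]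
    have e2 : (X.take D.p0 ++ p).take D.p0 = X.take D.p0 := by
      rw [List.take_append_of_le_length (by omega), List.take_take, min_self]
    rw [e1, e2]; exact hp
  refine ⟨_, _, hXe, hLP, ?_⟩
  rw [Option.isSome_iff_exists]
  refine ⟨r, R1_iff.2 ⟨?_, ?_, Or.inl ⟨_, _, hLP⟩⟩⟩
  · intro hn
    rw [hn] at hql
    simp at hql
    omega
  · intro P' v' hP'
    obtain ⟨a1, a2⟩ := hP'
    have a3 := h.g2 _ _ a2
    rw [List.length_drop] at a3
    constructor
    · refine ⟨by rw [List.length_append]; omega, ?_, ?_⟩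
      · rw [h.loc P' q (by omega), ← h.loc (X.take D.p0 ++ p) q (by omega), ← hXe]
        exact x2
      · intro t ht1 ht2 hw
        rw [List.length_append] at ht2
        obtain ⟨s, rfl⟩ : ∃ s, t = P'.length + s := ⟨t - P'.length, by omega⟩
        have hw' := (h.tr P' (X.take D.p0 ++ p) q (s := s) (by omega) (by omega)).1 hw
        rw [← hXe, hPl] at hw'
        by_cases hc : D.z ≤ D.p0 + p.length + s
        · exact x3 _ hc (by omega) hw'
        · exact b1 _ (by omega) (by omega) (by omega) hw'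
    · unfold T
      have e1 : (P' ++ q).take D.p0 = P'.take D.p0 := List.take_append_of_le_length a1
      have e2 : (P' ++ q).drop D.p0 = P'.drop D.p0 ++ q := List.drop_append_of_le_length a1
      rw [e1, e2]
      exact h.g1 _ _ _ _ a2 hq


section scheme2

variable (D) in
/-- spoiled by the end wall -/
def SE (U : List α) (k : ℕ) : Prop :=
  ∃ k' < D.K, k' ≠ k ∧ ∃ τ, τ ≤ U.length ∧ D.Wo (U.take τ) ∧
    D.z + D.c k ≤ τ + D.c k' + D.N1 ∧ τ + D.c k' < D.z + D.c k + D.N1

variable (D) in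
/-- spoiled by the length -/
def SB (e k : ℕ) : Prop := ∃ k' < D.K, k' ≠ k ∧ D.BadT (e - D.p0 + D.c k' - D.c k)

/-- the candidate block `k'` seen from the place `k` is not bad. -/
theorem Ok.cand (h : Ok D) {U : List α} {e0 e1 : ℕ} (hUl : 2 * D.z ≤ U.length)
    (hUw : D.Wo U)
    (h00 : D.z ≤ e0 + D.p0) (h0l : e0 ≤ U.length) (h0w : D.Wo (U.take e0))
    (h0m : ∀ t, D.z ≤ t + D.p0 → t ≤ U.length → D.Wo (U.take t) → e0 ≤ t)
    (h1g : e0 < e1) (h1l : e1 ≤ U.length) (h1w : D.Wo (U.take e1))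
    (h1m : ∀ t, e0 < t → t ≤ U.length → D.Wo (U.take t) → e1 ≤ t)
    {k k' : ℕ} (hk : k < D.K) (hk' : k' < D.K) (hkk : k' ≠ k)
    (n1 : ¬ SE D U k) (n2 : ¬ SB D e0 k) (n3 : ¬ SB D e1 k)
    {P' : List α} (hP' : P'.length = D.c k') :
    ∃ X' ∈ XX D, X' <+: P' ++ U.drop (D.c k) ∧ ¬ Bad D X' := by
  classical
  have hz := h.hz
  have hW := h.hW
  have c1 := h.cle k hk
  have c2 := h.cle k' hk'
  have hgap := h.gap U e0 e1 h1g h1l h0w h1w
  have hex : ∃ t, D.z + D.c k ≤ t + D.c k' ∧ t ≤ U.length ∧ D.Wo (U.take t) :=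
    ⟨U.length, by omega, le_rfl, by rw [List.take_length]; exact hUw⟩
  obtain ⟨e, he⟩ : ∃ e, e = Nat.find hex := ⟨_, rfl⟩
  obtain ⟨f1, f2, f3⟩ := Nat.find_spec hex
  rw [← he] at f1 f2 f3
  have fm : ∀ t, D.z + D.c k ≤ t + D.c k' → t ≤ U.length → D.Wo (U.take t) → e ≤ t := by
    intro t a b d
    rw [he]
    exact Nat.find_min' hex ⟨a, b, d⟩
  have hcase : e = e0 ∨ e = e1 := by
    have g1 := h0m e (by omega) f2 f3
    rcases Nat.eq_or_lt_of_le g1 with g2 | g2
    · left; exact g2.symm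
    · right
      have g3 := h1m e g2 f2 f3
      have g4 := fm e1 (by omega) h1l h1w
      omega
  have hUe : U.take (D.c k) ++ U.drop (D.c k) = U := List.take_append_drop _ _
  have hPl : (U.take (D.c k)).length = D.c k := by rw [List.length_take]; omega
  have hQl : (U.drop (D.c k)).length = U.length - D.c k := List.length_drop
  -- transfer
  have tr : ∀ s, D.n ≤ s → s + D.c k ≤ U.length →
      (D.Wo ((P' ++ U.drop (D.c k)).take (D.c k' + s)) ↔ D.Wo (U.take (D.c k + s))) := by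
    intro s hs1 hs2
    have := h.tr P' (U.take (D.c k)) (U.drop (D.c k)) (s := s) hs1 (by omega)
    rwa [hUe, hP', hPl] at this
  obtain ⟨s, hs⟩ : ∃ s, e = D.c k + s := ⟨e - D.c k, by omega⟩
  have hXl : ((P' ++ U.drop (D.c k)).take (D.c k' + s)).length = D.c k' + s := by
    rw [List.length_take, List.length_append]; omega
  refine ⟨(P' ++ U.drop (D.c k)).take (D.c k' + s), ⟨by omega, ?_, ?_⟩, List.take_prefix _ _, ?_⟩
  · rw [tr s (by omega) (by omega), ← hs]; exact f3
  · intro t ht1 ht2 hw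
    rw [hXl] at ht2
    rw [List.take_take, min_eq_left (by omega)] at hw
    obtain ⟨s', rfl⟩ : ∃ s', t = D.c k' + s' := ⟨t - D.c k', by omega⟩
    have hw' := (tr s' (by omega) (by omega)).1 hw
    have := fm _ (by omega) (by omega) hw'
    omega
  · rintro (⟨t, t1, t2, t3, t4⟩ | hb)
    · rw [hXl] at t3
      rw [List.take_take, min_eq_left (by omega)] at t4
      obtain ⟨s', rfl⟩ : ∃ s', t = D.c k' + s' := ⟨t - D.c k', by omega⟩
      have hw' := (tr s' (by omega) (by omega)).1 t4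
      exact n1 ⟨k', hk', hkk, D.c k + s', by omega, hw', by omega, by omega⟩
    · rw [hXl] at hb
      have hb' : D.BadT (e - D.p0 + D.c k' - D.c k) := by
        have : D.c k' + s - D.p0 = e - D.p0 + D.c k' - D.c k := by omega
        rwa [this] at hb
      rcases hcase with g | g
      · rw [g] at hb'; exact n2 ⟨k', hk', hkk, hb'⟩
      · rw [g] at hb'; exact n3 ⟨k', hk', hkk, hb'⟩

/-- **`cc` of 163's `top`**: every block is cut by scheme 1 or by scheme 2 -/
theorem Ok.cc (h : Ok D) {X X2 : List α} (hX : X ∈ XX D) (hX2 : X2 ∈ XX D) (v : V) :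
    (∃ P Q, X = P ++ Q ∧ LP1 D P v ∧ (R1 D Q).isSome) ∨
    (∃ P Q, X ++ X2 = P ++ Q ∧ P.length < X.length ∧ LP2 D P v ∧ (R2 D Q).isSome) := by
  classical
  by_cases hB : Bad D X
  swap
  · left; exact h.good_cut hX hB v
  right
  have hz := h.hz
  have hW := h.hW
  obtain ⟨U, hU⟩ : ∃ U, U = X ++ X2 := ⟨_, rfl⟩
  have hXl := hX.1
  have hX2l := hX2.1
  have hUl : U.length = X.length + X2.length := by rw [hU, List.length_append]
  have hUw : D.Wo U := by rw [hU, h.loc X X2 (by omega)]; exact hX2.2.1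
  have hXw : D.Wo (U.take X.length) := by
    rw [hU, List.take_left' rfl]; exact hX.2.1
  have hUw' : D.Wo (U.take U.length) := by rw [List.take_length]; exact hUw
  -- the first walls
  have hex0 : ∃ t, D.z ≤ t + D.p0 ∧ t ≤ U.length ∧ D.Wo (U.take t) :=
    ⟨X.length, by omega, by omega, hXw⟩
  obtain ⟨e0, he0⟩ : ∃ e, e = Nat.find hex0 := ⟨_, rfl⟩
  obtain ⟨h00, h0l, h0w⟩ := Nat.find_spec hex0
  rw [← he0] at h00 h0l h0w
  have h0m : ∀ t, D.z ≤ t + D.p0 → t ≤ U.length → D.Wo (U.take t) → e0 ≤ t := by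
    intro t a b d
    rw [he0]; exact Nat.find_min' hex0 ⟨a, b, d⟩
  have h0X := h0m X.length (by omega) (by omega) hXw
  have hex1 : ∃ t, e0 < t ∧ t ≤ U.length ∧ D.Wo (U.take t) :=
    ⟨U.length, by omega, le_rfl, hUw'⟩
  obtain ⟨e1, he1⟩ : ∃ e, e = Nat.find hex1 := ⟨_, rfl⟩
  obtain ⟨h1g, h1l, h1w⟩ := Nat.find_spec hex1
  rw [← he1] at h1g h1l h1w
  have h1m : ∀ t, e0 < t → t ≤ U.length → D.Wo (U.take t) → e1 ≤ t := by
    intro t a b d
    rw [he1]; exact Nat.find_min' hex1 ⟨a, b, d⟩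
  -- counting
  have hA : ((Finset.range D.K).filter (SE D U)).card ≤ 1 := by
    rw [Finset.card_le_one]
    intro a ha b hb
    rw [Finset.mem_filter, Finset.mem_range] at ha hb
    obtain ⟨ha, a', ha', haa, τ, a1, a2, a3, a4⟩ := ha
    obtain ⟨hb, b', hb', hbb, σ, b1, b2, b3, b4⟩ := hb
    have q1 := h.cle a ha
    have q2 := h.cle a' ha'
    have q3 := h.cle b hb
    have q4 := h.cle b' hb'
    have hts : τ = σ := by
      by_contra hne
      rcases Nat.lt_or_gt_of_ne hne with hlt | hlt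
      · have := h.gap U τ σ hlt b1 a2 b2
        omega
      · have := h.gap U σ τ hlt a1 b2 a2
        omega
    subst hts
    exact h.sparse a a' b b' ha ha' hb hb' haa.symm hbb.symm (by omega) (by omega)
  have hBc : ∀ e, D.z ≤ e + D.p0 → ((Finset.range D.K).filter (SB D e)).card ≤ D.C0 := by
    intro e he
    refine h.spoil (e - D.p0) (by omega) _ ?_
    intro k hk
    rw [Finset.mem_filter, Finset.mem_range] at hk
    exact hk
  have hB0 := hBc e0 h00
  have hB1 := hBc e1 (by omega)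
  obtain ⟨I, hI, hIk⟩ := h.e2 (X.take D.p0) v (by rw [List.length_take]; omega)
  obtain ⟨k, hkI, hk1, hk2, hk3⟩ : ∃ k ∈ I, ¬ SE D U k ∧ ¬ SB D e0 k ∧ ¬ SB D e1 k := by
    by_contra hcon
    push Not at hcon
    have hsub : I ⊆ (Finset.range D.K).filter (SE D U) ∪ ((Finset.range D.K).filter (SB D e0) ∪
        (Finset.range D.K).filter (SB D e1)) := by
      intro k hk
      have hkK := (hIk k hk).1
      simp only [Finset.mem_union, Finset.mem_filter, Finset.mem_range]
      by_cases w1 : SE D U k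
      · exact Or.inl ⟨hkK, w1⟩
      · by_cases w2 : SB D e0 k
        · exact Or.inr (Or.inl ⟨hkK, w2⟩)
        · exact Or.inr (Or.inr ⟨hkK, hcon k hk w1 w2⟩)
    have c1 := Finset.card_le_card hsub
    have c2 := Finset.card_union_le ((Finset.range D.K).filter (SE D U))
      ((Finset.range D.K).filter (SB D e0) ∪ (Finset.range D.K).filter (SB D e1))
    have c3 := Finset.card_union_le ((Finset.range D.K).filter (SB D e0))
      ((Finset.range D.K).filter (SB D e1))
    omega
  obtain ⟨hkK, hlam, b0, hrho⟩ := hIk k hkI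
  have hck := h.cle k hkK
  have t1 : (X.take D.p0).take (D.c k) = X.take (D.c k) := by
    rw [List.take_take, min_eq_left hck]
  have t2 : (X.take D.p0).drop (D.c k) = (X.drop (D.c k)).take (D.p0 - D.c k) := List.drop_take
  rw [t1] at hlam
  rw [t2] at hrho
  have hPl : (X.take (D.c k)).length = D.c k := by rw [List.length_take]; omega
  have hXe : X.take (D.c k) ++ X.drop (D.c k) = X := List.take_append_drop _ _
  have hQ1l : (X.drop (D.c k)).length = X.length - D.c k := List.length_drop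
  have hUQ : U.drop (D.c k) = X.drop (D.c k) ++ X2 := by
    rw [hU, List.drop_append_of_le_length (by omega)]
  have hLP : LP2 D (X.take (D.c k)) v := ⟨k, hkK, hPl, hlam⟩
  refine ⟨X.take (D.c k), U.drop (D.c k), ?_, by omega, hLP, ?_⟩
  · rw [hUQ, ← List.append_assoc, hXe]
  -- the common value at the end of the prefix
  have hval : ∀ P' v', P'.length = D.c k → D.lam k P' = some v' →
      T D v' (P' ++ X.drop (D.c k)) = D.act b0 (pr D.φ (X.drop D.p0)) + D.nu1 (X.drop D.p0) := by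
    intro P' v' hl' hlam'
    have e1 : (P' ++ X.drop (D.c k)).take D.p0 = P' ++ (X.drop (D.c k)).take (D.p0 - D.c k) := by
      have : D.p0 = P'.length + (D.p0 - D.c k) := by omega
      conv_lhs => rw [this]
      rw [take_app]
    have e2 : (P' ++ X.drop (D.c k)).drop D.p0 = X.drop D.p0 := by
      rw [List.drop_append, List.drop_eq_nil_of_le (by omega), List.nil_append, hl',
        List.drop_drop]
      congr 1
      omega
    unfold T
    rw [e1, e2]
    have := h.e1 k hkK P' ((X.drop (D.c k)).take (D.p0 - D.c k)) v' b0 hl' (by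
      rw [List.length_append, List.length_take, hQ1l]; omega) hlam' hrho
    rw [← this]
  have hGood : ∀ P' v', LP2 D P' v' → Unc D P' v' (U.drop (D.c k)) →
      Good D P' v' (U.drop (D.c k)) (T D (T D v X) X2) := by
    rintro P' v' ⟨k', hk', hl', hlam'⟩ hun
    by_cases hkk : k' = k
    · subst hkk
      refine ⟨X.drop (D.c k'), X2, hUQ, ?_, ?_, hX2, ?_⟩
      · intro hn
        rw [hn] at hQ1l
        simp at hQ1l
        omega
      · refine ⟨by rw [List.length_append]; omega, ?_, ?_⟩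
        · rw [h.loc P' _ (by omega), ← h.loc (X.take (D.c k')) _ (by omega), hXe]
          exact hX.2.1
        · intro t ht1 ht2 hw
          rw [List.length_append] at ht2
          obtain ⟨s, rfl⟩ : ∃ s, t = P'.length + s := ⟨t - P'.length, by omega⟩
          have hw' := (h.tr P' (X.take (D.c k')) (X.drop (D.c k')) (s := s) (by omega)
            (by omega)).1 hw
          rw [hXe, hPl] at hw'
          exact hX.2.2 _ (by omega) (by omega) hw'
      · rw [hval P' v' hl' hlam', ← hval _ v hPl hlam, hXe]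
    · exfalso
      obtain ⟨X', hX', hpre, hnb⟩ := h.cand (U := U) (by omega) hUw h00 h0l h0w h0m h1g h1l h1w h1m
        hkK hk' hkk hk1 hk2 hk3 hl'
      obtain ⟨P'', Q'', hXX, hLP'', hR⟩ := h.good_cut hX' hnb v'
      have := h.cle k' hk'
      exact hun X' hX' hpre P'' Q'' hXX (by have := hLP''.1; omega) hLP'' hR
  have hQne : U.drop (D.c k) ≠ [] := by
    intro hn
    have : (U.drop (D.c k)).length = U.length - D.c k := List.length_drop
    rw [hn] at this
    simp at this
    omega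
  rw [Option.isSome_iff_exists]
  by_cases hex : ∃ P v, LP2 D P v ∧ Unc D P v (U.drop (D.c k))
  · exact ⟨_, R2_iff.2 ⟨hQne, hGood, Or.inl hex⟩⟩
  · refine ⟨0, R2_iff.2 ⟨hQne, ?_, Or.inr rfl⟩⟩
    intro P' v' a b
    exact (hex ⟨P', v', a, b⟩).elim

end scheme2

end Crest.Agent.R320.Inst_260
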