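import Crest.Agent.R320.Top5_110

/-!
# Row 320: geometry joint for the natural chain, over helper110's `top_sem` (helper261)

Blocks = first wall at a place `≥ z` (left-looking walls with window `n`, more than `W` apart).
Scheme 1 = any zone gadget `lam rho nu1` (complete when `BadT |u|` fails) read behind the first
`p0` letters; scheme 2 = exact gadget inside the first `p0` letters at the places `c k`.
`Bad` is defined semantically (blocks which scheme 1 does not cut), right labels are semantic.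
-/

set_option autoImplicit false

namespace Crest.Agent.R320.Inst_261

open Crest.Agent.R320.Hk_851 Crest.Agent.R320.Code110 Crest.Agent.R320.Top5_110

universe u v

/-- blocks of the natural chain rule -/
def XX {α : Type u} (Wo : List α → Prop) (z : ℕ) : Language α :=
  {X | z ≤ X.length ∧ Wo X ∧ ∀ t, z ≤ t → t < X.length → ¬ Wo (X.take t)}

theorem XX_PC {α : Type u} {Wo : List α → Prop} {z : ℕ} (hz : 0 < z) : PC (XX Wo z) := by
  constructor
  · rintro ⟨h, -⟩
    simp at h
    omega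
  · rintro a ⟨ha1, ha2, ha3⟩ b ⟨hb1, hb2, hb3⟩ hab
    have h1 : a = b.take a.length := by
      obtain ⟨t, rfl⟩ := hab
      simp
    rcases Nat.lt_or_ge a.length b.length with h | h
    · exact absurd (h1 ▸ ha2) (hb3 a.length ha1 h)
    · exact hab.eq_of_length (le_antisymm hab.length_le h)

section main

variable {α : Type u} {S V : Type v} [Monoid S] [AddCommGroup V]

/-- zone map -/
def TT (φ : List α → S) (act : V → S → V) (p0 : ℕ) (nu1 nu2 : List α → V) (X : List α) (v : V) :
    V :=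
  act (act v (φ (X.take p0)) + nu2 (X.take p0)) (φ (X.drop p0)) + nu1 (X.drop p0)

/-- left labels of scheme 1 -/
def LL1 (φ : List α → S) (act : V → S → V) (p0 : ℕ) (nu2 : List α → V)
    (lam : List α → Option V) (v : V) : Language α :=
  {p | ∃ P0 P', p = P0 ++ P' ∧ P0.length = p0 ∧ lam P' = some (act v (φ P0) + nu2 P0)}

/-- left labels of scheme 2 -/
def LL2 (Kc : ℕ) (c : ℕ → ℕ) (lam2 : ℕ → List α → Option V) (v : V) : Language α :=
  {p | ∃ k < Kc, p.length = c k ∧ lam2 k p = some v}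

/-- data and hypotheses -/
structure Ok (φ : List α → S) (act : V → S → V) (Wo : List α → Prop) (n z p0 N1 W Kc R C1 : ℕ)
    (lam rho : List α → Option V) (nu1 : List α → V) (BadT : ℕ → Prop) (c : ℕ → ℕ)
    (lam2 rho2 : ℕ → List α → Option V) (nu2 : List α → V) : Prop where
  hφ : ∀ u v, φ (u ++ v) = φ u * φ v
  hact : ∀ v s t, act v (s * t) = act (act v s) t
  hadd : ∀ v w s, act (v + w) s = act v s + act w s
  loc : ∀ P Q, n ≤ Q.length → (Wo (P ++ Q) ↔ Wo Q)
  gap : ∀ (P : List α) (s t : ℕ), s < t → t ≤ P.length → t ≤ s + W → z ≤ s + (p0 + N1) →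
    Wo (P.take s) → ¬ Wo (P.take t)
  glen : ∀ P v, lam P = some v → P.length < N1
  gsnd : ∀ P Q v b, N1 ≤ Q.length → lam P = some v → rho Q = some b →
    b = act v (φ (P ++ Q)) + nu1 (P ++ Q)
  gcmp : ∀ u : List α, 2 * N1 ≤ u.length → ¬ BadT u.length → ∀ v, ∃ P Q, u = P ++ Q ∧
    lam P = some v ∧ (rho Q).isSome
  esnd : ∀ k < Kc, ∀ (P Q : List α) (v b : V), P.length = c k → lam2 k P = some v →
    rho2 k Q = some b → b = act v (φ (P ++ Q)) + nu2 (P ++ Q)
  ecmp : ∀ u : List α, u.length = p0 → ∀ v, ∃ I : Finset ℕ, R ≤ I.card ∧ ∀ k ∈ I, k < Kc ∧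
    lam2 k (u.take (c k)) = some v ∧ (rho2 k (u.drop (c k))).isSome
  cle : ∀ k < Kc, c k ≤ p0
  gol : ∀ i j k l, i < Kc → j < Kc → k < Kc → l < Kc → i ≠ j → k ≠ l →
    c i + c l < c k + c j + 2 * N1 → c k + c j < c i + c l + 2 * N1 → i = k ∧ j = l
  thin : ∀ T, p0 ≤ T → {k | k < Kc ∧ ∃ k' < Kc, k' ≠ k ∧ BadT (T + c k' - c k)}.ncard ≤ C1
  hR : 1 + 2 * C1 < R
  hz : 3 * p0 + 2 * N1 + n + 1 ≤ z
  hW : 2 * p0 + 2 * N1 ≤ W
  hN : 0 < N1

variable {φ : List α → S} {act : V → S → V} {Wo : List α → Prop} {n z p0 N1 W Kc R C1 : ℕ}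
    {lam rho : List α → Option V} {nu1 : List α → V} {BadT : ℕ → Prop} {c : ℕ → ℕ}
    {lam2 rho2 : ℕ → List α → Option V} {nu2 : List α → V}

theorem ex1 {XX : Language α} {T : List α → V → V} {u : List α} (hu : u ∈ XX) {x y : V}
    (h : T u x = y) : u ∈ Exactly XX T 1 x y := by
  refine ⟨y, Language.mem_mul.2 ⟨u, ⟨hu, h⟩, [], ⟨rfl, rfl⟩, by simp⟩⟩

theorem ex2 {XX : Language α} {T : List α → V → V} {u t : List α} (hu : u ∈ XX) (ht : t ∈ XX)
    {x y1 y : V} (h1 : T u x = y1) (h : T t y1 = y) : u ++ t ∈ Exactly XX T 2 x y := by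
  exact ⟨y1, Language.mem_mul.2 ⟨u, ⟨hu, h1⟩, t, ex1 ht h, rfl⟩⟩

/-- transport of walls between two texts with a common right part -/
theorem trans (loc : ∀ P Q : List α, n ≤ Q.length → (Wo (P ++ Q) ↔ Wo Q)) (p' p q : List α)
    (s : ℕ) (hs : n ≤ s) (hq : s ≤ q.length) :
    Wo ((p' ++ q).take (p'.length + s)) ↔ Wo ((p ++ q).take (p.length + s)) := by
  have e1 : ∀ r : List α, (r ++ q).take (r.length + s) = r ++ q.take s := by
    intro r
    rw [List.take_append, List.take_of_length_le (by omega)]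
    congr 2
    omega
  have hl : n ≤ (q.take s).length := by
    rw [List.length_take]
    omega
  rw [e1, e1, loc _ _ hl, loc _ _ hl]

/-- **scheme 1 cuts a block without (E), (B)** -/
theorem cut1 (h : Ok φ act Wo n z p0 N1 W Kc R C1 lam rho nu1 BadT c lam2 rho2 nu2)
    {X : List α} (hX : X ∈ XX Wo z)
    (hE : ∀ s, z ≤ s + N1 → s < z + N1 → s ≤ X.length → ¬ Wo (X.take s))
    (hB : ¬ BadT (X.length - p0)) (x : V) :
    ∃ p q y, X = p ++ q ∧ p ∈ LL1 φ act p0 nu2 lam x ∧
      q ∈ Rsem (XX Wo z) (XX Wo z) (TT φ act p0 nu1 nu2) 0 (LL1 φ act p0 nu2 lam) y := by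
  obtain ⟨h1, h2, h3⟩ := hX
  have hz := h.hz
  have hlen : z + N1 ≤ X.length := by
    by_contra hc
    exact hE X.length (by omega) (by omega) le_rfl (by simpa using h2)
  have hXp : (X.take p0).length = p0 := by
    rw [List.length_take]
    omega
  have hYl : (X.drop p0).length = X.length - p0 := by simp
  obtain ⟨P, Q, hPQ, hP, hQ⟩ := h.gcmp (X.drop p0) (by rw [hYl]; omega) (by rw [hYl]; exact hB)
    (act x (φ (X.take p0)) + nu2 (X.take p0))
  obtain ⟨y, hy⟩ := Option.isSome_iff_exists.1 hQ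
  have hPN := h.glen _ _ hP
  have hXe : X = (X.take p0 ++ P) ++ Q := by
    rw [List.append_assoc, ← hPQ, List.take_append_drop]
  have hXl : X.length = p0 + P.length + Q.length := by
    conv_lhs => rw [hXe]
    simp only [List.length_append, hXp]
  refine ⟨X.take p0 ++ P, Q, y, hXe, ⟨X.take p0, P, rfl, hXp, hP⟩, ?_⟩
  intro x' p' hp'
  left
  obtain ⟨P0, P', rfl, hP0, hP'⟩ := hp'
  have hP'N := h.glen _ _ hP'
  have hpl : (P0 ++ P').length = p0 + P'.length := by rw [List.length_append, hP0]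
  have hpl2 : (X.take p0 ++ P).length = p0 + P.length := by rw [List.length_append, hXp]
  have hnQ : n ≤ Q.length := by omega
  have hmem : ((P0 ++ P') ++ Q) ∈ XX Wo z := by
    refine ⟨?_, ?_, ?_⟩
    · rw [List.length_append, hpl]
      omega
    · rw [h.loc _ _ hnQ]
      rw [hXe, h.loc _ _ hnQ] at h2
      exact h2
    intro s hs1 hs2 hw
    rw [List.length_append, hpl] at hs2
    have e : s = (P0 ++ P').length + (s - (p0 + P'.length)) := by rw [hpl]; omega
    rw [e] at hw
    have hw2 := (trans h.loc (P0 ++ P') (X.take p0 ++ P) Q (s - (p0 + P'.length)) (by omega)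
      (by omega)).1 hw
    rw [← hXe, hpl2] at hw2
    rcases Nat.lt_or_ge (p0 + P.length + (s - (p0 + P'.length))) z with h5 | h5
    · exact hE _ (by omega) (by omega) (by omega) hw2
    · exact h3 _ h5 (by omega) hw2
  refine ex1 hmem ?_
  · unfold TT
    have e1 : ((P0 ++ P') ++ Q).take p0 = P0 := by
      rw [List.append_assoc, List.take_append_of_le_length (by omega), ← hP0, List.take_length]
    have e2 : ((P0 ++ P') ++ Q).drop p0 = P' ++ Q := by
      rw [List.append_assoc, ← hP0, List.drop_left]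
    rw [e1, e2]
    exact (h.gsnd P' Q _ _ (by omega) hP' hy).symm

/-- blocks which scheme 1 does not cut -/
def Bd (φ : List α → S) (act : V → S → V) (Wo : List α → Prop) (z p0 : ℕ)
    (lam : List α → Option V) (nu1 nu2 : List α → V) : Language α :=
  {X | X ∈ XX Wo z ∧ ∃ x, ¬ ∃ p q y, X = p ++ q ∧ p ∈ LL1 φ act p0 nu2 lam x ∧
      q ∈ Rsem (XX Wo z) (XX Wo z) (TT φ act p0 nu1 nu2) 0 (LL1 φ act p0 nu2 lam) y}

theorem fin_lt (p : ℕ → Prop) : {k | k < Kc ∧ p k}.Finite :=
  (Set.finite_lt_nat Kc).subset fun _ hk => hk.1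

/-- **scheme 2 cuts every pair of bad blocks** -/
theorem cut2 (h : Ok φ act Wo n z p0 N1 W Kc R C1 lam rho nu1 BadT c lam2 rho2 nu2)
    {u t : List α} (hu : u ∈ Bd φ act Wo z p0 lam nu1 nu2)
    (ht : t ∈ Bd φ act Wo z p0 lam nu1 nu2) (x : V) :
    ∃ p q y, u ++ t = p ++ q ∧ p ∈ LL2 Kc c lam2 x ∧
      q ∈ Rsem (XX Wo z) (Bd φ act Wo z p0 lam nu1 nu2) (TT φ act p0 nu1 nu2) 1
        (LL2 Kc c lam2) y := by
  classical
  obtain ⟨hu1, hu2, hu3⟩ := hu.1
  obtain ⟨ht1, ht2, ht3⟩ := ht.1
  have hz := h.hz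
  have hW := h.hW
  have hN := h.hN
  have hp0 : (u.take p0).length = p0 := by
    rw [List.length_take]
    omega
  obtain ⟨I, hI, hI2⟩ := h.ecmp (u.take p0) hp0 x
  set U := u ++ t with hU
  have hUl : U.length = u.length + t.length := List.length_append
  have hUW : Wo U := (h.loc u t (by omega)).2 ht2
  have hwb : ∃ s, z + p0 < s ∧ s ≤ U.length ∧ Wo (U.take s) :=
    ⟨U.length, by omega, le_rfl, by simpa using hUW⟩
  obtain ⟨wb1, wb2, wb3⟩ := Nat.find_spec hwb
  have wb4 : ∀ s, z + p0 < s → s ≤ U.length → Wo (U.take s) → Nat.find hwb ≤ s :=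
    fun s a b d => Nat.find_min' hwb ⟨a, b, d⟩
  set wb := Nat.find hwb with hwbdef
  let SE : Set ℕ := {k | k < Kc ∧ ∃ k' < Kc, k' ≠ k ∧ ∃ s ≤ U.length, Wo (U.take s) ∧
    z + c k ≤ s + c k' + N1 ∧ s + c k' < z + c k + N1}
  let SA : Set ℕ := {k | k < Kc ∧ ∃ k' < Kc, k' ≠ k ∧ ∃ s, s ≤ U.length ∧ Wo (U.take s) ∧
    z ≤ s + p0 ∧ s ≤ z + p0 ∧ BadT (s - p0 + c k' - c k)}
  let SB : Set ℕ := {k | k < Kc ∧ ∃ k' < Kc, k' ≠ k ∧ BadT (wb - p0 + c k' - c k)}
  have uniq : ∀ s s', s ≤ U.length → s' ≤ U.length → Wo (U.take s) → Wo (U.take s') →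
      z ≤ s + (p0 + N1) → z ≤ s' + (p0 + N1) → s ≤ z + (p0 + N1) → s' ≤ z + (p0 + N1) →
      s = s' := by
    intro s s' a1 a2 a3 a4 a5 a6 a7 a8
    rcases Nat.lt_trichotomy s s' with h1 | h1 | h1
    · exact absurd a4 (h.gap U s s' h1 a2 (by omega) a5 a3)
    · exact h1
    · exact absurd a3 (h.gap U s' s h1 a1 (by omega) a6 a4)
  have cE : SE.ncard ≤ 1 := by
    rw [Set.ncard_le_one (fin_lt _)]
    rintro k ⟨hk, k', hk', hne, s, hs1, hs2, hs3, hs4⟩ l ⟨hl, l', hl', hnel, s', hs1', hs2', hs3', hs4'⟩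
    have a1 := h.cle k hk
    have a2 := h.cle k' hk'
    have a3 := h.cle l hl
    have a4 := h.cle l' hl'
    have e := uniq s s' hs1 hs1' hs2 hs2' (by omega) (by omega) (by omega) (by omega)
    subst e
    exact (h.gol k k' l l' hk hk' hl hl' (Ne.symm hne) (Ne.symm hnel) (by omega) (by omega)).1
  have cA : SA.ncard ≤ C1 := by
    by_cases hex : ∃ s, s ≤ U.length ∧ Wo (U.take s) ∧ z ≤ s + p0 ∧ s ≤ z + p0
    · obtain ⟨s0, b1, b2, b3, b4⟩ := hex
      refine le_trans (Set.ncard_le_ncard ?_ (fin_lt _)) (h.thin (s0 - p0) (by omega))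
      rintro k ⟨hk, k', hk', hne, s, hs1, hs2, hs3, hs4, hs5⟩
      have e := uniq s s0 hs1 b1 hs2 b2 (by omega) (by omega) (by omega) (by omega)
      subst e
      exact ⟨hk, k', hk', hne, hs5⟩
    · have : SA = ∅ := by
        ext k
        simp only [Set.mem_empty_iff_false, iff_false]
        rintro ⟨hk, k', hk', hne, s, hs1, hs2, hs3, hs4, hs5⟩
        exact hex ⟨s, hs1, hs2, hs3, hs4⟩
      rw [this]
      simp
  have cB : SB.ncard ≤ C1 := h.thin (wb - p0) (by omega)
  have hk : ∃ k ∈ I, k ∉ SE ∧ k ∉ SA ∧ k ∉ SB := by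
    by_contra hcon
    push Not at hcon
    have hsub : (I : Set ℕ) ⊆ SE ∪ (SA ∪ SB) := by
      intro k hk
      by_cases h1 : k ∈ SE
      · exact Or.inl h1
      · by_cases h2 : k ∈ SA
        · exact Or.inr (Or.inl h2)
        · exact Or.inr (Or.inr (hcon k hk h1 h2))
    have hfin : (SE ∪ (SA ∪ SB)).Finite := (fin_lt _).union ((fin_lt _).union (fin_lt _))
    have h1 := Set.ncard_le_ncard hsub hfin
    rw [Set.ncard_coe_finset] at h1
    have h2 := Set.ncard_union_le SE (SA ∪ SB)
    have h3 := Set.ncard_union_le SA SB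
    have h4 := h.hR
    omega
  obtain ⟨k, hkI, hkE, hkA, hkB⟩ := hk
  obtain ⟨hkK, hlam, hrho⟩ := hI2 k hkI
  obtain ⟨b, hb⟩ := Option.isSome_iff_exists.1 hrho
  have hck := h.cle k hkK
  have htk : (u.take p0).take (c k) = u.take (c k) := by
    rw [List.take_take, min_eq_left hck]
  rw [htk] at hlam
  set q := U.drop (c k) with hq
  have hUt : U.take (c k) = u.take (c k) := List.take_append_of_le_length (by omega)
  have hpl : (U.take (c k)).length = c k := by
    rw [List.length_take]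
    omega
  have hqe : q = u.drop (c k) ++ t := List.drop_append_of_le_length (by omega)
  have hql : q.length = U.length - c k := List.length_drop
  have hUe : U.take (c k) ++ q = U := List.take_append_drop _ _
  -- transport between the candidate text and `U`
  have tr : ∀ (p' : List α) (s : ℕ), n ≤ s → s ≤ q.length →
      (Wo ((p' ++ q).take (p'.length + s)) ↔ Wo (U.take (c k + s))) := by
    intro p' s h1 h2
    have := trans h.loc p' (U.take (c k)) q s h1 h2
    rw [hUe, hpl] at this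
    exact this
  refine ⟨U.take (c k), q, TT φ act p0 nu1 nu2 t
    (act b (φ (u.drop p0)) + nu1 (u.drop p0)), hUe.symm, ⟨k, hkK, hpl, by rw [hUt]; exact hlam⟩, ?_⟩
  intro x' p' hp'
  obtain ⟨k', hk', hlen', hlam'⟩ := hp'
  have hck' := h.cle k' hk'
  change p' ++ q ∈ Exactly _ _ 2 _ _ ∨ p' ++ q ∈ Off _ _ 1
  by_cases hkk : k' = k
  · subst hkk
    have hdl : (u.drop (c k')).length = u.length - c k' := List.length_drop
    have hmem : p' ++ u.drop (c k') ∈ XX Wo z := by
      refine ⟨?_, ?_, ?_⟩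
      · rw [List.length_append, hdl]
        omega
      · rw [h.loc _ _ (by omega)]
        have : Wo (u.take (c k') ++ u.drop (c k')) := by rw [List.take_append_drop]; exact hu2
        exact (h.loc _ _ (by omega)).1 this
      · intro s hs1 hs2 hw
        rw [List.length_append, hdl, hlen'] at hs2
        have e : s = p'.length + (s - c k') := by omega
        rw [e] at hw
        have hw2 := (trans h.loc p' (u.take (c k')) (u.drop (c k')) (s - c k') (by omega)
          (by omega)).1 hw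
        rw [List.take_append_drop, List.length_take, min_eq_left (by omega)] at hw2
        exact hu3 _ (by omega) (by omega) hw2
    have hpq : p' ++ q = (p' ++ u.drop (c k')) ++ t := by rw [hqe, List.append_assoc]
    by_cases hbad : p' ++ u.drop (c k') ∈ Bd φ act Wo z p0 lam nu1 nu2
    · left
      rw [hpq]
      refine ex2 hbad ht ?_ rfl
      unfold TT
      have e0 : u.drop (c k') = (u.take p0).drop (c k') ++ u.drop p0 := by
        conv_lhs => rw [← List.take_append_drop p0 u]
        rw [List.drop_append_of_le_length (by omega)]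
      have e3 : (p' ++ (u.take p0).drop (c k')).length = p0 := by
        rw [List.length_append, List.length_drop]
        omega
      have e1 : (p' ++ u.drop (c k')).take p0 = p' ++ (u.take p0).drop (c k') := by
        rw [e0, ← List.append_assoc]
        exact List.take_left' e3
      have e2 : (p' ++ u.drop (c k')).drop p0 = u.drop p0 := by
        rw [e0, ← List.append_assoc]
        exact List.drop_left' e3
      rw [e1, e2, ← h.esnd k' hk' p' ((u.take p0).drop (c k')) x' b hlen' hlam' hb]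
    · right
      left
      exact ⟨_, hmem, hbad, ⟨t, hpq.symm⟩⟩
  · right
    left
    have hPl : (p' ++ q).length = c k' + q.length := by rw [List.length_append, hlen']
    have hex : ∃ s, z ≤ s ∧ s ≤ (p' ++ q).length ∧ Wo ((p' ++ q).take s) := by
      refine ⟨(p' ++ q).length, by omega, le_rfl, ?_⟩
      rw [List.take_length, h.loc _ _ (by omega)]
      rw [← hUe] at hUW
      exact (h.loc _ _ (by omega)).1 hUW
    obtain ⟨f1, f2, f3⟩ := Nat.find_spec hex
    have f4 : ∀ s, s < Nat.find hex → ¬ (z ≤ s ∧ s ≤ (p' ++ q).length ∧ Wo ((p' ++ q).take s)) :=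
      fun s hs => Nat.find_min hex hs
    set N' := Nat.find hex with hN'
    have hXl : ((p' ++ q).take N').length = N' := by
      rw [List.length_take]
      omega
    have hmem : (p' ++ q).take N' ∈ XX Wo z := by
      refine ⟨by omega, f3, ?_⟩
      intro s hs1 hs2 hw
      rw [List.take_take, min_eq_left (by omega)] at hw
      exact f4 s (by omega) ⟨hs1, by omega, hw⟩
    refine ⟨_, hmem, ?_, List.take_prefix _ _⟩
    rintro ⟨-, x2, hx2⟩
    refine hx2 (cut1 h hmem ?_ ?_ x2)
    · intro s hs1 hs2 hs3 hw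
      rw [hXl] at hs3
      rw [List.take_take, min_eq_left hs3] at hw
      have e : s = p'.length + (s - c k') := by omega
      rw [e] at hw
      have hw2 := (tr p' (s - c k') (by omega) (by omega)).1 hw
      exact hkE ⟨hkK, k', hk', hkk, c k + (s - c k'), by omega, hw2, by omega, by omega⟩
    · intro hB
      rw [hXl] at hB
      have e : N' = p'.length + (N' - c k') := by omega
      have hw := f3
      rw [e] at hw
      have hw2 := (tr p' (N' - c k') (by omega) (by omega)).1 hw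
      rcases Nat.lt_or_ge (z + p0) (c k + (N' - c k')) with h5 | h5
      · have h6 : wb ≤ c k + (N' - c k') := wb4 _ h5 (by omega) hw2
        have h7 : c k + (N' - c k') ≤ wb := by
          by_contra h8
          refine f4 (c k' + (wb - c k)) (by omega) ⟨by omega, by omega, ?_⟩
          rw [← hlen']
          rw [tr p' (wb - c k) (by omega) (by omega)]
          have e9 : c k + (wb - c k) = wb := by omega
          rw [e9]
          exact wb3
        refine hkB ⟨hkK, k', hk', hkk, ?_⟩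
        have e8 : wb - p0 + c k' - c k = N' - p0 := by omega
        rw [e8]
        exact hB
      · refine hkA ⟨hkK, k', hk', hkk, c k + (N' - c k'), by omega, hw2, by omega, h5, ?_⟩
        have e8 : c k + (N' - c k') - p0 + c k' - c k = N' - p0 := by omega
        rw [e8]
        exact hB

theorem LL1_fin [Finite α] (hg : ∀ P v, lam P = some v → P.length < N1) (v : V) :
    {p | p ∈ LL1 φ act p0 nu2 lam v}.Finite := by
  refine (List.finite_length_le α (p0 + N1)).subset ?_
  rintro p ⟨P0, P', rfl, h1, h2⟩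
  have := hg _ _ h2
  show (P0 ++ P').length ≤ p0 + N1
  rw [List.length_append]
  omega

theorem LL2_fin [Finite α] (hc : ∀ k < Kc, c k ≤ p0) (v : V) :
    {p : List α | p ∈ LL2 Kc c lam2 v}.Finite := by
  refine (List.finite_length_le α p0).subset ?_
  rintro p ⟨k, hk, h1, -⟩
  show p.length ≤ p0
  rw [h1]
  exact hc k hk

/-- the bad blocks have height 1 as soon as the block languages have -/
theorem Bd_hl [Finite α] [Finite V] (hg : ∀ P v, lam P = some v → P.length < N1)
    (H1 : HL 1 (XX Wo z)) (H3 : ∀ x y, HL 1 (ZT (XX Wo z) (TT φ act p0 nu1 nu2) x y)) :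
    HL 1 (Bd φ act Wo z p0 lam nu1 nu2) := by
  have hR : ∀ y, HL 1 (Rsem (XX Wo z) (XX Wo z) (TT φ act p0 nu1 nu2) 0
      (LL1 φ act p0 nu2 lam) y) := Rsem.hl (LL1_fin hg) H1 H1 H3
  have h1 : HL 1 ({X | X ∈ XX Wo z ∧ ∃ x, ¬ ∃ y, X ∈ (LL1 φ act p0 nu2 lam x *
      Rsem (XX Wo z) (XX Wo z) (TT φ act p0 nu1 nu2) 0 (LL1 φ act p0 nu2 lam) y : Language α)} :
      Language α) :=
    HL.setOf_and H1 (HL.iUnion fun x => HL.setOf_not (HL.iUnion fun y =>
      (HL.finite (LL1_fin hg x)).mul (hR y)))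
  refine h1.congr fun X => ?_
  constructor
  · rintro ⟨a, x, hx⟩
    refine ⟨a, x, ?_⟩
    rintro ⟨y, hy⟩
    obtain ⟨p, hp, q, hq, rfl⟩ := Language.mem_mul.1 hy
    exact hx ⟨p, q, y, rfl, hp, hq⟩
  · rintro ⟨a, x, hx⟩
    refine ⟨a, x, ?_⟩
    rintro ⟨p, q, y, rfl, hp, hq⟩
    exact hx ⟨y, Language.mem_mul.2 ⟨p, hp, q, hq, rfl⟩⟩

/-- **MAIN: everything but the walls' height statements and the two gadgets** -/
theorem main [Finite α] [Finite V] [Finite S]
    (h : Ok φ act Wo n z p0 N1 W Kc R C1 lam rho nu1 BadT c lam2 rho2 nu2)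
    (hφ0 : φ [] = 1) (hact1 : ∀ v, act v 1 = v)
    (hfaith : ∀ s t : S, (∀ v, act v s = act v t) → s = t)
    (H1 : HL 1 (XX Wo z)) (H3 : ∀ x y, HL 1 (ZT (XX Wo z) (TT φ act p0 nu1 nu2) x y))
    (H4 : ∀ s, HL 3 ({w | (∀ u ∈ XX Wo z, ¬ u <+: w) ∧ φ w = s} : Language α)) (s : S) :
    HL 3 ({w | φ w = s} : Language α) := by
  have hz := h.hz
  have hsub : ∀ v v' s, act (v - v') s = act v s - act v' s := by
    intro v v' s
    have := h.hadd (v - v') v' s
    rw [sub_add_cancel] at this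
    rw [this, add_sub_cancel_right]
  refine top_sem (XX := XX Wo z) (Bad := Bd φ act Wo z p0 lam nu1 nu2)
    (T := TT φ act p0 nu1 nu2) hφ0 h.hφ hact1 h.hact hfaith (XX_PC (by omega))
    (fun u hu => hu.1) ?_ H1 (Bd_hl h.glen H1 H3) H3 H4 (N1 := 0) (N2 := 1)
    (L1 := LL1 φ act p0 nu2 lam) (L2 := LL2 Kc c lam2) (LL1_fin h.glen) (LL2_fin h.cle) ?_ ?_ s
  · intro u _ v v'
    unfold TT
    have e : φ u = φ (u.take p0) * φ (u.drop p0) := by
      rw [← h.hφ, List.take_append_drop]
    rw [add_sub_add_right_eq_sub, ← hsub, add_sub_add_right_eq_sub, ← hsub, ← h.hact, ← e]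
  · intro u hu hb x t ht
    have ht' : t = [] := by
      rw [pow_zero] at ht
      exact (Language.mem_one t).1 ht
    subst ht'
    by_contra hc
    refine hb ⟨hu, x, ?_⟩
    rintro ⟨p, q, y, h1, h2, h3⟩
    exact hc ⟨p, q, y, by rw [List.append_nil]; exact h1, h2, h3⟩
  · intro u hu x t ht
    rw [pow_one] at ht
    exact cut2 h hu ht x

end main

end Crest.Agent.R320.Inst_261
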