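import Mathlib

/-!
# Row 320: the two schemes on blocks of outer walls, natural chain rule (helper272)

Left-looking outer walls `Wo` (window `n`, distance `> W`), blocks `XX` = from an anchor to the first
wall at distance `≥ z`.  Scheme 1 = any gadget `LU, RU, nu1` on words with a bad set `BadT` of
lengths only (693 / 638); scheme 2 = promise ruler `c` over the exact gadget `lam, rho, nu2` on words
of length `p0`.  Results: the hypotheses `hnil, hPC, hT, hR1, hR2, s1, s2, cc` of 163's `top`.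
-/

set_option autoImplicit false

namespace Crest.Agent.R320.Inst_272

variable {α V S : Type*}

structure Data (α V S : Type*) [AddCommGroup V] [Monoid S] where
  φ : List α → S
  act : V → S → V
  Wo : List α → Prop
  n : ℕ
  W : ℕ
  z : ℕ
  p0 : ℕ
  N1 : ℕ
  BadT : ℕ → Prop
  LU : List α → Option V
  RU : List α → Option V
  nu1 : List α → V
  K : ℕ
  Rr : ℕ
  r0 : ℕ
  Lam : ℕ
  c : ℕ → ℕ
  lam : ℕ → List α → Option V
  rho : ℕ → List α → Option V
  nu2 : List α → V

namespace Data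

variable [AddCommGroup V] [Monoid S] (D : Data α V S)

/-- all the hypotheses -/
structure Ok : Prop where
  phi_nil : D.φ [] = 1
  phi_app : ∀ u v, D.φ (u ++ v) = D.φ u * D.φ v
  act_mul : ∀ v s s', D.act (D.act v s) s' = D.act v (s * s')
  act_add : ∀ v w s, D.act (v + w) s = D.act v s + D.act w s
  w_loc : ∀ u v, D.n ≤ v.length → (D.Wo (u ++ v) ↔ D.Wo v)
  w_len : ∀ u, D.Wo u → D.n ≤ u.length
  w_gap : ∀ u v, D.Wo u → D.Wo (u ++ v) → v ≠ [] → D.W < v.length
  hz : D.p0 + D.N1 + D.Lam + D.n < D.z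
  hW : 2 * D.Lam + 2 * D.N1 ≤ D.W
  u_sound : ∀ P Q v b, D.LU P = some v → D.RU Q = some b →
    b = D.act v (D.φ (P ++ Q)) + D.nu1 (P ++ Q)
  u_len : ∀ P v, D.LU P = some v → P.length < D.N1
  u_complete : ∀ Y, D.N1 ≤ Y.length → ¬ D.BadT Y.length → ∀ v, ∃ P Q, Y = P ++ Q ∧
    D.LU P = some v ∧ (D.RU Q).isSome
  hK : ∀ k < D.K, D.c k ≤ D.Lam ∧ D.c k < D.p0
  g_sound : ∀ k < D.K, ∀ P Q v b, P.length = D.c k → P.length + Q.length = D.p0 →
    D.lam k P = some v → D.rho k Q = some b → b = D.act v (D.φ (P ++ Q)) + D.nu2 (P ++ Q)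
  g_complete : ∀ X : List α, X.length = D.p0 → ∀ J : Finset ℕ, J.card < D.Rr → ∀ v, ∃ k < D.K,
    k ∉ J ∧ D.lam k (X.take (D.c k)) = some v ∧ (D.rho k (X.drop (D.c k))).isSome
  hR : 1 + 2 * D.r0 < D.Rr
  c_inj : ∀ j k, j < D.K → k < D.K → D.c j = D.c k → j = k
  c_sp : ∀ k j k' j', k < D.K → j < D.K → k' < D.K → j' < D.K → j ≠ k → j' ≠ k' →
    D.c k + D.c j' ≤ D.c k' + D.c j + 2 * D.N1 → D.c k' + D.c j ≤ D.c k + D.c j' + 2 * D.N1 →
    k = k'
  c_bad : ∀ t : ℕ, ∀ J : Finset ℕ, (∀ k ∈ J, k < D.K ∧ ∃ j < D.K, j ≠ k ∧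
    ∃ l, l + D.c k = t + D.c j ∧ D.BadT l) → J.card ≤ D.r0

/-- the block code -/
def XX : Set (List α) :=
  {X | D.z ≤ X.length ∧ D.Wo X ∧ ∀ y < X.length, D.z ≤ y → ¬ D.Wo (X.take y)}

def T (v : V) (X : List α) : V :=
  D.act (D.act v (D.φ (X.take D.p0)) + D.nu2 (X.take D.p0)) (D.φ (X.drop D.p0))
    + D.nu1 (X.drop D.p0)

def nu (X : List α) : V :=
  D.act (D.nu2 (X.take D.p0)) (D.φ (X.drop D.p0)) + D.nu1 (X.drop D.p0)

def LP1 (P : List α) (v : V) : Prop :=
  D.p0 ≤ P.length ∧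
    D.LU (P.drop D.p0) = some (D.act v (D.φ (P.take D.p0)) + D.nu2 (P.take D.p0))

def RL (Q : List α) : Prop :=
  D.Wo Q ∧ D.z ≤ D.p0 + Q.length ∧ ∀ y < Q.length, D.z ≤ D.p0 + D.N1 + y → ¬ D.Wo (Q.take y)

open Classical in
noncomputable def R1 (Q : List α) : Option V := if D.RL Q then D.RU Q else none

/-- the block of the hypothetical anchor `c` letters before `Q` ends at `y` -/
def Nb (c : ℕ) (Q : List α) (y : ℕ) : Prop :=
  y ≤ Q.length ∧ D.z ≤ c + y ∧ D.Wo (Q.take y) ∧ ∀ y' < y, D.z ≤ c + y' → ¬ D.Wo (Q.take y')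

/-- the block of the hypothetical anchor is bad -/
def BadH (c : ℕ) (Q : List α) : Prop :=
  ∃ y, D.Nb c Q y ∧ (c + y < D.z + D.N1 ∨
    (∃ y' < y, D.z ≤ c + y' + D.N1 ∧ c + y' < D.z ∧ D.Wo (Q.take y')) ∨ D.BadT (c + y - D.p0))

def Bad (X : List α) : Prop :=
  X.length < D.z + D.N1 ∨
    (∃ y' < X.length, D.z ≤ y' + D.N1 ∧ y' < D.z ∧ D.Wo (X.take y')) ∨ D.BadT (X.length - D.p0)

def LP2 (P : List α) (v : V) : Prop := ∃ k < D.K, P.length = D.c k ∧ D.lam k P = some v

/-- right legality of scheme 2 at place `k` -/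
def RL2 (Q : List α) (k : ℕ) (b : V) : Prop :=
  k < D.K ∧ D.BadH (D.c k) Q ∧ (∀ j < D.K, D.BadH (D.c j) Q → j = k) ∧
    ∃ Q1 X2 r, Q = Q1 ++ X2 ∧ D.Nb (D.c k) Q Q1.length ∧ X2 ∈ D.XX ∧
      D.rho k (Q.take (D.p0 - D.c k)) = some r ∧
      b = D.T (D.act r (D.φ (Q1.drop (D.p0 - D.c k))) + D.nu1 (Q1.drop (D.p0 - D.c k))) X2

open Classical in
noncomputable def R2 (Q : List α) : Option V :=
  if h : ∃ b, ∃ k, D.RL2 Q k b then some h.choose else none

variable {D}

namespace Ok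

variable (h : D.Ok)
include h

theorem hnil : [] ∉ D.XX := by
  rintro ⟨h1, -, -⟩
  have := h.hz
  simp only [List.length_nil] at h1
  omega

theorem hPC : ∀ X ∈ D.XX, ∀ Y, X ++ Y ∈ D.XX → Y = [] := by
  intro X hX Y hY
  by_contra hne
  have h1 : 0 < Y.length := List.length_pos_iff.2 hne
  have := hY.2.2 X.length (by rw [List.length_append]; omega) hX.1
  rw [List.take_left' rfl] at this
  exact this hX.2.1

theorem hT : ∀ X ∈ D.XX, ∀ v, D.T v X = D.act v (D.φ X) + D.nu X := by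
  intro X _ v
  unfold T nu
  rw [h.act_add, h.act_mul, ← h.phi_app, List.take_append_drop, add_assoc]

theorem w_take {P Q : List α} {y : ℕ} (hy : P.length + D.n ≤ y) (hy2 : y ≤ P.length + Q.length) :
    D.Wo ((P ++ Q).take y) ↔ D.Wo (Q.take (y - P.length)) := by
  have e : (P ++ Q).take y = P ++ Q.take (y - P.length) := by
    rw [List.take_append]
    congr 1
    exact List.take_of_length_le (by omega)
  rw [e]
  apply h.w_loc
  rw [List.length_take]
  omega

theorem hR1 : ∀ Q b, D.R1 Q = some b → Q ≠ [] := by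
  intro Q b hb hQ
  unfold R1 at hb
  split_ifs at hb with hr
  have := hr.2.1
  have h2 := h.hz
  rw [hQ] at this
  simp only [List.length_nil] at this
  omega

theorem s1 : ∀ P v Q b, D.LP1 P v → D.R1 Q = some b → P ++ Q ∈ D.XX ∧ D.T v (P ++ Q) = b := by
  intro P v Q b hP hb
  unfold R1 at hb
  split_ifs at hb with hr
  obtain ⟨hp, hL⟩ := hP
  have hlen := h.u_len _ _ hL
  rw [List.length_drop] at hlen
  have hz := h.hz
  have hnQ := h.w_len _ hr.1
  refine ⟨⟨?_, ?_, ?_⟩, ?_⟩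
  · rw [List.length_append]; have := hr.2.1; omega
  · exact (h.w_loc P Q hnQ).2 hr.1
  · intro y hy hzy
    rw [List.length_append] at hy
    rw [h.w_take (by omega) (by omega)]
    exact hr.2.2 _ (by omega) (by omega)
  · have e1 : (P ++ Q).take D.p0 = P.take D.p0 := List.take_append_of_le_length hp
    have e2 : (P ++ Q).drop D.p0 = P.drop D.p0 ++ Q := List.drop_append_of_le_length hp
    unfold T
    rw [e1, e2]
    exact (h.u_sound _ _ _ _ hL hb).symm

/-- completeness of scheme 1 off the bad blocks -/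
theorem complete1 {X : List α} (hX : X ∈ D.XX) (hb : ¬ D.Bad X) (v : V) :
    ∃ P Q, X = P ++ Q ∧ D.LP1 P v ∧ (D.R1 Q).isSome := by
  unfold Bad at hb
  push Not at hb
  obtain ⟨b1, b2, b3⟩ := hb
  have hz := h.hz
  obtain ⟨P, Q, e, hP, hQ⟩ := h.u_complete (X.drop D.p0) (by rw [List.length_drop]; omega)
    (by rw [List.length_drop]; exact b3) (D.act v (D.φ (X.take D.p0)) + D.nu2 (X.take D.p0))
  have hlen := h.u_len _ _ hP
  have hl1 : (X.take D.p0).length = D.p0 := by rw [List.length_take]; omega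
  have eX : X = (X.take D.p0 ++ P) ++ Q := by
    rw [List.append_assoc, ← e, List.take_append_drop]
  have hXl : X.length = D.p0 + P.length + Q.length := by
    conv_lhs => rw [eX]
    rw [List.length_append, List.length_append, hl1]
  have hlP : (X.take D.p0 ++ P).length = D.p0 + P.length := by
    rw [List.length_append, hl1]
  have key : ∀ y, D.p0 + P.length + D.n ≤ y → y ≤ X.length →
      (D.Wo (X.take y) ↔ D.Wo (Q.take (y - (D.p0 + P.length)))) := by
    intro y h1 h2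
    have h3 := h.w_take (P := X.take D.p0 ++ P) (Q := Q) (y := y) (by omega) (by omega)
    rw [← eX, hlP] at h3
    exact h3
  refine ⟨X.take D.p0 ++ P, Q, eX, ⟨by omega, ?_⟩, ?_⟩
  · have e1 : (X.take D.p0 ++ P).drop D.p0 = P := List.drop_left' hl1
    have e2 : (X.take D.p0 ++ P).take D.p0 = X.take D.p0 := List.take_left' hl1
    rw [e1, e2]
    exact hP
  · unfold R1
    rw [if_pos]
    · exact hQ
    · refine ⟨?_, by omega, ?_⟩
      · have := (key X.length (by omega) le_rfl).1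
          (by rw [List.take_length]; exact hX.2.1)
        rw [hXl, Nat.add_sub_cancel_left, List.take_length] at this
        exact this
      · intro y hy hzy hw
        have hw2 : D.Wo (X.take (D.p0 + P.length + y)) := by
          rw [key _ (by omega) (by omega), Nat.add_sub_cancel_left]
          exact hw
        by_cases hc : D.z ≤ D.p0 + P.length + y
        · exact hX.2.2 _ (by omega) hc hw2
        · exact b2 (D.p0 + P.length + y) (by omega) (by omega) (by omega) hw2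

/-- the true hypothesis: blocks and badness seen from the right -/
theorem nb_iff {P Q : List α} {y : ℕ} (hP : P.length ≤ D.Lam) (hy : y ≤ Q.length) :
    P ++ Q.take y ∈ D.XX ↔ D.Nb P.length Q y := by
  have hz := h.hz
  have hl : (P ++ Q.take y).length = P.length + y := by
    rw [List.length_append, List.length_take]; omega
  have key : ∀ t, D.z ≤ P.length + t → t ≤ y →
      (D.Wo ((P ++ Q.take y).take (P.length + t)) ↔ D.Wo (Q.take t)) := by
    intro t h1 h2
    rw [h.w_take (by omega) (by rw [List.length_take]; omega), Nat.add_sub_cancel_left,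
      List.take_take, Nat.min_eq_left h2]
  constructor
  · rintro ⟨h1, h2, h3⟩
    rw [hl] at h1 h3
    refine ⟨hy, h1, ?_, ?_⟩
    · rw [← key y h1 le_rfl, ← hl, List.take_length]; exact h2
    · intro y' hy' hz'
      rw [← key y' hz' (by omega)]
      exact h3 _ (by omega) hz'
  · rintro ⟨_, h1, h2, h3⟩
    refine ⟨by rw [hl]; exact h1, ?_, ?_⟩
    · have := (key y h1 le_rfl).2 h2
      rwa [← hl, List.take_length] at this
    · intro t ht hzt
      rw [hl] at ht
      obtain ⟨s, rfl⟩ : ∃ s, t = P.length + s := ⟨t - P.length, by omega⟩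
      rw [key s hzt (by omega)]
      exact h3 s (by omega) hzt

theorem bad_iff {P Q : List α} {y : ℕ} (hP : P.length ≤ D.Lam) (hy : y ≤ Q.length)
    (hX : P ++ Q.take y ∈ D.XX) (hb : D.Bad (P ++ Q.take y)) : D.BadH P.length Q := by
  have hz := h.hz
  have hl : (P ++ Q.take y).length = P.length + y := by
    rw [List.length_append, List.length_take]; omega
  refine ⟨y, (h.nb_iff hP hy).1 hX, ?_⟩
  unfold Bad at hb
  rw [hl] at hb
  rcases hb with h1 | ⟨y', h1, h2, h3, h4⟩ | h1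
  · exact Or.inl h1
  · refine Or.inr (Or.inl ⟨y' - P.length, by omega, by omega, by omega, ?_⟩)
    rw [h.w_take (by omega) (by rw [List.length_take]; omega), List.take_take,
      Nat.min_eq_left (by omega)] at h4
    exact h4
  · exact Or.inr (Or.inr h1)

theorem nb_unique {c : ℕ} {Q : List α} {y y' : ℕ} (h1 : D.Nb c Q y) (h2 : D.Nb c Q y') :
    y = y' := by
  rcases Nat.lt_trichotomy y y' with hlt | heq | hgt
  · exact absurd h1.2.2.1 (h2.2.2.2 y hlt h1.2.1)
  · exact heq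
  · exact absurd h2.2.2.1 (h1.2.2.2 y' hgt h2.2.1)

theorem nb_exists {c : ℕ} {Q : List α} {y : ℕ} (hy : y ≤ Q.length) (h1 : D.z ≤ c + y)
    (h2 : D.Wo (Q.take y)) : ∃ t ≤ y, D.Nb c Q t := by
  classical
  have hex : ∃ t, D.z ≤ c + t ∧ D.Wo (Q.take t) := ⟨y, h1, h2⟩
  refine ⟨Nat.find hex, Nat.find_min' hex ⟨h1, h2⟩, ?_⟩
  have hle := Nat.find_min' hex ⟨h1, h2⟩
  exact ⟨by omega, (Nat.find_spec hex).1, (Nat.find_spec hex).2,
    fun t ht ht2 ht3 => Nat.find_min hex ht ⟨ht2, ht3⟩⟩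

theorem RL2_unique {Q : List α} {k k' : ℕ} {b b' : V} (h1 : D.RL2 Q k b) (h2 : D.RL2 Q k' b') :
    b = b' := by
  obtain ⟨a1, a2, a3, Q1, X2, r, a4, a5, a6, a7, a8⟩ := h1
  obtain ⟨c1, c2, c3, Q1', X2', r', c4, c5, c6, c7, c8⟩ := h2
  have hk : k' = k := a3 k' c1 c2
  subst hk
  have hl := h.nb_unique a5 c5
  have hQ : Q1 = Q1' ∧ X2 = X2' := by
    rw [a4] at c4
    exact List.append_inj c4 hl
  obtain ⟨rfl, rfl⟩ := hQ
  rw [a7] at c7
  obtain rfl := Option.some.inj c7
  rw [a8, c8]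

theorem R2_eq_some {Q : List α} {b : V} : D.R2 Q = some b ↔ ∃ k, D.RL2 Q k b := by
  unfold R2
  constructor
  · intro hb
    split_ifs at hb with hx
    have := hx.choose_spec
    rw [Option.some.inj hb] at this
    exact this
  · rintro ⟨k, hk⟩
    have hx : ∃ b, ∃ k, D.RL2 Q k b := ⟨b, k, hk⟩
    rw [dif_pos hx]
    congr 1
    obtain ⟨k', hk'⟩ := hx.choose_spec
    exact h.RL2_unique hk' hk

theorem hR2 : ∀ Q b, D.R2 Q = some b → Q ≠ [] := by
  intro Q b hb hQ
  obtain ⟨k, h1, h2, h3, Q1, X2, r, h4, h5, h6, h7⟩ := h.R2_eq_some.1 hb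
  rw [hQ] at h4
  have h8 := congrArg List.length h4
  rw [List.length_append, List.length_nil] at h8
  have h9 : X2 = [] := List.length_eq_zero_iff.1 (by omega)
  rw [h9] at h6
  exact h.hnil h6

theorem s2' : ∀ P v Q b, D.LP2 P v → D.R2 Q = some b →
    (∀ X ∈ D.XX, X <+: P ++ Q → D.Bad X) →
    ∃ Q1 X2, Q = Q1 ++ X2 ∧ Q1 ≠ [] ∧ P ++ Q1 ∈ D.XX ∧ X2 ∈ D.XX ∧
      D.T (D.T v (P ++ Q1)) X2 = b := by
  intro P v Q b hP hb hprom
  obtain ⟨k0, hk0, hlen, hlam⟩ := hP
  obtain ⟨k, h1, h2, h3, Q1, X2, r, h4, h5, h6, h7, h8⟩ := h.R2_eq_some.1 hb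
  have hz := h.hz
  have hc0 := h.hK k0 hk0
  have hc := h.hK k h1
  -- the true block is visible
  have hQl : Q.length = Q1.length + X2.length := by rw [h4, List.length_append]
  have hX2 := h6.1
  have hwQ : D.Wo Q := by
    rw [h4]
    exact (h.w_loc _ _ (h.w_len _ h6.2.1)).2 h6.2.1
  have h51 := h5.2.1
  obtain ⟨y, hy, hN⟩ := h.nb_exists (c := D.c k0) (Q := Q) (y := Q.length) le_rfl (by omega)
    (by rw [List.take_length]; exact hwQ)
  rw [← hlen] at hN hc0
  have hXX : P ++ Q.take y ∈ D.XX := (h.nb_iff (by omega) hy).2 hN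
  have hpre : P ++ Q.take y <+: P ++ Q := (List.prefix_append_right_inj P).2 (List.take_prefix y Q)
  have hbad : D.Bad (P ++ Q.take y) := hprom _ hXX hpre
  have hBH : D.BadH P.length Q := h.bad_iff (by omega) hy hXX hbad
  rw [hlen] at hBH
  have hkk : k0 = k := h3 k0 hk0 hBH
  subst hkk
  rw [hlen] at hN
  have hyy : y = Q1.length := h.nb_unique hN h5
  have hQ1 : Q.take y = Q1 := by rw [hyy, h4, List.take_left' rfl]
  rw [hQ1] at hXX
  have hQ1l : D.z ≤ D.c k0 + Q1.length := h5.2.1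
  refine ⟨Q1, X2, h4, ?_, hXX, h6, ?_⟩
  · intro h0
    rw [h0, List.length_nil] at hQ1l
    omega
  · rw [h8]
    congr 1
    -- the exact gadget
    have e0 : Q.take (D.p0 - D.c k0) = Q1.take (D.p0 - D.c k0) := by
      rw [h4, List.take_append_of_le_length (by omega)]
    have g := h.g_sound k0 hk0 P (Q.take (D.p0 - D.c k0)) v r hlen
      (by rw [List.length_take]; omega) hlam h7
    have e1 : (P ++ Q1).take D.p0 = P ++ Q.take (D.p0 - D.c k0) := by
      rw [e0, List.take_append, List.take_of_length_le (by omega), hlen]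
    have e2 : (P ++ Q1).drop D.p0 = Q1.drop (D.p0 - D.c k0) := by
      rw [List.drop_append, List.drop_of_length_le (by omega), List.nil_append, hlen]
    unfold T
    rw [e1, e2, ← g]

theorem s2 : ∀ P v Q b, D.LP2 P v → D.R2 Q = some b →
    (∀ X ∈ D.XX, X <+: P ++ Q → ∀ P' Q', X = P' ++ Q' → P.length ≤ P'.length → D.LP1 P' v →
      (D.R1 Q').isSome → False) →
    ∃ Q1 X2, Q = Q1 ++ X2 ∧ Q1 ≠ [] ∧ P ++ Q1 ∈ D.XX ∧ X2 ∈ D.XX ∧
      D.T (D.T v (P ++ Q1)) X2 = b := by
  intro P v Q b hP hb hprom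
  refine h.s2' P v Q b hP hb fun X hX hpre => ?_
  obtain ⟨k0, hk0, hlen, hlam⟩ := hP
  have hc0 := h.hK k0 hk0
  by_contra hnb
  obtain ⟨P', Q', e, e1, e2⟩ := h.complete1 hX hnb v
  exact hprom _ hX hpre P' Q' e (by have := e1.1; omega) e1 e2

theorem two_vals {TT : ℕ → Prop} {B : ℕ} (a1 : ∀ t t', TT t → TT t' → t < t' → t < B)
    (a2 : ∀ t t', TT t → TT t' → t < B → t' < B → t = t') :
    ∃ t1 t2, ∀ t, TT t → t = t1 ∨ t = t2 := by
  classical
  by_cases c1 : ∃ t, TT t ∧ t < B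
  · obtain ⟨t1, d1, d2⟩ := c1
    by_cases c2 : ∃ t, TT t ∧ ¬ t < B
    · obtain ⟨t2, d3, d4⟩ := c2
      refine ⟨t1, t2, fun t ht => ?_⟩
      by_cases hB : t < B
      · exact Or.inl (a2 t t1 ht d1 hB d2)
      · right
        rcases Nat.lt_trichotomy t t2 with hlt | heq | hgt
        · exact absurd (a1 t t2 ht d3 hlt) hB
        · exact heq
        · exact absurd (a1 t2 t d3 ht hgt) d4
    · push Not at c2
      exact ⟨t1, t1, fun t ht => Or.inl (a2 t t1 ht d1 (c2 t ht) d2)⟩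
  · push Not at c1
    by_cases c2 : ∃ t, TT t
    · obtain ⟨t2, d3⟩ := c2
      refine ⟨t2, t2, fun t ht => Or.inl ?_⟩
      rcases Nat.lt_trichotomy t t2 with hlt | heq | hgt
      · exact absurd (a1 t t2 ht d3 hlt) (by have := c1 t ht; omega)
      · exact heq
      · exact absurd (a1 t2 t d3 ht hgt) (by have := c1 t2 d3; omega)
    · exact ⟨0, 0, fun t ht => absurd ⟨t, ht⟩ c2⟩

/-- walls of one text are far apart -/
theorem wall_far {U : List α} {s t : ℕ} (hs : D.Wo (U.take s)) (ht : D.Wo (U.take t))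
    (hst : s < t) (htl : t ≤ U.length) : s + D.W < t := by
  have e : U.take t = U.take s ++ (U.drop s).take (t - s) := by
    rw [← List.take_add]
    congr 1
    omega
  rw [e] at ht
  have hl : ((U.drop s).take (t - s)).length = t - s := by
    rw [List.length_take, List.length_drop]; omega
  have := h.w_gap _ _ hs ht (by
    intro h0
    rw [h0, List.length_nil] at hl
    omega)
  omega

/-- **spoil count** -/
theorem spoil (U : List α) (hU : D.Lam ≤ U.length) (J : Finset ℕ)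
    (hJ : ∀ k ∈ J, k < D.K ∧ ∃ j < D.K, j ≠ k ∧ D.BadH (D.c j) (U.drop (D.c k))) :
    J.card ≤ 1 + 2 * D.r0 := by
  classical
  have hz := h.hz
  have hW := h.hW
  -- walls of `U` seen from a place
  have wU : ∀ k < D.K, ∀ y, D.n ≤ y → y ≤ (U.drop (D.c k)).length →
      D.Wo ((U.drop (D.c k)).take y) → D.c k + y ≤ U.length ∧ D.Wo (U.take (D.c k + y)) := by
    intro k hk y hy hyl hw
    rw [List.length_drop] at hyl
    have hc := h.hK k hk
    refine ⟨by omega, ?_⟩
    rw [List.take_add]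
    refine (h.w_loc _ _ ?_).2 hw
    rw [List.length_take, List.length_drop]
    omega
  have wU' : ∀ k < D.K, ∀ y, D.n ≤ y → D.c k + y ≤ U.length →
      D.Wo (U.take (D.c k + y)) → D.Wo ((U.drop (D.c k)).take y) := by
    intro k hk y hy hyl hw
    rw [List.take_add] at hw
    refine (h.w_loc _ _ ?_).1 hw
    rw [List.length_take, List.length_drop]
    omega
  let EV : ℕ → Prop := fun k => ∃ j < D.K, j ≠ k ∧ ∃ t ≤ U.length, D.Wo (U.take t) ∧
    D.z + D.c k ≤ t + D.c j + D.N1 ∧ t + D.c j < D.z + D.c k + D.N1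
  let BV : ℕ → ℕ → Prop := fun k t => ∃ j < D.K, j ≠ k ∧ t ≤ U.length ∧ D.Wo (U.take t) ∧
    D.z + D.c k ≤ t + D.c j ∧ (∀ t' < t, D.z + D.c k ≤ t' + D.c j → ¬ D.Wo (U.take t')) ∧
    ∃ l, l + D.c k = (t - D.p0) + D.c j ∧ D.BadT l
  have hcov : ∀ k ∈ J, EV k ∨ ∃ t, BV k t := by
    intro k hk
    obtain ⟨hkK, j, hj, hjk, y, ⟨n1, n2, n3, n4⟩, hbad⟩ := hJ k hk
    have hcj := h.hK j hj
    have hck := h.hK k hkK
    obtain ⟨t1, t2⟩ := wU k hkK y (by omega) n1 n3
    rcases hbad with h1 | ⟨y', h1, h2, h3, h4⟩ | h1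
    · exact Or.inl ⟨j, hj, hjk, D.c k + y, t1, t2, by omega, by omega⟩
    · obtain ⟨t3, t4⟩ := wU k hkK y' (by omega) (by omega) h4
      exact Or.inl ⟨j, hj, hjk, D.c k + y', t3, t4, by omega, by omega⟩
    · refine Or.inr ⟨D.c k + y, j, hj, hjk, t1, t2, by omega, ?_, D.c j + y - D.p0,
        by omega, h1⟩
      intro t' ht' hz' hw'
      obtain ⟨s, rfl⟩ : ∃ s, t' = D.c k + s := ⟨t' - D.c k, by omega⟩
      exact n4 s (by omega) (by omega) (wU' k hkK s (by omega) (by omega) hw')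
  have hE : (J.filter EV).card ≤ 1 := by
    rw [Finset.card_le_one]
    intro k hk k' hk'
    obtain ⟨hkJ, j, hj, hjk, t, t1, t2, t3, t4⟩ := Finset.mem_filter.1 hk
    obtain ⟨hkJ', j', hj', hjk', t', t1', t2', t3', t4'⟩ := Finset.mem_filter.1 hk'
    have a1 := h.hK k (hJ k hkJ).1
    have a2 := h.hK k' (hJ k' hkJ').1
    have a3 := h.hK j hj
    have a4 := h.hK j' hj'
    have htt : t = t' := by
      rcases Nat.lt_trichotomy t t' with hlt | heq | hgt
      · have := h.wall_far t2 t2' hlt t1'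
        omega
      · exact heq
      · have := h.wall_far t2' t2 hgt t1
        omega
    subst htt
    exact h.c_sp k j k' j' (hJ k hkJ).1 hj (hJ k' hkJ').1 hj' hjk hjk' (by omega) (by omega)
  have hTT : ∃ t1 t2, ∀ t, (∃ k ∈ J, BV k t) → t = t1 ∨ t = t2 := by
    apply h.two_vals (B := D.z + D.Lam)
    · rintro t t' ⟨k, hk, j, hj, hjk, b1, b2, b3, b4, b5⟩ ⟨k', hk', j', hj', hjk', c1, c2, c3, c4, c5⟩ hlt
      have a2 := h.hK k' (hJ k' hk').1
      by_contra hcon
      exact c4 t hlt (by omega) b2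
    · rintro t t' ⟨k, hk, j, hj, hjk, b1, b2, b3, b4, b5⟩ ⟨k', hk', j', hj', hjk', c1, c2, c3, c4, c5⟩ ht ht'
      have a3 := h.hK j hj
      have a4 := h.hK j' hj'
      rcases Nat.lt_trichotomy t t' with hlt | heq | hgt
      · have := h.wall_far b2 c2 hlt c1
        omega
      · exact heq
      · have := h.wall_far c2 b2 hgt b1
        omega
  obtain ⟨t1, t2, hT12⟩ := hTT
  have hB : ∀ t, (J.filter fun k => BV k t).card ≤ D.r0 := by
    intro t
    refine h.c_bad (t - D.p0) _ ?_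
    intro k hk
    obtain ⟨hkJ, j, hj, hjk, b1, b2, b3, b4, b5⟩ := Finset.mem_filter.1 hk
    exact ⟨(hJ k hkJ).1, j, hj, hjk, b5⟩
  have hsub : J ⊆ J.filter EV ∪ (J.filter (fun k => BV k t1) ∪ J.filter (fun k => BV k t2)) := by
    intro k hk
    rcases hcov k hk with h1 | ⟨t, h1⟩
    · exact Finset.mem_union_left _ (Finset.mem_filter.2 ⟨hk, h1⟩)
    · rcases hT12 t ⟨k, hk, h1⟩ with rfl | rfl
      · exact Finset.mem_union_right _ (Finset.mem_union_left _ (Finset.mem_filter.2 ⟨hk, h1⟩))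
      · exact Finset.mem_union_right _ (Finset.mem_union_right _ (Finset.mem_filter.2 ⟨hk, h1⟩))
  have c1 := Finset.card_le_card hsub
  have c2 := Finset.card_union_le (J.filter EV)
    (J.filter (fun k => BV k t1) ∪ J.filter (fun k => BV k t2))
  have c3 := Finset.card_union_le (J.filter (fun k => BV k t1)) (J.filter (fun k => BV k t2))
  have c4 := hB t1
  have c5 := hB t2
  omega

/-- completeness of scheme 2 on bad blocks -/
theorem cc2 : ∀ X ∈ D.XX, ∀ X2 ∈ D.XX, ∀ v, D.Bad X →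
    ∃ P Q, X ++ X2 = P ++ Q ∧ D.LP2 P v ∧ (D.R2 Q).isSome ∧ P.length < X.length := by
  classical
  intro X hX X2 hX2 v hb
  have hz := h.hz
  have hXl := hX.1
  let J : Finset ℕ := (Finset.range D.K).filter fun k => ∃ j < D.K, j ≠ k ∧
    D.BadH (D.c j) ((X ++ X2).drop (D.c k))
  have hJc : J.card ≤ 1 + 2 * D.r0 := by
    refine h.spoil (X ++ X2) (by rw [List.length_append]; omega) J ?_
    intro k hk
    obtain ⟨h1, h2⟩ := Finset.mem_filter.1 hk
    exact ⟨Finset.mem_range.1 h1, h2⟩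
  obtain ⟨k, hk, hkJ, hl, hr⟩ := h.g_complete (X.take D.p0)
    (by rw [List.length_take]; omega) J (by have := h.hR; omega) v
  have hck := h.hK k hk
  have hl1 : (X.take (D.c k)).length = D.c k := by rw [List.length_take]; omega
  rw [List.take_take, Nat.min_eq_left (by omega)] at hl
  refine ⟨X.take (D.c k), X.drop (D.c k) ++ X2, ?_, ⟨k, hk, hl1, hl⟩, ?_, by omega⟩
  · rw [← List.append_assoc, List.take_append_drop]
  · have eU : (X ++ X2).drop (D.c k) = X.drop (D.c k) ++ X2 :=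
      List.drop_append_of_le_length (by omega)
    have huniq : ∀ j < D.K, D.BadH (D.c j) (X.drop (D.c k) ++ X2) → j = k := by
      intro j hj hbj
      by_contra hne
      apply hkJ
      refine Finset.mem_filter.2 ⟨Finset.mem_range.2 hk, j, hj, hne, ?_⟩
      rw [eU]
      exact hbj
    have etake : (X.drop (D.c k) ++ X2).take (X.drop (D.c k)).length = X.drop (D.c k) :=
      List.take_left' rfl
    have eX : X.take (D.c k) ++ (X.drop (D.c k) ++ X2).take (X.drop (D.c k)).length = X := by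
      rw [etake, List.take_append_drop]
    have hNb : D.Nb (D.c k) (X.drop (D.c k) ++ X2) (X.drop (D.c k)).length := by
      have := (h.nb_iff (P := X.take (D.c k)) (Q := X.drop (D.c k) ++ X2)
        (y := (X.drop (D.c k)).length) (by omega) (by rw [List.length_append]; omega)).1
        (by rw [eX]; exact hX)
      rwa [hl1] at this
    have hBH : D.BadH (D.c k) (X.drop (D.c k) ++ X2) := by
      have := h.bad_iff (P := X.take (D.c k)) (Q := X.drop (D.c k) ++ X2)
        (y := (X.drop (D.c k)).length) (by omega) (by rw [List.length_append]; omega)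
        (by rw [eX]; exact hX) (by rw [eX]; exact hb)
      rwa [hl1] at this
    obtain ⟨r, hr⟩ := Option.isSome_iff_exists.1 hr
    have hr' : D.rho k ((X.drop (D.c k) ++ X2).take (D.p0 - D.c k)) = some r := by
      rw [List.take_append_of_le_length (by rw [List.length_drop]; omega), ← hr,
        List.drop_take]
    have hfin : D.R2 (X.drop (D.c k) ++ X2) = some _ :=
      h.R2_eq_some.2 ⟨k, hk, hBH, huniq, X.drop (D.c k), X2, r, rfl, hNb, hX2, hr', rfl⟩
    rw [hfin]
    rfl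

/-- **completeness** of the two schemes -/
theorem cc : ∀ X ∈ D.XX, ∀ X2 ∈ D.XX, ∀ v,
    (∃ P Q, X = P ++ Q ∧ D.LP1 P v ∧ (D.R1 Q).isSome) ∨
    (∃ P Q, X ++ X2 = P ++ Q ∧ P.length < X.length ∧ D.LP2 P v ∧ (D.R2 Q).isSome) := by
  intro X hX X2 hX2 v
  by_cases hb : D.Bad X
  · obtain ⟨P, Q, e, e1, e2, e3⟩ := h.cc2 X hX X2 hX2 v hb
    exact Or.inr ⟨P, Q, e, e3, e1, e2⟩
  · exact Or.inl (h.complete1 hX hb v)

end Ok

end Data

end Crest.Agent.R320.Inst_272
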