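import Crest.Agent.R320.Top5_467
import Crest.Agent.R320.ExactR_237

/-!
# Row 320: the instance of `Top5_467.top5` on all words

Left-looking outer walls, natural chain rule (a block ends at the first wall at distance `≥ z`), an
abstract gadget 1 (`lam1 rho1 nu1`, thin set `BadT` of totals), the exact gadget 2 (`lam2 rho2 nu2`,
places `c k`), ruler hypotheses.  Results: `XX` is a prefix code and (s1), (c1), (s2), (c2).
-/

set_option autoImplicit false

namespace Crest.Agent.R320.Inst_291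

open Crest.RegLang Crest.Agent.R320.Hk_851 Crest.Agent.R320.Blk467

/-- all data -/
structure Dat (α S V : Type) [Monoid S] [AddCommGroup V] where
  φ : α → S
  act : V → S → V
  hadd : ∀ a b s, act (a + b) s = act a s + act b s
  hmul : ∀ v s t, act v (s * t) = act (act v s) t
  Wo : List α → Prop
  n : ℕ
  W : ℕ
  loc : ∀ P Q : List α, n ≤ Q.length → (Wo (P ++ Q) ↔ Wo Q)
  gap : ∀ (X : List α) (s t : ℕ), s < t → t ≤ X.length → Wo (X.take s) → Wo (X.take t) → W < t - s
  p0 : ℕ
  z : ℕ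
  N1 : ℕ
  N0 : ℕ
  lam1 : List α → Option V
  rho1 : List α → Option V
  nu1 : List α → V
  BadT : ℕ → Prop
  g1 : ∀ (P : List α) (v : V), lam1 P = some v → P.length ≤ N1
  g2 : ∀ (P Q : List α) (v b : V), lam1 P = some v → rho1 Q = some b →
    b = act v ((P ++ Q).map φ).prod + nu1 (P ++ Q)
  g3 : ∀ u : List α, N0 ≤ u.length → ¬ BadT u.length → ∀ v : V, ∃ P Q : List α, u = P ++ Q ∧ lam1 P = some v ∧
    (rho1 Q).isSome
  K : ℕ
  R : ℕ
  c : ℕ → ℕ
  lam2 : ℕ → List α → Option V
  rho2 : ℕ → List α → Option V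
  nu2 : List α → V
  e1 : ∀ k < K, ∀ (P Q : List α) (v b : V), P.length = c k → lam2 k P = some v → rho2 k Q = some b →
    b = act v ((P ++ Q).map φ).prod + nu2 (P ++ Q)
  e2 : ∀ (u : List α) (v : V), (∀ k < K, c k ≤ u.length) →
    ∃ I : Finset ℕ, R ≤ I.card ∧ ∀ k ∈ I, k < K ∧ lam2 k (u.take (c k)) = some v ∧
      (rho2 k (u.drop (c k))).isSome
  hc : ∀ k < K, c k ≤ p0
  hz : p0 + N1 + n + 1 ≤ z
  hz0 : p0 + N0 ≤ z
  hW : 2 * p0 + 2 * N1 ≤ W
  C1 : ℕ
  hR : 1 + 2 * C1 < R
  r2 : ∀ a < K, ∀ b < K, ∀ a' < K, ∀ b' < K, a ≠ b → a' ≠ b' →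
    |((c a : ℤ) - c b) - ((c a' : ℤ) - c b')| ≤ 2 * (N1 : ℤ) → a = a' ∧ b = b'
  r3 : ∀ T : ℤ, ∀ F : Finset (ℕ × ℕ), (∀ p ∈ F, p.1 < K ∧ p.2 < K ∧ p.1 ≠ p.2 ∧
    ∃ m : ℕ, (m : ℤ) = T - ((c p.1 : ℤ) - c p.2) ∧ BadT m) → F.card ≤ C1

namespace Dat

variable {α S V : Type} [Monoid S] [AddCommGroup V] (D : Dat α S V)

def XX : Set (List α) :=
  {X | D.z ≤ X.length ∧ D.Wo X ∧ ∀ t, D.z ≤ t → t < X.length → ¬ D.Wo (X.take t)}

def IsBad (X : List α) : Prop :=
  (∃ t, D.z ≤ t + D.N1 ∧ t < D.z ∧ D.Wo (X.take t)) ∨ X.length < D.z + D.N1 ∨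
    D.BadT (X.length - D.p0)

def Bad : Set (List α) := {X | X ∈ D.XX ∧ D.IsBad X}

def nu (X : List α) : V :=
  D.act (D.nu2 (X.take D.p0)) ((X.drop D.p0).map D.φ).prod + D.nu1 (X.drop D.p0)

/-- zone map -/
def T (v : V) (X : List α) : V := D.act v (X.map D.φ).prod + D.nu X

def LP1 (v : V) : Language α :=
  {P | D.p0 ≤ P.length ∧
    D.lam1 (P.drop D.p0) = some (D.act v ((P.take D.p0).map D.φ).prod + D.nu2 (P.take D.p0))}

def RQ1 (b : V) : Language α :=
  {Q | D.z ≤ Q.length + D.p0 ∧ D.Wo Q ∧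
    (∀ t, D.z ≤ t + D.p0 + D.N1 → t < Q.length → ¬ D.Wo (Q.take t)) ∧ D.rho1 Q = some b}

/-- `Q1` is the rest of the block whose anchor is `c k` letters to the left -/
def Rest (k : ℕ) (Q1 : List α) : Prop :=
  D.z ≤ Q1.length + D.c k ∧ D.Wo Q1 ∧
    ∀ t, D.z ≤ t + D.c k → t < Q1.length → ¬ D.Wo (Q1.take t)

/-- the candidate `k` is bad -/
def CBad (k : ℕ) (Q : List α) : Prop :=
  ∃ Q1, Q1 <+: Q ∧ D.Rest k Q1 ∧
    ((∃ t, D.z ≤ t + D.c k + D.N1 ∧ t + D.c k < D.z ∧ D.Wo (Q.take t)) ∨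
      Q1.length + D.c k < D.z + D.N1 ∨ D.BadT (Q1.length + D.c k - D.p0))

def LP2 (v : V) : Language α :=
  {P | ∃ k, k < D.K ∧ P.length = D.c k ∧ D.lam2 k P = some v}

def RQ2 (b : V) : Language α :=
  {Q | ∃ k, k < D.K ∧ ∃ Q1 X2, Q = Q1 ++ X2 ∧ D.Rest k Q1 ∧ X2 ∈ D.XX ∧
    (∀ k' < D.K, k' ≠ k → ¬ D.CBad k' Q) ∧
    ∃ w, D.rho2 k (Q1.take (D.p0 - D.c k)) = some w ∧
      D.T (D.act w ((Q1.drop (D.p0 - D.c k)).map D.φ).prod + D.nu1 (Q1.drop (D.p0 - D.c k))) X2
        = b}

theorem pcode : PCode D.XX := by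
  refine ⟨fun h => ?_, fun X hX Y hY h => ?_⟩
  · have h1 : D.z ≤ ([] : List α).length := h.1
    have := D.hz
    simp at h1
    omega
  · by_contra hne
    have hlt : X.length < Y.length := by
      rcases Nat.lt_or_ge X.length Y.length with h1 | h1
      · exact h1
      · exact absurd (h.eq_of_length (le_antisymm h.length_le h1)) hne
    have := hY.2.2 X.length hX.1 hlt
    apply this
    rw [← List.prefix_iff_eq_take.1 h]
    exact hX.2.1

theorem Bad_sub : D.Bad ⊆ D.XX := fun _ h => h.1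

theorem nu_split (v : V) (X : List α) :
    D.T v X = D.act (D.act v ((X.take D.p0).map D.φ).prod + D.nu2 (X.take D.p0))
      ((X.drop D.p0).map D.φ).prod + D.nu1 (X.drop D.p0) := by
  have h : (X.map D.φ).prod = ((X.take D.p0).map D.φ).prod * ((X.drop D.p0).map D.φ).prod := by
    rw [← List.prod_append, ← List.map_append, List.take_append_drop]
  unfold T nu
  rw [h, D.hmul, D.hadd, add_assoc]

/-- (s1) -/
theorem s1 (v b : V) (P Q : List α) (hP : P ∈ D.LP1 v) (hQ : Q ∈ D.RQ1 b) :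
    P ++ Q ∈ D.XX ∧ D.T v (P ++ Q) = b := by
  obtain ⟨hP1, hP2⟩ := hP
  obtain ⟨hQ1, hQ2, hQ3, hQ4⟩ := hQ
  have hz := D.hz
  have hPl : P.length ≤ D.p0 + D.N1 := by
    have := D.g1 _ _ hP2
    rw [List.length_drop] at this
    omega
  refine ⟨⟨?_, ?_, ?_⟩, ?_⟩
  · rw [List.length_append]; omega
  · exact (D.loc P Q (by omega)).2 hQ2
  · intro t ht1 ht2 hW
    rw [List.length_append] at ht2
    have e : (P ++ Q).take t = P ++ Q.take (t - P.length) := by
      rw [List.take_append, List.take_of_length_le (by omega : P.length ≤ t)]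
    rw [e] at hW
    have hl : (Q.take (t - P.length)).length = t - P.length := by
      rw [List.length_take]; omega
    rw [D.loc P _ (by rw [hl]; omega)] at hW
    exact hQ3 (t - P.length) (by omega) (by omega) hW
  · rw [D.nu_split]
    have e1 : (P ++ Q).take D.p0 = P.take D.p0 := List.take_append_of_le_length hP1
    have e2 : (P ++ Q).drop D.p0 = P.drop D.p0 ++ Q := List.drop_append_of_le_length hP1
    rw [e1, e2]
    exact (D.g2 _ _ _ _ hP2 hQ4).symm

/-- (c1) -/
theorem c1 (X : List α) (hX : X ∈ D.XX) (hb : X ∉ D.Bad) (v : V) :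
    ∃ P Q, P ++ Q = X ∧ P ∈ D.LP1 v ∧ Q ∈ D.RQ1 (D.T v X) := by
  obtain ⟨hX1, hX2, hX3⟩ := hX
  have hnb : ¬ D.IsBad X := fun h => hb ⟨⟨hX1, hX2, hX3⟩, h⟩
  unfold IsBad at hnb
  push Not at hnb
  obtain ⟨hb1, hb2, hb3⟩ := hnb
  have hz := D.hz
  have hz0 := D.hz0
  obtain ⟨P, Q, hPQ, hP, hQ⟩ := D.g3 (X.drop D.p0) (by rw [List.length_drop]; omega)
    (by rw [List.length_drop]; exact hb3)
    (D.act v ((X.take D.p0).map D.φ).prod + D.nu2 (X.take D.p0))
  obtain ⟨b, hb⟩ := Option.isSome_iff_exists.1 hQ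
  have hPl := D.g1 _ _ hP
  have hlen : X.length = D.p0 + (P.length + Q.length) := by
    have := congrArg List.length hPQ
    rw [List.length_drop, List.length_append] at this
    omega
  have hXe : X = (X.take D.p0 ++ P) ++ Q := by
    rw [List.append_assoc, ← hPQ, List.take_append_drop]
  have htl : (X.take D.p0).length = D.p0 := by rw [List.length_take]; omega
  refine ⟨X.take D.p0 ++ P, Q, hXe.symm, ⟨?_, ?_⟩, ?_, ?_, ?_, ?_⟩
  · rw [List.length_append]; omega
  · rw [List.drop_left' htl, List.take_left' htl]; exact hP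
  · omega
  · rw [hXe] at hX2
    exact (D.loc _ Q (by omega)).1 hX2
  · intro t ht1 ht2 hW
    have hl : (Q.take t).length = t := by rw [List.length_take]; omega
    rw [← D.loc (X.take D.p0 ++ P) (Q.take t) (by rw [hl]; omega)] at hW
    have e : (X.take D.p0 ++ P) ++ Q.take t = X.take (D.p0 + P.length + t) := by
      have h1 : ∀ A : List α, A.length = D.p0 →
          ((A ++ P) ++ Q).take (D.p0 + P.length + t) = (A ++ P) ++ Q.take t := by
        intro A hA
        have hAP : (A ++ P).length = D.p0 + P.length := by rw [List.length_append, hA]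
        rw [List.take_append, List.take_of_length_le (by omega), hAP, Nat.add_sub_cancel_left]
      rw [← h1 _ htl, ← hXe]
    rw [e] at hW
    rcases Nat.lt_or_ge (D.p0 + P.length + t) D.z with h | h
    · exact hb1 _ (by omega) h hW
    · exact hX3 _ h (by omega) hW
  · rw [D.nu_split, hb, hPQ]
    exact congrArg some (D.g2 _ _ _ _ hP hb)

theorem rest_unique {k : ℕ} {A B Q : List α} (hA : A <+: Q) (hB : B <+: Q) (h1 : D.Rest k A)
    (h2 : D.Rest k B) : A = B := by
  have key : ∀ A B : List α, A <+: Q → B <+: Q → D.Rest k A → D.Rest k B →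
      A.length < B.length → False := by
    intro A B hA hB h1 h2 hlt
    have hAB : A <+: B := List.prefix_of_prefix_length_le hA hB hlt.le
    have := h2.2.2 A.length h1.1 hlt
    rw [← List.prefix_iff_eq_take.1 hAB] at this
    exact this h1.2.1
  rcases lt_trichotomy A.length B.length with h | h | h
  · exact (key A B hA hB h1 h2 h).elim
  · exact (List.prefix_of_prefix_length_le hA hB h.le).eq_of_length h
  · exact (key B A hB hA h2 h1 h).elim

/-- the rest of a block -/
theorem rest_of_XX {k : ℕ} (hk : k < D.K) {P Q1 : List α} (hP : P.length = D.c k)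
    (h : P ++ Q1 ∈ D.XX) : D.Rest k Q1 := by
  obtain ⟨h1, h2, h3⟩ := h
  have hz := D.hz
  have hck := D.hc k hk
  rw [List.length_append, hP] at h1
  refine ⟨by omega, (D.loc P Q1 (by omega)).1 h2, ?_⟩
  intro t ht1 ht2 hW
  have hl : (Q1.take t).length = t := by rw [List.length_take]; omega
  rw [← D.loc P (Q1.take t) (by rw [hl]; omega)] at hW
  have e : P ++ Q1.take t = (P ++ Q1).take (P.length + t) := by
    rw [List.take_append, List.take_of_length_le (by omega : P.length ≤ P.length + t),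
      Nat.add_sub_cancel_left]
  rw [e] at hW
  exact h3 _ (by omega) (by rw [List.length_append]; omega) hW

theorem cbad_of_bad {k : ℕ} (hk : k < D.K) {P Q1 Q : List α} (hP : P.length = D.c k)
    (h : P ++ Q1 ∈ D.Bad) (hQ : Q1 <+: Q) : D.CBad k Q := by
  obtain ⟨hX, hb⟩ := h
  have hr := D.rest_of_XX hk hP hX
  have hz := D.hz
  have hck := D.hc k hk
  refine ⟨Q1, hQ, hr, ?_⟩
  have hlen : (P ++ Q1).length = D.c k + Q1.length := by rw [List.length_append, hP]
  rcases hb with ⟨t, ht1, ht2, ht3⟩ | hb | hb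
  · left
    refine ⟨t - D.c k, by omega, by omega, ?_⟩
    have hz1 := hX.1
    have e : (P ++ Q1).take t = P ++ Q.take (t - D.c k) := by
      rw [List.take_append, List.take_of_length_le (by omega), hP]
      congr 1
      obtain ⟨r, rfl⟩ := hQ
      rw [List.take_append_of_le_length (by omega)]
    rw [e] at ht3
    refine (D.loc P _ ?_).1 ht3
    have : Q1.length ≤ Q.length := hQ.length_le
    rw [List.length_take]
    omega
  · right; left; omega
  · right; right
    rw [hlen] at hb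
    rwa [Nat.add_comm]

/-- the value after the first block, from the right data of scheme 2 -/
theorem value2 {k : ℕ} (hk : k < D.K) {P Q1 : List α} {v w : V} (hP : P.length = D.c k)
    (hl : D.lam2 k P = some v) (hw : D.rho2 k (Q1.take (D.p0 - D.c k)) = some w) :
    D.act w ((Q1.drop (D.p0 - D.c k)).map D.φ).prod + D.nu1 (Q1.drop (D.p0 - D.c k))
      = D.T v (P ++ Q1) := by
  have hck := D.hc k hk
  rw [D.nu_split]
  have e1 : (P ++ Q1).take D.p0 = P ++ Q1.take (D.p0 - D.c k) := by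
    rw [List.take_append, List.take_of_length_le (by omega), hP]
  have e2 : (P ++ Q1).drop D.p0 = Q1.drop (D.p0 - D.c k) := by
    rw [List.drop_append, List.drop_eq_nil_of_le (by omega), hP, List.nil_append]
  rw [e1, e2, ← D.e1 k hk _ _ _ _ hP hl hw]

/-- (s2) -/
theorem s2 (v b : V) (P Q r : List α) (hP : P ∈ D.LP2 v) (hQ : Q ∈ D.RQ2 b)
    (hs : P ++ Q ++ r ∈ Str D.Bad) : P ++ Q ∈ Lg D.Bad D.T v b := by
  obtain ⟨k0, hk0, hPl, hlam⟩ := hP
  obtain ⟨k, hk, Q1, X2, rfl, hrest, hX2, hun, w, hw, hb⟩ := hQ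
  obtain ⟨l, hl, he⟩ := hs
  have hz := D.hz
  have hck0 := D.hc k0 hk0
  have hck := D.hc k hk
  have hne : l ≠ [] := by
    rintro rfl
    have h0 := congrArg List.length he
    simp only [List.flatten_nil, List.length_nil, List.length_append] at h0
    have h1 := hX2.1
    omega
  obtain ⟨X, l', rfl⟩ := List.exists_cons_of_ne_nil hne
  have hX := hl X (by simp)
  rw [List.flatten_cons] at he
  have hXz := hX.1.1
  -- the place |P ++ Q| is a wall
  have hWQ : D.Wo (P ++ (Q1 ++ X2)) := by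
    rw [D.loc P _ (by have := hX2.1; rw [List.length_append]; omega),
      D.loc Q1 _ (by have := hX2.1; omega)]
    exact hX2.2.1
  have hXle : X.length ≤ (P ++ (Q1 ++ X2)).length := by
    by_contra hc
    push Not at hc
    have hpre : P ++ (Q1 ++ X2) <+: X :=
      List.prefix_of_prefix_length_le (l₃ := X ++ l'.flatten) ⟨r, by rw [he]⟩
        (List.prefix_append _ _) hc.le
    have := hX.1.2.2 (P ++ (Q1 ++ X2)).length
      (by have := hX2.1; simp only [List.length_append]; omega) hc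
    rw [← List.prefix_iff_eq_take.1 hpre] at this
    exact this hWQ
  have hXpre : X <+: P ++ (Q1 ++ X2) :=
    List.prefix_of_prefix_length_le (l₃ := X ++ l'.flatten) (List.prefix_append _ _)
      ⟨r, by rw [he]⟩ hXle
  obtain ⟨Q0, hQ0⟩ : ∃ Q0, P ++ Q0 = X :=
    List.prefix_of_prefix_length_le (List.prefix_append P (Q1 ++ X2)) hXpre (by omega)
  subst hQ0
  have hQ0pre : Q0 <+: Q1 ++ X2 := (List.prefix_append_right_inj P).1 hXpre
  have hcb := D.cbad_of_bad hk0 hPl hX hQ0pre
  have hkk : k0 = k := by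
    by_contra hc
    exact hun k0 hk0 hc hcb
  subst hkk
  have hQ01 : Q0 = Q1 := D.rest_unique hQ0pre (List.prefix_append _ _)
    (D.rest_of_XX hk0 hPl hX.1) hrest
  subst hQ01
  have he' : l'.flatten = X2 ++ r := by
    have : P ++ Q0 ++ l'.flatten = P ++ Q0 ++ (X2 ++ r) := by rw [he]; simp
    exact List.append_cancel_left this
  have hne' : l' ≠ [] := by
    rintro rfl
    have h0 := congrArg List.length he'
    simp only [List.flatten_nil, List.length_nil, List.length_append] at h0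
    have h1 := hX2.1
    omega
  obtain ⟨X', l'', rfl⟩ := List.exists_cons_of_ne_nil hne'
  rw [List.flatten_cons] at he'
  have hX' := hl X' (by simp)
  have hXX2 : X' = X2 := by
    rcases List.prefix_or_prefix_of_prefix (l₁ := X') (l₂ := X2) (l₃ := X2 ++ r)
      ⟨_, he'⟩ (List.prefix_append _ _) with h | h
    · exact D.pcode.2 _ hX'.1 _ hX2 h
    · exact (D.pcode.2 _ hX2 _ hX'.1 h).symm
  subst hXX2
  refine ⟨[P ++ Q0, X'], ?_, by simp, ?_⟩
  · intro Y hY
    simp only [List.mem_cons, List.not_mem_nil, or_false] at hY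
    rcases hY with rfl | rfl
    · exact hX
    · exact hX'
  · simp only [List.foldl_cons, List.foldl_nil]
    rw [← D.value2 hk0 hPl hlam hw]
    exact hb

/-- at most two next walls -/
theorem two_walls (X : List α) : ∃ u0 u1 : ℕ, ∀ u m : ℕ, D.z ≤ m + D.p0 → m ≤ D.z + D.p0 →
    m ≤ u → u ≤ X.length → D.Wo (X.take u) → (∀ t, m ≤ t → t < u → ¬ D.Wo (X.take t)) →
    u = u0 ∨ u = u1 := by
  classical
  by_cases h : ∃ u, D.z ≤ u + D.p0 ∧ u ≤ X.length ∧ D.Wo (X.take u)
  swap
  · refine ⟨0, 0, fun u m h1 _ h2 h3 h4 _ => absurd ⟨u, by omega, h3, h4⟩ h⟩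
  by_cases h' : ∃ u, Nat.find h < u ∧ u ≤ X.length ∧ D.Wo (X.take u)
  swap
  · refine ⟨Nat.find h, 0, fun u m h1 _ h2 h3 h4 _ => ?_⟩
    left
    have hle := Nat.find_min' h ⟨by omega, h3, h4⟩
    by_contra hc
    exact h' ⟨u, by omega, h3, h4⟩
  · refine ⟨Nat.find h, Nat.find h', fun u m h1 h1' h2 h3 h4 h5 => ?_⟩
    have hle := Nat.find_min' h ⟨by omega, h3, h4⟩
    by_cases hc : u = Nat.find h
    · exact Or.inl hc
    · right
      have hle' := Nat.find_min' h' ⟨by omega, h3, h4⟩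
      by_contra hc'
      have hs := Nat.find_spec h
      have hs' := Nat.find_spec h'
      have hg := D.gap X _ _ hs'.1 hs'.2.1 hs.2.2 hs'.2.2
      have hW := D.hW
      refine h5 (Nat.find h') ?_ (by omega) hs'.2.2
      omega

/-- reading a candidate in the text `X` -/
theorem cbad_read {k k' : ℕ} (hk : k < D.K) (hk' : k' < D.K) {X : List α}
    (hX : D.c k ≤ X.length) (h : D.CBad k' (X.drop (D.c k))) :
    ∃ u : ℕ, D.z + D.c k ≤ u + D.c k' ∧ u ≤ X.length ∧ D.Wo (X.take u) ∧
      (∀ t, D.z + D.c k ≤ t + D.c k' → t < u → ¬ D.Wo (X.take t)) ∧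
      ((∃ t, D.z + D.c k ≤ t + D.c k' + D.N1 ∧ t + D.c k' ≤ D.z + D.c k + D.N1 ∧ t ≤ X.length ∧
          D.Wo (X.take t)) ∨
        D.BadT (u + D.c k' - D.c k - D.p0)) := by
  obtain ⟨Q1, hpre, ⟨hr1, hr2, hr3⟩, hb⟩ := h
  have hz := D.hz
  have hck := D.hc k hk
  have hck' := D.hc k' hk'
  have hle : Q1.length ≤ X.length - D.c k := by
    have := hpre.length_le
    rwa [List.length_drop] at this
  have htl : (X.take (D.c k)).length = D.c k := by rw [List.length_take]; omega
  have htake : ∀ t, D.c k ≤ t → X.take t = X.take (D.c k) ++ (X.drop (D.c k)).take (t - D.c k) := by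
    intro t ht
    conv_lhs => rw [show t = D.c k + (t - D.c k) by omega]
    rw [List.take_add]
  have hQ1 : ∀ t, t ≤ Q1.length → (X.drop (D.c k)).take t = Q1.take t := by
    intro t ht
    obtain ⟨s, hs⟩ := hpre
    rw [← hs, List.take_append_of_le_length ht]
  have hW : ∀ t, D.c k + D.n ≤ t → t ≤ X.length →
      (D.Wo (X.take t) ↔ D.Wo ((X.drop (D.c k)).take (t - D.c k))) := by
    intro t ht1 ht2
    rw [htake t (by omega)]
    refine D.loc _ _ ?_
    rw [List.length_take, List.length_drop]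
    omega
  have hWu : D.Wo (X.take (D.c k + Q1.length)) := by
    rw [hW _ (by omega) (by omega), Nat.add_sub_cancel_left, hQ1 _ le_rfl,
      List.take_length]
    exact hr2
  refine ⟨D.c k + Q1.length, by omega, by omega, hWu, ?_, ?_⟩
  · intro t ht1 ht2 hWt
    rw [hW t (by omega) (by omega), hQ1 _ (by omega)] at hWt
    exact hr3 (t - D.c k) (by omega) (by omega) hWt
  · rcases hb with ⟨t, ht1, ht2, ht3⟩ | hb | hb
    · left
      have htX : D.c k + t ≤ X.length := by omega
      refine ⟨D.c k + t, by omega, by omega, htX, ?_⟩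
      rw [hW _ (by omega) htX, Nat.add_sub_cancel_left]
      exact ht3
    · left
      exact ⟨D.c k + Q1.length, by omega, by omega, by omega, hWu⟩
    · right
      have : D.c k + Q1.length + D.c k' - D.c k - D.p0 = Q1.length + D.c k' - D.p0 := by omega
      rw [this]; exact hb

open Classical in
/-- spoil count -/
theorem spoil (X : List α) (hX : D.p0 ≤ X.length) :
    ((Finset.range D.K).filter fun k => ∃ k', k' < D.K ∧ k' ≠ k ∧
      D.CBad k' (X.drop (D.c k))).card ≤ 1 + 2 * D.C1 := by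
  obtain ⟨u0, u1, hu⟩ := D.two_walls X
  set EE : Finset ℕ := (Finset.range D.K).filter fun k => ∃ k', k' < D.K ∧ k' ≠ k ∧
    ∃ t, D.z + D.c k ≤ t + D.c k' + D.N1 ∧ t + D.c k' ≤ D.z + D.c k + D.N1 ∧ t ≤ X.length ∧
      D.Wo (X.take t) with hEE
  set FF : ℕ → Finset (ℕ × ℕ) := fun u => ((Finset.range D.K) ×ˢ (Finset.range D.K)).filter
    fun p => p.1 ≠ p.2 ∧ ∃ m : ℕ, (m : ℤ) = ((u : ℤ) - D.p0) - ((D.c p.1 : ℤ) - D.c p.2) ∧
      D.BadT m with hFF
  have hE : EE.card ≤ 1 := by
    rw [Finset.card_le_one]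
    intro a ha b hb
    rw [hEE, Finset.mem_filter, Finset.mem_range] at ha hb
    obtain ⟨haK, a', ha', hne, t, h1, h2, h3, h4⟩ := ha
    obtain ⟨hbK, b', hb', hne', s, g1, g2, g3, g4⟩ := hb
    have ca := D.hc a haK
    have ca' := D.hc a' ha'
    have cb := D.hc b hbK
    have cb' := D.hc b' hb'
    have hW := D.hW
    have hz := D.hz
    have hts : t = s := by
      rcases lt_trichotomy t s with h | h | h
      · have := D.gap X t s h g3 h4 g4
        omega
      · exact h
      · have := D.gap X s t h h3 g4 h4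
        omega
    subst hts
    exact (D.r2 a haK a' ha' b hbK b' hb' hne.symm hne'.symm (by
      rw [abs_le]; constructor <;> omega)).1
  have hF : ∀ u, (FF u).card ≤ D.C1 := by
    intro u
    refine D.r3 ((u : ℤ) - D.p0) (FF u) ?_
    intro p hp
    rw [hFF] at hp
    simp only [Finset.mem_filter, Finset.mem_product, Finset.mem_range] at hp
    exact ⟨hp.1.1, hp.1.2, hp.2.1, hp.2.2⟩
  have hsub : ((Finset.range D.K).filter fun k => ∃ k', k' < D.K ∧ k' ≠ k ∧
      D.CBad k' (X.drop (D.c k))) ⊆ EE ∪ ((FF u0).image Prod.fst ∪ (FF u1).image Prod.fst) := by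
    intro k hk
    rw [Finset.mem_filter, Finset.mem_range] at hk
    obtain ⟨hkK, k', hk', hne, hcb⟩ := hk
    have ck := D.hc k hkK
    have ck' := D.hc k' hk'
    have hz := D.hz
    obtain ⟨u, a1, a2, a3, a4, a5⟩ := D.cbad_read hkK hk' (by omega) hcb
    rw [Finset.mem_union]
    rcases a5 with a5 | a5
    · left
      rw [hEE, Finset.mem_filter, Finset.mem_range]
      exact ⟨hkK, k', hk', hne, a5⟩
    · right
      have hm := hu u (D.z + D.c k - D.c k') (by omega) (by omega) (by omega) a2 a3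
        (fun t ht1 ht2 => a4 t (by omega) ht2)
      have hmem : (k, k') ∈ FF u := by
        rw [hFF]
        simp only [Finset.mem_filter, Finset.mem_product, Finset.mem_range]
        refine ⟨⟨hkK, hk'⟩, hne.symm, _, ?_, a5⟩
        omega
      rw [Finset.mem_union]
      rcases hm with rfl | rfl
      · left; exact Finset.mem_image.2 ⟨_, hmem, rfl⟩
      · right; exact Finset.mem_image.2 ⟨_, hmem, rfl⟩
  calc _ ≤ (EE ∪ ((FF u0).image Prod.fst ∪ (FF u1).image Prod.fst)).card :=
        Finset.card_le_card hsub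
    _ ≤ EE.card + ((FF u0).image Prod.fst ∪ (FF u1).image Prod.fst).card :=
        Finset.card_union_le _ _
    _ ≤ EE.card + (((FF u0).image Prod.fst).card + ((FF u1).image Prod.fst).card) :=
        Nat.add_le_add_left (Finset.card_union_le _ _) _
    _ ≤ 1 + (D.C1 + D.C1) := Nat.add_le_add hE (Nat.add_le_add
        (Finset.card_image_le.trans (hF u0)) (Finset.card_image_le.trans (hF u1)))
    _ = 1 + 2 * D.C1 := by ring

/-- (c2) -/
theorem c2 (X : List α) (hX : X ∈ D.Bad) (X' : List α) (hX' : X' ∈ D.Bad) (v : V) :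
    ∃ P Q, P ++ Q = X ++ X' ∧ P ∈ D.LP2 v ∧ Q ∈ D.RQ2 (D.T (D.T v X) X') := by
  classical
  have hz := D.hz
  have hXz := hX.1.1
  have htl : (X.take D.p0).length = D.p0 := by rw [List.length_take]; omega
  obtain ⟨I, hI, hIk⟩ := D.e2 (X.take D.p0) v (fun k hk => by rw [htl]; exact D.hc k hk)
  have hsp := D.spoil (X ++ X') (by rw [List.length_append]; omega)
  have hR := D.hR
  obtain ⟨k, hkI, hkn⟩ : ∃ k ∈ I, k ∉ ((Finset.range D.K).filter fun k => ∃ k', k' < D.K ∧
      k' ≠ k ∧ D.CBad k' ((X ++ X').drop (D.c k))) := by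
    by_contra hc
    push Not at hc
    have := Finset.card_le_card (show I ⊆ _ from hc)
    omega
  obtain ⟨hk, hlam, hrho⟩ := hIk k hkI
  have hck := D.hc k hk
  rw [Finset.mem_filter, Finset.mem_range] at hkn
  push Not at hkn
  have hkn' := hkn hk
  obtain ⟨w, hw⟩ := Option.isSome_iff_exists.1 hrho
  have e1 : (X.take D.p0).take (D.c k) = X.take (D.c k) := by
    rw [List.take_take, Nat.min_eq_left hck]
  have e2 : (X.take D.p0).drop (D.c k) = (X.drop (D.c k)).take (D.p0 - D.c k) := by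
    rw [List.drop_take]
  rw [e1] at hlam
  rw [e2] at hw
  have hPl : (X.take (D.c k)).length = D.c k := by rw [List.length_take]; omega
  have hXe : X.take (D.c k) ++ X.drop (D.c k) = X := List.take_append_drop _ _
  refine ⟨X.take (D.c k), X.drop (D.c k) ++ X', by rw [← List.append_assoc, hXe],
    ⟨k, hk, hPl, hlam⟩, k, hk, X.drop (D.c k), X', rfl, ?_, hX'.1, ?_, w, hw, ?_⟩
  · exact D.rest_of_XX hk hPl (by rw [hXe]; exact hX.1)
  · intro k' hk' hne hcb
    refine hkn' k' hk' hne ?_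
    rwa [List.drop_append_of_le_length (by omega)]
  · rw [D.value2 hk hPl hlam hw, hXe]

end Dat

end Crest.Agent.R320.Inst_291
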