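import Crest.Agent.R320.Half1r_296

/-!
# Row 320: the concrete two schemes on run-free words (helper296)

Chain rule: next anchor = first wall at distance `≥ z`.  Scheme 1 = a zone gadget whose left window
is bounded (`N1`), unknown zone length; scheme 2 = exact gadget at ruler places.
Everything external is a field of `In` / `Ok`.
-/

set_option autoImplicit false
set_option linter.unusedSectionVars false

namespace Crest.Agent.R320.Half1_296

open Crest.RegLang Crest.Agent.R320.Hk_851 Crest.Agent.R320.Thr_285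

universe u

variable {α : Type u} {S : Type*} [Monoid S] [Fintype S] [DecidableEq S]

/-- input data -/
structure In (α : Type u) (S : Type*) where
  φ : α → S
  RF : List α → Prop
  R : List α → Prop
  n : ℕ
  Gw : ℕ
  z : ℕ
  p0 : ℕ
  N1 : ℕ
  n0 : ℕ
  K : ℕ
  c : ℕ → ℕ
  BadN : ℕ → Prop
  lam : List α → Option (S → ZMod 2)
  rho : List α → Option (S → ZMod 2)
  nu : List α → (S → ZMod 2)
  lam2 : ℕ → List α → Option ((S → ZMod 2) → ZMod 2)
  rho2 : ℕ → List α → ((S → ZMod 2) → (S → ZMod 2)) → Option ((S → ZMod 2) → ZMod 2)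
  nu2 : List α → ((S → ZMod 2) → (S → ZMod 2)) → ((S → ZMod 2) → ZMod 2)

variable (I : In α S)

/-- product of a word -/
def In.pr (w : List α) : S := (w.map I.φ).prod

theorem In.pr_append (u v : List α) : I.pr (u ++ v) = I.pr u * I.pr v := by
  unfold In.pr; rw [List.map_append, List.prod_append]

open scoped Classical in
/-- next anchor -/
noncomputable def In.N (U : List α) : ℕ :=
  if h : ∃ s, I.z ≤ s ∧ I.R (U.drop s) then Nat.find h else I.z

/-- zone map of scheme 1 at a known anchor distance `T` -/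
noncomputable def In.gT (U : List α) (T : ℕ) (v : S → ZMod 2) : S → ZMod 2 :=
  act (act v (I.pr (U.take I.p0))) (I.pr ((U.take T).drop I.p0)) + I.nu ((U.take T).drop I.p0)

/-- tail map -/
noncomputable def In.y (U : List α) (T : ℕ) (v : S → ZMod 2) : S → ZMod 2 :=
  act v (I.pr ((U.take T).drop I.p0)) + I.nu ((U.take T).drop I.p0)

/-- wall near the threshold -/
def In.E (U : List α) : Prop := ∃ s, I.z ≤ s + I.N1 ∧ s < I.z + I.N1 ∧ I.R (U.drop s)

def In.B2 : ℕ := I.z + I.Gw + I.N1 + I.n

def In.B1 : ℕ := I.B2 + I.N1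

/-- bad zones -/
def In.Bad (U : List α) : Prop := I.E U ∨ I.BadN (I.N (U.take I.B2) - I.p0)

/-- the data of `Half1_296` -/
noncomputable def In.D : Dat α (S → ZMod 2) where
  RF := I.RF
  Bad := I.Bad
  N := I.N
  g := fun U v => I.gT U (I.N U) v
  ν2 := fun U => I.nu2 (U.take I.p0) (I.y (U.take I.B2) (I.N (U.take I.B2)))
  Lg1 := fun P v => I.p0 ≤ P.length ∧ P.length < I.p0 + I.N1 ∧
    I.lam (P.drop I.p0) = some (act v (I.pr (P.take I.p0)))
  Lg2 := fun P x => ∃ k < I.K, P.length = I.n0 + I.c k ∧ I.lam2 k P = some x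
  B1 := I.B1
  B2 := I.B2
  Nmin := I.z
  p1 := I.p0
  p2 := I.n0
  L2 := I.B1 + I.p0

/-- hypotheses -/
structure Ok (I : In α S) : Prop where
  rf : ∀ x y z, I.RF (x ++ y ++ z) → I.RF y
  n_pos : 0 < I.n
  R_loc : ∀ Q, I.R Q ↔ I.R (Q.take I.n)
  R_len : ∀ Q, I.R Q → I.n ≤ Q.length
  ex : ∀ Q, I.RF Q → I.Gw + I.n ≤ Q.length → ∃ i < I.Gw, I.R (Q.drop i)
  z_p0 : I.p0 + I.N1 ≤ I.z
  p0_n0 : ∀ k < I.K, I.n0 + I.c k ≤ I.p0
  n0_ge : I.Gw + 2 * I.N1 + I.n ≤ I.n0
  zpos : 0 < I.z
  p0_ge : I.n0 ≤ I.p0
  lam_len : ∀ P v, I.lam P = some v → P.length < I.N1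
  sound : ∀ P Q v b, I.lam P = some v → I.rho Q = some b →
    b = act v (I.pr (P ++ Q)) + I.nu (P ++ Q)
  complete : ∀ X, ¬ I.BadN X.length → ∀ v, ∃ P Q, P ++ Q = X ∧ I.lam P = some v ∧
    (I.rho Q).isSome
  /-- scheme 2, exact gadget on the first `p0` letters -/
  exact2 : ∀ k < I.K, ∀ (P Q : List α) (y : (S → ZMod 2) → (S → ZMod 2))
    (x b : (S → ZMod 2) → ZMod 2), P.length = I.n0 + I.c k → P.length + Q.length = I.p0 →
    I.lam2 k P = some x → I.rho2 k Q y = some b →
    b = push (fun v => y (act v (I.pr (P ++ Q)))) x + I.nu2 (P ++ Q) y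
  /-- scheme 2: an unspoiled place exists -/
  comp2 : ∀ U : List α, I.B1 + I.p0 ≤ U.length → I.RF (U.take I.B1) → I.Bad (U.take I.B1) →
    ∀ (y : (S → ZMod 2) → (S → ZMod 2)) (x : (S → ZMod 2) → ZMod 2),
    ∃ k < I.K, I.lam2 k (U.take (I.n0 + I.c k)) = some x ∧
      (I.rho2 k ((U.take I.p0).drop (I.n0 + I.c k)) y).isSome ∧
      ∀ k' < I.K, k' ≠ k → ∀ P' : List α, P'.length = I.n0 + I.c k' →
        I.RF ((P' ++ U.drop (I.n0 + I.c k)).take I.B1) →
        ¬ I.Bad ((P' ++ U.drop (I.n0 + I.c k)).take I.B1)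

variable {I}

theorem Ok.wall_fit (h : Ok I) {U : List α} {s : ℕ} (hs : I.R (U.drop s)) :
    s + I.n ≤ U.length := by
  have h1 := h.R_len _ hs
  have h2 := h.n_pos
  rw [List.length_drop] at h1
  omega

theorem Ok.wall_take (h : Ok I) {U : List α} {s B : ℕ} (hB : s + I.n ≤ B) :
    I.R ((U.take B).drop s) ↔ I.R (U.drop s) := by
  rw [h.R_loc ((U.take B).drop s), h.R_loc (U.drop s)]
  have : ((U.take B).drop s).take I.n = (U.drop s).take I.n := by
    rw [List.drop_take, List.take_take, min_eq_left (by omega)]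
  rw [this]

theorem N_eq {U : List α} {T : ℕ} (h1 : I.z ≤ T) (h2 : I.R (U.drop T))
    (h3 : ∀ s, I.z ≤ s → s < T → ¬ I.R (U.drop s)) : I.N U = T := by
  classical
  have hex : ∃ s, I.z ≤ s ∧ I.R (U.drop s) := ⟨T, h1, h2⟩
  unfold In.N
  rw [dif_pos hex]
  rw [Nat.find_eq_iff]
  refine ⟨⟨h1, h2⟩, ?_⟩
  rintro s hs ⟨h4, h5⟩
  exact h3 s h4 hs h5

theorem N_spec {U : List α} (hex : ∃ s, I.z ≤ s ∧ I.R (U.drop s)) :
    I.z ≤ I.N U ∧ I.R (U.drop (I.N U)) ∧ ∀ s, I.z ≤ s → s < I.N U → ¬ I.R (U.drop s) := by
  classical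
  unfold In.N
  rw [dif_pos hex]
  refine ⟨(Nat.find_spec hex).1, (Nat.find_spec hex).2, ?_⟩
  intro s h1 h2 h3
  exact Nat.find_min hex h2 ⟨h1, h3⟩

theorem Ok.N_bound (h : Ok I) {U : List α} (hU : U.length = I.B2) :
    I.z ≤ I.N U ∧ 0 < I.N U ∧ I.N U ≤ I.B2 := by
  classical
  have hz := h.zpos
  by_cases hex : ∃ s, I.z ≤ s ∧ I.R (U.drop s)
  · obtain ⟨h1, h2, _⟩ := N_spec hex
    have := h.wall_fit h2
    omega
  · have : I.N U = I.z := by unfold In.N; rw [dif_neg hex]
    rw [this]
    unfold In.B2
    omega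

/-- on run-free text the anchor is a visible wall -/
theorem Ok.N_rf (h : Ok I) {U : List α} (hU : U.length = I.B2) (hrf : I.RF U) :
    I.z ≤ I.N U ∧ I.N U < I.z + I.Gw ∧ I.R (U.drop (I.N U)) ∧
      ∀ s, I.z ≤ s → s < I.N U → ¬ I.R (U.drop s) := by
  have h1 : I.RF (U.drop I.z) := h.rf (U.take I.z) (U.drop I.z) [] (by simpa using hrf)
  obtain ⟨i, hi, hw⟩ := h.ex _ h1 (by rw [List.length_drop, hU]; unfold In.B2; omega)
  rw [List.drop_drop] at hw
  have hex : ∃ s, I.z ≤ s ∧ I.R (U.drop s) := ⟨I.z + i, by omega, by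
    first | exact hw | (rw [Nat.add_comm]; exact hw)⟩
  obtain ⟨a, b, c⟩ := N_spec hex
  refine ⟨a, ?_, b, c⟩
  by_contra hge
  push Not at hge
  exact c (I.z + i) (by omega) (by omega) (by
    first | exact hw | (rw [Nat.add_comm]; exact hw))

/-- the anchor of another left word in front of the same right word -/
theorem Ok.N_shift (h : Ok I) {P P' Q : List α} {T : ℕ} (hP : P.length ≤ I.z)
    (hP' : P'.length ≤ I.z) (hT : I.z ≤ T) (hTw : I.R ((P ++ Q).drop T))
    (hmin : ∀ s, I.z ≤ s → s < T → ¬ I.R ((P ++ Q).drop s))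
    (hclose : P'.length ≤ P.length + I.N1) (hclose' : P.length ≤ P'.length + I.N1)
    (hE : ∀ s, I.z ≤ s + I.N1 → s < I.z + I.N1 → ¬ I.R ((P ++ Q).drop s))
    (hTB : T ≤ I.z + I.Gw) :
    I.N ((P' ++ Q).take I.B2) = P'.length + (T - P.length) := by
  have e1 : ∀ q, (P ++ Q).drop (P.length + q) = Q.drop q := by
    intro q; simp [List.drop_append]
  have e2 : ∀ q, (P' ++ Q).drop (P'.length + q) = Q.drop q := by
    intro q; simp [List.drop_append]
  have hTE : I.z + I.N1 ≤ T := by
    by_contra hlt
    exact hE T (by omega) (by omega) hTw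
  have hdT : T = P.length + (T - P.length) := by omega
  have hw : I.R (Q.drop (T - P.length)) := by rw [← e1, ← hdT]; exact hTw
  refine N_eq (by omega) ?_ ?_
  · rw [h.wall_take (by unfold In.B2; omega), e2]; exact hw
  · intro s hs1 hs2 hs3
    rw [h.wall_take (by unfold In.B2; omega)] at hs3
    have e3 : s = P'.length + (s - P'.length) := by omega
    rw [e3, e2, ← e1] at hs3
    by_cases hc : I.z ≤ P.length + (s - P'.length)
    · exact hmin _ hc (by omega) hs3
    · exact hE _ (by omega) (by omega) hs3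

theorem gT_eq {U : List α} {T : ℕ} (v : S → ZMod 2) :
    I.gT U T v = I.y U T (act v (I.pr (U.take I.p0))) := rfl

/-- **the hypotheses of `Half1_296`** -/
theorem Ok.hyp (h : Ok I) : Hyp I.D where
  hB := by change 0 < I.B2; unfold In.B2; have := h.n_pos; omega
  hB12 := by change I.B2 ≤ I.B1; unfold In.B1; omega
  rf := h.rf
  N0 := fun U hU => h.N_bound hU
  q1 := by
    change I.B2 ≤ I.z + I.p0
    unfold In.B2; have := h.n0_ge; have := h.p0_ge; omega
  q2 := by
    change I.B1 ≤ I.z + I.n0
    unfold In.B1 In.B2; have := h.n0_ge; omega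
  r1 := by change I.p0 < I.B2; unfold In.B2; have := h.z_p0; have := h.n_pos; omega
  r2 := by
    change I.n0 < I.B1
    unfold In.B1 In.B2; have := h.z_p0; have := h.n_pos; have := h.p0_ge; omega
  l1 := by
    rintro P v ⟨h1, h2, _⟩
    refine ⟨h1, ?_⟩
    change P.length < I.B2
    unfold In.B2; have := h.z_p0; omega
  l2 := by
    rintro P x ⟨k, hk, h1, _⟩
    have := h.p0_n0 k hk
    have := h.z_p0
    constructor
    · change I.n0 ≤ P.length; omega
    · change P.length < I.B1
      unfold In.B1 In.B2; have := h.n_pos; omega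
  L2B := by change I.B1 ≤ I.B1 + I.p0; omega
  SC1 := by
    intro U hU hrf hbad v
    change U.length = I.B1 at hU
    change ¬ I.Bad U at hbad
    change I.RF U at hrf
    have hB2 : (U.take I.B2).length = I.B2 := by
      rw [List.length_take, hU]; unfold In.B1; omega
    have hrf2 : I.RF (U.take I.B2) := h.rf [] _ (U.drop I.B2) (by simpa using hrf)
    obtain ⟨t1, t2, t3, t4⟩ := h.N_rf hB2 hrf2
    set T := I.N (U.take I.B2) with hT
    have hzp := h.z_p0
    have hnE : ¬ I.E U := fun hh => hbad (Or.inl hh)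
    have hnB : ¬ I.BadN (T - I.p0) := fun hh => hbad (Or.inr hh)
    have hUT : T ≤ U.length := by rw [hU]; unfold In.B1 In.B2; omega
    have hYl : ((U.take T).drop I.p0).length = T - I.p0 := by
      rw [List.length_drop, List.length_take, min_eq_left hUT]
    obtain ⟨P0, Q0, e0, e1, e2⟩ := h.complete ((U.take T).drop I.p0) (by rw [hYl]; exact hnB)
      (act v (I.pr (U.take I.p0)))
    obtain ⟨r, hr⟩ := Option.isSome_iff_exists.1 e2
    have hP0 := h.lam_len _ _ e1
    have hpl : (U.take I.p0).length = I.p0 := by rw [List.length_take]; omega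
    have hUeq : U = (U.take I.p0 ++ P0) ++ (Q0 ++ U.drop T) := by
      have a1 : U.take I.p0 ++ (U.take T).drop I.p0 = U.take T := by
        have : U.take I.p0 = (U.take T).take I.p0 := by
          rw [List.take_take, min_eq_left (by omega)]
        rw [this, List.take_append_drop]
      calc U = U.take T ++ U.drop T := (List.take_append_drop _ _).symm
        _ = (U.take I.p0 ++ (P0 ++ Q0)) ++ U.drop T := by rw [e0, a1]
        _ = _ := by simp [List.append_assoc]
    have hlen0 : P0.length + Q0.length = T - I.p0 := by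
      rw [← List.length_append, e0, hYl]
    refine ⟨U.take I.p0 ++ P0, Q0 ++ U.drop T, hUeq, ?_, ?_, Q0.length, r, ?_⟩
    · refine ⟨?_, ?_, ?_⟩
      · rw [List.length_append, hpl]; omega
      · rw [List.length_append, hpl]; omega
      · rw [List.drop_left' hpl, List.take_left' hpl]; exact e1
    · change I.B2 ≤ I.p0 + (Q0 ++ U.drop T).length
      have := congrArg List.length hUeq
      rw [List.length_append, List.length_append, hpl, hU] at this
      unfold In.B1 at this
      omega
    · rintro P' v' ⟨g1, g2, g3⟩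
      have hP0' := h.lam_len _ _ g3
      have hTw : I.R (U.drop T) := by
        rw [h.wall_take (by unfold In.B2; omega)] at t3; exact t3
      have hNs : I.N ((P' ++ (Q0 ++ U.drop T)).take I.B2) =
          P'.length + (T - (U.take I.p0 ++ P0).length) := by
        refine h.N_shift (P := U.take I.p0 ++ P0) ?_ ?_ t1 ?_ ?_ ?_ ?_ ?_ (by omega)
        · rw [List.length_append, hpl]; omega
        · omega
        · rw [← hUeq]; exact hTw
        · intro s s1 s2
          rw [← hUeq]
          intro s3
          exact t4 s s1 s2 (by rw [h.wall_take (by unfold In.B2; omega)]; exact s3)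
        · rw [List.length_append, hpl]; omega
        · rw [List.length_append, hpl]; omega
        · intro s s1 s2
          rw [← hUeq]
          intro s3
          exact hnE ⟨s, s1, s2, s3⟩
      have hd : T - (U.take I.p0 ++ P0).length = Q0.length := by
        rw [List.length_append, hpl]; omega
      rw [hd] at hNs
      refine ⟨hNs, ?_⟩
      change I.gT ((P' ++ (Q0 ++ U.drop T)).take I.B2)
        (I.N ((P' ++ (Q0 ++ U.drop T)).take I.B2)) v' = r
      rw [hNs]
      have hb : P'.length + Q0.length ≤ I.B2 := by unfold In.B2; omega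
      have w1 : ((P' ++ (Q0 ++ U.drop T)).take I.B2).take I.p0 = P'.take I.p0 := by
        rw [List.take_take, min_eq_left (by unfold In.B2; omega),
          List.take_append_of_le_length g1]
      have w2 : (((P' ++ (Q0 ++ U.drop T)).take I.B2).take (P'.length + Q0.length)).drop I.p0 =
          P'.drop I.p0 ++ Q0 := by
        rw [List.take_take, min_eq_left hb, ← List.append_assoc,
          List.take_left' (by rw [List.length_append]), List.drop_append_of_le_length g1]
      unfold In.gT
      rw [w1, w2]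
      exact (h.sound _ _ _ _ g3 hr).symm
  SC2 := by
    intro U hU hrf hbad x
    change I.B1 + I.p0 ≤ U.length at hU
    change I.RF (U.take I.B1) at hrf
    change I.Bad (U.take I.B1) at hbad
    have hBB : I.B2 ≤ I.B1 := by unfold In.B1; omega
    have hB2 : (U.take I.B2).length = I.B2 := by rw [List.length_take]; omega
    have hrf2 : I.RF (U.take I.B2) := by
      refine h.rf [] _ ((U.take I.B1).drop I.B2) ?_
      have : U.take I.B2 = (U.take I.B1).take I.B2 := by rw [List.take_take, min_eq_left hBB]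
      rw [this]
      simpa using hrf
    obtain ⟨t1, t2, t3, t4⟩ := h.N_rf hB2 hrf2
    set T := I.N (U.take I.B2) with hT
    have hzp := h.z_p0
    obtain ⟨k, hk, c1, c2, c3⟩ := h.comp2 U hU hrf hbad (I.y (U.take I.B2) T) x
    obtain ⟨b, hb⟩ := Option.isSome_iff_exists.1 c2
    have hkp := h.p0_n0 k hk
    have hPl : (U.take (I.n0 + I.c k)).length = I.n0 + I.c k := by
      rw [List.length_take]; omega
    refine ⟨U.take (I.n0 + I.c k), U.drop (I.n0 + I.c k), (List.take_append_drop _ _).symm,
      ⟨k, hk, hPl, c1⟩, ?_, T - (I.n0 + I.c k), b, ?_⟩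
    · change I.B1 ≤ I.n0 + (U.drop (I.n0 + I.c k)).length
      rw [List.length_drop]; omega
    · rintro P' x' ⟨k', hk', g1, g2⟩ hrf' hbad'
      change I.RF ((P' ++ U.drop (I.n0 + I.c k)).take I.B1) at hrf'
      change I.Bad ((P' ++ U.drop (I.n0 + I.c k)).take I.B1) at hbad'
      have hkk : k' = k := by
        by_contra hne
        exact c3 k' hk' hne P' g1 hrf' hbad'
      subst hkk
      have e2 : ∀ s, I.n0 + I.c k' ≤ s → (P' ++ U.drop (I.n0 + I.c k')).drop s = U.drop s := by
        intro s hs
        have : s = P'.length + (s - (I.n0 + I.c k')) := by omega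
        rw [this]
        rw [List.drop_append]
        simp only [List.drop_drop]
        have e4 : P'.drop (P'.length + (s - (I.n0 + I.c k'))) = [] := by
          apply List.drop_eq_nil_of_le; omega
        rw [e4, List.nil_append]
        congr 1
        omega
      have hN : I.N ((P' ++ U.drop (I.n0 + I.c k')).take I.B2) = T := by
        refine N_eq t1 ?_ ?_
        · rw [h.wall_take (by unfold In.B2; omega), e2 _ (by omega)]
          rw [h.wall_take (by unfold In.B2; omega)] at t3
          exact t3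
        · intro s s1 s2 s3
          rw [h.wall_take (by unfold In.B2; omega), e2 _ (by omega)] at s3
          exact t4 s s1 s2 (by rw [h.wall_take (by unfold In.B2; omega)]; exact s3)
      have hTB : T ≤ I.B2 := by unfold In.B2; omega
      have hp0B : I.p0 ≤ I.B2 := by unfold In.B2; omega
      refine ⟨?_, ?_⟩
      · change I.N ((P' ++ U.drop (I.n0 + I.c k')).take I.B2) = _
        rw [hN, g1]; omega
      · change push (fun v => I.gT ((P' ++ U.drop (I.n0 + I.c k')).take I.B2)
          (I.N ((P' ++ U.drop (I.n0 + I.c k')).take I.B2)) v) x' +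
          I.nu2 (((P' ++ U.drop (I.n0 + I.c k')).take I.B1).take I.p0)
            (I.y (((P' ++ U.drop (I.n0 + I.c k')).take I.B1).take I.B2)
              (I.N (((P' ++ U.drop (I.n0 + I.c k')).take I.B1).take I.B2))) = b
        have f1 : ((P' ++ U.drop (I.n0 + I.c k')).take I.B1).take I.B2 =
            (P' ++ U.drop (I.n0 + I.c k')).take I.B2 := by
          rw [List.take_take, min_eq_left hBB]
        have f2 : ((P' ++ U.drop (I.n0 + I.c k')).take I.B1).take I.p0 =
            P' ++ (U.take I.p0).drop (I.n0 + I.c k') := by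
          rw [List.take_take, min_eq_left (by omega), List.take_append, g1,
            List.take_of_length_le (by omega), List.drop_take]
        have f3 : ((P' ++ U.drop (I.n0 + I.c k')).take I.B2).take I.p0 =
            P' ++ (U.take I.p0).drop (I.n0 + I.c k') := by
          rw [List.take_take, min_eq_left (by omega), List.take_append, g1,
            List.take_of_length_le (by omega), List.drop_take]
        have f4 : (((P' ++ U.drop (I.n0 + I.c k')).take I.B2).take T).drop I.p0 =
            ((U.take I.B2).take T).drop I.p0 := by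
          rw [List.take_take, min_eq_left hTB, List.take_take, min_eq_left hTB,
            List.drop_take, List.drop_take, e2 _ (by omega)]
        have f5 : I.y ((P' ++ U.drop (I.n0 + I.c k')).take I.B2) T = I.y (U.take I.B2) T := by
          funext v; unfold In.y; rw [f4]
        rw [f1, f2, hN, f5]
        have hq : P'.length + ((U.take I.p0).drop (I.n0 + I.c k')).length = I.p0 := by
          rw [List.length_drop, List.length_take, g1]; omega
        have := h.exact2 k' hk' P' ((U.take I.p0).drop (I.n0 + I.c k')) (I.y (U.take I.B2) T) x' b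
          g1 hq g2 hb
        rw [this]
        congr 2
        funext v
        rw [gT_eq, f5, f3]

/-- **HALF 1, concrete** -/
theorem Ok.half1 [Finite α] (h : Ok I) (hRF : HL 2 ({w | I.RF w} : Language α)) (s : S) :
    HL 2 ({w | I.RF w ∧ (w.map I.φ).prod = s} : Language α) := by
  refine Half1_296.half1 (φ := I.φ) (D := I.D) (ν := fun U => I.nu ((U.take (I.N U)).drop I.p0))
    h.hyp ?_ hRF s
  intro U hU v
  have hb := h.N_bound hU
  change I.gT U (I.N U) v = _
  unfold In.gT
  rw [← act_mul, ← I.pr_append]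
  have : U.take I.p0 ++ (U.take (I.N U)).drop I.p0 = U.take (I.N U) := by
    have hz := h.z_p0
    have : U.take I.p0 = (U.take (I.N U)).take I.p0 := by
      rw [List.take_take, min_eq_left (by omega)]
    rw [this, List.take_append_drop]
  rw [this]
  rfl

end Crest.Agent.R320.Half1_296
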