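import Mathlib

/-!
Row 320, helper299: instance of the block calculus (163 #13363) for the NATURAL chain
`N(a) = first outer wall >= a + z` with left-looking outer walls, an abstract zone gadget
(`lam`, `rho`, `nu1`, complete unless `BadT |Y|`) and an abstract exact gadget on the first `p0`
letters of the block (`lam2`, `rho2`, `nu2`) at the places `c k`.
-/

set_option autoImplicit false
set_option linter.unusedSectionVars false

namespace Crest.Agent.R320.Inst_299

variable {α S V : Type*} [Monoid S] [AddCommGroup V]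

/-- the data of both schemes -/
structure Dt (α S V : Type*) [Monoid S] [AddCommGroup V] where
  φ : List α → S
  act : V → S → V
  Wo : List α → Prop
  no : ℕ
  z : ℕ
  p0 : ℕ
  N1 : ℕ
  lam : List α → V → Prop
  rho : List α → Option V
  nu1 : List α → V
  BadT : ℕ → Prop
  K : ℕ
  c : ℕ → ℕ
  lam2 : ℕ → List α → Option V
  rho2 : ℕ → List α → Option V
  nu2 : List α → V

variable (D : Dt α S V)

/-- the blocks -/
def Dt.XX : Set (List α) :=
  {X | D.Wo X ∧ D.z ≤ X.length ∧ ∀ t < X.length, D.z ≤ t → ¬ D.Wo (X.take t)}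

/-- zone map -/
def Dt.T (v : V) (X : List α) : V :=
  D.act (D.act v (D.φ (X.take D.p0)) + D.nu2 (X.take D.p0)) (D.φ (X.drop D.p0)) +
    D.nu1 (X.drop D.p0)

/-- zone noise -/
def Dt.nu (X : List α) : V :=
  D.act (D.nu2 (X.take D.p0)) (D.φ (X.drop D.p0)) + D.nu1 (X.drop D.p0)

def Dt.LP1 (P : List α) (v : V) : Prop :=
  D.p0 ≤ P.length ∧ D.lam (P.drop D.p0) (D.act v (D.φ (P.take D.p0)) + D.nu2 (P.take D.p0))

/-- right part of scheme 1: the block ends at the same wall for every place of the window -/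
def Dt.RB (Q : List α) : Prop :=
  D.Wo Q ∧ D.z ≤ D.p0 + Q.length ∧ ∀ y < Q.length, D.z ≤ D.p0 + y + D.N1 → ¬ D.Wo (Q.take y)

open Classical in
noncomputable def Dt.R1 (Q : List α) : Option V := if D.RB Q then D.rho Q else none

def Dt.LP2 (P : List α) (v : V) : Prop :=
  ∃ k < D.K, P.length = D.c k ∧ D.lam2 k P = some v

/-- `t` is the end of the block whose start lies `c` letters left of `Q` -/
def Dt.Nx (c : ℕ) (Q : List α) (t : ℕ) : Prop :=
  t ≤ Q.length ∧ D.z ≤ c + t ∧ D.Wo (Q.take t) ∧ ∀ y < t, D.z ≤ c + y → ¬ D.Wo (Q.take y)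

/-- the anchor `c` letters left of `Q` is seen to be bad -/
def Dt.BC (c : ℕ) (Q : List α) : Prop :=
  ∃ t, D.Nx c Q t ∧ (c + t < D.z + D.N1 ∨
    (∃ y < t, D.z ≤ c + y + D.N1 ∧ D.Wo (Q.take y)) ∨ D.BadT (c + t - D.p0))

/-- bad blocks -/
def Dt.BadX (X : List α) : Prop :=
  X.length < D.z + D.N1 ∨ (∃ t < X.length, D.z ≤ t + D.N1 ∧ D.Wo (X.take t)) ∨
    D.BadT (X.length - D.p0)

/-- right parts of scheme 2 (rest of the block and one more block) -/
def Dt.R2P (Q : List α) (b : V) : Prop :=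
  ∃ k < D.K, D.BC (D.c k) Q ∧ (∀ k' < D.K, D.BC (D.c k') Q → k' = k) ∧
    ∃ (Q1 X2 : List α) (b' : V), Q = Q1 ++ X2 ∧ D.Nx (D.c k) Q Q1.length ∧ X2 ∈ D.XX ∧
      D.rho2 k (Q1.take (D.p0 - D.c k)) = some b' ∧
      b = D.T (D.act b' (D.φ (Q1.drop (D.p0 - D.c k))) + D.nu1 (Q1.drop (D.p0 - D.c k))) X2

open Classical in
noncomputable def Dt.R2 (Q : List α) : Option V :=
  if h : ∃ b, D.R2P Q b then some h.choose else none

/-- the hypotheses on the data -/
structure Ok (D : Dt α S V) (W R : ℕ) : Prop where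
  φ_nil : D.φ [] = 1
  φ_app : ∀ u v, D.φ (u ++ v) = D.φ u * D.φ v
  act_mul : ∀ v s s', D.act (D.act v s) s' = D.act v (s * s')
  act_add : ∀ v w s, D.act (v + w) s = D.act v s + D.act w s
  no_pos : 0 < D.no
  loc : ∀ P Q : List α, D.no ≤ Q.length → (D.Wo (P ++ Q) ↔ D.Wo Q)
  gap : ∀ P Q, D.Wo P → D.Wo (P ++ Q) → Q ≠ [] → W < Q.length
  hz : 2 * D.p0 + 2 * D.N1 + D.no ≤ D.z
  g_sound : ∀ P Q v b, D.lam P v → D.rho Q = some b →
    D.act v (D.φ (P ++ Q)) + D.nu1 (P ++ Q) = b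
  g_len : ∀ P v, D.lam P v → P.length ≤ D.N1
  g_compl : ∀ Y : List α, 2 * D.N1 ≤ Y.length → ¬ D.BadT Y.length → ∀ v, ∃ P Q, Y = P ++ Q ∧
    D.lam P v ∧ (D.rho Q).isSome
  c_mono : ∀ i j, i < j → j < D.K → D.c i < D.c j
  c_le : ∀ k < D.K, D.c k ≤ D.p0
  h_sound : ∀ k < D.K, ∀ (P Q : List α) (v b : V), P.length = D.c k → P.length + Q.length = D.p0 →
    D.lam2 k P = some v → D.rho2 k Q = some b → b = D.act v (D.φ (P ++ Q)) + D.nu2 (P ++ Q)
  h_compl : ∀ (u : List α) (v : V), u.length = D.p0 → ∃ I : Finset ℕ, R ≤ I.card ∧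
    ∀ k ∈ I, k < D.K ∧ D.lam2 k (u.take (D.c k)) = some v ∧ (D.rho2 k (u.drop (D.c k))).isSome
  /-- ruler, wall band -/
  r_band : ∀ i j k l, i < D.K → j < D.K → k < D.K → l < D.K → i ≠ j → k ≠ l →
    |((D.c i : ℤ) - D.c j) - ((D.c k : ℤ) - D.c l)| ≤ 2 * D.N1 → i = k

variable {D} {W R : ℕ}

theorem take_app {P Q : List α} {y : ℕ} : (P ++ Q).take (P.length + y) = P ++ Q.take y := by
  rw [List.take_append, Nat.add_sub_cancel_left, List.take_of_length_le (by omega)]

theorem Ok.wo_app (h : Ok D W R) {P Q : List α} {y : ℕ} (hy : D.no ≤ y) (hy2 : y ≤ Q.length) :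
    D.Wo ((P ++ Q).take (P.length + y)) ↔ D.Wo (Q.take y) := by
  rw [take_app]
  exact h.loc P (Q.take y) (by rw [List.length_take]; omega)

theorem Ok.hnil (h : Ok D W R) : ([] : List α) ∉ D.XX := by
  rintro ⟨-, h1, -⟩
  have h2 := h.hz
  have h3 := h.no_pos
  simp only [List.length_nil] at h1
  omega

theorem hPC : ∀ X ∈ D.XX, ∀ Y, X ++ Y ∈ D.XX → Y = [] := by
  rintro X ⟨a1, a2, a3⟩ Y ⟨b1, b2, b3⟩
  by_contra hY
  have hl : 0 < Y.length := List.length_pos_iff.2 hY
  refine b3 X.length (by rw [List.length_append]; omega) a2 ?_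
  rw [List.take_append_of_le_length le_rfl, List.take_length]
  exact a1

theorem Ok.hT (h : Ok D W R) : ∀ X ∈ D.XX, ∀ v, D.T v X = D.act v (D.φ X) + D.nu X := by
  rintro X - v
  unfold Dt.T Dt.nu
  rw [h.act_add, h.act_mul, ← h.φ_app, List.take_append_drop, add_assoc]

theorem Ok.s1 (h : Ok D W R) : ∀ P v Q b, D.LP1 P v → D.R1 Q = some b →
    P ++ Q ∈ D.XX ∧ D.T v (P ++ Q) = b := by
  rintro P v Q b ⟨hP0, hP⟩ hQ
  unfold Dt.R1 at hQ
  split_ifs at hQ with hB
  obtain ⟨b1, b2, b3⟩ := hB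
  have hl := h.g_len _ _ hP
  rw [List.length_drop] at hl
  have hz := h.hz
  refine ⟨⟨(h.loc P Q (by omega)).2 b1, by rw [List.length_append]; omega, ?_⟩, ?_⟩
  · intro t ht hzt hw
    obtain ⟨y, rfl⟩ := Nat.exists_eq_add_of_le (show P.length ≤ t by omega)
    rw [List.length_append] at ht
    rw [h.wo_app (by omega) (by omega)] at hw
    exact b3 y (by omega) (by omega) hw
  · have := h.g_sound _ _ _ _ hP hQ
    unfold Dt.T
    rw [List.take_append_of_le_length hP0, List.drop_append_of_le_length hP0, this]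

theorem Ok.compl1 (h : Ok D W R) {X : List α} (hX : X ∈ D.XX) (hb : ¬ D.BadX X) (v : V) :
    ∃ P Q, X = P ++ Q ∧ D.LP1 P v ∧ (D.R1 Q).isSome := by
  obtain ⟨a1, a2, a3⟩ := hX
  unfold Dt.BadX at hb
  push Not at hb
  obtain ⟨e1, e2, e3⟩ := hb
  have hz := h.hz
  have hX0 : (X.take D.p0).length = D.p0 := by rw [List.length_take]; omega
  obtain ⟨P', Q, hPQ, hP', hQ⟩ := h.g_compl (X.drop D.p0) (by rw [List.length_drop]; omega)
    (by rwa [List.length_drop]) (D.act v (D.φ (X.take D.p0)) + D.nu2 (X.take D.p0))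
  have hl := h.g_len _ _ hP'
  have hXe : X = (X.take D.p0 ++ P') ++ Q := by
    rw [List.append_assoc, ← hPQ, List.take_append_drop]
  have hPl : (X.take D.p0 ++ P').length = D.p0 + P'.length := by
    rw [List.length_append, hX0]
  have hXl : X.length = D.p0 + P'.length + Q.length := by
    conv_lhs => rw [hXe]
    rw [List.length_append, hPl]
  refine ⟨X.take D.p0 ++ P', Q, hXe, ⟨by omega, ?_⟩, ?_⟩
  · have t1 : (X.take D.p0 ++ P').drop D.p0 = P' := by
      rw [List.drop_append_of_le_length hX0.ge, List.drop_of_length_le hX0.le, List.nil_append]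
    have t2 : (X.take D.p0 ++ P').take D.p0 = X.take D.p0 := by
      rw [List.take_append_of_le_length hX0.ge, List.take_of_length_le hX0.le]
    rw [t1, t2]
    exact hP'
  · have hB : D.RB Q := by
      refine ⟨?_, by omega, ?_⟩
      · have := a1
        rw [hXe] at this
        exact (h.loc _ Q (by omega)).1 this
      · intro y hy hy2 hw
        have hw2 : D.Wo (X.take ((X.take D.p0 ++ P').length + y)) := by
          have h5 : X.take ((X.take D.p0 ++ P').length + y) =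
              ((X.take D.p0 ++ P') ++ Q).take ((X.take D.p0 ++ P').length + y) := by rw [← hXe]
          rw [h5, h.wo_app (by omega) (by omega)]
          exact hw
        exact e2 _ (by omega) (by omega) hw2
    unfold Dt.R1
    rw [if_pos hB]
    exact hQ

theorem Nx_unique {c : ℕ} {Q : List α} {t t' : ℕ} (h : D.Nx c Q t) (h' : D.Nx c Q t') :
    t = t' := by
  rcases lt_trichotomy t t' with h1 | h1 | h1
  · exact absurd h.2.2.1 (h'.2.2.2 t h1 h.2.1)
  · exact h1
  · exact absurd h'.2.2.1 (h.2.2.2 t' h1 h'.2.1)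

theorem Ok.nx_of_XX (h : Ok D W R) {P Q1 Z : List α} (hP : P.length ≤ D.p0)
    (hX : P ++ Q1 ∈ D.XX) : D.Nx P.length (Q1 ++ Z) Q1.length := by
  obtain ⟨a1, a2, a3⟩ := hX
  have hz := h.hz
  rw [List.length_append] at a2
  refine ⟨by rw [List.length_append]; omega, a2, ?_, ?_⟩
  · rw [List.take_append_of_le_length le_rfl, List.take_length]
    exact (h.loc P Q1 (by omega)).1 a1
  · intro y hy hy2 hw
    rw [List.take_append_of_le_length hy.le] at hw
    refine a3 (P.length + y) (by rw [List.length_append]; omega) hy2 ?_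
    rw [h.wo_app (by omega) (by omega)]
    exact hw

theorem Ok.bc_of_bad (h : Ok D W R) {P Q1 Z : List α} (hP : P.length ≤ D.p0)
    (hX : P ++ Q1 ∈ D.XX) (hb : D.BadX (P ++ Q1)) : D.BC P.length (Q1 ++ Z) := by
  have hz := h.hz
  refine ⟨Q1.length, h.nx_of_XX hP hX, ?_⟩
  obtain ⟨a1, a2, a3⟩ := hX
  unfold Dt.BadX at hb
  rw [List.length_append] at hb a2
  rcases hb with hb | ⟨t, ht, ht2, hw⟩ | hb
  · exact Or.inl hb
  · refine Or.inr (Or.inl ?_)
    obtain ⟨y, rfl⟩ := Nat.exists_eq_add_of_le (show P.length ≤ t by omega)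
    rw [h.wo_app (by omega) (by omega)] at hw
    refine ⟨y, by omega, ht2, ?_⟩
    rw [List.take_append_of_le_length (by omega)]
    exact hw
  · exact Or.inr (Or.inr hb)

theorem R2_some {Q : List α} {b : V} (h : D.R2 Q = some b) : D.R2P Q b := by
  unfold Dt.R2 at h
  split_ifs at h with h1
  have := h1.choose_spec
  rw [Option.some.inj h] at this
  exact this

theorem R2_isSome {Q : List α} {b : V} (h : D.R2P Q b) : (D.R2 Q).isSome := by
  unfold Dt.R2
  rw [dif_pos ⟨b, h⟩]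
  rfl

theorem R2P_unique {Q : List α} {b b' : V} (h : D.R2P Q b) (h' : D.R2P Q b') : b = b' := by
  obtain ⟨k, hk, hb, hu, Q1, X2, x, rfl, hn, hX, hr, rfl⟩ := h
  obtain ⟨k', hk', hb', hu', Q1', X2', x', e, hn', hX', hr', rfl⟩ := h'
  obtain rfl := hu k' hk' hb'
  have hl := Nx_unique hn hn'
  obtain ⟨rfl, rfl⟩ := List.append_inj e hl
  rw [hr] at hr'
  rw [Option.some.inj hr']

theorem R2_iff {Q : List α} {b : V} : D.R2 Q = some b ↔ D.R2P Q b := by
  constructor
  · exact R2_some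
  · intro h
    obtain ⟨b', hb'⟩ := Option.isSome_iff_exists.1 (R2_isSome h)
    rw [hb', R2P_unique h (R2_some hb')]

theorem Ok.s2 (h : Ok D W R) : ∀ P v Q b, D.LP2 P v → D.R2 Q = some b →
    (∀ X ∈ D.XX, X <+: P ++ Q → ∀ P' Q', X = P' ++ Q' → P.length ≤ P'.length →
      D.LP1 P' v → (D.R1 Q').isSome → False) →
    ∃ Q1 X2, Q = Q1 ++ X2 ∧ Q1 ≠ [] ∧ P ++ Q1 ∈ D.XX ∧ X2 ∈ D.XX ∧
      D.T (D.T v (P ++ Q1)) X2 = b := by
  rintro P v Q b ⟨k0, hk0, hPl, hlam⟩ hQ hlive
  obtain ⟨k, hk, hbc, huniq, Q1, X2, b', rfl, hn, hX2, hr, rfl⟩ := R2_some hQ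
  have hz := h.hz
  have hc0 := h.c_le k0 hk0
  -- the first block of `P ++ Q`
  have hend : D.Wo ((P ++ (Q1 ++ X2)).take (P ++ (Q1 ++ X2)).length) := by
    rw [List.take_length, ← List.append_assoc]
    exact (h.loc _ X2 (by have := hX2.2.1; omega)).2 hX2.1
  have hex : ∃ t, D.z ≤ t ∧ t ≤ (P ++ (Q1 ++ X2)).length ∧ D.Wo ((P ++ (Q1 ++ X2)).take t) :=
    ⟨_, by have := hX2.2.1; simp only [List.length_append]; omega, le_rfl, hend⟩
  classical
  obtain ⟨t1, t2, t3⟩ := Nat.find_spec hex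
  set t := Nat.find hex with ht
  have hmin : ∀ s < t, D.z ≤ s → ¬ D.Wo ((P ++ (Q1 ++ X2)).take s) := by
    intro s hs hs2 hw
    exact Nat.find_min hex hs ⟨hs2, by omega, hw⟩
  set X := (P ++ (Q1 ++ X2)).take t with hXdef
  have hXl : X.length = t := by rw [hXdef, List.length_take]; omega
  have hXX : X ∈ D.XX := by
    refine ⟨t3, by omega, ?_⟩
    intro s hs hs2 hw
    rw [hXdef, List.take_take, min_eq_left (by omega)] at hw
    exact hmin s (by omega) hs2 hw
  have hpre : X <+: P ++ (Q1 ++ X2) := List.take_prefix _ _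
  have hbad : D.BadX X := by
    by_contra hb
    obtain ⟨P', Q', e, hP', hQ'⟩ := h.compl1 hXX hb v
    exact hlive X hXX hpre P' Q' e (by have := hP'.1; omega) hP' hQ'
  -- `X = P ++ Q1'`
  obtain ⟨s, hs⟩ := Nat.exists_eq_add_of_le (show P.length ≤ t by omega)
  have hXe : X = P ++ (Q1 ++ X2).take s := by rw [hXdef, hs, take_app]
  have hQe : Q1 ++ X2 = (Q1 ++ X2).take s ++ (Q1 ++ X2).drop s := (List.take_append_drop _ _).symm
  have hbc0 : D.BC (D.c k0) (Q1 ++ X2) := by
    rw [hQe, ← hPl]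
    exact h.bc_of_bad (by omega) (by rw [← hXe]; exact hXX) (by rw [← hXe]; exact hbad)
  obtain rfl := huniq k0 hk0 hbc0
  have hn0 : D.Nx (D.c k0) (Q1 ++ X2) ((Q1 ++ X2).take s).length := by
    conv => rw [hQe]
    rw [← hPl]
    have := h.nx_of_XX (P := P) (Q1 := (Q1 ++ X2).take s) (Z := (Q1 ++ X2).drop s) (by omega)
      (by rw [← hXe]; exact hXX)
    simpa using this
  have hl := Nx_unique hn hn0
  have hQ1 : (Q1 ++ X2).take s = Q1 := by
    have h1 : (Q1 ++ X2).take s = (Q1 ++ X2).take Q1.length := by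
      rw [hl, List.length_take]
      rw [List.take_eq_take_iff]
      omega
    rw [h1, List.take_append_of_le_length le_rfl, List.take_length]
  rw [hQ1] at hXe
  have hQ1l : D.z ≤ P.length + Q1.length := by
    have := hXX.2.1
    rw [hXe, List.length_append] at this
    exact this
  refine ⟨Q1, X2, rfl, ?_, ?_, hX2, ?_⟩
  · rintro rfl
    have := h.no_pos
    simp only [List.length_nil] at hQ1l
    omega
  · rw [← hXe]; exact hXX
  · have e1 : (P ++ Q1).take D.p0 = P ++ Q1.take (D.p0 - D.c k0) := by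
      rw [← hPl, show D.p0 = P.length + (D.p0 - P.length) by omega, take_app]
      congr 2
      omega
    have e2 : (P ++ Q1).drop D.p0 = Q1.drop (D.p0 - D.c k0) := by
      rw [← hPl, List.drop_append, List.drop_of_length_le (by omega), List.nil_append]
    have hs := h.h_sound k0 hk0 P (Q1.take (D.p0 - D.c k0)) v b' hPl
      (by rw [List.length_take]; omega) hlam hr
    conv_lhs => unfold Dt.T
    unfold Dt.T
    rw [e1, e2, ← hs]

/-- the spoiling hypothesis in word form -/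
def Spoil (D : Dt α S V) (R : ℕ) : Prop :=
  ∀ X ∈ D.XX, ∀ X2 ∈ D.XX, ∃ J : Finset ℕ, J.card < R ∧ ∀ k < D.K,
    (∃ k' < D.K, k' ≠ k ∧ D.BC (D.c k') ((X ++ X2).drop (D.c k))) → k ∈ J

theorem Ok.cc (h : Ok D W R) (hsp : Spoil D R) : ∀ X ∈ D.XX, ∀ X2 ∈ D.XX, ∀ v,
    (∃ P Q, X = P ++ Q ∧ D.LP1 P v ∧ (D.R1 Q).isSome) ∨
    (∃ P Q, X ++ X2 = P ++ Q ∧ P.length < X.length ∧ D.LP2 P v ∧ (D.R2 Q).isSome) := by
  intro X hX X2 hX2 v
  by_cases hb : D.BadX X
  · right
    have hz := h.hz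
    have hXz := hX.2.1
    have hno := h.no_pos
    obtain ⟨J, hJ, hJ2⟩ := hsp X hX X2 hX2
    obtain ⟨I, hI, hI2⟩ := h.h_compl (X.take D.p0) v (by rw [List.length_take]; omega)
    obtain ⟨k, hkI, hkJ⟩ := Finset.exists_mem_notMem_of_card_lt_card (lt_of_lt_of_le hJ hI)
    obtain ⟨hk, hl, hr⟩ := hI2 k hkI
    have hck := h.c_le k hk
    obtain ⟨b', hb'⟩ := Option.isSome_iff_exists.1 hr
    have hXe : X.take (D.c k) ++ X.drop (D.c k) = X := List.take_append_drop _ _
    have hPl : (X.take (D.c k)).length = D.c k := by rw [List.length_take]; omega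
    have hdr : (X ++ X2).drop (D.c k) = X.drop (D.c k) ++ X2 :=
      List.drop_append_of_le_length (by omega)
    have hp0 := h.hz
    have hPX : (X.take (D.c k)).length < X.length := by rw [hPl]; omega
    refine ⟨X.take (D.c k), X.drop (D.c k) ++ X2, ?_, hPX, ⟨k, hk, hPl, ?_⟩, ?_⟩
    · rw [← List.append_assoc, hXe]
    · rw [← hl, List.take_take, min_eq_left hck]
    · refine R2_isSome (b := _) ⟨k, hk, ?_, ?_, X.drop (D.c k), X2, b', rfl, ?_, hX2, ?_, rfl⟩
      · have := h.bc_of_bad (P := X.take (D.c k)) (Q1 := X.drop (D.c k)) (Z := X2) (by omega)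
          (by rw [hXe]; exact hX) (by rw [hXe]; exact hb)
        rwa [hPl] at this
      · intro k' hk' hbc
        by_contra hne
        apply hkJ
        refine hJ2 k hk ⟨k', hk', hne, ?_⟩
        rw [hdr]
        exact hbc
      · have := h.nx_of_XX (P := X.take (D.c k)) (Q1 := X.drop (D.c k)) (Z := X2) (by omega)
          (by rw [hXe]; exact hX)
        rwa [hPl] at this
      · rw [List.drop_take] at hb'
        exact hb'
  · left
    exact h.compl1 hX hb v

end Crest.Agent.R320.Inst_299
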