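import Mathlib

/-!
Row 320, helper304: from the U-gadget (scheme 1), the exact gadget with redundancy (scheme 2),
left-looking walls and a spoiling bound to the block statements `s1`, `s2`, `cc` of 163 #13363
(natural chain rule: a block is cut at the first wall of length at least `z`).
-/

set_option autoImplicit false
set_option linter.unusedSectionVars false

namespace Crest.Agent.R320.Inst_304

variable {α S V : Type*} [Monoid S] [AddCommGroup V]

/-- the data -/
structure Dat (α S V : Type*) where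
  φ : List α → S
  act : V → S → V
  Wo : List α → Prop
  no : ℕ
  z : ℕ
  p0 : ℕ
  N1 : ℕ
  N2 : ℕ
  K : ℕ
  C0 : ℕ
  c : ℕ → ℕ
  BadT : ℕ → Prop
  lam : List α → Option V
  rho : List α → Option V
  nu1 : List α → V
  lamk : ℕ → List α → Option V
  rhok : ℕ → List α → Option V
  nu2 : List α → V

variable (D : Dat α S V)

/-- blocks -/
def XX : Set (List α) :=
  {X | D.z ≤ X.length ∧ D.Wo X ∧ ∀ t < X.length, D.z ≤ t → ¬ D.Wo (X.take t)}

/-- zone map -/
def T (v : V) (X : List α) : V :=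
  D.act (D.act v (D.φ (X.take D.p0)) + D.nu2 (X.take D.p0)) (D.φ (X.drop D.p0)) +
    D.nu1 (X.drop D.p0)

/-- the wall band -/
def E (X : List α) : Prop :=
  ∃ t ≤ X.length, D.Wo (X.take t) ∧ D.z ≤ t + D.N1 ∧ t < D.z + D.N1

/-- bad blocks of scheme 1 -/
def EB (X : List α) : Prop := E D X ∨ D.BadT (X.length - D.p0)

/-- scheme 1, left -/
def LP1 (P : List α) (v : V) : Prop :=
  D.p0 ≤ P.length ∧
    D.lam (P.drop D.p0) = some (D.act v (D.φ (P.take D.p0)) + D.nu2 (P.take D.p0))

/-- scheme 1: the right word ends at the next anchor for all places of the window -/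
def RB (Q : List α) : Prop :=
  D.Wo Q ∧ D.no ≤ Q.length ∧ D.z ≤ D.p0 + Q.length ∧
    ∀ y < Q.length, D.no ≤ y → D.Wo (Q.take y) → D.p0 + y + D.N1 < D.z

open Classical in
/-- scheme 1, right -/
noncomputable def R1 (Q : List α) : Option V := if RB D Q then D.rho Q else none

/-- scheme 2, left -/
def LP2 (P : List α) (v : V) : Prop := ∃ k < D.K, P.length = D.c k ∧ D.lamk k P = some v

/-- the end of the candidate block `k` in the right word `Q` -/
def End (k : ℕ) (Q : List α) (e : ℕ) : Prop :=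
  e ≤ Q.length ∧ D.z ≤ D.c k + e ∧ D.Wo (Q.take e) ∧
    ∀ y < e, D.z ≤ D.c k + y → ¬ D.Wo (Q.take y)

/-- the candidate block `k` is bad -/
def Bk (k : ℕ) (Q : List α) : Prop :=
  (∃ y ≤ Q.length, D.Wo (Q.take y) ∧ D.z ≤ D.c k + y + D.N1 ∧ D.c k + y < D.z + D.N1) ∨
    ∃ e, End D k Q e ∧ D.BadT (D.c k + e - D.p0)

/-- scheme 2, right (relation) -/
def RR2 (Q : List α) (b : V) : Prop :=
  ∃ k < D.K, Bk D k Q ∧ (∀ k' < D.K, Bk D k' Q → k' = k) ∧ ∃ (Q1 X2 : List α) (r : V),
    Q = Q1 ++ X2 ∧ End D k Q Q1.length ∧ X2 ∈ XX D ∧ D.rhok k (Q1.take (D.p0 - D.c k)) = some r ∧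
    b = T D (D.act r (D.φ (Q1.drop (D.p0 - D.c k))) + D.nu1 (Q1.drop (D.p0 - D.c k))) X2

open Classical in
/-- scheme 2, right -/
noncomputable def R2 (Q : List α) : Option V := if h : ∃ b, RR2 D Q b then some h.choose else none

/-- the standing hypotheses -/
structure Ok : Prop where
  loc : ∀ P Q : List α, D.no ≤ Q.length → (D.Wo (P ++ Q) ↔ D.Wo Q)
  hz : D.p0 + D.N1 + D.N1 + D.no < D.z
  hN2 : D.p0 + D.N2 ≤ D.z
  hc : ∀ k < D.K, D.c k ≤ D.p0
  lamN : ∀ p v, D.lam p = some v → p.length ≤ D.N1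
  sound : ∀ p q v r, D.lam p = some v → D.rho q = some r →
    r = D.act v (D.φ (p ++ q)) + D.nu1 (p ++ q)
  complete : ∀ u : List α, D.N2 ≤ u.length → ¬ D.BadT u.length → ∀ v, ∃ p q, p ++ q = u ∧
    D.lam p = some v ∧ (D.rho q).isSome
  exact2 : ∀ k < D.K, ∀ P Q : List α, P.length = D.c k → P.length + Q.length = D.p0 →
    ∀ v r, D.lamk k P = some v → D.rhok k Q = some r → r = D.act v (D.φ (P ++ Q)) + D.nu2 (P ++ Q)
  complete2 : ∀ X1 : List α, X1.length = D.p0 → ∀ v, ∀ Sp : Finset ℕ, Sp.card ≤ D.C0 →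
    ∃ k < D.K, k ∉ Sp ∧ D.lamk k (X1.take (D.c k)) = some v ∧ (D.rhok k (X1.drop (D.c k))).isSome
  spoil : ∀ X ∈ XX D, ∀ X2 ∈ XX D, EB D X → ∃ Sp : Finset ℕ, Sp.card ≤ D.C0 ∧
    ∀ k < D.K, (∃ k' < D.K, k' ≠ k ∧ Bk D k' ((X ++ X2).drop (D.c k))) → k ∈ Sp

variable {D}

theorem take_app {P Q : List α} (y : ℕ) : (P ++ Q).take (P.length + y) = P ++ Q.take y := by
  rw [List.take_append, Nat.add_sub_cancel_left, List.take_of_length_le (by omega)]

theorem XX_prefixFree : ∀ X ∈ XX D, ∀ Y, X ++ Y ∈ XX D → Y = [] := by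
  intro X hX Y hY
  by_contra hne
  have hl : 0 < Y.length := List.length_pos_of_ne_nil hne
  refine hY.2.2 X.length (by rw [List.length_append]; omega) hX.1 ?_
  rw [List.take_left' rfl]
  exact hX.2.1

theorem End.unique {k : ℕ} {Q : List α} {e e' : ℕ} (h : End D k Q e) (h' : End D k Q e') :
    e = e' := by
  obtain ⟨a1, a2, a3, a4⟩ := h
  obtain ⟨b1, b2, b3, b4⟩ := h'
  rcases lt_trichotomy e e' with hlt | heq | hgt
  · exact absurd a3 (b4 e hlt a2)
  · exact heq
  · exact absurd b3 (a4 e' hgt b2)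

/-! ### Scheme 1 -/

theorem Ok.s1 (h : Ok D) (P : List α) (v : V) (Q : List α) (b : V) (hL : LP1 D P v)
    (hR : R1 D Q = some b) : P ++ Q ∈ XX D ∧ T D v (P ++ Q) = b := by
  classical
  obtain ⟨hp, hlam⟩ := hL
  unfold R1 at hR
  split_ifs at hR with hRB
  obtain ⟨r1, r2, r3, r4⟩ := hRB
  have hN := h.lamN _ _ hlam
  rw [List.length_drop] at hN
  have hz := h.hz
  refine ⟨⟨?_, (h.loc P Q r2).2 r1, ?_⟩, ?_⟩
  · rw [List.length_append]; omega
  · intro t ht hzt hw
    rw [List.length_append] at ht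
    obtain ⟨y, rfl⟩ := Nat.exists_eq_add_of_le (show P.length ≤ t by omega)
    have hy : D.no ≤ y := by omega
    rw [take_app] at hw
    have := r4 y (by omega) hy ((h.loc P _ (by rw [List.length_take]; omega)).1 hw)
    omega
  · unfold T
    rw [List.take_append_of_le_length hp, List.drop_append_of_le_length hp]
    exact (h.sound _ _ _ _ hlam hR).symm

theorem Ok.RB_of (h : Ok D) {P Q : List α} (hX : P ++ Q ∈ XX D) (hE : ¬ E D (P ++ Q))
    (h1 : D.p0 ≤ P.length) (h2 : P.length ≤ D.p0 + D.N1) : RB D Q := by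
  obtain ⟨a1, a2, a3⟩ := hX
  have hz := h.hz
  rw [List.length_append] at a1
  have hlong : D.z + D.N1 ≤ P.length + Q.length := by
    by_contra hlt
    refine hE ⟨(P ++ Q).length, le_rfl, ?_, ?_, ?_⟩
    · rwa [List.take_length]
    · rw [List.length_append]; omega
    · rw [List.length_append]; omega
  have hno : D.no ≤ Q.length := by omega
  refine ⟨(h.loc P Q hno).1 a2, hno, by omega, ?_⟩
  intro y hy hy1 hy2
  have hw : D.Wo ((P ++ Q).take (P.length + y)) := by
    rw [take_app]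
    exact (h.loc P _ (by rw [List.length_take]; omega)).2 hy2
  have h3 : ¬ D.z ≤ P.length + y := fun h4 => a3 _ (by rw [List.length_append]; omega) h4 hw
  by_contra hlt
  refine hE ⟨P.length + y, by rw [List.length_append]; omega, hw, by omega, by omega⟩

/-- completeness of scheme 1 off the bad blocks -/
theorem Ok.c1 (h : Ok D) {X : List α} (hX : X ∈ XX D) (hb : ¬ EB D X) (v : V) :
    ∃ P Q, X = P ++ Q ∧ LP1 D P v ∧ (R1 D Q).isSome := by
  classical
  have hz := h.hz
  have hN2 := h.hN2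
  have hXl := hX.1
  unfold EB at hb
  push Not at hb
  obtain ⟨hE, hB⟩ := hb
  obtain ⟨p, q, hpq, hp, hq⟩ := h.complete (X.drop D.p0) (by rw [List.length_drop]; omega)
    (by rwa [List.length_drop]) (D.act v (D.φ (X.take D.p0)) + D.nu2 (X.take D.p0))
  have hl0 : (X.take D.p0).length = D.p0 := by rw [List.length_take]; omega
  have e1 : X = (X.take D.p0 ++ p) ++ q := by
    rw [List.append_assoc, hpq, List.take_append_drop]
  have hpN := h.lamN _ _ hp
  have hRB : RB D q := by
    refine h.RB_of (P := X.take D.p0 ++ p) (Q := q) ?_ ?_ ?_ ?_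
    · rw [← e1]; exact hX
    · rw [← e1]; exact hE
    · rw [List.length_append]; omega
    · rw [List.length_append]; omega
  refine ⟨X.take D.p0 ++ p, q, e1, ⟨?_, ?_⟩, ?_⟩
  · rw [List.length_append]; omega
  · rw [List.drop_left' hl0, List.take_left' hl0]
    exact hp
  · unfold R1
    rw [if_pos hRB]
    exact hq

/-! ### Scheme 2 -/

theorem R2_some {Q : List α} {b : V} (h : R2 D Q = some b) : RR2 D Q b := by
  classical
  unfold R2 at h
  split_ifs at h with hh
  have := hh.choose_spec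
  rwa [Option.some.inj h] at this

theorem R2_isSome {Q : List α} {b : V} (h : RR2 D Q b) : (R2 D Q).isSome := by
  classical
  unfold R2
  rw [dif_pos ⟨b, h⟩]
  rfl

/-- the true candidate of a bad block is bad -/
theorem Ok.Bk_of (h : Ok D) {P Q1 R : List α} {k : ℕ} (hk : k < D.K) (hP : P.length = D.c k)
    (hX : P ++ Q1 ∈ XX D) (hb : EB D (P ++ Q1)) :
    End D k (Q1 ++ R) Q1.length ∧ Bk D k (Q1 ++ R) := by
  obtain ⟨a1, a2, a3⟩ := hX
  have hz := h.hz
  have hc := h.hc k hk
  rw [List.length_append] at a1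
  have hno : D.no ≤ Q1.length := by omega
  have hend : End D k (Q1 ++ R) Q1.length := by
    refine ⟨by rw [List.length_append]; omega, by omega, ?_, ?_⟩
    · rw [List.take_left' rfl]
      exact (h.loc P Q1 hno).1 a2
    · intro y hy hzy hw
      rw [List.take_append_of_le_length hy.le] at hw
      refine a3 (P.length + y) (by rw [List.length_append]; omega) (by omega) ?_
      rw [take_app]
      exact (h.loc P _ (by rw [List.length_take]; omega)).2 hw
  refine ⟨hend, ?_⟩
  rcases hb with ⟨t, ht, hw, h1, h2⟩ | hb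
  · left
    rw [List.length_append] at ht
    obtain ⟨y, rfl⟩ := Nat.exists_eq_add_of_le (show P.length ≤ t by omega)
    refine ⟨y, by rw [List.length_append]; omega, ?_, by omega, by omega⟩
    rw [take_app] at hw
    rw [List.take_append_of_le_length (by omega)]
    exact (h.loc P _ (by rw [List.length_take]; omega)).1 hw
  · right
    refine ⟨Q1.length, hend, ?_⟩
    rw [List.length_append, hP] at hb
    exact hb

theorem Ok.s2 (h : Ok D) (P : List α) (v : V) (Q : List α) (b : V) (hL : LP2 D P v)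
    (hR : R2 D Q = some b)
    (hun : ∀ X ∈ XX D, X <+: P ++ Q → ∀ P' Q', X = P' ++ Q' → P.length ≤ P'.length →
      LP1 D P' v → (R1 D Q').isSome → False) :
    ∃ Q1 X2, Q = Q1 ++ X2 ∧ Q1 ≠ [] ∧ P ++ Q1 ∈ XX D ∧ X2 ∈ XX D ∧
      T D (T D v (P ++ Q1)) X2 = b := by
  classical
  obtain ⟨k, hk, hPk, hlam⟩ := hL
  obtain ⟨k1, hk1, -, huniq, Q1, X2, r, rfl, hEnd, hX2, hrho, rfl⟩ := R2_some hR
  have hz := h.hz
  have hck := h.hc k hk
  -- the first block of the text
  have hX2l := hX2.1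
  have hwQ : D.Wo (P ++ (Q1 ++ X2)) := by
    rw [← List.append_assoc]
    exact (h.loc _ _ (by omega)).2 hX2.2.1
  have hex : ∃ t, D.z ≤ t ∧ t ≤ (P ++ (Q1 ++ X2)).length ∧ D.Wo ((P ++ (Q1 ++ X2)).take t) :=
    ⟨(P ++ (Q1 ++ X2)).length, by simp only [List.length_append]; omega, le_rfl,
      by rw [List.take_length]; exact hwQ⟩
  obtain ⟨t1, t2, t3⟩ := Nat.find_spec hex
  have hmin := fun {m : ℕ} (hm : m < Nat.find hex) => Nat.find_min hex hm
  generalize Nat.find hex = t at t1 t2 t3 hmin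
  have hXl : ((P ++ (Q1 ++ X2)).take t).length = t := by
    rw [List.length_take]; omega
  have hX : (P ++ (Q1 ++ X2)).take t ∈ XX D := by
    refine ⟨by rw [hXl]; exact t1, t3, ?_⟩
    intro s hs hzs hw
    rw [hXl] at hs
    rw [List.take_take, min_eq_left hs.le] at hw
    exact hmin hs ⟨hzs, by omega, hw⟩
  have hbad : EB D ((P ++ (Q1 ++ X2)).take t) := by
    by_contra hb
    obtain ⟨P', Q', e, h1, h2⟩ := h.c1 hX hb v
    exact hun _ hX (List.take_prefix _ _) P' Q' e (by have := h1.1; omega) h1 h2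
  -- write the block as `P ++ A`
  obtain ⟨y, rfl⟩ := Nat.exists_eq_add_of_le (show P.length ≤ t by omega)
  rw [take_app] at hX hbad
  have hsplit : Q1 ++ X2 = (Q1 ++ X2).take y ++ (Q1 ++ X2).drop y := (List.take_append_drop _ _).symm
  obtain ⟨he, hBk⟩ := h.Bk_of (R := (Q1 ++ X2).drop y) hk hPk hX hbad
  rw [List.take_append_drop] at he hBk
  have hkk := huniq k hk hBk
  subst hkk
  have hlen := he.unique hEnd
  have hyl : ((Q1 ++ X2).take y).length = y := by
    rw [List.length_take]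
    have : P.length + y ≤ P.length + (Q1 ++ X2).length := by
      rw [← List.length_append]; exact t2
    omega
  have hQ1 : (Q1 ++ X2).take y = Q1 := by
    rw [hyl] at hlen
    rw [hlen, List.take_left' rfl]
  rw [hQ1] at hX
  have hXlen := hX.1
  rw [List.length_append] at hXlen
  refine ⟨Q1, X2, rfl, ?_, hX, hX2, ?_⟩
  · rintro rfl
    simp at hXlen
    omega
  · congr 1
    unfold T
    have e1 : (P ++ Q1).take D.p0 = P ++ Q1.take (D.p0 - D.c k) := by
      rw [List.take_append, List.take_of_length_le (by omega), hPk]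
    have e2 : (P ++ Q1).drop D.p0 = Q1.drop (D.p0 - D.c k) := by
      rw [List.drop_append, List.drop_eq_nil_of_le (by omega), hPk, List.nil_append]
    rw [e1, e2]
    have := h.exact2 k hk P (Q1.take (D.p0 - D.c k)) hPk
      (by rw [List.length_take]; omega) v r hlam hrho
    rw [← this]

theorem Ok.cc (h : Ok D) (X : List α) (hX : X ∈ XX D) (X2 : List α) (hX2 : X2 ∈ XX D) (v : V) :
    (∃ P Q, X = P ++ Q ∧ LP1 D P v ∧ (R1 D Q).isSome) ∨
    (∃ P Q, X ++ X2 = P ++ Q ∧ P.length < X.length ∧ LP2 D P v ∧ (R2 D Q).isSome) := by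
  classical
  by_cases hb : EB D X
  · right
    have hz := h.hz
    have hXl := hX.1
    obtain ⟨Sp, hSp, hSp2⟩ := h.spoil X hX X2 hX2 hb
    obtain ⟨k, hk, hkS, hlam, hrho⟩ := h.complete2 (X.take D.p0)
      (by rw [List.length_take]; omega) v Sp hSp
    have hck := h.hc k hk
    have hPl : (X.take (D.c k)).length = D.c k := by rw [List.length_take]; omega
    have e0 : X = X.take (D.c k) ++ X.drop (D.c k) := (List.take_append_drop _ _).symm
    obtain ⟨r, hr⟩ := Option.isSome_iff_exists.1 hrho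
    have hX' : X.take (D.c k) ++ X.drop (D.c k) ∈ XX D := by rw [← e0]; exact hX
    have hb' : EB D (X.take (D.c k) ++ X.drop (D.c k)) := by rw [← e0]; exact hb
    obtain ⟨he, hBk⟩ := h.Bk_of (R := X2) hk hPl hX' hb'
    have hdrop : (X ++ X2).drop (D.c k) = X.drop (D.c k) ++ X2 := by
      rw [List.drop_append_of_le_length (by omega)]
    refine ⟨X.take (D.c k), X.drop (D.c k) ++ X2, ?_, by omega, ⟨k, hk, hPl, ?_⟩, ?_⟩
    · rw [← List.append_assoc, ← e0]
    · rw [List.take_take, min_eq_left hck] at hlam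
      exact hlam
    · refine R2_isSome (b := _) ⟨k, hk, hBk, ?_, X.drop (D.c k), X2, r, rfl, he, hX2, ?_, rfl⟩
      · intro k' hk' hB'
        by_contra hne
        exact hkS (hSp2 k hk ⟨k', hk', hne, by rw [hdrop]; exact hB'⟩)
      · rw [← hr]
        congr 1
        rw [List.drop_take]
  · left
    exact h.c1 hX hb v

end Crest.Agent.R320.Inst_304
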