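import Mathlib

/-!
Row 320, helper31: the two block schemes on left-looking walls (852 #13483 / 693 #13203, natural chain
rule 'first wall >= z'), in the literal form of 163's `top` (#13363): s1, s2, cc.
Scheme 1 = any gadget with bounded left words and a set `Gd` of good lengths; scheme 2 = exact
gadget on the first `p0` letters, read at the places `c k`.
-/

set_option autoImplicit false

namespace Crest.Agent.R320.Inst_31

structure Dt (α S V : Type*) [Monoid S] [AddCommGroup V] where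
  φ : List α → S
  hφ : ∀ u v, φ (u ++ v) = φ u * φ v
  act : V → S → V
  act_mul : ∀ v s s', act (act v s) s' = act v (s * s')
  act_add : ∀ v w s, act (v + w) s = act v s + act w s
  wl : List α → Prop
  n : ℕ
  wl_app : ∀ u v, n ≤ v.length → (wl (u ++ v) ↔ wl v)
  N1 : ℕ
  p0 : ℕ
  z : ℕ
  K : ℕ
  Gd : ℕ → Prop
  lam1 : List α → Option V
  rho1 : List α → Option V
  nu1 : List α → V
  sound1 : ∀ P Q v b, lam1 P = some v → rho1 Q = some b → b = act v (φ (P ++ Q)) + nu1 (P ++ Q)
  lam1_len : ∀ P v, lam1 P = some v → P.length < N1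
  comp1 : ∀ X : List α, Gd X.length → ∀ v, ∃ P Q, X = P ++ Q ∧ lam1 P = some v ∧ (rho1 Q).isSome
  c : ℕ → ℕ
  c_le : ∀ k < K, c k ≤ p0
  lam2 : ℕ → List α → Option V
  rho2 : ℕ → List α → Option V
  nu2 : List α → V
  sound2 : ∀ k < K, ∀ P Q v b, P.length = c k → lam2 k P = some v → rho2 k Q = some b →
    b = act v (φ (P ++ Q)) + nu2 (P ++ Q)
  R : ℕ
  comp2 : ∀ (X : List α) (v : V), X.length = p0 → ∃ I : Finset ℕ, R ≤ I.card ∧
    ∀ k ∈ I, k < K ∧ lam2 k (X.take (c k)) = some v ∧ (rho2 k (X.drop (c k))).isSome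
  hz : p0 + N1 + N1 + n ≤ z
  z0 : 0 < z
  p0z : p0 < z
  G : ℕ
  gap : ∀ (u : List α) (y y' : ℕ), y < y' → y' ≤ u.length → n ≤ y → wl (u.take y) → wl (u.take y') →
    y + G < y'
  spoil : ∀ W : ℕ → Prop, (∀ w w', W w → W w' → w < w' → w + G < w') → ∀ I : Finset ℕ,
    (∀ k ∈ I, k < K ∧ ∃ k' < K, k' ≠ k ∧
      ((∃ w, W w ∧ z + c k ≤ w + c k' + N1 ∧ w + c k' < z + c k + N1) ∨
       (∃ w, W w ∧ z + c k ≤ w + c k' ∧ (∀ w' < w, W w' → w' + c k' < z + c k) ∧
          ¬ Gd (w + c k' - c k - p0)))) → I.card < R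

variable {α S V : Type*} [Monoid S] [AddCommGroup V] (D : Dt α S V)

def Dt.XX : Set (List α) :=
  {X | D.z ≤ X.length ∧ D.wl X ∧ ∀ y, D.z ≤ y → y < X.length → ¬ D.wl (X.take y)}

def Dt.T (v : V) (X : List α) : V :=
  D.act (D.act v (D.φ (X.take D.p0)) + D.nu2 (X.take D.p0)) (D.φ (X.drop D.p0)) +
    D.nu1 (X.drop D.p0)

def Dt.LP1 (P : List α) (v : V) : Prop :=
  D.p0 ≤ P.length ∧ D.lam1 (P.drop D.p0) = some (D.act v (D.φ (P.take D.p0)) + D.nu2 (P.take D.p0))

def Dt.QQ (Q : List α) : Prop :=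
  D.z ≤ D.p0 + Q.length ∧ D.wl Q ∧ ∀ y, D.z ≤ y + D.p0 + D.N1 → y < Q.length → ¬ D.wl (Q.take y)

open Classical in
noncomputable def Dt.R1 (Q : List α) : Option V := if D.QQ Q then D.rho1 Q else none

def Dt.LP2 (P : List α) (v : V) : Prop := ∃ k < D.K, P.length = D.c k ∧ D.lam2 k P = some v

def Dt.nx (k : ℕ) (Q : List α) (y : ℕ) : Prop :=
  y ≤ Q.length ∧ D.z ≤ D.c k + y ∧ D.wl (Q.take y) ∧
    ∀ y', y' < y → D.z ≤ D.c k + y' → ¬ D.wl (Q.take y')

def Dt.bad (k : ℕ) (Q : List α) : Prop :=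
  (∃ y, y ≤ Q.length ∧ D.z ≤ D.c k + y + D.N1 ∧ D.c k + y < D.z + D.N1 ∧ D.wl (Q.take y)) ∨
  (∃ y, D.nx k Q y ∧ ¬ D.Gd (D.c k + y - D.p0))

def Dt.RR2 (Q : List α) (b : V) : Prop :=
  ∃ k < D.K, D.bad k Q ∧ (∀ k' < D.K, D.bad k' Q → k' = k) ∧
    ∃ y, D.nx k Q y ∧ Q.drop y ∈ D.XX ∧ ∃ x, D.rho2 k (Q.take (D.p0 - D.c k)) = some x ∧
      b = D.T (D.act x (D.φ ((Q.take y).drop (D.p0 - D.c k))) +
        D.nu1 ((Q.take y).drop (D.p0 - D.c k))) (Q.drop y)

open Classical in
noncomputable def Dt.R2 (Q : List α) : Option V := if h : ∃ b, D.RR2 Q b then some h.choose else none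

variable {D}

theorem nx_unique {k : ℕ} {Q : List α} {y y' : ℕ} (h : D.nx k Q y) (h' : D.nx k Q y') : y = y' := by
  rcases lt_trichotomy y y' with h1 | h1 | h1
  · exact absurd h.2.2.1 (h'.2.2.2 y h1 h.2.1)
  · exact h1
  · exact absurd h'.2.2.1 (h.2.2.2 y' h1 h'.2.1)

theorem R2_some {Q : List α} {b : V} (h : D.R2 Q = some b) : D.RR2 Q b := by
  classical
  unfold Dt.R2 at h
  split_ifs at h with h1
  have := h1.choose_spec
  rw [Option.some.injEq] at h
  rwa [h] at this

theorem R2_isSome {Q : List α} {b : V} (h : D.RR2 Q b) : (D.R2 Q).isSome := by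
  classical
  unfold Dt.R2
  rw [dif_pos ⟨b, h⟩]; rfl

theorem XX_nil : ([] : List α) ∉ D.XX := by
  rintro ⟨h, -⟩
  have := D.z0
  simp at h
  omega

theorem XX_prefix {X Y : List α} (h : X ∈ D.XX) (h' : X ++ Y ∈ D.XX) : Y = [] := by
  by_contra hY
  have h1 : 0 < Y.length := List.length_pos_of_ne_nil hY
  have h2 := h'.2.2 X.length h.1 (by rw [List.length_append]; omega)
  rw [List.take_left] at h2
  exact h2 h.2.1

/-- walls of a product seen in the second factor -/
theorem wl_right {P Q : List α} {y : ℕ} (h1 : D.n ≤ y) (h2 : y ≤ Q.length) :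
    D.wl ((P ++ Q).take (P.length + y)) ↔ D.wl (Q.take y) := by
  rw [List.take_length_add_append]
  exact D.wl_app _ _ (by rw [List.length_take]; omega)

theorem s1 (P : List α) (v : V) (Q : List α) (b : V) (hP : D.LP1 P v) (hQ : D.R1 Q = some b) :
    P ++ Q ∈ D.XX ∧ D.T v (P ++ Q) = b := by
  classical
  unfold Dt.R1 at hQ
  split_ifs at hQ with hq
  obtain ⟨hp, hl⟩ := hP
  obtain ⟨q1, q2, q3⟩ := hq
  have hlen := D.lam1_len _ _ hl
  rw [List.length_drop] at hlen
  have hz := D.hz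
  refine ⟨⟨by rw [List.length_append]; omega, (D.wl_app _ _ (by omega)).2 q2, ?_⟩, ?_⟩
  · intro y hy1 hy2
    rw [List.length_append] at hy2
    obtain ⟨u, rfl⟩ := Nat.exists_eq_add_of_le (show P.length ≤ y by omega)
    rw [wl_right (by omega) (by omega)]
    exact q3 u (by omega) (by omega)
  · unfold Dt.T
    rw [List.take_append_of_le_length hp, List.drop_append_of_le_length hp]
    exact (D.sound1 _ _ _ _ hl hQ).symm

/-- `X` is a good block: no wall in `[z - N1, z + N1)` and a good length -/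
theorem comp_one {X : List α} (hX : X ∈ D.XX)
    (hE : ∀ y, y ≤ X.length → D.z ≤ y + D.N1 → y < D.z + D.N1 → ¬ D.wl (X.take y))
    (hG : D.Gd (X.length - D.p0)) (v : V) :
    ∃ P Q, X = P ++ Q ∧ D.p0 ≤ P.length ∧ D.LP1 P v ∧ (D.R1 Q).isSome := by
  classical
  have hz := D.hz
  have hlen : D.z + D.N1 ≤ X.length := by
    by_contra h
    have h1 := hE X.length le_rfl (by have := hX.1; omega) (by omega)
    rw [List.take_length] at h1
    exact h1 hX.2.1
  obtain ⟨P, Q, h1, h2, h3⟩ := D.comp1 (X.drop D.p0) (by rw [List.length_drop]; exact hG)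
    (D.act v (D.φ (X.take D.p0)) + D.nu2 (X.take D.p0))
  have hPl := D.lam1_len _ _ h2
  have hx : X = (X.take D.p0 ++ P) ++ Q := by
    rw [List.append_assoc, ← h1, List.take_append_drop]
  have htl : (X.take D.p0).length = D.p0 := by rw [List.length_take]; omega
  have hPX : (X.take D.p0 ++ P).length = D.p0 + P.length := by rw [List.length_append, htl]
  have hXl : X.length = D.p0 + P.length + Q.length := by
    conv_lhs => rw [hx]
    rw [List.length_append, hPX]
  refine ⟨X.take D.p0 ++ P, Q, hx, by omega, ⟨by omega, ?_⟩, ?_⟩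
  · rw [List.drop_append_of_le_length (by omega), List.take_append_of_le_length (by omega),
      List.take_take, min_self, List.drop_eq_nil_of_le (by omega), List.nil_append]
    exact h2
  · have hq : D.QQ Q := by
      refine ⟨by omega, ?_, ?_⟩
      · have := hX.2.1
        rw [hx] at this
        exact (D.wl_app _ _ (by omega)).1 this
      · intro y hy1 hy2 hw
        have h4 : D.wl (X.take (D.p0 + P.length + y)) := by
          have h5 := (wl_right (D := D) (P := X.take D.p0 ++ P) (Q := Q) (y := y)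
            (by omega) (by omega)).2 hw
          rwa [hPX, ← hx] at h5
        rcases lt_or_ge (D.p0 + P.length + y) (D.z + D.N1) with h5 | h5
        · exact hE _ (by omega) (by omega) h5 h4
        · exact hX.2.2 _ (by omega) (by omega) h4
    unfold Dt.R1
    rw [if_pos hq]; exact h3

theorem exists_nx {k : ℕ} {Q : List α} {y0 : ℕ} (h1 : y0 ≤ Q.length) (h2 : D.z ≤ D.c k + y0)
    (h3 : D.wl (Q.take y0)) : ∃ y, D.nx k Q y := by
  classical
  have hex : ∃ y, D.z ≤ D.c k + y ∧ D.wl (Q.take y) := ⟨y0, h2, h3⟩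
  refine ⟨Nat.find hex, ?_, (Nat.find_spec hex).1, (Nat.find_spec hex).2, ?_⟩
  · exact (Nat.find_min' hex ⟨h2, h3⟩).trans h1
  · intro y' hy' hz hw
    exact Nat.find_min hex hy' ⟨hz, hw⟩

theorem block_mem {k : ℕ} (hk : k < D.K) {P Q : List α} (hP : P.length = D.c k) {y : ℕ}
    (h : D.nx k Q y) : P ++ Q.take y ∈ D.XX := by
  have hz := D.hz
  have hc := D.c_le k hk
  obtain ⟨h1, h2, h3, h4⟩ := h
  have hl : (Q.take y).length = y := by rw [List.length_take]; omega
  refine ⟨by rw [List.length_append, hl]; omega, (D.wl_app _ _ (by omega)).2 h3, ?_⟩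
  intro y' h5 h6
  rw [List.length_append, hl] at h6
  obtain ⟨u, rfl⟩ := Nat.exists_eq_add_of_le (show P.length ≤ y' by omega)
  rw [wl_right (by omega) (by omega), List.take_take, min_eq_left (by omega)]
  exact h4 u (by omega) (by omega)

theorem s2 (P : List α) (v : V) (Q : List α) (b : V) (hP : D.LP2 P v) (hQ : D.R2 Q = some b)
    (hlive : ∀ X ∈ D.XX, X <+: P ++ Q → ∀ P' Q', X = P' ++ Q' → P.length ≤ P'.length →
      D.LP1 P' v → (D.R1 Q').isSome → False) :
    ∃ Q1 X2, Q = Q1 ++ X2 ∧ Q1 ≠ [] ∧ P ++ Q1 ∈ D.XX ∧ X2 ∈ D.XX ∧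
      D.T (D.T v (P ++ Q1)) X2 = b := by
  have hz := D.hz
  have hpz := D.p0z
  obtain ⟨k0, hk0, hPl, hlam⟩ := hP
  obtain ⟨k, hk, hbad, huniq, y, hnx, hX2, x, hx, hb⟩ := R2_some hQ
  have hc0 := D.c_le k0 hk0
  have hck := D.c_le k hk
  have hX2l := hX2.1
  rw [List.length_drop] at hX2l
  have hwQ : D.wl Q := by
    have h1 := hX2.2.1
    have h2 := (D.wl_app (Q.take y) (Q.drop y) (by rw [List.length_drop]; omega)).2 h1
    rwa [List.take_append_drop] at h2
  obtain ⟨y0, hy0⟩ := exists_nx (D := D) (k := k0) (Q := Q) (y0 := Q.length) le_rfl (by omega)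
    (by rw [List.take_length]; exact hwQ)
  have hXm := block_mem hk0 hPl hy0
  have hlt : (Q.take y0).length = y0 := by rw [List.length_take]; have := hy0.1; omega
  have hbad0 : D.bad k0 Q := by
    by_contra hnb
    have hnb1 : ∀ u, u ≤ Q.length → D.z ≤ D.c k0 + u + D.N1 → D.c k0 + u < D.z + D.N1 →
        ¬ D.wl (Q.take u) := fun u a1 a2 a3 a4 => hnb (Or.inl ⟨u, a1, a2, a3, a4⟩)
    have hG : D.Gd ((P ++ Q.take y0).length - D.p0) := by
      by_contra hg
      refine hnb (Or.inr ⟨y0, hy0, ?_⟩)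
      rwa [List.length_append, hlt, hPl] at hg
    obtain ⟨P', Q', e1, e2, e3, e4⟩ := comp_one hXm (by
      intro y' a1 a2 a3
      rw [List.length_append, hlt] at a1
      obtain ⟨u, rfl⟩ := Nat.exists_eq_add_of_le (show P.length ≤ y' by omega)
      rw [wl_right (by omega) (by omega), List.take_take, min_eq_left (by omega)]
      exact hnb1 u (by have := hy0.1; omega) (by omega) (by omega)) hG v
    refine hlive _ hXm ?_ P' Q' e1 (by omega) e3 e4
    exact ⟨Q.drop y0, by rw [List.append_assoc, List.take_append_drop]⟩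
  obtain rfl := huniq k0 hk0 hbad0
  obtain rfl := nx_unique hy0 hnx
  have hyl := hy0.2.1
  refine ⟨Q.take y0, Q.drop y0, (List.take_append_drop _ _).symm, ?_, hXm, hX2, ?_⟩
  · intro h0
    rw [h0] at hlt
    simp at hlt
    omega
  · rw [hb]
    congr 1
    have e1 : (P ++ Q.take y0).take D.p0 = P ++ Q.take (D.p0 - D.c k0) := by
      rw [List.take_append, List.take_of_length_le (by omega), hPl, List.take_take,
        min_eq_left (by omega)]
    have e2 : (P ++ Q.take y0).drop D.p0 = (Q.take y0).drop (D.p0 - D.c k0) := by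
      rw [List.drop_append, List.drop_eq_nil_of_le (by omega), hPl, List.nil_append]
    show D.act (D.act v (D.φ ((P ++ Q.take y0).take D.p0)) + D.nu2 ((P ++ Q.take y0).take D.p0))
      (D.φ ((P ++ Q.take y0).drop D.p0)) + D.nu1 ((P ++ Q.take y0).drop D.p0) = _
    rw [e1, e2, ← D.sound2 k0 hk0 P (Q.take (D.p0 - D.c k0)) v x hPl hlam hx]

theorem cc (X : List α) (hX : X ∈ D.XX) (X2 : List α) (hX2 : X2 ∈ D.XX) (v : V) :
    (∃ P Q, X = P ++ Q ∧ D.LP1 P v ∧ (D.R1 Q).isSome) ∨
    (∃ P Q, X ++ X2 = P ++ Q ∧ P.length < X.length ∧ D.LP2 P v ∧ (D.R2 Q).isSome) := by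
  classical
  have hz := D.hz
  have hpz := D.p0z
  have hXl := hX.1
  have hX2l := hX2.1
  by_cases hgood : (∀ y, y ≤ X.length → D.z ≤ y + D.N1 → y < D.z + D.N1 → ¬ D.wl (X.take y)) ∧
      D.Gd (X.length - D.p0)
  · left
    obtain ⟨P, Q, h1, -, h3, h4⟩ := comp_one hX hgood.1 hgood.2 v
    exact ⟨P, Q, h1, h3, h4⟩
  right
  obtain ⟨I, hI, hIk⟩ := D.comp2 (X.take D.p0) v (by rw [List.length_take]; omega)
  -- facts on the text `X ++ X2` and its tails
  have hdec : ∀ k, k < D.K → X ++ X2 = X.take (D.c k) ++ (X.drop (D.c k) ++ X2) := by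
    intro k _
    rw [← List.append_assoc, List.take_append_drop]
  have htl : ∀ k, k < D.K → (X.take (D.c k)).length = D.c k := by
    intro k hk
    have := D.c_le k hk
    rw [List.length_take]; omega
  have hql : ∀ k, k < D.K → (X.drop (D.c k) ++ X2).length + D.c k = X.length + X2.length := by
    intro k hk
    have := D.c_le k hk
    rw [List.length_append, List.length_drop]; omega
  have hwt : ∀ k, k < D.K → ∀ y, D.n ≤ y → y ≤ (X.drop (D.c k) ++ X2).length →
      (D.wl ((X.drop (D.c k) ++ X2).take y) ↔ D.wl ((X ++ X2).take (D.c k + y))) := by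
    intro k hk y h1 h2
    have h3 := wl_right (D := D) (P := X.take (D.c k)) h1 h2
    rw [htl k hk, ← hdec k hk] at h3
    exact h3.symm
  have hXt : ∀ y, y ≤ X.length → (X ++ X2).take y = X.take y := fun y hy =>
    List.take_append_of_le_length hy
  have hnxX : ∀ k, k < D.K → D.nx k (X.drop (D.c k) ++ X2) (X.length - D.c k) := by
    intro k hk
    have hc := D.c_le k hk
    have hq := hql k hk
    refine ⟨by omega, by omega, ?_, ?_⟩
    · rw [hwt k hk _ (by omega) (by omega), show D.c k + (X.length - D.c k) = X.length by omega,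
        hXt _ le_rfl, List.take_length]
      exact hX.2.1
    · intro y' h1 h2
      rw [hwt k hk _ (by omega) (by omega), hXt _ (by omega)]
      exact hX.2.2 _ (by omega) (by omega)
  have hbadX : ∀ k, k < D.K → D.bad k (X.drop (D.c k) ++ X2) := by
    intro k hk
    have hc := D.c_le k hk
    have hq := hql k hk
    rw [not_and_or] at hgood
    rcases hgood with h | h
    · left
      push Not at h
      obtain ⟨y', a1, a2, a3, a4⟩ := h
      refine ⟨y' - D.c k, by omega, by omega, by omega, ?_⟩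
      rw [hwt k hk _ (by omega) (by omega), show D.c k + (y' - D.c k) = y' by omega, hXt _ a1]
      exact a4
    · right
      refine ⟨X.length - D.c k, hnxX k hk, ?_⟩
      rwa [show D.c k + (X.length - D.c k) - D.p0 = X.length - D.p0 by omega]
  by_cases hex : ∃ k ∈ I, ∀ k' < D.K, D.bad k' (X.drop (D.c k) ++ X2) → k' = k
  · obtain ⟨k, hkI, huniq⟩ := hex
    obtain ⟨hk, hl, hr⟩ := hIk k hkI
    have hc := D.c_le k hk
    obtain ⟨x, hx⟩ := Option.isSome_iff_exists.1 hr
    refine ⟨X.take (D.c k), X.drop (D.c k) ++ X2, hdec k hk, by rw [htl k hk]; omega,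
      ⟨k, hk, htl k hk, ?_⟩, ?_⟩
    · rw [List.take_take, min_eq_left hc] at hl
      exact hl
    · refine R2_isSome (b := _) ⟨k, hk, hbadX k hk, huniq, X.length - D.c k, hnxX k hk, ?_, x, ?_,
        rfl⟩
      · rw [List.drop_append, List.drop_eq_nil_of_le (by rw [List.length_drop]),
          List.length_drop, Nat.sub_self, List.drop_zero, List.nil_append]
        exact hX2
      · rw [List.take_append_of_le_length (by rw [List.length_drop]; omega),
          List.take_drop, show D.c k + (D.p0 - D.c k) = D.p0 by omega]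
        exact hx
  · exfalso
    push Not at hex
    have hlt := D.spoil (fun w => D.n ≤ w ∧ w ≤ (X ++ X2).length ∧ D.wl ((X ++ X2).take w)) (by
      rintro w w' ⟨a1, a2, a3⟩ ⟨b1, b2, b3⟩ hww
      exact D.gap (X ++ X2) w w' hww b2 a1 a3 b3) I (by
      intro k hkI
      obtain ⟨hk, -, -⟩ := hIk k hkI
      obtain ⟨k', hk', hb, hne⟩ := hex k hkI
      have hc := D.c_le k hk
      have hc' := D.c_le k' hk'
      have hq := hql k hk
      refine ⟨hk, k', hk', hne, ?_⟩
      rcases hb with ⟨y, a1, a2, a3, a4⟩ | ⟨y, ⟨a1, a2, a3, a4⟩, a5⟩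
      · left
        refine ⟨D.c k + y, ⟨by omega, by rw [List.length_append]; omega, ?_⟩, by omega, by omega⟩
        exact (hwt k hk y (by omega) a1).1 a4
      · right
        refine ⟨D.c k + y, ⟨by omega, by rw [List.length_append]; omega, ?_⟩, by omega, ?_, ?_⟩
        · exact (hwt k hk y (by omega) a1).1 a3
        · rintro w' h1 ⟨b1, b2, b3⟩
          by_contra hcon
          obtain ⟨u, rfl⟩ := Nat.exists_eq_add_of_le (show D.c k ≤ w' by omega)
          exact a4 u (by omega) (by omega) ((hwt k hk u (by omega) (by omega)).2 b3)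
        · rwa [show D.c k + y + D.c k' - D.c k - D.p0 = D.c k' + y - D.p0 by omega])
    omega

/-- the block noise -/
def Dt.ν (D : Dt α S V) (X : List α) : V :=
  D.act (D.nu2 (X.take D.p0)) (D.φ (X.drop D.p0)) + D.nu1 (X.drop D.p0)

theorem hT (X : List α) (v : V) : D.T v X = D.act v (D.φ X) + D.ν X := by
  have h : D.φ X = D.φ (X.take D.p0) * D.φ (X.drop D.p0) := by
    rw [← D.hφ, List.take_append_drop]
  unfold Dt.T Dt.ν
  rw [D.act_add, D.act_mul, ← h, add_assoc]

theorem hR1 (Q : List α) (b : V) (h : D.R1 Q = some b) : Q ≠ [] := by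
  classical
  rintro rfl
  unfold Dt.R1 at h
  split_ifs at h with hq
  have h1 := hq.1
  have := D.p0z
  simp at h1
  omega

theorem hR2 (Q : List α) (b : V) (h : D.R2 Q = some b) : Q ≠ [] := by
  rintro rfl
  obtain ⟨k, hk, -, -, y, ⟨h1, h2, -, -⟩, -⟩ := R2_some h
  have := D.c_le k hk
  have := D.p0z
  simp at h1
  omega

end Crest.Agent.R320.Inst_31
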