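import Crest.Agent.R320.Gad1_420
import Crest.Agent.R320.Names_755
import Crest.Agent.R320.RandF_808

/-!
Row 320, helper34: INSTANCE for 420's `gadget1` / `scheme1`: names (755) + random `F` (808).
-/

set_option autoImplicit false

namespace Crest.Agent.R320.Inst_34

open Crest.Agent.R320.Gad1_420

/-- names for a colouring `col`, in the form which is needed by `Gad1_420.Names`. -/
theorem names_rel (N C : Type) [Finite N] [Finite C] (col : N → C) :
    ∃ r : ℕ, ∀ B : ℕ, ∃ (Ms : Finset ℕ) (M : ℕ) (LN RN : ℕ → N → Prop),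
      Ms.card ≤ r ∧ (∀ k ∈ Ms, B < k ∧ Nat.Prime k ∧ k ∣ M) ∧ 0 < M ∧
      (∀ T, (∀ k ∈ Ms, ¬ k ∣ T) → ∀ o o' c c', o + o' = T → LN o c → RN o' c' → c = c') ∧
      (∀ T, (∀ k ∈ Ms, ¬ k ∣ T) → ∀ c s, s + M ≤ T →
        ∃ o, s ≤ o ∧ o < s + M ∧ LN o c ∧ RN (T - o) c) ∧
      (∀ T, ¬ (∀ k ∈ Ms, ¬ k ∣ T) → ∀ o₁ o₁' o₂ o₂' c₁ c₁' c₂ c₂', o₁ + o₁' = T → o₂ + o₂' = T →
        LN o₁ c₁ → RN o₁' c₁' → LN o₂ c₂ → RN o₂' c₂' → col c₁ = col c₂ ∧ col c₁' = col c₂') := by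
  obtain ⟨r, hr⟩ := Names755.names N C col
  refine ⟨r, fun B => ?_⟩
  obtain ⟨Ms, M, nmL, nmR, h1, h2, h3, h4, h5, h6, h7, h8⟩ := hr B
  have h4' : ∀ t k, nmL (t + M * k) = nmL t := by
    intro t k
    induction k with
    | zero => simp
    | succ k ih => rw [Nat.mul_succ, ← Nat.add_assoc, h4, ih]
  refine ⟨Ms, M, fun o c => nmL o = some c, fun o c => nmR o = some c, h1, h2, h3, ?_, ?_, ?_⟩
  · intro T hT o o' c c' ho hl hr
    exact h6 o o' c c' hl hr (by rw [ho]; exact hT)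
  · intro T hT c s hs
    obtain ⟨t, ht, hl, hr⟩ := h7 T hT c
    -- `o ≡ t [MOD M]` in `[s, s + M)`
    have hmod : ∃ o, s ≤ o ∧ o < s + M ∧ o % M = t % M := by
      refine ⟨s + (t + (M - s % M)) % M, by omega, by
        have := Nat.mod_lt (t + (M - s % M)) h3; omega, ?_⟩
      have h9 : s % M < M := Nat.mod_lt _ h3
      rw [Nat.add_mod, Nat.mod_mod, ← Nat.add_mod]
      have : s + (t + (M - s % M)) = t + M * (s / M + 1) := by
        have h10 := Nat.div_add_mod s M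
        rw [Nat.mul_add, Nat.mul_one]
        omega
      rw [this, Nat.add_mul_mod_self_left]
    obtain ⟨o, ho1, ho2, ho3⟩ := hmod
    refine ⟨o, ho1, ho2, ?_, ?_⟩
    · have e1 : nmL o = nmL (o % M) := by
        conv_lhs => rw [← Nat.mod_add_div o M]
        exact h4' _ _
      have e2 : nmL t = nmL (t % M) := by
        conv_lhs => rw [← Nat.mod_add_div t M]
        exact h4' _ _
      show nmL o = some c
      rw [e1, ho3, ← e2]
      exact hl
    · apply hr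
      have h9 : o + (T - o) = T := by omega
      have h10 : t + (T - o) ≡ o + (T - o) [MOD M] := Nat.ModEq.add_right _ (ho3.symm)
      rw [h9] at h10
      exact h10
  · intro T hT o₁ o₁' o₂ o₂' c₁ c₁' c₂ c₂' e1 e2 a1 a2 a3 a4
    refine h8 o₁ o₁' o₂ o₂' c₁ c₁' c₂ c₂' a1 a2 a3 a4 (e1.trans e2.symm) ?_
    rw [e1]
    push Not at hT
    exact hT

/-- **INSTANCE** of the content side and of the names of `Gad1_420.gadget1`. -/
theorem inst (S V : Type) [Monoid S] [Finite S] [AddCommGroup V] [Finite V] (act : V → S → V) :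
    ∃ (m : ℕ) (W : Type) (_ : AddCommGroup W) (_ : Finite W) (e : ℕ → S → W) (F : S → W → V),
      (∀ (s : S) (w : W) (v : V), ∃ i < m, ∀ g x h : S, g * x * h = s → ∀ z : S,
        F (g * z * h) (w - e i x + e i z) + act v (g * z * h) = F s w + act v s) ∧
      ∃ r : ℕ, ∀ B : ℕ, ∃ (Ms : Finset ℕ) (M : ℕ)
        (LN RN : ℕ → Fin m × S × W × S × W × V → Prop),
        Ms.card ≤ r ∧ (∀ k ∈ Ms, B < k ∧ Nat.Prime k ∧ k ∣ M) ∧ 0 < M ∧
        ∀ (α : Type) (φ : List α → S) (R : List α → Prop) (n G M' : ℕ) (A A' : ℕ → ℕ),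
          Names (Dat.mk φ act m e F R n G M M' A A' LN RN) (fun T => ∀ k ∈ Ms, ¬ k ∣ T) := by
  classical
  haveI := Fintype.ofFinite S
  haveI := Fintype.ofFinite V
  obtain ⟨m, N, e, F, hN, hF⟩ := RandF808.exists_noise S V act
  haveI : NeZero N := ⟨by omega⟩
  refine ⟨m, ZMod N × ZMod N, inferInstance, inferInstance, e, F, hF, ?_⟩
  -- the colour of a name
  let bb : Fin m × S × (ZMod N × ZMod N) × S × (ZMod N × ZMod N) × V → V := fun c =>
    F (c.2.1 * 1 * c.2.2.2.1) (c.2.2.1 + e c.1 1 + c.2.2.2.2.1) +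
      act c.2.2.2.2.2 (c.2.1 * 1 * c.2.2.2.1)
  obtain ⟨r, hr⟩ := names_rel (Fin m × S × (ZMod N × ZMod N) × S × (ZMod N × ZMod N) × V)
    (V × V) (fun c => (c.2.2.2.2.2, bb c))
  refine ⟨r, fun B => ?_⟩
  obtain ⟨Ms, M, LN, RN, h1, h2, h3, h4, h5, h6⟩ := hr B
  refine ⟨Ms, M, LN, RN, h1, h2, h3, fun α φ R n G M' A A' => ⟨h4, h5, ?_⟩⟩
  intro T hT
  by_cases hex : ∃ o o' c c', o + o' = T ∧ LN o c ∧ RN o' c'
  · obtain ⟨o, o', c, c', a1, a2, a3⟩ := hex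
    refine ⟨c.2.2.2.2.2, bb c', ?_⟩
    intro p p' d d' b1 b2 b3
    have := h6 T hT p p' o o' d d' c c' b1 a1 b2 b3 a2 a3
    simp only [Prod.mk.injEq] at this
    exact ⟨this.1.1, this.2.2⟩
  · refine ⟨0, 0, ?_⟩
    intro p p' d d' b1 b2 b3
    exact absurd ⟨p, p', d, d', b1, b2, b3⟩ hex

end Crest.Agent.R320.Inst_34
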