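import Crest.Agent.R320.Shared_621
import Crest.Agent.R320.ExactR_237

/-!
# Row 320: `Shared_621.Data2` from walls, the all-words gadget and the exact gadget (helper342)

Semantic right legality: a right word is legal when every legal left word makes it right.
-/

set_option autoImplicit false

namespace Crest.Agent.R320.Inst_342

open Crest.Agent.R320.Hk_851 Crest.Agent.R320.Star_621 Crest.Agent.R320.Two_621
open Crest.Agent.R320.Main_621 Crest.Agent.R320.Shared_621

/-- `u` ends in its first wall at distance `≥ k` -/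
def U {α : Type} (W : List α → Prop) (k : ℕ) (u : List α) : Prop :=
  k ≤ u.length ∧ W u ∧ ∀ t, k ≤ t → t < u.length → ¬ W (u.take t)

/-- finite-state property -/
def FS {α S : Type} [Monoid S] (f : α → S) (B P : ℕ) (R : List α → Prop) : Prop :=
  ∀ w w' : List α, B ≤ w.length → B ≤ w'.length → w.take B = w'.take B →
    ((w.drop B).map f).prod = ((w'.drop B).map f).prod → w.length % P = w'.length % P →
      (R w ↔ R w')

structure Walls {α S : Type} [Monoid S] (f : α → S) (G n : ℕ) (W : List α → Prop) : Prop where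
  loc : ∀ P Q : List α, n ≤ Q.length → (W (P ++ Q) ↔ W Q)
  gap : ∀ (P : List α) (d : ℕ), W P → 0 < d → d ≤ G → ¬ W (P.take (P.length - d))
  hU : ∀ (k B P : ℕ) (R : List α → Prop), 0 < P → FS f B P R →
    HL 1 ({X | U W k X ∧ R X} : Language α)
  hN : ∀ (k B P : ℕ) (R : List α → Prop), 0 < P → FS f B P R →
    HL 1 ({w | (∀ u, U W k u → ¬ u <+: w) ∧ R w} : Language α)

structure Gad {α S : Type} [Monoid S] (f : α → S) (K C0 N1 Pm La : ℕ) (c : ℕ → ℕ)
    (Bad : ℕ → Prop) (lam rho : List α → Option (Tok S)) (nu : List α → Tok S) : Prop where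
  Pm0 : 0 < Pm
  inc : ∀ i j, i < j → j < K → c i < c j
  gol : ∀ i j k l, i < K → j < K → k < K → l < K → i ≠ j → k ≠ l → (i, j) ≠ (k, l) →
    c i + c l + 4 * N1 < c k + c j ∨ c k + c j + 4 * N1 < c i + c l
  per : ∀ T, Bad (T + Pm) ↔ Bad T
  cnt : ∀ T, La ≤ T → ∃ E : Finset (ℕ × ℕ), E.card ≤ C0 ∧
    ∀ i j, i < K → j < K → i ≠ j → Bad (T + c j - c i) → (i, j) ∈ E
  len : ∀ p v, lam p = some v → p.length ≤ N1
  snd : ∀ p q v r, lam p = some v → rho q = some r → La ≤ q.length →
    r = act v ((p ++ q).map f).prod + nu (p ++ q)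
  cpl : ∀ u, La ≤ u.length → ¬ Bad u.length → ∀ v, ∃ p q, p ++ q = u ∧ lam p = some v ∧
    (rho q).isSome
  fs : ∀ q q', La ≤ q.length → La ≤ q'.length → q.take La = q'.take La →
    q.length % Pm = q'.length % Pm → ((q.drop La).map f).prod = ((q'.drop La).map f).prod →
    nu q = nu q'

theorem code_U {α : Type} {W : List α → Prop} {k : ℕ} {u u' x x' : List α} (h : U W k u)
    (h' : U W k u') (e : u ++ x = u' ++ x') : u = u' := by
  have key : ∀ {u u' x x' : List α}, U W k u → U W k u' → u ++ x = u' ++ x' →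
      u.length ≤ u'.length → u = u' := by
    intro u u' x x' h h' e hl
    have e1 : u'.take u.length = u := by
      have := congrArg (List.take u.length) e
      rw [List.take_left', List.take_append_of_le_length hl] at this
      · exact this.symm
      · rfl
    rcases Nat.lt_or_ge u.length u'.length with h1 | h1
    · have h2 := h'.2.2 u.length h.1 h1
      rw [e1] at h2
      exact absurd h.2.1 h2
    · rw [← e1, List.take_of_length_le h1]
  rcases Nat.le_total u.length u'.length with hl | hl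
  · exact key h h' e hl
  · exact (key h' h e.symm hl).symm

theorem code_U_pre {α : Type} {W : List α → Prop} {k : ℕ} {u u' w : List α} (h : U W k u)
    (h' : U W k u') (e : u <+: w) (e' : u' <+: w) : u = u' := by
  obtain ⟨x, rfl⟩ := e
  obtain ⟨x', hx⟩ := e'
  exact code_U h h' hx.symm

/-- `U` is a property of the letters behind the first `|P|` ones -/
theorem U_app {α : Type} {W : List α → Prop} {n k : ℕ}
    (loc : ∀ P Q : List α, n ≤ Q.length → (W (P ++ Q) ↔ W Q)) (P Q : List α)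
    (hk : P.length + n ≤ k) : U W k (P ++ Q) ↔ U W (k - P.length) Q := by
  unfold U
  rw [List.length_append]
  constructor
  · rintro ⟨h1, h2, h3⟩
    refine ⟨by omega, (loc P Q (by omega)).1 h2, fun t ht1 ht2 hW => ?_⟩
    refine h3 (P.length + t) (by omega) (by omega) ?_
    rw [List.take_append, List.take_of_length_le (by omega), Nat.add_sub_cancel_left]
    exact (loc P _ (by rw [List.length_take]; omega)).2 hW
  · rintro ⟨h1, h2, h3⟩
    refine ⟨by omega, (loc P Q (by omega)).2 h2, fun t ht1 ht2 hW => ?_⟩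
    refine h3 (t - P.length) (by omega) (by omega) ?_
    rw [List.take_append, List.take_of_length_le (by omega)] at hW
    exact (loc P _ (by rw [List.length_take]; omega)).1 hW

/-- a text with a wall at distance `≥ k` has a prefix in `U k` -/
theorem exists_U {α : Type} {W : List α → Prop} {k : ℕ} (w : List α) (t : ℕ) (hk : k ≤ t)
    (ht : t ≤ w.length) (hW : W (w.take t)) :
    ∃ t', k ≤ t' ∧ t' ≤ t ∧ U W k (w.take t') := by
  classical
  have hex : ∃ s, k ≤ s ∧ s ≤ t ∧ W (w.take s) := ⟨t, hk, le_rfl, hW⟩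
  obtain ⟨h1, h2, h3⟩ := Nat.find_spec hex
  refine ⟨Nat.find hex, h1, h2, ?_, h3, fun s hs1 hs2 hs3 => ?_⟩
  · rw [List.length_take]; omega
  · rw [List.length_take] at hs2
    refine Nat.find_min hex (m := s) (by omega) ⟨hs1, by omega, ?_⟩
    rw [List.take_take, Nat.min_eq_left (by omega)] at hs3
    exact hs3

/-- all data -/
structure Dt (α S : Type) where
  f : α → S
  W : List α → Prop
  n : ℕ
  G : ℕ
  p0 : ℕ
  z0 : ℕ
  k2 : ℕ
  N1 : ℕ
  K : ℕ
  La : ℕ
  Pm : ℕ
  c : ℕ → ℕ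
  Bad : ℕ → Prop
  lam : List α → Option (Tok S)
  rho : List α → Option (Tok S)
  nu1 : List α → Tok S
  lam2 : ℕ → List α → Option (Tok S)
  rho2 : ℕ → List α → Option (Tok S)
  nu2 : List α → Tok S

section dt

variable {α S : Type} [Monoid S] (D : Dt α S)

/-- product -/
def ph (w : List α) : S := (w.map D.f).prod

theorem ph_app (u v : List α) : ph D (u ++ v) = ph D u * ph D v := by
  unfold ph; rw [List.map_append, List.prod_append]

/-- token after `p0` letters -/
def T0 (v : Tok S) (X : List α) : Tok S := act v (ph D X) + D.nu2 X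

/-- token at the first wall -/
def T (v : Tok S) (u : List α) : Tok S :=
  act (T0 D v (u.take D.p0)) (ph D (u.drop D.p0)) + D.nu1 (u.drop D.p0)

theorem T_eq (v : Tok S) (u : List α) : T D v u = act v (ph D u) + T D 0 u := by
  unfold T T0
  rw [act_add, act_mul, ← ph_app, List.take_append_drop, act_zero, zero_add]
  abel

/-- blocks -/
def Z : Language α := {z | ∃ u r, U D.W D.z0 u ∧ U D.W D.k2 r ∧ u ++ r = z}

open Classical in
/-- noise of a block -/
noncomputable def d (z : List α) : Tok S :=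
  if h : ∃ u r, U D.W D.z0 u ∧ U D.W D.k2 r ∧ u ++ r = z then
    act (T D 0 h.choose) (ph D h.choose_spec.choose) else 0

theorem d_app {u r : List α} (hu : U D.W D.z0 u) (hr : U D.W D.k2 r) :
    d D (u ++ r) = act (T D 0 u) (ph D r) := by
  classical
  have h : ∃ u' r', U D.W D.z0 u' ∧ U D.W D.k2 r' ∧ u' ++ r' = u ++ r := ⟨u, r, hu, hr, rfl⟩
  unfold d
  rw [dif_pos h]
  obtain ⟨h1, h2, h3⟩ := h.choose_spec.choose_spec
  have e : h.choose = u := code_U h1 hu h3
  obtain ⟨e1, e2⟩ := List.append_inj h3 (congrArg List.length e)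
  rw [e2, e1]

theorem psi_app {u r : List α} (hu : U D.W D.z0 u) (hr : U D.W D.k2 r) (v : Tok S) :
    aff (ph D) (d D) (u ++ r) v = act (T D v u) (ph D r) := by
  unfold aff
  rw [d_app D hu hr, ph_app, T_eq D v u, act_add, act_mul]

/-- critical first parts -/
def Crit (u : List α) : Prop :=
  (∃ t, D.z0 ≤ t + D.N1 ∧ t < D.z0 ∧ t < u.length ∧ D.W (u.take t)) ∨
    u.length < D.z0 + D.N1 ∨ D.Bad (u.length - D.p0)

def Zc : Language α := {z | ∃ u r, (U D.W D.z0 u ∧ Crit D u) ∧ U D.W D.k2 r ∧ u ++ r = z}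

def LA (v : Tok S) : Language α :=
  {P | D.p0 ≤ P.length ∧ P.length ≤ D.p0 + D.N1 ∧
    D.lam (P.drop D.p0) = some (T0 D v (P.take D.p0))}

def RA (t : Tok S) : Language α :=
  {Q | ∀ (v : Tok S) (P : List α), P ∈ LA D v →
    P ++ Q ∈ Z D ∧ aff (ph D) (d D) (P ++ Q) v = t}

def LB (v : Tok S) : Language α := {P | ∃ j < D.K, P.length = D.c j ∧ D.lam2 j P = some v}

def RB (t : Tok S) : Language α :=
  {Q | ∀ (v : Tok S) (P : List α), P ∈ LB D v →
    (∃ u, U D.W D.z0 u ∧ u <+: P ++ Q) ∧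
    ((∃ u, (U D.W D.z0 u ∧ Crit D u) ∧ u <+: P ++ Q) →
      P ++ Q ∈ Z D ∧ aff (ph D) (d D) (P ++ Q) v = t)}

/-- hypotheses -/
structure Ok (C0 : ℕ) : Prop where
  wl : Walls D.f D.G D.n D.W
  gad : Gad D.f D.K C0 D.N1 D.Pm D.La D.c D.Bad D.lam D.rho D.nu1
  p0pos : 0 < D.p0
  cpos : ∀ j, j < D.K → 0 < D.c j
  cp0 : ∀ j, j < D.K → D.c j ≤ D.p0
  hG : D.p0 + 2 * D.N1 + 1 ≤ D.G
  hz0 : D.z0 = D.p0 + D.p0 + D.n + 2 * D.N1 + D.La + 1
  hk2 : D.k2 = D.G + D.n + 1
  ex1 : ∀ k < D.K, ∀ (P Q : List α) (v b : Tok S), P.length = D.c k →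
    D.lam2 k P = some v → D.rho2 k Q = some b → b = T0 D v (P ++ Q)
  ex2 : ∀ (u : List α) (v : Tok S), u.length = D.p0 →
    ∃ I : Finset ℕ, 3 * (C0 + 1) + 1 ≤ I.card ∧ ∀ k ∈ I, k < D.K ∧
      D.lam2 k (u.take (D.c k)) = some v ∧ (D.rho2 k (u.drop (D.c k))).isSome

variable {D}

theorem codeZ {C0 : ℕ} (h : Ok D C0) : Code (Z D) := by
  constructor
  · rintro ⟨u, r, hu, hr, e⟩
    have h1 := (List.append_eq_nil_iff.1 e).1
    have h2 := hu.1
    rw [h1, List.length_nil] at h2
    have := h.hz0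
    omega
  · rintro z z' x x' ⟨u, r, hu, hr, rfl⟩ ⟨u', r', hu', hr', rfl⟩ e
    rw [List.append_assoc, List.append_assoc] at e
    have e1 := code_U hu hu' e
    subst e1
    have e2 := List.append_cancel_left e
    have e3 := code_U hr hr' e2
    rw [e3]

theorem sub (z : List α) (hz : z ∈ Zc D) : z ∈ Z D := by
  obtain ⟨u, r, ⟨hu, _⟩, hr, e⟩ := hz
  exact ⟨u, r, hu, hr, e⟩

theorem soundA {C0 : ℕ} (h : Ok D C0) : Sound (Z D) (aff (ph D) (d D)) (LA D) (RA D) := by
  constructor
  · rintro v ⟨h1, _⟩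
    rw [List.length_nil] at h1
    have := h.p0pos
    omega
  · intro ω τ P Q z x y hP hQ hz e
    obtain ⟨h1, h2⟩ := hQ ω P hP
    have e1 := (codeZ h).2 (P ++ Q) z x y h1 hz e
    exact ⟨e1, by rw [← e1]; exact h2.symm⟩

theorem soundB {C0 : ℕ} (h : Ok D C0) : Sound (Zc D) (aff (ph D) (d D)) (LB D) (RB D) := by
  constructor
  · rintro v ⟨j, hj, h1, _⟩
    rw [List.length_nil] at h1
    have := h.cpos j hj
    omega
  · intro ω τ P Q z x y hP hQ hz e
    obtain ⟨⟨u, hu, hup⟩, h2⟩ := hQ ω P hP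
    obtain ⟨u', r', ⟨hu', hc'⟩, hr', rfl⟩ := hz
    have e0 : u = u' := by
      refine code_U_pre hu hu' (w := P ++ Q ++ x) (hup.trans (List.prefix_append _ _)) ?_
      rw [e, List.append_assoc]
      exact List.prefix_append _ _
    subst e0
    obtain ⟨h3, h4⟩ := h2 ⟨u, ⟨hu, hc'⟩, hup⟩
    have e1 := (codeZ h).2 (P ++ Q) (u ++ r') x y h3 ⟨u, r', hu, hr', rfl⟩ e
    exact ⟨e1, by rw [← e1]; exact h4.symm⟩

/-! ### completeness of the outer scheme -/

theorem complA {C0 : ℕ} (h : Ok D C0) (z : List α) (hz : z ∈ Z D) (hc : z ∉ Zc D) (v : Tok S) :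
    Cut (LA D) (RA D) v z := by
  obtain ⟨u, r, hu, hr, rfl⟩ := hz
  have hnc : ¬ Crit D u := fun hcr => hc ⟨u, r, ⟨hu, hcr⟩, hr, rfl⟩
  unfold Crit at hnc
  push Not at hnc
  obtain ⟨hn1, hn2, hn3⟩ := hnc
  have hz0 := h.hz0
  have hlY : (u.drop D.p0).length = u.length - D.p0 := List.length_drop
  obtain ⟨p, q, hpq, hlam, hrho⟩ := h.gad.cpl (u.drop D.p0) (by rw [hlY]; omega)
    (by rw [hlY]; exact hn3) (T0 D v (u.take D.p0))
  obtain ⟨b, hb⟩ := Option.isSome_iff_exists.1 hrho
  have hpl := h.gad.len p _ hlam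
  have hpq2 : p.length + q.length = u.length - D.p0 := by
    rw [← hlY, ← hpq, List.length_append]
  have hXl : (u.take D.p0).length = D.p0 := by rw [List.length_take]; omega
  have hu2 : (u.take D.p0 ++ p) ++ q = u := by
    rw [List.append_assoc, hpq, List.take_append_drop]
  have hPl : (u.take D.p0 ++ p).length = D.p0 + p.length := by
    rw [List.length_append, hXl]
  refine ⟨u.take D.p0 ++ p, q ++ r, act b (ph D r), ?_, ?_, ?_⟩
  · rw [← List.append_assoc, hu2]
  · refine ⟨by rw [hPl]; omega, by rw [hPl]; omega, ?_⟩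
    rw [List.drop_left' hXl, List.take_left' hXl]
    exact hlam
  · intro v' P' hP'
    obtain ⟨h1, h2, h3⟩ := hP'
    have hU : U D.W D.z0 (P' ++ q) := by
      rw [U_app h.wl.loc P' q (by omega)]
      have hu' : U D.W D.z0 ((u.take D.p0 ++ p) ++ q) := by rw [hu2]; exact hu
      rw [U_app h.wl.loc _ q (by rw [hPl]; omega), hPl] at hu'
      refine ⟨by omega, hu'.2.1, fun t ht1 ht2 hW => ?_⟩
      rcases Nat.lt_or_ge t (D.z0 - (D.p0 + p.length)) with h4 | h4
      · refine hn1 (D.p0 + p.length + t) (by omega) (by omega) (by omega) ?_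
        rw [← hu2, ← hPl, List.take_append, List.take_of_length_le (by omega),
          Nat.add_sub_cancel_left]
        exact (h.wl.loc _ _ (by rw [List.length_take]; omega)).2 hW
      · exact hu'.2.2 t h4 ht2 hW
    have e1 : P' ++ (q ++ r) = (P' ++ q) ++ r := by rw [List.append_assoc]
    refine ⟨⟨P' ++ q, r, hU, hr, e1.symm⟩, ?_⟩
    rw [e1, psi_app D hU hr]
    congr 1
    unfold T
    rw [List.take_append_of_le_length h1, List.drop_append_of_le_length h1]
    have := h.gad.snd (P'.drop D.p0) q _ b h3 hb (by omega)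
    exact this.symm

/-! ### completeness of the inner scheme -/

theorem take_app (P Q : List α) (s : ℕ) (h : P.length ≤ s) :
    (P ++ Q).take s = P ++ Q.take (s - P.length) := by
  rw [List.take_append, List.take_of_length_le h]

theorem wall_pos {C0 : ℕ} (h : Ok D C0) (w : List α) {s t : ℕ} (hst : s < t)
    (ht : t ≤ w.length) (hs : D.W (w.take s)) (hW : D.W (w.take t)) : s + D.G < t := by
  by_contra hlt
  have h1 := h.wl.gap (w.take t) (t - s) hW (by omega) (by omega)
  rw [List.length_take, List.take_take] at h1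
  have e : min (min t w.length - (t - s)) t = s := by omega
  rw [e] at h1
  exact h1 hs

/-- places spoiled by one wall -/
theorem spoil_one {C0 : ℕ} (h : Ok D C0) (w : ℕ) (hw : D.p0 + D.La ≤ w) :
    ∃ Sp : Finset ℕ, Sp.card ≤ C0 + 1 ∧ ∀ i j, i < D.K → j < D.K → i ≠ j →
      ((w + D.c j ≤ D.c i + D.z0 + D.N1 ∧ D.c i + D.z0 ≤ w + D.c j + D.N1) ∨
        D.Bad (w - D.p0 + D.c j - D.c i)) → i ∈ Sp := by
  classical
  obtain ⟨E, hE, hE2⟩ := h.gad.cnt (w - D.p0) (by omega)
  let F : Finset ℕ := (Finset.range D.K).filter fun i => ∃ j, j < D.K ∧ i ≠ j ∧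
    (w + D.c j ≤ D.c i + D.z0 + D.N1 ∧ D.c i + D.z0 ≤ w + D.c j + D.N1)
  have hF : F.card ≤ 1 := by
    rw [Finset.card_le_one]
    intro a ha b hb
    by_contra hab
    rw [Finset.mem_filter, Finset.mem_range] at ha hb
    obtain ⟨ha1, ja, ha2, ha3, ha4, ha5⟩ := ha
    obtain ⟨hb1, jb, hb2, hb3, hb4, hb5⟩ := hb
    have := h.gad.gol a ja b jb ha1 ha2 hb1 hb2 ha3 hb3 (by
      intro e; exact hab (congrArg Prod.fst e))
    omega
  refine ⟨E.image Prod.fst ∪ F, ?_, ?_⟩
  · refine (Finset.card_union_le _ _).trans ?_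
    have := Finset.card_image_le (s := E) (f := Prod.fst)
    omega
  · intro i j hi hj hij hor
    rw [Finset.mem_union]
    rcases hor with h1 | h1
    · right
      rw [Finset.mem_filter, Finset.mem_range]
      exact ⟨hi, j, hj, hij, h1⟩
    · left
      rw [Finset.mem_image]
      exact ⟨(i, j), hE2 i j hi hj hij h1, rfl⟩

theorem complB {C0 : ℕ} (h : Ok D C0) (z : List α) (hz : z ∈ Zc D) (v : Tok S) :
    Cut (LB D) (RB D) v z := by
  classical
  obtain ⟨u, r, ⟨hu, hcr⟩, hr, rfl⟩ := hz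
  have hz0 := h.hz0
  have hk2 := h.hk2
  have hG := h.hG
  have hul := hu.1
  have hrl := hr.1
  have hzl : (u ++ r).length = u.length + r.length := List.length_append
  have hWz : D.W (u ++ r) := (h.wl.loc u r (by omega)).2 hr.2.1
  have htu : (u ++ r).take u.length = u := List.take_left' rfl
  -- the next wall
  have hex : ∃ t, u.length < t ∧ t ≤ (u ++ r).length ∧ D.W ((u ++ r).take t) :=
    ⟨(u ++ r).length, by omega, le_rfl, by rw [List.take_length]; exact hWz⟩
  obtain ⟨w2, ⟨hw2a, hw2b, hw2c⟩, hw2d⟩ : ∃ t, (u.length < t ∧ t ≤ (u ++ r).length ∧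
      D.W ((u ++ r).take t)) ∧ ∀ s, (u.length < s ∧ s ≤ (u ++ r).length ∧
      D.W ((u ++ r).take s)) → t ≤ s :=
    ⟨Nat.find hex, Nat.find_spec hex, fun s hs => Nat.find_min' hex hs⟩
  have hgap2 : u.length + D.G < w2 :=
    wall_pos h (u ++ r) hw2a hw2b (by rw [htu]; exact hu.2.1) hw2c
  -- the wall before
  obtain ⟨w0, hw0a, hw0b⟩ : ∃ w0, D.z0 ≤ w0 + D.p0 + D.N1 ∧ ∀ t, D.z0 ≤ t + D.p0 + D.N1 →
      t < D.z0 → D.W ((u ++ r).take t) → t = w0 := by
    by_cases hh : ∃ t, D.z0 ≤ t + D.p0 + D.N1 ∧ t < D.z0 ∧ D.W ((u ++ r).take t)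
    · obtain ⟨t, h1, h2, h3⟩ := hh
      refine ⟨t, h1, fun s hs1 hs2 hs3 => ?_⟩
      rcases Nat.lt_trichotomy s t with h4 | h4 | h4
      · have := wall_pos h (u ++ r) h4 (by omega) hs3 h3
        omega
      · exact h4
      · have := wall_pos h (u ++ r) h4 (by omega) h3 hs3
        omega
    · refine ⟨u.length, by omega, fun t h1 h2 h3 => ?_⟩
      exact absurd ⟨t, h1, h2, h3⟩ hh
  have hclass : ∀ t, D.z0 ≤ t + D.p0 + D.N1 → t ≤ (u ++ r).length → D.W ((u ++ r).take t) →
      t = w0 ∨ t = u.length ∨ w2 ≤ t := by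
    intro t h1 h2 h3
    rcases Nat.lt_or_ge t D.z0 with h4 | h4
    · exact Or.inl (hw0b t h1 h4 h3)
    · rcases Nat.lt_trichotomy t u.length with h5 | h5 | h5
      · exfalso
        refine hu.2.2 t h4 h5 ?_
        rw [List.take_append_of_le_length (by omega)] at h3
        exact h3
      · exact Or.inr (Or.inl h5)
      · exact Or.inr (Or.inr (hw2d t ⟨h5, h2, h3⟩))
  obtain ⟨S0, hS0, hS0'⟩ := spoil_one h w0 (by omega)
  obtain ⟨S1, hS1, hS1'⟩ := spoil_one h u.length (by omega)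
  obtain ⟨S2, hS2, hS2'⟩ := spoil_one h w2 (by omega)
  obtain ⟨I, hI, hI'⟩ := h.ex2 (u.take D.p0) v (by rw [List.length_take]; omega)
  have hcard : (S0 ∪ S1 ∪ S2).card < I.card := by
    have h1 := Finset.card_union_le (S0 ∪ S1) S2
    have h2 := Finset.card_union_le S0 S1
    omega
  obtain ⟨i, hiI, hiS⟩ := Finset.exists_mem_notMem_of_card_lt_card hcard
  rw [Finset.mem_union, Finset.mem_union] at hiS
  push Not at hiS
  obtain ⟨⟨hi0, hi1⟩, hi2⟩ := hiS
  obtain ⟨hiK, hlam, hrho⟩ := hI' i hiI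
  obtain ⟨b, hb⟩ := Option.isSome_iff_exists.1 hrho
  have hcp := h.cp0 i hiK
  have hPl : (u.take (D.c i)).length = D.c i := by rw [List.length_take]; omega
  have hPt : (u.take D.p0).take (D.c i) = u.take (D.c i) := by
    rw [List.take_take, Nat.min_eq_left hcp]
  rw [hPt] at hlam
  have hsplit : u.take (D.c i) ++ (u.drop (D.c i) ++ r) = u ++ r := by
    rw [← List.append_assoc, List.take_append_drop]
  have hx2 : (u.take D.p0).drop (D.c i) = (u.drop (D.c i)).take (D.p0 - D.c i) := by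
    rw [List.drop_take]
  have hqU : U D.W (D.z0 - D.c i) (u.drop (D.c i)) := by
    have := (U_app h.wl.loc (u.take (D.c i)) (u.drop (D.c i)) (k := D.z0)
      (by rw [hPl]; omega)).1 (by rw [List.take_append_drop]; exact hu)
    rw [hPl] at this
    exact this
  have hTu : T0 D v (u.take D.p0) = b := by
    have := h.ex1 i hiK (u.take (D.c i)) ((u.take D.p0).drop (D.c i)) v b hPl hlam hb
    rw [this]
    congr 1
    rw [← hPt, List.take_append_drop]
  refine ⟨u.take (D.c i), u.drop (D.c i) ++ r, act (T D v u) (ph D r), hsplit.symm,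
    ⟨i, hiK, hPl, hlam⟩, ?_⟩
  rintro v' P' ⟨j, hjK, hP'l, hlam'⟩
  have hcj := h.cp0 j hjK
  have hql : (u.drop (D.c i)).length = u.length - D.c i := List.length_drop
  by_cases hij : i = j
  · subst hij
    have hU' : U D.W D.z0 (P' ++ u.drop (D.c i)) := by
      rw [U_app h.wl.loc P' _ (by rw [hP'l]; omega), hP'l]
      exact hqU
    have e1 : P' ++ (u.drop (D.c i) ++ r) = (P' ++ u.drop (D.c i)) ++ r := by
      rw [List.append_assoc]
    refine ⟨⟨P' ++ u.drop (D.c i), hU', ⟨r, by rw [List.append_assoc]⟩⟩, fun _ =>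
      ⟨⟨P' ++ u.drop (D.c i), r, hU', hr, e1.symm⟩, ?_⟩⟩
    rw [e1, psi_app D hU' hr]
    congr 1
    unfold T
    have e2 : (P' ++ u.drop (D.c i)).take D.p0 = P' ++ (u.take D.p0).drop (D.c i) := by
      rw [List.take_append, List.take_of_length_le (by omega), hP'l, hx2]
    have e3 : (P' ++ u.drop (D.c i)).drop D.p0 = u.drop D.p0 := by
      rw [List.drop_append, List.drop_eq_nil_of_le (by omega), List.nil_append, hP'l,
        List.drop_drop]
      congr 1
      omega
    rw [e2, e3, hTu]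
    have := h.ex1 i hiK P' ((u.take D.p0).drop (D.c i)) v' b hP'l hlam' hb
    rw [← this]
  · -- positions in the two texts
    have hQl : (u.drop (D.c i) ++ r).length = u.length - D.c i + r.length := by
      rw [List.length_append, hql]
    have hcor : ∀ s, D.c j + D.n ≤ s → s ≤ D.c j + (u.length - D.c i + r.length) →
        (D.W ((P' ++ (u.drop (D.c i) ++ r)).take s) ↔ D.W ((u ++ r).take (s - D.c j + D.c i))) := by
      intro s hs1 hs2
      have a1 := take_app P' (u.drop (D.c i) ++ r) s (by omega)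
      have a2 := take_app (u.take (D.c i)) (u.drop (D.c i) ++ r) (s - D.c j + D.c i) (by omega)
      rw [hP'l] at a1
      rw [hPl, Nat.add_sub_cancel, hsplit] at a2
      rw [a1, a2, h.wl.loc _ _ (by rw [List.length_take, hQl]; omega),
        h.wl.loc _ _ (by rw [List.length_take, hQl]; omega)]
    have hTl : (P' ++ (u.drop (D.c i) ++ r)).length = D.c j + (u.length - D.c i + r.length) := by
      rw [List.length_append, hQl, hP'l]
    constructor
    · have hWQ : D.W ((P' ++ (u.drop (D.c i) ++ r)).take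
          (D.c j + (u.length - D.c i + r.length))) := by
        rw [hcor _ (by omega) le_rfl, List.take_of_length_le (by omega)]
        exact hWz
      obtain ⟨t', _, _, h3⟩ := exists_U (k := D.z0) (P' ++ (u.drop (D.c i) ++ r)) _ (by omega)
        (by omega) hWQ
      exact ⟨_, h3, List.take_prefix _ _⟩
    · rintro ⟨u', ⟨hu', hcr'⟩, hpre⟩
      exfalso
      have hu'e : u' = (P' ++ (u.drop (D.c i) ++ r)).take u'.length :=
        List.prefix_iff_eq_take.1 hpre
      have hu'l : u'.length ≤ D.c j + (u.length - D.c i + r.length) := by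
        rw [← hTl]; exact hpre.length_le
      have hu'z := hu'.1
      have hsub : ∀ s, s ≤ u'.length → u'.take s = (P' ++ (u.drop (D.c i) ++ r)).take s := by
        intro s hs
        rw [hu'e, List.take_take, Nat.min_eq_left hs]
      have hWt : D.W ((u ++ r).take (u'.length - D.c j + D.c i)) := by
        rw [← hcor _ (by omega) hu'l, ← hu'e]
        exact hu'.2.1
      -- the first wall of the candidate is one of the three
      have hle : u'.length - D.c j + D.c i ≤ w2 := by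
        by_contra hlt
        refine hu'.2.2 (w2 - D.c i + D.c j) (by omega) (by omega) ?_
        rw [hsub _ (by omega), hcor _ (by omega) (by omega)]
        have e : w2 - D.c i + D.c j - D.c j + D.c i = w2 := by omega
        rw [e]
        exact hw2c
      have hev : ∀ w, (w = w0 ∨ w = u.length ∨ w = w2) →
          ¬ ((w + D.c j ≤ D.c i + D.z0 + D.N1 ∧ D.c i + D.z0 ≤ w + D.c j + D.N1) ∨
            D.Bad (w - D.p0 + D.c j - D.c i)) := by
        rintro w (rfl | rfl | rfl) hh
        · exact hi0 (hS0' i j hiK hjK hij hh)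
        · exact hi1 (hS1' i j hiK hjK hij hh)
        · exact hi2 (hS2' i j hiK hjK hij hh)
      have hthree : u'.length - D.c j + D.c i = w0 ∨ u'.length - D.c j + D.c i = u.length ∨
          u'.length - D.c j + D.c i = w2 := by
        rcases hclass _ (by omega) (by omega) hWt with h1 | h1 | h1
        · exact Or.inl h1
        · exact Or.inr (Or.inl h1)
        · exact Or.inr (Or.inr (by omega))
      rcases hcr' with ⟨t, ht1, ht2, ht3, ht4⟩ | hlt | hbad
      · rw [hsub _ (by omega), hcor _ (by omega) (by omega)] at ht4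
        rcases hclass _ (by omega) (by omega) ht4 with h1 | h1 | h1
        · exact hev w0 (Or.inl rfl) (Or.inl ⟨by omega, by omega⟩)
        · exact hev u.length (Or.inr (Or.inl rfl)) (Or.inl ⟨by omega, by omega⟩)
        · omega
      · exact hev _ hthree (Or.inl ⟨by omega, by omega⟩)
      · refine hev _ hthree (Or.inr ?_)
        have e : u'.length - D.c j + D.c i - D.p0 + D.c j - D.c i = u'.length - D.p0 := by
          omega
        rw [e]
        exact hbad

/-! ### heights -/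

theorem catl {L M : Language α} {k : ℕ} (h1 : HL k L) (h2 : HL k M) :
    HL k ({w | ∃ a ∈ L, ∃ b ∈ M, a ++ b = w} : Language α) :=
  (h1.mul h2).congr fun _ => Language.mem_mul.symm

theorem FS_true (f : α → S) : FS f 0 1 (fun _ => True) := fun _ _ _ _ _ _ _ => Iff.rfl

theorem FS_ph (D : Dt α S) (s : S) : FS D.f 0 1 (fun w => ph D w = s) := by
  intro w w' _ _ _ h _
  rw [List.drop_zero, List.drop_zero] at h
  show (w.map D.f).prod = s ↔ (w'.map D.f).prod = s
  rw [h]

theorem FS_T {C0 : ℕ} (h : Ok D C0) (v t : Tok S) :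
    FS D.f (D.p0 + D.La) D.Pm (fun u => T D v u = t) := by
  intro w w' hw hw' he hp hm
  have e1 : w.take D.p0 = w'.take D.p0 := by
    have := congrArg (List.take D.p0) he
    rw [List.take_take, List.take_take, Nat.min_eq_left (by omega)] at this
    exact this
  have e2 : (w.drop D.p0).take D.La = (w'.drop D.p0).take D.La := by
    have := congrArg (List.drop D.p0) he
    rw [List.drop_take, List.drop_take, Nat.add_sub_cancel_left] at this
    exact this
  have e3 : (w.drop D.p0).drop D.La = w.drop (D.p0 + D.La) := List.drop_drop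
  have e3' : (w'.drop D.p0).drop D.La = w'.drop (D.p0 + D.La) := List.drop_drop
  have e4 : (((w.drop D.p0).drop D.La).map D.f).prod =
      (((w'.drop D.p0).drop D.La).map D.f).prod := by
    rw [e3, e3']; exact hp
  have e5 : ph D (w.drop D.p0) = ph D (w'.drop D.p0) := by
    rw [← List.take_append_drop D.La (w.drop D.p0), ← List.take_append_drop D.La (w'.drop D.p0),
      ph_app, ph_app, e2]
    congr 1
  have e6 : (w.drop D.p0).length % D.Pm = (w'.drop D.p0).length % D.Pm := by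
    rw [List.length_drop, List.length_drop]
    have h1 : (w.length - D.p0 + D.p0) ≡ (w'.length - D.p0 + D.p0) [MOD D.Pm] := by
      rw [Nat.sub_add_cancel (by omega), Nat.sub_add_cancel (by omega)]
      exact hm
    exact Nat.ModEq.add_right_cancel' D.p0 h1
  have e7 : D.nu1 (w.drop D.p0) = D.nu1 (w'.drop D.p0) :=
    h.gad.fs _ _ (by rw [List.length_drop]; omega) (by rw [List.length_drop]; omega) e2 e6 e4
  have : T D v w = T D v w' := by
    unfold T
    rw [e1, e5, e7]
  show T D v w = t ↔ T D v w' = t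
  rw [this]

theorem bad_mod {C0 : ℕ} (h : Ok D C0) {a b : ℕ} (hab : a % D.Pm = b % D.Pm) :
    D.Bad a ↔ D.Bad b := by
  have key : ∀ k x, D.Bad (x + D.Pm * k) ↔ D.Bad x := by
    intro k
    induction k with
    | zero => intro x; rw [Nat.mul_zero, Nat.add_zero]
    | succ k ih =>
      intro x
      rw [Nat.mul_succ, ← Nat.add_assoc, h.gad.per, ih]
  rw [← Nat.mod_add_div a D.Pm, ← Nat.mod_add_div b D.Pm, key, key, hab]

theorem FS_Crit {C0 : ℕ} (h : Ok D C0) :
    FS D.f (D.z0 + D.N1 + D.p0) D.Pm (fun u => Crit D u) := by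
  intro w w' hw hw' he hp hm
  have e6 : (w.length - D.p0) % D.Pm = (w'.length - D.p0) % D.Pm := by
    have h1 : (w.length - D.p0 + D.p0) ≡ (w'.length - D.p0 + D.p0) [MOD D.Pm] := by
      rw [Nat.sub_add_cancel (by omega), Nat.sub_add_cancel (by omega)]
      exact hm
    exact Nat.ModEq.add_right_cancel' D.p0 h1
  have hb := bad_mod h e6
  have ht : ∀ t, t < D.z0 → w.take t = w'.take t := by
    intro t ht
    have := congrArg (List.take t) he
    rw [List.take_take, List.take_take, Nat.min_eq_left (by omega)] at this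
    exact this
  unfold Crit
  constructor
  · rintro (⟨t, h1, h2, h3, h4⟩ | h1 | h1)
    · exact Or.inl ⟨t, h1, h2, by omega, by rw [← ht t h2]; exact h4⟩
    · omega
    · exact Or.inr (Or.inr (hb.1 h1))
  · rintro (⟨t, h1, h2, h3, h4⟩ | h1 | h1)
    · exact Or.inl ⟨t, h1, h2, by omega, by rw [ht t h2]; exact h4⟩
    · omega
    · exact Or.inr (Or.inr (hb.2 h1))

theorem hZ {C0 : ℕ} (h : Ok D C0) : HL 1 (Z D) := by
  refine (catl (h.wl.hU D.z0 0 1 _ Nat.one_pos (FS_true D.f))
    (h.wl.hU D.k2 0 1 _ Nat.one_pos (FS_true D.f))).congr fun w => Iff.symm ?_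
  constructor
  · rintro ⟨a, ⟨ha, _⟩, b, ⟨hb, _⟩, e⟩; exact ⟨a, b, ha, hb, e⟩
  · rintro ⟨a, b, ha, hb, e⟩; exact ⟨a, ⟨ha, trivial⟩, b, ⟨hb, trivial⟩, e⟩

theorem hUC {C0 : ℕ} (h : Ok D C0) :
    HL 1 ({u | U D.W D.z0 u ∧ Crit D u} : Language α) :=
  h.wl.hU _ _ _ _ h.gad.Pm0 (FS_Crit h)

theorem hZc {C0 : ℕ} (h : Ok D C0) : HL 1 (Zc D) := by
  refine (catl (hUC h) (h.wl.hU D.k2 0 1 _ Nat.one_pos (FS_true D.f))).congr fun w => Iff.symm ?_
  constructor
  · rintro ⟨a, ha, b, ⟨hb, _⟩, e⟩; exact ⟨a, b, ha, hb, e⟩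
  · rintro ⟨a, b, ha, hb, e⟩; exact ⟨a, ha, b, ⟨hb, trivial⟩, e⟩

theorem hpsi [Finite S] {C0 : ℕ} (h : Ok D C0) (v t : Tok S) :
    HL 1 ({z | z ∈ Z D ∧ aff (ph D) (d D) z v = t} : Language α) := by
  refine (HL.iUnion (ι := Tok S × S) (L := fun q => ({z | act q.1 q.2 = t ∧
    z ∈ ({w | ∃ a ∈ ({u | U D.W D.z0 u ∧ T D v u = q.1} : Language α),
      ∃ b ∈ ({r | U D.W D.k2 r ∧ ph D r = q.2} : Language α), a ++ b = w} : Language α)} :
        Language α)) fun q => HL.setOf_and (HL.const _)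
      (catl (h.wl.hU _ _ _ _ h.gad.Pm0 (FS_T h v q.1))
        (h.wl.hU _ _ _ _ Nat.one_pos (FS_ph D q.2)))).congr fun w => Iff.symm ?_
  constructor
  · rintro ⟨⟨t0, s⟩, h1, u, ⟨hu, hu2⟩, r, ⟨hr, hr2⟩, rfl⟩
    refine ⟨⟨u, r, hu, hr, rfl⟩, ?_⟩
    rw [psi_app D hu hr, hu2, hr2]
    exact h1
  · rintro ⟨⟨u, r, hu, hr, rfl⟩, h1⟩
    rw [psi_app D hu hr] at h1
    exact ⟨(T D v u, ph D r), h1, u, ⟨hu, rfl⟩, r, ⟨hr, rfl⟩, rfl⟩

theorem finLA [Finite α] (v : Tok S) : (LA D v : Set (List α)).Finite :=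
  (List.finite_length_le α (D.p0 + D.N1)).subset fun _ hP => hP.2.1

theorem finLB [Finite α] {C0 : ℕ} (h : Ok D C0) (v : Tok S) : (LB D v : Set (List α)).Finite := by
  refine (List.finite_length_le α D.p0).subset ?_
  rintro P ⟨j, hj, hl, _⟩
  have := h.cp0 j hj
  show P.length ≤ D.p0
  omega

theorem hRA [Finite α] [Finite S] {C0 : ℕ} (h : Ok D C0) (t : Tok S) : HL 1 (RA D t) := by
  refine (HL.iInter (ι := Tok S) fun v => HL.biInter (finLA (D := D) v)
    fun P _ => HL.lquot P (hpsi h v t)).congr fun w => ?_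
  exact Iff.rfl

theorem hRB [Finite α] [Finite S] {C0 : ℕ} (h : Ok D C0) (t : Tok S) : HL 1 (RB D t) := by
  have h1 : ∀ v, HL 1 ({w | (∃ u ∈ ({u | U D.W D.z0 u ∧ True} : Language α), u <+: w) ∧
      ((∃ u ∈ ({u | U D.W D.z0 u ∧ Crit D u} : Language α), u <+: w) →
        (w ∈ Z D ∧ aff (ph D) (d D) w v = t))} : Language α) := fun v =>
    HL.setOf_and (HL.prefix (h.wl.hU D.z0 0 1 _ Nat.one_pos (FS_true D.f)))
      (HL.setOf_imp (HL.prefix (hUC h)) (hpsi h v t))
  refine (HL.iInter (ι := Tok S) fun v => HL.biInter (finLB h v)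
    fun P _ => HL.lquot P (h1 v)).congr fun w => Iff.symm ?_
  constructor
  · intro hw v P hP
    obtain ⟨⟨u, ⟨hu, _⟩, hup⟩, h3⟩ := hw v P hP
    refine ⟨⟨u, hu, hup⟩, ?_⟩
    rintro ⟨u', hu', hup'⟩
    exact h3 ⟨u', hu', hup'⟩
  · intro hw v P hP
    obtain ⟨⟨u, hu, hup⟩, h3⟩ := hw v P hP
    refine ⟨⟨u, ⟨hu, trivial⟩, hup⟩, ?_⟩
    rintro ⟨u', hu', hup'⟩
    exact h3 ⟨u', hu', hup'⟩

theorem hrest [Finite S] {C0 : ℕ} (h : Ok D C0) (s : S) :
    HL 1 ({w | (∀ z ∈ Z D, ¬ z <+: w) ∧ ph D w = s} : Language α) := by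
  refine ((h.wl.hN D.z0 0 1 _ Nat.one_pos (FS_ph D s)).sup
    (HL.iUnion (ι := S × S) (L := fun q => ({z | q.1 * q.2 = s ∧
      z ∈ ({w | ∃ a ∈ ({u | U D.W D.z0 u ∧ ph D u = q.1} : Language α),
        ∃ b ∈ ({r | (∀ u, U D.W D.k2 u → ¬ u <+: r) ∧ ph D r = q.2} : Language α),
          a ++ b = w} : Language α)} : Language α)) fun q => HL.setOf_and (HL.const _)
      (catl (h.wl.hU _ _ _ _ Nat.one_pos (FS_ph D q.1))
        (h.wl.hN _ _ _ _ Nat.one_pos (FS_ph D q.2))))).congr fun w => Iff.symm ?_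
  constructor
  · rintro (⟨h1, h2⟩ | ⟨⟨s1, s2⟩, h1, u, ⟨hu, hu2⟩, r, ⟨hr, hr2⟩, rfl⟩)
    · refine ⟨?_, h2⟩
      rintro z ⟨u, r, hu, hr, rfl⟩ hp
      exact h1 u hu ((List.prefix_append _ _).trans hp)
    · refine ⟨?_, ?_⟩
      · rintro z ⟨u', r', hu', hr', rfl⟩ hp
        have e : u' = u := code_U_pre hu' hu ((List.prefix_append _ _).trans hp)
          (List.prefix_append _ _)
        subst e
        exact hr r' hr' ((List.prefix_append_right_inj _).1 hp)
      · rw [ph_app, hu2, hr2]; exact h1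
  · rintro ⟨h1, h2⟩
    by_cases hh : ∃ u, U D.W D.z0 u ∧ u <+: w
    · right
      obtain ⟨u, hu, r, rfl⟩ := hh
      refine ⟨(ph D u, ph D r), by rw [← ph_app]; exact h2, u, ⟨hu, rfl⟩, r, ⟨?_, rfl⟩, rfl⟩
      intro r' hr' hp
      exact h1 (u ++ r') ⟨u, r', hu, hr', rfl⟩ ((List.prefix_append_right_inj _).2 hp)
    · left
      push Not at hh
      exact ⟨hh, h2⟩

theorem data2_of_ok [Finite α] [Finite S] {C0 : ℕ} (h : Ok D C0) :
    Data2 (fun w : List α => (w.map D.f).prod) := by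
  refine ⟨Z D, Zc D, d D, LA D, RA D, LB D, RB D, codeZ h, sub, hZ h, hZc h, soundA h,
    fun v => HL.finite (finLA v), hRA h, complA h, soundB h, fun v => HL.finite (finLB h v),
    hRB h, complB h, fun s => (hrest h s).mono (by omega)⟩

end dt

end Crest.Agent.R320.Inst_342
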