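import Mathlib

/-!
# Row 320: instantiation of the two-scheme chain (natural chain rule, grid gadget of 693, exact gadget of 237)

Left-looking outer walls `W`, block code `XX`, block = `X1 ++ Y` with `|X1| = p0`,
scheme 1 = any word gadget (`lam1`, `rho1`, `nu1`, complete off `Bad |Y|`) in `Y`,
scheme 2 = exact gadget with ruler `c` in `X1`, promise = (E) or (B).
Output: the hypotheses `s1`, `s2`, `cc` of 163's `top`.
-/

set_option autoImplicit false

namespace Crest.Agent.R320.Inst_361

universe u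

/-- all data -/
structure Dat (α : Type u) (S V : Type) [Monoid S] [AddCommGroup V] where
  n : ℕ
  g : ℕ
  W : List α → Prop
  loc : ∀ U X : List α, n ≤ X.length → (W (U ++ X) ↔ W X)
  gap : ∀ (U : List α) (l l' : ℕ), n ≤ l → l < l' → l' ≤ U.length → W (U.take l) →
    W (U.take l') → g < l' - l
  φ : List α → S
  φmul : ∀ u v, φ (u ++ v) = φ u * φ v
  act : V → S → V
  N1 : ℕ
  L0 : ℕ
  Bad : ℕ → Prop
  lam1 : List α → V → Prop
  rho1 : List α → Option V
  nu1 : List α → V
  short1 : ∀ P v, lam1 P v → P.length < N1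
  sound1 : ∀ P v Q b, lam1 P v → rho1 Q = some b → act v (φ (P ++ Q)) + nu1 (P ++ Q) = b
  comp1 : ∀ u : List α, L0 ≤ u.length → ¬ Bad u.length → ∀ v, ∃ P Q, u = P ++ Q ∧ lam1 P v ∧
    (rho1 Q).isSome
  K : ℕ
  c : ℕ → ℕ
  p0 : ℕ
  hp0 : ∀ k < K, c k ≤ p0
  lam2 : ℕ → List α → Option V
  rho2 : ℕ → List α → Option V
  nu2 : List α → V
  sound2 : ∀ k < K, ∀ P Q v b, P.length = c k → lam2 k P = some v → rho2 k Q = some b →
    act v (φ (P ++ Q)) + nu2 (P ++ Q) = b
  R : ℕ
  comp2 : ∀ u : List α, p0 ≤ u.length → ∀ v, ∃ I : Finset ℕ, R ≤ I.card ∧ ∀ k ∈ I, k < K ∧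
    lam2 k (u.take (c k)) = some v ∧ (rho2 k (u.drop (c k))).isSome
  K0 : ℕ
  thinE : ∀ k k' j j', k < K → k' < K → j < K → j' < K → k ≠ k' → j ≠ j' → k ≠ j →
    2 * (N1 : ℤ) ≤ |((c k : ℤ) - c k') - ((c j : ℤ) - c j')|
  thinB : ∀ T : ℕ, ∃ B : Finset ℕ, B.card ≤ K0 ∧ ∀ k < K, ∀ k' < K, k ≠ k' →
    Bad (T + c k' - c k) → k ∈ B
  hR : 2 * K0 + 1 < R
  z : ℕ
  hz : 2 * p0 + N1 + L0 + n + 1 ≤ z
  hg : 2 * (N1 + p0) ≤ g

variable {α : Type u} {S V : Type} [Monoid S] [AddCommGroup V] (D : Dat α S V)

/-- block code -/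
def XX : Set (List α) :=
  {X | D.z ≤ X.length ∧ D.W X ∧ ∀ l, D.z ≤ l → l < X.length → ¬ D.W (X.take l)}

/-- zone noise -/
def nu (X : List α) : V := D.act (D.nu2 (X.take D.p0)) (D.φ (X.drop D.p0)) + D.nu1 (X.drop D.p0)

/-- zone map -/
def T (v : V) (X : List α) : V :=
  D.act (D.act v (D.φ (X.take D.p0)) + D.nu2 (X.take D.p0)) (D.φ (X.drop D.p0)) +
    D.nu1 (X.drop D.p0)

theorem T_eq (act_mul : ∀ v s s', D.act (D.act v s) s' = D.act v (s * s'))
    (act_add : ∀ v w s, D.act (v + w) s = D.act v s + D.act w s) (v : V) (X : List α) :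
    T D v X = D.act v (D.φ X) + nu D X := by
  unfold T nu
  rw [act_add, act_mul, ← D.φmul, List.take_append_drop, add_assoc]

theorem hnil : [] ∉ XX D := by
  rintro ⟨h, -, -⟩
  have := D.hz
  simp only [List.length_nil] at h
  omega

theorem hPC : ∀ X ∈ XX D, ∀ Y, X ++ Y ∈ XX D → Y = [] := by
  rintro X ⟨h1, h2, h3⟩ Y ⟨h4, h5, h6⟩
  by_contra hY
  have hl : 0 < Y.length := List.length_pos_iff.2 hY
  refine h6 X.length h1 (by simp only [List.length_append]; omega) ?_
  rw [List.take_left']
  · exact h2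
  · rfl

/-- left-legal for scheme 1 -/
def LP1 (P : List α) (v : V) : Prop :=
  D.p0 ≤ P.length ∧ D.lam1 (P.drop D.p0) (D.act v (D.φ (P.take D.p0)) + D.nu2 (P.take D.p0))

/-- `Q` ends at the next anchor, for every candidate -/
def QEnd (Q : List α) : Prop :=
  D.W Q ∧ D.z ≤ Q.length + D.p0 ∧
    ∀ t, D.z ≤ t + D.p0 + D.N1 → t < Q.length → ¬ D.W (Q.take t)

open Classical in
/-- right-legal for scheme 1 -/
noncomputable def R1 (Q : List α) : Option V := if QEnd D Q then D.rho1 Q else none

variable {D}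

theorem R1_some {Q : List α} {b : V} (h : R1 D Q = some b) : QEnd D Q ∧ D.rho1 Q = some b := by
  unfold R1 at h
  split_ifs at h with h1
  exact ⟨h1, h⟩

theorem R1_ne {Q : List α} {b : V} (h : R1 D Q = some b) : Q ≠ [] := by
  obtain ⟨⟨_, h2, _⟩, _⟩ := R1_some h
  rintro rfl
  have := D.hz
  simp only [List.length_nil] at h2
  omega

theorem wall_append {P Q : List α} {t : ℕ} (ht : D.n ≤ t) (ht2 : t ≤ Q.length) :
    D.W ((P ++ Q).take (P.length + t)) ↔ D.W (Q.take t) := by
  rw [List.take_length_add_append]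
  exact D.loc _ _ (by rw [List.length_take]; omega)

theorem s1 (P : List α) (v : V) (Q : List α) (b : V) (h1 : LP1 D P v) (h2 : R1 D Q = some b) :
    P ++ Q ∈ XX D ∧ T D v (P ++ Q) = b := by
  obtain ⟨⟨hW, hz, hno⟩, hr⟩ := R1_some h2
  obtain ⟨hp, hl⟩ := h1
  have hz' := D.hz
  have hsh := D.short1 _ _ hl
  rw [List.length_drop] at hsh
  refine ⟨⟨by rw [List.length_append]; omega, (D.loc _ _ (by omega)).2 hW, ?_⟩, ?_⟩
  · intro l hl1 hl2 hw
    obtain ⟨t, rfl⟩ : ∃ t, l = P.length + t := ⟨l - P.length, by omega⟩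
    rw [List.length_append] at hl2
    rw [wall_append (by omega) (by omega)] at hw
    exact hno t (by omega) (by omega) hw
  · unfold T
    rw [List.take_append_of_le_length hp, List.drop_append_of_le_length hp]
    exact D.sound1 _ _ _ _ hl hr

/-- mode (E) -/
def EE (D : Dat α S V) (X : List α) : Prop :=
  ∃ l, D.z ≤ l + D.N1 ∧ l < D.z + D.N1 ∧ l ≤ X.length ∧ D.W (X.take l)

theorem comp1 {X : List α} (hX : X ∈ XX D) (hE : ¬ EE D X) (hB : ¬ D.Bad (X.length - D.p0))
    (v : V) : ∃ P Q, X = P ++ Q ∧ LP1 D P v ∧ (R1 D Q).isSome := by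
  classical
  obtain ⟨h1, h2, h3⟩ := hX
  have hz' := D.hz
  have hlY : (X.drop D.p0).length = X.length - D.p0 := List.length_drop
  obtain ⟨P', Q, e, hl, hr⟩ := D.comp1 (X.drop D.p0) (by omega) (by rw [hlY]; exact hB)
    (D.act v (D.φ (X.take D.p0)) + D.nu2 (X.take D.p0))
  have hsh := D.short1 _ _ hl
  have htl : (X.take D.p0).length = D.p0 := by rw [List.length_take]; omega
  have hXe : X = (X.take D.p0 ++ P') ++ Q := by
    rw [List.append_assoc, ← e, List.take_append_drop]
  have hlen : X.length = D.p0 + P'.length + Q.length := by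
    conv_lhs => rw [hXe]
    rw [List.length_append, List.length_append, htl]
  have hPl : (X.take D.p0 ++ P').length = D.p0 + P'.length := by rw [List.length_append, htl]
  refine ⟨X.take D.p0 ++ P', Q, hXe, ⟨by omega, ?_⟩, ?_⟩
  · rw [List.take_append_of_le_length (by omega), List.drop_append_of_le_length (by omega),
      List.take_take, min_self, List.drop_of_length_le (by omega), List.nil_append]
    exact hl
  · have hXbig : D.z + D.N1 ≤ X.length := by
      by_contra hh
      exact hE ⟨X.length, by omega, by omega, le_rfl, by rw [List.take_length]; exact h2⟩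
    have hQ : QEnd D Q := by
      refine ⟨?_, by omega, ?_⟩
      · rw [hXe] at h2
        exact (D.loc _ _ (by omega)).1 h2
      · intro t ht1 ht2 hw
        have hw' : D.W (X.take ((X.take D.p0 ++ P').length + t)) := by
          conv => arg 2; rw [hXe]
          rw [show (List.take D.p0 (List.take D.p0 X ++ P' ++ Q) ++ P').length
            = (X.take D.p0 ++ P').length by rw [← hXe]]
          exact (wall_append (by omega) (by omega)).2 hw
        by_cases hlt : (X.take D.p0 ++ P').length + t < D.z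
        · exact hE ⟨_, by omega, by omega, by omega, hw'⟩
        · exact h3 _ (by omega) (by omega) hw'
    unfold R1
    rw [if_pos hQ]
    exact hr

/-- `t` is the first wall of `Q` at candidate distance `≥ z` -/
def First (D : Dat α S V) (Q : List α) (k t : ℕ) : Prop :=
  D.z ≤ t + D.c k ∧ t ≤ Q.length ∧ D.W (Q.take t) ∧
    ∀ t', t' < t → D.z ≤ t' + D.c k → ¬ D.W (Q.take t')

/-- the candidate `k` has a bad block -/
def BadK (D : Dat α S V) (Q : List α) (k : ℕ) : Prop :=
  (∃ t, D.z ≤ t + D.c k + D.N1 ∧ t + D.c k < D.z + D.N1 ∧ t ≤ Q.length ∧ D.W (Q.take t)) ∨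
    (∃ t, First D Q k t ∧ D.Bad (t + D.c k - D.p0))

/-- left-legal for scheme 2 -/
def LP2 (D : Dat α S V) (P : List α) (v : V) : Prop :=
  ∃ k, k < D.K ∧ P.length = D.c k ∧ D.lam2 k P = some v

/-- right-legal for scheme 2 -/
def R2rel (D : Dat α S V) (Q : List α) (b : V) : Prop :=
  ∃ k Q1 X2 v', k < D.K ∧ Q = Q1 ++ X2 ∧ X2 ∈ XX D ∧ First D Q k Q1.length ∧ BadK D Q k ∧
    (∀ k', k' < D.K → k' ≠ k → ¬ BadK D Q k') ∧
    D.rho2 k (Q1.take (D.p0 - D.c k)) = some v' ∧
    T D (D.act v' (D.φ (Q1.drop (D.p0 - D.c k))) + D.nu1 (Q1.drop (D.p0 - D.c k))) X2 = b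

theorem First.unique {Q : List α} {k t t' : ℕ} (h : First D Q k t) (h' : First D Q k t') :
    t = t' := by
  rcases lt_trichotomy t t' with hh | hh | hh
  · exact absurd h.2.2.1 (h'.2.2.2 t hh h.1)
  · exact hh
  · exact absurd h'.2.2.1 (h.2.2.2 t' hh h'.1)

theorem R2rel.unique {Q : List α} {b b' : V} (h : R2rel D Q b) (h' : R2rel D Q b') : b = b' := by
  obtain ⟨k, Q1, X2, v1, a1, a2, a3, a4, a5, a6, a7, a8⟩ := h
  obtain ⟨k', Q1', X2', v1', c1, c2, c3, c4, c5, c6, c7, c8⟩ := h'
  have hk : k' = k := by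
    by_contra hne
    exact a6 k' c1 hne c5
  subst hk
  have hl := a4.unique c4
  obtain ⟨e1, e2⟩ := List.append_inj (a2.symm.trans c2) hl
  subst e1
  subst e2
  rw [a7] at c7
  obtain rfl := Option.some.inj c7
  exact a8.symm.trans c8

open Classical in
/-- right reading of scheme 2 -/
noncomputable def R2 (D : Dat α S V) (Q : List α) : Option V :=
  if h : ∃ b, R2rel D Q b then some h.choose else none

theorem R2_iff {Q : List α} {b : V} : R2 D Q = some b ↔ R2rel D Q b := by
  classical
  unfold R2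
  constructor
  · intro h
    split_ifs at h with h1
    have := h1.choose_spec
    rwa [Option.some.inj h] at this
  · intro h
    have h1 : ∃ b, R2rel D Q b := ⟨b, h⟩
    rw [dif_pos h1]
    congr 1
    exact h1.choose_spec.unique h

theorem R2_ne {Q : List α} {b : V} (h : R2 D Q = some b) : Q ≠ [] := by
  obtain ⟨k, Q1, X2, v1, a1, a2, a3, a4, -⟩ := R2_iff.1 h
  rintro rfl
  have h1 := a3.1
  have h2 := D.hz
  have : X2 = [] := by
    have := (List.append_eq_nil_iff.1 a2.symm).2
    exact this
  rw [this] at h1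
  simp only [List.length_nil] at h1
  omega

/-- a candidate's first wall gives a block. -/
theorem First.block {P Q : List α} {k t : ℕ} (hk : k < D.K) (hP : P.length = D.c k)
    (h : First D Q k t) : P ++ Q.take t ∈ XX D := by
  obtain ⟨h1, h2, h3, h4⟩ := h
  have hz := D.hz
  have hc := D.hp0 k hk
  have hlt : (Q.take t).length = t := by rw [List.length_take]; omega
  refine ⟨by rw [List.length_append, hlt]; omega, (D.loc _ _ (by omega)).2 h3, ?_⟩
  intro l hl1 hl2 hw
  rw [List.length_append, hlt] at hl2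
  obtain ⟨t', rfl⟩ : ∃ t', l = P.length + t' := ⟨l - P.length, by omega⟩
  rw [wall_append (by omega) (by omega), List.take_take, min_eq_left (by omega)] at hw
  exact h4 t' (by omega) (by omega) hw

theorem s2 (P : List α) (v : V) (Q : List α) (b : V) (hL : LP2 D P v) (hR : R2 D Q = some b)
    (hlive : ∀ X ∈ XX D, X <+: P ++ Q → ∀ P' Q', X = P' ++ Q' → P.length ≤ P'.length →
      LP1 D P' v → (R1 D Q').isSome → False) :
    ∃ Q1 X2, Q = Q1 ++ X2 ∧ Q1 ≠ [] ∧ P ++ Q1 ∈ XX D ∧ X2 ∈ XX D ∧
      T D (T D v (P ++ Q1)) X2 = b := by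
  classical
  obtain ⟨k0, hk0, hPl, hlam⟩ := hL
  obtain ⟨k, Q1, X2, v1, a1, a2, a3, a4, a5, a6, a7, a8⟩ := R2_iff.1 hR
  have hz := D.hz
  have hkk : k0 = k := by
    by_contra hne
    have hnb := a6 k0 hk0 hne
    -- the block of the true candidate
    have hex : ∃ t, D.z ≤ t + D.c k0 ∧ t ≤ Q.length ∧ D.W (Q.take t) := by
      refine ⟨Q.length, ?_, le_rfl, ?_⟩
      · have := a3.1
        rw [a2, List.length_append]; omega
      · rw [List.take_length, a2]
        exact (D.loc _ _ (by have := a3.1; omega)).2 a3.2.1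
    have hF : First D Q k0 (Nat.find hex) := by
      obtain ⟨b1, b2, b3⟩ := Nat.find_spec hex
      refine ⟨b1, b2, b3, fun t' ht' hz' hw => ?_⟩
      exact Nat.find_min hex ht' ⟨hz', by omega, hw⟩
    set t0 := Nat.find hex with ht0
    have hX0 := hF.block hk0 hPl
    have hlt : (Q.take t0).length = t0 := by rw [List.length_take]; have := hF.2.1; omega
    have hlen : (P ++ Q.take t0).length = t0 + D.c k0 := by
      rw [List.length_append, hlt, hPl]; omega
    have hE : ¬ EE D (P ++ Q.take t0) := by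
      rintro ⟨l, b1, b2, b3, b4⟩
      have hc := D.hp0 k0 hk0
      obtain ⟨t', rfl⟩ : ∃ t', l = P.length + t' := ⟨l - P.length, by omega⟩
      rw [hlen] at b3
      rw [wall_append (by omega) (by omega), List.take_take, min_eq_left (by omega)] at b4
      exact hnb (Or.inl ⟨t', by omega, by omega, by have := hF.2.1; omega, b4⟩)
    have hB : ¬ D.Bad ((P ++ Q.take t0).length - D.p0) := by
      rw [hlen]
      exact fun h => hnb (Or.inr ⟨t0, hF, h⟩)
    obtain ⟨P', Q', e, hl, hr⟩ := comp1 hX0 hE hB v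
    have hc := D.hp0 k0 hk0
    exact hlive _ hX0 ((List.prefix_append_right_inj P).2 (List.take_prefix _ _)) P' Q' e
      (by have := hl.1; omega) hl hr
  subst hkk
  have hQ1 : Q.take Q1.length = Q1 := by rw [a2, List.take_left' rfl]
  have hb := a4.block hk0 hPl
  rw [hQ1] at hb
  have hc := D.hp0 k0 hk0
  refine ⟨Q1, X2, a2, ?_, hb, a3, ?_⟩
  · rintro rfl
    have := a4.1
    simp only [List.length_nil] at this
    omega
  · rw [← a8]
    congr 1
    have e1 : (P ++ Q1).take D.p0 = P ++ Q1.take (D.p0 - D.c k0) := by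
      rw [List.take_append, List.take_of_length_le (by omega), hPl]
    have e2 : (P ++ Q1).drop D.p0 = Q1.drop (D.p0 - D.c k0) := by
      rw [List.drop_append, List.drop_of_length_le (by omega), List.nil_append, hPl]
    unfold T
    rw [e1, e2, D.sound2 k0 hk0 P _ v v1 hPl hlam a7]

/-- the bad candidates of a text: at most `2 * K0 + 1` places are spoiled. -/
theorem spoil {X X2 : List α} (hX : X ∈ XX D) (hX2 : X2 ∈ XX D) :
    ∃ B : Finset ℕ, B.card ≤ 2 * D.K0 + 1 ∧ ∀ k, k < D.K → ∀ k', k' < D.K → k' ≠ k →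
      BadK D ((X ++ X2).drop (D.c k)) k' → k ∈ B := by
  classical
  have hz := D.hz
  have hg := D.hg
  set U := X ++ X2 with hU
  have hUl : U.length = X.length + X2.length := by rw [hU, List.length_append]
  have hXl := hX.1
  have hX2l := hX2.1
  -- walls of `U.drop (c k)` are walls of `U`
  have hwall : ∀ k, k < D.K → ∀ t, D.n ≤ t → t ≤ (U.drop (D.c k)).length →
      (D.W ((U.drop (D.c k)).take t) ↔ D.W (U.take (D.c k + t))) := by
    intro k hk t ht1 ht2
    have hc := D.hp0 k hk
    rw [List.length_drop] at ht2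
    have e : U.take (D.c k + t) = U.take (D.c k) ++ (U.drop (D.c k)).take t := by
      rw [List.take_add]
    rw [e]
    exact (D.loc _ _ (by rw [List.length_take, List.length_drop]; omega)).symm
  -- the set of places spoiled through (E)
  let BE : Finset ℕ := (Finset.range D.K).filter fun k => ∃ k', k' < D.K ∧ k' ≠ k ∧
    ∃ l, D.z ≤ l + D.c k' + D.N1 - D.c k ∧ l + D.c k' < D.z + D.N1 + D.c k ∧ l ≤ U.length ∧
      D.z ≤ l + D.p0 + D.N1 ∧ D.W (U.take l)
  have hBE : BE.card ≤ 1 := by
    rw [Finset.card_le_one]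
    intro k hk j hj
    simp only [BE, Finset.mem_filter, Finset.mem_range] at hk hj
    obtain ⟨hkK, k', hk'K, hkk', l, b1, b2, b3, b4, b5⟩ := hk
    obtain ⟨hjK, j', hj'K, hjj', l', d1, d2, d3, d4, d5⟩ := hj
    by_contra hne
    have c1 := D.hp0 k hkK
    have c2 := D.hp0 k' hk'K
    have c3 := D.hp0 j hjK
    have c4 := D.hp0 j' hj'K
    have hll : l = l' := by
      rcases lt_trichotomy l l' with hh | hh | hh
      · have := D.gap U l l' (by omega) hh d3 b5 d5
        omega
      · exact hh
      · have := D.gap U l' l (by omega) hh b3 d5 b5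
        omega
    subst hll
    have := D.thinE k k' j j' hkK hk'K hjK hj'K (Ne.symm hkk') (Ne.symm hjj') hne
    rw [le_abs] at this
    rcases this with h | h <;> omega
  -- the two walls
  have hex2 : ∃ l, D.z + D.p0 ≤ l ∧ l ≤ U.length ∧ D.W (U.take l) := by
    refine ⟨U.length, by omega, le_rfl, ?_⟩
    rw [List.take_length, hU]
    exact (D.loc _ _ (by omega)).2 hX2.2.1
  set l2 := Nat.find hex2 with hl2
  obtain ⟨B2, hB2c, hB2⟩ := D.thinB (l2 - D.p0)
  have hspec2 := Nat.find_spec hex2
  -- the wall near z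
  by_cases hex1 : ∃ l, D.z ≤ l + D.p0 ∧ l < D.z + D.p0 ∧ l ≤ U.length ∧ D.W (U.take l)
  · obtain ⟨l1, e1, e2, e3, e4⟩ := hex1
    obtain ⟨B1, hB1c, hB1⟩ := D.thinB (l1 - D.p0)
    refine ⟨BE ∪ (B1 ∪ B2), ?_, ?_⟩
    · have h1 := Finset.card_union_le BE (B1 ∪ B2)
      have h2 := Finset.card_union_le B1 B2
      omega
    · intro k hk k' hk' hne hbad
      have c1 := D.hp0 k hk
      have c2 := D.hp0 k' hk'
      rcases hbad with ⟨t, f1, f2, f3, f4⟩ | ⟨t, ⟨f1, f2, f3, f4⟩, f5⟩
      · refine Finset.mem_union_left _ ?_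
        simp only [BE, Finset.mem_filter, Finset.mem_range]
        have hlen : (U.drop (D.c k)).length = U.length - D.c k := List.length_drop
        refine ⟨hk, k', hk', hne, D.c k + t, by omega, by omega, by omega, by omega, ?_⟩
        exact (hwall k hk t (by omega) f3).1 f4
      · refine Finset.mem_union_right _ ?_
        have hlen : (U.drop (D.c k)).length = U.length - D.c k := List.length_drop
        have hw := (hwall k hk t (by omega) f2).1 f3
        by_cases hlt : D.c k + t < D.z + D.p0
        · refine Finset.mem_union_left _ ?_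
          have hll : D.c k + t = l1 := by
            rcases lt_trichotomy (D.c k + t) l1 with hh | hh | hh
            · have := D.gap U _ _ (by omega) hh e3 hw e4
              omega
            · exact hh
            · have := D.gap U _ _ (by omega) hh (by omega) e4 hw
              omega
          refine hB1 k hk k' hk' (Ne.symm hne) ?_
          have : l1 - D.p0 + D.c k' - D.c k = t + D.c k' - D.p0 := by omega
          rw [this]; exact f5
        · refine Finset.mem_union_right _ ?_
          have hll : D.c k + t = l2 := by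
            apply le_antisymm
            · by_contra hh
              have hh' : l2 < D.c k + t := by omega
              obtain ⟨s, hs⟩ : ∃ s, l2 = D.c k + s := ⟨l2 - D.c k, by omega⟩
              refine f4 s (by omega) (by omega) ?_
              rw [hwall k hk s (by omega) (by omega), ← hs]
              exact hspec2.2.2
            · exact Nat.find_min' hex2 ⟨by omega, by omega, hw⟩
          refine hB2 k hk k' hk' (Ne.symm hne) ?_
          have : l2 - D.p0 + D.c k' - D.c k = t + D.c k' - D.p0 := by omega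
          rw [this]; exact f5
  · refine ⟨BE ∪ B2, ?_, ?_⟩
    · have h1 := Finset.card_union_le BE B2
      omega
    · intro k hk k' hk' hne hbad
      have c1 := D.hp0 k hk
      have c2 := D.hp0 k' hk'
      rcases hbad with ⟨t, f1, f2, f3, f4⟩ | ⟨t, ⟨f1, f2, f3, f4⟩, f5⟩
      · refine Finset.mem_union_left _ ?_
        simp only [BE, Finset.mem_filter, Finset.mem_range]
        have hlen : (U.drop (D.c k)).length = U.length - D.c k := List.length_drop
        refine ⟨hk, k', hk', hne, D.c k + t, by omega, by omega, by omega, by omega, ?_⟩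
        exact (hwall k hk t (by omega) f3).1 f4
      · refine Finset.mem_union_right _ ?_
        have hlen : (U.drop (D.c k)).length = U.length - D.c k := List.length_drop
        have hw := (hwall k hk t (by omega) f2).1 f3
        have hlt : ¬ (D.c k + t < D.z + D.p0) := fun hlt =>
          hex1 ⟨D.c k + t, by omega, hlt, by omega, hw⟩
        have hll : D.c k + t = l2 := by
          apply le_antisymm
          · by_contra hh
            have hh' : l2 < D.c k + t := by omega
            obtain ⟨s, hs⟩ : ∃ s, l2 = D.c k + s := ⟨l2 - D.c k, by omega⟩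
            refine f4 s (by omega) (by omega) ?_
            rw [hwall k hk s (by omega) (by omega), ← hs]
            exact hspec2.2.2
          · exact Nat.find_min' hex2 ⟨by omega, by omega, hw⟩
        refine hB2 k hk k' hk' (Ne.symm hne) ?_
        have : l2 - D.p0 + D.c k' - D.c k = t + D.c k' - D.p0 := by omega
        rw [this]; exact f5

theorem cc (X : List α) (hX : X ∈ XX D) (X2 : List α) (hX2 : X2 ∈ XX D) (v : V) :
    (∃ P Q, X = P ++ Q ∧ LP1 D P v ∧ (R1 D Q).isSome) ∨
      (∃ P Q, X ++ X2 = P ++ Q ∧ P.length < X.length ∧ LP2 D P v ∧ (R2 D Q).isSome) := by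
  classical
  by_cases hgood : ¬ EE D X ∧ ¬ D.Bad (X.length - D.p0)
  · exact Or.inl (comp1 hX hgood.1 hgood.2 v)
  right
  have hz := D.hz
  have hbad : EE D X ∨ D.Bad (X.length - D.p0) := by
    by_contra h
    push Not at h
    exact hgood h
  obtain ⟨B, hBc, hB⟩ := spoil hX hX2
  have hXl := hX.1
  obtain ⟨I, hI, hIk⟩ := D.comp2 (X.take D.p0) (by rw [List.length_take]; omega) v
  obtain ⟨k, hkI, hkB⟩ : ∃ k ∈ I, k ∉ B := by
    by_contra h
    push Not at h
    have := Finset.card_le_card (show I ⊆ B from h)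
    have := D.hR
    omega
  obtain ⟨hk, hlam, hrho⟩ := hIk k hkI
  have hc := D.hp0 k hk
  rw [List.take_take, min_eq_left hc] at hlam
  obtain ⟨v', hv'⟩ := Option.isSome_iff_exists.1 hrho
  have hdl : (X.drop (D.c k)).length = X.length - D.c k := List.length_drop
  have hQ : (X ++ X2).drop (D.c k) = X.drop (D.c k) ++ X2 :=
    List.drop_append_of_le_length (by omega)
  have htake : ∀ t, D.n ≤ t → t ≤ X.length - D.c k →
      (D.W ((X.drop (D.c k) ++ X2).take t) ↔ D.W (X.take (D.c k + t))) := by
    intro t ht1 ht2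
    rw [List.take_append_of_le_length (by omega), List.take_add]
    exact (D.loc _ _ (by rw [List.length_take]; omega)).symm
  have hF : First D (X.drop (D.c k) ++ X2) k (X.drop (D.c k)).length := by
    refine ⟨by omega, by rw [List.length_append]; omega, ?_, ?_⟩
    · rw [hdl, htake _ (by omega) le_rfl, show D.c k + (X.length - D.c k) = X.length by omega,
        List.take_length]
      exact hX.2.1
    · intro t' ht' hzt hw
      rw [hdl] at ht'
      rw [htake t' (by omega) (by omega)] at hw
      exact hX.2.2 _ (by omega) (by omega) hw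
  have hBk : BadK D (X.drop (D.c k) ++ X2) k := by
    rcases hbad with ⟨l, b1, b2, b3, b4⟩ | hb
    · left
      refine ⟨l - D.c k, by omega, by omega, by rw [List.length_append]; omega, ?_⟩
      rw [htake _ (by omega) (by omega), show D.c k + (l - D.c k) = l by omega]
      exact b4
    · right
      refine ⟨_, hF, ?_⟩
      rw [hdl, show X.length - D.c k + D.c k = X.length by omega]
      exact hb
  have hR : R2rel D (X.drop (D.c k) ++ X2)
      (T D (D.act v' (D.φ ((X.drop (D.c k)).drop (D.p0 - D.c k))) +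
        D.nu1 ((X.drop (D.c k)).drop (D.p0 - D.c k))) X2) := by
    refine ⟨k, X.drop (D.c k), X2, v', hk, rfl, hX2, hF, hBk, ?_, ?_, rfl⟩
    · intro k' hk' hne hb
      rw [← hQ] at hb
      exact hkB (hB k hk k' hk' hne hb)
    · rw [← hv']
      congr 1
      rw [List.drop_take]
  refine ⟨X.take (D.c k), X.drop (D.c k) ++ X2, ?_, ?_, ⟨k, hk, ?_, hlam⟩, ?_⟩
  · rw [← List.append_assoc, List.take_append_drop]
  · rw [List.length_take]; omega
  · rw [List.length_take]; omega
  · rw [R2_iff.2 hR]; rfl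

end Crest.Agent.R320.Inst_361
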