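import Crest.Agent.R320.Top5_110

/-!
# Row 320: instance of 110's `top_sem` (helper385)

Left-looking walls, natural chain rule (first wall at distance `≥ z`), scheme 1 = an abstract gadget
without small walls (852 / 693 / 893), scheme 2 = 237's exact gadget on the first `p0` letters with a
ruler.  Bad block = (E) a wall within `N1` of `z`, or (B) the length is in the thin set `Bd`.
-/

set_option autoImplicit false

namespace Crest.Agent.R320.Inst_385

open Crest.Agent.R320.Hk_851 Crest.Agent.R320.Code110 Finset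

universe u

/-- all data -/
structure Dat (α : Type u) (S V : Type u) [Monoid S] [AddCommGroup V] where
  φ : List α → S
  hφ : ∀ u w, φ (u ++ w) = φ u * φ w
  act : V → S → V
  hadd : ∀ v w s, act (v + w) s = act v s + act w s
  hmul : ∀ v s t, act v (s * t) = act (act v s) t
  Wl : List α → Prop
  n : ℕ
  W : ℕ
  wloc : ∀ P Q : List α, n ≤ Q.length → (Wl (P ++ Q) ↔ Wl Q)
  wgap : ∀ P D : List α, Wl P → Wl (P ++ D) → D ≠ [] → W < D.length
  z : ℕ
  p0 : ℕ
  N1 : ℕ
  K : ℕ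
  c : ℕ → ℕ
  rB : ℕ
  hc : ∀ k < K, c k ≤ p0
  hz : 4 * p0 + 2 * N1 + n + 1 ≤ z
  hW : 2 * p0 + 2 * N1 ≤ W
  Bd : ℕ → Prop
  Lam : V → List α → Prop
  nu1 : List α → V
  nu2 : List α → V
  lam : ℕ → List α → Option V
  hlen : ∀ v P, Lam v P → P.length < N1
  hG : ∀ Y : List α, N1 ≤ Y.length → ¬ Bd Y.length → ∀ v, ∃ P Q, Y = P ++ Q ∧ Lam v P ∧
    ∀ v' P', Lam v' P' → act v' (φ (P' ++ Q)) + nu1 (P' ++ Q) = act v (φ Y) + nu1 Y
  thin : ∀ n0 : ℕ, p0 ≤ n0 → ∃ J : Finset ℕ, J.card ≤ rB ∧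
    ∀ k < K, ∀ k' < K, k' ≠ k → Bd (n0 + c k' - c k) → k ∈ J
  res : ∀ k₁ < K, ∀ k₂ < K, ∀ k₃ < K, ∀ k₄ < K, k₁ ≠ k₂ → k₃ ≠ k₄ →
    |((c k₁ : ℤ) - c k₂) - ((c k₃ : ℤ) - c k₄)| ≤ 2 * N1 → k₁ = k₃ ∧ k₂ = k₄
  hE : ∀ (X : List α) (v : V), p0 = X.length → ∃ I : Finset ℕ, 2 + 2 * rB ≤ I.card ∧
    ∀ k ∈ I, k < K ∧ lam k (X.take (c k)) = some v ∧
      ∀ v' P', P'.length = c k → lam k P' = some v' →
        act v' (φ (P' ++ X.drop (c k))) + nu2 (P' ++ X.drop (c k)) = act v (φ X) + nu2 X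

namespace Dat

variable {α S V : Type u} [Monoid S] [AddCommGroup V] (D : Dat α S V)

def IsW (X : List α) (t : ℕ) : Prop := t ≤ X.length ∧ D.Wl (X.take t)

def XX : Language α :=
  {X | D.z ≤ X.length ∧ D.Wl X ∧ ∀ t, D.z ≤ t → t < X.length → ¬ D.IsW X t}

def Ebad (X : List α) : Prop := ∃ t, D.z ≤ t + D.N1 ∧ t < D.z + D.N1 ∧ D.IsW X t

def Bad : Language α := {X | X ∈ D.XX ∧ (D.Ebad X ∨ D.Bd (X.length - D.p0))}

def T (X : List α) (v : V) : V :=
  D.act (D.act v (D.φ (X.take D.p0)) + D.nu2 (X.take D.p0)) (D.φ (X.drop D.p0)) +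
    D.nu1 (X.drop D.p0)

def L1 (v : V) : Language α :=
  {P | D.p0 ≤ P.length ∧
    D.Lam (D.act v (D.φ (P.take D.p0)) + D.nu2 (P.take D.p0)) (P.drop D.p0)}

def L2 (v : V) : Language α := {P | ∃ k < D.K, P.length = D.c k ∧ D.lam k P = some v}

theorem isW_app {A C : List α} {τ : ℕ} (hτ : D.n ≤ τ) :
    D.IsW (A ++ C) (A.length + τ) ↔ (τ ≤ C.length ∧ D.Wl (C.take τ)) := by
  unfold IsW
  rw [List.length_append, List.take_length_add_append]
  constructor
  · rintro ⟨h1, h2⟩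
    have h3 : τ ≤ C.length := by omega
    refine ⟨h3, (D.wloc A _ ?_).1 h2⟩
    rw [List.length_take]; omega
  · rintro ⟨h1, h2⟩
    refine ⟨by omega, (D.wloc A _ ?_).2 h2⟩
    rw [List.length_take]; omega

theorem isW_len {X : List α} : D.IsW X X.length ↔ D.Wl X := by
  unfold IsW; simp

theorem isW_take {X : List α} {s t : ℕ} (hs : s ≤ t) (ht : t ≤ X.length) :
    D.IsW (X.take t) s ↔ D.IsW X s := by
  unfold IsW
  rw [List.length_take, List.take_take, min_eq_left hs]
  constructor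
  · rintro ⟨h1, h2⟩; exact ⟨by omega, h2⟩
  · rintro ⟨h1, h2⟩; exact ⟨by omega, h2⟩

theorem isW_gap {X : List α} {s t : ℕ} (hs : D.IsW X s) (ht : D.IsW X t) (hst : s < t) :
    s + D.W < t := by
  have h1 : X.take t = X.take s ++ (X.drop s).take (t - s) := by
    rw [← List.take_add]; congr 1; omega
  have h2 : ((X.drop s).take (t - s)).length = t - s := by
    rw [List.length_take, List.length_drop]
    have := ht.1
    omega
  have h3 := D.wgap (X.take s) ((X.drop s).take (t - s)) hs.2 (h1 ▸ ht.2) (by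
    intro h
    rw [h] at h2
    simp at h2
    omega)
  omega

theorem pc : PC D.XX := by
  constructor
  · intro h
    have h1 := h.1
    have h2 := D.hz
    simp at h1
    omega
  · rintro u ⟨hu1, hu2, hu3⟩ v ⟨hv1, hv2, hv3⟩ ⟨x, rfl⟩
    by_contra hne
    have hx : x ≠ [] := by
      rintro rfl; simp at hne
    have hl : 0 < x.length := List.length_pos_iff.2 hx
    apply hv3 u.length hu1 (by rw [List.length_append]; omega)
    refine ⟨by rw [List.length_append]; omega, ?_⟩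
    rw [List.take_left]
    exact hu2

theorem bad_sub : ∀ u ∈ D.Bad, u ∈ D.XX := fun _ h => h.1

theorem sub_act (v w : V) (s : S) : D.act (v - w) s = D.act v s - D.act w s := by
  have h := D.hadd (v - w) w s
  rw [sub_add_cancel] at h
  rw [h, add_sub_cancel_right]

theorem hT (u : List α) (v v' : V) : D.T u v - D.T u v' = D.act (v - v') (D.φ u) := by
  have h1 : D.φ u = D.φ (u.take D.p0) * D.φ (u.drop D.p0) := by
    rw [← D.hφ, List.take_append_drop]
  rw [h1, D.hmul, sub_act, sub_act]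
  unfold T
  rw [D.hadd, D.hadd]
  abel

theorem mem_exactly1 {Z : Language α} {τ : List α → V → V} {x y : V} {w : List α}
    (hw : w ∈ Z) (h : τ w x = y) : w ∈ Exactly Z τ 1 x y := by
  refine ⟨y, ?_⟩
  refine Language.mem_mul.2 ⟨w, ⟨hw, h⟩, [], ?_, by simp⟩
  exact ⟨rfl, rfl⟩

/-- moving the start of a good block inside the window keeps it a block -/
theorem xx_move {A A' C : List α} (h : A ++ C ∈ D.XX) (hE : ¬ D.Ebad (A ++ C))
    (hA : A.length ≤ D.p0 + D.N1) (hA' : A'.length ≤ D.p0 + D.N1)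
    (h1 : A'.length < A.length + D.N1) (h2 : A.length < A'.length + D.N1) :
    A' ++ C ∈ D.XX := by
  obtain ⟨hl, hw, hn⟩ := h
  have hz := D.hz
  have hlen : D.z + D.N1 ≤ (A ++ C).length := by
    by_contra hc
    exact hE ⟨(A ++ C).length, by omega, by omega, D.isW_len.2 hw⟩
  rw [List.length_append] at hlen
  have hC : D.n ≤ C.length := by omega
  refine ⟨by rw [List.length_append]; omega, (D.wloc A' C hC).2 ((D.wloc A C hC).1 hw), ?_⟩
  intro t ht1 ht2 ht3
  rw [List.length_append] at ht2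
  obtain ⟨τ, rfl⟩ : ∃ τ, t = A'.length + τ := ⟨t - A'.length, by omega⟩
  have hτ : D.n ≤ τ := by omega
  have h3 := (D.isW_app hτ).1 ht3
  have h4 : D.IsW (A ++ C) (A.length + τ) := (D.isW_app hτ).2 h3
  by_cases h5 : A.length + τ < D.z + D.N1
  · exact hE ⟨_, by omega, h5, h4⟩
  · exact hn _ (by omega) (by rw [List.length_append]; omega) h4

/-- completeness of scheme 1 -/
theorem C1 (u : List α) (hu : u ∈ D.XX) (hb : u ∉ D.Bad) (x : V) (t : List α)
    (ht : t ∈ D.XX ^ 0) : ∃ p q y, u ++ t = p ++ q ∧ p ∈ D.L1 x ∧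
      q ∈ Rsem D.XX D.XX D.T 0 D.L1 y := by
  have ht' : t = [] := by simpa using ht
  subst ht'
  have hE : ¬ D.Ebad u := fun h => hb ⟨hu, Or.inl h⟩
  have hB : ¬ D.Bd (u.length - D.p0) := fun h => hb ⟨hu, Or.inr h⟩
  have hz := D.hz
  have hul := hu.1
  set v := D.act x (D.φ (u.take D.p0)) + D.nu2 (u.take D.p0) with hv
  have hYl : (u.drop D.p0).length = u.length - D.p0 := List.length_drop
  obtain ⟨P, Q, hPQ, hP, hsem⟩ := D.hG (u.drop D.p0) (by rw [hYl]; omega)
    (by rw [hYl]; exact hB) v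
  have hPl := D.hlen _ _ hP
  have hX1 : (u.take D.p0).length = D.p0 := by rw [List.length_take]; omega
  have huu : u = (u.take D.p0 ++ P) ++ Q := by
    rw [List.append_assoc, ← hPQ, List.take_append_drop]
  refine ⟨u.take D.p0 ++ P, Q, D.T u x, by rw [List.append_nil]; exact huu, ?_, ?_⟩
  · refine ⟨by rw [List.length_append]; omega, ?_⟩
    have e1 : (u.take D.p0 ++ P).take D.p0 = u.take D.p0 := by
      rw [List.take_append_of_le_length (by omega), List.take_take, min_self]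
    have e2 : (u.take D.p0 ++ P).drop D.p0 = P := by
      rw [List.drop_append_of_le_length (by omega), List.drop_eq_nil_of_le (by omega),
        List.nil_append]
    rw [e1, e2]
    exact hP
  · intro x' p' hp'
    left
    obtain ⟨hp1, hp2⟩ := hp'
    have hp3 := D.hlen _ _ hp2
    rw [List.length_drop] at hp3
    have hAl : (u.take D.p0 ++ P).length = D.p0 + P.length := by
      rw [List.length_append, hX1]
    have hmem : p' ++ Q ∈ D.XX := by
      rw [huu] at hu hE
      exact D.xx_move hu hE (by omega) (by omega) (by omega) (by omega)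
    apply mem_exactly1 hmem
    have e1 : (p' ++ Q).take D.p0 = p'.take D.p0 := List.take_append_of_le_length hp1
    have e2 : (p' ++ Q).drop D.p0 = p'.drop D.p0 ++ Q := List.drop_append_of_le_length hp1
    have h1 := hsem _ _ hp2
    unfold T
    rw [e1, e2, h1]

/-- the first wall, as seen from the place `c k` with the hypothetical anchor `c k'` letters left -/
def FWw (w : List α) (k k' σ : ℕ) : Prop :=
  D.z + D.c k ≤ σ + D.c k' ∧ D.IsW w σ ∧
    ∀ σ' < σ, D.z + D.c k ≤ σ' + D.c k' → ¬ D.IsW w σ'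

def EE (w : List α) (k k' : ℕ) : Prop :=
  ∃ σ, D.z + D.c k ≤ σ + D.c k' + D.N1 ∧ σ + D.c k' < D.z + D.c k + D.N1 ∧ D.IsW w σ

def BadAt (w : List α) (k k' : ℕ) : Prop :=
  ∃ σ, D.FWw w k k' σ ∧ (D.EE w k k' ∨ D.Bd (σ + D.c k' - D.c k - D.p0))

theorem ee_unique {w : List α} {k₁ k₂ k₃ k₄ : ℕ} (h₁ : k₁ < D.K) (h₂ : k₂ < D.K) (h₃ : k₃ < D.K)
    (h₄ : k₄ < D.K) (h12 : k₁ ≠ k₂) (h34 : k₃ ≠ k₄) (h : D.EE w k₁ k₂) (h' : D.EE w k₃ k₄) :
    k₁ = k₃ := by
  obtain ⟨σ, a1, a2, a3⟩ := h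
  obtain ⟨σ', b1, b2, b3⟩ := h'
  have e1 := D.hc _ h₁
  have e2 := D.hc _ h₂
  have e3 := D.hc _ h₃
  have e4 := D.hc _ h₄
  have hW := D.hW
  have hσ : σ = σ' := by
    rcases lt_trichotomy σ σ' with hlt | heq | hgt
    · have := D.isW_gap a3 b3 hlt; omega
    · exact heq
    · have := D.isW_gap b3 a3 hgt; omega
  subst hσ
  refine (D.res k₁ h₁ k₂ h₂ k₃ h₃ k₄ h₄ h12 h34 ?_).1
  rw [abs_le]
  constructor <;> omega

theorem fw_unique {w : List α} {k₁ k₂ k₃ k₄ σ σ' : ℕ} (h₁ : k₁ < D.K) (h₂ : k₂ < D.K)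
    (h₃ : k₃ < D.K) (h₄ : k₄ < D.K) (h : D.FWw w k₁ k₂ σ) (h' : D.FWw w k₃ k₄ σ')
    (hn : σ ≤ D.z + D.p0 ↔ σ' ≤ D.z + D.p0) : σ = σ' := by
  obtain ⟨a1, a2, a3⟩ := h
  obtain ⟨b1, b2, b3⟩ := h'
  have e1 := D.hc _ h₁
  have e2 := D.hc _ h₂
  have e3 := D.hc _ h₃
  have e4 := D.hc _ h₄
  have hW := D.hW
  by_cases hσ : σ ≤ D.z + D.p0
  · have hσ' := hn.1 hσ
    rcases lt_trichotomy σ σ' with hlt | heq | hgt
    · have := D.isW_gap a2 b2 hlt; omega
    · exact heq
    · have := D.isW_gap b2 a2 hgt; omega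
  · have hσ' : ¬ σ' ≤ D.z + D.p0 := fun hh => hσ (hn.2 hh)
    rcases lt_trichotomy σ σ' with hlt | heq | hgt
    · exact absurd a2 (b3 σ hlt (by omega))
    · exact heq
    · exact absurd b2 (a3 σ' hgt (by omega))

/-- one family of spoiled places -/
theorem spoilB (w : List α) (pr : ℕ → Prop)
    (hpr : ∀ σ σ', pr σ → pr σ' → (σ ≤ D.z + D.p0 ↔ σ' ≤ D.z + D.p0)) :
    ∃ J : Finset ℕ, J.card ≤ D.rB ∧ ∀ k < D.K, ∀ k' < D.K, k' ≠ k → ∀ σ, pr σ →
      D.FWw w k k' σ → D.Bd (σ + D.c k' - D.c k - D.p0) → k ∈ J := by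
  classical
  by_cases h : ∃ k₁ < D.K, ∃ k₂ < D.K, ∃ σ, pr σ ∧ D.FWw w k₁ k₂ σ
  · obtain ⟨k₁, h₁, k₂, h₂, σ, hσ, hF⟩ := h
    have hz := D.hz
    have e1 := D.hc _ h₁
    have e2 := D.hc _ h₂
    have hF1 := hF.1
    obtain ⟨J, hJ, hJ'⟩ := D.thin (σ - D.p0) (by omega)
    refine ⟨J, hJ, ?_⟩
    intro k hk k' hk' hne τ hτ hFτ hB
    have hστ : σ = τ := D.fw_unique h₁ h₂ hk hk' hF hFτ (hpr _ _ hσ hτ)
    subst hστ
    apply hJ' k hk k' hk' hne
    have e3 := D.hc _ hk
    have e4 := D.hc _ hk'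
    have e5 : σ - D.p0 + D.c k' - D.c k = σ + D.c k' - D.c k - D.p0 := by omega
    rw [e5]
    exact hB
  · refine ⟨∅, by simp, ?_⟩
    intro k hk k' hk' _ τ hτ hFτ _
    exact absurd ⟨k, hk, k', hk', τ, hτ, hFτ⟩ h

theorem spoil (w : List α) : ∃ J : Finset ℕ, J.card ≤ 1 + 2 * D.rB ∧
    ∀ k < D.K, ∀ k' < D.K, k' ≠ k → D.BadAt w k k' → k ∈ J := by
  classical
  obtain ⟨J0, hJ0, hJ0'⟩ := D.spoilB w (fun σ => σ ≤ D.z + D.p0) (fun σ σ' h h' => ⟨fun _ => h', fun _ => h⟩)
  obtain ⟨J1, hJ1, hJ1'⟩ := D.spoilB w (fun σ => ¬ σ ≤ D.z + D.p0)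
    (fun σ σ' h h' => ⟨fun x => absurd x h, fun x => absurd x h'⟩)
  obtain ⟨JE, hJE, hJE'⟩ : ∃ J : Finset ℕ, J.card ≤ 1 ∧ ∀ k < D.K, ∀ k' < D.K, k' ≠ k →
      D.EE w k k' → k ∈ J := by
    by_cases h : ∃ k₁ < D.K, ∃ k₂ < D.K, k₂ ≠ k₁ ∧ D.EE w k₁ k₂
    · obtain ⟨k₁, h₁, k₂, h₂, hne, hEE⟩ := h
      refine ⟨{k₁}, by simp, ?_⟩
      intro k hk k' hk' hne' h'
      have := D.ee_unique h₁ h₂ hk hk' hne.symm hne'.symm hEE h'
      simp [this]
    · refine ⟨∅, by simp, ?_⟩
      intro k hk k' hk' hne' h'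
      exact absurd ⟨k, hk, k', hk', hne', h'⟩ h
  refine ⟨JE ∪ J0 ∪ J1, ?_, ?_⟩
  · have h1 := Finset.card_union_le (JE ∪ J0) J1
    have h2 := Finset.card_union_le JE J0
    omega
  · rintro k hk k' hk' hne ⟨σ, hF, hE | hB⟩
    · exact Finset.mem_union_left _ (Finset.mem_union_left _ (hJE' k hk k' hk' hne hE))
    · by_cases hσ : σ ≤ D.z + D.p0
      · exact Finset.mem_union_left _ (Finset.mem_union_right _ (hJ0' k hk k' hk' hne σ hσ hF hB))
      · exact Finset.mem_union_right _ (hJ1' k hk k' hk' hne σ hσ hF hB)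

/-- walls of the word with another left end -/
theorem isW_swap {w A' : List α} {a s : ℕ} (ha : a ≤ w.length) (hs : A'.length + D.n ≤ s) :
    D.IsW (A' ++ w.drop a) s ↔ D.IsW w (s + a - A'.length) := by
  obtain ⟨τ, rfl⟩ : ∃ τ, s = A'.length + τ := ⟨s - A'.length, by omega⟩
  have hτ : D.n ≤ τ := by omega
  rw [D.isW_app hτ]
  have h1 : A'.length + τ + a - A'.length = (w.take a).length + τ := by
    rw [List.length_take]; omega
  rw [h1]
  have h2 := D.isW_app (A := w.take a) (C := w.drop a) hτ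
  rw [List.take_append_drop] at h2
  rw [h2]

/-- completeness of scheme 2 -/
theorem C2 (u : List α) (hu : u ∈ D.Bad) (x : V) (t : List α)
    (ht : t ∈ D.Bad ^ 1) : ∃ p q y, u ++ t = p ++ q ∧ p ∈ D.L2 x ∧
      q ∈ Rsem D.XX D.Bad D.T 1 D.L2 y := by
  classical
  have ht' : t ∈ D.Bad := by simpa using ht
  have hz := D.hz
  have hul := hu.1.1
  have htl := ht'.1.1
  have hX1 : (u.take D.p0).length = D.p0 := by rw [List.length_take]; omega
  obtain ⟨J, hJ, hJ'⟩ := D.spoil (u ++ t)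
  obtain ⟨I, hI, hI'⟩ := D.hE (u.take D.p0) x hX1.symm
  obtain ⟨k, hkI, hkJ⟩ : ∃ k ∈ I, k ∉ J := by
    by_contra h
    push Not at h
    have := Finset.card_le_card (show I ⊆ J from h)
    omega
  obtain ⟨hk, hlam, hsem⟩ := hI' k hkI
  have hck := D.hc k hk
  have e0 : (u.take D.p0).take (D.c k) = u.take (D.c k) := by
    rw [List.take_take, min_eq_left hck]
  have hcl : (u.take (D.c k)).length = D.c k := by rw [List.length_take]; omega
  have hdrop : (u ++ t).drop (D.c k) = u.drop (D.c k) ++ t :=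
    List.drop_append_of_le_length (by omega)
  have hcw : D.c k ≤ (u ++ t).length := by rw [List.length_append]; omega
  refine ⟨u.take (D.c k), u.drop (D.c k) ++ t, D.T t (D.T u x), ?_, ?_, ?_⟩
  · rw [← List.append_assoc, List.take_append_drop]
  · exact ⟨k, hk, hcl, e0 ▸ hlam⟩
  · rintro x' p' ⟨k', hk', hpl, hplam⟩
    have hck' := D.hc k' hk'
    by_cases hkk : k' = k
    · subst hkk
      left
      -- the new first block
      have hlen : (p' ++ u.drop (D.c k')).length = u.length := by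
        rw [List.length_append, List.length_drop, hpl]; omega
      have hW : ∀ s, D.c k' + D.n ≤ s → (D.IsW (p' ++ u.drop (D.c k')) s ↔ D.IsW u s) := by
        intro s hs
        rw [D.isW_swap (by omega) (by rw [hpl]; exact hs), hpl]
        have : s + D.c k' - D.c k' = s := by omega
        rw [this]
      have hmem : p' ++ u.drop (D.c k') ∈ D.XX := by
        refine ⟨by rw [hlen]; exact hul, ?_, ?_⟩
        · rw [← D.isW_len, hlen, hW _ (by omega), D.isW_len]
          exact hu.1.2.1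
        · intro s hs1 hs2 hs3
          rw [hlen] at hs2
          exact hu.1.2.2 s hs1 hs2 ((hW s (by omega)).1 hs3)
      have hmemB : p' ++ u.drop (D.c k') ∈ D.Bad := by
        refine ⟨hmem, ?_⟩
        rw [hlen]
        rcases hu.2 with ⟨s, hs1, hs2, hs3⟩ | hB
        · exact Or.inl ⟨s, hs1, hs2, (hW s (by omega)).2 hs3⟩
        · exact Or.inr hB
      have hTe : D.T (p' ++ u.drop (D.c k')) x' = D.T u x := by
        have e1 : (p' ++ u.drop (D.c k')).take D.p0 = p' ++ (u.take D.p0).drop (D.c k') := by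
          rw [List.take_append, List.take_of_length_le (by omega), hpl, ← List.drop_take]
        have e2 : (p' ++ u.drop (D.c k')).drop D.p0 = u.drop D.p0 := by
          rw [List.drop_append, List.drop_eq_nil_of_le (by omega), List.nil_append, List.drop_drop,
            hpl]
          congr 1
          omega
        have h1 := hsem x' p' hpl hplam
        unfold T
        rw [e1, e2, h1]
      have hass : p' ++ (u.drop (D.c k') ++ t) = (p' ++ u.drop (D.c k')) ++ t := by
        rw [List.append_assoc]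
      rw [hass]
      refine ⟨D.T u x, Language.mem_mul.2 ⟨_, ⟨hmemB, hTe⟩, t, ?_, rfl⟩⟩
      exact mem_exactly1 ht' rfl
    · right
      left
      -- the first block of the wrong anchor
      set w'' := p' ++ (u.drop (D.c k) ++ t) with hw''
      have hw''l : w''.length = D.c k' + (u.length - D.c k + t.length) := by
        rw [hw'', List.length_append, List.length_append, List.length_drop, hpl]
      have hend : D.IsW w'' w''.length := by
        rw [D.isW_len, hw'', ← List.append_assoc]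
        exact (D.wloc _ t (by omega)).2 ht'.1.2.1
      have hex : ∃ s, D.z ≤ s ∧ D.IsW w'' s := ⟨w''.length, by omega, hend⟩
      obtain ⟨s, hs, hsmin⟩ : ∃ s, (D.z ≤ s ∧ D.IsW w'' s) ∧ ∀ s' < s, ¬ (D.z ≤ s' ∧ D.IsW w'' s') :=
        ⟨Nat.find hex, Nat.find_spec hex, fun s' h => Nat.find_min hex h⟩
      have hsl : s ≤ w''.length := hs.2.1
      have htl' : (w''.take s).length = s := by rw [List.length_take]; omega
      have hmem : w''.take s ∈ D.XX := by
        refine ⟨by rw [htl']; exact hs.1, hs.2.2, ?_⟩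
        intro r hr1 hr2 hr3
        rw [htl'] at hr2
        exact hsmin r hr2 ⟨hr1, (D.isW_take hr2.le hsl).1 hr3⟩
      refine ⟨w''.take s, hmem, ?_, List.take_prefix _ _⟩
      intro hbad
      apply hkJ
      have hsw : ∀ r, D.c k' + D.n ≤ r → (D.IsW w'' r ↔ D.IsW (u ++ t) (r + D.c k - D.c k')) := by
        intro r hr
        have := D.isW_swap (A' := p') hcw (s := r) (by rw [hpl]; exact hr)
        rw [hdrop, hpl] at this
        exact this
      refine hJ' k hk k' hk' hkk ⟨s + D.c k - D.c k', ⟨by omega, ?_, ?_⟩, ?_⟩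
      · exact (hsw s (by omega)).1 hs.2
      · intro σ' hσ1 hσ2 hσ3
        refine hsmin (σ' + D.c k' - D.c k) (by omega) ⟨by omega, ?_⟩
        rw [hsw _ (by omega)]
        have : σ' + D.c k' - D.c k + D.c k - D.c k' = σ' := by omega
        rw [this]
        exact hσ3
      · rcases hbad.2 with ⟨r, hr1, hr2, hr3⟩ | hB
        · left
          have hr4 : r ≤ s := by
            have := hr3.1
            rw [htl'] at this
            exact this
          have hr5 := (D.isW_take hr4 hsl).1 hr3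
          exact ⟨r + D.c k - D.c k', by omega, by omega, (hsw r (by omega)).1 hr5⟩
        · right
          rw [htl'] at hB
          have : s + D.c k - D.c k' + D.c k' - D.c k - D.p0 = s - D.p0 := by omega
          rw [this]
          exact hB

end Dat

end Crest.Agent.R320.Inst_385
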