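import Mathlib

/-!
Row 320, P2 / P3 in the literal form of 163's `top` (s1, s2, cc): natural chain rule
"first wall >= z" with LEFT-LOOKING walls on all words, scheme 1 = any gadget whose failure modes are
(E) wall band and (B) `BadT` of the clock total, scheme 2 = exact gadget on the first `p0` letters with a
spoil bound.
-/

set_option autoImplicit false

namespace Crest.Agent.R320.Inst_399

variable {α S V : Type*}

/-- all data of the two schemes -/
structure Dat (α S V : Type*) where
  φ : List α → S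
  act : V → S → V
  Wo : List α → Prop
  n : ℕ
  z : ℕ
  p0 : ℕ
  N1 : ℕ
  LL : List α → V → Prop
  RR : List α → Option V
  nu1 : List α → V
  BadT : ℕ → Prop
  K : ℕ
  x : ℕ → ℕ
  lam : ℕ → List α → V → Prop
  rho : ℕ → List α → Option V
  nu2 : List α → V

variable (D : Dat α S V)

/-- the block code: first wall at a place `>= z` -/
def XX : Set (List α) :=
  {X | D.z ≤ X.length ∧ D.Wo X ∧ ∀ t, D.z ≤ t → t < X.length → ¬ D.Wo (X.take t)}

/-- right words of scheme 1 -/
def QQ : Set (List α) :=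
  {Q | D.z ≤ Q.length + D.p0 ∧ D.Wo Q ∧
    ∀ t, D.z ≤ t + D.p0 + D.N1 → t < Q.length → ¬ D.Wo (Q.take t)}

/-- token at `p0` -/
def T0 [Add V] (v : V) (X1 : List α) : V := D.act v (D.φ X1) + D.nu2 X1
def TY [Add V] (y : V) (Y : List α) : V := D.act y (D.φ Y) + D.nu1 Y
/-- the zone map -/
def T [Add V] (v : V) (X : List α) : V := TY D (T0 D v (X.take D.p0)) (X.drop D.p0)

def LP1 [Add V] (P : List α) (v : V) : Prop :=
  D.p0 ≤ P.length ∧ D.LL (P.drop D.p0) (T0 D v (P.take D.p0))

open Classical in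
noncomputable def R1 (Q : List α) : Option V := if Q ∈ QQ D then D.RR Q else none

/-- (E): a wall in the band -/
def EE (x : ℕ) (Q : List α) : Prop :=
  ∃ t, D.n ≤ t ∧ t ≤ Q.length ∧ D.Wo (Q.take t) ∧ D.z ≤ x + t + D.N1 ∧ x + t < D.z + D.N1
/-- end of the virtual block which starts `x` letters before `Q` -/
def End (x : ℕ) (Q : List α) (t : ℕ) : Prop :=
  D.n ≤ t ∧ t ≤ Q.length ∧ D.Wo (Q.take t) ∧ D.z ≤ x + t ∧
    ∀ t', D.n ≤ t' → t' < t → D.z ≤ x + t' → ¬ D.Wo (Q.take t')
def BB (x : ℕ) (Q : List α) : Prop := ∃ t, End D x Q t ∧ D.BadT (x + t - D.p0)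
def St (x : ℕ) (Q : List α) : Prop := EE D x Q ∨ BB D x Q

def LP2 (P : List α) (v : V) : Prop := ∃ j < D.K, P.length = D.x j ∧ D.lam j P v

/-- right-legal with index `j`, end `t` of the first block and token `y` at `p0` -/
def Rl2 (Q : List α) (j t : ℕ) (y : V) : Prop :=
  j < D.K ∧ (∀ i < D.K, St D (D.x i) Q → i = j) ∧ St D (D.x j) Q ∧ End D (D.x j) Q t ∧
    Q.drop t ∈ XX D ∧ D.rho j (Q.take (D.p0 - D.x j)) = some y

open Classical in
noncomputable def R2 [Add V] (Q : List α) : Option V :=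
  if h : ∃ b, ∃ j t y, Rl2 D Q j t y ∧ b = T D (TY D y ((Q.take t).drop (D.p0 - D.x j))) (Q.drop t)
  then some h.choose else none

structure Ok [Monoid S] [AddCommGroup V] : Prop where
  φ_app : ∀ u v, D.φ (u ++ v) = D.φ u * D.φ v
  act_mul : ∀ v s s', D.act (D.act v s) s' = D.act v (s * s')
  act_add : ∀ v w s, D.act (v + w) s = D.act v s + D.act w s
  loc : ∀ U W : List α, D.n ≤ W.length → (D.Wo (U ++ W) ↔ D.Wo W)
  npos : 0 < D.n
  won : ∀ W, D.Wo W → D.n ≤ W.length
  hz : D.p0 + D.N1 + D.n ≤ D.z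
  LLlen : ∀ P v, D.LL P v → P.length ≤ D.N1
  sound1 : ∀ P Q v b, D.LL P v → D.RR Q = some b → TY D v (P ++ Q) = b
  comp1 : ∀ Y, D.z ≤ Y.length + D.p0 → ¬ D.BadT Y.length → ∀ v, ∃ P Q, P ++ Q = Y ∧ D.LL P v ∧
    (D.RR Q).isSome
  xlt : ∀ j < D.K, D.x j < D.p0
  xinj : ∀ j < D.K, ∀ i < D.K, D.x i = D.x j → i = j
  sound2 : ∀ j < D.K, ∀ P Q v b, P.length = D.x j → Q.length = D.p0 - D.x j → D.lam j P v →
    D.rho j Q = some b → T0 D v (P ++ Q) = b

variable {D}

theorem take_app (P Q : List α) (t : ℕ) : (P ++ Q).take (P.length + t) = P ++ Q.take t := by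
  rw [List.take_append]; simp [List.take_of_length_le]

section
variable [Monoid S] [AddCommGroup V]

theorem Ok.wo_right (h : Ok D) (P Q : List α) {t : ℕ} (h1 : D.n ≤ t) (h2 : t ≤ Q.length) :
    D.Wo ((P ++ Q).take (P.length + t)) ↔ D.Wo (Q.take t) := by
  rw [take_app]
  exact h.loc _ _ (by rw [List.length_take]; omega)

theorem Ok.wo_all (h : Ok D) (P Q : List α) (h2 : D.n ≤ Q.length) :
    D.Wo (P ++ Q) ↔ D.Wo Q := h.loc _ _ h2

theorem XX_nil (h : Ok D) : [] ∉ XX D := by
  rintro ⟨h1, _, _⟩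
  have := h.hz; have := h.npos
  simp at h1; omega

theorem XX_prefix : ∀ X ∈ XX D, ∀ Y, X ++ Y ∈ XX D → Y = [] := by
  rintro X ⟨h1, h2, h3⟩ Y ⟨h4, h5, h6⟩
  by_contra hY
  have hl : 0 < Y.length := List.length_pos_iff.2 hY
  refine h6 X.length h1 (by rw [List.length_append]; omega) ?_
  rw [List.take_left']
  · exact h2
  · rfl

/-- SOUNDNESS of scheme 1 -/
theorem Ok.s1 (h : Ok D) : ∀ P v Q b, LP1 D P v → R1 D Q = some b →
    P ++ Q ∈ XX D ∧ T D v (P ++ Q) = b := by
  classical
  intro P v Q b hP hQ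
  obtain ⟨hp, hL⟩ := hP
  unfold R1 at hQ
  split_ifs at hQ with hq
  obtain ⟨q1, q2, q3⟩ := hq
  have hN := h.LLlen _ _ hL
  rw [List.length_drop] at hN
  have hz := h.hz
  have hpl : P.length ≤ D.p0 + D.N1 := by omega
  have hQn : D.n ≤ Q.length := h.won Q q2
  refine ⟨⟨by rw [List.length_append]; omega, (h.wo_all P Q hQn).2 q2, ?_⟩, ?_⟩
  · intro t ht1 ht2
    obtain ⟨s, rfl⟩ : ∃ s, t = P.length + s := ⟨t - P.length, by omega⟩
    rw [List.length_append] at ht2
    rw [h.wo_right P Q (by omega) (by omega)]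
    exact q3 s (by omega) (by omega)
  · have e1 : (P ++ Q).take D.p0 = P.take D.p0 := List.take_append_of_le_length hp
    have e2 : (P ++ Q).drop D.p0 = P.drop D.p0 ++ Q := List.drop_append_of_le_length hp
    unfold T
    rw [e1, e2]
    exact h.sound1 _ _ _ _ hL hQ

/-- COMPLETENESS of scheme 1 off (E), (B) -/
theorem Ok.c1 (h : Ok D) {X : List α} (hX : X ∈ XX D) (hS : ¬ St D 0 X) (v : V) :
    ∃ P Q, X = P ++ Q ∧ D.p0 ≤ P.length ∧ LP1 D P v ∧ (R1 D Q).isSome := by
  classical
  obtain ⟨x1, x2, x3⟩ := hX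
  have hz := h.hz
  have hXn : D.n ≤ X.length := by omega
  have hE : ¬ EE D 0 X := fun e => hS (Or.inl e)
  have hB : ¬ D.BadT (X.length - D.p0) := by
    intro hb
    refine hS (Or.inr ⟨X.length, ⟨hXn, le_rfl, by rw [List.take_length]; exact x2, by omega, ?_⟩, ?_⟩)
    · intro t' _ h2 h3
      exact x3 t' (by omega) h2
    · rw [zero_add]; exact hb
  have hlen : D.z + D.N1 ≤ X.length := by
    by_contra hc
    exact hE ⟨X.length, hXn, le_rfl, by rw [List.take_length]; exact x2, by omega, by omega⟩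
  obtain ⟨P', Q, e, hL, hR⟩ := h.comp1 (X.drop D.p0) (by rw [List.length_drop]; omega)
    (by rw [List.length_drop]; exact hB) (T0 D v (X.take D.p0))
  have hP' := h.LLlen _ _ hL
  have hpl : (X.take D.p0).length = D.p0 := by rw [List.length_take]; omega
  have hXe : X = (X.take D.p0 ++ P') ++ Q := by
    rw [List.append_assoc, e, List.take_append_drop]
  have hQl : X.length = D.p0 + P'.length + Q.length := by
    conv_lhs => rw [hXe]
    rw [List.length_append, List.length_append, hpl]
  have hPPl : (X.take D.p0 ++ P').length = D.p0 + P'.length := by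
    rw [List.length_append, hpl]
  refine ⟨X.take D.p0 ++ P', Q, hXe, by omega, ⟨by omega, ?_⟩, ?_⟩
  · have e1 : (X.take D.p0 ++ P').take D.p0 = X.take D.p0 := by
      rw [List.take_append_of_le_length (by omega), List.take_of_length_le (by omega)]
    have e2 : (X.take D.p0 ++ P').drop D.p0 = P' := by
      rw [List.drop_append_of_le_length (by omega), List.drop_of_length_le (by omega),
        List.nil_append]
    rw [e1, e2]; exact hL
  · have hQQ : Q ∈ QQ D := by
      refine ⟨by omega, ?_, ?_⟩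
      · rw [hXe] at x2
        exact (h.wo_all _ Q (by omega)).1 x2
      · intro t t1 t2 hw
        have hw' := (h.wo_right (X.take D.p0 ++ P') Q (by omega) (by omega)).2 hw
        rw [← hXe, hPPl] at hw'
        by_cases hzt : D.z ≤ D.p0 + P'.length + t
        · exact x3 _ hzt (by omega) hw'
        · exact hE ⟨D.p0 + P'.length + t, by omega, by omega, hw', by omega, by omega⟩
    unfold R1
    rw [if_pos hQQ]; exact hR

theorem End_unique {x : ℕ} {Q : List α} {t t' : ℕ} (h1 : End D x Q t) (h2 : End D x Q t') : t = t' := by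
  obtain ⟨a1, a2, a3, a4, a5⟩ := h1
  obtain ⟨b1, b2, b3, b4, b5⟩ := h2
  rcases lt_trichotomy t t' with h | h | h
  · exact absurd a3 (b5 t a1 h a4)
  · exact h
  · exact absurd b3 (a5 t' b1 h b4)

theorem Rl2_unique {Q : List α} {j t j' t' : ℕ} {y y' : V} (h1 : Rl2 D Q j t y)
    (h2 : Rl2 D Q j' t' y') : j = j' ∧ t = t' ∧ y = y' := by
  obtain ⟨a1, a2, a3, a4, a5, a6⟩ := h1
  obtain ⟨b1, b2, b3, b4, b5, b6⟩ := h2
  have hj : j = j' := b2 j a1 a3
  subst hj
  refine ⟨rfl, End_unique a4 b4, ?_⟩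
  rw [a6] at b6
  exact Option.some.inj b6

theorem R2_iff {Q : List α} {b : V} : R2 D Q = some b ↔
    ∃ j t y, Rl2 D Q j t y ∧ b = T D (TY D y ((Q.take t).drop (D.p0 - D.x j))) (Q.drop t) := by
  classical
  unfold R2
  constructor
  · intro h
    split_ifs at h with h1
    have := h1.choose_spec
    rw [Option.some.inj h] at this
    exact this
  · intro h
    have h1 : ∃ b, ∃ j t y, Rl2 D Q j t y ∧
      b = T D (TY D y ((Q.take t).drop (D.p0 - D.x j))) (Q.drop t) := ⟨b, h⟩
    rw [dif_pos h1]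
    obtain ⟨j, t, y, hr, hb⟩ := h
    obtain ⟨j', t', y', hr', hb'⟩ := h1.choose_spec
    obtain ⟨e1, e2, e3⟩ := Rl2_unique hr hr'
    subst e1 e2 e3
    rw [hb, ← hb']

/-- block statuses do not depend on where the word is cut -/
theorem Ok.St_shift (h : Ok D) {P Q : List α} {x : ℕ} (hP : P.length + x + D.N1 + D.n ≤ D.z) :
    St D (x + P.length) Q ↔ St D x (P ++ Q) := by
  have hE : EE D (x + P.length) Q ↔ EE D x (P ++ Q) := by
    constructor
    · rintro ⟨t, a, b, c, d, e⟩
      exact ⟨P.length + t, by omega, by rw [List.length_append]; omega, (h.wo_right P Q a b).2 c,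
        by omega, by omega⟩
    · rintro ⟨t, a, b, c, d, e⟩
      obtain ⟨s, rfl⟩ : ∃ s, t = P.length + s := ⟨t - P.length, by omega⟩
      rw [List.length_append] at b
      exact ⟨s, by omega, by omega, (h.wo_right P Q (by omega) (by omega)).1 c, by omega, by omega⟩
  have hEnd : ∀ t, End D (x + P.length) Q t ↔ End D x (P ++ Q) (P.length + t) := by
    intro t
    constructor
    · rintro ⟨a, b, c, d, e⟩
      refine ⟨by omega, by rw [List.length_append]; omega, (h.wo_right P Q a b).2 c, by omega, ?_⟩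
      intro t' t1 t2 t3
      obtain ⟨s, rfl⟩ : ∃ s, t' = P.length + s := ⟨t' - P.length, by omega⟩
      rw [h.wo_right P Q (by omega) (by omega)]
      exact e s (by omega) (by omega) (by omega)
    · rintro ⟨a, b, c, d, e⟩
      rw [List.length_append] at b
      have hn : D.n ≤ t := by omega
      refine ⟨hn, by omega, (h.wo_right P Q hn (by omega)).1 c, by omega, ?_⟩
      intro t' t1 t2 t3
      have := e (P.length + t') (by omega) (by omega) (by omega)
      rwa [h.wo_right P Q (by omega) (by omega)] at this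
  unfold St BB
  rw [hE]
  refine or_congr Iff.rfl ⟨?_, ?_⟩
  · rintro ⟨t, a, b⟩
    exact ⟨P.length + t, (hEnd t).1 a, by rwa [← add_assoc]⟩
  · rintro ⟨t, a, b⟩
    obtain ⟨s, rfl⟩ : ∃ s, t = P.length + s := ⟨t - P.length, by
      have := a.2.2.2.1; omega⟩
    exact ⟨s, (hEnd s).2 a, by rwa [← add_assoc] at b⟩


theorem EE_mono {x : ℕ} {Q Z : List α} (h : EE D x Q) : EE D x (Q ++ Z) := by
  obtain ⟨t, a, b, c, d, e⟩ := h
  exact ⟨t, a, by rw [List.length_append]; omega, by
    rw [List.take_append_of_le_length b]; exact c, d, e⟩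

theorem End_mono {x t : ℕ} {Q Z : List α} (h : End D x Q t) : End D x (Q ++ Z) t := by
  obtain ⟨a, b, c, d, e⟩ := h
  refine ⟨a, by rw [List.length_append]; omega, by
    rw [List.take_append_of_le_length b]; exact c, d, ?_⟩
  intro t' t1 t2 t3
  rw [List.take_append_of_le_length (by omega)]
  exact e t' t1 t2 t3

theorem St_mono {x : ℕ} {Q Z : List α} (h : St D x Q) : St D x (Q ++ Z) := by
  rcases h with h | ⟨t, a, b⟩
  · exact Or.inl (EE_mono h)
  · exact Or.inr ⟨t, End_mono a, b⟩

theorem Ok.end_XX (h : Ok D) {P Q : List α} {s : ℕ} (hP : P.length ≤ D.p0) :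
    End D P.length Q s ↔ s ≤ Q.length ∧ P ++ Q.take s ∈ XX D := by
  have hz := h.hz
  constructor
  · rintro ⟨a, b, c, d, e⟩
    have hl : (P ++ Q.take s).length = P.length + s := by
      rw [List.length_append, List.length_take]; omega
    refine ⟨b, by omega, ?_, ?_⟩
    · exact (h.loc _ _ (by rw [List.length_take]; omega)).2 c
    · intro t t1 t2
      obtain ⟨u, rfl⟩ : ∃ u, t = P.length + u := ⟨t - P.length, by omega⟩
      rw [h.wo_right _ _ (by omega) (by rw [List.length_take]; omega), List.take_take,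
        min_eq_left (by omega)]
      exact e u (by omega) (by omega) (by omega)
  · rintro ⟨b, x1, x2, x3⟩
    have hl : (P ++ Q.take s).length = P.length + s := by
      rw [List.length_append, List.length_take]; omega
    rw [hl] at x1 x3
    refine ⟨by omega, b, ?_, x1, ?_⟩
    · exact (h.loc _ _ (by rw [List.length_take]; omega)).1 x2
    · intro u u1 u2 u3 hw
      refine x3 (P.length + u) u3 (by omega) ?_
      rw [h.wo_right _ _ u1 (by rw [List.length_take]; omega), List.take_take,
        min_eq_left (by omega)]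
      exact hw

/-- SOUNDNESS of scheme 2 in 163's form -/
theorem Ok.s2 (h : Ok D) : ∀ P v Q b, LP2 D P v → R2 D Q = some b →
    (∀ X ∈ XX D, X <+: P ++ Q → ∀ P' Q', X = P' ++ Q' → P.length ≤ P'.length → LP1 D P' v →
      (R1 D Q').isSome → False) →
    ∃ Q1 X2, Q = Q1 ++ X2 ∧ Q1 ≠ [] ∧ P ++ Q1 ∈ XX D ∧ X2 ∈ XX D ∧
      T D (T D v (P ++ Q1)) X2 = b := by
  classical
  intro P v Q b hP hQ hcut
  obtain ⟨j, hj, hPl, hlam⟩ := hP
  obtain ⟨j', t, y, ⟨hj', huniq, hst, hend, hX2, hrho⟩, hb⟩ := R2_iff.1 hQ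
  have hz := h.hz
  have hx := h.xlt j hj
  have hx2 := hX2
  obtain ⟨a1, a2, a3⟩ := hx2
  have hQl : D.z ≤ Q.length := by rw [List.length_drop] at a1; omega
  have hex : ∃ s, D.n ≤ s ∧ s ≤ Q.length ∧ D.z ≤ P.length + s ∧ D.Wo (Q.take s) := by
    refine ⟨Q.length, by omega, le_rfl, by omega, ?_⟩
    rw [List.take_length]
    have := (h.loc (Q.take t) (Q.drop t) (by omega)).2 a2
    rwa [List.take_append_drop] at this
  obtain ⟨f1, f2, f3, f4⟩ := Nat.find_spec hex
  have hend0 : End D P.length Q (Nat.find hex) := by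
    refine ⟨f1, f2, f4, f3, ?_⟩
    intro t' t1 t2 t3 t4
    exact Nat.find_min hex t2 ⟨t1, by omega, t3, t4⟩
  set s := Nat.find hex with hs
  have hXX : P ++ Q.take s ∈ XX D := ((h.end_XX (by omega)).1 hend0).2
  have hSt : St D (D.x j) Q := by
    have h0 : St D 0 (P ++ Q.take s) := by
      by_contra hns
      obtain ⟨P', Q', e1, e2, e3, e4⟩ := h.c1 hXX hns v
      refine hcut _ hXX ?_ P' Q' e1 (by omega) e3 e4
      exact (List.prefix_append_right_inj P).2 (List.take_prefix _ _)
    have h1 : St D (0 + P.length) (Q.take s) := (h.St_shift (by omega)).2 h0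
    have h2 := St_mono (Z := Q.drop s) h1
    rwa [List.take_append_drop, zero_add, hPl] at h2
  have hjj : j = j' := huniq j hj hSt
  subst hjj
  rw [hPl] at hend0
  have hts : t = s := End_unique hend hend0
  rw [← hts] at hXX f3
  have ht : t ≤ Q.length := hend.2.1
  refine ⟨Q.take t, Q.drop t, (List.take_append_drop _ _).symm, ?_, hXX, hX2, ?_⟩
  · intro he
    have h1 := congrArg List.length he
    rw [List.length_take, List.length_nil] at h1
    have hn := h.npos
    have h2 := hend.1
    omega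
  · rw [hb]
    have e1 : (P ++ Q.take t).take D.p0 = P ++ Q.take (D.p0 - D.x j) := by
      rw [List.take_append, hPl, List.take_of_length_le (by omega), List.take_take,
        min_eq_left (by omega)]
    have e2 : (P ++ Q.take t).drop D.p0 = (Q.take t).drop (D.p0 - D.x j) := by
      rw [List.drop_append, hPl, List.drop_of_length_le (by omega), List.nil_append]
    have e3 : T0 D v (P ++ Q.take (D.p0 - D.x j)) = y :=
      h.sound2 j hj P _ v y hPl (by rw [List.length_take]; omega) hlam hrho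
    unfold T
    rw [e1, e2, e3]

/-- completeness of the two schemes in 163's form, from the spoil hypothesis -/
theorem Ok.cc (h : Ok D)
    (hG : ∀ X X2 v, X ∈ XX D → X2 ∈ XX D → St D 0 X → ∃ j < D.K, D.lam j (X.take (D.x j)) v ∧
      (D.rho j ((X.drop (D.x j)).take (D.p0 - D.x j))).isSome ∧
      ∀ i < D.K, St D (D.x i) (X.drop (D.x j) ++ X2) → i = j) :
    ∀ X ∈ XX D, ∀ X2 ∈ XX D, ∀ v, (∃ P Q, X = P ++ Q ∧ LP1 D P v ∧ (R1 D Q).isSome) ∨
      (∃ P Q, X ++ X2 = P ++ Q ∧ P.length < X.length ∧ LP2 D P v ∧ (R2 D Q).isSome) := by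
  classical
  intro X hX X2 hX2 v
  by_cases hS : St D 0 X
  · right
    obtain ⟨j, hj, h1, h2, h3⟩ := hG X X2 v hX hX2 hS
    obtain ⟨y, hy⟩ := Option.isSome_iff_exists.1 h2
    have hz := h.hz
    have hx := h.xlt j hj
    have hXl := hX.1
    have hl : (X.take (D.x j)).length = D.x j := by rw [List.length_take]; omega
    have hl2 : (X.drop (D.x j)).length = X.length - D.x j := by rw [List.length_drop]
    refine ⟨X.take (D.x j), X.drop (D.x j) ++ X2, ?_, by omega, ⟨j, hj, hl, h1⟩, ?_⟩
    · rw [← List.append_assoc, List.take_append_drop]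
    · have hS' : St D (D.x j) (X.drop (D.x j)) := by
        have := (h.St_shift (P := X.take (D.x j)) (Q := X.drop (D.x j)) (x := 0) (by omega)).2
          (by rw [List.take_append_drop]; exact hS)
        rwa [hl, zero_add] at this
      have hE : End D (D.x j) (X.drop (D.x j)) (X.length - D.x j) := by
        have := (h.end_XX (P := X.take (D.x j)) (Q := X.drop (D.x j))
          (s := X.length - D.x j) (by omega)).2 ⟨by omega, by
            rw [← hl2, List.take_length, List.take_append_drop]; exact hX⟩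
        rwa [hl] at this
      have : R2 D (X.drop (D.x j) ++ X2) = some (T D (TY D y
          (((X.drop (D.x j) ++ X2).take (X.length - D.x j)).drop (D.p0 - D.x j)))
          ((X.drop (D.x j) ++ X2).drop (X.length - D.x j))) := by
        refine R2_iff.2 ⟨j, X.length - D.x j, y, ⟨hj, h3, St_mono hS', End_mono hE, ?_, ?_⟩, rfl⟩
        · rw [List.drop_left' (by omega)]; exact hX2
        · rw [List.take_append_of_le_length (by omega)]; exact hy
      rw [this]; rfl
  · left
    obtain ⟨P, Q, e1, e2, e3, e4⟩ := h.c1 hX hS v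
    exact ⟨P, Q, e1, e3, e4⟩

end

end Crest.Agent.R320.Inst_399
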