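import Crest.Agent.R320.Gad1_420
import Crest.Agent.R320.Names_727
import Crest.Agent.R320.RandF_808

/-!
Row 320, helper409: instance of the name system and of the noise function for `Gad1_420.gadget1`
(`Names_727.exists_names` and `RandF_808.exists_noise`).
-/

set_option autoImplicit false

namespace Crest.Agent.R320.Inst_409

open Crest.Agent.R320 Crest.Agent.R320.Gad1_420

/-- the data with given geometry. -/
def mkDat {α S V W : Type*} (φ : List α → S) (act : V → S → V) (m : ℕ) (e : ℕ → S → W)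
    (F : S → W → V) (R : List α → Prop) (n G M M' : ℕ) (A A' : ℕ → ℕ)
    (LN RN : ℕ → Fin m × S × W × S × W × V → Prop) : Dat α S V W where
  φ := φ
  act := act
  m := m
  e := e
  F := F
  R := R
  n := n
  G := G
  M := M
  M' := M'
  A := A
  A' := A'
  LN := LN
  RN := RN

/-- **Names for the gadget.** -/
theorem inst_names (S V W : Type*) [Finite S] [Finite V] [Finite W] [Nonempty V] (m : ℕ) :
    ∃ r : ℕ, ∀ B : ℕ, ∃ (ms : Finset ℕ) (M : ℕ)
      (LN RN : ℕ → Fin m × S × W × S × W × V → Prop),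
      ms.card ≤ r ∧ (∀ q ∈ ms, B < q) ∧
      (∀ q ∈ ms, ∀ q' ∈ ms, q ≠ q' → Nat.Coprime q q') ∧ 0 < M ∧ (∀ q ∈ ms, q ∣ M) ∧
      (∀ o c c', LN o c → LN o c' → c = c') ∧ (∀ o c c', RN o c → RN o c' → c = c') ∧
      (∀ o c, LN (o + M) c ↔ LN o c) ∧ (∀ o c, RN (o + M) c ↔ RN o c) ∧
      ∀ T, ((∀ q ∈ ms, ¬ q ∣ T) →
          (∀ o o' c c', o + o' = T → LN o c → RN o' c' → c = c') ∧
          (∀ c s, s + M ≤ T + 1 → ∃ o, s ≤ o ∧ o < s + M ∧ o ≤ T ∧ LN o c ∧ RN (T - o) c)) ∧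
        ((∃ q ∈ ms, q ∣ T) → ∀ o o' c c' p p' d d', o + o' = T → p + p' = T →
          LN o c → RN o' c' → LN p d → RN p' d' → c = d ∧ c' = d') := by
  classical
  have hfin : Finite (Fin m × S × W × S × W × V) := inferInstance
  have := Fintype.ofFinite (Fin m × S × W × S × W × V)
  obtain ⟨r, hr⟩ := Names_727.exists_names (Fintype.card (Fin m × S × W × S × W × V))
  let E := Fintype.equivFin (Fin m × S × W × S × W × V)
  refine ⟨r, fun B => ?_⟩
  obtain ⟨ms, M, LN, RN, h1, h2, h3, h4, h5, h6, h7, h8, h9, h10, h11⟩ := hr B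
  refine ⟨ms, M, fun o c => LN o (E c), fun o c => RN o (E c), h1, h2, h3, h4, h5, ?_, ?_, ?_, ?_,
    ?_⟩
  · intro o c c' hc hc'
    exact E.injective (h6 o _ _ hc hc')
  · intro o c c' hc hc'
    exact E.injective (h7 o _ _ hc hc')
  · intro o c
    exact h8 o _
  · intro o c
    exact h9 o _
  · intro T
    refine ⟨fun hT => ⟨?_, ?_⟩, ?_⟩
    · intro o o' c c' ho hc hc'
      exact E.injective ((h10 T hT).1 o o' _ _ ho hc hc')
    · intro c s hs
      exact (h10 T hT).2 (E c) s hs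
    · intro hT o o' c c' p p' d d' ho hp a1 a2 a3 a4
      obtain ⟨e1, e2⟩ := h11 T hT o o' _ _ p p' _ _ ho hp a1 a2 a3 a4
      exact ⟨E.injective e1, E.injective e2⟩

/-- **Instance for `gadget1` / `scheme1`.**  All finite data first, then the moduli above any
bound `B`, then the geometry (`φ R n G M' A A'`) free. -/
theorem inst (S V : Type*) [Monoid S] [Finite S] [AddCommGroup V] [Finite V]
    (act : V → S → V) :
    ∃ (m N : ℕ) (e : ℕ → S → ZMod N × ZMod N) (F : S → ZMod N × ZMod N → V), 0 < N ∧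
      (∀ s w v, ∃ i < m, ∀ g x h, g * x * h = s → ∀ z,
        F (g * z * h) (w - e i x + e i z) + act v (g * z * h) = F s w + act v s) ∧
      ∃ r : ℕ, ∀ B : ℕ, ∃ (ms : Finset ℕ) (M : ℕ)
        (LN RN : ℕ → Fin m × S × (ZMod N × ZMod N) × S × (ZMod N × ZMod N) × V → Prop),
        ms.card ≤ r ∧ (∀ q ∈ ms, B < q) ∧
        (∀ q ∈ ms, ∀ q' ∈ ms, q ≠ q' → Nat.Coprime q q') ∧ 0 < M ∧ (∀ q ∈ ms, q ∣ M) ∧
        ∀ {α : Type*} (φ : List α → S) (R : List α → Prop) (n G M' : ℕ) (A A' : ℕ → ℕ),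
          Names (mkDat φ act m e F R n G M M' A A' LN RN) (fun T => ∀ q ∈ ms, ¬ q ∣ T) := by
  classical
  have := Fintype.ofFinite S
  have := Fintype.ofFinite V
  obtain ⟨m, N, e, F, hN, hF⟩ := Crest.Agent.R320.RandF808.exists_noise S V act
  have : NeZero N := ⟨hN.ne'⟩
  refine ⟨m, N, e, F, hN, hF, ?_⟩
  obtain ⟨r, hr⟩ := inst_names S V (ZMod N × ZMod N) m
  refine ⟨r, fun B => ?_⟩
  obtain ⟨ms, M, LN, RN, h1, h2, h3, h4, h5, h6, h7, h8, h9, h10⟩ := hr B
  refine ⟨ms, M, LN, RN, h1, h2, h3, h4, h5, ?_⟩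
  intro α φ R n G M' A A'
  refine ⟨?_, ?_, ?_⟩
  · intro T hT o o' c c' ho hc hc'
    exact ((h10 T).1 hT).1 o o' c c' ho hc hc'
  · intro T hT c s hs
    obtain ⟨o, o1, o2, o3, o4, o5⟩ := ((h10 T).1 hT).2 c s (le_trans hs (Nat.le_succ T))
    exact ⟨o, o1, o2, o4, o5⟩
  · intro T hT
    have hT' : ∃ q ∈ ms, q ∣ T := by
      by_contra hcon
      push Not at hcon
      exact hT hcon
    set D := mkDat φ act m e F R n G M M' A A' LN RN with hD
    by_cases hex : ∃ o o' c c', o + o' = T ∧ LN o c ∧ RN o' c'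
    · obtain ⟨o, o', c, c', ho, hc, hc'⟩ := hex
      refine ⟨c.2.2.2.2.2,
        D.bb c'.1 c'.2.1 c'.2.2.1 c'.2.2.2.1 c'.2.2.2.2.1 c'.2.2.2.2.2, ?_⟩
      intro p p' d d' hp hd hd'
      obtain ⟨e1, e2⟩ := (h10 T).2 hT' p p' d d' o o' c c' hp ho hd hd' hc hc'
      subst e1 e2
      exact ⟨rfl, rfl⟩
    · refine ⟨0, 0, ?_⟩
      intro o o' c c' ho hc hc'
      exact absurd ⟨o, o', c, c', ho, hc, hc'⟩ hex

end Crest.Agent.R320.Inst_409
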