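import Crest.Agent.R320.InstA_422
import Crest.Agent.R320.ExactR_237

/-!
# Row 320: the concrete instance on ALL words (helper422)

natural chain rule, one token system, scheme 1 = U-gadget right of `p0`, scheme 2 = exact gadget on
the first `p0` letters with a ruler; semantic right labels (`Top5_110.top_sem`).
-/

set_option autoImplicit false

namespace Crest.Agent.R320.Inst_422

open Crest.RegLang Crest.Agent.R320.Hk_851 Crest.Agent.R320.InstA_422 Crest.Agent.R320.Code110

variable {α : Type}

theorem wo_shift (R : WR α) (p p' q : List α) (a : ℕ) (h : R.n ≤ a) (ha : a ≤ q.length) :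
    R.Wo ((p ++ q).take (p.length + a)) ↔ R.Wo ((p' ++ q).take (p'.length + a)) := by
  have hl : R.n ≤ (q.take a).length := by rw [List.length_take]; omega
  rw [List.take_length_add_append, List.take_length_add_append, R.loc _ _ hl, R.loc _ _ hl]

section
variable {S V : Type} [Monoid S] [AddCommGroup V]

/-- value of a word -/
def ph (f : α → S) (w : List α) : S := (w.map f).prod

theorem ph_append (f : α → S) (u w : List α) : ph f (u ++ w) = ph f u * ph f w := by
  simp [ph]

/-- block map -/
def TT (f : α → S) (act : V → S → V) (nu1 nu2 : List α → V) (p0 : ℕ) (X : List α) (v : V) : V :=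
  act (act v (ph f (X.take p0)) + nu2 (X.take p0)) (ph f (X.drop p0)) + nu1 (X.drop p0)

/-- left words of scheme 1 -/
def L1 (f : α → S) (act : V → S → V) (nu2 : List α → V) (p0 N1 : ℕ) (lam : List α → Option V)
    (x : V) : Language α :=
  {P | p0 ≤ P.length ∧ P.length ≤ p0 + N1 ∧
    lam (P.drop p0) = some (act x (ph f (P.take p0)) + nu2 (P.take p0))}

/-- left words of scheme 2 -/
def L2 (K : ℕ) (c : ℕ → ℕ) (lam2 : ℕ → List α → Option V) (x : V) : Language α :=
  {P | ∃ k < K, P.length = c k ∧ lam2 k P = some x}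

theorem exact1 {Z : Language α} {T : List α → V → V} {w : List α} {x y : V} (h : w ∈ Z)
    (e : T w x = y) : w ∈ Exactly Z T (0 + 1) x y :=
  ⟨y, Language.mem_mul.2 ⟨w, ⟨h, e⟩, [], ⟨rfl, rfl⟩, List.append_nil w⟩⟩

theorem exact2 {Z : Language α} {T : List α → V → V} {u t : List α} {x y : V} (hu : u ∈ Z)
    (ht : t ∈ Z) (e : T t (T u x) = y) : u ++ t ∈ Exactly Z T (1 + 1) x y :=
  ⟨T u x, Language.mem_mul.2 ⟨u, ⟨hu, rfl⟩, t, exact1 ht e, rfl⟩⟩

variable (R : WR α) (z : ℕ) (f : α → S) (act : V → S → V) (nu1 nu2 : List α → V) (p0 N1 La : ℕ)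
  (lam rho : List α → Option V) (Bd : ℕ → Prop)

/-- blocks not cut by scheme 1 -/
def Bad : Language α :=
  {X | X ∈ XX R z ∧ ¬ ∀ x, ∃ p q y, X = p ++ q ∧ p ∈ L1 f act nu2 p0 N1 lam x ∧
    q ∈ Rsem (XX R z) (XX R z) (TT f act nu1 nu2 p0) 0 (L1 f act nu2 p0 N1 lam) y}

variable {R z f act nu1 nu2 p0 N1 La lam rho Bd}

theorem good_of (hz : p0 + N1 + R.n + La ≤ z)
    (ug1 : ∀ p v, lam p = some v → p.length ≤ N1)
    (ug2 : ∀ p q v r, lam p = some v → rho q = some r → La ≤ q.length →
      r = act v (ph f (p ++ q)) + nu1 (p ++ q))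
    (ug3 : ∀ u : List α, La ≤ u.length → ¬ Bd u.length → ∀ v, ∃ p q, p ++ q = u ∧
      lam p = some v ∧ (rho q).isSome)
    {X : List α} (hX : X ∈ XX R z)
    (hE : ∀ t ≤ X.length, R.Wo (X.take t) → z ≤ t + N1 → t ≤ z + N1 → False)
    (hB : ¬ Bd (X.length - p0)) : X ∉ Bad R z f act nu1 nu2 p0 N1 lam := by
  rintro ⟨-, hneg⟩
  apply hneg
  intro x
  obtain ⟨hX1, hX2, hX3⟩ := hX
  have hlX0 : (X.take p0).length = p0 := by rw [List.length_take]; omega
  obtain ⟨p, q, e, hp, hq⟩ := ug3 (X.drop p0) (by rw [List.length_drop]; omega)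
    (by rw [List.length_drop]; exact hB) (act x (ph f (X.take p0)) + nu2 (X.take p0))
  obtain ⟨r, hr⟩ := Option.isSome_iff_exists.1 hq
  have hpl := ug1 _ _ hp
  have el : p.length + q.length = X.length - p0 := by
    have := congrArg List.length e
    rw [List.length_append, List.length_drop] at this
    exact this
  have hbig : z + N1 < X.length := by
    by_contra hcon
    exact hE X.length le_rfl (by rw [List.take_length]; exact hX2) (by omega) (by omega)
  have eX : (X.take p0 ++ p) ++ q = X := by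
    rw [List.append_assoc, e, List.take_append_drop]
  have hPl : (X.take p0 ++ p).length = p0 + p.length := by rw [List.length_append, hlX0]
  refine ⟨X.take p0 ++ p, q, r, eX.symm, ⟨by omega, by omega, ?_⟩, ?_⟩
  · rw [List.take_append_of_le_length (by omega), List.drop_append_of_le_length (by omega),
      List.take_take, min_self, List.drop_of_length_le (by omega), List.nil_append]
    exact hp
  · rintro x' p' ⟨g1, g2, g3⟩
    left
    apply exact1
    · refine ⟨by rw [List.length_append]; omega, ?_, ?_⟩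
      · rw [R.loc _ _ (by omega)]
        rw [← eX] at hX2
        exact (R.loc _ _ (by omega)).1 hX2
      · intro t ht1 ht2 hW
        rw [List.length_append] at ht2
        have ht : t = p'.length + (t - p'.length) := by omega
        rw [ht] at hW
        have hW' := (wo_shift R p' (X.take p0 ++ p) q (t - p'.length) (by omega) (by omega)).1 hW
        rw [eX] at hW'
        by_cases hc : z ≤ (X.take p0 ++ p).length + (t - p'.length)
        · exact hX3 _ hc (by omega) hW'
        · exact hE _ (by omega) hW' (by omega) (by omega)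
    · show act (act x' (ph f ((p' ++ q).take p0)) + nu2 ((p' ++ q).take p0))
        (ph f ((p' ++ q).drop p0)) + nu1 ((p' ++ q).drop p0) = r
      rw [List.take_append_of_le_length g1, List.drop_append_of_le_length g1]
      exact (ug2 _ _ _ _ g3 hr (by omega)).symm

theorem find_first (P : ℕ → Prop) (h : ∃ w, P w) : ∃ w, P w ∧ ∀ w' < w, ¬ P w' := by
  classical
  exact ⟨Nat.find h, Nat.find_spec h, fun w' hw' => Nat.find_min h hw'⟩

theorem c2 [Finite V] {K C0 : ℕ} {c : ℕ → ℕ} {lam2 rho2 : ℕ → List α → Option V}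
    (hz : 2 * p0 + N1 + R.n + La + 1 ≤ z) (hW : 2 * (p0 + N1) + 1 ≤ R.W)
    (hcp : ∀ k < K, c k ≤ p0)
    (ruler : ∀ i j k l, i < K → j < K → k < K → l < K → i ≠ j → k ≠ l → (i, j) ≠ (k, l) →
      c i + c l + 4 * N1 < c k + c j ∨ c k + c j + 4 * N1 < c i + c l)
    (spoil : ∀ T, La ≤ T → ∀ F : Finset (ℕ × ℕ), (∀ q ∈ F, q.1 < K ∧ q.2 < K ∧ q.1 ≠ q.2 ∧
      Bd (T + c q.2 - c q.1)) → F.card ≤ C0)
    (eg1 : ∀ k < K, ∀ (P Q : List α) (v b : V), P.length = c k → lam2 k P = some v →
      rho2 k Q = some b → b = act v (ph f (P ++ Q)) + nu2 (P ++ Q))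
    (eg2 : ∀ (u : List α) (v : V), (∀ k < K, c k ≤ u.length) → ∃ I : Finset ℕ,
      2 * C0 + 2 ≤ I.card ∧ ∀ k ∈ I, k < K ∧ lam2 k (u.take (c k)) = some v ∧
        (rho2 k (u.drop (c k))).isSome)
    (ug1 : ∀ p v, lam p = some v → p.length ≤ N1)
    (ug2 : ∀ p q v r, lam p = some v → rho q = some r → La ≤ q.length →
      r = act v (ph f (p ++ q)) + nu1 (p ++ q))
    (ug3 : ∀ u : List α, La ≤ u.length → ¬ Bd u.length → ∀ v, ∃ p q, p ++ q = u ∧
      lam p = some v ∧ (rho q).isSome)
    {u t : List α} (hu : u ∈ Bad R z f act nu1 nu2 p0 N1 lam)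
    (ht : t ∈ Bad R z f act nu1 nu2 p0 N1 lam) (x : V) :
    ∃ p q y, u ++ t = p ++ q ∧ p ∈ L2 K c lam2 x ∧
      q ∈ Rsem (XX R z) (Bad R z f act nu1 nu2 p0 N1 lam) (TT f act nu1 nu2 p0) 1
        (L2 K c lam2) y := by
  classical
  obtain ⟨⟨hu1, hu2, hu3⟩, -⟩ := id hu
  obtain ⟨⟨ht1, ht2, ht3⟩, -⟩ := id ht
  set M : List α := u ++ t with hM
  have hMl : M.length = u.length + t.length := by rw [hM, List.length_append]
  let WM : ℕ → Prop := fun w => w ≤ M.length ∧ R.Wo (M.take w)
  have hwu : WM u.length := ⟨by omega, by rw [hM, List.take_left]; exact hu2⟩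
  have hwM : WM M.length := ⟨le_rfl, by
    rw [List.take_length, hM]; exact (R.loc u t (by omega)).2 ht2⟩
  have gapM : ∀ w w', WM w → WM w' → w < w' → w + R.W < w' := by
    intro w w' hw hw' hlt
    by_contra hcon
    have hl : (M.take w').length = w' := by rw [List.length_take]; have := hw'.1; omega
    refine R.gap (M.take w') (w' - w) hw'.2 (by omega) (by omega) ?_
    rw [hl, List.take_take]
    have e : min (w' - (w' - w)) w' = w := by omega
    rw [e]
    exact hw.2
  obtain ⟨w1, ⟨hw1a, hw1b⟩, hw1c⟩ := find_first (fun w => z ≤ w + p0 ∧ WM w)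
    ⟨u.length, by omega, hwu⟩
  have hw1u : w1 ≤ u.length := by
    by_contra hcon
    exact hw1c u.length (by omega) ⟨by omega, hwu⟩
  obtain ⟨w2, ⟨hw2a, hw2b⟩, hw2c⟩ := find_first (fun w => w1 < w ∧ WM w)
    ⟨M.length, by omega, hwM⟩
  have hw12 := gapM w1 w2 hw1b hw2b hw2a
  -- spoiled pairs
  let Kp : Finset (ℕ × ℕ) := Finset.range K ×ˢ Finset.range K
  let A1 := Kp.filter (fun q => q.1 ≠ q.2 ∧ Bd (w1 - p0 + c q.2 - c q.1))
  let A2 := Kp.filter (fun q => q.1 ≠ q.2 ∧ Bd (w2 - p0 + c q.2 - c q.1))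
  let A3 := Kp.filter (fun q => q.1 ≠ q.2 ∧ ∃ w, WM w ∧ z + c q.1 ≤ w + c q.2 + N1 ∧
    w + c q.2 ≤ z + c q.1 + N1)
  have hKp : ∀ q : ℕ × ℕ, q ∈ Kp ↔ q.1 < K ∧ q.2 < K := by
    intro q
    simp only [Kp, Finset.mem_product, Finset.mem_range]
  have hA1 : A1.card ≤ C0 := spoil (w1 - p0) (by omega) A1 (by
    intro q hq
    obtain ⟨h1, h2, h3⟩ := Finset.mem_filter.1 hq
    exact ⟨((hKp q).1 h1).1, ((hKp q).1 h1).2, h2, h3⟩)
  have hA2 : A2.card ≤ C0 := spoil (w2 - p0) (by omega) A2 (by
    intro q hq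
    obtain ⟨h1, h2, h3⟩ := Finset.mem_filter.1 hq
    exact ⟨((hKp q).1 h1).1, ((hKp q).1 h1).2, h2, h3⟩)
  have hA3 : A3.card ≤ 1 := by
    rw [Finset.card_le_one]
    rintro ⟨a, b⟩ hq ⟨a', b'⟩ hq'
    obtain ⟨h1, h2, w, h3, h4, h5⟩ := Finset.mem_filter.1 hq
    obtain ⟨g1, g2, w', g3, g4, g5⟩ := Finset.mem_filter.1 hq'
    obtain ⟨k1, k2⟩ := (hKp _).1 h1
    obtain ⟨l1, l2⟩ := (hKp _).1 g1
    dsimp only at *
    have ca := hcp a k1
    have cb := hcp b k2
    have ca' := hcp a' l1
    have cb' := hcp b' l2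
    have hww : w = w' := by
      rcases Nat.lt_trichotomy w w' with h | h | h
      · have := gapM w w' h3 g3 h
        omega
      · exact h
      · have := gapM w' w g3 h3 h
        omega
    subst hww
    by_contra hne
    rcases ruler a b a' b' k1 k2 l1 l2 h2 g2 hne with h | h
    · omega
    · omega
  obtain ⟨I, hI1, hI2⟩ := eg2 (u.take p0) x (by
    intro k hk
    rw [List.length_take]
    have := hcp k hk
    omega)
  obtain ⟨j, hjI, hj⟩ : ∃ j ∈ I, ∀ k, (j, k) ∉ A1 ∪ A2 ∪ A3 := by
    by_contra hcon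
    push Not at hcon
    have hsub : I ⊆ (A1 ∪ A2 ∪ A3).image Prod.fst := by
      intro j hj
      obtain ⟨k, hk⟩ := hcon j hj
      exact Finset.mem_image.2 ⟨(j, k), hk, rfl⟩
    have h1 := Finset.card_le_card hsub
    have h2 : ((A1 ∪ A2 ∪ A3).image Prod.fst).card ≤ (A1 ∪ A2 ∪ A3).card := Finset.card_image_le
    have h3 := Finset.card_union_le (A1 ∪ A2) A3
    have h4 := Finset.card_union_le A1 A2
    omega
  obtain ⟨hjK, hjl, hjr⟩ := hI2 j hjI
  have hcj := hcp j hjK
  obtain ⟨b, hb⟩ := Option.isSome_iff_exists.1 hjr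
  have etk : (u.take p0).take (c j) = M.take (c j) := by
    rw [List.take_take, hM, List.take_append_of_le_length (by omega), min_eq_left hcj]
  have hlp : (M.take (c j)).length = c j := by rw [List.length_take]; omega
  have edrop : M.drop (c j) = u.drop (c j) ++ t := by
    rw [hM, List.drop_append_of_le_length (by omega)]
  have hlq : (M.drop (c j)).length = M.length - c j := by rw [List.length_drop]
  have eM : M.take (c j) ++ M.drop (c j) = M := List.take_append_drop _ _
  refine ⟨M.take (c j), M.drop (c j), TT f act nu1 nu2 p0 t (TT f act nu1 nu2 p0 u x), eM.symm,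
    ⟨j, hjK, hlp, by rw [← etk]; exact hjl⟩, ?_⟩
  rintro x' p' ⟨k, hkK, hlen, hlam⟩
  have hck := hcp k hkK
  by_cases hk : k = j
  · subst hk
    -- same place
    have hlen' : (u.take (c k)).length = c k := by rw [List.length_take]; omega
    have hu'l : (p' ++ u.drop (c k)).length = u.length := by
      rw [List.length_append, List.length_drop]; omega
    have hu'X : p' ++ u.drop (c k) ∈ XX R z := by
      refine ⟨by omega, ?_, ?_⟩
      · have h1 := hu2
        rw [← List.take_append_drop (c k) u] at h1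
        have hd : R.n ≤ (u.drop (c k)).length := by rw [List.length_drop]; omega
        exact (R.loc _ _ hd).2 ((R.loc _ _ hd).1 h1)
      · intro i hi1 hi2 hW
        have ei : i = p'.length + (i - c k) := by omega
        rw [ei] at hW
        have h2 := (wo_shift R p' (u.take (c k)) (u.drop (c k)) (i - c k) (by omega)
          (by rw [List.length_drop]; omega)).1 hW
        rw [List.take_append_drop, hlen'] at h2
        have e3 : c k + (i - c k) = i := by omega
        rw [e3] at h2
        exact hu3 i hi1 (by omega) h2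
    have hTT : TT f act nu1 nu2 p0 (p' ++ u.drop (c k)) x' = TT f act nu1 nu2 p0 u x := by
      have e1 : (p' ++ u.drop (c k)).take p0 = p' ++ (u.take p0).drop (c k) := by
        rw [List.take_append, List.take_of_length_le (by omega), hlen, List.drop_take]
      have e2 : (p' ++ u.drop (c k)).drop p0 = u.drop p0 := by
        rw [List.drop_append, List.drop_of_length_le (by omega), List.nil_append, hlen,
          List.drop_drop]
        congr 1
        omega
      have s1 := eg1 k hkK p' ((u.take p0).drop (c k)) x' b hlen hlam hb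
      have s2 := eg1 k hkK ((u.take p0).take (c k)) ((u.take p0).drop (c k)) x b
        (by rw [List.length_take, List.length_take]; omega) hjl hb
      rw [List.take_append_drop] at s2
      show act (act x' (ph f ((p' ++ u.drop (c k)).take p0)) +
        nu2 ((p' ++ u.drop (c k)).take p0)) (ph f ((p' ++ u.drop (c k)).drop p0)) +
        nu1 ((p' ++ u.drop (c k)).drop p0) = act (act x (ph f (u.take p0)) + nu2 (u.take p0))
        (ph f (u.drop p0)) + nu1 (u.drop p0)
      rw [e1, e2, ← s1, ← s2]
    have efull : p' ++ M.drop (c k) = (p' ++ u.drop (c k)) ++ t := by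
      rw [edrop, List.append_assoc]
    by_cases hbad : p' ++ u.drop (c k) ∈ Bad R z f act nu1 nu2 p0 N1 lam
    · left
      rw [efull]
      exact exact2 hbad ht (by rw [hTT])
    · right
      left
      refine ⟨p' ++ u.drop (c k), hu'X, hbad, ?_⟩
      rw [efull]
      exact List.prefix_append _ _
  · -- another place: the first block is good
    right
    left
    have hjk : (j, k) ∉ A1 ∪ A2 ∪ A3 := hj k
    have hjkK : (j, k) ∈ Kp := (hKp _).2 ⟨hjK, hkK⟩
    have hne : j ≠ k := fun h => hk h.symm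
    have hn1 : ¬ Bd (w1 - p0 + c k - c j) := fun h => hjk (by
      rw [Finset.mem_union, Finset.mem_union]
      exact Or.inl (Or.inl (Finset.mem_filter.2 ⟨hjkK, hne, h⟩)))
    have hn2 : ¬ Bd (w2 - p0 + c k - c j) := fun h => hjk (by
      rw [Finset.mem_union, Finset.mem_union]
      exact Or.inl (Or.inr (Finset.mem_filter.2 ⟨hjkK, hne, h⟩)))
    have hn3 : ∀ w, WM w → z + c j ≤ w + c k + N1 → w + c k ≤ z + c j + N1 → False :=
      fun w h1 h2 h3 => hjk (by
        rw [Finset.mem_union]
        exact Or.inr (Finset.mem_filter.2 ⟨hjkK, hne, w, h1, h2, h3⟩))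
    obtain ⟨w3, ⟨hw3a, hw3b⟩, hw3c⟩ := find_first (fun w => z + c j ≤ w + c k ∧ WM w)
      ⟨w2, by omega, hw2b⟩
    have hw31 : w1 ≤ w3 := by
      by_contra hcon
      exact hw1c w3 (by omega) ⟨by omega, hw3b⟩
    have hw32 : w3 ≤ w2 := by
      by_contra hcon
      exact hw3c w2 (by omega) ⟨by omega, hw2b⟩
    have hw3M : w3 ≤ M.length := hw3b.1
    have hw3 : w3 = w1 ∨ w3 = w2 := by
      by_cases h1 : w3 = w1
      · exact Or.inl h1
      · right
        by_contra h2
        exact hw2c w3 (by omega) ⟨by omega, hw3b⟩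
    -- transfer of walls
    have tr : ∀ i, c k + R.n ≤ i → i ≤ c k + (M.length - c j) →
        (R.Wo ((p' ++ M.drop (c j)).take i) ↔ R.Wo (M.take (i - c k + c j))) := by
      intro i hi1 hi2
      have h1 := wo_shift R p' (M.take (c j)) (M.drop (c j)) (i - c k) (by omega)
        (by rw [hlq]; omega)
      rw [eM, hlp, hlen] at h1
      have e1 : c k + (i - c k) = i := by omega
      have e2 : c j + (i - c k) = i - c k + c j := by omega
      rw [e1, e2] at h1
      exact h1
    have hM'l : (p' ++ M.drop (c j)).length = c k + (M.length - c j) := by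
      rw [List.length_append, hlq, hlen]
    set i3 : ℕ := c k + (w3 - c j) with hi3
    have hX'l : ((p' ++ M.drop (c j)).take i3).length = i3 := by
      rw [List.length_take, hM'l]
      omega
    have tk : ∀ i ≤ i3, ((p' ++ M.drop (c j)).take i3).take i = (p' ++ M.drop (c j)).take i := by
      intro i hi
      rw [List.take_take, min_eq_left hi]
    have hX'X : (p' ++ M.drop (c j)).take i3 ∈ XX R z := by
      refine ⟨by rw [hX'l]; omega, ?_, ?_⟩
      · rw [tr i3 (by omega) (by omega)]
        have e : i3 - c k + c j = w3 := by omega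
        rw [e]
        exact hw3b.2
      · intro i hi1 hi2 hW
        rw [hX'l] at hi2
        rw [tk i (by omega)] at hW
        have h2 := (tr i (by omega) (by omega)).1 hW
        exact hw3c (i - c k + c j) (by omega) ⟨by omega, by omega, h2⟩
    have hgood : (p' ++ M.drop (c j)).take i3 ∉ Bad R z f act nu1 nu2 p0 N1 lam := by
      refine good_of (La := La) (rho := rho) (Bd := Bd) (by omega) ug1 ug2 ug3 hX'X ?_ ?_
      · intro i hi1 hW hi2 hi3'
        rw [hX'l] at hi1
        rw [tk i hi1] at hW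
        have h2 := (tr i (by omega) (by omega)).1 hW
        exact hn3 (i - c k + c j) ⟨by omega, h2⟩ (by omega) (by omega)
      · rw [hX'l]
        rcases hw3 with h | h
        · have e : i3 - p0 = w1 - p0 + c k - c j := by omega
          rw [e]; exact hn1
        · have e : i3 - p0 = w2 - p0 + c k - c j := by omega
          rw [e]; exact hn2
    exact ⟨_, hX'X, hgood, List.take_prefix _ _⟩

end
end Crest.Agent.R320.Inst_422
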