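import Crest.Agent.R320.Top5_110
import Crest.Agent.R320.P4_933
import Crest.Agent.R320.WallU_228
import Crest.Agent.R320.Loc_645

/-!
# Row 320: instance of `Top5_110.top_sem` on all words, natural chain rule (helper427)

Left looking walls `Wo`, blocks `XX` = first wall at a place `≥ z`; scheme 1 = a gadget on the part
right of `p0`, scheme 2 = an exact gadget on the first `p0` letters; semantic right labels.
-/

set_option autoImplicit false

namespace Crest.Agent.R320.Inst_427

open Crest.Agent.R320.Hk_851 Crest.Agent.R320.Code110 Crest.Agent.R320.Top5_110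

universe u

variable {α : Type u} {Wo : List α → Prop} {n z W : ℕ}

/-- blocks -/
def XX (Wo : List α → Prop) (z : ℕ) : Language α :=
  {X | z ≤ X.length ∧ Wo X ∧ ∀ t, z ≤ t → t < X.length → ¬ Wo (X.take t)}

/-- bad blocks -/
def Bad (Wo : List α → Prop) (z p0 N : ℕ) (BadT : ℕ → Prop) : Language α :=
  {X | X ∈ XX Wo z ∧ ((∃ t, z ≤ t + N ∧ t < z + N ∧ t ≤ X.length ∧ Wo (X.take t)) ∨
    BadT (X.length - p0))}

/-- walls are left looking with window `n` -/
structure WL (Wo : List α → Prop) (n W : ℕ) : Prop where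
  loc : ∀ P Q : List α, n ≤ Q.length → (Wo (P ++ Q) ↔ Wo Q)
  len : ∀ P : List α, Wo P → n ≤ P.length
  gap : ∀ (P : List α) (d : ℕ), Wo P → 0 < d → d ≤ W → ¬ Wo (P.take (P.length - d))

theorem WL.shift (h : WL Wo n W) (P Q : List α) {t : ℕ} (ht : n ≤ t) (ht' : t ≤ Q.length) :
    Wo ((P ++ Q).take (P.length + t)) ↔ Wo (Q.take t) := by
  have e : (P ++ Q).take (P.length + t) = P ++ Q.take t := by
    rw [List.take_append]
    simp [List.take_of_length_le]
  rw [e]
  exact h.loc _ _ (by rw [List.length_take]; omega)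

theorem WL.uniq (h : WL Wo n W) {w : List α} {s t : ℕ} (hs : Wo (w.take s)) (ht : Wo (w.take t))
    (hs' : s ≤ w.length) (ht' : t ≤ w.length) (h1 : s ≤ t + W) (h2 : t ≤ s + W) : s = t := by
  have key : ∀ {s t : ℕ}, Wo (w.take s) → Wo (w.take t) → s ≤ w.length → t ≤ w.length →
      t ≤ s + W → ¬ s < t := by
    intro s t hs ht hs' ht' h2 hlt
    have hl : (w.take t).length = t := by rw [List.length_take]; omega
    refine h.gap (w.take t) (t - s) ht (by omega) (by omega) ?_
    rw [hl, List.take_take, min_eq_left (by omega), show t - (t - s) = s by omega]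
    exact hs
  have a := key hs ht hs' ht' h2
  have b := key ht hs ht' hs' h1
  omega

theorem pc_XX (hz : 0 < z) : PC (XX Wo z) where
  ne := fun h => by have := h.1; simp at this; omega
  pf := by
    rintro u ⟨h1, h2, h3⟩ v ⟨h4, h5, h6⟩ ⟨r, rfl⟩
    by_contra hne
    have hr : 0 < r.length := by
      rcases Nat.eq_zero_or_pos r.length with h0 | h0
      · exact absurd (by rw [List.length_eq_zero_iff.1 h0, List.append_nil]) hne
      · exact h0
    refine h6 u.length h1 (by simp; omega) ?_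
    rw [List.take_left' rfl]
    exact h2

/-- the first block of a long word which ends with a wall -/
theorem exists_block {w : List α} (hw : Wo w) (hz : z ≤ w.length) :
    ∃ X ∈ XX Wo z, X <+: w := by
  classical
  have h : ∃ t, z ≤ t ∧ t ≤ w.length ∧ Wo (w.take t) :=
    ⟨w.length, hz, le_rfl, by rwa [List.take_length]⟩
  have h1 := Nat.find_spec h
  have h2 := fun m hm => Nat.find_min h (m := m) hm
  set s := Nat.find h with hs
  have hl : (w.take s).length = s := by rw [List.length_take]; omega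
  refine ⟨w.take s, ⟨by rw [hl]; exact h1.1, h1.2.2, ?_⟩, List.take_prefix _ _⟩
  intro t ht ht' hWo
  rw [hl] at ht'
  rw [List.take_take, min_eq_left (by omega)] at hWo
  exact h2 t ht' ⟨ht, by omega, hWo⟩

section heights

variable [Finite α]

theorem hl_free (h : WL Wo n W) {R B : ℕ}
    (free : ∀ u : List α, (∀ t < u.length, ¬ Wo (u.take t)) →
      Crest.Agent.R320.CompR_11.Pieces R B u) {L : Language α} (hL : L.IsRegular)
    (hsub : ∀ w ∈ L, ∀ t, z ≤ t → t < w.length → ¬ Wo (w.take t)) : HL 1 L := by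
  refine Crest.Agent.R320.RegBd_11.reg_pieces hL (R + 1) (B + z) ?_
  intro w hw
  have h1 : ∀ t < (w.drop z).length, ¬ Wo ((w.drop z).take t) := by
    intro t ht hWt
    rw [List.length_drop] at ht
    have h2 := h.len _ hWt
    rw [List.length_take, List.length_drop] at h2
    have hzl : (w.take z).length = z := by rw [List.length_take]; omega
    have h3 := (h.shift (w.take z) (w.drop z) (t := t) (by omega)
      (by rw [List.length_drop]; omega)).2 hWt
    rw [List.take_append_drop, hzl] at h3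
    exact hsub w hw _ (by omega) (by omega) h3
  obtain ⟨l, hl1, hl2, hl3⟩ := free _ h1
  refine ⟨(w.take z, [], 0) :: l, by simp; omega, ?_, ?_⟩
  · intro t ht
    rcases List.mem_cons.1 ht with rfl | ht
    · refine ⟨?_, by simp⟩
      simp only [List.length_take]
      omega
    · have := hl2 t ht
      exact ⟨by omega, by omega⟩
  · conv_lhs => rw [← List.take_append_drop z w, hl3]
    simp [Crest.Agent.R320.Pump_360.val, Crest.Agent.R320.Pump_360.pw]

theorem reg_XX (h : WL Wo n W) : (XX Wo z).IsRegular := by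
  have h1 := Crest.Agent.R320.P4_933.hl_XX0 (z := z) (k := 0) h.loc h.len
  have h2 : HL 0 (XX Wo z) := h1.congr fun w =>
    ⟨fun h => ⟨h.2.1, h.1, fun t h1 h2 => h.2.2 t h2 h1⟩,
      fun h => ⟨h.2.1, h.1, fun t h1 h2 => h.2.2 t h2 h1⟩⟩
  exact Crest.Agent.R320.Reg_852.HL.isRegular h2

theorem hl_XX (h : WL Wo n W) {k : ℕ} : HL k (XX Wo z) := by
  have h1 := Crest.Agent.R320.P4_933.hl_XX0 (z := z) (k := k) h.loc h.len
  exact h1.congr fun w =>
    ⟨fun h => ⟨h.2.1, h.1, fun t h1 h2 => h.2.2 t h2 h1⟩,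
      fun h => ⟨h.2.1, h.1, fun t h1 h2 => h.2.2 t h2 h1⟩⟩

end heights


section schemes

variable {S V : Type*} [Monoid S] [AddCommGroup V]

/-- the data -/
structure Dat (α S V : Type*) where
  φ : List α → S
  act : V → S → V
  p0 : ℕ
  N : ℕ
  BadT : ℕ → Prop
  lam : List α → Option V
  rho : List α → Option V
  nu : List α → V
  K : ℕ
  c : ℕ → ℕ
  lam2 : ℕ → List α → Option V
  rho2 : ℕ → List α → Option V
  nu2 : List α → V

/-- token after the first `p0` letters -/
def Dat.pre (D : Dat α S V) (X : List α) (x : V) : V := D.act x (D.φ X) + D.nu2 X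

def Dat.T (D : Dat α S V) (X : List α) (x : V) : V :=
  D.act (D.pre (X.take D.p0) x) (D.φ (X.drop D.p0)) + D.nu (X.drop D.p0)

def Dat.L1 (D : Dat α S V) (x : V) : Language α :=
  {p | D.p0 ≤ p.length ∧ D.lam (p.drop D.p0) = some (D.pre (p.take D.p0) x)}

def Dat.L2 (D : Dat α S V) (x : V) : Language α :=
  {p | ∃ k < D.K, p.length = D.c k ∧ D.lam2 k p = some x}

structure Ok (D : Dat α S V) (Wo : List α → Prop) (n z W A C0 R : ℕ) : Prop where
  wl : WL Wo n W
  lenl : ∀ P v, D.lam P = some v → P.length ≤ D.N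
  snd : ∀ P Q v b, D.lam P = some v → D.rho Q = some b →
    b = D.act v (D.φ (P ++ Q)) + D.nu (P ++ Q)
  cmp : ∀ u : List α, A ≤ u.length → ¬ D.BadT u.length → ∀ v, ∃ P Q, P ++ Q = u ∧
    D.lam P = some v ∧ (D.rho Q).isSome
  cle : ∀ k, k < D.K → D.c k ≤ D.p0
  snd2 : ∀ k < D.K, ∀ (P Q : List α) (v b : V), P.length = D.c k →
    D.lam2 k P = some v → D.rho2 k Q = some b → b = D.act v (D.φ (P ++ Q)) + D.nu2 (P ++ Q)
  cmp2 : ∀ (u : List α) (v : V), u.length = D.p0 →
    ∃ I : Finset ℕ, R ≤ I.card ∧ ∀ k ∈ I, k < D.K ∧ D.lam2 k (u.take (D.c k)) = some v ∧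
      (D.rho2 k (u.drop (D.c k))).isSome
  gol : ∀ a b c d, a < D.K → b < D.K → c < D.K → d < D.K → a ≠ b → c ≠ d →
    D.c a + D.c d ≤ D.c c + D.c b + 2 * D.N → D.c c + D.c b ≤ D.c a + D.c d + 2 * D.N → a = c
  cnt : ∀ T : ℕ, (∀ k < D.K, D.c k ≤ T) → ∀ Sp : Finset ℕ, (∀ k ∈ Sp, k < D.K ∧ ∃ k' < D.K,
    k' ≠ k ∧ D.BadT (T + D.c k' - D.c k)) → Sp.card ≤ C0
  hR : 1 + 2 * C0 < R
  hW : 2 * (D.p0 + D.N) ≤ W
  hz : 3 * D.p0 + 3 * D.N + n + A + 1 ≤ z

variable {D : Dat α S V} {A C0 R : ℕ}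

theorem mem_L1 (h : Ok D Wo n z W A C0 R) {x : V} {p : List α} (hp : p ∈ D.L1 x) :
    p.length ≤ D.p0 + D.N := by
  have h1 := h.lenl _ _ hp.2
  rw [List.length_drop] at h1
  omega

theorem C1 (h : Ok D Wo n z W A C0 R) : ∀ u ∈ XX Wo z, u ∉ Bad Wo z D.p0 D.N D.BadT → ∀ x,
    ∀ t ∈ (XX Wo z) ^ 0, ∃ p q y, u ++ t = p ++ q ∧ p ∈ D.L1 x ∧
      q ∈ Rsem (XX Wo z) (XX Wo z) D.T 0 D.L1 y := by
  intro u hu hb x t ht
  rw [pow_zero, Language.mem_one] at ht
  subst ht
  rw [List.append_nil]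
  have hz := h.hz
  have hE : ¬ ∃ t, z ≤ t + D.N ∧ t < z + D.N ∧ t ≤ u.length ∧ Wo (u.take t) :=
    fun hc => hb ⟨hu, Or.inl hc⟩
  have hB : ¬ D.BadT (u.length - D.p0) := fun hc => hb ⟨hu, Or.inr hc⟩
  obtain ⟨hu1, hu2, hu3⟩ := hu
  have hlong : z + D.N ≤ u.length := by
    by_contra hc
    exact hE ⟨u.length, by omega, by omega, le_rfl, by rwa [List.take_length]⟩
  have hYl : (u.drop D.p0).length = u.length - D.p0 := List.length_drop
  obtain ⟨P, Q, hPQ, hl, hr⟩ := h.cmp (u.drop D.p0) (by omega) (by rwa [hYl])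
    (D.pre (u.take D.p0) x)
  obtain ⟨b, hb'⟩ := Option.isSome_iff_exists.1 hr
  have hPl := h.lenl _ _ hl
  have htl : (u.take D.p0).length = D.p0 := by rw [List.length_take]; omega
  have hue : u = (u.take D.p0 ++ P) ++ Q := by
    rw [List.append_assoc, hPQ, List.take_append_drop]
  have hQl : u.length = D.p0 + P.length + Q.length := by
    conv_lhs => rw [hue]
    simp only [List.length_append, htl]
  refine ⟨u.take D.p0 ++ P, Q, b, hue, ⟨by rw [List.length_append]; omega, ?_⟩, ?_⟩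
  · rw [List.drop_left' htl, List.take_left' htl]
    exact hl
  · intro x' p' hp'
    have hp'' : p' ∈ D.L1 x' := hp'
    have hpl := mem_L1 h hp''
    obtain ⟨hp1, hp2⟩ := hp''
    refine Or.inl ⟨b, Language.mem_mul.2 ⟨p' ++ Q, ⟨⟨?_, ?_, ?_⟩, ?_⟩, [], ⟨rfl, rfl⟩, by simp⟩⟩
    · rw [List.length_append]; omega
    · refine (h.wl.loc _ _ (by omega)).2 ?_
      have := h.wl.loc (u.take D.p0 ++ P) Q (by omega)
      rw [← hue] at this
      exact this.1 hu2
    · intro t ht ht' hWt
      rw [List.length_append] at ht'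
      obtain ⟨s, rfl⟩ : ∃ s, t = p'.length + s := ⟨t - p'.length, by omega⟩
      have h1 := (h.wl.shift p' Q (t := s) (by omega) (by omega)).1 hWt
      have h2 := (h.wl.shift (u.take D.p0 ++ P) Q (t := s) (by omega) (by omega)).2 h1
      rw [← hue, List.length_append, htl] at h2
      by_cases hc : z ≤ D.p0 + P.length + s
      · exact hu3 _ hc (by omega) h2
      · exact hE ⟨_, by omega, by omega, by omega, h2⟩
    · show D.T (p' ++ Q) x' = b
      rw [Dat.T, List.take_append_of_le_length hp1, List.drop_append_of_le_length hp1]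
      exact (h.snd _ _ _ _ hp2 hb').symm

/-- blocks do not depend on the first letters -/
theorem swap (h : Ok D Wo n z W A C0 R) {p p' r : List α} (hp : p.length = p'.length)
    (hp0 : p.length ≤ D.p0) (hX : p ++ r ∈ XX Wo z) : p' ++ r ∈ XX Wo z := by
  have hz := h.hz
  obtain ⟨h1, h2, h3⟩ := hX
  rw [List.length_append] at h1
  refine ⟨by rw [List.length_append]; omega, ?_, ?_⟩
  · exact (h.wl.loc _ _ (by omega)).2 ((h.wl.loc _ _ (by omega)).1 h2)
  · intro t ht ht' hWt
    rw [List.length_append] at ht'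
    obtain ⟨s, rfl⟩ : ∃ s, t = p'.length + s := ⟨t - p'.length, by omega⟩
    have h4 := (h.wl.shift p' r (t := s) (by omega) (by omega)).1 hWt
    have h5 := (h.wl.shift p r (t := s) (by omega) (by omega)).2 h4
    exact h3 _ (by omega) (by rw [List.length_append]; omega) h5

theorem swapB (h : Ok D Wo n z W A C0 R) {p p' r : List α} (hp : p.length = p'.length)
    (hp0 : p.length ≤ D.p0) (hX : p ++ r ∈ Bad Wo z D.p0 D.N D.BadT) :
    p' ++ r ∈ Bad Wo z D.p0 D.N D.BadT := by
  have hz := h.hz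
  obtain ⟨h1, h2⟩ := hX
  refine ⟨swap h hp hp0 h1, ?_⟩
  rcases h2 with ⟨t, a1, a2, a3, a4⟩ | h2
  · left
    rw [List.length_append] at a3
    obtain ⟨s, rfl⟩ : ∃ s, t = p.length + s := ⟨t - p.length, by omega⟩
    have h4 := (h.wl.shift p r (t := s) (by omega) (by omega)).1 a4
    have h5 := (h.wl.shift p' r (t := s) (by omega) (by omega)).2 h4
    exact ⟨_, by omega, by omega, by rw [List.length_append]; omega, h5⟩
  · right
    rw [List.length_append] at h2 ⊢
    rwa [← hp]

/-- spoiled places -/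
def Spo (D : Dat α S V) (Wo : List α → Prop) (z : ℕ) (w : List α) (k : ℕ) : Prop :=
  ∃ k' < D.K, k' ≠ k ∧ ∃ p' : List α, p'.length = D.c k' ∧
    ∃ X ∈ Bad Wo z D.p0 D.N D.BadT, X <+: p' ++ w.drop (D.c k)

/-- what a spoiled place looks like inside `w` -/
theorem spo_cases (h : Ok D Wo n z W A C0 R) {w : List α} (hw : D.p0 ≤ w.length) {k : ℕ}
    (hk : k < D.K) (hs : Spo D Wo z w k) :
    (∃ k' < D.K, k' ≠ k ∧ ∃ t, t ≤ w.length ∧ Wo (w.take t) ∧ z + D.c k ≤ t + D.c k' + D.N ∧
      t + D.c k' ≤ z + D.c k + D.N) ∨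
    (∃ k' < D.K, k' ≠ k ∧ ∃ s, s ≤ w.length ∧ Wo (w.take s) ∧ z ≤ s + D.p0 ∧ s ≤ z + D.p0 ∧
      D.BadT (s - D.p0 + D.c k' - D.c k)) ∨
    (∃ k' < D.K, k' ≠ k ∧ ∃ s, s ≤ w.length ∧ Wo (w.take s) ∧ z + D.p0 < s ∧
      (∀ t, z + D.p0 < t → t < s → ¬ Wo (w.take t)) ∧
      D.BadT (s - D.p0 + D.c k' - D.c k)) := by
  have hz := h.hz
  obtain ⟨k', hk', hne, p', hp', X, hX, r, hr⟩ := hs
  have hck := h.cle k hk
  have hck' := h.cle k' hk'
  -- X = p' ++ r'
  have hXl : z ≤ X.length := hX.1.1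
  have hlen : X.length ≤ D.c k' + (w.length - D.c k) := by
    have := congrArg List.length hr
    simp only [List.length_append, List.length_drop] at this
    omega
  have hXe : X = p' ++ (w.drop (D.c k)).take (X.length - D.c k') := by
    have h1 : X = (p' ++ w.drop (D.c k)).take X.length := by
      rw [← hr, List.take_left' rfl]
    conv_lhs => rw [h1]
    rw [List.take_append, hp', List.take_of_length_le (by omega)]
  have hwe : w = w.take (D.c k) ++ w.drop (D.c k) := (List.take_append_drop _ _).symm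
  have hwl : (w.take (D.c k)).length = D.c k := by rw [List.length_take]; omega
  have hdl : (w.drop (D.c k)).length = w.length - D.c k := List.length_drop
  have hX' : X = (p' ++ w.drop (D.c k)).take (D.c k' + (X.length - D.c k')) := by
    rw [show D.c k' + (X.length - D.c k') = X.length by omega, ← hr, List.take_left' rfl]
  -- transfer of walls
  have tr : ∀ t, D.c k' + n ≤ t → t ≤ X.length → (Wo (X.take t) ↔
      Wo (w.take (D.c k + (t - D.c k')))) := by
    intro t h1 h2
    have e1 : X.take t = (p' ++ w.drop (D.c k)).take (p'.length + (t - D.c k')) := by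
      rw [show p'.length + (t - D.c k') = t by omega, ← hr,
        List.take_append_of_le_length h2]
    have e2 := h.wl.shift (w.take (D.c k)) (w.drop (D.c k)) (t := t - D.c k') (by omega) (by omega)
    rw [← hwe, hwl] at e2
    rw [e1, h.wl.shift p' (w.drop (D.c k)) (by omega) (by omega), e2]
  have hWX : Wo (w.take (D.c k + (X.length - D.c k'))) := by
    refine (tr X.length (by omega) le_rfl).1 ?_
    rw [List.take_length]
    exact hX.1.2.1
  rcases hX.2 with ⟨t, a1, a2, a3, a4⟩ | hB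
  · left
    refine ⟨k', hk', hne, D.c k + (t - D.c k'), by omega, (tr t (by omega) a3).1 a4, by omega,
      by omega⟩
  · right
    have hB' : D.BadT (D.c k + (X.length - D.c k') - D.p0 + D.c k' - D.c k) := by
      have : D.c k + (X.length - D.c k') - D.p0 + D.c k' - D.c k = X.length - D.p0 := by omega
      rw [this]; exact hB
    by_cases hc : D.c k + (X.length - D.c k') ≤ z + D.p0
    · left
      exact ⟨k', hk', hne, D.c k + (X.length - D.c k'), by omega, hWX, by omega, hc, hB'⟩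
    · right
      refine ⟨k', hk', hne, D.c k + (X.length - D.c k'), by omega, hWX, by omega, ?_, hB'⟩
      intro t ht ht' hWt
      have h1 := (tr (t - D.c k + D.c k') (by omega) (by omega)).2
        (by rw [show D.c k + (t - D.c k + D.c k' - D.c k') = t by omega]; exact hWt)
      exact hX.1.2.2 _ (by omega) (by omega) h1

theorem card_spo (h : Ok D Wo n z W A C0 R) {w : List α} (hw : D.p0 ≤ w.length)
    (Sp : Finset ℕ) (hSp : ∀ k ∈ Sp, k < D.K ∧ Spo D Wo z w k) : Sp.card ≤ 1 + 2 * C0 := by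
  classical
  have hz := h.hz
  have hW := h.hW
  let P1 : ℕ → Prop := fun k => ∃ k' < D.K, k' ≠ k ∧ ∃ t, t ≤ w.length ∧ Wo (w.take t) ∧
    z + D.c k ≤ t + D.c k' + D.N ∧ t + D.c k' ≤ z + D.c k + D.N
  let P2 : ℕ → Prop := fun k => ∃ k' < D.K, k' ≠ k ∧ ∃ s, s ≤ w.length ∧ Wo (w.take s) ∧
    z ≤ s + D.p0 ∧ s ≤ z + D.p0 ∧ D.BadT (s - D.p0 + D.c k' - D.c k)
  let P3 : ℕ → Prop := fun k => ∃ k' < D.K, k' ≠ k ∧ ∃ s, s ≤ w.length ∧ Wo (w.take s) ∧
    z + D.p0 < s ∧ (∀ t, z + D.p0 < t → t < s → ¬ Wo (w.take t)) ∧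
      D.BadT (s - D.p0 + D.c k' - D.c k)
  have hsub : Sp ⊆ (Sp.filter P1) ∪ ((Sp.filter P2) ∪ (Sp.filter P3)) := by
    intro k hk
    obtain ⟨h1, h2⟩ := hSp k hk
    rcases spo_cases h hw h1 h2 with h3 | h3 | h3
    · exact Finset.mem_union_left _ (Finset.mem_filter.2 ⟨hk, h3⟩)
    · exact Finset.mem_union_right _ (Finset.mem_union_left _ (Finset.mem_filter.2 ⟨hk, h3⟩))
    · exact Finset.mem_union_right _ (Finset.mem_union_right _ (Finset.mem_filter.2 ⟨hk, h3⟩))
  have c1 : (Sp.filter P1).card ≤ 1 := by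
    rw [Finset.card_le_one]
    intro a ha b hb
    obtain ⟨ha1, a', ha', hane, t, t1, t2, t3, t4⟩ := Finset.mem_filter.1 ha
    obtain ⟨hb1, b', hb', hbne, s, s1, s2, s3, s4⟩ := Finset.mem_filter.1 hb
    have ca := h.cle a (hSp a ha1).1
    have ca' := h.cle a' ha'
    have cb := h.cle b (hSp b hb1).1
    have cb' := h.cle b' hb'
    have hst : s = t := h.wl.uniq s2 t2 s1 t1 (by omega) (by omega)
    subst hst
    exact h.gol a a' b b' (hSp a ha1).1 ha' (hSp b hb1).1 hb' (Ne.symm hane) (Ne.symm hbne)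
      (by omega) (by omega)
  have c2 : (Sp.filter P2).card ≤ C0 := by
    rcases (Sp.filter P2).eq_empty_or_nonempty with he | ⟨a, ha⟩
    · rw [he]; simp
    · obtain ⟨ha1, a', ha', hane, t, t1, t2, t3, t4, t5⟩ := Finset.mem_filter.1 ha
      refine h.cnt (t - D.p0) (fun k hk => by have := h.cle k hk; omega) _ ?_
      intro b hb
      obtain ⟨hb1, b', hb', hbne, s, s1, s2, s3, s4, s5⟩ := Finset.mem_filter.1 hb
      have hst : s = t := h.wl.uniq s2 t2 s1 t1 (by omega) (by omega)
      subst hst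
      exact ⟨(hSp b hb1).1, b', hb', hbne, s5⟩
  have c3 : (Sp.filter P3).card ≤ C0 := by
    rcases (Sp.filter P3).eq_empty_or_nonempty with he | ⟨a, ha⟩
    · rw [he]; simp
    · obtain ⟨ha1, a', ha', hane, t, t1, t2, t3, t4, t5⟩ := Finset.mem_filter.1 ha
      refine h.cnt (t - D.p0) (fun k hk => by have := h.cle k hk; omega) _ ?_
      intro b hb
      obtain ⟨hb1, b', hb', hbne, s, s1, s2, s3, s4, s5⟩ := Finset.mem_filter.1 hb
      have hst : s = t := by
        rcases lt_trichotomy s t with hlt | heq | hlt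
        · exact absurd s2 (t4 s s3 hlt)
        · exact heq
        · exact absurd t2 (s4 t t3 hlt)
      subst hst
      exact ⟨(hSp b hb1).1, b', hb', hbne, s5⟩
  calc Sp.card ≤ _ := Finset.card_le_card hsub
    _ ≤ (Sp.filter P1).card + ((Sp.filter P2).card + (Sp.filter P3).card) :=
        (Finset.card_union_le _ _).trans (Nat.add_le_add_left (Finset.card_union_le _ _) _)
    _ ≤ 1 + 2 * C0 := by omega

theorem C2 (h : Ok D Wo n z W A C0 R) : ∀ u ∈ Bad Wo z D.p0 D.N D.BadT, ∀ x,
    ∀ t ∈ (Bad Wo z D.p0 D.N D.BadT) ^ 1, ∃ p q y, u ++ t = p ++ q ∧ p ∈ D.L2 x ∧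
      q ∈ Rsem (XX Wo z) (Bad Wo z D.p0 D.N D.BadT) D.T 1 D.L2 y := by
  classical
  intro u hu x t ht
  rw [pow_one] at ht
  have hz := h.hz
  have hul : z ≤ u.length := hu.1.1
  have htl : z ≤ t.length := ht.1.1
  have hX1 : (u.take D.p0).length = D.p0 := by rw [List.length_take]; omega
  obtain ⟨I, hI1, hI2⟩ := h.cmp2 (u.take D.p0) x hX1
  obtain ⟨k, hkI, hkS⟩ : ∃ k ∈ I, ¬ Spo D Wo z (u ++ t) k := by
    by_contra hc
    push Not at hc
    have := card_spo h (w := u ++ t) (by rw [List.length_append]; omega) I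
      fun k hk => ⟨(hI2 k hk).1, hc k hk⟩
    have := h.hR
    omega
  obtain ⟨hk, hl, hr⟩ := hI2 k hkI
  obtain ⟨b, hb⟩ := Option.isSome_iff_exists.1 hr
  have hck := h.cle k hk
  have e0 : (u.take D.p0).take (D.c k) = u.take (D.c k) := by
    rw [List.take_take, min_eq_left hck]
  rw [e0] at hl
  have hcl : (u.take (D.c k)).length = D.c k := by rw [List.length_take]; omega
  refine ⟨u.take (D.c k), u.drop (D.c k) ++ t, D.T t (D.T u x), ?_, ⟨k, hk, hcl, hl⟩, ?_⟩
  · rw [← List.append_assoc, List.take_append_drop]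
  · rintro x' p' ⟨k', hk', hp', hl'⟩
    have hck' := h.cle k' hk'
    have hdrop : (u ++ t).drop (D.c k) = u.drop (D.c k) ++ t :=
      List.drop_append_of_le_length (by omega)
    show p' ++ (u.drop (D.c k) ++ t) ∈ _ ∨ p' ++ (u.drop (D.c k) ++ t) ∈ _
    -- the first block
    obtain ⟨X, hX, hXp⟩ := exists_block (Wo := Wo) (z := z) (w := p' ++ (u.drop (D.c k) ++ t))
      (by
        rw [← List.append_assoc]
        exact (h.wl.loc _ _ (by omega)).2 ht.1.2.1)
      (by simp only [List.length_append]; omega)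
    by_cases hXB : X ∈ Bad Wo z D.p0 D.N D.BadT
    swap
    · exact Or.inr (Or.inl ⟨X, hX, hXB, hXp⟩)
    by_cases hkk : k' = k
    swap
    · exact absurd ⟨k', hk', hkk, p', hp', X, hXB, by rw [hdrop]; exact hXp⟩ hkS
    subst hkk
    left
    have hue : u = u.take (D.c k') ++ u.drop (D.c k') := (List.take_append_drop _ _).symm
    have hu' : p' ++ u.drop (D.c k') ∈ Bad Wo z D.p0 D.N D.BadT := by
      refine swapB h (p := u.take (D.c k')) (by rw [hcl, hp']) (by omega) ?_
      rw [← hue]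
      exact hu
    have hT : D.T (p' ++ u.drop (D.c k')) x' = D.T u x := by
      have hd : (p' ++ u.drop (D.c k')).drop D.p0 = u.drop D.p0 := by
        rw [List.drop_append, hp', List.drop_eq_nil_of_le (by omega), List.nil_append,
          List.drop_drop]
        congr 1
        omega
      have ht' : (p' ++ u.drop (D.c k')).take D.p0 = p' ++ (u.take D.p0).drop (D.c k') := by
        rw [List.take_append, hp', List.take_of_length_le (by omega), List.drop_take]
      have h1 : D.pre ((p' ++ u.drop (D.c k')).take D.p0) x' = b := by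
        rw [ht', Dat.pre]
        exact (h.snd2 k' hk p' _ x' b hp' hl' hb).symm
      have h2 : D.pre (u.take D.p0) x = b := by
        have h3 := (h.snd2 k' hk (u.take (D.c k')) _ x b hcl hl hb).symm
        have h4 : u.take (D.c k') ++ (u.take D.p0).drop (D.c k') = u.take D.p0 := by
          rw [← e0, List.take_append_drop]
        rw [h4] at h3
        exact h3
      rw [Dat.T, Dat.T, h1, h2, hd]
    refine ⟨D.T u x, Language.mem_mul.2 ⟨p' ++ u.drop (D.c k'), ⟨hu', hT⟩, t, ?_, by simp⟩⟩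
    exact ⟨D.T t (D.T u x), Language.mem_mul.2 ⟨t, ⟨ht, rfl⟩, [], ⟨rfl, rfl⟩, by simp⟩⟩

end schemes

end Crest.Agent.R320.Inst_427
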