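import Mathlib

/-!
# Row 320: concrete instance of 163's `top` (s1, s2, cc) for the natural chain rule
(693's gadget in `Y`, exact gadget in `U`, left-looking walls)   (helper448)
-/

set_option autoImplicit false
set_option linter.unusedSectionVars false

namespace Crest.Agent.R320.Inst_448

variable {α V S : Type*} [Monoid S] [AddCommGroup V]

/-- left-looking wall rule -/
structure Wall (n W : ℕ) (Wo : List α → Prop) : Prop where
  npos : 0 < n
  loc : ∀ P Q, n ≤ Q.length → (Wo (P ++ Q) ↔ Wo Q)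
  len : ∀ P, Wo P → n ≤ P.length
  gap : ∀ P d, Wo P → 0 < d → d ≤ W → ¬ Wo (P.take (P.length - d))

/-- blocks -/
def XX (z : ℕ) (Wo : List α → Prop) : Set (List α) :=
  {X | z ≤ X.length ∧ Wo X ∧ ∀ t, z ≤ t → t < X.length → ¬ Wo (X.take t)}

/-- scheme 1 gadget -/
structure G1 (φ : List α → S) (act : V → S → V) (N1 Nm : ℕ) (BadT : ℕ → Prop)
    (lam rho : List α → Option V) (nu : List α → V) : Prop where
  len : ∀ P v, lam P = some v → P.length ≤ N1
  sound : ∀ P Q v r, lam P = some v → rho Q = some r → r = act v (φ (P ++ Q)) + nu (P ++ Q)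
  complete : ∀ u : List α, Nm ≤ u.length → ¬ BadT u.length → ∀ v, ∃ P Q, u = P ++ Q ∧
    lam P = some v ∧ (rho Q).isSome

/-- scheme 2 gadget (exact, words of length `p0`) -/
structure G2 (φ : List α → S) (act : V → S → V) (K p0 R0 : ℕ) (c : ℕ → ℕ)
    (lam2 rho2 : ℕ → List α → Option V) (nu2 : List α → V) : Prop where
  cle : ∀ k < K, c k < p0
  sound : ∀ k < K, ∀ P Q v b, P.length = c k → lam2 k P = some v → rho2 k Q = some b →
    b = act v (φ (P ++ Q)) + nu2 (P ++ Q)
  complete : ∀ u : List α, u.length = p0 → ∀ v, ∃ I : Finset ℕ, R0 < I.card ∧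
    ∀ k ∈ I, k < K ∧ lam2 k (u.take (c k)) = some v ∧ (rho2 k (u.drop (c k))).isSome

section

variable (Wo : List α → Prop) (z N1 p0 : ℕ) (BadT : ℕ → Prop)

/-- `s` is the end of the block of the anchor at distance `c` to the left of the text `Q` -/
def Nx (c : ℕ) (Q : List α) (s : ℕ) : Prop :=
  z ≤ s + c ∧ s ≤ Q.length ∧ Wo (Q.take s) ∧ ∀ s', s' < s → z ≤ s' + c → ¬ Wo (Q.take s')

/-- badness of the block which ends at `s` -/
def BadAt (c : ℕ) (Q : List α) (s : ℕ) : Prop :=
  (∃ s', s' ≤ s ∧ Wo (Q.take s') ∧ z ≤ s' + c + N1 ∧ s' + c < z + N1) ∨ BadT (s + c - p0)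

theorem Nx.unique {c : ℕ} {Q : List α} {s s' : ℕ} (h : Nx Wo z c Q s) (h' : Nx Wo z c Q s') :
    s = s' := by
  rcases lt_trichotomy s s' with hlt | heq | hgt
  · exact absurd h.2.2.1 (h'.2.2.2 s hlt h.1)
  · exact heq
  · exact absurd h'.2.2.1 (h.2.2.2 s' hgt h'.1)

end

section

variable {n W : ℕ} {Wo : List α → Prop} (hW : Wall n W Wo)
include hW

theorem wo_drop (w : List α) (x s : ℕ) (hs : n ≤ s) (hx : x + s ≤ w.length) :
    Wo ((w.drop x).take s) ↔ Wo (w.take (x + s)) := by
  have h : w.take (x + s) = w.take x ++ (w.drop x).take s := List.take_add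
  rw [h, hW.loc]
  rw [List.length_take, List.length_drop]
  omega

theorem wo_append (P Q : List α) (s : ℕ) (hs : n ≤ s) (hx : s ≤ Q.length) :
    Wo (Q.take s) ↔ Wo ((P ++ Q).take (P.length + s)) := by
  have h : (P ++ Q).take (P.length + s) = P ++ Q.take s := by
    rw [List.take_append]
    simp
  rw [h, hW.loc]
  rw [List.length_take]
  omega

/-- transfer of block ends -/
theorem nx_append {z : ℕ} (P Q : List α) (s : ℕ) (hz : P.length + n ≤ z) :
    Nx Wo z P.length Q s ↔ Nx Wo z 0 (P ++ Q) (P.length + s) ∧ z ≤ P.length + s := by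
  constructor
  · rintro ⟨h1, h2, h3, h4⟩
    refine ⟨⟨by omega, by rw [List.length_append]; omega, ?_, ?_⟩, by omega⟩
    · rw [← wo_append hW P Q s (by omega) h2]; exact h3
    · intro s' hs' hz' hc
      obtain ⟨r, rfl⟩ : ∃ r, s' = P.length + r := ⟨s' - P.length, by omega⟩
      rw [← wo_append hW P Q r (by omega) (by omega)] at hc
      exact h4 r (by omega) (by omega) hc
  · rintro ⟨⟨h1, h2, h3, h4⟩, h5⟩
    rw [List.length_append] at h2
    refine ⟨by omega, by omega, ?_, ?_⟩
    · rw [wo_append hW P Q s (by omega) (by omega)]; exact h3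
    · intro s' hs' hz' hc
      rw [wo_append hW P Q s' (by omega) (by omega)] at hc
      exact h4 (P.length + s') (by omega) (by omega) hc

end

theorem mem_XX_iff {Wo : List α → Prop} {z : ℕ} (X : List α) :
    X ∈ XX z Wo ↔ Nx Wo z 0 X X.length := by
  unfold XX Nx
  simp only [Set.mem_ofPred_eq, add_zero, List.take_length, le_refl, true_and]
  constructor
  · rintro ⟨h1, h2, h3⟩
    exact ⟨h1, h2, fun s' hs' hz => h3 s' hz hs'⟩
  · rintro ⟨h1, h2, h3⟩
    exact ⟨h1, h2, fun t ht ht' => h3 t ht' ht⟩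

theorem take_mem_XX {Wo : List α → Prop} {z : ℕ} {Q : List α} {s : ℕ} (h : Nx Wo z 0 Q s) :
    Q.take s ∈ XX z Wo := by
  obtain ⟨h1, h2, h3, h4⟩ := h
  refine ⟨by rw [List.length_take]; omega, h3, ?_⟩
  intro t ht ht'
  rw [List.length_take] at ht'
  rw [List.take_take, min_eq_left (by omega)]
  exact h4 t (by omega) (by omega)

theorem prefix_code {Wo : List α → Prop} {z : ℕ} {X Y : List α} (hX : X ∈ XX z Wo)
    (hXY : X ++ Y ∈ XX z Wo) : Y = [] := by
  by_contra hne
  have hl : 0 < Y.length := List.length_pos_iff.2 hne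
  have := hXY.2.2 X.length hX.1 (by rw [List.length_append]; omega)
  apply this
  rw [List.take_append_of_le_length (le_refl _), List.take_length]
  exact hX.2.1

/-! ## The objects -/

section

variable (φ : List α → S) (act : V → S → V) (Wo : List α → Prop) (z N1 p0 K : ℕ)
  (BadT : ℕ → Prop) (lam rho : List α → Option V) (nu : List α → V) (c : ℕ → ℕ)
  (lam2 rho2 : ℕ → List α → Option V) (nu2 : List α → V)

/-- zone map of a block -/
def T (v : V) (X : List α) : V :=
  act (act v (φ (X.take p0)) + nu2 (X.take p0)) (φ (X.drop p0)) + nu (X.drop p0)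

def LP1 (P : List α) (v : V) : Prop :=
  p0 ≤ P.length ∧ lam (P.drop p0) = some (act v (φ (P.take p0)) + nu2 (P.take p0))

open Classical in
noncomputable def R1 (Q : List α) : Option V :=
  if Wo Q ∧ z ≤ Q.length + p0 ∧ ∀ s, s < Q.length → z ≤ s + p0 + N1 → ¬ Wo (Q.take s) then rho Q
  else none

def LP2 (P : List α) (v : V) : Prop := ∃ k, k < K ∧ P.length = c k ∧ lam2 k P = some v

/-- the right label of scheme 2, as a relation -/
def RR2 (Q : List α) (b : V) : Prop :=
  ∃ k s v2, k < K ∧ Nx Wo z (c k) Q s ∧ BadAt Wo z N1 p0 BadT (c k) Q s ∧ Q.drop s ∈ XX z Wo ∧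
    (∀ k', k' < K → k' ≠ k → ∃ s', Nx Wo z (c k') Q s' ∧ ¬ BadAt Wo z N1 p0 BadT (c k') Q s') ∧
    rho2 k (Q.take (p0 - c k)) = some v2 ∧
    b = T φ act p0 nu nu2 (act v2 (φ ((Q.take s).drop (p0 - c k))) +
      nu ((Q.take s).drop (p0 - c k))) (Q.drop s)

theorem RR2.unique {Q : List α} {b b' : V}
    (h : RR2 φ act Wo z N1 p0 K BadT nu c rho2 nu2 Q b)
    (h' : RR2 φ act Wo z N1 p0 K BadT nu c rho2 nu2 Q b') : b = b' := by
  obtain ⟨k, s, v2, hk, h1, h2, h3, h4, h5, rfl⟩ := h
  obtain ⟨k', s', v2', hk', h1', h2', h3', h4', h5', rfl⟩ := h'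
  have hkk : k = k' := by
    by_contra hne
    obtain ⟨s'', e1, e2⟩ := h4 k' hk' (fun e => hne e.symm)
    rw [Nx.unique Wo z h1' e1] at h2'
    exact e2 h2'
  subst hkk
  have hs := Nx.unique Wo z h1 h1'
  subst hs
  rw [h5] at h5'
  cases h5'
  rfl

open Classical in
noncomputable def R2 (Q : List α) : Option V :=
  if h : ∃ b, RR2 φ act Wo z N1 p0 K BadT nu c rho2 nu2 Q b then some h.choose else none

theorem R2_iff (Q : List α) (b : V) :
    R2 φ act Wo z N1 p0 K BadT nu c rho2 nu2 Q = some b ↔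
      RR2 φ act Wo z N1 p0 K BadT nu c rho2 nu2 Q b := by
  unfold R2
  constructor
  · intro h
    split_ifs at h with h0
    · have := h0.choose_spec
      rw [Option.some.inj h] at this
      exact this
  · intro h
    have h0 : ∃ b, RR2 φ act Wo z N1 p0 K BadT nu c rho2 nu2 Q b := ⟨b, h⟩
    rw [dif_pos h0]
    exact congrArg some (RR2.unique φ act Wo z N1 p0 K BadT nu c rho2 nu2 h0.choose_spec h)

end


/-! ## s1, s2, cc -/

section

variable {φ : List α → S} {act : V → S → V} {Wo : List α → Prop} {n W z N1 Nm p0 K R0 : ℕ}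
  {BadT : ℕ → Prop} {lam rho : List α → Option V} {nu : List α → V} {c : ℕ → ℕ}
  {lam2 rho2 : ℕ → List α → Option V} {nu2 : List α → V}

theorem bad_append (hW : Wall n W Wo) (P Q : List α) (s : ℕ) (hz : P.length + n + N1 ≤ z)
    (hs : s ≤ Q.length) :
    BadAt Wo z N1 p0 BadT P.length Q s ↔ BadAt Wo z N1 p0 BadT 0 (P ++ Q) (P.length + s) := by
  unfold BadAt
  have e : s + P.length - p0 = P.length + s + 0 - p0 := by omega
  rw [e]
  refine or_congr ?_ Iff.rfl
  constructor
  · rintro ⟨s', h1, h2, h3, h4⟩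
    refine ⟨P.length + s', by omega, ?_, by omega, by omega⟩
    rw [← wo_append hW P Q s' (by omega) (by omega)]
    exact h2
  · rintro ⟨s', h1, h2, h3, h4⟩
    obtain ⟨r, rfl⟩ : ∃ r, s' = P.length + r := ⟨s' - P.length, by omega⟩
    refine ⟨r, by omega, ?_, by omega, by omega⟩
    rw [wo_append hW P Q r (by omega) (by omega)]
    exact h2

theorem bad_take (w : List α) (t : ℕ) :
    BadAt Wo z N1 p0 BadT 0 w t ↔ BadAt Wo z N1 p0 BadT 0 (w.take t) t := by
  unfold BadAt
  refine or_congr ?_ Iff.rfl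
  constructor
  · rintro ⟨s', h1, h2, h3, h4⟩
    exact ⟨s', h1, by rw [List.take_take, min_eq_left h1]; exact h2, h3, h4⟩
  · rintro ⟨s', h1, h2, h3, h4⟩
    exact ⟨s', h1, by rw [List.take_take, min_eq_left h1] at h2; exact h2, h3, h4⟩

theorem s1 (hW : Wall n W Wo) (hG : G1 φ act N1 Nm BadT lam rho nu)
    (hz : p0 + N1 + n ≤ z) {P Q : List α} {v b : V}
    (hP : LP1 φ act p0 lam nu2 P v) (hQ : R1 Wo z N1 p0 rho Q = some b) :
    P ++ Q ∈ XX z Wo ∧ T φ act p0 nu nu2 v (P ++ Q) = b := by
  obtain ⟨hP0, hl⟩ := hP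
  unfold R1 at hQ
  split_ifs at hQ with hc
  obtain ⟨hQ1, hQ2, hQ3⟩ := hc
  have hlen := hG.len _ _ hl
  rw [List.length_drop] at hlen
  have hnQ := hW.len Q hQ1
  have hPl : (P ++ Q).length = P.length + Q.length := List.length_append
  constructor
  · refine ⟨by omega, (hW.loc P Q hnQ).2 hQ1, ?_⟩
    intro t ht ht' hcon
    obtain ⟨s, rfl⟩ : ∃ s, t = P.length + s := ⟨t - P.length, by omega⟩
    rw [← wo_append hW P Q s (by omega) (by omega)] at hcon
    exact hQ3 s (by omega) (by omega) hcon
  · unfold T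
    have e1 : (P ++ Q).take p0 = P.take p0 := List.take_append_of_le_length hP0
    have e2 : (P ++ Q).drop p0 = P.drop p0 ++ Q := List.drop_append_of_le_length hP0
    rw [e1, e2]
    exact (hG.sound _ _ _ _ hl hQ).symm

theorem complete1 (hW : Wall n W Wo) (hG : G1 φ act N1 Nm BadT lam rho nu)
    (hz : p0 + N1 + n ≤ z) (hNm : p0 + Nm ≤ z) {X : List α} (hX : X ∈ XX z Wo)
    (hb : ¬ BadAt Wo z N1 p0 BadT 0 X X.length) (v : V) :
    ∃ P Q, X = P ++ Q ∧ p0 ≤ P.length ∧ LP1 φ act p0 lam nu2 P v ∧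
      (R1 Wo z N1 p0 rho Q).isSome := by
  obtain ⟨h1, h2, h3⟩ := hX
  unfold BadAt at hb
  push Not at hb
  obtain ⟨hE, hB⟩ := hb
  have hlenX : z + N1 ≤ X.length := by
    by_contra hcon
    have := hE X.length le_rfl (by rw [List.take_length]; exact h2) (by omega)
    omega
  have hY : (X.drop p0).length = X.length - p0 := List.length_drop
  obtain ⟨P', Q, hPQ, hlam, hrho⟩ := hG.complete (X.drop p0) (by omega)
    (by rw [hY]; simpa using hB) (act v (φ (X.take p0)) + nu2 (X.take p0))
  have hP'l := hG.len _ _ hlam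
  have hXe : X = X.take p0 ++ P' ++ Q := by
    rw [List.append_assoc, ← hPQ, List.take_append_drop]
  have htl : (X.take p0).length = p0 := by rw [List.length_take]; omega
  have hPl : (X.take p0 ++ P').length = p0 + P'.length := by
    rw [List.length_append, htl]
  have hQl : Q.length + (p0 + P'.length) = X.length := by
    have := congrArg List.length hXe
    rw [List.length_append, hPl] at this
    omega
  refine ⟨X.take p0 ++ P', Q, hXe, by omega, ⟨by omega, ?_⟩, ?_⟩
  · have e1 : (X.take p0 ++ P').take p0 = X.take p0 := by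
      rw [List.take_append_of_le_length (by omega), List.take_take, min_self]
    have e2 : (X.take p0 ++ P').drop p0 = P' := by
      conv_lhs => rw [← htl]
      rw [List.drop_left' (by simp)]
    rw [e1, e2]
    exact hlam
  · have hcond : Wo Q ∧ z ≤ Q.length + p0 ∧
        ∀ s, s < Q.length → z ≤ s + p0 + N1 → ¬ Wo (Q.take s) := by
      have hWQ : Wo Q := by
        have := (hW.loc (X.take p0 ++ P') Q (by omega)).1 (by rw [← hXe]; exact h2)
        exact this
      refine ⟨hWQ, by omega, ?_⟩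
      intro s hs hs' hcon
      rw [wo_append hW (X.take p0 ++ P') Q s (by omega) (by omega), hPl, ← hXe] at hcon
      by_cases hlt : z ≤ p0 + P'.length + s
      · exact h3 _ hlt (by omega) hcon
      · have := hE (p0 + P'.length + s) (by omega) hcon (by omega)
        omega
    unfold R1
    rw [if_pos hcond]
    exact hrho

theorem s2 (hW : Wall n W Wo) (hG : G1 φ act N1 Nm BadT lam rho nu)
    (hG2 : G2 φ act K p0 R0 c lam2 rho2 nu2)
    (hz : p0 + N1 + n ≤ z) (hNm : p0 + Nm ≤ z) {P Q : List α} {v b : V}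
    (hP : LP2 K c lam2 P v)
    (hQ : R2 φ act Wo z N1 p0 K BadT nu c rho2 nu2 Q = some b)
    (hlive : ∀ X ∈ XX z Wo, X <+: P ++ Q → ∀ P' Q', X = P' ++ Q' → P.length ≤ P'.length →
      LP1 φ act p0 lam nu2 P' v → (R1 Wo z N1 p0 rho Q').isSome → False) :
    ∃ Q1 X2, Q = Q1 ++ X2 ∧ Q1 ≠ [] ∧ P ++ Q1 ∈ XX z Wo ∧ X2 ∈ XX z Wo ∧
      T φ act p0 nu nu2 (T φ act p0 nu nu2 v (P ++ Q1)) X2 = b := by
  obtain ⟨k0, hk0, hPl, hl0⟩ := hP
  have hcl := hG2.cle k0 hk0
  rw [R2_iff] at hQ
  obtain ⟨k, s, v2, hk, h1, h2, h3, h4, h5, rfl⟩ := hQ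
  have key : ∀ s', Nx Wo z P.length Q s' → P ++ Q.take s' ∈ XX z Wo := by
    intro s' hs'
    have := (nx_append hW P Q s' (by omega)).1 hs'
    have h := take_mem_XX this.1
    have e : (P ++ Q).take (P.length + s') = P ++ Q.take s' := by
      rw [List.take_append]; simp
    rwa [e] at h
  have hkk : k0 = k := by
    by_contra hne
    obtain ⟨s', e1, e2⟩ := h4 k0 hk0 hne
    rw [← hPl] at e1 e2
    have hX := key s' e1
    have hnb : ¬ BadAt Wo z N1 p0 BadT 0 (P ++ Q.take s') (P ++ Q.take s').length := by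
      intro hbad
      apply e2
      rw [bad_append hW P Q s' (by omega) e1.2.1, bad_take]
      have e : (P ++ Q).take (P.length + s') = P ++ Q.take s' := by
        rw [List.take_append]; simp
      have e' : (P ++ Q.take s').length = P.length + s' := by
        rw [List.length_append, List.length_take]
        have := e1.2.1
        omega
      rw [e]
      rwa [e'] at hbad
    obtain ⟨P', Q', hX', hp, hLP, hRR⟩ := complete1 hW hG hz hNm hX hnb v
    refine hlive _ hX ?_ P' Q' hX' (by omega) hLP hRR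
    exact ⟨Q.drop s', by rw [List.append_assoc, List.take_append_drop]⟩
  subst hkk
  rw [← hPl] at h1 h2 h5
  have hs1 := h1.1
  have hs2 := h1.2.1
  refine ⟨Q.take s, Q.drop s, (List.take_append_drop s Q).symm, ?_, key s h1, h3, ?_⟩
  · intro hnil
    have := congrArg List.length hnil
    rw [List.length_take] at this
    simp at this
    have hn := hW.npos
    rcases this with h | h
    · omega
    · rw [h] at hs2
      simp at hs2
      omega
  · congr 1
    have e1 : (P ++ Q.take s).take p0 = P ++ Q.take (p0 - P.length) := by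
      rw [List.take_append, List.take_of_length_le (by omega : P.length ≤ p0), List.take_take,
        min_eq_left (by omega)]
    have e2 : (P ++ Q.take s).drop p0 = (Q.take s).drop (p0 - P.length) := by
      rw [List.drop_append, List.drop_of_length_le (by omega : P.length ≤ p0), List.nil_append]
    have hv2 := hG2.sound k0 hk0 P (Q.take (p0 - P.length)) v v2 hPl hl0 h5
    conv_lhs => unfold T
    rw [e1, e2, ← hv2, hPl]

/-- the spoiled places -/
def Spoiled (Wo : List α → Prop) (z N1 p0 : ℕ) (BadT : ℕ → Prop) (K : ℕ) (c : ℕ → ℕ)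
    (w : List α) (k : ℕ) : Prop :=
  ∃ k', k' < K ∧ k' ≠ k ∧ ∃ s', Nx Wo z (c k') (w.drop (c k)) s' ∧
    BadAt Wo z N1 p0 BadT (c k') (w.drop (c k)) s'

open Classical in
theorem cc (hW : Wall n W Wo) (hG : G1 φ act N1 Nm BadT lam rho nu)
    (hG2 : G2 φ act K p0 R0 c lam2 rho2 nu2)
    (hz : p0 + N1 + n ≤ z) (hNm : p0 + Nm ≤ z)
    (hSP : ∀ X ∈ XX z Wo, ∀ X2 ∈ XX z Wo,
      ((Finset.range K).filter (Spoiled Wo z N1 p0 BadT K c (X ++ X2))).card ≤ R0)
    {X X2 : List α} (hX : X ∈ XX z Wo) (hX2 : X2 ∈ XX z Wo) (v : V) :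
    (∃ P Q, X = P ++ Q ∧ LP1 φ act p0 lam nu2 P v ∧ (R1 Wo z N1 p0 rho Q).isSome) ∨
    (∃ P Q, X ++ X2 = P ++ Q ∧ P.length < X.length ∧ LP2 K c lam2 P v ∧
      (R2 φ act Wo z N1 p0 K BadT nu c rho2 nu2 Q).isSome) := by
  by_cases hb : BadAt Wo z N1 p0 BadT 0 X X.length
  swap
  · left
    obtain ⟨P, Q, h1, -, h2, h3⟩ := complete1 hW hG hz hNm hX hb v
    exact ⟨P, Q, h1, h2, h3⟩
  right
  have hXl := hX.1
  have hul : (X.take p0).length = p0 := by rw [List.length_take]; omega
  obtain ⟨I, hI, hI'⟩ := hG2.complete (X.take p0) hul v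
  obtain ⟨k, hkI, hks⟩ : ∃ k ∈ I, ¬ Spoiled Wo z N1 p0 BadT K c (X ++ X2) k := by
    by_contra hcon
    push Not at hcon
    have hsub : I ⊆ (Finset.range K).filter (Spoiled Wo z N1 p0 BadT K c (X ++ X2)) := by
      intro k hk
      exact Finset.mem_filter.2 ⟨Finset.mem_range.2 (hI' k hk).1, hcon k hk⟩
    have := Finset.card_le_card hsub
    have := hSP X hX X2 hX2
    omega
  obtain ⟨hk, hlam, hrho⟩ := hI' k hkI
  have hck := hG2.cle k hk
  have hPl : (X.take (c k)).length = c k := by rw [List.length_take]; omega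
  have hdrop : (X ++ X2).drop (c k) = X.drop (c k) ++ X2 :=
    List.drop_append_of_le_length (by omega)
  have hPQ : X.take (c k) ++ (X ++ X2).drop (c k) = X ++ X2 := by
    rw [hdrop, ← List.append_assoc, List.take_append_drop]
  set Q := (X ++ X2).drop (c k) with hQdef
  have hQl : Q.length = X.length - c k + X2.length := by
    rw [hdrop, List.length_append, List.length_drop]
  have htX : (X ++ X2).take X.length = X := by
    rw [List.take_append_of_le_length le_rfl, List.take_length]
  refine ⟨X.take (c k), Q, hPQ.symm, by omega, ⟨k, hk, hPl, ?_⟩, ?_⟩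
  · rw [List.take_take, min_eq_left (by omega)] at hlam
    exact hlam
  obtain ⟨v2, hv2⟩ := Option.isSome_iff_exists.1 hrho
  have hex : ∃ b, RR2 φ act Wo z N1 p0 K BadT nu c rho2 nu2 Q b := by
    refine ⟨_, k, X.length - c k, v2, hk, ?_, ?_, ?_, ?_, ?_, rfl⟩
    · have h0 : Nx Wo z 0 (X ++ X2) X.length := by
        refine ⟨by omega, by rw [List.length_append]; omega, ?_, ?_⟩
        · rw [htX]; exact hX.2.1
        · intro s' hs' hz' hcon
          rw [List.take_append_of_le_length (by omega)] at hcon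
          exact hX.2.2 s' (by omega) hs' hcon
      have := (nx_append hW (z := z) (X.take (c k)) Q (X.length - c k) (by omega)).2
      rw [hPQ, hPl] at this
      apply this
      have e : c k + (X.length - c k) = X.length := by omega
      rw [e]
      exact ⟨h0, by omega⟩
    · have := (bad_append (p0 := p0) (BadT := BadT) (N1 := N1) (z := z) hW (X.take (c k)) Q
        (X.length - c k) (by omega) (by omega)).2
      rw [hPQ, hPl] at this
      apply this
      have e : c k + (X.length - c k) = X.length := by omega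
      rw [e, bad_take, htX]
      exact hb
    · have : Q.drop (X.length - c k) = X2 := by
        rw [hdrop, List.drop_left' (by rw [List.length_drop])]
      rw [this]
      exact hX2
    · intro k' hk' hne
      have hck' := hG2.cle k' hk'
      have hQW : Wo Q := by
        rw [hdrop]
        exact (hW.loc _ _ (hW.len _ hX2.2.1)).2 hX2.2.1
      have hX2l := hX2.1
      have hexs : ∃ s, z ≤ s + c k' ∧ s ≤ Q.length ∧ Wo (Q.take s) :=
        ⟨Q.length, by omega, le_rfl, by rw [List.take_length]; exact hQW⟩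
      obtain ⟨h1, h2, h3⟩ := Nat.find_spec hexs
      have hNx : Nx Wo z (c k') Q (Nat.find hexs) := by
        refine ⟨h1, h2, h3, ?_⟩
        intro s' hs' hz' hcon
        exact Nat.find_min hexs hs' ⟨hz', by omega, hcon⟩
      refine ⟨_, hNx, ?_⟩
      intro hbad
      exact hks ⟨k', hk', hne, _, hNx, hbad⟩
    · have : Q.take (p0 - c k) = (X.take p0).drop (c k) := by
        rw [hdrop, List.drop_take, List.take_append_of_le_length]
        rw [List.length_drop]; omega
      rw [this]
      exact hv2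
  obtain ⟨b, hbb⟩ := hex
  rw [Option.isSome_iff_exists]
  exact ⟨b, (R2_iff φ act Wo z N1 p0 K BadT nu c rho2 nu2 Q b).2 hbb⟩

/-! ## The spoiling count -/

open Classical in
theorem spoil (hW : Wall n W Wo) {Lam C1 : ℕ} (hcL : ∀ k < K, c k ≤ Lam)
    (hz : p0 + N1 + n + 3 * Lam + 1 ≤ z) (hgap : 2 * N1 + 2 * Lam ≤ W)
    (hB : ∀ T0, z ≤ T0 + p0 + Lam → ((Finset.range K ×ˢ Finset.range K).filter
      (fun ab => ab.1 ≠ ab.2 ∧ BadT (T0 + c ab.1 - c ab.2))).card ≤ C1)
    (hS : ∀ a b a' b', a < K → b < K → a' < K → b' < K → a ≠ b → a' ≠ b' →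
      c a + c b' < c a' + c b + 2 * N1 → c a' + c b < c a + c b' + 2 * N1 → b = b')
    (w : List α) :
    ((Finset.range K).filter (Spoiled Wo z N1 p0 BadT K c w)).card ≤ 1 + 2 * C1 := by
  -- walls of the text
  have hsep : ∀ t t', t < t' → t' ≤ w.length → Wo (w.take t) → Wo (w.take t') → t + W < t' := by
    intro t t' hlt hle h1 h2
    by_contra hcon
    have hl : (w.take t').length = t' := by rw [List.length_take]; omega
    have := hW.gap (w.take t') (t' - t) h2 (by omega) (by omega)
    rw [hl, List.take_take, min_eq_left (by omega)] at this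
    have e : t' - (t' - t) = t := by omega
    rw [e] at this
    exact this h1
  -- an end of a candidate block
  let En : ℕ → ℕ → ℕ → Prop := fun a b t => t ≤ w.length ∧ Wo (w.take t) ∧ z + c b ≤ t + c a ∧
    ∀ t', t' < t → z + c b ≤ t' + c a → ¬ Wo (w.take t')
  have hEn : ∀ a b s, a < K → b < K → Nx Wo z (c a) (w.drop (c b)) s → En a b (c b + s) := by
    intro a b s ha hb hN
    have h1 := hcL a ha
    have h2 := hcL b hb
    obtain ⟨e1, e2, e3, e4⟩ := hN
    rw [List.length_drop] at e2
    refine ⟨by omega, ?_, by omega, ?_⟩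
    · rw [← wo_drop hW w (c b) s (by omega) (by omega)]; exact e3
    · intro t' ht' hz' hcon
      obtain ⟨r, rfl⟩ : ∃ r, t' = c b + r := ⟨t' - c b, by omega⟩
      rw [← wo_drop hW w (c b) r (by omega) (by omega)] at hcon
      exact e4 r (by omega) (by omega) hcon
  -- B pairs
  let PB : ℕ → Finset (ℕ × ℕ) := fun t => (Finset.range K ×ˢ Finset.range K).filter
      (fun ab => ab.1 ≠ ab.2 ∧ BadT ((t - p0) + c ab.1 - c ab.2))
  -- E pairs
  let PE : Finset (ℕ × ℕ) := (Finset.range K ×ˢ Finset.range K).filter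
      (fun ab => ab.1 ≠ ab.2 ∧ ∃ t, t ≤ w.length ∧ Wo (w.take t) ∧ z + c ab.2 ≤ t + c ab.1 + N1 ∧
        t + c ab.1 < z + N1 + c ab.2)
  have hPE : (PE.image Prod.snd).card ≤ 1 := by
    rw [Finset.card_le_one]
    intro x hx y hy
    obtain ⟨⟨a, b⟩, hab, rfl⟩ := Finset.mem_image.1 hx
    obtain ⟨⟨a', b'⟩, hab', rfl⟩ := Finset.mem_image.1 hy
    obtain ⟨hm, hne, t, ht1, ht2, ht3, ht4⟩ := Finset.mem_filter.1 hab
    obtain ⟨hm', hne', t', ht1', ht2', ht3', ht4'⟩ := Finset.mem_filter.1 hab'
    simp only [Finset.mem_product, Finset.mem_range] at hm hm' hne hne' ht3 ht4 ht3' ht4' ⊢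
    have e1 := hcL a hm.1
    have e2 := hcL b hm.2
    have e3 := hcL a' hm'.1
    have e4 := hcL b' hm'.2
    have htt : t = t' := by
      rcases lt_trichotomy t t' with h | h | h
      · have := hsep t t' h ht1' ht2 ht2'
        omega
      · exact h
      · have := hsep t' t h ht1 ht2' ht2
        omega
    subst htt
    exact hS a b a' b' hm.1 hm.2 hm'.1 hm'.2 hne hne' (by omega) (by omega)
  -- first wall
  by_cases hex : ∃ t, t ≤ w.length ∧ Wo (w.take t) ∧ z ≤ t + Lam
  swap
  · have : (Finset.range K).filter (Spoiled Wo z N1 p0 BadT K c w) = ∅ := by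
      rw [Finset.filter_eq_empty_iff]
      rintro k hk ⟨k', hk', -, s', hN, -⟩
      have hk := Finset.mem_range.1 hk
      have h := hEn k' k s' hk' hk hN
      have := hcL k' hk'
      exact hex ⟨_, h.1, h.2.1, by have := h.2.2.1; omega⟩
    rw [this]
    simp
  set t0 := Nat.find hex with ht0
  obtain ⟨g1, g2, g3⟩ := Nat.find_spec hex
  have gmin : ∀ t, t < t0 → ¬ (t ≤ w.length ∧ Wo (w.take t) ∧ z ≤ t + Lam) :=
    fun t ht => Nat.find_min hex ht
  rw [← ht0] at g1 g2 g3
  have hge : ∀ a b t, a < K → b < K → En a b t → t0 ≤ t := by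
    intro a b t ha hb h
    by_contra hcon
    have := hcL a ha
    exact gmin t (by omega) ⟨h.1, h.2.1, by have := h.2.2.1; omega⟩
  have huniq : ∀ a b t a' b' t', a < K → b < K → a' < K → b' < K → En a b t → En a' b' t' →
      t ≠ t0 → t' ≠ t0 → t = t' := by
    intro a b t a' b' t' ha hb ha' hb' h h' hne hne'
    have e1 := hcL a ha
    have e2 := hcL b hb
    have e3 := hcL a' ha'
    have e4 := hcL b' hb'
    have l1 : t0 < t := lt_of_le_of_ne (hge a b t ha hb h) (Ne.symm hne)
    have l2 : t0 < t' := lt_of_le_of_ne (hge a' b' t' ha' hb' h') (Ne.symm hne')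
    have k1 := hsep t0 t l1 h.1 g2 h.2.1
    have k2 := hsep t0 t' l2 h'.1 g2 h'.2.1
    rcases lt_trichotomy t t' with hlt | heq | hgt
    · exact absurd h.2.1 (h'.2.2.2 t hlt (by omega))
    · exact heq
    · exact absurd h'.2.1 (h.2.2.2 t' hgt (by omega))
  have hPB : ∀ a b t, a < K → b < K → En a b t → (PB t).card ≤ C1 := by
    intro a b t ha hb h
    have := hcL a ha
    have := h.2.2.1
    exact hB (t - p0) (by omega)
  -- the main inclusion
  have hmain : ∀ k ∈ (Finset.range K).filter (Spoiled Wo z N1 p0 BadT K c w),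
      k ∈ PE.image Prod.snd ∨ ∃ a t, a < K ∧ En a k t ∧ k ∈ (PB t).image Prod.snd := by
    intro k hk
    obtain ⟨hkK, a, ha, hne, s, hN, hbad⟩ := Finset.mem_filter.1 hk
    have hkK := Finset.mem_range.1 hkK
    have hen := hEn a k s ha hkK hN
    have e1 := hcL a ha
    have e2 := hcL k hkK
    rcases hbad with ⟨s', h1, h2, h3, h4⟩ | hbad
    · left
      have hs'' : s' ≤ w.length - c k := by
        have := hN.2.1
        rw [List.length_drop] at this
        omega
      refine Finset.mem_image.2 ⟨(a, k), Finset.mem_filter.2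
        ⟨Finset.mem_product.2 ⟨Finset.mem_range.2 ha, Finset.mem_range.2 hkK⟩, hne,
          c k + s', by omega, ?_, ?_, ?_⟩, rfl⟩
      · rw [← wo_drop hW w (c k) s' (by omega) (by omega)]; exact h2
      · show z + c k ≤ c k + s' + c a + N1
        omega
      · show c k + s' + c a < z + N1 + c k
        omega
    · right
      refine ⟨a, c k + s, ha, hen, Finset.mem_image.2 ⟨(a, k), Finset.mem_filter.2
        ⟨Finset.mem_product.2 ⟨Finset.mem_range.2 ha, Finset.mem_range.2 hkK⟩, hne, ?_⟩, rfl⟩⟩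
      show BadT ((c k + s - p0) + c a - c k)
      have h5 := hen.2.2.1
      have e : (c k + s - p0) + c a - c k = s + c a - p0 := by omega
      rw [e]
      exact hbad
  by_cases hex1 : ∃ a b t, a < K ∧ b < K ∧ En a b t ∧ t ≠ t0
  · obtain ⟨a1, b1, t1, ha1, hb1, hen1, hne1⟩ := hex1
    have hsub : (Finset.range K).filter (Spoiled Wo z N1 p0 BadT K c w) ⊆
        PE.image Prod.snd ∪ ((if (PB t0).card ≤ C1 then (PB t0).image Prod.snd else ∅) ∪
          (PB t1).image Prod.snd) := by
      intro k hk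
      have hkK := Finset.mem_range.1 (Finset.mem_filter.1 hk).1
      rcases hmain k hk with h | ⟨a, t, ha, hen, h⟩
      · exact Finset.mem_union_left _ h
      · apply Finset.mem_union_right
        by_cases ht : t = t0
        · apply Finset.mem_union_left
          rw [ht] at h hen
          rw [if_pos (hPB a k t0 ha hkK hen)]
          exact h
        · apply Finset.mem_union_right
          rw [huniq a k t a1 b1 t1 ha hkK ha1 hb1 hen hen1 ht hne1] at h
          exact h
    refine le_trans (Finset.card_le_card hsub) ?_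
    refine le_trans (Finset.card_union_le _ _) ?_
    refine le_trans (Nat.add_le_add hPE (Finset.card_union_le _ _)) ?_
    have h1 : ((PB t1).image Prod.snd).card ≤ C1 :=
      le_trans Finset.card_image_le (hPB a1 b1 t1 ha1 hb1 hen1)
    have h0 : (if (PB t0).card ≤ C1 then (PB t0).image Prod.snd else ∅).card ≤ C1 := by
      split_ifs with h
      · exact le_trans Finset.card_image_le h
      · simp
    omega
  · push Not at hex1
    have hsub : (Finset.range K).filter (Spoiled Wo z N1 p0 BadT K c w) ⊆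
        PE.image Prod.snd ∪ (if (PB t0).card ≤ C1 then (PB t0).image Prod.snd else ∅) := by
      intro k hk
      have hkK := Finset.mem_range.1 (Finset.mem_filter.1 hk).1
      rcases hmain k hk with h | ⟨a, t, ha, hen, h⟩
      · exact Finset.mem_union_left _ h
      · apply Finset.mem_union_right
        have ht := hex1 a k t ha hkK hen
        rw [ht] at h hen
        rw [if_pos (hPB a k t0 ha hkK hen)]
        exact h
    refine le_trans (Finset.card_le_card hsub) ?_
    refine le_trans (Finset.card_union_le _ _) ?_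
    have h0 : (if (PB t0).card ≤ C1 then (PB t0).image Prod.snd else ∅).card ≤ C1 := by
      split_ifs with h
      · exact le_trans Finset.card_image_le h
      · simp
    omega

end

end Crest.Agent.R320.Inst_448
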