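import Crest.Agent.R320.Top5_120
import Crest.Agent.R320.ExactR_237

/-!
# Row 320: the natural chain (first left-looking wall at distance at least `z`), instance of
`Top5_120.top5` : the two completeness statements (helper453)
-/

set_option autoImplicit false

namespace Crest.Agent.R320.Inst_453

variable {α S V : Type}

/-- blocks of the natural chain -/
def XX (Wo : List α → Prop) (z : ℕ) : Set (List α) :=
  {X | z ≤ X.length ∧ Wo X ∧ ∀ t, z ≤ t → t < X.length → ¬ Wo (X.take t)}

/-- mode (E): a wall in the band `[z - N, z + N)` -/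
def BadE (Wo : List α → Prop) (z N : ℕ) (X : List α) : Prop :=
  ∃ t, t ≤ X.length ∧ z ≤ t + N ∧ t < z + N ∧ Wo (X.take t)

def Bad (Wo : List α → Prop) (z N p0 : ℕ) (BT : ℕ → Prop) : Set (List α) :=
  {X | X ∈ XX Wo z ∧ (BadE Wo z N X ∨ BT (X.length - p0))}

/-- noise of a block -/
def nu [Monoid S] [AddCommGroup V] (act : V → S → V) (φ : α → S) (nu1 nu2 : List α → V) (p0 : ℕ)
    (X : List α) : V :=
  act (nu2 (X.take p0)) ((X.drop p0).map φ).prod + nu1 (X.drop p0)

def L1 [Monoid S] [AddCommGroup V] (act : V → S → V) (φ : α → S) (nu2 : List α → V)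
    (lam : List α → Option V) (p0 : ℕ) (v : V) : Set (List α) :=
  {P | p0 ≤ P.length ∧ lam (P.drop p0) = some (act v ((P.take p0).map φ).prod + nu2 (P.take p0))}

def L2 (lam2 : ℕ → List α → Option V) (c : ℕ → ℕ) (K : ℕ) (v : V) : Set (List α) :=
  {P | ∃ k < K, P.length = c k ∧ lam2 k P = some v}

theorem T_eq [Monoid S] [AddCommGroup V] (act : V → S → V)
    (hadd : ∀ a b s, act (a + b) s = act a s + act b s)
    (hmul : ∀ v s t, act v (s * t) = act (act v s) t) (φ : α → S) (nu1 nu2 : List α → V) (p0 : ℕ)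
    (v : V) (X : List α) :
    act v (X.map φ).prod + nu act φ nu1 nu2 p0 X =
      act (act v ((X.take p0).map φ).prod + nu2 (X.take p0)) ((X.drop p0).map φ).prod
        + nu1 (X.drop p0) := by
  have h : (X.map φ).prod = ((X.take p0).map φ).prod * ((X.drop p0).map φ).prod := by
    rw [← List.prod_append, ← List.map_append, List.take_append_drop]
  rw [nu, h, hmul, hadd, add_assoc]

/-- walls are seen alike behind two different left words -/
theorem wo_take {Wo : List α → Prop} {n : ℕ}
    (hloc : ∀ P Q : List α, n ≤ Q.length → (Wo (P ++ Q) ↔ Wo Q))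
    (P P' R : List α) {t : ℕ} (h : n ≤ t) (h' : t ≤ R.length) :
    Wo ((P ++ R).take (P.length + t)) ↔ Wo ((P' ++ R).take (P'.length + t)) := by
  have e : ∀ P : List α, (P ++ R).take (P.length + t) = P ++ R.take t := by
    intro P
    rw [List.take_append, Nat.add_sub_cancel_left, List.take_of_length_le (by omega)]
  have hl : n ≤ (R.take t).length := by rw [List.length_take]; omega
  rw [e, e, hloc _ _ hl, hloc _ _ hl]

theorem cc1 [Monoid S] [AddCommGroup V] (act : V → S → V)
    (hadd : ∀ a b s, act (a + b) s = act a s + act b s)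
    (hmul : ∀ v s t, act v (s * t) = act (act v s) t) (φ : α → S)
    {Wo : List α → Prop} {n z N p0 : ℕ} {BT : ℕ → Prop}
    (hloc : ∀ P Q : List α, n ≤ Q.length → (Wo (P ++ Q) ↔ Wo Q))
    (hz : p0 + N + N + n ≤ z)
    (lam rho : List α → Option V) (nu1 nu2 : List α → V)
    (hlen : ∀ P v, lam P = some v → P.length < N)
    (hsnd : ∀ P Q v v', lam P = some v → rho Q = some v' →
      v' = act v ((P ++ Q).map φ).prod + nu1 (P ++ Q))
    (hcomp : ∀ X : List α, ¬ BT X.length → ∀ v, ∃ P Q, P ++ Q = X ∧ lam P = some v ∧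
      (rho Q).isSome) :
    ∀ X ∈ XX Wo z, X ∉ Bad Wo z N p0 BT → ∀ v, ∃ P Q, P ++ Q = X ∧ P ∈ L1 act φ nu2 lam p0 v ∧
      ∀ x, ∀ P' ∈ L1 act φ nu2 lam p0 x, P' ++ Q ∈ XX Wo z ∧
        act x ((P' ++ Q).map φ).prod + nu act φ nu1 nu2 p0 (P' ++ Q) =
          act v (X.map φ).prod + nu act φ nu1 nu2 p0 X := by
  intro X hX hb v
  have hE : ¬ BadE Wo z N X := fun h => hb ⟨hX, Or.inl h⟩
  have hB : ¬ BT (X.length - p0) := fun h => hb ⟨hX, Or.inr h⟩
  obtain ⟨hzX, hWX, hno⟩ := hX
  obtain ⟨P, Q, hPQ, hP, hQ⟩ := hcomp (X.drop p0) (by rwa [List.length_drop])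
    (act v ((X.take p0).map φ).prod + nu2 (X.take p0))
  obtain ⟨b, hb'⟩ := Option.isSome_iff_exists.1 hQ
  have htl : (X.take p0).length = p0 := by rw [List.length_take]; omega
  have hXe : X = (X.take p0 ++ P) ++ Q := by
    rw [List.append_assoc, hPQ, List.take_append_drop]
  have hPl := hlen _ _ hP
  have hQl : X.length = p0 + P.length + Q.length := by
    conv_lhs => rw [hXe]
    rw [List.length_append, List.length_append, htl]
  refine ⟨X.take p0 ++ P, Q, hXe.symm, ⟨?_, ?_⟩, ?_⟩
  · rw [List.length_append, htl]; omega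
  · have h1 : (X.take p0 ++ P).drop p0 = P := by
      rw [List.drop_append, htl]; simp
    have h2 : (X.take p0 ++ P).take p0 = X.take p0 := by
      rw [List.take_append, htl]; simp
    rw [h1, h2]; exact hP
  · rintro x P' ⟨hP'l, hP'⟩
    have hP'N := hlen _ _ hP'
    rw [List.length_drop] at hP'N
    -- every wall position of P' ++ Q behind P' corresponds to one of X
    have key : ∀ s, n ≤ s → s ≤ Q.length →
        (Wo ((P' ++ Q).take (P'.length + s)) ↔ Wo (X.take (p0 + P.length + s))) := by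
      intro s h1 h2
      have := wo_take hloc P' (X.take p0 ++ P) Q h1 h2
      rw [← hXe, List.length_append, htl] at this
      exact this
    have hXN : z + N ≤ X.length := by
      by_contra hcon
      exact hE ⟨X.length, le_rfl, by omega, by omega, by rwa [List.take_length]⟩
    have hval : act x ((P' ++ Q).map φ).prod + nu act φ nu1 nu2 p0 (P' ++ Q) =
          act v (X.map φ).prod + nu act φ nu1 nu2 p0 X := by
      rw [T_eq act hadd hmul, T_eq act hadd hmul]
      have e1 : (P' ++ Q).take p0 = P'.take p0 := by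
        rw [List.take_append]; simp [Nat.sub_eq_zero_of_le hP'l]
      have e2 : (P' ++ Q).drop p0 = P'.drop p0 ++ Q := by
        rw [List.drop_append]; simp [Nat.sub_eq_zero_of_le hP'l]
      rw [e1, e2, ← hsnd _ _ _ _ hP' hb', ← hPQ, ← hsnd _ _ _ _ hP hb']
    refine ⟨⟨?_, ?_, ?_⟩, hval⟩
    · rw [List.length_append]; omega
    · have := (key Q.length (by omega) le_rfl).2 (by
        rw [← hQl, List.take_length]; exact hWX)
      rwa [← List.length_append, List.take_length] at this
    · intro t ht1 ht2 hW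
      rw [List.length_append] at ht2
      obtain ⟨s, rfl⟩ : ∃ s, t = P'.length + s := ⟨t - P'.length, by omega⟩
      have hs := (key s (by omega) (by omega)).1 hW
      by_cases h : z ≤ p0 + P.length + s
      · exact hno _ h (by omega) hs
      · exact hE ⟨_, by omega, by omega, by omega, hs⟩

/-- the block of the candidate `k'` is bad when the true place is `k` -/
def BadPair (Wo : List α → Prop) (z N p0 : ℕ) (BT : ℕ → Prop) (c : ℕ → ℕ) (U : List α)
    (k k' : ℕ) : Prop :=
  ∃ P' X' : List α, P'.length = c k' ∧ X' ∈ Bad Wo z N p0 BT ∧ X' <+: P' ++ U.drop (c k)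

open Classical in
theorem spoil {Wo : List α → Prop} {n z N p0 W K C0 : ℕ} {BT : ℕ → Prop} {c : ℕ → ℕ}
    (hloc : ∀ P Q : List α, n ≤ Q.length → (Wo (P ++ Q) ↔ Wo Q))
    (hgap : ∀ (P : List α) (d : ℕ), Wo P → 0 < d → d ≤ W → ¬ Wo (P.take (P.length - d)))
    (hz0 : 0 < z) (hc : ∀ k < K, c k ≤ p0) (hz : 3 * p0 + 2 * N + n ≤ z)
    (hW : 2 * N + 2 * p0 ≤ W)
    (hgol : ∀ i < K, ∀ j < K, ∀ k < K, ∀ l < K, i ≠ j → k ≠ l → (i, j) ≠ (k, l) →
      c j + c k + 2 * N ≤ c l + c i ∨ c l + c i + 2 * N ≤ c j + c k)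
    (hthin : ∀ T : ℕ, (∀ k < K, c k ≤ T) →
      ((Finset.range K ×ˢ Finset.range K).filter
        (fun ab => ab.1 ≠ ab.2 ∧ BT (T + c ab.2 - c ab.1))).card ≤ C0)
    {X Y : List α} (hX : X ∈ XX Wo z) (hY : Y ∈ XX Wo z)
    (I : Finset ℕ) (hI : ∀ k ∈ I, k < K ∧ ∃ k' < K, k' ≠ k ∧
      BadPair Wo z N p0 BT c (X ++ Y) k k') : I.card ≤ 1 + 3 * C0 := by
  obtain ⟨hzX, hWX, hnoX⟩ := hX
  obtain ⟨hzY, hWY, hnoY⟩ := hY
  set U := X ++ Y with hU
  have hUl : U.length = X.length + Y.length := by rw [hU, List.length_append]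
  have hUtake : ∀ u, u ≤ X.length → U.take u = X.take u := by
    intro u hu
    rw [hU, List.take_append, Nat.sub_eq_zero_of_le hu]; simp
  have wX : Wo (U.take X.length) := by rw [hUtake _ le_rfl, List.take_length]; exact hWX
  have wU : Wo (U.take U.length) := by
    rw [List.take_length, hU, hloc _ _ (by omega)]; exact hWY
  have noX : ∀ u, z ≤ u → u < X.length → ¬ Wo (U.take u) := by
    intro u h1 h2; rw [hUtake _ h2.le]; exact hnoX u h1 h2
  have gap : ∀ u u', u' ≤ U.length → Wo (U.take u) → Wo (U.take u') → u < u' → u + W < u' := by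
    intro u u' h1 h2 h3 h4
    by_contra hcon
    refine hgap (U.take u') (u' - u) h3 (by omega) (by omega) ?_
    rw [List.length_take, List.take_take]
    have : min (min u' U.length - (u' - u)) u' = u := by omega
    rw [this]; exact h2
  -- first wall behind the end of X
  have ex2 : ∃ u, X.length < u ∧ u ≤ U.length ∧ Wo (U.take u) :=
    ⟨U.length, by omega, le_rfl, wU⟩
  obtain ⟨u2, ⟨h2a, h2b, h2c⟩, h2m⟩ : ∃ u, (X.length < u ∧ u ≤ U.length ∧ Wo (U.take u)) ∧
      ∀ u', (X.length < u' ∧ u' ≤ U.length ∧ Wo (U.take u')) → u ≤ u' :=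
    ⟨Nat.find ex2, Nat.find_spec ex2, fun u' h => Nat.find_min' ex2 h⟩
  -- the wall before z
  obtain ⟨u0, h0a, h0b, h0c⟩ : ∃ u0, z ≤ u0 + p0 ∧ u0 ≤ U.length ∧
      ∀ u, z ≤ u + p0 → u < z → Wo (U.take u) → u = u0 := by
    by_cases h : ∃ u, z ≤ u + p0 ∧ u < z ∧ Wo (U.take u)
    · obtain ⟨u, h1, h2, h3⟩ := h
      refine ⟨u, h1, by omega, fun u' h1' h2' h3' => ?_⟩
      have hzU : z ≤ U.length := by omega
      rcases lt_trichotomy u' u with hlt | heq | hgt
      · have := gap u' u (by omega) h3' h3 hlt; omega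
      · exact heq
      · have := gap u u' (by omega) h3 h3' hgt; omega
    · exact ⟨X.length, by omega, by omega, fun u h1 h2 h3 => absurd ⟨u, h1, h2, h3⟩ h⟩
  -- sets of pairs
  let PP := Finset.range K ×ˢ Finset.range K
  let E := PP.filter (fun ab => ab.1 ≠ ab.2 ∧ ∃ u, u ≤ U.length ∧ Wo (U.take u) ∧
    z + c ab.1 ≤ u + c ab.2 + N ∧ u + c ab.2 < z + c ab.1 + N)
  let B : ℕ → Finset (ℕ × ℕ) := fun u => PP.filter
    (fun ab => ab.1 ≠ ab.2 ∧ BT (u - p0 + c ab.2 - c ab.1))
  have hE : E.card ≤ 1 := by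
    rw [Finset.card_le_one]
    rintro ⟨i, j⟩ h1 ⟨k, l⟩ h2
    simp only [E, PP, Finset.mem_filter, Finset.mem_product, Finset.mem_range] at h1 h2
    obtain ⟨⟨hi, hj⟩, hij, u, hu, wu, a1, a2⟩ := h1
    obtain ⟨⟨hk, hl⟩, hkl, u', hu', wu', b1, b2⟩ := h2
    by_contra hne
    have c1 := hc i hi
    have c2 := hc j hj
    have c3 := hc k hk
    have c4 := hc l hl
    have huu : u = u' := by
      rcases lt_trichotomy u u' with hlt | heq | hgt
      · have := gap u u' hu' wu wu' hlt; omega
      · exact heq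
      · have := gap u' u hu wu' wu hgt; omega
    subst huu
    rcases hgol i hi j hj k hk l hl hij hkl hne with h | h <;> omega
  have hB : ∀ u, z ≤ u + p0 → (B u).card ≤ C0 := by
    intro u hu
    exact hthin (u - p0) (fun k hk => by have := hc k hk; omega)
  -- the inclusion
  have hsub : I ⊆ (E ∪ (B u0 ∪ (B X.length ∪ B u2))).image Prod.fst := by
    intro k hk
    obtain ⟨hkK, k', hk'K, hne, P', X', hP', hX'B, hpre⟩ := hI k hk
    have c1 := hc k hkK
    have c2 := hc k' hk'K
    obtain ⟨R, hR⟩ := hpre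
    obtain ⟨⟨hzX', hWX', hno'⟩, hmode⟩ := hX'B
    have hGl : (P' ++ U.drop (c k)).length = c k' + (U.length - c k) := by
      rw [List.length_append, List.length_drop, hP']
    have hX'l : X'.length ≤ c k' + (U.length - c k) := by
      rw [← hGl, ← hR, List.length_append]; omega
    have hX't : ∀ t, t ≤ X'.length → X'.take t = (P' ++ U.drop (c k)).take t := by
      intro t ht
      rw [← hR, List.take_append, Nat.sub_eq_zero_of_le ht]; simp
    -- transport of walls
    have tr : ∀ t, c k' + n ≤ t → t ≤ X'.length →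
        (Wo (X'.take t) ↔ Wo (U.take (t - c k' + c k))) := by
      intro t h1 h2
      rw [hX't t h2]
      have hkl : (U.take (c k)).length = c k := by rw [List.length_take]; omega
      have := wo_take hloc P' (U.take (c k)) (U.drop (c k)) (t := t - c k') (by omega)
        (by rw [List.length_drop]; omega)
      rw [List.take_append_drop, hkl, hP'] at this
      rw [show c k' + (t - c k') = t by omega, show c k + (t - c k') = t - c k' + c k by omega]
        at this
      exact this
    rw [Finset.mem_image]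
    refine ⟨(k, k'), ?_, rfl⟩
    have hmemPP : (k, k') ∈ PP := by
      simp only [PP, Finset.mem_product, Finset.mem_range]; exact ⟨hkK, hk'K⟩
    have hne' : k ≠ k' := fun h => hne h.symm
    rcases hmode with ⟨t, ht, h1, h2, h3⟩ | hBT
    · -- mode (E)
      refine Finset.mem_union_left _ (Finset.mem_filter.2 ⟨hmemPP, hne', t - c k' + c k, ?_, ?_,
        ?_, ?_⟩)
      · omega
      · exact (tr t (by omega) ht).1 h3
      · show z + c k ≤ t - c k' + c k + c k' + N; omega
      · show t - c k' + c k + c k' < z + c k + N; omega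
    · -- mode (B)
      refine Finset.mem_union_right _ ?_
      set u := X'.length - c k' + c k with hu
      have wu : Wo (U.take u) := (tr X'.length (by omega) le_rfl).1 (by rwa [List.take_length])
      have huU : u ≤ U.length := by omega
      have hnou : ∀ v, z + c k ≤ v + c k' → v < u → ¬ Wo (U.take v) := by
        intro v h1 h2 h3
        have := tr (v + c k' - c k) (by omega) (by omega)
        rw [show v + c k' - c k - c k' + c k = v by omega] at this
        exact hno' (v + c k' - c k) (by omega) (by omega) (this.2 h3)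
      have hBTu : BT (u - p0 + c k' - c k) := by
        rw [show u - p0 + c k' - c k = X'.length - p0 by omega]; exact hBT
      have hmem : ∀ w, u = w → (k, k') ∈ B w := by
        intro w hw
        subst hw
        exact Finset.mem_filter.2 ⟨hmemPP, hne', hBTu⟩
      by_cases hlt : u < z
      · exact Finset.mem_union_left _ (hmem _ (h0c u (by omega) hlt wu))
      · refine Finset.mem_union_right _ ?_
        by_cases hle : u ≤ X.length
        · refine Finset.mem_union_left _ (hmem _ ?_)
          by_contra hcon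
          exact noX u (by omega) (by omega) wu
        · refine Finset.mem_union_right _ (hmem _ ?_)
          refine le_antisymm ?_ (h2m u ⟨by omega, huU, wu⟩)
          by_contra hcon
          have := gap X.length u2 h2b wX h2c h2a
          exact hnou u2 (by omega) (by omega) h2c
  calc I.card ≤ ((E ∪ (B u0 ∪ (B X.length ∪ B u2))).image Prod.fst).card :=
        Finset.card_le_card hsub
    _ ≤ (E ∪ (B u0 ∪ (B X.length ∪ B u2))).card := Finset.card_image_le
    _ ≤ E.card + ((B u0).card + ((B X.length).card + (B u2).card)) := by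
        refine (Finset.card_union_le _ _).trans (Nat.add_le_add_left ?_ _)
        refine (Finset.card_union_le _ _).trans (Nat.add_le_add_left ?_ _)
        exact Finset.card_union_le _ _
    _ ≤ 1 + 3 * C0 := by
        have h1 := hB u0 h0a
        have h2 := hB X.length (by omega)
        have h3 := hB u2 (by omega)
        omega

open Classical in
theorem cc2 [Monoid S] [AddCommGroup V] (act : V → S → V)
    (hadd : ∀ a b s, act (a + b) s = act a s + act b s)
    (hmul : ∀ v s t, act v (s * t) = act (act v s) t) (φ : α → S)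
    {Wo : List α → Prop} {n z N p0 W K C0 : ℕ} {BT : ℕ → Prop} {c : ℕ → ℕ}
    (hloc : ∀ P Q : List α, n ≤ Q.length → (Wo (P ++ Q) ↔ Wo Q))
    (hgap : ∀ (P : List α) (d : ℕ), Wo P → 0 < d → d ≤ W → ¬ Wo (P.take (P.length - d)))
    (hz0 : 0 < z) (hc : ∀ k < K, c k ≤ p0) (hz : 3 * p0 + 2 * N + n ≤ z)
    (hW : 2 * N + 2 * p0 ≤ W)
    (hgol : ∀ i < K, ∀ j < K, ∀ k < K, ∀ l < K, i ≠ j → k ≠ l → (i, j) ≠ (k, l) →
      c j + c k + 2 * N ≤ c l + c i ∨ c l + c i + 2 * N ≤ c j + c k)
    (hthin : ∀ T : ℕ, (∀ k < K, c k ≤ T) →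
      ((Finset.range K ×ˢ Finset.range K).filter
        (fun ab => ab.1 ≠ ab.2 ∧ BT (T + c ab.2 - c ab.1))).card ≤ C0)
    (nu1 nu2 : List α → V) (lam2 rho2 : ℕ → List α → Option V)
    (hs2 : ∀ k < K, ∀ (P Q : List α) (v b : V), P.length = c k → lam2 k P = some v →
      rho2 k Q = some b → b = act v ((P ++ Q).map φ).prod + nu2 (P ++ Q))
    (hc2 : ∀ (u : List α) (v : V), (∀ k < K, c k ≤ u.length) →
      ∃ I : Finset ℕ, 2 + 3 * C0 ≤ I.card ∧ ∀ k ∈ I, k < K ∧ lam2 k (u.take (c k)) = some v ∧
        (rho2 k (u.drop (c k))).isSome) :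
    ∀ X ∈ Bad Wo z N p0 BT, ∀ Y ∈ Bad Wo z N p0 BT, ∀ v, ∃ P Q, P ++ Q = X ++ Y ∧
      P ∈ L2 lam2 c K v ∧ ∀ x, ∀ P' ∈ L2 lam2 c K x,
        (∃ X' ∈ Bad Wo z N p0 BT, ∃ Y' ∈ XX Wo z, X' ++ Y' = P' ++ Q ∧
          act (act x (X'.map φ).prod + nu act φ nu1 nu2 p0 X') (Y'.map φ).prod
            + nu act φ nu1 nu2 p0 Y' =
            act (act v (X.map φ).prod + nu act φ nu1 nu2 p0 X) (Y.map φ).prod
              + nu act φ nu1 nu2 p0 Y) ∨
        (∃ X' ∈ XX Wo z, X' ∉ Bad Wo z N p0 BT ∧ X' <+: P' ++ Q) := by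
  intro X hXB Y hYB v
  have hX := hXB.1
  have hY := hYB.1
  have hzX := hX.1
  have hzY := hY.1
  have htl : (X.take p0).length = p0 := by rw [List.length_take]; omega
  obtain ⟨I, hI, hI'⟩ := hc2 (X.take p0) v (by rw [htl]; exact hc)
  -- an unspoiled place
  let Sp : ℕ → Prop := fun k => ∃ k' < K, k' ≠ k ∧ BadPair Wo z N p0 BT c (X ++ Y) k k'
  have hSp : (I.filter Sp).card ≤ 1 + 3 * C0 :=
    spoil hloc hgap hz0 hc hz hW hgol hthin hX hY (I.filter Sp) (fun k hk => by
      obtain ⟨h1, h2⟩ := Finset.mem_filter.1 hk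
      exact ⟨(hI' k h1).1, h2⟩)
  obtain ⟨k, hkI, hkS⟩ : ∃ k ∈ I, ¬ Sp k := by
    by_contra hcon
    push Not at hcon
    have : I.filter Sp = I := Finset.filter_true_of_mem hcon
    rw [this] at hSp; omega
  obtain ⟨hkK, hlam, hrho⟩ := hI' k hkI
  obtain ⟨b, hb⟩ := Option.isSome_iff_exists.1 hrho
  have hck := hc k hkK
  have hPt : (X.take p0).take (c k) = X.take (c k) := by
    rw [List.take_take, min_eq_left hck]
  rw [hPt] at hlam
  have hPl : (X.take (c k)).length = c k := by rw [List.length_take]; omega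
  have hXtd : X.take (c k) ++ X.drop (c k) = X := List.take_append_drop _ _
  have hcut : X.take (c k) ++ (X.drop (c k) ++ Y) = X ++ Y := by
    rw [← List.append_assoc, hXtd]
  refine ⟨X.take (c k), X.drop (c k) ++ Y, hcut, ⟨k, hkK, hPl, hlam⟩, ?_⟩
  rintro x P' ⟨k', hk'K, hP'l, hP'lam⟩
  have hck' := hc k' hk'K
  have hUdrop : (X ++ Y).drop (c k) = X.drop (c k) ++ Y := by
    rw [List.drop_append, Nat.sub_eq_zero_of_le (by omega : c k ≤ X.length)]; simp
  by_cases hkk : k' = k
  · subst hkk
    left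
    have hX'l : (P' ++ X.drop (c k')).length = X.length := by
      rw [List.length_append, List.length_drop]; omega
    have tr : ∀ t, c k' + n ≤ t → t ≤ X.length →
        (Wo ((P' ++ X.drop (c k')).take t) ↔ Wo (X.take t)) := by
      intro t h1 h2
      have := wo_take hloc P' (X.take (c k')) (X.drop (c k')) (t := t - c k') (by omega)
        (by rw [List.length_drop]; omega)
      rw [hXtd, hPl, hP'l, show c k' + (t - c k') = t by omega] at this
      exact this
    have hX' : P' ++ X.drop (c k') ∈ XX Wo z := by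
      refine ⟨by omega, ?_, ?_⟩
      · have := (tr X.length (by omega) le_rfl).2 (by rw [List.take_length]; exact hX.2.1)
        rwa [← hX'l, List.take_length] at this
      · intro t h1 h2 h3
        exact hX.2.2 t h1 (by omega) ((tr t (by omega) (by omega)).1 h3)
    have hX'B : P' ++ X.drop (c k') ∈ Bad Wo z N p0 BT := by
      refine ⟨hX', ?_⟩
      rcases hXB.2 with ⟨t, h1, h2, h3, h4⟩ | h
      · exact Or.inl ⟨t, by omega, h2, h3, (tr t (by omega) h1).2 h4⟩
      · exact Or.inr (by rwa [hX'l])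
    refine ⟨_, hX'B, Y, hY, by rw [List.append_assoc], ?_⟩
    have hval : act x ((P' ++ X.drop (c k')).map φ).prod
        + nu act φ nu1 nu2 p0 (P' ++ X.drop (c k')) =
        act v (X.map φ).prod + nu act φ nu1 nu2 p0 X := by
      rw [T_eq act hadd hmul, T_eq act hadd hmul]
      have e0 : (X.take p0).drop (c k') = (X.drop (c k')).take (p0 - c k') := by
        rw [List.drop_take]
      have e1 : (P' ++ X.drop (c k')).take p0 = P' ++ (X.take p0).drop (c k') := by
        rw [List.take_append, hP'l, List.take_of_length_le (by omega), e0]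
      have e2 : (P' ++ X.drop (c k')).drop p0 = X.drop p0 := by
        rw [List.drop_append, hP'l, List.drop_of_length_le (by omega), List.drop_drop,
          List.nil_append, show c k' + (p0 - c k') = p0 by omega]
      have e3 : X.take p0 = X.take (c k') ++ (X.take p0).drop (c k') := by
        rw [← hPt, List.take_append_drop]
      rw [e1, e2, ← hs2 k' hkK _ _ _ _ hP'l hP'lam hb]
      have := hs2 k' hkK _ _ _ _ hPl hlam hb
      rw [← e3] at this
      rw [← this]
    rw [hval]
  · right
    have hGl : (P' ++ (X.drop (c k) ++ Y)).length = c k' + (X.length - c k + Y.length) := by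
      rw [List.length_append, List.length_append, List.length_drop, hP'l]
    have hWG : Wo (P' ++ (X.drop (c k) ++ Y)) := by
      rw [← List.append_assoc, hloc _ _ (by omega)]; exact hY.2.1
    have ex : ∃ t, z ≤ t ∧ t ≤ (P' ++ (X.drop (c k) ++ Y)).length ∧
        Wo ((P' ++ (X.drop (c k) ++ Y)).take t) :=
      ⟨_, by omega, le_rfl, by rwa [List.take_length]⟩
    obtain ⟨t, ⟨h1, h2, h3⟩, h4⟩ : ∃ t, (z ≤ t ∧ t ≤ (P' ++ (X.drop (c k) ++ Y)).length ∧
        Wo ((P' ++ (X.drop (c k) ++ Y)).take t)) ∧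
        ∀ s, (z ≤ s ∧ s ≤ (P' ++ (X.drop (c k) ++ Y)).length ∧
        Wo ((P' ++ (X.drop (c k) ++ Y)).take s)) → t ≤ s :=
      ⟨Nat.find ex, Nat.find_spec ex, fun s h => Nat.find_min' ex h⟩
    have htl' : ((P' ++ (X.drop (c k) ++ Y)).take t).length = t := by
      rw [List.length_take]; omega
    have hX' : (P' ++ (X.drop (c k) ++ Y)).take t ∈ XX Wo z := by
      refine ⟨by omega, h3, ?_⟩
      intro s hs1 hs2' hs3
      rw [htl'] at hs2'
      rw [List.take_take, min_eq_left hs2'.le] at hs3
      have := h4 s ⟨hs1, by omega, hs3⟩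
      omega
    refine ⟨_, hX', fun hbad => hkS ⟨k', hk'K, hkk, P', _, hP'l, hbad, ?_⟩,
      List.take_prefix _ _⟩
    rw [hUdrop]
    exact List.take_prefix _ _

end Crest.Agent.R320.Inst_453
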