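import Mathlib
import Crest.Agent.R320.ExactR_237

/-!
# Row 320: the two schemes on ALL words (natural chain rule, left-looking walls, one token system)

The combinatorial hypotheses `s1 c1 hlen s2 c2` of 517's `top3` from
* a left-looking wall rule,
* an abstract gadget 1 (lam, rho, nu1; complete when the length is not in `BadT`),
* 237's exact gadget,
* the spoil count.
-/

set_option autoImplicit false

namespace Crest.Agent.R320.Inst_476

open Finset Crest.Agent.R320.ExactR_237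

structure Dat (α S V : Type) [Monoid S] [AddCommGroup V] where
  f : α → S
  act : V → S → V
  Wo : List α → Prop
  n : ℕ
  z : ℕ
  N : ℕ
  p0 : ℕ
  K : ℕ
  c : ℕ → ℕ
  R : ℕ
  lam : List α → Option V
  rho : List α → Option V
  nu1 : List α → V
  BadT : ℕ → Prop
  lamE : ℕ → List α → Option V
  rhoE : ℕ → List α → S → Option V
  nuE : List α → S → V

variable {α S V : Type} [Monoid S] [AddCommGroup V] (D : Dat α S V)

namespace Dat

/-- the block code -/
def XX : Set (List α) :=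
  {X | D.z ≤ X.length ∧ D.Wo X ∧ ∀ t, D.z ≤ t → t < X.length → ¬ D.Wo (X.take t)}

/-- a wall in the critical band -/
def EB (X : List α) : Prop :=
  ∃ t, D.z ≤ t + D.N ∧ t < D.z + D.N ∧ t ≤ X.length ∧ D.Wo (X.take t)

/-- the critical blocks -/
def Bad : Set (List α) := {X | X ∈ D.XX ∧ (D.EB X ∨ D.BadT (X.length - D.p0))}

/-- the zone map -/
def T (v : V) (X : List α) : V :=
  D.act (D.act v (pr D.f (X.take D.p0)) + D.nuE (X.take D.p0) 1) (pr D.f (X.drop D.p0))
    + D.nu1 (X.drop D.p0)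

def L1 (v : V) : Set (List α) :=
  {P | D.p0 ≤ P.length ∧ D.lam (P.drop D.p0)
    = some (D.act v (pr D.f (P.take D.p0)) + D.nuE (P.take D.p0) 1)}

def R1 (b : V) : Set (List α) :=
  {Q | D.z ≤ Q.length + D.p0 ∧ D.Wo Q ∧
    (∀ t, D.z ≤ t + D.p0 + D.N → t < Q.length → ¬ D.Wo (Q.take t)) ∧ D.rho Q = some b}

/-- the candidate `k` is critical -/
def BadAt (k : ℕ) (Q : List α) : Prop :=
  ∃ P Q1, P.length = D.c k ∧ Q1 <+: Q ∧ P ++ Q1 ∈ D.Bad

def L2 (v : V) : Set (List α) :=
  {P | ∃ k < D.K, P.length = D.c k ∧ D.lamE k P = some v}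

def R2 (b : V) : Set (List α) :=
  {Q | ∃ k < D.K, (∀ k' < D.K, D.BadAt k' Q → k' = k) ∧
    ∃ P Q1 X2 b0, P.length = D.c k ∧ Q = Q1 ++ X2 ∧ P ++ Q1 ∈ D.Bad ∧ X2 ∈ D.XX ∧
      D.rhoE k (Q1.take (D.p0 - D.c k)) 1 = some b0 ∧
      b = D.T (D.act b0 (pr D.f (Q1.drop (D.p0 - D.c k))) + D.nu1 (Q1.drop (D.p0 - D.c k))) X2}

/-- all hypotheses -/
structure Ok : Prop where
  wall : ∀ P Q : List α, D.n ≤ Q.length → (D.Wo (P ++ Q) ↔ D.Wo Q)
  hz : D.p0 + D.N + D.n + 1 ≤ D.z
  g1 : ∀ p v, D.lam p = some v → p.length ≤ D.N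
  g2 : ∀ p q v r, D.lam p = some v → D.rho q = some r →
    r = D.act v (pr D.f (p ++ q)) + D.nu1 (p ++ q)
  g3 : ∀ u : List α, D.z ≤ u.length + D.p0 → ¬ D.BadT u.length → ∀ v, ∃ p q, p ++ q = u ∧
    D.lam p = some v ∧ (D.rho q).isSome
  hc : ∀ k < D.K, D.c k ≤ D.p0
  e1 : ∀ k < D.K, ∀ (P Q : List α) (y : S) (v b : V), P.length = D.c k →
    D.lamE k P = some v → D.rhoE k Q y = some b →
      b = D.act v (pr D.f (P ++ Q) * y) + D.nuE (P ++ Q) y
  e2 : ∀ (u : List α) (y : S) (v : V), (∀ k < D.K, D.c k ≤ u.length) →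
    ∃ I : Finset ℕ, D.R ≤ I.card ∧ ∀ k ∈ I, k < D.K ∧ D.lamE k (u.take (D.c k)) = some v ∧
      (D.rhoE k (u.drop (D.c k)) y).isSome
  spoil : ∀ X ∈ D.XX, ∀ Y ∈ D.XX, ∃ Sp : Finset ℕ, Sp.card < D.R ∧
    ∀ k < D.K, k ∉ Sp → ∀ k' < D.K, k' ≠ k → ¬ D.BadAt k' (X.drop (D.c k) ++ Y)

variable {D}

theorem take_app (P Q : List α) (s : ℕ) : (P ++ Q).take (P.length + s) = P ++ Q.take s := by
  rw [List.take_append, List.take_of_length_le (by omega)]
  congr 2
  omega

theorem Ok.wl (h : D.Ok) (P Q : List α) {t : ℕ} (ht : P.length + D.n ≤ t)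
    (ht' : t ≤ (P ++ Q).length) : D.Wo ((P ++ Q).take t) ↔ D.Wo (Q.take (t - P.length)) := by
  obtain ⟨s, rfl⟩ : ∃ s, t = P.length + s := ⟨t - P.length, by omega⟩
  rw [take_app, show P.length + s - P.length = s by omega]
  rw [List.length_append] at ht'
  exact h.wall _ _ (by rw [List.length_take]; omega)

/-- membership in the code depends on the length of a short prefix only -/
theorem Ok.xx_congr (h : D.Ok) {P P' Q : List α} (hl : P.length = P'.length)
    (hp : P.length ≤ D.p0) : P ++ Q ∈ D.XX → P' ++ Q ∈ D.XX := by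
  rintro ⟨h1, h2, h3⟩
  have hz := h.hz
  rw [List.length_append] at h1
  refine ⟨by rw [List.length_append]; omega, ?_, ?_⟩
  · rw [h.wall _ _ (by omega)] at h2 ⊢
    exact h2
  · intro t ht ht' hw
    rw [List.length_append] at ht'
    refine h3 t ht (by rw [List.length_append]; omega) ?_
    rw [h.wl _ _ (by omega) (by rw [List.length_append]; omega)] at hw ⊢
    rw [hl]; exact hw

theorem Ok.bad_congr (h : D.Ok) {P P' Q : List α} (hl : P.length = P'.length)
    (hp : P.length ≤ D.p0) : P ++ Q ∈ D.Bad → P' ++ Q ∈ D.Bad := by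
  rintro ⟨h1, h2⟩
  have hz := h.hz
  refine ⟨h.xx_congr hl hp h1, ?_⟩
  rcases h2 with ⟨t, a1, a2, a3, a4⟩ | h2
  · left
    rw [List.length_append] at a3
    refine ⟨t, a1, a2, by rw [List.length_append]; omega, ?_⟩
    rw [h.wl _ _ (by omega) (by rw [List.length_append]; omega)] at a4 ⊢
    rw [← hl]; exact a4
  · right
    rw [List.length_append] at h2 ⊢
    rw [← hl]; exact h2

/-- `XX` is a prefix code, in comparability form -/
theorem xx_prefix {X Y : List α} (hX : X ∈ D.XX) (hY : Y ∈ D.XX) (h : X <+: Y) : X = Y := by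
  obtain ⟨w, rfl⟩ := h
  by_contra hne
  have hw : w ≠ [] := by
    rintro rfl
    exact hne (by simp)
  have hl : 0 < w.length := List.length_pos_iff.2 hw
  refine hY.2.2 X.length hX.1 (by rw [List.length_append]; omega) ?_
  rw [List.take_left]
  exact hX.2.1

theorem xx_comp {X Y A : List α} (hX : X ∈ D.XX) (hY : Y ∈ D.XX) (h1 : X <+: A) (h2 : Y <+: A) :
    X = Y := by
  rcases List.prefix_or_prefix_of_prefix h1 h2 with h | h
  · exact xx_prefix hX hY h
  · exact (xx_prefix hY hX h).symm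

theorem Ok.nil_xx (h : D.Ok) : [] ∉ D.XX := by
  intro h1
  have := h1.1
  have hz := h.hz
  simp at this
  omega

/-! ### scheme 1 -/

theorem Ok.s1 (h : D.Ok) (v b : V) (P Q : List α) (hP : P ∈ D.L1 v) (hQ : Q ∈ D.R1 b) :
    P ++ Q ∈ D.XX ∧ D.T v (P ++ Q) = b := by
  obtain ⟨h1, h2⟩ := hP
  obtain ⟨h3, h4, h5, h6⟩ := hQ
  have hz := h.hz
  have hN := h.g1 _ _ h2
  rw [List.length_drop] at hN
  refine ⟨⟨by rw [List.length_append]; omega, ?_, ?_⟩, ?_⟩
  · rw [h.wall _ _ (by omega)]; exact h4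
  · intro t ht ht'
    rw [List.length_append] at ht'
    rw [h.wl _ _ (by omega) (by rw [List.length_append]; omega)]
    exact h5 _ (by omega) (by omega)
  · unfold T
    rw [List.take_append_of_le_length h1, List.drop_append_of_le_length h1]
    exact (h.g2 _ _ _ _ h2 h6).symm

theorem Ok.c1 (h : D.Ok) (X : List α) (hX : X ∈ D.XX) (hB : X ∉ D.Bad) (v : V) :
    ∃ P Q, X = P ++ Q ∧ P ∈ D.L1 v ∧ Q ∈ D.R1 (D.T v X) := by
  have hz := h.hz
  have hX1 := hX.1
  have hE : ¬ D.EB X := fun he => hB ⟨hX, Or.inl he⟩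
  have hT : ¬ D.BadT (X.length - D.p0) := fun he => hB ⟨hX, Or.inr he⟩
  have hXl : D.z + D.N ≤ X.length := by
    by_contra hlt
    exact hE ⟨X.length, by omega, by omega, le_rfl, by rw [List.take_length]; exact hX.2.1⟩
  obtain ⟨p, q, hpq, hp, hq⟩ := h.g3 (X.drop D.p0) (by rw [List.length_drop]; omega)
    (by rw [List.length_drop]; exact hT) (D.act v (pr D.f (X.take D.p0)) + D.nuE (X.take D.p0) 1)
  obtain ⟨b, hb⟩ := Option.isSome_iff_exists.1 hq
  have hpl := h.g1 _ _ hp
  have hsplit : X = (X.take D.p0 ++ p) ++ q := by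
    rw [List.append_assoc, hpq, List.take_append_drop]
  have htl : (X.take D.p0).length = D.p0 := by rw [List.length_take]; omega
  have hlen : X.length = D.p0 + p.length + q.length := by
    have := congrArg List.length hsplit
    simp only [List.length_append, htl] at this
    omega
  have hP : X.take D.p0 ++ p ∈ D.L1 v := by
    refine ⟨by rw [List.length_append, htl]; omega, ?_⟩
    rw [List.drop_append_of_le_length (by omega), List.drop_of_length_le (by omega),
      List.nil_append, List.take_append_of_le_length (by omega), List.take_take, min_self]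
    exact hp
  have hQ : q ∈ D.R1 b := by
    refine ⟨by omega, ?_, ?_, hb⟩
    · have h1 := hX.2.1
      rw [hsplit, h.wall _ _ (by omega)] at h1
      exact h1
    · intro t ht ht' hw
      have hll : (X.take D.p0 ++ p).length = D.p0 + p.length := by
        rw [List.length_append, htl]
      have h1 : D.Wo (X.take (D.p0 + p.length + t)) := by
        have h2 := (h.wl (X.take D.p0 ++ p) q (t := D.p0 + p.length + t) (by omega)
          (by rw [List.length_append, hll]; omega)).2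
          (by rw [hll, show D.p0 + p.length + t - (D.p0 + p.length) = t by omega]; exact hw)
        rw [← hsplit] at h2
        exact h2
      rcases Nat.lt_or_ge (D.p0 + p.length + t) D.z with h3 | h3
      · exact hE ⟨D.p0 + p.length + t, by omega, by omega, by omega, h1⟩
      · exact hX.2.2 _ h3 (by omega) h1
  have hs := h.s1 v b _ _ hP hQ
  rw [← hsplit] at hs
  refine ⟨X.take D.p0 ++ p, q, hsplit, hP, ?_⟩
  rw [hs.2]
  exact hQ

/-! ### scheme 2 -/

theorem Ok.hlen (h : D.Ok) (v v' : V) (P Q X : List α) (hP : P ∈ D.L2 v) (hQ : Q ∈ D.R2 v')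
    (hX : X ∈ D.Bad) : ¬ (P ++ Q <+: X) := by
  rintro ⟨x, hx⟩
  obtain ⟨j, hj, hPl, -⟩ := hP
  obtain ⟨k, hk, huniq, P0, Q1, X2, b0, hP0, rfl, hB0, hX2, -, -⟩ := hQ
  have hz := h.hz
  have hcj := h.hc j hj
  have hck := h.hc k hk
  have hX2l := hX2.1
  have hXX := hX.1
  -- the end of `Q` is a wall
  have hw : D.Wo (P ++ (Q1 ++ X2)) := by
    rw [← List.append_assoc, h.wall _ _ (by omega)]
    exact hX2.2.1
  have hx0 : x = [] := by
    by_contra hne
    have hl : 0 < x.length := List.length_pos_iff.2 hne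
    refine hXX.2.2 (P ++ (Q1 ++ X2)).length (by simp only [List.length_append]; omega)
      (by rw [← hx]; simp only [List.length_append]; omega) ?_
    rw [← hx, List.take_left]
    exact hw
  subst hx0
  rw [List.append_nil] at hx
  have hjk : j = k := huniq j hj ⟨P, Q1 ++ X2, hPl, List.prefix_rfl, by rw [hx]; exact hX⟩
  subst hjk
  have h1 : P ++ Q1 ∈ D.XX := h.xx_congr (by omega) (by omega) hB0.1
  have h2 : P ++ Q1 = X := xx_prefix h1 hXX ⟨X2, by rw [List.append_assoc]; exact hx⟩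
  have h3 := congrArg List.length h2
  have h4 := congrArg List.length hx
  simp only [List.length_append] at h3 h4
  omega

theorem Ok.val2 (h : D.Ok) {k : ℕ} (hk : k < D.K) {v b0 : V} {P Q1 : List α}
    (hP : P.length = D.c k) (hl : D.lamE k P = some v) (hQ : D.z ≤ (P ++ Q1).length)
    (hr : D.rhoE k (Q1.take (D.p0 - D.c k)) 1 = some b0) :
    D.T v (P ++ Q1)
      = D.act b0 (pr D.f (Q1.drop (D.p0 - D.c k))) + D.nu1 (Q1.drop (D.p0 - D.c k)) := by
  have hck := h.hc k hk
  have hs := h.e1 k hk P (Q1.take (D.p0 - D.c k)) 1 v b0 hP hl hr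
  rw [mul_one] at hs
  have h1 : (P ++ Q1).take D.p0 = P ++ Q1.take (D.p0 - D.c k) := by
    rw [List.take_append, List.take_of_length_le (by omega), hP]
  have h2 : (P ++ Q1).drop D.p0 = Q1.drop (D.p0 - D.c k) := by
    rw [List.drop_append, List.drop_of_length_le (by omega), List.nil_append, hP]
  unfold T
  rw [h1, h2, ← hs]

theorem Ok.s2 (h : D.Ok) (v v' : V) (P Q X1 X2 : List α) (hP : P ∈ D.L2 v) (hQ : Q ∈ D.R2 v')
    (hX1 : X1 ∈ D.Bad) (hX2 : X2 ∈ D.Bad)
    (hcomp : X1 ++ X2 <+: P ++ Q ∨ P ++ Q <+: X1 ++ X2) :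
    X1 ++ X2 = P ++ Q ∧ D.T (D.T v X1) X2 = v' := by
  have hne := h.hlen v v' P Q X1 hP hQ hX1
  obtain ⟨j, hj, hPl, hlam⟩ := hP
  obtain ⟨k, hk, huniq, P0, Q1, Y2, b0, hP0, rfl, hB0, hY2, hrho, hv'⟩ := hQ
  have hz := h.hz
  have hcj := h.hc j hj
  have hX1l := hX1.1.1
  -- `X1` is a prefix of `P ++ Q`
  have hpre : X1 <+: P ++ (Q1 ++ Y2) := by
    rcases hcomp with h1 | h1
    · exact (List.prefix_append X1 X2).trans h1
    · rcases List.prefix_or_prefix_of_prefix (List.prefix_append X1 X2) h1 with h2 | h2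
      · exact h2
      · exact absurd h2 hne
  have hPX : P <+: X1 := by
    rcases List.prefix_or_prefix_of_prefix hpre (List.prefix_append P (Q1 ++ Y2)) with h2 | h2
    · have := h2.length_le
      omega
    · exact h2
  obtain ⟨Q1', rfl⟩ := hPX
  have hQ1' : Q1' <+: Q1 ++ Y2 := (List.prefix_append_right_inj P).1 hpre
  have hjk : j = k := huniq j hj ⟨P, Q1', hPl, hQ1', hX1⟩
  subst hjk
  have h1 : P ++ Q1 ∈ D.XX := h.xx_congr (by omega) (by omega) hB0.1
  have h2 : P ++ Q1' = P ++ Q1 := xx_comp hX1.1 h1 hpre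
    ⟨Y2, by rw [List.append_assoc]⟩
  have h3 : Q1' = Q1 := List.append_cancel_left h2
  subst h3
  have h4 : X2 = Y2 := by
    rcases hcomp with h5 | h5
    · rw [← List.append_assoc] at h5
      exact xx_prefix hX2.1 hY2 ((List.prefix_append_right_inj _).1 h5)
    · rw [← List.append_assoc] at h5
      exact (xx_prefix hY2 hX2.1 ((List.prefix_append_right_inj _).1 h5)).symm
  subst h4
  refine ⟨by rw [List.append_assoc], ?_⟩
  rw [hv', h.val2 hj hPl hlam hX1l hrho]

theorem Ok.c2 (h : D.Ok) (X : List α) (hX : X ∈ D.Bad) (Y : List α) (hY : Y ∈ D.Bad) (v : V) :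
    ∃ P Q, X ++ Y = P ++ Q ∧ P ∈ D.L2 v ∧ Q ∈ D.R2 (D.T (D.T v X) Y) := by
  have hz := h.hz
  have hXl := hX.1.1
  obtain ⟨Sp, hSp, hgood⟩ := h.spoil X hX.1 Y hY.1
  obtain ⟨I, hI, hIk⟩ := h.e2 (X.take D.p0) 1 v (by
    intro k hk
    have := h.hc k hk
    rw [List.length_take]; omega)
  obtain ⟨k, hkI, hkS⟩ : ∃ k ∈ I, k ∉ Sp := by
    by_contra hcon
    push Not at hcon
    have := Finset.card_le_card (show I ⊆ Sp from hcon)
    omega
  obtain ⟨hk, hl, hrho⟩ := hIk k hkI
  have hck := h.hc k hk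
  rw [List.take_take, min_eq_left hck] at hl
  obtain ⟨b0, hb0⟩ := Option.isSome_iff_exists.1 hrho
  rw [List.drop_take] at hb0
  have hPl : (X.take (D.c k)).length = D.c k := by rw [List.length_take]; omega
  have hXsp : X.take (D.c k) ++ X.drop (D.c k) = X := List.take_append_drop _ _
  refine ⟨X.take (D.c k), X.drop (D.c k) ++ Y, by rw [← List.append_assoc, hXsp],
    ⟨k, hk, hPl, hl⟩, k, hk, ?_, X.take (D.c k), X.drop (D.c k), Y, b0, hPl, rfl,
    by rw [hXsp]; exact hX, hY.1, hb0, ?_⟩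
  · intro k' hk' hb
    by_contra hne
    exact hgood k hk hkS k' hk' hne hb
  · have hval := h.val2 hk (v := v) (b0 := b0) (P := X.take (D.c k)) (Q1 := X.drop (D.c k)) hPl hl
      (by rw [hXsp]; exact hXl) hb0
    rw [hXsp] at hval
    rw [hval]

end Dat

end Crest.Agent.R320.Inst_476
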