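import Mathlib

/-!
# Row 320: the two schemes on the natural chain of left-looking walls (helper483)

Instantiation of 163's `Top5` literal (`s1`, `s2`, `cc`) for the block code
`XX = {X : z ≤ |X|, wall at the end of X, no wall at a place in [z, |X|)}`, scheme 1 = abstract
U-gadget (693 / 638), scheme 2 = exact gadget on words of length `p0` with a sparse ruler.
-/

set_option autoImplicit false

namespace Crest.Agent.R320.Inst_483

variable {α S V : Type*}

/-- block of the chain -/
def IsX (Wo : List α → Prop) (z : ℕ) (X : List α) : Prop :=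
  z ≤ X.length ∧ Wo X ∧ ∀ t, z ≤ t → t < X.length → ¬ Wo (X.take t)

theorem isX_nil {Wo : List α → Prop} {z : ℕ} (hz : 0 < z) : ¬ IsX Wo z [] := by
  rintro ⟨h, -⟩
  simp at h
  omega

theorem isX_pc {Wo : List α → Prop} {z : ℕ} {X Y : List α} (h : IsX Wo z X)
    (h' : IsX Wo z (X ++ Y)) : Y = [] := by
  by_contra hY
  have hl : 0 < Y.length := List.length_pos_of_ne_nil hY
  have := h'.2.2 X.length h.1 (by rw [List.length_append]; omega)
  rw [List.take_left' rfl] at this
  exact this h.2.1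

theorem exists_isX {Wo : List α → Prop} {z : ℕ} {W : List α} (h : z ≤ W.length) (hW : Wo W) :
    ∃ X, IsX Wo z X ∧ X <+: W := by
  classical
  have hex : ∃ t, z ≤ t ∧ t ≤ W.length ∧ Wo (W.take t) := ⟨W.length, h, le_rfl, by simpa using hW⟩
  obtain ⟨h1, h2, h3⟩ := Nat.find_spec hex
  refine ⟨W.take (Nat.find hex), ⟨?_, h3, ?_⟩, List.take_prefix _ _⟩
  · rw [List.length_take]; omega
  · intro t ht1 ht2 ht3
    rw [List.length_take] at ht2
    have ht4 : t < Nat.find hex := by omega
    refine Nat.find_min hex ht4 ⟨ht1, by omega, ?_⟩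
    rw [List.take_take, min_eq_left ht4.le] at ht3
    exact ht3

/-- all data -/
structure Dat (α S V : Type*) where
  φ : List α → S
  act : V → S → V
  n : ℕ
  Wo : List α → Prop
  z : ℕ
  p0 : ℕ
  N1 : ℕ
  lam : List α → Option V
  rho : List α → Option V
  nu1 : List α → V
  BadT : ℕ → Prop
  K : ℕ
  c : ℕ → ℕ
  lam2 : ℕ → List α → V → Prop
  rho2 : ℕ → List α → V → Prop
  nu2 : List α → V

namespace Dat

variable [Monoid S] [AddCommGroup V] (D : Dat α S V)

/-- zone map -/
def T (v : V) (X : List α) : V :=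
  D.act (D.act v (D.φ (X.take D.p0)) + D.nu2 (X.take D.p0)) (D.φ (X.drop D.p0)) +
    D.nu1 (X.drop D.p0)

/-- left words of scheme 1 -/
def LP1 (P : List α) (v : V) : Prop :=
  D.p0 ≤ P.length ∧
    D.lam (P.drop D.p0) = some (D.act v (D.φ (P.take D.p0)) + D.nu2 (P.take D.p0))

/-- structural condition on right words of scheme 1 -/
def RS (Q : List α) : Prop :=
  D.Wo Q ∧ D.z ≤ D.p0 + Q.length ∧ ∀ t, D.z ≤ D.p0 + D.N1 + t → t < Q.length → ¬ D.Wo (Q.take t)

open Classical in
/-- right words of scheme 1 -/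
noncomputable def R1 (Q : List α) : Option V := if D.RS Q then D.rho Q else none

/-- bad block -/
def BadX (X : List α) : Prop :=
  X.length < D.z + D.N1 ∨ (∃ t, D.z ≤ t + D.N1 ∧ t < D.z ∧ D.Wo (X.take t)) ∨
    D.BadT (X.length - D.p0)

/-- the anchor candidate `k` is bad and its block ends after `d` letters of `Q`. -/
def BadAt (k : ℕ) (Q : List α) (d : ℕ) : Prop :=
  ∃ P : List α, P.length = D.c k ∧ ∃ X, IsX D.Wo D.z X ∧ X <+: P ++ Q ∧ D.BadX X ∧
    X.length = D.c k + d

/-- left words of scheme 2 -/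
def LP2 (P : List α) (v : V) : Prop := ∃ k < D.K, P.length = D.c k ∧ D.lam2 k P v

/-- right words of scheme 2 -/
def RR2 (Q : List α) (b : V) : Prop :=
  ∃ k < D.K, ∃ (Q1 X2 : List α) (r : V), Q = Q1 ++ X2 ∧ IsX D.Wo D.z X2 ∧ D.BadAt k Q Q1.length ∧
    (∀ k' < D.K, ∀ d', D.BadAt k' Q d' → k' = k) ∧ D.rho2 k (Q1.take (D.p0 - D.c k)) r ∧
    b = D.T (D.act r (D.φ (Q1.drop (D.p0 - D.c k))) + D.nu1 (Q1.drop (D.p0 - D.c k))) X2

/-- standing assumptions; `Nm` = smallest total of the thinness statement, `C1` = its constant -/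
structure Ok (Nm C1 : ℕ) : Prop where
  φ_app : ∀ u v, D.φ (u ++ v) = D.φ u * D.φ v
  act_mul : ∀ v s s', D.act (D.act v s) s' = D.act v (s * s')
  act_add : ∀ v w s, D.act (v + w) s = D.act v s + D.act w s
  loc : ∀ U W : List α, D.n ≤ W.length → (D.Wo (U ++ W) ↔ D.Wo W)
  sep : ∀ P E : List α, D.Wo P → D.Wo (P ++ E) → E ≠ [] → 2 * D.p0 + 2 * D.N1 < E.length
  hz : 3 * D.p0 + 3 * D.N1 + D.n + Nm + 1 ≤ D.z
  lam_len : ∀ p v, D.lam p = some v → p.length ≤ D.N1
  snd1 : ∀ p q v r, D.lam p = some v → D.rho q = some r →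
    r = D.act v (D.φ (p ++ q)) + D.nu1 (p ++ q)
  cmp1 : ∀ u : List α, 2 * D.N1 ≤ u.length → ¬ D.BadT u.length → ∀ v, ∃ p q, p ++ q = u ∧
    D.lam p = some v ∧ (D.rho q).isSome
  c_le : ∀ k < D.K, D.c k ≤ D.p0
  gol : ∀ a < D.K, ∀ b < D.K, ∀ a' < D.K, ∀ b' < D.K, a ≠ b → a' ≠ b' →
    |((D.c a : ℤ) - D.c b) - (D.c a' - D.c b')| ≤ 2 * D.N1 → a = a' ∧ b = b'
  thin : ∀ T, Nm ≤ T → ∀ s : Finset ℕ, (∀ k ∈ s, k < D.K ∧ ∃ k' < D.K, k' ≠ k ∧
    D.BadT (T + D.c k' - D.c k)) → s.card ≤ C1
  snd2 : ∀ k < D.K, ∀ P Q v r, P.length = D.c k → (P ++ Q).length = D.p0 → D.lam2 k P v →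
    D.rho2 k Q r → r = D.act v (D.φ (P ++ Q)) + D.nu2 (P ++ Q)
  cmp2 : ∀ X1 : List α, X1.length = D.p0 → ∀ v, ∀ s : Finset ℕ, s.card ≤ 1 + 2 * C1 →
    ∃ k < D.K, k ∉ s ∧ D.lam2 k (X1.take (D.c k)) v ∧ ∃ r, D.rho2 k (X1.drop (D.c k)) r

variable {D} {Nm C1 : ℕ}

/-- additive part of the zone map -/
theorem Ok.T_eq (h : D.Ok Nm C1) (v : V) (X : List α) :
    D.T v X = D.act v (D.φ X) +
      (D.act (D.nu2 (X.take D.p0)) (D.φ (X.drop D.p0)) + D.nu1 (X.drop D.p0)) := by
  unfold T
  rw [h.act_add, h.act_mul, ← h.φ_app, List.take_append_drop, add_assoc]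

/-- soundness of scheme 1 -/
theorem Ok.s1 (h : D.Ok Nm C1) {P Q : List α} {v b : V} (hL : D.LP1 P v) (hR : D.R1 Q = some b) :
    IsX D.Wo D.z (P ++ Q) ∧ D.T v (P ++ Q) = b := by
  classical
  obtain ⟨hp, hlam⟩ := hL
  unfold R1 at hR
  split_ifs at hR with hS
  obtain ⟨hW, hlen, hno⟩ := hS
  have hz := h.hz
  have hl := h.lam_len _ _ hlam
  rw [List.length_drop] at hl
  refine ⟨⟨?_, ?_, ?_⟩, ?_⟩
  · rw [List.length_append]; omega
  · exact (h.loc P Q (by omega)).2 hW
  · intro t ht1 ht2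
    rw [List.length_append] at ht2
    have e : (P ++ Q).take t = P ++ Q.take (t - P.length) := by
      rw [List.take_append, List.take_of_length_le (by omega)]
    rw [e, h.loc _ _ (by rw [List.length_take]; omega)]
    exact hno _ (by omega) (by omega)
  · unfold T
    rw [List.take_append_of_le_length hp, List.drop_append_of_le_length hp]
    exact (h.snd1 _ _ _ _ hlam hR).symm

/-- completeness of scheme 1 off bad blocks -/
theorem Ok.c1 (h : D.Ok Nm C1) {X : List α} (hX : IsX D.Wo D.z X) (hB : ¬ D.BadX X) (v : V) :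
    ∃ P Q, X = P ++ Q ∧ D.p0 ≤ P.length ∧ D.LP1 P v ∧ (D.R1 Q).isSome := by
  classical
  unfold BadX at hB
  push Not at hB
  obtain ⟨hB1, hB2, hB3⟩ := hB
  have hz := h.hz
  obtain ⟨p, q, e, hlam, hrho⟩ := h.cmp1 (X.drop D.p0) (by rw [List.length_drop]; omega)
    (by rw [List.length_drop]; exact hB3)
    (D.act v (D.φ (X.take D.p0)) + D.nu2 (X.take D.p0))
  have hl := h.lam_len _ _ hlam
  have htl : (X.take D.p0).length = D.p0 := by rw [List.length_take]; omega
  have eX : X = (X.take D.p0 ++ p) ++ q := by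
    rw [List.append_assoc, e, List.take_append_drop]
  have hlenX : X.length = D.p0 + p.length + q.length := by
    conv_lhs => rw [eX]
    rw [List.length_append, List.length_append, htl]
  have hPl : (X.take D.p0 ++ p).length = D.p0 + p.length := by rw [List.length_append, htl]
  refine ⟨X.take D.p0 ++ p, q, eX, by omega, ⟨by omega, ?_⟩, ?_⟩
  · rw [List.drop_left' htl, List.take_left' htl]
    exact hlam
  · have hS : D.RS q := by
      refine ⟨?_, by omega, ?_⟩
      · have := hX.2.1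
        rw [eX] at this
        exact (h.loc _ q (by omega)).1 this
      · intro t ht1 ht2 ht3
        have e2 : X.take (D.p0 + p.length + t) = (X.take D.p0 ++ p) ++ q.take t := by
          conv_lhs => rw [eX]
          rw [List.take_append, List.take_of_length_le (by omega), hPl]
          congr 2
          omega
        have h3 : D.Wo (X.take (D.p0 + p.length + t)) := by
          rw [e2]
          exact (h.loc _ _ (by rw [List.length_take]; omega)).2 ht3
        by_cases hc : D.z ≤ D.p0 + p.length + t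
        · exact hX.2.2 _ hc (by omega) h3
        · exact hB2 _ (by omega) (by omega) h3
    unfold R1
    rw [if_pos hS]
    exact hrho

/-- locality of block lengths -/
theorem Ok.len_le (h : D.Ok Nm C1) {P P' Q X X' : List α} (hP : P.length = P'.length)
    (hle : P.length ≤ D.p0) (hX : IsX D.Wo D.z X) (hX' : IsX D.Wo D.z X') (hp : X <+: P ++ Q)
    (hp' : X' <+: P' ++ Q) : X.length ≤ X'.length := by
  by_contra hc
  push Not at hc
  have hz := h.hz
  have h1 := hX.2.2 X'.length hX'.1 hc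
  apply h1
  have e1 : X.take X'.length = P ++ Q.take (X'.length - P.length) := by
    rw [List.prefix_iff_eq_take.1 hp, List.take_take, min_eq_left hc.le, List.take_append,
      List.take_of_length_le (by have := hX'.1; omega)]
  have e2 : X' = P' ++ Q.take (X'.length - P.length) := by
    conv_lhs => rw [List.prefix_iff_eq_take.1 hp']
    rw [List.take_append, List.take_of_length_le (by have := hX'.1; omega), hP]
  have hlen : (P' ++ Q.take (X'.length - P.length)).length = X'.length := by rw [← e2]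
  rw [List.length_append] at hlen
  have hn : D.n ≤ (Q.take (X'.length - P.length)).length := by
    have := hX'.1
    omega
  rw [e1, h.loc _ _ hn, ← h.loc P' _ hn, ← e2]
  exact hX'.2.1

theorem Ok.len_eq (h : D.Ok Nm C1) {P P' Q X X' : List α} (hP : P.length = P'.length)
    (hle : P.length ≤ D.p0) (hX : IsX D.Wo D.z X) (hX' : IsX D.Wo D.z X') (hp : X <+: P ++ Q)
    (hp' : X' <+: P' ++ Q) : X.length = X'.length :=
  le_antisymm (h.len_le hP hle hX hX' hp hp') (h.len_le hP.symm (by omega) hX' hX hp' hp)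

/-- soundness of scheme 2 -/
theorem Ok.s2 (h : D.Ok Nm C1) {P Q : List α} {v b : V} (hL : D.LP2 P v) (hR : D.RR2 Q b)
    (hyp : ∀ X, IsX D.Wo D.z X → X <+: P ++ Q → ∀ P' Q', X = P' ++ Q' → P.length ≤ P'.length →
      D.LP1 P' v → (D.R1 Q').isSome → False) :
    ∃ Q1 X2, Q = Q1 ++ X2 ∧ Q1 ≠ [] ∧ IsX D.Wo D.z (P ++ Q1) ∧ IsX D.Wo D.z X2 ∧
      D.T (D.T v (P ++ Q1)) X2 = b := by
  obtain ⟨kp, hkp, hPl, hlam⟩ := hL
  obtain ⟨k, hk, Q1, X2, r, rfl, hX2, hBad, huniq, hrho, rfl⟩ := hR
  have hz := h.hz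
  have hckp := h.c_le kp hkp
  have hck := h.c_le k hk
  -- the true block
  have hW : D.Wo (P ++ (Q1 ++ X2)) := by
    rw [← List.append_assoc]
    exact (h.loc _ X2 (by have := hX2.1; omega)).2 hX2.2.1
  obtain ⟨X, hX, hXp⟩ := exists_isX (Wo := D.Wo) (z := D.z) (W := P ++ (Q1 ++ X2))
    (by have := hX2.1; simp only [List.length_append]; omega) hW
  have hXB : D.BadX X := by
    by_contra hc
    obtain ⟨P', Q', e, h1, h2, h3⟩ := h.c1 hX hc v
    exact hyp X hX hXp P' Q' e (by omega) h2 h3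
  have hlX := hX.1
  have hkk : kp = k := huniq kp hkp (X.length - D.c kp) ⟨P, hPl, X, hX, hXp, hXB, by omega⟩
  subst hkk
  obtain ⟨P'', hP'', X'', hX'', hXp'', hB'', hlen''⟩ := hBad
  have hlen : X.length = X''.length := h.len_eq (by omega) (by omega) hX hX'' hXp hXp''
  have hXe : X = P ++ Q1 := by
    have h1 : P ++ Q1 <+: P ++ (Q1 ++ X2) := by
      rw [← List.append_assoc]; exact List.prefix_append _ _
    have h2 : X <+: P ++ Q1 := List.prefix_of_prefix_length_le hXp h1 (by
      rw [List.length_append]; omega)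
    exact h2.eq_of_length (by rw [List.length_append]; omega)
  have hQ1l : D.z ≤ D.c kp + Q1.length := by omega
  refine ⟨Q1, X2, rfl, ?_, hXe ▸ hX, hX2, ?_⟩
  · rintro rfl
    simp at hQ1l
    omega
  · congr 1
    unfold T
    have e1 : (P ++ Q1).take D.p0 = P ++ Q1.take (D.p0 - D.c kp) := by
      rw [List.take_append, List.take_of_length_le (by omega), hPl]
    have e2 : (P ++ Q1).drop D.p0 = Q1.drop (D.p0 - D.c kp) := by
      rw [List.drop_append, List.drop_eq_nil_of_le (by omega), List.nil_append, hPl]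
    rw [e1, e2]
    congr 2
    refine (h.snd2 kp hkp P _ v r hPl ?_ hlam hrho).symm
    rw [List.length_append, List.length_take]
    omega

/-- walls of a word, translated by a change of the first letters -/
theorem Ok.wall_shift (h : D.Ok Nm C1) {P P' Q : List α} {t t' : ℕ} (ht : P.length + D.n ≤ t)
    (he : t' + P.length = t + P'.length) (h' : P'.length + D.n ≤ t')
    (hq : t ≤ (P ++ Q).length) :
    D.Wo ((P ++ Q).take t) ↔ D.Wo ((P' ++ Q).take t') := by
  rw [List.length_append] at hq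
  have e1 : (P ++ Q).take t = P ++ Q.take (t - P.length) := by
    rw [List.take_append, List.take_of_length_le (by omega)]
  have e2 : (P' ++ Q).take t' = P' ++ Q.take (t - P.length) := by
    rw [List.take_append, List.take_of_length_le (by omega)]
    congr 2
    omega
  have hn : D.n ≤ (Q.take (t - P.length)).length := by
    rw [List.length_take]; omega
  rw [e1, e2, h.loc _ _ hn, h.loc _ _ hn]

/-- gap of the walls of a word -/
theorem Ok.gap (h : D.Ok Nm C1) {W : List α} {t t' : ℕ} (ht : D.Wo (W.take t))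
    (ht' : D.Wo (W.take t')) (hlt : t < t') (hle : t' ≤ W.length) :
    2 * D.p0 + 2 * D.N1 < t' - t := by
  have e : W.take t' = W.take t ++ (W.take t').drop t := by
    conv_lhs => rw [← List.take_append_drop t (W.take t')]
    rw [List.take_take, min_eq_left hlt.le]
  have hl : ((W.take t').drop t).length = t' - t := by
    rw [List.length_drop, List.length_take, min_eq_left hle]
  have := h.sep (W.take t) ((W.take t').drop t) ht (e ▸ ht') (by
    intro hc
    rw [hc] at hl
    simp at hl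
    omega)
  omega

open Classical in
/-- **Spoiling count.** -/
theorem Ok.spoil (h : D.Ok Nm C1) {X X2 : List α} (hX : IsX D.Wo D.z X) (s : Finset ℕ)
    (hs : ∀ k ∈ s, k < D.K ∧ ∃ k' < D.K, k' ≠ k ∧ ∃ d', D.BadAt k' (X.drop (D.c k) ++ X2) d') :
    s.card ≤ 1 + 2 * C1 := by
  have hz := h.hz
  have hlX := hX.1
  -- walls of the word
  set W : List α := X ++ X2 with hWdef
  have hWl : X.length ≤ W.length := by rw [hWdef, List.length_append]; omega
  -- first kind of spoiling, second kind of spoiling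
  let SE : Finset ℕ := s.filter fun k => ∃ k' < D.K, k' ≠ k ∧ ∃ t, t ≤ W.length ∧
    D.Wo (W.take t) ∧ D.z + D.c k ≤ t + D.N1 + D.c k' ∧ t + D.c k' < D.z + D.N1 + D.c k
  let SB : ℕ → Finset ℕ := fun T => s.filter fun k => ∃ k' < D.K, k' ≠ k ∧
    D.BadT (T + D.c k' - D.c k)
  have hSE : SE.card ≤ 1 := by
    rw [Finset.card_le_one]
    intro a ha b hb
    simp only [SE, Finset.mem_filter] at ha hb
    obtain ⟨ha0, a', ha', hne, t, ht, hw, h1, h2⟩ := ha
    obtain ⟨hb0, b', hb', hne', t', ht', hw', h1', h2'⟩ := hb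
    have la := (hs a ha0).1
    have lb := (hs b hb0).1
    have c1 := h.c_le a la
    have c2 := h.c_le a' ha'
    have c3 := h.c_le b lb
    have c4 := h.c_le b' hb'
    have htt : t = t' := by
      rcases lt_trichotomy t t' with hlt | heq | hgt
      · have := h.gap hw hw' hlt ht'; omega
      · exact heq
      · have := h.gap hw' hw hgt ht; omega
    subst htt
    refine (h.gol a la a' ha' b lb b' hb' hne.symm hne'.symm ?_).1
    rw [abs_le]
    constructor <;> omega
  have hSB : ∀ T, Nm ≤ T → (SB T).card ≤ C1 := by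
    intro T hT
    refine h.thin T hT (SB T) fun k hk => ?_
    simp only [SB, Finset.mem_filter] at hk
    exact ⟨(hs k hk.1).1, hk.2⟩
  -- the two candidate walls
  obtain ⟨t1, ht1z, ht1⟩ : ∃ t1, D.z ≤ t1 + D.p0 ∧ ∀ t, t ≤ W.length → D.Wo (W.take t) →
      D.z ≤ t + D.p0 → t ≤ D.z + D.p0 → t = t1 := by
    by_cases hex : ∃ t, t ≤ W.length ∧ D.Wo (W.take t) ∧ D.z ≤ t + D.p0 ∧ t ≤ D.z + D.p0
    · obtain ⟨t1, a1, a2, a3, a4⟩ := hex
      refine ⟨t1, a3, fun t b1 b2 b3 b4 => ?_⟩
      rcases lt_trichotomy t t1 with hlt | heq | hgt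
      · have := h.gap b2 a2 hlt a1; omega
      · exact heq
      · have := h.gap a2 b2 hgt b1; omega
    · exact ⟨D.z, by omega, fun t b1 b2 b3 b4 => absurd ⟨t, b1, b2, b3, b4⟩ hex⟩
  obtain ⟨t2, ht2z, ht2⟩ : ∃ t2, D.z ≤ t2 ∧ ∀ t, t ≤ W.length → D.Wo (W.take t) →
      D.z + D.p0 < t → (∀ u, u ≤ W.length → D.Wo (W.take u) → D.z + D.p0 < u → t ≤ u) →
      t = t2 := by
    by_cases hex : ∃ t, t ≤ W.length ∧ D.Wo (W.take t) ∧ D.z + D.p0 < t ∧
        (∀ u, u ≤ W.length → D.Wo (W.take u) → D.z + D.p0 < u → t ≤ u)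
    · obtain ⟨t2, a1, a2, a3, a4⟩ := hex
      exact ⟨t2, by omega, fun t b1 b2 b3 b4 => le_antisymm (b4 _ a1 a2 a3) (a4 _ b1 b2 b3)⟩
    · exact ⟨D.z, le_rfl, fun t b1 b2 b3 b4 => absurd ⟨t, b1, b2, b3, b4⟩ hex⟩
  have hsub : s ⊆ SE ∪ (SB (t1 - D.p0) ∪ SB (t2 - D.p0)) := by
    intro k hk
    obtain ⟨hkK, k', hk', hne, d', P', hP', X', hX', hXp', hB', hlen'⟩ := hs k hk
    have c1 := h.c_le k hkK
    have c2 := h.c_le k' hk'
    have hzX' := hX'.1
    -- the word W read from the place c k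
    have hWe : W = X.take (D.c k) ++ (X.drop (D.c k) ++ X2) := by
      rw [← List.append_assoc, List.take_append_drop]
    have htk : (X.take (D.c k)).length = D.c k := by rw [List.length_take]; omega
    have hXl' : X'.length ≤ D.c k' + (X.drop (D.c k) ++ X2).length := by
      have := hXp'.length_le
      rwa [List.length_append, hP'] at this
    have hWlen : W.length = D.c k + (X.drop (D.c k) ++ X2).length := by
      conv_lhs => rw [hWe]
      rw [List.length_append, htk]
    -- walls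
    have key : ∀ t', D.c k' + D.n ≤ t' → D.c k + D.n + D.c k' ≤ t' + D.c k → t' ≤ X'.length →
        (D.Wo (X'.take t') ↔ D.Wo (W.take (t' + D.c k - D.c k'))) := by
      intro t' a1 a2 a3
      have e1 : X'.take t' = (P' ++ (X.drop (D.c k) ++ X2)).take t' := by
        rw [List.prefix_iff_eq_take.1 hXp', List.take_take, min_eq_left a3]
      rw [e1]
      conv_rhs => rw [hWe]
      refine h.wall_shift (by omega) (by omega) (by omega) ?_
      rw [List.length_append, hP']
      omega
    simp only [Finset.mem_union]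
    by_cases hE : X'.length < D.z + D.N1 ∨ ∃ t, D.z ≤ t + D.N1 ∧ t < D.z ∧ D.Wo (X'.take t)
    · left
      refine Finset.mem_filter.2 ⟨hk, k', hk', hne, ?_⟩
      obtain ⟨t', b1, b2, b3, b4⟩ : ∃ t', D.z ≤ t' + D.N1 ∧ t' < D.z + D.N1 ∧ t' ≤ X'.length ∧
          D.Wo (X'.take t') := by
        rcases hE with hE | ⟨t', b1, b2, b3⟩
        · exact ⟨X'.length, by omega, hE, le_rfl, by simpa using hX'.2.1⟩
        · exact ⟨t', b1, by omega, by omega, b3⟩
      exact ⟨t' + D.c k - D.c k', by omega, (key t' (by omega) (by omega) b3).1 b4, by omega,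
        by omega⟩
    · right
      have hBT : D.BadT (X'.length - D.p0) := by
        rcases hB' with hB' | hB' | hB'
        · exact absurd (Or.inl hB') hE
        · exact absurd (Or.inr hB') hE
        · exact hB'
      set tb := X'.length + D.c k - D.c k' with htb
      have hwb : D.Wo (W.take tb) := (key X'.length (by omega) (by omega) le_rfl).1 (by
        simpa using hX'.2.1)
      have htbl : tb ≤ W.length := by omega
      have hfin : ∀ T, T = tb → D.BadT (T - D.p0 + D.c k' - D.c k) := by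
        rintro T rfl
        have : tb - D.p0 + D.c k' - D.c k = X'.length - D.p0 := by omega
        rw [this]
        exact hBT
      by_cases hc : tb ≤ D.z + D.p0
      · left
        have := ht1 tb htbl hwb (by omega) hc
        exact Finset.mem_filter.2 ⟨hk, k', hk', hne, hfin _ this.symm⟩
      · right
        have := ht2 tb htbl hwb (by omega) (fun u a1 a2 a3 => by
          by_contra hcu
          push Not at hcu
          have hu : D.z ≤ u + D.c k' - D.c k := by omega
          refine hX'.2.2 (u + D.c k' - D.c k) hu (by omega) ?_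
          refine (key _ (by omega) (by omega) (by omega)).2 ?_
          have : u + D.c k' - D.c k + D.c k - D.c k' = u := by omega
          rw [this]
          exact a2)
        exact Finset.mem_filter.2 ⟨hk, k', hk', hne, hfin _ this.symm⟩
  calc s.card ≤ (SE ∪ (SB (t1 - D.p0) ∪ SB (t2 - D.p0))).card := Finset.card_le_card hsub
    _ ≤ SE.card + (SB (t1 - D.p0) ∪ SB (t2 - D.p0)).card := Finset.card_union_le _ _
    _ ≤ 1 + (C1 + C1) := Nat.add_le_add hSE ((Finset.card_union_le _ _).trans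
        (Nat.add_le_add (hSB _ (by omega)) (hSB _ (by omega))))
    _ = 1 + 2 * C1 := by ring

open Classical in
/-- completeness of scheme 2 on bad blocks -/
theorem Ok.c2 (h : D.Ok Nm C1) {X X2 : List α} (hX : IsX D.Wo D.z X) (hB : D.BadX X)
    (hX2 : IsX D.Wo D.z X2) (v : V) :
    ∃ P Q, X ++ X2 = P ++ Q ∧ P.length < X.length ∧ D.LP2 P v ∧ ∃ b, D.RR2 Q b := by
  have hz := h.hz
  have hlX := hX.1
  let s : Finset ℕ := (Finset.range D.K).filter fun k => ∃ k' < D.K, k' ≠ k ∧
    ∃ d', D.BadAt k' (X.drop (D.c k) ++ X2) d'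
  have hs : s.card ≤ 1 + 2 * C1 := h.spoil hX s fun k hk => by
    simp only [s, Finset.mem_filter, Finset.mem_range] at hk
    exact hk
  obtain ⟨k, hk, hks, hlam, r, hrho⟩ := h.cmp2 (X.take D.p0) (by rw [List.length_take]; omega) v s hs
  have hck := h.c_le k hk
  have htk : (X.take (D.c k)).length = D.c k := by rw [List.length_take]; omega
  refine ⟨X.take (D.c k), X.drop (D.c k) ++ X2, ?_, by omega, ⟨k, hk, htk, ?_⟩, ?_⟩
  · rw [← List.append_assoc, List.take_append_drop]
  · rwa [List.take_take, min_eq_left hck] at hlam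
  · refine ⟨_, k, hk, X.drop (D.c k), X2, r, rfl, hX2, ⟨X.take (D.c k), htk, X, hX, ?_, hB, ?_⟩, ?_,
      ?_, rfl⟩
    · rw [← List.append_assoc, List.take_append_drop]
      exact List.prefix_append _ _
    · rw [List.length_drop]; omega
    · intro k' hk' d' hd'
      by_contra hne
      exact hks (Finset.mem_filter.2 ⟨Finset.mem_range.2 hk, k', hk', hne, d', hd'⟩)
    · rwa [List.drop_take] at hrho

/-- **cc** -/
theorem Ok.cc (h : D.Ok Nm C1) {X X2 : List α} (hX : IsX D.Wo D.z X) (hX2 : IsX D.Wo D.z X2)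
    (v : V) : (∃ P Q, X = P ++ Q ∧ D.LP1 P v ∧ (D.R1 Q).isSome) ∨
      (∃ P Q, X ++ X2 = P ++ Q ∧ P.length < X.length ∧ D.LP2 P v ∧ ∃ b, D.RR2 Q b) := by
  by_cases hB : D.BadX X
  · exact Or.inr (h.c2 hX hB hX2 v)
  · obtain ⟨P, Q, e, -, h1, h2⟩ := h.c1 hX hB v
    exact Or.inl ⟨P, Q, e, h1, h2⟩

/-- the value of a right word of scheme 2 is unique -/
theorem Ok.RR2_unique (h : D.Ok Nm C1) (hr : ∀ k Q r r', D.rho2 k Q r → D.rho2 k Q r' → r = r')
    {Q : List α} {b b' : V} (h1 : D.RR2 Q b) (h2 : D.RR2 Q b') : b = b' := by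
  obtain ⟨k, hk, Q1, X2, r, rfl, hX2, hBad, huniq, hrho, rfl⟩ := h1
  obtain ⟨k', hk', Q1', X2', r', e, hX2', hBad', huniq', hrho', rfl⟩ := h2
  have hkk : k = k' := huniq' k hk _ hBad
  subst hkk
  obtain ⟨P, hP, X, hX, hXp, -, hl⟩ := hBad
  obtain ⟨P', hP', X', hX', hXp', -, hl'⟩ := hBad'
  have hlen : X.length = X'.length := h.len_eq (by omega) (by have := h.c_le k hk; omega) hX hX' hXp
    hXp'
  have hlQ : Q1.length = Q1'.length := by omega
  obtain ⟨rfl, rfl⟩ := List.append_inj e hlQ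
  rw [hr k _ _ _ hrho hrho']

open Classical in
/-- right words of scheme 2 as a function -/
noncomputable def R2 (D : Dat α S V) (Q : List α) : Option V :=
  if h : ∃ b, D.RR2 Q b then some h.choose else none

theorem R2_some {Q : List α} {b : V} (hb : D.R2 Q = some b) : D.RR2 Q b := by
  classical
  unfold R2 at hb
  split_ifs at hb with hh
  rw [← Option.some.inj hb]
  exact hh.choose_spec

theorem R2_isSome {Q : List α} {b : V} (hb : D.RR2 Q b) : (D.R2 Q).isSome := by
  classical
  unfold R2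
  rw [dif_pos ⟨b, hb⟩]
  rfl

theorem Ok.R2_iff (h : D.Ok Nm C1) (hr : ∀ k Q r r', D.rho2 k Q r → D.rho2 k Q r' → r = r')
    {Q : List α} {b : V} : D.R2 Q = some b ↔ D.RR2 Q b := by
  constructor
  · exact R2_some
  · intro hb
    obtain ⟨b', hb'⟩ := Option.isSome_iff_exists.1 (R2_isSome hb)
    rw [hb', h.RR2_unique hr (R2_some hb') hb]

end Dat

end Crest.Agent.R320.Inst_483
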