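import Mathlib

/-!
# R320 / Spoil_207 : leaf U4 of helper638's post #13273 (pure arithmetic)

Places `x a = 16 * 2^a * Sg`, `Sg` the sum of the scales `1, Mp, Mp*M0, Mp*PP l, Mp*PP l*M1`
(`l < m`), each dividing the next.  Every thin condition is met by at most one pair `a ≠ b`;
the conditions "at least `rho` divisors in `Ms1`" are met by at most 32 pairs per level.
Imports only Mathlib.
-/

namespace Crest.Agent.R320.Spoil_207

open Finset

def PP (R M0 M1 l : ℕ) : ℕ := (R*M0) * (R*M1)^l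

def Bad (R M0 M1 m rho : ℕ) (Ms Ms1 : Finset ℕ) (n : ℕ) : Prop :=
  (n % (R*M0) < M0 ∨ R*M0 ≤ n % (R*M0) + M0) ∨ (∃ k ∈ Ms, k ∣ n) ∨
  ∃ l < m, ((n / PP R M0 M1 l) % (R*M1) < M1 ∨
      R*M1 ≤ (n / PP R M0 M1 l) % (R*M1) + M1) ∨
    rho ≤ (Ms1.filter (· ∣ n / PP R M0 M1 l)).card

/-- powers of two form a Sidon set -/
theorem sidon : ∀ a b c d : ℕ, 2^a + 2^d = 2^b + 2^c → (a = b ∧ d = c) ∨ (a = c ∧ d = b) := by
  intro a
  induction a with
  | zero =>
    intro b c d h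
    rcases b with _ | b
    · left
      refine ⟨rfl, ?_⟩
      have : 2^d = 2^c := by omega
      exact Nat.pow_right_injective (le_refl 2) this
    · rcases c with _ | c
      · right
        refine ⟨rfl, ?_⟩
        have : 2^d = 2^(b+1) := by omega
        exact Nat.pow_right_injective (le_refl 2) this
      · exfalso
        rcases d with _ | d
        · have h1 := Nat.one_le_two_pow (n := b)
          have h2 := Nat.one_le_two_pow (n := c)
          rw [pow_succ, pow_succ] at h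
          omega
        · rw [pow_succ, pow_succ, pow_succ] at h
          omega
  | succ a ih =>
    intro b c d h
    rcases d with _ | d
    · rcases b with _ | b
      · right
        have : 2^(a+1) = 2^c := by omega
        exact ⟨Nat.pow_right_injective (le_refl 2) this, rfl⟩
      · rcases c with _ | c
        · left
          have : 2^(a+1) = 2^(b+1) := by omega
          exact ⟨Nat.pow_right_injective (le_refl 2) this, rfl⟩
        · exfalso
          rw [pow_succ, pow_succ, pow_succ] at h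
          omega
    · rcases b with _ | b
      · rcases c with _ | c
        · exfalso
          have h1 := Nat.one_le_two_pow (n := a)
          have h2 := Nat.one_le_two_pow (n := d)
          rw [pow_succ, pow_succ] at h
          omega
        · exfalso
          rw [pow_succ, pow_succ, pow_succ] at h
          omega
      · rcases c with _ | c
        · exfalso
          rw [pow_succ, pow_succ, pow_succ] at h
          omega
        · have h' : 2^a + 2^d = 2^b + 2^c := by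
            rw [pow_succ, pow_succ, pow_succ, pow_succ] at h
            omega
          rcases ih b c d h' with ⟨h1, h2⟩ | ⟨h1, h2⟩
          · left; omega
          · right; omega

/-- the thin condition lemma -/
theorem thin (K : ℕ) (Sg P σ Mod t y y' δ : ℤ) (hy : y - y' = 16 * δ * Sg)
    (hSg : Sg = P + Mod * t) (hP1 : σ ≤ P) (hP2 : P ≤ 2 * σ) (hσ : 0 < σ)
    (hMod : 2^(K+10) * σ ≤ Mod) (hδ : |δ| ≤ 2^(K+1)) (h : |y % Mod - y' % Mod| < σ) :
    δ = 0 := by
  by_contra hne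
  have hδ1 : 1 ≤ |δ| := Int.one_le_abs hne
  set e := y % Mod - y' % Mod with he
  have hd : Mod ∣ 16 * δ * P - e := by
    have h1 : Mod * (y / Mod) + y % Mod = y := Int.mul_ediv_add_emod y Mod
    have h2 : Mod * (y' / Mod) + y' % Mod = y' := Int.mul_ediv_add_emod y' Mod
    refine ⟨(y / Mod) - (y' / Mod) - 16 * δ * t, ?_⟩
    have : 16 * δ * P = 16 * δ * Sg - 16 * δ * (Mod * t) := by rw [hSg]; ring
    rw [this, ← hy, he]
    linear_combination (-1 : ℤ) * h1 + h2
  have habs : |16 * δ * P| = 16 * |δ| * P := by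
    rw [abs_mul, abs_mul]
    rw [abs_of_nonneg (by omega : (0:ℤ) ≤ P)]
    norm_num
  have hpow : (2:ℤ)^(K+10) = 512 * 2^(K+1) := by
    rw [pow_add, pow_add]; ring
  have hlt : |16 * δ * P - e| < Mod := by
    have h1 : |16 * δ * P - e| ≤ |16 * δ * P| + |e| := abs_sub _ _
    have h2 : 16 * |δ| * P ≤ 16 * 2^(K+1) * (2 * σ) := by
      have hP0 : 0 ≤ P := by omega
      have hpos : (0:ℤ) < 2^(K+1) := by positivity
      nlinarith [mul_le_mul hδ hP2 hP0 hpos.le]
    have h3 : (1:ℤ) ≤ 2^(K+1) := by exact_mod_cast Nat.one_le_two_pow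
    nlinarith
  have hz := Int.eq_zero_of_abs_lt_dvd hd hlt
  have : |16 * δ * P| = |e| := by rw [sub_eq_zero.mp hz]
  nlinarith

/-- the places -/
def xx (Sg a : ℕ) : ℕ := 16 * 2^a * Sg

/-- the pairs of different places -/
def pairs (K : ℕ) : Finset (ℕ × ℕ) :=
  (Finset.range K ×ˢ Finset.range K).filter (fun ab => ab.1 ≠ ab.2)

theorem mem_pairs {K : ℕ} {ab : ℕ × ℕ} :
    ab ∈ pairs K ↔ (ab.1 < K ∧ ab.2 < K) ∧ ab.1 ≠ ab.2 := by
  simp [pairs]

theorem eq_of_delta {a b c d : ℕ} (h : ((2:ℤ)^a - 2^b) - (2^c - 2^d) = 0) :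
    (a = c ∧ b = d) ∨ (a = b ∧ c = d) := by
  have h' : 2^a + 2^d = 2^b + 2^c := by
    have : ((2:ℤ)^a + 2^d) = 2^b + 2^c := by linarith
    exact_mod_cast this
  rcases sidon a b c d h' with ⟨h1, h2⟩ | ⟨h1, h2⟩
  · right; exact ⟨h1, h2.symm⟩
  · left; exact ⟨h1, h2.symm⟩

theorem delta_le {K a b c d : ℕ} (ha : a < K) (hb : b < K) (hc : c < K) (hd : d < K) :
    |((2:ℤ)^a - 2^b) - (2^c - 2^d)| ≤ 2^(K+1) := by
  have h : ∀ i, i < K → (2:ℤ)^i ≤ 2^K := fun i hi =>
    pow_le_pow_right₀ (by norm_num) hi.le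
  have h0 : ∀ i : ℕ, (0:ℤ) < 2^i := fun i => by positivity
  have e : (2:ℤ)^(K+1) = 2 * 2^K := by rw [pow_succ]; ring
  rw [abs_le]
  constructor <;>
    linarith [h a ha, h b hb, h c hc, h d hd, h0 a, h0 b, h0 c, h0 d]

/-- a thin condition is met by at most one pair -/
theorem one_of (K Sg P σ Mod t T : ℕ) (hSg : Sg = P + Mod * t) (hP1 : σ ≤ P)
    (hP2 : P ≤ 2 * σ) (hσ : 0 < σ) (hMod : 2^(K+10) * σ ≤ Mod) (hT : xx Sg K ≤ T)
    (Q : ℕ → Prop) {_hdec : DecidablePred (fun ab : ℕ × ℕ => Q (T + xx Sg ab.1 - xx Sg ab.2))}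
    (hQ : ∀ y y', Q y → Q y' → y % Mod < y' % Mod + σ) :
    ((pairs K).filter (fun ab => Q (T + xx Sg ab.1 - xx Sg ab.2))).card ≤ 1 := by
  rw [Finset.card_le_one]
  rintro ⟨a, b⟩ hab ⟨c, d⟩ hcd
  rw [Finset.mem_filter, mem_pairs] at hab hcd
  obtain ⟨⟨⟨ha, hb⟩, hne⟩, hq⟩ := hab
  obtain ⟨⟨⟨hc, hd⟩, hne'⟩, hq'⟩ := hcd
  dsimp only at *
  have hx : ∀ i, i < K → xx Sg i ≤ T := fun i hi => by
    refine le_trans ?_ hT
    unfold xx
    have : 2^i ≤ 2^K := Nat.pow_le_pow_right (by norm_num) hi.le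
    exact Nat.mul_le_mul_right _ (Nat.mul_le_mul_left _ this)
  set y := T + xx Sg a - xx Sg b with hy
  set y' := T + xx Sg c - xx Sg d with hy'
  have hyZ : (y:ℤ) = T + 16 * 2^a * Sg - 16 * 2^b * Sg := by
    have := hx b hb
    rw [hy, Nat.cast_sub (by omega)]
    simp [xx]
  have hyZ' : (y':ℤ) = T + 16 * 2^c * Sg - 16 * 2^d * Sg := by
    have := hx d hd
    rw [hy', Nat.cast_sub (by omega)]
    simp [xx]
  have hz : ((2:ℤ)^a - 2^b) - (2^c - 2^d) = 0 := by
    refine thin K (Sg : ℤ) (P : ℤ) (σ : ℤ) (Mod : ℤ) (t : ℤ) (y : ℤ) (y' : ℤ) _ ?_ ?_ ?_ ?_ ?_ ?_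
      (delta_le ha hb hc hd) ?_
    · rw [hyZ, hyZ']; ring
    · exact_mod_cast hSg
    · exact_mod_cast hP1
    · exact_mod_cast hP2
    · exact_mod_cast hσ
    · exact_mod_cast hMod
    · have h1 := hQ y y' hq hq'
      have h2 := hQ y' y hq' hq
      rw [abs_lt]
      have e1 : ((y:ℤ) % Mod) = ((y % Mod : ℕ) : ℤ) := by push_cast; rfl
      have e2 : ((y':ℤ) % Mod) = ((y' % Mod : ℕ) : ℤ) := by push_cast; rfl
      rw [e1, e2]
      constructor <;> omega
  rcases eq_of_delta hz with ⟨h1, h2⟩ | ⟨h1, _⟩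
  · rw [h1, h2]
  · exact absurd h1 hne

theorem mod_div (y q k : ℕ) : (y / q) % k = (y % (q * k)) / q :=
  (Nat.mod_mul_right_div_self y q k).symm

theorem g1 (q R M : ℕ) (hq : 0 < q) (y y' : ℕ) (h : (y / q) % (R*M) < M)
    (_h' : (y' / q) % (R*M) < M) : y % (q*(R*M)) < y' % (q*(R*M)) + q * M := by
  rw [mod_div, Nat.div_lt_iff_lt_mul hq] at h
  have : y % (q*(R*M)) < q * M := by rw [mul_comm q M]; exact h
  omega

theorem g2 (q R M : ℕ) (hq : 0 < q) (hR : 0 < R) (hM : 0 < M) (y y' : ℕ)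
    (_h : R*M ≤ (y / q) % (R*M) + M)
    (h' : R*M ≤ (y' / q) % (R*M) + M) : y % (q*(R*M)) < y' % (q*(R*M)) + q * M := by
  have hpos : 0 < q*(R*M) := by positivity
  have hlt := Nat.mod_lt y hpos
  rw [mod_div] at h'
  have h1 : q * (y' % (q*(R*M)) / q) ≤ y' % (q*(R*M)) := Nat.mul_div_le _ _
  have h2 : q * (R*M) ≤ q * (y' % (q*(R*M)) / q) + q * M := by
    rw [← mul_add]; exact Nat.mul_le_mul_left q h'
  omega

theorem g3 (q k : ℕ) (hq : 0 < q) (y y' : ℕ) (h : k ∣ y / q) (_h' : k ∣ y' / q) :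
    y % (q*k) < y' % (q*k) + q := by
  have h0 : (y / q) % k = 0 := Nat.mod_eq_zero_of_dvd h
  rw [mod_div] at h0
  have : y % (q*k) < q := by
    by_contra hc
    push Not at hc
    have := Nat.div_pos hc hq
    omega
  omega

/-- partial sums of the scales -/
def SS (Mp R M0 M1 : ℕ) : ℕ → ℕ
  | 0 => 1 + Mp + Mp*M0
  | l+1 => SS Mp R M0 M1 l + Mp * PP R M0 M1 l + Mp * PP R M0 M1 l * M1

theorem PP_succ (R M0 M1 l : ℕ) : PP R M0 M1 (l+1) = PP R M0 M1 l * (R*M1) := by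
  unfold PP; rw [pow_succ]; ring

theorem SS_eq (Mp R M0 M1 l : ℕ) : ∀ m, l ≤ m →
    ∃ t, SS Mp R M0 M1 m = SS Mp R M0 M1 l + (Mp * PP R M0 M1 l) * t ∧
      ∃ u, PP R M0 M1 m = PP R M0 M1 l * u := by
  intro m hm
  induction m, hm using Nat.le_induction with
  | base => exact ⟨0, by simp, 1, by simp⟩
  | succ m hm ih =>
    obtain ⟨t, ht, u, hu⟩ := ih
    refine ⟨t + u + u * M1, ?_, u * (R*M1), ?_⟩
    · show SS Mp R M0 M1 m + Mp * PP R M0 M1 m + Mp * PP R M0 M1 m * M1 = _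
      rw [ht, hu]; ring
    · rw [PP_succ, hu]; ring

theorem SS_le (Mp R M0 M1 : ℕ) (hMp : 1 ≤ Mp) (hR : 3 ≤ R) (h0 : 1 ≤ M0) (h1 : 1 ≤ M1) :
    ∀ l, SS Mp R M0 M1 l ≤ Mp * PP R M0 M1 l := by
  intro l
  induction l with
  | zero =>
    show 1 + Mp + Mp*M0 ≤ Mp * PP R M0 M1 0
    unfold PP
    have e : Mp * (R * M0 * (R * M1)^0) = R * (Mp * M0) := by ring
    rw [e]
    have a1 : Mp ≤ Mp * M0 := Nat.le_mul_of_pos_right _ h0
    have a2 : 3 * (Mp*M0) ≤ R * (Mp*M0) := Nat.mul_le_mul_right _ hR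
    omega
  | succ l ih =>
    show SS Mp R M0 M1 l + Mp * PP R M0 M1 l + Mp * PP R M0 M1 l * M1 ≤ _
    rw [PP_succ]
    have e : Mp * (PP R M0 M1 l * (R*M1)) = R * (Mp * PP R M0 M1 l * M1) := by ring
    rw [e]
    have a1 : Mp * PP R M0 M1 l ≤ Mp * PP R M0 M1 l * M1 := Nat.le_mul_of_pos_right _ h1
    have a2 : 3 * (Mp * PP R M0 M1 l * M1) ≤ R * (Mp * PP R M0 M1 l * M1) :=
      Nat.mul_le_mul_right _ hR
    omega

open Classical in
/-- **LEAF U4** -/
theorem spoil (m r K Mp R M0 M1 rho : ℕ) (Ms Ms1 : Finset ℕ) (hMp : 2^(K+10) ≤ Mp)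
    (hR : 2^(K+10) ≤ R) (h0 : 2^(K+10) ≤ M0) (h1 : 2^(K+10) ≤ M1)
    (hMs : ∀ k ∈ Ms, 2^(K+10) ≤ k ∧ k ∣ M0) (hMs1 : ∀ k ∈ Ms1, 2^(K+10) ≤ k ∧ k ∣ M1)
    (hc : Ms.card ≤ r) (hc1 : Ms1.card ≤ 32*rho) (hrho : 0 < rho) :
    ∃ (x : ℕ → ℕ) (T0 : ℕ),
      (∀ a b c d, a < K → b < K → c < K → d < K →
        (Mp:ℤ) ∣ ((x a:ℤ) - x b) - (x c - x d) → (a = c ∧ b = d) ∨ (a = b ∧ c = d)) ∧
      ∀ T, T0 ≤ T → (((Finset.range K ×ˢ Finset.range K).filter (fun ab => ab.1 ≠ ab.2 ∧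
        Bad R M0 M1 m rho Ms Ms1 ((T + x ab.1 - x ab.2) / Mp))).card ≤ 2 + r + 34*m) := by
  have hbig : 1024 ≤ 2^(K+10) := by
    calc 1024 = 2^10 := by norm_num
      _ ≤ 2^(K+10) := Nat.pow_le_pow_right (by norm_num) (by omega)
  have hMp0 : 0 < Mp := by omega
  have hR0 : 0 < R := by omega
  have h00 : 0 < M0 := by omega
  have h10 : 0 < M1 := by omega
  set Sg := SS Mp R M0 M1 m with hSgdef
  refine ⟨xx Sg, xx Sg K, ?_, ?_⟩
  · intro a b c d ha hb hc' hd hdv
    obtain ⟨t, ht, -⟩ := SS_eq Mp R M0 M1 0 m (Nat.zero_le m)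
    have hSg : Sg = 1 + Mp * (1 + M0 + PP R M0 M1 0 * t) := by
      rw [hSgdef, ht]
      show 1 + Mp + Mp*M0 + Mp * PP R M0 M1 0 * t = _
      ring
    have hSgZ : (Sg:ℤ) = 1 + (Mp:ℤ) * ((1 + M0 + PP R M0 M1 0 * t : ℕ) : ℤ) := by
      rw [hSg]; push_cast; ring
    have hdv' : (Mp:ℤ) ∣ 16 * (((2:ℤ)^a - 2^b) - (2^c - 2^d)) := by
      have e : ((xx Sg a:ℤ) - xx Sg b) - (xx Sg c - xx Sg d)
          = 16 * (((2:ℤ)^a - 2^b) - (2^c - 2^d)) * Sg := by
        simp only [xx]; push_cast; ring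
      rw [e, hSgZ] at hdv
      obtain ⟨u, hu⟩ := hdv
      refine ⟨u - 16 * (((2:ℤ)^a - 2^b) - (2^c - 2^d))
        * ((1 + M0 + PP R M0 M1 0 * t : ℕ) : ℤ), ?_⟩
      linear_combination hu
    have hlt : |16 * (((2:ℤ)^a - 2^b) - (2^c - 2^d))| < Mp := by
      rw [abs_mul]
      have h1' := delta_le ha hb hc' hd
      have h2' : (2:ℤ)^(K+10) = 512 * 2^(K+1) := by
        rw [pow_add, pow_add]; ring
      have h3' : ((2:ℤ)^(K+10)) ≤ Mp := by exact_mod_cast hMp
      have h4' : (0:ℤ) < 2^(K+1) := by positivity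
      have h5' : |(16:ℤ)| = 16 := by norm_num
      rw [h5']
      linarith
    have hz := Int.eq_zero_of_abs_lt_dvd hdv' hlt
    have : ((2:ℤ)^a - 2^b) - (2^c - 2^d) = 0 := by
      rcases mul_eq_zero.mp hz with h | h
      · norm_num at h
      · exact h
    exact eq_of_delta this
  · intro T hT
    -- the conditions
    have PPpos : ∀ l, 0 < PP R M0 M1 l := fun l => by unfold PP; positivity
    have hSle := SS_le Mp R M0 M1 (by omega) (by omega) (by omega) (by omega)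
    -- (G1), (G2) at the star group
    have key0 : ∃ t, Sg = SS Mp R M0 M1 0 + (Mp * (R*M0)) * t := by
      obtain ⟨t, ht, -⟩ := SS_eq Mp R M0 M1 0 m (Nat.zero_le m)
      refine ⟨t, ?_⟩
      rw [hSgdef, ht]
      have : PP R M0 M1 0 = R*M0 := by unfold PP; simp
      rw [this]
    have S0 : SS Mp R M0 M1 0 = 1 + Mp + Mp*M0 := rfl
    have b0 : 1 + Mp ≤ Mp*M0 := by
      have : Mp*2 ≤ Mp*M0 := Nat.mul_le_mul_left _ (by omega)
      omega
    have mo0 : 2^(K+10) * (Mp*M0) ≤ Mp*(R*M0) := by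
      calc 2^(K+10) * (Mp*M0) ≤ R * (Mp*M0) := Nat.mul_le_mul_right _ hR
        _ = Mp*(R*M0) := by ring
    have cA : ((pairs K).filter (fun ab =>
        ((T + xx Sg ab.1 - xx Sg ab.2) / Mp) % (R*M0) < M0)).card ≤ 1 := by
      obtain ⟨t, ht⟩ := key0
      exact one_of K Sg (SS Mp R M0 M1 0) (Mp*M0) (Mp*(R*M0)) t T ht (by rw [S0]; omega)
        (by rw [S0]; omega) (by positivity) mo0 hT
        (fun y => (y / Mp) % (R*M0) < M0) (fun y y' => g1 Mp R M0 hMp0 y y')
    have cB : ((pairs K).filter (fun ab =>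
        R*M0 ≤ ((T + xx Sg ab.1 - xx Sg ab.2) / Mp) % (R*M0) + M0)).card ≤ 1 := by
      obtain ⟨t, ht⟩ := key0
      exact one_of K Sg (SS Mp R M0 M1 0) (Mp*M0) (Mp*(R*M0)) t T ht (by rw [S0]; omega)
        (by rw [S0]; omega) (by positivity) mo0 hT
        (fun y => R*M0 ≤ (y / Mp) % (R*M0) + M0) (fun y y' => g2 Mp R M0 hMp0 hR0 h00 y y')
    have cC : ∀ k ∈ Ms, ((pairs K).filter (fun ab =>
        k ∣ (T + xx Sg ab.1 - xx Sg ab.2) / Mp)).card ≤ 1 := by
      intro k hk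
      obtain ⟨hk1, k', hk'⟩ := hMs k hk
      obtain ⟨t, ht⟩ := key0
      refine one_of K Sg (1 + Mp) Mp (Mp*k) (k' + R*k'*t) T ?_ (by omega) (by omega) hMp0 ?_ hT
        (fun y => k ∣ y / Mp) (fun y y' => g3 Mp k hMp0 y y')
      · rw [ht, S0, hk']; ring
      · calc 2^(K+10) * Mp ≤ k * Mp := Nat.mul_le_mul_right _ hk1
          _ = Mp*k := by ring
    -- the levels
    have keyl : ∀ l, l < m → ∃ t, Sg = SS Mp R M0 M1 (l+1) + (Mp * PP R M0 M1 l * (R*M1)) * t := by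
      intro l hl
      obtain ⟨t, ht, -⟩ := SS_eq Mp R M0 M1 (l+1) m hl
      refine ⟨t, ?_⟩
      rw [hSgdef, ht, PP_succ]
      ring
    have Sl : ∀ l, SS Mp R M0 M1 (l+1)
        = SS Mp R M0 M1 l + Mp * PP R M0 M1 l + Mp * PP R M0 M1 l * M1 := fun l => rfl
    have qpos : ∀ l, 0 < Mp * PP R M0 M1 l := fun l => Nat.mul_pos hMp0 (PPpos l)
    have bl : ∀ l, SS Mp R M0 M1 l + Mp * PP R M0 M1 l ≤ Mp * PP R M0 M1 l * M1 := by
      intro l
      have a1 : Mp * PP R M0 M1 l * 2 ≤ Mp * PP R M0 M1 l * M1 :=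
        Nat.mul_le_mul_left _ (by omega)
      have a2 := hSle l
      omega
    have mol : ∀ l, 2^(K+10) * (Mp * PP R M0 M1 l * M1) ≤ Mp * PP R M0 M1 l * (R*M1) := by
      intro l
      calc 2^(K+10) * (Mp * PP R M0 M1 l * M1) ≤ R * (Mp * PP R M0 M1 l * M1) :=
            Nat.mul_le_mul_right _ hR
        _ = Mp * PP R M0 M1 l * (R*M1) := by ring
    have cD : ∀ l, l < m → ((pairs K).filter (fun ab =>
        ((T + xx Sg ab.1 - xx Sg ab.2) / Mp / PP R M0 M1 l) % (R*M1) < M1)).card ≤ 1 := by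
      intro l hl
      obtain ⟨t, ht⟩ := keyl l hl
      simp only [Nat.div_div_eq_div_mul]
      have a2 := bl l
      exact one_of K Sg (SS Mp R M0 M1 (l+1)) (Mp * PP R M0 M1 l * M1)
        (Mp * PP R M0 M1 l * (R*M1)) t T ht (by rw [Sl]; omega)
        (by rw [Sl]; omega) (Nat.mul_pos (qpos l) h10) (mol l) hT
        (fun y => (y / (Mp * PP R M0 M1 l)) % (R*M1) < M1)
        (fun y y' => g1 (Mp * PP R M0 M1 l) R M1 (qpos l) y y')
    have cE : ∀ l, l < m → ((pairs K).filter (fun ab =>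
        R*M1 ≤ ((T + xx Sg ab.1 - xx Sg ab.2) / Mp / PP R M0 M1 l) % (R*M1) + M1)).card ≤ 1 := by
      intro l hl
      obtain ⟨t, ht⟩ := keyl l hl
      simp only [Nat.div_div_eq_div_mul]
      have a2 := bl l
      exact one_of K Sg (SS Mp R M0 M1 (l+1)) (Mp * PP R M0 M1 l * M1)
        (Mp * PP R M0 M1 l * (R*M1)) t T ht (by rw [Sl]; omega)
        (by rw [Sl]; omega) (Nat.mul_pos (qpos l) h10) (mol l) hT
        (fun y => R*M1 ≤ (y / (Mp * PP R M0 M1 l)) % (R*M1) + M1)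
        (fun y y' => g2 (Mp * PP R M0 M1 l) R M1 (qpos l) hR0 h10 y y')
    have cF : ∀ l, l < m → ∀ k ∈ Ms1, ((pairs K).filter (fun ab =>
        k ∣ (T + xx Sg ab.1 - xx Sg ab.2) / Mp / PP R M0 M1 l)).card ≤ 1 := by
      intro l hl k hk
      obtain ⟨hk1, k', hk'⟩ := hMs1 k hk
      obtain ⟨t, ht⟩ := keyl l hl
      simp only [Nat.div_div_eq_div_mul]
      have a1 := hSle l
      refine one_of K Sg (SS Mp R M0 M1 l + Mp * PP R M0 M1 l) (Mp * PP R M0 M1 l)
        (Mp * PP R M0 M1 l * k) (k' + R*k'*t) T ?_ (by omega) (by omega) (qpos l) ?_ hT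
        (fun y => k ∣ y / (Mp * PP R M0 M1 l)) (fun y y' => g3 (Mp * PP R M0 M1 l) k (qpos l) y y')
      · rw [ht, Sl]
        have : Mp * PP R M0 M1 l * M1 = Mp * PP R M0 M1 l * k * k' := by rw [hk']; ring
        have h2 : Mp * PP R M0 M1 l * (R * M1) * t = Mp * PP R M0 M1 l * k * (R * k' * t) := by
          rw [hk']; ring
        rw [this, h2]; ring
      · calc 2^(K+10) * (Mp * PP R M0 M1 l) ≤ k * (Mp * PP R M0 M1 l) :=
              Nat.mul_le_mul_right _ hk1
          _ = Mp * PP R M0 M1 l * k := by ring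
    -- the counted condition
    have cG : ∀ l, l < m → ((pairs K).filter (fun ab =>
        rho ≤ (Ms1.filter (· ∣ (T + xx Sg ab.1 - xx Sg ab.2) / Mp / PP R M0 M1 l)).card)).card
          ≤ 32 := by
      intro l hl
      set F := (pairs K).filter (fun ab =>
        rho ≤ (Ms1.filter (· ∣ (T + xx Sg ab.1 - xx Sg ab.2) / Mp / PP R M0 M1 l)).card) with hF
      have h2 : F.card * rho ≤ ∑ ab ∈ F,
          (Ms1.filter (· ∣ (T + xx Sg ab.1 - xx Sg ab.2) / Mp / PP R M0 M1 l)).card := by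
        rw [← smul_eq_mul]
        refine Finset.card_nsmul_le_sum F _ rho ?_
        intro ab hab
        exact (Finset.mem_filter.mp hab).2
      have h3 : ∑ ab ∈ F,
          (Ms1.filter (· ∣ (T + xx Sg ab.1 - xx Sg ab.2) / Mp / PP R M0 M1 l)).card
          ≤ Ms1.card := by
        simp only [Finset.card_filter]
        rw [Finset.sum_comm]
        calc ∑ k ∈ Ms1, ∑ ab ∈ F,
              (if k ∣ (T + xx Sg ab.1 - xx Sg ab.2) / Mp / PP R M0 M1 l then 1 else 0)
            ≤ ∑ k ∈ Ms1, 1 := by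
              refine Finset.sum_le_sum ?_
              intro k hk
              rw [← Finset.card_filter]
              refine le_trans (Finset.card_le_card ?_) (cF l hl k hk)
              intro ab hab
              rw [Finset.mem_filter] at hab ⊢
              exact ⟨(Finset.mem_filter.mp hab.1).1, hab.2⟩
          _ = Ms1.card := by simp
      have h4 : F.card * rho ≤ 32 * rho := le_trans h2 (le_trans h3 hc1)
      exact Nat.le_of_mul_le_mul_right h4 hrho
    -- union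
    have hsub : ((Finset.range K ×ˢ Finset.range K).filter (fun ab => ab.1 ≠ ab.2 ∧
        Bad R M0 M1 m rho Ms Ms1 ((T + xx Sg ab.1 - xx Sg ab.2) / Mp))) ⊆
        (((pairs K).filter (fun ab =>
          ((T + xx Sg ab.1 - xx Sg ab.2) / Mp) % (R*M0) < M0)) ∪
        ((pairs K).filter (fun ab =>
          R*M0 ≤ ((T + xx Sg ab.1 - xx Sg ab.2) / Mp) % (R*M0) + M0))) ∪
        (Ms.biUnion (fun k => (pairs K).filter (fun ab =>
          k ∣ (T + xx Sg ab.1 - xx Sg ab.2) / Mp))) ∪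
        ((Finset.range m).biUnion (fun l =>
          (((pairs K).filter (fun ab =>
            ((T + xx Sg ab.1 - xx Sg ab.2) / Mp / PP R M0 M1 l) % (R*M1) < M1)) ∪
          ((pairs K).filter (fun ab =>
            R*M1 ≤ ((T + xx Sg ab.1 - xx Sg ab.2) / Mp / PP R M0 M1 l) % (R*M1) + M1))) ∪
          ((pairs K).filter (fun ab =>
            rho ≤ (Ms1.filter
              (· ∣ (T + xx Sg ab.1 - xx Sg ab.2) / Mp / PP R M0 M1 l)).card)))) := by
      intro ab hab
      rw [Finset.mem_filter, Finset.mem_product, Finset.mem_range, Finset.mem_range] at hab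
      obtain ⟨hab1, hab2, hbad⟩ := hab
      have hp : ab ∈ pairs K := mem_pairs.mpr ⟨hab1, hab2⟩
      simp only [Finset.mem_union, Finset.mem_biUnion, Finset.mem_filter, Finset.mem_range]
      rcases hbad with (h | h) | ⟨k, hk, h⟩ | ⟨l, hl, (h | h) | h⟩
      · left; left; left; exact ⟨hp, h⟩
      · left; left; right; exact ⟨hp, h⟩
      · left; right; exact ⟨k, hk, hp, h⟩
      · right; exact ⟨l, hl, Or.inl (Or.inl ⟨hp, h⟩)⟩
      · right; exact ⟨l, hl, Or.inl (Or.inr ⟨hp, h⟩)⟩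
      · right; exact ⟨l, hl, Or.inr ⟨hp, h⟩⟩
    have hCsum : (Ms.biUnion (fun k => (pairs K).filter (fun ab =>
          k ∣ (T + xx Sg ab.1 - xx Sg ab.2) / Mp))).card ≤ r := by
      refine le_trans (Finset.card_biUnion_le_card_mul Ms _ 1 cC) ?_
      omega
    have hDsum : ((Finset.range m).biUnion (fun l =>
          (((pairs K).filter (fun ab =>
            ((T + xx Sg ab.1 - xx Sg ab.2) / Mp / PP R M0 M1 l) % (R*M1) < M1)) ∪
          ((pairs K).filter (fun ab =>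
            R*M1 ≤ ((T + xx Sg ab.1 - xx Sg ab.2) / Mp / PP R M0 M1 l) % (R*M1) + M1))) ∪
          ((pairs K).filter (fun ab =>
            rho ≤ (Ms1.filter
              (· ∣ (T + xx Sg ab.1 - xx Sg ab.2) / Mp / PP R M0 M1 l)).card)))).card ≤ m * 34 := by
      refine le_trans (Finset.card_biUnion_le_card_mul (Finset.range m) _ 34 ?_) ?_
      · intro l hl
        have hl' := Finset.mem_range.mp hl
        refine le_trans (Finset.card_union_le _ _) ?_
        have u1 := Finset.card_union_le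
          ((pairs K).filter (fun ab =>
            ((T + xx Sg ab.1 - xx Sg ab.2) / Mp / PP R M0 M1 l) % (R*M1) < M1))
          ((pairs K).filter (fun ab =>
            R*M1 ≤ ((T + xx Sg ab.1 - xx Sg ab.2) / Mp / PP R M0 M1 l) % (R*M1) + M1))
        have u2 := cD l hl'
        have u3 := cE l hl'
        have u4 := cG l hl'
        omega
      · rw [Finset.card_range]
    refine le_trans (Finset.card_le_card hsub) ?_
    refine le_trans (Finset.card_union_le _ _) ?_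
    refine le_trans (Nat.add_le_add_right (Finset.card_union_le _ _) _) ?_
    refine le_trans (Nat.add_le_add_right (Nat.add_le_add_right (Finset.card_union_le _ _) _) _) ?_
    omega

end Crest.Agent.R320.Spoil_207
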