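import Crest.Agent.R320.Asm3_515
import Crest.Agent.R320.Grid_899
import Crest.Agent.R320.Thin_963
import Crest.Agent.R320.ExactU_815
import Crest.Agent.R320.Spoil_207

/-!
# Row 320: the constants (helper515)
-/

set_option autoImplicit false

namespace Crest.Agent.R320.Inst_515

open Crest.RegLang Crest.Agent.R320.Hk_851 Crest.Agent.R320.FewWalls_228 Crest.Agent.R320.Wd_515
open Crest.Agent.R320.Blk467 Crest.Agent.R320.Asm_515 Crest.Agent.R320.Asm2_515
open Crest.Agent.R320

universe u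

theorem exists_primes (k B : ℕ) : ∃ q : Fin k → ℕ, (∀ j, (q j).Prime ∧ B ≤ q j) ∧
    Function.Injective q := by
  refine ⟨fun j => Nat.nth Nat.Prime (B + j), fun j => ⟨Nat.prime_nth_prime _, ?_⟩, ?_⟩
  · exact (Nat.le_add_right B j).trans
      ((Nat.nth_strictMono Nat.infinite_setOf_prime).le_apply (x := B + (j : ℕ)))
  · intro i j h
    have := (Nat.nth_strictMono Nat.infinite_setOf_prime).injective h
    exact Fin.ext (by omega)

theorem Gpos (κ i : ℕ) : 0 < Grid_899.G κ i := by unfold Grid_899.G; positivity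

theorem Gdvd (κ : ℕ) {i j : ℕ} (h : i ≤ j) : Grid_899.G κ i ∣ Grid_899.G κ j := by
  unfold Grid_899.G
  exact pow_dvd_pow 2 (Nat.mul_le_mul_left κ h)

theorem Am_mono (Ms κ : ℕ) : Monotone (Grid_899.Am Ms κ) := by
  refine monotone_nat_of_le_succ fun i => ?_
  show Grid_899.Am Ms κ i ≤ Grid_899.Am Ms κ i + Grid_899.G κ i + Ms * Grid_899.G κ i
  omega

theorem sum_G (κ : ℕ) (hκ : 1 ≤ κ) (i : ℕ) :
    ∑ j ∈ Finset.range (i + 1), Grid_899.G κ j ≤ 2 * Grid_899.G κ i := by
  induction i with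
  | zero => simp [Grid_899.G]
  | succ i ih =>
    rw [Finset.sum_range_succ]
    have h1 : 2 * Grid_899.G κ i ≤ Grid_899.G κ (i + 1) := by
      unfold Grid_899.G
      rw [Nat.mul_add, Nat.mul_one, pow_add]
      have : 2 ≤ 2 ^ κ := by
        calc 2 = 2 ^ 1 := by norm_num
          _ ≤ 2 ^ κ := Nat.pow_le_pow_right (by norm_num) hκ
      calc 2 * 2 ^ (κ * i) = 2 ^ (κ * i) * 2 := by ring
        _ ≤ 2 ^ (κ * i) * 2 ^ κ := Nat.mul_le_mul_left _ this
    omega

theorem grow (K Q i : ℕ) :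
    2 ^ (K + 4) * ∑ j ∈ Finset.range (i + 1), Q * Grid_899.G (K + 5 + Q) j ≤
      Grid_899.G (K + 5 + Q) (i + 1) := by
  rw [← Finset.mul_sum]
  have h1 := sum_G (K + 5 + Q) (by omega) i
  have hQ : Q ≤ 2 ^ Q := Nat.lt_two_pow_self.le
  calc 2 ^ (K + 4) * (Q * ∑ j ∈ Finset.range (i + 1), Grid_899.G (K + 5 + Q) j)
      ≤ 2 ^ (K + 4) * (2 ^ Q * (2 * Grid_899.G (K + 5 + Q) i)) :=
        Nat.mul_le_mul_left _ (Nat.mul_le_mul hQ h1)
    _ = Grid_899.G (K + 5 + Q) (i + 1) := by
        unfold Grid_899.G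
        ring

/-- bad totals -/
def Bd {k : ℕ} (q : Fin k → ℕ) (κ m T : ℕ) : Prop :=
  (∃ j, q j ∣ T) ∨ ∃ j, 1 ≤ j ∧ j ≤ m ∧
    ¬ ((∏ j, q j) * Grid_899.G κ (j - 1) ≤ (T - Grid_899.Am (∏ j, q j) κ j) % Grid_899.G κ j ∧
      (T - Grid_899.Am (∏ j, q j) κ j) % Grid_899.G κ j + (∏ j, q j) * Grid_899.G κ (j - 1) ≤
        Grid_899.G κ j)

theorem Bd_per {k : ℕ} (q : Fin k → ℕ) (κ m : ℕ) {T T' : ℕ}
    (hT : Grid_899.Am (∏ j, q j) κ (m + 1) ≤ T) (hT' : Grid_899.Am (∏ j, q j) κ (m + 1) ≤ T')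
    (h : T % ((∏ j, q j) * Grid_899.G κ m) = T' % ((∏ j, q j) * Grid_899.G κ m)) :
    Bd q κ m T ↔ Bd q κ m T' := by
  have h' : T ≡ T' [MOD (∏ j, q j) * Grid_899.G κ m] := h
  unfold Bd
  refine or_congr (exists_congr fun j => ?_) (exists_congr fun j => ?_)
  · have hd : q j ∣ (∏ j, q j) * Grid_899.G κ m :=
      (Finset.dvd_prod_of_mem q (Finset.mem_univ j)).trans (Dvd.intro _ rfl)
    exact h'.dvd_iff hd
  · refine and_congr_right fun h1 => and_congr_right fun h2 => ?_
    have hd : Grid_899.G κ j ∣ (∏ j, q j) * Grid_899.G κ m :=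
      (Gdvd κ h2).trans (Dvd.intro_left _ rfl)
    have hA := Am_mono (∏ j, q j) κ (show j ≤ m + 1 by omega)
    have e : (T - Grid_899.Am (∏ j, q j) κ j) % Grid_899.G κ j =
        (T' - Grid_899.Am (∏ j, q j) κ j) % Grid_899.G κ j := by
      have h3 : T ≡ T' [MOD Grid_899.G κ j] := h'.of_dvd hd
      obtain ⟨a, ha⟩ : ∃ a, T = a + Grid_899.Am (∏ j, q j) κ j := ⟨_, (Nat.sub_add_cancel (by omega)).symm⟩
      obtain ⟨b, hb⟩ : ∃ b, T' = b + Grid_899.Am (∏ j, q j) κ j := ⟨_, (Nat.sub_add_cancel (by omega)).symm⟩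
      rw [ha, hb] at h3 ⊢
      rw [Nat.add_sub_cancel, Nat.add_sub_cancel]
      exact Nat.ModEq.add_right_cancel' _ h3
    rw [e]

theorem Bd_bad {k : ℕ} (q : Fin k → ℕ) (κ m : ℕ) {T : ℕ}
    (hT : Grid_899.Am (∏ j, q j) κ (m + 1) ≤ T) (h : Bd q κ m T) :
    Thin963.BadT (Finset.univ.image q) m (fun i => (Grid_899.G κ i : ℤ))
      (fun i => (((∏ j, q j) * Grid_899.G κ i : ℕ) : ℤ))
      (fun i => (Grid_899.Am (∏ j, q j) κ i : ℤ)) (T : ℤ) := by
  rcases h with ⟨j, hj⟩ | ⟨j, h1, h2, h3⟩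
  · left
    exact ⟨q j, Finset.mem_image_of_mem q (Finset.mem_univ j), by exact_mod_cast hj⟩
  · right
    obtain ⟨i, rfl⟩ : ∃ i, j = i + 1 := ⟨j - 1, by omega⟩
    rw [Nat.add_sub_cancel] at h3
    have hA := Am_mono (∏ j, q j) κ (show i + 1 ≤ m + 1 by omega)
    set g := Grid_899.G κ (i + 1) with hg
    set A := Grid_899.Am (∏ j, q j) κ (i + 1) with hAd
    set cc := (∏ j, q j) * Grid_899.G κ i with hcc
    have hgp : 0 < g := Gpos κ (i + 1)
    have hdm := Nat.div_add_mod (T - A) g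
    have hlt := Nat.mod_lt (T - A) hgp
    set r := (T - A) % g with hr
    refine ⟨i, by omega, ?_⟩
    have hcast : (T : ℤ) - (A : ℤ) = (g : ℤ) * (((T - A) / g : ℕ) : ℤ) + (r : ℤ) := by
      have h5 : (((T - A : ℕ)) : ℤ) = (T : ℤ) - (A : ℤ) := Nat.cast_sub (by omega)
      rw [← h5]
      exact_mod_cast hdm.symm
    by_cases hc1 : cc ≤ r
    · refine ⟨(g : ℤ) - r, ?_, ((((T - A) / g : ℕ) : ℤ) + 1), ?_⟩
      · show |(g : ℤ) - r| ≤ (cc : ℤ)
        rw [abs_of_nonneg (by omega)]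
        omega
      · show (T : ℤ) - (A : ℤ) + ((g : ℤ) - r) = (g : ℤ) * _
        rw [hcast]; ring
    · refine ⟨-(r : ℤ), ?_, (((T - A) / g : ℕ) : ℤ), ?_⟩
      · show |-(r : ℤ)| ≤ (cc : ℤ)
        rw [abs_neg, abs_of_nonneg (by omega)]
        omega
      · show (T : ℤ) - (A : ℤ) + -(r : ℤ) = (g : ℤ) * _
        rw [hcast]; ring

theorem hdiff (x N : ℕ) (hx : 2 * N < x) (i j k l : ℕ) (h1 : i ≠ j)
    (h3 : (i, j) ≠ (k, l)) : x * 2 ^ i + x * 2 ^ l + 2 * N < x * 2 ^ k + x * 2 ^ j ∨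
      x * 2 ^ k + x * 2 ^ j + 2 * N < x * 2 ^ i + x * 2 ^ l := by
  have hne : 2 ^ i + 2 ^ l ≠ 2 ^ k + 2 ^ j := by
    intro h
    rcases Spoil_207.sidon i k j l h with ⟨a, b⟩ | ⟨a, b⟩
    · exact h3 (by rw [a, b])
    · exact h1 a
  rw [← Nat.mul_add, ← Nat.mul_add]
  rcases Nat.lt_or_gt_of_ne hne with h | h
  · left
    have := Nat.mul_le_mul_left x (Nat.succ_le_of_lt h)
    rw [Nat.mul_succ] at this
    omega
  · right
    have := Nat.mul_le_mul_left x (Nat.succ_le_of_lt h)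
    rw [Nat.mul_succ] at this
    omega

open Classical in
theorem main {α : Type u} [Finite α] (S : Type u) [Monoid S] [Finite S] (φ : α → S) (s : S) :
    HL 3 ({w | (w.map φ).prod = s} : Language α) := by
  haveI := Fintype.ofFinite S
  obtain ⟨act, hadd, hone, hmul, hfaith⟩ := exists_module S
  obtain ⟨k, m, hg⟩ := Grid_899.grid_gadget_reg S (S → ZMod 2) act
  obtain ⟨K, h2⟩ := ExactU_815.exact_gadget α S (S → ZMod 2) φ act (2 * (k + m) + 2)
  obtain ⟨q, hq1, hqinj⟩ := exists_primes k (2 ^ (K + 1) + 3)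
  have hodd : ∀ j, Odd (q j) := fun j => (hq1 j).1.odd_of_ne_two (by
    have := (Nat.le_add_left 3 (2 ^ (K + 1))).trans (hq1 j).2
    omega)
  have hcop : Pairwise (fun i j => Nat.Coprime (q i) (q j)) := fun i j hij =>
    (Nat.coprime_primes (hq1 i).1 (hq1 j).1).2 (fun h => hij (hqinj h))
  set Qp := ∏ j, q j with hQp
  set κ := K + 5 + Qp with hκ
  obtain ⟨lam, rho, nu, g1, g2, g3, g4, g5⟩ := hg q hodd hcop κ α (fun w => (w.map φ).prod)
    (by simp)
  set N1 := Grid_899.Am Qp κ m with hN1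
  have hQpos : 0 < Qp := Finset.prod_pos fun j _ => (hq1 j).1.pos
  obtain ⟨X, hX0, hXp, hthin⟩ := Thin963.thin K m (Finset.univ.image q)
    (fun i => (Grid_899.G κ i : ℤ)) (fun i => ((Qp * Grid_899.G κ i : ℕ) : ℤ))
    (fun i => (Grid_899.Am Qp κ i : ℤ))
    (by
      intro r hr
      obtain ⟨j, _, rfl⟩ := Finset.mem_image.1 hr
      exact ⟨(hq1 j).1, (Nat.le_add_right _ 3).trans (hq1 j).2⟩)
    (by
      intro r hr
      obtain ⟨j, _, rfl⟩ := Finset.mem_image.1 hr
      refine Nat.isCoprime_iff_coprime.2 ?_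
      unfold Grid_899.G
      refine Nat.Coprime.pow_right _ ((Nat.coprime_primes (hq1 j).1 Nat.prime_two).2 ?_)
      have := (Nat.le_add_left 3 (2 ^ (K + 1))).trans (hq1 j).2
      omega)
    (by exact_mod_cast Gpos κ m)
    (fun i j h => by exact_mod_cast Gdvd κ h)
    (fun i => by exact_mod_cast Nat.mul_pos hQpos (Gpos κ i))
    (fun i => by exact_mod_cast Dvd.intro_left Qp rfl)
    (fun i _ => by exact_mod_cast grow K Qp i)
    (2 * (N1 : ℤ) + 1)
  obtain ⟨x, rfl⟩ : ∃ x : ℕ, X = (x : ℤ) := ⟨X.toNat, (Int.toNat_of_nonneg hXp.le).symm⟩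
  have hx : 2 * N1 < x := by omega
  have hxp : 0 < x := by omega
  obtain ⟨lam2, rho2, nu2, h3, h4⟩ := h2 (fun j => x * 2 ^ j) (fun i j hij _ =>
    Nat.mul_lt_mul_of_pos_left (Nat.pow_lt_pow_right (by norm_num) hij) hxp)
  set Lam := x * 2 ^ K with hLam
  have hcL : ∀ j < K, x * 2 ^ j ≤ Lam := fun j hj =>
    Nat.mul_le_mul_left x (Nat.pow_le_pow_right (by norm_num) hj.le)
  set A1 := Grid_899.Am Qp κ (m + 1) with hA1
  set La := 2 * A1 + Lam + 1 with hLa
  obtain ⟨n, c', P, Sw, hn, hP, hS, hsep, hper, hfew⟩ :=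
    FewVal_228.exists_walls α (2 * Lam + 2 * N1 + 1) (by omega)
  let p : Par α S (S → ZMod 2) :=
    { n := n, z := Lam + N1 + Lam + La + n + N1 + 1, N1 := N1, La := La, p0 := Lam, K := K
      M0 := Qp * Grid_899.G κ m, C0 := k + m, Wg := 2 * Lam + 2 * N1 + 1, Lam := Lam, Sw := Sw
      φ := φ, act := act, lam := lam, rho := rho, nu1 := nu, Bd := Bd q κ m
      c := fun j => x * 2 ^ j, lam2 := lam2, rho2 := fun j Q => rho2 j Q 1
      nu2 := fun X => nu2 X 1 }
  have hcls : ∀ Q Q' : List α, La ≤ Q.length → La ≤ Q'.length → Q.take La = Q'.take La →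
      Q.length % (Qp * Grid_899.G κ m) = Q'.length % (Qp * Grid_899.G κ m) →
      ((Q.drop La).map φ).prod = ((Q'.drop La).map φ).prod → rho Q = rho Q' ∧ nu Q = nu Q' := by
    intro Q Q' h1 h2 h3 h4 h5
    refine g5 Q Q' (by omega) (by omega) ?_ ?_ h4
    · have := congrArg (List.take A1) h3
      rwa [List.take_take, List.take_take, Nat.min_eq_left (by omega)] at this
    · have e : ∀ R : List α, R.drop A1 = (R.take La).drop A1 ++ R.drop La := by
        intro R
        have h6 : (R.take La).drop A1 = (R.drop A1).take (La - A1) := List.drop_take ..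
        have h7 : R.drop La = (R.drop A1).drop (La - A1) := by
          rw [List.drop_drop]; congr 1; omega
        rw [h6, h7, List.take_append_drop]
      show ((Q.drop A1).map φ).prod = ((Q'.drop A1).map φ).prod
      rw [e Q, e Q', List.map_append, List.map_append, List.prod_append, List.prod_append, h3, h5]
  have ok : Ok p :=
    { C := ⟨Nat.mul_pos hQpos (Gpos κ m), hfew⟩
      hz := le_refl _
      hadd := hadd
      hmul := hmul
      lam_len := fun P v h => (g1 P v h).1.le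
      sound := fun P Q v b h h' => g3 P Q v b h h'
      compl := by
        intro u hu hB v
        have hu' : La ≤ u.length := hu
        have hB' : ¬ Bd q κ m u.length := hB
        unfold Bd at hB'
        rw [not_or] at hB'
        obtain ⟨hB1, hB2⟩ := hB'
        push Not at hB1
        obtain ⟨P, Q, e, h5, h6⟩ := g4 u (by omega) hB1 (fun j hj1 hj2 => by
          by_contra hcon
          exact hB2 ⟨j, hj1, hj2, hcon⟩) v
        exact ⟨P, Q, e.symm, h5, h6⟩
      rho_cls := fun Q Q' a b c d e => (hcls Q Q' a b c d e).1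
      nu_cls := fun Q Q' a b c d e => (hcls Q Q' a b c d e).2
      Bd_per := fun T T' h h' h'' => Bd_per q κ m
        (le_trans (by omega : A1 ≤ La) h) (le_trans (by omega : A1 ≤ La) h') h''
      ex2 := by
        intro j hj P Q v b hP h5 h6
        have := h3 j hj P Q 1 v b hP h5 h6
        rw [mul_one] at this
        exact this
      cp2 := by
        intro u v hu
        have hu' : u.length = Lam := hu
        exact h4 u 1 v (fun j hj => by rw [hu']; exact hcL j hj)
      hsep := by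
        intro X t t' htt ht' hW hW'
        have hW1 := (Wo_take (n := n) (S := Sw) (X := X) (t := t) (by omega)).1 hW
        have hW2 := (Wo_take (n := n) (S := Sw) (X := X) (t := t') ht').1 hW'
        have h5 := hsep X (t - n) (t' - n) (by omega) hW1.2 hW2.2
        show t + (2 * Lam + 2 * N1 + 1) ≤ t'
        omega
      hcL := hcL
      hcp := le_refl _
      hWg := by show 2 * Lam + 2 * N1 < 2 * Lam + 2 * N1 + 1; omega
      hdiff := fun i j k' l _ _ _ _ h5 _ h7 => hdiff x N1 hx i j k' l h5 h7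
      hthin := by
        intro T hT F hF
        have hT' : La ≤ T := hT
        have h5 := hthin (T : ℤ)
        have h6 : (F.image Prod.swap).card = F.card :=
          Finset.card_image_of_injective F Prod.swap_injective
        have h7 : (Finset.univ.image q).card ≤ k := by
          have := Finset.card_image_le (s := (Finset.univ : Finset (Fin k))) (f := q)
          rwa [Finset.card_univ, Fintype.card_fin] at this
        have h8 : F.image Prod.swap ⊆ ((Finset.range K) ×ˢ (Finset.range K)).filter (fun p =>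
            p.1 ≠ p.2 ∧ Thin963.BadT (Finset.univ.image q) m (fun i => (Grid_899.G κ i : ℤ))
              (fun i => ((Qp * Grid_899.G κ i : ℕ) : ℤ)) (fun i => (Grid_899.Am Qp κ i : ℤ))
              ((T : ℤ) + (x : ℤ) * 2 ^ p.1 - (x : ℤ) * 2 ^ p.2)) := by
          intro pr hpr
          obtain ⟨r, hr, rfl⟩ := Finset.mem_image.1 hpr
          obtain ⟨a1, a2, a3, a4⟩ := hF r hr
          rw [Finset.mem_filter, Finset.mem_product, Finset.mem_range, Finset.mem_range]
          refine ⟨⟨a2, a1⟩, Ne.symm a3, ?_⟩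
          have b1 := hcL r.1 a1
          have a4' : Bd q κ m (T + x * 2 ^ r.2 - x * 2 ^ r.1) := a4
          have b2 := Bd_bad q κ m (show A1 ≤ T + x * 2 ^ r.2 - x * 2 ^ r.1 by omega) a4'
          have b3 : ((T + x * 2 ^ r.2 - x * 2 ^ r.1 : ℕ) : ℤ) =
              (T : ℤ) + (x : ℤ) * 2 ^ r.2 - (x : ℤ) * 2 ^ r.1 := by
            rw [Nat.cast_sub (by omega)]
            push_cast
            ring
          rw [b3] at b2
          exact b2
        have h9 := Finset.card_le_card h8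
        show F.card ≤ k + m
        rw [h6] at h9
        refine h9.trans (le_trans ?_ (Nat.add_le_add_right h7 m))
        convert h5 }
  exact Asm3_515.asm (p := p) ok hone hfaith s

/-- the row -/
theorem row {α : Type u} [Finite α] (L : Language α) (hL : L.IsRegular) :
    ∃ e : GRegExp α, e.height ≤ 3 ∧ e.lang = L :=
  of_monoid (k := 3) (fun S _ _ φ s => main S φ s) L hL

end Crest.Agent.R320.Inst_515
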