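import Crest.Agent.R320.Top5_110
import Crest.Agent.R320.ExactR_237

/-!
# Row 320: the instance of 110's `top_sem` on all words (helper518)

Natural chain rule: `XX` = words ending in a wall, of length at least `z0`, no earlier wall at a
place `≥ z0` (left-looking walls).  Scheme 1 = a gadget exact on all words (693 / 638 form),
complete off the modes `Bd` (wall band, or thin set of lengths); scheme 2 = 237's exact gadget at the
places `c k` with the spoil count.
-/

set_option autoImplicit false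

namespace Crest.Agent.R320.Inst_518

open Crest.Agent.R320.Hk_851 Crest.Agent.R320.Code110

universe u

section
variable {α : Type u}

/-- blocks -/
def XX (Wo : List α → Prop) (z0 : ℕ) : Language α :=
  {X | Wo X ∧ z0 ≤ X.length ∧ ∀ t, z0 ≤ t → t < X.length → ¬ Wo (X.take t)}

/-- bad blocks -/
def Bd (Wo : List α → Prop) (z0 p0 N1 : ℕ) (BadT : ℕ → Prop) : Language α :=
  {X | X ∈ XX Wo z0 ∧ ((∃ t, t ≤ X.length ∧ Wo (X.take t) ∧ z0 ≤ t + N1 ∧ t ≤ z0 + N1) ∨
    BadT (X.length - p0))}

/-- token map -/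
def TT {S V : Type*} [Monoid S] [AddCommGroup V] (φ : List α → S) (act : V → S → V) (p0 : ℕ)
    (nu1 nu2 : List α → V) (X : List α) (v : V) : V :=
  act (act v (φ (X.take p0)) + nu2 (X.take p0)) (φ (X.drop p0)) + nu1 (X.drop p0)

/-- left labels of scheme 1 -/
def L1 {S V : Type*} [Monoid S] [AddCommGroup V] (φ : List α → S) (act : V → S → V) (p0 N1 : ℕ)
    (nu2 : List α → V) (lam1 : List α → Option V) (v : V) : Language α :=
  {P | p0 ≤ P.length ∧ P.length ≤ p0 + N1 ∧
    lam1 (P.drop p0) = some (act v (φ (P.take p0)) + nu2 (P.take p0))}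

/-- left labels of scheme 2 -/
def L2 {V : Type*} (K : ℕ) (c : ℕ → ℕ) (lam2 : ℕ → List α → Option V) (v : V) : Language α :=
  {P | ∃ k < K, P.length = c k ∧ lam2 k P = some v}

variable {Wo : List α → Prop} {n z0 p0 N1 La : ℕ} {BadT : ℕ → Prop}

theorem take_add (P Q : List α) (s : ℕ) : (P ++ Q).take (P.length + s) = P ++ Q.take s := by
  rw [List.take_append, List.take_of_length_le (by omega), Nat.add_sub_cancel_left]

theorem wo_shift (hW1 : ∀ P Q : List α, n ≤ Q.length → (Wo (P ++ Q) ↔ Wo Q))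
    {P P' Q : List α} {s : ℕ} (hs : n ≤ s) (hsQ : s ≤ Q.length) :
    Wo ((P ++ Q).take (P.length + s)) ↔ Wo ((P' ++ Q).take (P'.length + s)) := by
  have hl : n ≤ (Q.take s).length := by rw [List.length_take]; omega
  rw [take_add, take_add, hW1 _ _ hl, hW1 _ _ hl]

/-- shift in terms of positions -/
theorem wo_shift' (hW1 : ∀ P Q : List α, n ≤ Q.length → (Wo (P ++ Q) ↔ Wo Q))
    {P P' Q : List α} {t : ℕ} (hs : P'.length + n ≤ t) (hsQ : t ≤ P'.length + Q.length) :
    Wo ((P' ++ Q).take t) ↔ Wo ((P ++ Q).take (t - P'.length + P.length)) := by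
  have h := wo_shift hW1 (P := P') (P' := P) (Q := Q) (s := t - P'.length) (by omega) (by omega)
  have e1 : P'.length + (t - P'.length) = t := by omega
  rw [e1] at h
  rw [h, Nat.add_comm]

theorem pcXX (hz : 0 < z0) : PC (XX Wo z0) where
  ne := by
    rintro ⟨-, h, -⟩
    simp only [List.length_nil] at h
    omega
  pf := by
    rintro a ⟨ha, ha2, -⟩ b ⟨-, -, hb⟩ ⟨r, rfl⟩
    by_cases hr : r = []
    · subst hr; simp
    · exfalso
      have hrl : 0 < r.length := List.length_pos_iff.2 hr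
      refine hb a.length ha2 (by rw [List.length_append]; omega) ?_
      rw [List.take_left]
      exact ha

theorem Bd_sub : ∀ X ∈ Bd Wo z0 p0 N1 BadT, X ∈ XX Wo z0 := fun _ h => h.1

section c1
variable {S V : Type*} [Monoid S] [AddCommGroup V] {φ : List α → S} {act : V → S → V}
  {nu1 nu2 : List α → V} {lam1 rho1 : List α → Option V}

/-- completeness of scheme 1 with semantic right labels -/
theorem c1 (hW1 : ∀ P Q : List α, n ≤ Q.length → (Wo (P ++ Q) ↔ Wo Q))
    (hz : p0 + N1 + n + La ≤ z0)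
    (hg : ∀ P v, lam1 P = some v → P.length ≤ N1)
    (hs : ∀ P Q v r, lam1 P = some v → rho1 Q = some r → La ≤ Q.length →
      r = act v (φ (P ++ Q)) + nu1 (P ++ Q))
    (hc : ∀ Y : List α, La ≤ Y.length → ¬ BadT Y.length → ∀ v, ∃ P Q, P ++ Q = Y ∧
      lam1 P = some v ∧ (rho1 Q).isSome) :
    ∀ u ∈ XX Wo z0, u ∉ Bd Wo z0 p0 N1 BadT → ∀ x, ∀ t ∈ (XX Wo z0) ^ 0, ∃ p q y,
      u ++ t = p ++ q ∧ p ∈ L1 φ act p0 N1 nu2 lam1 x ∧
      q ∈ Rsem (XX Wo z0) (XX Wo z0) (TT φ act p0 nu1 nu2) 0 (L1 φ act p0 N1 nu2 lam1) y := by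
  intro u hu hb x t ht
  have ht' : t = [] := by simpa using ht
  subst ht'
  rw [List.append_nil]
  obtain ⟨hu1, hu2, hu3⟩ := hu
  have hul : p0 ≤ u.length := by omega
  have hYl : (u.drop p0).length = u.length - p0 := List.length_drop
  obtain ⟨P, Q, hPQ, hP, hQ⟩ := hc (u.drop p0) (by rw [hYl]; omega)
    (by
      rw [hYl]
      intro h
      exact hb ⟨⟨hu1, hu2, hu3⟩, Or.inr h⟩) (act x (φ (u.take p0)) + nu2 (u.take p0))
  obtain ⟨b, hb'⟩ := Option.isSome_iff_exists.1 hQ
  have hPl := hg P _ hP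
  have hX1l : (u.take p0).length = p0 := by rw [List.length_take]; omega
  have hueq : u = (u.take p0 ++ P) ++ Q := by
    rw [List.append_assoc, hPQ, List.take_append_drop]
  have hlen : u.length = p0 + P.length + Q.length := by
    have := congrArg List.length hueq
    rw [List.length_append, List.length_append, hX1l] at this
    exact this
  have hE : ∀ t, t ≤ u.length → Wo (u.take t) → z0 ≤ t + N1 → t ≤ z0 + N1 → False :=
    fun t h1 h2 h3 h4 => hb ⟨⟨hu1, hu2, hu3⟩, Or.inl ⟨t, h1, h2, h3, h4⟩⟩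
  have hlong : z0 + N1 < u.length := by
    by_contra hcon
    exact hE u.length le_rfl (by rw [List.take_length]; exact hu1) (by omega) (by omega)
  refine ⟨u.take p0 ++ P, Q, b, hueq, ?_, ?_⟩
  · refine ⟨by rw [List.length_append, hX1l]; omega, by rw [List.length_append, hX1l]; omega, ?_⟩
    have e1 : (u.take p0 ++ P).drop p0 = P := by
      rw [List.drop_append, List.drop_of_length_le (by omega), hX1l, Nat.sub_self]
      simp
    have e2 : (u.take p0 ++ P).take p0 = u.take p0 := by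
      rw [List.take_append, List.take_of_length_le (by omega), hX1l, Nat.sub_self]
      simp
    rw [e1, e2]
    exact hP
  · intro x' p' hp'
    obtain ⟨h1, h2, h3⟩ := hp'
    left
    have hmem : p' ++ Q ∈ XX Wo z0 := by
      refine ⟨?_, by rw [List.length_append]; omega, ?_⟩
      · rw [hW1 _ _ (by omega)]
        rw [hueq, hW1 _ _ (by omega)] at hu1
        exact hu1
      · intro t ht1 ht2 hw
        rw [List.length_append] at ht2
        rw [wo_shift' hW1 (P := u.take p0 ++ P) (by omega) (by omega), ← hueq] at hw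
        have hl2 : (u.take p0 ++ P).length = p0 + P.length := by
          rw [List.length_append, hX1l]
        rw [hl2] at hw
        rcases Nat.lt_or_ge (t - p'.length + (p0 + P.length)) z0 with hlt | hge
        · exact hE _ (by omega) hw (by omega) (by omega)
        · exact hu3 _ hge (by omega) hw
    refine ⟨b, Language.mem_mul.2 ⟨p' ++ Q, ⟨hmem, ?_⟩, [], ⟨rfl, rfl⟩, by simp⟩⟩
    have e1 : (p' ++ Q).take p0 = p'.take p0 := by
      rw [List.take_append, Nat.sub_eq_zero_of_le h1]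
      simp
    have e2 : (p' ++ Q).drop p0 = p'.drop p0 ++ Q := by
      rw [List.drop_append, Nat.sub_eq_zero_of_le h1]
      simp
    unfold TT
    rw [e1, e2]
    exact (hs _ _ _ _ h3 hb' (by omega)).symm

end c1

section c2
variable {S V : Type*} [Monoid S] [AddCommGroup V] {φ : List α → S} {act : V → S → V}
  {nu1 nu2 : List α → V} {K : ℕ} {c : ℕ → ℕ} {lam2 rho2 : ℕ → List α → Option V} {W : ℕ}

/-- wall of a text -/
def WG (Wo : List α → Prop) (G : List α) (w : ℕ) : Prop := w ≤ G.length ∧ Wo (G.take w)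

theorem WG_gap (hgap : ∀ (X : List α) (s t : ℕ), s < t → t ≤ X.length → Wo (X.take s) →
      Wo (X.take t) → W < t - s)
    {G : List α} {w w' : ℕ} (h : WG Wo G w) (h' : WG Wo G w') (hlt : w < w') : w + W < w' := by
  have := hgap G w w' hlt h'.1 h.2 h'.2
  omega

/-- the block at the place `z` (measured in the text `G`) -/
def Fst (Wo : List α → Prop) (G : List α) (z w : ℕ) : Prop :=
  WG Wo G w ∧ z ≤ w ∧ ∀ t, z ≤ t → t < w → ¬ WG Wo G t

theorem Fst.uniq {G : List α} {z w w' : ℕ} (h : Fst Wo G z w) (h' : Fst Wo G z w') : w = w' := by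
  rcases Nat.lt_trichotomy w w' with hh | hh | hh
  · exact (h'.2.2 w h.2.1 hh h.1).elim
  · exact hh
  · exact (h.2.2 w' h'.2.1 hh h'.1).elim

theorem Fst.exists {G : List α} {z w : ℕ} (h : WG Wo G w) (hz : z ≤ w) : ∃ w', Fst Wo G z w' := by
  classical
  have hex : ∃ w, WG Wo G w ∧ z ≤ w := ⟨w, h, hz⟩
  refine ⟨Nat.find hex, (Nat.find_spec hex).1, (Nat.find_spec hex).2, ?_⟩
  intro t ht1 ht2 ht3
  exact Nat.find_min hex ht2 ⟨ht3, ht1⟩

/-- at most two blocks ends for the shifted anchors -/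
theorem Fst.two (hgap : ∀ (X : List α) (s t : ℕ), s < t → t ≤ X.length → Wo (X.take s) →
      Wo (X.take t) → W < t - s)
    {G : List α} {z D wa wb w δ : ℕ} (hW : 2 * D ≤ W) (hD : D ≤ z) (hδ : δ ≤ 2 * D)
    (ha : Fst Wo G (z - D) wa) (hb : Fst Wo G (z + D) wb) (h : Fst Wo G (z - D + δ) w) :
    w = wa ∨ w = wb := by
  by_cases h1 : z - D + δ ≤ wa
  · left
    refine h.uniq ⟨ha.1, h1, ?_⟩
    intro t ht1 ht2
    exact ha.2.2 t (by omega) ht2
  · right
    have h2 := ha.2.1
    have h3 : z + D ≤ w := by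
      have := WG_gap hgap ha.1 h.1 (by have := h.2.1; omega)
      omega
    refine Fst.uniq ⟨h.1, h3, ?_⟩ hb
    intro t ht1 ht2
    exact h.2.2 t (by omega) ht2

open Classical in
/-- **the spoil count** -/
theorem spoil (hgap : ∀ (X : List α) (s t : ℕ), s < t → t ≤ X.length → Wo (X.take s) →
      Wo (X.take t) → W < t - s)
    {D C0 : ℕ} (hcD : ∀ k < K, c k ≤ D) (hW : 2 * D + 2 * N1 ≤ W)
    (hz : p0 + N1 + n + La + 2 * D + 1 ≤ z0)
    (hrul : ∀ i j k l, i < K → j < K → k < K → l < K → i ≠ j → k ≠ l → (i, j) ≠ (k, l) →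
      c i + c l + 4 * N1 < c k + c j ∨ c k + c j + 4 * N1 < c i + c l)
    (hthin : ∀ T, La + D ≤ T → ((Finset.range K ×ˢ Finset.range K).filter (fun p =>
      p.1 ≠ p.2 ∧ BadT (T + c p.2 - c p.1))).card ≤ C0)
    (G : List α) {wa wb : ℕ} (ha : Fst Wo G (z0 - D) wa)
    (hb : Fst Wo G (z0 + D) wb)
    (I : Finset ℕ) (hI : ∀ k ∈ I, k < K ∧ ∃ k' < K, k' ≠ k ∧
      ((∃ t, WG Wo G t ∧ z0 + c k ≤ t + c k' + N1 ∧ t + c k' ≤ z0 + c k + N1) ∨
        (∃ w, Fst Wo G (z0 - D + (D + c k - c k')) w ∧ BadT (w + c k' - c k - p0)))) :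
    I.card ≤ 2 * C0 + 1 := by
  let A : ℕ → Finset ℕ := fun w => (((Finset.range K ×ˢ Finset.range K).filter (fun p =>
      p.1 ≠ p.2 ∧ BadT ((w - p0) + c p.2 - c p.1))).image Prod.fst)
  let E : Finset ℕ := I.filter (fun k => ∃ k' < K, k' ≠ k ∧
    ∃ t, WG Wo G t ∧ z0 + c k ≤ t + c k' + N1 ∧ t + c k' ≤ z0 + c k + N1)
  have hE : E.card ≤ 1 := by
    rw [Finset.card_le_one]
    intro i hi k hk
    obtain ⟨hiI, i', hi', hne, t, ht, h1, h2⟩ := Finset.mem_filter.1 hi
    obtain ⟨hkI, k', hk', hne', s, hs, h3, h4⟩ := Finset.mem_filter.1 hk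
    have hiK := (hI i hiI).1
    have hkK := (hI k hkI).1
    have b1 := hcD i hiK
    have b2 := hcD k hkK
    have b3 := hcD i' hi'
    have b4 := hcD k' hk'
    have hts : t = s := by
      rcases Nat.lt_trichotomy t s with hh | hh | hh
      · have := WG_gap hgap ht hs hh
        omega
      · exact hh
      · have := WG_gap hgap hs ht hh
        omega
    subst hts
    by_contra hik
    have := hrul i i' k k' hiK hi' hkK hk' (Ne.symm hne) (Ne.symm hne')
      (fun h => hik (Prod.ext_iff.1 h).1)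
    omega
  have hsub : I ⊆ E ∪ (A wa ∪ A wb) := by
    intro k hk
    obtain ⟨hkK, k', hk', hne, h⟩ := hI k hk
    rcases h with h | ⟨w, hw, hB⟩
    · exact Finset.mem_union_left _ (Finset.mem_filter.2 ⟨hk, k', hk', hne, h⟩)
    · have b2 := hcD k hkK
      have b4 := hcD k' hk'
      refine Finset.mem_union_right _ ?_
      have hw1 := hw.2.1
      have h2 := Fst.two hgap (D := D) (z := z0) (by omega) (by omega)
        (δ := D + c k - c k') (by omega) ha hb hw
      have hmem : ∀ w', w = w' → k ∈ A w' := by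
        rintro w' rfl
        refine Finset.mem_image.2 ⟨(k, k'), Finset.mem_filter.2 ⟨?_, Ne.symm hne, ?_⟩, rfl⟩
        · exact Finset.mem_product.2 ⟨Finset.mem_range.2 hkK, Finset.mem_range.2 hk'⟩
        · have e : w - p0 + c k' - c k = w + c k' - c k - p0 := by omega
          show BadT (w - p0 + c k' - c k)
          rw [e]; exact hB
      rcases h2 with h2 | h2
      · exact Finset.mem_union_left _ (hmem _ h2)
      · exact Finset.mem_union_right _ (hmem _ h2)
  have hA : ∀ w, La + D ≤ w - p0 → (A w).card ≤ C0 := fun w hw =>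
    Finset.card_image_le.trans (hthin _ hw)
  have h1 := hA wa (by have := ha.2.1; omega)
  have h2 := hA wb (by have := hb.2.1; omega)
  calc I.card ≤ (E ∪ (A wa ∪ A wb)).card := Finset.card_le_card hsub
    _ ≤ E.card + (A wa ∪ A wb).card := Finset.card_union_le _ _
    _ ≤ E.card + ((A wa).card + (A wb).card) := by
        have := Finset.card_union_le (A wa) (A wb); omega
    _ ≤ 2 * C0 + 1 := by omega

theorem WG_shift (hW1 : ∀ P Q : List α, n ≤ Q.length → (Wo (P ++ Q) ↔ Wo Q))
    {P P' Q : List α} {t : ℕ} (h : P'.length + n ≤ t) :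
    WG Wo (P' ++ Q) t ↔ WG Wo (P ++ Q) (t + P.length - P'.length) := by
  have e : t + P.length - P'.length = t - P'.length + P.length := by omega
  unfold WG
  rw [e]
  constructor
  · rintro ⟨h1, h2⟩
    rw [List.length_append] at h1
    refine ⟨by rw [List.length_append]; omega, ?_⟩
    rwa [← wo_shift' hW1 (P := P) (by omega) (by omega)]
  · rintro ⟨h1, h2⟩
    rw [List.length_append] at h1
    refine ⟨by rw [List.length_append]; omega, ?_⟩
    rwa [wo_shift' hW1 (P := P) (by omega) (by omega)]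

theorem swap (hW1 : ∀ P Q : List α, n ≤ Q.length → (Wo (P ++ Q) ↔ Wo Q))
    (hz : p0 + N1 + n ≤ z0) {P P' Q : List α} (hl : P'.length = P.length) (hp : P.length ≤ p0)
    (h : P ++ Q ∈ Bd Wo z0 p0 N1 BadT) : P' ++ Q ∈ Bd Wo z0 p0 N1 BadT := by
  obtain ⟨⟨h1, h2, h3⟩, h4⟩ := h
  rw [List.length_append] at h2
  have hll : (P' ++ Q).length = (P ++ Q).length := by
    rw [List.length_append, List.length_append, hl]
  have key : ∀ t, p0 + n ≤ t → (WG Wo (P' ++ Q) t ↔ WG Wo (P ++ Q) t) := by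
    intro t ht
    have := WG_shift hW1 (P := P) (P' := P') (Q := Q) (t := t) (by omega)
    rwa [hl, Nat.add_sub_cancel] at this
  refine ⟨⟨?_, by rw [hll, List.length_append]; exact h2, ?_⟩, ?_⟩
  · rw [hW1 _ _ (by omega)]
    rwa [hW1 _ _ (by omega)] at h1
  · intro t ht1 ht2 hw
    rw [hll] at ht2
    have := (key t (by omega)).1 ⟨by rw [hll]; omega, hw⟩
    exact h3 t ht1 ht2 this.2
  · rcases h4 with ⟨t, ht1, ht2, ht3, ht4⟩ | h4
    · left
      have := (key t (by omega)).2 ⟨ht1, ht2⟩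
      exact ⟨t, this.1, this.2, ht3, ht4⟩
    · right
      rw [hll]; exact h4

open Classical in
/-- completeness of scheme 2 with semantic right labels -/
theorem c2 (hW1 : ∀ P Q : List α, n ≤ Q.length → (Wo (P ++ Q) ↔ Wo Q))
    (hgap : ∀ (X : List α) (s t : ℕ), s < t → t ≤ X.length → Wo (X.take s) →
      Wo (X.take t) → W < t - s)
    {D C0 R : ℕ} (hcD : ∀ k < K, c k ≤ D) (hDp : D ≤ p0) (hW : 2 * D + 2 * N1 ≤ W)
    (hz : p0 + N1 + n + La + 2 * D + 1 ≤ z0)
    (hrul : ∀ i j k l, i < K → j < K → k < K → l < K → i ≠ j → k ≠ l → (i, j) ≠ (k, l) →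
      c i + c l + 4 * N1 < c k + c j ∨ c k + c j + 4 * N1 < c i + c l)
    (hthin : ∀ T, La + D ≤ T → ((Finset.range K ×ˢ Finset.range K).filter (fun p =>
      p.1 ≠ p.2 ∧ BadT (T + c p.2 - c p.1))).card ≤ C0)
    (hs2 : ∀ k < K, ∀ (P Q : List α) (v b : V), P.length = c k → lam2 k P = some v →
      rho2 k Q = some b → b = act v (φ (P ++ Q)) + nu2 (P ++ Q))
    (hc2 : ∀ (u : List α) (v : V), (∀ k < K, c k ≤ u.length) → ∃ I : Finset ℕ, R ≤ I.card ∧
      ∀ k ∈ I, k < K ∧ lam2 k (u.take (c k)) = some v ∧ (rho2 k (u.drop (c k))).isSome)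
    (hR : 2 * C0 + 2 ≤ R) :
    ∀ u ∈ Bd Wo z0 p0 N1 BadT, ∀ x, ∀ t ∈ (Bd Wo z0 p0 N1 BadT) ^ 1, ∃ p q y,
      u ++ t = p ++ q ∧ p ∈ L2 K c lam2 x ∧
      q ∈ Rsem (XX Wo z0) (Bd Wo z0 p0 N1 BadT) (TT φ act p0 nu1 nu2) 1 (L2 K c lam2) y := by
  intro u hu x t ht
  rw [pow_one] at ht
  have hul := hu.1.2.1
  have htl := ht.1.2.1
  have hX1l : (u.take p0).length = p0 := by rw [List.length_take]; omega
  obtain ⟨I, hIR, hI⟩ := hc2 (u.take p0) x (fun k hk => by
    rw [hX1l]; exact (hcD k hk).trans hDp)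
  obtain ⟨wa, ha⟩ := Fst.exists (Wo := Wo) (G := u ++ t) (z := z0 - D) (w := u.length)
    ⟨by rw [List.length_append]; omega, by rw [List.take_left]; exact hu.1.1⟩ (by omega)
  obtain ⟨wb, hb⟩ := Fst.exists (Wo := Wo) (G := u ++ t) (z := z0 + D) (w := (u ++ t).length)
    ⟨le_rfl, by rw [List.take_length, hW1 _ _ (by omega)]; exact ht.1.1⟩
    (by rw [List.length_append]; omega)
  have hex : ∃ k ∈ I, ¬ ∃ k' < K, k' ≠ k ∧
      ((∃ s, WG Wo (u ++ t) s ∧ z0 + c k ≤ s + c k' + N1 ∧ s + c k' ≤ z0 + c k + N1) ∨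
        (∃ w, Fst Wo (u ++ t) (z0 - D + (D + c k - c k')) w ∧
          BadT (w + c k' - c k - p0))) := by
    by_contra hcon
    push Not at hcon
    have := spoil hgap hcD hW hz hrul hthin (u ++ t) ha hb I (fun k hk => by
      refine ⟨(hI k hk).1, ?_⟩
      exact hcon k hk)
    omega
  obtain ⟨k, hkI, hk⟩ := hex
  obtain ⟨hkK, hlam, hrho⟩ := hI k hkI
  have hck := hcD k hkK
  obtain ⟨b, hb'⟩ := Option.isSome_iff_exists.1 hrho
  have hlamu : lam2 k (u.take (c k)) = some x := by
    rw [List.take_take, min_eq_left (by omega)] at hlam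
    exact hlam
  have hPl : (u.take (c k)).length = c k := by rw [List.length_take]; omega
  refine ⟨u.take (c k), u.drop (c k) ++ t, TT φ act p0 nu1 nu2 t (TT φ act p0 nu1 nu2 u x), ?_,
    ⟨k, hkK, hPl, hlamu⟩, ?_⟩
  · rw [← List.append_assoc, List.take_append_drop]
  intro x' p' hp'
  obtain ⟨k', hk'K, hl', hlam'⟩ := hp'
  have hck' := hcD k' hk'K
  by_cases hkk : k' = k
  · subst hkk
    left
    have hmem : p' ++ u.drop (c k') ∈ Bd Wo z0 p0 N1 BadT := by
      refine swap hW1 (P := u.take (c k')) (by omega) (by omega) (by omega) ?_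
      rw [List.take_append_drop]; exact hu
    have hTT : TT φ act p0 nu1 nu2 (p' ++ u.drop (c k')) x' = TT φ act p0 nu1 nu2 u x := by
      have e1 : (p' ++ u.drop (c k')).take p0 = p' ++ (u.take p0).drop (c k') := by
        rw [List.take_append, List.take_of_length_le (by omega), hl', List.drop_take]
      have e2 : (p' ++ u.drop (c k')).drop p0 = u.drop p0 := by
        rw [List.drop_append, List.drop_of_length_le (by omega), hl', List.nil_append,
          List.drop_drop]
        congr 1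
        omega
      have e3 : u.take (c k') ++ (u.take p0).drop (c k') = u.take p0 := by
        have := List.take_append_drop (c k') (u.take p0)
        rwa [List.take_take, min_eq_left (by omega)] at this
      have g1 := hs2 k' hkK _ _ _ _ hPl hlamu hb'
      have g2 := hs2 k' hkK _ _ _ _ hl' hlam' hb'
      rw [e3] at g1
      unfold TT
      rw [e1, e2, ← g1, ← g2]
    refine ⟨TT φ act p0 nu1 nu2 u x, Language.mem_mul.2 ⟨p' ++ u.drop (c k'), ⟨hmem, hTT⟩, t, ?_,
      by rw [List.append_assoc]⟩⟩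
    exact ⟨_, Language.mem_mul.2 ⟨t, ⟨ht, rfl⟩, [], ⟨rfl, rfl⟩, by simp⟩⟩
  · right
    left
    have hGG : u ++ t = u.take (c k) ++ (u.drop (c k) ++ t) := by
      rw [← List.append_assoc, List.take_append_drop]
    have key : ∀ s, c k' + n ≤ s → (WG Wo (p' ++ (u.drop (c k) ++ t)) s ↔
        WG Wo (u ++ t) (s + c k - c k')) := by
      intro s hs
      have := WG_shift hW1 (P := u.take (c k)) (P' := p') (Q := u.drop (c k) ++ t) (t := s)
        (by omega)
      rw [← hGG, hPl, hl'] at this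
      exact this
    have hGl : (p' ++ (u.drop (c k) ++ t)).length = c k' + (u.length - c k) + t.length := by
      rw [List.length_append, List.length_append, List.length_drop]; omega
    obtain ⟨w', hw'⟩ := Fst.exists (Wo := Wo) (G := p' ++ (u.drop (c k) ++ t)) (z := z0)
      (w := (p' ++ (u.drop (c k) ++ t)).length)
      ⟨le_rfl, by
        rw [List.take_length, ← List.append_assoc, hW1 _ _ (by omega)]; exact ht.1.1⟩
      (by rw [hGl]; omega)
    have hw'l := hw'.1.1
    have hw'z := hw'.2.1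
    have hlen' : ((p' ++ (u.drop (c k) ++ t)).take w').length = w' := by
      rw [List.length_take]; omega
    refine ⟨(p' ++ (u.drop (c k) ++ t)).take w', ⟨hw'.1.2, by rw [hlen']; exact hw'z, ?_⟩, ?_,
      List.take_prefix _ _⟩
    · intro s hs1 hs2 hs3
      rw [hlen'] at hs2
      rw [List.take_take, min_eq_left hs2.le] at hs3
      exact hw'.2.2 s hs1 hs2 ⟨by omega, hs3⟩
    · rintro ⟨-, hbad⟩
      refine hk ⟨k', hk'K, hkk, ?_⟩
      rcases hbad with ⟨s, hs1, hs2, hs3, hs4⟩ | hbad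
      · left
        rw [hlen'] at hs1
        rw [List.take_take, min_eq_left hs1] at hs2
        refine ⟨s + c k - c k', (key s (by omega)).1 ⟨by omega, hs2⟩, by omega, by omega⟩
      · right
        rw [hlen'] at hbad
        refine ⟨w' + c k - c k', ⟨(key w' (by omega)).1 hw'.1, by omega, ?_⟩, ?_⟩
        · intro s hs1 hs2 hs3
          have := (key (s + c k' - c k) (by omega)).2 (by
            have e : s + c k' - c k + c k - c k' = s := by omega
            rw [e]; exact hs3)
          exact hw'.2.2 _ (by omega) (by omega) this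
        · have e : w' + c k - c k' + c k' - c k - p0 = w' - p0 := by omega
          rw [e]; exact hbad

end c2

end

end Crest.Agent.R320.Inst_518
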