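import Crest.Agent.R320.SemTop_727
import Crest.Agent.R320.Geo_522

/-!
# Row 320: completeness of both schemes over a block code with left-looking walls (helper522)

`Dat`: everything which is needed from the gadgets, the walls and the ruler.
`Dat.hC2`: the hypothesis `hC2` of `SemTop_727.top`.
-/

set_option autoImplicit false

namespace Crest.Agent.R320.Inst_522

open Crest.RegLang Crest.Agent.R320.Hk_851 Crest.Agent.R320.Blk467
open Crest.Agent.R320.SemTop_727 Crest.Agent.R320.Geo_522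

universe u

structure Dat (A : Type u) (S V : Type*) [Monoid S] [AddCommGroup V] where
  φ : A → S
  act : V → S → V
  hadd : ∀ a b s, act (a + b) s = act a s + act b s
  hmul : ∀ v s t, act v (s * t) = act (act v s) t
  p0 : ℕ
  N1 : ℕ
  z : ℕ
  n : ℕ
  K : ℕ
  C0 : ℕ
  c : ℕ → ℕ
  hcp : ∀ k, k < K → c k ≤ p0
  AA : Set (List A)
  hz : 4 * (p0 + N1 + n + 1) ≤ z
  hsep : ∀ w s t, s < t → Wa n AA w s → Wa n AA w t → s + 2 * (p0 + N1) + 1 < t
  lam1 : List A → Option V
  rho1 : List A → Option V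
  nu1 : List A → V
  l1 : ∀ P v, lam1 P = some v → P.length ≤ N1
  s1 : ∀ P Q v v', lam1 P = some v → rho1 Q = some v' →
    v' = act v ((P ++ Q).map φ).prod + nu1 (P ++ Q)
  BadT : ℕ → Prop
  c1 : ∀ X : List A, ¬ BadT X.length → ∀ v, ∃ P Q, P ++ Q = X ∧ lam1 P = some v ∧
    (rho1 Q).isSome
  lam2 : ℕ → List A → Option V
  rho2 : ℕ → List A → Option V
  nu2 : List A → V
  s2 : ∀ k < K, ∀ P Q v b, P.length = c k → lam2 k P = some v → rho2 k Q = some b →
    b = act v ((P ++ Q).map φ).prod + nu2 (P ++ Q)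
  c2 : ∀ (w : List A) (v : V), (∀ k < K, c k ≤ w.length) → ∃ I : Finset ℕ, 3 * C0 + 1 ≤ I.card ∧
    ∀ k ∈ I, k < K ∧ lam2 k (w.take (c k)) = some v ∧ (rho2 k (w.drop (c k))).isSome
  sp1 : ∀ t : ℤ, ∀ F : Finset (ℕ × ℕ), (∀ p ∈ F, p.1 < K ∧ p.2 < K ∧ p.1 ≠ p.2 ∧
    t ≤ (c p.1 : ℤ) - c p.2 + N1 ∧ (c p.1 : ℤ) - c p.2 ≤ t + N1) → F.card ≤ C0
  sp2 : ∀ T : ℕ, p0 ≤ T → ∀ F : Finset (ℕ × ℕ), (∀ p ∈ F, p.1 < K ∧ p.2 < K ∧ p.1 ≠ p.2 ∧
    BadT (T + c p.2 - c p.1)) → F.card ≤ C0

namespace Dat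

variable {A : Type u} {S V : Type*} [Monoid S] [AddCommGroup V] (d : Dat A S V)

/-- noise of a block -/
def nu (X : List A) : V :=
  d.act (d.nu2 (X.take d.p0)) ((X.drop d.p0).map d.φ).prod + d.nu1 (X.drop d.p0)

/-- zone map -/
def T (v : V) (X : List A) : V := d.act v (X.map d.φ).prod + d.nu X

theorem T_split (v : V) (X : List A) : d.T v X =
    d.act (d.act v ((X.take d.p0).map d.φ).prod + d.nu2 (X.take d.p0))
      ((X.drop d.p0).map d.φ).prod + d.nu1 (X.drop d.p0) := by
  unfold T nu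
  rw [d.hadd, ← d.hmul, ← List.prod_append, ← List.map_append, List.take_append_drop, add_assoc]

theorem T_append (v : V) (X Y : List A) (h : X.length = d.p0) : d.T v (X ++ Y) =
    d.act (d.act v (X.map d.φ).prod + d.nu2 X) (Y.map d.φ).prod + d.nu1 Y := by
  rw [T_split, List.take_left' h, List.drop_left' h]

/-- the two schemes in 727's semantic form -/
def D : Sch A V where
  XX := XXz d.n d.AA d.z
  T := d.T
  L1 x := {P | d.p0 ≤ P.length ∧ d.lam1 (P.drop d.p0) =
    some (d.act x ((P.take d.p0).map d.φ).prod + d.nu2 (P.take d.p0))}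
  L2 x := {P | ∃ k, k < d.K ∧ P.length = d.c k ∧ d.lam2 k P = some x}

theorem hL1 [Finite A] (x : V) : (d.D.L1 x).Finite := by
  refine (List.finite_length_le A (d.p0 + d.N1)).subset ?_
  rintro P ⟨h1, h2⟩
  have := d.l1 _ _ h2
  rw [List.length_drop] at this
  show P.length ≤ d.p0 + d.N1
  omega

theorem hL2 [Finite A] (x : V) : (d.D.L2 x).Finite := by
  refine (List.finite_length_le A d.p0).subset ?_
  rintro P ⟨k, hk, h1, h2⟩
  have := d.hcp k hk
  show P.length ≤ d.p0
  omega

theorem good_of {X : List A} (hX : X ∈ XXz d.n d.AA d.z)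
    (hE : ∀ t, d.z ≤ t + d.N1 → t < d.z + d.N1 → ¬ Wa d.n d.AA X t)
    (hB : ¬ d.BadT (X.length - d.p0)) : X ∈ d.D.Good := by
  have hz := d.hz
  obtain ⟨h1, h2, h3⟩ := hX
  have hXl : d.z + d.N1 ≤ X.length := by
    by_contra hcon
    exact hE X.length (by omega) (by omega) h2
  refine ⟨⟨h1, h2, h3⟩, fun x => ?_⟩
  have hX0 : (X.take d.p0).length = d.p0 := by rw [List.length_take]; omega
  obtain ⟨P', Q, e, hP', hQ⟩ := d.c1 (X.drop d.p0) (by rw [List.length_drop]; exact hB)
    (d.act x ((X.take d.p0).map d.φ).prod + d.nu2 (X.take d.p0))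
  obtain ⟨b, hb⟩ := Option.isSome_iff_exists.1 hQ
  have hP'l := d.l1 _ _ hP'
  have hXe : X = (X.take d.p0 ++ P') ++ Q := by
    rw [List.append_assoc, e, List.take_append_drop]
  have hPl : (X.take d.p0 ++ P').length = d.p0 + P'.length := by
    rw [List.length_append, hX0]
  have hXlen : X.length = d.p0 + P'.length + Q.length := by
    conv_lhs => rw [hXe]
    rw [List.length_append, hPl]
  have hTX : d.T x X = b := by
    rw [d.T_split, ← e]
    exact (d.s1 _ _ _ _ hP' hb).symm
  refine ⟨X.take d.p0 ++ P', ⟨by omega, ?_⟩, Q, ?_, hXe.symm⟩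
  · rw [List.take_left' hX0, List.drop_left' hX0]
    exact hP'
  · rintro x' P'' ⟨g1, g2⟩
    have g3 := d.l1 _ _ g2
    rw [List.length_drop] at g3
    have hwall : ∀ s, d.n ≤ s → (Wa d.n d.AA (P'' ++ Q) (P''.length + s) ↔
        Wa d.n d.AA X (d.p0 + P'.length + s)) := by
      intro s hs
      rw [wa_append P'' Q hs]
      conv_rhs => rw [hXe, ← hPl]
      rw [wa_append _ Q hs]
    refine ⟨⟨?_, ?_, ?_⟩, ?_⟩
    · rw [List.length_append]
      omega
    · rw [List.length_append, hwall Q.length (by omega), ← hXlen]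
      exact h2
    · intro t ht1 ht2
      rw [List.length_append] at ht2
      obtain ⟨s, rfl⟩ : ∃ s, t = P''.length + s := ⟨t - P''.length, by omega⟩
      rw [hwall s (by omega)]
      by_cases hlt : d.p0 + P'.length + s < d.z + d.N1
      · exact hE _ (by omega) hlt
      · exact h3 _ (by omega) (by omega)
    · show d.T x' (P'' ++ Q) = d.T x X
      rw [hTX]
      have hl : (P''.take d.p0).length = d.p0 := by rw [List.length_take]; omega
      have he : P'' ++ Q = P''.take d.p0 ++ (P''.drop d.p0 ++ Q) := by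
        rw [← List.append_assoc, List.take_append_drop]
      rw [he, d.T_append _ _ _ hl]
      exact (d.s1 _ _ _ _ g2 hb).symm

open Classical in
theorem exists_unspoiled (w : List A) (I : Finset ℕ) (hI : 3 * d.C0 + 1 ≤ I.card)
    (hIK : ∀ k ∈ I, k < d.K) (hend : ∃ t, d.z + d.p0 ≤ t ∧ Wa d.n d.AA w t) :
    ∃ k ∈ I, ∀ j < d.K, j ≠ k → ∀ N, Wa d.n d.AA w N → d.z + d.c k ≤ N + d.c j →
      (∀ s, d.z + d.c k ≤ s + d.c j → s < N → ¬ Wa d.n d.AA w s) →
      (∀ t, d.z + d.c k ≤ t + d.c j + d.N1 → t + d.c j < d.z + d.c k + d.N1 →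
        ¬ Wa d.n d.AA w t) ∧ ¬ d.BadT (N + d.c j - d.c k - d.p0) := by
  have hz := d.hz
  obtain ⟨t2, h21, h22, h23⟩ := exists_first (z := d.z + d.p0) w hend
  obtain ⟨t1, h11, h12, h13⟩ := exists_first (z := d.z - d.p0) w
    ⟨t2, by omega, h22⟩
  -- the three families of pairs (k, j)
  let PP := Finset.range d.K ×ˢ Finset.range d.K
  let FE : Finset (ℕ × ℕ) := PP.filter fun p => p.1 ≠ p.2 ∧ ∃ t, d.z + d.c p.1 ≤ t + d.c p.2 + d.N1 ∧
    t + d.c p.2 < d.z + d.c p.1 + d.N1 ∧ Wa d.n d.AA w t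
  let F1 : Finset (ℕ × ℕ) := PP.filter fun p => p.1 ≠ p.2 ∧ d.BadT (t1 - d.p0 + d.c p.2 - d.c p.1)
  let F2 : Finset (ℕ × ℕ) := PP.filter fun p => p.1 ≠ p.2 ∧ d.BadT (t2 - d.p0 + d.c p.2 - d.c p.1)
  have hE : FE.card ≤ d.C0 := by
    by_cases hne : ∃ t, d.z ≤ t + d.p0 + d.N1 ∧ t < d.z + d.p0 + d.N1 ∧ Wa d.n d.AA w t
    · obtain ⟨t, ht1, ht2, ht3⟩ := hne
      refine d.sp1 ((t : ℤ) - d.z) FE ?_
      intro p hp
      obtain ⟨hp1, hp2, s, hs1, hs2, hs3⟩ := Finset.mem_filter.1 hp
      obtain ⟨a1, a2⟩ := Finset.mem_product.1 hp1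
      rw [Finset.mem_range] at a1 a2
      have b1 := d.hcp _ a1
      have b2 := d.hcp _ a2
      have hst : s = t := by
        rcases Nat.lt_trichotomy s t with h | h | h
        · have := d.hsep w s t h hs3 ht3
          omega
        · exact h
        · have := d.hsep w t s h ht3 hs3
          omega
      subst hst
      refine ⟨a1, a2, hp2, by omega, by omega⟩
    · have : FE = ∅ := by
        rw [Finset.eq_empty_iff_forall_notMem]
        intro p hp
        obtain ⟨hp1, hp2, s, hs1, hs2, hs3⟩ := Finset.mem_filter.1 hp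
        obtain ⟨a1, a2⟩ := Finset.mem_product.1 hp1
        rw [Finset.mem_range] at a1 a2
        have b1 := d.hcp _ a1
        have b2 := d.hcp _ a2
        exact hne ⟨s, by omega, by omega, hs3⟩
      rw [this]
      exact Nat.zero_le _
  have hF1 : F1.card ≤ d.C0 := by
    refine d.sp2 (t1 - d.p0) (by omega) F1 ?_
    intro p hp
    obtain ⟨hp1, hp2, hp3⟩ := Finset.mem_filter.1 hp
    obtain ⟨a1, a2⟩ := Finset.mem_product.1 hp1
    rw [Finset.mem_range] at a1 a2
    exact ⟨a1, a2, hp2, hp3⟩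
  have hF2 : F2.card ≤ d.C0 := by
    refine d.sp2 (t2 - d.p0) (by omega) F2 ?_
    intro p hp
    obtain ⟨hp1, hp2, hp3⟩ := Finset.mem_filter.1 hp
    obtain ⟨a1, a2⟩ := Finset.mem_product.1 hp1
    rw [Finset.mem_range] at a1 a2
    exact ⟨a1, a2, hp2, hp3⟩
  let SP : Finset ℕ := (FE ∪ F1 ∪ F2).image Prod.fst
  have hSP : SP.card ≤ 3 * d.C0 := by
    refine Finset.card_image_le.trans ?_
    have h1 := Finset.card_union_le (FE ∪ F1) F2
    have h2 := Finset.card_union_le FE F1
    omega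
  obtain ⟨k, hkI, hk⟩ : ∃ k ∈ I, k ∉ SP := by
    by_contra hcon
    simp only [not_exists, not_and, not_not] at hcon
    have := Finset.card_le_card (show I ⊆ SP from hcon)
    omega
  refine ⟨k, hkI, ?_⟩
  intro j hj hjk N hN1 hN2 hN3
  have hkK := hIK k hkI
  have b1 := d.hcp _ hkK
  have b2 := d.hcp _ hj
  have hmem : (k, j) ∈ PP := Finset.mem_product.2 ⟨Finset.mem_range.2 hkK, Finset.mem_range.2 hj⟩
  constructor
  · intro t ht1 ht2 ht3
    refine hk (Finset.mem_image.2 ⟨(k, j), ?_, rfl⟩)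
    refine Finset.mem_union_left _ (Finset.mem_union_left _ ?_)
    exact Finset.mem_filter.2 ⟨hmem, hjk.symm, t, ht1, ht2, ht3⟩
  · intro hbad
    by_cases hlt : N < d.z + d.p0
    · -- N = t1
      have hle : t1 ≤ N := by
        by_contra hcon
        exact h13 N (by omega) (by omega) hN1
      have he : t1 = N := by
        rcases Nat.lt_or_ge t1 N with h | h
        · have := d.hsep w t1 N h h12 hN1
          omega
        · omega
      refine hk (Finset.mem_image.2 ⟨(k, j), ?_, rfl⟩)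
      refine Finset.mem_union_left _ (Finset.mem_union_right _ ?_)
      refine Finset.mem_filter.2 ⟨hmem, hjk.symm, ?_⟩
      show d.BadT (t1 - d.p0 + d.c j - d.c k)
      rw [he, show N - d.p0 + d.c j - d.c k = N + d.c j - d.c k - d.p0 by omega]
      exact hbad
    · have hle : t2 ≤ N := by
        by_contra hcon
        exact h23 N (by omega) (by omega) hN1
      have hge : N ≤ t2 := by
        by_contra hcon
        exact hN3 t2 (by omega) (by omega) h22
      have he : t2 = N := by omega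
      refine hk (Finset.mem_image.2 ⟨(k, j), ?_, rfl⟩)
      refine Finset.mem_union_right _ ?_
      refine Finset.mem_filter.2 ⟨hmem, hjk.symm, ?_⟩
      show d.BadT (t2 - d.p0 + d.c j - d.c k)
      rw [he, show N - d.p0 + d.c j - d.c k = N + d.c j - d.c k - d.p0 by omega]
      exact hbad

theorem hC2 : ∀ X1 ∈ d.D.Bad, ∀ X2 ∈ d.D.Bad, ∀ x, ∃ P ∈ d.D.L2 x,
    ∃ Q ∈ d.D.R2 (d.D.T (d.D.T x X1) X2), P ++ Q = X1 ++ X2 := by
  have hz := d.hz
  rintro X1 hX1 X2 hX2 x
  obtain ⟨⟨h11, h12, h13⟩, hX1g⟩ := id hX1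
  obtain ⟨⟨h21, h22, h23⟩, hX2g⟩ := id hX2
  have hX0 : (X1.take d.p0).length = d.p0 := by rw [List.length_take]; omega
  obtain ⟨I, hI, hIs⟩ := d.c2 (X1.take d.p0) x (fun k hk => by rw [hX0]; exact d.hcp k hk)
  have hlen : (X1 ++ X2).length = X1.length + X2.length := List.length_append
  have hendw : Wa d.n d.AA (X1 ++ X2) (X1.length + X2.length) :=
    (wa_append X1 X2 (by omega)).2 h22
  obtain ⟨k, hkI, hun⟩ := d.exists_unspoiled (X1 ++ X2) I hI (fun k hk => (hIs k hk).1)
    ⟨_, by omega, hendw⟩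
  obtain ⟨hkK, hk1, hk2⟩ := hIs k hkI
  have hckp := d.hcp k hkK
  obtain ⟨b, hb⟩ := Option.isSome_iff_exists.1 hk2
  have htt : (X1.take d.p0).take (d.c k) = X1.take (d.c k) := by
    rw [List.take_take, min_eq_left hckp]
  rw [htt] at hk1
  have hPl : (X1.take (d.c k)).length = d.c k := by rw [List.length_take]; omega
  have hQe : X1.take (d.c k) ++ (X1.drop (d.c k) ++ X2) = X1 ++ X2 := by
    rw [← List.append_assoc, List.take_append_drop]
  refine ⟨X1.take (d.c k), ⟨k, hkK, hPl, hk1⟩, X1.drop (d.c k) ++ X2, ?_, hQe⟩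
  rintro x' P' ⟨j, hj, hP'l, hP'⟩
  have hcjp := d.hcp j hj
  have hwall : ∀ s, d.n ≤ s → (Wa d.n d.AA (P' ++ (X1.drop (d.c k) ++ X2)) (d.c j + s) ↔
      Wa d.n d.AA (X1 ++ X2) (d.c k + s)) := by
    intro s hs
    have e1 := wa_append (n := d.n) (A := d.AA) P' (X1.drop (d.c k) ++ X2) hs
    have e2 := wa_append (n := d.n) (A := d.AA) (X1.take (d.c k)) (X1.drop (d.c k) ++ X2) hs
    rw [hP'l] at e1
    rw [hPl, hQe] at e2
    exact e1.trans e2.symm
  have hlen' : (P' ++ (X1.drop (d.c k) ++ X2)).length + d.c k =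
      X1.length + X2.length + d.c j := by
    rw [List.length_append, List.length_append, List.length_drop, hP'l]
    omega
  by_cases hjk : j = k
  · subst hjk
    -- the first block is P' ++ X1.drop (c j)
    have hX1' : P' ++ X1.drop (d.c j) ∈ XXz d.n d.AA d.z := by
      have hw1 : ∀ s, d.n ≤ s → (Wa d.n d.AA (P' ++ X1.drop (d.c j)) (d.c j + s) ↔
          Wa d.n d.AA X1 (d.c j + s)) := by
        intro s hs
        have e1 := wa_append (n := d.n) (A := d.AA) P' (X1.drop (d.c j)) hs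
        have e2 := wa_append (n := d.n) (A := d.AA) (X1.take (d.c j)) (X1.drop (d.c j)) hs
        rw [hP'l] at e1
        rw [hPl, List.take_append_drop] at e2
        exact e1.trans e2.symm
      have hl : (P' ++ X1.drop (d.c j)).length = X1.length := by
        rw [List.length_append, List.length_drop, hP'l]
        omega
      refine ⟨by omega, ?_, ?_⟩
      · rw [hl, show X1.length = d.c j + (X1.length - d.c j) by omega, hw1 _ (by omega),
          show d.c j + (X1.length - d.c j) = X1.length by omega]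
        exact h12
      · intro t ht1 ht2
        rw [hl] at ht2
        rw [show t = d.c j + (t - d.c j) by omega, hw1 _ (by omega),
          show d.c j + (t - d.c j) = t by omega]
        exact h13 t ht1 ht2
    have hmid : X1.drop (d.c j) = (X1.take d.p0).drop (d.c j) ++ X1.drop d.p0 := by
      have e1 : X1 = X1.take d.p0 ++ X1.drop d.p0 := (List.take_append_drop _ _).symm
      conv_lhs => rw [e1]
      rw [List.drop_append_of_le_length (by rw [hX0]; exact hckp)]
    have hql : ((X1.take d.p0).drop (d.c j)).length = d.p0 - d.c j := by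
      rw [List.length_drop, hX0]
    have hTT : d.T x' (P' ++ X1.drop (d.c j)) = d.T x X1 := by
      have e1 : P' ++ X1.drop (d.c j) = (P' ++ (X1.take d.p0).drop (d.c j)) ++ X1.drop d.p0 := by
        rw [hmid, List.append_assoc]
      rw [e1, d.T_append _ _ _ (by rw [List.length_append, hql, hP'l]; omega), d.T_split x X1]
      have r1 := d.s2 j hj P' _ _ _ hP'l hP' hb
      have r2 := d.s2 j hj (X1.take (d.c j)) _ _ _ hPl hk1 hb
      have e2 : X1.take (d.c j) ++ (X1.take d.p0).drop (d.c j) = X1.take d.p0 := by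
        rw [← htt, List.take_append_drop]
      rw [e2] at r2
      rw [← r1, ← r2]
    by_cases hG : P' ++ X1.drop (d.c j) ∈ d.D.Good
    · refine Or.inr (Or.inl ⟨_, hG, ?_⟩)
      rw [← List.append_assoc]
      exact List.prefix_append _ _
    · refine Or.inl ⟨P' ++ X1.drop (d.c j), ⟨hX1', hG⟩, X2, hX2, by rw [List.append_assoc], ?_⟩
      show d.T (d.T x' (P' ++ X1.drop (d.c j))) X2 = d.T (d.T x X1) X2
      rw [hTT]
  · -- the first block is good
    obtain ⟨t0, ht1, ht2, ht3⟩ := exists_first (n := d.n) (A := d.AA) (z := d.z)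
      (P' ++ (X1.drop (d.c k) ++ X2))
      ⟨(P' ++ (X1.drop (d.c k) ++ X2)).length, by omega, by
        rw [show (P' ++ (X1.drop (d.c k) ++ X2)).length = d.c j + (X1.length + X2.length - d.c k)
          by omega, hwall _ (by omega),
          show d.c k + (X1.length + X2.length - d.c k) = X1.length + X2.length by omega]
        exact hendw⟩
    have ht0l : t0 ≤ (P' ++ (X1.drop (d.c k) ++ X2)).length := ht2.2.1
    have hN : Wa d.n d.AA (X1 ++ X2) (d.c k + (t0 - d.c j)) := by
      rw [← hwall _ (by omega), show d.c j + (t0 - d.c j) = t0 by omega]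
      exact ht2
    obtain ⟨hE, hB⟩ := hun j hj hjk (d.c k + (t0 - d.c j)) hN (by omega) (by
      intro s hs1 hs2 hs3
      refine ht3 (d.c j + (s - d.c k)) (by omega) (by omega) ?_
      rw [hwall _ (by omega), show d.c k + (s - d.c k) = s by omega]
      exact hs3)
    have hXX := take_mem ht1 ht2 ht3
    refine Or.inr (Or.inl ⟨(P' ++ (X1.drop (d.c k) ++ X2)).take t0, ?_, List.take_prefix _ _⟩)
    refine d.good_of hXX ?_ ?_
    · intro t hta htb htc
      have hlt : t ≤ t0 := by
        have := htc.2.1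
        rw [List.length_take] at this
        omega
      rw [wa_take _ hlt ht0l] at htc
      refine hE (d.c k + (t - d.c j)) (by omega) (by omega) ?_
      rw [← hwall _ (by omega), show d.c j + (t - d.c j) = t by omega]
      exact htc
    · rw [List.length_take, min_eq_left ht0l]
      have : d.c k + (t0 - d.c j) + d.c j - d.c k - d.p0 = t0 - d.p0 := by omega
      rw [this] at hB
      exact hB

end Dat

end Crest.Agent.R320.Inst_522
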