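import Mathlib
import Crest.Agent.R320.Hk2_851

/-!
# Row 320: instantiation of the two schemes on blocks (helper525)

Natural chain: a block is a word of length `≥ Z0` which ends in a (left-looking) wall and has no
earlier wall at a place `≥ Z0`.  Scheme 1 = any gadget `lam1, rho1, nu1` on words (693 / 638), complete
off `BadT`; scheme 2 = exact gadget (237) on the first `p0` letters with ruler places `c k`.
Both right readings are defined by "soundness by definition"; the result is the list of hypotheses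
`s1`, `s2`, `cc` and the `HL 1` facts of 163's `top` (#13363).
-/

set_option autoImplicit false

namespace Crest.Agent.R320.Inst_525

open Crest.RegLang Crest.Agent.R320.Hk_851

structure Dat (α S V : Type*) where
  φ : List α → S
  act : V → S → V
  Wl : List α → Prop
  n : ℕ
  Z0 : ℕ
  p0 : ℕ
  N1 : ℕ
  lam1 : List α → Option V
  rho1 : List α → Option V
  nu1 : List α → V
  BadT : ℕ → Prop
  K : ℕ
  c : ℕ → ℕ
  lam2 : ℕ → List α → Option V
  rho2 : ℕ → List α → Option V
  nu2 : List α → V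

variable {α S V : Type*} [Monoid S] [AddCommGroup V]

namespace Dat

variable (D : Dat α S V)

def tok (P : List α) (v : V) : V := D.act v (D.φ (P.take D.p0)) + D.nu2 (P.take D.p0)

def T (v : V) (X : List α) : V :=
  D.act (D.tok X v) (D.φ (X.drop D.p0)) + D.nu1 (X.drop D.p0)

def XX : Set (List α) :=
  {X | D.Z0 ≤ X.length ∧ D.Wl X ∧ ∀ t, D.Z0 ≤ t → t < X.length → ¬ D.Wl (X.take t)}

def LP1 (P : List α) (v : V) : Prop :=
  D.p0 ≤ P.length ∧ P.length ≤ D.p0 + D.N1 ∧ D.lam1 (P.drop D.p0) = some (D.tok P v)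

def LP2 (P : List α) (v : V) : Prop := ∃ k < D.K, P.length = D.c k ∧ D.lam2 k P = some v

def G1 (Q : List α) (b : V) : Prop :=
  Q ≠ [] ∧ (∃ P v, D.LP1 P v ∧ P ++ Q ∈ D.XX ∧ D.T v (P ++ Q) = b) ∧
    ∀ P v, D.LP1 P v → P ++ Q ∈ D.XX ∧ D.T v (P ++ Q) = b

open Classical in
noncomputable def R1 (Q : List α) : Option V := if h : ∃ b, D.G1 Q b then some h.choose else none

theorem R1_iff (Q : List α) (b : V) : D.R1 Q = some b ↔ D.G1 Q b := by
  classical
  unfold R1
  by_cases h : ∃ b, D.G1 Q b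
  · rw [dif_pos h]
    have hc := h.choose_spec
    constructor
    · intro e
      rw [Option.some.injEq] at e
      rw [← e]; exact hc
    · intro hb
      obtain ⟨P, v, h1, h2, h3⟩ := hc.2.1
      have := (hb.2.2 P v h1).2
      rw [Option.some.injEq, ← h3, this]
  · rw [dif_neg h]
    constructor
    · intro e; cases e
    · intro hb; exact (h ⟨b, hb⟩).elim

theorem R1_isSome (Q : List α) : (D.R1 Q).isSome ↔ ∃ b, D.G1 Q b := by
  rw [Option.isSome_iff_exists]
  exact exists_congr fun b => D.R1_iff Q b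

/-- no block at the beginning of `P ++ Q` is cut by scheme 1 for the token `v` behind `P` -/
def Unc (P : List α) (v : V) (Q : List α) : Prop :=
  ∀ X ∈ D.XX, X <+: P ++ Q → ∀ P' Q', X = P' ++ Q' → P.length ≤ P'.length → D.LP1 P' v →
    (D.R1 Q').isSome → False

def OK (P : List α) (v : V) (Q : List α) (b : V) : Prop :=
  ∃ Q1 X2, Q = Q1 ++ X2 ∧ Q1 ≠ [] ∧ P ++ Q1 ∈ D.XX ∧ X2 ∈ D.XX ∧ D.T (D.T v (P ++ Q1)) X2 = b

def G2 (Q : List α) (b : V) : Prop :=
  (∃ P v, D.LP2 P v ∧ D.Unc P v Q ∧ D.OK P v Q b) ∧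
    ∀ P v, D.LP2 P v → D.Unc P v Q → D.OK P v Q b

open Classical in
noncomputable def R2 (Q : List α) : Option V := if h : ∃ b, D.G2 Q b then some h.choose else none

/-- prefix code -/
theorem pc {X Y : List α} (hX : X ∈ D.XX) (hXY : X ++ Y ∈ D.XX) : Y = [] := by
  by_contra hY
  have hl : 0 < Y.length := List.length_pos_iff.2 hY
  have := hXY.2.2 X.length hX.1 (by rw [List.length_append]; omega)
  apply this
  rw [List.take_left']
  · exact hX.2.1
  · rfl

theorem pc' {X X' w : List α} (hX : X ∈ D.XX) (hX' : X' ∈ D.XX) (h : X <+: w) (h' : X' <+: w) :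
    X = X' := by
  rcases List.prefix_or_prefix_of_prefix h h' with ⟨Y, rfl⟩ | ⟨Y, rfl⟩
  · rw [D.pc hX hX', List.append_nil]
  · rw [D.pc hX' hX, List.append_nil]

theorem OK_unique {P : List α} {v : V} {Q : List α} {b b' : V} (h : D.OK P v Q b)
    (h' : D.OK P v Q b') : b = b' := by
  obtain ⟨Q1, X2, e, _, h1, h2, h3⟩ := h
  obtain ⟨Q1', X2', e', _, h1', h2', h3'⟩ := h'
  have hq : P ++ Q1 = P ++ Q1' := by
    apply D.pc' (w := P ++ Q) h1 h1'
    · rw [e, ← List.append_assoc]; exact List.prefix_append _ _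
    · rw [e', ← List.append_assoc]; exact List.prefix_append _ _
  have hq' : Q1 = Q1' := List.append_cancel_left hq
  subst hq'
  have : X2 = X2' := List.append_cancel_left (e.symm.trans e')
  subst this
  rw [← h3, h3']

theorem R2_iff (Q : List α) (b : V) : D.R2 Q = some b ↔ D.G2 Q b := by
  classical
  unfold R2
  by_cases h : ∃ b, D.G2 Q b
  · rw [dif_pos h]
    have hc := h.choose_spec
    constructor
    · intro e
      rw [Option.some.injEq] at e
      rw [← e]; exact hc
    · intro hb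
      obtain ⟨P, v, h1, h2, h3⟩ := hc.1
      have := hb.2 P v h1 h2
      rw [Option.some.injEq]
      exact D.OK_unique h3 this
  · rw [dif_neg h]
    constructor
    · intro e; cases e
    · intro hb; exact (h ⟨b, hb⟩).elim

theorem R2_isSome (Q : List α) : (D.R2 Q).isSome ↔ ∃ b, D.G2 Q b := by
  rw [Option.isSome_iff_exists]
  exact exists_congr fun b => D.R2_iff Q b

/-! ### soundness -/

theorem s1 (P : List α) (v : V) (Q : List α) (b : V) (h : D.LP1 P v) (hb : D.R1 Q = some b) :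
    P ++ Q ∈ D.XX ∧ D.T v (P ++ Q) = b :=
  ((D.R1_iff Q b).1 hb).2.2 P v h

theorem s2 (P : List α) (v : V) (Q : List α) (b : V) (h : D.LP2 P v) (hb : D.R2 Q = some b)
    (hu : D.Unc P v Q) :
    ∃ Q1 X2, Q = Q1 ++ X2 ∧ Q1 ≠ [] ∧ P ++ Q1 ∈ D.XX ∧ X2 ∈ D.XX ∧ D.T (D.T v (P ++ Q1)) X2 = b :=
  ((D.R2_iff Q b).1 hb).2 P v h hu

theorem R1_ne (Q : List α) (b : V) (h : D.R1 Q = some b) : Q ≠ [] := ((D.R1_iff Q b).1 h).1

theorem R2_ne (Q : List α) (b : V) (h : D.R2 Q = some b) : Q ≠ [] := by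
  obtain ⟨P, v, _, _, Q1, X2, e, h1, _⟩ := ((D.R2_iff Q b).1 h).1
  rw [e]
  intro h0
  exact h1 (List.append_eq_nil_iff.1 h0).1

/-! ### hypotheses -/

/-- a wall of `X` at `t` in the end band -/
def E (X : List α) : Prop :=
  ∃ t, t ≤ X.length ∧ D.Wl (X.take t) ∧ D.Z0 ≤ t + D.N1 ∧ t ≤ D.Z0 + D.N1

structure Ok (M1 Wg C0 R : ℕ) : Prop where
  loc : ∀ P Q, D.n ≤ Q.length → (D.Wl (P ++ Q) ↔ D.Wl Q)
  gap : ∀ P Q, D.Wl P → D.Wl (P ++ Q) → Q ≠ [] → Wg < Q.length
  hWg : 2 * (D.p0 + D.N1) ≤ Wg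
  hZ : 3 * D.p0 + D.N1 + D.n + M1 + 1 ≤ D.Z0
  φ_mul : ∀ u v, D.φ (u ++ v) = D.φ u * D.φ v
  g1 : ∀ P v, D.lam1 P = some v → P.length ≤ D.N1
  g2 : ∀ P Q v r, D.lam1 P = some v → D.rho1 Q = some r →
    r = D.act v (D.φ (P ++ Q)) + D.nu1 (P ++ Q)
  g3 : ∀ X : List α, M1 ≤ X.length → ¬ D.BadT X.length → ∀ v, ∃ P Q, P ++ Q = X ∧
    D.lam1 P = some v ∧ (D.rho1 Q).isSome
  hc : ∀ k < D.K, D.c k ≤ D.p0
  hcinj : ∀ k < D.K, ∀ k' < D.K, D.c k = D.c k' → k = k'
  ex : ∀ k < D.K, ∀ P Q v b, P.length = D.c k → (P ++ Q).length = D.p0 →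
    D.lam2 k P = some v → D.rho2 k Q = some b → b = D.act v (D.φ (P ++ Q)) + D.nu2 (P ++ Q)
  cp : ∀ (u : List α) (v : V), u.length = D.p0 → ∃ I : Finset ℕ, R ≤ I.card ∧ ∀ k ∈ I, k < D.K ∧
    D.lam2 k (u.take (D.c k)) = some v ∧ (D.rho2 k (u.drop (D.c k))).isSome
  rE : ∀ a < D.K, ∀ b < D.K, ∀ a' < D.K, ∀ b' < D.K, a ≠ b → a' ≠ b' →
    ((D.c b : ℤ) - D.c a) - ((D.c b' : ℤ) - D.c a') ≤ 2 * D.N1 →
    ((D.c b' : ℤ) - D.c a') - ((D.c b : ℤ) - D.c a) ≤ 2 * D.N1 → a = a'
  rB : ∀ t : ℕ, D.p0 ≤ t → ∀ F : Finset ℕ, (∀ a ∈ F, a < D.K ∧ ∃ b < D.K, a ≠ b ∧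
    D.BadT (t + D.c b - D.c a)) → F.card ≤ C0
  hR : 1 + 2 * C0 < R

variable {D}

theorem take_add (P Q : List α) (j : ℕ) : (P ++ Q).take (P.length + j) = P ++ Q.take j := by
  rw [List.take_append, List.take_of_length_le (by omega)]
  congr 2
  omega

section
variable {M1 Wg C0 R : ℕ}

/-- walls behind the cut are seen from the right word alone -/
theorem Ok.shift (h : D.Ok M1 Wg C0 R) (P P' Q : List α) (j : ℕ) (hj : D.n ≤ j) (hjQ : j ≤ Q.length) :
    D.Wl ((P ++ Q).take (P.length + j)) ↔ D.Wl ((P' ++ Q).take (P'.length + j)) := by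
  have hl : D.n ≤ (Q.take j).length := by rw [List.length_take]; omega
  rw [take_add, take_add, h.loc P _ hl, h.loc P' _ hl]

theorem Ok.gapt (h : D.Ok M1 Wg C0 R) (X : List α) (s t : ℕ) (hst : s < t) (ht : t ≤ X.length)
    (h1 : D.Wl (X.take s)) (h2 : D.Wl (X.take t)) : s + Wg < t := by
  have e : X.take t = X.take s ++ (X.drop s).take (t - s) := by
    conv_lhs => rw [← Nat.add_sub_cancel' hst.le]
    rw [List.take_add]
  rw [e] at h2
  have hlen : ((X.drop s).take (t - s)).length = t - s := by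
    rw [List.length_take, List.length_drop]; omega
  have := h.gap _ _ h1 h2 (by intro h0; rw [h0] at hlen; simp at hlen; omega)
  omega

/-! ### completeness of scheme 1 -/

theorem Ok.comp1 (h : D.Ok M1 Wg C0 R) {X : List α} (hX : X ∈ D.XX) (hE : ¬ D.E X)
    (hB : ¬ D.BadT (X.length - D.p0)) (v : V) :
    ∃ P Q, X = P ++ Q ∧ D.LP1 P v ∧ (D.R1 Q).isSome := by
  have hZ := h.hZ
  obtain ⟨hX1, hX2, hX3⟩ := hX
  have hXt : X.take X.length = X := List.take_length
  have hbig : D.Z0 + D.N1 < X.length := by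
    by_contra hlt
    exact hE ⟨X.length, le_rfl, by rw [hXt]; exact hX2, by omega, by omega⟩
  have hYl : (X.drop D.p0).length = X.length - D.p0 := List.length_drop
  obtain ⟨P', Q, e, hl, hr⟩ := h.g3 (X.drop D.p0) (by rw [hYl]; omega) (by rw [hYl]; exact hB)
    (D.tok X v)
  obtain ⟨r, hr⟩ := Option.isSome_iff_exists.1 hr
  have hP'l := h.g1 _ _ hl
  have hX0 : X = X.take D.p0 ++ (P' ++ Q) := by rw [e, List.take_append_drop]
  have ht0 : (X.take D.p0).length = D.p0 := by rw [List.length_take]; omega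
  have hXe : X = (X.take D.p0 ++ P') ++ Q := by rw [List.append_assoc]; exact hX0
  have hPl : (X.take D.p0 ++ P').length = D.p0 + P'.length := by rw [List.length_append, ht0]
  have htk : (X.take D.p0 ++ P').take D.p0 = X.take D.p0 := by
    rw [List.take_append, List.take_of_length_le (by omega), ht0]; simp
  have hdr : (X.take D.p0 ++ P').drop D.p0 = P' := by
    rw [List.drop_append, List.drop_of_length_le (by omega), ht0]; simp
  have hXlen : X.length = D.p0 + P'.length + Q.length := by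
    conv_lhs => rw [hXe]
    rw [List.length_append, hPl]
  have hLP : D.LP1 (X.take D.p0 ++ P') v := by
    refine ⟨by omega, by omega, ?_⟩
    rw [hdr, hl]
    unfold tok
    rw [htk]
  refine ⟨X.take D.p0 ++ P', Q, hXe, hLP, ?_⟩
  -- all left words fit
  have key : ∀ P v, D.LP1 P v → P ++ Q ∈ D.XX ∧ D.T v (P ++ Q) = r := by
    intro P v' hP
    obtain ⟨p1, p2, p3⟩ := hP
    constructor
    · refine ⟨by rw [List.length_append]; omega, ?_, ?_⟩
      · rw [h.loc P Q (by omega)]
        rw [← h.loc (X.take D.p0 ++ P') Q (by omega), ← hXe]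
        exact hX2
      · intro t ht1 ht2
        rw [List.length_append] at ht2
        have hj : t = P.length + (t - P.length) := by omega
        rw [hj, h.shift P (X.take D.p0 ++ P') Q (t - P.length) (by omega) (by omega), ← hXe, hPl]
        by_cases hc : D.Z0 ≤ D.p0 + P'.length + (t - P.length)
        · exact hX3 _ hc (by omega)
        · intro hw
          exact hE ⟨D.p0 + P'.length + (t - P.length), by omega, hw, by omega, by omega⟩
    · have e1 : (P ++ Q).take D.p0 = P.take D.p0 := by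
        rw [List.take_append, Nat.sub_eq_zero_of_le p1]; simp
      have e2 : (P ++ Q).drop D.p0 = P.drop D.p0 ++ Q := by
        rw [List.drop_append, Nat.sub_eq_zero_of_le p1]; simp
      have := h.g2 _ _ _ _ p3 hr
      unfold T
      unfold tok at this ⊢
      rw [e1, e2]
      exact this.symm
  rw [D.R1_isSome]
  refine ⟨r, ?_, ⟨X.take D.p0 ++ P', v, hLP, key _ _ hLP⟩, key⟩
  intro h0
  rw [h0] at hXlen
  simp at hXlen
  omega

end

/-! ### completeness of scheme 2 -/

variable (D) in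
/-- `s` is the first wall of `w` at a place `≥ x` -/
def FW (w : List α) (x s : ℕ) : Prop :=
  x ≤ s ∧ s ≤ w.length ∧ D.Wl (w.take s) ∧ ∀ t, x ≤ t → t < s → ¬ D.Wl (w.take t)

theorem FW.unique {w : List α} {x s s' : ℕ} (h : D.FW w x s) (h' : D.FW w x s') : s = s' := by
  rcases lt_trichotomy s s' with h1 | h1 | h1
  · exact (h'.2.2.2 s h.1 h1 h.2.2.1).elim
  · exact h1
  · exact (h.2.2.2 s' h'.1 h1 h'.2.2.1).elim

theorem exists_FW {w : List α} {x t : ℕ} (h1 : x ≤ t) (h2 : t ≤ w.length) (h3 : D.Wl (w.take t)) :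
    ∃ s, D.FW w x s := by
  classical
  have hex : ∃ s, x ≤ s ∧ D.Wl (w.take s) := ⟨t, h1, h3⟩
  refine ⟨Nat.find hex, (Nat.find_spec hex).1, (Nat.find_min' hex ⟨h1, h3⟩).trans h2,
    (Nat.find_spec hex).2, ?_⟩
  intro u hu1 hu2 hu3
  exact Nat.find_min hex hu2 ⟨hu1, hu3⟩

variable (D) in
def Spo (w : List α) (k : ℕ) : Prop :=
  ∃ k' < D.K, k' ≠ k ∧ ∃ s, D.FW w (D.Z0 + D.c k - D.c k') s ∧
    ((∃ t, t ≤ s ∧ D.Wl (w.take t) ∧ (t : ℤ) + D.c k' - D.c k - D.Z0 ≤ D.N1 ∧
      (D.Z0 : ℤ) - (t + D.c k' - D.c k) ≤ D.N1) ∨ D.BadT (s - D.p0 + D.c k' - D.c k))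

section
variable {M1 Wg C0 R : ℕ}

theorem Ok.spo_card (h : D.Ok M1 Wg C0 R) (w : List α) (F : Finset ℕ)
    (hF : ∀ a ∈ F, a < D.K ∧ D.Spo w a) : F.card ≤ 1 + 2 * C0 := by
  classical
  have hZ := h.hZ
  have hWg := h.hWg
  rcases F.eq_empty_or_nonempty with rfl | ⟨a0, ha0⟩
  · simp
  obtain ⟨hk0, b0, hb0, _, s0, hs0, _⟩ := hF a0 ha0
  have hca0 := h.hc _ hk0
  have hcb0 := h.hc _ hb0
  obtain ⟨s1, hs1⟩ : ∃ s1, D.FW w (D.Z0 - D.p0) s1 :=
    exists_FW (t := s0) (by have := hs0.1; omega) hs0.2.1 hs0.2.2.1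
  obtain ⟨s2, hs2⟩ : ∃ s2 : ℕ, ∀ s, D.FW w (s1 + 1) s → s = s2 := by
    by_cases he : ∃ s2, D.FW w (s1 + 1) s2
    · obtain ⟨s2, hs⟩ := he
      exact ⟨s2, fun s h' => h'.unique hs⟩
    · exact ⟨0, fun s h' => (he ⟨s, h'⟩).elim⟩
  let FE := F.filter (fun a => ∃ b < D.K, a ≠ b ∧ ∃ t, t ≤ w.length ∧ D.Wl (w.take t) ∧
      (t : ℤ) + D.c b - D.c a - D.Z0 ≤ D.N1 ∧ (D.Z0 : ℤ) - (t + D.c b - D.c a) ≤ D.N1)
  let F1 := F.filter (fun a => ∃ b < D.K, a ≠ b ∧ D.BadT (s1 - D.p0 + D.c b - D.c a))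
  let F2 := F.filter (fun a => D.p0 ≤ s2 - D.p0 ∧ ∃ b < D.K, a ≠ b ∧
      D.BadT (s2 - D.p0 + D.c b - D.c a))
  have hsub : F ⊆ FE ∪ (F1 ∪ F2) := by
    intro a ha
    obtain ⟨hak, b, hb, hba, s, hs, hcase⟩ := hF a ha
    have hca := h.hc _ hak
    have hcb := h.hc _ hb
    rcases hcase with ⟨t, ht1, ht2, ht3, ht4⟩ | hB
    · refine Finset.mem_union_left _ (Finset.mem_filter.2 ⟨ha, b, hb, hba.symm, t, ?_, ht2, ht3, ht4⟩)
      exact ht1.trans hs.2.1
    · refine Finset.mem_union_right _ ?_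
      have h1s : s1 ≤ s := by
        by_contra hlt
        push Not at hlt
        exact hs1.2.2.2 s (by have := hs.1; omega) hlt hs.2.2.1
      rcases h1s.eq_or_lt with he | hlt
      · refine Finset.mem_union_left _ (Finset.mem_filter.2 ⟨ha, b, hb, hba.symm, ?_⟩)
        rw [he]; exact hB
      · refine Finset.mem_union_right _ (Finset.mem_filter.2 ⟨ha, ?_, b, hb, hba.symm, ?_⟩)
        · have hs12 : s = s2 := by
            apply hs2
            refine ⟨hlt, hs.2.1, hs.2.2.1, ?_⟩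
            intro t ht1 ht2 ht3
            have hg := h.gapt w s1 t ht1 (ht2.le.trans hs.2.1) hs1.2.2.1 ht3
            exact hs.2.2.2 t (by have := hs1.1; omega) ht2 ht3
          rw [← hs12]
          have := hs.1
          omega
        · have hs12 : s = s2 := by
            apply hs2
            refine ⟨hlt, hs.2.1, hs.2.2.1, ?_⟩
            intro t ht1 ht2 ht3
            have hg := h.gapt w s1 t ht1 (ht2.le.trans hs.2.1) hs1.2.2.1 ht3
            exact hs.2.2.2 t (by have := hs1.1; omega) ht2 ht3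
          rw [← hs12]; exact hB
  have hFE : FE.card ≤ 1 := by
    rw [Finset.card_le_one]
    intro a ha a' ha'
    obtain ⟨haF, b, hb, hab, t, ht1, ht2, ht3, ht4⟩ := Finset.mem_filter.1 ha
    obtain ⟨haF', b', hb', hab', t', ht1', ht2', ht3', ht4'⟩ := Finset.mem_filter.1 ha'
    have q1 := h.hc _ (hF a haF).1
    have q2 := h.hc _ (hF a' haF').1
    have q3 := h.hc _ hb
    have q4 := h.hc _ hb'
    have htt : t = t' := by
      rcases lt_trichotomy t t' with hl | hl | hl
      · have := h.gapt w t t' hl ht1' ht2 ht2'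
        omega
      · exact hl
      · have := h.gapt w t' t hl ht1 ht2' ht2
        omega
    subst htt
    exact h.rE a (hF a haF).1 b hb a' (hF a' haF').1 b' hb' hab hab' (by omega) (by omega)
  have hF1 : F1.card ≤ C0 := by
    apply h.rB (s1 - D.p0) (by have := hs1.1; omega)
    intro a ha
    obtain ⟨haF, b, hb, hab, hB⟩ := Finset.mem_filter.1 ha
    exact ⟨(hF a haF).1, b, hb, hab, hB⟩
  have hF2 : F2.card ≤ C0 := by
    rcases F2.eq_empty_or_nonempty with he | ⟨x, hx⟩
    · rw [he]; simp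
    have hx' := (Finset.mem_filter.1 hx).2.1
    apply h.rB (s2 - D.p0) hx'
    intro a ha
    obtain ⟨haF, _, b, hb, hab, hB⟩ := Finset.mem_filter.1 ha
    exact ⟨(hF a haF).1, b, hb, hab, hB⟩
  have c1 := Finset.card_le_card hsub
  have c2 := Finset.card_union_le FE (F1 ∪ F2)
  have c3 := Finset.card_union_le F1 F2
  omega

theorem Ok.cc (h : D.Ok M1 Wg C0 R) {X X2 : List α} (hX : X ∈ D.XX) (hX2 : X2 ∈ D.XX) (v : V) :
    (∃ P Q, X = P ++ Q ∧ D.LP1 P v ∧ (D.R1 Q).isSome) ∨
    (∃ P Q, X ++ X2 = P ++ Q ∧ P.length < X.length ∧ D.LP2 P v ∧ (D.R2 Q).isSome) := by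
  by_cases hcut : ∃ P Q, X = P ++ Q ∧ D.LP1 P v ∧ (D.R1 Q).isSome
  · exact Or.inl hcut
  refine Or.inr ?_
  have hZ := h.hZ
  have hXl := hX.1
  have hX2l := hX2.1
  have hul : (X.take D.p0).length = D.p0 := by rw [List.length_take]; omega
  obtain ⟨I, hI1, hI2⟩ := h.cp (X.take D.p0) v hul
  obtain ⟨k, hkI, hk⟩ : ∃ k ∈ I, ¬ D.Spo (X ++ X2) k := by
    by_contra hcon
    push Not at hcon
    have := h.spo_card (X ++ X2) I (fun a ha => ⟨(hI2 a ha).1, hcon a ha⟩)
    have := h.hR
    omega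
  obtain ⟨hkK, hlam, hrho⟩ := hI2 k hkI
  obtain ⟨bb, hrho⟩ := Option.isSome_iff_exists.1 hrho
  have hck := h.hc k hkK
  have htk : (X.take D.p0).take (D.c k) = X.take (D.c k) := by
    rw [List.take_take, Nat.min_eq_left hck]
  have hdk : (X.take D.p0).drop (D.c k) = (X.drop (D.c k)).take (D.p0 - D.c k) := by
    rw [List.drop_take]
  rw [htk] at hlam
  rw [hdk] at hrho
  have hPl : (X.take (D.c k)).length = D.c k := by rw [List.length_take]; omega
  have hXe : X = X.take (D.c k) ++ X.drop (D.c k) := (List.take_append_drop _ _).symm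
  have hdl : (X.drop (D.c k)).length = X.length - D.c k := List.length_drop
  have htxt : X ++ X2 = X.take (D.c k) ++ (X.drop (D.c k) ++ X2) := by
    rw [← List.append_assoc, List.take_append_drop]
  refine ⟨X.take (D.c k), X.drop (D.c k) ++ X2, htxt, by omega, ⟨k, hkK, hPl, hlam⟩, ?_⟩
  have hne : X.drop (D.c k) ≠ [] := by
    intro h0
    rw [h0] at hdl
    simp at hdl
    omega
  rw [D.R2_isSome]
  refine ⟨D.T (D.T v X) X2, ⟨X.take (D.c k), v, ⟨k, hkK, hPl, hlam⟩, ?_, ?_⟩, ?_⟩
  · intro X' hX' hpre P' Q' e _ hLP hR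
    have : X' = X := D.pc' hX' hX hpre (by rw [← htxt]; exact List.prefix_append _ _)
    subst this
    exact hcut ⟨P', Q', e, hLP, hR⟩
  · refine ⟨X.drop (D.c k), X2, rfl, hne, ?_, hX2, ?_⟩
    · rw [← hXe]; exact hX
    · rw [← hXe]
  · rintro P' v' ⟨k', hk'K, hl', hlam'⟩ hUnc
    have hck' := h.hc k' hk'K
    by_cases hkk : k' = k
    · subst hkk
      refine ⟨X.drop (D.c k'), X2, rfl, hne, ?_, hX2, ?_⟩
      · refine ⟨by rw [List.length_append]; omega, ?_, ?_⟩
        · rw [h.loc _ _ (by omega), ← h.loc (X.take (D.c k')) _ (by omega), ← hXe]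
          exact hX.2.1
        · intro t ht1 ht2
          rw [List.length_append] at ht2
          have hj : t = P'.length + (t - P'.length) := by omega
          rw [hj, h.shift P' (X.take (D.c k')) _ (t - P'.length) (by omega) (by omega), ← hXe, hPl]
          exact hX.2.2 _ (by omega) (by omega)
      · have e1 : (P' ++ X.drop (D.c k')).drop D.p0 = X.drop D.p0 := by
          rw [List.drop_append, List.drop_of_length_le (by omega), List.drop_drop]
          simp only [List.nil_append]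
          congr 1
          omega
        have e2 : (P' ++ X.drop (D.c k')).take D.p0 =
            P' ++ (X.drop (D.c k')).take (D.p0 - D.c k') := by
          rw [List.take_append, List.take_of_length_le (by omega), hl']
        have e3 : X.take D.p0 = X.take (D.c k') ++ (X.drop (D.c k')).take (D.p0 - D.c k') := by
          conv_lhs => rw [hXe]
          rw [List.take_append, List.take_of_length_le (by omega), hPl]
        have hlq : ((X.drop (D.c k')).take (D.p0 - D.c k')).length = D.p0 - D.c k' := by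
          rw [List.length_take]; omega
        have x1 := h.ex k' hkK P' _ v' bb hl' (by rw [List.length_append, hlq]; omega) hlam' hrho
        have x2 := h.ex k' hkK (X.take (D.c k')) _ v bb hPl
          (by rw [List.length_append, hlq]; omega) hlam hrho
        have ht : D.T v' (P' ++ X.drop (D.c k')) = D.T v X := by
          unfold T tok
          rw [e1, e2, ← x1]
          conv_rhs => rw [e3]
          rw [← x2]
        rw [ht]
    · exfalso
      have hnS : ∀ s, D.FW (X ++ X2) (D.Z0 + D.c k - D.c k') s →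
          ¬ ((∃ t, t ≤ s ∧ D.Wl ((X ++ X2).take t) ∧ (t : ℤ) + D.c k' - D.c k - D.Z0 ≤ D.N1 ∧
          (D.Z0 : ℤ) - (t + D.c k' - D.c k) ≤ D.N1) ∨ D.BadT (s - D.p0 + D.c k' - D.c k)) :=
        fun s hs hc => hk ⟨k', hk'K, hkk, s, hs, hc⟩
      have hwl : D.Wl ((X ++ X2).take (X ++ X2).length) := by
        rw [List.take_length, h.loc _ _ (by omega)]
        exact hX2.2.1
      obtain ⟨s, hs⟩ := exists_FW (D := D) (x := D.Z0 + D.c k - D.c k')
        (by rw [List.length_append]; omega) le_rfl hwl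
      have hns := hnS s hs
      push Not at hns
      obtain ⟨hns1, hns2⟩ := hns
      have hsl := hs.2.1
      have hs0 := hs.1
      have hQl : (X.drop (D.c k) ++ X2).length = X.length - D.c k + X2.length := by
        rw [List.length_append, hdl]
      rw [List.length_append] at hsl
      -- the block of the candidate
      have hlen' : ((P' ++ (X.drop (D.c k) ++ X2)).take (P'.length + (s - D.c k))).length =
          P'.length + (s - D.c k) := by
        rw [List.length_take, List.length_append, hQl]; omega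
      have hmem : (P' ++ (X.drop (D.c k) ++ X2)).take (P'.length + (s - D.c k)) ∈ D.XX := by
        refine ⟨by omega, ?_, ?_⟩
        · rw [h.shift P' (X.take (D.c k)) _ (s - D.c k) (by omega) (by omega), ← htxt, hPl]
          have : D.c k + (s - D.c k) = s := by omega
          rw [this]
          exact hs.2.2.1
        · intro t ht1 ht2
          rw [hlen'] at ht2
          rw [List.take_take, Nat.min_eq_left ht2.le]
          have hj : t = P'.length + (t - P'.length) := by omega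
          rw [hj, h.shift P' (X.take (D.c k)) _ (t - P'.length) (by omega) (by omega), ← htxt, hPl]
          exact hs.2.2.2 _ (by omega) (by omega)
      have hnE : ¬ D.E ((P' ++ (X.drop (D.c k) ++ X2)).take (P'.length + (s - D.c k))) := by
        rintro ⟨t, ht1, ht2, ht3, ht4⟩
        rw [hlen'] at ht1
        rw [List.take_take, Nat.min_eq_left ht1] at ht2
        have hj : t = P'.length + (t - P'.length) := by omega
        rw [hj, h.shift P' (X.take (D.c k)) _ (t - P'.length) (by omega) (by omega), ← htxt,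
          hPl] at ht2
        have := hns1 (D.c k + (t - P'.length)) (by omega) ht2 (by omega)
        omega
      have hnB : ¬ D.BadT (((P' ++ (X.drop (D.c k) ++ X2)).take
          (P'.length + (s - D.c k))).length - D.p0) := by
        rw [hlen']
        have : P'.length + (s - D.c k) - D.p0 = s - D.p0 + D.c k' - D.c k := by omega
        rw [this]
        exact hns2
      obtain ⟨P1, Q1, e1, e2, e3⟩ := h.comp1 hmem hnE hnB v'
      exact hUnc _ hmem (List.take_prefix _ _) P1 Q1 e1 (by have := e2.1; omega) e2 e3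

end

end Dat

end Crest.Agent.R320.Inst_525
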