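import Crest.Agent.R320.Main_621
import Crest.Agent.R320.ExactR_237

/-!
# Row 320: `Main_621.Data` from a gadget on words and left-looking walls (helper535)
-/

set_option autoImplicit false

namespace Crest.Agent.R320.Inst_535

open Crest.Agent.R320.Hk_851 Crest.Agent.R320.Star_621 Crest.Agent.R320.Two_621
open Crest.Agent.R320.Main_621
open Crest.Agent.R320.ExactR_237 (pr)

/-- first marked place at or after `a` -/
def isF (w : ℕ → Prop) (a t : ℕ) : Prop := a ≤ t ∧ w t ∧ ∀ s, a ≤ s → s < t → ¬ w s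

theorem isF.unique {w : ℕ → Prop} {a t t' : ℕ} (h : isF w a t) (h' : isF w a t') : t = t' := by
  rcases Nat.lt_trichotomy t t' with h1 | h1 | h1
  · exact absurd h.2.1 (h'.2.2 t h.1 h1)
  · exact h1
  · exact absurd h'.2.1 (h.2.2 t' h'.1 h1)

theorem isF.le {w : ℕ → Prop} {a t s : ℕ} (h : isF w a t) (h1 : a ≤ s) (h2 : w s) : t ≤ s := by
  by_contra hlt
  exact h.2.2 s h1 (by omega) h2

section walls

variable {α : Type} (WL : List α → Prop)

/-- `s` is a wall place of the word `X` -/
def wl (X : List α) (s : ℕ) : Prop := s ≤ X.length ∧ WL (X.take s)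

theorem wl_append {X Y : List α} {s : ℕ} (h : s ≤ X.length) :
    wl WL (X ++ Y) s ↔ wl WL X s := by
  unfold wl
  rw [List.take_append_of_le_length h, List.length_append]
  constructor
  · rintro ⟨_, h2⟩; exact ⟨h, h2⟩
  · rintro ⟨_, h2⟩; exact ⟨by omega, h2⟩

theorem isF_append {X Y : List α} {a t : ℕ} (h : t ≤ X.length) :
    isF (wl WL (X ++ Y)) a t ↔ isF (wl WL X) a t := by
  unfold isF
  constructor
  · rintro ⟨h1, h2, h3⟩
    exact ⟨h1, (wl_append WL h).1 h2, fun s h4 h5 h6 =>
      h3 s h4 h5 ((wl_append WL (by omega)).2 h6)⟩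
  · rintro ⟨h1, h2, h3⟩
    exact ⟨h1, (wl_append WL h).2 h2, fun s h4 h5 h6 =>
      h3 s h4 h5 ((wl_append WL (by omega)).1 h6)⟩

variable {WL} {n : ℕ}

theorem wl_shift (loc : ∀ u v, n ≤ v.length → (WL (u ++ v) ↔ WL v)) {P Q : List α} {s : ℕ}
    (hs : n ≤ s) : wl WL (P ++ Q) (P.length + s) ↔ wl WL Q s := by
  unfold wl
  rw [List.length_append, List.take_length_add_append]
  constructor
  · rintro ⟨h1, h2⟩
    have h3 : s ≤ Q.length := by omega
    refine ⟨h3, (loc P _ ?_).1 h2⟩
    rw [List.length_take]; omega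
  · rintro ⟨h1, h2⟩
    refine ⟨by omega, (loc P _ ?_).2 h2⟩
    rw [List.length_take]; omega

theorem isF_shift (loc : ∀ u v, n ≤ v.length → (WL (u ++ v) ↔ WL v)) {P Q : List α} {a s : ℕ}
    (ha : n ≤ a) : isF (wl WL (P ++ Q)) (P.length + a) (P.length + s) ↔ isF (wl WL Q) a s := by
  unfold isF
  constructor
  · rintro ⟨h1, h2, h3⟩
    refine ⟨by omega, (wl_shift loc (by omega)).1 h2, fun r h4 h5 h6 =>
      h3 (P.length + r) (by omega) (by omega) ((wl_shift loc (by omega)).2 h6)⟩
  · rintro ⟨h1, h2, h3⟩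
    refine ⟨by omega, (wl_shift loc (by omega)).2 h2, fun r h4 h5 h6 => ?_⟩
    have h7 : r = P.length + (r - P.length) := by omega
    rw [h7] at h6
    exact h3 (r - P.length) (by omega) (by omega) ((wl_shift loc (by omega)).1 h6)

end walls

/-- the input -/
structure Inp (α S : Type) [Monoid S] where
  /-- map -/
  ph : List α → S
  /-- walls -/
  WL : List α → Prop
  (n W z p0 N1 N0 K K1 : ℕ)
  /-- places of the inner scheme -/
  c : ℕ → ℕ
  lam : List α → Option (Tok S)
  rho : List α → Option (Tok S)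
  nu1 : List α → Tok S
  Bad1 : ℕ → Prop
  ph_nil : ph [] = 1
  ph_app : ∀ a b, ph (a ++ b) = ph a * ph b
  loc : ∀ u v, n ≤ v.length → (WL (u ++ v) ↔ WL v)
  gap : ∀ u v, WL u → WL (u ++ v) → v ≠ [] → W ≤ v.length
  hW : 2 * p0 + 2 * N1 + 1 ≤ W
  hz : 3 * p0 + N1 + n + N0 + 1 ≤ z
  hc : ∀ i j, i < j → j < K → c i < c j
  hc1 : ∀ i, i < K → 1 ≤ c i
  hcp : ∀ i, i < K → c i ≤ p0
  hp1 : 1 ≤ p0
  hgol : ∀ i j k l, i < K → j < K → k < K → l < K → i ≠ j → k ≠ l → (i, j) ≠ (k, l) →
    c i + c l + 2 * N1 ≤ c k + c j ∨ c k + c j + 2 * N1 ≤ c i + c l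
  hthin : ∀ T, p0 ≤ T → ∀ I : Finset ℕ,
    (∀ k ∈ I, k < K ∧ ∃ k', k' < K ∧ k' ≠ k ∧ Bad1 (T + c k' - c k)) → I.card ≤ K1
  lam_len : ∀ P v, lam P = some v → P.length ≤ N1
  sound : ∀ P Q v b, lam P = some v → rho Q = some b → b = act v (ph (P ++ Q)) + nu1 (P ++ Q)
  compl : ∀ Y : List α, N0 ≤ Y.length → ¬ Bad1 Y.length → ∀ v, ∃ P Q, Y = P ++ Q ∧
    lam P = some v ∧ (rho Q).isSome

namespace Inp

variable {α S : Type} [Monoid S] (D : Inp α S)

/-- wall places -/
abbrev w (X : List α) : ℕ → Prop := wl D.WL X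

theorem w_gap {X : List α} {s t : ℕ} (h1 : D.w X s) (h2 : D.w X t) (h : s < t) :
    s + D.W ≤ t := by
  have e : X.take t = X.take s ++ (X.take t).drop s := by
    have := (List.take_append_drop s (X.take t)).symm
    rwa [List.take_take, min_eq_left (le_of_lt h)] at this
  have h3 := D.gap (X.take s) ((X.take t).drop s) h1.2 (by rw [← e]; exact h2.2) (by
    intro h4
    have := congrArg List.length h4
    rw [List.length_drop, List.length_take] at this
    have := h2.1
    simp at *
    omega)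
  rw [List.length_drop, List.length_take] at h3
  omega

/-- zones -/
def Zn : Language α := {X | ∃ t, isF (D.w X) D.z t ∧ isF (D.w X) (t + 1) X.length}

/-- mode (E) or (B) -/
def Md (X : List α) (t : ℕ) : Prop :=
  (∃ s, D.w X s ∧ D.z ≤ s + D.N1 ∧ s < D.z + D.N1) ∨ D.Bad1 (t - D.p0)

/-- critical zones -/
def Zc : Language α :=
  {X | ∃ t, isF (D.w X) D.z t ∧ isF (D.w X) (t + 1) X.length ∧ D.Md X t}

theorem Zc_sub : ∀ z ∈ D.Zc, z ∈ D.Zn := by
  rintro X ⟨t, h1, h2, _⟩
  exact ⟨t, h1, h2⟩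

theorem Zn_code {X X' x x' : List α} (h : X ∈ D.Zn) (h' : X' ∈ D.Zn)
    (e : X ++ x = X' ++ x') : X = X' := by
  obtain ⟨t, h1, h2⟩ := h
  obtain ⟨t', h1', h2'⟩ := h'
  have a1 := (isF_append D.WL (Y := x) (show t ≤ X.length from h1.2.1.1)).2 h1
  have a2 := (isF_append D.WL (Y := x) (le_refl X.length)).2 h2
  have b1 := (isF_append D.WL (Y := x') (show t' ≤ X'.length from h1'.2.1.1)).2 h1'
  have b2 := (isF_append D.WL (Y := x') (le_refl X'.length)).2 h2'
  rw [e] at a1 a2
  have e1 := isF.unique a1 b1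
  subst e1
  have e2 := isF.unique a2 b2
  have := congrArg (List.take X.length) e
  rw [List.take_left] at this
  rw [this, e2, List.take_left]

theorem Zn_ne : [] ∉ D.Zn := by
  rintro ⟨t, h1, h2⟩
  have := h2.1
  simp at this

theorem code : Code D.Zn :=
  ⟨D.Zn_ne, fun _ _ _ _ h h' e => D.Zn_code h h' e⟩

theorem Zn_len {X : List α} (h : X ∈ D.Zn) : D.z < X.length := by
  obtain ⟨t, h1, h2⟩ := h
  have := h1.1
  have := h2.1
  omega

/-- left words of the outer scheme -/
def LA (v : Tok S) : Language α :=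
  {P | D.p0 ≤ P.length ∧ D.lam (P.drop D.p0) = some (act v (D.ph (P.take D.p0)))}

/-- right words of the outer scheme -/
def RA (τ : Tok S) : Language α :=
  {Q | ∃ s, isF (D.w Q) (D.z - D.p0 - D.N1) s ∧ D.z - D.p0 ≤ s ∧
    isF (D.w Q) (s + 1) Q.length ∧ ∃ b, D.rho (Q.take s) = some b ∧ τ = act b (D.ph (Q.drop s))}

open Classical in
/-- first wall of the rest -/
noncomputable def ts (r : List α) : ℕ :=
  if h : ∃ s, isF (D.w r) (D.z - D.p0) s then h.choose else 0

theorem ts_eq {r : List α} {s : ℕ} (h : isF (D.w r) (D.z - D.p0) s) : D.ts r = s := by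
  have h0 : ∃ s, isF (D.w r) (D.z - D.p0) s := ⟨s, h⟩
  unfold ts
  rw [dif_pos h0]
  exact isF.unique h0.choose_spec h

/-- noise of the rest of a zone -/
noncomputable def dR (r : List α) : Tok S :=
  act (D.nu1 (r.take (D.ts r))) (D.ph (r.drop (D.ts r)))

/-- outer noise -/
noncomputable def dA (X : List α) : Tok S := D.dR (X.drop D.p0)

theorem soundA : Sound D.Zn (aff D.ph D.dA) D.LA D.RA := by
  refine ⟨fun v h => ?_, ?_⟩
  · have h1 := h.1
    have := D.hp1
    simp at h1
    omega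
  · rintro v τ P Q X x y ⟨hP1, hP2⟩ ⟨s, hs1, hs2, hs3, b, hb, rfl⟩ hX e
    have hz := D.hz
    have hPl : (P.drop D.p0).length ≤ D.N1 := D.lam_len _ _ hP2
    rw [List.length_drop] at hPl
    -- the first wall of `P ++ Q` after `z`
    have hF : isF (D.w (P ++ Q)) D.z (P.length + s) := by
      have h1 : isF (D.w Q) (D.z - P.length) s := by
        refine ⟨by omega, hs1.2.1, fun r h4 h5 => hs1.2.2 r (by omega) h5⟩
      have h2 := (isF_shift D.loc (P := P) (Q := Q) (a := D.z - P.length) (s := s)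
        (by omega)).2 h1
      have h3 : P.length + (D.z - P.length) = D.z := by omega
      rwa [h3] at h2
    have hG : isF (D.w (P ++ Q)) (P.length + s + 1) (P ++ Q).length := by
      have h2 := (isF_shift D.loc (P := P) (Q := Q) (a := s + 1) (s := Q.length)
        (by omega)).2 hs3
      rw [List.length_append]
      exact h2
    have hPQ : P ++ Q ∈ D.Zn := ⟨_, hF, hG⟩
    have hEq : P ++ Q = X := D.Zn_code hPQ hX e
    refine ⟨hEq, ?_⟩
    subst hEq
    have hr : (P ++ Q).drop D.p0 = P.drop D.p0 ++ Q := List.drop_append_of_le_length hP1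
    have hts : D.ts (P.drop D.p0 ++ Q) = (P.drop D.p0).length + s := by
      apply D.ts_eq
      have h1 : isF (D.w Q) (D.z - D.p0 - (P.drop D.p0).length) s := by
        rw [List.length_drop]
        refine ⟨by omega, hs1.2.1, fun r h4 h5 => hs1.2.2 r (by omega) h5⟩
      have h2 := (isF_shift D.loc (P := P.drop D.p0) (Q := Q)
        (a := D.z - D.p0 - (P.drop D.p0).length) (s := s)
        (by rw [List.length_drop]; omega)).2 h1
      have h3 : (P.drop D.p0).length + (D.z - D.p0 - (P.drop D.p0).length) = D.z - D.p0 := by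
        rw [List.length_drop]; omega
      rwa [h3] at h2
    have hb' := D.sound _ _ _ _ hP2 hb
    show act b (D.ph (Q.drop s)) = act v (D.ph (P ++ Q)) + D.dA (P ++ Q)
    unfold dA
    rw [hr]
    unfold dR
    rw [hts, List.take_length_add_append, List.drop_length_add_append, hb', act_add, act_mul,
      act_mul, ← D.ph_app, ← D.ph_app]
    have e1 : P.take D.p0 ++ (P.drop D.p0 ++ Q.take s ++ Q.drop s) = P ++ Q := by
      rw [List.append_assoc, List.take_append_drop, ← List.append_assoc,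
        List.take_append_drop]
    rw [← e1, D.ph_app (P.take D.p0), D.ph_app (P.drop D.p0 ++ Q.take s)]

theorem complA : ∀ X ∈ D.Zn, X ∉ D.Zc → ∀ v, Cut D.LA D.RA v X := by
  rintro X ⟨t, h1, h2⟩ hn v
  have hz := D.hz
  have hM : ¬ D.Md X t := fun h => hn ⟨t, h1, h2, h⟩
  have hE : ∀ s, D.w X s → D.z ≤ s + D.N1 → s < D.z + D.N1 → False := fun s a b c =>
    hM (Or.inl ⟨s, a, b, c⟩)
  have hB : ¬ D.Bad1 (t - D.p0) := fun h => hM (Or.inr h)
  have ht := h1.1
  have htX : t + 1 ≤ X.length := h2.1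
  have htE : D.z + D.N1 ≤ t := by
    by_contra hlt
    exact hE t h1.2.1 (by omega) (by omega)
  have hYl : ((X.take t).drop D.p0).length = t - D.p0 := by
    rw [List.length_drop, List.length_take]; omega
  obtain ⟨P', Q', hY, hl, hr⟩ := D.compl ((X.take t).drop D.p0) (by rw [hYl]; omega)
    (by rw [hYl]; exact hB) (act v (D.ph (X.take D.p0)))
  obtain ⟨b, hb⟩ := Option.isSome_iff_exists.1 hr
  have hP' := D.lam_len _ _ hl
  have hlenPQ : P'.length + Q'.length = t - D.p0 := by
    rw [← hYl, hY, List.length_append]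
  have eX : X = (X.take D.p0 ++ P') ++ (Q' ++ X.drop t) := by
    have e1 : X.take t = X.take D.p0 ++ (P' ++ Q') := by
      rw [← hY]
      have := (List.take_append_drop D.p0 (X.take t)).symm
      rwa [List.take_take, min_eq_left (by omega)] at this
    calc X = X.take t ++ X.drop t := (List.take_append_drop _ _).symm
      _ = _ := by rw [e1]; simp [List.append_assoc]
  have hlp : (X.take D.p0).length = D.p0 := by rw [List.length_take]; omega
  have hPl : (X.take D.p0 ++ P').length = D.p0 + P'.length := by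
    rw [List.length_append, hlp]
  refine ⟨X.take D.p0 ++ P', Q' ++ X.drop t, act b (D.ph (X.drop t)), eX, ?_, ?_⟩
  · refine ⟨by rw [hPl]; omega, ?_⟩
    have e2 : (X.take D.p0 ++ P').drop D.p0 = P' := List.drop_left' hlp
    have e3 : (X.take D.p0 ++ P').take D.p0 = X.take D.p0 := List.take_left' hlp
    rw [e2, e3]; exact hl
  · have g1 : isF (D.w X) (D.z - D.N1) t := by
      refine ⟨by omega, h1.2.1, fun s h3 h4 h5 => ?_⟩
      by_cases hs : D.z ≤ s
      · exact h1.2.2 s hs h4 h5
      · exact hE s h5 (by omega) (by omega)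
    refine ⟨Q'.length, ?_, by omega, ?_, b, ?_, ?_⟩
    · have h4 : isF (D.w ((X.take D.p0 ++ P') ++ (Q' ++ X.drop t)))
          ((X.take D.p0 ++ P').length + (D.z - D.p0 - D.N1))
          ((X.take D.p0 ++ P').length + Q'.length) := by
        rw [← eX, hPl]
        refine ⟨by omega, ?_, fun s h5 h6 => g1.2.2 s (by omega) (by omega)⟩
        have : D.p0 + P'.length + Q'.length = t := by omega
        rw [this]; exact h1.2.1
      exact (isF_shift D.loc (by omega)).1 h4
    · have e4 : (X.take D.p0 ++ P').length + (Q' ++ X.drop t).length = X.length := by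
        rw [← List.length_append, ← eX]
      have e5 : (X.take D.p0 ++ P').length + (Q'.length + 1) = t + 1 := by
        rw [hPl]; omega
      have h4 : isF (D.w ((X.take D.p0 ++ P') ++ (Q' ++ X.drop t)))
          ((X.take D.p0 ++ P').length + (Q'.length + 1))
          ((X.take D.p0 ++ P').length + (Q' ++ X.drop t).length) := by
        rw [← eX, e4, e5]; exact h2
      exact (isF_shift D.loc (by omega)).1 h4
    · rw [List.take_left' rfl]; exact hb
    · rw [List.drop_left' rfl]

/-! ### inner scheme -/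

/-- candidate of the inner scheme -/
def Cand (k : ℕ) (Q : List α) : Prop :=
  ∃ s, isF (D.w Q) (D.z - D.c k) s ∧
    ((∃ r, D.w Q r ∧ D.z ≤ r + D.c k + D.N1 ∧ r + D.c k < D.z + D.N1) ∨
      D.Bad1 (s + D.c k - D.p0))

/-- the monoid of the inner scheme -/
abbrev T2 (S : Type) := (Function.End (Option (Tok S)))ᵐᵒᵖ

/-- letters of the inner scheme -/
def f2 (a : α) : T2 S :=
  MulOpposite.op fun o : Option (Tok S) => o.map fun v => act v (D.ph [a])

theorem pr_f2 (U : List α) : pr D.f2 U =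
    (MulOpposite.op fun o : Option (Tok S) => o.map fun v => act v (D.ph U) : T2 S) := by
  induction U with
  | nil =>
    show (1 : T2 S) = _
    rw [D.ph_nil]
    apply MulOpposite.unop_injective
    funext o
    show o = o.map _
    cases o with
    | none => rfl
    | some v => simp [act_one]
  | cons a U ih =>
    have h1 : pr D.f2 (a :: U) = D.f2 a * pr D.f2 U := by
      simp [pr]
    rw [h1, ih]
    apply MulOpposite.unop_injective
    funext o
    show ((o.map fun v => act v (D.ph [a])).map fun v => act v (D.ph U)) =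
      o.map fun v => act v (D.ph (a :: U))
    cases o with
    | none => rfl
    | some v =>
      have h2 : D.ph (a :: U) = D.ph [a] * D.ph U := D.ph_app [a] U
      simp [act_mul, h2]

/-- the token is cut in the rest of the zone -/
def CutR (v : Tok S) (r : List α) : Prop :=
  ∃ P Q τ, r = P ++ Q ∧ D.lam P = some v ∧ Q ∈ D.RA τ

open Classical in
/-- what the rest of a zone does -/
noncomputable def hh (r : List α) : T2 S :=
  MulOpposite.op fun o : Option (Tok S) =>
    o.bind fun v => if D.CutR v r then none else some (act v (D.ph r) + D.dR r)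

theorem cut_iff {X : List α} (hX : D.p0 ≤ X.length) (v : Tok S) :
    Cut D.LA D.RA v X ↔ D.CutR (act v (D.ph (X.take D.p0))) (X.drop D.p0) := by
  constructor
  · rintro ⟨P, Q, τ, e, ⟨h1, h2⟩, h3⟩
    refine ⟨P.drop D.p0, Q, τ, ?_, ?_, h3⟩
    · rw [e, List.drop_append_of_le_length h1]
    · rw [e, List.take_append_of_le_length h1]; exact h2
  · rintro ⟨P, Q, τ, e, h2, h3⟩
    have hlp : (X.take D.p0).length = D.p0 := by rw [List.length_take]; omega
    refine ⟨X.take D.p0 ++ P, Q, τ, ?_, ⟨?_, ?_⟩, h3⟩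
    · rw [List.append_assoc, ← e, List.take_append_drop]
    · rw [List.length_append, hlp]; omega
    · have e2 : (X.take D.p0 ++ P).drop D.p0 = P := List.drop_left' hlp
      have e3 : (X.take D.p0 ++ P).take D.p0 = X.take D.p0 := List.take_left' hlp
      rw [e2, e3]; exact h2

theorem step_eq {X : List α} (hX : D.p0 ≤ X.length) :
    stepA (aff D.ph D.dA) D.LA D.RA X = pr D.f2 (X.take D.p0) * D.hh (X.drop D.p0) := by
  classical
  rw [D.pr_f2]
  apply MulOpposite.unop_injective
  funext o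
  show (o.bind fun v => if Cut D.LA D.RA v X then none else some (aff D.ph D.dA X v)) =
    ((o.map fun v => act v (D.ph (X.take D.p0))).bind fun v =>
      if D.CutR v (X.drop D.p0) then none else
        some (act v (D.ph (X.drop D.p0)) + D.dR (X.drop D.p0)))
  cases o with
  | none => rfl
  | some v =>
    show (if Cut D.LA D.RA v X then none else some (aff D.ph D.dA X v)) =
      if D.CutR (act v (D.ph (X.take D.p0))) (X.drop D.p0) then none else
        some (act (act v (D.ph (X.take D.p0))) (D.ph (X.drop D.p0)) + D.dR (X.drop D.p0))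
    rw [act_mul, ← D.ph_app, List.take_append_drop]
    by_cases hc : Cut D.LA D.RA v X
    · rw [if_pos hc, if_pos ((D.cut_iff hX v).1 hc)]
    · rw [if_neg hc, if_neg (fun h => hc ((D.cut_iff hX v).2 h))]
      rfl

end Inp

/-- the inner gadget -/
structure Gad2 {α S : Type} [Monoid S] (D : Inp α S) where
  lam2 : ℕ → List α → Option (Tok (Inp.T2 S))
  rho2 : ℕ → List α → Inp.T2 S → Option (Tok (Inp.T2 S))
  nu2 : List α → Inp.T2 S → Tok (Inp.T2 S)
  snd2 : ∀ k < D.K, ∀ (P Q : List α) (y : Inp.T2 S) (v b : Tok (Inp.T2 S)),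
    P.length = D.c k → lam2 k P = some v → rho2 k Q y = some b →
      b = act v (pr D.f2 (P ++ Q) * y) + nu2 (P ++ Q) y
  cmp2 : ∀ (u : List α) (y : Inp.T2 S) (v : Tok (Inp.T2 S)), (∀ k < D.K, D.c k ≤ u.length) →
    ∃ I : Finset ℕ, 2 + 3 * D.K1 ≤ I.card ∧ ∀ k ∈ I, k < D.K ∧
      lam2 k (u.take (D.c k)) = some v ∧ (rho2 k (u.drop (D.c k)) y).isSome

namespace Gad2

variable {α S : Type} [Monoid S] {D : Inp α S} (G : Gad2 D)

/-- left words of the inner scheme -/
def LB (v : Tok (Inp.T2 S)) : Language α :=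
  {P | ∃ k, k < D.K ∧ P.length = D.c k ∧ G.lam2 k P = some v}

/-- right words of the inner scheme -/
def RB (τ : Tok (Inp.T2 S)) : Language α :=
  {Q | ∃ k, k < D.K ∧ (∀ j, j < D.K → D.Cand j Q → j = k) ∧
    (∃ s, isF (D.w Q) (D.z - D.c k) s ∧ isF (D.w Q) (s + 1) Q.length) ∧
    G.rho2 k (Q.take (D.p0 - D.c k)) (D.hh (Q.drop (D.p0 - D.c k))) = some τ}

/-- noise of the inner scheme -/
noncomputable def dB (X : List α) : Tok (Inp.T2 S) :=
  G.nu2 (X.take D.p0) (D.hh (X.drop D.p0))

/-- a critical zone is seen at the true place -/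
theorem cand_true {X P Q x y : List α} {k : ℕ} (hk : k < D.K) (hP : P.length = D.c k)
    (hX : X ∈ D.Zc) (e : P ++ Q ++ x = X ++ y) (hQ : D.z ≤ D.c k + Q.length)
    (hQw : D.w Q Q.length) :
    ∃ s, isF (D.w Q) (D.z - D.c k) s ∧ isF (D.w X) D.z (D.c k + s) ∧ D.Cand k Q := by
  obtain ⟨t, h1, h2, h3⟩ := hX
  have hz := D.hz
  have hcp := D.hcp k hk
  have htX : t + 1 ≤ X.length := h2.1
  have ht := h1.1
  -- the last place of `Q` is a wall of `P ++ Q`
  have w1 : D.w (P ++ Q) (P.length + Q.length) := (wl_shift D.loc (by omega)).2 hQw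
  have F1 : isF (D.w (P ++ Q ++ x)) D.z t := by
    rw [e]; exact (isF_append D.WL (by omega)).2 h1
  have w2 : D.w (P ++ Q ++ x) (P.length + Q.length) :=
    (wl_append D.WL (by rw [List.length_append])).2 w1
  have tle : t ≤ P.length + Q.length := F1.le (by omega) w2
  have F2 : isF (D.w (P ++ Q)) D.z t :=
    (isF_append D.WL (by rw [List.length_append]; exact tle)).1 F1
  have F3 : isF (D.w Q) (D.z - D.c k) (t - D.c k) := by
    apply (isF_shift D.loc (P := P) (by omega)).1
    rw [hP]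
    have e1 : D.c k + (D.z - D.c k) = D.z := by omega
    have e2 : D.c k + (t - D.c k) = t := by omega
    rw [e1, e2]; exact F2
  refine ⟨t - D.c k, F3, ?_, t - D.c k, F3, ?_⟩
  · have e2 : D.c k + (t - D.c k) = t := by omega
    rw [e2]; exact h1
  · rcases h3 with ⟨s, hs1, hs2, hs3⟩ | hb
    · left
      -- replace the wall by the first wall when it is after `z`
      by_cases hsz : D.z ≤ s
      · have hts : t ≤ s := h1.le hsz hs1
        exact ⟨t - D.c k, F3.2.1, by omega, by omega⟩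
      · refine ⟨s - D.c k, ?_, by omega, by omega⟩
        apply (wl_shift D.loc (P := P) (by omega)).1
        have e3 : P.length + (s - D.c k) = s := by omega
        rw [e3]
        have hs4 : s ≤ (P ++ Q).length := by rw [List.length_append]; omega
        apply (wl_append D.WL (Y := x) hs4).1
        rw [e]
        exact (wl_append D.WL (by omega)).2 hs1
    · right
      have e2 : t - D.c k + D.c k = t := by omega
      rw [e2]; exact hb

theorem soundB : Sound D.Zc (aff (stepA (aff D.ph D.dA) D.LA D.RA) G.dB) G.LB G.RB := by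
  refine ⟨fun v h => ?_, ?_⟩
  · obtain ⟨k, hk, h1, _⟩ := h
    have := D.hc1 k hk
    simp at h1
    omega
  · rintro v τ P Q X x y ⟨k0, hk0, hP1, hP2⟩ ⟨k, hk, huniq, ⟨s, hs1, hs2⟩, hrho⟩ hX e
    have hz := D.hz
    have hW := D.hW
    have hcp := D.hcp k hk
    have hcp0 := D.hcp k0 hk0
    have hQw : D.w Q Q.length := hs2.2.1
    have hsw : D.w Q s := hs1.2.1
    have hsl : s + 1 ≤ Q.length := hs2.1
    have hgap := D.w_gap hsw hQw (by omega)
    have hs0 := hs1.1
    obtain ⟨s0, g1, g2, g3⟩ := cand_true (D := D) hk0 hP1 hX e (by omega) hQw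
    have hkk := huniq k0 hk0 g3
    subst hkk
    have hss := g1.unique hs1
    subst hss
    have hF : isF (D.w (P ++ Q)) D.z (D.c k0 + s0) := by
      have h2 := (isF_shift D.loc (P := P) (Q := Q) (a := D.z - D.c k0) (s := s0)
        (by omega)).2 hs1
      have h3 : P.length + (D.z - D.c k0) = D.z := by omega
      rw [h3, hP1] at h2
      exact h2
    have hG : isF (D.w (P ++ Q)) (D.c k0 + s0 + 1) (P ++ Q).length := by
      have h2 := (isF_shift D.loc (P := P) (Q := Q) (a := s0 + 1) (s := Q.length)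
        (by omega)).2 hs2
      rw [List.length_append]
      rw [hP1] at h2 ⊢
      exact h2
    have hPQ : P ++ Q ∈ D.Zn := ⟨_, hF, hG⟩
    have hEq : P ++ Q = X := D.Zn_code hPQ (D.Zc_sub _ hX) e
    refine ⟨hEq, ?_⟩
    subst hEq
    have hlen : D.p0 ≤ (P ++ Q).length := by
      have := D.Zn_len hPQ
      omega
    show τ = act v (stepA (aff D.ph D.dA) D.LA D.RA (P ++ Q)) + G.dB (P ++ Q)
    rw [D.step_eq hlen]
    unfold dB
    have e1 : (P ++ Q).take D.p0 = P ++ Q.take (D.p0 - D.c k0) := by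
      rw [List.take_append, hP1, List.take_of_length_le (by omega)]
    have e2 : (P ++ Q).drop D.p0 = Q.drop (D.p0 - D.c k0) := by
      rw [List.drop_append, hP1, List.drop_of_length_le (by omega), List.nil_append]
    rw [e1, e2]
    exact G.snd2 k0 hk0 P _ _ v τ hP1 hP2 hrho

theorem spoil {X : List α} (hX : X ∈ D.Zn) (I : Finset ℕ)
    (hI : ∀ k ∈ I, k < D.K ∧ ∃ k', k' < D.K ∧ k' ≠ k ∧ D.Cand k' (X.drop (D.c k))) :
    I.card ≤ 1 + 3 * D.K1 := by
  classical
  obtain ⟨t, h1, h2⟩ := hX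
  have hz := D.hz
  have hW := D.hW
  have ht := h1.1
  have htX : t + 1 ≤ X.length := h2.1
  -- wall near `z`
  obtain ⟨ws, hws1, hws2⟩ : ∃ ws, (D.z ≤ ws + D.p0 + D.N1) ∧
      ∀ r, D.w X r → D.z ≤ r + D.p0 + D.N1 → r < D.z + D.p0 + D.N1 → r = ws := by
    by_cases h : ∃ r, D.w X r ∧ D.z ≤ r + D.p0 + D.N1 ∧ r < D.z + D.p0 + D.N1
    · obtain ⟨r, hr1, hr2, hr3⟩ := h
      refine ⟨r, hr2, fun r' h4 h5 h6 => ?_⟩
      rcases Nat.lt_trichotomy r r' with h7 | h7 | h7
      · have := D.w_gap hr1 h4 h7; omega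
      · exact h7.symm
      · have := D.w_gap h4 hr1 h7; omega
    · exact ⟨D.z, by omega, fun r h4 h5 h6 => absurd ⟨r, h4, h5, h6⟩ h⟩
  have hwall : ∀ r, D.w X r → D.z ≤ r + D.p0 → r = ws ∨ r = t ∨ r = X.length := by
    intro r hr hr2
    by_cases h3 : D.z ≤ r
    · right
      have h4 := h1.le h3 hr
      by_cases h5 : r = t
      · exact Or.inl h5
      · right
        have h6 := h2.le (by omega) hr
        have := hr.1
        omega
    · left; exact hws2 r hr (by omega) (by omega)
  let E : Finset ℕ := I.filter fun k => ∃ k', k' < D.K ∧ k' ≠ k ∧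
    D.z + D.c k ≤ ws + D.c k' + D.N1 ∧ ws + D.c k' < D.z + D.c k + D.N1
  let B : ℕ → Finset ℕ := fun T => I.filter fun k => ∃ k', k' < D.K ∧ k' ≠ k ∧
    D.Bad1 (T + D.c k' - D.c k)
  have hsub : I ⊆ E ∪ (B (ws - D.p0) ∪ (B (t - D.p0) ∪ B (X.length - D.p0))) := by
    intro k hk
    obtain ⟨hkK, k', hk', hne, s, hs, hcase⟩ := hI k hk
    have hck := D.hcp k hkK
    have hck' := D.hcp k' hk'
    have hkX : D.c k ≤ X.length := by omega
    have lenk : (X.take (D.c k)).length = D.c k := by rw [List.length_take]; omega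
    have key : ∀ r, D.n ≤ r → D.w (X.drop (D.c k)) r → D.w X (D.c k + r) := by
      intro r hr hw
      have := (wl_shift D.loc (P := X.take (D.c k)) (Q := X.drop (D.c k)) hr).2 hw
      rwa [List.take_append_drop, lenk] at this
    rcases hcase with ⟨r, hr1, hr2, hr3⟩ | hb
    · apply Finset.mem_union_left
      have h4 := key r (by omega) hr1
      have h5 := hws2 _ h4 (by omega) (by omega)
      refine Finset.mem_filter.2 ⟨hk, k', hk', hne, by omega, by omega⟩
    · apply Finset.mem_union_right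
      have hs1 := hs.1
      have h4 := key s (by omega) hs.2.1
      have e1 : s + D.c k' - D.p0 = (D.c k + s - D.p0) + D.c k' - D.c k := by omega
      rw [e1] at hb
      rcases hwall _ h4 (by omega) with h5 | h5 | h5
      · rw [h5] at hb
        exact Finset.mem_union_left _ (Finset.mem_filter.2 ⟨hk, k', hk', hne, hb⟩)
      · rw [h5] at hb
        exact Finset.mem_union_right _ (Finset.mem_union_left _
          (Finset.mem_filter.2 ⟨hk, k', hk', hne, hb⟩))
      · rw [h5] at hb
        exact Finset.mem_union_right _ (Finset.mem_union_right _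
          (Finset.mem_filter.2 ⟨hk, k', hk', hne, hb⟩))
  have hE : E.card ≤ 1 := by
    rw [Finset.card_le_one]
    intro k hk l hl
    obtain ⟨hk1, k', hk2, hk3, hk4, hk5⟩ := Finset.mem_filter.1 hk
    obtain ⟨hl1, l', hl2, hl3, hl4, hl5⟩ := Finset.mem_filter.1 hl
    by_contra hkl
    have := D.hgol k' k l' l hk2 (hI k hk1).1 hl2 (hI l hl1).1 hk3 hl3 (by
      intro h; exact hkl (Prod.mk.inj h).2)
    omega
  have hBc : ∀ T, D.p0 ≤ T → (B T).card ≤ D.K1 := by
    intro T hT
    apply D.hthin T hT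
    intro k hk
    obtain ⟨hk1, k', hk2, hk3, hk4⟩ := Finset.mem_filter.1 hk
    exact ⟨(hI k hk1).1, k', hk2, hk3, hk4⟩
  have c1 := Finset.card_le_card hsub
  have c2 := Finset.card_union_le E (B (ws - D.p0) ∪ (B (t - D.p0) ∪ B (X.length - D.p0)))
  have c3 := Finset.card_union_le (B (ws - D.p0)) (B (t - D.p0) ∪ B (X.length - D.p0))
  have c4 := Finset.card_union_le (B (t - D.p0)) (B (X.length - D.p0))
  have b1 := hBc (ws - D.p0) (by omega)
  have b2 := hBc (t - D.p0) (by omega)
  have b3 := hBc (X.length - D.p0) (by omega)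
  omega

theorem complB : ∀ X ∈ D.Zc, ∀ v, Cut G.LB G.RB v X := by
  classical
  intro X hX v
  have hXn := D.Zc_sub X hX
  have hXl := D.Zn_len hXn
  have hz := D.hz
  have hlp : (X.take D.p0).length = D.p0 := by rw [List.length_take]; omega
  obtain ⟨I, hI, hI2⟩ := G.cmp2 (X.take D.p0) (D.hh (X.drop D.p0)) v (fun k hk => by
    rw [hlp]; exact D.hcp k hk)
  let J : Finset ℕ := I.filter fun k => ∃ k', k' < D.K ∧ k' ≠ k ∧ D.Cand k' (X.drop (D.c k))
  have hJ : J.card ≤ 1 + 3 * D.K1 := spoil hXn J fun k hk => by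
    obtain ⟨h1, h2⟩ := Finset.mem_filter.1 hk
    exact ⟨(hI2 k h1).1, h2⟩
  obtain ⟨k, hk, hkJ⟩ : ∃ k ∈ I, k ∉ J := by
    by_contra hcon
    push Not at hcon
    have := Finset.card_le_card (show I ⊆ J from hcon)
    omega
  obtain ⟨hkK, hl, hr⟩ := hI2 k hk
  have hck := D.hcp k hkK
  have hun : ∀ j, j < D.K → D.Cand j (X.drop (D.c k)) → j = k := by
    intro j hj hc
    by_contra hne
    exact hkJ (Finset.mem_filter.2 ⟨hk, j, hj, hne, hc⟩)
  have e1 : (X.take D.p0).take (D.c k) = X.take (D.c k) := by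
    rw [List.take_take, min_eq_left hck]
  have e2 : (X.take D.p0).drop (D.c k) = (X.drop (D.c k)).take (D.p0 - D.c k) := by
    rw [List.drop_take]
  have e3 : X.drop D.p0 = (X.drop (D.c k)).drop (D.p0 - D.c k) := by
    rw [List.drop_drop]; congr 1; omega
  rw [e1] at hl
  rw [e2, e3] at hr
  obtain ⟨τ, hτ⟩ := Option.isSome_iff_exists.1 hr
  have lenk : (X.take (D.c k)).length = D.c k := by rw [List.length_take]; omega
  refine ⟨X.take (D.c k), X.drop (D.c k), τ, (List.take_append_drop _ _).symm,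
    ⟨k, hkK, lenk, hl⟩, k, hkK, hun, ?_, hτ⟩
  obtain ⟨t, h1, h2⟩ := hXn
  have ht := h1.1
  have htX : t + 1 ≤ X.length := h2.1
  refine ⟨t - D.c k, ?_, ?_⟩
  · apply (isF_shift D.loc (P := X.take (D.c k)) (by omega)).1
    rw [List.take_append_drop, lenk]
    have a1 : D.c k + (D.z - D.c k) = D.z := by omega
    have a2 : D.c k + (t - D.c k) = t := by omega
    rw [a1, a2]; exact h1
  · apply (isF_shift D.loc (P := X.take (D.c k)) (by omega)).1
    rw [List.take_append_drop, lenk, List.length_drop]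
    have a1 : D.c k + (t - D.c k + 1) = t + 1 := by omega
    have a2 : D.c k + (X.length - D.c k) = X.length := by omega
    rw [a1, a2]; exact h2

/-- **The data of 621 from the input**, up to the height-1 facts. -/
theorem data (hZ : HL 1 D.Zn) (hZc : HL 1 D.Zc) (hLA : ∀ v, HL 1 (D.LA v))
    (hRA : ∀ v, HL 1 (D.RA v)) (hLB : ∀ v, HL 1 (G.LB v)) (hRB : ∀ v, HL 1 (G.RB v))
    (hrest : ∀ s : S, HL 3 ({w | (∀ z ∈ D.Zn, ¬ z <+: w) ∧ D.ph w = s} : Language α)) :
    Data D.ph :=
  ⟨D.Zn, D.Zc, D.dA, D.LA, D.RA, G.dB, G.LB, G.RB, D.code, D.Zc_sub, hZ, hZc, D.soundA, hLA,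
    hRA, D.complA, G.soundB, hLB, hRB, G.complB, hrest⟩

end Gad2

end Crest.Agent.R320.Inst_535
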