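import Crest.Agent.R320.SemTop_727
import Crest.Agent.R320.ExactR_237

/-!
# Row 320: the natural block code + any gadget without small walls fit 727's semantic top (helper602)

`Cfg` : left-looking outer walls, the blocks `XX` (first wall at a place `>= z`), scheme 1 =
abstract gadget `lam rho nu1` on `X.drop p0`, scheme 2 = 237's exact gadget on `X.take p0` at the
places `c k`.  `good_of` : a block off the two modes (E), (B) is cut by scheme 1.
`hC2` : two bad blocks are cut by scheme 2.
-/

set_option autoImplicit false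

namespace Crest.Agent.R320.Inst_602

open Crest.RegLang Crest.Agent.R320.Hk_851 Crest.Agent.R320.Blk467 Crest.Agent.R320.SemTop_727
open Crest.Agent.R320.ExactR_237
open Finset

variable {A S V : Type} [Monoid S] [AddCommGroup V]

/-- natural block code -/
def XX (Wo : List A → Prop) (z : ℕ) : Set (List A) :=
  {X | z ≤ X.length ∧ Wo X ∧ ∀ t, z ≤ t → t < X.length → ¬ Wo (X.take t)}

/-- zone map of both schemes -/
def TT (f : A → S) (act : V → S → V) (nu2 nu1 : List A → V) (p0 : ℕ) (v : V) (X : List A) : V :=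
  act (act v (pr f (X.take p0)) + nu2 (X.take p0)) (pr f (X.drop p0)) + nu1 (X.drop p0)

structure Cfg (A S V : Type) [Monoid S] [AddCommGroup V] where
  f : A → S
  act : V → S → V
  Wo : List A → Prop
  n : ℕ
  W : ℕ
  loc : ∀ P Q : List A, n ≤ Q.length → (Wo (P ++ Q) ↔ Wo Q)
  gap : ∀ (X : List A) (s t : ℕ), s < t → t ≤ X.length → Wo (X.take s) → Wo (X.take t) → W < t - s
  N1 : ℕ
  T0 : ℕ
  p0 : ℕ
  z : ℕ
  K : ℕ
  C0 : ℕ
  c : ℕ → ℕ
  cle : ∀ k < K, c k ≤ p0
  hz : 2 * p0 + N1 + N1 + n + T0 + 1 ≤ z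
  hW : 2 * p0 + 2 * N1 ≤ W
  BadT : ℕ → Prop
  gol : ∀ i j k l, i < K → j < K → k < K → l < K → i ≠ j → k ≠ l →
    |((c i : ℤ) - c j) - (c k - c l)| ≤ 2 * N1 → i = k ∧ j = l
  spoil : ∀ T : ℕ, T0 ≤ T → ∀ F : Finset (ℕ × ℕ), (∀ p ∈ F, p.1 < K ∧ p.2 < K ∧ p.1 ≠ p.2 ∧
    BadT (T + c p.2 - c p.1)) → F.card ≤ C0
  lam : List A → Option V
  rho : List A → Option V
  nu1 : List A → V
  lamle : ∀ P v, lam P = some v → P.length ≤ N1
  sound1 : ∀ P Q v b, lam P = some v → rho Q = some b → b = act v (pr f (P ++ Q)) + nu1 (P ++ Q)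
  compl1 : ∀ Y : List A, T0 ≤ Y.length → ¬ BadT Y.length → ∀ v, ∃ P Q, Y = P ++ Q ∧
    lam P = some v ∧ (rho Q).isSome
  lam2 : ℕ → List A → Option V
  rho2 : ℕ → List A → Option V
  nu2 : List A → V
  sound2 : ∀ k < K, ∀ (P Q : List A) (v b : V), P.length = c k → lam2 k P = some v →
    rho2 k Q = some b → b = act v (pr f (P ++ Q)) + nu2 (P ++ Q)
  compl2 : ∀ (u : List A) (v : V), u.length = p0 → ∃ I : Finset ℕ, 2 * C0 + 2 ≤ I.card ∧ ∀ k ∈ I,
    k < K ∧ lam2 k (u.take (c k)) = some v ∧ (rho2 k (u.drop (c k))).isSome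

namespace Cfg

variable (G : Cfg A S V)

def T (v : V) (X : List A) : V := TT G.f G.act G.nu2 G.nu1 G.p0 v X

def D : Sch A V where
  XX := XX G.Wo G.z
  T := G.T
  L1 := fun x => {P | G.p0 ≤ P.length ∧
    G.lam (P.drop G.p0) = some (G.act x (pr G.f (P.take G.p0)) + G.nu2 (P.take G.p0))}
  L2 := fun x => {P | ∃ k < G.K, P.length = G.c k ∧ G.lam2 k P = some x}

theorem len_of_XX {X : List A} (hX : X ∈ XX G.Wo G.z) : G.z ≤ X.length := hX.1

theorem good_of {X : List A} (hX : X ∈ XX G.Wo G.z)
    (hE : ∀ t, G.z ≤ t + G.N1 → t < G.z + G.N1 → t ≤ X.length → ¬ G.Wo (X.take t))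
    (hB : ¬ G.BadT (X.length - G.p0)) : X ∈ G.D.Good := by
  obtain ⟨h1, h2, h3⟩ := hX
  have hz := G.hz
  refine ⟨⟨h1, h2, h3⟩, fun x => ?_⟩
  have hlen : G.z + G.N1 ≤ X.length := by
    by_contra hc
    exact hE X.length (by omega) (by omega) le_rfl (by rwa [List.take_length])
  obtain ⟨P', Q, hY, hl, hr⟩ := G.compl1 (X.drop G.p0) (by rw [List.length_drop]; omega)
    (by rwa [List.length_drop]) (G.act x (pr G.f (X.take G.p0)) + G.nu2 (X.take G.p0))
  obtain ⟨b, hb⟩ := Option.isSome_iff_exists.1 hr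
  have hP' := G.lamle _ _ hl
  have hX' : X = (X.take G.p0 ++ P') ++ Q := by
    rw [List.append_assoc, ← hY, List.take_append_drop]
  have htl : (X.take G.p0).length = G.p0 := by rw [List.length_take]; omega
  have hlenX : X.length = G.p0 + P'.length + Q.length := by
    conv_lhs => rw [hX']
    rw [List.length_append, List.length_append, htl]
  have hval : ∀ (x' : V) (P : List A), G.p0 ≤ P.length →
      G.lam (P.drop G.p0) = some (G.act x' (pr G.f (P.take G.p0)) + G.nu2 (P.take G.p0)) →
      G.T x' (P ++ Q) = b := by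
    intro x' P hP hlP
    have := G.sound1 _ _ _ _ hlP hb
    unfold Cfg.T TT
    rw [List.take_append_of_le_length hP, List.drop_append_of_le_length hP]
    exact this.symm
  have hPin : G.p0 ≤ (X.take G.p0 ++ P').length := by rw [List.length_append, htl]; omega
  have hPl : G.lam ((X.take G.p0 ++ P').drop G.p0) =
      some (G.act x (pr G.f ((X.take G.p0 ++ P').take G.p0)) +
        G.nu2 ((X.take G.p0 ++ P').take G.p0)) := by
    have e1 : (X.take G.p0 ++ P').drop G.p0 = P' := by
      rw [List.drop_append_of_le_length (by omega), List.drop_of_length_le (by omega)]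
      rfl
    have e2 : (X.take G.p0 ++ P').take G.p0 = X.take G.p0 := by
      rw [List.take_append_of_le_length (by omega), List.take_of_length_le (by omega)]
    rw [e1, e2]
    exact hl
  refine ⟨X.take G.p0 ++ P', ⟨hPin, hPl⟩, Q, ?_, hX'.symm⟩
  intro x' P hP
  obtain ⟨hP1, hP2⟩ := hP
  have hPb := G.lamle _ _ hP2
  rw [List.length_drop] at hPb
  refine ⟨⟨?_, ?_, ?_⟩, ?_⟩
  · rw [List.length_append]; omega
  · rw [G.loc _ _ (by omega)]
    rw [hX', G.loc _ _ (by omega)] at h2
    exact h2
  · intro t ht1 ht2 hw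
    rw [List.length_append] at ht2
    rw [List.take_append, List.take_of_length_le (by omega : P.length ≤ t)] at hw
    rw [G.loc _ _ (by rw [List.length_take]; omega)] at hw
    set t' := (G.p0 + P'.length) + (t - P.length) with ht'
    have hw' : G.Wo (X.take t') := by
      have e : X.take t' = (X.take G.p0 ++ P') ++ Q.take (t - P.length) := by
        conv_lhs => rw [hX']
        rw [List.take_append, List.take_of_length_le (by rw [List.length_append, htl]; omega)]
        congr 2
        rw [List.length_append, htl]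
        omega
      rw [e, G.loc _ _ (by rw [List.length_take]; omega)]
      exact hw
    by_cases hc : G.z ≤ t'
    · exact h3 t' hc (by omega) hw'
    · exact hE t' (by omega) (by omega) (by omega) hw'
  · show G.T x' (P ++ Q) = G.T x X
    rw [hval x' P hP1 hP2]
    have := hval x _ hPin hPl
    rw [← hX'] at this
    exact this.symm

theorem transfer {τ P X : List A} {k k' t : ℕ} (hP : P.length = G.c k')
    (hX : X <+: P ++ τ.drop (G.c k)) (hk : G.c k ≤ τ.length) (h1 : G.c k' + G.n ≤ t)
    (h2 : t ≤ X.length) :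
    t - G.c k' + G.c k ≤ τ.length ∧ (G.Wo (X.take t) ↔ G.Wo (τ.take (t - G.c k' + G.c k))) := by
  have hl := hX.length_le
  rw [List.length_append, List.length_drop] at hl
  have hb : t - G.c k' + G.c k ≤ τ.length := by omega
  refine ⟨hb, ?_⟩
  have e1 : X.take t = P ++ (τ.drop (G.c k)).take (t - G.c k') := by
    obtain ⟨R, hR⟩ := hX
    have : X.take t = (X ++ R).take t := by rw [List.take_append_of_le_length h2]
    rw [this, hR, List.take_append, List.take_of_length_le (by omega : P.length ≤ t), hP]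
  have e2 : τ.take (t - G.c k' + G.c k) = τ.take (G.c k) ++ (τ.drop (G.c k)).take (t - G.c k') := by
    rw [add_comm, List.take_add]
  rw [e1, e2, G.loc _ _ (by rw [List.length_take, List.length_drop]; omega),
    G.loc _ _ (by rw [List.length_take, List.length_drop]; omega)]

/-- ambiguous pair on the text `τ` -/
def Amb (τ : List A) (p : ℕ × ℕ) : Prop :=
  p.1 ≠ p.2 ∧ ∃ P X : List A, P.length = G.c p.2 ∧ X ∈ XX G.Wo G.z ∧
    X <+: P ++ τ.drop (G.c p.1) ∧ X ∉ G.D.Good

def EP (τ : List A) (p : ℕ × ℕ) : Prop :=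
  p.1 ≠ p.2 ∧ ∃ t, G.z ≤ t + G.N1 ∧ t < G.z + G.N1 ∧ t - G.c p.2 + G.c p.1 ≤ τ.length ∧
    G.Wo (τ.take (t - G.c p.2 + G.c p.1))

def YP (τ : List A) (y : ℕ) : Prop :=
  y ≤ τ.length ∧ G.Wo (τ.take y) ∧ ∃ k < G.K, ∃ k' < G.K, G.z + G.c k ≤ y + G.c k' ∧
    ∀ s, G.z + G.c k ≤ s + G.c k' → s < y → ¬ G.Wo (τ.take s)

open Classical in
theorem card_E (τ : List A) :
    (((range G.K) ×ˢ (range G.K)).filter (fun p => G.EP τ p)).card ≤ 1 := by
  rw [Finset.card_le_one]
  rintro ⟨a, a'⟩ ha ⟨b, b'⟩ hb
  rw [Finset.mem_filter, Finset.mem_product, Finset.mem_range, Finset.mem_range] at ha hb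
  obtain ⟨⟨ha1, ha2⟩, hna, t1, p1, p2, p3, p4⟩ := ha
  obtain ⟨⟨hb1, hb2⟩, hnb, t2, q1, q2, q3, q4⟩ := hb
  dsimp only at *
  have c1 := G.cle a ha1
  have c2 := G.cle a' ha2
  have c3 := G.cle b hb1
  have c4 := G.cle b' hb2
  have hz := G.hz
  have hW := G.hW
  have hy : t1 - G.c a' + G.c a = t2 - G.c b' + G.c b := by
    rcases lt_trichotomy (t1 - G.c a' + G.c a) (t2 - G.c b' + G.c b) with h | h | h
    · have := G.gap τ _ _ h q3 p4 q4
      omega
    · exact h
    · have := G.gap τ _ _ h p3 q4 p4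
      omega
  have := G.gol a a' b b' ha1 ha2 hb1 hb2 hna hnb (by rw [abs_le]; constructor <;> omega)
  rw [this.1, this.2]

open Classical in
theorem card_Y (τ : List A) : ((range (τ.length + 1)).filter (fun y => G.YP τ y)).card ≤ 2 := by
  set Y := (range (τ.length + 1)).filter (fun y => G.YP τ y) with hY
  by_cases hne : Y.Nonempty
  swap
  · rw [Finset.not_nonempty_iff_eq_empty] at hne
    rw [hne]; simp
  have hz := G.hz
  have hW := G.hW
  have hm := Y.max'_mem hne
  have h1 : (Y.erase (Y.max' hne)).card ≤ 1 := by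
    rw [Finset.card_le_one]
    have key : ∀ a ∈ Y.erase (Y.max' hne), a ≤ τ.length ∧ G.Wo (τ.take a) ∧
        G.z ≤ a + G.p0 ∧ a < G.z + G.p0 := by
      intro a ha
      have ha' := Finset.mem_of_mem_erase ha
      have hlt : a < Y.max' hne := Finset.lt_max'_of_mem_erase_max' _ _ ha
      rw [hY, Finset.mem_filter] at ha'
      obtain ⟨_, h2, h3, k, hk, k', hk', h4, h5⟩ := ha'
      have c1 := G.cle k hk
      have c2 := G.cle k' hk'
      have hm2 : ∀ y ∈ Y, G.YP τ y := fun y hy => (Finset.mem_filter.1 hy).2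
      obtain ⟨g2, g3, j, hj, j', hj', g4, g5⟩ := hm2 _ hm
      have c3 := G.cle j hj
      have c4 := G.cle j' hj'
      have : ¬ (G.z + G.c j ≤ a + G.c j') := fun hh => g5 a hh hlt h3
      exact ⟨h2, h3, by omega, by omega⟩
    intro a ha b hb
    obtain ⟨a1, a2, a3, a4⟩ := key a ha
    obtain ⟨b1, b2, b3, b4⟩ := key b hb
    rcases lt_trichotomy a b with h | h | h
    · have := G.gap τ _ _ h b1 a2 b2
      omega
    · exact h
    · have := G.gap τ _ _ h a1 b2 a2
      omega
  have h2 := Finset.card_erase_of_mem hm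
  omega

open Classical in
theorem card_Amb (τ : List A) (hτ : G.p0 ≤ τ.length) :
    (((range G.K) ×ˢ (range G.K)).filter (fun p => G.Amb τ p)).card ≤ 1 + 2 * G.C0 := by
  set Y := (range (τ.length + 1)).filter (fun y => G.YP τ y) with hY
  set F : ℕ → Finset (ℕ × ℕ) := fun y => ((range G.K) ×ˢ (range G.K)).filter
    (fun p => p.1 ≠ p.2 ∧ G.BadT ((y - G.p0) + G.c p.2 - G.c p.1)) with hF
  have hz := G.hz
  have hsub : ((range G.K) ×ˢ (range G.K)).filter (fun p => G.Amb τ p) ⊆
      ((range G.K) ×ˢ (range G.K)).filter (fun p => G.EP τ p) ∪ Y.biUnion F := by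
    rintro ⟨k, k'⟩ hp
    rw [Finset.mem_filter] at hp
    obtain ⟨hp0, hne, P, X, hP, hX, hXp, hG⟩ := hp
    have hp1 := hp0
    rw [Finset.mem_product, Finset.mem_range, Finset.mem_range] at hp1
    obtain ⟨hk, hk'⟩ := hp1
    dsimp only at *
    have c1 := G.cle k hk
    have c2 := G.cle k' hk'
    have hzX := hX.1
    rw [Finset.mem_union]
    by_cases hE : ∃ t, G.z ≤ t + G.N1 ∧ t < G.z + G.N1 ∧ t ≤ X.length ∧ G.Wo (X.take t)
    · left
      obtain ⟨t, t1, t2, t3, t4⟩ := hE
      have htr := G.transfer hP hXp (by omega) (by omega : G.c k' + G.n ≤ t) t3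
      rw [Finset.mem_filter]
      exact ⟨hp0, hne, t, t1, t2, htr.1, htr.2.1 t4⟩
    · right
      have hB : G.BadT (X.length - G.p0) := by
        by_contra hB
        exact hG (G.good_of hX (fun t a b c d => hE ⟨t, a, b, c, d⟩) hB)
      have htr := G.transfer hP hXp (by omega) (by omega : G.c k' + G.n ≤ X.length) le_rfl
      rw [List.take_length] at htr
      rw [Finset.mem_biUnion]
      refine ⟨X.length - G.c k' + G.c k, ?_, ?_⟩
      · rw [hY, Finset.mem_filter, Finset.mem_range]
        refine ⟨by omega, htr.1, htr.2.1 hX.2.1, k, hk, k', hk', by omega, ?_⟩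
        intro s hs1 hs2 hs3
        have htr' := G.transfer (t := s + G.c k' - G.c k) hP hXp (by omega) (by omega) (by omega)
        have e : s + G.c k' - G.c k - G.c k' + G.c k = s := by omega
        rw [e] at htr'
        exact hX.2.2 _ (by omega) (by omega) (htr'.2.2 hs3)
      · rw [hF, Finset.mem_filter]
        refine ⟨hp0, hne, ?_⟩
        have e : X.length - G.c k' + G.c k - G.p0 + G.c k' - G.c k = X.length - G.p0 := by omega
        dsimp only
        rw [e]
        exact hB
  have hFc : ∀ y ∈ Y, (F y).card ≤ G.C0 := by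
    intro y hy
    rw [hY, Finset.mem_filter] at hy
    obtain ⟨_, h2, h3, k, hk, k', hk', h4, h5⟩ := hy
    have c1 := G.cle k hk
    have c2 := G.cle k' hk'
    refine G.spoil (y - G.p0) (by omega) (F y) ?_
    rintro ⟨i, j⟩ hp
    rw [hF, Finset.mem_filter, Finset.mem_product, Finset.mem_range, Finset.mem_range] at hp
    exact ⟨hp.1.1, hp.1.2, hp.2.1, hp.2.2⟩
  calc (((range G.K) ×ˢ (range G.K)).filter (fun p => G.Amb τ p)).card
      ≤ (((range G.K) ×ˢ (range G.K)).filter (fun p => G.EP τ p) ∪ Y.biUnion F).card :=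
        Finset.card_le_card hsub
    _ ≤ (((range G.K) ×ˢ (range G.K)).filter (fun p => G.EP τ p)).card + (Y.biUnion F).card :=
        Finset.card_union_le _ _
    _ ≤ 1 + Y.card * G.C0 := by
        have h1 := G.card_E τ
        have h2 := Finset.card_biUnion_le_card_mul Y F G.C0 hFc
        omega
    _ ≤ 1 + 2 * G.C0 := by
        have h3 : Y.card ≤ 2 := G.card_Y τ
        have := Nat.mul_le_mul_right G.C0 h3
        omega

theorem exists_block {τ : List A} (h1 : G.z ≤ τ.length) (h2 : G.Wo τ) :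
    ∃ X ∈ XX G.Wo G.z, X <+: τ := by
  classical
  have hex : ∃ t, G.z ≤ t ∧ t ≤ τ.length ∧ G.Wo (τ.take t) :=
    ⟨τ.length, h1, le_rfl, by rwa [List.take_length]⟩
  obtain ⟨g1, g2, g3⟩ := Nat.find_spec hex
  have hl : (τ.take (Nat.find hex)).length = Nat.find hex := by
    rw [List.length_take]; omega
  refine ⟨τ.take (Nat.find hex), ⟨by omega, g3, ?_⟩, List.take_prefix _ _⟩
  intro t ht1 ht2 hw
  rw [hl] at ht2
  rw [List.take_take, min_eq_left (by omega)] at hw
  exact Nat.find_min hex ht2 ⟨ht1, by omega, hw⟩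

theorem hC2 : ∀ X1 ∈ G.D.Bad, ∀ X2 ∈ G.D.Bad, ∀ x, ∃ P ∈ G.D.L2 x,
    ∃ Q ∈ G.D.R2 (G.D.T (G.D.T x X1) X2), P ++ Q = X1 ++ X2 := by
  classical
  intro X1 hX1 X2 hX2 x
  have hz := G.hz
  have hX1' : X1 ∈ XX G.Wo G.z := hX1.1
  have hX2' : X2 ∈ XX G.Wo G.z := hX2.1
  have l1 := hX1'.1
  have l2 := hX2'.1
  have hul : (X1.take G.p0).length = G.p0 := by rw [List.length_take]; omega
  obtain ⟨I, hI, hIk⟩ := G.compl2 (X1.take G.p0) x hul
  set τ := X1 ++ X2 with hτ
  have hτl : τ.length = X1.length + X2.length := by rw [hτ, List.length_append]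
  have hcard := G.card_Amb τ (by omega)
  have hcard' : ((((range G.K) ×ˢ (range G.K)).filter (fun p => G.Amb τ p)).image Prod.fst).card
      < I.card := by
    have := Finset.card_image_le (s := ((range G.K) ×ˢ (range G.K)).filter (fun p => G.Amb τ p))
      (f := Prod.fst)
    omega
  obtain ⟨k, hkI, hkn⟩ := Finset.exists_mem_notMem_of_card_lt_card hcard'
  obtain ⟨hk, hl, hr⟩ := hIk k hkI
  have ck := G.cle k hk
  obtain ⟨b, hb⟩ := Option.isSome_iff_exists.1 hr
  have e0 : (X1.take G.p0).take (G.c k) = X1.take (G.c k) := by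
    rw [List.take_take, min_eq_left ck]
  rw [e0] at hl
  have hlk : (X1.take (G.c k)).length = G.c k := by rw [List.length_take]; omega
  have hdrop : τ.drop (G.c k) = X1.drop (G.c k) ++ X2 := by
    rw [hτ, List.drop_append_of_le_length (by omega)]
  have hu : X1.take G.p0 = X1.take (G.c k) ++ (X1.take G.p0).drop (G.c k) := by
    rw [← e0, List.take_append_drop]
  have hval : ∀ (x' : V) (P : List A), P.length = G.c k → G.lam2 k P = some x' →
      G.T x' (P ++ X1.drop (G.c k)) = TT G.f G.act (fun _ => 0) G.nu1 G.p0 0 [] +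
        (G.act b (pr G.f (X1.drop G.p0)) + G.nu1 (X1.drop G.p0)
          - TT G.f G.act (fun _ => 0) G.nu1 G.p0 0 []) := by
    intro x' P hP hlP
    have hs := G.sound2 k hk P _ x' b hP hlP hb
    have e1 : (P ++ X1.drop (G.c k)).take G.p0 = P ++ (X1.take G.p0).drop (G.c k) := by
      rw [List.take_append, List.take_of_length_le (by omega), List.drop_take, hP]
    have e2 : (P ++ X1.drop (G.c k)).drop G.p0 = X1.drop G.p0 := by
      rw [List.drop_append, List.drop_of_length_le (by omega), List.drop_drop, hP]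
      simp only [List.nil_append]
      congr 1
      omega
    unfold Cfg.T
    conv_lhs => unfold TT
    rw [e1, e2, ← hs]
    abel
  refine ⟨X1.take (G.c k), ⟨k, hk, hlk, hl⟩, X1.drop (G.c k) ++ X2, ?_, ?_⟩
  swap
  · rw [← List.append_assoc, List.take_append_drop]
  rintro x' P ⟨k', hk', hP, hlP⟩
  have ck' := G.cle k' hk'
  -- a block which is a prefix of the candidate text
  have hWo : G.Wo (P ++ (X1.drop (G.c k) ++ X2)) := by
    rw [← List.append_assoc, G.loc _ _ (by omega)]
    exact hX2'.2.1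
  obtain ⟨X, hX, hXp⟩ := G.exists_block (τ := P ++ (X1.drop (G.c k) ++ X2))
    (by rw [List.length_append, List.length_append, List.length_drop]; omega) hWo
  by_cases hG : X ∈ G.D.Good
  · right; left
    exact ⟨X, hG, hXp⟩
  by_cases hkk : k' = k
  · subst hkk
    left
    have hXX : P ++ X1.drop (G.c k') ∈ XX G.Wo G.z := by
      refine ⟨?_, ?_, ?_⟩
      · rw [List.length_append, List.length_drop]; omega
      · rw [G.loc _ _ (by rw [List.length_drop]; omega)]
        have := hX1'.2.1
        rw [← List.take_append_drop (G.c k') X1] at this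
        rw [G.loc _ _ (by rw [List.length_drop]; omega)] at this
        exact this
      · intro t ht1 ht2 hw
        rw [List.length_append, List.length_drop] at ht2
        refine hX1'.2.2 t ht1 (by omega) ?_
        rw [List.take_append, List.take_of_length_le (by omega : P.length ≤ t),
          G.loc _ _ (by rw [List.length_take, List.length_drop]; omega)] at hw
        rw [← List.take_append_drop (G.c k') X1, List.take_append,
          List.take_of_length_le (by omega : (X1.take (G.c k')).length ≤ t),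
          G.loc _ _ (by rw [List.length_take, List.length_drop]; omega), hlk]
        rw [hP] at hw
        exact hw
    by_cases hG1 : P ++ X1.drop (G.c k') ∈ G.D.Good
    · exfalso
      have e := (hXp : X <+: P ++ (X1.drop (G.c k') ++ X2))
      rw [← List.append_assoc] at e
      have e' : P ++ X1.drop (G.c k') <+: (P ++ X1.drop (G.c k')) ++ X2 := List.prefix_append _ _
      rcases List.prefix_or_prefix_of_prefix e e' with h | h
      · rcases Nat.lt_or_ge X.length (P ++ X1.drop (G.c k')).length with h3 | h3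
        · refine hXX.2.2 X.length hX.1 h3 ?_
          rw [← List.prefix_iff_eq_take.1 h]
          exact hX.2.1
        · exact hG (h.eq_of_length_le h3 ▸ hG1)
      · rcases Nat.lt_or_ge (P ++ X1.drop (G.c k')).length X.length with h3 | h3
        · refine hX.2.2 _ hXX.1 h3 ?_
          rw [← List.prefix_iff_eq_take.1 h]
          exact hXX.2.1
        · exact hG ((h.eq_of_length_le h3) ▸ hG1)
    · refine ⟨P ++ X1.drop (G.c k'), ⟨hXX, hG1⟩, X2, hX2, by rw [List.append_assoc], ?_⟩
      show G.T (G.T x' (P ++ X1.drop (G.c k'))) X2 = G.T (G.T x X1) X2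
      have e3 : G.T x X1 = G.T x' (P ++ X1.drop (G.c k')) := by
        rw [hval x' P hP hlP, ← hval x _ hlk hl, List.take_append_drop]
      rw [e3]
  · exfalso
    apply hkn
    rw [Finset.mem_image]
    refine ⟨(k, k'), ?_, rfl⟩
    rw [Finset.mem_filter, Finset.mem_product, Finset.mem_range, Finset.mem_range]
    refine ⟨⟨hk, hk'⟩, fun h => hkk h.symm, P, X, hP, hX, ?_, hG⟩
    rw [hdrop]
    exact hXp

end Cfg

end Crest.Agent.R320.Inst_602
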