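import Crest.Agent.R320.Top5_110
import Crest.Agent.R320.WallU_228
import Crest.Agent.R320.ExactR_237

/-!
# Row 320: instance on all words (helper610), part A: completeness of scheme 1, spoil count
-/

set_option autoImplicit false

namespace Crest.Agent.R320.Inst_610

open Crest.RegLang Crest.Agent.R320.Hk_851 Crest.Agent.R320.Code110

section A

variable {α S V : Type}

/-- blocks -/
def XX (Wo : List α → Prop) (z : ℕ) : Language α :=
  {X | z ≤ X.length ∧ Wo X ∧ ∀ t < X.length, z ≤ t → ¬ Wo (X.take t)}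

theorem pc_XX {Wo : List α → Prop} {z : ℕ} (hz : 0 < z) : PC (XX Wo z) where
  ne := fun h => by
    have := h.1
    simp only [List.length_nil] at this
    omega
  pf := by
    intro u hu v hv h
    by_contra hne
    have hlt : u.length < v.length := lt_of_le_of_ne h.length_le (fun e => hne (h.eq_of_length e))
    have e : v.take u.length = u := (List.prefix_iff_eq_take.1 h).symm
    exact hv.2.2 u.length hlt hu.1 (by rw [e]; exact hu.2.1)

/-- structurally good blocks -/
def Good (Wo : List α → Prop) (z N p0 : ℕ) (BadT : ℤ → Prop) (X : List α) : Prop :=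
  z + N ≤ X.length ∧ (∀ t < X.length, z ≤ t + N → ¬ Wo (X.take t)) ∧
    ¬ BadT ((X.length : ℤ) - p0)

variable [Monoid S] [AddCommGroup V]

/-- zone map -/
def T (φ : List α → S) (act : V → S → V) (p0 : ℕ) (nu1 nu2 : List α → V) (u : List α) (v : V) : V :=
  act (act v (φ (u.take p0)) + nu2 (u.take p0)) (φ (u.drop p0)) + nu1 (u.drop p0)

/-- left language of scheme 1 -/
def L1 (φ : List α → S) (act : V → S → V) (p0 : ℕ) (nu2 : List α → V) (lam : List α → Option V)
    (x : V) : Language α :=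
  {p | p0 ≤ p.length ∧ lam (p.drop p0) = some (act x (φ (p.take p0)) + nu2 (p.take p0))}

/-- left language of scheme 2 -/
def L2 (K : ℕ) (c : ℕ → ℕ) (lam : ℕ → List α → Option V) (x : V) : Language α :=
  {p | ∃ k < K, p.length = c k ∧ lam k p = some x}

theorem L1_finite [Finite α] (φ : List α → S) (act : V → S → V) (p0 N : ℕ) (nu2 : List α → V)
    (lam : List α → Option V) (hlam : ∀ P v, lam P = some v → P.length < N) (x : V) :
    {p | p ∈ L1 φ act p0 nu2 lam x}.Finite := by
  refine (List.finite_length_le α (p0 + N)).subset ?_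
  rintro p ⟨h1, h2⟩
  have := hlam _ _ h2
  rw [List.length_drop] at this
  show p.length ≤ p0 + N
  omega

theorem L2_finite [Finite α] (K Λ : ℕ) (c : ℕ → ℕ) (hc : ∀ k < K, c k ≤ Λ)
    (lam : ℕ → List α → Option V) (x : V) : {p | p ∈ L2 K c lam x}.Finite := by
  refine (List.finite_length_le α Λ).subset ?_
  rintro p ⟨k, hk, h1, h2⟩
  show p.length ≤ Λ
  rw [h1]
  exact hc k hk

/-- **scheme 1 is complete on good blocks** -/
theorem complete1 (Wo : List α → Prop) (n z N p0 A : ℕ) (BadT : ℤ → Prop)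
    (hloc : ∀ P Q : List α, n ≤ Q.length → (Wo (P ++ Q) ↔ Wo Q))
    (φ : List α → S) (act : V → S → V) (nu1 nu2 : List α → V) (lam rho : List α → Option V)
    (hlam : ∀ P v, lam P = some v → P.length < N)
    (hs : ∀ P Q v r, lam P = some v → rho Q = some r → r = act v (φ (P ++ Q)) + nu1 (P ++ Q))
    (hc : ∀ X : List α, A ≤ X.length → ¬ BadT (X.length : ℤ) → ∀ v, ∃ P Q r, X = P ++ Q ∧
      lam P = some v ∧ rho Q = some r)
    (hz : p0 + 2 * N + n + A ≤ z) (X : List α) (hX : X ∈ XX Wo z) (hg : Good Wo z N p0 BadT X)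
    (x : V) : ∃ p q y, X = p ++ q ∧ p ∈ L1 φ act p0 nu2 lam x ∧
      q ∈ Rsem (XX Wo z) (XX Wo z) (T φ act p0 nu1 nu2) 0 (L1 φ act p0 nu2 lam) y := by
  obtain ⟨hg1, hg2, hg3⟩ := hg
  obtain ⟨hX1, hX2, hX3⟩ := hX
  have hlen : ((X.drop p0).length : ℤ) = (X.length : ℤ) - p0 := by
    rw [List.length_drop]; omega
  obtain ⟨P, Q, r, e, hP, hQ⟩ := hc (X.drop p0) (by rw [List.length_drop]; omega)
    (by rw [hlen]; exact hg3) (act x (φ (X.take p0)) + nu2 (X.take p0))
  have hPN := hlam _ _ hP
  have eX : X = (X.take p0 ++ P) ++ Q := by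
    rw [List.append_assoc, ← e, List.take_append_drop]
  have htl : (X.take p0).length = p0 := by rw [List.length_take]; omega
  have hQl : X.length = p0 + P.length + Q.length := by
    conv_lhs => rw [eX]
    rw [List.length_append, List.length_append, htl]
  refine ⟨X.take p0 ++ P, Q, r, eX, ?_, ?_⟩
  · refine ⟨by rw [List.length_append, htl]; omega, ?_⟩
    rw [List.drop_left' htl, List.take_left' htl]
    exact hP
  · intro x' p' hp'
    obtain ⟨h1, h2⟩ := hp'
    have hN' := hlam _ _ h2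
    rw [List.length_drop] at hN'
    left
    refine ⟨r, Language.mem_mul.2 ⟨p' ++ Q, ⟨⟨?_, ?_, ?_⟩, ?_⟩, [], ⟨rfl, rfl⟩, by simp⟩⟩
    · rw [List.length_append]; omega
    · rw [hloc _ _ (by omega)]
      rw [eX, hloc _ _ (by omega)] at hX2
      exact hX2
    · intro t ht hzt
      rw [List.length_append] at ht
      rw [List.take_append, List.take_of_length_le (by omega)]
      rw [hloc _ _ (by rw [List.length_take]; omega)]
      have := hg2 (t - p'.length + (p0 + P.length)) (by omega) (by omega)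
      rw [eX, List.take_append, List.take_of_length_le
        (by rw [List.length_append, htl]; omega), hloc _ _
        (by rw [List.length_take, List.length_append, htl]; omega)] at this
      rw [List.length_append, htl] at this
      rw [show t - p'.length + (p0 + P.length) - (p0 + P.length) = t - p'.length by omega] at this
      exact this
    · have e2 : p' ++ Q = p'.take p0 ++ (p'.drop p0 ++ Q) := by
        rw [← List.append_assoc, List.take_append_drop]
      have h3 : (p'.take p0).length = p0 := by rw [List.length_take]; omega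
      unfold T
      rw [e2, List.take_left' h3, List.drop_left' h3]
      exact (hs _ _ _ _ h2 hQ).symm

end A

section B

variable {α : Type}

theorem shift {Wo : List α → Prop} {n : ℕ}
    (hloc : ∀ P Q : List α, n ≤ Q.length → (Wo (P ++ Q) ↔ Wo Q)) {U p' : List α} {ck ci s : ℕ}
    (hp : p'.length = ci) (hs : ck + n ≤ s) (hsU : s ≤ U.length) :
    Wo ((p' ++ U.drop ck).take (s + ci - ck)) ↔ Wo (U.take s) := by
  have e1 : (p' ++ U.drop ck).take (s + ci - ck) = p' ++ (U.drop ck).take (s - ck) := by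
    rw [List.take_append, List.take_of_length_le (by omega)]
    congr 2
    omega
  have e2 : U.take s = U.take ck ++ (U.drop ck).take (s - ck) := by
    have : s = ck + (s - ck) := by omega
    conv_lhs => rw [this]
    exact List.take_add
  rw [e1, e2, hloc _ _ (by rw [List.length_take, List.length_drop]; omega),
    hloc _ _ (by rw [List.length_take, List.length_drop]; omega)]

/-- candidate `i` seen from the place `c k` is good -/
def CandGood (Wo : List α → Prop) (z N p0 : ℕ) (BadT : ℤ → Prop) (c : ℕ → ℕ) (U : List α)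
    (k i : ℕ) : Prop :=
  ∀ p' : List α, p'.length = c i → ∃ X, X <+: p' ++ U.drop (c k) ∧ X ∈ XX Wo z ∧
    Good Wo z N p0 BadT X

theorem cand {Wo : List α → Prop} {n z N p0 Λ : ℕ} {BadT : ℤ → Prop} {c : ℕ → ℕ}
    (hloc : ∀ P Q : List α, n ≤ Q.length → (Wo (P ++ Q) ↔ Wo Q)) {U : List α} {k i : ℕ}
    (hk : c k ≤ Λ) (hi : c i ≤ Λ) (hz : 2 * Λ + 2 * N + n ≤ z) (hU : Wo U)
    (hUl : z + Λ ≤ U.length) (hbad : ¬ CandGood Wo z N p0 BadT c U k i) :
    ∃ e, e ≤ U.length ∧ z + c k ≤ e + c i ∧ Wo (U.take e) ∧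
      (∀ s < e, z + c k ≤ s + c i → ¬ Wo (U.take s)) ∧
      ((∃ s, s ≤ U.length ∧ Wo (U.take s) ∧ z + c k ≤ s + c i + N ∧ s + c i ≤ z + c k + N) ∨
        BadT ((e : ℤ) - p0 + c i - c k)) := by
  classical
  have hex : ∃ s, z + c k ≤ s + c i ∧ Wo (U.take s) :=
    ⟨U.length, by omega, by rw [List.take_length]; exact hU⟩
  obtain ⟨h1, h2⟩ := Nat.find_spec hex
  have hmin := fun s (hs : s < Nat.find hex) => Nat.find_min hex hs
  set e := Nat.find hex with he
  have heU : e ≤ U.length := Nat.find_min' hex ⟨by omega, by rw [List.take_length]; exact hU⟩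
  have hmin' : ∀ s < e, z + c k ≤ s + c i → ¬ Wo (U.take s) := fun s hs h3 h4 =>
    hmin s hs ⟨h3, h4⟩
  refine ⟨e, heU, h1, h2, hmin', ?_⟩
  by_contra hcon
  push Not at hcon
  obtain ⟨hE, hB⟩ := hcon
  apply hbad
  intro p' hp'
  have hUd : (U.drop (c k)).length = U.length - c k := List.length_drop
  have hlen : ((p' ++ U.drop (c k)).take (e + c i - c k)).length = e + c i - c k := by
    rw [List.length_take, List.length_append, hUd, hp']
    omega
  have htk : ∀ t, t ≤ e + c i - c k → z ≤ t + N →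
      (Wo (((p' ++ U.drop (c k)).take (e + c i - c k)).take t) ↔ Wo (U.take (t + c k - c i))) := by
    intro t ht hzt
    rw [List.take_take, min_eq_left ht]
    have := shift hloc (U := U) (p' := p') (ck := c k) (ci := c i) (s := t + c k - c i) hp'
      (by omega) (by omega)
    rwa [show t + c k - c i + c i - c k = t by omega] at this
  refine ⟨(p' ++ U.drop (c k)).take (e + c i - c k), List.take_prefix _ _, ⟨?_, ?_, ?_⟩, ?_, ?_, ?_⟩
  · rw [hlen]; omega
  · exact (shift hloc hp' (by omega) heU).2 h2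
  · intro t ht hzt
    rw [hlen] at ht
    rw [htk t (by omega) (by omega)]
    exact hmin' _ (by omega) (by omega)
  · rw [hlen]
    have := hE e heU h2 (by omega)
    omega
  · intro t ht hzt
    rw [hlen] at ht
    rw [htk t (by omega) hzt]
    intro hW
    by_cases hzt' : z ≤ t
    · exact hmin' _ (by omega) (by omega) hW
    · have := hE (t + c k - c i) (by omega) hW (by omega)
      omega
  · rw [hlen]
    have e3 : ((e + c i - c k : ℕ) : ℤ) - p0 = (e : ℤ) - p0 + c i - c k := by
      have : c k ≤ e + c i := by omega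
      push_cast [Nat.cast_sub this]
      ring
    rw [e3]
    exact hB

theorem spoil {Wo : List α → Prop} {n z N p0 W Λ K C0 : ℕ} {BadT : ℤ → Prop} {c : ℕ → ℕ}
    (hloc : ∀ P Q : List α, n ≤ Q.length → (Wo (P ++ Q) ↔ Wo Q))
    (hgap : ∀ (P : List α) (d : ℕ), Wo P → 0 < d → d ≤ W → ¬ Wo (P.take (P.length - d)))
    (hc : ∀ k < K, c k ≤ Λ) (hW : 2 * Λ + 2 * N ≤ W) (hz : 2 * Λ + 2 * N + n ≤ z)
    (hgol : ∀ i k i' k', i < K → k < K → i' < K → k' < K → i ≠ k → i' ≠ k' →
      |((c i : ℤ) - c k) - ((c i' : ℤ) - c k')| ≤ 2 * N → k = k')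
    (hsp : ∀ (T : ℤ) (F : Finset (ℕ × ℕ)), (∀ p ∈ F, p.1 < K ∧ p.2 < K ∧ p.1 ≠ p.2 ∧
      BadT (T + c p.1 - c p.2)) → F.card ≤ C0)
    (U : List α) (hU : Wo U) (hUl : z + Λ ≤ U.length)
    (I : Finset ℕ) (hI : ∀ k ∈ I, k < K) (hcard : 2 + 2 * C0 ≤ I.card) :
    ∃ k ∈ I, ∀ i < K, i ≠ k → CandGood Wo z N p0 BadT c U k i := by
  classical
  by_contra hcon
  push Not at hcon
  have huniq : ∀ s s', s ≤ U.length → s' ≤ U.length → Wo (U.take s) → Wo (U.take s') →
      s' ≤ s + W → s ≤ s' + W → s = s' := by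
    have aux : ∀ s s', s < s' → s' ≤ U.length → Wo (U.take s) → Wo (U.take s') →
        s' ≤ s + W → False := by
      intro s s' hlt hs' h1 h2 h3
      have hl : (U.take s').length = s' := by rw [List.length_take]; omega
      have := hgap (U.take s') (s' - s) h2 (by omega) (by omega)
      rw [hl, List.take_take, show min (s' - (s' - s)) s' = s by omega] at this
      exact this h1
    intro s s' h1 h2 h3 h4 h5 h6
    rcases lt_trichotomy s s' with h | h | h
    · exact (aux s s' h h2 h3 h4 h5).elim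
    · exact h
    · exact (aux s' s h h1 h4 h3 h6).elim
  have hall : ∀ k ∈ I, ∃ i e, i < K ∧ i ≠ k ∧ e ≤ U.length ∧ z + c k ≤ e + c i ∧ Wo (U.take e) ∧
      (∀ s < e, z + c k ≤ s + c i → ¬ Wo (U.take s)) ∧
      ((∃ s, s ≤ U.length ∧ Wo (U.take s) ∧ z + c k ≤ s + c i + N ∧ s + c i ≤ z + c k + N) ∨
        BadT ((e : ℤ) - p0 + c i - c k)) := by
    intro k hk
    obtain ⟨i, hi, hne, hb⟩ := hcon k hk
    obtain ⟨e, he⟩ := cand hloc (hc k (hI k hk)) (hc i hi) hz hU hUl hb
    exact ⟨i, e, hi, hne, he⟩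
  choose! i e h using hall
  set I1 := I.filter (fun k => ∃ s, s ≤ U.length ∧ Wo (U.take s) ∧ z + c k ≤ s + c (i k) + N ∧
    s + c (i k) ≤ z + c k + N) with hI1
  set I2 := I.filter (fun k => BadT ((e k : ℤ) - p0 + c (i k) - c k) ∧ e k ≤ z + Λ) with hI2
  set I3 := I.filter (fun k => BadT ((e k : ℤ) - p0 + c (i k) - c k) ∧ z + Λ < e k) with hI3
  have hsub : I ⊆ I1 ∪ (I2 ∪ I3) := by
    intro k hk
    obtain ⟨_, _, _, _, _, _, h6⟩ := h k hk
    rw [Finset.mem_union, Finset.mem_union]
    rcases h6 with h6 | h6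
    · left
      exact Finset.mem_filter.2 ⟨hk, h6⟩
    · right
      by_cases hle : e k ≤ z + Λ
      · left; exact Finset.mem_filter.2 ⟨hk, h6, hle⟩
      · right; exact Finset.mem_filter.2 ⟨hk, h6, by omega⟩
  have c1 : I1.card ≤ 1 := by
    rw [Finset.card_le_one]
    intro k hk k' hk'
    obtain ⟨hkI, s, hs1, hs2, hs3, hs4⟩ := Finset.mem_filter.1 hk
    obtain ⟨hkI', s', hs1', hs2', hs3', hs4'⟩ := Finset.mem_filter.1 hk'
    obtain ⟨a1, a2, _⟩ := h k hkI
    obtain ⟨a1', a2', _⟩ := h k' hkI'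
    have b1 := hc k (hI k hkI)
    have b2 := hc _ a1
    have b1' := hc k' (hI k' hkI')
    have b2' := hc _ a1'
    have hss : s = s' := huniq s s' hs1 hs1' hs2 hs2' (by omega) (by omega)
    subst hss
    refine hgol (i k) k (i k') k' a1 (hI k hkI) a1' (hI k' hkI') a2 a2' ?_
    rw [abs_le]
    constructor <;> omega
  have key : ∀ J : Finset ℕ, J ⊆ I → (∀ k ∈ J, BadT ((e k : ℤ) - p0 + c (i k) - c k)) →
      (∀ k ∈ J, ∀ k' ∈ J, e k = e k') → J.card ≤ C0 := by
    intro J hJ hb heq
    rcases J.eq_empty_or_nonempty with rfl | ⟨k0, hk0⟩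
    · simp
    · have hinj : (J.image fun k => (i k, k)).card = J.card := by
        apply Finset.card_image_of_injective
        intro a b hab
        exact (Prod.mk.inj hab).2
      rw [← hinj]
      apply hsp ((e k0 : ℤ) - p0)
      intro p hp
      obtain ⟨k, hk, rfl⟩ := Finset.mem_image.1 hp
      obtain ⟨a1, a2, _⟩ := h k (hJ hk)
      refine ⟨a1, hI k (hJ hk), a2, ?_⟩
      have := hb k hk
      rw [heq k hk k0 hk0] at this
      exact this
  have c2 : I2.card ≤ C0 := by
    refine key I2 (Finset.filter_subset _ _) (fun k hk => (Finset.mem_filter.1 hk).2.1) ?_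
    intro k hk k' hk'
    obtain ⟨hkI, -, hle⟩ := Finset.mem_filter.1 hk
    obtain ⟨hkI', -, hle'⟩ := Finset.mem_filter.1 hk'
    obtain ⟨a1, a2, a3, a4, a5, _⟩ := h k hkI
    obtain ⟨a1', a2', a3', a4', a5', _⟩ := h k' hkI'
    have b2 := hc _ a1
    have b2' := hc _ a1'
    exact huniq _ _ a3 a3' a5 a5' (by omega) (by omega)
  have c3 : I3.card ≤ C0 := by
    refine key I3 (Finset.filter_subset _ _) (fun k hk => (Finset.mem_filter.1 hk).2.1) ?_
    intro k hk k' hk'
    obtain ⟨hkI, -, hle⟩ := Finset.mem_filter.1 hk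
    obtain ⟨hkI', -, hle'⟩ := Finset.mem_filter.1 hk'
    obtain ⟨a1, a2, a3, a4, a5, a6, _⟩ := h k hkI
    obtain ⟨a1', a2', a3', a4', a5', a6', _⟩ := h k' hkI'
    have b1 := hc k (hI k hkI)
    have b1' := hc k' (hI k' hkI')
    rcases lt_trichotomy (e k) (e k') with hh | hh | hh
    · exact (a6' (e k) hh (by omega) a5).elim
    · exact hh
    · exact (a6 (e k') hh (by omega) a5').elim
  have := Finset.card_le_card hsub
  have d1 := Finset.card_union_le I1 (I2 ∪ I3)
  have d2 := Finset.card_union_le I2 I3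
  omega

end B

end Crest.Agent.R320.Inst_610
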