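import Crest.Agent.R320.SemTop_727
import Crest.Agent.R320.WallU_228
import Crest.Agent.R320.ExactR_237

/-!
# Row 320: instance of the semantic top from an all-words gadget (helper611)
-/

set_option autoImplicit false

namespace Crest.Agent.R320.Inst_611

open Crest.RegLang Crest.Agent.R320.Hk_851 Crest.Agent.R320.Blk467 Crest.Agent.R320.SemTop_727

section blocks

variable {α : Type} {Wa : List α → Prop} {n z W : ℕ}

/-- blocks: first wall at a place `≥ z` -/
def XX (Wa : List α → Prop) (z : ℕ) : Set (List α) :=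
  {X | z ≤ X.length ∧ Wa X ∧ ∀ t, z ≤ t → t < X.length → ¬ Wa (X.take t)}

theorem take_split (P Q : List α) (t : ℕ) : (P ++ Q).take (P.length + t) = P ++ Q.take t := by
  rw [List.take_append, List.take_of_length_le (by omega)]
  congr 2
  omega

theorem wa_shift (hloc : ∀ P Q : List α, n ≤ Q.length → (Wa (P ++ Q) ↔ Wa Q)) (P Q : List α)
    (t : ℕ) (hn : n ≤ t) (ht : t ≤ Q.length) :
    Wa ((P ++ Q).take (P.length + t)) ↔ Wa (Q.take t) := by
  rw [take_split]
  exact hloc P _ (by rw [List.length_take]; omega)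

theorem gap' (hgap : ∀ (P : List α) (d : ℕ), Wa P → 0 < d → d ≤ W → ¬ Wa (P.take (P.length - d)))
    (w : List α) (s t : ℕ) (hst : s < t) (ht : t ≤ w.length) (h1 : Wa (w.take s))
    (h2 : Wa (w.take t)) : s + W < t := by
  by_contra hc
  refine hgap (w.take t) (t - s) h2 (by omega) (by omega) ?_
  have e : (w.take t).length - (t - s) = s := by rw [List.length_take]; omega
  rw [e, List.take_take, min_eq_left (by omega)]
  exact h1

theorem pcode (hz : 0 < z) : PCode (XX Wa z) := by
  refine ⟨fun h => ?_, fun X hX Y hY h => ?_⟩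
  · have := h.1
    simp at this
    omega
  · by_contra hne
    have hl : X.length < Y.length := by
      rcases lt_or_eq_of_le h.length_le with h1 | h1
      · exact h1
      · exact absurd (h.eq_of_length h1) hne
    obtain ⟨r, hr⟩ := h
    refine hY.2.2 X.length hX.1 hl ?_
    rw [← hr, List.take_left']
    · exact hX.2.1
    · rfl

end blocks

section scheme

variable {α S V : Type} [Monoid S] [AddCommGroup V]

/-- zone map -/
def Tm (f : α → S) (act : V → S → V) (p0 : ℕ) (nu1 nu2 : List α → V) (x : V) (X : List α) : V :=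
  act (act x ((X.take p0).map f).prod + nu2 (X.take p0)) ((X.drop p0).map f).prod +
    nu1 (X.drop p0)

/-- the scheme -/
def Sc (f : α → S) (act : V → S → V) (Wa : List α → Prop) (z p0 : ℕ) (nu1 nu2 : List α → V)
    (lam : List α → Option V) (K : ℕ) (c : ℕ → ℕ) (lam2 : ℕ → List α → Option V) : Sch α V where
  XX := XX Wa z
  T := Tm f act p0 nu1 nu2
  L1 := fun x => {P | p0 ≤ P.length ∧
    lam (P.drop p0) = some (act x ((P.take p0).map f).prod + nu2 (P.take p0))}
  L2 := fun x => {P | ∃ k < K, P.length = c k ∧ lam2 k P = some x}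

variable {f : α → S} {act : V → S → V} {Wa : List α → Prop} {n z p0 N1 La W : ℕ}
  {nu1 nu2 : List α → V} {lam rho : List α → Option V} {K : ℕ} {c : ℕ → ℕ}
  {lam2 : ℕ → List α → Option V} {Bd : ℕ → Prop}

theorem good_of (hloc : ∀ P Q : List α, n ≤ Q.length → (Wa (P ++ Q) ↔ Wa Q))
    (hlen : ∀ P v, lam P = some v → P.length ≤ N1)
    (hs : ∀ P Q v r, lam P = some v → rho Q = some r → La ≤ Q.length →
      r = act v ((P ++ Q).map f).prod + nu1 (P ++ Q))
    (hc : ∀ u : List α, La ≤ u.length → ¬ Bd u.length → ∀ v, ∃ p q, p ++ q = u ∧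
      lam p = some v ∧ (rho q).isSome)
    (hz : p0 + N1 + n + La ≤ z)
    (X : List α) (hX : X ∈ XX Wa z) (hE : ∀ t, z ≤ t + N1 → t < z → ¬ Wa (X.take t))
    (hE' : z + N1 ≤ X.length) (hB : ¬ Bd (X.length - p0)) :
    X ∈ (Sc f act Wa z p0 nu1 nu2 lam K c lam2).Good := by
  refine ⟨hX, fun x => ?_⟩
  have hl0 : (X.take p0).length = p0 := by rw [List.length_take]; omega
  obtain ⟨p, q, hpq, hlp, hq⟩ := hc (X.drop p0) (by rw [List.length_drop]; omega)
    (by rw [List.length_drop]; exact hB) (act x ((X.take p0).map f).prod + nu2 (X.take p0))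
  have hpl := hlen _ _ hlp
  have hlq : p.length + q.length = X.length - p0 := by
    rw [← List.length_append, hpq, List.length_drop]
  obtain ⟨r, hr⟩ := Option.isSome_iff_exists.1 hq
  have hXe : X.take p0 ++ (p ++ q) = X := by rw [hpq, List.take_append_drop]
  have hval : ∀ (x' : V) (P' : List α), p0 ≤ P'.length →
      lam (P'.drop p0) = some (act x' ((P'.take p0).map f).prod + nu2 (P'.take p0)) →
      Tm f act p0 nu1 nu2 x' (P' ++ q) = r := by
    intro x' P' h1 h2
    have h3 := hs _ _ _ _ h2 hr (by omega)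
    unfold Tm
    rw [List.take_append_of_le_length h1, List.drop_append_of_le_length h1, ← h3]
  have hin : (X.take p0 ++ p) ∈ (Sc f act Wa z p0 nu1 nu2 lam K c lam2).L1 x := by
    refine ⟨by rw [List.length_append]; omega, ?_⟩
    rw [List.drop_left' hl0, List.take_left' hl0]
    exact hlp
  have hTX : (Sc f act Wa z p0 nu1 nu2 lam K c lam2).T x X = r := by
    have := hval x _ hin.1 hin.2
    rw [List.append_assoc, hXe] at this
    exact this
  refine ⟨_, hin, q, ?_, by rw [List.append_assoc]; exact hXe⟩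
  rw [hTX]
  intro x' P' hP'
  refine ⟨?_, hval x' P' hP'.1 hP'.2⟩
  have hp' := hlen _ _ hP'.2
  rw [List.length_drop] at hp'
  have hp1 := hP'.1
  have hWX : Wa ((X.take p0 ++ p) ++ q) := by
    rw [List.append_assoc, hXe]; exact hX.2.1
  refine ⟨by rw [List.length_append]; omega, ?_, ?_⟩
  · exact (hloc _ _ (by omega)).2 ((hloc _ _ (by omega)).1 hWX)
  · intro t ht1 ht2 hW
    rw [List.length_append] at ht2
    obtain ⟨s, rfl⟩ : ∃ s, t = P'.length + s := ⟨t - P'.length, by omega⟩
    have h1 := (wa_shift hloc P' q s (by omega) (by omega)).1 hW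
    have h2 := (wa_shift hloc (X.take p0 ++ p) q s (by omega) (by omega)).2 h1
    rw [List.append_assoc, hXe, List.length_append, hl0] at h2
    by_cases h3 : p0 + p.length + s < z
    · exact hE _ (by omega) h3 h2
    · exact hX.2.2 _ (by omega) (by omega) h2

theorem tr (hloc : ∀ P Q : List α, n ≤ Q.length → (Wa (P ++ Q) ↔ Wa Q)) (w P' : List α)
    (ck σ : ℕ) (hck : ck ≤ w.length) (h1 : ck + n ≤ σ) (h2 : σ ≤ w.length) :
    Wa (w.take σ) ↔ Wa ((P' ++ w.drop ck).take (P'.length + (σ - ck))) := by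
  have e : w.take ck ++ w.drop ck = w := List.take_append_drop _ _
  have hl : (w.take ck).length = ck := by rw [List.length_take]; omega
  have h3 := wa_shift hloc (w.take ck) (w.drop ck) (σ - ck) (by omega)
    (by rw [List.length_drop]; omega)
  rw [e, hl] at h3
  have h4 := wa_shift hloc P' (w.drop ck) (σ - ck) (by omega)
    (by rw [List.length_drop]; omega)
  rw [h4, ← h3]
  have : ck + (σ - ck) = σ := by omega
  rw [this]

theorem XX_shift (hloc : ∀ P Q : List α, n ≤ Q.length → (Wa (P ++ Q) ↔ Wa Q)) (w P' : List α)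
    (ck τ : ℕ) (hck : ck ≤ w.length) (hn : P'.length + n ≤ z) (h2 : τ ≤ w.length)
    (h3 : z + ck ≤ τ + P'.length) (hw : Wa (w.take τ))
    (h4 : ∀ s < τ, z + ck ≤ s + P'.length → ¬ Wa (w.take s)) :
    (P' ++ w.drop ck).take (P'.length + (τ - ck)) ∈ XX Wa z := by
  have hl : ((P' ++ w.drop ck).take (P'.length + (τ - ck))).length = P'.length + (τ - ck) := by
    rw [List.length_take, List.length_append, List.length_drop]; omega
  refine ⟨by rw [hl]; omega, (tr hloc w P' ck τ hck (by omega) h2).1 hw, fun t ht1 ht2 hW => ?_⟩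
  rw [hl] at ht2
  rw [List.take_take, min_eq_left (by omega)] at hW
  refine h4 (t - P'.length + ck) (by omega) (by omega) ?_
  rw [tr hloc w P' ck (t - P'.length + ck) hck (by omega) (by omega)]
  have : P'.length + (t - P'.length + ck - ck) = t := by omega
  rw [this]
  exact hW

open Classical in
theorem hC2 {R C0 : ℕ} {rho2 : ℕ → List α → Option V}
    (hloc : ∀ P Q : List α, n ≤ Q.length → (Wa (P ++ Q) ↔ Wa Q))
    (hgap : ∀ (P : List α) (d : ℕ), Wa P → 0 < d → d ≤ W → ¬ Wa (P.take (P.length - d)))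
    (hlen : ∀ P v, lam P = some v → P.length ≤ N1)
    (hs : ∀ P Q v r, lam P = some v → rho Q = some r → La ≤ Q.length →
      r = act v ((P ++ Q).map f).prod + nu1 (P ++ Q))
    (hc : ∀ u : List α, La ≤ u.length → ¬ Bd u.length → ∀ v, ∃ p q, p ++ q = u ∧
      lam p = some v ∧ (rho q).isSome)
    (hcle : ∀ k < K, c k ≤ p0)
    (gold : ∀ i j k l, i < K → j < K → k < K → l < K → i ≠ j → k ≠ l → (i, j) ≠ (k, l) →
      c i + c l + 4 * N1 < c k + c j ∨ c k + c j + 4 * N1 < c i + c l)
    (spoil : ∀ T, La ≤ T → ((Finset.range K ×ˢ Finset.range K).filter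
      (fun ij => ij.1 ≠ ij.2 ∧ Bd (T + c ij.2 - c ij.1))).card ≤ C0)
    (s2 : ∀ k < K, ∀ (P Q : List α) (v b : V), P.length = c k → lam2 k P = some v →
      rho2 k Q = some b → b = act v ((P ++ Q).map f).prod + nu2 (P ++ Q))
    (c2 : ∀ (u : List α) (v : V), (∀ k < K, c k ≤ u.length) → ∃ I : Finset ℕ, R ≤ I.card ∧
      ∀ k ∈ I, k < K ∧ lam2 k (u.take (c k)) = some v ∧ (rho2 k (u.drop (c k))).isSome)
    (hR : 1 + (C0 + C0) < R) (hW : 2 * (p0 + N1) ≤ W) (hz : 4 * p0 + 2 * N1 + n + La + 1 ≤ z)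
    (X1 : List α) (hX1 : X1 ∈ (Sc f act Wa z p0 nu1 nu2 lam K c lam2).Bad)
    (X2 : List α) (hX2 : X2 ∈ (Sc f act Wa z p0 nu1 nu2 lam K c lam2).Bad) (x : V) :
    ∃ P ∈ (Sc f act Wa z p0 nu1 nu2 lam K c lam2).L2 x,
      ∃ Q ∈ (Sc f act Wa z p0 nu1 nu2 lam K c lam2).R2
        ((Sc f act Wa z p0 nu1 nu2 lam K c lam2).T
          ((Sc f act Wa z p0 nu1 nu2 lam K c lam2).T x X1) X2), P ++ Q = X1 ++ X2 := by
  have hXX1 : X1 ∈ XX Wa z := hX1.1
  have hXX2 : X2 ∈ XX Wa z := hX2.1
  set w := X1 ++ X2 with hwdef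
  have hwl : w.length = X1.length + X2.length := by rw [hwdef, List.length_append]
  have hl1 := hXX1.1
  have hl2 := hXX2.1
  have hw1 : Wa (w.take X1.length) := by
    rw [hwdef, List.take_left' rfl]; exact hXX1.2.1
  have hw2 : Wa (w.take w.length) := by
    rw [List.take_length, hwdef]
    exact (hloc X1 X2 (by omega)).2 hXX2.2.1
  have exa : ∃ τ, z - p0 ≤ τ ∧ Wa (w.take τ) := ⟨X1.length, by omega, hw1⟩
  have haS := Nat.find_spec exa
  have haM : ∀ s, s < Nat.find exa → ¬ (z - p0 ≤ s ∧ Wa (w.take s)) :=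
    fun s hs' => Nat.find_min exa hs'
  have haL : Nat.find exa ≤ X1.length := Nat.find_min' exa ⟨by omega, hw1⟩
  generalize Nat.find exa = τa at haS haM haL
  have exb : ∃ τ, τa < τ ∧ Wa (w.take τ) := ⟨w.length, by omega, hw2⟩
  have hbS := Nat.find_spec exb
  have hbM : ∀ s, s < Nat.find exb → ¬ (τa < s ∧ Wa (w.take s)) :=
    fun s hs' => Nat.find_min exb hs'
  have hbL : Nat.find exb ≤ w.length := Nat.find_min' exb ⟨by omega, hw2⟩
  generalize Nat.find exb = τb at hbS hbM hbL
  have hab := gap' hgap w τa τb hbS.1 hbL haS.2 hbS.2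
  have haS1 := haS.1
  -- the two kinds of spoiled pairs
  set Ef : Finset (ℕ × ℕ) := (Finset.range K ×ˢ Finset.range K).filter
    (fun ij => ij.1 ≠ ij.2 ∧ ∃ σ, σ ≤ w.length ∧ Wa (w.take σ) ∧
      z + c ij.1 ≤ σ + c ij.2 + N1 ∧ σ + c ij.2 < z + N1 + c ij.1) with hEf
  set Ba : Finset (ℕ × ℕ) := (Finset.range K ×ˢ Finset.range K).filter
    (fun ij => ij.1 ≠ ij.2 ∧ Bd ((τa - p0) + c ij.2 - c ij.1)) with hBa
  set Bb : Finset (ℕ × ℕ) := (Finset.range K ×ˢ Finset.range K).filter
    (fun ij => ij.1 ≠ ij.2 ∧ Bd ((τb - p0) + c ij.2 - c ij.1)) with hBb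
  have hEc : Ef.card ≤ 1 := by
    rw [Finset.card_le_one]
    intro a ha b hb
    rw [hEf, Finset.mem_filter, Finset.mem_product, Finset.mem_range, Finset.mem_range] at ha hb
    obtain ⟨⟨ha1, ha2⟩, ha3, σ, hσ1, hσ2, hσ3, hσ4⟩ := ha
    obtain ⟨⟨hb1, hb2⟩, hb3, σ', hσ1', hσ2', hσ3', hσ4'⟩ := hb
    have q1 := hcle _ ha1
    have q2 := hcle _ ha2
    have q3 := hcle _ hb1
    have q4 := hcle _ hb2
    have hσ : σ = σ' := by
      rcases lt_trichotomy σ σ' with h | h | h
      · have := gap' hgap w σ σ' h hσ1' hσ2 hσ2'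
        omega
      · exact h
      · have := gap' hgap w σ' σ h hσ1 hσ2' hσ2
        omega
    subst hσ
    by_contra hne
    rcases gold a.1 a.2 b.1 b.2 ha1 ha2 hb1 hb2 ha3 hb3 hne with h | h <;> omega
  have hBac : Ba.card ≤ C0 := spoil (τa - p0) (by omega)
  have hBbc : Bb.card ≤ C0 := spoil (τb - p0) (by omega)
  obtain ⟨I, hI1, hI2⟩ := c2 (X1.take p0) x (fun k hk => by
    rw [List.length_take]; have := hcle k hk; omega)
  have hcard : ((Ef ∪ (Ba ∪ Bb)).image Prod.fst).card < I.card := by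
    have h1 := Finset.card_image_le (s := Ef ∪ (Ba ∪ Bb)) (f := Prod.fst)
    have h2 := Finset.card_union_le Ef (Ba ∪ Bb)
    have h3 := Finset.card_union_le Ba Bb
    omega
  obtain ⟨k, hkI, hkS⟩ := Finset.exists_mem_notMem_of_card_lt_card hcard
  obtain ⟨hkK, hlk, hrk⟩ := hI2 k hkI
  obtain ⟨b, hb⟩ := Option.isSome_iff_exists.1 hrk
  have hck := hcle k hkK
  have hun : ∀ k', k' < K → k ≠ k' → (k, k') ∉ Ef ∧ (k, k') ∉ Ba ∧ (k, k') ∉ Bb := by
    intro k' _ _
    refine ⟨fun h => hkS ?_, fun h => hkS ?_, fun h => hkS ?_⟩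
    · exact Finset.mem_image.2 ⟨_, Finset.mem_union_left _ h, rfl⟩
    · exact Finset.mem_image.2 ⟨_, Finset.mem_union_right _ (Finset.mem_union_left _ h), rfl⟩
    · exact Finset.mem_image.2 ⟨_, Finset.mem_union_right _ (Finset.mem_union_right _ h), rfl⟩
  have hgood : ∀ k', k' < K → k ≠ k' → ∀ P' : List α, P'.length = c k' →
      ∃ X ∈ (Sc f act Wa z p0 nu1 nu2 lam K c lam2).Good, X <+: P' ++ w.drop (c k) := by
    intro k' hk' hne P' hP'
    obtain ⟨hE, hA, hB⟩ := hun k' hk' hne
    have hck' := hcle k' hk'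
    rw [← hP'] at hck'
    have hE2 : ∀ σ, σ ≤ w.length → Wa (w.take σ) → z + c k ≤ σ + P'.length + N1 →
        σ + P'.length < z + N1 + c k → False := by
      intro σ h1 h2 h3 h4
      refine hE ?_
      rw [hEf, Finset.mem_filter, Finset.mem_product, Finset.mem_range, Finset.mem_range]
      exact ⟨⟨hkK, hk'⟩, hne, σ, h1, h2, by rw [← hP']; exact h3, by rw [← hP']; exact h4⟩
    have hA2 : ¬ Bd ((τa - p0) + P'.length - c k) := by
      intro h
      refine hA ?_
      rw [hBa, Finset.mem_filter, Finset.mem_product, Finset.mem_range, Finset.mem_range]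
      exact ⟨⟨hkK, hk'⟩, hne, by rw [← hP']; exact h⟩
    have hB2 : ¬ Bd ((τb - p0) + P'.length - c k) := by
      intro h
      refine hB ?_
      rw [hBb, Finset.mem_filter, Finset.mem_product, Finset.mem_range, Finset.mem_range]
      exact ⟨⟨hkK, hk'⟩, hne, by rw [← hP']; exact h⟩
    obtain ⟨τ, hτ1, hτ2, hτ3, hτ4, hτ5, hτ6⟩ : ∃ τ, z - p0 ≤ τ ∧ τ ≤ w.length ∧
        z + c k ≤ τ + P'.length ∧ Wa (w.take τ) ∧
        (∀ s < τ, z + c k ≤ s + P'.length → ¬ Wa (w.take s)) ∧
        ¬ Bd ((τ - p0) + P'.length - c k) := by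
      by_cases h : z + c k ≤ τa + P'.length
      · exact ⟨τa, haS.1, by omega, h, haS.2, fun s hs1 hs2 hs3 =>
          haM s hs1 ⟨by omega, hs3⟩, hA2⟩
      · exact ⟨τb, by omega, hbL, by omega, hbS.2, fun s hs1 hs2 hs3 =>
          hbM s hs1 ⟨by omega, hs3⟩, hB2⟩
    have hX' := XX_shift (z := z) hloc w P' (c k) τ (by omega) (by omega) hτ2 hτ3 hτ4 hτ5
    refine ⟨_, ?_, List.take_prefix (P'.length + (τ - c k)) _⟩
    have hl : ((P' ++ w.drop (c k)).take (P'.length + (τ - c k))).length =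
        P'.length + (τ - c k) := by
      rw [List.length_take, List.length_append, List.length_drop]; omega
    refine good_of (rho := rho) (N1 := N1) (La := La) (Bd := Bd) hloc hlen hs hc (by omega) _
      hX' ?_ ?_ ?_
    · intro t ht1 ht2 hWt
      rw [List.take_take, min_eq_left (by omega)] at hWt
      refine hE2 (t - P'.length + c k) (by omega) ?_ (by omega) (by omega)
      rw [tr hloc w P' (c k) (t - P'.length + c k) (by omega) (by omega) (by omega)]
      have : P'.length + (t - P'.length + c k - c k) = t := by omega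
      rw [this]
      exact hWt
    · rw [hl]
      by_contra hcon
      exact hE2 τ hτ2 hτ4 (by omega) (by omega)
    · rw [hl]
      have : P'.length + (τ - c k) - p0 = (τ - p0) + P'.length - c k := by omega
      rw [this]
      exact hτ6
  have hu : (X1.take p0).length = p0 := by rw [List.length_take]; omega
  have hX1e : X1.take p0 ++ X1.drop p0 = X1 := List.take_append_drop _ _
  have hTk : ∀ (x' : V) (P' : List α), P'.length = c k → lam2 k P' = some x' →
      Tm f act p0 nu1 nu2 x' ((P' ++ (X1.take p0).drop (c k)) ++ X1.drop p0) =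
        act b ((X1.drop p0).map f).prod + nu1 (X1.drop p0) := by
    intro x' P' h1 h2
    have h3 := s2 k hkK P' _ x' b h1 h2 hb
    have h4 : (P' ++ (X1.take p0).drop (c k)).length = p0 := by
      rw [List.length_append, List.length_drop, hu]; omega
    unfold Tm
    rw [List.take_left' h4, List.drop_left' h4, ← h3]
  have hPin : X1.take (c k) ∈ (Sc f act Wa z p0 nu1 nu2 lam K c lam2).L2 x := by
    refine ⟨k, hkK, by rw [List.length_take]; omega, ?_⟩
    rw [List.take_take, min_eq_left hck] at hlk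
    exact hlk
  have hwd : w.drop (c k) = X1.drop (c k) ++ X2 := by
    rw [hwdef, List.drop_append_of_le_length (by omega)]
  have hX1d : (X1.take p0).drop (c k) ++ X1.drop p0 = X1.drop (c k) := by
    rw [← List.drop_append_of_le_length (by rw [hu]; exact hck), hX1e]
  have hTX1 : Tm f act p0 nu1 nu2 x X1 =
      act b ((X1.drop p0).map f).prod + nu1 (X1.drop p0) := by
    have h1 : ((X1.take (c k)) : List α).length = c k := by rw [List.length_take]; omega
    have h2 : lam2 k (X1.take (c k)) = some x := by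
      rw [List.take_take, min_eq_left hck] at hlk
      exact hlk
    have h3 := hTk x _ h1 h2
    rw [List.append_assoc, hX1d, List.take_append_drop] at h3
    exact h3
  refine ⟨X1.take (c k), hPin, X1.drop (c k) ++ X2, ?_, by
    rw [← List.append_assoc, List.take_append_drop]⟩
  intro x' P' hP'
  obtain ⟨k', hk', hl', hlam'⟩ := hP'
  by_cases hkk : k = k'
  · subst hkk
    have hXn : (P' ++ X1.drop (c k)) ∈ XX Wa z := by
      have h := XX_shift (z := z) hloc X1 P' (c k) X1.length (by omega) (by omega) le_rfl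
        (by omega) (by rw [List.take_length]; exact hXX1.2.1)
        (fun s hs1 hs2 => hXX1.2.2 s (by omega) hs1)
      rwa [List.take_of_length_le (by
        rw [List.length_append, List.length_drop])] at h
    have hTn : Tm f act p0 nu1 nu2 x' (P' ++ X1.drop (c k)) = Tm f act p0 nu1 nu2 x X1 := by
      rw [hTX1, ← hTk x' P' hl' hlam', List.append_assoc, hX1d]
    by_cases hG : (P' ++ X1.drop (c k)) ∈ (Sc f act Wa z p0 nu1 nu2 lam K c lam2).Good
    · right; left
      exact ⟨_, hG, by rw [← List.append_assoc]; exact List.prefix_append _ _⟩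
    · left
      refine ⟨P' ++ X1.drop (c k), ⟨hXn, hG⟩, X2, hX2, by rw [List.append_assoc], ?_⟩
      show Tm f act p0 nu1 nu2 (Tm f act p0 nu1 nu2 x' (P' ++ X1.drop (c k))) X2 = _
      rw [hTn]
      rfl
  · right; left
    obtain ⟨X, hX, hp⟩ := hgood k' hk' hkk P' hl'
    exact ⟨X, hX, by rw [← hwd]; exact hp⟩

end scheme

end Crest.Agent.R320.Inst_611
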