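import Mathlib
import Crest.Agent.R320.Blk_623

/-!
# Row 320: (s1), (s2), (cc) of 163's `top` from a zone gadget for scheme 1

Chain of 852 #13483 (2): `z = p0 + q + N1`, blocks = first left looking wall at a place `≥ z`.
Scheme 1: `P = X0 ++ P'`, `|X0| = p0`, `|P'| < N1`; right word ends in its first wall at a place
`≥ q` and has length `≥ q + N1`.
-/

set_option autoImplicit false

namespace Crest.Agent.R320.Inst_623

open Crest.Agent.R320.P3_623 Crest.Agent.R320.Blk_623

section defs

variable {A S V : Type} [Monoid S] [AddCommGroup V]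

/-- zone map -/
def T (φ : List A → S) (act : V → S → V) (p0 : ℕ) (nu1 nu2 : List A → V) (v : V)
    (X : List A) : V :=
  act (act v (φ (X.take p0)) + nu2 (X.take p0)) (φ (X.drop p0)) + nu1 (X.drop p0)

/-- noise of both gadgets -/
def nu (φ : List A → S) (act : V → S → V) (p0 : ℕ) (nu1 nu2 : List A → V) (X : List A) : V :=
  act (nu2 (X.take p0)) (φ (X.drop p0)) + nu1 (X.drop p0)

theorem T_eq (φ : List A → S) (hφ : ∀ u v, φ (u ++ v) = φ u * φ v) (act : V → S → V)
    (act_mul : ∀ v s s', act (act v s) s' = act v (s * s'))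
    (act_add : ∀ v w s, act (v + w) s = act v s + act w s)
    (p0 : ℕ) (nu1 nu2 : List A → V) (v : V) (X : List A) :
    T φ act p0 nu1 nu2 v X = act v (φ X) + nu φ act p0 nu1 nu2 X := by
  unfold T nu
  have h : φ X = φ (X.take p0) * φ (X.drop p0) := by
    conv_lhs => rw [← List.take_append_drop p0 X]
    rw [hφ]
  rw [h, ← act_mul, act_add, add_assoc]

/-- left labels of scheme 1 -/
def L1 (φ : List A → S) (act : V → S → V) (p0 : ℕ) (nu2 : List A → V)
    (lam1 : List A → Option V) (P : List A) (v : V) : Prop :=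
  p0 ≤ P.length ∧ lam1 (P.drop p0) = some (act v (φ (P.take p0)) + nu2 (P.take p0))

/-- chain condition for right words of scheme 1 -/
def QQ (Wo : List A → Prop) (q N1 : ℕ) (Q : List A) : Prop :=
  q + N1 ≤ Q.length ∧ Wo Q ∧ ∀ y, q ≤ y → y < Q.length → ¬ Wo (Q.take y)

open Classical in
/-- right labels of scheme 1 -/
noncomputable def R1 (Wo : List A → Prop) (q N1 : ℕ) (rho1 : List A → Option V) (Q : List A) :
    Option V :=
  if QQ Wo q N1 Q then rho1 Q else none

theorem R1_iff {Wo : List A → Prop} {q N1 : ℕ} {rho1 : List A → Option V} {Q : List A} {b : V} :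
    R1 Wo q N1 rho1 Q = some b ↔ QQ Wo q N1 Q ∧ rho1 Q = some b := by
  unfold R1
  split_ifs with h
  · simp [h]
  · simp [h]

end defs

theorem main {A S V κ : Type} [Monoid S] [Fintype S] [Fintype V] [AddCommGroup V] [Fintype κ]
    (φ : List A → S) (hφ1 : φ [] = 1) (hφ : ∀ u v, φ (u ++ v) = φ u * φ v)
    (act : V → S → V) (act_mul : ∀ v s s', act (act v s) s' = act v (s * s'))
    (act_add : ∀ v w s, act (v + w) s = act v s + act w s) :
    ∃ K : ℕ, ∀ c : ℕ → ℕ, (∀ i j, i < j → j < K → c i < c j) →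
      ∀ p0 : ℕ, (∀ k < K, c k ≤ p0) →
      ∃ (nu2 : List A → V) (lam : ℕ → List A → Option V) (rho : ℕ → List A → S → Option V),
      ∀ (n N1 q : ℕ) (Wo : List A → Prop) (Bc : κ → ℕ → Prop)
        (lam1 rho1 : List A → Option V) (nu1 : List A → V),
        LRule Wo n → n ≤ q → 0 < N1 →
        (∀ (T : List A) (y y' : ℕ), y < y' → y' ≤ T.length → Wo (T.take y) →
          Wo (T.take y') → 2 * p0 + 2 * N1 < y' - y) →
        (∀ k k' l l', k < K → k' < K → l < K → l' < K → k' ≠ k → l' ≠ l →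
          c k + c l' < c l + c k' + 2 * N1 → c l + c k' < c k + c l' + 2 * N1 → k = l) →
        (∀ j n n' k k' l l', k < K → k' < K → l < K → l' < K → k' ≠ k → l' ≠ l →
          Bc j n → Bc j n' → n + c k + c l' = n' + c l + c k' → k = l) →
        (∀ P v, lam1 P = some v → P.length < N1) →
        (∀ P Q v v', lam1 P = some v → rho1 Q = some v' →
          v' = act v (φ (P ++ Q)) + nu1 (P ++ Q)) →
        (∀ X, (¬ ∃ j, Bc j X.length) → ∀ v, ∃ P Q, P ++ Q = X ∧ lam1 P = some v ∧
          (rho1 Q).isSome) →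
        -- conclusion: the hypotheses of 163's `top` except P4
        (([] : List A) ∉ XX Wo (p0 + q + N1)) ∧
        (∀ X ∈ XX Wo (p0 + q + N1), ∀ Y, X ++ Y ∈ XX Wo (p0 + q + N1) → Y = []) ∧
        (∀ X ∈ XX Wo (p0 + q + N1), ∀ v,
          T φ act p0 nu1 nu2 v X = act v (φ X) + nu φ act p0 nu1 nu2 X) ∧
        (∀ Q b, R1 Wo q N1 rho1 Q = some b → Q ≠ []) ∧
        (∀ Q b, R2 φ act K c p0 (XX Wo (p0 + q + N1))
          (Bad Wo (p0 + q + N1) N1 p0 (fun n => ∃ j, Bc j n)) nu1
          (T φ act p0 nu1 nu2) rho Q = some b → Q ≠ []) ∧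
        (∀ P v Q b, L1 φ act p0 nu2 lam1 P v → R1 Wo q N1 rho1 Q = some b →
          P ++ Q ∈ XX Wo (p0 + q + N1) ∧ T φ act p0 nu1 nu2 v (P ++ Q) = b) ∧
        (∀ P v Q b, L2 K c lam P v → R2 φ act K c p0 (XX Wo (p0 + q + N1))
          (Bad Wo (p0 + q + N1) N1 p0 (fun n => ∃ j, Bc j n)) nu1
          (T φ act p0 nu1 nu2) rho Q = some b →
          (∀ X ∈ XX Wo (p0 + q + N1), X <+: P ++ Q → ∀ P' Q', X = P' ++ Q' →
            P.length ≤ P'.length → L1 φ act p0 nu2 lam1 P' v →
            (R1 Wo q N1 rho1 Q').isSome → False) →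
          ∃ Q1 X2, Q = Q1 ++ X2 ∧ Q1 ≠ [] ∧ P ++ Q1 ∈ XX Wo (p0 + q + N1) ∧
            X2 ∈ XX Wo (p0 + q + N1) ∧
            T φ act p0 nu1 nu2 (T φ act p0 nu1 nu2 v (P ++ Q1)) X2 = b) ∧
        (∀ X ∈ XX Wo (p0 + q + N1), ∀ X2 ∈ XX Wo (p0 + q + N1), ∀ v,
          (∃ P Q, X = P ++ Q ∧ L1 φ act p0 nu2 lam1 P v ∧ (R1 Wo q N1 rho1 Q).isSome) ∨
          (∃ P Q, X ++ X2 = P ++ Q ∧ P.length < X.length ∧ L2 K c lam P v ∧
            (R2 φ act K c p0 (XX Wo (p0 + q + N1))
              (Bad Wo (p0 + q + N1) N1 p0 (fun n => ∃ j, Bc j n)) nu1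
              (T φ act p0 nu1 nu2) rho Q).isSome)) := by
  classical
  obtain ⟨K, hK⟩ := scheme2 φ hφ1 hφ act (2 + 2 * Fintype.card κ)
  refine ⟨K, fun c hc p0 hcp => ?_⟩
  obtain ⟨nu2, lam, rho, h2⟩ := hK c hc p0 hcp
  refine ⟨nu2, lam, rho, ?_⟩
  intro n N1 q Wo Bc lam1 rho1 nu1 hW hnq hN1 gap hgol hthin glen gsound gcomp
  set z : ℕ := p0 + q + N1 with hz
  have hlenX : ∀ X ∈ XX Wo z, p0 < X.length := by
    intro X hX
    have := hX.1
    omega
  obtain ⟨s2, c2⟩ := h2 (XX Wo z) (Bad Wo z N1 p0 (fun n => ∃ j, Bc j n)) nu1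
    (T φ act p0 nu1 nu2) (fun X _ v => rfl) hlenX hPC (hXX hW (by omega))
    (hBad hW (by omega))
    (fun X hX X2 hX2 _ k hk k' hk' => hnext hW hcp (by omega) X hX X2 hX2 k hk k' hk')
    (fun X hX X2 hX2 _ I hI => hspoil hW hcp (by omega) (by omega) gap hgol hthin
      X hX X2 hX2 I hI)
  -- completeness of scheme 1
  have cpl1 : ∀ X ∈ XX Wo z, ¬ Bad Wo z N1 p0 (fun n => ∃ j, Bc j n) X → ∀ v, ∃ P Q,
      X = P ++ Q ∧ L1 φ act p0 nu2 lam1 P v ∧ (R1 Wo q N1 rho1 Q).isSome := by
    intro X hX hnb v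
    have hX1 := hX.1
    unfold Bad at hnb
    push Not at hnb
    obtain ⟨hE, hB⟩ := hnb
    have hXl : z + N1 ≤ X.length := by
      by_contra hlt
      refine hE X.length (by omega) (by omega) le_rfl ?_
      rw [List.take_length]
      exact hX.2.1
    obtain ⟨P', Q', hPQ, hlam, hrho⟩ := gcomp (X.drop p0) (by
      rw [List.length_drop]
      push Not
      exact hB) (act v (φ (X.take p0)) + nu2 (X.take p0))
    have hPl := glen _ _ hlam
    have hX0 : (X.take p0).length = p0 := by rw [List.length_take]; omega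
    have hXe : X = (X.take p0 ++ P') ++ Q' := by
      rw [List.append_assoc, hPQ, List.take_append_drop]
    have hlens : X.length = p0 + P'.length + Q'.length := by
      conv_lhs => rw [hXe]
      rw [List.length_append, List.length_append, hX0]
    refine ⟨X.take p0 ++ P', Q', hXe, ⟨?_, ?_⟩, ?_⟩
    · rw [List.length_append, hX0]; omega
    · rw [List.drop_append_of_le_length (by rw [hX0]), List.drop_of_length_le (by rw [hX0]),
        List.nil_append, List.take_append_of_le_length (by rw [hX0]),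
        List.take_of_length_le (by rw [hX0])]
      exact hlam
    · obtain ⟨b, hb⟩ := Option.isSome_iff_exists.1 hrho
      rw [Option.isSome_iff_exists]
      refine ⟨b, R1_iff.2 ⟨⟨by omega, ?_, ?_⟩, hb⟩⟩
      · rw [← hW.look (X.take p0 ++ P') Q' (by omega), ← hXe]
        exact hX.2.1
      · intro y hy1 hy2 hc1
        have hyl : n ≤ (Q'.take y).length := by rw [List.length_take]; omega
        rw [← hW.look (X.take p0 ++ P') _ hyl] at hc1
        have he : X.take (p0 + P'.length + y) = (X.take p0 ++ P') ++ Q'.take y := by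
          conv_lhs => rw [hXe]
          have hpl : (X.take p0 ++ P').length = p0 + P'.length := by
            rw [List.length_append, hX0]
          rw [List.take_append, List.take_of_length_le (by rw [hpl]; omega), hpl,
            Nat.add_sub_cancel_left]
        rw [← he] at hc1
        rcases Nat.lt_or_ge (p0 + P'.length + y) (z + N1) with h | h
        · exact hE _ (by omega) h (by omega) hc1
        · exact hX.2.2 _ (by omega) (by omega) hc1
  refine ⟨?_, hPC, fun X _ v => T_eq φ hφ act act_mul act_add p0 nu1 nu2 v X, ?_, ?_, ?_, ?_, ?_⟩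
  · rintro ⟨h, -⟩
    simp only [List.length_nil] at h
    omega
  · intro Q b hQ hnil
    subst hnil
    obtain ⟨⟨h, -⟩, -⟩ := R1_iff.1 hQ
    simp only [List.length_nil] at h
    omega
  · intro Q b hQ hnil
    subst hnil
    rw [R2_iff hcp hPC (hXX hW (by omega))] at hQ
    obtain ⟨_, k, _, _, _, P0, Q1, X2, b', hQe, _, _, hX2, _⟩ := hQ
    have h1 := hX2.1
    have h3 := congrArg List.length hQe
    rw [List.length_nil, List.length_append] at h3
    omega
  · intro P v Q b hL hR
    obtain ⟨hp, hlam⟩ := hL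
    obtain ⟨⟨hQ1, hQ2, hQ3⟩, hrho⟩ := R1_iff.1 hR
    have hPl := glen _ _ hlam
    rw [List.length_drop] at hPl
    refine ⟨⟨?_, ?_, ?_⟩, ?_⟩
    · rw [List.length_append]; omega
    · rw [hW.look _ _ (by omega)]
      exact hQ2
    · intro y hy1 hy2 hc1
      rw [List.length_append] at hy2
      have e1 : (P ++ Q).take y = P ++ Q.take (y - P.length) := by
        rw [List.take_append, List.take_of_length_le (by omega)]
      have e2 : n ≤ (Q.take (y - P.length)).length := by rw [List.length_take]; omega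
      rw [e1, hW.look _ _ e2] at hc1
      exact hQ3 _ (by omega) (by omega) hc1
    · have hs := gsound _ _ _ _ hlam hrho
      unfold T
      rw [List.take_append_of_le_length hp, List.drop_append_of_le_length hp, ← hs]
  · intro P v Q b hL hR hprom
    refine s2 P v Q b hL hR ?_
    intro X hX hpre
    by_contra hnb
    obtain ⟨P', Q', hXe, hL1, hR1⟩ := cpl1 X hX hnb v
    obtain ⟨k, hk, hPk, -⟩ := hL
    have h1 := hcp k hk
    exact hprom X hX hpre P' Q' hXe (by have := hL1.1; omega) hL1 hR1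
  · intro X hX X2 hX2 v
    by_cases hb : Bad Wo z N1 p0 (fun n => ∃ j, Bc j n) X
    · right
      obtain ⟨P, Q, h1, h2, _, h4, h5⟩ := c2 X hX X2 hX2 hb v
      exact ⟨P, Q, h1, h2, h4, h5⟩
    · left
      exact cpl1 X hX hb v

end Crest.Agent.R320.Inst_623
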