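import Crest.Agent.R320.SemTop_727
import Crest.Agent.R320.ExactR_237
import Crest.Agent.R320.Fib_64

/-!
# Row 320: the two schemes on all words in 727's semantic form

Left-looking walls on all words, natural chain rule, 118's one zone map, an abstract unit gadget
(`Gad`, scheme 1) and 237's exact gadget (scheme 2) with a wide Golomb ruler.
-/

set_option autoImplicit false

namespace Crest.Agent.R320.Inst_64

open Crest.RegLang Crest.Agent.R320.Hk_851 Crest.Agent.R320.Blk467 Crest.Agent.R320.SemTop_727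
open Crest.Agent.R320.Fib_64 Finset

/-- left-looking walls -/
structure Walls {α : Type} (n W : ℕ) (Wo : List α → Prop) : Prop where
  loc : ∀ P Q : List α, n ≤ Q.length → (Wo (P ++ Q) ↔ Wo Q)
  len : ∀ Q, Wo Q → n ≤ Q.length
  gap : ∀ (X : List α) (s t : ℕ), s < t → t ≤ X.length → Wo (X.take s) → Wo (X.take t) → W < t - s

/-- the unit gadget of scheme 1 -/
structure Gad {α S V : Type} [Monoid S] [AddCommGroup V] (f : α → S) (act : V → S → V) (N1 : ℕ)
    (Bad : ℕ → Prop) where
  lam : List α → Option V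
  rho : List α → Option V
  nu : List α → V
  lamlen : ∀ P v, lam P = some v → P.length < N1
  sound : ∀ (P Q : List α) (v b : V), N1 ≤ Q.length → lam P = some v → rho Q = some b →
    b = act v (((P ++ Q).map f).prod) + nu (P ++ Q)
  compl : ∀ u : List α, 2 * N1 ≤ u.length → ¬ Bad u.length → ∀ v, ∃ P Q, P ++ Q = u ∧
    lam P = some v ∧ (rho Q).isSome

section

variable {α S V : Type} [Monoid S] [AddCommGroup V] {f : α → S} {act : V → S → V} {N1 : ℕ}
  {BadT : ℕ → Prop}

theorem wtake {n W : ℕ} {Wo : List α → Prop} (hW : Walls n W Wo) (P Q : List α) {i : ℕ}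
    (hi : n ≤ i) (hiQ : i ≤ Q.length) : Wo ((P ++ Q).take (P.length + i)) ↔ Wo (Q.take i) := by
  rw [List.take_length_add_append]
  exact hW.loc P _ (by rw [List.length_take]; omega)

variable (g : Gad f act N1 BadT) (Wo : List α → Prop) (z p0 K : ℕ) (c : ℕ → ℕ)
  (lam2 : ℕ → List α → Option V) (nu2 : List α → V)

/-- the two schemes -/
def D : Sch α V where
  XX := XX z Wo
  T := TT f act p0 g.nu nu2
  L1 := fun x => {P | p0 ≤ P.length ∧
    g.lam (P.drop p0) = some (act x ((P.take p0).map f).prod + nu2 (P.take p0))}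
  L2 := fun x => {P | ∃ k, k < K ∧ P.length = c k ∧ lam2 k P = some x}

theorem T_eq {x b : V} {P Q : List α} (hP : P ∈ (D g Wo z p0 K c lam2 nu2).L1 x)
    (hQ : N1 ≤ Q.length) (hb : g.rho Q = some b) :
    (D g Wo z p0 K c lam2 nu2).T x (P ++ Q) = b := by
  obtain ⟨h1, h2⟩ := hP
  have h3 := g.sound (P.drop p0) Q _ b hQ h2 hb
  change TT f act p0 g.nu nu2 x (P ++ Q) = b
  unfold TT
  rw [List.take_append_of_le_length h1, List.drop_append_of_le_length h1]
  exact h3.symm

/-- scheme 1 is complete away from the wall band and the thin set of lengths -/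
theorem good_of {n W : ℕ} {Wo : List α → Prop} (hW : Walls n W Wo)
    (hz : p0 + 2 * N1 + n ≤ z) {X : List α} (hX : X ∈ XX z Wo)
    (hE1 : ∀ j, z ≤ j + N1 → j < z → ¬ Wo (X.take j)) (hE2 : z + N1 ≤ X.length)
    (hB : ¬ BadT (X.length - p0)) : X ∈ (D g Wo z p0 K c lam2 nu2).Good := by
  refine ⟨hX, fun x => ?_⟩
  obtain ⟨P1, Q, hPQ, hlam, hrho⟩ := g.compl (X.drop p0)
    (by rw [List.length_drop]; omega) (by rw [List.length_drop]; exact hB)
    (act x ((X.take p0).map f).prod + nu2 (X.take p0))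
  obtain ⟨b, hb⟩ := Option.isSome_iff_exists.1 hrho
  have hP1 := g.lamlen _ _ hlam
  have hX0 : (X.take p0).length = p0 := by rw [List.length_take]; omega
  have hXe : X.take p0 ++ P1 ++ Q = X := by
    rw [List.append_assoc, hPQ, List.take_append_drop]
  have hlenX : X.length = p0 + P1.length + Q.length := by
    have := congrArg List.length hXe
    simp only [List.length_append] at this
    omega
  have hPL : X.take p0 ++ P1 ∈ (D g Wo z p0 K c lam2 nu2).L1 x := by
    refine ⟨by rw [List.length_append]; omega, ?_⟩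
    rw [List.drop_append_of_le_length hX0.ge, List.take_append_of_le_length hX0.ge,
      List.drop_of_length_le hX0.le, List.nil_append, List.take_of_length_le hX0.le]
    exact hlam
  have hTX : (D g Wo z p0 K c lam2 nu2).T x X = b := by
    have h := T_eq g Wo z p0 K c lam2 nu2 hPL (by omega) hb
    rwa [hXe] at h
  refine ⟨X.take p0 ++ P1, hPL, Q, ?_, hXe⟩
  intro x' P' hP'
  rw [hTX]
  refine ⟨?_, T_eq g Wo z p0 K c lam2 nu2 hP' (by omega) hb⟩
  have h1 : p0 ≤ P'.length := hP'.1
  have h2 : (P'.drop p0).length < N1 := g.lamlen _ _ hP'.2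
  rw [List.length_drop] at h2
  have hWQ : Wo Q := by
    rw [← hW.loc (X.take p0 ++ P1) Q (by omega), hXe]
    exact hX.2.1
  refine ⟨by rw [List.length_append]; omega, (hW.loc P' Q (by omega)).2 hWQ, ?_⟩
  intro j hj hjl hw
  rw [List.length_append] at hjl
  have e1 : j = P'.length + (j - P'.length) := by omega
  rw [e1, wtake hW P' Q (by omega) (by omega),
    ← wtake hW (X.take p0 ++ P1) Q (by omega) (by omega), hXe, List.length_append, hX0] at hw
  by_cases hlt : p0 + P1.length + (j - P'.length) < z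
  · exact hE1 _ (by omega) hlt hw
  · exact hX.2.2 _ (by omega) (by omega) hw

end

/-- the ruler of scheme 2 -/
structure Ruler (K C0 N1 : ℕ) (c : ℕ → ℕ) (BadT : ℕ → Prop) : Prop where
  inc : ∀ i j, i < j → j < K → c i < c j
  gol : ∀ a b a' b', a < K → b < K → a' < K → b' < K → a ≠ b → a' ≠ b' →
    c b + c a' < c b' + c a + 2 * N1 → c b' + c a < c b + c a' + 2 * N1 → a = a' ∧ b = b'
  spoil : ∀ T, (∀ a, a < K → c a ≤ T) →
    ∀ F : Finset ℕ, (∀ a ∈ F, a < K ∧ ∃ b, b < K ∧ b ≠ a ∧ BadT (T + c b - c a)) → F.card ≤ C0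

section

variable {α : Type} {K C0 N1 n W z p0 : ℕ} {c : ℕ → ℕ} {BadT : ℕ → Prop} {Wo : List α → Prop}

/-- the places `a` for which a wrong hypothesis `b` looks bad on the text `w` -/
def Spoiled (Wo : List α → Prop) (z p0 K N1 : ℕ) (c : ℕ → ℕ) (BadT : ℕ → Prop) (w : List α)
    (a : ℕ) : Prop :=
  ∃ b, b < K ∧ b ≠ a ∧ ((∃ t, t ≤ w.length ∧ Wo (w.take t) ∧ z + c a ≤ t + c b + N1 ∧
      t + c b < z + N1 + c a) ∨
    (∃ t, t ≤ w.length ∧ Wo (w.take t) ∧ z + c a ≤ t + c b ∧
      (∀ t', t' < t → z + c a ≤ t' + c b → ¬ Wo (w.take t')) ∧ BadT (t + c b - c a - p0)))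

theorem spoil_count (hW : Walls n W Wo) (hR : Ruler K C0 N1 c BadT)
    (hc : ∀ a, a < K → c a ≤ p0) (hgap : 2 * (p0 + N1) ≤ W) (hz : 3 * p0 ≤ z) (w : List α)
    (F : Finset ℕ) (hF : ∀ a ∈ F, a < K ∧ Spoiled Wo z p0 K N1 c BadT w a) :
    F.card ≤ 2 * C0 + 1 := by
  classical
  let F0 := F.filter fun a => ∃ b, b < K ∧ b ≠ a ∧ ∃ t, t ≤ w.length ∧ Wo (w.take t) ∧
    z + c a ≤ t + c b + N1 ∧ t + c b < z + N1 + c a
  have h0 : F0.card ≤ 1 := by
    rw [Finset.card_le_one]
    intro a ha a' ha'
    obtain ⟨haF, b, hb, hba, t, ht, hwt, e1, e2⟩ := Finset.mem_filter.1 ha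
    obtain ⟨haF', b', hb', hba', t', ht', hwt', e1', e2'⟩ := Finset.mem_filter.1 ha'
    have hca := hc a (hF a haF).1
    have hca' := hc a' (hF a' haF').1
    have hcb := hc b hb
    have hcb' := hc b' hb'
    have ett : t = t' := by
      rcases lt_trichotomy t t' with h | h | h
      · have := hW.gap w t t' h ht' hwt hwt'; omega
      · exact h
      · have := hW.gap w t' t h ht hwt' hwt; omega
    subst ett
    exact (hR.gol a b a' b' (hF a haF).1 hb (hF a' haF').1 hb' (Ne.symm hba) (Ne.symm hba')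
      (by omega) (by omega)).1
  have hTs : ∃ T1 T2, (∀ a, a < K → c a ≤ T1) ∧ (∀ a, a < K → c a ≤ T2) ∧
      ∀ a ∈ F, a ∉ F0 → (∃ b, b < K ∧ b ≠ a ∧ BadT (T1 + c b - c a)) ∨
        ∃ b, b < K ∧ b ≠ a ∧ BadT (T2 + c b - c a) := by
    have g1 : ∃ T1, (∀ a, a < K → c a ≤ T1) ∧ ∀ t, t ≤ w.length → Wo (w.take t) →
        z ≤ t + p0 → t < z + p0 → t = T1 + p0 := by
      by_cases h1 : ∃ t, t ≤ w.length ∧ Wo (w.take t) ∧ z ≤ t + p0 ∧ t < z + p0
      · obtain ⟨t, a1, a2, a3, a4⟩ := h1
        refine ⟨t - p0, fun a ha => by have := hc a ha; omega, ?_⟩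
        intro t' b1 b2 b3 b4
        rcases lt_trichotomy t t' with h | h | h
        · have := hW.gap w t t' h b1 a2 b2; omega
        · omega
        · have := hW.gap w t' t h a1 b2 a2; omega
      · exact ⟨p0, hc, fun t a1 a2 a3 a4 => absurd ⟨t, a1, a2, a3, a4⟩ h1⟩
    have g2 : ∃ T2, (∀ a, a < K → c a ≤ T2) ∧ ∀ t, t ≤ w.length → Wo (w.take t) →
        z + p0 ≤ t → (∀ t', t' < t → z + p0 ≤ t' → ¬ Wo (w.take t')) → t = T2 + p0 := by
      by_cases h1 : ∃ t, t ≤ w.length ∧ Wo (w.take t) ∧ z + p0 ≤ t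
      · obtain ⟨a1, a2, a3⟩ := Nat.find_spec h1
        refine ⟨Nat.find h1 - p0, fun a ha => by have := hc a ha; omega, ?_⟩
        intro t' b1 b2 b3 b4
        rcases lt_trichotomy (Nat.find h1) t' with h | h | h
        · exact absurd a2 (b4 _ h a3)
        · omega
        · exact absurd ⟨b1, b2, b3⟩ (Nat.find_min h1 h)
      · exact ⟨p0, hc, fun t a1 a2 a3 _ => absurd ⟨t, a1, a2, a3⟩ h1⟩
    obtain ⟨T1, hT1, k1⟩ := g1
    obtain ⟨T2, hT2, k2⟩ := g2
    refine ⟨T1, T2, hT1, hT2, ?_⟩
    intro a ha hna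
    obtain ⟨haK, b, hb, hba, h | ⟨t, a1, a2, a3, a4, a5⟩⟩ := hF a ha
    · exact absurd (Finset.mem_filter.2 ⟨ha, b, hb, hba, h⟩) hna
    · have hca := hc a haK
      have hcb := hc b hb
      by_cases ht : t < z + p0
      · left
        have := k1 t a1 a2 (by omega) ht
        refine ⟨b, hb, hba, ?_⟩
        rwa [show t + c b - c a - p0 = T1 + c b - c a by have := hT1 a haK; omega] at a5
      · right
        have := k2 t a1 a2 (by omega) (fun t' b1 b2 => a4 t' b1 (by omega))
        refine ⟨b, hb, hba, ?_⟩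
        rwa [show t + c b - c a - p0 = T2 + c b - c a by have := hT2 a haK; omega] at a5
  obtain ⟨T1, T2, hT1, hT2, hcov⟩ := hTs
  let F1 := F.filter fun a => ∃ b, b < K ∧ b ≠ a ∧ BadT (T1 + c b - c a)
  let F2 := F.filter fun a => ∃ b, b < K ∧ b ≠ a ∧ BadT (T2 + c b - c a)
  have h1 : F1.card ≤ C0 := hR.spoil T1 hT1 F1 fun a ha =>
    ⟨(hF a (Finset.mem_filter.1 ha).1).1, (Finset.mem_filter.1 ha).2⟩
  have h2 : F2.card ≤ C0 := hR.spoil T2 hT2 F2 fun a ha =>
    ⟨(hF a (Finset.mem_filter.1 ha).1).1, (Finset.mem_filter.1 ha).2⟩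
  have hsub : F ⊆ F0 ∪ (F1 ∪ F2) := by
    intro a ha
    rw [Finset.mem_union, Finset.mem_union]
    by_cases h : a ∈ F0
    · exact Or.inl h
    · rcases hcov a ha h with h' | h'
      · exact Or.inr (Or.inl (Finset.mem_filter.2 ⟨ha, h'⟩))
      · exact Or.inr (Or.inr (Finset.mem_filter.2 ⟨ha, h'⟩))
  have := Finset.card_le_card hsub
  have := Finset.card_union_le F0 (F1 ∪ F2)
  have := Finset.card_union_le F1 F2
  omega

end

section

variable {α S V : Type} [Monoid S] [AddCommGroup V] {f : α → S} {act : V → S → V}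
  {K C0 N1 n W z p0 : ℕ} {c : ℕ → ℕ} {BadT : ℕ → Prop} {Wo : List α → Prop}

theorem take_mid {A B C : List α} {i j : ℕ} (h : A.length = i) (hB : B.length = j) :
    (A ++ B ++ C).take (i + j) = A ++ B := by
  rw [← h, ← hB, ← List.length_append, List.take_left]

/-- scheme 2 is complete on two consecutive bad blocks -/
theorem hC2 (g : Gad f act N1 BadT) (hW : Walls n W Wo) (hR : Ruler K C0 N1 c BadT)
    (hc : ∀ a, a < K → c a ≤ p0) (hgap : 2 * (p0 + N1) ≤ W)
    (hz : 4 * p0 + 4 * N1 + n ≤ z)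
    (lam2 : ℕ → List α → Option V) (rho2 : ℕ → List α → S → Option V) (nuE : List α → S → V)
    (hsound : ∀ k < K, ∀ (P Q : List α) (y : S) (v b : V), P.length = c k →
      lam2 k P = some v → rho2 k Q y = some b →
        b = act v ((((P ++ Q).map f).prod) * y) + nuE (P ++ Q) y)
    (hcompl : ∀ (u : List α) (y : S) (v : V), (∀ k < K, c k ≤ u.length) →
      ∃ I : Finset ℕ, 2 * C0 + 2 ≤ I.card ∧ ∀ k ∈ I, k < K ∧ lam2 k (u.take (c k)) = some v ∧
        (rho2 k (u.drop (c k)) y).isSome)
    (X1 X2 : List α) (x : V)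
    (hX1 : X1 ∈ (D g Wo z p0 K c lam2 fun X => nuE X 1).Bad)
    (hX2 : X2 ∈ (D g Wo z p0 K c lam2 fun X => nuE X 1).Bad) :
    ∃ P ∈ (D g Wo z p0 K c lam2 fun X => nuE X 1).L2 x,
      ∃ Q ∈ (D g Wo z p0 K c lam2 fun X => nuE X 1).R2
        ((D g Wo z p0 K c lam2 fun X => nuE X 1).T
          ((D g Wo z p0 K c lam2 fun X => nuE X 1).T x X1) X2), P ++ Q = X1 ++ X2 := by
  classical
  set E := D g Wo z p0 K c lam2 fun X => nuE X 1 with hE
  have hX1' : X1 ∈ XX z Wo := hX1.1
  have hX2' : X2 ∈ XX z Wo := hX2.1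
  have hl1 := hX1'.1
  have hl2 := hX2'.1
  obtain ⟨I, hI, hIk⟩ := hcompl (X1.take p0) 1 x (fun k hk => by
    rw [List.length_take]; have := hc k hk; omega)
  -- an unspoiled place
  obtain ⟨k, hkI, hks⟩ : ∃ k ∈ I, ¬ Spoiled Wo z p0 K N1 c BadT (X1 ++ X2) k := by
    by_contra hcon
    push Not at hcon
    have := spoil_count hW hR hc hgap (by omega) (X1 ++ X2) I
      (fun a ha => ⟨(hIk a ha).1, hcon a ha⟩)
    omega
  obtain ⟨hkK, hlam, hrho⟩ := hIk k hkI
  obtain ⟨b, hb⟩ := Option.isSome_iff_exists.1 hrho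
  have hck := hc k hkK
  rw [List.take_take, min_eq_left hck] at hlam
  have hlP : (X1.take (c k)).length = c k := by rw [List.length_take]; omega
  have hlQ : (X1.drop (c k)).length = X1.length - c k := List.length_drop
  refine ⟨X1.take (c k), ⟨k, hkK, hlP, hlam⟩, X1.drop (c k) ++ X2, ?_,
    by rw [← List.append_assoc, List.take_append_drop]⟩
  intro x' P' hP'
  obtain ⟨k', hk'K, hlP', hlam'⟩ := hP'
  have hck' := hc k' hk'K
  have hWX2 : Wo X2 := hX2'.2.1
  by_cases hkk : k' = k
  · subst hkk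
    -- the same place: same token behind the block
    have hXX : P' ++ X1.drop (c k') ∈ XX z Wo := by
      refine ⟨by rw [List.length_append]; omega, ?_, ?_⟩
      · rw [hW.loc P' _ (by omega), ← hW.loc (X1.take (c k')) _ (by omega),
          List.take_append_drop]
        exact hX1'.2.1
      · intro j hj hjl hw
        rw [List.length_append] at hjl
        have e1 : j = P'.length + (j - P'.length) := by omega
        rw [e1, wtake hW P' _ (by omega) (by omega),
          ← wtake hW (X1.take (c k')) _ (by omega) (by omega), List.take_append_drop] at hw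
        exact hX1'.2.2 _ (by omega) (by omega) hw
    have hT0 : ∀ (x0 : V) (P0 : List α), P0.length = c k' → lam2 k' P0 = some x0 →
        E.T x0 (P0 ++ X1.drop (c k')) =
          act b (((X1.drop p0).map f).prod) + g.nu (X1.drop p0) := by
      intro x0 P0 hlP0 hlam0
      change TT f act p0 g.nu (fun X => nuE X 1) x0 (P0 ++ X1.drop (c k')) = _
      have e1 : (P0 ++ X1.drop (c k')).take p0 = P0 ++ (X1.take p0).drop (c k') := by
        rw [List.take_append, hlP0, List.take_of_length_le (by omega), List.drop_take]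
      have e2 : (P0 ++ X1.drop (c k')).drop p0 = X1.drop p0 := by
        rw [List.drop_append, hlP0, List.drop_of_length_le (by omega), List.nil_append,
          List.drop_drop]
        congr 1
        omega
      unfold TT
      rw [e1, e2]
      have := hsound k' hk'K P0 ((X1.take p0).drop (c k')) 1 x0 b hlP0 hlam0 hb
      rw [mul_one] at this
      rw [← this]
    have hTx' : E.T x' (P' ++ X1.drop (c k')) = E.T x X1 := by
      rw [hT0 x' P' hlP' hlam']
      have := hT0 x (X1.take (c k')) hlP hlam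
      rw [List.take_append_drop] at this
      exact this.symm
    by_cases hG : P' ++ X1.drop (c k') ∈ E.Good
    · right; left
      exact ⟨_, hG, by rw [← List.append_assoc]; exact List.prefix_append _ _⟩
    · left
      refine ⟨P' ++ X1.drop (c k'), ⟨hXX, hG⟩, X2, hX2, by rw [List.append_assoc], ?_⟩
      rw [hTx']
  · -- a wrong place: the first block is good
    have hlw : (P' ++ (X1.drop (c k) ++ X2)).length = c k' + (X1.length - c k) + X2.length := by
      simp only [List.length_append, hlP', hlQ]; omega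
    have htr : ∀ j, c k' + n ≤ j → j ≤ (P' ++ (X1.drop (c k) ++ X2)).length →
        (Wo ((P' ++ (X1.drop (c k) ++ X2)).take j) ↔
          Wo ((X1 ++ X2).take (c k + (j - c k')))) := by
      intro j h1 h2
      rw [hlw] at h2
      have e1 : j = P'.length + (j - c k') := by omega
      have hq : (X1.drop (c k) ++ X2).length = X1.length - c k + X2.length := by
        rw [List.length_append, hlQ]
      have e3 : (X1 ++ X2).take (c k + (j - c k')) =
          (X1.take (c k) ++ (X1.drop (c k) ++ X2)).take ((X1.take (c k)).length +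
            (j - c k')) := by
        rw [hlP, ← List.append_assoc, List.take_append_drop]
      rw [e3, wtake hW (X1.take (c k)) _ (by omega) (by omega)]
      conv_lhs => rw [e1]
      rw [wtake hW P' _ (by omega) (by omega)]
    have hend : Wo (P' ++ (X1.drop (c k) ++ X2)) := by
      rw [← List.append_assoc, hW.loc _ X2 (by omega)]
      exact hWX2
    obtain ⟨X', hX', hpre⟩ := exists_prefix (z := z) (Wo := Wo)
      (r := P' ++ (X1.drop (c k) ++ X2)) (j := (P' ++ (X1.drop (c k) ++ X2)).length)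
      (by rw [hlw]; omega) le_rfl (by rw [List.take_length]; exact hend)
    right; left
    refine ⟨X', ?_, hpre⟩
    have hlX' := hpre.length_le
    have hzX' := hX'.1
    have htk : ∀ j, j ≤ X'.length → X'.take j = (P' ++ (X1.drop (c k) ++ X2)).take j := by
      intro j hj
      obtain ⟨R, hR'⟩ := hpre
      rw [← hR', List.take_append_of_le_length hj]
    have hlw2 : (X1 ++ X2).length = X1.length + X2.length := List.length_append
    have hXe : X' = (P' ++ (X1.drop (c k) ++ X2)).take X'.length := by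
      rw [← htk _ le_rfl, List.take_length]
    have hwX' : Wo ((X1 ++ X2).take (c k + (X'.length - c k'))) := by
      rw [← htr _ (by omega) hlX', ← hXe]
      exact hX'.2.1
    refine good_of g z p0 K c lam2 _ hW (by omega) hX' ?_ ?_ ?_
    · intro j hj hjz hw
      apply hks
      rw [htk j (by omega), htr j (by omega) (by omega)] at hw
      exact ⟨k', hk'K, hkk, Or.inl ⟨c k + (j - c k'), by rw [hlw2]; rw [hlw] at hlX'; omega, hw,
        by omega, by omega⟩⟩
    · by_contra hlt
      apply hks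
      exact ⟨k', hk'K, hkk, Or.inl ⟨c k + (X'.length - c k'),
        by rw [hlw2]; rw [hlw] at hlX'; omega, hwX', by omega, by omega⟩⟩
    · intro hB
      apply hks
      refine ⟨k', hk'K, hkk, Or.inr ⟨c k + (X'.length - c k'),
        by rw [hlw2]; rw [hlw] at hlX'; omega, hwX', by omega, ?_, ?_⟩⟩
      · intro t' ht' hzt hwt
        have h1 : Wo ((P' ++ (X1.drop (c k) ++ X2)).take (c k' + (t' - c k))) := by
          rw [htr _ (by omega) (by omega)]
          rwa [show c k + (c k' + (t' - c k) - c k') = t' by omega]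
        rw [← htk _ (by omega)] at h1
        exact hX'.2.2 _ (by omega) (by omega) h1
      · rwa [show c k + (X'.length - c k') + c k' - c k - p0 = X'.length - p0 by omega]

end

end Crest.Agent.R320.Inst_64
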