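import Crest.Agent.R320.Top5_120
import Crest.Agent.R320.FewVal_228
import Crest.Agent.R320.ExactR_237

/-!
# Row 320: the instance on all words over `Top5_120.top5` (helper681)

Left-looking walls of 228, natural chain rule (block = first wall at a place `≥ z`), scheme 1 = an
abstract gadget without small walls, scheme 2 = 237's exact gadget on the first `p0` letters.
-/

set_option autoImplicit false

namespace Crest.Agent.R320.Inst_681

open Crest.RegLang Crest.Agent.R320.Hk_851 Crest.Agent.R320.Blk467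
open Crest.Agent.R320.FewWalls_228

universe u

variable {α : Type u}

/-- a wall ends at `t` -/
def WE (n : ℕ) (S : Set (List α)) (X : List α) (t : ℕ) : Prop := ∃ x, x + n = t ∧ Wl n S X x

variable {n : ℕ} {S : Set (List α)}

theorem WE.le {X : List α} {t : ℕ} (h : WE n S X t) : t ≤ X.length := by
  obtain ⟨x, rfl, h⟩ := h
  exact h.1

theorem WE.ge {X : List α} {t : ℕ} (h : WE n S X t) : n ≤ t := by
  obtain ⟨x, rfl, _⟩ := h
  omega

theorem WE_left {X Y : List α} {t : ℕ} (ht : t ≤ X.length) : WE n S (X ++ Y) t ↔ WE n S X t := by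
  constructor
  · rintro ⟨x, rfl, h1, h2⟩
    refine ⟨x, rfl, ht, ?_⟩
    rw [List.drop_append_of_le_length (by omega), List.take_append_of_le_length
      (by rw [List.length_drop]; omega)] at h2
    exact h2
  · rintro ⟨x, rfl, h1, h2⟩
    refine ⟨x, rfl, by rw [List.length_append]; omega, ?_⟩
    rw [List.drop_append_of_le_length (by omega), List.take_append_of_le_length
      (by rw [List.length_drop]; omega)]
    exact h2

theorem WE_right {P Q : List α} {t : ℕ} (ht : n ≤ t) :
    WE n S (P ++ Q) (P.length + t) ↔ WE n S Q t := by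
  constructor
  · rintro ⟨x, hx, h1, h2⟩
    refine ⟨t - n, by omega, ?_, ?_⟩
    · rw [List.length_append] at h1; omega
    · have : x = P.length + (t - n) := by omega
      rw [this, ← List.drop_drop, List.drop_left] at h2
      exact h2
  · rintro ⟨x, hx, h1, h2⟩
    refine ⟨P.length + x, by omega, ?_, ?_⟩
    · rw [List.length_append]; omega
    · rw [← List.drop_drop, List.drop_left]
      exact h2

/-- change of the left part -/
theorem WE_shift {P P' Q : List α} {t t' : ℕ} (ht : P.length + n ≤ t)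
    (h : t' + P.length = t + P'.length) : WE n S (P ++ Q) t ↔ WE n S (P' ++ Q) t' := by
  have e1 : t = P.length + (t - P.length) := by omega
  have e2 : t' = P'.length + (t - P.length) := by omega
  rw [e1, e2, WE_right (by omega), WE_right (by omega)]

/-- blocks -/
def XX (n : ℕ) (S : Set (List α)) (z : ℕ) : Set (List α) :=
  {X | z ≤ X.length ∧ WE n S X X.length ∧ ∀ t, z ≤ t → t < X.length → ¬ WE n S X t}

/-- bad blocks -/
def Bd (n : ℕ) (S : Set (List α)) (z N p0 : ℕ) (BT : ℕ → Prop) : Set (List α) :=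
  {X | X ∈ XX n S z ∧ ((∃ t, WE n S X t ∧ z ≤ t + N ∧ t ≤ z + N) ∨ BT (X.length - p0))}

theorem pcode {z : ℕ} (hz : 0 < z) : PCode (XX n S z) := by
  refine ⟨fun h => ?_, ?_⟩
  · have := h.1
    simp at this
    omega
  · rintro X hX Y hY ⟨T, rfl⟩
    by_contra hne
    have hT : T ≠ [] := fun e => hne (by simp [e])
    have hl : 0 < T.length := List.length_pos_iff.2 hT
    refine hY.2.2 X.length hX.1 (by rw [List.length_append]; omega) ?_
    exact (WE_left le_rfl).2 hX.2.1

/-- the first block of a text with a wall at a place `≥ z` -/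
theorem first_block {z : ℕ} {U : List α} {t : ℕ} (hz : z ≤ t) (h : WE n S U t) :
    ∃ X ∈ XX n S z, X <+: U ∧ WE n S U X.length ∧ X.length ≤ t ∧
      ∀ s, z ≤ s → s < X.length → ¬ WE n S U s := by
  classical
  have hex : ∃ t, z ≤ t ∧ WE n S U t := ⟨t, hz, h⟩
  obtain ⟨h1, h2⟩ := Nat.find_spec hex
  have hmin := fun s (hs : s < Nat.find hex) => Nat.find_min hex hs
  have hle : Nat.find hex ≤ t := Nat.find_min' hex ⟨hz, h⟩
  set t0 := Nat.find hex
  have ht0 : t0 ≤ U.length := h2.le
  have hlen : (U.take t0).length = t0 := by rw [List.length_take]; omega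
  have hU : U.take t0 ++ U.drop t0 = U := List.take_append_drop _ _
  have hw : ∀ s, s ≤ t0 → (WE n S (U.take t0) s ↔ WE n S U s) := by
    intro s hs
    conv_rhs => rw [← hU]
    exact (WE_left (by rw [hlen]; exact hs)).symm
  refine ⟨U.take t0, ⟨by rw [hlen]; exact h1, ?_, ?_⟩, List.take_prefix _ _, by rw [hlen]; exact h2,
    by rw [hlen]; exact hle, ?_⟩
  · rw [hlen]; exact (hw t0 le_rfl).2 h2
  · intro s hs hs' hc
    rw [hlen] at hs'
    exact hmin s hs' ⟨hs, (hw s hs'.le).1 hc⟩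
  · intro s hs hs' hc
    rw [hlen] at hs'
    exact hmin s hs' ⟨hs, hc⟩

section cc

variable {G V : Type*} [Monoid G] [AddCommGroup V] (act : V → G → V) (φ : α → G)

/-- product of a word -/
abbrev pr {β : Type*} (φ : β → G) (w : List β) : G := (w.map φ).prod

theorem pr_app (P Q : List α) : pr φ (P ++ Q) = pr φ P * pr φ Q := by
  simp [pr]

/-- the noise of a block -/
def nu (p0 : ℕ) (nu1 nu2 : List α → V) (X : List α) : V :=
  act (nu2 (X.take p0)) (pr φ (X.drop p0)) + nu1 (X.drop p0)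

variable {act φ}

theorem T_eq (hadd : ∀ a b s, act (a + b) s = act a s + act b s)
    (hmul : ∀ v s t, act v (s * t) = act (act v s) t) {p0 : ℕ} {nu1 nu2 : List α → V}
    {X0 Y : List α} (h0 : X0.length = p0) (v : V) :
    act v (pr φ (X0 ++ Y)) + nu act φ p0 nu1 nu2 (X0 ++ Y) =
      act (act v (pr φ X0) + nu2 X0) (pr φ Y) + nu1 Y := by
  unfold nu
  rw [pr_app, hmul, hadd, add_assoc, ← h0, List.take_left, List.drop_left]

/-- left words of scheme 1 -/
def LL1 (act : V → G → V) (φ : α → G) (p0 : ℕ) (nu2 : List α → V) (lam : List α → Option V)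
    (v : V) : Set (List α) :=
  {P | ∃ X0 P1, X0 ++ P1 = P ∧ X0.length = p0 ∧ lam P1 = some (act v (pr φ X0) + nu2 X0)}

theorem cc1 (hadd : ∀ a b s, act (a + b) s = act a s + act b s)
    (hmul : ∀ v s t, act v (s * t) = act (act v s) t) {z N p0 : ℕ} {BT : ℕ → Prop}
    {nu1 nu2 : List α → V} {lam rho : List α → Option V}
    (hlam : ∀ P v, lam P = some v → P.length < N)
    (hs : ∀ P Q v v', lam P = some v → rho Q = some v' →
      v' = act v (pr φ (P ++ Q)) + nu1 (P ++ Q))
    (hc : ∀ X : List α, ¬ BT X.length → ∀ v, ∃ P Q, P ++ Q = X ∧ lam P = some v ∧ (rho Q).isSome)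
    (hz : p0 + N + N + n ≤ z) (X : List α) (hX : X ∈ XX n S z) (hb : X ∉ Bd n S z N p0 BT)
    (v : V) : ∃ P Q, P ++ Q = X ∧ P ∈ LL1 act φ p0 nu2 lam v ∧
      ∀ x, ∀ P' ∈ LL1 act φ p0 nu2 lam x, P' ++ Q ∈ XX n S z ∧
        act x (pr φ (P' ++ Q)) + nu act φ p0 nu1 nu2 (P' ++ Q) =
          act v (pr φ X) + nu act φ p0 nu1 nu2 X := by
  have hXl := hX.1
  have hE : ∀ t, WE n S X t → z ≤ t + N → t ≤ z + N → False := fun t h1 h2 h3 =>
    hb ⟨hX, Or.inl ⟨t, h1, h2, h3⟩⟩
  have hBT : ¬ BT (X.length - p0) := fun h => hb ⟨hX, Or.inr h⟩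
  have hl0 : (X.take p0).length = p0 := by rw [List.length_take]; omega
  obtain ⟨P1, Q, e, hP1, hQ⟩ := hc (X.drop p0) (by rw [List.length_drop]; exact hBT)
    (act v (pr φ (X.take p0)) + nu2 (X.take p0))
  obtain ⟨b, hb'⟩ := Option.isSome_iff_exists.1 hQ
  have hXe : (X.take p0 ++ P1) ++ Q = X := by
    rw [List.append_assoc, e, List.take_append_drop]
  have ho := hlam _ _ hP1
  refine ⟨X.take p0 ++ P1, Q, hXe, ⟨_, _, rfl, hl0, hP1⟩, ?_⟩
  rintro x P' ⟨X0', P1', rfl, hl0', hP1'⟩
  have ho' := hlam _ _ hP1'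
  have hlenX : X.length = p0 + P1.length + Q.length := by
    conv_lhs => rw [← hXe]
    rw [List.length_append, List.length_append, hl0]
  have hPl : (X.take p0 ++ P1).length = p0 + P1.length := by rw [List.length_append, hl0]
  have hPl' : (X0' ++ P1').length = p0 + P1'.length := by rw [List.length_append, hl0']
  have hbig : z + N < X.length := by
    by_contra hcon
    exact hE X.length hX.2.1 (by omega) (by omega)
  constructor
  · refine ⟨?_, ?_, ?_⟩
    · rw [List.length_append, hPl']; omega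
    · have hw := hX.2.1
      rw [← hXe] at hw
      refine (WE_shift (t := ((X.take p0 ++ P1) ++ Q).length) ?_ ?_).1 hw
      · rw [hXe, hPl]; omega
      · simp only [List.length_append, hl0, hl0']; omega
    · intro t ht1 ht2 hcon
      rw [List.length_append, hPl'] at ht2
      have h1 : WE n S ((X.take p0 ++ P1) ++ Q) (t + P1.length - P1'.length) := by
        refine (WE_shift (t := t) ?_ ?_).1 hcon
        · rw [hPl']; omega
        · rw [hPl, hPl']; omega
      rw [hXe] at h1
      by_cases h2 : z ≤ t + P1.length - P1'.length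
      · exact hX.2.2 _ h2 (by omega) h1
      · exact hE _ h1 (by omega) (by omega)
  · rw [List.append_assoc, T_eq hadd hmul hl0']
    rw [← hs _ _ _ _ hP1' hb', hs _ _ _ _ hP1 hb']
    have e2 : X = X.take p0 ++ (P1 ++ Q) := by rw [e, List.take_append_drop]
    conv_rhs => rw [e2]
    rw [T_eq hadd hmul hl0]

/-- left words of scheme 2 -/
def LL2 (K : ℕ) (c : ℕ → ℕ) (lam2 : ℕ → List α → Option V) (v : V) : Set (List α) :=
  {P | ∃ k < K, P.length = c k ∧ lam2 k P = some v}

theorem cc2 (hadd : ∀ a b s, act (a + b) s = act a s + act b s)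
    (hmul : ∀ v s t, act v (s * t) = act (act v s) t) {z N p0 W K R sp : ℕ} {BT : ℕ → Prop}
    {nu1 nu2 : List α → V} {c : ℕ → ℕ} {lam2 rho2 : ℕ → List α → Option V}
    (hsep : ∀ (w : List α) (x y : ℕ), x < y → Wl n S w x → Wl n S w y → x + W ≤ y)
    (hW : 2 * p0 + 2 * N < W) (hcp : ∀ k < K, c k ≤ p0)
    (hs2 : ∀ k < K, ∀ (P Q : List α) (v b : V), P.length = c k → lam2 k P = some v →
      rho2 k Q = some b → b = act v (pr φ (P ++ Q)) + nu2 (P ++ Q))
    (hc2 : ∀ (w : List α) (v : V), (∀ k < K, c k ≤ w.length) → ∃ I : Finset ℕ, R ≤ I.card ∧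
      ∀ k ∈ I, k < K ∧ lam2 k (w.take (c k)) = some v ∧ (rho2 k (w.drop (c k))).isSome)
    (hR : 2 * sp + 2 ≤ R)
    (hsp : ∀ (F : Finset (ℕ × ℕ)) (T : ℕ), p0 ≤ T → (∀ ab ∈ F, ab.1 < K ∧ ab.2 < K ∧
      ab.1 ≠ ab.2 ∧ BT (T + c ab.2 - c ab.1)) → F.card ≤ sp)
    (hgol : ∀ i j k l, i < K → j < K → k < K → l < K → i ≠ j → k ≠ l → (i, j) ≠ (k, l) →
      c i + c l + 2 * N < c k + c j ∨ c k + c j + 2 * N < c i + c l)
    (hz0 : 0 < z) (hz : 3 * p0 + N + n ≤ z) (X : List α) (hX : X ∈ Bd n S z N p0 BT)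
    (Y : List α) (hY : Y ∈ Bd n S z N p0 BT) (v : V) :
    ∃ P Q, P ++ Q = X ++ Y ∧ P ∈ LL2 K c lam2 v ∧ ∀ x, ∀ P' ∈ LL2 K c lam2 x,
      (∃ X' ∈ Bd n S z N p0 BT, ∃ Y' ∈ XX n S z, X' ++ Y' = P' ++ Q ∧
        act (act x (pr φ X') + nu act φ p0 nu1 nu2 X') (pr φ Y') + nu act φ p0 nu1 nu2 Y' =
          act (act v (pr φ X) + nu act φ p0 nu1 nu2 X) (pr φ Y) + nu act φ p0 nu1 nu2 Y) ∨
      (∃ X' ∈ XX n S z, X' ∉ Bd n S z N p0 BT ∧ X' <+: P' ++ Q) := by
  classical
  have hXl := hX.1.1
  have hYl := hY.1.1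
  have hUl : (X ++ Y).length = X.length + Y.length := List.length_append
  have hwX : WE n S (X ++ Y) X.length := (WE_left le_rfl).2 hX.1.2.1
  have hwU : WE n S (X ++ Y) (X.length + Y.length) :=
    (WE_right hY.1.2.1.ge).2 hY.1.2.1
  have sepE : ∀ {s t : ℕ}, WE n S (X ++ Y) s → WE n S (X ++ Y) t → s < t → s + W ≤ t := by
    rintro s t ⟨x, rfl, hx⟩ ⟨y, rfl, hy⟩ hlt
    have := hsep _ x y (by omega) hx hy
    omega
  have h1 : ∃ t, z ≤ t + p0 ∧ WE n S (X ++ Y) t := ⟨_, by omega, hwX⟩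
  obtain ⟨t1, ht1z, ht1w, ht1m⟩ : ∃ t1, z ≤ t1 + p0 ∧ WE n S (X ++ Y) t1 ∧
      ∀ t, z ≤ t + p0 → WE n S (X ++ Y) t → t1 ≤ t :=
    ⟨Nat.find h1, (Nat.find_spec h1).1, (Nat.find_spec h1).2,
      fun t ha hb => Nat.find_min' h1 ⟨ha, hb⟩⟩
  have ht1X : t1 ≤ X.length := ht1m _ (by omega) hwX
  have h2 : ∃ t, t1 < t ∧ WE n S (X ++ Y) t := ⟨X.length + Y.length, by omega, hwU⟩
  obtain ⟨t2, ht2z, ht2w, ht2m⟩ : ∃ t2, t1 < t2 ∧ WE n S (X ++ Y) t2 ∧
      ∀ t, t1 < t → WE n S (X ++ Y) t → t2 ≤ t :=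
    ⟨Nat.find h2, (Nat.find_spec h2).1, (Nat.find_spec h2).2,
      fun t ha hb => Nat.find_min' h2 ⟨ha, hb⟩⟩
  have ht12 := sepE ht1w ht2w ht2z
  have hfirst : ∀ zk t, z ≤ zk + p0 → zk ≤ z + p0 → zk ≤ t → WE n S (X ++ Y) t →
      (∀ s, zk ≤ s → s < t → ¬ WE n S (X ++ Y) s) → t = t1 ∨ t = t2 := by
    intro zk t ha hb hc hd he
    have h3 := ht1m t (by omega) hd
    rcases Nat.eq_or_lt_of_le h3 with h4 | h4
    · exact Or.inl h4.symm
    · right
      have h5 := ht2m t h4 hd
      rcases Nat.eq_or_lt_of_le h5 with h6 | h6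
      · exact h6.symm
      · exact absurd ht2w (he t2 (by omega) h6)
  set Pr : Finset (ℕ × ℕ) := (Finset.range K ×ˢ Finset.range K).filter (fun ab => ab.1 ≠ ab.2)
    with hPr
  have hmem : ∀ ab, ab ∈ Pr ↔ (ab.1 < K ∧ ab.2 < K) ∧ ab.1 ≠ ab.2 := by
    intro ab
    rw [hPr, Finset.mem_filter, Finset.mem_product, Finset.mem_range, Finset.mem_range]
  set S1 := Pr.filter (fun ab => BT (t1 - p0 + c ab.2 - c ab.1)) with hS1
  set S2 := Pr.filter (fun ab => BT (t2 - p0 + c ab.2 - c ab.1)) with hS2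
  set S3 := Pr.filter (fun ab => ∃ t, WE n S (X ++ Y) t ∧ z + c ab.1 ≤ t + N + c ab.2 ∧
    t + c ab.2 ≤ z + N + c ab.1) with hS3
  have hc1 : S1.card ≤ sp := hsp S1 (t1 - p0) (by omega) (fun ab hab => by
    rw [hS1, Finset.mem_filter, hmem] at hab
    exact ⟨hab.1.1.1, hab.1.1.2, hab.1.2, hab.2⟩)
  have hc2' : S2.card ≤ sp := hsp S2 (t2 - p0) (by omega) (fun ab hab => by
    rw [hS2, Finset.mem_filter, hmem] at hab
    exact ⟨hab.1.1.1, hab.1.1.2, hab.1.2, hab.2⟩)
  have hc3 : S3.card ≤ 1 := by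
    rw [Finset.card_le_one]
    rintro ⟨i, j⟩ hij ⟨k, l⟩ hkl
    rw [hS3, Finset.mem_filter, hmem] at hij hkl
    obtain ⟨⟨⟨hi, hj⟩, hne⟩, t, ht, ha, hb⟩ := hij
    obtain ⟨⟨⟨hk, hl⟩, hne'⟩, t', ht', ha', hb'⟩ := hkl
    simp only at hi hj hne ha hb hk hl hne' ha' hb'
    have e1 := hcp i hi
    have e2 := hcp j hj
    have e3 := hcp k hk
    have e4 := hcp l hl
    have htt : t = t' := by
      rcases lt_trichotomy t t' with h | h | h
      · have := sepE ht ht' h; omega
      · exact h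
      · have := sepE ht' ht h; omega
    subst htt
    by_contra hcon
    rcases hgol i j k l hi hj hk hl hne hne' hcon with h | h <;> omega
  obtain ⟨I, hI, hI2⟩ := hc2 (X.take p0) v (fun k hk => by
    rw [List.length_take]; have := hcp k hk; omega)
  have hcard : ((S1 ∪ S2 ∪ S3).image Prod.fst).card < I.card := by
    have g1 : ((S1 ∪ S2 ∪ S3).image Prod.fst).card ≤ (S1 ∪ S2 ∪ S3).card := Finset.card_image_le
    have g2 := Finset.card_union_le (S1 ∪ S2) S3
    have g3 := Finset.card_union_le S1 S2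
    omega
  obtain ⟨k, hkI, hk⟩ := Finset.exists_mem_notMem_of_card_lt_card hcard
  obtain ⟨hkK, hlk, hrk⟩ := hI2 k hkI
  obtain ⟨b, hb⟩ := Option.isSome_iff_exists.1 hrk
  have hck := hcp k hkK
  have hnot : ∀ k', k' < K → k' ≠ k → (k, k') ∉ S1 ∧ (k, k') ∉ S2 ∧ (k, k') ∉ S3 := by
    intro k' _ _
    refine ⟨fun h => hk ?_, fun h => hk ?_, fun h => hk ?_⟩
    · exact Finset.mem_image.2 ⟨(k, k'), by simp [h], rfl⟩
    · exact Finset.mem_image.2 ⟨(k, k'), by simp [h], rfl⟩
    · exact Finset.mem_image.2 ⟨(k, k'), by simp [h], rfl⟩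
  have htt : (X.take p0).take (c k) = X.take (c k) := by
    rw [List.take_take, Nat.min_eq_left hck]
  have hlt : (X.take (c k)).length = c k := by rw [List.length_take]; omega
  have hUe : X.take (c k) ++ (X.drop (c k) ++ Y) = X ++ Y := by
    rw [← List.append_assoc, List.take_append_drop]
  refine ⟨X.take (c k), X.drop (c k) ++ Y, hUe, ⟨k, hkK, hlt, by rw [← htt]; exact hlk⟩, ?_⟩
  rintro x P' ⟨k', hk', hPl', hP'⟩
  have hck' := hcp k' hk'
  by_cases hkk : k' = k
  · left
    subst hkk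
    set X' := P' ++ X.drop (c k') with hX'
    have hl' : X'.length = X.length := by
      rw [hX', List.length_append, List.length_drop, hPl']; omega
    have hww : ∀ t, p0 + n ≤ t → (WE n S X' t ↔ WE n S X t) := by
      intro t ht
      have := WE_shift (n := n) (S := S) (P := P') (P' := X.take (c k')) (Q := X.drop (c k'))
        (t := t) (t' := t) (by omega) (by omega)
      rw [List.take_append_drop] at this
      exact this
    have hXX' : X' ∈ XX n S z := by
      refine ⟨by omega, ?_, ?_⟩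
      · rw [hl']; exact (hww _ (by omega)).2 hX.1.2.1
      · intro t ht ht' hcon
        rw [hl'] at ht'
        exact hX.1.2.2 t ht ht' ((hww t (by omega)).1 hcon)
    refine ⟨X', ⟨hXX', ?_⟩, Y, hY.1, by rw [hX', List.append_assoc], ?_⟩
    · rcases hX.2 with ⟨t, ht, ha, hb'⟩ | h
      · exact Or.inl ⟨t, (hww t (by omega)).2 ht, ha, hb'⟩
      · right; rw [hl']; exact h
    · have hl0 : (X.take p0).length = p0 := by rw [List.length_take]; omega
      have e3 : X.drop (c k') = (X.take p0).drop (c k') ++ X.drop p0 := by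
        conv_lhs => rw [← List.take_append_drop p0 X]
        rw [List.drop_append_of_le_length (by rw [hl0]; exact hck)]
      have e4 : X' = (P' ++ (X.take p0).drop (c k')) ++ X.drop p0 := by
        rw [hX', e3, List.append_assoc]
      have hl0' : (P' ++ (X.take p0).drop (c k')).length = p0 := by
        rw [List.length_append, List.length_drop, hl0, hPl']; omega
      have key : act x (pr φ X') + nu act φ p0 nu1 nu2 X' =
          act v (pr φ X) + nu act φ p0 nu1 nu2 X := by
        rw [e4, T_eq hadd hmul hl0', ← hs2 k' hkK P' _ x b hPl' hP' hb]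
        conv_rhs => rw [← List.take_append_drop p0 X]
        rw [T_eq hadd hmul hl0]
        have := hs2 k' hkK ((X.take p0).take (c k')) ((X.take p0).drop (c k')) v b
          (by rw [htt, hlt]) hlk hb
        rw [List.take_append_drop] at this
        rw [← this]
      rw [key]
  · right
    obtain ⟨hn1, hn2, hn3⟩ := hnot k' hk' hkk
    set Q := X.drop (c k) ++ Y with hQ
    have hlQ : c k + Q.length = X.length + Y.length := by
      have h9 := congrArg List.length hUe
      rw [List.length_append, hlt, hUl] at h9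
      exact h9
    have hww : ∀ t t', t' + c k = t + c k' → c k' + n ≤ t' →
        (WE n S (P' ++ Q) t' ↔ WE n S (X ++ Y) t) := by
      intro t t' ht ht'
      rw [← hUe]
      exact WE_shift (by omega) (by omega)
    have hwend : WE n S (P' ++ Q) (c k' + Q.length) :=
      (hww (X.length + Y.length) _ (by omega) (by omega)).2 hwU
    obtain ⟨X', hX', hpre, hwX', -, hmin⟩ := first_block (z := z) (by omega) hwend
    refine ⟨X', hX', fun hbad => ?_, hpre⟩
    obtain ⟨T', hT'⟩ := hpre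
    have hXl' := hX'.1
    rcases hbad.2 with ⟨t', ht', ha, hb'⟩ | hBT
    · have ht'' : WE n S (P' ++ Q) t' := by
        rw [← hT']; exact (WE_left ht'.le).2 ht'
      have h7 := (hww (t' + c k - c k') t' (by omega) (by omega)).1 ht''
      apply hn3
      rw [hS3, Finset.mem_filter, hmem]
      exact ⟨⟨⟨hkK, hk'⟩, fun h => hkk h.symm⟩, t' + c k - c k', h7, by simp only; omega,
        by simp only; omega⟩
    · have h7 := (hww (X'.length + c k - c k') X'.length (by omega) (by omega)).1 hwX'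
      have h8 := hfirst (z + c k - c k') (X'.length + c k - c k') (by omega) (by omega)
        (by omega) h7 (fun s hs hs' hcon =>
          hmin (s + c k' - c k) (by omega) (by omega)
            ((hww s (s + c k' - c k) (by omega) (by omega)).2 hcon))
      rcases h8 with h8 | h8
      · apply hn1
        rw [hS1, Finset.mem_filter, hmem]
        refine ⟨⟨⟨hkK, hk'⟩, fun h => hkk h.symm⟩, ?_⟩
        have : t1 - p0 + c k' - c k = X'.length - p0 := by omega
        simp only [this]
        exact hBT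
      · apply hn2
        rw [hS2, Finset.mem_filter, hmem]
        refine ⟨⟨⟨hkK, hk'⟩, fun h => hkk h.symm⟩, ?_⟩
        have : t2 - p0 + c k' - c k = X'.length - p0 := by omega
        simp only [this]
        exact hBT

end cc

end Crest.Agent.R320.Inst_681
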