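import Mathlib
import Crest.Agent.R320.ExactR_237

/-!
Row 320, helper701: scheme 2 (the promise ruler) in the one-token-system form (118, 131, 649),
abstract in the badness test, over helper237's exact gadget.
-/

set_option autoImplicit false

namespace Crest.Agent.R320.Sc2_701

open Crest.Agent.R320.ExactR_237

/-- the zone map: `X = y.take p0`, `Y = (y.take N).drop p0`. -/
def zm {α S V : Type} [Monoid S] [AddCommGroup V] (f : α → S) (act : V → S → V) (p0 : ℕ)
    (nu2 nu1 : List α → V) (v : V) (y : List α) (N : ℕ) : V :=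
  act (act v (pr f (y.take p0)) + nu2 (y.take p0)) (pr f ((y.take N).drop p0)) +
    nu1 ((y.take N).drop p0)

theorem scheme2 (α S V : Type) [Monoid S] [Fintype S] [Fintype V] [AddCommGroup V]
    (f : α → S) (act : V → S → V) (R : ℕ) :
    ∃ K : ℕ, ∀ (c : ℕ → ℕ) (p0 : ℕ), (∀ i j, i < j → j < K → c i < c j) →
      (∀ k < K, c k ≤ p0) →
      ∃ nu2 : List α → V, ∀ (BadT : ℕ → List α → Prop) (Nr : ℕ → List α → ℕ) (nu1 : List α → V),
        ∃ (L2 : List α → V → Prop) (R2 : List α → Option (ℕ × V)),
          (∀ u v, L2 u v → ∃ k < K, u.length = c k) ∧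
          (∀ u r v d b, L2 u v → R2 r = some (d, b) → BadT u.length r →
            p0 ≤ u.length + r.length → p0 ≤ u.length + Nr u.length r →
            d = Nr u.length r ∧ zm f act p0 nu2 nu1 v (u ++ r) (u.length + d) = b) ∧
          (∀ t : List α, p0 ≤ t.length → (∀ k < K, BadT (c k) (t.drop (c k))) →
            {k | k < K ∧ ∃ k' < K, k' ≠ k ∧ BadT (c k') (t.drop (c k))}.ncard < R →
            ∀ v, ∃ k < K, L2 (t.take (c k)) v ∧ (R2 (t.drop (c k))).isSome) := by
  classical
  obtain ⟨K, hK⟩ := exact_gadget α S V f act R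
  refine ⟨K, fun c p0 hc hp => ?_⟩
  obtain ⟨lam, rho, nu, hs, hcomp⟩ := hK c hc
  refine ⟨fun X => nu X 1, fun BadT Nr nu1 => ?_⟩
  -- the unique candidate
  let Cand : List α → ℕ → Prop := fun r k => k < K ∧ BadT (c k) r
  let out : List α → ℕ → Option (ℕ × V) := fun r k =>
    (rho k (r.take (p0 - c k)) 1).map (fun b =>
      (Nr (c k) r, act b (pr f ((r.take (Nr (c k) r)).drop (p0 - c k))) +
        nu1 ((r.take (Nr (c k) r)).drop (p0 - c k))))
  refine ⟨fun u v => ∃ k < K, u.length = c k ∧ lam k u = some v,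
    fun r => if h : ∃! k, Cand r k then out r h.choose else none, ?_, ?_, ?_⟩
  · rintro u v ⟨k, hk, h1, -⟩
    exact ⟨k, hk, h1⟩
  · rintro u r v d b ⟨k, hk, hu, hl⟩ hr hbad hlen hN
    by_cases h : ∃! k, Cand r k
    · have hr' : out r h.choose = some (d, b) := by simpa only [dif_pos h] using hr
      have hch : h.choose = k :=
        (h.unique h.choose_spec.1 ⟨hk, by rw [← hu]; exact hbad⟩)
      rw [hch] at hr'
      simp only [out, Option.map_eq_some_iff, Prod.mk.injEq] at hr'
      obtain ⟨b', hb', hd, hb⟩ := hr'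
      rw [hu]
      refine ⟨hd.symm, ?_⟩
      have hX : (u ++ r).take p0 = u ++ r.take (p0 - c k) := by
        rw [List.take_append, hu, List.take_of_length_le (by rw [hu]; exact hp k hk)]
      have hY : ((u ++ r).take (c k + d)).drop p0 = (r.take d).drop (p0 - c k) := by
        rw [List.take_append, List.drop_append, hu]
        have e1 : c k + d - c k = d := by omega
        have e2 : u.take (c k + d) = u := List.take_of_length_le (by omega)
        rw [e1, e2, List.drop_eq_nil_of_le (by rw [hu]; exact hp k hk), List.nil_append, hu]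
      have key := hs k hk u (r.take (p0 - c k)) 1 v b' hu hl hb'
      unfold zm
      rw [hX, hY]
      rw [mul_one] at key
      simp only []
      rw [← key, ← hb, ← hd]
    · have hr2 : (none : Option (ℕ × V)) = some (d, b) := by simpa only [dif_neg h] using hr
      exact absurd hr2 (by simp)
  · intro t ht hbad hcard v
    obtain ⟨I, hI, hI'⟩ := hcomp (t.take p0) 1 v (by
      intro k hk
      rw [List.length_take]
      exact le_min (hp k hk) (le_trans (hp k hk) ht))
    -- a non spoiled place
    have : ∃ k ∈ I, ¬ ∃ k' < K, k' ≠ k ∧ BadT (c k') (t.drop (c k)) := by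
      by_contra hcon
      push Not at hcon
      have hsub : (I : Set ℕ) ⊆ {k | k < K ∧ ∃ k' < K, k' ≠ k ∧ BadT (c k') (t.drop (c k))} := by
        intro k hk
        obtain ⟨k', h1, h2, h3⟩ := hcon k hk
        exact ⟨(hI' k hk).1, k', h1, h2, h3⟩
      have hfin : {k | k < K ∧ ∃ k' < K, k' ≠ k ∧ BadT (c k') (t.drop (c k))}.Finite :=
        (Set.finite_lt_nat K).subset fun k hk => hk.1
      have h1 := Set.ncard_le_ncard hsub hfin
      rw [Set.ncard_coe_finset] at h1
      omega
    obtain ⟨k, hkI, hk⟩ := this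
    obtain ⟨hkK, hlam, hrho⟩ := hI' k hkI
    have htk : (t.take p0).take (c k) = t.take (c k) := by
      rw [List.take_take, min_eq_left (hp k hkK)]
    have htd : (t.take p0).drop (c k) = (t.drop (c k)).take (p0 - c k) := by
      rw [List.drop_take]
    rw [htk] at hlam
    rw [htd] at hrho
    refine ⟨k, hkK, ⟨k, hkK, ?_, hlam⟩, ?_⟩
    · rw [List.length_take, min_eq_left (le_trans (hp k hkK) ht)]
    · have h : ∃! k', Cand (t.drop (c k)) k' := by
        refine ⟨k, ⟨hkK, hbad k hkK⟩, ?_⟩
        rintro k' ⟨h1, h2⟩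
        by_contra hne
        exact hk ⟨k', h1, hne, h2⟩
      have hch : h.choose = k := h.unique h.choose_spec.1 ⟨hkK, hbad k hkK⟩
      have h2 : (out (t.drop (c k)) h.choose).isSome = true := by
        rw [hch]
        simp only [out, Option.isSome_map]
        exact hrho
      simpa only [dif_pos h] using h2

end Crest.Agent.R320.Sc2_701
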