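import Mathlib
import Crest.Agent.R320.ExactR_237
import Crest.Agent.R320.Sc2_701

/-!
Row 320, helper701: the two wall schemes on ALL words in the block form of helper163's `top`
(13363): left-looking walls, natural rule (first wall at distance `>= z`), scheme 1 = any gadget
with bad lengths (helper693), scheme 2 = promise ruler (Sc2_701).
-/

set_option autoImplicit false

namespace Crest.Agent.R320.Inst_701

open Crest.Agent.R320.ExactR_237 Crest.Agent.R320.Sc2_701

variable {α S V : Type}

/-- wall at position `y` of `w`: the window `[y - n, y)` is in `St`. -/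
def Wl (n : ℕ) (St : Set (List α)) (w : List α) (y : ℕ) : Prop :=
  n ≤ y ∧ y ≤ w.length ∧ (w.drop (y - n)).take n ∈ St

theorem wl_left {n : ℕ} {St : Set (List α)} {P Q : List α} {y : ℕ} (h : y ≤ P.length) :
    Wl n St (P ++ Q) y ↔ Wl n St P y := by
  unfold Wl
  constructor
  · rintro ⟨h1, _, h3⟩
    refine ⟨h1, h, ?_⟩
    rwa [List.drop_append_of_le_length (by omega),
      List.take_append_of_le_length (by rw [List.length_drop]; omega)] at h3
  · rintro ⟨h1, _, h3⟩
    refine ⟨h1, by rw [List.length_append]; omega, ?_⟩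
    rwa [List.drop_append_of_le_length (by omega),
      List.take_append_of_le_length (by rw [List.length_drop]; omega)]

theorem wl_right {n : ℕ} {St : Set (List α)} {P Q : List α} {y : ℕ} (h : n ≤ y) :
    Wl n St (P ++ Q) (P.length + y) ↔ Wl n St Q y := by
  have e : (P ++ Q).drop (P.length + y - n) = Q.drop (y - n) := by
    rw [show P.length + y - n = P.length + (y - n) by omega, List.drop_append]
    simp
  unfold Wl
  rw [e, List.length_append]
  constructor
  · rintro ⟨_, h2, h3⟩; exact ⟨h, by omega, h3⟩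
  · rintro ⟨_, h2, h3⟩; exact ⟨by omega, by omega, h3⟩

theorem wl_drop {n : ℕ} {St : Set (List α)} {t : List α} {c y : ℕ} (h : n ≤ y)
    (hc : c ≤ t.length) : Wl n St (t.drop c) y ↔ Wl n St t (c + y) := by
  have h1 := wl_right (St := St) (P := t.take c) (Q := t.drop c) h
  rw [List.take_append_drop, List.length_take, min_eq_left hc] at h1
  exact h1.symm

/-- words ending with their first wall at distance `>= z` -/
def FW (n : ℕ) (St : Set (List α)) (z : ℕ) (X : List α) : Prop :=
  z ≤ X.length ∧ Wl n St X X.length ∧ ∀ t, z ≤ t → t < X.length → ¬ Wl n St X t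

theorem fw_prefix {n : ℕ} {St : Set (List α)} {z : ℕ} {X Y : List α} (h : FW n St z X)
    (h' : FW n St z (X ++ Y)) : Y = [] := by
  by_contra hY
  have hl : 0 < Y.length := List.length_pos_iff.2 hY
  exact h'.2.2 X.length h.1 (by rw [List.length_append]; omega) ((wl_left le_rfl).2 h.2.1)

/-- The data. -/
structure Dt (α S V : Type) [Monoid S] [AddCommGroup V] where
  f : α → S
  act : V → S → V
  n : ℕ
  St : Set (List α)
  Wd : ℕ
  z : ℕ
  p0 : ℕ
  N1 : ℕ
  Bd : ℕ → Prop
  lam : List α → Option V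
  rho : List α → Option V
  nu1 : List α → V
  K : ℕ
  c : ℕ → ℕ
  nu2 : List α → V
  L2 : List α → V → Prop
  R2 : List α → Option (ℕ × V)

variable [Monoid S] [AddCommGroup V] (D : Dt α S V)

def Dt.XX : Set (List α) := {X | FW D.n D.St D.z X}

def Dt.T (v : V) (X : List α) : V := zm D.f D.act D.p0 D.nu2 D.nu1 v X X.length

/-- scheme 1, left -/
def Dt.LP1 (P : List α) (v : V) : Prop :=
  D.p0 ≤ P.length ∧
    D.lam (P.drop D.p0) = some (D.act v (pr D.f (P.take D.p0)) + D.nu2 (P.take D.p0))

open Classical in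
/-- scheme 1, right -/
noncomputable def Dt.R1 (Q : List α) : Option V :=
  if FW D.n D.St (D.z - D.p0 - D.N1) Q ∧ D.z - D.p0 ≤ Q.length then D.rho Q else none

/-- block bad for scheme 1 -/
def Dt.BadX (X : List α) : Prop :=
  (∃ t, D.z ≤ t + D.N1 ∧ t < D.z + D.N1 ∧ Wl D.n D.St X t) ∨ D.Bd (X.length - D.p0)

/-- first wall of `r` at a position `y` with `z <= y + δ`. -/
noncomputable def Dt.Nr (δ : ℕ) (r : List α) : ℕ :=
  sInf {y | D.z ≤ y + δ ∧ Wl D.n D.St r y}

def Dt.BadT (δ : ℕ) (r : List α) : Prop :=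
  (∃ y, D.z ≤ y + δ + D.N1 ∧ y + δ < D.z + D.N1 ∧ Wl D.n D.St r y) ∨
    D.Bd (D.Nr δ r + δ - D.p0)

open Classical in
noncomputable def Dt.R2' (Q : List α) : Option V :=
  match D.R2 Q with
  | some (d, b) => if 0 < d ∧ d ≤ Q.length ∧ Q.drop d ∈ D.XX then some (D.T b (Q.drop d)) else none
  | none => none

structure Ok (D : Dt α S V) : Prop where
  sep : ∀ (u : List α) (x y : ℕ), Wl D.n D.St u x → Wl D.n D.St u y → x < y → x + D.Wd ≤ y
  hz : D.p0 + D.N1 + D.n + 1 ≤ D.z
  -- gadget 1
  snd : ∀ P Q v b, D.lam P = some v → D.rho Q = some b →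
    b = D.act v (pr D.f (P ++ Q)) + D.nu1 (P ++ Q)
  win : ∀ P v, D.lam P = some v → P.length ≤ D.N1
  cmp : ∀ Y : List α, D.z ≤ Y.length + D.p0 → ¬ D.Bd Y.length → ∀ v, ∃ P Q, P ++ Q = Y ∧
    D.lam P = some v ∧ (D.rho Q).isSome
  -- scheme 2
  cinc : ∀ i j, i < j → j < D.K → D.c i < D.c j
  cp : ∀ k < D.K, D.c k ≤ D.p0
  pl : ∀ u v, D.L2 u v → ∃ k < D.K, u.length = D.c k
  s2 : ∀ u r v d b, D.L2 u v → D.R2 r = some (d, b) → D.BadT u.length r →
    D.p0 ≤ u.length + r.length → D.p0 ≤ u.length + D.Nr u.length r →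
    d = D.Nr u.length r ∧ zm D.f D.act D.p0 D.nu2 D.nu1 v (u ++ r) (u.length + d) = b
  c2 : ∀ t : List α, D.p0 ≤ t.length → (∀ k < D.K, D.BadT (D.c k) (t.drop (D.c k))) →
    (∀ X X2, X ∈ D.XX → X2 ∈ D.XX → t = X ++ X2 →
    ∀ v, ∃ k < D.K, D.L2 (t.take (D.c k)) v ∧ (D.R2 (t.drop (D.c k))).isSome)

variable {D}

theorem nr_eq {δ : ℕ} {P Q : List α} (hD : Ok D) (hP : P.length ≤ D.p0) {m : ℕ}
    (hm : D.z ≤ P.length + m) (hw : Wl D.n D.St Q m)
    (hf : ∀ y, D.z ≤ P.length + y → y < m → ¬ Wl D.n D.St Q y) (hδ : δ = P.length) :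
    D.Nr δ Q = m := by
  subst hδ
  unfold Dt.Nr
  apply le_antisymm
  · exact Nat.sInf_le ⟨by omega, hw⟩
  · have h := Nat.sInf_mem (s := {y | D.z ≤ y + P.length ∧ Wl D.n D.St Q y}) ⟨m, by omega, hw⟩
    by_contra hlt
    push Not at hlt
    exact hf _ (by have := h.1; omega) hlt h.2

/-- **s1** -/
theorem s1 (hD : Ok D) : ∀ P v Q b, D.LP1 P v → D.R1 Q = some b →
    P ++ Q ∈ D.XX ∧ D.T v (P ++ Q) = b := by
  classical
  intro P v Q b hP hQ
  unfold Dt.R1 at hQ
  by_cases h : FW D.n D.St (D.z - D.p0 - D.N1) Q ∧ D.z - D.p0 ≤ Q.length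
  · rw [if_pos h] at hQ
    obtain ⟨⟨h1, h2, h3⟩, h4⟩ := h
    obtain ⟨hp, hl⟩ := hP
    have hw := hD.win _ _ hl
    rw [List.length_drop] at hw
    have hz := hD.hz
    constructor
    · refine ⟨by rw [List.length_append]; omega, ?_, ?_⟩
      · rw [List.length_append]
        exact (wl_right (by omega)).2 h2
      · intro t ht1 ht2
        rw [List.length_append] at ht2
        obtain ⟨y, rfl⟩ : ∃ y, t = P.length + y := ⟨t - P.length, by omega⟩
        rw [wl_right (by omega)]
        exact h3 y (by omega) (by omega)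
    · have key := hD.snd _ _ _ _ hl hQ
      unfold Dt.T zm
      rw [List.take_length, List.take_append_of_le_length hp, List.drop_append_of_le_length hp]
      exact key.symm
  · rw [if_neg h] at hQ
    exact absurd hQ (by simp)

/-- completeness of scheme 1 -/
theorem cp1 (hD : Ok D) (X : List α) (hX : X ∈ D.XX) (hb : ¬ D.BadX X) (v : V) :
    ∃ P Q, X = P ++ Q ∧ D.LP1 P v ∧ (D.R1 Q).isSome := by
  classical
  have hz := hD.hz
  obtain ⟨h1, h2, h3⟩ := hX
  unfold Dt.BadX at hb
  push Not at hb
  obtain ⟨hE, hB⟩ := hb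
  have hXl : D.z + D.N1 ≤ X.length := by
    by_contra hlt
    push Not at hlt
    exact hE X.length (by omega) hlt h2
  obtain ⟨P, Q, hPQ, hl, hr⟩ := hD.cmp (X.drop D.p0) (by rw [List.length_drop]; omega)
    (by rw [List.length_drop]; exact hB)
    (D.act v (pr D.f (X.take D.p0)) + D.nu2 (X.take D.p0))
  have hlen : (X.take D.p0).length = D.p0 := by rw [List.length_take]; omega
  have hX' : X = (X.take D.p0 ++ P) ++ Q := by
    rw [List.append_assoc, hPQ, List.take_append_drop]
  have hw := hD.win _ _ hl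
  have hPl : (X.take D.p0 ++ P).length = D.p0 + P.length := by rw [List.length_append, hlen]
  refine ⟨X.take D.p0 ++ P, Q, hX', ⟨?_, ?_⟩, ?_⟩
  · omega
  · rw [List.drop_append_of_le_length (by omega), List.take_append_of_le_length (by omega)]
    rw [List.drop_eq_nil_of_le (by omega), List.nil_append, List.take_of_length_le (by omega)]
    exact hl
  · have hQl : X.length = D.p0 + P.length + Q.length := by
      conv_lhs => rw [hX']
      rw [List.length_append, hPl]
    have hcond : FW D.n D.St (D.z - D.p0 - D.N1) Q ∧ D.z - D.p0 ≤ Q.length := by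
      refine ⟨⟨by omega, ?_, ?_⟩, by omega⟩
      · rw [hX', List.length_append, wl_right (by omega)] at h2
        exact h2
      · intro y hy1 hy2 hwy
        have h4 : Wl D.n D.St X (D.p0 + P.length + y) := by
          rw [hX', ← hPl]
          exact (wl_right (by omega)).2 hwy
        rcases Nat.lt_or_ge (D.p0 + P.length + y) D.z with h5 | h5
        · exact hE _ (by omega) (by omega) h4
        · exact h3 _ h5 (by omega) h4
    unfold Dt.R1
    rw [if_pos hcond]
    exact hr

/-- badness of the block = badness seen from a place `<= p0` -/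
theorem bad_iff (hD : Ok D) {P Q X Y : List α} (hX : X ∈ D.XX) (h : P ++ Q = X ++ Y)
    (hP : P.length ≤ D.p0) (hb : D.BadX X) : D.BadT P.length Q ∧ D.Nr P.length Q + P.length = X.length := by
  have hz := hD.hz
  obtain ⟨h1, h2, h3⟩ := hX
  have hN : D.Nr P.length Q = X.length - P.length := by
    apply nr_eq hD hP (by omega) _ _ rfl
    · have h4 : Wl D.n D.St (P ++ Q) (P.length + (X.length - P.length)) := by
        rw [h, show P.length + (X.length - P.length) = X.length by omega]
        exact (wl_left le_rfl).2 h2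
      exact (wl_right (by omega)).1 h4
    · intro y hy1 hy2 hw
      have h4 : Wl D.n D.St (X ++ Y) (P.length + y) := by
        rw [← h]; exact (wl_right (by omega)).2 hw
      rw [wl_left (by omega)] at h4
      exact h3 _ hy1 (by omega) h4
  refine ⟨?_, by omega⟩
  rcases hb with ⟨t, ht1, ht2, ht3⟩ | hb
  · left
    have htl : t ≤ X.length := ht3.2.1
    refine ⟨t - P.length, by omega, by omega, ?_⟩
    have h4 : Wl D.n D.St (P ++ Q) (P.length + (t - P.length)) := by
      rw [h, show P.length + (t - P.length) = t by omega]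
      exact (wl_left htl).2 ht3
    exact (wl_right (by omega)).1 h4
  · right
    rw [hN]
    rw [show X.length - P.length + P.length - D.p0 = X.length - D.p0 by omega]
    exact hb

/-- **s2** in the form of 163's `top` -/
theorem s2 (hD : Ok D) : ∀ P v Q b, D.L2 P v → D.R2' Q = some b →
    (∀ X ∈ D.XX, X <+: P ++ Q → ∀ P' Q', X = P' ++ Q' → P.length ≤ P'.length →
      D.LP1 P' v → (D.R1 Q').isSome → False) →
    ∃ Q1 X2, Q = Q1 ++ X2 ∧ Q1 ≠ [] ∧ P ++ Q1 ∈ D.XX ∧ X2 ∈ D.XX ∧
      D.T (D.T v (P ++ Q1)) X2 = b := by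
  classical
  intro P v Q b hP hQ hnc
  have hz := hD.hz
  obtain ⟨k, hk, hPk⟩ := hD.pl _ _ hP
  have hPp : P.length ≤ D.p0 := by rw [hPk]; exact hD.cp k hk
  unfold Dt.R2' at hQ
  rcases hR : D.R2 Q with _ | ⟨d, b0⟩
  · rw [hR] at hQ; exact absurd hQ (by simp)
  rw [hR] at hQ
  simp only at hQ
  by_cases hc : 0 < d ∧ d ≤ Q.length ∧ Q.drop d ∈ D.XX
  · rw [if_pos hc] at hQ
    obtain ⟨hd0, hdl, hX2⟩ := hc
    have hX2l : D.z ≤ (Q.drop d).length := hX2.1
    rw [List.length_drop] at hX2l
    -- the last position of Q is a wall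
    have hend : Wl D.n D.St Q Q.length := by
      have h5 := (wl_drop (St := D.St) (t := Q) (c := d) (y := (Q.drop d).length)
        (by rw [List.length_drop]; omega) hdl).1 hX2.2.1
      rw [List.length_drop] at h5
      rwa [show d + (Q.length - d) = Q.length by omega] at h5
    -- the first block of P ++ Q
    have hne : ∃ t, D.z ≤ t ∧ Wl D.n D.St (P ++ Q) t :=
      ⟨P.length + Q.length, by omega, (wl_right (by omega)).2 hend⟩
    let t0 := Nat.find hne
    have ht0 : D.z ≤ t0 ∧ Wl D.n D.St (P ++ Q) t0 := Nat.find_spec hne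
    have ht0' : ∀ t, t < t0 → ¬ (D.z ≤ t ∧ Wl D.n D.St (P ++ Q) t) := fun t ht => Nat.find_min hne ht
    have ht0l : t0 ≤ (P ++ Q).length := ht0.2.2.1
    set X := (P ++ Q).take t0 with hXdef
    have hXl : X.length = t0 := by rw [hXdef, List.length_take]; omega
    have hsplit : P ++ Q = X ++ (P ++ Q).drop t0 := by rw [hXdef, List.take_append_drop]
    have hXX : X ∈ D.XX := by
      refine ⟨by omega, ?_, ?_⟩
      · rw [hXl]
        have := ht0.2
        rw [hsplit] at this
        exact (wl_left (by omega)).1 this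
      · intro t h1 h2 h3
        apply ht0' t (by omega)
        refine ⟨h1, ?_⟩
        rw [hsplit]
        exact (wl_left (by omega)).2 h3
    have hbad : D.BadX X := by
      by_contra hnb
      obtain ⟨P', Q', h1, h2, h3⟩ := cp1 hD X hXX hnb v
      exact hnc X hXX ⟨_, hsplit.symm⟩ P' Q' h1 (le_trans hPp h2.1) h2 h3
    obtain ⟨hbT, hN⟩ := bad_iff hD hXX hsplit hPp hbad
    obtain ⟨hd, hv⟩ := hD.s2 P Q v d b0 hP hR hbT (by omega) (by omega)
    have hPd : P.length + d = t0 := by omega
    have hPX : P ++ Q.take d = X := by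
      rw [hXdef, List.take_append, List.take_of_length_le (show P.length ≤ t0 by omega),
        show t0 - P.length = d by omega]
    refine ⟨Q.take d, Q.drop d, (List.take_append_drop d Q).symm, ?_, ?_, hX2, ?_⟩
    · intro h
      have := congrArg List.length h
      rw [List.length_take, List.length_nil] at this
      omega
    · rw [hPX]; exact hXX
    · have hT : D.T v (P ++ Q.take d) = b0 := by
        rw [hPX]
        unfold Dt.T
        rw [← hv]
        unfold zm
        rw [hXl, hPd]
        have e1 : X.take t0 = X := List.take_of_length_le (by omega)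
        have e2 : (P ++ Q).take t0 = X := rfl
        have e3 : X.take D.p0 = (P ++ Q).take D.p0 := by
          rw [hXdef, List.take_take, min_eq_left (by omega)]
        rw [e1, e3, ← hXdef]
      rw [hT]
      simpa using hQ
  · rw [if_neg hc] at hQ
    exact absurd hQ (by simp)

/-- **cc** in the form of 163's `top` -/
theorem cc (hD : Ok D) : ∀ X ∈ D.XX, ∀ X2 ∈ D.XX, ∀ v,
    (∃ P Q, X = P ++ Q ∧ D.LP1 P v ∧ (D.R1 Q).isSome) ∨
    (∃ P Q, X ++ X2 = P ++ Q ∧ P.length < X.length ∧ D.L2 P v ∧ (D.R2' Q).isSome) := by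
  classical
  intro X hX X2 hX2 v
  have hz := hD.hz
  by_cases hb : D.BadX X
  · right
    have hXl : D.z ≤ X.length := hX.1
    have hlen : (X ++ X2).length = X.length + X2.length := List.length_append
    have hck : ∀ k < D.K, ((X ++ X2).take (D.c k)).length = D.c k := by
      intro k hk
      have := hD.cp k hk
      rw [List.length_take]; omega
    have hall : ∀ k < D.K, D.BadT (D.c k) ((X ++ X2).drop (D.c k)) ∧
        D.Nr (D.c k) ((X ++ X2).drop (D.c k)) + D.c k = X.length := by
      intro k hk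
      have h := bad_iff hD (P := (X ++ X2).take (D.c k)) (Q := (X ++ X2).drop (D.c k)) (Y := X2) hX
        (List.take_append_drop _ _) (by rw [hck k hk]; exact hD.cp k hk) hb
      rwa [hck k hk] at h
    obtain ⟨k, hk, hl, hr⟩ := hD.c2 (X ++ X2) (by omega) (fun k hk => (hall k hk).1) X X2 hX hX2 rfl v
    have hcp := hD.cp k hk
    refine ⟨(X ++ X2).take (D.c k), (X ++ X2).drop (D.c k), (List.take_append_drop _ _).symm,
      by rw [hck k hk]; omega, hl, ?_⟩
    obtain ⟨⟨d, b0⟩, hR⟩ := Option.isSome_iff_exists.1 hr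
    obtain ⟨hbT, hN⟩ := hall k hk
    have h4 := hD.s2 _ _ v d b0 hl hR (by rw [hck k hk]; exact hbT)
      (by rw [hck k hk, List.length_drop]; omega) (by rw [hck k hk]; omega)
    rw [hck k hk] at h4
    have hd : d = X.length - D.c k := by omega
    have hdrop : ((X ++ X2).drop (D.c k)).drop d = X2 := by
      rw [List.drop_drop, show D.c k + d = X.length by omega]
      simp
    unfold Dt.R2'
    rw [hR]
    simp only
    rw [if_pos ⟨by omega, by rw [List.length_drop]; omega, by rw [hdrop]; exact hX2⟩]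
    rfl
  · left
    exact cp1 hD X hX hb v

end Crest.Agent.R320.Inst_701
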