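import Crest.Agent.R320.SemTop_727

set_option autoImplicit false

/-!
# Row 320: instance of 727's semantic top (helper718)

Natural chain rule: a block is a word `X` with `z ≤ |X|` which ends in a (left-looking) wall and has
no wall at a place in `[z, |X|)`.  Gadget 1 (852 / 693 form) on `X.drop p0`, exact gadget (237) on
`X.take p0`, ruler `c`.  Everything about the two schemes is proved here from the black boxes.
-/

namespace Crest.Agent.R320.Inst_718

open Crest.RegLang Crest.Agent.R320.Hk_851 Crest.Agent.R320.Blk467 Crest.Agent.R320.SemTop_727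

variable {α V S : Type*}

/-- the blocks -/
def XX (Wo : List α → Prop) (z : ℕ) : Set (List α) :=
  {X | z ≤ X.length ∧ Wo X ∧ ∀ t, z ≤ t → t < X.length → ¬ Wo (X.take t)}

/-- the concrete badness of a block: a wall near `z`, or a bad length -/
def Bad0 (Wo : List α → Prop) (z p0 N1 : ℕ) (BadT : ℕ → Prop) (X : List α) : Prop :=
  (∃ t, t ≤ X.length ∧ Wo (X.take t) ∧ z ≤ t + N1 ∧ t < z + N1) ∨ BadT (X.length - p0)

/-- the noise of a block -/
def nuB [AddCommGroup V] (φ : List α → S) (act : V → S → V) (p0 : ℕ) (nu1 nu2 : List α → V)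
    (X : List α) : V := act (nu2 (X.take p0)) (φ (X.drop p0)) + nu1 (X.drop p0)

/-- the data of 727's top -/
def DD [AddCommGroup V] (Wo : List α → Prop) (z p0 N1 K : ℕ) (φ : List α → S) (act : V → S → V)
    (lam : List α → Option V) (nu1 nu2 : List α → V) (c : ℕ → ℕ) (lam2 : ℕ → List α → Option V) :
    Sch α V where
  XX := XX Wo z
  T := fun v X => act v (φ X) + nuB φ act p0 nu1 nu2 X
  L1 := fun x => {P | p0 ≤ P.length ∧ P.length < p0 + N1 ∧
    lam (P.drop p0) = some (act x (φ (P.take p0)) + nu2 (P.take p0))}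
  L2 := fun x => {P | ∃ k < K, P.length = c k ∧ lam2 k P = some x}

section walls

variable {Wo : List α → Prop} {n : ℕ}
  (hloc : ∀ P Q : List α, n ≤ Q.length → (Wo (P ++ Q) ↔ Wo Q))
include hloc

/-- the wall status at a place does not depend on what lies far to the left -/
theorem swap {P P' R : List α} {t : ℕ} (ht : n ≤ t) (htR : t ≤ R.length) :
    Wo ((P ++ R).take (P.length + t)) ↔ Wo ((P' ++ R).take (P'.length + t)) := by
  have h1 : (P ++ R).take (P.length + t) = P ++ R.take t := by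
    rw [List.take_length_add_append]
  have h2 : (P' ++ R).take (P'.length + t) = P' ++ R.take t := by
    rw [List.take_length_add_append]
  have h3 : n ≤ (R.take t).length := by rw [List.length_take]; omega
  rw [h1, h2, hloc _ _ h3, hloc _ _ h3]

end walls

theorem pcode (Wo : List α → Prop) {z : ℕ} (hz : 0 < z) : PCode (XX Wo z) := by
  refine ⟨fun h => ?_, fun X hX Y hY hXY => ?_⟩
  · have := h.1
    simp at this
    omega
  · obtain ⟨R, rfl⟩ := hXY
    rcases Nat.eq_zero_or_pos R.length with h0 | h0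
    · rw [List.length_eq_zero_iff] at h0
      simp [h0]
    · exfalso
      refine hY.2.2 X.length hX.1 (by rw [List.length_append]; omega) ?_
      rw [List.take_left]
      exact hX.2.1

section main

variable [Monoid S] [AddCommGroup V]
variable {Wo : List α → Prop} {n z p0 N1 K : ℕ} {φ : List α → S} {act : V → S → V}
  {lam rho : List α → Option V} {nu1 nu2 : List α → V} {BadT : ℕ → Prop} {c : ℕ → ℕ}
  {lam2 rho2 : ℕ → List α → Option V}

/-- the thread map in two steps -/
theorem T_eq (hφ : ∀ u v, φ (u ++ v) = φ u * φ v)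
    (hadd : ∀ a b s, act (a + b) s = act a s + act b s)
    (hmul : ∀ v s t, act v (s * t) = act (act v s) t) (v : V) (X : List α) :
    act v (φ X) + nuB φ act p0 nu1 nu2 X =
      act (act v (φ (X.take p0)) + nu2 (X.take p0)) (φ (X.drop p0)) + nu1 (X.drop p0) := by
  unfold nuB
  rw [hadd, ← hmul, ← hφ, List.take_append_drop, add_assoc]

theorem good_of_not_bad
    (hloc : ∀ P Q : List α, n ≤ Q.length → (Wo (P ++ Q) ↔ Wo Q))
    (hz : p0 + N1 + n ≤ z)
    (hφ : ∀ u v, φ (u ++ v) = φ u * φ v)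
    (hadd : ∀ a b s, act (a + b) s = act a s + act b s)
    (hmul : ∀ v s t, act v (s * t) = act (act v s) t)
    (g1 : ∀ P v, lam P = some v → P.length < N1)
    (g2 : ∀ P Q v v', lam P = some v → rho Q = some v' → v' = act v (φ (P ++ Q)) + nu1 (P ++ Q))
    (g3 : ∀ X, ¬ BadT X.length → ∀ v, ∃ P Q, P ++ Q = X ∧ lam P = some v ∧ (rho Q).isSome)
    {X : List α} (hX : X ∈ XX Wo z) (hb : ¬ Bad0 Wo z p0 N1 BadT X) :
    X ∈ (DD Wo z p0 N1 K φ act lam nu1 nu2 c lam2).Good := by
  obtain ⟨hXz, hXw, hXn⟩ := hX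
  unfold Bad0 at hb
  push Not at hb
  obtain ⟨hE, hB⟩ := hb
  refine ⟨⟨hXz, hXw, hXn⟩, fun x => ?_⟩
  have hlong : z + N1 ≤ X.length := by
    have := hE X.length le_rfl (by rw [List.take_length]; exact hXw) (by omega)
    exact this
  have hYlen : (X.drop p0).length = X.length - p0 := List.length_drop ..
  obtain ⟨P, Q, hPQ, hlam, hrho⟩ := g3 (X.drop p0) (by rw [hYlen]; exact hB)
    (act x (φ (X.take p0)) + nu2 (X.take p0))
  obtain ⟨b, hb⟩ := Option.isSome_iff_exists.1 hrho
  have hX0 : (X.take p0).length = p0 := by rw [List.length_take]; omega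
  have hPlen := g1 _ _ hlam
  have hsum : P.length + Q.length = X.length - p0 := by
    rw [← hYlen, ← hPQ, List.length_append]
  have hfull : (X.take p0 ++ P) ++ Q = X := by
    rw [List.append_assoc, hPQ, List.take_append_drop]
  have hL : (X.take p0 ++ P).length = p0 + P.length := by rw [List.length_append, hX0]
  have hval : ∀ x1 (P1 : List α), p0 ≤ P1.length →
      lam (P1.drop p0) = some (act x1 (φ (P1.take p0)) + nu2 (P1.take p0)) →
      act x1 (φ (P1 ++ Q)) + nuB φ act p0 nu1 nu2 (P1 ++ Q) = b := by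
    intro x1 P1 h1 h2
    rw [T_eq hφ hadd hmul, List.take_append_of_le_length h1, List.drop_append_of_le_length h1]
    exact (g2 _ _ _ _ h2 hb).symm
  have hdropX : (X.take p0 ++ P).drop p0 = P := by
    conv_lhs => rw [← hX0, List.drop_left' (by rw [List.length_take]; omega)]
  have htakeX : (X.take p0 ++ P).take p0 = X.take p0 := by
    rw [List.take_append_of_le_length (by rw [hX0]), List.take_take, min_self]
  refine ⟨X.take p0 ++ P, ⟨by rw [hL]; omega, by rw [hL]; omega, ?_⟩, Q, ?_, hfull⟩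
  · rw [hdropX, htakeX]; exact hlam
  · intro x1 P1 hP1
    obtain ⟨h1, h2, h3⟩ := hP1
    have hn : n ≤ Q.length := by omega
    refine ⟨⟨?_, ?_, ?_⟩, ?_⟩
    · rw [List.length_append]; omega
    · rw [hloc _ _ hn]
      rw [← hfull, hloc _ _ hn] at hXw
      exact hXw
    · intro t hzt htl hw
      rw [List.length_append] at htl
      have ht1 : t = P1.length + (t - P1.length) := by omega
      rw [ht1] at hw
      have hw2 := (swap hloc (P := P1) (P' := X.take p0 ++ P) (R := Q) (t := t - P1.length)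
        (by omega) (by omega)).1 hw
      rw [hfull, hL] at hw2
      rcases lt_or_ge (p0 + P.length + (t - P1.length)) z with h4 | h4
      · have := hE _ (by omega) hw2 (by omega)
        omega
      · exact hXn _ h4 (by omega) hw2
    · show act x1 (φ (P1 ++ Q)) + nuB φ act p0 nu1 nu2 (P1 ++ Q) =
        act x (φ X) + nuB φ act p0 nu1 nu2 X
      rw [hval x1 P1 h1 h3]
      have := hval x (X.take p0 ++ P) (by rw [hL]; omega) (by rw [hdropX, htakeX]; exact hlam)
      rw [hfull] at this
      exact this.symm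

/-- word form of the spoiling count -/
def SpoilW (Wo : List α → Prop) (z p0 N1 K R : ℕ) (BadT : ℕ → Prop) (c : ℕ → ℕ) : Prop :=
  ∀ X1 ∈ XX Wo z, ∀ X2 ∈ XX Wo z, ∃ Sp : Finset ℕ, Sp.card < R ∧ ∀ k < K, k ∉ Sp → ∀ j < K, j ≠ k →
    ∀ P' : List α, P'.length = c j → ∃ X' ∈ XX Wo z, X' <+: P' ++ (X1 ++ X2).drop (c k) ∧
      ¬ Bad0 Wo z p0 N1 BadT X'

theorem hC2 {R : ℕ}
    (hloc : ∀ P Q : List α, n ≤ Q.length → (Wo (P ++ Q) ↔ Wo Q))
    (hz : p0 + N1 + n ≤ z)
    (hφ : ∀ u v, φ (u ++ v) = φ u * φ v)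
    (hadd : ∀ a b s, act (a + b) s = act a s + act b s)
    (hmul : ∀ v s t, act v (s * t) = act (act v s) t)
    (g1 : ∀ P v, lam P = some v → P.length < N1)
    (g2 : ∀ P Q v v', lam P = some v → rho Q = some v' → v' = act v (φ (P ++ Q)) + nu1 (P ++ Q))
    (g3 : ∀ X, ¬ BadT X.length → ∀ v, ∃ P Q, P ++ Q = X ∧ lam P = some v ∧ (rho Q).isSome)
    (hc : ∀ k < K, c k ≤ p0)
    (h1 : ∀ k < K, ∀ (P Q : List α) (v b : V), P.length = c k → lam2 k P = some v →
      rho2 k Q = some b → b = act v (φ (P ++ Q)) + nu2 (P ++ Q))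
    (h2 : ∀ (u : List α) (v : V), u.length = p0 → ∃ I : Finset ℕ, R ≤ I.card ∧
      ∀ k ∈ I, k < K ∧ lam2 k (u.take (c k)) = some v ∧ (rho2 k (u.drop (c k))).isSome)
    (hsp : SpoilW Wo z p0 N1 K R BadT c) :
    ∀ X1 ∈ (DD Wo z p0 N1 K φ act lam nu1 nu2 c lam2).Bad,
    ∀ X2 ∈ (DD Wo z p0 N1 K φ act lam nu1 nu2 c lam2).Bad, ∀ x,
    ∃ P ∈ (DD Wo z p0 N1 K φ act lam nu1 nu2 c lam2).L2 x,
    ∃ Q ∈ (DD Wo z p0 N1 K φ act lam nu1 nu2 c lam2).R2
      ((DD Wo z p0 N1 K φ act lam nu1 nu2 c lam2).T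
        ((DD Wo z p0 N1 K φ act lam nu1 nu2 c lam2).T x X1) X2), P ++ Q = X1 ++ X2 := by
  classical
  set D := DD Wo z p0 N1 K φ act lam nu1 nu2 c lam2 with hD
  intro X1 hX1 X2 hX2 x
  obtain ⟨hX1X, hX1G⟩ := hX1
  obtain ⟨hX2X, hX2G⟩ := hX2
  have hX1' : X1 ∈ XX Wo z := hX1X
  have hX2' : X2 ∈ XX Wo z := hX2X
  obtain ⟨Sp, hSp, hsp⟩ := hsp X1 hX1' X2 hX2'
  have hlen1 : z ≤ X1.length := hX1'.1
  have hu : (X1.take p0).length = p0 := by rw [List.length_take]; omega
  obtain ⟨I, hI, hIk⟩ := h2 (X1.take p0) x hu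
  obtain ⟨k, hkI, hkS⟩ : ∃ k ∈ I, k ∉ Sp := by
    by_contra hcon
    push Not at hcon
    have := Finset.card_le_card (fun k hk => hcon k hk : I ⊆ Sp)
    omega
  obtain ⟨hkK, hkl, hkr⟩ := hIk k hkI
  obtain ⟨b0, hb0⟩ := Option.isSome_iff_exists.1 hkr
  have hck := hc k hkK
  have htk : (X1.take p0).take (c k) = X1.take (c k) := by rw [List.take_take, min_eq_left hck]
  have hlk : (X1.take (c k)).length = c k := by rw [List.length_take]; omega
  refine ⟨X1.take (c k), ⟨k, hkK, hlk, by rw [← htk]; exact hkl⟩, X1.drop (c k) ++ X2, ?_, ?_⟩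
  swap
  · rw [← List.append_assoc, List.take_append_drop]
  intro x' P' hP'
  obtain ⟨j, hjK, hjl, hjv⟩ := hP'
  have hdropw : (X1 ++ X2).drop (c k) = X1.drop (c k) ++ X2 := by
    rw [List.drop_append_of_le_length (by omega)]
  rcases eq_or_ne j k with rfl | hjk
  · -- the true place
    have hdl : (X1.drop (c j)).length = X1.length - c j := List.length_drop ..
    have hX1d : X1.take (c j) ++ X1.drop (c j) = X1 := List.take_append_drop ..
    have hmem : P' ++ X1.drop (c j) ∈ XX Wo z := by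
      refine ⟨?_, ?_, ?_⟩
      · rw [List.length_append]; omega
      · rw [hloc _ _ (by omega)]
        have := hX1'.2.1
        rw [← hX1d, hloc _ _ (by omega)] at this
        exact this
      · intro t hzt htl hw
        rw [List.length_append] at htl
        have ht1 : t = P'.length + (t - P'.length) := by omega
        rw [ht1] at hw
        have hw2 := (swap hloc (P := P') (P' := X1.take (c j)) (R := X1.drop (c j))
          (t := t - P'.length) (by omega) (by omega)).1 hw
        rw [hX1d, hlk] at hw2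
        exact hX1'.2.2 _ (by omega) (by omega) hw2
    have htake : (P' ++ X1.drop (c j)).take p0 = P' ++ (X1.take p0).drop (c j) := by
      rw [List.take_append, List.take_of_length_le (by omega : P'.length ≤ p0), List.drop_take,
        hjl]
    have hdrop : (P' ++ X1.drop (c j)).drop p0 = X1.drop p0 := by
      rw [List.drop_append, List.drop_of_length_le (by omega : P'.length ≤ p0), List.drop_drop,
        List.nil_append]
      congr 1
      omega
    have hT' : D.T x' (P' ++ X1.drop (c j)) = D.T x X1 := by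
      show act x' (φ (P' ++ X1.drop (c j))) + nuB φ act p0 nu1 nu2 (P' ++ X1.drop (c j)) =
        act x (φ X1) + nuB φ act p0 nu1 nu2 X1
      rw [T_eq hφ hadd hmul, T_eq hφ hadd hmul, htake, hdrop]
      have e1 := h1 j hjK P' ((X1.take p0).drop (c j)) x' b0 hjl hjv hb0
      have e2 := h1 j hjK ((X1.take p0).take (c j)) ((X1.take p0).drop (c j)) x b0
        (by rw [htk, hlk]) hkl hb0
      rw [List.take_append_drop] at e2
      rw [← e1, ← e2]
    by_cases hG : P' ++ X1.drop (c j) ∈ D.Good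
    · right; left
      exact ⟨_, hG, ⟨X2, by rw [List.append_assoc]⟩⟩
    · left
      refine ⟨_, ⟨hmem, hG⟩, X2, ⟨hX2X, hX2G⟩, by rw [List.append_assoc], ?_⟩
      rw [hT']
  · right; left
    obtain ⟨X', hX'X, hX'p, hX'b⟩ := hsp k hkK hkS j hjK hjk P' hjl
    refine ⟨X', good_of_not_bad hloc hz hφ hadd hmul g1 g2 g3 hX'X hX'b, ?_⟩
    rw [hdropw] at hX'p
    exact hX'p

end main

end Crest.Agent.R320.Inst_718
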