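import Crest.Agent.R320.FW_8
import Crest.Agent.R320.Cnt_8

/-!
# Row 320: the combinatorial data (621's `Data2`) from two abstract gadgets (helper8)

`Z = α^p0 · FW z1 · FW g`.
-/

set_option autoImplicit false
set_option linter.unusedSectionVars false

namespace Crest.Agent.R320.Inst_8

open Crest.RegLang Crest.Agent.R320.Hk_851 Crest.Agent.R320.FW_8
  Crest.Agent.R320.WallU_228 Crest.Agent.R320.Star_621 Crest.Agent.R320.Two_621

universe u v

variable {α : Type u} {S : Type v} [Monoid S]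

/-- one half of the zone map -/
def gg (ph : List α → S) (nu : List α → Tok S) (X : List α) (w : Tok S) : Tok S :=
  act w (ph X) + nu X

open Classical in
/-- place of the first wall `≥ z1` -/
noncomputable def tp (W : List α → Prop) (z1 : ℕ) (w : List α) : ℕ :=
  if h : ∃ t, z1 ≤ t ∧ t ≤ w.length ∧ W (w.take t) then Nat.find h else 0

theorem tp_eq {W : List α → Prop} {z1 : ℕ} {Y : List α} (hY : Y ∈ FW W z1) (r : List α) :
    tp W z1 (Y ++ r) = Y.length := by
  classical
  obtain ⟨h1, h2, h3⟩ := hY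
  have hex : ∃ t, z1 ≤ t ∧ t ≤ (Y ++ r).length ∧ W ((Y ++ r).take t) :=
    ⟨Y.length, h1, by rw [List.length_append]; omega, by rw [List.take_left]; exact h2⟩
  unfold tp
  rw [dif_pos hex]
  rw [Nat.find_eq_iff]
  refine ⟨⟨h1, by rw [List.length_append]; omega, by rw [List.take_left]; exact h2⟩, ?_⟩
  rintro m hm ⟨h4, -, h5⟩
  rw [List.take_append_of_le_length hm.le] at h5
  exact h3 m h4 hm h5

/-- noise of a zone -/
noncomputable def dd (W : List α → Prop) (p0 z1 : ℕ) (ph : List α → S)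
    (nuB nuA : List α → Tok S) (z : List α) : Tok S :=
  act (act (nuB (z.take p0)) (ph ((z.drop p0).take (tp W z1 (z.drop p0)))) +
    nuA ((z.drop p0).take (tp W z1 (z.drop p0)))) (ph ((z.drop p0).drop (tp W z1 (z.drop p0))))

theorem aff_eq {W : List α → Prop} {p0 z1 : ℕ} {ph : List α → S} {nuB nuA : List α → Tok S}
    (hm : ∀ a b, ph (a ++ b) = ph a * ph b) {X Y : List α} (r : List α) (hX : X.length = p0)
    (hY : Y ∈ FW W z1) (w : Tok S) :
    aff ph (dd W p0 z1 ph nuB nuA) (X ++ (Y ++ r)) w =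
      act (gg ph nuA Y (gg ph nuB X w)) (ph r) := by
  have e1 : (X ++ (Y ++ r)).take p0 = X := by rw [← hX, List.take_left]
  have e2 : (X ++ (Y ++ r)).drop p0 = Y ++ r := by rw [← hX, List.drop_left]
  unfold aff dd gg
  rw [e1, e2, tp_eq hY, List.take_left, List.drop_left, hm, hm]
  simp only [act_add, act_mul, mul_assoc]
  abel

/-- zones -/
def ZZ (W : List α → Prop) (p0 z1 g : ℕ) : Language α :=
  {z | ∃ X Y r, z = X ++ (Y ++ r) ∧ X.length = p0 ∧ Y ∈ FW W z1 ∧ r ∈ FW W g}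

/-- critical zones -/
def Zc (W : List α → Prop) (p0 z1 g : ℕ) (cr : List α → Prop) : Language α :=
  {z | ∃ X Y r, z = X ++ (Y ++ r) ∧ X.length = p0 ∧ Y ∈ FW W z1 ∧ r ∈ FW W g ∧ cr Y}

/-- visibly not critical -/
def NC (W : List α → Prop) (p0 z1 : ℕ) (cr : List α → Prop) : Language α :=
  {z | ∃ X Y r, z = X ++ (Y ++ r) ∧ X.length = p0 ∧ Y ∈ FW W z1 ∧ ¬ cr Y}

theorem split_eq {W : List α → Prop} {p0 z1 : ℕ} {X Y r X' Y' r' : List α}
    (hX : X.length = p0) (hX' : X'.length = p0) (hY : Y ∈ FW W z1) (hY' : Y' ∈ FW W z1)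
    (e : X ++ (Y ++ r) = X' ++ (Y' ++ r')) : X = X' ∧ Y = Y' ∧ r = r' := by
  obtain ⟨h1, h2⟩ := List.append_inj e (hX.trans hX'.symm)
  have h3 := FW_code hY hY' h2
  subst h3
  exact ⟨h1, rfl, List.append_cancel_left h2⟩

theorem code {W : List α → Prop} {p0 z1 g : ℕ} (hz1 : 0 < z1) : Code (ZZ W p0 z1 g) := by
  constructor
  · rintro ⟨X, Y, r, h, -, hY, -⟩
    have h1 := hY.1
    have h2 := congrArg List.length h
    simp only [List.length_nil, List.length_append] at h2
    omega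
  · rintro z z' x x' ⟨X, Y, r, rfl, hX, hY, hr⟩ ⟨X', Y', r', rfl, hX', hY', hr'⟩ e
    simp only [List.append_assoc] at e
    obtain ⟨h1, h2, h3⟩ := split_eq hX hX' hY hY' e
    subst h1; subst h2
    have := FW_code hr hr' h3
    subst this; rfl

theorem nc_disj {W : List α → Prop} {p0 z1 g : ℕ} {cr : List α → Prop} {w z x y : List α}
    (h : w ∈ NC W p0 z1 cr) (h' : z ∈ Zc W p0 z1 g cr) (e : w ++ x = z ++ y) : False := by
  obtain ⟨X, Y, r, rfl, hX, hY, hn⟩ := h
  obtain ⟨X', Y', r', rfl, hX', hY', hr', hc⟩ := h'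
  simp only [List.append_assoc] at e
  obtain ⟨-, h2, -⟩ := split_eq hX hX' hY hY' e
  subst h2
  exact hn hc

theorem zc_sub {W : List α → Prop} {p0 z1 g : ℕ} {cr : List α → Prop} :
    ∀ z ∈ Zc W p0 z1 g cr, z ∈ ZZ W p0 z1 g := by
  rintro z ⟨X, Y, r, h, h1, h2, h3, -⟩
  exact ⟨X, Y, r, h, h1, h2, h3⟩

/-- semantic right sides -/
def RR (Z N : Language α) (psi : List α → Tok S → Tok S) (L : Tok S → Language α) (τ : Tok S) :
    Language α :=
  {Q | ∀ v' : Tok S, ∀ P' : List α, P' ∈ L v' →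
    (P' ++ Q ∈ Z ∧ psi (P' ++ Q) v' = τ) ∨ P' ++ Q ∈ N}

theorem sound {Z N : Language α} {psi : List α → Tok S → Tok S} {L : Tok S → Language α}
    (hC : ∀ z z' x x' : List α, z ∈ Z → z' ∈ Z → z ++ x = z' ++ x' → z = z')
    (h0 : ∀ v, [] ∉ L v) (hN : ∀ w z x y : List α, w ∈ N → z ∈ Z → w ++ x = z ++ y → False) :
    Sound Z psi L (RR Z N psi L) := by
  refine ⟨h0, ?_⟩
  intro ω τ P Q z x y hP hQ hz e
  rcases hQ ω P hP with ⟨h1, h2⟩ | h1
  · have := hC _ _ _ _ h1 hz e
    subst this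
    exact ⟨rfl, h2.symm⟩
  · exact (hN _ _ _ _ h1 hz e).elim

theorem HL_RR [Finite S] {k : ℕ} {Z N : Language α} {psi : List α → Tok S → Tok S}
    {L : Tok S → Language α} (hZ : ∀ v τ, HL k ({z | z ∈ Z ∧ psi z v = τ} : Language α))
    (hN : HL k N) (hL : ∀ v, (L v : Set (List α)).Finite) (τ : Tok S) :
    HL k (RR Z N psi L τ) := by
  refine (HL.iInter fun v' : Tok S => HL.biInter (hL v') fun P' _ =>
    (((hZ v' τ).sup hN).lquot P')).congr fun w => ?_
  exact ⟨fun h v' P' hP' => h v' P' hP', fun h v' P' hP' => h v' P' hP'⟩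

/-- left words of scheme A -/
def LA (ph : List α → S) (nuB : List α → Tok S) (p0 : ℕ) (lamA : Tok S → Language α)
    (v : Tok S) : Language α :=
  {P | ∃ X P', P = X ++ P' ∧ X.length = p0 ∧ P' ∈ lamA (gg ph nuB X v)}

theorem LA_fin [Finite α] {ph : List α → S} {nuB : List α → Tok S} {p0 : ℕ}
    {lamA : Tok S → Language α} (h : ∀ v, (lamA v : Set (List α)).Finite) (v : Tok S) :
    (LA ph nuB p0 lamA v : Set (List α)).Finite := by
  have h1 := List.finite_length_eq α p0
  refine (h1.biUnion (t := fun X => (fun P' => X ++ P') '' (lamA (gg ph nuB X v))) ?_).subset ?_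
  · intro X _
    exact (h _).image _
  · rintro P ⟨X, P', rfl, hX, hP'⟩
    exact Set.mem_biUnion hX ⟨P', hP', rfl⟩

/-- left words of scheme B -/
def LB (K : ℕ) (c : ℕ → ℕ) (lamB : ℕ → List α → Option (Tok S)) (v : Tok S) : Language α :=
  {P | ∃ k < K, P.length = c k ∧ lamB k P = some v}

theorem LB_fin [Finite α] {K : ℕ} {c : ℕ → ℕ} {lamB : ℕ → List α → Option (Tok S)}
    (v : Tok S) : (LB K c lamB v : Set (List α)).Finite := by
  refine ((Finset.finite_toSet (Finset.range K)).biUnion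
    (t := fun k => {P : List α | P.length = c k}) fun k _ => List.finite_length_eq α (c k)).subset ?_
  rintro P ⟨k, hk, h1, -⟩
  exact Set.mem_biUnion (by simpa using hk) h1

/-- criticality of the first part -/
def Cr (W : List α → Prop) (z1 N1 : ℕ) (Bad : ℕ → Prop) (Y : List α) : Prop :=
  (∃ s, z1 ≤ s + N1 ∧ s ≤ z1 + N1 ∧ s ≤ Y.length ∧ W (Y.take s)) ∨ Bad Y.length

/-- geometry of scheme A -/
theorem geoA {W : List α → Prop} {n z1 N1 : ℕ}
    (loc : ∀ P Q : List α, n ≤ Q.length → (W (P ++ Q) ↔ W Q)) (hz : n + 2 * N1 ≤ z1)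
    {P Q P' : List α} (hY : P ++ Q ∈ FW W z1) (hP : P.length ≤ N1) (hP' : P'.length ≤ N1)
    (hE : ¬ ∃ s, z1 ≤ s + N1 ∧ s ≤ z1 + N1 ∧ s ≤ (P ++ Q).length ∧ W ((P ++ Q).take s)) :
    P' ++ Q ∈ FW W z1 := by
  obtain ⟨h1, h2, h3⟩ := hY
  push Not at hE
  have hl : z1 + N1 < (P ++ Q).length := by
    by_contra hcon
    exact hE (P ++ Q).length (by omega) (by omega) le_rfl (by rw [List.take_length]; exact h2)
  have hl' := hl
  rw [List.length_append] at hl'
  refine ⟨by rw [List.length_append]; omega, ?_, ?_⟩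
  · rw [loc P' Q (by omega)]
    rwa [loc P Q (by omega)] at h2
  · intro s hs1 hs2 hW
    rw [List.length_append] at hs2
    have e1 : (P' ++ Q).take s = P' ++ Q.take (s - P'.length) := by
      rw [List.take_append, List.take_of_length_le (by omega)]
    have hlen : n ≤ (Q.take (s - P'.length)).length := by
      rw [List.length_take]; omega
    rw [e1, loc _ _ hlen, ← loc P _ hlen] at hW
    have e2 : (P ++ Q).take (P.length + (s - P'.length)) = P ++ Q.take (s - P'.length) := by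
      rw [List.take_append, List.take_of_length_le (by omega)]
      congr 2
      omega
    rw [← e2] at hW
    by_cases hc : z1 ≤ P.length + (s - P'.length)
    · exact h3 _ hc (by rw [List.length_append]; omega) hW
    · exact hE (P.length + (s - P'.length)) (by omega) (by omega)
        (by rw [List.length_append]; omega) hW

/-- walls of a suffix -/
theorem wdrop {W : List α → Prop} {n : ℕ}
    (loc : ∀ P Q : List α, n ≤ Q.length → (W (P ++ Q) ↔ W Q)) {z : List α} {e s : ℕ}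
    (h : e + s ≤ z.length) (hs : n ≤ s) : W ((z.drop e).take s) ↔ W (z.take (e + s)) := by
  have h1 : z.take (e + s) = z.take e ++ (z.drop e).take s := by
    rw [List.take_add]
  rw [h1, loc]
  rw [List.length_take, List.length_drop]; omega

section comp

variable {W : List α → Prop} {n p0 z1 g N1 : ℕ} {ph : List α → S} {nuB nuA : List α → Tok S}
  {Bad : ℕ → Prop} {lamA : Tok S → Language α}

/-- completeness of scheme A -/
theorem compA (loc : ∀ P Q : List α, n ≤ Q.length → (W (P ++ Q) ↔ W Q))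
    (hm : ∀ a b, ph (a ++ b) = ph a * ph b) (hz : n + 2 * N1 ≤ z1)
    (hlen : ∀ v, ∀ P ∈ lamA v, P.length ≤ N1)
    (hA : ∀ Y : List α, z1 ≤ Y.length → ¬ Bad Y.length → ∀ w, ∃ P Q, Y = P ++ Q ∧ P ∈ lamA w ∧
      ∀ w' P', P' ∈ lamA w' → gg ph nuA (P' ++ Q) w' = gg ph nuA Y w)
    {z : List α} (hz1 : z ∈ ZZ W p0 z1 g) (hz2 : z ∉ Zc W p0 z1 g (Cr W z1 N1 Bad)) (v : Tok S) :
    Cut (LA ph nuB p0 lamA)
      (RR (ZZ W p0 z1 g) 0 (aff ph (dd W p0 z1 ph nuB nuA)) (LA ph nuB p0 lamA)) v z := by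
  obtain ⟨X, Y, r, rfl, hX, hY, hr⟩ := hz1
  have hcr : ¬ Cr W z1 N1 Bad Y := fun h => hz2 ⟨X, Y, r, rfl, hX, hY, hr, h⟩
  unfold Cr at hcr
  push Not at hcr
  obtain ⟨hE, hB⟩ := hcr
  obtain ⟨P, Q, hYe, hP, hex⟩ := hA Y hY.1 hB (gg ph nuB X v)
  subst hYe
  refine ⟨X ++ P, Q ++ r, act (gg ph nuA (P ++ Q) (gg ph nuB X v)) (ph r), by simp,
    ⟨X, P, rfl, hX, hP⟩, ?_⟩
  rintro v' _ ⟨X', P', rfl, hX', hP'⟩
  left
  have hF : P' ++ Q ∈ FW W z1 := geoA loc hz hY (hlen _ _ hP) (hlen _ _ hP') (by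
    push Not; exact hE)
  have e : X' ++ P' ++ (Q ++ r) = X' ++ ((P' ++ Q) ++ r) := by simp
  rw [e]
  refine ⟨⟨X', P' ++ Q, r, rfl, hX', hF, hr⟩, ?_⟩
  rw [aff_eq hm r hX' hF, hex _ _ hP']

/-- completeness of scheme B -/
theorem compB {K C0 Wg : ℕ} {c : ℕ → ℕ} {lamB : ℕ → List α → Option (Tok S)}
    (loc : ∀ P Q : List α, n ≤ Q.length → (W (P ++ Q) ↔ W Q))
    (hgapW : ∀ (P : List α) (d : ℕ), W P → 0 < d → d ≤ Wg → ¬ W (P.take (P.length - d)))
    (hm : ∀ a b, ph (a ++ b) = ph a * ph b)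
    (hn : n + N1 ≤ z1) (hng : n ≤ g) (hg0 : 0 < g)
    (hc : ∀ k < K, c k ≤ p0) (hWg : 2 * p0 + 2 * N1 ≤ Wg) (hz1 : 2 * p0 ≤ z1)
    (hruler : ∀ k < K, ∀ k' < K, ∀ l < K, ∀ l' < K, k' ≠ k → l' ≠ l →
      c k + c l' ≤ c l + c k' + 2 * N1 → c l + c k' ≤ c k + c l' + 2 * N1 → k = l)
    (hthin : ∀ T, (∀ k < K, c k ≤ T) → ∃ J : Finset ℕ, J.card ≤ C0 ∧
      ∀ k < K, ∀ k' < K, k' ≠ k → Bad (T + c k' - c k) → k ∈ J)
    (hB : ∀ X : List α, X.length = p0 → ∀ v, ∃ I : Finset ℕ, 3 * C0 + 1 < I.card ∧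
      ∀ k ∈ I, k < K ∧ lamB k (X.take (c k)) = some v ∧ ∀ P' v', P'.length = c k →
        lamB k P' = some v' → gg ph nuB (P' ++ X.drop (c k)) v' = gg ph nuB X v)
    {z : List α} (hz2 : z ∈ Zc W p0 z1 g (Cr W z1 N1 Bad)) (v : Tok S) :
    Cut (LB K c lamB)
      (RR (Zc W p0 z1 g (Cr W z1 N1 Bad)) (NC W p0 z1 (Cr W z1 N1 Bad))
        (aff ph (dd W p0 z1 ph nuB nuA)) (LB K c lamB)) v z := by
  classical
  obtain ⟨X, Y, r, rfl, hX, hY, hr, hcr⟩ := hz2
  set z := X ++ (Y ++ r) with hzdef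
  have hzl : z.length = p0 + (Y.length + r.length) := by
    rw [hzdef, List.length_append, List.length_append, hX]
  have htake : z.take p0 = X := by rw [hzdef, ← hX, List.take_left]
  have hdrop : z.drop p0 = Y ++ r := by rw [hzdef, ← hX, List.drop_left]
  have hY1 := hY.1
  have hr1 := hr.1
  -- global walls
  have hG : ∀ e s, e + s ≤ z.length → n ≤ s → (W ((z.drop e).take s) ↔ W (z.take (e + s))) :=
    fun e s h1 h2 => wdrop loc h1 h2
  have hgap : ∀ x y, x < y → y ≤ z.length → W (z.take x) → W (z.take y) → x + Wg < y := by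
    intro x y hxy hy hx' hy'
    by_contra hcon
    have := hgapW (z.take y) (y - x) hy' (by omega) (by omega)
    rw [List.length_take, min_eq_left hy, List.take_take] at this
    have e : min (y - (y - x)) y = x := by omega
    rw [e] at this
    exact this hx'
  have hGt : W (z.take (p0 + Y.length)) := by
    rw [← hG p0 Y.length (by omega) (by omega), hdrop, List.take_left]
    exact hY.2.1
  have hdrop2 : z.drop (p0 + Y.length) = r := by
    rw [← List.drop_drop, hdrop, List.drop_left]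
  have hGb : W (z.take z.length) := by
    have e : z.length = (p0 + Y.length) + r.length := by omega
    rw [e, ← hG (p0 + Y.length) r.length (by omega) (by omega), hdrop2, List.take_length]
    exact hr.2.1
  have htmin : ∀ x, p0 + z1 ≤ x → x < p0 + Y.length → ¬ W (z.take x) := by
    intro x h1 h2 h3
    have e : x = p0 + (x - p0) := by omega
    rw [e, ← hG p0 (x - p0) (by omega) (by omega), hdrop,
      List.take_append_of_le_length (by omega)] at h3
    exact hY.2.2 (x - p0) (by omega) (by omega) h3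
  have hexn : ∃ x, p0 + Y.length < x ∧ x ≤ z.length ∧ W (z.take x) :=
    ⟨z.length, by omega, le_rfl, hGb⟩
  obtain ⟨tn, htn1, htn2, htn3, hbmin⟩ : ∃ tn, p0 + Y.length < tn ∧ tn ≤ z.length ∧
      W (z.take tn) ∧ ∀ x, p0 + Y.length < x → x < tn → ¬ W (z.take x) := by
    obtain ⟨h1, h2, h3⟩ := Nat.find_spec hexn
    refine ⟨Nat.find hexn, h1, h2, h3, fun x h4 h5 h6 => Nat.find_min hexn h5 ⟨h4, ?_, h6⟩⟩
    omega
  obtain ⟨J, hJ, hJ2⟩ := Cnt_8.count (fun x => W (z.take x)) Bad K N1 C0 Wg p0 z1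
    (p0 + Y.length) tn c hc (fun x y h1 h2 => hgap x y h1 (h2.trans htn2)) hWg hGt (by omega)
    htmin htn1 htn3 hbmin hz1 hruler
    (fun T hT => by
      obtain ⟨J, h1, h2⟩ := hthin T hT
      refine (Finset.card_le_card ?_).trans h1
      intro k hk
      rw [Finset.mem_filter, Finset.mem_range] at hk
      obtain ⟨hk1, k', hk', hne, hb⟩ := hk
      exact h2 k hk1 k' hk' hne hb)
  obtain ⟨I, hI, hI2⟩ := hB X hX v
  obtain ⟨k, hkI, hkJ⟩ : ∃ k ∈ I, k ∉ J := by
    by_contra hcon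
    push Not at hcon
    have := Finset.card_le_card (show I ⊆ J from fun a ha => hcon a ha)
    omega
  obtain ⟨hk, hlam, hex⟩ := hI2 k hkI
  have hck := hc k hk
  refine ⟨X.take (c k), X.drop (c k) ++ (Y ++ r), act (gg ph nuA Y (gg ph nuB X v)) (ph r), ?_,
    ⟨k, hk, by rw [List.length_take]; omega, hlam⟩, ?_⟩
  · rw [hzdef, ← List.append_assoc (X.take _), List.take_append_drop]
  rintro v' P' ⟨k', hk', hP', hlam'⟩
  by_cases hkk : k' = k
  · subst hkk
    left
    have e : P' ++ (X.drop (c k') ++ (Y ++ r)) = (P' ++ X.drop (c k')) ++ (Y ++ r) := by simp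
    have hl : (P' ++ X.drop (c k')).length = p0 := by
      rw [List.length_append, List.length_drop]; omega
    rw [e]
    refine ⟨⟨_, Y, r, rfl, hl, hY, hr, hcr⟩, ?_⟩
    rw [aff_eq hm r hl hY, hex P' v' hP' hlam']
  · right
    have hck' := hc k' hk'
    obtain ⟨s, s1, s2', s3, s4, s5⟩ := hJ2 k hk k' hk' hkk
    have s2 := s2'.trans htn2
    have s5' := s5 hkJ
    have hzdk : X.drop (c k) ++ (Y ++ r) = z.drop (c k) := by
      rw [hzdef, List.drop_append_of_le_length (by omega)]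
    rw [hzdk]
    have hUd : (P' ++ z.drop (c k)).drop p0 = z.drop (p0 + c k - c k') := by
      rw [List.drop_append, List.drop_of_length_le (by omega), List.nil_append, List.drop_drop]
      congr 1
      omega
    have hYl : ((z.drop (p0 + c k - c k')).take s).length = s := by
      rw [List.length_take, List.length_drop]; omega
    refine ⟨(P' ++ z.drop (c k)).take p0, (z.drop (p0 + c k - c k')).take s,
      (z.drop (p0 + c k - c k')).drop s, ?_, ?_, ⟨by omega, ?_, ?_⟩, ?_⟩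
    · rw [List.take_append_drop, ← hUd, List.take_append_drop]
    · rw [List.length_take, List.length_append, List.length_drop]; omega
    · rw [hG _ _ s2 (by omega)]; exact s3
    · intro s' h1 h2
      rw [hYl] at h2
      rw [List.take_take, min_eq_left h2.le, hG _ _ (by omega) (by omega)]
      exact s4 s' h1 h2
    · rintro (⟨s', h1, h2, h3, h4⟩ | hb)
      · apply s5'
        left
        rw [hYl] at h3
        rw [List.take_take, min_eq_left h3, hG _ _ (by omega) (by omega)] at h4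
        exact ⟨s', h1, h2, h3, h4⟩
      · apply s5'
        right
        rw [hYl] at hb
        exact hb

end comp

end Crest.Agent.R320.Inst_8
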