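import Crest.Agent.R320.Gad_818
import Crest.Agent.R320.Top5_110
import Crest.Agent.R320.Joint_47
import Crest.Agent.R320.P4N_211
import Crest.Agent.R320.WallU_228
import Crest.Agent.R320.ExactR_237
import Crest.Agent.R320.Univ_294
import Crest.Agent.R320.Dec_505

/-!
# Row 320: the instance (helper818)
`Top5_110.top_sem` + `Joint_47.complete1/2` + `P4N_211` + `WallU_228.walls` +
`ExactR_237.exact_gadget` + `Gad_818.gadget1` ⟹ star height at most 3.
-/

set_option autoImplicit false

namespace Crest.Agent.R320.Inst_818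

open Crest.Agent.R320.Hk_851 Crest.Agent.R320.Code110
open Crest.Agent.R320.ExactR_237 (pr pr_append exact_gadget)

section
variable {A S V : Type} [Monoid S] [AddCommGroup V]

/-- the zones -/
def ZZ (Wo : List A → Prop) (z : ℕ) : Language A := Joint_47.Zn Wo z

/-- the bad zones -/
def BB (Wo : List A → Prop) (z N p0 : ℕ) (BT : ℕ → Prop) : Language A :=
  {X | X ∈ Joint_47.Zn Wo z ∧ Joint_47.Bad Wo z N p0 BT X}

/-- the zone map -/
def TT (f : A → S) (act : V → S → V) (p0 : ℕ) (nu2 nu1 : List A → V) (X : List A) (v : V) : V :=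
  Joint_47.T f act p0 nu2 nu1 v X

theorem take_eq_of {K p : ℕ} (h : p ≤ K) {X X' : List A} (e : X.take K = X'.take K) :
    X.take p = X'.take p := by
  have := congrArg (List.take p) e
  rwa [List.take_take, List.take_take, min_eq_left h] at this

/-- finite state of the zone map -/
theorem TT_key {f : A → S} {act : V → S → V} {p0 N D z : ℕ} {nu2 nu1 : List A → V}
    (hz : p0 + N ≤ z)
    (hreg : ∀ Q Q' : List A, N ≤ Q.length → N ≤ Q'.length → Q.take N = Q'.take N →
      pr f (Q.drop N) = pr f (Q'.drop N) → Q.length % D = Q'.length % D → nu1 Q = nu1 Q')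
    {X X' : List A} (hX : z ≤ X.length) (hX' : z ≤ X'.length) (h1 : X.take z = X'.take z)
    (h2 : X.length % D = X'.length % D)
    (h3 : pr f (X.drop (p0 + N)) = pr f (X'.drop (p0 + N))) (v : V) :
    TT f act p0 nu2 nu1 X v = TT f act p0 nu2 nu1 X' v := by
  have e1 : X.take p0 = X'.take p0 := take_eq_of (by omega) h1
  have e0 : ∀ Y : List A, (Y.drop p0).take N = (Y.take (p0 + N)).drop p0 := fun Y => by
    rw [List.drop_take, Nat.add_sub_cancel_left]
  have e2 : (X.drop p0).take N = (X'.drop p0).take N := by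
    rw [e0, e0, take_eq_of hz h1]
  have e3 : pr f ((X.drop p0).drop N) = pr f ((X'.drop p0).drop N) := by
    rw [List.drop_drop, List.drop_drop]; exact h3
  have e4 : pr f (X.drop p0) = pr f (X'.drop p0) := by
    rw [← List.take_append_drop N (X.drop p0), ← List.take_append_drop N (X'.drop p0),
      pr_append, pr_append, e2, e3]
  have e5 : (X.drop p0).length % D = (X'.drop p0).length % D := by
    rw [List.length_drop, List.length_drop]
    have h5 : X.length - p0 + p0 ≡ X'.length - p0 + p0 [MOD D] := by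
      rw [Nat.sub_add_cancel (by omega), Nat.sub_add_cancel (by omega)]; exact h2
    exact Nat.ModEq.add_right_cancel' _ h5
  have e6 : nu1 (X.drop p0) = nu1 (X'.drop p0) :=
    hreg _ _ (by rw [List.length_drop]; omega) (by rw [List.length_drop]; omega) e2 e3 e5
  unfold TT Joint_47.T
  rw [e1, e4, e6]

/-- finite state of badness -/
theorem BB_key {Wo : List A → Prop} {p0 N D z : ℕ} {BT : ℕ → Prop} (hz : p0 + N ≤ z)
    (hper : ∀ T T', N ≤ T → N ≤ T' → T % D = T' % D → (BT T ↔ BT T'))
    {X X' : List A} (hX : z ≤ X.length) (hX' : z ≤ X'.length)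
    (h1 : X.take (z + N) = X'.take (z + N)) (h2 : X.length % D = X'.length % D)
    (h : Joint_47.Bad Wo z N p0 BT X) : Joint_47.Bad Wo z N p0 BT X' := by
  rcases h with ⟨t, a, b, c, d⟩ | h
  · left
    have e : X.take t = X'.take t := take_eq_of (by omega) h1
    refine ⟨t, a, b, ?_, by rw [← e]; exact d⟩
    have := congrArg List.length e
    rw [List.length_take, List.length_take] at this
    omega
  · right
    refine (hper _ _ (by omega) (by omega) ?_).1 h
    have h5 : X.length - p0 + p0 ≡ X'.length - p0 + p0 [MOD D] := by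
      rw [Nat.sub_add_cancel (by omega), Nat.sub_add_cancel (by omega)]; exact h2
    exact Nat.ModEq.add_right_cancel' _ h5

theorem le_of_take {K : ℕ} {X X' : List A} (h : X.take K = X'.take K) {z : ℕ} (hz : z ≤ K)
    (hX : z ≤ X.length) : z ≤ X'.length := by
  have := congrArg List.length h
  rw [List.length_take, List.length_take] at this
  omega

end

/-- **THE THEOREM**: values of words in a finite monoid have star height at most 3 -/
theorem values (A S : Type) [Finite A] [Monoid S] [Finite S] (f : A → S) (s : S) :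
    HL 3 ({w | (w.map f).prod = s} : Language A) := by
  classical
  obtain ⟨act, hadd, hone, hmul, hfaith⟩ := Asm_505.exists_faithful S
  have := Fintype.ofFinite S
  have : Finite (S →₀ ZMod 2) := Asm_505.finite_tokens
  have := Fintype.ofFinite (S →₀ ZMod 2)
  obtain ⟨R1, hG1⟩ := Gad_818.gadget1 S (S →₀ ZMod 2) act
  obtain ⟨K, hK⟩ := exact_gadget A S (S →₀ ZMod 2) f act (2 * R1 + 2)
  obtain ⟨N, D, X0, BT, hD, hX0, hper, hcnt, hg⟩ := hG1 K
  have hX0' : 0 < X0 := by omega
  have hmono : ∀ i j, i < j → X0 * 2 ^ i < X0 * 2 ^ j := fun i j h =>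
    Nat.mul_lt_mul_of_pos_left (Nat.pow_lt_pow_right (by norm_num) h) hX0'
  obtain ⟨lam2, rho2, nu2, hS2, hC2⟩ := hK (fun i => X0 * 2 ^ i) (fun i j h _ => hmono i j h)
  obtain ⟨lam, rho, nu1, hL, hS, hC, hreg⟩ := hg A (pr f) (pr_append f)
  set p0 : ℕ := X0 * 2 ^ K with hp0
  obtain ⟨n, Wo, loc, len, sep, R, B, pcs⟩ := WallU_228.walls (α := A) (2 * (N + p0) + 1)
  set z : ℕ := 3 * p0 + n + 2 * N + 1 with hz
  have hcp : ∀ k, k < K → X0 * 2 ^ k ≤ p0 := fun k hk => (hmono k K hk).le
  have hW : Joint_47.LW n (2 * (N + p0) + 1) Wo := by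
    refine ⟨len, loc, ?_⟩
    intro X s t hst ht hs hw
    by_contra hc
    have hl : (X.take t).length = t := by rw [List.length_take]; omega
    have := sep (X.take t) (t - s) hw (by omega) (by omega)
    rw [hl, List.take_take, show t - (t - s) = s from by omega, min_eq_left hst.le] at this
    exact this hs
  have hsub : ∀ a b : S →₀ ZMod 2, ∀ s, act (a - b) s = act a s - act b s := by
    intro a b s
    rw [eq_sub_iff_add_eq, ← hadd, sub_add_cancel]
  have hZ0 : ∀ {X : List A}, X ∈ Joint_47.Zn Wo z → z ≤ X.length := fun h => h.1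
  have hPC : PC (ZZ Wo z) := by
    refine ⟨fun h => ?_, fun u hu v hv h => Joint_47.Zn_prefix hu hv h (List.prefix_refl v)⟩
    have := hZ0 h
    rw [List.length_nil] at this
    omega
  -- heights
  have hXT : ∀ (Y : Type) (T : List A → Y),
      (∀ X X' : List A, z ≤ X.length → z ≤ X'.length → X.take (z + N) = X'.take (z + N) →
        X.length % D = X'.length % D → pr f (X.drop (p0 + N)) = pr f (X'.drop (p0 + N)) →
        T X = T X') → ∀ y, HL 1 ({X | X ∈ ZZ Wo z ∧ T X = y} : Language A) := by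
    intro Y T hT y
    have h1 : HL 1 ({X | X ∈ P4N_211.XX Wo z ∧
        (fun X : List A => if z ≤ X.length then some (T X) else none) X = some y} :
        Language A) := by
      refine P4N_211.hXT' (φ := pr f) (pr_append f) loc len pcs _ (z + N) D (p0 + N) hD ?_ _
      intro X X' h1 h2 h3
      by_cases hX : z ≤ X.length
      · have hX' : z ≤ X'.length := le_of_take h1 (by omega) hX
        rw [if_pos hX, if_pos hX', hT X X' hX hX' h1 h2 h3]
      · have hX' : ¬ z ≤ X'.length := fun h => hX (le_of_take h1.symm (by omega) h)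
        rw [if_neg hX, if_neg hX']
    refine h1.congr fun X => ?_
    constructor
    · rintro ⟨a, b⟩
      have hX : z ≤ X.length := a.1
      refine ⟨a, ?_⟩
      show (if z ≤ X.length then some (T X) else none) = some y
      rw [if_pos hX, b]
    · rintro ⟨a, b⟩
      have hX : z ≤ X.length := a.1
      have b' : (if z ≤ X.length then some (T X) else none) = some y := b
      rw [if_pos hX] at b'
      exact ⟨a, Option.some.inj b'⟩
  have H1 : HL 1 (ZZ Wo z) := by
    refine (hXT Unit (fun _ => ()) (fun _ _ _ _ _ _ _ => rfl) ()).congr fun X => ?_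
    exact ⟨fun h => ⟨h, rfl⟩, fun h => h.1⟩
  have H2 : HL 1 (BB Wo z N p0 BT) := by
    refine (hXT Prop (fun X => Joint_47.Bad Wo z N p0 BT X) ?_ True).congr fun X => ?_
    · intro X X' a b c d _
      exact propext ⟨fun h => BB_key (by omega) hper a b c d h,
        fun h => BB_key (by omega) hper b a c.symm d.symm h⟩
    · exact ⟨fun h => ⟨h.1, eq_true h.2⟩, fun h => ⟨h.1, of_eq_true h.2⟩⟩
  have H3 : ∀ x y, HL 1 (ZT (ZZ Wo z) (TT f act p0 (fun X => nu2 X 1) nu1) x y) := by
    intro x y
    refine hXT _ (fun X => TT f act p0 (fun X => nu2 X 1) nu1 X x) ?_ y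
    intro X X' a b c d e
    exact TT_key (by omega) hreg a b (take_eq_of (by omega) c) d e x
  have H4 : ∀ s, HL 3 ({w | (∀ u ∈ ZZ Wo z, ¬ u <+: w) ∧ pr f w = s} : Language A) := by
    intro s
    exact (P4N_211.hNP (φ := pr f) (pr_append f) loc len pcs s).mono (by norm_num)
  -- the top
  refine Top5_110.top_sem (φ := pr f) (act := act) (XX := ZZ Wo z) (Bad := BB Wo z N p0 BT)
    (T := TT f act p0 (fun X => nu2 X 1) nu1) (by simp [pr]) (pr_append f) hone hmul hfaith hPC
    (fun u hu => hu.1) ?_ H1 H2 H3 H4 (N1 := 0) (N2 := 1)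
    (L1 := fun v => {P | Joint_47.L1 f act p0 (fun X => nu2 X 1) lam v P})
    (L2 := fun v => {P | Joint_47.L2 K (fun i => X0 * 2 ^ i) lam2 v P}) ?_ ?_ ?_ ?_ s
  · intro u _ v v'
    unfold TT Joint_47.T
    rw [hadd, hadd, ← hmul, ← hmul, ← pr_append, List.take_append_drop, hsub]
    abel
  · intro v
    refine (List.finite_length_le A (p0 + N)).subset ?_
    rintro P ⟨h1, h2⟩
    have := hL _ _ h2
    rw [List.length_drop] at this
    show P.length ≤ p0 + N
    omega
  · intro v
    refine (List.finite_length_le A (p0 + N)).subset ?_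
    rintro P ⟨k, hk, h1, h2⟩
    have := hcp k hk
    have h1' : P.length = X0 * 2 ^ k := h1
    show P.length ≤ p0 + N
    omega
  · intro u hu hub x t ht
    rw [pow_zero] at ht
    have ht' : t = [] := ht
    subst ht'
    obtain ⟨p, q, e, hp, hq, h⟩ := Joint_47.complete1 f act p0 (fun X => nu2 X 1) nu1 hW
      (fun P Q v r => hS P Q v r) hL (N0 := 2 * N) hC (by omega) (by omega) hu
      (fun hb => hub ⟨hu, hb⟩) x
    refine ⟨p, q, TT f act p0 (fun X => nu2 X 1) nu1 u x, by rw [List.append_nil]; exact e, hp, ?_⟩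
    intro x' p' hp'
    obtain ⟨h1, h2⟩ := h x' p' hp'
    left
    refine ⟨TT f act p0 (fun X => nu2 X 1) nu1 (p' ++ q) x', Language.mem_mul.2
      ⟨p' ++ q, ⟨h1, rfl⟩, [], ⟨rfl, h2⟩, List.append_nil _⟩⟩
  · intro u hu x t ht
    rw [pow_one] at ht
    have hres : ∀ i i' j j', i < K → i' < K → j < K → j' < K → i' ≠ i → j' ≠ j →
        X0 * 2 ^ i + X0 * 2 ^ j' < X0 * 2 ^ j + X0 * 2 ^ i' + 2 * N →
        X0 * 2 ^ j + X0 * 2 ^ i' < X0 * 2 ^ i + X0 * 2 ^ j' + 2 * N → i = j := by
      intro i i' j j' _ _ _ _ hi hj h1 h2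
      by_contra hij
      have hne : (i, i') ≠ (j, j') := fun h => hij (Prod.mk.inj h).1
      rcases GridRuler_896.spaced hX0 (a := i) (b := i') (c := j) (d := j') (Ne.symm hi)
        (Ne.symm hj) hne with h3 | h3
      · omega
      · omega
    obtain ⟨p, q, e, hp, hq, h⟩ := Joint_47.complete2 f act p0 nu1 hW
      hS2 hC2 (fun i j h _ => hmono i j h) hcp (R1 := R1) (N1 := N) (z := z) (BadT := BT) hres
      (fun T hT I hI => hcnt T hT I hI) (by omega) (by omega) hu.1 ht.1 hu.2 x
    · refine ⟨p, q, TT f act p0 (fun X => nu2 X 1) nu1 t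
        (TT f act p0 (fun X => nu2 X 1) nu1 u x), e, hp, ?_⟩
      intro x' p' hp'
      rcases h x' p' hp' with ⟨a, ha, hab, e', e''⟩ | ⟨a, ha, hab, hpre⟩
      · left
        rw [e']
        refine ⟨_, Language.mem_mul.2 ⟨a, ⟨⟨ha, hab⟩, rfl⟩, t, ?_, rfl⟩⟩
        refine ⟨_, Language.mem_mul.2 ⟨t, ⟨ht, rfl⟩, [], ⟨rfl, ?_⟩, List.append_nil _⟩⟩
        show TT f act p0 (fun X => nu2 X 1) nu1 t (TT f act p0 (fun X => nu2 X 1) nu1 a x') = _
        unfold TT
        rw [e'']
      · right
        left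
        exact ⟨a, ha, fun hb => hab hb.2, hpre⟩

/-- **S0495** -/
theorem s0495 (α : Type*) [Finite α] (L : Language α) (hL : L.IsRegular) :
    ∃ e : Crest.RegLang.GRegExp α, e.height ≤ 3 ∧ e.lang = L :=
  Univ_294.s0495_of_types (fun β _ S _ _ φ s => values β S φ s) α L hL

end Crest.Agent.R320.Inst_818
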