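import Crest.Agent.R320.Top5_120
import Crest.Agent.R320.ExactR_237
import Crest.Agent.R320.WallU_228
import Crest.Agent.R320.Dec_505

/-!
# Row 320: instance of 120's `top5` (natural chain rule, gadget 1 = 772's `UGI`, gadget 2 = 237's
exact gadget, walls of 228) (helper895)
-/

set_option autoImplicit false

namespace Crest.Agent.R320.Inst_895

open Crest.RegLang Crest.Agent.R320.Hk_851 Crest.Agent.R320.Blk467 Finset

variable {α S V : Type} [Monoid S] [AddCommGroup V]

/-- value of a word -/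
abbrev pv (φ : α → S) (u : List α) : S := (u.map φ).prod

theorem pv_append (φ : α → S) (u v : List α) : pv φ (u ++ v) = pv φ u * pv φ v := by
  simp [pv]

/-- all data -/
structure Dt (α S V : Type) [Monoid S] [AddCommGroup V] where
  φ : α → S
  act : V → S → V
  K : ℕ
  c : ℕ → ℕ
  N1 : ℕ
  La : ℕ
  Pm : ℕ
  Bd : ℕ → Prop
  lam1 : List α → Option V
  rho1 : List α → Option V
  nu1 : List α → V
  lam2 : ℕ → List α → Option V
  rho2 : ℕ → List α → Option V
  nu2 : List α → V
  n : ℕ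
  Wo : List α → Prop
  p0 : ℕ
  z0 : ℕ
  W : ℕ
  C0 : ℕ

namespace Dt

variable (D : Dt α S V)

/-- blocks -/
def C : Set (List α) :=
  {X | D.z0 ≤ X.length ∧ D.Wo X ∧ ∀ k, D.z0 ≤ k → k < X.length → ¬ D.Wo (X.take k)}

def Good (X : List α) : Prop :=
  D.z0 + D.N1 ≤ X.length ∧ (∀ k, D.z0 ≤ k + D.N1 → k < D.z0 → ¬ D.Wo (X.take k)) ∧
    ¬ D.Bd (X.length - D.p0)

def Bad : Set (List α) := {X | X ∈ D.C ∧ ¬ D.Good X}

/-- token after the first `p0` letters -/
def mid (v : V) (X : List α) : V :=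
  D.act v (pv D.φ (X.take D.p0)) + D.nu2 (X.take D.p0)

def nu (X : List α) : V :=
  D.act (D.nu2 (X.take D.p0)) (pv D.φ (X.drop D.p0)) + D.nu1 (X.drop D.p0)

def L1 (v : V) : Set (List α) :=
  {P | D.p0 ≤ P.length ∧ P.length ≤ D.p0 + D.N1 ∧ D.lam1 (P.drop D.p0) = some (D.mid v P)}

def L2 (v : V) : Set (List α) := {P | ∃ k < D.K, P.length = D.c k ∧ D.lam2 k P = some v}

open Classical in
/-- hypotheses -/
structure Ok (D : Dt α S V) : Prop where
  add : ∀ a b s, D.act (a + b) s = D.act a s + D.act b s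
  mul : ∀ v s t, D.act v (s * t) = D.act (D.act v s) t
  cp : ∀ k < D.K, D.c k ≤ D.p0
  sep : ∀ i < D.K, ∀ j < D.K, ∀ k < D.K, ∀ l < D.K, i ≠ j → k ≠ l → (i, j) ≠ (k, l) →
    D.c i + D.c l + 4 * D.N1 < D.c k + D.c j ∨ D.c k + D.c j + 4 * D.N1 < D.c i + D.c l
  thin : ∀ T, D.La ≤ T → (((range D.K ×ˢ range D.K).filter
    (fun ij => ij.1 ≠ ij.2 ∧ D.Bd (T + D.c ij.2 - D.c ij.1))).card ≤ D.C0)
  len1 : ∀ p v, D.lam1 p = some v → p.length ≤ D.N1
  snd1 : ∀ p q v r, D.lam1 p = some v → D.rho1 q = some r → D.La ≤ q.length →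
    r = D.act v (pv D.φ (p ++ q)) + D.nu1 (p ++ q)
  cpl1 : ∀ u, D.La ≤ u.length → ¬ D.Bd u.length → ∀ v, ∃ p q, p ++ q = u ∧
    D.lam1 p = some v ∧ (D.rho1 q).isSome
  snd2 : ∀ k < D.K, ∀ (P Q : List α) (v b : V), P.length = D.c k → D.lam2 k P = some v →
    D.rho2 k Q = some b → b = D.act v (pv D.φ (P ++ Q)) + D.nu2 (P ++ Q)
  cpl2 : ∀ (u : List α) (v : V), (∀ k < D.K, D.c k ≤ u.length) →
    ∃ I : Finset ℕ, 2 + 2 * D.C0 ≤ I.card ∧ ∀ k ∈ I, k < D.K ∧ D.lam2 k (u.take (D.c k)) = some v ∧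
      (D.rho2 k (u.drop (D.c k))).isSome
  loc : ∀ P Q : List α, D.n ≤ Q.length → (D.Wo (P ++ Q) ↔ D.Wo Q)
  gap : ∀ (P : List α) (d : ℕ), D.Wo P → 0 < d → d ≤ D.W → ¬ D.Wo (P.take (P.length - d))
  hz : D.p0 + D.N1 + D.n + D.La + D.p0 + D.p0 < D.z0
  hW : 2 * D.p0 + 2 * D.N1 + 1 ≤ D.W

variable {D}

/-- walls of `P ++ Q` beyond `|P| + n` are walls of `P' ++ Q` -/
theorem Ok.trans (h : D.Ok) (P P' Q : List α) (k : ℕ) (h1 : P.length + D.n ≤ k)
    (h2 : k ≤ P.length + Q.length) :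
    (D.Wo ((P ++ Q).take k) ↔ D.Wo ((P' ++ Q).take (k - P.length + P'.length))) := by
  have e1 : (P ++ Q).take k = P ++ Q.take (k - P.length) := by
    rw [List.take_append, List.take_of_length_le (by omega)]
  have e2 : (P' ++ Q).take (k - P.length + P'.length) = P' ++ Q.take (k - P.length) := by
    rw [List.take_append, List.take_of_length_le (by omega)]
    congr 2
    omega
  have hl : D.n ≤ (Q.take (k - P.length)).length := by
    rw [List.length_take]; omega
  rw [e1, e2, h.loc P _ hl, h.loc P' _ hl]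

theorem Ok.pcode (h : D.Ok) : PCode D.C := by
  refine ⟨?_, ?_⟩
  · rintro ⟨h1, _⟩
    have := h.hz
    simp at h1
    omega
  · rintro X ⟨hX1, hX2, hX3⟩ Y ⟨hY1, hY2, hY3⟩ hXY
    obtain ⟨Z, rfl⟩ := hXY
    by_contra hne
    have hZ : 0 < Z.length := by
      rcases Z with _ | ⟨a, Z⟩
      · simp at hne
      · simp
    refine hY3 X.length hX1 (by simp; omega) ?_
    rw [List.take_left]
    exact hX2

/-- replacing the left word of a block -/
theorem Ok.swap (h : D.Ok) {P P' Q : List α} (hX : P ++ Q ∈ D.C) (hP : P.length ≤ D.p0 + D.N1)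
    (hP' : P'.length = P.length) : P' ++ Q ∈ D.C := by
  obtain ⟨h1, h2, h3⟩ := hX
  have hz := h.hz
  rw [List.length_append] at h1
  have hn : D.n ≤ Q.length := by omega
  refine ⟨by rw [List.length_append]; omega, ?_, ?_⟩
  · rw [h.loc P' Q hn]
    exact (h.loc P Q hn).1 h2
  · intro k hk1 hk2 hk
    rw [List.length_append] at hk2
    have := (h.trans P' P Q k (by omega) (by omega)).1 hk
    rw [hP'] at this
    have e : k - P.length + P.length = k := by omega
    rw [e] at this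
    exact h3 k hk1 (by rw [List.length_append]; omega) this

/-- **completeness of scheme 1** -/
theorem Ok.cc1 (h : D.Ok) (X : List α) (hX : X ∈ D.C) (hb : X ∉ D.Bad) (v : V) :
    ∃ P Q, P ++ Q = X ∧ P ∈ D.L1 v ∧ ∀ x, ∀ P' ∈ D.L1 x, P' ++ Q ∈ D.C ∧
      D.act x (pv D.φ (P' ++ Q)) + D.nu (P' ++ Q) = D.act v (pv D.φ X) + D.nu X := by
  have hg : D.Good X := by
    by_contra hg
    exact hb ⟨hX, hg⟩
  obtain ⟨hX1, hX2, hX3⟩ := hX
  obtain ⟨hg1, hg2, hg3⟩ := hg
  have hz := h.hz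
  have hlY : (X.drop D.p0).length = X.length - D.p0 := List.length_drop
  obtain ⟨p, q, hpq, hlam, hrho⟩ := h.cpl1 (X.drop D.p0) (by omega) (by rw [hlY]; exact hg3)
    (D.mid v X)
  obtain ⟨r, hr⟩ := Option.isSome_iff_exists.1 hrho
  have hpl := h.len1 _ _ hlam
  have hlen : p.length + q.length = X.length - D.p0 := by
    rw [← hlY, ← hpq, List.length_append]
  have hX1l : (X.take D.p0).length = D.p0 := by rw [List.length_take]; omega
  have hPQ : (X.take D.p0 ++ p) ++ q = X := by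
    rw [List.append_assoc, hpq, List.take_append_drop]
  have htk : ∀ P : List α, D.p0 ≤ P.length → ∀ Q, (P ++ Q).take D.p0 = P.take D.p0 := by
    intro P hP Q
    rw [List.take_append_of_le_length hP]
  have hdr : ∀ P : List α, D.p0 ≤ P.length → ∀ Q, (P ++ Q).drop D.p0 = P.drop D.p0 ++ Q := by
    intro P hP Q
    rw [List.drop_append_of_le_length hP]
  have hPl : (X.take D.p0 ++ p).length = D.p0 + p.length := by
    rw [List.length_append, hX1l]
  have hmid : ∀ (x : V) (P : List α), D.p0 ≤ P.length → ∀ Q, D.mid x (P ++ Q) = D.mid x P := by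
    intro x P hP Q
    unfold mid
    rw [htk P hP]
  -- value of a cut
  have hval : ∀ x, ∀ P' ∈ D.L1 x,
      D.act x (pv D.φ (P' ++ q)) + D.nu (P' ++ q) = r := by
    intro x P' hP'
    obtain ⟨h1, h2, h3⟩ := hP'
    have hs := h.snd1 _ q _ r h3 hr (by omega)
    rw [hs]
    unfold nu mid
    rw [htk P' h1, hdr P' h1, h.add]
    have e : pv D.φ (P' ++ q) = pv D.φ (P'.take D.p0) * pv D.φ (P'.drop D.p0 ++ q) := by
      rw [← pv_append, ← List.append_assoc, List.take_append_drop]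
    rw [e, h.mul]
    abel
  have hPL : X.take D.p0 ++ p ∈ D.L1 v := by
    refine ⟨by omega, by omega, ?_⟩
    have e1 : (X.take D.p0 ++ p).drop D.p0 = p := by
      rw [List.drop_append, List.drop_of_length_le (by omega), hX1l]
      simp
    rw [e1, hlam]
    congr 1
    rw [← hmid v (X.take D.p0 ++ p) (by omega) q, hPQ]
  refine ⟨X.take D.p0 ++ p, q, hPQ, hPL, ?_⟩
  intro x P' hP'
  have h1 := hval x P' hP'
  have h2 := hval v _ hPL
  rw [hPQ] at h2
  refine ⟨?_, by rw [h1, h2]⟩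
  obtain ⟨h3, h4, h5⟩ := hP'
  have hn : D.n ≤ q.length := by omega
  refine ⟨by rw [List.length_append]; omega, ?_, ?_⟩
  · rw [h.loc P' q hn, ← h.loc (X.take D.p0 ++ p) q hn, hPQ]
    exact hX2
  · intro k hk1 hk2 hk
    rw [List.length_append] at hk2
    have := (h.trans P' (X.take D.p0 ++ p) q k (by omega) (by omega)).1 hk
    rw [hPQ, hPl] at this
    by_cases hc : k - P'.length + (D.p0 + p.length) < D.z0
    · exact hg2 _ (by omega) hc this
    · exact hX3 _ (by omega) (by omega) this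


/-- a good candidate gives a block which is not bad -/
theorem Ok.cand (h : D.Ok) {t : List α} {a b e : ℕ} (ha : a < D.K) (hb : b < D.K)
    (hat : D.c a ≤ t.length)
    (he1 : D.z0 + D.c a ≤ e + D.c b) (he2 : e ≤ t.length) (he3 : D.Wo (t.take e))
    (he4 : ∀ w, w < e → D.z0 + D.c a ≤ w + D.c b → ¬ D.Wo (t.take w))
    (hg1 : D.z0 + D.N1 + D.c a ≤ e + D.c b)
    (hg2 : ∀ w, w < e → D.z0 + D.c a ≤ w + D.c b + D.N1 → ¬ D.Wo (t.take w))
    (hg3 : ¬ D.Bd (e + D.c b - D.c a - D.p0)) (P' : List α) (hP' : P'.length = D.c b) :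
    ∃ X' ∈ D.C, X' ∉ D.Bad ∧ X' <+: P' ++ t.drop (D.c a) := by
  set Q := t.drop (D.c a) with hQ
  have hz := h.hz
  have hca := h.cp a ha
  have hcb := h.cp b hb
  have hQl : Q.length = t.length - D.c a := List.length_drop
  have htk : (t.take (D.c a)).length = D.c a := by rw [List.length_take]; omega
  have ht : t.take (D.c a) ++ Q = t := List.take_append_drop _ _
  have key : ∀ k, D.c b + D.n ≤ k → k ≤ D.c b + Q.length →
      (D.Wo ((P' ++ Q).take k) ↔ D.Wo (t.take (k - D.c b + D.c a))) := by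
    intro k h1 h2
    have := h.trans P' (t.take (D.c a)) Q k (by omega) (by omega)
    rw [ht, htk, hP'] at this
    exact this
  have hlX : ((P' ++ Q).take (e + D.c b - D.c a)).length = e + D.c b - D.c a := by
    rw [List.length_take, List.length_append]; omega
  have htt : ∀ k, k ≤ e + D.c b - D.c a →
      ((P' ++ Q).take (e + D.c b - D.c a)).take k = (P' ++ Q).take k := by
    intro k hk
    rw [List.take_take, min_eq_left hk]
  refine ⟨(P' ++ Q).take (e + D.c b - D.c a), ⟨?_, ?_, ?_⟩, ?_, List.take_prefix _ _⟩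
  · omega
  · rw [key _ (by omega) (by omega)]
    have e0 : e + D.c b - D.c a - D.c b + D.c a = e := by omega
    rw [e0]
    exact he3
  · intro k hk1 hk2 hk
    rw [hlX] at hk2
    rw [htt k (by omega), key k (by omega) (by omega)] at hk
    exact he4 _ (by omega) (by omega) hk
  · rintro ⟨_, hng⟩
    refine hng ⟨by omega, ?_, ?_⟩
    · intro k hk1 hk2 hk
      rw [htt k (by omega), key k (by omega) (by omega)] at hk
      exact hg2 _ (by omega) (by omega) hk
    · rw [hlX]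
      exact hg3

/-- **the spoil count** -/
theorem Ok.spoil (h : D.Ok) {X Y : List α} (hX : X ∈ D.C) (hY : Y ∈ D.C) :
    ∃ J : Finset ℕ, J.card ≤ 1 + 2 * D.C0 ∧ ∀ a < D.K, a ∉ J → ∀ b < D.K, b ≠ a →
      ∀ P' : List α, P'.length = D.c b →
        ∃ X' ∈ D.C, X' ∉ D.Bad ∧ X' <+: P' ++ (X ++ Y).drop (D.c a) := by
  classical
  obtain ⟨hX1, hX2, hX3⟩ := hX
  obtain ⟨hY1, hY2, hY3⟩ := hY
  have hz := h.hz
  have hW := h.hW
  set t := X ++ Y with ht
  have htl : t.length = X.length + Y.length := by rw [ht, List.length_append]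
  have hwX : D.Wo (t.take X.length) := by rw [ht, List.take_left]; exact hX2
  have hwt : D.Wo (t.take t.length) := by
    rw [List.take_length, ht, h.loc X Y (by omega)]
    exact hY2
  have gapt : ∀ w w', w < w' → w' ≤ t.length → D.Wo (t.take w) → D.Wo (t.take w') →
      w + D.W < w' := by
    intro w w' h1 h2 h3 h4
    by_contra hc
    have hl : (t.take w').length = w' := by rw [List.length_take]; omega
    refine h.gap (t.take w') (w' - w) h4 (by omega) (by omega) ?_
    rw [hl, List.take_take]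
    have e : min (w' - (w' - w)) w' = w := by omega
    rw [e]
    exact h3
  have hexA : ∃ w, D.z0 ≤ w + D.p0 ∧ w ≤ t.length ∧ D.Wo (t.take w) :=
    ⟨X.length, by omega, by omega, hwX⟩
  obtain ⟨wA, ⟨hA1, hA2, hA3⟩, hAmin⟩ : ∃ wA, (D.z0 ≤ wA + D.p0 ∧ wA ≤ t.length ∧
      D.Wo (t.take wA)) ∧ ∀ w, D.z0 ≤ w + D.p0 ∧ w ≤ t.length ∧ D.Wo (t.take w) → wA ≤ w :=
    ⟨Nat.find hexA, Nat.find_spec hexA, fun w hw => Nat.find_min' hexA hw⟩
  have hAX : wA ≤ X.length := hAmin _ ⟨by omega, by omega, hwX⟩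
  have hexB : ∃ w, wA < w ∧ w ≤ t.length ∧ D.Wo (t.take w) :=
    ⟨t.length, by omega, le_refl _, hwt⟩
  obtain ⟨wB, ⟨hB1, hB2, hB3⟩, hBmin⟩ : ∃ wB, (wA < wB ∧ wB ≤ t.length ∧
      D.Wo (t.take wB)) ∧ ∀ w, wA < w ∧ w ≤ t.length ∧ D.Wo (t.take w) → wB ≤ w :=
    ⟨Nat.find hexB, Nat.find_spec hexB, fun w hw => Nat.find_min' hexB hw⟩
  have hAB := gapt wA wB hB1 hB2 hA3 hB3
  let FE := (range D.K ×ˢ range D.K).filter (fun ij => ij.1 ≠ ij.2 ∧ ∃ w, w ≤ t.length ∧
    D.Wo (t.take w) ∧ D.z0 + D.c ij.1 ≤ w + D.c ij.2 + D.N1 ∧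
      w + D.c ij.2 < D.z0 + D.c ij.1 + D.N1)
  let FA := (range D.K ×ˢ range D.K).filter
    (fun ij => ij.1 ≠ ij.2 ∧ D.Bd (wA - D.p0 + D.c ij.2 - D.c ij.1))
  let FB := (range D.K ×ˢ range D.K).filter
    (fun ij => ij.1 ≠ ij.2 ∧ D.Bd (wB - D.p0 + D.c ij.2 - D.c ij.1))
  have hFE : FE.card ≤ 1 := by
    refine Finset.card_le_one.2 ?_
    rintro ⟨i, j⟩ h1 ⟨k, l⟩ h2
    simp only [FE, mem_filter, mem_product, mem_range] at h1 h2
    obtain ⟨⟨hi, hj⟩, hij, w, hw1, hw2, hw3, hw4⟩ := h1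
    obtain ⟨⟨hk, hl⟩, hkl, w', hw1', hw2', hw3', hw4'⟩ := h2
    by_contra hne
    have c1 := h.cp i hi
    have c2 := h.cp j hj
    have c3 := h.cp k hk
    have c4 := h.cp l hl
    have hww : w = w' := by
      rcases lt_trichotomy w w' with hlt | heq | hlt
      · have := gapt w w' hlt hw1' hw2 hw2'
        omega
      · exact heq
      · have := gapt w' w hlt hw1 hw2' hw2
        omega
    subst hww
    rcases h.sep i hi j hj k hk l hl hij hkl hne with h5 | h5 <;> omega
  have hFA : FA.card ≤ D.C0 := by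
    have := h.thin (wA - D.p0) (by omega)
    convert this
  have hFB : FB.card ≤ D.C0 := by
    have := h.thin (wB - D.p0) (by omega)
    convert this
  refine ⟨(FE ∪ FA ∪ FB).image Prod.fst, ?_, ?_⟩
  · refine Finset.card_image_le.trans ?_
    refine (Finset.card_union_le _ _).trans ?_
    have := Finset.card_union_le FE FA
    omega
  · intro a ha haJ b hb hba P' hP'
    have hca := h.cp a ha
    have hcb := h.cp b hb
    have hn : ∀ F : Finset (ℕ × ℕ), F ⊆ FE ∪ FA ∪ FB → (a, b) ∉ F := by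
      intro F hF hmem
      exact haJ (Finset.mem_image.2 ⟨(a, b), hF hmem, rfl⟩)
    have hnE : (a, b) ∉ FE := hn FE (fun x hx => by simp [hx])
    have hnA : (a, b) ∉ FA := hn FA (fun x hx => by simp [hx])
    have hnB : (a, b) ∉ FB := hn FB (fun x hx => by simp [hx])
    have hE : ∀ w, w ≤ t.length → D.Wo (t.take w) → D.z0 + D.c a ≤ w + D.c b + D.N1 →
        w + D.c b < D.z0 + D.c a + D.N1 → False := by
      intro w h1 h2 h3 h4
      refine hnE ?_
      simp only [FE, mem_filter, mem_product, mem_range]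
      exact ⟨⟨ha, hb⟩, Ne.symm hba, w, h1, h2, h3, h4⟩
    have hexe : ∃ w, D.z0 + D.c a ≤ w + D.c b ∧ w ≤ t.length ∧ D.Wo (t.take w) :=
      ⟨t.length, by omega, le_refl _, hwt⟩
    obtain ⟨e, ⟨he1, he2, he3⟩, hemin⟩ : ∃ e, (D.z0 + D.c a ≤ e + D.c b ∧ e ≤ t.length ∧
        D.Wo (t.take e)) ∧ ∀ w, D.z0 + D.c a ≤ w + D.c b ∧ w ≤ t.length ∧ D.Wo (t.take w) →
          e ≤ w :=
      ⟨Nat.find hexe, Nat.find_spec hexe, fun w hw => Nat.find_min' hexe hw⟩
    have hAe : wA ≤ e := hAmin _ ⟨by omega, he2, he3⟩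
    have hcase : e = wA ∨ e = wB := by
      rcases Nat.eq_or_lt_of_le hAe with h1 | h1
      · exact Or.inl h1.symm
      · right
        have h2 := hBmin e ⟨h1, he2, he3⟩
        have h3 := hemin wB ⟨by omega, hB2, hB3⟩
        omega
    have he4 : ∀ w, w < e → D.z0 + D.c a ≤ w + D.c b → ¬ D.Wo (t.take w) := by
      intro w h1 h2 h3
      have := hemin w ⟨h2, by omega, h3⟩
      omega
    refine h.cand ha hb (by omega) he1 he2 he3 he4 ?_ ?_ ?_ P' hP'
    · by_contra hc
      exact hE e he2 he3 (by omega) (by omega)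
    · intro w h1 h2 h3
      by_cases h4 : D.z0 + D.c a ≤ w + D.c b
      · exact he4 w h1 h4 h3
      · exact hE w (by omega) h3 h2 (by omega)
    · intro hB
      have e1 : e + D.c b - D.c a - D.p0 = e - D.p0 + D.c b - D.c a := by omega
      rw [e1] at hB
      rcases hcase with rfl | rfl
      · refine hnA ?_
        simp only [FA, mem_filter, mem_product, mem_range]
        exact ⟨⟨ha, hb⟩, Ne.symm hba, hB⟩
      · refine hnB ?_
        simp only [FB, mem_filter, mem_product, mem_range]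
        exact ⟨⟨ha, hb⟩, Ne.symm hba, hB⟩

/-- **completeness of scheme 2** -/
theorem Ok.cc2 (h : D.Ok) (X : List α) (hX : X ∈ D.Bad) (Y : List α) (hY : Y ∈ D.Bad) (v : V) :
    ∃ P Q, P ++ Q = X ++ Y ∧ P ∈ D.L2 v ∧ ∀ x, ∀ P' ∈ D.L2 x,
      (∃ X' ∈ D.Bad, ∃ Y' ∈ D.C, X' ++ Y' = P' ++ Q ∧
        D.act (D.act x (pv D.φ X') + D.nu X') (pv D.φ Y') + D.nu Y' =
          D.act (D.act v (pv D.φ X) + D.nu X) (pv D.φ Y) + D.nu Y) ∨
      (∃ X' ∈ D.C, X' ∉ D.Bad ∧ X' <+: P' ++ Q) := by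
  have hXC := hX.1
  have hYC := hY.1
  have hz := h.hz
  have hXl : D.z0 ≤ X.length := hXC.1
  obtain ⟨J, hJ, hgood⟩ := h.spoil hXC hYC
  have hul : (X.take D.p0).length = D.p0 := by rw [List.length_take]; omega
  obtain ⟨I, hI, hIc⟩ := h.cpl2 (X.take D.p0) v (fun k hk => by rw [hul]; exact h.cp k hk)
  obtain ⟨a, haI, haJ⟩ : ∃ a ∈ I, a ∉ J := by
    by_contra hc
    push Not at hc
    have := Finset.card_le_card (show I ⊆ J from hc)
    omega
  obtain ⟨ha, hlam, hrho⟩ := hIc a haI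
  obtain ⟨b0, hb0⟩ := Option.isSome_iff_exists.1 hrho
  have hca := h.cp a ha
  have e1 : (X.take D.p0).take (D.c a) = X.take (D.c a) := by
    rw [List.take_take, min_eq_left hca]
  rw [e1] at hlam
  have hdr : (X ++ Y).drop (D.c a) = X.drop (D.c a) ++ Y := by
    rw [List.drop_append_of_le_length (by omega)]
  have htl : (X.take (D.c a)).length = D.c a := by rw [List.length_take]; omega
  refine ⟨X.take (D.c a), (X ++ Y).drop (D.c a), ?_, ⟨a, ha, htl, hlam⟩, ?_⟩
  · rw [hdr, ← List.append_assoc, List.take_append_drop]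
  · rintro x P' ⟨b, hb, hPb, hlb⟩
    by_cases hba : b = a
    · subst hba
      -- the true place
      have hX'C : P' ++ X.drop (D.c b) ∈ D.C := by
        refine h.swap (P := X.take (D.c b)) ?_ (by omega) (by omega)
        rw [List.take_append_drop]
        exact hXC
      by_cases hX'B : P' ++ X.drop (D.c b) ∈ D.Bad
      · left
        refine ⟨_, hX'B, Y, hYC, by rw [hdr, List.append_assoc], ?_⟩
        congr 2
        -- `T x X' = T v X`
        have hd1 : (X.take D.p0).drop (D.c b) = (X.drop (D.c b)).take (D.p0 - D.c b) := by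
          rw [List.drop_take]
        have ht1 : (P' ++ X.drop (D.c b)).take D.p0 = P' ++ (X.take D.p0).drop (D.c b) := by
          rw [hd1, List.take_append, List.take_of_length_le (by omega), hPb]
        have hd2 : (P' ++ X.drop (D.c b)).drop D.p0 = X.drop D.p0 := by
          rw [List.drop_append, List.drop_of_length_le (by omega), List.drop_drop, hPb]
          simp only [List.nil_append]
          congr 1
          omega
        have s1 := h.snd2 b hb P' _ x b0 hPb hlb hb0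
        have s2 := h.snd2 b hb _ _ v b0 htl hlam hb0
        have e2 : X.take (D.c b) ++ (X.take D.p0).drop (D.c b) = X.take D.p0 := by
          rw [← e1, List.take_append_drop]
        rw [e2] at s2
        have hform : ∀ (y : V) (Z : List α), D.act y (pv D.φ Z) + D.nu Z =
            D.act (D.act y (pv D.φ (Z.take D.p0)) + D.nu2 (Z.take D.p0))
              (pv D.φ (Z.drop D.p0)) + D.nu1 (Z.drop D.p0) := by
          intro y Z
          unfold nu
          have e : pv D.φ Z = pv D.φ (Z.take D.p0) * pv D.φ (Z.drop D.p0) := by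
            rw [← pv_append, List.take_append_drop]
          rw [e, h.mul, h.add]
          abel
        rw [hform, hform, ht1, hd2, ← s1, ← s2]
      · right
        exact ⟨_, hX'C, hX'B, by rw [hdr, ← List.append_assoc]; exact List.prefix_append _ _⟩
    · right
      exact hgood a ha haJ b hb hba P' hPb

end Dt

end Crest.Agent.R320.Inst_895
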