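import Crest.Agent.R320.Top5_110
import Crest.Agent.R320.ExactR_237

/-!
# Row 320: completeness statements C1, C2 of `Top5_110.top_sem` for the natural left-looking code
(helper910)
-/

set_option autoImplicit false

namespace Crest.Agent.R320.Inst_910

open Crest.Agent.R320.Hk_851 Crest.Agent.R320.Code110 Crest.Agent.R320.Top5_110

variable {α : Type}

/-- natural code: first wall at a place `≥ z` -/
def XX (Wo : List α → Prop) (z : ℕ) : Language α :=
  {X | z ≤ X.length ∧ Wo X ∧ ∀ t, z ≤ t → t < X.length → ¬ Wo (X.take t)}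

theorem XX_pc {Wo : List α → Prop} {z : ℕ} (hz : 0 < z) : PC (XX Wo z) where
  ne := by
    rintro ⟨h, -, -⟩
    simp at h
    omega
  pf := by
    rintro u ⟨hu1, hu2, hu3⟩ v ⟨hv1, hv2, hv3⟩ ⟨r, rfl⟩
    rcases r with _ | ⟨a, r⟩
    · simp
    · exfalso
      apply hv3 u.length hu1 (by simp)
      simpa using hu2

/-- locality of walls -/
structure Loc (Wo : List α → Prop) (n : ℕ) : Prop where
  loc : ∀ P Q : List α, n ≤ Q.length → (Wo (P ++ Q) ↔ Wo Q)

theorem Loc.move {Wo : List α → Prop} {n : ℕ} (h : Loc Wo n) (P P' Q : List α)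
    (hQ : n ≤ Q.length) : Wo (P ++ Q) ↔ Wo (P' ++ Q) :=
  (h.loc P Q hQ).trans (h.loc P' Q hQ).symm

/-- moving the left end: walls of `P' ++ Q` and of `P ++ Q` -/
theorem Loc.take {Wo : List α → Prop} {n : ℕ} (h : Loc Wo n) (P P' Q : List α) (i : ℕ)
    (hi : P'.length + n ≤ i) (hi' : i ≤ P'.length + Q.length) :
    Wo ((P' ++ Q).take i) ↔ Wo ((P ++ Q).take (P.length + (i - P'.length))) := by
  have e1 : (P' ++ Q).take i = P' ++ Q.take (i - P'.length) := by
    rw [List.take_append, List.take_of_length_le (by omega)]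
  have e2 : (P ++ Q).take (P.length + (i - P'.length)) = P ++ Q.take (i - P'.length) := by
    rw [List.take_append, List.take_of_length_le (by omega)]
    congr 2; omega
  rw [e1, e2]
  exact h.move _ _ _ (by rw [List.length_take]; omega)

section one

variable {S V : Type} [AddCommGroup V] (φ : List α → S) (act : V → S → V)
  (Wo : List α → Prop) (z p0 N1 : ℕ) (BT : ℕ → Prop) (nu1 nu2 : List α → V)

/-- zone map -/
def T (X : List α) (v : V) : V :=
  act (act v (φ (X.take p0)) + nu2 (X.take p0)) (φ (X.drop p0)) + nu1 (X.drop p0)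

/-- a wall in the band `[z - N1, z + N1)` -/
def EB (X : List α) : Prop := ∃ t, z ≤ t + N1 ∧ t < z + N1 ∧ t ≤ X.length ∧ Wo (X.take t)

def Bad : Language α := {X | X ∈ XX Wo z ∧ (EB Wo z N1 X ∨ BT (X.length - p0))}

variable (lam1 rho1 : List α → Option V)

def L1 (v : V) : Language α :=
  {P | p0 ≤ P.length ∧ lam1 (P.drop p0) = some (act v (φ (P.take p0)) + nu2 (P.take p0))}

/-- **C1** -/
theorem C1 {n La : ℕ} (hloc : Loc Wo n) (hz : p0 + N1 + n + La < z)
    (hlam : ∀ P v, lam1 P = some v → P.length < N1)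
    (hs1 : ∀ P Q v b, lam1 P = some v → rho1 Q = some b → b = act v (φ (P ++ Q)) + nu1 (P ++ Q))
    (hc1 : ∀ X : List α, La ≤ X.length → ¬ BT X.length → ∀ v, ∃ P Q, P ++ Q = X ∧
      lam1 P = some v ∧ (rho1 Q).isSome) :
    ∀ u ∈ XX Wo z, u ∉ Bad Wo z p0 N1 BT → ∀ x, ∀ t ∈ (XX Wo z) ^ 0, ∃ p q y, u ++ t = p ++ q ∧
      p ∈ L1 φ act p0 nu2 lam1 x ∧
      q ∈ Rsem (XX Wo z) (XX Wo z) (T φ act p0 nu1 nu2) 0 (L1 φ act p0 nu2 lam1) y := by
  intro u hu hub x t ht
  have ht' : t = [] := by simpa using ht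
  subst ht'
  obtain ⟨hu1, hu2, hu3⟩ := hu
  have hnb : ¬ EB Wo z N1 u ∧ ¬ BT (u.length - p0) := by
    constructor
    · intro h; exact hub ⟨⟨hu1, hu2, hu3⟩, Or.inl h⟩
    · intro h; exact hub ⟨⟨hu1, hu2, hu3⟩, Or.inr h⟩
  obtain ⟨hE, hB⟩ := hnb
  obtain ⟨P, Q, hPQ, hP, hQ⟩ := hc1 (u.drop p0) (by rw [List.length_drop]; omega)
    (by rwa [List.length_drop]) (act x (φ (u.take p0)) + nu2 (u.take p0))
  obtain ⟨b, hb⟩ := Option.isSome_iff_exists.1 hQ
  have hPl := hlam P _ hP
  have hul : u.length = p0 + P.length + Q.length := by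
    have h := congrArg List.length hPQ
    rw [List.length_append, List.length_drop] at h
    omega
  have htake : (u.take p0).length = p0 := by rw [List.length_take]; omega
  have hu' : u.take p0 ++ P ++ Q = u := by
    rw [List.append_assoc, hPQ, List.take_append_drop]
  -- the end wall is far from the threshold
  have hend : z + N1 ≤ u.length := by
    by_contra hcon
    exact hE ⟨u.length, by omega, by omega, le_rfl, by rw [List.take_length]; exact hu2⟩
  refine ⟨u.take p0 ++ P, Q, b, by simp [hu'], ⟨by rw [List.length_append, htake]; omega, ?_⟩, ?_⟩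
  · rw [List.drop_append_of_le_length (by omega), List.take_append_of_le_length (by omega)]
    rw [List.drop_of_length_le (by omega : (u.take p0).length ≤ p0), List.nil_append,
      List.take_take, Nat.min_self]
    exact hP
  · intro x' p' hp'
    obtain ⟨hp1, hp2⟩ := hp'
    left
    have hp3 := hlam _ _ hp2
    rw [List.length_drop] at hp3
    refine ⟨b, Language.mem_mul.2 ⟨p' ++ Q, ⟨⟨?_, ?_, ?_⟩, ?_⟩, [], ⟨rfl, rfl⟩, by simp⟩⟩
    · rw [List.length_append]; omega
    · have h := hloc.move p' (u.take p0 ++ P) Q (by omega)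
      rw [h, hu']
      exact hu2
    · intro i hi1 hi2 hw
      rw [List.length_append] at hi2
      have h := (hloc.take (u.take p0 ++ P) p' Q i (by omega) (by omega)).1 hw
      rw [hu', List.length_append, htake] at h
      by_cases hc : z ≤ p0 + P.length + (i - p'.length)
      · exact hu3 _ hc (by omega) h
      · exact hE ⟨_, by omega, by omega, by omega, h⟩
    · have e1 : (p' ++ Q).take p0 = p'.take p0 := List.take_append_of_le_length hp1
      have e2 : (p' ++ Q).drop p0 = p'.drop p0 ++ Q := List.drop_append_of_le_length hp1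
      unfold T
      rw [e1, e2]
      exact (hs1 _ _ _ _ hp2 hb).symm

end one

/-- **Spoil count**: among more than `1 + 2 C0` indices one is not spoiled -/
theorem unspoiled (K N1 C0 z p0 Lam : ℕ) (c : ℕ → ℕ) (BT : ℕ → Prop) (Wd : ℕ → Prop)
    (hc : ∀ k < K, c k ≤ Lam)
    (hG : ∀ a b a' b', a < K → b < K → a' < K → b' < K → a ≠ b → a' ≠ b' →
      |((c a : ℤ) - c b) - ((c a' : ℤ) - c b')| ≤ 2 * N1 → a = a')
    (hB : ∀ T, (∀ a < K, c a ≤ T) → ∀ F : Finset (ℕ × ℕ), (∀ ab ∈ F, ab.1 < K ∧ ab.2 < K ∧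
      ab.1 ≠ ab.2 ∧ BT (T + c ab.2 - c ab.1)) → F.card ≤ C0)
    (hgap : ∀ s t, Wd s → Wd t → s < t → 2 * (N1 + Lam) < t - s)
    (hz : p0 + 2 * Lam + N1 < z)
    (I : Finset ℕ) (hI : ∀ k ∈ I, k < K) (hcard : 1 + 2 * C0 < I.card) :
    ∃ k ∈ I, ∀ k' < K, k' ≠ k →
      (∀ j, Wd j → ¬ (z + c k ≤ j + c k' + N1 ∧ j + c k' < z + c k + N1)) ∧
      (∀ j, Wd j → z + c k ≤ j + c k' → (∀ j' < j, z + c k ≤ j' + c k' → ¬ Wd j') →
        ¬ BT (j + c k' - c k - p0)) := by
  classical
  by_contra hcon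
  push Not at hcon
  let E := I.filter (fun k => ∃ k' < K, k' ≠ k ∧ ∃ j, Wd j ∧ z + c k ≤ j + c k' + N1 ∧
    j + c k' < z + c k + N1)
  let B0 := I.filter (fun k => ∃ k' < K, k' ≠ k ∧ ∃ j, Wd j ∧ j < z + Lam ∧
    z + c k ≤ j + c k' ∧ BT (j + c k' - c k - p0))
  let B1 := I.filter (fun k => ∃ k' < K, k' ≠ k ∧ ∃ j, Wd j ∧ z + Lam ≤ j ∧
    (∀ j' < j, z + c k ≤ j' + c k' → ¬ Wd j') ∧ BT (j + c k' - c k - p0))
  have near : ∀ j1 j2, Wd j1 → Wd j2 → z ≤ j1 + N1 + Lam → j1 < z + N1 + Lam →
      z ≤ j2 + N1 + Lam → j2 < z + N1 + Lam → j1 = j2 := by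
    intro j1 j2 h1 h2 a1 a2 a3 a4
    rcases lt_trichotomy j1 j2 with h | h | h
    · have := hgap _ _ h1 h2 h; omega
    · exact h
    · have := hgap _ _ h2 h1 h; omega
  have hE : E.card ≤ 1 := by
    rw [Finset.card_le_one]
    intro k1 h1 k2 h2
    obtain ⟨hk1, k1', hk1', hn1, j1, hw1, a1, b1⟩ := Finset.mem_filter.1 h1
    obtain ⟨hk2, k2', hk2', hn2, j2, hw2, a2, b2⟩ := Finset.mem_filter.1 h2
    have c1 := hc k1 (hI _ hk1)
    have c1' := hc k1' hk1'
    have c2 := hc k2 (hI _ hk2)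
    have c2' := hc k2' hk2'
    have hj := near j1 j2 hw1 hw2 (by omega) (by omega) (by omega) (by omega)
    subst hj
    refine hG k1 k1' k2 k2' (hI _ hk1) hk1' (hI _ hk2) hk2' hn1.symm hn2.symm ?_
    rw [abs_le]
    constructor <;> omega
  have hB0 : B0.card ≤ C0 := by
    rcases B0.eq_empty_or_nonempty with h0 | ⟨k0, hk0⟩
    · rw [h0]; simp
    obtain ⟨hk0I, k0', hk0', hn0, j0, hw0, a0, b0, -⟩ := Finset.mem_filter.1 hk0
    have c0 := hc k0 (hI _ hk0I)
    have c0' := hc k0' hk0'
    have key : ∀ k ∈ B0, ∃ k', k' < K ∧ k' ≠ k ∧ BT ((j0 - p0) + c k' - c k) := by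
      intro k hk
      obtain ⟨hkI, k', hk', hn, j, hw, a, b, hb⟩ := Finset.mem_filter.1 hk
      have c1 := hc k (hI _ hkI)
      have c1' := hc k' hk'
      have hj := near j j0 hw hw0 (by omega) (by omega) (by omega) (by omega)
      subst hj
      refine ⟨k', hk', hn, ?_⟩
      have e : j + c k' - c k - p0 = j - p0 + c k' - c k := by omega
      rwa [e] at hb
    choose! g hg using key
    have h := hB (j0 - p0) (by intro a ha; have := hc a ha; omega)
      (B0.image fun k => (k, g k)) (by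
        intro ab hab
        obtain ⟨k, hk, rfl⟩ := Finset.mem_image.1 hab
        obtain ⟨g1, g2, g3⟩ := hg k hk
        exact ⟨hI _ (Finset.mem_filter.1 hk).1, g1, g2.symm, g3⟩)
    rwa [Finset.card_image_of_injective _ (fun a b hab => (Prod.mk.inj hab).1)] at h
  have hB1 : B1.card ≤ C0 := by
    rcases B1.eq_empty_or_nonempty with h0 | ⟨k0, hk0⟩
    · rw [h0]; simp
    obtain ⟨hk0I, k0', hk0', hn0, j0, hw0, a0, b0, -⟩ := Finset.mem_filter.1 hk0
    have c0 := hc k0 (hI _ hk0I)
    have c0' := hc k0' hk0'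
    have key : ∀ k ∈ B1, ∃ k', k' < K ∧ k' ≠ k ∧ BT ((j0 - p0) + c k' - c k) := by
      intro k hk
      obtain ⟨hkI, k', hk', hn, j, hw, a, b, hb⟩ := Finset.mem_filter.1 hk
      have c1 := hc k (hI _ hkI)
      have c1' := hc k' hk'
      have hj : j = j0 := by
        rcases lt_trichotomy j j0 with h | h | h
        · exact absurd hw (b0 j h (by omega))
        · exact h
        · exact absurd hw0 (b j0 h (by omega))
      subst hj
      refine ⟨k', hk', hn, ?_⟩
      have e : j + c k' - c k - p0 = j - p0 + c k' - c k := by omega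
      rwa [e] at hb
    choose! g hg using key
    have h := hB (j0 - p0) (by intro a ha; have := hc a ha; omega)
      (B1.image fun k => (k, g k)) (by
        intro ab hab
        obtain ⟨k, hk, rfl⟩ := Finset.mem_image.1 hab
        obtain ⟨g1, g2, g3⟩ := hg k hk
        exact ⟨hI _ (Finset.mem_filter.1 hk).1, g1, g2.symm, g3⟩)
    rwa [Finset.card_image_of_injective _ (fun a b hab => (Prod.mk.inj hab).1)] at h
  have hsub : I ⊆ E ∪ (B0 ∪ B1) := by
    intro k hk
    obtain ⟨k', hk', hn, hh⟩ := hcon k hk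
    by_cases h1 : ∀ j, Wd j → ¬ (z + c k ≤ j + c k' + N1 ∧ j + c k' < z + c k + N1)
    · obtain ⟨j, hw, a, b, hb⟩ := hh (fun j hj => by
        have := h1 j hj
        omega)
      by_cases h2 : j < z + Lam
      · exact Finset.mem_union_right _ (Finset.mem_union_left _
          (Finset.mem_filter.2 ⟨hk, k', hk', hn, j, hw, h2, a, hb⟩))
      · exact Finset.mem_union_right _ (Finset.mem_union_right _
          (Finset.mem_filter.2 ⟨hk, k', hk', hn, j, hw, by omega, b, hb⟩))
    · push Not at h1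
      obtain ⟨j, hw, a, b⟩ := h1
      exact Finset.mem_union_left _ (Finset.mem_filter.2 ⟨hk, k', hk', hn, j, hw, a, b⟩)
  have h1 := Finset.card_le_card hsub
  have h2 := Finset.card_union_le E (B0 ∪ B1)
  have h3 := Finset.card_union_le B0 B1
  omega

section two

variable {S V : Type} [AddCommGroup V] (φ : List α → S) (act : V → S → V)
  (Wo : List α → Prop) (z p0 N1 : ℕ) (BT : ℕ → Prop) (nu1 nu2 : List α → V)

def L2 (K : ℕ) (c : ℕ → ℕ) (lam2 : ℕ → List α → Option V) (v : V) : Language α :=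
  {P | ∃ k < K, P.length = c k ∧ lam2 k P = some v}

/-- **C2** -/
theorem C2 {n K C0 R Lam : ℕ} (c : ℕ → ℕ) (lam2 rho2 : ℕ → List α → Option V)
    (hloc : Loc Wo n) (hz : p0 + 2 * Lam + N1 + n + 1 < z)
    (hgap : ∀ (X : List α) s t, s < t → t ≤ X.length → Wo (X.take s) → Wo (X.take t) →
      2 * (N1 + Lam) < t - s)
    (hc : ∀ k < K, c k ≤ Lam) (hcp : ∀ k < K, c k ≤ p0)
    (hG : ∀ a b a' b', a < K → b < K → a' < K → b' < K → a ≠ b → a' ≠ b' →
      |((c a : ℤ) - c b) - ((c a' : ℤ) - c b')| ≤ 2 * N1 → a = a')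
    (hB : ∀ T, (∀ a < K, c a ≤ T) → ∀ F : Finset (ℕ × ℕ), (∀ ab ∈ F, ab.1 < K ∧ ab.2 < K ∧
      ab.1 ≠ ab.2 ∧ BT (T + c ab.2 - c ab.1)) → F.card ≤ C0)
    (hR : 1 + 2 * C0 < R)
    (hs2 : ∀ k < K, ∀ (P Q : List α) (v b : V), P.length = c k → lam2 k P = some v →
      rho2 k Q = some b → b = act v (φ (P ++ Q)) + nu2 (P ++ Q))
    (hc2 : ∀ (u : List α) (v : V), u.length = p0 → ∃ I : Finset ℕ, R ≤ I.card ∧ ∀ k ∈ I, k < K ∧
      lam2 k (u.take (c k)) = some v ∧ (rho2 k (u.drop (c k))).isSome) :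
    ∀ u ∈ Bad Wo z p0 N1 BT, ∀ x, ∀ t ∈ (Bad Wo z p0 N1 BT) ^ 1, ∃ p q y, u ++ t = p ++ q ∧
      p ∈ L2 K c lam2 x ∧
      q ∈ Rsem (XX Wo z) (Bad Wo z p0 N1 BT) (T φ act p0 nu1 nu2) 1 (L2 K c lam2) y := by
  intro u hu x t ht
  rw [pow_one] at ht
  obtain ⟨⟨hu1, hu2, hu3⟩, huB⟩ := id hu
  obtain ⟨⟨ht1, ht2, ht3⟩, htB⟩ := id ht
  have hup : (u.take p0).length = p0 := by rw [List.length_take]; omega
  obtain ⟨I, hI, hIk⟩ := hc2 (u.take p0) x hup
  -- walls of `u ++ t`
  let Wd : ℕ → Prop := fun j => j ≤ (u ++ t).length ∧ Wo ((u ++ t).take j)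
  obtain ⟨k, hkI, hk⟩ := unspoiled K N1 C0 z p0 Lam c BT Wd hc hG hB
    (fun s r hs hr hsr => hgap (u ++ t) s r hsr hr.1 hs.2 hr.2) (by omega) I
    (fun k hk => (hIk k hk).1) (by omega)
  obtain ⟨hkK, hkl, hkr⟩ := hIk k hkI
  obtain ⟨b, hb⟩ := Option.isSome_iff_exists.1 hkr
  have hck := hc k hkK
  have hckp := hcp k hkK
  have hpl : (u.take (c k)).length = c k := by rw [List.length_take]; omega
  have hsplit : u.take (c k) ++ (u.drop (c k) ++ t) = u ++ t := by
    rw [← List.append_assoc, List.take_append_drop]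
  have hql : (u.drop (c k) ++ t).length = (u ++ t).length - c k := by
    rw [List.length_append, List.length_drop, List.length_append]; omega
  refine ⟨u.take (c k), u.drop (c k) ++ t, T φ act p0 nu1 nu2 t (T φ act p0 nu1 nu2 u x),
    hsplit.symm, ⟨k, hkK, hpl, ?_⟩, ?_⟩
  · rw [List.take_take, Nat.min_eq_left hckp] at hkl
    exact hkl
  intro x' p' hp'
  obtain ⟨k', hk'K, hp'l, hp'v⟩ := hp'
  have hck' := hc k' hk'K
  have hckp' := hcp k' hk'K
  by_cases hkk : k' = k
  · -- the true place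
    subst hkk
    left
    have hul : (p' ++ u.drop (c k')).length = u.length := by
      rw [List.length_append, List.length_drop]; omega
    have huu : u.take (c k') ++ u.drop (c k') = u := List.take_append_drop _ _
    have hW : ∀ i, p0 + n ≤ i → i ≤ u.length →
        (Wo ((p' ++ u.drop (c k')).take i) ↔ Wo (u.take i)) := by
      intro i hi1 hi2
      have h := hloc.take (u.take (c k')) p' (u.drop (c k')) i (by omega)
        (by rw [List.length_drop]; omega)
      rw [h, huu, hpl]
      have e : c k' + (i - p'.length) = i := by omega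
      rw [e]
    have hX : p' ++ u.drop (c k') ∈ XX Wo z := by
      refine ⟨by omega, ?_, ?_⟩
      · have h := (hW u.length (by omega) le_rfl)
        rw [List.take_length, ← hul, List.take_length] at h
        exact h.2 hu2
      · intro i hi1 hi2 hw
        exact hu3 i hi1 (by omega) ((hW i (by omega) (by omega)).1 hw)
    have hXB : p' ++ u.drop (c k') ∈ Bad Wo z p0 N1 BT := by
      refine ⟨hX, ?_⟩
      rcases huB with ⟨i, h1, h2, h3, h4⟩ | h
      · left
        exact ⟨i, h1, h2, by omega, (hW i (by omega) h3).2 h4⟩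
      · right
        rw [hul]; exact h
    have hT : T φ act p0 nu1 nu2 (p' ++ u.drop (c k')) x' = T φ act p0 nu1 nu2 u x := by
      have hkl' : lam2 k' (u.take (c k')) = some x := by
        rw [List.take_take, Nat.min_eq_left hckp] at hkl
        exact hkl
      have e1 : (p' ++ u.drop (c k')).take p0 = p' ++ (u.take p0).drop (c k') := by
        rw [List.take_append, List.take_of_length_le (by omega), List.drop_take]
        rw [hp'l]
      have e2 : (p' ++ u.drop (c k')).drop p0 = u.drop p0 := by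
        rw [List.drop_append, List.drop_of_length_le (by omega), List.nil_append, List.drop_drop]
        congr 1; omega
      have e3 : u.take (c k') ++ (u.take p0).drop (c k') = u.take p0 := by
        have h := List.take_append_drop (c k') (u.take p0)
        rw [List.take_take, Nat.min_eq_left hckp] at h
        exact h
      have s1 := hs2 k' hkK p' ((u.take p0).drop (c k')) x' b hp'l hp'v hb
      have s2 := hs2 k' hkK (u.take (c k')) ((u.take p0).drop (c k')) x b hpl hkl' hb
      rw [e3] at s2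
      unfold T
      rw [e1, e2, ← s1, ← s2]
    have hw : p' ++ (u.drop (c k') ++ t) = (p' ++ u.drop (c k')) ++ t := by simp
    change p' ++ (u.drop (c k') ++ t) ∈ Exactly _ _ 2 x' _
    rw [hw]
    refine ⟨_, Language.mem_mul.2 ⟨p' ++ u.drop (c k'), ⟨hXB, rfl⟩, t,
      ⟨_, Language.mem_mul.2 ⟨t, ⟨ht, rfl⟩, [], ⟨rfl, ?_⟩, by simp⟩⟩, rfl⟩⟩
    rw [hT]
  · -- another place: the first block is not bad
    right
    left
    classical
    set Q := u.drop (c k) ++ t with hQ
    have hQl : Q.length = u.length + t.length - c k := by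
      rw [hql, List.length_append]
    have hW : ∀ i, p0 + n ≤ i → i ≤ (p' ++ Q).length →
        (Wo ((p' ++ Q).take i) ↔ Wo ((u ++ t).take (c k + (i - c k')))) := by
      intro i hi1 hi2
      rw [List.length_append] at hi2
      have h := hloc.take (u.take (c k)) p' Q i (by omega) hi2
      rw [hsplit, hpl, hp'l] at h
      exact h
    have hwl : (p' ++ Q).length = c k' + (u.length + t.length - c k) := by
      rw [List.length_append, hQl, hp'l]
    have hex : ∃ i, z ≤ i ∧ i ≤ (p' ++ Q).length ∧ Wo ((p' ++ Q).take i) := by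
      refine ⟨(p' ++ Q).length, by omega, le_rfl, ?_⟩
      rw [hW _ (by omega) le_rfl, hwl]
      have e : c k + (c k' + (u.length + t.length - c k) - c k') = (u ++ t).length := by
        rw [List.length_append]; omega
      rw [e, List.take_length]
      exact (hloc.loc u t (by omega)).2 ht2
    obtain ⟨hi1, hi2, hi3⟩ := Nat.find_spec hex
    have hmin : ∀ j < Nat.find hex, ¬ (z ≤ j ∧ j ≤ (p' ++ Q).length ∧ Wo ((p' ++ Q).take j)) :=
      fun j hj => Nat.find_min hex hj
    set i := Nat.find hex with hidef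
    have hil : ((p' ++ Q).take i).length = i := by rw [List.length_take]; omega
    have hX1 : (p' ++ Q).take i ∈ XX Wo z := by
      refine ⟨by omega, hi3, ?_⟩
      intro j hj1 hj2 hw
      rw [hil] at hj2
      rw [List.take_take, Nat.min_eq_left (by omega)] at hw
      exact hmin j hj2 ⟨hj1, by omega, hw⟩
    refine ⟨(p' ++ Q).take i, hX1, ?_, List.take_prefix _ _⟩
    rintro ⟨-, hEB | hBT⟩
    · obtain ⟨j, h1, h2, h3, h4⟩ := hEB
      rw [hil] at h3
      rw [List.take_take, Nat.min_eq_left h3] at h4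
      have h5 := (hW j (by omega) (by omega)).1 h4
      exact (hk k' hk'K hkk).1 (c k + (j - c k')) ⟨by rw [List.length_append]; omega, h5⟩
        ⟨by omega, by omega⟩
    · rw [hil] at hBT
      have h5 := (hW i (by omega) hi2).1 hi3
      refine (hk k' hk'K hkk).2 (c k + (i - c k')) ⟨by rw [List.length_append]; omega, h5⟩
        (by omega) ?_ ?_
      · intro j' hj1 hj2 hwj
        have h6 : Wo ((p' ++ Q).take (c k' + (j' - c k))) := by
          rw [hW _ (by omega) (by omega)]
          have e : c k + (c k' + (j' - c k) - c k') = j' := by omega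
          rw [e]; exact hwj.2
        exact hmin (c k' + (j' - c k)) (by omega) ⟨by omega, by omega, h6⟩
      · have e : c k + (i - c k') + c k' - c k - p0 = i - p0 := by omega
        rw [e]; exact hBT

end two

end Crest.Agent.R320.Inst_910
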